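import Mathlib

/-!
# Row 105: a continuous function with a weak derivative in `L¹_loc` is absolutely continuous on
almost every line (helper373)
-/

set_option autoImplicit false

open MeasureTheory Set Filter Topology
open scoped ContDiff

namespace Crest.Agent.R105.Aclw_373

/-- smooth approximation of the indicator of `(a, b]` -/
noncomputable def al (a b : ℝ) (n : ℕ) (s : ℝ) : ℝ :=
  Real.smoothTransition ((n + 1 : ℝ) * (s - a)) - Real.smoothTransition ((n + 1 : ℝ) * (s - b))

theorem al_smooth (a b : ℝ) (n : ℕ) : ContDiff ℝ ∞ (al a b n) := by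
  unfold al
  exact (Real.smoothTransition.contDiff.comp (contDiff_const.mul (contDiff_id.sub contDiff_const))).sub
    (Real.smoothTransition.contDiff.comp (contDiff_const.mul (contDiff_id.sub contDiff_const)))

theorem al_eq_zero {a b : ℝ} {n : ℕ} {s : ℝ} (hab : a ≤ b) (hs : s ≤ a ∨ b + 1 ≤ s) :
    al a b n s = 0 := by
  have hn : (0 : ℝ) < n + 1 := by positivity
  have hn1 : (1 : ℝ) ≤ n + 1 := by have : (0:ℝ) ≤ n := n.cast_nonneg; linarith
  unfold al
  rcases hs with hs | hs
  · rw [Real.smoothTransition.zero_of_nonpos, Real.smoothTransition.zero_of_nonpos, sub_zero]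
    · exact mul_nonpos_of_nonneg_of_nonpos hn.le (by linarith)
    · exact mul_nonpos_of_nonneg_of_nonpos hn.le (by linarith)
  · rw [Real.smoothTransition.one_of_one_le, Real.smoothTransition.one_of_one_le, sub_self]
    · nlinarith
    · nlinarith

theorem al_cpt {a b : ℝ} (n : ℕ) (hab : a ≤ b) : HasCompactSupport (al a b n) := by
  refine HasCompactSupport.intro (isCompact_Icc (a := a) (b := b + 1)) fun s hs => ?_
  apply al_eq_zero hab
  rw [mem_Icc, not_and_or, not_le, not_le] at hs
  rcases hs with hs | hs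
  · exact Or.inl hs.le
  · exact Or.inr hs.le

theorem abs_al_le (a b : ℝ) (n : ℕ) (s : ℝ) : |al a b n s| ≤ 1 := by
  unfold al
  have h1 := Real.smoothTransition.nonneg ((n + 1 : ℝ) * (s - a))
  have h2 := Real.smoothTransition.le_one ((n + 1 : ℝ) * (s - a))
  have h3 := Real.smoothTransition.nonneg ((n + 1 : ℝ) * (s - b))
  have h4 := Real.smoothTransition.le_one ((n + 1 : ℝ) * (s - b))
  rw [abs_le]; constructor <;> linarith

theorem st_tendsto {a s : ℝ} (h : a < s) :
    Tendsto (fun n : ℕ => Real.smoothTransition ((n + 1 : ℝ) * (s - a))) atTop (𝓝 1) := by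
  have h1 : Tendsto (fun n : ℕ => ((n : ℝ) + 1) * (s - a)) atTop atTop :=
    (tendsto_atTop_add_const_right _ 1 tendsto_natCast_atTop_atTop).atTop_mul_const (by linarith)
  refine tendsto_const_nhds.congr' ?_
  filter_upwards [h1.eventually_ge_atTop 1] with n hn
  exact (Real.smoothTransition.one_of_one_le hn).symm

theorem al_tendsto {a b : ℝ} (hab : a ≤ b) (s : ℝ) :
    Tendsto (fun n : ℕ => al a b n s) atTop (𝓝 ((Ioc a b).indicator 1 s)) := by
  have hn : ∀ n : ℕ, (0 : ℝ) < n + 1 := fun n => by positivity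
  unfold al
  by_cases h1 : a < s
  · by_cases h2 : s ≤ b
    · rw [indicator_of_mem (show s ∈ Ioc a b from ⟨h1, h2⟩)]
      have := (st_tendsto h1).sub (tendsto_const_nhds (x := (0 : ℝ)) (f := (atTop : Filter ℕ)))
      rw [sub_zero] at this
      refine this.congr fun n => ?_
      rw [Real.smoothTransition.zero_of_nonpos (x := (n + 1 : ℝ) * (s - b))
        (mul_nonpos_of_nonneg_of_nonpos (hn n).le (by linarith))]
    · rw [indicator_of_notMem (fun h => h2 h.2)]
      have := (st_tendsto h1).sub (st_tendsto (not_le.1 h2))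
      rwa [sub_self] at this
  · rw [indicator_of_notMem (fun h => h1 h.1)]
    refine tendsto_const_nhds.congr fun n => ?_
    rw [Real.smoothTransition.zero_of_nonpos (x := (n + 1 : ℝ) * (s - a))
      (mul_nonpos_of_nonneg_of_nonpos (hn n).le (by linarith)),
      Real.smoothTransition.zero_of_nonpos (x := (n + 1 : ℝ) * (s - b))
      (mul_nonpos_of_nonneg_of_nonpos (hn n).le (by linarith)), sub_self]

/-- derivative of the transition -/
noncomputable def S' (t : ℝ) : ℝ := deriv Real.smoothTransition t

theorem S'_cont : Continuous S' :=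
  (Real.smoothTransition.contDiff (n := 1)).continuous_deriv le_rfl

theorem S'_zero {t : ℝ} (h : t ∉ Icc (0:ℝ) 1) : S' t = 0 := by
  rw [mem_Icc, not_and_or, not_le, not_le] at h
  unfold S'
  rcases h with h | h
  · have : Real.smoothTransition =ᶠ[𝓝 t] fun _ => 0 := by
      filter_upwards [Iio_mem_nhds h] with s hs
      exact Real.smoothTransition.zero_of_nonpos (le_of_lt hs)
    rw [this.deriv_eq]; simp
  · have : Real.smoothTransition =ᶠ[𝓝 t] fun _ => 1 := by
      filter_upwards [Ioi_mem_nhds h] with s hs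
      exact Real.smoothTransition.one_of_one_le (le_of_lt hs)
    rw [this.deriv_eq]; simp

theorem hasDerivAt_st (t : ℝ) : HasDerivAt Real.smoothTransition (S' t) t :=
  ((Real.smoothTransition.contDiff (n := 1)).differentiable (by simp) t).hasDerivAt

theorem S'_int : ∫ t in (0:ℝ)..1, S' t = 1 := by
  rw [intervalIntegral.integral_eq_sub_of_hasDerivAt (fun t _ => hasDerivAt_st t)
    (S'_cont.intervalIntegrable _ _)]
  rw [Real.smoothTransition.one_of_one_le le_rfl, Real.smoothTransition.zero_of_nonpos le_rfl,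
    sub_zero]

theorem hasDerivAt_al (a b : ℝ) (n : ℕ) (s : ℝ) :
    HasDerivAt (al a b n) ((n + 1 : ℝ) * S' ((n + 1 : ℝ) * (s - a))
      - (n + 1 : ℝ) * S' ((n + 1 : ℝ) * (s - b))) s := by
  have h : ∀ c : ℝ, HasDerivAt (fun s : ℝ => Real.smoothTransition ((n + 1 : ℝ) * (s - c)))
      ((n + 1 : ℝ) * S' ((n + 1 : ℝ) * (s - c))) s := by
    intro c
    have h1 : HasDerivAt (fun s : ℝ => (n + 1 : ℝ) * (s - c)) ((n + 1 : ℝ) * 1) s :=
      ((hasDerivAt_id s).sub_const c).const_mul _
    have := (hasDerivAt_st ((n + 1 : ℝ) * (s - c))).comp s h1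
    rw [mul_one, mul_comm] at this
    exact this
  exact (h a).sub (h b)

/-- `∫ F(s) n S'(n(s-a)) ds → F(a)` -/
theorem int_tendsto {F : ℝ → ℝ} (hF : Continuous F) (a : ℝ) :
    Tendsto (fun n : ℕ => ∫ s, F s * ((n + 1 : ℝ) * S' ((n + 1 : ℝ) * (s - a)))) atTop
      (𝓝 (F a)) := by
  have key : ∀ n : ℕ, ∫ s, F s * ((n + 1 : ℝ) * S' ((n + 1 : ℝ) * (s - a)))
      = ∫ t in (0:ℝ)..1, F (a + t / (n + 1)) * S' t := by
    intro n
    have hn : (0 : ℝ) < n + 1 := by positivity
    have h1 : ∫ s, F s * ((n + 1 : ℝ) * S' ((n + 1 : ℝ) * (s - a)))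
        = ∫ s, (fun t => (n + 1 : ℝ) * (F (a + t / (n + 1)) * S' t)) ((n + 1 : ℝ) * (s - a)) := by
      refine integral_congr_ae (Eventually.of_forall fun s => ?_)
      simp only []
      have : a + (n + 1 : ℝ) * (s - a) / (n + 1) = s := by field_simp; ring
      rw [this]; ring
    rw [h1]
    have h2 : ∫ s, (fun t => (n + 1 : ℝ) * (F (a + t / (n + 1)) * S' t)) ((n + 1 : ℝ) * (s - a))
        = ∫ s, (fun t => (n + 1 : ℝ) * (F (a + t / (n + 1)) * S' t)) ((n + 1 : ℝ) * s) :=
      integral_sub_right_eq_self (fun s => (fun t => (n + 1 : ℝ) * (F (a + t / (n + 1)) * S' t))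
        ((n + 1 : ℝ) * s)) a
    rw [h2, Measure.integral_comp_mul_left
      (fun t => (n + 1 : ℝ) * (F (a + t / (n + 1)) * S' t)) (n + 1 : ℝ)]
    rw [abs_of_pos (by positivity), smul_eq_mul, integral_const_mul, ← mul_assoc,
      inv_mul_cancel₀ hn.ne', one_mul]
    rw [intervalIntegral.integral_of_le zero_le_one, ← integral_Icc_eq_integral_Ioc]
    refine (setIntegral_eq_integral_of_forall_compl_eq_zero fun t ht => ?_).symm
    rw [S'_zero ht, mul_zero]
  simp only [key]
  have h3 : F a = ∫ t in (0:ℝ)..1, F a * S' t := by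
    rw [intervalIntegral.integral_const_mul, S'_int, mul_one]
  rw [h3]
  -- dominated convergence
  have hK : IsCompact (Icc a (a + 1)) := isCompact_Icc
  obtain ⟨M, hM⟩ := hK.exists_bound_of_continuousOn hF.continuousOn
  refine intervalIntegral.tendsto_integral_filter_of_dominated_convergence
    (fun t => M * |S' t|) ?_ ?_ ?_ ?_
  · refine Eventually.of_forall fun n => ?_
    exact ((hF.comp (by fun_prop)).mul S'_cont).aestronglyMeasurable
  · refine Eventually.of_forall fun n => Eventually.of_forall fun t ht => ?_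
    rw [uIoc_of_le zero_le_one] at ht
    rw [norm_mul, Real.norm_eq_abs (S' t)]
    refine mul_le_mul_of_nonneg_right (hM _ ?_) (abs_nonneg _)
    have hn : (0 : ℝ) < n + 1 := by positivity
    have hn1 : (1 : ℝ) ≤ n + 1 := by have : (0:ℝ) ≤ n := n.cast_nonneg; linarith
    have h5 : 0 ≤ t / (n + 1) := div_nonneg ht.1.le hn.le
    have h6 : t / (n + 1) ≤ 1 := by rw [div_le_one hn]; linarith [ht.2]
    exact ⟨by linarith, by linarith⟩
  · exact (continuous_const.mul S'_cont.abs).intervalIntegrable _ _
  · refine Eventually.of_forall fun t _ => ?_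
    refine Tendsto.mul_const _ ?_
    have h7 : Tendsto (fun n : ℕ => a + t / ((n : ℝ) + 1)) atTop (𝓝 (a + 0)) :=
      tendsto_const_nhds.add (tendsto_const_nhds.div_atTop
        (tendsto_atTop_add_const_right _ 1 tendsto_natCast_atTop_atTop))
    rw [add_zero] at h7
    exact (hF.tendsto a).comp h7

/-- one-dimensional: the weak equation for all `al a b n` gives the difference formula -/
theorem one_dim {F G : ℝ → ℝ} (hF : Continuous F) (hG : LocallyIntegrable G volume) {a b : ℝ}
    (hab : a ≤ b)
    (h : ∀ n : ℕ, ∫ s, (F s * deriv (al a b n) s + G s * al a b n s) = 0) :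
    F b - F a = ∫ s in a..b, G s := by
  have i1 : ∀ (n : ℕ) (c : ℝ), Integrable
      (fun s => F s * ((n + 1 : ℝ) * S' ((n + 1 : ℝ) * (s - c)))) := by
    intro n c
    have hn : (0 : ℝ) < n + 1 := by positivity
    refine Continuous.integrable_of_hasCompactSupport ?_ ?_
    · exact hF.mul (continuous_const.mul (S'_cont.comp (by fun_prop)))
    · refine HasCompactSupport.intro (isCompact_Icc (a := c) (b := c + 1)) fun s hs => ?_
      rw [S'_zero, mul_zero, mul_zero]
      intro h'
      apply hs
      have hn1 : (1 : ℝ) ≤ n + 1 := by have : (0:ℝ) ≤ n := n.cast_nonneg; linarith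
      have h1 := h'.1
      have h2 := h'.2
      constructor
      · by_contra hlt
        push Not at hlt
        have : (n + 1 : ℝ) * (s - c) < 0 := mul_neg_of_pos_of_neg hn (by linarith)
        linarith
      · by_contra hlt
        push Not at hlt
        have : (n + 1 : ℝ) * (s - c) > 1 := by nlinarith
        linarith
  have i2 : ∀ n : ℕ, Integrable (fun s => G s * al a b n s) := by
    intro n
    exact hG.integrable_smul_right_of_hasCompactSupport (al_smooth a b n).continuous (al_cpt n hab)
  have e1 : ∀ n : ℕ, (∫ s, F s * ((n + 1 : ℝ) * S' ((n + 1 : ℝ) * (s - a))))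
      - (∫ s, F s * ((n + 1 : ℝ) * S' ((n + 1 : ℝ) * (s - b))))
      + ∫ s, G s * al a b n s = 0 := by
    intro n
    rw [← integral_sub (i1 n a) (i1 n b)]
    have i3 : Integrable (fun s => F s * ((n + 1 : ℝ) * S' ((n + 1 : ℝ) * (s - a)))
      - F s * ((n + 1 : ℝ) * S' ((n + 1 : ℝ) * (s - b)))) := (i1 n a).sub (i1 n b)
    rw [← integral_add i3 (i2 n), ← h n]
    refine integral_congr_ae (Eventually.of_forall fun s => ?_)
    simp only []
    rw [(hasDerivAt_al a b n s).deriv]; ring
  have t3 : Tendsto (fun n : ℕ => ∫ s, G s * al a b n s) atTop (𝓝 (∫ s in a..b, G s)) := by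
    have e2 : ∫ s in a..b, G s = ∫ s, G s * (Ioc a b).indicator 1 s := by
      rw [intervalIntegral.integral_of_le hab, ← integral_indicator measurableSet_Ioc]
      refine integral_congr_ae (Eventually.of_forall fun s => ?_)
      by_cases hs : s ∈ Ioc a b
      · simp [indicator_of_mem hs]
      · simp [indicator_of_notMem hs]
    rw [e2]
    refine tendsto_integral_of_dominated_convergence
      (fun s => (Icc a (b + 1)).indicator (fun s => |G s|) s) (fun n => (i2 n).aestronglyMeasurable)
      ?_ (fun n => Eventually.of_forall fun s => ?_) (Eventually.of_forall fun s => ?_)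
    · rw [integrable_indicator_iff measurableSet_Icc]
      exact (hG.integrableOn_isCompact isCompact_Icc).abs
    · by_cases hs : s ∈ Icc a (b + 1)
      · rw [indicator_of_mem hs, norm_mul, Real.norm_eq_abs, Real.norm_eq_abs]
        exact mul_le_of_le_one_right (abs_nonneg _) (abs_al_le a b n s)
      · rw [indicator_of_notMem hs]
        rw [al_eq_zero hab, mul_zero, norm_zero]
        rw [mem_Icc, not_and_or, not_le, not_le] at hs
        rcases hs with hs | hs
        · exact Or.inl hs.le
        · exact Or.inr hs.le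
    · exact (al_tendsto hab s).const_mul _
  have t4 := ((int_tendsto hF a).sub (int_tendsto hF b)).add t3
  have t5 : Tendsto (fun n : ℕ => (∫ s, F s * ((n + 1 : ℝ) * S' ((n + 1 : ℝ) * (s - a))))
      - (∫ s, F s * ((n + 1 : ℝ) * S' ((n + 1 : ℝ) * (s - b))))
      + ∫ s, G s * al a b n s) atTop (𝓝 0) := by
    simp only [e1]; exact tendsto_const_nhds
  have := tendsto_nhds_unique t4 t5
  linarith

end Crest.Agent.R105.Aclw_373
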