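import Crest.Agent.R105.Aclw1_373

/-!
# Row 105: ACL on almost every line from the weak equation (helper373)
-/

set_option autoImplicit false

open MeasureTheory Set Filter Topology
open scoped ContDiff

namespace Crest.Agent.R105.Aclw_373

section
variable {f g : ℝ × ℝ → ℝ}

theorem sec_locInt (hg : LocallyIntegrable g volume) :
    ∀ᵐ y : ℝ, LocallyIntegrable (fun s => g (s, y)) volume := by
  have h1 : ∀ n : ℕ, ∀ᵐ y : ℝ, y ∈ Icc (-(n : ℝ)) n →
      IntegrableOn (fun s => g (s, y)) (Icc (-(n : ℝ)) n) := by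
    intro n
    have h2 : IntegrableOn g (Icc (-(n : ℝ)) n ×ˢ Icc (-(n : ℝ)) n) :=
      hg.integrableOn_isCompact (isCompact_Icc.prod isCompact_Icc)
    unfold IntegrableOn at h2
    rw [Measure.volume_eq_prod, ← Measure.prod_restrict] at h2
    have h3 := h2.prod_left_ae
    rwa [ae_restrict_iff' measurableSet_Icc] at h3
  filter_upwards [ae_all_iff.2 h1] with y hy
  rw [locallyIntegrable_iff]
  intro K hK
  obtain ⟨R, hR⟩ := hK.isBounded.subset_closedBall (0 : ℝ)
  obtain ⟨n, hn⟩ := exists_nat_ge (max R |y|)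
  have hy' : y ∈ Icc (-(n : ℝ)) n := by
    rw [mem_Icc, ← abs_le]; exact (le_max_right _ _).trans hn
  refine (hy n hy').mono_set fun s hs => ?_
  have := hR hs
  rw [mem_closedBall_zero_iff, Real.norm_eq_abs] at this
  rw [mem_Icc, ← abs_le]
  exact this.trans ((le_max_left _ _).trans hn)

/-- the integrand -/
noncomputable def Ph (f g : ℝ × ℝ → ℝ) (α : ℝ → ℝ) (p : ℝ × ℝ) : ℝ := f p * deriv α p.1 + g p * α p.1

theorem Ph_intOn (hf : Continuous f) (hg : LocallyIntegrable g volume) {α : ℝ → ℝ}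
    (hα : ContDiff ℝ ∞ α) (hc : HasCompactSupport α) {K : Set ℝ} (hK : IsCompact K) :
    IntegrableOn (Ph f g α) (univ ×ˢ K) := by
  have hT : IsCompact (tsupport α ×ˢ K) := hc.isCompact.prod hK
  have hd : Continuous (deriv α) := hα.continuous_deriv (by simp)
  have h1 : IntegrableOn (Ph f g α) (tsupport α ×ˢ K) := by
    refine IntegrableOn.add ?_ ?_
    · exact ((hf.mul (hd.comp continuous_fst)).continuousOn).integrableOn_compact hT
    · exact (hg.integrableOn_isCompact hT).mul_continuousOn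
        (hα.continuous.comp continuous_fst).continuousOn hT
  refine h1.of_forall_sdiff_eq_zero (MeasurableSet.univ.prod hK.measurableSet) fun p hp => ?_
  have hp1 : p.1 ∉ tsupport α := fun h => hp.2 ⟨h, hp.1.2⟩
  have h2 : α p.1 = 0 := image_eq_zero_of_notMem_tsupport hp1
  have h3 : deriv α p.1 = 0 := by
    have := (notMem_tsupport_iff_eventuallyEq.1 hp1).deriv_eq
    rw [this]; simp
  simp only [Ph, h2, h3, mul_zero, add_zero]

theorem Ph_mul_int (hf : Continuous f) (hg : LocallyIntegrable g volume) {α β : ℝ → ℝ}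
    (hα : ContDiff ℝ ∞ α) (hc : HasCompactSupport α) (hβ : ContDiff ℝ ∞ β)
    (hcβ : HasCompactSupport β) : Integrable (fun p : ℝ × ℝ => β p.2 * Ph f g α p) := by
  have hT : IsCompact (tsupport α ×ˢ tsupport β) := hc.isCompact.prod hcβ.isCompact
  have h1 : IntegrableOn (fun p : ℝ × ℝ => β p.2 * Ph f g α p) (tsupport α ×ˢ tsupport β) :=
    ((Ph_intOn hf hg hα hc hcβ.isCompact).mono_set (prod_mono (subset_univ _) le_rfl)).continuousOn_mul
      (hβ.continuous.comp continuous_snd).continuousOn hT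
  rw [← integrableOn_univ]
  refine h1.of_forall_sdiff_eq_zero MeasurableSet.univ fun p hp => ?_
  by_cases h2 : p.2 ∈ tsupport β
  · have hp1 : p.1 ∉ tsupport α := fun h => hp.2 ⟨h, h2⟩
    have h3 : α p.1 = 0 := image_eq_zero_of_notMem_tsupport hp1
    have h4 : deriv α p.1 = 0 := by
      have := (notMem_tsupport_iff_eventuallyEq.1 hp1).deriv_eq
      rw [this]; simp
    simp only [Ph, h3, h4, mul_zero, add_zero]
  · simp only [image_eq_zero_of_notMem_tsupport h2, zero_mul]

/-- the slices vanish -/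
theorem slice_zero (hf : Continuous f) (hg : LocallyIntegrable g volume) {α : ℝ → ℝ}
    (hα : ContDiff ℝ ∞ α) (hc : HasCompactSupport α)
    (hw : ∀ β : ℝ → ℝ, ContDiff ℝ ∞ β → HasCompactSupport β →
      ∫ p : ℝ × ℝ, β p.2 * (f p * deriv α p.1 + g p * α p.1) = 0) :
    ∀ᵐ y : ℝ, ∫ s, (f (s, y) * deriv α s + g (s, y) * α s) = 0 := by
  refine ae_eq_zero_of_integral_contDiff_smul_eq_zero ?_ ?_
  · rw [locallyIntegrable_iff]
    intro K hK
    have h1 := Ph_intOn hf hg hα hc hK
    unfold IntegrableOn at h1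
    rw [Measure.volume_eq_prod, ← Measure.prod_restrict, Measure.restrict_univ] at h1
    exact h1.integral_prod_right
  · intro β hβ hcβ
    have h1 := Ph_mul_int hf hg hα hc hβ hcβ
    have h2 : ∫ p : ℝ × ℝ, β p.2 * Ph f g α p = 0 := hw β hβ hcβ
    rw [Measure.volume_eq_prod] at h1 h2
    rw [integral_prod_symm _ h1] at h2
    rw [← h2]
    refine integral_congr_ae (Eventually.of_forall fun y => ?_)
    simp only [smul_eq_mul]
    rw [← integral_const_mul]
    rfl

/-- **ACL in the first variable.** -/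
theorem acl_x (hf : Continuous f) (hg : LocallyIntegrable g volume)
    (hw : ∀ α β : ℝ → ℝ, ContDiff ℝ ∞ α → HasCompactSupport α → ContDiff ℝ ∞ β →
      HasCompactSupport β → ∫ p : ℝ × ℝ, β p.2 * (f p * deriv α p.1 + g p * α p.1) = 0) :
    ∀ᵐ y : ℝ, ∀ a b : ℝ, IntervalIntegrable (fun s => g (s, y)) volume a b ∧
      f (b, y) - f (a, y) = ∫ s in a..b, g (s, y) := by
  have h1 : ∀ q : ℚ × ℚ × ℕ, ∀ᵐ y : ℝ, (q.1 : ℝ) ≤ q.2.1 →
      ∫ s, (f (s, y) * deriv (al q.1 q.2.1 q.2.2) s + g (s, y) * al q.1 q.2.1 q.2.2 s) = 0 := by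
    rintro ⟨a, b, n⟩
    by_cases hab : (a : ℝ) ≤ b
    · filter_upwards [slice_zero hf hg (al_smooth a b n) (al_cpt n hab)
        (fun β hβ hcβ => hw _ β (al_smooth a b n) (al_cpt n hab) hβ hcβ)] with y hy _
      exact hy
    · exact Eventually.of_forall fun y h => absurd h hab
  filter_upwards [sec_locInt hg, ae_all_iff.2 h1] with y hG hy
  have hFc : Continuous fun s => f (s, y) := hf.comp (by fun_prop)
  have hI : ∀ a b : ℝ, IntervalIntegrable (fun s => g (s, y)) volume a b :=
    fun a b => (hG.integrableOn_isCompact isCompact_uIcc).intervalIntegrable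
  have hrat : ∀ a b : ℚ, (a : ℝ) ≤ b → f (b, y) - f (a, y) = ∫ s in (a : ℝ)..b, g (s, y) :=
    fun a b hab => one_dim hFc hG hab fun n => hy (a, b, n) hab
  have hD : ∀ s : ℝ, f (s, y) - ∫ t in (0:ℝ)..s, g (t, y) = f (0, y) := by
    have hc : Continuous fun s => f (s, y) - ∫ t in (0:ℝ)..s, g (t, y) :=
      hFc.sub (intervalIntegral.continuous_primitive hI 0)
    have := Rat.isDenseEmbedding_coe_real.dense.equalizer hc (continuous_const (y := f (0, y))) ?_
    · exact fun s => congrFun this s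
    · funext q
      simp only [Function.comp_apply]
      rcases le_total (0 : ℚ) q with hq | hq
      · have := hrat 0 q (by exact_mod_cast hq)
        rw [Rat.cast_zero] at this
        linarith
      · have := hrat q 0 (by exact_mod_cast hq)
        rw [Rat.cast_zero] at this
        rw [intervalIntegral.integral_symm]
        linarith
  intro a b
  refine ⟨hI a b, ?_⟩
  rw [← intervalIntegral.integral_interval_sub_left (hI 0 b) (hI 0 a)]
  have h2 := hD a
  have h3 := hD b
  linarith

/-- **ACL in the second variable.** -/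
theorem acl_y (hf : Continuous f) (hg : LocallyIntegrable g volume)
    (hw : ∀ α β : ℝ → ℝ, ContDiff ℝ ∞ α → HasCompactSupport α → ContDiff ℝ ∞ β →
      HasCompactSupport β → ∫ p : ℝ × ℝ, β p.1 * (f p * deriv α p.2 + g p * α p.2) = 0) :
    ∀ᵐ x : ℝ, ∀ a b : ℝ, IntervalIntegrable (fun s => g (x, s)) volume a b ∧
      f (x, b) - f (x, a) = ∫ s in a..b, g (x, s) := by
  have hsw : MeasurePreserving (Prod.swap : ℝ × ℝ → ℝ × ℝ) volume volume :=
    Measure.measurePreserving_swap
  have hme : MeasurableEmbedding (Prod.swap : ℝ × ℝ → ℝ × ℝ) :=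
    MeasurableEquiv.prodComm.measurableEmbedding
  have h1 : LocallyIntegrable (g ∘ Prod.swap) volume := by
    rw [locallyIntegrable_iff]
    intro K hK
    have hK' : IsCompact (Prod.swap '' K) := hK.image continuous_swap
    have h2 := hg.integrableOn_isCompact hK'
    have h3 := (hsw.integrableOn_comp_preimage hme (f := g) (s := Prod.swap '' K)).2 h2
    rwa [preimage_image_eq _ Prod.swap_injective] at h3
  have := acl_x (f := f ∘ Prod.swap) (g := g ∘ Prod.swap) (hf.comp continuous_swap) h1 ?_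
  · exact this
  · intro α β hα hcα hβ hcβ
    have h2 := hw α β hα hcα hβ hcβ
    rw [← hsw.integral_comp hme] at h2
    exact h2

end

end Crest.Agent.R105.Aclw_373
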