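import Crest.Agent.R105.Elf3_600

/-!
# Row 105, S0138 (T-frame): E-L across a level cut (helper600)

`x = x0 + u` the minimiser, `p` its holomorphic completion, `y = Im p`; `a = x0 + v` a control.
* `wdg_eq_dot` : `wdg φ (Im p) = dot (Re p) φ` off `Y`
* `cut_crude` : `|∫_{Yᶜ} d(χ G(a)) ∧ dy| ≤ Σ_K osc_K u · |χ(K)| · osc_K (G a)`
* `cut_exact` : the exact form for `v = u`
-/

set_option autoImplicit false

open MeasureTheory Set Filter Topology Metric
open scoped NNReal ENNReal ContDiff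

namespace Crest.Agent.R105.Elf_600

open Bd_775 Tc_808 Ends_897 Crest.AnalysisR
open IfB_641 (X0 di lap J Cpl)
open SelT_871 (JT oS)

variable {Y K : Set ℂ} {x0 u v φ χ : ℂ → ℝ} {p : ℂ → ℂ}


/-- partial derivatives of `Re p` and `Im p` -/
lemma grad_re_im {z : ℂ} (h : DifferentiableAt ℂ p z) :
    gx (fun w => (p w).re) z = (deriv p z).re ∧ gy (fun w => (p w).re) z = -(deriv p z).im ∧
    gx (fun w => (p w).im) z = (deriv p z).im ∧ gy (fun w => (p w).im) z = (deriv p z).re := by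
  have h1 : HasFDerivAt p (((1 : ℂ →L[ℂ] ℂ).smulRight (deriv p z)).restrictScalars ℝ) z :=
    (h.hasDerivAt.hasFDerivAt).restrictScalars ℝ
  have hre : HasFDerivAt (fun w => (p w).re) (Complex.reCLM.comp
      (((1 : ℂ →L[ℂ] ℂ).smulRight (deriv p z)).restrictScalars ℝ)) z :=
    (Complex.reCLM.hasFDerivAt).comp z h1
  have him : HasFDerivAt (fun w => (p w).im) (Complex.imCLM.comp
      (((1 : ℂ →L[ℂ] ℂ).smulRight (deriv p z)).restrictScalars ℝ)) z :=
    (Complex.imCLM.hasFDerivAt).comp z h1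
  unfold gx gy
  rw [hre.fderiv, him.fderiv]
  simp

lemma wdg_eq_dot {x : ℂ → ℝ} (hp : DifferentiableOn ℂ p Yᶜ) (hY : IsClosed Y)
    (hre : ∀ z ∈ Yᶜ, (p z).re = x z) (φ : ℂ → ℝ) {z : ℂ} (hz : z ∈ Yᶜ) :
    wdg φ (fun w => (p w).im) z = dot x φ z := by
  have hn : Yᶜ ∈ 𝓝 z := hY.isOpen_compl.mem_nhds hz
  obtain ⟨h1, h2, h3, h4⟩ := grad_re_im (hp.differentiableAt hn)
  have he : (fun w => (p w).re) =ᶠ[𝓝 z] x := by
    filter_upwards [hn] with w hw using hre w hw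
  rw [gx_eq_of_eventuallyEq he] at h1
  rw [gy_eq_of_eventuallyEq he] at h2
  unfold wdg dot
  rw [h1, h2, h3, h4]; ring

/-- the oscillation of `χ g` for a locally constant `χ` -/
lemma osc_lc_mul (hχ : LC Y χ) {g : ℂ → ℝ} (hg : ∃ M, ∀ z, |g z| ≤ M) (K : Cmp Y) :
    Tc_808.osc Y (fun z => χ z * g z) K.1 ≤ |χ (pt K)| * Tc_808.osc Y g K.1 := by
  obtain ⟨c, O, hO, hKO, h⟩ := LC.const_near hχ K.preconn K.subset
  have hc : c = χ (pt K) := (h _ (hKO (pt_mem K))).symm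
  rw [osc_congr (v := fun z => χ (pt K) * g z) hO hKO fun z hz _ => by rw [h z hz, hc]]
  exact osc_mul_const hg _

/-- `x0` does not change the oscillation of a Lipschitz function -/
lemma osc_x0 (hx : X0 Y x0) (G : ℝ → ℝ) (K : Cmp Y) :
    Tc_808.osc Y (fun z => G (x0 z + v z)) K.1 = Tc_808.osc Y (fun z => G (v z)) K.1 :=
  osc_congr (isClosed_tsupport x0).isOpen_compl (fun z hz h => hx.zero h (K.subset hz))
    fun z hz _ => by rw [image_eq_zero_of_notMem_tsupport hz, zero_add]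

/-- **E-L for the test function `χ · G (x0 + v)`, crude form** -/
theorem dot_crude (hY : IsExteriorDomain Yᶜ) (hx : X0 Y x0) (hu : TT Y u) (hv : TT Y v)
    (hχ : LC Y χ) (hχc : HasCompactSupport χ) {G : ℝ → ℝ} {Λ : ℝ≥0} (hG : LipschitzWith Λ G)
    (hmin : ∀ t : ℝ, JT Y x0 u ≤ JT Y x0 (fun z => u z + t * (χ z * G (x0 z + v z)))) :
    |∫ z in Yᶜ, dot (fun w => x0 w + u w) (fun z => χ z * G (x0 z + v z)) z| ≤
      ∑' K : Cmp Y, Tc_808.osc Y u K.1 * (|χ (pt K)| * Tc_808.osc Y (fun z => G (v z)) K.1) := by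
  have hYc := Ni_459.cpt_of hY
  obtain ⟨h1, h2, -⟩ := test_chiG hYc hx hv hχ hχc hG
  refine (el_crude_x hY hx hu h1 h2 hmin).trans ?_
  have hGv : TT Y (fun z => G (v z)) := hv.comp hYc.isClosed hG
  obtain ⟨M, hM⟩ := hχ.bdd
  have hle : ∀ K : Cmp Y, Tc_808.osc Y (fun z => χ z * G (x0 z + v z)) K.1 ≤
      |χ (pt K)| * Tc_808.osc Y (fun z => G (v z)) K.1 := by
    intro K
    have hb : ∃ M, ∀ z, |(fun z => χ z * G (x0 z + v z)) z| ≤ M := h1.q.bdd
    obtain ⟨c, O, hO, hKO, h⟩ := LC.const_near hχ K.preconn K.subset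
    have hc : c = χ (pt K) := (h _ (hKO (pt_mem K))).symm
    rw [osc_congr (v := fun z => χ (pt K) * G (v z)) (hO.inter (isClosed_tsupport x0).isOpen_compl)
      (fun z hz => ⟨hKO hz, fun h => hx.zero h (K.subset hz)⟩) fun z hz _ => by
        rw [h z hz.1, hc, image_eq_zero_of_notMem_tsupport hz.2, zero_add]]
    exact osc_mul_const hGv.q.bdd _
  have hs1 : Summable fun K : Cmp Y => Tc_808.osc Y u K.1 *
      Tc_808.osc Y (fun z => χ z * G (x0 z + v z)) K.1 :=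
    summable_mul_of_sq hu.sum h1.sum
  have hs2 : Summable fun K : Cmp Y => Tc_808.osc Y u K.1 *
      (|χ (pt K)| * Tc_808.osc Y (fun z => G (v z)) K.1) := by
    have h3 : Summable fun K : Cmp Y => M * (Tc_808.osc Y u K.1 *
        Tc_808.osc Y (fun z => G (v z)) K.1) := (summable_mul_of_sq hu.sum hGv.sum).mul_left M
    refine h3.of_nonneg_of_le (fun K => mul_nonneg (osc_nonneg _ _ _)
      (mul_nonneg (abs_nonneg _) (osc_nonneg _ _ _))) fun K => ?_
    have e : M * (Tc_808.osc Y u K.1 * Tc_808.osc Y (fun z => G (v z)) K.1) =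
      Tc_808.osc Y u K.1 * (M * Tc_808.osc Y (fun z => G (v z)) K.1) := by ring
    rw [e]
    exact mul_le_mul_of_nonneg_left (mul_le_mul_of_nonneg_right (hM _) (osc_nonneg _ _ _))
      (osc_nonneg _ _ _)
  exact Summable.tsum_le_tsum (fun K => mul_le_mul_of_nonneg_left (hle K) (osc_nonneg _ _ _))
    hs1 hs2

/-- **E-L across a level cut, crude form**: `|∫ d(χ G(a)) ∧ dy| ≤ Σ s_K |χ(K)| osc_K G(a)` -/
theorem cut_crude (hY : IsExteriorDomain Yᶜ) (hx : X0 Y x0) (hu : TT Y u) (hv : TT Y v)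
    (hp : DifferentiableOn ℂ p Yᶜ) (hre : ∀ z ∈ Yᶜ, (p z).re = x0 z + u z)
    (hχ : LC Y χ) (hχc : HasCompactSupport χ) {G : ℝ → ℝ} {Λ : ℝ≥0} (hG : LipschitzWith Λ G)
    (hmin : ∀ t : ℝ, JT Y x0 u ≤ JT Y x0 (fun z => u z + t * (χ z * G (x0 z + v z)))) :
    |∫ z in Yᶜ, wdg (fun z => χ z * G (x0 z + v z)) (fun w => (p w).im) z| ≤
      ∑' K : Cmp Y, Tc_808.osc Y u K.1 * (|χ (pt K)| * Tc_808.osc Y (fun z => G (v z)) K.1) := by
  have hYc := Ni_459.cpt_of hY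
  rw [setIntegral_congr_fun hYc.isClosed.isOpen_compl.measurableSet fun z hz =>
    wdg_eq_dot (x := fun w => x0 w + u w) hp hYc.isClosed hre _ hz]
  exact dot_crude hY hx hu hv hχ hχc hG hmin

/-- E-L across a level cut of `x` itself, exact form -/
theorem cut_exact (hY : IsExteriorDomain Yᶜ) (hx : X0 Y x0) (hu : TT Y u)
    (hp : DifferentiableOn ℂ p Yᶜ) (hre : ∀ z ∈ Yᶜ, (p z).re = x0 z + u z)
    (hχ : LC Y χ) (hχc : HasCompactSupport χ) {G : ℝ → ℝ} {Λ : ℝ≥0} (hG : LipschitzWith Λ G)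
    (hmin : ∀ t : ℝ, JT Y x0 u ≤ JT Y x0 (fun z => u z + t * (χ z * G (x0 z + u z)))) :
    (∫ z in Yᶜ, wdg (fun z => χ z * G (x0 z + u z)) (fun w => (p w).im) z) +
      ∑' K : Cmp Y, (upK Y u K - loK Y u K) * (χ (pt K) * (G (upK Y u K) - G (loK Y u K))) = 0 := by
  have hYc := Ni_459.cpt_of hY
  rw [setIntegral_congr_fun hYc.isClosed.isOpen_compl.measurableSet fun z hz =>
    wdg_eq_dot (x := fun w => x0 w + u w) hp hYc.isClosed hre _ hz]
  exact el_exact_chiG hY hx hu hχ hχc hG hmin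

end Crest.Agent.R105.Elf_600
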