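import Crest.Agent.R105.IfB1_641

/-!
# Row 105, [B]: basic lemmas for the composition (bilinearity of `di`, first variation, `x0`)
-/

set_option autoImplicit false

open MeasureTheory Set Filter Topology Metric
open scoped ContDiff NNReal

namespace Crest.Agent.R105.IfB_641

variable {C : Set ℂ} {u v w x0 φ ψ : ℂ → ℝ}

theorem X0.exists (hC : IsCompact C) : ∃ x0 : ℂ → ℝ, X0 C x0 := by
  obtain ⟨R, hR⟩ := hC.isBounded.subset_ball (0 : ℂ)
  set R' : ℝ := max R 1 with hR'
  have hR1 : 0 < R' := lt_of_lt_of_le one_pos (le_max_right _ _)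
  let f : ContDiffBump (0 : ℂ) := ⟨R', R' + 1, hR1, by linarith⟩
  refine ⟨fun z => (1 - f z) * z.re, ?_, ?_, R' + 1, ?_⟩
  · exact (contDiff_const.sub f.contDiff).mul Complex.reCLM.contDiff
  · intro z hz hzC
    have hzb : z ∈ ball (0 : ℂ) R' := ball_subset_ball (le_max_left _ _) (hR hzC)
    have : (fun z : ℂ => (1 - f z) * z.re) =ᶠ[𝓝 z] 0 := by
      filter_upwards [isOpen_ball.mem_nhds hzb] with w hw
      rw [f.one_of_mem_closedBall (ball_subset_closedBall hw)]; simp
    exact (notMem_tsupport_iff_eventuallyEq.2 this) hz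
  · intro z hz
    have h0 : f z = 0 := f.zero_of_le_dist (by rw [dist_zero_right]; exact hz)
    show (1 - f z) * z.re = z.re
    rw [h0]; ring

theorem contDiff_gx (h : ContDiff ℝ ∞ u) : ContDiff ℝ ∞ (gx u) :=
  (h.fderiv_right (m := ∞) le_rfl).clm_apply contDiff_const

theorem contDiff_gy (h : ContDiff ℝ ∞ u) : ContDiff ℝ ∞ (gy u) :=
  (h.fderiv_right (m := ∞) le_rfl).clm_apply contDiff_const

theorem X0.lap_cont (h : X0 C x0) : Continuous (lap x0) :=
  (contDiff_gx (contDiff_gx h.sm)).continuous.add (contDiff_gy (contDiff_gy h.sm)).continuous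

theorem gx_of_eq {z : ℂ} (h : u =ᶠ[𝓝 z] v) : gx u =ᶠ[𝓝 z] gx v := by
  filter_upwards [h.eventuallyEq_nhds] with w hw using Bd_775.gx_eq_of_eventuallyEq hw

theorem gy_of_eq {z : ℂ} (h : u =ᶠ[𝓝 z] v) : gy u =ᶠ[𝓝 z] gy v := by
  filter_upwards [h.eventuallyEq_nhds] with w hw using Bd_775.gy_eq_of_eventuallyEq hw

theorem lap_of_eq {z : ℂ} (h : u =ᶠ[𝓝 z] v) : lap u =ᶠ[𝓝 z] lap v :=
  (gx_of_eq (gx_of_eq h)).add (gy_of_eq (gy_of_eq h))

theorem gx_re (z : ℂ) : gx (fun w : ℂ => w.re) z = 1 := by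
  unfold gx
  have : fderiv ℝ (fun w : ℂ => w.re) z = Complex.reCLM := Complex.reCLM.fderiv
  rw [this]; simp

theorem gy_re (z : ℂ) : gy (fun w : ℂ => w.re) z = 0 := by
  unfold gy
  have : fderiv ℝ (fun w : ℂ => w.re) z = Complex.reCLM := Complex.reCLM.fderiv
  rw [this]; simp

theorem lap_re : lap (fun w : ℂ => w.re) = 0 := by
  funext z
  unfold lap
  have h1 : gx (fun w : ℂ => w.re) = fun _ => 1 := funext gx_re
  have h2 : gy (fun w : ℂ => w.re) = fun _ => 0 := funext gy_re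
  rw [h1, h2, Bd_775.gx_const, Bd_775.gy_const]; simp

theorem lap_zero : lap (0 : ℂ → ℝ) = 0 := by
  funext z
  unfold lap
  have h1 : gx (0 : ℂ → ℝ) = fun _ => 0 := funext fun z => Bd_775.gx_const 0 z
  have h2 : gy (0 : ℂ → ℝ) = fun _ => 0 := funext fun z => Bd_775.gy_const 0 z
  rw [h1, h2, Bd_775.gx_const, Bd_775.gy_const]; simp

theorem X0.lap_far (h : X0 C x0) : ∃ R : ℝ, ∀ z, R < ‖z‖ → lap x0 z = 0 := by
  obtain ⟨R, hR⟩ := h.far
  refine ⟨R, fun z hz => ?_⟩
  have : x0 =ᶠ[𝓝 z] fun w : ℂ => w.re := by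
    have ho : IsOpen {w : ℂ | R < ‖w‖} := isOpen_lt continuous_const continuous_norm
    filter_upwards [ho.mem_nhds hz] with w hw using hR w (le_of_lt hw)
  rw [(lap_of_eq this).eq_of_nhds, lap_re]; rfl

theorem X0.lap_cpt (h : X0 C x0) : HasCompactSupport (lap x0) := by
  obtain ⟨R, hR⟩ := h.lap_far
  refine HasCompactSupport.intro (isCompact_closedBall (0 : ℂ) R) fun z hz => hR z ?_
  rw [mem_closedBall, dist_zero_right, not_le] at hz
  exact hz

theorem X0.lap_sub (h : X0 C x0) : tsupport (lap x0) ⊆ Cᶜ := by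
  refine subset_trans ?_ h.zero
  intro z hz
  by_contra hz'
  have h1 : x0 =ᶠ[𝓝 z] 0 := notMem_tsupport_iff_eventuallyEq.1 hz'
  have h2 : lap x0 =ᶠ[𝓝 z] 0 := by
    have := lap_of_eq h1
    rwa [lap_zero] at this
  exact (notMem_tsupport_iff_eventuallyEq.2 h2) hz

/-- `Q` functions are continuous at the points of `Cᶜ` -/
theorem Q_contAt (hC : IsClosed C) (hu : Q C u) {z : ℂ} (hz : z ∉ C) : ContinuousAt u z := by
  obtain ⟨K, t, ht, h⟩ := hu.loc hz
  rw [hC.isOpen_compl.nhdsWithin_eq hz] at ht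
  exact h.continuousOn.continuousAt ht

theorem cont_mul_lap (hC : IsClosed C) (hx : X0 C x0) (hu : Q C u) :
    Continuous (fun z => u z * lap x0 z) := by
  refine continuous_iff_continuousAt.2 fun z => ?_
  by_cases hz : z ∈ tsupport (lap x0)
  · exact (Q_contAt hC hu (hx.lap_sub hz)).mul hx.lap_cont.continuousAt
  · have h1 : lap x0 =ᶠ[𝓝 z] 0 := notMem_tsupport_iff_eventuallyEq.1 hz
    have h2 : (fun z => u z * lap x0 z) =ᶠ[𝓝 z] fun _ => 0 := by
      filter_upwards [h1] with w hw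
      rw [hw]; simp
    exact continuousAt_const.congr h2.symm

theorem int_mul_lap (hC : IsClosed C) (hx : X0 C x0) (hu : Q C u) :
    Integrable (fun z => u z * lap x0 z) :=
  (cont_mul_lap hC hx hu).integrable_of_hasCompactSupport
    (hx.lap_cpt.mul_left (f := u))

/-- a.e. expansion of the energy of `φ + t ψ` -/
theorem di_expand (hC : IsClosed C) (hu : Q C u) (hv : Q C v) (t : ℝ) :
    di C (fun z => u z + t * v z) (fun z => u z + t * v z)
      = di C u u + 2 * t * di C u v + t ^ 2 * di C v v := by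
  unfold di
  have huv := (Bd_775.integrableOn_dot hu hv).const_mul (2 * t)
  have hvv := (Bd_775.integrableOn_dot hv hv).const_mul (t ^ 2)
  have hs : Integrable (fun z => Bd_775.dot u u z + 2 * t * Bd_775.dot u v z)
      (volume.restrict Cᶜ) := (Bd_775.integrableOn_dot hu hu).add huv
  have e1 : (∫ z in Cᶜ, Bd_775.dot u u z) + 2 * t * (∫ z in Cᶜ, Bd_775.dot u v z)
      = ∫ z in Cᶜ, (Bd_775.dot u u z + 2 * t * Bd_775.dot u v z) := by
    rw [← integral_const_mul, ← integral_add (Bd_775.integrableOn_dot hu hu) huv]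
  rw [e1, ← integral_const_mul, ← integral_add hs hvv]
  refine integral_congr_ae ?_
  filter_upwards [hu.ae_diff hC, hv.ae_diff hC] with z h1 h2
  have h3 : DifferentiableAt ℝ (fun z => t * v z) z := h2.const_mul t
  have e1 : gx (fun z => t * v z) z = t * gx v z := by
    unfold Bd_775.gx; rw [fderiv_const_mul h2]; rfl
  have e2 : gy (fun z => t * v z) z = t * gy v z := by
    unfold Bd_775.gy; rw [fderiv_const_mul h2]; rfl
  unfold Bd_775.dot
  rw [Bd_775.gx_add h1 h3, Bd_775.gy_add h1 h3, e1, e2]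
  ring

theorem Q.smul' (hC : IsClosed C) (hv : Q C v) (t : ℝ) : Q C (fun z => t * v z) :=
  (Bd_775.Q.const C t).mul hC hv

theorem J_expand (hC : IsClosed C) (hx : X0 C x0) (hu : Q C u) (hv : Q C v) (t : ℝ) :
    J C x0 (fun z => u z + t * v z)
      = J C x0 u + 2 * t * (di C u v - ∫ z, v z * lap x0 z) + t ^ 2 * di C v v := by
  unfold J
  rw [di_expand hC hu hv t]
  have h1 : ∫ z, (u z + t * v z) * lap x0 z
      = (∫ z, u z * lap x0 z) + t * ∫ z, v z * lap x0 z := by
    rw [← integral_const_mul, ← integral_add (int_mul_lap hC hx hu)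
      ((int_mul_lap hC hx hv).const_mul t)]
    refine integral_congr_ae (Eventually.of_forall fun z => ?_)
    simp only []
    ring
  rw [h1]; ring

/-- first variation -/
theorem el_of_min (hC : IsClosed C) (hx : X0 C x0) (hu : Q C u) (hv : Q C v)
    (h : ∀ t : ℝ, J C x0 u ≤ J C x0 (fun z => u z + t * v z)) : EL C x0 u v := by
  unfold EL
  set A := di C u v - ∫ z, v z * lap x0 z with hA
  set B := di C v v with hB
  have h1 : ∀ t : ℝ, 0 ≤ 2 * t * A + t ^ 2 * B := by
    intro t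
    have := h t
    rw [J_expand hC hx hu hv t] at this
    linarith
  have hA0 : A = 0 := by
    by_contra hne
    have hB0 : 0 ≤ B := by
      have h2 := h1 1
      have h3 := h1 (-1)
      nlinarith
    have h4 := h1 (-A / (B + 1))
    have hB1 : 0 < B + 1 := by linarith
    have h5 : 2 * (-A / (B + 1)) * A + (-A / (B + 1)) ^ 2 * B
        = -(A ^ 2 * (B + 2)) / (B + 1) ^ 2 := by
      field_simp; ring
    rw [h5] at h4
    have h6 : 0 < A ^ 2 * (B + 2) / (B + 1) ^ 2 := by positivity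
    have h7 : -(A ^ 2 * (B + 2)) / (B + 1) ^ 2 = -(A ^ 2 * (B + 2) / (B + 1) ^ 2) := by ring
    rw [h7] at h4
    linarith
  linarith

theorem T1.toQ (h : T1 C ψ) : Q C ψ := by
  rcases h with h | ⟨q, _, h⟩
  · exact h.q
  · exact h.toQ

theorem T1.add_smul (hC : IsClosed C) (hφ : D C φ) (h : T1 C ψ) (t : ℝ) :
    T1 C (fun z => φ z + t * ψ z) := by
  have hQ : Q C (fun z => φ z + t * ψ z) := hφ.q.add hC (Q.smul' hC h.toQ t)
  rcases h with h | ⟨q, hq, h⟩
  · exact Or.inl (hQ.d (hφ.cont.add (continuous_const.mul h.cont)))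
  · exact Or.inr ⟨q, hq, hQ, fun z hz =>
      hφ.cont.continuousAt.add (continuousAt_const.mul (h.cont z hz))⟩

/-- SELECTION + ATTAINMENT give the package -/
theorem pk_of_attained {b : ℕ → ℂ → ℝ} {m : ℝ} (hC : TD C) (hx : X0 C x0) (hs : Sel C x0 b m)
    (hφ : D C φ) (hi : Iso C (insert φ (range b))) (hJ : J C x0 φ = m) : Pk C x0 b φ := by
  have hcl : IsClosed C := hC.cpt.isClosed
  refine ⟨hC, hx, hs.mem, hφ, hi, fun ψ hψ hiso => ?_⟩
  refine el_of_min hcl hx hφ.q hψ.toQ fun t => ?_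
  rw [hJ]
  refine hs.min _ (T1.add_smul hcl hφ hψ t) ?_
  refine Iso.trans ?_ hiso
  intro s hs'
  rcases hs' with rfl | hs'
  · exact Gen.add (Gen.of (mem_insert_of_mem _ (mem_insert _ _)))
      (Gen.smul t (Gen.of (mem_insert _ _)))
  · exact Gen.of (mem_insert_of_mem _ (mem_insert_of_mem _ hs'))

end Crest.Agent.R105.IfB_641
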