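import Crest.Agent.R105.Ends2_897

/-! Row 105, LIB-ENDS (helper897), part 3: the bijection of ends, oscillation at an end,
the circle-domain criterion. -/

set_option autoImplicit false

open Set Filter Topology Metric
open scoped ENNReal

namespace Crest.Agent.R105.Ends_897

open Crest.AnalysisR

namespace EndMap

variable {U V : Set ℂ} {f : ℂ → ℂ}

theorem eventually_mem (U : Set ℂ) (z : ℂ) : ∀ᶠ w in eF U z, w ∈ U :=
  mem_of_superset (mem_inf_of_right (mem_principal_self U)) fun _ h => h

/-- **(E2)** the end correspondence: for every component of `Uᶜ` there is a component of `Vᶜ` -/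
theorem exists_end (h : EndMap U V f) {z : ℂ} (hz : z ∉ U) :
    ∃ ζ, ζ ∉ V ∧ map f (eF U z) = eF V ζ := by
  obtain ⟨ζ, hζ, hft⟩ := h.exists_tendsto hz
  obtain ⟨z', hz', hgt⟩ := h.symm.exists_tendsto hζ
  have h1 : Tendsto (h.inv ∘ f) (eF U z) (eF U z') := hgt.comp hft
  have h2 : (h.inv ∘ f) =ᶠ[eF U z] id := by
    filter_upwards [eventually_mem U z] with w hw using h.inv_left hw
  have h3 : eF U z ≤ eF U z' := by
    have := (tendsto_congr' h2).1 h1
    rwa [tendsto_id'] at this
  have h4 : eF U z = eF U z' := eF_congr (cc_eq_of_eF_le h.hU hz h3)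
  refine ⟨ζ, hζ, le_antisymm hft ?_⟩
  have h5 : (f ∘ h.inv) =ᶠ[eF V ζ] id := by
    filter_upwards [eventually_mem V ζ] with w hw using h.inv_right hw
  calc eF V ζ = map (f ∘ h.inv) (eF V ζ) := by rw [map_congr h5, map_id]
    _ = map f (map h.inv (eF V ζ)) := by rw [map_map]
    _ ≤ map f (eF U z') := map_mono hgt
    _ = map f (eF U z) := by rw [h4]

/-- **(E2)** every component of `Vᶜ` is attained -/
theorem exists_end' (h : EndMap U V f) {ζ : ℂ} (hζ : ζ ∉ V) :
    ∃ z, z ∉ U ∧ map f (eF U z) = eF V ζ := by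
  obtain ⟨z, hz, he⟩ := h.symm.exists_end hζ
  refine ⟨z, hz, ?_⟩
  have h5 : (f ∘ h.inv) =ᶠ[eF V ζ] id := by
    filter_upwards [eventually_mem V ζ] with w hw using h.inv_right hw
  rw [← he, map_map, map_congr h5, map_id]

/-- **(E2)** different components go to different components -/
theorem map_injective (h : EndMap U V f) {z z' : ℂ} (hz : z ∉ U)
    (he : map f (eF U z) = map f (eF U z')) :
    connectedComponentIn Uᶜ z = connectedComponentIn Uᶜ z' := by
  have h2 : ∀ z, map (h.inv) (map f (eF U z)) = eF U z := by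
    intro z
    have h2 : (h.inv ∘ f) =ᶠ[eF U z] id := by
      filter_upwards [eventually_mem U z] with w hw using h.inv_left hw
    rw [map_map, map_congr h2, map_id]
  refine cc_eq_of_eF_le h.hU hz ?_
  rw [← h2 z, he, h2 z']

end EndMap

theorem eF_injective {U : Set ℂ} (hU : IsExteriorDomain U) {z z' : ℂ} (hz : z ∉ U)
    (h : eF U z = eF U z') : connectedComponentIn Uᶜ z = connectedComponentIn Uᶜ z' :=
  cc_eq_of_eF_le hU hz h.le

/-! ### oscillation along a filter -/

/-- oscillation of `a` along the filter `F` -/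
noncomputable def oscF {α E : Type*} [PseudoEMetricSpace E] (a : α → E) (F : Filter α) : ℝ≥0∞ :=
  ⨅ s ∈ F, Metric.ediam (a '' s)

/-- **(E3)** the oscillation is transported -/
theorem oscF_comp {α β E : Type*} [PseudoEMetricSpace E] (a : β → E) (f : α → β) (F : Filter α) :
    oscF (a ∘ f) F = oscF a (map f F) := by
  apply le_antisymm
  · refine le_iInf₂ fun s hs => ?_
    refine (iInf₂_le (f ⁻¹' s) hs).trans (Metric.ediam_mono ?_)
    rw [image_comp]
    exact image_mono (image_preimage_subset f s)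
  · refine le_iInf₂ fun s hs => ?_
    refine (iInf₂_le (f '' s) (image_mem_map hs)).trans (Metric.ediam_mono ?_)
    rw [image_comp]

theorem oscF_mono {α E : Type*} [PseudoEMetricSpace E] (a : α → E) {F G : Filter α} (h : F ≤ G) :
    oscF a F ≤ oscF a G :=
  le_iInf₂ fun s hs => iInf₂_le s (h hs)

/-- zero oscillation = convergence, for a complete target -/
theorem oscF_eq_zero_iff {α E : Type*} [PseudoEMetricSpace E] [CompleteSpace E] {a : α → E}
    {F : Filter α} [F.NeBot] : oscF a F = 0 ↔ ∃ c, Tendsto a F (𝓝 c) := by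
  constructor
  · intro h
    have hc : Cauchy (map a F) := by
      rw [EMetric.cauchy_iff]
      refine ⟨(inferInstance : (map a F).NeBot).ne, fun ε hε => ?_⟩
      have h1 : oscF a F < ε := by rw [h]; exact hε
      simp only [oscF, iInf_lt_iff] at h1
      obtain ⟨s, hs, hd⟩ := h1
      exact ⟨a '' s, image_mem_map hs, fun x hx y hy => (Metric.edist_le_ediam_of_mem hx hy).trans_lt hd⟩
    obtain ⟨c, hc⟩ := cauchy_iff_exists_le_nhds.1 hc
    exact ⟨c, hc⟩
  · rintro ⟨c, hc⟩
    refine le_antisymm (le_of_forall_pos_le_add fun ε hε => ?_) bot_le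
    have h2 : 0 < ε / 2 := ENNReal.half_pos hε.ne'
    have h1 : a ⁻¹' (Metric.eball c (ε / 2)) ∈ F := hc (Metric.eball_mem_nhds c h2)
    refine (iInf₂_le _ h1).trans ?_
    rw [zero_add]
    refine Metric.ediam_le ?_
    rintro _ ⟨x, hx, rfl⟩ _ ⟨y, hy, rfl⟩
    have hx' : edist (a x) c < ε / 2 := hx
    have hy' : edist (a y) c < ε / 2 := hy
    calc edist (a x) (a y) ≤ edist (a x) c + edist (a y) c := edist_triangle_right _ _ _
      _ ≤ ε / 2 + ε / 2 := add_le_add hx'.le hy'.le
      _ = ε := ENNReal.add_halves ε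

/-! ### topology of components -/

/-- a compact component whose frontier lies in a closed set `D` with connected unbounded
complement lies in `D` -/
theorem subset_of_frontier {M D : Set ℂ} (hM : IsCompact M) (hD : IsPreconnected Dᶜ)
    (hDu : ¬ Bornology.IsBounded Dᶜ) (hfr : frontier M ⊆ D) : M ⊆ D := by
  intro w hw
  by_contra hwD
  have h1 : Dᶜ ⊆ interior M ∪ Mᶜ := by
    intro y hy
    by_cases hyM : y ∈ M
    · left
      by_contra hyi
      exact hy (hfr ⟨subset_closure hyM, hyi⟩)
    · exact Or.inr hyM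
  have hwi : w ∈ interior M := (h1 hwD).resolve_right fun h => h hw
  have hne : (Dᶜ ∩ Mᶜ).Nonempty := by
    by_contra hem
    rw [not_nonempty_iff_eq_empty] at hem
    refine hDu (hM.isBounded.subset fun y hy => ?_)
    by_contra hyM
    have : y ∈ Dᶜ ∩ Mᶜ := ⟨hy, hyM⟩
    rw [hem] at this; exact this
  obtain ⟨y, hy1, hy2⟩ := hne
  obtain ⟨x, -, hx1, hx2⟩ := hD (interior M) Mᶜ isOpen_interior hM.isClosed.isOpen_compl h1
    ⟨w, hwD, hwi⟩ ⟨y, hy1, hy2⟩
  exact hx2 (interior_subset hx1)

/-- frontier points of a component of `Vᶜ` are cluster points of the end filter -/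
theorem clusterPt_eF_of_frontier {V : Set ℂ} (hV : IsExteriorDomain V) {ζ x : ℂ}
    (hx : x ∈ frontier (connectedComponentIn Vᶜ ζ)) : ClusterPt x (eF V ζ) := by
  have h1 := frontier_cc_subset hV.1 hx
  have hcl := isClosed_cc hV.1.isClosed_compl ζ
  have hxK : x ∈ connectedComponentIn Vᶜ ζ := by
    have := frontier_subset_closure hx
    rwa [hcl.closure_eq] at this
  have h2 : (𝓝 x ⊓ 𝓟 V).NeBot := mem_closure_iff_nhdsWithin_neBot.1 h1
  refine h2.mono (le_inf inf_le_left (inf_le_inf_right _ (nhds_le_nhdsSet hxK)))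

/-- cluster points of the end filter lie in the component -/
theorem mem_of_clusterPt_eF {V : Set ℂ} (hV : IsExteriorDomain V) {ζ x : ℂ}
    (hx : ClusterPt x (eF V ζ)) : x ∈ connectedComponentIn Vᶜ ζ := by
  by_contra hcon
  have hK := isCompact_cc (isCompact_compl hV) ζ
  obtain ⟨u, v, hu, hv, hxu, hKv, huv⟩ :=
    SeparatedNhds.of_isCompact_isCompact (isCompact_singleton (x := x)) hK
      (disjoint_singleton_left.2 hcon)
  have h1 : u ∈ 𝓝 x := hu.mem_nhds (hxu rfl)
  have h2 : v ∈ eF V ζ := mem_inf_of_left (hv.mem_nhdsSet.2 hKv)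
  obtain ⟨y, hy1, hy2⟩ := clusterPt_iff_nonempty.1 hx h1 h2
  exact disjoint_left.1 huv hy1 hy2

theorem nonempty_frontier_cc {V : Set ℂ} (hV : IsExteriorDomain V) {ζ : ℂ} (hζ : ζ ∉ V) :
    (frontier (connectedComponentIn Vᶜ ζ)).Nonempty := by
  rw [nonempty_iff_ne_empty]
  intro h
  have hclopen : IsClopen (connectedComponentIn Vᶜ ζ) := isClopen_iff_frontier_eq_empty.2 h
  rcases isClopen_iff.1 hclopen with h | h
  · have : ζ ∈ connectedComponentIn Vᶜ ζ := mem_connectedComponentIn hζ
    rw [h] at this; exact this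
  · have hK := (isCompact_cc (isCompact_compl hV) ζ).isBounded
    rw [h] at hK
    obtain ⟨C, hC⟩ := hK.exists_norm_le
    have := hC ((|C| + 1 : ℝ) : ℂ) (mem_univ _)
    rw [Complex.norm_real, Real.norm_eq_abs, abs_of_nonneg (by positivity)] at this
    linarith [le_abs_self C]

/-- **(E4), general form**: if `f` tends to the compact set `D` (with connected complement) at the
component of `z`, and `D` (if it has more than one point) misses `f '' U`, then the corresponding
component is `D`. -/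
theorem EndMap.cc_eq {U V : Set ℂ} {f : ℂ → ℂ} (h : EndMap U V f) {z ζ : ℂ} (_hz : z ∉ U)
    (hζ : ζ ∉ V) (he : map f (eF U z) = eF V ζ) {D : Set ℂ} (hDc : IsCompact D)
    (hDp : IsPreconnected D) (hDo : IsPreconnected Dᶜ)
    (hf : ∀ W : Set ℂ, IsOpen W → D ⊆ W → ∀ᶠ w in eF U z, f w ∈ W)
    (hDV : D.Nontrivial → Disjoint D V) : connectedComponentIn Vᶜ ζ = D := by
  have hDu : ¬ Bornology.IsBounded Dᶜ := by
    intro hb
    have h1 := hb.union hDc.isBounded
    rw [compl_union_self] at h1
    obtain ⟨C, hC⟩ := h1.exists_norm_le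
    have := hC ((|C| + 1 : ℝ) : ℂ) (mem_univ _)
    rw [Complex.norm_real, Real.norm_eq_abs, abs_of_nonneg (by positivity)] at this
    linarith [le_abs_self C]
  have hfr : frontier (connectedComponentIn Vᶜ ζ) ⊆ D := by
    intro x hx
    by_contra hxD
    obtain ⟨u, v, hu, hv, hxu, hDv, huv⟩ :=
      SeparatedNhds.of_isCompact_isCompact (isCompact_singleton (x := x)) hDc
        (disjoint_singleton_left.2 hxD)
    have h1 := clusterPt_eF_of_frontier h.hV hx
    have h2 : v ∈ eF V ζ := by rw [← he]; exact hf v hv hDv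
    obtain ⟨y, hy1, hy2⟩ := clusterPt_iff_nonempty.1 h1 (hu.mem_nhds (hxu rfl)) h2
    exact disjoint_left.1 huv hy1 hy2
  have hsub : connectedComponentIn Vᶜ ζ ⊆ D :=
    subset_of_frontier (isCompact_cc (isCompact_compl h.hV) ζ) hDo hDu hfr
  obtain ⟨x, hx⟩ := nonempty_frontier_cc h.hV hζ
  have hxM : x ∈ connectedComponentIn Vᶜ ζ :=
    mem_of_clusterPt_eF h.hV (clusterPt_eF_of_frontier h.hV hx)
  refine Subset.antisymm hsub ?_
  by_cases hnt : D.Nontrivial
  · rw [connectedComponentIn_eq hxM]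
    exact hDp.subset_connectedComponentIn (hsub hxM)
      (fun y hy hyV => disjoint_left.1 (hDV hnt) hy hyV)
  · rw [not_nontrivial_iff] at hnt
    intro y hy
    rw [hnt hy (hsub hxM)]
    exact hxM

theorem isPreconnected_compl_closedBall (c : ℂ) {r : ℝ} (hr : 0 ≤ r) :
    IsPreconnected (closedBall c r)ᶜ := by
  have h : (closedBall c r)ᶜ = (fun w => w + c) '' {w : ℂ | r < ‖w‖} := by
    ext w
    constructor
    · intro hw
      refine ⟨w - c, ?_, by ring⟩
      rw [mem_compl_iff, mem_closedBall, dist_eq_norm, not_le] at hw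
      exact hw
    · rintro ⟨y, hy, rfl⟩
      have hy' : r < ‖y‖ := hy
      rw [mem_compl_iff, mem_closedBall, dist_eq_norm, not_le]
      simpa using hy'
  rw [h]
  exact (isPreconnected_norm_gt hr).image _ (by fun_prop)

/-- **(E4)** the circle-domain criterion -/
theorem EndMap.isCircleDomain {U V : Set ℂ} {f : ℂ → ℂ} (h : EndMap U V f)
    (H : ∀ z, z ∉ U → ∃ c : ℂ, ∃ r : ℝ, 0 ≤ r ∧
      (∀ ε > 0, ∀ᶠ w in eF U z, dist (f w) c < r + ε) ∧ Disjoint (ball c r) V) :
    IsCircleDomainFinitePart V := by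
  refine ⟨h.hV, fun ζ hζ => ?_⟩
  obtain ⟨z, hz, he⟩ := h.exists_end' hζ
  obtain ⟨c, r, hr, hlim, hdis⟩ := H z hz
  refine ⟨c, r, hr, h.cc_eq hz hζ he (isCompact_closedBall c r)
    (convex_closedBall c r).isPreconnected (isPreconnected_compl_closedBall c hr) ?_ ?_⟩
  · intro W hW hDW
    obtain ⟨ε, hε, hsub⟩ := (isCompact_closedBall c r).exists_thickening_subset_open hW hDW
    filter_upwards [hlim ε hε] with w hw
    refine hsub ?_
    rw [thickening_closedBall hε hr, mem_ball]
    linarith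
  · intro hnt
    have hr0 : r ≠ 0 := by
      rintro rfl
      rw [closedBall_zero] at hnt
      exact not_nontrivial_singleton hnt
    have hcl := (hdis.closure_left h.hV.1)
    rwa [closure_ball c hr0] at hcl

/-- **(E4)** the circle-domain criterion for injective holomorphic maps -/
theorem isCircleDomain_image {U : Set ℂ} {f : ℂ → ℂ} (hU : IsExteriorDomain U)
    (hd : DifferentiableOn ℂ f U) (hi : InjOn f U)
    (hinf : Tendsto f (cocompact ℂ) (cocompact ℂ))
    (H : ∀ z, z ∉ U → ∃ c : ℂ, ∃ r : ℝ, 0 ≤ r ∧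
      (∀ ε > 0, ∀ᶠ w in eF U z, dist (f w) c < r + ε) ∧ Disjoint (ball c r) (f '' U)) :
    IsCircleDomainFinitePart (f '' U) :=
  (EndMap.of_holo hU hd hi hinf).isCircleDomain H

end Crest.Agent.R105.Ends_897
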