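import Mathlib
import Crest.Agent.R105.Ends3_897
import Crest.Prelude.Def_CircleDomain

/-! Row 105, LIB-EXT (helper616): consequences of the end correspondence.
A homeomorphism `f : U → V` of exterior domains with totally disconnected complements extends to a
homeomorphism of the plane; if `f` is holomorphic and `Uᶜ` lies in a conformally removable set, `f`
is affine; continuous functions that are constant on the components are transported. -/

set_option autoImplicit false

open Set Filter Topology Metric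

namespace Crest.Agent.R105.Ext_616

open Crest.AnalysisR Crest.Agent.R105.Ends_897

/-- every component of the complement of `U` is a point -/
def Dust (U : Set ℂ) : Prop := ∀ z, z ∉ U → connectedComponentIn Uᶜ z = {z}

theorem eF_eq_of_singleton {U : Set ℂ} {z : ℂ} (h : connectedComponentIn Uᶜ z = {z}) :
    eF U z = 𝓝[U] z := by
  rw [eF, h, nhdsSet_singleton]; rfl

/-- `Uᶜ` totally disconnected in the sense of Mathlib -/
theorem dust_of_isTotallyDisconnected {U : Set ℂ} (h : IsTotallyDisconnected Uᶜ) : Dust U := by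
  intro z hz
  have hz' : z ∈ Uᶜ := hz
  have h1 := h _ (connectedComponentIn_subset Uᶜ z) isPreconnected_connectedComponentIn
  exact h1.eq_singleton_of_mem (mem_connectedComponentIn hz')

theorem Dust.dense {U : Set ℂ} (hU : IsExteriorDomain U) (h : Dust U) : Dense U := by
  intro z
  by_cases hz : z ∈ U
  · exact subset_closure hz
  · have h1 := eF_neBot hU hz
    rw [eF_eq_of_singleton (h z hz)] at h1
    exact mem_closure_iff_nhdsWithin_neBot.2 h1

variable {U V : Set ℂ} {f : ℂ → ℂ}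

theorem exists_lim (h : EndMap U V f) (hU : Dust U) (hV : Dust V) (z : ℂ) :
    ∃ y, Tendsto f (𝓝[U] z) (𝓝 y) := by
  by_cases hz : z ∈ U
  · exact ⟨f z, h.cont z hz⟩
  · obtain ⟨ζ, hζ, he⟩ := h.exists_end hz
    rw [eF_eq_of_singleton (hU z hz), eF_eq_of_singleton (hV ζ hζ)] at he
    exact ⟨ζ, (le_of_eq he).trans inf_le_left⟩

/-- **(X1)** the homeomorphism extends to the plane -/
theorem exists_homeo (h : EndMap U V f) (hU : Dust U) (hV : Dust V) :
    ∃ Φ : ℂ ≃ₜ ℂ, ∀ z ∈ U, Φ z = f z := by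
  have hdU := hU.dense h.hU
  have hdV := hV.dense h.hV
  set F := extendFrom U f with hF
  set G := extendFrom V h.inv with hG
  have hFc : Continuous F := continuous_extendFrom hdU (exists_lim h hU hV)
  have hGc : Continuous G := continuous_extendFrom hdV (exists_lim h.symm hV hU)
  have hFe : ∀ z ∈ U, F z = f z := extendFrom_extends h.cont
  have hGe : ∀ w ∈ V, G w = h.inv w := extendFrom_extends h.symm.cont
  have h1 : G ∘ F = id := by
    refine (hGc.comp hFc).ext_on hdU continuous_id ?_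
    intro z hz
    simp only [Function.comp_apply, id]
    rw [hFe z hz, hGe _ (h.mapsTo hz), h.inv_left hz]
  have h2 : F ∘ G = id := by
    refine (hFc.comp hGc).ext_on hdV continuous_id ?_
    intro w hw
    simp only [Function.comp_apply, id]
    rw [hGe w hw, hFe _ (h.inv_mem hw), h.inv_right hw]
  exact ⟨{ toFun := F, invFun := G, left_inv := fun z => congrFun h1 z,
           right_inv := fun w => congrFun h2 w, continuous_toFun := hFc,
           continuous_invFun := hGc }, hFe⟩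

/-- the domain of a holomorphic `f`: `Φ` is holomorphic on `U` -/
theorem exists_homeo_holo (h : EndMap U V f) (hU : Dust U) (hV : Dust V)
    (hd : DifferentiableOn ℂ f U) :
    ∃ Φ : ℂ ≃ₜ ℂ, (∀ z ∈ U, Φ z = f z) ∧ DifferentiableOn ℂ Φ U := by
  obtain ⟨Φ, hΦ⟩ := exists_homeo h hU hV
  exact ⟨Φ, hΦ, hd.congr hΦ⟩

/-- **(X2)** `Uᶜ` inside a conformally removable set `E` (not necessarily `E = Uᶜ`):
`f` is affine -/
theorem affine_of_removable (h : EndMap U V f) (hU : Dust U) (hV : Dust V)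
    (hd : DifferentiableOn ℂ f U) {E : Set ℂ} (hE : IsConformallyRemovable E) (hUE : Uᶜ ⊆ E) :
    ∃ a b : ℂ, ∀ z ∈ U, f z = a * z + b := by
  obtain ⟨Φ, hΦ, hdΦ⟩ := exists_homeo_holo h hU hV hd
  obtain ⟨a, b, hab⟩ := hE Φ (hdΦ.mono (compl_subset_comm.1 hUE))
  exact ⟨a, b, fun z hz => by rw [← hΦ z hz, hab z]⟩

/-- image components are points when `f` has limits at all components -/
theorem dust_of_tendsto (h : EndMap U V f)
    (H : ∀ z, z ∉ U → ∃ c, Tendsto f (eF U z) (𝓝 c)) : Dust V := by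
  intro ζ hζ
  obtain ⟨z, hz, he⟩ := h.exists_end' hζ
  obtain ⟨c, hc⟩ := H z hz
  have h1 : connectedComponentIn Vᶜ ζ = {c} := by
    refine h.cc_eq hz hζ he isCompact_singleton isPreconnected_singleton ?_ ?_ ?_
    · have := isPreconnected_compl_closedBall c le_rfl
      rwa [closedBall_zero] at this
    · intro W hW hcW
      exact hc (hW.mem_nhds (hcW rfl))
    · intro hn
      exact absurd hn not_nontrivial_singleton
  have h2 : ζ ∈ ({c} : Set ℂ) := h1 ▸ mem_connectedComponentIn (show ζ ∈ Vᶜ from hζ)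
  rw [h1, mem_singleton_iff.1 h2]

/-- a function continuous on the plane which agrees with `f` on `U` gives limits -/
theorem dust_of_continuous (h : EndMap U V f) (hU : Dust U) {F : ℂ → ℂ} (hF : Continuous F)
    (hFf : ∀ z ∈ U, F z = f z) : Dust V := by
  refine dust_of_tendsto h fun z hz => ⟨F z, ?_⟩
  rw [eF_eq_of_singleton (hU z hz)]
  refine (hF.continuousAt.continuousWithinAt (s := U)).congr' ?_
  filter_upwards [self_mem_nhdsWithin] with w hw using hFf w hw

/-- **(X1′)** `f` injective, holomorphic on the exterior domain `U` with totally disconnected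
complement, `F` continuous on the plane, `F = f` on `U`, `f → ∞`: then `F` is a homeomorphism -/
theorem homeo_of_continuous {U : Set ℂ} {f : ℂ → ℂ} (hU : IsExteriorDomain U) (hUd : Dust U)
    (hd : DifferentiableOn ℂ f U) (hi : InjOn f U)
    (hinf : Tendsto f (cocompact ℂ) (cocompact ℂ)) {F : ℂ → ℂ} (hF : Continuous F)
    (hFf : ∀ z ∈ U, F z = f z) :
    ∃ Φ : ℂ ≃ₜ ℂ, (∀ z, Φ z = F z) ∧ DifferentiableOn ℂ Φ U := by
  have h := EndMap.of_holo hU hd hi hinf
  have hV := dust_of_continuous h hUd hF hFf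
  obtain ⟨Φ, hΦ, hdΦ⟩ := exists_homeo_holo h hUd hV hd
  refine ⟨Φ, ?_, hdΦ⟩
  have h1 : (Φ : ℂ → ℂ) = F :=
    Φ.continuous.ext_on (hUd.dense hU) hF fun z hz => by rw [hΦ z hz, hFf z hz]
  exact fun z => congrFun h1 z

/-- **(X2′)** the removable version: `F` is affine -/
theorem affine_of_continuous {U : Set ℂ} {f : ℂ → ℂ} (hU : IsExteriorDomain U) (hUd : Dust U)
    (hd : DifferentiableOn ℂ f U) (hi : InjOn f U)
    (hinf : Tendsto f (cocompact ℂ) (cocompact ℂ)) {F : ℂ → ℂ} (hF : Continuous F)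
    (hFf : ∀ z ∈ U, F z = f z) {E : Set ℂ} (hE : IsConformallyRemovable E) (hUE : Uᶜ ⊆ E) :
    ∃ a b : ℂ, ∀ z, F z = a * z + b := by
  obtain ⟨Φ, hΦ, hdΦ⟩ := homeo_of_continuous hU hUd hd hi hinf hF hFf
  obtain ⟨a, b, hab⟩ := hE Φ (hdΦ.mono (compl_subset_comm.1 hUE))
  exact ⟨a, b, fun z => by rw [← hΦ z, hab z]⟩

/-! ### normalisation at infinity -/

/-- an affine map which is `z + o(z)`... with `f z - z` bounded near infinity has `a = 1` -/
theorem slope_eq_one {F : ℂ → ℂ} {a b : ℂ} (hab : ∀ z, F z = a * z + b) {M R : ℝ}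
    (hM : ∀ z : ℂ, R < ‖z‖ → ‖F z - z‖ ≤ M) : a = 1 := by
  by_contra ha
  have ha' : 0 < ‖a - 1‖ := norm_pos_iff.2 (sub_ne_zero.2 ha)
  set t : ℝ := max R 0 + (|M| + ‖b‖ + 1) / ‖a - 1‖ + 1 with ht
  have hnn : 0 ≤ (|M| + ‖b‖ + 1) / ‖a - 1‖ := by positivity
  have ht0 : 0 < t := by have := le_max_right R 0; linarith
  have hRt : R < ‖(t : ℂ)‖ := by
    rw [Complex.norm_real, Real.norm_eq_abs, abs_of_pos ht0]
    have := le_max_left R 0; linarith
  have h1 := hM t hRt
  have h2 : F t - t = (a - 1) * t + b := by rw [hab]; ring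
  rw [h2] at h1
  have h3 : ‖(a - 1) * (t : ℂ)‖ ≤ M + ‖b‖ := by
    calc ‖(a - 1) * (t : ℂ)‖ = ‖((a - 1) * t + b) - b‖ := by ring_nf
      _ ≤ ‖(a - 1) * t + b‖ + ‖b‖ := norm_sub_le _ _
      _ ≤ M + ‖b‖ := by linarith
  rw [norm_mul, Complex.norm_real, Real.norm_eq_abs, abs_of_pos ht0] at h3
  have h4 : ‖a - 1‖ * t ≥ |M| + ‖b‖ + 1 := by
    have : (|M| + ‖b‖ + 1) / ‖a - 1‖ ≤ t := by have := le_max_right R 0; linarith
    calc |M| + ‖b‖ + 1 = ‖a - 1‖ * ((|M| + ‖b‖ + 1) / ‖a - 1‖) := by field_simp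
      _ ≤ ‖a - 1‖ * t := by gcongr
  have := le_abs_self M
  linarith

/-- **(X2″)** with the normalisation `f z - z` bounded: `F z = z + b` -/
theorem translation_of_continuous {U : Set ℂ} {f : ℂ → ℂ} (hU : IsExteriorDomain U)
    (hUd : Dust U) (hd : DifferentiableOn ℂ f U) (hi : InjOn f U)
    {F : ℂ → ℂ} (hF : Continuous F) (hFf : ∀ z ∈ U, F z = f z) {M R : ℝ}
    (hM : ∀ z : ℂ, R < ‖z‖ → ‖F z - z‖ ≤ M)
    {E : Set ℂ} (hE : IsConformallyRemovable E) (hUE : Uᶜ ⊆ E) :
    ∃ b : ℂ, ∀ z, F z = z + b := by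
  -- replace `f` by `F`, which tends to infinity
  have hinf : Tendsto F (cocompact ℂ) (cocompact ℂ) := by
    rw [← cobounded_eq_cocompact, ← tendsto_norm_atTop_iff_cobounded]
    have h0 : Tendsto (fun z : ℂ => ‖z‖ - M) (Bornology.cobounded ℂ) atTop :=
      tendsto_atTop_add_const_right _ (-M) tendsto_norm_cobounded_atTop
    refine tendsto_atTop_mono' _ ?_ h0
    have h1 : ∀ᶠ z : ℂ in Bornology.cobounded ℂ, R < ‖z‖ :=
      tendsto_norm_cobounded_atTop.eventually (eventually_gt_atTop R)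
    filter_upwards [h1] with z hz
    have h2 := hM z hz
    have h3 : ‖z‖ ≤ ‖F z‖ + ‖F z - z‖ := by
      calc ‖z‖ = ‖F z - (F z - z)‖ := by ring_nf
        _ ≤ ‖F z‖ + ‖F z - z‖ := norm_sub_le _ _
    linarith
  have hd' : DifferentiableOn ℂ F U := hd.congr hFf
  have hi' : InjOn F U := fun z hz w hw h => hi hz hw (by rw [← hFf z hz, ← hFf w hw, h])
  obtain ⟨a, b, hab⟩ := affine_of_continuous hU hUd hd' hi' hinf hF (fun _ _ => rfl) hE hUE
  have ha := slope_eq_one hab hM
  exact ⟨b, fun z => by rw [hab, ha, one_mul]⟩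

/-! ### transport of continuous functions which are constant on the components -/

/-- pieces near a component: an open set around the component, inside `W`, whose trace on the
complement is a union of components -/
theorem exists_sat_nhd {V : Set ℂ} (hV : IsExteriorDomain V) {ζ : ℂ} (hζ : ζ ∉ V) {W : Set ℂ}
    (hW : IsOpen W) (hKW : connectedComponentIn Vᶜ ζ ⊆ W) :
    ∃ N : Set ℂ, IsOpen N ∧ connectedComponentIn Vᶜ ζ ⊆ N ∧ N ⊆ W ∧ frontier N ⊆ V ∧
      ∀ η, η ∉ V → η ∈ N → connectedComponentIn Vᶜ η ⊆ N := by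
  obtain ⟨B, hBc, hBc', hBV, hKB, hBW⟩ := exists_clopen (isCompact_compl hV)
    (show ζ ∈ Vᶜ from hζ) hW hKW
  -- a neighbourhood of `B` inside `W`, closure disjoint from `Vᶜ \ B`
  obtain ⟨N, hNo, hBN, hNc, hNd⟩ := exists_nhd hBc (hBc'.isClosed.union hW.isClosed_compl) (by
    rw [disjoint_union_right]
    exact ⟨disjoint_sdiff_right, disjoint_left.2 fun y hy hy' => hy' (hBW hy)⟩)
  rw [disjoint_union_right] at hNd
  have hmem : ∀ η, η ∉ V → η ∈ closure N → η ∈ B := by
    intro η hη hηN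
    by_contra hηB
    exact disjoint_left.1 hNd.1 hηN ⟨hη, hηB⟩
  refine ⟨N, hNo, hKB.trans hBN, fun y hy => ?_, fun w hw => ?_, fun η hη hηN => ?_⟩
  · by_contra hyW
    exact disjoint_left.1 hNd.2 (subset_closure hy) hyW
  · by_contra hwV
    rw [hNo.frontier_eq] at hw
    exact hw.2 (hBN (hmem w hwV hw.1))
  · have hηB := hmem η hη (subset_closure hηN)
    -- the component of `η` stays in the clopen piece `B`
    have hpre : IsPreconnected (connectedComponentIn Vᶜ η) := isPreconnected_connectedComponentIn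
    have hsub : connectedComponentIn Vᶜ η ⊆ B ∪ (Vᶜ \ B) := fun y hy => by
      by_cases hyB : y ∈ B
      · exact Or.inl hyB
      · exact Or.inr ⟨connectedComponentIn_subset _ _ hy, hyB⟩
    refine (fun y hy => hBN ?_)
    by_contra hyB
    have hcl := isPreconnected_closed_iff.1 hpre B (Vᶜ \ B) hBc.isClosed hBc'.isClosed hsub
      ⟨η, mem_connectedComponentIn (show η ∈ Vᶜ from hη), hηB⟩
      ⟨y, hy, connectedComponentIn_subset _ _ hy, hyB⟩
    obtain ⟨x, -, hx1, hx2⟩ := hcl
    exact hx2.2 hx1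

/-- **(X3)** transport: `v` continuous on the plane and constant on the components of `Uᶜ`
gives `v'` continuous on the plane, constant on the components of `Vᶜ`, `v' ∘ f = v` on `U` -/
theorem exists_transport {X : Type*} [TopologicalSpace X] [T2Space X] [RegularSpace X]
    {U V : Set ℂ} {f : ℂ → ℂ} (h : EndMap U V f) {v : ℂ → X} (hv : Continuous v)
    (hc : ∀ z, z ∉ U → ∀ z' ∈ connectedComponentIn Uᶜ z, v z' = v z) :
    ∃ v' : ℂ → X, Continuous v' ∧
      (∀ ζ, ζ ∉ V → ∀ ζ' ∈ connectedComponentIn Vᶜ ζ, v' ζ' = v' ζ) ∧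
      (∀ z ∈ U, v' (f z) = v z) ∧
      (∀ z ζ, z ∉ U → ζ ∉ V → map f (eF U z) = eF V ζ → v' ζ = v z) := by
  classical
  -- limits of `v` at the components
  have hlim : ∀ z, z ∉ U → Tendsto v (eF U z) (𝓝 (v z)) := by
    intro z hz
    have h1 : Tendsto v (𝓝ˢ (connectedComponentIn Uᶜ z)) (𝓝 (v z)) := by
      intro s hs
      obtain ⟨t, hts, hto, hzt⟩ := mem_nhds_iff.1 hs
      have h2 : v ⁻¹' t ∈ 𝓝ˢ (connectedComponentIn Uᶜ z) :=
        (hto.preimage hv).mem_nhdsSet.2 fun y hy => by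
          rw [mem_preimage, hc z hz y hy]; exact hzt
      exact mem_of_superset h2 (preimage_mono hts)
    exact h1.mono_left inf_le_left
  -- the corresponding component
  choose! g hg using fun ζ (hζ : ζ ∉ V) => h.exists_end' hζ
  set v' : ℂ → X := fun w => if w ∈ V then v (h.inv w) else v (g w) with hv'
  have hV' : ∀ w, w ∈ V → v' w = v (h.inv w) := fun w hw => by simp only [hv', if_pos hw]
  have hN' : ∀ w, w ∉ V → v' w = v (g w) := fun w hw => by simp only [hv', if_neg hw]
  -- limits of `v ∘ inv` at the components of `Vᶜ`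
  have hlim' : ∀ ζ, ζ ∉ V → Tendsto (v ∘ h.inv) (eF V ζ) (𝓝 (v (g ζ))) := by
    intro ζ hζ
    obtain ⟨h1, h2⟩ := hg ζ hζ
    have h3 : map h.inv (eF V ζ) = eF U (g ζ) := by
      rw [← h2, map_map]
      have h4 : (h.inv ∘ f) =ᶠ[eF U (g ζ)] id := by
        filter_upwards [EndMap.eventually_mem U (g ζ)] with w hw using h.inv_left hw
      rw [map_congr h4, map_id]
    have h5 := hlim (g ζ) h1
    rw [← h3] at h5
    exact tendsto_map'_iff.1 h5
  have hval : ∀ z ζ, z ∉ U → ζ ∉ V → map f (eF U z) = eF V ζ → v' ζ = v z := by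
    intro z ζ hz hζ he
    obtain ⟨h1, h2⟩ := hg ζ hζ
    rw [hN' ζ hζ]
    have h3 := h.map_injective hz (he.trans h2.symm)
    have h4 : g ζ ∈ connectedComponentIn Uᶜ z := by
      rw [h3]; exact mem_connectedComponentIn (show g ζ ∈ Uᶜ from h1)
    exact hc z hz _ h4
  refine ⟨v', ?_, ?_, ?_, hval⟩
  · rw [continuous_iff_continuousAt]
    intro w
    by_cases hw : w ∈ V
    · have h1 : ContinuousAt (v ∘ h.inv) w :=
        hv.continuousAt.comp ((h.symm.cont w hw).continuousAt (h.hV.1.mem_nhds hw))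
      refine h1.congr ?_
      filter_upwards [h.hV.1.mem_nhds hw] with y hy
      exact (hV' y hy).symm
    · rw [ContinuousAt, hN' w hw]
      -- closed neighbourhoods
      rw [(closed_nhds_basis (v (g w))).tendsto_right_iff]
      rintro T ⟨hT, hTc⟩
      have h1 := hlim' w hw hT
      rw [mem_map, eF, mem_inf_principal] at h1
      obtain ⟨W, hWo, hKW, hWT⟩ := mem_nhdsSet_iff_exists.1 h1
      obtain ⟨N, hNo, hKN, hNW, -, hNsat⟩ := exists_sat_nhd h.hV hw hWo hKW
      have hwN : w ∈ N := hKN (mem_connectedComponentIn (show w ∈ Vᶜ from hw))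
      filter_upwards [hNo.mem_nhds hwN] with y hy
      by_cases hyV : y ∈ V
      · rw [hV' y hyV]
        exact hWT (hNW hy) hyV
      · rw [hN' y hyV]
        have h2 := hlim' y hyV
        have := eF_neBot h.hV hyV
        refine hTc.mem_of_tendsto h2 ?_
        have h3 : N ∩ V ∈ eF V y :=
          inter_mem_inf (hNo.mem_nhdsSet.2 (hNsat y hyV hy)) (mem_principal_self V)
        filter_upwards [h3] with x hx
        exact hWT (hNW hx.1) hx.2
  · intro ζ hζ ζ' hζ'
    have hζ'V : ζ' ∉ V := connectedComponentIn_subset _ _ hζ'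
    obtain ⟨h1, h2⟩ := hg ζ hζ
    have h3 : eF V ζ' = eF V ζ := eF_congr (connectedComponentIn_eq hζ').symm
    rw [hval (g ζ) ζ' h1 hζ'V (by rw [h3]; exact h2), hN' ζ hζ]
  · intro z hz
    rw [hV' _ (h.mapsTo hz), h.inv_left hz]

end Crest.Agent.R105.Ext_616
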