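import Crest.Agent.Lib.InjHolo

/-!
# Row 105 (Koebe), D-frame: the first variation in the `p`-plane (post #9272 (3)), helper988

`U` open, `p` holomorphic and injective on `U`, `u = Re p`.

* `det_smul_one`, `grad_dot` : `∇u · ∇(Ψ ∘ p) = |p'|² (∂ₓΨ) ∘ p`;
* `master`: for every `Ψ ∈ C_c^1(ℂ)`: `∫_{ℂ \ p(U)} ∂ₓΨ = - ∫_U ∇u · ∇(Ψ ∘ p)`;
* `master_cut`: for `X ∈ C_c^1` with `dX = 0` on `ℂ \ p(U)` and `H ∈ C^1(ℝ)`:
  `∫_{ℂ \ p(U)} X H'(Re ζ) = - ∫_U ∇u · ∇((X ∘ p) H(u))`;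
* `area_piece` (`H = id`): the area of the clopen piece `{X = 1}` of the complement.
-/

set_option autoImplicit false

open Set Filter Topology Metric Complex MeasureTheory
open scoped ComplexConjugate ContDiff

namespace Crest.Agent.R105.Pth_988

/-- the Jacobian of multiplication by a complex number -/
theorem det_smul_one (a : ℂ) : (a • (1 : ℂ →L[ℝ] ℂ)).det = ‖a‖ ^ 2 := by
  have h : ((a • (1 : ℂ →L[ℝ] ℂ)).det : ℝ) =
      LinearMap.det ((a • (1 : ℂ →L[ℝ] ℂ) : ℂ →L[ℝ] ℂ) : ℂ →ₗ[ℝ] ℂ) := rfl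
  rw [h, ← LinearMap.det_toMatrix Complex.basisOneI, Matrix.det_fin_two]
  simp only [LinearMap.toMatrix_apply, Complex.coe_basisOneI_repr, Complex.coe_basisOneI,
    Matrix.cons_val_zero, Matrix.cons_val_one, ContinuousLinearMap.coe_coe]
  simp only [smul_apply, one_apply_eq_self, smul_eq_mul,
    mul_one, mul_re, mul_im, I_re, I_im, mul_zero, zero_sub]
  rw [← Complex.normSq_eq_norm_sq, Complex.normSq_apply]
  ring

/-- real differential of a holomorphic function -/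
theorem hasFDerivAt_real {U : Set ℂ} (hU : IsOpen U) {p : ℂ → ℂ} (hp : DifferentiableOn ℂ p U)
    {z : ℂ} (hz : z ∈ U) : HasFDerivAt p (deriv p z • (1 : ℂ →L[ℝ] ℂ)) z :=
  ((hp z hz).differentiableAt (hU.mem_nhds hz)).hasDerivAt.complexToReal_fderiv

theorem fderiv_re {U : Set ℂ} (hU : IsOpen U) {p : ℂ → ℂ} (hp : DifferentiableOn ℂ p U)
    {z : ℂ} (hz : z ∈ U) (v : ℂ) :
    fderiv ℝ (fun z => (p z).re) z v = (deriv p z * v).re := by
  have h := (reCLM.hasFDerivAt.comp z (hasFDerivAt_real hU hp hz))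
  have h' : HasFDerivAt (fun z => (p z).re) (reCLM.comp (deriv p z • (1 : ℂ →L[ℝ] ℂ))) z := h
  rw [h'.fderiv]
  simp

theorem fderiv_comp {U : Set ℂ} (hU : IsOpen U) {p : ℂ → ℂ} (hp : DifferentiableOn ℂ p U)
    {Ψ : ℂ → ℝ} {z : ℂ} (hz : z ∈ U) (hΨ : DifferentiableAt ℝ Ψ (p z)) (v : ℂ) :
    fderiv ℝ (fun z => Ψ (p z)) z v = fderiv ℝ Ψ (p z) (deriv p z * v) := by
  have h := (hΨ.hasFDerivAt.comp z (hasFDerivAt_real hU hp hz))
  have h' : HasFDerivAt (fun z => Ψ (p z))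
    ((fderiv ℝ Ψ (p z)).comp (deriv p z • (1 : ℂ →L[ℝ] ℂ))) z := h
  rw [h'.fderiv]
  simp

/-- `∇(Re p) · ∇(Ψ ∘ p) = |p'|² (∂ₓ Ψ) ∘ p` -/
theorem grad_dot {U : Set ℂ} (hU : IsOpen U) {p : ℂ → ℂ} (hp : DifferentiableOn ℂ p U)
    {Ψ : ℂ → ℝ} {z : ℂ} (hz : z ∈ U) (hΨ : DifferentiableAt ℝ Ψ (p z)) :
    fderiv ℝ (fun z => (p z).re) z 1 * fderiv ℝ (fun z => Ψ (p z)) z 1 +
      fderiv ℝ (fun z => (p z).re) z I * fderiv ℝ (fun z => Ψ (p z)) z I =
    ‖deriv p z‖ ^ 2 * fderiv ℝ Ψ (p z) 1 := by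
  rw [fderiv_re hU hp hz, fderiv_re hU hp hz, fderiv_comp hU hp hz hΨ, fderiv_comp hU hp hz hΨ]
  set a := deriv p z with ha
  set L := fderiv ℝ Ψ (p z) with hL
  have e1 : L (a * 1) = a.re * L 1 + a.im * L I := by
    have : a * 1 = a.re • (1 : ℂ) + a.im • I := by
      apply Complex.ext <;> simp
    rw [this, map_add, map_smul, map_smul, smul_eq_mul, smul_eq_mul]
  have e2 : L (a * I) = -a.im * L 1 + a.re * L I := by
    have : a * I = (-a.im) • (1 : ℂ) + a.re • I := by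
      apply Complex.ext <;> simp
    rw [this, map_add, map_smul, map_smul, smul_eq_mul, smul_eq_mul]
  have e3 : (a * 1).re = a.re := by simp
  have e4 : (a * I).re = -a.im := by simp
  rw [e1, e2, e3, e4, ← Complex.normSq_eq_norm_sq, Complex.normSq_apply]
  ring

/-- the integral of a directional derivative of a compactly supported function vanishes -/
theorem integral_fderiv_eq_zero {Ψ : ℂ → ℝ} (hΨ : ContDiff ℝ 1 Ψ) (hc : HasCompactSupport Ψ)
    (v : ℂ) : ∫ ζ, fderiv ℝ Ψ ζ v = 0 := by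
  have hd : Continuous (fun ζ => fderiv ℝ Ψ ζ v) :=
    (hΨ.continuous_fderiv (by norm_num)).clm_apply continuous_const
  have hcd : HasCompactSupport (fun ζ => fderiv ℝ Ψ ζ v) := by
    refine (hc.fderiv (𝕜 := ℝ)).mono ?_
    intro x hx
    simp only [Function.mem_support] at hx ⊢
    intro h0
    exact hx (by rw [h0]; simp)
  have h := integral_mul_fderiv_eq_neg_fderiv_mul_of_integrable (μ := (volume : Measure ℂ))
    (f := fun _ : ℂ => (1 : ℝ)) (g := Ψ) (v := v) ?_ ?_ ?_ ?_ ?_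
  · simpa using h
  · simp
  · simpa using hd.integrable_of_hasCompactSupport hcd
  · simpa using hΨ.continuous.integrable_of_hasCompactSupport hc
  · intro x _
    fun_prop
  · intro x _
    exact (hΨ.differentiable (by norm_num)) x

section Master

variable {U : Set ℂ} {p : ℂ → ℂ}

theorem isOpen_image (hU : IsOpen U) (hp : DifferentiableOn ℂ p U) (hinj : InjOn p U) :
    IsOpen (p '' U) := Crest.Agent.Lib.isOpen_image_of_injOn hU hp hinj

/-- conformal change of variables -/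
theorem integral_image (hU : IsOpen U) (hp : DifferentiableOn ℂ p U) (hinj : InjOn p U)
    (g : ℂ → ℝ) : ∫ ζ in p '' U, g ζ = ∫ z in U, ‖deriv p z‖ ^ 2 * g (p z) := by
  rw [integral_image_eq_integral_abs_det_fderiv_smul volume hU.measurableSet
    (f' := fun z => deriv p z • (1 : ℂ →L[ℝ] ℂ))
    (fun z hz => (hasFDerivAt_real hU hp hz).hasFDerivWithinAt) hinj]
  refine setIntegral_congr_fun hU.measurableSet ?_
  intro z _
  simp only [det_smul_one, smul_eq_mul]
  rw [abs_of_nonneg (by positivity)]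

theorem integrableOn_image (hU : IsOpen U) (hp : DifferentiableOn ℂ p U) (hinj : InjOn p U)
    (g : ℂ → ℝ) : IntegrableOn g (p '' U) ↔ IntegrableOn (fun z => ‖deriv p z‖ ^ 2 * g (p z)) U := by
  rw [integrableOn_image_iff_integrableOn_abs_det_fderiv_smul volume hU.measurableSet
    (f' := fun z => deriv p z • (1 : ℂ →L[ℝ] ℂ))
    (fun z hz => (hasFDerivAt_real hU hp hz).hasFDerivWithinAt) hinj]
  refine integrableOn_congr_fun ?_ hU.measurableSet
  intro z _
  simp only [det_smul_one, smul_eq_mul]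
  rw [abs_of_nonneg (by positivity)]

/-- the integrand of the first variation -/
noncomputable def gdot (a b : ℂ → ℝ) (z : ℂ) : ℝ :=
  fderiv ℝ a z 1 * fderiv ℝ b z 1 + fderiv ℝ a z I * fderiv ℝ b z I

theorem gdot_comp (hU : IsOpen U) (hp : DifferentiableOn ℂ p U) {Ψ : ℂ → ℝ} {z : ℂ} (hz : z ∈ U)
    (hΨ : DifferentiableAt ℝ Ψ (p z)) :
    gdot (fun z => (p z).re) (fun z => Ψ (p z)) z = ‖deriv p z‖ ^ 2 * fderiv ℝ Ψ (p z) 1 :=
  grad_dot hU hp hz hΨ

/-- **master formula of the `p`-plane**: `∫_{ℂ \ p(U)} ∂ₓΨ = - ∫_U ∇u · ∇(Ψ ∘ p)` -/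
theorem master (hU : IsOpen U) (hp : DifferentiableOn ℂ p U) (hinj : InjOn p U)
    {Ψ : ℂ → ℝ} (hΨ : ContDiff ℝ 1 Ψ) (hc : HasCompactSupport Ψ) :
    IntegrableOn (gdot (fun z => (p z).re) (fun z => Ψ (p z))) U ∧
    ∫ ζ in (p '' U)ᶜ, fderiv ℝ Ψ ζ 1 =
      - ∫ z in U, gdot (fun z => (p z).re) (fun z => Ψ (p z)) z := by
  have hd : Continuous (fun ζ => fderiv ℝ Ψ ζ 1) :=
    (hΨ.continuous_fderiv (by norm_num)).clm_apply continuous_const
  have hcd : HasCompactSupport (fun ζ => fderiv ℝ Ψ ζ 1) := by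
    refine (hc.fderiv (𝕜 := ℝ)).mono ?_
    intro x hx
    simp only [Function.mem_support] at hx ⊢
    intro h0
    exact hx (by rw [h0]; simp)
  have hint : Integrable (fun ζ => fderiv ℝ Ψ ζ 1) := hd.integrable_of_hasCompactSupport hcd
  have hopen := isOpen_image hU hp hinj
  have hsum := integral_add_compl hopen.measurableSet hint
  rw [integral_fderiv_eq_zero hΨ hc] at hsum
  have hcongr : EqOn (fun z => ‖deriv p z‖ ^ 2 * fderiv ℝ Ψ (p z) 1)
      (gdot (fun z => (p z).re) (fun z => Ψ (p z))) U := by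
    intro z hz
    exact (gdot_comp hU hp hz ((hΨ.differentiable (by norm_num)) _)).symm
  constructor
  · rw [← integrableOn_congr_fun hcongr hU.measurableSet,
      ← integrableOn_image hU hp hinj (fun ζ => fderiv ℝ Ψ ζ 1)]
    exact hint.integrableOn
  · rw [← setIntegral_congr_fun hU.measurableSet hcongr,
      ← integral_image hU hp hinj (fun ζ => fderiv ℝ Ψ ζ 1)]
    linarith

/-- **master formula with a cut-off which is constant near the complement** -/
theorem master_cut (hU : IsOpen U) (hp : DifferentiableOn ℂ p U) (hinj : InjOn p U)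
    {X : ℂ → ℝ} (hX : ContDiff ℝ 1 X) (hc : HasCompactSupport X)
    (hX0 : ∀ ζ ∉ p '' U, fderiv ℝ X ζ 1 = 0) {H : ℝ → ℝ} (hH : ContDiff ℝ 1 H) :
    IntegrableOn (gdot (fun z => (p z).re) (fun z => X (p z) * H (p z).re)) U ∧
    ∫ ζ in (p '' U)ᶜ, X ζ * deriv H ζ.re =
      - ∫ z in U, gdot (fun z => (p z).re) (fun z => X (p z) * H (p z).re) z := by
  have hΨ : ContDiff ℝ 1 (fun ζ : ℂ => X ζ * H ζ.re) :=
    hX.mul (hH.comp reCLM.contDiff)
  have hcΨ : HasCompactSupport (fun ζ : ℂ => X ζ * H ζ.re) := hc.mul_right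
  obtain ⟨h1, h2⟩ := master hU hp hinj hΨ hcΨ
  refine ⟨h1, ?_⟩
  rw [← h2]
  have hm : MeasurableSet (p '' U)ᶜ := (isOpen_image hU hp hinj).measurableSet.compl
  refine setIntegral_congr_fun hm ?_
  intro ζ hζ
  have d1 : HasFDerivAt X (fderiv ℝ X ζ) ζ := ((hX.differentiable (by norm_num)) ζ).hasFDerivAt
  have d2 : HasFDerivAt (fun ζ : ℂ => H ζ.re) (deriv H ζ.re • reCLM) ζ :=
    (((hH.differentiable (by norm_num)) ζ.re).hasDerivAt).comp_hasFDerivAt ζ reCLM.hasFDerivAt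
  have d3 := (d1.mul d2).fderiv
  have d4 : fderiv ℝ (fun ζ : ℂ => X ζ * H ζ.re) ζ =
    X ζ • (deriv H ζ.re • reCLM) + H ζ.re • fderiv ℝ X ζ := d3
  simp only [d4]
  simp [hX0 ζ hζ]

/-- **area of a clopen piece of the complement of `p(U)`** -/
theorem area_piece (hU : IsOpen U) (hp : DifferentiableOn ℂ p U) (hinj : InjOn p U)
    {X : ℂ → ℝ} (hX : ContDiff ℝ 1 X) (hc : HasCompactSupport X)
    (hX0 : ∀ ζ ∉ p '' U, fderiv ℝ X ζ 1 = 0) {A : Set ℂ} (hA : MeasurableSet A)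
    (hAU : A ⊆ (p '' U)ᶜ) (h1 : ∀ ζ ∈ A, X ζ = 1) (h0 : ∀ ζ ∉ p '' U, ζ ∉ A → X ζ = 0) :
    volume.real A =
      - ∫ z in U, gdot (fun z => (p z).re) (fun z => X (p z) * (p z).re) z := by
  obtain ⟨-, h⟩ := master_cut hU hp hinj hX hc hX0 (H := fun t => t) contDiff_id
  rw [← h]
  have hm : MeasurableSet (p '' U)ᶜ := (isOpen_image hU hp hinj).measurableSet.compl
  have e : EqOn (fun ζ : ℂ => X ζ * deriv (fun t : ℝ => t) ζ.re) (A.indicator (fun _ => (1 : ℝ)))
      (p '' U)ᶜ := by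
    intro ζ hζ
    by_cases hζA : ζ ∈ A
    · simp [h1 ζ hζA, hζA]
    · simp [h0 ζ hζ hζA, hζA]
  rw [setIntegral_congr_fun hm e, setIntegral_indicator hA, inter_eq_self_of_subset_right hAU]
  simp

end Master

/-- a closed subset of full area of a closed disc is the disc -/
theorem eq_closedBall_of_volume {K : Set ℂ} (hK : IsClosed K) {c : ℂ} {r : ℝ}
    (hsub : K ⊆ closedBall c r) (hne : K.Nonempty)
    (hvol : Real.pi * r ^ 2 ≤ volume.real K) : K = closedBall c r := by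
  have hr : 0 ≤ r := by
    obtain ⟨x, hx⟩ := hne
    exact dist_nonneg.trans (hsub hx)
  rcases hr.eq_or_lt with rfl | hr
  · rw [closedBall_zero] at hsub ⊢
    exact (hne.subset_singleton_iff).1 hsub
  refine hsub.antisymm ?_
  rw [← closure_ball c hr.ne']
  refine closure_minimal ?_ hK
  have hfin : volume (closedBall c r) ≠ ⊤ := measure_closedBall_lt_top.ne
  have hb : volume.real (closedBall c r) = Real.pi * r ^ 2 := by
    rw [Measure.real, Complex.volume_closedBall]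
    simp only [NNReal.pi, ENNReal.toReal_mul, ENNReal.toReal_pow, ENNReal.toReal_ofReal hr.le,
      ENNReal.coe_toReal]
    exact mul_comm _ _
  have h0 : volume (closedBall c r \ K) = 0 := by
    rw [measure_sdiff hsub hK.measurableSet.nullMeasurableSet
      ((measure_mono hsub).trans_lt measure_closedBall_lt_top).ne]
    rw [tsub_eq_zero_iff_le]
    rw [← ENNReal.ofReal_toReal hfin,
      ← ENNReal.ofReal_toReal ((measure_mono hsub).trans_lt measure_closedBall_lt_top).ne]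
    exact ENNReal.ofReal_le_ofReal (by rw [← Measure.real, ← Measure.real, hb]; exact hvol)
  have h1 : volume (ball c r \ K) = 0 :=
    measure_mono_null (sdiff_subset_sdiff_left ball_subset_closedBall) h0
  have h2 : IsOpen (ball c r \ K) := isOpen_ball.sdiff hK
  have h3 := (h2.measure_eq_zero_iff volume).1 h1
  exact sdiff_eq_empty.1 h3

end Crest.Agent.R105.Pth_988
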