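import Crest.Agent.R105.Pic1_442
import Crest.Agent.R105.Pth2_988

/-! Row 105, PIC (helper442), part 2: the complement of the picture has measure zero
(E-L tested with `χ x`), pull back of cut-offs, no hairs = totally disconnected. -/

set_option autoImplicit false

open Set Filter Topology Metric MeasureTheory Complex
open scoped ContDiff

namespace Crest.Agent.R105.Pic_442

open Crest.AnalysisR Ends_897

theorem exists_cut {K : Set ℂ} (hK : IsCompact K) :
    ∃ χ : ℂ → ℝ, ContDiff ℝ ∞ χ ∧ HasCompactSupport χ ∧ (∀ᶠ y in 𝓝ˢ K, χ y = 1) ∧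
      ∀ y, χ y ∈ Icc (0 : ℝ) 1 := by
  obtain ⟨V, hVo, hKV, -, hVc⟩ := exists_open_between_and_isCompact_closure hK isOpen_univ
    (subset_univ K)
  obtain ⟨f, hf1, hf0, hf⟩ := exists_contMDiffMap_one_nhds_of_subset_interior
    (modelWithCornersSelf ℝ ℂ) (n := (⊤ : ℕ∞)) hK.isClosed (t := V)
    (hKV.trans (interior_eq_iff_isOpen.mpr hVo).ge)
  have hsm : ContDiff ℝ ∞ (f : ℂ → ℝ) := f.contMDiff.contDiff
  have hts : tsupport (f : ℂ → ℝ) ⊆ closure V := by
    apply closure_mono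
    intro x hx
    by_contra h
    exact hx (hf0 x h)
  exact ⟨f, hsm, hVc.of_isClosed_subset isClosed_closure hts, hf1, hf⟩

/-- pull back of a cut-off of the picture: a smooth compactly supported function which is `1` near
the complement of the picture comes from one which is `1` near `Uᶜ` -/
theorem cut_pullback {U V : Set ℂ} {F : ℂ → ℂ} (h : EndMap U V F) (hd : DifferentiableOn ℂ F U)
    {X : ℂ → ℝ} (hX : ContDiff ℝ ∞ X) (hc : HasCompactSupport X)
    (h1 : ∀ᶠ ζ in 𝓝ˢ Vᶜ, X ζ = 1) :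
    ∃ χ : ℂ → ℝ, ContDiff ℝ ∞ χ ∧ HasCompactSupport χ ∧ (∀ᶠ z in 𝓝ˢ Uᶜ, χ z = 1) ∧
      ∀ z ∈ U, χ z = X (F z) := by
  classical
  set χ : ℂ → ℝ := fun z => if z ∈ U then X (F z) else 1 with hχ
  have hχU : ∀ z ∈ U, χ z = X (F z) := fun z hz => by simp only [hχ, if_pos hz]
  have hχC : ∀ z ∉ U, χ z = 1 := fun z hz => by simp only [hχ, if_neg hz]
  have near : ∀ z ∉ U, ∀ᶠ w in 𝓝 z, χ w = 1 := by
    intro z hz
    obtain ⟨ζ, -, he⟩ := h.exists_end hz
    have h2 : ∀ᶠ ζ' in eF V ζ, X ζ' = 1 :=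
      (h1.filter_mono (nhdsSet_mono (connectedComponentIn_subset _ _))).filter_mono inf_le_left
    rw [← he, eventually_map, eF, eventually_inf_principal] at h2
    have h3 := h2.filter_mono (nhds_le_nhdsSet (mem_connectedComponentIn hz))
    filter_upwards [h3] with w hw
    by_cases hwU : w ∈ U
    · rw [hχU w hwU, hw hwU]
    · exact hχC w hwU
  refine ⟨χ, ?_, ?_, ?_, hχU⟩
  · rw [contDiff_iff_contDiffAt]
    intro z
    by_cases hz : z ∈ U
    · have h2 : ContDiffAt ℝ ∞ F z :=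
        ((hd.analyticAt (h.hU.1.mem_nhds hz)).contDiffAt).restrict_scalars ℝ
      refine (hX.contDiffAt.comp z h2).congr_of_eventuallyEq ?_
      filter_upwards [h.hU.1.mem_nhds hz] with w hw using hχU w hw
    · exact (contDiffAt_const (c := (1 : ℝ))).congr_of_eventuallyEq (near z hz)
  · have h2 : (tsupport X)ᶜ ∈ cocompact ℂ := hc.isCompact.compl_mem_cocompact
    obtain ⟨T, hT, hTs⟩ := mem_cocompact.1 (h.inf h2)
    refine HasCompactSupport.intro (hT.union (isCompact_compl h.hU)) fun z hz => ?_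
    rw [mem_union, not_or] at hz
    have hzU : z ∈ U := not_not.1 hz.2
    rw [hχU z hzU]
    exact image_eq_zero_of_notMem_tsupport (hTs hz.1)
  · rw [eventually_nhdsSet_iff_forall]
    exact fun z hz => near z hz

/-- **(P3)** the complement of the picture is a null set: E-L tested with `χ · Re F` -/
theorem volume_compl_zero {U V : Set ℂ} {F : ℂ → ℂ} (h : EndMap U V F)
    (hd : DifferentiableOn ℂ F U)
    (EL : ∀ χ : ℂ → ℝ, ContDiff ℝ ∞ χ → HasCompactSupport χ → (∀ᶠ z in 𝓝ˢ Uᶜ, χ z = 1) →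
      ∫ z in U, (fderiv ℝ (fun z => (F z).re) z 1 * fderiv ℝ (fun z => χ z * (F z).re) z 1 +
        fderiv ℝ (fun z => (F z).re) z I * fderiv ℝ (fun z => χ z * (F z).re) z I) = 0) :
    volume Vᶜ = 0 := by
  obtain ⟨X, hX, hc, h1, -⟩ := exists_cut (isCompact_compl h.hV)
  obtain ⟨χ, hχ, hχc, hχ1, hχU⟩ := cut_pullback h hd hX hc h1
  have h1' : ∀ ζ ∉ V, ∀ᶠ w in 𝓝 ζ, X w = 1 := fun ζ hζ =>
    (eventually_nhdsSet_iff_forall.1 h1) ζ hζ
  have himg := h.img
  have hVc := isCompact_compl h.hV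
  have key := Pth_988.area_piece (A := Vᶜ) h.hU.1 hd h.inj (hX.of_le (by simp)) hc
    (fun ζ hζ => by
      rw [himg] at hζ
      have h2 : fderiv ℝ X ζ = 0 := by
        have h3 : X =ᶠ[𝓝 ζ] fun _ => (1 : ℝ) := h1' ζ hζ
        rw [h3.fderiv_eq]; simp
      rw [h2]; simp)
    hVc.isClosed.measurableSet (by rw [himg]) (fun ζ hζ => (h1' ζ hζ).self_of_nhds)
    (fun ζ hζ hζ' => by rw [himg] at hζ; exact absurd hζ hζ')
  have e : ∫ z in U, Pth_988.gdot (fun z => (F z).re) (fun z => X (F z) * (F z).re) z = 0 := by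
    rw [← EL χ hχ hχc hχ1]
    refine setIntegral_congr_fun h.hU.1.measurableSet ?_
    intro z hz
    have h4 : (fun z => χ z * (F z).re) =ᶠ[𝓝 z] fun z => X (F z) * (F z).re := by
      filter_upwards [h.hU.1.mem_nhds hz] with w hw
      rw [hχU w hw]
    simp only [Pth_988.gdot, h4.fderiv_eq]
  rw [e, neg_zero] at key
  rwa [measureReal_eq_zero_iff hVc.measure_lt_top.ne] at key

/-- **(P4)** no hairs: if all components are points the complement is totally disconnected -/
theorem totallyDisconnected_of_cc {E : Set ℂ} (h : ∀ ζ ∈ E, connectedComponentIn E ζ = {ζ}) :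
    IsTotallyDisconnected E := by
  intro t ht hp x hx y hy
  have h1 := hp.subset_connectedComponentIn hx ht hy
  rw [h x (ht hx)] at h1
  exact (mem_singleton_iff.1 h1).symm

/-- hairs of length zero are points -/
theorem cc_singleton_of_vseg {E : Set ℂ} {ζ : ℂ} (hζ : ζ ∈ E) {c b t : ℝ}
    (h : connectedComponentIn E ζ = vseg c b t) (hbt : t ≤ b) : connectedComponentIn E ζ = {ζ} := by
  have h1 : ζ ∈ vseg c b t := h ▸ mem_connectedComponentIn hζ
  refine Subset.antisymm (fun w hw => ?_) (singleton_subset_iff.2 (mem_connectedComponentIn hζ))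
  rw [h] at hw
  rw [mem_singleton_iff]
  refine Complex.ext (hw.1.trans h1.1.symm) ?_
  linarith [hw.2.1, hw.2.2, h1.2.1, h1.2.2]

end Crest.Agent.R105.Pic_442
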