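import Mathlib

/-!
Row 105, leaf LIB-THIN (task 2222), part 1: clopen pieces of a compact set.

`Piece E F` : `F` is a clopen piece of the compact set `E`.
* `exists_piece` (T1): a component of `E` inside an open set `U` lies in a piece inside `U`;
* `exists_pieces` (T2): finitely many pairwise disjoint pieces covering a compact part.
-/

set_option autoImplicit false

open Set Metric Topology

namespace Crest.Agent.R105.Thin_891

variable {X : Type*}

/-- `F` is a clopen piece of `E` (both `F` and `E \ F` are compact). -/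
structure Piece [TopologicalSpace X] (E F : Set X) : Prop where
  sub : F ⊆ E
  cpt : IsCompact F
  cpt' : IsCompact (E \ F)

namespace Piece

variable [TopologicalSpace X] {E F F' G : Set X}

theorem whole (h : Piece E F) : IsCompact E := by
  have := h.cpt.union h.cpt'
  rwa [union_sdiff_cancel h.sub] at this

theorem self (hE : IsCompact E) : Piece E E := ⟨subset_rfl, hE, by simp⟩

theorem empty (hE : IsCompact E) : Piece E (∅ : Set X) :=
  ⟨empty_subset _, isCompact_empty, by simpa using hE⟩

theorem compl (h : Piece E F) : Piece E (E \ F) :=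
  ⟨sdiff_subset, h.cpt', by
    have : E \ (E \ F) = F := by rw [sdiff_sdiff_right_self, inter_eq_right.2 h.sub]
    rw [this]; exact h.cpt⟩

theorem inter [T2Space X] (h : Piece E F) (h' : Piece E F') : Piece E (F ∩ F') :=
  ⟨inter_subset_left.trans h.sub, h.cpt.inter h'.cpt, by
    rw [sdiff_inter]; exact h.cpt'.union h'.cpt'⟩

theorem union [T2Space X] (h : Piece E F) (h' : Piece E F') : Piece E (F ∪ F') :=
  ⟨union_subset h.sub h'.sub, h.cpt.union h'.cpt, by
    rw [← sdiff_inter_sdiff]; exact h.cpt'.inter h'.cpt'⟩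

theorem diff [T2Space X] (h : Piece E F) (h' : Piece E F') : Piece E (F \ F') := by
  have := h.inter h'.compl
  have e : F ∩ (E \ F') = F \ F' := by
    ext z
    constructor
    · rintro ⟨h1, _, h3⟩; exact ⟨h1, h3⟩
    · rintro ⟨h1, h3⟩; exact ⟨h1, h.sub h1, h3⟩
  rwa [e] at this

/-- pieces of pieces -/
theorem trans [T2Space X] (h : Piece E F) (h' : Piece F F') : Piece E F' :=
  ⟨h'.sub.trans h.sub, h'.cpt, by
    have e : E \ F' = (E \ F) ∪ (F \ F') := by
      ext z
      constructor
      · rintro ⟨h1, h2⟩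
        by_cases hz : z ∈ F
        · exact Or.inr ⟨hz, h2⟩
        · exact Or.inl ⟨h1, hz⟩
      · rintro (⟨h1, h2⟩ | ⟨h1, h2⟩)
        · exact ⟨h1, fun h3 => h2 (h'.sub h3)⟩
        · exact ⟨h.sub h1, h2⟩
    rw [e]
    exact h.cpt'.union h'.cpt'⟩

/-- a preconnected part of `E` meeting a piece lies in it. -/
theorem subset_of_isPreconnected [T2Space X] (h : Piece E F) {S : Set X} (hS : IsPreconnected S)
    (hSE : S ⊆ E) (hne : (S ∩ F).Nonempty) : S ⊆ F := by
  classical
  by_contra hcon
  obtain ⟨z, hzS, hzF⟩ := not_subset.1 hcon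
  obtain ⟨U, V, hU, hV, hFU, hFV, hUV⟩ :=
    SeparatedNhds.of_isCompact_isCompact h.cpt h.cpt' disjoint_sdiff_self_right
  obtain ⟨w, hwS, hwU, hwV⟩ := hS U V hU hV (fun x hx => by
      by_cases hxF : x ∈ F
      · exact Or.inl (hFU hxF)
      · exact Or.inr (hFV ⟨hSE hx, hxF⟩))
    (by obtain ⟨y, hy1, hy2⟩ := hne; exact ⟨y, hy1, hFU hy2⟩)
    ⟨z, hzS, hFV ⟨hSE hzS, hzF⟩⟩
  exact (Set.disjoint_left.1 hUV hwU) hwV

theorem component_subset [T2Space X] (h : Piece E F) {x : X} (hx : x ∈ F) :
    connectedComponentIn E x ⊆ F :=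
  h.subset_of_isPreconnected isPreconnected_connectedComponentIn
    (connectedComponentIn_subset E x) ⟨x, mem_connectedComponentIn (h.sub hx), hx⟩

/-- a component of `E` meeting the piece is contained in it. -/
theorem component_subset' [T2Space X] (h : Piece E F) {x : X}
    (hx : (connectedComponentIn E x ∩ F).Nonempty) :
    connectedComponentIn E x ⊆ F :=
  h.subset_of_isPreconnected isPreconnected_connectedComponentIn
    (connectedComponentIn_subset E x) hx

/-- the components of a piece are the components of the whole. -/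
theorem component_eq [T2Space X] (h : Piece E F) {x : X} (hx : x ∈ F) :
    connectedComponentIn F x = connectedComponentIn E x := by
  apply Subset.antisymm
  · exact isPreconnected_connectedComponentIn.subset_connectedComponentIn
      (mem_connectedComponentIn hx) ((connectedComponentIn_subset F x).trans h.sub)
  · exact isPreconnected_connectedComponentIn.subset_connectedComponentIn
      (mem_connectedComponentIn (h.sub hx)) (h.component_subset hx)

/-- a piece of a compact set is at positive distance from the rest. -/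
theorem exists_dist {Y : Type*} [MetricSpace Y] {E F : Set Y} (h : Piece E F) :
    ∃ δ : ℝ, 0 < δ ∧ ∀ x ∈ F, ∀ y ∈ E \ F, δ < dist x y := by
  obtain ⟨r, hr, H⟩ := Metric.exists_pos_forall_lt_edist h.cpt h.cpt'.isClosed
    disjoint_sdiff_self_right
  refine ⟨r, by exact_mod_cast hr, fun x hx y hy => ?_⟩
  have := H x hx y hy
  rw [edist_dist] at this
  have h2 : ENNReal.ofReal (r : ℝ) < ENNReal.ofReal (dist x y) := by simpa using this
  exact (ENNReal.ofReal_lt_ofReal_iff_of_nonneg r.2).1 h2

end Piece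

/-- (T1) a component of a compact set `E`, contained in an open set `U`, lies in a clopen piece
of `E` contained in `U`. -/
theorem exists_piece [TopologicalSpace X] [T2Space X] {E U : Set X} (hE : IsCompact E) {x : X}
    (hx : x ∈ E) (hU : IsOpen U) (hKU : connectedComponentIn E x ⊆ U) :
    ∃ F : Set X, Piece E F ∧ connectedComponentIn E x ⊆ F ∧ F ⊆ U := by
  classical
  have : CompactSpace E := isCompact_iff_compactSpace.1 hE
  let x' : E := ⟨x, hx⟩
  have hcomp : connectedComponentIn E x = Subtype.val '' connectedComponent x' :=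
    connectedComponentIn_eq_image hx
  have hsub : connectedComponent x' ⊆ Subtype.val ⁻¹' U := by
    rw [← image_subset_iff, ← hcomp]; exact hKU
  have hU' : IsOpen (Subtype.val ⁻¹' U : Set E) := hU.preimage continuous_subtype_val
  let ι := {s : Set E // IsClopen s ∧ x' ∈ s}
  have : Nonempty ι := ⟨⟨univ, isClopen_univ, mem_univ _⟩⟩
  have hdir : Directed (· ⊇ ·) (fun s : ι => s.1) := by
    intro a b
    refine ⟨⟨a.1 ∩ b.1, a.2.1.inter b.2.1, a.2.2, b.2.2⟩, inter_subset_left, inter_subset_right⟩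
  obtain ⟨s, hs⟩ := exists_subset_nhds_of_isCompact' (V := fun s : ι => s.1) hdir
    (fun s => s.2.1.isClosed.isCompact) (fun s => s.2.1.isClosed) (U := Subtype.val ⁻¹' U)
    (fun y hy => hU'.mem_nhds (hsub (by
      rw [connectedComponent_eq_iInter_isClopen]; exact hy)))
  refine ⟨Subtype.val '' s.1, ⟨?_, ?_, ?_⟩, ?_, ?_⟩
  · rintro _ ⟨y, _, rfl⟩; exact y.2
  · exact s.2.1.isClosed.isCompact.image continuous_subtype_val
  · have e : E \ (Subtype.val '' s.1) = Subtype.val '' (s.1)ᶜ := by
      ext z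
      constructor
      · rintro ⟨h1, h2⟩
        exact ⟨⟨z, h1⟩, fun h3 => h2 ⟨_, h3, rfl⟩, rfl⟩
      · rintro ⟨y, hy, rfl⟩
        refine ⟨y.2, ?_⟩
        rintro ⟨w, hw, hwy⟩
        exact hy (Subtype.ext hwy ▸ hw)
    rw [e]
    exact s.2.1.compl.isClosed.isCompact.image continuous_subtype_val
  · rw [hcomp]
    exact image_mono (s.2.1.connectedComponent_subset s.2.2)
  · rw [image_subset_iff]; exact hs

/-- (T2) a compact part `G` of `E` is covered by finitely many pairwise disjoint clopen pieces,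
each inside the prescribed open neighbourhood of the component of a point of `G`; every piece
meets `G`. -/
theorem exists_pieces [TopologicalSpace X] [T2Space X] {E G : Set X} (hE : IsCompact E)
    (hG : IsCompact G) (hGE : G ⊆ E) (U : X → Set X) (hU : ∀ x ∈ G, IsOpen (U x))
    (hKU : ∀ x ∈ G, connectedComponentIn E x ⊆ U x) :
    ∃ (n : ℕ) (p : Fin n → X) (F : Fin n → Set X),
      (∀ i, p i ∈ G) ∧ (∀ i, Piece E (F i)) ∧ (∀ i, F i ⊆ U (p i)) ∧
      (∀ i, (F i ∩ G).Nonempty) ∧ Pairwise (fun i j => Disjoint (F i) (F j)) ∧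
      G ⊆ ⋃ i, F i := by
  classical
  -- choose a piece for every point
  have hch : ∀ x : G, ∃ F : Set X, Piece E F ∧ connectedComponentIn E x.1 ⊆ F ∧ F ⊆ U x.1 :=
    fun x => exists_piece hE (hGE x.2) (hU x.1 x.2) (hKU x.1 x.2)
  choose F hF hKF hFU using hch
  -- open sets separating the piece from the rest
  have hsep : ∀ x : G, ∃ O : Set X, IsOpen O ∧ F x ⊆ O ∧ Disjoint O (E \ F x) := by
    intro x
    obtain ⟨U₁, V₁, h1, h2, h3, h4, h5⟩ :=
      SeparatedNhds.of_isCompact_isCompact (hF x).cpt (hF x).cpt' disjoint_sdiff_self_right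
    exact ⟨U₁, h1, h3, h5.mono_right h4⟩
  choose O hO hFO hOE using hsep
  obtain ⟨t, ht⟩ := hG.elim_finite_subcover O hO (fun x hx => mem_iUnion.2
    ⟨⟨x, hx⟩, hFO _ (hKF ⟨x, hx⟩ (mem_connectedComponentIn (hGE hx)))⟩)
  have ht' : G ⊆ ⋃ x ∈ t, F x := by
    intro y hy
    obtain ⟨x, hx, hyx⟩ := mem_iUnion₂.1 (ht hy)
    refine mem_iUnion₂.2 ⟨x, hx, ?_⟩
    by_contra hcon
    exact (Set.disjoint_left.1 (hOE x) hyx) ⟨hGE hy, hcon⟩
  -- enumerate
  let m := t.card
  let e : Fin m ≃ t := t.equivFin.symm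
  let F₁ : Fin m → Set X := fun i => F (e i).1 \ ⋃ j : {j : Fin m // j < i}, F (e j.1).1
  have hpiece : ∀ i, Piece E (F₁ i) := by
    intro i
    have hun : ∀ s : Finset (Fin m), Piece E (⋃ j ∈ s, F (e j).1) := by
      intro s
      induction s using Finset.induction_on with
      | empty => simpa using Piece.empty hE
      | insert a s ha ih => rw [Finset.set_biUnion_insert]; exact (hF _).union ih
    have e1 : (⋃ j : {j : Fin m // j < i}, F (e j.1).1) =
        ⋃ j ∈ (Finset.univ.filter (fun j : Fin m => j < i)), F (e j).1 := by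
      ext z; simp
    change Piece E (F (e i).1 \ ⋃ j : {j : Fin m // j < i}, F (e j.1).1)
    rw [e1]
    exact (hF _).diff (hun _)
  have hdisj : ∀ i j, i ≠ j → Disjoint (F₁ i) (F₁ j) := by
    have key : ∀ i j, i < j → Disjoint (F₁ i) (F₁ j) := by
      intro i j hij
      rw [Set.disjoint_left]
      rintro z ⟨h1, _⟩ ⟨_, h2⟩
      exact h2 (mem_iUnion.2 ⟨⟨i, hij⟩, h1⟩)
    intro i j hij
    rcases lt_or_gt_of_ne hij with h | h
    · exact key i j h
    · exact (key j i h).symm
  have hcov : G ⊆ ⋃ i, F₁ i := by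
    intro y hy
    obtain ⟨x, hx, hyx⟩ := mem_iUnion₂.1 (ht' hy)
    have hne : (Finset.univ.filter (fun i : Fin m => y ∈ F (e i).1)).Nonempty := by
      refine ⟨e.symm ⟨x, hx⟩, ?_⟩
      simp [hyx]
    let i₀ := (Finset.univ.filter (fun i : Fin m => y ∈ F (e i).1)).min' hne
    have hi₀ : y ∈ F (e i₀).1 := (Finset.mem_filter.1 (Finset.min'_mem _ hne)).2
    refine mem_iUnion.2 ⟨i₀, hi₀, ?_⟩
    intro hcon
    obtain ⟨⟨j, hj⟩, hyj⟩ := mem_iUnion.1 hcon
    have : i₀ ≤ j := Finset.min'_le _ _ (by simpa using hyj)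
    exact absurd hj (not_lt.2 this)
  -- keep the pieces meeting `G`
  let S : Finset (Fin m) := Finset.univ.filter (fun i => (F₁ i ∩ G).Nonempty)
  let e' : Fin S.card ≃ S := S.equivFin.symm
  refine ⟨S.card, fun i => (e (e' i).1).1.1, fun i => F₁ (e' i).1, fun i => (e (e' i).1).1.2,
    fun i => hpiece _, fun i => ?_, fun i => ?_, ?_, ?_⟩
  · exact sdiff_subset.trans (hFU _)
  · exact (Finset.mem_filter.1 (e' i).2).2
  · intro i j hij
    apply hdisj
    intro h
    exact hij (e'.injective (Subtype.ext h))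
  · intro y hy
    obtain ⟨i, hi⟩ := mem_iUnion.1 (hcov hy)
    have hiS : i ∈ S := by
      rw [Finset.mem_filter]; exact ⟨Finset.mem_univ _, ⟨y, hi, hy⟩⟩
    refine mem_iUnion.2 ⟨e'.symm ⟨i, hiS⟩, ?_⟩
    simpa using hi

end Crest.Agent.R105.Thin_891
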