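import Crest.Agent.R105.Ends3_897
import Crest.Agent.R105.Thin1_891

/-!
# Row 105: compact totally disconnected sets do not separate the plane (helper987)

* `isPreconnected_compl`, `isExteriorDomain_compl` : `Cᶜ` is an exterior domain
* `preconn_diff` : `G` open preconnected ⟹ `G \ C` preconnected
* `exists_mem_diff` : nonempty open sets are not contained in `C`
-/

set_option autoImplicit false

open Set Filter Topology Metric

namespace Crest.Agent.R105.Tdc_987

open Crest.AnalysisR Crest.Agent.R193.Planar Crest.Agent.R105.Ends_897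

/-- functions locally constant off `K` do not separate `p` and `q` -/
def NS (K : Set ℂ) (p q : ℂ) : Prop := ∀ c : ℂ → ℝ, LCOff K c → c p = c q

theorem NS.union {K1 K2 : Set ℂ} (h1 : IsCompact K1) (h2 : IsCompact K2) (hd : Disjoint K1 K2)
    {p q : ℂ} (hp : p ∉ K1 ∪ K2) (hq : q ∉ K1 ∪ K2) (n1 : NS K1 p q) (n2 : NS K2 p q) :
    NS (K1 ∪ K2) p q := by
  intro c hc
  obtain ⟨c1, c2, e1, e2, hs⟩ := split_C h1 h2.isClosed hd hc
  rw [hs p hp, hs q hq, n1 c1 e1, n2 c2 e2]

theorem NS.ball {K : Set ℂ} {a : ℂ} {r : ℝ} (hr : 0 ≤ r) (hK : K ⊆ closedBall a r) {p q : ℂ}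
    (hp : p ∉ closedBall a r) (hq : q ∉ closedBall a r) : NS K p q := by
  intro c hc
  exact (hc.mono hK).eq_of_preconnected (isPreconnected_compl_closedBall a hr)
    disjoint_compl_left hp hq

theorem cc_eq {C : Set ℂ} (td : IsTotallyDisconnected C) {z : ℂ} (hz : z ∈ C) :
    connectedComponentIn C z = {z} := by
  have h1 := td _ (connectedComponentIn_subset C z) isPreconnected_connectedComponentIn
  exact h1.eq_singleton_of_mem (mem_connectedComponentIn hz)

theorem ns_td {C : Set ℂ} (hC : IsCompact C) (td : IsTotallyDisconnected C) {p q : ℂ}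
    (hp : p ∉ C) (hq : q ∉ C) : NS C p q := by
  classical
  obtain ⟨ε, hε, he⟩ : ∃ ε > 0, ∀ x ∈ C, ε < dist p x ∧ ε < dist q x := by
    obtain ⟨ε1, h1, e1⟩ := Metric.mem_nhds_iff.1 (hC.isClosed.isOpen_compl.mem_nhds hp)
    obtain ⟨ε2, h2, e2⟩ := Metric.mem_nhds_iff.1 (hC.isClosed.isOpen_compl.mem_nhds hq)
    refine ⟨min ε1 ε2 / 2, by positivity, fun x hx => ⟨?_, ?_⟩⟩
    · by_contra hcon
      refine e1 (mem_ball.2 ?_) hx
      rw [dist_comm]
      have := min_le_left ε1 ε2
      have := lt_min h1 h2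
      linarith [not_lt.1 hcon]
    · by_contra hcon
      refine e2 (mem_ball.2 ?_) hx
      rw [dist_comm]
      have := min_le_right ε1 ε2
      have := lt_min h1 h2
      linarith [not_lt.1 hcon]
  obtain ⟨n, a, F, ha, hF, hFa, -, hFd, hFC⟩ := Crest.Agent.R105.Thin_891.exists_pieces hC hC
    subset_rfl (fun x => ball x ε) (fun x _ => isOpen_ball) (fun x hx => by
      rw [cc_eq td hx]; exact singleton_subset_iff.2 (mem_ball_self hε))
  have key : ∀ s : Finset (Fin n), NS (⋃ i ∈ s, F i) p q := by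
    intro s
    induction s using Finset.induction_on with
    | empty =>
      intro c hc
      have : LCOff (∅ : Set ℂ) c := by simpa using hc
      exact this.eq_of_preconnected isPreconnected_univ (disjoint_empty _).symm.symm
        (mem_univ p) (mem_univ q)
    | insert i s hi ih =>
      rw [Finset.set_biUnion_insert]
      have hsub : F i ∪ (⋃ j ∈ s, F j) ⊆ C := by
        refine union_subset (hF i).sub (iUnion₂_subset fun j _ => (hF j).sub)
      refine NS.union (hF i).cpt (s.isCompact_biUnion fun j _ => (hF j).cpt) ?_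
        (fun h => hp (hsub h)) (fun h => hq (hsub h)) ?_ ih
      · rw [disjoint_iUnion₂_right]
        intro j hj
        exact hFd (fun h => hi (h ▸ hj))
      · refine NS.ball hε.le ((hFa i).trans ball_subset_closedBall) ?_ ?_
        · intro h; exact absurd (mem_closedBall.1 h) (not_le.2 (he _ (ha i)).1)
        · intro h; exact absurd (mem_closedBall.1 h) (not_le.2 (he _ (ha i)).2)
  have h1 := key Finset.univ
  have h2 : (⋃ i ∈ Finset.univ, F i) = C := by
    refine subset_antisymm (iUnion₂_subset fun j _ => (hF j).sub) ?_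
    intro x hx
    obtain ⟨i, hi⟩ := mem_iUnion.1 (hFC hx)
    exact mem_iUnion₂.2 ⟨i, Finset.mem_univ i, hi⟩
  rwa [h2] at h1

/-- a set that is not separated by locally constant functions is preconnected -/
theorem preconn_of_ns {C : Set ℂ} (hC : IsClosed C)
    (h : ∀ p q, p ∉ C → q ∉ C → NS C p q) : IsPreconnected Cᶜ := by
  classical
  have hSo : IsOpen Cᶜ := hC.isOpen_compl
  intro u v hu hv huv ⟨x, hxS, hxu⟩ ⟨y, hyS, hyv⟩
  by_contra hcon
  rw [not_nonempty_iff_eq_empty] at hcon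
  set c : ℂ → ℝ := fun z => if z ∈ Cᶜ ∩ u then 1 else 0 with hcdef
  have hc : LCOff C c := by
    intro z hz
    by_cases hzu : z ∈ u
    · filter_upwards [(hSo.inter hu).mem_nhds ⟨hz, hzu⟩] with w hw
      simp only [hcdef]
      rw [if_pos hw, if_pos ⟨hz, hzu⟩]
    · have hzv : z ∈ v := (huv hz).resolve_left hzu
      filter_upwards [(hSo.inter hv).mem_nhds ⟨hz, hzv⟩] with w hw
      have hwu : w ∉ Cᶜ ∩ u := by
        intro hw'
        have : w ∈ Cᶜ ∩ (u ∩ v) := ⟨hw.1, hw'.2, hw.2⟩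
        rw [hcon] at this
        exact this
      simp only [hcdef]
      rw [if_neg hwu, if_neg fun h => hzu h.2]
  have hcx : c x = 1 := if_pos ⟨hxS, hxu⟩
  have hcy : c y = 0 := by
    refine if_neg fun h => ?_
    have : y ∈ Cᶜ ∩ (u ∩ v) := ⟨hyS, h.2, hyv⟩
    rw [hcon] at this
    exact this
  have := h x y hxS hyS c hc
  rw [hcx, hcy] at this
  exact one_ne_zero this

/-- **a compact totally disconnected set does not separate the plane** -/
theorem isPreconnected_compl {C : Set ℂ} (hC : IsCompact C) (td : IsTotallyDisconnected C) :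
    IsPreconnected Cᶜ :=
  preconn_of_ns hC.isClosed fun _ _ hp hq => ns_td hC td hp hq

/-- nonempty open sets are not contained in a totally disconnected set -/
theorem exists_mem_diff {C G : Set ℂ} (td : IsTotallyDisconnected C) (hG : IsOpen G)
    (hne : G.Nonempty) : (G \ C).Nonempty := by
  obtain ⟨z, hz⟩ := hne
  obtain ⟨ε, hε, he⟩ := Metric.mem_nhds_iff.1 (hG.mem_nhds hz)
  by_contra hcon
  rw [not_nonempty_iff_eq_empty, sdiff_eq_empty] at hcon
  have h1 := td (ball z ε) (he.trans hcon) (convex_ball z ε).isPreconnected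
  have h2 : z + ((ε / 2 : ℝ) : ℂ) ∈ ball z ε := by
    rw [mem_ball, dist_eq_norm, add_sub_cancel_left, Complex.norm_real, Real.norm_eq_abs,
      abs_of_pos (by positivity)]
    linarith
  have h3 := h1 h2 (mem_ball_self hε)
  have h4 : ((ε / 2 : ℝ) : ℂ) = 0 := by simpa using h3
  rw [Complex.ofReal_eq_zero] at h4
  linarith

theorem dense_compl {C : Set ℂ} (td : IsTotallyDisconnected C) : Dense Cᶜ := by
  rw [← interior_eq_empty_iff_dense_compl]
  by_contra hcon
  obtain ⟨z, hz, hz'⟩ := exists_mem_diff td isOpen_interior (nonempty_iff_ne_empty.2 hcon)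
  exact hz' (interior_subset hz)

/-- **the complement is an exterior domain** -/
theorem isExteriorDomain_compl {C : Set ℂ} (hC : IsCompact C) (td : IsTotallyDisconnected C) :
    IsExteriorDomain Cᶜ := by
  refine ⟨hC.isClosed.isOpen_compl, ⟨(dense_compl td).nonempty, isPreconnected_compl hC td⟩, ?_⟩
  obtain ⟨R, hR⟩ := hC.isBounded.subset_closedBall (0 : ℂ)
  refine ⟨R, fun z hz hzC => ?_⟩
  have := mem_closedBall_zero_iff.1 (hR hzC)
  linarith

/-- **`G \ C` is preconnected** -/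
theorem preconn_diff {C G : Set ℂ} (hC : IsCompact C) (td : IsTotallyDisconnected C)
    (hG : IsOpen G) (hGc : IsPreconnected G) : IsPreconnected (G \ C) := by
  classical
  -- good neighbourhoods
  have good : ∀ z ∈ G, ∃ N : Set ℂ, IsOpen N ∧ z ∈ N ∧ N ⊆ G ∧ IsPreconnected (N \ C) := by
    intro z hz
    by_cases hzC : z ∈ C
    · obtain ⟨B, hB, hB', hBC, hzB, hBG⟩ := exists_clopen hC hzC hG (by
        rw [cc_eq td hzC]; exact singleton_subset_iff.2 hz)
      set W : Set ℂ := G ∩ (C \ B)ᶜ with hW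
      have hWo : IsOpen W := hG.inter hB'.isClosed.isOpen_compl
      have hBW : B ⊆ W := fun y hy => ⟨hBG hy, fun h => h.2 hy⟩
      have hBtd : IsTotallyDisconnected B := fun t ht htc => td t (ht.trans hBC) htc
      have hzW : z ∈ W := hBW (by rw [cc_eq td hzC] at hzB; exact hzB rfl)
      have h1 := preconn_inter (V := Bᶜ) (Q := Wᶜ) (isPreconnected_compl hB hBtd)
        (by rwa [compl_compl]) hWo.isClosed_compl (compl_subset_compl.2 hBW) z
      rw [compl_compl] at h1
      refine ⟨connectedComponentIn W z, hWo.connectedComponentIn, mem_connectedComponentIn hzW,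
        (connectedComponentIn_subset _ _).trans inter_subset_left, ?_⟩
      have h2 : connectedComponentIn W z \ C = connectedComponentIn W z ∩ Bᶜ := by
        ext y
        constructor
        · rintro ⟨h3, h4⟩; exact ⟨h3, fun h5 => h4 (hBC h5)⟩
        · rintro ⟨h3, h4⟩
          refine ⟨h3, fun h5 => ?_⟩
          exact (connectedComponentIn_subset _ _ h3).2 ⟨h5, h4⟩
      rw [h2]; exact h1
    · obtain ⟨ε, hε, he⟩ := Metric.mem_nhds_iff.1
        ((hG.inter hC.isClosed.isOpen_compl).mem_nhds ⟨hz, hzC⟩)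
      refine ⟨ball z ε, isOpen_ball, mem_ball_self hε, fun y hy => (he hy).1, ?_⟩
      have : ball z ε \ C = ball z ε := by
        rw [sdiff_eq_left, disjoint_left]
        exact fun y hy => (he hy).2
      rw [this]; exact (convex_ball z ε).isPreconnected
  intro u v hu hv huv ⟨x, hxS, hxu⟩ ⟨y, hyS, hyv⟩
  by_contra hcon
  rw [not_nonempty_iff_eq_empty] at hcon
  -- the two open sets
  set U' : Set ℂ := ⋃₀ {N | IsOpen N ∧ N ⊆ G ∧ N \ C ⊆ u} with hU'
  set V' : Set ℂ := ⋃₀ {N | IsOpen N ∧ N ⊆ G ∧ N \ C ⊆ v} with hV'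
  have hU'o : IsOpen U' := isOpen_sUnion fun N hN => hN.1
  have hV'o : IsOpen V' := isOpen_sUnion fun N hN => hN.1
  have hcov : G ⊆ U' ∪ V' := by
    intro z hz
    obtain ⟨N, hNo, hzN, hNG, hNc⟩ := good z hz
    have hsub : N \ C ⊆ u ∪ v := fun w hw => huv ⟨hNG hw.1, hw.2⟩
    have hemp : (N \ C) ∩ (u ∩ v) = ∅ := by
      rw [eq_empty_iff_forall_notMem]
      rintro w ⟨h1, h2⟩
      have : w ∈ (G \ C) ∩ (u ∩ v) := ⟨⟨hNG h1.1, h1.2⟩, h2⟩
      rw [hcon] at this; exact this
    by_cases h1 : ((N \ C) ∩ u).Nonempty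
    · left
      refine mem_sUnion.2 ⟨N, ⟨hNo, hNG, ?_⟩, hzN⟩
      by_contra h2
      obtain ⟨w, hw, hwu⟩ := not_subset.1 h2
      have h3 := hNc u v hu hv hsub h1 ⟨w, hw, (hsub hw).resolve_left hwu⟩
      rw [hemp] at h3
      exact not_nonempty_empty h3
    · right
      refine mem_sUnion.2 ⟨N, ⟨hNo, hNG, fun w hw => ?_⟩, hzN⟩
      exact (hsub hw).resolve_left fun h2 => h1 ⟨w, hw, h2⟩
  have hx' : (G ∩ U').Nonempty := by
    refine ⟨x, hxS.1, ?_⟩
    rcases hcov hxS.1 with h | h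
    · exact h
    · exfalso
      obtain ⟨N, ⟨_, _, h3⟩, h4⟩ := mem_sUnion.1 h
      have : x ∈ (G \ C) ∩ (u ∩ v) := ⟨hxS, hxu, h3 ⟨h4, hxS.2⟩⟩
      rw [hcon] at this; exact this
  have hy' : (G ∩ V').Nonempty := by
    refine ⟨y, hyS.1, ?_⟩
    rcases hcov hyS.1 with h | h
    · exfalso
      obtain ⟨N, ⟨_, _, h3⟩, h4⟩ := mem_sUnion.1 h
      have : y ∈ (G \ C) ∩ (u ∩ v) := ⟨hyS, h3 ⟨h4, hyS.2⟩, hyv⟩
      rw [hcon] at this; exact this
    · exact h
  obtain ⟨w, hwG, hwU, hwV⟩ := hGc U' V' hU'o hV'o hcov hx' hy'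
  obtain ⟨w', hw', hw'C⟩ := exists_mem_diff td (hU'o.inter hV'o) ⟨w, hwU, hwV⟩
  obtain ⟨N, ⟨_, hNG, h3⟩, h4⟩ := mem_sUnion.1 hw'.1
  obtain ⟨N', ⟨_, _, h3'⟩, h4'⟩ := mem_sUnion.1 hw'.2
  have : w' ∈ (G \ C) ∩ (u ∩ v) := ⟨⟨hNG h4, hw'C⟩, h3 ⟨h4, hw'C⟩, h3' ⟨h4', hw'C⟩⟩
  rw [hcon] at this; exact this

end Crest.Agent.R105.Tdc_987
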