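import Crest.Agent.R105.IfB1_641
import Crest.Agent.R105.Pic2_442
import Crest.Agent.R105.Ext1_616
import Crest.Agent.R105.Tdc1_987

/-!
# Row 105, [B], middle join 1 (helper987)

* `green` : `∫ ⟨∇f, ∇ψ⟩ = -∫ ψ Δf` (`f` smooth, `= re` far away, `ψ` Lipschitz, compact support)
* `di_x0` : the same over `Cᶜ` for `x0` and `ψ ∈ Q C` with compact support
* `Pk.el_cpt` : E-L of `x = x0 + φ` for compactly supported tests
* `Pk.gen_mul` : `χ * (x0 + φ)` is generated
* `nullp : NULLP`, `extp : EXTP`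
-/

set_option autoImplicit false

open MeasureTheory Set Filter Topology Metric
open scoped ContDiff NNReal

namespace Crest.Agent.R105.Mid_987

open Crest.AnalysisR Crest.Agent.R105.IfB_641

/-! ### cut-offs -/

theorem exists_cut_in {K O : Set ℂ} (hK : IsCompact K) (hO : IsOpen O) (hKO : K ⊆ O) :
    ∃ ρ : ℂ → ℝ, ContDiff ℝ ∞ ρ ∧ HasCompactSupport ρ ∧ tsupport ρ ⊆ O ∧
      (∀ z ∈ K, ∀ᶠ y in 𝓝 z, ρ y = 1) ∧ ∀ y, ρ y ∈ Icc (0 : ℝ) 1 := by
  obtain ⟨V, hVo, hKV, hVO, hVc⟩ := exists_open_between_and_isCompact_closure hK hO hKO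
  obtain ⟨f, hf1, hf0, hf⟩ := exists_contMDiffMap_one_nhds_of_subset_interior
    (modelWithCornersSelf ℝ ℂ) (n := (⊤ : ℕ∞)) hK.isClosed (t := V)
    (hKV.trans (interior_eq_iff_isOpen.mpr hVo).ge)
  have hsm : ContDiff ℝ ∞ (f : ℂ → ℝ) := f.contMDiff.contDiff
  have hts : tsupport (f : ℂ → ℝ) ⊆ closure V := by
    apply closure_mono
    intro x hx
    by_contra h
    exact hx (hf0 x h)
  exact ⟨f, hsm, hVc.of_isClosed_subset isClosed_closure hts, hts.trans hVO,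
    fun z hz => (eventually_nhdsSet_iff_forall.1 hf1) z hz, hf⟩

theorem ll_smooth {f : ℂ → ℝ} (hf : ContDiff ℝ ∞ f) : LocallyLipschitz f :=
  (hf.of_le (by simp)).locallyLipschitz

theorem ll_on {f : ℂ → ℝ} (hf : LocallyLipschitz f) (O : Set ℂ) : LocallyLipschitzOn O f := by
  intro z _
  obtain ⟨K, t, ht, h⟩ := hf z
  exact ⟨K, t, mem_nhdsWithin_of_mem_nhds ht, h⟩

/-- smooth, compact support, locally constant near `C` -/
theorem lc_of_smooth {C : Set ℂ} {χ : ℂ → ℝ} (h : ContDiff ℝ ∞ χ) (hc : HasCompactSupport χ)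
    (hl : ∀ z ∈ C, ∀ᶠ w in 𝓝 z, χ w = χ z) : LC C χ :=
  Bd_775.LC.of_compact (ll_smooth h) hc hl

/-! ### Green's formula -/

theorem lip_of_far {g : ℂ → ℝ} (hg : ContDiff ℝ ∞ g) {c R : ℝ} (h : ∀ z, R < ‖z‖ → g z = c) :
    ∃ K, LipschitzWith K g := by
  have h1 : HasCompactSupport (fun z => g z - c) := by
    refine HasCompactSupport.intro (isCompact_closedBall (0 : ℂ) R) fun z hz => ?_
    rw [mem_closedBall_zero_iff, not_le] at hz
    rw [h z hz, sub_self]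
  obtain ⟨K, hK⟩ := ContDiff.lipschitzWith_of_hasCompactSupport h1
    (hg.sub contDiff_const : ContDiff ℝ ∞ (fun z => g z - c)) (by simp)
  refine ⟨K, LipschitzWith.of_dist_le_mul fun x y => ?_⟩
  have := hK.dist_le_mul x y
  simpa [Real.dist_eq] using this

theorem contDiff_gx {f : ℂ → ℝ} (hf : ContDiff ℝ ∞ f) : ContDiff ℝ ∞ (gx f) := by
  have : ContDiff ℝ ∞ (fderiv ℝ f) := hf.fderiv_right (by simp)
  exact this.clm_apply contDiff_const

theorem contDiff_gy {f : ℂ → ℝ} (hf : ContDiff ℝ ∞ f) : ContDiff ℝ ∞ (gy f) := by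
  have : ContDiff ℝ ∞ (fderiv ℝ f) := hf.fderiv_right (by simp)
  exact this.clm_apply contDiff_const

theorem gx_re (z : ℂ) : gx Complex.re z = 1 := by
  have : fderiv ℝ Complex.re z = Complex.reCLM := Complex.reCLM.hasFDerivAt.fderiv
  simp [Bd_775.gx, this]

theorem gy_re (z : ℂ) : gy Complex.re z = 0 := by
  have : fderiv ℝ Complex.re z = Complex.reCLM := Complex.reCLM.hasFDerivAt.fderiv
  simp [Bd_775.gy, this]

theorem int_parts {g ψ : ℂ → ℝ} {Kg Kψ : ℝ≥0} (hg : LipschitzWith Kg g)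
    (hgs : ContDiff ℝ ∞ g) (hψ : LipschitzWith Kψ ψ) (hc : HasCompactSupport ψ) (v : ℂ) :
    ∫ z, fderiv ℝ ψ z v * g z = - ∫ z, fderiv ℝ g z v * ψ z := by
  have h := hg.integral_lineDeriv_mul_eq (μ := (volume : Measure ℂ)) hψ hc v
  have h1 : ∫ z, lineDeriv ℝ g z v * ψ z = ∫ z, fderiv ℝ g z v * ψ z := by
    refine integral_congr_ae (Eventually.of_forall fun z => ?_)
    simp only []
    rw [(hgs.differentiable (by simp)).differentiableAt.lineDeriv_eq_fderiv]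
  have h2 : ∫ z, lineDeriv ℝ ψ z (-v) * g z = - ∫ z, fderiv ℝ ψ z v * g z := by
    rw [← integral_neg]
    refine integral_congr_ae ?_
    filter_upwards [hψ.ae_differentiableAt (μ := (volume : Measure ℂ))] with z hz
    rw [hz.lineDeriv_eq_fderiv, map_neg, neg_mul]
  rw [h1, h2] at h
  linarith

theorem integrable_of_lip {g ψ : ℂ → ℝ} {Kψ : ℝ≥0} (hg : Continuous g)
    (hψ : LipschitzWith Kψ ψ) (hc : HasCompactSupport ψ) (v : ℂ) :
    Integrable (fun z => fderiv ℝ ψ z v * g z) := by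
  have hts : HasCompactSupport (fun z => fderiv ℝ ψ z v * g z) := by
    refine HasCompactSupport.intro (hc.isCompact) fun z hz => ?_
    have : ψ =ᶠ[𝓝 z] fun _ => (0 : ℝ) := notMem_tsupport_iff_eventuallyEq.1 hz
    rw [this.fderiv_eq]; simp
  obtain ⟨M, hM⟩ := (hc.isCompact).exists_bound_of_continuousOn (f := g) hg.continuousOn
  have h1 : IntegrableOn (fun z => fderiv ℝ ψ z v * g z) (tsupport ψ) := by
    refine Measure.integrableOn_of_bounded (M := Kψ * ‖v‖ * M)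
      hc.isCompact.measure_lt_top.ne
      ((measurable_fderiv_apply_const ℝ ψ v).mul hg.measurable).aestronglyMeasurable ?_
    rw [ae_restrict_iff' (isClosed_tsupport ψ).measurableSet]
    refine Eventually.of_forall fun z hz => ?_
    rw [norm_mul]
    have e1 : ‖fderiv ℝ ψ z v‖ ≤ Kψ * ‖v‖ :=
      ((fderiv ℝ ψ z).le_opNorm v).trans
        (mul_le_mul_of_nonneg_right (norm_fderiv_le_of_lipschitz ℝ hψ) (norm_nonneg _))
    exact mul_le_mul e1 (hM z hz) (norm_nonneg _) (by positivity)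
  rwa [integrableOn_iff_integrable_of_support_subset] at h1
  intro z hz
  by_contra h2
  refine hz ?_
  have : ψ =ᶠ[𝓝 z] fun _ => (0 : ℝ) := notMem_tsupport_iff_eventuallyEq.1 h2
  simp only []
  rw [this.fderiv_eq]; simp

/-- Green's formula -/
theorem green {f ψ : ℂ → ℝ} (hf : ContDiff ℝ ∞ f) {R : ℝ} (hfar : ∀ z, R ≤ ‖z‖ → f z = z.re)
    {K : ℝ≥0} (hψ : LipschitzWith K ψ) (hc : HasCompactSupport ψ) :
    Integrable (dot f ψ) ∧ ∫ z, dot f ψ z = - ∫ z, ψ z * lap f z := by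
  have hnear : ∀ z, R < ‖z‖ → f =ᶠ[𝓝 z] Complex.re := by
    intro z hz
    filter_upwards [(isOpen_lt continuous_const continuous_norm).mem_nhds hz] with w hw
    exact hfar w hw.le
  obtain ⟨Kx, hKx⟩ := lip_of_far (contDiff_gx hf) (c := 1) (R := R) fun z hz => by
    rw [Bd_775.gx_eq_of_eventuallyEq (hnear z hz), gx_re]
  obtain ⟨Ky, hKy⟩ := lip_of_far (contDiff_gy hf) (c := 0) (R := R) fun z hz => by
    rw [Bd_775.gy_eq_of_eventuallyEq (hnear z hz), gy_re]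
  have e1 := int_parts hKx (contDiff_gx hf) hψ hc 1
  have e2 := int_parts hKy (contDiff_gy hf) hψ hc Complex.I
  have i1 := integrable_of_lip (contDiff_gx hf).continuous hψ hc 1
  have i2 := integrable_of_lip (contDiff_gy hf).continuous hψ hc Complex.I
  have hd : dot f ψ = fun z => fderiv ℝ ψ z 1 * gx f z + fderiv ℝ ψ z Complex.I * gy f z := by
    funext z; unfold Bd_775.dot Bd_775.gx Bd_775.gy; ring
  have j1 : Integrable (fun z => fderiv ℝ (gx f) z 1 * ψ z) :=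
    (((contDiff_gx hf).continuous_fderiv (by simp)).clm_apply continuous_const |>.mul
      hψ.continuous).integrable_of_hasCompactSupport hc.mul_left
  have j2 : Integrable (fun z => fderiv ℝ (gy f) z Complex.I * ψ z) :=
    (((contDiff_gy hf).continuous_fderiv (by simp)).clm_apply continuous_const |>.mul
      hψ.continuous).integrable_of_hasCompactSupport hc.mul_left
  refine ⟨by rw [hd]; exact i1.add i2, ?_⟩
  rw [hd, integral_add i1 i2, e1, e2, ← neg_add, ← integral_add j1 j2]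
  congr 1
  refine integral_congr_ae (Eventually.of_forall fun z => ?_)
  simp only [lap, Bd_775.gx, Bd_775.gy]
  ring

/-- Green's formula for `x0` over `Cᶜ` -/
theorem di_x0 {C : Set ℂ} (hC : IsCompact C) {x0 ψ : ℂ → ℝ} (hx : X0 C x0) (hψ : Q C ψ)
    (hc : HasCompactSupport ψ) :
    IntegrableOn (dot x0 ψ) Cᶜ ∧ di C x0 ψ = - ∫ z, ψ z * lap x0 z := by
  classical
  obtain ⟨R, hR⟩ := hx.far
  have hK : IsCompact (tsupport ψ ∩ tsupport x0) := hc.isCompact.inter_right (isClosed_tsupport x0)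
  obtain ⟨ρ, hρ, hρc, hρC, hρ1, hρ01⟩ := exists_cut_in hK hC.isClosed.isOpen_compl
    (inter_subset_right.trans hx.zero)
  set ψ' : ℂ → ℝ := fun z => ρ z * ψ z with hψ'
  have hc' : HasCompactSupport ψ' := hρc.mul_right
  obtain ⟨M, hM⟩ := hψ.bdd
  have hll : LocallyLipschitz ψ' := by
    intro z
    by_cases hz : z ∈ C
    · have h1 : ρ =ᶠ[𝓝 z] fun _ => (0 : ℝ) :=
        notMem_tsupport_iff_eventuallyEq.1 fun h => (hρC h) hz
      obtain ⟨t, ht, hto⟩ : ∃ t ∈ 𝓝 z, ∀ w ∈ t, ρ w = 0 := ⟨_, h1, fun w hw => hw⟩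
      refine ⟨0, t, ht, LipschitzOnWith.of_dist_le_mul fun a ha b hb => ?_⟩
      simp only [hψ', hto a ha, hto b hb]
      simp
    · have h1 : LocallyLipschitzOn Cᶜ ψ' :=
        Bd_775.ll_mul (M := max 1 M) (ll_on (ll_smooth hρ) _) hψ.loc
          (fun w => by
            rw [abs_of_nonneg (hρ01 w).1]; exact (hρ01 w).2.trans (le_max_left _ _))
          (fun w => (hM w).trans (le_max_right _ _))
      obtain ⟨K, t, ht, h2⟩ := h1 hz
      rw [hC.isClosed.isOpen_compl.nhdsWithin_eq hz] at ht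
      exact ⟨K, t, ht, h2⟩
  obtain ⟨K, hKl⟩ := Bd_775.lipschitz_of_compact hll hc'
  obtain ⟨g1, g2⟩ := green hx.sm hR hKl hc'
  have hz0 : ∀ z, z ∉ tsupport x0 → gx x0 z = 0 ∧ gy x0 z = 0 ∧ lap x0 z = 0 := by
    intro z hz
    have h1 : x0 =ᶠ[𝓝 z] fun _ => (0 : ℝ) := notMem_tsupport_iff_eventuallyEq.1 hz
    have h2 : gx x0 =ᶠ[𝓝 z] fun _ => (0 : ℝ) := by
      filter_upwards [h1.eventually_nhds] with w hw
      rw [Bd_775.gx_eq_of_eventuallyEq hw, Bd_775.gx_const]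
    have h3 : gy x0 =ᶠ[𝓝 z] fun _ => (0 : ℝ) := by
      filter_upwards [h1.eventually_nhds] with w hw
      rw [Bd_775.gy_eq_of_eventuallyEq hw, Bd_775.gy_const]
    refine ⟨h2.self_of_nhds, h3.self_of_nhds, ?_⟩
    unfold lap
    rw [Bd_775.gx_eq_of_eventuallyEq h2, Bd_775.gy_eq_of_eventuallyEq h3, Bd_775.gx_const,
      Bd_775.gy_const, add_zero]
  have heq : ∀ z, dot x0 ψ' z = dot x0 ψ z ∧ ψ' z * lap x0 z = ψ z * lap x0 z := by
    intro z
    by_cases h1 : z ∈ tsupport x0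
    · by_cases h2 : z ∈ tsupport ψ
      · have h3 : ψ' =ᶠ[𝓝 z] ψ := by
          filter_upwards [hρ1 z ⟨h2, h1⟩] with w hw
          simp only [hψ', hw, one_mul]
        refine ⟨?_, by rw [h3.self_of_nhds]⟩
        unfold Bd_775.dot
        rw [Bd_775.gx_eq_of_eventuallyEq h3, Bd_775.gy_eq_of_eventuallyEq h3]
      · have h3 : ψ =ᶠ[𝓝 z] fun _ => (0 : ℝ) := notMem_tsupport_iff_eventuallyEq.1 h2
        have h4 : ψ' =ᶠ[𝓝 z] ψ := by
          filter_upwards [h3] with w hw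
          simp only [hψ', hw, mul_zero]
        refine ⟨?_, by rw [h4.self_of_nhds]⟩
        unfold Bd_775.dot
        rw [Bd_775.gx_eq_of_eventuallyEq h4, Bd_775.gy_eq_of_eventuallyEq h4]
    · obtain ⟨a1, a2, a3⟩ := hz0 z h1
      refine ⟨?_, by rw [a3, mul_zero, mul_zero]⟩
      unfold Bd_775.dot
      rw [a1, a2]; ring
  have hd : dot x0 ψ' = dot x0 ψ := funext fun z => (heq z).1
  rw [hd] at g1 g2
  refine ⟨g1.integrableOn, ?_⟩
  have h5 : di C x0 ψ = ∫ z, dot x0 ψ z := by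
    unfold di
    refine setIntegral_eq_integral_of_forall_compl_eq_zero fun z hz => ?_
    have hzC : z ∈ C := not_not.1 hz
    obtain ⟨a1, a2, -⟩ := hz0 z fun h => hx.zero h hzC
    unfold Bd_775.dot
    rw [a1, a2]; ring
  rw [h5, g2]
  congr 1
  exact integral_congr_ae (Eventually.of_forall fun z => (heq z).2)

/-! ### E-L for compactly supported tests -/

theorem T1.toQ {C : Set ℂ} {ψ : ℂ → ℝ} (h : T1 C ψ) : Q C ψ := by
  rcases h with h | ⟨q, -, h⟩
  · exact h.q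
  · exact h.toQ

section
variable {C : Set ℂ} {x0 φ : ℂ → ℝ} {b : ℕ → ℂ → ℝ} {p : ℂ → ℂ}

theorem Gen.cont {S : Set (ℂ → ℝ)} (hS : ∀ s ∈ S, Continuous s) {u : ℂ → ℝ} (hu : Gen C S u) :
    Continuous u :=
  Bd_775.Gen.cont (fun s : S => hS s s.2) hu

theorem Pk.cont (h : Pk C x0 b φ) : ∀ s ∈ insert φ (range b), Continuous s := by
  rintro s (rfl | ⟨i, rfl⟩)
  · exact h.memφ.cont
  · exact (h.memb i).cont

theorem Pk.q (h : Pk C x0 b φ) : ∀ s ∈ insert φ (range b), Q C s := by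
  rintro s (rfl | ⟨i, rfl⟩)
  · exact h.memφ.q
  · exact (h.memb i).q

theorem Pk.gen_d (h : Pk C x0 b φ) {u : ℂ → ℝ} (hu : Gen C (insert φ (range b)) u) : D C u :=
  (Gen.q h.td.cpt.isClosed (Pk.q h) hu).d (Gen.cont (Pk.cont h) hu)

theorem Pk.xcont (h : Pk C x0 b φ) : Continuous fun z => x0 z + φ z :=
  h.hx0.sm.continuous.add h.memφ.cont

theorem Pk.xloc (h : Pk C x0 b φ) : LocallyLipschitzOn Cᶜ fun z => x0 z + φ z :=
  Bd_775.ll_add (ll_on (ll_smooth h.hx0.sm) _) h.memφ.loc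

/-- E-L of `x = x0 + φ` for compactly supported tests -/
theorem Pk.el_cpt (h : Pk C x0 b φ) {ψ : ℂ → ℝ} (hT : T1 C ψ) (hc : HasCompactSupport ψ)
    (hi : Iso C (insert ψ (insert φ (range b)))) :
    IntegrableOn (dot (fun z => x0 z + φ z) ψ) Cᶜ ∧ di C (fun z => x0 z + φ z) ψ = 0 := by
  obtain ⟨g1, g2⟩ := di_x0 h.td.cpt h.hx0 (T1.toQ hT) hc
  have g3 : IntegrableOn (dot φ ψ) Cᶜ := Bd_775.integrableOn_dot h.memφ.q (T1.toQ hT)
  have g4 := h.el ψ hT hi
  unfold EL at g4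
  have hae : dot (fun z => x0 z + φ z) ψ =ᵐ[volume.restrict Cᶜ]
      fun z => dot x0 ψ z + dot φ ψ z := by
    filter_upwards [h.memφ.q.ae_diff h.td.cpt.isClosed] with z hz
    have hd : DifferentiableAt ℝ x0 z := (h.hx0.sm.differentiable (by simp)).differentiableAt
    unfold Bd_775.dot
    rw [Bd_775.gx_add hd hz, Bd_775.gy_add hd hz]; ring
  refine ⟨(g1.add g3).congr hae.symm, ?_⟩
  unfold di at *
  rw [integral_congr_ae hae, integral_add g1 g3, g2, g4]; ring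

theorem Pk.iso_of_gen (h : Pk C x0 b φ) {ψ : ℂ → ℝ} (hg : Gen C (insert φ (range b)) ψ) :
    Iso C (insert ψ (insert φ (range b))) := by
  refine Iso.trans (T := insert φ (range b)) (fun s hs => ?_) h.iso
  rcases hs with rfl | hs
  · exact hg
  · exact Gen.of hs

theorem Pk.el_gen (h : Pk C x0 b φ) {ψ : ℂ → ℝ} (hg : Gen C (insert φ (range b)) ψ)
    (hc : HasCompactSupport ψ) :
    IntegrableOn (dot (fun z => x0 z + φ z) ψ) Cᶜ ∧ di C (fun z => x0 z + φ z) ψ = 0 :=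
  Pk.el_cpt h (Or.inl (Pk.gen_d h hg)) hc (Pk.iso_of_gen h hg)

/-- localised coordinate: `κ x ∈ Gen` -/
theorem Pk.gen_mul (h : Pk C x0 b φ) {κ : ℂ → ℝ} (hκ : ContDiff ℝ ∞ κ) (hc : HasCompactSupport κ)
    (hl : ∀ z ∈ C, ∀ᶠ w in 𝓝 z, κ w = κ z) :
    Gen C (insert φ (range b)) (fun z => κ z * (x0 z + φ z)) := by
  have h1 : LC C (fun z => κ z * x0 z) := by
    refine lc_of_smooth (hκ.mul h.hx0.sm) hc.mul_right fun z hz => ?_
    have h2 : x0 =ᶠ[𝓝 z] fun _ => (0 : ℝ) :=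
      notMem_tsupport_iff_eventuallyEq.1 fun h' => (h.hx0.zero h') hz
    filter_upwards [h2] with w hw
    rw [hw, h2.self_of_nhds]; ring
  have h3 := Gen.add (Gen.lc (S := insert φ (range b)) h1)
    (Gen.mul (Gen.lc (lc_of_smooth hκ hc hl)) (Gen.of (C := C) (mem_insert φ (range b))))
  convert h3 using 2
  ring

/-- `Ψ(x) a ∈ Gen` for compactly supported `a ∈ Gen` and Lipschitz `Ψ` -/
theorem Pk.gen_comp_mul (h : Pk C x0 b φ) {Ψ : ℝ → ℝ} {K : ℝ≥0} (hΨ : LipschitzWith K Ψ)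
    {a : ℂ → ℝ} (ha : Gen C (insert φ (range b)) a) (hc : HasCompactSupport a) :
    Gen C (insert φ (range b)) (fun z => Ψ (x0 z + φ z) * a z) := by
  obtain ⟨κ, hκ, hκc, -, hκ1, -⟩ := exists_cut_in (hc.isCompact.union h.td.cpt) isOpen_univ
    (subset_univ _)
  have h1 : ∀ z ∈ C, ∀ᶠ w in 𝓝 z, κ w = κ z := by
    intro z hz
    have h2 := hκ1 z (Or.inr hz)
    filter_upwards [h2] with w hw
    rw [hw, h2.self_of_nhds]
  have h2 := Gen.mul (Gen.comp hΨ (Pk.gen_mul h hκ hκc h1)) ha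
  convert h2 using 2 with z
  by_cases hz : z ∈ tsupport a
  · rw [(hκ1 z (Or.inl hz)).self_of_nhds, one_mul]
  · rw [image_eq_zero_of_notMem_tsupport hz, mul_zero, mul_zero]

/-! ### `p` is an `EndMap` -/

theorem tendsto_cocompact {c : ℂ} (h : Tendsto (fun z => p z - z) (cocompact ℂ) (𝓝 c)) :
    Tendsto p (cocompact ℂ) (cocompact ℂ) := by
  have h1 : Tendsto (fun z => ‖p z‖) (cocompact ℂ) atTop := by
    have h2 : ∀ᶠ z in cocompact ℂ, ‖z‖ - (‖c‖ + 1) ≤ ‖p z‖ := by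
      have h3 := h.norm.eventually (gt_mem_nhds (lt_add_one ‖c‖))
      filter_upwards [h3] with z hz
      have : ‖z‖ ≤ ‖p z - z‖ + ‖p z‖ := by
        calc ‖z‖ = ‖p z - (p z - z)‖ := by rw [sub_sub_cancel]
          _ ≤ ‖p z‖ + ‖p z - z‖ := norm_sub_le _ _
          _ = _ := add_comm _ _
      linarith
    refine tendsto_atTop_mono' _ h2 ?_
    exact tendsto_atTop_add_const_right _ _ tendsto_norm_cocompact_atTop
  exact tendsto_norm_atTop_iff_cobounded.1 h1 |>.mono_right (by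
    rw [Metric.cobounded_eq_cocompact])

theorem endMap (hC : IsCompact C) (td : IsTotallyDisconnected C) (hd : DifferentiableOn ℂ p Cᶜ)
    (hi : InjOn p Cᶜ) (hinf : ∃ c : ℂ, Tendsto (fun z => p z - z) (cocompact ℂ) (𝓝 c)) :
    Ends_897.EndMap Cᶜ (p '' Cᶜ) p := by
  obtain ⟨c, hc⟩ := hinf
  exact Ends_897.EndMap.of_holo (Tdc_987.isExteriorDomain_compl hC td) hd hi
    (tendsto_cocompact hc)

theorem Pk.endMap (h : Pk C x0 b φ) (hp : Cpl C x0 φ p) (hi : InjOn p Cᶜ) :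
    Ends_897.EndMap Cᶜ (p '' Cᶜ) p :=
  Mid_987.endMap h.td.cpt h.td.td hp.hol hi hp.inf

end

/-- **NULLP** -/
theorem nullp : NULLP := by
  intro C x0 b φ p h hp hi
  have hE := Pk.endMap h hp hi
  refine Pic_442.volume_compl_zero hE hp.hol fun χ hχ hχc hχ1 => ?_
  rw [compl_compl] at hχ1
  have h1 : ∀ z ∈ C, ∀ᶠ w in 𝓝 z, χ w = χ z := by
    intro z hz
    have h2 := (eventually_nhdsSet_iff_forall.1 hχ1) z hz
    filter_upwards [h2] with w hw
    rw [hw, h2.self_of_nhds]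
  have h2 := Pk.el_gen h (Pk.gen_mul h hχ hχc h1) hχc.mul_right
  rw [← h2.2]
  unfold di
  refine setIntegral_congr_fun h.td.cpt.isClosed.isOpen_compl.measurableSet fun z hz => ?_
  have e1 : (fun z => (p z).re) =ᶠ[𝓝 z] fun z => x0 z + φ z := by
    filter_upwards [h.td.cpt.isClosed.isOpen_compl.mem_nhds hz] with w hw
    exact hp.re w hw
  have e2 : (fun z => χ z * (p z).re) =ᶠ[𝓝 z] fun z => χ z * (x0 z + φ z) := by
    filter_upwards [e1] with w hw
    rw [hw]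
  simp only [Bd_775.dot, Bd_775.gx, Bd_775.gy, e1.fderiv_eq, e2.fderiv_eq]

/-- **EXTP** -/
theorem extp : EXTP := by
  intro C p htd hd hi hinf ht
  have hE := endMap htd.cpt htd.td hd hi hinf
  exact Ext_616.exists_homeo hE
    (Ext_616.dust_of_isTotallyDisconnected (by rw [compl_compl]; exact htd.td))
    (Ext_616.dust_of_isTotallyDisconnected ht)

end Crest.Agent.R105.Mid_987
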