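import Crest.Agent.R105.Bd1_775
import Crest.Prelude.Def_CircleDomain

/-!
# Row 105, [B]: the literal carrier, version 2 = thin layer over `Bd1_775`

`gx gy en dot wdg Q D LC om` are helper775's (`Bd_775`); here: the SET version of `Gen` / `Iso`
(matches helper658's selection), one-atom functions `D1`, the Dirichlet form `di`, `X0`, `lap`,
`J`, `EL`, `T1`.
-/

set_option autoImplicit false

open MeasureTheory Set Filter Topology Metric
open scoped ContDiff NNReal

namespace Crest.Agent.R105.IfB_641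

export Crest.Agent.R105.Bd_775 (gx gy en dot wdg Q D LC om)

/-- honest off one atom `q` -/
structure D1 (C : Set ℂ) (q : ℂ) (u : ℂ → ℝ) : Prop where
  toQ : Q C u
  cont : ∀ z, z ≠ q → ContinuousAt u z

/-- the algebra generated by `LC C` and a SET `S` of functions (775's `Gen`) -/
def Gen (C : Set ℂ) (S : Set (ℂ → ℝ)) (u : ℂ → ℝ) : Prop :=
  Crest.Agent.R105.Bd_775.Gen C (fun s : S => (s : ℂ → ℝ)) u

/-- isotropic sets -/
def Iso (C : Set ℂ) (S : Set (ℂ → ℝ)) : Prop :=
  ∀ u v, Gen C S u → Gen C S v → om C u v = 0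

/-- the Dirichlet form over `Cᶜ` -/
noncomputable def di (C : Set ℂ) (u v : ℂ → ℝ) : ℝ := ∫ z in Cᶜ, dot u v z

/-- the coordinate, made constant near `C` -/
structure X0 (C : Set ℂ) (x0 : ℂ → ℝ) : Prop where
  sm : ContDiff ℝ ∞ x0
  zero : tsupport x0 ⊆ Cᶜ
  far : ∃ R : ℝ, ∀ z, R ≤ ‖z‖ → x0 z = z.re

/-- Laplacian -/
noncomputable def lap (u : ℂ → ℝ) (z : ℂ) : ℝ := gx (gx u) z + gy (gy u) z

/-- renormalised energy of `x0 + u` (minus that of `x0`) -/
noncomputable def J (C : Set ℂ) (x0 u : ℂ → ℝ) : ℝ := di C u u - 2 * ∫ z, u z * lap x0 z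

/-- Euler-Lagrange equation of `x0 + φ`, tested with `ψ` -/
def EL (C : Set ℂ) (x0 φ ψ : ℂ → ℝ) : Prop := di C φ ψ = ∫ z, ψ z * lap x0 z

/-- test class: honest, or one atom at a point of `C` -/
def T1 (C : Set ℂ) (ψ : ℂ → ℝ) : Prop := D C ψ ∨ ∃ q ∈ C, D1 C q ψ

/-! ### Set version versus family version -/

variable {C : Set ℂ} {S T : Set (ℂ → ℝ)} {u v : ℂ → ℝ}

theorem Gen.const (c : ℝ) : Gen C S (fun _ => c) := Bd_775.Gen.const c
theorem Gen.lc {χ : ℂ → ℝ} (h : LC C χ) : Gen C S χ := Bd_775.Gen.lc h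
theorem Gen.of (h : u ∈ S) : Gen C S u :=
  Bd_775.Gen.of (C := C) (b := fun s : S => (s : ℂ → ℝ)) ⟨u, h⟩
theorem Gen.add (hu : Gen C S u) (hv : Gen C S v) : Gen C S (fun z => u z + v z) :=
  Bd_775.Gen.add hu hv
theorem Gen.mul (hu : Gen C S u) (hv : Gen C S v) : Gen C S (fun z => u z * v z) :=
  Bd_775.Gen.mul hu hv
theorem Gen.comp {h : ℝ → ℝ} {K : ℝ≥0} (hh : LipschitzWith K h) (hu : Gen C S u) :
    Gen C S (fun z => h (u z)) := Bd_775.Gen.comp hh hu

theorem Gen.smul (c : ℝ) (hu : Gen C S u) : Gen C S (fun z => c * u z) :=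
  Gen.mul (Gen.const c) hu

theorem Gen.sub (hu : Gen C S u) (hv : Gen C S v) : Gen C S (fun z => u z - v z) := by
  have := Gen.add hu (Gen.smul (-1) hv)
  convert this using 2; ring

/-- generators replaced by generated functions -/
theorem Gen.trans (h : ∀ s ∈ S, Gen C T s) (hu : Gen C S u) : Gen C T u := by
  unfold Gen at hu
  induction hu with
  | const c => exact Gen.const c
  | lc h' => exact Gen.lc h'
  | of i => exact h _ i.2
  | add _ _ h1 h2 => exact Gen.add h1 h2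
  | mul _ _ h1 h2 => exact Gen.mul h1 h2
  | comp hh _ h1 => exact Gen.comp hh h1

theorem Gen.mono (h : S ⊆ T) (hu : Gen C S u) : Gen C T u :=
  Gen.trans (fun _ hs => Gen.of (h hs)) hu

theorem Iso.trans (h : ∀ s ∈ S, Gen C T s) (hT : Iso C T) : Iso C S :=
  fun _ _ hu hv => hT _ _ (Gen.trans h hu) (Gen.trans h hv)

theorem Iso.mono (h : S ⊆ T) (hT : Iso C T) : Iso C S :=
  Iso.trans (fun _ hs => Gen.of (h hs)) hT

/-- `Gen C (range b)` is 775's `Gen C b` -/
theorem gen_range {ι : Type*} {b : ι → ℂ → ℝ} : Gen C (range b) u ↔ Bd_775.Gen C b u := by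
  constructor
  · intro hu
    unfold Gen at hu
    induction hu with
    | const c => exact Bd_775.Gen.const c
    | lc h' => exact Bd_775.Gen.lc h'
    | of i =>
      obtain ⟨s, j, rfl⟩ := i
      exact Bd_775.Gen.of j
    | add _ _ h1 h2 => exact Bd_775.Gen.add h1 h2
    | mul _ _ h1 h2 => exact Bd_775.Gen.mul h1 h2
    | comp hh _ h1 => exact Bd_775.Gen.comp hh h1
  · intro hu
    induction hu with
    | const c => exact Gen.const c
    | lc h' => exact Gen.lc h'
    | of i => exact Gen.of (mem_range_self i)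
    | add _ _ h1 h2 => exact Gen.add h1 h2
    | mul _ _ h1 h2 => exact Gen.mul h1 h2
    | comp hh _ h1 => exact Gen.comp hh h1

theorem iso_range {ι : Type*} {b : ι → ℂ → ℝ} : Iso C (range b) ↔ Bd_775.Iso C b :=
  ⟨fun h _ _ hu hv => h _ _ (gen_range.2 hu) (gen_range.2 hv),
    fun h _ _ hu hv => h _ _ (gen_range.1 hu) (gen_range.1 hv)⟩

/-- members of the algebra of `Q` functions are `Q` -/
theorem Gen.q (hC : IsClosed C) (hS : ∀ s ∈ S, Q C s) (hu : Gen C S u) : Q C u :=
  Bd_775.Gen.q hC (fun i => hS _ i.2) hu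

end Crest.Agent.R105.IfB_641
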