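import Crest.Agent.R105.Tc1_808
import Crest.Agent.R105.IfB0_641

/-!
# Row 105, S0138 (T-frame), NULL IMAGE ISOTROPY (helper459, post #9956): literal definitions

`Y = Uᶜ` compact, `U` exterior domain, carrier `Tc1_808` (`Cmp`, `eK`, `osc`, `TT`).
All objects live on the whole plane (no quotient):
* `up Y u`, `lo Y u : ℂ → ℝ` : upper / lower envelope: `= u` off `Y`, upper / lower limit of `u` at
  the component of `z` for `z ∈ Y`  (`up` is upper, `lo` lower semicontinuous, both are constant on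
  the components of `Y`, `osc Y u K = up - lo` on `K`)
* `Lv Y u t = {lo ≤ t ≤ up}` : saturated level set
* `Swd Y u` : switched: `{t < lo}` and `{up < t}` have no bounded component
* `ZF Y a b F` : multivalued image of `F`;  `NP Y a b` : values at components without jump
* `NI Y a b : volume (NP Y a b) = 0`
* `SliceBd Y a f t` : `f` is controlled along the level `t` of `a` by a finite measure which on `Y`
  charges countably many components only
-/

set_option autoImplicit false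

open MeasureTheory Set Filter Topology Metric
open scoped NNReal ENNReal

namespace Crest.Agent.R105.Ni_459

open Bd_775 Ends_897 Tc_808 Crest.AnalysisR

noncomputable section

/-- open neighbourhoods of `z` and of its component in `Y` (if `z ∈ Y`) -/
structure Nb (Y : Set ℂ) (z : ℂ) (O : Set ℂ) : Prop where
  op : IsOpen O
  mem : z ∈ O
  sub : connectedComponentIn Y z ⊆ O

/-- upper envelope -/
def up (Y : Set ℂ) (u : ℂ → ℝ) (z : ℂ) : ℝ :=
  sInf {c | ∃ O, Nb Y z O ∧ ∀ w ∈ O, w ∉ Y → u w ≤ c}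

/-- lower envelope -/
def lo (Y : Set ℂ) (u : ℂ → ℝ) (z : ℂ) : ℝ := - up Y (fun w => - u w) z

/-- saturated level sets -/
def Lv (Y : Set ℂ) (u : ℂ → ℝ) (t : ℝ) : Set ℂ := {z | lo Y u z ≤ t ∧ t ≤ up Y u z}

/-- switched functions: no bounded components of superlevel / sublevel sets, all levels -/
structure Swd (Y : Set ℂ) (u : ℂ → ℝ) : Prop where
  gt : ∀ t z, t < lo Y u z → ¬ Bornology.IsBounded (connectedComponentIn {w | t < lo Y u w} z)
  lt : ∀ t z, up Y u z < t → ¬ Bornology.IsBounded (connectedComponentIn {w | up Y u w < t} z)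

/-- the multivalued image of `F` -/
def ZF (Y : Set ℂ) (a b : ℂ → ℝ) (F : Set ℂ) : Set (ℝ × ℝ) :=
  {p | ∃ z ∈ F, lo Y a z ≤ p.1 ∧ p.1 ≤ up Y a z ∧ lo Y b z ≤ p.2 ∧ p.2 ≤ up Y b z}

/-- values at the components where neither `a` nor `b` jumps -/
def NP (Y : Set ℂ) (a b : ℂ → ℝ) : Set (ℝ × ℝ) :=
  {p | ∃ z ∈ Y, lo Y a z = p.1 ∧ up Y a z = p.1 ∧ lo Y b z = p.2 ∧ up Y b z = p.2}

/-- **null image** -/
def NI (Y : Set ℂ) (a b : ℂ → ℝ) : Prop := volume (NP Y a b) = 0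

/-- control of `f` along the level `t` of `a` -/
def SliceBd (Y : Set ℂ) (a f : ℂ → ℝ) (t : ℝ) : Prop :=
  ∃ (ν : Measure ℂ) (S : Set ℂ), IsFiniteMeasure ν ∧ {K : Cmp Y | K.1 ⊆ S}.Countable ∧
    (∀ K : Cmp Y, (K.1 ∩ S).Nonempty → K.1 ⊆ S) ∧ ν (Y \ S) = 0 ∧
    ∀ C ⊆ Lv Y a t, IsCompact C → IsPreconnected C → (∀ z ∈ C, connectedComponentIn Y z ⊆ C) →
      ∀ p ∈ C \ Y, ∀ q ∈ C \ Y, |f p - f q| ≤ (ν C).toReal

/-- the measure `|da ∧ db| + Σ_K osc_K a osc_K b δ_K` of a saturated set -/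
def MU (Y : Set ℂ) (a b : ℂ → ℝ) (N : Set ℂ) : ℝ≥0∞ :=
  (∫⁻ z in N \ Y, ENNReal.ofReal |wdg a b z|) +
    ∑' K : {K : Cmp Y // (K.1 ∩ N).Nonempty}, ENNReal.ofReal (osc Y a K.1.1 * osc Y b K.1.1)

/-- bounded on bounded sets -/
def LB (u : ℂ → ℝ) : Prop := ∀ R : ℝ, ∃ M, ∀ z, ‖z‖ ≤ R → |u z| ≤ M

lemma LB.neg {u : ℂ → ℝ} (h : LB u) : LB fun z => - u z := fun R =>
  (h R).imp fun M h z hz => by rw [abs_neg]; exact h z hz

lemma LB.of_bdd {u : ℂ → ℝ} (h : ∃ M, ∀ z, |u z| ≤ M) : LB u := fun _ => h.imp fun _ h z _ => h z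

lemma LB.of_cont {u : ℂ → ℝ} (h : Continuous u) : LB u := by
  intro R
  obtain ⟨M, hM⟩ := (isCompact_closedBall (0 : ℂ) R).exists_bound_of_continuousOn h.continuousOn
  exact ⟨M, fun z hz => hM z (by simpa using hz)⟩

lemma LB.add {u v : ℂ → ℝ} (h : LB u) (h' : LB v) : LB fun z => u z + v z := by
  intro R
  obtain ⟨M, hM⟩ := h R
  obtain ⟨N, hN⟩ := h' R
  exact ⟨M + N, fun z hz => (abs_add_le _ _).trans (add_le_add (hM z hz) (hN z hz))⟩

section Env
variable {Y : Set ℂ} {u v : ℂ → ℝ} {z : ℂ} {c : ℝ} {O P : Set ℂ}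

lemma Nb.univ (Y : Set ℂ) (z : ℂ) : Nb Y z univ := ⟨isOpen_univ, mem_univ _, subset_univ _⟩

lemma Nb.inter (h : Nb Y z O) (h' : Nb Y z P) : Nb Y z (O ∩ P) :=
  ⟨h.op.inter h'.op, ⟨h.mem, h'.mem⟩, subset_inter h.sub h'.sub⟩

lemma Nb.mono (h : Nb Y z O) (hP : IsOpen P) (h' : O ⊆ P) : Nb Y z P :=
  ⟨hP, h' h.mem, h.sub.trans h'⟩

lemma nb_of_notMem (hz : z ∉ Y) (hO : IsOpen O) (h : z ∈ O) : Nb Y z O :=
  ⟨hO, h, by rw [connectedComponentIn_eq_empty hz]; exact empty_subset _⟩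

lemma nb_of_mem (hz : z ∈ Y) (hO : IsOpen O) (h : connectedComponentIn Y z ⊆ O) : Nb Y z O :=
  ⟨hO, h (mem_connectedComponentIn hz), h⟩

/-- bounded neighbourhoods -/
lemma exists_nb_ball (hY : IsCompact Y) (z : ℂ) : ∃ R, Nb Y z (ball 0 R) := by
  obtain ⟨C, hC⟩ := (isCompact_cc hY z).isBounded.exists_norm_le
  refine ⟨max C ‖z‖ + 1, isOpen_ball, ?_, fun w hw => ?_⟩
  · rw [mem_ball_zero_iff]; linarith [le_max_right C ‖z‖]
  · rw [mem_ball_zero_iff]; linarith [le_max_left C ‖z‖, hC w hw]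

/-- every neighbourhood meets the complement of `Y` -/
lemma Nb.nonempty (hY : IsExteriorDomain Yᶜ) (h : Nb Y z O) : (O \ Y).Nonempty := by
  by_cases hz : z ∈ Y
  · have h1 := eF_neBot hY (z := z) (fun h => h hz)
    rw [eF, compl_compl] at h1
    have h2 : O ∩ Yᶜ ∈ 𝓝ˢ (connectedComponentIn Y z) ⊓ 𝓟 Yᶜ :=
      inter_mem_inf (h.op.mem_nhdsSet.2 h.sub) (mem_principal_self _)
    exact h1.nonempty_of_mem h2
  · exact ⟨z, h.mem, hz⟩

/-- neighbourhoods with the same property at all their points -/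
lemma Nb.shrink (hY : IsCompact Y) (h : Nb Y z O) : ∃ P ⊆ O, Nb Y z P ∧ ∀ w ∈ P, Nb Y w O := by
  by_cases hz : z ∈ Y
  · obtain ⟨B, hB, hB', hBY, hzB, hBO⟩ := exists_clopen hY hz h.op h.sub
    obtain ⟨N, hN, hBN, -, hNd⟩ := exists_nhd hB hB'.isClosed
      (disjoint_left.2 fun x hx hx' => hx'.2 hx)
    refine ⟨N ∩ O, inter_subset_right, ⟨hN.inter h.op, ⟨hBN (hzB (mem_connectedComponentIn hz)), h.mem⟩,
      fun w hw => ⟨hBN (hzB hw), h.sub hw⟩⟩, fun w hw => ?_⟩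
    by_cases hwY : w ∈ Y
    · have hwB : w ∈ B := by
        by_contra hcon
        exact disjoint_left.1 hNd (subset_closure hw.1) ⟨hwY, hcon⟩
      refine nb_of_mem hwY h.op ?_
      -- the component of `w` stays in the clopen piece `B`
      have hpc : IsPreconnected (connectedComponentIn Y w) := isPreconnected_connectedComponentIn
      have h1 : connectedComponentIn Y w ⊆ B ∪ (Y \ B) := fun x hx => by
        by_cases hxB : x ∈ B
        · exact Or.inl hxB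
        · exact Or.inr ⟨connectedComponentIn_subset _ _ hx, hxB⟩
      have h2 : connectedComponentIn Y w ⊆ B := by
        refine (isPreconnected_iff_subset_of_disjoint_closed.1 hpc B (Y \ B) hB.isClosed
          hB'.isClosed h1 ?_).resolve_right fun hsub => ?_
        · ext x; simp only [mem_inter_iff, mem_empty_iff_false, iff_false]
          rintro ⟨-, hx, -, hx'⟩; exact hx' hx
        · exact (hsub (mem_connectedComponentIn hwY)).2 hwB
      exact h2.trans hBO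
    · exact nb_of_notMem hwY h.op hw.2
  · by_cases hcl : IsClosed Y
    · refine ⟨O ∩ Yᶜ, inter_subset_left, nb_of_notMem hz (h.op.inter hcl.isOpen_compl) ⟨h.mem, hz⟩,
        fun w hw => nb_of_notMem hw.2 h.op hw.1⟩
    · exact absurd hY.isClosed hcl

lemma up_set_bddBelow (hY : IsExteriorDomain Yᶜ) (hu : LB u) (z : ℂ) :
    BddBelow {c | ∃ O, Nb Y z O ∧ ∀ w ∈ O, w ∉ Y → u w ≤ c} := by
  have hYc : IsCompact Y := by simpa using isCompact_compl hY
  obtain ⟨R, hR⟩ := exists_nb_ball hYc z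
  obtain ⟨M, hM⟩ := hu R
  refine ⟨-M, ?_⟩
  rintro c ⟨O, hO, h⟩
  obtain ⟨w, hw, hwY⟩ := (hO.inter hR).nonempty hY
  have h1 := h w hw.1 hwY
  have h2 := hM w (mem_ball_zero_iff.1 hw.2).le
  linarith [(abs_le.1 h2).1]

lemma up_set_nonempty (hY : IsCompact Y) (hu : LB u) (z : ℂ) :
    {c | ∃ O, Nb Y z O ∧ ∀ w ∈ O, w ∉ Y → u w ≤ c}.Nonempty := by
  obtain ⟨R, hR⟩ := exists_nb_ball hY z
  obtain ⟨M, hM⟩ := hu R
  exact ⟨M, _, hR, fun w hw _ => (abs_le.1 (hM w (mem_ball_zero_iff.1 hw).le)).2⟩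

variable (hY : IsExteriorDomain Yᶜ)
include hY

lemma cpt_of : IsCompact Y := by simpa using isCompact_compl hY

lemma up_le (hu : LB u) (hO : Nb Y z O) (h : ∀ w ∈ O, w ∉ Y → u w ≤ c) : up Y u z ≤ c :=
  csInf_le (up_set_bddBelow hY hu z) ⟨O, hO, h⟩

lemma le_lo (hu : LB u) (hO : Nb Y z O) (h : ∀ w ∈ O, w ∉ Y → c ≤ u w) : c ≤ lo Y u z := by
  have := up_le (c := -c) hY hu.neg hO fun w hw hwY => neg_le_neg (h w hw hwY)
  unfold lo; linarith

lemma exists_lt_of_up_lt (hu : LB u) (h : up Y u z < c) :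
    ∃ O, Nb Y z O ∧ ∀ w ∈ O, w ∉ Y → u w < c := by
  obtain ⟨d, ⟨O, hO, h1⟩, h2⟩ := exists_lt_of_csInf_lt (up_set_nonempty (cpt_of hY) hu z) h
  exact ⟨O, hO, fun w hw hwY => (h1 w hw hwY).trans_lt h2⟩

lemma exists_gt_of_lt_lo (hu : LB u) (h : c < lo Y u z) :
    ∃ O, Nb Y z O ∧ ∀ w ∈ O, w ∉ Y → c < u w := by
  unfold lo at h
  obtain ⟨O, hO, h1⟩ := exists_lt_of_up_lt (c := -c) hY hu.neg (by linarith)
  exact ⟨O, hO, fun w hw hwY => by have := h1 w hw hwY; linarith⟩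

/-- the upper envelope is approached -/
lemma exists_of_lt_up (hu : LB u) (h : c < up Y u z) (hO : Nb Y z O) :
    ∃ w ∈ O, w ∉ Y ∧ c < u w := by
  by_contra hcon
  push Not at hcon
  exact absurd (up_le hY hu hO fun w hw hwY => hcon w hw hwY) (not_le.2 h)

lemma exists_of_lo_lt (hu : LB u) (h : lo Y u z < c) (hO : Nb Y z O) :
    ∃ w ∈ O, w ∉ Y ∧ u w < c := by
  by_contra hcon
  push Not at hcon
  exact absurd (le_lo hY hu hO fun w hw hwY => hcon w hw hwY) (not_le.2 h)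

lemma lo_le_up (hu : LB u) (z : ℂ) : lo Y u z ≤ up Y u z := by
  by_contra hcon
  push Not at hcon
  obtain ⟨c, h1, h2⟩ := exists_between hcon
  obtain ⟨O, hO, h3⟩ := exists_lt_of_up_lt hY hu h1
  obtain ⟨P, hP, h4⟩ := exists_gt_of_lt_lo hY hu h2
  obtain ⟨w, hw, hwY⟩ := (hO.inter hP).nonempty hY
  exact lt_asymm (h3 w hw.1 hwY) (h4 w hw.2 hwY)

lemma isOpen_up_lt (hu : LB u) (c : ℝ) : IsOpen {z | up Y u z < c} := by
  rw [isOpen_iff_mem_nhds]
  intro z hz
  obtain ⟨d, h1, h2⟩ := exists_between (show up Y u z < c from hz)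
  obtain ⟨O, hO, h3⟩ := exists_lt_of_up_lt hY hu h1
  obtain ⟨P, -, hP, hPO⟩ := hO.shrink (cpt_of hY)
  filter_upwards [hP.op.mem_nhds hP.mem] with w hw
  exact (up_le hY hu (hPO w hw) fun x hx hxY => (h3 x hx hxY).le).trans_lt h2

lemma isOpen_lt_lo (hu : LB u) (c : ℝ) : IsOpen {z | c < lo Y u z} := by
  have := isOpen_up_lt hY hu.neg (-c)
  convert this using 1
  ext z; simp only [lo, mem_ofPred_eq]; constructor <;> intro h <;> linarith

lemma usc_up (hu : LB u) : UpperSemicontinuous (up Y u) :=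
  upperSemicontinuous_iff_isOpen_preimage.2 fun c => isOpen_up_lt hY hu c

lemma lsc_lo (hu : LB u) : LowerSemicontinuous (lo Y u) :=
  lowerSemicontinuous_iff_isOpen_preimage.2 fun c => isOpen_lt_lo hY hu c

lemma up_of_notMem (hu : LB u) (hz : z ∉ Y) (hc : ContinuousAt u z) : up Y u z = u z := by
  refine le_antisymm (le_of_forall_gt_imp_ge_of_dense fun c hcz => ?_) ?_
  · obtain ⟨O, hOs, hO, hzO⟩ := _root_.mem_nhds_iff.1 (hc.eventually (gt_mem_nhds hcz))
    exact up_le hY hu (nb_of_notMem hz hO hzO) fun w hw _ => (show u w < c from hOs hw).le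
  · by_contra hcon
    push Not at hcon
    obtain ⟨O, hO, h⟩ := exists_lt_of_up_lt hY hu hcon
    exact lt_irrefl _ (h z hO.mem hz)

lemma lo_of_notMem (hu : LB u) (hz : z ∉ Y) (hc : ContinuousAt u z) : lo Y u z = u z := by
  have := up_of_notMem hY hu.neg hz hc.neg
  unfold lo; linarith [this]

omit hY in
lemma up_congr_cc {w : ℂ} (hz : z ∈ Y) (hw : w ∈ connectedComponentIn Y z) :
    up Y u w = up Y u z := by
  have hwY := connectedComponentIn_subset _ _ hw
  have he := connectedComponentIn_eq hw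
  have : ∀ O, Nb Y w O ↔ Nb Y z O := fun O =>
    ⟨fun h => nb_of_mem hz h.op (he ▸ h.sub), fun h => nb_of_mem hwY h.op (he ▸ h.sub)⟩
  unfold up; simp only [this]

omit hY in
lemma lo_congr_cc {w : ℂ} (hz : z ∈ Y) (hw : w ∈ connectedComponentIn Y z) :
    lo Y u w = lo Y u z := by
  unfold lo; rw [up_congr_cc hz hw]

/-- the oscillation at a component -/
lemma osc_eq (hu : ∃ M, ∀ z, |u z| ≤ M) (hz : z ∈ Y) :
    osc Y u (connectedComponentIn Y z) = up Y u z - lo Y u z := by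
  have hul := LB.of_bdd hu
  refine le_antisymm ?_ ?_
  · refine osc_le_of_forall (sub_nonneg.2 (lo_le_up hY hul z)) fun ε hε => ?_
    obtain ⟨O, hO, h1⟩ := exists_lt_of_up_lt hY hul (show up Y u z < up Y u z + ε / 2 by linarith)
    obtain ⟨P, hP, h2⟩ := exists_gt_of_lt_lo hY hul (show lo Y u z - ε / 2 < lo Y u z by linarith)
    refine ⟨O ∩ P, hO.op.inter hP.op, subset_inter hO.sub hP.sub, fun x hx hxY y hy hyY => ?_⟩
    rw [abs_le]; constructor <;>
    linarith [h1 x hx.1 hxY, h1 y hy.1 hyY, h2 x hx.2 hxY, h2 y hy.2 hyY]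
  · by_contra hcon
    push Not at hcon
    obtain ⟨O, hO, hKO, h⟩ := exists_of_osc_lt hu hcon
    obtain ⟨P, -, hP⟩ : ∃ P ⊆ O, Nb Y z P := ⟨O, subset_rfl, nb_of_mem hz hO hKO⟩
    -- pick a strict middle
    obtain ⟨c, hc1, hc2⟩ := exists_between hcon
    obtain ⟨O', hO', hKO', h'⟩ := exists_of_osc_lt hu hc1
    set d := (up Y u z - lo Y u z - c) / 2 with hd
    have hd0 : 0 < d := by rw [hd]; linarith
    obtain ⟨w, hw, hwY, hw1⟩ := exists_of_lt_up hY hul (show up Y u z - d < up Y u z by linarith)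
      (nb_of_mem hz hO' hKO')
    obtain ⟨x, hx, hxY, hx1⟩ := exists_of_lo_lt hY hul (show lo Y u z < lo Y u z + d by linarith)
      (nb_of_mem hz hO' hKO')
    have := (abs_le.1 (h' w hw hwY x hx hxY).le).2
    have h5 : up Y u z - lo Y u z - c = 2 * d := by rw [hd]; ring
    linarith

end Env

end

end Crest.Agent.R105.Ni_459
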