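import Mathlib
import Crest.Agent.R247.Ms9_322

/-!
# Stokes for Lipschitz functions in the plane (helper939, for 775 / 871)

`∫ (κ_x u_y - κ_y u_x) = 0`, with `κ_x = fderiv ℝ κ z 1`, `κ_y = fderiv ℝ κ z Complex.I`:
* `stokes_cpt` : both Lipschitz with compact support;
* `stokes_plane` : `κ` Lipschitz with compact support, `u` locally Lipschitz on `ℂ`;
* `stokes_on` : `κ` Lipschitz with compact support contained in the open set `Cᶜ`,
  `u` locally Lipschitz on `Cᶜ`.
-/

set_option autoImplicit false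

open Set Filter MeasureTheory Metric
open scoped Topology NNReal

namespace Crest.Agent.R105.Stk_939

noncomputable section

section General

variable {E : Type*} [NormedAddCommGroup E] [NormedSpace ℝ E] [FiniteDimensional ℝ E]
  [MeasurableSpace E] [BorelSpace E] {μ : Measure E} [μ.IsAddHaarMeasure]

omit [FiniteDimensional ℝ E] [MeasurableSpace E] [BorelSpace E] in
theorem lineDeriv_zero_of_notMem {f : E → ℝ} {x : E} (hx : x ∉ tsupport f) (v : E) :
    lineDeriv ℝ f x v = 0 := by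
  have h : f =ᶠ[𝓝 x] fun _ => 0 := notMem_tsupport_iff_eventuallyEq.1 hx
  rw [h.lineDeriv_eq]
  simp [lineDeriv]

theorem integrable_lineDeriv {f : E → ℝ} {C : ℝ≥0} (hf : LipschitzWith C f)
    (hc : HasCompactSupport f) (v : E) : Integrable (fun x => lineDeriv ℝ f x v) μ := by
  have h1 : IntegrableOn (fun x => lineDeriv ℝ f x v) (tsupport f) μ :=
    (hf.locallyIntegrable_lineDeriv v).integrableOn_isCompact hc
  refine (integrableOn_iff_integrable_of_support_subset ?_).1 h1
  intro x hx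
  by_contra h
  exact hx (lineDeriv_zero_of_notMem h v)

omit [FiniteDimensional ℝ E] [MeasurableSpace E] [BorelSpace E] in
theorem hasLineDerivAt_shift {f : E → ℝ} {f' : ℝ} {x a v : E} (h : HasLineDerivAt ℝ f f' (x + a) v) :
    HasLineDerivAt ℝ (fun y => f (y + a)) f' x v := by
  have e : (fun t : ℝ => (fun y => f (y + a)) (x + t • v)) = fun t : ℝ => f (x + a + t • v) := by
    funext t
    show f (x + t • v + a) = f (x + a + t • v)
    rw [add_right_comm]
  unfold HasLineDerivAt at h ⊢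
  rw [e]
  exact h

theorem ae_lineDeriv_quot {f : E → ℝ} {C : ℝ≥0} (hf : LipschitzWith C f) (v w : E) (t : ℝ) :
    ∀ᵐ x ∂μ, lineDeriv ℝ (fun y => t⁻¹ • (f (y + t • v) - f y)) x w =
      t⁻¹ • (lineDeriv ℝ f (x + t • v) w - lineDeriv ℝ f x w) := by
  have h1 : ∀ᵐ x ∂μ, LineDifferentiableAt ℝ f (x + t • v) w :=
    (measurePreserving_add_right μ (t • v)).quasiMeasurePreserving.ae
      (hf.ae_lineDifferentiableAt (μ := μ) w)
  filter_upwards [h1, hf.ae_lineDifferentiableAt (μ := μ) w] with x hx hx'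
  have h2 := hasLineDerivAt_shift (a := t • v) hx.hasLineDerivAt
  have h3 := hx'.hasLineDerivAt
  have h4 : HasLineDerivAt ℝ (fun y => t⁻¹ • (f (y + t • v) - f y))
      (t⁻¹ • (lineDeriv ℝ f (x + t • v) w - lineDeriv ℝ f x w)) x w := by
    unfold HasLineDerivAt at h2 h3 ⊢
    exact (h2.sub h3).const_smul t⁻¹
  exact h4.lineDeriv

/-- The mixed derivative identity `∫ f_v g_w = ∫ f_w g_v` for compactly supported Lipschitz
functions. -/
theorem integral_mul_lineDeriv_comm {f g : E → ℝ} {C D : ℝ≥0} (hf : LipschitzWith C f)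
    (hfc : HasCompactSupport f) (hg : LipschitzWith D g) (hgc : HasCompactSupport g) (v w : E) :
    ∫ x, lineDeriv ℝ f x v * lineDeriv ℝ g x w ∂μ =
      ∫ x, lineDeriv ℝ f x w * lineDeriv ℝ g x v ∂μ := by
  have A := hf.integral_inv_smul_sub_mul_tendsto_integral_lineDeriv_mul
    (integrable_lineDeriv (μ := μ) hg hgc w) v
  have B := hg.integral_inv_smul_sub_mul_tendsto_integral_lineDeriv_mul
    (integrable_lineDeriv (μ := μ) hf hfc (-w)) (-v)
  have key : ∀ t : ℝ, ∫ x, (t⁻¹ • (f (x + t • v) - f x)) * lineDeriv ℝ g x w ∂μ =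
      ∫ x, (t⁻¹ • (g (x + t • (-v)) - g x)) * lineDeriv ℝ f x (-w) ∂μ := by
    intro t
    set F : E → ℝ := fun y => t⁻¹ • (f (y + t • v) - f y) with hF
    have hFl : LipschitzWith (‖t⁻¹‖₊ * (C + C)) F := by
      have h1 : LipschitzWith C (fun y => f (y + t • v)) := fun x y => by
        simpa using hf (x + t • v) (y + t • v)
      exact (lipschitzWith_smul t⁻¹).comp (h1.sub hf)
    have hFc : HasCompactSupport F := by
      have h1 : HasCompactSupport (fun y => f (y + t • v)) :=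
        hfc.comp_homeomorph (Homeomorph.addRight (t • v))
      have h2 : HasCompactSupport (fun y => f (y + t • v) - f y) := h1.sub hfc
      exact h2.comp_left (g := fun s => t⁻¹ • s) (by simp)
    have e1 : ∫ x, F x * lineDeriv ℝ g x w ∂μ = ∫ x, lineDeriv ℝ F x (-w) * g x ∂μ := by
      rw [← hg.integral_lineDeriv_mul_eq hFl hFc w]
      exact integral_congr_ae (Eventually.of_forall fun x => mul_comm _ _)
    have e2 : ∫ x, lineDeriv ℝ F x (-w) * g x ∂μ =
        ∫ x, (t⁻¹ • (lineDeriv ℝ f (x + t • v) (-w) - lineDeriv ℝ f x (-w))) * g x ∂μ := by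
      refine integral_congr_ae ?_
      filter_upwards [ae_lineDeriv_quot (μ := μ) hf v (-w) t] with x hx
      rw [← hx]
    have hgb : Integrable g μ := hg.continuous.integrable_of_hasCompactSupport hgc
    obtain ⟨M, hM⟩ := hg.continuous.bounded_above_of_compact_support hgc
    have i1 : Integrable (fun x => lineDeriv ℝ f x (-w) * g x) μ :=
      (integrable_lineDeriv (μ := μ) hf hfc (-w)).mul_bdd (c := M)
        hg.continuous.aestronglyMeasurable (Eventually.of_forall hM)
    have i2 : Integrable (fun x => lineDeriv ℝ f (x + t • v) (-w) * g x) μ := by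
      have h1 : Integrable (fun x => lineDeriv ℝ f (x + t • v) (-w)) μ :=
        (integrable_lineDeriv (μ := μ) hf hfc (-w)).comp_add_right (t • v)
      exact h1.mul_bdd (c := M) hg.continuous.aestronglyMeasurable (Eventually.of_forall hM)
    have i3 : Integrable (fun x => lineDeriv ℝ f x (-w) * g (x + t • (-v))) μ := by
      refine (integrable_lineDeriv (μ := μ) hf hfc (-w)).mul_bdd (c := M) ?_
        (Eventually.of_forall fun x => hM _)
      exact (hg.continuous.comp (continuous_add_const _)).aestronglyMeasurable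
    have e3 : ∫ x, lineDeriv ℝ f (x + t • v) (-w) * g x ∂μ =
        ∫ x, lineDeriv ℝ f x (-w) * g (x + t • (-v)) ∂μ := by
      rw [← integral_add_right_eq_self _ (t • (-v))]
      refine integral_congr_ae (Eventually.of_forall fun x => ?_)
      simp
    have e4 : ∫ x, (t⁻¹ • (lineDeriv ℝ f (x + t • v) (-w) - lineDeriv ℝ f x (-w))) * g x ∂μ =
        t⁻¹ * (∫ x, lineDeriv ℝ f (x + t • v) (-w) * g x ∂μ -
          ∫ x, lineDeriv ℝ f x (-w) * g x ∂μ) := by
      rw [← integral_sub i2 i1, ← integral_const_mul]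
      refine integral_congr_ae (Eventually.of_forall fun x => ?_)
      simp only [smul_eq_mul]; ring
    have e5 : ∫ x, (t⁻¹ • (g (x + t • (-v)) - g x)) * lineDeriv ℝ f x (-w) ∂μ =
        t⁻¹ * (∫ x, lineDeriv ℝ f x (-w) * g (x + t • (-v)) ∂μ -
          ∫ x, lineDeriv ℝ f x (-w) * g x ∂μ) := by
      rw [← integral_sub i3 i1, ← integral_const_mul]
      refine integral_congr_ae (Eventually.of_forall fun x => ?_)
      simp only [smul_eq_mul]; ring
    rw [e1, e2, e4, e5, e3]
  simp only [key] at A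
  have h := tendsto_nhds_unique A B
  rw [h]
  refine integral_congr_ae (Eventually.of_forall fun x => ?_)
  simp only [lineDeriv_neg]
  ring

theorem integral_mul_fderiv_comm {f g : E → ℝ} {C D : ℝ≥0} (hf : LipschitzWith C f)
    (hfc : HasCompactSupport f) (hg : LipschitzWith D g) (hgc : HasCompactSupport g) (v w : E) :
    ∫ x, fderiv ℝ f x v * fderiv ℝ g x w ∂μ = ∫ x, fderiv ℝ f x w * fderiv ℝ g x v ∂μ := by
  have hF := hf.ae_differentiableAt (μ := μ)
  have hG := hg.ae_differentiableAt (μ := μ)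
  have e1 : ∀ v w : E, ∫ x, fderiv ℝ f x v * fderiv ℝ g x w ∂μ =
      ∫ x, lineDeriv ℝ f x v * lineDeriv ℝ g x w ∂μ := by
    intro v w
    refine integral_congr_ae ?_
    filter_upwards [hF, hG] with x h1 h2
    rw [h1.lineDeriv_eq_fderiv, h2.lineDeriv_eq_fderiv]
  rw [e1, e1, integral_mul_lineDeriv_comm hf hfc hg hgc]

omit [FiniteDimensional ℝ E] [MeasurableSpace E] [BorelSpace E] in
theorem fderiv_zero_of_notMem {f : E → ℝ} {x : E} (hx : x ∉ tsupport f) : fderiv ℝ f x = 0 := by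
  have h : f =ᶠ[𝓝 x] fun _ => 0 := notMem_tsupport_iff_eventuallyEq.1 hx
  rw [h.fderiv_eq]
  simp

theorem integrable_fderiv_mul {f g : E → ℝ} {C D : ℝ≥0} (hf : LipschitzWith C f)
    (hfc : HasCompactSupport f) (hg : LipschitzWith D g) (v w : E) :
    Integrable (fun x => fderiv ℝ f x v * fderiv ℝ g x w) μ := by
  have h1 : Integrable (fun x => fderiv ℝ f x v) μ := by
    refine (integrable_congr ?_).1 (integrable_lineDeriv (μ := μ) hf hfc v)
    filter_upwards [hf.ae_differentiableAt (μ := μ)] with x hx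
    exact hx.lineDeriv_eq_fderiv
  refine h1.mul_bdd (c := D * ‖w‖) ?_ (Eventually.of_forall fun x => ?_)
  · exact (measurable_fderiv_apply_const ℝ g w).aestronglyMeasurable
  · exact ((fderiv ℝ g x).le_opNorm w).trans
      (mul_le_mul_of_nonneg_right (norm_fderiv_le_of_lipschitz ℝ hg) (norm_nonneg _))

end General

/-! ### the plane -/

/-- integrability of `κ_x u_y - κ_y u_x`. -/
theorem integrable_wdg {κ u : ℂ → ℝ} {K L : ℝ≥0} (hκ : LipschitzWith K κ)
    (hc : HasCompactSupport κ) (hu : LipschitzWith L u) :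
    Integrable (fun z => fderiv ℝ κ z 1 * fderiv ℝ u z Complex.I -
      fderiv ℝ κ z Complex.I * fderiv ℝ u z 1) :=
  (integrable_fderiv_mul hκ hc hu 1 Complex.I).sub (integrable_fderiv_mul hκ hc hu Complex.I 1)

theorem stokes_cpt {κ u : ℂ → ℝ} {K L : ℝ≥0} (hκ : LipschitzWith K κ)
    (hc : HasCompactSupport κ) (hu : LipschitzWith L u) (huc : HasCompactSupport u) :
    ∫ z, (fderiv ℝ κ z 1 * fderiv ℝ u z Complex.I -
      fderiv ℝ κ z Complex.I * fderiv ℝ u z 1) = 0 := by
  rw [integral_sub (integrable_fderiv_mul hκ hc hu 1 Complex.I)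
    (integrable_fderiv_mul hκ hc hu Complex.I 1),
    integral_mul_fderiv_comm hκ hc hu huc 1 Complex.I, sub_self]

/-- `LocallyLipschitzOn` on an open set is `LLo`. -/
theorem llo_of {U : Set ℂ} (hU : IsOpen U) {u : ℂ → ℝ} (hu : LocallyLipschitzOn U u) :
    R247.Ms322.LLo U u := by
  intro z hz
  obtain ⟨K, t, ht, h⟩ := hu hz
  rw [hU.nhdsWithin_eq hz] at ht
  exact ⟨K, t, ht, h⟩

/-- the truncation of `u` near `tsupport κ`. -/
theorem exists_trunc {U : Set ℂ} (hU : IsOpen U) {κ u : ℂ → ℝ} (hc : HasCompactSupport κ)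
    (hs : tsupport κ ⊆ U) (hu : LocallyLipschitzOn U u) :
    ∃ w : ℂ → ℝ, (∃ L : ℝ≥0, LipschitzWith L w) ∧ HasCompactSupport w ∧ tsupport w ⊆ U ∧
      (∀ z ∈ tsupport κ, w =ᶠ[𝓝 z] u) ∧ ∀ z ∈ tsupport κ, fderiv ℝ w z = fderiv ℝ u z := by
  obtain ⟨χ, ⟨L, hL⟩, hχc, hχU, ⟨V, hV, hKV, h1⟩, -⟩ :=
    R247.Ms322.exists_lip_cutoff hc.isCompact hU hs
  have hw : LocallyLipschitz (fun z => χ z * u z) :=
    R247.Ms322.LLo.mul_supp hL.locallyLipschitz (llo_of hU hu) hχU
  have hwc : HasCompactSupport (fun z => χ z * u z) := hχc.mul_right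
  have hev : ∀ z ∈ tsupport κ, (fun z => χ z * u z) =ᶠ[𝓝 z] u := by
    intro z hz
    filter_upwards [hV.mem_nhds (hKV hz)] with y hy
    rw [h1 y hy, one_mul]
  refine ⟨fun z => χ z * u z, R247.Ms322.exists_lipschitzWith hw hwc, hwc, ?_, hev,
    fun z hz => (hev z hz).fderiv_eq⟩
  exact (closure_mono (fun z hz => by
    simp only [Function.mem_support] at hz ⊢
    exact left_ne_zero_of_mul hz)).trans hχU

theorem wdg_congr {κ u w : ℂ → ℝ} (h : ∀ z ∈ tsupport κ, fderiv ℝ w z = fderiv ℝ u z) (z : ℂ) :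
    fderiv ℝ κ z 1 * fderiv ℝ u z Complex.I - fderiv ℝ κ z Complex.I * fderiv ℝ u z 1 =
      fderiv ℝ κ z 1 * fderiv ℝ w z Complex.I - fderiv ℝ κ z Complex.I * fderiv ℝ w z 1 := by
  by_cases hz : z ∈ tsupport κ
  · rw [h z hz]
  · simp [fderiv_zero_of_notMem hz]

/-- **Stokes off a closed set**: `κ` Lipschitz with compact support in the open set `U`,
`u` locally Lipschitz on `U`. -/
theorem stokes_open {U : Set ℂ} (hU : IsOpen U) {κ u : ℂ → ℝ} {K : ℝ≥0}
    (hκ : LipschitzWith K κ) (hc : HasCompactSupport κ) (hs : tsupport κ ⊆ U)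
    (hu : LocallyLipschitzOn U u) :
    Integrable (fun z => fderiv ℝ κ z 1 * fderiv ℝ u z Complex.I -
      fderiv ℝ κ z Complex.I * fderiv ℝ u z 1) ∧
    ∫ z, (fderiv ℝ κ z 1 * fderiv ℝ u z Complex.I -
      fderiv ℝ κ z Complex.I * fderiv ℝ u z 1) = 0 := by
  obtain ⟨w, ⟨L, hL⟩, hwc, -, -, hw⟩ := exists_trunc hU hc hs hu
  have e := funext (wdg_congr hw)
  constructor
  · rw [e]; exact integrable_wdg hκ hc hL
  · rw [e]; exact stokes_cpt hκ hc hL hwc

theorem setIntegral_eq {U : Set ℂ} {κ u : ℂ → ℝ} (hs : tsupport κ ⊆ U) :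
    ∫ z in U, (fderiv ℝ κ z 1 * fderiv ℝ u z Complex.I -
      fderiv ℝ κ z Complex.I * fderiv ℝ u z 1) =
    ∫ z, (fderiv ℝ κ z 1 * fderiv ℝ u z Complex.I -
      fderiv ℝ κ z Complex.I * fderiv ℝ u z 1) := by
  refine setIntegral_eq_integral_of_forall_compl_eq_zero fun z hz => ?_
  simp [fderiv_zero_of_notMem (fun h => hz (hs h))]

/-- **Stokes off a closed set `C`** (775's `ω C κ u = 0`). -/
theorem stokes_on {C : Set ℂ} (hC : IsClosed C) {κ u : ℂ → ℝ} {K : ℝ≥0}
    (hκ : LipschitzWith K κ) (hc : HasCompactSupport κ) (hs : tsupport κ ⊆ Cᶜ)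
    (hu : LocallyLipschitzOn Cᶜ u) :
    ∫ z in Cᶜ, (fderiv ℝ κ z 1 * fderiv ℝ u z Complex.I -
      fderiv ℝ κ z Complex.I * fderiv ℝ u z 1) = 0 := by
  rw [setIntegral_eq hs]
  exact (stokes_open hC.isOpen_compl hκ hc hs hu).2

/-- **Stokes in the plane** (871's form). -/
theorem stokes_plane {κ u : ℂ → ℝ} {K : ℝ≥0} (hκ : LipschitzWith K κ)
    (hc : HasCompactSupport κ) (hu : LocallyLipschitz u) :
    ∫ z, (fderiv ℝ κ z 1 * fderiv ℝ u z Complex.I -
      fderiv ℝ κ z Complex.I * fderiv ℝ u z 1) = 0 :=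
  (stokes_open isOpen_univ hκ hc (subset_univ _) (hu.locallyLipschitzOn)).2

end

end Crest.Agent.R105.Stk_939
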