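import Crest.Agent.R105.Bd4_775
import Crest.Agent.R105.Stk1_939

/-!
# Row 105, S0139 [B]: the renormalised energy is bounded below (helper775)

* `exists_field` : `lap x0 = div V` with `V` smooth, compactly supported off `C`
* `int_lap` : `∫ u * lap x0 = - ∫_{Cᶜ} (V₁ gx u + V₂ gy u)` for `u ∈ Q C`
* `J_bddBelow`
-/

set_option autoImplicit false
set_option linter.style.haveILetI false

open MeasureTheory Set Filter Topology Metric
open scoped NNReal ENNReal ContDiff

namespace Crest.Agent.R105.Bd_775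

noncomputable section

/-- integrals of derivatives of compactly supported Lipschitz functions vanish -/
lemma integral_gx_eq_zero {f : ℂ → ℝ} {K : ℝ≥0} (hf : LipschitzWith K f)
    (hc : HasCompactSupport f) : ∫ z, gx f z = 0 := by
  have h := Stk_939.stokes_plane (u := fun z : ℂ => z.im) hf hc
    (Complex.imCLM.lipschitz.locallyLipschitz)
  have e : ∀ z : ℂ, fderiv ℝ (fun z : ℂ => z.im) z = Complex.imCLM := fun z =>
    Complex.imCLM.hasFDerivAt.fderiv
  simp only [e, Complex.imCLM_apply, Complex.I_im, Complex.one_im, mul_one, mul_zero, sub_zero] at h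
  exact h

lemma integral_gy_eq_zero {f : ℂ → ℝ} {K : ℝ≥0} (hf : LipschitzWith K f)
    (hc : HasCompactSupport f) : ∫ z, gy f z = 0 := by
  have h := Stk_939.stokes_plane (u := fun z : ℂ => z.re) hf hc
    (Complex.reCLM.lipschitz.locallyLipschitz)
  have e : ∀ z : ℂ, fderiv ℝ (fun z : ℂ => z.re) z = Complex.reCLM := fun z =>
    Complex.reCLM.hasFDerivAt.fderiv
  simp only [e, Complex.reCLM_apply, Complex.I_re, Complex.one_re, mul_one, mul_zero, zero_sub,
    integral_neg, neg_eq_zero] at h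
  exact h

lemma integrable_sq {V : ℂ → ℝ} (h : Continuous V) (hc : HasCompactSupport V) :
    Integrable fun z => V z ^ 2 := by
  have h1 : Continuous fun z => V z * V z := h.mul h
  have h2 : HasCompactSupport fun z => V z * V z := hc.mul_left
  have h3 := h1.integrable_of_hasCompactSupport (μ := volume) h2
  have e : (fun z => V z ^ 2) = fun z => V z * V z := funext fun z => sq (V z)
  rw [e]; exact h3

section
variable {C : Set ℂ} {u V : ℂ → ℝ}

/-- the product with a function supported off `C` is Lipschitz -/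
lemma mul_lipschitz (hC : IsClosed C) (hu : Q C u) (hV : ContDiff ℝ ∞ V)
    (hVc : HasCompactSupport V) (hVs : tsupport V ⊆ Cᶜ) :
    ∃ K, LipschitzWith K (fun z => u z * V z) := by
  refine lipschitz_of_compact ?_ hVc.mul_left
  have hVl : LocallyLipschitz V := (hV.of_le (by simp)).locallyLipschitz
  obtain ⟨M₀, hM₀⟩ := hu.bdd
  obtain ⟨N₀, hN₀⟩ := hVc.exists_bound_of_continuous hV.continuous
  intro z
  by_cases hz : z ∈ tsupport V
  · have h1 : LocallyLipschitzOn Cᶜ fun z => u z * V z := by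
      refine ll_mul (M := max M₀ N₀) hu.loc hVl.locallyLipschitzOn
        (fun z => (hM₀ z).trans (le_max_left _ _)) (fun z => ?_)
      exact (by simpa using hN₀ z : |V z| ≤ N₀).trans (le_max_right _ _)
    obtain ⟨K, t, ht, hL⟩ := h1 (hVs hz)
    rw [hC.isOpen_compl.nhdsWithin_eq (hVs hz)] at ht
    exact ⟨K, t, ht, hL⟩
  · rw [notMem_tsupport_iff_eventuallyEq] at hz
    refine ⟨0, {w | V w = 0}, hz, ?_⟩
    intro a ha b hb
    have e1 : V a = 0 := ha
    have e2 : V b = 0 := hb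
    simp [e1, e2]

lemma zero_near {z : ℂ} (hVs : tsupport V ⊆ Cᶜ) (hz : z ∈ C) : V =ᶠ[𝓝 z] 0 := by
  rw [← notMem_tsupport_iff_eventuallyEq]
  exact fun h => hVs h hz

lemma continuous_gx (hV : ContDiff ℝ ∞ V) : ContDiff ℝ ∞ (gx V) := by
  unfold gx
  exact (hV.fderiv_right (m := ∞) (by simp)).clm_apply contDiff_const

lemma continuous_gy (hV : ContDiff ℝ ∞ V) : ContDiff ℝ ∞ (gy V) := by
  unfold gy
  exact (hV.fderiv_right (m := ∞) (by simp)).clm_apply contDiff_const

lemma aesm (hC : IsClosed C) (hu : Q C u) : AEStronglyMeasurable u (volume.restrict Cᶜ) := by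
  have : ContinuousOn u Cᶜ := fun z hz => by
    obtain ⟨K, t, ht, hL⟩ := hu.loc hz
    exact (hL.continuousOn.continuousWithinAt (mem_of_mem_nhdsWithin hz ht)).mono_of_mem_nhdsWithin ht
  exact this.aestronglyMeasurable hC.isOpen_compl.measurableSet

lemma integrable_u_mul (hC : IsClosed C) (hu : Q C u) {g : ℂ → ℝ} (hg : Integrable g) :
    IntegrableOn (fun z => u z * g z) Cᶜ := by
  obtain ⟨M, hM⟩ := hu.bdd
  exact hg.integrableOn.bdd_mul (aesm hC hu) (Eventually.of_forall fun z => by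
    rw [Real.norm_eq_abs]; exact hM z)

lemma integrable_V_mul (hu : Q C u) (hV : ContDiff ℝ ∞ V) (hVc : HasCompactSupport V)
    {g : ℂ → ℝ} (hgm : Measurable g) (hg : ∀ z, g z ^ 2 ≤ en u z) :
    IntegrableOn (fun z => V z * g z) Cᶜ := by
  have h1 : Integrable fun z => V z ^ 2 := integrable_sq hV.continuous hVc
  refine Integrable.mono' ((h1.integrableOn.add hu.fin).div_const 2)
    (hV.continuous.measurable.mul hgm).aestronglyMeasurable (Eventually.of_forall fun z => ?_)
  rw [Real.norm_eq_abs, abs_mul]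
  simp only [Pi.add_apply]
  have := hg z
  rw [← sq_abs (g z)] at this
  rw [← sq_abs (V z)]
  nlinarith [sq_nonneg (|V z| - |g z|)]

/-- integration by parts in `x` -/
lemma ibp_x (hC : IsClosed C) (hu : Q C u) (hV : ContDiff ℝ ∞ V)
    (hVc : HasCompactSupport V) (hVs : tsupport V ⊆ Cᶜ) :
    ∫ z in Cᶜ, u z * gx V z = - ∫ z in Cᶜ, V z * gx u z := by
  obtain ⟨K, hK⟩ := mul_lipschitz hC hu hV hVc hVs
  have h0 := integral_gx_eq_zero hK hVc.mul_left
  have h1 : ∫ z in Cᶜ, gx (fun z => u z * V z) z = 0 := by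
    rw [setIntegral_eq_integral_of_forall_compl_eq_zero, h0]
    intro z hz
    have hz' : z ∈ C := not_not.1 hz
    have : (fun z => u z * V z) =ᶠ[𝓝 z] fun _ => 0 := by
      filter_upwards [zero_near hVs hz'] with w hw; simp [hw]
    rw [gx_eq_of_eventuallyEq this, gx_const]
  have hgV : Integrable (gx V) := (continuous_gx hV).continuous.integrable_of_hasCompactSupport (by
    unfold gx; exact hVc.fderiv_apply ℝ 1)
  have i1 := integrable_u_mul hC hu hgV
  have i2 := integrable_V_mul hu hV hVc (measurable_gx u) (fun z => by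
    unfold en; nlinarith [sq_nonneg (gy u z)])
  have h2 : ∫ z in Cᶜ, gx (fun z => u z * V z) z = ∫ z in Cᶜ, (u z * gx V z + V z * gx u z) := by
    refine integral_congr_ae ?_
    filter_upwards [hu.ae_diff hC] with z hz
    exact gx_mul hz (hV.differentiable (by simp)).differentiableAt
  rw [h2, integral_add i1 i2] at h1
  linarith

/-- integration by parts in `y` -/
lemma ibp_y (hC : IsClosed C) (hu : Q C u) (hV : ContDiff ℝ ∞ V)
    (hVc : HasCompactSupport V) (hVs : tsupport V ⊆ Cᶜ) :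
    ∫ z in Cᶜ, u z * gy V z = - ∫ z in Cᶜ, V z * gy u z := by
  obtain ⟨K, hK⟩ := mul_lipschitz hC hu hV hVc hVs
  have h0 := integral_gy_eq_zero hK hVc.mul_left
  have h1 : ∫ z in Cᶜ, gy (fun z => u z * V z) z = 0 := by
    rw [setIntegral_eq_integral_of_forall_compl_eq_zero, h0]
    intro z hz
    have hz' : z ∈ C := not_not.1 hz
    have : (fun z => u z * V z) =ᶠ[𝓝 z] fun _ => 0 := by
      filter_upwards [zero_near hVs hz'] with w hw; simp [hw]
    rw [gy_eq_of_eventuallyEq this, gy_const]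
  have hgV : Integrable (gy V) := (continuous_gy hV).continuous.integrable_of_hasCompactSupport (by
    unfold gy; exact hVc.fderiv_apply ℝ Complex.I)
  have i1 := integrable_u_mul hC hu hgV
  have i2 := integrable_V_mul hu hV hVc (measurable_gy u) (fun z => by
    unfold en; nlinarith [sq_nonneg (gx u z)])
  have h2 : ∫ z in Cᶜ, gy (fun z => u z * V z) z = ∫ z in Cᶜ, (u z * gy V z + V z * gy u z) := by
    refine integral_congr_ae ?_
    filter_upwards [hu.ae_diff hC] with z hz
    exact gy_mul hz (hV.differentiable (by simp)).differentiableAt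
  rw [h2, integral_add i1 i2] at h1
  linarith

end

/-! ### the field `V` -/

lemma gx_im (z : ℂ) : gx (fun z : ℂ => z.im) z = 0 := by
  unfold gx
  rw [show fderiv ℝ (fun z : ℂ => z.im) z = Complex.imCLM from Complex.imCLM.hasFDerivAt.fderiv]
  simp
lemma gy_im (z : ℂ) : gy (fun z : ℂ => z.im) z = 1 := by
  unfold gy
  rw [show fderiv ℝ (fun z : ℂ => z.im) z = Complex.imCLM from Complex.imCLM.hasFDerivAt.fderiv]
  simp
lemma gx_re (z : ℂ) : gx (fun z : ℂ => z.re) z = 1 := by
  unfold gx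
  rw [show fderiv ℝ (fun z : ℂ => z.re) z = Complex.reCLM from Complex.reCLM.hasFDerivAt.fderiv]
  simp
lemma gy_re (z : ℂ) : gy (fun z : ℂ => z.re) z = 0 := by
  unfold gy
  rw [show fderiv ℝ (fun z : ℂ => z.re) z = Complex.reCLM from Complex.reCLM.hasFDerivAt.fderiv]
  simp

lemma gx_gy_comm {g : ℂ → ℝ} (hg : ContDiff ℝ ∞ g) (z : ℂ) : gx (gy g) z = gy (gx g) z := by
  have h1 : DifferentiableAt ℝ (fderiv ℝ g) z :=
    ((hg.fderiv_right (m := ∞) (by simp)).differentiable (by simp)).differentiableAt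
  have e1 : gx (gy g) z = fderiv ℝ (fderiv ℝ g) z 1 Complex.I := by
    unfold gx gy
    rw [fderiv_clm_apply h1 (differentiableAt_const _)]
    simp
  have e2 : gy (gx g) z = fderiv ℝ (fderiv ℝ g) z Complex.I 1 := by
    unfold gx gy
    rw [fderiv_clm_apply h1 (differentiableAt_const _)]
    simp
  rw [e1, e2]
  have h2 : (2 : WithTop ℕ∞) ≤ ((⊤ : ℕ∞) : WithTop ℕ∞) := WithTop.coe_le_coe.2 le_top
  have h3 : minSmoothness ℝ 2 ≤ ((⊤ : ℕ∞) : WithTop ℕ∞) := by
    rw [minSmoothness_of_isRCLikeNormedField]; exact h2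
  exact (hg.contDiffAt.isSymmSndFDerivAt h3) 1 Complex.I

/-- `lap x0` is the divergence of a compactly supported field -/
theorem exists_field {C : Set ℂ} (hC : IsCompact C) {x0 : ℂ → ℝ} (h : IfB_641.X0 C x0) :
    ∃ V₁ V₂ : ℂ → ℝ, ContDiff ℝ ∞ V₁ ∧ ContDiff ℝ ∞ V₂ ∧ HasCompactSupport V₁ ∧
      HasCompactSupport V₂ ∧ tsupport V₁ ⊆ Cᶜ ∧ tsupport V₂ ⊆ Cᶜ ∧
      ∀ z, IfB_641.lap x0 z = gx V₁ z + gy V₂ z := by
  obtain ⟨R, hR⟩ := h.far
  obtain ⟨R₁, hR₁⟩ := hC.isBounded.subset_ball (0 : ℂ)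
  set r : ℝ := max (max R R₁) 1 with hr
  have hr0 : 0 < r := lt_max_of_lt_right one_pos
  let ψ : ContDiffBump (0 : ℂ) := ⟨r, r + 1, hr0, by linarith⟩
  set g : ℂ → ℝ := fun z => (1 - ψ z) * z.im with hg
  have gs : ContDiff ℝ ∞ g :=
    (contDiff_const.sub ψ.contDiff).mul Complex.imCLM.contDiff
  have gin : ∀ z ∈ ball (0 : ℂ) r, g =ᶠ[𝓝 z] fun _ => 0 := by
    intro z hz
    filter_upwards [isOpen_ball.mem_nhds hz] with w hw
    have : ψ w = 1 := ψ.one_of_mem_closedBall (ball_subset_closedBall hw)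
    simp [hg, this]
  have gout : ∀ z, r + 1 < ‖z‖ → g =ᶠ[𝓝 z] fun w => w.im := by
    intro z hz
    have : {w : ℂ | r + 1 < ‖w‖} ∈ 𝓝 z := (isOpen_lt continuous_const continuous_norm).mem_nhds hz
    filter_upwards [this] with w hw
    have : ψ w = 0 := ψ.zero_of_le_dist (by
      rw [dist_zero_right]; exact le_of_lt hw)
    simp [hg, this]
  have xout : ∀ z, r + 1 < ‖z‖ → x0 =ᶠ[𝓝 z] fun w => w.re := by
    intro z hz
    have : {w : ℂ | r + 1 < ‖w‖} ∈ 𝓝 z := (isOpen_lt continuous_const continuous_norm).mem_nhds hz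
    filter_upwards [this] with w hw
    have hw' : r + 1 < ‖w‖ := hw
    have : R ≤ r := (le_max_left _ _).trans (le_max_left _ _)
    exact hR w (by linarith)
  have hxC : ∀ z ∈ C, x0 =ᶠ[𝓝 z] fun _ => 0 := fun z hz => zero_near h.zero hz
  have hCb : ∀ z ∈ C, z ∈ ball (0 : ℂ) r := fun z hz =>
    ball_subset_ball ((le_max_right _ _).trans (le_max_left _ _)) (hR₁ hz)
  refine ⟨fun z => gx x0 z - gy g z, fun z => gy x0 z + gx g z,
    (continuous_gx h.sm).sub (continuous_gy gs), (continuous_gy h.sm).add (continuous_gx gs),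
    ?_, ?_, ?_, ?_, ?_⟩
  · refine HasCompactSupport.intro (isCompact_closedBall (0 : ℂ) (r + 1)) fun z hz => ?_
    rw [mem_closedBall, dist_zero_right, not_le] at hz
    rw [gx_eq_of_eventuallyEq (xout z hz), gx_re, gy_eq_of_eventuallyEq (gout z hz), gy_im, sub_self]
  · refine HasCompactSupport.intro (isCompact_closedBall (0 : ℂ) (r + 1)) fun z hz => ?_
    rw [mem_closedBall, dist_zero_right, not_le] at hz
    rw [gy_eq_of_eventuallyEq (xout z hz), gy_re, gx_eq_of_eventuallyEq (gout z hz), gx_im, add_zero]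
  · intro z hz hzC
    refine (notMem_tsupport_iff_eventuallyEq.2 ?_) hz
    filter_upwards [(hxC z hzC).eventuallyEq_nhds, (gin z (hCb z hzC)).eventuallyEq_nhds]
      with w h1 h2
    rw [gx_eq_of_eventuallyEq h1, gy_eq_of_eventuallyEq h2, gx_const, gy_const]; simp
  · intro z hz hzC
    refine (notMem_tsupport_iff_eventuallyEq.2 ?_) hz
    filter_upwards [(hxC z hzC).eventuallyEq_nhds, (gin z (hCb z hzC)).eventuallyEq_nhds]
      with w h1 h2
    rw [gy_eq_of_eventuallyEq h1, gx_eq_of_eventuallyEq h2, gx_const, gy_const]; simp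
  · intro z
    have d1 : DifferentiableAt ℝ (gx x0) z :=
      ((continuous_gx h.sm).differentiable (by simp)).differentiableAt
    have d2 : DifferentiableAt ℝ (gy x0) z :=
      ((continuous_gy h.sm).differentiable (by simp)).differentiableAt
    have d3 : DifferentiableAt ℝ (gx g) z :=
      ((continuous_gx gs).differentiable (by simp)).differentiableAt
    have d4 : DifferentiableAt ℝ (gy g) z :=
      ((continuous_gy gs).differentiable (by simp)).differentiableAt
    rw [gx_sub d1 d4, gy_add d2 d3, gx_gy_comm gs]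
    unfold IfB_641.lap
    ring

lemma lap_compact {C : Set ℂ} (hC : IsCompact C) {x0 : ℂ → ℝ} (h : IfB_641.X0 C x0) :
    Continuous (IfB_641.lap x0) ∧ HasCompactSupport (IfB_641.lap x0) ∧
      ∀ z ∈ C, IfB_641.lap x0 z = 0 := by
  obtain ⟨V₁, V₂, s1, s2, c1, c2, t1, t2, hl⟩ := exists_field hC h
  have e : IfB_641.lap x0 = fun z => gx V₁ z + gy V₂ z := funext hl
  refine ⟨?_, ?_, ?_⟩
  · rw [e]; exact (continuous_gx s1).continuous.add (continuous_gy s2).continuous
  · rw [e]
    have h1 : HasCompactSupport (gx V₁) := by unfold gx; exact c1.fderiv_apply ℝ 1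
    have h2 : HasCompactSupport (gy V₂) := by unfold gy; exact c2.fderiv_apply ℝ Complex.I
    exact h1.add h2
  · intro z hz
    rw [hl, gx_eq_of_eventuallyEq (v := fun _ => 0) (zero_near t1 hz),
      gy_eq_of_eventuallyEq (v := fun _ => 0) (zero_near t2 hz), gx_const, gy_const, add_zero]

lemma integrable_lap {C : Set ℂ} (hC : IsCompact C) {x0 : ℂ → ℝ} (h : IfB_641.X0 C x0) :
    Integrable (IfB_641.lap x0) :=
  (lap_compact hC h).1.integrable_of_hasCompactSupport (lap_compact hC h).2.1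

/-- `∫ u lap x0 = - ∫ ∇u · V` -/
theorem int_lap {C : Set ℂ} (hC : IsCompact C) {x0 : ℂ → ℝ} (h : IfB_641.X0 C x0) :
    ∃ V₁ V₂ : ℂ → ℝ, Continuous V₁ ∧ Continuous V₂ ∧ HasCompactSupport V₁ ∧
      HasCompactSupport V₂ ∧ ∀ u, Q C u →
        IntegrableOn (fun z => V₁ z * gx u z + V₂ z * gy u z) Cᶜ ∧
        ∫ z, u z * IfB_641.lap x0 z = - ∫ z in Cᶜ, (V₁ z * gx u z + V₂ z * gy u z) := by
  obtain ⟨V₁, V₂, s1, s2, c1, c2, t1, t2, hl⟩ := exists_field hC h
  refine ⟨V₁, V₂, s1.continuous, s2.continuous, c1, c2, fun u hu => ?_⟩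
  have hCc := hC.isClosed
  have i2 := integrable_V_mul hu s1 c1 (measurable_gx u) (fun z => by
    unfold en; nlinarith [sq_nonneg (gy u z)])
  have i2' := integrable_V_mul hu s2 c2 (measurable_gy u) (fun z => by
    unfold en; nlinarith [sq_nonneg (gx u z)])
  refine ⟨i2.add i2', ?_⟩
  have e0 : ∫ z, u z * IfB_641.lap x0 z = ∫ z in Cᶜ, u z * IfB_641.lap x0 z := by
    rw [setIntegral_eq_integral_of_forall_compl_eq_zero]
    intro z hz
    rw [(lap_compact hC h).2.2 z (not_not.1 hz), mul_zero]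
  have hg1 : Integrable (gx V₁) := (continuous_gx s1).continuous.integrable_of_hasCompactSupport (by
    unfold gx; exact c1.fderiv_apply ℝ 1)
  have hg2 : Integrable (gy V₂) := (continuous_gy s2).continuous.integrable_of_hasCompactSupport (by
    unfold gy; exact c2.fderiv_apply ℝ Complex.I)
  have i1 := integrable_u_mul hCc hu hg1
  have i1' := integrable_u_mul hCc hu hg2
  have e1 : ∫ z in Cᶜ, u z * IfB_641.lap x0 z =
      (∫ z in Cᶜ, u z * gx V₁ z) + ∫ z in Cᶜ, u z * gy V₂ z := by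
    rw [← integral_add i1 i1']
    congr 1; funext z; rw [hl]; ring
  have e2 : ∫ z in Cᶜ, (V₁ z * gx u z + V₂ z * gy u z) =
      (∫ z in Cᶜ, V₁ z * gx u z) + ∫ z in Cᶜ, V₂ z * gy u z := integral_add i2 i2'
  rw [e0, e1, e2, ibp_x hCc hu s1 c1 t1, ibp_y hCc hu s2 c2 t2]
  ring

/-- **`J` is bounded below.** -/
theorem J_bddBelow {C : Set ℂ} (hC : IsCompact C) {x0 : ℂ → ℝ} (h : IfB_641.X0 C x0) :
    ∃ L : ℝ, ∀ u, Q C u → L ≤ IfB_641.J C x0 u := by
  obtain ⟨V₁, V₂, s1, s2, c1, c2, hV⟩ := int_lap hC h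
  refine ⟨- ∫ z in Cᶜ, (V₁ z ^ 2 + V₂ z ^ 2), fun u hu => ?_⟩
  obtain ⟨hi, he⟩ := hV u hu
  have q1 : Integrable fun z => V₁ z ^ 2 := integrable_sq s1 c1
  have q2 : Integrable fun z => V₂ z ^ 2 := integrable_sq s2 c2
  have q3 : IntegrableOn (fun z => V₁ z ^ 2 + V₂ z ^ 2) Cᶜ := (q1.add q2).integrableOn
  unfold IfB_641.J
  rw [di_self, he]
  have e : (∫ z in Cᶜ, en u z) - 2 * -(∫ z in Cᶜ, (V₁ z * gx u z + V₂ z * gy u z)) =
      ∫ z in Cᶜ, (en u z + 2 * (V₁ z * gx u z + V₂ z * gy u z)) := by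
    rw [integral_add hu.fin (hi.const_mul 2), integral_const_mul]; ring
  rw [e, ← integral_neg]
  refine integral_mono q3.neg (hu.fin.add (hi.const_mul 2)) fun z => ?_
  unfold en
  nlinarith [sq_nonneg (gx u z + V₁ z), sq_nonneg (gy u z + V₂ z)]

end

end Crest.Agent.R105.Bd_775
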