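import Crest.Agent.R105.Bd1_775
import Crest.Agent.R105.Ends3_897

/-!
# Row 105, S0138 (T-frame): the class with solids (helper808)

`Y` is closed (compact, `Y = Uᶜ`), functions live on `Yᶜ` (775's class `Q Y u`: bounded, locally
Lipschitz on `Yᶜ`, finite energy); values on `Y` are irrelevant.
* `Cmp Y` : the components of `Y`
* `eK Y K = 𝓝ˢ K ⊓ 𝓟 Yᶜ`, `osc Y u K` : oscillation of `u` at the component `K`
* `Jmp Y u = {K : Cmp Y | osc Y u K ≠ 0}`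
* `TT Y u` : `Q` and `Σ osc² < ∞`;  `TF Y u` : `Q` and finitely many jumps
* `IsoT Y b` : `∫ da ∧ da' = 0` for generated `a, a'` without common jump (helper325 #9618)
-/

set_option autoImplicit false

open MeasureTheory Set Filter Topology Metric
open scoped NNReal ENNReal

namespace Crest.Agent.R105.Tc_808

open Bd_775 Ends_897

noncomputable section

/-- the components of `Y` -/
def Cmp (Y : Set ℂ) : Type := {K : Set ℂ // ∃ z ∈ Y, K = connectedComponentIn Y z}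

/-- the filter of the end `K`, seen from the complement of `Y` -/
def eK (Y K : Set ℂ) : Filter ℂ := 𝓝ˢ K ⊓ 𝓟 Yᶜ

/-- oscillation of `u` at `K` -/
def osc (Y : Set ℂ) (u : ℂ → ℝ) (K : Set ℂ) : ℝ := (oscF u (eK Y K)).toReal

/-- the jump set -/
def Jmp (Y : Set ℂ) (u : ℂ → ℝ) : Set (Cmp Y) := {K | osc Y u K.1 ≠ 0}

/-- `T`-finite functions -/
structure TT (Y : Set ℂ) (u : ℂ → ℝ) : Prop where
  q : Q Y u
  sum : Summable fun K : Cmp Y => osc Y u K.1 ^ 2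

/-- finitely many jumps -/
structure TF (Y : Set ℂ) (u : ℂ → ℝ) : Prop where
  q : Q Y u
  fin : (Jmp Y u).Finite

/-- the `T`-energy of `u` -/
def ET (Y : Set ℂ) (u : ℂ → ℝ) : ℝ := (∫ z in Yᶜ, en u z) + ∑' K : Cmp Y, osc Y u K.1 ^ 2

/-- isotropy without atoms: no defect between functions without common jump -/
def IsoT (Y : Set ℂ) {ι : Type*} (b : ι → ℂ → ℝ) : Prop :=
  ∀ u v, Gen Y b u → Gen Y b v → Disjoint (Jmp Y u) (Jmp Y v) → om Y u v = 0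

lemma eK_eq_eF {U : Set ℂ} (z : ℂ) : eK Uᶜ (connectedComponentIn Uᶜ z) = eF U z := by
  unfold eK eF; rw [compl_compl]

section Osc
variable {Y K : Set ℂ} {u v : ℂ → ℝ}

lemma osc_nonneg (Y : Set ℂ) (u : ℂ → ℝ) (K : Set ℂ) : 0 ≤ osc Y u K := ENNReal.toReal_nonneg

lemma oscF_ne_top {F : Filter ℂ} (hb : ∃ M, ∀ z, |u z| ≤ M) : oscF u F ≠ ∞ := by
  obtain ⟨M, hM⟩ := hb
  have h1 : oscF u F ≤ ENNReal.ofReal (2 * M) := by
    refine (iInf₂_le univ univ_mem).trans (Metric.ediam_le ?_)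
    rintro _ ⟨x, -, rfl⟩ _ ⟨y, -, rfl⟩
    rw [edist_dist, Real.dist_eq]
    refine ENNReal.ofReal_le_ofReal ?_
    have := abs_sub (u x) (u y)
    linarith [hM x, hM y]
  exact ne_top_of_le_ne_top ENNReal.ofReal_ne_top h1

lemma mem_eK {s : Set ℂ} : s ∈ eK Y K ↔ ∃ O, IsOpen O ∧ K ⊆ O ∧ ∀ z ∈ O, z ∉ Y → z ∈ s := by
  unfold eK
  rw [mem_inf_principal, mem_nhdsSet_iff_exists]
  rfl

lemma osc_le {c : ℝ} (hc : 0 ≤ c) (h : ∃ O, IsOpen O ∧ K ⊆ O ∧ ∀ z ∈ O, z ∉ Y → ∀ w ∈ O, w ∉ Y →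
    |u z - u w| ≤ c) : osc Y u K ≤ c := by
  obtain ⟨O, hO, hKO, h⟩ := h
  have h1 : oscF u (eK Y K) ≤ ENNReal.ofReal c := by
    refine (iInf₂_le (O ∩ Yᶜ) (mem_eK.2 ⟨O, hO, hKO, fun z hz hzY => ⟨hz, hzY⟩⟩)).trans
      (Metric.ediam_le ?_)
    rintro _ ⟨x, hx, rfl⟩ _ ⟨y, hy, rfl⟩
    rw [edist_dist, Real.dist_eq]
    exact ENNReal.ofReal_le_ofReal (h x hx.1 hx.2 y hy.1 hy.2)
  calc osc Y u K ≤ (ENNReal.ofReal c).toReal := ENNReal.toReal_mono ENNReal.ofReal_ne_top h1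
    _ = c := ENNReal.toReal_ofReal hc

lemma osc_le_of_forall {c : ℝ} (hc : 0 ≤ c) (h : ∀ ε > 0, ∃ O, IsOpen O ∧ K ⊆ O ∧ ∀ z ∈ O, z ∉ Y →
    ∀ w ∈ O, w ∉ Y → |u z - u w| ≤ c + ε) : osc Y u K ≤ c :=
  le_of_forall_pos_le_add fun ε hε => osc_le (by positivity) (h ε hε)

/-- below its oscillation plus a bit, a bounded function oscillates less near `K` -/
lemma exists_of_osc_lt {c : ℝ} (hb : ∃ M, ∀ z, |u z| ≤ M) (h : osc Y u K < c) :
    ∃ O, IsOpen O ∧ K ⊆ O ∧ ∀ z ∈ O, z ∉ Y → ∀ w ∈ O, w ∉ Y → |u z - u w| < c := by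
  have hc : 0 < c := (osc_nonneg Y u K).trans_lt h
  have h1 : oscF u (eK Y K) < ENNReal.ofReal c := by
    rw [← ENNReal.ofReal_toReal (oscF_ne_top hb)]
    exact (ENNReal.ofReal_lt_ofReal_iff hc).2 h
  simp only [oscF, iInf_lt_iff] at h1
  obtain ⟨s, hs, hd⟩ := h1
  obtain ⟨O, hO, hKO, hsub⟩ := mem_eK.1 hs
  refine ⟨O, hO, hKO, fun z hz hzY w hw hwY => ?_⟩
  have h2 : edist (u z) (u w) < ENNReal.ofReal c :=
    (Metric.edist_le_ediam_of_mem (mem_image_of_mem u (hsub z hz hzY))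
      (mem_image_of_mem u (hsub w hw hwY))).trans_lt hd
  rw [edist_dist, Real.dist_eq] at h2
  exact (ENNReal.ofReal_lt_ofReal_iff hc).1 h2

lemma osc_const (c : ℝ) : osc Y (fun _ => c) K = 0 := by
  refine le_antisymm (osc_le le_rfl ⟨univ, isOpen_univ, subset_univ _, fun z _ _ w _ _ => ?_⟩)
    (osc_nonneg _ _ _)
  simp

lemma osc_congr {O : Set ℂ} (hO : IsOpen O) (hKO : K ⊆ O) (h : ∀ z ∈ O, z ∉ Y → u z = v z) :
    osc Y u K = osc Y v K := by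
  have key : ∀ {u v : ℂ → ℝ}, (∀ z ∈ O, z ∉ Y → u z = v z) → oscF u (eK Y K) ≤ oscF v (eK Y K) := by
    intro u v h
    refine le_iInf₂ fun s hs => ?_
    obtain ⟨P, hP, hKP, hsub⟩ := mem_eK.1 hs
    refine (iInf₂_le ((P ∩ O) ∩ Yᶜ) (mem_eK.2 ⟨P ∩ O, hP.inter hO, subset_inter hKP hKO,
      fun z hz hzY => ⟨hz, hzY⟩⟩)).trans (Metric.ediam_mono ?_)
    rintro _ ⟨x, hx, rfl⟩
    exact ⟨x, hsub x hx.1.1 hx.2, (h x hx.1.2 hx.2).symm⟩
  exact congrArg ENNReal.toReal (le_antisymm (key h) (key fun z hz hzY => (h z hz hzY).symm))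

lemma osc_comp_le (hb : ∃ M, ∀ z, |u z| ≤ M) {h : ℝ → ℝ} {L : ℝ≥0} (hh : LipschitzWith L h) :
    osc Y (fun z => h (u z)) K ≤ L * osc Y u K := by
  refine osc_le_of_forall (mul_nonneg L.2 (osc_nonneg _ _ _)) fun ε hε => ?_
  have hL : (0 : ℝ) < L + 1 := by positivity
  obtain ⟨O, hO, hKO, h1⟩ := exists_of_osc_lt hb
    (show osc Y u K < osc Y u K + ε / (L + 1) by linarith [div_pos hε hL])
  refine ⟨O, hO, hKO, fun z hz hzY w hw hwY => ?_⟩
  have h2 := hh.dist_le_mul (u z) (u w)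
  rw [Real.dist_eq, Real.dist_eq] at h2
  have h3 := (h1 z hz hzY w hw hwY).le
  have h4 : (L : ℝ) * (ε / (L + 1)) ≤ ε := by
    rw [mul_div_assoc', div_le_iff₀ hL]; nlinarith [L.2]
  have h5 : (L : ℝ) * |u z - u w| ≤ L * (osc Y u K + ε / (L + 1)) :=
    mul_le_mul_of_nonneg_left h3 L.2
  rw [mul_add] at h5
  linarith

lemma osc_add_le (hb : ∃ M, ∀ z, |u z| ≤ M) (hb' : ∃ M, ∀ z, |v z| ≤ M) :
    osc Y (fun z => u z + v z) K ≤ osc Y u K + osc Y v K := by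
  refine osc_le_of_forall (add_nonneg (osc_nonneg _ _ _) (osc_nonneg _ _ _)) fun ε hε => ?_
  obtain ⟨O, hO, hKO, h1⟩ := exists_of_osc_lt hb
    (show osc Y u K < osc Y u K + ε / 2 by linarith)
  obtain ⟨P, hP, hKP, h2⟩ := exists_of_osc_lt hb'
    (show osc Y v K < osc Y v K + ε / 2 by linarith)
  refine ⟨O ∩ P, hO.inter hP, subset_inter hKO hKP, fun z hz hzY w hw hwY => ?_⟩
  have h3 := (h1 z hz.1 hzY w hw.1 hwY).le
  have h4 := (h2 z hz.2 hzY w hw.2 hwY).le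
  have h5 : u z + v z - (u w + v w) = (u z - u w) + (v z - v w) := by ring
  rw [h5]
  exact (abs_add_le _ _).trans (by linarith)

lemma osc_neg : osc Y (fun z => - u z) K = osc Y u K := by
  have key : ∀ {u : ℂ → ℝ}, oscF (fun z => - u z) (eK Y K) ≤ oscF u (eK Y K) := by
    intro u
    refine le_iInf₂ fun s hs => (iInf₂_le s hs).trans (Metric.ediam_le ?_)
    rintro _ ⟨x, hx, rfl⟩ _ ⟨y, hy, rfl⟩
    have := Metric.edist_le_ediam_of_mem (mem_image_of_mem u hx) (mem_image_of_mem u hy)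
    simpa [edist_neg_neg] using this
  refine congrArg ENNReal.toReal (le_antisymm key ?_)
  have := key (u := fun z => - u z)
  simpa using this

lemma osc_sub_le (hb : ∃ M, ∀ z, |u z| ≤ M) (hb' : ∃ M, ∀ z, |v z| ≤ M) :
    osc Y (fun z => u z - v z) K ≤ osc Y u K + osc Y v K := by
  have h1 : ∃ M, ∀ z, |(fun z => - v z) z| ≤ M := hb'.imp fun M h z => by simpa using h z
  have := osc_add_le (Y := Y) (K := K) hb h1
  rw [osc_neg] at this
  simpa [sub_eq_add_neg] using this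

lemma abs_osc_sub_le (hb : ∃ M, ∀ z, |u z| ≤ M) (hb' : ∃ M, ∀ z, |v z| ≤ M) :
    |osc Y u K - osc Y v K| ≤ osc Y (fun z => u z - v z) K := by
  have hd : ∃ M, ∀ z, |u z - v z| ≤ M := by
    obtain ⟨M, hM⟩ := hb
    obtain ⟨N, hN⟩ := hb'
    exact ⟨M + N, fun z => (abs_sub _ _).trans (add_le_add (hM z) (hN z))⟩
  have h1 := osc_add_le (Y := Y) (K := K) (u := fun z => u z - v z) (v := v) hd hb'
  have h2 := osc_sub_le (Y := Y) (K := K) (u := u) (v := fun z => u z - v z) hb hd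
  simp only [sub_add_cancel, sub_sub_cancel] at h1 h2
  rw [abs_le]; constructor <;> linarith

lemma osc_le_two_mul {c : ℝ} (h : ∀ z ∉ Y, |u z| ≤ c) (hc : 0 ≤ c) : osc Y u K ≤ 2 * c := by
  refine osc_le (by positivity) ⟨univ, isOpen_univ, subset_univ _, fun z _ hz w _ hw => ?_⟩
  have := abs_sub (u z) (u w)
  linarith [h z hz, h w hw]

lemma osc_mul_le {M : ℝ} (hu : ∀ z, |u z| ≤ M) (hv : ∀ z, |v z| ≤ M) :
    osc Y (fun z => u z * v z) K ≤ M * (osc Y u K + osc Y v K) := by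
  have hM : 0 ≤ M := (abs_nonneg _).trans (hu 0)
  refine osc_le_of_forall (mul_nonneg hM (add_nonneg (osc_nonneg _ _ _) (osc_nonneg _ _ _)))
    fun ε hε => ?_
  have hM1 : (0 : ℝ) < 2 * (M + 1) := by positivity
  have hd : 0 < ε / (2 * (M + 1)) := div_pos hε hM1
  obtain ⟨O, hO, hKO, h1⟩ := exists_of_osc_lt ⟨M, hu⟩
    (show osc Y u K < osc Y u K + ε / (2 * (M + 1)) by linarith)
  obtain ⟨P, hP, hKP, h2⟩ := exists_of_osc_lt ⟨M, hv⟩
    (show osc Y v K < osc Y v K + ε / (2 * (M + 1)) by linarith)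
  refine ⟨O ∩ P, hO.inter hP, subset_inter hKO hKP, fun z hz hzY w hw hwY => ?_⟩
  have h3 := (h1 z hz.1 hzY w hw.1 hwY).le
  have h4 := (h2 z hz.2 hzY w hw.2 hwY).le
  have h5 : u z * v z - u w * v w = u z * (v z - v w) + v w * (u z - u w) := by ring
  rw [h5]
  refine (abs_add_le _ _).trans ?_
  rw [abs_mul, abs_mul]
  have h6 : |u z| * |v z - v w| ≤ M * (osc Y v K + ε / (2 * (M + 1))) :=
    mul_le_mul (hu z) h4 (abs_nonneg _) hM
  have h7 : |v w| * |u z - u w| ≤ M * (osc Y u K + ε / (2 * (M + 1))) :=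
    mul_le_mul (hv w) h3 (abs_nonneg _) hM
  have h8 : M * (ε / (2 * (M + 1))) ≤ ε / 2 := by
    rw [mul_div_assoc', div_le_div_iff₀ hM1 two_pos]; nlinarith
  nlinarith

/-- upper semicontinuity in the component -/
lemma osc_usc {c : ℝ} (hb : ∃ M, ∀ z, |u z| ≤ M) (h : osc Y u K < c) :
    ∃ O, IsOpen O ∧ K ⊆ O ∧ ∀ K' ⊆ O, osc Y u K' < c := by
  obtain ⟨c', h1, h2⟩ := exists_between h
  obtain ⟨O, hO, hKO, h3⟩ := exists_of_osc_lt hb h1
  refine ⟨O, hO, hKO, fun K' hK' => (osc_le ((osc_nonneg Y u K).trans h1.le)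
    ⟨O, hO, hK', fun z hz hzY w hw hwY => (h3 z hz hzY w hw hwY).le⟩).trans_lt h2⟩

end Osc

/-! ### locally constant functions -/

/-- a function which is locally constant near `Y` is constant near every connected subset -/
lemma LC.const_near {Y K : Set ℂ} {χ : ℂ → ℝ} (h : LC Y χ) (hK : IsPreconnected K) (hKY : K ⊆ Y) :
    ∃ c, ∃ O, IsOpen O ∧ K ⊆ O ∧ ∀ z ∈ O, χ z = c := by
  rcases K.eq_empty_or_nonempty with rfl | ⟨z₀, hz₀⟩
  · exact ⟨0, ∅, isOpen_empty, empty_subset _, fun z hz => hz.elim⟩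
  refine ⟨χ z₀, interior {z | χ z = χ z₀}, isOpen_interior, ?_, fun z hz => by
    have h := interior_subset hz; exact h⟩
  -- `{z ∈ K | χ z = χ z₀}` is clopen in `K`
  have hopen : IsOpen (interior {z | χ z = χ z₀}) := isOpen_interior
  have hopen' : IsOpen (⋃ z ∈ K ∩ {z | χ z ≠ χ z₀}, interior {w | χ w = χ z}) :=
    isOpen_biUnion fun _ _ => isOpen_interior
  have hmem : ∀ z ∈ Y, z ∈ interior {w | χ w = χ z} := fun z hz => mem_interior_iff_mem_nhds.2 (h.lc z hz)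
  have hz₁ : z₀ ∈ interior {z | χ z = χ z₀} := hmem z₀ (hKY hz₀)
  by_contra hcon
  obtain ⟨z₁, hz₁K, hz₁'⟩ := not_subset.1 hcon
  have hne : χ z₁ ≠ χ z₀ := by
    intro he
    apply hz₁'
    have := hmem z₁ (hKY hz₁K)
    rwa [he] at this
  obtain ⟨w, hwK, hw1, hw2⟩ := hK _ _ hopen hopen' (by
      intro z hz
      by_cases hzz : χ z = χ z₀
      · left
        have := hmem z (hKY hz)
        rwa [hzz] at this
      · right
        exact mem_biUnion (show z ∈ K ∩ {z | χ z ≠ χ z₀} from ⟨hz, hzz⟩) (hmem z (hKY hz)))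
    ⟨z₀, hz₀, hz₁⟩ ⟨z₁, hz₁K, mem_biUnion (show z₁ ∈ K ∩ {z | χ z ≠ χ z₀} from ⟨hz₁K, hne⟩)
      (hmem z₁ (hKY hz₁K))⟩
  obtain ⟨z, hz, hwz⟩ := mem_iUnion₂.1 hw2
  have e1 : χ w = χ z₀ := by have h := interior_subset hw1; exact h
  have e2 : χ w = χ z := by have h := interior_subset hwz; exact h
  exact hz.2 (e2.symm.trans e1)

lemma Cmp.subset {Y : Set ℂ} (K : Cmp Y) : K.1 ⊆ Y := by
  obtain ⟨K, z, hz, rfl⟩ := K; exact connectedComponentIn_subset _ _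

lemma Cmp.preconn {Y : Set ℂ} (K : Cmp Y) : IsPreconnected K.1 := by
  obtain ⟨K, z, hz, rfl⟩ := K; exact isPreconnected_connectedComponentIn

lemma Cmp.nonempty {Y : Set ℂ} (K : Cmp Y) : K.1.Nonempty := by
  obtain ⟨K, z, hz, rfl⟩ := K; exact ⟨z, mem_connectedComponentIn hz⟩

lemma Cmp.ext {Y : Set ℂ} {K K' : Cmp Y} (h : K.1 = K'.1) : K = K' := Subtype.ext h

/-- the component of a point -/
def Cmp.of {Y : Set ℂ} {z : ℂ} (hz : z ∈ Y) : Cmp Y := ⟨connectedComponentIn Y z, z, hz, rfl⟩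

lemma Cmp.eq_of_mem {Y : Set ℂ} (K : Cmp Y) {z : ℂ} (hz : z ∈ K.1) :
    K = Cmp.of (K.subset hz) := by
  obtain ⟨K, w, hw, rfl⟩ := K
  exact Cmp.ext (connectedComponentIn_eq hz)

lemma Cmp.disjoint {Y : Set ℂ} {K K' : Cmp Y} (h : K ≠ K') : Disjoint K.1 K'.1 := by
  rw [Set.disjoint_left]
  intro z hz hz'
  exact h ((K.eq_of_mem hz).trans (K'.eq_of_mem hz').symm)

lemma Cmp.isCompact {Y : Set ℂ} (hY : IsCompact Y) (K : Cmp Y) : IsCompact K.1 := by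
  obtain ⟨K, w, hw, rfl⟩ := K
  exact Ends_897.isCompact_cc hY w

lemma osc_lc {Y : Set ℂ} {χ : ℂ → ℝ} (h : LC Y χ) (K : Cmp Y) : osc Y χ K.1 = 0 := by
  obtain ⟨c, O, hO, hKO, hc⟩ := LC.const_near h K.preconn K.subset
  rw [osc_congr hO hKO fun z hz _ => hc z hz, osc_const]

/-! ### jump sets and the classes -/

section Classes
variable {Y : Set ℂ} {u v : ℂ → ℝ}

lemma Jmp_const (c : ℝ) : Jmp Y (fun _ => c) = ∅ := by
  ext K; simp [Jmp, osc_const]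

lemma Jmp_lc {χ : ℂ → ℝ} (h : LC Y χ) : Jmp Y χ = ∅ := by
  ext K; simp [Jmp, osc_lc h K]

lemma Jmp_comp (hu : ∃ M, ∀ z, |u z| ≤ M) {h : ℝ → ℝ} {L : ℝ≥0} (hh : LipschitzWith L h) :
    Jmp Y (fun z => h (u z)) ⊆ Jmp Y u := by
  intro K hK h0
  apply hK
  have := osc_comp_le (Y := Y) (K := K.1) hu hh
  rw [h0, mul_zero] at this
  exact le_antisymm this (osc_nonneg _ _ _)

lemma Jmp_add (hu : ∃ M, ∀ z, |u z| ≤ M) (hv : ∃ M, ∀ z, |v z| ≤ M) :
    Jmp Y (fun z => u z + v z) ⊆ Jmp Y u ∪ Jmp Y v := by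
  intro K hK
  by_contra hcon
  simp only [Jmp, mem_union, mem_ofPred_eq, not_or, not_not] at hcon
  apply hK
  have := osc_add_le (Y := Y) (K := K.1) hu hv
  rw [hcon.1, hcon.2, add_zero] at this
  exact le_antisymm this (osc_nonneg _ _ _)

lemma Jmp_mul (hu : ∃ M, ∀ z, |u z| ≤ M) (hv : ∃ M, ∀ z, |v z| ≤ M) :
    Jmp Y (fun z => u z * v z) ⊆ Jmp Y u ∪ Jmp Y v := by
  obtain ⟨M, hM⟩ := hu
  obtain ⟨N, hN⟩ := hv
  intro K hK
  by_contra hcon
  simp only [Jmp, mem_union, mem_ofPred_eq, not_or, not_not] at hcon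
  apply hK
  have := osc_mul_le (Y := Y) (K := K.1) (M := max M N) (fun z => (hM z).trans (le_max_left _ _))
    (fun z => (hN z).trans (le_max_right _ _))
  rw [hcon.1, hcon.2, add_zero, mul_zero] at this
  exact le_antisymm this (osc_nonneg _ _ _)

lemma TF.tt (h : TF Y u) : TT Y u := by
  refine ⟨h.q, ?_⟩
  refine summable_of_ne_finset_zero (s := h.fin.toFinset) fun K hK => ?_
  have : osc Y u K.1 = 0 := by
    by_contra h'
    exact hK (h.fin.mem_toFinset.2 h')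
  rw [this]; ring

lemma TF.const (c : ℝ) : TF Y (fun _ => c) := ⟨Q.const Y c, by rw [Jmp_const]; exact finite_empty⟩
lemma TF.lc {χ : ℂ → ℝ} (h : LC Y χ) : TF Y χ := ⟨h.q, by rw [Jmp_lc h]; exact finite_empty⟩
lemma TF.add (hY : IsClosed Y) (hu : TF Y u) (hv : TF Y v) : TF Y (fun z => u z + v z) :=
  ⟨hu.q.add hY hv.q, (hu.fin.union hv.fin).subset (Jmp_add hu.q.bdd hv.q.bdd)⟩
lemma TF.mul (hY : IsClosed Y) (hu : TF Y u) (hv : TF Y v) : TF Y (fun z => u z * v z) :=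
  ⟨hu.q.mul hY hv.q, (hu.fin.union hv.fin).subset (Jmp_mul hu.q.bdd hv.q.bdd)⟩
lemma TF.comp (hY : IsClosed Y) (hu : TF Y u) {h : ℝ → ℝ} {L : ℝ≥0} (hh : LipschitzWith L h) :
    TF Y (fun z => h (u z)) :=
  ⟨hu.q.comp hY hh, hu.fin.subset (Jmp_comp hu.q.bdd hh)⟩

lemma TT.const (c : ℝ) : TT Y (fun _ => c) := (TF.const c).tt
lemma TT.lc {χ : ℂ → ℝ} (h : LC Y χ) : TT Y χ := (TF.lc h).tt
lemma TT.add (hY : IsClosed Y) (hu : TT Y u) (hv : TT Y v) : TT Y (fun z => u z + v z) := by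
  refine ⟨hu.q.add hY hv.q, ?_⟩
  refine Summable.of_nonneg_of_le (fun K => sq_nonneg _) (fun K => ?_)
    ((hu.sum.mul_left 2).add (hv.sum.mul_left 2))
  have h1 := osc_add_le (Y := Y) (K := K.1) hu.q.bdd hv.q.bdd
  have h2 := pow_le_pow_left₀ (osc_nonneg _ _ _) h1 2
  nlinarith [sq_nonneg (osc Y u K.1 - osc Y v K.1)]
lemma TT.mul (hY : IsClosed Y) (hu : TT Y u) (hv : TT Y v) : TT Y (fun z => u z * v z) := by
  refine ⟨hu.q.mul hY hv.q, ?_⟩
  obtain ⟨M, hM⟩ := hu.q.bdd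
  obtain ⟨N, hN⟩ := hv.q.bdd
  set L := max M N
  refine Summable.of_nonneg_of_le (fun K => sq_nonneg _) (fun K => ?_)
    ((hu.sum.mul_left (2 * L ^ 2)).add (hv.sum.mul_left (2 * L ^ 2)))
  have h1 := osc_mul_le (Y := Y) (K := K.1) (M := L) (fun z => (hM z).trans (le_max_left _ _))
    (fun z => (hN z).trans (le_max_right _ _))
  have h2 := pow_le_pow_left₀ (osc_nonneg _ _ _) h1 2
  have h3 : L ^ 2 * (osc Y u K.1 + osc Y v K.1) ^ 2 ≤
      L ^ 2 * (2 * osc Y u K.1 ^ 2 + 2 * osc Y v K.1 ^ 2) :=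
    mul_le_mul_of_nonneg_left (by nlinarith [sq_nonneg (osc Y u K.1 - osc Y v K.1)]) (sq_nonneg L)
  nlinarith
lemma TT.comp (hY : IsClosed Y) (hu : TT Y u) {h : ℝ → ℝ} {L : ℝ≥0} (hh : LipschitzWith L h) :
    TT Y (fun z => h (u z)) := by
  refine ⟨hu.q.comp hY hh, ?_⟩
  refine Summable.of_nonneg_of_le (fun K => sq_nonneg _) (fun K => ?_)
    (hu.sum.mul_left ((L : ℝ) ^ 2))
  have h1 := osc_comp_le (Y := Y) (K := K.1) hu.q.bdd hh
  have h2 := pow_le_pow_left₀ (osc_nonneg _ _ _) h1 2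
  rwa [mul_pow] at h2

/-- everything generated by `TF` functions is `TF` -/
lemma gen_tf {ι : Type*} {b : ι → ℂ → ℝ} (hY : IsClosed Y) (hb : ∀ i, TF Y (b i)) {a : ℂ → ℝ}
    (ha : Gen Y b a) : TF Y a := by
  induction ha with
  | const c => exact TF.const c
  | lc h => exact TF.lc h
  | of i => exact hb i
  | add _ _ h1 h2 => exact h1.add hY h2
  | mul _ _ h1 h2 => exact h1.mul hY h2
  | comp hh _ h1 => exact h1.comp hY hh

lemma gen_tt {ι : Type*} {b : ι → ℂ → ℝ} (hY : IsClosed Y) (hb : ∀ i, TT Y (b i)) {a : ℂ → ℝ}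
    (ha : Gen Y b a) : TT Y a := by
  induction ha with
  | const c => exact TT.const c
  | lc h => exact TT.lc h
  | of i => exact hb i
  | add _ _ h1 h2 => exact h1.add hY h2
  | mul _ _ h1 h2 => exact h1.mul hY h2
  | comp hh _ h1 => exact h1.comp hY hh

lemma IsoT.trans {ι κ : Type*} {b : ι → ℂ → ℝ} {b' : κ → ℂ → ℝ} (hb : IsoT Y b')
    (h : ∀ i, Gen Y b' (b i)) : IsoT Y b :=
  fun _ _ hu hv hd => hb _ _ (hu.trans h) (hv.trans h) hd

/-- only finitely many components carry a large oscillation -/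
lemma TT.finite (h : TT Y u) {ε : ℝ} (hε : 0 < ε) : {K : Cmp Y | ε ≤ osc Y u K.1}.Finite := by
  have h1 := h.sum.tendsto_cofinite_zero
  have h2 : ∀ᶠ K : Cmp Y in cofinite, osc Y u K.1 ^ 2 < ε ^ 2 := h1.eventually (gt_mem_nhds (by positivity))
  rw [eventually_cofinite] at h2
  refine h2.subset fun K hK => ?_
  have hK' : ε ≤ osc Y u K.1 := hK
  simp only [mem_ofPred_eq, not_lt]
  exact pow_le_pow_left₀ hε.le hK' 2

lemma TT.countable (h : TT Y u) : (Jmp Y u).Countable := by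
  have : Jmp Y u ⊆ ⋃ n : ℕ, {K : Cmp Y | 1 / ((n : ℝ) + 1) ≤ osc Y u K.1} := by
    intro K hK
    have hpos : 0 < osc Y u K.1 := lt_of_le_of_ne (osc_nonneg _ _ _) (Ne.symm hK)
    obtain ⟨n, hn⟩ := exists_nat_one_div_lt hpos
    exact mem_iUnion.2 ⟨n, hn.le⟩
  exact (countable_iUnion fun n => (h.finite (by positivity)).countable).mono this

end Classes

end

end Crest.Agent.R105.Tc_808
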