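import Mathlib
import Crest.Agent.R105.Tc1_808
import Crest.Agent.R105.Bd5_775
import Crest.Agent.R105.IfB2_641

/-!
Row 105, S0138 (T-frame), SEL-T part 1: the complete metric on the class `TT` with solids.
`NearT Y r u v` = 775's `Near` and `∑ osc_K (u - v)² ≤ r²`; `HT Y = {u // TT Y u ∧ u = 0 on Y}`;
`metT hY`, `completeT`.
-/

set_option autoImplicit false
set_option linter.style.haveILetI false

open MeasureTheory Set Filter Topology Metric
open scoped NNReal ENNReal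

namespace Crest.Agent.R105.SelT_871

open Crest.Agent.R105.Bd_775 Crest.Agent.R105.Tc_808

noncomputable section

/-- the jump part of the T-energy -/
def jE (Y : Set ℂ) (u : ℂ → ℝ) : ℝ≥0∞ := ∑' K : Cmp Y, ENNReal.ofReal (osc Y u K.1 ^ 2)

/-- closeness of order `r` in the T-frame -/
structure NearT (Y : Set ℂ) (r : ℝ) (u v : ℂ → ℝ) : Prop where
  near : Near Y r u v
  jmp : jE Y (fun w => u w - v w) ≤ ENNReal.ofReal (r ^ 2)

section
variable {Y : Set ℂ} {u v w : ℂ → ℝ} {r s : ℝ}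

lemma jE_const (c : ℝ) : jE Y (fun _ => c) = 0 := by
  unfold jE
  simp [osc_const]

lemma jE_sub_comm (u v : ℂ → ℝ) : jE Y (fun w => u w - v w) = jE Y (fun w => v w - u w) := by
  unfold jE
  congr 1; funext K
  have : (fun w => u w - v w) = fun w => -(v w - u w) := by funext w; ring
  rw [this, osc_neg]

lemma jE_ne_top (h : TT Y u) : jE Y u ≠ ∞ := by
  unfold jE
  exact h.sum.tsum_ofReal_ne_top

lemma summable_of_jE (h : jE Y u ≠ ∞) : Summable fun K : Cmp Y => osc Y u K.1 ^ 2 := by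
  unfold jE at h
  have h1 := ENNReal.summable_toReal h
  refine h1.congr fun K => ?_
  rw [ENNReal.toReal_ofReal (sq_nonneg _)]

/-- Minkowski for the jump part -/
lemma jE_tri (hr : 0 < r) (hs : 0 < s) (hu : ∃ M, ∀ z, |u z| ≤ M) (hv : ∃ M, ∀ z, |v z| ≤ M)
    (h1 : jE Y u ≤ ENNReal.ofReal (r ^ 2)) (h2 : jE Y v ≤ ENNReal.ofReal (s ^ 2)) :
    jE Y (fun w => u w + v w) ≤ ENNReal.ofReal ((r + s) ^ 2) := by
  have hA : (0 : ℝ) ≤ 1 + s / r := by positivity
  have hB : (0 : ℝ) ≤ 1 + r / s := by positivity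
  have key : ∀ a b : ℝ, (a + b) ^ 2 ≤ (1 + s / r) * a ^ 2 + (1 + r / s) * b ^ 2 := by
    intro a b
    have : (1 + s / r) * a ^ 2 + (1 + r / s) * b ^ 2 - (a + b) ^ 2 =
        (s * a - r * b) ^ 2 / (r * s) := by field_simp; ring
    have h3 : 0 ≤ (s * a - r * b) ^ 2 / (r * s) := by positivity
    linarith
  calc jE Y (fun w => u w + v w)
      ≤ ∑' K : Cmp Y, (ENNReal.ofReal (1 + s / r) * ENNReal.ofReal (osc Y u K.1 ^ 2) +
          ENNReal.ofReal (1 + r / s) * ENNReal.ofReal (osc Y v K.1 ^ 2)) := by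
        unfold jE
        refine ENNReal.tsum_le_tsum fun K => ?_
        rw [← ENNReal.ofReal_mul hA, ← ENNReal.ofReal_mul hB,
          ← ENNReal.ofReal_add (mul_nonneg hA (sq_nonneg _)) (mul_nonneg hB (sq_nonneg _))]
        refine ENNReal.ofReal_le_ofReal ?_
        have e0 := osc_add_le (Y := Y) (K := K.1) hu hv
        exact (pow_le_pow_left₀ (osc_nonneg _ _ _) e0 2).trans (key _ _)
    _ = ENNReal.ofReal (1 + s / r) * jE Y u + ENNReal.ofReal (1 + r / s) * jE Y v := by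
        unfold jE
        rw [ENNReal.tsum_add, ENNReal.tsum_mul_left, ENNReal.tsum_mul_left]
    _ ≤ ENNReal.ofReal (1 + s / r) * ENNReal.ofReal (r ^ 2) +
          ENNReal.ofReal (1 + r / s) * ENNReal.ofReal (s ^ 2) := by gcongr
    _ = ENNReal.ofReal ((r + s) ^ 2) := by
        rw [← ENNReal.ofReal_mul hA, ← ENNReal.ofReal_mul hB,
          ← ENNReal.ofReal_add (by positivity) (by positivity)]
        congr 1; field_simp; ring

lemma NearT.refl (hr : 0 < r) (u : ℂ → ℝ) : NearT Y r u u := by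
  refine ⟨Near.refl hr u, ?_⟩
  have : (fun w => u w - u w) = fun _ : ℂ => (0 : ℝ) := funext fun w => sub_self _
  rw [this, jE_const]; exact zero_le

lemma NearT.symm (h : NearT Y r u v) : NearT Y r v u :=
  ⟨h.near.symm, by rw [jE_sub_comm]; exact h.jmp⟩

lemma NearT.mono (hr : 0 < r) (hrs : r ≤ s) (h : NearT Y r u v) : NearT Y s u v :=
  ⟨h.near.mono hr hrs, h.jmp.trans (ENNReal.ofReal_le_ofReal (pow_le_pow_left₀ hr.le hrs 2))⟩

lemma bdd_sub (hu : ∃ M, ∀ z, |u z| ≤ M) (hv : ∃ M, ∀ z, |v z| ≤ M) :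
    ∃ M, ∀ z, |u z - v z| ≤ M := by
  obtain ⟨M, hM⟩ := hu
  obtain ⟨N, hN⟩ := hv
  exact ⟨M + N, fun z => (abs_sub _ _).trans (add_le_add (hM z) (hN z))⟩

lemma NearT.tri (hY : IsClosed Y) (hr : 0 < r) (hs : 0 < s) (hu : Q Y u) (hv : Q Y v)
    (hw : Q Y w) (h1 : NearT Y r u v) (h2 : NearT Y s v w) : NearT Y (r + s) u w := by
  refine ⟨h1.near.tri hY hr hs hu.loc hv.loc hw.loc h2.near, ?_⟩
  have := jE_tri hr hs (bdd_sub hu.bdd hv.bdd) (bdd_sub hv.bdd hw.bdd) h1.jmp h2.jmp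
  refine le_trans (le_of_eq ?_) this
  congr 1; funext w'; ring

lemma TT.sub (hY : IsClosed Y) (hu : TT Y u) (hv : TT Y v) : TT Y (fun z => u z - v z) := by
  have := hu.add hY (hv.comp hY (h := fun t => -t) (L := 1) LipschitzWith.id.neg)
  simpa [sub_eq_add_neg] using this

lemma nearT_ex (hY : IsClosed Y) (hu : TT Y u) (hv : TT Y v) : ∃ r > 0, NearT Y r u v := by
  obtain ⟨r, hr, h⟩ := near_ex hY hu.q hv.q
  have hf := jE_ne_top (TT.sub hY hu hv)
  set A := (jE Y fun z => u z - v z).toReal with hA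
  have hA0 : 0 ≤ A := ENNReal.toReal_nonneg
  refine ⟨max r (A + 1), lt_max_of_lt_left hr, h.mono hr (le_max_left _ _), ?_⟩
  rw [← ENNReal.ofReal_toReal hf]
  refine ENNReal.ofReal_le_ofReal ?_
  rw [← hA]
  have h1 : A + 1 ≤ max r (A + 1) := le_max_right _ _
  nlinarith

end

/-- T-finite functions vanishing on `Y` -/
def HT (Y : Set ℂ) : Type := {u : ℂ → ℝ // TT Y u ∧ ∀ z ∈ Y, u z = 0}

lemma gaugeT {Y : Set ℂ} (hY : IsClosed Y) :
    Gauge (fun (r : ℝ) (u v : HT Y) => NearT Y r u.1 v.1) where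
  refl r hr x := NearT.refl hr x.1
  symm r _ x y h := h.symm
  tri r s hr hs x y z h1 h2 := h1.tri hY hr hs x.2.1.q y.2.1.q z.2.1.q h2
  mono r s hr hrs x y h := h.mono hr hrs
  ex x y := nearT_ex hY x.2.1 y.2.1
  sep x y h := by
    refine Subtype.ext (funext fun z => ?_)
    by_contra hne
    have hpos : 0 < |x.1 z - y.1 z| := abs_pos.2 (sub_ne_zero.2 hne)
    have := (h (|x.1 z - y.1 z| / 2) (half_pos hpos)).near.sup z
    linarith

/-- the metric on `HT Y` -/
@[instance_reducible] def metT {Y : Set ℂ} (hY : IsClosed Y) : MetricSpace (HT Y) :=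
  (gaugeT hY).metric

section Metric
variable {Y : Set ℂ} (hY : IsClosed Y)
include hY

lemma nearT_of_dist_lt {x y : HT Y} {r : ℝ} (h : (metT hY).dist x y < r) : NearT Y r x.1 y.1 :=
  (gaugeT hY).of_gd_lt h

lemma dist_le_of_nearT {x y : HT Y} {r : ℝ} (hr : 0 < r) (h : NearT Y r x.1 y.1) :
    (metT hY).dist x y ≤ r := Gauge.gd_le hr h

/-- the class `Q` is closed under `Near`-approximation -/
lemma q_of_near {x : ℂ → ℝ} (h : ∀ r > 0, ∃ u, Q Y u ∧ Near Y r u x) : Q Y x := by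
  have hll : LocallyLipschitzOn Yᶜ x := by
    intro z hz
    obtain ⟨ρ, hρ, hρz⟩ := Metric.isOpen_iff.1 hY.isOpen_compl z hz
    obtain ⟨u, hu, hn⟩ := h (min (ρ / 2) (1 / 2)) (by positivity)
    have hoff : ∀ w ∉ thickening (min (ρ / 2) (1 / 2)) Y, u w = x w := by
      rcases hn.off with h1 | h1
      · have := h1.trans (min_le_right _ _); norm_num at this
      · exact h1
    obtain ⟨K, t, ht, hL⟩ := hu.loc hz
    rw [hY.isOpen_compl.nhdsWithin_eq hz] at ht
    refine ⟨K, t ∩ ball z (ρ / 2), ?_, ?_⟩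
    · rw [hY.isOpen_compl.nhdsWithin_eq hz]
      exact inter_mem ht (ball_mem_nhds z (half_pos hρ))
    · have hEq : EqOn u x (t ∩ ball z (ρ / 2)) := by
        intro w hw
        refine hoff w fun hw2 => ?_
        obtain ⟨c, hc, hd⟩ := mem_thickening_iff.1 hw2
        refine hρz (mem_ball.2 ?_) hc
        have hw3 := mem_ball.1 hw.2
        have := dist_triangle c w z
        rw [dist_comm c w] at this
        have := min_le_left (ρ / 2) (1 / 2 : ℝ)
        linarith
      intro a ha b hb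
      rw [← hEq ha, ← hEq hb]
      exact hL ha.1 hb.1
  obtain ⟨u, hu, hn⟩ := h 1 one_pos
  refine ⟨?_, hll, ?_⟩
  · obtain ⟨M, hM⟩ := hu.bdd
    refine ⟨M + 1, fun z => ?_⟩
    have h1 := hn.sup z
    have h2 : |x z| ≤ |u z| + |u z - x z| := by
      have := abs_sub (u z) (u z - x z)
      rwa [sub_sub_cancel] at this
    linarith [hM z]
  · have h1 : ∫⁻ z in Yᶜ, ENNReal.ofReal (en u z) ≠ ∞ := hu.lintegral_en_ne_top
    have h2 := hn.symm.enr
    have h3 : ∫⁻ z in Yᶜ, ENNReal.ofReal (en x z) ≤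
        2 * (∫⁻ z in Yᶜ, ENNReal.ofReal (en u z)) +
        2 * ∫⁻ z in Yᶜ, ENNReal.ofReal (en (fun w => x w - u w) z) := by
      rw [← lintegral_const_mul _ (measurable_en _).ennreal_ofReal,
        ← lintegral_const_mul _ (measurable_en _).ennreal_ofReal,
        ← lintegral_add_left ((measurable_en _).ennreal_ofReal.const_mul _)]
      refine lintegral_mono_ae ?_
      filter_upwards [ae_diff hY.isOpen_compl hll, ae_diff hY.isOpen_compl hu.loc] with z d1 d2
      have e1 := en_add_le (u := u) (v := fun w => x w - u w) d2 (d1.fun_sub d2)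
      have e2 : (fun w => u w + (x w - u w)) = x := by funext w; ring
      rw [e2] at e1
      have e3 : (2 : ℝ≥0∞) = ENNReal.ofReal 2 := by norm_num
      rw [e3, ← ENNReal.ofReal_mul (by norm_num), ← ENNReal.ofReal_mul (by norm_num),
        ← ENNReal.ofReal_add (mul_nonneg (by norm_num) (en_nonneg _ _))
          (mul_nonneg (by norm_num) (en_nonneg _ _))]
      exact ENNReal.ofReal_le_ofReal e1
    refine integrableOn_en_of (ne_top_of_le_ne_top ?_ h3)
    refine ENNReal.add_ne_top.2 ⟨ENNReal.mul_ne_top (by norm_num) h1,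
      ENNReal.mul_ne_top (by norm_num) (ne_top_of_le_ne_top ENNReal.ofReal_ne_top h2)⟩

/-- the class `TT` is closed under `NearT`-approximation -/
lemma tt_of_near {x : ℂ → ℝ} (h : ∀ r > 0, ∃ u, TT Y u ∧ NearT Y r u x) : TT Y x := by
  have hq : Q Y x := q_of_near hY fun r hr => by
    obtain ⟨u, hu, hn⟩ := h r hr
    exact ⟨u, hu.q, hn.near⟩
  refine ⟨hq, ?_⟩
  obtain ⟨u, hu, hn⟩ := h 1 one_pos
  set A : ℝ := Real.sqrt ((jE Y u).toReal) + 1 with hA
  have hA0 : 0 < A := by positivity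
  have h1 : jE Y u ≤ ENNReal.ofReal (A ^ 2) := by
    rw [← ENNReal.ofReal_toReal (jE_ne_top hu)]
    refine ENNReal.ofReal_le_ofReal ?_
    have h2 := Real.sq_sqrt (ENNReal.toReal_nonneg (a := jE Y u))
    have h3 := Real.sqrt_nonneg (jE Y u).toReal
    nlinarith
  have h2 : jE Y (fun w => x w - u w) ≤ ENNReal.ofReal (1 ^ 2) := hn.symm.jmp
  have h3 := jE_tri hA0 one_pos hu.q.bdd (bdd_sub hq.bdd hu.q.bdd) h1 h2
  have e : (fun w => u w + (x w - u w)) = x := by funext w; ring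
  rw [e] at h3
  exact summable_of_jE (ne_top_of_le_ne_top ENNReal.ofReal_ne_top h3)

omit hY in
/-- the jump part of a limit -/
lemma jE_limit {u : ℕ → ℂ → ℝ} {x : ℂ → ℝ} {B : ℕ → ℝ} (hB0 : ∀ n, 0 < B n)
    (hBt : Tendsto B atTop (𝓝 0)) (hbu : ∀ n, ∃ M, ∀ z, |u n z| ≤ M)
    (hbx : ∃ M, ∀ z, |x z| ≤ M) {v : ℂ → ℝ} (hbv : ∃ M, ∀ z, |v z| ≤ M) {c : ℝ≥0∞}
    (hsup : ∀ n z, |u n z - x z| ≤ B n)
    (h : ∀ᶠ m in atTop, jE Y (fun w => v w - u m w) ≤ c) :
    jE Y (fun w => v w - x w) ≤ c := by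
  unfold jE
  rw [ENNReal.tsum_eq_iSup_sum]
  refine iSup_le fun F => ?_
  have h1 : ∀ K : Cmp Y, Tendsto (fun m => osc Y (fun w => v w - u m w) K.1) atTop
      (𝓝 (osc Y (fun w => v w - x w) K.1)) := by
    intro K
    rw [tendsto_iff_dist_tendsto_zero]
    refine squeeze_zero (fun m => dist_nonneg) (fun m => ?_)
      (show Tendsto (fun m => 2 * B m) atTop (𝓝 0) by simpa using hBt.const_mul 2)
    rw [Real.dist_eq]
    have h2 := abs_osc_sub_le (Y := Y) (K := K.1) (u := fun w => v w - u m w)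
      (v := fun w => v w - x w) (bdd_sub hbv (hbu m)) (bdd_sub hbv hbx)
    refine h2.trans ?_
    refine osc_le_two_mul (c := B m) (fun z _ => ?_) (hB0 m).le
    have : v z - u m z - (v z - x z) = -(u m z - x z) := by ring
    rw [this, abs_neg]; exact hsup m z
  have h3 : Tendsto (fun m => ∑ K ∈ F, ENNReal.ofReal (osc Y (fun w => v w - u m w) K.1 ^ 2)) atTop
      (𝓝 (∑ K ∈ F, ENNReal.ofReal (osc Y (fun w => v w - x w) K.1 ^ 2))) :=
    tendsto_finsetSum F fun K _ => (ENNReal.tendsto_ofReal ((h1 K).pow 2))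
  refine le_of_tendsto h3 ?_
  filter_upwards [h] with m hm
  refine le_trans ?_ hm
  unfold jE
  exact ENNReal.sum_le_tsum F

/-- **completeness of the T-metric** -/
lemma completeT : @CompleteSpace (HT Y) (metT hY).toUniformSpace := by
  let _ := metT hY
  refine Metric.complete_of_convergent_controlled_sequences (fun n => (1 / 2 : ℝ) ^ (n + 1))
    (fun n => by positivity) ?_
  intro u hu
  set B : ℕ → ℝ := fun n => (1 / 2 : ℝ) ^ (n + 1) with hBdef
  have hB0 : ∀ n, 0 < B n := fun n => by positivity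
  have hBt : Tendsto B atTop (𝓝 0) := by
    have := (tendsto_pow_atTop_nhds_zero_of_lt_one (r := (1 / 2 : ℝ)) (by norm_num)
      (by norm_num)).comp (tendsto_add_atTop_nat 1)
    exact this
  have hB1 : ∀ n, B n < 1 := fun n => pow_lt_one₀ (by norm_num) (by norm_num) (by omega)
  have hNT : ∀ N n m, N ≤ n → N ≤ m → NearT Y (B N) (u n).1 (u m).1 :=
    fun N n m h1 h2 => nearT_of_dist_lt hY (hu N n m h1 h2)
  have hN : ∀ N n m, N ≤ n → N ≤ m → Near Y (B N) (u n).1 (u m).1 :=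
    fun N n m h1 h2 => (hNT N n m h1 h2).near
  have hcau : ∀ z, CauchySeq fun n => (u n).1 z := by
    intro z
    rw [Metric.cauchySeq_iff']
    intro ε hε
    obtain ⟨N, hN'⟩ := (hBt.eventually (gt_mem_nhds hε)).exists
    refine ⟨N, fun n hn => ?_⟩
    rw [Real.dist_eq]
    exact lt_of_le_of_lt ((hN N n N hn le_rfl).sup z) hN'
  choose x hx using fun z => cauchySeq_tendsto_of_complete (hcau z)
  have hnear : ∀ N n, N ≤ n → Near Y (B N) (u n).1 x := fun N n hn =>
    near_limit hY hBt hB1 hN hx hn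
  have hq : Q Y x := q_of_near hY fun r hr => by
    obtain ⟨N, hN'⟩ := (hBt.eventually (gt_mem_nhds hr)).exists
    exact ⟨(u N).1, (u N).2.1.q, (hnear N N le_rfl).mono (hB0 N) hN'.le⟩
  have hnearT : ∀ N n, N ≤ n → NearT Y (B N) (u n).1 x := by
    intro N n hn
    refine ⟨hnear N n hn, ?_⟩
    refine jE_limit (u := fun m => (u m).1) (B := B) hB0 hBt (fun m => (u m).2.1.q.bdd) hq.bdd
      (u n).2.1.q.bdd (fun m z => (hnear m m le_rfl).sup z) ?_
    filter_upwards [eventually_ge_atTop N] with m hm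
    exact (hNT N n m hn hm).jmp
  have hTT : TT Y x := tt_of_near hY fun r hr => by
    obtain ⟨N, hN'⟩ := (hBt.eventually (gt_mem_nhds hr)).exists
    exact ⟨(u N).1, (u N).2.1, (hnearT N N le_rfl).mono (hB0 N) hN'.le⟩
  have h0 : ∀ z ∈ Y, x z = 0 := fun z hz =>
    tendsto_nhds_unique (hx z) (by simp [(u _).2.2 z hz])
  refine ⟨⟨x, hTT, h0⟩, ?_⟩
  rw [tendsto_iff_dist_tendsto_zero]
  refine squeeze_zero (fun n => dist_nonneg) (fun n => ?_) hBt
  exact dist_le_of_nearT hY (hB0 n) (hnearT n n le_rfl)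

end Metric

end

end Crest.Agent.R105.SelT_871
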