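import Mathlib
import Crest.Agent.R105.SelT1_871

/-!
Row 105, S0138 (T-frame), SEL-T part 2: `JT = J + ∑ osc²` is continuous in the T-metric and bounded
below; the selection theorem for an abstract isotropy predicate.
-/

set_option autoImplicit false
set_option linter.style.haveILetI false

open MeasureTheory Set Filter Topology Metric
open scoped NNReal ENNReal

namespace Crest.Agent.R105.SelT_871

open Crest.Agent.R105.Bd_775 Crest.Agent.R105.Tc_808

noncomputable section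

/-- sum of the squares of the oscillations -/
def oS (Y : Set ℂ) (u : ℂ → ℝ) : ℝ := ∑' K : Cmp Y, osc Y u K.1 ^ 2

/-- the T-functional -/
def JT (Y : Set ℂ) (x0 u : ℂ → ℝ) : ℝ := IfB_641.J Y x0 u + oS Y u

variable {Y : Set ℂ}

lemma oS_nonneg (Y : Set ℂ) (u : ℂ → ℝ) : 0 ≤ oS Y u := tsum_nonneg fun _ => sq_nonneg _

lemma ofReal_oS {u : ℂ → ℝ} (h : TT Y u) : ENNReal.ofReal (oS Y u) = jE Y u := by
  unfold oS jE
  exact ENNReal.ofReal_tsum_of_nonneg (fun _ => sq_nonneg _) h.sum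

lemma oS_le {u : ℂ → ℝ} (h : TT Y u) {c : ℝ} (hc : 0 ≤ c) (h1 : jE Y u ≤ ENNReal.ofReal c) :
    oS Y u ≤ c := by
  rw [← ofReal_oS h] at h1
  exact (ENNReal.ofReal_le_ofReal_iff hc).1 h1

lemma young (t : ℝ) (ht : 0 < t) (a b : ℝ) : a ^ 2 ≤ (1 + t) * b ^ 2 + (1 + 1 / t) * (a - b) ^ 2 := by
  have : (1 + t) * b ^ 2 + (1 + 1 / t) * (a - b) ^ 2 - a ^ 2 = (t * b - (a - b)) ^ 2 / t := by
    field_simp; ring
  have h3 : 0 ≤ (t * b - (a - b)) ^ 2 / t := by positivity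
  linarith

/-- `∑ osc²` of `u` against that of `v` -/
lemma oS_young (hY : IsClosed Y) {u v : ℂ → ℝ} (hu : TT Y u) (hv : TT Y v) {t : ℝ} (ht : 0 < t) :
    oS Y u ≤ (1 + t) * oS Y v + (1 + 1 / t) * oS Y (fun w => u w - v w) := by
  have hw := TT.sub hY hu hv
  unfold oS
  rw [← tsum_mul_left, ← tsum_mul_left,
    ← (hv.sum.mul_left (1 + t)).tsum_add (hw.sum.mul_left (1 + 1 / t))]
  refine hu.sum.tsum_le_tsum (fun K => ?_) ((hv.sum.mul_left _).add (hw.sum.mul_left _))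
  have h1 := abs_osc_sub_le (Y := Y) (K := K.1) hu.q.bdd hv.q.bdd
  have h2 : (osc Y u K.1 - osc Y v K.1) ^ 2 ≤ osc Y (fun z => u z - v z) K.1 ^ 2 := by
    rw [← sq_abs]; exact pow_le_pow_left₀ (abs_nonneg _) h1 2
  have h3 := young t ht (osc Y u K.1) (osc Y v K.1)
  have h4 : 0 ≤ 1 + 1 / t := by positivity
  have h5 := mul_le_mul_of_nonneg_left h2 h4
  linarith

/-- abstract closeness from two Young inequalities -/
lemma close_of_young {B ε : ℝ} (hB : 0 ≤ B) (hε : 0 < ε) :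
    ∃ σ > 0, ∀ A s : ℝ, s ≤ σ → (∀ t > 0, A ≤ (1 + t) * B + (1 + 1 / t) * s) →
      (∀ t > 0, B ≤ (1 + t) * A + (1 + 1 / t) * s) → |A - B| < ε := by
  obtain ⟨t, ht, ht1, htA⟩ : ∃ t : ℝ, 0 < t ∧ t ≤ 1 ∧ t * (B + 1) ≤ ε / 8 := by
    refine ⟨min 1 (ε / (8 * (B + 1))), by positivity, min_le_left _ _, ?_⟩
    calc min 1 (ε / (8 * (B + 1))) * (B + 1) ≤ (ε / (8 * (B + 1))) * (B + 1) := by
          gcongr; exact min_le_right _ _
      _ = ε / 8 := by field_simp
  refine ⟨t * ε / 16, by positivity, fun A s hs h1 h2 => ?_⟩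
  have hts : (1 + 1 / t) * s ≤ ε / 8 := by
    calc (1 + 1 / t) * s ≤ (1 + 1 / t) * (t * ε / 16) := by gcongr
      _ = (t + 1) * ε / 16 := by field_simp
      _ ≤ ε / 8 := by nlinarith
  have h5 := h1 t ht
  have h6 := h2 t ht
  have h7 : A ≤ B + ε / 4 := by nlinarith
  have h8 : t * A ≤ ε / 8 + ε / 4 := by
    have : t * A ≤ t * (B + ε / 4) := mul_le_mul_of_nonneg_left h7 ht.le
    nlinarith
  rw [abs_lt]
  constructor <;> linarith

lemma di_near (hY : IsClosed Y) {y : ℂ → ℝ} (hy : Q Y y) {ε : ℝ} (hε : 0 < ε) :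
    ∃ ρ > 0, ∀ x, Q Y x → Near Y ρ x y →
      |IfB_641.di Y x x - IfB_641.di Y y y| < ε := by
  obtain ⟨σ, hσ, h⟩ := close_of_young (di_self_nonneg (C := Y) y) hε
  refine ⟨Real.sqrt σ, Real.sqrt_pos.2 hσ, fun x hx hn => ?_⟩
  have h1 : IfB_641.di Y (fun w => x w - y w) (fun w => x w - y w) ≤ σ := by
    rw [di_self]
    refine en_integral_le (hx.sub hY hy) hσ.le ?_
    have := hn.enr
    rwa [Real.sq_sqrt hσ.le] at this
  have h2 : IfB_641.di Y (fun w => y w - x w) (fun w => y w - x w)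
      = IfB_641.di Y (fun w => x w - y w) (fun w => x w - y w) := by
    rw [di_self, di_self]
    congr 1; funext z; exact en_sub_comm _ _ _
  refine h _ _ h1 (fun t ht => di_le hY hx hy ht) (fun t ht => ?_)
  rw [← h2]
  exact di_le hY hy hx ht

lemma oS_near (hY : IsClosed Y) {y : ℂ → ℝ} (hy : TT Y y) {ε : ℝ} (hε : 0 < ε) :
    ∃ ρ > 0, ∀ x, TT Y x → NearT Y ρ x y → |oS Y x - oS Y y| < ε := by
  obtain ⟨σ, hσ, h⟩ := close_of_young (oS_nonneg Y y) hε
  refine ⟨Real.sqrt σ, Real.sqrt_pos.2 hσ, fun x hx hn => ?_⟩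
  have h1 : oS Y (fun w => x w - y w) ≤ σ := by
    refine oS_le (TT.sub hY hx hy) hσ.le ?_
    have := hn.jmp
    rwa [Real.sq_sqrt hσ.le] at this
  have h2 : oS Y (fun w => y w - x w) = oS Y (fun w => x w - y w) := by
    unfold oS
    congr 1; funext K
    have : (fun w => y w - x w) = fun w => -(x w - y w) := by funext w; ring
    rw [this, osc_neg]
  refine h _ _ h1 (fun t ht => oS_young hY hx hy ht) (fun t ht => ?_)
  rw [← h2]
  exact oS_young hY hy hx ht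

theorem continuous_JT (hY : IsClosed Y) {x0 : ℂ → ℝ} (hx0 : IfB_641.X0 Y x0) :
    letI := metT hY; Continuous fun x : HT Y => JT Y x0 x.1 := by
  letI := metT hY
  rw [Metric.continuous_iff']
  intro y ε hε
  obtain ⟨ρ1, hρ1, h1⟩ := di_near hY y.2.1.q (show 0 < ε / 4 by positivity)
  obtain ⟨ρ2, hρ2, h2⟩ := oS_near hY y.2.1 (show 0 < ε / 4 by positivity)
  set A := ∫ z, |IfB_641.lap x0 z| with hA
  have hA0 : 0 ≤ A := integral_nonneg fun z => abs_nonneg _
  have hg : Integrable (IfB_641.lap x0) :=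
    hx0.lap_cont.integrable_of_hasCompactSupport hx0.lap_cpt
  have hρ3 : 0 < ε / (8 * (A + 1)) := by positivity
  filter_upwards [Metric.ball_mem_nhds y (show 0 < min ρ1 (min ρ2 (ε / (8 * (A + 1)))) by positivity)]
    with x hx
  have hd : (metT hY).dist x y < min ρ1 (min ρ2 (ε / (8 * (A + 1)))) := hx
  have n1 := (nearT_of_dist_lt hY (hd.trans_le (min_le_left _ _))).near
  have n2 := nearT_of_dist_lt hY (hd.trans_le ((min_le_right _ _).trans (min_le_left _ _)))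
  have n3 := (nearT_of_dist_lt hY (hd.trans_le ((min_le_right _ _).trans (min_le_right _ _)))).near
  have e1 := h1 x.1 x.2.1.q n1
  have e2 := h2 x.1 x.2.1 n2
  have e3 : |(∫ z, x.1 z * IfB_641.lap x0 z) - ∫ z, y.1 z * IfB_641.lap x0 z| ≤ ε / 8 := by
    rw [← integral_sub (IfB_641.int_mul_lap hY hx0 x.2.1.q) (IfB_641.int_mul_lap hY hx0 y.2.1.q)]
    calc |∫ z, (x.1 z * IfB_641.lap x0 z - y.1 z * IfB_641.lap x0 z)|
        ≤ ∫ z, |x.1 z * IfB_641.lap x0 z - y.1 z * IfB_641.lap x0 z| :=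
          abs_integral_le_integral_abs
      _ ≤ ∫ z, (ε / (8 * (A + 1))) * |IfB_641.lap x0 z| := by
          refine integral_mono_of_nonneg (Eventually.of_forall fun z => abs_nonneg _)
            (hg.abs.const_mul _) (Eventually.of_forall fun z => ?_)
          simp only []
          rw [← sub_mul, abs_mul]
          exact mul_le_mul_of_nonneg_right (n3.sup z) (abs_nonneg _)
      _ = (ε / (8 * (A + 1))) * A := by rw [integral_const_mul]
      _ ≤ ε / 8 := by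
          rw [div_mul_eq_mul_div, div_le_iff₀ (by positivity)]
          nlinarith
  rw [Real.dist_eq]
  unfold JT IfB_641.J
  have e4 : IfB_641.di Y x.1 x.1 - 2 * ∫ z, x.1 z * IfB_641.lap x0 z = IfB_641.di Y x.1 x.1 -
    2 * (∫ z, x.1 z * IfB_641.lap x0 z) := rfl
  rw [abs_lt] at e1 e2
  rw [abs_le] at e3
  rw [abs_lt]
  constructor <;> linarith [e1.1, e1.2, e2.1, e2.2, e3.1, e3.2]

theorem JT_bddBelow (hY : IsCompact Y) {x0 : ℂ → ℝ} (hx0 : IfB_641.X0 Y x0) :
    ∃ L : ℝ, ∀ u, Q Y u → L ≤ JT Y x0 u := by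
  obtain ⟨L, hL⟩ := J_bddBelow hY hx0
  refine ⟨L, fun u hu => ?_⟩
  unfold JT
  linarith [hL u hu, oS_nonneg Y u]

/-- **SELECTION in the T-frame** for an abstract isotropy predicate. -/
theorem selT (hY : IsCompact Y) {x0 : ℂ → ℝ} (hx0 : IfB_641.X0 Y x0) {Iso : Set (HT Y) → Prop}
    (hI : letI := metT hY.isClosed; Sel_658.IsoPred Iso) (o : HT Y) (h0 : Iso {o}) :
    ∃ (b : ℕ → HT Y) (m : ℝ), Iso (range b) ∧
      Tendsto (fun k => JT Y x0 (b k).1) atTop (𝓝 m) ∧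
      ∀ u : HT Y, Iso (insert u (range b)) → m ≤ JT Y x0 u.1 := by
  have hYc := hY.isClosed
  letI := metT hYc
  haveI : CompleteSpace (HT Y) := completeT hYc
  obtain ⟨L, hL⟩ := JT_bddBelow hY hx0
  have h00 : Iso {o, o} := by simpa using h0
  obtain ⟨b, m, -, hiso, hlim, -, hmin⟩ := Sel_658.select hI (continuous_JT hYc hx0) (L := L)
    (fun x => hL x.1 x.2.1.q) (v := o) (u₀ := o) h00 one_pos
  refine ⟨b, m, hiso, hlim, fun u hu => ?_⟩
  refine le_of_forall_pos_le_add fun g hg => ?_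
  obtain ⟨n, δ, hδ, hsel⟩ := hmin g hg
  have h1 := hsel b u (fun i _ => by rw [dist_self]; exact hδ.le)
    (hI.mono (insert_subset_insert (image_subset_range _ _)) hu)
  linarith

end

end Crest.Agent.R105.SelT_871
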