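import Crest.Agent.R105.Elf2_600
import Crest.Agent.R105.Ni0_459
import Crest.Agent.R105.IfB2_641
import Crest.Agent.R105.Mid1_987
import Crest.Agent.R105.SelT2_871

/-!
# Row 105, S0138 (T-frame): the E-L relations for `JT = J + Σ osc²` (helper600)

`x = x0 + u`, `u` minimal for `JT Y x0` along `u + t φ`, `φ` with compact support:
* `el_crude` : `|∫_{Yᶜ} ∇x·∇φ| ≤ Σ_K osc_K u · osc_K φ`
* `el_faces` : two-sided form with faces
* `el_plus`  : one-sided form with faces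
* `el_exact` : `∫_{Yᶜ} ∇x·∇(χ G(x)) + Σ_K osc_K u · χ(K) (G (up K) - G (lo K)) = 0`
* `el_sign`  : `∫_{Yᶜ} ∇x·∇(χ G(x)) ≤ 0` for `χ ≥ 0`, `G` monotone
-/

set_option autoImplicit false

open MeasureTheory Set Filter Topology Metric
open scoped NNReal ENNReal ContDiff

namespace Crest.Agent.R105.Elf_600

open Bd_775 Tc_808 Ends_897 Crest.AnalysisR
open IfB_641 (X0 di lap J)
open SelT_871 (JT oS)

variable {Y K : Set ℂ} {x0 u φ : ℂ → ℝ}

/-- the quadratic expansion of `JT` -/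
theorem minAt_JT (hY : IsClosed Y) (hx : X0 Y x0) (hu : TT Y u) (hφ : TT Y φ)
    (hmin : ∀ t : ℝ, JT Y x0 u ≤ JT Y x0 (fun z => u z + t * φ z)) :
    MinAt Y u φ (di Y u φ - ∫ z, φ z * lap x0 z) (di Y φ φ) := by
  intro t
  have h := hmin t
  unfold JT oS at h
  rw [IfB_641.J_expand hY hx hu.q hφ.q t] at h
  linarith

/-- a point of a component -/
noncomputable def pt (K : Cmp Y) : ℂ := K.nonempty.some

lemma pt_mem (K : Cmp Y) : pt K ∈ K.1 := K.nonempty.some_mem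

lemma pt_mem' (K : Cmp Y) : pt K ∈ Y := K.subset (pt_mem K)

lemma cc_pt (K : Cmp Y) : connectedComponentIn Y (pt K) = K.1 :=
  (congrArg Subtype.val (K.eq_of_mem (pt_mem K))).symm

/-- lower / upper limit at a component -/
noncomputable def loK (Y : Set ℂ) (u : ℂ → ℝ) (K : Cmp Y) : ℝ := Ni_459.lo Y u (pt K)
noncomputable def upK (Y : Set ℂ) (u : ℂ → ℝ) (K : Cmp Y) : ℝ := Ni_459.up Y u (pt K)

lemma loK_eq (K : Cmp Y) {z : ℂ} (hz : z ∈ K.1) : Ni_459.lo Y u z = loK Y u K :=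
  Ni_459.lo_congr_cc (pt_mem' K) (by rw [cc_pt]; exact hz)

lemma upK_eq (K : Cmp Y) {z : ℂ} (hz : z ∈ K.1) : Ni_459.up Y u z = upK Y u K :=
  Ni_459.up_congr_cc (pt_mem' K) (by rw [cc_pt]; exact hz)

lemma osc_eq (hY : IsExteriorDomain Yᶜ) (hu : ∃ M, ∀ z, |u z| ≤ M) (K : Cmp Y) :
    Tc_808.osc Y u K.1 = upK Y u K - loK Y u K := by
  have := Ni_459.osc_eq hY hu (pt_mem' K)
  rwa [cc_pt] at this

lemma loK_le_upK (hY : IsExteriorDomain Yᶜ) (hu : ∃ M, ∀ z, |u z| ≤ M) (K : Cmp Y) :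
    loK Y u K ≤ upK Y u K := Ni_459.lo_le_up hY (Ni_459.LB.of_bdd hu) _

lemma rng (hY : IsExteriorDomain Yᶜ) (hu : ∃ M, ∀ z, |u z| ≤ M) (K : Cmp Y) :
    Rng Y u K.1 (loK Y u K) (upK Y u K) := by
  refine ⟨loK_le_upK hY hu K, fun ε hε => ?_, fun ε hε => ?_, (osc_eq hY hu K).symm⟩
  · obtain ⟨O, hO, h⟩ := Ni_459.exists_gt_of_lt_lo hY (Ni_459.LB.of_bdd hu)
      (show loK Y u K - ε < Ni_459.lo Y u (pt K) by unfold loK; linarith)
    exact mem_eK.2 ⟨O, hO.op, by rw [← cc_pt K]; exact hO.sub, h⟩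
  · obtain ⟨O, hO, h⟩ := Ni_459.exists_lt_of_up_lt hY (Ni_459.LB.of_bdd hu)
      (show Ni_459.up Y u (pt K) < upK Y u K + ε by unfold upK; linarith)
    exact mem_eK.2 ⟨O, hO.op, by rw [← cc_pt K]; exact hO.sub, h⟩

/-- the first variation is `∫ ∇x·∇φ` -/
lemma a_eq (hY : IsCompact Y) (hx : X0 Y x0) (hu : Q Y u) (hφ : Q Y φ)
    (hc : HasCompactSupport φ) :
    di Y u φ - ∫ z, φ z * lap x0 z = ∫ z in Yᶜ, dot (fun w => x0 w + u w) φ z := by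
  obtain ⟨h1, h2⟩ := Mid_987.di_x0 hY hx hφ hc
  have h3 : di Y u φ - ∫ z, φ z * lap x0 z = di Y x0 φ + di Y u φ := by rw [h2]; ring
  rw [h3]
  unfold di at h2 ⊢
  rw [← integral_add h1 (integrableOn_dot hu hφ)]
  refine integral_congr_ae ?_
  filter_upwards [hu.ae_diff hY.isClosed] with z h4
  have h5 : DifferentiableAt ℝ x0 z := hx.sm.differentiable (by simp) z
  unfold dot
  rw [gx_add h5 h4, gy_add h5 h4]
  ring

section Main
variable (hY : IsExteriorDomain Yᶜ) (hx : X0 Y x0) (hu : TT Y u) (hφ : TT Y φ)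
  (hc : HasCompactSupport φ)
  (hmin : ∀ t : ℝ, JT Y x0 u ≤ JT Y x0 (fun z => u z + t * φ z))
include hY hx hu hφ hc hmin

/-- E-L, crude form -/
theorem el_crude_x : |∫ z in Yᶜ, dot (fun w => x0 w + u w) φ z| ≤
    ∑' K : Cmp Y, Tc_808.osc Y u K.1 * Tc_808.osc Y φ K.1 := by
  have hYc : IsCompact Y := Ni_459.cpt_of hY
  rw [← a_eq hYc hx hu.q hφ.q hc]
  exact crude hu hφ (minAt_JT hYc.isClosed hx hu hφ hmin)

/-- E-L, one-sided form with faces -/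
theorem el_plus_x {R L : Cmp Y → ℝ}
    (hR : ∀ K, Tc_808.osc Y u K.1 ≠ 0 → ∀ ε > 0, ∃ δ > 0, ∀ᶠ z in eK Y K.1,
      upK Y u K - δ < u z → φ z ≤ R K + ε)
    (hL : ∀ K, Tc_808.osc Y u K.1 ≠ 0 → ∀ ε > 0, ∃ δ > 0, ∀ᶠ z in eK Y K.1,
      u z < loK Y u K + δ → L K - ε ≤ φ z)
    (hs : Summable fun K : Cmp Y => Tc_808.osc Y u K.1 * (R K - L K)) :
    0 ≤ (∫ z in Yᶜ, dot (fun w => x0 w + u w) φ z) +
      ∑' K : Cmp Y, Tc_808.osc Y u K.1 * (R K - L K) := by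
  have hYc : IsCompact Y := Ni_459.cpt_of hY
  rw [← a_eq hYc hx hu.q hφ.q hc]
  exact plus hu hφ (minAt_JT hYc.isClosed hx hu hφ hmin) (fun K _ => rng hY hu.q.bdd K) hR hL hs

/-- E-L, two-sided form with faces -/
theorem el_faces_x {R L e : Cmp Y → ℝ}
    (hR : ∀ K, Tc_808.osc Y u K.1 ≠ 0 → ∀ ε > 0, ∃ δ > 0, ∀ᶠ z in eK Y K.1,
      upK Y u K - δ < u z → |φ z - R K| ≤ e K + ε)
    (hL : ∀ K, Tc_808.osc Y u K.1 ≠ 0 → ∀ ε > 0, ∃ δ > 0, ∀ᶠ z in eK Y K.1,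
      u z < loK Y u K + δ → |φ z - L K| ≤ e K + ε)
    (hs : Summable fun K : Cmp Y => Tc_808.osc Y u K.1 * (R K - L K))
    (hse : Summable fun K : Cmp Y => Tc_808.osc Y u K.1 * e K) :
    |(∫ z in Yᶜ, dot (fun w => x0 w + u w) φ z) +
      ∑' K : Cmp Y, Tc_808.osc Y u K.1 * (R K - L K)| ≤
      2 * ∑' K : Cmp Y, Tc_808.osc Y u K.1 * e K := by
  have hYc : IsCompact Y := Ni_459.cpt_of hY
  rw [← a_eq hYc hx hu.q hφ.q hc]
  exact faces hu hφ (minAt_JT hYc.isClosed hx hu hφ hmin) (fun K _ => rng hY hu.q.bdd K) hR hL hs hse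

/-- E-L, exact form: `φ = χ · G ∘ u` near `Y` -/
theorem el_exact_x {χ : ℂ → ℝ} (hχ : LC Y χ) {G : ℝ → ℝ} {Λ : ℝ≥0} (hG : LipschitzWith Λ G)
    (hφG : ∀ K : Cmp Y, ∀ᶠ z in eK Y K.1, φ z = χ z * G (u z)) :
    (∫ z in Yᶜ, dot (fun w => x0 w + u w) φ z) +
      ∑' K : Cmp Y, (upK Y u K - loK Y u K) * (χ (pt K) * (G (upK Y u K) - G (loK Y u K))) = 0 := by
  have hYc : IsCompact Y := Ni_459.cpt_of hY
  have hcc : ∀ K : Cmp Y, ∀ z ∈ K.1, χ z = χ (pt K) := by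
    intro K z hz
    obtain ⟨c, O, hO, hKO, h⟩ := LC.const_near hχ K.preconn K.subset
    rw [h z (hKO hz), h _ (hKO (pt_mem K))]
  have h := exact hu hφ (minAt_JT hYc.isClosed hx hu hφ hmin) hχ hG hφG
    (fun K _ => rng hY hu.q.bdd K) (c := fun K => χ (pt K)) hcc
  rw [a_eq hYc hx hu.q hφ.q hc] at h
  rw [← h]
  congr 1
  exact tsum_congr fun K => by rw [osc_eq hY hu.q.bdd K]

end Main

/-! ### test functions `χ · G (x)` -/

/-- `χ · G (x0 + u)` is `T`-finite with compact support, and `= χ · G u` near `Y` -/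
theorem test_chiG (hY : IsCompact Y) (hx : X0 Y x0) (hu : TT Y u) {χ : ℂ → ℝ} (hχ : LC Y χ)
    (hχc : HasCompactSupport χ) {G : ℝ → ℝ} {Λ : ℝ≥0} (hG : LipschitzWith Λ G) :
    TT Y (fun z => χ z * G (x0 z + u z)) ∧ HasCompactSupport (fun z => χ z * G (x0 z + u z)) ∧
      ∀ K : Cmp Y, ∀ᶠ z in eK Y K.1, χ z * G (x0 z + u z) = χ z * G (u z) := by
  refine ⟨?_, hχc.mul_right, fun K => ?_⟩
  · obtain ⟨R, hR⟩ := hχc.isCompact.isBounded.subset_closedBall (0 : ℂ)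
    set R' : ℝ := max R 1
    have hR1 : 0 < R' := lt_of_lt_of_le one_pos (le_max_right _ _)
    let f : ContDiffBump (0 : ℂ) := ⟨R', R' + 1, hR1, by linarith⟩
    have hf : ∀ z ∈ tsupport χ, f z = 1 := fun z hz =>
      f.one_of_mem_closedBall (closedBall_subset_closedBall (le_max_left _ _) (hR hz))
    have e : (fun z => χ z * G (x0 z + u z)) = fun z => χ z * G (x0 z * f z + u z) := by
      funext z
      by_cases hz : z ∈ tsupport χ
      · rw [hf z hz, mul_one]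
      · rw [image_eq_zero_of_notMem_tsupport hz, zero_mul, zero_mul]
    rw [e]
    have hl : LC Y (fun z => x0 z * f z) := by
      refine LC.of_compact ((hx.sm.mul f.contDiff).of_le (by simp)).locallyLipschitz
        (f.hasCompactSupport.mul_left) fun z hz => ?_
      have h4 : x0 =ᶠ[𝓝 z] 0 := notMem_tsupport_iff_eventuallyEq.1 fun h => hx.zero h hz
      filter_upwards [h4] with w hw
      rw [hw, h4.self_of_nhds]; simp
    exact (TT.lc hχ).mul hY.isClosed (((TT.lc hl).add hY.isClosed hu).comp hY.isClosed hG)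
  · -- `x0 = 0` near `Y`
    refine mem_eK.2 ⟨(tsupport x0)ᶜ, (isClosed_tsupport x0).isOpen_compl,
      fun z hz h => hx.zero h (K.subset hz), fun z hz _ => ?_⟩
    have : x0 z = 0 := image_eq_zero_of_notMem_tsupport hz
    simp only [mem_ofPred_eq, this, zero_add]

/-- **E-L, exact form for `χ · G (x)`** -/
theorem el_exact_chiG (hY : IsExteriorDomain Yᶜ) (hx : X0 Y x0) (hu : TT Y u) {χ : ℂ → ℝ}
    (hχ : LC Y χ) (hχc : HasCompactSupport χ) {G : ℝ → ℝ} {Λ : ℝ≥0} (hG : LipschitzWith Λ G)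
    (hmin : ∀ t : ℝ, JT Y x0 u ≤ JT Y x0 (fun z => u z + t * (χ z * G (x0 z + u z)))) :
    (∫ z in Yᶜ, dot (fun w => x0 w + u w) (fun z => χ z * G (x0 z + u z)) z) +
      ∑' K : Cmp Y, (upK Y u K - loK Y u K) * (χ (pt K) * (G (upK Y u K) - G (loK Y u K))) = 0 := by
  obtain ⟨h1, h2, h3⟩ := test_chiG (Ni_459.cpt_of hY) hx hu hχ hχc hG
  exact el_exact_x hY hx hu h1 h2 hmin hχ hG h3

/-- **E-L inequality** -/
theorem el_sign (hY : IsExteriorDomain Yᶜ) (hx : X0 Y x0) (hu : TT Y u) {χ : ℂ → ℝ}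
    (hχ : LC Y χ) (hχc : HasCompactSupport χ) (hχ0 : ∀ z, 0 ≤ χ z) {G : ℝ → ℝ} {Λ : ℝ≥0}
    (hG : LipschitzWith Λ G) (hG0 : Monotone G)
    (hmin : ∀ t : ℝ, JT Y x0 u ≤ JT Y x0 (fun z => u z + t * (χ z * G (x0 z + u z)))) :
    ∫ z in Yᶜ, dot (fun w => x0 w + u w) (fun z => χ z * G (x0 z + u z)) z ≤ 0 := by
  have h := el_exact_chiG hY hx hu hχ hχc hG hmin
  have h1 : 0 ≤ ∑' K : Cmp Y,
      (upK Y u K - loK Y u K) * (χ (pt K) * (G (upK Y u K) - G (loK Y u K))) := by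
    refine tsum_nonneg fun K => ?_
    have h2 := loK_le_upK hY hu.q.bdd K
    exact mul_nonneg (sub_nonneg.2 h2) (mul_nonneg (hχ0 _) (sub_nonneg.2 (hG0 h2)))
  linarith

/-- `χ = 0` at the solids: the E-L equation -/
theorem el_zero (hY : IsExteriorDomain Yᶜ) (hx : X0 Y x0) (hu : TT Y u) {χ : ℂ → ℝ}
    (hχ : LC Y χ) (hχc : HasCompactSupport χ)
    (hχ0 : ∀ K : Cmp Y, Tc_808.osc Y u K.1 ≠ 0 → χ (pt K) = 0) {G : ℝ → ℝ} {Λ : ℝ≥0}
    (hG : LipschitzWith Λ G)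
    (hmin : ∀ t : ℝ, JT Y x0 u ≤ JT Y x0 (fun z => u z + t * (χ z * G (x0 z + u z)))) :
    ∫ z in Yᶜ, dot (fun w => x0 w + u w) (fun z => χ z * G (x0 z + u z)) z = 0 := by
  have h := el_exact_chiG hY hx hu hχ hχc hG hmin
  have h1 : ∀ K : Cmp Y,
      (upK Y u K - loK Y u K) * (χ (pt K) * (G (upK Y u K) - G (loK Y u K))) = 0 := by
    intro K
    by_cases h0 : Tc_808.osc Y u K.1 = 0
    · rw [← osc_eq hY hu.q.bdd K, h0, zero_mul]
    · rw [hχ0 K h0, zero_mul, mul_zero]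
  simpa [h1] using h

end Crest.Agent.R105.Elf_600
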