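import Crest.Agent.R105.Grd2_782
import Crest.Agent.R105.Ni0_459
import Crest.Agent.R105.IfB2_641
import Crest.Agent.R105.Bd5_775

/-!
# Row 105, S0138 (T-frame, NI of 459 #9956, target T6): the greedy sequence for `NI`

* `TJ Y x0 φ = J Y x0 φ + Σ' osc_K φ ²` : the renormalised `T`-energy of `x0 + φ`
* `SwitchP`  : exact switching (T5, 209),  `CombP` : commutants of switched functions are linear (T4)
* `SelT`     : the package: greedy sequence, minimality over the commutant, Cauchy, tails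
* `selT`     : `SwitchP → CombP → ∃ u m σ, u 0 = φ0 ∧ SelT ..`
* `SelT.near_el`, `SelT.el_lim` : (crude) Euler-Lagrange inequality along the sequence
-/

set_option autoImplicit false

open MeasureTheory Set Filter Topology Metric
open scoped NNReal ENNReal

namespace Crest.Agent.R105.Grd_782

open Bd_775 Ends_897 Tc_808 Ni_459 Crest.AnalysisR
open Crest.Agent.R105.IfB_641 (J di lap X0)

noncomputable section

variable {Y : Set ℂ} {x0 φ ψ a b : ℂ → ℝ}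

/-- the `T`-functional -/
def TJ (Y : Set ℂ) (x0 φ : ℂ → ℝ) : ℝ := J Y x0 φ + ∑' K : Cmp Y, osc Y φ K.1 ^ 2

lemma di_self_en (φ : ℂ → ℝ) : di Y φ φ = ∫ z in Yᶜ, en φ z := Bd_775.di_self φ

lemma TJ_eq (Y : Set ℂ) (x0 φ : ℂ → ℝ) :
    TJ Y x0 φ = ET Y φ + (-2 * ∫ z, φ z * lap x0 z) := by
  unfold TJ J ET
  rw [di_self_en]
  ring

/-- `NI` is symmetric -/
lemma NI_symm (h : NI Y a b) : NI Y b a := by
  unfold NI at h ⊢
  have he : NP Y b a = (MeasurableEquiv.prodComm : ℝ × ℝ ≃ᵐ ℝ × ℝ) ⁻¹' NP Y a b := by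
    ext p
    constructor
    · rintro ⟨z, hz, h1, h2, h3, h4⟩; exact ⟨z, hz, h3, h4, h1, h2⟩
    · rintro ⟨z, hz, h1, h2, h3, h4⟩; exact ⟨z, hz, h3, h4, h1, h2⟩
  have hm : MeasurePreserving (MeasurableEquiv.prodComm : ℝ × ℝ ≃ᵐ ℝ × ℝ) volume volume :=
    Measure.measurePreserving_swap
  rw [he, hm.measure_preimage_equiv, h]

lemma volume_diag : volume {p : ℝ × ℝ | p.1 = p.2} = 0 := by
  rw [Measure.volume_eq_prod, Measure.measure_prod_null (measurableSet_eq_fun measurable_fst measurable_snd)]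
  refine ae_of_all _ fun x => ?_
  have h : Prod.mk x ⁻¹' {p : ℝ × ℝ | p.1 = p.2} = {x} := by
    ext y; simp only [mem_preimage, mem_ofPred_eq, mem_singleton_iff]; exact eq_comm
  show volume (Prod.mk x ⁻¹' {p : ℝ × ℝ | p.1 = p.2}) = 0
  rw [h]; simp

/-- `NI` is reflexive -/
lemma NI_self (Y : Set ℂ) (a : ℂ → ℝ) : NI Y a a := by
  unfold NI
  refine measure_mono_null ?_ volume_diag
  rintro p ⟨z, -, h1, -, h3, -⟩
  exact h1.symm.trans h3

/-- exact switching, in the form consumed by the greedy selection; `P` = behaviour at infinity -/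
def SwitchP (Y : Set ℂ) (x0 : ℂ → ℝ) (P : (ℂ → ℝ) → Prop) : Prop :=
  ∀ φ, TT Y φ → P φ → ∃ ψ, TT Y ψ ∧ P ψ ∧ Swd Y (fun z => x0 z + ψ z) ∧ TJ Y x0 ψ ≤ TJ Y x0 φ ∧
    ∀ a, TT Y a → P a → Swd Y (fun z => x0 z + a z) → NI Y a φ → NI Y a ψ

/-- the commutant of a switched function is closed under linear combinations -/
def CombP (Y : Set ℂ) (x0 : ℂ → ℝ) (P : (ℂ → ℝ) → Prop) : Prop :=
  ∀ a, TT Y a → P a → Swd Y (fun z => x0 z + a z) → ∀ b b' : ℂ → ℝ, TT Y b → P b → TT Y b' → P b' →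
    NI Y a b → NI Y a b' → ∀ s t : ℝ, NI Y a (fun z => s * b z + t * b' z)

/-- `P` is closed under linear combinations -/
def PLin (P : (ℂ → ℝ) → Prop) : Prop :=
  ∀ b b' : ℂ → ℝ, P b → P b' → ∀ s t : ℝ, P (fun z => s * b z + t * b' z)

/-- the package -/
structure SelT (Y : Set ℂ) (x0 : ℂ → ℝ) (P : (ℂ → ℝ) → Prop) (u : ℕ → ℂ → ℝ) (m : ℝ)
    (σ : Cmp Y → ℝ) : Prop where
  tt : ∀ n, TT Y (u n)
  p : ∀ n, P (u n)
  swd : ∀ n, Swd Y (fun z => x0 z + u n z)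
  ni : ∀ i j, NI Y (u i) (u j)
  lim : Tendsto (fun n => TJ Y x0 (u n)) atTop (𝓝 m)
  min : ∀ b, TT Y b → P b → (∀ i, NI Y (u i) b) → m ≤ TJ Y x0 b
  cauchy : ∀ ε > 0, ∃ n₀, ∀ i ≥ n₀, ∀ j ≥ n₀, ∫ z in Yᶜ, en (fun w => u i w - u j w) z ≤ ε
  sum : Summable fun K => σ K ^ 2
  oscl : ∀ K, Tendsto (fun n => Tc_808.osc Y (u n) K.1) atTop (𝓝 (σ K))
  l2 : Tendsto (fun n => ∑' K : Cmp Y, (Tc_808.osc Y (u n) K.1 - σ K) ^ 2) atTop (𝓝 0)
  tail : ∀ ε > 0, ∃ (F : Finset (Cmp Y)) (n₀ : ℕ), ∀ n ≥ n₀, ∀ A : Set (Cmp Y),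
    Disjoint A (F : Set (Cmp Y)) → ∑' K : A, Tc_808.osc Y (u n) K.1.1 ^ 2 ≤ ε

lemma mid_eq (a b : ℂ → ℝ) : mid a b = fun z => (1 / 2 : ℝ) * a z + (1 / 2 : ℝ) * b z := by
  funext z; unfold mid; ring

lemma ell_mid (hY : IsClosed Y) (hx : X0 Y x0) (ha : TT Y a) (hb : TT Y b) :
    (-2 * ∫ z, mid a b z * lap x0 z) =
      ((-2 * ∫ z, a z * lap x0 z) + (-2 * ∫ z, b z * lap x0 z)) / 2 := by
  have ia := IfB_641.int_mul_lap hY hx ha.q
  have ib := IfB_641.int_mul_lap hY hx hb.q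
  have h1 : ∫ z, mid a b z * lap x0 z =
      (1 / 2) * (∫ z, a z * lap x0 z) + (1 / 2) * ∫ z, b z * lap x0 z := by
    rw [← integral_const_mul, ← integral_const_mul, ← integral_add (ia.const_mul _) (ib.const_mul _)]
    congr 1; funext z; unfold mid; ring
  rw [h1]; ring

/-- `TJ` is bounded below -/
lemma TJ_bdd (hY : IsCompact Y) (hx : X0 Y x0) : ∃ M, ∀ φ, TT Y φ → M ≤ TJ Y x0 φ := by
  obtain ⟨L, hL⟩ := J_bddBelow hY hx
  refine ⟨L, fun φ hφ => ?_⟩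
  have h1 := hL φ hφ.q
  have h2 : 0 ≤ ∑' K : Cmp Y, Tc_808.osc Y φ K.1 ^ 2 := tsum_nonneg fun K => sq_nonneg _
  unfold TJ; linarith

/-- **SELECTION for null-image isotropy** -/
theorem selT (hY : IsCompact Y) (hx : X0 Y x0) {P : (ℂ → ℝ) → Prop} (hP : PLin P)
    (hsw : SwitchP Y x0 P) (hlin : CombP Y x0 P) {φ0 : ℂ → ℝ} (h0 : TT Y φ0) (hP0 : P φ0)
    (hs0 : Swd Y (fun z => x0 z + φ0 z)) :
    ∃ (u : ℕ → ℂ → ℝ) (m : ℝ) (σ : Cmp Y → ℝ), u 0 = φ0 ∧ SelT Y x0 P u m σ := by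
  have hYc := hY.isClosed
  set C : Set (ℂ → ℝ) := {φ | TT Y φ ∧ P φ} with hC
  set S : Set (ℂ → ℝ) := {φ | Swd Y (fun z => x0 z + φ z)} with hS
  set ℓ : (ℂ → ℝ) → ℝ := fun φ => -2 * ∫ z, φ z * lap x0 z with hℓ
  have hT : ∀ φ, ET Y φ + ℓ φ = TJ Y x0 φ := fun φ => (TJ_eq Y x0 φ).symm
  have hmidC : ∀ a ∈ C, ∀ b ∈ C, mid a b ∈ C := by
    rintro a ⟨ha, ha'⟩ b ⟨hb, hb'⟩
    exact ⟨TT_mid hYc ha hb, by rw [mid_eq]; exact hP a b ha' hb' _ _⟩
  have hyp : Hyp (NI Y) (fun a => ET Y a + ℓ a) C S φ0 := by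
    refine ⟨⟨h0, hP0⟩, hs0, fun a _ b _ h => NI_symm h, fun a _ => NI_self Y a, ?_, ?_⟩
    · obtain ⟨M, hM⟩ := TJ_bdd hY hx
      exact ⟨M, fun a ha => by rw [hT]; exact hM a ha.1⟩
    · rintro b ⟨hb, hb'⟩
      obtain ⟨ψ, h1, h2, h3, h4, h5⟩ := hsw b hb hb'
      exact ⟨ψ, ⟨h1, h2⟩, h3, by rw [hT, hT]; exact h4, fun a ha hs h => h5 a ha.1 ha.2 hs h⟩
  obtain ⟨u, m, σ, e0, h1, h2, h3, h4, h5, h6, h7, h8, h9⟩ := greedyTT hYc (fun a ha => ha.1)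
    (fun a ha b hb => ell_mid hYc hx ha.1 hb.1) hmidC
    (fun a ha hs b hb b' hb' h h' => by
      rw [mid_eq]; exact hlin a ha.1 ha.2 hs b b' hb.1 hb.2 hb'.1 hb'.2 h h' _ _) hyp
  refine ⟨u, m, σ, e0, ?_⟩
  exact
    { tt := fun n => (h1 n).1.1
      p := fun n => (h1 n).1.2
      swd := fun n => (h1 n).2
      ni := h2
      lim := by simpa only [hT] using h3
      min := fun b hb hPb h => by rw [← hT]; exact h4 b ⟨hb, hPb⟩ h
      cauchy := h5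
      sum := h6
      oscl := h7
      l2 := h8
      tail := h9 }

/-! ### Euler-Lagrange along the sequence -/

section EL
variable {P : (ℂ → ℝ) → Prop} {u : ℕ → ℂ → ℝ} {m : ℝ} {σ : Cmp Y → ℝ}

/-- expansion of `TJ (u + t ψ)` -/
lemma TJ_expand_le (hY : IsClosed Y) (hx : X0 Y x0) (ha : TT Y a) (hψ : TT Y ψ) (t : ℝ) :
    TJ Y x0 (fun z => a z + t * ψ z) ≤ TJ Y x0 a + 2 * t * (di Y a ψ - ∫ z, ψ z * lap x0 z) +
      2 * |t| * (∑' K : Cmp Y, Tc_808.osc Y a K.1 * Tc_808.osc Y ψ K.1) + t ^ 2 * ET Y ψ := by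
  have hs : Summable fun K : Cmp Y => Tc_808.osc Y a K.1 * Tc_808.osc Y ψ K.1 := by
    refine Summable.of_nonneg_of_le (fun K => mul_nonneg (osc_nonneg _ _ _) (osc_nonneg _ _ _))
      (fun K => ?_) (ha.sum.add hψ.sum)
    nlinarith [sq_nonneg (Tc_808.osc Y a K.1 - Tc_808.osc Y ψ K.1), sq_nonneg (Tc_808.osc Y a K.1),
      sq_nonneg (Tc_808.osc Y ψ K.1)]
  have ht : TT Y (fun z => t * ψ z) := TT_smul hY t hψ
  have hsum : TT Y (fun z => a z + t * ψ z) := ha.add hY ht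
  have h1 := IfB_641.J_expand hY hx ha.q hψ.q t
  have h2 : (∑' K : Cmp Y, Tc_808.osc Y (fun z => a z + t * ψ z) K.1 ^ 2) ≤
      (∑' K : Cmp Y, Tc_808.osc Y a K.1 ^ 2) +
        2 * |t| * (∑' K : Cmp Y, Tc_808.osc Y a K.1 * Tc_808.osc Y ψ K.1) +
        t ^ 2 * ∑' K : Cmp Y, Tc_808.osc Y ψ K.1 ^ 2 := by
    rw [← tsum_mul_left, ← tsum_mul_left, ← Summable.tsum_add ha.sum (hs.mul_left _),
      ← Summable.tsum_add (ha.sum.add (hs.mul_left _)) (hψ.sum.mul_left _)]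
    refine Summable.tsum_le_tsum (fun K => ?_) hsum.sum
      ((ha.sum.add (hs.mul_left _)).add (hψ.sum.mul_left _))
    have h3 := osc_add_le (Y := Y) (K := K.1) ha.q.bdd ht.q.bdd
    have h4 := osc_smul_le (Y := Y) (K := K.1) hψ.q.bdd t
    have h5 := osc_nonneg Y (fun z => a z + t * ψ z) K.1
    have h6 : Tc_808.osc Y (fun z => a z + t * ψ z) K.1 ≤
        Tc_808.osc Y a K.1 + |t| * Tc_808.osc Y ψ K.1 := h3.trans (by linarith)
    have h7 : |t| ^ 2 = t ^ 2 := sq_abs t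
    calc Tc_808.osc Y (fun z => a z + t * ψ z) K.1 ^ 2
        ≤ (Tc_808.osc Y a K.1 + |t| * Tc_808.osc Y ψ K.1) ^ 2 := pow_le_pow_left₀ h5 h6 2
      _ = _ := by rw [← h7]; ring
  unfold TJ ET
  rw [h1]
  have h8 : di Y ψ ψ = ∫ z in Yᶜ, en ψ z := di_self_en ψ
  rw [h8]
  nlinarith

lemma ET_nonneg (φ : ℂ → ℝ) : 0 ≤ ET Y φ := by
  unfold ET
  have h1 : 0 ≤ ∫ z in Yᶜ, en φ z := integral_nonneg fun z => en_nonneg _ _
  have h2 : 0 ≤ ∑' K : Cmp Y, Tc_808.osc Y φ K.1 ^ 2 := tsum_nonneg fun K => sq_nonneg _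
  linarith

lemma abs_le_of_quad {A B D E : ℝ} (hD : 0 ≤ D) (hE : 0 ≤ E)
    (h : ∀ t : ℝ, 0 ≤ D + 2 * t * A + 2 * |t| * B + t ^ 2 * E) :
    |A| ≤ B + Real.sqrt (D * E) := by
  -- take `t = ∓ τ`, `τ ≥ 0`
  have h1 : ∀ τ : ℝ, 0 ≤ τ → 2 * τ * (|A| - B) ≤ D + τ ^ 2 * E := by
    intro τ hτ
    rcases abs_cases A with ⟨hA, -⟩ | ⟨hA, -⟩
    · have := h (-τ)
      rw [abs_neg, abs_of_nonneg hτ] at this
      rw [hA]; nlinarith
    · have := h τ
      rw [abs_of_nonneg hτ] at this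
      rw [hA]; nlinarith
  by_contra hcon
  push Not at hcon
  set X := |A| - B with hX
  have hX0 : Real.sqrt (D * E) < X := by rw [hX]; linarith
  have hXp : 0 < X := (Real.sqrt_nonneg _).trans_lt hX0
  have hDE : D * E < X ^ 2 := by
    have := Real.sq_sqrt (mul_nonneg hD hE)
    nlinarith [Real.sqrt_nonneg (D * E)]
  rcases hE.eq_or_lt with hE0 | hE0
  · have := h1 ((D + 1) / X) (by positivity)
    rw [← hE0] at this
    have h2 : 2 * ((D + 1) / X) * X = 2 * (D + 1) := by field_simp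
    rw [h2] at this
    linarith
  · have := h1 (X / E) (by positivity)
    have h2 : 2 * (X / E) * X = 2 * (X ^ 2 / E) := by ring
    have h3 : (X / E) ^ 2 * E = X ^ 2 / E := by field_simp
    rw [h2, h3] at this
    have h4 : D < X ^ 2 / E := by rw [lt_div_iff₀ hE0]; exact hDE
    linarith

/-- near Euler-Lagrange inequality -/
theorem SelT.near_el (hY : IsClosed Y) (hx : X0 Y x0) (hP : PLin P) (hlin : CombP Y x0 P)
    (h : SelT Y x0 P u m σ) (hψ : TT Y ψ) (hPψ : P ψ) (hni : ∀ i, NI Y (u i) ψ) (n : ℕ) :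
    |di Y (u n) ψ - ∫ z, ψ z * lap x0 z| ≤
      (∑' K : Cmp Y, Tc_808.osc Y (u n) K.1 * Tc_808.osc Y ψ K.1) +
        Real.sqrt ((TJ Y x0 (u n) - m) * ET Y ψ) := by
  have hn0 : m ≤ TJ Y x0 (u n) := h.min _ (h.tt n) (h.p n) (fun i => h.ni i n)
  refine abs_le_of_quad (sub_nonneg.2 hn0) (ET_nonneg ψ) fun t => ?_
  have h1 : m ≤ TJ Y x0 (fun z => u n z + t * ψ z) := by
    refine h.min _ ((h.tt n).add hY (TT_smul hY t hψ)) ?_ fun i => ?_
    · have := hP (u n) ψ (h.p n) hPψ 1 t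
      simpa only [one_mul] using this
    · have := hlin (u i) (h.tt i) (h.p i) (h.swd i) (u n) ψ (h.tt n) (h.p n) hψ hPψ (h.ni i n)
        (hni i) 1 t
      simpa only [one_mul] using this
  have h2 := TJ_expand_le hY hx (h.tt n) hψ t
  linarith

/-- the sum of products converges -/
lemma SelT.tendsto_prod (h : SelT Y x0 P u m σ) (hψ : TT Y ψ) :
    Tendsto (fun n => ∑' K : Cmp Y, Tc_808.osc Y (u n) K.1 * Tc_808.osc Y ψ K.1) atTop
      (𝓝 (∑' K : Cmp Y, σ K * Tc_808.osc Y ψ K.1)) := by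
  set p : Cmp Y → ℝ := fun K => Tc_808.osc Y ψ K.1 with hp
  have hmul : ∀ f : Cmp Y → ℝ, (Summable fun K => f K ^ 2) → Summable fun K => f K * p K := by
    intro f hf
    refine Summable.of_norm_bounded (g := fun K => f K ^ 2 + p K ^ 2) (hf.add hψ.sum) fun K => ?_
    rw [Real.norm_eq_abs, abs_le]
    constructor <;> nlinarith [sq_nonneg (f K + p K), sq_nonneg (f K - p K), sq_nonneg (f K),
      sq_nonneg (p K)]
  have hd : ∀ n, Summable fun K : Cmp Y => (Tc_808.osc Y (u n) K.1 - σ K) ^ 2 := fun n =>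
    summable_sq_sub (h.tt n).sum h.sum
  rw [tendsto_iff_norm_sub_tendsto_zero]
  have hB : ∀ n, ‖(∑' K : Cmp Y, Tc_808.osc Y (u n) K.1 * p K) - ∑' K : Cmp Y, σ K * p K‖ ≤
      Real.sqrt ((∑' K : Cmp Y, (Tc_808.osc Y (u n) K.1 - σ K) ^ 2) * ∑' K, p K ^ 2) := by
    intro n
    rw [← Summable.tsum_sub (hmul _ (h.tt n).sum) (hmul _ h.sum)]
    have e : ∀ K : Cmp Y, Tc_808.osc Y (u n) K.1 * p K - σ K * p K =
        (Tc_808.osc Y (u n) K.1 - σ K) * p K := fun K => by ring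
    simp only [e]
    rw [Real.norm_eq_abs]
    refine Real.abs_le_sqrt ?_
    -- Cauchy-Schwarz
    set f : Cmp Y → ℝ := fun K => Tc_808.osc Y (u n) K.1 - σ K with hf
    have hfs : Summable fun K => f K ^ 2 := hd n
    have hsf := hmul f hfs
    have hq : ∀ t : ℝ, 0 ≤ (∑' K, p K ^ 2) * (t * t) + (2 * ∑' K, f K * p K) * t + ∑' K, f K ^ 2 := by
      intro t
      have h1 : ∑' K, (f K + t * p K) ^ 2 =
          (∑' K, p K ^ 2) * (t * t) + (2 * ∑' K, f K * p K) * t + ∑' K, f K ^ 2 := by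
        have e1 : ∀ K, (f K + t * p K) ^ 2 = p K ^ 2 * (t * t) + 2 * (f K * p K) * t + f K ^ 2 :=
          fun K => by ring
        simp only [e1]
        rw [Summable.tsum_add ((hψ.sum.mul_right _).add ((hsf.mul_left 2).mul_right t)) hfs,
          Summable.tsum_add (hψ.sum.mul_right _) ((hsf.mul_left 2).mul_right t), tsum_mul_right,
          tsum_mul_right, tsum_mul_left]
      rw [← h1]
      exact tsum_nonneg fun K => sq_nonneg _
    have h2 := discrim_le_zero hq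
    unfold discrim at h2
    nlinarith
  refine squeeze_zero (fun n => norm_nonneg _) hB ?_
  have h1 := (h.l2.mul_const (∑' K, p K ^ 2)).sqrt
  rwa [zero_mul, Real.sqrt_zero] at h1

/-- **Euler-Lagrange inequality in the limit**: for every `ε`, eventually
`|di (u n) ψ - ∫ ψ lap x0| ≤ Σ σ_K osc_K ψ + ε` -/
theorem SelT.el_lim (hY : IsClosed Y) (hx : X0 Y x0) (hP : PLin P) (hlin : CombP Y x0 P)
    (h : SelT Y x0 P u m σ) (hψ : TT Y ψ) (hPψ : P ψ) (hni : ∀ i, NI Y (u i) ψ) {L : ℝ}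
    (hL : Tendsto (fun n => di Y (u n) ψ) atTop (𝓝 L)) :
    |L - ∫ z, ψ z * lap x0 z| ≤ ∑' K : Cmp Y, σ K * Tc_808.osc Y ψ K.1 := by
  have h1 : Tendsto (fun n => |di Y (u n) ψ - ∫ z, ψ z * lap x0 z|) atTop
      (𝓝 |L - ∫ z, ψ z * lap x0 z|) := (hL.sub_const _).abs
  have h2 : Tendsto (fun n => Real.sqrt ((TJ Y x0 (u n) - m) * ET Y ψ)) atTop (𝓝 0) := by
    have := ((h.lim.sub_const m).mul_const (ET Y ψ)).sqrt
    rwa [sub_self, zero_mul, Real.sqrt_zero] at this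
  have h3 := (h.tendsto_prod hψ).add h2
  rw [add_zero] at h3
  exact le_of_tendsto_of_tendsto' h1 h3 fun n => h.near_el hY hx hP hlin hψ hPψ hni n

end EL

end

end Crest.Agent.R105.Grd_782
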