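import Crest.Agent.R105.Ni1_459

/-!
# Row 105, S0138, NI part 2 (helper459): AREA for the multivalued image, closure rules (P1)
-/

set_option autoImplicit false

open MeasureTheory Set Filter Topology Metric
open scoped NNReal ENNReal

namespace Crest.Agent.R105.Ni_459

open Bd_775 Ends_897 Tc_808 Crest.AnalysisR

noncomputable section

section Congr
variable {Y : Set ℂ} {u v : ℂ → ℝ} {z : ℂ} {O : Set ℂ}

lemma up_le_up_of (hY : IsExteriorDomain Yᶜ) (hu : LB u) (hv : LB v) (hO : Nb Y z O)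
    (h : ∀ w ∈ O, w ∉ Y → u w ≤ v w) : up Y u z ≤ up Y v z := by
  refine le_of_forall_gt_imp_ge_of_dense fun c hc => ?_
  obtain ⟨P, hP, h1⟩ := exists_lt_of_up_lt hY hv hc
  exact up_le hY hu (hO.inter hP) fun w hw hwY => (h w hw.1 hwY).trans (h1 w hw.2 hwY).le

lemma up_congr (hY : IsExteriorDomain Yᶜ) (hu : LB u) (hv : LB v) (hO : Nb Y z O)
    (h : ∀ w ∈ O, w ∉ Y → u w = v w) : up Y u z = up Y v z :=
  le_antisymm (up_le_up_of hY hu hv hO fun w hw hwY => (h w hw hwY).le)
    (up_le_up_of hY hv hu hO fun w hw hwY => (h w hw hwY).ge)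

lemma lo_congr (hY : IsExteriorDomain Yᶜ) (hu : LB u) (hv : LB v) (hO : Nb Y z O)
    (h : ∀ w ∈ O, w ∉ Y → u w = v w) : lo Y u z = lo Y v z := by
  unfold lo
  rw [up_congr hY hu.neg hv.neg hO fun w hw hwY => by rw [h w hw hwY]]

/-- `osc_eq` without global bound -/
lemma osc_eq' (hY : IsExteriorDomain Yᶜ) (hu : LB u) (hz : z ∈ Y) :
    osc Y u (connectedComponentIn Y z) = up Y u z - lo Y u z := by
  obtain ⟨R, hR⟩ := exists_nb_ball (cpt_of hY) z
  obtain ⟨M, hM⟩ := hu R
  set v : ℂ → ℝ := fun w => max (-|M|) (min (u w) |M|) with hv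
  have hvb : ∃ M, ∀ z, |v z| ≤ M := ⟨|M|, fun w => abs_le.2
    ⟨le_max_left _ _, max_le (by linarith [abs_nonneg M]) (min_le_right _ _)⟩⟩
  have huv : ∀ w ∈ ball (0 : ℂ) R, w ∉ Y → u w = v w := by
    intro w hw _
    have h1 := abs_le.1 ((hM w (mem_ball_zero_iff.1 hw).le).trans (le_abs_self M))
    simp only [hv]
    rw [min_eq_left h1.2, max_eq_right h1.1]
  rw [osc_congr hR.op hR.sub huv, osc_eq hY hvb hz, up_congr hY hu (LB.of_bdd hvb) hR huv,
    lo_congr hY hu (LB.of_bdd hvb) hR huv]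

end Congr

section Area
variable {Y : Set ℂ} {a b : ℂ → ℝ}

lemma Cmp.cc_eq (K : Cmp Y) {z : ℂ} (hz : z ∈ K.1) : connectedComponentIn Y z = K.1 := by
  have := K.eq_of_mem hz
  exact (congrArg Subtype.val this).symm

/-- **AREA for the multivalued image** -/
theorem area_ZF (hY : IsExteriorDomain Yᶜ) (ha : LocallyLipschitzOn Yᶜ a)
    (hb : LocallyLipschitzOn Yᶜ b) (la : LB a) (lb : LB b) (ja : (Jmp Y a).Countable)
    (jb : (Jmp Y b).Countable) (h : NI Y a b) {N : Set ℂ} (hN : MeasurableSet N) :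
    volume (ZF Y a b N) ≤ MU Y a b N := by
  classical
  have hYo : IsOpen Yᶜ := hY.1
  have hYm : MeasurableSet Y := by simpa using hYo.measurableSet.compl
  set J : Set (Cmp Y) := {K | (K.1 ∩ N).Nonempty ∧ K ∈ Jmp Y a ∪ Jmp Y b} with hJ
  have hJc : J.Countable := (ja.union jb).mono fun K hK => hK.2
  have _ : Countable J := hJc.to_subtype
  -- the boxes
  have hrep : ∀ K : Cmp Y, ∃ z, z ∈ K.1 := fun K => K.nonempty
  choose rp hrp using hrep
  set bx : J → Set (ℝ × ℝ) := fun K =>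
    Icc (lo Y a (rp K.1)) (up Y a (rp K.1)) ×ˢ Icc (lo Y b (rp K.1)) (up Y b (rp K.1)) with hbx
  have hcov : ZF Y a b N ⊆ ((fun z => (a z, b z)) '' (N \ Y)) ∪ (NP Y a b ∪ ⋃ K : J, bx K) := by
    rintro p ⟨z, hzN, h1, h2, h3, h4⟩
    by_cases hz : z ∈ Y
    · right
      set K : Cmp Y := Cmp.of hz with hK
      have hzK : z ∈ K.1 := mem_connectedComponentIn hz
      have hoa := osc_eq' hY la hz
      have hob := osc_eq' hY lb hz
      by_cases hj : K ∈ Jmp Y a ∪ Jmp Y b
      · right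
        have hKJ : K ∈ J := ⟨⟨z, hzK, hzN⟩, hj⟩
        refine mem_iUnion.2 ⟨⟨K, hKJ⟩, ?_⟩
        have hr : rp K ∈ connectedComponentIn Y z := hrp K
        simp only [hbx]
        rw [up_congr_cc hz hr, lo_congr_cc hz hr, up_congr_cc hz hr, lo_congr_cc hz hr]
        exact ⟨⟨h1, h2⟩, ⟨h3, h4⟩⟩
      · left
        simp only [Jmp, mem_union, mem_ofPred_eq, not_or, not_not] at hj
        have e1 : up Y a z - lo Y a z = 0 := by rw [← hoa]; exact hj.1
        have e2 : up Y b z - lo Y b z = 0 := by rw [← hob]; exact hj.2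
        exact ⟨z, hz, by linarith, by linarith, by linarith, by linarith⟩
    · left
      have hca : ContinuousAt a z := ((ha.continuousOn) z hz).continuousAt (hYo.mem_nhds hz)
      have hcb : ContinuousAt b z := ((hb.continuousOn) z hz).continuousAt (hYo.mem_nhds hz)
      rw [up_of_notMem hY la hz hca] at h2
      rw [lo_of_notMem hY la hz hca] at h1
      rw [up_of_notMem hY lb hz hcb] at h4
      rw [lo_of_notMem hY lb hz hcb] at h3
      exact ⟨z, ⟨hzN, hz⟩, Prod.ext (le_antisymm h1 h2) (le_antisymm h3 h4)⟩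
  have hbox : ∀ K : J, volume (bx K) = ENNReal.ofReal (osc Y a K.1.1 * osc Y b K.1.1) := by
    intro K
    have hr := hrp K.1
    have hrY : rp K.1 ∈ Y := K.1.subset hr
    have e1 := osc_eq' hY la hrY
    have e2 := osc_eq' hY lb hrY
    rw [Cmp.cc_eq K.1 hr] at e1 e2
    simp only [hbx]
    rw [Measure.volume_eq_prod, Measure.prod_prod, Real.volume_Icc, Real.volume_Icc, ← e1, ← e2,
      ← ENNReal.ofReal_mul (osc_nonneg _ _ _)]
  calc volume (ZF Y a b N)
      ≤ volume ((fun z => (a z, b z)) '' (N \ Y)) + (volume (NP Y a b) + volume (⋃ K : J, bx K)) :=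
        (measure_mono hcov).trans ((measure_union_le _ _).trans
          (add_le_add le_rfl (measure_union_le _ _)))
    _ ≤ (∫⁻ z in N \ Y, ENNReal.ofReal |wdg a b z|) + (0 + ∑' K : J, volume (bx K)) := by
        refine add_le_add ?_ (add_le_add (le_of_eq h) (measure_iUnion_le _))
        exact area hYo ha hb (hN.diff hYm) fun z hz => hz.2
    _ ≤ MU Y a b N := by
        rw [zero_add]
        refine add_le_add le_rfl ?_
        simp only [hbox]
        let f : J → {K : Cmp Y // (K.1 ∩ N).Nonempty} := fun K => ⟨K.1, K.2.1⟩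
        have hf : Function.Injective f := fun K K' h => Subtype.ext (congrArg (fun x => x.1) h)
        exact ENNReal.tsum_comp_le_tsum_of_injective hf
          (fun K => ENNReal.ofReal (osc Y a K.1.1 * osc Y b K.1.1))

end Area

/-! ### closure rules (P1) -/

section P1
variable {Y : Set ℂ} {a b c : ℂ → ℝ}

theorem NI.symm (h : NI Y a b) : NI Y b a := by
  have h1 : NP Y b a = Prod.swap ⁻¹' NP Y a b := by
    ext p
    constructor
    · rintro ⟨z, hz, h1, h2, h3, h4⟩; exact ⟨z, hz, h3, h4, h1, h2⟩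
    · rintro ⟨z, hz, h1, h2, h3, h4⟩; exact ⟨z, hz, h3, h4, h1, h2⟩
  unfold NI
  rw [h1]
  have h2 : MeasurePreserving (MeasurableEquiv.prodComm : ℝ × ℝ ≃ᵐ ℝ × ℝ) volume volume :=
    Measure.measurePreserving_swap
  have := h2.measure_preimage_equiv (NP Y a b)
  exact this.trans h

lemma volume_diag : volume {p : ℝ × ℝ | p.1 = p.2} = 0 := by
  have hm : MeasurableSet {p : ℝ × ℝ | p.1 = p.2} := measurableSet_eq_fun measurable_fst measurable_snd
  rw [Measure.volume_eq_prod, Measure.measure_prod_null hm]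
  refine Eventually.of_forall fun x => ?_
  have : (Prod.mk x ⁻¹' {p : ℝ × ℝ | p.1 = p.2}) = {x} := by
    ext y; simp [eq_comm]
  simp only [Pi.zero_apply]
  rw [this]; simp

theorem NI.self : NI Y a a := by
  refine measure_mono_null ?_ volume_diag
  rintro p ⟨z, -, h1, -, h3, -⟩
  exact h1.symm.trans h3

/-- Lipschitz images of null sets of the plane -/
lemma null_lip {S : Set (ℝ × ℝ)} (h : volume S = 0) {G : ℝ × ℝ → ℝ × ℝ} {K : ℝ≥0}
    (hG : LipschitzWith K G) : volume (G '' S) = 0 := by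
  rw [← hausdorffMeasure_prod_real] at h ⊢
  have h1 := hG.hausdorffMeasure_image_le (d := 2) (by norm_num) S
  rw [h, mul_zero] at h1
  exact le_antisymm h1 bot_le

lemma null_strip {D : Set ℝ} (hD : D.Countable) : volume {p : ℝ × ℝ | p.2 ∈ D} = 0 := by
  have : {p : ℝ × ℝ | p.2 ∈ D} = univ ×ˢ D := by ext p; simp
  rw [this, Measure.volume_eq_prod, Measure.prod_prod, hD.measure_zero, mul_zero]

/-- **the general closure rule.**  At every component without jumps of `a` and `f`, outside of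
countably many components, either `f` is a Lipschitz function (out of a countable list) of a `b n`
with `NI Y a (b n)` that does not jump there, or the value of `f` is in a countable set. -/
theorem NI.of_rule {f : ℂ → ℝ} {b : ℕ → ℂ → ℝ} (hb : ∀ n, NI Y a (b n)) {G : ℕ → ℝ → ℝ}
    (hG : ∀ n, ∃ L, LipschitzWith L (G n)) {D : Set ℝ} (hD : D.Countable) {J : Set (Cmp Y)}
    (hJ : J.Countable)
    (h : ∀ z (hz : z ∈ Y), Cmp.of hz ∉ J → lo Y a z = up Y a z → lo Y f z = up Y f z →
      (∃ n m, lo Y (b n) z = up Y (b n) z ∧ lo Y f z = G m (lo Y (b n) z)) ∨ lo Y f z ∈ D) :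
    NI Y a f := by
  have hrep : ∀ K : Cmp Y, ∃ z, z ∈ K.1 := fun K => K.nonempty
  choose rp hrp using hrep
  have hcov : NP Y a f ⊆ (⋃ n, ⋃ m, (fun p : ℝ × ℝ => (p.1, G m p.2)) '' NP Y a (b n)) ∪
      ({p | p.2 ∈ D} ∪ ((fun K => (lo Y a (rp K), lo Y f (rp K))) '' J)) := by
    rintro p ⟨z, hz, h1, h2, h3, h4⟩
    by_cases hK : Cmp.of hz ∈ J
    · right; right
      have hr : rp (Cmp.of hz) ∈ connectedComponentIn Y z := hrp (Cmp.of hz)
      refine ⟨Cmp.of hz, hK, ?_⟩
      simp only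
      rw [lo_congr_cc hz hr, lo_congr_cc hz hr, h1, h3]
    · rcases h z hz hK (h1.trans h2.symm) (h3.trans h4.symm) with ⟨n, m, h5, h6⟩ | h5
      · left
        refine mem_iUnion.2 ⟨n, mem_iUnion.2 ⟨m, (p.1, lo Y (b n) z), ⟨z, hz, h1, h2, rfl, h5.symm⟩, ?_⟩⟩
        refine Prod.ext rfl ?_
        simp only
        rw [← h6, h3]
      · right; left
        show p.2 ∈ D
        rw [← h3]; exact h5
  refine measure_mono_null hcov ?_
  rw [measure_union_null_iff, measure_union_null_iff, measure_iUnion_null_iff]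
  refine ⟨fun n => measure_iUnion_null fun m => ?_, null_strip hD, (hJ.image _).measure_zero _⟩
  obtain ⟨L, hL⟩ := hG m
  refine null_lip (hb n) (K := max 1 L) ?_
  have e1 : LipschitzWith 1 (Prod.fst : ℝ × ℝ → ℝ) := LipschitzWith.prod_fst
  have e2 : LipschitzWith 1 (Prod.snd : ℝ × ℝ → ℝ) := LipschitzWith.prod_snd
  have e3 : LipschitzWith (L * 1) (fun p : ℝ × ℝ => G m p.2) := hL.comp e2
  rw [mul_one] at e3
  exact e1.prodMk e3

end P1

end

end Crest.Agent.R105.Ni_459
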