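import Crest.Agent.R105.Uw3_913
import Crest.Agent.R105.Ni0_459

/-!
Row 105, S0138 (helper913): `Swd Y x` (no bounded component of `{t < lo x}`, `{up x < t}` in the
plane) ⟹ no bounded component of `{z ∈ U | t < σ x z}` ⟹ univalence.
-/

set_option autoImplicit false

namespace Crest.Agent.R105.Uw_913

open Complex Set Filter Topology Metric MeasureTheory
open scoped ContDiff NNReal
open Crest.AnalysisR (IsExteriorDomain)
open Crest.Agent.R105.Ni_459

/-- saturated version of `exists_conn_nhd` -/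
theorem exists_conn_sat_nhd {U : Set ℂ} (hU : IsExteriorDomain U) {ζ : ℂ} (hζ : ζ ∉ U) {W : Set ℂ}
    (hW : IsOpen W) (hKW : connectedComponentIn Uᶜ ζ ⊆ W) :
    ∃ O, IsOpen O ∧ connectedComponentIn Uᶜ ζ ⊆ O ∧ O ⊆ W ∧ IsPreconnected (O ∩ U) ∧
      ∀ w ∈ O, connectedComponentIn Uᶜ w ⊆ O := by
  obtain ⟨N, hNo, hKN, hNW, hfr, -⟩ := Ext_616.exists_sat_nhd hU hζ hW hKW
  have hζc : ζ ∈ connectedComponentIn Uᶜ ζ := mem_connectedComponentIn hζ
  have hQc : IsClosed (frontier N) := isClosed_frontier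
  have hcc : ∀ w, connectedComponentIn Uᶜ w ⊆ (frontier N)ᶜ := fun w y hy hyf =>
    connectedComponentIn_subset _ _ hy (hfr hyf)
  refine ⟨connectedComponentIn (frontier N)ᶜ ζ, hQc.isOpen_compl.connectedComponentIn, ?_, ?_, ?_,
    ?_⟩
  · exact isPreconnected_connectedComponentIn.subset_connectedComponentIn hζc (hcc ζ)
  · refine Subset.trans ?_ hNW
    intro y hy
    by_contra hyN
    obtain ⟨q, hq1, hq2⟩ := Uv_913.meets_frontier (s := connectedComponentIn (frontier N)ᶜ ζ)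
      (B := N) isPreconnected_connectedComponentIn
      ⟨ζ, mem_connectedComponentIn (fun h => hζ (hfr h)), hKN hζc⟩ ⟨y, hy, hyN⟩
    exact connectedComponentIn_subset _ _ hq1 hq2
  · exact Ends_897.preconn_inter hU.2.1.isPreconnected (Ends_897.isCompact_compl hU) hQc hfr ζ
  · intro w hw
    by_cases hwU : w ∈ U
    · rw [connectedComponentIn_eq_empty (fun h : w ∈ Uᶜ => h hwU)]; exact empty_subset _
    · rw [connectedComponentIn_eq hw]
      exact isPreconnected_connectedComponentIn.subset_connectedComponentIn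
        (mem_connectedComponentIn hwU) (hcc w)

/-- open connected saturated sets stay connected after removing `Y` -/
theorem preconn_sdiff {Y : Set ℂ} (hY : IsExteriorDomain Yᶜ) {Z : Set ℂ} (hZo : IsOpen Z)
    (hZc : IsPreconnected Z) (hsat : ∀ z ∈ Z, connectedComponentIn Y z ⊆ Z) :
    IsPreconnected (Z \ Y) := by
  have good : ∀ z ∈ Z, ∃ N, z ∈ N ∧ N ⊆ Z ∧ IsPreconnected (N \ Y) ∧ IsOpen N ∧
      ∀ w ∈ N, connectedComponentIn Y w ⊆ N := by
    intro z hz
    by_cases hzY : z ∈ Y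
    · obtain ⟨O, h1, h2, h3, h4, h5⟩ := exists_conn_sat_nhd hY (ζ := z) (fun h => h hzY) hZo
        (by rw [compl_compl]; exact hsat z hz)
      rw [compl_compl] at h2
      simp only [compl_compl] at h5
      exact ⟨O, h2 (mem_connectedComponentIn hzY), h3, h4, h1, h5⟩
    · obtain ⟨r, hr, hb⟩ := Metric.isOpen_iff.1 (hZo.inter hY.1) z ⟨hz, hzY⟩
      have hsd : ball z r \ Y = ball z r :=
        sdiff_eq_left.2 (Set.disjoint_left.2 fun w hw hwY => (hb hw).2 hwY)
      refine ⟨ball z r, mem_ball_self hr, fun w hw => (hb hw).1, ?_, isOpen_ball, fun w hw => ?_⟩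
      · rw [hsd]; exact (convex_ball z r).isPreconnected
      · rw [connectedComponentIn_eq_empty (hb hw).2]; exact empty_subset _
  choose! N hzN hNZ hNc hNo hNs using good
  intro A B hA hB hcov hAn hBn
  by_contra hemp
  have hne : ∀ z ∈ Z, (N z \ Y).Nonempty := fun z hz =>
    Nb.nonempty hY ⟨hNo z hz, hzN z hz, hNs z hz z (hzN z hz)⟩
  have hdich : ∀ z ∈ Z, N z \ Y ⊆ A ∨ N z \ Y ⊆ B := by
    intro z hz
    by_contra hcon
    rw [not_or, not_subset, not_subset] at hcon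
    obtain ⟨⟨a, ha, haA⟩, b, hb, hbB⟩ := hcon
    have hc : N z \ Y ⊆ A ∪ B := fun w hw => hcov ⟨hNZ z hz hw.1, hw.2⟩
    have haB : a ∈ B := (hc ha).resolve_left haA
    have hbA : b ∈ A := (hc hb).resolve_right hbB
    obtain ⟨q, hq, hqAB⟩ := hNc z hz A B hA hB hc ⟨b, hb, hbA⟩ ⟨a, ha, haB⟩
    exact hemp ⟨q, ⟨hNZ z hz hq.1, hq.2⟩, hqAB⟩
  set A' : Set ℂ := ⋃ z ∈ {z | z ∈ Z ∧ N z \ Y ⊆ A}, N z with hA'
  set B' : Set ℂ := ⋃ z ∈ {z | z ∈ Z ∧ N z \ Y ⊆ B}, N z with hB'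
  have hA'o : IsOpen A' := isOpen_biUnion fun z hz => hNo z hz.1
  have hB'o : IsOpen B' := isOpen_biUnion fun z hz => hNo z hz.1
  have hcov' : Z ⊆ A' ∪ B' := by
    intro z hz
    rcases hdich z hz with h | h
    · exact Or.inl (mem_biUnion (show z ∈ {z | z ∈ Z ∧ N z \ Y ⊆ A} from ⟨hz, h⟩) (hzN z hz))
    · exact Or.inr (mem_biUnion (show z ∈ {z | z ∈ Z ∧ N z \ Y ⊆ B} from ⟨hz, h⟩) (hzN z hz))
  obtain ⟨a, ha, haA⟩ := hAn
  obtain ⟨b, hb, hbB⟩ := hBn
  have haA' : a ∈ A' := by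
    refine mem_biUnion (show a ∈ {z | z ∈ Z ∧ N z \ Y ⊆ A} from ⟨ha.1, ?_⟩) (hzN a ha.1)
    rcases hdich a ha.1 with h | h
    · exact h
    · exact absurd ⟨a, ha, haA, h ⟨hzN a ha.1, ha.2⟩⟩ hemp
  have hbB' : b ∈ B' := by
    refine mem_biUnion (show b ∈ {z | z ∈ Z ∧ N z \ Y ⊆ B} from ⟨hb.1, ?_⟩) (hzN b hb.1)
    rcases hdich b hb.1 with h | h
    · exact absurd ⟨b, hb, h ⟨hzN b hb.1, hb.2⟩, hbB⟩ hemp
    · exact h
  obtain ⟨w, hwZ, hwA, hwB⟩ := hZc A' B' hA'o hB'o hcov' ⟨a, ha.1, haA'⟩ ⟨b, hb.1, hbB'⟩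
  obtain ⟨z1, hz1, hw1⟩ := mem_iUnion₂.1 hwA
  obtain ⟨z2, hz2, hw2⟩ := mem_iUnion₂.1 hwB
  obtain ⟨q, hq1, hqY⟩ := Nb.nonempty hY (z := w) (O := N z1 ∩ N z2)
    ⟨(hNo z1 hz1.1).inter (hNo z2 hz2.1), ⟨hw1, hw2⟩,
      subset_inter (hNs z1 hz1.1 w hw1) (hNs z2 hz2.1 w hw2)⟩
  exact hemp ⟨q, ⟨hNZ z1 hz1.1 hq1.1, hqY⟩, hz1.2 ⟨hq1.1, hqY⟩, hz2.2 ⟨hq1.2, hqY⟩⟩

/-- transfer of "no bounded component" from the plane to `U` -/
theorem unbounded_of_sat {Y : Set ℂ} (hY : IsExteriorDomain Yᶜ) {G : Set ℂ} (hG : IsOpen G)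
    (hsat : ∀ w ∈ G, connectedComponentIn Y w ⊆ G) {z : ℂ} (hz : z ∈ G) (hzY : z ∉ Y)
    (hub : ¬ Bornology.IsBounded (connectedComponentIn G z)) :
    ¬ Bornology.IsBounded (connectedComponentIn (G \ Y) z) := by
  intro hb
  apply hub
  have hYb : Bornology.IsBounded Y := by
    have := (Ends_897.isCompact_compl hY).isBounded
    rwa [compl_compl] at this
  have h1 : IsPreconnected (connectedComponentIn G z \ Y) := by
    refine preconn_sdiff hY hG.connectedComponentIn isPreconnected_connectedComponentIn ?_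
    intro w hw
    by_cases hwY : w ∈ Y
    · rw [connectedComponentIn_eq hw]
      exact isPreconnected_connectedComponentIn.subset_connectedComponentIn
        (mem_connectedComponentIn hwY) (hsat w (connectedComponentIn_subset _ _ hw))
    · rw [connectedComponentIn_eq_empty hwY]; exact empty_subset _
  have h2 : connectedComponentIn G z \ Y ⊆ connectedComponentIn (G \ Y) z :=
    h1.subset_connectedComponentIn ⟨mem_connectedComponentIn hz, hzY⟩
      (sdiff_subset_sdiff_left (connectedComponentIn_subset _ _))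
  refine ((hb.subset h2).union hYb).subset fun w hw => ?_
  by_cases hwY : w ∈ Y
  · exact Or.inr hwY
  · exact Or.inl ⟨hw, hwY⟩

/-- **univalence from `Swd`** -/
theorem injOn_of_Swd {Y : Set ℂ} (hY : IsExteriorDomain Yᶜ) {x : ℂ → ℝ} {F : ℂ → ℂ} (hlb : LB x)
    (hF : DifferentiableOn ℂ F Yᶜ) (hre : ∀ z ∈ Yᶜ, (F z).re = x z)
    (hinf : ∃ c : ℂ, Tendsto (fun z => F z - z) (cocompact ℂ) (𝓝 c))
    (hE : ∀ R : ℝ, IntegrableOn (fun z => ‖deriv F z‖ ^ 2) (Yᶜ ∩ ball 0 R))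
    (hEL : Uv_913.ELIneq Yᶜ F) (hsw : Swd Y x) : InjOn F Yᶜ := by
  have hYb : Bornology.IsBounded Yᶜᶜ := (Ends_897.isCompact_compl hY).isBounded
  have hxc : ∀ z, z ∉ Y → ContinuousAt x z := by
    intro z hz
    have h1 : ContinuousAt (fun w => (F w).re) z :=
      (continuous_re.comp_continuousOn hF.continuousOn).continuousAt (hY.1.mem_nhds hz)
    refine h1.congr ?_
    filter_upwards [hY.1.mem_nhds hz] with w hw using hre w hw
  refine injOn_T hY.1 hY.2.1.isPreconnected hYb hF hinf hE hEL ?_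
  intro σ hσ a b hab
  refine ⟨(a + b) / 2, ⟨by linarith, by linarith⟩, ?_⟩
  set t := (a + b) / 2
  intro z hz ht
  rcases hσ with rfl | rfl
  · have e : {z | z ∈ Yᶜ ∧ t < 1 * (F z).re} = {w | t < lo Y x w} \ Y := by
      ext w
      constructor
      · rintro ⟨h1, h2⟩
        refine ⟨?_, h1⟩
        show t < lo Y x w
        rw [lo_of_notMem hY hlb h1 (hxc w h1), ← hre w h1]; linarith
      · rintro ⟨h1, h2⟩
        have h1' : t < lo Y x w := h1
        rw [lo_of_notMem hY hlb h2 (hxc w h2), ← hre w h2] at h1'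
        exact ⟨h2, by linarith⟩
    rw [e]
    have hlo : t < lo Y x z := by
      rw [lo_of_notMem hY hlb hz (hxc z hz), ← hre z hz]; linarith
    refine unbounded_of_sat hY (isOpen_lt_lo hY hlb t) ?_ hlo hz (hsw.gt t z hlo)
    intro w hw y hy
    by_cases hwY : w ∈ Y
    · show t < lo Y x y
      rw [lo_congr_cc hwY hy]; exact hw
    · rw [connectedComponentIn_eq_empty hwY] at hy; exact hy.elim
  · have e : {z | z ∈ Yᶜ ∧ t < -1 * (F z).re} = {w | up Y x w < -t} \ Y := by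
      ext w
      constructor
      · rintro ⟨h1, h2⟩
        refine ⟨?_, h1⟩
        show up Y x w < -t
        rw [up_of_notMem hY hlb h1 (hxc w h1), ← hre w h1]; linarith
      · rintro ⟨h1, h2⟩
        have h1' : up Y x w < -t := h1
        rw [up_of_notMem hY hlb h2 (hxc w h2), ← hre w h2] at h1'
        exact ⟨h2, by linarith⟩
    rw [e]
    have hup : up Y x z < -t := by
      rw [up_of_notMem hY hlb hz (hxc z hz), ← hre z hz]; linarith
    refine unbounded_of_sat hY (isOpen_up_lt hY hlb (-t)) ?_ hup hz (hsw.lt (-t) z hup)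
    intro w hw y hy
    by_cases hwY : w ∈ Y
    · show up Y x y < -t
      rw [up_congr_cc hwY hy]; exact hw
    · rw [connectedComponentIn_eq_empty hwY] at hy; exact hy.elim

end Crest.Agent.R105.Uw_913
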