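import Crest.Agent.R105.N8a_602
import Crest.Agent.R105.Uw4_913
import Crest.Agent.R105.Grd3_782
import Crest.Agent.R105.Ni2_459
import Crest.Agent.R105.Elf3_600

/-!
# Row 105, S0138 (T-frame), node E9 = NI-8 in 459's null image frame (helper602 + helper913)

`e9` : `x0 + φ` switched, `φ ∈ TT`, `NI (a i) φ` for all `i`, minimal among `φ + t ψ`
(`ψ ∈ TT` with compact support and `NI (a i) ψ`)  ⟹  `∃ p`, `p` holomorphic on `Yᶜ`,
`Re p = x0 + φ`, `p z - z → c`, `InjOn p Yᶜ`, `ELIneq Yᶜ p`.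
-/

set_option autoImplicit false

namespace Crest.Agent.R105.N8_602

open Complex Set Filter Topology Metric MeasureTheory
open scoped ContDiff NNReal
open Crest.AnalysisR (IsExteriorDomain)
open Crest.Agent.R105.IfB_641 (Cpl X0 di lap J)
open Crest.Agent.R105.Bd_775 (gx gy dot LC Q)
open Crest.Agent.R105.Tc_808 (Cmp osc TT ET Jmp)
open Crest.Agent.R105.Uv_913 (Lc ELIneq)
open Crest.Agent.R105.Ni_459 (NI Swd LB lo up Nb)

variable {Y : Set ℂ} {x0 φ ψ a : ℂ → ℝ} {p : ℂ → ℂ} {c : ℂ → ℝ} {h : ℝ → ℝ}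

theorem JT_eq_TJ (Y : Set ℂ) (x0 u : ℂ → ℝ) : JT Y x0 u = Grd_782.TJ Y x0 u := JT_eq Y x0 u

theorem TJ_eq_JT871 (Y : Set ℂ) (x0 u : ℂ → ℝ) : Grd_782.TJ Y x0 u = SelT_871.JT Y x0 u := rfl

/-- Euler-Lagrange package from minimality against the tests only -/
theorem pkT_of (hY : IsCompact Y) (hx : X0 Y x0) (hφ : TT Y φ)
    (hmin : ∀ c, Lc Yᶜ c → ∀ (h : ℝ → ℝ) (L : ℝ≥0), LipschitzWith L h → ∀ t : ℝ,
      Grd_782.TJ Y x0 φ ≤ Grd_782.TJ Y x0 (fun z => φ z + t * (c z * h (x0 z + φ z)))) :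
    PkT Y x0 φ := by
  have hYc := hY.isClosed
  refine ⟨hY, hx, hφ.q, ?_, ?_⟩
  · have key : ∀ c, Lc Yᶜ c → di Y φ c ≤ ∫ z, c z * lap x0 z := by
      intro c hc
      have hlc : LC Y c := Uv_913.lc_of_Lc hc
      refine fv1 hYc hx hφ hlc.q one_pos (fun t _ K => osc_shift hx hφ.q hlc t K)
        fun t _ => ?_
      rw [JT_eq_TJ, JT_eq_TJ]
      have := hmin c hc (fun _ => 1) 0 (LipschitzWith.const 1) (-t)
      simpa only [mul_one] using this
    intro c hc
    refine le_antisymm (key c hc) ?_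
    have hc' : Lc Yᶜ (fun z => - c z) :=
      ⟨hc.1.neg, hc.2.1.neg, fun z hz => (hc.2.2 z hz).mono fun w hw => by
        simp only []; rw [hw]⟩
    have h1 := key _ hc'
    have e1 : di Y φ (fun z => - c z) = - di Y φ c := by
      unfold di
      rw [← integral_neg]
      refine integral_congr_ae (Eventually.of_forall fun z => ?_)
      show gx φ z * gx (fun z => - c z) z + gy φ z * gy (fun z => - c z) z =
        -(gx φ z * gx c z + gy φ z * gy c z)
      have e2 : gx (fun z => - c z) z = - gx c z := by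
        unfold Bd_775.gx; rw [fderiv_fun_neg]; rfl
      have e3 : gy (fun z => - c z) z = - gy c z := by
        unfold Bd_775.gy; rw [fderiv_fun_neg]; rfl
      rw [e2, e3]; ring
    have e2 : ∫ z, (- c z) * lap x0 z = - ∫ z, c z * lap x0 z := by
      rw [← integral_neg]
      refine integral_congr_ae (Eventually.of_forall fun z => ?_)
      simp only []; ring
    rw [e1, e2] at h1
    linarith
  · intro c hc hc0 h hh hm hd
    have hlc : LC Y c := Uv_913.lc_of_Lc hc
    obtain ⟨L, hL, hL'⟩ := lipschitz_of hh hm hd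
    obtain ⟨M, hMb⟩ := hlc.bdd
    have hM0 : 0 ≤ M := (abs_nonneg _).trans (hMb 0)
    have hpos : 0 < M * L + 1 := by positivity
    refine fv1 hYc hx hφ (q_test' hYc hx hφ.q hc hL) (t0 := 1 / (M * L + 1))
      (by positivity) (fun t ht K => osc_test hx hφ.q hlc hMb hc0 hm hL' ht.1.le ?_ K)
      fun t _ => ?_
    · have h1 : t * (M * L + 1) ≤ 1 := by
        have := mul_le_mul_of_nonneg_right ht.2 hpos.le
        rwa [one_div, inv_mul_cancel₀ hpos.ne'] at this
      have h2 : t * (M * L + 1) = t * (M * L) + t := by ring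
      have h3 : 0 < t := ht.1
      linarith
    · rw [JT_eq_TJ, JT_eq_TJ]
      exact hmin c hc h L hL (-t)

/-- a locally constant function takes finitely many values on `Y` -/
theorem finite_range (hY : IsCompact Y) (hc : LC Y c) : (c '' Y).Finite := by
  obtain ⟨t, -, ht⟩ := hY.elim_nhds_subcover (fun z => {w | c w = c z}) (fun z hz => hc.lc z hz)
  refine (t.finite_toSet.image c).subset ?_
  rintro _ ⟨w, hw, rfl⟩
  obtain ⟨z, hz, hwz⟩ := mem_iUnion₂.1 (ht hw)
  exact ⟨z, hz, (show c w = c z from hwz).symm⟩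

/-- `NI` passes to the Euler-Lagrange tests -/
theorem ni_test (hY : IsExteriorDomain Yᶜ) (hx : X0 Y x0) (hφ : TT Y φ) (hc : LC Y c)
    (hcc : HasCompactSupport c) {L : ℝ≥0} (hh : LipschitzWith L h) (hni : NI Y a φ) :
    NI Y a (fun z => c z * h (x0 z + φ z)) := by
  have hYc := Ni_459.cpt_of hY
  have htt := (Elf_600.test_chiG hYc hx hφ hc hcc hh).1
  have hlb : LB φ := LB.of_bdd hφ.q.bdd
  have hlf : LB (fun z => c z * h (x0 z + φ z)) := LB.of_bdd htt.q.bdd
  obtain ⟨k, hk⟩ := ((finite_range hYc hc).countable.insert 0).exists_eq_range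
    ⟨0, mem_insert _ _⟩
  refine NI.of_rule (b := fun _ => φ) (fun _ => hni) (G := fun m s => k m * h s)
    (fun m => ⟨‖k m‖₊ * L, ?_⟩) (D := ∅) countable_empty hφ.countable ?_
  · refine LipschitzWith.of_dist_le_mul fun s s' => ?_
    rw [Real.dist_eq, ← mul_sub, abs_mul, NNReal.coe_mul, mul_assoc]
    refine mul_le_mul_of_nonneg_left ?_ (abs_nonneg _)
    have := hh.dist_le_mul s s'
    rwa [Real.dist_eq] at this
  · intro z hz hJ _ _
    left
    have h0 : osc Y φ (connectedComponentIn Y z) = 0 := by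
      by_contra hne
      exact hJ hne
    rw [Ni_459.osc_eq hY hφ.q.bdd hz] at h0
    have heq : lo Y φ z = up Y φ z := by linarith
    obtain ⟨m, hm⟩ : ∃ m, k m = c z := by
      have : c z ∈ range k := by rw [← hk]; exact mem_insert_of_mem _ (mem_image_of_mem c hz)
      exact this
    refine ⟨0, m, heq, ?_⟩
    show lo Y (fun z => c z * h (x0 z + φ z)) z = k m * h (lo Y φ z)
    rw [hm]
    set s := lo Y φ z with hs
    obtain ⟨k', O, hO, hKO, h1⟩ := near_cmp hx hc (Tc_808.Cmp.of hz)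
    have hzO : z ∈ O := hKO (mem_connectedComponentIn hz)
    have hk' : k' = c z := (h1 z hzO).1.symm
    have hnb : Nb Y z O := Ni_459.nb_of_mem hz hO hKO
    have hcont : ContinuousAt (fun s => c z * h s) s :=
      (continuous_const.mul hh.continuous).continuousAt
    -- two-sided bound near the component
    have key : ∀ ε > 0, ∃ P, Nb Y z P ∧ ∀ w ∈ P, w ∉ Y →
        |c w * h (x0 w + φ w) - c z * h s| < ε := by
      intro ε hε
      obtain ⟨δ, hδ, hd⟩ := Metric.continuousAt_iff.1 hcont ε hε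
      obtain ⟨P1, hP1, h2⟩ := Ni_459.exists_lt_of_up_lt hY hlb
        (show up Y φ z < s + δ by rw [← heq]; linarith)
      obtain ⟨P2, hP2, h3⟩ := Ni_459.exists_gt_of_lt_lo hY hlb
        (show s - δ < lo Y φ z by rw [← hs]; linarith)
      refine ⟨O ∩ (P1 ∩ P2), hnb.inter (hP1.inter hP2), fun w hw hwY => ?_⟩
      have h4 := h2 w hw.2.1 hwY
      have h5 := h3 w hw.2.2 hwY
      have h6 : dist (φ w) s < δ := by rw [Real.dist_eq, abs_lt]; constructor <;> linarith
      have h7 := hd h6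
      rw [Real.dist_eq] at h7
      rw [(h1 w hw.1).1, (h1 w hw.1).2, zero_add, hk']
      exact h7
    refine le_antisymm ?_ ?_
    · refine le_of_forall_pos_le_add fun ε hε => ?_
      obtain ⟨P, hP, h2⟩ := key ε hε
      refine (Ni_459.lo_le_up hY hlf z).trans (Ni_459.up_le hY hlf hP fun w hw hwY => ?_)
      linarith [(abs_lt.1 (h2 w hw hwY)).2]
    · refine le_of_forall_pos_le_add fun ε hε => ?_
      obtain ⟨P, hP, h2⟩ := key ε hε
      have := Ni_459.le_lo (c := c z * h s - ε) hY hlf hP fun w hw hwY => by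
        linarith [(abs_lt.1 (h2 w hw hwY)).1]
      linarith

/-- **E9 in the null image frame** -/
theorem e9 {ι : Type*} {a : ι → ℂ → ℝ} (hY : IsExteriorDomain Yᶜ) (hx : X0 Y x0) (hφ : TT Y φ)
    (hsw : Swd Y (fun z => x0 z + φ z)) (hni : ∀ i, NI Y (a i) φ)
    (hmin : ∀ ψ, TT Y ψ → HasCompactSupport ψ → (∀ i, NI Y (a i) ψ) → ∀ t : ℝ,
      Grd_782.TJ Y x0 φ ≤ Grd_782.TJ Y x0 (fun z => φ z + t * ψ z)) :
    PkT Y x0 φ ∧ ∃ p, Cpl Y x0 φ p ∧ InjOn p Yᶜ ∧ ELIneq Yᶜ p ∧
      ∀ R : ℝ, IntegrableOn (fun z => ‖deriv p z‖ ^ 2) (Yᶜ ∩ ball 0 R) := by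
  have hYc := Ni_459.cpt_of hY
  have hP : PkT Y x0 φ := by
    refine pkT_of hYc hx hφ fun c hc h L hL t => ?_
    have hlc : LC Y c := Uv_913.lc_of_Lc hc
    obtain ⟨h1, h2, -⟩ := Elf_600.test_chiG hYc hx hφ hlc hc.2.1 hL
    exact hmin _ h1 h2 (fun i => ni_test hY hx hφ hlc hc.2.1 hL (hni i)) t
  obtain ⟨p, hp⟩ := exists_cpl hP
  refine ⟨hP, p, hp, ?_, elineq hP hp, energy hP hp⟩
  exact Uw_913.injOn_of_Swd hY ((LB.of_cont hx.sm.continuous).add (LB.of_bdd hφ.q.bdd)) hp.hol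
    hp.re hp.inf (energy hP hp) (elineq hP hp) hsw

end Crest.Agent.R105.N8_602
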