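import Crest.Agent.R105.Att2_790
import Crest.Agent.R105.Ni0_459

/-!
# Row 105 (S0138, T-frame): (ATT) of helper459 #9956 over the carrier `Ni0_459`

`att` : the limit of a minimising sequence of switched functions with pairwise null image has
`osc Y ψ K ≤ s K` at every component.
-/

set_option autoImplicit false

open Set Filter Metric Topology MeasureTheory
open scoped ENNReal

namespace Crest.Agent.R105.Att3_790

open Bd_775 Tc_808 Ni_459 Att1_790 Att2_790 Crest.AnalysisR

theorem ZZ_eq (Y : Set ℂ) (a b : ℂ → ℝ) (F : Set ℂ) :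
    ZZ (lo Y a) (up Y a) (lo Y b) (up Y b) F = ZF Y a b F := by
  ext p
  constructor
  · rintro ⟨z, hz, ⟨h1, h2⟩, h3, h4⟩
    exact ⟨z, hz, h1, h2, h3, h4⟩
  · rintro ⟨z, hz, h1, h2, h3, h4⟩
    exact ⟨z, hz, ⟨h1, h2⟩, h3, h4⟩

/-- the envelopes of `u` -/
theorem env {Y : Set ℂ} (hY : IsExteriorDomain Yᶜ) {u : ℂ → ℝ} (hu : LB u)
    (hc : ∀ z ∉ Y, ContinuousAt u z) : Env Y u (lo Y u) (up Y u) where
  le := lo_le_up hY hu
  lsc := lsc_lo hY hu
  usc := usc_up hY hu
  eqm z hz := lo_of_notMem hY hu hz (hc z hz)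
  eqp z hz := up_of_notMem hY hu hz (hc z hz)
  cm K z hz w hw := by
    have h1 := K.eq_of_mem hz
    have h2 : w ∈ connectedComponentIn Y z := by
      have : (K.1 : Set ℂ) = connectedComponentIn Y z := by rw [h1]; rfl
      rwa [this] at hw
    exact (lo_congr_cc (K.subset hz) h2).symm
  cp K z hz w hw := by
    have h1 := K.eq_of_mem hz
    have h2 : w ∈ connectedComponentIn Y z := by
      have : (K.1 : Set ℂ) = connectedComponentIn Y z := by rw [h1]; rfl
      rwa [this] at hw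
    exact (up_congr_cc (K.subset hz) h2).symm

theorem swUp {Y : Set ℂ} {u : ℂ → ℝ} (h : Swd Y u) : SwUp (lo Y u) := by
  intro N hN t z0 hz0 ht
  refine ⟨connectedComponentIn {w | t < lo Y u w} z0, isPreconnected_connectedComponentIn,
    mem_connectedComponentIn ht,
    fun z hz => (connectedComponentIn_subset {w | t < lo Y u w} z0 hz : z ∈ {w | t < lo Y u w}), ?_⟩
  by_contra hcon
  push Not at hcon
  exact h.gt t z0 ht (hN.isBounded.subset fun w hw => interior_subset (hcon w hw))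

theorem swDn {Y : Set ℂ} {u : ℂ → ℝ} (h : Swd Y u) : SwDn (up Y u) := by
  intro N hN t z0 hz0 ht
  refine ⟨connectedComponentIn {w | up Y u w < t} z0, isPreconnected_connectedComponentIn,
    mem_connectedComponentIn ht,
    fun z hz => (connectedComponentIn_subset {w | up Y u w < t} z0 hz : z ∈ {w | up Y u w < t}), ?_⟩
  by_contra hcon
  push Not at hcon
  exact h.lt t z0 ht (hN.isBounded.subset fun w hw => interior_subset (hcon w hw))

/-- the form T1 of #10219 -/
def BumpT1 (Y : Set ℂ) (a : ℂ → ℝ) : Prop :=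
  ∀ t, ∀ N : Set ℂ, IsOpen N → Bornology.IsBounded N → ∀ z ∈ Lv Y a t ∩ N,
    ∃ C ⊆ Lv Y a t ∩ closure N, IsCompact C ∧ IsPreconnected C ∧ z ∈ C ∧ (C ∩ frontier N).Nonempty

theorem bump {Y : Set ℂ} {a : ℂ → ℝ} (h : BumpT1 Y a) : Bump (lo Y a) (up Y a) := by
  intro N hN t q hq h1 h2
  by_cases hqi : q ∈ interior N
  · obtain ⟨C, hC, -, hCp, hqC, w, hwC, hwf⟩ := h t (interior N) isOpen_interior
      (hN.isBounded.subset interior_subset) q ⟨⟨h1, h2⟩, hqi⟩
    refine ⟨C, fun z hz => ?_, hCp, hqC, fun z hz => (hC hz).1, w, hwC, ?_⟩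
    · exact (closure_minimal interior_subset hN.isClosed) (hC hz).2
    · exact frontier_interior_subset hwf
  · refine ⟨{q}, by simpa using hq, isPreconnected_singleton, rfl, ?_, q, rfl,
      subset_closure hq, hqi⟩
    rintro z rfl
    exact ⟨h1, h2⟩

section energy

variable {Y : Set ℂ}

theorem en_congr {u v : ℂ → ℝ} {z : ℂ} (h : u =ᶠ[𝓝 z] v) : en u z = en v z := by
  unfold en gx gy; rw [h.fderiv_eq]

theorem en_le {u v : ℂ → ℝ} {z : ℂ} (hu : DifferentiableAt ℝ u z) (hv : DifferentiableAt ℝ v z) :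
    en u z ≤ 2 * en v z + 2 * en (fun w => u w - v w) z := by
  have h1 : fderiv ℝ (fun w => u w - v w) z = fderiv ℝ u z - fderiv ℝ v z := fderiv_fun_sub hu hv
  unfold en gx gy
  rw [h1]
  simp only [sub_apply]
  nlinarith [sq_nonneg (2 * fderiv ℝ v z 1 - fderiv ℝ u z 1),
    sq_nonneg (2 * fderiv ℝ v z Complex.I - fderiv ℝ u z Complex.I)]

/-- small neighbourhoods carry little energy -/
theorem exists_small_energy {f : ℂ → ℝ} (hf : IntegrableOn f Yᶜ) {K : Set ℂ} (hK : IsCompact K)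
    (hKY : K ⊆ Y) (hYc : IsClosed Y) {ε : ℝ} (hε : 0 < ε) :
    ∃ W, IsOpen W ∧ K ⊆ W ∧ ∀ W' ⊆ W, MeasurableSet W' → ∫ z in W' \ Y, |f z| ≤ ε := by
  let W : ℕ → Set ℂ := fun n => thickening (1 / ((n : ℝ) + 1)) K
  have hWo : ∀ n, IsOpen (W n) := fun n => isOpen_thickening
  have hanti : Antitone fun n => W n \ Y := by
    intro m n hmn
    refine sdiff_subset_sdiff_left (thickening_mono ?_ K)
    exact one_div_le_one_div_of_le (by positivity) (by exact_mod_cast Nat.succ_le_succ hmn)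
  have hint : IntegrableOn (fun z => |f z|) Yᶜ := hf.abs
  have hemp : ⋂ n, (W n \ Y) = ∅ := by
    ext z
    simp only [mem_iInter, mem_empty_iff_false, iff_false]
    intro h
    have hzK : z ∈ closure K := by
      rw [closure_eq_iInter_thickening]
      simp only [mem_iInter]
      intro δ hδ
      obtain ⟨n, hn⟩ := exists_nat_one_div_lt (K := ℝ) hδ
      exact thickening_mono hn.le K (h n).1
    rw [hK.isClosed.closure_eq] at hzK
    exact (h 0).2 (hKY hzK)
  have ht := tendsto_setIntegral_of_antitone (μ := volume) (f := fun z => |f z|)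
    (s := fun n => W n \ Y) (fun n => (hWo n).measurableSet.diff hYc.measurableSet) hanti
    ⟨0, hint.mono_set fun z hz => hz.2⟩
  rw [hemp, setIntegral_empty] at ht
  obtain ⟨n, hn⟩ := (ht.eventually (gt_mem_nhds hε)).exists
  refine ⟨W n, hWo n, self_subset_thickening (by positivity) K, fun W' hW' hm => ?_⟩
  refine le_trans ?_ hn.le
  refine setIntegral_mono_set (hint.mono_set fun z hz => hz.2)
    (Eventually.of_forall fun z => abs_nonneg _) ?_
  exact (sdiff_subset_sdiff_left hW').eventuallyLE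

/-- small neighbourhoods see a small tail of an `l²` family -/
theorem exists_small_tail (hYc : IsCompact Y) {s : Cmp Y → ℝ} (hs : Summable fun K => s K ^ 2)
    (K0 : Cmp Y) {ε : ℝ} (hε : 0 < ε) :
    ∃ W, IsOpen W ∧ K0.1 ⊆ W ∧
      ∑' K : Cmp Y, {K : Cmp Y | (K.1 ∩ W).Nonempty ∧ K ≠ K0}.indicator (fun K => s K ^ 2) K ≤ ε := by
  classical
  obtain ⟨G, hG⟩ := ((tendsto_tsum_compl_atTop_zero (fun K : Cmp Y => s K ^ 2)).eventually
    (gt_mem_nhds hε)).exists
  let Z : Set ℂ := ⋃ K ∈ (G.erase K0), K.1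
  have hZ : IsClosed Z := by
    refine (G.erase K0).finite_toSet.isClosed_biUnion fun K _ => (K.isCompact hYc).isClosed
  refine ⟨Zᶜ, hZ.isOpen_compl, fun z hz hzZ => ?_, ?_⟩
  · simp only [Z, mem_iUnion] at hzZ
    obtain ⟨K, hK, hzK⟩ := hzZ
    exact Set.disjoint_left.1 (Cmp.disjoint (Finset.ne_of_mem_erase hK)) hzK hz
  · refine le_trans ?_ hG.le
    have h1 : ∀ K : Cmp Y, K ∈ {K : Cmp Y | (K.1 ∩ Zᶜ).Nonempty ∧ K ≠ K0} → K ∉ G := by
      rintro K ⟨⟨z, hz, hzZ⟩, hne⟩ hKG
      apply hzZ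
      simp only [Z, mem_iUnion]
      exact ⟨K, Finset.mem_erase.2 ⟨hne, hKG⟩, hz⟩
    have h2 : (∑' x : { x // x ∉ G }, s x ^ 2) =
      ∑' x, {x : Cmp Y | x ∉ G}.indicator (fun K => s K ^ 2) x :=
      tsum_subtype {x : Cmp Y | x ∉ G} (fun K => s K ^ 2)
    rw [h2]
    refine Summable.tsum_le_tsum (fun K => ?_) (hs.indicator _) (hs.indicator _)
    exact indicator_le_indicator_of_subset h1 (fun _ => sq_nonneg _) K

/-- the measure `MU` of small sets, in terms of energies and oscillations -/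
theorem MU_le (hYc : IsClosed Y) {a b : ℂ → ℝ} {ea eb : ℂ → ℝ} {oa ob : Cmp Y → ℝ}
    (ha : IntegrableOn ea Yᶜ) (hb : IntegrableOn eb Yᶜ)
    (hoa : Summable fun K => oa K ^ 2) (hob : Summable fun K => ob K ^ 2) {F W : Set ℂ}
    (hW : IsOpen W) (hFW : F ⊆ W) (hea : ∀ z ∈ W, z ∉ Y → en a z = ea z)
    (heb : ∀ z ∈ W, z ∉ Y → en b z = eb z)
    (haK : ∀ K : Cmp Y, osc Y a K.1 = oa K) (hbK : ∀ K : Cmp Y, osc Y b K.1 = ob K)
    (K0 : Cmp Y) (hFK : Disjoint F K0.1) {A B C D : ℝ}
    (hA : ∫ z in W \ Y, ea z ≤ A) (hB : ∫ z in W \ Y, eb z ≤ B)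
    (hC : ∑' K : Cmp Y, {K : Cmp Y | (K.1 ∩ W).Nonempty ∧ K ≠ K0}.indicator
      (fun K => oa K ^ 2) K ≤ C)
    (hD : ∑' K : Cmp Y, {K : Cmp Y | (K.1 ∩ W).Nonempty ∧ K ≠ K0}.indicator
      (fun K => ob K ^ 2) K ≤ D) :
    MU Y a b F ≤ ENNReal.ofReal ((A + B) / 2 + (C + D) / 2) := by
  have hsub : W \ Y ⊆ Yᶜ := fun z hz => hz.2
  have hWm : MeasurableSet (W \ Y) := hW.measurableSet.diff hYc.measurableSet
  have ia : IntegrableOn ea (W \ Y) := ha.mono_set hsub
  have ib : IntegrableOn eb (W \ Y) := hb.mono_set hsub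
  have h0a : 0 ≤ ∫ z in W \ Y, ea z := setIntegral_nonneg hWm fun z hz => by
    rw [← hea z hz.1 hz.2]; exact en_nonneg _ _
  have h0b : 0 ≤ ∫ z in W \ Y, eb z := setIntegral_nonneg hWm fun z hz => by
    rw [← heb z hz.1 hz.2]; exact en_nonneg _ _
  set S : Set (Cmp Y) := {K : Cmp Y | (K.1 ∩ W).Nonempty ∧ K ≠ K0} with hS
  have h0c : 0 ≤ ∑' K : Cmp Y, S.indicator (fun K => oa K ^ 2) K :=
    tsum_nonneg fun K => indicator_nonneg (fun _ _ => sq_nonneg _) _
  have h0d : 0 ≤ ∑' K : Cmp Y, S.indicator (fun K => ob K ^ 2) K :=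
    tsum_nonneg fun K => indicator_nonneg (fun _ _ => sq_nonneg _) _
  rw [ENNReal.ofReal_add (by linarith) (by linarith)]
  refine add_le_add ?_ ?_
  · calc ∫⁻ z in F \ Y, ENNReal.ofReal |wdg a b z|
        ≤ ∫⁻ z in W \ Y, ENNReal.ofReal |wdg a b z| :=
          lintegral_mono_set (sdiff_subset_sdiff_left hFW)
      _ ≤ ∫⁻ z in W \ Y, ENNReal.ofReal ((ea z + eb z) / 2) := by
          refine setLIntegral_mono' hWm fun z hz => ENNReal.ofReal_le_ofReal ?_
          rw [← hea z hz.1 hz.2, ← heb z hz.1 hz.2]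
          exact abs_wdg_le a b z
      _ = ENNReal.ofReal (∫ z in W \ Y, (ea z + eb z) / 2) := by
          have iab : IntegrableOn (fun z => (ea z + eb z) / 2) (W \ Y) := (ia.add ib).div_const 2
          rw [ofReal_integral_eq_lintegral_ofReal iab]
          refine (ae_restrict_iff' hWm).2 (Eventually.of_forall fun z hz => ?_)
          show 0 ≤ (ea z + eb z) / 2
          rw [← hea z hz.1 hz.2, ← heb z hz.1 hz.2]
          have := en_nonneg a z
          have := en_nonneg b z
          positivity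
      _ ≤ ENNReal.ofReal ((A + B) / 2) := by
          refine ENNReal.ofReal_le_ofReal ?_
          rw [integral_div, integral_add ia ib]
          linarith
  · have e1 : (∑' K : {K : Cmp Y // (K.1 ∩ F).Nonempty},
        ENNReal.ofReal (osc Y a K.1.1 * osc Y b K.1.1)) =
        ∑' K : Cmp Y, {K : Cmp Y | (K.1 ∩ F).Nonempty}.indicator
          (fun K => ENNReal.ofReal (osc Y a K.1 * osc Y b K.1)) K :=
      tsum_subtype {K : Cmp Y | (K.1 ∩ F).Nonempty}
        (fun K => ENNReal.ofReal (osc Y a K.1 * osc Y b K.1))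
    rw [e1]
    have sa := hoa.indicator S
    have sb := hob.indicator S
    calc ∑' K : Cmp Y, {K : Cmp Y | (K.1 ∩ F).Nonempty}.indicator
          (fun K => ENNReal.ofReal (osc Y a K.1 * osc Y b K.1)) K
        ≤ ∑' K : Cmp Y, ENNReal.ofReal ((S.indicator (fun K => oa K ^ 2) K +
            S.indicator (fun K => ob K ^ 2) K) / 2) := by
          refine ENNReal.tsum_le_tsum fun K => ?_
          by_cases hK : K ∈ {K : Cmp Y | (K.1 ∩ F).Nonempty}
          · rw [indicator_of_mem hK]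
            obtain ⟨z, hz, hzF⟩ := hK
            have hKS : K ∈ S := by
              refine ⟨⟨z, hz, hFW hzF⟩, ?_⟩
              rintro rfl
              exact Set.disjoint_left.1 hFK hzF hz
            rw [indicator_of_mem hKS, indicator_of_mem hKS, haK, hbK]
            refine ENNReal.ofReal_le_ofReal ?_
            nlinarith [sq_nonneg (oa K - ob K)]
          · rw [indicator_of_notMem hK]
            exact zero_le
      _ = ENNReal.ofReal (∑' K : Cmp Y, (S.indicator (fun K => oa K ^ 2) K +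
            S.indicator (fun K => ob K ^ 2) K) / 2) := by
          rw [ENNReal.ofReal_tsum_of_nonneg]
          · intro K
            have h1 : 0 ≤ S.indicator (fun K => oa K ^ 2) K :=
              indicator_nonneg (fun _ _ => sq_nonneg _) _
            have h2 : 0 ≤ S.indicator (fun K => ob K ^ 2) K :=
              indicator_nonneg (fun _ _ => sq_nonneg _) _
            positivity
          · exact (sa.add sb).div_const 2
      _ ≤ ENNReal.ofReal ((C + D) / 2) := by
          refine ENNReal.ofReal_le_ofReal ?_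
          rw [tsum_div_const, Summable.tsum_add sa sb]
          linarith

end energy

/-- **(ATT)** of #9956 over `Ni0_459`. -/
theorem att {Y : Set ℂ} (hY : IsExteriorDomain Yᶜ) {x0 : ℂ → ℝ} (hx0 : Continuous x0)
    (hx0Y : tsupport x0 ⊆ Yᶜ) {φ : ℕ → ℂ → ℝ} (hφ : ∀ n, TT Y (φ n))
    (hsw : ∀ n, Swd Y (fun z => x0 z + φ n z)) (hbump : ∀ n, BumpT1 Y (fun z => x0 z + φ n z))
    (harea : ∀ m n, ∀ F, IsCompact F →
      volume (ZF Y (fun z => x0 z + φ m z) (fun z => x0 z + φ n z) F) ≤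
        MU Y (fun z => x0 z + φ m z) (fun z => x0 z + φ n z) F)
    {ψ : ℂ → ℝ} (hψ : LocallyLipschitzOn Yᶜ ψ) (hψe : IntegrableOn (en ψ) Yᶜ)
    (hconv : ∀ A, IsCompact A → A ⊆ Yᶜ → TendstoUniformlyOn φ ψ atTop A)
    (hen : Tendsto (fun n => ∫ z in Yᶜ, en (fun w => φ n w - ψ w) z) atTop (𝓝 0))
    (heni : ∀ n, IntegrableOn (en (fun w => φ n w - ψ w)) Yᶜ)
    {s : Cmp Y → ℝ} (hs : Summable fun K => s K ^ 2)
    (hosc : Tendsto (fun n => ∑' K : Cmp Y, (osc Y (φ n) K.1 - s K) ^ 2) atTop (𝓝 0)) :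
    ∀ K : Cmp Y, osc Y ψ K.1 ≤ s K := by
  classical
  intro K0
  have hYc : IsCompact Y := cpt_of hY
  have hO : IsOpen (tsupport x0)ᶜ := (isClosed_tsupport x0).isOpen_compl
  have hYO : Y ⊆ (tsupport x0)ᶜ := fun z hz hz' => hx0Y hz' hz
  have hx00 : ∀ z ∈ (tsupport x0)ᶜ, x0 z = 0 := fun z hz => image_eq_zero_of_notMem_tsupport hz
  set u : ℕ → ℂ → ℝ := fun n z => x0 z + φ n z with hu
  have hLB : ∀ n, LB (u n) := fun n => (LB.of_cont hx0).add (LB.of_bdd (hφ n).q.bdd)
  have hYo : IsOpen Yᶜ := hYc.isClosed.isOpen_compl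
  have hca : ∀ n, ∀ z ∉ Y, ContinuousAt (u n) z := fun n z hz =>
    hx0.continuousAt.add ((hφ n).q.loc.continuousOn.continuousAt (hYo.mem_nhds hz))
  have hoscu : ∀ n, ∀ K : Cmp Y, osc Y (u n) K.1 = osc Y (φ n) K.1 := fun n K =>
    osc_congr hO (K.subset.trans hYO) fun z hz _ => by
      simp only [hu]; rw [hx00 z hz, zero_add]
  have hoscx : osc Y (fun z => x0 z + ψ z) K0.1 = osc Y ψ K0.1 :=
    osc_congr hO (K0.subset.trans hYO) fun z hz _ => by rw [hx00 z hz, zero_add]
  -- summabilities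
  have hsd : ∀ n, Summable fun K : Cmp Y => (osc Y (φ n) K.1 - s K) ^ 2 := by
    intro n
    refine Summable.of_nonneg_of_le (fun K => sq_nonneg _) (fun K => ?_)
      (((hφ n).sum.mul_left 2).add (hs.mul_left 2))
    nlinarith [sq_nonneg (osc Y (φ n) K.1 + s K)]
  -- convergence of each oscillation
  have hoK : Tendsto (fun n => osc Y (φ n) K0.1) atTop (𝓝 (s K0)) := by
    rw [Metric.tendsto_atTop']
    intro ε hε
    obtain ⟨N, hN⟩ := (hosc.eventually (gt_mem_nhds (show (0 : ℝ) < ε ^ 2 by positivity))).exists_forall_of_atTop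
    refine ⟨N, fun n hn => ?_⟩
    have h1 := hN n hn.le
    have h2 : (osc Y (φ n) K0.1 - s K0) ^ 2 ≤ ∑' K : Cmp Y, (osc Y (φ n) K.1 - s K) ^ 2 :=
      (hsd n).le_tsum K0 fun K _ => sq_nonneg _
    rw [Real.dist_eq]
    exact abs_lt_of_sq_lt_sq (h2.trans_lt h1) hε.le
  rw [← hoscx]
  refine osc_le hYc (u := u) (um := fun n => lo Y (u n)) (up := fun n => up Y (u n))
    (fun n => env hY (hLB n) (hca n)) (fun n => bump (hbump n)) (fun n => swUp (hsw n))
    (fun n => swDn (hsw n)) ?_ K0 ?_ ?_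
  · intro A hA hAY
    have h1 := hconv A hA hAY
    rw [Metric.tendstoUniformlyOn_iff] at h1 ⊢
    intro ε hε
    filter_upwards [h1 ε hε] with n hn z hz
    have := hn z hz
    rw [Real.dist_eq] at this ⊢
    simp only [hu]
    rwa [add_sub_add_left_eq_sub]
  · intro z hz
    have h1 : ∀ n, up Y (u n) z - lo Y (u n) z = osc Y (φ n) K0.1 := by
      intro n
      have hzY := K0.subset hz
      have hK : connectedComponentIn Y z = K0.1 := by rw [K0.eq_of_mem hz]; rfl
      -- `u n` agrees with the bounded `φ n` near `z`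
      have h2 : up Y (u n) z = up Y (φ n) z := by
        unfold Ni_459.up
        congr 1
        ext c
        constructor
        · rintro ⟨O, hOn, h⟩
          refine ⟨O ∩ (tsupport x0)ᶜ, hOn.inter (nb_of_mem hzY hO (hK ▸ K0.subset.trans hYO)),
            fun w hw hwY => ?_⟩
          have := h w hw.1 hwY
          simp only [hu] at this
          rwa [hx00 w hw.2, zero_add] at this
        · rintro ⟨O, hOn, h⟩
          refine ⟨O ∩ (tsupport x0)ᶜ, hOn.inter (nb_of_mem hzY hO (hK ▸ K0.subset.trans hYO)),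
            fun w hw hwY => ?_⟩
          have := h w hw.1 hwY
          simp only [hu]
          rwa [hx00 w hw.2, zero_add]
      have h3 : lo Y (u n) z = lo Y (φ n) z := by
        unfold Ni_459.lo Ni_459.up
        congr 2
        ext c
        constructor
        · rintro ⟨O, hOn, h⟩
          refine ⟨O ∩ (tsupport x0)ᶜ, hOn.inter (nb_of_mem hzY hO (hK ▸ K0.subset.trans hYO)),
            fun w hw hwY => ?_⟩
          have := h w hw.1 hwY
          simp only [hu] at this
          rwa [hx00 w hw.2, zero_add] at this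
        · rintro ⟨O, hOn, h⟩
          refine ⟨O ∩ (tsupport x0)ᶜ, hOn.inter (nb_of_mem hzY hO (hK ▸ K0.subset.trans hYO)),
            fun w hw hwY => ?_⟩
          have := h w hw.1 hwY
          simp only [hu]
          rwa [hx00 w hw.2, zero_add]
      rw [h2, h3, ← hK, osc_eq hY (hφ n).q.bdd hzY]
    simp_rw [h1]
    exact hoK
  · intro ε hε
    have hε8 : 0 < ε / 8 := by positivity
    obtain ⟨W1, hW1, hKW1, hE⟩ := exists_small_energy hψe (K0.isCompact hYc) K0.subset
      hYc.isClosed hε8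
    obtain ⟨W2, hW2, hKW2, hT⟩ := exists_small_tail hYc hs K0 hε8
    refine ⟨W1 ∩ W2 ∩ (tsupport x0)ᶜ, (hW1.inter hW2).inter hO,
      fun z hz => ⟨⟨hKW1 hz, hKW2 hz⟩, hYO (K0.subset hz)⟩, ?_⟩
    set W := W1 ∩ W2 ∩ (tsupport x0)ᶜ with hW
    have hWo : IsOpen W := (hW1.inter hW2).inter hO
    have hWm : MeasurableSet (W \ Y) := hWo.measurableSet.diff hYc.isClosed.measurableSet
    have hsubY : W \ Y ⊆ Yᶜ := fun z hz => hz.2
    have ev1 : ∀ᶠ n in atTop, ∫ z in Yᶜ, en (fun w => φ n w - ψ w) z < ε / 8 :=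
      hen.eventually (gt_mem_nhds hε8)
    have ev2 : ∀ᶠ n in atTop, ∑' K : Cmp Y, (osc Y (φ n) K.1 - s K) ^ 2 < ε / 8 :=
      hosc.eventually (gt_mem_nhds hε8)
    have hEn : ∀ᶠ n in atTop, ∫ z in W \ Y, en (φ n) z ≤ ε / 2 := by
      filter_upwards [ev1] with n hn
      have hd1 := ae_diff hYo (hφ n).q.loc
      have hd2 := ae_diff hYo hψ
      have h1 : ∫ z in W \ Y, en ψ z ≤ ε / 8 := by
        have h2 := hE W (fun z hz => hz.1.1) hWo.measurableSet
        refine le_trans (le_of_eq ?_) h2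
        refine setIntegral_congr_fun hWm fun z _ => ?_
        rw [abs_of_nonneg (en_nonneg _ _)]
      have h3 : ∫ z in W \ Y, en (fun w => φ n w - ψ w) z ≤ ε / 8 :=
        (setIntegral_mono_set (heni n) (Eventually.of_forall fun z => en_nonneg _ _)
          hsubY.eventuallyLE).trans hn.le
      have h4 : ∫ z in W \ Y, en (φ n) z ≤
          ∫ z in W \ Y, (2 * en ψ z + 2 * en (fun w => φ n w - ψ w) z) := by
        refine setIntegral_mono_ae_restrict ((hφ n).q.fin.mono_set hsubY)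
          (((hψe.mono_set hsubY).const_mul 2).add (((heni n).mono_set hsubY).const_mul 2)) ?_
        have hd1' := ae_restrict_of_ae_restrict_of_subset hsubY hd1
        have hd2' := ae_restrict_of_ae_restrict_of_subset hsubY hd2
        filter_upwards [hd1', hd2'] with z hz1 hz2
        exact en_le hz1 hz2
      rw [integral_add ((hψe.mono_set hsubY).const_mul 2) (((heni n).mono_set hsubY).const_mul 2),
        integral_const_mul, integral_const_mul] at h4
      linarith
    have hTn : ∀ᶠ n in atTop, ∑' K : Cmp Y, {K : Cmp Y | (K.1 ∩ W).Nonempty ∧ K ≠ K0}.indicator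
        (fun K => osc Y (φ n) K.1 ^ 2) K ≤ ε / 2 := by
      filter_upwards [ev2] with n hn
      have h1 : ∑' K : Cmp Y, {K : Cmp Y | (K.1 ∩ W).Nonempty ∧ K ≠ K0}.indicator
          (fun K => osc Y (φ n) K.1 ^ 2) K ≤
          ∑' K : Cmp Y, (2 * {K : Cmp Y | (K.1 ∩ W2).Nonempty ∧ K ≠ K0}.indicator
            (fun K => s K ^ 2) K + 2 * (osc Y (φ n) K.1 - s K) ^ 2) := by
        refine Summable.tsum_le_tsum (fun K => ?_) ((hφ n).sum.indicator _)
          (((hs.indicator _).mul_left 2).add ((hsd n).mul_left 2))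
        by_cases hK : K ∈ {K : Cmp Y | (K.1 ∩ W).Nonempty ∧ K ≠ K0}
        · have hK2 : K ∈ {K : Cmp Y | (K.1 ∩ W2).Nonempty ∧ K ≠ K0} := by
            obtain ⟨⟨z, hz, hzW⟩, hne⟩ := hK
            exact ⟨⟨z, hz, hzW.1.2⟩, hne⟩
          rw [indicator_of_mem hK, indicator_of_mem hK2]
          nlinarith [sq_nonneg (osc Y (φ n) K.1 - 2 * s K)]
        · rw [indicator_of_notMem hK]
          have h2 : 0 ≤ {K : Cmp Y | (K.1 ∩ W2).Nonempty ∧ K ≠ K0}.indicator
              (fun K => s K ^ 2) K := indicator_nonneg (fun _ _ => sq_nonneg _) _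
          positivity
      rw [Summable.tsum_add ((hs.indicator _).mul_left 2) ((hsd n).mul_left 2), tsum_mul_left,
        tsum_mul_left] at h1
      linarith
    filter_upwards [hEn, hTn] with m hm1 hm2
    filter_upwards [hEn, hTn] with n hn1 hn2
    intro F hF hFW hFK
    rw [ZZ_eq]
    refine (harea m n F hF).trans ?_
    refine (MU_le hYc.isClosed (hφ m).q.fin (hφ n).q.fin (hφ m).sum (hφ n).sum hWo hFW
      (fun z hz hzY => ?_) (fun z hz hzY => ?_) (hoscu m) (hoscu n) K0 hFK hm1 hn1 hm2 hn2).trans ?_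
    · refine en_congr ?_
      filter_upwards [hO.mem_nhds hz.2] with w hw
      show x0 w + φ m w = φ m w
      rw [hx00 w hw, zero_add]
    · refine en_congr ?_
      filter_upwards [hO.mem_nhds hz.2] with w hw
      show x0 w + φ n w = φ n w
      rw [hx00 w hw, zero_add]
    · refine ENNReal.ofReal_le_ofReal ?_
      linarith

end Crest.Agent.R105.Att3_790
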