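import Mathlib
import Crest.Agent.R105.Ends1_897

/-!
# Row 105, S0138, null-image frame: core of the attainment (helper823; 459 #9956 (ATT))

`am ap bm bp : ℂ → ℝ` are the lower and upper values at the component of each point.
* `slice` : a level continuum of `a` carries a long interval of values of `b`
* `area_lower` : lower bound of the area of the image
* `noCpt_level` : the levels of a switched function have no compact clopen piece
-/

set_option autoImplicit false

open MeasureTheory Set Filter Topology Metric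
open scoped NNReal ENNReal

namespace Crest.Agent.R105.NiA_823

open Crest.Agent.R105 Crest.Agent.R193.Planar

/-- no nonempty compact relatively open piece (`L ∪ {∞}` is connected) -/
def NoCpt (L : Set ℂ) : Prop := ∀ A ⊆ L, IsCompact A → IsClosed (L \ A) → A = ∅

/-- boundary bumping in an open set -/
theorem bump_open {W N : Set ℂ} (hW : IsOpen W) (hN : IsOpen N) {z : ℂ} (hz : z ∈ W)
    (hzN : z ∈ N) (h : ¬ connectedComponentIn W z ⊆ N) :
    ∃ (Q : Set ℂ) (q : ℂ), IsPreconnected Q ∧ z ∈ Q ∧ q ∈ Q ∧ q ∈ frontier N ∧ Q ⊆ W ∧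
      ∀ w ∈ Q, w ≠ q → w ∈ N := by
  set D := connectedComponentIn W z with hD
  have hDo : IsOpen D := hW.connectedComponentIn
  have hDc : IsPreconnected D := isPreconnected_connectedComponentIn
  have hzD : z ∈ D := mem_connectedComponentIn hz
  set Q0 := connectedComponentIn (D ∩ N) z with hQ0
  have hQo : IsOpen Q0 := (hDo.inter hN).connectedComponentIn
  have hQc : IsPreconnected Q0 := isPreconnected_connectedComponentIn
  have hzQ : z ∈ Q0 := mem_connectedComponentIn ⟨hzD, hzN⟩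
  have hQs : Q0 ⊆ D ∩ N := connectedComponentIn_subset _ _
  obtain ⟨q, hqQ, hqD, hqN⟩ : ∃ q, q ∈ closure Q0 ∧ q ∈ D ∧ q ∈ frontier N := by
    by_contra hcon
    push Not at hcon
    apply h
    have h1 : closure Q0 ∩ D ⊆ Q0 := by
      rintro y ⟨hy, hyD⟩
      have hyN : y ∈ N := by
        have h2 : y ∈ closure N := closure_mono (hQs.trans inter_subset_right) hy
        by_contra h3
        apply hcon y hy hyD
        rw [hN.frontier_eq]
        exact ⟨h2, h3⟩
      have h4 : IsPreconnected (insert y Q0) :=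
        hQc.subset_closure (subset_insert _ _) (insert_subset hy subset_closure)
      have h5 : insert y Q0 ⊆ D ∩ N := insert_subset ⟨hyD, hyN⟩ hQs
      exact h4.subset_connectedComponentIn (mem_insert_of_mem _ hzQ) h5 (mem_insert _ _)
    exact (hDc.subset_of_closure_inter_subset hQo ⟨z, hzD, hzQ⟩ h1).trans
      (hQs.trans inter_subset_right)
  refine ⟨insert q Q0, q, ?_, mem_insert_of_mem _ hzQ, mem_insert _ _, hqN, ?_, ?_⟩
  · exact hQc.subset_closure (subset_insert _ _) (insert_subset hqQ subset_closure)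
  · exact insert_subset (connectedComponentIn_subset _ _ hqD)
      (hQs.trans (inter_subset_left.trans (connectedComponentIn_subset _ _)))
  · intro w hw hwq
    rcases hw with rfl | hw
    · exact absurd rfl hwq
    · exact (hQs hw).2

/-- boundary bumping in a closed set without compact pieces -/
theorem bump_closed {L N : Set ℂ} (hL : IsClosed L) (hNL : NoCpt L) (hN : IsOpen N)
    (hNb : Bornology.IsBounded N) {q : ℂ} (hq : q ∈ L) (hqN : q ∈ N) :
    ∃ q' ∈ connectedComponentIn (L ∩ closure N) q, q' ∈ frontier N := by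
  have hX : IsCompact (L ∩ closure N) := (hNb.isCompact_closure).inter_left hL
  have hqX : q ∈ L ∩ closure N := ⟨hq, subset_closure hqN⟩
  by_contra hcon
  push Not at hcon
  have hK : connectedComponentIn (L ∩ closure N) q ⊆ N := by
    intro y hy
    have h1 := connectedComponentIn_subset _ _ hy
    by_contra h2
    apply hcon y hy
    rw [hN.frontier_eq]
    exact ⟨h1.2, h2⟩
  obtain ⟨B, hB, hXB, hBX, hKB, hBN⟩ := Ends_897.exists_clopen hX hqX hN hK
  have h3 : L \ B = ((L ∩ closure N) \ B) ∪ (L \ N) := by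
    ext y
    constructor
    · rintro ⟨h4, h5⟩
      by_cases h6 : y ∈ N
      · exact Or.inl ⟨⟨h4, subset_closure h6⟩, h5⟩
      · exact Or.inr ⟨h4, h6⟩
    · rintro (h4 | h4)
      · exact ⟨h4.1.1, h4.2⟩
      · exact ⟨h4.1, fun h5 => h4.2 (hBN h5)⟩
  have h4 : IsClosed (L \ B) := by
    rw [h3]
    exact hXB.isClosed.union (hL.sdiff hN)
  have h5 := hNL B (hBX.trans inter_subset_left) hB h4
  have h6 : q ∈ B := hKB (mem_connectedComponentIn hqX)
  rw [h5] at h6
  exact h6

/-- **Slice lemma.** -/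
theorem slice {am ap bm bp : ℂ → ℝ} (ham : LowerSemicontinuous am)
    (hap : UpperSemicontinuous ap) (hbm : LowerSemicontinuous bm) (hbp : UpperSemicontinuous bp)
    (ha : ∀ z, am z ≤ ap z) (hb : ∀ z, bm z ≤ bp z) {N : Set ℂ} (hN : IsOpen N)
    (hNb : Bornology.IsBounded N) {z0 : ℂ} (hz0 : z0 ∈ N) {t s1 s2 : ℝ}
    (haz : ap z0 < t) (hbz : s2 < bm z0) (hLt : NoCpt {z | am z ≤ t ∧ t ≤ ap z})
    (hD : ¬ connectedComponentIn {z | s2 < bm z} z0 ⊆ N)
    (hf1 : ∀ z ∈ frontier N, s2 < bm z → t < am z)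
    (hf2 : ∀ z ∈ frontier N, am z ≤ t → t ≤ ap z → bm z ≤ s1) :
    ∀ s ∈ Icc s1 s2, ∃ z ∈ closure N, am z ≤ t ∧ t ≤ ap z ∧ bm z ≤ s ∧ s ≤ bp z := by
  have hO1 : IsOpen {z | ap z < t} := hap.isOpen_preimage t
  have hO2 : IsOpen {z | t < am z} := ham.isOpen_preimage t
  have hW : IsOpen {z | s2 < bm z} := hbm.isOpen_preimage s2
  have hL : IsClosed {z | am z ≤ t ∧ t ≤ ap z} := by
    have : {z | am z ≤ t ∧ t ≤ ap z} = {z | t < am z}ᶜ ∩ {z | ap z < t}ᶜ := by
      ext z; simp
    rw [this]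
    exact hO2.isClosed_compl.inter hO1.isClosed_compl
  obtain ⟨Q, q1, hQc, hzQ, hq1Q, hq1N, hQW, hQN⟩ := bump_open hW hN hbz hz0 hD
  -- a point of `Q` on the level
  obtain ⟨q, hqQ, hqL⟩ : ∃ q ∈ Q, am q ≤ t ∧ t ≤ ap q := by
    by_contra hcon
    push Not at hcon
    have hcov : Q ⊆ {z | ap z < t} ∪ {z | t < am z} := by
      intro y hy
      by_cases h : am y ≤ t
      · exact Or.inl (hcon y hy h)
      · exact Or.inr (not_le.1 h)
    obtain ⟨y, -, hy1, hy2⟩ := hQc _ _ hO1 hO2 hcov ⟨z0, hzQ, haz⟩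
      ⟨q1, hq1Q, hf1 q1 hq1N (hQW hq1Q)⟩
    have h1 : ap y < t := hy1
    have h2 : t < am y := hy2
    linarith [ha y]
  have hqN : q ∈ N := by
    by_cases h : q = q1
    · subst h
      exact absurd (hf1 q hq1N (hQW hqQ)) (not_lt.2 hqL.1)
    · exact hQN q hqQ h
  obtain ⟨q', hq', hq'N⟩ := bump_closed hL hLt hN hNb hqL hqN
  set K := connectedComponentIn ({z | am z ≤ t ∧ t ≤ ap z} ∩ closure N) q with hK
  have hKs : K ⊆ {z | am z ≤ t ∧ t ≤ ap z} ∩ closure N := connectedComponentIn_subset _ _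
  have hqK : q ∈ K := mem_connectedComponentIn ⟨hqL, subset_closure hqN⟩
  intro s hs
  by_contra hcon
  push Not at hcon
  have hbo1 : IsOpen {z | bp z < s} := hbp.isOpen_preimage s
  have hbo2 : IsOpen {z | s < bm z} := hbm.isOpen_preimage s
  have hcov : K ⊆ {z | bp z < s} ∪ {z | s < bm z} := by
    intro y hy
    by_cases h : bm y ≤ s
    · exact Or.inl (hcon y (hKs hy).2 (hKs hy).1.1 (hKs hy).1.2 h)
    · exact Or.inr (not_le.1 h)
  have hq'L := (hKs hq').1
  have h1 : bm q' ≤ s := (hf2 q' hq'N hq'L.1 hq'L.2).trans hs.1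
  have h2 : q' ∈ {z | bp z < s} := by
    rcases hcov hq' with h | h
    · exact h
    · exact absurd h1 (not_le.2 h)
  have h3 : q ∈ {z | s < bm z} := lt_of_le_of_lt hs.2 (hQW hqQ)
  obtain ⟨y, hyK, hy1, hy2⟩ := (isPreconnected_connectedComponentIn :
    IsPreconnected K) _ _ hbo1 hbo2 hcov ⟨q', hq', h2⟩ ⟨q, hqK, h3⟩
  have h4 : bp y < s := hy1
  have h5 : s < bm y := hy2
  linarith [hb y]

/-- **Lower bound of the area.** -/
theorem area_lower {am ap bm bp : ℂ → ℝ} (ham : LowerSemicontinuous am)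
    (hap : UpperSemicontinuous ap) (hbm : LowerSemicontinuous bm) (hbp : UpperSemicontinuous bp)
    (ha : ∀ z, am z ≤ ap z) (hb : ∀ z, bm z ≤ bp z) {N : Set ℂ} (hN : IsOpen N)
    (hNb : Bornology.IsBounded N) {z0 : ℂ} (hz0 : z0 ∈ N) {β h δ : ℝ} (hδh : δ ≤ h)
    (haz : ap z0 ≤ β) (hbz : β + 2 * h ≤ bm z0)
    (hLt : ∀ t, β < t → t < β + h → NoCpt {z | am z ≤ t ∧ t ≤ ap z})
    (hD : ∀ s, β + h < s → s < β + 2 * h → ¬ connectedComponentIn {z | s < bm z} z0 ⊆ N)
    (hf : ∀ z ∈ frontier N, bm z ≤ am z + δ) :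
    ENNReal.ofReal (h - δ) * ENNReal.ofReal h ≤
      volume {p : ℝ × ℝ | (β < p.1 ∧ p.1 < β + h) ∧
        ∃ z ∈ closure N, am z ≤ p.1 ∧ p.1 ≤ ap z ∧ bm z ≤ p.2 ∧ p.2 ≤ bp z} := by
  set S : Set (ℝ × ℝ) := {p : ℝ × ℝ | (β < p.1 ∧ p.1 < β + h) ∧
        ∃ z ∈ closure N, am z ≤ p.1 ∧ p.1 ≤ ap z ∧ bm z ≤ p.2 ∧ p.2 ≤ bp z} with hS
  have key : ∀ t ∈ Ioo β (β + h), ∀ s ∈ Icc (t + δ) (t + h), (t, s) ∈ S := by
    intro t ht s hs
    obtain ⟨z, hz1, hz2⟩ := slice ham hap hbm hbp ha hb hN hNb hz0 (t := t) (s1 := t + δ)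
      (s2 := t + h) (lt_of_le_of_lt haz ht.1) (by linarith [ht.2]) (hLt t ht.1 ht.2)
      (hD (t + h) (by linarith [ht.1]) (by linarith [ht.2]))
      (fun z hz h1 => by linarith [hf z hz])
      (fun z hz h1 _ => by linarith [hf z hz]) s hs
    exact ⟨⟨ht.1, ht.2⟩, z, hz1, hz2⟩
  rw [← measure_toMeasurable S, Measure.volume_eq_prod,
    Measure.prod_apply (measurableSet_toMeasurable _ _)]
  calc ENNReal.ofReal (h - δ) * ENNReal.ofReal h
      = ∫⁻ _ in Ioo β (β + h), ENNReal.ofReal (h - δ) := by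
        rw [setLIntegral_const, Real.volume_Ioo]
        congr 2
        ring
    _ ≤ ∫⁻ t in Ioo β (β + h), volume (Prod.mk t ⁻¹' toMeasurable volume S) := by
        refine setLIntegral_mono' measurableSet_Ioo fun t ht => ?_
        have h1 : Icc (t + δ) (t + h) ⊆ Prod.mk t ⁻¹' toMeasurable volume S :=
          fun s hs => subset_toMeasurable _ _ (key t ht s hs)
        refine le_trans ?_ (measure_mono h1)
        rw [Real.volume_Icc]
        refine ENNReal.ofReal_le_ofReal ?_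
        linarith
    _ ≤ _ := setLIntegral_le_lintegral _ _

/-- the levels of a switched function have no compact relatively open piece -/
theorem noCpt_level {P Q : Set ℂ} (hP : IsClosed P) (hQ : IsClosed Q) (hPQ : P ∪ Q = univ)
    (hPc : IsPreconnected P) (hQc : IsPreconnected Q) (hub : ¬ IsCompact (P ∩ Q)) :
    NoCpt (P ∩ Q) := by
  intro A hA hAc hcl
  by_contra hne
  have hAne : A.Nonempty := nonempty_iff_ne_empty.2 hne
  set B := (P ∩ Q) \ A with hB
  have hBne : B.Nonempty := by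
    by_contra h
    rw [not_nonempty_iff_eq_empty] at h
    apply hub
    have : P ∩ Q = A := by
      refine subset_antisymm ?_ hA
      rw [← sdiff_eq_empty]; exact h
    rw [this]; exact hAc
  have hAB : A ∪ B = P ∩ Q := union_sdiff_cancel hA
  have hd : Disjoint A B := disjoint_sdiff_right
  classical
  set c : ℂ → ℝ := fun z => if z ∈ Q then 0 else 1 with hc
  have hQP : ∀ z, z ∉ Q → z ∈ P := fun z hz => by
    have : z ∈ P ∪ Q := by rw [hPQ]; trivial
    exact this.resolve_right hz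
  have hPQ' : ∀ z, z ∉ P → z ∈ Q := fun z hz => by
    have : z ∈ P ∪ Q := by rw [hPQ]; trivial
    exact this.resolve_left hz
  have hcl' : LCOff (A ∪ B) c := by
    rw [hAB]
    intro z hz
    by_cases hzQ : z ∈ Q
    · have hzP : z ∉ P := fun h => hz ⟨h, hzQ⟩
      filter_upwards [hP.isOpen_compl.mem_nhds hzP] with w hw
      simp only [hc]
      rw [if_pos (hPQ' w hw), if_pos hzQ]
    · filter_upwards [hQ.isOpen_compl.mem_nhds hzQ] with w hw
      simp only [hc]
      rw [if_neg hw, if_neg hzQ]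
  obtain ⟨c1, c2, h1, h2, hs⟩ := Ends_897.split_C hAc hcl hd hcl'
  have h2c : IsClosed B := hcl
  have h1c : IsClosed A := hAc.isClosed
  have key : ∀ (S : Set ℂ) (a : ℝ), IsPreconnected S → A ⊆ S → B ⊆ S →
      (∀ x ∈ S, x ∉ A ∪ B → c x = a) → ∀ x1 ∈ A, ∀ x2 ∈ B, c1 x2 = a - c2 x1 := by
    intro S a hS hS1 hS2 hSa x1 hx1 x2 hx2
    have hSp : PreconnectedSpace S := isPreconnected_iff_preconnectedSpace.1 hS
    set f : S → ℝ := fun z => if (z : ℂ) ∈ A then a - c2 z else c1 z with hf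
    have hfl : IsLocallyConstant f := by
      rw [IsLocallyConstant.iff_eventually_eq]
      rintro ⟨x, hxS⟩
      have hval : ∀ z : S, (z : ℂ) ∉ B → f z = a - c2 z := by
        intro z hz2
        by_cases hz1 : (z : ℂ) ∈ A
        · simp only [hf, if_pos hz1]
        · have h3 : (z : ℂ) ∉ A ∪ B := fun h => h.elim hz1 hz2
          have h4 := hs z h3
          rw [hSa z z.2 h3] at h4
          simp only [hf, if_neg hz1]
          linarith
      by_cases hx1 : x ∈ A
      · have hx2 : x ∉ B := fun h => disjoint_left.1 hd hx1 h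
        have ht : Tendsto (fun z : S => (z : ℂ)) (𝓝 ⟨x, hxS⟩) (𝓝 x) :=
          continuous_subtype_val.tendsto (⟨x, hxS⟩ : S)
        have h5 : ∀ᶠ z : S in 𝓝 ⟨x, hxS⟩, c2 (z : ℂ) = c2 x := ht.eventually (h2 x hx2)
        have h6 : ∀ᶠ z : S in 𝓝 ⟨x, hxS⟩, (z : ℂ) ∉ B :=
          ht.eventually (h2c.isOpen_compl.mem_nhds hx2)
        filter_upwards [h5, h6] with z hz hz2
        rw [hval z hz2, hval ⟨x, hxS⟩ hx2, hz]
      · have ht : Tendsto (fun z : S => (z : ℂ)) (𝓝 ⟨x, hxS⟩) (𝓝 x) :=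
          continuous_subtype_val.tendsto (⟨x, hxS⟩ : S)
        have h5 : ∀ᶠ z : S in 𝓝 ⟨x, hxS⟩, c1 (z : ℂ) = c1 x := ht.eventually (h1 x hx1)
        have h6 : ∀ᶠ z : S in 𝓝 ⟨x, hxS⟩, (z : ℂ) ∉ A :=
          ht.eventually (h1c.isOpen_compl.mem_nhds hx1)
        filter_upwards [h5, h6] with z hz hz1
        simp only [hf, if_neg hz1, if_neg hx1, hz]
    have h7 := hfl.apply_eq_of_isPreconnected isPreconnected_univ (x := ⟨x2, hS2 hx2⟩)
      (y := ⟨x1, hS1 hx1⟩) (mem_univ _) (mem_univ _)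
    have hx21 : x2 ∉ A := fun h => disjoint_left.1 hd h hx2
    simp only [hf, if_pos hx1, if_neg hx21] at h7
    exact h7
  obtain ⟨x1, hx1⟩ := hAne
  obtain ⟨x2, hx2⟩ := hBne
  have e1 := key P 1 hPc (hA.trans inter_subset_left) (sdiff_subset.trans inter_subset_left)
    (fun x hx hxK => by
      have : x ∉ Q := fun h => hxK (by rw [hAB]; exact ⟨hx, h⟩)
      simp only [hc, if_neg this]) x1 hx1 x2 hx2
  have e2 := key Q 0 hQc (hA.trans inter_subset_right) (sdiff_subset.trans inter_subset_right)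
    (fun x hx _ => by simp only [hc, if_pos hx]) x1 hx1 x2 hx2
  linarith

end Crest.Agent.R105.NiA_823
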