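import Mathlib

/-!
# R105, planar topology leaf T1 (helper12), part 1: components, clopen pieces, thin neighbourhoods

* `isCompact_cc`          : components of compact sets are compact (T2);
* `exists_clopen`         : a component of a compact set has arbitrarily small relatively clopen nbhds;
* `thin_nhd`              : open nbhds of a component with frontier off the compact set;
* `isPreconnected_compl_cc` (Kuratowski): in a preconnected space, the complement of a component
  of the complement of a preconnected nonempty set is preconnected.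
-/

namespace Crest.Agent.R105.Thin_12

open Set Topology

section general

variable {X : Type*} [TopologicalSpace X]

theorem isClosed_cc {K : Set X} (hK : IsClosed K) (x : X) :
    IsClosed (connectedComponentIn K x) := by
  by_cases hx : x ∈ K
  · apply isClosed_of_closure_subset
    apply isPreconnected_connectedComponentIn.closure.subset_connectedComponentIn
    · exact subset_closure (mem_connectedComponentIn hx)
    · exact closure_minimal (connectedComponentIn_subset _ _) hK
  · rw [connectedComponentIn_eq_empty hx]; exact isClosed_empty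

theorem isCompact_cc {K : Set X} (hK : IsCompact K) (x : X) :
    IsCompact (connectedComponentIn K x) := by
  by_cases hx : x ∈ K
  · have : CompactSpace K := isCompact_iff_compactSpace.mp hK
    rw [connectedComponentIn_eq_image hx]
    exact (isClosed_connectedComponent.isCompact).image continuous_subtype_val
  · rw [connectedComponentIn_eq_empty hx]; exact isCompact_empty

/-- A component of a compact (Hausdorff) set has arbitrarily small relatively clopen
neighbourhoods in the set. -/
theorem exists_clopen [T2Space X] {K : Set X} (hK : IsCompact K) {x : X} (hx : x ∈ K)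
    {W : Set X} (hW : IsOpen W) (hC : connectedComponentIn K x ⊆ W) :
    ∃ K₁, IsCompact K₁ ∧ IsCompact (K \ K₁) ∧ K₁ ⊆ K ∧ connectedComponentIn K x ⊆ K₁ ∧
      K₁ ⊆ W := by
  have : CompactSpace K := isCompact_iff_compactSpace.mp hK
  set x' : K := ⟨x, hx⟩ with hx'
  rw [connectedComponentIn_eq_image hx] at hC ⊢
  have hC' : connectedComponent x' ⊆ (Subtype.val ⁻¹' W : Set K) := by
    intro y hy
    exact hC ⟨y, hy, rfl⟩
  have hWo : IsOpen (Subtype.val ⁻¹' W : Set K) := hW.preimage continuous_subtype_val
  rw [connectedComponent_eq_iInter_isClopen] at hC'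
  have : Nonempty { s : Set K // IsClopen s ∧ x' ∈ s } := ⟨⟨univ, isClopen_univ, mem_univ _⟩⟩
  obtain ⟨⟨Z, hZc, hxZ⟩, hZ⟩ := exists_subset_nhds_of_compactSpace
    (V := fun s : { s : Set K // IsClopen s ∧ x' ∈ s } => (s : Set K))
    (by
      rintro ⟨s, hs, hxs⟩ ⟨t, ht, hxt⟩
      refine ⟨⟨s ∩ t, hs.inter ht, ⟨hxs, hxt⟩⟩, ?_, ?_⟩
      · exact inter_subset_left
      · exact inter_subset_right)
    (fun s => s.2.1.isClosed) (U := (Subtype.val ⁻¹' W : Set K))
    (fun y hy => hWo.mem_nhds (hC' hy))
  refine ⟨Subtype.val '' Z, ?_, ?_, ?_, ?_, ?_⟩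
  · exact hZc.isClosed.isCompact.image continuous_subtype_val
  · have : K \ (Subtype.val '' Z) = Subtype.val '' Zᶜ := by
      ext y
      constructor
      · rintro ⟨hy, hyZ⟩
        exact ⟨⟨y, hy⟩, fun h => hyZ ⟨_, h, rfl⟩, rfl⟩
      · rintro ⟨y, hy, rfl⟩
        refine ⟨y.2, ?_⟩
        rintro ⟨y', hy', h⟩
        exact hy (by rwa [Subtype.val_injective h] at hy')
    rw [this]
    exact hZc.compl.isClosed.isCompact.image continuous_subtype_val
  · rintro _ ⟨y, _, rfl⟩
    exact y.2
  · apply image_mono
    exact hZc.connectedComponent_subset hxZ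
  · rintro _ ⟨y, hy, rfl⟩
    exact hZ hy

/-- thin neighbourhoods of a component, with frontier off the compact set. -/
theorem thin_nhd [T2Space X] [LocallyCompactSpace X] {K : Set X} (hK : IsCompact K) {x : X}
    (hx : x ∈ K) {W : Set X} (hW : IsOpen W) (hC : connectedComponentIn K x ⊆ W) :
    ∃ N, IsOpen N ∧ connectedComponentIn K x ⊆ N ∧ closure N ⊆ W ∧ IsCompact (closure N) ∧
      Disjoint (frontier N) K := by
  obtain ⟨K₁, h1, h2, h1K, hCK, hKW⟩ := exists_clopen hK hx hW hC
  obtain ⟨N, hNo, hN, hcN, hNc⟩ := exists_open_between_and_isCompact_closure h1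
    (U := W ∩ (K \ K₁)ᶜ) (hW.inter h2.isClosed.isOpen_compl)
    (fun y hy => ⟨hKW hy, fun h => h.2 hy⟩)
  refine ⟨N, hNo, hCK.trans hN, fun y hy => (hcN hy).1, hNc, ?_⟩
  rw [Set.disjoint_left]
  intro y hy hyK
  by_cases h : y ∈ K₁
  · rw [hNo.frontier_eq] at hy
    exact hy.2 (hN h)
  · exact (hcN (frontier_subset_closure hy)).2 ⟨hyK, h⟩

/-- Kuratowski: if `X` is preconnected, `A` preconnected and nonempty, then the complement of every
component of `Aᶜ` is preconnected. -/
theorem isPreconnected_compl_cc [PreconnectedSpace X] {A : Set X} (hA : IsPreconnected A)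
    (x : X) : IsPreconnected (connectedComponentIn Aᶜ x)ᶜ := by
  classical
  by_cases hxA : x ∈ Aᶜ
  swap
  · rw [connectedComponentIn_eq_empty hxA, compl_empty]
    exact isPreconnected_univ
  set C := connectedComponentIn Aᶜ x with hCdef
  have hCp : IsPreconnected C := isPreconnected_connectedComponentIn
  have hxC : x ∈ C := mem_connectedComponentIn hxA
  have hCA : C ⊆ Aᶜ := connectedComponentIn_subset _ _
  -- main claim
  have main : ∀ u v : Set X, IsOpen u → IsOpen v → Cᶜ ⊆ u ∪ v → (Cᶜ ∩ v).Nonempty →
      Cᶜ ∩ (u ∩ v) = ∅ → A ⊆ u → False := by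
    intro u v hu hv huv hvne hdis hAu
    obtain ⟨q, hqC, hqv⟩ := hvne
    have hAv : ∀ y ∈ A, y ∉ v := by
      intro y hy hyv
      have : y ∈ Cᶜ ∩ (u ∩ v) := ⟨fun h => hCA h hy, hAu hy, hyv⟩
      rw [hdis] at this
      exact this
    have hD : IsPreconnected (C ∪ (Cᶜ ∩ v)) := by
      intro m n hm hn hmn hmne hnne
      by_contra hcon
      rw [Set.not_nonempty_iff_eq_empty] at hcon
      -- symmetric sub-claim
      have sub : ∀ m n : Set X, IsOpen m → IsOpen n → C ∪ (Cᶜ ∩ v) ⊆ m ∪ n →
          ((C ∪ (Cᶜ ∩ v)) ∩ m).Nonempty → ((C ∪ (Cᶜ ∩ v)) ∩ n).Nonempty →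
          (C ∪ (Cᶜ ∩ v)) ∩ (m ∩ n) = ∅ → C ⊆ m → False := by
        intro m n hm hn hmn hmne hnne hcon hCm
        have hCn : ∀ y ∈ C, y ∉ n := by
          intro y hy hyn
          have : y ∈ (C ∪ (Cᶜ ∩ v)) ∩ (m ∩ n) := ⟨Or.inl hy, hCm hy, hyn⟩
          rw [hcon] at this
          exact this
        have hclopen : IsClopen (v ∩ n) := by
          refine ⟨?_, hv.inter hn⟩
          rw [← isOpen_compl_iff, isOpen_iff_mem_nhds]
          intro z hz
          by_cases hzC : z ∈ C
          · refine Filter.mem_of_superset (hm.mem_nhds (hCm hzC)) ?_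
            intro y hy hyvn
            have : y ∈ (C ∪ (Cᶜ ∩ v)) ∩ (m ∩ n) :=
              ⟨Or.inr ⟨fun h => hCn y h hyvn.2, hyvn.1⟩, hy, hyvn.2⟩
            rw [hcon] at this
            exact this
          · rcases huv hzC with hzu | hzv
            · refine Filter.mem_of_superset (hu.mem_nhds hzu) ?_
              intro y hy hyvn
              have : y ∈ Cᶜ ∩ (u ∩ v) := ⟨fun h => hCn y h hyvn.2, hy, hyvn.1⟩
              rw [hdis] at this
              exact this
            · have hzD : z ∈ C ∪ (Cᶜ ∩ v) := Or.inr ⟨hzC, hzv⟩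
              rcases hmn hzD with hzm | hzn
              · refine Filter.mem_of_superset (hm.mem_nhds hzm) ?_
                intro y hy hyvn
                have : y ∈ (C ∪ (Cᶜ ∩ v)) ∩ (m ∩ n) :=
                  ⟨Or.inr ⟨fun h => hCn y h hyvn.2, hyvn.1⟩, hy, hyvn.2⟩
                rw [hcon] at this
                exact this
              · exact absurd ⟨hzv, hzn⟩ hz
        rcases isClopen_iff.mp hclopen with h | h
        · obtain ⟨y, hyD, hyn⟩ := hnne
          rcases hyD with hyC | ⟨hyC, hyv⟩
          · exact hCn y hyC hyn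
          · have : y ∈ v ∩ n := ⟨hyv, hyn⟩
            rw [h] at this
            exact this
        · obtain ⟨y, hyD, hym⟩ := hmne
          have hyn : y ∈ v ∩ n := by rw [h]; exact mem_univ _
          have : y ∈ (C ∪ (Cᶜ ∩ v)) ∩ (m ∩ n) := ⟨hyD, hym, hyn.2⟩
          rw [hcon] at this
          exact this
      have hCmn : C ∩ (m ∩ n) = ∅ := by
        rw [← Set.subset_empty_iff, ← hcon]
        exact fun y hy => ⟨Or.inl hy.1, hy.2⟩
      rcases (isPreconnected_iff_subset_of_disjoint.mp hCp) m n hm hn
        (fun y hy => hmn (Or.inl hy)) hCmn with h | h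
      · exact sub m n hm hn hmn hmne hnne hcon h
      · refine sub n m hn hm ?_ hnne hmne ?_ h
        · rwa [union_comm n m]
        · rwa [inter_comm n m]
    have hsub : C ∪ (Cᶜ ∩ v) ⊆ C := by
      apply hD.subset_connectedComponentIn (Or.inl hxC)
      rintro y (hy | ⟨_, hy⟩)
      · exact hCA hy
      · exact fun h => hAv y h hy
    exact hqC (hsub (Or.inr ⟨hqC, hqv⟩))
  intro u v hu hv huv hune hvne
  by_contra hcon
  rw [Set.not_nonempty_iff_eq_empty] at hcon
  have hAC : A ⊆ Cᶜ := fun y hy h => hCA h hy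
  have hAuv : A ∩ (u ∩ v) = ∅ := by
    rw [← Set.subset_empty_iff, ← hcon]
    exact fun y hy => ⟨hAC hy.1, hy.2⟩
  rcases (isPreconnected_iff_subset_of_disjoint.mp hA) u v hu hv (hAC.trans huv) hAuv with h | h
  · exact main u v hu hv huv hvne hcon h
  · refine main v u hv hu ?_ hune ?_ h
    · rwa [union_comm v u]
    · rwa [inter_comm v u]

end general

end Crest.Agent.R105.Thin_12
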