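import Mathlib

/-! Row 105 (S0138): unicoherence of the plane without quotients, boundary bumping.
`NoIsland S` = no nonempty compact relatively open piece (for closed `S`: `S ∪ {∞}` connected). -/

set_option autoImplicit false
noncomputable section
open Set Metric Topology Filter

namespace Crest.Agent.R105.Uni_659

/-- no nonempty compact relatively open piece. -/
def NoIsland (S : Set ℂ) : Prop :=
  ∀ F ⊆ S, F.Nonempty → IsCompact F → (∃ O : Set ℂ, IsOpen O ∧ O ∩ S = F) → False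

theorem exists_lift (f : C(ℂ, AddCircle (1:ℝ))) :
    ∃ F : C(ℂ, ℝ), ∀ a, ((F a : ℝ) : AddCircle (1:ℝ)) = f a := by
  obtain ⟨e₀, he₀⟩ := QuotientAddGroup.mk_surjective (f 0)
  obtain ⟨F, ⟨_, hF⟩, _⟩ :=
    (AddCircle.isCoveringMap_coe (1:ℝ)).existsUnique_continuousMap_lifts f 0 e₀ he₀
  exact ⟨F, fun a => congrFun hF a⟩

theorem exists_int_of_coe_eq {x y : ℝ}
    (h : (x : AddCircle (1:ℝ)) = (y : AddCircle (1:ℝ))) : ∃ n : ℤ, x = y + n := by
  have h2 := (QuotientAddGroup.eq (s := AddSubgroup.zmultiples (1:ℝ)) (a := x) (b := y)).1 h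
  obtain ⟨n, hn⟩ := AddSubgroup.mem_zmultiples_iff.1 h2
  refine ⟨-n, ?_⟩
  simp only [zsmul_eq_mul, mul_one] at hn
  push_cast
  linarith

theorem preconnected_far (R : ℝ) : IsPreconnected {z : ℂ | R ≤ ‖z‖} := by
  have h : {z : ℂ | R ≤ ‖z‖} =
      (fun p : ℝ × ℝ => (p.1 : ℂ) * Complex.exp (p.2 * Complex.I)) '' (Ici R ×ˢ univ) := by
    ext z
    constructor
    · intro hz
      exact ⟨(‖z‖, Complex.arg z), ⟨hz, mem_univ _⟩, by simp⟩
    · rintro ⟨p, ⟨hp, -⟩, rfl⟩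
      have h1 : R ≤ p.1 := hp
      simp only [mem_ofPred_eq, norm_mul, Complex.norm_real, Complex.norm_exp_ofReal_mul_I, mul_one,
        Real.norm_eq_abs]
      exact h1.trans (le_abs_self _)
  rw [h]
  apply ((isPreconnected_Ici).prod isPreconnected_univ).image
  exact Continuous.continuousOn (by fun_prop)

theorem int_const {S : Set ℂ} (hS : IsPreconnected S) {θ : ℂ → ℝ} (hθ : ContinuousOn θ S)
    (hi : ∀ z ∈ S, ∃ n : ℤ, θ z = n) {z w : ℂ} (hz : z ∈ S) (hw : w ∈ S) : θ z = θ w := by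
  by_contra hne
  have key : ∀ a ∈ S, ∀ b ∈ S, θ a < θ b → False := by
    intro a ha b hb hab
    obtain ⟨m, hm⟩ := hi a ha
    obtain ⟨n, hn⟩ := hi b hb
    have hmn : m < n := by
      have : (m:ℝ) < n := by rw [← hm, ← hn]; exact hab
      exact_mod_cast this
    have hmn' : (m:ℝ) + 1 ≤ n := by exact_mod_cast hmn
    have hmem : (m:ℝ) + 1/2 ∈ Icc (θ a) (θ b) := by
      rw [hm, hn]; constructor <;> linarith
    obtain ⟨c, hc, hc2⟩ := hS.intermediate_value ha hb hθ hmem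
    obtain ⟨k, hk⟩ := hi c hc
    rw [hk] at hc2
    have h2 : (2:ℝ) * k = 2 * m + 1 := by linarith
    have h3 : (2:ℤ) * k = 2 * m + 1 := by exact_mod_cast h2
    omega
  rcases lt_or_gt_of_ne hne with h | h
  · exact key z hz w hw h
  · exact key w hw z hz h

/-- one half of the lifting argument. -/
theorem half_step {A : Set ℂ} (hA : IsClosed A) (hI : NoIsland A) {θ g : ℂ → ℝ}
    (hθ : Continuous θ) (hg : Continuous g) (hi : ∀ z ∈ A, ∃ n : ℤ, θ z = g z + n) {R : ℝ}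
    (hfar : ∀ z, R ≤ ‖z‖ → θ z = g z) : ∀ z ∈ A, θ z = g z := by
  intro z hz
  by_contra hne
  have hO : IsOpen {w : ℂ | (1/2 : ℝ) < |θ w - g w|} :=
    isOpen_lt continuous_const (by fun_prop)
  have hC : IsClosed {w : ℂ | (1/2 : ℝ) ≤ |θ w - g w|} :=
    isClosed_le continuous_const (by fun_prop)
  have hbig : ∀ w ∈ A, θ w ≠ g w → (1:ℝ) ≤ |θ w - g w| := by
    intro w hw hne
    obtain ⟨n, hn⟩ := hi w hw
    have hn0 : n ≠ 0 := by
      rintro rfl
      apply hne; simpa using hn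
    have : θ w - g w = n := by rw [hn]; ring
    rw [this]
    exact_mod_cast Int.one_le_abs hn0
  have hz2 : (1/2 : ℝ) < |θ z - g z| := lt_of_lt_of_le (by norm_num) (hbig z hz hne)
  refine hI ({w : ℂ | (1/2 : ℝ) < |θ w - g w|} ∩ A) inter_subset_right ⟨z, hz2, hz⟩ ?_
    ⟨_, hO, rfl⟩
  have heq : {w : ℂ | (1/2 : ℝ) < |θ w - g w|} ∩ A = {w : ℂ | (1/2 : ℝ) ≤ |θ w - g w|} ∩ A := by
    ext w
    constructor
    · rintro ⟨h1, h2⟩
      have h1' : (1/2 : ℝ) < |θ w - g w| := h1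
      exact ⟨h1'.le, h2⟩
    · rintro ⟨h1, h2⟩
      refine ⟨?_, h2⟩
      have h1' : (1/2 : ℝ) ≤ |θ w - g w| := h1
      have : θ w ≠ g w := by
        intro h; rw [h, sub_self, abs_zero] at h1'; norm_num at h1'
      exact lt_of_lt_of_le (by norm_num) (hbig w h2 this)
  rw [heq]
  apply IsCompact.of_isClosed_subset (isCompact_closedBall (0:ℂ) R) (hC.inter hA)
  rintro w ⟨h1, -⟩
  by_contra hw
  rw [mem_closedBall, dist_zero_right, not_le] at hw
  have h1' : (1/2 : ℝ) ≤ |θ w - g w| := h1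
  rw [hfar w hw.le, sub_self, abs_zero] at h1'
  norm_num at h1'

/-- **UNICOHERENCE OF THE PLANE**. -/
theorem noIsland_inter {A B : Set ℂ} (hA : IsClosed A) (hB : IsClosed B) (hU : A ∪ B = univ)
    (hIA : NoIsland A) (hIB : NoIsland B) : NoIsland (A ∩ B) := by
  rintro F hF hne hFc ⟨O, hO, hOF⟩
  obtain ⟨R, hR0, hR⟩ : ∃ R : ℝ, 0 ≤ R ∧ F ⊆ ball (0:ℂ) R := by
    obtain ⟨R, hR⟩ := hFc.isBounded.subset_ball (0:ℂ)
    exact ⟨max R 0, le_max_right _ _, hR.trans (ball_subset_ball (le_max_left _ _))⟩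
  have hcl : IsClosed (((A ∩ B) \ O) ∪ (ball (0:ℂ) R)ᶜ) :=
    ((hA.inter hB).sdiff hO).union isOpen_ball.isClosed_compl
  have hdis : Disjoint (((A ∩ B) \ O) ∪ (ball (0:ℂ) R)ᶜ) F := by
    rw [Set.disjoint_left]
    rintro z (⟨-, h2⟩ | h2) h3
    · rw [← hOF] at h3; exact h2 h3.1
    · exact h2 (hR h3)
  obtain ⟨φ, h0, h1, -⟩ := exists_continuous_zero_one_of_isClosed hcl hFc.isClosed hdis
  classical
  let f : ℂ → AddCircle (1:ℝ) := fun z =>
    if z ∈ A then ((φ z / 2 : ℝ) : AddCircle (1:ℝ)) else ((-(φ z) / 2 : ℝ) : AddCircle (1:ℝ))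
  have hfA : ∀ z ∈ A, f z = ((φ z / 2 : ℝ) : AddCircle (1:ℝ)) := fun z hz => if_pos hz
  have hfB : ∀ z ∈ B, f z = ((-(φ z) / 2 : ℝ) : AddCircle (1:ℝ)) := by
    intro z hz
    by_cases hzA : z ∈ A
    · rw [hfA z hzA]
      by_cases hzO : z ∈ O
      · have hzF : z ∈ F := by rw [← hOF]; exact ⟨hzO, hzA, hz⟩
        have h1z : φ z = 1 := h1 hzF
        rw [h1z]
        have h3 : ((-(1:ℝ)/2 : ℝ) : AddCircle (1:ℝ)) = ((-(1:ℝ)/2 + 1 : ℝ) : AddCircle (1:ℝ)) := by
          rw [AddCircle.coe_add, AddCircle.coe_period, add_zero]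
        rw [h3]
        norm_num
      · have h0z : φ z = 0 := h0 (Or.inl ⟨⟨hzA, hz⟩, hzO⟩)
        rw [h0z]; norm_num
    · exact if_neg hzA
  have hmk : Continuous (fun x : ℝ => (x : AddCircle (1:ℝ))) := AddCircle.continuous_mk' (1:ℝ)
  have hfc : Continuous f := by
    rw [← continuousOn_univ, ← hU]
    apply ContinuousOn.union_of_isClosed _ _ hA hB
    · apply ContinuousOn.congr (f := fun z => ((φ z / 2 : ℝ) : AddCircle (1:ℝ))) _ hfA
      exact (hmk.comp (by fun_prop : Continuous fun z => φ z / 2)).continuousOn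
    · apply ContinuousOn.congr (f := fun z => ((-(φ z) / 2 : ℝ) : AddCircle (1:ℝ))) _ hfB
      exact (hmk.comp (by fun_prop : Continuous fun z => -(φ z) / 2)).continuousOn
  obtain ⟨θ, hθ⟩ := exists_lift ⟨f, hfc⟩
  simp only [ContinuousMap.coe_mk] at hθ
  have hfar0 : ∀ z : ℂ, R ≤ ‖z‖ → φ z = 0 := fun z hz => h0 (Or.inr (by simpa using hz))
  have hint : ∀ z : ℂ, R ≤ ‖z‖ → ∃ n : ℤ, θ z = n := by
    intro z hz
    have h2 : ((θ z : ℝ) : AddCircle (1:ℝ)) = ((0:ℝ) : AddCircle (1:ℝ)) := by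
      rw [hθ z]
      rcases (hU ▸ mem_univ z : z ∈ A ∪ B) with h | h
      · rw [hfA z h, hfar0 z hz]; norm_num
      · rw [hfB z h, hfar0 z hz]; norm_num
    obtain ⟨n, hn⟩ := exists_int_of_coe_eq h2
    exact ⟨n, by simpa using hn⟩
  have hRR : R ≤ ‖((R:ℝ):ℂ)‖ := by
    rw [Complex.norm_real, Real.norm_eq_abs]; exact le_abs_self _
  obtain ⟨k, hk⟩ := hint _ hRR
  have hconst : ∀ z : ℂ, R ≤ ‖z‖ → θ z = k := by
    intro z hz
    rw [← hk]
    exact int_const (preconnected_far R) θ.continuous.continuousOn (fun w hw => hint w hw) hz hRR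
  have hA1 : ∀ z ∈ A, θ z - k = φ z / 2 := by
    apply half_step hA hIA (θ := fun z => θ z - k) (g := fun z => φ z / 2) (by fun_prop)
      (by fun_prop) _ (R := R)
    · intro z hz; simp only [hconst z hz, hfar0 z hz]; norm_num
    · intro z hz
      obtain ⟨n, hn⟩ := exists_int_of_coe_eq ((hθ z).trans (hfA z hz))
      exact ⟨n - k, by push_cast; linarith⟩
  have hB1 : ∀ z ∈ B, θ z - k = -(φ z) / 2 := by
    apply half_step hB hIB (θ := fun z => θ z - k) (g := fun z => -(φ z) / 2) (by fun_prop)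
      (by fun_prop) _ (R := R)
    · intro z hz; simp only [hconst z hz, hfar0 z hz]; norm_num
    · intro z hz
      obtain ⟨n, hn⟩ := exists_int_of_coe_eq ((hθ z).trans (hfB z hz))
      exact ⟨n - k, by push_cast; linarith⟩
  obtain ⟨z, hz⟩ := hne
  have e1 := hA1 z (hF hz).1
  have e2 := hB1 z (hF hz).2
  have e3 : φ z = 1 := h1 hz
  rw [e3] at e1 e2
  linarith

end Crest.Agent.R105.Uni_659
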