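import Mathlib
import Crest.Agent.R105.Thin1_12
import Crest.Agent.R105.Uni1_659

/-! Row 105 (S0138, NI-3): boundary bumping, level sets of switched functions, interval valued
images, density of `C ∩ Eᶜ`. -/

set_option autoImplicit false
noncomputable section
open Set Metric Topology Filter

namespace Crest.Agent.R105.Uni_659

/-- a connected set that meets `O` and is not inside `O` meets the frontier. -/
theorem meets_frontier {X : Type*} [TopologicalSpace X] {C O : Set X} (hC : IsPreconnected C)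
    {z : X} (hz : z ∈ C) (hzO : z ∈ O) (hn : ¬ C ⊆ O) : (C ∩ frontier O).Nonempty := by
  by_contra hne
  rw [not_nonempty_iff_eq_empty] at hne
  have hcov : C ⊆ interior O ∪ (closure O)ᶜ := by
    intro w hw
    by_cases h1 : w ∈ interior O
    · exact Or.inl h1
    · right
      intro h2
      have : w ∈ C ∩ frontier O := ⟨hw, h2, h1⟩
      rw [hne] at this; exact this
  obtain ⟨w, hw, hwO⟩ := Set.not_subset.1 hn
  have hzi : z ∈ interior O := by
    rcases hcov hz with h | h
    · exact h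
    · exact absurd (subset_closure hzO) h
  have hwc : w ∈ (closure O)ᶜ := by
    rcases hcov hw with h | h
    · exact absurd (interior_subset h) hwO
    · exact h
  obtain ⟨v, -, hv1, hv2⟩ := hC _ _ isOpen_interior isClosed_closure.isOpen_compl hcov
    ⟨z, hz, hzi⟩ ⟨w, hw, hwc⟩
  exact hv2 (subset_closure (interior_subset hv1))

/-- **BOUNDARY BUMPING**: in a closed set without islands every component of `S ∩ N` (`N` compact)
meets the frontier of `N`. -/
theorem comp_meets {S N : Set ℂ} (hS : IsClosed S) (h : NoIsland S) (hN : IsCompact N) {q : ℂ}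
    (hq : q ∈ S) (hqN : q ∈ N) : (connectedComponentIn (S ∩ N) q ∩ frontier N).Nonempty := by
  by_contra hne
  rw [not_nonempty_iff_eq_empty] at hne
  have hX : IsCompact (S ∩ N) := hN.inter_left hS
  have hCW : connectedComponentIn (S ∩ N) q ⊆ (frontier N)ᶜ := by
    intro z hz hz2
    have : z ∈ connectedComponentIn (S ∩ N) q ∩ frontier N := ⟨hz, hz2⟩
    rw [hne] at this; exact this
  obtain ⟨F, hF, hF', hFX, hCF, hFW⟩ :=
    Thin_12.exists_clopen hX ⟨hq, hqN⟩ isClosed_frontier.isOpen_compl hCW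
  refine h F (hFX.trans inter_subset_left) ⟨q, hCF (mem_connectedComponentIn ⟨hq, hqN⟩)⟩ hF
    ⟨interior N ∩ ((S ∩ N) \ F)ᶜ, isOpen_interior.inter hF'.isClosed.isOpen_compl, ?_⟩
  ext z
  constructor
  · rintro ⟨⟨h1, h2⟩, h3⟩
    by_contra h4
    exact h2 ⟨⟨h3, interior_subset h1⟩, h4⟩
  · intro hz
    refine ⟨⟨?_, fun h => h.2 hz⟩, (hFX hz).1⟩
    by_contra h5
    exact hFW hz ⟨subset_closure (hFX hz).2, h5⟩

/-- every point of a closed set without islands lies in continua of the set of size `r`, inside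
the ball of radius `r`. -/
theorem exists_continuum {S : Set ℂ} (hS : IsClosed S) (h : NoIsland S) {q : ℂ} (hq : q ∈ S)
    {r : ℝ} (hr : 0 < r) : ∃ C : Set ℂ, IsCompact C ∧ IsConnected C ∧ q ∈ C ∧ C ⊆ S ∧
      C ⊆ closedBall q r ∧ ∃ w ∈ C, dist w q = r := by
  have hqN : q ∈ closedBall q r := mem_closedBall_self hr.le
  obtain ⟨w, hw, hwf⟩ := comp_meets hS h (isCompact_closedBall q r) hq hqN
  refine ⟨connectedComponentIn (S ∩ closedBall q r) q,
    Thin_12.isCompact_cc ((isCompact_closedBall q r).inter_left hS) q,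
    isConnected_connectedComponentIn_iff.2 ⟨hq, hqN⟩, mem_connectedComponentIn ⟨hq, hqN⟩,
    (connectedComponentIn_subset _ _).trans inter_subset_left,
    (connectedComponentIn_subset _ _).trans inter_subset_right, w, hw, ?_⟩
  rw [frontier_closedBall q hr.ne'] at hwf
  exact mem_sphere.1 hwf

/-- the (upper, lower) saturated extension `up`, `um` of a function `u` on the open set `U`. -/
structure Ext (U : Set ℂ) (u up um : ℂ → ℝ) : Prop where
  openU : IsOpen U
  usc : UpperSemicontinuous up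
  lsc : LowerSemicontinuous um
  le : ∀ z, um z ≤ up z
  eqp : ∀ z ∈ U, up z = u z
  eqm : ∀ z ∈ U, um z = u z
  cstp : ∀ z ∉ U, ∀ w ∈ connectedComponentIn Uᶜ z, up w = up z
  cstm : ∀ z ∉ U, ∀ w ∈ connectedComponentIn Uᶜ z, um w = um z
  apprp : ∀ z ∉ U, ∀ s < up z, ∀ O : Set ℂ, IsOpen O → connectedComponentIn Uᶜ z ⊆ O →
    ∃ w ∈ O ∩ U, s < u w
  apprm : ∀ z ∉ U, ∀ s, um z < s → ∀ O : Set ℂ, IsOpen O → connectedComponentIn Uᶜ z ⊆ O →
    ∃ w ∈ O ∩ U, u w < s

/-- no bounded component of a superlevel set. -/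
def SwP (U : Set ℂ) (u : ℂ → ℝ) : Prop :=
  ∀ s, ∀ z ∈ U, s < u z → ¬ Bornology.IsBounded (connectedComponentIn {w | w ∈ U ∧ s < u w} z)

/-- no bounded component of a sublevel set. -/
def SwM (U : Set ℂ) (u : ℂ → ℝ) : Prop :=
  ∀ s, ∀ z ∈ U, u z < s → ¬ Bornology.IsBounded (connectedComponentIn {w | w ∈ U ∧ u w < s} z)

variable {U : Set ℂ} {u up um : ℂ → ℝ}

theorem Ext.neg (h : Ext U u up um) : Ext U (fun z => -u z) (fun z => -um z) (fun z => -up z) where
  openU := h.openU
  usc := fun z y hy => by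
    have := h.lsc z (-y) (by simp only at hy; linarith)
    filter_upwards [this] with w hw
    linarith
  lsc := fun z y hy => by
    have := h.usc z (-y) (by simp only at hy; linarith)
    filter_upwards [this] with w hw
    linarith
  le := fun z => neg_le_neg (h.le z)
  eqp := fun z hz => by simp only [h.eqm z hz]
  eqm := fun z hz => by simp only [h.eqp z hz]
  cstp := fun z hz w hw => by simp only [h.cstm z hz w hw]
  cstm := fun z hz w hw => by simp only [h.cstp z hz w hw]
  apprp := fun z hz s hs O hO hK => by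
    obtain ⟨w, hw, h2⟩ := h.apprm z hz (-s) (by linarith) O hO hK
    exact ⟨w, hw, by linarith⟩
  apprm := fun z hz s hs O hO hK => by
    obtain ⟨w, hw, h2⟩ := h.apprp z hz (-s) (by linarith) O hO hK
    exact ⟨w, hw, by linarith⟩

theorem SwM.neg (h : SwM U u) : SwP U (fun z => -u z) := by
  intro s z hz hs
  have h2 := h (-s) z hz (by linarith)
  have h3 : {w | w ∈ U ∧ s < -u w} = {w | w ∈ U ∧ u w < -s} := by
    ext w
    constructor
    · rintro ⟨h1, h2⟩; exact ⟨h1, by linarith⟩
    · rintro ⟨h1, h2⟩; exact ⟨h1, by linarith⟩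
  rw [h3]; exact h2

theorem Ext.isClosed_ge (h : Ext U u up um) (t : ℝ) : IsClosed {z | t ≤ up z} :=
  h.usc.isClosed_preimage t

theorem Ext.isClosed_le (h : Ext U u up um) (t : ℝ) : IsClosed {z | um z ≤ t} :=
  h.lsc.isClosed_preimage t

/-- superlevel sets of a switched function have no islands. -/
theorem Ext.noIsland_ge (h : Ext U u up um) (hs : SwP U u) (t : ℝ) :
    NoIsland {z | t ≤ up z} := by
  rintro F hFS hne hF ⟨O, hO, hOF⟩
  have hFO : F ⊆ O := by rw [← hOF]; exact inter_subset_left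
  obtain ⟨O', hO'o, hFO', hcO', hcc⟩ := exists_open_between_and_isCompact_closure hF hO hFO
  have hbd : IsCompact (frontier O') := hcc.of_isClosed_subset isClosed_frontier
    (frontier_subset_closure)
  have hfr : ∀ z ∈ frontier O', up z < t := by
    intro z hz
    by_contra hlt
    have hzO : z ∈ O := hcO' (frontier_subset_closure hz)
    have hzF : z ∈ F := by rw [← hOF]; exact ⟨hzO, not_lt.1 hlt⟩
    have h1 : z ∈ O' ∩ frontier O' := ⟨hFO' hzF, hz⟩
    rw [hO'o.inter_frontier_eq] at h1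
    exact h1
  obtain ⟨s, hst, hsf⟩ : ∃ s < t, ∀ z ∈ frontier O', up z ≤ s := by
    rcases (frontier O').eq_empty_or_nonempty with he | hn
    · exact ⟨t - 1, by linarith, by rw [he]; simp⟩
    · obtain ⟨a, ha, hmax⟩ := UpperSemicontinuousOn.exists_isMaxOn hn hbd
        (h.usc.upperSemicontinuousOn _)
      exact ⟨up a, hfr a ha, fun z hz => hmax hz⟩
  obtain ⟨z₀, hz₀⟩ := hne
  obtain ⟨w, hwO, hwU, hw⟩ : ∃ w, w ∈ O' ∧ w ∈ U ∧ s < u w := by
    by_cases hzU : z₀ ∈ U
    · refine ⟨z₀, hFO' hz₀, hzU, ?_⟩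
      rw [← h.eqp z₀ hzU]
      exact lt_of_lt_of_le hst (hFS hz₀)
    · have hK : connectedComponentIn Uᶜ z₀ ⊆ O' := by
        by_contra hcon
        obtain ⟨v, hv, hvf⟩ := meets_frontier isPreconnected_connectedComponentIn
          (mem_connectedComponentIn hzU) (hFO' hz₀) hcon
        have h1 := hsf v hvf
        rw [h.cstp z₀ hzU v hv] at h1
        have h2 : t ≤ up z₀ := hFS hz₀
        linarith
      obtain ⟨w, ⟨h1, h2⟩, h3⟩ := h.apprp z₀ hzU s (lt_of_lt_of_le hst (hFS hz₀)) O' hO'o hK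
      exact ⟨w, h1, h2, h3⟩
  have hunb := hs s w hwU hw
  have hnot : ¬ connectedComponentIn {w | w ∈ U ∧ s < u w} w ⊆ O' := by
    intro hcon
    exact hunb ((hcc.isBounded.subset subset_closure).subset hcon)
  obtain ⟨v, hv, hvf⟩ := meets_frontier isPreconnected_connectedComponentIn
    (mem_connectedComponentIn (show w ∈ {w | w ∈ U ∧ s < u w} from ⟨hwU, hw⟩)) hwO hnot
  have h1 := connectedComponentIn_subset _ _ hv
  have h2 := hsf v hvf
  rw [h.eqp v h1.1] at h2
  linarith [h1.2]

theorem Ext.noIsland_le (h : Ext U u up um) (hs : SwM U u) (t : ℝ) :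
    NoIsland {z | um z ≤ t} := by
  have h1 := h.neg.noIsland_ge hs.neg (-t)
  have h2 : {z | -t ≤ -um z} = {z | um z ≤ t} := by
    ext z
    constructor
    · intro h; have h' : -t ≤ -um z := h; show um z ≤ t; linarith
    · intro h; have h' : um z ≤ t := h; show -t ≤ -um z; linarith
  rw [h2] at h1
  exact h1

/-- the level set. -/
def Lv (up um : ℂ → ℝ) (t : ℝ) : Set ℂ := {z | um z ≤ t ∧ t ≤ up z}

theorem Lv_eq (t : ℝ) : Lv up um t = {z | t ≤ up z} ∩ {z | um z ≤ t} := by
  ext z; exact ⟨fun h => ⟨h.2, h.1⟩, fun h => ⟨h.2, h.1⟩⟩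

theorem Ext.isClosed_Lv (h : Ext U u up um) (t : ℝ) : IsClosed (Lv up um t) := by
  rw [Lv_eq]; exact (h.isClosed_ge t).inter (h.isClosed_le t)

/-- **THE LEVEL SETS OF A SWITCHED FUNCTION HAVE NO ISLANDS** (with `∞`: continua). -/
theorem Ext.noIsland_Lv (h : Ext U u up um) (hp : SwP U u) (hm : SwM U u) (t : ℝ) :
    NoIsland (Lv up um t) := by
  rw [Lv_eq]
  refine noIsland_inter (h.isClosed_ge t) (h.isClosed_le t) ?_ (h.noIsland_ge hp t)
    (h.noIsland_le hm t)
  ext z
  simp only [mem_union, mem_univ, iff_true]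
  by_cases h1 : t ≤ up z
  · exact Or.inl h1
  · exact Or.inr ((h.le z).trans (not_le.1 h1).le)

/-- **interval valued images of connected sets are intervals**. -/
theorem ordConnected_image {X : Type*} [TopologicalSpace X] {C : Set X} (hC : IsPreconnected C)
    {bm bp : X → ℝ} (hm : LowerSemicontinuous bm) (hp : UpperSemicontinuous bp)
    (hle : ∀ z, bm z ≤ bp z) : OrdConnected (⋃ z ∈ C, Icc (bm z) (bp z)) := by
  refine ⟨fun s hs s' hs' t ht => ?_⟩
  simp only [mem_iUnion] at hs hs' ⊢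
  obtain ⟨z₁, hz₁, h1⟩ := hs
  obtain ⟨z₂, hz₂, h2⟩ := hs'
  by_contra hcon
  push Not at hcon
  have hcov : C ⊆ {z | bp z < t} ∪ {z | t < bm z} := by
    intro z hz
    by_cases h3 : bp z < t
    · exact Or.inl h3
    · right
      by_contra h4
      exact hcon z hz ⟨not_lt.1 h4, not_lt.1 h3⟩
  have n1 : bp z₁ < t := by
    rcases hcov hz₁ with h | h
    · exact h
    · have h' : t < bm z₁ := h
      linarith [h1.1, ht.1]
  have n2 : t < bm z₂ := by
    rcases hcov hz₂ with h | h
    · have h' : bp z₂ < t := h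
      linarith [h2.2, ht.2]
    · exact h
  obtain ⟨v, -, hv1, hv2⟩ := hC _ _ (hp.isOpen_preimage t) (hm.isOpen_preimage t) hcov
    ⟨z₁, hz₁, n1⟩ ⟨z₂, hz₂, n2⟩
  have hv1' : bp v < t := hv1
  have hv2' : t < bm v := hv2
  linarith [hle v]

/-- **density**: a connected set through `z ∈ E`, not inside the component of `z`, meets `Eᶜ` in
every neighbourhood of the component. -/
theorem dense_out {E C O : Set ℂ} (hE : IsCompact E) (hC : IsPreconnected C) {z : ℂ} (hz : z ∈ C)
    (hzE : z ∈ E) (hn : ¬ C ⊆ connectedComponentIn E z) (hO : IsOpen O)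
    (hK : connectedComponentIn E z ⊆ O) : (C ∩ O ∩ Eᶜ).Nonempty := by
  obtain ⟨N, hNo, hKN, hcN, -, hfr⟩ := Thin_12.thin_nhd hE hzE hO hK
  by_cases hCN : C ⊆ N
  · by_contra hne
    rw [not_nonempty_iff_eq_empty] at hne
    apply hn
    apply hC.subset_connectedComponentIn hz
    intro w hw
    by_contra hwE
    have : w ∈ C ∩ O ∩ Eᶜ := ⟨⟨hw, hcN (subset_closure (hCN hw))⟩, hwE⟩
    rw [hne] at this; exact this
  · obtain ⟨v, hv, hvf⟩ := meets_frontier hC hz (hKN (mem_connectedComponentIn hzE)) hCN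
    exact ⟨v, ⟨hv, hcN (frontier_subset_closure hvf)⟩, fun hvE => Set.disjoint_left.1 hfr hvf hvE⟩

end Crest.Agent.R105.Uni_659
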