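import Crest.Agent.R105.Ni0_459
import Crest.Agent.R105.NiA1_823
import Crest.Agent.R105.Uni2_659

/-! Row 105 (S0138, NI frame, T1 of 459 #10219): levels of a switched function have no islands,
boundary bumping inside the saturated level sets `Lv Y u t`. -/

set_option autoImplicit false
noncomputable section
open Set Metric Topology Filter

namespace Crest.Agent.R105.Uni_659

open Crest.AnalysisR

variable {Y : Set ℂ} {u : ℂ → ℝ}

theorem NoIsland.noCpt {S : Set ℂ} (h : NoIsland S) : NiA_823.NoCpt S := by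
  intro A hA hAc hcl
  by_contra hne
  refine h A hA (nonempty_iff_ne_empty.2 hne) hAc ⟨(S \ A)ᶜ, hcl.isOpen_compl, ?_⟩
  ext z
  constructor
  · rintro ⟨h1, h2⟩
    by_contra h3
    exact h1 ⟨h2, h3⟩
  · intro hz
    exact ⟨fun h => h.2 hz, hA hz⟩

theorem lo_neg (z : ℂ) : Ni_459.lo Y (fun w => -u w) z = - Ni_459.up Y u z := by
  unfold Ni_459.lo
  simp only [neg_neg]

theorem up_neg (z : ℂ) : Ni_459.up Y (fun w => -u w) z = - Ni_459.lo Y u z := by
  unfold Ni_459.lo
  simp only [neg_neg]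

theorem Swd_neg (h : Ni_459.Swd Y u) : Ni_459.Swd Y (fun z => -u z) where
  gt := fun t z hz => by
    simp only [lo_neg] at hz ⊢
    have h1 := h.lt (-t) z (by linarith)
    have h2 : {w | t < -Ni_459.up Y u w} = {w | Ni_459.up Y u w < -t} := by
      ext w
      constructor
      · intro h; have h' : t < -Ni_459.up Y u w := h; show Ni_459.up Y u w < -t; linarith
      · intro h; have h' : Ni_459.up Y u w < -t := h; show t < -Ni_459.up Y u w; linarith
    rw [h2]; exact h1
  lt := fun t z hz => by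
    simp only [up_neg] at hz ⊢
    have h1 := h.gt (-t) z (by linarith)
    have h2 : {w | -Ni_459.lo Y u w < t} = {w | -t < Ni_459.lo Y u w} := by
      ext w
      constructor
      · intro h; have h' : -Ni_459.lo Y u w < t := h; show -t < Ni_459.lo Y u w; linarith
      · intro h; have h' : -t < Ni_459.lo Y u w := h; show -Ni_459.lo Y u w < t; linarith
    rw [h2]; exact h1

theorem continuousAt_of_lip (hY : IsExteriorDomain Yᶜ) (h : LocallyLipschitzOn Yᶜ u) {z : ℂ}
    (hz : z ∉ Y) : ContinuousAt u z :=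
  h.continuousOn.continuousAt ((Ni_459.cpt_of hY).isClosed.isOpen_compl.mem_nhds hz)

/-- superlevel sets of a switched function have no islands. -/
theorem noIsland_up (hY : IsExteriorDomain Yᶜ) (hu : Ni_459.LB u)
    (hc : ∀ z ∉ Y, ContinuousAt u z) (hs : Ni_459.Swd Y u) (t : ℝ) :
    NoIsland {z | t ≤ Ni_459.up Y u z} := by
  rintro F hFS hne hF ⟨O, hO, hOF⟩
  have husc := Ni_459.usc_up hY hu
  have hFO : F ⊆ O := by rw [← hOF]; exact inter_subset_left
  obtain ⟨O', hO'o, hFO', hcO', hcc⟩ := exists_open_between_and_isCompact_closure hF hO hFO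
  have hbd : IsCompact (frontier O') := hcc.of_isClosed_subset isClosed_frontier
    (frontier_subset_closure)
  have hfr : ∀ z ∈ frontier O', Ni_459.up Y u z < t := by
    intro z hz
    by_contra hlt
    have hzO : z ∈ O := hcO' (frontier_subset_closure hz)
    have hzF : z ∈ F := by rw [← hOF]; exact ⟨hzO, not_lt.1 hlt⟩
    have h1 : z ∈ O' ∩ frontier O' := ⟨hFO' hzF, hz⟩
    rw [hO'o.inter_frontier_eq] at h1
    exact h1
  obtain ⟨s, hst, hsf⟩ : ∃ s < t, ∀ z ∈ frontier O', Ni_459.up Y u z ≤ s := by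
    rcases (frontier O').eq_empty_or_nonempty with he | hn
    · exact ⟨t - 1, by linarith, by rw [he]; simp⟩
    · obtain ⟨a, ha, hmax⟩ := UpperSemicontinuousOn.exists_isMaxOn hn hbd
        (husc.upperSemicontinuousOn _)
      exact ⟨Ni_459.up Y u a, hfr a ha, fun z hz => hmax hz⟩
  obtain ⟨c, hsc, hct⟩ := exists_between hst
  obtain ⟨z₀, hz₀⟩ := hne
  have hz₀t : t ≤ Ni_459.up Y u z₀ := hFS hz₀
  obtain ⟨w, hwO, hw⟩ : ∃ w, w ∈ O' ∧ c < Ni_459.lo Y u w := by
    have hNb : Ni_459.Nb Y z₀ O' := by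
      by_cases hzY : z₀ ∈ Y
      · refine Ni_459.nb_of_mem hzY hO'o ?_
        by_contra hcon
        obtain ⟨v, hv, hvf⟩ := meets_frontier isPreconnected_connectedComponentIn
          (mem_connectedComponentIn hzY) (hFO' hz₀) hcon
        have h1 := hsf v hvf
        rw [Ni_459.up_congr_cc hzY hv] at h1
        linarith
      · exact Ni_459.nb_of_notMem hzY hO'o (hFO' hz₀)
    obtain ⟨w, h1, h2, h3⟩ := Ni_459.exists_of_lt_up hY hu
      (show c < Ni_459.up Y u z₀ by linarith) hNb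
    exact ⟨w, h1, by rw [Ni_459.lo_of_notMem hY hu h2 (hc w h2)]; exact h3⟩
  have hunb := hs.gt c w hw
  have hnot : ¬ connectedComponentIn {w | c < Ni_459.lo Y u w} w ⊆ O' := by
    intro hcon
    exact hunb ((hcc.isBounded.subset subset_closure).subset hcon)
  obtain ⟨v, hv, hvf⟩ := meets_frontier isPreconnected_connectedComponentIn
    (mem_connectedComponentIn (show w ∈ {w | c < Ni_459.lo Y u w} from hw)) hwO hnot
  have h0 : v ∈ {w | c < Ni_459.lo Y u w} := connectedComponentIn_subset _ _ hv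
  have h1 : c < Ni_459.lo Y u v := h0
  have h2 := hsf v hvf
  have h3 := Ni_459.lo_le_up hY hu v
  linarith

/-- sublevel sets of a switched function have no islands. -/
theorem noIsland_lo (hY : IsExteriorDomain Yᶜ) (hu : Ni_459.LB u)
    (hc : ∀ z ∉ Y, ContinuousAt u z) (hs : Ni_459.Swd Y u) (t : ℝ) :
    NoIsland {z | Ni_459.lo Y u z ≤ t} := by
  have h1 := noIsland_up hY hu.neg (fun z hz => (hc z hz).neg) (Swd_neg hs) (-t)
  have h2 : {z | -t ≤ Ni_459.up Y (fun w => -u w) z} = {z | Ni_459.lo Y u z ≤ t} := by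
    ext z
    simp only [up_neg]
    constructor
    · intro h; have h' : -t ≤ -Ni_459.lo Y u z := h; show Ni_459.lo Y u z ≤ t; linarith
    · intro h; have h' : Ni_459.lo Y u z ≤ t := h; show -t ≤ -Ni_459.lo Y u z; linarith
  rw [h2] at h1
  exact h1

theorem nLv_eq (t : ℝ) :
    Ni_459.Lv Y u t = {z | t ≤ Ni_459.up Y u z} ∩ {z | Ni_459.lo Y u z ≤ t} := by
  ext z; exact ⟨fun h => ⟨h.2, h.1⟩, fun h => ⟨h.2, h.1⟩⟩

theorem isClosed_nLv (hY : IsExteriorDomain Yᶜ) (hu : Ni_459.LB u) (t : ℝ) :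
    IsClosed (Ni_459.Lv Y u t) := by
  rw [nLv_eq]
  exact ((Ni_459.usc_up hY hu).isClosed_preimage t).inter
    ((Ni_459.lsc_lo hY hu).isClosed_preimage t)

/-- **LEVEL SETS OF A SWITCHED FUNCTION HAVE NO ISLANDS**. -/
theorem noIsland_nLv (hY : IsExteriorDomain Yᶜ) (hu : Ni_459.LB u)
    (hc : ∀ z ∉ Y, ContinuousAt u z) (hs : Ni_459.Swd Y u) (t : ℝ) :
    NoIsland (Ni_459.Lv Y u t) := by
  rw [nLv_eq]
  refine noIsland_inter ((Ni_459.usc_up hY hu).isClosed_preimage t)
    ((Ni_459.lsc_lo hY hu).isClosed_preimage t) ?_ (noIsland_up hY hu hc hs t)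
    (noIsland_lo hY hu hc hs t)
  ext z
  simp only [mem_union, mem_univ, iff_true]
  by_cases h1 : t ≤ Ni_459.up Y u z
  · exact Or.inl h1
  · exact Or.inr ((Ni_459.lo_le_up hY hu z).trans (not_le.1 h1).le)

theorem noCpt_nLv (hY : IsExteriorDomain Yᶜ) (hu : Ni_459.LB u)
    (hc : ∀ z ∉ Y, ContinuousAt u z) (hs : Ni_459.Swd Y u) (t : ℝ) :
    NiA_823.NoCpt {z | Ni_459.lo Y u z ≤ t ∧ t ≤ Ni_459.up Y u z} :=
  (noIsland_nLv hY hu hc hs t).noCpt

/-- saturation: with `frontier N` off `Y`, the components of `Lv ∩ closure N` are saturated. -/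
theorem cc_saturated {N : Set ℂ} {t : ℝ} (hN : IsOpen N) (hfN : frontier N ∩ Y = ∅) {z : ℂ} :
    ∀ w ∈ connectedComponentIn (Ni_459.Lv Y u t ∩ closure N) z,
      connectedComponentIn Y w ⊆ connectedComponentIn (Ni_459.Lv Y u t ∩ closure N) z := by
  intro w hw
  by_cases hwY : w ∈ Y
  · have hwL := connectedComponentIn_subset _ _ hw
    have hK1 : connectedComponentIn Y w ⊆ Ni_459.Lv Y u t := by
      intro v hv
      refine ⟨?_, ?_⟩
      · rw [Ni_459.lo_congr_cc hwY hv]; exact hwL.1.1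
      · rw [Ni_459.up_congr_cc hwY hv]; exact hwL.1.2
    have hwN : w ∈ N := by
      by_contra h
      have : w ∈ frontier N ∩ Y := ⟨⟨hwL.2, by rw [hN.interior_eq]; exact h⟩, hwY⟩
      rw [hfN] at this; exact this
    have hK2 : connectedComponentIn Y w ⊆ closure N := by
      by_contra hcon
      obtain ⟨v, hv, hvf⟩ := meets_frontier isPreconnected_connectedComponentIn
        (mem_connectedComponentIn hwY) hwN (fun h => hcon (h.trans subset_closure))
      have : v ∈ frontier N ∩ Y := ⟨hvf, connectedComponentIn_subset _ _ hv⟩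
      rw [hfN] at this; exact this
    rw [connectedComponentIn_eq hw]
    exact isPreconnected_connectedComponentIn.subset_connectedComponentIn
      (mem_connectedComponentIn hwY) (subset_inter hK1 hK2)
  · rw [connectedComponentIn_eq_empty hwY]
    exact empty_subset _

/-- **T1 (459 #10219): BOUNDARY BUMPING IN THE LEVELS OF A SWITCHED FUNCTION**, the continuum is a
component of `Lv ∩ closure N`. -/
theorem bump_cc (hY : IsExteriorDomain Yᶜ) (hu : Ni_459.LB u)
    (hc : ∀ z ∉ Y, ContinuousAt u z) (hs : Ni_459.Swd Y u) (t : ℝ) {N : Set ℂ}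
    (hNb : Bornology.IsBounded N) {z : ℂ} (hz : z ∈ Ni_459.Lv Y u t) (hzN : z ∈ closure N) :
    (connectedComponentIn (Ni_459.Lv Y u t ∩ closure N) z ∩ frontier N).Nonempty := by
  obtain ⟨w, hw, hwf⟩ := comp_meets (isClosed_nLv hY hu t) (noIsland_nLv hY hu hc hs t)
    hNb.isCompact_closure hz hzN
  exact ⟨w, hw, frontier_closure_subset hwf⟩

/-- **T1 (459 #10219)**. -/
theorem bump (hY : IsExteriorDomain Yᶜ) (hl : LocallyLipschitzOn Yᶜ u) (hu : Ni_459.LB u)
    (hs : Ni_459.Swd Y u) (t : ℝ) {N : Set ℂ} (hN : IsOpen N) (hNb : Bornology.IsBounded N)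
    {z : ℂ} (hz : z ∈ Ni_459.Lv Y u t ∩ N) :
    ∃ C ⊆ Ni_459.Lv Y u t ∩ closure N, IsCompact C ∧ IsPreconnected C ∧ z ∈ C ∧
      (C ∩ frontier N).Nonempty ∧
      (frontier N ∩ Y = ∅ → ∀ w ∈ C, connectedComponentIn Y w ⊆ C) :=
  ⟨connectedComponentIn (Ni_459.Lv Y u t ∩ closure N) z, connectedComponentIn_subset _ _,
    Thin_12.isCompact_cc (hNb.isCompact_closure.inter_left (isClosed_nLv hY hu t)) z,
    isPreconnected_connectedComponentIn,
    mem_connectedComponentIn ⟨hz.1, subset_closure hz.2⟩,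
    bump_cc hY hu (fun _ => continuousAt_of_lip hY hl) hs t hNb hz.1 (subset_closure hz.2),
    fun h => cc_saturated hN h⟩

end Crest.Agent.R105.Uni_659
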