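import Mathlib
import Crest.Agent.Lib.InjHolo

/-!
# Transport under an injective holomorphic map (helper937, task 2293)

`gx u z`, `gy u z` = partial derivatives of `u : ℂ → ℝ`; `en`, `dot`, `wdg` = energy density,
Dirichlet form and area form.  `Uni O F` : `F` is holomorphic and injective on the open set `O`.
-/

set_option autoImplicit false

open Set Filter MeasureTheory
open scoped Topology ENNReal NNReal

namespace Crest.Agent.R105.Tra_937

noncomputable section

/-- `∂u/∂x`. -/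
def gx (u : ℂ → ℝ) (z : ℂ) : ℝ := fderiv ℝ u z 1
/-- `∂u/∂y`. -/
def gy (u : ℂ → ℝ) (z : ℂ) : ℝ := fderiv ℝ u z Complex.I
/-- energy density. -/
def en (u : ℂ → ℝ) (z : ℂ) : ℝ := gx u z ^ 2 + gy u z ^ 2
/-- Dirichlet form. -/
def dot (u w : ℂ → ℝ) (z : ℂ) : ℝ := gx u z * gx w z + gy u z * gy w z
/-- area form `du ∧ dw`. -/
def wdg (u w : ℂ → ℝ) (z : ℂ) : ℝ := gx u z * gy w z - gy u z * gx w z

theorem en_nonneg (u : ℂ → ℝ) (z : ℂ) : 0 ≤ en u z := by unfold en; positivity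

theorem dot_self (u : ℂ → ℝ) (z : ℂ) : dot u u z = en u z := by unfold en dot; ring

theorem dot_comm (u w : ℂ → ℝ) (z : ℂ) : dot u w z = dot w u z := by unfold dot; ring

theorem wdg_self (u : ℂ → ℝ) (z : ℂ) : wdg u u z = 0 := by unfold wdg; ring

theorem wdg_symm (u w : ℂ → ℝ) (z : ℂ) : wdg u w z = -wdg w u z := by unfold wdg; ring

/-- Lagrange identity. -/
theorem lagrange (u w : ℂ → ℝ) (z : ℂ) :
    dot u w z ^ 2 + wdg u w z ^ 2 = en u z * en w z := by
  unfold dot wdg en; ring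

theorem abs_dot_le (u w : ℂ → ℝ) (z : ℂ) : |dot u w z| ≤ √(en u z) * √(en w z) := by
  rw [← Real.sqrt_mul (en_nonneg u z)]
  apply Real.abs_le_sqrt
  rw [← lagrange]
  nlinarith [sq_nonneg (wdg u w z)]

theorem abs_wdg_le (u w : ℂ → ℝ) (z : ℂ) : |wdg u w z| ≤ √(en u z) * √(en w z) := by
  rw [← Real.sqrt_mul (en_nonneg u z)]
  apply Real.abs_le_sqrt
  rw [← lagrange]
  nlinarith [sq_nonneg (dot u w z)]

theorem clm_apply (L : ℂ →L[ℝ] ℝ) (a : ℂ) : L a = a.re * L 1 + a.im * L Complex.I := by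
  have h : a = a.re • (1 : ℂ) + a.im • Complex.I := by
    apply Complex.ext <;> simp
  calc L a = L (a.re • (1 : ℂ) + a.im • Complex.I) := congrArg L h
    _ = a.re * L 1 + a.im * L Complex.I := by
      rw [map_add, map_smul, map_smul, smul_eq_mul, smul_eq_mul]

theorem en_le_norm (u : ℂ → ℝ) (z : ℂ) : en u z ≤ 2 * ‖fderiv ℝ u z‖ ^ 2 := by
  have h1 : |gx u z| ≤ ‖fderiv ℝ u z‖ := by
    have := (fderiv ℝ u z).le_opNorm 1
    simpa [gx] using this
  have h2 : |gy u z| ≤ ‖fderiv ℝ u z‖ := by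
    have := (fderiv ℝ u z).le_opNorm Complex.I
    simpa [gy] using this
  have h3 : gx u z ^ 2 ≤ ‖fderiv ℝ u z‖ ^ 2 := by
    rw [← sq_abs]; gcongr
  have h4 : gy u z ^ 2 ≤ ‖fderiv ℝ u z‖ ^ 2 := by
    rw [← sq_abs]; gcongr
  unfold en; linarith

/-- `‖du‖² ≤ en`. -/
theorem norm_sq_le_en (u : ℂ → ℝ) (z : ℂ) : ‖fderiv ℝ u z‖ ^ 2 ≤ en u z := by
  have h : ‖fderiv ℝ u z‖ ≤ √(en u z) := by
    apply ContinuousLinearMap.opNorm_le_bound _ (Real.sqrt_nonneg _)
    intro a
    rw [clm_apply (fderiv ℝ u z) a]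
    change |a.re * gx u z + a.im * gy u z| ≤ _
    have h1 : ‖a‖ = √(a.re ^ 2 + a.im ^ 2) := by
      rw [Complex.norm_def, Complex.normSq_apply]; ring_nf
    rw [h1, ← Real.sqrt_mul (en_nonneg u z)]
    apply Real.abs_le_sqrt
    unfold en
    nlinarith [sq_nonneg (a.re * gy u z - a.im * gx u z)]
  calc ‖fderiv ℝ u z‖ ^ 2 ≤ √(en u z) ^ 2 := by gcongr
    _ = en u z := Real.sq_sqrt (en_nonneg u z)

theorem gx_re (z : ℂ) : gx Complex.re z = 1 := by
  have : fderiv ℝ Complex.re z = Complex.reCLM := Complex.reCLM.hasFDerivAt.fderiv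
  simp [gx, this]

theorem gy_re (z : ℂ) : gy Complex.re z = 0 := by
  have : fderiv ℝ Complex.re z = Complex.reCLM := Complex.reCLM.hasFDerivAt.fderiv
  simp [gy, this]

theorem gx_im (z : ℂ) : gx Complex.im z = 0 := by
  have : fderiv ℝ Complex.im z = Complex.imCLM := Complex.imCLM.hasFDerivAt.fderiv
  simp [gx, this]

theorem gy_im (z : ℂ) : gy Complex.im z = 1 := by
  have : fderiv ℝ Complex.im z = Complex.imCLM := Complex.imCLM.hasFDerivAt.fderiv
  simp [gy, this]

theorem dot_re (w : ℂ → ℝ) (z : ℂ) : dot Complex.re w z = gx w z := by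
  simp [dot, gx_re, gy_re]

theorem dot_im (w : ℂ → ℝ) (z : ℂ) : dot Complex.im w z = gy w z := by
  simp [dot, gx_im, gy_im]

theorem wdg_re (w : ℂ → ℝ) (z : ℂ) : wdg Complex.re w z = gy w z := by
  simp [wdg, gx_re, gy_re]

theorem wdg_im (w : ℂ → ℝ) (z : ℂ) : wdg Complex.im w z = - gx w z := by
  simp [wdg, gx_im, gy_im]

theorem wdg_re_im (z : ℂ) : wdg Complex.re Complex.im z = 1 := by
  rw [wdg_re, gy_im]

theorem en_re (z : ℂ) : en Complex.re z = 1 := by simp [en, gx_re, gy_re]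

theorem en_im (z : ℂ) : en Complex.im z = 1 := by simp [en, gx_im, gy_im]

theorem det_smul_one (a : ℂ) :
    (a • (1 : ℂ →L[ℝ] ℂ) : ℂ →L[ℝ] ℂ).det = Complex.normSq a := by
  unfold ContinuousLinearMap.det
  rw [← LinearMap.det_toMatrix Complex.basisOneI, Matrix.det_fin_two]
  simp only [LinearMap.toMatrix_apply]
  simp [Complex.normSq_apply]

/-- `F` is holomorphic and injective on the open set `O`. -/
structure Uni (O : Set ℂ) (F : ℂ → ℂ) : Prop where
  op : IsOpen O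
  hol : DifferentiableOn ℂ F O
  inj : InjOn F O

/-- the inverse map. -/
def inv (O : Set ℂ) (F : ℂ → ℂ) : ℂ → ℂ := Function.invFunOn F O

namespace Uni

variable {O : Set ℂ} {F : ℂ → ℂ}

theorem deriv_ne (h : Uni O F) {z : ℂ} (hz : z ∈ O) : deriv F z ≠ 0 :=
  Lib.deriv_ne_zero_of_injOn h.op h.hol h.inj hz

theorem normSq_pos (h : Uni O F) {z : ℂ} (hz : z ∈ O) : 0 < Complex.normSq (deriv F z) :=
  Complex.normSq_pos.2 (h.deriv_ne hz)

theorem isOpen_image (h : Uni O F) : IsOpen (F '' O) :=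
  Lib.isOpen_image_of_injOn h.op h.hol h.inj

theorem inv_apply (h : Uni O F) {z : ℂ} (hz : z ∈ O) : inv O F (F z) = z :=
  h.inj.leftInvOn_invFunOn hz

theorem inv_mem (_h : Uni O F) {w : ℂ} (hw : w ∈ F '' O) : inv O F w ∈ O :=
  Function.invFunOn_mem hw

theorem apply_inv (_h : Uni O F) {w : ℂ} (hw : w ∈ F '' O) : F (inv O F w) = w :=
  Function.invFunOn_eq hw

theorem image_inv (h : Uni O F) : inv O F '' (F '' O) = O := by
  ext z; constructor
  · rintro ⟨w, hw, rfl⟩; exact h.inv_mem hw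
  · intro hz; exact ⟨F z, mem_image_of_mem F hz, h.inv_apply hz⟩

/-- the inverse is again injective and holomorphic. -/
theorem symm (h : Uni O F) : Uni (F '' O) (inv O F) where
  op := h.isOpen_image
  hol := Lib.differentiableOn_inverse_of_injOn h.op h.hol h.inj (fun _ hz => h.inv_apply hz)
  inj := fun w hw w' hw' he => by
    rw [← h.apply_inv hw, ← h.apply_inv hw', he]

theorem inv_image_eq (h : Uni O F) {A : Set ℂ} (hA : A ⊆ F '' O) :
    inv O F '' A = O ∩ F ⁻¹' A := by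
  ext z; constructor
  · rintro ⟨w, hw, rfl⟩
    exact ⟨h.inv_mem (hA hw), by rw [mem_preimage, h.apply_inv (hA hw)]; exact hw⟩
  · rintro ⟨hz, hzA⟩
    exact ⟨F z, hzA, h.inv_apply hz⟩

theorem mono (h : Uni O F) {O' : Set ℂ} (ho : IsOpen O') (hs : O' ⊆ O) : Uni O' F :=
  ⟨ho, h.hol.mono hs, h.inj.mono hs⟩

theorem diffAt (h : Uni O F) {z : ℂ} (hz : z ∈ O) : DifferentiableAt ℂ F z :=
  h.hol.differentiableAt (h.op.mem_nhds hz)

theorem hasFDerivAt (h : Uni O F) {z : ℂ} (hz : z ∈ O) :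
    HasFDerivAt F (deriv F z • (1 : ℂ →L[ℝ] ℂ)) z :=
  (h.diffAt hz).hasDerivAt.complexToReal_fderiv

theorem contAt (h : Uni O F) {z : ℂ} (hz : z ∈ O) : ContinuousAt F z :=
  (h.diffAt hz).continuousAt

theorem measurableSet_image (h : Uni O F) {S : Set ℂ} (hS : MeasurableSet S) (hSO : S ⊆ O) :
    MeasurableSet (F '' S) :=
  measurable_image_of_fderivWithin hS
    (fun z hz => (h.hasFDerivAt (hSO hz)).hasFDerivWithinAt) (h.inj.mono hSO)

theorem real_diffOn (h : Uni O F) {S : Set ℂ} (hSO : S ⊆ O) : DifferentiableOn ℝ F S :=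
  fun z hz => (h.hasFDerivAt (hSO hz)).differentiableAt.differentiableWithinAt

/-- null sets are mapped to null sets. -/
theorem null_image (h : Uni O F) {N : Set ℂ} (hN : volume N = 0) :
    volume (F '' (O ∩ N)) = 0 :=
  addHaar_image_eq_zero_of_differentiableOn_of_addHaar_eq_zero volume
    (h.real_diffOn inter_subset_left) (measure_mono_null inter_subset_right hN)

/-- preimages of null sets are null sets. -/
theorem null_preimage (h : Uni O F) {N : Set ℂ} (hN : volume N = 0) :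
    volume (O ∩ F ⁻¹' N) = 0 := by
  have h1 := h.symm.null_image hN
  rw [h.inv_image_eq inter_subset_left] at h1
  refine measure_mono_null ?_ h1
  rintro z ⟨hz, hzN⟩
  exact ⟨hz, mem_image_of_mem F hz, hzN⟩

/-- almost everywhere statements are transported. -/
theorem ae_iff (h : Uni O F) {P : ℂ → Prop} :
    (∀ᵐ w ∂(volume.restrict (F '' O)), P w) ↔ ∀ᵐ z ∂(volume.restrict O), P (F z) := by
  rw [ae_restrict_iff' h.isOpen_image.measurableSet, ae_restrict_iff' h.op.measurableSet]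
  constructor
  · intro h1
    have h2 := h.null_preimage (N := {w | ¬ (w ∈ F '' O → P w)}) h1
    rw [MeasureTheory.ae_iff]
    refine measure_mono_null ?_ h2
    intro z hz
    simp only [mem_ofPred_eq, not_forall] at hz
    obtain ⟨hzO, hP⟩ := hz
    exact ⟨hzO, by simp only [mem_preimage, mem_ofPred_eq]; exact fun h' => hP (h' (mem_image_of_mem F hzO))⟩
  · intro h1
    have h2 := h.null_image (N := {z | ¬ (z ∈ O → P (F z))}) h1
    rw [MeasureTheory.ae_iff]
    refine measure_mono_null ?_ h2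
    intro w hw
    simp only [mem_ofPred_eq, not_forall] at hw
    obtain ⟨⟨z, hz, rfl⟩, hP⟩ := hw
    exact ⟨z, ⟨hz, by simp only [mem_ofPred_eq]; exact fun h' => hP (h' hz)⟩, rfl⟩

/-- change of variables, `lintegral`, measurable `S ⊆ O`. -/
theorem lintegral_image (h : Uni O F) {S : Set ℂ} (hS : MeasurableSet S) (hSO : S ⊆ O)
    (g : ℂ → ℝ≥0∞) :
    ∫⁻ w in F '' S, g w = ∫⁻ z in S, ENNReal.ofReal (Complex.normSq (deriv F z)) * g (F z) := by
  rw [lintegral_image_eq_lintegral_abs_det_fderiv_mul volume hS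
    (fun z hz => (h.hasFDerivAt (hSO hz)).hasFDerivWithinAt) (h.inj.mono hSO)]
  refine lintegral_congr fun z => ?_
  rw [det_smul_one, abs_of_nonneg (Complex.normSq_nonneg _)]

theorem integral_image {E : Type*} [NormedAddCommGroup E] [NormedSpace ℝ E]
    (h : Uni O F) {S : Set ℂ} (hS : MeasurableSet S) (hSO : S ⊆ O) (g : ℂ → E) :
    ∫ w in F '' S, g w = ∫ z in S, Complex.normSq (deriv F z) • g (F z) := by
  rw [integral_image_eq_integral_abs_det_fderiv_smul volume hS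
    (fun z hz => (h.hasFDerivAt (hSO hz)).hasFDerivWithinAt) (h.inj.mono hSO)]
  congr 1
  ext z
  rw [det_smul_one, abs_of_nonneg (Complex.normSq_nonneg _)]

theorem integrableOn_image {E : Type*} [NormedAddCommGroup E] [NormedSpace ℝ E]
    (h : Uni O F) {S : Set ℂ} (hS : MeasurableSet S) (hSO : S ⊆ O) (g : ℂ → E) :
    IntegrableOn g (F '' S) ↔
      IntegrableOn (fun z => Complex.normSq (deriv F z) • g (F z)) S := by
  rw [integrableOn_image_iff_integrableOn_abs_det_fderiv_smul volume hS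
    (fun z hz => (h.hasFDerivAt (hSO hz)).hasFDerivWithinAt) (h.inj.mono hSO)]
  have : (fun z => |(deriv F z • (1 : ℂ →L[ℝ] ℂ) : ℂ →L[ℝ] ℂ).det| • g (F z))
      = fun z => Complex.normSq (deriv F z) • g (F z) := by
    ext z
    rw [det_smul_one, abs_of_nonneg (Complex.normSq_nonneg _)]
  rw [this]

/-- area of an image. -/
theorem volume_image (h : Uni O F) {S : Set ℂ} (hS : MeasurableSet S) (hSO : S ⊆ O) :
    volume (F '' S) = ∫⁻ z in S, ENNReal.ofReal (Complex.normSq (deriv F z)) := by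
  have h1 := h.lintegral_image hS hSO (fun _ => 1)
  simpa using h1

/-! ### chain rule -/

theorem fderiv_comp (h : Uni O F) {z : ℂ} (hz : z ∈ O) {u : ℂ → ℝ}
    (hu : DifferentiableAt ℝ u (F z)) :
    fderiv ℝ (u ∘ F) z = (fderiv ℝ u (F z)).comp (deriv F z • (1 : ℂ →L[ℝ] ℂ)) :=
  (hu.hasFDerivAt.comp z (h.hasFDerivAt hz)).fderiv

theorem diff_comp (h : Uni O F) {z : ℂ} (hz : z ∈ O) {u : ℂ → ℝ}
    (hu : DifferentiableAt ℝ u (F z)) : DifferentiableAt ℝ (u ∘ F) z :=
  (hu.hasFDerivAt.comp z (h.hasFDerivAt hz)).differentiableAt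

theorem diff_comp_iff (h : Uni O F) {z : ℂ} (hz : z ∈ O) {u : ℂ → ℝ} :
    DifferentiableAt ℝ (u ∘ F) z ↔ DifferentiableAt ℝ u (F z) := by
  refine ⟨fun hu => ?_, h.diff_comp hz⟩
  have h1 : DifferentiableAt ℝ ((u ∘ F) ∘ inv O F) (F z) := by
    apply h.symm.diff_comp (mem_image_of_mem F hz)
    rw [h.inv_apply hz]; exact hu
  refine h1.congr_of_eventuallyEq ?_
  filter_upwards [h.isOpen_image.mem_nhds (mem_image_of_mem F hz)] with w hw
  simp [h.apply_inv hw]

theorem gx_comp (h : Uni O F) {z : ℂ} (hz : z ∈ O) {u : ℂ → ℝ}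
    (hu : DifferentiableAt ℝ u (F z)) :
    gx (u ∘ F) z = (deriv F z).re * gx u (F z) + (deriv F z).im * gy u (F z) := by
  unfold gx gy
  rw [h.fderiv_comp hz hu]
  simp only [ContinuousLinearMap.comp_apply, smul_apply,
    one_apply_eq_self, smul_eq_mul, mul_one]
  rw [clm_apply]

theorem gy_comp (h : Uni O F) {z : ℂ} (hz : z ∈ O) {u : ℂ → ℝ}
    (hu : DifferentiableAt ℝ u (F z)) :
    gy (u ∘ F) z = -(deriv F z).im * gx u (F z) + (deriv F z).re * gy u (F z) := by
  unfold gx gy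
  rw [h.fderiv_comp hz hu]
  simp only [ContinuousLinearMap.comp_apply, smul_apply,
    one_apply_eq_self, smul_eq_mul]
  rw [clm_apply]
  simp

theorem dot_comp (h : Uni O F) {z : ℂ} (hz : z ∈ O) {u w : ℂ → ℝ}
    (hu : DifferentiableAt ℝ u (F z)) (hw : DifferentiableAt ℝ w (F z)) :
    dot (u ∘ F) (w ∘ F) z = Complex.normSq (deriv F z) * dot u w (F z) := by
  unfold dot
  rw [h.gx_comp hz hu, h.gx_comp hz hw, h.gy_comp hz hu, h.gy_comp hz hw, Complex.normSq_apply]
  ring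

theorem wdg_comp (h : Uni O F) {z : ℂ} (hz : z ∈ O) {u w : ℂ → ℝ}
    (hu : DifferentiableAt ℝ u (F z)) (hw : DifferentiableAt ℝ w (F z)) :
    wdg (u ∘ F) (w ∘ F) z = Complex.normSq (deriv F z) * wdg u w (F z) := by
  unfold wdg
  rw [h.gx_comp hz hu, h.gx_comp hz hw, h.gy_comp hz hu, h.gy_comp hz hw, Complex.normSq_apply]
  ring

theorem en_comp (h : Uni O F) {z : ℂ} (hz : z ∈ O) {u : ℂ → ℝ}
    (hu : DifferentiableAt ℝ u (F z)) :
    en (u ∘ F) z = Complex.normSq (deriv F z) * en u (F z) := by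
  rw [← dot_self, ← dot_self, h.dot_comp hz hu hu]

end Uni

end

end Crest.Agent.R105.Tra_937
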