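import Crest.Agent.R105.Dir2_508
import Crest.Agent.R105.Tra1_937

/-!
# Row 105, LIB-DIR 3: Weyl's lemma and primitives for `L2` limits of gradients (helper508)

* `exists_primitive_weak` : weak form (Weyl + periods)
* `wdg_tst` : for `u` locally Lipschitz on `U`, `∫ wdg u φ = 0` for all test functions
* `el_form` : an `L2` limit of gradients, orthogonal to all test gradients, is `conj p'`
* `el_limit` : moreover the uniform limit of the functions is `Re p`
-/

set_option autoImplicit false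

open MeasureTheory Set Filter Topology Complex Metric
open scoped ContDiff ComplexConjugate ENNReal NNReal Manifold

namespace Crest.Agent.R105.Dir_508

open Crest.Agent.R105.Tra_937 Crest.Agent.R165.Cl1x722 Crest.Agent.R165.Cl3x722
  Crest.Agent.R165.Cl4x722

noncomputable section

lemma gr_eq (u : ℂ → ℝ) (z : ℂ) : gr u z = (gx u z : ℂ) + (gy u z : ℂ) * I := rfl

lemma gr_re (u : ℂ → ℝ) (z : ℂ) : (gr u z).re = gx u z := by
  simp [gr_eq]

lemma gr_im (u : ℂ → ℝ) (z : ℂ) : (gr u z).im = gy u z := by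
  simp [gr_eq]

lemma conj_gr_mul (u w : ℂ → ℝ) (z : ℂ) :
    conj (gr u z) * gr w z = (dot u w z : ℂ) + (wdg u w z : ℂ) * I := by
  apply Complex.ext
  · simp [gr_eq, dot]
  · simp [gr_eq, wdg]; ring

lemma dbar_ofReal {a : ℂ → ℝ} {z : ℂ} (ha : DifferentiableAt ℝ a z) :
    dbar (fun z => (a z : ℂ)) z = gr a z / 2 := by
  unfold dbar gr
  have h1 : HasFDerivAt (fun z => (a z : ℂ)) (ofRealCLM.comp (fderiv ℝ a z)) z :=
    ofRealCLM.hasFDerivAt.comp z ha.hasFDerivAt
  rw [h1.fderiv]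
  simp only [ContinuousLinearMap.comp_apply, ofRealCLM_apply]
  ring

lemma gr_of_notMem {u : ℂ → ℝ} {z : ℂ} (hz : z ∉ tsupport (fderiv ℝ u)) : gr u z = 0 := by
  unfold gr
  rw [image_eq_zero_of_notMem_tsupport hz]
  simp

lemma continuous_gr {φ : ℂ → ℝ} (h : ContDiff ℝ 1 φ) : Continuous (gr φ) := by
  unfold gr
  have h1 := h.continuous_fderiv one_ne_zero
  fun_prop

lemma tsupport_gr (φ : ℂ → ℝ) : tsupport (gr φ) ⊆ tsupport (fderiv ℝ φ) := by
  refine closure_minimal ?_ (isClosed_tsupport _)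
  intro z hz
  by_contra h
  exact hz (gr_of_notMem h)

lemma Tst.cpt_gr {U : Set ℂ} {φ : ℂ → ℝ} (h : Tst U φ) : HasCompactSupport (gr φ) :=
  (h.cpt.fderiv ℝ).of_isClosed_subset (isClosed_tsupport _) (tsupport_gr φ)

lemma Tst.int_gr {U : Set ℂ} {φ : ℂ → ℝ} (h : Tst U φ) {Y : ℂ → ℂ}
    (hY : LocallyIntegrableOn Y U) : Integrable fun z => Y z * gr φ z :=
  integrable_mul_test hY (continuous_gr (h.sm.of_le (by exact_mod_cast le_top))) h.cpt_gr
    ((tsupport_gr φ).trans h.sub)

/-- a smooth function with compact support in `U` is a test function -/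
lemma Tst.of_supp {U : Set ℂ} {φ : ℂ → ℝ} (h1 : ContDiff ℝ ∞ φ) (h2 : HasCompactSupport φ)
    (h3 : tsupport φ ⊆ U) : Tst U φ :=
  ⟨h1, h2, (tsupport_fderiv_subset ℝ).trans h3⟩

lemma setInt_eq {U : Set ℂ} {φ : ℂ → ℝ} (h : tsupport (fderiv ℝ φ) ⊆ U) (Y : ℂ → ℂ) :
    ∫ z in U, Y z * gr φ z = ∫ z, Y z * gr φ z := by
  refine setIntegral_eq_integral_of_forall_compl_eq_zero fun z hz => ?_
  rw [gr_of_notMem fun h' => hz (h h'), mul_zero]

/-- weak holomorphy from real test functions -/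
lemma wdbar_of_tst {U : Set ℂ} {Y : ℂ → ℂ} (hY : LocallyIntegrableOn Y U)
    (h : ∀ φ : ℂ → ℝ, ContDiff ℝ ∞ φ → HasCompactSupport φ → tsupport φ ⊆ U →
      ∫ z, Y z * gr φ z = 0) : WDbar U Y 0 := by
  intro χ h1 h2 h3
  set a : ℂ → ℝ := fun z => (χ z).re with ha
  set b : ℂ → ℝ := fun z => (χ z).im with hb
  have ha1 : ContDiff ℝ ∞ a := reCLM.contDiff.comp h1
  have hb1 : ContDiff ℝ ∞ b := imCLM.contDiff.comp h1
  have sa : tsupport a ⊆ tsupport χ := closure_mono fun z hz => by
    intro h'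
    exact hz (by simp [ha, h'])
  have sb : tsupport b ⊆ tsupport χ := closure_mono fun z hz => by
    intro h'
    exact hz (by simp [hb, h'])
  have ca : HasCompactSupport a := h2.of_isClosed_subset (isClosed_tsupport _) sa
  have cb : HasCompactSupport b := h2.of_isClosed_subset (isClosed_tsupport _) sb
  have e1 : ∀ z, dbar χ z = (gr a z + I * gr b z) / 2 := by
    intro z
    have da : DifferentiableAt ℝ a z := ha1.differentiable (by simp) z
    have db : DifferentiableAt ℝ b z := hb1.differentiable (by simp) z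
    have h5 : HasFDerivAt χ (ofRealCLM.comp (fderiv ℝ a z) +
        I • (ofRealCLM.comp (fderiv ℝ b z))) z := by
      have h6 : HasFDerivAt (fun z => (a z : ℂ) + I * (b z : ℂ)) (ofRealCLM.comp (fderiv ℝ a z) +
          I • (ofRealCLM.comp (fderiv ℝ b z))) z :=
        (ofRealCLM.hasFDerivAt.comp z da.hasFDerivAt).add
          ((ofRealCLM.hasFDerivAt.comp z db.hasFDerivAt).const_mul I)
      have h7 : χ = fun z => (a z : ℂ) + I * (b z : ℂ) := by
        funext z
        rw [mul_comm I]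
        exact (Complex.re_add_im (χ z)).symm
      rw [h7]
      exact h6
    unfold dbar
    rw [h5.fderiv]
    simp only [_root_.add_apply, _root_.smul_apply, ContinuousLinearMap.comp_apply,
      ofRealCLM_apply, smul_eq_mul, gr]
    ring
  have i1 := (Tst.of_supp ha1 ca (sa.trans h3)).int_gr hY
  have i2 := (Tst.of_supp hb1 cb (sb.trans h3)).int_gr hY
  have e2 : ∀ z, Y z * dbar χ z + (0 : ℂ → ℂ) z * χ z =
      (1 / 2 : ℂ) * (Y z * gr a z) + (I / 2) * (Y z * gr b z) := by
    intro z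
    rw [e1]
    simp only [Pi.zero_apply, zero_mul, add_zero]
    ring
  simp only [e2]
  rw [integral_add (i1.const_mul _) (i2.const_mul _), integral_const_mul, integral_const_mul,
    h a ha1 ca (sa.trans h3), h b hb1 cb (sb.trans h3)]
  simp

/-- **weak form: Weyl and periods** -/
theorem exists_primitive_weak {U : Set ℂ} (hU : IsOpen U) {Y : ℂ → ℂ}
    (hY : LocallyIntegrableOn Y U) (h : ∀ φ, Tst U φ → ∫ z, Y z * gr φ z = 0) :
    ∃ p : ℂ → ℂ, DifferentiableOn ℂ p U ∧ ∀ᵐ z : ℂ, z ∈ U → Y z = deriv p z := by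
  obtain ⟨v, hv, hYv⟩ := Crest.Agent.R165.Cl4x722.weyl hU hY (wdbar_of_tst hY fun φ h1 h2 h3 =>
    h φ (Tst.of_supp h1 h2 h3))
  obtain ⟨p, hp⟩ := exists_primitive hU hv (fun φ hφ => by
    rw [← h φ hφ]
    refine integral_congr_ae ?_
    filter_upwards [hYv] with z hz
    by_cases hzU : z ∈ U
    · simp only [hz hzU]
    · simp only [gr_of_notMem fun h' => hzU (hφ.sub h'), mul_zero])
  refine ⟨p, fun z hz => (hp z hz).differentiableAt.differentiableWithinAt, ?_⟩
  filter_upwards [hYv] with z hz hzU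
  rw [hz hzU, (hp z hzU).deriv]

/-! ### locally Lipschitz functions -/

theorem exists_cutoff {K W : Set ℂ} (hK : IsCompact K) (hW : IsOpen W) (hKW : K ⊆ W) :
    ∃ χ : ℂ → ℝ, ContDiff ℝ ∞ χ ∧ HasCompactSupport χ ∧ tsupport χ ⊆ W ∧
      (∀ᶠ y in 𝓝ˢ K, χ y = 1) ∧ ∀ y, χ y ∈ Icc (0 : ℝ) 1 := by
  obtain ⟨V, hVo, hKV, hVΩ, hVc⟩ := exists_open_between_and_isCompact_closure hK hW hKW
  obtain ⟨f, hf1, hf0, hf⟩ := exists_contMDiffMap_one_nhds_of_subset_interior
    (modelWithCornersSelf ℝ ℂ) (n := (⊤ : ℕ∞)) hK.isClosed (t := V)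
    (hKV.trans (interior_eq_iff_isOpen.mpr hVo).ge)
  have hsm : ContDiff ℝ ∞ (f : ℂ → ℝ) := f.contMDiff.contDiff
  have hts : tsupport (f : ℂ → ℝ) ⊆ closure V := by
    apply closure_mono
    intro x hx
    by_contra h
    exact hx (hf0 x h)
  have hcs : HasCompactSupport (f : ℂ → ℝ) := hVc.of_isClosed_subset isClosed_closure hts
  exact ⟨f, hsm, hcs, hts.trans hVΩ, hf1, hf⟩

/-- product of a locally Lipschitz function with a cut-off is Lipschitz -/
lemma lipschitz_mul {U : Set ℂ} {u χ : ℂ → ℝ} (hu : LocallyLipschitzOn U u)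
    (h1 : ContDiff ℝ ∞ χ) (h2 : HasCompactSupport χ) (h3 : tsupport χ ⊆ U) :
    ∃ C, LipschitzWith C fun z => χ z * u z := by
  -- bounds on the support
  have hk := h2.isCompact
  set K := tsupport χ with hKdef
  obtain ⟨L, hL⟩ := (hu.mono h3).exists_lipschitzOnWith_of_compact hk
  obtain ⟨M, hM⟩ := hk.exists_bound_of_continuousOn (hu.continuousOn.mono h3)
  obtain ⟨C1, hC1⟩ : ∃ C1, LipschitzWith C1 χ :=
    (h1.of_le (by exact_mod_cast le_top) : ContDiff ℝ 1 χ).lipschitzWith_of_hasCompactSupport h2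
      one_ne_zero
  obtain ⟨B, hB⟩ := h1.continuous.bounded_above_of_compact_support h2
  set M' := max M 0 with hM'
  set B' := max B 0 with hB'
  have key : ∀ z ∈ K, ∀ w, |χ z * u z - χ w * u w| ≤ (C1 * M' + B' * L) * dist z w := by
    intro z hz w
    by_cases hw : w ∈ K
    · have e : χ z * u z - χ w * u w = (χ z - χ w) * u z + χ w * (u z - u w) := by ring
      rw [e]
      refine (abs_add_le _ _).trans ?_
      rw [abs_mul, abs_mul]
      have a1 : |χ z - χ w| ≤ C1 * dist z w := by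
        have := hC1.dist_le_mul z w
        rwa [Real.dist_eq] at this
      have a2 : |u z| ≤ M' := (hM z hz).trans (le_max_left _ _)
      have a3 : |χ w| ≤ B' := (hB w).trans (le_max_left _ _)
      have a4 : |u z - u w| ≤ L * dist z w := by
        have := hL.dist_le_mul z hz w hw
        rwa [Real.dist_eq] at this
      have d0 : 0 ≤ dist z w := dist_nonneg
      have b1 : |χ z - χ w| * |u z| ≤ C1 * dist z w * M' :=
        mul_le_mul a1 a2 (abs_nonneg _) (by positivity)
      have b2 : |χ w| * |u z - u w| ≤ B' * (L * dist z w) :=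
        mul_le_mul a3 a4 (abs_nonneg _) (le_max_right _ _)
      calc _ ≤ C1 * dist z w * M' + B' * (L * dist z w) := add_le_add b1 b2
        _ = _ := by ring
    · have hw0 : χ w = 0 := image_eq_zero_of_notMem_tsupport hw
      rw [hw0, zero_mul, sub_zero, abs_mul]
      have a1 : |χ z| ≤ C1 * dist z w := by
        have := hC1.dist_le_mul z w
        rwa [Real.dist_eq, hw0, sub_zero] at this
      have a2 : |u z| ≤ M' := (hM z hz).trans (le_max_left _ _)
      have d0 : 0 ≤ dist z w := dist_nonneg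
      have b1 : |χ z| * |u z| ≤ C1 * dist z w * M' :=
        mul_le_mul a1 a2 (abs_nonneg _) (by positivity)
      have b2 : 0 ≤ B' * L * dist z w := by
        have : 0 ≤ B' := le_max_right _ _
        positivity
      calc _ ≤ C1 * dist z w * M' := b1
        _ ≤ _ := by nlinarith
  refine ⟨⟨C1 * M' + B' * L, by
    have : 0 ≤ B' := le_max_right _ _
    have : 0 ≤ M' := le_max_right _ _
    positivity⟩, LipschitzWith.of_dist_le_mul fun z w => ?_⟩
  rw [Real.dist_eq]
  by_cases hz : z ∈ K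
  · exact key z hz w
  · by_cases hw : w ∈ K
    · have := key w hw z
      rw [abs_sub_comm, dist_comm]
      exact this
    · rw [image_eq_zero_of_notMem_tsupport hz, image_eq_zero_of_notMem_tsupport hw]
      simp only [zero_mul, sub_zero, abs_zero]
      have : 0 ≤ B' := le_max_right _ _
      have : 0 ≤ M' := le_max_right _ _
      change 0 ≤ (C1 * M' + B' * L) * dist z w
      positivity

/-- integration by parts for a Lipschitz function against a smooth one -/
lemma int_fderiv_mul {f : ℂ → ℝ} {C : ℝ≥0} (hf : LipschitzWith C f) {g : ℂ → ℝ}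
    (h1 : ContDiff ℝ ∞ g) (h2 : HasCompactSupport g) (v : ℂ) :
    ∫ z, fderiv ℝ f z v * g z = - ∫ z, fderiv ℝ g z v * f z := by
  obtain ⟨D, hD⟩ : ∃ D, LipschitzWith D g :=
    (h1.of_le (by exact_mod_cast le_top) : ContDiff ℝ 1 g).lipschitzWith_of_hasCompactSupport h2
      one_ne_zero
  have h3 := LipschitzWith.integral_lineDeriv_mul_eq (μ := (volume : Measure ℂ)) hf hD h2 v
  have h4 : ∫ z, fderiv ℝ f z v * g z = ∫ z, lineDeriv ℝ f z v * g z := by
    refine integral_congr_ae ?_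
    filter_upwards [hf.ae_differentiableAt (μ := (volume : Measure ℂ))] with z hz
    rw [hz.lineDeriv_eq_fderiv]
  rw [h4, h3, ← integral_neg]
  refine integral_congr_ae (ae_of_all _ fun z => ?_)
  simp only
  rw [(h1.differentiable (by simp) z).lineDeriv_eq_fderiv, map_neg, neg_mul]

/-- **closedness**: `∫ wdg u φ = 0` -/
theorem wdg_tst {U : Set ℂ} (hU : IsOpen U) {u : ℂ → ℝ} (hu : LocallyLipschitzOn U u)
    {φ : ℂ → ℝ} (hφ : Tst U φ) : ∫ z, wdg u φ z = 0 := by
  obtain ⟨χ, c1, c2, c3, c4, -⟩ := exists_cutoff ((hφ.cpt.fderiv ℝ).isCompact) hU hφ.sub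
  obtain ⟨C, hC⟩ := lipschitz_mul hu c1 c2 c3
  set f : ℂ → ℝ := fun z => χ z * u z with hf
  have e1 : ∀ z, wdg u φ z = fderiv ℝ f z 1 * fderiv ℝ φ z I - fderiv ℝ f z I * fderiv ℝ φ z 1 := by
    intro z
    by_cases hz : z ∈ tsupport (fderiv ℝ φ)
    · have h5 : f =ᶠ[𝓝 z] u := by
        filter_upwards [(eventually_nhdsSet_iff_forall.1 c4) z hz] with w hw
        rw [hf]; simp only [hw, one_mul]
      unfold wdg gx gy
      rw [h5.fderiv_eq]
    · unfold wdg gx gy
      rw [image_eq_zero_of_notMem_tsupport hz]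
      simp
  have hs1 : ∀ v : ℂ, ContDiff ℝ ∞ (fun z => fderiv ℝ φ z v) := fun v =>
    (hφ.sm.fderiv_right (m := ∞) (by simp)).clm_apply contDiff_const
  have hs2 : ∀ v : ℂ, HasCompactSupport (fun z => fderiv ℝ φ z v) := fun v =>
    hφ.cpt.fderiv_apply ℝ v
  have hfi : ∀ v v' : ℂ, Integrable fun z => fderiv ℝ f z v * fderiv ℝ φ z v' := by
    intro v v'
    have hg : Integrable fun z => fderiv ℝ φ z v' :=
      (hs1 v').continuous.integrable_of_hasCompactSupport (hs2 v')
    refine Integrable.bdd_mul (c := C * ‖v‖) hg ?_ (ae_of_all _ fun z => ?_)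
    · exact (measurable_fderiv_apply_const ℝ f v).aestronglyMeasurable
    · exact ((fderiv ℝ f z).le_opNorm v).trans (mul_le_mul_of_nonneg_right
        (norm_fderiv_le_of_lipschitz ℝ hC) (norm_nonneg _))
  simp only [e1]
  rw [integral_sub (hfi 1 I) (hfi I 1), int_fderiv_mul hC (hs1 I) (hs2 I) 1,
    int_fderiv_mul hC (hs1 1) (hs2 1) I, sub_eq_zero, neg_inj]
  refine integral_congr_ae (ae_of_all _ fun z => ?_)
  simp only
  congr 1
  have hd : DifferentiableAt ℝ (fderiv ℝ φ) z :=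
    (hφ.sm.fderiv_right (m := ∞) (by simp)).differentiable (by simp) z
  have a1 : ∀ v v' : ℂ, fderiv ℝ (fun z => fderiv ℝ φ z v) z v' =
      fderiv ℝ (fderiv ℝ φ) z v' v := by
    intro v v'
    have := (hd.hasFDerivAt.clm_apply (hasFDerivAt_const v z)).fderiv
    rw [this]
    simp
  rw [a1, a1]
  have hsym : IsSymmSndFDerivAt ℝ φ z :=
    ((hφ.sm.of_le (m := 2) (WithTop.coe_le_coe.2 le_top)).contDiffAt (x := z)).isSymmSndFDerivAt
      (by simp)
  exact hsym 1 I

end

end Crest.Agent.R105.Dir_508
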