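import Mathlib

/-!
Row 105, UNIV, file 2 (helper913): analytic part.
-/

set_option autoImplicit false

namespace Crest.Agent.R105.Uv_913

open Complex Set Filter Topology Metric MeasureTheory
open scoped ContDiff Convolution NNReal

theorem exists_mollify (g : ℂ → ℝ) (K : ℝ≥0) (hK : LipschitzWith K g) (h0 : ∀ z, 0 ≤ g z)
    (h1 : ∀ z, g z ≤ 1) (hs : HasCompactSupport g) {ε : ℝ} (hε : 0 < ε) :
    ∃ c : ℂ → ℝ, ContDiff ℝ ∞ c ∧ HasCompactSupport c ∧ (∀ z, 0 ≤ c z) ∧ (∀ z, c z ≤ 1) ∧
      (∀ z, ‖fderiv ℝ c z‖ ≤ K) ∧ ∀ z k, (∀ w ∈ ball z ε, g w = k) → c z = k := by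
  let φ : ContDiffBump (0 : ℂ) := ⟨ε / 2, ε, by positivity, by linarith⟩
  have hφi : Integrable (φ.normed volume) :=
    (φ.contDiff_normed (n := 0)).continuous.integrable_of_hasCompactSupport
      φ.hasCompactSupport_normed
  have hgc : Continuous g := hK.continuous
  set c : ℂ → ℝ := (φ.normed volume) ⋆[ContinuousLinearMap.lsmul ℝ ℝ, volume] g with hc
  have hcz : ∀ z, c z = ∫ t, φ.normed volume t * g (z - t) := by
    intro z
    rw [hc, convolution_def]
    simp
  have hint : ∀ z, Integrable (fun t => φ.normed volume t * g (z - t)) := by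
    intro z
    refine Continuous.integrable_of_hasCompactSupport ?_ ?_
    · exact (φ.contDiff_normed (n := 0)).continuous.mul (hgc.comp (by fun_prop))
    · exact φ.hasCompactSupport_normed.mul_right
  have hlip : LipschitzWith K c := by
    refine LipschitzWith.of_dist_le_mul fun z z' => ?_
    rw [dist_eq_norm, hcz, hcz, ← integral_sub (hint z) (hint z')]
    have h2 : ∫ t, φ.normed volume t * (K * dist z z') = K * dist z z' := by
      rw [integral_mul_const, φ.integral_normed, one_mul]
    rw [← h2]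
    refine norm_integral_le_of_norm_le (hφi.mul_const _) (ae_of_all _ fun t => ?_)
    rw [← mul_sub, norm_mul, Real.norm_eq_abs, abs_of_nonneg (φ.nonneg_normed t)]
    refine mul_le_mul_of_nonneg_left ?_ (φ.nonneg_normed t)
    have := hK.dist_le_mul (z - t) (z' - t)
    rw [dist_eq_norm] at this
    refine this.trans (le_of_eq ?_)
    rw [dist_sub_right]
  refine ⟨c, ?_, ?_, ?_, ?_, ?_, ?_⟩
  · exact HasCompactSupport.contDiff_convolution_left _ φ.hasCompactSupport_normed
      φ.contDiff_normed hgc.locallyIntegrable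
  · exact HasCompactSupport.convolution _ φ.hasCompactSupport_normed hs
  · intro z
    rw [hcz]
    exact integral_nonneg fun t => mul_nonneg (φ.nonneg_normed t) (h0 _)
  · intro z
    rw [hcz, ← φ.integral_normed (μ := volume)]
    refine integral_mono (hint z) hφi fun t => ?_
    simp only
    calc φ.normed volume t * g (z - t) ≤ φ.normed volume t * 1 :=
          mul_le_mul_of_nonneg_left (h1 _) (φ.nonneg_normed t)
      _ = _ := mul_one _
  · intro z
    exact norm_fderiv_le_of_lipschitz ℝ hlip
  · intro z k hz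
    have hzz : g z = k := hz z (mem_ball_self hε)
    have : c z = g z := by
      rw [hc]
      refine φ.normed_convolution_eq_right (μ := volume) (x₀ := z) (g := g) ?_
      intro w hw
      rw [hzz]
      exact hz w hw
    rw [this, hzz]

/-- The test functions: smooth, compactly supported, locally constant off `U`. -/
def Lc (U : Set ℂ) (c : ℂ → ℝ) : Prop :=
  ContDiff ℝ ∞ c ∧ HasCompactSupport c ∧ ∀ z, z ∉ U → ∀ᶠ w in 𝓝 z, c w = c z

/-- Euler-Lagrange inequality tested with `Φ(x) c` (equality when there are no solids). -/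
def ELIneq (U : Set ℂ) (F : ℂ → ℂ) : Prop :=
  ∀ c : ℂ → ℝ, Lc U c → (∀ z, 0 ≤ c z) → ∀ Φ : ℝ → ℝ, ContDiff ℝ ∞ Φ → Monotone Φ →
    HasCompactSupport (deriv Φ) →
    ∫ z in U, deriv Φ (F z).re * c z * ‖deriv F z‖ ^ 2 ≤
      - ∫ z in U, Φ (F z).re * (fderiv ℝ c z) ((starRingEnd ℂ) (deriv F z))

theorem meets_frontier {s B : Set ℂ} (hs : IsPreconnected s) (h1 : (s ∩ B).Nonempty)
    (h2 : (s ∩ Bᶜ).Nonempty) : (s ∩ frontier B).Nonempty := by
  by_contra hemp
  have hcov : s ⊆ interior B ∪ (closure B)ᶜ := by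
    intro z hz
    by_contra h
    apply hemp
    refine ⟨z, hz, ?_⟩
    rw [mem_union, not_or] at h
    exact ⟨by simpa using h.2, h.1⟩
  obtain ⟨z, hz, hzB⟩ := h1
  obtain ⟨w, hw, hwB⟩ := h2
  have hz' : z ∈ interior B := by
    rcases hcov hz with h | h
    · exact h
    · exact absurd (subset_closure hzB) h
  have hw' : w ∈ (closure B)ᶜ := by
    rcases hcov hw with h | h
    · exact absurd (interior_subset h) hwB
    · exact h
  obtain ⟨q, _, hq1, hq2⟩ := hs _ _ isOpen_interior isClosed_closure.isOpen_compl hcov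
    ⟨z, hz, hz'⟩ ⟨w, hw, hw'⟩
  exact hq2 (subset_closure (interior_subset hq1))

/-- plateau functions around a bounded open set with frontier in a compact subset of `U`. -/
theorem exists_plateau {U B Γ : Set ℂ} (hB : IsOpen B)
    (hBb : Bornology.IsBounded B) (hBn : B.Nonempty) (hfr : frontier B ⊆ Γ) {δ : ℝ} (hδ : 0 < δ)
    (hΓU : cthickening (3 * δ) Γ ⊆ U) :
    ∃ c : ℂ → ℝ, Lc U c ∧ (∀ z, 0 ≤ c z) ∧ (∀ z, c z ≤ 1) ∧ (∀ z, ‖fderiv ℝ c z‖ ≤ 1 / δ) ∧
      (∀ z, z ∈ B → 2 * δ < infDist z Γ → c z = 1) ∧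
      (∀ z, 2 * δ < infDist z Γ → fderiv ℝ c z = 0) := by
  have hBu : B ≠ univ := by
    intro h
    rw [h] at hBb
    exact NormedSpace.unbounded_univ ℝ ℂ hBb
  have hfn : (frontier B).Nonempty := nonempty_frontier_iff.2 ⟨hBn, hBu⟩
  have hΓn : Γ.Nonempty := hfn.mono hfr
  -- distance from outside
  have hdist : ∀ z, z ∉ B → ∀ b ∈ B, infDist z Γ ≤ dist z b := by
    intro z hz b hb
    obtain ⟨w, hw1, hw2⟩ := meets_frontier (convex_segment z b).isPreconnected
      ⟨b, right_mem_segment ℝ z b, hb⟩ ⟨z, left_mem_segment ℝ z b, hz⟩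
    have h1 : infDist z Γ ≤ dist z w := infDist_le_dist_of_mem (hfr hw2)
    refine h1.trans ?_
    have := dist_add_dist_of_mem_segment hw1
    linarith [dist_nonneg (x := w) (y := b)]
  have hin : ∀ z, z ∈ B → ∀ w, dist z w < infDist z Γ → w ∈ B := by
    intro z hz w hw
    by_contra hwB
    obtain ⟨q, hq1, hq2⟩ := meets_frontier (convex_segment z w).isPreconnected
      ⟨z, left_mem_segment ℝ z w, hz⟩ ⟨w, right_mem_segment ℝ z w, hwB⟩
    have h1 : infDist z Γ ≤ dist z q := infDist_le_dist_of_mem (hfr hq2)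
    have := dist_add_dist_of_mem_segment hq1
    linarith [dist_nonneg (x := q) (y := w)]
  set l : ℂ → ℝ := fun z => max 0 (1 - infDist z B / δ) with hl
  have hlip : LipschitzWith (Real.toNNReal (1 / δ)) l := by
    refine LipschitzWith.of_dist_le_mul fun z w => ?_
    rw [Real.coe_toNNReal _ (by positivity), Real.dist_eq]
    have h1 : |l z - l w| ≤ |(1 - infDist z B / δ) - (1 - infDist w B / δ)| := by
      simp only [hl]
      rw [max_comm 0 (1 - infDist z B / δ), max_comm 0 (1 - infDist w B / δ)]
      exact abs_max_sub_max_le_abs (1 - infDist z B / δ) (1 - infDist w B / δ) 0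
    refine h1.trans ?_
    have h2 : (1 - infDist z B / δ) - (1 - infDist w B / δ) = (infDist w B - infDist z B) / δ := by
      ring
    rw [h2, abs_div, abs_of_pos hδ, one_div, inv_mul_eq_div]
    refine div_le_div_of_nonneg_right ?_ hδ.le
    have h3 := (lipschitz_infDist_pt B).dist_le_mul w z
    rw [Real.dist_eq, dist_comm w z] at h3
    simpa using h3
  have hl0 : ∀ z, 0 ≤ l z := fun z => le_max_left _ _
  have hl1 : ∀ z, l z ≤ 1 := by
    intro z
    simp only [hl]
    refine max_le zero_le_one ?_
    have : 0 ≤ infDist z B / δ := div_nonneg infDist_nonneg hδ.le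
    linarith
  have hls : HasCompactSupport l := by
    refine HasCompactSupport.intro (K := cthickening δ B) ?_ ?_
    · exact isCompact_of_isClosed_isBounded isClosed_cthickening hBb.cthickening
    · intro z hz
      simp only [hl]
      apply max_eq_left
      rw [cthickening_eq_preimage_infEDist] at hz
      have h1 : δ < infDist z B := by
        by_contra h
        apply hz
        have h2 : infDist z B ≤ δ := not_lt.1 h
        have h3 : infEDist z B ≠ ⊤ := infEDist_ne_top hBn
        rw [infDist] at h2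
        show infEDist z B ≤ ENNReal.ofReal δ
        exact (ENNReal.le_ofReal_iff_toReal_le h3 hδ.le).2 h2
      have : 1 ≤ infDist z B / δ := (one_le_div hδ).2 h1.le
      linarith
  -- l is locally constant far from Γ
  have hlB : ∀ z, z ∈ B → l z = 1 := by
    intro z hz
    simp only [hl, infDist_zero_of_mem hz]
    simp
  have hlN : ∀ z, z ∉ B → δ ≤ infDist z Γ → l z = 0 := by
    intro z hz h
    simp only [hl]
    apply max_eq_left
    have h1 : δ ≤ infDist z B := by
      by_contra h2
      obtain ⟨b, hb, hbd⟩ := (infDist_lt_iff hBn).1 (not_le.1 h2)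
      have := hdist z hz b hb
      linarith
    have : 1 ≤ infDist z B / δ := (one_le_div hδ).2 h1
    linarith
  obtain ⟨c, hc1, hc2, hc3, hc4, hc5, hc6⟩ := exists_mollify l _ hlip hl0 hl1 hls hδ
  have hfar : ∀ z, 2 * δ < infDist z Γ → (z ∈ B → c z = 1) ∧ (z ∉ B → c z = 0) := by
    intro z hz
    constructor
    · intro hzB
      apply hc6
      intro w hw
      apply hlB
      apply hin z hzB w
      rw [dist_comm]
      have := mem_ball.1 hw
      linarith
    · intro hzB
      apply hc6
      intro w hw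
      have hwd := mem_ball.1 hw
      apply hlN
      · intro hwB
        have := hdist z hzB w hwB
        rw [dist_comm] at this
        linarith
      · have := infDist_le_infDist_add_dist (s := Γ) (x := z) (y := w)
        rw [dist_comm] at this
        linarith
  have hloc : ∀ z, 2 * δ < infDist z Γ → ∀ᶠ w in 𝓝 z, c w = c z := by
    intro z hz
    have ho : ∀ᶠ w in 𝓝 z, 2 * δ < infDist w Γ :=
      (continuous_infDist_pt Γ).continuousAt.eventually (lt_mem_nhds hz)
    by_cases hzB : z ∈ B
    · filter_upwards [ho, hB.mem_nhds hzB] with w hw hwB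
      rw [(hfar w hw).1 hwB, (hfar z hz).1 hzB]
    · have hzc : z ∉ closure B := by
        intro h
        have : z ∈ frontier B := ⟨h, by rwa [hB.interior_eq]⟩
        have := infDist_zero_of_mem (hfr this)
        linarith
      filter_upwards [ho, isClosed_closure.isOpen_compl.mem_nhds hzc] with w hw hwB
      rw [(hfar w hw).2 (fun h => hwB (subset_closure h)), (hfar z hz).2 hzB]
  refine ⟨c, ⟨hc1, hc2, ?_⟩, hc3, hc4, ?_, fun z hz h => (hfar z h).1 hz, ?_⟩
  · intro z hz
    apply hloc
    by_contra h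
    apply hz
    apply hΓU
    rw [cthickening_eq_preimage_infEDist]
    show infEDist z Γ ≤ ENNReal.ofReal (3 * δ)
    rw [ENNReal.le_ofReal_iff_toReal_le (infEDist_ne_top hΓn) (by positivity)]
    have : infDist z Γ ≤ 3 * δ := by linarith
    exact this
  · intro z
    have := hc5 z
    rwa [Real.coe_toNNReal _ (by positivity)] at this
  · intro z hz
    have h1 : c =ᶠ[𝓝 z] fun _ => c z := hloc z hz
    rw [h1.fderiv_eq]
    simp

end Crest.Agent.R105.Uv_913
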