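import Crest.Agent.R105.Tc1_808
import Crest.Agent.R105.Ext1_616
import Crest.Agent.R105.Uv2_913

/-!
Row 105, S0138 (helper913): truncation on one component of `{z ∈ U | t < σ x z}` does not increase
the oscillation at any component of the complement (also if the component straddles the level).
-/

set_option autoImplicit false

namespace Crest.Agent.R105.Uw_913

open Set Filter Topology Metric
open Crest.AnalysisR (IsExteriorDomain)
open Crest.Agent.R105.Tc_808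
open Crest.Agent.R105.Uv_913 (meets_frontier)

/-- basis of neighbourhoods of a component whose trace on `U` is connected -/
theorem exists_conn_nhd {U : Set ℂ} (hU : IsExteriorDomain U) {ζ : ℂ} (hζ : ζ ∉ U) {W : Set ℂ}
    (hW : IsOpen W) (hKW : connectedComponentIn Uᶜ ζ ⊆ W) :
    ∃ O, IsOpen O ∧ connectedComponentIn Uᶜ ζ ⊆ O ∧ O ⊆ W ∧ IsPreconnected (O ∩ U) := by
  obtain ⟨N, hNo, hKN, hNW, hfr, -⟩ := Ext_616.exists_sat_nhd hU hζ hW hKW
  have hζc : ζ ∈ connectedComponentIn Uᶜ ζ := mem_connectedComponentIn hζ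
  have hQc : IsClosed (frontier N) := isClosed_frontier
  refine ⟨connectedComponentIn (frontier N)ᶜ ζ, hQc.isOpen_compl.connectedComponentIn, ?_, ?_, ?_⟩
  · refine isPreconnected_connectedComponentIn.subset_connectedComponentIn hζc ?_
    intro y hy hyf
    exact connectedComponentIn_subset _ _ hy (hfr hyf)
  · refine Subset.trans ?_ hNW
    intro y hy
    by_contra hyN
    obtain ⟨q, hq1, hq2⟩ := meets_frontier (s := connectedComponentIn (frontier N)ᶜ ζ) (B := N)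
      isPreconnected_connectedComponentIn
      ⟨ζ, mem_connectedComponentIn (fun h => hζ (hfr h)), hKN hζc⟩ ⟨y, hy, hyN⟩
    exact connectedComponentIn_subset _ _ hq1 hq2
  · exact Ends_897.preconn_inter hU.2.1.isPreconnected (Ends_897.isCompact_compl hU) hQc hfr ζ

/-- **truncation does not increase the oscillation** -/
theorem osc_trunc {U V : Set ℂ} (hU : IsExteriorDomain U) {x w : ℂ → ℝ} {s : ℝ} {ζ : ℂ}
    (hζ : ζ ∉ U) {O0 : Set ℂ} (hO0 : IsOpen O0) (hKO0 : connectedComponentIn Uᶜ ζ ⊆ O0)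
    (hfr : ∀ z ∈ O0 ∩ U, z ∈ frontier V → x z = s) (hw1 : ∀ z ∈ O0 ∩ U, z ∈ V → w z = s)
    (hw2 : ∀ z ∈ O0 ∩ U, z ∉ V → w z = x z) (hb : ∃ M, ∀ z, |x z| ≤ M) :
    osc Uᶜ w (connectedComponentIn Uᶜ ζ) ≤ osc Uᶜ x (connectedComponentIn Uᶜ ζ) := by
  refine osc_le_of_forall (osc_nonneg _ _ _) fun ε hε => ?_
  obtain ⟨O1, hO1, hKO1, h1⟩ := exists_of_osc_lt hb
    (show osc Uᶜ x (connectedComponentIn Uᶜ ζ) < osc Uᶜ x (connectedComponentIn Uᶜ ζ) + ε by
      linarith)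
  obtain ⟨O, hO, hKO, hOO, hOc⟩ := exists_conn_nhd hU hζ (hO1.inter hO0)
    (subset_inter hKO1 hKO0)
  have hOO1 : O ⊆ O1 := hOO.trans inter_subset_left
  have hOO0 : O ⊆ O0 := hOO.trans inter_subset_right
  have hpos : 0 ≤ osc Uᶜ x (connectedComponentIn Uᶜ ζ) + ε := by
    have := osc_nonneg Uᶜ x (connectedComponentIn Uᶜ ζ)
    linarith
  have key : ∀ a ∈ O ∩ U, a ∈ V → ∀ b ∈ O ∩ U, b ∉ V →
      |s - x b| ≤ osc Uᶜ x (connectedComponentIn Uᶜ ζ) + ε := by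
    intro a ha haV b hb' hbV
    obtain ⟨q, hq1, hq2⟩ := meets_frontier hOc ⟨a, ha, haV⟩ ⟨b, hb', hbV⟩
    rw [← hfr q ⟨hOO0 hq1.1, hq1.2⟩ hq2]
    exact (h1 q (hOO1 hq1.1) (fun h => h hq1.2) b (hOO1 hb'.1) (fun h => h hb'.2)).le
  refine ⟨O, hO, hKO, fun a ha haY b hb' hbY => ?_⟩
  have haU : a ∈ U := not_not.1 haY
  have hbU : b ∈ U := not_not.1 hbY
  by_cases haV : a ∈ V
  · by_cases hbV : b ∈ V
    · rw [hw1 a ⟨hOO0 ha, haU⟩ haV, hw1 b ⟨hOO0 hb', hbU⟩ hbV, sub_self, abs_zero]; exact hpos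
    · rw [hw1 a ⟨hOO0 ha, haU⟩ haV, hw2 b ⟨hOO0 hb', hbU⟩ hbV]
      exact key a ⟨ha, haU⟩ haV b ⟨hb', hbU⟩ hbV
  · by_cases hbV : b ∈ V
    · rw [hw2 a ⟨hOO0 ha, haU⟩ haV, hw1 b ⟨hOO0 hb', hbU⟩ hbV, abs_sub_comm]
      exact key b ⟨hb', hbU⟩ hbV a ⟨ha, haU⟩ haV
    · rw [hw2 a ⟨hOO0 ha, haU⟩ haV, hw2 b ⟨hOO0 hb', hbU⟩ hbV]
      exact (h1 a (hOO1 ha) haY b (hOO1 hb') hbY).le

/-- the frontier of a component of `{z ∈ U | t < f z}` lies on the level -/
theorem frontier_cc {U : Set ℂ} (hU : IsOpen U) {f : ℂ → ℝ} (hf : ContinuousOn f U) {t : ℝ}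
    (z0 : ℂ) : ∀ z ∈ U, z ∈ frontier (connectedComponentIn {z | z ∈ U ∧ t < f z} z0) → f z = t := by
  intro z hz hzf
  set W : Set ℂ := {z | z ∈ U ∧ t < f z} with hW
  have hWo : IsOpen W := hf.isOpen_inter_preimage hU isOpen_Ioi
  set V := connectedComponentIn W z0 with hV
  have hVo : IsOpen V := hWo.connectedComponentIn
  rw [hVo.frontier_eq] at hzf
  have h1 : ¬ t < f z := by
    intro h
    have hzW : z ∈ W := ⟨hz, h⟩
    obtain ⟨q, hq1, hq2⟩ := mem_closure_iff.1 hzf.1 _ hWo.connectedComponentIn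
      (mem_connectedComponentIn hzW)
    apply hzf.2
    rw [hV, connectedComponentIn_eq hq2, ← connectedComponentIn_eq hq1]
    exact mem_connectedComponentIn hzW
  refine le_antisymm (not_lt.1 h1) ?_
  by_contra hlt
  rw [not_le] at hlt
  have hO : IsOpen (U ∩ f ⁻¹' Iio t) := hf.isOpen_inter_preimage hU isOpen_Iio
  obtain ⟨q, hq1, hq2⟩ := mem_closure_iff.1 hzf.1 _ hO ⟨hz, hlt⟩
  have := (connectedComponentIn_subset _ _ hq2).2
  exact absurd hq1.2 (not_lt.2 this.le)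

end Crest.Agent.R105.Uw_913
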