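import Crest.Agent.R105.Uw1_913
import Crest.Agent.R105.Uw2_913
import Crest.Agent.R105.Dir3_508
import Crest.Agent.R105.IfB2_641

/-!
Row 105, S0138 (helper913): truncation on one bounded component of `{z ∈ U | t < σ Re F z}` lowers
the `T`-energy, so a `T`-minimiser has no such component.
-/

set_option autoImplicit false

namespace Crest.Agent.R105.Uw_913

open Complex Set Filter Topology Metric MeasureTheory
open scoped ContDiff NNReal
open Crest.AnalysisR (IsExteriorDomain)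
open Crest.Agent.R105.Tc_808 (osc Cmp)
open Crest.Agent.R105.Uv_913 (meets_frontier smooth_re)
open Crest.Agent.R105.IfB_641 (X0 lap di J contDiff_gx contDiff_gy J_expand)
open Crest.Agent.R105.Bd_775 (gx gy dot en Q)

variable {U V : Set ℂ} {x0 u : ℂ → ℝ} {F : ℂ → ℂ} {σ s : ℝ}

theorem fderiv_re {z : ℂ} (hz : DifferentiableAt ℂ F z) (v : ℂ) :
    fderiv ℝ (fun w => (F w).re) z v = (deriv F z * v).re := by
  have h1 : HasFDerivAt F ((ContinuousLinearMap.toSpanSingleton ℂ (deriv F z)).restrictScalars ℝ)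
      z := (hz.hasDerivAt.hasFDerivAt).restrictScalars ℝ
  have h2 : HasFDerivAt (fun w => (F w).re) (reCLM.comp _) z :=
    (reCLM.hasFDerivAt (x := F z)).comp z h1
  rw [h2.fderiv]
  simp [mul_comm]

/-- the increment of the truncation -/
noncomputable def inc (V : Set ℂ) (F : ℂ → ℂ) (s : ℝ) : ℂ → ℝ :=
  V.indicator fun z => (F z).re - s

theorem inc_of_mem {z : ℂ} (hz : z ∈ V) : inc V F s z = (F z).re - s := indicator_of_mem hz _

theorem inc_of_notMem {z : ℂ} (hz : z ∉ V) : inc V F s z = 0 := indicator_of_notMem hz _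

theorem inc_lip (hU : IsOpen U) (hF : DifferentiableOn ℂ F U)
    (hfr : ∀ z ∈ U, z ∈ frontier V → (F z).re = s) : LocallyLipschitzOn U (inc V F s) := by
  intro z hz
  have h1 : ContDiffAt ℝ 1 (fun w => (F w).re) z :=
    (reCLM.contDiff.contDiffAt.comp z ((smooth_re hU hF hz).of_le (by simp)))
  obtain ⟨K, t, ht, hK⟩ := h1.exists_lipschitzOnWith
  obtain ⟨r, hr, hb⟩ := Metric.mem_nhds_iff.1 (inter_mem ht (hU.mem_nhds hz))
  refine ⟨K, ball z r, mem_nhdsWithin_of_mem_nhds (ball_mem_nhds z hr),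
    LipschitzOnWith.of_dist_le_mul fun a ha b hb' => ?_⟩
  have key : ∀ a ∈ ball z r, a ∈ V → ∀ b ∈ ball z r, b ∉ V →
      |(F a).re - s| ≤ K * dist a b := by
    intro a ha haV b hb' hbV
    have hseg : segment ℝ a b ⊆ ball z r := (convex_ball z r).segment_subset ha hb'
    obtain ⟨q, hq1, hq2⟩ := meets_frontier (convex_segment (𝕜 := ℝ) a b).isPreconnected
      ⟨a, left_mem_segment ℝ a b, haV⟩ ⟨b, right_mem_segment ℝ a b, hbV⟩
    rw [← hfr q (hb (hseg hq1)).2 hq2]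
    have h2 := hK.dist_le_mul a (hb ha).1 q (hb (hseg hq1)).1
    rw [Real.dist_eq] at h2
    refine h2.trans (mul_le_mul_of_nonneg_left ?_ K.2)
    have h3 := (mem_segment_iff_wbtw.1 hq1).dist_add_dist
    have : 0 ≤ dist q b := dist_nonneg
    linarith
  rw [Real.dist_eq]
  by_cases haV : a ∈ V
  · by_cases hbV : b ∈ V
    · rw [inc_of_mem haV, inc_of_mem hbV, sub_sub_sub_cancel_right]
      have := hK.dist_le_mul a (hb ha).1 b (hb hb').1
      rwa [Real.dist_eq] at this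
    · rw [inc_of_mem haV, inc_of_notMem hbV, sub_zero]
      exact key a ha haV b hb' hbV
  · by_cases hbV : b ∈ V
    · rw [inc_of_notMem haV, inc_of_mem hbV, abs_sub_comm, sub_zero, dist_comm]
      exact key b hb' hbV a ha haV
    · rw [inc_of_notMem haV, inc_of_notMem hbV, sub_zero, abs_zero]
      exact mul_nonneg K.2 dist_nonneg

theorem inc_fderiv_mem (hV : IsOpen V) {z : ℂ} (hz : z ∈ V) :
    fderiv ℝ (inc V F s) z = fderiv ℝ (fun w => (F w).re) z := by
  have h1 : inc V F s =ᶠ[𝓝 z] fun w => (F w).re - s := by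
    filter_upwards [hV.mem_nhds hz] with w hw
    rw [inc_of_mem hw]
  rw [h1.fderiv_eq, fderiv_sub_const]

theorem inc_fderiv_notMem (hσ : σ = 1 ∨ σ = -1) (hsg : ∀ z ∈ V, 0 ≤ σ * ((F z).re - s)) {z : ℂ}
    (hz : z ∉ V) : fderiv ℝ (inc V F s) z = 0 := by
  have h1 : ∀ w, 0 ≤ σ * inc V F s w := by
    intro w
    by_cases hw : w ∈ V
    · rw [inc_of_mem hw]; exact hsg w hw
    · rw [inc_of_notMem hw, mul_zero]
  have h0 : inc V F s z = 0 := inc_of_notMem hz
  rcases hσ with rfl | rfl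
  · refine IsLocalMin.fderiv_eq_zero (Eventually.of_forall fun w => ?_)
    rw [h0]; simpa using h1 w
  · refine IsLocalMax.fderiv_eq_zero (Eventually.of_forall fun w => ?_)
    rw [h0]
    have := h1 w
    linarith

theorem gx_inc_mem (hU : IsOpen U) (hF : DifferentiableOn ℂ F U) (hV : IsOpen V) (hVU : V ⊆ U)
    {z : ℂ} (hz : z ∈ V) : gx (inc V F s) z = (deriv F z).re ∧
      gy (inc V F s) z = - (deriv F z).im := by
  have hd : DifferentiableAt ℂ F z := hF.differentiableAt (hU.mem_nhds (hVU hz))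
  unfold Bd_775.gx Bd_775.gy
  rw [inc_fderiv_mem hV hz, fderiv_re hd, fderiv_re hd]
  simp

theorem gx_inc_notMem (hσ : σ = 1 ∨ σ = -1) (hsg : ∀ z ∈ V, 0 ≤ σ * ((F z).re - s)) {z : ℂ}
    (hz : z ∉ V) : gx (inc V F s) z = 0 ∧ gy (inc V F s) z = 0 := by
  unfold Bd_775.gx Bd_775.gy
  rw [inc_fderiv_notMem hσ hsg hz]
  simp

theorem en_inc (hU : IsOpen U) (hF : DifferentiableOn ℂ F U) (hV : IsOpen V) (hVU : V ⊆ U)
    (hσ : σ = 1 ∨ σ = -1) (hsg : ∀ z ∈ V, 0 ≤ σ * ((F z).re - s)) :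
    dot (inc V F s) (inc V F s) = V.indicator fun z => ‖deriv F z‖ ^ 2 := by
  funext z
  by_cases hz : z ∈ V
  · obtain ⟨h1, h2⟩ := gx_inc_mem (s := s) hU hF hV hVU hz
    rw [indicator_of_mem hz]
    unfold Bd_775.dot
    rw [h1, h2, Complex.sq_norm, Complex.normSq_apply]; ring
  · obtain ⟨h1, h2⟩ := gx_inc_notMem hσ hsg hz
    rw [indicator_of_notMem hz]
    unfold Bd_775.dot
    rw [h1, h2]; ring

/-- local energy of `F` -/
theorem energy (hU : IsOpen U) (hF : DifferentiableOn ℂ F U) (hx : X0 Uᶜ x0) (hu : Q Uᶜ u)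
    (hre : ∀ z ∈ U, (F z).re = x0 z + u z) (R : ℝ) :
    IntegrableOn (fun z => ‖deriv F z‖ ^ 2) (U ∩ ball 0 R) := by
  have hm : MeasurableSet (U ∩ ball (0 : ℂ) R) := hU.measurableSet.inter measurableSet_ball
  have hfin : IntegrableOn (Bd_775.en u) U := by
    have := hu.fin
    rwa [compl_compl] at this
  have h1 : IntegrableOn (Bd_775.en u) (U ∩ ball 0 R) := hfin.mono_set inter_subset_left
  have hcx : Continuous (Bd_775.en x0) :=
    ((contDiff_gx hx.sm).continuous.pow 2).add ((contDiff_gy hx.sm).continuous.pow 2)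
  have h2 : IntegrableOn (Bd_775.en x0) (U ∩ ball 0 R) :=
    (hcx.continuousOn.integrableOn_compact (isCompact_closedBall (0 : ℂ) R)).mono_set
      (inter_subset_right.trans ball_subset_closedBall)
  refine Integrable.mono' ((h1.const_mul 2).add (h2.const_mul 2)) ?_ ?_
  · refine ContinuousOn.aestronglyMeasurable ?_ hm
    exact ((hF.deriv hU).continuousOn.norm.pow 2).mono inter_subset_left
  · rw [ae_restrict_iff' hm]
    refine Eventually.of_forall fun z hz => ?_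
    have hn : U ∈ 𝓝 z := hU.mem_nhds hz.1
    have hpd : DifferentiableAt ℂ F z := hF.differentiableAt hn
    have dre : DifferentiableAt ℝ (fun w => (F w).re) z :=
      reCLM.differentiableAt.comp z (hpd.restrictScalars ℝ)
    have dx0 : DifferentiableAt ℝ x0 z := hx.sm.contDiffAt.differentiableAt (by simp)
    have e1 : u =ᶠ[𝓝 z] fun w => (F w).re - x0 w := by
      filter_upwards [hn] with w hw
      rw [hre w hw]; ring
    have g1 : gx u z = (deriv F z).re - gx x0 z := by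
      rw [Bd_775.gx_eq_of_eventuallyEq e1, Bd_775.gx_sub dre dx0]
      congr 1
      show fderiv ℝ (fun w => (F w).re) z 1 = _
      rw [fderiv_re hpd]; simp
    have g2 : gy u z = -(deriv F z).im - gy x0 z := by
      rw [Bd_775.gy_eq_of_eventuallyEq e1, Bd_775.gy_sub dre dx0]
      congr 1
      show fderiv ℝ (fun w => (F w).re) z I = _
      rw [fderiv_re hpd]; simp
    have g6 : ‖deriv F z‖ ^ 2 = (deriv F z).re ^ 2 + (deriv F z).im ^ 2 := by
      rw [Complex.sq_norm, Complex.normSq_apply]; ring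
    rw [Real.norm_of_nonneg (by positivity), g6]
    show _ ≤ 2 * Bd_775.en u z + 2 * Bd_775.en x0 z
    unfold Bd_775.en
    rw [g1, g2]
    nlinarith [sq_nonneg ((deriv F z).re - 2 * gx x0 z), sq_nonneg ((deriv F z).im + 2 * gy x0 z)]

theorem intV (hU : IsOpen U) (hF : DifferentiableOn ℂ F U) (hx : X0 Uᶜ x0) (hu : Q Uᶜ u)
    (hre : ∀ z ∈ U, (F z).re = x0 z + u z) (hVU : V ⊆ U)
    (hVb : Bornology.IsBounded V) : IntegrableOn (fun z => ‖deriv F z‖ ^ 2) V := by
  obtain ⟨R, hR⟩ := hVb.subset_ball (0 : ℂ)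
  exact (energy hU hF hx hu hre R).mono_set (subset_inter hVU hR)

theorem inc_Q (hU : IsOpen U) (hF : DifferentiableOn ℂ F U) (hx : X0 Uᶜ x0) (hu : Q Uᶜ u)
    (hre : ∀ z ∈ U, (F z).re = x0 z + u z) (hV : IsOpen V) (hVU : V ⊆ U)
    (hVb : Bornology.IsBounded V) (hfr : ∀ z ∈ U, z ∈ frontier V → (F z).re = s)
    (hσ : σ = 1 ∨ σ = -1) (hsg : ∀ z ∈ V, 0 ≤ σ * ((F z).re - s)) :
    Q Uᶜ (inc V F s) := by
  refine ⟨?_, ?_, ?_⟩
  · obtain ⟨M, hM⟩ := hu.bdd
    obtain ⟨R, hR⟩ := hVb.subset_closedBall (0 : ℂ)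
    obtain ⟨M', hM'⟩ := (isCompact_closedBall (0 : ℂ) R).exists_bound_of_continuousOn
      hx.sm.continuous.continuousOn
    refine ⟨|M'| + M + |s|, fun z => ?_⟩
    have hM0 : 0 ≤ M := (abs_nonneg _).trans (hM z)
    by_cases hz : z ∈ V
    · rw [inc_of_mem hz, hre z (hVU hz)]
      have h1 := hM z
      have h2 := (hM' z (hR hz)).trans (le_abs_self M')
      rw [Real.norm_eq_abs] at h2
      calc |x0 z + u z - s| ≤ |x0 z + u z| + |s| := abs_sub _ _
        _ ≤ |x0 z| + |u z| + |s| := by linarith [abs_add_le (x0 z) (u z)]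
        _ ≤ _ := by linarith
    · rw [inc_of_notMem hz, abs_zero]
      positivity
  · rw [compl_compl]; exact inc_lip hU hF hfr
  · rw [compl_compl]
    have h1 : en (inc V F s) = V.indicator fun z => ‖deriv F z‖ ^ 2 := by
      rw [← en_inc (s := s) hU hF hV hVU hσ hsg]
      funext z
      unfold Bd_775.en Bd_775.dot
      ring
    rw [h1]
    exact ((intV hU hF hx hu hre hVU hVb).integrable_indicator hV.measurableSet).integrableOn

/-- integration by parts of the increment against the smooth coordinate -/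
theorem ibp_inc (hU : IsOpen U) (hx : X0 Uᶜ x0) {ψ : ℂ → ℝ} (hl : LocallyLipschitzOn U ψ) {R : ℝ}
    (hR : ∀ z, R < ‖z‖ → ψ z = 0) :
    IntegrableOn (dot x0 ψ) U ∧ ∫ z in U, dot x0 ψ z = - ∫ z, ψ z * lap x0 z := by
  have hz0 : ∀ z, z ∉ tsupport x0 → x0 =ᶠ[𝓝 z] 0 := fun z hz =>
    notMem_tsupport_iff_eventuallyEq.1 hz
  have hsuppU : tsupport x0 ⊆ U := by
    have := hx.zero
    rwa [compl_compl] at this
  have hK : IsCompact (tsupport x0 ∩ closedBall (0 : ℂ) (R + 1)) :=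
    (isCompact_closedBall _ _).inter_left (isClosed_tsupport x0)
  obtain ⟨χ, c1, c2, c3, c4, -⟩ := Dir_508.exists_cutoff hK hU (inter_subset_left.trans hsuppU)
  obtain ⟨C, hC⟩ := Dir_508.lipschitz_mul hl c1 c2 c3
  obtain ⟨η, d1, d2, -, d4, -⟩ := Dir_508.exists_cutoff (isCompact_closedBall (0 : ℂ) (R + 1))
    isOpen_univ (subset_univ _)
  rw [eventually_nhdsSet_iff_forall] at c4 d4
  set f : ℂ → ℝ := fun z => χ z * ψ z with hf
  have hψ0 : ∀ z, R < ‖z‖ → ψ =ᶠ[𝓝 z] 0 := by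
    intro z hz
    have ho : IsOpen {w : ℂ | R < ‖w‖} := isOpen_lt continuous_const continuous_norm
    filter_upwards [ho.mem_nhds hz] with w hw using hR w hw
  -- the three zones
  have zone : ∀ z, z ∈ tsupport x0 → ‖z‖ ≤ R + 1 → f =ᶠ[𝓝 z] ψ ∧ η =ᶠ[𝓝 z] fun _ => 1 := by
    intro z hz hzR
    have hzb : z ∈ closedBall (0 : ℂ) (R + 1) := by rwa [mem_closedBall_zero_iff]
    refine ⟨?_, d4 z hzb⟩
    filter_upwards [c4 z ⟨hz, hzb⟩] with w hw
    rw [hf]; simp only [hw, one_mul]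
  have hsm : ∀ g : ℂ → ℝ, ContDiff ℝ ∞ g → ContDiff ℝ ∞ (fun z => η z * g z) :=
    fun g hg => d1.mul hg
  have hcp : ∀ g : ℂ → ℝ, HasCompactSupport (fun z => η z * g z) := fun g => d2.mul_right
  -- pointwise identities
  have pt : ∀ (v : ℂ) (z : ℂ), fderiv ℝ f z v * (η z * fderiv ℝ x0 z v)
      = fderiv ℝ ψ z v * fderiv ℝ x0 z v := by
    intro v z
    by_cases hz : z ∈ tsupport x0
    · by_cases hzR : ‖z‖ ≤ R + 1
      · obtain ⟨e1, e2⟩ := zone z hz hzR
        rw [e1.fderiv_eq, e2.self_of_nhds, one_mul]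
      · have hzR' : R < ‖z‖ := by linarith [not_le.1 hzR]
        have e3 : f =ᶠ[𝓝 z] 0 := by
          filter_upwards [hψ0 z hzR'] with w hw
          rw [hf]; simp only [hw, Pi.zero_apply, mul_zero]
        rw [e3.fderiv_eq, (hψ0 z hzR').fderiv_eq]
        simp
    · rw [(hz0 z hz).fderiv_eq]; simp
  have pt2 : ∀ (v : ℂ) (z : ℂ), fderiv ℝ (fun z => η z * fderiv ℝ x0 z v) z v * f z
      = fderiv ℝ (fun z => fderiv ℝ x0 z v) z v * ψ z := by
    intro v z
    by_cases hz : z ∈ tsupport x0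
    · by_cases hzR : ‖z‖ ≤ R + 1
      · obtain ⟨e1, e2⟩ := zone z hz hzR
        have e3 : (fun z => η z * fderiv ℝ x0 z v) =ᶠ[𝓝 z] fun z => fderiv ℝ x0 z v := by
          filter_upwards [e2] with w hw
          rw [hw, one_mul]
        rw [e3.fderiv_eq, e1.self_of_nhds]
      · have hzR' : R < ‖z‖ := by linarith [not_le.1 hzR]
        have e3 : f z = 0 := by
          rw [hf]; simp only [hR z hzR', mul_zero]
        rw [e3, hR z hzR', mul_zero, mul_zero]
    · have e1 : (fun z => fderiv ℝ x0 z v) =ᶠ[𝓝 z] fun _ => 0 := by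
        filter_upwards [(hz0 z hz).eventuallyEq_nhds] with w hw
        rw [hw.fderiv_eq]; simp
      have e2 : (fun z => η z * fderiv ℝ x0 z v) =ᶠ[𝓝 z] fun _ => 0 := by
        filter_upwards [e1] with w hw
        rw [hw, mul_zero]
      rw [e1.fderiv_eq, e2.fderiv_eq]; simp
  have hgx : ∀ v : ℂ, ContDiff ℝ ∞ (fun z => fderiv ℝ x0 z v) := fun v =>
    (hx.sm.fderiv_right (m := ∞) le_rfl).clm_apply contDiff_const
  have ib : ∀ v : ℂ, ∫ z, fderiv ℝ ψ z v * fderiv ℝ x0 z v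
      = - ∫ z, fderiv ℝ (fun z => fderiv ℝ x0 z v) z v * ψ z := by
    intro v
    have := Dir_508.int_fderiv_mul hC (hsm _ (hgx v)) (hcp _) v
    simp only [pt v, pt2 v] at this
    exact this
  have ii : ∀ v : ℂ, Integrable fun z => fderiv ℝ ψ z v * fderiv ℝ x0 z v := by
    intro v
    have hg : Integrable fun z => η z * fderiv ℝ x0 z v :=
      (hsm _ (hgx v)).continuous.integrable_of_hasCompactSupport (hcp _)
    have : Integrable fun z => fderiv ℝ f z v * (η z * fderiv ℝ x0 z v) := by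
      refine Integrable.bdd_mul (c := C * ‖v‖) hg ?_ (ae_of_all _ fun z => ?_)
      · exact (measurable_fderiv_apply_const ℝ f v).aestronglyMeasurable
      · exact ((fderiv ℝ f z).le_opNorm v).trans (mul_le_mul_of_nonneg_right
          (norm_fderiv_le_of_lipschitz ℝ hC) (norm_nonneg _))
    simpa only [pt v] using this
  have ij : ∀ v : ℂ, Integrable fun z => fderiv ℝ (fun z => fderiv ℝ x0 z v) z v * ψ z := by
    intro v
    have h1 : Continuous fun z => fderiv ℝ (fun z => η z * fderiv ℝ x0 z v) z v :=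
      ((hsm _ (hgx v)).continuous_fderiv (by simp)).clm_apply continuous_const
    have : Integrable fun z => fderiv ℝ (fun z => η z * fderiv ℝ x0 z v) z v * f z :=
      (h1.mul hC.continuous).integrable_of_hasCompactSupport
        (((hcp _).fderiv_apply ℝ v).mul_right)
    simpa only [pt2 v] using this
  have hdot : dot x0 ψ = fun z => fderiv ℝ ψ z 1 * fderiv ℝ x0 z 1
      + fderiv ℝ ψ z I * fderiv ℝ x0 z I := by
    funext z
    unfold Bd_775.dot Bd_775.gx Bd_775.gy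
    ring
  have hint : Integrable (dot x0 ψ) := by
    rw [hdot]; exact (ii 1).add (ii I)
  refine ⟨hint.integrableOn, ?_⟩
  have hzero : ∀ z, z ∉ U → dot x0 ψ z = 0 := by
    intro z hz
    rw [hdot]
    simp only [(hz0 z fun h => hz (hsuppU h)).fderiv_eq]
    simp
  rw [setIntegral_eq_integral_of_forall_compl_eq_zero hzero, hdot]
  rw [integral_add (ii 1) (ii I), ib 1, ib I]
  have hl2 : (fun z => ψ z * lap x0 z) = fun z => fderiv ℝ (fun z => fderiv ℝ x0 z 1) z 1 * ψ z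
      + fderiv ℝ (fun z => fderiv ℝ x0 z I) z I * ψ z := by
    funext z
    unfold IfB_641.lap Bd_775.gx Bd_775.gy
    ring
  rw [hl2, integral_add (ij 1) (ij I)]
  ring

/-- **the energy drop** -/
theorem J_trunc (hU : IsOpen U) (hF : DifferentiableOn ℂ F U) (hx : X0 Uᶜ x0) (hu : Q Uᶜ u)
    (hre : ∀ z ∈ U, (F z).re = x0 z + u z) (hV : IsOpen V) (hVU : V ⊆ U)
    (hVb : Bornology.IsBounded V) (hfr : ∀ z ∈ U, z ∈ frontier V → (F z).re = s)
    (hσ : σ = 1 ∨ σ = -1) (hsg : ∀ z ∈ V, 0 ≤ σ * ((F z).re - s)) :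
    J Uᶜ x0 (fun z => u z + (-1) * inc V F s z) = J Uᶜ x0 u - ∫ z in V, ‖deriv F z‖ ^ 2 := by
  have hQ := inc_Q hU hF hx hu hre hV hVU hVb hfr hσ hsg
  rw [J_expand hU.isClosed_compl hx hu hQ (-1)]
  obtain ⟨R, hR⟩ := hVb.subset_closedBall (0 : ℂ)
  have hR' : ∀ z, R < ‖z‖ → inc V F s z = 0 := by
    intro z hz
    refine inc_of_notMem fun h => ?_
    have := hR h
    rw [mem_closedBall_zero_iff] at this
    linarith
  obtain ⟨i1, i2⟩ := ibp_inc hU hx (inc_lip hU hF hfr) hR'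
  have i3 : ∫ z, inc V F s z * lap x0 z = - ∫ z in U, dot x0 (inc V F s) z := by
    rw [i2, neg_neg]
  have hD : di Uᶜ (inc V F s) (inc V F s) = ∫ z in V, ‖deriv F z‖ ^ 2 := by
    unfold IfB_641.di
    rw [compl_compl, en_inc (s := s) hU hF hV hVU hσ hsg, setIntegral_indicator hV.measurableSet,
      inter_eq_self_of_subset_right hVU]
  have hE : di Uᶜ u (inc V F s) + ∫ z in U, dot x0 (inc V F s) z
      = ∫ z in V, ‖deriv F z‖ ^ 2 := by
    have h1 := Bd_775.integrableOn_dot hu hQ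
    rw [compl_compl] at h1
    unfold IfB_641.di
    rw [compl_compl, ← integral_add h1 i1, ← hD]
    unfold IfB_641.di
    rw [compl_compl, en_inc (s := s) hU hF hV hVU hσ hsg]
    refine setIntegral_congr_fun hU.measurableSet fun z hz => ?_
    have hn : U ∈ 𝓝 z := hU.mem_nhds hz
    have hpd : DifferentiableAt ℂ F z := hF.differentiableAt hn
    have dre : DifferentiableAt ℝ (fun w => (F w).re) z :=
      reCLM.differentiableAt.comp z (hpd.restrictScalars ℝ)
    have dx0 : DifferentiableAt ℝ x0 z := hx.sm.contDiffAt.differentiableAt (by simp)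
    by_cases hzV : z ∈ V
    · obtain ⟨k1, k2⟩ := gx_inc_mem (s := s) hU hF hV hVU hzV
      have e1 : u =ᶠ[𝓝 z] fun w => (F w).re - x0 w := by
        filter_upwards [hn] with w hw
        rw [hre w hw]; ring
      have g1 : gx u z = (deriv F z).re - gx x0 z := by
        rw [Bd_775.gx_eq_of_eventuallyEq e1, Bd_775.gx_sub dre dx0]
        congr 1
        show fderiv ℝ (fun w => (F w).re) z 1 = _
        rw [fderiv_re hpd]; simp
      have g2 : gy u z = -(deriv F z).im - gy x0 z := by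
        rw [Bd_775.gy_eq_of_eventuallyEq e1, Bd_775.gy_sub dre dx0]
        congr 1
        show fderiv ℝ (fun w => (F w).re) z I = _
        rw [fderiv_re hpd]; simp
      rw [indicator_of_mem hzV]
      unfold Bd_775.dot
      rw [g1, g2, k1, k2, Complex.sq_norm, Complex.normSq_apply]; ring
    · obtain ⟨k1, k2⟩ := gx_inc_notMem hσ hsg hzV
      rw [indicator_of_notMem hzV]
      unfold Bd_775.dot
      rw [k1, k2]; ring
  rw [i3, hD]
  have : di Uᶜ u (inc V F s) = (∫ z in V, ‖deriv F z‖ ^ 2)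
      - ∫ z in U, dot x0 (inc V F s) z := by linarith
  rw [this]; ring

/-- oscillations do not grow -/
theorem osc_inc (hU : IsExteriorDomain U) (hx : X0 Uᶜ x0) (hu : Q Uᶜ u)
    (hre : ∀ z ∈ U, (F z).re = x0 z + u z)
    (hfr : ∀ z ∈ U, z ∈ frontier V → (F z).re = s) (K : Cmp Uᶜ) :
    osc Uᶜ (fun z => u z + (-1) * inc V F s z) K.1 ≤ osc Uᶜ u K.1 := by
  obtain ⟨K, ζ, hζ, rfl⟩ := K
  have hsub : Uᶜ ⊆ (tsupport x0)ᶜ := by
    intro z hz h
    have := hx.zero h
    rw [compl_compl] at this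
    exact hz this
  have hx00 : ∀ z ∈ (tsupport x0)ᶜ ∩ U, (F z).re = u z := by
    intro z hz
    rw [hre z hz.2, image_eq_zero_of_notMem_tsupport hz.1, zero_add]
  refine osc_trunc (V := V) (s := s) (O0 := (tsupport x0)ᶜ) hU hζ
    (isClosed_tsupport x0).isOpen_compl
    ((connectedComponentIn_subset _ _).trans hsub) ?_ ?_ ?_ hu.bdd
  · intro z hz hzf
    rw [← hx00 z hz]; exact hfr z hz.2 hzf
  · intro z hz hzV
    rw [inc_of_mem hzV, hx00 z hz]; ring
  · intro z hz hzV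
    rw [inc_of_notMem hzV]; ring

/-- the truncated function is `T`-finite -/
theorem trunc_TT (hU : IsExteriorDomain U) (hF : DifferentiableOn ℂ F U) (hx : X0 Uᶜ x0)
    (hu : Tc_808.TT Uᶜ u) (hre : ∀ z ∈ U, (F z).re = x0 z + u z) (hV : IsOpen V) (hVU : V ⊆ U)
    (hVb : Bornology.IsBounded V) (hfr : ∀ z ∈ U, z ∈ frontier V → (F z).re = s)
    (hσ : σ = 1 ∨ σ = -1) (hsg : ∀ z ∈ V, 0 ≤ σ * ((F z).re - s)) :
    Tc_808.TT Uᶜ (fun z => u z + (-1) * inc V F s z) := by
  have hQ := inc_Q hU.1 hF hx hu.q hre hV hVU hVb hfr hσ hsg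
  refine ⟨hu.q.add hU.1.isClosed_compl (IfB_641.Q.smul' hU.1.isClosed_compl hQ (-1)), ?_⟩
  refine Summable.of_nonneg_of_le (fun K => sq_nonneg _) (fun K => ?_) hu.sum
  exact pow_le_pow_left₀ (Tc_808.osc_nonneg _ _ _) (osc_inc hU hx hu.q hre hfr K) 2

/-- **a function which is `T`-minimal against the truncation has no bounded component of
`{z ∈ U | t < σ Re F z}`** -/
theorem no_bounded_comp (hU : IsExteriorDomain U) (hF : DifferentiableOn ℂ F U) (hx : X0 Uᶜ x0)
    (hu : Tc_808.TT Uᶜ u) (hre : ∀ z ∈ U, (F z).re = x0 z + u z)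
    (hinf : ∃ c : ℂ, Tendsto (fun z => F z - z) (cocompact ℂ) (𝓝 c))
    (hσ : σ = 1 ∨ σ = -1) {t : ℝ} {z0 : ℂ} (hz0 : z0 ∈ U) (ht : t < σ * (F z0).re)
    (hVdef : V = connectedComponentIn {z | z ∈ U ∧ t < σ * (F z).re} z0)
    (hmin : J Uᶜ x0 u + ∑' K : Cmp Uᶜ, osc Uᶜ u K.1 ^ 2
      ≤ J Uᶜ x0 (fun z => u z + (-1) * inc V F (σ * t) z)
        + ∑' K : Cmp Uᶜ, osc Uᶜ (fun z => u z + (-1) * inc V F (σ * t) z) K.1 ^ 2) :
    ¬ Bornology.IsBounded V := by
  intro hVb
  have hσ2 : σ * σ = 1 := by rcases hσ with rfl | rfl <;> norm_num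
  have hσ0 : σ ≠ 0 := by rcases hσ with rfl | rfl <;> norm_num
  have hfc : ContinuousOn (fun z => σ * (F z).re) U :=
    continuousOn_const.mul (continuous_re.comp_continuousOn hF.continuousOn)
  have hWo : IsOpen {z | z ∈ U ∧ t < σ * (F z).re} := hfc.isOpen_inter_preimage hU.1 isOpen_Ioi
  have hV : IsOpen V := by rw [hVdef]; exact hWo.connectedComponentIn
  have hVW : V ⊆ {z | z ∈ U ∧ t < σ * (F z).re} := by
    rw [hVdef]; exact connectedComponentIn_subset _ _
  have hVU : V ⊆ U := fun z hz => (hVW hz).1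
  have hfr : ∀ z ∈ U, z ∈ frontier V → (F z).re = σ * t := by
    intro z hz hzf
    rw [hVdef] at hzf
    have h1 := frontier_cc hU.1 hfc z0 z hz hzf
    rw [← h1, ← mul_assoc, hσ2, one_mul]
  have hsg : ∀ z ∈ V, 0 ≤ σ * ((F z).re - σ * t) := by
    intro z hz
    have h1 := (hVW hz).2
    rw [mul_sub, ← mul_assoc, hσ2, one_mul]
    linarith
  rw [J_trunc hU.1 hF hx hu.q hre hV hVU hVb hfr hσ hsg] at hmin
  have hT := trunc_TT hU hF hx hu hre hV hVU hVb hfr hσ hsg
  have hs : ∑' K : Cmp Uᶜ, osc Uᶜ (fun z => u z + (-1) * inc V F (σ * t) z) K.1 ^ 2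
      ≤ ∑' K : Cmp Uᶜ, osc Uᶜ u K.1 ^ 2 :=
    hT.sum.tsum_le_tsum (fun K => pow_le_pow_left₀ (Tc_808.osc_nonneg _ _ _)
      (osc_inc hU hx hu.q hre hfr K) 2) hu.sum
  have hle : ∫ z in V, ‖deriv F z‖ ^ 2 ≤ 0 := by linarith
  have hint := intV (V := V) hU.1 hF hx hu.q hre hVU hVb
  have h0 : ∫ z in V, ‖deriv F z‖ ^ 2 = 0 :=
    le_antisymm hle (integral_nonneg fun z => sq_nonneg _)
  have hae := (setIntegral_eq_zero_iff_of_nonneg_ae
    (Eventually.of_forall fun z => sq_nonneg ‖deriv F z‖) hint).1 h0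
  have hc : ContinuousOn (fun z => ‖deriv F z‖ ^ 2) V :=
    (((hF.deriv hU.1).continuousOn.norm.pow 2)).mono hVU
  have hz : EqOn (fun z => ‖deriv F z‖ ^ 2) (fun _ => 0) V :=
    MeasureTheory.Measure.eqOn_open_of_ae_eq hae hV hc continuousOn_const
  have hz0V : z0 ∈ V := by rw [hVdef]; exact mem_connectedComponentIn ⟨hz0, ht⟩
  have han : AnalyticOnNhd ℂ (deriv F) U := (hF.analyticOnNhd hU.1).deriv
  have hev : deriv F =ᶠ[𝓝 z0] 0 := by
    filter_upwards [hV.mem_nhds hz0V] with w hw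
    exact norm_eq_zero.1 (pow_eq_zero_iff (two_ne_zero) |>.1 (hz hw))
  have hall := han.eqOn_zero_of_preconnected_of_eventuallyEq_zero hU.2.1.isPreconnected hz0 hev
  have hUb : Bornology.IsBounded Uᶜ := (Ends_897.isCompact_compl hU).isBounded
  obtain ⟨z2, hz2, hne⟩ := exists_deriv_ne hU.1 hUb hF hinf
  exact hne (hall hz2)

/-- **univalence in the T-frame** -/
theorem injOn_of_T_min (hU : IsExteriorDomain U) (hF : DifferentiableOn ℂ F U) (hx : X0 Uᶜ x0)
    (hu : Tc_808.TT Uᶜ u) (hre : ∀ z ∈ U, (F z).re = x0 z + u z)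
    (hinf : ∃ c : ℂ, Tendsto (fun z => F z - z) (cocompact ℂ) (𝓝 c))
    (hEL : Uv_913.ELIneq U F)
    (hmin : ∀ σ : ℝ, σ = 1 ∨ σ = -1 → ∀ t : ℝ, ∀ z0 ∈ U, t < σ * (F z0).re → ∀ V : Set ℂ,
      V = connectedComponentIn {z | z ∈ U ∧ t < σ * (F z).re} z0 → Bornology.IsBounded V →
      J Uᶜ x0 u + ∑' K : Cmp Uᶜ, osc Uᶜ u K.1 ^ 2
        ≤ J Uᶜ x0 (fun z => u z + (-1) * inc V F (σ * t) z)
          + ∑' K : Cmp Uᶜ, osc Uᶜ (fun z => u z + (-1) * inc V F (σ * t) z) K.1 ^ 2) :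
    InjOn F U := by
  have hUb : Bornology.IsBounded Uᶜ := (Ends_897.isCompact_compl hU).isBounded
  refine injOn_T hU.1 hU.2.1.isPreconnected hUb hF hinf (energy hU.1 hF hx hu.q hre) hEL ?_
  intro σ hσ a b hab
  refine ⟨(a + b) / 2, ⟨by linarith, by linarith⟩, fun z hz ht hb => ?_⟩
  exact no_bounded_comp hU hF hx hu hre hinf hσ hz ht rfl
    (hmin σ hσ _ z hz ht _ rfl hb) hb

end Crest.Agent.R105.Uw_913
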