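import Crest.Agent.R105.Grd3_782
import Crest.Agent.R105.Att3_790
import Crest.Agent.R105.Uni3_659
import Crest.Agent.R105.Elf3_600
import Crest.Agent.R105.Uw3_913

/-!
# Row 105, S0138, first half (T-frame, null image of 459 #9956): literal Props (helper8)

`Y = Uᶜ`, `U` an exterior domain, `x0` : the coordinate made constant near `Y` (`IfB_641.X0`).
Functions `φ ∈ TT Y` (808), `x = x0 + φ`; `NI`, `Swd`, `up`, `lo`, `ZF`, `MU` of 459's `Ni0`.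

Leaves (one owner each): `SWITCHP` (209), `LINP`, `CLOSEDP` (439 / 732 / 31), `AREAP` (459),
`CONVP` (755), `CUTP` (free), `VALP` (459).  Output: `Pk` = the package after attainment.
-/

set_option autoImplicit false

open MeasureTheory Set Filter Topology Metric
open scoped NNReal ENNReal ContDiff

namespace Crest.Agent.R105.SkA_8

open Crest.AnalysisR Bd_775 IfB_641 Tc_808 Ni_459 Grd_782

/-- **SWITCHP** (NI-6, owner 209): exact switching, compactly supported class -/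
def SWITCHP : Prop := ∀ (Y : Set ℂ) (x0 : ℂ → ℝ), IsExteriorDomain Yᶜ → X0 Y x0 →
  SwitchP Y x0 HasCompactSupport

/-- **LINP** ((P2) linear, owners 439 / 732 / 31): the commutant of a switched function is linear -/
def LINP : Prop := ∀ (Y : Set ℂ) (x0 : ℂ → ℝ), IsExteriorDomain Yᶜ → X0 Y x0 →
  ∀ a, TT Y a → HasCompactSupport a → Swd Y (fun z => x0 z + a z) →
    ∀ b b' : ℂ → ℝ, TT Y b → TT Y b' → NI Y a b → NI Y a b' →
      ∀ s t : ℝ, NI Y a (fun z => s * b z + t * b' z)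

/-- **CLOSEDP** ((P2) closed, owners 439 / 732 / 31): the commutant of a switched function is
closed: locally uniform convergence off `Y`, gradients in `L²`, oscillations in `ℓ²` -/
def CLOSEDP : Prop := ∀ (Y : Set ℂ) (x0 : ℂ → ℝ), IsExteriorDomain Yᶜ → X0 Y x0 →
  ∀ a, TT Y a → HasCompactSupport a → Swd Y (fun z => x0 z + a z) →
    ∀ (b : ℕ → ℂ → ℝ) (ψ : ℂ → ℝ) (σ : Cmp Y → ℝ), (∀ n, TT Y (b n)) → TT Y ψ →
      (∀ n, NI Y a (b n)) → (Summable fun K => σ K ^ 2) →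
      (∀ A, IsCompact A → A ⊆ Yᶜ → TendstoUniformlyOn b ψ atTop A) →
      Tendsto (fun n => ∫ z in Yᶜ, en (fun w => b n w - ψ w) z) atTop (𝓝 0) →
      Tendsto (fun n => ∑' K : Cmp Y, (Tc_808.osc Y (b n) K.1 - σ K) ^ 2) atTop (𝓝 0) →
      (∀ K : Cmp Y, Tc_808.osc Y ψ K.1 ≤ σ K) → NI Y a ψ

/-- **AREAP** (T3 of #10219, owner 459) -/
def AREAP : Prop := ∀ (Y : Set ℂ) (a b : ℂ → ℝ), IsExteriorDomain Yᶜ →
  LocallyLipschitzOn Yᶜ a → LocallyLipschitzOn Yᶜ b → LB a → LB b →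
  {K : Cmp Y | Tc_808.osc Y a K.1 ≠ 0}.Countable → {K : Cmp Y | Tc_808.osc Y b K.1 ≠ 0}.Countable →
  NI Y a b → ∀ F, IsCompact F → volume (ZF Y a b F) ≤ MU Y a b F

/-- **CONVP** (node CONV, owner 755): the limit of the greedy sequence -/
def CONVP : Prop := ∀ (Y : Set ℂ) (x0 : ℂ → ℝ), IsExteriorDomain Yᶜ → X0 Y x0 →
  ∀ (u : ℕ → ℂ → ℝ) (m : ℝ) (σ : Cmp Y → ℝ), SelT Y x0 HasCompactSupport u m σ →
    (∀ ψ, TT Y ψ → HasCompactSupport ψ → (∀ z ∈ Y, ∀ᶠ w in 𝓝 z, ψ w = ψ z) →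
      Tendsto (fun n => di Y (u n) ψ - ∫ z, ψ z * lap x0 z) atTop (𝓝 0)) →
    ∃ (F : ℂ → ℂ) (ψ : ℂ → ℝ) (c : ℕ → ℝ), DifferentiableOn ℂ F Yᶜ ∧
      (∀ z ∈ Yᶜ, (F z).re = x0 z + ψ z) ∧
      (∃ c' : ℂ, Tendsto (fun z => F z - z) (cocompact ℂ) (𝓝 c')) ∧ Q Y ψ ∧
      (∀ A, IsCompact A → A ⊆ Yᶜ → TendstoUniformlyOn (fun n z => u n z + c n) ψ atTop A) ∧
      Tendsto (fun n => ∫ z in Yᶜ, en (fun w => (u n w + c n) - ψ w) z) atTop (𝓝 0)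

/-- **CUTP** (free): cutting off at infinity -/
def CUTP : Prop := ∀ (Y : Set ℂ) (x0 : ℂ → ℝ), IsExteriorDomain Yᶜ → X0 Y x0 →
  ∀ b, TT Y b → ∀ ε > 0, ∃ b', TT Y b' ∧ HasCompactSupport b' ∧ (∀ᶠ z in 𝓝ˢ Y, b' z = b z) ∧
    TJ Y x0 b' ≤ TJ Y x0 b + ε

/-- **VALP** (part of (P1), owner 459): null image only sees the honest values at the components -/
def VALP : Prop := ∀ (Y : Set ℂ) (a b w : ℂ → ℝ), IsExteriorDomain Yᶜ → TT Y a → TT Y b → TT Y w →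
  NI Y a b → ∀ S : Set ℝ, S.Countable →
  (∀ z ∈ Y, lo Y w z = up Y w z → (lo Y b z = up Y b z ∧ up Y b z = up Y w z) ∨ up Y w z ∈ S ∨
    lo Y b z ≠ up Y b z) → NI Y a w

/-- the package after attainment (no compact support of the anchors, 395 #10556): `a i` the anchors, `φ` the minimiser, `x = x0 + φ = Re F` -/
structure Pk (Y : Set ℂ) (x0 : ℂ → ℝ) (a : ℕ → ℂ → ℝ) (φ : ℂ → ℝ) (F : ℂ → ℂ) : Prop where
  hY : IsExteriorDomain Yᶜ
  hx : X0 Y x0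
  tta : ∀ i, TT Y (a i)
  swd : ∀ i, Swd Y (fun z => x0 z + a i z)
  ni : ∀ i j, NI Y (a i) (a j)
  tt : TT Y φ
  com : ∀ i, NI Y (a i) φ
  min : ∀ b, TT Y b → (∀ i, NI Y (a i) b) → TJ Y x0 φ ≤ TJ Y x0 b
  hol : DifferentiableOn ℂ F Yᶜ
  re : ∀ z ∈ Yᶜ, (F z).re = x0 z + φ z
  inf : ∃ c : ℂ, Tendsto (fun z => F z - z) (cocompact ℂ) (𝓝 c)

/-- E1 - E7 of the board -/
def ATTAINP : Prop := ∀ (Y : Set ℂ) (x0 : ℂ → ℝ), IsExteriorDomain Yᶜ → X0 Y x0 →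
  ∃ (a : ℕ → ℂ → ℝ) (φ : ℂ → ℝ) (F : ℂ → ℂ), Pk Y x0 a φ F

end Crest.Agent.R105.SkA_8
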