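import Crest.Agent.R105.Ni2_459
import Crest.Agent.R105.SkA1_8

/-!
# Row 105, S0138, NI part 3 (helper459): the Props `AREAP`, `VALP` of `SkA1_8`; closure rules
-/

set_option autoImplicit false

open MeasureTheory Set Filter Topology Metric
open scoped NNReal ENNReal

namespace Crest.Agent.R105.Ni_459

open Bd_775 Ends_897 Tc_808 Crest.AnalysisR

noncomputable section

theorem areap : SkA_8.AREAP := by
  intro Y a b hY ha hb la lb ja jb h F hF
  exact area_ZF hY ha hb la lb ja jb h hF.measurableSet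

theorem valp : SkA_8.VALP := by
  intro Y a b w hY _ htb _ h S hS hw
  have hwb : LB b := LB.of_bdd htb.q.bdd
  refine NI.of_rule (b := fun _ => b) (fun _ => h) (G := fun _ t => t)
    (fun _ => ⟨1, LipschitzWith.id⟩) hS (J := Jmp Y b) htb.countable ?_
  intro z hz hK _ hfz
  rcases hw z hz hfz with ⟨h1, h2⟩ | h1 | h1
  · exact Or.inl ⟨0, 0, h1, by rw [hfz, h1, h2]⟩
  · right; rw [hfz]; exact h1
  · exfalso
    have h2 := osc_eq' hY hwb hz
    have h3 : osc Y b (Cmp.of hz).1 = 0 := by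
      by_contra h4; exact hK h4
    have h4 : osc Y b (connectedComponentIn Y z) = 0 := h3
    rw [h4] at h2
    exact h1 (by linarith)

/-! ### further rules -/

section Rules
variable {Y : Set ℂ} {a b c f : ℂ → ℝ} {z : ℂ}

lemma no_jump (hY : IsExteriorDomain Yᶜ) (hb : LB b) (hz : z ∈ Y) (hK : Cmp.of hz ∉ Jmp Y b) :
    lo Y b z = up Y b z := by
  have h2 := osc_eq' hY hb hz
  have h3 : osc Y b (Cmp.of hz).1 = 0 := by
    by_contra h4; exact hK h4
  have h4 : osc Y b (connectedComponentIn Y z) = 0 := h3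
  rw [h4] at h2
  linarith

/-- values near a component without jump -/
lemma close_of_no_jump (hY : IsExteriorDomain Yᶜ) (hb : LB b) (h : lo Y b z = up Y b z) {ε : ℝ}
    (hε : 0 < ε) : ∃ O, Nb Y z O ∧ ∀ w ∈ O, w ∉ Y → |b w - up Y b z| < ε := by
  obtain ⟨O, hO, h1⟩ := exists_lt_of_up_lt hY hb (show up Y b z < up Y b z + ε by linarith)
  obtain ⟨P, hP, h2⟩ := exists_gt_of_lt_lo hY hb (show lo Y b z - ε < lo Y b z by linarith)
  refine ⟨O ∩ P, hO.inter hP, fun w hw hwY => abs_lt.2 ⟨?_, ?_⟩⟩ <;>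
  linarith [h1 w hw.1 hwY, h2 w hw.2 hwY]

/-- the common value is determined by the values near the component -/
lemma up_eq_of_close (hY : IsExteriorDomain Yᶜ) (hf : LB f) {s : ℝ}
    (h : ∀ ε > 0, ∃ O, Nb Y z O ∧ ∀ w ∈ O, w ∉ Y → |f w - s| ≤ ε) :
    up Y f z = s ∧ lo Y f z = s := by
  have h1 : up Y f z ≤ s := le_of_forall_pos_le_add fun ε hε => by
    obtain ⟨O, hO, h⟩ := h ε hε
    exact up_le hY hf hO fun w hw hwY => by linarith [(abs_le.1 (h w hw hwY)).2]
  have h2 : s ≤ lo Y f z := by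
    refine le_of_forall_pos_sub_le fun ε hε => ?_
    obtain ⟨O, hO, h⟩ := h ε hε
    exact le_lo hY hf hO fun w hw hwY => by linarith [(abs_le.1 (h w hw hwY)).1]
  have h3 := lo_le_up hY hf z
  exact ⟨by linarith, by linarith⟩

/-- **Lipschitz functions of several members**: `f = Φ (b 0, b 1, …)` continuous along the values:
at a component where no `b n` jumps, `f` has the value `Φ (values)`; the null image of the pair is
not preserved by general `Φ`, see the slices; here: functions of ONE member, `lc` multipliers. -/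
theorem NI.comp (hY : IsExteriorDomain Yᶜ) (hb : LB b) (jb : (Jmp Y b).Countable) (h : NI Y a b)
    {g : ℝ → ℝ} {L : ℝ≥0} (hg : LipschitzWith L g) : NI Y a (fun z => g (b z)) := by
  have hf : LB fun z => g (b z) := by
    intro R
    obtain ⟨M, hM⟩ := hb R
    refine ⟨|g 0| + L * |M|, fun z hz => ?_⟩
    have h1 := hg.dist_le_mul (b z) 0
    rw [Real.dist_eq, Real.dist_eq, sub_zero] at h1
    have h2 := (hM z hz).trans (le_abs_self M)
    have h3 : (L : ℝ) * |b z| ≤ L * |M| := mul_le_mul_of_nonneg_left h2 L.2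
    have h4 := abs_sub_abs_le_abs_sub (g (b z)) (g 0)
    linarith
  refine NI.of_rule (b := fun _ => b) (fun _ => h) (G := fun _ => g)
    (fun _ => ⟨L, hg⟩) countable_empty (J := Jmp Y b) jb ?_
  intro z hz hK _ _
  have hbz := no_jump hY hb hz hK
  left
  refine ⟨0, 0, hbz, ?_⟩
  have h1 := up_eq_of_close hY hf (z := z) (s := g (lo Y b z)) fun ε hε => by
    have hL : (0 : ℝ) < L + 1 := by positivity
    obtain ⟨O, hO, h2⟩ := close_of_no_jump hY hb hbz (show 0 < ε / (L + 1) by positivity)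
    refine ⟨O, hO, fun w hw hwY => ?_⟩
    have h3 := hg.dist_le_mul (b w) (lo Y b z)
    rw [Real.dist_eq, Real.dist_eq, hbz] at h3
    rw [hbz]
    have h4 := (h2 w hw hwY).le
    have h5 : (L : ℝ) * |b w - up Y b z| ≤ L * (ε / (L + 1)) := mul_le_mul_of_nonneg_left h4 L.2
    have h6 : (L : ℝ) * (ε / (L + 1)) ≤ ε := by
      rw [mul_div_assoc', div_le_iff₀ hL]; nlinarith [L.2]
    linarith
  exact h1.2

/-- general two-member rule: near every component outside of a countable set `f` is `G m` of one of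
the two functions, or constant, up to `o(1)` -/
theorem NI.of_near (hY : IsExteriorDomain Yᶜ) {b : ℕ → ℂ → ℝ} (lb : ∀ n, LB (b n))
    (jb : ∀ n, (Jmp Y (b n)).Countable) (h : ∀ n, NI Y a (b n)) {G : ℕ → ℝ → ℝ}
    (hG : ∀ m, ∃ L, LipschitzWith L (G m)) {D : Set ℝ} (hD : D.Countable) {J : Set (Cmp Y)}
    (hJ : J.Countable)
    (hr : ∀ z (hz : z ∈ Y), Cmp.of hz ∉ J → (∀ n, lo Y (b n) z = up Y (b n) z) →
      lo Y f z = up Y f z → (∃ n m, lo Y f z = G m (lo Y (b n) z)) ∨ lo Y f z ∈ D) :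
    NI Y a f := by
  refine NI.of_rule h hG hD (J := J ∪ ⋃ n, Jmp Y (b n)) (hJ.union (countable_iUnion jb)) ?_
  intro z hz hK _ hfz
  have hK1 : Cmp.of hz ∉ J := fun h => hK (Or.inl h)
  have hK2 : ∀ n, lo Y (b n) z = up Y (b n) z := fun n =>
    no_jump hY (lb n) hz fun h => hK (Or.inr (mem_iUnion.2 ⟨n, h⟩))
  rcases hr z hz hK1 hK2 hfz with ⟨n, m, h1⟩ | h1
  · exact Or.inl ⟨n, m, hK2 n, h1⟩
  · exact Or.inr h1

/-- products with functions locally constant near `Y` -/
theorem NI.lc_mul (hY : IsExteriorDomain Yᶜ) (hb : LB b) (jb : (Jmp Y b).Countable) (h : NI Y a b)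
    {χ : ℂ → ℝ} (hχ : LC Y χ) : NI Y a (fun z => χ z * b z) := by
  classical
  have hY' := cpt_of hY
  have hf : LB fun z => χ z * b z := by
    intro R
    obtain ⟨M, hM⟩ := hb R
    obtain ⟨N, hN⟩ := hχ.bdd
    refine ⟨N * M, fun z hz => ?_⟩
    rw [abs_mul]
    exact mul_le_mul (hN z) (hM z hz) (abs_nonneg _) ((abs_nonneg _).trans (hN z))
  -- the values of `χ` on `Y` are finitely many
  have hfin : (χ '' Y).Countable := by
    have hloc : ∀ z ∈ Y, ∃ O, IsOpen O ∧ z ∈ O ∧ ∀ w ∈ O, χ w = χ z := by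
      intro z hz
      obtain ⟨O, hOs, hO, hzO⟩ := _root_.mem_nhds_iff.1 (hχ.lc z hz)
      exact ⟨O, hO, hzO, fun w hw => by have h := hOs hw; exact h⟩
    choose! O hO hzO hOc using hloc
    obtain ⟨t, ht⟩ := hY'.elim_nhds_subcover' (fun z hz => O z)
      (fun z hz => (hO z hz).mem_nhds (hzO z hz))
    refine ((t.image fun z => χ z.1).finite_toSet.subset ?_).countable
    rintro _ ⟨w, hw, rfl⟩
    obtain ⟨x, hx, hwx⟩ := mem_iUnion₂.1 (ht hw)
    simp only [Finset.coe_image, mem_image, Finset.mem_coe]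
    exact ⟨x, hx, (hOc x.1 x.2 w hwx).symm⟩
  rcases Y.eq_empty_or_nonempty with hYe | hYne
  · have : NP Y a (fun z => χ z * b z) = ∅ := by
      ext p; simp only [mem_empty_iff_false, iff_false]
      rintro ⟨z, hz, -⟩; rw [hYe] at hz; exact hz
    unfold NI; rw [this]; exact measure_empty
  obtain ⟨e, he⟩ := hfin.exists_eq_range (hYne.image χ)
  refine NI.of_near hY (b := fun _ => b) (fun _ => hb) (fun _ => jb) (fun _ => h)
    (G := fun m t => e m * t) (fun m => ⟨‖e m‖₊, LipschitzWith.of_dist_le_mul fun s t => ?_⟩)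
    countable_empty countable_empty ?_
  · rw [Real.dist_eq, Real.dist_eq, ← mul_sub, abs_mul]; simp
  intro z hz _ hbz _
  left
  have hbz := hbz 0
  obtain ⟨c, O, hOo, hKO, hc⟩ := LC.const_near hχ
    (isPreconnected_connectedComponentIn (x := z) (F := Y)) (connectedComponentIn_subset _ _)
  have hNO := nb_of_mem hz hOo hKO
  have hcm : c ∈ range e := by
    rw [← he]; exact ⟨z, hz, hc z hNO.mem⟩
  obtain ⟨m, hm⟩ := hcm
  refine ⟨0, m, ?_⟩
  have h1 := up_eq_of_close hY hf (z := z) (s := e m * lo Y b z) fun ε hε => by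
    have hL : (0 : ℝ) < |c| + 1 := by positivity
    obtain ⟨P, hP, h2⟩ := close_of_no_jump hY hb hbz (show 0 < ε / (|c| + 1) by positivity)
    refine ⟨O ∩ P, hNO.inter hP, fun w hw hwY => ?_⟩
    rw [hc w hw.1, hm, hbz, ← mul_sub, abs_mul]
    have h4 := (h2 w hw.2 hwY).le
    have h5 : |c| * |b w - up Y b z| ≤ |c| * (ε / (|c| + 1)) :=
      mul_le_mul_of_nonneg_left h4 (abs_nonneg _)
    have h6 : |c| * (ε / (|c| + 1)) ≤ ε := by
      rw [mul_div_assoc', div_le_iff₀ hL]; nlinarith [abs_nonneg c]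
    linarith
  exact h1.2

/-- only the values near `Y` matter -/
theorem NI.congr (hY : IsExteriorDomain Yᶜ) (hb : LB b) (hc : LB c) (h : NI Y a b)
    (he : ∀ᶠ z in 𝓝ˢ Y, c z = b z) : NI Y a c := by
  obtain ⟨O, hO, hYO, hOe⟩ := mem_nhdsSet_iff_exists.1 he
  have h1 : NP Y a c = NP Y a b := by
    ext p
    constructor <;>
    · rintro ⟨z, hz, h1, h2, h3, h4⟩
      have hN : Nb Y z O := nb_of_mem hz hO ((connectedComponentIn_subset _ _).trans hYO)
      have e1 := up_congr hY hc hb hN fun w hw _ => (by have h := hOe hw; exact h)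
      have e2 := lo_congr hY hc hb hN fun w hw _ => (by have h := hOe hw; exact h)
      refine ⟨z, hz, h1, h2, ?_, ?_⟩ <;> first | exact e2.symm.trans h3 | exact e1.symm.trans h4 | exact e2.trans h3 | exact e1.trans h4
  unfold NI; rw [h1]; exact h

/-- constants -/
theorem NI.const (hY : IsExteriorDomain Yᶜ) (c : ℝ) : NI Y a (fun _ => c) := by
  refine measure_mono_null ?_ (null_strip (D := {c}) (countable_singleton c))
  rintro p ⟨z, hz, -, -, -, h4⟩
  have hc : LB fun _ : ℂ => c := fun _ => ⟨|c|, fun _ _ => le_rfl⟩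
  have := up_eq_of_close hY hc (z := z) (s := c) fun ε hε => ⟨univ, Nb.univ _ _, fun w _ _ => by simp [hε.le]⟩
  show p.2 = c
  rw [← h4]; exact this.1

end Rules

end

end Crest.Agent.R105.Ni_459
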