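import Crest.Agent.R105.Nip9_31
import Crest.Agent.R105.N8b_602
import Crest.Agent.R105.Ni3_459
import Crest.Agent.R105.Elf4_600

/-!
# Row 105, S0138, E13 (0) (499 #11166): admissible test functions, part 1 (helper600)

`f ≥ 0` a `T`-finite function, `O`, `D` disjoint open sets which cover `{0 < lo f}`:
the cut function `O.indicator f` is `T`-finite, its oscillations are at most those of `f`, and it
commutes with everything `f` commutes with.
-/

set_option autoImplicit false

open MeasureTheory Set Filter Topology Metric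
open scoped NNReal ENNReal

namespace Crest.Agent.R105.Adg_600

open Bd_775 Tc_808 Ni_459 Crest.AnalysisR
open IfB_641 (X0)

noncomputable section

variable {Y : Set ℂ} {f : ℂ → ℝ} {O D : Set ℂ}

/-- `O` and `D` cut `f` -/
structure Cut (Y : Set ℂ) (f : ℂ → ℝ) (O D : Set ℂ) : Prop where
  op : IsOpen O
  od : IsOpen D
  dj : Disjoint O D
  cov : ∀ z, 0 < lo Y f z → z ∈ O ∨ z ∈ D

theorem loc_cut (hY : IsExteriorDomain Yᶜ) (hc : Cut Y f O D) (hf : LocallyLipschitzOn Yᶜ f)
    (hb : LB f) (h0 : ∀ z, 0 ≤ f z) : LocallyLipschitzOn Yᶜ (O.indicator f) := by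
  have hYo : IsOpen Yᶜ := (cpt_of hY).isClosed.isOpen_compl
  intro z hz
  obtain ⟨L, t, ht, hL⟩ := hf hz
  rw [hYo.nhdsWithin_eq hz] at ht
  obtain ⟨r, hr, hrt⟩ := Metric.mem_nhds_iff.1 (inter_mem ht (hYo.mem_nhds hz))
  refine ⟨L, ball z r, mem_nhdsWithin_of_mem_nhds (ball_mem_nhds z hr), ?_⟩
  have hLb : ∀ p ∈ ball z r, ∀ q ∈ ball z r, |f p - f q| ≤ L * dist p q := fun p hp q hq => by
    have := hL.dist_le_mul p (hrt hp).1 q (hrt hq).1
    rwa [Real.dist_eq] at this
  -- a zero between points of `O` and of its complement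
  have key : ∀ p ∈ ball z r, ∀ q ∈ ball z r, p ∈ O → q ∉ O → f p ≤ L * dist p q := by
    intro p hp q hq hpO hqO
    have hseg : segment ℝ p q ⊆ ball z r := (convex_ball z r).segment_subset hp hq
    have h1 : ∃ w ∈ segment ℝ p q, f w = 0 := by
      by_contra hcon
      push Not at hcon
      have h2 : segment ℝ p q ⊆ O ∪ D := fun w hw => by
        have hwY : w ∉ Y := (hrt (hseg hw)).2
        have h3 : 0 < f w := lt_of_le_of_ne (h0 w) (hcon w hw).symm
        rw [← Nip_31.lo_eq hY hf hb hwY] at h3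
        exact hc.cov w h3
      have h3 := (convex_segment p q).isPreconnected.subset_left_of_subset_union hc.op hc.od hc.dj h2
        ⟨p, left_mem_segment ℝ p q, hpO⟩
      exact hqO (h3 (right_mem_segment ℝ p q))
    obtain ⟨w, hw, hw0⟩ := h1
    have h2 := hLb p hp w (hseg hw)
    rw [hw0, sub_zero, abs_of_nonneg (h0 p)] at h2
    refine h2.trans (mul_le_mul_of_nonneg_left ?_ L.2)
    obtain ⟨s, t', hs, ht', hst, rfl⟩ := hw
    rw [dist_eq_norm, dist_eq_norm]
    have h4 : p - (s • p + t' • q) = t' • (p - q) := by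
      have : s = 1 - t' := by linarith
      rw [this]
      module
    rw [h4, norm_smul, Real.norm_of_nonneg ht']
    exact mul_le_of_le_one_left (norm_nonneg _) (by linarith)
  refine LipschitzOnWith.of_dist_le_mul fun p hp q hq => ?_
  rw [Real.dist_eq]
  by_cases hpO : p ∈ O <;> by_cases hqO : q ∈ O
  · rw [indicator_of_mem hpO, indicator_of_mem hqO]; exact hLb p hp q hq
  · rw [indicator_of_mem hpO, indicator_of_notMem hqO, sub_zero, abs_of_nonneg (h0 p)]
    exact key p hp q hq hpO hqO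
  · rw [indicator_of_notMem hpO, indicator_of_mem hqO, zero_sub, abs_neg, abs_of_nonneg (h0 q),
      dist_comm]
    exact key q hq p hp hqO hpO
  · rw [indicator_of_notMem hpO, indicator_of_notMem hqO, sub_zero, abs_zero]
    exact mul_nonneg L.2 dist_nonneg

theorem cut_nonneg (h0 : ∀ z, 0 ≤ f z) (z : ℂ) : 0 ≤ O.indicator f z :=
  indicator_nonneg (fun w _ => h0 w) z

theorem cut_le (h0 : ∀ z, 0 ≤ f z) (z : ℂ) : O.indicator f z ≤ f z :=
  indicator_le_self' (fun w _ => h0 w) z

theorem cut_bdd (h0 : ∀ z, 0 ≤ f z) (hb : ∃ M, ∀ z, |f z| ≤ M) : ∃ M, ∀ z, |O.indicator f z| ≤ M := by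
  obtain ⟨M, hM⟩ := hb
  refine ⟨M, fun z => ?_⟩
  rw [abs_of_nonneg (cut_nonneg h0 z)]
  exact (cut_le h0 z).trans ((le_abs_self _).trans (hM z))

theorem en_cut (hc : Cut Y f O D) (h0 : ∀ z, 0 ≤ f z) (z : ℂ) :
    en (O.indicator f) z = O.indicator (en f) z := by
  by_cases hz : z ∈ O
  · rw [indicator_of_mem hz]
    have h1 : O.indicator f =ᶠ[𝓝 z] f := by
      filter_upwards [hc.op.mem_nhds hz] with w hw
      exact indicator_of_mem hw f
    unfold en gx gy
    rw [h1.fderiv_eq]
  · rw [indicator_of_notMem hz]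
    have h1 : IsLocalMin (O.indicator f) z := by
      refine Eventually.of_forall fun w => ?_
      rw [indicator_of_notMem hz]
      exact cut_nonneg h0 w
    unfold en gx gy
    rw [h1.fderiv_eq_zero]
    simp

/-- components: inside `O`, inside `D`, or with lower value zero -/
theorem cases_cmp (hc : Cut Y f O D) (h0 : ∀ z, 0 ≤ f z) {z : ℂ} (hz : z ∈ Y) :
    (0 < lo Y f z ∧ connectedComponentIn Y z ⊆ O) ∨ (0 < lo Y f z ∧ connectedComponentIn Y z ⊆ D) ∨
      lo Y f z ≤ 0 := by
  by_cases h : 0 < lo Y f z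
  · have h1 : connectedComponentIn Y z ⊆ O ∪ D := fun w hw => by
      refine hc.cov w ?_
      rwa [lo_congr_cc hz hw]
    have hcc := isPreconnected_connectedComponentIn (x := z) (F := Y)
    have hzz := mem_connectedComponentIn hz
    rcases h1 hzz with h2 | h2
    · exact Or.inl ⟨h, hcc.subset_left_of_subset_union hc.op hc.od hc.dj h1 ⟨z, hzz, h2⟩⟩
    · exact Or.inr (Or.inl ⟨h, hcc.subset_right_of_subset_union hc.op hc.od hc.dj h1 ⟨z, hzz, h2⟩⟩)
  · exact Or.inr (Or.inr (not_lt.1 h))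

theorem osc_cut (hY : IsExteriorDomain Yᶜ) (hc : Cut Y f O D) (hb : ∃ M, ∀ z, |f z| ≤ M)
    (h0 : ∀ z, 0 ≤ f z) (K : Cmp Y) : osc Y (O.indicator f) K.1 ≤ osc Y f K.1 := by
  obtain ⟨z, hz⟩ := K.nonempty
  have hzY := K.subset hz
  have hKe : K.1 = connectedComponentIn Y z := congrArg Subtype.val (K.eq_of_mem hz)
  rcases cases_cmp hc h0 hzY with ⟨-, h⟩ | ⟨-, h⟩ | h
  · rw [osc_congr hc.op (hKe ▸ h) fun w hw _ => indicator_of_mem hw f]
  · have h1 : osc Y (O.indicator f) K.1 = osc Y (fun _ => (0:ℝ)) K.1 :=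
      osc_congr hc.od (hKe ▸ h) fun w hw _ =>
        indicator_of_notMem (fun hw' => disjoint_left.1 hc.dj hw' hw) f
    rw [h1, osc_const]
    exact osc_nonneg _ _ _
  · refine le_of_forall_gt_imp_ge_of_dense fun c hcc => ?_
    obtain ⟨O', hO', hKO', h1⟩ := exists_of_osc_lt hb hcc
    have hc0 : 0 ≤ c := (osc_nonneg _ _ _).trans hcc.le
    have h2 : ∀ w ∈ O', w ∉ Y → f w ≤ c := by
      intro w hw hwY
      refine le_of_forall_pos_le_add fun ε hε => ?_
      obtain ⟨v, hv, hvY, h3⟩ := exists_of_lo_lt hY (LB.of_bdd hb) (lt_of_le_of_lt h hε)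
        (nb_of_mem hzY hO' (hKe ▸ hKO'))
      have h4 := h1 w hw hwY v hv hvY
      have h5 := le_abs_self (f w - f v)
      linarith
    refine osc_le hc0 ⟨O', hO', hKO', fun w hw hwY v hv hvY => ?_⟩
    have h3 := cut_nonneg (O := O) h0 w
    have h4 := cut_nonneg (O := O) h0 v
    have h5 := (cut_le (O := O) h0 w).trans (h2 w hw hwY)
    have h6 := (cut_le (O := O) h0 v).trans (h2 v hv hvY)
    rw [abs_le]; constructor <;> linarith

/-- **the cut function is `T`-finite** -/
theorem tt_cut (hY : IsExteriorDomain Yᶜ) (hc : Cut Y f O D) (hf : TT Y f) (h0 : ∀ z, 0 ≤ f z) :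
    TT Y (O.indicator f) where
  q := by
    refine ⟨cut_bdd h0 hf.q.bdd, loc_cut hY hc hf.q.loc (LB.of_bdd hf.q.bdd) h0, ?_⟩
    have h1 : en (O.indicator f) = O.indicator (en f) := funext fun z => en_cut hc h0 z
    rw [h1]
    exact hf.q.fin.indicator hc.op.measurableSet
  sum := Summable.of_nonneg_of_le (fun _ => sq_nonneg _)
    (fun K => pow_le_pow_left₀ (osc_nonneg _ _ _) (osc_cut hY hc hf.q.bdd h0 K) 2) hf.sum

/-- **the cut function commutes with everything `f` commutes with** -/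
theorem ni_cut {a : ℂ → ℝ} (hY : IsExteriorDomain Yᶜ) (hc : Cut Y f O D) (hf : TT Y f)
    (h0 : ∀ z, 0 ≤ f z) (hn : NI Y a f) : NI Y a (O.indicator f) := by
  have hlf := LB.of_bdd hf.q.bdd
  have hlg := LB.of_bdd (cut_bdd (O := O) h0 hf.q.bdd)
  refine NI.of_rule (b := fun _ => f) (fun _ => hn) (G := fun m s => if m = 0 then s else 0)
    (fun m => ?_) (D := ∅) countable_empty hf.countable ?_
  · by_cases hm : m = 0
    · simp only [hm, if_true]; exact ⟨1, LipschitzWith.id⟩
    · simp only [hm, if_false]; exact ⟨0, LipschitzWith.const 0⟩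
  · intro z hz hJ _ _
    left
    have h0' : osc Y f (connectedComponentIn Y z) = 0 := by
      by_contra hne
      exact hJ hne
    rw [Ni_459.osc_eq hY hf.q.bdd hz] at h0'
    have heq : lo Y f z = up Y f z := by linarith
    rcases cases_cmp hc h0 hz with ⟨-, h⟩ | ⟨-, h⟩ | h
    · refine ⟨0, 0, heq, ?_⟩
      simp only [if_true]
      have e1 : ∀ c, (∃ O', Nb Y z O' ∧ ∀ w ∈ O', w ∉ Y → c ≤ f w) → c ≤ lo Y (O.indicator f) z :=
        fun c ⟨O', hO', h1⟩ => le_lo hY hlg (hO'.inter (nb_of_mem hz hc.op h)) fun w hw hwY => by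
          rw [indicator_of_mem hw.2]; exact h1 w hw.1 hwY
      refine le_antisymm ?_ ?_
      · have h2 : up Y (O.indicator f) z ≤ up Y f z := by
          refine le_of_forall_gt_imp_ge_of_dense fun c hcc => ?_
          obtain ⟨P, hP, h3⟩ := exists_lt_of_up_lt hY hlf hcc
          exact up_le hY hlg hP fun w hw hwY => (cut_le h0 w).trans (h3 w hw hwY).le
        exact (lo_le_up hY hlg z).trans (h2.trans heq.symm.le)
      · refine le_of_forall_lt_imp_le_of_dense fun c hcc => ?_
        obtain ⟨P, hP, h3⟩ := exists_gt_of_lt_lo hY hlf hcc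
        exact e1 c ⟨P, hP, fun w hw hwY => (h3 w hw hwY).le⟩
    · refine ⟨0, 1, heq, ?_⟩
      simp only [one_ne_zero, if_false]
      refine (up_eq_of_close hY hlg (s := 0) fun ε hε => ⟨D, nb_of_mem hz hc.od h, fun w hw _ => ?_⟩).2
      rw [indicator_of_notMem (fun hw' => disjoint_left.1 hc.dj hw' hw), sub_zero, abs_zero]
      exact hε.le
    · refine ⟨0, 1, heq, ?_⟩
      simp only [one_ne_zero, if_false]
      refine (up_eq_of_close hY hlg (s := 0) fun ε hε => ?_).2
      obtain ⟨P, hP, h3⟩ := exists_lt_of_up_lt hY hlf (c := ε) (z := z) (by rw [← heq]; linarith)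
      refine ⟨P, hP, fun w hw hwY => ?_⟩
      rw [sub_zero, abs_of_nonneg (cut_nonneg h0 w)]
      exact (cut_le h0 w).trans (h3 w hw hwY).le

end

end Crest.Agent.R105.Adg_600
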