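import Crest.Agent.R105.Adg1_600
import Crest.Agent.R105.SkA1_8
import Crest.Agent.R105.Elf4_600

/-!
# Row 105, S0138, E13 (0) (499 #11166): admissible test functions, part 2 (helper600)

`Adm Y x0 a v` : `v` is `T`-finite and commutes with the anchors.
* `Adm.lin`, `Adm.mul`, `Adm.cut`;
* `adm_chi` : `χ H(x0 + v)` for admissible `v`; `adm_chi2` : `χ H(x0 + v) T(x0 + w)`;
* `adm_cut`, `adm_cut'` : `χ 1_O H(u) T(x)` and `χ (T(x) - 1_O H(u) T(x))`, `u = x0 + a i`,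
  `x = x0 + φ`, `O` any open set such that `{0 < lo (H(u) T(x))} ⊆ O ∪ D`, `D` open, disjoint;
* `min_adm`, `el_adm` : minimality and crude E-L `|∫_U dv ∧ dy| ≤ Σ osc φ K osc v K`.
-/

set_option autoImplicit false

open MeasureTheory Set Filter Topology Metric
open scoped NNReal ENNReal ContDiff

namespace Crest.Agent.R105.Adg_600

open Bd_775 Tc_808 Ni_459 Crest.AnalysisR
open IfB_641 (X0)
open SkA_8 (Pk)

noncomputable section

variable {Y : Set ℂ} {x0 φ : ℂ → ℝ} {a : ℕ → ℂ → ℝ} {F : ℂ → ℂ} {v w f g χ : ℂ → ℝ} {O D : Set ℂ}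

/-- admissible directions -/
structure Adm (Y : Set ℂ) (a : ℕ → ℂ → ℝ) (v : ℂ → ℝ) : Prop where
  tt : TT Y v
  ni : ∀ j, NI Y (a j) v

theorem Adm.lin (h : Pk Y x0 a φ F) (hv : Adm Y a v) (hw : Adm Y a w) (s t : ℝ) :
    Adm Y a (fun z => s * v z + t * w z) where
  tt := ((TT.const s).mul (cpt_of h.hY).isClosed hv.tt).add (cpt_of h.hY).isClosed
    ((TT.const t).mul (cpt_of h.hY).isClosed hw.tt)
  ni := fun j => Nip_31.linG h.hY h.hx (h.tta j) (h.swd j) hv.tt hw.tt (hv.ni j) (hw.ni j) s t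

theorem Adm.mul (h : Pk Y x0 a φ F) (hv : Adm Y a v) (hw : Adm Y a w) :
    Adm Y a (fun z => v z * w z) where
  tt := hv.tt.mul (cpt_of h.hY).isClosed hw.tt
  ni := fun j => Nip_31.ni_mul h.hY h.hx (h.tta j) (h.swd j) hv.tt hw.tt (hv.ni j) (hw.ni j)

theorem Adm.cut (h : Pk Y x0 a φ F) (hv : Adm Y a v) (h0 : ∀ z, 0 ≤ v z) (hc : Cut Y v O D) :
    Adm Y a (O.indicator v) where
  tt := tt_cut h.hY hc hv.tt h0
  ni := fun j => ni_cut h.hY hc hv.tt h0 (hv.ni j)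

theorem adm_phi (h : Pk Y x0 a φ F) : Adm Y a φ := ⟨h.tt, h.com⟩

theorem adm_anchor (h : Pk Y x0 a φ F) (i : ℕ) : Adm Y a (a i) := ⟨h.tta i, fun j => h.ni j i⟩

/-- `χ H(x0 + v)` -/
theorem adm_chi (h : Pk Y x0 a φ F) (hv : Adm Y a v) (hχ : LC Y χ) (hχc : HasCompactSupport χ)
    {H : ℝ → ℝ} {L : ℝ≥0} (hH : LipschitzWith L H) : Adm Y a (fun z => χ z * H (x0 z + v z)) where
  tt := (Elf_600.test_chiG (cpt_of h.hY) h.hx hv.tt hχ hχc hH).1
  ni := fun j => N8_602.ni_test h.hY h.hx hv.tt hχ hχc hH (hv.ni j)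

/-- a locally constant cut-off equal to `1` on the support of `χ` -/
theorem exists_lc2 (hY : IsCompact Y) (hχc : HasCompactSupport χ) :
    ∃ η : ℂ → ℝ, LC Y η ∧ HasCompactSupport η ∧ ∀ z ∈ tsupport χ, η z = 1 := by
  obtain ⟨R, hR⟩ := (hχc.isCompact.union hY).isBounded.subset_closedBall (0 : ℂ)
  set R' : ℝ := max R 1 + 1
  have hR1 : 0 < R' := by positivity
  let f : ContDiffBump (0 : ℂ) := ⟨R', R' + 1, hR1, by linarith⟩
  have h1 : ∀ z ∈ ball (0 : ℂ) R', f z = 1 := fun z hz =>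
    f.one_of_mem_closedBall (ball_subset_closedBall hz)
  have h2 : ∀ z, z ∈ tsupport χ ∪ Y → z ∈ ball (0 : ℂ) R' := fun z hz => by
    have := hR hz
    rw [mem_closedBall, dist_zero_right] at this
    rw [mem_ball_zero_iff]
    linarith [le_max_left R 1]
  refine ⟨f, ?_, f.hasCompactSupport, fun z hz => h1 z (h2 z (Or.inl hz))⟩
  refine LC.of_compact (f.contDiff (n := 1)).locallyLipschitz f.hasCompactSupport fun z hz => ?_
  have h3 := h2 z (Or.inr hz)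
  filter_upwards [isOpen_ball.mem_nhds h3] with u hu
  rw [h1 u hu, h1 z h3]

/-- `χ H(x0 + v) T(x0 + w)` -/
theorem adm_chi2 (h : Pk Y x0 a φ F) (hv : Adm Y a v) (hw : Adm Y a w) (hχ : LC Y χ)
    (hχc : HasCompactSupport χ) {H T : ℝ → ℝ} {L L' : ℝ≥0} (hH : LipschitzWith L H)
    (hT : LipschitzWith L' T) : Adm Y a (fun z => χ z * (H (x0 z + v z) * T (x0 z + w z))) := by
  obtain ⟨η, hη, hηc, h1⟩ := exists_lc2 (Y := Y) (cpt_of h.hY) hχc
  have h2 := (adm_chi h hv hχ hχc hH).mul h (adm_chi h hw hη hηc hT)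
  have e : (fun z => χ z * (H (x0 z + v z) * T (x0 z + w z))) =
      fun z => χ z * H (x0 z + v z) * (η z * T (x0 z + w z)) := by
    funext z
    by_cases hz : z ∈ tsupport χ
    · rw [h1 z hz]; ring
    · rw [image_eq_zero_of_notMem_tsupport hz]; ring
  rw [e]; exact h2

theorem lo_mono (hY : IsExteriorDomain Yᶜ) (hf : LB f) (hg : LB g) (hfg : ∀ z ∉ Y, f z ≤ g z) (z : ℂ) :
    lo Y f z ≤ lo Y g z := by
  refine le_of_forall_lt_imp_le_of_dense fun c hc => ?_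
  obtain ⟨P, hP, h3⟩ := exists_gt_of_lt_lo hY hf hc
  exact le_lo hY hg hP fun w hw hwY => (h3 w hw hwY).le.trans (hfg w hwY)

theorem Cut.mono (hY : IsExteriorDomain Yᶜ) (hc : Cut Y g O D) (hf : LB f) (hg : LB g)
    (hfg : ∀ z ∉ Y, f z ≤ g z) : Cut Y f O D :=
  ⟨hc.op, hc.od, hc.dj, fun z hz => hc.cov z (hz.trans_le (lo_mono hY hf hg hfg z))⟩

/-- **the cut test function** `χ 1_O H(u) T(x)` -/
theorem adm_cut (h : Pk Y x0 a φ F) (hv : Adm Y a v) (hw : Adm Y a w) (hχ : LC Y χ)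
    (hχc : HasCompactSupport χ) (h01 : ∀ z, χ z ∈ Icc (0:ℝ) 1) {H T : ℝ → ℝ} {L L' : ℝ≥0}
    (hH : LipschitzWith L H) (hT : LipschitzWith L' T) (hH1 : ∀ s, H s ∈ Icc (0:ℝ) 1)
    (hT1 : ∀ s, T s ∈ Icc (0:ℝ) 1)
    (hc : Cut Y (fun z => H (x0 z + v z) * T (x0 z + w z)) O D) :
    Adm Y a (fun z => χ z * O.indicator (fun z => H (x0 z + v z) * T (x0 z + w z)) z) := by
  have h1 := adm_chi2 h hv hw hχ hχc hH hT
  have h0 : ∀ z, 0 ≤ H (x0 z + v z) * T (x0 z + w z) := fun z => mul_nonneg (hH1 _).1 (hT1 _).1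
  have hb : ∀ z, H (x0 z + v z) * T (x0 z + w z) ≤ 1 := fun z =>
    mul_le_one₀ (hH1 _).2 (hT1 _).1 (hT1 _).2
  have hg : LB (fun z => H (x0 z + v z) * T (x0 z + w z)) :=
    LB.of_bdd ⟨1, fun z => by rw [abs_of_nonneg (h0 z)]; exact hb z⟩
  have hc' : Cut Y (fun z => χ z * (H (x0 z + v z) * T (x0 z + w z))) O D :=
    hc.mono h.hY (LB.of_bdd h1.tt.q.bdd) hg fun z _ => mul_le_of_le_one_left (h0 z) (h01 z).2
  have h2 := h1.cut h (fun z => mul_nonneg (h01 z).1 (h0 z)) hc'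
  have e : (fun z => χ z * O.indicator (fun z => H (x0 z + v z) * T (x0 z + w z)) z) =
      O.indicator (fun z => χ z * (H (x0 z + v z) * T (x0 z + w z))) := by
    funext z
    by_cases hz : z ∈ O
    · rw [indicator_of_mem hz, indicator_of_mem hz]
    · rw [indicator_of_notMem hz, indicator_of_notMem hz, mul_zero]
  rw [e]; exact h2

/-- **the complementary test function** `χ (T(x) - 1_O H(u) T(x))` -/
theorem adm_cut' (h : Pk Y x0 a φ F) (hv : Adm Y a v) (hw : Adm Y a w) (hχ : LC Y χ)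
    (hχc : HasCompactSupport χ) (h01 : ∀ z, χ z ∈ Icc (0:ℝ) 1) {H T : ℝ → ℝ} {L L' : ℝ≥0}
    (hH : LipschitzWith L H) (hT : LipschitzWith L' T) (hH1 : ∀ s, H s ∈ Icc (0:ℝ) 1)
    (hT1 : ∀ s, T s ∈ Icc (0:ℝ) 1)
    (hc : Cut Y (fun z => H (x0 z + v z) * T (x0 z + w z)) O D) :
    Adm Y a (fun z => χ z * (T (x0 z + w z) -
      O.indicator (fun z => H (x0 z + v z) * T (x0 z + w z)) z)) := by
  have h1 := (adm_chi h hw hχ hχc hT).lin h (adm_cut h hv hw hχ hχc h01 hH hT hH1 hT1 hc) 1 (-1)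
  have e : (fun z => χ z * (T (x0 z + w z) -
      O.indicator (fun z => H (x0 z + v z) * T (x0 z + w z)) z)) = fun z =>
      1 * (χ z * T (x0 z + w z)) +
        (-1) * (χ z * O.indicator (fun z => H (x0 z + v z) * T (x0 z + w z)) z) := by
    funext z; ring
  rw [e]; exact h1

/-- minimality along admissible directions -/
theorem min_adm (h : Pk Y x0 a φ F) (hv : Adm Y a v) (t : ℝ) :
    SelT_871.JT Y x0 φ ≤ SelT_871.JT Y x0 (fun z => φ z + t * v z) := by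
  have h2 := (adm_phi h).lin h hv 1 t
  simp only [one_mul] at h2
  exact h.min _ h2.tt h2.ni

/-- **crude E-L for admissible directions** -/
theorem el_adm (h : Pk Y x0 a φ F) (hv : Adm Y a v) (hvc : HasCompactSupport v) :
    |∫ z in Yᶜ, wdg v (fun w => (F w).im) z| ≤ ∑' K : Cmp Y, osc Y φ K.1 * osc Y v K.1 := by
  have hYc := (cpt_of h.hY).isClosed
  rw [setIntegral_congr_fun hYc.isOpen_compl.measurableSet fun z hz =>
    Elf_600.wdg_eq_dot (x := fun w => x0 w + φ w) h.hol hYc h.re _ hz]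
  exact Elf_600.el_crude_x h.hY h.hx h.tt hv.tt hvc (min_adm h hv)

end

end Crest.Agent.R105.Adg_600
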