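import Mathlib

/-!
Row 105 (Koebe), task 2230 (PP-STEP), part 1: oscillation of a function `f : V → ℝ` at a portion
`P` of the complement of `V`, measured from `V` only.
-/

set_option autoImplicit false

open Set Filter Topology Metric

namespace Crest.Agent.R105.Stp_722

variable {X : Type*}

section top

variable [TopologicalSpace X]

/-- the oscillation of `f` (restricted to `V`) at the portion `P` is at most `c`. -/
def OscLe (V P : Set X) (f : X → ℝ) (c : ℝ) : Prop :=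
  ∀ ε > 0, ∃ O, IsOpen O ∧ P ⊆ O ∧ ∀ q ∈ O ∩ V, ∀ q' ∈ O ∩ V, |f q - f q'| ≤ c + ε

variable {V V' P P' : Set X} {f g : X → ℝ} {c c' : ℝ}

theorem OscLe.mono (h : OscLe V P f c) (hc : c ≤ c') : OscLe V P f c' := by
  intro ε hε
  obtain ⟨O, hO, hP, H⟩ := h ε hε
  exact ⟨O, hO, hP, fun q hq q' hq' => (H q hq q' hq').trans (by linarith)⟩

theorem OscLe.mono_set (h : OscLe V P f c) (hP : P' ⊆ P) : OscLe V P' f c := by
  intro ε hε
  obtain ⟨O, hO, hPO, H⟩ := h ε hε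
  exact ⟨O, hO, hP.trans hPO, H⟩

theorem OscLe.mono_V (h : OscLe V P f c) (hV : V' ⊆ V) : OscLe V' P f c := by
  intro ε hε
  obtain ⟨O, hO, hPO, H⟩ := h ε hε
  exact ⟨O, hO, hPO, fun q hq q' hq' => H q ⟨hq.1, hV hq.2⟩ q' ⟨hq'.1, hV hq'.2⟩⟩

theorem OscLe.congr (h : OscLe V P f c) {O : Set X} (hO : IsOpen O) (hP : P ⊆ O)
    (hfg : ∀ q ∈ O ∩ V, g q = f q) : OscLe V P g c := by
  intro ε hε
  obtain ⟨O₁, hO₁, hPO, H⟩ := h ε hε
  refine ⟨O₁ ∩ O, hO₁.inter hO, subset_inter hPO hP, fun q hq q' hq' => ?_⟩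
  rw [hfg q ⟨hq.1.2, hq.2⟩, hfg q' ⟨hq'.1.2, hq'.2⟩]
  exact H q ⟨hq.1.1, hq.2⟩ q' ⟨hq'.1.1, hq'.2⟩

theorem OscLe.nonneg (h : OscLe V P f c) {p : X} (hp : p ∈ P) (hpV : p ∈ closure V) : 0 ≤ c := by
  by_contra hc
  push Not at hc
  obtain ⟨O, hO, hPO, H⟩ := h (-c / 2) (by linarith)
  obtain ⟨v, hvO, hvV⟩ := mem_closure_iff.1 hpV O hO (hPO hp)
  have := H v ⟨hvO, hvV⟩ v ⟨hvO, hvV⟩
  rw [sub_self, abs_zero] at this
  linarith

/-- two portions with a common point. -/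
theorem OscLe.union (h : OscLe V P f c) (h' : OscLe V P' f c') {p : X} (hp : p ∈ P)
    (hp' : p ∈ P') (hpV : p ∈ closure V) : OscLe V (P ∪ P') f (c + c') := by
  have hc := h.nonneg hp hpV
  have hc' := h'.nonneg hp' hpV
  intro ε hε
  obtain ⟨O, hO, hPO, H⟩ := h (ε / 2) (by linarith)
  obtain ⟨O', hO', hPO', H'⟩ := h' (ε / 2) (by linarith)
  obtain ⟨v, ⟨hvO, hvO'⟩, hvV⟩ := mem_closure_iff.1 hpV (O ∩ O') (hO.inter hO')
    ⟨hPO hp, hPO' hp'⟩
  refine ⟨O ∪ O', hO.union hO', union_subset_union hPO hPO', ?_⟩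
  rintro q ⟨hq | hq, hqV⟩ q' ⟨hq' | hq', hqV'⟩
  · exact (H q ⟨hq, hqV⟩ q' ⟨hq', hqV'⟩).trans (by linarith)
  · have h1 := H q ⟨hq, hqV⟩ v ⟨hvO, hvV⟩
    have h2 := H' v ⟨hvO', hvV⟩ q' ⟨hq', hqV'⟩
    have := abs_sub_le (f q) (f v) (f q')
    linarith
  · have h1 := H' q ⟨hq, hqV⟩ v ⟨hvO', hvV⟩
    have h2 := H v ⟨hvO, hvV⟩ q' ⟨hq', hqV'⟩
    have := abs_sub_le (f q) (f v) (f q')
    linarith
  · exact (H' q ⟨hq, hqV⟩ q' ⟨hq', hqV'⟩).trans (by linarith)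

/-- the oscillation of a function which stays within `η` of another one. -/
theorem OscLe.of_near (h : OscLe V P f c) {η : ℝ} {O : Set X} (hO : IsOpen O) (hP : P ⊆ O)
    (hfg : ∀ q ∈ O ∩ V, |g q - f q| ≤ η) : OscLe V P g (c + 2 * η) := by
  intro ε hε
  obtain ⟨O₁, hO₁, hPO, H⟩ := h ε hε
  refine ⟨O₁ ∩ O, hO₁.inter hO, subset_inter hPO hP, fun q hq q' hq' => ?_⟩
  have h1 := abs_le.1 (hfg q ⟨hq.1.2, hq.2⟩)
  have h2 := abs_le.1 (hfg q' ⟨hq'.1.2, hq'.2⟩)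
  have h3 := abs_le.1 (H q ⟨hq.1.1, hq.2⟩ q' ⟨hq'.1.1, hq'.2⟩)
  rw [abs_le]
  constructor <;> linarith

/-- a function within `η` of a constant. -/
theorem oscLe_of_const {η k : ℝ} {O : Set X} (hO : IsOpen O) (hP : P ⊆ O)
    (hfg : ∀ q ∈ O ∩ V, |g q - k| ≤ η) : OscLe V P g (2 * η) := by
  intro ε hε
  refine ⟨O, hO, hP, fun q hq q' hq' => ?_⟩
  have h1 := abs_le.1 (hfg q hq)
  have h2 := abs_le.1 (hfg q' hq')
  rw [abs_le]
  constructor <;> linarith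

/-- convex combination `(1 - w) f + w k` with a locally constant `k`. -/
theorem abs_combo_le {a b w w' k m A : ℝ} (hw : 0 ≤ w) (hw1 : w ≤ 1) (hww : |w - w'| ≤ m)
    (hA : |b - k| ≤ A) :
    |(a + w * (k - a)) - (b + w' * (k - b))| ≤ |a - b| + m * A := by
  have e : (a + w * (k - a)) - (b + w' * (k - b)) = (1 - w) * (a - b) - (w - w') * (b - k) := by
    ring
  have hA0 : 0 ≤ A := (abs_nonneg _).trans hA
  have hm0 : 0 ≤ m := (abs_nonneg _).trans hww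
  rw [e]
  calc |(1 - w) * (a - b) - (w - w') * (b - k)| ≤ |(1 - w) * (a - b)| + |(w - w') * (b - k)| :=
        abs_sub _ _
    _ = (1 - w) * |a - b| + |w - w'| * |b - k| := by
        rw [abs_mul, abs_mul, abs_of_nonneg (by linarith : (0:ℝ) ≤ 1 - w)]
    _ ≤ |a - b| + m * A := by
        have h1 : (1 - w) * |a - b| ≤ |a - b| := by
          have := mul_nonneg hw (abs_nonneg (a - b)); nlinarith
        have h2 : |w - w'| * |b - k| ≤ m * A := mul_le_mul hww hA (abs_nonneg _) hm0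
        linarith

/-- the set of points whose component has oscillation `< c` is open in a saturated sense:
if the portion `P` has oscillation `≤ c'` then every set inside a neighbourhood of `P` has. -/
theorem OscLe.exists_nhds (h : OscLe V P f c) (hcc : c < c') :
    ∃ O, IsOpen O ∧ P ⊆ O ∧ ∀ P' ⊆ O, OscLe V P' f c' := by
  obtain ⟨O, hO, hPO, H⟩ := h (c' - c) (by linarith)
  refine ⟨O, hO, hPO, fun P' hP' ε hε => ⟨O, hO, hP', fun q hq q' hq' => ?_⟩⟩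
  have := H q hq q' hq'
  linarith

end top

section metric

variable [PseudoMetricSpace X] {V P : Set X} {f : X → ℝ} {c : ℝ}

/-- **one modulus**: if every point of the compact set `A` has local oscillation `≤ c`, then
`f` varies by at most `c + ε` at distance `< δ` near `A`. -/
theorem exists_modulus {A : Set X} (hA : IsCompact A) (h : ∀ p ∈ A, OscLe V {p} f c) {ε : ℝ}
    (hε : 0 < ε) : ∃ δ > 0, ∀ x ∈ A, ∀ q ∈ V, ∀ q' ∈ V, dist q x < δ → dist q' x < δ →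
      |f q - f q'| ≤ c + ε := by
  classical
  choose! O hO hpO H using fun p (hp : p ∈ A) => h p hp ε hε
  obtain ⟨δ, hδ, hball⟩ := lebesgue_number_lemma_of_metric (c := fun p : A => O p.1) hA
    (fun p => hO p.1 p.2) (fun p hp => mem_iUnion.2 ⟨⟨p, hp⟩, hpO p hp rfl⟩)
  refine ⟨δ, hδ, fun x hx q hq q' hq' h1 h2 => ?_⟩
  obtain ⟨⟨p, hp⟩, hpx⟩ := hball x hx
  exact H p hp q ⟨hpx h1, hq⟩ q' ⟨hpx h2, hq'⟩

/-- oscillation over a whole thin neighbourhood. -/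
theorem OscLe.thick (h : OscLe V P f c) {η δ : ℝ} (hδ : 0 < δ) (hV : P ⊆ closure V)
    (hmod : ∀ x ∈ P, ∀ q ∈ V, ∀ q' ∈ V, dist q x < δ → dist q' x < δ → |f q - f q'| ≤ η) :
    ∀ q ∈ V, ∀ q' ∈ V, q ∈ thickening δ P → q' ∈ thickening δ P → |f q - f q'| ≤ c + 2 * η := by
  intro q hq q' hq' h1 h2
  obtain ⟨x, hx, hqx⟩ := mem_thickening_iff.1 h1
  obtain ⟨x', hx', hqx'⟩ := mem_thickening_iff.1 h2
  apply le_of_forall_pos_le_add
  intro ε hε
  obtain ⟨O, hO, hPO, H⟩ := h ε hε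
  obtain ⟨v, hv, hvV⟩ := mem_closure_iff.1 (hV hx) (O ∩ ball x δ) (hO.inter isOpen_ball)
    ⟨hPO hx, mem_ball_self hδ⟩
  obtain ⟨v', hv', hvV'⟩ := mem_closure_iff.1 (hV hx') (O ∩ ball x' δ) (hO.inter isOpen_ball)
    ⟨hPO hx', mem_ball_self hδ⟩
  have e1 := abs_le.1 (hmod x hx q hq v hvV hqx hv.2)
  have e2 := abs_le.1 (hmod x' hx' q' hq' v' hvV' hqx' hv'.2)
  have e3 := abs_le.1 (H v ⟨hv.1, hvV⟩ v' ⟨hv'.1, hvV'⟩)
  rw [abs_le]
  constructor <;> linarith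

end metric

end Crest.Agent.R105.Stp_722
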