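import Crest.Agent.R105.Tra2_937
import Crest.Agent.R105.Ends3_897

/-!
# Transport III: honest functions (continuity at the ends)

`O = U` exterior domain whose complement is totally disconnected, `V = F '' U` the picture.
A function `φ` on `V` which has a limit at every end of `V` (897's filter `eF V ζ`) is pulled back
to a continuous function on `ℂ`; and conversely.
-/

set_option autoImplicit false

open Set Filter MeasureTheory Metric
open scoped Topology ENNReal NNReal
open Crest.AnalysisR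
open Crest.Agent.R105.Ends_897 (eF EndMap)

namespace Crest.Agent.R105.Tra_937

noncomputable section

theorem cc_point {U : Set ℂ} (hC : IsTotallyDisconnected Uᶜ) {z : ℂ} (hz : z ∉ U) :
    connectedComponentIn Uᶜ z = {z} := by
  have h1 : (connectedComponentIn Uᶜ z).Subsingleton :=
    hC _ (connectedComponentIn_subset _ _) isPreconnected_connectedComponentIn
  exact h1.eq_singleton_of_mem (mem_connectedComponentIn hz)

/-- the end filter at a point component. -/
theorem eF_point {U : Set ℂ} (hC : IsTotallyDisconnected Uᶜ) {z : ℂ} (hz : z ∉ U) :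
    eF U z = 𝓝[U] z := by
  unfold eF
  rw [cc_point hC hz, nhdsSet_singleton]
  rfl

theorem interior_empty {C : Set ℂ} (hC : IsTotallyDisconnected C) : interior C = ∅ := by
  by_contra h
  obtain ⟨z, hz⟩ := nonempty_iff_ne_empty.2 h
  obtain ⟨r, hr, hb⟩ := Metric.isOpen_iff.1 isOpen_interior z hz
  have h1 : (ball z r).Subsingleton :=
    hC _ (hb.trans interior_subset) (convex_ball z r).isPreconnected
  have h2 : z + (r / 2 : ℝ) ∈ ball z r := by
    rw [mem_ball, dist_eq_norm]
    simp only [add_sub_cancel_left, Complex.norm_real, Real.norm_eq_abs]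
    rw [abs_of_pos (by linarith)]; linarith
  have h3 := h1 h2 (mem_ball_self hr)
  have h5 : ((r / 2 : ℝ) : ℂ) = 0 := by
    have : z + ((r / 2 : ℝ) : ℂ) = z + 0 := by rw [h3, add_zero]
    exact add_left_cancel this
  rw [Complex.ofReal_eq_zero] at h5
  linarith

theorem closure_univ {U : Set ℂ} (hC : IsTotallyDisconnected Uᶜ) : closure U = univ := by
  rw [closure_eq_compl_interior_compl, interior_empty hC, compl_empty]

theorem nhdsWithin_neBot {U : Set ℂ} (hC : IsTotallyDisconnected Uᶜ) (z : ℂ) : (𝓝[U] z).NeBot := by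
  rw [← mem_closure_iff_nhdsWithin_neBot, closure_univ hC]; exact mem_univ z

/-- the pull back of a function on the picture, extended by its limits. -/
def pull (U : Set ℂ) (F : ℂ → ℂ) (φ : ℂ → ℝ) : ℂ → ℝ := extendFrom U (φ ∘ F)

variable {U V : Set ℂ} {F : ℂ → ℂ} {φ : ℂ → ℝ}

theorem pull_eq (h : EndMap U V F) (hφ : ContinuousOn φ V) : EqOn (pull U F φ) (φ ∘ F) U := by
  intro z hz
  have h1 : ContinuousWithinAt (φ ∘ F) U z :=
    (hφ (F z) (h.img ▸ mem_image_of_mem F hz)).comp (h.cont z hz)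
      (fun w hw => h.img ▸ mem_image_of_mem F hw)
  exact extendFrom_eq (subset_closure hz) h1

/-- the limit at the end `ζ` of the picture is the value at the corresponding point `z`. -/
theorem pull_at (hC : IsTotallyDisconnected Uᶜ) {z ζ : ℂ} (hz : z ∉ U)
    (he : map F (eF U z) = eF V ζ) {c : ℝ} (hc : Tendsto φ (eF V ζ) (𝓝 c)) :
    pull U F φ z = c := by
  have h1 : Tendsto (φ ∘ F) (𝓝[U] z) (𝓝 c) := by
    rw [← eF_point hC hz]
    rw [← he] at hc
    exact tendsto_map'_iff.1 hc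
  exact extendFrom_eq (by rw [closure_univ hC]; exact mem_univ z) h1

/-- **pull back**: `φ` continuous on `V`, with limits at all ends except those over `T`. -/
theorem pull_continuousOn (h : EndMap U V F) (hC : IsTotallyDisconnected Uᶜ)
    (hφ : ContinuousOn φ V) {T : Set ℂ}
    (hl : ∀ z ∉ U, z ∉ T → ∀ ζ ∉ V, map F (eF U z) = eF V ζ → ∃ c, Tendsto φ (eF V ζ) (𝓝 c)) :
    ContinuousOn (pull U F φ) Tᶜ := by
  refine continuousOn_extendFrom (fun z _ => by rw [closure_univ hC]; exact mem_univ z) ?_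
  intro z hzT
  by_cases hz : z ∈ U
  · refine ⟨(φ ∘ F) z, ?_⟩
    exact (hφ (F z) (h.img ▸ mem_image_of_mem F hz)).comp (h.cont z hz)
      (fun w hw => h.img ▸ mem_image_of_mem F hw)
  · obtain ⟨ζ, hζ, he⟩ := h.exists_end hz
    obtain ⟨c, hc⟩ := hl z hz hzT ζ hζ he
    refine ⟨c, ?_⟩
    rw [← eF_point hC hz]
    rw [← he] at hc
    exact tendsto_map'_iff.1 hc

theorem pull_continuous (h : EndMap U V F) (hC : IsTotallyDisconnected Uᶜ)
    (hφ : ContinuousOn φ V) (hl : ∀ ζ ∉ V, ∃ c, Tendsto φ (eF V ζ) (𝓝 c)) :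
    Continuous (pull U F φ) := by
  rw [← continuousOn_univ, ← compl_empty]
  exact pull_continuousOn h hC hφ (fun _ _ _ ζ hζ _ => hl ζ hζ)

/-- **push forward**: a continuous `u` has the limit `u z` at the end corresponding to `z`. -/
theorem push_tendsto (h : EndMap U V F) (hC : IsTotallyDisconnected Uᶜ) {u : ℂ → ℝ}
    {z ζ : ℂ} (hz : z ∉ U) (hu : ContinuousAt u z) (he : map F (eF U z) = eF V ζ) :
    Tendsto (u ∘ inv U F) (eF V ζ) (𝓝 (u z)) := by
  rw [← he, tendsto_map'_iff]
  have h1 : (u ∘ inv U F) ∘ F =ᶠ[eF U z] u := by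
    filter_upwards [EndMap.eventually_mem U z] with w hw
    simp only [Function.comp_apply, inv]
    rw [h.inj.leftInvOn_invFunOn hw]
  refine Tendsto.congr' h1.symm ?_
  rw [eF_point hC hz]
  exact hu.tendsto.mono_left nhdsWithin_le_nhds

theorem push_continuousOn (h : Uni U F) {u : ℂ → ℝ} (hu : ContinuousOn u U) :
    ContinuousOn (u ∘ inv U F) (F '' U) :=
  hu.comp h.symm.hol.continuousOn (fun _ hw => h.inv_mem hw)

/-- bounds are inherited by the extension. -/
theorem pull_bound (h : EndMap U V F) (hC : IsTotallyDisconnected Uᶜ)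
    (hφ : ContinuousOn φ V) {M : ℝ} (hM : ∀ w ∈ V, |φ w| ≤ M)
    (hl : ∀ ζ ∉ V, ∃ c, Tendsto φ (eF V ζ) (𝓝 c)) (z : ℂ) : |pull U F φ z| ≤ M := by
  by_cases hz : z ∈ U
  · rw [pull_eq h hφ hz]
    exact hM _ (h.img ▸ mem_image_of_mem F hz)
  · obtain ⟨ζ, hζ, he⟩ := h.exists_end hz
    obtain ⟨c, hc⟩ := hl ζ hζ
    rw [pull_at hC hz he hc]
    have h0 : (eF V ζ).NeBot := Ends_897.eF_neBot h.hV hζ
    refine le_of_tendsto hc.abs ?_
    filter_upwards [EndMap.eventually_mem V ζ] with w hw using hM w hw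

/-! ### gradients only see a neighbourhood -/

theorem fderiv_congr {O : Set ℂ} (hO : IsOpen O) {u w : ℂ → ℝ} (h : EqOn u w O) {z : ℂ}
    (hz : z ∈ O) : fderiv ℝ u z = fderiv ℝ w z :=
  (h.eventuallyEq_of_mem (hO.mem_nhds hz)).fderiv_eq

theorem gx_congr {O : Set ℂ} (hO : IsOpen O) {u w : ℂ → ℝ} (h : EqOn u w O) {z : ℂ}
    (hz : z ∈ O) : gx u z = gx w z := by unfold gx; rw [fderiv_congr hO h hz]

theorem gy_congr {O : Set ℂ} (hO : IsOpen O) {u w : ℂ → ℝ} (h : EqOn u w O) {z : ℂ}
    (hz : z ∈ O) : gy u z = gy w z := by unfold gy; rw [fderiv_congr hO h hz]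

theorem en_congr {O : Set ℂ} (hO : IsOpen O) {u w : ℂ → ℝ} (h : EqOn u w O) :
    EqOn (en u) (en w) O := fun z hz => by
  unfold en; rw [gx_congr hO h hz, gy_congr hO h hz]

theorem dot_congr {O : Set ℂ} (hO : IsOpen O) {u w u' w' : ℂ → ℝ} (h : EqOn u u' O)
    (h' : EqOn w w' O) : EqOn (dot u w) (dot u' w') O := fun z hz => by
  unfold dot
  rw [gx_congr hO h hz, gy_congr hO h hz, gx_congr hO h' hz, gy_congr hO h' hz]

theorem wdg_congr {O : Set ℂ} (hO : IsOpen O) {u w u' w' : ℂ → ℝ} (h : EqOn u u' O)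
    (h' : EqOn w w' O) : EqOn (wdg u w) (wdg u' w') O := fun z hz => by
  unfold wdg
  rw [gx_congr hO h hz, gy_congr hO h hz, gx_congr hO h' hz, gy_congr hO h' hz]

theorem locLip_congr {O : Set ℂ} {u w : ℂ → ℝ} (h : EqOn u w O)
    (hu : LocallyLipschitzOn O u) : LocallyLipschitzOn O w := by
  intro z hz
  obtain ⟨K, t, ht, hK⟩ := hu hz
  refine ⟨K, t ∩ O, inter_mem ht self_mem_nhdsWithin, ?_⟩
  intro a ha b hb
  rw [← h ha.2, ← h hb.2]
  exact hK ha.1 hb.1

/-- **the honest class is transported**: bounded, locally Lipschitz on `V`, finite energy, limits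
at all ends of `V`  ⟹  the pull back is continuous, bounded, locally Lipschitz on `U` and has
finite energy. -/
theorem pull_honest (h : EndMap U (F '' U) F) (hF : Uni U F) (hC : IsTotallyDisconnected Uᶜ)
    (hφ : LocallyLipschitzOn (F '' U) φ) {M : ℝ} (hM : ∀ w ∈ F '' U, |φ w| ≤ M)
    (he : IntegrableOn (en φ) (F '' U)) (hl : ∀ ζ ∉ F '' U, ∃ c, Tendsto φ (eF (F '' U) ζ) (𝓝 c)) :
    Continuous (pull U F φ) ∧ (∀ z, |pull U F φ z| ≤ M) ∧ LocallyLipschitzOn U (pull U F φ) ∧
      IntegrableOn (en (pull U F φ)) U ∧ EqOn (pull U F φ) (φ ∘ F) U := by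
  have hE := pull_eq h hφ.continuousOn
  refine ⟨pull_continuous h hC hφ.continuousOn hl, pull_bound h hC hφ.continuousOn hM hl,
    locLip_congr hE.symm (hF.locLip_comp hφ), ?_, hE⟩
  have h1 := (hF.integrableOn_en hF.op.measurableSet subset_rfl (fun _ => 1)
    (ae_diff_of_locLip hF.isOpen_image hφ)).2 (by simpa using he)
  simp only [one_mul] at h1
  exact h1.congr_fun (fun z hz => (en_congr hF.op hE hz).symm) hF.op.measurableSet

/-- the converse: push forward of the honest class. -/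
theorem push_honest (h : EndMap U (F '' U) F) (hF : Uni U F) (hC : IsTotallyDisconnected Uᶜ)
    {u : ℂ → ℝ} (hu : Continuous u) {M : ℝ} (hM : ∀ z, |u z| ≤ M) (hL : LocallyLipschitzOn U u)
    (he : IntegrableOn (en u) U) :
    LocallyLipschitzOn (F '' U) (u ∘ inv U F) ∧ (∀ w, |(u ∘ inv U F) w| ≤ M) ∧
      IntegrableOn (en (u ∘ inv U F)) (F '' U) ∧
      (∀ ζ ∉ F '' U, ∃ c, Tendsto (u ∘ inv U F) (eF (F '' U) ζ) (𝓝 c)) ∧
      EqOn ((u ∘ inv U F) ∘ F) u U := by
  have hE : EqOn ((u ∘ inv U F) ∘ F) u U := fun z hz => by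
    simp [Function.comp_apply, hF.inv_apply hz]
  have hL' : LocallyLipschitzOn (F '' U) (u ∘ inv U F) :=
    hF.locLip_comp_iff.1 (locLip_congr hE.symm hL)
  refine ⟨hL', fun w => hM _, ?_, ?_, hE⟩
  · have h1 := (hF.integrableOn_en hF.op.measurableSet subset_rfl (fun _ => 1)
      (ae_diff_of_locLip hF.isOpen_image hL')).1 (by
        simp only [one_mul]
        exact he.congr_fun (fun z hz => (en_congr hF.op hE hz).symm) hF.op.measurableSet)
    simpa using h1
  · intro ζ hζ
    obtain ⟨z, hz, hze⟩ := h.exists_end' hζ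
    exact ⟨u z, push_tendsto h hC hz hu.continuousAt hze⟩

/-- the area form of two pulled back functions. -/
theorem integral_wdg_pull (h : EndMap U (F '' U) F) (hF : Uni U F) {φ ψ : ℂ → ℝ}
    (hφ : LocallyLipschitzOn (F '' U) φ) (hψ : LocallyLipschitzOn (F '' U) ψ) :
    ∫ z in U, wdg (pull U F φ) (pull U F ψ) z = ∫ z in F '' U, wdg φ ψ z := by
  have h1 := hF.integral_wdg hF.op.measurableSet subset_rfl (fun _ => 1)
    (ae_diff_of_locLip hF.isOpen_image hφ) (ae_diff_of_locLip hF.isOpen_image hψ)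
  simp only [one_mul] at h1
  rw [← h1]
  exact setIntegral_congr_fun hF.op.measurableSet
    (wdg_congr hF.op (pull_eq h hφ.continuousOn) (pull_eq h hψ.continuousOn))

/-- the Dirichlet form of two pulled back functions. -/
theorem integral_dot_pull (h : EndMap U (F '' U) F) (hF : Uni U F) {φ ψ : ℂ → ℝ}
    (hφ : LocallyLipschitzOn (F '' U) φ) (hψ : LocallyLipschitzOn (F '' U) ψ) :
    ∫ z in U, dot (pull U F φ) (pull U F ψ) z = ∫ z in F '' U, dot φ ψ z := by
  have h1 := hF.integral_dot hF.op.measurableSet subset_rfl (fun _ => 1)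
    (ae_diff_of_locLip hF.isOpen_image hφ) (ae_diff_of_locLip hF.isOpen_image hψ)
  simp only [one_mul] at h1
  rw [← h1]
  exact setIntegral_congr_fun hF.op.measurableSet
    (dot_congr hF.op (pull_eq h hφ.continuousOn) (pull_eq h hψ.continuousOn))

/-- E-L: `∫_U ∇x·∇(pull φ) = ∫_V φ_x`, `x = Re F` on `U`. -/
theorem integral_dot_re_pull (h : EndMap U (F '' U) F) (hF : Uni U F) {x φ : ℂ → ℝ}
    (hx : EqOn x (fun z => (F z).re) U) (hφ : LocallyLipschitzOn (F '' U) φ) :
    ∫ z in U, dot x (pull U F φ) z = ∫ z in F '' U, gx φ z := by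
  have h1 := hF.integral_dot_re hF.op.measurableSet subset_rfl (fun _ => 1)
    (ae_diff_of_locLip hF.isOpen_image hφ)
  simp only [one_mul] at h1
  rw [← h1]
  exact setIntegral_congr_fun hF.op.measurableSet
    (dot_congr hF.op hx (pull_eq h hφ.continuousOn))

end

end Crest.Agent.R105.Tra_937
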