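import Mathlib

/-!
Row 105 (helper271), LIB-LOC: thin neighbourhoods from one big rectangle.
Vertical Poincare inequality for functions which are absolutely continuous on almost every vertical
line, and the energy of `χ z`.
-/

set_option autoImplicit false

namespace Crest.Agent.R105.Loc_271

open MeasureTheory Set Filter ENNReal Topology

/-- horizontal partial derivative -/
noncomputable def dx (f : ℝ × ℝ → ℝ) (p : ℝ × ℝ) : ℝ := deriv (fun s => f (s, p.2)) p.1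

/-- vertical partial derivative -/
noncomputable def dy (f : ℝ × ℝ → ℝ) (p : ℝ × ℝ) : ℝ := deriv (fun t => f (p.1, t)) p.2

theorem sq_lintegral_le {α : Type*} {m : MeasurableSpace α} (μ : Measure α) {g : α → ℝ≥0∞}
    (hg : AEMeasurable g μ) : (∫⁻ t, g t ∂μ) ^ 2 ≤ μ univ * ∫⁻ t, g t ^ 2 ∂μ := by
  have h := ENNReal.lintegral_mul_le_Lp_mul_Lq μ (p := 2) (q := 2)
    (Real.HolderConjugate.two_two) (aemeasurable_const (b := (1 : ℝ≥0∞))) hg
  simp only [Pi.mul_apply, one_mul, ENNReal.one_rpow, lintegral_const] at h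
  have h2 := pow_le_pow_left' h 2
  refine h2.trans_eq ?_
  rw [mul_pow]
  have e : ∀ x : ℝ≥0∞, (x ^ (1 / 2 : ℝ)) ^ 2 = x := fun x => by
    rw [← ENNReal.rpow_natCast, ← ENNReal.rpow_mul]; norm_num
  rw [e, e]
  congr 1
  refine lintegral_congr fun t => ?_
  rw [← ENNReal.rpow_natCast]; norm_num

/-- one-dimensional Poincare inequality, pointwise form -/
theorem sq_le_line {f : ℝ → ℝ} {a b : ℝ} (hf : AbsolutelyContinuousOnInterval f a b)
    (ha : f a = 0) (hab : a ≤ b) {y : ℝ} (hy : y ∈ Icc a b) :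
    ‖f y‖ₑ ^ 2 ≤ ENNReal.ofReal (b - a) * ∫⁻ t in Ioc a b, ‖deriv f t‖ₑ ^ 2 := by
  have hsub : AbsolutelyContinuousOnInterval f a y := by
    refine hf.mono ?_
    rw [uIcc_of_le hab, uIcc_of_le hy.1]
    exact Icc_subset_Icc_right hy.2
  have h1 := hsub.integral_deriv_eq_sub
  rw [ha, sub_zero] at h1
  have h2 : ‖f y‖ₑ ≤ ∫⁻ t in Ioc a b, ‖deriv f t‖ₑ := by
    rw [← h1, intervalIntegral.integral_of_le hy.1]
    refine (enorm_integral_le_lintegral_enorm _).trans ?_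
    exact lintegral_mono_set (Ioc_subset_Ioc_right hy.2)
  have h3 := sq_lintegral_le (volume.restrict (Ioc a b)) (g := fun t => ‖deriv f t‖ₑ)
    (measurable_deriv f).enorm.aemeasurable
  refine (pow_le_pow_left' h2 2).trans (h3.trans_eq ?_)
  rw [Measure.restrict_apply MeasurableSet.univ, univ_inter, Real.volume_Ioc]

/-- one-dimensional Poincare inequality -/
theorem poincare_line {f : ℝ → ℝ} {a b : ℝ} (hf : AbsolutelyContinuousOnInterval f a b)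
    (ha : f a = 0) (hab : a ≤ b) :
    ∫⁻ t in Ioc a b, ‖f t‖ₑ ^ 2 ≤ ENNReal.ofReal (b - a) ^ 2 * ∫⁻ t in Ioc a b, ‖deriv f t‖ₑ ^ 2 := by
  calc ∫⁻ t in Ioc a b, ‖f t‖ₑ ^ 2
      ≤ ∫⁻ _ in Ioc a b, ENNReal.ofReal (b - a) * ∫⁻ t in Ioc a b, ‖deriv f t‖ₑ ^ 2 := by
        refine setLIntegral_mono' measurableSet_Ioc fun t ht => ?_
        exact sq_le_line hf ha hab ⟨ht.1.le, ht.2⟩
    _ = ENNReal.ofReal (b - a) ^ 2 * ∫⁻ t in Ioc a b, ‖deriv f t‖ₑ ^ 2 := by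
        rw [setLIntegral_const, Real.volume_Ioc]; ring

/-- the same with the zero at the upper end -/
theorem poincare_line' {f : ℝ → ℝ} {a b : ℝ} (hf : AbsolutelyContinuousOnInterval f a b)
    (hb : f b = 0) (hab : a ≤ b) :
    ∫⁻ t in Ioc a b, ‖f t‖ₑ ^ 2 ≤ ENNReal.ofReal (b - a) ^ 2 * ∫⁻ t in Ioc a b, ‖deriv f t‖ₑ ^ 2 := by
  have key : ∀ y ∈ Icc a b, ‖f y‖ₑ ^ 2 ≤
      ENNReal.ofReal (b - a) * ∫⁻ t in Ioc a b, ‖deriv f t‖ₑ ^ 2 := by
    intro y hy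
    have hsub : AbsolutelyContinuousOnInterval f y b := by
      refine hf.mono ?_
      rw [uIcc_of_le hab, uIcc_of_le hy.2]
      exact Icc_subset_Icc_left hy.1
    have h1 := hsub.integral_deriv_eq_sub
    rw [hb, zero_sub] at h1
    have h2 : ‖f y‖ₑ ≤ ∫⁻ t in Ioc a b, ‖deriv f t‖ₑ := by
      rw [← enorm_neg, ← h1, intervalIntegral.integral_of_le hy.2]
      refine (enorm_integral_le_lintegral_enorm _).trans ?_
      exact lintegral_mono_set (Ioc_subset_Ioc_left hy.1)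
    have h3 := sq_lintegral_le (volume.restrict (Ioc a b)) (g := fun t => ‖deriv f t‖ₑ)
      (measurable_deriv f).enorm.aemeasurable
    refine (pow_le_pow_left' h2 2).trans (h3.trans_eq ?_)
    rw [Measure.restrict_apply MeasurableSet.univ, univ_inter, Real.volume_Ioc]
  calc ∫⁻ t in Ioc a b, ‖f t‖ₑ ^ 2
      ≤ ∫⁻ _ in Ioc a b, ENNReal.ofReal (b - a) * ∫⁻ t in Ioc a b, ‖deriv f t‖ₑ ^ 2 := by
        refine setLIntegral_mono' measurableSet_Ioc fun t ht => ?_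
        exact key t ⟨ht.1.le, ht.2⟩
    _ = ENNReal.ofReal (b - a) ^ 2 * ∫⁻ t in Ioc a b, ‖deriv f t‖ₑ ^ 2 := by
        rw [setLIntegral_const, Real.volume_Ioc]; ring

/-- **Vertical Poincare inequality** on a box, zero at the bottom side. -/
theorem poincare_box {f : ℝ × ℝ → ℝ} {c d a b : ℝ} (hab : a ≤ b)
    (hf : ∀ᵐ x ∂(volume.restrict (Ioc c d)),
      AbsolutelyContinuousOnInterval (fun t => f (x, t)) a b ∧ f (x, a) = 0)
    (hm : AEMeasurable (dy f) (volume.restrict (Ioc c d ×ˢ Ioc a b))) :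
    ∫⁻ p in Ioc c d ×ˢ Ioc a b, ‖f p‖ₑ ^ 2 ≤
      ENNReal.ofReal (b - a) ^ 2 * ∫⁻ p in Ioc c d ×ˢ Ioc a b, ‖dy f p‖ₑ ^ 2 := by
  rw [Measure.volume_eq_prod, ← Measure.prod_restrict] at hm ⊢
  refine (lintegral_prod_le _).trans ?_
  rw [lintegral_prod _ (hm.enorm.pow_const 2), ← lintegral_const_mul' _ _ (by finiteness)]
  refine lintegral_mono_ae ?_
  filter_upwards [hf] with x hx
  exact poincare_line hx.1 hx.2 hab

/-- **Vertical Poincare inequality** on a box, zero at the top side. -/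
theorem poincare_box' {f : ℝ × ℝ → ℝ} {c d a b : ℝ} (hab : a ≤ b)
    (hf : ∀ᵐ x ∂(volume.restrict (Ioc c d)),
      AbsolutelyContinuousOnInterval (fun t => f (x, t)) a b ∧ f (x, b) = 0)
    (hm : AEMeasurable (dy f) (volume.restrict (Ioc c d ×ˢ Ioc a b))) :
    ∫⁻ p in Ioc c d ×ˢ Ioc a b, ‖f p‖ₑ ^ 2 ≤
      ENNReal.ofReal (b - a) ^ 2 * ∫⁻ p in Ioc c d ×ˢ Ioc a b, ‖dy f p‖ₑ ^ 2 := by
  rw [Measure.volume_eq_prod, ← Measure.prod_restrict] at hm ⊢
  refine (lintegral_prod_le _).trans ?_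
  rw [lintegral_prod _ (hm.enorm.pow_const 2), ← lintegral_const_mul' _ _ (by finiteness)]
  refine lintegral_mono_ae ?_
  filter_upwards [hf] with x hx
  exact poincare_line' hx.1 hx.2 hab

/-! ### cut-offs -/

theorem dx_mul {χ z : ℝ × ℝ → ℝ} {p : ℝ × ℝ} (h1 : DifferentiableAt ℝ (fun s => χ (s, p.2)) p.1)
    (h2 : DifferentiableAt ℝ (fun s => z (s, p.2)) p.1) :
    dx (fun q => χ q * z q) p = dx χ p * z p + χ p * dx z p := by
  unfold dx
  exact deriv_fun_mul h1 h2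

theorem dy_mul {χ z : ℝ × ℝ → ℝ} {p : ℝ × ℝ} (h1 : DifferentiableAt ℝ (fun t => χ (p.1, t)) p.2)
    (h2 : DifferentiableAt ℝ (fun t => z (p.1, t)) p.2) :
    dy (fun q => χ q * z q) p = dy χ p * z p + χ p * dy z p := by
  unfold dy
  exact deriv_fun_mul h1 h2

/-- pointwise energy density -/
noncomputable def en (f : ℝ × ℝ → ℝ) (p : ℝ × ℝ) : ℝ := dx f p ^ 2 + dy f p ^ 2

theorem en_nonneg (f : ℝ × ℝ → ℝ) (p : ℝ × ℝ) : 0 ≤ en f p := by unfold en; positivity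

theorem en_mul_le {χ z : ℝ × ℝ → ℝ} {p : ℝ × ℝ} {C : ℝ}
    (h1 : DifferentiableAt ℝ (fun s => χ (s, p.2)) p.1)
    (h2 : DifferentiableAt ℝ (fun s => z (s, p.2)) p.1)
    (h3 : DifferentiableAt ℝ (fun t => χ (p.1, t)) p.2)
    (h4 : DifferentiableAt ℝ (fun t => z (p.1, t)) p.2) (hχ : |χ p| ≤ 1) (hC : en χ p ≤ C) :
    en (fun q => χ q * z q) p ≤ 2 * en z p + 2 * C * z p ^ 2 := by
  have e1 := dx_mul h1 h2
  have e2 := dy_mul h3 h4
  have hc2 : χ p ^ 2 ≤ 1 := by rw [← sq_abs]; exact pow_le_one₀ (abs_nonneg _) hχ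
  have a1 : dx (fun q => χ q * z q) p ^ 2 ≤ 2 * dx z p ^ 2 + 2 * dx χ p ^ 2 * z p ^ 2 := by
    rw [e1]
    nlinarith [sq_nonneg (dx χ p * z p - χ p * dx z p), sq_nonneg (dx z p)]
  have a2 : dy (fun q => χ q * z q) p ^ 2 ≤ 2 * dy z p ^ 2 + 2 * dy χ p ^ 2 * z p ^ 2 := by
    rw [e2]
    nlinarith [sq_nonneg (dy χ p * z p - χ p * dy z p), sq_nonneg (dy z p)]
  have a3 : (dx χ p ^ 2 + dy χ p ^ 2) * z p ^ 2 ≤ C * z p ^ 2 :=
    mul_le_mul_of_nonneg_right hC (sq_nonneg _)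
  unfold en
  nlinarith [a1, a2, a3]

/-- energy of `χ z` over a measure -/
theorem energy_mul_le {μ : Measure (ℝ × ℝ)} {χ z : ℝ × ℝ → ℝ} {C : ℝ} (hC0 : 0 ≤ C)
    (hd : ∀ᵐ p ∂μ, DifferentiableAt ℝ (fun s => χ (s, p.2)) p.1 ∧
      DifferentiableAt ℝ (fun s => z (s, p.2)) p.1 ∧
      DifferentiableAt ℝ (fun t => χ (p.1, t)) p.2 ∧
      DifferentiableAt ℝ (fun t => z (p.1, t)) p.2)
    (hχ : ∀ᵐ p ∂μ, |χ p| ≤ 1) (hC : ∀ᵐ p ∂μ, en χ p ≤ C)
    (hz : AEMeasurable z μ) :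
    ∫⁻ p, ENNReal.ofReal (en (fun q => χ q * z q) p) ∂μ ≤
      2 * ∫⁻ p, ENNReal.ofReal (en z p) ∂μ +
        ENNReal.ofReal (2 * C) * ∫⁻ p, ‖z p‖ₑ ^ 2 ∂μ := by
  calc ∫⁻ p, ENNReal.ofReal (en (fun q => χ q * z q) p) ∂μ
      ≤ ∫⁻ p, (2 * ENNReal.ofReal (en z p) + ENNReal.ofReal (2 * C) * ‖z p‖ₑ ^ 2) ∂μ := by
        refine lintegral_mono_ae ?_
        filter_upwards [hd, hχ, hC] with p h1 h2 h3
        have h4 := en_mul_le h1.1 h1.2.1 h1.2.2.1 h1.2.2.2 h2 h3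
        have h5 : (2 : ℝ≥0∞) * ENNReal.ofReal (en z p) = ENNReal.ofReal (2 * en z p) := by
          rw [ENNReal.ofReal_mul (by norm_num)]; norm_num
        have h6 : ‖z p‖ₑ ^ 2 = ENNReal.ofReal (z p ^ 2) := by
          rw [← ofReal_norm, ← ENNReal.ofReal_pow (norm_nonneg _), Real.norm_eq_abs, sq_abs]
        rw [h5, h6, ← ENNReal.ofReal_mul (by positivity), ← ENNReal.ofReal_add
          (by have := en_nonneg z p; positivity) (by positivity)]
        exact ENNReal.ofReal_le_ofReal h4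
    _ = _ := by
        rw [lintegral_add_right' _ ((hz.enorm.pow_const 2).const_mul _),
          lintegral_const_mul' _ _ (by norm_num), lintegral_const_mul' _ _ (by finiteness)]

/-- the vertical part is part of the energy -/
theorem dy_le_en {μ : Measure (ℝ × ℝ)} (f : ℝ × ℝ → ℝ) :
    ∫⁻ p, ‖dy f p‖ₑ ^ 2 ∂μ ≤ ∫⁻ p, ENNReal.ofReal (en f p) ∂μ := by
  refine lintegral_mono fun p => ?_
  rw [← ofReal_norm, ← ENNReal.ofReal_pow (norm_nonneg _), Real.norm_eq_abs, sq_abs]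
  exact ENNReal.ofReal_le_ofReal (by unfold en; nlinarith [sq_nonneg (dx f p)])

/-- **Localisation**: if the energies of `z_n` over the big box tend to zero and `z_n` vanishes at the
bottom (or at the top) of a.e. vertical line of the box, then `∫ z_n² → 0` and the energy of `χ z_n`
tends to zero for every fixed cut-off `χ` (for instance the cut-off of a thin neighbourhood). -/
theorem localise {c d a b C : ℝ} (hab : a ≤ b) {z : ℕ → ℝ × ℝ → ℝ} {χ : ℝ × ℝ → ℝ}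
    (hac : ∀ n, ∀ᵐ x ∂(volume.restrict (Ioc c d)),
      AbsolutelyContinuousOnInterval (fun t => z n (x, t)) a b ∧ (z n (x, a) = 0 ∨ z n (x, b) = 0))
    (hm : ∀ n, AEMeasurable (dy (z n)) (volume.restrict (Ioc c d ×ˢ Ioc a b)))
    (hz : ∀ n, AEMeasurable (z n) (volume.restrict (Ioc c d ×ˢ Ioc a b)))
    (hE : Tendsto (fun n => ∫⁻ p in Ioc c d ×ˢ Ioc a b, ENNReal.ofReal (en (z n) p)) atTop (𝓝 0))
    (hC0 : 0 ≤ C)
    (hd : ∀ n, ∀ᵐ p ∂(volume.restrict (Ioc c d ×ˢ Ioc a b)),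
      DifferentiableAt ℝ (fun s => χ (s, p.2)) p.1 ∧
      DifferentiableAt ℝ (fun s => z n (s, p.2)) p.1 ∧
      DifferentiableAt ℝ (fun t => χ (p.1, t)) p.2 ∧
      DifferentiableAt ℝ (fun t => z n (p.1, t)) p.2)
    (hχ : ∀ᵐ p ∂(volume.restrict (Ioc c d ×ˢ Ioc a b)), |χ p| ≤ 1)
    (hC : ∀ᵐ p ∂(volume.restrict (Ioc c d ×ˢ Ioc a b)), en χ p ≤ C) :
    Tendsto (fun n => ∫⁻ p in Ioc c d ×ˢ Ioc a b, ‖z n p‖ₑ ^ 2) atTop (𝓝 0) ∧
    Tendsto (fun n => ∫⁻ p in Ioc c d ×ˢ Ioc a b,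
      ENNReal.ofReal (en (fun q => χ q * z n q) p)) atTop (𝓝 0) := by
  have hP : ∀ n, ∫⁻ p in Ioc c d ×ˢ Ioc a b, ‖z n p‖ₑ ^ 2 ≤
      ENNReal.ofReal (b - a) ^ 2 *
        ∫⁻ p in Ioc c d ×ˢ Ioc a b, ENNReal.ofReal (en (z n) p) := by
    intro n
    refine le_trans ?_ (mul_le_mul_right (dy_le_en (z n)) _)
    have hm' := hm n
    rw [Measure.volume_eq_prod, ← Measure.prod_restrict] at hm' ⊢
    refine (lintegral_prod_le _).trans ?_
    rw [lintegral_prod _ (hm'.enorm.pow_const 2), ← lintegral_const_mul' _ _ (by finiteness)]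
    refine lintegral_mono_ae ?_
    filter_upwards [hac n] with x hx
    rcases hx.2 with h | h
    · exact poincare_line hx.1 h hab
    · exact poincare_line' hx.1 h hab
  have h0 : Tendsto (fun n => ENNReal.ofReal (b - a) ^ 2 *
        ∫⁻ p in Ioc c d ×ˢ Ioc a b, ENNReal.ofReal (en (z n) p)) atTop (𝓝 0) := by
    have := ENNReal.Tendsto.const_mul (a := ENNReal.ofReal (b - a) ^ 2) hE
      (Or.inr (by finiteness))
    simpa using this
  have h1 : Tendsto (fun n => ∫⁻ p in Ioc c d ×ˢ Ioc a b, ‖z n p‖ₑ ^ 2) atTop (𝓝 0) :=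
    tendsto_of_tendsto_of_tendsto_of_le_of_le tendsto_const_nhds h0 (fun _ => zero_le) hP
  refine ⟨h1, ?_⟩
  have h2 : Tendsto (fun n => 2 * (∫⁻ p in Ioc c d ×ˢ Ioc a b, ENNReal.ofReal (en (z n) p)) +
      ENNReal.ofReal (2 * C) * (∫⁻ p in Ioc c d ×ˢ Ioc a b, ‖z n p‖ₑ ^ 2)) atTop (𝓝 0) := by
    have e1 := ENNReal.Tendsto.const_mul (a := 2) hE (Or.inr (by finiteness))
    have e2 := ENNReal.Tendsto.const_mul (a := ENNReal.ofReal (2 * C)) h1 (Or.inr (by finiteness))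
    have e3 := e1.add e2
    rw [mul_zero, mul_zero, add_zero] at e3
    exact e3
  refine tendsto_of_tendsto_of_tendsto_of_le_of_le tendsto_const_nhds h2 (fun _ => zero_le) ?_
  intro n
  exact energy_mul_le hC0 (hd n) hχ hC (hz n)

end Crest.Agent.R105.Loc_271
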