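import Crest.Agent.R105.Tra2_937
import Crest.Agent.R105.Loc1_271

/-!
# Transport IV: `ℂ` and `ℝ × ℝ`

`toC f z = f (z.re, z.im)`, `ofC u p = u (p.1 + p.2 I)`.
-/

set_option autoImplicit false

open Set Filter MeasureTheory
open scoped Topology ENNReal NNReal
open Crest.Agent.R105.Loc_271 (dx dy)

namespace Crest.Agent.R105.Tra_937

noncomputable section

/-- function on the plane `ℝ × ℝ` read on `ℂ`. -/
def toC {E : Type*} (f : ℝ × ℝ → E) (z : ℂ) : E := f (z.re, z.im)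
/-- function on `ℂ` read on `ℝ × ℝ`. -/
def ofC {E : Type*} (u : ℂ → E) (p : ℝ × ℝ) : E := u ⟨p.1, p.2⟩

@[simp] theorem toC_ofC {E : Type*} (u : ℂ → E) : toC (ofC u) = u := rfl
@[simp] theorem ofC_toC {E : Type*} (f : ℝ × ℝ → E) : ofC (toC f) = f := rfl

/-- the set `S ⊆ ℝ × ℝ` in `ℂ`. -/
def setC (S : Set (ℝ × ℝ)) : Set ℂ := {z | (z.re, z.im) ∈ S}
/-- the set `S ⊆ ℂ` in `ℝ × ℝ`. -/
def setR (S : Set ℂ) : Set (ℝ × ℝ) := {p | (⟨p.1, p.2⟩ : ℂ) ∈ S}

@[simp] theorem setC_setR (S : Set ℂ) : setC (setR S) = S := rfl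
@[simp] theorem setR_setC (S : Set (ℝ × ℝ)) : setR (setC S) = S := rfl
theorem setC_compl (S : Set (ℝ × ℝ)) : setC Sᶜ = (setC S)ᶜ := rfl
theorem setR_compl (S : Set ℂ) : setR Sᶜ = (setR S)ᶜ := rfl

theorem toC_eq {E : Type*} (f : ℝ × ℝ → E) : toC f = f ∘ Complex.equivRealProdCLM := rfl
theorem ofC_eq {E : Type*} (u : ℂ → E) : ofC u = u ∘ Complex.equivRealProdCLM.symm := by
  funext p
  simp only [ofC, Function.comp_apply]
  try rfl
theorem setC_eq (S : Set (ℝ × ℝ)) : setC S = Complex.equivRealProdCLM ⁻¹' S := rfl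
theorem setR_eq (S : Set ℂ) : setR S = Complex.equivRealProdCLM.symm ⁻¹' S := by
  ext p
  rw [mem_preimage]
  have : Complex.equivRealProdCLM.symm p = ⟨p.1, p.2⟩ := by
    apply Complex.equivRealProdCLM.injective
    rw [ContinuousLinearEquiv.apply_symm_apply]; rfl
  rw [this]; rfl

theorem isOpen_setC {S : Set (ℝ × ℝ)} : IsOpen (setC S) ↔ IsOpen S := by
  refine ⟨fun h => ?_, fun h => h.preimage Complex.equivRealProdCLM.continuous⟩
  have h1 := h.preimage Complex.equivRealProdCLM.symm.continuous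
  rwa [← setR_eq, setR_setC] at h1

theorem isOpen_setR {S : Set ℂ} : IsOpen (setR S) ↔ IsOpen S := by
  rw [← isOpen_setC, setC_setR]

theorem measurableSet_setC {S : Set (ℝ × ℝ)} (h : MeasurableSet S) : MeasurableSet (setC S) :=
  Complex.equivRealProdCLM.continuous.measurable h

theorem continuous_toC {E : Type*} [TopologicalSpace E] {f : ℝ × ℝ → E} :
    Continuous (toC f) ↔ Continuous f := by
  refine ⟨fun h => ?_, fun h => h.comp Complex.equivRealProdCLM.continuous⟩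
  have h1 := h.comp Complex.equivRealProdCLM.symm.continuous
  rwa [← ofC_eq, ofC_toC] at h1

/-! ### derivatives -/

theorem diff_toC {f : ℝ × ℝ → ℝ} {z : ℂ} :
    DifferentiableAt ℝ (toC f) z ↔ DifferentiableAt ℝ f (z.re, z.im) := by
  constructor
  · intro h
    have h1 : DifferentiableAt ℝ (toC f ∘ Complex.equivRealProdCLM.symm)
        (Complex.equivRealProdCLM z) := by
      apply DifferentiableAt.comp
      · rw [ContinuousLinearEquiv.symm_apply_apply]; exact h
      · exact Complex.equivRealProdCLM.symm.differentiableAt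
    rwa [← ofC_eq, ofC_toC] at h1
  · intro h
    exact DifferentiableAt.comp z (f := Complex.equivRealProdCLM) (g := f) h
      Complex.equivRealProdCLM.differentiableAt

theorem fderiv_toC {f : ℝ × ℝ → ℝ} {z : ℂ} (h : DifferentiableAt ℝ f (z.re, z.im)) :
    fderiv ℝ (toC f) z = (fderiv ℝ f (z.re, z.im)).comp (Complex.equivRealProdCLM : ℂ →L[ℝ] ℝ × ℝ) :=
  (HasFDerivAt.comp z (f := Complex.equivRealProdCLM) (g := f) h.hasFDerivAt
    Complex.equivRealProdCLM.hasFDerivAt).fderiv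

theorem dx_eq {f : ℝ × ℝ → ℝ} {p : ℝ × ℝ} (h : DifferentiableAt ℝ f p) :
    dx f p = fderiv ℝ f p (1, 0) := by
  have h1 : HasDerivAt (fun s : ℝ => (s, p.2)) ((1 : ℝ), (0 : ℝ)) p.1 :=
    (hasDerivAt_id p.1).prodMk (hasDerivAt_const p.1 p.2)
  have h2 : HasDerivAt (fun s : ℝ => f (s, p.2)) (fderiv ℝ f p (1, 0)) p.1 :=
    HasFDerivAt.comp_hasDerivAt (f := fun s : ℝ => (s, p.2)) p.1 h.hasFDerivAt h1
  exact h2.deriv

theorem dy_eq {f : ℝ × ℝ → ℝ} {p : ℝ × ℝ} (h : DifferentiableAt ℝ f p) :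
    dy f p = fderiv ℝ f p (0, 1) := by
  have h1 : HasDerivAt (fun t : ℝ => (p.1, t)) ((0 : ℝ), (1 : ℝ)) p.2 :=
    (hasDerivAt_const p.2 p.1).prodMk (hasDerivAt_id p.2)
  have h2 : HasDerivAt (fun t : ℝ => f (p.1, t)) (fderiv ℝ f p (0, 1)) p.2 :=
    HasFDerivAt.comp_hasDerivAt (f := fun t : ℝ => (p.1, t)) p.2 h.hasFDerivAt h1
  exact h2.deriv

theorem gx_toC {f : ℝ × ℝ → ℝ} {z : ℂ} (h : DifferentiableAt ℝ f (z.re, z.im)) :
    gx (toC f) z = dx f (z.re, z.im) := by
  rw [dx_eq h]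
  unfold gx
  rw [fderiv_toC h]
  rfl

theorem gy_toC {f : ℝ × ℝ → ℝ} {z : ℂ} (h : DifferentiableAt ℝ f (z.re, z.im)) :
    gy (toC f) z = dy f (z.re, z.im) := by
  rw [dy_eq h]
  unfold gy
  rw [fderiv_toC h]
  rfl

theorem en_toC {f : ℝ × ℝ → ℝ} {z : ℂ} (h : DifferentiableAt ℝ f (z.re, z.im)) :
    en (toC f) z = Loc_271.en f (z.re, z.im) := by
  unfold en Loc_271.en
  rw [gx_toC h, gy_toC h]

/-! ### integrals -/

theorem mp : MeasurePreserving Complex.measurableEquivRealProd volume volume :=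
  Complex.volume_preserving_equiv_real_prod

theorem integral_toC {E : Type*} [NormedAddCommGroup E] [NormedSpace ℝ E]
    (S : Set (ℝ × ℝ)) (g : ℝ × ℝ → E) : ∫ z in setC S, toC g z = ∫ p in S, g p :=
  mp.setIntegral_preimage_emb Complex.measurableEquivRealProd.measurableEmbedding g S

theorem integrableOn_toC {E : Type*} [NormedAddCommGroup E]
    (S : Set (ℝ × ℝ)) (g : ℝ × ℝ → E) : IntegrableOn (toC g) (setC S) ↔ IntegrableOn g S :=
  mp.integrableOn_comp_preimage Complex.measurableEquivRealProd.measurableEmbedding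

theorem lintegral_toC (S : Set (ℝ × ℝ)) (g : ℝ × ℝ → ℝ≥0∞) :
    ∫⁻ z in setC S, toC g z = ∫⁻ p in S, g p :=
  mp.setLIntegral_comp_preimage_emb Complex.measurableEquivRealProd.measurableEmbedding g S

theorem volume_setC (S : Set (ℝ × ℝ)) : volume (setC S) = volume S :=
  mp.measure_preimage_emb Complex.measurableEquivRealProd.measurableEmbedding S

theorem ae_toC {S : Set (ℝ × ℝ)} {P : ℝ × ℝ → Prop} :
    (∀ᵐ z ∂(volume.restrict (setC S)), P (z.re, z.im)) ↔ ∀ᵐ p ∂(volume.restrict S), P p := by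
  have h1 := (mp.restrict_preimage_emb
    Complex.measurableEquivRealProd.measurableEmbedding S)
  rw [← h1.map_eq, Complex.measurableEquivRealProd.measurableEmbedding.ae_map_iff]
  rfl

/-! ### locally Lipschitz -/

theorem locLip_toC {S : Set (ℝ × ℝ)} {f : ℝ × ℝ → ℝ} :
    LocallyLipschitzOn (setC S) (toC f) ↔ LocallyLipschitzOn S f := by
  constructor
  · intro h p hp
    obtain ⟨K, t, ht, hK⟩ := h (show Complex.equivRealProdCLM.symm p ∈ setC S by
      rw [setC_eq, mem_preimage, ContinuousLinearEquiv.apply_symm_apply]; exact hp)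
    have hL := (Complex.equivRealProdCLM.symm : ℝ × ℝ →L[ℝ] ℂ).lipschitz
    refine ⟨K * ‖(Complex.equivRealProdCLM.symm : ℝ × ℝ →L[ℝ] ℂ)‖₊,
      Complex.equivRealProdCLM.symm ⁻¹' t, ?_, ?_⟩
    · have hc : ContinuousWithinAt Complex.equivRealProdCLM.symm S p :=
        Complex.equivRealProdCLM.symm.continuous.continuousWithinAt
      refine (hc.tendsto_nhdsWithin ?_) ht
      intro q hq
      rw [setC_eq, mem_preimage, ContinuousLinearEquiv.apply_symm_apply]; exact hq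
    · have h2 := hK.comp (hL.lipschitzOnWith (s := Complex.equivRealProdCLM.symm ⁻¹' t))
        (fun q hq => hq)
      have h3 : toC f ∘ (Complex.equivRealProdCLM.symm : ℝ × ℝ →L[ℝ] ℂ) = f := by
        have := ofC_eq (toC f)
        rw [ofC_toC] at this
        exact this.symm
      rwa [h3] at h2
  · intro h z hz
    obtain ⟨K, t, ht, hK⟩ := h hz
    have hL := (Complex.equivRealProdCLM : ℂ →L[ℝ] ℝ × ℝ).lipschitz
    refine ⟨K * ‖(Complex.equivRealProdCLM : ℂ →L[ℝ] ℝ × ℝ)‖₊,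
      Complex.equivRealProdCLM ⁻¹' t, ?_, ?_⟩
    · have hc : ContinuousWithinAt Complex.equivRealProdCLM (setC S) z :=
        Complex.equivRealProdCLM.continuous.continuousWithinAt
      exact (hc.tendsto_nhdsWithin fun q hq => hq) ht
    · exact hK.comp (hL.lipschitzOnWith (s := Complex.equivRealProdCLM ⁻¹' t)) (fun q hq => hq)

/-- energy of a locally Lipschitz function in the two planes. -/
theorem lintegral_en_toC {S : Set (ℝ × ℝ)} (hS : IsOpen S) {f : ℝ × ℝ → ℝ}
    (hf : LocallyLipschitzOn S f) :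
    ∫⁻ z in setC S, ENNReal.ofReal (en (toC f) z)
      = ∫⁻ p in S, ENNReal.ofReal (Loc_271.en f p) := by
  rw [← lintegral_toC]
  apply lintegral_congr_ae
  have h1 := ae_diff_of_locLip (isOpen_setC.2 hS) (locLip_toC.2 hf)
  filter_upwards [h1] with z hz
  rw [en_toC (diff_toC.1 hz)]; rfl

theorem integral_gx_toC {S : Set (ℝ × ℝ)} (hS : IsOpen S) {f : ℝ × ℝ → ℝ}
    (hf : LocallyLipschitzOn S f) (g : ℝ × ℝ → ℝ) :
    ∫ z in setC S, toC g z * gx (toC f) z = ∫ p in S, g p * dx f p := by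
  rw [← integral_toC]
  apply integral_congr_ae
  have h1 := ae_diff_of_locLip (isOpen_setC.2 hS) (locLip_toC.2 hf)
  filter_upwards [h1] with z hz
  rw [gx_toC (diff_toC.1 hz)]; rfl

theorem integral_gy_toC {S : Set (ℝ × ℝ)} (hS : IsOpen S) {f : ℝ × ℝ → ℝ}
    (hf : LocallyLipschitzOn S f) (g : ℝ × ℝ → ℝ) :
    ∫ z in setC S, toC g z * gy (toC f) z = ∫ p in S, g p * dy f p := by
  rw [← integral_toC]
  apply integral_congr_ae
  have h1 := ae_diff_of_locLip (isOpen_setC.2 hS) (locLip_toC.2 hf)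
  filter_upwards [h1] with z hz
  rw [gy_toC (diff_toC.1 hz)]; rfl

/-- area form in the two planes. -/
theorem integral_wdg_toC {S : Set (ℝ × ℝ)} (hS : IsOpen S) {f k : ℝ × ℝ → ℝ}
    (hf : LocallyLipschitzOn S f) (hk : LocallyLipschitzOn S k) :
    ∫ z in setC S, wdg (toC f) (toC k) z = ∫ p in S, (dx f p * dy k p - dy f p * dx k p) := by
  rw [← integral_toC]
  apply integral_congr_ae
  have h1 := ae_diff_of_locLip (isOpen_setC.2 hS) (locLip_toC.2 hf)
  have h2 := ae_diff_of_locLip (isOpen_setC.2 hS) (locLip_toC.2 hk)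
  filter_upwards [h1, h2] with z hz hz'
  unfold wdg
  rw [gy_toC (diff_toC.1 hz), gx_toC (diff_toC.1 hz), gy_toC (diff_toC.1 hz'),
    gx_toC (diff_toC.1 hz')]
  rfl

end

end Crest.Agent.R105.Tra_937
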