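import Crest.Agent.R105.Tc1_808
import Crest.Agent.R105.Tra3_937
import Crest.Agent.R105.Tra4_937
import Crest.Agent.R105.Stp1_722

/-!
# Row 105, S0138: adapter z-plane <-> picture plane with solids, part 1 (helper937)

`h : EndMap U V F` (897).  Components of `Uᶜ` correspond to components of `Vᶜ` (`corE`), the end
filters `eK`, the oscillations `osc` (808) and `OscLe` (722) are transported.
-/

set_option autoImplicit false

open MeasureTheory Set Filter Topology Metric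
open scoped NNReal ENNReal

namespace Crest.Agent.R105.Ta_937

open Ends_897 Tc_808

noncomputable section

variable {U V : Set ℂ} {F : ℂ → ℂ}

theorem exists_cor (h : EndMap U V F) (K : Cmp Uᶜ) :
    ∃ L : Cmp Vᶜ, map F (eK Uᶜ K.1) = eK Vᶜ L.1 := by
  obtain ⟨K, z, hz, rfl⟩ := K
  obtain ⟨ζ, hζ, he⟩ := h.exists_end (show z ∉ U from hz)
  refine ⟨⟨_, ζ, hζ, rfl⟩, ?_⟩
  simp only
  rw [eK_eq_eF, eK_eq_eF, he]

/-- the component of `Vᶜ` which corresponds to `K`. -/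
def cor (h : EndMap U V F) (K : Cmp Uᶜ) : Cmp Vᶜ := (exists_cor h K).choose

theorem map_eK (h : EndMap U V F) (K : Cmp Uᶜ) : map F (eK Uᶜ K.1) = eK Vᶜ (cor h K).1 :=
  (exists_cor h K).choose_spec

theorem eK_le_imp (hU : Crest.AnalysisR.IsExteriorDomain U) {K K' : Cmp Uᶜ}
    (h : eK Uᶜ K.1 ≤ eK Uᶜ K'.1) : K = K' := by
  obtain ⟨K, z, hz, rfl⟩ := K
  obtain ⟨K', z', hz', rfl⟩ := K'
  simp only at h
  rw [eK_eq_eF, eK_eq_eF] at h
  exact Subtype.ext (cc_eq_of_eF_le hU hz h)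

theorem eK_mem (K : Set ℂ) : ∀ᶠ w in eK Uᶜ K, w ∈ U := by
  have : U = Uᶜᶜ := (compl_compl U).symm
  unfold eK
  filter_upwards [mem_inf_of_right (mem_principal_self Uᶜᶜ)] with w hw
  rwa [compl_compl] at hw

theorem cor_symm (h : EndMap U V F) (K : Cmp Uᶜ) : cor h.symm (cor h K) = K := by
  have h1 := map_eK h.symm (cor h K)
  rw [← map_eK h K, map_map] at h1
  have h2 : (h.inv ∘ F) =ᶠ[eK Uᶜ K.1] id := by
    filter_upwards [eK_mem (U := U) K.1] with w hw using h.inv_left hw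
  rw [map_congr h2, map_id] at h1
  exact (eK_le_imp h.hU h1.le).symm

theorem cor_unique (h : EndMap U V F) {K : Cmp Uᶜ} {L : Cmp Vᶜ}
    (hL : map F (eK Uᶜ K.1) = eK Vᶜ L.1) : cor h K = L := by
  rw [map_eK h K] at hL
  exact eK_le_imp h.hV hL.le

theorem cor_symm' (h : EndMap U V F) (L : Cmp Vᶜ) : cor h (cor h.symm L) = L := by
  apply cor_unique
  rw [← map_eK h.symm L, map_map]
  have h2 : (F ∘ h.inv) =ᶠ[eK Vᶜ L.1] id := by
    filter_upwards [eK_mem (U := V) L.1] with w hw using h.inv_right hw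
  rw [map_congr h2, map_id]

/-- **(T1)** bijection of the components. -/
def corE (h : EndMap U V F) : Cmp Uᶜ ≃ Cmp Vᶜ where
  toFun := cor h
  invFun := cor h.symm
  left_inv := cor_symm h
  right_inv := cor_symm' h

@[simp] theorem corE_apply (h : EndMap U V F) (K : Cmp Uᶜ) : corE h K = cor h K := rfl

@[simp] theorem corE_symm_apply (h : EndMap U V F) (L : Cmp Vᶜ) :
    (corE h).symm L = cor h.symm L := rfl

theorem map_corE (h : EndMap U V F) (K : Cmp Uᶜ) : map F (eK Uᶜ K.1) = eK Vᶜ (corE h K).1 :=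
  map_eK h K

theorem tendsto_corE (h : EndMap U V F) (K : Cmp Uᶜ) :
    Tendsto F (eK Uᶜ K.1) (eK Vᶜ (corE h K).1) := (map_corE h K).le

theorem tendsto_inv (h : EndMap U V F) (K : Cmp Uᶜ) :
    Tendsto h.inv (eK Vᶜ (corE h K).1) (eK Uᶜ K.1) := by
  rw [← map_corE h K, tendsto_map'_iff]
  have h2 : id =ᶠ[eK Uᶜ K.1] (h.inv ∘ F) := by
    filter_upwards [eK_mem (U := U) K.1] with w hw using (h.inv_left hw).symm
  exact Tendsto.congr' h2 tendsto_id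

theorem mem_eK' {K s : Set ℂ} : s ∈ eK Uᶜ K ↔ ∃ O, IsOpen O ∧ K ⊆ O ∧ O ∩ U ⊆ s := by
  rw [mem_eK]
  constructor
  · rintro ⟨O, h1, h2, h3⟩
    exact ⟨O, h1, h2, fun z hz => h3 z hz.1 (not_not.2 hz.2)⟩
  · rintro ⟨O, h1, h2, h3⟩
    exact ⟨O, h1, h2, fun z hz hz' => h3 ⟨hz, not_not.1 hz'⟩⟩

/-- neighbourhoods of `L` pull back. -/
theorem exists_nhd_pull (h : EndMap U V F) (K : Cmp Uᶜ) {O : Set ℂ} (hO : IsOpen O)
    (hL : (corE h K).1 ⊆ O) :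
    ∃ O', IsOpen O' ∧ K.1 ⊆ O' ∧ ∀ z ∈ O', z ∈ U → F z ∈ O := by
  have h1 : O ∩ V ∈ eK Vᶜ (corE h K).1 := mem_eK'.2 ⟨O, hO, hL, subset_rfl⟩
  obtain ⟨O', h2, h3, h4⟩ := mem_eK'.1 (tendsto_corE h K h1)
  exact ⟨O', h2, h3, fun z hz hzU => (h4 ⟨hz, hzU⟩).1⟩

/-- neighbourhoods of `K` push forward. -/
theorem exists_nhd_push (h : EndMap U V F) (K : Cmp Uᶜ) {O' : Set ℂ} (hO : IsOpen O')
    (hK : K.1 ⊆ O') :
    ∃ O, IsOpen O ∧ (corE h K).1 ⊆ O ∧ ∀ z ∈ U, F z ∈ O → z ∈ O' := by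
  have h1 : O' ∩ U ∈ eK Uᶜ K.1 := mem_eK'.2 ⟨O', hO, hK, subset_rfl⟩
  obtain ⟨O, h2, h3, h4⟩ := mem_eK'.1 (tendsto_inv h K h1)
  refine ⟨O, h2, h3, fun z hz hzO => ?_⟩
  have h5 := (h4 ⟨hzO, h.img ▸ mem_image_of_mem F hz⟩ : F z ∈ h.inv ⁻¹' (O' ∩ U))
  rw [mem_preimage, h.inv_left hz] at h5
  exact h5.1

/-! ### oscillation -/

theorem osc_comp (h : EndMap U V F) (φ : ℂ → ℝ) (K : Cmp Uᶜ) :
    osc Uᶜ (φ ∘ F) K.1 = osc Vᶜ φ (corE h K).1 := by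
  unfold osc
  rw [oscF_comp, map_corE]

theorem osc_corE_symm (h : EndMap U V F) (φ : ℂ → ℝ) (L : Cmp Vᶜ) :
    osc Uᶜ (φ ∘ F) ((corE h).symm L).1 = osc Vᶜ φ L.1 := by
  rw [osc_comp h, Equiv.apply_symm_apply]

/-- `OscLe` by the end filter. -/
theorem oscLe_iff {P : Set ℂ} {f : ℂ → ℝ} {c : ℝ} : Stp_722.OscLe U P f c ↔
    ∀ ε > 0, ∃ s ∈ eK Uᶜ P, ∀ q ∈ s, ∀ q' ∈ s, |f q - f q'| ≤ c + ε := by
  constructor
  · intro h ε hε
    obtain ⟨O, hO, hP, H⟩ := h ε hε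
    exact ⟨O ∩ U, mem_eK'.2 ⟨O, hO, hP, subset_rfl⟩, H⟩
  · intro h ε hε
    obtain ⟨s, hs, H⟩ := h ε hε
    obtain ⟨O, hO, hP, h1⟩ := mem_eK'.1 hs
    exact ⟨O, hO, hP, fun q hq q' hq' => H q (h1 hq) q' (h1 hq')⟩

/-- **(T2)** -/
theorem oscLe_comp (h : EndMap U V F) {φ : ℂ → ℝ} {c : ℝ} (K : Cmp Uᶜ) :
    Stp_722.OscLe U K.1 (φ ∘ F) c ↔ Stp_722.OscLe V (corE h K).1 φ c := by
  rw [oscLe_iff, oscLe_iff]
  constructor
  · intro H ε hε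
    obtain ⟨s, hs, h1⟩ := H ε hε
    refine ⟨F '' s, ?_, ?_⟩
    · rw [← map_corE]; exact image_mem_map hs
    · rintro _ ⟨q, hq, rfl⟩ _ ⟨q', hq', rfl⟩
      exact h1 q hq q' hq'
  · intro H ε hε
    obtain ⟨s, hs, h1⟩ := H ε hε
    rw [← map_corE] at hs
    exact ⟨F ⁻¹' s, hs, fun q hq q' hq' => h1 _ hq _ hq'⟩

/-- `osc ≤ c` and `OscLe` agree for bounded functions. -/
theorem osc_le_iff {K : Set ℂ} {u : ℂ → ℝ} (hb : ∃ M, ∀ z, |u z| ≤ M) {c : ℝ} (hc : 0 ≤ c) :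
    osc Uᶜ u K ≤ c ↔ Stp_722.OscLe U K u c := by
  constructor
  · intro h ε hε
    obtain ⟨O, hO, hK, H⟩ := exists_of_osc_lt hb (lt_of_le_of_lt h (lt_add_of_pos_right c hε))
    exact ⟨O, hO, hK, fun q hq q' hq' =>
      (H q hq.1 (not_not.2 hq.2) q' hq'.1 (not_not.2 hq'.2)).le⟩
  · intro h
    refine osc_le_of_forall hc fun ε hε => ?_
    obtain ⟨O, hO, hK, H⟩ := h ε hε
    exact ⟨O, hO, hK, fun q hq hqU q' hq' hqU' => H q ⟨hq, not_not.1 hqU⟩ q' ⟨hq', not_not.1 hqU'⟩⟩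

end

end Crest.Agent.R105.Ta_937
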