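import Crest.Agent.R105.Adg2_600
import Crest.Agent.R105.Ta1_937

/-!
# Row 105, S0138, E13 (0) (499 #11465 (3)): cuts from the picture plane, part 3 (helper600)

* `hull Y O` : saturated open hull of a set of points of `U`;
* `Uc Y f O` : `O` is open in `U`, relatively closed in `{0 < f}`, and near each component with
  `0 < lo f` eventually in or eventually out;  `Uc.cut : Cut Y f (hull Y O) (hull Y Oᶜ)`;
* `uc_of_pic` : `O` = trace of an open set of the picture plane of any `EndMap`;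
* `Adm.congr`, `adm_uc`, `adm_uc'`: the test functions with `O.indicator`.
-/

set_option autoImplicit false

open MeasureTheory Set Filter Topology Metric
open scoped NNReal ENNReal ContDiff

namespace Crest.Agent.R105.Adg_600

open Bd_775 Tc_808 Ni_459 Crest.AnalysisR Ends_897
open IfB_641 (X0)
open SkA_8 (Pk)
open Ta_937 (corE)

noncomputable section

variable {Y : Set ℂ} {x0 φ : ℂ → ℝ} {a : ℕ → ℂ → ℝ} {F : ℂ → ℂ} {v w f g χ : ℂ → ℝ} {O D : Set ℂ}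

/-- saturated open hull of a set of points of `U` -/
def hull (Y O : Set ℂ) : Set ℂ := {z | ∃ N, Nb Y z N ∧ ∀ w ∈ N, w ∉ Y → w ∈ O}

theorem isOpen_hull (hY : IsCompact Y) (O : Set ℂ) : IsOpen (hull Y O) := by
  rw [isOpen_iff_forall_mem_open]
  rintro z ⟨N, hN, h⟩
  obtain ⟨P, hPN, hP, hP'⟩ := hN.shrink hY
  exact ⟨P, fun w hw => ⟨N, hP' w hw, h⟩, hP.op, hP.mem⟩

theorem disjoint_hull (hY : IsExteriorDomain Yᶜ) (O : Set ℂ) : Disjoint (hull Y O) (hull Y Oᶜ) := by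
  rw [disjoint_left]
  rintro z ⟨N, hN, h⟩ ⟨N', hN', h'⟩
  obtain ⟨w, hw, hwY⟩ := (hN.inter hN').nonempty hY
  exact h' w hw.2 hwY (h w hw.1 hwY)

/-- `O` cuts `f`, points of `U` only -/
structure Uc (Y : Set ℂ) (f : ℂ → ℝ) (O : Set ℂ) : Prop where
  op : ∀ z ∈ O, z ∉ Y → O ∈ 𝓝 z
  cl : ∀ z ∉ Y, 0 < f z → z ∉ O → Oᶜ ∈ 𝓝 z
  cmp : ∀ z ∈ Y, 0 < lo Y f z → z ∈ hull Y O ∨ z ∈ hull Y Oᶜ

theorem mem_hull_iff {z : ℂ} (hz : z ∉ Y) (ho : ∀ z ∈ O, z ∉ Y → O ∈ 𝓝 z) : z ∈ hull Y O ↔ z ∈ O := by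
  constructor
  · rintro ⟨N, hN, h⟩
    exact h z hN.mem hz
  · intro h
    obtain ⟨N, hN, hNo, hzN⟩ := _root_.mem_nhds_iff.1 (ho z h hz)
    exact ⟨N, nb_of_notMem hz hNo hzN, fun w hw _ => hN hw⟩

theorem Uc.cut (hY : IsExteriorDomain Yᶜ) (h : Uc Y f O) (hf : LocallyLipschitzOn Yᶜ f) (hb : LB f) :
    Cut Y f (hull Y O) (hull Y Oᶜ) where
  op := isOpen_hull (cpt_of hY) O
  od := isOpen_hull (cpt_of hY) Oᶜ
  dj := disjoint_hull hY O
  cov := by
    intro z hz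
    by_cases hzY : z ∈ Y
    · exact h.cmp z hzY hz
    · rw [Nip_31.lo_eq hY hf hb hzY] at hz
      by_cases hzO : z ∈ O
      · exact Or.inl ((mem_hull_iff hzY h.op).2 hzO)
      · right
        obtain ⟨N, hN, hNo, hzN⟩ := _root_.mem_nhds_iff.1 (h.cl z hzY hz hzO)
        exact ⟨N, nb_of_notMem hzY hNo hzN, fun w hw _ => hN hw⟩

theorem Uc.mono (hY : IsExteriorDomain Yᶜ) (h : Uc Y g O) (hf : LB f) (hg : LB g)
    (hfg : ∀ z ∉ Y, f z ≤ g z) : Uc Y f O :=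
  ⟨h.op, fun z hz hz0 hzO => h.cl z hz (hz0.trans_le (hfg z hz)) hzO,
    fun z hz hz0 => h.cmp z hz (hz0.trans_le (lo_mono hY hf hg hfg z))⟩


/-! ### functions which agree on `U` -/

theorem up_congr' (h : ∀ z ∉ Y, v z = w z) (z : ℂ) : up Y v z = up Y w z := by
  unfold up
  congr 1
  ext c
  constructor <;> rintro ⟨O, hO, h1⟩ <;> refine ⟨O, hO, fun u hu hu' => ?_⟩
  · rw [← h u hu']; exact h1 u hu hu'
  · rw [h u hu']; exact h1 u hu hu'

theorem lo_congr' (h : ∀ z ∉ Y, v z = w z) (z : ℂ) : lo Y v z = lo Y w z := by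
  unfold lo
  rw [up_congr' (v := fun w => - v w) (w := fun u => - w u) fun z hz => by rw [h z hz]]

theorem tt_congr (hY : IsClosed Y) (h : ∀ z ∉ Y, v z = w z) (hw : ∃ M, ∀ z, |w z| ≤ M)
    (hv : TT Y v) : TT Y w where
  q := by
    refine ⟨hw, ?_, ?_⟩
    · intro z hz
      obtain ⟨L, t, ht, hL⟩ := hv.q.loc hz
      refine ⟨L, t ∩ Yᶜ, inter_mem ht self_mem_nhdsWithin, ?_⟩
      intro p hp q hq
      rw [← h p hp.2, ← h q hq.2]
      exact hL hp.1 hq.1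
    · refine hv.q.fin.congr_fun (fun z hz => ?_) hY.isOpen_compl.measurableSet
      have h1 : v =ᶠ[𝓝 z] w := by
        filter_upwards [hY.isOpen_compl.mem_nhds hz] with u hu using h u hu
      unfold en gx gy
      rw [h1.fderiv_eq]
  sum := by
    refine hv.sum.congr fun K => ?_
    rw [osc_congr isOpen_univ (subset_univ K.1) fun z _ hz => h z hz]

theorem ni_congr {b : ℂ → ℝ} (h : ∀ z ∉ Y, v z = w z) (hv : NI Y b v) : NI Y b w := by
  have h1 : NP Y b w = NP Y b v := by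
    unfold NP
    simp only [up_congr' h, lo_congr' h]
  unfold NI
  rw [h1]
  exact hv

theorem Adm.congr (hY : IsClosed Y) (h : ∀ z ∉ Y, v z = w z) (hw : ∃ M, ∀ z, |w z| ≤ M)
    (hv : Adm Y a v) : Adm Y a w :=
  ⟨tt_congr hY h hw hv.tt, fun j => ni_congr h (hv.ni j)⟩

/-- cut of an admissible function -/
theorem Adm.uc (h : Pk Y x0 a φ F) (hv : Adm Y a v) (h0 : ∀ z, 0 ≤ v z) (hc : Uc Y v O) :
    Adm Y a (O.indicator v) := by
  have h1 := hv.cut h h0 (hc.cut h.hY hv.tt.q.loc (LB.of_bdd hv.tt.q.bdd))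
  refine h1.congr (cpt_of h.hY).isClosed (fun z hz => ?_) (cut_bdd h0 hv.tt.q.bdd)
  by_cases hzO : z ∈ O
  · rw [indicator_of_mem hzO, indicator_of_mem ((mem_hull_iff hz hc.op).2 hzO)]
  · rw [indicator_of_notMem hzO, indicator_of_notMem fun hc' => hzO ((mem_hull_iff hz hc.op).1 hc')]

theorem osc_uc (hY : IsExteriorDomain Yᶜ) (hc : Uc Y f O) (hl : LocallyLipschitzOn Yᶜ f)
    (hb : ∃ M, ∀ z, |f z| ≤ M) (h0 : ∀ z, 0 ≤ f z) (K : Cmp Y) :
    osc Y (O.indicator f) K.1 ≤ osc Y f K.1 := by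
  have h1 := osc_cut hY (hc.cut hY hl (LB.of_bdd hb)) hb h0 K
  rwa [osc_congr (v := O.indicator f) isOpen_univ (subset_univ K.1) fun z _ hz => by
    by_cases hzO : z ∈ O
    · rw [indicator_of_mem hzO, indicator_of_mem ((mem_hull_iff hz hc.op).2 hzO)]
    · rw [indicator_of_notMem hzO,
        indicator_of_notMem fun hc' => hzO ((mem_hull_iff hz hc.op).1 hc')]] at h1

/-- **the cut test function** `χ 1_O H(u) T(x)` -/
theorem adm_uc (h : Pk Y x0 a φ F) (hv : Adm Y a v) (hw : Adm Y a w) (hχ : LC Y χ)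
    (hχc : HasCompactSupport χ) (h01 : ∀ z, χ z ∈ Icc (0:ℝ) 1) {H T : ℝ → ℝ} {L L' : ℝ≥0}
    (hH : LipschitzWith L H) (hT : LipschitzWith L' T) (hH1 : ∀ s, H s ∈ Icc (0:ℝ) 1)
    (hT1 : ∀ s, T s ∈ Icc (0:ℝ) 1)
    (hc : Uc Y (fun z => H (x0 z + v z) * T (x0 z + w z)) O) :
    Adm Y a (fun z => χ z * O.indicator (fun z => H (x0 z + v z) * T (x0 z + w z)) z) := by
  have h1 := adm_chi2 h hv hw hχ hχc hH hT
  have h0 : ∀ z, 0 ≤ H (x0 z + v z) * T (x0 z + w z) := fun z => mul_nonneg (hH1 _).1 (hT1 _).1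
  have hb : ∀ z, H (x0 z + v z) * T (x0 z + w z) ≤ 1 := fun z =>
    mul_le_one₀ (hH1 _).2 (hT1 _).1 (hT1 _).2
  have hg : LB (fun z => H (x0 z + v z) * T (x0 z + w z)) :=
    LB.of_bdd ⟨1, fun z => by rw [abs_of_nonneg (h0 z)]; exact hb z⟩
  have hc' : Uc Y (fun z => χ z * (H (x0 z + v z) * T (x0 z + w z))) O :=
    hc.mono h.hY (LB.of_bdd h1.tt.q.bdd) hg fun z _ => mul_le_of_le_one_left (h0 z) (h01 z).2
  have h2 := h1.uc h (fun z => mul_nonneg (h01 z).1 (h0 z)) hc'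
  have e : (fun z => χ z * O.indicator (fun z => H (x0 z + v z) * T (x0 z + w z)) z) =
      O.indicator (fun z => χ z * (H (x0 z + v z) * T (x0 z + w z))) := by
    funext z
    by_cases hz : z ∈ O
    · rw [indicator_of_mem hz, indicator_of_mem hz]
    · rw [indicator_of_notMem hz, indicator_of_notMem hz, mul_zero]
  rw [e]; exact h2

/-- **the complementary test function** `χ (T(x) - 1_O H(u) T(x))` -/
theorem adm_uc' (h : Pk Y x0 a φ F) (hv : Adm Y a v) (hw : Adm Y a w) (hχ : LC Y χ)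
    (hχc : HasCompactSupport χ) (h01 : ∀ z, χ z ∈ Icc (0:ℝ) 1) {H T : ℝ → ℝ} {L L' : ℝ≥0}
    (hH : LipschitzWith L H) (hT : LipschitzWith L' T) (hH1 : ∀ s, H s ∈ Icc (0:ℝ) 1)
    (hT1 : ∀ s, T s ∈ Icc (0:ℝ) 1)
    (hc : Uc Y (fun z => H (x0 z + v z) * T (x0 z + w z)) O) :
    Adm Y a (fun z => χ z * (T (x0 z + w z) -
      O.indicator (fun z => H (x0 z + v z) * T (x0 z + w z)) z)) := by
  have h1 := (adm_chi h hw hχ hχc hT).lin h (adm_uc h hv hw hχ hχc h01 hH hT hH1 hT1 hc) 1 (-1)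
  have e : (fun z => χ z * (T (x0 z + w z) -
      O.indicator (fun z => H (x0 z + v z) * T (x0 z + w z)) z)) = fun z =>
      1 * (χ z * T (x0 z + w z)) +
        (-1) * (χ z * O.indicator (fun z => H (x0 z + v z) * T (x0 z + w z)) z) := by
    funext z; ring
  rw [e]; exact h1

/-! ### cuts from a picture plane -/

section Pic

variable {U V : Set ℂ} {P : ℂ → ℂ} {gP : ℂ → ℝ} {OP DP : Set ℂ}

theorem lo_pic (h : EndMap U V P) (hg : ∀ z ∈ U, g z = gP (P z)) (lg : LB g) (lgP : LB gP)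
    (K : Cmp Uᶜ) {z : ℂ} (hz : z ∈ K.1) {c : ℝ} (hc : c < lo Uᶜ g z) {ζ : ℂ}
    (hζ : ζ ∈ (corE h K).1) : c < lo Vᶜ gP ζ := by
  have hU : IsExteriorDomain (Uᶜ)ᶜ := by rw [compl_compl]; exact h.hU
  have hV : IsExteriorDomain (Vᶜ)ᶜ := by rw [compl_compl]; exact h.hV
  obtain ⟨c', hc1, hc2⟩ := exists_between hc
  obtain ⟨N, hN, h1⟩ := exists_gt_of_lt_lo hU lg hc2
  have hKN : K.1 ⊆ N := by
    have := congrArg Subtype.val (K.eq_of_mem hz)
    rw [this]; exact hN.sub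
  obtain ⟨M, hM, hLM, h2⟩ := Ta_937.exists_nhd_push h K hN.op hKN
  have hζV : ζ ∈ Vᶜ := (corE h K).subset hζ
  have hnb : Nb Vᶜ ζ M := by
    refine nb_of_mem hζV hM ?_
    have := congrArg Subtype.val ((corE h K).eq_of_mem hζ)
    rw [this] at hLM
    exact hLM
  refine hc1.trans_le (le_lo hV lgP hnb fun w hw hwV => ?_)
  have hwV' : w ∈ V := not_not.1 hwV
  rw [← h.img] at hwV'
  obtain ⟨u, hu, rfl⟩ := hwV'
  rw [← hg u hu]
  exact (h1 u (h2 u hu hw) (fun h => h hu)).le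

/-- **cuts from a picture plane** -/
theorem uc_of_pic (h : EndMap U V P) (hg : ∀ z ∈ U, g z = gP (P z)) (lg : LB g) (lgP : LB gP)
    (lc : LocallyLipschitzOn V gP) (hO : IsOpen OP) (hD : IsOpen DP) (hd : Disjoint OP DP)
    (hcov : ∀ ζ, 0 < lo Vᶜ gP ζ → ζ ∈ OP ∨ ζ ∈ DP) : Uc Uᶜ g {z | P z ∈ OP} := by
  have hV : IsExteriorDomain (Vᶜ)ᶜ := by rw [compl_compl]; exact h.hV
  have hcont : ∀ z ∈ U, ContinuousAt P z := fun z hz => h.cont.continuousAt (h.hU.1.mem_nhds hz)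
  have hPV : ∀ z ∈ U, P z ∈ V := fun z hz => h.img ▸ mem_image_of_mem P hz
  refine ⟨fun z hz hzU => ?_, fun z hzU hz0 hzO => ?_, fun z hzU hz0 => ?_⟩
  · exact (hcont z (not_not.1 hzU)).preimage_mem_nhds (hO.mem_nhds hz)
  · have hz' := not_not.1 hzU
    have h1 : 0 < lo Vᶜ gP (P z) := by
      rw [Nip_31.lo_eq hV (by rw [compl_compl]; exact lc) lgP (fun h' => h' (hPV z hz')), ← hg z hz']
      exact hz0
    have h2 : P z ∈ DP := (hcov _ h1).resolve_left hzO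
    refine mem_of_superset ((hcont z hz').preimage_mem_nhds (hD.mem_nhds h2)) fun w hw hw' => ?_
    exact disjoint_left.1 hd hw' hw
  · set K : Cmp Uᶜ := Cmp.of hzU
    have hzK : z ∈ K.1 := mem_connectedComponentIn hzU
    have h1 : (corE h K).1 ⊆ OP ∪ DP := fun ζ hζ => hcov ζ (lo_pic h hg lg lgP K hzK hz0 hζ)
    obtain ⟨ζ, hζ⟩ := (corE h K).nonempty
    rcases h1 hζ with h2 | h2
    · left
      have h3 := (corE h K).preconn.subset_left_of_subset_union hO hD hd h1 ⟨ζ, hζ, h2⟩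
      obtain ⟨N, hN, hKN, h4⟩ := Ta_937.exists_nhd_pull h K hO h3
      exact ⟨N, nb_of_mem hzU hN hKN, fun w hw hwU => h4 w hw (not_not.1 hwU)⟩
    · right
      have h3 := (corE h K).preconn.subset_right_of_subset_union hO hD hd h1 ⟨ζ, hζ, h2⟩
      obtain ⟨N, hN, hKN, h4⟩ := Ta_937.exists_nhd_pull h K hD h3
      exact ⟨N, nb_of_mem hzU hN hKN, fun w hw hwU hw' =>
        disjoint_left.1 hd hw' (h4 w hw (not_not.1 hwU))⟩

end Pic

end

end Crest.Agent.R105.Adg_600
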