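import Crest.Agent.R105.Nip8_31

/-!
# Row 105, S0138 (T-frame), module NI of helper459, part (P2), file 9 (helper31)

732's `null_of_var`, `ACV.null`, `ni_of_acv` with "no islands" (659) instead of "preconnected", so
that nothing is needed at infinity (no compact support, no normalisation far away):
* `ni_iff_acvG`, `linG` : `LINP` without `HasCompactSupport a`.
-/

set_option autoImplicit false

open MeasureTheory Set Filter Topology Metric
open scoped NNReal ENNReal

namespace Crest.Agent.R105.Nip_31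

open Thin_12 Sl_732 Bd_775 Tc_808 Ni_459 Crest.AnalysisR IfB_641

section abs

variable {E L W W' : Set ℂ} {b b' c : ℂ → ℝ} {η η' : ℝ}

/-- **SLICES, variation form**, no islands. -/
theorem null_of_varN (hE : IsCompact E) (hL : IsClosed L) (hLn : Uni_659.NoIsland L)
    (sat : Sl_732.Sat E L) (μ : Measure ℂ) [SigmaFinite μ]
    (pos : ∀ C ⊆ L \ E, IsCompact C → IsPreconnected C → C.Nontrivial → μ C ≠ 0)
    {G : Set ℂ} (hGL : G ⊆ L ∩ E) (hGs : Sl_732.Sat E G)
    (hb : ∀ z ∈ G, ∀ δ > 0, ∃ O, IsOpen O ∧ connectedComponentIn E z ⊆ O ∧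
      ∀ w ∈ O \ E, |b w - b z| < δ)
    (hvar : ∀ η > 0, ∃ W, IsOpen W ∧ G ⊆ W ∧ VarLe E L W b η) :
    volume (b '' G) = 0 := by
  classical
  have hGE : G ⊆ E := fun z hz => (hGL hz).2
  refine le_antisymm (ENNReal.le_of_forall_pos_le_add fun η hη _ => ?_) zero_le
  rw [zero_add]
  obtain ⟨W, hWo, hGW, hWv⟩ := hvar η (by exact_mod_cast hη)
  have hN : ∀ z ∈ G, ∃ N, IsOpen N ∧ connectedComponentIn E z ⊆ N ∧ closure N ⊆ W ∧
      IsCompact (closure N) ∧ Disjoint (frontier N) E := fun z hz =>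
    thin_nhd hE (hGE hz) hWo ((hGs z hz (hGE hz)).trans hGW)
  choose! N hNo hzN hNW hNc hNf using hN
  have hzN' : ∀ z ∈ G, z ∈ N z := fun z hz => hzN z hz (mem_connectedComponentIn (hGE hz))
  obtain ⟨T, hTG, hTc, hTcov⟩ := TopologicalSpace.countable_cover_nhdsWithin
    (s := G) (f := N) (fun z hz => mem_nhdsWithin_of_mem_nhds ((hNo z hz).mem_nhds (hzN' z hz)))
  rcases T.eq_empty_or_nonempty with hTe | hTne
  · have hGe : G = ∅ := by
      rw [hTe] at hTcov
      simpa using hTcov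
    rw [hGe]; simp
  obtain ⟨e, he⟩ := hTc.exists_eq_range hTne
  have heG : ∀ n, e n ∈ G := fun n => hTG (by rw [he]; exact mem_range_self n)
  set O : ℕ → Set ℂ := fun k => ⋃ n ∈ Finset.range k, N (e n) with hO
  set V : ℕ → Set ℂ := fun k => ⋃ n ∈ Finset.range k, closure (N (e n)) with hV
  have hOV : ∀ k, O k ⊆ interior (V k) := by
    intro k
    refine interior_maximal ?_ (isOpen_biUnion fun n _ => hNo _ (heG n))
    exact iUnion₂_mono fun n _ => subset_closure
  have hVc : ∀ k, IsCompact (V k) := fun k =>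
    (Finset.range k).isCompact_biUnion fun n _ => hNc _ (heG n)
  have hVW : ∀ k, V k ⊆ W := fun k => iUnion₂_subset fun n _ => hNW _ (heG n)
  have hVf : ∀ k, Disjoint (frontier (V k)) E := by
    intro k
    rw [disjoint_left]
    intro z hz hzE
    rw [(hVc k).isClosed.frontier_eq] at hz
    obtain ⟨n, hn, hzn⟩ := mem_iUnion₂.1 hz.1
    have h1 : z ∉ N (e n) := fun h => hz.2 (hOV k (mem_iUnion₂.2 ⟨n, hn, h⟩))
    have h2 : z ∈ frontier (N (e n)) := by
      rw [(hNo _ (heG n)).frontier_eq]; exact ⟨hzn, h1⟩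
    exact disjoint_left.1 (hNf _ (heG n)) h2 hzE
  have hmono : Monotone O := fun k l hkl =>
    biUnion_subset_biUnion_left (by
      intro n hn
      simp only [Finset.coe_range, Set.mem_Iio] at hn ⊢
      exact lt_of_lt_of_le hn hkl)
  have hcov : G ⊆ ⋃ k, O k := by
    intro z hz
    obtain ⟨x, hx, hzx⟩ := mem_iUnion₂.1 (hTcov hz)
    rw [he] at hx
    obtain ⟨n, rfl⟩ := hx
    exact mem_iUnion.2 ⟨n + 1, mem_iUnion₂.2 ⟨n, by simp, hzx⟩⟩
  -- one stage
  have stage : ∀ k, volume (b '' (G ∩ O k)) ≤ η := by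
    intro k
    set K : Set ℂ := L ∩ V k with hK
    have hKc : IsCompact K := (hVc k).inter_left hL
    -- the classes
    set ι : Type := {C : Set ℂ // ∃ z ∈ G ∩ O k, C = connectedComponentIn K z} with hι
    have hmem : ∀ z ∈ G ∩ O k, z ∈ K := fun z hz =>
      ⟨(hGL hz.1).1, interior_subset (hOV k hz.2)⟩
    have hCc : ∀ C : ι, IsCompact C.1 := by
      rintro ⟨C, z, hz, rfl⟩
      exact isCompact_cc hKc z
    have hCp : ∀ C : ι, IsPreconnected C.1 := by
      rintro ⟨C, z, hz, rfl⟩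
      exact isPreconnected_connectedComponentIn
    have hCL : ∀ C : ι, C.1 ⊆ L := by
      rintro ⟨C, z, hz, rfl⟩
      exact (connectedComponentIn_subset _ _).trans inter_subset_left
    have hCV : ∀ C : ι, C.1 ⊆ V k := by
      rintro ⟨C, z, hz, rfl⟩
      exact (connectedComponentIn_subset _ _).trans inter_subset_right
    have hCU : ∀ C : ι, (C.1 \ E).Nonempty := by
      rintro ⟨C, z, hz, rfl⟩
      obtain ⟨p, hp1, hp2⟩ := Uni_659.comp_meets hL hLn (hVc k) (hGL hz.1).1 (hmem z hz).2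
      exact ⟨p, hp1, disjoint_left.1 (hVf k) hp2⟩
    have hCs : ∀ C : ι, Sl_732.Sat E C.1 := by
      rintro ⟨C, z, hz, rfl⟩ w hw hwE
      have hwK : w ∈ K := connectedComponentIn_subset _ _ hw
      have h1 : connectedComponentIn E w ⊆ K := fun x hx =>
        ⟨sat w hwK.1 hwE hx, interior_subset (cc_subset_interior (hVf k) hwE hwK.2 hx)⟩
      change connectedComponentIn E w ⊆ connectedComponentIn K z
      rw [connectedComponentIn_eq (show w ∈ connectedComponentIn K z from hw)]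
      exact isPreconnected_connectedComponentIn.subset_connectedComponentIn
        (mem_connectedComponentIn hwE) h1
    have hCd : Pairwise (Function.onFun Disjoint fun C : ι => C.1) := by
      rintro ⟨C, z, hz, rfl⟩ ⟨D, w, hw, rfl⟩ hne
      rw [Function.onFun, disjoint_left]
      intro x hx1 hx2
      apply hne
      apply Subtype.ext
      change connectedComponentIn K z = connectedComponentIn K w
      rw [connectedComponentIn_eq hx1, connectedComponentIn_eq hx2]
    -- countably many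
    have hcount : Countable ι := by
      have h1 := Measure.countable_meas_pos_of_disjoint_iUnion (μ := μ)
        (As := fun C : ι => C.1 \ E)
        (fun C => (hCc C).isClosed.measurableSet.diff hE.isClosed.measurableSet)
        (fun C D hCD => (hCd hCD).mono sdiff_subset sdiff_subset)
      have h2 : {C : ι | 0 < μ (C.1 \ E)} = univ := by
        refine eq_univ_of_forall fun C => ?_
        obtain ⟨z, hz, hC⟩ := C.2
        obtain ⟨C', hC', h3, h4, h5⟩ := exists_sub hE (hCc C) (hCp C) (hCU C) (z := z)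
          (by rw [hC]; exact mem_connectedComponentIn (hmem z hz)) (hGE hz.1)
        have h6 := pos C' (hC'.trans (sdiff_subset_sdiff_left (hCL C))) h3 h4 h5
        exact (pos_iff_ne_zero.2 h6).trans_le (measure_mono hC')
      rw [h2] at h1
      exact countable_univ_iff.1 h1
    have hsub : b '' (G ∩ O k) ⊆ ⋃ C : ι, b '' (C.1 ∩ G) := by
      rintro _ ⟨z, hz, rfl⟩
      exact mem_iUnion.2 ⟨⟨_, z, hz, rfl⟩, z,
        ⟨mem_connectedComponentIn (hmem z hz), hz.1⟩, rfl⟩
    refine (measure_mono hsub).trans ((measure_iUnion_le _).trans ?_)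
    rw [ENNReal.tsum_eq_iSup_sum]
    refine iSup_le fun F => ?_
    have hH : ∀ C : ι, ∀ p ∈ C.1 \ E, ∀ q ∈ C.1 \ E, |b p - b q| ≤ η := fun C p hp q hq =>
      hWv.one ⟨hCc C, hCp C, hCs C, subset_inter (hCL C) ((hCV C).trans (hVW k)), hp, hq⟩
    have key : ∀ ε > 0, ∑ C ∈ F, volume (b '' (C.1 ∩ G)) ≤ ENNReal.ofReal (η + F.card * ε) := by
      intro ε hε
      have h3 : ∀ C : ι, ∃ p q : ℂ, p ∈ C.1 \ E ∧ q ∈ C.1 \ E ∧
          volume (b '' (C.1 ∩ G)) ≤ ENNReal.ofReal (|b p - b q| + ε) := by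
        intro C
        obtain ⟨p, hp, q, hq, h⟩ := osc_class hE (hCc C) (hCp C) (hCU C) hGE hb (hH C) hε
        exact ⟨p, q, hp, hq, h⟩
      choose p q hp hq hpq using h3
      set P : Set ℂ → ℂ := fun C => if h : ∃ z ∈ G ∩ O k, C = connectedComponentIn K z then
        p ⟨C, h⟩ else 0 with hP
      set Q : Set ℂ → ℂ := fun C => if h : ∃ z ∈ G ∩ O k, C = connectedComponentIn K z then
        q ⟨C, h⟩ else 0 with hQ
      have hPv : ∀ C : ι, P C.1 = p C := fun C => (dif_pos C.2).trans rfl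
      have hQv : ∀ C : ι, Q C.1 = q C := fun C => (dif_pos C.2).trans rfl
      have h4 := hWv (F.map (Function.Embedding.subtype _)) P Q (by
        intro C hC
        obtain ⟨D, hD, rfl⟩ := Finset.mem_map.1 hC
        rw [Function.Embedding.subtype_apply, hPv, hQv]
        exact ⟨hCc D, hCp D, hCs D, subset_inter (hCL D) ((hCV D).trans (hVW k)), hp D, hq D⟩)
        (by
          intro C hC D hD hne
          obtain ⟨C', hC', rfl⟩ := Finset.mem_map.1 hC
          obtain ⟨D', hD', rfl⟩ := Finset.mem_map.1 hD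
          exact hCd (fun h => hne (by rw [h])))
      rw [Finset.sum_map] at h4
      simp only [Function.Embedding.subtype_apply, hPv, hQv] at h4
      calc ∑ C ∈ F, volume (b '' (C.1 ∩ G)) ≤ ∑ C ∈ F, ENNReal.ofReal (|b (p C) - b (q C)| + ε) :=
            Finset.sum_le_sum fun C _ => hpq C
        _ = ENNReal.ofReal (∑ C ∈ F, (|b (p C) - b (q C)| + ε)) :=
            (ENNReal.ofReal_sum_of_nonneg fun C _ => by positivity).symm
        _ ≤ ENNReal.ofReal (η + F.card * ε) := by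
            refine ENNReal.ofReal_le_ofReal ?_
            rw [Finset.sum_add_distrib, Finset.sum_const, nsmul_eq_mul]
            linarith
    have h5 : Tendsto (fun ε : ℝ => ENNReal.ofReal ((η : ℝ) + F.card * ε)) (𝓝[>] 0)
        (𝓝 (ENNReal.ofReal ((η : ℝ) + F.card * 0))) :=
      (ENNReal.continuous_ofReal.tendsto _).comp
        (tendsto_nhdsWithin_of_tendsto_nhds (Continuous.tendsto (by fun_prop) _))
    rw [mul_zero, add_zero, ENNReal.ofReal_coe_nnreal] at h5
    exact ge_of_tendsto h5 (eventually_nhdsWithin_of_forall fun ε hε => key ε hε)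
  have h1 : b '' G = ⋃ k, b '' (G ∩ O k) := by
    rw [← image_iUnion, ← inter_iUnion, inter_eq_left.2 hcov]
  have h2 : Monotone fun k => b '' (G ∩ O k) := fun k l hkl =>
    image_mono (inter_subset_inter_right _ (hmono hkl))
  rw [h1, h2.directed_le.measure_iUnion]
  exact iSup_le stage


/-- no islands -/
theorem acv_nullN (hE : IsCompact E) (hL : IsClosed L) (hLn : Uni_659.NoIsland L)
    (sat : Sl_732.Sat E L) (μ : Measure ℂ) [SigmaFinite μ]
    (pos : ∀ C ⊆ L \ E, IsCompact C → IsPreconnected C → C.Nontrivial → μ C ≠ 0)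
    (h : ACV E L b) {G : Set ℂ} (hGL : G ⊆ L ∩ E) (hGs : Sl_732.Sat E G)
    (hcst : ∀ z ∈ G, ∀ w ∈ connectedComponentIn E z, b w = b z)
    (hb : ∀ z ∈ G, ∀ δ > 0, ∃ O, IsOpen O ∧ connectedComponentIn E z ⊆ O ∧
      ∀ w ∈ O \ E, |b w - b z| < δ) :
    volume (b '' G) = 0 := by
  obtain ⟨S, hS, hSc, hv⟩ := h
  have h1 : volume (b '' (G \ ⋃₀ S)) = 0 := by
    refine null_of_varN hE hL hLn sat μ pos (sdiff_subset.trans hGL) ?_
      (fun z hz => hb z hz.1) fun η hη => ?_
    · intro z hz hzE w hw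
      refine ⟨hGs z hz.1 hzE hw, fun hwS => hz.2 ?_⟩
      obtain ⟨K, hK, hwK⟩ := mem_sUnion.1 hwS
      obtain ⟨x, hx, rfl⟩ := hSc K hK
      refine mem_sUnion.2 ⟨_, hK, ?_⟩
      rw [connectedComponentIn_eq hwK, ← connectedComponentIn_eq hw]
      exact mem_connectedComponentIn hzE
    · obtain ⟨W, hW, hsW, hWv⟩ := hv η hη
      exact ⟨W, hW, (sdiff_subset_sdiff_left hGL).trans hsW, hWv⟩
  have h2 : (b '' (G ∩ ⋃₀ S)).Countable := by
    have h3 : b '' (G ∩ ⋃₀ S) ⊆ ⋃ K ∈ S, b '' (G ∩ K) := by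
      rintro _ ⟨z, ⟨hz, hzS⟩, rfl⟩
      obtain ⟨K, hK, hzK⟩ := mem_sUnion.1 hzS
      exact mem_iUnion₂.2 ⟨K, hK, z, ⟨hz, hzK⟩, rfl⟩
    refine Countable.mono h3 (hS.biUnion fun K hK => ?_)
    refine Set.Subsingleton.countable ?_
    rintro _ ⟨z, ⟨hz, hzK⟩, rfl⟩ _ ⟨w, ⟨hw, hwK⟩, rfl⟩
    obtain ⟨x, hx, rfl⟩ := hSc K hK
    refine (hcst z hz w ?_).symm
    rw [← connectedComponentIn_eq hzK]
    exact hwK
  have h4 : b '' G ⊆ b '' (G \ ⋃₀ S) ∪ b '' (G ∩ ⋃₀ S) := by
    rw [← image_union, sdiff_union_inter]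
  refine measure_mono_null h4 (measure_union_null h1 (h2.measure_zero _))


end abs

section ni

variable {Y : Set ℂ} {A f a b x0 : ℂ → ℝ}

/-- **small variation near `Y` along a.e. level of `A` implies a null image.** -/
theorem ni_of_acvN (hY : IsExteriorDomain Yᶜ) (hA : LB A) (hf : LB f)
    (hfc : ∀ z ∉ Y, ContinuousAt f z)
    (hcf : {K : Cmp Y | dj Y f K ≠ 0}.Countable)
    (hw : ∑' K : Cmp Y, ENNReal.ofReal (dj Y A K) * ENNReal.ofReal (dj Y f K) ≠ ∞)
    (hlev : ∀ᵐ t : ℝ, Uni_659.NoIsland (Lv Y A t) ∧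
      ∃ μ : Measure ℂ, SigmaFinite μ ∧
        ∀ C ⊆ Lv Y A t \ Y, IsCompact C → IsPreconnected C → C.Nontrivial → μ C ≠ 0)
    (hacv : ∀ᵐ t : ℝ, ACV Y (Lv Y A t) f) : NI Y A f := by
  classical
  have hYc : IsCompact Y := cpt_of hY
  unfold NI
  refine le_antisymm (ENNReal.le_of_forall_pos_le_add fun ε hε _ => ?_) zero_le
  rw [zero_add]
  obtain ⟨J, hJ⟩ : ∃ J : Finset (Cmp Y), ∑' K : {K : Cmp Y // K ∉ J},
      ENNReal.ofReal (dj Y A K) * ENNReal.ofReal (dj Y f K) < ε := by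
    have h1 := ENNReal.tendsto_tsum_compl_atTop_zero hw
    exact ((h1.eventually (gt_mem_nhds (show (0 : ℝ≥0∞) < ε by exact_mod_cast hε))).exists)
  obtain ⟨F, hFc, hFY, hFJ, hFe⟩ := exists_exhaust hYc J
  set N : Set (ℝ × ℝ) := ⋃ k, Ni_459.ZF Y A f (F k) with hN
  have hNm : MeasurableSet N := MeasurableSet.iUnion fun k => (Sl_732.isClosed_ZF hY hA hf (hFc k)).measurableSet
  set ι : Type := {K : Cmp Y // dj Y f K ≠ 0 ∧ K ∉ J} with hι
  have hιc : Countable ι := (hcf.mono fun K hK => hK.1).to_subtype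
  -- the slices
  have slice : ∀ᵐ t : ℝ, volume (Prod.mk t ⁻¹' N) ≤
      ∑' K : ι, (Icc (lo Y A (Sl_732.pt K.1)) (up Y A (Sl_732.pt K.1))).indicator
        (fun _ => ENNReal.ofReal (dj Y f K.1)) t := by
    filter_upwards [hlev, hacv] with t ⟨hLp, μ, hμ, pos⟩ ht
    have hLc : IsClosed (Lv Y A t) := by
      have h1 : IsClosed {z | lo Y A z ≤ t} := by
        rw [← isOpen_compl_iff]
        convert isOpen_lt_lo hY hA t using 1
        ext z; simp [not_le]
      have h2 : IsClosed {z | t ≤ up Y A z} := by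
        rw [← isOpen_compl_iff]
        convert isOpen_up_lt hY hA t using 1
        ext z; simp [not_le]
      exact h1.inter h2
    have hLs : Sl_732.Sat Y (Lv Y A t) := fun z hz hzY w hw => by
      refine ⟨?_, ?_⟩
      · rw [lo_congr_cc hzY hw]; exact hz.1
      · rw [up_congr_cc hzY hw]; exact hz.2
    set G : Set ℂ := {z | z ∈ Lv Y A t ∩ Y ∧ lo Y f z = up Y f z} with hG
    have hnull : volume (up Y f '' G) = 0 := by
      refine acv_nullN (E := Y) hYc hLc hLp hLs μ pos (b := up Y f)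
        (ht.congr fun z hz => up_of_notMem hY hf hz.2 (hfc z hz.2)) (fun z hz => hz.1)
        ?_ ?_ ?_
      · intro z hz hzY w hw
        refine ⟨⟨hLs z hz.1.1 hzY hw, connectedComponentIn_subset _ _ hw⟩, ?_⟩
        rw [lo_congr_cc hzY hw, up_congr_cc hzY hw]
        exact hz.2
      · intro z hz w hw
        exact up_congr_cc hz.1.2 hw
      · intro z hz δ hδ
        obtain ⟨O, hO, h1⟩ := exists_lt_of_up_lt hY hf (show up Y f z < up Y f z + δ by linarith)
        obtain ⟨P, hP, h2⟩ := exists_gt_of_lt_lo hY hf (show lo Y f z - δ < lo Y f z by linarith)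
        refine ⟨O ∩ P, hO.op.inter hP.op, subset_inter hO.sub hP.sub, fun w hw => ?_⟩
        have h3 := h1 w hw.1.1 hw.2
        have h4 := h2 w hw.1.2 hw.2
        have h5 := hz.2
        rw [up_of_notMem hY hf hw.2 (hfc w hw.2), abs_lt]
        constructor <;> linarith
    have hsub : Prod.mk t ⁻¹' N ⊆ up Y f '' G ∪ ⋃ K : ι,
        {s | (lo Y A (Sl_732.pt K.1) ≤ t ∧ t ≤ up Y A (Sl_732.pt K.1)) ∧ s ∈ Icc (lo Y f (Sl_732.pt K.1)) (up Y f (Sl_732.pt K.1))} := by
      intro s hs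
      obtain ⟨k, z, hz, h1, h2, h3, h4⟩ := mem_iUnion.1 hs
      simp only at h1 h2 h3 h4
      have hzY := hFY k hz
      by_cases hj : lo Y f z = up Y f z
      · left
        refine ⟨z, ⟨⟨⟨h1, h2⟩, hzY⟩, hj⟩, ?_⟩
        linarith
      · right
        refine mem_iUnion.2 ⟨⟨cmp z hzY, ?_, hFJ k z hzY hz⟩, ?_⟩
        · unfold dj
          rw [Sl_732.up_pt, Sl_732.lo_pt]
          exact fun h => hj (by linarith)
        · refine ⟨⟨?_, ?_⟩, ?_, ?_⟩
          · rw [Sl_732.lo_pt]; exact h1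
          · rw [Sl_732.up_pt]; exact h2
          · rw [Sl_732.lo_pt]; exact h3
          · rw [Sl_732.up_pt]; exact h4
    refine (measure_mono hsub).trans ((measure_union_le _ _).trans ?_)
    rw [hnull, zero_add]
    refine (measure_iUnion_le _).trans (ENNReal.tsum_le_tsum fun K => ?_)
    by_cases hK : lo Y A (Sl_732.pt K.1) ≤ t ∧ t ≤ up Y A (Sl_732.pt K.1)
    · rw [indicator_of_mem (show t ∈ Icc _ _ from hK)]
      refine (measure_mono (t := Icc (lo Y f (Sl_732.pt K.1)) (up Y f (Sl_732.pt K.1))) fun s hs => hs.2).trans ?_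
      rw [Real.volume_Icc]
      exact le_rfl
    · rw [show {s | (lo Y A (Sl_732.pt K.1) ≤ t ∧ t ≤ up Y A (Sl_732.pt K.1)) ∧
        s ∈ Icc (lo Y f (Sl_732.pt K.1)) (up Y f (Sl_732.pt K.1))} = ∅ from by
          ext s; simp only [mem_ofPred_eq, mem_empty_iff_false, iff_false]; exact fun h => hK h.1]
      rw [measure_empty]
      exact zero_le
  have hNle : volume N ≤ ε := by
    rw [Measure.volume_eq_prod, Measure.prod_apply hNm]
    refine (lintegral_mono_ae slice).trans ?_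
    rw [lintegral_tsum fun K => (measurable_const.indicator measurableSet_Icc).aemeasurable]
    have h1 : ∀ K : ι, ∫⁻ t : ℝ, (Icc (lo Y A (Sl_732.pt K.1)) (up Y A (Sl_732.pt K.1))).indicator
        (fun _ => ENNReal.ofReal (dj Y f K.1)) t =
        ENNReal.ofReal (dj Y A K.1) * ENNReal.ofReal (dj Y f K.1) := by
      intro K
      rw [lintegral_indicator_const measurableSet_Icc, Real.volume_Icc, mul_comm]
      rfl
    simp_rw [h1]
    refine le_trans ?_ hJ.le
    exact ENNReal.tsum_comp_le_tsum_of_injective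
      (f := fun K : ι => (⟨K.1, K.2.2⟩ : {K : Cmp Y // K ∉ J}))
      (fun K K' h => Subtype.ext (by simpa using h))
      (fun K : {K : Cmp Y // K ∉ J} => ENNReal.ofReal (dj Y A K) * ENNReal.ofReal (dj Y f K))
  have hsub : NP Y A f ⊆ N ∪ ((fun K : Cmp Y => (up Y A (Sl_732.pt K), up Y f (Sl_732.pt K))) '' (J : Set (Cmp Y))) := by
    rintro p ⟨z, hz, h1, h2, h3, h4⟩
    by_cases hzJ : cmp z hz ∈ J
    · right
      refine ⟨_, hzJ, ?_⟩
      simp only
      rw [Sl_732.up_pt, Sl_732.up_pt, h2, h4]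
    · left
      obtain ⟨k, hk⟩ := hFe z hz hzJ
      exact mem_iUnion.2 ⟨k, z, hk, h1.le, h2.ge, h3.le, h4.ge⟩
  refine (measure_mono hsub).trans ((measure_union_le _ _).trans ?_)
  have hfin : volume ((fun K : Cmp Y => (up Y A (Sl_732.pt K), up Y f (Sl_732.pt K))) '' (J : Set (Cmp Y))) = 0 :=
    (J.finite_toSet.image _).measure_zero _
  rw [hfin, add_zero]
  exact hNle


/-- **`NI` is `ACV` on a.e. level**, no condition at infinity. -/
theorem ni_iff_acvG (hY : IsExteriorDomain Yᶜ) (hx : X0 Y x0) (ha : TT Y a)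
    (hs : Swd Y (fun z => x0 z + a z)) (hf : TT Y f) :
    NI Y a f ↔ ∀ᵐ t, ACV Y (Lv Y (fun z => x0 z + a z) t) f := by
  obtain ⟨R, hR⟩ : ∃ R, Y ⊆ ball 0 R := by
    obtain ⟨R, h⟩ := (cpt_of hY).isBounded.exists_norm_le
    exact ⟨R + 1, fun z hz => by rw [mem_ball_zero_iff]; linarith [h z hz]⟩
  have hA := ll_x0 hx ha
  have hAb := lb_x0 hx ha
  have hyc : ∀ K : Cmp Y, osp Y (fun w => x0 w + a w) (Nip_31.pt K) = osp Y a (Nip_31.pt K) :=
    osp_x0 hx
  constructor
  · intro hni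
    have hni' : NI Y (fun z => x0 z + a z) f := (ni_x0 hx).2 hni
    refine ni_acv hY hR hA hAb hf.q.loc (tt_lb hf) hni' (𝒥 := JJ Y a ∪ JJ Y f)
      ((jj_countable hY ha).union (jj_countable hY hf)) ?_ subset_union_right
      (wdg_x0_fin hY hx ha hf R) ?_
    · rw [jj_x0 hx]; exact subset_union_left
    · have h1 := tt_sum hY hf ha
      refine ne_top_of_le_ne_top h1 ?_
      simp_rw [hyc]
      exact ENNReal.tsum_comp_le_tsum_of_injective Subtype.val_injective
        (fun K : Cmp Y => ENNReal.ofReal (osp Y f (Nip_31.pt K)) *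
          ENNReal.ofReal (osp Y a (Nip_31.pt K)))
  · intro hacv
    rw [← ni_x0 hx]
    refine ni_of_acvN hY hAb (tt_lb hf) (fun z hz => contAt hY hf.q.loc hz) ?_ ?_ ?_ hacv
    · refine (jj_countable hY hf).mono fun K hK => ?_
      have h1 : osp Y f (Nip_31.pt K) ≠ 0 := by rw [← dj_eq]; exact hK
      exact fun h => h1 (by unfold osp; linarith)
    · simp_rw [dj_eq, hyc]
      exact tt_sum hY ha hf
    · filter_upwards [pos_ae hY hA hAb (en_x0_fin hY hx ha)] with t ht
      obtain ⟨μ, hμ, hμC⟩ := ht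
      exact ⟨Uni_659.noIsland_nLv hY hAb (fun z hz => contAt hY hA hz) hs t, μ,
        inferInstance, hμC⟩

/-- **LINP without compact support of the anchor** (395's LING) -/
theorem linG (hY : IsExteriorDomain Yᶜ) (hx : X0 Y x0) (ha : TT Y a)
    (hs : Swd Y (fun z => x0 z + a z)) {b b' : ℂ → ℝ} (hb : TT Y b) (hb' : TT Y b')
    (hn : NI Y a b) (hn' : NI Y a b') (s t : ℝ) : NI Y a (fun z => s * b z + t * b' z) := by
  have hYc : IsClosed Y := (cpt_of hY).isClosed
  have hT : TT Y (fun z => s * b z + t * b' z) :=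
    ((TT.const s).mul hYc hb).add hYc ((TT.const t).mul hYc hb')
  rw [ni_iff_acvG hY hx ha hs hT]
  filter_upwards [(ni_iff_acvG hY hx ha hs hb).1 hn, (ni_iff_acvG hY hx ha hs hb').1 hn']
    with r h1 h2
  exact (h1.const_mul s).add (h2.const_mul t)

/-- Lipschitz functions of two members of the commutant -/
theorem ni_lip2 (hY : IsExteriorDomain Yᶜ) (hx : X0 Y x0) (ha : TT Y a)
    (hs : Swd Y (fun z => x0 z + a z)) {b b' c : ℂ → ℝ} (hb : TT Y b) (hb' : TT Y b')
    (hc : TT Y c) (hn : NI Y a b) (hn' : NI Y a b') {M M' : ℝ} (hM : 0 ≤ M) (hM' : 0 ≤ M')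
    (h : ∀ z ∉ Y, ∀ w ∉ Y, |c z - c w| ≤ M * |b z - b w| + M' * |b' z - b' w|) : NI Y a c := by
  rw [ni_iff_acvG hY hx ha hs hc]
  filter_upwards [(ni_iff_acvG hY hx ha hs hb).1 hn, (ni_iff_acvG hY hx ha hs hb').1 hn']
    with r h1 h2
  exact h1.comb hM hM' h2 fun z hz w hw => h z hz.2 w hw.2

/-- products -/
theorem ni_mul (hY : IsExteriorDomain Yᶜ) (hx : X0 Y x0) (ha : TT Y a)
    (hs : Swd Y (fun z => x0 z + a z)) {b b' : ℂ → ℝ} (hb : TT Y b) (hb' : TT Y b')
    (hn : NI Y a b) (hn' : NI Y a b') : NI Y a (fun z => b z * b' z) := by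
  obtain ⟨M, hM⟩ := hb.q.bdd
  obtain ⟨M', hM'⟩ := hb'.q.bdd
  have hM0 : 0 ≤ M := (abs_nonneg _).trans (hM 0)
  have hM0' : 0 ≤ M' := (abs_nonneg _).trans (hM' 0)
  refine ni_lip2 hY hx ha hs hb hb' (hb.mul (cpt_of hY).isClosed hb') hn hn' hM0' hM0
    fun z _ w _ => ?_
  have e : b z * b' z - b w * b' w = (b z - b w) * b' z + b w * (b' z - b' w) := by ring
  rw [e]
  refine (abs_add_le _ _).trans ?_
  rw [abs_mul, abs_mul]
  have h1 : |b z - b w| * |b' z| ≤ M' * |b z - b w| := by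
    rw [mul_comm]; exact mul_le_mul_of_nonneg_right (hM' z) (abs_nonneg _)
  have h2 : |b w| * |b' z - b' w| ≤ M * |b' z - b' w| :=
    mul_le_mul_of_nonneg_right (hM w) (abs_nonneg _)
  linarith

/-- maxima -/
theorem ni_max (hY : IsExteriorDomain Yᶜ) (hx : X0 Y x0) (ha : TT Y a)
    (hs : Swd Y (fun z => x0 z + a z)) {b b' : ℂ → ℝ} (hb : TT Y b) (hb' : TT Y b')
    (hc : TT Y (fun z => max (b z) (b' z)))
    (hn : NI Y a b) (hn' : NI Y a b') : NI Y a (fun z => max (b z) (b' z)) := by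
  refine ni_lip2 hY hx ha hs hb hb' hc hn hn' zero_le_one zero_le_one fun z _ w _ => ?_
  rw [one_mul, one_mul]
  exact (abs_max_sub_max_le_max _ _ _ _).trans
    (max_le (le_add_of_nonneg_right (abs_nonneg _)) (le_add_of_nonneg_left (abs_nonneg _)))

end ni

end Crest.Agent.R105.Nip_31
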