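import Crest.Agent.R105.Cnv4_755
import Crest.Agent.R105.SkA1_8

/-!
# Row 105, S0138, CONV 5 (helper755): `SkA_8.CONVP`

* `noIs_of_swd` : switched functions satisfy the weak maximum principle on discs
* `convp : SkA_8.CONVP`
-/

set_option autoImplicit false

open MeasureTheory Set Filter Topology Metric
open scoped NNReal ENNReal Real ContDiff

namespace Crest.Agent.R105.Cnv_755

open Crest.AnalysisR Bd_775 IfB_641 Tc_808 Ni_459 Grd_782
open Crest.Agent.R105.Dir_508 (Tst gr gr_of_notMem)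

/-- switched functions satisfy the weak maximum principle -/
theorem noIs_of_swd {Y : Set ℂ} (hY : IsExteriorDomain Yᶜ) {x : ℂ → ℝ} (hl : LB x)
    (hc : ∀ z ∉ Y, ContinuousAt x z) (hs : Swd Y x) : NoIs Yᶜ x := by
  have key : ∀ (S : Set ℂ) (p : ℂ) (r : ℝ) (z : ℂ), z ∈ ball p r → z ∈ S →
      (∀ w ∈ sphere p r, w ∉ S) → Bornology.IsBounded (connectedComponentIn S z) := by
    intro S p r z hz hzS hsph
    have h1 : connectedComponentIn S z ⊆ ball p r := by
      have hpc : IsPreconnected (connectedComponentIn S z) := isPreconnected_connectedComponentIn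
      have hcov : connectedComponentIn S z ⊆ ball p r ∪ (closedBall p r)ᶜ := by
        intro w hw
        rcases lt_trichotomy (dist w p) r with h | h | h
        · exact Or.inl (mem_ball.2 h)
        · exact absurd (connectedComponentIn_subset _ _ hw) (hsph w (mem_sphere.2 h))
        · exact Or.inr (fun h' => absurd (mem_closedBall.1 h') (not_le.2 h))
      refine hpc.subset_left_of_subset_union isOpen_ball isClosed_closedBall.isOpen_compl ?_ hcov
        ⟨z, mem_connectedComponentIn hzS, hz⟩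
      exact disjoint_left.2 fun w h1 h2 => h2 (ball_subset_closedBall h1)
    exact isBounded_ball.subset h1
  constructor
  · intro p r t _ hsub hsph z hz
    by_contra hcon
    push Not at hcon
    have hz2 : z ∉ Y := hz.2
    have h1 : t < lo Y x z := by rw [lo_of_notMem hY hl hz2 (hc z hz2)]; exact hcon
    refine hs.gt t z h1 (key {w | t < lo Y x w} p r z hz.1 h1 fun w hw hwS => ?_)
    have hw2 : w ∉ Y := hsub hw
    have h2 : t < lo Y x w := hwS
    rw [lo_of_notMem hY hl hw2 (hc w hw2)] at h2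
    exact absurd (hsph w hw) (not_le.2 h2)
  · intro p r t _ hsub hsph z hz
    by_contra hcon
    push Not at hcon
    have hz2 : z ∉ Y := hz.2
    have h1 : up Y x z < t := by rw [up_of_notMem hY hl hz2 (hc z hz2)]; exact hcon
    refine hs.lt t z h1 (key {w | up Y x w < t} p r z hz.1 h1 fun w hw hwS => ?_)
    have hw2 : w ∉ Y := hsub hw
    have h2 : up Y x w < t := hwS
    rw [up_of_notMem hY hl hw2 (hc w hw2)] at h2
    exact absurd (hsph w hw) (not_le.2 h2)

/-- real integrals of energies -/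
theorem lint_en_eq {U : Set ℂ} {f : ℂ → ℝ} (h : IntegrableOn (en f) U) :
    ∫⁻ z in U, ENNReal.ofReal (en f z) = ENNReal.ofReal (∫ z in U, en f z) :=
  (ofReal_integral_eq_lintegral_ofReal h (ae_of_all _ fun _ => en_nonneg _ _)).symm

theorem int_en_eq (U : Set ℂ) (f : ℂ → ℝ) :
    ∫ z in U, en f z = (∫⁻ z in U, ENNReal.ofReal (en f z)).toReal :=
  integral_eq_lintegral_of_nonneg_ae (ae_of_all _ fun _ => en_nonneg _ _)
    (measurable_en f).aestronglyMeasurable

theorem en_congr {f g : ℂ → ℝ} {z : ℂ} (h : f =ᶠ[𝓝 z] g) : en f z = en g z := by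
  unfold en gx gy
  rw [h.fderiv_eq]

theorem ll_hol {U : Set ℂ} (hU : IsOpen U) {p0 : ℂ → ℂ} (hp0 : DifferentiableOn ℂ p0 U) :
    LocallyLipschitzOn U fun z => (p0 z).re := by
  intro z hz
  have h1 : ContDiffAt ℂ 1 p0 z :=
    ((hp0.analyticAt (hU.mem_nhds hz)).contDiffAt).of_le (by exact_mod_cast le_top)
  obtain ⟨K, t, ht, hK⟩ := (h1.restrict_scalars ℝ).exists_lipschitzOnWith
  refine ⟨1 * K, t, mem_nhdsWithin_of_mem_nhds ht, ?_⟩
  have h2 : LipschitzWith 1 (fun z : ℂ => z.re) := by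
    refine LipschitzWith.of_dist_le_mul fun a b => ?_
    rw [Real.dist_eq, ← Complex.sub_re, NNReal.coe_one, one_mul, dist_eq_norm]
    exact Complex.abs_re_le_norm _
  exact h2.comp_lipschitzOnWith hK

/-- **the node CONV**, general form: no condition at infinity, no minimality -/
theorem conv_gen {Y : Set ℂ} {x0 : ℂ → ℝ} (hY : IsExteriorDomain Yᶜ) (hx : X0 Y x0)
    {u : ℕ → ℂ → ℝ} (htt : ∀ n, TT Y (u n)) (hswd : ∀ n, Swd Y (fun z => x0 z + u n z))
    (hcau : ∀ ε > 0, ∃ n₀, ∀ i ≥ n₀, ∀ j ≥ n₀, ∫ z in Yᶜ, en (fun w => u i w - u j w) z ≤ ε)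
    (hEL : ∀ ψ, TT Y ψ → HasCompactSupport ψ → (∀ z ∈ Y, ∀ᶠ w in 𝓝 z, ψ w = ψ z) →
      Tendsto (fun n => di Y (u n) ψ - ∫ z, ψ z * lap x0 z) atTop (𝓝 0)) :
    ∃ (F : ℂ → ℂ) (ψ : ℂ → ℝ) (c : ℕ → ℝ), DifferentiableOn ℂ F Yᶜ ∧
      (∀ z ∈ Yᶜ, (F z).re = x0 z + ψ z) ∧
      (∃ c' : ℂ, Tendsto (fun z => F z - z) (cocompact ℂ) (𝓝 c')) ∧ Q Y ψ ∧
      (∀ A, IsCompact A → A ⊆ Yᶜ → TendstoUniformlyOn (fun n z => u n z + c n) ψ atTop A) ∧
      Tendsto (fun n => ∫ z in Yᶜ, en (fun w => (u n w + c n) - ψ w) z) atTop (𝓝 0) := by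
  have hYc : IsCompact Y := cpt_of hY
  have hU : IsOpen Yᶜ := hY.1
  have hUc : IsPreconnected Yᶜ := hY.2.1.isPreconnected
  obtain ⟨z0, hz0⟩ := hY.2.1.nonempty
  have hx1 : ContDiff ℝ 1 x0 := hx.sm.of_le (by exact_mod_cast le_top)
  have hxl : LocallyLipschitzOn Yᶜ x0 := hx1.locallyLipschitz.locallyLipschitzOn
  set v : ℕ → ℂ → ℝ := fun n z => x0 z + u n z with hv
  have hvl : ∀ n, LocallyLipschitzOn Yᶜ (v n) := fun n => ll_add hxl (htt n).q.loc
  have hLB : ∀ n, LB (v n) := fun n => (LB.of_cont hx.sm.continuous).add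
    (LB.of_bdd (htt n).q.bdd)
  have hvc : ∀ n, ∀ z ∉ Y, ContinuousAt (v n) z := fun n z hz =>
    (hvl n).continuousOn.continuousAt (hU.mem_nhds hz)
  have hsubeq : ∀ i j, (fun z => v i z - v j z) = fun z => u i z - u j z := by
    intro i j
    funext z
    simp only [hv]
    ring
  have hqs : ∀ i j, IntegrableOn (en fun z => u i z - u j z) Yᶜ := fun i j =>
    (TT_sub hYc.isClosed (htt i) (htt j)).q.fin
  have hC : CSeq Yᶜ v := by
    refine ⟨hvl, fun n => noIs_of_swd hY (hLB n) (hvc n) (hswd n), fun ε hε => ?_⟩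
    obtain ⟨N, hN⟩ := hcau ε hε
    refine ⟨N, fun i hi j hj => ?_⟩
    rw [hsubeq, lint_en_eq (hqs i j)]
    exact ENNReal.ofReal_le_ofReal (hN i hi j hj)
  have hELv : ∀ ψ : ℂ → ℝ, Tst Yᶜ ψ →
      Tendsto (fun n => ∫ z in Yᶜ, Bd_775.dot (v n) ψ z) atTop (𝓝 0) := by
    intro ψ hψ
    have hlc : LC Y ψ := Tst.lc hψ
    have h1 := hEL ψ (TT.lc hlc) hψ.cpt hlc.lc
    refine h1.congr fun n => ?_
    have hgr : ∀ (f : ℂ → ℝ) (z : ℂ), z ∉ tsupport (fderiv ℝ ψ) → Bd_775.dot f ψ z = 0 := by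
      intro f z hz
      unfold Bd_775.dot gx gy
      rw [image_eq_zero_of_notMem_tsupport hz]
      simp
    have h2 : ∫ z in Yᶜ, Bd_775.dot x0 ψ z = - ∫ z, ψ z * lap x0 z := by
      rw [← Dir_508.int_dot_smooth hx.sm hψ.sm hψ.cpt]
      refine setIntegral_eq_integral_of_forall_compl_eq_zero fun z hz => ?_
      exact hgr _ _ fun h' => hz (hψ.sub h')
    have hq0 : Q Y ψ := (TT.lc hlc).q
    have i1 : IntegrableOn (Bd_775.dot (u n) ψ) Yᶜ := Bd_775.integrableOn_dot (htt n).q hq0
    have i2 : IntegrableOn (Bd_775.dot x0 ψ) Yᶜ := by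
      have hcont : Continuous (Bd_775.dot x0 ψ) := by
        have c1 := hx1.continuous_fderiv one_ne_zero
        have c2 := (hψ.sm.of_le (by exact_mod_cast le_top) : ContDiff ℝ 1 ψ).continuous_fderiv
          one_ne_zero
        unfold Bd_775.dot gx gy
        exact ((c1.clm_apply continuous_const).mul (c2.clm_apply continuous_const)).add
          ((c1.clm_apply continuous_const).mul (c2.clm_apply continuous_const))
      refine (hcont.integrable_of_hasCompactSupport ?_).integrableOn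
      refine HasCompactSupport.intro (hψ.cpt.fderiv ℝ) fun z hz => hgr _ _ hz
    have h3 : ∫ z in Yᶜ, Bd_775.dot (v n) ψ z =
        (∫ z in Yᶜ, Bd_775.dot x0 ψ z) + ∫ z in Yᶜ, Bd_775.dot (u n) ψ z := by
      rw [← integral_add i2 i1]
      refine integral_congr_ae ?_
      filter_upwards [Bd_775.ae_diff hU (htt n).q.loc] with z hz
      unfold Bd_775.dot gx gy
      simp only [hv]
      rw [fderiv_fun_add (hx1.differentiable one_ne_zero z) hz]
      simp only [_root_.add_apply]
      ring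
    rw [h3, h2]
    unfold di
    ring
  obtain ⟨F, N, H, hF, hFv, hFe, hH, hHF⟩ := hC.exists_hol hU hUc hz0 hELv
  have hFre : LocallyLipschitzOn Yᶜ fun z => (F z).re := ll_hol hU hF
  -- infinity
  obtain ⟨R0, hR0⟩ := hx.far
  obtain ⟨R1, hR1⟩ := hY.2.2
  set R : ℝ := max (max R0 R1) 0 with hR
  have hR0' : R0 ≤ R := (le_max_left _ _).trans (le_max_left _ _)
  have hR1' : R1 ≤ R := (le_max_right _ _).trans (le_max_left _ _)
  have hsub : {z : ℂ | R < ‖z‖} ⊆ Yᶜ := fun z hz => hR1 z (hR1'.trans_lt hz)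
  have hWo : IsOpen {z : ℂ | R < ‖z‖} := isOpen_lt continuous_const continuous_norm
  have hx0far : ∀ z : ℂ, R < ‖z‖ → x0 z = z.re := fun z hz => hR0 z (hR0'.trans hz.le)
  have hinf : ∃ c' : ℂ, Tendsto (fun z => F z - z) (cocompact ℂ) (𝓝 c') := by
    refine at_inf hU hF hH hHF (hvl N) hsub ?_
    have h1 : ∫⁻ z in {z : ℂ | R < ‖z‖}, ENNReal.ofReal (en (fun z => v N z - z.re) z) =
        ∫⁻ z in {z : ℂ | R < ‖z‖}, ENNReal.ofReal (en (u N) z) := by
      refine setLIntegral_congr_fun hWo.measurableSet fun z hz => ?_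
      congr 1
      apply en_congr
      filter_upwards [hWo.mem_nhds hz] with w hw
      simp only [hv]
      rw [hx0far w hw]
      ring
    rw [h1]
    refine ne_top_of_le_ne_top ?_ (lintegral_mono_set hsub)
    rw [lint_en_eq (htt N).q.fin]
    exact ENNReal.ofReal_ne_top
  -- the limit function
  classical
  set ψ : ℂ → ℝ := fun z => if z ∈ Y then 0 else (F z).re - x0 z with hψdef
  have hψU : ∀ z ∈ Yᶜ, ψ z = (F z).re - x0 z := fun z hz => if_neg hz
  have hψnh : ∀ z ∈ Yᶜ, ψ =ᶠ[𝓝 z] fun z => (F z).re - x0 z := by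
    intro z hz
    filter_upwards [hU.mem_nhds hz] with w hw
    exact hψU w hw
  set c : ℕ → ℝ := fun n => - v n z0 with hc
  have hψl : LocallyLipschitzOn Yᶜ ψ := by
    have h1 : LocallyLipschitzOn Yᶜ fun z => (F z).re - x0 z := ll_sub hFre hxl
    intro z hz
    obtain ⟨K, t, ht, hK⟩ := h1 hz
    refine ⟨K, t ∩ Yᶜ, inter_mem ht self_mem_nhdsWithin, ?_⟩
    intro a ha b hb
    rw [hψU a ha.2, hψU b hb.2]
    exact hK ha.1 hb.1
  -- locally uniform convergence
  have hconv : ∀ A, IsCompact A → A ⊆ Yᶜ →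
      TendstoUniformlyOn (fun n z => u n z + c n) ψ atTop A := by
    intro A hA hAY
    have h1 := (tendstoLocallyUniformlyOn_iff_forall_isCompact hU).1 hFv A hAY hA
    rw [Metric.tendstoUniformlyOn_iff] at h1 ⊢
    intro ε hε
    filter_upwards [h1 ε hε] with n hn z hz
    have h2 := hn z hz
    rw [Real.dist_eq] at h2 ⊢
    rw [hψU z (hAY hz)]
    have e : (F z).re - x0 z - (u n z + c n) = (F z).re - (v n z - v n z0) := by
      simp only [hc, hv]
      ring
    rw [e]
    exact h2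
  -- energies of the differences
  have hen : ∀ n, ∫⁻ z in Yᶜ, ENNReal.ofReal (en (fun w => (u n w + c n) - ψ w) z) =
      ∫⁻ z in Yᶜ, ENNReal.ofReal (en (fun z => v n z - (F z).re) z) := by
    intro n
    refine setLIntegral_congr_fun hU.measurableSet fun z hz => ?_
    have e : (fun w => (u n w + c n) - ψ w) =ᶠ[𝓝 z] fun w => (v n w - (F w).re) + c n := by
      filter_upwards [hψnh z hz] with w hw
      rw [hw]
      simp only [hv]
      ring
    congr 1
    rw [en_congr e]
    unfold en gx gy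
    rw [fderiv_add_const]
  -- energy of `ψ`
  have hψfin : IntegrableOn (en ψ) Yᶜ := by
    obtain ⟨n, hn⟩ := (hFe.eventually (gt_mem_nhds (zero_lt_one : (0:ℝ≥0∞) < 1))).exists
    have hd1 := Bd_775.ae_diff hU (htt n).q.loc
    have hd2 := Bd_775.ae_diff hU hψl
    refine ⟨(measurable_en ψ).aestronglyMeasurable, ?_⟩
    rw [hasFiniteIntegral_iff_ofReal (ae_of_all _ fun z => en_nonneg _ _)]
    calc ∫⁻ z in Yᶜ, ENNReal.ofReal (en ψ z)
        ≤ ∫⁻ z in Yᶜ, (2 * ENNReal.ofReal (en (fun w => (u n w + c n) - ψ w) z) +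
            2 * ENNReal.ofReal (en (u n) z)) := by
          refine lintegral_mono_ae ?_
          filter_upwards [hd1, hd2] with z h1 h2
          have h1' : DifferentiableAt ℝ (fun w => u n w + c n) z := h1.add_const _
          have h3 := en_le_two h2 h1'
          have h4 : en (fun w => ψ w - (u n w + c n)) z = en (fun w => (u n w + c n) - ψ w) z := by
            unfold en gx gy
            rw [fderiv_fun_sub h2 h1', fderiv_fun_sub h1' h2]
            simp only [_root_.sub_apply]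
            ring
          have h5 : en (fun w => u n w + c n) z = en (u n) z := by
            unfold en gx gy
            rw [fderiv_add_const]
          rw [h4, h5] at h3
          refine (ENNReal.ofReal_le_ofReal h3).trans (le_of_eq ?_)
          rw [ENNReal.ofReal_add (mul_nonneg (by norm_num) (en_nonneg _ _))
            (mul_nonneg (by norm_num) (en_nonneg _ _)), ENNReal.ofReal_mul (by norm_num),
            ENNReal.ofReal_mul (by norm_num), ENNReal.ofReal_ofNat]
      _ = 2 * (∫⁻ z in Yᶜ, ENNReal.ofReal (en (fun w => (u n w + c n) - ψ w) z)) +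
            2 * ∫⁻ z in Yᶜ, ENNReal.ofReal (en (u n) z) := by
          rw [lintegral_add_left, lintegral_const_mul, lintegral_const_mul]
          · exact (measurable_en _).ennreal_ofReal
          · exact (measurable_en _).ennreal_ofReal
          · exact (measurable_en _).ennreal_ofReal.const_mul _
      _ < ⊤ := by
          rw [hen n, lint_en_eq (htt n).q.fin]
          refine ENNReal.add_lt_top.2 ⟨ENNReal.mul_lt_top (by norm_num)
            (lt_of_lt_of_le hn (le_of_lt ENNReal.one_lt_top)), ENNReal.mul_lt_top (by norm_num)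
            ENNReal.ofReal_lt_top⟩
  -- bounds
  have hbdd : ∃ M, ∀ z, |ψ z| ≤ M := by
    obtain ⟨c', hc'⟩ := hinf
    have h1 : ∀ᶠ z in cocompact ℂ, ‖F z - z‖ ≤ ‖c'‖ + 1 := by
      have := hc'.norm.eventually (gt_mem_nhds (show ‖c'‖ < ‖c'‖ + 1 by linarith))
      exact this.mono fun z hz => le_of_lt hz
    obtain ⟨R2, hR2⟩ : ∃ R2 : ℝ, ∀ z : ℂ, R2 < ‖z‖ → ‖F z - z‖ ≤ ‖c'‖ + 1 := by
      rw [← Metric.cobounded_eq_cocompact] at h1
      obtain ⟨R2, -, h2⟩ := (Metric.hasBasis_cobounded_compl_closedBall (0:ℂ)).eventually_iff.1 h1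
      exact ⟨R2, fun z hz => h2 (fun h' => absurd (mem_closedBall_zero_iff.1 h') (not_le.2 hz))⟩
    set R3 : ℝ := max R2 R with hR3
    obtain ⟨N1, M1, hM1⟩ := hC.bdd hU hFv (Complex.continuous_re.comp_continuousOn hF.continuousOn)
      (by rw [compl_compl]; exact hYc.isBounded) R3
    obtain ⟨M2, hM2⟩ := (isCompact_closedBall (0:ℂ) R3).exists_bound_of_continuousOn
      hx.sm.continuous.continuousOn
    refine ⟨max 0 (max (‖c'‖ + 1) (M1 + M2)), fun z => ?_⟩
    by_cases hz : z ∈ Y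
    · simp only [hψdef, if_pos hz, abs_zero]
      exact le_max_left _ _
    · rw [hψU z hz]
      by_cases hzR : R3 < ‖z‖
      · rw [hx0far z ((le_max_right _ _).trans_lt hzR)]
        have h3 := hR2 z ((le_max_left _ _).trans_lt hzR)
        have h4 : |(F z).re - z.re| ≤ ‖F z - z‖ := by
          rw [← Complex.sub_re]
          exact Complex.abs_re_le_norm _
        exact (h4.trans h3).trans ((le_max_left _ _).trans (le_max_right _ _))
      · rw [not_lt] at hzR
        have hzb : z ∈ closedBall (0:ℂ) R3 := mem_closedBall_zero_iff.2 hzR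
        have h3 : |(F z).re| ≤ M1 := by
          have h4 := (hFv.tendsto_at (show z ∈ Yᶜ from hz)).abs
          refine le_of_tendsto h4 ?_
          filter_upwards [eventually_ge_atTop N1] with n hn
          exact hM1 n hn z ⟨hzb, hz⟩
        have h4 := hM2 z hzb
        rw [Real.norm_eq_abs] at h4
        have h5 : |(F z).re - x0 z| ≤ M1 + M2 := (abs_sub _ _).trans (add_le_add h3 h4)
        exact h5.trans ((le_max_right _ _).trans (le_max_right _ _))
  refine ⟨F, ψ, c, hF, ?_, hinf, ⟨hbdd, hψl, hψfin⟩, hconv, ?_⟩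
  · intro z hz
    rw [hψU z hz]
    ring
  · have h1 : ∀ n, ∫ z in Yᶜ, en (fun w => (u n w + c n) - ψ w) z =
        (∫⁻ z in Yᶜ, ENNReal.ofReal (en (fun z => v n z - (F z).re) z)).toReal := by
      intro n
      rw [int_en_eq, hen]
    simp only [h1]
    have h2 := (ENNReal.tendsto_toReal (ENNReal.zero_ne_top)).comp hFe
    rw [ENNReal.toReal_zero] at h2
    exact h2

/-- **the node CONV** -/
theorem convp : SkA_8.CONVP := fun _ _ hY hx _ _ _ hS hEL =>
  conv_gen hY hx hS.tt hS.swd hS.cauchy hEL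

end Crest.Agent.R105.Cnv_755
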