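import Crest.Agent.R105.Nip7_31
import Crest.Agent.R105.SkA1_8

/-!
# Row 105, S0138 (T-frame), module NI of helper459, part (P2), file 8 (helper31): **LINP**

* `ni_iff_acv` : `NI Y a f ↔ ∀ᵐ t, ACV Y (Lv Y (x0 + a) t) f` for `a, f ∈ TT`, `x0 + a` switched;
* `linp : SkA_8.LINP`.
-/

set_option autoImplicit false

open Set Filter Topology MeasureTheory Metric
open scoped ENNReal NNReal

namespace Crest.Agent.R105.Nip_31

open Bd_775 Tc_808 Ni_459 Crest.AnalysisR Sl_732 IfB_641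

variable {Y : Set ℂ} {A f a b x0 : ℂ → ℝ} {R t : ℝ}

/-! ### `x0` does not matter on `Y` -/

lemma up_congr {u v : ℂ → ℝ} {O : Set ℂ} {z : ℂ} (hO : Nb Y z O)
    (h : ∀ w ∈ O, w ∉ Y → u w = v w) : up Y u z = up Y v z := by
  have key : ∀ u v : ℂ → ℝ, (∀ w ∈ O, w ∉ Y → u w = v w) →
      ∀ c, (∃ P, Nb Y z P ∧ ∀ w ∈ P, w ∉ Y → u w ≤ c) → ∃ P, Nb Y z P ∧ ∀ w ∈ P, w ∉ Y → v w ≤ c := by
    rintro u v h c ⟨P, hP, hu⟩
    exact ⟨P ∩ O, hP.inter hO, fun w hw hwY => (h w hw.2 hwY) ▸ hu w hw.1 hwY⟩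
  unfold up
  congr 1
  ext c
  exact ⟨key u v h c, key v u (fun w hw hwY => (h w hw hwY).symm) c⟩

lemma lo_congr {u v : ℂ → ℝ} {O : Set ℂ} {z : ℂ} (hO : Nb Y z O)
    (h : ∀ w ∈ O, w ∉ Y → u w = v w) : lo Y u z = lo Y v z := by
  unfold lo
  rw [up_congr hO fun w hw hwY => by rw [h w hw hwY]]

lemma nb_x0 (hx : X0 Y x0) {z : ℂ} (hz : z ∈ Y) : Nb Y z (tsupport x0)ᶜ :=
  nb_of_mem hz (isClosed_tsupport x0).isOpen_compl fun _ hw hwx =>
    hx.zero hwx (connectedComponentIn_subset _ _ hw)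

lemma x0_off {w : ℂ} (hw : w ∈ (tsupport x0)ᶜ) : x0 w = 0 := image_eq_zero_of_notMem_tsupport hw

lemma up_x0 (hx : X0 Y x0) {z : ℂ} (hz : z ∈ Y) : up Y (fun w => x0 w + a w) z = up Y a z :=
  up_congr (nb_x0 hx hz) fun w hw _ => by rw [x0_off hw, zero_add]

lemma lo_x0 (hx : X0 Y x0) {z : ℂ} (hz : z ∈ Y) : lo Y (fun w => x0 w + a w) z = lo Y a z :=
  lo_congr (nb_x0 hx hz) fun w hw _ => by rw [x0_off hw, zero_add]

lemma ni_x0 (hx : X0 Y x0) : NI Y (fun w => x0 w + a w) f ↔ NI Y a f := by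
  have : NP Y (fun w => x0 w + a w) f = NP Y a f := by
    ext p
    constructor <;> rintro ⟨z, hz, h1, h2, h3⟩
    · exact ⟨z, hz, by rwa [lo_x0 hx hz] at h1, by rwa [up_x0 hx hz] at h2, h3⟩
    · exact ⟨z, hz, by rwa [lo_x0 hx hz], by rwa [up_x0 hx hz], h3⟩
  unfold NI
  rw [this]

/-! ### the class `TT` -/

lemma cc_pt (K : Cmp Y) : connectedComponentIn Y (pt K) = K.1 :=
  (congrArg Subtype.val (K.eq_of_mem (pt_mem K))).symm

lemma osp_eq (hY : IsExteriorDomain Yᶜ) (ha : TT Y a) (K : Cmp Y) :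
    osp Y a (pt K) = osc Y a K.1 := by
  have := osc_eq hY ha.q.bdd (K.subset (pt_mem K))
  rw [cc_pt] at this
  exact this.symm

lemma tt_lb (ha : TT Y a) : LB a := LB.of_bdd ha.q.bdd

lemma tt_sum (hY : IsExteriorDomain Yᶜ) (ha : TT Y a) (hb : TT Y b) :
    ∑' K : Cmp Y, ENNReal.ofReal (osp Y a (pt K)) * ENNReal.ofReal (osp Y b (pt K)) ≠ ∞ := by
  have h1 : ∀ K : Cmp Y, ENNReal.ofReal (osp Y a (pt K)) * ENNReal.ofReal (osp Y b (pt K)) ≤
      ENNReal.ofReal (osc Y a K.1 ^ 2 + osc Y b K.1 ^ 2) := by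
    intro K
    rw [osp_eq hY ha, osp_eq hY hb, ← ENNReal.ofReal_mul (osc_nonneg _ _ _)]
    refine ENNReal.ofReal_le_ofReal ?_
    nlinarith [sq_nonneg (osc Y a K.1 - osc Y b K.1), sq_nonneg (osc Y a K.1),
      sq_nonneg (osc Y b K.1)]
  exact ne_top_of_le_ne_top (ha.sum.add hb.sum).tsum_ofReal_ne_top (ENNReal.tsum_le_tsum h1)

lemma jj_countable (hY : IsExteriorDomain Yᶜ) (ha : TT Y a) : (JJ Y a).Countable := by
  refine ha.countable.mono fun K hK => ?_
  show osc Y a K.1 ≠ 0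
  rw [← osp_eq hY ha, osp]
  exact fun h => hK (by linarith)

lemma jj_x0 (hx : X0 Y x0) : JJ Y (fun w => x0 w + a w) = JJ Y a := by
  ext K
  have hz := K.subset (pt_mem K)
  simp only [JJ, mem_ofPred_eq, lo_x0 hx hz, up_x0 hx hz]

lemma osp_x0 (hx : X0 Y x0) (K : Cmp Y) : osp Y (fun w => x0 w + a w) (pt K) = osp Y a (pt K) := by
  have hz := K.subset (pt_mem K)
  unfold osp
  rw [lo_x0 hx hz, up_x0 hx hz]

lemma ll_x0 (hx : X0 Y x0) (ha : TT Y a) : LocallyLipschitzOn Yᶜ (fun w => x0 w + a w) := by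
  intro z hz
  obtain ⟨K, t, ht, h⟩ := ha.q.loc hz
  obtain ⟨K', t', ht', h'⟩ := (hx.sm.of_le (by exact_mod_cast le_top) : ContDiff ℝ 1 x0).locallyLipschitz z
  refine ⟨K' + K, t' ∩ t, inter_mem (mem_nhdsWithin_of_mem_nhds ht') ht, ?_⟩
  exact (h'.mono inter_subset_left).add (h.mono inter_subset_right)

lemma lb_x0 (hx : X0 Y x0) (ha : TT Y a) : LB (fun w => x0 w + a w) :=
  (LB.of_cont hx.sm.continuous).add (tt_lb ha)

lemma en_x0_fin (hY : IsExteriorDomain Yᶜ) (hx : X0 Y x0) (ha : TT Y a) (R : ℝ) :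
    ∫⁻ z in ball 0 R \ Y, ENNReal.ofReal (en (fun w => x0 w + a w) z) ≠ ∞ := by
  have hYc : IsClosed Y := (cpt_of hY).isClosed
  have hd := ha.q.ae_diff hYc
  have hdx : Differentiable ℝ x0 := hx.sm.differentiable (by simp)
  -- bound for `en x0` on the ball
  have hc : Continuous fun z => ‖fderiv ℝ x0 z‖ ^ 2 :=
    ((hx.sm.continuous_fderiv (by simp)).norm).pow 2
  obtain ⟨M, hM⟩ := (isCompact_closedBall (0 : ℂ) R).exists_bound_of_continuousOn hc.continuousOn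
  have h1 : ∀ᵐ z ∂(volume.restrict (ball (0 : ℂ) R \ Y)),
      ENNReal.ofReal (en (fun w => x0 w + a w) z) ≤ ENNReal.ofReal (2 * M) +
        ENNReal.ofReal (2 * en a z) := by
    have hd' : ∀ᵐ z ∂(volume.restrict (ball (0 : ℂ) R \ Y)), DifferentiableAt ℝ a z :=
      ae_restrict_of_ae_restrict_of_subset (fun z hz => hz.2) hd
    filter_upwards [hd', ae_restrict_mem (isOpen_ball.sdiff hYc).measurableSet] with z hz hzb
    have h2 := en_add_le (hdx z) hz
    have h3 : en x0 z ≤ M := by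
      rw [en_eq]
      exact (le_abs_self _).trans (hM z (ball_subset_closedBall hzb.1))
    have hM0 : 0 ≤ M := (en_nonneg x0 z).trans h3
    rw [← ENNReal.ofReal_add (by linarith) (by linarith [en_nonneg a z])]
    exact ENNReal.ofReal_le_ofReal (by linarith)
  refine ne_top_of_le_ne_top ?_ (lintegral_mono_ae h1)
  rw [lintegral_add_left measurable_const]
  refine ENNReal.add_ne_top.2 ⟨?_, ?_⟩
  · rw [lintegral_const, Measure.restrict_apply_univ]
    exact ENNReal.mul_ne_top ENNReal.ofReal_ne_top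
      ((measure_mono sdiff_subset).trans_lt measure_ball_lt_top).ne
  · have h4 : IntegrableOn (fun z => 2 * en a z) (ball (0 : ℂ) R \ Y) :=
      Integrable.const_mul (ha.q.fin.mono_set fun z hz => hz.2) 2
    exact h4.lintegral_lt_top.ne

lemma wdg_x0_fin (hY : IsExteriorDomain Yᶜ) (hx : X0 Y x0) (ha : TT Y a) (hf : TT Y f) (R : ℝ) :
    ∫⁻ z in ball 0 R \ Y, ENNReal.ofReal |wdg (fun w => x0 w + a w) f z| ≠ ∞ := by
  have h1 : ∫⁻ z in ball 0 R \ Y, ENNReal.ofReal |wdg (fun w => x0 w + a w) f z| ≤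
      ∫⁻ z in ball 0 R \ Y, (ENNReal.ofReal (en (fun w => x0 w + a w) z) +
        ENNReal.ofReal (en f z)) := by
    refine lintegral_mono fun z => ?_
    rw [← ENNReal.ofReal_add (en_nonneg _ _) (en_nonneg _ _)]
    refine ENNReal.ofReal_le_ofReal ((abs_wdg_le _ f z).trans ?_)
    have := en_nonneg f z
    have := en_nonneg (fun w => x0 w + a w) z
    linarith
  refine ne_top_of_le_ne_top ?_ h1
  rw [lintegral_add_left (measurable_en _).ennreal_ofReal]
  refine ENNReal.add_ne_top.2 ⟨en_x0_fin hY hx ha R, ?_⟩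
  have h4 : IntegrableOn (en f) (ball (0 : ℂ) R \ Y) := hf.q.fin.mono_set fun z hz => hz.2
  exact h4.lintegral_lt_top.ne

/-- radius -/
lemma exists_R (hY : IsExteriorDomain Yᶜ) (hx : X0 Y x0) (hc : HasCompactSupport a) :
    ∃ R, Y ⊆ ball 0 R ∧ ∀ z : ℂ, R ≤ ‖z‖ → x0 z + a z = z.re := by
  obtain ⟨R₁, h1⟩ := (cpt_of hY).isBounded.exists_norm_le
  obtain ⟨R₂, h2⟩ := hx.far
  obtain ⟨R₃, h3⟩ := (IsCompact.isBounded hc).exists_norm_le
  refine ⟨max (R₁ + 1) (max R₂ (R₃ + 1)), fun z hz => ?_, fun z hz => ?_⟩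
  · rw [mem_ball_zero_iff]
    have := h1 z hz
    have := le_max_left (R₁ + 1) (max R₂ (R₃ + 1))
    linarith
  · have h4 : R₂ ≤ ‖z‖ := ((le_max_left _ _).trans (le_max_right _ _)).trans hz
    have h5 : R₃ + 1 ≤ ‖z‖ := ((le_max_right _ _).trans (le_max_right _ _)).trans hz
    have h6 : a z = 0 := by
      apply image_eq_zero_of_notMem_tsupport
      intro h
      have := h3 z h
      linarith
    rw [h6, add_zero, h2 z h4]

lemma dj_eq (u : ℂ → ℝ) (K : Cmp Y) : dj Y u K = osp Y u (Nip_31.pt K) := by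
  have h : Sl_732.pt K ∈ K.1 := by
    have h1 := mem_connectedComponentIn (Sl_732.pt_mem K)
    have h2 := Sl_732.pt_eq K
    rw [h2]; exact h1
  unfold dj osp
  rw [Nip_31.up_pt u K h, Nip_31.lo_pt u K h]

/-- **`NI` is `ACV` on a.e. level.** -/
theorem ni_iff_acv (hY : IsExteriorDomain Yᶜ) (hx : X0 Y x0) (ha : TT Y a)
    (hc : HasCompactSupport a) (hs : Swd Y (fun z => x0 z + a z)) (hf : TT Y f) :
    NI Y a f ↔ ∀ᵐ t, ACV Y (Lv Y (fun z => x0 z + a z) t) f := by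
  obtain ⟨R, hR, hfar⟩ := exists_R hY hx hc
  have hA := ll_x0 hx ha
  have hAb := lb_x0 hx ha
  have hyc : ∀ K : Cmp Y, osp Y (fun w => x0 w + a w) (pt K) = osp Y a (pt K) := osp_x0 hx
  constructor
  · intro hni
    have hni' : NI Y (fun z => x0 z + a z) f := (ni_x0 hx).2 hni
    refine ni_acv hY hR hA hAb hf.q.loc (tt_lb hf) hni' (𝒥 := JJ Y a ∪ JJ Y f)
      ((jj_countable hY ha).union (jj_countable hY hf)) ?_ subset_union_right
      (wdg_x0_fin hY hx ha hf R) ?_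
    · rw [jj_x0 hx]; exact subset_union_left
    · have h1 := tt_sum hY hf ha
      refine ne_top_of_le_ne_top h1 ?_
      simp_rw [hyc]
      exact ENNReal.tsum_comp_le_tsum_of_injective Subtype.val_injective
        (fun K : Cmp Y => ENNReal.ofReal (osp Y f (pt K)) * ENNReal.ofReal (osp Y a (pt K)))
  · intro hacv
    rw [← ni_x0 hx]
    refine ni_of_acv hY hAb (tt_lb hf) (fun z hz => contAt hY hf.q.loc hz) ?_ ?_ ?_ hacv
    · refine (jj_countable hY hf).mono fun K hK => ?_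
      have h1 : osp Y f (Nip_31.pt K) ≠ 0 := by rw [← dj_eq]; exact hK
      exact fun h => h1 (by unfold osp; linarith)
    · simp_rw [dj_eq, hyc]
      exact tt_sum hY ha hf
    · filter_upwards [pos_ae hY hA hAb (en_x0_fin hY hx ha)] with t ht
      obtain ⟨μ, hμ, hμC⟩ := ht
      exact ⟨lv_preconn hY hA hAb hR hfar hs t, lv_nonempty hY hA hAb hR hfar t, μ,
        inferInstance, hμC⟩

/-- **LINP** -/
theorem linp : SkA_8.LINP := by
  intro Y x0 hY hx a ha hc hs b b' hb hb' hn hn' s t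
  have hYc : IsClosed Y := (cpt_of hY).isClosed
  have hT : TT Y (fun z => s * b z + t * b' z) :=
    ((TT.const s).mul hYc hb).add hYc ((TT.const t).mul hYc hb')
  rw [ni_iff_acv hY hx ha hc hs hT]
  filter_upwards [(ni_iff_acv hY hx ha hc hs hb).1 hn, (ni_iff_acv hY hx ha hc hs hb').1 hn']
    with r h1 h2
  exact (h1.const_mul s).add (h2.const_mul t)

end Crest.Agent.R105.Nip_31
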