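import Crest.Agent.R105.Sw4_209
import Crest.Agent.R105.SkA1_8

/-!
# Row 105, S0138: exact switching, part 5: the leaf `SWITCHP` of helper8's `SkA1_8` (helper209)
-/

set_option autoImplicit false

open Set Filter Topology Metric MeasureTheory

namespace Crest.Agent.R105.Sw_209

open Ni_459 Crest.AnalysisR Bd_775 Tc_808 Grd_782

/-- **the switching leaf** -/
theorem switchp : SkA_8.SWITCHP := by
  intro Y x0 hY hx φ hφ hc
  refine ⟨swf Y x0 φ, swf_tt hY hx hφ hc, swf_compact hY hx hφ.q hc, swd_swf hY hx hφ.q, ?_,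
    fun a _ _ _ h => ni_swf hY hx hφ h⟩
  unfold TJ
  exact add_le_add (J_swf_le hY hx hφ.q hc) (sum_osc_swf_le hY hx hφ hc)

/-- a switched starting function -/
theorem exists_start {Y : Set ℂ} {x0 : ℂ → ℝ} (hY : IsExteriorDomain Yᶜ) (hx : IfB_641.X0 Y x0) :
    ∃ φ, TT Y φ ∧ HasCompactSupport φ ∧ Swd Y (fun z => x0 z + φ z) := by
  have h0 : TT Y (fun _ => (0 : ℝ)) := TT.const 0
  have hc0 : HasCompactSupport (fun _ : ℂ => (0 : ℝ)) := HasCompactSupport.zero
  obtain ⟨ψ, h1, h2, h3, -⟩ := switchp Y x0 hY hx _ h0 hc0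
  exact ⟨ψ, h1, h2, h3⟩

end Crest.Agent.R105.Sw_209
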