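import Crest.Agent.R105.Sl1_732

/-!
# Row 105, S0138 (T-frame, null image isotropy), SLICES, part 2 (helper732): the variation form
(helper439 #10185).

`VarLe E L W b η` : the variation of `b` over disjoint saturated continua of `L ∩ W`, seen from the
complement of `E`, is at most `η`.  `ACV E L b` : off countably many components of `E` the variation
of `b` along `L` is small near `E`.

* `null_of_var`, `ACV.null` : then the honest values of `b` on `L ∩ E` form a null set;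
* `VarLe.comb`, `ACV.comb` : Lipschitz functions of two such functions;
* `VarLe.of_tendsto` : closed under pointwise limits on `Eᶜ`.
-/

set_option autoImplicit false

open MeasureTheory Set Filter Topology Metric
open scoped NNReal ENNReal

namespace Crest.Agent.R105.Sl_732

open Thin_12

/-- an admissible piece: a saturated continuum in `A` with two marked points off `E` -/
structure Piece (E A C : Set ℂ) (p q : ℂ) : Prop where
  cpt : IsCompact C
  conn : IsPreconnected C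
  sat : Sat E C
  sub : C ⊆ A
  hp : p ∈ C \ E
  hq : q ∈ C \ E

/-- the variation of `b` over finitely many disjoint saturated continua of `L ∩ W` is `≤ η` -/
def VarLe (E L W : Set ℂ) (b : ℂ → ℝ) (η : ℝ) : Prop :=
  ∀ (F : Finset (Set ℂ)) (p q : Set ℂ → ℂ), (∀ C ∈ F, Piece E (L ∩ W) C (p C) (q C)) →
    (F : Set (Set ℂ)).PairwiseDisjoint id → ∑ C ∈ F, |b (p C) - b (q C)| ≤ η

/-- small variation near `E` off countably many components -/
def ACV (E L : Set ℂ) (b : ℂ → ℝ) : Prop :=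
  ∃ S : Set (Set ℂ), S.Countable ∧ (∀ K ∈ S, ∃ z ∈ E, K = connectedComponentIn E z) ∧
    ∀ η > 0, ∃ W, IsOpen W ∧ (L ∩ E) \ ⋃₀ S ⊆ W ∧ VarLe E L W b η

variable {E L W W' : Set ℂ} {b b' c : ℂ → ℝ} {η η' : ℝ}

theorem VarLe.nonneg (h : VarLe E L W b η) : 0 ≤ η := by
  simpa using h ∅ (fun _ => 0) (fun _ => 0) (by simp) (by simp)

theorem VarLe.mono (h : VarLe E L W b η) (hW : W' ⊆ W) (hη : η ≤ η') : VarLe E L W' b η' :=
  fun F p q hF hd => (h F p q (fun C hC => ⟨(hF C hC).cpt, (hF C hC).conn, (hF C hC).sat,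
    (hF C hC).sub.trans (inter_subset_inter_right _ hW), (hF C hC).hp, (hF C hC).hq⟩) hd).trans hη

theorem VarLe.one (h : VarLe E L W b η) {C : Set ℂ} {p q : ℂ} (hC : Piece E (L ∩ W) C p q) :
    |b p - b q| ≤ η := by
  simpa using h {C} (fun _ => p) (fun _ => q) (by simpa using hC) (by simp)

theorem VarLe.congr (h : VarLe E L W b η) (hb : ∀ z ∈ (L ∩ W) \ E, b' z = b z) :
    VarLe E L W b' η := by
  intro F p q hF hd
  refine le_of_eq_of_le (Finset.sum_congr rfl fun C hC => ?_) (h F p q hF hd)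
  rw [hb _ ⟨(hF C hC).sub (hF C hC).hp.1, (hF C hC).hp.2⟩,
    hb _ ⟨(hF C hC).sub (hF C hC).hq.1, (hF C hC).hq.2⟩]

/-- Lipschitz combinations -/
theorem VarLe.comb {M M' : ℝ} (hM : 0 ≤ M) (hM' : 0 ≤ M') (h : VarLe E L W b η)
    (h' : VarLe E L W b' η')
    (hc : ∀ z ∈ L \ E, ∀ w ∈ L \ E, |c z - c w| ≤ M * |b z - b w| + M' * |b' z - b' w|) :
    VarLe E L W c (M * η + M' * η') := by
  intro F p q hF hd
  calc ∑ C ∈ F, |c (p C) - c (q C)|
      ≤ ∑ C ∈ F, (M * |b (p C) - b (q C)| + M' * |b' (p C) - b' (q C)|) :=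
        Finset.sum_le_sum fun C hC => hc _ ⟨((hF C hC).sub (hF C hC).hp.1).1, (hF C hC).hp.2⟩ _
          ⟨((hF C hC).sub (hF C hC).hq.1).1, (hF C hC).hq.2⟩
    _ = M * ∑ C ∈ F, |b (p C) - b (q C)| + M' * ∑ C ∈ F, |b' (p C) - b' (q C)| := by
        rw [Finset.sum_add_distrib, Finset.mul_sum, Finset.mul_sum]
    _ ≤ M * η + M' * η' :=
        add_le_add (mul_le_mul_of_nonneg_left (h F p q hF hd) hM)
          (mul_le_mul_of_nonneg_left (h' F p q hF hd) hM')

/-- closed under pointwise limits off `E` -/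
theorem VarLe.of_tendsto {B : ℕ → ℂ → ℝ} (hB : ∀ z ∈ (L ∩ W) \ E, Tendsto (fun n => B n z) atTop (𝓝 (b z)))
    (h : ∀ ε > 0, ∃ᶠ n in atTop, VarLe E L W (B n) (η + ε)) : VarLe E L W b η := by
  intro F p q hF hd
  have h1 : Tendsto (fun n => ∑ C ∈ F, |B n (p C) - B n (q C)|) atTop
      (𝓝 (∑ C ∈ F, |b (p C) - b (q C)|)) := by
    refine tendsto_finsetSum _ fun C hC => ?_
    have h2 := hB _ ⟨(hF C hC).sub (hF C hC).hp.1, (hF C hC).hp.2⟩
    have h3 := hB _ ⟨(hF C hC).sub (hF C hC).hq.1, (hF C hC).hq.2⟩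
    exact (h2.sub h3).abs
  refine le_of_forall_pos_le_add fun ε hε => ?_
  exact le_of_tendsto_of_frequently h1 ((h ε hε).mono fun n hn => hn F p q hF hd)

/-- the class of `b` on one continuum -/
theorem osc_class (hE : IsCompact E) {C : Set ℂ} (hC : IsCompact C) (hCp : IsPreconnected C)
    (hU : (C \ E).Nonempty) {G : Set ℂ} (hG : G ⊆ E)
    (hb : ∀ z ∈ G, ∀ δ > 0, ∃ O, IsOpen O ∧ connectedComponentIn E z ⊆ O ∧
      ∀ w ∈ O \ E, |b w - b z| < δ) {η : ℝ}
    (H : ∀ p ∈ C \ E, ∀ q ∈ C \ E, |b p - b q| ≤ η) {ε : ℝ} (hε : 0 < ε) :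
    ∃ p ∈ C \ E, ∃ q ∈ C \ E, volume (b '' (C ∩ G)) ≤ ENNReal.ofReal (|b p - b q| + ε) := by
  have hne : Set.Nonempty ((fun z : ℂ × ℂ => |b z.1 - b z.2|) '' ((C \ E) ×ˢ (C \ E))) :=
    (hU.prod hU).image _
  have hbd : BddAbove ((fun z : ℂ × ℂ => |b z.1 - b z.2|) '' ((C \ E) ×ˢ (C \ E))) := by
    refine ⟨η, ?_⟩
    rintro _ ⟨⟨z, w⟩, ⟨hz, hw⟩, rfl⟩
    exact H z hz w hw
  obtain ⟨_, ⟨⟨p, q⟩, ⟨hp, hq⟩, rfl⟩, hlt⟩ := exists_lt_of_lt_csSup hne
    (show sSup ((fun z : ℂ × ℂ => |b z.1 - b z.2|) '' ((C \ E) ×ˢ (C \ E))) - ε <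
      sSup ((fun z : ℂ × ℂ => |b z.1 - b z.2|) '' ((C \ E) ×ˢ (C \ E))) by linarith)
  refine ⟨p, hp, q, hq, class_le hE hC hCp hU hG hb fun z hz w hw => ?_⟩
  have h1 : |b z - b w| ≤ sSup ((fun z : ℂ × ℂ => |b z.1 - b z.2|) '' ((C \ E) ×ˢ (C \ E))) :=
    le_csSup hbd ⟨(z, w), ⟨hz, hw⟩, rfl⟩
  simp only at hlt
  linarith

/-- **SLICES, variation form.** -/
theorem null_of_var (hE : IsCompact E) (hL : IsClosed L) (hLc : IsPreconnected L)
    (sat : Sat E L) (hU : (L \ E).Nonempty) (μ : Measure ℂ) [SigmaFinite μ]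
    (pos : ∀ C ⊆ L \ E, IsCompact C → IsPreconnected C → C.Nontrivial → μ C ≠ 0)
    {G : Set ℂ} (hGL : G ⊆ L ∩ E) (hGs : Sat E G)
    (hb : ∀ z ∈ G, ∀ δ > 0, ∃ O, IsOpen O ∧ connectedComponentIn E z ⊆ O ∧
      ∀ w ∈ O \ E, |b w - b z| < δ)
    (hvar : ∀ η > 0, ∃ W, IsOpen W ∧ G ⊆ W ∧ VarLe E L W b η) :
    volume (b '' G) = 0 := by
  classical
  have hGE : G ⊆ E := fun z hz => (hGL hz).2
  refine le_antisymm (ENNReal.le_of_forall_pos_le_add fun η hη _ => ?_) zero_le
  rw [zero_add]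
  obtain ⟨W, hWo, hGW, hWv⟩ := hvar η (by exact_mod_cast hη)
  have hN : ∀ z ∈ G, ∃ N, IsOpen N ∧ connectedComponentIn E z ⊆ N ∧ closure N ⊆ W ∧
      IsCompact (closure N) ∧ Disjoint (frontier N) E := fun z hz =>
    thin_nhd hE (hGE hz) hWo ((hGs z hz (hGE hz)).trans hGW)
  choose! N hNo hzN hNW hNc hNf using hN
  have hzN' : ∀ z ∈ G, z ∈ N z := fun z hz => hzN z hz (mem_connectedComponentIn (hGE hz))
  obtain ⟨T, hTG, hTc, hTcov⟩ := TopologicalSpace.countable_cover_nhdsWithin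
    (s := G) (f := N) (fun z hz => mem_nhdsWithin_of_mem_nhds ((hNo z hz).mem_nhds (hzN' z hz)))
  rcases T.eq_empty_or_nonempty with hTe | hTne
  · have hGe : G = ∅ := by
      rw [hTe] at hTcov
      simpa using hTcov
    rw [hGe]; simp
  obtain ⟨e, he⟩ := hTc.exists_eq_range hTne
  have heG : ∀ n, e n ∈ G := fun n => hTG (by rw [he]; exact mem_range_self n)
  set O : ℕ → Set ℂ := fun k => ⋃ n ∈ Finset.range k, N (e n) with hO
  set V : ℕ → Set ℂ := fun k => ⋃ n ∈ Finset.range k, closure (N (e n)) with hV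
  have hOV : ∀ k, O k ⊆ interior (V k) := by
    intro k
    refine interior_maximal ?_ (isOpen_biUnion fun n _ => hNo _ (heG n))
    exact iUnion₂_mono fun n _ => subset_closure
  have hVc : ∀ k, IsCompact (V k) := fun k =>
    (Finset.range k).isCompact_biUnion fun n _ => hNc _ (heG n)
  have hVW : ∀ k, V k ⊆ W := fun k => iUnion₂_subset fun n _ => hNW _ (heG n)
  have hVf : ∀ k, Disjoint (frontier (V k)) E := by
    intro k
    rw [disjoint_left]
    intro z hz hzE
    rw [(hVc k).isClosed.frontier_eq] at hz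
    obtain ⟨n, hn, hzn⟩ := mem_iUnion₂.1 hz.1
    have h1 : z ∉ N (e n) := fun h => hz.2 (hOV k (mem_iUnion₂.2 ⟨n, hn, h⟩))
    have h2 : z ∈ frontier (N (e n)) := by
      rw [(hNo _ (heG n)).frontier_eq]; exact ⟨hzn, h1⟩
    exact disjoint_left.1 (hNf _ (heG n)) h2 hzE
  have hmono : Monotone O := fun k l hkl =>
    biUnion_subset_biUnion_left (by
      intro n hn
      simp only [Finset.coe_range, Set.mem_Iio] at hn ⊢
      exact lt_of_lt_of_le hn hkl)
  have hcov : G ⊆ ⋃ k, O k := by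
    intro z hz
    obtain ⟨x, hx, hzx⟩ := mem_iUnion₂.1 (hTcov hz)
    rw [he] at hx
    obtain ⟨n, rfl⟩ := hx
    exact mem_iUnion.2 ⟨n + 1, mem_iUnion₂.2 ⟨n, by simp, hzx⟩⟩
  -- one stage
  have stage : ∀ k, volume (b '' (G ∩ O k)) ≤ η := by
    intro k
    set K : Set ℂ := L ∩ V k with hK
    have hKc : IsCompact K := (hVc k).inter_left hL
    -- the classes
    set ι : Type := {C : Set ℂ // ∃ z ∈ G ∩ O k, C = connectedComponentIn K z} with hι
    have hmem : ∀ z ∈ G ∩ O k, z ∈ K := fun z hz =>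
      ⟨(hGL hz.1).1, interior_subset (hOV k hz.2)⟩
    have hCc : ∀ C : ι, IsCompact C.1 := by
      rintro ⟨C, z, hz, rfl⟩
      exact isCompact_cc hKc z
    have hCp : ∀ C : ι, IsPreconnected C.1 := by
      rintro ⟨C, z, hz, rfl⟩
      exact isPreconnected_connectedComponentIn
    have hCL : ∀ C : ι, C.1 ⊆ L := by
      rintro ⟨C, z, hz, rfl⟩
      exact (connectedComponentIn_subset _ _).trans inter_subset_left
    have hCV : ∀ C : ι, C.1 ⊆ V k := by
      rintro ⟨C, z, hz, rfl⟩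
      exact (connectedComponentIn_subset _ _).trans inter_subset_right
    have hCU : ∀ C : ι, (C.1 \ E).Nonempty := by
      rintro ⟨C, z, hz, rfl⟩
      by_cases h : L ⊆ interior (V k)
      · have hKL : K = L := inter_eq_left.2 (h.trans interior_subset)
        obtain ⟨p, hp⟩ := hU
        refine ⟨p, ?_, hp.2⟩
        rw [hKL]
        exact hLc.subset_connectedComponentIn (hGL hz.1).1 subset_rfl hp.1
      · obtain ⟨p, hp1, hp2⟩ := bump' hL hLc (hVc k).isClosed hKc (hGL hz.1).1 (hmem z hz).2 h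
        exact ⟨p, hp1, disjoint_left.1 (hVf k) hp2⟩
    have hCs : ∀ C : ι, Sat E C.1 := by
      rintro ⟨C, z, hz, rfl⟩ w hw hwE
      have hwK : w ∈ K := connectedComponentIn_subset _ _ hw
      have h1 : connectedComponentIn E w ⊆ K := fun x hx =>
        ⟨sat w hwK.1 hwE hx, interior_subset (cc_subset_interior (hVf k) hwE hwK.2 hx)⟩
      change connectedComponentIn E w ⊆ connectedComponentIn K z
      rw [connectedComponentIn_eq (show w ∈ connectedComponentIn K z from hw)]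
      exact isPreconnected_connectedComponentIn.subset_connectedComponentIn
        (mem_connectedComponentIn hwE) h1
    have hCd : Pairwise (Function.onFun Disjoint fun C : ι => C.1) := by
      rintro ⟨C, z, hz, rfl⟩ ⟨D, w, hw, rfl⟩ hne
      rw [Function.onFun, disjoint_left]
      intro x hx1 hx2
      apply hne
      apply Subtype.ext
      change connectedComponentIn K z = connectedComponentIn K w
      rw [connectedComponentIn_eq hx1, connectedComponentIn_eq hx2]
    -- countably many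
    have hcount : Countable ι := by
      have h1 := Measure.countable_meas_pos_of_disjoint_iUnion (μ := μ)
        (As := fun C : ι => C.1 \ E)
        (fun C => (hCc C).isClosed.measurableSet.diff hE.isClosed.measurableSet)
        (fun C D hCD => (hCd hCD).mono sdiff_subset sdiff_subset)
      have h2 : {C : ι | 0 < μ (C.1 \ E)} = univ := by
        refine eq_univ_of_forall fun C => ?_
        obtain ⟨z, hz, hC⟩ := C.2
        obtain ⟨C', hC', h3, h4, h5⟩ := exists_sub hE (hCc C) (hCp C) (hCU C) (z := z)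
          (by rw [hC]; exact mem_connectedComponentIn (hmem z hz)) (hGE hz.1)
        have h6 := pos C' (hC'.trans (sdiff_subset_sdiff_left (hCL C))) h3 h4 h5
        exact (pos_iff_ne_zero.2 h6).trans_le (measure_mono hC')
      rw [h2] at h1
      exact countable_univ_iff.1 h1
    have hsub : b '' (G ∩ O k) ⊆ ⋃ C : ι, b '' (C.1 ∩ G) := by
      rintro _ ⟨z, hz, rfl⟩
      exact mem_iUnion.2 ⟨⟨_, z, hz, rfl⟩, z,
        ⟨mem_connectedComponentIn (hmem z hz), hz.1⟩, rfl⟩
    refine (measure_mono hsub).trans ((measure_iUnion_le _).trans ?_)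
    rw [ENNReal.tsum_eq_iSup_sum]
    refine iSup_le fun F => ?_
    have hH : ∀ C : ι, ∀ p ∈ C.1 \ E, ∀ q ∈ C.1 \ E, |b p - b q| ≤ η := fun C p hp q hq =>
      hWv.one ⟨hCc C, hCp C, hCs C, subset_inter (hCL C) ((hCV C).trans (hVW k)), hp, hq⟩
    have key : ∀ ε > 0, ∑ C ∈ F, volume (b '' (C.1 ∩ G)) ≤ ENNReal.ofReal (η + F.card * ε) := by
      intro ε hε
      have h3 : ∀ C : ι, ∃ p q : ℂ, p ∈ C.1 \ E ∧ q ∈ C.1 \ E ∧
          volume (b '' (C.1 ∩ G)) ≤ ENNReal.ofReal (|b p - b q| + ε) := by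
        intro C
        obtain ⟨p, hp, q, hq, h⟩ := osc_class hE (hCc C) (hCp C) (hCU C) hGE hb (hH C) hε
        exact ⟨p, q, hp, hq, h⟩
      choose p q hp hq hpq using h3
      set P : Set ℂ → ℂ := fun C => if h : ∃ z ∈ G ∩ O k, C = connectedComponentIn K z then
        p ⟨C, h⟩ else 0 with hP
      set Q : Set ℂ → ℂ := fun C => if h : ∃ z ∈ G ∩ O k, C = connectedComponentIn K z then
        q ⟨C, h⟩ else 0 with hQ
      have hPv : ∀ C : ι, P C.1 = p C := fun C => (dif_pos C.2).trans rfl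
      have hQv : ∀ C : ι, Q C.1 = q C := fun C => (dif_pos C.2).trans rfl
      have h4 := hWv (F.map (Function.Embedding.subtype _)) P Q (by
        intro C hC
        obtain ⟨D, hD, rfl⟩ := Finset.mem_map.1 hC
        rw [Function.Embedding.subtype_apply, hPv, hQv]
        exact ⟨hCc D, hCp D, hCs D, subset_inter (hCL D) ((hCV D).trans (hVW k)), hp D, hq D⟩)
        (by
          intro C hC D hD hne
          obtain ⟨C', hC', rfl⟩ := Finset.mem_map.1 hC
          obtain ⟨D', hD', rfl⟩ := Finset.mem_map.1 hD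
          exact hCd (fun h => hne (by rw [h])))
      rw [Finset.sum_map] at h4
      simp only [Function.Embedding.subtype_apply, hPv, hQv] at h4
      calc ∑ C ∈ F, volume (b '' (C.1 ∩ G)) ≤ ∑ C ∈ F, ENNReal.ofReal (|b (p C) - b (q C)| + ε) :=
            Finset.sum_le_sum fun C _ => hpq C
        _ = ENNReal.ofReal (∑ C ∈ F, (|b (p C) - b (q C)| + ε)) :=
            (ENNReal.ofReal_sum_of_nonneg fun C _ => by positivity).symm
        _ ≤ ENNReal.ofReal (η + F.card * ε) := by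
            refine ENNReal.ofReal_le_ofReal ?_
            rw [Finset.sum_add_distrib, Finset.sum_const, nsmul_eq_mul]
            linarith
    have h5 : Tendsto (fun ε : ℝ => ENNReal.ofReal ((η : ℝ) + F.card * ε)) (𝓝[>] 0)
        (𝓝 (ENNReal.ofReal ((η : ℝ) + F.card * 0))) :=
      (ENNReal.continuous_ofReal.tendsto _).comp
        (tendsto_nhdsWithin_of_tendsto_nhds (Continuous.tendsto (by fun_prop) _))
    rw [mul_zero, add_zero, ENNReal.ofReal_coe_nnreal] at h5
    exact ge_of_tendsto h5 (eventually_nhdsWithin_of_forall fun ε hε => key ε hε)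
  have h1 : b '' G = ⋃ k, b '' (G ∩ O k) := by
    rw [← image_iUnion, ← inter_iUnion, inter_eq_left.2 hcov]
  have h2 : Monotone fun k => b '' (G ∩ O k) := fun k l hkl =>
    image_mono (inter_subset_inter_right _ (hmono hkl))
  rw [h1, h2.directed_le.measure_iUnion]
  exact iSup_le stage

/-- additivity / Lipschitz combinations of functions with small variation near `E` -/
theorem ACV.comb {M M' : ℝ} (hM : 0 ≤ M) (hM' : 0 ≤ M') (h : ACV E L b) (h' : ACV E L b')
    (hc : ∀ z ∈ L \ E, ∀ w ∈ L \ E, |c z - c w| ≤ M * |b z - b w| + M' * |b' z - b' w|) :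
    ACV E L c := by
  obtain ⟨S, hS, hSc, hv⟩ := h
  obtain ⟨S', hS', hSc', hv'⟩ := h'
  refine ⟨S ∪ S', hS.union hS', fun K hK => hK.elim (hSc K) (hSc' K), fun η hη => ?_⟩
  obtain ⟨W, hW, hsW, hWv⟩ := hv (η / (M + M' + 1)) (by positivity)
  obtain ⟨W', hW', hsW', hWv'⟩ := hv' (η / (M + M' + 1)) (by positivity)
  refine ⟨W ∩ W', hW.inter hW', fun z hz => ?_, ?_⟩
  · rw [sUnion_union] at hz
    exact ⟨hsW ⟨hz.1, fun h => hz.2 (Or.inl h)⟩, hsW' ⟨hz.1, fun h => hz.2 (Or.inr h)⟩⟩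
  · refine ((hWv.mono inter_subset_left le_rfl).comb hM hM' (hWv'.mono inter_subset_right le_rfl)
      hc).mono subset_rfl ?_
    have h1 : M * (η / (M + M' + 1)) + M' * (η / (M + M' + 1)) = (M + M') / (M + M' + 1) * η := by
      field_simp
    rw [h1]
    have h2 : (M + M') / (M + M' + 1) ≤ 1 := by
      rw [div_le_one (by positivity)]; linarith
    nlinarith

theorem ACV.congr (h : ACV E L b) (hb : ∀ z ∈ L \ E, b' z = b z) : ACV E L b' := by
  obtain ⟨S, hS, hSc, hv⟩ := h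
  refine ⟨S, hS, hSc, fun η hη => ?_⟩
  obtain ⟨W, hW, hsW, hWv⟩ := hv η hη
  exact ⟨W, hW, hsW, hWv.congr fun z hz => hb z ⟨hz.1.1, hz.2⟩⟩

theorem ACV.add (h : ACV E L b) (h' : ACV E L b') : ACV E L (fun z => b z + b' z) :=
  h.comb zero_le_one zero_le_one h' fun z _ w _ => by
    rw [one_mul, one_mul, show b z + b' z - (b w + b' w) = (b z - b w) + (b' z - b' w) by ring]
    exact abs_add_le _ _

theorem ACV.const_mul (t : ℝ) (h : ACV E L b) : ACV E L (fun z => t * b z) :=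
  h.comb (abs_nonneg t) le_rfl h fun z _ w _ => by
    rw [← mul_sub, abs_mul, zero_mul, add_zero]

theorem ACV.sub (h : ACV E L b) (h' : ACV E L b') : ACV E L (fun z => b z - b' z) :=
  h.comb zero_le_one zero_le_one h' fun z _ w _ => by
    rw [one_mul, one_mul, show b z - b' z - (b w - b' w) = (b z - b w) - (b' z - b' w) by ring]
    exact abs_sub _ _

theorem ACV.comp_lip {g : ℝ → ℝ} {K : ℝ≥0} (hg : LipschitzWith K g) (h : ACV E L b) :
    ACV E L (fun z => g (b z)) :=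
  h.comb K.2 le_rfl h fun z _ w _ => by
    have := hg.dist_le_mul (b z) (b w)
    rw [Real.dist_eq, Real.dist_eq] at this
    rw [zero_mul, add_zero]
    exact this

theorem ACV.sup (h : ACV E L b) (h' : ACV E L b') : ACV E L (fun z => max (b z) (b' z)) :=
  h.comb zero_le_one zero_le_one h' fun z _ w _ => by
    rw [one_mul, one_mul]
    exact (abs_max_sub_max_le_max _ _ _ _).trans
      (max_le (le_add_of_nonneg_right (abs_nonneg _)) (le_add_of_nonneg_left (abs_nonneg _)))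

/-- a continuum whose `b`-variation is small near `E` has a null set of honest values on `E` -/
theorem ACV.null (hE : IsCompact E) (hL : IsClosed L) (hLc : IsPreconnected L)
    (sat : Sat E L) (hU : (L \ E).Nonempty) (μ : Measure ℂ) [SigmaFinite μ]
    (pos : ∀ C ⊆ L \ E, IsCompact C → IsPreconnected C → C.Nontrivial → μ C ≠ 0)
    (h : ACV E L b) {G : Set ℂ} (hGL : G ⊆ L ∩ E) (hGs : Sat E G)
    (hcst : ∀ z ∈ G, ∀ w ∈ connectedComponentIn E z, b w = b z)
    (hb : ∀ z ∈ G, ∀ δ > 0, ∃ O, IsOpen O ∧ connectedComponentIn E z ⊆ O ∧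
      ∀ w ∈ O \ E, |b w - b z| < δ) :
    volume (b '' G) = 0 := by
  obtain ⟨S, hS, hSc, hv⟩ := h
  have h1 : volume (b '' (G \ ⋃₀ S)) = 0 := by
    refine null_of_var hE hL hLc sat hU μ pos (sdiff_subset.trans hGL) ?_
      (fun z hz => hb z hz.1) fun η hη => ?_
    · intro z hz hzE w hw
      refine ⟨hGs z hz.1 hzE hw, fun hwS => hz.2 ?_⟩
      obtain ⟨K, hK, hwK⟩ := mem_sUnion.1 hwS
      obtain ⟨x, hx, rfl⟩ := hSc K hK
      refine mem_sUnion.2 ⟨_, hK, ?_⟩
      rw [connectedComponentIn_eq hwK, ← connectedComponentIn_eq hw]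
      exact mem_connectedComponentIn hzE
    · obtain ⟨W, hW, hsW, hWv⟩ := hv η hη
      exact ⟨W, hW, (sdiff_subset_sdiff_left hGL).trans hsW, hWv⟩
  have h2 : (b '' (G ∩ ⋃₀ S)).Countable := by
    have h3 : b '' (G ∩ ⋃₀ S) ⊆ ⋃ K ∈ S, b '' (G ∩ K) := by
      rintro _ ⟨z, ⟨hz, hzS⟩, rfl⟩
      obtain ⟨K, hK, hzK⟩ := mem_sUnion.1 hzS
      exact mem_iUnion₂.2 ⟨K, hK, z, ⟨hz, hzK⟩, rfl⟩
    refine Countable.mono h3 (hS.biUnion fun K hK => ?_)
    refine Set.Subsingleton.countable ?_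
    rintro _ ⟨z, ⟨hz, hzK⟩, rfl⟩ _ ⟨w, ⟨hw, hwK⟩, rfl⟩
    obtain ⟨x, hx, rfl⟩ := hSc K hK
    refine (hcst z hz w ?_).symm
    rw [← connectedComponentIn_eq hzK]
    exact hwK
  have h4 : b '' G ⊆ b '' (G \ ⋃₀ S) ∪ b '' (G ∩ ⋃₀ S) := by
    rw [← image_union, sdiff_union_inter]
  refine measure_mono_null h4 (measure_union_null h1 (h2.measure_zero _))

end Crest.Agent.R105.Sl_732
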