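import Crest.Agent.R105.Nip5_31
import Crest.Agent.R105.Sl2_732

/-!
# Row 105, S0138 (T-frame), module NI of helper459, part (P2), file 6 (helper31)

* `acv_of_slb` : the slice bound gives 732's `ACV`;
* `ni_acv` : `NI Y A f` implies `ACV Y (Lv Y A t) f` for a.e. `t`;
* `pos_ae` : for a.e. `t` there is a finite measure which charges every non degenerate continuum of
  the level set off `Y`.
-/

set_option autoImplicit false

open Set Filter Topology MeasureTheory Metric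
open scoped ENNReal NNReal

namespace Crest.Agent.R105.Nip_31

open Bd_775 Tc_808 Ni_459 Crest.AnalysisR Sl_732

variable {Y : Set ℂ} {A f : ℂ → ℝ} {R t : ℝ}

theorem acv_of_slb (hR : Y ⊆ ball 0 R) (h : SlB Y A f R t) :
    ACV Y (Lv Y A t) f := by
  classical
  obtain ⟨ν, S, hν, hSc, hSs, hνS, hC⟩ := h
  refine ⟨(fun K : Cmp Y => K.1) '' {K : Cmp Y | K.1 ⊆ S}, hSc.image _, ?_, fun η hη => ?_⟩
  · rintro _ ⟨K, -, rfl⟩
    exact K.2
  · have hη' : ENNReal.ofReal η ≠ 0 := by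
      rw [Ne, ENNReal.ofReal_eq_zero]; linarith
    obtain ⟨W, hYW, hW, hνW⟩ := (Y \ S).exists_isOpen_lt_add (μ := ν) (by rw [hνS]; simp) hη'
    rw [hνS, zero_add] at hνW
    refine ⟨W ∩ ball 0 R, hW.inter isOpen_ball, ?_, ?_⟩
    · rintro z ⟨⟨-, hzY⟩, hzS⟩
      refine ⟨hYW ⟨hzY, fun hzS' => hzS ?_⟩, hR hzY⟩
      exact mem_sUnion.2 ⟨_, ⟨Cmp.of hzY, hSs _ ⟨z, mem_connectedComponentIn hzY, hzS'⟩, rfl⟩,
        mem_connectedComponentIn hzY⟩
    · intro F p q hF hd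
      have h1 : ∀ C ∈ F, |f (p C) - f (q C)| ≤ (ν C).toReal := by
        intro C hCF
        obtain ⟨hcpt, hconn, hsat, hsub, hp, hq⟩ := hF C hCF
        refine hC C (fun z hz => ⟨(hsub hz).1, (hsub hz).2.2⟩) hcpt hconn (fun z hz => ?_) _ hp _ hq
        by_cases hzY : z ∈ Y
        · exact hsat z hz hzY
        · rw [connectedComponentIn_eq_empty hzY]; exact empty_subset _
      have hfin : ∀ B : Set ℂ, ν B ≠ ∞ := fun B => measure_ne_top ν B
      calc ∑ C ∈ F, |f (p C) - f (q C)| ≤ ∑ C ∈ F, (ν C).toReal := Finset.sum_le_sum h1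
        _ = (∑ C ∈ F, ν C).toReal := (ENNReal.toReal_sum fun C _ => hfin C).symm
        _ = (ν (⋃ C ∈ F, C)).toReal := by
            have e := measure_biUnion_finset (μ := ν) (f := id) hd
              fun C hCF => (hF C hCF).cpt.measurableSet
            simp only [id] at e
            rw [e]
        _ ≤ (ENNReal.ofReal η).toReal := by
            refine ENNReal.toReal_mono ENNReal.ofReal_ne_top (le_trans (measure_mono ?_) hνW.le)
            exact iUnion₂_subset fun C hCF z hz => ((hF C hCF).sub hz).2.1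
        _ = η := ENNReal.toReal_ofReal hη.le

/-- `NI` gives `ACV` on a.e. level. -/
theorem ni_acv (hY : IsExteriorDomain Yᶜ) (hR : Y ⊆ ball 0 R)
    (hA : LocallyLipschitzOn Yᶜ A) (hAb : LB A)
    (hf : LocallyLipschitzOn Yᶜ f) (hfb : LB f) (hNI : NI Y A f) {𝒥 : Set (Cmp Y)}
    (h𝒥 : 𝒥.Countable) (hJA : JJ Y A ⊆ 𝒥) (hJf : JJ Y f ⊆ 𝒥)
    (hU : ∫⁻ z in ball 0 R \ Y, ENNReal.ofReal |wdg A f z| ≠ ∞)
    (hS : ∑' K : 𝒥, ENNReal.ofReal (osp Y f (pt K.1)) *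
      ENNReal.ofReal (osp Y A (pt K.1)) ≠ ∞) :
    ∀ᵐ t, ACV Y (Lv Y A t) f := by
  filter_upwards [ni_slice hY hA hAb hf hfb hNI h𝒥 hJA hJf hU hS] with t ht
  exact acv_of_slb hR ht

/-! ### positivity -/

lemma slab_smooth (hY : IsExteriorDomain Yᶜ) (hA : LocallyLipschitzOn Yᶜ A) (hAb : LB A)
    {g : ℂ → ℝ} (hg : LipschitzWith 1 g) {W F : Set ℂ} {T : Set ℝ}
    (hF : IsCompact F) (hFW : F ⊆ W \ Y) (hT : MeasurableSet T) :
    volume (Nip_31.ZF (lo Y A) (up Y A) g g F ∩ T ×ˢ univ) ≤ rU Y A g W (T ×ˢ F) := by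
  have hYc : IsCompact Y := cpt_of hY
  have hm : Measurable (up Y A) := (usc_up hY hAb).measurable
  have hFm : MeasurableSet F := hF.measurableSet
  have hcov : Nip_31.ZF (lo Y A) (up Y A) g g F ∩ T ×ˢ univ ⊆
      (fun z => (A z, g z)) '' ((F \ Y) ∩ up Y A ⁻¹' T) := by
    rintro ⟨x, y⟩ ⟨⟨z, hz, h1, h2, h3, h4⟩, hxT, -⟩
    simp only at h1 h2 h3 h4 hxT
    have hzY : z ∉ Y := (hFW hz).2
    rw [lo_eq hY hA hAb hzY] at h1
    rw [up_eq hY hA hAb hzY] at h2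
    refine ⟨z, ⟨⟨hz, hzY⟩, ?_⟩, Prod.ext (le_antisymm h1 h2) (le_antisymm h3 h4)⟩
    show up Y A z ∈ T
    rw [up_eq hY hA hAb hzY, le_antisymm h1 h2]
    exact hxT
  have hM : MeasurableSet ((F \ Y) ∩ up Y A ⁻¹' T) :=
    (hFm.diff hYc.measurableSet).inter (hm hT)
  have hgl : LocallyLipschitzOn Yᶜ g := hg.locallyLipschitz.locallyLipschitzOn
  refine (measure_mono hcov).trans ?_
  rw [rU_apply hm hT hFm]
  have e : (W \ Y) ∩ (F ∩ up Y A ⁻¹' T) = (F \ Y) ∩ up Y A ⁻¹' T := by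
    ext z
    constructor
    · rintro ⟨⟨-, h⟩, h', h''⟩; exact ⟨⟨h', h⟩, h''⟩
    · rintro ⟨⟨h, h'⟩, h''⟩; exact ⟨⟨(hFW h).1, h'⟩, h, h''⟩
  rw [e]
  exact area hYc.isClosed hA hgl hM fun z hz => hz.1.2

lemma slice_smooth (hY : IsExteriorDomain Yᶜ) (hA : LocallyLipschitzOn Yᶜ A) (hAb : LB A)
    {g : ℂ → ℝ} (hg : LipschitzWith 1 g)
    (hU : ∫⁻ z in ball 0 R \ Y, ENNReal.ofReal |wdg A g z| ≠ ∞) :
    ∀ᵐ t, ∃ ν : Measure ℂ, IsFiniteMeasure ν ∧ ∀ C ⊆ Lv Y A t \ Y, C ⊆ ball 0 R → IsCompact C →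
      volume (g '' C) ≤ ν C := by
  have hYc : IsCompact Y := cpt_of hY
  have hm : Measurable (up Y A) := (usc_up hY hAb).measurable
  set ρ : Measure (ℝ × ℂ) := rU Y A g (ball 0 R) with hρ
  have hfin : IsFiniteMeasure ρ := ⟨by
    rw [← univ_prod_univ, rU_apply hm MeasurableSet.univ MeasurableSet.univ]
    simpa using hU.lt_top⟩
  have hsl := slice_le (E := Y) (W₀ := ball 0 R \ Y) hYc (isOpen_ball.sdiff hYc.isClosed)
    (lsc_lo hY hAb) (usc_up hY hAb) hg.continuous.lowerSemicontinuous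
    hg.continuous.upperSemicontinuous (ρ := ρ)
    (fun F hF _ hFW T hT => slab_smooth hY hA hAb hg hF hFW hT)
  filter_upwards [hsl, ae_slc_lt_top ρ] with t ht htt
  refine ⟨slc ρ t, ⟨htt univ⟩, fun C hC hCb hCc => ?_⟩
  refine le_trans (measure_mono ?_) (ht C hCc (fun z hz hzY => absurd hzY (hC hz).2)
    fun z hz => ⟨hCb hz, (hC hz).2⟩)
  rintro _ ⟨z, hz, rfl⟩
  exact ⟨z, hz, (hC hz).1.1, (hC hz).1.2, le_rfl, le_rfl⟩

lemma lip_re : LipschitzWith 1 Complex.re := by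
  refine LipschitzWith.of_dist_le_mul fun x y => ?_
  rw [Real.dist_eq, dist_eq_norm, NNReal.coe_one, one_mul, ← Complex.sub_re]
  exact Complex.abs_re_le_norm _

lemma lip_im : LipschitzWith 1 Complex.im := by
  refine LipschitzWith.of_dist_le_mul fun x y => ?_
  rw [Real.dist_eq, dist_eq_norm, NNReal.coe_one, one_mul, ← Complex.sub_im]
  exact Complex.abs_im_le_norm _

lemma en_lip {g : ℂ → ℝ} (hg : LipschitzWith 1 g) (z : ℂ) : en g z ≤ 1 := by
  rw [en_eq]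
  have h1 : ‖fderiv ℝ g z‖ ≤ 1 := by
    have := norm_fderiv_le_of_lipschitz ℝ hg (x₀ := z)
    simpa using this
  have h0 := norm_nonneg (fderiv ℝ g z)
  nlinarith

lemma wdg_fin {g : ℂ → ℝ} (hg : LipschitzWith 1 g)
    (hE : ∫⁻ z in ball 0 R \ Y, ENNReal.ofReal (en A z) ≠ ∞) :
    ∫⁻ z in ball 0 R \ Y, ENNReal.ofReal |wdg A g z| ≠ ∞ := by
  have h1 : ∫⁻ z in ball 0 R \ Y, ENNReal.ofReal |wdg A g z| ≤
      ∫⁻ z in ball 0 R \ Y, (ENNReal.ofReal (en A z) + 1) := by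
    refine lintegral_mono fun z => ?_
    rw [← ENNReal.ofReal_one, ← ENNReal.ofReal_add (en_nonneg _ _) zero_le_one]
    refine ENNReal.ofReal_le_ofReal ((abs_wdg_le A g z).trans ?_)
    have := en_lip hg z
    have := en_nonneg A z
    linarith
  refine ne_top_of_le_ne_top ?_ h1
  rw [lintegral_add_right _ measurable_const]
  refine ENNReal.add_ne_top.2 ⟨hE, ?_⟩
  rw [lintegral_const, one_mul, Measure.restrict_apply_univ]
  exact ((measure_mono sdiff_subset).trans_lt measure_ball_lt_top).ne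

/-- **positivity** -/
theorem pos_ae (hY : IsExteriorDomain Yᶜ) (hA : LocallyLipschitzOn Yᶜ A) (hAb : LB A)
    (hE : ∀ R : ℝ, ∫⁻ z in ball 0 R \ Y, ENNReal.ofReal (en A z) ≠ ∞) :
    ∀ᵐ t, ∃ μ : Measure ℂ, IsFiniteMeasure μ ∧ ∀ C ⊆ Lv Y A t \ Y, IsCompact C →
      IsPreconnected C → C.Nontrivial → μ C ≠ 0 := by
  have hre : ∀ n : ℕ, _ := fun n : ℕ => slice_smooth hY hA hAb lip_re (wdg_fin lip_re (hE n))
  have him : ∀ n : ℕ, _ := fun n : ℕ => slice_smooth hY hA hAb lip_im (wdg_fin lip_im (hE n))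
  filter_upwards [ae_all_iff.2 hre, ae_all_iff.2 him] with t h1 h2
  choose ν hν hνC using h1
  choose ν' hν' hνC' using h2
  set σ : Measure ℂ := Measure.sum (fun n => ν n + ν' n) with hσ
  have hsf : SFinite σ := by rw [hσ]; infer_instance
  obtain ⟨μ, hμ, hμ1, -⟩ := exists_isFiniteMeasure_absolutelyContinuous σ
  refine ⟨μ, hμ, fun C hC hCc hCp hCn h0 => ?_⟩
  have hσ0 : σ C = 0 := hμ1 h0
  rw [hσ, Measure.sum_apply _ hCc.measurableSet, ENNReal.tsum_eq_zero] at hσ0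
  obtain ⟨M, hM⟩ := hCc.isBounded.exists_norm_le
  obtain ⟨n, hn⟩ := exists_nat_gt M
  have hCb : C ⊆ ball 0 (n : ℝ) := fun z hz => by
    rw [mem_ball_zero_iff]; exact (hM z hz).trans_lt hn
  have h3 := hσ0 n
  rw [Measure.add_apply, add_eq_zero] at h3
  have hr : volume (Complex.re '' C) = 0 :=
    le_antisymm ((hνC n C hC hCb hCc).trans h3.1.le) bot_le
  have hi : volume (Complex.im '' C) = 0 :=
    le_antisymm ((hνC' n C hC hCb hCc).trans h3.2.le) bot_le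
  have key : ∀ g : ℂ → ℝ, Continuous g → volume (g '' C) = 0 → ∀ p ∈ C, ∀ q ∈ C, g p = g q := by
    intro g hg hg0 p hp q hq
    by_contra hne
    have hord : (g '' C).OrdConnected := (hCp.image g hg.continuousOn).ordConnected
    have hsub : uIcc (g p) (g q) ⊆ g '' C := hord.uIcc_subset ⟨p, hp, rfl⟩ ⟨q, hq, rfl⟩
    have h5 := measure_mono_null hsub hg0
    rw [Real.volume_interval, ENNReal.ofReal_eq_zero] at h5
    have := abs_pos.2 (sub_ne_zero.2 (Ne.symm hne))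
    linarith
  obtain ⟨p, hp, q, hq, hpq⟩ := hCn
  exact hpq (Complex.ext (key _ Complex.continuous_re hr p hp q hq)
    (key _ Complex.continuous_im hi p hp q hq))

end Crest.Agent.R105.Nip_31
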