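import Crest.Agent.R105.SkA1_8
import Crest.Agent.R105.Bd5_775

/-!
# Row 105, S0138, first half: small lemmas on `up`, `lo`, `NI` (helper8)

`up_congr_nhds`, `up_add_const`, `NI.congr_near`, `NI.add_const`, `NI.of_countable`, `NI_lc`,
`Swd.add_const`, `TT` / `LB` of `x0 + φ`.
-/

set_option autoImplicit false

open MeasureTheory Set Filter Topology Metric
open scoped NNReal ENNReal ContDiff

namespace Crest.Agent.R105.SkA_8

open Crest.AnalysisR Bd_775 IfB_641 Tc_808 Ni_459 Grd_782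

variable {Y : Set ℂ} {u v w a b : ℂ → ℝ} {z : ℂ} {O : Set ℂ}

/-! ### envelopes -/

theorem up_congr_nhds (hO : Nb Y z O) (h : ∀ w ∈ O, w ∉ Y → u w = v w) : up Y u z = up Y v z := by
  have key : ∀ {u v : ℂ → ℝ}, (∀ w ∈ O, w ∉ Y → u w = v w) →
      {c | ∃ P, Nb Y z P ∧ ∀ w ∈ P, w ∉ Y → u w ≤ c} ⊆
        {c | ∃ P, Nb Y z P ∧ ∀ w ∈ P, w ∉ Y → v w ≤ c} := by
    rintro u v h c ⟨P, hP, hc⟩
    exact ⟨P ∩ O, hP.inter hO, fun w hw hwY => (h w hw.2 hwY) ▸ hc w hw.1 hwY⟩
  unfold up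
  rw [Subset.antisymm (key h) (key fun w hw hwY => (h w hw hwY).symm)]

theorem lo_congr_nhds (hO : Nb Y z O) (h : ∀ w ∈ O, w ∉ Y → u w = v w) : lo Y u z = lo Y v z := by
  unfold lo
  rw [up_congr_nhds (u := fun w => - u w) (v := fun w => - v w) hO
    fun w hw hwY => by rw [h w hw hwY]]

theorem up_add_const (hY : IsExteriorDomain Yᶜ) (hu : LB u) (c : ℝ) (z : ℂ) :
    up Y (fun w => u w + c) z = up Y u z + c := by
  have hc : LB fun _ : ℂ => c := LB.of_cont continuous_const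
  apply le_antisymm
  · refine le_of_forall_pos_le_add fun ε hε => ?_
    obtain ⟨O, hO, h⟩ := exists_lt_of_up_lt hY hu (show up Y u z < up Y u z + ε by linarith)
    exact up_le hY (hu.add hc) hO fun w hw hwY => by linarith [h w hw hwY]
  · refine le_of_forall_pos_le_add fun ε hε => ?_
    obtain ⟨O, hO, h⟩ := exists_lt_of_up_lt hY (hu.add hc)
      (show up Y (fun w => u w + c) z < up Y (fun w => u w + c) z + ε by linarith)
    have := up_le hY hu (c := up Y (fun w => u w + c) z + ε - c) hO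
      fun w hw hwY => by linarith [h w hw hwY]
    linarith

theorem lo_add_const (hY : IsExteriorDomain Yᶜ) (hu : LB u) (c : ℝ) (z : ℂ) :
    lo Y (fun w => u w + c) z = lo Y u z + c := by
  have h := up_add_const hY hu.neg (-c) z
  unfold lo
  have h2 : (fun w => -(u w + c)) = fun w => -u w + -c := by funext w; ring
  rw [h2, h]; ring

/-- near `Y`, `x0 = 0` -/
theorem nb_x0 {x0 : ℂ → ℝ} (hx : X0 Y x0) (hz : z ∈ Y) :
    ∃ O, Nb Y z O ∧ ∀ w ∈ O, x0 w = 0 := by
  refine ⟨(tsupport x0)ᶜ, nb_of_mem hz (isClosed_tsupport _).isOpen_compl fun w hw hw' => ?_,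
    fun w hw => image_eq_zero_of_notMem_tsupport hw⟩
  exact hx.zero hw' (connectedComponentIn_subset Y z hw)

theorem up_x0 {x0 : ℂ → ℝ} (hx : X0 Y x0) (hz : z ∈ Y) :
    up Y (fun w => x0 w + u w) z = up Y u z := by
  obtain ⟨O, hO, h⟩ := nb_x0 hx hz
  exact up_congr_nhds hO fun w hw _ => by rw [h w hw, zero_add]

theorem lo_x0 {x0 : ℂ → ℝ} (hx : X0 Y x0) (hz : z ∈ Y) :
    lo Y (fun w => x0 w + u w) z = lo Y u z := by
  obtain ⟨O, hO, h⟩ := nb_x0 hx hz
  exact lo_congr_nhds hO fun w hw _ => by rw [h w hw, zero_add]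

/-! ### null image -/

/-- `NP` only sees the envelopes on `Y` -/
theorem NP_congr {a' b' : ℂ → ℝ} (h1 : ∀ z ∈ Y, lo Y a z = lo Y a' z) (h2 : ∀ z ∈ Y, up Y a z = up Y a' z)
    (h3 : ∀ z ∈ Y, lo Y b z = lo Y b' z) (h4 : ∀ z ∈ Y, up Y b z = up Y b' z) :
    NP Y a b = NP Y a' b' := by
  ext p
  constructor
  · rintro ⟨z, hz, e1, e2, e3, e4⟩
    exact ⟨z, hz, (h1 z hz).symm.trans e1, (h2 z hz).symm.trans e2, (h3 z hz).symm.trans e3,
      (h4 z hz).symm.trans e4⟩
  · rintro ⟨z, hz, e1, e2, e3, e4⟩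
    exact ⟨z, hz, (h1 z hz).trans e1, (h2 z hz).trans e2, (h3 z hz).trans e3, (h4 z hz).trans e4⟩

theorem NI_congr_near {a' b' : ℂ → ℝ}
    (ha : ∀ z ∈ Y, ∃ O, Nb Y z O ∧ ∀ w ∈ O, w ∉ Y → a w = a' w)
    (hb : ∀ z ∈ Y, ∃ O, Nb Y z O ∧ ∀ w ∈ O, w ∉ Y → b w = b' w) : NI Y a b ↔ NI Y a' b' := by
  unfold NI
  rw [NP_congr (fun z hz => ?_) (fun z hz => ?_) (fun z hz => ?_) (fun z hz => ?_)]
  · obtain ⟨O, hO, h⟩ := ha z hz; exact lo_congr_nhds hO h
  · obtain ⟨O, hO, h⟩ := ha z hz; exact up_congr_nhds hO h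
  · obtain ⟨O, hO, h⟩ := hb z hz; exact lo_congr_nhds hO h
  · obtain ⟨O, hO, h⟩ := hb z hz; exact up_congr_nhds hO h

theorem NI_x0 {x0 : ℂ → ℝ} (hx : X0 Y x0) :
    NI Y (fun w => x0 w + a w) (fun w => x0 w + b w) ↔ NI Y a b := by
  unfold NI
  rw [NP_congr (fun z hz => lo_x0 hx hz) (fun z hz => up_x0 hx hz) (fun z hz => lo_x0 hx hz)
    (fun z hz => up_x0 hx hz)]

theorem NP_add_const (hY : IsExteriorDomain Yᶜ) (hb : LB b) (c : ℝ) :
    NP Y a (fun w => b w + c) = (fun p : ℝ × ℝ => p + (0, -c)) ⁻¹' NP Y a b := by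
  ext p
  simp only [NP, mem_preimage, mem_ofPred_eq, Prod.fst_add, Prod.snd_add, add_zero]
  constructor
  · rintro ⟨z, hz, e1, e2, e3, e4⟩
    rw [lo_add_const hY hb] at e3
    rw [up_add_const hY hb] at e4
    exact ⟨z, hz, e1, e2, by linarith, by linarith⟩
  · rintro ⟨z, hz, e1, e2, e3, e4⟩
    refine ⟨z, hz, e1, e2, ?_, ?_⟩
    · rw [lo_add_const hY hb]; linarith
    · rw [up_add_const hY hb]; linarith

theorem NI_add_const (hY : IsExteriorDomain Yᶜ) (hb : LB b) (c : ℝ) :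
    NI Y a (fun w => b w + c) ↔ NI Y a b := by
  unfold NI
  rw [NP_add_const hY hb, measure_preimage_add_right]

theorem NI_add_const₂ (hY : IsExteriorDomain Yᶜ) (ha : LB a) (hb : LB b) (c d : ℝ) :
    NI Y (fun w => a w + c) (fun w => b w + d) ↔ NI Y a b := by
  rw [NI_add_const hY hb]
  constructor
  · intro h; exact NI_symm ((NI_add_const hY ha c).1 (NI_symm h))
  · intro h; exact NI_symm ((NI_add_const hY ha c).2 (NI_symm h))

/-- honest values in a countable set -/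
theorem NI_of_countable {S : Set ℝ} (hS : S.Countable)
    (h : ∀ z ∈ Y, lo Y b z = up Y b z → up Y b z ∈ S) : NI Y a b := by
  have h1 : NP Y a b ⊆ ⋃ s ∈ S, {p : ℝ × ℝ | p.2 = s} := by
    rintro p ⟨z, hz, -, -, e3, e4⟩
    have := h z hz (e3.trans e4.symm)
    exact mem_biUnion this e4.symm
  refine measure_mono_null h1 ((measure_biUnion_null_iff hS).2 fun s _ => ?_)
  have h2 : {p : ℝ × ℝ | p.2 = s} = (univ : Set ℝ) ×ˢ ({s} : Set ℝ) := by
    ext p; simp
  rw [h2, Measure.volume_eq_prod, Measure.prod_prod]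
  simp

/-- locally constant functions -/
theorem NI_locconst (hY : IsExteriorDomain Yᶜ) (h : ∀ z ∈ Y, ∀ᶠ w in 𝓝 z, b w = b z) :
    NI Y a b := by
  have hYc : IsCompact Y := cpt_of hY
  -- finitely many values on `Y`
  have hfin : (b '' Y).Finite := by
    have hcov : ∀ z ∈ Y, ∃ O : Set ℂ, IsOpen O ∧ z ∈ O ∧ ∀ w ∈ O, b w = b z := by
      intro z hz
      obtain ⟨O, hO1, hO2, hO3⟩ := _root_.mem_nhds_iff.1 (h z hz)
      exact ⟨O, hO2, hO3, fun w hw => hO1 hw⟩
    choose! O hO using hcov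
    obtain ⟨t, ht, htc⟩ := hYc.elim_nhds_subcover (fun z => O z)
      (fun z hz => (hO z hz).1.mem_nhds (hO z hz).2.1)
    refine (t.finite_toSet.image fun z => b z).subset ?_
    rintro _ ⟨w, hw, rfl⟩
    obtain ⟨z, hz, hwz⟩ := mem_iUnion₂.1 (htc hw)
    exact ⟨z, hz, ((hO z (ht z hz)).2.2 w hwz).symm⟩
  refine NI_of_countable hfin.countable fun z hz _ => ?_
  refine ⟨z, hz, ?_⟩
  -- on the component `b` is constant
  have hcc : ∀ w ∈ connectedComponentIn Y z, b w = b z := by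
    intro w hw
    have hlc : IsLocallyConstant (fun p : connectedComponentIn Y z => b p) := by
      rw [IsLocallyConstant.iff_eventually_eq]
      intro p
      have h1 := h p.1 (connectedComponentIn_subset Y z p.2)
      exact continuous_subtype_val.continuousAt.eventually h1
    have hpc : IsPreconnected (connectedComponentIn Y z) := isPreconnected_connectedComponentIn
    have : PreconnectedSpace (connectedComponentIn Y z) := isPreconnected_iff_preconnectedSpace.1 hpc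
    exact hlc.apply_eq_of_preconnectedSpace ⟨w, hw⟩ ⟨z, mem_connectedComponentIn hz⟩
  -- neighbourhood of the component
  have hO : ∃ O, Nb Y z O ∧ ∀ w ∈ O, b w = b z := by
    refine ⟨interior {w | b w = b z}, nb_of_mem hz isOpen_interior fun w hw => ?_,
      fun w hw => (interior_subset hw : w ∈ {w | b w = b z})⟩
    rw [mem_interior_iff_mem_nhds]
    filter_upwards [h w (connectedComponentIn_subset Y z hw)] with p hp
    exact hp.trans (hcc w hw)
  obtain ⟨O, hO, hb⟩ := hO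
  have hc : LB fun _ : ℂ => b z := LB.of_cont continuous_const
  rw [up_congr_nhds (v := fun _ => b z) hO fun w hw _ => hb w hw]
  apply le_antisymm
  · refine le_of_forall_pos_le_add fun ε hε => ?_
    by_contra hcon
    push Not at hcon
    obtain ⟨p, hp, -, hp2⟩ : ∃ p ∈ O, p ∉ Y ∧ b z ≤ b z := by
      obtain ⟨p, hp⟩ := hO.nonempty hY
      exact ⟨p, hp.1, hp.2, le_rfl⟩
    obtain ⟨P, hP, h3⟩ := exists_lt_of_up_lt hY hc
      (show up Y (fun _ => b z) z < b z by linarith)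
    obtain ⟨q, hq⟩ := hP.nonempty hY
    exact lt_irrefl _ (h3 q hq.1 hq.2)
  · exact up_le hY hc hO fun _ _ _ => le_rfl

/-! ### classes -/

theorem LB_TT (h : TT Y u) : LB u := LB.of_bdd h.q.bdd

theorem LB_x0 {x0 : ℂ → ℝ} (hx : X0 Y x0) (h : TT Y u) : LB fun z => x0 z + u z :=
  (LB.of_cont hx.sm.continuous).add (LB_TT h)

theorem TT_add_const (hYc : IsClosed Y) (h : TT Y u) (c : ℝ) : TT Y fun z => u z + c :=
  h.add hYc (TT.const c)

theorem Swd_add_const (hY : IsExteriorDomain Yᶜ) (hu : LB u) (h : Swd Y u) (c : ℝ) :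
    Swd Y fun z => u z + c where
  gt t z hz := by
    have e : {w | t < lo Y (fun z => u z + c) w} = {w | t - c < lo Y u w} := by
      ext w; simp only [mem_ofPred_eq, lo_add_const hY hu]; constructor <;> intro h <;> linarith
    rw [e]
    rw [lo_add_const hY hu] at hz
    exact h.gt _ z (by linarith)
  lt t z hz := by
    have e : {w | up Y (fun z => u z + c) w < t} = {w | up Y u w < t - c} := by
      ext w; simp only [mem_ofPred_eq, up_add_const hY hu]; constructor <;> intro h <;> linarith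
    rw [e]
    rw [up_add_const hY hu] at hz
    exact h.lt _ z (by linarith)

theorem plin_cs : PLin (HasCompactSupport : (ℂ → ℝ) → Prop) := by
  intro b b' hb hb' s t
  exact (hb.mul_left (f := fun _ => s)).add (hb'.mul_left (f := fun _ => t))

theorem combP_of_linp (h : LINP) {x0 : ℂ → ℝ} (hY : IsExteriorDomain Yᶜ) (hx : X0 Y x0) :
    CombP Y x0 HasCompactSupport :=
  fun a ha hca hsa b b' hb _ hb' _ hab hab' s t => h Y x0 hY hx a ha hca hsa b b' hb hb' hab hab' s t

end Crest.Agent.R105.SkA_8
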