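import Crest.Agent.R105.Sl2_732
import Crest.Agent.R105.Ni0_459

/-!
# Row 105, S0138 (T-frame), SLICES, part 3 (helper732):
small variation near `Y` along almost every level of `A`  ⟹  null image.
-/

set_option autoImplicit false

open MeasureTheory Set Filter Topology Metric
open scoped NNReal ENNReal

namespace Crest.Agent.R105.Sl_732

open Thin_12 Tc_808 Ni_459 Crest.AnalysisR

noncomputable section

/-- a point of the component -/
def pt {Y : Set ℂ} (K : Cmp Y) : ℂ := K.2.choose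

lemma pt_mem {Y : Set ℂ} (K : Cmp Y) : pt K ∈ Y := K.2.choose_spec.1

lemma pt_eq {Y : Set ℂ} (K : Cmp Y) : K.1 = connectedComponentIn Y (pt K) := K.2.choose_spec.2

/-- the component of a point -/
def cmp {Y : Set ℂ} (z : ℂ) (hz : z ∈ Y) : Cmp Y := ⟨connectedComponentIn Y z, z, hz, rfl⟩

/-- the jump at a component -/
def dj (Y : Set ℂ) (u : ℂ → ℝ) (K : Cmp Y) : ℝ := up Y u (pt K) - lo Y u (pt K)

lemma mem_cc_pt {Y : Set ℂ} {z : ℂ} (hz : z ∈ Y) :
    z ∈ connectedComponentIn Y (pt (cmp z hz)) := by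
  rw [← pt_eq (cmp z hz)]
  exact mem_connectedComponentIn hz

lemma up_pt {Y : Set ℂ} {u : ℂ → ℝ} {z : ℂ} (hz : z ∈ Y) :
    up Y u (pt (cmp z hz)) = up Y u z :=
  (up_congr_cc (pt_mem _) (mem_cc_pt hz)).symm

lemma lo_pt {Y : Set ℂ} {u : ℂ → ℝ} {z : ℂ} (hz : z ∈ Y) :
    lo Y u (pt (cmp z hz)) = lo Y u z :=
  (lo_congr_cc (pt_mem _) (mem_cc_pt hz)).symm

section
variable {Y : Set ℂ} {A f : ℂ → ℝ}

/-- the multivalued image of a compact set is closed -/
lemma isClosed_ZF (hY : IsExteriorDomain Yᶜ) (hA : LB A) (hf : LB f) {F : Set ℂ}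
    (hF : IsCompact F) : IsClosed (ZF Y A f F) := by
  have : CompactSpace F := isCompact_iff_compactSpace.1 hF
  have e1 := (lsc_lo hY hA).isClosed_epigraph
  have e2 := upperSemicontinuous_iff_IsClosed_hypograph.1 (usc_up hY hA)
  have e3 := (lsc_lo hY hf).isClosed_epigraph
  have e4 := upperSemicontinuous_iff_IsClosed_hypograph.1 (usc_up hY hf)
  have h1 : IsClosed {x : F × (ℝ × ℝ) | (lo Y A x.1 ≤ x.2.1 ∧ x.2.1 ≤ up Y A x.1) ∧
      (lo Y f x.1 ≤ x.2.2 ∧ x.2.2 ≤ up Y f x.1)} := by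
    refine IsClosed.and ?_ ?_
    · exact (e1.preimage (f := fun x : F × (ℝ × ℝ) => ((x.1 : ℂ), x.2.1)) (by fun_prop)).and
        (e2.preimage (f := fun x : F × (ℝ × ℝ) => ((x.1 : ℂ), x.2.1)) (by fun_prop))
    · exact (e3.preimage (f := fun x : F × (ℝ × ℝ) => ((x.1 : ℂ), x.2.2)) (by fun_prop)).and
        (e4.preimage (f := fun x : F × (ℝ × ℝ) => ((x.1 : ℂ), x.2.2)) (by fun_prop))
  have h2 := isClosedMap_snd_of_compactSpace _ h1
  convert h2 using 1
  ext p
  constructor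
  · rintro ⟨z, hz, h1, h2, h3, h4⟩
    exact ⟨(⟨z, hz⟩, p), ⟨⟨h1, h2⟩, h3, h4⟩, rfl⟩
  · rintro ⟨⟨z, q⟩, ⟨⟨h1, h2⟩, h3, h4⟩, rfl⟩
    exact ⟨z.1, z.2, h1, h2, h3, h4⟩

/-- compact saturated exhaustion of `Y` minus finitely many components -/
lemma exists_exhaust (hY : IsCompact Y) (J : Finset (Cmp Y)) :
    ∃ F : ℕ → Set ℂ, (∀ k, IsCompact (F k)) ∧ (∀ k, F k ⊆ Y) ∧
      (∀ k, ∀ z, ∀ hz : z ∈ Y, z ∈ F k → cmp z hz ∉ J) ∧
      ∀ z, ∀ hz : z ∈ Y, cmp z hz ∉ J → ∃ k, z ∈ F k := by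
  classical
  have hK : ∀ k : ℕ, ∀ K ∈ J, ∃ B, IsCompact B ∧ IsCompact (Y \ B) ∧ B ⊆ Y ∧ K.1 ⊆ B ∧
      B ⊆ thickening (1 / ((k : ℝ) + 1)) K.1 := by
    intro k K _
    rw [pt_eq K]
    refine exists_clopen hY (pt_mem K) isOpen_thickening ?_
    exact self_subset_thickening (by positivity) _
  choose! B hB1 hB2 hB3 hB4 hB5 using hK
  refine ⟨fun k => Y \ ⋃ K ∈ J, B k K, fun k => ?_, fun k => sdiff_subset, fun k z hz hzF hJ => ?_,
    fun z hz hJ => ?_⟩
  · refine hY.of_isClosed_subset ?_ sdiff_subset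
    change IsClosed (Y \ ⋃ K ∈ J, B k K)
    have : Y \ ⋃ K ∈ J, B k K = Y ∩ ⋂ K ∈ J, (Y \ B k K) := by
      ext y
      simp only [Set.mem_sdiff, mem_iUnion, mem_inter_iff, mem_iInter, not_exists]
      exact ⟨fun hy => ⟨hy.1, fun z hz => ⟨hy.1, hy.2 z hz⟩⟩,
        fun hy => ⟨hy.1, fun z hz => (hy.2 z hz).2⟩⟩
    rw [this]
    exact hY.isClosed.inter (isClosed_biInter fun z hz => (hB2 k z hz).isClosed)
  · exact hzF.2 (mem_iUnion₂.2 ⟨_, hJ, hB4 k _ hJ (mem_connectedComponentIn hz)⟩)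
  · by_contra hcon
    push Not at hcon
    have h1 : ∀ k : ℕ, ∃ K ∈ J, z ∈ thickening (1 / ((k : ℝ) + 1)) K.1 := by
      intro k
      have h2 := hcon k
      have h3 : z ∈ ⋃ K ∈ J, B k K := by
        by_contra h
        exact h2 ⟨hz, h⟩
      obtain ⟨K, hK, hzK⟩ := mem_iUnion₂.1 h3
      exact ⟨K, hK, hB5 k K hK hzK⟩
    have h2 : z ∈ ⋃ K ∈ J, K.1 := by
      have hcl : IsClosed (⋃ K ∈ J, K.1) := by
        refine (J.finite_toSet.isClosed_biUnion fun K _ => ?_)
        rw [pt_eq K]; exact (isCompact_cc hY _).isClosed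
      rw [← hcl.closure_eq, Metric.mem_closure_iff]
      intro ε hε
      obtain ⟨k, hk⟩ := exists_nat_one_div_lt hε
      obtain ⟨K, hK, hzK⟩ := h1 k
      obtain ⟨y, hy, hzy⟩ := mem_thickening_iff.1 hzK
      exact ⟨y, mem_iUnion₂.2 ⟨K, hK, hy⟩, hzy.trans hk⟩
    obtain ⟨K, hK, hzK⟩ := mem_iUnion₂.1 h2
    apply hJ
    have h3 : cmp z hz = K := by
      apply Subtype.ext
      change connectedComponentIn Y z = K.1
      rw [pt_eq K] at hzK ⊢
      exact (connectedComponentIn_eq hzK).symm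
    rw [h3]; exact hK

/-- **small variation near `Y` along a.e. level of `A` implies a null image.** -/
theorem ni_of_acv (hY : IsExteriorDomain Yᶜ) (hA : LB A) (hf : LB f)
    (hfc : ∀ z ∉ Y, ContinuousAt f z)
    (hcf : {K : Cmp Y | dj Y f K ≠ 0}.Countable)
    (hw : ∑' K : Cmp Y, ENNReal.ofReal (dj Y A K) * ENNReal.ofReal (dj Y f K) ≠ ∞)
    (hlev : ∀ᵐ t : ℝ, IsPreconnected (Lv Y A t) ∧ (Lv Y A t \ Y).Nonempty ∧
      ∃ μ : Measure ℂ, SigmaFinite μ ∧
        ∀ C ⊆ Lv Y A t \ Y, IsCompact C → IsPreconnected C → C.Nontrivial → μ C ≠ 0)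
    (hacv : ∀ᵐ t : ℝ, ACV Y (Lv Y A t) f) : NI Y A f := by
  classical
  have hYc : IsCompact Y := cpt_of hY
  unfold NI
  refine le_antisymm (ENNReal.le_of_forall_pos_le_add fun ε hε _ => ?_) zero_le
  rw [zero_add]
  obtain ⟨J, hJ⟩ : ∃ J : Finset (Cmp Y), ∑' K : {K : Cmp Y // K ∉ J},
      ENNReal.ofReal (dj Y A K) * ENNReal.ofReal (dj Y f K) < ε := by
    have h1 := ENNReal.tendsto_tsum_compl_atTop_zero hw
    exact ((h1.eventually (gt_mem_nhds (show (0 : ℝ≥0∞) < ε by exact_mod_cast hε))).exists)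
  obtain ⟨F, hFc, hFY, hFJ, hFe⟩ := exists_exhaust hYc J
  set N : Set (ℝ × ℝ) := ⋃ k, ZF Y A f (F k) with hN
  have hNm : MeasurableSet N := MeasurableSet.iUnion fun k => (isClosed_ZF hY hA hf (hFc k)).measurableSet
  set ι : Type := {K : Cmp Y // dj Y f K ≠ 0 ∧ K ∉ J} with hι
  have hιc : Countable ι := (hcf.mono fun K hK => hK.1).to_subtype
  -- the slices
  have slice : ∀ᵐ t : ℝ, volume (Prod.mk t ⁻¹' N) ≤
      ∑' K : ι, (Icc (lo Y A (pt K.1)) (up Y A (pt K.1))).indicator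
        (fun _ => ENNReal.ofReal (dj Y f K.1)) t := by
    filter_upwards [hlev, hacv] with t ⟨hLp, hLU, μ, hμ, pos⟩ ht
    have hLc : IsClosed (Lv Y A t) := by
      have h1 : IsClosed {z | lo Y A z ≤ t} := by
        rw [← isOpen_compl_iff]
        convert isOpen_lt_lo hY hA t using 1
        ext z; simp [not_le]
      have h2 : IsClosed {z | t ≤ up Y A z} := by
        rw [← isOpen_compl_iff]
        convert isOpen_up_lt hY hA t using 1
        ext z; simp [not_le]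
      exact h1.inter h2
    have hLs : Sat Y (Lv Y A t) := fun z hz hzY w hw => by
      refine ⟨?_, ?_⟩
      · rw [lo_congr_cc hzY hw]; exact hz.1
      · rw [up_congr_cc hzY hw]; exact hz.2
    set G : Set ℂ := {z | z ∈ Lv Y A t ∩ Y ∧ lo Y f z = up Y f z} with hG
    have hnull : volume (up Y f '' G) = 0 := by
      refine ACV.null (E := Y) hYc hLc hLp hLs hLU μ pos (b := up Y f)
        (ht.congr fun z hz => up_of_notMem hY hf hz.2 (hfc z hz.2)) (fun z hz => hz.1)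
        ?_ ?_ ?_
      · intro z hz hzY w hw
        refine ⟨⟨hLs z hz.1.1 hzY hw, connectedComponentIn_subset _ _ hw⟩, ?_⟩
        rw [lo_congr_cc hzY hw, up_congr_cc hzY hw]
        exact hz.2
      · intro z hz w hw
        exact up_congr_cc hz.1.2 hw
      · intro z hz δ hδ
        obtain ⟨O, hO, h1⟩ := exists_lt_of_up_lt hY hf (show up Y f z < up Y f z + δ by linarith)
        obtain ⟨P, hP, h2⟩ := exists_gt_of_lt_lo hY hf (show lo Y f z - δ < lo Y f z by linarith)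
        refine ⟨O ∩ P, hO.op.inter hP.op, subset_inter hO.sub hP.sub, fun w hw => ?_⟩
        have h3 := h1 w hw.1.1 hw.2
        have h4 := h2 w hw.1.2 hw.2
        have h5 := hz.2
        rw [up_of_notMem hY hf hw.2 (hfc w hw.2), abs_lt]
        constructor <;> linarith
    have hsub : Prod.mk t ⁻¹' N ⊆ up Y f '' G ∪ ⋃ K : ι,
        {s | (lo Y A (pt K.1) ≤ t ∧ t ≤ up Y A (pt K.1)) ∧ s ∈ Icc (lo Y f (pt K.1)) (up Y f (pt K.1))} := by
      intro s hs
      obtain ⟨k, z, hz, h1, h2, h3, h4⟩ := mem_iUnion.1 hs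
      simp only at h1 h2 h3 h4
      have hzY := hFY k hz
      by_cases hj : lo Y f z = up Y f z
      · left
        refine ⟨z, ⟨⟨⟨h1, h2⟩, hzY⟩, hj⟩, ?_⟩
        linarith
      · right
        refine mem_iUnion.2 ⟨⟨cmp z hzY, ?_, hFJ k z hzY hz⟩, ?_⟩
        · unfold dj
          rw [up_pt, lo_pt]
          exact fun h => hj (by linarith)
        · refine ⟨⟨?_, ?_⟩, ?_, ?_⟩
          · rw [lo_pt]; exact h1
          · rw [up_pt]; exact h2
          · rw [lo_pt]; exact h3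
          · rw [up_pt]; exact h4
    refine (measure_mono hsub).trans ((measure_union_le _ _).trans ?_)
    rw [hnull, zero_add]
    refine (measure_iUnion_le _).trans (ENNReal.tsum_le_tsum fun K => ?_)
    by_cases hK : lo Y A (pt K.1) ≤ t ∧ t ≤ up Y A (pt K.1)
    · rw [indicator_of_mem (show t ∈ Icc _ _ from hK)]
      refine (measure_mono (t := Icc (lo Y f (pt K.1)) (up Y f (pt K.1))) fun s hs => hs.2).trans ?_
      rw [Real.volume_Icc]
      exact le_rfl
    · rw [show {s | (lo Y A (pt K.1) ≤ t ∧ t ≤ up Y A (pt K.1)) ∧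
        s ∈ Icc (lo Y f (pt K.1)) (up Y f (pt K.1))} = ∅ from by
          ext s; simp only [mem_ofPred_eq, mem_empty_iff_false, iff_false]; exact fun h => hK h.1]
      rw [measure_empty]
      exact zero_le
  have hNle : volume N ≤ ε := by
    rw [Measure.volume_eq_prod, Measure.prod_apply hNm]
    refine (lintegral_mono_ae slice).trans ?_
    rw [lintegral_tsum fun K => (measurable_const.indicator measurableSet_Icc).aemeasurable]
    have h1 : ∀ K : ι, ∫⁻ t : ℝ, (Icc (lo Y A (pt K.1)) (up Y A (pt K.1))).indicator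
        (fun _ => ENNReal.ofReal (dj Y f K.1)) t =
        ENNReal.ofReal (dj Y A K.1) * ENNReal.ofReal (dj Y f K.1) := by
      intro K
      rw [lintegral_indicator_const measurableSet_Icc, Real.volume_Icc, mul_comm]
      rfl
    simp_rw [h1]
    refine le_trans ?_ hJ.le
    exact ENNReal.tsum_comp_le_tsum_of_injective
      (f := fun K : ι => (⟨K.1, K.2.2⟩ : {K : Cmp Y // K ∉ J}))
      (fun K K' h => Subtype.ext (by simpa using h))
      (fun K : {K : Cmp Y // K ∉ J} => ENNReal.ofReal (dj Y A K) * ENNReal.ofReal (dj Y f K))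
  have hsub : NP Y A f ⊆ N ∪ ((fun K : Cmp Y => (up Y A (pt K), up Y f (pt K))) '' (J : Set (Cmp Y))) := by
    rintro p ⟨z, hz, h1, h2, h3, h4⟩
    by_cases hzJ : cmp z hz ∈ J
    · right
      refine ⟨_, hzJ, ?_⟩
      simp only
      rw [up_pt, up_pt, h2, h4]
    · left
      obtain ⟨k, hk⟩ := hFe z hz hzJ
      exact mem_iUnion.2 ⟨k, z, hk, h1.le, h2.ge, h3.le, h4.ge⟩
  refine (measure_mono hsub).trans ((measure_union_le _ _).trans ?_)
  have hfin : volume ((fun K : Cmp Y => (up Y A (pt K), up Y f (pt K))) '' (J : Set (Cmp Y))) = 0 :=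
    (J.finite_toSet.image _).measure_zero _
  rw [hfin, add_zero]
  exact hNle

end

end

end Crest.Agent.R105.Sl_732
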