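import Crest.Agent.R105.Vs3_439
import Crest.Agent.R105.Sl3_732
import Crest.Agent.R105.Nip6_31
import Crest.Agent.R105.SkA2_8
import Crest.Agent.R105.Nit1_39
import Crest.Agent.R105.Ni2_459

/-!
# Row 105, S0138, NI (P2), part 4 (helper439): the literal `CLOSEDP` and `LINP` of `SkA1_8`

* `isPreconnected_Lv` : level sets of a switched function `= re` near infinity are connected
* `hlev` : the hypothesis on levels of `Sl_732.ni_of_acv`
* `ni_of_tendsto` : commutants of switched functions are closed (bounded energies, pointwise limits)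
* `closedp : SkA_8.CLOSEDP`, `linp : SkA_8.LINP`
-/

set_option autoImplicit false

open MeasureTheory Set Filter Topology Metric
open scoped NNReal ENNReal

namespace Crest.Agent.R105.Vs_439

open Bd_775 Ends_897 Tc_808 Ni_459 Crest.AnalysisR IfB_641
open Uni_659 (NoIsland)

noncomputable section

variable {Y : Set ℂ} {a b u : ℂ → ℝ}

/-! ### levels -/

/-- a closed set without islands which is connected off a bounded set is connected -/
theorem conn_of_noIsland {S M : Set ℂ} (hS : IsClosed S) (h : NoIsland S)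
    (hM : Bornology.IsBounded M) (hc : IsPreconnected (S \ M)) : IsPreconnected S := by
  have key : ∀ P Q : Set ℂ, IsClosed P → IsClosed Q → S ⊆ P ∪ Q → (S ∩ Q).Nonempty →
      ¬ (S ∩ (P ∩ Q)).Nonempty → S \ M ⊆ P → False := by
    intro P Q hP hQ hPQ hne hd hsub
    have hF : S ∩ Q ⊆ M := by
      rintro z ⟨hz, hzQ⟩
      by_contra hzM
      exact hd ⟨z, hz, hsub ⟨hz, hzM⟩, hzQ⟩
    refine h (S ∩ Q) inter_subset_left hne ?_ ⟨Pᶜ, hP.isOpen_compl, ?_⟩
    · exact Metric.isCompact_of_isClosed_isBounded (hS.inter hQ) (hM.subset hF)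
    · ext z
      constructor
      · rintro ⟨hzP, hz⟩
        exact ⟨hz, (hPQ hz).resolve_left hzP⟩
      · rintro ⟨hz, hzQ⟩
        exact ⟨fun hzP => hd ⟨z, hz, hzP, hzQ⟩, hz⟩
  rw [isPreconnected_closed_iff]
  intro P Q hP hQ hPQ hPn hQn
  by_contra hd
  have h1 : S \ M ⊆ P ∨ S \ M ⊆ Q := by
    refine (isPreconnected_iff_subset_of_disjoint_closed.1 hc) P Q hP hQ (sdiff_subset.trans hPQ) ?_
    rw [← not_nonempty_iff_eq_empty]
    rintro ⟨z, hz, hzPQ⟩
    exact hd ⟨z, hz.1, hzPQ⟩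
  rcases h1 with h1 | h1
  · exact key P Q hP hQ hPQ hQn hd h1
  · refine key Q P hQ hP (by rwa [union_comm]) hPn ?_ h1
    rwa [inter_comm Q P]

section
variable (hY : IsExteriorDomain Yᶜ)
include hY

theorem isPreconnected_Lv (hu : LB u) (hc : ∀ z ∉ Y, ContinuousAt u z) (hs : Swd Y u)
    (hfar : ∃ R, ∀ z, R ≤ ‖z‖ → z ∉ Y ∧ u z = z.re) (t : ℝ) :
    IsPreconnected (Lv Y u t) ∧ (Lv Y u t \ Y).Nonempty := by
  obtain ⟨R, hR⟩ := hfar
  have hlo : ∀ z, R ≤ ‖z‖ → lo Y u z = z.re := fun z hz => by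
    rw [lo_of_notMem hY hu (hR z hz).1 (hc z (hR z hz).1), (hR z hz).2]
  have hup : ∀ z, R ≤ ‖z‖ → up Y u z = z.re := fun z hz => by
    rw [up_of_notMem hY hu (hR z hz).1 (hc z (hR z hz).1), (hR z hz).2]
  set A : ℝ := max R (|t| + 1) with hA
  have hAR : R ≤ A := le_max_left _ _
  have hAt : |t| + 1 ≤ A := le_max_right _ _
  have hA0 : 0 < A := by linarith [abs_nonneg t]
  have htA := abs_le.1 (show |t| ≤ A by linarith)
  -- the box
  set M : Set ℂ := {z | |z.re| < A ∧ |z.im| < A} with hM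
  have hMb : Bornology.IsBounded M := by
    refine (isBounded_ball (x := (0 : ℂ)) (r := 2 * A)).subset fun z hz => ?_
    rw [mem_ball_zero_iff]
    calc ‖z‖ ≤ |z.re| + |z.im| := Complex.norm_le_abs_re_add_abs_im z
      _ < 2 * A := by linarith [hz.1, hz.2]
  have hout : ∀ z ∉ M, R ≤ ‖z‖ := by
    intro z hz
    by_cases h1 : |z.re| < A
    · have h2 : A ≤ |z.im| := by
        by_contra h2
        exact hz ⟨h1, not_le.1 h2⟩
      exact hAR.trans (h2.trans (Complex.abs_im_le_norm z))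
    · exact hAR.trans ((not_lt.1 h1).trans (Complex.abs_re_le_norm z))
  have hcv : ∀ {S : Set ℂ}, Convex ℝ S → IsPreconnected S := fun h => h.isPreconnected
  have hre : ∀ c : ℝ, Convex ℝ {z : ℂ | z.re ≤ c} := fun c =>
    convex_halfSpace_le Complex.reLm.isLinear c
  have hre' : ∀ c : ℝ, Convex ℝ {z : ℂ | c ≤ z.re} := fun c =>
    convex_halfSpace_ge Complex.reLm.isLinear c
  have him : ∀ c : ℝ, Convex ℝ {z : ℂ | z.im ≤ c} := fun c =>
    convex_halfSpace_le Complex.imLm.isLinear c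
  have him' : ∀ c : ℝ, Convex ℝ {z : ℂ | c ≤ z.im} := fun c =>
    convex_halfSpace_ge Complex.imLm.isLinear c
  have c1 : IsPreconnected {z | lo Y u z ≤ t} := by
    refine conn_of_noIsland ((lsc_lo hY hu).isClosed_preimage t)
      (Uni_659.noIsland_lo hY hu hc hs t) hMb ?_
    have e : {z | lo Y u z ≤ t} \ M = ({z : ℂ | z.re ≤ -A} ∪ ({z : ℂ | z.re ≤ t} ∩ {z : ℂ | A ≤ z.im})) ∪
        ({z : ℂ | z.re ≤ t} ∩ {z : ℂ | z.im ≤ -A}) := by
      ext z
      constructor
      · rintro ⟨h1, h2⟩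
        have h3 : z.re ≤ t := by rw [← hlo z (hout z h2)]; exact h1
        by_cases h4 : z.re ≤ -A
        · exact Or.inl (Or.inl h4)
        · have h5 : A ≤ |z.im| := by
            by_contra h5
            refine h2 ⟨abs_lt.2 ⟨not_le.1 h4, ?_⟩, not_le.1 h5⟩
            linarith [le_abs_self t]
          rcases le_abs.1 h5 with h6 | h6
          · exact Or.inl (Or.inr ⟨h3, h6⟩)
          · exact Or.inr ⟨h3, by show z.im ≤ -A; linarith⟩
      · intro h1
        have hzM : z ∉ M := by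
          rintro ⟨h2, h3⟩
          rw [abs_lt] at h2 h3
          rcases h1 with (h1 | h1) | h1
          · have : z.re ≤ -A := h1
            linarith
          · have : A ≤ z.im := h1.2
            linarith
          · have : z.im ≤ -A := h1.2
            linarith
        refine ⟨?_, hzM⟩
        show lo Y u z ≤ t
        rw [hlo z (hout z hzM)]
        rcases h1 with (h1 | h1) | h1
        · exact le_trans h1 htA.1
        · exact h1.1
        · exact h1.1
    rw [e]
    have hp : IsPreconnected ({z : ℂ | z.re ≤ -A} ∪ ({z : ℂ | z.re ≤ t} ∩ {z : ℂ | A ≤ z.im})) :=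
      IsPreconnected.union (⟨-A, A⟩ : ℂ) (le_refl (-A)) ⟨htA.1, le_refl A⟩ (hcv (hre _))
        (hcv ((hre _).inter (him' _)))
    exact IsPreconnected.union (⟨-A, -A⟩ : ℂ) (Or.inl (le_refl (-A))) ⟨htA.1, le_refl (-A)⟩ hp
      (hcv ((hre _).inter (him _)))
  have c2 : IsPreconnected {z | t ≤ up Y u z} := by
    refine conn_of_noIsland ((usc_up hY hu).isClosed_preimage t)
      (Uni_659.noIsland_up hY hu hc hs t) hMb ?_
    have e : {z | t ≤ up Y u z} \ M = ({z : ℂ | A ≤ z.re} ∪ ({z : ℂ | t ≤ z.re} ∩ {z : ℂ | A ≤ z.im})) ∪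
        ({z : ℂ | t ≤ z.re} ∩ {z : ℂ | z.im ≤ -A}) := by
      ext z
      constructor
      · rintro ⟨h1, h2⟩
        have h3 : t ≤ z.re := by rw [← hup z (hout z h2)]; exact h1
        by_cases h4 : A ≤ z.re
        · exact Or.inl (Or.inl h4)
        · have h5 : A ≤ |z.im| := by
            by_contra h5
            refine h2 ⟨abs_lt.2 ⟨?_, not_le.1 h4⟩, not_le.1 h5⟩
            linarith [neg_abs_le t]
          rcases le_abs.1 h5 with h6 | h6
          · exact Or.inl (Or.inr ⟨h3, h6⟩)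
          · exact Or.inr ⟨h3, by show z.im ≤ -A; linarith⟩
      · intro h1
        have hzM : z ∉ M := by
          rintro ⟨h2, h3⟩
          rw [abs_lt] at h2 h3
          rcases h1 with (h1 | h1) | h1
          · have : A ≤ z.re := h1
            linarith
          · have : A ≤ z.im := h1.2
            linarith
          · have : z.im ≤ -A := h1.2
            linarith
        refine ⟨?_, hzM⟩
        show t ≤ up Y u z
        rw [hup z (hout z hzM)]
        rcases h1 with (h1 | h1) | h1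
        · exact htA.2.trans h1
        · exact h1.1
        · exact h1.1
    rw [e]
    have hp : IsPreconnected ({z : ℂ | A ≤ z.re} ∪ ({z : ℂ | t ≤ z.re} ∩ {z : ℂ | A ≤ z.im})) :=
      IsPreconnected.union (⟨A, A⟩ : ℂ) (le_refl A) ⟨htA.2, le_refl A⟩ (hcv (hre' _))
        (hcv ((hre' _).inter (him' _)))
    exact IsPreconnected.union (⟨A, -A⟩ : ℂ) (Or.inl (le_refl A)) ⟨htA.2, le_refl (-A)⟩ hp
      (hcv ((hre' _).inter (him _)))
  constructor
  · exact Nit_39.isPreconnected_level (lsc_lo hY hu) (usc_up hY hu) (lo_le_up hY hu) c1 c2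
  · have hz : (⟨t, A⟩ : ℂ) ∉ M := fun h => by
      have := h.2
      simp only [abs_of_pos hA0, lt_self_iff_false] at this
    exact ⟨⟨t, A⟩, ⟨(hlo _ (hout _ hz)).le, (hup _ (hout _ hz)).ge⟩, (hR _ (hout _ hz)).1⟩

/-! ### energies -/

lemma gap_eq_osc (hu : LB u) (K : Cmp Y) : gap Y u K = Tc_808.osc Y u K.1 := by
  have h := K.2.choose_spec
  have h1 := osc_eq' hY hu h.1
  rw [← h.2] at h1
  rw [h1]; rfl

theorem TW_le {W : Set ℂ} (hu : TT Y u) : TW Y W u ≤
    ENNReal.ofReal (∫ z in Yᶜ, en u z) + ENNReal.ofReal (∑' K : Cmp Y, Tc_808.osc Y u K.1 ^ 2) := by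
  classical
  unfold TW
  refine add_le_add ?_ ?_
  · rw [ofReal_integral_eq_lintegral_ofReal hu.q.fin (Eventually.of_forall fun z => en_nonneg u z)]
    exact lintegral_mono_set fun z hz => hz.2
  · rw [ENNReal.ofReal_tsum_of_nonneg (fun K => sq_nonneg _) hu.sum]
    refine ENNReal.tsum_le_tsum fun K => ?_
    rw [gap_eq_osc hY (LB.of_bdd hu.q.bdd)]
    split_ifs
    · exact le_rfl
    · exact zero_le

/-- the switched function `x0 + a` and its levels -/
theorem x0_data {x0 : ℂ → ℝ} (hx : X0 Y x0) (ha : TT Y a) (hac : HasCompactSupport a)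
    (hs : Swd Y (fun z => x0 z + a z)) :
    LB (fun z => x0 z + a z) ∧ LocallyLipschitzOn Yᶜ (fun z => x0 z + a z) ∧
    (∃ W0, IsOpen W0 ∧ Y ⊆ W0 ∧ TW Y W0 (fun z => x0 z + a z) ≠ ∞) ∧
    ∀ᵐ t : ℝ, IsPreconnected (Lv Y (fun z => x0 z + a z) t) ∧
      (Lv Y (fun z => x0 z + a z) t \ Y).Nonempty ∧
      ∃ μ : Measure ℂ, SigmaFinite μ ∧
        ∀ C ⊆ Lv Y (fun z => x0 z + a z) t \ Y, IsCompact C → IsPreconnected C → C.Nontrivial →
          μ C ≠ 0 := by
  classical
  have hYc : IsCompact Y := cpt_of hY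
  have hLB : LB (fun z => x0 z + a z) := (LB.of_cont hx.sm.continuous).add (LB.of_bdd ha.q.bdd)
  have hxl : LocallyLipschitzOn Yᶜ x0 :=
    ((hx.sm.of_le (by simp)).locallyLipschitz).locallyLipschitzOn
  have hll : LocallyLipschitzOn Yᶜ (fun z => x0 z + a z) := ll_add hxl ha.q.loc
  have hcont : ∀ z ∉ Y, ContinuousAt (fun z => x0 z + a z) z := fun z hz =>
    hll.continuousOn.continuousAt (hY.1.mem_nhds hz)
  refine ⟨hLB, hll, ⟨(tsupport x0)ᶜ, (isClosed_tsupport _).isOpen_compl, ?_, ?_⟩, ?_⟩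
  · intro z hz hz'
    exact hx.zero hz' hz
  · have h1 : TW Y (tsupport x0)ᶜ (fun z => x0 z + a z) = TW Y (tsupport x0)ᶜ a := by
      unfold TW
      congr 1
      · refine setLIntegral_congr_fun
          (((isClosed_tsupport _).isOpen_compl.measurableSet).diff hYc.isClosed.measurableSet)
          fun z hz => ?_
        have h2 : (fun z => x0 z + a z) =ᶠ[𝓝 z] a := by
          filter_upwards [(isClosed_tsupport x0).isOpen_compl.mem_nhds hz.1] with w hw
          rw [image_eq_zero_of_notMem_tsupport hw, zero_add]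
        show ENNReal.ofReal (en (fun z => x0 z + a z) z) = ENNReal.ofReal (en a z)
        rw [en_eq_of_eventuallyEq h2]
      · refine tsum_congr fun K => ?_
        have h3 : gap Y (fun z => x0 z + a z) K = gap Y a K := by
          unfold gap upK loK
          rw [SkA_8.up_x0 hx K.2.choose_spec.1, SkA_8.lo_x0 hx K.2.choose_spec.1]
        rw [h3]
    rw [h1]
    exact ne_top_of_le_ne_top (ENNReal.add_ne_top.2 ⟨ENNReal.ofReal_ne_top, ENNReal.ofReal_ne_top⟩)
      (TW_le hY ha)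
  · have hE : ∀ R : ℝ, ∫⁻ z in ball 0 R \ Y, ENNReal.ofReal (en (fun z => x0 z + a z) z) ≠ ∞ := by
      intro R
      have hm : MeasurableSet (ball (0 : ℂ) R \ Y) := measurableSet_ball.diff hYc.isClosed.measurableSet
      have hae : ∀ᵐ z ∂(volume.restrict (ball (0 : ℂ) R \ Y)), DifferentiableAt ℝ a z :=
        ae_restrict_of_ae_restrict_of_subset (fun z hz => hz.2) (ae_diff hY.1 ha.q.loc)
      have hxd : Differentiable ℝ x0 := hx.sm.differentiable (by simp)
      have h1 : ∫⁻ z in ball 0 R \ Y, ENNReal.ofReal (en (fun z => x0 z + a z) z) ≤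
          ∫⁻ z in ball 0 R \ Y, (ENNReal.ofReal (2 * en x0 z) + ENNReal.ofReal (2 * en a z)) := by
        refine lintegral_mono_ae ?_
        filter_upwards [hae] with z hz
        rw [← ENNReal.ofReal_add (mul_nonneg zero_le_two (en_nonneg _ _))
          (mul_nonneg zero_le_two (en_nonneg _ _))]
        exact ENNReal.ofReal_le_ofReal (en_add_le (hxd z) hz)
      refine ne_top_of_le_ne_top ?_ h1
      rw [lintegral_add_left ((measurable_en x0).const_mul 2).ennreal_ofReal]
      refine ENNReal.add_ne_top.2 ⟨?_, ?_⟩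
      · have hc : Continuous (en x0) := by
          unfold en gx gy
          have h2 := hx.sm.continuous_fderiv (by simp)
          exact (((h2.clm_apply continuous_const).pow 2).add ((h2.clm_apply continuous_const).pow 2))
        have h3 : IntegrableOn (fun z => 2 * en x0 z) (closedBall 0 R) :=
          (hc.const_mul 2).continuousOn.integrableOn_compact (isCompact_closedBall _ _)
        have h4 : IntegrableOn (fun z => 2 * en x0 z) (ball 0 R \ Y) :=
          h3.mono_set (sdiff_subset.trans ball_subset_closedBall)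
        exact (ne_of_lt (lt_of_le_of_lt (le_of_eq rfl)
          (hasFiniteIntegral_iff_ofReal (Eventually.of_forall fun z =>
            mul_nonneg zero_le_two (en_nonneg _ _)) |>.1 h4.2)))
      · have h4 : IntegrableOn (fun z => 2 * en a z) (ball 0 R \ Y) :=
          IntegrableOn.mono_set (t := Yᶜ) (ha.q.fin.const_mul 2) fun z hz => hz.2
        exact (ne_of_lt (lt_of_le_of_lt (le_of_eq rfl)
          (hasFiniteIntegral_iff_ofReal (Eventually.of_forall fun z =>
            mul_nonneg zero_le_two (en_nonneg _ _)) |>.1 h4.2)))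
    have hfar : ∃ R, ∀ z, R ≤ ‖z‖ → z ∉ Y ∧ x0 z + a z = z.re := by
      obtain ⟨R1, h1⟩ := hx.far
      obtain ⟨R2, h2⟩ := hYc.isBounded.exists_norm_le
      obtain ⟨R3, h3⟩ := hac.isCompact.isBounded.exists_norm_le
      refine ⟨max R1 (max (R2 + 1) (R3 + 1)), fun z hz => ⟨fun hzY => ?_, ?_⟩⟩
      · have := h2 z hzY
        have := (le_max_left (R2 + 1) (R3 + 1)).trans ((le_max_right R1 _).trans hz)
        linarith
      · have h5 : z ∉ tsupport a := fun h => by
          have := h3 z h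
          have := (le_max_right (R2 + 1) (R3 + 1)).trans ((le_max_right R1 _).trans hz)
          linarith
        rw [h1 z ((le_max_left _ _).trans hz), image_eq_zero_of_notMem_tsupport h5, add_zero]
    filter_upwards [Nip_31.pos_ae hY hll hLB hE] with t ht
    obtain ⟨μ, hμ, hpos⟩ := ht
    have h := isPreconnected_Lv hY hLB hcont hs hfar t
    exact ⟨h.1, h.2, μ, inferInstance, hpos⟩

/-- from `ACV` on a.e. level to the null image -/
theorem ni_of_acv {x0 : ℂ → ℝ} (hx : X0 Y x0) (ha : TT Y a) (hac : HasCompactSupport a)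
    (hs : Swd Y (fun z => x0 z + a z)) {ψ : ℂ → ℝ} (hψ : TT Y ψ)
    (h : ∀ᵐ t : ℝ, Sl_732.ACV Y (Lv Y (fun z => x0 z + a z) t) ψ) : NI Y a ψ := by
  obtain ⟨hLB, hll, ⟨W0, hW0, hYW, hfin⟩, hlev⟩ := x0_data hY hx ha hac hs
  have hψb : LB ψ := LB.of_bdd hψ.q.bdd
  have hfinψ : TW Y W0 ψ ≠ ∞ := ne_top_of_le_ne_top
    (ENNReal.add_ne_top.2 ⟨ENNReal.ofReal_ne_top, ENNReal.ofReal_ne_top⟩) (TW_le hY hψ)
  have h1 : NI Y (fun z => x0 z + a z) ψ := by
    refine Sl_732.ni_of_acv hY hLB hψb (fun z hz => hψ.q.loc.continuousOn.continuousAt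
      (hY.1.mem_nhds hz)) ?_ ?_ hlev h
    · refine (JJ_countable hYW hfinψ).mono fun K hK => ?_
      exact lt_of_le_of_ne (gap_nonneg hY hψb K) (Ne.symm hK)
    · classical
      have h2 : ∀ {v : ℂ → ℝ}, TW Y W0 v ≠ ∞ → ∑' K : Cmp Y, ENNReal.ofReal (gap Y v K ^ 2) ≠ ∞ := by
        intro v hv
        have h3 : (∑' K : Cmp Y, if K.1 ⊆ W0 then ENNReal.ofReal (gap Y v K ^ 2) else 0) ≠ ∞ :=
          ne_top_of_le_ne_top hv le_add_self
        convert h3 using 3 with K
        rw [if_pos ((cmp_subset K).trans hYW)]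
      refine ne_top_of_le_ne_top (ENNReal.add_ne_top.2 ⟨h2 hfin, h2 hfinψ⟩) ?_
      rw [← ENNReal.tsum_add]
      refine ENNReal.tsum_le_tsum fun K => ?_
      show ENNReal.ofReal (gap Y (fun z => x0 z + a z) K) * ENNReal.ofReal (gap Y ψ K) ≤ _
      rw [← ENNReal.ofReal_mul (gap_nonneg hY hLB K), ← ENNReal.ofReal_add (sq_nonneg _) (sq_nonneg _)]
      refine ENNReal.ofReal_le_ofReal ?_
      have := am_gm one_pos (gap Y (fun z => x0 z + a z) K) (gap Y ψ K)
      simpa using this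
  unfold NI at h1 ⊢
  rwa [SkA_8.NP_congr (a' := a) (b' := ψ) (fun z hz => SkA_8.lo_x0 hx hz)
    (fun z hz => SkA_8.up_x0 hx hz) (fun _ _ => rfl) (fun _ _ => rfl)] at h1

omit hY in
theorem ni_x0 {x0 : ℂ → ℝ} (hx : X0 Y x0) (h : NI Y a b) : NI Y (fun z => x0 z + a z) b := by
  unfold NI at h ⊢
  rwa [SkA_8.NP_congr (a' := a) (b' := b) (fun z hz => SkA_8.lo_x0 hx hz)
    (fun z hz => SkA_8.up_x0 hx hz) (fun _ _ => rfl) (fun _ _ => rfl)]

/-- `NI` gives `ACV` on a.e. level -/
theorem acv_of_ni {x0 : ℂ → ℝ} (hx : X0 Y x0) (ha : TT Y a) (hac : HasCompactSupport a)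
    (hs : Swd Y (fun z => x0 z + a z)) (hb : TT Y b) (h : NI Y a b) :
    ∀ᵐ t : ℝ, Sl_732.ACV Y (Lv Y (fun z => x0 z + a z) t) b := by
  obtain ⟨hLB, hll, ⟨W0, hW0, hYW, hfin⟩, -⟩ := x0_data hY hx ha hac hs
  exact acv_of_NI hY hLB hll (LB.of_bdd hb.q.bdd) hb.q.loc hW0 hYW hfin (ne_top_of_le_ne_top
    (ENNReal.add_ne_top.2 ⟨ENNReal.ofReal_ne_top, ENNReal.ofReal_ne_top⟩) (TW_le hY hb))
    (ni_x0 hx h)

/-- **the commutant of a switched function is closed** under pointwise limits off `Y` with bounded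
energies -/
theorem ni_of_tendsto {x0 : ℂ → ℝ} (hx : X0 Y x0) (ha : TT Y a) (hac : HasCompactSupport a)
    (hs : Swd Y (fun z => x0 z + a z)) {B : ℕ → ℂ → ℝ} (hB : ∀ n, TT Y (B n))
    (hNI : ∀ n, NI Y a (B n)) {ψ : ℂ → ℝ} (hψ : TT Y ψ) {M : ℝ}
    (hM : ∀ n, (∫ z in Yᶜ, en (B n) z) + ∑' K : Cmp Y, Tc_808.osc Y (B n) K.1 ^ 2 ≤ M)
    (hlim : ∀ z ∉ Y, Tendsto (fun n => B n z) atTop (𝓝 (ψ z))) : NI Y a ψ := by
  obtain ⟨hLB, hll, ⟨W0, hW0, hYW, hfin⟩, -⟩ := x0_data hY hx ha hac hs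
  refine ni_of_acv hY hx ha hac hs hψ ?_
  refine acv_of_tendsto hY hLB hll hW0 hYW hfin (fun n => LB.of_bdd (hB n).q.bdd)
    (fun n => (hB n).q.loc) (M := ENNReal.ofReal M) ENNReal.ofReal_ne_top (fun n => ?_)
    (fun n => ni_x0 hx (hNI n)) hlim
  refine (TW_le hY (hB n)).trans ?_
  rw [← ENNReal.ofReal_add (integral_nonneg fun z => en_nonneg _ z)
    (tsum_nonneg fun K => sq_nonneg _)]
  exact ENNReal.ofReal_le_ofReal (hM n)

end

/-- **LINP** -/
theorem linp : SkA_8.LINP := by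
  intro Y x0 hY hx a ha hac hs b b' hb hb' hab hab' s t
  have hYc : IsClosed Y := (cpt_of hY).isClosed
  have hc : TT Y (fun z => s * b z + t * b' z) :=
    (((TT.const s).mul hYc hb)).add hYc ((TT.const t).mul hYc hb')
  refine ni_of_acv hY hx ha hac hs hc ?_
  filter_upwards [acv_of_ni hY hx ha hac hs hb hab, acv_of_ni hY hx ha hac hs hb' hab'] with τ h1 h2
  exact (h1.const_mul s).add (h2.const_mul t)

/-- **CLOSEDP** -/
theorem closedp : SkA_8.CLOSEDP := by
  intro Y x0 hY hx a ha hac hs b ψ σ hb hψ hNI hσ huc hen hosc hle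
  have hYc : IsClosed Y := (cpt_of hY).isClosed
  obtain ⟨M1, hM1⟩ := hen.bddAbove_range
  obtain ⟨M2, hM2⟩ := hosc.bddAbove_range
  refine ni_of_tendsto hY hx ha hac hs hb hNI hψ
    (M := (2 * M1 + 2 * ∫ z in Yᶜ, en ψ z) + (2 * M2 + 2 * ∑' K, σ K ^ 2)) (fun n => ?_) ?_
  · refine add_le_add ?_ ?_
    · have h1 : ∫ z in Yᶜ, en (b n) z ≤ ∫ z in Yᶜ, (2 * en (fun w => b n w - ψ w) z + 2 * en ψ z) := by
        have hq : Q Y (fun w => b n w - ψ w) := (hb n).q.sub hYc hψ.q
        refine integral_mono_ae (hb n).q.fin ((hq.fin.const_mul 2).add (hψ.q.fin.const_mul 2)) ?_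
        filter_upwards [hq.ae_diff hYc, hψ.q.ae_diff hYc] with z h1 h2
        have h3 := en_add_le h1 h2
        simpa using h3
      have hq : Q Y (fun w => b n w - ψ w) := (hb n).q.sub hYc hψ.q
      rw [integral_add (hq.fin.const_mul 2) (hψ.q.fin.const_mul 2), integral_const_mul,
        integral_const_mul] at h1
      have h4 := hM1 ⟨n, rfl⟩
      linarith
    · have hs1 : Summable fun K : Cmp Y => (Tc_808.osc Y (b n) K.1 - σ K) ^ 2 := by
        refine Summable.of_nonneg_of_le (fun K => sq_nonneg _) (fun K => ?_)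
          (((hb n).sum.mul_left 2).add (hσ.mul_left 2))
        nlinarith [sq_nonneg (Tc_808.osc Y (b n) K.1 + σ K)]
      have h1 : ∑' K : Cmp Y, Tc_808.osc Y (b n) K.1 ^ 2 ≤
          ∑' K : Cmp Y, (2 * (Tc_808.osc Y (b n) K.1 - σ K) ^ 2 + 2 * σ K ^ 2) := by
        refine Summable.tsum_le_tsum (fun K => ?_) (hb n).sum ((hs1.mul_left 2).add (hσ.mul_left 2))
        nlinarith [sq_nonneg (Tc_808.osc Y (b n) K.1 - 2 * σ K)]
      rw [(hs1.mul_left 2).tsum_add (hσ.mul_left 2), tsum_mul_left, tsum_mul_left] at h1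
      have h4 := hM2 ⟨n, rfl⟩
      linarith
  · intro z hz
    have h1 := huc {z} isCompact_singleton (singleton_subset_iff.2 hz)
    exact h1.tendsto_at rfl

end

end Crest.Agent.R105.Vs_439
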