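import Crest.Agent.R105.SkA3_8
import Crest.Agent.R105.Sw5_209
import Crest.Agent.R105.Nip8_31
import Crest.Agent.R105.Vs4_439
import Crest.Agent.R105.Ni3_459
import Crest.Agent.R105.Cnv5_755

/-!
# Row 105, S0138, first half: **`attainp : ATTAINP`** (helper8), all leaves plugged
-/

namespace Crest.Agent.R105.SkA_8

/-- the package of the first half exists -/
theorem attainp : ATTAINP :=
  attain Sw_209.switchp Nip_31.linp Vs_439.closedp Ni_459.areap Cnv_755.convp

end Crest.Agent.R105.SkA_8
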