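import Mathlib

/-!
# Row 105, S0139 [B]: literal carrier (helper775)

`C` compact (totally disconnected), everything is locally Lipschitz off `C`.
* `gx u`, `gy u` : partial derivatives by `fderiv`, `en = gx² + gy²`, `dot`, `wdg`
* `Q C u`  : bounded, locally Lipschitz on `Cᶜ`, finite energy (jumps at `C` allowed)
* `D C u`  : `Q` and continuous (no condition at infinity, 641 (a))
* `LC C χ` : locally Lipschitz, bounded, finite energy, locally constant near `C` (641 (b))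
* `Gen C b` : the algebra generated by constants, `LC` and the `b i`, closed under Lipschitz
  functions of one variable
* `om C u v = ∫_{Cᶜ} wdg u v`, `Iso C b`
-/

set_option autoImplicit false

open MeasureTheory Set Filter Topology Metric
open scoped NNReal ENNReal

namespace Crest.Agent.R105.Bd_775

noncomputable section

/-- `∂u/∂x` -/
def gx (u : ℂ → ℝ) (z : ℂ) : ℝ := fderiv ℝ u z 1
/-- `∂u/∂y` -/
def gy (u : ℂ → ℝ) (z : ℂ) : ℝ := fderiv ℝ u z Complex.I
/-- energy density -/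
def en (u : ℂ → ℝ) (z : ℂ) : ℝ := gx u z ^ 2 + gy u z ^ 2
/-- `⟨∇u, ∇v⟩` -/
def dot (u v : ℂ → ℝ) (z : ℂ) : ℝ := gx u z * gx v z + gy u z * gy v z
/-- `du ∧ dv` -/
def wdg (u v : ℂ → ℝ) (z : ℂ) : ℝ := gx u z * gy v z - gy u z * gx v z

/-- bounded, locally Lipschitz off `C`, finite energy off `C` -/
structure Q (C : Set ℂ) (u : ℂ → ℝ) : Prop where
  bdd : ∃ M, ∀ z, |u z| ≤ M
  loc : LocallyLipschitzOn Cᶜ u
  fin : IntegrableOn (en u) Cᶜ

/-- the honest class -/
structure D (C : Set ℂ) (u : ℂ → ℝ) : Prop where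
  cont : Continuous u
  bdd : ∃ M, ∀ z, |u z| ≤ M
  loc : LocallyLipschitzOn Cᶜ u
  fin : IntegrableOn (en u) Cᶜ

/-- locally Lipschitz, bounded, finite energy, locally constant near `C` -/
structure LC (C : Set ℂ) (χ : ℂ → ℝ) : Prop where
  lip : LocallyLipschitz χ
  bdd : ∃ M, ∀ z, |χ z| ≤ M
  fin : Integrable (en χ)
  lc : ∀ z ∈ C, ∀ᶠ w in 𝓝 z, χ w = χ z

/-- the algebra generated by constants, `LC` and the family `b` -/
inductive Gen (C : Set ℂ) {ι : Type*} (b : ι → ℂ → ℝ) : (ℂ → ℝ) → Prop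
  | const (c : ℝ) : Gen C b (fun _ => c)
  | lc {χ : ℂ → ℝ} : LC C χ → Gen C b χ
  | of (i : ι) : Gen C b (b i)
  | add {u v : ℂ → ℝ} : Gen C b u → Gen C b v → Gen C b (fun z => u z + v z)
  | mul {u v : ℂ → ℝ} : Gen C b u → Gen C b v → Gen C b (fun z => u z * v z)
  | comp {u : ℂ → ℝ} {h : ℝ → ℝ} {K : ℝ≥0} :
      LipschitzWith K h → Gen C b u → Gen C b (fun z => h (u z))

/-- `∫_{Cᶜ} du ∧ dv` -/
def om (C : Set ℂ) (u v : ℂ → ℝ) : ℝ := ∫ z in Cᶜ, wdg u v z

/-- isotropic families -/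
def Iso (C : Set ℂ) {ι : Type*} (b : ι → ℂ → ℝ) : Prop :=
  ∀ u v, Gen C b u → Gen C b v → om C u v = 0

/-! ### pointwise calculus -/

lemma measurable_gx (u : ℂ → ℝ) : Measurable (gx u) := measurable_fderiv_apply_const ℝ u 1
lemma measurable_gy (u : ℂ → ℝ) : Measurable (gy u) :=
  measurable_fderiv_apply_const ℝ u Complex.I
lemma measurable_en (u : ℂ → ℝ) : Measurable (en u) :=
  ((measurable_gx u).pow_const 2).add ((measurable_gy u).pow_const 2)
lemma measurable_dot (u v : ℂ → ℝ) : Measurable (dot u v) :=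
  ((measurable_gx u).mul (measurable_gx v)).add ((measurable_gy u).mul (measurable_gy v))
lemma measurable_wdg (u v : ℂ → ℝ) : Measurable (wdg u v) :=
  ((measurable_gx u).mul (measurable_gy v)).sub ((measurable_gy u).mul (measurable_gx v))

lemma en_nonneg (u : ℂ → ℝ) (z : ℂ) : 0 ≤ en u z := by unfold en; positivity

lemma abs_wdg_le (u v : ℂ → ℝ) (z : ℂ) : |wdg u v z| ≤ (en u z + en v z) / 2 := by
  unfold wdg en
  rw [abs_le]; constructor <;>
  nlinarith [sq_nonneg (gx u z + gy v z), sq_nonneg (gy u z - gx v z),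
    sq_nonneg (gx u z - gy v z), sq_nonneg (gy u z + gx v z)]

lemma abs_dot_le (u v : ℂ → ℝ) (z : ℂ) : |dot u v z| ≤ (en u z + en v z) / 2 := by
  unfold dot en
  rw [abs_le]; constructor <;>
  nlinarith [sq_nonneg (gx u z + gx v z), sq_nonneg (gy u z - gy v z),
    sq_nonneg (gx u z - gx v z), sq_nonneg (gy u z + gy v z)]

/-- `en u = ‖fderiv‖²` -/
lemma en_eq (u : ℂ → ℝ) (z : ℂ) : en u z = ‖fderiv ℝ u z‖ ^ 2 := by
  set L := fderiv ℝ u z with hL
  have h1 : en u z = L 1 ^ 2 + L Complex.I ^ 2 := rfl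
  have hLz : ∀ w : ℂ, L w = w.re * L 1 + w.im * L Complex.I := by
    intro w
    have : w = w.re • (1 : ℂ) + w.im • Complex.I := by
      apply Complex.ext <;> simp
    conv_lhs => rw [this]
    rw [map_add, map_smul, map_smul, smul_eq_mul, smul_eq_mul]
  rw [h1]
  have hle : ‖L‖ ≤ Real.sqrt (L 1 ^ 2 + L Complex.I ^ 2) := by
    refine L.opNorm_le_bound (Real.sqrt_nonneg _) fun w => ?_
    rw [Real.norm_eq_abs, ← Real.sqrt_sq (norm_nonneg w), ← Real.sqrt_mul (by positivity)]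
    refine Real.abs_le_sqrt ?_
    rw [hLz w, Complex.sq_norm, Complex.normSq_apply]
    nlinarith [sq_nonneg (w.re * L Complex.I - w.im * L 1)]
  have hge : L 1 ^ 2 + L Complex.I ^ 2 ≤ ‖L‖ ^ 2 := by
    set w : ℂ := ⟨L 1, L Complex.I⟩ with hw
    have h2 := L.le_opNorm w
    rw [Real.norm_eq_abs, hLz w] at h2
    have h3 : w.re * L 1 + w.im * L Complex.I = L 1 ^ 2 + L Complex.I ^ 2 := by
      simp only [hw]; ring
    rw [h3, abs_of_nonneg (by positivity)] at h2
    have h4 : ‖w‖ ^ 2 = L 1 ^ 2 + L Complex.I ^ 2 := by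
      rw [Complex.sq_norm, Complex.normSq_apply]; simp only [hw]; ring
    rcases eq_or_lt_of_le (norm_nonneg w) with h5 | h5
    · rw [← h4, ← h5]; nlinarith [sq_nonneg ‖L‖]
    · have : ‖w‖ ≤ ‖L‖ := by
        rw [← h4] at h2
        have : ‖w‖ * ‖w‖ ≤ ‖L‖ * ‖w‖ := by nlinarith
        exact le_of_mul_le_mul_right this h5
      rw [← h4]
      exact pow_le_pow_left₀ (norm_nonneg _) this 2
  refine le_antisymm hge ?_
  calc ‖L‖ ^ 2 ≤ (Real.sqrt (L 1 ^ 2 + L Complex.I ^ 2)) ^ 2 :=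
        pow_le_pow_left₀ (norm_nonneg _) hle 2
    _ = _ := Real.sq_sqrt (by positivity)

/-- Rademacher for locally Lipschitz functions on an open set -/
theorem ae_diff {O : Set ℂ} (hO : IsOpen O) {u : ℂ → ℝ} (hu : LocallyLipschitzOn O u) :
    ∀ᵐ z ∂(volume.restrict O), DifferentiableAt ℝ u z := by
  rw [ae_restrict_iff' hO.measurableSet]
  have : volume {z | ¬ (z ∈ O → DifferentiableAt ℝ u z)} = 0 := by
    apply measure_null_of_locally_null
    intro x hx
    have hxO : x ∈ O := by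
      by_contra h
      exact hx fun h' => absurd h' h
    obtain ⟨K, t, ht, hL⟩ := hu hxO
    rw [hO.nhdsWithin_eq hxO] at ht
    obtain ⟨V, hVt, hV, hxV⟩ := _root_.mem_nhds_iff.1 ht
    refine ⟨V ∩ {z | ¬ (z ∈ O → DifferentiableAt ℝ u z)}, ?_, ?_⟩
    · exact inter_mem (mem_nhdsWithin_of_mem_nhds (hV.mem_nhds hxV)) self_mem_nhdsWithin
    · have h1 := (hL.mono hVt).ae_differentiableWithinAt_of_mem (μ := volume)
      refine measure_mono_null ?_ (ae_iff.1 h1)
      rintro z ⟨hzV, hz⟩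
      simp only [mem_ofPred_eq, Classical.not_imp] at hz ⊢
      exact ⟨hzV, fun h => hz.2 (h.differentiableAt (hV.mem_nhds hzV))⟩
  exact this

lemma gx_eq_of_eventuallyEq {u v : ℂ → ℝ} {z : ℂ} (h : u =ᶠ[𝓝 z] v) : gx u z = gx v z := by
  unfold gx; rw [h.fderiv_eq]
lemma gy_eq_of_eventuallyEq {u v : ℂ → ℝ} {z : ℂ} (h : u =ᶠ[𝓝 z] v) : gy u z = gy v z := by
  unfold gy; rw [h.fderiv_eq]
lemma en_eq_of_eventuallyEq {u v : ℂ → ℝ} {z : ℂ} (h : u =ᶠ[𝓝 z] v) : en u z = en v z := by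
  unfold en; rw [gx_eq_of_eventuallyEq h, gy_eq_of_eventuallyEq h]
lemma wdg_eq_of_eventuallyEq {u v u' v' : ℂ → ℝ} {z : ℂ} (h : u =ᶠ[𝓝 z] u')
    (h' : v =ᶠ[𝓝 z] v') : wdg u v z = wdg u' v' z := by
  unfold wdg; rw [gx_eq_of_eventuallyEq h, gy_eq_of_eventuallyEq h,
    gx_eq_of_eventuallyEq h', gy_eq_of_eventuallyEq h']

lemma gx_add {u v : ℂ → ℝ} {z : ℂ} (hu : DifferentiableAt ℝ u z) (hv : DifferentiableAt ℝ v z) :
    gx (fun w => u w + v w) z = gx u z + gx v z := by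
  unfold gx; rw [fderiv_fun_add hu hv]; rfl
lemma gy_add {u v : ℂ → ℝ} {z : ℂ} (hu : DifferentiableAt ℝ u z) (hv : DifferentiableAt ℝ v z) :
    gy (fun w => u w + v w) z = gy u z + gy v z := by
  unfold gy; rw [fderiv_fun_add hu hv]; rfl
lemma gx_sub {u v : ℂ → ℝ} {z : ℂ} (hu : DifferentiableAt ℝ u z) (hv : DifferentiableAt ℝ v z) :
    gx (fun w => u w - v w) z = gx u z - gx v z := by
  unfold gx; rw [fderiv_fun_sub hu hv]; rfl
lemma gy_sub {u v : ℂ → ℝ} {z : ℂ} (hu : DifferentiableAt ℝ u z) (hv : DifferentiableAt ℝ v z) :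
    gy (fun w => u w - v w) z = gy u z - gy v z := by
  unfold gy; rw [fderiv_fun_sub hu hv]; rfl
lemma gx_mul {u v : ℂ → ℝ} {z : ℂ} (hu : DifferentiableAt ℝ u z) (hv : DifferentiableAt ℝ v z) :
    gx (fun w => u w * v w) z = u z * gx v z + v z * gx u z := by
  unfold gx; rw [fderiv_fun_mul hu hv]; simp
lemma gy_mul {u v : ℂ → ℝ} {z : ℂ} (hu : DifferentiableAt ℝ u z) (hv : DifferentiableAt ℝ v z) :
    gy (fun w => u w * v w) z = u z * gy v z + v z * gy u z := by
  unfold gy; rw [fderiv_fun_mul hu hv]; simp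
lemma gx_const (c : ℝ) (z : ℂ) : gx (fun _ => c) z = 0 := by unfold gx; simp
lemma gy_const (c : ℝ) (z : ℂ) : gy (fun _ => c) z = 0 := by unfold gy; simp
lemma en_const (c : ℝ) (z : ℂ) : en (fun _ => c) z = 0 := by
  unfold en; rw [gx_const, gy_const]; simp

lemma en_add_le {u v : ℂ → ℝ} {z : ℂ} (hu : DifferentiableAt ℝ u z)
    (hv : DifferentiableAt ℝ v z) :
    en (fun w => u w + v w) z ≤ 2 * en u z + 2 * en v z := by
  unfold en; rw [gx_add hu hv, gy_add hu hv]
  nlinarith [sq_nonneg (gx u z - gx v z), sq_nonneg (gy u z - gy v z)]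

lemma en_sub_le {u v : ℂ → ℝ} {z : ℂ} (hu : DifferentiableAt ℝ u z)
    (hv : DifferentiableAt ℝ v z) :
    en (fun w => u w - v w) z ≤ 2 * en u z + 2 * en v z := by
  unfold en; rw [gx_sub hu hv, gy_sub hu hv]
  nlinarith [sq_nonneg (gx u z + gx v z), sq_nonneg (gy u z + gy v z)]

lemma en_mul_le {u v : ℂ → ℝ} {z : ℂ} {M : ℝ} (hu : DifferentiableAt ℝ u z)
    (hv : DifferentiableAt ℝ v z) (h1 : |u z| ≤ M) (h2 : |v z| ≤ M) :
    en (fun w => u w * v w) z ≤ 2 * M ^ 2 * en u z + 2 * M ^ 2 * en v z := by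
  unfold en; rw [gx_mul hu hv, gy_mul hu hv]
  have h3 : u z ^ 2 ≤ M ^ 2 := by rw [← sq_abs]; exact pow_le_pow_left₀ (abs_nonneg _) h1 2
  have h4 : v z ^ 2 ≤ M ^ 2 := by rw [← sq_abs]; exact pow_le_pow_left₀ (abs_nonneg _) h2 2
  have e1 : (u z * gx v z + v z * gx u z) ^ 2 ≤ 2 * (u z ^ 2 * gx v z ^ 2 + v z ^ 2 * gx u z ^ 2) := by
    nlinarith [sq_nonneg (u z * gx v z - v z * gx u z)]
  have e2 : (u z * gy v z + v z * gy u z) ^ 2 ≤ 2 * (u z ^ 2 * gy v z ^ 2 + v z ^ 2 * gy u z ^ 2) := by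
    nlinarith [sq_nonneg (u z * gy v z - v z * gy u z)]
  have e3 : u z ^ 2 * gx v z ^ 2 ≤ M ^ 2 * gx v z ^ 2 := mul_le_mul_of_nonneg_right h3 (sq_nonneg _)
  have e4 : v z ^ 2 * gx u z ^ 2 ≤ M ^ 2 * gx u z ^ 2 := mul_le_mul_of_nonneg_right h4 (sq_nonneg _)
  have e5 : u z ^ 2 * gy v z ^ 2 ≤ M ^ 2 * gy v z ^ 2 := mul_le_mul_of_nonneg_right h3 (sq_nonneg _)
  have e6 : v z ^ 2 * gy u z ^ 2 ≤ M ^ 2 * gy u z ^ 2 := mul_le_mul_of_nonneg_right h4 (sq_nonneg _)
  nlinarith

/-- a Lipschitz function of `u` has at most `K` times the derivative -/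
lemma norm_fderiv_comp_le {u : ℂ → ℝ} {h : ℝ → ℝ} {K : ℝ≥0} (hh : LipschitzWith K h) {z : ℂ}
    (hu : DifferentiableAt ℝ u z) (v : ℂ) :
    |fderiv ℝ (fun w => h (u w)) z v| ≤ K * |fderiv ℝ u z v| := by
  by_cases hd : DifferentiableAt ℝ (fun w => h (u w)) z
  · have h1 : Tendsto (fun t : ℝ => t⁻¹ * (h (u (z + t • v)) - h (u z))) (𝓝[≠] 0)
        (𝓝 (fderiv ℝ (fun w => h (u w)) z v)) := by
      have := (hd.hasFDerivAt.hasLineDerivAt v).tendsto_slope_zero
      simpa using this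
    have h2 : Tendsto (fun t : ℝ => t⁻¹ * (u (z + t • v) - u z)) (𝓝[≠] 0)
        (𝓝 (fderiv ℝ u z v)) := by
      have := (hu.hasFDerivAt.hasLineDerivAt v).tendsto_slope_zero
      simpa using this
    refine le_of_tendsto_of_tendsto h1.abs (h2.abs.const_mul (K : ℝ)) ?_
    refine Eventually.of_forall fun t => ?_
    simp only []
    rw [abs_mul, abs_mul]
    have := hh.dist_le_mul (u (z + t • v)) (u z)
    rw [Real.dist_eq, Real.dist_eq] at this
    calc |t⁻¹| * |h (u (z + t • v)) - h (u z)| ≤ |t⁻¹| * (K * |u (z + t • v) - u z|) :=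
          mul_le_mul_of_nonneg_left this (abs_nonneg _)
      _ = _ := by ring
  · rw [fderiv_zero_of_not_differentiableAt hd]
    simp only [_root_.zero_apply, abs_zero]
    positivity

lemma en_comp_le {u : ℂ → ℝ} {h : ℝ → ℝ} {K : ℝ≥0} (hh : LipschitzWith K h) {z : ℂ}
    (hu : DifferentiableAt ℝ u z) : en (fun w => h (u w)) z ≤ K ^ 2 * en u z := by
  unfold en gx gy
  have h1 := norm_fderiv_comp_le hh hu 1
  have h2 := norm_fderiv_comp_le hh hu Complex.I
  have e1 := pow_le_pow_left₀ (abs_nonneg _) h1 2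
  have e2 := pow_le_pow_left₀ (abs_nonneg _) h2 2
  rw [sq_abs, mul_pow, sq_abs] at e1 e2
  nlinarith

/-! ### the classes -/

lemma D.q {C : Set ℂ} {u : ℂ → ℝ} (h : D C u) : Q C u := ⟨h.bdd, h.loc, h.fin⟩

lemma Q.d {C : Set ℂ} {u : ℂ → ℝ} (h : Q C u) (hc : Continuous u) : D C u :=
  ⟨hc, h.bdd, h.loc, h.fin⟩

lemma LC.cont {C : Set ℂ} {χ : ℂ → ℝ} (h : LC C χ) : Continuous χ := h.lip.continuous

lemma en_le_of_lipschitz {u : ℂ → ℝ} {K : ℝ≥0} (h : LipschitzWith K u) (z : ℂ) :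
    en u z ≤ K ^ 2 := by
  rw [en_eq]
  exact pow_le_pow_left₀ (norm_nonneg _) (norm_fderiv_le_of_lipschitz ℝ h) 2

lemma en_eq_zero_of_notMem_tsupport {u : ℂ → ℝ} {z : ℂ} (h : z ∉ tsupport u) : en u z = 0 := by
  have : u =ᶠ[𝓝 z] fun _ => (0 : ℝ) := by
    rw [notMem_tsupport_iff_eventuallyEq] at h; exact h
  rw [en_eq_of_eventuallyEq this, en_const]

lemma integrable_en_of_lipschitz {u : ℂ → ℝ} {K : ℝ≥0} (hK : LipschitzWith K u)
    (hc : HasCompactSupport u) : Integrable (en u) := by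
  have h1 : IntegrableOn (en u) (tsupport u) := by
    refine Measure.integrableOn_of_bounded (M := (K : ℝ) ^ 2) hc.isCompact.measure_lt_top.ne
      (measurable_en u).aestronglyMeasurable ?_
    refine Eventually.of_forall fun z => ?_
    rw [Real.norm_of_nonneg (en_nonneg _ _)]
    exact en_le_of_lipschitz hK z
  rwa [integrableOn_iff_integrable_of_support_subset] at h1
  intro z hz
  by_contra h2
  exact hz (en_eq_zero_of_notMem_tsupport h2)

/-- Lipschitz functions with compact support, locally constant near `C` -/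
lemma LC.of_lipschitz {C : Set ℂ} {χ : ℂ → ℝ} {K : ℝ≥0} (hK : LipschitzWith K χ)
    (hc : HasCompactSupport χ) (hl : ∀ z ∈ C, ∀ᶠ w in 𝓝 z, χ w = χ z) : LC C χ := by
  obtain ⟨M, hM⟩ := hc.exists_bound_of_continuous hK.continuous
  exact ⟨hK.locallyLipschitz, ⟨M, fun z => by simpa using hM z⟩,
    integrable_en_of_lipschitz hK hc, hl⟩

/-- locally Lipschitz functions with compact support are Lipschitz -/
lemma lipschitz_of_compact {u : ℂ → ℝ} (hu : LocallyLipschitz u) (hc : HasCompactSupport u) :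
    ∃ K, LipschitzWith K u := by
  obtain ⟨M, hM⟩ := hc.exists_bound_of_continuous hu.continuous
  have hM0 : 0 ≤ M := (norm_nonneg _).trans (hM 0)
  -- uniform local constant near the support
  have key : ∃ K : ℝ≥0, ∃ δ > 0, ∀ x y, dist x y < δ → dist (u x) (u y) ≤ K * dist x y := by
    have h1 : ∀ x : ℂ, ∃ K : ℝ≥0, ∃ r > 0, LipschitzOnWith K u (ball x r) := by
      intro x
      obtain ⟨K, t, ht, h⟩ := hu x
      obtain ⟨r, hr, hrt⟩ := Metric.mem_nhds_iff.1 ht
      exact ⟨K, r, hr, h.mono hrt⟩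
    choose K r hr hL using h1
    set T := cthickening 1 (tsupport u) with hT
    have hTc : IsCompact T := hc.isCompact.cthickening
    obtain ⟨t, -, htT⟩ := hTc.elim_nhds_subcover (fun x => ball x (r x / 2))
      (fun x _ => ball_mem_nhds x (half_pos (hr x)))
    by_cases hte : t.Nonempty
    · obtain ⟨x₀, hx₀, hmin⟩ := t.exists_min_image r hte
      refine ⟨t.sup K, min (r x₀ / 2) 1, lt_min (half_pos (hr x₀)) one_pos, ?_⟩
      intro x y hxy
      by_cases hxT : x ∈ T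
      · obtain ⟨i, hi, hxi⟩ := mem_iUnion₂.1 (htT hxT)
        have hx1 : x ∈ ball i (r i) := ball_subset_ball (by linarith [hr i]) hxi
        have hy1 : y ∈ ball i (r i) := by
          rw [mem_ball] at hxi ⊢
          have h2 := hmin i hi
          have h3 : dist x y < r x₀ / 2 := lt_of_lt_of_le hxy (min_le_left _ _)
          have h4 := dist_triangle y x i
          rw [dist_comm y x] at h4
          linarith
        refine ((hL i).dist_le_mul x hx1 y hy1).trans ?_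
        exact mul_le_mul_of_nonneg_right (by exact_mod_cast Finset.le_sup hi) dist_nonneg
      · have hx0 : x ∉ tsupport u := fun h => hxT (self_subset_cthickening _ h)
        have hy0 : y ∉ tsupport u := by
          intro h
          apply hxT
          rw [hT]
          refine mem_cthickening_of_dist_le x y 1 _ h ?_
          exact (lt_of_lt_of_le hxy (min_le_right _ _)).le
        rw [image_eq_zero_of_notMem_tsupport hx0, image_eq_zero_of_notMem_tsupport hy0, dist_self]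
        positivity
    · rw [Finset.not_nonempty_iff_eq_empty] at hte
      subst hte
      refine ⟨0, 1, one_pos, fun x y _ => ?_⟩
      have hz : ∀ w, u w = 0 := by
        intro w
        by_contra hw
        have : w ∈ T := self_subset_cthickening _ (subset_tsupport u hw)
        simpa using htT this
      rw [hz, hz, dist_self]; simp
  obtain ⟨K, δ, hδ, hK⟩ := key
  refine ⟨max K (2 * M / δ).toNNReal, LipschitzWith.of_dist_le_mul fun x y => ?_⟩
  by_cases h : dist x y < δ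
  · refine (hK x y h).trans (mul_le_mul_of_nonneg_right ?_ dist_nonneg)
    exact_mod_cast le_max_left _ _
  · push Not at h
    have h1 : dist (u x) (u y) ≤ 2 * M := by
      rw [dist_eq_norm]
      have := norm_sub_le (u x) (u y)
      linarith [hM x, hM y]
    have h2 : 2 * M ≤ 2 * M / δ * dist x y := by
      rw [div_mul_eq_mul_div, le_div_iff₀ hδ]
      exact mul_le_mul_of_nonneg_left h (by linarith)
    refine h1.trans (h2.trans (mul_le_mul_of_nonneg_right ?_ dist_nonneg))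
    have h3 : (2 * M / δ) ≤ ((2 * M / δ).toNNReal : ℝ) := Real.le_coe_toNNReal _
    refine h3.trans ?_
    exact_mod_cast le_max_right _ _

lemma LC.of_compact {C : Set ℂ} {χ : ℂ → ℝ} (hK : LocallyLipschitz χ)
    (hc : HasCompactSupport χ) (hl : ∀ z ∈ C, ∀ᶠ w in 𝓝 z, χ w = χ z) : LC C χ := by
  obtain ⟨K, h⟩ := lipschitz_of_compact hK hc
  exact LC.of_lipschitz h hc hl

lemma LC.const (C : Set ℂ) (c : ℝ) : LC C (fun _ => c) := by
  refine ⟨(LipschitzWith.const c).locallyLipschitz, ⟨|c|, fun _ => le_rfl⟩, ?_,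
    fun _ _ => Eventually.of_forall fun _ => rfl⟩
  have : en (fun _ : ℂ => c) = fun _ => 0 := funext fun z => en_const c z
  rw [this]; exact integrable_zero _ _ _

lemma LC.d {C : Set ℂ} {χ : ℂ → ℝ} (h : LC C χ) : D C χ :=
  ⟨h.cont, h.bdd, h.lip.locallyLipschitzOn, h.fin.integrableOn⟩

lemma LC.q {C : Set ℂ} {χ : ℂ → ℝ} (h : LC C χ) : Q C χ := h.d.q

/-- locally Lipschitz on `O`: operations -/
lemma ll_add {O : Set ℂ} {u v : ℂ → ℝ} (hu : LocallyLipschitzOn O u)
    (hv : LocallyLipschitzOn O v) : LocallyLipschitzOn O (fun z => u z + v z) := by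
  intro z hz
  obtain ⟨K, s, hs, h1⟩ := hu hz
  obtain ⟨L, t, ht, h2⟩ := hv hz
  exact ⟨K + L, s ∩ t, inter_mem hs ht,
    (h1.mono inter_subset_left).add (h2.mono inter_subset_right)⟩

lemma ll_sub {O : Set ℂ} {u v : ℂ → ℝ} (hu : LocallyLipschitzOn O u)
    (hv : LocallyLipschitzOn O v) : LocallyLipschitzOn O (fun z => u z - v z) := by
  intro z hz
  obtain ⟨K, s, hs, h1⟩ := hu hz
  obtain ⟨L, t, ht, h2⟩ := hv hz
  exact ⟨K + L, s ∩ t, inter_mem hs ht,
    (h1.mono inter_subset_left).sub (h2.mono inter_subset_right)⟩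

lemma ll_comp {O : Set ℂ} {u : ℂ → ℝ} {h : ℝ → ℝ} {K : ℝ≥0} (hh : LipschitzWith K h)
    (hu : LocallyLipschitzOn O u) : LocallyLipschitzOn O (fun z => h (u z)) := by
  intro z hz
  obtain ⟨L, t, ht, h2⟩ := hu hz
  exact ⟨K * L, t, ht, hh.comp_lipschitzOnWith h2⟩

lemma ll_const {O : Set ℂ} (c : ℝ) : LocallyLipschitzOn O (fun _ : ℂ => c) :=
  fun _ _ => ⟨0, univ, univ_mem, LipschitzWith.const c |>.lipschitzOnWith⟩

lemma ll_mul {O : Set ℂ} {u v : ℂ → ℝ} {M : ℝ} (hu : LocallyLipschitzOn O u)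
    (hv : LocallyLipschitzOn O v) (h1 : ∀ z, |u z| ≤ M) (h2 : ∀ z, |v z| ≤ M) :
    LocallyLipschitzOn O (fun z => u z * v z) := by
  intro z hz
  obtain ⟨K, s, hs, h3⟩ := hu hz
  obtain ⟨L, t, ht, h4⟩ := hv hz
  have hM : 0 ≤ M := (abs_nonneg _).trans (h1 z)
  refine ⟨M.toNNReal * L + M.toNNReal * K, s ∩ t, inter_mem hs ht, ?_⟩
  refine LipschitzOnWith.of_dist_le_mul fun x hx y hy => ?_
  rw [Real.dist_eq]
  have e1 := h3.dist_le_mul x hx.1 y hy.1
  have e2 := h4.dist_le_mul x hx.2 y hy.2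
  rw [Real.dist_eq] at e1 e2
  have : u x * v x - u y * v y = u x * (v x - v y) + v y * (u x - u y) := by ring
  rw [this]
  refine (abs_add_le _ _).trans ?_
  rw [abs_mul, abs_mul]
  have e3 : |u x| * |v x - v y| ≤ M * (L * dist x y) :=
    mul_le_mul (h1 x) e2 (abs_nonneg _) hM
  have e4 : |v y| * |u x - u y| ≤ M * (K * dist x y) :=
    mul_le_mul (h2 y) e1 (abs_nonneg _) hM
  push_cast
  rw [Real.coe_toNNReal M hM]
  nlinarith

section Ops
variable {C : Set ℂ} {u v : ℂ → ℝ}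

lemma Q.ae_diff (h : Q C u) (hC : IsClosed C) :
    ∀ᵐ z ∂(volume.restrict Cᶜ), DifferentiableAt ℝ u z :=
  Bd_775.ae_diff hC.isOpen_compl h.loc

lemma Q.const (C : Set ℂ) (c : ℝ) : Q C (fun _ => c) := by
  refine ⟨⟨|c|, fun _ => le_rfl⟩, ll_const c, ?_⟩
  have : en (fun _ : ℂ => c) = fun _ => 0 := funext fun z => en_const c z
  rw [this]; exact integrableOn_zero

lemma Q.add (hC : IsClosed C) (hu : Q C u) (hv : Q C v) : Q C (fun z => u z + v z) := by
  obtain ⟨M, hM⟩ := hu.bdd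
  obtain ⟨N, hN⟩ := hv.bdd
  refine ⟨⟨M + N, fun z => (abs_add_le _ _).trans (add_le_add (hM z) (hN z))⟩,
    ll_add hu.loc hv.loc, ?_⟩
  refine Integrable.mono' ((hu.fin.const_mul 2).add (hv.fin.const_mul 2))
    (measurable_en _).aestronglyMeasurable ?_
  filter_upwards [hu.ae_diff hC, hv.ae_diff hC] with z h1 h2
  rw [Real.norm_of_nonneg (en_nonneg _ _)]
  exact en_add_le h1 h2

lemma Q.sub (hC : IsClosed C) (hu : Q C u) (hv : Q C v) : Q C (fun z => u z - v z) := by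
  obtain ⟨M, hM⟩ := hu.bdd
  obtain ⟨N, hN⟩ := hv.bdd
  refine ⟨⟨M + N, fun z => (abs_sub _ _).trans (add_le_add (hM z) (hN z))⟩,
    ll_sub hu.loc hv.loc, ?_⟩
  refine Integrable.mono' ((hu.fin.const_mul 2).add (hv.fin.const_mul 2))
    (measurable_en _).aestronglyMeasurable ?_
  filter_upwards [hu.ae_diff hC, hv.ae_diff hC] with z h1 h2
  rw [Real.norm_of_nonneg (en_nonneg _ _)]
  exact en_sub_le h1 h2

lemma Q.mul (hC : IsClosed C) (hu : Q C u) (hv : Q C v) : Q C (fun z => u z * v z) := by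
  obtain ⟨M₀, hM₀⟩ := hu.bdd
  obtain ⟨N₀, hN₀⟩ := hv.bdd
  obtain ⟨M, hM, hN⟩ : ∃ M, (∀ z, |u z| ≤ M) ∧ ∀ z, |v z| ≤ M :=
    ⟨max M₀ N₀, fun z => (hM₀ z).trans (le_max_left _ _), fun z => (hN₀ z).trans (le_max_right _ _)⟩
  refine ⟨⟨M * M, fun z => ?_⟩, ll_mul hu.loc hv.loc hM hN, ?_⟩
  · rw [abs_mul]; exact mul_le_mul (hM z) (hN z) (abs_nonneg _) ((abs_nonneg _).trans (hM z))
  refine Integrable.mono' ((hu.fin.const_mul (2 * M ^ 2)).add (hv.fin.const_mul (2 * M ^ 2)))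
    (measurable_en _).aestronglyMeasurable ?_
  filter_upwards [hu.ae_diff hC, hv.ae_diff hC] with z h1 h2
  rw [Real.norm_of_nonneg (en_nonneg _ _)]
  exact en_mul_le h1 h2 (hM z) (hN z)

lemma Q.comp (hC : IsClosed C) (hu : Q C u) {h : ℝ → ℝ} {K : ℝ≥0} (hh : LipschitzWith K h) :
    Q C (fun z => h (u z)) := by
  obtain ⟨M, hM⟩ := hu.bdd
  refine ⟨⟨|h 0| + K * M, fun z => ?_⟩, ll_comp hh hu.loc, ?_⟩
  · have := hh.dist_le_mul (u z) 0
    rw [Real.dist_eq, Real.dist_eq, sub_zero] at this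
    have h2 : |h (u z)| ≤ |h 0| + |h (u z) - h 0| := by
      have := abs_add_le (h 0) (h (u z) - h 0)
      rwa [add_sub_cancel] at this
    have h3 : (K : ℝ) * |u z| ≤ K * M := mul_le_mul_of_nonneg_left (hM z) K.2
    linarith
  refine Integrable.mono' (hu.fin.const_mul ((K : ℝ) ^ 2))
    (measurable_en _).aestronglyMeasurable ?_
  filter_upwards [hu.ae_diff hC] with z h1
  rw [Real.norm_of_nonneg (en_nonneg _ _)]
  exact en_comp_le hh h1

/-- everything generated is in `Q` -/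
lemma Gen.q {ι : Type*} {b : ι → ℂ → ℝ} (hC : IsClosed C) (hb : ∀ i, Q C (b i)) {a : ℂ → ℝ}
    (ha : Gen C b a) : Q C a := by
  induction ha with
  | const c => exact Q.const C c
  | lc h => exact h.q
  | of i => exact hb i
  | add _ _ h1 h2 => exact h1.add hC h2
  | mul _ _ h1 h2 => exact h1.mul hC h2
  | comp hh _ h1 => exact h1.comp hC hh

/-- everything generated by continuous functions is continuous -/
lemma Gen.cont {ι : Type*} {b : ι → ℂ → ℝ} (hb : ∀ i, Continuous (b i)) {a : ℂ → ℝ}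
    (ha : Gen C b a) : Continuous a := by
  induction ha with
  | const c => exact continuous_const
  | lc h => exact h.cont
  | of i => exact hb i
  | add _ _ h1 h2 => exact h1.add h2
  | mul _ _ h1 h2 => exact h1.mul h2
  | comp hh _ h1 => exact hh.continuous.comp h1

lemma Gen.neg {ι : Type*} {b : ι → ℂ → ℝ} {a : ℂ → ℝ} (ha : Gen C b a) :
    Gen C b (fun z => - a z) :=
  Gen.comp (h := fun t => -t) (K := 1) (LipschitzWith.id.neg) ha

lemma Gen.smul {ι : Type*} {b : ι → ℂ → ℝ} {a : ℂ → ℝ} (c : ℝ) (ha : Gen C b a) :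
    Gen C b (fun z => c * a z) := Gen.mul (Gen.const c) ha

lemma Gen.sub {ι : Type*} {b : ι → ℂ → ℝ} {a a' : ℂ → ℝ} (ha : Gen C b a) (ha' : Gen C b a') :
    Gen C b (fun z => a z - a' z) := by
  simpa [sub_eq_add_neg] using ha.add ha'.neg

/-- monotonicity: generators may be replaced by generated functions -/
lemma Gen.trans {ι κ : Type*} {b : ι → ℂ → ℝ} {b' : κ → ℂ → ℝ} (h : ∀ i, Gen C b' (b i))
    {a : ℂ → ℝ} (ha : Gen C b a) : Gen C b' a := by
  induction ha with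
  | const c => exact Gen.const c
  | lc h => exact Gen.lc h
  | of i => exact h i
  | add _ _ h1 h2 => exact h1.add h2
  | mul _ _ h1 h2 => exact h1.mul h2
  | comp hh _ h1 => exact Gen.comp hh h1

lemma Iso.trans {ι κ : Type*} {b : ι → ℂ → ℝ} {b' : κ → ℂ → ℝ} (hb : Iso C b')
    (h : ∀ i, Gen C b' (b i)) : Iso C b :=
  fun _ _ hu hv => hb _ _ (hu.trans h) (hv.trans h)

lemma integrableOn_wdg (hu : Q C u) (hv : Q C v) : IntegrableOn (wdg u v) Cᶜ := by
  refine Integrable.mono' ((hu.fin.add hv.fin).div_const 2)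
    (measurable_wdg _ _).aestronglyMeasurable (Eventually.of_forall fun z => ?_)
  exact abs_wdg_le u v z

lemma integrableOn_dot (hu : Q C u) (hv : Q C v) : IntegrableOn (dot u v) Cᶜ := by
  refine Integrable.mono' ((hu.fin.add hv.fin).div_const 2)
    (measurable_dot _ _).aestronglyMeasurable (Eventually.of_forall fun z => ?_)
  exact abs_dot_le u v z

lemma om_antisymm : om C u v = - om C v u := by
  unfold om
  rw [← integral_neg]
  congr 1; funext z; unfold wdg; ring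

end Ops

end

end Crest.Agent.R105.Bd_775
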