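import Mathlib
import Crest.Agent.R105.Stk1_939
import Crest.Agent.R105.Bd1_775

/-!
# Logarithmic cut-offs and parabolic Stokes (helper939, for 775 / 602 / 641)

* `lg q r R` : logarithmic cut-off, `1` on `closedBall q r`, `0` off `ball q R`,
  energy `≤ 8π/(log R - log r)`;
* `exists_cut_pt`, `exists_cut_inf` : cut-offs of small energy at a point / at infinity;
* `om_of_zero` : `om C κ u = 0` for `κ` bounded, locally Lipschitz on `ℂ`, finite energy,
  `κ = 0` near `C`, and `u` locally Lipschitz off `C` with finite energy;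
* `om_lc` : `om C κ u = 0` for `κ ∈ LC`, `u ∈ Q`.
-/

set_option autoImplicit false

open Set Filter MeasureTheory Metric
open scoped Topology NNReal ENNReal

namespace Crest.Agent.R105.Stk_939

open Crest.Agent.R105.Bd_775

noncomputable section

/-- logarithmic cut-off -/
def lg (q : ℂ) (r R : ℝ) (z : ℂ) : ℝ :=
  max 0 ((Real.log R - Real.log (max (dist z q) r)) / (Real.log R - Real.log r))

section lg

variable {q : ℂ} {r R : ℝ}

lemma lg_nonneg (z : ℂ) : 0 ≤ lg q r R z := le_max_left _ _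

lemma L_pos (hr : 0 < r) (hR : r < R) : 0 < Real.log R - Real.log r :=
  sub_pos.2 (Real.log_lt_log hr hR)

lemma lg_le_one (hr : 0 < r) (hR : r < R) (z : ℂ) : lg q r R z ≤ 1 := by
  unfold lg
  refine max_le zero_le_one ?_
  rw [div_le_one (L_pos hr hR)]
  have : Real.log r ≤ Real.log (max (dist z q) r) := Real.log_le_log hr (le_max_right _ _)
  linarith

lemma lg_one (hr : 0 < r) (hR : r < R) {z : ℂ} (hz : dist z q ≤ r) : lg q r R z = 1 := by
  unfold lg
  rw [max_eq_right hz, div_self (L_pos hr hR).ne', max_eq_right zero_le_one]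

lemma lg_zero (hr : 0 < r) (hR : r < R) {z : ℂ} (hz : R ≤ dist z q) : lg q r R z = 0 := by
  unfold lg
  rw [max_eq_left (hR.le.trans hz)]
  refine max_eq_left (div_nonpos_of_nonpos_of_nonneg ?_ (L_pos hr hR).le)
  have : Real.log R ≤ Real.log (dist z q) := Real.log_le_log (hr.trans hR) hz
  linarith

lemma abs_log_sub_le {s x y : ℝ} (hs : 0 < s) (hx : s ≤ x) (hy : s ≤ y) :
    |Real.log x - Real.log y| ≤ s⁻¹ * |x - y| := by
  have key : ∀ a b : ℝ, s ≤ a → a ≤ b → Real.log b - Real.log a ≤ s⁻¹ * (b - a) := by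
    intro a b ha hab
    have ha0 : 0 < a := hs.trans_le ha
    have hb0 : 0 < b := ha0.trans_le hab
    rw [← Real.log_div hb0.ne' ha0.ne']
    refine (Real.log_le_sub_one_of_pos (div_pos hb0 ha0)).trans ?_
    have : b / a - 1 = a⁻¹ * (b - a) := by field_simp
    rw [this]
    exact mul_le_mul_of_nonneg_right (inv_anti₀ hs ha) (sub_nonneg.2 hab)
  rcases le_total x y with h | h
  · rw [abs_sub_comm, abs_sub_comm x y, abs_of_nonneg (sub_nonneg.2 h),
      abs_of_nonneg (sub_nonneg.2 (Real.log_le_log (hs.trans_le hx) h))]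
    exact key x y hx h
  · rw [abs_of_nonneg (sub_nonneg.2 h),
      abs_of_nonneg (sub_nonneg.2 (Real.log_le_log (hs.trans_le hy) h))]
    exact key y x hy h

lemma lg_lip (hr : 0 < r) (hR : r < R) {s : ℝ} (hs : 0 < s) {z w : ℂ}
    (hz : s ≤ max (dist z q) r) (hw : s ≤ max (dist w q) r) :
    |lg q r R z - lg q r R w| ≤ (s * (Real.log R - Real.log r))⁻¹ * dist z w := by
  have hL := L_pos hr hR
  set L := Real.log R - Real.log r with hLd
  have e1 : |lg q r R z - lg q r R w| ≤
      |(Real.log R - Real.log (max (dist z q) r)) / L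
        - (Real.log R - Real.log (max (dist w q) r)) / L| := by
    unfold lg
    rw [max_comm 0, max_comm 0]
    exact abs_max_sub_max_le_abs _ _ _
  refine e1.trans ?_
  rw [← sub_div, abs_div, abs_of_pos hL]
  have e2 : |Real.log R - Real.log (max (dist z q) r) - (Real.log R - Real.log (max (dist w q) r))|
      ≤ s⁻¹ * dist z w := by
    have e3 : Real.log R - Real.log (max (dist z q) r) -
        (Real.log R - Real.log (max (dist w q) r)) =
        Real.log (max (dist w q) r) - Real.log (max (dist z q) r) := by ring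
    rw [e3]
    refine (abs_log_sub_le hs hw hz).trans (mul_le_mul_of_nonneg_left ?_ (inv_nonneg.2 hs.le))
    refine (abs_max_sub_max_le_abs _ _ _).trans ?_
    rw [dist_comm z w]
    exact abs_dist_sub_le _ _ _
  rw [div_le_iff₀ hL, mul_inv]
  refine e2.trans (le_of_eq ?_)
  field_simp

lemma lg_lipschitz (hr : 0 < r) (hR : r < R) :
    LipschitzWith (r * (Real.log R - Real.log r))⁻¹.toNNReal (lg q r R) := by
  refine LipschitzWith.of_dist_le_mul fun z w => ?_
  rw [Real.dist_eq, Real.coe_toNNReal _ (inv_nonneg.2 (mul_pos hr (L_pos hr hR)).le)]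
  exact lg_lip hr hR hr (le_max_right _ _) (le_max_right _ _)

lemma lg_compact (hr : 0 < r) (hR : r < R) : HasCompactSupport (lg q r R) := by
  refine HasCompactSupport.of_support_subset_isCompact (isCompact_closedBall q R) ?_
  intro z hz
  by_contra h
  exact hz (lg_zero hr hR (not_le.1 (fun h' => h (mem_closedBall.2 h'))).le)

lemma lg_tsupport (hr : 0 < r) (hR : r < R) : tsupport (lg q r R) ⊆ closedBall q R := by
  refine closure_minimal ?_ isClosed_closedBall
  intro z hz
  by_contra h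
  exact hz (lg_zero hr hR (not_le.1 (fun h' => h (mem_closedBall.2 h'))).le)

/-- bound for the derivative -/
lemma norm_fderiv_lg (hr : 0 < r) (hR : r < R) (z : ℂ) (hz : r ≤ dist z q) :
    ‖fderiv ℝ (lg q r R) z‖ ≤ 2 / (dist z q * (Real.log R - Real.log r)) := by
  have hL := L_pos hr hR
  have hd : 0 < dist z q := hr.trans_le hz
  -- s = max r (dist/2) would do; use `dist/2` if `dist/2 ≥ r`, else `r`
  have key : ∀ s : ℝ, dist z q / 2 ≤ s → 0 < s → (∀ᶠ w in 𝓝 z, s ≤ max (dist w q) r) →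
      ‖fderiv ℝ (lg q r R) z‖ ≤ 2 / (dist z q * (Real.log R - Real.log r)) := by
    intro s hs hs0 hw
    obtain ⟨t, ht, ht'⟩ : ∃ t ∈ 𝓝 z, ∀ w ∈ t, s ≤ max (dist w q) r := ⟨_, hw, fun w h => h⟩
    have h1 : LipschitzOnWith (s * (Real.log R - Real.log r))⁻¹.toNNReal (lg q r R) t := by
      refine LipschitzOnWith.of_dist_le_mul fun x hx y hy => ?_
      rw [Real.dist_eq, Real.coe_toNNReal _ (inv_nonneg.2 (mul_pos hs0 hL).le)]
      exact lg_lip hr hR hs0 (ht' x hx) (ht' y hy)
    have h2 := norm_fderiv_le_of_lipschitzOn ℝ ht h1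
    rw [Real.coe_toNNReal _ (inv_nonneg.2 (mul_pos hs0 hL).le)] at h2
    refine h2.trans ?_
    rw [inv_eq_one_div, div_le_div_iff₀ (mul_pos hs0 hL) (mul_pos hd hL), one_mul]
    nlinarith
  rcases le_total (dist z q / 2) r with h | h
  · exact key r h hr (Eventually.of_forall fun w => le_max_right _ _)
  · refine key (dist z q / 2) le_rfl (half_pos hd) ?_
    have h3 : ∀ᶠ w in 𝓝 z, dist z q / 2 < dist w q := by
      have hc : Continuous fun w : ℂ => dist w q := continuous_id.dist continuous_const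
      exact hc.continuousAt.eventually (lt_mem_nhds (by simpa using half_lt_self hd))
    filter_upwards [h3] with w hw
    exact hw.le.trans (le_max_left _ _)

lemma fderiv_lg_inner (hr : 0 < r) (hR : r < R) {z : ℂ} (hz : dist z q < r) :
    fderiv ℝ (lg q r R) z = 0 := by
  have h : lg q r R =ᶠ[𝓝 z] fun _ => 1 := by
    have hc : Continuous fun w : ℂ => dist w q := continuous_id.dist continuous_const
    filter_upwards [hc.continuousAt.eventually (gt_mem_nhds hz)] with w hw
    exact lg_one hr hR (le_of_lt hw)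
  rw [h.fderiv_eq]; simp

lemma fderiv_lg_outer (hr : 0 < r) (hR : r < R) {z : ℂ} (hz : R < dist z q) :
    fderiv ℝ (lg q r R) z = 0 := by
  have h : lg q r R =ᶠ[𝓝 z] fun _ => 0 := by
    have hc : Continuous fun w : ℂ => dist w q := continuous_id.dist continuous_const
    filter_upwards [hc.continuousAt.eventually (lt_mem_nhds hz)] with w hw
    exact lg_zero hr hR (le_of_lt hw)
  rw [h.fderiv_eq]; simp

/-- radial majorant of the energy density -/
def gL (r R : ℝ) : ℝ → ℝ :=
  indicator (Icc r R) fun t => 4 / (t ^ 2 * (Real.log R - Real.log r) ^ 2)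

lemma en_lg_le (hr : 0 < r) (hR : r < R) (z : ℂ) : en (lg q r R) z ≤ gL r R ‖z - q‖ := by
  have hL := L_pos hr hR
  rw [← dist_eq_norm, en_eq]
  unfold gL
  by_cases h : dist z q ∈ Icc r R
  · rw [indicator_of_mem h]
    have h1 := norm_fderiv_lg hr hR z h.1
    have h2 := pow_le_pow_left₀ (norm_nonneg _) h1 2
    refine h2.trans (le_of_eq ?_)
    rw [div_pow, mul_pow]; norm_num
  · rw [indicator_of_notMem h]
    have h0 : fderiv ℝ (lg q r R) z = 0 := by
      rw [mem_Icc, not_and_or, not_le, not_le] at h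
      rcases h with h | h
      · exact fderiv_lg_inner hr hR h
      · exact fderiv_lg_outer hr hR h
    rw [h0]; simp

lemma integral_gL (hr : 0 < r) (hR : r < R) :
    IntegrableOn (fun y : ℝ => y ^ (2 - 1) • gL r R y) (Ioi 0) ∧
      ∫ y in Ioi (0 : ℝ), y ^ (2 - 1) • gL r R y = 4 / (Real.log R - Real.log r) := by
  have hL := L_pos hr hR
  have e : ∀ y : ℝ, y ^ (2 - 1) • gL r R y =
      indicator (Icc r R) (fun t => 4 / (Real.log R - Real.log r) ^ 2 * t⁻¹) y := by
    intro y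
    unfold gL
    by_cases h : y ∈ Icc r R
    · rw [indicator_of_mem h, indicator_of_mem h]
      have hy : 0 < y := hr.trans_le h.1
      simp only [smul_eq_mul, Nat.add_one_sub_one, pow_one]
      field_simp
    · rw [indicator_of_notMem h, indicator_of_notMem h, smul_zero]
  have hsub : Icc r R ⊆ Ioi 0 := fun y hy => hr.trans_le hy.1
  have hint : IntegrableOn (fun t : ℝ => 4 / (Real.log R - Real.log r) ^ 2 * t⁻¹) (Icc r R) := by
    refine ContinuousOn.integrableOn_Icc ?_
    refine continuousOn_const.mul (continuousOn_id.inv₀ fun t ht => ?_)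
    exact (hr.trans_le ht.1).ne'
  constructor
  · simp_rw [e]
    exact (integrable_indicator_iff measurableSet_Icc |>.2 hint).integrableOn
  · simp_rw [e]
    rw [setIntegral_indicator measurableSet_Icc, inter_eq_right.2 hsub, integral_Icc_eq_integral_Ioc,
      ← intervalIntegral.integral_of_le hR.le, intervalIntegral.integral_const_mul,
      integral_inv_of_pos hr (hr.trans hR), Real.log_div (hr.trans hR).ne' hr.ne']
    field_simp

lemma integrable_gL (hr : 0 < r) (hR : r < R) : Integrable (fun z : ℂ => gL r R ‖z - q‖) := by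
  have h : Integrable (fun z : ℂ => gL r R ‖z‖) := by
    rw [integrable_fun_norm_addHaar volume (f := gL r R), Complex.finrank_real_complex]
    exact (integral_gL hr hR).1
  exact h.comp_sub_right q

lemma integral_gL_norm (hr : 0 < r) (hR : r < R) :
    ∫ z : ℂ, gL r R ‖z - q‖ = 8 * Real.pi / (Real.log R - Real.log r) := by
  rw [integral_sub_right_eq_self (fun z : ℂ => gL r R ‖z‖) q,
    integral_fun_norm_addHaar volume (gL r R), Complex.finrank_real_complex,
    (integral_gL hr hR).2]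
  have : (volume : Measure ℂ).real (ball 0 1) = Real.pi := by
    rw [Measure.real, Complex.volume_ball]; simp
  rw [this]
  simp only [nsmul_eq_mul, smul_eq_mul]
  push_cast
  ring

/-- energy of the logarithmic cut-off -/
theorem energy_lg (hr : 0 < r) (hR : r < R) :
    Integrable (en (lg q r R)) ∧
      ∫ z, en (lg q r R) z ≤ 8 * Real.pi / (Real.log R - Real.log r) := by
  have h1 : Integrable (en (lg q r R)) :=
    integrable_en_of_lipschitz (lg_lipschitz hr hR) (lg_compact hr hR)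
  refine ⟨h1, ?_⟩
  rw [← integral_gL_norm (q := q) hr hR]
  exact integral_mono h1 (integrable_gL hr hR) fun z => en_lg_le hr hR z

end lg

/-- small capacity of a point -/
theorem exists_cut_pt (q : ℂ) {ρ ε : ℝ} (hρ : 0 < ρ) (hε : 0 < ε) :
    ∃ χ : ℂ → ℝ, (∃ K, LipschitzWith K χ) ∧ HasCompactSupport χ ∧ tsupport χ ⊆ closedBall q ρ ∧
      (∀ z, 0 ≤ χ z ∧ χ z ≤ 1) ∧ (∀ᶠ z in 𝓝 q, χ z = 1) ∧ Integrable (en χ) ∧
      ∫ z, en χ z ≤ ε := by
  set r := ρ * Real.exp (-(8 * Real.pi / ε)) with hr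
  have hpos : 0 < 8 * Real.pi / ε := by positivity
  have hr0 : 0 < r := by positivity
  have hrR : r < ρ := by
    have : Real.exp (-(8 * Real.pi / ε)) < 1 := Real.exp_lt_one_iff.2 (neg_neg_of_pos hpos)
    nlinarith
  have hL : Real.log ρ - Real.log r = 8 * Real.pi / ε := by
    rw [hr, Real.log_mul hρ.ne' (Real.exp_pos _).ne', Real.log_exp]; ring
  obtain ⟨h1, h2⟩ := energy_lg (q := q) hr0 hrR
  refine ⟨lg q r ρ, ⟨_, lg_lipschitz hr0 hrR⟩, lg_compact hr0 hrR, lg_tsupport hr0 hrR,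
    fun z => ⟨lg_nonneg z, lg_le_one hr0 hrR z⟩, ?_, h1, ?_⟩
  · filter_upwards [closedBall_mem_nhds q hr0] with z hz
    exact lg_one hr0 hrR (mem_closedBall.1 hz)
  · refine h2.trans (le_of_eq ?_)
    rw [hL]; field_simp

/-- infinity is parabolic -/
theorem exists_cut_inf (R₀ : ℝ) {ε : ℝ} (hε : 0 < ε) :
    ∃ χ : ℂ → ℝ, (∃ K, LipschitzWith K χ) ∧ HasCompactSupport χ ∧
      (∀ z, 0 ≤ χ z ∧ χ z ≤ 1) ∧ (∀ z, ‖z‖ ≤ R₀ → χ z = 1) ∧ Integrable (en χ) ∧
      ∫ z, en χ z ≤ ε := by
  set r := max R₀ 1 with hr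
  have hr0 : 0 < r := lt_of_lt_of_le one_pos (le_max_right _ _)
  have hpos : 0 < 8 * Real.pi / ε := by positivity
  set R := r * Real.exp (8 * Real.pi / ε) with hRd
  have hrR : r < R := by
    have : 1 < Real.exp (8 * Real.pi / ε) := Real.one_lt_exp_iff.2 hpos
    nlinarith
  have hL : Real.log R - Real.log r = 8 * Real.pi / ε := by
    rw [hRd, Real.log_mul hr0.ne' (Real.exp_pos _).ne', Real.log_exp]; ring
  obtain ⟨h1, h2⟩ := energy_lg (q := 0) hr0 hrR
  refine ⟨lg 0 r R, ⟨_, lg_lipschitz hr0 hrR⟩, lg_compact hr0 hrR,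
    fun z => ⟨lg_nonneg z, lg_le_one hr0 hrR z⟩, ?_, h1, ?_⟩
  · intro z hz
    refine lg_one hr0 hrR ?_
    rw [dist_zero_right]
    exact hz.trans (le_max_left _ _)
  · refine h2.trans (le_of_eq ?_)
    rw [hL]; field_simp

/-! ### parabolic Stokes -/

section Par

variable {C : Set ℂ}

lemma integrableOn_wdg' {κ u : ℂ → ℝ} {S : Set ℂ} (hκ : IntegrableOn (en κ) S)
    (hu : IntegrableOn (en u) S) : IntegrableOn (wdg κ u) S := by
  refine Integrable.mono' ((hκ.add hu).div_const 2) (measurable_wdg κ u).aestronglyMeasurable ?_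
  exact Eventually.of_forall fun z => abs_wdg_le κ u z

lemma abs_wdg_le_t (u v : ℂ → ℝ) (z : ℂ) {t : ℝ} (ht : 0 < t) :
    |wdg u v z| ≤ (t * en u z + t⁻¹ * en v z) / 2 := by
  have h : ∀ a b : ℝ, 2 * |a * b| ≤ t * a ^ 2 + t⁻¹ * b ^ 2 := by
    intro a b
    have hs : 0 ≤ t * (|a| - t⁻¹ * |b|) ^ 2 := by positivity
    have e : t * (|a| - t⁻¹ * |b|) ^ 2 = t * a ^ 2 + t⁻¹ * b ^ 2 - 2 * |a * b| := by
      rw [abs_mul]
      have h1 := sq_abs a
      have h2 := sq_abs b
      have h3 : t * t⁻¹ = 1 := mul_inv_cancel₀ ht.ne'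
      calc t * (|a| - t⁻¹ * |b|) ^ 2
          = t * |a| ^ 2 - 2 * (t * t⁻¹) * (|a| * |b|) + (t * t⁻¹) * (t⁻¹ * |b| ^ 2) := by ring
        _ = _ := by rw [h3, h1, h2]; ring
    linarith
  unfold wdg en
  have h1 := h (gx u z) (gy v z)
  have h2 := h (gy u z) (gx v z)
  have h3 := abs_sub (gx u z * gy v z) (gy u z * gx v z)
  nlinarith

/-- **Parabolic Stokes**: `κ` vanishes near `C` -/
theorem om_of_zero (hC : IsClosed C) {κ u : ℂ → ℝ} (hκ : LocallyLipschitz κ)
    {M : ℝ} (hb : ∀ z, |κ z| ≤ M) (hfin : IntegrableOn (en κ) Cᶜ)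
    (h0 : ∀ z ∈ C, ∀ᶠ w in 𝓝 z, κ w = 0) (hu : LocallyLipschitzOn Cᶜ u)
    (hue : IntegrableOn (en u) Cᶜ) : om C κ u = 0 := by
  have hM : 0 ≤ M := (abs_nonneg _).trans (hb 0)
  have hO : IsOpen Cᶜ := hC.isOpen_compl
  have hts : tsupport κ ⊆ Cᶜ := by
    intro z hz hzC
    exact (notMem_tsupport_iff_eventuallyEq.2 (h0 z hzC)) hz
  have hε : ∀ n : ℕ, 0 < (((n : ℝ) + 1) ^ 2)⁻¹ := fun n => by positivity
  choose χ hχL hχc hχ01 hχ1 hχi hχe using fun n : ℕ => exists_cut_inf (n : ℝ) (hε n)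
  have hχM : ∀ n z, |χ n z| ≤ 1 := fun n z => by
    rw [abs_of_nonneg (hχ01 n z).1]; exact (hχ01 n z).2
  -- differentiability almost everywhere
  have dκ := ae_diff hO (hκ.locallyLipschitzOn (s := Cᶜ))
  have du := ae_diff hO hu
  -- Stokes for `χ n * κ`
  have hS : ∀ n, ∫ z in Cᶜ, wdg (fun w => χ n w * κ w) u z = 0 := by
    intro n
    obtain ⟨K, hK⟩ := hχL n
    have hl : LocallyLipschitz (fun w => χ n w * κ w) := by
      rw [← locallyLipschitzOn_univ]
      refine ll_mul (M := max 1 M) hK.locallyLipschitz.locallyLipschitzOn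
        hκ.locallyLipschitzOn (fun z => (hχM n z).trans (le_max_left _ _))
        (fun z => (hb z).trans (le_max_right _ _))
    have hc : HasCompactSupport (fun w => χ n w * κ w) := (hχc n).mul_right
    obtain ⟨K', hK'⟩ := lipschitz_of_compact hl hc
    have hs : tsupport (fun w => χ n w * κ w) ⊆ Cᶜ := (tsupport_mul_subset_right).trans hts
    exact stokes_on hC hK' hc hs hu
  have iκu : IntegrableOn (wdg κ u) Cᶜ := integrableOn_wdg' hfin hue
  have iχu : ∀ n, IntegrableOn (wdg (χ n) u) Cᶜ := fun n =>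
    integrableOn_wdg' (hχi n).integrableOn hue
  have hsplit : ∀ n, ∫ z in Cᶜ, χ n z * wdg κ u z = - ∫ z in Cᶜ, κ z * wdg (χ n) u z := by
    intro n
    have e1 : ∫ z in Cᶜ, wdg (fun w => χ n w * κ w) u z =
        ∫ z in Cᶜ, (χ n z * wdg κ u z + κ z * wdg (χ n) u z) := by
      obtain ⟨K, hK⟩ := hχL n
      have dχ := ae_diff hO (hK.locallyLipschitz.locallyLipschitzOn (s := Cᶜ))
      refine integral_congr_ae ?_
      filter_upwards [dκ, dχ] with z h1 h2
      show wdg (fun w => χ n w * κ w) u z = χ n z * wdg κ u z + κ z * wdg (χ n) u z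
      unfold wdg
      rw [gx_mul h2 h1, gy_mul h2 h1]
      ring
    have i1 : IntegrableOn (fun z => χ n z * wdg κ u z) Cᶜ := by
      obtain ⟨K, hK⟩ := hχL n
      exact iκu.bdd_mul (c := 1) hK.continuous.aestronglyMeasurable
        (Eventually.of_forall fun z => by simpa using hχM n z)
    have i2 : IntegrableOn (fun z => κ z * wdg (χ n) u z) Cᶜ :=
      (iχu n).bdd_mul (c := M) hκ.continuous.aestronglyMeasurable
        (Eventually.of_forall fun z => by simpa using hb z)
    rw [hS n, integral_add i1 i2] at e1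
    linarith
  -- left hand side converges to `om C κ u`
  have hlim1 : Tendsto (fun n => ∫ z in Cᶜ, χ n z * wdg κ u z) atTop (𝓝 (om C κ u)) := by
    refine tendsto_integral_of_dominated_convergence (fun z => |wdg κ u z|) ?_ iκu.abs ?_ ?_
    · intro n
      obtain ⟨K, hK⟩ := hχL n
      exact hK.continuous.aestronglyMeasurable.mul (measurable_wdg κ u).aestronglyMeasurable
    · intro n
      refine Eventually.of_forall fun z => ?_
      rw [Real.norm_eq_abs, abs_mul]
      exact mul_le_of_le_one_left (abs_nonneg _) (hχM n z)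
    · refine Eventually.of_forall fun z => ?_
      refine tendsto_const_nhds.congr' ?_
      obtain ⟨N, hN⟩ := exists_nat_ge ‖z‖
      filter_upwards [eventually_ge_atTop N] with n hn
      rw [hχ1 n z (hN.trans (by exact_mod_cast hn)), one_mul]
  -- right hand side tends to zero
  set E := ∫ z in Cᶜ, en u z with hE
  have hE0 : 0 ≤ E := integral_nonneg fun z => en_nonneg u z
  have hbound : ∀ n : ℕ, |∫ z in Cᶜ, κ z * wdg (χ n) u z| ≤
      M / 2 * (1 + E) * ((n : ℝ) + 1)⁻¹ := by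
    intro n
    set t : ℝ := (n : ℝ) + 1 with ht
    have ht0 : 0 < t := by positivity
    have h1 : |∫ z in Cᶜ, κ z * wdg (χ n) u z| ≤
        ∫ z in Cᶜ, M * ((t * en (χ n) z + t⁻¹ * en u z) / 2) := by
      rw [← Real.norm_eq_abs]
      refine (norm_integral_le_integral_norm _).trans ?_
      refine integral_mono ?_ ?_ fun z => ?_
      · exact ((iχu n).bdd_mul (c := M) hκ.continuous.aestronglyMeasurable
          (Eventually.of_forall fun z => by simpa using hb z)).norm
      · exact ((((hχi n).integrableOn.const_mul t).add (hue.const_mul t⁻¹)).div_const 2).const_mul M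
      · show ‖κ z * wdg (χ n) u z‖ ≤ M * ((t * en (χ n) z + t⁻¹ * en u z) / 2)
        rw [norm_mul, Real.norm_eq_abs, Real.norm_eq_abs]
        exact mul_le_mul (hb z) (abs_wdg_le_t _ _ _ ht0) (abs_nonneg _) hM
    refine h1.trans ?_
    rw [integral_const_mul, integral_div, integral_add ((hχi n).integrableOn.const_mul t)
      (hue.const_mul t⁻¹), integral_const_mul, integral_const_mul, ← hE]
    have h2 : ∫ z in Cᶜ, en (χ n) z ≤ (t ^ 2)⁻¹ :=
      (setIntegral_le_integral (hχi n) (Eventually.of_forall fun z => en_nonneg _ z)).trans (hχe n)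
    have h3 : t * ∫ z in Cᶜ, en (χ n) z ≤ t⁻¹ := by
      refine (mul_le_mul_of_nonneg_left h2 ht0.le).trans (le_of_eq ?_)
      field_simp
    have h4 : M * ((t * ∫ z in Cᶜ, en (χ n) z) + t⁻¹ * E) / 2 ≤ M * (t⁻¹ + t⁻¹ * E) / 2 := by
      have := mul_le_mul_of_nonneg_left (add_le_add_left h3 (t⁻¹ * E)) hM
      linarith
    calc M * (((t * ∫ z in Cᶜ, en (χ n) z) + t⁻¹ * E) / 2)
        = M * ((t * ∫ z in Cᶜ, en (χ n) z) + t⁻¹ * E) / 2 := by ring
      _ ≤ M * (t⁻¹ + t⁻¹ * E) / 2 := h4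
      _ = M / 2 * (1 + E) * t⁻¹ := by ring
  have hlim2 : Tendsto (fun n => ∫ z in Cᶜ, χ n z * wdg κ u z) atTop (𝓝 0) := by
    have h5 : Tendsto (fun n : ℕ => M / 2 * (1 + E) * ((n : ℝ) + 1)⁻¹) atTop (𝓝 0) := by
      have := (tendsto_inv_atTop_zero.comp
        (tendsto_atTop_add_const_right atTop (1 : ℝ) tendsto_natCast_atTop_atTop)).const_mul
        (M / 2 * (1 + E))
      simpa using this
    refine squeeze_zero_norm (fun n => ?_) h5
    rw [hsplit n, norm_neg, Real.norm_eq_abs]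
    exact hbound n
  exact tendsto_nhds_unique hlim1 hlim2

lemma wdg_swap (u v : ℂ → ℝ) (z : ℂ) : wdg u v z = - wdg v u z := by unfold wdg; ring

lemma om_swap (u v : ℂ → ℝ) : om C u v = - om C v u := by
  unfold om
  rw [← integral_neg]
  exact integral_congr_ae (Eventually.of_forall fun z => wdg_swap u v z)

/-- the set where `κ` is locally constant is open -/
lemma isOpen_lc (κ : ℂ → ℝ) : IsOpen {z | ∀ᶠ w in 𝓝 z, κ w = κ z} := by
  rw [isOpen_iff_mem_nhds]
  intro z hz
  obtain ⟨V, hV, hVo, hzV⟩ := _root_.eventually_nhds_iff.1 hz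
  refine mem_of_superset (hVo.mem_nhds hzV) fun w hw => ?_
  show ∀ᶠ y in 𝓝 w, κ y = κ w
  filter_upwards [hVo.mem_nhds hw] with y hy
  rw [hV y hy, hV w hw]

/-- smooth cut-off, equal to one near a compact set -/
theorem exists_cutoff {K W : Set ℂ} (hK : IsCompact K) (hW : IsOpen W) (hKW : K ⊆ W) :
    ∃ χ : ℂ → ℝ, ContDiff ℝ ((⊤ : ℕ∞) : WithTop ℕ∞) χ ∧ HasCompactSupport χ ∧ tsupport χ ⊆ W ∧
      (∀ᶠ y in 𝓝ˢ K, χ y = 1) ∧ ∀ y, χ y ∈ Icc (0 : ℝ) 1 := by
  obtain ⟨V, hVo, hKV, hVΩ, hVc⟩ := exists_open_between_and_isCompact_closure hK hW hKW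
  obtain ⟨f, hf1, hf0, hf⟩ := exists_contMDiffMap_one_nhds_of_subset_interior
    (modelWithCornersSelf ℝ ℂ) (n := (⊤ : ℕ∞)) hK.isClosed (t := V)
    (hKV.trans (interior_eq_iff_isOpen.mpr hVo).ge)
  have hsm : ContDiff ℝ ((⊤ : ℕ∞) : WithTop ℕ∞) (f : ℂ → ℝ) := f.contMDiff.contDiff
  have hts : tsupport (f : ℂ → ℝ) ⊆ closure V := by
    apply closure_mono
    intro x hx
    by_contra h
    exact hx (hf0 x h)
  have hcs : HasCompactSupport (f : ℂ → ℝ) := hVc.of_isClosed_subset isClosed_closure hts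
  exact ⟨f, hsm, hcs, hts.trans hVΩ, hf1, hf⟩

/-- an `LC` cut-off: `1` near `C`, supported in a given neighbourhood of `C` -/
theorem exists_lc_cutoff (hC : IsCompact C) {V : Set ℂ} (hV : IsOpen V) (hCV : C ⊆ V) :
    ∃ η : ℂ → ℝ, LC C η ∧ HasCompactSupport η ∧ tsupport η ⊆ V ∧ (∀ᶠ y in 𝓝ˢ C, η y = 1) ∧
      ∀ y, η y ∈ Icc (0 : ℝ) 1 := by
  obtain ⟨η, hs, hc, hsV, h1, h01⟩ := exists_cutoff hC hV hCV
  obtain ⟨K, hK⟩ := (hs.of_le (by simp) : ContDiff ℝ 1 η).lipschitzWith_of_hasCompactSupport hc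
    one_ne_zero
  refine ⟨η, LC.of_lipschitz hK hc fun z hz => ?_, hc, hsV, h1, h01⟩
  have h2 : ∀ᶠ w in 𝓝 z, η w = 1 := (eventually_nhdsSet_iff_forall.1 h1) z hz
  filter_upwards [h2] with w hw
  rw [hw, h2.self_of_nhds]

/-- a function which is locally Lipschitz off `C` and vanishes near `C` is locally Lipschitz -/
lemma ll_of_zero (hC : IsClosed C) {u : ℂ → ℝ} (hu : LocallyLipschitzOn Cᶜ u)
    (h0 : ∀ z ∈ C, ∀ᶠ w in 𝓝 z, u w = 0) : LocallyLipschitz u := by
  intro z
  by_cases hz : z ∈ C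
  · refine ⟨0, {w | u w = 0}, h0 z hz, fun x hx y hy => ?_⟩
    rw [show u x = 0 from hx, show u y = 0 from hy]; simp
  · obtain ⟨K, t, ht, h⟩ := hu hz
    rw [hC.isOpen_compl.nhdsWithin_eq hz] at ht
    exact ⟨K, t, ht, h⟩

/-- `Q` form of `om_of_zero` -/
theorem om_of_zero' (hC : IsClosed C) {κ u : ℂ → ℝ} (hκ : Q C κ)
    (h0 : ∀ z ∈ C, ∀ᶠ w in 𝓝 z, κ w = 0) (hu : LocallyLipschitzOn Cᶜ u)
    (hue : IntegrableOn (en u) Cᶜ) : om C κ u = 0 := by
  obtain ⟨M, hM⟩ := hκ.bdd
  exact om_of_zero hC (ll_of_zero hC hκ.loc h0) hM hκ.fin h0 hu hue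

/-- **`∫ dκ ∧ du = 0`** for `κ` locally constant near `C` -/
theorem om_lc (hC : IsCompact C) {κ u : ℂ → ℝ} (hκ : LC C κ) (hu : Q C u) : om C κ u = 0 := by
  have hO : IsOpen Cᶜ := hC.isClosed.isOpen_compl
  set V : Set ℂ := {z | ∀ᶠ w in 𝓝 z, κ w = κ z} with hV
  have hVo : IsOpen V := isOpen_lc κ
  have hCV : C ⊆ V := fun z hz => hκ.lc z hz
  obtain ⟨η, hηL, hηc, hηV, hη1, hη01⟩ := exists_lc_cutoff hC hVo hCV
  set u' : ℂ → ℝ := fun z => (1 - η z) * u z with hu'
  have hQ' : Q C u' := Q.mul hC.isClosed (Q.sub hC.isClosed (Q.const C 1) hηL.q) hu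
  have h0 : ∀ z ∈ C, ∀ᶠ w in 𝓝 z, u' w = 0 := by
    intro z hz
    filter_upwards [(eventually_nhdsSet_iff_forall.1 hη1) z hz] with w hw
    rw [hu']; simp [hw]
  have h1 := om_of_zero' hC.isClosed hQ' h0 hκ.q.loc hκ.q.fin
  have h2 : om C κ u = om C κ u' := by
    refine setIntegral_congr_fun hO.measurableSet fun z _ => ?_
    show wdg κ u z = wdg κ u' z
    by_cases hz : z ∈ V
    · have h3 : κ =ᶠ[𝓝 z] fun _ => κ z := hz
      unfold wdg
      rw [gx_eq_of_eventuallyEq h3, gy_eq_of_eventuallyEq h3, gx_const, gy_const]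
      ring
    · have h4 : z ∉ tsupport η := fun h => hz (hηV h)
      have h5 : η =ᶠ[𝓝 z] 0 := notMem_tsupport_iff_eventuallyEq.1 h4
      refine wdg_eq_of_eventuallyEq (Eventually.of_forall fun _ => rfl) ?_
      filter_upwards [h5] with w hw
      rw [hu']; simp [hw]
  rw [h2, om_swap, h1, neg_zero]

/-- bilinearity: `om C (κ a) b` and cut-offs: if `a` vanishes near `C` then `om C a b = 0`, in
the form used for localisation: `om` only sees the functions near `C` -/
theorem om_congr (hC : IsClosed C) {a a' b : ℂ → ℝ} (ha : Q C a) (ha' : Q C a') (hb : Q C b)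
    (h : ∀ z ∈ C, ∀ᶠ w in 𝓝 z, a w = a' w) : om C a b = om C a' b := by
  have h0 : om C (fun z => a z - a' z) b = 0 := by
    refine om_of_zero' hC (Q.sub hC ha ha') (fun z hz => ?_) hb.loc hb.fin
    filter_upwards [h z hz] with w hw
    rw [hw, sub_self]
  have h1 : om C (fun z => a z - a' z) b = om C a b - om C a' b := by
    unfold om
    rw [← integral_sub (integrableOn_wdg' ha.fin hb.fin) (integrableOn_wdg' ha'.fin hb.fin)]
    refine integral_congr_ae ?_
    filter_upwards [ha.ae_diff hC, ha'.ae_diff hC] with z h2 h3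
    show wdg (fun z => a z - a' z) b z = wdg a b z - wdg a' b z
    unfold wdg
    rw [gx_sub h2 h3, gy_sub h2 h3]
    ring
  linarith

end Par

end

end Crest.Agent.R105.Stk_939
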