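import Crest.Agent.R105.Bd4_775
import Crest.Agent.R105.Stk2_939
import Crest.Agent.R105.IfB2_641

/-!
# Row 105, S0139, ATTP, first half of leaf `C2P` (helper86): compactly supported near minimisers
by the logarithmic cut-off at infinity
-/

set_option autoImplicit false

open MeasureTheory Set Filter Topology Metric Bornology
open scoped ContDiff NNReal

namespace Crest.Agent.R105.C2c_86

open Crest.Agent.R105.IfB_641
open Crest.Agent.R105.Bd_775 (en en_nonneg gx_mul gy_mul di_self di_self_nonneg)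

variable {C : Set ℂ} {S : Set (ℂ → ℝ)} {x0 φ : ℂ → ℝ}

/-- weighted product rule -/
theorem en_mul_le_t {χ φ : ℂ → ℝ} {z : ℂ} (hχ : DifferentiableAt ℝ χ z)
    (hφ : DifferentiableAt ℝ φ z) {s M : ℝ} (hs : 0 < s) (h1 : |χ z| ≤ 1) (hM : |φ z| ≤ M) :
    en (fun w => χ w * φ w) z ≤ (1 + s) * en φ z + (1 + 1 / s) * M ^ 2 * en χ z := by
  unfold en
  rw [gx_mul hχ hφ, gy_mul hχ hφ]
  have h2 : χ z ^ 2 ≤ 1 := by
    rw [← sq_abs]; exact pow_le_one₀ (abs_nonneg _) h1
  have h3 : φ z ^ 2 ≤ M ^ 2 := by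
    rw [← sq_abs]; exact pow_le_pow_left₀ (abs_nonneg _) hM 2
  have key : ∀ a b : ℝ, (χ z * a + φ z * b) ^ 2 ≤ (1 + s) * a ^ 2 + (1 + 1 / s) * M ^ 2 * b ^ 2 := by
    intro a b
    have e1 : (1 + s) * (χ z * a) ^ 2 + (1 + 1 / s) * (φ z * b) ^ 2 - (χ z * a + φ z * b) ^ 2
        = (s * (χ z * a) - φ z * b) ^ 2 / s := by
      field_simp; ring
    have e2 : 0 ≤ (s * (χ z * a) - φ z * b) ^ 2 / s := by positivity
    have e3 : (χ z * a) ^ 2 ≤ a ^ 2 := by
      rw [mul_pow]; nlinarith [sq_nonneg a]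
    have e4 : (φ z * b) ^ 2 ≤ M ^ 2 * b ^ 2 := by
      rw [mul_pow]; exact mul_le_mul_of_nonneg_right h3 (sq_nonneg b)
    have e5 : (1 + s) * (χ z * a) ^ 2 ≤ (1 + s) * a ^ 2 := mul_le_mul_of_nonneg_left e3 (by positivity)
    have e6 : (1 + 1 / s) * (φ z * b) ^ 2 ≤ (1 + 1 / s) * (M ^ 2 * b ^ 2) :=
      mul_le_mul_of_nonneg_left e4 (by positivity)
    nlinarith
  have k1 := key (Bd_775.gx φ z) (Bd_775.gx χ z)
  have k2 := key (Bd_775.gy φ z) (Bd_775.gy χ z)
  nlinarith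

/-- **compactly supported near minimisers** -/
theorem cutoff (hC : IsCompact C) (hx : X0 C x0) (hD : D C φ) (hg : Gen C S φ) {ε : ℝ}
    (hε : 0 < ε) : ∃ φ' : ℂ → ℝ, D C φ' ∧ Gen C S φ' ∧ HasCompactSupport φ' ∧
      J C x0 φ' ≤ J C x0 φ + ε ∧ (∀ z, |φ' z| ≤ |φ z|) := by
  have hCc := hC.isClosed
  obtain ⟨M, hM⟩ := hD.bdd
  obtain ⟨R1, hR1⟩ := hx.lap_far
  obtain ⟨R2, hR2⟩ := hC.isBounded.subset_ball (0 : ℂ)
  set E : ℝ := di C φ φ with hE
  have hE0 : 0 ≤ E := di_self_nonneg φ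
  set s : ℝ := ε / (2 * (E + 1)) with hs
  have hs0 : 0 < s := by positivity
  set κ : ℝ := ε / (2 * ((1 + 1 / s) * (M ^ 2 + 1))) with hκ
  have hκ0 : 0 < κ := by positivity
  obtain ⟨χ, ⟨K, hK⟩, hχc, hχ1, hχR, hχi, hχe⟩ := Stk_939.exists_cut_inf (max R1 R2) hκ0
  have hlc : LC C χ := by
    refine Bd_775.LC.of_lipschitz hK hχc fun z hz => ?_
    have hz2 : ‖z‖ < R2 := by simpa using hR2 hz
    have hev : ∀ᶠ w in 𝓝 z, ‖w‖ < R2 := continuous_norm.continuousAt.eventually (gt_mem_nhds hz2)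
    filter_upwards [hev] with w hw
    rw [hχR w (hw.le.trans (le_max_right _ _)), hχR z (hz2.le.trans (le_max_right _ _))]
  have hG : Gen C S (fun z => χ z * φ z) := Gen.mul (Gen.lc hlc) hg
  have hQ : Q C (fun z => χ z * φ z) := Bd_775.Q.mul hCc hlc.q hD.q
  have hD' : D C (fun z => χ z * φ z) := hQ.d (hlc.cont.mul hD.cont)
  refine ⟨fun z => χ z * φ z, hD', hG, hχc.mul_right, ?_, ?_⟩
  · have h1 : (∫ z, (χ z * φ z) * lap x0 z) = ∫ z, φ z * lap x0 z := by
      congr 1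
      funext z
      by_cases hz : R1 < ‖z‖
      · rw [hR1 z hz]; simp
      · rw [hχR z ((not_lt.1 hz).trans (le_max_left _ _)), one_mul]
    have h2 : di C (fun z => χ z * φ z) (fun z => χ z * φ z) ≤
        (1 + s) * E + (1 + 1 / s) * M ^ 2 * κ := by
      rw [di_self, hE, di_self]
      have hint : IntegrableOn (fun z => (1 + s) * en φ z + (1 + 1 / s) * M ^ 2 * en χ z) Cᶜ :=
        (hD.fin.const_mul _).add (hχi.integrableOn.const_mul _)
      calc (∫ z in Cᶜ, en (fun z => χ z * φ z) z)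
          ≤ ∫ z in Cᶜ, ((1 + s) * en φ z + (1 + 1 / s) * M ^ 2 * en χ z) := by
            refine integral_mono_ae hQ.fin hint ?_
            filter_upwards [hD.q.ae_diff hCc, hlc.q.ae_diff hCc] with z d1 d2
            refine en_mul_le_t d2 d1 hs0 ?_ (hM z)
            rw [abs_le]
            exact ⟨by linarith [(hχ1 z).1], (hχ1 z).2⟩
        _ = (1 + s) * (∫ z in Cᶜ, en φ z) + (1 + 1 / s) * M ^ 2 * ∫ z in Cᶜ, en χ z := by
            rw [integral_add (hD.fin.const_mul _) (hχi.integrableOn.const_mul _),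
              integral_const_mul, integral_const_mul]
        _ ≤ (1 + s) * (∫ z in Cᶜ, en φ z) + (1 + 1 / s) * M ^ 2 * κ := by
            have : (∫ z in Cᶜ, en χ z) ≤ ∫ z, en χ z :=
              setIntegral_le_integral hχi (Eventually.of_forall fun z => en_nonneg χ z)
            have h4 : 0 ≤ (1 + 1 / s) * M ^ 2 := by positivity
            have := mul_le_mul_of_nonneg_left (this.trans hχe) h4
            linarith
    have h3 : s * E ≤ ε / 2 := by
      rw [hs, div_mul_eq_mul_div, div_le_div_iff₀ (by positivity) two_pos]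
      nlinarith
    have h4 : (1 + 1 / s) * M ^ 2 * κ ≤ ε / 2 := by
      have h5 : 0 < 1 + 1 / s := by positivity
      rw [hκ, mul_div_assoc', div_le_div_iff₀ (by positivity) two_pos]
      nlinarith [mul_pos h5 hε, sq_nonneg M]
    unfold J
    rw [h1]
    have : (1 + s) * E = E + s * E := by ring
    linarith
  · intro z
    rw [abs_mul]
    have : |χ z| ≤ 1 := by
      rw [abs_le]
      exact ⟨by linarith [(hχ1 z).1], (hχ1 z).2⟩
    calc |χ z| * |φ z| ≤ 1 * |φ z| := mul_le_mul_of_nonneg_right this (abs_nonneg _)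
      _ = _ := one_mul _

end Crest.Agent.R105.C2c_86
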