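import Crest.Agent.R105.Grd3_782
import Crest.Agent.R105.C2c_86
import Crest.Agent.R105.SelT2_871

/-!
# Row 105, S0138 (T-frame, NI): from the greedy sequence to the minimiser (helper782)

* `tendsto_J` : `J Y x0 (u n) → J Y x0 φ` from convergence of the gradient energies alone
* `NI_congr`  : `NI` depends on germs at `Y` only
* `cutoff_TT` : logarithmic cut-off at infinity in the class `TT`
* `SelT.min'` : minimality against all bounded members of the commutant, for `P = HasCompactSupport`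
* `SelT.attained` : `osc_K φ ≤ σ_K` and `NI (u i) φ` imply `TT`, `TJ φ = m`, `osc_K φ = σ_K`
* `SelT.unique` : uniqueness of the minimiser up to constants of the gradient
-/

set_option autoImplicit false

open MeasureTheory Set Filter Topology Metric
open scoped NNReal ENNReal

namespace Crest.Agent.R105.Grd_782

open Bd_775 Ends_897 Tc_808 Ni_459 Crest.AnalysisR
open Crest.Agent.R105.IfB_641 (J di lap X0)

noncomputable section

variable {Y : Set ℂ} {x0 φ ψ a b : ℂ → ℝ}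

lemma TJ_eq_JT (Y : Set ℂ) (x0 φ : ℂ → ℝ) : TJ Y x0 φ = SelT_871.JT Y x0 φ := rfl

/-! ### germs at `Y` -/

lemma up_congr' {O : Set ℂ} {z : ℂ} (hO : Nb Y z O) (h : ∀ w ∈ O, w ∉ Y → a w = b w) :
    up Y a z = up Y b z := by
  unfold up
  congr 1
  ext c
  constructor
  · rintro ⟨P, hP, hc⟩
    exact ⟨P ∩ O, hP.inter hO, fun w hw hwY => by rw [← h w hw.2 hwY]; exact hc w hw.1 hwY⟩
  · rintro ⟨P, hP, hc⟩
    exact ⟨P ∩ O, hP.inter hO, fun w hw hwY => by rw [h w hw.2 hwY]; exact hc w hw.1 hwY⟩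

lemma lo_congr' {O : Set ℂ} {z : ℂ} (hO : Nb Y z O) (h : ∀ w ∈ O, w ∉ Y → a w = b w) :
    lo Y a z = lo Y b z := by
  unfold lo
  rw [up_congr' (a := fun w => - a w) (b := fun w => - b w) hO fun w hw hwY => by rw [h w hw hwY]]

/-- `NI` only sees the germ at `Y` -/
lemma NI_congr {b' : ℂ → ℝ} {O : Set ℂ} (hO : IsOpen O) (hYO : Y ⊆ O) (h : ∀ w ∈ O, b w = b' w)
    (hn : NI Y a b) : NI Y a b' := by
  unfold NI at hn ⊢
  have he : NP Y a b' = NP Y a b := by
    have hnb : ∀ z ∈ Y, Nb Y z O := fun z hz =>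
      ⟨hO, hYO hz, (connectedComponentIn_subset _ _).trans hYO⟩
    ext p
    constructor
    · rintro ⟨z, hz, h1, h2, h3, h4⟩
      refine ⟨z, hz, h1, h2, ?_, ?_⟩
      · rw [lo_congr' (hnb z hz) fun w hw _ => h w hw]; exact h3
      · rw [up_congr' (hnb z hz) fun w hw _ => h w hw]; exact h4
    · rintro ⟨z, hz, h1, h2, h3, h4⟩
      refine ⟨z, hz, h1, h2, ?_, ?_⟩
      · rw [← lo_congr' (hnb z hz) fun w hw _ => h w hw]; exact h3
      · rw [← up_congr' (hnb z hz) fun w hw _ => h w hw]; exact h4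
  rw [he]; exact hn

/-! ### continuity of `J` -/

lemma di_cs (hY : IsClosed Y) (hu : Q Y φ) (hv : Q Y ψ) :
    |di Y φ ψ| ≤ Real.sqrt (di Y φ φ * di Y ψ ψ) := by
  refine Real.abs_le_sqrt ?_
  have h0 : ∀ t : ℝ, 0 ≤ di Y ψ ψ * (t * t) + (2 * di Y φ ψ) * t + di Y φ φ := by
    intro t
    have h1 := IfB_641.di_expand hY hu hv t
    have h2 : 0 ≤ di Y (fun z => φ z + t * ψ z) (fun z => φ z + t * ψ z) := di_self_nonneg _
    rw [h1] at h2
    nlinarith
  have h3 := discrim_le_zero h0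
  unfold discrim at h3
  nlinarith

lemma lap_cs (hY : IsCompact Y) (hx : X0 Y x0) : ∃ L : ℝ, 0 ≤ L ∧ ∀ w, Q Y w →
    |∫ z, w z * lap x0 z| ≤ Real.sqrt (L * di Y w w) := by
  obtain ⟨L, hL⟩ := J_bddBelow hY hx
  have hYc := hY.isClosed
  have hJ0 : J Y x0 (fun _ => (0 : ℝ)) = 0 := by
    unfold J
    have h1 : di Y (fun _ => (0 : ℝ)) (fun _ => (0 : ℝ)) = 0 := by
      rw [di_self_en]
      have : ∀ z, en (fun _ : ℂ => (0 : ℝ)) z = 0 := fun z => by
        unfold en; rw [gx_const, gy_const]; ring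
      simp only [this, integral_zero]
    rw [h1]; simp
  have hL0 : L ≤ 0 := by
    have := hL _ (Q.const Y 0)
    rwa [hJ0] at this
  refine ⟨-L, by linarith, fun w hw => ?_⟩
  refine Real.abs_le_sqrt ?_
  have h0 : ∀ t : ℝ, 0 ≤ di Y w w * (t * t) + (-2 * ∫ z, w z * lap x0 z) * t + (-L) := by
    intro t
    have h1 := IfB_641.J_expand hYc hx (Q.const Y 0) hw t
    have h2 := hL _ ((Q.const Y 0).add hYc (IfB_641.Q.smul' hYc hw t))
    rw [h1, hJ0] at h2
    have h3 : di Y (fun _ => (0 : ℝ)) w = 0 := by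
      have h4 := di_cs hYc (Q.const Y 0) hw
      have h5 : di Y (fun _ => (0 : ℝ)) (fun _ => (0 : ℝ)) = 0 := by
        rw [di_self_en]
        have : ∀ z, en (fun _ : ℂ => (0 : ℝ)) z = 0 := fun z => by
          unfold en; rw [gx_const, gy_const]; ring
        simp only [this, integral_zero]
      rw [h5, zero_mul, Real.sqrt_zero] at h4
      exact abs_nonpos_iff.1 h4
    rw [h3] at h2
    nlinarith
  have h3 := discrim_le_zero h0
  unfold discrim at h3
  nlinarith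

/-- **continuity of `J` for the gradient norm** -/
theorem tendsto_J (hY : IsCompact Y) (hx : X0 Y x0) {u : ℕ → ℂ → ℝ} (hu : ∀ n, Q Y (u n))
    (hφ : Q Y φ) (he : Tendsto (fun n => ∫ z in Yᶜ, en (fun w => u n w - φ w) z) atTop (𝓝 0)) :
    Tendsto (fun n => J Y x0 (u n)) atTop (𝓝 (J Y x0 φ)) := by
  have hYc := hY.isClosed
  obtain ⟨L, hL0, hL⟩ := lap_cs hY hx
  set e : ℕ → ℝ := fun n => ∫ z in Yᶜ, en (fun w => u n w - φ w) z with hedef
  have hq : ∀ n, Q Y (fun w => u n w - φ w) := fun n => (hu n).sub hYc hφ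
  have hdi : ∀ n, di Y (fun w => u n w - φ w) (fun w => u n w - φ w) = e n := fun n =>
    di_self_en _
  have hexp : ∀ n, J Y x0 (u n) = J Y x0 φ + 2 * 1 *
      (di Y φ (fun w => u n w - φ w) - ∫ z, (u n z - φ z) * lap x0 z) + 1 ^ 2 * e n := by
    intro n
    have h1 := IfB_641.J_expand hYc hx hφ (hq n) 1
    rw [hdi] at h1
    have h2 : (fun z => φ z + 1 * (u n z - φ z)) = u n := by funext z; ring
    rw [h2] at h1
    exact h1
  rw [tendsto_iff_norm_sub_tendsto_zero]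
  have hb : ∀ n, ‖J Y x0 (u n) - J Y x0 φ‖ ≤
      2 * (Real.sqrt (di Y φ φ * e n) + Real.sqrt (L * e n)) + e n := by
    intro n
    have h1 := di_cs hYc hφ (hq n)
    have h2 := hL _ (hq n)
    rw [hdi] at h1 h2
    have h3 : 0 ≤ e n := by rw [← hdi]; exact di_self_nonneg _
    rw [hexp n, Real.norm_eq_abs, abs_le]
    have h4 := abs_le.1 h1
    have h5 := abs_le.1 h2
    constructor <;> linarith [h4.1, h4.2, h5.1, h5.2]
  refine squeeze_zero (fun n => norm_nonneg _) hb ?_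
  have h1 : Tendsto (fun n => Real.sqrt (di Y φ φ * e n)) atTop (𝓝 0) := by
    have := (he.const_mul (di Y φ φ)).sqrt
    rwa [mul_zero, Real.sqrt_zero] at this
  have h2 : Tendsto (fun n => Real.sqrt (L * e n)) atTop (𝓝 0) := by
    have := (he.const_mul L).sqrt
    rwa [mul_zero, Real.sqrt_zero] at this
  have h3 := ((h1.add h2).const_mul 2).add he
  simpa using h3

/-! ### cut-off at infinity -/

/-- logarithmic cut-off at infinity in the class `TT` -/
theorem cutoff_TT (hY : IsCompact Y) (hx : X0 Y x0) (hφ : TT Y φ) {ε : ℝ} (hε : 0 < ε) :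
    ∃ χ : ℂ → ℝ, LC Y χ ∧ HasCompactSupport χ ∧ (∃ O, IsOpen O ∧ Y ⊆ O ∧ ∀ z ∈ O, χ z = 1) ∧
      TT Y (fun z => χ z * φ z) ∧ TJ Y x0 (fun z => χ z * φ z) ≤ TJ Y x0 φ + ε ∧
      (∀ K : Cmp Y, osc Y (fun z => χ z * φ z) K.1 = osc Y φ K.1) ∧
      (∀ z, |χ z * φ z| ≤ |φ z|) := by
  have hCc := hY.isClosed
  obtain ⟨M, hM⟩ := hφ.q.bdd
  obtain ⟨R1, hR1⟩ := hx.lap_far
  obtain ⟨R2, hR2⟩ := hY.isBounded.subset_ball (0 : ℂ)
  set E : ℝ := di Y φ φ with hE
  have hE0 : 0 ≤ E := di_self_nonneg φ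
  set s : ℝ := ε / (2 * (E + 1)) with hs
  have hs0 : 0 < s := by positivity
  set κ : ℝ := ε / (2 * ((1 + 1 / s) * (M ^ 2 + 1))) with hκ
  have hκ0 : 0 < κ := by positivity
  obtain ⟨χ, ⟨K, hK⟩, hχc, hχ1, hχR, hχi, hχe⟩ := Stk_939.exists_cut_inf (max R1 R2) hκ0
  have hone : ∀ z ∈ ball (0 : ℂ) R2, χ z = 1 := fun z hz =>
    hχR z ((mem_ball_zero_iff.1 hz).le.trans (le_max_right _ _))
  have hlc : LC Y χ := by
    refine Bd_775.LC.of_lipschitz hK hχc fun z hz => ?_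
    filter_upwards [isOpen_ball.mem_nhds (hR2 hz)] with w hw
    rw [hone w hw, hone z (hR2 hz)]
  have hT : TT Y (fun z => χ z * φ z) := (TT.lc hlc).mul hCc hφ
  have hosc : ∀ K : Cmp Y, osc Y (fun z => χ z * φ z) K.1 = osc Y φ K.1 := fun K =>
    osc_congr isOpen_ball (K.subset.trans hR2) fun z hz _ => by rw [hone z hz, one_mul]
  refine ⟨χ, hlc, hχc, ⟨_, isOpen_ball, hR2, hone⟩, hT, ?_, hosc, fun z => ?_⟩
  · have h1 : (∫ z, (χ z * φ z) * lap x0 z) = ∫ z, φ z * lap x0 z := by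
      congr 1
      funext z
      by_cases hz : R1 < ‖z‖
      · rw [hR1 z hz]; simp
      · rw [hχR z ((not_lt.1 hz).trans (le_max_left _ _)), one_mul]
    have h2 : di Y (fun z => χ z * φ z) (fun z => χ z * φ z) ≤
        (1 + s) * E + (1 + 1 / s) * M ^ 2 * κ := by
      rw [di_self, hE, di_self]
      have hint : IntegrableOn (fun z => (1 + s) * en φ z + (1 + 1 / s) * M ^ 2 * en χ z) Yᶜ :=
        (hφ.q.fin.const_mul _).add (hχi.integrableOn.const_mul _)
      calc (∫ z in Yᶜ, en (fun z => χ z * φ z) z)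
          ≤ ∫ z in Yᶜ, ((1 + s) * en φ z + (1 + 1 / s) * M ^ 2 * en χ z) := by
            refine integral_mono_ae hT.q.fin hint ?_
            filter_upwards [hφ.q.ae_diff hCc, hlc.q.ae_diff hCc] with z d1 d2
            refine C2c_86.en_mul_le_t d2 d1 hs0 ?_ (hM z)
            rw [abs_le]
            exact ⟨by linarith [(hχ1 z).1], (hχ1 z).2⟩
        _ = (1 + s) * (∫ z in Yᶜ, en φ z) + (1 + 1 / s) * M ^ 2 * ∫ z in Yᶜ, en χ z := by
            rw [integral_add (hφ.q.fin.const_mul _) (hχi.integrableOn.const_mul _),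
              integral_const_mul, integral_const_mul]
        _ ≤ (1 + s) * (∫ z in Yᶜ, en φ z) + (1 + 1 / s) * M ^ 2 * κ := by
            have : (∫ z in Yᶜ, en χ z) ≤ ∫ z, en χ z :=
              setIntegral_le_integral hχi (Eventually.of_forall fun z => en_nonneg χ z)
            have h4 : 0 ≤ (1 + 1 / s) * M ^ 2 := by positivity
            have := mul_le_mul_of_nonneg_left (this.trans hχe) h4
            linarith
    have h3 : s * E ≤ ε / 2 := by
      rw [hs, div_mul_eq_mul_div, div_le_div_iff₀ (by positivity) two_pos]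
      nlinarith
    have h4 : (1 + 1 / s) * M ^ 2 * κ ≤ ε / 2 := by
      have h5 : 0 < 1 + 1 / s := by positivity
      rw [hκ, mul_div_assoc', div_le_div_iff₀ (by positivity) two_pos]
      nlinarith [mul_pos h5 hε, sq_nonneg M]
    have h5 : (∑' K : Cmp Y, osc Y (fun z => χ z * φ z) K.1 ^ 2) = ∑' K : Cmp Y, osc Y φ K.1 ^ 2 :=
      tsum_congr fun K => by rw [hosc K]
    unfold TJ J
    rw [h1, h5]
    have : (1 + s) * E = E + s * E := by ring
    linarith
  · rw [abs_mul]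
    have : |χ z| ≤ 1 := by
      rw [abs_le]
      exact ⟨by linarith [(hχ1 z).1], (hχ1 z).2⟩
    calc |χ z| * |φ z| ≤ 1 * |φ z| := mul_le_mul_of_nonneg_right this (abs_nonneg _)
      _ = _ := one_mul _

/-! ### the minimiser -/

section Min
variable {u : ℕ → ℂ → ℝ} {m : ℝ} {σ : Cmp Y → ℝ}

lemma plin_cs : PLin (fun φ : ℂ → ℝ => HasCompactSupport φ) := by
  intro b b' hb hb' s t
  exact (hb.mul_left (f := fun _ => s)).add (hb'.mul_left (f := fun _ => t))

/-- minimality against ALL bounded members of the commutant -/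
theorem SelT.min' (hY : IsCompact Y) (hx : X0 Y x0)
    (h : SelT Y x0 (fun φ => HasCompactSupport φ) u m σ) (hb : TT Y b)
    (hni : ∀ i, NI Y (u i) b) : m ≤ TJ Y x0 b := by
  refine le_of_forall_pos_le_add fun ε hε => ?_
  obtain ⟨χ, hlc, hχc, ⟨O, hO, hYO, h1⟩, hT, hJ, -, -⟩ := cutoff_TT hY hx hb hε
  refine (h.min _ hT hχc.mul_right fun i => ?_).trans hJ
  exact NI_congr hO hYO (fun w hw => by rw [h1 w hw, one_mul]) (hni i)

/-- the sum of squares converges -/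
lemma SelT.tendsto_sum {P : (ℂ → ℝ) → Prop} (h : SelT Y x0 P u m σ) :
    Tendsto (fun n => ∑' K : Cmp Y, osc Y (u n) K.1 ^ 2) atTop (𝓝 (∑' K : Cmp Y, σ K ^ 2)) := by
  have hd : ∀ n, Summable fun K : Cmp Y => (osc Y (u n) K.1 - σ K) ^ 2 := fun n =>
    summable_sq_sub (h.tt n).sum h.sum
  set d : ℕ → ℝ := fun n => ∑' K : Cmp Y, (osc Y (u n) K.1 - σ K) ^ 2 with hddef
  have hmul : ∀ n, Summable fun K : Cmp Y => σ K * (osc Y (u n) K.1 - σ K) := by
    intro n
    refine Summable.of_norm_bounded (g := fun K => σ K ^ 2 + (osc Y (u n) K.1 - σ K) ^ 2)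
      (h.sum.add (hd n)) fun K => ?_
    rw [Real.norm_eq_abs, abs_le]
    constructor <;> nlinarith [sq_nonneg (σ K + (osc Y (u n) K.1 - σ K)),
      sq_nonneg (σ K - (osc Y (u n) K.1 - σ K)), sq_nonneg (σ K),
      sq_nonneg (osc Y (u n) K.1 - σ K)]
  have he : ∀ n, (∑' K : Cmp Y, osc Y (u n) K.1 ^ 2) = (∑' K : Cmp Y, σ K ^ 2) +
      2 * (∑' K : Cmp Y, σ K * (osc Y (u n) K.1 - σ K)) + d n := by
    intro n
    rw [← tsum_mul_left, ← Summable.tsum_add h.sum ((hmul n).mul_left 2),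
      ← Summable.tsum_add (h.sum.add ((hmul n).mul_left 2)) (hd n)]
    exact tsum_congr fun K => by ring
  have hcs : ∀ n, |∑' K : Cmp Y, σ K * (osc Y (u n) K.1 - σ K)| ≤
      Real.sqrt ((∑' K : Cmp Y, σ K ^ 2) * d n) := by
    intro n
    refine Real.abs_le_sqrt ?_
    have hq : ∀ t : ℝ, 0 ≤ d n * (t * t) +
        (2 * ∑' K : Cmp Y, σ K * (osc Y (u n) K.1 - σ K)) * t + ∑' K : Cmp Y, σ K ^ 2 := by
      intro t
      have e1 : ∑' K : Cmp Y, (σ K + t * (osc Y (u n) K.1 - σ K)) ^ 2 = d n * (t * t) +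
          (2 * ∑' K : Cmp Y, σ K * (osc Y (u n) K.1 - σ K)) * t + ∑' K : Cmp Y, σ K ^ 2 := by
        have e2 : ∀ K : Cmp Y, (σ K + t * (osc Y (u n) K.1 - σ K)) ^ 2 =
            (osc Y (u n) K.1 - σ K) ^ 2 * (t * t) + 2 * (σ K * (osc Y (u n) K.1 - σ K)) * t +
              σ K ^ 2 := fun K => by ring
        simp only [e2]
        rw [Summable.tsum_add (((hd n).mul_right _).add (((hmul n).mul_left 2).mul_right t)) h.sum,
          Summable.tsum_add ((hd n).mul_right _) (((hmul n).mul_left 2).mul_right t),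
          tsum_mul_right, tsum_mul_right, tsum_mul_left]
      rw [← e1]
      exact tsum_nonneg fun K => sq_nonneg _
    have h2 := discrim_le_zero hq
    unfold discrim at h2
    nlinarith
  have h1 : Tendsto (fun n => Real.sqrt ((∑' K : Cmp Y, σ K ^ 2) * d n)) atTop (𝓝 0) := by
    have := (h.l2.const_mul (∑' K : Cmp Y, σ K ^ 2)).sqrt
    rwa [mul_zero, Real.sqrt_zero] at this
  have h2 : Tendsto (fun n => ∑' K : Cmp Y, σ K * (osc Y (u n) K.1 - σ K)) atTop (𝓝 0) :=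
    squeeze_zero_norm hcs h1
  have h3 := ((h2.const_mul 2).const_add (∑' K : Cmp Y, σ K ^ 2)).add h.l2
  simp only [mul_zero, add_zero] at h3
  refine h3.congr fun n => ?_
  rw [he n]

/-- **ATTAINMENT**: the limit of the greedy sequence is a `T`-minimiser over the commutant -/
theorem SelT.attained (hY : IsCompact Y) (hx : X0 Y x0)
    (h : SelT Y x0 (fun φ => HasCompactSupport φ) u m σ) (hφ : Q Y φ)
    (he : Tendsto (fun n => ∫ z in Yᶜ, en (fun w => u n w - φ w) z) atTop (𝓝 0))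
    (hosc : ∀ K : Cmp Y, osc Y φ K.1 ≤ σ K) (hni : TT Y φ → ∀ i, NI Y (u i) φ) :
    TT Y φ ∧ (∀ i, NI Y (u i) φ) ∧ TJ Y x0 φ = m ∧ (∀ K : Cmp Y, osc Y φ K.1 = σ K) ∧
      ∀ b, TT Y b → (∀ i, NI Y (u i) b) → TJ Y x0 φ ≤ TJ Y x0 b := by
  have hpos : ∀ K : Cmp Y, osc Y φ K.1 ^ 2 ≤ σ K ^ 2 := fun K =>
    pow_le_pow_left₀ (osc_nonneg _ _ _) (hosc K) 2
  have hT : TT Y φ := ⟨hφ, Summable.of_nonneg_of_le (fun K => sq_nonneg _) hpos h.sum⟩
  have hA := hni hT
  have hJ := tendsto_J hY hx (fun n => (h.tt n).q) hφ he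
  have hS := h.tendsto_sum
  have hm : m = J Y x0 φ + ∑' K : Cmp Y, σ K ^ 2 := tendsto_nhds_unique h.lim (hJ.add hS)
  have hle : (∑' K : Cmp Y, osc Y φ K.1 ^ 2) ≤ ∑' K : Cmp Y, σ K ^ 2 :=
    Summable.tsum_le_tsum hpos hT.sum h.sum
  have hmin : m ≤ TJ Y x0 φ := h.min' hY hx hT hA
  have hEq : TJ Y x0 φ = m := by
    refine le_antisymm ?_ hmin
    rw [hm]; unfold TJ; linarith
  have hsum : (∑' K : Cmp Y, osc Y φ K.1 ^ 2) = ∑' K : Cmp Y, σ K ^ 2 := by
    have : J Y x0 φ + ∑' K : Cmp Y, osc Y φ K.1 ^ 2 = J Y x0 φ + ∑' K : Cmp Y, σ K ^ 2 := by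
      rw [← hm]; exact hEq
    linarith
  have hK : ∀ K : Cmp Y, osc Y φ K.1 = σ K := by
    intro K
    have h1 : Summable fun K : Cmp Y => σ K ^ 2 - osc Y φ K.1 ^ 2 := h.sum.sub hT.sum
    have h2 : (∑' K : Cmp Y, (σ K ^ 2 - osc Y φ K.1 ^ 2)) = 0 := by
      rw [Summable.tsum_sub h.sum hT.sum, hsum, sub_self]
    have h3 := (hasSum_zero_iff_of_nonneg (fun K => sub_nonneg.2 (hpos K))).1
      (by rw [← h2]; exact h1.hasSum)
    have h4 : σ K ^ 2 - osc Y φ K.1 ^ 2 = 0 := congrFun h3 K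
    have h5 : osc Y φ K.1 ^ 2 = σ K ^ 2 := by linarith
    have h6 : 0 ≤ σ K := (osc_nonneg _ _ _).trans (hosc K)
    exact (pow_left_inj₀ (osc_nonneg _ _ _) h6 two_ne_zero).1 h5
  exact ⟨hT, hA, hEq, hK, fun b hb hbA => by rw [hEq]; exact h.min' hY hx hb hbA⟩

/-- near uniqueness: a member of the commutant with `TJ b ≤ m + ε` is `4 ε`-close in energy -/
theorem SelT.near_unique (hY : IsCompact Y) (hx : X0 Y x0)
    (h : SelT Y x0 (fun φ => HasCompactSupport φ) u m σ) (ha : TT Y a) (hb : TT Y b)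
    (hmid : ∀ i, NI Y (u i) (mid a b)) {ε : ℝ} (h1 : TJ Y x0 a ≤ m + ε) (h2 : TJ Y x0 b ≤ m + ε) :
    ∫ z in Yᶜ, en (fun w => a w - b w) z ≤ 4 * ε := by
  have hYc := hY.isClosed
  have h3 := h.min' hY hx (TT_mid hYc ha hb) hmid
  have h4 := ET_mid hYc ha hb
  have h5 := ell_mid hYc hx ha hb
  have h6 : 0 ≤ ∑' K : Cmp Y, (osc Y a K.1 - osc Y b K.1) ^ 2 := tsum_nonneg fun K => sq_nonneg _
  rw [TJ_eq] at h1 h2 h3
  linarith

end Min

end

end Crest.Agent.R105.Grd_782
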