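import Crest.Agent.R105.SkA1_8
import Crest.Agent.R105.Ata1_782
import Crest.Agent.R105.Ni3_459
import Crest.Agent.R105.Uw4_913

/-!
# Row 105, S0138: the `T`-minimiser of the package `SkA_8.Pk` is exactly switched (helper782)

* `ni_glue` : `w` is `φ` or the constant `s` near `Y` ⟹ `NI Y a φ → NI Y a w`
* `swd_of_min` : the same for any minimiser over a commutant; `no_bdd'`, `no_bdd`
* `swd_of_pk` : `SkA_8.Pk Y x0 a φ F → Swd Y (x0 + φ)`
-/

set_option autoImplicit false

open MeasureTheory Set Filter Topology Metric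
open scoped NNReal ENNReal

namespace Crest.Agent.R105.Grd_782

open Bd_775 Ends_897 Tc_808 Ni_459 Crest.AnalysisR
open Crest.Agent.R105.IfB_641 (J di lap X0)

noncomputable section

variable {Y : Set ℂ} {x0 φ w a : ℂ → ℝ}

/-- gluing a constant does not destroy `NI` -/
theorem ni_glue (hY : IsExteriorDomain Yᶜ) (ha : TT Y a) (hφ : TT Y φ) (hw : TT Y w)
    {O : Set ℂ} (hO : IsOpen O) (hYO : Y ⊆ O) {s : ℝ}
    (h : ∀ z ∈ O, z ∉ Y → w z = φ z ∨ w z = s) (hni : NI Y a φ) : NI Y a w := by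
  refine valp Y a φ w hY ha hφ hw hni {s} (countable_singleton s) fun z hz hzw => ?_
  by_cases hs : up Y w z = s
  · exact Or.inr (Or.inl hs)
  by_cases hj : lo Y φ z = up Y φ z
  · left
    refine ⟨hj, ?_⟩
    have hlb : LB w := LB.of_bdd hw.q.bdd
    have hnb : Nb Y z O := ⟨hO, hYO hz, (connectedComponentIn_subset _ _).trans hYO⟩
    have key : ∃ P, Nb Y z P ∧ ∀ p ∈ P, p ∉ Y → w p ≠ s := by
      rcases lt_or_gt_of_ne hs with h1 | h1
      · obtain ⟨P, hP, hP'⟩ := exists_lt_of_up_lt hY hlb h1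
        exact ⟨P, hP, fun p hp hpY => (hP' p hp hpY).ne⟩
      · rw [← hzw] at h1
        obtain ⟨P, hP, hP'⟩ := exists_gt_of_lt_lo hY hlb h1
        exact ⟨P, hP, fun p hp hpY => (hP' p hp hpY).ne'⟩
    obtain ⟨P, hP, hP'⟩ := key
    exact (up_congr' (hP.inter hnb) fun p hp hpY =>
      ((h p hp.2 hpY).resolve_right (hP' p hp.1 hpY))).symm
  · exact Or.inr (Or.inr hj)

/-- truncation on a bounded component is admissible and does not beat the minimiser -/
theorem no_bdd' {ι : Type*} {F : ℂ → ℂ} {b : ι → ℂ → ℝ} (hU : IsExteriorDomain Yᶜ) (hx0 : X0 Y x0)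
    (tta : ∀ i, TT Y (b i)) (tt : TT Y φ) (com : ∀ i, NI Y (b i) φ)
    (min : ∀ c, TT Y c → (∀ i, NI Y (b i) c) → TJ Y x0 φ ≤ TJ Y x0 c)
    (hol : DifferentiableOn ℂ F Yᶜ) (re : ∀ z ∈ Yᶜ, (F z).re = x0 z + φ z)
    (inf : ∃ c : ℂ, Tendsto (fun z => F z - z) (cocompact ℂ) (𝓝 c)) {σ : ℝ}
    (hσ : σ = 1 ∨ σ = -1) {t : ℝ} {z0 : ℂ} (hz0 : z0 ∉ Y) (ht : t < σ * (F z0).re) :
    ¬ Bornology.IsBounded (connectedComponentIn {z | z ∈ Yᶜ ∧ t < σ * (F z).re} z0) := by
  intro hVb
  set V := connectedComponentIn {z | z ∈ Yᶜ ∧ t < σ * (F z).re} z0 with hVdef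
  have e : Yᶜᶜ = Y := compl_compl Y
  have hσ2 : σ * σ = 1 := by rcases hσ with rfl | rfl <;> norm_num
  have hx : X0 Yᶜᶜ x0 := by rw [e]; exact hx0
  have hu : TT Yᶜᶜ φ := by rw [e]; exact tt
  have hfc : ContinuousOn (fun z => σ * (F z).re) Yᶜ :=
    continuousOn_const.mul (Complex.continuous_re.comp_continuousOn hol.continuousOn)
  have hWo : IsOpen {z | z ∈ Yᶜ ∧ t < σ * (F z).re} := hfc.isOpen_inter_preimage hU.1 isOpen_Ioi
  have hV : IsOpen V := hWo.connectedComponentIn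
  have hVW : V ⊆ {z | z ∈ Yᶜ ∧ t < σ * (F z).re} := connectedComponentIn_subset _ _
  have hVU : V ⊆ Yᶜ := fun z hz => (hVW hz).1
  have hfr : ∀ z ∈ Yᶜ, z ∈ frontier V → (F z).re = σ * t := by
    intro z hz hzf
    have h1 := Uw_913.frontier_cc hU.1 hfc z0 z hz hzf
    rw [← h1, ← mul_assoc, hσ2, one_mul]
  have hsg : ∀ z ∈ V, 0 ≤ σ * ((F z).re - σ * t) := by
    intro z hz
    have h1 := (hVW hz).2
    rw [mul_sub, ← mul_assoc, hσ2, one_mul]
    linarith
  have hT' := Uw_913.trunc_TT hU hol hx hu re hV hVU hVb hfr hσ hsg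
  have hT : TT Y (fun z => φ z + (-1) * Uw_913.inc V F (σ * t) z) := by rw [e] at hT'; exact hT'
  have hO : IsOpen (tsupport x0)ᶜ := (isClosed_tsupport x0).isOpen_compl
  have hYO : Y ⊆ (tsupport x0)ᶜ := fun z hz h' => hx0.zero h' hz
  have hni : ∀ i, NI Y (b i) (fun z => φ z + (-1) * Uw_913.inc V F (σ * t) z) := by
    intro i
    refine ni_glue (s := σ * t) hU (tta i) tt hT hO hYO (fun z hz hzY => ?_) (com i)
    by_cases hzV : z ∈ V
    · right
      rw [Uw_913.inc_of_mem hzV, re z hzY, image_eq_zero_of_notMem_tsupport hz]; ring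
    · left
      rw [Uw_913.inc_of_notMem hzV]; ring
  have hmin := min _ hT hni
  refine Uw_913.no_bounded_comp (V := V) hU hol hx hu re inf hσ hz0 ht rfl ?_ hVb
  rw [e]
  exact hmin

/-- **a minimiser over a commutant is exactly switched** (any family of `TT` anchors) -/
theorem swd_of_min {ι : Type*} {F : ℂ → ℂ} {b : ι → ℂ → ℝ} (hY : IsExteriorDomain Yᶜ)
    (hx0 : X0 Y x0) (tta : ∀ i, TT Y (b i)) (tt : TT Y φ) (com : ∀ i, NI Y (b i) φ)
    (min : ∀ c, TT Y c → (∀ i, NI Y (b i) c) → TJ Y x0 φ ≤ TJ Y x0 c)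
    (hol : DifferentiableOn ℂ F Yᶜ) (re : ∀ z ∈ Yᶜ, (F z).re = x0 z + φ z)
    (inf : ∃ c : ℂ, Tendsto (fun z => F z - z) (cocompact ℂ) (𝓝 c)) :
    Swd Y (fun z => x0 z + φ z) := by
  have hlb : LB (fun z => x0 z + φ z) :=
    (LB.of_cont hx0.sm.continuous).add (LB.of_bdd tt.q.bdd)
  have hxc : ∀ z, z ∉ Y → ContinuousAt (fun z => x0 z + φ z) z := by
    intro z hz
    have h1 : ContinuousAt (fun w => (F w).re) z :=
      (Complex.continuous_re.comp_continuousOn hol.continuousOn).continuousAt (hY.1.mem_nhds hz)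
    refine h1.congr ?_
    filter_upwards [hY.1.mem_nhds hz] with w hw using re w hw
  -- general step: `A` open saturated, contains the truncation component
  have key : ∀ (A : Set ℂ) (σ t : ℝ), (σ = 1 ∨ σ = -1) → IsOpen A →
      (∀ w ∈ A, connectedComponentIn Y w ⊆ A) → (∀ w, w ∉ Y → (w ∈ A ↔ t < σ * (F w).re)) →
      ∀ z ∈ A, ¬ Bornology.IsBounded (connectedComponentIn A z) := by
    intro A σ t hσ hA hsat hiff z hz hb
    have hG : IsOpen (connectedComponentIn A z) := hA.connectedComponentIn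
    have hzG : z ∈ connectedComponentIn A z := mem_connectedComponentIn hz
    have hnb : Nb Y z (connectedComponentIn A z) := by
      refine ⟨hG, hzG, ?_⟩
      by_cases hzY : z ∈ Y
      · exact isPreconnected_connectedComponentIn.subset_connectedComponentIn
          (mem_connectedComponentIn hzY) (hsat z hz)
      · rw [connectedComponentIn_eq_empty hzY]; exact empty_subset _
    obtain ⟨z', hz'G, hz'Y⟩ := hnb.nonempty hY
    have hz'A : z' ∈ A := connectedComponentIn_subset _ _ hz'G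
    have ht := (hiff z' hz'Y).1 hz'A
    refine no_bdd' hY hx0 tta tt com min hol re inf hσ hz'Y ht (hb.subset ?_)
    rw [connectedComponentIn_eq hz'G]
    refine isPreconnected_connectedComponentIn.subset_connectedComponentIn
      (mem_connectedComponentIn ⟨hz'Y, ht⟩) fun w hw => ?_
    have hw' := connectedComponentIn_subset _ _ hw
    exact (hiff w hw'.1).2 hw'.2
  constructor
  · intro t z hz
    refine key {w | t < lo Y (fun z => x0 z + φ z) w} 1 t (Or.inl rfl) (isOpen_lt_lo hY hlb t)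
      (fun w hw y hy => ?_) (fun w hw => ?_) z hz
    · by_cases hwY : w ∈ Y
      · show t < lo Y _ y
        rw [lo_congr_cc hwY hy]; exact hw
      · rw [connectedComponentIn_eq_empty hwY] at hy; exact hy.elim
    · show t < lo Y _ w ↔ _
      rw [lo_of_notMem hY hlb hw (hxc w hw), one_mul, re w hw]
  · intro t z hz
    refine key {w | up Y (fun z => x0 z + φ z) w < t} (-1) (-t) (Or.inr rfl)
      (isOpen_up_lt hY hlb t) (fun w hw y hy => ?_) (fun w hw => ?_) z hz
    · by_cases hwY : w ∈ Y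
      · show up Y _ y < t
        rw [up_congr_cc hwY hy]; exact hw
      · rw [connectedComponentIn_eq_empty hwY] at hy; exact hy.elim
    · show up Y _ w < t ↔ _
      rw [up_of_notMem hY hlb hw (hxc w hw), re w hw]
      constructor <;> intro h1 <;> linarith

/-- no bounded components of `{z ∈ U | t < σ Re F z}` for 8's package -/
theorem no_bdd {F : ℂ → ℂ} {b : ℕ → ℂ → ℝ} (h : SkA_8.Pk Y x0 b φ F) {σ : ℝ}
    (hσ : σ = 1 ∨ σ = -1) {t : ℝ} {z0 : ℂ} (hz0 : z0 ∉ Y) (ht : t < σ * (F z0).re) :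
    ¬ Bornology.IsBounded (connectedComponentIn {z | z ∈ Yᶜ ∧ t < σ * (F z).re} z0) :=
  no_bdd' h.hY h.hx h.tta h.tt h.com h.min h.hol h.re h.inf hσ hz0 ht

/-- **the minimiser of 8's package is exactly switched** -/
theorem swd_of_pk {F : ℂ → ℂ} {b : ℕ → ℂ → ℝ} (h : SkA_8.Pk Y x0 b φ F) :
    Swd Y (fun z => x0 z + φ z) :=
  swd_of_min h.hY h.hx h.tta h.tt h.com h.min h.hol h.re h.inf

end

end Crest.Agent.R105.Grd_782
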