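import Crest.Agent.R105.Vs4_439
import Crest.Agent.R105.Nip9_31

/-!
# Row 105, S0138, NI (P2), part 5 (helper439): closedness without compact support of the anchor

* `acv_of_tendstoG`, `ni_of_tendstoG` : `a ∈ TT Y`, `x0 + a` switched
* `closedg` : `CLOSEDP` without `HasCompactSupport a`
-/

set_option autoImplicit false

open MeasureTheory Set Filter Topology Metric
open scoped NNReal ENNReal

namespace Crest.Agent.R105.Vs_439

open Bd_775 Ends_897 Tc_808 Ni_459 Crest.AnalysisR IfB_641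

noncomputable section

variable {Y : Set ℂ} {x0 a b : ℂ → ℝ}

theorem x0_W0 (hY : IsExteriorDomain Yᶜ) (hx : X0 Y x0) (ha : TT Y a) :
    LB (fun z => x0 z + a z) ∧ LocallyLipschitzOn Yᶜ (fun z => x0 z + a z) ∧
    ∃ W0, IsOpen W0 ∧ Y ⊆ W0 ∧ TW Y W0 (fun z => x0 z + a z) ≠ ∞ := by
  classical
  have hYc : IsCompact Y := cpt_of hY
  have hLB : LB (fun z => x0 z + a z) := (LB.of_cont hx.sm.continuous).add (LB.of_bdd ha.q.bdd)
  have hxl : LocallyLipschitzOn Yᶜ x0 :=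
    ((hx.sm.of_le (by simp)).locallyLipschitz).locallyLipschitzOn
  have hll : LocallyLipschitzOn Yᶜ (fun z => x0 z + a z) := ll_add hxl ha.q.loc
  refine ⟨hLB, hll, (tsupport x0)ᶜ, (isClosed_tsupport _).isOpen_compl, ?_, ?_⟩
  · intro z hz hz'
    exact hx.zero hz' hz
  · have h1 : TW Y (tsupport x0)ᶜ (fun z => x0 z + a z) = TW Y (tsupport x0)ᶜ a := by
      unfold TW
      congr 1
      · refine setLIntegral_congr_fun
          (((isClosed_tsupport _).isOpen_compl.measurableSet).diff hYc.isClosed.measurableSet)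
          fun z hz => ?_
        have h2 : (fun z => x0 z + a z) =ᶠ[𝓝 z] a := by
          filter_upwards [(isClosed_tsupport x0).isOpen_compl.mem_nhds hz.1] with w hw
          rw [image_eq_zero_of_notMem_tsupport hw, zero_add]
        show ENNReal.ofReal (en (fun z => x0 z + a z) z) = ENNReal.ofReal (en a z)
        rw [en_eq_of_eventuallyEq h2]
      · refine tsum_congr fun K => ?_
        have h3 : gap Y (fun z => x0 z + a z) K = gap Y a K := by
          unfold gap upK loK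
          rw [SkA_8.up_x0 hx K.2.choose_spec.1, SkA_8.lo_x0 hx K.2.choose_spec.1]
        rw [h3]
    rw [h1]
    exact ne_top_of_le_ne_top (ENNReal.add_ne_top.2 ⟨ENNReal.ofReal_ne_top, ENNReal.ofReal_ne_top⟩)
      (TW_le hY ha)

/-- pointwise limits off `Y` with bounded energies: small variation along a.e. level -/
theorem acv_of_tendstoG (hY : IsExteriorDomain Yᶜ) (hx : X0 Y x0) (ha : TT Y a)
    {B : ℕ → ℂ → ℝ} (hB : ∀ n, TT Y (B n))
    (hNI : ∀ n, NI Y a (B n)) {ψ : ℂ → ℝ} {M : ℝ}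
    (hM : ∀ n, (∫ z in Yᶜ, en (B n) z) + ∑' K : Cmp Y, Tc_808.osc Y (B n) K.1 ^ 2 ≤ M)
    (hlim : ∀ z ∉ Y, Tendsto (fun n => B n z) atTop (𝓝 (ψ z))) :
    ∀ᵐ t : ℝ, Sl_732.ACV Y (Lv Y (fun z => x0 z + a z) t) ψ := by
  obtain ⟨hLB, hll, W0, hW0, hYW, hfin⟩ := x0_W0 hY hx ha
  refine acv_of_tendsto hY hLB hll hW0 hYW hfin (fun n => LB.of_bdd (hB n).q.bdd)
    (fun n => (hB n).q.loc) (M := ENNReal.ofReal M) ENNReal.ofReal_ne_top (fun n => ?_)
    (fun n => ni_x0 hx (hNI n)) hlim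
  refine (TW_le hY (hB n)).trans ?_
  rw [← ENNReal.ofReal_add (integral_nonneg fun z => en_nonneg _ z)
    (tsum_nonneg fun K => sq_nonneg _)]
  exact ENNReal.ofReal_le_ofReal (hM n)

/-- **the commutant of a switched function is closed** under pointwise limits off `Y` with bounded
energies (no compact support) -/
theorem ni_of_tendstoG (hY : IsExteriorDomain Yᶜ) (hx : X0 Y x0) (ha : TT Y a)
    (hs : Swd Y (fun z => x0 z + a z)) {B : ℕ → ℂ → ℝ} (hB : ∀ n, TT Y (B n))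
    (hNI : ∀ n, NI Y a (B n)) {ψ : ℂ → ℝ} (hψ : TT Y ψ) {M : ℝ}
    (hM : ∀ n, (∫ z in Yᶜ, en (B n) z) + ∑' K : Cmp Y, Tc_808.osc Y (B n) K.1 ^ 2 ≤ M)
    (hlim : ∀ z ∉ Y, Tendsto (fun n => B n z) atTop (𝓝 (ψ z))) : NI Y a ψ :=
  (Nip_31.ni_iff_acvG hY hx ha hs hψ).2 (acv_of_tendstoG hY hx ha hB hNI hM hlim)

/-- **CLOSEDG** -/
theorem closedg (hY : IsExteriorDomain Yᶜ) (hx : X0 Y x0) (ha : TT Y a)
    (hs : Swd Y (fun z => x0 z + a z)) {b : ℕ → ℂ → ℝ} {ψ : ℂ → ℝ} {σ : Cmp Y → ℝ}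
    (hb : ∀ n, TT Y (b n)) (hψ : TT Y ψ) (hNI : ∀ n, NI Y a (b n))
    (hσ : Summable fun K => σ K ^ 2)
    (hlim : ∀ z ∉ Y, Tendsto (fun n => b n z) atTop (𝓝 (ψ z)))
    (hen : Tendsto (fun n => ∫ z in Yᶜ, en (fun w => b n w - ψ w) z) atTop (𝓝 0))
    (hosc : Tendsto (fun n => ∑' K : Cmp Y, (Tc_808.osc Y (b n) K.1 - σ K) ^ 2) atTop (𝓝 0)) :
    NI Y a ψ := by
  have hYc : IsClosed Y := (cpt_of hY).isClosed
  obtain ⟨M1, hM1⟩ := hen.bddAbove_range
  obtain ⟨M2, hM2⟩ := hosc.bddAbove_range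
  refine ni_of_tendstoG hY hx ha hs hb hNI hψ
    (M := (2 * M1 + 2 * ∫ z in Yᶜ, en ψ z) + (2 * M2 + 2 * ∑' K, σ K ^ 2)) (fun n => ?_) hlim
  refine add_le_add ?_ ?_
  · have h1 : ∫ z in Yᶜ, en (b n) z ≤ ∫ z in Yᶜ, (2 * en (fun w => b n w - ψ w) z + 2 * en ψ z) := by
      have hq : Q Y (fun w => b n w - ψ w) := (hb n).q.sub hYc hψ.q
      refine integral_mono_ae (hb n).q.fin ((hq.fin.const_mul 2).add (hψ.q.fin.const_mul 2)) ?_
      filter_upwards [hq.ae_diff hYc, hψ.q.ae_diff hYc] with z h1 h2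
      have h3 := en_add_le h1 h2
      simpa using h3
    have hq : Q Y (fun w => b n w - ψ w) := (hb n).q.sub hYc hψ.q
    rw [integral_add (hq.fin.const_mul 2) (hψ.q.fin.const_mul 2), integral_const_mul,
      integral_const_mul] at h1
    have h4 := hM1 ⟨n, rfl⟩
    linarith
  · have hs1 : Summable fun K : Cmp Y => (Tc_808.osc Y (b n) K.1 - σ K) ^ 2 := by
      refine Summable.of_nonneg_of_le (fun K => sq_nonneg _) (fun K => ?_)
        (((hb n).sum.mul_left 2).add (hσ.mul_left 2))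
      nlinarith [sq_nonneg (Tc_808.osc Y (b n) K.1 + σ K)]
    have h1 : ∑' K : Cmp Y, Tc_808.osc Y (b n) K.1 ^ 2 ≤
        ∑' K : Cmp Y, (2 * (Tc_808.osc Y (b n) K.1 - σ K) ^ 2 + 2 * σ K ^ 2) := by
      refine Summable.tsum_le_tsum (fun K => ?_) (hb n).sum ((hs1.mul_left 2).add (hσ.mul_left 2))
      nlinarith [sq_nonneg (Tc_808.osc Y (b n) K.1 - 2 * σ K)]
    rw [(hs1.mul_left 2).tsum_add (hσ.mul_left 2), tsum_mul_left, tsum_mul_left] at h1
    have h4 := hM2 ⟨n, rfl⟩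
    linarith

end

end Crest.Agent.R105.Vs_439
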