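import Crest.Agent.R105.Gl1_395
import Crest.Agent.R105.SkA4_8
import Crest.Agent.R105.Nip9_31
import Crest.Agent.R105.Vs5_439
import Crest.Agent.R105.Swd1_782

/-!
# Row 105, S0138 (T-frame, NI): generic attainment for the greedy sequence inside a commutant
(319 #10367 (GG); helper395)

* `PA Y 𝒜 b` : `b ∈ TT Y` commutes with every member of `𝒜`
* `attG`     : the limit of a greedy sequence in the class `PA Y 𝒜` is a minimiser over the
  commutant of `𝒜 ∪ range u` (8's `attain` without compact supports: 755 `conv_gen`, 31 `linG`,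
  439 `closedg`)
-/

set_option autoImplicit false

open MeasureTheory Set Filter Topology Metric
open scoped NNReal ENNReal ContDiff

namespace Crest.Agent.R105.Gl_395

open Crest.AnalysisR Bd_775 IfB_641 Tc_808 Ni_459 Grd_782 SkA_8

variable {Y : Set ℂ} {x0 φ ψ a b : ℂ → ℝ} {𝒜 : Set (ℂ → ℝ)} {u : ℕ → ℂ → ℝ} {m : ℝ}
  {σ : Cmp Y → ℝ}

/-- functions of the class `TT` commuting with `𝒜` -/
def PA (Y : Set ℂ) (𝒜 : Set (ℂ → ℝ)) (b : ℂ → ℝ) : Prop := TT Y b ∧ ∀ a ∈ 𝒜, NI Y a b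

/-- admissible families of anchors -/
def Anc (Y : Set ℂ) (x0 : ℂ → ℝ) (𝒜 : Set (ℂ → ℝ)) : Prop :=
  ∀ a ∈ 𝒜, TT Y a ∧ Swd Y (fun z => x0 z + a z)

theorem plin_PA (hY : IsExteriorDomain Yᶜ) (hx : X0 Y x0) (h𝒜 : Anc Y x0 𝒜) : PLin (PA Y 𝒜) := by
  intro b b' hb hb' s t
  have hYc : IsClosed Y := (cpt_of hY).isClosed
  refine ⟨(TT_smul hYc s hb.1).add hYc (TT_smul hYc t hb'.1), fun a ha => ?_⟩
  exact Nip_31.linG hY hx (h𝒜 a ha).1 (h𝒜 a ha).2 hb.1 hb'.1 (hb.2 a ha) (hb'.2 a ha) s t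

theorem combG (hY : IsExteriorDomain Yᶜ) (hx : X0 Y x0) (P : (ℂ → ℝ) → Prop) : CombP Y x0 P :=
  fun _ ha _ hs _ _ hb _ hb' _ h h' s t => Nip_31.linG hY hx ha hs hb hb' h h' s t

/-- **generic attainment** -/
theorem attG (hY : IsExteriorDomain Yᶜ) (hx : X0 Y x0) (h𝒜 : Anc Y x0 𝒜)
    (h : SelT Y x0 (PA Y 𝒜) u m σ) :
    ∃ (ψ : ℂ → ℝ) (F : ℂ → ℂ), TT Y ψ ∧ (∀ i, NI Y (u i) ψ) ∧ (∀ a ∈ 𝒜, NI Y a ψ) ∧
      (∀ b, TT Y b → (∀ i, NI Y (u i) b) → (∀ a ∈ 𝒜, NI Y a b) → TJ Y x0 ψ ≤ TJ Y x0 b) ∧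
      DifferentiableOn ℂ F Yᶜ ∧ (∀ z ∈ Yᶜ, (F z).re = x0 z + ψ z) ∧
      (∃ c : ℂ, Tendsto (fun z => F z - z) (cocompact ℂ) (𝓝 c)) := by
  have hYc : IsCompact Y := cpt_of hY
  have hcomb : CombP Y x0 (PA Y 𝒜) := combG hY hx _
  have hplin : PLin (PA Y 𝒜) := plin_PA hY hx h𝒜
  -- Euler-Lagrange limit for locally constant test functions
  have hel : ∀ ψ, TT Y ψ → HasCompactSupport ψ → (∀ z ∈ Y, ∀ᶠ w in 𝓝 z, ψ w = ψ z) →
      Tendsto (fun n => di Y (u n) ψ - ∫ z, ψ z * lap x0 z) atTop (𝓝 0) := by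
    intro ψ hψ _ hlc
    have hni : ∀ i, NI Y (u i) ψ := fun i => NI_locconst hY hlc
    have hosc : ∀ K : Cmp Y, Tc_808.osc Y ψ K.1 = 0 := osc_locconst hlc
    have hb : ∀ n, |di Y (u n) ψ - ∫ z, ψ z * lap x0 z| ≤
        Real.sqrt ((TJ Y x0 (u n) - m) * ET Y ψ) := by
      intro n
      have := h.near_el hYc.isClosed hx hplin hcomb hψ ⟨hψ, fun a _ => NI_locconst hY hlc⟩ hni n
      simpa [hosc] using this
    have ht : Tendsto (fun n => Real.sqrt ((TJ Y x0 (u n) - m) * ET Y ψ)) atTop (𝓝 0) := by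
      have h1 : Tendsto (fun n => (TJ Y x0 (u n) - m) * ET Y ψ) atTop (𝓝 ((m - m) * ET Y ψ)) :=
        (h.lim.sub_const m).mul_const _
      have h2 := (Real.continuous_sqrt.tendsto _).comp h1
      rw [sub_self, zero_mul, Real.sqrt_zero] at h2
      exact h2
    exact squeeze_zero_norm hb ht
  obtain ⟨F, ψ, c, hF, hre, hinf, hq, hcv1, hcv2⟩ :=
    Cnv_755.conv_gen hY hx h.tt h.swd h.cauchy hel
  -- the sequence with the constants
  have tv : ∀ n, TT Y (fun z => u n z + c n) := fun n => TT_add_const hYc.isClosed (h.tt n) (c n)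
  have hLB : ∀ n, LB fun z => x0 z + u n z := fun n => LB_x0 hx (h.tt n)
  have sv : ∀ n, Swd Y (fun z => x0 z + (u n z + c n)) := by
    intro n
    have := Swd_add_const hY (hLB n) (h.swd n) (c n)
    have e : (fun z => x0 z + (u n z + c n)) = fun z => (x0 z + u n z) + c n := by
      funext z; ring
    rw [e]; exact this
  have nv : ∀ i j, NI Y (fun z => u i z + c i) (fun z => u j z + c j) := fun i j =>
    (NI_add_const₂ hY (LB_TT (h.tt i)) (LB_TT (h.tt j)) (c i) (c j)).2 (h.ni i j)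
  have ov : ∀ n (K : Cmp Y), Tc_808.osc Y (fun z => u n z + c n) K.1 = Tc_808.osc Y (u n) K.1 := by
    intro n K
    exact osc_addc (h.tt n).q.bdd (c n)
  have he : Tendsto (fun n => ∫ z in Yᶜ, en (fun w => u n w - ψ w) z) atTop (𝓝 0) := by
    simpa only [SkA_8.en_add_const] using hcv2
  have hx0l : LocallyLipschitz x0 := (hx.sm.of_le (by exact_mod_cast le_top)).locallyLipschitz
  have lipv : ∀ n, LocallyLipschitzOn Yᶜ fun z => x0 z + (u n z + c n) := by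
    intro n
    exact hx0l.locallyLipschitzOn.add (tv n).q.loc
  have hlbv : ∀ n, LB fun z => x0 z + (u n z + c n) := fun n => LB_x0 hx (tv n)
  have hcnt : ∀ n, {K : Cmp Y | Tc_808.osc Y (fun z => x0 z + (u n z + c n)) K.1 ≠ 0}.Countable := by
    intro n
    refine (tv n).countable.mono fun K hK => ?_
    have : Tc_808.osc Y (fun z => x0 z + (u n z + c n)) K.1 =
        Tc_808.osc Y (fun z => u n z + c n) K.1 := osc_x0 hx _ K
    show Tc_808.osc Y (fun z => u n z + c n) K.1 ≠ 0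
    rw [← this]; exact hK
  have hosc : ∀ K : Cmp Y, Tc_808.osc Y ψ K.1 ≤ σ K := by
    refine Att3_790.att hY hx.sm.continuous hx.zero tv sv (fun n => ?_) (fun i j G hG => ?_)
      hq.loc hq.fin hcv1 hcv2 (fun n => ?_) h.sum ?_
    · intro t N hN hNb z hz
      obtain ⟨C, h1, h2, h3, h4, h5, -⟩ :=
        Uni_659.bump hY (lipv n) (hlbv n) (sv n) t hN hNb hz
      exact ⟨C, h1, h2, h3, h4, h5⟩
    · exact Ni_459.areap Y _ _ hY (lipv i) (lipv j) (hlbv i) (hlbv j) (hcnt i) (hcnt j)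
        ((NI_x0 hx).2 (nv i j)) G hG
    · have hQ := ((tv n).q.sub hYc.isClosed hq)
      exact hQ.fin
    · simpa only [ov] using h.l2
  have hpos : ∀ K : Cmp Y, Tc_808.osc Y ψ K.1 ^ 2 ≤ σ K ^ 2 := fun K =>
    pow_le_pow_left₀ (osc_nonneg _ _ _) (hosc K) 2
  have hT : TT Y ψ := ⟨hq, Summable.of_nonneg_of_le (fun K => sq_nonneg _) hpos h.sum⟩
  have hpt : ∀ z ∉ Y, Tendsto (fun n => u n z + c n) atTop (𝓝 (ψ z)) := fun z hz =>
    (hcv1 {z} isCompact_singleton (singleton_subset_iff.2 hz)).tendsto_at rfl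
  -- members of the commutant pass to the limit
  have hcl : ∀ a, TT Y a → Swd Y (fun z => x0 z + a z) → (∀ n, NI Y a (u n)) → NI Y a ψ := by
    intro a ha hs hn
    refine Vs_439.closedg hY hx ha hs tv hT (fun n => ?_) h.sum hpt hcv2 ?_
    · exact (NI_add_const hY (LB_TT (h.tt n)) (c n)).2 (hn n)
    · simpa only [ov] using h.l2
  have hniu : ∀ i, NI Y (u i) ψ := fun i => hcl (u i) (h.tt i) (h.swd i) (h.ni i)
  have hniA : ∀ a ∈ 𝒜, NI Y a ψ := fun a ha => hcl a (h𝒜 a ha).1 (h𝒜 a ha).2 fun n => (h.p n).2 a ha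
  -- the value
  have hJ := tendsto_J hYc hx (fun n => (h.tt n).q) hq he
  have hS := h.tendsto_sum
  have hm : m = J Y x0 ψ + ∑' K : Cmp Y, σ K ^ 2 := tendsto_nhds_unique h.lim (hJ.add hS)
  have hle : (∑' K : Cmp Y, Tc_808.osc Y ψ K.1 ^ 2) ≤ ∑' K : Cmp Y, σ K ^ 2 :=
    Summable.tsum_le_tsum hpos hT.sum h.sum
  have hTm : TJ Y x0 ψ ≤ m := by
    rw [hm]; unfold TJ; linarith
  exact ⟨ψ, F, hT, hniu, hniA, fun b hb h1 h2 => hTm.trans (h.min b hb ⟨hb, h2⟩ h1), hF, hre, hinf⟩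

end Crest.Agent.R105.Gl_395
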