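import Crest.Agent.R105.Adg2_600
import Crest.Agent.R105.Gl2_395

/-!
# Row 105, S0138, E13 (0) (499 #11166): `NI φ g` (helper636)

The calculus of Adg1_600 / Adg2_600 for ONE ancestor `A` (`TT A`, `x0 + A` switched) in the place of
the sequence of anchors: so it applies to `A = φ`, the final function, and gives `NI Y φ g` for
`g = χ 1_O H(x0 + a i) T(x0 + φ)`, i.e. bounded variation of `g` on the vertical lines of the final
picture.
-/

set_option autoImplicit false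

open MeasureTheory Set Filter Topology Metric
open scoped NNReal ENNReal ContDiff

namespace Crest.Agent.R105.Adx_636

open Bd_775 Tc_808 Ni_459 Crest.AnalysisR Adg_600
open IfB_641 (X0)
open SkA_8 (Pk)

noncomputable section

variable {Y : Set ℂ} {x0 φ A : ℂ → ℝ} {a : ℕ → ℂ → ℝ} {F : ℂ → ℂ} {v w f g χ : ℂ → ℝ} {O D : Set ℂ}

/-- `A` is a possible anchor -/
structure An (Y : Set ℂ) (x0 A : ℂ → ℝ) : Prop where
  hY : IsExteriorDomain Yᶜ
  hx : X0 Y x0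
  tt : TT Y A
  swd : Swd Y (fun z => x0 z + A z)

theorem an_anchor (h : Pk Y x0 a φ F) (i : ℕ) : An Y x0 (a i) := ⟨h.hY, h.hx, h.tta i, h.swd i⟩

/-- the final function is an anchor -/
theorem an_phi (h : Pk Y x0 a φ F) : An Y x0 φ := ⟨h.hY, h.hx, h.tt, Grd_782.swd_of_pk h⟩

/-- functions which commute with `A` -/
structure Com (Y : Set ℂ) (A v : ℂ → ℝ) : Prop where
  tt : TT Y v
  ni : NI Y A v

theorem Com.lin (hA : An Y x0 A) (hv : Com Y A v) (hw : Com Y A w) (s t : ℝ) :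
    Com Y A (fun z => s * v z + t * w z) where
  tt := ((TT.const s).mul (cpt_of hA.hY).isClosed hv.tt).add (cpt_of hA.hY).isClosed
    ((TT.const t).mul (cpt_of hA.hY).isClosed hw.tt)
  ni := Nip_31.linG hA.hY hA.hx hA.tt hA.swd hv.tt hw.tt hv.ni hw.ni s t

theorem Com.mul (hA : An Y x0 A) (hv : Com Y A v) (hw : Com Y A w) :
    Com Y A (fun z => v z * w z) where
  tt := hv.tt.mul (cpt_of hA.hY).isClosed hw.tt
  ni := Nip_31.ni_mul hA.hY hA.hx hA.tt hA.swd hv.tt hw.tt hv.ni hw.ni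

theorem Com.cut (hA : An Y x0 A) (hv : Com Y A v) (h0 : ∀ z, 0 ≤ v z) (hc : Cut Y v O D) :
    Com Y A (O.indicator v) where
  tt := tt_cut hA.hY hc hv.tt h0
  ni := ni_cut hA.hY hc hv.tt h0 hv.ni

/-- `χ H(x0 + v)` -/
theorem com_chi (hA : An Y x0 A) (hv : Com Y A v) (hχ : LC Y χ) (hχc : HasCompactSupport χ)
    {H : ℝ → ℝ} {L : ℝ≥0} (hH : LipschitzWith L H) : Com Y A (fun z => χ z * H (x0 z + v z)) where
  tt := (Elf_600.test_chiG (cpt_of hA.hY) hA.hx hv.tt hχ hχc hH).1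
  ni := N8_602.ni_test hA.hY hA.hx hv.tt hχ hχc hH hv.ni

/-- `χ H(x0 + v) T(x0 + w)` -/
theorem com_chi2 (hA : An Y x0 A) (hv : Com Y A v) (hw : Com Y A w) (hχ : LC Y χ)
    (hχc : HasCompactSupport χ) {H T : ℝ → ℝ} {L L' : ℝ≥0} (hH : LipschitzWith L H)
    (hT : LipschitzWith L' T) : Com Y A (fun z => χ z * (H (x0 z + v z) * T (x0 z + w z))) := by
  obtain ⟨η, hη, hηc, h1⟩ := exists_lc2 (Y := Y) (cpt_of hA.hY) hχc
  have h2 := (com_chi hA hv hχ hχc hH).mul hA (com_chi hA hw hη hηc hT)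
  have e : (fun z => χ z * (H (x0 z + v z) * T (x0 z + w z))) =
      fun z => χ z * H (x0 z + v z) * (η z * T (x0 z + w z)) := by
    funext z
    by_cases hz : z ∈ tsupport χ
    · rw [h1 z hz]; ring
    · rw [image_eq_zero_of_notMem_tsupport hz]; ring
  rw [e]; exact h2

/-- **the cut test function** `χ 1_O H(u) T(x)` commutes with `A` -/
theorem com_cut (hA : An Y x0 A) (hv : Com Y A v) (hw : Com Y A w) (hχ : LC Y χ)
    (hχc : HasCompactSupport χ) (h01 : ∀ z, χ z ∈ Icc (0:ℝ) 1) {H T : ℝ → ℝ} {L L' : ℝ≥0}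
    (hH : LipschitzWith L H) (hT : LipschitzWith L' T) (hH1 : ∀ s, H s ∈ Icc (0:ℝ) 1)
    (hT1 : ∀ s, T s ∈ Icc (0:ℝ) 1)
    (hc : Cut Y (fun z => H (x0 z + v z) * T (x0 z + w z)) O D) :
    Com Y A (fun z => χ z * O.indicator (fun z => H (x0 z + v z) * T (x0 z + w z)) z) := by
  have h1 := com_chi2 hA hv hw hχ hχc hH hT
  have h0 : ∀ z, 0 ≤ H (x0 z + v z) * T (x0 z + w z) := fun z => mul_nonneg (hH1 _).1 (hT1 _).1
  have hb : ∀ z, H (x0 z + v z) * T (x0 z + w z) ≤ 1 := fun z =>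
    mul_le_one₀ (hH1 _).2 (hT1 _).1 (hT1 _).2
  have hg : LB (fun z => H (x0 z + v z) * T (x0 z + w z)) :=
    LB.of_bdd ⟨1, fun z => by rw [abs_of_nonneg (h0 z)]; exact hb z⟩
  have hc' : Cut Y (fun z => χ z * (H (x0 z + v z) * T (x0 z + w z))) O D :=
    hc.mono hA.hY (LB.of_bdd h1.tt.q.bdd) hg fun z _ => mul_le_of_le_one_left (h0 z) (h01 z).2
  have h2 := h1.cut hA (fun z => mul_nonneg (h01 z).1 (h0 z)) hc'
  have e : (fun z => χ z * O.indicator (fun z => H (x0 z + v z) * T (x0 z + w z)) z) =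
      O.indicator (fun z => χ z * (H (x0 z + v z) * T (x0 z + w z))) := by
    funext z
    by_cases hz : z ∈ O
    · rw [indicator_of_mem hz, indicator_of_mem hz]
    · rw [indicator_of_notMem hz, indicator_of_notMem hz, mul_zero]
  rw [e]; exact h2

/-- **`NI φ g`** for `g = χ 1_O H(u_i) T(x)` -/
theorem ni_phi_cut (h : Pk Y x0 a φ F) (i : ℕ) (hχ : LC Y χ)
    (hχc : HasCompactSupport χ) (h01 : ∀ z, χ z ∈ Icc (0:ℝ) 1) {H T : ℝ → ℝ} {L L' : ℝ≥0}
    (hH : LipschitzWith L H) (hT : LipschitzWith L' T) (hH1 : ∀ s, H s ∈ Icc (0:ℝ) 1)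
    (hT1 : ∀ s, T s ∈ Icc (0:ℝ) 1)
    (hc : Cut Y (fun z => H (x0 z + a i z) * T (x0 z + φ z)) O D) :
    NI Y φ (fun z => χ z * O.indicator (fun z => H (x0 z + a i z) * T (x0 z + φ z)) z) :=
  (com_cut (an_phi h) ⟨h.tta i, (h.com i).symm⟩ ⟨h.tt, NI.self⟩ hχ hχc h01 hH hT hH1 hT1 hc).ni

/-- `NI (a j) g` in the same letters -/
theorem ni_anchor_cut (h : Pk Y x0 a φ F) (i j : ℕ) (hχ : LC Y χ)
    (hχc : HasCompactSupport χ) (h01 : ∀ z, χ z ∈ Icc (0:ℝ) 1) {H T : ℝ → ℝ} {L L' : ℝ≥0}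
    (hH : LipschitzWith L H) (hT : LipschitzWith L' T) (hH1 : ∀ s, H s ∈ Icc (0:ℝ) 1)
    (hT1 : ∀ s, T s ∈ Icc (0:ℝ) 1)
    (hc : Cut Y (fun z => H (x0 z + a i z) * T (x0 z + φ z)) O D) :
    NI Y (a j) (fun z => χ z * O.indicator (fun z => H (x0 z + a i z) * T (x0 z + φ z)) z) :=
  (com_cut (an_anchor h j) ⟨h.tta i, h.ni j i⟩ ⟨h.tt, h.com j⟩ hχ hχc h01 hH hT hH1 hT1 hc).ni

end

end Crest.Agent.R105.Adx_636
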