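import Crest.Agent.R105.E13_499
import Crest.Agent.R105.Adg3_600
import Crest.Agent.R105.Adx1_636

/-!
# Row 105, S0138, E13 (0), part 4: `admg : E13_499.ADMG` and the squares (helper600)

* `uc_of_E13` : a set `O` with `E13_499.Uc Y K.1 (mm ..) O` and a ramp `θ` cuts `mm` (at `K` itself the
  lower value of `mm` is zero, since `θ` vanishes at one end of the range of `Re F` at `K`);
* `admg : E13_499.ADMG`;
* `admg2` : the same for `χ0 * gg ^ 2`, `admg2'` : for `χ0 * (θ (x) ^ 2 - gg ^ 2)`.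
-/

set_option autoImplicit false

open MeasureTheory Set Filter Topology Metric
open scoped NNReal ENNReal ContDiff

namespace Crest.Agent.R105.Adg_600

open Bd_775 Tc_808 Ni_459 Crest.AnalysisR Ends_897
open IfB_641 (X0)
open SkA_8 (Pk)
open Ta_937 (corE)
open E13_499 (Stp Rmp mm gg cF)

noncomputable section

variable {Y : Set ℂ} {x0 φ A : ℂ → ℝ} {a : ℕ → ℂ → ℝ} {F : ℂ → ℂ} {v w f g χ χ0 : ℂ → ℝ} {O : Set ℂ}
  {h1 θ : ℝ → ℝ} {ex : ℝ}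

theorem stp_lip (h : Stp θ) : ∃ L : ℝ≥0, LipschitzWith L θ := by
  obtain ⟨C, hC⟩ := (h.smooth.continuous_deriv (by simp)).bounded_above_of_compact_support h.supp
  refine ⟨Real.toNNReal C, lipschitzWith_of_nnnorm_deriv_le
    (h.smooth.differentiable (by simp)) fun t => ?_⟩
  rw [← NNReal.coe_le_coe, coe_nnnorm]
  exact (hC t).trans (Real.le_coe_toNNReal C)

/-- near a component: points with `F z` near a given limit point of the corresponding one -/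
theorem exists_near {U V : Set ℂ} (h : EndMap U V F) (K : Cmp Uᶜ) {N : Set ℂ} (hN : IsOpen N)
    (hKN : K.1 ⊆ N) {ζ : ℂ} (hζ : ζ ∈ (corE h K).1) (hcl : ζ ∈ closure V) {ε : ℝ} (hε : 0 < ε) :
    ∃ z ∈ N, z ∈ U ∧ dist (F z) ζ < ε := by
  obtain ⟨M, hM, hLM, h2⟩ := Ta_937.exists_nhd_push h K hN hKN
  obtain ⟨r, hr, hrM⟩ := Metric.isOpen_iff.1 hM ζ (hLM hζ)
  obtain ⟨w, hw, hwd⟩ := Metric.mem_closure_iff.1 hcl (min r ε) (lt_min hr hε)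
  rw [← h.img] at hw
  obtain ⟨z, hz, rfl⟩ := hw
  rw [dist_comm] at hwd
  exact ⟨z, h2 z hz (hrM (hwd.trans_le (min_le_left _ _))), hz, hwd.trans_le (min_le_right _ _)⟩

/-- `Re F` comes near both ends of its range -/
theorem exists_near_lo {U V : Set ℂ} (h : EndMap U V F) (K : Cmp Uᶜ) {N : Set ℂ} (hN : IsOpen N)
    (hKN : K.1 ⊆ N) {ε : ℝ} (hε : 0 < ε) :
    ∃ z ∈ N, z ∈ U ∧ |(F z).re - Sqr_185.lo (corE h K).1| < ε := by
  have hc : IsCompact (corE h K).1 := (corE h K).isCompact (cpt_of (Y := Vᶜ) (by rw [compl_compl]; exact h.hV))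
  obtain ⟨p, hp, hpl⟩ := Sqr_185.exists_lo hc (corE h K).nonempty
  have hcl := Sqr_185.lo_mem_closure (corE h K) hp fun q hq => hpl ▸ Sqr_185.lo_le hc hq
  rw [compl_compl] at hcl
  obtain ⟨z, h1, h2, h3⟩ := exists_near h K hN hKN hp hcl hε
  refine ⟨z, h1, h2, ?_⟩
  rw [← hpl, ← Complex.sub_re]
  exact (Complex.abs_re_le_norm _).trans_lt (by rwa [← dist_eq_norm])

theorem exists_near_hi {U V : Set ℂ} (h : EndMap U V F) (K : Cmp Uᶜ) {N : Set ℂ} (hN : IsOpen N)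
    (hKN : K.1 ⊆ N) {ε : ℝ} (hε : 0 < ε) :
    ∃ z ∈ N, z ∈ U ∧ |(F z).re - Sqr_185.hi (corE h K).1| < ε := by
  have hc : IsCompact (corE h K).1 := (corE h K).isCompact (cpt_of (Y := Vᶜ) (by rw [compl_compl]; exact h.hV))
  obtain ⟨p, hp, hpl⟩ := Sqr_185.exists_hi hc (corE h K).nonempty
  have hcl := Sqr_185.hi_mem_closure (corE h K) hp fun q hq => hpl ▸ Sqr_185.le_hi hc hq
  rw [compl_compl] at hcl
  obtain ⟨z, h1, h2, h3⟩ := exists_near h K hN hKN hp hcl hε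
  refine ⟨z, h1, h2, ?_⟩
  rw [← hpl, ← Complex.sub_re]
  exact (Complex.abs_re_le_norm _).trans_lt (by rwa [← dist_eq_norm])

theorem mm_nonneg (hs : Stp h1) (hθ : Stp θ) (z : ℂ) : 0 ≤ mm x0 A φ h1 θ z :=
  mul_nonneg (hs.rg _).1 (hθ.rg _).1

theorem mm_le (hs : Stp h1) (hθ : Stp θ) (z : ℂ) : mm x0 A φ h1 θ z ≤ θ (x0 z + φ z) :=
  mul_le_of_le_one_left (hθ.rg _).1 (hs.rg _).2

theorem mm_le_one (hs : Stp h1) (hθ : Stp θ) (z : ℂ) : mm x0 A φ h1 θ z ≤ 1 :=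
  (mm_le hs hθ z).trans (hθ.rg _).2

theorem mm_bdd (hs : Stp h1) (hθ : Stp θ) : ∃ M, ∀ z, |mm x0 A φ h1 θ z| ≤ M :=
  ⟨1, fun z => by rw [abs_of_nonneg (mm_nonneg hs hθ z)]; exact mm_le_one hs hθ z⟩

theorem mm_ll (hx : X0 Y x0) (hA : TT Y A) (hφ : TT Y φ) (hs : Stp h1) (hθ : Stp θ) :
    LocallyLipschitzOn Yᶜ (mm x0 A φ h1 θ) := by
  obtain ⟨L, hL⟩ := stp_lip hs
  obtain ⟨L', hL'⟩ := stp_lip hθ
  have hx1 : ContDiff ℝ 1 x0 := hx.sm.of_le (by simp)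
  have hx0 : LocallyLipschitz x0 := hx1.locallyLipschitz
  have key : ∀ (B : ℂ → ℝ), TT Y B → ∀ (H : ℝ → ℝ) (l : ℝ≥0), LipschitzWith l H →
      LocallyLipschitzOn Yᶜ (fun z => H (x0 z + B z)) := by
    intro B hB H l hH z hz
    obtain ⟨C, t, ht, hC⟩ := hB.q.loc hz
    obtain ⟨C', t', ht', hC'⟩ := hx0 z
    refine ⟨l * (C' + C), t ∩ t', inter_mem ht (mem_nhdsWithin_of_mem_nhds ht'), ?_⟩
    exact (hH.comp_lipschitzOnWith ((hC'.mono inter_subset_right).add (hC.mono inter_subset_left)))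
  intro z hz
  obtain ⟨C, t, ht, hC⟩ := key A hA h1 L hL hz
  obtain ⟨C', t', ht', hC'⟩ := key φ hφ θ L' hL' hz
  refine ⟨C + C', t ∩ t', inter_mem ht ht', LipschitzOnWith.of_dist_le_mul fun p hp q hq => ?_⟩
  have e1 := hC.dist_le_mul p hp.1 q hq.1
  have e2 := hC'.dist_le_mul p hp.2 q hq.2
  rw [Real.dist_eq] at e1 e2 ⊢
  have e3 : mm x0 A φ h1 θ p - mm x0 A φ h1 θ q =
      (h1 (x0 p + A p) - h1 (x0 q + A q)) * θ (x0 p + φ p) +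
        h1 (x0 q + A q) * (θ (x0 p + φ p) - θ (x0 q + φ q)) := by
    unfold mm; ring
  rw [e3]
  refine (abs_add_le _ _).trans ?_
  rw [abs_mul, abs_mul, abs_of_nonneg (hθ.rg _).1, abs_of_nonneg (hs.rg _).1]
  push_cast
  have e4 := mul_le_mul e1 (hθ.rg (x0 p + φ p)).2 (hθ.rg _).1 ((abs_nonneg _).trans e1)
  have e5 := mul_le_mul (hs.rg (x0 q + A q)).2 e2 (abs_nonneg _) zero_le_one
  linarith

/-- at `K` the lower value of `mm` is zero -/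
theorem lo_mm_K (h : Pk Y x0 a φ F) (K : Cmp Yᶜᶜ) (hs : Stp h1)
    (hθ : Rmp θ (Sqr_185.lo (cF h K).1) (Sqr_185.hi (cF h K).1) ex) {z : ℂ} (hz : z ∈ K.1) :
    lo Y (mm x0 A φ h1 θ) z ≤ 0 := by
  by_contra hcon
  push Not at hcon
  obtain ⟨c, hc0, hc⟩ := exists_between hcon
  obtain ⟨N, hN, h2⟩ := exists_gt_of_lt_lo h.hY (LB.of_bdd (mm_bdd hs hθ.st)) hc
  have hKN : K.1 ⊆ N := by
    have h3 := congrArg Subtype.val (K.eq_of_mem hz)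
    rw [h3]
    have h4 := hN.sub
    simpa only [Cmp.of, compl_compl] using h4
  have key : ∀ l : ℝ, θ l = 0 → (∀ ε > 0, ∃ z ∈ N, z ∈ Yᶜ ∧ |(F z).re - l| < ε) → False := by
    intro l hl h3
    have h4 : ∀ᶠ s in 𝓝 l, θ s < c :=
      (hθ.st.smooth.continuous.continuousAt (x := l)).eventually_lt continuousAt_const (by rw [hl]; exact hc0)
    obtain ⟨ε, hε, h5⟩ := Metric.eventually_nhds_iff.1 h4
    obtain ⟨w, hwN, hwY, h6⟩ := h3 ε hε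
    have h7 := h5 (y := (F w).re) (by rwa [Real.dist_eq])
    rw [h.re w hwY] at h7
    have h8 := h2 w hwN hwY
    exact absurd (h8.trans_le (mm_le hs hθ.st w)) (not_lt.2 h7.le)
  rcases hθ.sg with ⟨-, h3, -⟩ | ⟨-, -, h3⟩
  · exact key _ h3 fun ε hε => exists_near_lo (Uw6_913.endMap h) K hN.op hKN hε
  · exact key _ h3 fun ε hε => exists_near_hi (Uw6_913.endMap h) K hN.op hKN hε

/-- **the adapter** -/
theorem uc_of_E13 (h : Pk Y x0 a φ F) (K : Cmp Yᶜᶜ) (hs : Stp h1)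
    (hθ : Rmp θ (Sqr_185.lo (cF h K).1) (Sqr_185.hi (cF h K).1) ex)
    (hO : E13_499.Uc Y K.1 (mm x0 A φ h1 θ) O) : Uc Y (mm x0 A φ h1 θ) O where
  op := fun z hz _ => hO.op.mem_nhds hz
  cl := fun z hz h0 hzO => hO.co z hz h0 hzO
  cmp := by
    intro z hz h0
    set K' : Cmp Y := Cmp.of hz
    have hzK' : z ∈ K'.1 := mem_connectedComponentIn hz
    have hne : K'.1 ≠ K.1 := fun he =>
      absurd (lo_mm_K (A := A) h K hs hθ (he ▸ hzK')) (not_le.2 h0)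
    obtain ⟨c, hc0, hc⟩ := exists_between h0
    obtain ⟨N, hN, h2⟩ := exists_gt_of_lt_lo h.hY (LB.of_bdd (mm_bdd hs hθ.st)) hc
    have h3 : ∃ c > 0, ∀ᶠ w in eK Y K'.1, c ≤ mm x0 A φ h1 θ w :=
      ⟨c, hc0, mem_eK.2 ⟨N, hN.op, hN.sub, fun w hw hwY => (h2 w hw hwY).le⟩⟩
    rcases hO.lc K' hne h3 with h4 | h4
    · obtain ⟨M, hM, hKM, h5⟩ := mem_eK.1 h4
      exact Or.inl ⟨M, nb_of_mem hz hM hKM, h5⟩
    · obtain ⟨M, hM, hKM, h5⟩ := mem_eK.1 h4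
      exact Or.inr ⟨M, nb_of_mem hz hM hKM, h5⟩

theorem ind_hull (hO : ∀ z ∈ O, z ∉ Y → O ∈ 𝓝 z) {z : ℂ} (hz : z ∉ Y) :
    (hull Y O).indicator f z = O.indicator f z := by
  by_cases hzO : z ∈ O
  · rw [indicator_of_mem hzO, indicator_of_mem ((mem_hull_iff hz hO).2 hzO)]
  · rw [indicator_of_notMem hzO, indicator_of_notMem fun hc' => hzO ((mem_hull_iff hz hO).1 hc')]

/-- the cut function is locally Lipschitz -/
theorem loc_uc (hY : IsExteriorDomain Yᶜ) (hc : Uc Y f O) (hf : LocallyLipschitzOn Yᶜ f)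
    (hb : LB f) (h0 : ∀ z, 0 ≤ f z) : LocallyLipschitzOn Yᶜ (O.indicator f) := by
  intro z hz
  obtain ⟨L, t, ht, hL⟩ := loc_cut hY (hc.cut hY hf hb) hf hb h0 hz
  refine ⟨L, t ∩ Yᶜ, inter_mem ht self_mem_nhdsWithin, fun p hp q hq => ?_⟩
  rw [← ind_hull hc.op hp.2, ← ind_hull hc.op hq.2]
  exact hL hp.1 hq.1

/-- **`NI φ`** for `χ 1_O H(u_i) T(x)`, `O` seen on `U` only -/
theorem ni_phi_uc (h : Pk Y x0 a φ F) (i : ℕ) (hχ : LC Y χ)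
    (hχc : HasCompactSupport χ) (h01 : ∀ z, χ z ∈ Icc (0:ℝ) 1) {H T : ℝ → ℝ} {L L' : ℝ≥0}
    (hH : LipschitzWith L H) (hT : LipschitzWith L' T) (hH1 : ∀ s, H s ∈ Icc (0:ℝ) 1)
    (hT1 : ∀ s, T s ∈ Icc (0:ℝ) 1)
    (hc : Uc Y (fun z => H (x0 z + a i z) * T (x0 z + φ z)) O)
    (hl : LocallyLipschitzOn Yᶜ (fun z => H (x0 z + a i z) * T (x0 z + φ z))) :
    NI Y φ (fun z => χ z * O.indicator (fun z => H (x0 z + a i z) * T (x0 z + φ z)) z) := by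
  have hb : LB (fun z => H (x0 z + a i z) * T (x0 z + φ z)) := LB.of_bdd ⟨1, fun z => by
    rw [abs_of_nonneg (mul_nonneg (hH1 _).1 (hT1 _).1)]
    exact mul_le_one₀ (hH1 _).2 (hT1 _).1 (hT1 _).2⟩
  have h2 := Adx_636.ni_phi_cut h i hχ hχc h01 hH hT hH1 hT1 (hc.cut h.hY hl hb)
  exact ni_congr (fun z hz => by simp only [ind_hull hc.op hz]) h2

/-- **(0) ADMG** -/
theorem admg : E13_499.ADMG := by
  intro Y x0 φ a b F P i K h1 θ χ0 O ex h hi hs hθ hO hχ hχc h01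
  obtain ⟨L, hL⟩ := stp_lip hs
  obtain ⟨L', hL'⟩ := stp_lip hθ.st
  have hu : Uc Y (mm x0 (a i) φ h1 θ) O := uc_of_E13 h K hs hθ hO
  have hll := mm_ll h.hx (h.tta i) h.tt hs hθ.st
  have h2 := adm_uc h (adm_anchor h i) (adm_phi h) hχ hχc h01 hL hL' hs.rg hθ.st.rg hu
  exact ⟨h2.tt, h2.ni, ni_phi_uc h i hχ hχc h01 hL hL' hs.rg hθ.st.rg hu hll,
    loc_uc h.hY hu hll (LB.of_bdd (mm_bdd hs hθ.st)) (mm_nonneg hs hθ.st)⟩

/-- squares of steps -/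
theorem lip_sq (hθ : Stp θ) : ∃ L : ℝ≥0, LipschitzWith L (fun t => θ t ^ 2) := by
  obtain ⟨L, hL⟩ := stp_lip hθ
  refine ⟨2 * L, LipschitzWith.of_dist_le_mul fun p q => ?_⟩
  have h2 := hL.dist_le_mul p q
  rw [Real.dist_eq] at h2 ⊢
  have e : θ p ^ 2 - θ q ^ 2 = (θ p + θ q) * (θ p - θ q) := by ring
  rw [e, abs_mul]
  have h3 : |θ p + θ q| ≤ 2 := by
    rw [abs_of_nonneg (add_nonneg (hθ.rg _).1 (hθ.rg _).1)]
    linarith [(hθ.rg p).2, (hθ.rg q).2]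
  push_cast
  calc _ ≤ 2 * (L * dist p q) := mul_le_mul h3 h2 (abs_nonneg _) (by norm_num)
    _ = _ := by ring

theorem sq_rg (hθ : Stp θ) (t : ℝ) : θ t ^ 2 ∈ Icc (0:ℝ) 1 :=
  ⟨sq_nonneg _, pow_le_one₀ (hθ.rg t).1 (hθ.rg t).2⟩

theorem gg_sq (z : ℂ) : gg x0 A φ h1 θ O z ^ 2 =
    O.indicator (fun z => h1 (x0 z + A z) ^ 2 * θ (x0 z + φ z) ^ 2) z := by
  unfold gg
  by_cases hz : z ∈ O
  · rw [indicator_of_mem hz, indicator_of_mem hz]; unfold mm; ring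
  · rw [indicator_of_notMem hz, indicator_of_notMem hz]; norm_num

theorem uc_sq (h : Pk Y x0 a φ F) (hs : Stp h1) (hθ : Stp θ) (hO : Uc Y (mm x0 A φ h1 θ) O) :
    Uc Y (fun z => h1 (x0 z + A z) ^ 2 * θ (x0 z + φ z) ^ 2) O := by
  refine hO.mono h.hY (LB.of_bdd ⟨1, fun z => ?_⟩) (LB.of_bdd (mm_bdd hs hθ)) fun z _ => ?_
  · rw [abs_of_nonneg (mul_nonneg (sq_nonneg _) (sq_nonneg _))]
    exact mul_le_one₀ (sq_rg hs _).2 (sq_nonneg _) (sq_rg hθ _).2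
  · unfold mm
    exact mul_le_mul (by nlinarith [(hs.rg (x0 z + A z)).1, (hs.rg (x0 z + A z)).2])
      (by nlinarith [(hθ.rg (x0 z + φ z)).1, (hθ.rg (x0 z + φ z)).2]) (sq_nonneg _) (hs.rg _).1

/-- **the squares**: `χ0 gg ^ 2` is admissible and commutes with `φ` -/
theorem admg2 (h : Pk Y x0 a φ F) (i : ℕ) (K : Cmp Yᶜᶜ) (hs : Stp h1)
    (hθ : Rmp θ (Sqr_185.lo (cF h K).1) (Sqr_185.hi (cF h K).1) ex)
    (hO : E13_499.Uc Y K.1 (mm x0 (a i) φ h1 θ) O) (hχ : LC Y χ0) (hχc : HasCompactSupport χ0)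
    (h01 : ∀ z, 0 ≤ χ0 z ∧ χ0 z ≤ 1) :
    Adm Y a (fun z => χ0 z * gg x0 (a i) φ h1 θ O z ^ 2) ∧
      NI Y φ (fun z => χ0 z * gg x0 (a i) φ h1 θ O z ^ 2) := by
  obtain ⟨L, hL⟩ := lip_sq hs
  obtain ⟨L', hL'⟩ := lip_sq hθ.st
  have hu := uc_sq (A := a i) h hs hθ.st (uc_of_E13 h K hs hθ hO)
  have hll := mm_ll h.hx (h.tta i) h.tt hs hθ.st
  have e : (fun z => χ0 z * gg x0 (a i) φ h1 θ O z ^ 2) = fun z => χ0 z *
      O.indicator (fun z => h1 (x0 z + a i z) ^ 2 * θ (x0 z + φ z) ^ 2) z := by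
    funext z; rw [gg_sq]
  rw [e]
  have g1 := adm_uc (H := fun t => h1 t ^ 2) (T := fun t => θ t ^ 2) h (adm_anchor h i) (adm_phi h) hχ
    hχc h01 hL hL' (sq_rg hs) (sq_rg hθ.st) hu
  have g2 := ni_phi_uc (H := fun t => h1 t ^ 2) (T := fun t => θ t ^ 2) h i hχ hχc h01 hL hL'
    (sq_rg hs) (sq_rg hθ.st) hu
  refine ⟨g1, g2 ?_⟩
  intro z hz
  obtain ⟨C, t, ht, hC⟩ := hll hz
  refine ⟨2 * C, t, ht, LipschitzOnWith.of_dist_le_mul fun p hp q hq => ?_⟩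
  have h2 := hC.dist_le_mul p hp q hq
  rw [Real.dist_eq] at h2 ⊢
  have e : h1 (x0 p + a i p) ^ 2 * θ (x0 p + φ p) ^ 2 - h1 (x0 q + a i q) ^ 2 * θ (x0 q + φ q) ^ 2 =
      (mm x0 (a i) φ h1 θ p + mm x0 (a i) φ h1 θ q) *
        (mm x0 (a i) φ h1 θ p - mm x0 (a i) φ h1 θ q) := by unfold mm; ring
  rw [e, abs_mul]
  have h3 : |mm x0 (a i) φ h1 θ p + mm x0 (a i) φ h1 θ q| ≤ 2 := by
    rw [abs_of_nonneg (add_nonneg (mm_nonneg hs hθ.st p) (mm_nonneg hs hθ.st q))]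
    linarith [mm_le_one (x0 := x0) (A := a i) (φ := φ) hs hθ.st p,
      mm_le_one (x0 := x0) (A := a i) (φ := φ) hs hθ.st q]
  push_cast
  calc _ ≤ 2 * (C * dist p q) := mul_le_mul h3 h2 (abs_nonneg _) (by norm_num)
    _ = _ := by ring

/-- `χ0 θ (x) ^ 2` -/
theorem admt2 (h : Pk Y x0 a φ F) (hθ : Stp θ) (hχ : LC Y χ0) (hχc : HasCompactSupport χ0) :
    Adm Y a (fun z => χ0 z * θ (x0 z + φ z) ^ 2) := by
  obtain ⟨L', hL'⟩ := lip_sq hθ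
  exact adm_chi h (adm_phi h) hχ hχc hL'

/-- **the complement** `χ0 (θ (x) ^ 2 - gg ^ 2)` -/
theorem admg2' (h : Pk Y x0 a φ F) (i : ℕ) (K : Cmp Yᶜᶜ) (hs : Stp h1)
    (hθ : Rmp θ (Sqr_185.lo (cF h K).1) (Sqr_185.hi (cF h K).1) ex)
    (hO : E13_499.Uc Y K.1 (mm x0 (a i) φ h1 θ) O) (hχ : LC Y χ0) (hχc : HasCompactSupport χ0)
    (h01 : ∀ z, 0 ≤ χ0 z ∧ χ0 z ≤ 1) :
    Adm Y a (fun z => χ0 z * (θ (x0 z + φ z) ^ 2 - gg x0 (a i) φ h1 θ O z ^ 2)) := by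
  have h2 := (admt2 h hθ.st hχ hχc).lin h (admg2 h i K hs hθ hO hχ hχc h01).1 1 (-1)
  have e : (fun z => χ0 z * (θ (x0 z + φ z) ^ 2 - gg x0 (a i) φ h1 θ O z ^ 2)) = fun z =>
      1 * (χ0 z * θ (x0 z + φ z) ^ 2) + (-1) * (χ0 z * gg x0 (a i) φ h1 θ O z ^ 2) := by
    funext z; ring
  rw [e]; exact h2

theorem gg_rg (hs : Stp h1) (hθ : Stp θ) (z : ℂ) :
    0 ≤ gg x0 A φ h1 θ O z ∧ gg x0 A φ h1 θ O z ≤ mm x0 A φ h1 θ z :=
  ⟨cut_nonneg (mm_nonneg hs hθ) z, cut_le (mm_nonneg hs hθ) z⟩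

end

end Crest.Agent.R105.Adg_600
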