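import Mathlib
import Crest.Agent.R105.Ext1_616

/-! Row 105, LIB-EXT (helper616), part 2: the complement of a compact totally disconnected subset
of the plane is an exterior domain; the leaf EXTP of the integration file of [B]. -/

set_option autoImplicit false

open Set Filter Topology Metric

namespace Crest.Agent.R105.Ext_616

open Crest.AnalysisR Crest.Agent.R105.Ends_897 Crest.Agent.R193.Planar

theorem cc_eq_singleton_of_td {C : Set ℂ} (h : IsTotallyDisconnected C) {z : ℂ} (hz : z ∈ C) :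
    connectedComponentIn C z = {z} :=
  (h _ (connectedComponentIn_subset C z) isPreconnected_connectedComponentIn).eq_singleton_of_mem
    (mem_connectedComponentIn hz)

/-- a function which is locally constant off a compact set `K` covered by finitely many clopen
pieces of `C`, each inside a disc missing `x` and `y`, takes the same value at `x` and `y` -/
theorem const_off_aux {C : Set ℂ} {x y : ℂ} (s : Finset ℂ) :
    ∀ {B : ℂ → Set ℂ} {r : ℝ}, 0 ≤ r →
      (∀ z ∈ s, IsCompact (C \ B z) ∧ B z ⊆ closedBall z r ∧ IsCompact (B z)) →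
      (∀ z ∈ s, x ∉ closedBall z r ∧ y ∉ closedBall z r) →
      ∀ {K : Set ℂ}, IsCompact K → K ⊆ C → K ⊆ ⋃ z ∈ s, B z →
      ∀ {c : ℂ → ℝ}, LCOff K c → c x = c y := by
  classical
  induction s using Finset.induction_on with
  | empty =>
    intro B r _ _ _ K _ _ hcov c hc
    have hK0 : K = ∅ := by simpa using hcov
    rw [hK0] at hc
    exact hc.eq_of_preconnected (S := univ) isPreconnected_univ (by simp) (mem_univ _)
      (mem_univ _)
  | insert a t ha ih =>
    intro B r hr hB hxy K hK hKC hcov c hc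
    obtain ⟨h1, h2, h3⟩ := hB a (Finset.mem_insert_self _ _)
    -- split `K`
    have hK1 : IsCompact (K ∩ B a) := hK.inter h3
    have hK2 : IsCompact (K ∩ (C \ B a)) := hK.inter h1
    have hun : (K ∩ B a) ∪ (K ∩ (C \ B a)) = K := by
      ext w
      constructor
      · rintro (h | h) <;> exact h.1
      · intro hw
        by_cases hwB : w ∈ B a
        · exact Or.inl ⟨hw, hwB⟩
        · exact Or.inr ⟨hw, hKC hw, hwB⟩
    have hd : Disjoint (K ∩ B a) (K ∩ (C \ B a)) :=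
      disjoint_left.2 fun w h h' => h'.2.2 h.2
    rw [← hun] at hc
    obtain ⟨c1, c2, hc1, hc2, hs⟩ := split_C hK1 hK2.isClosed hd hc
    obtain ⟨hxa, hya⟩ := hxy a (Finset.mem_insert_self _ _)
    -- first piece
    have e1 : c1 x = c1 y := by
      refine hc1.eq_of_preconnected (isPreconnected_compl_closedBall a hr)
        (disjoint_left.2 fun w hw hw' => hw (h2 hw'.2)) hxa hya
    -- second piece
    have hcov2 : K ∩ (C \ B a) ⊆ ⋃ z ∈ t, B z := by
      rintro w ⟨hw, hwC, hwa⟩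
      have := hcov hw
      rw [Finset.set_biUnion_insert] at this
      exact this.resolve_left hwa
    have e2 : c2 x = c2 y :=
      ih hr (fun z hz => hB z (Finset.mem_insert_of_mem hz))
        (fun z hz => hxy z (Finset.mem_insert_of_mem hz)) hK2
        (fun w hw => hKC hw.1) hcov2 hc2
    by_cases hxK : x ∈ K
    · -- `x ∈ K ⊆ ⋃ B z` is impossible
      exfalso
      obtain ⟨z, hz, hxz⟩ := mem_iUnion₂.1 (hcov hxK)
      exact (hxy z hz).1 ((hB z hz).2.1 hxz)
    by_cases hyK : y ∈ K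
    · exfalso
      obtain ⟨z, hz, hyz⟩ := mem_iUnion₂.1 (hcov hyK)
      exact (hxy z hz).2 ((hB z hz).2.1 hyz)
    rw [hs x (by rw [hun]; exact hxK), hs y (by rw [hun]; exact hyK), e1, e2]

/-- functions locally constant off a compact totally disconnected plane set are constant there -/
theorem const_off {C : Set ℂ} (hC : IsCompact C) (htd : IsTotallyDisconnected C) {x y : ℂ}
    (hx : x ∉ C) (hy : y ∉ C) {c : ℂ → ℝ} (hc : LCOff C c) : c x = c y := by
  classical
  -- a radius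
  obtain ⟨r, hr, hrx, hry⟩ : ∃ r > 0, (∀ z ∈ C, r < dist x z) ∧ (∀ z ∈ C, r < dist y z) := by
    obtain ⟨r1, hr1, h1⟩ := Metric.mem_nhds_iff.1 (hC.isClosed.isOpen_compl.mem_nhds hx)
    obtain ⟨r2, hr2, h2⟩ := Metric.mem_nhds_iff.1 (hC.isClosed.isOpen_compl.mem_nhds hy)
    refine ⟨min r1 r2 / 2, by positivity, fun z hz => ?_, fun z hz => ?_⟩
    · by_contra h
      have h3 : z ∈ ball x r1 := by
        rw [mem_ball, dist_comm]
        have := min_le_left r1 r2
        linarith [not_lt.1 h]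
      exact h1 h3 hz
    · by_contra h
      have h3 : z ∈ ball y r2 := by
        rw [mem_ball, dist_comm]
        have := min_le_right r1 r2
        linarith [not_lt.1 h]
      exact h2 h3 hz
  -- clopen pieces
  have hex : ∀ z ∈ C, ∃ B : Set ℂ, IsCompact B ∧ IsCompact (C \ B) ∧ B ⊆ C ∧ z ∈ B ∧
      B ⊆ ball z r := by
    intro z hz
    have hcc := cc_eq_singleton_of_td htd hz
    obtain ⟨B, h1, h2, h3, h4, h5⟩ := exists_clopen (W := ball z r) hC hz isOpen_ball
      (by rw [hcc]; exact singleton_subset_iff.2 (mem_ball_self hr))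
    exact ⟨B, h1, h2, h3, h4 (mem_connectedComponentIn hz), h5⟩
  choose! B hB1 hB2 hB3 hB4 hB5 using hex
  obtain ⟨t, hcov⟩ := hC.elim_nhds_subcover' (fun z _ => (C \ B z)ᶜ)
    (fun z hz => (hB2 z hz).isClosed.isOpen_compl.mem_nhds fun h => h.2 (hB4 z hz))
  refine const_off_aux (C := C) (x := x) (y := y) (t.image Subtype.val) (B := B) hr.le ?_ ?_ hC
    subset_rfl ?_ hc
  · intro z hz
    obtain ⟨w, -, rfl⟩ := Finset.mem_image.1 hz
    exact ⟨hB2 _ w.2, (hB5 _ w.2).trans ball_subset_closedBall, hB1 _ w.2⟩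
  · intro z hz
    obtain ⟨w, -, rfl⟩ := Finset.mem_image.1 hz
    refine ⟨fun h => ?_, fun h => ?_⟩
    · exact absurd (mem_closedBall.1 h) (not_le.2 (hrx _ w.2))
    · exact absurd (mem_closedBall.1 h) (not_le.2 (hry _ w.2))
  · intro w hw
    obtain ⟨z, hz, hwz⟩ := mem_iUnion₂.1 (hcov hw)
    refine mem_iUnion₂.2 ⟨z, Finset.mem_image_of_mem _ hz, ?_⟩
    by_contra hwB
    exact hwz ⟨hw, hwB⟩

/-- **the complement of a compact totally disconnected plane set is connected** -/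
theorem isPreconnected_compl_of_td {C : Set ℂ} (hC : IsCompact C)
    (htd : IsTotallyDisconnected C) : IsPreconnected Cᶜ := by
  classical
  have hSo : IsOpen Cᶜ := hC.isClosed.isOpen_compl
  intro u v hu hv huv ⟨x, hxS, hxu⟩ ⟨y, hyS, hyv⟩
  by_contra hcon
  rw [not_nonempty_iff_eq_empty] at hcon
  set c : ℂ → ℝ := fun z => if z ∈ Cᶜ ∩ u then 1 else 0 with hcdef
  have hc : LCOff C c := by
    intro z hz
    by_cases hzu : z ∈ u
    · filter_upwards [(hSo.inter hu).mem_nhds ⟨hz, hzu⟩] with w hw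
      simp only [hcdef]
      rw [if_pos hw, if_pos ⟨hz, hzu⟩]
    · have hzv : z ∈ v := (huv hz).resolve_left hzu
      filter_upwards [(hSo.inter hv).mem_nhds ⟨hz, hzv⟩] with w hw
      have hwu : w ∉ Cᶜ ∩ u := by
        intro hw'
        have : w ∈ Cᶜ ∩ (u ∩ v) := ⟨hw.1, hw'.2, hw.2⟩
        rw [hcon] at this
        exact this
      simp only [hcdef]
      rw [if_neg hwu, if_neg fun h => hzu h.2]
  have hcx : c x = 1 := if_pos ⟨hxS, hxu⟩
  have hcy : c y = 0 := by
    refine if_neg fun h => ?_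
    have : y ∈ Cᶜ ∩ (u ∩ v) := ⟨hyS, h.2, hyv⟩
    rw [hcon] at this
    exact this
  have := const_off hC htd hxS hyS hc
  rw [hcx, hcy] at this
  exact one_ne_zero this

/-- **the complement of a compact totally disconnected plane set is an exterior domain** -/
theorem isExteriorDomain_compl {C : Set ℂ} (hC : IsCompact C) (htd : IsTotallyDisconnected C) :
    IsExteriorDomain Cᶜ := by
  obtain ⟨R, hR⟩ := hC.isBounded.exists_norm_le
  have hfar : ∀ z : ℂ, R < ‖z‖ → z ∈ Cᶜ := fun z hz hzC => absurd (hR z hzC) (not_le.2 hz)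
  refine ⟨hC.isClosed.isOpen_compl, ⟨⟨((|R| + 1 : ℝ) : ℂ), hfar _ ?_⟩,
    isPreconnected_compl_of_td hC htd⟩, R, hfar⟩
  rw [Complex.norm_real, Real.norm_eq_abs, abs_of_nonneg (by positivity)]
  linarith [le_abs_self R]

theorem dust_compl {C : Set ℂ} (htd : IsTotallyDisconnected C) : Dust Cᶜ := by
  apply dust_of_isTotallyDisconnected
  rwa [compl_compl]

/-- `p z - z` bounded near infinity ⟹ `p → ∞` -/
theorem tendsto_cocompact_of_sub {p : ℂ → ℂ} {M : ℝ}
    (hp : ∀ᶠ z in cocompact ℂ, ‖p z - z‖ ≤ M) : Tendsto p (cocompact ℂ) (cocompact ℂ) := by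
  rw [← cobounded_eq_cocompact] at hp ⊢
  rw [← tendsto_norm_atTop_iff_cobounded]
  have h0 : Tendsto (fun z : ℂ => ‖z‖ - M) (Bornology.cobounded ℂ) atTop :=
    tendsto_atTop_add_const_right _ (-M) tendsto_norm_cobounded_atTop
  refine tendsto_atTop_mono' _ ?_ h0
  filter_upwards [hp] with z hz
  have h3 : ‖z‖ ≤ ‖p z‖ + ‖p z - z‖ := by
    calc ‖z‖ = ‖p z - (p z - z)‖ := by ring_nf
      _ ≤ ‖p z‖ + ‖p z - z‖ := norm_sub_le _ _
  linarith

theorem bdd_of_tendsto {p : ℂ → ℂ} {c : ℂ}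
    (hp : Tendsto (fun z => p z - z) (cocompact ℂ) (𝓝 c)) :
    ∀ᶠ z in cocompact ℂ, ‖p z - z‖ ≤ ‖c‖ + 1 := by
  have h := hp.norm.eventually (ge_mem_nhds (lt_add_one ‖c‖))
  exact h

/-- conformal maps `z + c + o(1)` off a compact totally disconnected set are `EndMap`s -/
theorem endMap_of_td {C : Set ℂ} (hC : IsCompact C) (htd : IsTotallyDisconnected C) {p : ℂ → ℂ}
    (hd : DifferentiableOn ℂ p Cᶜ) (hi : InjOn p Cᶜ) {c : ℂ}
    (hp : Tendsto (fun z => p z - z) (cocompact ℂ) (𝓝 c)) : EndMap Cᶜ (p '' Cᶜ) p :=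
  EndMap.of_holo (isExteriorDomain_compl hC htd) hd hi
    (tendsto_cocompact_of_sub (bdd_of_tendsto hp))

/-- **EXTP** -/
theorem extp {C : Set ℂ} (hC : IsCompact C) (htd : IsTotallyDisconnected C) {p : ℂ → ℂ}
    (hd : DifferentiableOn ℂ p Cᶜ) (hi : InjOn p Cᶜ) {c : ℂ}
    (hp : Tendsto (fun z => p z - z) (cocompact ℂ) (𝓝 c))
    (hV : ∀ w ∈ (p '' Cᶜ)ᶜ, connectedComponentIn (p '' Cᶜ)ᶜ w = {w}) :
    ∃ Φ : ℂ ≃ₜ ℂ, ∀ z ∈ Cᶜ, Φ z = p z :=
  exists_homeo (endMap_of_td hC htd hd hi hp) (dust_compl htd) fun w hw => hV w hw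

/-- EXTP with `IsTotallyDisconnected` -/
theorem extp' {C : Set ℂ} (hC : IsCompact C) (htd : IsTotallyDisconnected C) {p : ℂ → ℂ}
    (hd : DifferentiableOn ℂ p Cᶜ) (hi : InjOn p Cᶜ) {c : ℂ}
    (hp : Tendsto (fun z => p z - z) (cocompact ℂ) (𝓝 c))
    (hV : IsTotallyDisconnected (p '' Cᶜ)ᶜ) :
    ∃ Φ : ℂ ≃ₜ ℂ, ∀ z ∈ Cᶜ, Φ z = p z :=
  extp hC htd hd hi hp fun _ hw => cc_eq_singleton_of_td hV hw

/-- **the end of [B]**: if moreover `C ⊆ E` with `E` conformally removable, then `p z = z + c`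
on `Cᶜ` -/
theorem eq_add_of_removable {C : Set ℂ} (hC : IsCompact C) (htd : IsTotallyDisconnected C)
    {p : ℂ → ℂ} (hd : DifferentiableOn ℂ p Cᶜ) (hi : InjOn p Cᶜ) {c : ℂ}
    (hp : Tendsto (fun z => p z - z) (cocompact ℂ) (𝓝 c))
    (hV : ∀ w ∈ (p '' Cᶜ)ᶜ, connectedComponentIn (p '' Cᶜ)ᶜ w = {w})
    {E : Set ℂ} (hE : IsConformallyRemovable E) (hCE : C ⊆ E) :
    ∀ z ∈ Cᶜ, p z = z + c := by
  obtain ⟨Φ, hΦ⟩ := extp hC htd hd hi hp hV
  obtain ⟨a, b, hab⟩ := hE Φ ((hd.congr hΦ).mono (compl_subset_compl.2 hCE))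
  -- `a = 1`
  have h3 : ∀ᶠ z in Bornology.cobounded ℂ, z ∈ Cᶜ ∧ ‖p z - z‖ ≤ ‖c‖ + 1 := by
    rw [cobounded_eq_cocompact]
    have h4 : ∀ᶠ z in cocompact ℂ, z ∈ Cᶜ := hC.compl_mem_cocompact
    exact h4.and (bdd_of_tendsto hp)
  obtain ⟨R, -, hR⟩ := (hasBasis_cobounded_norm.eventually_iff).1 h3
  have ha : a = 1 := slope_eq_one hab (M := ‖c‖ + 1) (R := R) fun z hz => by
    obtain ⟨h4, h5⟩ := hR (x := z) hz.le
    rw [hΦ z h4]; exact h5
  -- `b = c`
  have hlim : Tendsto (fun z => p z - z) (cocompact ℂ) (𝓝 b) := by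
    refine tendsto_const_nhds.congr' ?_
    filter_upwards [hC.compl_mem_cocompact] with z hz
    rw [← hΦ z hz, hab z, ha]; ring
  have hbc : b = c := tendsto_nhds_unique hlim hp
  intro z hz
  rw [← hΦ z hz, hab z, ha, hbc, one_mul]

end Crest.Agent.R105.Ext_616
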