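import Crest.Agent.R105.Pic2_442

/-! Row 105, PIC (helper442), part 3: locally constant functions correspond in both directions,
the inverse is holomorphic, upper semicontinuity of the end correspondence. -/

set_option autoImplicit false

open Set Filter Topology Metric MeasureTheory Complex
open scoped ContDiff

namespace Crest.Agent.R105.Pic_442

open Crest.AnalysisR Ends_897

variable {U V : Set ℂ} {F : ℂ → ℂ}

/-- the inverse of a conformal `EndMap` is holomorphic -/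
theorem inv_differentiableOn (h : EndMap U V F) (hd : DifferentiableOn ℂ F U) :
    DifferentiableOn ℂ h.inv V := by
  have h1 := Crest.Agent.Lib.differentiableOn_inverse_of_injOn (g := h.inv) h.hU.1 hd h.inj
    (fun z hz => h.inv_left hz)
  rwa [h.img] at h1

/-- a function which is locally constant near the complement is constant near every component -/
theorem lc_component {α : Type*} {E : Set ℂ} {X : ℂ → α}
    (hX : ∀ ζ ∈ E, ∀ᶠ w in 𝓝 ζ, X w = X ζ) {ζ : ℂ} (hζ : ζ ∈ E) :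
    ∀ᶠ w in 𝓝ˢ (connectedComponentIn E ζ), X w = X ζ := by
  have h1 : ∀ ζ' ∈ connectedComponentIn E ζ, X ζ' = X ζ := by
    intro ζ' hζ'
    refine (isPreconnected_connectedComponentIn (x := ζ) (F := E)).induction₂
      (fun a b => X b = X a) (fun a ha => ?_) (fun a b c ha hb hc h1 h2 => h2.trans h1)
      (fun a b ha hb h1 => h1.symm) (mem_connectedComponentIn hζ) hζ'
    exact (hX a (connectedComponentIn_subset _ _ ha)).filter_mono nhdsWithin_le_nhds
  rw [eventually_nhdsSet_iff_forall]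
  intro ζ' hζ'
  filter_upwards [hX ζ' (connectedComponentIn_subset _ _ hζ')] with w hw
  rw [hw, h1 ζ' hζ']

/-- **locally constant functions are pulled back** (no regularity away from the complement) -/
theorem lc_pullback (h : EndMap U V F) {α : Type*} {X : ℂ → α}
    (hX : ∀ ζ ∉ V, ∀ᶠ w in 𝓝 ζ, X w = X ζ) :
    ∃ χ : ℂ → α, (∀ z ∉ U, ∀ᶠ w in 𝓝 z, χ w = χ z) ∧ (∀ z ∈ U, χ z = X (F z)) ∧
      ∀ z ∉ U, ∀ ζ ∉ V, map F (eF U z) = eF V ζ → χ z = X ζ := by
  classical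
  have hex : ∀ z : ℂ, ∃ ζ : ℂ, z ∉ U → ζ ∉ V ∧ map F (eF U z) = eF V ζ := by
    intro z
    by_cases hz : z ∈ U
    · exact ⟨0, fun hn => absurd hz hn⟩
    · obtain ⟨ζ, h1, h2⟩ := h.exists_end hz
      exact ⟨ζ, fun _ => ⟨h1, h2⟩⟩
  choose e he using hex
  set χ : ℂ → α := fun z => if z ∈ U then X (F z) else X (e z) with hχ
  have hχU : ∀ z ∈ U, χ z = X (F z) := fun z hz => by simp only [hχ, if_pos hz]
  have hχC : ∀ z ∉ U, χ z = X (e z) := fun z hz => by simp only [hχ, if_neg hz]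
  have ev : ∀ z ∉ U, ∀ᶠ w in eF U z, X (F w) = X (e z) := by
    intro z hz
    have h1 : ∀ᶠ ζ' in eF V (e z), X ζ' = X (e z) :=
      (lc_component (E := Vᶜ) hX (he z hz).1).filter_mono inf_le_left
    rw [← (he z hz).2, eventually_map] at h1
    exact h1
  refine ⟨χ, ?_, hχU, ?_⟩
  · intro z hz
    have h1 := ev z hz
    rw [eF, eventually_inf_principal] at h1
    obtain ⟨N, hNo, hKN, hN⟩ := mem_nhdsSet_iff_exists.1 h1
    obtain ⟨B, hBc, hBc', hBU, hKB, hBN⟩ := exists_clopen (isCompact_compl h.hU)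
      (show z ∈ Uᶜ from hz) hNo hKN
    have hB : Piece Uᶜ B := ⟨hBU, hBc, hBc'⟩
    have hzB : z ∈ B := hKB (mem_connectedComponentIn hz)
    filter_upwards [hNo.mem_nhds (hBN hzB),
      hBc'.isClosed.isOpen_compl.mem_nhds (fun hm => hm.2 hzB)] with w hwN hwB
    by_cases hwU : w ∈ U
    · rw [hχU w hwU, hχC z hz]; exact hN hwN hwU
    · have hwB' : w ∈ B := by
        by_contra hn; exact hwB ⟨hwU, hn⟩
      rw [hχC w hwU, hχC z hz]
      have h2 : ∀ᶠ w' in eF U w, X (F w') = X (e z) := by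
        rw [eF, eventually_inf_principal]
        filter_upwards [hNo.mem_nhdsSet.2 ((hB.cc_subset hwB').trans hBN)] with w' hw'
        exact hN hw'
      have := eF_neBot h.hU hwU
      obtain ⟨w', h3, h4⟩ := ((ev w hwU).and h2).exists
      rw [← h3, h4]
  · intro z hz ζ hζ hm
    rw [hχC z hz]
    have h1 : eF V (e z) = eF V ζ := (he z hz).2.symm.trans hm
    have h2 := eF_injective h.hV (he z hz).1 h1
    have h3 := lc_component (E := Vᶜ) hX (he z hz).1
    rw [h2] at h3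
    exact (((eventually_nhdsSet_iff_forall.1 h3) ζ (mem_connectedComponentIn hζ)).self_of_nhds).symm

/-- smoothness of a function which is smooth on `U` and locally constant near `Uᶜ` -/
theorem contDiff_of_lc {n : WithTop ℕ∞} {χ : ℂ → ℝ} (hU : IsOpen U) (h1 : ContDiffOn ℝ n χ U)
    (h2 : ∀ z ∉ U, ∀ᶠ w in 𝓝 z, χ w = χ z) : ContDiff ℝ n χ := by
  rw [contDiff_iff_contDiffAt]
  intro z
  by_cases hz : z ∈ U
  · exact h1.contDiffAt (hU.mem_nhds hz)
  · exact (contDiffAt_const (c := χ z)).congr_of_eventuallyEq (h2 z hz)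

/-- compact support of a pull back -/
theorem compactSupport_of_comp (h : EndMap U V F) {χ X : ℂ → ℝ} (hc : HasCompactSupport X)
    (hχ : ∀ z ∈ U, χ z = X (F z)) : HasCompactSupport χ := by
  have h2 : (tsupport X)ᶜ ∈ cocompact ℂ := hc.isCompact.compl_mem_cocompact
  obtain ⟨T, hT, hTs⟩ := mem_cocompact.1 (h.inf h2)
  refine HasCompactSupport.intro (hT.union (isCompact_compl h.hU)) fun z hz => ?_
  rw [mem_union, not_or] at hz
  have hzU : z ∈ U := not_not.1 hz.2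
  rw [hχ z hzU]
  exact image_eq_zero_of_notMem_tsupport (hTs hz.1)

/-- **smooth locally constant functions are pulled back** -/
theorem lc_pullback_smooth (h : EndMap U V F) (hd : DifferentiableOn ℂ F U) {X : ℂ → ℝ}
    (hX : ContDiff ℝ ∞ X) (hc : HasCompactSupport X) (hl : ∀ ζ ∉ V, ∀ᶠ w in 𝓝 ζ, X w = X ζ) :
    ∃ χ : ℂ → ℝ, ContDiff ℝ ∞ χ ∧ HasCompactSupport χ ∧ (∀ z ∉ U, ∀ᶠ w in 𝓝 z, χ w = χ z) ∧
      (∀ z ∈ U, χ z = X (F z)) ∧
      ∀ z ∉ U, ∀ ζ ∉ V, map F (eF U z) = eF V ζ → χ z = X ζ := by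
  obtain ⟨χ, h1, h2, h3⟩ := lc_pullback h hl
  refine ⟨χ, contDiff_of_lc h.hU.1 ?_ h1, compactSupport_of_comp h hc h2, h1, h2, h3⟩
  have h4 : ContDiffOn ℝ ∞ (fun z => X (F z)) U := by
    intro z hz
    have h2 : ContDiffAt ℝ ∞ F z :=
      ((hd.analyticAt (h.hU.1.mem_nhds hz)).contDiffAt).restrict_scalars ℝ
    exact (hX.contDiffAt.comp z h2).contDiffWithinAt
  exact h4.congr h2

/-- **smooth locally constant functions are pushed forward** -/
theorem lc_push_smooth (h : EndMap U V F) (hd : DifferentiableOn ℂ F U) {χ : ℂ → ℝ}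
    (hχ : ContDiff ℝ ∞ χ) (hc : HasCompactSupport χ) (hl : ∀ z ∉ U, ∀ᶠ w in 𝓝 z, χ w = χ z) :
    ∃ X : ℂ → ℝ, ContDiff ℝ ∞ X ∧ HasCompactSupport X ∧ (∀ ζ ∉ V, ∀ᶠ w in 𝓝 ζ, X w = X ζ) ∧
      (∀ z ∈ U, X (F z) = χ z) ∧
      ∀ z ∉ U, ∀ ζ ∉ V, map F (eF U z) = eF V ζ → X ζ = χ z := by
  obtain ⟨X, h1, h2, h3, h4, h5⟩ := lc_pullback_smooth h.symm (inv_differentiableOn h hd) hχ hc hl
  refine ⟨X, h1, h2, h3, fun z hz => ?_, fun z hz ζ hζ hm => h5 ζ hζ z hz ?_⟩
  · rw [h4 _ (h.mapsTo hz), h.inv_left hz]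
  · rw [← hm, map_map]
    have h6 : (h.inv ∘ F) =ᶠ[eF U z] id := by
      filter_upwards [EndMap.eventually_mem U z] with w hw using h.inv_left hw
    rw [map_congr h6, map_id]

/-- **upper semicontinuity of the end correspondence** -/
theorem end_usc (h : EndMap U V F) {z ζ : ℂ} (hz : z ∉ U) (hζ : ζ ∉ V)
    (he : map F (eF U z) = eF V ζ) {W : Set ℂ} (hW : IsOpen W)
    (hKW : connectedComponentIn Vᶜ ζ ⊆ W) :
    ∀ᶠ z' in 𝓝ˢ (connectedComponentIn Uᶜ z), (z' ∈ U → F z' ∈ W) ∧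
      (z' ∉ U → ∀ ζ' ∉ V, map F (eF U z') = eF V ζ' → connectedComponentIn Vᶜ ζ' ⊆ W) := by
  obtain ⟨B, hBc, hBc', hBV, hKB, hBW⟩ := exists_clopen (isCompact_compl h.hV)
    (show ζ ∈ Vᶜ from hζ) hW hKW
  have hB : Piece Vᶜ B := ⟨hBV, hBc, hBc'⟩
  obtain ⟨W1, hW1, hBW1, -, hd1⟩ := exists_nhd hBc hBc'.isClosed disjoint_sdiff_right
  have h1 : ∀ᶠ w in eF U z, F w ∈ W1 ∩ W := by
    rw [← eventually_map (P := fun w => w ∈ W1 ∩ W), he]
    exact mem_inf_of_left ((hW1.inter hW).mem_nhdsSet.2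
      (subset_inter (hKB.trans hBW1) hKW))
  rw [eF, eventually_inf_principal] at h1
  obtain ⟨N, hNo, hKN, hN⟩ := mem_nhdsSet_iff_exists.1 h1
  obtain ⟨A, hAc, hAc', hAU, hKA, hAN⟩ := exists_clopen (isCompact_compl h.hU)
    (show z ∈ Uᶜ from hz) hNo hKN
  have hA : Piece Uᶜ A := ⟨hAU, hAc, hAc'⟩
  have h2 : ∀ᶠ z' in 𝓝ˢ (connectedComponentIn Uᶜ z), z' ∈ N ∩ (Uᶜ \ A)ᶜ :=
    (hNo.inter hAc'.isClosed.isOpen_compl).mem_nhdsSet.2
      (subset_inter hKN fun w hw hm => hm.2 (hKA hw))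
  filter_upwards [h2] with z' hz'
  refine ⟨fun hU => (hN hz'.1 hU).2, fun hU ζ' hζ' he' => ?_⟩
  have hz'A : z' ∈ A := by
    by_contra hn; exact hz'.2 ⟨hU, hn⟩
  have h3 : W1 ∈ eF V ζ' := by
    rw [← he', mem_map]
    have h4 : ∀ᶠ w in eF U z', F w ∈ W1 := by
      rw [eF, eventually_inf_principal]
      filter_upwards [hNo.mem_nhdsSet.2 ((hA.cc_subset hz'A).trans hAN)] with w hw hwU
      exact (hN hw hwU).1
    exact h4
  obtain ⟨q0, hq⟩ := nonempty_frontier_cc h.hV hζ'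
  have h5 : q0 ∈ closure W1 :=
    mem_closure_iff_clusterPt.2 ((clusterPt_eF_of_frontier h.hV hq).mono (le_principal_iff.2 h3))
  have hqK : q0 ∈ connectedComponentIn Vᶜ ζ' := by
    have := frontier_subset_closure hq
    rwa [(isClosed_cc h.hV.1.isClosed_compl ζ').closure_eq] at this
  have hqB : q0 ∈ B := by
    by_contra hn
    exact disjoint_left.1 hd1 h5 ⟨connectedComponentIn_subset _ _ hqK, hn⟩
  rw [connectedComponentIn_eq hqK]
  exact (hB.cc_subset hqB).trans hBW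

end Crest.Agent.R105.Pic_442
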