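import Crest.Agent.R105.Skp4_257
import Crest.Agent.R105.Tra4_937
import Crest.Agent.R105.Ext2_616
import Crest.Agent.R105.Pic3_442

/-!
# Row 105, [B]: the picture set on `ℝ × ℝ` is a slit picture (`Skp4_257.PICP`)
-/

namespace Crest.Agent.R105.Adp_257

open Set Filter MeasureTheory Topology
open Skp2_257 Skp3_257 Skp4_257 Ends_897 CF_363

variable {C : Set ℂ} {x0 φ : ℂ → ℝ} {b : ℕ → ℂ → ℝ} {p : ℂ → ℂ}

theorem EP_eq (C : Set ℂ) (p : ℂ → ℂ) : EP C p = Tra_937.setR (p '' Cᶜ)ᶜ := by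
  ext q
  simp only [EP, mem_preimage, Tra_937.setR, mem_setOf_eq, eC_apply]

theorem setC_EP (C : Set ℂ) (p : ℂ → ℂ) : Tra_937.setC (EP C p) = (p '' Cᶜ)ᶜ := by
  rw [EP_eq, Tra_937.setC_setR]

theorem setC_EP_compl (C : Set ℂ) (p : ℂ → ℂ) : Tra_937.setC (EP C p)ᶜ = p '' Cᶜ := by
  rw [Tra_937.setC_compl, setC_EP, compl_compl]

/-- the end map of the picture -/
theorem endMap (h : IfB_641.Pk C x0 b φ) (hp : IfB_641.Cpl C x0 φ p) (hi : InjOn p Cᶜ) :
    EndMap Cᶜ (p '' Cᶜ) p := by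
  obtain ⟨c, hc⟩ := hp.inf
  exact Ext_616.endMap_of_td h.td.cpt h.td.td hp.hol hi hc

theorem tendsto_re (h : IfB_641.Pk C x0 b φ) (hp : IfB_641.Cpl C x0 φ p) :
    ∀ z ∉ Cᶜ, Tendsto (fun w => (p w).re) (eF Cᶜ z) (𝓝 (x0 z + φ z)) := by
  intro z hz
  have hzC : z ∈ C := by simpa using hz
  have hcc : connectedComponentIn (Cᶜ)ᶜ z = {z} := by
    rw [compl_compl]
    exact Pic_442.cc_singleton h.td.td hzC
  have hx : ContinuousAt (fun z => x0 z + φ z) z :=
    (h.hx0.sm.continuous.continuousAt).add (h.memφ.cont.continuousAt)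
  exact Pic_442.tendsto_of_continuousAt hcc hx (fun w hw => hp.re w hw)

theorem volume_EP (hnull : volume (p '' Cᶜ)ᶜ = 0) : volume (EP C p) = 0 := by
  rw [← Tra_937.volume_setC, setC_EP]
  exact hnull

theorem picp : PICP := by
  intro C x0 b φ p h hp hi hnull
  have hE := endMap h hp hi
  have hcpt : IsCompact (p '' Cᶜ)ᶜ := isCompact_compl hE.hV
  refine ⟨?_, volume_EP hnull, ?_⟩
  · have : EP C p = eC.symm '' (p '' Cᶜ)ᶜ := by
      rw [eC.symm.image_eq_preimage_symm, Homeomorph.symm_symm]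
      rfl
    rw [this]
    exact hcpt.image eC.symm.continuous
  · rintro P ⟨q, hq, rfl⟩
    have hq' : eC q ∉ p '' Cᶜ := hq
    obtain ⟨z, hz, -, -, bb, tt, hbt, hcc⟩ := Pic_442.cc_vseg hE (tendsto_re h hp) hq'
    have himg : eC '' connectedComponentIn (EP C p) q =
        Pic_442.vseg (eC q).re bb tt := by
      rw [eC.image_connectedComponentIn hq, ← hcc]
      congr 1
      rw [EP, image_preimage_eq _ eC.surjective]
    have hP : connectedComponentIn (EP C p) q = eC ⁻¹' (Pic_442.vseg (eC q).re bb tt) := by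
      rw [← himg, preimage_image_eq _ eC.injective]
    have hmem : ∀ r : ℝ × ℝ, r ∈ eC ⁻¹' (Pic_442.vseg (eC q).re bb tt) ↔
        r.1 = q.1 ∧ bb ≤ r.2 ∧ r.2 ≤ tt := by
      intro r
      simp only [mem_preimage, Pic_442.mem_vseg, eC_apply]
    rcases eq_or_lt_of_le hbt with h1 | h1
    · left
      refine ⟨(q.1, bb), ?_⟩
      rw [hP]
      ext r
      rw [hmem, mem_singleton_iff]
      constructor
      · rintro ⟨h2, h3, h4⟩
        exact Prod.ext h2 (le_antisymm (h1 ▸ h4) h3)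
      · rintro rfl
        exact ⟨rfl, le_rfl, h1.le⟩
    · right
      refine ⟨⟨q.1, bb, tt, h1⟩, ?_⟩
      rw [hP]
      ext r
      rw [hmem, Hair.mem_car]

end Crest.Agent.R105.Adp_257
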