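import Crest.Agent.R105.CF3_363
import Crest.Agent.R105.Stp1_722

/-!
# Row 105, skeleton of PP (picture half of [B]), version 2: the literal contracts

Supersedes `Skp1_257` (bounded functions, 938's class `PL E G`, coarse leaves `LEMA`, `STEPALL`).
Plane `ℝ × ℝ`; `E` compact, null, every component a point or a vertical hair; `V = Eᶜ`.
Everything is locally Lipschitz on `V`, gradients are `gx, gy` of 363 (`fderiv`), oscillations near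
components are `OscLe Eᶜ P f c` of 722.
-/

namespace Crest.Agent.R105.Skp2_257

open Set Filter MeasureTheory Topology
open CF_363 Stp_722

/-- The components of `E`. -/
def Comps (E : Set (ℝ × ℝ)) : Set (Set (ℝ × ℝ)) := {P | ∃ p ∈ E, P = connectedComponentIn E p}

/-- A slit picture: compact null set, components = points and vertical hairs. -/
structure Pic (E : Set (ℝ × ℝ)) : Prop where
  cpt : IsCompact E
  null : volume E = 0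
  comp : ∀ P ∈ Comps E, (∃ p, P = {p}) ∨ ∃ K : Hair, P = K.car

/-- The hairs of `E`. -/
def hairs (E : Set (ℝ × ℝ)) : Set Hair := {K | K.car ∈ Comps E}

/-! ## Function classes -/

/-- Basic regularity of the test functions (values on `E` are irrelevant). -/
structure Reg (E : Set (ℝ × ℝ)) (f : ℝ × ℝ → ℝ) : Prop where
  lip : LocallyLipschitzOn Eᶜ f
  cpt : HasCompactSupport f
  bdd : ∃ C : ℝ, ∀ p, |f p| ≤ C
  fin : IntegrableOn (g2 f) Eᶜ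

/-- Honest: oscillation zero at every component. -/
def Honest (E : Set (ℝ × ℝ)) (f : ℝ × ℝ → ℝ) : Prop :=
  Reg E f ∧ ∀ P ∈ Comps E, OscLe Eᶜ P f 0

/-- One atom: oscillation zero at every component with the exception of one hair. -/
def OneAtom (E : Set (ℝ × ℝ)) (f : ℝ × ℝ → ℝ) : Prop :=
  Reg E f ∧ ∃ K ∈ hairs E, ∀ P ∈ Comps E, P ≠ K.car → OscLe Eᶜ P f 0

/-- 938's class: bounded, finite energy, planar (ACL) off `G ⊆ E`. -/
structure PL (E G : Set (ℝ × ℝ)) (u : ℝ × ℝ → ℝ) : Prop where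
  bdd : ∃ M : ℝ, ∀ p, |u p| ≤ M
  cont : ContinuousOn u Gᶜ
  lip : LocallyLipschitzOn Eᶜ u
  fin : IntegrableOn (g2 u) Eᶜ
  hor : ∀ᵐ y : ℝ, ∀ a b, a ≤ b → (∀ x ∈ Icc a b, (x, y) ∉ G) →
    IntervalIntegrable (fun s => gx u (s, y)) volume a b ∧
      u (b, y) - u (a, y) = ∫ s in a..b, gx u (s, y)
  ver : ∀ᵐ x : ℝ, ∀ a b, a ≤ b → (∀ y ∈ Icc a b, (x, y) ∉ G) →
    IntervalIntegrable (fun s => gy u (x, s)) volume a b ∧
      u (x, b) - u (x, a) = ∫ s in a..b, gy u (x, s)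

/-- Planar and constant on every component = what the isotropic algebra `B` looks like. -/
def Pl (E : Set (ℝ × ℝ)) (b : ℝ × ℝ → ℝ) : Prop :=
  PL E ∅ b ∧ ∀ P ∈ Comps E, ∀ p ∈ P, ∀ q ∈ P, b p = b q

/-- The class generated by `S` (775's `Gen`): constants, sums, products, Lipschitz functions of
one variable. -/
inductive Gen (S : Set (ℝ × ℝ → ℝ)) : (ℝ × ℝ → ℝ) → Prop
  | const (c : ℝ) : Gen S (fun _ => c)
  | of (u : ℝ × ℝ → ℝ) : u ∈ S → Gen S u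
  | add (u v : ℝ × ℝ → ℝ) : Gen S u → Gen S v → Gen S (fun p => u p + v p)
  | mul (u v : ℝ × ℝ → ℝ) : Gen S u → Gen S v → Gen S (fun p => u p * v p)
  | comp (h : ℝ → ℝ) (u : ℝ × ℝ → ℝ) : (∃ L, LipschitzWith L h) → Gen S u →
      Gen S (fun p => h (u p))

/-- `ψ` is isotropic with ALL planar functions constant on the components. -/
def IsoPl (E : Set (ℝ × ℝ)) (ψ : ℝ × ℝ → ℝ) : Prop :=
  ∀ u v, Gen (insert ψ {b | Pl E b}) u → Gen (insert ψ {b | Pl E b}) v →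
    ∫ p in Eᶜ, (gx u p * gy v p - gy u p * gx v p) = 0

/-- The Euler-Lagrange condition in the form delivered by the selection (987 / 641). -/
def EL (E : Set (ℝ × ℝ)) : Prop :=
  ∀ ψ, (Honest E ψ ∨ OneAtom E ψ) → IsoPl E ψ → ∫ p in Eᶜ, gx ψ p = 0

/-- **PP**: no hairs in an E-L picture. -/
def PP : Prop := ∀ E, Pic E → EL E → hairs E = ∅

/-! ## Families of hairs, test pairs (two-ended conductance) -/

/-- the union of a family -/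
def un (g : Set Hair) : Set (ℝ × ℝ) := ⋃ K ∈ g, K.car

/-- A compact family of hairs of `E` crossing the levels `Bm < Bp`. -/
structure Fam (E : Set (ℝ × ℝ)) (g : Set Hair) (Bm Bp : ℝ) : Prop where
  lt : Bm < Bp
  sub : g ⊆ hairs E
  cpt : IsCompact (un g)
  crs : ∀ K ∈ g, K.b ≤ Bm ∧ Bp ≤ K.t

/-- E-L for the stream functions of Lemma A: planar off the compact family. -/
def ELg (E : Set (ℝ × ℝ)) (g : Set Hair) : Prop :=
  ∀ ψ, (Honest E ψ ∨ OneAtom E ψ) → PL E (un g) ψ → ∫ p in Eᶜ, gx ψ p = 0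

/-- the regularity of one half of a test pair (`W` = a half plane): piecewise Lipschitz, cut along
finitely many hairs of `E`, values in `[0,1]`, zero off a compact subset of `N`, energy `≤ ε` -/
structure Half (E W N : Set (ℝ × ℝ)) (ε : ℝ) (z : ℝ × ℝ → ℝ) : Prop where
  cf : CFJ (hairs E) W z
  rg : ∀ p, 0 ≤ z p ∧ z p ≤ 1
  sp : ∃ S, IsCompact S ∧ S ⊆ N ∧ ∀ p ∈ W, p ∉ S → z p = 0
  en : En W z ≤ ε

/-- lower half plane -/
def Lo (B : ℝ) : Set (ℝ × ℝ) := {p | p.2 < B}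
/-- upper half plane -/
def Up (B : ℝ) : Set (ℝ × ℝ) := {p | B < p.2}

/-- A test pair of energy `≤ ε` supported in `N`. -/
structure Pair (E : Set (ℝ × ℝ)) (g : Set Hair) (Bm Bp : ℝ) (N : Set (ℝ × ℝ)) (ε : ℝ)
    (zm zp : ℝ × ℝ → ℝ) : Prop where
  m : Half E (Lo Bm) N ε zm
  p : Half E (Up Bp) N ε zp
  key : ∀ K ∈ g, ∃ O, IsOpen O ∧ K.car ⊆ O ∧
    ∀ p ∈ O \ E, p ∈ Lo Bm → ∀ q ∈ O \ E, q ∈ Up Bp → (9 / 10 : ℝ) ≤ zm p + zp q

/-- conductance zero in every neighbourhood -/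
def NullN (E : Set (ℝ × ℝ)) (g : Set Hair) (Bm Bp : ℝ) : Prop :=
  ∀ N, IsOpen N → un g ⊆ N → ∀ ε > 0, ∃ zm zp, Pair E g Bm Bp N ε zm zp

/-! ## The leaves -/

/-- **LEMA** = Lemma A of #8892 + localisation (238 Kin, 421, 87, 425, 271): E-L for the stream
functions ⟹ conductance zero. -/
def LEMA : Prop := ∀ E, Pic E → (∀ g Bm Bp, Fam E g Bm Bp → ELg E g) →
  ∀ g Bm Bp, Fam E g Bm Bp → NullN E g Bm Bp

/-- **NULLIM** (909): a planar function constant on the components maps a compact family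
crossing a strip onto a null set. -/
def NULLIM : Prop := ∀ E, Pic E → ∀ g Bm Bp, Fam E g Bm Bp → ∀ b, Pl E b →
  volume (b '' un g) = 0

/-- **ISOG** (938 C3 + 909 closing): planar off `G`, `G` has null image under all `Pl` functions
⟹ isotropic. -/
def ISOG : Prop := ∀ E, Pic E → ∀ G, IsCompact G → G ⊆ E → (∀ b, Pl E b → volume (b '' G) = 0) →
  ∀ ψ, Reg E ψ → PL E G ψ → IsoPl E ψ

/-- **ISOLIM** (909): isotropy passes to the limit. -/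
def ISOLIM : Prop := ∀ E, Pic E → ∀ (φ : ℕ → ℝ × ℝ → ℝ) (ψ : ℝ × ℝ → ℝ),
  (∀ n, Reg E (φ n)) → Reg E ψ →
  (∃ S, IsCompact S ∧ ∀ n, ∀ p ∉ S, φ n p = 0) → (∃ C : ℝ, ∀ n p, |φ n p| ≤ C) →
  (∀ A, IsCompact A → A ⊆ Eᶜ → ∀ᶠ n in atTop, ∀ p ∈ A, φ n p = ψ p) →
  Tendsto (fun n => ∫ p in Eᶜ, g2 (fun q => φ n q - ψ q) p) atTop (𝓝 0) →
  (∀ n, IsoPl E (φ n)) → IsoPl E ψ

/-- the output of the layer lemma -/
def LayOut (E : Set (ℝ × ℝ)) (g : Set Hair) (Bm Bp : ℝ) : Prop :=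
  ∀ N, IsOpen N → un g ⊆ N → ∀ M : ℕ, 1 ≤ M → ∀ ε > 0, ∃ zm zp,
    Half E (Lo Bm) N ε zm ∧ Half E (Up Bp) N ε zp ∧
    (∀ P ∈ Comps E, OscLe (Eᶜ ∩ Lo Bm) (P ∩ {p | p.2 ≤ Bm}) zm (1 / M)) ∧
    (∀ P ∈ Comps E, OscLe (Eᶜ ∩ Up Bp) (P ∩ {p | Bp ≤ p.2}) zp (1 / M)) ∧
    ∀ K ∈ g, (∃ O, IsOpen O ∧ K.car ∩ {p | p.2 ≤ Bm} ⊆ O ∧ ∀ p ∈ O \ E, p ∈ Lo Bm → zm p = 1) ∨
      (∃ O, IsOpen O ∧ K.car ∩ {p | Bp ≤ p.2} ⊆ O ∧ ∀ p ∈ O \ E, p ∈ Up Bp → zp p = 1)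

/-- **LAY** (744 with 925 Lay1 + 891 thin pieces): Lemma C. -/
def LAY : Prop := ∀ E, Pic E → ∀ g Bm Bp, Fam E g Bm Bp → NullN E g Bm Bp → LayOut E g Bm Bp

/-- the cut-off of a single hair -/
def SinOut (E : Set (ℝ × ℝ)) (K : Hair) : Prop :=
  ∀ N, IsOpen N → K.car ⊆ N → ∀ M : ℕ, 1 ≤ M → ∀ ε > 0, ∃ ζ, Half E univ N ε ζ ∧
    (∃ O, IsOpen O ∧ K.car ⊆ O ∧ ∀ p ∈ O, ζ p = 1) ∧
    ∀ P ∈ Comps E, OscLe Eᶜ P ζ (1 / M)

/-- **SINGLE** (722 next / free): (4) of #8892. -/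
def SINGLE : Prop := ∀ E, Pic E → ∀ K ∈ hairs E,
  (∀ Bm Bp, Fam E {K} Bm Bp → NullN E {K} Bm Bp) → SinOut E K

/-- the output of one halving step -/
def StepOut (E : Set (ℝ × ℝ)) : Prop :=
  ∀ (φ : ℝ × ℝ → ℝ) (a : ℝ), 0 < a → CFJ (hairs E) univ φ → HasCompactSupport φ →
    (∃ C : ℝ, ∀ p, |φ p| ≤ C) →
    (∀ P ∈ Comps E, OscLe Eᶜ P φ a) → ∀ W, IsOpen W → E ⊆ W → ∀ ε > 0,
    ∃ φ', CFJ (hairs E) univ φ' ∧ (∀ p ∉ W, φ' p = φ p) ∧ (∀ p, |φ' p - φ p| ≤ 8 * a) ∧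
      (∫ p in Eᶜ, g2 (fun q => φ' q - φ q) p) ≤ ε ∧ ∀ P ∈ Comps E, OscLe Eᶜ P φ' (a / 2)

/-- **STEP** (722): (5) of #8892. -/
def STEP : Prop := ∀ E, Pic E → (∀ g Bm Bp, Fam E g Bm Bp → LayOut E g Bm Bp) →
  (∀ K ∈ hairs E, SinOut E K) → StepOut E

/-- **STEPALL** = LAY + SINGLE + STEP in one piece (for owners who do not pass through the
intermediate literals, e.g. 722's `LayerOp`). -/
def STEPALL : Prop := ∀ E, Pic E → (∀ g Bm Bp, Fam E g Bm Bp → NullN E g Bm Bp) → StepOut E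

/-- the output of the iteration -/
def LimOut (E : Set (ℝ × ℝ)) : Prop :=
  ∀ Φ, CFJ (hairs E) univ Φ → HasCompactSupport Φ → (∃ C : ℝ, ∀ p, |Φ p| ≤ C) → ∀ ε > 0,
    ∃ (φ : ℕ → ℝ × ℝ → ℝ) (ψ : ℝ × ℝ → ℝ), Honest E ψ ∧
      (∀ n, CFJ (hairs E) univ (φ n)) ∧ (∃ C : ℝ, ∀ n p, |φ n p| ≤ C) ∧
      (∃ S, IsCompact S ∧ ∀ n, ∀ p ∉ S, φ n p = 0) ∧ (∀ n, HasCompactSupport (φ n)) ∧
      (∀ A, IsCompact A → A ⊆ Eᶜ → ∀ᶠ n in atTop, ∀ p ∈ A, φ n p = ψ p) ∧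
      Tendsto (fun n => ∫ p in Eᶜ, g2 (fun q => φ n q - ψ q) p) atTop (𝓝 0) ∧
      |(∫ p in Eᶜ, gx ψ p) - ∫ p in Eᶜ, gx Φ p| ≤ ε

/-- **LIM**: (6) of #8892, iteration with summable errors. -/
def LIM : Prop := ∀ E, Pic E → StepOut E → LimOut E

/-- **CFPL** (49): functions cut along finitely many hairs are planar off the cut. -/
def CFPL : Prop := ∀ E, Pic E → ∀ f, CFJ (hairs E) univ f → HasCompactSupport f →
  (∃ C : ℝ, ∀ p, |f p| ≤ C) →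
  Reg E f ∧ ∃ J : Finset Hair, (∀ K ∈ J, K ∈ hairs E) ∧ PL E (cut J) f

/-- **START** (49): the function which violates E-L, one-sided ramp at a hair. -/
def START : Prop := ∀ E, Pic E → ∀ K ∈ hairs E, ∃ Φ, CFJ (hairs E) univ Φ ∧
  HasCompactSupport Φ ∧ (∃ C : ℝ, ∀ p, |Φ p| ≤ C) ∧ 0 < |∫ p in Eᶜ, gx Φ p|

/-! ## Assembly -/

theorem un_sub {E : Set (ℝ × ℝ)} {g : Set Hair} (h : g ⊆ hairs E) : un g ⊆ E := by
  intro p hp
  simp only [un, mem_iUnion] at hp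
  obtain ⟨K, hK, hpK⟩ := hp
  obtain ⟨q, _, hP⟩ := h hK
  rw [hP] at hpK
  exact connectedComponentIn_subset _ _ hpK

theorem stepall_of (hLAY : LAY) (hSIN : SINGLE) (hSTEP : STEP) : STEPALL :=
  fun E hE hNN => hSTEP E hE (fun g Bm Bp hg => hLAY E hE g Bm Bp hg (hNN g Bm Bp hg))
    (fun K hK => hSIN E hE K hK (fun Bm Bp hg => hNN {K} Bm Bp hg))

theorem volume_image_cut {E : Set (ℝ × ℝ)} {b : ℝ × ℝ → ℝ} (hb : Pl E b) {J : Finset Hair}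
    (hJ : ∀ K ∈ J, K ∈ hairs E) : volume (b '' cut J) = 0 := by
  rw [cut_eq_biUnion, image_iUnion₂]
  refine (measure_biUnion_null_iff J.countable_toSet).2 fun K hK => ?_
  have : b '' K.car ⊆ {b (K.x, K.b)} := by
    rintro _ ⟨p, hp, rfl⟩
    exact hb.2 K.car (hJ K hK) p hp (K.x, K.b) (Hair.mem_car.2 ⟨rfl, le_rfl, K.hbt.le⟩)
  exact measure_mono_null this (by simp)

theorem elg {E : Set (ℝ × ℝ)} (hE : Pic E) (hEL : EL E) (hN : NULLIM) (hI : ISOG) :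
    ∀ g Bm Bp, Fam E g Bm Bp → ELg E g := by
  intro g Bm Bp hg ψ hψ hoff
  refine hEL ψ hψ (hI E hE (un g) hg.cpt (un_sub hg.sub)
    (fun b hb => hN E hE g Bm Bp hg b hb) ψ ?_ hoff)
  rcases hψ with h | h
  · exact h.1
  · exact h.1

theorem pp_of_leaves (hA : LEMA) (hN : NULLIM) (hI : ISOG) (hIL : ISOLIM) (hS : STEPALL)
    (hLIM : LIM) (hCF : CFPL) (hST : START) : PP := by
  intro E hE hEL
  have hNN : ∀ g Bm Bp, Fam E g Bm Bp → NullN E g Bm Bp := hA E hE (elg hE hEL hN hI)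
  have hlim := hLIM E hE (hS E hE hNN)
  by_contra hne
  obtain ⟨K, hK⟩ := nonempty_iff_ne_empty.2 hne
  obtain ⟨Φ, hΦ, hΦc, hΦb, hpos⟩ := hST E hE K hK
  obtain ⟨φ, ψ, hψ, hφ, ⟨C, hC⟩, ⟨S, hS, hS0⟩, hφc, heq, hen, hl1⟩ :=
    hlim Φ hΦ hΦc hΦb (|∫ p in Eᶜ, gx Φ p| / 2) (by positivity)
  have hreg : ∀ n, Reg E (φ n) := fun n => (hCF E hE (φ n) (hφ n) (hφc n) ⟨C, hC n⟩).1
  have hiso : ∀ n, IsoPl E (φ n) := by
    intro n
    obtain ⟨hr, J, hJ, hoff⟩ := hCF E hE (φ n) (hφ n) (hφc n) ⟨C, hC n⟩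
    refine hI E hE (cut J) (isCompact_cut J) ?_ (fun b hb => volume_image_cut hb hJ) (φ n) hr hoff
    intro p hp
    obtain ⟨K', hK', hp'⟩ := mem_cut.1 hp
    exact un_sub (g := {K | K ∈ J}) (fun K hK => hJ K hK)
      (by simp only [un, mem_iUnion]; exact ⟨K', hK', hp'⟩)
  have hisoψ : IsoPl E ψ := hIL E hE φ ψ hreg hψ.1 ⟨S, hS, hS0⟩ ⟨C, hC⟩ heq hen hiso
  have h0 : ∫ p in Eᶜ, gx ψ p = 0 := hEL ψ (Or.inl hψ) hisoψ
  rw [h0, zero_sub, abs_neg] at hl1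
  linarith

/-- no hairs = every component is a point -/
theorem PP.points (h : PP) {E : Set (ℝ × ℝ)} (hE : Pic E) (hEL : EL E) :
    ∀ p ∈ E, connectedComponentIn E p = {p} := by
  intro p hp
  have h1 := hE.comp _ ⟨p, hp, rfl⟩
  have hmem : p ∈ connectedComponentIn E p := mem_connectedComponentIn hp
  rcases h1 with ⟨q, hq⟩ | ⟨K, hK⟩
  · rw [hq] at hmem ⊢
    rw [mem_singleton_iff] at hmem
    rw [hmem]
  · exfalso
    have : K ∈ hairs E := ⟨p, hp, hK.symm⟩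
    rw [h E hE hEL] at this
    exact this

end Crest.Agent.R105.Skp2_257
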