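import Crest.Agent.R105.Cq5_463
import Crest.Agent.R105.Skp2_257

/-!
# Row 105 (S0138, PP with solids): null families, literal definitions

Over 463's `QPic`, `TQ`. `FamQ` = compact family of COMPONENTS of `E` crossing two levels,
`HalfQ` / `PairQ` = test pairs, `NullNQ` = conductance zero, `NullLo` / `NullUp` = one end of one
component is null, `OutA` = output of Lemma A with squares (KKT + stream function + E-L), `FACE` =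
capacity of the faces. Results (Nal1, Nal2): window lemma and `NullNQ` for all families which do not
have a solid with both levels in its window.
-/

set_option autoImplicit false

namespace Crest.Agent.R105.Nal_649

open Set Filter MeasureTheory Topology
open Crest.Agent.R105.CF_363 Crest.Agent.R105.Stp_722 Crest.Agent.R105.Cq_463
open Crest.Agent.R105.Skp2_257 (Comps Lo Up)

/-- one half of a test pair in the open half plane `W`; the squares of `𝒬` are charged -/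
structure HalfQ (E : Set (ℝ × ℝ)) (𝒬 : Set Sqr) (𝓗 : Set Hair) (W N : Set (ℝ × ℝ)) (ε : ℝ)
    (z : ℝ × ℝ → ℝ) : Prop where
  cf : CFJ 𝓗 W z
  rg : ∀ p, 0 ≤ z p ∧ z p ≤ 1
  sp : ∃ S, IsCompact S ∧ S ⊆ N ∧ ∀ p ∈ W, p ∉ S → z p = 0
  en : TQ E W 𝒬 z ≤ ε

/-- A compact family of components of `E` crossing the levels `Bm < Bp`. -/
structure FamQ (E : Set (ℝ × ℝ)) (g : Set (Set (ℝ × ℝ))) (Bm Bp : ℝ) : Prop where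
  lt : Bm < Bp
  sub : g ⊆ Comps E
  cpt : IsCompact (⋃₀ g)
  crs : ∀ P ∈ g, (∃ p ∈ P, p.2 ≤ Bm) ∧ ∃ p ∈ P, Bp ≤ p.2

/-- no solid of the family has both levels in its window -/
def Win (𝒬 : Set Sqr) (g : Set (Set (ℝ × ℝ))) (Bm Bp : ℝ) : Prop :=
  ∀ P ∈ g, ∀ Q ∈ 𝒬, Q.car ⊆ P → Bm < Q.y ∨ Q.y + Q.s < Bp

/-- a test pair, energy of each half `≤ ε`, supported in `N` -/
structure PairQ (E : Set (ℝ × ℝ)) (𝒬 : Set Sqr) (𝓗 : Set Hair) (g : Set (Set (ℝ × ℝ)))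
    (Bm Bp : ℝ) (N : Set (ℝ × ℝ)) (ε : ℝ) (zm zp : ℝ × ℝ → ℝ) : Prop where
  m : HalfQ E 𝒬 𝓗 (Lo Bm) N ε zm
  p : HalfQ E 𝒬 𝓗 (Up Bp) N ε zp
  key : ∀ P ∈ g, ∃ O, IsOpen O ∧ P ⊆ O ∧
    ∀ p ∈ O \ E, p ∈ Lo Bm → ∀ q ∈ O \ E, q ∈ Up Bp → (9 / 10 : ℝ) ≤ zm p + zp q

/-- conductance zero in every neighbourhood -/
def NullNQ (E : Set (ℝ × ℝ)) (𝒬 : Set Sqr) (𝓗 : Set Hair) (g : Set (Set (ℝ × ℝ)))
    (Bm Bp : ℝ) : Prop :=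
  ∀ N, IsOpen N → ⋃₀ g ⊆ N → ∀ ε > 0, ∃ zm zp, PairQ E 𝒬 𝓗 g Bm Bp N ε zm zp

/-- `z = 1` near the part of `P` in `closure W`, seen from `W \ E` -/
def OneNear (E W P : Set (ℝ × ℝ)) (z : ℝ × ℝ → ℝ) : Prop :=
  ∃ O, IsOpen O ∧ P ⊆ O ∧ ∀ p ∈ O \ E, p ∈ W → z p = 1

/-- the part of `P` below `B` is null (from below) -/
def NullLo (E : Set (ℝ × ℝ)) (𝒬 : Set Sqr) (𝓗 : Set Hair) (P : Set (ℝ × ℝ)) (B : ℝ) : Prop :=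
  ∀ N, IsOpen N → P ⊆ N → ∀ ε > 0, ∃ z, HalfQ E 𝒬 𝓗 (Lo B) N ε z ∧
    OneNear E (Lo B) (P ∩ {p | p.2 ≤ B}) z

/-- the part of `P` above `B` is null (from above) -/
def NullUp (E : Set (ℝ × ℝ)) (𝒬 : Set Sqr) (𝓗 : Set Hair) (P : Set (ℝ × ℝ)) (B : ℝ) : Prop :=
  ∀ N, IsOpen N → P ⊆ N → ∀ ε > 0, ∃ z, HalfQ E 𝒬 𝓗 (Up B) N ε z ∧
    OneNear E (Up B) (P ∩ {p | B ≤ p.2}) z

/-- the component of `E` which contains the square `Q` -/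
def comp (E : Set (ℝ × ℝ)) (Q : Sqr) : Set (ℝ × ℝ) := connectedComponentIn E (Q.x, Q.y)

/-- **Output of Lemma A with squares** for the family `g` in the neighbourhood `N` (only the
squares of `𝒬'` are charged): `m` = conductance, `Λ Q` = mass of the multiplier on the component
of `Q`. `bnd` = E-L for the stream function (`osc ψ ≤ f_Q + Λ Q`, `Σ f_Q² ≤ m`, for the
squares which are not charged `osc ψ ≤ Λ Q`); `lo`, `up` = the flow identity tested with one half. -/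
structure OutA (E : Set (ℝ × ℝ)) (𝒬 𝒬' : Set Sqr) (𝓗 : Set Hair) (g : Set (Set (ℝ × ℝ)))
    (Bm Bp : ℝ) (N : Set (ℝ × ℝ)) (A m : ℝ) (Λ : Sqr → ℝ) : Prop where
  m0 : 0 ≤ m
  pos : ∀ Q, 0 ≤ Λ Q
  sum : ∀ F : Finset Sqr, (∀ Q ∈ F, Q ∈ 𝒬 ∧ Q.car ⊆ ⋃₀ g) → ∑ Q ∈ F, Λ Q ≤ m
  inf : ∀ ε > 0, ∃ zm zp, PairQ E 𝒬' 𝓗 g Bm Bp N (m + ε) zm zp
  bnd : (Bp - Bm) * m ≤ A * √(∑' Q : {Q ∈ 𝒬' | (Q.car ∩ N).Nonempty}, Q.1.s ^ 2) * √m +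
    ∑' Q : {Q ∈ 𝒬 | Q.car ⊆ ⋃₀ g}, Q.1.s * Λ Q
  lo : ∀ Q ∈ 𝒬, Q.car ⊆ ⋃₀ g → ∀ z ε, HalfQ E 𝒬' 𝓗 (Lo Bm) N ε z →
    OneNear E (Lo Bm) (comp E Q ∩ {p | p.2 ≤ Bm}) z → Λ Q ^ 2 ≤ m * ε
  up : ∀ Q ∈ 𝒬, Q.car ⊆ ⋃₀ g → ∀ z ε, HalfQ E 𝒬' 𝓗 (Up Bp) N ε z →
    OneNear E (Up Bp) (comp E Q ∩ {p | Bp ≤ p.2}) z → Λ Q ^ 2 ≤ m * ε

/-- the contract with Lemma A (238 / 247 / 425 / 87) for one picture -/
def LemQ (E : Set (ℝ × ℝ)) (𝒬 : Set Sqr) (𝓗 : Set Hair) : Prop :=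
  ∃ A : ℝ, 0 ≤ A ∧ ∀ g Bm Bp, FamQ E g Bm Bp → ∀ 𝒬' ⊆ 𝒬, (𝒬 \ 𝒬').Finite →
    (∀ Q ∈ 𝒬 \ 𝒬', Q.car ⊆ ⋃₀ g) → ∀ N, IsOpen N → ⋃₀ g ⊆ N →
    ∃ N₁, IsOpen N₁ ∧ ⋃₀ g ⊆ N₁ ∧ N₁ ⊆ N ∧ ∃ m Λ, OutA E 𝒬 𝒬' 𝓗 g Bm Bp N₁ A m Λ

/-- **FACE** (131): capacity of the lower and of the upper face of a square; the own charge of the
square is not used. -/
def FACE (E : Set (ℝ × ℝ)) (𝒬 : Set Sqr) (𝓗 : Set Hair) : Prop :=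
  ∀ Q ∈ 𝒬, ∀ S, IsCompact S → ∃ C : ℝ, ∀ z : ℝ × ℝ → ℝ, (∀ p, 0 ≤ z p ∧ z p ≤ 1) →
    (∀ B, Q.y < B → CFJ 𝓗 (Lo B) z → (∀ p ∈ Lo B, p ∉ S → z p = 0) →
      OneNear E (Lo B) (Q.car ∩ {p | p.2 ≤ B}) z → Q.s ≤ C * √(TQ E (Lo B) (𝒬 \ {Q}) z)) ∧
    (∀ B, B < Q.y + Q.s → CFJ 𝓗 (Up B) z → (∀ p ∈ Up B, p ∉ S → z p = 0) →
      OneNear E (Up B) (Q.car ∩ {p | B ≤ p.2}) z → Q.s ≤ C * √(TQ E (Up B) (𝒬 \ {Q}) z))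

end Crest.Agent.R105.Nal_649
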