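import Crest.Agent.R105.Cln5_891
import Crest.Agent.R105.Nal0_649

/-!
Row 105 (S0138, picture with solids), task 2398, part 6: CLEANQ from `NullUp` / `NullLo` of 649.
-/

set_option autoImplicit false

open Set Filter MeasureTheory Topology Metric
open scoped ENNReal NNReal

namespace Crest.Agent.R105.Cln_891

open CF_363 Stp_722 Cq_463 Nal_649
open Crest.Agent.R105.Skp2_257 (Comps Lo Up)

local notation "cc" => connectedComponentIn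

variable {E : Set (ℝ × ℝ)} {𝒬 : Set Sqr} {𝓗 : Set Hair} {Q : Sqr} {φ : ℝ × ℝ → ℝ}
  {P : Set (ℝ × ℝ)}

theorem up_eq (B : ℝ) : Up B = {p : ℝ × ℝ | B < 1 * p.2} := by
  ext p
  change B < p.2 ↔ B < 1 * p.2
  rw [one_mul]

theorem lo_eq (B : ℝ) : Lo B = {p : ℝ × ℝ | -B < -1 * p.2} := by
  ext p
  change p.2 < B ↔ -B < -1 * p.2
  constructor <;> intro h <;> linarith

theorem outN_of_nullUp {B : ℝ} (h : NullUp E 𝒬 𝓗 P B) : OutN E 𝒬 𝓗 P 1 B := by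
  intro N hN hPN ε hε
  obtain ⟨z, hz, O, hO, hPO, h1⟩ := h N hN hPN ε hε
  obtain ⟨S, hS, hSN, h0⟩ := hz.sp
  have hcf := hz.cf
  have hen := hz.en
  rw [up_eq] at hcf hen h0
  refine ⟨z, S, hcf, hz.rg, hS, hSN, fun p hp hpS => h0 p hp hpS, hen, O, hO, ?_, ?_⟩
  · rintro p ⟨hp, hpB⟩
    have hpB' : B ≤ 1 * p.2 := hpB
    exact hPO ⟨hp, by change B ≤ p.2; linarith⟩
  · intro p hp hpB
    exact h1 p hp (by change B < p.2; linarith)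

theorem outN_of_nullLo {B : ℝ} (h : NullLo E 𝒬 𝓗 P B) : OutN E 𝒬 𝓗 P (-1) (-B) := by
  intro N hN hPN ε hε
  obtain ⟨z, hz, O, hO, hPO, h1⟩ := h N hN hPN ε hε
  obtain ⟨S, hS, hSN, h0⟩ := hz.sp
  have hcf := hz.cf
  have hen := hz.en
  rw [lo_eq] at hcf hen h0
  refine ⟨z, S, hcf, hz.rg, hS, hSN, fun p hp hpS => h0 p hp hpS, hen, O, hO, ?_, ?_⟩
  · rintro p ⟨hp, hpB⟩
    have hpB' : -B ≤ -1 * p.2 := hpB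
    exact hPO ⟨hp, by change p.2 ≤ B; linarith⟩
  · intro p hp hpB
    exact h1 p hp (by change p.2 < B; linarith)

/-- **CLEANQ** from 649's null parts. -/
theorem cleanQ' (hE : QPic E 𝒬 𝓗) (hC : Comp E 𝒬 𝓗) {x₀ : ℝ × ℝ} (hx₀ : x₀ ∈ E)
    (h : Solid E 𝒬 𝓗 (cc E x₀) Q)
    (hup : ∀ B > Q.y + Q.s, NullUp E 𝒬 𝓗 (cc E x₀) B)
    (hdn : ∀ B < Q.y, NullLo E 𝒬 𝓗 (cc E x₀) B)
    (hφ : CFJ 𝓗 univ φ) {R : ℝ} (hR : ∀ p, |φ p| ≤ R)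
    {N : Set (ℝ × ℝ)} (hN : IsOpen N) (hPN : cc E x₀ ⊆ N) {ε η : ℝ} (hε : 0 < ε) (hη : 0 < η) :
    ∃ (φ' : ℝ × ℝ → ℝ) (S : Set (ℝ × ℝ)), CFJ 𝓗 univ φ' ∧ (∀ p, |φ' p| ≤ R) ∧ IsCompact S ∧
      S ⊆ N ∧ (∀ p ∉ S, φ' p = φ p) ∧ TQ E univ 𝒬 (fun p => φ' p - φ p) ≤ ε ∧
      (∃ O, IsOpen O ∧ Q.car ⊆ O ∧ ∀ p ∈ O, φ' p = φ p) ∧
      (∀ c, OscLe Eᶜ Q.car φ c → OscLe Eᶜ (cc E x₀) φ' (c + η)) ∧
      (∀ p lo hi, φ p ∈ Icc lo hi → (∀ q ∈ Q.car, φ q ∈ Icc lo hi) → φ' p ∈ Icc lo hi) ∧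
      (∀ p lo hi, φ p ∈ Icc lo hi → (∃ O, IsOpen O ∧ Q.car ⊆ O ∧ ∀ v ∈ O \ E, φ v ∈ Icc lo hi) →
        φ' p ∈ Icc (lo - η) (hi + η)) ∧
      ∀ x ∈ E, x ∉ cc E x₀ → ∀ R' ⊆ cc E x, Lev Eᶜ Prod.snd R' → ∀ b, OscLe Eᶜ R' φ b →
        OscLe Eᶜ R' φ' (b + η) :=
  cleanQ hE hC hx₀ h (fun B hB => outN_of_nullUp (hup B hB))
    (fun B hB => by
      have := outN_of_nullLo (hdn (-B) (by have : B > -Q.y := hB; linarith))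
      rwa [neg_neg] at this) hφ hR hN hPN hε hη

end Crest.Agent.R105.Cln_891
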