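import Crest.Agent.R105.Cq8_463
import Crest.Agent.R105.Nal0_649

/-!
# Row 105 (S0138, picture with solids): the literal contract `Nal_649.FACE`
-/

set_option autoImplicit false

namespace Crest.Agent.R105.Cq_463

open Set Filter MeasureTheory Topology Metric
open Crest.Agent.R105.CF_363 Crest.Agent.R105.Stp_722
open scoped ENNReal
open Crest.Agent.R105.Skp2_257 (Lo Up)
open Crest.Agent.R105.Nal_649 (FACE OneNear)

variable {E W : Set (ℝ × ℝ)} {𝒬 : Set Sqr} {𝓗 : Set Hair} {f g : ℝ × ℝ → ℝ}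

/-- a square without charge may be dropped -/
theorem TQ_drop {Q : Sqr} (h : ch E W f Q = 0) : TQ E W (𝒬 \ {Q}) f = TQ E W 𝒬 f := by
  unfold TQ Ch
  congr 1
  rw [tsum_subtype (𝒬 \ {Q}) (fun Q => ch E W f Q ^ 2), tsum_subtype 𝒬 (fun Q => ch E W f Q ^ 2)]
  refine tsum_congr fun Q' => ?_
  by_cases hQ : Q' = Q
  · subst hQ
    have e : ch E W f Q' ^ 2 = 0 := by rw [h]; norm_num
    by_cases h1 : Q' ∈ 𝒬
    · rw [indicator_of_notMem (by simp), indicator_of_mem h1, e]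
    · rw [indicator_of_notMem (by simp), indicator_of_notMem h1]
  · by_cases h1 : Q' ∈ 𝒬
    · rw [indicator_of_mem (show Q' ∈ 𝒬 \ {Q} from ⟨h1, hQ⟩), indicator_of_mem h1]
    · rw [indicator_of_notMem (fun h => h1 h.1), indicator_of_notMem h1]

theorem closure_Lo_subset (B : ℝ) : closure (Lo B) ⊆ {p : ℝ × ℝ | p.2 ≤ B} :=
  closure_minimal (fun _ hp => le_of_lt (show _ < B from hp)) (isClosed_le continuous_snd continuous_const)

theorem closure_Up_subset (B : ℝ) : closure (Up B) ⊆ {p : ℝ × ℝ | B ≤ p.2} :=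
  closure_minimal (fun _ hp => le_of_lt (show B < _ from hp)) (isClosed_le continuous_const continuous_snd)

/-- `z = 1` near the portion: lower bound for the energy, own charge not used -/
theorem one_near_capacity (hE : QPic E 𝒬 𝓗) (hW : Slab W) (hf : Cc 𝓗 W f) {a b : ℝ}
    (hab : ∀ p ∈ E, a < p.2 ∧ p.2 < b) (hz : Van W a b f) {Q : Sqr} (hQ : Q ∈ 𝒬)
    (hne : (Q.car ∩ closure W).Nonempty) (h1 : OneNear E W (Q.car ∩ closure W) f) :
    1 ≤ (4 * (b - a) / Q.s + 2) * TQ E W (𝒬 \ {Q}) f := by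
  obtain ⟨O, hO, hPO, hone⟩ := h1
  have hch : ch E W f Q = 0 := chg_eq_zero hO hPO (a := 1) fun q hq => hone q ⟨hq.1, hq.2.1⟩ hq.2.2
  rw [TQ_drop hch]
  obtain ⟨J, hJ, L, C, hL, h3, h4⟩ := hf.1
  have hpos : 0 < volume (Icc Q.x (Q.x + Q.s)) := by
    rw [Real.volume_Icc, ENNReal.ofReal_pos]; linarith [Q.hs]
  obtain ⟨x, hxQ, hx⟩ : ∃ x ∈ Icc Q.x (Q.x + Q.s), GoodX E W 𝒬 J f x := by
    by_contra hcon
    push Not at hcon
    exact hpos.ne' (measure_mono_null (fun y hy => hcon y hy) (ae_iff.1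
      (ae_goodX hE hW.isOpen h3)))
  have := body_capacity hE hW hf hab hz hQ hne (m := 1) zero_le_one (fun O' hO' hPO' => by
    obtain ⟨t, ht, htW, htE⟩ := hW.near hE hx hQ hxQ hne (hO.inter hO')
      (subset_inter hPO hPO')
    refine ⟨(x, t), ⟨ht.2, htE, htW⟩, ?_⟩
    rw [hone (x, t) ⟨ht.1, htE⟩ htW]; simp)
  simpa using this

/-- **649's contract FACE** -/
theorem face (hE : QPic E 𝒬 𝓗) : FACE E 𝒬 𝓗 := by
  intro Q hQ S hS
  obtain ⟨a, b, hab, hES⟩ := exists_height (hE.cpt.union hS)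
  have hs := Q.hs
  have hba : 0 < b - a := by linarith
  refine ⟨Q.s * √(4 * (b - a) / Q.s + 2), fun z hz01 => ⟨fun B hB hcf h0 hone => ?_,
    fun B hB hcf h0 hone => ?_⟩⟩
  · have hne : (Q.car ∩ closure (Lo B)).Nonempty := by
      refine ⟨(Q.x, Q.y), ⟨⟨le_rfl, by simp only; linarith⟩, le_rfl, by simp only; linarith⟩,
        subset_closure ?_⟩
      exact hB
    have h1 := one_near_capacity (𝒬 := 𝒬) hE (slab_lo B) ⟨hcf, S, hS, h0⟩ (a := a) (b := b)
      (fun p hp => hES p (Or.inl hp)) ⟨fun p hp hp' => h0 p hp fun hpS => by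
        have := hES p (Or.inr hpS)
        rcases hp' with h | h <;> linarith [this.1, this.2]⟩ hQ hne (by
        obtain ⟨O, hO, hPO, h⟩ := hone
        exact ⟨O, hO, (inter_subset_inter_right _ (closure_Lo_subset B)).trans hPO, h⟩)
    have hT := TQ_nonneg E (Lo B) (𝒬 \ {Q}) z
    rw [mul_assoc, ← Real.sqrt_mul (by positivity)]
    have : 1 ≤ √((4 * (b - a) / Q.s + 2) * TQ E (Lo B) (𝒬 \ {Q}) z) :=
      Real.one_le_sqrt.2 h1
    nlinarith
  · have hne : (Q.car ∩ closure (Up B)).Nonempty := by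
      refine ⟨(Q.x, Q.y + Q.s), ⟨⟨le_rfl, by simp only; linarith⟩, by simp only; linarith, le_rfl⟩,
        subset_closure ?_⟩
      exact hB
    have h1 := one_near_capacity (𝒬 := 𝒬) hE (slab_up B) ⟨hcf, S, hS, h0⟩ (a := a) (b := b)
      (fun p hp => hES p (Or.inl hp)) ⟨fun p hp hp' => h0 p hp fun hpS => by
        have := hES p (Or.inr hpS)
        rcases hp' with h | h <;> linarith [this.1, this.2]⟩ hQ hne (by
        obtain ⟨O, hO, hPO, h⟩ := hone
        exact ⟨O, hO, (inter_subset_inter_right _ (closure_Up_subset B)).trans hPO, h⟩)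
    have hT := TQ_nonneg E (Up B) (𝒬 \ {Q}) z
    rw [mul_assoc, ← Real.sqrt_mul (by positivity)]
    have : 1 ≤ √((4 * (b - a) / Q.s + 2) * TQ E (Up B) (𝒬 \ {Q}) z) :=
      Real.one_le_sqrt.2 h1
    nlinarith

end Crest.Agent.R105.Cq_463
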