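import Mathlib

/-!
# Row 105 (Koebe): layers (lemma C of #8892 (3)), abstract form

`Y`, `Y'` are the two half regions, `G` the compact space of hairs of the family, `Km k`, `Kp k`
their lower / upper parts, `N a` thin pieces, `O a ⊆ N a` the open set where the cut-off `Z a`
equals one.  No Sobolev space, no planar topology.
-/

namespace Crest.Agent.R105.Lay_925

open Set Filter Topology

variable {Y Y' G ι κ : Type*} [TopologicalSpace Y] [TopologicalSpace Y'] [TopologicalSpace G]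

/-- `K` is *good* for the system `(N, O)`: outside every finite set of indices there is a piece
whose full set `O` contains `K` and whose closure is contained in any prescribed open set. -/
def Good (N O : ι → Set Y) (K : Set Y) : Prop :=
  ∀ (F : Finset ι) (W : Set Y), IsOpen W → K ⊆ W → ∃ i, i ∉ F ∧ K ⊆ O i ∧ closure (N i) ⊆ W

/-- nested open sets: `A 0 = univ`, `A (i+1)` = union of the `O a` with `closure (N a) ⊆ A i`,
`a ∉ F`. -/
def A (N O : ι → Set Y) (F : Finset ι) : ℕ → Set Y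
  | 0 => univ
  | i + 1 => ⋃ a ∈ {a : ι | a ∉ F ∧ closure (N a) ⊆ A N O F i}, O a

theorem isOpen_A {N O : ι → Set Y} (hO : ∀ a, IsOpen (O a)) (F : Finset ι) :
    ∀ i, IsOpen (A N O F i)
  | 0 => isOpen_univ
  | _ + 1 => isOpen_biUnion fun a _ => hO a

theorem Good.subset_A {N O : ι → Set Y} (hO : ∀ a, IsOpen (O a)) {K : Set Y} (h : Good N O K)
    (F : Finset ι) : ∀ i, K ⊆ A N O F i := by
  intro i
  induction i with
  | zero => exact subset_univ _
  | succ i ih =>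
    obtain ⟨a, haF, haK, haN⟩ := h F (A N O F i) (isOpen_A hO F i) ih
    exact haK.trans (subset_biUnion_of_mem (u := fun a => O a) (⟨haF, haN⟩ :
      a ∈ {a : ι | a ∉ F ∧ closure (N a) ⊆ A N O F i}))

/-- descending choice of finite families. -/
theorem exists_chain {N O : ι → Set Y} (hO : ∀ a, IsOpen (O a))
    (hN : ∀ a, IsCompact (closure (N a))) (F : Finset ι) :
    ∀ (m : ℕ) (T : Finset ι), (∀ a ∈ T, a ∉ F ∧ closure (N a) ⊆ A N O F m) →
      ∃ S : ℕ → Finset ι, S m = T ∧ (∀ i ≤ m, ∀ a ∈ S i, a ∉ F) ∧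
        ∀ i < m, ⋃ a ∈ S (i + 1), closure (N a) ⊆ ⋃ b ∈ S i, O b := by
  classical
  intro m
  induction m with
  | zero =>
    intro T hT
    refine ⟨fun _ => T, rfl, ?_, ?_⟩
    · intro i _ a ha
      exact (hT a ha).1
    · intro i hi
      exact absurd hi (Nat.not_lt_zero _)
  | succ m ih =>
    intro T hT
    have hcomp : IsCompact (⋃ a ∈ T, closure (N a)) := T.isCompact_biUnion fun a _ => hN a
    have hsub : (⋃ a ∈ T, closure (N a)) ⊆
        ⋃ a ∈ {a : ι | a ∉ F ∧ closure (N a) ⊆ A N O F m}, O a := by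
      refine iUnion₂_subset fun a ha => ?_
      exact (hT a ha).2
    obtain ⟨T', hT'1, hT'fin, hT'2⟩ := hcomp.elim_finite_subcover_image
      (b := {a : ι | a ∉ F ∧ closure (N a) ⊆ A N O F m}) (c := O) (fun a _ => hO a) hsub
    obtain ⟨S, hSm, hSF, hS⟩ := ih hT'fin.toFinset (by
      intro a ha
      exact hT'1 (hT'fin.mem_toFinset.1 ha))
    refine ⟨fun i => if i = m + 1 then T else S i, by simp, ?_, ?_⟩
    · intro i hi a ha
      by_cases h : i = m + 1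
      · simp only [h, if_true] at ha
        exact (hT a ha).1
      · simp only [h, if_false] at ha
        exact hSF i (by omega) a ha
    · intro i hi
      by_cases h : i = m
      · subst h
        have h1 : ¬ (i = i + 1) := by omega
        simp only [h1, if_false, if_true]
        intro x hx
        obtain ⟨a, haT, hxa⟩ := mem_iUnion₂.1 (hT'2 hx)
        refine mem_iUnion₂.2 ⟨a, ?_, hxa⟩
        rw [hSm]
        exact hT'fin.mem_toFinset.2 haT
      · have h1 : ¬ (i = m + 1) := by omega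
        have h2 : ¬ (i + 1 = m + 1) := by omega
        simp only [h1, h2, if_false]
        exact hS i (by omega)

/-- finite cover at the top level. -/
theorem exists_top [CompactSpace G] {N O : ι → Set Y} {N' O' : κ → Set Y'}
    (hO : ∀ a, IsOpen (O a)) (hO' : ∀ a, IsOpen (O' a))
    {Km : G → Set Y} {Kp : G → Set Y'}
    (hKm : ∀ W, IsOpen W → IsOpen {k | Km k ⊆ W}) (hKp : ∀ W, IsOpen W → IsOpen {k | Kp k ⊆ W})
    (hgood : ∀ k, Good N O (Km k) ∨ Good N' O' (Kp k)) (F : Finset ι) (F' : Finset κ) (m : ℕ) :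
    ∃ (T : Finset ι) (T' : Finset κ),
      (∀ a ∈ T, a ∉ F ∧ closure (N a) ⊆ A N O F m) ∧
      (∀ a ∈ T', a ∉ F' ∧ closure (N' a) ⊆ A N' O' F' m) ∧
      ∀ k, (∃ a ∈ T, Km k ⊆ O a) ∨ (∃ a ∈ T', Kp k ⊆ O' a) := by
  classical
  let P : Set (ι ⊕ κ) := {s | Sum.elim (fun a => a ∉ F ∧ closure (N a) ⊆ A N O F m)
    (fun a => a ∉ F' ∧ closure (N' a) ⊆ A N' O' F' m) s}
  let U : ι ⊕ κ → Set G := Sum.elim (fun a => {k | Km k ⊆ O a}) (fun a => {k | Kp k ⊆ O' a})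
  have hU : ∀ s ∈ P, IsOpen (U s) := by
    rintro (a | a) _
    · exact hKm _ (hO a)
    · exact hKp _ (hO' a)
  have hcov : (univ : Set G) ⊆ ⋃ s ∈ P, U s := by
    intro k _
    rcases hgood k with h | h
    · obtain ⟨a, haF, haK, haN⟩ := h F _ (isOpen_A hO F m) (h.subset_A hO F m)
      exact mem_iUnion₂.2 ⟨Sum.inl a, ⟨haF, haN⟩, haK⟩
    · obtain ⟨a, haF, haK, haN⟩ := h F' _ (isOpen_A hO' F' m) (h.subset_A hO' F' m)
      exact mem_iUnion₂.2 ⟨Sum.inr a, ⟨haF, haN⟩, haK⟩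
  obtain ⟨b, hbP, hbfin, hb⟩ := isCompact_univ.elim_finite_subcover_image hU hcov
  have hfl : (Sum.inl ⁻¹' b : Set ι).Finite := hbfin.preimage Sum.inl_injective.injOn
  have hfr : (Sum.inr ⁻¹' b : Set κ).Finite := hbfin.preimage Sum.inr_injective.injOn
  refine ⟨hfl.toFinset, hfr.toFinset, ?_, ?_, ?_⟩
  · intro a ha
    exact hbP (hfl.mem_toFinset.1 ha)
  · intro a ha
    exact hbP (hfr.mem_toFinset.1 ha)
  · intro k
    obtain ⟨s, hs, hk⟩ := mem_iUnion₂.1 (hb (mem_univ k))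
    rcases s with a | a
    · exact Or.inl ⟨a, hfl.mem_toFinset.2 hs, hk⟩
    · exact Or.inr ⟨a, hfr.mem_toFinset.2 hs, hk⟩

omit [TopologicalSpace Y] in
/-- finite maxima of cut-offs inside a class closed under `max`. -/
theorem exists_max {P : (Y → ℝ) → Prop} {E : (Y → ℝ) → ℝ} (P0 : P 0) (E0 : E 0 ≤ 0)
    (Pmax : ∀ f g, P f → P g → P (f ⊔ g)) (Emax : ∀ f g, P f → P g → E (f ⊔ g) ≤ E f + E g)
    {Z : ι → Y → ℝ} (hP : ∀ a, P (Z a)) (S : Finset ι) :
    ∃ z : Y → ℝ, P z ∧ E z ≤ ∑ a ∈ S, E (Z a) ∧ (∀ x, 0 ≤ z x) ∧ (∀ a ∈ S, ∀ x, Z a x ≤ z x) ∧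
      ∀ x, z x = 0 ∨ ∃ a ∈ S, z x = Z a x := by
  classical
  induction S using Finset.induction_on with
  | empty => exact ⟨0, P0, by simpa using E0, by simp, by simp, by simp⟩
  | insert a S ha ih =>
    obtain ⟨z, hz, hE, h0, h1, h2⟩ := ih
    refine ⟨Z a ⊔ z, Pmax _ _ (hP a) hz, ?_, ?_, ?_, ?_⟩
    · rw [Finset.sum_insert ha]
      exact (Emax _ _ (hP a) hz).trans (by linarith)
    · intro x
      exact (h0 x).trans (le_sup_right (a := Z a x))
    · intro b hb x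
      rcases Finset.mem_insert.1 hb with rfl | hb
      · exact le_sup_left (b := z x)
      · exact (h1 b hb x).trans (le_sup_right (a := Z a x))
    · intro x
      rcases le_total (Z a x) (z x) with h | h
      · have : (Z a ⊔ z) x = z x := sup_eq_right.2 h
        rw [this]
        rcases h2 x with h | ⟨b, hb, hx⟩
        · exact Or.inl h
        · exact Or.inr ⟨b, Finset.mem_insert_of_mem hb, hx⟩
      · have : (Z a ⊔ z) x = Z a x := sup_eq_left.2 h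
        rw [this]
        exact Or.inr ⟨a, Finset.mem_insert_self _ _, rfl⟩

omit [TopologicalSpace Y] in
/-- averaging: if near every hair `z (i+1) = 0` or `z i = 1`, the mean varies by at most `1/M`
near every hair. -/
theorem osc_mean {l : Filter Y} {M : ℕ} (hM : 0 < M) {z : ℕ → Y → ℝ}
    (h01 : ∀ i x, 0 ≤ z i x ∧ z i x ≤ 1)
    (hl : ∀ i, i + 1 < M → (∀ᶠ x in l, z (i + 1) x = 0) ∨ (∀ᶠ x in l, z i x = 1)) :
    ∃ c : ℝ, ∀ᶠ x in l, c ≤ (∑ i ∈ Finset.range M, z i x) / M ∧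
      (∑ i ∈ Finset.range M, z i x) / M ≤ c + 1 / M := by
  -- the largest `s ≤ M - 1` such that `z 0, …, z (s-1)` are eventually one
  classical
  have key : ∀ m : ℕ, m + 1 ≤ M → ∃ s : ℕ, s ≤ m ∧ ∀ᶠ x in l,
      (s : ℝ) ≤ ∑ i ∈ Finset.range (m + 1), z i x ∧
        ∑ i ∈ Finset.range (m + 1), z i x ≤ s + 1 ∧ ((s < m → z m x = 0) ∧
          (s = m → ∀ i < m, z i x = 1)) := by
    intro m
    induction m with
    | zero =>
      intro _
      refine ⟨0, le_rfl, Eventually.of_forall fun x => ?_⟩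
      refine ⟨by simpa using (h01 0 x).1, by simpa using (h01 0 x).2, by simp, by simp⟩
    | succ m ih =>
      intro hm
      obtain ⟨s, hs, hev⟩ := ih (by omega)
      rcases hl m (by omega) with h0 | h1
      · -- z (m+1) = 0
        refine ⟨s, by omega, ?_⟩
        filter_upwards [hev, h0] with x hx h0x
        rw [Finset.sum_range_succ, h0x, add_zero]
        exact ⟨hx.1, hx.2.1, fun _ => rfl, fun h => absurd h (by omega)⟩
      · -- z m = 1 : then s = m unless l = ⊥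
        by_cases hbot : l = ⊥
        · exact ⟨m + 1, le_rfl, by simp [hbot]⟩
        · have : NeBot l := ⟨hbot⟩
          have hsm : s = m := by
            rcases hs.lt_or_eq with h | h
            · exfalso
              have := (hev.and h1).exists
              obtain ⟨x, hx1, hx2⟩ := this
              have := hx1.2.2.1 h
              rw [this] at hx2
              exact zero_ne_one hx2
            · exact h
          subst hsm
          refine ⟨s + 1, le_rfl, ?_⟩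
          filter_upwards [hev, h1] with x hx h1x
          have hall : ∀ i < s + 1, z i x = 1 := by
            intro i hi
            rcases Nat.lt_succ_iff_lt_or_eq.1 hi with h | h
            · exact hx.2.2.2 rfl i h
            · rw [h]; exact h1x
          have hsum : ∑ i ∈ Finset.range (s + 1), z i x = (s : ℝ) + 1 := by
            rw [Finset.sum_congr rfl (fun i hi => hall i (Finset.mem_range.1 hi))]
            simp
          rw [Finset.sum_range_succ, hsum]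
          refine ⟨?_, ?_, fun h => absurd h (by omega), fun _ => hall⟩
          · push_cast
            linarith [(h01 (s + 1) x).1]
          · push_cast
            linarith [(h01 (s + 1) x).2]
  obtain ⟨m, rfl⟩ : ∃ m, M = m + 1 := ⟨M - 1, by omega⟩
  obtain ⟨s, _, hev⟩ := key m le_rfl
  have hMpos : (0 : ℝ) < ((m + 1 : ℕ) : ℝ) := by positivity
  refine ⟨(s : ℝ) / ((m + 1 : ℕ) : ℝ), ?_⟩
  filter_upwards [hev] with x hx
  refine ⟨?_, ?_⟩
  · exact div_le_div_of_nonneg_right hx.1 hMpos.le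
  · rw [← add_div]
    exact div_le_div_of_nonneg_right hx.2.1 hMpos.le

/-- a class of competitors on `Y` with an energy: closed under `max` (subadditive energy) and
under convex combinations (convex energy). -/
structure Cls (Y : Type*) where
  P : (Y → ℝ) → Prop
  E : (Y → ℝ) → ℝ
  zero : P 0
  E_zero : E 0 ≤ 0
  max' : ∀ f g, P f → P g → P (f ⊔ g)
  E_max : ∀ f g, P f → P g → E (f ⊔ g) ≤ E f + E g
  conv : ∀ f g, P f → P g → ∀ s t : ℝ, 0 ≤ s → 0 ≤ t → s + t = 1 → P (s • f + t • g)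
  E_conv : ∀ f g, P f → P g → ∀ s t : ℝ, 0 ≤ s → 0 ≤ t → s + t = 1 →
    E (s • f + t • g) ≤ s * E f + t * E g

omit [TopologicalSpace Y] in
/-- mean of `M` members of the class. -/
theorem Cls.mean (C : Cls Y) {z : ℕ → Y → ℝ} {e : ℝ} :
    ∀ M : ℕ, (∀ i < M + 1, C.P (z i) ∧ C.E (z i) ≤ e) →
      C.P (fun x => (∑ i ∈ Finset.range (M + 1), z i x) / ((M + 1 : ℕ) : ℝ)) ∧
      C.E (fun x => (∑ i ∈ Finset.range (M + 1), z i x) / ((M + 1 : ℕ) : ℝ)) ≤ e := by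
  intro M
  induction M with
  | zero =>
    intro h
    have : (fun x => (∑ i ∈ Finset.range (0 + 1), z i x) / ((0 + 1 : ℕ) : ℝ)) = z 0 := by
      funext x; simp
    rw [this]
    exact h 0 (by omega)
  | succ M ih =>
    intro h
    obtain ⟨h1, h2⟩ := ih (fun i hi => h i (by omega))
    obtain ⟨h3, h4⟩ := h (M + 1) (by omega)
    set f : Y → ℝ := fun x => (∑ i ∈ Finset.range (M + 1), z i x) / ((M + 1 : ℕ) : ℝ) with hf
    have hMpos : (0 : ℝ) < ((M + 1 : ℕ) : ℝ) := by positivity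
    have hMpos' : (0 : ℝ) < ((M + 1 + 1 : ℕ) : ℝ) := by positivity
    have hst : ((M + 1 : ℕ) : ℝ) / ((M + 1 + 1 : ℕ) : ℝ) + 1 / ((M + 1 + 1 : ℕ) : ℝ) = 1 := by
      field_simp
      push_cast
      ring
    have heq : (fun x => (∑ i ∈ Finset.range (M + 1 + 1), z i x) / ((M + 1 + 1 : ℕ) : ℝ)) =
        (((M + 1 : ℕ) : ℝ) / ((M + 1 + 1 : ℕ) : ℝ)) • f + (1 / ((M + 1 + 1 : ℕ) : ℝ)) • z (M + 1) := by
      funext x
      simp only [Pi.add_apply, Pi.smul_apply, smul_eq_mul, hf]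
      rw [Finset.sum_range_succ]
      field_simp
    rw [heq]
    refine ⟨C.conv f _ h1 h3 _ _ (by positivity) (by positivity) hst, ?_⟩
    refine (C.E_conv f _ h1 h3 _ _ (by positivity) (by positivity) hst).trans ?_
    calc _ ≤ ((M + 1 : ℕ) : ℝ) / ((M + 1 + 1 : ℕ) : ℝ) * e + 1 / ((M + 1 + 1 : ℕ) : ℝ) * e := by
          gcongr
      _ = (((M + 1 : ℕ) : ℝ) / ((M + 1 + 1 : ℕ) : ℝ) + 1 / ((M + 1 + 1 : ℕ) : ℝ)) * e := by ring
      _ = e := by rw [hst, one_mul]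

/-- one side: from a chain of finite families to the averaged cut-off. -/
theorem exists_avg (C : Cls Y) {N O : ι → Set Y} (hO : ∀ a, IsOpen (O a))
    (hON : ∀ a, O a ⊆ N a)
    {V : Set Y} {Z : ι → Y → ℝ} (hP : ∀ a, C.P (Z a)) (h01 : ∀ a x, 0 ≤ Z a x ∧ Z a x ≤ 1)
    (hZ1 : ∀ a, ∀ x ∈ O a ∩ V, Z a x = 1) (hZ0 : ∀ a, ∀ x ∉ N a, Z a x = 0)
    {H : Set (Set Y)} (hH : ∀ K ∈ H, ∀ a, K ⊆ N a ∨ Disjoint K (closure (N a)))
    {m : ℕ} {S : ℕ → Finset ι} {F : Finset ι} (hSF : ∀ i ≤ m, ∀ a ∈ S i, a ∉ F)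
    (hS : ∀ i < m, ⋃ a ∈ S (i + 1), closure (N a) ⊆ ⋃ b ∈ S i, O b)
    {e : ℝ} (he : ∀ T : Finset ι, (∀ a ∈ T, a ∉ F) → ∑ a ∈ T, C.E (Z a) ≤ e) :
    ∃ z : Y → ℝ, C.P z ∧ C.E z ≤ e ∧ (∀ x, 0 ≤ z x ∧ z x ≤ 1) ∧
      (∀ a ∈ S m, ∀ x ∈ O a ∩ V, z x = 1) ∧
      (∀ x, z x ≠ 0 → ∃ a, a ∉ F ∧ x ∈ N a) ∧
      ∀ K ∈ H, ∃ c : ℝ, ∃ W, IsOpen W ∧ K ⊆ W ∧ ∀ x ∈ W ∩ V,
        c ≤ z x ∧ z x ≤ c + 1 / ((m + 1 : ℕ) : ℝ) := by
  classical
  have hmx : ∀ i : ℕ, ∃ z : Y → ℝ, C.P z ∧ C.E z ≤ ∑ a ∈ S i, C.E (Z a) ∧ (∀ x, 0 ≤ z x) ∧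
      (∀ a ∈ S i, ∀ x, Z a x ≤ z x) ∧ ∀ x, z x = 0 ∨ ∃ a ∈ S i, z x = Z a x := fun i =>
    exists_max C.zero C.E_zero C.max' C.E_max hP (S i)
  choose z hz1 hz2 hz3 hz4 hz5 using hmx
  have hz01 : ∀ i x, 0 ≤ z i x ∧ z i x ≤ 1 := by
    intro i x
    refine ⟨hz3 i x, ?_⟩
    rcases hz5 i x with h | ⟨a, _, h⟩
    · rw [h]; exact zero_le_one
    · rw [h]; exact (h01 a x).2
  have hzO : ∀ i, ∀ a ∈ S i, ∀ x ∈ O a ∩ V, z i x = 1 := by
    intro i a ha x hx
    refine le_antisymm (hz01 i x).2 ?_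
    rw [← hZ1 a x hx]
    exact hz4 i a ha x
  have hz0 : ∀ i x, (∀ a ∈ S i, x ∉ N a) → z i x = 0 := by
    intro i x hx
    rcases hz5 i x with h | ⟨a, ha, h⟩
    · exact h
    · rw [h]; exact hZ0 a x (hx a ha)
  have hmean := C.mean (z := z) (e := e) m (fun i hi => ⟨hz1 i,
    (hz2 i).trans (he (S i) (hSF i (by omega)))⟩)
  have hMpos : (0 : ℝ) < ((m + 1 : ℕ) : ℝ) := by positivity
  refine ⟨_, hmean.1, hmean.2, ?_, ?_, ?_, ?_⟩
  · intro x
    refine ⟨div_nonneg (Finset.sum_nonneg fun i _ => (hz01 i x).1) hMpos.le, ?_⟩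
    rw [div_le_one hMpos]
    calc ∑ i ∈ Finset.range (m + 1), z i x ≤ ∑ _i ∈ Finset.range (m + 1), (1 : ℝ) :=
          Finset.sum_le_sum fun i _ => (hz01 i x).2
      _ = ((m + 1 : ℕ) : ℝ) := by simp
  · -- value one near the top family
    intro a ha x hx
    have hall : ∀ j, j ≤ m → ∃ b ∈ S (m - j), x ∈ O b := by
      intro j
      induction j with
      | zero => intro _; exact ⟨a, by simpa using ha, hx.1⟩
      | succ j ih =>
        intro hj
        obtain ⟨b, hb, hxb⟩ := ih (by omega)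
        have h1 : m - j = (m - (j + 1)) + 1 := by omega
        rw [h1] at hb
        have := hS (m - (j + 1)) (by omega) (mem_iUnion₂.2 ⟨b, hb, subset_closure (hON b hxb)⟩)
        obtain ⟨b', hb', hxb'⟩ := mem_iUnion₂.1 this
        exact ⟨b', hb', hxb'⟩
    have hone : ∀ i ∈ Finset.range (m + 1), z i x = 1 := by
      intro i hi
      have hi' : i ≤ m := by simpa [Nat.lt_succ_iff] using hi
      obtain ⟨b, hb, hxb⟩ := hall (m - i) (by omega)
      have : m - (m - i) = i := by omega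
      rw [this] at hb
      exact hzO i b hb x ⟨hxb, hx.2⟩
    rw [Finset.sum_congr rfl hone]
    simp only [Finset.sum_const, Finset.card_range, nsmul_eq_mul, mul_one]
    exact div_self hMpos.ne'
  · -- support
    intro x hx
    by_contra hcon
    push Not at hcon
    apply hx
    have : ∀ i ∈ Finset.range (m + 1), z i x = 0 := by
      intro i hi
      have hi' : i ≤ m := by simpa [Nat.lt_succ_iff] using hi
      exact hz0 i x fun a ha => hcon a (hSF i hi' a ha)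
    rw [Finset.sum_congr rfl this]
    simp
  · intro K hK
    -- near `K`: z (i+1) = 0 or z i = 1
    have hloc : ∀ i, i + 1 < m + 1 → (∀ᶠ x in 𝓝ˢ K ⊓ 𝓟 V, z (i + 1) x = 0) ∨
        (∀ᶠ x in 𝓝ˢ K ⊓ 𝓟 V, z i x = 1) := by
      intro i hi
      by_cases hex : ∃ a ∈ S (i + 1), K ⊆ N a
      · right
        obtain ⟨a, ha, hKa⟩ := hex
        have hKO : K ⊆ ⋃ b ∈ S i, O b := by
          intro x hx
          exact hS i (by omega) (mem_iUnion₂.2 ⟨a, ha, subset_closure (hKa hx)⟩)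
        have hopen : IsOpen (⋃ b ∈ S i, O b) := isOpen_biUnion fun b _ => hO b
        have hmem : (⋃ b ∈ S i, O b) ∈ 𝓝ˢ K := hopen.mem_nhdsSet.2 hKO
        rw [eventually_inf_principal]
        filter_upwards [hmem] with x hx hxV
        obtain ⟨b, hb, hxb⟩ := mem_iUnion₂.1 hx
        exact hzO i b hb x ⟨hxb, hxV⟩
      · left
        push Not at hex
        have hKc : K ⊆ (⋃ a ∈ S (i + 1), closure (N a))ᶜ := by
          intro x hx hx'
          obtain ⟨a, ha, hxa⟩ := mem_iUnion₂.1 hx'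
          rcases hH K hK a with h | h
          · exact hex a ha h
          · exact disjoint_left.1 h hx hxa
        have hclosed : IsClosed (⋃ a ∈ S (i + 1), closure (N a)) :=
          (S (i + 1)).finite_toSet.isClosed_biUnion fun a _ => isClosed_closure
        have hmem : (⋃ a ∈ S (i + 1), closure (N a))ᶜ ∈ 𝓝ˢ K :=
          hclosed.isOpen_compl.mem_nhdsSet.2 hKc
        rw [eventually_inf_principal]
        filter_upwards [hmem] with x hx _
        apply hz0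
        intro a ha hxa
        exact hx (mem_iUnion₂.2 ⟨a, ha, subset_closure hxa⟩)
    obtain ⟨c, hc⟩ := osc_mean (l := 𝓝ˢ K ⊓ 𝓟 V) (M := m + 1) (by omega) hz01 hloc
    rw [eventually_inf_principal] at hc
    obtain ⟨W, hW, hKW, hWc⟩ := mem_nhdsSet_iff_exists.1 hc
    exact ⟨c, W, hW, hKW, fun x hx => hWc hx.1 hx.2⟩

/-- **LEMMA C (layers), abstract form.**  `G` compact space of hairs, every hair good for one of
the two systems of thin pieces; then for every `m` there are averaged cut-offs `z`, `z'` of energy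
`≤ e`, `≤ e'`, supported in pieces outside `F`, `F'`, such that every hair of `G` is in the
one-set of `z` or of `z'` (neighbourhoods), and near **every** hair of `H` (of `H'`) the function
varies by at most `1/(m+1)`. -/
theorem layers [CompactSpace G] (C : Cls Y) (C' : Cls Y')
    {N O : ι → Set Y} {N' O' : κ → Set Y'}
    (hO : ∀ a, IsOpen (O a)) (hO' : ∀ a, IsOpen (O' a))
    (hON : ∀ a, O a ⊆ N a) (hON' : ∀ a, O' a ⊆ N' a)
    (hN : ∀ a, IsCompact (closure (N a))) (hN' : ∀ a, IsCompact (closure (N' a)))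
    {V : Set Y} {V' : Set Y'} {Z : ι → Y → ℝ} {Z' : κ → Y' → ℝ}
    (hP : ∀ a, C.P (Z a)) (hP' : ∀ a, C'.P (Z' a))
    (h01 : ∀ a x, 0 ≤ Z a x ∧ Z a x ≤ 1) (h01' : ∀ a x, 0 ≤ Z' a x ∧ Z' a x ≤ 1)
    (hZ1 : ∀ a, ∀ x ∈ O a ∩ V, Z a x = 1) (hZ1' : ∀ a, ∀ x ∈ O' a ∩ V', Z' a x = 1)
    (hZ0 : ∀ a, ∀ x ∉ N a, Z a x = 0) (hZ0' : ∀ a, ∀ x ∉ N' a, Z' a x = 0)
    {H : Set (Set Y)} {H' : Set (Set Y')}
    (hH : ∀ K ∈ H, ∀ a, K ⊆ N a ∨ Disjoint K (closure (N a)))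
    (hH' : ∀ K ∈ H', ∀ a, K ⊆ N' a ∨ Disjoint K (closure (N' a)))
    {Km : G → Set Y} {Kp : G → Set Y'}
    (hKm : ∀ W, IsOpen W → IsOpen {k | Km k ⊆ W}) (hKp : ∀ W, IsOpen W → IsOpen {k | Kp k ⊆ W})
    (hgood : ∀ k, Good N O (Km k) ∨ Good N' O' (Kp k)) (F : Finset ι) (F' : Finset κ)
    {e e' : ℝ} (he : ∀ T : Finset ι, (∀ a ∈ T, a ∉ F) → ∑ a ∈ T, C.E (Z a) ≤ e)
    (he' : ∀ T : Finset κ, (∀ a ∈ T, a ∉ F') → ∑ a ∈ T, C'.E (Z' a) ≤ e') (m : ℕ) :
    ∃ (z : Y → ℝ) (z' : Y' → ℝ) (W : Set Y) (W' : Set Y'), IsOpen W ∧ IsOpen W' ∧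
      (∀ k, Km k ⊆ W ∨ Kp k ⊆ W') ∧
      C.P z ∧ C'.P z' ∧ C.E z ≤ e ∧ C'.E z' ≤ e' ∧
      (∀ x, 0 ≤ z x ∧ z x ≤ 1) ∧ (∀ x, 0 ≤ z' x ∧ z' x ≤ 1) ∧
      (∀ x ∈ W ∩ V, z x = 1) ∧ (∀ x ∈ W' ∩ V', z' x = 1) ∧
      (∀ x, z x ≠ 0 → ∃ a, a ∉ F ∧ x ∈ N a) ∧ (∀ x, z' x ≠ 0 → ∃ a, a ∉ F' ∧ x ∈ N' a) ∧
      (∀ K ∈ H, ∃ c : ℝ, ∃ W, IsOpen W ∧ K ⊆ W ∧ ∀ x ∈ W ∩ V,
        c ≤ z x ∧ z x ≤ c + 1 / ((m + 1 : ℕ) : ℝ)) ∧
      (∀ K ∈ H', ∃ c : ℝ, ∃ W, IsOpen W ∧ K ⊆ W ∧ ∀ x ∈ W ∩ V',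
        c ≤ z' x ∧ z' x ≤ c + 1 / ((m + 1 : ℕ) : ℝ)) := by
  classical
  obtain ⟨T, T', hT, hT', hcov⟩ := exists_top hO hO' hKm hKp hgood F F' m
  obtain ⟨S, hSm, hSF, hS⟩ := exists_chain hO hN F m T hT
  obtain ⟨S', hSm', hSF', hS'⟩ := exists_chain hO' hN' F' m T' hT'
  obtain ⟨z, hz1, hz2, hz3, hz4, hz5, hz6⟩ := exists_avg C hO hON hP h01 hZ1 hZ0 hH hSF hS he
  obtain ⟨z', hz1', hz2', hz3', hz4', hz5', hz6'⟩ :=
    exists_avg C' hO' hON' hP' h01' hZ1' hZ0' hH' hSF' hS' he'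
  refine ⟨z, z', ⋃ a ∈ T, O a, ⋃ a ∈ T', O' a, isOpen_biUnion fun a _ => hO a,
    isOpen_biUnion fun a _ => hO' a, ?_, hz1, hz1', hz2, hz2', hz3, hz3', ?_, ?_, hz5, hz5',
    hz6, hz6'⟩
  · intro k
    rcases hcov k with ⟨a, ha, hk⟩ | ⟨a, ha, hk⟩
    · exact Or.inl (hk.trans (subset_biUnion_of_mem (u := fun a => O a) ha))
    · exact Or.inr (hk.trans (subset_biUnion_of_mem (u := fun a => O' a) ha))
  · rintro x ⟨hx, hxV⟩
    obtain ⟨a, ha, hxa⟩ := mem_iUnion₂.1 hx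
    exact hz4 a (by rw [hSm]; exact ha) x ⟨hxa, hxV⟩
  · rintro x ⟨hx, hxV⟩
    obtain ⟨a, ha, hxa⟩ := mem_iUnion₂.1 hx
    exact hz4' a (by rw [hSm']; exact ha) x ⟨hxa, hxV⟩

end Crest.Agent.R105.Lay_925
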