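import Crest.Agent.R105.Cq2_463
import Crest.Agent.R105.Lay1_925

/-!
# Row 105 (S0138, picture with solids): the class with compact support, `TQ` calculus, `clsQ`
-/

set_option autoImplicit false

namespace Crest.Agent.R105.Cq_463

open Set Filter MeasureTheory Topology Metric
open Crest.Agent.R105.CF_363 Crest.Agent.R105.Stp_722
open scoped ENNReal

variable {E W : Set (ℝ × ℝ)} {𝒬 : Set Sqr} {𝓗 : Set Hair} {f g : ℝ × ℝ → ℝ}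

/-- the energy sees only the support -/
theorem En_inter_supp {S R : Set (ℝ × ℝ)} (hW : IsOpen W) (hS : IsClosed S)
    (h0 : ∀ p ∈ W, p ∉ S → f p = 0) (hSR : S ⊆ R) :
    En (W ∩ R) f = En W f := by
  unfold En
  refine (setIntegral_eq_of_subset_of_forall_sdiff_eq_zero hW.measurableSet inter_subset_left
    ?_).symm
  rintro p ⟨hpW, hp⟩
  have hpS : p ∉ S := fun h => hp ⟨hpW, hSR h⟩
  have : f =ᶠ[𝓝 p] fun _ => 0 := by
    filter_upwards [(hW.inter hS.isOpen_compl).mem_nhds ⟨hpW, hpS⟩] with q hq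
    exact h0 q hq.1 hq.2
  simp [g2, gx_congr this, gy_congr this]

/-- class `CFJ` with compact support relative to `W` -/
def Cc (𝓗 : Set Hair) (W : Set (ℝ × ℝ)) (f : ℝ × ℝ → ℝ) : Prop :=
  CFJ 𝓗 W f ∧ ∃ S, IsCompact S ∧ ∀ p ∈ W, p ∉ S → f p = 0

theorem Cc.cfj (h : Cc 𝓗 W f) : CFJ 𝓗 W f := h.1

theorem Cc.two (hf : Cc 𝓗 W f) (hg : Cc 𝓗 W g) :
    ∃ S, IsCompact S ∧ (∀ p ∈ W, p ∉ S → f p = 0) ∧ ∀ p ∈ W, p ∉ S → g p = 0 := by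
  obtain ⟨-, S, hS, h1⟩ := hf
  obtain ⟨-, S', hS', h2⟩ := hg
  exact ⟨S ∪ S', hS.union hS', fun p hp hpS => h1 p hp fun h => hpS (Or.inl h),
    fun p hp hpS => h2 p hp fun h => hpS (Or.inr h)⟩

/-- a bounded open set around a compact set -/
theorem exists_box {S : Set (ℝ × ℝ)} (hS : IsCompact S) :
    ∃ R : Set (ℝ × ℝ), IsOpen R ∧ S ⊆ R ∧ volume R ≠ ∞ := by
  obtain ⟨r, hr⟩ := hS.isBounded.subset_ball (0 : ℝ × ℝ)
  exact ⟨ball 0 r, isOpen_ball, hr, measure_ball_lt_top.ne⟩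

theorem mul_supp {S : Set (ℝ × ℝ)} (hf : ∀ p ∈ W, p ∉ S → f p = 0) :
    ∀ p ∈ W, p ∉ S → f p * g p = 0 := fun p h1 h2 => by rw [hf p h1 h2, zero_mul]

/-- transfer principle: to prove an inequality between energies of functions with compact support,
work in a set of finite volume -/
theorem transfer (hE : QPic E 𝒬 𝓗) (hW : IsOpen W) {S : Set (ℝ × ℝ)} (hS : IsCompact S) :
    ∃ R : Set (ℝ × ℝ), IsOpen R ∧ volume R ≠ ∞ ∧ R ⊆ W \ E ∧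
      ∀ f : ℝ × ℝ → ℝ, (∀ p ∈ W, p ∉ S → f p = 0) → En (W \ E) f = En R f := by
  obtain ⟨R, hR, hSR, hRv⟩ := exists_box hS
  refine ⟨(W \ E) ∩ R, (hW.sdiff hE.cpt.isClosed).inter hR, ?_, inter_subset_left, ?_⟩
  · exact ne_top_of_le_ne_top hRv (measure_mono inter_subset_right)
  · intro f hf
    exact (En_inter_supp (hW.sdiff hE.cpt.isClosed) hS.isClosed (fun p hp => hf p hp.1)
      hSR).symm

theorem Cc.const_mul (h : Cc 𝓗 W f) (c : ℝ) : Cc 𝓗 W (fun p => c * f p) := by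
  obtain ⟨h1, S, hS, h2⟩ := h
  exact ⟨h1.const_mul c, S, hS, fun p hp hpS => by beta_reduce; rw [h2 p hp hpS, mul_zero]⟩

theorem Cc.neg (h : Cc 𝓗 W f) : Cc 𝓗 W (fun p => - f p) := by
  obtain ⟨h1, S, hS, h2⟩ := h
  exact ⟨h1.neg, S, hS, fun p hp hpS => by beta_reduce; rw [h2 p hp hpS, neg_zero]⟩

theorem Cc.abs (h : Cc 𝓗 W f) : Cc 𝓗 W (fun p => |f p|) := by
  obtain ⟨h1, S, hS, h2⟩ := h
  exact ⟨h1.abs, S, hS, fun p hp hpS => by beta_reduce; rw [h2 p hp hpS, abs_zero]⟩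

theorem Cc.comp (h : Cc 𝓗 W f) {M : ℝ} (hM : 0 ≤ M) {G : ℝ → ℝ}
    (hG : ∀ s t, |G s - G t| ≤ M * |s - t|) (hG0 : G 0 = 0) : Cc 𝓗 W (fun p => G (f p)) := by
  obtain ⟨h1, S, hS, h2⟩ := h
  exact ⟨h1.comp hM hG, S, hS, fun p hp hpS => by beta_reduce; rw [h2 p hp hpS, hG0]⟩

theorem Cc.add (hf : Cc 𝓗 W f) (hg : Cc 𝓗 W g) : Cc 𝓗 W (fun p => f p + g p) := by
  obtain ⟨S, hS, h1, h2⟩ := hf.two hg
  exact ⟨hf.1.add hg.1, S, hS, fun p hp hpS => by beta_reduce; rw [h1 p hp hpS, h2 p hp hpS, add_zero]⟩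

theorem Cc.sub (hf : Cc 𝓗 W f) (hg : Cc 𝓗 W g) : Cc 𝓗 W (fun p => f p - g p) := by
  obtain ⟨S, hS, h1, h2⟩ := hf.two hg
  exact ⟨hf.1.sub hg.1, S, hS, fun p hp hpS => by beta_reduce; rw [h1 p hp hpS, h2 p hp hpS, sub_zero]⟩

theorem Cc.max (hf : Cc 𝓗 W f) (hg : Cc 𝓗 W g) : Cc 𝓗 W (fun p => max (f p) (g p)) := by
  obtain ⟨S, hS, h1, h2⟩ := hf.two hg
  exact ⟨hf.1.max hg.1, S, hS, fun p hp hpS => by beta_reduce; rw [h1 p hp hpS, h2 p hp hpS, max_self]⟩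

theorem Cc.min (hf : Cc 𝓗 W f) (hg : Cc 𝓗 W g) : Cc 𝓗 W (fun p => min (f p) (g p)) := by
  obtain ⟨S, hS, h1, h2⟩ := hf.two hg
  exact ⟨hf.1.min hg.1, S, hS, fun p hp hpS => by beta_reduce; rw [h1 p hp hpS, h2 p hp hpS, min_self]⟩

/-- products: only the first factor needs compact support -/
theorem Cc.mul (hf : Cc 𝓗 W f) (hg : CFJ 𝓗 W g) : Cc 𝓗 W (fun p => f p * g p) := by
  obtain ⟨h1, S, hS, h2⟩ := hf
  exact ⟨h1.mul hg, S, hS, fun p hp hpS => by beta_reduce; rw [h2 p hp hpS, zero_mul]⟩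

theorem Cc.mul' (hf : CFJ 𝓗 W f) (hg : Cc 𝓗 W g) : Cc 𝓗 W (fun p => f p * g p) := by
  obtain ⟨h1, S, hS, h2⟩ := hg
  exact ⟨hf.mul h1, S, hS, fun p hp hpS => by beta_reduce; rw [h2 p hp hpS, mul_zero]⟩

theorem Cc_zero : Cc 𝓗 W (0 : ℝ × ℝ → ℝ) :=
  ⟨CFJ_const 0, ∅, isCompact_empty, fun _ _ _ => rfl⟩

theorem TQ_zero : TQ E W 𝒬 (0 : ℝ × ℝ → ℝ) = 0 := by
  have h1 : Ch E W 𝒬 (0 : ℝ × ℝ → ℝ) = 0 := by
    unfold Ch ch
    have : ∀ Q : 𝒬, chg (Eᶜ ∩ W) (Q.1.car ∩ closure W) (0 : ℝ × ℝ → ℝ) = 0 := fun Q =>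
      chg_const 0
    simp [this]
  have h2 : En (W \ E) (0 : ℝ × ℝ → ℝ) = 0 := En_const _ 0
  rw [TQ, h1, h2, add_zero]

theorem TQ_max_le (hE : QPic E 𝒬 𝓗) (hW : IsOpen W) (hWc : Convex ℝ W) (hf : Cc 𝓗 W f)
    (hg : Cc 𝓗 W g) :
    TQ E W 𝒬 (fun q => max (f q) (g q)) ≤ TQ E W 𝒬 f + TQ E W 𝒬 g := by
  obtain ⟨S, hS, h1, h2⟩ := hf.two hg
  obtain ⟨R, hR, hRv, hRW, hRE⟩ := transfer hE hW hS
  have e1 := (hf.1.mono (Subset.refl 𝓗) (hRW.trans sdiff_subset)).En_max_le hR hRv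
    (hg.1.mono (Subset.refl 𝓗) (hRW.trans sdiff_subset))
  have e2 := Ch_max_le hE hWc hf.1 hg.1
  unfold TQ
  rw [hRE f h1, hRE g h2, hRE (fun q => Max.max (f q) (g q)) fun p hp hpS => by
    rw [h1 p hp hpS, h2 p hp hpS, max_self]]
  linarith

theorem TQ_min_le (hE : QPic E 𝒬 𝓗) (hW : IsOpen W) (hWc : Convex ℝ W) (hf : Cc 𝓗 W f)
    (hg : Cc 𝓗 W g) :
    TQ E W 𝒬 (fun q => min (f q) (g q)) ≤ TQ E W 𝒬 f + TQ E W 𝒬 g := by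
  obtain ⟨S, hS, h1, h2⟩ := hf.two hg
  obtain ⟨R, hR, hRv, hRW, hRE⟩ := transfer hE hW hS
  have e1 := (hf.1.mono (Subset.refl 𝓗) (hRW.trans sdiff_subset)).En_min_le hR hRv
    (hg.1.mono (Subset.refl 𝓗) (hRW.trans sdiff_subset))
  have e2 := Ch_min_le hE hWc hf.1 hg.1
  unfold TQ
  rw [hRE f h1, hRE g h2, hRE (fun q => Min.min (f q) (g q)) fun p hp hpS => by
    rw [h1 p hp hpS, h2 p hp hpS, min_self]]
  linarith

theorem TQ_convex (hE : QPic E 𝒬 𝓗) (hW : IsOpen W) (hWc : Convex ℝ W) (hf : Cc 𝓗 W f)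
    (hg : Cc 𝓗 W g) {s t : ℝ} (hs : 0 ≤ s) (ht : 0 ≤ t) (hst : s + t = 1) :
    TQ E W 𝒬 (fun q => s * f q + t * g q) ≤ s * TQ E W 𝒬 f + t * TQ E W 𝒬 g := by
  obtain ⟨S, hS, h1, h2⟩ := hf.two hg
  obtain ⟨R, hR, hRv, hRW, hRE⟩ := transfer hE hW hS
  have e1 := (hf.1.mono (Subset.refl 𝓗) (hRW.trans sdiff_subset)).En_convex hR hRv
    (hg.1.mono (Subset.refl 𝓗) (hRW.trans sdiff_subset)) hs ht hst
  have e2 := Ch_convex hE hWc hf.1 hg.1 hs ht hst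
  unfold TQ
  rw [hRE f h1, hRE g h2, hRE (fun q => s * f q + t * g q) fun p hp hpS => by
    rw [h1 p hp hpS, h2 p hp hpS, mul_zero, mul_zero, add_zero]]
  linarith

theorem TQ_add_le (hE : QPic E 𝒬 𝓗) (hW : IsOpen W) (hWc : Convex ℝ W) (hf : Cc 𝓗 W f)
    (hg : Cc 𝓗 W g) :
    TQ E W 𝒬 (fun q => f q + g q) ≤ 2 * TQ E W 𝒬 f + 2 * TQ E W 𝒬 g := by
  obtain ⟨S, hS, h1, h2⟩ := hf.two hg
  obtain ⟨R, hR, hRv, hRW, hRE⟩ := transfer hE hW hS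
  have e1 := (hf.1.mono (Subset.refl 𝓗) (hRW.trans sdiff_subset)).En_add_le hR hRv
    (hg.1.mono (Subset.refl 𝓗) (hRW.trans sdiff_subset))
  have e2 := Ch_add_le hE hWc hf.1 hg.1
  unfold TQ
  rw [hRE f h1, hRE g h2, hRE (fun q => f q + g q) fun p hp hpS => by
    rw [h1 p hp hpS, h2 p hp hpS, add_zero]]
  linarith

theorem TQ_const_mul_le (hE : QPic E 𝒬 𝓗) (hW : IsOpen W) (hWc : Convex ℝ W) (hf : Cc 𝓗 W f)
    (c : ℝ) : TQ E W 𝒬 (fun q => c * f q) ≤ c ^ 2 * TQ E W 𝒬 f := by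
  obtain ⟨h1, S, hS, h2⟩ := hf
  obtain ⟨R, hR, hRv, hRW, hRE⟩ := transfer hE hW hS
  have e1 := (h1.mono (Subset.refl 𝓗) (hRW.trans sdiff_subset)).En_const_mul hR c
  have e2 := Ch_comp_le (𝒬 := 𝒬) hE hWc h1 (G := fun t => c * t) (abs_nonneg c)
    (fun s t => by rw [← mul_sub, abs_mul])
  rw [sq_abs] at e2
  unfold TQ
  rw [hRE f h2, hRE (fun q => c * f q) fun p hp hpS => by rw [h2 p hp hpS, mul_zero]]
  rw [e1]
  linarith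

theorem TQ_sub_le (hE : QPic E 𝒬 𝓗) (hW : IsOpen W) (hWc : Convex ℝ W) (hf : Cc 𝓗 W f)
    (hg : Cc 𝓗 W g) :
    TQ E W 𝒬 (fun q => f q - g q) ≤ 2 * TQ E W 𝒬 f + 2 * TQ E W 𝒬 g := by
  have h1 := TQ_add_le hE hW hWc hf (hg.const_mul (-1))
  have h2 := TQ_const_mul_le hE hW hWc hg (-1)
  have e : (fun q => f q + -1 * g q) = fun q => f q - g q := by funext q; ring
  rw [e] at h1
  linarith

/-- products: the first factor has compact support -/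
theorem TQ_mul_le (hE : QPic E 𝒬 𝓗) (hW : IsOpen W) (hWc : Convex ℝ W) (hf : Cc 𝓗 W f)
    (hg : Cc 𝓗 W g) {A B : ℝ} (hA0 : 0 ≤ A) (hB0 : 0 ≤ B) (hA : ∀ p ∈ W, |f p| ≤ A)
    (hB : ∀ p ∈ W, |g p| ≤ B) :
    TQ E W 𝒬 (fun q => f q * g q) ≤ 2 * A ^ 2 * TQ E W 𝒬 g + 2 * B ^ 2 * TQ E W 𝒬 f := by
  obtain ⟨S, hS, h1, h2⟩ := hf.two hg
  obtain ⟨R, hR, hRv, hRW, hRE⟩ := transfer hE hW hS
  have e1 := (hf.1.mono (Subset.refl 𝓗) (hRW.trans sdiff_subset)).En_mul_le hR hRv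
    (hg.1.mono (Subset.refl 𝓗) (hRW.trans sdiff_subset)) (fun p hp => hA p (hRW hp).1)
    (fun p hp => hB p (hRW hp).1)
  have e2 := Ch_mul_le hE hWc hf.1 hg.1 hA0 hB0 (fun p hp => hA p hp.2) (fun p hp => hB p hp.2)
  unfold TQ
  rw [hRE f h1, hRE g h2, hRE (fun q => f q * g q) fun p hp hpS => by
    rw [h1 p hp hpS, zero_mul]]
  linarith

/-- The class for the layer lemma. -/
noncomputable def clsQ (hE : QPic E 𝒬 𝓗) (hW : IsOpen W) (hWc : Convex ℝ W) :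
    Lay_925.Cls (ℝ × ℝ) where
  P := Cc 𝓗 W
  E := TQ E W 𝒬
  zero := Cc_zero
  E_zero := TQ_zero.le
  max' := fun _ _ hf hg => hf.max hg
  E_max := fun _ _ hf hg => TQ_max_le hE hW hWc hf hg
  conv := fun _ _ hf hg s t _ _ _ => (hf.const_mul s).add (hg.const_mul t)
  E_conv := fun _ _ hf hg _ _ hs ht hst => TQ_convex hE hW hWc hf hg hs ht hst

end Crest.Agent.R105.Cq_463
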