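import Crest.Agent.R105.Nal0_649
import Crest.Agent.R105.Cq3_463
import Crest.Agent.R105.Thin1_891

/-!
# Row 105 (S0138, PP with solids), FAMQ, part b ((4) of 649 #10005); helper306

A compact family `g` of components of `E` crossing `Bm < Bp` (literals of Nal0_649).  If every
subfamily `g'` satisfies the bound `m(g', N) ≤ K |squares meeting N|` and the members which are
solids are null at one of the two ends, then `m(g, N) = 0`: the `n` biggest solids are removed by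
maxima of cut-offs, and the rest lives in an open set which does not meet the `n` biggest squares.
-/

set_option autoImplicit false

namespace Crest.Agent.R105.Famq_306

open Set Filter MeasureTheory Topology Metric
open CF_363 Stp_722 Cq_463 Thin_891 Nal_649
open Skp2_257 (Comps Lo Up)

/-- `c` bounds the total area of the squares which meet `N` -/
def SqIn (𝒬 : Set Sqr) (N : Set (ℝ × ℝ)) (c : ℝ) : Prop :=
  ∀ F : Finset Sqr, (∀ Q ∈ F, Q ∈ 𝒬 ∧ (Q.car ∩ N).Nonempty) → ∑ Q ∈ F, Q.s ^ 2 ≤ c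

/-- part a: the bound of the conductance by the area of the squares (`K = A² / (Bp - Bm)²`) -/
def BoundQ (E : Set (ℝ × ℝ)) (𝒬 : Set Sqr) (𝓗 : Set Hair) (g : Set (Set (ℝ × ℝ)))
    (Bm Bp K : ℝ) : Prop :=
  ∀ N, IsOpen N → ⋃₀ g ⊆ N → ∀ c, SqIn 𝒬 N c → ∀ η > 0,
    ∃ zm zp, PairQ E 𝒬 𝓗 g Bm Bp N (K * c + η) zm zp

variable {E W N N' : Set (ℝ × ℝ)} {𝒬 : Set Sqr} {𝓗 : Set Hair} {g g' : Set (Set (ℝ × ℝ))}
  {Bm Bp ε ε' : ℝ} {z z' zm zp : ℝ × ℝ → ℝ} {P : Set (ℝ × ℝ)}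

theorem isOpen_Lo (B : ℝ) : IsOpen (Lo B) := isOpen_lt continuous_snd continuous_const

theorem isOpen_Up (B : ℝ) : IsOpen (Up B) := isOpen_lt continuous_const continuous_snd

theorem convex_Lo (B : ℝ) : Convex ℝ (Lo B) := by
  have : Lo B = Prod.snd ⁻¹' Iio B := rfl
  rw [this]
  exact (convex_Iio B).linear_preimage (LinearMap.snd ℝ ℝ ℝ)

theorem convex_Up (B : ℝ) : Convex ℝ (Up B) := by
  have : Up B = Prod.snd ⁻¹' Ioi B := rfl
  rw [this]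
  exact (convex_Ioi B).linear_preimage (LinearMap.snd ℝ ℝ ℝ)

theorem half_cc (h : HalfQ E 𝒬 𝓗 W N ε z) : Cc 𝓗 W z := by
  obtain ⟨S, hS, -, h0⟩ := h.sp
  exact ⟨h.cf, S, hS, h0⟩

theorem half_mono (h : HalfQ E 𝒬 𝓗 W N ε z) (hN : N ⊆ N') (hε : ε ≤ ε') :
    HalfQ E 𝒬 𝓗 W N' ε' z where
  cf := h.cf
  rg := h.rg
  sp := by
    obtain ⟨S, hS, hSN, h0⟩ := h.sp
    exact ⟨S, hS, hSN.trans hN, h0⟩
  en := h.en.trans hε

theorem half_max (h : HalfQ E 𝒬 𝓗 W N ε z) (h' : HalfQ E 𝒬 𝓗 W N ε' z') (hE : QPic E 𝒬 𝓗)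
    (hW : IsOpen W) (hWc : Convex ℝ W) :
    HalfQ E 𝒬 𝓗 W N (ε + ε') (fun p => Max.max (z p) (z' p)) where
  cf := h.cf.max h'.cf
  rg := fun p => ⟨(h.rg p).1.trans (le_max_left _ _), max_le (h.rg p).2 (h'.rg p).2⟩
  sp := by
    obtain ⟨S, hS, hSN, h0⟩ := h.sp
    obtain ⟨S', hS', hSN', h0'⟩ := h'.sp
    refine ⟨S ∪ S', hS.union hS', union_subset hSN hSN', fun p hp hpS => ?_⟩
    rw [h0 p hp fun h => hpS (Or.inl h), h0' p hp fun h => hpS (Or.inr h), max_self]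
  en := (TQ_max_le hE hW hWc (half_cc h) (half_cc h')).trans (add_le_add h.en h'.en)

theorem pair_mono (h : PairQ E 𝒬 𝓗 g Bm Bp N ε zm zp) (hN : N ⊆ N') (hε : ε ≤ ε') :
    PairQ E 𝒬 𝓗 g Bm Bp N' ε' zm zp :=
  ⟨half_mono h.m hN hε, half_mono h.p hN hε, h.key⟩

/-- subfamily of the members which do not meet a clopen piece -/
theorem compact_sub (hg : g ⊆ Comps E) (hc : IsCompact (⋃₀ g)) {S : Set (ℝ × ℝ)}
    (hS : Piece E S) : IsCompact (⋃₀ {K | K ∈ g ∧ Disjoint K S}) := by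
  have h1 : ⋃₀ {K | K ∈ g ∧ Disjoint K S} = ⋃₀ g ∩ (E \ S) := by
    ext p
    constructor
    · rintro ⟨K, ⟨hK, hKS⟩, hp⟩
      obtain ⟨q, hq, rfl⟩ := hg hK
      exact ⟨⟨_, hK, hp⟩, connectedComponentIn_subset _ _ hp, disjoint_left.1 hKS hp⟩
    · rintro ⟨⟨K, hK, hp⟩, hpE, hpS⟩
      refine ⟨K, ⟨hK, ?_⟩, hp⟩
      rw [disjoint_left]
      intro q hq hqS
      obtain ⟨r, hr, rfl⟩ := hg hK
      exact hpS (hS.component_subset' ⟨q, hq, hqS⟩ hp)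
  rw [h1]
  exact hc.inter hS.cpt'

/-- **removal of one member which is null at one end** -/
theorem remove_one (hE : QPic E 𝒬 𝓗) (hg : FamQ E g Bm Bp) (hP : P ∈ g)
    (hnull : NullLo E 𝒬 𝓗 P Bm ∨ NullUp E 𝒬 𝓗 P Bp) (hN : IsOpen N) (hgN : ⋃₀ g ⊆ N)
    (hε' : 0 < ε') :
    ∃ g', g' ⊆ g ∧ IsCompact (⋃₀ g') ∧ P ∉ g' ∧
      ∀ e zm zp, PairQ E 𝒬 𝓗 g' Bm Bp N e zm zp →
        ∃ zm zp, PairQ E 𝒬 𝓗 g Bm Bp N (e + ε') zm zp := by
  have hPN : P ⊆ N := (subset_sUnion_of_mem hP).trans hgN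
  obtain ⟨x, hx, hPx⟩ := hg.sub hP
  have hne : P.Nonempty := ⟨x, by rw [hPx]; exact mem_connectedComponentIn hx⟩
  rcases hnull with hn | hn
  · obtain ⟨z, hz, O, hO, hPO, hz1⟩ := hn N hN hPN ε' hε'
    obtain ⟨S, hS, hPS, hSU⟩ := exists_piece hE.cpt hx (hO.union (isOpen_Up Bm))
      (by
        rw [← hPx]
        intro p hp
        rcases le_or_gt p.2 Bm with h | h
        · exact Or.inl (hPO ⟨hp, h⟩)
        · exact Or.inr h)
    rw [← hPx] at hPS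
    refine ⟨{K | K ∈ g ∧ Disjoint K S}, fun K hK => hK.1, compact_sub hg.sub hg.cpt hS, ?_, ?_⟩
    · rintro ⟨-, hd⟩
      obtain ⟨p, hp⟩ := hne
      exact disjoint_left.1 hd hp (hPS hp)
    · intro e zm zp h
      refine ⟨fun p => max (zm p) (z p), zp, half_max h.m hz hE (isOpen_Lo _) (convex_Lo _),
        half_mono h.p Subset.rfl (by linarith), ?_⟩
      intro K hK
      by_cases hd : Disjoint K S
      · obtain ⟨O', hO', hKO', hk⟩ := h.key K ⟨hK, hd⟩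
        exact ⟨O', hO', hKO', fun p hp hpl q hq hqu =>
          (hk p hp hpl q hq hqu).trans (by gcongr; exact le_max_left _ _)⟩
      · obtain ⟨q, hqK, hqS⟩ := not_disjoint_iff.1 hd
        have hKS : K ⊆ S := by
          obtain ⟨r, hr, rfl⟩ := hg.sub hK
          exact hS.component_subset' ⟨q, hqK, hqS⟩
        refine ⟨O ∪ Up Bm, hO.union (isOpen_Up Bm), hKS.trans hSU, fun p hp hpl q hq hqu => ?_⟩
        have hpO : p ∈ O := hp.1.resolve_right fun h => lt_asymm (show p.2 < Bm from hpl) h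
        have h1 : z p = 1 := hz1 p ⟨hpO, hp.2⟩ hpl
        have h2 := (h.p.rg q).1
        have h3 : z p ≤ max (zm p) (z p) := le_max_right _ _
        linarith
  · obtain ⟨z, hz, O, hO, hPO, hz1⟩ := hn N hN hPN ε' hε'
    obtain ⟨S, hS, hPS, hSU⟩ := exists_piece hE.cpt hx (hO.union (isOpen_Lo Bp))
      (by
        rw [← hPx]
        intro p hp
        rcases le_or_gt Bp p.2 with h | h
        · exact Or.inl (hPO ⟨hp, h⟩)
        · exact Or.inr h)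
    rw [← hPx] at hPS
    refine ⟨{K | K ∈ g ∧ Disjoint K S}, fun K hK => hK.1, compact_sub hg.sub hg.cpt hS, ?_, ?_⟩
    · rintro ⟨-, hd⟩
      obtain ⟨p, hp⟩ := hne
      exact disjoint_left.1 hd hp (hPS hp)
    · intro e zm zp h
      refine ⟨zm, fun p => max (zp p) (z p), half_mono h.m Subset.rfl (by linarith),
        half_max h.p hz hE (isOpen_Up _) (convex_Up _), ?_⟩
      intro K hK
      by_cases hd : Disjoint K S
      · obtain ⟨O', hO', hKO', hk⟩ := h.key K ⟨hK, hd⟩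
        exact ⟨O', hO', hKO', fun p hp hpl q hq hqu =>
          (hk p hp hpl q hq hqu).trans (by gcongr; exact le_max_left _ _)⟩
      · obtain ⟨q, hqK, hqS⟩ := not_disjoint_iff.1 hd
        have hKS : K ⊆ S := by
          obtain ⟨r, hr, rfl⟩ := hg.sub hK
          exact hS.component_subset' ⟨q, hqK, hqS⟩
        refine ⟨O ∪ Lo Bp, hO.union (isOpen_Lo Bp), hKS.trans hSU, fun p hp hpl q hq hqu => ?_⟩
        have hqO : q ∈ O := hq.1.resolve_right fun h => lt_asymm (show Bp < q.2 from hqu) h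
        have h1 : z q = 1 := hz1 q ⟨hqO, hq.2⟩ hqu
        have h2 := (h.m.rg p).1
        have h3 : z q ≤ max (zp q) (z q) := le_max_right _ _
        linarith

/-- the component of a square is determined by the square -/
theorem comp_unique {K K' : Set (ℝ × ℝ)} (hK : K ∈ Comps E) (hK' : K' ∈ Comps E)
    (h : (K ∩ K').Nonempty) : K = K' := by
  obtain ⟨p, hp, rfl⟩ := hK
  obtain ⟨p', hp', rfl⟩ := hK'
  obtain ⟨q, hq, hq'⟩ := h
  exact (connectedComponentIn_eq hq).trans (connectedComponentIn_eq hq').symm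

/-- **removal of finitely many solids** -/
theorem remove (hE : QPic E 𝒬 𝓗) (T : Finset Sqr) :
    ∀ g, FamQ E g Bm Bp →
      (∀ P ∈ g, ∀ Q ∈ T, Q.car ⊆ P → NullLo E 𝒬 𝓗 P Bm ∨ NullUp E 𝒬 𝓗 P Bp) →
      ∀ N, IsOpen N → ⋃₀ g ⊆ N → ∀ ε' > 0,
      ∃ g', g' ⊆ g ∧ IsCompact (⋃₀ g') ∧ (∀ P ∈ g', ∀ Q ∈ T, ¬ Q.car ⊆ P) ∧
        ∀ e zm zp, PairQ E 𝒬 𝓗 g' Bm Bp N e zm zp →
          ∃ zm zp, PairQ E 𝒬 𝓗 g Bm Bp N (e + ε') zm zp := by
  classical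
  induction T using Finset.induction_on with
  | empty =>
    intro g hg _ N hN hgN ε' hε'
    exact ⟨g, Subset.rfl, hg.cpt, by simp, fun e zm zp h => ⟨zm, zp, pair_mono h Subset.rfl (by linarith)⟩⟩
  | insert Q T hQ ih =>
    intro g hg hnull N hN hgN ε' hε'
    by_cases hex : ∃ P ∈ g, Q.car ⊆ P
    · obtain ⟨P, hP, hQP⟩ := hex
      obtain ⟨g₁, hg₁, hc₁, hPg₁, hpair₁⟩ := remove_one hE hg hP
        (hnull P hP Q (Finset.mem_insert_self _ _) hQP) hN hgN (half_pos hε')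
      have hfam₁ : FamQ E g₁ Bm Bp := ⟨hg.lt, hg₁.trans hg.sub, hc₁, fun K hK => hg.crs K (hg₁ hK)⟩
      obtain ⟨g₂, hg₂, hc₂, hT₂, hpair₂⟩ := ih g₁ hfam₁
        (fun K hK Q' hQ' h => hnull K (hg₁ hK) Q' (Finset.mem_insert_of_mem hQ') h)
        N hN ((sUnion_subset_sUnion hg₁).trans hgN) (ε' / 2) (half_pos hε')
      refine ⟨g₂, hg₂.trans hg₁, hc₂, ?_, ?_⟩
      · intro K hK Q' hQ' hQK
        rcases Finset.mem_insert.1 hQ' with rfl | hQ'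
        · obtain ⟨p, hp⟩ := Q'.nonempty
          have hKP : K = P := comp_unique (hg.sub (hg₁ (hg₂ hK))) (hg.sub hP)
            ⟨p, hQK hp, hQP hp⟩
          exact hPg₁ (hKP ▸ hg₂ hK)
        · exact hT₂ K hK Q' hQ' hQK
      · intro e zm zp h
        obtain ⟨zm', zp', h'⟩ := hpair₂ e zm zp h
        obtain ⟨zm'', zp'', h''⟩ := hpair₁ _ zm' zp' h'
        exact ⟨zm'', zp'', pair_mono h'' Subset.rfl (by linarith)⟩
    · obtain ⟨g₂, hg₂, hc₂, hT₂, hpair₂⟩ := ih g hg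
        (fun K hK Q' hQ' h => hnull K hK Q' (Finset.mem_insert_of_mem hQ') h) N hN hgN ε' hε'
      refine ⟨g₂, hg₂, hc₂, ?_, hpair₂⟩
      intro K hK Q' hQ' hQK
      rcases Finset.mem_insert.1 hQ' with rfl | hQ'
      · exact hex ⟨K, hg₂ hK, hQK⟩
      · exact hT₂ K hK Q' hQ' hQK

/-- squares lie in one component each -/
theorem sq_in_comp (hE : QPic E 𝒬 𝓗) {Q : Sqr} (hQ : Q ∈ 𝒬) {K : Set (ℝ × ℝ)}
    (hK : K ∈ Comps E) (h : (Q.car ∩ K).Nonempty) : Q.car ⊆ K := by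
  obtain ⟨p, hp, rfl⟩ := hK
  obtain ⟨q, hq, hqK⟩ := h
  rw [connectedComponentIn_eq hqK]
  exact Q.convex_car.isPreconnected.subset_connectedComponentIn hq (hE.sub Q hQ)

/-- **FAM-b**: families are null. -/
theorem fam_null (hE : QPic E 𝒬 𝓗) (hg : FamQ E g Bm Bp)
    (hnull : ∀ P ∈ g, ∀ Q ∈ 𝒬, Q.car ⊆ P → NullLo E 𝒬 𝓗 P Bm ∨ NullUp E 𝒬 𝓗 P Bp)
    {K : ℝ} (hK : 0 ≤ K) (hbd : ∀ g' ⊆ g, IsCompact (⋃₀ g') → BoundQ E 𝒬 𝓗 g' Bm Bp K) :
    NullNQ E 𝒬 𝓗 g Bm Bp := by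
  classical
  intro N hN hgN ε hε
  set δ : ℝ := ε / (4 * (K + 1)) with hδ
  have hδ0 : 0 < δ := by positivity
  -- the biggest squares
  obtain ⟨T₀, hT₀⟩ := (summable_iff_vanishing_norm.1 hE.summable_sq) δ hδ0
  set T : Finset Sqr := T₀.map (Function.Embedding.subtype _) with hT
  have hTQ : ∀ Q ∈ T, Q ∈ 𝒬 := by
    intro Q hQ
    obtain ⟨Q', -, rfl⟩ := Finset.mem_map.1 hQ
    exact Q'.2
  obtain ⟨g', hg', hc', hT', hpair⟩ := remove (Bm := Bm) (Bp := Bp) hE T g hg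
    (fun P hP Q hQ h => hnull P hP Q (hTQ Q hQ) h) N hN hgN (ε / 4) (by positivity)
  -- the smaller neighbourhood
  set N' : Set (ℝ × ℝ) := N \ ⋃ Q ∈ T, Q.car with hN'
  have hN'o : IsOpen N' :=
    hN.sdiff (isClosed_biUnion_finset fun Q _ => Q.isCompact_car.isClosed)
  have hgN' : ⋃₀ g' ⊆ N' := by
    rintro p ⟨K, hK, hp⟩
    refine ⟨hgN ⟨K, hg' hK, hp⟩, fun h => ?_⟩
    obtain ⟨Q, hQ, hpQ⟩ := mem_iUnion₂.1 h
    exact hT' K hK Q hQ (sq_in_comp hE (hTQ Q hQ) (hg.sub (hg' hK)) ⟨p, hpQ, hp⟩)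
  have hsq : SqIn 𝒬 N' δ := by
    intro F hF
    have h1 : ∀ Q ∈ F, Q ∈ 𝒬 := fun Q hQ => (hF Q hQ).1
    set F₀ : Finset 𝒬 := F.subtype (· ∈ 𝒬) with hF₀
    have hdis : Disjoint F₀ T₀ := by
      rw [Finset.disjoint_left]
      intro Q hQ hQT
      have h2 : Q.1 ∈ F := (Finset.mem_subtype.1 hQ)
      obtain ⟨p, hpQ, hpN, hpT⟩ := (hF Q.1 h2).2
      exact hpT (mem_iUnion₂.2 ⟨Q.1, Finset.mem_map.2 ⟨Q, hQT, rfl⟩, hpQ⟩)
    have h2 := hT₀ F₀ hdis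
    have h3 : ∑ Q ∈ F, Q.s ^ 2 = ∑ Q ∈ F₀, Q.1.s ^ 2 := by
      rw [hF₀, Finset.sum_subtype_of_mem (fun Q : Sqr => Q.s ^ 2) h1]
    rw [h3]
    rw [Real.norm_eq_abs] at h2
    exact (le_abs_self _).trans h2.le
  obtain ⟨zm, zp, hz⟩ := hbd g' hg' hc' N' hN'o hgN' δ hsq (ε / 4) (by positivity)
  have hz' : PairQ E 𝒬 𝓗 g' Bm Bp N (ε / 2) zm zp := by
    refine pair_mono hz sdiff_subset ?_
    have : K * δ ≤ ε / 4 := by
      rw [hδ, mul_div_assoc', div_le_div_iff₀ (by positivity) (by norm_num)]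
      nlinarith
    linarith
  obtain ⟨zm', zp', h'⟩ := hpair _ zm zp hz'
  exact ⟨zm', zp', pair_mono h' Subset.rfl (by linarith)⟩

end Crest.Agent.R105.Famq_306
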