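import Crest.Agent.R105.Fnc2_189
import Crest.Agent.R105.Cq3_463

/-!
# Row 105 (S0138, picture with solids): LAY-Q = (5) of #10005, over 463's class `Cc`, `TQ`

The finite layer lemma of `Fnc1_189` for the energy with the charges of the exact squares.
-/

set_option autoImplicit false

namespace Crest.Agent.R105.Fnc_189

open Set Filter MeasureTheory Topology
open Crest.Agent.R105.CF_363 Crest.Agent.R105.Stp_722 Crest.Agent.R105.Cq_463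
open scoped ENNReal

variable {E W W' : Set (ℝ × ℝ)} {𝒬 : Set Sqr} {𝓗 : Set Hair} {f g : ℝ × ℝ → ℝ}

/-- multiplication by the indicator of one of two disjoint open sets carrying the support -/
theorem Cc_cut {N₁ N₂ : Set (ℝ × ℝ)} (hN₁ : IsOpen N₁) (hN₂ : IsOpen N₂) (hd : Disjoint N₁ N₂)
    (hs : Sup W (N₁ ∪ N₂) f) (hf : Cc 𝓗 W f) : Cc 𝓗 W (N₁.indicator f) := by
  classical
  obtain ⟨S, hS, hSN, h0⟩ := hs
  refine ⟨hf.1.indicator (A := Sᶜ ∪ N₂) hN₁ (hS.isClosed.isOpen_compl.union hN₂) ?_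
    inter_subset_left ?_, S, hS, ?_⟩
  · intro p _
    by_cases hp : p ∈ S
    · rcases hSN hp with h | h
      · exact Or.inl h
      · exact Or.inr (Or.inr h)
    · exact Or.inr (Or.inl hp)
  · rintro p ⟨⟨hpW, hp1⟩, h | h⟩
    · exact h0 p hpW h
    · exact absurd h (Set.disjoint_left.1 hd hp1)
  · intro p hpW hpS
    by_cases hp : p ∈ N₁
    · rw [indicator_of_mem hp, h0 p hpW hpS]
    · rw [indicator_of_notMem hp]

theorem lip_cap {c : ℝ} (hc : 0 < c) (s t : ℝ) : |min s c / c - min t c / c| ≤ c⁻¹ * |s - t| := by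
  rw [← sub_div, abs_div, abs_of_pos hc, div_eq_inv_mul]
  refine mul_le_mul_of_nonneg_left ?_ (inv_nonneg.2 hc.le)
  have := abs_min_sub_min_le_max s c t c
  simpa using this

theorem TQ_cap (hE : QPic E 𝒬 𝓗) (hW : IsOpen W) (hWc : Convex ℝ W) (hf : Cc 𝓗 W f) {c : ℝ}
    (hc : 0 < c) : TQ E W 𝒬 (fun x => min (f x) c / c) ≤ TQ E W 𝒬 f / c ^ 2 := by
  have e2 := Ch_comp_le (𝒬 := 𝒬) hE hWc hf.1 (G := fun t => min t c / c)
    (inv_nonneg.2 hc.le) (lip_cap hc)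
  obtain ⟨h1, S, hS, h2⟩ := hf
  obtain ⟨R, hR, hRv, hRW, hRE⟩ := transfer hE hW hS
  have hm := h1.mono (Subset.refl 𝓗) (hRW.trans sdiff_subset)
  have e1 : En R (fun x => min (f x) c / c) ≤ (c⁻¹) ^ 2 * En R f := by
    have e3 : En R (fun q => Min.min (f q) ((fun _ : ℝ × ℝ => c) q)) ≤
        En R f + En R (fun _ : ℝ × ℝ => c) := hm.En_min_le hR hRv (CFJ_const c)
    rw [En_const, add_zero] at e3
    have e4 : En R (fun q => c⁻¹ * min (f q) c) = (c⁻¹) ^ 2 * En R (fun q => min (f q) c) :=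
      (hm.min (CFJ_const c)).En_const_mul hR c⁻¹
    have e5 : (fun x => min (f x) c / c) = fun q => c⁻¹ * min (f q) c := by
      funext x; rw [div_eq_inv_mul]
    rw [e5, e4]
    exact mul_le_mul_of_nonneg_left e3 (sq_nonneg _)
  unfold TQ
  rw [hRE f h2, hRE (fun x => min (f x) c / c) fun p hp hpS => by
    rw [h2 p hp hpS, min_eq_left hc.le, zero_div]]
  have e6 : (c⁻¹) ^ 2 * En R f + (c⁻¹) ^ 2 * Ch E W 𝒬 f = (En R f + Ch E W 𝒬 f) / c ^ 2 := by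
    rw [inv_pow]; field_simp
  rw [← e6]
  exact add_le_add e1 e2

/-- locality of the gradient part -/
theorem En_loc (hE : QPic E 𝒬 𝓗) (hW : IsOpen W) {Z w z : ℝ × ℝ → ℝ} (hZ : Cc 𝓗 W Z)
    (hw : Cc 𝓗 W w) (hz : Cc 𝓗 W z)
    (hloc : ∀ x ∈ W \ E, ∃ O, IsOpen O ∧ x ∈ O ∧
      ((∀ y ∈ O ∩ (W \ E), z y = 1 + w y) ∨ ∀ y ∈ O ∩ (W \ E), z y = max (Z y) (w y))) :
    En (W \ E) z ≤ En (W \ E) Z + En (W \ E) w := by
  obtain ⟨S, hS, h1, h2⟩ := hZ.two hw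
  obtain ⟨-, T, hT, h3⟩ := hz
  obtain ⟨R, hR, hRv, hRW, hRE⟩ := transfer hE hW (hS.union hT)
  rw [hRE Z fun p hp hpS => h1 p hp fun h => hpS (Or.inl h),
    hRE w fun p hp hpS => h2 p hp fun h => hpS (Or.inl h),
    hRE z fun p hp hpS => h3 p hp fun h => hpS (Or.inr h)]
  obtain ⟨J, hJ, ⟨L, C, hL, hs, -⟩, ⟨L', C', hL', hs', -⟩⟩ := hZ.1.two hw.1
  have hU : IsOpen (W \ cut J) := isOpen_diff_cut hW J
  have hRc : R \ cut J ⊆ W \ cut J := sdiff_subset_sdiff_left (hRW.trans sdiff_subset)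
  have i1 : IntegrableOn (g2 Z) R :=
    (hs.mono hRc).integrableOn_g2 hR (isClosed_cut J) (volume_cut J) hRv
  have i2 : IntegrableOn (g2 w) R :=
    (hs'.mono hRc).integrableOn_g2 hR (isClosed_cut J) (volume_cut J) hRv
  have hmain : ∀ᵐ p ∂(volume.restrict R), g2 z p ≤ g2 Z p + g2 w p := by
    refine ae_restrict_of_diff hR (volume_cut J) ?_
    filter_upwards [hs.ae_max_min hs' hU] with p hp hpR
    have hpW : p ∈ W \ E := hRW hpR.1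
    obtain ⟨-, -, ha, hb⟩ := hp (hRc hpR)
    obtain ⟨O, hO, hpO, hO2⟩ := hloc p hpW
    have hWE : IsOpen (W \ E) := hW.sdiff hE.cpt.isClosed
    have hnh : O ∩ (W \ E) ∈ 𝓝 p := (hO.inter hWE).mem_nhds ⟨hpO, hpW⟩
    have n1 := g2_nonneg Z p
    have n2 := g2_nonneg w p
    rcases hO2 with h | h
    · have he : z =ᶠ[𝓝 p] fun y => 1 + w y := by
        filter_upwards [hnh] with y hy using h y hy
      have e : g2 z p = g2 w p := by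
        unfold g2
        rw [gx_congr he, gy_congr he]
        simp only [gx, gy, fderiv_const_add]
      linarith
    · have he : z =ᶠ[𝓝 p] fun y => max (Z y) (w y) := by
        filter_upwards [hnh] with y hy using h y hy
      have e : g2 z p = g2 (fun y => max (Z y) (w y)) p := by
        unfold g2
        rw [gx_congr he, gy_congr he]
      rw [e]
      rcases le_total (w p) (Z p) with h' | h'
      · obtain ⟨a1, a2, -, -⟩ := ha h'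
        have : g2 (fun y => max (Z y) (w y)) p = g2 Z p := by unfold g2; rw [a1, a2]
        linarith
      · obtain ⟨a1, a2, -, -⟩ := hb h'
        have : g2 (fun y => max (Z y) (w y)) p = g2 w p := by unfold g2; rw [a1, a2]
        linarith
  unfold En
  rw [← integral_add i1 i2]
  exact integral_mono_of_nonneg (Eventually.of_forall fun p => g2_nonneg z p) (i1.add i2) hmain

/-- locality of `TQ` -/
theorem TQ_loc (hE : QPic E 𝒬 𝓗) (hW : IsOpen W) (hWc : Convex ℝ W) {H : Set (Set (ℝ × ℝ))}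
    (hH : ∀ Q ∈ 𝒬, ∃ K ∈ H, Q.car ⊆ K) {Z w z : ℝ × ℝ → ℝ} (hZ : Cc 𝓗 W Z)
    (hw : Cc 𝓗 W w) (hz : Cc 𝓗 W z) (hloc : Loc H (W \ E) Z w z) :
    TQ E W 𝒬 z ≤ TQ E W 𝒬 Z + TQ E W 𝒬 w := by
  have e1 : En (W \ E) z ≤ En (W \ E) Z + En (W \ E) w := by
    refine En_loc hE hW hZ hw hz fun x hx => ?_
    obtain ⟨O, hO, hxO, h⟩ := hloc {x} (Or.inr ⟨x, hx, rfl⟩)
    exact ⟨O, hO, singleton_subset_iff.1 hxO, h⟩
  have e2 : Ch E W 𝒬 z ≤ Ch E W 𝒬 Z + Ch E W 𝒬 w := by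
    have := Ch_le_of_le (a := 1) (b := 1) hE hWc hz.1 hZ.1 hw.1 (fun Q hQ => by
      obtain ⟨K, hK, hQK⟩ := hH Q hQ
      obtain ⟨O, hO, hKO, h⟩ := hloc K (Or.inl hK)
      have hPO : Q.car ∩ closure W ⊆ O := inter_subset_left.trans (hQK.trans hKO)
      have n1 : 0 ≤ ch E W Z Q := ch_nonneg _ _ _ _
      have n2 : 0 ≤ ch E W w Q := ch_nonneg _ _ _ _
      have n3 : 0 ≤ ch E W z Q := ch_nonneg _ _ _ _
      have conv : ∀ q ∈ O ∩ (Eᶜ ∩ W), q ∈ O ∩ (W \ E) := fun q hq => ⟨hq.1, hq.2.2, hq.2.1⟩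
      rcases h with h | h
      · have k1 : ch E W z Q = chg (Eᶜ ∩ W) (Q.car ∩ closure W) (fun q => 1 + w q) :=
          chg_congr hO hPO fun q hq => h q (conv q hq)
        have k2 : chg (Eᶜ ∩ W) (Q.car ∩ closure W) (fun q => 1 + w q) ≤ 1 * ch E W w Q :=
          chg_comp (G := fun t => 1 + t) zero_le_one (fun s t => by simp)
            (CFJ.fin hE hw.1 _)
        have k3 : ch E W z Q ≤ ch E W w Q := by rw [k1]; linarith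
        nlinarith [pow_le_pow_left₀ n3 k3 2, sq_nonneg (ch E W Z Q)]
      · have k1 : ch E W z Q = chg (Eᶜ ∩ W) (Q.car ∩ closure W) (fun q => max (Z q) (w q)) :=
          chg_congr hO hPO fun q hq => h q (conv q hq)
        have k2 : chg (Eᶜ ∩ W) (Q.car ∩ closure W) (fun q => max (Z q) (w q)) ≤
            max (ch E W Z Q) (ch E W w Q) :=
          chg_max (CFJ.fin hE hZ.1 _) (CFJ.fin hE hw.1 _)
        have k3 : ch E W z Q ≤ max (ch E W Z Q) (ch E W w Q) := by rw [k1]; exact k2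
        rcases le_max_iff.1 k3 with k | k
        · nlinarith [pow_le_pow_left₀ n3 k 2, sq_nonneg (ch E W w Q)]
        · nlinarith [pow_le_pow_left₀ n3 k 2, sq_nonneg (ch E W Z Q)])
    linarith
  unfold TQ
  linarith

/-- the class of the finite layer lemma for `TQ`. -/
noncomputable def lclsQ (hE : QPic E 𝒬 𝓗) (hW : IsOpen W) (hWc : Convex ℝ W)
    {H : Set (Set (ℝ × ℝ))} (hH : ∀ Q ∈ 𝒬, ∃ K ∈ H, Q.car ⊆ K) : LCls H W (W \ E) where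
  P := Cc 𝓗 W
  E := TQ E W 𝒬
  zero := Cc_zero
  E_zero := (TQ_zero (E := E) (W := W) (𝒬 := 𝒬)).le
  add := fun _ _ hf hg => hf.add hg
  sup := fun _ _ hf hg => hf.max hg
  cut := fun _ _ _ h1 h2 hd hs hf => Cc_cut h1 h2 hd hs hf
  cap := fun _ hf _ c hc => hf.comp (G := fun t => min t c / c) (inv_nonneg.2 hc.le)
    (lip_cap hc) (by simp only [min_eq_left hc.le, zero_div])
  E_cap := fun _ hf _ _ hc => TQ_cap hE hW hWc hf hc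
  E_loc := fun _ _ _ hZ hw hz _ _ _ h => TQ_loc hE hW hWc hH hZ hw hz h

/-- the components of `E` -/
def Cmp (E : Set (ℝ × ℝ)) : Set (Set (ℝ × ℝ)) := {P | ∃ p ∈ E, P = connectedComponentIn E p}

theorem sqr_sub_cmp (hE : QPic E 𝒬 𝓗) : ∀ Q ∈ 𝒬, ∃ K ∈ Cmp E, Q.car ⊆ K := by
  intro Q hQ
  obtain ⟨q, hq⟩ := Q.nonempty
  exact ⟨_, ⟨q, hE.sub Q hQ hq, rfl⟩,
    Q.convex_car.isPreconnected.subset_connectedComponentIn hq (hE.sub Q hQ)⟩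

/-- one half of a test pair with charges: class, range, support in `N`, energy `≤ ε` -/
structure HalfQ (E W : Set (ℝ × ℝ)) (𝒬 : Set Sqr) (𝓗 : Set Hair) (N : Set (ℝ × ℝ)) (ε : ℝ)
    (z : ℝ × ℝ → ℝ) : Prop where
  cf : CFJ 𝓗 W z
  rg : ∀ p, 0 ≤ z p ∧ z p ≤ 1
  sp : ∃ S, IsCompact S ∧ S ⊆ N ∧ ∀ p ∈ W, p ∉ S → z p = 0
  en : TQ E W 𝒬 z ≤ ε

/-- a test pair with charges for the family `𝒢` of components -/
structure PairQ (E W W' : Set (ℝ × ℝ)) (𝒬 : Set Sqr) (𝓗 : Set Hair) (𝒢 : Set (Set (ℝ × ℝ)))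
    (N : Set (ℝ × ℝ)) (ε : ℝ) (zm zp : ℝ × ℝ → ℝ) : Prop where
  m : HalfQ E W 𝒬 𝓗 N ε zm
  p : HalfQ E W' 𝒬 𝓗 N ε zp
  key : ∀ K ∈ 𝒢, ∃ O, IsOpen O ∧ K ⊆ O ∧
    ∀ p ∈ O \ E, p ∈ W → ∀ q ∈ O \ E, q ∈ W' → (9 / 10 : ℝ) ≤ zm p + zp q

theorem HalfQ.cc {N : Set (ℝ × ℝ)} {ε : ℝ} {z : ℝ × ℝ → ℝ} (h : HalfQ E W 𝒬 𝓗 N ε z) :
    Cc 𝓗 W z := by
  obtain ⟨S, h1, -, h3⟩ := h.sp
  exact ⟨h.cf, S, h1, h3⟩

theorem bdd_of_pairs (hE : QPic E 𝒬 𝓗) (hW : IsOpen W) (hWc : Convex ℝ W) (hW' : IsOpen W')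
    (hWc' : Convex ℝ W') {𝒢 : Set (Set (ℝ × ℝ))} {A : ℝ}
    (hpair : ∀ N, IsOpen N → (∀ K ∈ 𝒢, K ⊆ N) → ∃ zm zp, PairQ E W W' 𝒬 𝓗 𝒢 N A zm zp) :
    Bdd (lclsQ hE hW hWc (sqr_sub_cmp hE)) (lclsQ hE hW' hWc' (sqr_sub_cmp hE)) 𝒢 (9 * A) := by
  intro N hN hGN
  obtain ⟨zm, zp, h⟩ := hpair N hN hGN
  have h3 : (0 : ℝ) < 1 / 3 := by norm_num
  have hc : ∀ {u : ℝ × ℝ → ℝ}, (∀ p, 0 ≤ u p ∧ u p ≤ 1) →
      ∀ x, 0 ≤ min (u x) (1 / 3) / (1 / 3) ∧ min (u x) (1 / 3) / (1 / 3) ≤ 1 := by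
    intro u hu x
    refine ⟨div_nonneg (le_min (hu x).1 h3.le) h3.le, ?_⟩
    rw [div_le_one h3]
    exact min_le_right _ _
  have hsup : ∀ {Q : Set (ℝ × ℝ)} {u : ℝ × ℝ → ℝ}, (∃ S, IsCompact S ∧ S ⊆ N ∧
      ∀ p ∈ Q, p ∉ S → u p = 0) → Sup Q N fun x => min (u x) (1 / 3) / (1 / 3) := by
    rintro Q u ⟨S, h1, h2, h4⟩
    exact ⟨S, h1, h2, fun p hp hpS => by simp only [h4 p hp hpS, min_eq_left h3.le, zero_div]⟩
  have hen : ∀ {e : ℝ}, e ≤ A → e / (1 / 3 : ℝ) ^ 2 ≤ 9 * A := by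
    intro e he
    have : e / (1 / 3 : ℝ) ^ 2 = 9 * e := by ring
    rw [this]; linarith
  refine ⟨fun x => min (zm x) (1 / 3) / (1 / 3), fun x => min (zp x) (1 / 3) / (1 / 3),
    (lclsQ hE hW hWc (sqr_sub_cmp hE)).cap _ h.m.cc (fun x => (h.m.rg x).1) _ h3,
    (lclsQ hE hW' hWc' (sqr_sub_cmp hE)).cap _ h.p.cc (fun x => (h.p.rg x).1) _ h3,
    hc h.m.rg, hc h.p.rg, hsup h.m.sp, hsup h.p.sp,
    (TQ_cap hE hW hWc h.m.cc h3).trans (hen h.m.en),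
    (TQ_cap hE hW' hWc' h.p.cc h3).trans (hen h.p.en), ?_⟩
  intro K hK
  obtain ⟨O, hO, hKO, hk⟩ := h.key K hK
  refine ⟨O, hO, hKO, ?_⟩
  by_cases hcase : ∀ x ∈ O ∩ (W \ E), 1 / 3 ≤ zm x
  · left
    intro x hx
    simp only [min_eq_right (hcase x hx), div_self h3.ne']
  · right
    push Not at hcase
    obtain ⟨p, hp, hp3⟩ := hcase
    intro x hx
    have h5 := hk p ⟨hp.1, hp.2.2⟩ hp.2.1 x ⟨hx.1, hx.2.2⟩ hx.2.1
    have h6 : 1 / 3 ≤ zp x := by linarith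
    simp only [min_eq_right h6, div_self h3.ne']

/-- variation near a component ⟹ `OscLe` -/
theorem oscLe_of_var {P V : Set (ℝ × ℝ)} {z : ℝ × ℝ → ℝ} {r : ℝ}
    (h : ∃ c : ℝ, ∃ O, IsOpen O ∧ P ⊆ O ∧ ∀ x ∈ O ∩ V, c ≤ z x ∧ z x ≤ c + r) :
    OscLe V P z r := by
  obtain ⟨c, O, hO, hPO, hc⟩ := h
  intro ε hε
  refine ⟨O, hO, hPO, fun q hq q' hq' => ?_⟩
  have h1 := hc q hq
  have h2 := hc q' hq'
  rw [abs_le]
  constructor <;> linarith [h1.1, h1.2, h2.1, h2.2]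

/-- **LAY-Q** ((5) of #10005, from UNIFORMLY BOUNDED conductance). -/
theorem layQ (hE : QPic E 𝒬 𝓗) (hW : IsOpen W) (hWc : Convex ℝ W) (hW' : IsOpen W')
    (hWc' : Convex ℝ W') {𝒢 : Set (Set (ℝ × ℝ))} (hG : 𝒢 ⊆ Cmp E) (hc : IsCompact (⋃₀ 𝒢))
    {A : ℝ} (hA : 0 ≤ A)
    (hpair : ∀ N, IsOpen N → ⋃₀ 𝒢 ⊆ N → ∃ zm zp, PairQ E W W' 𝒬 𝓗 𝒢 N A zm zp)
    {M : ℕ} (hM : 1 ≤ M) {N : Set (ℝ × ℝ)} (hN : IsOpen N) (hGN : ⋃₀ 𝒢 ⊆ N) :
    ∃ zm zp, HalfQ E W 𝒬 𝓗 N (18 * A / M) zm ∧ HalfQ E W' 𝒬 𝓗 N (18 * A / M) zp ∧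
      (∀ P ∈ Cmp E, OscLe (Eᶜ ∩ W) P zm (1 / M)) ∧
      (∀ P ∈ Cmp E, OscLe (Eᶜ ∩ W') P zp (1 / M)) ∧
      ∀ K ∈ 𝒢, (∃ O, IsOpen O ∧ K ⊆ O ∧ ∀ p ∈ O \ E, p ∈ W → zm p = 1) ∨
        ∃ O, IsOpen O ∧ K ⊆ O ∧ ∀ p ∈ O \ E, p ∈ W' → zp p = 1 := by
  have hb := bdd_of_pairs hE hW hWc hW' hWc' (𝒢 := 𝒢) (A := A)
    (fun N hN h => hpair N hN (sUnion_subset h))
  obtain ⟨z, z', h1, h2, h3, h4, h5, h6, h7, h8, h9, h10, h11⟩ :=
    layersF (lclsQ hE hW hWc (sqr_sub_cmp hE)) (lclsQ hE hW' hWc' (sqr_sub_cmp hE))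
      sdiff_subset sdiff_subset
      (split_of_compact hE.cpt (fun K hK => hK) (fun K hK => hG hK) hc) (by positivity) hb hM hN
      (fun K hK => (subset_sUnion_of_mem hK).trans hGN)
  have hA' : 2 * (9 * A) / (M : ℝ) = 18 * A / M := by ring
  have hV : ∀ Q : Set (ℝ × ℝ), Eᶜ ∩ Q = Q \ E := fun Q => by
    rw [inter_comm, sdiff_eq]
  refine ⟨z, z', ⟨h1.1, h3, h5, by rw [← hA']; exact h7⟩, ⟨h2.1, h4, h6, by rw [← hA']; exact h8⟩,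
    fun P hP => ?_, fun P hP => ?_, fun K hK => ?_⟩
  · rw [hV]; exact oscLe_of_var (h9 P hP)
  · rw [hV]; exact oscLe_of_var (h10 P hP)
  · obtain ⟨O, hO, hKO, h | h⟩ := h11 K hK
    · exact Or.inl ⟨O, hO, hKO, fun p hp hpW => h p ⟨hp.1, hpW, hp.2⟩⟩
    · exact Or.inr ⟨O, hO, hKO, fun p hp hpW => h p ⟨hp.1, hpW, hp.2⟩⟩

end Crest.Agent.R105.Fnc_189
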