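import Crest.Agent.R105.Ctr1_188
import Crest.Agent.R105.Cq10_463
import Crest.Agent.R105.Famq1_306
import Crest.Agent.R105.Fnc3_189

/-!
# Row 105 (S0138): skeleton of the second half (PP with solids)

Carrier `PicS E 𝒬 𝓗` (992), null families of 649 (`FamQ`, `Win`, `NullNQ`, `NullUp`, `NullLo`),
step / limit of 992 (`StepQ`, `LIMQ`), contradiction of 188 (`ELQ`, `comps_sq`).

Leaves: `LEMAQ` (Lemma A: `SOLO`, `BNDQ`), `STEPQ` (optional: `STEPC`, `SINGLEQ`, `OUTQ`),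
`Exs_992.LIMQ`.
Everything else is assembled here without `sorry`:
`nulls_of` (306), `layOutQ_of` (189), `pp_sq`.
No charge on the cuts (HC of the first half makes them invisible).
-/

set_option autoImplicit false

namespace Crest.Agent.R105.SkT1_137

open Set Filter MeasureTheory Topology Metric
open Crest.Agent.R105.CF_363 Crest.Agent.R105.Stp_722 Crest.Agent.R105.Cq_463
open Crest.Agent.R105.Nal_649 Crest.Agent.R105.Exs_992 Crest.Agent.R105.Famq_306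
open Crest.Agent.R105.Skp2_257 (Comps Reg Lo Up)

variable {E : Set (ℝ × ℝ)} {𝒬 : Set Sqr} {𝓗 : Set Hair}

/-! ## Test functions and E-L -/

/-- `ψ` is `T`-finite with oscillation profile `o` (`o P` bounds the oscillation at the whole
component `P`; jumps at countably many hairs are allowed). -/
structure TFin (E : Set (ℝ × ℝ)) (ψ : ℝ × ℝ → ℝ) (o : Set (ℝ × ℝ) → ℝ) : Prop where
  reg : Reg E ψ
  nn : ∀ P ∈ Comps E, 0 ≤ o P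
  osc : ∀ P ∈ Comps E, OscLe Eᶜ P ψ (o P)
  sum : Summable fun P : Comps E => o P.1 ^ 2

/-- crude E-L inequality for one function -/
def ELf (E : Set (ℝ × ℝ)) (𝒬 : Set Sqr) (ψ : ℝ × ℝ → ℝ) : Prop :=
  ∀ o, TFin E ψ o → |∫ p in Eᶜ, gx ψ p| ≤ ∑' Q : 𝒬, Q.1.s * o (comp E Q.1)

/-- The type of a class of stream functions (of Lemma A), to be instantiated by the literal of 425 /
187 / 377: `Str E 𝒬 𝓗 g Bm Bp ψ`. -/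
abbrev StrT : Type :=
  Set (ℝ × ℝ) → Set Sqr → Set Hair → Set (Set (ℝ × ℝ)) → ℝ → ℝ → (ℝ × ℝ → ℝ) → Prop

/-- E-L for the stream functions of Lemma A -/
def ELS (Str : StrT) (E : Set (ℝ × ℝ)) (𝒬 : Set Sqr) (𝓗 : Set Hair) : Prop :=
  ∀ g Bm Bp, FamQ E g Bm Bp → ∀ ψ, Str E 𝒬 𝓗 g Bm Bp ψ → ELf E 𝒬 ψ

/-! ## Lemma A with solids -/

/-- (P1) of 425: the parts of a solid above / below its square are null. -/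
def SOLO (E : Set (ℝ × ℝ)) (𝒬 : Set Sqr) (𝓗 : Set Hair) : Prop :=
  ∀ Q ∈ 𝒬, (∀ B, Q.y + Q.s < B → NullUp E 𝒬 𝓗 (comp E Q) B) ∧
    ∀ B, B < Q.y → NullLo E 𝒬 𝓗 (comp E Q) B

/-- the solids of the family are null at one of the two ends -/
def SolNull (E : Set (ℝ × ℝ)) (𝒬 : Set Sqr) (𝓗 : Set Hair) (g : Set (Set (ℝ × ℝ)))
    (Bm Bp : ℝ) : Prop :=
  ∀ P ∈ g, ∀ Q ∈ 𝒬, Q.car ⊆ P → NullLo E 𝒬 𝓗 P Bm ∨ NullUp E 𝒬 𝓗 P Bp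

/-- (P2) of 425 = part a of 306: the conductance is bounded by the area of the squares. -/
def BNDQ (E : Set (ℝ × ℝ)) (𝒬 : Set Sqr) (𝓗 : Set Hair) : Prop :=
  ∀ g Bm Bp, FamQ E g Bm Bp → SolNull E 𝒬 𝓗 g Bm Bp →
    ∃ K, 0 ≤ K ∧ ∀ g' ⊆ g, IsCompact (⋃₀ g') → BoundQ E 𝒬 𝓗 g' Bm Bp K

/-- all families without a solid having both levels in its window are null -/
def FAMQ (E : Set (ℝ × ℝ)) (𝒬 : Set Sqr) (𝓗 : Set Hair) : Prop :=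
  ∀ g Bm Bp, FamQ E g Bm Bp → Win 𝒬 g Bm Bp → NullNQ E 𝒬 𝓗 g Bm Bp

/-- **LEMAQ**: Lemma A with exact squares. -/
def LEMAQ (Str : StrT) : Prop := ∀ E 𝒬 𝓗, PicS E 𝒬 𝓗 → ELS Str E 𝒬 𝓗 →
  SOLO E 𝒬 𝓗 ∧ BNDQ E 𝒬 𝓗

theorem comp_mem (hE : QPic E 𝒬 𝓗) {Q : Sqr} (hQ : Q ∈ 𝒬) : comp E Q ∈ Comps E :=
  ⟨(Q.x, Q.y), hE.sub Q hQ (Sqr.mem_car.2 ⟨⟨le_rfl, by linarith [Q.hs]⟩, ⟨le_rfl, by linarith [Q.hs]⟩⟩),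
    rfl⟩

theorem car_sub_comp (hE : QPic E 𝒬 𝓗) {Q : Sqr} (hQ : Q ∈ 𝒬) : Q.car ⊆ comp E Q :=
  Q.convex_car.isPreconnected.subset_connectedComponentIn
    (Sqr.mem_car.2 ⟨⟨le_rfl, by linarith [Q.hs]⟩, ⟨le_rfl, by linarith [Q.hs]⟩⟩) (hE.sub Q hQ)

/-- the component which contains the square -/
theorem eq_comp (hE : QPic E 𝒬 𝓗) {Q : Sqr} (hQ : Q ∈ 𝒬) {P : Set (ℝ × ℝ)} (hP : P ∈ Comps E)
    (h : Q.car ⊆ P) : P = comp E Q := by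
  obtain ⟨p, hp⟩ := Q.nonempty
  exact comp_unique hP (comp_mem hE hQ) ⟨p, h hp, car_sub_comp hE hQ hp⟩

theorem eq_of_comp_eq (hE : QPic E 𝒬 𝓗) {Q Q' : Sqr} (hQ : Q ∈ 𝒬) (hQ' : Q' ∈ 𝒬)
    (h : comp E Q = comp E Q') : Q = Q' := by
  obtain ⟨p, hp⟩ := Q.nonempty
  obtain ⟨p', hp'⟩ := Q'.nonempty
  refine hE.sep (comp E Q) (connectedComponentIn_subset _ _) isPreconnected_connectedComponentIn Q hQ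
    Q' hQ' ⟨p, car_sub_comp hE hQ hp, hp⟩ ⟨p', ?_, hp'⟩
  rw [h]
  exact car_sub_comp hE hQ' hp'

/-- `SOLO` gives the nullity of the solids of a family with `Win` -/
theorem solNull_of (hE : QPic E 𝒬 𝓗) (h : SOLO E 𝒬 𝓗) {g : Set (Set (ℝ × ℝ))} {Bm Bp : ℝ}
    (hg : FamQ E g Bm Bp) (hw : Win 𝒬 g Bm Bp) : SolNull E 𝒬 𝓗 g Bm Bp := by
  intro P hP Q hQ hQP
  rw [eq_comp hE hQ (hg.sub hP) hQP]
  rcases hw P hP Q hQ hQP with h1 | h1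
  · exact Or.inl ((h Q hQ).2 Bm h1)
  · exact Or.inr ((h Q hQ).1 Bp h1)

/-- **families are null** (306's `fam_null`) -/
theorem famQ_of (hE : QPic E 𝒬 𝓗) (hS : SOLO E 𝒬 𝓗) (hB : BNDQ E 𝒬 𝓗) : FAMQ E 𝒬 𝓗 := by
  intro g Bm Bp hg hw
  have hn := solNull_of hE hS hg hw
  obtain ⟨K, hK, hbd⟩ := hB g Bm Bp hg hn
  exact fam_null hE hg hn hK hbd

/-! ## Layers -/

/-- output of the layer lemma: `z = 1` near one of the two ends of every member, oscillation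
`≤ 1 / M` at every component, total energy `≤ ε` -/
def LayOutQ (E : Set (ℝ × ℝ)) (𝒬 : Set Sqr) (𝓗 : Set Hair) (g : Set (Set (ℝ × ℝ)))
    (Bm Bp : ℝ) : Prop :=
  ∀ N, IsOpen N → ⋃₀ g ⊆ N → ∀ M : ℕ, 1 ≤ M → ∀ ε > 0, ∃ zm zp,
    HalfQ E 𝒬 𝓗 (Lo Bm) N ε zm ∧ HalfQ E 𝒬 𝓗 (Up Bp) N ε zp ∧
    (∀ P ∈ Comps E, OscLe (Eᶜ ∩ Lo Bm) P zm (1 / M)) ∧
    (∀ P ∈ Comps E, OscLe (Eᶜ ∩ Up Bp) P zp (1 / M)) ∧
    ∀ P ∈ g, OneNear E (Lo Bm) P zm ∨ OneNear E (Up Bp) P zp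

theorem half_189 {W N : Set (ℝ × ℝ)} {ε : ℝ} {z : ℝ × ℝ → ℝ} :
    HalfQ E 𝒬 𝓗 W N ε z ↔ Fnc_189.HalfQ E W 𝒬 𝓗 N ε z :=
  ⟨fun h => ⟨h.cf, h.rg, h.sp, h.en⟩, fun h => ⟨h.cf, h.rg, h.sp, h.en⟩⟩

/-- the cut-off of a piece `S` of a component: `z = 1` near `S`, small energy -/
def SinOutQ (E : Set (ℝ × ℝ)) (𝒬 : Set Sqr) (𝓗 : Set Hair) (S : Set (ℝ × ℝ)) : Prop :=
  ∀ N, IsOpen N → S ⊆ N → ∀ ε > 0, ∃ ζ, HalfQ E 𝒬 𝓗 univ N ε ζ ∧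
    ∃ O, IsOpen O ∧ S ⊆ O ∧ ∀ p ∈ O, ζ p = 1

/-- the hairs which do not touch a square -/
def Off (𝒬 : Set Sqr) (K : Hair) : Prop := ∀ Q ∈ 𝒬, Disjoint K.car Q.car

/-- **SINGLEQ** (925 / 891): cut-off of a cuttable hair off the squares. -/
def SINGLEQ : Prop := ∀ E 𝒬 𝓗, PicS E 𝒬 𝓗 → SOLO E 𝒬 𝓗 → FAMQ E 𝒬 𝓗 →
  ∀ K ∈ 𝓗, Off 𝒬 K → SinOutQ E 𝒬 𝓗 K.car

/-- **OUTQ** (649): cut-off of the part of a solid above / below its square. -/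
def OUTQ : Prop := ∀ E 𝒬 𝓗, PicS E 𝒬 𝓗 → SOLO E 𝒬 𝓗 → ∀ Q ∈ 𝒬, ∀ δ > 0,
  SinOutQ E 𝒬 𝓗 (comp E Q ∩ {p | Q.y + Q.s + δ ≤ p.2}) ∧
  SinOutQ E 𝒬 𝓗 (comp E Q ∩ {p | p.2 ≤ Q.y - δ})

/-- all cheap cut-offs -/
structure Cheap (E : Set (ℝ × ℝ)) (𝒬 : Set Sqr) (𝓗 : Set Hair) : Prop where
  fam : FAMQ E 𝒬 𝓗
  lay : ∀ g Bm Bp, FamQ E g Bm Bp → Win 𝒬 g Bm Bp → LayOutQ E 𝒬 𝓗 g Bm Bp
  sin : ∀ K ∈ 𝓗, Off 𝒬 K → SinOutQ E 𝒬 𝓗 K.car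
  up : ∀ Q ∈ 𝒬, ∀ δ > 0, SinOutQ E 𝒬 𝓗 (comp E Q ∩ {p | Q.y + Q.s + δ ≤ p.2})
  lo : ∀ Q ∈ 𝒬, ∀ δ > 0, SinOutQ E 𝒬 𝓗 (comp E Q ∩ {p | p.2 ≤ Q.y - δ})

/-- **STEPQ** (722 / 744 / 483 / 891 / 423): the halving step, `C0`, `θ` absolute constants. -/
def STEPQ (C0 θ : ℝ) : Prop := ∀ E 𝒬 𝓗, PicS E 𝒬 𝓗 → SOLO E 𝒬 𝓗 → FAMQ E 𝒬 𝓗 →
  StepQ E 𝒬 𝓗 C0 θ

/-- the same from all cheap cut-offs -/
def STEPC (C0 θ : ℝ) : Prop := ∀ E 𝒬 𝓗, PicS E 𝒬 𝓗 → SOLO E 𝒬 𝓗 → Cheap E 𝒬 𝓗 →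
  StepQ E 𝒬 𝓗 C0 θ

/-- **LAYQ** is a theorem (189's `layQ`) -/
theorem layOutQ_of (hE : QPic E 𝒬 𝓗) {g : Set (Set (ℝ × ℝ))} {Bm Bp : ℝ} (hg : FamQ E g Bm Bp)
    (h : NullNQ E 𝒬 𝓗 g Bm Bp) : LayOutQ E 𝒬 𝓗 g Bm Bp := by
  intro N hN hgN M hM ε hε
  have hM0 : (0 : ℝ) < M := by exact_mod_cast hM
  have hA : (0 : ℝ) ≤ ε * M / 18 := by positivity
  obtain ⟨zm, zp, h1, h2, h3, h4, h5⟩ := Fnc_189.layQ hE (isOpen_Lo Bm) (convex_Lo Bm)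
    (isOpen_Up Bp) (convex_Up Bp) (𝒢 := g) hg.sub hg.cpt hA (fun N' hN' hg' => by
      obtain ⟨zm, zp, hp⟩ := h N' hN' hg' (ε * M / 18) (by positivity)
      exact ⟨zm, zp, half_189.1 hp.m, half_189.1 hp.p, hp.key⟩) hM hN hgN
  have he : 18 * (ε * M / 18) / (M : ℝ) = ε := by field_simp
  rw [he] at h1 h2
  exact ⟨zm, zp, half_189.2 h1, half_189.2 h2, h3, h4, h5⟩

/-- all cheap cut-offs from the leaves -/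
theorem cheap_of (hP : PicS E 𝒬 𝓗) (hS : SOLO E 𝒬 𝓗) (hF : FAMQ E 𝒬 𝓗) (h1 : SINGLEQ)
    (h2 : OUTQ) : Cheap E 𝒬 𝓗 where
  fam := hF
  lay := fun _ _ _ hg hw => layOutQ_of hP.q hg (hF _ _ _ hg hw)
  sin := h1 E 𝒬 𝓗 hP hS hF
  up := fun Q hQ δ hδ => (h2 E 𝒬 𝓗 hP hS Q hQ δ hδ).1
  lo := fun Q hQ δ hδ => (h2 E 𝒬 𝓗 hP hS Q hQ δ hδ).2

/-- optional: `STEPQ` from `STEPC`, `SINGLEQ`, `OUTQ` -/
theorem stepQ_of {C0 θ : ℝ} (h1 : SINGLEQ) (h2 : OUTQ) (h : STEPC C0 θ) : STEPQ C0 θ :=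
  fun E 𝒬 𝓗 hP hS hF => h E 𝒬 𝓗 hP hS (cheap_of hP hS hF h1 h2)

/-- **PP with solids, assembly from the leaves.** -/
theorem pp_sq {Str : StrT} {C0 θ : ℝ} (hC0 : 0 ≤ C0) (hθ : 0 < θ) (hA : LEMAQ Str)
    (hST : STEPQ C0 θ) (hL : LIMQ) (hP : PicS E 𝒬 𝓗)
    (hELS : ELS Str E 𝒬 𝓗) (hEL : Ctr_188.ELQ E 𝒬 𝓗) :
    ∀ P ∈ Comps E, (∃ p, P = {p}) ∨ ∃ Q ∈ 𝒬, P = Q.car := by
  obtain ⟨hS, hB⟩ := hA E 𝒬 𝓗 hP hELS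
  exact Ctr_188.comps_sq hP hC0 hθ (hST E 𝒬 𝓗 hP hS (famQ_of hP.q hS hB)) hL hEL

/-- the same, conclusion `𝓗 = ∅` -/
theorem hairless {Str : StrT} {C0 θ : ℝ} (hC0 : 0 ≤ C0) (hθ : 0 < θ) (hA : LEMAQ Str)
    (hST : STEPQ C0 θ) (hL : LIMQ) (hP : PicS E 𝒬 𝓗)
    (hELS : ELS Str E 𝒬 𝓗) (hEL : Ctr_188.ELQ E 𝒬 𝓗) : 𝓗 = ∅ := by
  obtain ⟨hS, hB⟩ := hA E 𝒬 𝓗 hP hELS
  exact Ctr_188.hairless hP (C := C1 C0 θ) (by unfold C1; positivity)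
    (hL E 𝒬 𝓗 hP C0 θ hC0 hθ (hST E 𝒬 𝓗 hP hS (famQ_of hP.q hS hB))) hEL

/-! ## The interface with the first half: an abstract admissible class -/

/-- What the second half needs from the first half (#10242): `Adm` = any predicate on functions of
the picture plane. -/
structure Carr (Str : StrT) (E : Set (ℝ × ℝ)) (𝒬 : Set Sqr) (𝓗 : Set Hair)
    (Adm : (ℝ × ℝ → ℝ) → Prop) : Prop where
  /-- (E) crude E-L -/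
  el : ∀ ψ o, TFin E ψ o → Adm ψ → |∫ p in Eᶜ, gx ψ p| ≤ ∑' Q : 𝒬, Q.1.s * o (comp E Q.1)
  /-- (A1) stream functions -/
  str : ∀ g Bm Bp, FamQ E g Bm Bp → ∀ ψ, Str E 𝒬 𝓗 g Bm Bp ψ → Adm ψ
  /-- (A2) + (A3) limits of cut functions with bounded charges -/
  lim : ∀ (S : ℕ → ℝ × ℝ → ℝ) (ψ : ℝ × ℝ → ℝ) (c : Sqr → ℝ) (o : Set (ℝ × ℝ) → ℝ),
    LimOf E 𝓗 S ψ → (∀ Q, 0 ≤ c Q) → (Summable fun Q : 𝒬 => c Q.1 ^ 2) →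
    (∀ m, ∀ Q ∈ 𝒬, ch E univ (S m) Q ≤ c Q) → TFin E ψ o →
    (∀ P ∈ Comps E, (∀ Q ∈ 𝒬, ¬ Q.car ⊆ P) → o P = 0) → Adm ψ

theorem Carr.els {Str : StrT} {Adm : (ℝ × ℝ → ℝ) → Prop} (h : Carr Str E 𝒬 𝓗 Adm) :
    ELS Str E 𝒬 𝓗 :=
  fun g Bm Bp hg ψ hψ o ho => h.el ψ o ho (h.str g Bm Bp hg ψ hψ)

open Classical in
/-- profile on the components from charges of the squares -/
noncomputable def prof (𝒬 : Set Sqr) (o : Sqr → ℝ) (P : Set (ℝ × ℝ)) : ℝ :=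
  if h : ∃ Q, Q ∈ 𝒬 ∧ Q.car ⊆ P then o h.choose else 0

theorem prof_comp (hE : QPic E 𝒬 𝓗) (o : Sqr → ℝ) {Q : Sqr} (hQ : Q ∈ 𝒬) :
    prof 𝒬 o (comp E Q) = o Q := by
  have h : ∃ Q', Q' ∈ 𝒬 ∧ Q'.car ⊆ comp E Q := ⟨Q, hQ, car_sub_comp hE hQ⟩
  unfold prof
  rw [dif_pos h]
  have h1 := h.choose_spec
  congr 1
  exact eq_of_comp_eq hE h1.1 hQ (eq_comp hE h1.1 (comp_mem hE hQ) h1.2).symm

theorem prof_of_no {o : Sqr → ℝ} {P : Set (ℝ × ℝ)} (h : ∀ Q ∈ 𝒬, ¬ Q.car ⊆ P) :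
    prof 𝒬 o P = 0 := by
  unfold prof
  rw [dif_neg]
  rintro ⟨Q, hQ, hQP⟩
  exact h Q hQ hQP

theorem prof_nonneg {o : Sqr → ℝ} (ho : ∀ Q, 0 ≤ o Q) (P : Set (ℝ × ℝ)) : 0 ≤ prof 𝒬 o P := by
  unfold prof
  split_ifs
  · exact ho _
  · exact le_rfl

theorem summable_prof (hE : QPic E 𝒬 𝓗) {o : Sqr → ℝ} (h : Summable fun Q : 𝒬 => o Q.1 ^ 2) :
    Summable fun P : Comps E => prof 𝒬 o P.1 ^ 2 := by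
  let i : 𝒬 → Comps E := fun Q => ⟨comp E Q.1, comp_mem hE Q.2⟩
  have hi : Function.Injective i := fun Q Q' hQ =>
    Subtype.ext (eq_of_comp_eq hE Q.2 Q'.2 (congrArg Subtype.val hQ))
  refine (hi.summable_iff ?_).1 ?_
  · rintro ⟨P, hP⟩ hPn
    have : prof 𝒬 o P = 0 := by
      refine prof_of_no fun Q hQ hQP => hPn ⟨⟨Q, hQ⟩, ?_⟩
      exact Subtype.ext (eq_comp hE hQ hP hQP).symm
    simp only [this]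
    norm_num
  · have : ((fun P : Comps E => prof 𝒬 o P.1 ^ 2) ∘ i) = fun Q : 𝒬 => o Q.1 ^ 2 := by
      funext Q
      simp only [Function.comp, i, prof_comp hE o Q.2]
    rw [this]
    exact h

/-- the profile of a limit function -/
theorem tFin_prof (hE : QPic E 𝒬 𝓗) {ψ : ℝ × ℝ → ℝ} {o : Sqr → ℝ} (hr : Reg E ψ)
    (ho : ∀ Q, 0 ≤ o Q) (hs : Summable fun Q : 𝒬 => o Q.1 ^ 2)
    (h0 : ∀ P ∈ Comps E, (∀ Q ∈ 𝒬, ¬ Q.car ⊆ P) → OscLe Eᶜ P ψ 0)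
    (h1 : ∀ P ∈ Comps E, ∀ Q ∈ 𝒬, Q.car ⊆ P → OscLe Eᶜ P ψ (o Q)) :
    TFin E ψ (prof 𝒬 o) where
  reg := hr
  nn := fun P _ => prof_nonneg ho P
  osc := by
    intro P hP
    by_cases h : ∃ Q, Q ∈ 𝒬 ∧ Q.car ⊆ P
    · obtain ⟨Q, hQ, hQP⟩ := h
      rw [eq_comp hE hQ hP hQP, prof_comp hE o hQ]
      exact h1 _ (comp_mem hE hQ) Q hQ (car_sub_comp hE hQ)
    · push Not at h
      rw [prof_of_no h]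
      exact h0 P hP h
  sum := summable_prof hE hs

theorem Carr.elq {Str : StrT} {Adm : (ℝ × ℝ → ℝ) → Prop} (hE : QPic E 𝒬 𝓗)
    (h : Carr Str E 𝒬 𝓗 Adm) : Ctr_188.ELQ E 𝒬 𝓗 := by
  intro S ψ c o hL hc hcs hch ho hos h0 h1
  have hT := tFin_prof hE hL.reg ho hos h0 h1
  have h2 := h.el ψ _ hT (h.lim S ψ c _ hL hc hcs hch hT fun P _ hPn => prof_of_no hPn)
  refine h2.trans (le_of_eq (tsum_congr fun Q => ?_))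
  rw [prof_comp hE o Q.2]

/-- **PP with solids over an abstract carrier.** -/
theorem pp_sq_carr {Str : StrT} {C0 θ : ℝ} (hC0 : 0 ≤ C0) (hθ : 0 < θ) (hA : LEMAQ Str)
    (hST : STEPQ C0 θ) (hL : LIMQ) (hP : PicS E 𝒬 𝓗)
    {Adm : (ℝ × ℝ → ℝ) → Prop} (hC : Carr Str E 𝒬 𝓗 Adm) :
    ∀ P ∈ Comps E, (∃ p, P = {p}) ∨ ∃ Q ∈ 𝒬, P = Q.car :=
  pp_sq hC0 hθ hA hST hL hP hC.els (hC.elq hP.q)

end Crest.Agent.R105.SkT1_137
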