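import Crest.Agent.R105.Snq2_925

/-!
# Row 105 (S0138, picture with solids), SINGLEQ part 3: nested averaging, `singleQ`
-/

set_option autoImplicit false

namespace Crest.Agent.R105.Snq_925

open Set Filter MeasureTheory Topology Metric
open CF_363 Stp_722 Cq_463
open Skp2_257 (Comps Lo Up)
open Nal_649 (HalfQ FamQ PairQ NullNQ Win)
open scoped ENNReal NNReal

section abstract

variable {E : Set (ℝ × ℝ)} {𝓗 : Set Hair} {T : Set (ℝ × ℝ) → (ℝ × ℝ → ℝ) → ℝ}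

/-- the cut-off can be changed on `E`: a function which is `1` on `O \ E` can be made `1` on a
neighbourhood -/
theorem patch (hT : EnC E 𝓗 T) (hE : IsCompact E) {P : Set (ℝ × ℝ)} (hP : P ∈ Comps E)
    {N : Set (ℝ × ℝ)} (hN : IsOpen N) (hPN : P ⊆ N) {ε : ℝ} {ζ : ℝ × ℝ → ℝ}
    (h : HalfT 𝓗 T univ N ε ζ) {O : Set (ℝ × ℝ)} (hO : IsOpen O) (hPO : P ⊆ O)
    (h1 : ∀ p ∈ O \ E, ζ p = 1) :
    ∃ ζ', HalfT 𝓗 T univ N ε ζ' ∧ ∃ O', IsOpen O' ∧ P ⊆ O' ∧ ∀ p ∈ O', ζ' p = 1 := by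
  classical
  obtain ⟨x, hx, rfl⟩ := hP
  obtain ⟨N₂, hN₂, hKN₂, hcl, hclc, hfr⟩ := Thin_12.thin_nhd hE hx (W := O ∩ N)
    (hO.inter hN) (subset_inter hPO hPN)
  obtain ⟨J, hJ, hc⟩ := h.cf
  set ζ' : ℝ × ℝ → ℝ := fun p => if p ∈ N₂ then 1 else ζ p with hζ'
  -- the two open sets
  set A : Set (ℝ × ℝ) := N₂ ∪ (O \ E) with hA
  have hAo : IsOpen A := hN₂.union (hO.sdiff hE.isClosed)
  have hBo : IsOpen (closure N₂)ᶜ := isClosed_closure.isOpen_compl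
  have eA : EqOn (fun _ => (1 : ℝ)) ζ' A := by
    intro p hp
    simp only [hζ']
    split_ifs with hpN
    · rfl
    · rcases hp with hp | hp
      · exact absurd hp hpN
      · exact (h1 p hp).symm
  have eB : EqOn ζ ζ' (closure N₂)ᶜ := by
    intro p hp
    simp only [hζ']
    rw [if_neg fun hpN => hp (subset_closure hpN)]
  have hcov : (univ : Set (ℝ × ℝ)) = A ∪ (closure N₂)ᶜ := by
    refine (eq_univ_of_forall fun p => ?_).symm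
    by_cases hp : p ∈ closure N₂
    · by_cases hpN : p ∈ N₂
      · exact Or.inl (Or.inl hpN)
      · refine Or.inl (Or.inr ⟨(hcl hp).1, fun hpE => Set.disjoint_left.1 hfr ?_ hpE⟩)
        rw [hN₂.frontier_eq]; exact ⟨hp, hpN⟩
    · exact Or.inr hp
  have hcf : CFJ 𝓗 univ ζ' := by
    refine ⟨J, hJ, ?_⟩
    have e : (univ : Set (ℝ × ℝ)) \ cut J = (A \ cut J) ∪ ((closure N₂)ᶜ \ cut J) := by
      rw [← union_sdiff_distrib, ← hcov]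
    rw [e]
    refine CF.union (isOpen_diff_cut hAo _) (isOpen_diff_cut hBo _) ?_ ?_
    · exact (CF_const 1).congr (eA.mono sdiff_subset)
    · exact (hc.mono (sdiff_subset_sdiff_left (subset_univ _))).congr (eB.mono sdiff_subset)
  obtain ⟨S, hS, hSN, hS0⟩ := h.sp
  refine ⟨ζ', ⟨hcf, fun p => ?_, ⟨S ∪ closure N₂, hS.union hclc,
    union_subset hSN fun p hp => (hcl hp).2, fun p _ hp => ?_⟩, ?_⟩, N₂, hN₂, hKN₂,
    fun p hp => if_pos hp⟩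
  · simp only [hζ']
    split_ifs
    · exact ⟨zero_le_one, le_rfl⟩
    · exact h.rg p
  · rw [mem_union, not_or] at hp
    simp only [hζ']
    rw [if_neg fun hpN => hp.2 (subset_closure hpN)]
    exact hS0 p (mem_univ _) hp.1
  · have e : EqOn ζ' ζ (univ \ E) := by
      intro p hp
      simp only [hζ']
      split_ifs with hpN
      · exact (h1 p ⟨(hcl (subset_closure hpN)).1, hp.2⟩).symm
      · rfl
    rw [hT.congr _ isOpen_univ ζ' ζ e]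
    exact h.en

/-- basic cut-offs in every neighbourhood of a component -/
def Basic (𝓗 : Set Hair) (T : Set (ℝ × ℝ) → (ℝ × ℝ → ℝ) → ℝ) (P : Set (ℝ × ℝ)) : Prop :=
  ∀ N, IsOpen N → P ⊆ N → ∀ ε > 0, ∃ ζ, HalfT 𝓗 T univ N ε ζ ∧
    ∃ O, IsOpen O ∧ P ⊆ O ∧ ∀ p ∈ O, ζ p = 1

/-- the cut-off with small oscillations -/
def SinOutT (E : Set (ℝ × ℝ)) (𝓗 : Set Hair) (T : Set (ℝ × ℝ) → (ℝ × ℝ → ℝ) → ℝ)
    (P : Set (ℝ × ℝ)) : Prop :=
  ∀ N, IsOpen N → P ⊆ N → ∀ M : ℕ, 1 ≤ M → ∀ ε > 0, ∃ ζ, HalfT 𝓗 T univ N ε ζ ∧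
    (∃ O, IsOpen O ∧ P ⊆ O ∧ ∀ p ∈ O, ζ p = 1) ∧
    ∀ P' ∈ Comps E, OscLe Eᶜ P' ζ (1 / M)

/-- nested averaging -/
theorem nested (hT : EnC E 𝓗 T) (hE : IsCompact E) {P : Set (ℝ × ℝ)} (hP : P ∈ Comps E)
    (h : Basic 𝓗 T P) (M : ℕ) :
    ∀ N, IsOpen N → P ⊆ N → ∀ ε > 0, ∃ σ : ℝ × ℝ → ℝ, CFJ 𝓗 univ σ ∧
      (∀ p, 0 ≤ σ p ∧ σ p ≤ M) ∧ (∃ S, IsCompact S ∧ S ⊆ N ∧ ∀ p, p ∉ S → σ p = 0) ∧
      T univ σ ≤ ε ∧ (∃ O, IsOpen O ∧ P ⊆ O ∧ ∀ p ∈ O, σ p = M) ∧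
      ∀ P' ∈ Comps E, OscLe Eᶜ P' σ 1 := by
  induction M with
  | zero =>
    intro N hN hKN ε hε
    refine ⟨fun _ => 0, CFJ_const 0, fun p => by simp, ⟨∅, isCompact_empty, empty_subset _,
      fun _ _ => rfl⟩, by rw [hT.zero]; exact hε.le, ⟨univ, isOpen_univ, subset_univ _,
      fun p _ => by simp⟩, fun P _ δ hδ => ⟨univ, isOpen_univ, subset_univ _, fun q _ q' _ => ?_⟩⟩
    simp only [sub_self, abs_zero]; linarith
  | succ M ih =>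
    intro N hN hKN ε hε
    obtain ⟨ζ, hζ, O₁, hO₁, hKO₁, h1⟩ := h N hN hKN (ε / 4) (by positivity)
    obtain ⟨x, hx, rfl⟩ := hP
    obtain ⟨N₂, hN₂, hKN₂, hcl, hclc, hfr⟩ := Thin_12.thin_nhd hE hx (W := O₁ ∩ N)
      (hO₁.inter hN) (subset_inter hKO₁ hKN)
    obtain ⟨σ, hσ, hσM, ⟨S', hS', hSN', hS0'⟩, hσe, ⟨O₂, hO₂, hKO₂, h2⟩, hosc⟩ :=
      ih N₂ hN₂ hKN₂ (ε / 4) (by positivity)
    obtain ⟨S, hS, hSN, hS0⟩ := hζ.sp
    have hN₂N : N₂ ⊆ N := fun p hp => (hcl (subset_closure hp)).2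
    have hN₂O : N₂ ⊆ O₁ := fun p hp => (hcl (subset_closure hp)).1
    have hsum : CFJ 𝓗 univ (fun p => ζ p + σ p) := hζ.cf.add hσ
    have h0 : ∀ p, p ∉ S ∪ S' → ζ p + σ p = 0 := fun p hp => by
      rw [mem_union, not_or] at hp
      rw [hS0 p (mem_univ _) hp.1, hS0' p hp.2, add_zero]
    refine ⟨fun p => ζ p + σ p, hsum, fun p => ?_, ⟨S ∪ S', hS.union hS',
      union_subset hSN (hSN'.trans hN₂N), h0⟩, ?_, ⟨O₁ ∩ O₂, hO₁.inter hO₂,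
      subset_inter hKO₁ hKO₂, fun p hp => ?_⟩, ?_⟩
    · have a1 := hζ.rg p
      have a2 := hσM p
      push_cast
      exact ⟨by linarith, by linarith⟩
    · have e1 := hT.add univ ζ σ band_univ hζ.cc ⟨hσ, S', hS', fun p _ hp => hS0' p hp⟩
      have := hζ.en
      linarith
    · beta_reduce
      rw [h1 p hp.1, h2 p hp.2]; push_cast; ring
    · intro P hP
      obtain ⟨y, hy, rfl⟩ := hP
      have hcases : connectedComponentIn E y ⊆ N₂ ∨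
          connectedComponentIn E y ⊆ (closure N₂)ᶜ := by
        refine (isPreconnected_connectedComponentIn).subset_or_subset hN₂
          isClosed_closure.isOpen_compl ?_ ?_
        · rw [Set.disjoint_left]
          exact fun p hp hp' => hp' (subset_closure hp)
        · intro p hp
          by_cases hpN : p ∈ N₂
          · exact Or.inl hpN
          · refine Or.inr fun hpc => Set.disjoint_left.1 hfr ?_ (connectedComponentIn_subset _ _ hp)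
            rw [hN₂.frontier_eq]
            exact ⟨hpc, hpN⟩
      rcases hcases with hc | hc
      · intro δ hδ
        obtain ⟨O, hO, hPO, H⟩ := hosc _ ⟨y, hy, rfl⟩ δ hδ
        refine ⟨O ∩ N₂, hO.inter hN₂, subset_inter hPO hc, fun q hq q' hq' => ?_⟩
        beta_reduce
        rw [h1 q (hN₂O hq.1.2), h1 q' (hN₂O hq'.1.2), add_sub_add_left_eq_sub]
        exact H q ⟨hq.1.1, hq.2⟩ q' ⟨hq'.1.1, hq'.2⟩
      · intro δ hδ
        refine ⟨(closure N₂)ᶜ, isClosed_closure.isOpen_compl, hc, fun q hq q' hq' => ?_⟩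
        beta_reduce
        rw [hS0' q fun hqS => hq.1 (subset_closure (hSN' hqS)),
          hS0' q' fun hqS => hq'.1 (subset_closure (hSN' hqS)), add_zero, add_zero]
        have a1 := hζ.rg q
        have a2 := hζ.rg q'
        rw [abs_le]
        constructor <;> linarith

theorem sinOut_of_basic (hT : EnC E 𝓗 T) (hE : IsCompact E) {P : Set (ℝ × ℝ)} (hP : P ∈ Comps E)
    (h : Basic 𝓗 T P) : SinOutT E 𝓗 T P := by
  intro N hN hKN M hM ε hε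
  have hM0 : (0 : ℝ) < M := by exact_mod_cast hM
  obtain ⟨σ, hσ, hσM, ⟨S, hS, hSN, hS0⟩, hσe, ⟨O, hO, hKO, h1⟩, hosc⟩ :=
    nested hT hE hP h M N hN hKN (M ^ 2 * ε) (by positivity)
  refine ⟨fun p => (M : ℝ)⁻¹ * σ p, ⟨hσ.const_mul _, fun p => ⟨?_, ?_⟩, ⟨S, hS, hSN,
    fun p _ hp => ?_⟩, ?_⟩, ⟨O, hO, hKO, fun p hp => ?_⟩, fun P hP => ?_⟩
  · have := (hσM p).1; positivity
  · rw [inv_mul_le_iff₀ hM0, mul_one]; exact (hσM p).2
  · rw [hS0 p hp, mul_zero]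
  · refine (hT.cmul univ σ _ band_univ ⟨hσ, S, hS, fun p _ hp => hS0 p hp⟩).trans ?_
    calc ((M : ℝ)⁻¹) ^ 2 * T univ σ ≤ ((M : ℝ)⁻¹) ^ 2 * (M ^ 2 * ε) :=
          mul_le_mul_of_nonneg_left hσe (by positivity)
      _ = ε := by field_simp
  · beta_reduce
    rw [h1 p hp]; exact inv_mul_cancel₀ hM0.ne'
  · intro δ hδ
    obtain ⟨O', hO', hPO', H⟩ := hosc P hP (M * δ) (by positivity)
    refine ⟨O', hO', hPO', fun q hq q' hq' => ?_⟩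
    beta_reduce
    rw [← mul_sub, abs_mul, abs_of_pos (by positivity : (0 : ℝ) < (M : ℝ)⁻¹),
      inv_mul_le_iff₀ hM0]
    refine (H q hq q' hq').trans (le_of_eq ?_)
    field_simp

/-- one free hair, abstract energy -/
theorem single_T (hT : EnC E 𝓗 T) (hE : IsCompact E) {K : Hair} (hK : K.car ∈ Comps E)
    (hcap : ∀ q ∈ K.car, CapAt T q)
    (h : ∀ Bm Bp, Bm < Bp → K.b ≤ Bm → Bp ≤ K.t → NullT E 𝓗 T K Bm Bp) :
    SinOutT E 𝓗 T K.car := by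
  refine sinOut_of_basic hT hE hK fun N hN hKN ε hε => ?_
  obtain ⟨β, hb, ht, hβ⟩ := exists_level hT h
  obtain ⟨ζ, hζ, O, hO, hKO, h1⟩ := basic0 hT hb ht (hcap _ ⟨rfl, hb, ht⟩) hβ hN hKN hε
  exact patch hT hE hK hN hKN hζ hO hKO h1

end abstract

section TQ

variable {E : Set (ℝ × ℝ)} {𝒬 : Set Sqr} {𝓗 : Set Hair}

/-- the cut-off of a single component with charges (`Skp2_257.SinOut` with `TQ`) -/
def SinOutQ (E : Set (ℝ × ℝ)) (𝒬 : Set Sqr) (𝓗 : Set Hair) (P : Set (ℝ × ℝ)) : Prop :=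
  ∀ N, IsOpen N → P ⊆ N → ∀ M : ℕ, 1 ≤ M → ∀ ε > 0, ∃ ζ, HalfQ E 𝒬 𝓗 univ N ε ζ ∧
    (∃ O, IsOpen O ∧ P ⊆ O ∧ ∀ p ∈ O, ζ p = 1) ∧
    ∀ P' ∈ Comps E, OscLe Eᶜ P' ζ (1 / M)

theorem half_of {W N : Set (ℝ × ℝ)} {ε : ℝ} {z : ℝ × ℝ → ℝ}
    (h : HalfQ E 𝒬 𝓗 W N ε z) : HalfT 𝓗 (fun W f => TQ E W 𝒬 f) W N ε z :=
  ⟨h.cf, h.rg, h.sp, h.en⟩

theorem of_half {W N : Set (ℝ × ℝ)} {ε : ℝ} {z : ℝ × ℝ → ℝ}
    (h : HalfT 𝓗 (fun W f => TQ E W 𝒬 f) W N ε z) : HalfQ E 𝒬 𝓗 W N ε z :=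
  ⟨h.cf, h.rg, h.sp, h.en⟩

/-- a free hair is disjoint from the squares -/
theorem disjoint_free (hE : QPic E 𝒬 𝓗) {K : Hair} (hK : K.car ∈ Comps E) {Q : Sqr}
    (hQ : Q ∈ 𝒬) : Disjoint K.car Q.car := by
  rw [Set.disjoint_left]
  intro p hp hpQ
  obtain ⟨x, hx, hKx⟩ := hK
  have h1 : Q.car ⊆ connectedComponentIn E x := by
    have h2 : connectedComponentIn E x = connectedComponentIn E p := by
      rw [hKx] at hp
      exact connectedComponentIn_eq hp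
    rw [h2]
    exact Q.convex_car.isPreconnected.subset_connectedComponentIn hpQ (hE.sub Q hQ)
  rw [← hKx] at h1
  have hs := Q.hs
  have a1 : ((Q.x, Q.y) : ℝ × ℝ) ∈ K.car := h1 ⟨⟨le_rfl, by simp only; linarith⟩, ⟨le_rfl,
    by simp only; linarith⟩⟩
  have a2 : ((Q.x + Q.s, Q.y) : ℝ × ℝ) ∈ K.car := h1 ⟨⟨by simp only; linarith, le_rfl⟩, ⟨le_rfl,
    by simp only; linarith⟩⟩
  have b1 : Q.x = K.x := a1.1
  have b2 : Q.x + Q.s = K.x := a2.1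
  linarith

theorem famQ_single {K : Hair} (hK : K.car ∈ Comps E) {Bm Bp : ℝ} (h : Bm < Bp)
    (h1 : K.b ≤ Bm) (h2 : Bp ≤ K.t) : FamQ E {K.car} Bm Bp where
  lt := h
  sub := by simpa using hK
  cpt := by rw [sUnion_singleton]; exact K.isCompact_car
  crs := by
    intro P hP
    rw [mem_singleton_iff.1 hP]
    exact ⟨⟨(K.x, K.b), ⟨rfl, le_rfl, K.hbt.le⟩, h1⟩, ⟨(K.x, K.t), ⟨rfl, K.hbt.le, le_rfl⟩, h2⟩⟩

theorem win_single (hE : QPic E 𝒬 𝓗) {K : Hair} (hK : K.car ∈ Comps E) (Bm Bp : ℝ) :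
    Win 𝒬 {K.car} Bm Bp := by
  intro P hP Q hQ hQP
  rw [mem_singleton_iff.1 hP] at hQP
  exact absurd (disjoint_free hE hK hQ) (not_disjoint_iff.2
    ⟨_, hQP Q.nonempty.some_mem, Q.nonempty.some_mem⟩)

/-- **SINGLEQ**: one free hair with charges. -/
theorem singleQ (hE : QPic E 𝒬 𝓗) {K : Hair} (hK : K.car ∈ Comps E)
    (h : ∀ Bm Bp, FamQ E {K.car} Bm Bp → NullNQ E 𝒬 𝓗 {K.car} Bm Bp) :
    SinOutQ E 𝒬 𝓗 K.car := by
  have hT := single_T (enC_TQ hE) hE.cpt hK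
    (fun q hq => capAt_TQ hE fun Q hQ hqQ => Set.disjoint_left.1 (disjoint_free hE hK hQ) hq hqQ)
    (fun Bm Bp h0 h1 h2 N hN hKN ε hε => by
      obtain ⟨zm, zp, hP⟩ := h Bm Bp (famQ_single hK h0 h1 h2) N hN
        (by rw [sUnion_singleton]; exact hKN) ε hε
      obtain ⟨O, hO, hKO, hkey⟩ := hP.key K.car rfl
      exact ⟨zm, zp, half_of hP.m, half_of hP.p, O, hO, hKO, hkey⟩)
  intro N hN hKN M hM ε hε
  obtain ⟨ζ, hζ, h1, h2⟩ := hT N hN hKN M hM ε hε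
  exact ⟨ζ, of_half hζ, h1, h2⟩

/-- the same from the family theorem with windows -/
theorem singleQ' (hE : QPic E 𝒬 𝓗)
    (h : ∀ g Bm Bp, FamQ E g Bm Bp → Win 𝒬 g Bm Bp → NullNQ E 𝒬 𝓗 g Bm Bp)
    {K : Hair} (hK : K.car ∈ Comps E) : SinOutQ E 𝒬 𝓗 K.car :=
  singleQ hE hK fun Bm Bp hF => h _ Bm Bp hF (win_single hE hK Bm Bp)

end TQ

end Crest.Agent.R105.Snq_925
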