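import Mathlib

/-!
# Row 105: functions which are Lipschitz along segments off a finite union of hairs

* `SL U L f`: `f` is `L`-Lipschitz along every segment contained in `U`.
* `CF U f`: `f` is bounded on `U` and `SL U L f` for some `L`.
* `Hair`, `Hair.car`, `cut J`: vertical segments in `ℝ × ℝ` and finite unions of them.
* `CFin 𝓗 W`: the functions `f` with `CF (W \ cut J) f` for some finite `J ⊆ 𝓗` (a submodule).
-/

namespace Crest.Agent.R105.CF_363

open Set Filter MeasureTheory Topology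
open scoped ENNReal NNReal

section Gen

variable {X : Type*} [NormedAddCommGroup X] [NormedSpace ℝ X]

/-- `f` is `L`-Lipschitz along every segment contained in `U`. -/
def SL (U : Set X) (L : ℝ) (f : X → ℝ) : Prop :=
  ∀ p q, segment ℝ p q ⊆ U → |f p - f q| ≤ L * dist p q

/-- Equivalent form with a closed or arbitrary exceptional set. -/
theorem SL_compl_iff {S : Set X} {L : ℝ} {f : X → ℝ} :
    SL Sᶜ L f ↔ ∀ p q, Disjoint (segment ℝ p q) S → |f p - f q| ≤ L * dist p q := by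
  unfold SL
  constructor
  · intro h p q hd
    exact h p q (subset_compl_iff_disjoint_right.mpr hd)
  · intro h p q hd
    exact h p q (subset_compl_iff_disjoint_right.mp hd)

theorem SL.mono {U V : Set X} {L : ℝ} {f : X → ℝ} (h : SL U L f) (hV : V ⊆ U) : SL V L f :=
  fun p q hpq => h p q (hpq.trans hV)

theorem SL.mono_const {U : Set X} {L L' : ℝ} {f : X → ℝ} (h : SL U L f) (hL : L ≤ L') :
    SL U L' f :=
  fun p q hpq => (h p q hpq).trans (mul_le_mul_of_nonneg_right hL dist_nonneg)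

theorem SL.congr {U : Set X} {L : ℝ} {f g : X → ℝ} (h : SL U L f) (hfg : EqOn f g U) :
    SL U L g := by
  intro p q hpq
  rw [← hfg (hpq (left_mem_segment ℝ p q)), ← hfg (hpq (right_mem_segment ℝ p q))]
  exact h p q hpq

theorem SL_const {U : Set X} (c : ℝ) : SL U 0 (fun _ : X => c) := by
  intro p q _; simp

theorem SL_of_lipschitzOn {U : Set X} {L : ℝ≥0} {f : X → ℝ} (h : LipschitzOnWith L f U) :
    SL U L f := by
  intro p q hpq
  have := h.dist_le_mul p (hpq (left_mem_segment ℝ p q)) q (hpq (right_mem_segment ℝ p q))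
  rwa [Real.dist_eq] at this

theorem SL_of_lipschitz {U : Set X} {L : ℝ≥0} {f : X → ℝ} (h : LipschitzWith L f) :
    SL U L f := SL_of_lipschitzOn (h.lipschitzOnWith)

theorem SL.neg {U : Set X} {L : ℝ} {f : X → ℝ} (h : SL U L f) : SL U L (fun p => - f p) := by
  intro p q hpq
  have := h p q hpq
  rw [abs_sub_comm] at this
  calc |(-f p) - (-f q)| = |f q - f p| := by congr 1; ring
    _ ≤ _ := this

theorem SL.add {U : Set X} {L M : ℝ} {f g : X → ℝ} (h : SL U L f) (k : SL U M g) :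
    SL U (L + M) (fun p => f p + g p) := by
  intro p q hpq
  have h1 := h p q hpq
  have h2 := k p q hpq
  calc |(f p + g p) - (f q + g q)| = |(f p - f q) + (g p - g q)| := by congr 1; ring
    _ ≤ |f p - f q| + |g p - g q| := abs_add_le _ _
    _ ≤ _ := by rw [add_mul]; exact add_le_add h1 h2

theorem SL.sub {U : Set X} {L M : ℝ} {f g : X → ℝ} (h : SL U L f) (k : SL U M g) :
    SL U (L + M) (fun p => f p - g p) := by
  simpa [sub_eq_add_neg] using h.add k.neg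

theorem SL.const_mul {U : Set X} {L : ℝ} {f : X → ℝ} (h : SL U L f) (c : ℝ) :
    SL U (|c| * L) (fun p => c * f p) := by
  intro p q hpq
  rw [← mul_sub, abs_mul, mul_assoc]
  exact mul_le_mul_of_nonneg_left (h p q hpq) (abs_nonneg _)

theorem SL.sum {ι : Type*} {U : Set X} {L : ι → ℝ} {f : ι → X → ℝ} (s : Finset ι)
    (h : ∀ i ∈ s, SL U (L i) (f i)) : SL U (∑ i ∈ s, L i) (fun p => ∑ i ∈ s, f i p) := by
  intro p q hpq
  rw [← Finset.sum_sub_distrib, Finset.sum_mul]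
  exact (Finset.abs_sum_le_sum_abs _ _).trans (Finset.sum_le_sum fun i hi => h i hi p q hpq)

/-- Post-composition with a Lipschitz function of one variable. -/
theorem SL.comp {U : Set X} {L : ℝ} {f : X → ℝ} (h : SL U L f) {M : ℝ} (hM : 0 ≤ M) {G : ℝ → ℝ}
    (hG : ∀ s t, |G s - G t| ≤ M * |s - t|) : SL U (M * L) (fun p => G (f p)) := by
  intro p q hpq
  calc |G (f p) - G (f q)| ≤ M * |f p - f q| := hG _ _
    _ ≤ M * (L * dist p q) := mul_le_mul_of_nonneg_left (h p q hpq) hM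
    _ = M * L * dist p q := by ring

theorem SL.max {U : Set X} {L M : ℝ} {f g : X → ℝ} (h : SL U L f) (k : SL U M g) :
    SL U (max L M) (fun p => max (f p) (g p)) := by
  intro p q hpq
  have h1 := (h.mono_const (le_max_left L M)) p q hpq
  have h2 := (k.mono_const (le_max_right L M)) p q hpq
  exact (abs_max_sub_max_le_max _ _ _ _).trans (max_le h1 h2)

theorem SL.min {U : Set X} {L M : ℝ} {f g : X → ℝ} (h : SL U L f) (k : SL U M g) :
    SL U (Max.max L M) (fun p => min (f p) (g p)) := by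
  have := (h.neg.max k.neg).neg
  refine this.congr ?_
  intro p _
  simp [max_neg_neg]

theorem SL.abs {U : Set X} {L : ℝ} {f : X → ℝ} (h : SL U L f) : SL U L (fun p => |f p|) := by
  intro p q hpq
  exact (abs_abs_sub_abs_le_abs_sub _ _).trans (h p q hpq)

theorem SL.mul {U : Set X} {L M A B : ℝ} {f g : X → ℝ} (h : SL U L f) (k : SL U M g)
    (hA : ∀ p ∈ U, |f p| ≤ A) (hB : ∀ p ∈ U, |g p| ≤ B) :
    SL U (A * M + B * L) (fun p => f p * g p) := by
  intro p q hpq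
  have h1 := h p q hpq
  have h2 := k p q hpq
  have hp := hpq (left_mem_segment ℝ p q)
  have hq := hpq (right_mem_segment ℝ p q)
  calc |f p * g p - f q * g q| = |f p * (g p - g q) + g q * (f p - f q)| := by congr 1; ring
    _ ≤ |f p * (g p - g q)| + |g q * (f p - f q)| := abs_add_le _ _
    _ = |f p| * |g p - g q| + |g q| * |f p - f q| := by rw [abs_mul, abs_mul]
    _ ≤ A * (M * dist p q) + B * (L * dist p q) := by
        have hA0 : 0 ≤ A := (abs_nonneg _).trans (hA p hp)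
        have hB0 : 0 ≤ B := (abs_nonneg _).trans (hB q hq)
        exact add_le_add (mul_le_mul (hA p hp) h2 (abs_nonneg _) hA0)
          (mul_le_mul (hB q hq) h1 (abs_nonneg _) hB0)
    _ = _ := by ring

/-- On a convex subset of `U`, `SL` is the ordinary Lipschitz condition. -/
theorem SL.lipschitzOnWith {U C : Set X} {L : ℝ} {f : X → ℝ} (h : SL U L f) (hC : Convex ℝ C)
    (hCU : C ⊆ U) : LipschitzOnWith L.toNNReal f C := by
  refine LipschitzOnWith.of_dist_le_mul fun p hp q hq => ?_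
  have := h p q ((hC.segment_subset hp hq).trans hCU)
  rw [Real.dist_eq]
  exact this.trans (mul_le_mul_of_nonneg_right (Real.le_coe_toNNReal L) dist_nonneg)

theorem SL_iff_lipschitzOnWith {C : Set X} {L : ℝ≥0} {f : X → ℝ} (hC : Convex ℝ C) :
    SL C L f ↔ LipschitzOnWith L f C := by
  refine ⟨fun h => ?_, SL_of_lipschitzOn⟩
  simpa using h.lipschitzOnWith hC subset_rfl

theorem SL.lipschitzOnWith_ball {U : Set X} {L : ℝ} {f : X → ℝ} (h : SL U L f) (hU : IsOpen U)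
    {p : X} (hp : p ∈ U) : ∃ r > 0, Metric.ball p r ⊆ U ∧
      LipschitzOnWith L.toNNReal f (Metric.ball p r) := by
  obtain ⟨r, hr, hrU⟩ := Metric.isOpen_iff.mp hU p hp
  exact ⟨r, hr, hrU, h.lipschitzOnWith (convex_ball p r) hrU⟩

theorem SL.continuousOn {U : Set X} {L : ℝ} {f : X → ℝ} (h : SL U L f) (hU : IsOpen U) :
    ContinuousOn f U := by
  intro p hp
  obtain ⟨r, hr, hrU, hl⟩ := h.lipschitzOnWith_ball hU hp
  exact ((hl.continuousOn p (Metric.mem_ball_self hr)).continuousAt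
    (Metric.ball_mem_nhds p hr)).continuousWithinAt

theorem SL.continuousAt {U : Set X} {L : ℝ} {f : X → ℝ} (h : SL U L f) (hU : IsOpen U)
    {p : X} (hp : p ∈ U) : ContinuousAt f p :=
  (h.continuousOn hU p hp).continuousAt (hU.mem_nhds hp)

/-- Extension of the inequality to the closure of the segments: a chain of segments. -/
theorem SL.trans_le {U : Set X} {L : ℝ} {f : X → ℝ} (h : SL U L f) {p q r : X}
    (h1 : segment ℝ p q ⊆ U) (h2 : segment ℝ q r ⊆ U) :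
    |f p - f r| ≤ L * (dist p q + dist q r) := by
  calc |f p - f r| = |(f p - f q) + (f q - f r)| := by congr 1; ring
    _ ≤ |f p - f q| + |f q - f r| := abs_add_le _ _
    _ ≤ _ := by rw [mul_add]; exact add_le_add (h p q h1) (h q r h2)

/-- The class `CF U`: bounded on `U` and Lipschitz along the segments in `U`. -/
def CF (U : Set X) (f : X → ℝ) : Prop :=
  ∃ L C : ℝ, 0 ≤ L ∧ SL U L f ∧ ∀ p ∈ U, |f p| ≤ C

theorem CF.mono {U V : Set X} {f : X → ℝ} (h : CF U f) (hV : V ⊆ U) : CF V f := by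
  obtain ⟨L, C, hL, h1, h2⟩ := h
  exact ⟨L, C, hL, h1.mono hV, fun p hp => h2 p (hV hp)⟩

theorem CF.congr {U : Set X} {f g : X → ℝ} (h : CF U f) (hfg : EqOn f g U) : CF U g := by
  obtain ⟨L, C, hL, h1, h2⟩ := h
  exact ⟨L, C, hL, h1.congr hfg, fun p hp => by rw [← hfg hp]; exact h2 p hp⟩

theorem CF_congr {U : Set X} {f g : X → ℝ} (hfg : EqOn f g U) : CF U f ↔ CF U g :=
  ⟨fun h => h.congr hfg, fun h => h.congr hfg.symm⟩

theorem CF_const {U : Set X} (c : ℝ) : CF U (fun _ : X => c) :=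
  ⟨0, |c|, le_rfl, SL_const c, fun _ _ => le_rfl⟩

theorem CF_zero {U : Set X} : CF U (0 : X → ℝ) := CF_const 0

theorem CF_of_lipschitz {U : Set X} {L : ℝ≥0} {f : X → ℝ} (h : LipschitzWith L f)
    {C : ℝ} (hC : ∀ p ∈ U, |f p| ≤ C) : CF U f :=
  ⟨L, C, L.2, SL_of_lipschitz h, hC⟩

theorem CF.neg {U : Set X} {f : X → ℝ} (h : CF U f) : CF U (fun p => - f p) := by
  obtain ⟨L, C, hL, h1, h2⟩ := h
  exact ⟨L, C, hL, h1.neg, fun p hp => by rw [abs_neg]; exact h2 p hp⟩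

theorem CF.add {U : Set X} {f g : X → ℝ} (h : CF U f) (k : CF U g) :
    CF U (fun p => f p + g p) := by
  obtain ⟨L, C, hL, h1, h2⟩ := h
  obtain ⟨M, D, hM, k1, k2⟩ := k
  exact ⟨L + M, C + D, by positivity, h1.add k1, fun p hp =>
    (abs_add_le _ _).trans (add_le_add (h2 p hp) (k2 p hp))⟩

theorem CF.sub {U : Set X} {f g : X → ℝ} (h : CF U f) (k : CF U g) :
    CF U (fun p => f p - g p) := by
  simpa [sub_eq_add_neg] using h.add k.neg

theorem CF.const_mul {U : Set X} {f : X → ℝ} (h : CF U f) (c : ℝ) :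
    CF U (fun p => c * f p) := by
  obtain ⟨L, C, hL, h1, h2⟩ := h
  exact ⟨|c| * L, |c| * C, by positivity, h1.const_mul c, fun p hp => by
    rw [abs_mul]; exact mul_le_mul_of_nonneg_left (h2 p hp) (abs_nonneg _)⟩

theorem CF.mul {U : Set X} {f g : X → ℝ} (h : CF U f) (k : CF U g) :
    CF U (fun p => f p * g p) := by
  obtain ⟨L, C, hL, h1, h2⟩ := h
  obtain ⟨M, D, hM, k1, k2⟩ := k
  rcases U.eq_empty_or_nonempty with rfl | ⟨p0, hp0⟩
  · exact ⟨0, 0, le_rfl, fun p q hpq => absurd (hpq (left_mem_segment ℝ p q)) (notMem_empty _),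
      fun p hp => absurd hp (notMem_empty _)⟩
  have hC0 : 0 ≤ C := (abs_nonneg _).trans (h2 p0 hp0)
  have hD0 : 0 ≤ D := (abs_nonneg _).trans (k2 p0 hp0)
  exact ⟨C * M + D * L, C * D, by positivity, h1.mul k1 h2 k2, fun p hp => by
    rw [abs_mul]; exact mul_le_mul (h2 p hp) (k2 p hp) (abs_nonneg _) hC0⟩

theorem CF.max {U : Set X} {f g : X → ℝ} (h : CF U f) (k : CF U g) :
    CF U (fun p => Max.max (f p) (g p)) := by
  obtain ⟨L, C, hL, h1, h2⟩ := h
  obtain ⟨M, D, hM, k1, k2⟩ := k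
  refine ⟨Max.max L M, Max.max C D, le_max_of_le_left hL, h1.max k1, fun p hp => ?_⟩
  exact abs_max_le_max_abs_abs.trans (max_le_max (h2 p hp) (k2 p hp))

theorem CF.min {U : Set X} {f g : X → ℝ} (h : CF U f) (k : CF U g) :
    CF U (fun p => Min.min (f p) (g p)) := by
  have := (h.neg.max k.neg).neg
  refine this.congr ?_
  intro p _
  simp [max_neg_neg]

theorem CF.abs {U : Set X} {f : X → ℝ} (h : CF U f) : CF U (fun p => |f p|) := by
  obtain ⟨L, C, hL, h1, h2⟩ := h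
  exact ⟨L, C, hL, h1.abs, fun p hp => by rw [abs_abs]; exact h2 p hp⟩

theorem CF.comp {U : Set X} {f : X → ℝ} (h : CF U f) {M : ℝ} (hM : 0 ≤ M) {G : ℝ → ℝ}
    (hG : ∀ s t, |G s - G t| ≤ M * |s - t|) : CF U (fun p => G (f p)) := by
  obtain ⟨L, C, hL, h1, h2⟩ := h
  refine ⟨M * L, |G 0| + M * C, by positivity, h1.comp hM hG, fun p hp => ?_⟩
  have h3 := hG (f p) 0
  have h4 : |G (f p)| ≤ |G (f p) - G 0| + |G 0| := by
    have := abs_add_le (G (f p) - G 0) (G 0); simpa using this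
  have h5 : M * |f p - 0| ≤ M * C := by
    rw [sub_zero]; exact mul_le_mul_of_nonneg_left (h2 p hp) hM
  linarith

theorem CF.sum {ι : Type*} {U : Set X} {f : ι → X → ℝ} (s : Finset ι)
    (h : ∀ i ∈ s, CF U (f i)) : CF U (fun p => ∑ i ∈ s, f i p) := by
  classical
  induction s using Finset.induction_on with
  | empty => simpa using CF_const (U := U) 0
  | insert a s ha ih =>
    have h1 := h a (Finset.mem_insert_self a s)
    have h2 := ih fun i hi => h i (Finset.mem_insert_of_mem hi)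
    have := h1.add h2
    refine this.congr ?_
    intro p _
    simp [Finset.sum_insert ha]

theorem CF.continuousOn {U : Set X} {f : X → ℝ} (h : CF U f) (hU : IsOpen U) :
    ContinuousOn f U := by
  obtain ⟨L, C, hL, h1, h2⟩ := h
  exact h1.continuousOn hU

theorem CF.continuousAt {U : Set X} {f : X → ℝ} (h : CF U f) (hU : IsOpen U)
    {p : X} (hp : p ∈ U) : ContinuousAt f p :=
  (h.continuousOn hU p hp).continuousAt (hU.mem_nhds hp)

/-- Extension by zero: `f` is `CF` on `U`, vanishes on `U` near the boundary points of `N` that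
lie in `V`; then `f·1_N` is `CF` on `V` as soon as `V ∩ N ⊆ U`.  (`Z` = closed set containing
`V \ N`.)  Here in the simplest form: `f` vanishes on `U ∩ A`, with `A` open, `V ⊆ N ∪ A`,
`N` open. -/
theorem SL.indicator {U V N A : Set X} {L : ℝ} {f : X → ℝ} (hL : 0 ≤ L) (h : SL U L f)
    (hN : IsOpen N) (hA : IsOpen A) (hV : V ⊆ N ∪ A) (hU : V ∩ N ⊆ U)
    (h0 : ∀ p ∈ V ∩ N ∩ A, f p = 0) : SL V L (N.indicator f) := by
  classical
  intro p q hpq
  -- the set of parameters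
  let γ : ℝ → X := fun t => AffineMap.lineMap p q t
  have hγc : Continuous γ := AffineMap.lineMap_continuous
  have hγV : ∀ t ∈ Icc (0:ℝ) 1, γ t ∈ V := by
    intro t ht
    apply hpq
    rw [segment_eq_image_lineMap]
    exact ⟨t, ht, rfl⟩
  have hdist : ∀ s t, dist (γ s) (γ t) = |s - t| * dist p q := by
    intro s t
    simp only [γ]
    rw [dist_lineMap_lineMap, Real.dist_eq]
  -- local Lipschitz property of g := N.indicator f ∘ γ, with constant L * dist p q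
  set D := L * dist p q with hD
  have hD0 : 0 ≤ D := mul_nonneg hL dist_nonneg
  set g : ℝ → ℝ := fun t => N.indicator f (γ t) with hg
  have hloc : ∀ t ∈ Icc (0:ℝ) 1, ∃ r > 0, ∀ s ∈ Icc (0:ℝ) 1, ∀ s' ∈ Icc (0:ℝ) 1,
      |s - t| < r → |s' - t| < r → |g s - g s'| ≤ D * |s - s'| := by
    intro t ht
    rcases hV (hγV t ht) with htN | htA
    · obtain ⟨r, hr, hrN⟩ := Metric.isOpen_iff.mp (hN.preimage hγc) t htN
      refine ⟨r, hr, fun s hs s' hs' h1 h2 => ?_⟩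
      have hsub : ∀ u, |u - t| < r → γ u ∈ N := fun u hu =>
        hrN (by rw [Metric.mem_ball, Real.dist_eq]; exact hu)
      have hseg : segment ℝ (γ s) (γ s') ⊆ U := by
        intro z hz
        rw [segment_eq_image_lineMap] at hz
        obtain ⟨c, hc, rfl⟩ := hz
        have hz' : AffineMap.lineMap (γ s) (γ s') c = γ (AffineMap.lineMap s s' c) := by
          simp only [γ, AffineMap.lineMap_apply, vsub_eq_sub, vadd_eq_add, smul_eq_mul]
          module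
        rw [hz']
        have hmem : AffineMap.lineMap s s' c ∈ segment ℝ s s' := by
          rw [segment_eq_image_lineMap]; exact ⟨c, hc, rfl⟩
        apply hU
        refine ⟨hγV _ ?_, hsub _ ?_⟩
        · exact (convex_Icc (0:ℝ) 1).segment_subset hs hs' hmem
        · have : Convex ℝ (Metric.ball t r) := convex_ball t r
          have h3 := this.segment_subset (x := s) (y := s')
            (by rw [Metric.mem_ball, Real.dist_eq]; exact h1)
            (by rw [Metric.mem_ball, Real.dist_eq]; exact h2) hmem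
          rwa [Metric.mem_ball, Real.dist_eq] at h3
      have h3 := h (γ s) (γ s') hseg
      rw [hdist] at h3
      simp only [hg]
      rw [indicator_of_mem (hsub s h1), indicator_of_mem (hsub s' h2)]
      calc _ ≤ _ := h3
        _ = D * |s - s'| := by rw [hD]; ring
    · obtain ⟨r, hr, hrA⟩ := Metric.isOpen_iff.mp (hA.preimage hγc) t htA
      refine ⟨r, hr, fun s hs s' hs' h1 h2 => ?_⟩
      have hz : ∀ u ∈ Icc (0:ℝ) 1, |u - t| < r → g u = 0 := by
        intro u hu1 hu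
        have huA : γ u ∈ A := hrA (by rw [Metric.mem_ball, Real.dist_eq]; exact hu)
        simp only [hg]
        by_cases huN : γ u ∈ N
        · rw [indicator_of_mem huN]
          exact h0 _ ⟨⟨hγV u hu1, huN⟩, huA⟩
        · rw [indicator_of_notMem huN]
      rw [hz s hs h1, hz s' hs' h2]
      simpa using mul_nonneg hD0 (abs_nonneg _)
  -- from local to global on [0,1]
  have key : ∀ t ∈ Icc (0:ℝ) 1, |g t - g 0| ≤ D * t := by
    -- continuous induction
    let S : Set ℝ := {t | |g t - g 0| ≤ D * t}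
    have hcont : ContinuousOn g (Icc 0 1) := by
      intro t ht
      obtain ⟨r, hr, hr'⟩ := hloc t ht
      rw [Metric.continuousWithinAt_iff]
      intro ε hε
      refine ⟨Min.min r (ε / (D + 1)), by positivity, fun {s} hs hst => ?_⟩
      rw [Real.dist_eq] at hst ⊢
      have h1 := hr' s hs t ht (lt_of_lt_of_le hst (min_le_left _ _)) (by simpa using hr)
      have h2 : |s - t| < ε / (D + 1) := lt_of_lt_of_le hst (min_le_right _ _)
      rw [lt_div_iff₀ (by positivity)] at h2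
      nlinarith [abs_nonneg (s - t)]
    have hSc : IsClosed (S ∩ Icc 0 1) := by
      have : S ∩ Icc 0 1 = Icc (0:ℝ) 1 ∩ (fun t => D * t - |g t - g 0|) ⁻¹' (Ici 0) := by
        ext t; simp only [S, mem_inter_iff, mem_ofPred_eq, mem_preimage, mem_Ici, sub_nonneg]
        tauto
      rw [this]
      apply ContinuousOn.preimage_isClosed_of_isClosed _ isClosed_Icc isClosed_Ici
      exact (continuousOn_const.mul continuousOn_id).sub (hcont.sub continuousOn_const).abs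
    have h0S : (0:ℝ) ∈ S := by simp [S]
    have := hSc.Icc_subset_of_forall_mem_nhdsWithin (a := 0) (b := 1) h0S (by
      rintro t ⟨htS, ht⟩
      obtain ⟨r, hr, hr'⟩ := hloc t ⟨ht.1, ht.2.le⟩
      have : Ioo t (Min.min (t + r) 1) ∈ 𝓝[>] t :=
        Ioo_mem_nhdsGT (lt_min (by linarith) ht.2)
      filter_upwards [this] with s hs
      have hs1 : s < t + r := lt_of_lt_of_le hs.2 (min_le_left _ _)
      have hs2 : s < 1 := lt_of_lt_of_le hs.2 (min_le_right _ _)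
      have h1 := hr' s ⟨ht.1.trans hs.1.le, hs2.le⟩ t ⟨ht.1, ht.2.le⟩
        (by rw [abs_lt]; constructor <;> linarith [hs.1]) (by simpa using hr)
      simp only [S, mem_ofPred_eq] at htS ⊢
      have h2 : |g s - g 0| ≤ |g s - g t| + |g t - g 0| := by
        have := abs_add_le (g s - g t) (g t - g 0); simpa using this
      rw [abs_of_pos (by linarith [hs.1] : (0:ℝ) < s - t)] at h1
      nlinarith)
    exact fun t ht => this ht
  have h1 := key 1 (by simp)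
  have hg1 : g 1 = N.indicator f q := by simp [hg, γ]
  have hg0 : g 0 = N.indicator f p := by simp [hg, γ]
  rw [hg1, hg0, mul_one] at h1
  rw [abs_sub_comm]
  exact h1

theorem CF.indicator {U V N A : Set X} {f : X → ℝ} (h : CF U f)
    (hN : IsOpen N) (hA : IsOpen A) (hV : V ⊆ N ∪ A) (hU : V ∩ N ⊆ U)
    (h0 : ∀ p ∈ V ∩ N ∩ A, f p = 0) : CF V (N.indicator f) := by
  classical
  obtain ⟨L, C, hL, h1, h2⟩ := h
  refine ⟨L, Max.max C 0, hL, h1.indicator hL hN hA hV hU h0, fun p hp => ?_⟩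
  by_cases hpN : p ∈ N
  · rw [indicator_of_mem hpN]; exact (h2 p (hU ⟨hp, hpN⟩)).trans (le_max_left _ _)
  · rw [indicator_of_notMem hpN]; simp

end Gen

/-- A vertical hair `{x} × [b,t]`, `b < t`. -/
@[ext] structure Hair where
  x : ℝ
  b : ℝ
  t : ℝ
  hbt : b < t

/-- The closed segment carried by a hair. -/
def Hair.car (K : Hair) : Set (ℝ × ℝ) := {p | p.1 = K.x ∧ K.b ≤ p.2 ∧ p.2 ≤ K.t}

/-- The union of a finite set of hairs. -/
def cut (J : Finset Hair) : Set (ℝ × ℝ) := {p | ∃ K ∈ J, p ∈ K.car}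

theorem Hair.mem_car {K : Hair} {p : ℝ × ℝ} : p ∈ K.car ↔ p.1 = K.x ∧ K.b ≤ p.2 ∧ p.2 ≤ K.t :=
  Iff.rfl

theorem Hair.car_eq (K : Hair) : K.car = {K.x} ×ˢ Icc K.b K.t := by
  ext p; simp [Hair.car]

theorem Hair.isCompact_car (K : Hair) : IsCompact K.car := by
  rw [K.car_eq]; exact isCompact_singleton.prod isCompact_Icc

theorem Hair.isClosed_car (K : Hair) : IsClosed K.car := K.isCompact_car.isClosed

theorem Hair.volume_car (K : Hair) : volume K.car = 0 := by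
  rw [K.car_eq, Measure.volume_eq_prod, Measure.prod_prod]; simp

theorem Hair.car_injective {K K' : Hair} (h : K.car = K'.car) : K = K' := by
  have h1 : (K.x, K.b) ∈ K'.car := h ▸ (⟨rfl, le_rfl, K.hbt.le⟩ : (K.x, K.b) ∈ K.car)
  have h2 : (K.x, K.t) ∈ K'.car := h ▸ (⟨rfl, K.hbt.le, le_rfl⟩ : (K.x, K.t) ∈ K.car)
  have h3 : (K'.x, K'.b) ∈ K.car := h ▸ (⟨rfl, le_rfl, K'.hbt.le⟩ : (K'.x, K'.b) ∈ K'.car)
  have h4 : (K'.x, K'.t) ∈ K.car := h ▸ (⟨rfl, K'.hbt.le, le_rfl⟩ : (K'.x, K'.t) ∈ K'.car)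
  ext
  · exact h1.1
  · exact le_antisymm h3.2.1 h1.2.1
  · exact le_antisymm h2.2.2 h4.2.2

theorem mem_cut {J : Finset Hair} {p : ℝ × ℝ} : p ∈ cut J ↔ ∃ K ∈ J, p ∈ K.car := Iff.rfl

theorem cut_eq_biUnion (J : Finset Hair) : cut J = ⋃ K ∈ J, K.car := by
  ext p; simp [cut]

@[simp] theorem cut_empty : cut ∅ = ∅ := by
  ext p; simp [cut]

theorem cut_mono {J J' : Finset Hair} (h : J ⊆ J') : cut J ⊆ cut J' := by
  rintro p ⟨K, hK, hp⟩; exact ⟨K, h hK, hp⟩

theorem car_subset_cut {J : Finset Hair} {K : Hair} (h : K ∈ J) : K.car ⊆ cut J :=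
  fun _ hp => ⟨K, h, hp⟩

theorem cut_union [DecidableEq Hair] (J J' : Finset Hair) : cut (J ∪ J') = cut J ∪ cut J' := by
  ext p; simp only [cut, Finset.mem_union, mem_ofPred_eq, mem_union]
  constructor
  · rintro ⟨K, hK | hK, hp⟩
    · exact Or.inl ⟨K, hK, hp⟩
    · exact Or.inr ⟨K, hK, hp⟩
  · rintro (⟨K, hK, hp⟩ | ⟨K, hK, hp⟩)
    · exact ⟨K, Or.inl hK, hp⟩
    · exact ⟨K, Or.inr hK, hp⟩

theorem isCompact_cut (J : Finset Hair) : IsCompact (cut J) := by
  rw [cut_eq_biUnion]; exact J.isCompact_biUnion fun K _ => K.isCompact_car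

theorem isClosed_cut (J : Finset Hair) : IsClosed (cut J) := (isCompact_cut J).isClosed

theorem volume_cut (J : Finset Hair) : volume (cut J) = 0 := by
  rw [cut_eq_biUnion]
  exact (measure_biUnion_null_iff J.countable_toSet).mpr fun K _ => K.volume_car

theorem isOpen_diff_cut {W : Set (ℝ × ℝ)} (hW : IsOpen W) (J : Finset Hair) :
    IsOpen (W \ cut J) := hW.sdiff (isClosed_cut J)

/-- `CFJ 𝓗 W f`: `f` is bounded and Lipschitz along segments of `W` off finitely many hairs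
of the family `𝓗`. -/
def CFJ (𝓗 : Set Hair) (W : Set (ℝ × ℝ)) (f : ℝ × ℝ → ℝ) : Prop :=
  ∃ J : Finset Hair, (∀ K ∈ J, K ∈ 𝓗) ∧ CF (W \ cut J) f

theorem CFJ.two {𝓗 : Set Hair} {W : Set (ℝ × ℝ)} {f g : ℝ × ℝ → ℝ} (h : CFJ 𝓗 W f)
    (k : CFJ 𝓗 W g) : ∃ J : Finset Hair, (∀ K ∈ J, K ∈ 𝓗) ∧ CF (W \ cut J) f ∧
      CF (W \ cut J) g := by
  classical
  obtain ⟨J, hJ, h⟩ := h
  obtain ⟨J', hJ', k⟩ := k
  refine ⟨J ∪ J', fun K hK => ?_, h.mono ?_, k.mono ?_⟩
  · rcases Finset.mem_union.mp hK with h | h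
    · exact hJ K h
    · exact hJ' K h
  · exact sdiff_subset_sdiff_right (cut_mono Finset.subset_union_left)
  · exact sdiff_subset_sdiff_right (cut_mono Finset.subset_union_right)

theorem CFJ.mono {𝓗 𝓗' : Set Hair} {W W' : Set (ℝ × ℝ)} {f : ℝ × ℝ → ℝ} (h : CFJ 𝓗 W f)
    (h𝓗 : 𝓗 ⊆ 𝓗') (hW : W' ⊆ W) : CFJ 𝓗' W' f := by
  obtain ⟨J, hJ, h⟩ := h
  exact ⟨J, fun K hK => h𝓗 (hJ K hK), h.mono (sdiff_subset_sdiff_left hW)⟩

theorem CF.cfj {𝓗 : Set Hair} {W : Set (ℝ × ℝ)} {f : ℝ × ℝ → ℝ} (h : CF W f) : CFJ 𝓗 W f :=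
  ⟨∅, by simp, by simpa using h⟩

theorem CFJ_const {𝓗 : Set Hair} {W : Set (ℝ × ℝ)} (c : ℝ) : CFJ 𝓗 W (fun _ => c) :=
  (CF_const c).cfj

theorem CFJ.neg {𝓗 : Set Hair} {W : Set (ℝ × ℝ)} {f : ℝ × ℝ → ℝ} (h : CFJ 𝓗 W f) :
    CFJ 𝓗 W (fun p => - f p) := by
  obtain ⟨J, hJ, h⟩ := h; exact ⟨J, hJ, h.neg⟩

theorem CFJ.abs {𝓗 : Set Hair} {W : Set (ℝ × ℝ)} {f : ℝ × ℝ → ℝ} (h : CFJ 𝓗 W f) :
    CFJ 𝓗 W (fun p => |f p|) := by
  obtain ⟨J, hJ, h⟩ := h; exact ⟨J, hJ, h.abs⟩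

theorem CFJ.const_mul {𝓗 : Set Hair} {W : Set (ℝ × ℝ)} {f : ℝ × ℝ → ℝ} (h : CFJ 𝓗 W f)
    (c : ℝ) : CFJ 𝓗 W (fun p => c * f p) := by
  obtain ⟨J, hJ, h⟩ := h; exact ⟨J, hJ, h.const_mul c⟩

theorem CFJ.comp {𝓗 : Set Hair} {W : Set (ℝ × ℝ)} {f : ℝ × ℝ → ℝ} (h : CFJ 𝓗 W f)
    {M : ℝ} (hM : 0 ≤ M) {G : ℝ → ℝ} (hG : ∀ s t, |G s - G t| ≤ M * |s - t|) :
    CFJ 𝓗 W (fun p => G (f p)) := by
  obtain ⟨J, hJ, h⟩ := h; exact ⟨J, hJ, h.comp hM hG⟩

theorem CFJ.add {𝓗 : Set Hair} {W : Set (ℝ × ℝ)} {f g : ℝ × ℝ → ℝ} (h : CFJ 𝓗 W f)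
    (k : CFJ 𝓗 W g) : CFJ 𝓗 W (fun p => f p + g p) := by
  obtain ⟨J, hJ, h, k⟩ := h.two k; exact ⟨J, hJ, h.add k⟩

theorem CFJ.sub {𝓗 : Set Hair} {W : Set (ℝ × ℝ)} {f g : ℝ × ℝ → ℝ} (h : CFJ 𝓗 W f)
    (k : CFJ 𝓗 W g) : CFJ 𝓗 W (fun p => f p - g p) := by
  obtain ⟨J, hJ, h, k⟩ := h.two k; exact ⟨J, hJ, h.sub k⟩

theorem CFJ.mul {𝓗 : Set Hair} {W : Set (ℝ × ℝ)} {f g : ℝ × ℝ → ℝ} (h : CFJ 𝓗 W f)
    (k : CFJ 𝓗 W g) : CFJ 𝓗 W (fun p => f p * g p) := by
  obtain ⟨J, hJ, h, k⟩ := h.two k; exact ⟨J, hJ, h.mul k⟩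

theorem CFJ.max {𝓗 : Set Hair} {W : Set (ℝ × ℝ)} {f g : ℝ × ℝ → ℝ} (h : CFJ 𝓗 W f)
    (k : CFJ 𝓗 W g) : CFJ 𝓗 W (fun p => Max.max (f p) (g p)) := by
  obtain ⟨J, hJ, h, k⟩ := h.two k; exact ⟨J, hJ, h.max k⟩

theorem CFJ.min {𝓗 : Set Hair} {W : Set (ℝ × ℝ)} {f g : ℝ × ℝ → ℝ} (h : CFJ 𝓗 W f)
    (k : CFJ 𝓗 W g) : CFJ 𝓗 W (fun p => Min.min (f p) (g p)) := by
  obtain ⟨J, hJ, h, k⟩ := h.two k; exact ⟨J, hJ, h.min k⟩

theorem CFJ.indicator {𝓗 : Set Hair} {W V N A : Set (ℝ × ℝ)} {f : ℝ × ℝ → ℝ} (h : CFJ 𝓗 W f)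
    (hN : IsOpen N) (hA : IsOpen A) (hV : V ⊆ N ∪ A) (hU : V ∩ N ⊆ W)
    (h0 : ∀ p ∈ V ∩ N ∩ A, f p = 0) : CFJ 𝓗 V (N.indicator f) := by
  obtain ⟨J, hJ, h⟩ := h
  refine ⟨J, hJ, h.indicator hN hA (sdiff_subset.trans hV) ?_ fun p hp => h0 p ?_⟩
  · rintro p ⟨⟨hpV, hpJ⟩, hpN⟩
    exact ⟨hU ⟨hpV, hpN⟩, hpJ⟩
  · exact ⟨⟨hp.1.1.1, hp.1.2⟩, hp.2⟩

/-- The functions of class `CFJ 𝓗 W` as a submodule of `ℝ × ℝ → ℝ`. -/
def CFin (𝓗 : Set Hair) (W : Set (ℝ × ℝ)) : Submodule ℝ (ℝ × ℝ → ℝ) where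
  carrier := {f | CFJ 𝓗 W f}
  add_mem' := fun h k => CFJ.add h k
  zero_mem' := CFJ_const 0
  smul_mem' := fun c _ h => CFJ.const_mul h c

theorem mem_CFin {𝓗 : Set Hair} {W : Set (ℝ × ℝ)} {f : ℝ × ℝ → ℝ} :
    f ∈ CFin 𝓗 W ↔ CFJ 𝓗 W f := Iff.rfl

end Crest.Agent.R105.CF_363
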