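import Mathlib
import Crest.Agent.R105.CF1_363

/-!
# Row 105: gradient of functions which are Lipschitz along segments of an open set

`gx f p = fderiv ℝ f p (1,0)`, `gy f p = fderiv ℝ f p (0,1)`.
-/

namespace Crest.Agent.R105.CF_363

open Set Filter MeasureTheory Topology
open scoped ENNReal NNReal

/-- horizontal partial derivative -/
noncomputable def gx (f : ℝ × ℝ → ℝ) (p : ℝ × ℝ) : ℝ := fderiv ℝ f p (1, 0)

/-- vertical partial derivative -/
noncomputable def gy (f : ℝ × ℝ → ℝ) (p : ℝ × ℝ) : ℝ := fderiv ℝ f p (0, 1)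

theorem measurable_gx (f : ℝ × ℝ → ℝ) : Measurable (gx f) :=
  measurable_fderiv_apply_const ℝ f (1, 0)

theorem measurable_gy (f : ℝ × ℝ → ℝ) : Measurable (gy f) :=
  measurable_fderiv_apply_const ℝ f (0, 1)

theorem gx_eq_deriv {f : ℝ × ℝ → ℝ} {x y : ℝ} (h : DifferentiableAt ℝ f (x, y)) :
    HasDerivAt (fun s => f (s, y)) (gx f (x, y)) x := by
  have h1 : HasDerivAt (fun s : ℝ => (s, y)) ((1 : ℝ), (0 : ℝ)) x :=
    (hasDerivAt_id x).prodMk (hasDerivAt_const x y)
  exact h.hasFDerivAt.comp_hasDerivAt x h1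

theorem gy_eq_deriv {f : ℝ × ℝ → ℝ} {x y : ℝ} (h : DifferentiableAt ℝ f (x, y)) :
    HasDerivAt (fun s => f (x, s)) (gy f (x, y)) y := by
  have h1 : HasDerivAt (fun s : ℝ => (x, s)) ((0 : ℝ), (1 : ℝ)) y :=
    (hasDerivAt_const y x).prodMk (hasDerivAt_id y)
  exact h.hasFDerivAt.comp_hasDerivAt y h1

theorem gx_congr {f g : ℝ × ℝ → ℝ} {p : ℝ × ℝ} (h : f =ᶠ[𝓝 p] g) : gx f p = gx g p := by
  unfold gx; rw [h.fderiv_eq]

theorem gy_congr {f g : ℝ × ℝ → ℝ} {p : ℝ × ℝ} (h : f =ᶠ[𝓝 p] g) : gy f p = gy g p := by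
  unfold gy; rw [h.fderiv_eq]

@[simp] theorem gx_const (c : ℝ) (p : ℝ × ℝ) : gx (fun _ => c) p = 0 := by simp [gx]

@[simp] theorem gy_const (c : ℝ) (p : ℝ × ℝ) : gy (fun _ => c) p = 0 := by simp [gy]

theorem fderiv_eq_iff {f g : ℝ × ℝ → ℝ} {p q : ℝ × ℝ} :
    fderiv ℝ f p = fderiv ℝ g q ↔ gx f p = gx g q ∧ gy f p = gy g q := by
  constructor
  · intro h; simp [gx, gy, h]
  · rintro ⟨h1, h2⟩
    ext <;> simpa [gx, gy] using (by assumption)

theorem norm_fderiv_le_of_SL {X : Type*} [NormedAddCommGroup X] [NormedSpace ℝ X]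
    {U : Set X} {L : ℝ} {f : X → ℝ} (h : SL U L f)
    (hU : IsOpen U) (hL : 0 ≤ L) {p : X} (hp : p ∈ U) : ‖fderiv ℝ f p‖ ≤ L := by
  obtain ⟨r, hr, hrU, hl⟩ := h.lipschitzOnWith_ball hU hp
  have := norm_fderiv_le_of_lipschitzOn ℝ (Metric.ball_mem_nhds p hr) hl
  rwa [Real.coe_toNNReal L hL] at this

theorem SL.abs_gx_le {U : Set (ℝ × ℝ)} {L : ℝ} {f : ℝ × ℝ → ℝ} (h : SL U L f)
    (hU : IsOpen U) (hL : 0 ≤ L) {p : ℝ × ℝ} (hp : p ∈ U) : |gx f p| ≤ L := by
  have h1 := (fderiv ℝ f p).le_opNorm (1, 0)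
  have h2 := norm_fderiv_le_of_SL h hU hL hp
  have h3 : ‖((1 : ℝ), (0 : ℝ))‖ = 1 := by simp [Prod.norm_def]
  rw [h3, mul_one] at h1
  exact h1.trans h2

theorem SL.abs_gy_le {U : Set (ℝ × ℝ)} {L : ℝ} {f : ℝ × ℝ → ℝ} (h : SL U L f)
    (hU : IsOpen U) (hL : 0 ≤ L) {p : ℝ × ℝ} (hp : p ∈ U) : |gy f p| ≤ L := by
  have h1 := (fderiv ℝ f p).le_opNorm (0, 1)
  have h2 := norm_fderiv_le_of_SL h hU hL hp
  have h3 : ‖((0 : ℝ), (1 : ℝ))‖ = 1 := by simp [Prod.norm_def]
  rw [h3, mul_one] at h1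
  exact h1.trans h2

/-- Rademacher. -/
theorem SL.ae_differentiableAt {X : Type*} [NormedAddCommGroup X] [NormedSpace ℝ X]
    [FiniteDimensional ℝ X] [MeasurableSpace X] [BorelSpace X] {μ : Measure X}
    [μ.IsAddHaarMeasure] {U : Set X} {L : ℝ} {f : X → ℝ} (h : SL U L f)
    (hU : IsOpen U) : ∀ᵐ p ∂μ, p ∈ U → DifferentiableAt ℝ f p := by
  have : μ {p | ¬ (p ∈ U → DifferentiableAt ℝ f p)} = 0 := by
    refine measure_null_of_locally_null _ fun p hp => ?_
    have hpU : p ∈ U := by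
      by_contra hc
      exact hp fun h => absurd h hc
    obtain ⟨r, hr, hrU, hl⟩ := h.lipschitzOnWith_ball hU hpU
    have h1 := hl.ae_differentiableWithinAt_of_mem (μ := μ)
    refine ⟨{p | ¬ (p ∈ U → DifferentiableAt ℝ f p)} ∩ Metric.ball p r,
      inter_mem_nhdsWithin _ (Metric.ball_mem_nhds p hr), ?_⟩
    have h2 : ∀ᵐ q ∂μ, ¬ (q ∈ {p | ¬ (p ∈ U → DifferentiableAt ℝ f p)} ∩ Metric.ball p r) := by
      filter_upwards [h1] with q hq
      rintro ⟨hq1, hq2⟩
      exact hq1 fun _ => (hq hq2).differentiableAt (Metric.isOpen_ball.mem_nhds hq2)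
    rw [ae_iff] at h2
    simp only [not_not] at h2
    exact h2
  exact this

theorem ae_swap {P : ℝ × ℝ → Prop} (h : ∀ᵐ p : ℝ × ℝ, P p) : ∀ᵐ y : ℝ, ∀ᵐ x : ℝ, P (x, y) := by
  have h1 : ∀ᵐ q : ℝ × ℝ, P q.swap := by
    have h2 := (Measure.measurePreserving_swap (μ := (volume : Measure ℝ))
      (ν := (volume : Measure ℝ))).quasiMeasurePreserving
    rw [← Measure.volume_eq_prod] at h2
    exact h2.ae h
  rw [Measure.volume_eq_prod] at h1
  exact Measure.ae_ae_of_ae_prod h1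

theorem ae_unswap {P : ℝ × ℝ → Prop} (h : ∀ᵐ p : ℝ × ℝ, P p) :
    ∀ᵐ x : ℝ, ∀ᵐ y : ℝ, P (x, y) := by
  rw [Measure.volume_eq_prod] at h
  exact Measure.ae_ae_of_ae_prod h

/-- one-variable fundamental theorem for Lipschitz functions, with a given derivative a.e. -/
theorem ftc_lip {φ g : ℝ → ℝ} {a b : ℝ} {K : ℝ≥0} (h : LipschitzOnWith K φ (uIcc a b))
    (hd : ∀ᵐ x, x ∈ uIcc a b → HasDerivAt φ (g x) x) :
    φ b - φ a = ∫ x in a..b, g x := by
  rw [← h.absolutelyContinuousOnInterval.integral_deriv_eq_sub]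
  apply intervalIntegral.integral_congr_ae
  filter_upwards [hd] with x hx hx'
  exact (hx (uIoc_subset_uIcc hx')).deriv

theorem segment_x {a b y : ℝ} : segment ℝ (a, y) (b, y) = (fun x : ℝ => (x, y)) '' uIcc a b := by
  rw [segment_symm]
  ext p
  rw [segment_eq_image_lineMap, ← segment_eq_uIcc, segment_symm, segment_eq_image_lineMap]
  constructor
  · rintro ⟨t, ht, rfl⟩
    refine ⟨AffineMap.lineMap b a t, ⟨t, ht, rfl⟩, ?_⟩
    ext <;> simp [AffineMap.lineMap_apply]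
  · rintro ⟨_, ⟨t, ht, rfl⟩, rfl⟩
    refine ⟨t, ht, ?_⟩
    ext <;> simp [AffineMap.lineMap_apply]

theorem segment_y {a b x : ℝ} : segment ℝ (x, a) (x, b) = (fun y : ℝ => (x, y)) '' uIcc a b := by
  rw [segment_symm]
  ext p
  rw [segment_eq_image_lineMap, ← segment_eq_uIcc, segment_symm, segment_eq_image_lineMap]
  constructor
  · rintro ⟨t, ht, rfl⟩
    refine ⟨AffineMap.lineMap b a t, ⟨t, ht, rfl⟩, ?_⟩
    ext <;> simp [AffineMap.lineMap_apply]
  · rintro ⟨_, ⟨t, ht, rfl⟩, rfl⟩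
    refine ⟨t, ht, ?_⟩
    ext <;> simp [AffineMap.lineMap_apply]

theorem SL.lip_x {U : Set (ℝ × ℝ)} {L : ℝ} {f : ℝ × ℝ → ℝ} (h : SL U L f) {s : Set ℝ} {y : ℝ}
    (hs : s.OrdConnected) (hsU : ∀ x ∈ s, (x, y) ∈ U) :
    LipschitzOnWith L.toNNReal (fun x => f (x, y)) s := by
  refine LipschitzOnWith.of_dist_le_mul fun a ha b hb => ?_
  have h1 := h (a, y) (b, y) (by
    rw [segment_x]; rintro _ ⟨x, hx, rfl⟩; exact hsU x (hs.uIcc_subset ha hb hx))
  rw [Real.dist_eq]
  refine h1.trans ?_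
  have h2 : dist ((a, y) : ℝ × ℝ) (b, y) = dist a b := by simp [Prod.dist_eq]
  rw [h2]
  exact mul_le_mul_of_nonneg_right (Real.le_coe_toNNReal L) dist_nonneg

theorem SL.lip_y {U : Set (ℝ × ℝ)} {L : ℝ} {f : ℝ × ℝ → ℝ} (h : SL U L f) {s : Set ℝ} {x : ℝ}
    (hs : s.OrdConnected) (hsU : ∀ y ∈ s, (x, y) ∈ U) :
    LipschitzOnWith L.toNNReal (fun y => f (x, y)) s := by
  refine LipschitzOnWith.of_dist_le_mul fun a ha b hb => ?_
  have h1 := h (x, a) (x, b) (by
    rw [segment_y]; rintro _ ⟨y, hy, rfl⟩; exact hsU y (hs.uIcc_subset ha hb hy))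
  rw [Real.dist_eq]
  refine h1.trans ?_
  have h2 : dist ((x, a) : ℝ × ℝ) (x, b) = dist a b := by simp [Prod.dist_eq]
  rw [h2]
  exact mul_le_mul_of_nonneg_right (Real.le_coe_toNNReal L) dist_nonneg

/-- FTC on horizontal segments of `U`. -/
theorem SL.ftc_x {U : Set (ℝ × ℝ)} {L : ℝ} {f : ℝ × ℝ → ℝ} (h : SL U L f) (hU : IsOpen U) :
    ∀ᵐ y : ℝ, ∀ a b : ℝ, (∀ x ∈ uIcc a b, (x, y) ∈ U) →
      f (b, y) - f (a, y) = ∫ x in a..b, gx f (x, y) := by
  filter_upwards [ae_swap (h.ae_differentiableAt (μ := volume) hU)] with y hy a b hab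
  refine ftc_lip (φ := fun x => f (x, y)) (h.lip_x ordConnected_uIcc hab) ?_
  filter_upwards [hy] with x hx hx'
  exact gx_eq_deriv (hx (hab x hx'))

/-- FTC on vertical segments of `U`. -/
theorem SL.ftc_y {U : Set (ℝ × ℝ)} {L : ℝ} {f : ℝ × ℝ → ℝ} (h : SL U L f) (hU : IsOpen U) :
    ∀ᵐ x : ℝ, ∀ a b : ℝ, (∀ y ∈ uIcc a b, (x, y) ∈ U) →
      f (x, b) - f (x, a) = ∫ y in a..b, gy f (x, y) := by
  filter_upwards [ae_unswap (h.ae_differentiableAt (μ := volume) hU)] with x hx a b hab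
  refine ftc_lip (φ := fun y => f (x, y)) (h.lip_y ordConnected_uIcc hab) ?_
  filter_upwards [hx] with y hy hy'
  exact gy_eq_deriv (hy (hab y hy'))

/-! ### pointwise rules -/

section rules

variable {X : Type*} [NormedAddCommGroup X] [NormedSpace ℝ X] {f g : X → ℝ} {p : X}

theorem fderiv_eq_of_le (hf : DifferentiableAt ℝ f p) (hg : DifferentiableAt ℝ g p)
    (hle : ∀ᶠ q in 𝓝 p, f q ≤ g q) (he : f p = g p) : fderiv ℝ f p = fderiv ℝ g p := by
  have h1 : IsLocalMin (fun q => g q - f q) p := by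
    filter_upwards [hle] with q hq
    simp only [he, sub_self]; linarith
  have h2 := h1.fderiv_eq_zero
  rw [fderiv_fun_sub hg hf] at h2
  exact (sub_eq_zero.mp h2).symm

theorem fderiv_max (hf : DifferentiableAt ℝ f p) (hg : DifferentiableAt ℝ g p)
    (hm : DifferentiableAt ℝ (fun q => max (f q) (g q)) p) :
    (g p ≤ f p → fderiv ℝ (fun q => max (f q) (g q)) p = fderiv ℝ f p) ∧
    (f p ≤ g p → fderiv ℝ (fun q => max (f q) (g q)) p = fderiv ℝ g p) := by
  constructor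
  · intro h
    exact (fderiv_eq_of_le hf hm (Eventually.of_forall fun q => le_max_left _ _)
      (max_eq_left h).symm).symm
  · intro h
    exact (fderiv_eq_of_le hg hm (Eventually.of_forall fun q => le_max_right _ _)
      (max_eq_right h).symm).symm

theorem fderiv_min (hf : DifferentiableAt ℝ f p) (hg : DifferentiableAt ℝ g p)
    (hm : DifferentiableAt ℝ (fun q => min (f q) (g q)) p) :
    (f p ≤ g p → fderiv ℝ (fun q => min (f q) (g q)) p = fderiv ℝ f p) ∧
    (g p ≤ f p → fderiv ℝ (fun q => min (f q) (g q)) p = fderiv ℝ g p) := by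
  constructor
  · intro h
    exact (fderiv_eq_of_le hm hf (Eventually.of_forall fun q => min_le_left _ _)
      (min_eq_left h))
  · intro h
    exact (fderiv_eq_of_le hm hg (Eventually.of_forall fun q => min_le_right _ _)
      (min_eq_right h))

end rules

variable {U : Set (ℝ × ℝ)} {L M : ℝ} {f g : ℝ × ℝ → ℝ}

theorem gx_add {p : ℝ × ℝ} (hf : DifferentiableAt ℝ f p) (hg : DifferentiableAt ℝ g p) :
    gx (fun q => f q + g q) p = gx f p + gx g p := by simp [gx, fderiv_fun_add hf hg]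

theorem gy_add {p : ℝ × ℝ} (hf : DifferentiableAt ℝ f p) (hg : DifferentiableAt ℝ g p) :
    gy (fun q => f q + g q) p = gy f p + gy g p := by simp [gy, fderiv_fun_add hf hg]

theorem gx_sub {p : ℝ × ℝ} (hf : DifferentiableAt ℝ f p) (hg : DifferentiableAt ℝ g p) :
    gx (fun q => f q - g q) p = gx f p - gx g p := by simp [gx, fderiv_fun_sub hf hg]

theorem gy_sub {p : ℝ × ℝ} (hf : DifferentiableAt ℝ f p) (hg : DifferentiableAt ℝ g p) :
    gy (fun q => f q - g q) p = gy f p - gy g p := by simp [gy, fderiv_fun_sub hf hg]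

theorem gx_const_mul {p : ℝ × ℝ} (c : ℝ) (hf : DifferentiableAt ℝ f p) :
    gx (fun q => c * f q) p = c * gx f p := by simp [gx, fderiv_const_mul hf]

theorem gy_const_mul {p : ℝ × ℝ} (c : ℝ) (hf : DifferentiableAt ℝ f p) :
    gy (fun q => c * f q) p = c * gy f p := by simp [gy, fderiv_const_mul hf]

theorem gx_neg {p : ℝ × ℝ} : gx (fun q => - f q) p = - gx f p := by
  simp [gx, fderiv_fun_neg]

theorem gy_neg {p : ℝ × ℝ} : gy (fun q => - f q) p = - gy f p := by
  simp [gy, fderiv_fun_neg]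

theorem gx_mul {p : ℝ × ℝ} (hf : DifferentiableAt ℝ f p) (hg : DifferentiableAt ℝ g p) :
    gx (fun q => f q * g q) p = f p * gx g p + g p * gx f p := by
  simp [gx, fderiv_fun_mul hf hg]

theorem gy_mul {p : ℝ × ℝ} (hf : DifferentiableAt ℝ f p) (hg : DifferentiableAt ℝ g p) :
    gy (fun q => f q * g q) p = f p * gy g p + g p * gy f p := by
  simp [gy, fderiv_fun_mul hf hg]

/-- a.e. on `U`: both functions and their maximum and minimum are differentiable and the
gradients are the expected ones. -/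
theorem SL.ae_max_min (hf : SL U L f) (hg : SL U M g) (hU : IsOpen U) :
    ∀ᵐ p : ℝ × ℝ, p ∈ U → DifferentiableAt ℝ f p ∧ DifferentiableAt ℝ g p ∧
      ((g p ≤ f p → gx (fun q => Max.max (f q) (g q)) p = gx f p ∧
          gy (fun q => Max.max (f q) (g q)) p = gy f p ∧
          gx (fun q => Min.min (f q) (g q)) p = gx g p ∧
          gy (fun q => Min.min (f q) (g q)) p = gy g p) ∧
        (f p ≤ g p → gx (fun q => Max.max (f q) (g q)) p = gx g p ∧
          gy (fun q => Max.max (f q) (g q)) p = gy g p ∧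
          gx (fun q => Min.min (f q) (g q)) p = gx f p ∧
          gy (fun q => Min.min (f q) (g q)) p = gy f p)) := by
  filter_upwards [hf.ae_differentiableAt (μ := volume) hU,
    hg.ae_differentiableAt (μ := volume) hU,
    (hf.max hg).ae_differentiableAt (μ := volume) hU,
    (hf.min hg).ae_differentiableAt (μ := volume) hU] with p h1 h2 h3 h4 hp
  have e1 := fderiv_max (h1 hp) (h2 hp) (h3 hp)
  have e2 := fderiv_min (h1 hp) (h2 hp) (h4 hp)
  refine ⟨h1 hp, h2 hp, fun h => ?_, fun h => ?_⟩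
  · simp [gx, gy, e1.1 h, e2.2 h]
  · simp [gx, gy, e1.2 h, e2.1 h]

/-- the gradients of two functions agree a.e. where the functions agree. -/
theorem SL.ae_grad_eq (hf : SL U L f) (hg : SL U M g) (hU : IsOpen U) :
    ∀ᵐ p : ℝ × ℝ, p ∈ U → f p = g p → gx f p = gx g p ∧ gy f p = gy g p := by
  filter_upwards [hf.ae_max_min hg hU] with p h hp he
  obtain ⟨-, -, h1, h2⟩ := h hp
  have a := h1 he.symm.le
  have b := h2 he.le
  exact ⟨a.1.symm.trans b.1, a.2.1.symm.trans b.2.1⟩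

/-! ### the energy -/

/-- squared length of the gradient -/
noncomputable def g2 (f : ℝ × ℝ → ℝ) (p : ℝ × ℝ) : ℝ := gx f p ^ 2 + gy f p ^ 2

theorem g2_nonneg (f : ℝ × ℝ → ℝ) (p : ℝ × ℝ) : 0 ≤ g2 f p := by unfold g2; positivity

theorem measurable_g2 (f : ℝ × ℝ → ℝ) : Measurable (g2 f) :=
  ((measurable_gx f).pow_const 2).add ((measurable_gy f).pow_const 2)

/-- energy on `W` -/
noncomputable def En (W : Set (ℝ × ℝ)) (f : ℝ × ℝ → ℝ) : ℝ := ∫ p in W, g2 f p

theorem En_nonneg (W : Set (ℝ × ℝ)) (f : ℝ × ℝ → ℝ) : 0 ≤ En W f :=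
  integral_nonneg fun p => g2_nonneg f p

theorem SL.g2_le (hf : SL U L f) (hU : IsOpen U) (hL : 0 ≤ L) {p : ℝ × ℝ} (hp : p ∈ U) :
    g2 f p ≤ 2 * L ^ 2 := by
  have h1 := hf.abs_gx_le hU hL hp
  have h2 := hf.abs_gy_le hU hL hp
  have h3 := sq_le_sq' (abs_le.mp h1).1 (abs_le.mp h1).2
  have h4 := sq_le_sq' (abs_le.mp h2).1 (abs_le.mp h2).2
  unfold g2; linarith

/-- The exceptional set: `W` open, `S` closed null. -/
theorem SL.integrableOn_g2 {W S : Set (ℝ × ℝ)} (hf : SL (W \ S) L f) (hW : IsOpen W)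
    (hS : IsClosed S) (hS0 : volume S = 0) (hWb : volume W ≠ ∞) : IntegrableOn (g2 f) W := by
  have hf' : SL (W \ S) (Max.max L 0) f := hf.mono_const (le_max_left _ _)
  refine Measure.integrableOn_of_bounded (M := 2 * (Max.max L 0) ^ 2) hWb
    (measurable_g2 f).aestronglyMeasurable ?_
  have h1 : ∀ᵐ p ∂(volume.restrict W), p ∉ S :=
    ae_restrict_of_ae (measure_eq_zero_iff_ae_notMem.mp hS0)
  filter_upwards [h1, ae_restrict_mem hW.measurableSet] with p hpS hpW
  rw [Real.norm_of_nonneg (g2_nonneg f p)]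
  exact hf'.g2_le (hW.sdiff hS) (le_max_right _ _) ⟨hpW, hpS⟩

theorem ae_restrict_of_diff {W S : Set (ℝ × ℝ)} (hW : IsOpen W)
    (hS0 : volume S = 0) {P : ℝ × ℝ → Prop} (h : ∀ᵐ p : ℝ × ℝ, p ∈ W \ S → P p) :
    ∀ᵐ p ∂(volume.restrict W), P p := by
  have h1 : ∀ᵐ p ∂(volume.restrict W), p ∉ S :=
    ae_restrict_of_ae (measure_eq_zero_iff_ae_notMem.mp hS0)
  filter_upwards [h1, ae_restrict_mem hW.measurableSet, ae_restrict_of_ae h] with p hpS hpW hp
  exact hp ⟨hpW, hpS⟩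

theorem En_max_add_min {W S : Set (ℝ × ℝ)} (hf : SL (W \ S) L f) (hg : SL (W \ S) M g)
    (hW : IsOpen W) (hS : IsClosed S) (hS0 : volume S = 0) (hWb : volume W ≠ ∞) :
    En W (fun q => Max.max (f q) (g q)) + En W (fun q => Min.min (f q) (g q)) =
      En W f + En W g := by
  unfold En
  rw [← integral_add ((hf.max hg).integrableOn_g2 hW hS hS0 hWb)
      ((hf.min hg).integrableOn_g2 hW hS hS0 hWb),
    ← integral_add (hf.integrableOn_g2 hW hS hS0 hWb) (hg.integrableOn_g2 hW hS hS0 hWb)]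
  apply integral_congr_ae
  filter_upwards [ae_restrict_of_diff hW hS0 (hf.ae_max_min hg (hW.sdiff hS))] with p hp
  obtain ⟨-, -, h1, h2⟩ := hp
  simp only [g2]
  rcases le_total (g p) (f p) with h | h
  · obtain ⟨a, b, c, d⟩ := h1 h
    rw [a, b, c, d]
  · obtain ⟨a, b, c, d⟩ := h2 h
    rw [a, b, c, d]; ring

theorem En_max_le {W S : Set (ℝ × ℝ)} (hf : SL (W \ S) L f) (hg : SL (W \ S) M g)
    (hW : IsOpen W) (hS : IsClosed S) (hS0 : volume S = 0) (hWb : volume W ≠ ∞) :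
    En W (fun q => Max.max (f q) (g q)) ≤ En W f + En W g := by
  have := En_max_add_min hf hg hW hS hS0 hWb
  have h2 := En_nonneg W (fun q => Min.min (f q) (g q))
  linarith

theorem En_min_le {W S : Set (ℝ × ℝ)} (hf : SL (W \ S) L f) (hg : SL (W \ S) M g)
    (hW : IsOpen W) (hS : IsClosed S) (hS0 : volume S = 0) (hWb : volume W ≠ ∞) :
    En W (fun q => Min.min (f q) (g q)) ≤ En W f + En W g := by
  have := En_max_add_min hf hg hW hS hS0 hWb
  have h2 := En_nonneg W (fun q => Max.max (f q) (g q))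
  linarith

theorem En_const (W : Set (ℝ × ℝ)) (c : ℝ) : En W (fun _ => c) = 0 := by
  simp [En, g2]

theorem En_congr_ae {W : Set (ℝ × ℝ)} (h : ∀ᵐ p ∂(volume.restrict W), g2 f p = g2 g p) :
    En W f = En W g := integral_congr_ae h

/-- truncation from above/below does not increase the energy -/
theorem En_max_const_le {W S : Set (ℝ × ℝ)} (hf : SL (W \ S) L f) (c : ℝ)
    (hW : IsOpen W) (hS : IsClosed S) (hS0 : volume S = 0) (hWb : volume W ≠ ∞) :
    En W (fun q => Max.max (f q) c) ≤ En W f := by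
  have := En_max_le hf (SL_const c) hW hS hS0 hWb
  rwa [En_const, add_zero] at this

theorem En_min_const_le {W S : Set (ℝ × ℝ)} (hf : SL (W \ S) L f) (c : ℝ)
    (hW : IsOpen W) (hS : IsClosed S) (hS0 : volume S = 0) (hWb : volume W ≠ ∞) :
    En W (fun q => Min.min (f q) c) ≤ En W f := by
  have := En_min_le hf (SL_const c) hW hS hS0 hWb
  rwa [En_const, add_zero] at this

theorem En_const_mul {W S : Set (ℝ × ℝ)} (hf : SL (W \ S) L f) (c : ℝ)
    (hW : IsOpen W) (hS : IsClosed S) (hS0 : volume S = 0) :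
    En W (fun q => c * f q) = c ^ 2 * En W f := by
  unfold En
  rw [← integral_const_mul]
  apply integral_congr_ae
  filter_upwards [ae_restrict_of_diff hW hS0
    (hf.ae_differentiableAt (μ := volume) (hW.sdiff hS))] with p hp
  simp only [g2, gx_const_mul c hp, gy_const_mul c hp]
  ring

/-- convexity -/
theorem En_convex {W S : Set (ℝ × ℝ)} (hf : SL (W \ S) L f) (hg : SL (W \ S) M g)
    (hW : IsOpen W) (hS : IsClosed S) (hS0 : volume S = 0) (hWb : volume W ≠ ∞)
    {s t : ℝ} (hs : 0 ≤ s) (ht : 0 ≤ t) (hst : s + t = 1) :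
    En W (fun q => s * f q + t * g q) ≤ s * En W f + t * En W g := by
  unfold En
  rw [← integral_const_mul, ← integral_const_mul,
    ← integral_add ((hf.integrableOn_g2 hW hS hS0 hWb).const_mul s)
      ((hg.integrableOn_g2 hW hS hS0 hWb).const_mul t)]
  apply integral_mono_ae
    (((hf.const_mul s).add (hg.const_mul t)).integrableOn_g2 hW hS hS0 hWb)
    (((hf.integrableOn_g2 hW hS hS0 hWb).const_mul s).add
      ((hg.integrableOn_g2 hW hS hS0 hWb).const_mul t))
  filter_upwards [ae_restrict_of_diff hW hS0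
      (hf.ae_differentiableAt (μ := volume) (hW.sdiff hS)),
    ae_restrict_of_diff hW hS0
      (hg.ae_differentiableAt (μ := volume) (hW.sdiff hS))] with p hp hq
  have e1 : gx (fun q => s * f q + t * g q) p = s * gx f p + t * gx g p := by
    rw [gx_add (hp.const_mul s) (hq.const_mul t), gx_const_mul s hp, gx_const_mul t hq]
  have e2 : gy (fun q => s * f q + t * g q) p = s * gy f p + t * gy g p := by
    rw [gy_add (hp.const_mul s) (hq.const_mul t), gy_const_mul s hp, gy_const_mul t hq]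
  simp only [g2, e1, e2, Pi.add_apply]
  have ht' : t = 1 - s := by linarith
  subst ht'
  nlinarith [mul_nonneg (mul_nonneg hs ht) (sq_nonneg (gx f p - gx g p)),
    mul_nonneg (mul_nonneg hs ht) (sq_nonneg (gy f p - gy g p))]

/-- two-term inequality -/
theorem En_add_le {W S : Set (ℝ × ℝ)} (hf : SL (W \ S) L f) (hg : SL (W \ S) M g)
    (hW : IsOpen W) (hS : IsClosed S) (hS0 : volume S = 0) (hWb : volume W ≠ ∞) :
    En W (fun q => f q + g q) ≤ 2 * En W f + 2 * En W g := by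
  unfold En
  rw [← integral_const_mul, ← integral_const_mul,
    ← integral_add ((hf.integrableOn_g2 hW hS hS0 hWb).const_mul 2)
      ((hg.integrableOn_g2 hW hS hS0 hWb).const_mul 2)]
  apply integral_mono_ae
    ((hf.add hg).integrableOn_g2 hW hS hS0 hWb)
    (((hf.integrableOn_g2 hW hS hS0 hWb).const_mul 2).add
      ((hg.integrableOn_g2 hW hS hS0 hWb).const_mul 2))
  filter_upwards [ae_restrict_of_diff hW hS0
      (hf.ae_differentiableAt (μ := volume) (hW.sdiff hS)),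
    ae_restrict_of_diff hW hS0
      (hg.ae_differentiableAt (μ := volume) (hW.sdiff hS))] with p hp hq
  simp only [g2, gx_add hp hq, gy_add hp hq, Pi.add_apply]
  nlinarith [sq_nonneg (gx f p - gx g p), sq_nonneg (gy f p - gy g p)]

/-- the pointwise bound for products -/
theorem g2_mul_le {p : ℝ × ℝ} (hf : DifferentiableAt ℝ f p) (hg : DifferentiableAt ℝ g p) :
    g2 (fun q => f q * g q) p ≤ 2 * (f p ^ 2 * g2 g p) + 2 * (g p ^ 2 * g2 f p) := by
  simp only [g2, gx_mul hf hg, gy_mul hf hg]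
  nlinarith [sq_nonneg (f p * gx g p - g p * gx f p), sq_nonneg (f p * gy g p - g p * gy f p)]

end Crest.Agent.R105.CF_363
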