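import Mathlib
import Crest.Agent.R105.CF2_363

/-!
# Row 105: local criterion for `SL`, gluing along a vertical line, side functions, and the
decomposition of a function which is Lipschitz off finitely many vertical slits of a rectangle.
-/

namespace Crest.Agent.R105.CF_363

open Set Filter MeasureTheory Topology
open scoped ENNReal NNReal

section Gen

variable {X : Type*} [NormedAddCommGroup X] [NormedSpace ℝ X]

/-- The local criterion: a function which is `L`-Lipschitz near every point of `U` is `SL U L`. -/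
theorem SL_of_local {U : Set X} {L : ℝ} {f : X → ℝ} (hL : 0 ≤ L)
    (h : ∀ p ∈ U, ∃ r > 0, ∀ q ∈ Metric.ball p r ∩ U, ∀ q' ∈ Metric.ball p r ∩ U,
      segment ℝ q q' ⊆ U → |f q - f q'| ≤ L * dist q q') : SL U L f := by
  intro p q hpq
  let γ : ℝ → X := fun t => AffineMap.lineMap p q t
  have hγc : Continuous γ := AffineMap.lineMap_continuous
  have hγV : ∀ t ∈ Icc (0:ℝ) 1, γ t ∈ U := by
    intro t ht
    apply hpq
    rw [segment_eq_image_lineMap]
    exact ⟨t, ht, rfl⟩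
  have hdist : ∀ s t, dist (γ s) (γ t) = |s - t| * dist p q := by
    intro s t
    simp only [γ]
    rw [dist_lineMap_lineMap, Real.dist_eq]
  set D := L * dist p q with hD
  have hD0 : 0 ≤ D := mul_nonneg hL dist_nonneg
  set g : ℝ → ℝ := fun t => f (γ t) with hg
  have hloc : ∀ t ∈ Icc (0:ℝ) 1, ∃ r > 0, ∀ s ∈ Icc (0:ℝ) 1, ∀ s' ∈ Icc (0:ℝ) 1,
      |s - t| < r → |s' - t| < r → |g s - g s'| ≤ D * |s - s'| := by
    intro t ht
    obtain ⟨ρ, hρ, hρ'⟩ := h (γ t) (hγV t ht)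
    obtain ⟨r, hr, hrN⟩ := Metric.isOpen_iff.mp ((Metric.isOpen_ball (x := γ t)
      (ε := ρ)).preimage hγc) t (Metric.mem_ball_self hρ)
    refine ⟨r, hr, fun s hs s' hs' h1 h2 => ?_⟩
    have hsub : ∀ u, |u - t| < r → γ u ∈ Metric.ball (γ t) ρ := fun u hu =>
      hrN (by rw [Metric.mem_ball, Real.dist_eq]; exact hu)
    have hseg : segment ℝ (γ s) (γ s') ⊆ U := by
      intro z hz
      rw [segment_eq_image_lineMap] at hz
      obtain ⟨c, hc, rfl⟩ := hz
      have hz' : AffineMap.lineMap (γ s) (γ s') c = γ (AffineMap.lineMap s s' c) := by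
        simp only [γ, AffineMap.lineMap_apply, vsub_eq_sub, vadd_eq_add, smul_eq_mul]
        module
      rw [hz']
      have hmem : AffineMap.lineMap s s' c ∈ segment ℝ s s' := by
        rw [segment_eq_image_lineMap]; exact ⟨c, hc, rfl⟩
      exact hγV _ ((convex_Icc (0:ℝ) 1).segment_subset hs hs' hmem)
    have h3 := hρ' (γ s) ⟨hsub s h1, hγV s hs⟩ (γ s') ⟨hsub s' h2, hγV s' hs'⟩ hseg
    rw [hdist] at h3
    simp only [hg]
    calc _ ≤ _ := h3
      _ = D * |s - s'| := by rw [hD]; ring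
  have key : ∀ t ∈ Icc (0:ℝ) 1, |g t - g 0| ≤ D * t := by
    let S : Set ℝ := {t | |g t - g 0| ≤ D * t}
    have hcont : ContinuousOn g (Icc 0 1) := by
      intro t ht
      obtain ⟨r, hr, hr'⟩ := hloc t ht
      rw [Metric.continuousWithinAt_iff]
      intro ε hε
      refine ⟨Min.min r (ε / (D + 1)), by positivity, fun {s} hs hst => ?_⟩
      rw [Real.dist_eq] at hst ⊢
      have h1 := hr' s hs t ht (lt_of_lt_of_le hst (min_le_left _ _)) (by simpa using hr)
      have h2 : |s - t| < ε / (D + 1) := lt_of_lt_of_le hst (min_le_right _ _)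
      rw [lt_div_iff₀ (by positivity)] at h2
      nlinarith [abs_nonneg (s - t)]
    have hSc : IsClosed (S ∩ Icc 0 1) := by
      have : S ∩ Icc 0 1 = Icc (0:ℝ) 1 ∩ (fun t => D * t - |g t - g 0|) ⁻¹' (Ici 0) := by
        ext t; simp only [S, mem_inter_iff, mem_ofPred_eq, mem_preimage, mem_Ici, sub_nonneg]
        tauto
      rw [this]
      apply ContinuousOn.preimage_isClosed_of_isClosed _ isClosed_Icc isClosed_Ici
      exact (continuousOn_const.mul continuousOn_id).sub (hcont.sub continuousOn_const).abs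
    have h0S : (0:ℝ) ∈ S := by simp [S]
    have := hSc.Icc_subset_of_forall_mem_nhdsWithin (a := 0) (b := 1) h0S (by
      rintro t ⟨htS, ht⟩
      obtain ⟨r, hr, hr'⟩ := hloc t ⟨ht.1, ht.2.le⟩
      have : Ioo t (Min.min (t + r) 1) ∈ 𝓝[>] t :=
        Ioo_mem_nhdsGT (lt_min (by linarith) ht.2)
      filter_upwards [this] with s hs
      have hs1 : s < t + r := lt_of_lt_of_le hs.2 (min_le_left _ _)
      have hs2 : s < 1 := lt_of_lt_of_le hs.2 (min_le_right _ _)
      have h1 := hr' s ⟨ht.1.trans hs.1.le, hs2.le⟩ t ⟨ht.1, ht.2.le⟩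
        (by rw [abs_lt]; constructor <;> linarith [hs.1]) (by simpa using hr)
      simp only [S, mem_ofPred_eq] at htS ⊢
      have h2 : |g s - g 0| ≤ |g s - g t| + |g t - g 0| := by
        have := abs_add_le (g s - g t) (g t - g 0); simpa using this
      rw [abs_of_pos (by linarith [hs.1] : (0:ℝ) < s - t)] at h1
      nlinarith)
    exact fun t ht => this ht
  have h1 := key 1 (by simp)
  have hg1 : g 1 = f q := by simp [hg, γ]
  have hg0 : g 0 = f p := by simp [hg, γ]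
  rw [hg1, hg0, mul_one] at h1
  rw [abs_sub_comm]
  exact h1

theorem SL_of_local_ball {U : Set X} {L : ℝ≥0} {f : X → ℝ}
    (h : ∀ p ∈ U, ∃ r > 0, LipschitzOnWith L f (Metric.ball p r)) : SL U L f := by
  refine SL_of_local L.2 fun p hp => ?_
  obtain ⟨r, hr, hl⟩ := h p hp
  refine ⟨r, hr, fun q hq q' hq' _ => ?_⟩
  have := hl.dist_le_mul q hq.1 q' hq'.1
  rwa [Real.dist_eq] at this

/-- `SL` of a union of open sets. -/
theorem SL.union {U V : Set X} {L : ℝ} {f : X → ℝ} (hL : 0 ≤ L) (hU : IsOpen U) (hV : IsOpen V)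
    (h : SL U L f) (k : SL V L f) : SL (U ∪ V) L f := by
  lift L to ℝ≥0 using hL
  refine SL_of_local_ball fun p hp => ?_
  rcases hp with hp | hp
  · obtain ⟨r, hr, -, hl⟩ := h.lipschitzOnWith_ball hU hp
    exact ⟨r, hr, by simpa using hl⟩
  · obtain ⟨r, hr, -, hl⟩ := k.lipschitzOnWith_ball hV hp
    exact ⟨r, hr, by simpa using hl⟩

theorem CF.union {U V : Set X} {f : X → ℝ} (hU : IsOpen U) (hV : IsOpen V)
    (h : CF U f) (k : CF V f) : CF (U ∪ V) f := by
  obtain ⟨L, C, hL, h1, h2⟩ := h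
  obtain ⟨M, D, hM, k1, k2⟩ := k
  refine ⟨Max.max L M, Max.max C D, le_max_of_le_left hL,
    (h1.mono_const (le_max_left _ _)).union (le_max_of_le_left hL) hU hV
      (k1.mono_const (le_max_right _ _)), fun p hp => ?_⟩
  rcases hp with hp | hp
  · exact (h2 p hp).trans (le_max_left _ _)
  · exact (k2 p hp).trans (le_max_right _ _)

end Gen

/-! ### gluing along a vertical line -/

/-- The point where a segment crosses the vertical line `x = ξ`. -/
theorem cross {p q : ℝ × ℝ} {ξ : ℝ} (hp : p.1 ≤ ξ) (hq : ξ ≤ q.1) :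
    ∃ r ∈ segment ℝ p q, r.1 = ξ ∧ dist p r + dist r q = dist p q := by
  rcases eq_or_lt_of_le (hp.trans hq) with h | h
  · have h1 : p.1 = ξ := le_antisymm hp (h ▸ hq)
    exact ⟨p, left_mem_segment ℝ p q, h1, by simp⟩
  · set t := (ξ - p.1) / (q.1 - p.1) with ht
    have hpos : 0 < q.1 - p.1 := sub_pos.mpr h
    have ht0 : 0 ≤ t := div_nonneg (sub_nonneg.mpr hp) hpos.le
    have ht1 : t ≤ 1 := by rw [ht, div_le_one hpos]; linarith
    refine ⟨AffineMap.lineMap p q t, ?_, ?_, ?_⟩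
    · rw [segment_eq_image_lineMap]; exact ⟨t, ⟨ht0, ht1⟩, rfl⟩
    · have : (AffineMap.lineMap p q t : ℝ × ℝ).1 = t * (q.1 - p.1) + p.1 := by
        simp [AffineMap.lineMap_apply]
      rw [this, ht]; field_simp; ring
    · rw [dist_left_lineMap, dist_lineMap_right, Real.norm_of_nonneg ht0,
        Real.norm_of_nonneg (by linarith)]
      ring

theorem lip_glue {C : Set (ℝ × ℝ)} (hC : Convex ℝ C) {ξ : ℝ} {L : ℝ} {f : ℝ × ℝ → ℝ}
    (h1 : ∀ p ∈ C, ∀ q ∈ C, p.1 ≤ ξ → q.1 ≤ ξ → |f p - f q| ≤ L * dist p q)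
    (h2 : ∀ p ∈ C, ∀ q ∈ C, ξ ≤ p.1 → ξ ≤ q.1 → |f p - f q| ≤ L * dist p q) :
    ∀ p ∈ C, ∀ q ∈ C, |f p - f q| ≤ L * dist p q := by
  have main : ∀ p ∈ C, ∀ q ∈ C, p.1 ≤ ξ → ξ ≤ q.1 → |f p - f q| ≤ L * dist p q := by
    intro p hp q hq hpξ hqξ
    obtain ⟨r, hr, hrξ, hd⟩ := cross hpξ hqξ
    have hrC := hC.segment_subset hp hq hr
    have a := h1 p hp r hrC hpξ hrξ.le
    have b := h2 r hrC q hq hrξ.ge hqξ
    calc |f p - f q| = |(f p - f r) + (f r - f q)| := by congr 1; ring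
      _ ≤ |f p - f r| + |f r - f q| := abs_add_le _ _
      _ ≤ L * dist p r + L * dist r q := add_le_add a b
      _ = _ := by rw [← mul_add, hd]
  intro p hp q hq
  rcases le_total p.1 ξ with hpξ | hpξ <;> rcases le_total q.1 ξ with hqξ | hqξ
  · exact h1 p hp q hq hpξ hqξ
  · exact main p hp q hq hpξ hqξ
  · rw [abs_sub_comm, dist_comm]; exact main q hq p hp hqξ hpξ
  · exact h2 p hp q hq hpξ hqξ

/-- The side function: `χ(y)·ρ(x)` to the right of the hair `K`, zero to the left, `χ` vanishing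
off `[b_K,t_K]`. It is `SL` off `K`. -/
theorem SL_side_right (K : Hair) {χ : ℝ → ℝ} {G : ℝ × ℝ → ℝ} {L : ℝ} (hL : 0 ≤ L)
    (hG : ∀ p q : ℝ × ℝ, K.x ≤ p.1 → K.x ≤ q.1 → |G p - G q| ≤ L * dist p q)
    (hχ : ∀ y, G (K.x, y) = χ y) (h0 : ∀ y, y ∉ Icc K.b K.t → χ y = 0) :
    SL K.carᶜ L (fun p => if K.x < p.1 then G p else 0) := by
  set F : ℝ × ℝ → ℝ := fun p => if K.x < p.1 then G p else 0 with hF
  refine SL_of_local hL fun p hp => ?_
  obtain ⟨r, hr, hrU⟩ := Metric.isOpen_iff.mp K.isClosed_car.isOpen_compl p hp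
  refine ⟨r, hr, fun q hq q' hq' _ => ?_⟩
  refine lip_glue (convex_ball p r) (ξ := K.x) (f := F) ?_ ?_ q hq.1 q' hq'.1
  · intro a _ b _ ha' hb'
    simp only [hF, if_neg (not_lt.mpr ha'), if_neg (not_lt.mpr hb')]
    simpa using mul_nonneg hL dist_nonneg
  · intro a ha b hb ha' hb'
    have key : ∀ z ∈ Metric.ball p r, K.x ≤ z.1 → F z = G z := by
      intro z hz hz'
      rcases eq_or_lt_of_le hz' with h | h
      · have hz0 : z = (K.x, z.2) := by rw [h]
        simp only [hF, if_neg (not_lt.mpr h.ge)]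
        rw [hz0, hχ]
        refine (h0 _ fun hc => ?_).symm
        exact hrU hz ⟨h.symm, hc.1, hc.2⟩
      · simp only [hF, if_pos h]
    rw [key a ha ha', key b hb hb']
    exact hG a b ha' hb'

theorem SL_side_left (K : Hair) {χ : ℝ → ℝ} {G : ℝ × ℝ → ℝ} {L : ℝ} (hL : 0 ≤ L)
    (hG : ∀ p q : ℝ × ℝ, p.1 ≤ K.x → q.1 ≤ K.x → |G p - G q| ≤ L * dist p q)
    (hχ : ∀ y, G (K.x, y) = χ y) (h0 : ∀ y, y ∉ Icc K.b K.t → χ y = 0) :
    SL K.carᶜ L (fun p => if p.1 < K.x then G p else 0) := by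
  set F : ℝ × ℝ → ℝ := fun p => if p.1 < K.x then G p else 0 with hF
  refine SL_of_local hL fun p hp => ?_
  obtain ⟨r, hr, hrU⟩ := Metric.isOpen_iff.mp K.isClosed_car.isOpen_compl p hp
  refine ⟨r, hr, fun q hq q' hq' _ => ?_⟩
  refine lip_glue (convex_ball p r) (ξ := K.x) (f := F) ?_ ?_ q hq.1 q' hq'.1
  · intro a ha b hb ha' hb'
    have key : ∀ z ∈ Metric.ball p r, z.1 ≤ K.x → F z = G z := by
      intro z hz hz'
      rcases eq_or_lt_of_le hz' with h | h
      · have hz0 : z = (K.x, z.2) := by rw [← h]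
        simp only [hF, if_neg (not_lt.mpr h.ge)]
        rw [hz0, hχ]
        refine (h0 _ fun hc => ?_).symm
        exact hrU hz ⟨h, hc.1, hc.2⟩
      · simp only [hF, if_pos h]
    rw [key a ha ha', key b hb hb']
    exact hG a b ha' hb'
  · intro a _ b _ ha' hb'
    simp only [hF, if_neg (not_lt.mpr ha'), if_neg (not_lt.mpr hb')]
    simpa using mul_nonneg hL dist_nonneg

/-- The ramp `max 0 (1 - |s|/r)`. -/
noncomputable def ramp (r s : ℝ) : ℝ := max 0 (1 - |s| / r)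

theorem ramp_nonneg (r s : ℝ) : 0 ≤ ramp r s := le_max_left _ _

theorem ramp_le_one {r : ℝ} (hr : 0 ≤ r) (s : ℝ) : ramp r s ≤ 1 :=
  max_le zero_le_one (by linarith [div_nonneg (abs_nonneg s) hr])

theorem ramp_zero (r : ℝ) : ramp r 0 = 1 := by simp [ramp]

theorem ramp_eq_zero {r s : ℝ} (hr : 0 < r) (hs : r ≤ |s|) : ramp r s = 0 := by
  unfold ramp
  apply max_eq_left
  have : 1 ≤ |s| / r := by rwa [one_le_div hr]
  linarith

theorem ramp_lip {r : ℝ} (hr : 0 < r) (s t : ℝ) : |ramp r s - ramp r t| ≤ r⁻¹ * |s - t| := by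
  unfold ramp
  have h1 := abs_max_sub_max_le_max 0 (1 - |s| / r) 0 (1 - |t| / r)
  refine h1.trans (max_le (by simp; positivity) ?_)
  have : 1 - |s| / r - (1 - |t| / r) = r⁻¹ * (|t| - |s|) := by field_simp; ring
  rw [this, abs_mul, abs_of_pos (inv_pos.mpr hr)]
  refine mul_le_mul_of_nonneg_left ?_ (inv_pos.mpr hr).le
  rw [abs_sub_comm s t]; exact abs_abs_sub_abs_le_abs_sub t s

/-- The product `χ(y)·ramp_r(x - x_K)` is Lipschitz on the plane. -/
theorem lip_chi_ramp {χ : ℝ → ℝ} {A M ξ r : ℝ} (hA : 0 ≤ A) (hM : 0 ≤ M) (hr : 0 < r)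
    (hχ : ∀ s t, |χ s - χ t| ≤ M * |s - t|) (hχA : ∀ s, |χ s| ≤ A) (p q : ℝ × ℝ) :
    |χ p.2 * ramp r (p.1 - ξ) - χ q.2 * ramp r (q.1 - ξ)| ≤ (A * r⁻¹ + M) * dist p q := by
  have d1 : |p.1 - q.1| ≤ dist p q := by
    rw [← Real.dist_eq, Prod.dist_eq]; exact le_max_left _ _
  have d2 : |p.2 - q.2| ≤ dist p q := by
    rw [← Real.dist_eq, Prod.dist_eq]; exact le_max_right _ _
  have e1 := ramp_lip hr (p.1 - ξ) (q.1 - ξ)
  rw [sub_sub_sub_cancel_right] at e1
  have e2 := hχ p.2 q.2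
  calc |χ p.2 * ramp r (p.1 - ξ) - χ q.2 * ramp r (q.1 - ξ)|
      = |χ p.2 * (ramp r (p.1 - ξ) - ramp r (q.1 - ξ)) + (χ p.2 - χ q.2) * ramp r (q.1 - ξ)| := by
        congr 1; ring
    _ ≤ |χ p.2| * |ramp r (p.1 - ξ) - ramp r (q.1 - ξ)| + |χ p.2 - χ q.2| * |ramp r (q.1 - ξ)| := by
        rw [← abs_mul, ← abs_mul]; exact abs_add_le _ _
    _ ≤ A * (r⁻¹ * dist p q) + (M * dist p q) * 1 := by
        apply add_le_add
        · exact mul_le_mul (hχA _) (e1.trans (mul_le_mul_of_nonneg_left d1 (inv_pos.mpr hr).le))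
            (abs_nonneg _) hA
        · refine mul_le_mul (e2.trans (mul_le_mul_of_nonneg_left d2 hM)) ?_ (abs_nonneg _)
            (mul_nonneg hM dist_nonneg)
          rw [abs_of_nonneg (ramp_nonneg _ _)]; exact ramp_le_one hr.le _
    _ = _ := by ring

/-- `χ(y)·ramp_r(x - x_K)` on the right side of `K` (zero on the left) is of class `CF` off `K`. -/
theorem CF_ramp_right (K : Hair) {χ : ℝ → ℝ} {A M r : ℝ} (hA : 0 ≤ A) (hM : 0 ≤ M) (hr : 0 < r)
    (hχ : ∀ s t, |χ s - χ t| ≤ M * |s - t|) (hχA : ∀ s, |χ s| ≤ A)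
    (h0 : ∀ y, y ∉ Icc K.b K.t → χ y = 0) :
    CF K.carᶜ (fun p : ℝ × ℝ => if K.x < p.1 then χ p.2 * ramp r (p.1 - K.x) else 0) := by
  refine ⟨A * r⁻¹ + M, A, by positivity, ?_, fun p _ => ?_⟩
  · refine SL_side_right K (χ := χ) (by positivity)
      (fun p q _ _ => lip_chi_ramp hA hM hr hχ hχA p q) (fun y => ?_) h0
    simp [ramp_zero]
  · dsimp only
    split_ifs
    · rw [abs_mul]
      calc |χ p.2| * |ramp r (p.1 - K.x)| ≤ A * 1 := by
            refine mul_le_mul (hχA _) ?_ (abs_nonneg _) hA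
            rw [abs_of_nonneg (ramp_nonneg _ _)]; exact ramp_le_one hr.le _
        _ = A := mul_one A
    · simpa using hA

theorem CF_ramp_left (K : Hair) {χ : ℝ → ℝ} {A M r : ℝ} (hA : 0 ≤ A) (hM : 0 ≤ M) (hr : 0 < r)
    (hχ : ∀ s t, |χ s - χ t| ≤ M * |s - t|) (hχA : ∀ s, |χ s| ≤ A)
    (h0 : ∀ y, y ∉ Icc K.b K.t → χ y = 0) :
    CF K.carᶜ (fun p : ℝ × ℝ => if p.1 < K.x then χ p.2 * ramp r (p.1 - K.x) else 0) := by
  refine ⟨A * r⁻¹ + M, A, by positivity, ?_, fun p _ => ?_⟩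
  · refine SL_side_left K (χ := χ) (by positivity)
      (fun p q _ _ => lip_chi_ramp hA hM hr hχ hχA p q) (fun y => ?_) h0
    simp [ramp_zero]
  · dsimp only
    split_ifs
    · rw [abs_mul]
      calc |χ p.2| * |ramp r (p.1 - K.x)| ≤ A * 1 := by
            refine mul_le_mul (hχA _) ?_ (abs_nonneg _) hA
            rw [abs_of_nonneg (ramp_nonneg _ _)]; exact ramp_le_one hr.le _
        _ = A := mul_one A
    · simpa using hA

end Crest.Agent.R105.CF_363
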