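import Mathlib
import Crest.Agent.R105.CF3_363
import Crest.Agent.R105.Lay1_925

/-!
# Row 105: the class `CFJ 𝓗 W` with the energy `En W` is an instance of `Lay_925.Cls`;
energy of products; CF functions and the oscillation of 722.
-/

namespace Crest.Agent.R105.CF_363

open Set Filter MeasureTheory Topology
open scoped ENNReal NNReal

/-- energy inequalities in the class `CFJ` -/
theorem CFJ.En_max_le {𝓗 : Set Hair} {W : Set (ℝ × ℝ)} (hW : IsOpen W) (hWb : volume W ≠ ∞)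
    {f g : ℝ × ℝ → ℝ} (hf : CFJ 𝓗 W f) (hg : CFJ 𝓗 W g) :
    En W (fun q => Max.max (f q) (g q)) ≤ En W f + En W g := by
  obtain ⟨J, -, ⟨L, _, _, h1, _⟩, ⟨M, _, _, h2, _⟩⟩ := hf.two hg
  exact CF_363.En_max_le h1 h2 hW (isClosed_cut J) (volume_cut J) hWb

theorem CFJ.En_min_le {𝓗 : Set Hair} {W : Set (ℝ × ℝ)} (hW : IsOpen W) (hWb : volume W ≠ ∞)
    {f g : ℝ × ℝ → ℝ} (hf : CFJ 𝓗 W f) (hg : CFJ 𝓗 W g) :
    En W (fun q => Min.min (f q) (g q)) ≤ En W f + En W g := by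
  obtain ⟨J, -, ⟨L, _, _, h1, _⟩, ⟨M, _, _, h2, _⟩⟩ := hf.two hg
  exact CF_363.En_min_le h1 h2 hW (isClosed_cut J) (volume_cut J) hWb

theorem CFJ.En_convex {𝓗 : Set Hair} {W : Set (ℝ × ℝ)} (hW : IsOpen W) (hWb : volume W ≠ ∞)
    {f g : ℝ × ℝ → ℝ} (hf : CFJ 𝓗 W f) (hg : CFJ 𝓗 W g) {s t : ℝ} (hs : 0 ≤ s) (ht : 0 ≤ t)
    (hst : s + t = 1) :
    En W (fun q => s * f q + t * g q) ≤ s * En W f + t * En W g := by
  obtain ⟨J, -, ⟨L, _, _, h1, _⟩, ⟨M, _, _, h2, _⟩⟩ := hf.two hg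
  exact CF_363.En_convex h1 h2 hW (isClosed_cut J) (volume_cut J) hWb hs ht hst

theorem CFJ.En_add_le {𝓗 : Set Hair} {W : Set (ℝ × ℝ)} (hW : IsOpen W) (hWb : volume W ≠ ∞)
    {f g : ℝ × ℝ → ℝ} (hf : CFJ 𝓗 W f) (hg : CFJ 𝓗 W g) :
    En W (fun q => f q + g q) ≤ 2 * En W f + 2 * En W g := by
  obtain ⟨J, -, ⟨L, _, _, h1, _⟩, ⟨M, _, _, h2, _⟩⟩ := hf.two hg
  exact CF_363.En_add_le h1 h2 hW (isClosed_cut J) (volume_cut J) hWb

theorem CFJ.En_const_mul {𝓗 : Set Hair} {W : Set (ℝ × ℝ)} (hW : IsOpen W)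
    {f : ℝ × ℝ → ℝ} (hf : CFJ 𝓗 W f) (c : ℝ) :
    En W (fun q => c * f q) = c ^ 2 * En W f := by
  obtain ⟨J, -, ⟨L, _, _, h1, _⟩⟩ := hf
  exact CF_363.En_const_mul h1 c hW (isClosed_cut J) (volume_cut J)

theorem CFJ.integrableOn_g2 {𝓗 : Set Hair} {W : Set (ℝ × ℝ)} (hW : IsOpen W)
    (hWb : volume W ≠ ∞) {f : ℝ × ℝ → ℝ} (hf : CFJ 𝓗 W f) : IntegrableOn (g2 f) W := by
  obtain ⟨J, -, ⟨L, _, _, h1, _⟩⟩ := hf
  exact h1.integrableOn_g2 hW (isClosed_cut J) (volume_cut J) hWb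

theorem CFJ.ae_differentiableAt {𝓗 : Set Hair} {W : Set (ℝ × ℝ)} (hW : IsOpen W)
    {f : ℝ × ℝ → ℝ} (hf : CFJ 𝓗 W f) :
    ∀ᵐ p ∂(volume.restrict W), DifferentiableAt ℝ f p := by
  obtain ⟨J, -, ⟨L, _, _, h1, _⟩⟩ := hf
  exact ae_restrict_of_diff hW (volume_cut J)
    (h1.ae_differentiableAt (μ := volume) (isOpen_diff_cut hW J))

/-- energy of a product -/
theorem CFJ.En_mul_le {𝓗 : Set Hair} {W : Set (ℝ × ℝ)} (hW : IsOpen W) (hWb : volume W ≠ ∞)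
    {f g : ℝ × ℝ → ℝ} (hf : CFJ 𝓗 W f) (hg : CFJ 𝓗 W g) {A B : ℝ}
    (hA : ∀ p ∈ W, |f p| ≤ A) (hB : ∀ p ∈ W, |g p| ≤ B) :
    En W (fun q => f q * g q) ≤ 2 * A ^ 2 * En W g + 2 * B ^ 2 * En W f := by
  unfold En
  rw [← integral_const_mul, ← integral_const_mul,
    ← integral_add ((hg.integrableOn_g2 hW hWb).const_mul _)
      ((hf.integrableOn_g2 hW hWb).const_mul _)]
  refine integral_mono_ae ((hf.mul hg).integrableOn_g2 hW hWb)
    (((hg.integrableOn_g2 hW hWb).const_mul _).add ((hf.integrableOn_g2 hW hWb).const_mul _)) ?_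
  filter_upwards [hf.ae_differentiableAt hW, hg.ae_differentiableAt hW,
    ae_restrict_mem hW.measurableSet] with p h1 h2 hp
  refine (g2_mul_le h1 h2).trans ?_
  have a1 := hA p hp
  have b1 := hB p hp
  have a2 : f p ^ 2 ≤ A ^ 2 := sq_le_sq' (by linarith [abs_le.mp a1]) (by linarith [abs_le.mp a1])
  have b2 : g p ^ 2 ≤ B ^ 2 := sq_le_sq' (by linarith [abs_le.mp b1]) (by linarith [abs_le.mp b1])
  have g1 := g2_nonneg f p
  have g3 := g2_nonneg g p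
  nlinarith [mul_le_mul_of_nonneg_right a2 g3, mul_le_mul_of_nonneg_right b2 g1]

/-- The class for the layer lemma. -/
noncomputable def cls (𝓗 : Set Hair) {W : Set (ℝ × ℝ)} (hW : IsOpen W) (hWb : volume W ≠ ∞) :
    Lay_925.Cls (ℝ × ℝ) where
  P := CFJ 𝓗 W
  E := En W
  zero := CFJ_const 0
  E_zero := (En_const W 0).le
  max' := fun _ _ hf hg => hf.max hg
  E_max := fun _ _ hf hg => hf.En_max_le hW hWb hg
  conv := fun _ _ hf hg s t _ _ _ => (hf.const_mul s).add (hg.const_mul t)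
  E_conv := fun _ _ hf hg _ _ hs ht hst => hf.En_convex hW hWb hg hs ht hst

/-- locality of the energy -/
theorem g2_indicator_ae {W N : Set (ℝ × ℝ)} (hW : MeasurableSet W) (hN : IsOpen N) {f : ℝ × ℝ → ℝ}
    {F : Set (ℝ × ℝ)} (hF : volume F = 0)
    (h0 : ∀ p ∈ W, p ∉ N → p ∉ F → ∀ᶠ q in 𝓝 p, q ∈ N → f q = 0) :
    ∀ᵐ p ∂(volume.restrict W), g2 (N.indicator f) p = N.indicator (g2 f) p := by
  classical
  have h1 : ∀ᵐ p ∂(volume.restrict W), p ∉ F :=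
    ae_restrict_of_ae (measure_eq_zero_iff_ae_notMem.mp hF)
  filter_upwards [h1, ae_restrict_mem hW] with p hpF hpW
  by_cases hpN : p ∈ N
  · rw [indicator_of_mem hpN]
    have : N.indicator f =ᶠ[𝓝 p] f := by
      filter_upwards [hN.mem_nhds hpN] with q hq
      exact indicator_of_mem hq f
    simp only [g2, gx_congr this, gy_congr this]
  · rw [indicator_of_notMem hpN]
    have : N.indicator f =ᶠ[𝓝 p] fun _ => 0 := by
      filter_upwards [h0 p hpW hpN hpF] with q hq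
      by_cases hqN : q ∈ N
      · rw [indicator_of_mem hqN, hq hqN]
      · rw [indicator_of_notMem hqN]
    simp [g2, gx_congr this, gy_congr this]

end Crest.Agent.R105.CF_363
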