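import Crest.Agent.R105.Thin4_891

/-!
Row 105, leaf LIB-THIN (task 2222), part 5: final forms.

* `exists_radius`: `K` a component of the compact set `E`, `U ⊇ K` open: for some `ε > 0` every
  connected part `S` of `E` whose `ε`-neighbourhood meets that of `K` has its `ε`-neighbourhood
  inside `U` (the Hausdorff limit steps of lemma C).
* `exists_thin_family`: thin neighbourhoods of a compact family of convex components.
-/

set_option autoImplicit false

open Set Metric Topology MeasureTheory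

namespace Crest.Agent.R105.Thin_891

section Metric

variable {Y : Type*} [MetricSpace Y]

/-- **effective form of 'Hausdorff limits of components are in one component'.** -/
theorem exists_radius {E U : Set Y} (hE : IsCompact E) {x : Y} (hx : x ∈ E) (hU : IsOpen U)
    (hKU : connectedComponentIn E x ⊆ U) :
    ∃ ε : ℝ, 0 < ε ∧ ∀ S : Set Y, S ⊆ E → IsPreconnected S →
      (cthickening ε S ∩ cthickening ε (connectedComponentIn E x)).Nonempty →
      cthickening ε S ⊆ U := by
  obtain ⟨F, hF, hKF, hFU⟩ := exists_piece hE hx hU hKU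
  obtain ⟨δ, hδ, hd⟩ := hF.exists_dist
  obtain ⟨δ', hδ', hd'⟩ := hF.cpt.exists_cthickening_subset_open hU hFU
  refine ⟨min (δ / 4) δ', by positivity, fun S hSE hS => ?_⟩
  rintro ⟨y, hy1, hy2⟩
  have h4 : min (δ / 4) δ' < δ / 2 := (min_le_left _ _).trans_lt (by linarith)
  have k1 : y ∈ thickening (δ / 2) S := cthickening_subset_thickening' (by positivity) h4 S hy1
  have k2 : y ∈ thickening (δ / 2) (connectedComponentIn E x) :=
    cthickening_subset_thickening' (by positivity) h4 _ hy2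
  obtain ⟨a, ha, had⟩ := mem_thickening_iff.1 k1
  obtain ⟨b, hb, hbd⟩ := mem_thickening_iff.1 k2
  have haF : a ∈ F := by
    by_contra h
    have h1 := hd b (hKF hb) a ⟨hSE ha, h⟩
    have h2 := dist_triangle_left b a y
    linarith
  have hSF : S ⊆ F := hF.subset_of_isPreconnected hS hSE ⟨a, ha, haF⟩
  exact (cthickening_subset_of_subset _ hSF).trans
    ((cthickening_mono (min_le_right _ _) F).trans hd')

/-- lower parts: `K ∩ {h ≤ B} ⊆ A` is an open condition on the component `K`, uniformly for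
neighbourhoods. -/
theorem exists_radius_lower {E A : Set Y} (hE : IsCompact E) {x : Y} (hx : x ∈ E) (hA : IsOpen A)
    {h : Y → ℝ} (hh : Continuous h) {B : ℝ} (hKA : connectedComponentIn E x ∩ {y | h y ≤ B} ⊆ A) :
    ∃ ε : ℝ, 0 < ε ∧ ∀ S : Set Y, S ⊆ E → IsPreconnected S →
      (cthickening ε S ∩ cthickening ε (connectedComponentIn E x)).Nonempty →
      cthickening ε S ∩ {y | h y ≤ B} ⊆ A := by
  obtain ⟨ε, hε, H⟩ := exists_radius (U := A ∪ {y | B < h y}) hE hx
    (hA.union (isOpen_lt continuous_const hh)) (fun y hy => by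
      by_cases hyB : h y ≤ B
      · exact Or.inl (hKA ⟨hy, hyB⟩)
      · exact Or.inr (not_le.1 hyB))
  refine ⟨ε, hε, fun S hSE hS hne y hy => ?_⟩
  rcases H S hSE hS hne hy.1 with h1 | h1
  · exact h1
  · have h2 : h y ≤ B := hy.2
    have h3 : B < h y := h1
    exact absurd h2 (not_le.2 h3)

/-- upper parts. -/
theorem exists_radius_upper {E A : Set Y} (hE : IsCompact E) {x : Y} (hx : x ∈ E) (hA : IsOpen A)
    {h : Y → ℝ} (hh : Continuous h) {B : ℝ} (hKA : connectedComponentIn E x ∩ {y | B ≤ h y} ⊆ A) :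
    ∃ ε : ℝ, 0 < ε ∧ ∀ S : Set Y, S ⊆ E → IsPreconnected S →
      (cthickening ε S ∩ cthickening ε (connectedComponentIn E x)).Nonempty →
      cthickening ε S ∩ {y | B ≤ h y} ⊆ A := by
  obtain ⟨ε, hε, H⟩ := exists_radius_lower (h := fun y => - h y) (B := -B) hE hx hA hh.neg
    (fun y hy => hKA ⟨hy.1, by have := hy.2; simp only [mem_ofPred_eq] at this ⊢; linarith⟩)
  refine ⟨ε, hε, fun S hSE hS hne y hy => H S hSE hS hne ⟨hy.1, ?_⟩⟩
  have := hy.2
  simp only [mem_ofPred_eq] at this ⊢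
  linarith

/-- the set of points of `E` whose component is inside an open set is open in `E`. -/
theorem isOpen_component_subset {E U : Set Y} (hE : IsCompact E) (hU : IsOpen U) :
    ∃ O, IsOpen O ∧ O ∩ E = {x | x ∈ E ∧ connectedComponentIn E x ⊆ U} := by
  have hch : ∀ x : {x | x ∈ E ∧ connectedComponentIn E x ⊆ U}, ∃ ε : ℝ, 0 < ε ∧
      ∀ S : Set Y, S ⊆ E → IsPreconnected S →
      (cthickening ε S ∩ cthickening ε (connectedComponentIn E x.1)).Nonempty →
      cthickening ε S ⊆ U := fun x => exists_radius hE x.2.1 hU x.2.2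
  choose ε hε H using hch
  refine ⟨⋃ x, ball x.1 (ε x), isOpen_iUnion fun x => isOpen_ball, ?_⟩
  ext y
  constructor
  · rintro ⟨hy, hyE⟩
    obtain ⟨x, hx⟩ := mem_iUnion.1 hy
    refine ⟨hyE, ?_⟩
    refine (self_subset_cthickening _).trans (H x (connectedComponentIn E y)
      (connectedComponentIn_subset _ _) isPreconnected_connectedComponentIn ⟨y, ?_, ?_⟩)
    · exact self_subset_cthickening _ (mem_connectedComponentIn hyE)
    · exact mem_cthickening_of_dist_le y x.1 _ _ (mem_connectedComponentIn x.2.1)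
        (le_of_lt (mem_ball.1 hx))
  · intro hy
    exact ⟨mem_iUnion.2 ⟨⟨y, hy⟩, mem_ball_self (hε _)⟩, hy.1⟩

end Metric

/-- **thin neighbourhoods of a compact family of convex components.** `G` is a compact part of the
compact set `E` which is a union of components, all of them convex (hairs and points), `O ⊇ G`
open, `ε > 0`. -/
theorem exists_thin_family {E G O : Set (ℝ × ℝ)} (hE : IsCompact E) (hG : IsCompact G)
    (hGE : G ⊆ E) (hGc : ∀ x ∈ G, connectedComponentIn E x ⊆ G)
    (hcv : ∀ x ∈ G, Convex ℝ (connectedComponentIn E x)) (hO : IsOpen O) (hGO : G ⊆ O)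
    {ε : ℝ} (hε : 0 < ε) :
    ∃ (m : ℕ) (N : Fin m → Set (ℝ × ℝ)) (p : Fin m → ℝ × ℝ),
      (∀ j, p j ∈ G) ∧ (∀ j, ThinDom E (N j)) ∧
      (∀ j, closure (N j) ⊆ thickening ε (connectedComponentIn E (p j))) ∧
      (∀ j, closure (N j) ⊆ O) ∧
      Pairwise (fun j l => Disjoint (closure (N j)) (closure (N l))) ∧
      G ⊆ ⋃ j, N j ∧ (∀ j, (N j ∩ E).Nonempty) := by
  classical
  -- the convex neighbourhoods
  have hKcpt : ∀ x, IsCompact (connectedComponentIn E x) := fun x => by
    by_cases hx : x ∈ E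
    · have h1 : IsClosed (connectedComponentIn E x) := by
        have h2 : closure (connectedComponentIn E x) ⊆ connectedComponentIn E x :=
          isPreconnected_connectedComponentIn.closure.subset_connectedComponentIn
            (subset_closure (mem_connectedComponentIn hx))
            (closure_minimal (connectedComponentIn_subset _ _) hE.isClosed)
        exact isClosed_of_closure_subset h2
      exact hE.of_isClosed_subset h1 (connectedComponentIn_subset _ _)
    · rw [connectedComponentIn_eq_empty hx]; exact isCompact_empty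
  have hr : ∀ x : ℝ × ℝ, ∃ r : ℝ, 0 < r ∧ r ≤ ε ∧
      (x ∈ G → thickening r (connectedComponentIn E x) ⊆ O) := by
    intro x
    by_cases hx : x ∈ G
    · obtain ⟨r, hr, h1⟩ := (hKcpt x).exists_thickening_subset_open hO ((hGc x hx).trans hGO)
      exact ⟨min r ε, lt_min hr hε, min_le_right _ _, fun _ =>
        (thickening_mono (min_le_left _ _) _).trans h1⟩
    · exact ⟨ε, hε, le_rfl, fun h => absurd h hx⟩
  choose r hr0 hrε hrO using hr
  let W : ℝ × ℝ → Set (ℝ × ℝ) := fun x => thickening (r x) (connectedComponentIn E x)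
  obtain ⟨n, q, F, hq, hF, hFU, hFG, hFd, hcov⟩ := exists_pieces hE hG hGE W
    (fun x _ => isOpen_thickening) (fun x _ => self_subset_thickening (hr0 x) _)
  obtain ⟨m, N, k, hN, hNW, hNd, hNc, hNne⟩ := exists_thinDoms F (fun i => W (q i))
    (fun i => (hF i).cpiece) hFd (fun i => isOpen_thickening)
    (fun i => (hcv _ (hq i)).thickening _) hFU
  refine ⟨m, N, fun j => q (k j), fun j => hq _, hN, fun j => ?_, fun j => ?_, hNd, ?_, fun j => ?_⟩
  · exact (hNW j).trans (thickening_mono (hrε _) _)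
  · exact (hNW j).trans (hrO _ (hq _))
  · intro x hx
    obtain ⟨i, hi⟩ := mem_iUnion.1 (hcov hx)
    exact hNc i hi
  · obtain ⟨w, hw, hwF⟩ := hNne j
    exact ⟨w, hw, (hF _).sub hwF⟩

/-- a compact null set has open neighbourhoods of small volume. -/
theorem exists_thickening_volume_lt {G : Set (ℝ × ℝ)} (hG : IsCompact G) (h0 : volume G = 0)
    {η : ENNReal} (hη : 0 < η) : ∃ ε : ℝ, 0 < ε ∧ volume (cthickening ε G) < η := by
  have h1 := tendsto_measure_cthickening_of_isCompact (μ := (volume : Measure (ℝ × ℝ))) hG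
  rw [h0] at h1
  have h2 := (h1.mono_left (nhdsWithin_le_nhds (s := Ioi 0))).eventually (gt_mem_nhds hη)
  have h3 : ∀ᶠ r in 𝓝[>] (0 : ℝ), 0 < r := eventually_mem_nhdsWithin
  obtain ⟨r, a, b⟩ := (h3.and h2).exists
  exact ⟨r, a, b⟩

/-- **thin neighbourhoods of a compact null family**, with small volume. -/
theorem exists_thin_family_volume {E G O : Set (ℝ × ℝ)} (hE : IsCompact E) (hG : IsCompact G)
    (hGE : G ⊆ E) (hGc : ∀ x ∈ G, connectedComponentIn E x ⊆ G)
    (hcv : ∀ x ∈ G, Convex ℝ (connectedComponentIn E x)) (hO : IsOpen O) (hGO : G ⊆ O)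
    (h0 : volume G = 0) {η : ENNReal} (hη : 0 < η)
    {ε : ℝ} (hε : 0 < ε) :
    ∃ (m : ℕ) (N : Fin m → Set (ℝ × ℝ)) (p : Fin m → ℝ × ℝ),
      (∀ j, p j ∈ G) ∧ (∀ j, ThinDom E (N j)) ∧
      (∀ j, closure (N j) ⊆ thickening ε (connectedComponentIn E (p j))) ∧
      (∀ j, closure (N j) ⊆ O) ∧
      Pairwise (fun j l => Disjoint (closure (N j)) (closure (N l))) ∧
      G ⊆ ⋃ j, N j ∧ (∀ j, (N j ∩ E).Nonempty) ∧ volume (⋃ j, closure (N j)) < η := by
  obtain ⟨ε', hε', hv⟩ := exists_thickening_volume_lt hG h0 hη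
  obtain ⟨m, N, p, h1, h2, h3, h4, h5, h6, h7⟩ :=
    exists_thin_family hE hG hGE hGc hcv hO hGO (lt_min hε hε')
  refine ⟨m, N, p, h1, h2, fun j => (h3 j).trans (thickening_mono (min_le_left _ _) _), h4, h5,
    h6, h7, ?_⟩
  refine lt_of_le_of_lt (measure_mono ?_) hv
  refine iUnion_subset fun j => (h3 j).trans ?_
  exact (thickening_mono (min_le_right _ _) _).trans
    ((thickening_subset_cthickening _ _).trans (cthickening_subset_of_subset _ (hGc _ (h1 j))))

/-- a thin domain of a finer family is contained in one domain of a coarser family. -/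
theorem exists_subset_of_family {m : ℕ} {N : Fin m → Set (ℝ × ℝ)} (hN : ∀ j, IsOpen (N j))
    (hd : Pairwise (fun j l => Disjoint (closure (N j)) (closure (N l)))) {S : Set (ℝ × ℝ)}
    (hS : IsPreconnected S) (hne : S.Nonempty) (hSN : S ⊆ ⋃ j, N j) : ∃ j, S ⊆ N j := by
  obtain ⟨x, hx⟩ := hne
  obtain ⟨j, hj⟩ := mem_iUnion.1 (hSN hx)
  refine ⟨j, ?_⟩
  by_contra hcon
  obtain ⟨z, hzS, hzN⟩ := not_subset.1 hcon
  obtain ⟨l, hl⟩ := mem_iUnion.1 (hSN hzS)
  have hlj : l ≠ j := fun h => hzN (h ▸ hl)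
  obtain ⟨w, hwS, hw1, hw2⟩ := hS (N j) (⋃ l : {l // l ≠ j}, N l.1) (hN j)
    (isOpen_iUnion fun l => hN _) (fun y hy => by
      obtain ⟨i, hi⟩ := mem_iUnion.1 (hSN hy)
      by_cases h : i = j
      · exact Or.inl (h ▸ hi)
      · exact Or.inr (mem_iUnion.2 ⟨⟨i, h⟩, hi⟩)) ⟨x, hx, hj⟩
    ⟨z, hzS, mem_iUnion.2 ⟨⟨l, hlj⟩, hl⟩⟩
  obtain ⟨i, hi⟩ := mem_iUnion.1 hw2
  exact Set.disjoint_left.1 (hd i.2) (subset_closure hi) (subset_closure hw1)

end Crest.Agent.R105.Thin_891
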