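import Crest.Agent.R105.Skp2_257
import Crest.Agent.R105.CFcls_363
import Crest.Agent.R105.Thin5_891

/-!
# Row 105: leaf LAY (Lemma C of #8892) of 257's skeleton `Skp2_257`

Input: `NullN` (test pairs of small energy in every neighbourhood of the compact family `g`);
thin neighbourhoods of 891, layers of 925, class `CFJ` of 363.
-/

set_option autoImplicit false

noncomputable section

namespace Crest.Agent.R105.Lop1_744

open Set Filter MeasureTheory Topology Metric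
open CF_363 Stp_722 Skp2_257 Thin_891
open scoped ENNReal NNReal

/-! ### elementary facts -/

theorem cc_of_mem {E : Set (ℝ × ℝ)} {K : Hair} (hK : K ∈ hairs E) {p : ℝ × ℝ} (hp : p ∈ K.car) :
    connectedComponentIn E p = K.car := by
  obtain ⟨q, _, hP⟩ := hK
  rw [hP] at hp ⊢
  exact (connectedComponentIn_eq hp).symm

theorem convex_car (K : Hair) : Convex ℝ K.car := by
  rw [K.car_eq]; exact (convex_singleton _).prod (convex_Icc _ _)

theorem mem_un {g : Set Hair} {p : ℝ × ℝ} : p ∈ un g ↔ ∃ K ∈ g, p ∈ K.car := by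
  simp [un]

theorem bot_mem_car (K : Hair) : (K.x, K.b) ∈ K.car := ⟨rfl, le_rfl, K.hbt.le⟩

theorem g2_eq_zero {f : ℝ × ℝ → ℝ} {p : ℝ × ℝ} (h : ∀ᶠ q in 𝓝 p, f q = 0) : g2 f p = 0 := by
  have h1 : f =ᶠ[𝓝 p] fun _ => (0:ℝ) := h
  simp [g2, gx_congr h1, gy_congr h1]

/-- the energy only sees the support -/
theorem En_inter {W S B : Set (ℝ × ℝ)} (hW : IsOpen W) (hS : IsClosed S) {z : ℝ × ℝ → ℝ}
    (hz : ∀ p ∈ W, p ∉ S → z p = 0) (hSB : S ⊆ B) : En (W ∩ B) z = En W z := by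
  unfold En
  symm
  refine setIntegral_eq_of_subset_of_forall_sdiff_eq_zero hW.measurableSet inter_subset_left ?_
  rintro p ⟨hpW, hpB⟩
  have hpS : p ∉ S := fun h => hpB ⟨hpW, hSB h⟩
  refine g2_eq_zero ?_
  filter_upwards [hW.mem_nhds hpW, hS.isOpen_compl.mem_nhds hpS] with q h1 h2
  exact hz q h1 h2

/-! ### truncation -/

/-- multiplied by three and truncated at one -/
def tr (z : ℝ × ℝ → ℝ) (p : ℝ × ℝ) : ℝ := min (3 * z p) 1

theorem tr_rg {z : ℝ × ℝ → ℝ} (h : ∀ p, 0 ≤ z p) (p : ℝ × ℝ) : 0 ≤ tr z p ∧ tr z p ≤ 1 := by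
  refine ⟨le_min ?_ zero_le_one, min_le_right _ _⟩
  have := h p
  positivity

theorem tr_zero {z : ℝ × ℝ → ℝ} {p : ℝ × ℝ} (h : z p = 0) : tr z p = 0 := by
  simp [tr, h]

theorem tr_one {z : ℝ × ℝ → ℝ} {p : ℝ × ℝ} (h : 1 / 3 ≤ z p) : tr z p = 1 := by
  unfold tr; exact min_eq_right (by linarith)

theorem tr_cfj {𝓗 : Set Hair} {W : Set (ℝ × ℝ)} {z : ℝ × ℝ → ℝ} (h : CFJ 𝓗 W z) :
    CFJ 𝓗 W (tr z) := (h.const_mul 3).min (CFJ_const 1)

theorem tr_En {𝓗 : Set Hair} {W : Set (ℝ × ℝ)} (hW : IsOpen W) (hWb : volume W ≠ ∞)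
    {z : ℝ × ℝ → ℝ} (h : CFJ 𝓗 W z) : En W (tr z) ≤ 9 * En W z := by
  have h3 := h.const_mul 3
  obtain ⟨J, -, ⟨L, _, _, h1, _⟩⟩ := h3
  have h4 := En_min_const_le h1 1 hW (isClosed_cut J) (volume_cut J) hWb
  rw [h.En_const_mul hW 3] at h4
  refine h4.trans (le_of_eq ?_)
  norm_num

/-! ### pieces -/

section piece

variable {𝓗 : Set Hair} {W S : Set (ℝ × ℝ)} {m : ℕ} {N : Fin m → Set (ℝ × ℝ)} {f : ℝ × ℝ → ℝ}

theorem notMem_inter (hd : Pairwise fun j l => Disjoint (closure (N j)) (closure (N l)))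
    (hSN : S ⊆ ⋃ j, N j) {j : Fin m} {p : ℝ × ℝ} (hp : p ∉ N j) : p ∉ S ∩ closure (N j) := by
  rintro ⟨hpS, hpc⟩
  obtain ⟨l, hl⟩ := mem_iUnion.1 (hSN hpS)
  by_cases hlj : l = j
  · exact hp (hlj ▸ hl)
  · exact disjoint_left.1 (hd hlj) (subset_closure hl) hpc

theorem piece_cfj (hf : CFJ 𝓗 W f) (hN : ∀ j, IsOpen (N j))
    (hd : Pairwise fun j l => Disjoint (closure (N j)) (closure (N l)))
    (hS : IsClosed S) (hSN : S ⊆ ⋃ j, N j) (hf0 : ∀ p ∈ W, p ∉ S → f p = 0) (j : Fin m) :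
    CFJ 𝓗 W ((N j).indicator f) := by
  refine hf.indicator (N := N j) (A := (S ∩ closure (N j))ᶜ) (hN j)
    (hS.inter isClosed_closure).isOpen_compl ?_ inter_subset_left ?_
  · intro p hp
    by_cases h : p ∈ N j
    · exact Or.inl h
    · exact Or.inr (notMem_inter hd hSN h)
  · rintro p ⟨⟨hpW, hpN⟩, hpA⟩
    exact hf0 p hpW fun hpS => hpA ⟨hpS, subset_closure hpN⟩

theorem piece_En (hf : CFJ 𝓗 W f) (hW : IsOpen W) (hWb : volume W ≠ ∞)
    (hN : ∀ j, IsOpen (N j))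
    (hd : Pairwise fun j l => Disjoint (closure (N j)) (closure (N l)))
    (hS : IsClosed S) (hSN : S ⊆ ⋃ j, N j) (hf0 : ∀ p ∈ W, p ∉ S → f p = 0) :
    ∑ j, En W ((N j).indicator f) ≤ En W f := by
  classical
  have h1 : ∀ j, En W ((N j).indicator f) = ∫ p in W, (N j).indicator (g2 f) p := by
    intro j
    refine integral_congr_ae (g2_indicator_ae hW.measurableSet (hN j) (F := ∅) (by simp) ?_)
    intro p hpW hpN _
    filter_upwards [(hS.inter isClosed_closure).isOpen_compl.mem_nhds (notMem_inter hd hSN hpN),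
      hW.mem_nhds hpW] with q hq hqW hqN
    exact hf0 q hqW fun hqS => hq ⟨hqS, subset_closure hqN⟩
  have hint : ∀ j, Integrable ((N j).indicator (g2 f)) (volume.restrict W) := fun j =>
    (hf.integrableOn_g2 hW hWb).indicator (hN j).measurableSet
  simp_rw [h1]
  rw [← integral_finsetSum _ fun j _ => hint j]
  refine integral_mono (integrable_finsetSum _ fun j _ => hint j) (hf.integrableOn_g2 hW hWb) ?_
  intro p
  simp only
  by_cases hex : ∃ j, p ∈ N j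
  · obtain ⟨j, hj⟩ := hex
    rw [Finset.sum_eq_single j]
    · rw [indicator_of_mem hj]
    · intro l _ hlj
      refine indicator_of_notMem (fun hl => ?_) _
      exact disjoint_left.1 (hd hlj) (subset_closure hl) (subset_closure hj)
    · intro h; exact absurd (Finset.mem_univ j) h
  · push Not at hex
    rw [Finset.sum_eq_zero fun j _ => indicator_of_notMem (hex j) _]
    exact g2_nonneg f p

end piece

/-! ### sums over finite sets of indices -/

theorem sum_le {m : ℕ → ℕ} {F : (Σ n, Fin (m n)) → ℝ} {e : ℕ → ℝ} (h0 : ∀ a, 0 ≤ F a)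
    (h1 : ∀ n, ∑ j, F ⟨n, j⟩ ≤ e n) {c : ℝ} (he : ∀ s : Finset ℕ, ∑ n ∈ s, e n ≤ c)
    (T : Finset (Σ n, Fin (m n))) : ∑ a ∈ T, F a ≤ c := by
  classical
  calc ∑ a ∈ T, F a
      ≤ ∑ a ∈ (T.image Sigma.fst).sigma (fun n => (Finset.univ : Finset (Fin (m n)))), F a :=
        Finset.sum_le_sum_of_subset_of_nonneg (fun a ha => Finset.mem_sigma.2
          ⟨Finset.mem_image_of_mem _ ha, Finset.mem_univ _⟩) (fun a _ _ => h0 a)
    _ = ∑ n ∈ T.image Sigma.fst, ∑ j, F ⟨n, j⟩ := Finset.sum_sigma _ _ _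
    _ ≤ ∑ n ∈ T.image Sigma.fst, e n := Finset.sum_le_sum fun n _ => h1 n
    _ ≤ c := he _

theorem sum_geom (s : Finset ℕ) {c : ℝ} (hc : 0 ≤ c) : ∑ n ∈ s, c * (1 / 2 : ℝ) ^ (n + 1) ≤ c := by
  have h1 : ∑ n ∈ s, (1 / 2 : ℝ) ^ n ≤ 2 :=
    (summable_geometric_two.sum_le_tsum s fun n _ => by positivity).trans_eq tsum_geometric_two
  have h2 : ∑ n ∈ s, c * (1 / 2 : ℝ) ^ (n + 1) = c * (1 / 2) * ∑ n ∈ s, (1 / 2 : ℝ) ^ n := by
    rw [Finset.mul_sum]
    refine Finset.sum_congr rfl fun n _ => ?_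
    rw [pow_succ]; ring
  rw [h2]
  nlinarith

/-! ### good hairs -/

theorem good_of_frequently {E : Set (ℝ × ℝ)} (hE : IsCompact E) {p : ℝ × ℝ} (hp : p ∈ E)
    {m : ℕ → ℕ} {N : ∀ n, Fin (m n) → Set (ℝ × ℝ)} {q : ∀ n, Fin (m n) → ℝ × ℝ}
    {δ : ℕ → ℝ} (hδ : Tendsto δ atTop (𝓝 0))
    (hcl : ∀ n j, closure (N n j) ⊆ thickening (δ n) (connectedComponentIn E (q n j)))
    {O : (Σ n, Fin (m n)) → Set (ℝ × ℝ)}
    (h : ∃ᶠ n in atTop, ∃ j, connectedComponentIn E p ⊆ O ⟨n, j⟩ ∧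
      connectedComponentIn E p ⊆ N n j) :
    Lay_925.Good (fun a : Σ n, Fin (m n) => N a.1 a.2) O (connectedComponentIn E p) := by
  classical
  intro F W hW hKW
  obtain ⟨ε, hε, H⟩ := exists_radius hE hp hW hKW
  have h1 : ∀ᶠ n in atTop, δ n < ε := hδ.eventually (gt_mem_nhds hε)
  have h2 : ∀ᶠ n in atTop, n ∉ F.image Sigma.fst := by
    rw [← Nat.cofinite_eq_atTop]
    exact (F.image Sigma.fst).eventually_cofinite_notMem
  obtain ⟨n, ⟨j, hj1, hj2⟩, hn1, hn2⟩ := (h.and_eventually (h1.and h2)).exists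
  refine ⟨⟨n, j⟩, fun hF => hn2 (Finset.mem_image_of_mem _ hF), hj1, ?_⟩
  have hmem : p ∈ connectedComponentIn E p := mem_connectedComponentIn hp
  have h3 : closure (N n j) ⊆ cthickening ε (connectedComponentIn E (q n j)) :=
    (hcl n j).trans ((thickening_subset_cthickening _ _).trans (cthickening_mono hn1.le _))
  exact h3.trans (H _ (connectedComponentIn_subset _ _) isPreconnected_connectedComponentIn
    ⟨p, h3 (subset_closure (hj2 hmem)), self_subset_cthickening _ hmem⟩)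

/-! ### one side -/

/-- the open one-set of a piece -/
def Os (V N : Set (ℝ × ℝ)) (f : ℝ × ℝ → ℝ) : Set (ℝ × ℝ) := interior (N ∩ {x | x ∈ V → f x = 1})

theorem Os_sub {V N : Set (ℝ × ℝ)} {f : ℝ × ℝ → ℝ} : Os V N f ⊆ N :=
  interior_subset.trans inter_subset_left

theorem Os_one {V N : Set (ℝ × ℝ)} {f : ℝ × ℝ → ℝ} {x : ℝ × ℝ} (hx : x ∈ Os V N f ∩ V) :
    N.indicator f x = 1 := by
  have h1 := interior_subset hx.1
  rw [indicator_of_mem h1.1]
  exact h1.2 hx.2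

theorem subset_Os {V N O K : Set (ℝ × ℝ)} {f : ℝ × ℝ → ℝ} (hN : IsOpen N) (hO : IsOpen O)
    (hKO : K ⊆ O) (hKN : K ⊆ N) (h1 : ∀ x ∈ O, x ∈ V → f x = 1) : K ⊆ Os V N f := by
  refine (subset_inter hKO hKN).trans (interior_maximal ?_ (hO.inter hN))
  rintro x ⟨hxO, hxN⟩
  exact ⟨hxN, h1 x hxO⟩

section side

variable {E W B : Set (ℝ × ℝ)} {m : ℕ → ℕ} {N : ∀ n, Fin (m n) → Set (ℝ × ℝ)}
  {z : ℕ → ℝ × ℝ → ℝ} {ε : ℝ}

theorem side_cfj (hN : ∀ n j, IsOpen (N n j))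
    (hd : ∀ n, Pairwise fun j l => Disjoint (closure (N n j)) (closure (N n l)))
    {e : ℕ → ℝ} (hH : ∀ n, Half E W (⋃ j, N n j) (e n) (z n)) (n : ℕ) (j : Fin (m n)) :
    CFJ (hairs E) (W ∩ B) ((N n j).indicator (tr (z n))) := by
  obtain ⟨S, hS, hSN, hS0⟩ := (hH n).sp
  exact (piece_cfj (tr_cfj (hH n).cf) (hN n) (hd n) hS.isClosed hSN
    (fun p hp hpS => tr_zero (hS0 p hp hpS)) j).mono subset_rfl inter_subset_left

theorem side_En (hW : IsOpen W) (hB : IsOpen B) (hBb : volume B ≠ ∞)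
    (hN : ∀ n j, IsOpen (N n j)) (hNB : ∀ n j, N n j ⊆ B)
    (hd : ∀ n, Pairwise fun j l => Disjoint (closure (N n j)) (closure (N n l)))
    (hε : 0 ≤ ε) (hH : ∀ n, Half E W (⋃ j, N n j) (ε / 9 * (1 / 2) ^ (n + 1)) (z n))
    (T : Finset (Σ n, Fin (m n))) :
    ∑ a ∈ T, En (W ∩ B) ((N a.1 a.2).indicator (tr (z a.1))) ≤ ε := by
  have hWb : volume (W ∩ B) ≠ ∞ := ((measure_mono inter_subset_right).trans_lt hBb.lt_top).ne
  refine sum_le (e := fun n => ε * (1 / 2) ^ (n + 1)) (fun a => En_nonneg _ _) (fun n => ?_)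
    (fun s => sum_geom s hε) T
  obtain ⟨S, hS, hSN, hS0⟩ := (hH n).sp
  have hz : CFJ (hairs E) (W ∩ B) (z n) := (hH n).cf.mono subset_rfl inter_subset_left
  have h1 := piece_En (tr_cfj hz) (hW.inter hB) hWb (hN n) (hd n) hS.isClosed hSN
    (fun p hp hpS => tr_zero (hS0 p hp.1 hpS))
  have h2 := tr_En (hW.inter hB) hWb hz
  have h3 : En (W ∩ B) (z n) = En W (z n) :=
    En_inter hW hS.isClosed hS0 (hSN.trans (iUnion_subset fun j => hNB n j))
  have h4 := (hH n).en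
  rw [h3] at h2
  refine h1.trans (h2.trans ?_)
  linarith

/-- from the class on the bounded piece back to `Half` -/
theorem half_of {N₀ S₀ : Set (ℝ × ℝ)} {ζ : ℝ × ℝ → ℝ} (hW : IsOpen W) (hB : IsOpen B)
    (hS₀ : IsCompact S₀) (hSN : S₀ ⊆ N₀) (hSB : S₀ ⊆ B) (hζ : CFJ (hairs E) (W ∩ B) ζ)
    (hrg : ∀ p, 0 ≤ ζ p ∧ ζ p ≤ 1) (h0 : ∀ p, p ∉ S₀ → ζ p = 0)
    (hen : En (W ∩ B) ζ ≤ ε) : Half E W N₀ ε ζ where
  cf := by
    have h1 : B.indicator ζ = ζ := by
      funext p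
      by_cases hp : p ∈ B
      · exact indicator_of_mem hp _
      · rw [indicator_of_notMem hp, h0 p fun h => hp (hSB h)]
    rw [← h1]
    refine hζ.indicator (N := B) (A := S₀ᶜ) hB hS₀.isClosed.isOpen_compl ?_ subset_rfl ?_
    · intro p _
      by_cases hp : p ∈ S₀
      · exact Or.inl (hSB hp)
      · exact Or.inr hp
    · rintro p ⟨_, hp⟩
      exact h0 p hp
  rg := hrg
  sp := ⟨S₀, hS₀, hSN, fun p _ hp => h0 p hp⟩
  en := by
    rwa [En_inter hW hS₀.isClosed (fun p _ hp => h0 p hp) hSB] at hen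

end side

theorem osc_of {V P Q : Set (ℝ × ℝ)} {z : ℝ × ℝ → ℝ} {M m : ℕ} (hM : m + 1 = M) (hQ : Q ⊆ P)
    (h : ∃ c : ℝ, ∃ W, IsOpen W ∧ P ⊆ W ∧ ∀ x ∈ W ∩ V,
      c ≤ z x ∧ z x ≤ c + 1 / ((m + 1 : ℕ) : ℝ)) : OscLe V Q z (1 / M) := by
  obtain ⟨c, W, hW, hPW, H⟩ := h
  rw [hM] at H
  intro η hη
  refine ⟨W, hW, hQ.trans hPW, fun q hq q' hq' => ?_⟩
  have h1 := H q hq
  have h2 := H q' hq'
  rw [abs_le]
  constructor <;> linarith [h1.1, h1.2, h2.1, h2.2]

/-! ### the theorem -/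

theorem isOpen_Lo (B : ℝ) : IsOpen (Lo B) := isOpen_lt continuous_snd continuous_const

theorem isOpen_Up (B : ℝ) : IsOpen (Up B) := isOpen_lt continuous_const continuous_snd

theorem lay : Skp2_257.LAY := by
  classical
  intro E hE g Bm Bp hg hnull N hN hgN M hM ε hε
  have hgE : un g ⊆ E := un_sub hg.sub
  have hcc : ∀ x ∈ un g, ∃ K ∈ g, connectedComponentIn E x = K.car := by
    intro x hx
    obtain ⟨K, hK, hxK⟩ := mem_un.1 hx
    exact ⟨K, hK, cc_of_mem (hg.sub hK) hxK⟩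
  have hGc : ∀ x ∈ un g, connectedComponentIn E x ⊆ un g := by
    intro x hx y hy
    obtain ⟨K, hK, h⟩ := hcc x hx
    exact mem_un.2 ⟨K, hK, h ▸ hy⟩
  have hcv : ∀ x ∈ un g, Convex ℝ (connectedComponentIn E x) := by
    intro x hx
    obtain ⟨K, hK, h⟩ := hcc x hx
    rw [h]; exact convex_car K
  obtain ⟨δ, hδ, hδN⟩ := hg.cpt.exists_cthickening_subset_open hN hgN
  have hS₀ : IsCompact (cthickening δ (un g)) := hg.cpt.cthickening
  obtain ⟨R, hR⟩ := hS₀.isBounded.subset_ball (0 : ℝ × ℝ)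
  have fam := fun n : ℕ => exists_thin_family hE.cpt hg.cpt hgE hGc hcv
    (isOpen_thickening (δ := δ) (E := un g)) (self_subset_thickening hδ _)
    (ε := 1 / ((n : ℝ) + 1)) (by positivity)
  choose m Nn q hq hThin hcl hO₀ hdisj hcov hmeet using fam
  have hNo : ∀ n j, IsOpen (Nn n j) := fun n j => (hThin n j).isOpen
  have hNS : ∀ n j, closure (Nn n j) ⊆ cthickening δ (un g) := fun n j =>
    (hO₀ n j).trans (thickening_subset_cthickening _ _)
  have hNB : ∀ n j, Nn n j ⊆ ball (0 : ℝ × ℝ) R := fun n j =>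
    subset_closure.trans ((hNS n j).trans hR)
  have hpair : ∀ n : ℕ, ∃ zm zp, Pair E g Bm Bp (⋃ j, Nn n j) (ε / 9 * (1 / 2) ^ (n + 1)) zm zp :=
    fun n => hnull _ (isOpen_iUnion fun j => hNo n j) (hcov n) _ (by positivity)
  choose zm zp hP using hpair
  have hBo : IsOpen (ball (0 : ℝ × ℝ) R) := isOpen_ball
  have hBb : volume (ball (0 : ℝ × ℝ) R) ≠ ∞ := measure_ball_lt_top.ne
  -- instances of the class
  let C : Lay_925.Cls (ℝ × ℝ) := cls (hairs E) (W := Lo Bm ∩ ball 0 R) ((isOpen_Lo Bm).inter hBo)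
    ((measure_mono inter_subset_right).trans_lt hBb.lt_top).ne
  let C' : Lay_925.Cls (ℝ × ℝ) := cls (hairs E) (W := Up Bp ∩ ball 0 R) ((isOpen_Up Bp).inter hBo)
    ((measure_mono inter_subset_right).trans_lt hBb.lt_top).ne
  have : CompactSpace (un g) := isCompact_iff_compactSpace.1 hg.cpt
  have hopen : ∀ U, IsOpen U → IsOpen {k : un g | connectedComponentIn E k.1 ⊆ U} := by
    intro U hU
    obtain ⟨O, hO, hOE⟩ := isOpen_component_subset hE.cpt hU
    have : {k : un g | connectedComponentIn E k.1 ⊆ U} = Subtype.val ⁻¹' O := by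
      ext k
      constructor
      · intro hk
        have : k.1 ∈ O ∩ E := hOE ▸ ⟨hgE k.2, hk⟩
        exact this.1
      · intro hk
        have : k.1 ∈ O ∩ E := ⟨hk, hgE k.2⟩
        rw [hOE] at this
        exact this.2
    rw [this]
    exact hO.preimage continuous_subtype_val
  have hH : ∀ P ∈ Comps E, ∀ a : (Σ n, Fin (m n)), P ⊆ Nn a.1 a.2 ∨
      Disjoint P (closure (Nn a.1 a.2)) := by
    rintro P ⟨p, hp, rfl⟩ a
    by_cases h : ∃ y ∈ connectedComponentIn E p, y ∈ closure (Nn a.1 a.2)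
    · left
      obtain ⟨y, hy, hyc⟩ := h
      have hyE : y ∈ E := connectedComponentIn_subset _ _ hy
      have hyN : y ∈ E ∩ Nn a.1 a.2 := by
        rw [← (hThin a.1 a.2).inter_closure]; exact ⟨hyE, hyc⟩
      rw [connectedComponentIn_eq hy]
      exact (hThin a.1 a.2).component_subset hyN.2
    · right
      push Not at h
      exact disjoint_left.2 h
  -- every hair is good
  have hgood : ∀ k : un g,
      Lay_925.Good (fun a : Σ n, Fin (m n) => Nn a.1 a.2)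
        (fun a => Os (Eᶜ ∩ Lo Bm) (Nn a.1 a.2) (tr (zm a.1))) (connectedComponentIn E k.1) ∨
      Lay_925.Good (fun a : Σ n, Fin (m n) => Nn a.1 a.2)
        (fun a => Os (Eᶜ ∩ Up Bp) (Nn a.1 a.2) (tr (zp a.1))) (connectedComponentIn E k.1) := by
    rintro ⟨p, hp⟩
    obtain ⟨K, hK, hpK⟩ := hcc p hp
    have hpE : p ∈ E := hgE hp
    have hmem : p ∈ connectedComponentIn E p := mem_connectedComponentIn hpE
    have hδ0 : Tendsto (fun n : ℕ => 1 / ((n : ℝ) + 1)) atTop (𝓝 0) :=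
      tendsto_one_div_add_atTop_nhds_zero_nat
    have hstage : ∀ n, (∃ j, connectedComponentIn E p ⊆
          Os (Eᶜ ∩ Lo Bm) (Nn n j) (tr (zm n)) ∧ connectedComponentIn E p ⊆ Nn n j) ∨
        (∃ j, connectedComponentIn E p ⊆
          Os (Eᶜ ∩ Up Bp) (Nn n j) (tr (zp n)) ∧ connectedComponentIn E p ⊆ Nn n j) := by
      intro n
      obtain ⟨j, hj⟩ := mem_iUnion.1 (hcov n hp)
      have hKN : connectedComponentIn E p ⊆ Nn n j := (hThin n j).component_subset hj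
      obtain ⟨O, hO, hKO, hkey⟩ := (hP n).key K hK
      rw [← hpK] at hKO
      by_cases hlow : ∀ x ∈ O \ E, x ∈ Lo Bm → 1 / 3 ≤ zm n x
      · left
        refine ⟨j, subset_Os (hNo n j) hO hKO hKN ?_, hKN⟩
        rintro x hxO ⟨hxE, hxL⟩
        exact tr_one (hlow x ⟨hxO, hxE⟩ hxL)
      · right
        push Not at hlow
        obtain ⟨x, hx, hxL, hlt⟩ := hlow
        refine ⟨j, subset_Os (hNo n j) hO hKO hKN ?_, hKN⟩
        rintro y hyO ⟨hyE, hyU⟩
        have := hkey x hx hxL y ⟨hyO, hyE⟩ hyU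
        exact tr_one (by linarith)
    have hfreq : (∃ᶠ n in atTop, ∃ j, connectedComponentIn E p ⊆
          Os (Eᶜ ∩ Lo Bm) (Nn n j) (tr (zm n)) ∧ connectedComponentIn E p ⊆ Nn n j) ∨
        (∃ᶠ n in atTop, ∃ j, connectedComponentIn E p ⊆
          Os (Eᶜ ∩ Up Bp) (Nn n j) (tr (zp n)) ∧ connectedComponentIn E p ⊆ Nn n j) := by
      rw [← frequently_or_distrib]
      exact Frequently.of_forall hstage
    rcases hfreq with h | h
    · left
      exact good_of_frequently hE.cpt hpE hδ0 hcl h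
    · right
      exact good_of_frequently hE.cpt hpE hδ0 hcl h
  obtain ⟨m₀, rfl⟩ : ∃ m₀, M = m₀ + 1 := ⟨M - 1, by omega⟩
  obtain ⟨z, z', W, W', hW, hW', hcov', hCz, hCz', hEz, hEz', hr, hr', h1, h1', hs, hs', ho, ho'⟩ :=
    Lay_925.layers (G := un g) C C'
      (N := fun a : Σ n, Fin (m n) => Nn a.1 a.2)
      (O := fun a => Os (Eᶜ ∩ Lo Bm) (Nn a.1 a.2) (tr (zm a.1)))
      (N' := fun a : Σ n, Fin (m n) => Nn a.1 a.2)
      (O' := fun a => Os (Eᶜ ∩ Up Bp) (Nn a.1 a.2) (tr (zp a.1)))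
      (fun a => isOpen_interior) (fun a => isOpen_interior)
      (fun a => Os_sub) (fun a => Os_sub)
      (fun a => (hThin a.1 a.2).isCompact_closure) (fun a => (hThin a.1 a.2).isCompact_closure)
      (V := Eᶜ ∩ Lo Bm) (V' := Eᶜ ∩ Up Bp)
      (Z := fun a => (Nn a.1 a.2).indicator (tr (zm a.1)))
      (Z' := fun a => (Nn a.1 a.2).indicator (tr (zp a.1)))
      (fun a => side_cfj hNo hdisj (fun n => (hP n).m) a.1 a.2)
      (fun a => side_cfj hNo hdisj (fun n => (hP n).p) a.1 a.2)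
      (fun a x => by
        by_cases hx : x ∈ Nn a.1 a.2
        · rw [indicator_of_mem hx]; exact tr_rg (fun p => ((hP a.1).m.rg p).1) x
        · rw [indicator_of_notMem hx]; exact ⟨le_rfl, zero_le_one⟩)
      (fun a x => by
        by_cases hx : x ∈ Nn a.1 a.2
        · rw [indicator_of_mem hx]; exact tr_rg (fun p => ((hP a.1).p.rg p).1) x
        · rw [indicator_of_notMem hx]; exact ⟨le_rfl, zero_le_one⟩)
      (fun a x hx => Os_one hx) (fun a x hx => Os_one hx)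
      (fun a x hx => indicator_of_notMem hx _) (fun a x hx => indicator_of_notMem hx _)
      (H := Comps E) (H' := Comps E) hH hH
      (Km := fun k => connectedComponentIn E k.1) (Kp := fun k => connectedComponentIn E k.1)
      hopen hopen hgood ∅ ∅ (e := ε) (e' := ε)
      (fun T _ => side_En (isOpen_Lo Bm) hBo hBb hNo hNB hdisj hε.le (fun n => (hP n).m) T)
      (fun T _ => side_En (isOpen_Up Bp) hBo hBb hNo hNB hdisj hε.le (fun n => (hP n).p) T)
      m₀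
  have hz0 : ∀ p, p ∉ cthickening δ (un g) → z p = 0 := by
    intro p hp
    by_contra h
    obtain ⟨a, _, ha⟩ := hs p h
    exact hp (hNS a.1 a.2 (subset_closure ha))
  have hz0' : ∀ p, p ∉ cthickening δ (un g) → z' p = 0 := by
    intro p hp
    by_contra h
    obtain ⟨a, _, ha⟩ := hs' p h
    exact hp (hNS a.1 a.2 (subset_closure ha))
  refine ⟨z, z', half_of (isOpen_Lo Bm) hBo hS₀ hδN hR hCz hr hz0 hEz,
    half_of (isOpen_Up Bp) hBo hS₀ hδN hR hCz' hr' hz0' hEz', ?_, ?_, ?_⟩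
  · intro P hPc
    exact osc_of rfl inter_subset_left (ho P hPc)
  · intro P hPc
    exact osc_of rfl inter_subset_left (ho' P hPc)
  · intro K hK
    have hmem : (K.x, K.b) ∈ un g := mem_un.2 ⟨K, hK, bot_mem_car K⟩
    have hKc : connectedComponentIn E (K.x, K.b) = K.car := cc_of_mem (hg.sub hK) (bot_mem_car K)
    rcases hcov' ⟨_, hmem⟩ with h | h
    · left
      simp only [hKc] at h
      exact ⟨W, hW, inter_subset_left.trans h, fun p hp hpL => h1 p ⟨hp.1, hp.2, hpL⟩⟩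
    · right
      simp only [hKc] at h
      exact ⟨W', hW', inter_subset_left.trans h, fun p hp hpL => h1' p ⟨hp.1, hp.2, hpL⟩⟩

end Crest.Agent.R105.Lop1_744
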