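import Crest.Agent.R105.Spq0_722

/-!
Row 105 (S0138, picture with solids), task 2456 (STEPQ), part 3: single operations at one
component (`Treat`: flattening of a free hair, CLEANQ of a solid) and finitely many of them.
-/

set_option autoImplicit false
set_option linter.unusedSectionVars false

open Set Filter Topology Metric

namespace Crest.Agent.R105.Spq_722

open Stp_722

local notation "cc" => connectedComponentIn

variable {X : Type*} [TopologicalSpace X] [T2Space X] {V E : Set X} {h : X → ℝ}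

/-- the component `P` can be treated: small cost, inside any neighbourhood `N`, values stay in the
hull, the oscillation at `P` drops to the oscillation `c` at the squares `sq` of `P`, and the
oscillation of portions of all other components grows by at most `η`. -/
def Treat (V E : Set X) (h : X → ℝ) (Cl : (X → ℝ) → Prop) (D : (X → ℝ) → (X → ℝ) → ℝ → Prop)
    (sq : Set (Set X)) (P : Set X) : Prop :=
  ∀ (χ : X → ℝ) (c : ℝ) (N : Set X) (ε η : ℝ), Cl χ → 0 ≤ c →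
    (∀ Q ∈ sq, Q ⊆ P → OscLe V Q χ c) → IsOpen N → P ⊆ N → 0 < ε → 0 < η →
    ∃ χ' : X → ℝ, D χ χ' ε ∧ Cl χ' ∧ (∃ S, IsClosed S ∧ S ⊆ N ∧ ∀ p ∉ S, χ' p = χ p) ∧
      (∀ lo hi, (∀ q ∈ N ∩ V, χ q ∈ Icc lo hi) → ∀ q ∈ N ∩ V, χ' q ∈ Icc (lo - η) (hi + η)) ∧
      OscLe V P χ' (c + η) ∧
      ∀ x ∈ E, x ∉ P → ∀ R ⊆ cc E x, Lev V h R → ∀ b, OscLe V R χ b → OscLe V R χ' (b + η)

/-- **finitely many single operations** -/
theorem treat_all {Cl : (X → ℝ) → Prop} {D : (X → ℝ) → (X → ℝ) → ℝ → Prop} {sq : Set (Set X)}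
    (D0 : ∀ χ, Cl χ → D χ χ 0)
    (Dadd : ∀ χ₁ χ₂ χ₃ s t, D χ₁ χ₂ s → D χ₂ χ₃ t → D χ₁ χ₃ (s + t)) {ι : Type*} [DecidableEq ι]
    {P N : ι → Set X} (hT : ∀ i, Treat V E h Cl D sq (P i)) (hNo : ∀ i, IsOpen (N i))
    (hPN : ∀ i, P i ⊆ N i) (hNd : ∀ i j, i ≠ j → Disjoint (N i) (N j)) {χ : X → ℝ} (hχ : Cl χ)
    {c A ε η : ℝ} (hc : 0 ≤ c) (hsq : ∀ i, ∀ Q ∈ sq, Q ⊆ P i → OscLe V Q χ c) (hA0 : 0 ≤ A)
    (hA : ∀ i, ∀ q ∈ N i ∩ V, ∀ q' ∈ N i ∩ V, |χ q - χ q'| ≤ A) (hε : 0 < ε) (hη : 0 < η)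
    (s : Finset ι) :
    ∃ χ' : X → ℝ, D χ χ' (s.card * ε) ∧ Cl χ' ∧
      (∃ S, IsClosed S ∧ S ⊆ (⋃ i ∈ s, N i) ∧ ∀ p ∉ S, χ' p = χ p) ∧
      (∀ q ∈ V, |χ' q - χ q| ≤ A + η) ∧ (∀ i ∈ s, OscLe V (P i) χ' (c + η)) ∧
      ∀ x ∈ E, (∀ i ∈ s, x ∉ P i) → ∀ R ⊆ cc E x, Lev V h R → ∀ b, OscLe V R χ b →
        OscLe V R χ' (b + s.card * η) := by
  classical
  induction s using Finset.induction_on with
  | empty =>
    refine ⟨χ, ?_, hχ, ⟨∅, isClosed_empty, empty_subset _, fun _ _ => rfl⟩, ?_, by simp, ?_⟩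
    · simpa using D0 χ hχ
    · intro q _
      rw [sub_self, abs_zero]; linarith
    · intro x _ _ R _ _ b hb
      simpa using hb
  | insert i s hi ih =>
    obtain ⟨χ₁, hD, hcl, ⟨S₁, hS₁, hS₁N, hoff⟩, hsup, hfl, hgr⟩ := ih
    have hdis : ∀ q ∈ N i, q ∉ S₁ := by
      intro q hq hqS
      obtain ⟨j, hj, hqj⟩ := mem_iUnion₂.1 (hS₁N hqS)
      have hji : j ≠ i := by rintro rfl; exact hi hj
      exact Set.disjoint_left.1 (hNd j i hji) hqj hq
    have heq : ∀ q ∈ N i, χ₁ q = χ q := fun q hq => hoff q (hdis q hq)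
    have hsq₁ : ∀ Q ∈ sq, Q ⊆ P i → OscLe V Q χ₁ c := fun Q hQ hQP =>
      (hsq i Q hQ hQP).congr (hNo i) (hQP.trans (hPN i)) fun q hq => heq q hq.1
    obtain ⟨χ₂, hD2, hcl2, ⟨S₂, hS₂, hS₂N, hoff2⟩, hhull, hfl2, hgr2⟩ := hT i χ₁ c (N i) ε η
      hcl hc hsq₁ (hNo i) (hPN i) hε hη
    have hcard : ((insert i s).card : ℝ) = s.card + 1 := by
      rw [Finset.card_insert_of_notMem hi]; push_cast; ring
    refine ⟨χ₂, ?_, hcl2, ⟨S₁ ∪ S₂, hS₁.union hS₂, ?_, ?_⟩, ?_, ?_, ?_⟩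
    · rw [hcard]
      have := Dadd _ _ _ _ _ hD hD2
      convert this using 1
      ring
    · rintro p (hp | hp)
      · obtain ⟨j, hj, hpj⟩ := mem_iUnion₂.1 (hS₁N hp)
        exact mem_iUnion₂.2 ⟨j, Finset.mem_insert_of_mem hj, hpj⟩
      · exact mem_iUnion₂.2 ⟨i, Finset.mem_insert_self _ _, hS₂N hp⟩
    · intro p hp
      rw [hoff2 p fun h => hp (Or.inr h), hoff p fun h => hp (Or.inl h)]
    · intro q hq
      by_cases hqN : q ∈ N i
      · have h1 : ∀ q' ∈ N i ∩ V, χ₁ q' ∈ Icc (χ q - A) (χ q + A) := by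
          intro q' hq'
          rw [heq q' hq'.1]
          have := abs_le.1 (hA i q' hq' q ⟨hqN, hq⟩)
          constructor <;> linarith
        have h2 := hhull _ _ h1 q ⟨hqN, hq⟩
        rw [abs_le]
        constructor <;> linarith [h2.1, h2.2]
      · rw [hoff2 q fun h => hqN (hS₂N h)]
        exact hsup q hq
    · intro j hj
      by_cases hji : j = i
      · rw [hji]; exact hfl2
      · have hjs : j ∈ s := (Finset.mem_insert.1 hj).resolve_left hji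
        refine (hfl j hjs).congr (hNo j) (hPN j) fun q hq => ?_
        exact hoff2 q fun h => Set.disjoint_left.1 (hNd j i hji) hq.1 (hS₂N h)
    · intro x hx hxP R hR hRl b hb
      have h1 := hgr x hx (fun j hj => hxP j (Finset.mem_insert_of_mem hj)) R hR hRl b hb
      have h2 := hgr2 x hx (hxP i (Finset.mem_insert_self _ _)) R hR hRl _ h1
      rw [hcard]
      refine h2.mono (le_of_eq ?_)
      ring

end Crest.Agent.R105.Spq_722
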