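import Crest.Agent.R105.Exs0_992
import Crest.Agent.R105.Spq3_722
import Crest.Agent.R105.Thin1_891
import Crest.Agent.R105.Lop1_744

/-!
Row 105 (S0138, picture with solids), task 2456 (STEPQ), part 4: plane geometry of a picture with
solids (`PicS` of 992).
-/

set_option autoImplicit false
set_option linter.unusedSectionVars false

open Set Filter Topology Metric MeasureTheory

namespace Crest.Agent.R105.Spq_722

open Stp_722 CF_363 Cq_463 Exs_992 Thin_891 Lop1_744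
open Skp2_257 (Comps)

local notation "cc" => connectedComponentIn

variable {E : Set (ℝ × ℝ)} {𝒬 : Set Sqr} {𝓗 : Set Hair}

/-- an interior point of `E` lies in the interior of one of the squares. -/
theorem interior_sub (hE : QPic E 𝒬 𝓗) {p : ℝ × ℝ} (hp : p ∈ interior E) :
    ∃ Q ∈ 𝒬, p ∈ interior Q.car := by
  obtain ⟨r, hr, hball⟩ := Metric.isOpen_iff.1 isOpen_interior p hp
  have hbE : ball p r ⊆ E := hball.trans interior_subset
  have hpre : IsPreconnected (ball p r) := (convex_ball p r).isPreconnected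
  have hpos : 0 < volume (ball p r) := measure_ball_pos volume p hr
  have hex : ∃ Q ∈ 𝒬, (ball p r ∩ Q.car).Nonempty := by
    by_contra hcon
    have h1 : ball p r ⊆ E \ ⋃ Q ∈ 𝒬, Q.car := fun q hq => ⟨hbE hq, fun hq' => by
      obtain ⟨Q, hQ, hqQ⟩ := mem_iUnion₂.1 hq'
      exact hcon ⟨Q, hQ, q, hq, hqQ⟩⟩
    exact hpos.ne' (measure_mono_null h1 hE.null)
  obtain ⟨Q, hQ, hne⟩ := hex
  refine ⟨Q, hQ, ?_⟩
  have hnull : volume (ball p r \ Q.car) = 0 := by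
    refine measure_mono_null ?_ hE.null
    rintro q ⟨hq, hqQ⟩
    refine ⟨hbE hq, fun hq' => ?_⟩
    obtain ⟨Q', hQ', hqQ'⟩ := mem_iUnion₂.1 hq'
    have h1 : Q' = Q := hE.sep _ hbE hpre Q' hQ' Q hQ ⟨q, hq, hqQ'⟩ hne
    rw [h1] at hqQ'
    exact hqQ hqQ'
  have hopen : IsOpen (ball p r \ Q.car) := isOpen_ball.sdiff Q.isCompact_car.isClosed
  have hemp : ball p r \ Q.car = ∅ := (hopen.measure_eq_zero_iff volume).1 hnull
  exact mem_interior.2 ⟨ball p r, sdiff_eq_empty.1 hemp, isOpen_ball, mem_ball_self hr⟩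

theorem mem_closure_compl (hE : QPic E 𝒬 𝓗) {p : ℝ × ℝ} (hp : ∀ Q ∈ 𝒬, p ∉ interior Q.car) :
    p ∈ closure Eᶜ := by
  rw [closure_compl]
  intro h
  obtain ⟨Q, hQ, h1⟩ := interior_sub hE h
  exact hp Q hQ h1

theorem interior_car (Q : Sqr) :
    interior Q.car = Ioo Q.x (Q.x + Q.s) ×ˢ Ioo Q.y (Q.y + Q.s) := by
  rw [Sqr.car, interior_prod_eq, interior_Icc, interior_Icc]

/-- a cuttable hair is visible. -/
theorem hair_vis (hP : PicS E 𝒬 𝓗) {K : Hair} (hK : K ∈ 𝓗) : K.car ⊆ closure Eᶜ := by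
  intro p hp
  refine mem_closure_compl hP.q fun Q hQ hpQ => ?_
  have h1 := interior_subset hpQ
  rw [interior_car] at hpQ
  obtain ⟨-, h3, h4⟩ := hpQ
  rcases hP.att K hK Q hQ ⟨p, hp, h1⟩ with h2 | h2
  · have := hp.2.1; linarith
  · have := hp.2.2; linarith

/-- **every level of a portion of a component is attained at a visible point.** -/
theorem levI (hE : IsCompact E) (x : ℝ × ℝ) {I : Set ℝ} (hI : I.OrdConnected) :
    Lev Eᶜ Prod.snd (cc E x ∩ Prod.snd ⁻¹' I) := by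
  rintro t ⟨y, ⟨hyK, hyI⟩, hyt⟩ ⟨w, ⟨hwK, hwI⟩, htw⟩
  have htI : t ∈ I := hI.out hyI hwI ⟨hyt, htw⟩
  obtain ⟨p, hp, hpt⟩ := (isPreconnected_connectedComponentIn (F := E) (x := x)).intermediate_value
    hyK hwK continuous_snd.continuousOn ⟨hyt, htw⟩
  have hSc : IsCompact (cc E x ∩ {q : ℝ × ℝ | q.2 = t}) :=
    (isCompact_cc hE x).inter_right (isClosed_eq continuous_snd continuous_const)
  obtain ⟨q, ⟨hq, hqt⟩, hmin⟩ := hSc.exists_isMinOn ⟨p, hp, hpt⟩ (f := Prod.fst)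
    continuous_fst.continuousOn
  have hqt' : q.2 = t := hqt
  refine ⟨q, ⟨hq, by rw [mem_preimage, hqt']; exact htI⟩, ?_, hqt'⟩
  rw [closure_compl]
  intro hint
  obtain ⟨r, hr, hball⟩ := Metric.isOpen_iff.1 isOpen_interior q hint
  have hbE : ball q r ⊆ E := hball.trans interior_subset
  have hqE := connectedComponentIn_subset E x hq
  have h1 : ball q r ⊆ cc E x := by
    rw [← cc_eq hq]
    exact (convex_ball q r).isPreconnected.subset_connectedComponentIn (mem_ball_self hr) hbE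
  have h2 : (q.1 - r / 2, q.2) ∈ ball q r := by
    rw [mem_ball, Prod.dist_eq, Real.dist_eq, dist_self]
    rw [show q.1 - r / 2 - q.1 = -(r / 2) by ring, abs_neg, abs_of_pos (by linarith : 0 < r / 2)]
    rw [max_lt_iff]
    exact ⟨by linarith, hr⟩
  have h3 := isMinOn_iff.1 hmin (q.1 - r / 2, q.2) ⟨h1 h2, hqt'⟩
  simp only at h3
  linarith

/-! ### components -/

theorem car_preconn (K : Hair) : IsPreconnected K.car := (convex_car K).isPreconnected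

theorem hsub (hP : PicS E 𝒬 𝓗) {K : Hair} (hK : K ∈ 𝓗) : K.car ⊆ E := hP.q.hsub K hK

theorem car_sub_cc (hP : PicS E 𝒬 𝓗) {K : Hair} (hK : K ∈ 𝓗) {x : ℝ × ℝ}
    (h : (K.car ∩ cc E x).Nonempty) : K.car ⊆ cc E x := by
  obtain ⟨p, hp, hpx⟩ := h
  rw [← cc_eq hpx]
  exact (car_preconn K).subset_connectedComponentIn hp (hsub hP hK)

theorem sq_sub_cc (hP : PicS E 𝒬 𝓗) {Q : Sqr} (hQ : Q ∈ 𝒬) {x : ℝ × ℝ}
    (h : (Q.car ∩ cc E x).Nonempty) : Q.car ⊆ cc E x := by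
  obtain ⟨p, hp, hpx⟩ := h
  rw [← cc_eq hpx]
  exact Q.convex_car.isPreconnected.subset_connectedComponentIn hp (hP.q.sub Q hQ)

theorem sq_unique (hP : PicS E 𝒬 𝓗) {Q Q' : Sqr} (hQ : Q ∈ 𝒬) (hQ' : Q' ∈ 𝒬) {x : ℝ × ℝ}
    (h : Q.car ⊆ cc E x) (h' : Q'.car ⊆ cc E x) : Q = Q' := by
  obtain ⟨p, hp⟩ := Q.nonempty
  obtain ⟨p', hp'⟩ := Q'.nonempty
  exact hP.q.sep _ (connectedComponentIn_subset E x) isPreconnected_connectedComponentIn Q hQ Q' hQ'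
    ⟨p, h hp, hp⟩ ⟨p', h' hp', hp'⟩

/-- untouched components are disjoint from the cut. -/
theorem disj_cut (hP : PicS E 𝒬 𝓗) {J : Finset Hair} (hJ : ∀ K ∈ J, K ∈ 𝓗) {x : ℝ × ℝ}
    (h : ∀ K ∈ J, ¬ K.car ⊆ cc E x) : Disjoint (cc E x) (cut J) := by
  rw [Set.disjoint_left]
  rintro p hp ⟨K, hK, hpK⟩
  exact h K hK (car_sub_cc hP (hJ K hK) ⟨p, hpK, hp⟩)

/-- the width of a solid -/
theorem width (hP : PicS E 𝒬 𝓗) {x : ℝ × ℝ} (hx : x ∈ E) {Q : Sqr} (hQ : Q ∈ 𝒬)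
    (hQx : Q.car ⊆ cc E x) {p : ℝ × ℝ} (hp : p ∈ cc E x) : Q.x ≤ p.1 ∧ p.1 ≤ Q.x + Q.s := by
  have hs := Q.hs
  have hc1 : (Q.x, Q.y) ∈ cc E x := hQx (Sqr.mem_car.2 ⟨⟨le_rfl, by linarith⟩, le_rfl, by linarith⟩)
  have hc2 : (Q.x + Q.s, Q.y) ∈ cc E x :=
    hQx (Sqr.mem_car.2 ⟨⟨by linarith, le_rfl⟩, le_rfl, by linarith⟩)
  rcases hP.comp _ ⟨x, hx, rfl⟩ with ⟨q, hq⟩ | ⟨K, _, hK⟩ | ⟨Q', hQ', hQ'x, H⟩
  · rw [hq] at hc1 hc2
    have e1 : (Q.x, Q.y) = q := hc1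
    have e2 : (Q.x + Q.s, Q.y) = q := hc2
    have e3 := congrArg Prod.fst (e1.trans e2.symm)
    simp only at e3
    linarith
  · rw [hK] at hc1 hc2
    have e1 : Q.x = K.x := hc1.1
    have e2 : Q.x + Q.s = K.x := hc2.1
    linarith
  · have := sq_unique hP hQ hQ' hQx hQ'x
    subst this
    by_cases hpQ : p ∈ Q.car
    · exact (Sqr.mem_car.1 hpQ).1
    · obtain ⟨K, _, _, hpK, ⟨f, hfK, hfQ⟩⟩ := H p hp hpQ
      have e1 := hpK.1
      have e2 := hfK.1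
      have e3 := (Sqr.mem_car.1 hfQ).1
      rw [e1, ← e2]
      exact e3

/-! ### oscillation -/

/-- all segments between points of `P` avoid the cut -/
def Good (J : Finset Hair) (P : Set (ℝ × ℝ)) : Prop :=
  ∀ p ∈ P, ∀ p' ∈ P, Disjoint (segment ℝ p p') (cut J)

theorem osc_good {V : Set (ℝ × ℝ)} {J : Finset Hair} {L : ℝ} (hL : 0 ≤ L)
    {φ : ℝ × ℝ → ℝ} (hφ : SL (univ \ cut J) L φ) {P R : Set (ℝ × ℝ)} (hPc : IsCompact P)
    (hG : Good J P) (hR : R ⊆ P) {d : ℝ} (hd : ∀ p ∈ R, ∀ p' ∈ R, dist p p' ≤ d) :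
    OscLe V R φ (L * d) := by
  -- the compact union of the segments
  set T : Set (ℝ × ℝ) := (fun z : ((ℝ × ℝ) × (ℝ × ℝ)) × ℝ => z.1.1 + z.2 • (z.1.2 - z.1.1)) ''
    ((P ×ˢ P) ×ˢ Icc (0:ℝ) 1) with hT
  have hTc : IsCompact T := ((hPc.prod hPc).prod isCompact_Icc).image (by fun_prop)
  have hTJ : T ⊆ (cut J)ᶜ := by
    rintro _ ⟨⟨⟨p, p'⟩, t⟩, ⟨⟨hp, hp'⟩, ht⟩, rfl⟩ hJ
    refine Set.disjoint_left.1 (hG p hp p' hp') ?_ hJ
    rw [segment_eq_image']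
    exact ⟨t, ht, rfl⟩
  obtain ⟨δ, hδ, hδJ⟩ := hTc.exists_thickening_subset_open (isClosed_cut J).isOpen_compl hTJ
  intro ε hε
  set r := min δ (ε / (2 * (L + 1))) with hr
  have hr0 : 0 < r := by positivity
  have hrδ : r ≤ δ := min_le_left _ _
  have hrε : r * (2 * (L + 1)) ≤ ε := by
    have : r ≤ ε / (2 * (L + 1)) := min_le_right _ _
    rwa [le_div_iff₀ (by positivity)] at this
  refine ⟨thickening r R, isOpen_thickening, self_subset_thickening hr0 R, ?_⟩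
  rintro q ⟨hq, _⟩ q' ⟨hq', _⟩
  obtain ⟨p, hp, hqp⟩ := mem_thickening_iff.1 hq
  obtain ⟨p', hp', hqp'⟩ := mem_thickening_iff.1 hq'
  have hdist : dist q q' ≤ d + 2 * r := by
    have h1 := dist_triangle4 q p p' q'
    have h2 := hd p hp p' hp'
    rw [dist_comm p' q'] at h1
    linarith
  have hseg : segment ℝ q q' ⊆ univ \ cut J := by
    intro y hy
    refine ⟨mem_univ y, ?_⟩
    rw [segment_eq_image'] at hy
    obtain ⟨t, ht, rfl⟩ := hy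
    refine hδJ (mem_thickening_iff.2 ⟨p + t • (p' - p), ⟨⟨⟨p, p'⟩, t⟩, ⟨⟨hR hp, hR hp'⟩, ht⟩, rfl⟩,
      ?_⟩)
    refine lt_of_lt_of_le ?_ hrδ
    rw [dist_eq_norm] at hqp hqp' ⊢
    have e : q + t • (q' - q) - (p + t • (p' - p)) = (1 - t) • (q - p) + t • (q' - p') := by
      simp only [smul_sub, sub_smul, one_smul]; abel
    rw [e]
    have h1 : 0 ≤ 1 - t := by linarith [ht.2]
    calc ‖(1 - t) • (q - p) + t • (q' - p')‖ ≤ ‖(1 - t) • (q - p)‖ + ‖t • (q' - p')‖ :=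
          norm_add_le _ _
      _ = (1 - t) * ‖q - p‖ + t * ‖q' - p'‖ := by
          rw [norm_smul, norm_smul, Real.norm_of_nonneg h1, Real.norm_of_nonneg ht.1]
      _ < r := by
          rcases eq_or_lt_of_le ht.1 with h0 | h0
          · rw [← h0]; linarith
          · have a1 : (1 - t) * ‖q - p‖ ≤ (1 - t) * r := mul_le_mul_of_nonneg_left hqp.le h1
            have a2 : t * ‖q' - p'‖ < t * r := mul_lt_mul_of_pos_left hqp' h0
            linarith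
  have h3 := hφ q q' hseg
  have h4 : L * dist q q' ≤ L * (d + 2 * r) := by gcongr
  nlinarith

theorem good_of_convex {J : Finset Hair} {P : Set (ℝ × ℝ)} (hc : Convex ℝ P)
    (hd : Disjoint P (cut J)) : Good J P := fun _ hp _ hp' =>
  hd.mono_left (hc.segment_subset hp hp')

/-- a point component does not meet the cut. -/
theorem point_untouched {K : Hair} {p : ℝ × ℝ} (h : K.car ⊆ {p}) : False := by
  have h1 : (K.x, K.b) = p := h (bot_mem_car K)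
  have h2 : (K.x, K.t) = p := h ⟨rfl, K.hbt.le, le_rfl⟩
  have h3 := congrArg Prod.snd (h1.trans h2.symm)
  have := K.hbt
  simp only at h3
  linarith

/-- oscillation of a whole component from its pieces. -/
theorem osc_comp (hP : PicS E 𝒬 𝓗) {r : ℝ × ℝ → ℝ} (hr : CFJ 𝓗 univ r) {x : ℝ × ℝ} (hx : x ∈ E)
    {a b : ℝ} (ha : 0 ≤ a) (hb : 0 ≤ b) (hK : ∀ K ∈ 𝓗, K.car ⊆ cc E x → OscLe Eᶜ K.car r a)
    (hQ : ∀ Q ∈ 𝒬, Q.car ⊆ cc E x → OscLe Eᶜ Q.car r b) :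
    OscLe Eᶜ (cc E x) r (2 * a + b) := by
  rcases hP.comp _ ⟨x, hx, rfl⟩ with ⟨p, hp⟩ | ⟨K, hKH, hKe⟩ | ⟨Q, hQ𝒬, hQx, H⟩
  · obtain ⟨J, hJ, L, C, hL, hsl, -⟩ := hr
    have hdis : Disjoint (cc E x) (cut J) := disj_cut hP hJ fun K hK h => by
      rw [hp] at h; exact point_untouched h
    have h1 := osc_good (V := Eᶜ) hL hsl (isCompact_cc hP.q.cpt x)
      (good_of_convex (by rw [hp]; exact convex_singleton _) hdis) Subset.rfl (d := 0) (by
        rw [hp]; rintro y rfl z rfl; simp)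
    rw [mul_zero] at h1
    exact h1.mono (by positivity)
  · have h1 := hK K hKH (by rw [hKe])
    rw [hKe]
    exact h1.mono (by linarith)
  · intro ε hε
    obtain ⟨OQ, hOQ, hQO, HQ⟩ := hQ Q hQ𝒬 hQx (ε / 4) (by linarith)
    have hKf : ∀ K : Hair, K ∈ 𝓗 ∧ K.car ⊆ cc E x → ∃ O, IsOpen O ∧ K.car ⊆ O ∧
        ∀ q ∈ O ∩ Eᶜ, ∀ q' ∈ O ∩ Eᶜ, |r q - r q'| ≤ a + ε / 4 := fun K h =>
      hK K h.1 h.2 (ε / 4) (by linarith)
    choose! O hO hKO HO using hKf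
    have hnear : ∀ q ∈ (OQ ∪ ⋃ K ∈ {K : Hair | (K ∈ 𝓗 ∧ K.car ⊆ cc E x) ∧
        (K.car ∩ Q.car).Nonempty}, O K) ∩ Eᶜ, ∃ v ∈ OQ ∩ Eᶜ, |r q - r v| ≤ a + ε / 4 := by
      rintro q ⟨hq | hq, hqE⟩
      · exact ⟨q, ⟨hq, hqE⟩, by rw [sub_self, abs_zero]; positivity⟩
      · obtain ⟨K, ⟨hK1, ⟨f, hfK, hfQ⟩⟩, hqK⟩ := mem_iUnion₂.1 hq
        obtain ⟨v, hv, hvE⟩ := mem_closure_iff.1 (hair_vis hP hK1.1 hfK) (O K ∩ OQ)
          ((hO K hK1).inter hOQ) ⟨hKO K hK1 hfK, hQO hfQ⟩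
        exact ⟨v, ⟨hv.2, hvE⟩, HO K hK1 q ⟨hqK, hqE⟩ v ⟨hv.1, hvE⟩⟩
    refine ⟨OQ ∪ ⋃ K ∈ {K : Hair | (K ∈ 𝓗 ∧ K.car ⊆ cc E x) ∧ (K.car ∩ Q.car).Nonempty}, O K,
      hOQ.union (isOpen_biUnion fun K hK => hO K hK.1), ?_, ?_⟩
    · intro p hp
      by_cases hpQ : p ∈ Q.car
      · exact Or.inl (hQO hpQ)
      · obtain ⟨K, hKH, hKx, hpK, hne⟩ := H p hp hpQ
        exact Or.inr (mem_iUnion₂.2 ⟨K, ⟨⟨hKH, hKx⟩, hne⟩, hKO K ⟨hKH, hKx⟩ hpK⟩)
    · intro q hq q' hq'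
      obtain ⟨v, hv, h1⟩ := hnear q hq
      obtain ⟨v', hv', h2⟩ := hnear q' hq'
      have h3 := abs_le.1 (HQ v hv v' hv')
      have h1' := abs_le.1 h1
      have h2' := abs_le.1 h2
      rw [abs_le]
      constructor <;> linarith

/-- **comb lemma**: a small solid which has a point of the cut between two of its points lies in a
given neighbourhood of one of the touched components. -/
theorem comb (hP : PicS E 𝒬 𝓗) {J : Finset Hair} (hJ : ∀ K ∈ J, K ∈ 𝓗) {E' : Set (ℝ × ℝ)}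
    (hE' : Piece E E') {O₁ : Hair → Set (ℝ × ℝ)} (hO₁ : ∀ K ∈ J, K.car ⊆ E' → IsOpen (O₁ K))
    (hJO : ∀ K ∈ J, K.car ⊆ E' → cc E (K.x, K.b) ⊆ O₁ K) :
    ∃ ρ > 0, ∀ x ∈ E', ∀ Q ∈ 𝒬, Q.car ⊆ cc E x → Q.s < ρ →
      (∃ K ∈ J, K.car ⊆ E' ∧ cc E x ⊆ O₁ K) ∨ Good J (cc E x) := by
  classical
  -- one hair
  have hone : ∀ K ∈ J, ∃ ρ > 0, ∀ x ∈ E', ∀ p ∈ cc E x, ∀ w ∈ K.car, dist p w < ρ →
      ∃ K ∈ J, K.car ⊆ E' ∧ cc E x ⊆ O₁ K := by
    intro K hK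
    have hKE := hsub hP (hJ K hK)
    by_cases hKE' : K.car ⊆ E'
    · obtain ⟨F, hF, hKF, hFO⟩ := exists_piece hP.q.cpt (x := (K.x, K.b))
        (hKE (bot_mem_car K)) (hO₁ K hK hKE') (hJO K hK hKE')
      obtain ⟨δ, hδ, H⟩ := hF.exists_dist
      refine ⟨δ, hδ, fun x hx p hp w hw hpw => ?_⟩
      have hpE := connectedComponentIn_subset E x hp
      have hwF : w ∈ F := hKF (car_sub_cc hP (hJ K hK) ⟨(K.x, K.b), bot_mem_car K,
        mem_connectedComponentIn (hKE (bot_mem_car K))⟩ hw)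
      have hpF : p ∈ F := by
        by_contra hcon
        have := H w hwF p ⟨hpE, hcon⟩
        rw [dist_comm] at this
        linarith
      exact ⟨K, hK, hKE', (hF.component_subset' ⟨p, hp, hpF⟩).trans hFO⟩
    · obtain ⟨δ, hδ, H⟩ := hE'.exists_dist
      refine ⟨δ, hδ, fun x hx p hp w hw hpw => ?_⟩
      exfalso
      have hpE' : p ∈ E' := hE'.component_subset hx hp
      have hw' : w ∈ E \ E' := ⟨hKE hw, fun hwE' => hKE'
        (hE'.subset_of_isPreconnected (car_preconn K) hKE ⟨w, hw, hwE'⟩)⟩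
      have := H p hpE' w hw'
      linarith
  choose! ρ hρ H using hone
  obtain ⟨ρ0, hρ0, hρJ⟩ : ∃ ρ0 > 0, ∀ K ∈ J, ρ0 ≤ ρ K := by
    rcases J.eq_empty_or_nonempty with rfl | hne
    · exact ⟨1, one_pos, by simp⟩
    · obtain ⟨K, hK, hmin⟩ := J.exists_min_image ρ hne
      exact ⟨ρ K, hρ K hK, hmin⟩
  refine ⟨ρ0, hρ0, fun x hx Q hQ hQx hs => ?_⟩
  by_cases hg : Good J (cc E x)
  · exact Or.inr hg
  · left
    unfold Good at hg
    push Not at hg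
    obtain ⟨p, hp, p', hp', hnd⟩ := hg
    obtain ⟨w, hw, hwJ⟩ := Set.not_disjoint_iff.1 hnd
    obtain ⟨K, hK, hwK⟩ := hwJ
    rw [segment_eq_image'] at hw
    obtain ⟨t, ht, hwt⟩ := hw
    have hxE := hE'.sub hx
    have hw1 : w.1 = p.1 + t * (p'.1 - p.1) := by rw [← hwt]; simp
    have hw2 : w.2 = p.2 + t * (p'.2 - p.2) := by rw [← hwt]; simp
    obtain ⟨a1, a2⟩ := width hP hxE hQ hQx hp
    obtain ⟨b1, b2⟩ := width hP hxE hQ hQx hp'
    have ht0 := ht.1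
    have ht1 := ht.2
    have hw1' : Q.x ≤ w.1 ∧ w.1 ≤ Q.x + Q.s := by
      rw [hw1]; constructor <;> nlinarith
    -- a point of the component at the height of `w`
    have hiv : ∃ p₂ ∈ cc E x, p₂.2 = w.2 := by
      rcases le_total p.2 p'.2 with h1 | h1
      · obtain ⟨p₂, hp₂, h2⟩ := (isPreconnected_connectedComponentIn (F := E)
          (x := x)).intermediate_value hp hp' continuous_snd.continuousOn
          (show w.2 ∈ Icc p.2 p'.2 by rw [hw2]; constructor <;> nlinarith)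
        exact ⟨p₂, hp₂, h2⟩
      · obtain ⟨p₂, hp₂, h2⟩ := (isPreconnected_connectedComponentIn (F := E)
          (x := x)).intermediate_value hp' hp continuous_snd.continuousOn
          (show w.2 ∈ Icc p'.2 p.2 by rw [hw2]; constructor <;> nlinarith)
        exact ⟨p₂, hp₂, h2⟩
    obtain ⟨p₂, hp₂, h2⟩ := hiv
    obtain ⟨c1, c2⟩ := width hP hxE hQ hQx hp₂
    refine H K hK x hx p₂ hp₂ w hwK (lt_of_lt_of_le ?_ (hρJ K hK))
    rw [Prod.dist_eq, h2, dist_self, Real.dist_eq, max_lt_iff]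
    refine ⟨?_, hρ0⟩
    rw [abs_lt]
    constructor <;> linarith [hw1'.1, hw1'.2]

end Crest.Agent.R105.Spq_722
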