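import Crest.Agent.R105.Trh1_483
import Crest.Agent.R105.Spq4_722
import Crest.Agent.R105.Snq3_925
import Crest.Agent.R105.Cln6_891
import Crest.Agent.R105.SkT1_137

/-!
# Row 105 (S0138, picture with solids), F9: all components are treatable (722 #10781, (L1) + (L2))

`treat_point`, `treat_hair'`, `treat_solid`, `treat_any`.
-/

set_option autoImplicit false

noncomputable section

namespace Crest.Agent.R105.Adp_483

open Set Filter MeasureTheory Topology Metric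
open CF_363 Stp_722 Cq_463 Laq4_744 Exs_992
open Skp2_257 (Comps)
open Cln_891 (Solid Comp)
open Spq_722 (Treat)
open Nal_649 (comp NullUp NullLo)
open scoped ENNReal NNReal

local notation "cc" => connectedComponentIn

variable {E : Set (ℝ × ℝ)} {𝒬 : Set Sqr} {𝓗 : Set Hair}

/-- a component of `PicS` which contains the square `Q` is a `Solid` of 891 -/
theorem solid_of (hP : PicS E 𝒬 𝓗) {x : ℝ × ℝ} (hx : x ∈ E) {Q : Sqr} (hQ : Q ∈ 𝒬)
    (hQx : Q.car ⊆ cc E x) : Solid E 𝒬 𝓗 (cc E x) Q where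
  mem := hQ
  cpt := isCompact_cc hP.q.cpt x
  pre := isPreconnected_connectedComponentIn
  sub := connectedComponentIn_subset E x
  car := hQx
  abs := fun _ hp => Spq_722.width hP hx hQ hQx hp
  cuts := by
    intro K hK hne
    have hKx : K.car ⊆ cc E x := Spq_722.car_sub_cc hP hK hne
    by_cases hm : (K.car ∩ Q.car).Nonempty
    · rcases hP.att K hK Q hQ hm with h | h
      · exact Or.inl (by linarith)
      · exact Or.inr (by linarith)
    · -- the hair does not meet the square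
      have hbt := K.hbt
      have hbK : (K.x, K.b) ∈ K.car := ⟨rfl, le_rfl, hbt.le⟩
      have htK : (K.x, K.t) ∈ K.car := ⟨rfl, hbt.le, le_rfl⟩
      have hoff : ∀ p ∈ K.car, p ∉ Q.car := fun p hp hpQ => hm ⟨p, hp, hpQ⟩
      rcases hP.comp _ ⟨x, hx, rfl⟩ with ⟨p, hp⟩ | ⟨K', hK', hKe⟩ | ⟨Q', hQ', hQ'x, H⟩
      · exfalso
        have h1 : (K.x, K.b) = p := by have := hKx hbK; rwa [hp] at this
        have h2 : (K.x, K.t) = p := by have := hKx htK; rwa [hp] at this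
        have h3 := congrArg Prod.snd (h1.trans h2.symm)
        exact absurd h3 hbt.ne
      · exfalso
        have hs := Q.hs
        have h1 : ((Q.x, Q.y) : ℝ × ℝ) ∈ K'.car := by
          rw [← hKe]; exact hQx (Sqr.mem_car.2 ⟨⟨le_rfl, by linarith⟩, ⟨le_rfl, by linarith⟩⟩)
        have h2 : ((Q.x + Q.s, Q.y) : ℝ × ℝ) ∈ K'.car := by
          rw [← hKe]; exact hQx (Sqr.mem_car.2 ⟨⟨by linarith, le_rfl⟩, ⟨le_rfl, by linarith⟩⟩)
        have h3 : Q.x = K'.x := h1.1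
        have h4 : Q.x + Q.s = K'.x := h2.1
        linarith
      · have hQQ := Spq_722.sq_unique hP hQ hQ' hQx hQ'x
        subst hQQ
        obtain ⟨K1, hK1, -, hb1, ⟨q1, hq1K, hq1Q⟩⟩ := H _ (hKx hbK) (hoff _ hbK)
        obtain ⟨K2, hK2, -, hb2, ⟨q2, hq2K, hq2Q⟩⟩ := H _ (hKx htK) (hoff _ htK)
        have hx1 : K.x = K1.x := hb1.1
        have hx1' : q1.1 = K1.x := hq1K.1
        have hxQ := (Sqr.mem_car.1 hq1Q).1
        rcases hP.att K1 hK1 Q hQ ⟨q1, hq1K, hq1Q⟩ with h | h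
        · left
          have := hb1.2.1
          simp only at this
          linarith
        · rcases hP.att K2 hK2 Q hQ ⟨q2, hq2K, hq2Q⟩ with h' | h'
          · -- the hair crosses the square
            exfalso
            have e1 : K.b ≤ Q.y := by have := hb1.2.2; simp only at this; linarith
            have e2 : Q.y + Q.s ≤ K.t := by have := hb2.2.1; simp only at this; linarith
            have hs := Q.hs
            refine hoff (K.x, Q.y) ⟨rfl, e1, by simp only; linarith⟩ (Sqr.mem_car.2 ?_)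
            simp only
            rw [hx1, ← hx1']
            exact ⟨hxQ, le_rfl, by linarith⟩
          · right
            have := hb2.2.2
            simp only at this
            linarith

/-- `Comp` of 891 -/
theorem comp_of (hP : PicS E 𝒬 𝓗) : Comp E 𝒬 𝓗 := by
  intro x hx
  rcases hP.comp _ ⟨x, hx, rfl⟩ with ⟨p, hp⟩ | ⟨K', hK', hKe⟩ | ⟨Q', hQ', hQ'x, H⟩
  · left
    have hxx : x ∈ cc E x := mem_connectedComponentIn hx
    intro q hq
    rw [hp] at hq hxx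
    rw [mem_singleton_iff.1 hq, mem_singleton_iff.1 hxx]
  · left
    have hxx : x ∈ cc E x := mem_connectedComponentIn hx
    intro q hq
    rw [hKe] at hq hxx
    exact hq.1.trans hxx.1.symm
  · exact Or.inr ⟨Q', solid_of hP hx hQ' hQ'x⟩

/-- the component of a square of `cc E x` -/
theorem comp_eq_cc {x : ℝ × ℝ} {Q : Sqr} (hQx : Q.car ⊆ cc E x) :
    comp E Q = cc E x := by
  have h1 : (Q.x, Q.y) ∈ cc E x :=
    hQx (Sqr.mem_car.2 ⟨⟨le_rfl, by linarith [Q.hs]⟩, ⟨le_rfl, by linarith [Q.hs]⟩⟩)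
  exact (connectedComponentIn_eq h1).symm

/-- **(L2)**: a solid is treatable -/
theorem treat_solid (hP : PicS E 𝒬 𝓗) (hO : SkT1_137.SOLO E 𝒬 𝓗) {x : ℝ × ℝ} (hx : x ∈ E)
    {Q : Sqr} (hQ : Q ∈ 𝒬) (hQx : Q.car ⊆ cc E x) :
    Treat Eᶜ E Prod.snd (ClQ 𝓗) (DQ E 𝒬 𝓗) (Sqr.car '' 𝒬) (cc E x) := by
  intro χ c N ε η hχ hc hsq hN hPN hε hη
  obtain ⟨C, hC⟩ := id hχ.2.2
  have he := comp_eq_cc hQx
  obtain ⟨hup, hdn⟩ := hO Q hQ
  rw [he] at hup hdn
  obtain ⟨χ', S, hcf, hb, hSc, hSN, hoff, hT, -, hosc, -, hhull, hgr⟩ :=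
    Cln_891.cleanQ' hP.q (comp_of hP) hx (solid_of hP hx hQ hQx) hup hdn hχ.1 hC hN hPN
      (show 0 < ε ^ 2 by positivity) hη
  have hcl' : ClQ 𝓗 χ' := by
    refine ⟨hcf, ?_, C, hb⟩
    refine HasCompactSupport.intro (hχ.2.1.isCompact.union hSc) fun q hq => ?_
    rw [hoff q fun h => hq (Or.inr h)]
    exact image_eq_zero_of_notMem_tsupport fun h => hq (Or.inl h)
  refine ⟨χ', ⟨hε.le, hχ, hcl', hT⟩, hcl', ⟨S, hSc.isClosed, hSN, hoff⟩, ?_,
    hosc c (hsq _ ⟨Q, hQ, rfl⟩ hQx), hgr⟩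
  intro lo hi H q hq
  exact hhull q lo hi (H q hq) ⟨N, hN, hQx.trans hPN, fun v hv => H v hv⟩

/-- a point component is treatable: nothing has to be changed -/
theorem treat_point (hP : PicS E 𝒬 𝓗) {x p : ℝ × ℝ} (hp : cc E x = {p}) :
    Treat Eᶜ E Prod.snd (ClQ 𝓗) (DQ E 𝒬 𝓗) (Sqr.car '' 𝒬) (cc E x) := by
  intro χ c N ε η hχ hc _ hN hPN hε hη
  obtain ⟨J, hJ, L, C, hL, hsl, -⟩ := id hχ.1
  have hdis : Disjoint (cc E x) (cut J) := Spq_722.disj_cut hP hJ fun K hK h => by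
    rw [hp] at h; exact Spq_722.point_untouched h
  have h1 := Spq_722.osc_good (V := Eᶜ) hL hsl (isCompact_cc hP.q.cpt x)
    (Spq_722.good_of_convex (by rw [hp]; exact convex_singleton _) hdis) Subset.rfl (d := 0) (by
      rw [hp]; rintro y rfl z rfl; simp)
  rw [mul_zero] at h1
  refine ⟨χ, ⟨hε.le, hχ, hχ, ?_⟩, hχ, ⟨∅, isClosed_empty, empty_subset _, fun _ _ => rfl⟩, ?_,
    h1.mono (by linarith), fun y _ _ R _ _ b hb => hb.mono (by linarith)⟩
  · exact (DQ.refl (E := E) (𝒬 := 𝒬) hχ).2.2.2.trans (by nlinarith)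
  · intro lo hi H q hq
    have := H q hq
    exact ⟨by linarith [this.1], by linarith [this.2]⟩

/-- a hair which is a component is treatable -/
theorem treat_hair' (hP : PicS E 𝒬 𝓗) (hF : SkT1_137.FAMQ E 𝒬 𝓗) {K : Hair}
    (hKc : K.car ∈ Comps E) :
    Treat Eᶜ E Prod.snd (ClQ 𝓗) (DQ E 𝒬 𝓗) (Sqr.car '' 𝒬) K.car :=
  Trh_483.treat_hair hP.q hKc (Snq_925.singleQ' hP.q hF hKc)

/-- **every component is treatable** -/
theorem treat_any (hP : PicS E 𝒬 𝓗) (hO : SkT1_137.SOLO E 𝒬 𝓗) (hF : SkT1_137.FAMQ E 𝒬 𝓗)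
    {x : ℝ × ℝ} (hx : x ∈ E) :
    Treat Eᶜ E Prod.snd (ClQ 𝓗) (DQ E 𝒬 𝓗) (Sqr.car '' 𝒬) (cc E x) := by
  rcases hP.comp _ ⟨x, hx, rfl⟩ with ⟨p, hp⟩ | ⟨K, hK, hKe⟩ | ⟨Q, hQ, hQx, -⟩
  · exact treat_point hP hp
  · have h1 : K.car ∈ Comps E := ⟨x, hx, hKe.symm⟩
    rw [hKe]
    exact treat_hair' hP hF h1
  · exact treat_solid hP hO hx hQ hQx

end Crest.Agent.R105.Adp_483
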