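import Crest.Agent.R105.Skp3_257

/-!
# Row 105, [B]: strong form of planarity (ACL on lines) and the adapter built on it
-/

namespace Crest.Agent.R105.Skp4_257

open Set Filter MeasureTheory Topology
open Skp2_257 Skp3_257

/-- `u` (a function on the `z`-side) is the pull-back of a planar function which is constant on the
components of the picture. -/
def PlaS (C : Set ℂ) (p : ℂ → ℂ) (u : ℂ → ℝ) : Prop :=
  ∃ w : ℝ × ℝ → ℝ, Pl (EP C p) w ∧ ∀ z ∈ Cᶜ, w ((p z).re, (p z).im) = u z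

/-- **PLN** (868 / 412 / 937 / 987): planarity in the strong form: for every `u` of the algebra,
`u ∘ p⁻¹` extended by its limits at the ends is bounded, continuous, locally Lipschitz off the
picture set, of finite energy, ACL on a.e. horizontal and vertical line, constant on every
component. -/
def PLN : Prop :=
  ∀ (C : Set ℂ) (x0 : ℂ → ℝ) (b : ℕ → ℂ → ℝ) (φ : ℂ → ℝ) (p : ℂ → ℂ),
    IfB_641.Pk C x0 b φ → IfB_641.Cpl C x0 φ p → InjOn p Cᶜ → volume (p '' Cᶜ)ᶜ = 0 →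
    ∀ u, IfB_641.Gen C (insert φ (range b)) u → PlaS C p u

/-- **PICP**: the picture is a slit picture (616, 897, 442). -/
def PICP : Prop :=
  ∀ (C : Set ℂ) (x0 : ℂ → ℝ) (b : ℕ → ℂ → ℝ) (φ : ℂ → ℝ) (p : ℂ → ℂ),
    IfB_641.Pk C x0 b φ → IfB_641.Cpl C x0 φ p → InjOn p Cᶜ → volume (p '' Cᶜ)ᶜ = 0 →
    Pic (EP C p)

/-- **ELP**: E-L on the picture side (back transport of the PP test functions). -/
def ELP : Prop :=
  ∀ (C : Set ℂ) (x0 : ℂ → ℝ) (b : ℕ → ℂ → ℝ) (φ : ℂ → ℝ) (p : ℂ → ℂ),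
    IfB_641.Pk C x0 b φ → IfB_641.Cpl C x0 φ p → InjOn p Cᶜ → volume (p '' Cᶜ)ᶜ = 0 →
    (∀ u, IfB_641.Gen C (insert φ (range b)) u → PlaS C p u) → EL (EP C p)

/-- 641's `PPP`. -/
theorem ppp_of (hPP : PP) (hPLN : PLN) (hPIC : PICP) (hEL : ELP) : IfB_641.PPP := by
  intro C x0 b φ p hPk hCpl hinj hnull _
  exact totallyDisconnected_of_points (hPP.points (hPIC C x0 b φ p hPk hCpl hinj hnull)
    (hEL C x0 b φ p hPk hCpl hinj hnull (hPLN C x0 b φ p hPk hCpl hinj hnull)))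

end Crest.Agent.R105.Skp4_257
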