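import Crest.Agent.R105.Mid1_987
import Crest.Agent.R105.Skp4_257
import Crest.Agent.R105.Tra3_937
import Crest.Agent.R105.Tra4_937

/-!
# Row 105, [B]: adapter to the picture side (helper987)

* `picp : PICP` : the picture is a slit picture
* `elp : ELP` : E-L on the picture side
-/

set_option autoImplicit false

open MeasureTheory Set Filter Topology Metric
open scoped NNReal

namespace Crest.Agent.R105.Adp_987

open Crest.AnalysisR Crest.Agent.R105.Skp2_257 Crest.Agent.R105.Skp3_257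
  Crest.Agent.R105.Skp4_257 Crest.Agent.R105.Tra_937
open Crest.Agent.R105.Ends_897 (eF EndMap)

theorem eC_mk (z : ℂ) : eC (z.re, z.im) = z := by rw [eC_apply]

theorem eC_re (q : ℝ × ℝ) : (eC q).re = q.1 := by rw [eC_apply]
theorem eC_im (q : ℝ × ℝ) : (eC q).im = q.2 := by rw [eC_apply]

theorem setC_EP (C : Set ℂ) (p : ℂ → ℂ) : setC (EP C p) = (p '' Cᶜ)ᶜ := by
  ext z
  simp only [setC, EP, mem_ofPred_eq, mem_preimage, eC_mk]

theorem setC_EPc (C : Set ℂ) (p : ℂ → ℂ) : setC (EP C p)ᶜ = p '' Cᶜ := by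
  rw [setC_compl, setC_EP, compl_compl]

theorem cc_EP {C : Set ℂ} {p : ℂ → ℂ} {q : ℝ × ℝ} (hq : q ∈ EP C p) :
    connectedComponentIn (EP C p) q = eC ⁻¹' connectedComponentIn (p '' Cᶜ)ᶜ (eC q) := by
  have h1 : eC '' EP C p = (p '' Cᶜ)ᶜ := by
    unfold EP; rw [image_preimage_eq _ eC.surjective]
  rw [← h1, ← eC.image_connectedComponentIn hq, preimage_image_eq _ eC.injective]

theorem xtend {C : Set ℂ} {x0 φ : ℂ → ℝ} {b : ℕ → ℂ → ℝ} {p : ℂ → ℂ}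
    (h : IfB_641.Pk C x0 b φ) (hp : IfB_641.Cpl C x0 φ p) {z : ℂ} (hz : z ∉ Cᶜ) :
    Tendsto (fun w => (p w).re) (eF Cᶜ z) (𝓝 (x0 z + φ z)) := by
  have h1 : IsTotallyDisconnected (Cᶜ)ᶜ := by rw [compl_compl]; exact h.td.td
  exact Pic_442.tendsto_of_continuousAt (x := fun z => x0 z + φ z)
    (Pic_442.cc_singleton h1 hz) (Mid_987.Pk.xcont h).continuousAt (fun w hw => hp.re w hw)

/-- **PICP** -/
theorem picp : PICP := by
  intro C x0 b φ p h hp hi hnull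
  have hE := Mid_987.Pk.endMap h hp hi
  refine ⟨?_, ?_, ?_⟩
  · unfold EP
    exact eC.isCompact_preimage.2 (Ends_897.isCompact_compl hE.hV)
  · rw [← volume_setC, setC_EP]; exact hnull
  · rintro P ⟨q, hq, rfl⟩
    have hq' : eC q ∉ p '' Cᶜ := hq
    obtain ⟨z, -, -, -, b', t, hbt, hcc⟩ := Pic_442.cc_vseg hE
      (x := fun z => x0 z + φ z) (fun z hz => xtend h hp hz) hq'
    rw [cc_EP hq, hcc, eC_re]
    rcases hbt.eq_or_lt with rfl | hlt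
    · left
      refine ⟨(q.1, b'), ?_⟩
      ext r
      simp only [mem_preimage, Pic_442.mem_vseg, eC_re, eC_im, mem_singleton_iff, Prod.ext_iff]
      constructor
      · rintro ⟨h1, h2, h3⟩; exact ⟨h1, le_antisymm h3 h2⟩
      · rintro ⟨h1, h2⟩; exact ⟨h1, h2.ge, h2.le⟩
    · right
      refine ⟨⟨q.1, b', t, hlt⟩, ?_⟩
      ext r
      simp only [mem_preimage, Pic_442.mem_vseg, eC_re, eC_im]
      exact Iff.rfl

/-! ### limits at the ends -/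

/-- oscillation zero at a component of `E` gives a limit along the end filter -/
theorem lim_of_osc {C : Set ℂ} {p : ℂ → ℂ} {ψ : ℝ × ℝ → ℝ} {ζ : ℂ} (hV : IsExteriorDomain (p '' Cᶜ))
    (hζ : ζ ∉ p '' Cᶜ)
    (h : Stp_722.OscLe (EP C p)ᶜ (connectedComponentIn (EP C p) (ζ.re, ζ.im)) ψ 0) :
    ∃ c, Tendsto (toC ψ) (eF (p '' Cᶜ) ζ) (𝓝 c) := by
  have h0 : (eF (p '' Cᶜ) ζ).NeBot := Ends_897.eF_neBot hV hζ
  have hmem : (ζ.re, ζ.im) ∈ EP C p := by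
    simp only [EP, mem_preimage, eC_mk]; exact hζ
  rw [cc_EP hmem, eC_mk] at h
  have hc : Cauchy (map (toC ψ) (eF (p '' Cᶜ) ζ)) := by
    rw [Metric.cauchy_iff]
    refine ⟨(inferInstance : (map (toC ψ) (eF (p '' Cᶜ) ζ)).NeBot), fun ε hε => ?_⟩
    obtain ⟨O, hO, hPO, H⟩ := h (ε / 2) (by linarith)
    refine ⟨toC ψ '' (setC O ∩ p '' Cᶜ), image_mem_map ?_, ?_⟩
    · refine inter_mem (mem_inf_of_left ?_) (mem_inf_of_right (mem_principal_self _))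
      refine (isOpen_setC.2 hO).mem_nhdsSet.2 fun z hz => ?_
      refine hPO ?_
      simp only [mem_preimage, eC_mk]; exact hz
    · rintro _ ⟨z, ⟨hz1, hz2⟩, rfl⟩ _ ⟨w, ⟨hw1, hw2⟩, rfl⟩
      have e1 : (z.re, z.im) ∈ (EP C p)ᶜ := by
        have : z ∈ setC (EP C p)ᶜ := by rw [setC_EPc]; exact hz2
        exact this
      have e2 : (w.re, w.im) ∈ (EP C p)ᶜ := by
        have : w ∈ setC (EP C p)ᶜ := by rw [setC_EPc]; exact hw2
        exact this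
      have := H _ ⟨hz1, e1⟩ _ ⟨hw1, e2⟩
      rw [Real.dist_eq]
      simp only [toC]
      linarith
  obtain ⟨c, hc⟩ := cauchy_iff_exists_le_nhds.1 hc
  exact ⟨c, hc⟩

section
variable {C : Set ℂ} {x0 φ : ℂ → ℝ} {b : ℕ → ℂ → ℝ} {p : ℂ → ℂ} {ψ : ℝ × ℝ → ℝ}

theorem td' (h : IfB_641.Pk C x0 b φ) : IsTotallyDisconnected (Cᶜ)ᶜ := by
  rw [compl_compl]; exact h.td.td

theorem uni (h : IfB_641.Pk C x0 b φ) (hp : IfB_641.Cpl C x0 φ p) (hi : InjOn p Cᶜ) :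
    Uni Cᶜ p := ⟨h.td.cpt.isClosed.isOpen_compl, hp.hol, hi⟩

theorem ll_toC (hψ : LocallyLipschitzOn (EP C p)ᶜ ψ) : LocallyLipschitzOn (p '' Cᶜ) (toC ψ) := by
  rw [← setC_EPc]; exact locLip_toC.2 hψ

theorem ll_toC_iff : LocallyLipschitzOn (EP C p)ᶜ ψ ↔ LocallyLipschitzOn (p '' Cᶜ) (toC ψ) := by
  rw [← setC_EPc]; exact locLip_toC.symm

theorem isOpen_EPc (hF : Uni Cᶜ p) : IsOpen (EP C p)ᶜ := by
  rw [← isOpen_setC, setC_EPc]; exact hF.isOpen_image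

theorem en_int (hF : Uni Cᶜ p) (hψ : Reg (EP C p) ψ) : IntegrableOn (Tra_937.en (toC ψ)) (p '' Cᶜ) := by
  have h1 : IntegrableOn (toC (CF_363.g2 ψ)) (setC (EP C p)ᶜ) := (integrableOn_toC _ _).2 hψ.fin
  rw [setC_EPc] at h1
  refine h1.congr ?_
  filter_upwards [ae_diff_of_locLip hF.isOpen_image (ll_toC hψ.lip)] with z hz
  have hd := diff_toC.1 hz
  unfold Tra_937.en
  rw [gx_toC hd, gy_toC hd, dx_eq hd, dy_eq hd]
  rfl

/-- the pulled back test -/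
noncomputable def pb (C : Set ℂ) (p : ℂ → ℂ) (ψ : ℝ × ℝ → ℝ) : ℂ → ℝ := pull Cᶜ p (toC ψ)

theorem pb_eq (h : EndMap Cᶜ (p '' Cᶜ) p) (hψ : LocallyLipschitzOn (EP C p)ᶜ ψ) :
    EqOn (pb C p ψ) (toC ψ ∘ p) Cᶜ := pull_eq h (ll_toC hψ).continuousOn

theorem pb_loc (hF : Uni Cᶜ p) (h : EndMap Cᶜ (p '' Cᶜ) p) (hψ : LocallyLipschitzOn (EP C p)ᶜ ψ) :
    LocallyLipschitzOn Cᶜ (pb C p ψ) :=
  locLip_congr (pb_eq h hψ).symm (hF.locLip_comp (ll_toC hψ))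

theorem pb_fin (hF : Uni Cᶜ p) (h : EndMap Cᶜ (p '' Cᶜ) p) (hψ : Reg (EP C p) ψ) :
    IntegrableOn (IfB_641.en (pb C p ψ)) Cᶜ := by
  have h1 := (hF.integrableOn_en hF.op.measurableSet subset_rfl (fun _ => 1)
    (ae_diff_of_locLip hF.isOpen_image (ll_toC hψ.lip))).2 (by simpa using en_int hF hψ)
  simp only [one_mul] at h1
  exact h1.congr_fun (fun z hz => (en_congr hF.op (pb_eq h hψ.lip) hz).symm) hF.op.measurableSet

/-- all but one end: limits -/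
theorem pb_q (hF : Uni Cᶜ p) (h : EndMap Cᶜ (p '' Cᶜ) p) (hC : IsTotallyDisconnected (Cᶜ)ᶜ)
    (hψ : Reg (EP C p) ψ) {q : ℂ}
    (hl : ∀ z ∉ Cᶜ, z ≠ q → ∀ ζ ∉ p '' Cᶜ, map p (eF Cᶜ z) = eF (p '' Cᶜ) ζ →
      ∃ c, Tendsto (toC ψ) (eF (p '' Cᶜ) ζ) (𝓝 c)) :
    IfB_641.Q C (pb C p ψ) ∧ ∀ z, z ≠ q → ContinuousAt (pb C p ψ) z := by
  have hc : ContinuousOn (pb C p ψ) {q}ᶜ :=
    pull_continuousOn h hC (ll_toC hψ.lip).continuousOn (T := {q}) fun z hz hzq ζ hζ he =>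
      hl z hz hzq ζ hζ he
  obtain ⟨M, hM⟩ := hψ.bdd
  refine ⟨⟨⟨max M |pb C p ψ q|, fun z => ?_⟩, pb_loc hF h hψ.lip, pb_fin hF h hψ⟩, fun z hz =>
    hc.continuousAt (isOpen_compl_singleton.mem_nhds hz)⟩
  by_cases hzq : z = q
  · rw [hzq]; exact le_max_right _ _
  refine le_trans ?_ (le_max_left _ _)
  by_cases hz : z ∈ Cᶜ
  · rw [pb_eq h hψ.lip hz]; exact hM _
  · obtain ⟨ζ, hζ, he⟩ := h.exists_end hz
    obtain ⟨c, hc⟩ := hl z hz hzq ζ hζ he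
    have h1 : pb C p ψ z = c := pull_at hC hz he hc
    rw [h1]
    have h0 : (eF (p '' Cᶜ) ζ).NeBot := Ends_897.eF_neBot h.hV hζ
    exact le_of_tendsto hc.abs (Eventually.of_forall fun w => hM _)

theorem pb_cpt (h : EndMap Cᶜ (p '' Cᶜ) p) (hCc : IsCompact C)
    (hinf : Tendsto p (cocompact ℂ) (cocompact ℂ)) (hψ : Reg (EP C p) ψ) :
    HasCompactSupport (pb C p ψ) := by
  have h1 : ∀ᶠ w in cocompact ℂ, toC ψ w = 0 := by
    have h2 : HasCompactSupport (toC ψ) := by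
      rw [toC_eq]
      exact hψ.cpt.comp_homeomorph Complex.equivRealProdCLM.toHomeomorph
    have h3 := h2.isCompact.compl_mem_cocompact
    filter_upwards [h3] with w hw
    exact image_eq_zero_of_notMem_tsupport hw
  have h2 : ∀ᶠ z in cocompact ℂ, toC ψ (p z) = 0 := hinf.eventually h1
  have h3 : ∀ᶠ z in cocompact ℂ, z ∈ Cᶜ := hCc.compl_mem_cocompact
  obtain ⟨K, hK, hKs⟩ := mem_cocompact.1 (h2.and h3)
  refine HasCompactSupport.intro hK fun z hz => ?_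
  obtain ⟨e1, e2⟩ := hKs hz
  rw [pb_eq h hψ.lip e2]; exact e1

/-- test functions of `PP` come from `T1` functions -/
theorem pb_t1 (hF : Uni Cᶜ p) (h : EndMap Cᶜ (p '' Cᶜ) p) (hC : IsTotallyDisconnected (Cᶜ)ᶜ)
    (hψ : Honest (EP C p) ψ ∨ OneAtom (EP C p) ψ) : IfB_641.T1 C (pb C p ψ) := by
  have hmem : ∀ ζ : ℂ, ζ ∉ p '' Cᶜ → (ζ.re, ζ.im) ∈ EP C p := by
    intro ζ hζ
    simp only [EP, mem_preimage, eC_mk]; exact hζ
  rcases hψ with ⟨hr, hψ⟩ | ⟨hr, K, hK, hψ⟩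
  · left
    have hl : ∀ ζ ∉ p '' Cᶜ, ∃ c, Tendsto (toC ψ) (eF (p '' Cᶜ) ζ) (𝓝 c) := fun ζ hζ =>
      lim_of_osc h.hV hζ (hψ _ ⟨_, hmem ζ hζ, rfl⟩)
    obtain ⟨M, hM⟩ := hr.bdd
    exact ⟨pull_continuous h hC (ll_toC hr.lip).continuousOn hl,
      ⟨M, pull_bound h hC (ll_toC hr.lip).continuousOn (fun w _ => hM _) hl⟩,
      pb_loc hF h hr.lip, pb_fin hF h hr⟩
  · right
    obtain ⟨q0, hq0, hKe⟩ := hK
    have hζ0 : eC q0 ∉ p '' Cᶜ := hq0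
    obtain ⟨q, hq, hqe⟩ := h.exists_end' hζ0
    refine ⟨q, not_not.1 hq, ?_⟩
    obtain ⟨h1, h2⟩ := pb_q hF h hC hr (q := q) fun z hz hzq ζ hζ he => by
      refine lim_of_osc h.hV hζ (hψ _ ⟨_, hmem ζ hζ, rfl⟩ fun heq => hzq ?_)
      rw [cc_EP (hmem ζ hζ), hKe, cc_EP hq0, eC_mk] at heq
      have e1 : connectedComponentIn (p '' Cᶜ)ᶜ ζ = connectedComponentIn (p '' Cᶜ)ᶜ (eC q0) :=
        eC.surjective.preimage_injective heq
      have e2 := Ends_897.eF_congr e1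
      rw [← he, ← hqe] at e2
      have e3 := h.map_injective hz e2
      rw [Pic_442.cc_singleton hC hz, Pic_442.cc_singleton hC hq] at e3
      exact singleton_injective e3
    exact ⟨h1, h2⟩

/-- generated functions are seen in the picture -/
theorem gen_push (h : EndMap Cᶜ (p '' Cᶜ) p) (hψ : LocallyLipschitzOn (EP C p)ᶜ ψ)
    {S : Set (ℂ → ℝ)} (hS : ∀ u, IfB_641.Gen C S u → PlaS C p u) {u : ℂ → ℝ}
    (hu : IfB_641.Gen C (insert (pb C p ψ) S) u) :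
    ∃ w, Skp2_257.Gen (insert ψ {b | Pl (EP C p) b}) w ∧ ∀ z ∈ Cᶜ, w ((p z).re, (p z).im) = u z := by
  have key : ∀ u, PlaS C p u → ∃ w, Skp2_257.Gen (insert ψ {b | Pl (EP C p) b}) w ∧
      ∀ z ∈ Cᶜ, w ((p z).re, (p z).im) = u z := by
    rintro u ⟨w, hw, hwu⟩
    exact ⟨w, Skp2_257.Gen.of w (Or.inr hw), hwu⟩
  unfold IfB_641.Gen at hu
  induction hu with
  | const c => exact ⟨fun _ => c, Skp2_257.Gen.const c, fun _ _ => rfl⟩
  | lc hχ => exact key _ (hS _ (IfB_641.Gen.lc hχ))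
  | of i =>
    rcases i.2 with hi | hi
    · refine ⟨ψ, Skp2_257.Gen.of ψ (Or.inl rfl), fun z hz => ?_⟩
      rw [hi]
      exact (pb_eq h hψ hz).symm
    · exact key _ (hS _ (IfB_641.Gen.of hi))
  | add _ _ h1 h2 =>
    obtain ⟨w1, g1, e1⟩ := h1
    obtain ⟨w2, g2, e2⟩ := h2
    exact ⟨_, Skp2_257.Gen.add _ _ g1 g2, fun z hz => by rw [e1 z hz, e2 z hz]⟩
  | mul _ _ h1 h2 =>
    obtain ⟨w1, g1, e1⟩ := h1
    obtain ⟨w2, g2, e2⟩ := h2
    exact ⟨_, Skp2_257.Gen.mul _ _ g1 g2, fun z hz => by rw [e1 z hz, e2 z hz]⟩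
  | @comp _ f K hh _ h1 =>
    obtain ⟨w1, g1, e1⟩ := h1
    exact ⟨_, Skp2_257.Gen.comp f _ ⟨K, hh⟩ g1, fun z hz => by rw [e1 z hz]⟩

/-- the area form in the picture -/
theorem om_push (hF : Uni Cᶜ p) {u v : ℂ → ℝ} {f k : ℝ × ℝ → ℝ}
    (hu : LocallyLipschitzOn Cᶜ u) (hv : LocallyLipschitzOn Cᶜ v)
    (hf : ∀ z ∈ Cᶜ, f ((p z).re, (p z).im) = u z) (hk : ∀ z ∈ Cᶜ, k ((p z).re, (p z).im) = v z) :
    IfB_641.om C u v =
      ∫ q in (EP C p)ᶜ, (CF_363.gx f q * CF_363.gy k q - CF_363.gy f q * CF_363.gx k q) := by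
  have e1 : EqOn u (toC f ∘ p) Cᶜ := fun z hz => (hf z hz).symm
  have e2 : EqOn v (toC k ∘ p) Cᶜ := fun z hz => (hk z hz).symm
  have l1 : LocallyLipschitzOn (p '' Cᶜ) (toC f) := hF.locLip_comp_iff.1 (locLip_congr e1 hu)
  have l2 : LocallyLipschitzOn (p '' Cᶜ) (toC k) := hF.locLip_comp_iff.1 (locLip_congr e2 hv)
  have l1' : LocallyLipschitzOn (EP C p)ᶜ f := ll_toC_iff.2 l1
  have l2' : LocallyLipschitzOn (EP C p)ᶜ k := ll_toC_iff.2 l2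
  have h1 := hF.integral_wdg hF.op.measurableSet subset_rfl (fun _ => 1)
    (ae_diff_of_locLip hF.isOpen_image l1) (ae_diff_of_locLip hF.isOpen_image l2)
  simp only [one_mul] at h1
  have h2 : IfB_641.om C u v = ∫ z in Cᶜ, Tra_937.wdg (toC f ∘ p) (toC k ∘ p) z :=
    setIntegral_congr_fun hF.op.measurableSet fun z hz => wdg_congr hF.op e1 e2 hz
  rw [h2, h1]
  have h3 := integral_toC (EP C p)ᶜ
    (fun q => CF_363.gx f q * CF_363.gy k q - CF_363.gy f q * CF_363.gx k q)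
  rw [setC_EPc] at h3
  rw [← h3]
  refine integral_congr_ae ?_
  filter_upwards [ae_diff_of_locLip hF.isOpen_image l1, ae_diff_of_locLip hF.isOpen_image l2]
    with z hz1 hz2
  have d1 := diff_toC.1 hz1
  have d2 := diff_toC.1 hz2
  unfold Tra_937.wdg
  rw [gx_toC d1, gx_toC d2, gy_toC d1, gy_toC d2, dx_eq d1, dx_eq d2, dy_eq d1, dy_eq d2]
  rfl

/-- the E-L integral in the picture -/
theorem di_push (hF : Uni Cᶜ p) (h : EndMap Cᶜ (p '' Cᶜ) p) {x : ℂ → ℝ}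
    (hx : ∀ z ∈ Cᶜ, (p z).re = x z) (hψ : LocallyLipschitzOn (EP C p)ᶜ ψ) :
    IfB_641.di C x (pb C p ψ) = ∫ q in (EP C p)ᶜ, CF_363.gx ψ q := by
  have h1 : ∫ z in Cᶜ, Tra_937.dot x (pull Cᶜ p (toC ψ)) z = _ :=
    integral_dot_re_pull h hF (x := x) (fun z hz => (hx z hz).symm) (ll_toC hψ)
  have h2 : IfB_641.di C x (pb C p ψ) = ∫ z in Cᶜ, Tra_937.dot x (pull Cᶜ p (toC ψ)) z := rfl
  rw [h2, h1]
  have h3 := integral_toC (EP C p)ᶜ (fun q => CF_363.gx ψ q)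
  rw [setC_EPc] at h3
  rw [← h3]
  refine integral_congr_ae ?_
  filter_upwards [ae_diff_of_locLip hF.isOpen_image (ll_toC hψ)] with z hz
  have d1 := diff_toC.1 hz
  rw [gx_toC d1, dx_eq d1]
  rfl

end

/-- **ELP** -/
theorem elp : ELP := by
  intro C x0 b φ p h hp hi hnull hpl ψ hψ hiso
  have hE := Mid_987.Pk.endMap h hp hi
  have hF := uni h hp hi
  have hC := td' h
  have hr : Reg (EP C p) ψ := by
    rcases hψ with hψ | hψ
    · exact hψ.1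
    · exact hψ.1
  have hT := pb_t1 hF hE hC hψ
  obtain ⟨c, hc⟩ := hp.inf
  have hcpt := pb_cpt hE h.td.cpt (Mid_987.tendsto_cocompact hc) hr
  have hq : ∀ s ∈ insert (pb C p ψ) (insert φ (range b)), IfB_641.Q C s := by
    rintro s (rfl | hs)
    · exact Mid_987.T1.toQ hT
    · exact Mid_987.Pk.q h s hs
  have hI : IfB_641.Iso C (insert (pb C p ψ) (insert φ (range b))) := by
    intro u v hu hv
    obtain ⟨f, gf, ef⟩ := gen_push hE hr.lip hpl hu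
    obtain ⟨k, gk, ek⟩ := gen_push hE hr.lip hpl hv
    rw [om_push hF (IfB_641.Gen.q h.td.cpt.isClosed hq hu).loc
      (IfB_641.Gen.q h.td.cpt.isClosed hq hv).loc ef ek]
    exact hiso f k gf gk
  have h1 := (Mid_987.Pk.el_cpt h hT hcpt hI).2
  rw [← di_push hF hE (x := fun z => x0 z + φ z) (fun z hz => hp.re z hz) hr.lip]
  exact h1

end Crest.Agent.R105.Adp_987
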