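import Crest.Agent.R105.Adp1_257
import Crest.Agent.R105.Mid1_987
import Crest.Agent.R105.Tra3_937

/-!
# Row 105, [B]: E-L on the picture side (`Skp4_257.ELP`): back transport of the PP test functions
-/

namespace Crest.Agent.R105.Adp_257

open Set Filter MeasureTheory Topology
open Skp2_257 Skp3_257 Skp4_257 Ends_897 CF_363 Stp_722

variable {C : Set ℂ} {x0 φ : ℂ → ℝ} {b : ℕ → ℂ → ℝ} {p : ℂ → ℂ}

theorem fderiv_toC' (f : ℝ × ℝ → ℝ) (z : ℂ) :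
    fderiv ℝ (Tra_937.toC f) z =
      (fderiv ℝ f (z.re, z.im)).comp (Complex.equivRealProdCLM : ℂ →L[ℝ] ℝ × ℝ) := by
  rw [Tra_937.toC_eq]
  exact ContinuousLinearEquiv.comp_right_fderiv Complex.equivRealProdCLM

theorem gx_toC' (f : ℝ × ℝ → ℝ) (z : ℂ) :
    Tra_937.gx (Tra_937.toC f) z = gx f (z.re, z.im) := by
  unfold Tra_937.gx gx
  rw [fderiv_toC']
  change fderiv ℝ f (z.re, z.im) ((1 : ℂ).re, (1 : ℂ).im) = _
  simp

theorem gy_toC' (f : ℝ × ℝ → ℝ) (z : ℂ) :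
    Tra_937.gy (Tra_937.toC f) z = gy f (z.re, z.im) := by
  unfold Tra_937.gy gy
  rw [fderiv_toC']
  change fderiv ℝ f (z.re, z.im) (Complex.I.re, Complex.I.im) = _
  simp

theorem en_toC' (f : ℝ × ℝ → ℝ) (z : ℂ) :
    Tra_937.en (Tra_937.toC f) z = g2 f (z.re, z.im) := by
  unfold Tra_937.en g2
  rw [gx_toC', gy_toC']

theorem locLip_push {f : ℝ × ℝ → ℝ} (hf : LocallyLipschitzOn (EP C p)ᶜ f) :
    LocallyLipschitzOn (p '' Cᶜ) (Tra_937.toC f) := by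
  rw [← setC_EP_compl]
  exact Tra_937.locLip_toC.2 hf

theorem energy_push {f : ℝ × ℝ → ℝ} (hf : IntegrableOn (g2 f) (EP C p)ᶜ) :
    IntegrableOn (Tra_937.en (Tra_937.toC f)) (p '' Cᶜ) := by
  rw [← setC_EP_compl]
  have h := (Tra_937.integrableOn_toC (EP C p)ᶜ (g2 f)).2 hf
  refine h.congr (ae_of_all _ fun z => ?_)
  rw [en_toC']
  rfl

theorem om_eq (hU : Tra_937.Uni Cᶜ p) {u v : ℂ → ℝ} {W W' : ℝ × ℝ → ℝ}
    (hu : ∀ z ∈ Cᶜ, W ((p z).re, (p z).im) = u z) (hv : ∀ z ∈ Cᶜ, W' ((p z).re, (p z).im) = v z)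
    (hul : LocallyLipschitzOn Cᶜ u) (hvl : LocallyLipschitzOn Cᶜ v) :
    Bd_775.om C u v = ∫ q in (EP C p)ᶜ, (gx W q * gy W' q - gy W q * gx W' q) := by
  have hCo : IsOpen Cᶜ := hU.op
  have e1 : EqOn u (Tra_937.toC W ∘ p) Cᶜ := fun z hz => (hu z hz).symm
  have e2 : EqOn v (Tra_937.toC W' ∘ p) Cᶜ := fun z hz => (hv z hz).symm
  have l1 : LocallyLipschitzOn (p '' Cᶜ) (Tra_937.toC W) :=
    hU.locLip_comp_iff.1 (Tra_937.locLip_congr e1 hul)
  have l2 : LocallyLipschitzOn (p '' Cᶜ) (Tra_937.toC W') :=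
    hU.locLip_comp_iff.1 (Tra_937.locLip_congr e2 hvl)
  have hVo : IsOpen (p '' Cᶜ) := hU.isOpen_image
  calc Bd_775.om C u v = ∫ z in Cᶜ, Tra_937.wdg u v z := rfl
    _ = ∫ z in Cᶜ, (1 : ℝ) * Tra_937.wdg (Tra_937.toC W ∘ p) (Tra_937.toC W' ∘ p) z := by
        refine setIntegral_congr_fun hCo.measurableSet fun z hz => ?_
        rw [one_mul]
        exact Tra_937.wdg_congr hCo e1 e2 hz
    _ = ∫ z in p '' Cᶜ, (1 : ℝ) * Tra_937.wdg (Tra_937.toC W) (Tra_937.toC W') z :=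
        hU.integral_wdg hCo.measurableSet subset_rfl (fun _ => 1)
          (Tra_937.ae_diff_of_locLip hVo l1) (Tra_937.ae_diff_of_locLip hVo l2)
    _ = ∫ z in Tra_937.setC (EP C p)ᶜ, Tra_937.toC
          (fun q => gx W q * gy W' q - gy W q * gx W' q) z := by
        rw [setC_EP_compl]
        refine integral_congr_ae (ae_of_all _ fun z => ?_)
        simp only [one_mul]
        unfold Tra_937.wdg
        rw [gx_toC', gy_toC', gx_toC', gy_toC']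
        rfl
    _ = _ := Tra_937.integral_toC _ _

/-- oscillation zero at a component = limit at the end -/
theorem exists_lim {ψ : ℝ × ℝ → ℝ} (hE : EndMap Cᶜ (p '' Cᶜ) p) {ζ : ℂ} (hζ : ζ ∉ p '' Cᶜ)
    (h : OscLe (EP C p)ᶜ (connectedComponentIn (EP C p) (eC.symm ζ)) ψ 0) :
    ∃ c, Tendsto (Tra_937.toC ψ) (eF (p '' Cᶜ) ζ) (𝓝 c) := by
  have := eF_neBot hE.hV hζ
  have hq : eC.symm ζ ∈ EP C p := by
    change eC (eC.symm ζ) ∈ (p '' Cᶜ)ᶜ
    rw [eC.apply_symm_apply]; exact hζ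
  have himg : eC '' connectedComponentIn (EP C p) (eC.symm ζ) =
      connectedComponentIn (p '' Cᶜ)ᶜ ζ := by
    rw [eC.image_connectedComponentIn hq, eC.apply_symm_apply, EP,
      image_preimage_eq _ eC.surjective]
  refine cauchy_map_iff_exists_tendsto.1 (Metric.cauchy_iff.2 ⟨map_neBot, fun ε hε => ?_⟩)
  obtain ⟨O, hO, hPO, hosc⟩ := h (ε / 2) (by positivity)
  refine ⟨Tra_937.toC ψ '' (eC '' O ∩ p '' Cᶜ), ?_, ?_⟩
  · refine image_mem_map ?_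
    refine inter_mem_inf ?_ (mem_principal_self _)
    rw [← himg]
    exact (eC.isOpenMap _ hO).mem_nhdsSet.2 (image_mono hPO)
  · have key : ∀ z ∈ eC '' O ∩ p '' Cᶜ, (z.re, z.im) ∈ O ∩ (EP C p)ᶜ := by
      rintro z ⟨⟨r, hr, rfl⟩, hzV⟩
      have : ((eC r).re, (eC r).im) = r := by rw [eC_apply]
      rw [this]
      exact ⟨hr, fun hr' => hr' hzV⟩
    rintro _ ⟨z, hz, rfl⟩ _ ⟨z', hz', rfl⟩
    rw [Real.dist_eq]
    have := hosc _ (key z hz) _ (key z' hz')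
    change |ψ (z.re, z.im) - ψ (z'.re, z'.im)| < ε
    linarith

end Crest.Agent.R105.Adp_257
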