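import Crest.Agent.R105.Laq4_744

/-!
# Row 105: `levI` for every compact set of the plane (leftmost point of the slice), and `SetupR`
-/

set_option autoImplicit false

noncomputable section

namespace Crest.Agent.R105.Laq5_744

open Set Filter MeasureTheory Topology Metric
open CF_363 Stp_722 Cq_463 Lop2_744 Laq4_744
open Nal_649 (FamQ Win)
open Fnc_189 (LayOutQ)

variable {E : Set (ℝ × ℝ)} {𝒬 : Set Sqr} {𝓗 : Set Hair}

/-- every height between two heights of a component is attained at a point visible from `Eᶜ` -/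
theorem exists_visible (hE : IsCompact E) {x : ℝ × ℝ} {t : ℝ}
    (h : ∃ p ∈ connectedComponentIn E x, p.2 = t) :
    ∃ p ∈ connectedComponentIn E x, p ∈ closure Eᶜ ∧ p.2 = t := by
  have hc : IsCompact (connectedComponentIn E x ∩ {p | p.2 = t}) :=
    (isCompact_cc hE x).inter_right (isClosed_eq continuous_snd continuous_const)
  obtain ⟨p, ⟨hp, hpt⟩, hmin⟩ := hc.exists_isMinOn
    (by obtain ⟨p, hp, hpt⟩ := h; exact ⟨p, hp, hpt⟩) continuous_fst.continuousOn
  refine ⟨p, hp, ?_, hpt⟩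
  rw [closure_compl]
  intro hint
  obtain ⟨r, hr, hb⟩ := Metric.isOpen_iff.1 isOpen_interior p hint
  have hbE : ball p r ⊆ E := hb.trans interior_subset
  have hsub : ball p r ⊆ connectedComponentIn E x := by
    rw [connectedComponentIn_eq hp]
    exact (convex_ball p r).isPreconnected.subset_connectedComponentIn (mem_ball_self hr) hbE
  have hq : (p.1 - r / 2, p.2) ∈ ball p r := by
    rw [mem_ball, Prod.dist_eq, Real.dist_eq, Real.dist_eq]
    refine max_lt ?_ ?_
    · rw [abs_lt]; constructor <;> linarith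
    · simpa using hr
  have := hmin ⟨hsub hq, hpt⟩
  simp only [mem_ofPred_eq] at this
  linarith

/-- **`levI`** -/
theorem levI (hE : IsCompact E) (x : ℝ × ℝ) {I : Set ℝ} (hI : I.OrdConnected) :
    Lev Eᶜ Prod.snd (connectedComponentIn E x ∩ Prod.snd ⁻¹' I) := by
  rintro t ⟨p, ⟨hp, hpI⟩, hpt⟩ ⟨q, ⟨hq, hqI⟩, hqt⟩
  have htI : t ∈ I := hI.out hpI hqI ⟨hpt, hqt⟩
  have h1 : ∃ w ∈ connectedComponentIn E x, w.2 = t := by
    have := (isPreconnected_connectedComponentIn (F := E) (x := x)).intermediate_value hp hq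
      continuous_snd.continuousOn ⟨hpt, hqt⟩
    obtain ⟨w, hw, hwt⟩ := this
    exact ⟨w, hw, hwt⟩
  obtain ⟨w, hw, hwc, hwt⟩ := exists_visible hE h1
  exact ⟨w, ⟨hw, by rw [mem_preimage, hwt]; exact htI⟩, hwc, hwt⟩

/-- **the standing assumptions of the STEP with solids** -/
theorem setupR (hE : QPic E 𝒬 𝓗) {ρ : ℝ} (hρ : 0 < ρ)
    (hL : ∀ g Bm Bp, FamQ E g Bm Bp → Win 𝒬 g Bm Bp → LayOutQ E 𝒬 𝓗 g Bm Bp) :
    Spq_722.SetupR Eᶜ E Prod.snd (HrQ E 𝒬 ρ) (ClQ 𝓗) (DQ E 𝒬 𝓗) ρ where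
  hE := hE.cpt
  hh := continuous_snd
  levI := fun x _ _ hI => levI hE.cpt x hI
  D0 := fun _ hχ => DQ.refl hχ
  Dadd := fun _ _ _ _ _ h1 h2 => h1.trans hE h2
  layer := layerOpR hE hρ hL

end Crest.Agent.R105.Laq5_744
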