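import Mathlib
import Crest.Agent.R105.Skp2_257

/-!
# Row 105, leaf LIM of 257's skeleton (version 2): iteration of the halving step.
-/

namespace Crest.Agent.R105.SkLim2_363

open Set Filter MeasureTheory Topology
open CF_363 Stp_722 Skp2_257
open scoped ENNReal NNReal

theorem exists_seq_of {α : Type*} (Inv : ℕ → α → Prop) (R : ℕ → α → α → Prop) (x0 : α)
    (h0 : Inv 0 x0) (hs : ∀ n x, Inv n x → ∃ y, Inv (n + 1) y ∧ R n x y) :
    ∃ u : ℕ → α, u 0 = x0 ∧ ∀ n, Inv n (u n) ∧ R n (u n) (u (n + 1)) := by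
  classical
  let v : ∀ n, {x // Inv n x} := fun n => Nat.rec (motive := fun n => {x // Inv n x})
    ⟨x0, h0⟩ (fun n x => ⟨(hs n x.1 x.2).choose, (hs n x.1 x.2).choose_spec.1⟩) n
  refine ⟨fun n => (v n).1, rfl, fun n => ⟨(v n).2, ?_⟩⟩
  exact (hs n (v n).1 (v n).2).choose_spec.2

theorem hairs_sub {E : Set (ℝ × ℝ)} {K : Hair} (h : K ∈ hairs E) : K.car ⊆ E := by
  obtain ⟨q, _, hP⟩ := h
  rw [hP]
  exact connectedComponentIn_subset _ _

theorem cut_sub {E : Set (ℝ × ℝ)} {J : Finset Hair} (h : ∀ K ∈ J, K ∈ hairs E) : cut J ⊆ E := by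
  rintro p ⟨K, hK, hp⟩
  exact hairs_sub (h K hK) hp

/-- near every point off `E`, a `CFJ` function is Lipschitz. -/
theorem cfj_lip {E : Set (ℝ × ℝ)} (hE : IsCompact E) {f : ℝ × ℝ → ℝ}
    (hf : CFJ (hairs E) univ f) : ∃ L : ℝ≥0, ∀ p ∉ E, ∃ r > 0, LipschitzOnWith L f (Metric.ball p r) := by
  obtain ⟨J, hJ, L, C, hL, h1, -⟩ := hf
  refine ⟨L.toNNReal, fun p hp => ?_⟩
  obtain ⟨r, hr, hrE⟩ := Metric.isOpen_iff.mp hE.isClosed.isOpen_compl p hp
  refine ⟨r, hr, h1.lipschitzOnWith (convex_ball p r) fun q hq => ⟨mem_univ q, fun hc => ?_⟩⟩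
  exact hrE hq (cut_sub hJ hc)

theorem cfj_ae_diff {E : Set (ℝ × ℝ)} {f : ℝ × ℝ → ℝ}
    (hf : CFJ (hairs E) univ f) : ∀ᵐ p : ℝ × ℝ, DifferentiableAt ℝ f p := by
  obtain ⟨J, hJ, L, C, hL, h1, -⟩ := hf
  have h2 := h1.ae_differentiableAt (μ := volume) (isOpen_diff_cut isOpen_univ J)
  have h3 : ∀ᵐ p : ℝ × ℝ, p ∉ cut J := measure_eq_zero_iff_ae_notMem.mp (volume_cut J)
  filter_upwards [h2, h3] with p hp hp' using hp ⟨mem_univ p, hp'⟩

theorem g2_eq_zero_of_notMem {f : ℝ × ℝ → ℝ} {p : ℝ × ℝ} {S : Set (ℝ × ℝ)} (hS : IsClosed S)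
    (h0 : ∀ q ∉ S, f q = 0) (hp : p ∉ S) : gx f p = 0 ∧ gy f p = 0 := by
  have : f =ᶠ[𝓝 p] fun _ => 0 := by
    filter_upwards [hS.isOpen_compl.mem_nhds hp] with q hq using h0 q hq
  rw [gx_congr this, gy_congr this]
  simp

theorem cfj_integrable {E : Set (ℝ × ℝ)} {f : ℝ × ℝ → ℝ}
    (hf : CFJ (hairs E) univ f) {S : Set (ℝ × ℝ)} (hS : IsCompact S) (h0 : ∀ q ∉ S, f q = 0) :
    Integrable (g2 f) := by
  obtain ⟨J, hJ, L, C, hL, h1, -⟩ := hf
  have h3 : ∀ᵐ p : ℝ × ℝ, p ∉ cut J := measure_eq_zero_iff_ae_notMem.mp (volume_cut J)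
  have hon : IntegrableOn (g2 f) S := by
    refine Measure.integrableOn_of_bounded (M := 2 * L ^ 2) hS.measure_lt_top.ne
      (measurable_g2 f).aestronglyMeasurable ?_
    filter_upwards [ae_restrict_of_ae h3] with p hp
    rw [Real.norm_of_nonneg (g2_nonneg f p)]
    exact h1.g2_le (isOpen_diff_cut isOpen_univ J) hL ⟨mem_univ p, hp⟩
  refine hon.integrable_of_forall_notMem_eq_zero fun p hp => ?_
  obtain ⟨a, b⟩ := g2_eq_zero_of_notMem hS.isClosed h0 hp
  simp [g2, a, b]

theorem g2_neg (f : ℝ × ℝ → ℝ) (p : ℝ × ℝ) : g2 (fun q => - f q) p = g2 f p := by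
  simp [g2, gx_neg, gy_neg]

theorem g2_congr {f g : ℝ × ℝ → ℝ} {p : ℝ × ℝ} (h : f =ᶠ[𝓝 p] g) : g2 f p = g2 g p := by
  simp [g2, gx_congr h, gy_congr h]

theorem g2_add_le {f g : ℝ × ℝ → ℝ} {p : ℝ × ℝ} (hf : DifferentiableAt ℝ f p)
    (hg : DifferentiableAt ℝ g p) : g2 (fun q => f q + g q) p ≤ 2 * g2 f p + 2 * g2 g p := by
  simp only [g2, gx_add hf hg, gy_add hf hg]
  nlinarith [sq_nonneg (gx f p - gx g p), sq_nonneg (gy f p - gy g p)]

/-- telescoping -/
theorem g2_tel {φ : ℕ → ℝ × ℝ → ℝ} {p : ℝ × ℝ} (hd : ∀ n, DifferentiableAt ℝ (φ n) p) (j : ℕ) :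
    ∀ n, g2 (fun q => φ n q - φ (n + j) q) p ≤
      ∑ i ∈ Finset.range j, 2 ^ (i + 1) * g2 (fun q => φ (n + i + 1) q - φ (n + i) q) p := by
  induction j with
  | zero => intro n; simp [g2, gx_const, gy_const]
  | succ j ih =>
    intro n
    have h1 : (fun q => φ n q - φ (n + (j + 1)) q) =
        fun q => (-(φ (n + 1) q - φ n q)) + (φ (n + 1) q - φ (n + 1 + j) q) := by
      funext q
      have : n + (j + 1) = n + 1 + j := by ring
      rw [this]; ring
    rw [h1]
    have a1 : DifferentiableAt ℝ (fun q => -(φ (n + 1) q - φ n q)) p :=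
      ((hd (n + 1)).sub (hd n)).neg
    have a2 : DifferentiableAt ℝ (fun q => φ (n + 1) q - φ (n + 1 + j) q) p :=
      (hd (n + 1)).sub (hd (n + 1 + j))
    refine (g2_add_le a1 a2).trans ?_
    rw [Finset.sum_range_succ']
    have h2 := ih (n + 1)
    have h3 : ∑ i ∈ Finset.range j,
        2 ^ (i + 1 + 1) * g2 (fun q => φ (n + (i + 1) + 1) q - φ (n + (i + 1)) q) p =
        2 * ∑ i ∈ Finset.range j,
          2 ^ (i + 1) * g2 (fun q => φ (n + 1 + i + 1) q - φ (n + 1 + i) q) p := by
      rw [Finset.mul_sum]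
      refine Finset.sum_congr rfl fun i _ => ?_
      have : n + (i + 1) = n + 1 + i := by ring
      rw [this]; ring
    rw [h3, g2_neg (fun q => φ (n + 1) q - φ n q) p]
    simp only [Nat.add_zero, zero_add, pow_one]
    linarith

theorem lim : LIM := by
  intro E hPic hstep Φ hΦ hΦc hΦb ε hε
  obtain ⟨C0, hC0⟩ := hΦb
  have hE := hPic.cpt
  have hC0' : 0 ≤ C0 := (abs_nonneg _).trans (hC0 0)
  -- constants
  set S : Set (ℝ × ℝ) := tsupport Φ ∪ Metric.cthickening 1 E with hSdef
  have hScpt : IsCompact S := by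
    refine IsCompact.union hΦc ?_
    exact hE.cthickening
  set vS : ℝ := volume.real S with hvS
  have hvS0 : 0 ≤ vS := measureReal_nonneg
  set t : ℝ := (vS + 1) / ε with ht
  have htpos : 0 < t := by positivity
  set δ : ℝ := ε / (8 * t) with hδ
  have hδpos : 0 < δ := by positivity
  set a : ℕ → ℝ := fun n => (2 * C0 + 1) / 2 ^ n with ha
  have hapos : ∀ n, 0 < a n := fun n => by simp only [ha]; positivity
  have ha2 : ∀ n, a (n + 1) = a n / 2 := fun n => by
    simp only [ha]; rw [pow_succ]; field_simp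
  set W : ℕ → Set (ℝ × ℝ) := fun n => Metric.thickening (1 / ((n : ℝ) + 1)) E with hW
  have hWo : ∀ n, IsOpen (W n) := fun n => Metric.isOpen_thickening
  have hWE : ∀ n, E ⊆ W n := fun n => Metric.self_subset_thickening (by positivity) E
  have hWS : ∀ n, W n ⊆ S := by
    intro n
    refine Subset.trans ?_ (subset_union_right)
    refine (Metric.thickening_subset_cthickening _ _).trans (Metric.cthickening_mono ?_ E)
    rw [div_le_one (by positivity)]
    linarith [Nat.cast_nonneg (α := ℝ) n]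
  set e : ℕ → ℝ := fun n => δ / 4 ^ n with he
  have hepos : ∀ n, 0 < e n := fun n => by simp only [he]; positivity
  -- the sequence
  obtain ⟨φ, hφ0, hφ⟩ := exists_seq_of
    (fun n f => (CFJ (hairs E) univ f ∧ ∃ C : ℝ, ∀ p, |f p| ≤ C) ∧ (∀ q ∉ S, f q = 0) ∧
      ∀ P ∈ Comps E, OscLe Eᶜ P f (a n))
    (fun n f g => (∀ p ∉ W n, g p = f p) ∧ (∀ p, |g p - f p| ≤ 8 * a n) ∧
      (∫ p in Eᶜ, g2 (fun q => g q - f q) p) ≤ e n) Φ
    ⟨⟨hΦ, C0, hC0⟩, fun q hq => image_eq_zero_of_notMem_tsupport fun h => hq (Or.inl h), fun P _ η hη =>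
      ⟨univ, isOpen_univ, subset_univ _, fun q _ q' _ => by
        have h1 := hC0 q
        have h2 := hC0 q'
        have h3 := abs_sub (Φ q) (Φ q')
        simp only [ha, pow_zero, div_one]
        linarith⟩⟩
    (by
      rintro n f ⟨⟨h1, C1, hC1⟩, h2, h3⟩
      obtain ⟨f', g1, g2', g3, g4, g5⟩ := hstep f (a n) (hapos n) h1
        (HasCompactSupport.intro hScpt h2) ⟨C1, hC1⟩ h3 (W n) (hWo n) (hWE n) (e n) (hepos n)
      refine ⟨f', ⟨⟨g1, C1 + 8 * a n, fun p => ?_⟩, fun q hq => ?_, fun P hP => ?_⟩, g2', g3, g4⟩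
      · have h4 := g3 p
        have h5 := hC1 p
        have h6 : |f' p| ≤ |f' p - f p| + |f p| := by
          have := abs_add_le (f' p - f p) (f p); simpa using this
        linarith
      · rw [g2' q fun h => hq (hWS n h)]; exact h2 q hq
      · rw [ha2]; exact g5 P hP)
  have hcf : ∀ n, CFJ (hairs E) univ (φ n) := fun n => (hφ n).1.1.1
  have hz : ∀ n, ∀ q ∉ S, φ n q = 0 := fun n => (hφ n).1.2.1
  have hosc : ∀ n, ∀ P ∈ Comps E, OscLe Eᶜ P (φ n) (a n) := fun n => (hφ n).1.2.2
  have hoff : ∀ n, ∀ p ∉ W n, φ (n + 1) p = φ n p := fun n => (hφ n).2.1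
  have hinc : ∀ n p, |φ (n + 1) p - φ n p| ≤ 8 * a n := fun n => (hφ n).2.2.1
  have hen : ∀ n, (∫ p in Eᶜ, g2 (fun q => φ (n + 1) q - φ n q) p) ≤ e n :=
    fun n => (hφ n).2.2.2
  -- sup bounds
  have hsup : ∀ p n j, |φ (n + j) p - φ n p| ≤ 16 * a n - 16 * a (n + j) := by
    intro p n j
    induction j with
    | zero => simp
    | succ j ih =>
      have h1 := hinc (n + j) p
      have h2 : |φ (n + (j + 1)) p - φ n p| ≤
          |φ (n + j + 1) p - φ (n + j) p| + |φ (n + j) p - φ n p| := by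
        have := abs_add_le (φ (n + j + 1) p - φ (n + j) p) (φ (n + j) p - φ n p)
        simpa [add_assoc] using this
      have h3 : a (n + (j + 1)) = a (n + j) / 2 := ha2 (n + j)
      rw [h3]; linarith
  have hatend : Tendsto a atTop (𝓝 0) := by
    have := (tendsto_pow_atTop_nhds_zero_of_lt_one (r := (1 / 2 : ℝ)) (by norm_num)
      (by norm_num)).const_mul (2 * C0 + 1)
    rw [mul_zero] at this
    refine this.congr fun n => ?_
    simp only [ha, one_div, inv_pow]; rfl
  have hcauchy : ∀ p, CauchySeq fun n => φ n p := by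
    intro p
    refine cauchySeq_of_le_tendsto_0 (fun n => 32 * a n) (fun n m N hn hm => ?_) ?_
    · obtain ⟨i, rfl⟩ := Nat.exists_eq_add_of_le hn
      obtain ⟨j, rfl⟩ := Nat.exists_eq_add_of_le hm
      rw [Real.dist_eq]
      have h1 := hsup p N i
      have h2 := hsup p N j
      have h3 := hapos (N + i)
      have h4 := hapos (N + j)
      have h5 : |φ (N + i) p - φ (N + j) p| ≤ |φ (N + i) p - φ N p| + |φ (N + j) p - φ N p| := by
        have := abs_sub (φ (N + i) p - φ N p) (φ (N + j) p - φ N p)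
        simpa using this
      linarith
    · simpa using hatend.const_mul 32
  choose ψ hψ using fun p => cauchySeq_tendsto_of_complete (hcauchy p)
  have hψn : ∀ n p, |ψ p - φ n p| ≤ 16 * a n := by
    intro n p
    have h1 : Tendsto (fun j => |φ (n + j) p - φ n p|) atTop (𝓝 |ψ p - φ n p|) := by
      have : Tendsto (fun j => φ (n + j) p) atTop (𝓝 (ψ p)) := by
        have := (tendsto_add_atTop_iff_nat n).mpr (hψ p)
        refine this.congr fun j => by rw [add_comm]
      exact (this.sub_const _).abs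
    refine le_of_tendsto' h1 fun j => ?_
    have := hsup p n j
    linarith [hapos (n + j)]
  have hψ0 : ∀ q ∉ S, ψ q = 0 := by
    intro q hq
    refine tendsto_nhds_unique (hψ q) ?_
    refine tendsto_const_nhds.congr fun n => (hz n q hq).symm
  -- eventual constancy
  have hev : ∀ A, IsCompact A → A ⊆ Eᶜ → ∃ N, ∀ n ≥ N, ∀ p ∈ A, φ n p = ψ p := by
    intro A hA hAE
    have hdis : Disjoint A E := disjoint_left.mpr fun p hp => hAE hp
    obtain ⟨r, hr, hr'⟩ := hdis.symm.exists_thickenings hE hA.isClosed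
    obtain ⟨N, hN⟩ := exists_nat_one_div_lt hr
    have hAW : ∀ n ≥ N, ∀ p ∈ A, p ∉ W n := by
      intro n hn p hp hpW
      have h1 : (1 : ℝ) / (n + 1) ≤ 1 / (N + 1) := by
        apply one_div_le_one_div_of_le (by positivity)
        have : (N : ℝ) ≤ n := by exact_mod_cast hn
        linarith
      have h2 : p ∈ Metric.thickening r E := Metric.thickening_mono (h1.trans hN.le) E hpW
      exact disjoint_left.mp hr' h2 (Metric.self_subset_thickening hr A hp)
    have hconst : ∀ j, ∀ p ∈ A, φ (N + j) p = φ N p := by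
      intro j p hp
      induction j with
      | zero => rfl
      | succ j ih => rw [← ih]; exact hoff (N + j) p (hAW (N + j) (by omega) p hp)
    refine ⟨N, fun n hn p hp => ?_⟩
    have h1 : ψ p = φ N p := by
      refine tendsto_nhds_unique (hψ p) ?_
      refine tendsto_const_nhds.congr' ?_
      filter_upwards [eventually_ge_atTop N] with m hm
      obtain ⟨j, rfl⟩ := Nat.exists_eq_add_of_le hm
      exact (hconst j p hp).symm
    obtain ⟨j, rfl⟩ := Nat.exists_eq_add_of_le hn
    rw [hconst j p hp, h1]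
  have hloc : ∀ p ∉ E, ∃ N, ∀ n ≥ N, φ n =ᶠ[𝓝 p] ψ := by
    intro p hp
    obtain ⟨r, hr, hrE⟩ := Metric.isOpen_iff.mp hE.isClosed.isOpen_compl p hp
    obtain ⟨N, hN⟩ := hev (Metric.closedBall p (r / 2)) (isCompact_closedBall _ _)
      ((Metric.closedBall_subset_ball (by linarith)).trans hrE)
    refine ⟨N, fun n hn => ?_⟩
    filter_upwards [Metric.closedBall_mem_nhds p (by positivity : 0 < r / 2)] with q hq
    exact hN n hn q hq
  -- differentiability
  have hdiff : ∀ᵐ p : ℝ × ℝ, ∀ n, DifferentiableAt ℝ (φ n) p :=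
    ae_all_iff.mpr fun n => cfj_ae_diff (hcf n)
  have hEm : MeasurableSet Eᶜ := hE.isClosed.isOpen_compl.measurableSet
  have hpos2 : ∀ n p, 0 ≤ g2 (fun q => φ (n + 1) q - φ n q) p := fun n p => g2_nonneg _ _
  have hint1 : ∀ n, Integrable (g2 fun q => φ (n + 1) q - φ n q) := fun n =>
    cfj_integrable ((hcf (n + 1)).sub (hcf n)) hScpt fun q hq => by
      rw [hz (n + 1) q hq, hz n q hq, sub_zero]
  have hlin : ∀ n, ∫⁻ p in Eᶜ, ENNReal.ofReal (g2 (fun q => φ (n + 1) q - φ n q) p) ≤
      ENNReal.ofReal (e n) := by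
    intro n
    rw [← ofReal_integral_eq_lintegral_ofReal (hint1 n).integrableOn
      (Eventually.of_forall fun p => hpos2 n p)]
    exact ENNReal.ofReal_le_ofReal (hen n)
  have hdistE : ∀ n, ∫⁻ p in Eᶜ, ENNReal.ofReal (g2 (fun q => φ n q - ψ q) p) ≤
      ENNReal.ofReal (4 * δ / 4 ^ n) := by
    intro n
    calc ∫⁻ p in Eᶜ, ENNReal.ofReal (g2 (fun q => φ n q - ψ q) p)
        ≤ ∫⁻ p in Eᶜ, ∑' i : ℕ, ENNReal.ofReal
            (2 ^ (i + 1) * g2 (fun q => φ (n + i + 1) q - φ (n + i) q) p) := by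
          refine lintegral_mono_ae ?_
          filter_upwards [ae_restrict_of_ae hdiff, ae_restrict_mem hEm] with p hp hpE
          obtain ⟨N, hN⟩ := hloc p hpE
          have h1 : (fun q => φ n q - ψ q) =ᶠ[𝓝 p] fun q => φ n q - φ (n + N) q := by
            filter_upwards [hN (n + N) (by omega)] with q hq
            rw [hq]
          rw [g2_congr h1]
          refine (ENNReal.ofReal_le_ofReal (g2_tel hp N n)).trans ?_
          rw [ENNReal.ofReal_sum_of_nonneg fun i _ => mul_nonneg (by positivity) (g2_nonneg _ _)]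
          exact ENNReal.sum_le_tsum _
      _ = ∑' i : ℕ, ∫⁻ p in Eᶜ, ENNReal.ofReal
            (2 ^ (i + 1) * g2 (fun q => φ (n + i + 1) q - φ (n + i) q) p) := by
          refine lintegral_tsum fun i => ?_
          exact ((measurable_g2 _).const_mul _).ennreal_ofReal.aemeasurable
      _ ≤ ∑' i : ℕ, ENNReal.ofReal (2 * δ / 4 ^ n * (1 / 2) ^ i) := by
          refine ENNReal.tsum_le_tsum fun i => ?_
          have h1 : ∀ p, ENNReal.ofReal
              (2 ^ (i + 1) * g2 (fun q => φ (n + i + 1) q - φ (n + i) q) p) =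
              ENNReal.ofReal (2 ^ (i + 1)) *
                ENNReal.ofReal (g2 (fun q => φ (n + i + 1) q - φ (n + i) q) p) := fun p =>
            ENNReal.ofReal_mul (by positivity)
          simp_rw [h1]
          rw [lintegral_const_mul _ (measurable_g2 _).ennreal_ofReal]
          refine (mul_le_mul_right (hlin (n + i)) _).trans ?_
          rw [← ENNReal.ofReal_mul (by positivity)]
          refine ENNReal.ofReal_le_ofReal (le_of_eq ?_)
          simp only [he]
          have h4 : (4 : ℝ) ^ (n + i) = 4 ^ n * (2 ^ i * 2 ^ i) := by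
            rw [pow_add, ← mul_pow]; norm_num
          rw [h4, pow_succ, one_div, inv_pow]
          field_simp
      _ = ENNReal.ofReal (4 * δ / 4 ^ n) := by
          rw [← ENNReal.ofReal_tsum_of_nonneg (fun i => by positivity)
            (summable_geometric_two.mul_left _), tsum_mul_left, tsum_geometric_two]
          congr 1; ring
  -- integrability of the limit
  have hintd : ∀ n, IntegrableOn (g2 fun q => φ n q - ψ q) Eᶜ := by
    intro n
    refine ⟨(measurable_g2 _).aestronglyMeasurable, ?_⟩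
    rw [hasFiniteIntegral_iff_ofReal (Eventually.of_forall fun p => g2_nonneg _ _)]
    exact (hdistE n).trans_lt ENNReal.ofReal_lt_top
  have hdistR : ∀ n, ∫ p in Eᶜ, g2 (fun q => φ n q - ψ q) p ≤ 4 * δ / 4 ^ n := by
    intro n
    have h1 := hdistE n
    rw [← ofReal_integral_eq_lintegral_ofReal (hintd n)
      (Eventually.of_forall fun p => g2_nonneg _ _)] at h1
    rwa [ENNReal.ofReal_le_ofReal_iff (by positivity)] at h1
  have hdψ : ∀ᵐ p : ℝ × ℝ, p ∉ E → DifferentiableAt ℝ ψ p := by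
    filter_upwards [hdiff] with p hp hpE
    obtain ⟨N, hN⟩ := hloc p hpE
    exact (hp N).congr_of_eventuallyEq (hN N le_rfl).symm
  have hintψ : IntegrableOn (g2 ψ) Eᶜ := by
    refine Integrable.mono' (((cfj_integrable (hcf 0) hScpt (hz 0)).integrableOn.const_mul 2).add
      ((hintd 0).const_mul 2)) (measurable_g2 ψ).aestronglyMeasurable ?_
    filter_upwards [ae_restrict_of_ae hdiff, ae_restrict_of_ae hdψ, ae_restrict_mem hEm]
      with p hp hp' hpE
    rw [Real.norm_of_nonneg (g2_nonneg _ _)]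
    have h1 : ψ = fun q => φ 0 q + (-(φ 0 q - ψ q)) := by funext q; ring
    have h2 : DifferentiableAt ℝ (fun q => -(φ 0 q - ψ q)) p := ((hp 0).sub (hp' hpE)).neg
    calc g2 ψ p = g2 (fun q => φ 0 q + (-(φ 0 q - ψ q))) p := by rw [← h1]
      _ ≤ 2 * g2 (φ 0) p + 2 * g2 (fun q => -(φ 0 q - ψ q)) p := g2_add_le (hp 0) h2
      _ = _ := by rw [g2_neg (fun q => φ 0 q - ψ q) p]; rfl
  have hReg : Reg E ψ := by
    refine ⟨?_, HasCompactSupport.intro hScpt hψ0, ?_, hintψ⟩
    · intro p hp
      obtain ⟨N, hN⟩ := hloc p hp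
      obtain ⟨L, hL⟩ := cfj_lip hE (hcf N)
      obtain ⟨r, hr, hl⟩ := hL p hp
      obtain ⟨s, hs, hs'⟩ := Metric.eventually_nhds_iff_ball.mp (hN N le_rfl)
      refine ⟨L, Metric.ball p (min r s) ∩ Eᶜ, ?_, ?_⟩
      · exact inter_mem (mem_nhdsWithin_of_mem_nhds (Metric.ball_mem_nhds p (lt_min hr hs)))
          self_mem_nhdsWithin
      · intro x hx y hy
        rw [← hs' x (Metric.ball_subset_ball (min_le_right _ _) hx.1),
          ← hs' y (Metric.ball_subset_ball (min_le_right _ _) hy.1)]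
        exact hl (Metric.ball_subset_ball (min_le_left _ _) hx.1)
          (Metric.ball_subset_ball (min_le_left _ _) hy.1)
    · refine ⟨C0 + 16 * a 0, fun p => ?_⟩
      have h1 := hψn 0 p
      rw [hφ0] at h1
      have h2 := hC0 p
      have h3 : |ψ p| ≤ |ψ p - Φ p| + |Φ p| := by
        have := abs_add_le (ψ p - Φ p) (Φ p); simpa using this
      linarith
  have hHon : Honest E ψ := by
    refine ⟨hReg, fun P hP η hη => ?_⟩
    have h1 : ∀ᶠ n in atTop, a n < η / 50 := hatend.eventually (gt_mem_nhds (by positivity))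
    obtain ⟨n, hn⟩ := h1.exists
    obtain ⟨O, hO, hPO, hO'⟩ := hosc n P hP (η / 4) (by positivity)
    refine ⟨O, hO, hPO, fun q hq q' hq' => ?_⟩
    have h2 := hO' q hq q' hq'
    have h3 := hψn n q
    have h4 := hψn n q'
    have h5 : |ψ q - ψ q'| ≤ |ψ q - φ n q| + |φ n q - φ n q'| + |ψ q' - φ n q'| := by
      have e1 : ψ q - ψ q' = (ψ q - φ n q) + (φ n q - φ n q') - (ψ q' - φ n q') := by ring
      rw [e1]
      exact (abs_sub _ _).trans (add_le_add (abs_add_le _ _) le_rfl)
    linarith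
  refine ⟨φ, ψ, hHon, hcf, ⟨C0 + 16 * a 0, fun n p => ?_⟩, ⟨S, hScpt, hz⟩,
    fun n => HasCompactSupport.intro hScpt (hz n), ?_, ?_, ?_⟩
  · have h1 := hsup p 0 n
    rw [zero_add, hφ0] at h1
    have h2 := hC0 p
    have h3 : |φ n p| ≤ |φ n p - Φ p| + |Φ p| := by
      have := abs_add_le (φ n p - Φ p) (Φ p); simpa using this
    linarith [hapos n]
  · intro A hA hAE
    obtain ⟨N, hN⟩ := hev A hA hAE
    filter_upwards [eventually_ge_atTop N] with n hn using hN n hn
  · refine squeeze_zero (fun n => integral_nonneg fun p => g2_nonneg _ _) hdistR ?_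
    have := (tendsto_pow_atTop_nhds_zero_of_lt_one (r := (1 / 4 : ℝ)) (by norm_num)
      (by norm_num)).const_mul (4 * δ)
    rw [mul_zero] at this
    refine this.congr fun n => ?_
    rw [one_div, inv_pow]; rfl
  · -- the linear functional
    have hd0 := hdistR 0
    rw [hφ0, pow_zero, div_one] at hd0
    have hi0 := hintd 0
    rw [hφ0] at hi0
    have hΦz : ∀ q ∉ S, Φ q = 0 := by rw [← hφ0]; exact hz 0
    -- integrability of gx
    have hgx : ∀ f : ℝ × ℝ → ℝ, (∀ q ∉ S, f q = 0) → IntegrableOn (g2 f) Eᶜ →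
        IntegrableOn (gx f) Eᶜ := by
      intro f hf0 hfi
      have hind : Integrable (S.indicator (fun _ => (1 : ℝ))) (volume.restrict Eᶜ) :=
        (integrable_indicator_iff hScpt.measurableSet).mpr
          ((integrableOn_const_iff).mpr (Or.inr (by
            exact (Measure.restrict_apply_le _ _).trans_lt hScpt.measure_lt_top)))
      refine Integrable.mono' (hind.add hfi) (measurable_gx f).aestronglyMeasurable
        (Eventually.of_forall fun p => ?_)
      rw [Real.norm_eq_abs]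
      by_cases hp : p ∈ S
      · simp only [Pi.add_apply, indicator_of_mem hp, g2]
        nlinarith [sq_nonneg (|gx f p| - 1), sq_abs (gx f p), sq_nonneg (gy f p),
          abs_nonneg (gx f p)]
      · obtain ⟨h1, h2⟩ := g2_eq_zero_of_notMem hScpt.isClosed hf0 hp
        simp [h1, g2, h2, indicator_of_notMem hp]
    have hiΦ : IntegrableOn (g2 Φ) Eᶜ := by
      rw [← hφ0]; exact (cfj_integrable (hcf 0) hScpt (hz 0)).integrableOn
    have hdif0 : ∀ q ∉ S, (fun q => Φ q - ψ q) q = 0 := fun q hq => by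
      simp [hΦz q hq, hψ0 q hq]
    have i1 := hgx ψ hψ0 hintψ
    have i2 := hgx Φ hΦz hiΦ
    have i3 := hgx (fun q => Φ q - ψ q) hdif0 hi0
    have heq : (∫ p in Eᶜ, gx ψ p) - ∫ p in Eᶜ, gx Φ p =
        - ∫ p in Eᶜ, gx (fun q => Φ q - ψ q) p := by
      rw [← integral_sub i1 i2, ← integral_neg]
      apply integral_congr_ae
      filter_upwards [ae_restrict_of_ae hdiff, ae_restrict_of_ae hdψ, ae_restrict_mem hEm]
        with p hp hp' hpE
      have := hp 0
      rw [hφ0] at this
      rw [gx_sub this (hp' hpE)]; ring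
    rw [heq, abs_neg]
    have hind : Integrable (S.indicator (fun _ => (1 : ℝ))) (volume.restrict Eᶜ) :=
      (integrable_indicator_iff hScpt.measurableSet).mpr
        ((integrableOn_const_iff).mpr (Or.inr (by
          exact (Measure.restrict_apply_le _ _).trans_lt hScpt.measure_lt_top)))
    calc |∫ p in Eᶜ, gx (fun q => Φ q - ψ q) p|
        ≤ ∫ p in Eᶜ, |gx (fun q => Φ q - ψ q) p| := abs_integral_le_integral_abs
      _ ≤ ∫ p in Eᶜ, (t * g2 (fun q => Φ q - ψ q) p + (1 / (2 * t)) * S.indicator (fun _ => 1) p) := by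
          refine integral_mono_ae i3.abs ((hi0.const_mul t).add (hind.const_mul _))
            (Eventually.of_forall fun p => ?_)
          by_cases hp : p ∈ S
          · simp only [indicator_of_mem hp, g2, mul_one]
            set x := |gx (fun q => Φ q - ψ q) p| with hx
            have hx2 : gx (fun q => Φ q - ψ q) p ^ 2 = x ^ 2 := by rw [hx, sq_abs]
            rw [hx2]
            have h1 : 0 ≤ t * gy (fun q => Φ q - ψ q) p ^ 2 := by positivity
            have h2 : x ≤ t * x ^ 2 + 1 / (2 * t) := by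
              have h3 : 0 ≤ (2 * t * x - 1) ^ 2 := sq_nonneg _
              have h4 : 1 / (2 * t) = (1 / (4 * t)) * 2 := by field_simp; norm_num
              have h5 : t * x ^ 2 + 1 / (4 * t) - x = (2 * t * x - 1) ^ 2 / (4 * t) := by
                field_simp; ring
              have h6 : 0 ≤ (2 * t * x - 1) ^ 2 / (4 * t) := by positivity
              have h7 : 0 < 1 / (4 * t) := by positivity
              linarith
            nlinarith
          · obtain ⟨h1, h2⟩ := g2_eq_zero_of_notMem hScpt.isClosed hdif0 hp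
            simp [h1, g2, h2, indicator_of_notMem hp]
      _ = t * (∫ p in Eᶜ, g2 (fun q => Φ q - ψ q) p) +
            (1 / (2 * t)) * ∫ p in Eᶜ, S.indicator (fun _ => 1) p := by
          rw [integral_add (hi0.const_mul t) (hind.const_mul _), integral_const_mul,
            integral_const_mul]
      _ ≤ t * (4 * δ) + (1 / (2 * t)) * vS := by
          have h1 : ∫ p in Eᶜ, S.indicator (fun _ => (1 : ℝ)) p ≤ vS := by
            rw [integral_indicator hScpt.measurableSet, setIntegral_const, smul_eq_mul, mul_one,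
              measureReal_restrict_apply hScpt.measurableSet]
            exact measureReal_mono inter_subset_left hScpt.measure_lt_top.ne
          gcongr
      _ ≤ ε := by
          have h1 : t * (4 * δ) = ε / 2 := by rw [hδ]; field_simp; ring
          have h2 : (1 / (2 * t)) * vS ≤ ε / 2 := by
            rw [ht]
            have : 1 / (2 * ((vS + 1) / ε)) * vS = (ε / 2) * (vS / (vS + 1)) := by field_simp
            rw [this]
            have h3 : vS / (vS + 1) ≤ 1 := by rw [div_le_one (by positivity)]; linarith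
            nlinarith [hε]
          linarith

end Crest.Agent.R105.SkLim2_363
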