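import Crest.Agent.R105.Stp7_722
import Crest.Agent.R105.SkLim2_363
import Crest.Agent.R105.Lop1_744

/-!
Row 105 (Koebe), leaf STEP of 257's skeleton `Skp2_257`, part 10: the concrete class and energy
distance, oscillation of `CFJ` functions along hairs, flattening of one hair.
-/

set_option autoImplicit false

open Set Filter Topology Metric MeasureTheory
open scoped ENNReal NNReal

namespace Crest.Agent.R105.Stp_722

open CF_363 Skp2_257 SkLim2_363 Lop1_744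

local notation "cc" => connectedComponentIn

/-- the class of the STEP -/
def ClE (E : Set (ℝ × ℝ)) (χ : ℝ × ℝ → ℝ) : Prop :=
  CFJ (hairs E) univ χ ∧ HasCompactSupport χ ∧ ∃ C : ℝ, ∀ p, |χ p| ≤ C

/-- the energy distance -/
def DE (E : Set (ℝ × ℝ)) (χ χ' : ℝ × ℝ → ℝ) (ε : ℝ) : Prop :=
  0 ≤ ε ∧ ClE E χ ∧ ClE E χ' ∧ ∫ p in Eᶜ, g2 (fun q => χ' q - χ q) p ≤ ε ^ 2

theorem DE.zero {E : Set (ℝ × ℝ)} {χ : ℝ × ℝ → ℝ} (h : ClE E χ) : DE E χ χ 0 := by
  refine ⟨le_rfl, h, h, ?_⟩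
  have : (fun q : ℝ × ℝ => χ q - χ q) = fun _ => 0 := by funext q; ring
  rw [this]
  simp [g2]

theorem integrable_sub {E : Set (ℝ × ℝ)} {χ χ' : ℝ × ℝ → ℝ} (h : ClE E χ) (h' : ClE E χ') :
    Integrable (g2 fun q => χ' q - χ q) := by
  refine cfj_integrable (h'.1.sub h.1) (h.2.1.isCompact.union h'.2.1.isCompact) fun q hq => ?_
  rw [image_eq_zero_of_notMem_tsupport fun h3 => hq (Or.inl h3),
    image_eq_zero_of_notMem_tsupport fun h3 => hq (Or.inr h3), sub_zero]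

theorem g2_add_le_t {f g : ℝ × ℝ → ℝ} {p : ℝ × ℝ} (hf : DifferentiableAt ℝ f p)
    (hg : DifferentiableAt ℝ g p) {s t : ℝ} (hs : 0 < s) (ht : 0 < t) :
    g2 (fun q => f q + g q) p ≤ (s + t) / s * g2 f p + (s + t) / t * g2 g p := by
  simp only [g2, gx_add hf hg, gy_add hf hg]
  have key : ∀ x y : ℝ, (x + y) ^ 2 ≤ (s + t) / s * x ^ 2 + (s + t) / t * y ^ 2 := by
    intro x y
    have e : (s + t) / s * x ^ 2 + (s + t) / t * y ^ 2 - (x + y) ^ 2 =
        (t * x - s * y) ^ 2 / (s * t) := by field_simp; ring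
    have : 0 ≤ (t * x - s * y) ^ 2 / (s * t) := by positivity
    linarith
  have h1 := key (gx f p) (gx g p)
  have h2 := key (gy f p) (gy g p)
  linarith

theorem DE.trans {E : Set (ℝ × ℝ)} {χ₁ χ₂ χ₃ : ℝ × ℝ → ℝ} {s t : ℝ} (h : DE E χ₁ χ₂ s)
    (h' : DE E χ₂ χ₃ t) : DE E χ₁ χ₃ (s + t) := by
  obtain ⟨hs, h1, h2, hA⟩ := h
  obtain ⟨ht, _, h3, hB⟩ := h'
  refine ⟨add_nonneg hs ht, h1, h3, ?_⟩
  have key : ∀ η > 0, ∫ p in Eᶜ, g2 (fun q => χ₃ q - χ₁ q) p ≤ (s + η + (t + η)) ^ 2 := by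
    intro η hη
    have hs' : 0 < s + η := by linarith
    have ht' : 0 < t + η := by linarith
    have hd : ∀ᵐ p ∂(volume.restrict Eᶜ), g2 (fun q => χ₃ q - χ₁ q) p ≤
        (s + η + (t + η)) / (s + η) * g2 (fun q => χ₂ q - χ₁ q) p +
          (s + η + (t + η)) / (t + η) * g2 (fun q => χ₃ q - χ₂ q) p := by
      filter_upwards [ae_restrict_of_ae (cfj_ae_diff (h2.1.sub h1.1)),
        ae_restrict_of_ae (cfj_ae_diff (h3.1.sub h2.1))] with p hp hp'
      have e : (fun q => χ₃ q - χ₁ q) = fun q => (χ₂ q - χ₁ q) + (χ₃ q - χ₂ q) := by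
        funext q; ring
      rw [e]
      exact g2_add_le_t hp hp' hs' ht'
    have i1 : Integrable (g2 fun q => χ₂ q - χ₁ q) (volume.restrict Eᶜ) :=
      (integrable_sub h1 h2).integrableOn
    have i2 : Integrable (g2 fun q => χ₃ q - χ₂ q) (volume.restrict Eᶜ) :=
      (integrable_sub h2 h3).integrableOn
    have i3 : Integrable (g2 fun q => χ₃ q - χ₁ q) (volume.restrict Eᶜ) :=
      (integrable_sub h1 h3).integrableOn
    calc ∫ p in Eᶜ, g2 (fun q => χ₃ q - χ₁ q) p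
        ≤ ∫ p in Eᶜ, ((s + η + (t + η)) / (s + η) * g2 (fun q => χ₂ q - χ₁ q) p +
          (s + η + (t + η)) / (t + η) * g2 (fun q => χ₃ q - χ₂ q) p) :=
          integral_mono_ae i3 ((i1.const_mul _).add (i2.const_mul _)) hd
      _ = (s + η + (t + η)) / (s + η) * (∫ p in Eᶜ, g2 (fun q => χ₂ q - χ₁ q) p) +
          (s + η + (t + η)) / (t + η) * (∫ p in Eᶜ, g2 (fun q => χ₃ q - χ₂ q) p) := by
          rw [integral_add (i1.const_mul _) (i2.const_mul _), integral_const_mul,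
            integral_const_mul]
      _ ≤ (s + η + (t + η)) / (s + η) * (s + η) ^ 2 +
          (s + η + (t + η)) / (t + η) * (t + η) ^ 2 := by
          have a1 : s ^ 2 ≤ (s + η) ^ 2 := by nlinarith
          have a2 : t ^ 2 ≤ (t + η) ^ 2 := by nlinarith
          exact add_le_add (mul_le_mul_of_nonneg_left (hA.trans a1) (by positivity))
            (mul_le_mul_of_nonneg_left (hB.trans a2) (by positivity))
      _ = (s + η + (t + η)) ^ 2 := by field_simp
  have hlim : Tendsto (fun η : ℝ => (s + η + (t + η)) ^ 2) (𝓝[>] 0) (𝓝 ((s + t) ^ 2)) := by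
    have : Continuous fun η : ℝ => (s + η + (t + η)) ^ 2 := by fun_prop
    have h0 := (this.tendsto 0).mono_left (nhdsWithin_le_nhds (s := Ioi (0:ℝ)))
    simpa using h0
  exact ge_of_tendsto hlim (by filter_upwards [self_mem_nhdsWithin] with η hη using key η hη)

/-! ### geometry of a slit picture -/

theorem sub_closure {E : Set (ℝ × ℝ)} (hE : Pic E) : E ⊆ closure Eᶜ := by
  have h1 : interior E = ∅ := Measure.interior_eq_empty_of_null hE.null
  rw [interior_eq_empty_iff_dense_compl] at h1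
  exact fun x _ => h1 x

theorem comp_cases {E : Set (ℝ × ℝ)} (hE : Pic E) {x : ℝ × ℝ} (hx : x ∈ E) :
    cc E x = {x} ∨ ∃ K ∈ hairs E, cc E x = K.car := by
  rcases hE.comp _ ⟨x, hx, rfl⟩ with ⟨p, hp⟩ | ⟨K, hK⟩
  · left
    have := mem_connectedComponentIn hx
    rw [hp] at this ⊢
    rw [mem_singleton_iff] at this
    rw [this]
  · right
    exact ⟨K, ⟨x, hx, hK.symm⟩, hK⟩

theorem convex_cc {E : Set (ℝ × ℝ)} (hE : Pic E) {x : ℝ × ℝ} (hx : x ∈ E) :
    Convex ℝ (cc E x) := by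
  rcases comp_cases hE hx with h | ⟨K, _, h⟩
  · rw [h]; exact convex_singleton _
  · rw [h]; exact convex_car K

/-- oscillation of a cut Lipschitz function on a portion of a convex component. -/
theorem osc_portion {V : Set (ℝ × ℝ)} {J : Finset Hair} {L : ℝ} (hL : 0 ≤ L)
    {φ : ℝ × ℝ → ℝ} (hφ : SL (univ \ cut J) L φ)
    {K P : Set (ℝ × ℝ)} (hK : IsCompact K) (hKc : Convex ℝ K) (hKJ : Disjoint K (cut J))
    (hPK : P ⊆ K) {d : ℝ} (hd : ∀ p ∈ P, ∀ p' ∈ P, dist p p' ≤ d) :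
    OscLe V P φ (L * d) := by
  obtain ⟨δ, hδ, hδJ⟩ := hK.exists_thickening_subset_open (isClosed_cut J).isOpen_compl
    hKJ.subset_compl_right
  intro ε hε
  set r := min δ (ε / (2 * (L + 1))) with hr
  have hr0 : 0 < r := by positivity
  have hrδ : r ≤ δ := min_le_left _ _
  have hrε : r * (2 * (L + 1)) ≤ ε := by
    have : r ≤ ε / (2 * (L + 1)) := min_le_right _ _
    rwa [le_div_iff₀ (by positivity)] at this
  refine ⟨thickening r P, isOpen_thickening, self_subset_thickening hr0 P, ?_⟩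
  rintro q ⟨hq, _⟩ q' ⟨hq', _⟩
  obtain ⟨p, hp, hqp⟩ := mem_thickening_iff.1 hq
  obtain ⟨p', hp', hqp'⟩ := mem_thickening_iff.1 hq'
  have hdist : dist q q' ≤ d + 2 * r := by
    have h1 := dist_triangle4 q p p' q'
    have h2 := hd p hp p' hp'
    rw [dist_comm p' q'] at h1
    linarith
  have hsub : thickening r P ⊆ thickening δ K :=
    (thickening_mono hrδ P).trans (thickening_subset_of_subset δ hPK)
  have hseg : segment ℝ q q' ⊆ univ \ cut J := by
    have h1 := (hKc.thickening δ).segment_subset (hsub hq) (hsub hq')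
    exact fun y hy => ⟨mem_univ y, hδJ (h1 hy)⟩
  have h3 := hφ q q' hseg
  have h4 : L * dist q q' ≤ L * (d + 2 * r) := by gcongr
  nlinarith

/-- energy of `ζ (k - χ)` : pointwise bound. -/
theorem g2_prod_le {ζ χ : ℝ × ℝ → ℝ} {p : ℝ × ℝ} (hζ : DifferentiableAt ℝ ζ p)
    (hχ : DifferentiableAt ℝ χ p) (h01 : 0 ≤ ζ p ∧ ζ p ≤ 1) {k A L : ℝ}
    (hA : |χ p - k| ≤ A) (hL : g2 χ p ≤ 2 * L ^ 2) :
    g2 (fun q => ζ q * (k - χ q)) p ≤ 4 * L ^ 2 + 2 * A ^ 2 * g2 ζ p := by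
  have hd : DifferentiableAt ℝ (fun q => k - χ q) p := hχ.const_sub k
  refine (g2_mul_le hζ hd).trans ?_
  have e : g2 (fun q => k - χ q) p = g2 χ p := by
    have hc : DifferentiableAt ℝ (fun _ : ℝ × ℝ => k) p := differentiableAt_const k
    simp [g2, gx_sub hc hχ, gy_sub hc hχ]
  rw [e]
  have h1 : ζ p ^ 2 ≤ 1 := by
    have := h01.1; have := h01.2; nlinarith
  have h2 : (k - χ p) ^ 2 ≤ A ^ 2 := by
    rw [abs_sub_comm] at hA
    have := (abs_nonneg _).trans hA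
    rw [← sq_abs]; gcongr
  have h3 := g2_nonneg χ p
  have h4 := g2_nonneg ζ p
  have h5 : ζ p ^ 2 * g2 χ p ≤ 1 * (2 * L ^ 2) := mul_le_mul h1 hL h3 zero_le_one
  have h6 : (k - χ p) ^ 2 * g2 ζ p ≤ A ^ 2 * g2 ζ p := mul_le_mul_of_nonneg_right h2 h4
  linarith

/-- **flattening of one hair** -/
theorem flatten_one {E : Set (ℝ × ℝ)} (hE : Pic E) {K : Hair} (hK : K ∈ hairs E)
    (hS : SinOut E K) {χ : ℝ × ℝ → ℝ} (hχ : ClE E χ) {N : Set (ℝ × ℝ)} (hN : IsOpen N)
    (hKN : K.car ⊆ N) {k A m ε : ℝ} (hm : 0 < m) (hε : 0 < ε) (hA0 : 0 ≤ A)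
    (hA : ∀ q ∈ N ∩ Eᶜ, |χ q - k| ≤ A) :
    ∃ χ' : ℝ × ℝ → ℝ, DE E χ χ' ε ∧ (∃ S, IsClosed S ∧ S ⊆ N ∧ ∀ p ∉ S, χ' p = χ p) ∧
      (∀ p lo hi, χ p ∈ Icc lo hi → k ∈ Icc lo hi → χ' p ∈ Icc lo hi) ∧
      OscLe Eᶜ K.car χ' 0 ∧
      ∀ x ∈ E, ∀ P ⊆ cc E x, ∀ b, OscLe Eᶜ P χ b → OscLe Eᶜ P χ' (b + m * A) := by
  classical
  obtain ⟨J, hJ, L, C0, hL, hsl, -⟩ := hχ.1
  -- a thinner neighbourhood
  set δ : ℝ := ε ^ 2 / (2 * (4 * L ^ 2 + 1)) with hδ
  have hδ0 : 0 < δ := by positivity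
  obtain ⟨N1, hN1K, hN1o, hN1v⟩ := K.car.exists_isOpen_lt_of_lt (μ := volume) (ENNReal.ofReal δ)
    (by rw [K.volume_car]; exact ENNReal.ofReal_pos.2 hδ0)
  obtain ⟨M, hM⟩ := exists_nat_gt (1 / m)
  have hM0 : (0:ℝ) < M := lt_trans (by positivity) hM
  have hM1 : 1 ≤ M := by
    have : 0 < M := by exact_mod_cast hM0
    exact this
  have hMm : (1:ℝ) / M ≤ m := by
    rw [div_le_iff₀ hM0]; rw [div_lt_iff₀ hm] at hM; linarith
  set ε' : ℝ := ε ^ 2 / (2 * (2 * A ^ 2 + 1)) with hε'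
  have hε'0 : 0 < ε' := by positivity
  obtain ⟨ζ, hζ, ⟨O1, hO1, hKO1, hO1ζ⟩, hosc⟩ := hS (N ∩ N1) (hN.inter hN1o)
    (subset_inter hKN hN1K) M hM1 ε' hε'0
  obtain ⟨S, hSc, hSN, hS0⟩ := hζ.sp
  have hS0' : ∀ p ∉ S, ζ p = 0 := fun p hp => hS0 p (mem_univ p) hp
  have hcfj : CFJ (hairs E) univ (fun q => ζ q * (k - χ q)) :=
    hζ.cf.mul ((CFJ_const k).sub hχ.1)
  set χ' : ℝ × ℝ → ℝ := fun q => χ q + ζ q * (k - χ q) with hχ'
  have hoff : ∀ p ∉ S, χ' p = χ p := fun p hp => by simp [hχ', hS0' p hp]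
  have hhull : ∀ p lo hi, χ p ∈ Icc lo hi → k ∈ Icc lo hi → χ' p ∈ Icc lo hi := by
    intro p lo hi h1 h2
    obtain ⟨z0, z1⟩ := hζ.rg p
    have e : χ' p = (1 - ζ p) * χ p + ζ p * k := by simp only [hχ']; ring
    rw [e]
    constructor <;> nlinarith [h1.1, h1.2, h2.1, h2.2, mul_nonneg z0 (sub_nonneg.2 h2.1),
      mul_nonneg z0 (sub_nonneg.2 h2.2), mul_nonneg (sub_nonneg.2 z1) (sub_nonneg.2 h1.1),
      mul_nonneg (sub_nonneg.2 z1) (sub_nonneg.2 h1.2)]
  obtain ⟨C1, hC1⟩ := hχ.2.2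
  have hcl' : ClE E χ' := by
    refine ⟨hχ.1.add hcfj, ?_, max C1 |k|, fun p => ?_⟩
    · refine HasCompactSupport.intro (hχ.2.1.isCompact.union hSc) fun q hq => ?_
      rw [hoff q fun h => hq (Or.inr h)]
      exact image_eq_zero_of_notMem_tsupport fun h => hq (Or.inl h)
    · have h1 := abs_le.1 (hC1 p)
      have h2 := abs_le.1 (le_refl |k|)
      have h3 := hhull p (- max C1 |k|) (max C1 |k|)
        ⟨by linarith [le_max_left C1 |k|], by linarith [le_max_left C1 |k|]⟩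
        ⟨by linarith [le_max_right C1 |k|], by linarith [le_max_right C1 |k|]⟩
      exact abs_le.2 h3
  refine ⟨χ', ⟨hε.le, hχ, hcl', ?_⟩, ⟨S, hSc.isClosed, hSN.trans inter_subset_left, hoff⟩, hhull,
    ?_, ?_⟩
  · -- energy
    have e0 : (fun q => χ' q - χ q) = fun q => ζ q * (k - χ q) := by funext q; simp only [hχ']; ring
    rw [e0]
    have hζi : Integrable (g2 ζ) := cfj_integrable hζ.cf hSc hS0'
    have hfin : volume N1 ≠ ∞ := (hN1v.trans_le le_top).ne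
    have hind : Integrable (N1.indicator fun _ : ℝ × ℝ => 4 * L ^ 2) :=
      (integrable_indicator_iff hN1o.measurableSet).2 (integrableOn_const hfin)
    have hJE : cut J ⊆ E := cut_sub hJ
    have hb : ∀ᵐ p ∂(volume.restrict Eᶜ), g2 (fun q => ζ q * (k - χ q)) p ≤
        N1.indicator (fun _ : ℝ × ℝ => 4 * L ^ 2) p + 2 * A ^ 2 * g2 ζ p := by
      filter_upwards [ae_restrict_of_ae (cfj_ae_diff hζ.cf), ae_restrict_of_ae (cfj_ae_diff hχ.1),
        ae_restrict_mem hE.cpt.isClosed.isOpen_compl.measurableSet] with p h1 h2 hpE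
      by_cases hpS : p ∈ S
      · have hpN := hSN hpS
        rw [indicator_of_mem hpN.2]
        exact g2_prod_le h1 h2 (hζ.rg p) (hA p ⟨hpN.1, hpE⟩)
          (hsl.g2_le (isOpen_diff_cut isOpen_univ J) hL ⟨mem_univ p, fun h => hpE (hJE h)⟩)
      · have h3 : g2 (fun q => ζ q * (k - χ q)) p = 0 := by
          refine g2_eq_zero ?_
          filter_upwards [hSc.isClosed.isOpen_compl.mem_nhds hpS] with q hq
          rw [hS0' q hq, zero_mul]
        rw [h3]
        have h4 : 0 ≤ N1.indicator (fun _ : ℝ × ℝ => 4 * L ^ 2) p :=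
          indicator_nonneg (fun _ _ => by positivity) p
        have h5 := g2_nonneg ζ p
        positivity
    have hi1 : Integrable (g2 fun q => ζ q * (k - χ q)) :=
      cfj_integrable hcfj hSc fun q hq => by rw [hS0' q hq, zero_mul]
    have i1 : Integrable (g2 fun q => ζ q * (k - χ q)) (volume.restrict Eᶜ) := hi1.integrableOn
    have i2 : Integrable (N1.indicator fun _ : ℝ × ℝ => 4 * L ^ 2) (volume.restrict Eᶜ) :=
      hind.integrableOn
    have i3 : Integrable (g2 ζ) (volume.restrict Eᶜ) := hζi.integrableOn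
    calc ∫ p in Eᶜ, g2 (fun q => ζ q * (k - χ q)) p
        ≤ ∫ p in Eᶜ, (N1.indicator (fun _ : ℝ × ℝ => 4 * L ^ 2) p + 2 * A ^ 2 * g2 ζ p) :=
          integral_mono_ae i1 (i2.add (i3.const_mul _)) hb
      _ = (∫ p in Eᶜ, N1.indicator (fun _ : ℝ × ℝ => 4 * L ^ 2) p) +
          2 * A ^ 2 * (∫ p in Eᶜ, g2 ζ p) := by
          rw [integral_add i2 (i3.const_mul _), integral_const_mul]
      _ ≤ (∫ p, N1.indicator (fun _ : ℝ × ℝ => 4 * L ^ 2) p) + 2 * A ^ 2 * (∫ p, g2 ζ p) :=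
          add_le_add (setIntegral_le_integral hind
              (Eventually.of_forall fun p => indicator_nonneg (fun _ _ => by positivity) p))
            (mul_le_mul_of_nonneg_left (setIntegral_le_integral hζi
              (Eventually.of_forall fun p => g2_nonneg ζ p)) (by positivity))
      _ ≤ 4 * L ^ 2 * δ + 2 * A ^ 2 * ε' := by
          refine add_le_add ?_ (mul_le_mul_of_nonneg_left ?_ (by positivity))
          · rw [integral_indicator hN1o.measurableSet, setIntegral_const, smul_eq_mul, mul_comm]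
            refine mul_le_mul_of_nonneg_left ?_ (by positivity)
            rw [measureReal_def]
            exact (ENNReal.toReal_mono ENNReal.ofReal_ne_top hN1v.le).trans
              (ENNReal.toReal_ofReal hδ0.le).le
          · have := hζ.en
            unfold En at this
            rwa [setIntegral_univ] at this
      _ ≤ ε ^ 2 := by
          have h1 : 4 * L ^ 2 * δ ≤ ε ^ 2 / 2 := by
            have : (2 * (4 * L ^ 2 + 1)) * δ = ε ^ 2 := by rw [hδ]; field_simp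
            nlinarith
          have h2 : 2 * A ^ 2 * ε' ≤ ε ^ 2 / 2 := by
            have : (2 * (2 * A ^ 2 + 1)) * ε' = ε ^ 2 := by rw [hε']; field_simp
            nlinarith
          linarith
  · -- flat on the hair
    intro η hη
    refine ⟨O1, hO1, hKO1, fun q hq q' hq' => ?_⟩
    have h1 : χ' q = k := by simp only [hχ']; rw [hO1ζ q hq.1]; ring
    have h2 : χ' q' = k := by simp only [hχ']; rw [hO1ζ q' hq'.1]; ring
    rw [h1, h2, sub_self, abs_zero]; linarith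
  · -- growth
    intro x hx P hP b hb η hη
    obtain ⟨O2, hO2, hPO2, H2⟩ := hb (η / 2) (by linarith)
    obtain ⟨O3, hO3, hPO3, H3⟩ := ((hosc (cc E x) ⟨x, hx, rfl⟩).mono hMm).mono_set hP
      (η / (2 * (A + 1))) (by positivity)
    have hηA : η / (2 * (A + 1)) * A ≤ η / 2 := by
      rw [div_mul_eq_mul_div, div_le_div_iff₀ (by positivity) (by norm_num)]
      nlinarith
    have hmA : 0 ≤ m * A := mul_nonneg hm.le hA0
    refine ⟨O2 ∩ O3, hO2.inter hO3, subset_inter hPO2 hPO3, fun q hq q' hq' => ?_⟩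
    have h1 := H2 q ⟨hq.1.1, hq.2⟩ q' ⟨hq'.1.1, hq'.2⟩
    have h2 := H3 q ⟨hq.1.2, hq.2⟩ q' ⟨hq'.1.2, hq'.2⟩
    have h2' : |ζ q' - ζ q| ≤ m + η / (2 * (A + 1)) := by rwa [abs_sub_comm]
    have e : (m + η / (2 * (A + 1))) * A = m * A + η / (2 * (A + 1)) * A := by ring
    by_cases hq'S : q' ∈ S
    · have h3 := abs_combo_le (a := χ q) (hζ.rg q).1 (hζ.rg q).2 h2 (hA q' ⟨(hSN hq'S).1, hq'.2⟩)
      simp only [hχ']
      linarith
    · by_cases hqS : q ∈ S
      · have h3 := abs_combo_le (a := χ q') (hζ.rg q').1 (hζ.rg q').2 h2'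
          (hA q ⟨(hSN hqS).1, hq.2⟩)
        rw [abs_sub_comm, abs_sub_comm (χ q')] at h3
        simp only [hχ']
        linarith
      · rw [hoff q hqS, hoff q' hq'S]
        linarith

end Crest.Agent.R105.Stp_722
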