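import Crest.Agent.R105.Laq4_744
import Crest.Agent.R105.Spq3_722
import Crest.Agent.R105.Stp10_722

/-!
# Row 105 (S0138, picture with solids): flattening of one hair (722 #10642, (L1))

`treat_hair` : a hair which is a whole component of `E` and has a cheap cut-off (`SinOutQ`, 925) is
treatable in the sense of `Spq_722.Treat`, over the class `ClQ` and the distance `DQ` of 744.
-/

set_option autoImplicit false

noncomputable section

namespace Crest.Agent.R105.Trh_483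

open Set Filter MeasureTheory Topology Metric
open CF_363 Stp_722 Cq_463 Laq2_744 Laq3_744 Laq4_744
open Skp2_257 (Comps)
open Nal_649 (HalfQ)
open scoped ENNReal NNReal

local notation "cc" => connectedComponentIn

/-- cheap cut-off of a piece `P` of `E` (925's output) -/
def SinO (E : Set (ℝ × ℝ)) (𝒬 : Set Sqr) (𝓗 : Set Hair) (P : Set (ℝ × ℝ)) : Prop :=
  ∀ N, IsOpen N → P ⊆ N → ∀ M : ℕ, 1 ≤ M → ∀ ε > 0, ∃ ζ, HalfQ E 𝒬 𝓗 univ N ε ζ ∧
    (∃ O, IsOpen O ∧ P ⊆ O ∧ ∀ p ∈ O, ζ p = 1) ∧ ∀ P' ∈ Comps E, OscLe Eᶜ P' ζ (1 / M)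

variable {E : Set (ℝ × ℝ)} {𝒬 : Set Sqr} {𝓗 : Set Hair} {χ ζ : ℝ × ℝ → ℝ}

/-- a hair which is a component does not meet the squares -/
theorem disj_of_comp (hE : QPic E 𝒬 𝓗) {K : Hair} (hKc : K.car ∈ Comps E) {Q : Sqr}
    (hQ : Q ∈ 𝒬) : Disjoint Q.car K.car := by
  rw [Set.disjoint_left]
  intro p hp hpK
  obtain ⟨x, hx, hKx⟩ := hKc
  have h1 : Q.car ⊆ K.car := by
    have h2 : p ∈ cc E x := hKx ▸ hpK
    have h3 := Q.convex_car.isPreconnected.subset_connectedComponentIn hp (hE.sub Q hQ)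
    rw [← connectedComponentIn_eq h2, ← hKx] at h3
    exact h3
  have h4 : volume Q.car ≤ volume K.car := measure_mono h1
  rw [K.volume_car, Q.volume_car, nonpos_iff_eq_zero, ENNReal.ofReal_eq_zero] at h4
  have := Q.hs
  have : 0 < Q.s ^ 2 := by positivity
  linarith

/-- the charge of `ζ (k - χ)` at one square -/
theorem ch_prod_le (hE : QPic E 𝒬 𝓗) (hχ : CFJ 𝓗 univ χ)
    (h01 : ∀ p, 0 ≤ ζ p ∧ ζ p ≤ 1) {k A : ℝ} (hA0 : 0 ≤ A) (hA : ∀ p, |k - χ p| ≤ A) (Q : Sqr) :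
    ch E univ (fun q => ζ q * (k - χ q)) Q ≤ A * ch E univ ζ Q + ch E univ χ Q := by
  have h1 := chg_mul (V := Eᶜ ∩ univ) (P := Q.car ∩ closure univ) (f := ζ) (g := fun q => k - χ q)
    (A := 1) (B := A) zero_le_one hA0
    (fun p _ => by rw [abs_of_nonneg (h01 p).1]; exact (h01 p).2) (fun p _ => hA p)
  have h2 := chg_sub (V := Eᶜ ∩ univ) (P := Q.car ∩ closure univ) (f := fun _ => k) (g := χ)
    ⟨0, oscLe_const k⟩ (CFJ.fin hE hχ _)
  rw [chg_const, zero_add] at h2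
  unfold ch
  linarith

/-- **cost of flattening**: for every `χ` of the class and every null compact piece `P` of `E` off
the squares there are `δ > 0` and a neighbourhood such that the cut-offs with energy `≤ δ` supported
there cost at most `ε`. -/
theorem exists_cost_flat (hE : QPic E 𝒬 𝓗) (hχ : ClQ 𝓗 χ) {P : Set (ℝ × ℝ)}
    (hP0 : volume P = 0) (hPQ : ∀ Q ∈ 𝒬, Disjoint Q.car P) {k A : ℝ} (hA0 : 0 ≤ A)
    (hA : ∀ p, |k - χ p| ≤ A) {ε : ℝ} (hε : 0 < ε) :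
    ∃ δ > 0, ∃ N1, IsOpen N1 ∧ P ⊆ N1 ∧ ∀ N ⊆ N1, ∀ ζ, HalfQ E 𝒬 𝓗 univ N δ ζ →
      TQ E univ 𝒬 (fun q => ζ q * (k - χ q)) ≤ ε := by
  classical
  obtain ⟨J, hJ, L, C0, hL, hsl, -⟩ := id hχ.1
  -- the head
  have hb : Summable fun Q : 𝒬 => 2 * ch E univ χ Q.1 ^ 2 :=
    (summable_ch hE convex_univ hχ.1).mul_left 2
  obtain ⟨F, hF⟩ := (hb.hasSum.eventually (Metric.ball_mem_nhds _ (show 0 < ε / 4 by positivity))).exists
  rw [Real.dist_eq] at hF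
  simp only at hF
  -- the neighbourhood
  set δ1 : ℝ := ε / (4 * (4 * L ^ 2 + 1)) with hδ1
  have hδ10 : 0 < δ1 := by positivity
  obtain ⟨N0, hN0P, hN0o, hN0v⟩ := P.exists_isOpen_lt_of_lt (μ := volume) (ENNReal.ofReal δ1)
    (by rw [hP0]; exact ENNReal.ofReal_pos.2 hδ10)
  set T : Set (ℝ × ℝ) := ⋃ Q ∈ F, (Q : 𝒬).1.car with hT
  have hTc : IsClosed T := isClosed_biUnion_finset fun Q _ => Q.1.isCompact_car.isClosed
  set δ2 : ℝ := ε / (4 * (2 * A ^ 2 + 1)) with hδ2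
  have hδ20 : 0 < δ2 := by positivity
  refine ⟨δ2, hδ20, N0 ∩ Tᶜ, hN0o.inter hTc.isOpen_compl, subset_inter hN0P ?_, ?_⟩
  · intro p hp hpT
    obtain ⟨Q, hQ, hpQ⟩ := mem_iUnion₂.1 hpT
    exact Set.disjoint_left.1 (hPQ Q.1 Q.2) hpQ hp
  intro N hNN ζ hζ
  obtain ⟨S, hSc, hSN, hS0⟩ := hζ.sp
  have hS0' : ∀ p ∉ S, ζ p = 0 := fun p hp => hS0 p (mem_univ p) hp
  have hcfj : CFJ 𝓗 univ (fun q => ζ q * (k - χ q)) := hζ.cf.mul ((CFJ_const k).sub hχ.1)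
  have hccζ : Cc 𝓗 univ ζ := ⟨hζ.cf, S, hSc, fun p _ hp => hS0' p hp⟩
  have hcc : Cc 𝓗 univ (fun q => ζ q * (k - χ q)) :=
    ⟨hcfj, S, hSc, fun p _ hp => by simp only [hS0' p hp, zero_mul]⟩
  have hEnζ : En (univ \ E) ζ ≤ δ2 := En_le_TQ.trans hζ.en
  have hChζ : Ch E univ 𝒬 ζ ≤ δ2 := Ch_le_TQ.trans hζ.en
  -- the energy off `E`
  have hEn : En (univ \ E) (fun q => ζ q * (k - χ q)) ≤ 4 * L ^ 2 * δ1 +
      2 * A ^ 2 * En (univ \ E) ζ := by
    have hfin : volume N0 ≠ ∞ := (hN0v.trans_le le_top).ne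
    have hind : Integrable (N0.indicator fun _ : ℝ × ℝ => 4 * L ^ 2) :=
      (integrable_indicator_iff hN0o.measurableSet).2 (integrableOn_const hfin)
    have hJE : cut J ⊆ E := fun p hp => by
      obtain ⟨K, hK, hpK⟩ := mem_cut.1 hp
      exact hE.hsub K (hJ K hK) hpK
    have hEo : IsOpen (univ \ E : Set (ℝ × ℝ)) := isOpen_univ.sdiff hE.cpt.isClosed
    have hb : ∀ᵐ p ∂(volume.restrict (univ \ E : Set (ℝ × ℝ))), g2 (fun q => ζ q * (k - χ q)) p ≤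
        N0.indicator (fun _ : ℝ × ℝ => 4 * L ^ 2) p + 2 * A ^ 2 * g2 ζ p := by
      filter_upwards [ae_restrict_of_ae hccζ.ae_diff, ae_restrict_of_ae hχ.cc.ae_diff,
        ae_restrict_mem hEo.measurableSet] with p h1 h2 hpE
      by_cases hpS : p ∈ S
      · have hpN := hNN (hSN hpS)
        rw [indicator_of_mem hpN.1]
        refine g2_prod_le h1 h2 (hζ.rg p) (by rw [abs_sub_comm]; exact hA p)
          (hsl.g2_le (isOpen_diff_cut isOpen_univ J) hL ⟨mem_univ p, fun h => hpE.2 (hJE h)⟩)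
      · have h3 : g2 (fun q => ζ q * (k - χ q)) p = 0 := by
          refine Lop1_744.g2_eq_zero ?_
          filter_upwards [hSc.isClosed.isOpen_compl.mem_nhds hpS] with q hq
          rw [hS0' q hq, zero_mul]
        rw [h3]
        have h4 : 0 ≤ N0.indicator (fun _ : ℝ × ℝ => 4 * L ^ 2) p :=
          indicator_nonneg (fun _ _ => by positivity) p
        have h5 := g2_nonneg ζ p
        positivity
    have i1 : Integrable (g2 fun q => ζ q * (k - χ q)) (volume.restrict (univ \ E)) :=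
      hcc.integrable.integrableOn
    have i2 : Integrable (N0.indicator fun _ : ℝ × ℝ => 4 * L ^ 2) (volume.restrict (univ \ E)) :=
      hind.integrableOn
    have i3 : Integrable (g2 ζ) (volume.restrict (univ \ E)) := hccζ.integrable.integrableOn
    unfold En
    calc ∫ p in univ \ E, g2 (fun q => ζ q * (k - χ q)) p
        ≤ ∫ p in univ \ E, (N0.indicator (fun _ : ℝ × ℝ => 4 * L ^ 2) p + 2 * A ^ 2 * g2 ζ p) :=
          integral_mono_ae i1 (i2.add (i3.const_mul _)) hb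
      _ = (∫ p in univ \ E, N0.indicator (fun _ : ℝ × ℝ => 4 * L ^ 2) p) +
          2 * A ^ 2 * (∫ p in univ \ E, g2 ζ p) := by
          rw [integral_add i2 (i3.const_mul _), integral_const_mul]
      _ ≤ (∫ p, N0.indicator (fun _ : ℝ × ℝ => 4 * L ^ 2) p) +
          2 * A ^ 2 * (∫ p in univ \ E, g2 ζ p) :=
          add_le_add_left (setIntegral_le_integral hind
              (Eventually.of_forall fun p => indicator_nonneg (fun _ _ => by positivity) p)) _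
      _ ≤ 4 * L ^ 2 * δ1 + 2 * A ^ 2 * (∫ p in univ \ E, g2 ζ p) := by
          refine add_le_add_left ?_ _
          rw [integral_indicator hN0o.measurableSet, setIntegral_const, smul_eq_mul, mul_comm]
          refine mul_le_mul_of_nonneg_left ?_ (by positivity)
          rw [measureReal_def]
          exact (ENNReal.toReal_mono ENNReal.ofReal_ne_top hN0v.le).trans
            (ENNReal.toReal_ofReal hδ10.le).le
  -- the charges
  have hCh : Ch E univ 𝒬 (fun q => ζ q * (k - χ q)) ≤ 2 * A ^ 2 * Ch E univ 𝒬 ζ +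
      (∑' Q : 𝒬, 2 * ch E univ χ Q.1 ^ 2 - ∑ Q ∈ F, 2 * ch E univ χ Q.1 ^ 2) := by
    obtain ⟨t1, t2⟩ := tail_trick (a := fun _ : 𝒬 => (0 : ℝ)) hb F
    have hz2 := (summable_ch hE convex_univ hζ.cf).mul_left (2 * A ^ 2)
    have hpt : ∀ Q : 𝒬, ch E univ (fun q => ζ q * (k - χ q)) Q.1 ^ 2 ≤
        2 * A ^ 2 * ch E univ ζ Q.1 ^ 2 + (if Q ∈ F then 0 else 2 * ch E univ χ Q.1 ^ 2) := by
      intro Q
      have n0 := ch_nonneg E univ (fun q => ζ q * (k - χ q)) Q.1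
      split_ifs with hQF
      · have h1 : ch E univ (fun q => ζ q * (k - χ q)) Q.1 = 0 := by
          refine chg_eq_zero (O := Sᶜ) (a := 0) hSc.isClosed.isOpen_compl ?_ fun q hq => ?_
          · intro p hp hpS
            exact (hNN (hSN hpS)).2 (mem_iUnion₂.2 ⟨Q, hQF, hp.1⟩)
          · rw [hS0' q hq.1, zero_mul]
        rw [h1]
        have : 0 ≤ 2 * A ^ 2 * ch E univ ζ Q.1 ^ 2 := by positivity
        linarith
      · have h1 := ch_prod_le hE hχ.1 hζ.rg hA0 hA Q.1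
        have h2 := pow_le_pow_left₀ n0 h1 2
        nlinarith [sq_nonneg (A * ch E univ ζ Q.1 - ch E univ χ Q.1)]
    unfold Ch
    refine (Summable.tsum_le_tsum hpt (summable_ch hE convex_univ hcfj) (hz2.add t1)).trans ?_
    rw [hz2.tsum_add t1, t2, tsum_mul_left]
    simp
  have k1 : 4 * L ^ 2 * δ1 ≤ ε / 4 := by
    have : (4 * (4 * L ^ 2 + 1)) * δ1 = ε := by rw [hδ1]; field_simp
    nlinarith
  have k2 : 2 * A ^ 2 * δ2 ≤ ε / 4 := by
    have : (4 * (2 * A ^ 2 + 1)) * δ2 = ε := by rw [hδ2]; field_simp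
    nlinarith
  have k3 : 2 * A ^ 2 * En (univ \ E) ζ ≤ 2 * A ^ 2 * δ2 := by gcongr
  have k4 : 2 * A ^ 2 * Ch E univ 𝒬 ζ ≤ 2 * A ^ 2 * δ2 := by gcongr
  have k5 := (abs_lt.1 hF).1
  unfold TQ
  linarith

/-- **flattening of one piece** : `χ' = χ + ζ (k - χ)` -/
theorem flattenQ (hE : QPic E 𝒬 𝓗) {P : Set (ℝ × ℝ)} (hP0 : volume P = 0)
    (hPQ : ∀ Q ∈ 𝒬, Disjoint Q.car P) (hS : SinO E 𝒬 𝓗 P) (hχ : ClQ 𝓗 χ) {N : Set (ℝ × ℝ)}
    (hN : IsOpen N) (hPN : P ⊆ N) {k A m ε : ℝ} (hm : 0 < m) (hε : 0 < ε) (hA0 : 0 ≤ A)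
    (hA : ∀ q, |k - χ q| ≤ A) :
    ∃ χ' : ℝ × ℝ → ℝ, DQ E 𝒬 𝓗 χ χ' ε ∧ (∃ S, IsClosed S ∧ S ⊆ N ∧ ∀ p ∉ S, χ' p = χ p) ∧
      (∀ p lo hi, χ p ∈ Icc lo hi → k ∈ Icc lo hi → χ' p ∈ Icc lo hi) ∧
      OscLe Eᶜ P χ' 0 ∧
      ∀ x ∈ E, ∀ R ⊆ cc E x, ∀ b, OscLe Eᶜ R χ b → OscLe Eᶜ R χ' (b + m * A) := by
  classical
  obtain ⟨δ, hδ, N1, hN1o, hPN1, hcost⟩ := exists_cost_flat hE hχ hP0 hPQ hA0 hA
    (show 0 < ε ^ 2 by positivity)
  obtain ⟨M, hM⟩ := exists_nat_gt (1 / m)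
  have hM0 : (0:ℝ) < M := lt_trans (by positivity) hM
  have hM1 : 1 ≤ M := by
    have : 0 < M := by exact_mod_cast hM0
    exact this
  have hMm : (1:ℝ) / M ≤ m := by
    rw [div_le_iff₀ hM0]; rw [div_lt_iff₀ hm] at hM; linarith
  obtain ⟨ζ, hζ, ⟨O1, hO1, hPO1, hO1ζ⟩, hosc⟩ := hS (N ∩ N1) (hN.inter hN1o)
    (subset_inter hPN hPN1) M hM1 δ hδ
  obtain ⟨S, hSc, hSN, hS0⟩ := hζ.sp
  have hS0' : ∀ p ∉ S, ζ p = 0 := fun p hp => hS0 p (mem_univ p) hp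
  have hcfj : CFJ 𝓗 univ (fun q => ζ q * (k - χ q)) := hζ.cf.mul ((CFJ_const k).sub hχ.1)
  set χ' : ℝ × ℝ → ℝ := fun q => χ q + ζ q * (k - χ q) with hχ'
  have hoff : ∀ p ∉ S, χ' p = χ p := fun p hp => by simp [hχ', hS0' p hp]
  have hhull : ∀ p lo hi, χ p ∈ Icc lo hi → k ∈ Icc lo hi → χ' p ∈ Icc lo hi := by
    intro p lo hi h1 h2
    obtain ⟨z0, z1⟩ := hζ.rg p
    have e : χ' p = (1 - ζ p) * χ p + ζ p * k := by simp only [hχ']; ring
    rw [e]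
    constructor <;> nlinarith [h1.1, h1.2, h2.1, h2.2, mul_nonneg z0 (sub_nonneg.2 h2.1),
      mul_nonneg z0 (sub_nonneg.2 h2.2), mul_nonneg (sub_nonneg.2 z1) (sub_nonneg.2 h1.1),
      mul_nonneg (sub_nonneg.2 z1) (sub_nonneg.2 h1.2)]
  obtain ⟨C1, hC1⟩ := hχ.2.2
  have hcl' : ClQ 𝓗 χ' := by
    refine ⟨hχ.1.add hcfj, ?_, max C1 |k|, fun p => ?_⟩
    · refine HasCompactSupport.intro (hχ.2.1.isCompact.union hSc) fun q hq => ?_
      rw [hoff q fun h => hq (Or.inr h)]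
      exact image_eq_zero_of_notMem_tsupport fun h => hq (Or.inl h)
    · have h1 := abs_le.1 (hC1 p)
      have h2 := abs_le.1 (le_refl |k|)
      have h3 := hhull p (- max C1 |k|) (max C1 |k|)
        ⟨by linarith [le_max_left C1 |k|], by linarith [le_max_left C1 |k|]⟩
        ⟨by linarith [le_max_right C1 |k|], by linarith [le_max_right C1 |k|]⟩
      exact abs_le.2 h3
  have e0 : (fun q => χ' q - χ q) = fun q => ζ q * (k - χ q) := by funext q; simp only [hχ']; ring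
  refine ⟨χ', ⟨hε.le, hχ, hcl', ?_⟩, ⟨S, hSc.isClosed, hSN.trans inter_subset_left, hoff⟩, hhull,
    ?_, ?_⟩
  · rw [e0]
    exact hcost (N ∩ N1) inter_subset_right ζ hζ
  · -- flat on the piece
    intro η hη
    refine ⟨O1, hO1, hPO1, fun q hq q' hq' => ?_⟩
    have h1 : χ' q = k := by simp only [hχ']; rw [hO1ζ q hq.1]; ring
    have h2 : χ' q' = k := by simp only [hχ']; rw [hO1ζ q' hq'.1]; ring
    rw [h1, h2, sub_self, abs_zero]; linarith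
  · -- growth
    intro x hx R hR b hb η hη
    obtain ⟨O2, hO2, hRO2, H2⟩ := hb (η / 2) (by linarith)
    obtain ⟨O3, hO3, hRO3, H3⟩ := ((hosc (cc E x) ⟨x, hx, rfl⟩).mono hMm).mono_set hR
      (η / (2 * (A + 1))) (by positivity)
    have hηA : η / (2 * (A + 1)) * A ≤ η / 2 := by
      rw [div_mul_eq_mul_div, div_le_div_iff₀ (by positivity) (by norm_num)]
      nlinarith
    refine ⟨O2 ∩ O3, hO2.inter hO3, subset_inter hRO2 hRO3, fun q hq q' hq' => ?_⟩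
    have h1 := H2 q ⟨hq.1.1, hq.2⟩ q' ⟨hq'.1.1, hq'.2⟩
    have h2 := H3 q ⟨hq.1.2, hq.2⟩ q' ⟨hq'.1.2, hq'.2⟩
    have e : (m + η / (2 * (A + 1))) * A = m * A + η / (2 * (A + 1)) * A := by ring
    have hA' : |χ q' - k| ≤ A := by rw [abs_sub_comm]; exact hA q'
    have h3 := abs_combo_le (a := χ q) (hζ.rg q).1 (hζ.rg q).2 h2 hA'
    simp only [hχ']
    linarith

/-- **(L1) of 722 #10642**: hairs which are components are treatable. -/
theorem treat_piece (hE : QPic E 𝒬 𝓗) {P : Set (ℝ × ℝ)} (hP0 : volume P = 0)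
    (hPQ : ∀ Q ∈ 𝒬, Disjoint Q.car P) (hS : SinO E 𝒬 𝓗 P) (h : ℝ × ℝ → ℝ)
    (sq : Set (Set (ℝ × ℝ))) :
    Spq_722.Treat Eᶜ E h (ClQ 𝓗) (DQ E 𝒬 𝓗) sq P := by
  intro χ c N ε η hχ hc _ hN hPN hε hη
  obtain ⟨C, hC⟩ := id hχ.2.2
  have hC0 : 0 ≤ C := (abs_nonneg _).trans (hC (0, 0))
  obtain ⟨k, hk, hkN⟩ : ∃ k : ℝ, |k| ≤ C ∧
      ∀ lo hi, (∀ q ∈ N ∩ Eᶜ, χ q ∈ Icc lo hi) → (N ∩ Eᶜ).Nonempty → k ∈ Icc lo hi := by
    by_cases hne : (N ∩ Eᶜ).Nonempty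
    · obtain ⟨q0, hq0⟩ := hne
      exact ⟨χ q0, hC q0, fun lo hi H _ => H q0 hq0⟩
    · exact ⟨0, by rwa [abs_zero], fun lo hi _ h => absurd h hne⟩
  have hA : ∀ q, |k - χ q| ≤ 2 * C := fun q => by
    have h1 := abs_sub k (χ q)
    have h2 := hC q
    linarith
  obtain ⟨χ', hD, hsup, hhull, hflat, hgr⟩ := flattenQ hE hP0 hPQ hS hχ hN hPN (k := k) (A := 2 * C)
    (m := η / (2 * C + 1)) (ε := ε) (by positivity) hε (by positivity) hA
  have hmA : η / (2 * C + 1) * (2 * C) ≤ η := by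
    rw [div_mul_eq_mul_div, div_le_iff₀ (by positivity)]
    nlinarith
  refine ⟨χ', hD, hD.2.2.1, hsup, ?_, hflat.mono (by linarith), ?_⟩
  · intro lo hi H q hq
    have h1 := hhull q lo hi (H q hq) (hkN lo hi H ⟨q, hq⟩)
    exact ⟨by linarith [h1.1], by linarith [h1.2]⟩
  · intro x hx _ R hR _ b hb
    exact (hgr x hx R hR b hb).mono (by linarith)

/-- **(L1) of 722 #10642** -/
theorem treat_hair (hE : QPic E 𝒬 𝓗) {K : Hair} (hKc : K.car ∈ Comps E)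
    (hS : SinO E 𝒬 𝓗 K.car) :
    Spq_722.Treat Eᶜ E Prod.snd (ClQ 𝓗) (DQ E 𝒬 𝓗) (Sqr.car '' 𝒬) K.car :=
  treat_piece hE K.volume_car (fun _ hQ => disj_of_comp hE hKc hQ) hS _ _

end Crest.Agent.R105.Trh_483
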