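import Crest.Agent.R105.Cln8_891
import Crest.Agent.R105.Laq5_744
import Crest.Agent.R105.Trh1_483
import Crest.Agent.R105.Snq3_925

/-!
Row 105 (S0138, picture with solids): inputs of the STEP from `PicS`, `SOLO`, `FAMQ` (137).
-/

set_option autoImplicit false

open Set Filter MeasureTheory Topology Metric

namespace Crest.Agent.R105.Adp_891

open CF_363 Stp_722 Cq_463 Nal_649 Exs_992 Laq4_744
open Crest.Agent.R105.Skp2_257 (Comps Lo Up)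

variable {E : Set (ℝ × ℝ)} {𝒬 : Set Sqr} {𝓗 : Set Hair}

/-- the setup of 722's STEP -/
theorem setup_any (hP : PicS E 𝒬 𝓗) (hF : SkT1_137.FAMQ E 𝒬 𝓗) {ρ : ℝ} (hρ : 0 < ρ) :
    Spq_722.SetupR Eᶜ E Prod.snd (HrQ E 𝒬 ρ) (ClQ 𝓗) (DQ E 𝒬 𝓗) ρ :=
  Laq5_744.setupR hP.q hρ fun _ _ _ hg hw => Fnc_189.layQ_nal hP.q hg (hF _ _ _ hg hw)

/-- free hairs -/
theorem treat_free (hP : PicS E 𝒬 𝓗) (hF : SkT1_137.FAMQ E 𝒬 𝓗) {K : Hair}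
    (hK : K.car ∈ Comps E) :
    Spq_722.Treat Eᶜ E Prod.snd (ClQ 𝓗) (DQ E 𝒬 𝓗) (Sqr.car '' 𝒬) K.car :=
  Trh_483.treat_hair hP.q hK (Snq_925.singleQ' hP.q hF hK)

/-- **every component of a picture with solids which is not a point can be treated** -/
theorem treat_any (hP : PicS E 𝒬 𝓗) (hS : SkT1_137.SOLO E 𝒬 𝓗) (hF : SkT1_137.FAMQ E 𝒬 𝓗)
    {P : Set (ℝ × ℝ)} (hPC : P ∈ Comps E) (hpt : ∀ p, P ≠ {p}) :
    Spq_722.Treat Eᶜ E Prod.snd (ClQ 𝓗) (DQ E 𝒬 𝓗) (Sqr.car '' 𝒬) P := by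
  rcases hP.comp P hPC with ⟨p, hp⟩ | ⟨K, -, hK⟩ | ⟨Q, hQ, hQP, -⟩
  · exact absurd hp (hpt p)
  · rw [hK] at hPC ⊢
    exact treat_free hP hF hPC
  · rw [SkT1_137.eq_comp hP.q hQ hPC hQP]
    exact Cln_891.treat_solo hP hS hQ

end Crest.Agent.R105.Adp_891
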