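import Crest.Agent.R105.Adp2_257

/-!
# Row 105, [B]: E-L on the picture side (`Skp4_257.ELP`), part 2
-/

namespace Crest.Agent.R105.Adp_257

open Set Filter MeasureTheory Topology
open Skp2_257 Skp3_257 Skp4_257 Ends_897 CF_363 Stp_722

variable {C : Set ℂ} {x0 φ : ℂ → ℝ} {b : ℕ → ℂ → ℝ} {p : ℂ → ℂ}

/-- Every generated function is the pull back of a generated planar function -/
theorem gen_push {ψ : ℝ × ℝ → ℝ} {a : ℂ → ℝ} (ha : ∀ z ∈ Cᶜ, ψ ((p z).re, (p z).im) = a z)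
    {S : Set (ℂ → ℝ)} (hS : ∀ u, IfB_641.Gen C S u → PlaS C p u) {u : ℂ → ℝ}
    (hu : IfB_641.Gen C (insert a S) u) :
    ∃ W, Skp2_257.Gen (insert ψ {b | Pl (EP C p) b}) W ∧
      ∀ z ∈ Cᶜ, W ((p z).re, (p z).im) = u z := by
  unfold IfB_641.Gen at hu
  induction hu with
  | const c => exact ⟨_, Gen.const c, fun _ _ => rfl⟩
  | @lc χ h =>
    obtain ⟨w, hw, hwe⟩ := hS χ (IfB_641.Gen.lc h)
    exact ⟨w, Gen.of w (Or.inr hw), hwe⟩
  | of i =>
    obtain ⟨s, hs⟩ := i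
    rcases hs with rfl | hs
    · exact ⟨ψ, Gen.of ψ (Or.inl rfl), ha⟩
    · obtain ⟨w, hw, hwe⟩ := hS s (IfB_641.Gen.of hs)
      exact ⟨w, Gen.of w (Or.inr hw), hwe⟩
  | add _ _ h1 h2 =>
    obtain ⟨W1, g1, e1⟩ := h1
    obtain ⟨W2, g2, e2⟩ := h2
    exact ⟨_, Gen.add W1 W2 g1 g2, fun z hz => by simp only []; rw [e1 z hz, e2 z hz]⟩
  | mul _ _ h1 h2 =>
    obtain ⟨W1, g1, e1⟩ := h1
    obtain ⟨W2, g2, e2⟩ := h2
    exact ⟨_, Gen.mul W1 W2 g1 g2, fun z hz => by simp only []; rw [e1 z hz, e2 z hz]⟩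
  | @comp u h K hh _ h1 =>
    obtain ⟨W1, g1, e1⟩ := h1
    exact ⟨_, Gen.comp h W1 ⟨K, hh⟩ g1, fun z hz => by simp only []; rw [e1 z hz]⟩

theorem iso_insert (hC : IsCompact C) (hU : Tra_937.Uni Cᶜ p) {ψ : ℝ × ℝ → ℝ} {a : ℂ → ℝ}
    (ha : ∀ z ∈ Cᶜ, ψ ((p z).re, (p z).im) = a z) {S : Set (ℂ → ℝ)}
    (hSq : ∀ s ∈ S, IfB_641.Q C s) (haq : IfB_641.Q C a)
    (hS : ∀ u, IfB_641.Gen C S u → PlaS C p u) (hiso : IsoPl (EP C p) ψ) :
    IfB_641.Iso C (insert a S) := by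
  intro u v hu hv
  obtain ⟨W, hW, hWe⟩ := gen_push ha hS hu
  obtain ⟨W', hW', hWe'⟩ := gen_push ha hS hv
  have hq : ∀ s ∈ insert a S, IfB_641.Q C s := by
    rintro s (rfl | hs)
    · exact haq
    · exact hSq s hs
  have h1 := (IfB_641.Gen.q hC.isClosed hq hu).loc
  have h2 := (IfB_641.Gen.q hC.isClosed hq hv).loc
  have h3 := om_eq hU hWe hWe' h1 h2
  exact h3.trans (hiso W W' hW hW')

theorem cc_symm (ζ : ℂ) (hζ : ζ ∉ p '' Cᶜ) :
    eC '' connectedComponentIn (EP C p) (eC.symm ζ) = connectedComponentIn (p '' Cᶜ)ᶜ ζ := by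
  have hq : eC.symm ζ ∈ EP C p := by
    change eC (eC.symm ζ) ∈ (p '' Cᶜ)ᶜ
    rw [eC.apply_symm_apply]; exact hζ
  rw [eC.image_connectedComponentIn hq, eC.apply_symm_apply, EP,
    image_preimage_eq _ eC.surjective]

theorem mem_comps (ζ : ℂ) (hζ : ζ ∉ p '' Cᶜ) :
    connectedComponentIn (EP C p) (eC.symm ζ) ∈ Comps (EP C p) := by
  refine ⟨eC.symm ζ, ?_, rfl⟩
  change eC (eC.symm ζ) ∈ (p '' Cᶜ)ᶜ
  rw [eC.apply_symm_apply]; exact hζ

theorem uni (h : IfB_641.Pk C x0 b φ) (hp : IfB_641.Cpl C x0 φ p) (hi : InjOn p Cᶜ) :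
    Tra_937.Uni Cᶜ p := ⟨h.td.cpt.isClosed.isOpen_compl, hp.hol, hi⟩

theorem t1_of (h : IfB_641.Pk C x0 b φ) (hp : IfB_641.Cpl C x0 φ p) (hi : InjOn p Cᶜ)
    {ψ : ℝ × ℝ → ℝ} (hψ : Honest (EP C p) ψ ∨ OneAtom (EP C p) ψ) :
    IfB_641.T1 C (Tra_937.pull Cᶜ p (Tra_937.toC ψ)) := by
  have hE := endMap h hp hi
  have hU := uni h hp hi
  have htd : IsTotallyDisconnected (Cᶜ)ᶜ := by rw [compl_compl]; exact h.td.td
  rcases hψ with hψ | hψ
  · left
    obtain ⟨hreg, hosc⟩ := hψ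
    obtain ⟨M, hM⟩ := hreg.bdd
    obtain ⟨g1, g2, g3, g4, -⟩ := Tra_937.pull_honest hE hU htd (locLip_push hreg.lip)
      (M := M) (fun w _ => hM _) (energy_push hreg.fin)
      (fun ζ hζ => exists_lim hE hζ (hosc _ (mem_comps ζ hζ)))
    exact ⟨g1, ⟨M, g2⟩, g3, g4⟩
  · right
    obtain ⟨hreg, K, ⟨q0, hq0, hK⟩, hosc⟩ := hψ
    obtain ⟨M, hM⟩ := hreg.bdd
    have hL := locLip_push hreg.lip
    have hζ0 : eC q0 ∉ p '' Cᶜ := hq0
    obtain ⟨z0, hz0, he0⟩ := hE.exists_end' hζ0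
    have hl : ∀ z ∉ Cᶜ, z ∉ ({z0} : Set ℂ) → ∀ ζ ∉ p '' Cᶜ,
        map p (eF Cᶜ z) = eF (p '' Cᶜ) ζ →
        ∃ c, Tendsto (Tra_937.toC ψ) (eF (p '' Cᶜ) ζ) (𝓝 c) := by
      intro z hz hzT ζ hζ he
      refine exists_lim hE hζ (hosc _ (mem_comps ζ hζ) fun hcc => hzT ?_)
      have e1 : connectedComponentIn (p '' Cᶜ)ᶜ ζ = connectedComponentIn (p '' Cᶜ)ᶜ (eC q0) := by
        rw [← cc_symm ζ hζ, hcc, hK, ← cc_symm (eC q0) hζ0, eC.symm_apply_apply]
      have e2 := eF_congr e1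
      rw [← he, ← he0] at e2
      have e3 := hE.map_injective hz e2
      rw [Tra_937.cc_point htd hz, Tra_937.cc_point htd hz0] at e3
      exact singleton_injective e3
    have hc := Tra_937.pull_continuousOn hE htd hL.continuousOn hl
    have hEq := Tra_937.pull_eq hE hL.continuousOn
    refine ⟨z0, by simpa using hz0, ⟨?_, ?_, ?_⟩, ?_⟩
    · refine ⟨max M |Tra_937.pull Cᶜ p (Tra_937.toC ψ) z0|, fun z => ?_⟩
      by_cases hz : z ∈ Cᶜ
      · rw [hEq hz]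
        exact (hM _).trans (le_max_left _ _)
      · by_cases hzz : z = z0
        · rw [hzz]; exact le_max_right _ _
        · obtain ⟨ζ, hζ, he⟩ := hE.exists_end hz
          obtain ⟨c, hcc⟩ := hl z hz hzz ζ hζ he
          rw [Tra_937.pull_at htd hz he hcc]
          have h0 : (eF (p '' Cᶜ) ζ).NeBot := eF_neBot hE.hV hζ
          exact (le_of_tendsto hcc.abs (Eventually.of_forall fun w => hM _)).trans
            (le_max_left _ _)
    · exact Tra_937.locLip_congr hEq.symm (hU.locLip_comp hL)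
    · have h1 := (hU.integrableOn_en hU.op.measurableSet subset_rfl (fun _ => 1)
        (Tra_937.ae_diff_of_locLip hU.isOpen_image hL)).2 (by simpa using energy_push hreg.fin)
      simp only [one_mul] at h1
      exact h1.congr_fun (fun z hz => (Tra_937.en_congr hU.op hEq hz).symm) hU.op.measurableSet
    · intro z hz
      exact (hc z hz).continuousAt (isOpen_compl_singleton.mem_nhds hz)

/-- **ELP** -/
theorem elp : ELP := by
  intro C x0 b φ p h hp hi hnull hS ψ hψ hiso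
  have hE := endMap h hp hi
  have hU := uni h hp hi
  have hreg : Reg (EP C p) ψ := by
    rcases hψ with h | h
    · exact h.1
    · exact h.1
  have hloc := locLip_push hreg.lip
  have hae : ∀ z ∈ Cᶜ, ψ ((p z).re, (p z).im) = Tra_937.pull Cᶜ p (Tra_937.toC ψ) z :=
    fun z hz => (Tra_937.pull_eq hE hloc.continuousOn hz).symm
  have hT := t1_of h hp hi hψ
  have hcs : HasCompactSupport (Tra_937.toC ψ) := by
    rw [Tra_937.toC_eq]
    exact hreg.cpt.comp_homeomorph Complex.equivRealProdCLM.toHomeomorph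
  have hcs' : HasCompactSupport (Tra_937.pull Cᶜ p (Tra_937.toC ψ)) :=
    Pic_442.compactSupport_of_comp hE hcs (fun z hz => (hae z hz).symm)
  obtain ⟨-, h2⟩ := Mid_987.Pk.el_cpt h hT hcs'
    (iso_insert h.td.cpt hU hae (Mid_987.Pk.q h) (Mid_987.T1.toQ hT) hS hiso)
  have h3 := Tra_937.integral_dot_re_pull hE hU (x := fun z => x0 z + φ z)
    (fun z hz => (hp.re z hz).symm) hloc
  have h4 : ∫ z in p '' Cᶜ, Tra_937.gx (Tra_937.toC ψ) z = ∫ q in (EP C p)ᶜ, gx ψ q := by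
    rw [← setC_EP_compl, ← Tra_937.integral_toC]
    refine integral_congr_ae (ae_of_all _ fun z => ?_)
    change Tra_937.gx (Tra_937.toC ψ) z = gx ψ (z.re, z.im)
    rw [gx_toC']
  rw [← h4, ← h3]
  exact h2

end Crest.Agent.R105.Adp_257
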