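import Crest.Agent.R105.Mq1_347

/-! Row 105, S0138, APS: increments of box means on squares. `O1` = pointwise bound of the increments
of a box mean `b` by the mean `H ε G` of the gradient (347's Mq2). Output: the oscillations of `b` on
the squares are square summable, with a bound by the integral of `H ε G ^ 2` over `NQ`. -/

open MeasureTheory Set Metric Filter Topology
open scoped ENNReal Function

namespace Crest.Agent.R105.Aps_187

open Crest.Agent.R105.Mq_347 (vol_cb H NQ measurableSet_NQ measurable_H card25 sub_box)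

noncomputable section

variable {ι : Type*} {c : ι → ℝ × ℝ} {h : ι → ℝ} {G : ℝ × ℝ → ℝ≥0∞} {ε : ℝ} {b : ℝ × ℝ → ℝ}
  {W : Set (ℝ × ℝ)}

/-- pointwise bound of the increments of a box mean -/
def O1 (W : Set (ℝ × ℝ)) (G : ℝ × ℝ → ℝ≥0∞) (ε : ℝ) (b : ℝ × ℝ → ℝ) : Prop :=
  ∀ z, closedBall z (3 * ε) ⊆ W → ∀ p ∈ closedBall z (2 * ε), ∀ q ∈ closedBall z (2 * ε),
    ENNReal.ofReal |b p - b q| ≤ H ε G z * ENNReal.ofReal (dist p q)

theorem mean_le {S : Set (ℝ × ℝ)} (hS : MeasurableSet S) {a k : ℝ≥0∞} {F : ℝ × ℝ → ℝ≥0∞}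
    (hF : Measurable F) (h : ∀ z ∈ S, a ≤ k * F z) : a * volume S ≤ k * ∫⁻ z in S, F z := by
  rw [← lintegral_const_mul _ hF, ← setLIntegral_const]
  exact setLIntegral_mono' hS h

/-- a box of half side `r` on which `a ≤ k H²` -/
theorem box_le (hG : Measurable G) {a : ℝ≥0∞} {w : ℝ × ℝ} {r : ℝ} (hr : 0 < r)
    (h : ∀ z ∈ closedBall w r, a ≤ ENNReal.ofReal (4 * r ^ 2) * H ε G z ^ 2) :
    a ≤ ∫⁻ z in closedBall w r, H ε G z ^ 2 := by
  have h0 : ENNReal.ofReal (4 * r ^ 2) ≠ 0 := by simp; positivity
  have h1 : ENNReal.ofReal (4 * r ^ 2) ≠ ∞ := ENNReal.ofReal_ne_top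
  have h2 := mean_le isClosed_closedBall.measurableSet ((measurable_H hG ε).pow_const 2) h
  rw [vol_cb w hr.le, mul_comm] at h2
  exact (ENNReal.mul_le_mul_iff_right h0 h1).mp h2

/-- a small square -/
theorem small (hb : O1 W G ε b) (hG : Measurable G) {w : ℝ × ℝ} {r : ℝ} (hr : 0 < r) (hi : r ≤ ε)
    (hW : ∀ z ∈ closedBall w r, closedBall z (3 * ε) ⊆ W) {p q : ℝ × ℝ}
    (hp : p ∈ closedBall w r) (hq : q ∈ closedBall w r) :
    ENNReal.ofReal |b p - b q| ^ 2 ≤ ∫⁻ z in closedBall w r, H ε G z ^ 2 := by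
  refine box_le hG hr fun z hz => ?_
  have hd : ∀ u ∈ closedBall w r, ∀ v ∈ closedBall w r, dist u v ≤ 2 * r := by
    intro u hu v hv
    rw [mem_closedBall] at hu hv
    have := dist_triangle_right u v w
    linarith
  have h1 := hb z (hW z hz) p (mem_closedBall.mpr ((hd p hp z hz).trans (by linarith))) q
    (mem_closedBall.mpr ((hd q hq z hz).trans (by linarith)))
  calc ENNReal.ofReal |b p - b q| ^ 2 ≤ (H ε G z * ENNReal.ofReal (dist p q)) ^ 2 := by gcongr
    _ ≤ (H ε G z * ENNReal.ofReal (2 * r)) ^ 2 := by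
        gcongr; exact hd p hp q hq
    _ = ENNReal.ofReal (4 * r ^ 2) * H ε G z ^ 2 := by
        rw [mul_pow, ← ENNReal.ofReal_pow (by positivity), show (2 * r) ^ 2 = 4 * r ^ 2 by ring,
          mul_comm]

/-- one step of length at most `ε` -/
theorem step (hb : O1 W G ε b) (hG : Measurable G) (hε : 0 < ε) {p q : ℝ × ℝ}
    (hW : closedBall p (4 * ε) ⊆ W) (hpq : dist p q ≤ ε) :
    ENNReal.ofReal |b p - b q| ^ 2 ≤ ∫⁻ z in closedBall p ε, H ε G z ^ 2 := by
  refine box_le hG hε fun z hz => ?_
  rw [mem_closedBall] at hz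
  have hzW : closedBall z (3 * ε) ⊆ W := by
    refine Subset.trans ?_ hW
    intro u hu
    rw [mem_closedBall] at hu ⊢
    have := dist_triangle u z p
    linarith
  have h1 := hb z hzW p (mem_closedBall.mpr (by rw [dist_comm]; linarith)) q
    (mem_closedBall.mpr (by
      have := dist_triangle q p z
      rw [dist_comm q p, dist_comm p z] at this
      linarith))
  calc ENNReal.ofReal |b p - b q| ^ 2 ≤ (H ε G z * ENNReal.ofReal (dist p q)) ^ 2 := by gcongr
    _ ≤ (H ε G z * ENNReal.ofReal ε) ^ 2 := by gcongr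
    _ = ENNReal.ofReal (ε ^ 2) * H ε G z ^ 2 := by
        rw [mul_pow, ← ENNReal.ofReal_pow hε.le, mul_comm]
    _ ≤ ENNReal.ofReal (4 * ε ^ 2) * H ε G z ^ 2 := by
        gcongr; nlinarith [sq_nonneg ε]

/-- the part of `NQ` that is used by the square `i` -/
def Nn (c : ι → ℝ × ℝ) (h : ι → ℝ) (ε : ℝ) (i : ι) : Set (ℝ × ℝ) :=
  if h i ≤ ε then closedBall (c i) (h i) else NQ c h ε ∩ closedBall (c i) (h i + ε)

theorem measurableSet_Nn [Countable ι] (i : ι) : MeasurableSet (Nn c h ε i) := by
  unfold Nn
  split_ifs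
  · exact isClosed_closedBall.measurableSet
  · exact (measurableSet_NQ c h ε).inter isClosed_closedBall.measurableSet

theorem Nn_sub (hd : Pairwise (Disjoint on fun i => closedBall (c i) (h i))) (hε : 0 < ε) (i : ι) :
    Nn c h ε i ⊆ NQ c h ε := by
  intro z hz
  unfold Nn at hz
  split_ifs at hz with hi
  · intro j hj
    have hne : i ≠ j := fun hij => absurd hi (not_le.mpr (hij ▸ hj))
    have : z ∉ closedBall (c j) (h j) := Set.disjoint_left.mp (hd hne) hz
    rw [mem_closedBall, not_le] at this
    linarith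
  · exact hz.1

/-- the overlap of the sets `Nn` is bounded -/
theorem tsum_Nn [Countable ι] (hd : Pairwise (Disjoint on fun i => closedBall (c i) (h i)))
    (hε : 0 < ε) (F : ℝ × ℝ → ℝ≥0∞) (hF : Measurable F) :
    ∑' i, ∫⁻ z in Nn c h ε i, F z ≤ 26 * ∫⁻ z in NQ c h ε, F z := by
  classical
  have e1 : ∀ i, ∫⁻ z in Nn c h ε i, F z = ∫⁻ z in NQ c h ε, (Nn c h ε i).indicator F z := by
    intro i
    rw [setLIntegral_indicator (measurableSet_Nn i), inter_eq_self_of_subset_left (Nn_sub hd hε i)]
  simp_rw [e1]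
  rw [← lintegral_tsum fun i => (hF.indicator (measurableSet_Nn i)).aemeasurable,
    ← lintegral_const_mul _ hF]
  refine lintegral_mono fun z => ?_
  have h1 : ∀ i, (Nn c h ε i).indicator F z ≤
      ((closedBall (c i) (h i)).indicator (fun _ => (1 : ℝ≥0∞)) z +
        {i | ε < h i ∧ (closedBall z (3 * ε) ∩ closedBall (c i) (h i)).Nonempty}.indicator
          (fun _ => (1 : ℝ≥0∞)) i) * F z := by
    intro i
    by_cases hz : z ∈ Nn c h ε i
    · rw [indicator_of_mem hz]
      unfold Nn at hz
      split_ifs at hz with hi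
      · rw [indicator_of_mem hz, add_mul, one_mul]
        exact le_self_add
      · have hm : i ∈ {i | ε < h i ∧ (closedBall z (3 * ε) ∩ closedBall (c i) (h i)).Nonempty} := by
          rw [not_le] at hi
          refine ⟨hi, ?_⟩
          have hz2 := hz.2
          rw [mem_closedBall] at hz2
          -- the point of the segment at distance `h i` from the centre
          have hh0 : 0 < h i := hε.trans hi
          have hh1 : 0 < h i + ε := by linarith
          refine ⟨c i + (h i / (h i + ε)) • (z - c i), ?_, ?_⟩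
          · rw [mem_closedBall, dist_eq_norm]
            have : c i + (h i / (h i + ε)) • (z - c i) - z = (-(ε / (h i + ε))) • (z - c i) := by
              have e : (h i / (h i + ε)) = 1 - ε / (h i + ε) := by field_simp; ring
              rw [e, sub_smul, one_smul, neg_smul]; abel
            rw [this, norm_smul, norm_neg, Real.norm_of_nonneg (by positivity), ← dist_eq_norm]
            calc ε / (h i + ε) * dist z (c i) ≤ ε / (h i + ε) * (h i + ε) := by gcongr
              _ = ε := by field_simp
              _ ≤ 3 * ε := by linarith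
          · rw [mem_closedBall, dist_eq_norm, add_sub_cancel_left, norm_smul,
              Real.norm_of_nonneg (by positivity), ← dist_eq_norm]
            calc h i / (h i + ε) * dist z (c i) ≤ h i / (h i + ε) * (h i + ε) := by gcongr
              _ = h i := by field_simp
        rw [indicator_of_mem hm, add_mul, one_mul]
        exact le_add_self
    · rw [indicator_of_notMem hz]; simp
  calc ∑' i, (Nn c h ε i).indicator F z
      ≤ ∑' i, ((closedBall (c i) (h i)).indicator (fun _ => (1 : ℝ≥0∞)) z +
        {i | ε < h i ∧ (closedBall z (3 * ε) ∩ closedBall (c i) (h i)).Nonempty}.indicator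
          (fun _ => (1 : ℝ≥0∞)) i) * F z := ENNReal.tsum_le_tsum h1
    _ = ((∑' i, (closedBall (c i) (h i)).indicator (fun _ => (1 : ℝ≥0∞)) z) +
        ∑' i, {i | ε < h i ∧ (closedBall z (3 * ε) ∩ closedBall (c i) (h i)).Nonempty}.indicator
          (fun _ => (1 : ℝ≥0∞)) i) * F z := by rw [ENNReal.tsum_mul_right, ENNReal.tsum_add]
    _ ≤ (1 + 25) * F z := by
        gcongr
        · by_cases hz : ∃ j, z ∈ closedBall (c j) (h j)
          · obtain ⟨j, hj⟩ := hz
            rw [tsum_eq_single j]
            · rw [indicator_of_mem hj]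
            · intro i hij
              exact indicator_of_notMem (Set.disjoint_right.mp (hd hij) hj) _
          · push Not at hz
            have : ∀ i, (closedBall (c i) (h i)).indicator (fun _ => (1 : ℝ≥0∞)) z = 0 :=
              fun i => indicator_of_notMem (hz i) _
            simp [this]
        · exact card25 hd hε z
    _ = 26 * F z := by norm_num

/-- **charges** -/
theorem charge (hb : O1 W G ε b) (hG : Measurable G) (hh : ∀ i, 0 < h i)
    (hd : Pairwise (Disjoint on fun i => closedBall (c i) (h i))) (hε : 0 < ε) {i : ι}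
    (hW : ∀ p ∈ closedBall (c i) (h i), closedBall p (4 * ε) ⊆ W) {o : ℝ≥0∞}
    (ho : ∀ p q, closedBall p ε ⊆ closedBall (c i) (h i) → closedBall q ε ⊆ closedBall (c i) (h i) →
      ENNReal.ofReal |b p - b q| ≤ o) {p q : ℝ × ℝ}
    (hp : p ∈ closedBall (c i) (h i)) (hq : q ∈ closedBall (c i) (h i)) :
    ENNReal.ofReal |b p - b q| ^ 2 ≤ 3 * o ^ 2 + 6 * ∫⁻ z in Nn c h ε i, H ε G z ^ 2 := by
  rcases le_or_gt (h i) ε with hi | hi
  · have h1 := small hb hG (hh i) hi (fun z hz => (closedBall_subset_closedBall (by linarith)).trans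
      (hW z hz)) hp hq
    have e : Nn c h ε i = closedBall (c i) (h i) := by unfold Nn; rw [if_pos hi]
    rw [e]
    refine h1.trans ?_
    calc ∫⁻ z in closedBall (c i) (h i), H ε G z ^ 2
        = 1 * ∫⁻ z in closedBall (c i) (h i), H ε G z ^ 2 := (one_mul _).symm
      _ ≤ 6 * ∫⁻ z in closedBall (c i) (h i), H ε G z ^ 2 := by gcongr; norm_num
      _ ≤ _ := le_add_self
  · have e : Nn c h ε i = NQ c h ε ∩ closedBall (c i) (h i + ε) := by
      unfold Nn; rw [if_neg (not_le.mpr hi)]
    have key : ∀ p ∈ closedBall (c i) (h i), ∃ w, closedBall w ε ⊆ closedBall (c i) (h i) ∧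
        ENNReal.ofReal |b p - b w| ^ 2 ≤ ∫⁻ z in Nn c h ε i, H ε G z ^ 2 := by
      intro p hp
      by_cases hpi : closedBall p ε ⊆ closedBall (c i) (h i)
      · exact ⟨p, hpi, by simp⟩
      · obtain ⟨w, hw1, hw2, -⟩ := sub_box hε hi hp
        refine ⟨w, hw1, ?_⟩
        refine (step hb hG hε (hW p hp) (by rw [dist_comm]; exact hw2)).trans ?_
        refine lintegral_mono_set ?_
        rw [e]
        have hpc : h i - ε < dist p (c i) := by
          by_contra hcon
          rw [not_lt] at hcon
          refine hpi fun u hu => ?_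
          rw [mem_closedBall] at hu ⊢
          have := dist_triangle u p (c i)
          linarith
        intro z hz
        rw [mem_closedBall] at hz
        refine ⟨fun j hj => ?_, ?_⟩
        · have hpz := dist_triangle p z (c j)
          rw [dist_comm p z] at hpz
          by_cases hij : i = j
          · subst hij
            linarith
          · have : p ∉ closedBall (c j) (h j) := Set.disjoint_left.mp (hd hij) hp
            rw [mem_closedBall, not_le] at this
            linarith
        · rw [mem_closedBall] at hp ⊢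
          have := dist_triangle z p (c i)
          linarith
    obtain ⟨w, hw1, hw2⟩ := key p hp
    obtain ⟨v, hv1, hv2⟩ := key q hq
    have h3 := ho w v hw1 hv1
    set I := ∫⁻ z in Nn c h ε i, H ε G z ^ 2
    have h4 : ENNReal.ofReal |b p - b q| ≤
        ENNReal.ofReal |b p - b w| + ENNReal.ofReal |b w - b v| + ENNReal.ofReal |b q - b v| := by
      rw [← ENNReal.ofReal_add (abs_nonneg _) (abs_nonneg _),
        ← ENNReal.ofReal_add (by positivity) (abs_nonneg _)]
      refine ENNReal.ofReal_le_ofReal ?_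
      have e1 : b p - b q = (b p - b w) + (b w - b v) + -(b q - b v) := by ring
      rw [e1]
      refine (abs_add_le _ _).trans ?_
      rw [abs_neg]
      gcongr
      exact abs_add_le _ _
    calc ENNReal.ofReal |b p - b q| ^ 2 ≤ (ENNReal.ofReal |b p - b w| +
          ENNReal.ofReal |b w - b v| + ENNReal.ofReal |b q - b v|) ^ 2 := by gcongr
      _ ≤ 3 * (ENNReal.ofReal |b p - b w| ^ 2 + ENNReal.ofReal |b w - b v| ^ 2 +
          ENNReal.ofReal |b q - b v| ^ 2) := Crest.Agent.R105.Mq_347.sq3 _ _ _
      _ ≤ 3 * (I + o ^ 2 + I) := by gcongr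
      _ = 3 * o ^ 2 + 6 * I := by ring

end

end Crest.Agent.R105.Aps_187
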