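import Crest.Agent.R105.Cq1_463

/-!
# Row 105 (S0138, picture with solids): squares, summability of the charges

`Sqr` = closed axis parallel square, `QPic E 𝒬 𝓗` = compact set `E` with its squares `𝒬` and
its cuttable hairs `𝓗`; charges `ch E W f Q = chg (Eᶜ ∩ W) (Q.car ∩ closure W) f`.
-/

set_option autoImplicit false

namespace Crest.Agent.R105.Cq_463

open Set Filter MeasureTheory Topology Metric
open Crest.Agent.R105.CF_363 Crest.Agent.R105.Stp_722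
open scoped ENNReal

/-- A closed axis parallel square `[x, x+s] × [y, y+s]`, `s > 0`. -/
@[ext] structure Sqr where
  x : ℝ
  y : ℝ
  s : ℝ
  hs : 0 < s

/-- The closed square. -/
def Sqr.car (Q : Sqr) : Set (ℝ × ℝ) := Icc Q.x (Q.x + Q.s) ×ˢ Icc Q.y (Q.y + Q.s)

theorem Sqr.mem_car {Q : Sqr} {p : ℝ × ℝ} :
    p ∈ Q.car ↔ (Q.x ≤ p.1 ∧ p.1 ≤ Q.x + Q.s) ∧ (Q.y ≤ p.2 ∧ p.2 ≤ Q.y + Q.s) := Iff.rfl

theorem Sqr.isCompact_car (Q : Sqr) : IsCompact Q.car := isCompact_Icc.prod isCompact_Icc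

theorem Sqr.convex_car (Q : Sqr) : Convex ℝ Q.car := (convex_Icc _ _).prod (convex_Icc _ _)

theorem Sqr.nonempty (Q : Sqr) : Q.car.Nonempty :=
  ⟨(Q.x, Q.y), ⟨le_rfl, by linarith [Q.hs]⟩, ⟨le_rfl, by linarith [Q.hs]⟩⟩

theorem Sqr.diam_le (Q : Sqr) : diam Q.car ≤ Q.s := by
  refine diam_le_of_forall_dist_le Q.hs.le fun p hp q hq => ?_
  obtain ⟨⟨a, b⟩, c, d⟩ := Sqr.mem_car.1 hp
  obtain ⟨⟨a', b'⟩, c', d'⟩ := Sqr.mem_car.1 hq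
  rw [Prod.dist_eq, Real.dist_eq, Real.dist_eq]
  refine max_le ?_ ?_ <;> rw [abs_le] <;> constructor <;> linarith

theorem Sqr.volume_car (Q : Sqr) : volume Q.car = ENNReal.ofReal (Q.s ^ 2) := by
  unfold Sqr.car
  rw [Measure.volume_eq_prod, Measure.prod_prod, Real.volume_Icc, Real.volume_Icc,
    show Q.x + Q.s - Q.x = Q.s by ring, show Q.y + Q.s - Q.y = Q.s by ring,
    ← ENNReal.ofReal_mul Q.hs.le, sq]

/-- The picture: compact set `E`, its squares, its cuttable hairs. Squares lie in different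
components of `E`, and `E` minus the squares is null. -/
structure QPic (E : Set (ℝ × ℝ)) (𝒬 : Set Sqr) (𝓗 : Set Hair) : Prop where
  cpt : IsCompact E
  sub : ∀ Q ∈ 𝒬, Q.car ⊆ E
  hsub : ∀ K ∈ 𝓗, K.car ⊆ E
  sep : ∀ P ⊆ E, IsPreconnected P → ∀ Q ∈ 𝒬, ∀ Q' ∈ 𝒬, (P ∩ Q.car).Nonempty →
    (P ∩ Q'.car).Nonempty → Q = Q'
  null : volume (E \ ⋃ Q ∈ 𝒬, Q.car) = 0

variable {E W : Set (ℝ × ℝ)} {𝒬 : Set Sqr} {𝓗 : Set Hair} {f g : ℝ × ℝ → ℝ}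

theorem QPic.disjoint (h : QPic E 𝒬 𝓗) : 𝒬.PairwiseDisjoint Sqr.car := by
  intro Q hQ Q' hQ' hne
  rw [Function.onFun, disjoint_iff_inter_eq_empty]
  by_contra hc
  obtain ⟨p, hp⟩ := nonempty_iff_ne_empty.2 hc
  exact hne (h.sep Q.car (h.sub Q hQ) Q.convex_car.isPreconnected Q hQ Q' hQ'
    ⟨p, hp.1, hp.1⟩ ⟨p, hp⟩)

theorem QPic.countable (h : QPic E 𝒬 𝓗) : 𝒬.Countable := by
  refine h.disjoint.countable_of_nonempty_interior fun Q _ => ?_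
  refine ⟨(Q.x + Q.s / 2, Q.y + Q.s / 2), ?_⟩
  have hs := Q.hs
  rw [Sqr.car, interior_prod_eq, interior_Icc, interior_Icc]
  exact ⟨⟨by linarith, by linarith⟩, ⟨by linarith, by linarith⟩⟩

theorem QPic.tsum_sq_le (h : QPic E 𝒬 𝓗) :
    ∑' Q : 𝒬, ENNReal.ofReal (Q.1.s ^ 2) ≤ volume E := by
  have hc := h.countable.to_subtype
  have h1 : volume (⋃ Q : 𝒬, Q.1.car) = ∑' Q : 𝒬, volume Q.1.car :=
    measure_iUnion (fun Q Q' hne => h.disjoint Q.2 Q'.2 (fun he => hne (Subtype.ext he)))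
      fun Q => Q.1.isCompact_car.measurableSet
  simp only [Sqr.volume_car] at h1
  rw [← h1]
  exact measure_mono (iUnion_subset fun Q => h.sub Q.1 Q.2)

theorem summable_of_tsum_ofReal {ι : Type*} {a : ι → ℝ} (h0 : ∀ i, 0 ≤ a i)
    (h : ∑' i, ENNReal.ofReal (a i) ≠ ∞) : Summable a := by
  have h1 : Summable fun i => (ENNReal.ofReal (a i)).toReal := ENNReal.summable_toReal h
  simpa only [ENNReal.toReal_ofReal (h0 _)] using h1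

theorem QPic.summable_sq (h : QPic E 𝒬 𝓗) : Summable fun Q : 𝒬 => Q.1.s ^ 2 :=
  summable_of_tsum_ofReal (fun _ => sq_nonneg _)
    (ne_top_of_le_ne_top h.cpt.measure_lt_top.ne h.tsum_sq_le)

/-- finitely many hairs touch only finitely many squares -/
theorem QPic.finite_touch (h : QPic E 𝒬 𝓗) {J : Finset Hair} (hJ : ∀ K ∈ J, K ∈ 𝓗) :
    {Q : 𝒬 | ¬ Disjoint Q.1.car (cut J)}.Finite := by
  classical
  have h1 : {Q : 𝒬 | ¬ Disjoint Q.1.car (cut J)} ⊆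
      ⋃ K ∈ J, {Q : 𝒬 | (K.car ∩ Q.1.car).Nonempty} := by
    intro Q hQ
    obtain ⟨p, hp, hpJ⟩ := not_disjoint_iff.1 hQ
    obtain ⟨K, hK, hpK⟩ := mem_cut.1 hpJ
    exact mem_iUnion₂.2 ⟨K, hK, ⟨p, hpK, hp⟩⟩
  refine (J.finite_toSet.biUnion fun K hK => ?_).subset h1
  refine Set.Subsingleton.finite fun Q hQ Q' hQ' => Subtype.ext ?_
  have hKc : IsPreconnected K.car := by
    rw [K.car_eq]; exact isPreconnected_singleton.prod isPreconnected_Icc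
  exact h.sep K.car (h.hsub K (hJ K hK)) hKc Q.1 Q.2 Q'.1 Q'.2 hQ hQ'

/-- the charge of `f` at the square `Q`, relative to the region `W` -/
noncomputable def ch (E W : Set (ℝ × ℝ)) (f : ℝ × ℝ → ℝ) (Q : Sqr) : ℝ :=
  chg (Eᶜ ∩ W) (Q.car ∩ closure W) f

theorem ch_nonneg (E W : Set (ℝ × ℝ)) (f : ℝ × ℝ → ℝ) (Q : Sqr) : 0 ≤ ch E W f Q :=
  chg_nonneg _ _ _

theorem isCompact_portion (Q : Sqr) (W : Set (ℝ × ℝ)) : IsCompact (Q.car ∩ closure W) :=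
  Q.isCompact_car.inter_right isClosed_closure

theorem compl_cut_of_V (hE : QPic E 𝒬 𝓗) {J : Finset Hair} (hJ : ∀ K ∈ J, K ∈ 𝓗)
    {p : ℝ × ℝ} (hp : p ∈ Eᶜ ∩ W) : p ∈ W \ cut J := by
  refine ⟨hp.2, fun hc => hp.1 ?_⟩
  obtain ⟨K, hK, hpK⟩ := mem_cut.1 hc
  exact h𝓗 K hK hpK
where
  h𝓗 (K : Hair) (hK : K ∈ J) : K.car ⊆ E := hE.hsub K (hJ K hK)

/-- a bound of `f` on `Eᶜ ∩ W` -/
theorem CFJ_bdd (hE : QPic E 𝒬 𝓗) (hf : CFJ 𝓗 W f) :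
    ∃ A : ℝ, 0 ≤ A ∧ ∀ p ∈ Eᶜ ∩ W, |f p| ≤ A := by
  obtain ⟨J, hJ, L, C, hL, h1, h2⟩ := hf
  exact ⟨max C 0, le_max_right _ _, fun p hp =>
    (h2 p (compl_cut_of_V hE hJ hp)).trans (le_max_left _ _)⟩

theorem CFJ.fin (hE : QPic E 𝒬 𝓗) (hf : CFJ 𝓗 W f) (P : Set (ℝ × ℝ)) :
    Fin (Eᶜ ∩ W) P f := by
  obtain ⟨A, -, hA⟩ := CFJ_bdd hE hf
  exact fin_of_bdd hA

/-- charges of squares that do not touch the cut -/
theorem ch_le_of_SL (hW : Convex ℝ W) {S : Set (ℝ × ℝ)} {L : ℝ} (hL : 0 ≤ L)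
    (h : SL (W \ S) L f) (hS : IsClosed S) {Q : Sqr} (hQ : Disjoint Q.car S) :
    ch E W f Q ≤ L * Q.s := by
  have h1 : OscLe (Eᶜ ∩ W) (Q.car ∩ closure W) f (L * diam (Q.car ∩ closure W)) :=
    SL_oscLe h hL hW hS inter_subset_right (isCompact_portion Q W)
      (Q.convex_car.inter hW.closure) (hQ.mono_left inter_subset_left)
  refine (chg_le (by have := diam_nonneg (s := Q.car ∩ closure W); positivity) h1).trans ?_
  gcongr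
  exact (diam_mono inter_subset_left Q.isCompact_car.isBounded).trans Q.diam_le

/-- **the charges are square summable** -/
theorem summable_ch (hE : QPic E 𝒬 𝓗) (hW : Convex ℝ W) (hf : CFJ 𝓗 W f) :
    Summable fun Q : 𝒬 => ch E W f Q ^ 2 := by
  obtain ⟨A, hA0, hA⟩ := CFJ_bdd hE hf
  obtain ⟨J, hJ, L, C, hL, h1, h2⟩ := hf
  have hfin := hE.finite_touch hJ
  have hs : Summable fun Q : 𝒬 => L ^ 2 * Q.1.s ^ 2 := hE.summable_sq.mul_left _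
  have hb : ∀ Q : 𝒬, Q ∉ hfin.toFinset → ch E W f Q ^ 2 ≤ L ^ 2 * Q.1.s ^ 2 := by
    intro Q hQ
    have hd : Disjoint Q.1.car (cut J) := by
      by_contra hc
      exact hQ (hfin.mem_toFinset.2 hc)
    have := ch_le_of_SL (E := E) hW hL h1 (isClosed_cut J) hd
    rw [← mul_pow]
    exact pow_le_pow_left₀ (ch_nonneg _ _ _ _) this 2
  exact Summable.of_norm_bounded_eventually hs (by
    filter_upwards [hfin.toFinset.finite_toSet.compl_mem_cofinite] with Q hQ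
    rw [Real.norm_of_nonneg (sq_nonneg _)]
    exact hb Q hQ)

/-- the total charge -/
noncomputable def Ch (E W : Set (ℝ × ℝ)) (𝒬 : Set Sqr) (f : ℝ × ℝ → ℝ) : ℝ :=
  ∑' Q : 𝒬, ch E W f Q ^ 2

theorem Ch_nonneg (E W : Set (ℝ × ℝ)) (𝒬 : Set Sqr) (f : ℝ × ℝ → ℝ) : 0 ≤ Ch E W 𝒬 f :=
  tsum_nonneg fun _ => sq_nonneg _

/-- the energy with the charges of the squares -/
noncomputable def TQ (E W : Set (ℝ × ℝ)) (𝒬 : Set Sqr) (f : ℝ × ℝ → ℝ) : ℝ :=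
  En (W \ E) f + Ch E W 𝒬 f

theorem TQ_nonneg (E W : Set (ℝ × ℝ)) (𝒬 : Set Sqr) (f : ℝ × ℝ → ℝ) : 0 ≤ TQ E W 𝒬 f :=
  add_nonneg (En_nonneg _ _) (Ch_nonneg _ _ _ _)

theorem En_le_TQ : En (W \ E) f ≤ TQ E W 𝒬 f := le_add_of_nonneg_right (Ch_nonneg _ _ _ _)

theorem Ch_le_TQ : Ch E W 𝒬 f ≤ TQ E W 𝒬 f := le_add_of_nonneg_left (En_nonneg _ _)

theorem ch_sq_le_Ch (hE : QPic E 𝒬 𝓗) (hW : Convex ℝ W) (hf : CFJ 𝓗 W f) {Q : Sqr}
    (hQ : Q ∈ 𝒬) : ch E W f Q ^ 2 ≤ Ch E W 𝒬 f :=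
  (summable_ch hE hW hf).le_tsum ⟨Q, hQ⟩ fun _ _ => sq_nonneg _

/-- comparison of total charges -/
theorem Ch_le_of_le (hE : QPic E 𝒬 𝓗) (hW : Convex ℝ W) {k : ℝ × ℝ → ℝ} (hk : CFJ 𝓗 W k)
    (hf : CFJ 𝓗 W f) (hg : CFJ 𝓗 W g) {a b : ℝ}
    (h : ∀ Q ∈ 𝒬, ch E W k Q ^ 2 ≤ a * ch E W f Q ^ 2 + b * ch E W g Q ^ 2) :
    Ch E W 𝒬 k ≤ a * Ch E W 𝒬 f + b * Ch E W 𝒬 g := by
  unfold Ch
  rw [← tsum_mul_left, ← tsum_mul_left,
    ← ((summable_ch hE hW hf).mul_left a).tsum_add ((summable_ch hE hW hg).mul_left b)]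
  exact Summable.tsum_le_tsum (fun Q => h Q.1 Q.2) (summable_ch hE hW hk)
    (((summable_ch hE hW hf).mul_left a).add ((summable_ch hE hW hg).mul_left b))

theorem Ch_max_le (hE : QPic E 𝒬 𝓗) (hW : Convex ℝ W) (hf : CFJ 𝓗 W f) (hg : CFJ 𝓗 W g) :
    Ch E W 𝒬 (fun q => max (f q) (g q)) ≤ Ch E W 𝒬 f + Ch E W 𝒬 g := by
  have := Ch_le_of_le hE hW (hf.max hg) hf hg (a := 1) (b := 1) (fun Q _ => by
    have h1 := chg_max (P := Q.car ∩ closure W) (CFJ.fin hE hf _) (CFJ.fin hE hg _)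
    have h2 := pow_le_pow_left₀ (chg_nonneg _ _ _) h1 2
    refine h2.trans ?_
    rcases le_total (chg (Eᶜ ∩ W) (Q.car ∩ closure W) f)
      (chg (Eᶜ ∩ W) (Q.car ∩ closure W) g) with h | h
    · rw [max_eq_right h, one_mul, one_mul]; exact le_add_of_nonneg_left (sq_nonneg _)
    · rw [max_eq_left h, one_mul, one_mul]; exact le_add_of_nonneg_right (sq_nonneg _))
  simpa using this

theorem Ch_min_le (hE : QPic E 𝒬 𝓗) (hW : Convex ℝ W) (hf : CFJ 𝓗 W f) (hg : CFJ 𝓗 W g) :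
    Ch E W 𝒬 (fun q => min (f q) (g q)) ≤ Ch E W 𝒬 f + Ch E W 𝒬 g := by
  have := Ch_le_of_le hE hW (hf.min hg) hf hg (a := 1) (b := 1) (fun Q _ => by
    have h1 := chg_min (P := Q.car ∩ closure W) (CFJ.fin hE hf _) (CFJ.fin hE hg _)
    have h2 := pow_le_pow_left₀ (chg_nonneg _ _ _) h1 2
    refine h2.trans ?_
    rcases le_total (chg (Eᶜ ∩ W) (Q.car ∩ closure W) f)
      (chg (Eᶜ ∩ W) (Q.car ∩ closure W) g) with h | h
    · rw [max_eq_right h, one_mul, one_mul]; exact le_add_of_nonneg_left (sq_nonneg _)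
    · rw [max_eq_left h, one_mul, one_mul]; exact le_add_of_nonneg_right (sq_nonneg _))
  simpa using this

theorem Ch_comp_le (hE : QPic E 𝒬 𝓗) (hW : Convex ℝ W) (hf : CFJ 𝓗 W f) {M : ℝ} (hM : 0 ≤ M)
    {G : ℝ → ℝ} (hG : ∀ s t, |G s - G t| ≤ M * |s - t|) :
    Ch E W 𝒬 (fun q => G (f q)) ≤ M ^ 2 * Ch E W 𝒬 f := by
  have := Ch_le_of_le hE hW (hf.comp hM hG) hf hf (a := M ^ 2) (b := 0) (fun Q _ => by
    have h1 := chg_comp (P := Q.car ∩ closure W) hM hG (CFJ.fin hE hf _)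
    have h2 := pow_le_pow_left₀ (chg_nonneg _ _ _) h1 2
    rw [zero_mul, add_zero]
    exact h2.trans_eq (mul_pow _ _ _))
  simpa using this

theorem Ch_convex (hE : QPic E 𝒬 𝓗) (hW : Convex ℝ W) (hf : CFJ 𝓗 W f) (hg : CFJ 𝓗 W g)
    {s t : ℝ} (hs : 0 ≤ s) (ht : 0 ≤ t) (hst : s + t = 1) :
    Ch E W 𝒬 (fun q => s * f q + t * g q) ≤ s * Ch E W 𝒬 f + t * Ch E W 𝒬 g := by
  refine Ch_le_of_le hE hW ((hf.const_mul s).add (hg.const_mul t)) hf hg (fun Q _ => ?_)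
  have h1 := chg_convex (P := Q.car ∩ closure W) hs ht (CFJ.fin hE hf _) (CFJ.fin hE hg _)
  have h2 := pow_le_pow_left₀ (chg_nonneg _ _ _) h1 2
  refine h2.trans ?_
  unfold ch
  set a := chg (Eᶜ ∩ W) (Q.car ∩ closure W) f
  set b := chg (Eᶜ ∩ W) (Q.car ∩ closure W) g
  have ht' : t = 1 - s := by linarith
  subst ht'
  nlinarith [mul_nonneg (mul_nonneg hs ht) (sq_nonneg (a - b))]

theorem Ch_add_le (hE : QPic E 𝒬 𝓗) (hW : Convex ℝ W) (hf : CFJ 𝓗 W f) (hg : CFJ 𝓗 W g) :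
    Ch E W 𝒬 (fun q => f q + g q) ≤ 2 * Ch E W 𝒬 f + 2 * Ch E W 𝒬 g := by
  refine Ch_le_of_le hE hW (hf.add hg) hf hg (fun Q _ => ?_)
  have h1 := chg_add (P := Q.car ∩ closure W) (CFJ.fin hE hf _) (CFJ.fin hE hg _)
  have h2 := pow_le_pow_left₀ (chg_nonneg _ _ _) h1 2
  refine h2.trans ?_
  unfold ch
  set a := chg (Eᶜ ∩ W) (Q.car ∩ closure W) f
  set b := chg (Eᶜ ∩ W) (Q.car ∩ closure W) g
  nlinarith [sq_nonneg (a - b)]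

theorem Ch_mul_le (hE : QPic E 𝒬 𝓗) (hW : Convex ℝ W) (hf : CFJ 𝓗 W f) (hg : CFJ 𝓗 W g)
    {A B : ℝ} (hA0 : 0 ≤ A) (hB0 : 0 ≤ B) (hA : ∀ p ∈ Eᶜ ∩ W, |f p| ≤ A)
    (hB : ∀ p ∈ Eᶜ ∩ W, |g p| ≤ B) :
    Ch E W 𝒬 (fun q => f q * g q) ≤ 2 * A ^ 2 * Ch E W 𝒬 g + 2 * B ^ 2 * Ch E W 𝒬 f := by
  rw [add_comm]
  refine Ch_le_of_le hE hW (hf.mul hg) hf hg (fun Q _ => ?_)
  have h1 := chg_mul (P := Q.car ∩ closure W) hA0 hB0 hA hB
  have h2 := pow_le_pow_left₀ (chg_nonneg _ _ _) h1 2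
  refine h2.trans ?_
  unfold ch
  set a := chg (Eᶜ ∩ W) (Q.car ∩ closure W) f
  set b := chg (Eᶜ ∩ W) (Q.car ∩ closure W) g
  nlinarith [sq_nonneg (B * a - A * b)]

end Crest.Agent.R105.Cq_463
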