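import Crest.Agent.R105.Aps1_187
import Crest.Agent.R105.Cq2_463

/-! Row 105, S0138, APS: energy, Lipschitz bounds and charges of box means, from `O1`. -/

set_option autoImplicit false

open MeasureTheory Set Metric Filter Topology
open scoped ENNReal Function NNReal

namespace Crest.Agent.R105.Aps_187

open Crest.Agent.R105.Mq_347 (vol_cb H NQ measurableSet_NQ measurable_H)
open Crest.Agent.R105.CF_363 Crest.Agent.R105.Stp_722 Crest.Agent.R105.Cq_463

noncomputable section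

variable {ι : Type*} {c : ι → ℝ × ℝ} {h : ι → ℝ} {G : ℝ × ℝ → ℝ≥0∞} {ε : ℝ} {b : ℝ × ℝ → ℝ}
  {W E : Set (ℝ × ℝ)}

theorem H_ne_top (hε : 0 < ε) (hG : ∫⁻ z, G z ≠ ∞) (z : ℝ × ℝ) :
    H ε G z ≤ (ENNReal.ofReal (ε ^ 2))⁻¹ * ∫⁻ z, G z ∧
      (ENNReal.ofReal (ε ^ 2))⁻¹ * ∫⁻ z, G z ≠ ∞ := by
  refine ⟨?_, ENNReal.mul_ne_top (ENNReal.inv_ne_top.mpr (by simp; positivity)) hG⟩
  unfold H
  gcongr
  exact Measure.restrict_le_self

/-- increments as a real inequality -/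
theorem inc_real (hb : O1 W G ε b) (hε : 0 < ε) (hG : ∫⁻ z, G z ≠ ∞) {z : ℝ × ℝ}
    (hz : closedBall z (3 * ε) ⊆ W) {p q : ℝ × ℝ} (hp : p ∈ closedBall z (2 * ε))
    (hq : q ∈ closedBall z (2 * ε)) : |b p - b q| ≤ (H ε G z).toReal * dist p q := by
  have h1 := hb z hz p hp q hq
  obtain ⟨h2, h3⟩ := H_ne_top hε hG z
  have h4 : H ε G z ≠ ∞ := ne_top_of_le_ne_top h3 h2
  rw [← ENNReal.ofReal_toReal h4, ← ENNReal.ofReal_mul ENNReal.toReal_nonneg] at h1
  exact (ENNReal.ofReal_le_ofReal_iff (by positivity)).mp h1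

theorem g2_bound (hb : O1 W G ε b) (hε : 0 < ε) (hG : ∫⁻ z, G z ≠ ∞) {z : ℝ × ℝ}
    (hz : closedBall z (3 * ε) ⊆ W) : ENNReal.ofReal (g2 b z) ≤ 2 * H ε G z ^ 2 := by
  set C : ℝ := (H ε G z).toReal with hC
  have hC0 : 0 ≤ C := ENNReal.toReal_nonneg
  have h1 : SL (ball z (2 * ε)) C b := by
    intro p q hpq
    exact inc_real hb hε hG hz (ball_subset_closedBall (hpq (left_mem_segment ℝ p q)))
      (ball_subset_closedBall (hpq (right_mem_segment ℝ p q)))
  have h2 := h1.g2_le isOpen_ball hC0 (mem_ball_self (by linarith))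
  have h4 : H ε G z ≠ ∞ := ne_top_of_le_ne_top (H_ne_top hε hG z).2 (H_ne_top hε hG z).1
  refine (ENNReal.ofReal_le_ofReal h2).trans (le_of_eq ?_)
  rw [ENNReal.ofReal_mul (by norm_num), ENNReal.ofReal_pow hC0, hC, ENNReal.ofReal_toReal h4]
  norm_num

/-- **the energy** on a set `S` that is inside `NQ` -/
theorem energy (hb : O1 W G ε b) (hε : 0 < ε) (hGm : Measurable G) (hG : ∫⁻ z, G z ≠ ∞)
    {S : Set (ℝ × ℝ)} (hSm : MeasurableSet S) (hS : S ⊆ NQ c h ε)
    (hW : ∀ z ∈ S, closedBall z (3 * ε) ⊆ W) {C : ℝ≥0∞}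
    (hC : ∫⁻ z in NQ c h ε, H ε G z ^ 2 ≤ C) (hC1 : C ≠ ∞) :
    ∫ p in S, g2 b p ≤ 2 * C.toReal := by
  have h1 : ∫⁻ z in S, ENNReal.ofReal (g2 b z) ≤ 2 * C := by
    calc ∫⁻ z in S, ENNReal.ofReal (g2 b z) ≤ ∫⁻ z in S, 2 * H ε G z ^ 2 :=
          setLIntegral_mono' hSm fun z hz => g2_bound hb hε hG (hW z hz)
      _ = 2 * ∫⁻ z in S, H ε G z ^ 2 := by
          rw [lintegral_const_mul _ ((measurable_H hGm ε).pow_const 2)]
      _ ≤ 2 * ∫⁻ z in NQ c h ε, H ε G z ^ 2 := by gcongr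
      _ ≤ 2 * C := by gcongr
  have hC2 : 2 * C ≠ ∞ := ENNReal.mul_ne_top (by norm_num) hC1
  have e : (2 * C).toReal = 2 * C.toReal := by rw [ENNReal.toReal_mul]; norm_num
  rw [← e]
  by_cases hi : IntegrableOn (g2 b) S
  · have h2 : ENNReal.ofReal (∫ p in S, g2 b p) ≤ 2 * C := by
      rw [ofReal_integral_eq_lintegral_ofReal hi (Eventually.of_forall fun p => g2_nonneg b p)]
      exact h1
    exact (ENNReal.ofReal_le_iff_le_toReal hC2).mp h2
  · rw [integral_undef hi]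
    exact ENNReal.toReal_nonneg

/-- `b` is Lipschitz on a neighbourhood of a compact set -/
theorem lip_nhd (hb : O1 W G ε b) (hε : 0 < ε) (hG : ∫⁻ z, G z ≠ ∞) {A : Set (ℝ × ℝ)}
    (hA : IsCompact A) (hW : ∀ z ∈ A, closedBall z (4 * ε) ⊆ W) :
    ∃ (O : Set (ℝ × ℝ)) (L : ℝ≥0), IsOpen O ∧ A ⊆ O ∧ LipschitzOnWith L b O := by
  set Hm : ℝ≥0∞ := (ENNReal.ofReal (ε ^ 2))⁻¹ * ∫⁻ z, G z with hHm
  have hHm1 : Hm ≠ ∞ := (H_ne_top hε hG 0).2
  set C : ℝ := Hm.toReal with hC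
  have hC0 : 0 ≤ C := ENNReal.toReal_nonneg
  set K := cthickening (ε / 2) A with hK
  have hKc : IsCompact K := hA.cthickening
  have hz3 : ∀ z ∈ K, closedBall z (3 * ε) ⊆ W := by
    intro z hz
    obtain ⟨a, ha, hza⟩ := hA.exists_infDist_eq_dist (by
      by_contra hne
      rw [not_nonempty_iff_eq_empty] at hne
      rw [hK, hne, cthickening_empty] at hz
      exact hz) z
    have hz2 : dist z a ≤ ε / 2 := by
      have hne : A.Nonempty := ⟨a, ha⟩
      have h1 : infDist z A ≤ ε / 2 := by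
        rw [hK, mem_cthickening_iff] at hz
        unfold infDist
        exact ENNReal.toReal_le_of_le_ofReal (by positivity) hz
      rwa [hza] at h1
    intro u hu
    refine hW a ha ?_
    rw [mem_closedBall] at hu ⊢
    have := dist_triangle u z a
    linarith
  have hloc : ∀ p ∈ K, ∀ q, dist p q ≤ 2 * ε → |b p - b q| ≤ C * dist p q := by
    intro p hp q hpq
    have h1 := inc_real hb hε hG (hz3 p hp) (mem_closedBall_self (by linarith))
      (q := q) (mem_closedBall.mpr (by rw [dist_comm]; exact hpq))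
    refine h1.trans ?_
    have h2 : (H ε G p).toReal ≤ C := ENNReal.toReal_mono hHm1 (H_ne_top hε hG p).1
    gcongr
  have hcont : ContinuousOn b K := by
    intro p hp
    refine ContinuousAt.continuousWithinAt ?_
    rw [Metric.continuousAt_iff]
    intro δ hδ
    refine ⟨min (2 * ε) (δ / (C + 1)), by positivity, fun {q} hq => ?_⟩
    rw [lt_min_iff] at hq
    rw [Real.dist_eq, abs_sub_comm]
    have h1 := hloc p hp q (by rw [dist_comm]; exact hq.1.le)
    refine h1.trans_lt ?_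
    calc C * dist p q ≤ (C + 1) * dist q p := by rw [dist_comm p q]; gcongr; linarith
      _ < (C + 1) * (δ / (C + 1)) := by gcongr; exact hq.2
      _ = δ := by field_simp
  obtain ⟨B, hB⟩ := hKc.exists_bound_of_continuousOn hcont
  have hB0 : ∀ p ∈ K, |b p| ≤ |B| := fun p hp => by
    have := hB p hp
    rw [Real.norm_eq_abs] at this
    exact this.trans (le_abs_self B)
  refine ⟨thickening (ε / 2) A, ⟨C + |B| / ε, by positivity⟩, isOpen_thickening,
    self_subset_thickening (by positivity) A, LipschitzOnWith.of_dist_le_mul fun p hp q hq => ?_⟩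
  have hp' : p ∈ K := thickening_subset_cthickening _ _ hp
  have hq' : q ∈ K := thickening_subset_cthickening _ _ hq
  rw [Real.dist_eq]
  change _ ≤ (C + |B| / ε) * dist p q
  rcases le_or_gt (dist p q) (2 * ε) with hd | hd
  · refine (hloc p hp' q hd).trans ?_
    have : 0 ≤ |B| / ε := by positivity
    gcongr
    linarith
  · have h1 : |b p - b q| ≤ |B| + |B| := (abs_sub _ _).trans (add_le_add (hB0 p hp') (hB0 q hq'))
    refine h1.trans ?_
    have h2 : |B| + |B| ≤ |B| / ε * dist p q := by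
      calc |B| + |B| = |B| / ε * (2 * ε) := by field_simp; ring
        _ ≤ _ := by gcongr
    have h3 : 0 ≤ C * dist p q := by positivity
    linarith

/-- **all charges together** -/
theorem charges [Countable ι] (hb : O1 W G ε b) (hG : Measurable G) (hh : ∀ i, 0 < h i)
    (hd : Pairwise (Disjoint on fun i => closedBall (c i) (h i))) (hε : 0 < ε) {o : ι → ℝ≥0∞}
    {C : ℝ≥0∞} (hC : ∫⁻ z in NQ c h ε, H ε G z ^ 2 ≤ C) (hC1 : C ≠ ∞) (ho1 : ∑' i, o i ^ 2 ≠ ∞)
    (I : Set ι) (hW : ∀ i ∈ I, ∀ p ∈ closedBall (c i) (h i), closedBall p (4 * ε) ⊆ W)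
    (ho : ∀ i ∈ I, ∀ p q, closedBall p ε ⊆ closedBall (c i) (h i) →
      closedBall q ε ⊆ closedBall (c i) (h i) → ENNReal.ofReal |b p - b q| ≤ o i) :
    ∃ σ : ι → ℝ, (∀ i ∈ I, ∀ p ∈ closedBall (c i) (h i), ∀ q ∈ closedBall (c i) (h i),
      |b p - b q| ≤ σ i) ∧ ∀ t : Finset ι, ∑ i ∈ t, σ i ^ 2 ≤
        (3 * (∑' i, o i ^ 2) + 156 * C).toReal := by
  set B : ι → ℝ≥0∞ := fun i => 3 * o i ^ 2 + 6 * ∫⁻ z in Nn c h ε i, H ε G z ^ 2 with hB
  have hsum : ∑' i, B i ≤ 3 * (∑' i, o i ^ 2) + 156 * C := by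
    rw [hB, ENNReal.tsum_add, ENNReal.tsum_mul_left, ENNReal.tsum_mul_left]
    have := tsum_Nn (c := c) (h := h) hd hε (fun z => H ε G z ^ 2)
      ((measurable_H hG ε).pow_const 2)
    calc _ ≤ 3 * (∑' i, o i ^ 2) + 6 * (26 * ∫⁻ z in NQ c h ε, H ε G z ^ 2) := by gcongr
      _ ≤ 3 * (∑' i, o i ^ 2) + 6 * (26 * C) := by gcongr
      _ = _ := by ring
  have htop : 3 * (∑' i, o i ^ 2) + 156 * C ≠ ∞ :=
    ENNReal.add_ne_top.mpr ⟨ENNReal.mul_ne_top (by norm_num) ho1,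
      ENNReal.mul_ne_top (by norm_num) hC1⟩
  have hBi : ∀ i, B i ≠ ∞ := fun i =>
    ne_top_of_le_ne_top htop ((ENNReal.le_tsum i).trans hsum)
  refine ⟨fun i => Real.sqrt (B i).toReal, fun i hi p hp q hq => ?_, fun t => ?_⟩
  · have h1 := charge hb hG hh hd hε (hW i hi) (ho i hi) hp hq
    rw [← ENNReal.ofReal_pow (abs_nonneg _)] at h1
    exact Real.le_sqrt_of_sq_le ((ENNReal.ofReal_le_iff_le_toReal (hBi i)).mp h1)
  · have e : ∀ i ∈ t, Real.sqrt (B i).toReal ^ 2 = (B i).toReal := fun i _ =>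
      Real.sq_sqrt ENNReal.toReal_nonneg
    rw [Finset.sum_congr rfl e, ← ENNReal.toReal_sum fun i _ => hBi i]
    exact ENNReal.toReal_mono htop ((ENNReal.sum_le_tsum t).trans hsum)

end

end Crest.Agent.R105.Aps_187
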