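import Crest.Agent.R105.Mq1_347

/-! Row 105, S0138, NI-10: MOLLQ, part B: the box mean of a function with line formulas. -/

open MeasureTheory Set Metric Filter Topology
open scoped ENNReal Function

namespace Crest.Agent.R105.Mq_347

noncomputable section

/-- box mean -/
def bm (ε : ℝ) (ψ : ℝ × ℝ → ℝ) (p : ℝ × ℝ) : ℝ := (4 * ε ^ 2)⁻¹ * ∫ u in closedBall p ε, ψ u

/-- line formulas off the complement of `W`: `ψ` on vertical, `Ψ` on horizontal lines -/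
structure LineB (W : Set (ℝ × ℝ)) (ψ Ψ : ℝ × ℝ → ℝ) (G : ℝ × ℝ → ℝ≥0∞) : Prop where
  H : ∀ᵐ y : ℝ, ∀ x x', x ≤ x' → (∀ s ∈ Icc x x', (s, y) ∈ W) →
    ‖Ψ (x', y) - Ψ (x, y)‖ₑ ≤ ∫⁻ s in Icc x x', G (s, y)
  V : ∀ᵐ x : ℝ, ∀ y y', y ≤ y' → (∀ t ∈ Icc y y', (x, t) ∈ W) →
    ‖ψ (x, y') - ψ (x, y)‖ₑ ≤ ∫⁻ t in Icc y y', G (x, t)
  E : ∀ᵐ p : ℝ × ℝ, p ∈ W → Ψ p = ψ p

theorem ae_fst' {Q : ℝ → Prop} (h : ∀ᵐ x : ℝ, Q x) : ∀ᵐ p : ℝ × ℝ, Q p.1 := by
  rw [Measure.volume_eq_prod]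
  exact Measure.quasiMeasurePreserving_fst.ae h

theorem ae_snd' {Q : ℝ → Prop} (h : ∀ᵐ x : ℝ, Q x) : ∀ᵐ p : ℝ × ℝ, Q p.2 := by
  rw [Measure.volume_eq_prod]
  exact Measure.quasiMeasurePreserving_snd.ae h

theorem lint_shift (G : ℝ × ℝ → ℝ≥0∞) (p v : ℝ × ℝ) (ε : ℝ) :
    ∫⁻ u in closedBall p ε, G (u + v) = ∫⁻ u in closedBall (p + v) ε, G u := by
  rw [← lintegral_indicator isClosed_closedBall.measurableSet,
    ← lintegral_indicator isClosed_closedBall.measurableSet,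
    ← lintegral_add_right_eq_self ((closedBall (p + v) ε).indicator fun u => G u) v]
  congr 1; ext u
  simp only [indicator, mem_closedBall, dist_add_right]

theorem int_shift (ψ : ℝ × ℝ → ℝ) (p v : ℝ × ℝ) (ε : ℝ) :
    ∫ u in closedBall p ε, ψ (u + v) = ∫ u in closedBall (p + v) ε, ψ u := by
  rw [← integral_indicator isClosed_closedBall.measurableSet,
    ← integral_indicator isClosed_closedBall.measurableSet,
    ← integral_add_right_eq_self ((closedBall (p + v) ε).indicator fun u => ψ u) v]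
  congr 1; ext u
  simp only [indicator, mem_closedBall, dist_add_right]

theorem intOn_shift {ψ : ℝ × ℝ → ℝ} {p v : ℝ × ℝ} {ε : ℝ}
    (h : IntegrableOn ψ (closedBall (p + v) ε)) :
    IntegrableOn (fun u => ψ (u + v)) (closedBall p ε) := by
  rw [← integrable_indicator_iff isClosed_closedBall.measurableSet] at h ⊢
  have := h.comp_add_right v
  refine this.congr (Eventually.of_forall fun u => ?_)
  simp only [indicator, mem_closedBall, dist_add_right]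

/-- shift of the mean in a direction -/
theorem shift_le {G : ℝ × ℝ → ℝ≥0∞} (hG : Measurable G) {φ : ℝ × ℝ → ℝ} {e p z : ℝ × ℝ}
    {t ε : ℝ} (h : ∀ᵐ u : ℝ × ℝ, u ∈ closedBall p ε →
      ‖φ (u + t • e) - φ u‖ₑ ≤ ∫⁻ r in Icc 0 t, G (u + r • e))
    (hr : ∀ r ∈ Icc 0 t, closedBall (p + r • e) ε ⊆ closedBall z (3 * ε)) :
    ∫⁻ u in closedBall p ε, ‖φ (u + t • e) - φ u‖ₑ ≤
      ENNReal.ofReal t * ∫⁻ u in closedBall z (3 * ε), G u := by
  have hm : Measurable fun x : (ℝ × ℝ) × ℝ => G (x.1 + x.2 • e) :=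
    hG.comp (measurable_fst.add (measurable_snd.smul_const e))
  calc ∫⁻ u in closedBall p ε, ‖φ (u + t • e) - φ u‖ₑ
      ≤ ∫⁻ u in closedBall p ε, ∫⁻ r in Icc 0 t, G (u + r • e) := by
        refine lintegral_mono_ae ?_
        rw [ae_restrict_iff' isClosed_closedBall.measurableSet]
        exact h
    _ = ∫⁻ r in Icc 0 t, ∫⁻ u in closedBall p ε, G (u + r • e) :=
        lintegral_lintegral_swap hm.aemeasurable
    _ ≤ ∫⁻ r in Icc 0 t, ∫⁻ u in closedBall z (3 * ε), G u := by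
        refine setLIntegral_mono' measurableSet_Icc fun r hrI => ?_
        rw [lint_shift]
        exact lintegral_mono_set (hr r hrI)
    _ = _ := by
        rw [lintegral_const, Measure.restrict_apply_univ, Real.volume_Icc, sub_zero, mul_comm]

theorem bm_sub {ψ : ℝ × ℝ → ℝ} {p v : ℝ × ℝ} {ε : ℝ} (h1 : IntegrableOn ψ (closedBall p ε))
    (h2 : IntegrableOn ψ (closedBall (p + v) ε)) :
    bm ε ψ (p + v) - bm ε ψ p = (4 * ε ^ 2)⁻¹ * ∫ u in closedBall p ε, (ψ (u + v) - ψ u) := by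
  unfold bm
  rw [integral_sub (intOn_shift h2) h1, int_shift]; ring

theorem bm_sub_le {ψ : ℝ × ℝ → ℝ} {p v : ℝ × ℝ} {ε : ℝ}
    (h1 : IntegrableOn ψ (closedBall p ε)) (h2 : IntegrableOn ψ (closedBall (p + v) ε))
    {M : ℝ≥0∞} (hM : ∫⁻ u in closedBall p ε, ‖ψ (u + v) - ψ u‖ₑ ≤ M) :
    ‖bm ε ψ (p + v) - bm ε ψ p‖ₑ ≤ ENNReal.ofReal ((4 * ε ^ 2)⁻¹) * M := by
  rw [bm_sub h1 h2, enorm_mul]
  have e1 : ‖(4 * ε ^ 2)⁻¹‖ₑ = ENNReal.ofReal ((4 * ε ^ 2)⁻¹) :=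
    Real.enorm_of_nonneg (by positivity)
  rw [e1]
  gcongr
  exact (enorm_integral_le_lintegral_enorm _).trans hM

theorem bm_congr {ψ Ψ : ℝ × ℝ → ℝ} {p : ℝ × ℝ} {ε : ℝ} {W : Set (ℝ × ℝ)}
    (hE : ∀ᵐ p : ℝ × ℝ, p ∈ W → Ψ p = ψ p) (hp : closedBall p ε ⊆ W) :
    bm ε Ψ p = bm ε ψ p := by
  unfold bm
  congr 1
  refine setIntegral_congr_ae isClosed_closedBall.measurableSet ?_
  filter_upwards [hE] with u hu hup using hu (hp hup)

variable {W : Set (ℝ × ℝ)} {ψ Ψ : ℝ × ℝ → ℝ} {G : ℝ × ℝ → ℝ≥0∞} {ε : ℝ}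

theorem lint_Icc_shift (g : ℝ → ℝ≥0∞) (x t : ℝ) :
    ∫⁻ s in Icc x (x + t), g s = ∫⁻ r in Icc 0 t, g (x + r) := by
  rw [← lintegral_indicator measurableSet_Icc, ← lintegral_indicator measurableSet_Icc,
    ← lintegral_add_left_eq_self _ x]
  congr 1; ext u
  by_cases hu : u ∈ Icc 0 t
  · rw [indicator_of_mem hu, indicator_of_mem]
    exact ⟨by linarith [hu.1], by linarith [hu.2]⟩
  · rw [indicator_of_notMem hu, indicator_of_notMem]
    exact fun hc => hu ⟨by linarith [hc.1], by linarith [hc.2]⟩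

/-- horizontal shift -/
theorem bm_h (L : LineB W ψ Ψ G) (hG : Measurable G) {p z : ℝ × ℝ} {t : ℝ} (ht : 0 ≤ t)
    (hz : closedBall z (3 * ε) ⊆ W) (hi : IntegrableOn ψ (closedBall z (3 * ε)))
    (hr : ∀ r ∈ Icc 0 t, closedBall (p + r • ((1, 0) : ℝ × ℝ)) ε ⊆ closedBall z (3 * ε)) :
    ‖bm ε ψ (p + t • ((1, 0) : ℝ × ℝ)) - bm ε ψ p‖ₑ ≤
      ENNReal.ofReal ((4 * ε ^ 2)⁻¹) * (ENNReal.ofReal t * ∫⁻ u in closedBall z (3 * ε), G u) := by
  have hp0 : closedBall p ε ⊆ closedBall z (3 * ε) := by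
    have := hr 0 ⟨le_rfl, ht⟩
    rwa [zero_smul, add_zero] at this
  have hpt := hr t ⟨ht, le_rfl⟩
  have e0 : bm ε Ψ p = bm ε ψ p := bm_congr L.E (hp0.trans hz)
  have e1 : bm ε Ψ (p + t • ((1, 0) : ℝ × ℝ)) = bm ε ψ (p + t • ((1, 0) : ℝ × ℝ)) :=
    bm_congr L.E (hpt.trans hz)
  have hi' : IntegrableOn Ψ (closedBall z (3 * ε)) := by
    refine hi.congr ?_
    rw [EventuallyEq, ae_restrict_iff' isClosed_closedBall.measurableSet]
    filter_upwards [L.E] with u hu huz using (hu (hz huz)).symm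
  rw [← e0, ← e1]
  refine bm_sub_le (hi'.mono_set hp0) (hi'.mono_set hpt) (shift_le hG ?_ hr)
  filter_upwards [ae_snd' L.H] with u hu hup
  have h1 : u + t • ((1, 0) : ℝ × ℝ) = (u.1 + t, u.2) := by ext <;> simp
  have h2 : ∀ r : ℝ, u + r • ((1, 0) : ℝ × ℝ) = (u.1 + r, u.2) := fun r => by ext <;> simp
  have h3 := hu u.1 (u.1 + t) (by linarith) (by
    intro s hs
    have hm : u + (s - u.1) • ((1, 0) : ℝ × ℝ) ∈ closedBall (p + (s - u.1) • ((1, 0) : ℝ × ℝ)) ε := by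
      rw [mem_closedBall, dist_add_right]; exact hup
    have := hz (hr (s - u.1) ⟨by linarith [hs.1], by linarith [hs.2]⟩ hm)
    rwa [h2, add_sub_cancel] at this)
  rw [h1]
  refine h3.trans (le_of_eq ?_)
  rw [lint_Icc_shift]
  simp only [h2]

/-- vertical shift -/
theorem bm_v (L : LineB W ψ Ψ G) (hG : Measurable G) {p z : ℝ × ℝ} {t : ℝ} (ht : 0 ≤ t)
    (hz : closedBall z (3 * ε) ⊆ W) (hi : IntegrableOn ψ (closedBall z (3 * ε)))
    (hr : ∀ r ∈ Icc 0 t, closedBall (p + r • ((0, 1) : ℝ × ℝ)) ε ⊆ closedBall z (3 * ε)) :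
    ‖bm ε ψ (p + t • ((0, 1) : ℝ × ℝ)) - bm ε ψ p‖ₑ ≤
      ENNReal.ofReal ((4 * ε ^ 2)⁻¹) * (ENNReal.ofReal t * ∫⁻ u in closedBall z (3 * ε), G u) := by
  have hp0 : closedBall p ε ⊆ closedBall z (3 * ε) := by
    have := hr 0 ⟨le_rfl, ht⟩
    rwa [zero_smul, add_zero] at this
  have hpt := hr t ⟨ht, le_rfl⟩
  refine bm_sub_le (hi.mono_set hp0) (hi.mono_set hpt) (shift_le hG ?_ hr)
  filter_upwards [ae_fst' L.V] with u hu hup
  have h1 : u + t • ((0, 1) : ℝ × ℝ) = (u.1, u.2 + t) := by ext <;> simp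
  have h2 : ∀ r : ℝ, u + r • ((0, 1) : ℝ × ℝ) = (u.1, u.2 + r) := fun r => by ext <;> simp
  have h3 := hu u.2 (u.2 + t) (by linarith) (by
    intro s hs
    have hm : u + (s - u.2) • ((0, 1) : ℝ × ℝ) ∈ closedBall (p + (s - u.2) • ((0, 1) : ℝ × ℝ)) ε := by
      rw [mem_closedBall, dist_add_right]; exact hup
    have := hz (hr (s - u.2) ⟨by linarith [hs.1], by linarith [hs.2]⟩ hm)
    rwa [h2, add_sub_cancel] at this)
  rw [h1]
  refine h3.trans (le_of_eq ?_)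
  rw [lint_Icc_shift]
  simp only [h2]

theorem cb_cb {p z : ℝ × ℝ} {ε : ℝ} (hp : p ∈ closedBall z (2 * ε)) :
    closedBall p ε ⊆ closedBall z (3 * ε) :=
  closedBall_subset_closedBall' (by rw [mem_closedBall] at hp; linarith)

theorem mem_cb_iff {p z : ℝ × ℝ} {r : ℝ} :
    p ∈ closedBall z r ↔ |p.1 - z.1| ≤ r ∧ |p.2 - z.2| ≤ r := by
  rw [mem_closedBall, Prod.dist_eq, max_le_iff, Real.dist_eq, Real.dist_eq]

/-- (O1), horizontal -/
theorem O1h (L : LineB W ψ Ψ G) (hG : Measurable G) {z : ℝ × ℝ} {x x' y : ℝ}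
    (hz : closedBall z (3 * ε) ⊆ W) (hi : IntegrableOn ψ (closedBall z (3 * ε)))
    (hp : ((x, y) : ℝ × ℝ) ∈ closedBall z (2 * ε)) (hp' : ((x', y) : ℝ × ℝ) ∈ closedBall z (2 * ε)) :
    ‖bm ε ψ (x', y) - bm ε ψ (x, y)‖ₑ ≤
      ENNReal.ofReal ((4 * ε ^ 2)⁻¹) *
        (ENNReal.ofReal |x' - x| * ∫⁻ u in closedBall z (3 * ε), G u) := by
  wlog hxx : x ≤ x' generalizing x x'
  · have := this hp' hp (le_of_not_ge hxx)
    rwa [← enorm_neg, neg_sub, abs_sub_comm] at this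
  have e1 : ((x, y) : ℝ × ℝ) + (x' - x) • ((1, 0) : ℝ × ℝ) = (x', y) := by ext <;> simp
  rw [← e1, abs_of_nonneg (by linarith)]
  refine bm_h L hG (by linarith) hz hi fun r hr => cb_cb ?_
  have e2 : ((x, y) : ℝ × ℝ) + r • ((1, 0) : ℝ × ℝ) = (x + r, y) := by ext <;> simp
  rw [e2]
  rw [mem_cb_iff] at hp hp' ⊢
  refine ⟨?_, hp.2⟩
  have h1 := abs_le.mp hp.1
  have h2 := abs_le.mp hp'.1
  simp only at h1 h2 ⊢
  rw [abs_le]
  constructor <;> linarith [hr.1, hr.2]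

/-- (O1), vertical -/
theorem O1v (L : LineB W ψ Ψ G) (hG : Measurable G) {z : ℝ × ℝ} {x y y' : ℝ}
    (hz : closedBall z (3 * ε) ⊆ W) (hi : IntegrableOn ψ (closedBall z (3 * ε)))
    (hp : ((x, y) : ℝ × ℝ) ∈ closedBall z (2 * ε)) (hp' : ((x, y') : ℝ × ℝ) ∈ closedBall z (2 * ε)) :
    ‖bm ε ψ (x, y') - bm ε ψ (x, y)‖ₑ ≤
      ENNReal.ofReal ((4 * ε ^ 2)⁻¹) *
        (ENNReal.ofReal |y' - y| * ∫⁻ u in closedBall z (3 * ε), G u) := by
  wlog hxx : y ≤ y' generalizing y y'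
  · have := this hp' hp (le_of_not_ge hxx)
    rwa [← enorm_neg, neg_sub, abs_sub_comm] at this
  have e1 : ((x, y) : ℝ × ℝ) + (y' - y) • ((0, 1) : ℝ × ℝ) = (x, y') := by ext <;> simp
  rw [← e1, abs_of_nonneg (by linarith)]
  refine bm_v L hG (by linarith) hz hi fun r hr => cb_cb ?_
  have e2 : ((x, y) : ℝ × ℝ) + r • ((0, 1) : ℝ × ℝ) = (x, y + r) := by ext <;> simp
  rw [e2]
  rw [mem_cb_iff] at hp hp' ⊢
  refine ⟨hp.1, ?_⟩
  have h1 := abs_le.mp hp.2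
  have h2 := abs_le.mp hp'.2
  simp only at h1 h2 ⊢
  rw [abs_le]
  constructor <;> linarith [hr.1, hr.2]

/-- **(O1)** -/
theorem O1 (L : LineB W ψ Ψ G) (hG : Measurable G) (hε : 0 < ε) {z p p' : ℝ × ℝ}
    (hz : closedBall z (3 * ε) ⊆ W) (hi : IntegrableOn ψ (closedBall z (3 * ε)))
    (hp : p ∈ closedBall z (2 * ε)) (hp' : p' ∈ closedBall z (2 * ε)) :
    ‖bm ε ψ p' - bm ε ψ p‖ₑ ≤ ENNReal.ofReal (dist p' p / 2) * H ε G z := by
  obtain ⟨x, y⟩ := p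
  obtain ⟨x', y'⟩ := p'
  have hm : ((x', y) : ℝ × ℝ) ∈ closedBall z (2 * ε) := by
    rw [mem_cb_iff] at hp hp' ⊢
    exact ⟨hp'.1, hp.2⟩
  have h1 := O1h L hG hz hi hp hm
  have h2 := O1v L hG hz hi hm hp'
  have e1 : bm ε ψ (x', y') - bm ε ψ (x, y) =
      (bm ε ψ (x', y') - bm ε ψ (x', y)) + (bm ε ψ (x', y) - bm ε ψ (x, y)) := by ring
  rw [e1]
  refine (enorm_add_le _ _).trans ((add_le_add h2 h1).trans ?_)
  set I := ∫⁻ u in closedBall z (3 * ε), G u with hI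
  have hd1 : |x' - x| ≤ dist ((x', y') : ℝ × ℝ) (x, y) := by
    rw [← Real.dist_eq, Prod.dist_eq]; exact le_max_left _ _
  have hd2 : |y' - y| ≤ dist ((x', y') : ℝ × ℝ) (x, y) := by
    rw [← Real.dist_eq, Prod.dist_eq]; exact le_max_right _ _
  set d := dist ((x', y') : ℝ × ℝ) (x, y) with hd
  have hd0 : 0 ≤ d := dist_nonneg
  calc ENNReal.ofReal ((4 * ε ^ 2)⁻¹) * (ENNReal.ofReal |y' - y| * I) +
        ENNReal.ofReal ((4 * ε ^ 2)⁻¹) * (ENNReal.ofReal |x' - x| * I)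
      ≤ ENNReal.ofReal ((4 * ε ^ 2)⁻¹) * (ENNReal.ofReal d * I) +
        ENNReal.ofReal ((4 * ε ^ 2)⁻¹) * (ENNReal.ofReal d * I) := by gcongr
    _ = ENNReal.ofReal (d / 2) * H ε G z := by
        unfold H
        rw [← hI, ← ENNReal.ofReal_inv_of_pos (by positivity), ← mul_assoc, ← mul_assoc, ← add_mul,
          ← ENNReal.ofReal_mul (by positivity), ← ENNReal.ofReal_mul (by positivity),
          ← ENNReal.ofReal_add (by positivity) (by positivity)]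
        congr 2
        field_simp; ring

end

end Crest.Agent.R105.Mq_347
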