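import Crest.Agent.R105.Psq0_463

/-!
# Row 105 (S0138, T-frame), PSI-Q (helper463): approximation of the correction

`w_approx`: a correction `w` (`Cor`) with compact support is a uniform limit of smooth functions
with compact support which vanish in a neighbourhood of `E`, with energy `≤ ∫ D1² + D2²`
(soft threshold at `1/(n+1)`, then mollification).
-/

set_option autoImplicit false

open MeasureTheory Set Filter Topology
open scoped NNReal ENNReal ContDiff

namespace Crest.Agent.R105.Psq_463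

open Psi5_425 Psi6_425 Psi7_425 Psi8_425 CF_363 MsA_425 MsB_425

local notation "AC" => AbsolutelyContinuousOnInterval

variable {V E : Set (ℝ × ℝ)} {u w D1 D2 G1 G2 : ℝ × ℝ → ℝ} {ε : ℝ}

/-! ### soft threshold -/

/-- soft threshold: `s` minus its truncation at `m` -/
noncomputable def sth (m s : ℝ) : ℝ := s - max (-m) (min m s)

theorem sth_lip (m s t : ℝ) (hm : 0 ≤ m) : |sth m s - sth m t| ≤ |s - t| := by
  unfold sth
  rcases le_total s t with h | h <;>
  · rcases le_total m s with h1 | h1 <;> rcases le_total m t with h2 | h2 <;>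
    rcases le_total (-m) s with h3 | h3 <;> rcases le_total (-m) t with h4 | h4 <;>
    simp only [min_eq_left, min_eq_right, max_eq_left, max_eq_right, h1, h2, h3, h4,
      neg_le_self hm] <;>
    rw [abs_le] <;>
    constructor <;>
    cases abs_cases (s - t) <;> linarith

theorem sth_zero_of {m s : ℝ} (h : |s| ≤ m) : sth m s = 0 := by
  unfold sth
  rw [abs_le] at h
  rw [min_eq_right h.2, max_eq_right h.1, sub_self]

theorem abs_sth_sub_le {m s : ℝ} (hm : 0 ≤ m) : |sth m s - s| ≤ m := by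
  unfold sth
  rw [show s - max (-m) (min m s) - s = -max (-m) (min m s) by ring, abs_neg, abs_le]
  exact ⟨le_max_left _ _, max_le (by linarith) (min_le_left _ _)⟩

theorem abs_sth_le {m s : ℝ} (hm : 0 ≤ m) : |sth m s| ≤ |s| := by
  have h := sth_lip m s 0 hm
  rwa [sth_zero_of (s := 0) (by simpa using hm), sub_zero, sub_zero] at h

theorem continuous_sth (m : ℝ) : Continuous (sth m) := by
  unfold sth; fun_prop

/-! ### gradient of a mollification -/

theorem fderiv_moll_eq (hu : Continuous u) {G : ℝ × ℝ → ℝ × ℝ →L[ℝ] ℝ} (hG : WG univ u G)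
    (φ : ContDiffBump (0 : ℝ × ℝ)) (x e : ℝ × ℝ) :
    fderiv ℝ (moll φ u) x e = moll φ (fun y => G y e) x := by
  have hφd : ContDiff ℝ ∞ (φ.normed (volume : Measure (ℝ × ℝ))) := φ.contDiff_normed
  rw [fderiv_moll hu.locallyIntegrable]
  set η : ℝ × ℝ → ℝ := fun y => φ.normed volume (x - y) with hη
  have hηs : ContDiff ℝ ∞ η := hφd.comp (contDiff_const.sub contDiff_id)
  have hηc : HasCompactSupport η := by
    have h1 : HasCompactSupport (φ.normed (volume : Measure (ℝ × ℝ))) :=
      φ.hasCompactSupport_normed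
    exact h1.comp_homeomorph (Homeomorph.subLeft x)
  have hWη := hG η hηs hηc (subset_univ _) e
  have hder : ∀ y, fderiv ℝ η y e = - fderiv ℝ (φ.normed (volume : Measure (ℝ × ℝ))) (x - y) e := by
    intro y
    have h3 : HasFDerivAt (fun y => x - y) (-(ContinuousLinearMap.id ℝ (ℝ × ℝ))) y :=
      (hasFDerivAt_id y).const_sub x
    have h2 : HasFDerivAt η ((fderiv ℝ (φ.normed (volume : Measure (ℝ × ℝ))) (x - y)).comp
          (-(ContinuousLinearMap.id ℝ (ℝ × ℝ)))) y :=
      ((hφd.differentiable (by norm_num) (x - y)).hasFDerivAt).comp y h3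
    rw [h2.fderiv]
    simp
  have e1 : ∫ y, u y * fderiv ℝ η y e =
      - ∫ y, fderiv ℝ (φ.normed (volume : Measure (ℝ × ℝ))) (x - y) e • u y := by
    rw [← integral_neg]
    congr 1; funext y
    rw [hder y, smul_eq_mul]; ring
  rw [e1, neg_inj] at hWη
  rw [hWη]
  rfl

theorem integral_sq_moll_le {g : ℝ × ℝ → ℝ} (hg : MemLp g 2 (volume : Measure (ℝ × ℝ)))
    (φ : ContDiffBump (0 : ℝ × ℝ)) :
    Integrable (fun p => (moll φ g p) ^ 2) (volume : Measure (ℝ × ℝ)) ∧
      ∫ p, (moll φ g p) ^ 2 ≤ ∫ p, (g p) ^ 2 := by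
  have h1 := eLpNorm_moll_le (φ := φ) hg.1
  have hm : MemLp (moll φ g) 2 (volume : Measure (ℝ × ℝ)) :=
    ⟨(contDiff_moll (hg.locallyIntegrable (by norm_num))).continuous.aestronglyMeasurable,
      lt_of_le_of_lt h1 hg.2⟩
  refine ⟨hm.integrable_sq, ?_⟩
  rw [hm.eLpNorm_eq_integral_rpow_norm (by norm_num) (by norm_num),
    hg.eLpNorm_eq_integral_rpow_norm (by norm_num) (by norm_num)] at h1
  simp only [ENNReal.toReal_ofNat, Real.rpow_ofNat, Real.norm_eq_abs, sq_abs] at h1
  have hnn : ∀ h : ℝ × ℝ → ℝ, 0 ≤ ∫ p, (h p) ^ 2 := fun h => integral_nonneg fun _ => sq_nonneg _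
  rw [ENNReal.ofReal_le_ofReal_iff (Real.rpow_nonneg (hnn g) _),
    show ((2 : ℝ)⁻¹) = 1 / 2 by norm_num, ← Real.sqrt_eq_rpow, ← Real.sqrt_eq_rpow,
    Real.sqrt_le_sqrt_iff (hnn g)] at h1
  exact h1

theorem abs_moll_le {g : ℝ × ℝ → ℝ} {C : ℝ} (hb : ∀ p, |g p| ≤ C) (φ : ContDiffBump (0 : ℝ × ℝ))
    (x : ℝ × ℝ) : |moll φ g x| ≤ C := by
  have hi : Integrable (fun y => φ.normed (volume : Measure (ℝ × ℝ)) (x - y)) volume :=
    φ.integrable_normed.comp_sub_left x
  have h1 : ∫ y, φ.normed (volume : Measure (ℝ × ℝ)) (x - y) * C = C := by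
    rw [integral_mul_const, integral_sub_left_eq_self (fun y => φ.normed
      (volume : Measure (ℝ × ℝ)) y) volume x, φ.integral_normed, one_mul]
  rw [← Real.norm_eq_abs]
  unfold moll
  refine (norm_integral_le_of_norm_le (hi.mul_const C) (Eventually.of_forall fun y => ?_)).trans
    h1.le
  rw [smul_eq_mul, norm_mul, Real.norm_eq_abs, Real.norm_eq_abs, abs_of_nonneg (φ.nonneg_normed _)]
  exact mul_le_mul_of_nonneg_left (hb y) (φ.nonneg_normed _)

/-- gradient bounds from lines: `u` continuous, AC on a.e. line, `|∂u| ≤ |D|` a.e. on a.e. line -/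
theorem moll_lines (hu : Continuous u) (hL1 : MemLp D1 2 (volume : Measure (ℝ × ℝ)))
    (hL2 : MemLp D2 2 (volume : Measure (ℝ × ℝ)))
    (ax : ∀ᵐ y : ℝ, ∀ a b, a ≤ b → AC (fun s => u (s, y)) a b)
    (ay : ∀ᵐ x : ℝ, ∀ a b, a ≤ b → AC (fun s => u (x, s)) a b)
    (bx : ∀ᵐ p : ℝ × ℝ, |deriv (fun s => u (s, p.2)) p.1| ≤ |D1 p|)
    (bb : ∀ᵐ p : ℝ × ℝ, |deriv (fun s => u (p.1, s)) p.2| ≤ |D2 p|)
    (φ : ContDiffBump (0 : ℝ × ℝ)) :
    Integrable (g2 (moll φ u)) ∧ ∫ p, g2 (moll φ u) p ≤ ∫ p, (D1 p ^ 2 + D2 p ^ 2) := by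
  set G1 : ℝ × ℝ → ℝ := fun p => deriv (fun s => u (s, p.2)) p.1 with hG1
  set G2 : ℝ × ℝ → ℝ := fun p => deriv (fun s => u (p.1, s)) p.2 with hG2
  have m1 : Measurable G1 := by
    have h1 : Continuous (Function.uncurry fun (y s : ℝ) => u (s, y)) := by
      have : (Function.uncurry fun (y s : ℝ) => u (s, y)) = fun q => u (q.2, q.1) := by
        funext q; rfl
      rw [this]; fun_prop
    have h2 := measurable_deriv_with_param h1
    exact h2.comp measurable_swap
  have m2 : Measurable G2 := by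
    have h1 : Continuous (Function.uncurry fun (x s : ℝ) => u (x, s)) := by
      have : (Function.uncurry fun (x s : ℝ) => u (x, s)) = fun q => u (q.1, q.2) := by
        funext q; rfl
      rw [this]; fun_prop
    exact measurable_deriv_with_param h1
  have L1 : MemLp G1 2 (volume : Measure (ℝ × ℝ)) :=
    MemLp.mono hL1 m1.aestronglyMeasurable bx
  have L2 : MemLp G2 2 (volume : Measure (ℝ × ℝ)) :=
    MemLp.mono hL2 m2.aestronglyMeasurable bb
  have hW : WG univ u (Gf G1 G2) := by
    refine wg_of_lines isOpen_univ hu.continuousOn L1 L2 ?_ ?_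
    · filter_upwards [ax] with y hy x x' hxx' _
      exact ((hy x x' hxx').integral_deriv_eq_sub).symm
    · filter_upwards [ay] with x hx y y' hyy' _
      exact ((hx y y' hyy').integral_deriv_eq_sub).symm
  have e1 : ∀ p, gx (moll φ u) p = moll φ G1 p := by
    intro p
    have := fderiv_moll_eq hu hW φ p ((1 : ℝ), (0 : ℝ))
    simp only [Gf_apply, mul_one, mul_zero, add_zero] at this
    exact this
  have e2 : ∀ p, gy (moll φ u) p = moll φ G2 p := by
    intro p
    have := fderiv_moll_eq hu hW φ p ((0 : ℝ), (1 : ℝ))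
    simp only [Gf_apply, mul_one, mul_zero, zero_add] at this
    exact this
  have e3 : g2 (moll φ u) = fun p => (moll φ G1 p) ^ 2 + (moll φ G2 p) ^ 2 := by
    funext p
    unfold g2
    rw [e1, e2]
  obtain ⟨i1, b1⟩ := integral_sq_moll_le L1 φ
  obtain ⟨i2, b2⟩ := integral_sq_moll_le L2 φ
  rw [e3]
  refine ⟨i1.add i2, ?_⟩
  rw [integral_add i1 i2, integral_add hL1.integrable_sq hL2.integrable_sq]
  refine add_le_add (b1.trans ?_) (b2.trans ?_)
  · refine integral_mono_ae L1.integrable_sq hL1.integrable_sq ?_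
    filter_upwards [bx] with p hp
    show (G1 p) ^ 2 ≤ (D1 p) ^ 2
    rw [← sq_abs (G1 p), ← sq_abs (D1 p)]
    exact pow_le_pow_left₀ (abs_nonneg _) hp 2
  · refine integral_mono_ae L2.integrable_sq hL2.integrable_sq ?_
    filter_upwards [bb] with p hp
    show (G2 p) ^ 2 ≤ (D2 p) ^ 2
    rw [← sq_abs (G2 p), ← sq_abs (D2 p)]
    exact pow_le_pow_left₀ (abs_nonneg _) hp 2

/-- chain rule bound for a 1-Lipschitz outer function -/
theorem abs_deriv_comp_le {h e : ℝ → ℝ} {d s : ℝ} (hh : ∀ s t, |h s - h t| ≤ |s - t|)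
    (he : HasDerivAt e d s) : |deriv (fun r => h (e r)) s| ≤ |d| := by
  by_cases hd : DifferentiableAt ℝ (fun r => h (e r)) s
  · have h1 := hd.hasDerivAt.tendsto_slope.abs
    have h2 := he.tendsto_slope.abs
    refine le_of_tendsto_of_tendsto h1 h2 ?_
    refine Eventually.of_forall fun t => ?_
    simp only [slope_def_field, abs_div]
    exact div_le_div_of_nonneg_right (hh _ _) (abs_nonneg _)
  · rw [deriv_zero_of_not_differentiableAt hd, abs_zero]; exact abs_nonneg _

theorem Cor.ae_dx (h : Cor V ε w D1 D2) {t : ℝ → ℝ} (ht : ∀ s r, |t s - t r| ≤ |s - r|)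
    (htc : Continuous t) :
    ∀ᵐ p : ℝ × ℝ, |deriv (fun s => t (w (s, p.2))) p.1| ≤ |D1 p| := by
  have hc : Continuous fun p : ℝ × ℝ => t (w p) := htc.comp h.cont
  have m1 : Measurable fun p : ℝ × ℝ => deriv (fun s => t (w (s, p.2))) p.1 := by
    have h1 : Continuous (Function.uncurry fun (y s : ℝ) => t (w (s, y))) := by
      have : (Function.uncurry fun (y s : ℝ) => t (w (s, y))) = fun q => t (w (q.2, q.1)) := by
        funext q; rfl
      rw [this]; exact hc.comp (by fun_prop)
    exact (measurable_deriv_with_param h1).comp measurable_swap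
  obtain ⟨D, hDm, hDe⟩ := h.L1.1
  have h3 : ∀ᵐ y : ℝ, ∀ᵐ s : ℝ, D1 (s, y) = D (s, y) := CF_363.ae_swap (P := fun p => D1 p = D p) hDe
  have h4 : ∀ᵐ y : ℝ, ∀ᵐ s : ℝ, |deriv (fun s => t (w (s, y))) s| ≤ |D (s, y)| := by
    filter_upwards [h.dx, h3] with y hy hy'
    filter_upwards [hy, hy'] with s hs hs'
    rw [← hs']
    exact abs_deriv_comp_le ht hs
  have hmeas : MeasurableSet {p : ℝ × ℝ | |deriv (fun s => t (w (s, p.2))) p.1| ≤ |D p|} :=
    measurableSet_le m1.abs hDm.measurable.abs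
  have h5 : ∀ᵐ p : ℝ × ℝ, |deriv (fun s => t (w (s, p.2))) p.1| ≤ |D p| := by
    have hsw : ∀ᵐ q : ℝ × ℝ, |deriv (fun s => t (w (s, q.1))) q.2| ≤ |D q.swap| := by
      rw [Measure.volume_eq_prod, Measure.ae_prod_iff_ae_ae]
      · exact h4
      · exact measurable_swap hmeas
    have h6 := (Measure.measurePreserving_swap (μ := (volume : Measure ℝ))
      (ν := (volume : Measure ℝ))).quasiMeasurePreserving
    rw [← Measure.volume_eq_prod] at h6
    exact h6.ae hsw
  filter_upwards [h5, hDe] with p hp hp'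
  rw [hp']; exact hp

theorem Cor.ae_dy (h : Cor V ε w D1 D2) {t : ℝ → ℝ} (ht : ∀ s r, |t s - t r| ≤ |s - r|)
    (htc : Continuous t) :
    ∀ᵐ p : ℝ × ℝ, |deriv (fun s => t (w (p.1, s))) p.2| ≤ |D2 p| := by
  have hc : Continuous fun p : ℝ × ℝ => t (w p) := htc.comp h.cont
  have m1 : Measurable fun p : ℝ × ℝ => deriv (fun s => t (w (p.1, s))) p.2 := by
    have h1 : Continuous (Function.uncurry fun (x s : ℝ) => t (w (x, s))) := by
      have : (Function.uncurry fun (x s : ℝ) => t (w (x, s))) = fun q => t (w (q.1, q.2)) := by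
        funext q; rfl
      rw [this]; exact hc
    exact measurable_deriv_with_param h1
  obtain ⟨D, hDm, hDe⟩ := h.L2.1
  have h3 : ∀ᵐ x : ℝ, ∀ᵐ s : ℝ, D2 (x, s) = D (x, s) := ae_x_of_ae (P := fun p => D2 p = D p) hDe
  have h4 : ∀ᵐ x : ℝ, ∀ᵐ s : ℝ, |deriv (fun s => t (w (x, s))) s| ≤ |D (x, s)| := by
    filter_upwards [h.dy, h3] with y hy hy'
    filter_upwards [hy, hy'] with s hs hs'
    rw [← hs']
    exact abs_deriv_comp_le ht hs
  have hmeas : MeasurableSet {p : ℝ × ℝ | |deriv (fun s => t (w (p.1, s))) p.2| ≤ |D p|} :=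
    measurableSet_le m1.abs hDm.measurable.abs
  have h5 : ∀ᵐ p : ℝ × ℝ, |deriv (fun s => t (w (p.1, s))) p.2| ≤ |D p| := by
    rw [Measure.volume_eq_prod, Measure.ae_prod_iff_ae_ae hmeas]
    exact h4
  filter_upwards [h5, hDe] with p hp hp'
  rw [hp']; exact hp

/-- **approximation of the correction** -/
theorem w_approx (hE : IsCompact E) (h : Cor V ε w D1 D2) (hc : HasCompactSupport w)
    (hEV : ∀ p ∈ E, p ∉ V) :
    ∃ wn : ℕ → ℝ × ℝ → ℝ, (∀ n, ContDiff ℝ ∞ (wn n)) ∧
      (∃ S, IsCompact S ∧ ∀ n, ∀ p ∉ S, wn n p = 0) ∧ (∀ n p, |wn n p| ≤ ε) ∧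
      (∀ n, ∃ O, IsOpen O ∧ E ⊆ O ∧ ∀ p ∈ O, wn n p = 0) ∧
      (∀ n, Integrable (g2 (wn n)) ∧ ∫ p, g2 (wn n) p ≤ ∫ p, (D1 p ^ 2 + D2 p ^ 2)) ∧
      TendstoUniformly wn w atTop := by
  obtain ⟨R, hR⟩ := hc.isCompact.isBounded.subset_closedBall (0 : ℝ × ℝ)
  have hwR : ∀ y, R < ‖y‖ → w y = 0 := fun y hy => by
    refine image_eq_zero_of_notMem_tsupport fun hy' => ?_
    have := hR hy'
    rw [mem_closedBall_zero_iff] at this
    linarith
  have key : ∀ n : ℕ, ∃ φ : ContDiffBump (0 : ℝ × ℝ), φ.rOut ≤ 1 ∧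
      (∃ O, IsOpen O ∧ E ⊆ O ∧ ∀ p ∈ O, moll φ (fun y => sth (1 / ((n : ℝ) + 1)) (w y)) p = 0) ∧
      ∀ p, |moll φ (fun y => sth (1 / ((n : ℝ) + 1)) (w y)) p -
        sth (1 / ((n : ℝ) + 1)) (w p)| ≤ 1 / ((n : ℝ) + 1) := by
    intro n
    set m : ℝ := 1 / ((n : ℝ) + 1) with hm
    have hm0 : 0 < m := by positivity
    set u : ℝ × ℝ → ℝ := fun y => sth m (w y) with hu
    have huc : Continuous u := (continuous_sth m).comp h.cont
    have hucs : HasCompactSupport u := hc.comp_left (g := sth m)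
      (sth_zero_of (s := 0) (by simpa using hm0.le))
    have huu : UniformContinuous u :=
      huc.uniformContinuous_of_tendsto_cocompact hucs.is_zero_at_infty
    obtain ⟨δ, hδ, hδu⟩ := Metric.uniformContinuous_iff.1 huu m hm0
    -- distance of the support to `E`
    have hKE : Disjoint E {p | m ≤ |w p|} := disjoint_left.2 fun p hp hp' => by
      have : m ≤ |w p| := hp'
      rw [h.zero p (hEV p hp), abs_zero] at this
      linarith
    have hKc : IsClosed {p | m ≤ |w p|} := isClosed_le continuous_const h.cont.abs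
    obtain ⟨δ', hδ', hdis⟩ := hKE.exists_thickenings hE hKc
    set ρ : ℝ := min (min δ δ') 1 with hρ
    have hρ0 : 0 < ρ := by positivity
    refine ⟨⟨ρ / 2, ρ, by positivity, by linarith⟩, min_le_right _ _, ?_, ?_⟩
    · refine ⟨Metric.thickening δ' E, Metric.isOpen_thickening, Metric.self_subset_thickening hδ' E,
        fun p hp => ?_⟩
      unfold moll
      refine integral_eq_zero_of_ae (Eventually.of_forall fun y => ?_)
      show _ • u y = (0 : ℝ)
      by_cases hy : m ≤ |w y|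
      · set φ : ContDiffBump (0 : ℝ × ℝ) := ⟨ρ / 2, ρ, by positivity, by linarith⟩ with hφd
        have h0 : φ.normed volume (p - y) = 0 := by
          have h4 : p - y ∉ Function.support (φ.normed volume) := by
            rw [φ.support_normed_eq, Metric.mem_ball, dist_zero_right, not_lt]
            by_contra hcon
            push Not at hcon
            have h5 : p ∈ Metric.thickening δ' {p | m ≤ |w p|} := by
              rw [Metric.mem_thickening_iff]
              refine ⟨y, hy, ?_⟩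
              rw [dist_eq_norm]
              refine lt_of_lt_of_le hcon ?_
              exact (min_le_left _ _).trans (min_le_right _ _)
            exact disjoint_left.1 hdis hp h5
          simpa using h4
        rw [h0, zero_smul]
      · push Not at hy
        rw [hu]; simp only
        rw [sth_zero_of hy.le, smul_zero]
    · intro p
      set φ : ContDiffBump (0 : ℝ × ℝ) := ⟨ρ / 2, ρ, by positivity, by linarith⟩ with hφd
      have h4 := φ.dist_normed_convolution_le (μ := (volume : Measure (ℝ × ℝ))) (g := u)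
        (x₀ := p) (ε := m) huc.aestronglyMeasurable (fun y hy => by
          refine (hδu ?_).le
          rw [Metric.mem_ball] at hy
          exact lt_of_lt_of_le hy ((min_le_left _ _).trans (min_le_left _ _)))
      rw [moll_eq_conv, ← Real.dist_eq]
      exact h4
  choose φ hφ1 hφE hφu using key
  have hm0 : ∀ n : ℕ, (0 : ℝ) ≤ 1 / ((n : ℝ) + 1) := fun n => by positivity
  have hucn : ∀ n : ℕ, Continuous fun y => sth (1 / ((n : ℝ) + 1)) (w y) := fun n =>
    (continuous_sth _).comp h.cont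
  refine ⟨fun n => moll (φ n) fun y => sth (1 / ((n : ℝ) + 1)) (w y), fun n =>
    contDiff_moll (hucn n).locallyIntegrable, ⟨Metric.closedBall 0 (R + 1),
      isCompact_closedBall _ _, fun n p hp => ?_⟩, fun n p => ?_, hφE, fun n => ?_, ?_⟩
  · refine moll_eq_zero (R := R) (fun y hy => ?_) ?_
    · show sth _ (w y) = 0
      rw [hwR y hy]
      exact sth_zero_of (by simpa using hm0 n)
    · rw [mem_closedBall_zero_iff, not_le] at hp
      linarith [hφ1 n]
  · exact abs_moll_le (fun y => (abs_sth_le (hm0 n)).trans (h.bdd y)) _ p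
  · have hl := fun s t => sth_lip (1 / ((n : ℝ) + 1)) s t (hm0 n)
    refine moll_lines (hucn n) h.L1 h.L2 ?_ ?_ (h.ae_dx hl (continuous_sth _))
      (h.ae_dy hl (continuous_sth _)) (φ n)
    · filter_upwards [h.acx] with y hy a b hab
      exact ac_lip (h := sth (1 / ((n : ℝ) + 1))) (hy a b hab) zero_le_one
        fun s t => by rw [one_mul]; exact hl s t
    · filter_upwards [h.acy] with x hx a b hab
      exact ac_lip (h := sth (1 / ((n : ℝ) + 1))) (hx a b hab) zero_le_one
        fun s t => by rw [one_mul]; exact hl s t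
  · rw [Metric.tendstoUniformly_iff]
    intro e he
    have h1 : Tendsto (fun n : ℕ => 2 * (1 / ((n : ℝ) + 1))) atTop (𝓝 (2 * 0)) :=
      tendsto_one_div_add_atTop_nhds_zero_nat.const_mul 2
    rw [mul_zero] at h1
    filter_upwards [h1.eventually (gt_mem_nhds he)] with n hn p
    rw [Real.dist_eq, abs_sub_comm]
    have a1 := hφu n p
    have a2 := abs_sth_sub_le (s := w p) (hm0 n)
    calc |moll (φ n) (fun y => sth (1 / ((n : ℝ) + 1)) (w y)) p - w p| ≤
          |moll (φ n) (fun y => sth (1 / ((n : ℝ) + 1)) (w y)) p - sth (1 / ((n : ℝ) + 1)) (w p)| +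
            |sth (1 / ((n : ℝ) + 1)) (w p) - w p| := abs_sub_le _ _ _
      _ ≤ 1 / ((n : ℝ) + 1) + 1 / ((n : ℝ) + 1) := add_le_add a1 a2
      _ < e := by linarith

end Crest.Agent.R105.Psq_463
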