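import Crest.Agent.R105.Psq0_425
import Crest.Agent.R105.Psq0c_463

/-!
# Row 105 (S0138, T-frame), PSI-Q (L8), last step: from the box means to `PlaLim` (helper463)

`Means E R G 𝒬 F Fe`: `Fe n` (box means of `F`) converge to `F` on `R \ E`, and on every compact
subset of `R \ G` they are Lipschitz, with bounded energy off `E` and bounded oscillations at the
squares (in `ℓ²`).
`plaLim_of_means`: then `κ * T ∘ F` is a planar limit (`PlaLim`) for every Lipschitz cut-off `κ` with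
compact support in `R \ G` and every bounded Lipschitz `T`.
-/

set_option autoImplicit false

open MeasureTheory Set Filter Topology
open scoped NNReal ENNReal ContDiff

namespace Crest.Agent.R105.Psq_463

open CF_363 Stp_722 Cq_463 Psq_425

/-- what the box means deliver, off the compact set `G` -/
structure Means (E R G : Set (ℝ × ℝ)) (𝒬 : Set Sqr) (F : ℝ × ℝ → ℝ) (Fe : ℕ → ℝ × ℝ → ℝ) :
    Prop where
  lim : ∀ p ∈ R, p ∉ E → Tendsto (fun n => Fe n p) atTop (𝓝 (F p))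
  loc : ∀ A, IsCompact A → A ⊆ R \ G → ∃ C : ℝ, ∀ᶠ n in atTop,
    (∃ O, ∃ L : ℝ≥0, IsOpen O ∧ A ⊆ O ∧ LipschitzOnWith L (Fe n) O) ∧
    (∫ p in A \ E, g2 (Fe n) p) ≤ C ∧
    ∃ o : Sqr → ℝ, (∀ Q ∈ 𝒬, Q.car ⊆ A → ∀ p ∈ Q.car, ∀ q ∈ Q.car, |Fe n p - Fe n q| ≤ o Q) ∧
      ∀ t : Finset Sqr, (∀ Q ∈ t, Q ∈ 𝒬 ∧ Q.car ⊆ A) → ∑ Q ∈ t, o Q ^ 2 ≤ C

variable {E R G : Set (ℝ × ℝ)} {𝒬 : Set Sqr} {𝓗 : Set Hair} {F f κ : ℝ × ℝ → ℝ}
  {Fe : ℕ → ℝ × ℝ → ℝ} {L : ℝ≥0}

/-- the charge of a Lipschitz function is at most its oscillation over the closed square -/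
theorem ch_le_of_lip (hf : LipschitzWith L f) {Q : Sqr} {c : ℝ} (hc0 : 0 ≤ c)
    (hc : ∀ p ∈ Q.car, ∀ q ∈ Q.car, |f p - f q| ≤ c) : ch E univ f Q ≤ c := by
  refine chg_le hc0 fun ε hε => ?_
  have hL1 : (0 : ℝ) < 2 * ((L : ℝ) + 1) := by positivity
  refine ⟨Metric.thickening (ε / (2 * ((L : ℝ) + 1))) Q.car, Metric.isOpen_thickening,
    inter_subset_left.trans (Metric.self_subset_thickening (by positivity) _), ?_⟩
  rintro p ⟨hp, -⟩ q ⟨hq, -⟩
  obtain ⟨p', hp', hpp⟩ := Metric.mem_thickening_iff.1 hp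
  obtain ⟨q', hq', hqq⟩ := Metric.mem_thickening_iff.1 hq
  have h1 := hf.dist_le_mul p p'
  have h2 := hf.dist_le_mul q q'
  rw [Real.dist_eq] at h1 h2
  have h3 := hc p' hp' q' hq'
  have hb : (L : ℝ) * (ε / (2 * ((L : ℝ) + 1))) ≤ ε / 2 := by
    rw [mul_div_assoc', div_le_div_iff₀ (by positivity) (by norm_num)]
    nlinarith [L.coe_nonneg]
  have h4 : |f p - f p'| ≤ ε / 2 := h1.trans ((mul_le_mul_of_nonneg_left hpp.le L.coe_nonneg).trans hb)
  have h5 : |f q - f q'| ≤ ε / 2 := h2.trans ((mul_le_mul_of_nonneg_left hqq.le L.coe_nonneg).trans hb)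
  rw [abs_le] at *
  constructor <;> linarith

/-- a compact neighbourhood which contains all squares it should contain -/
theorem exists_cpt (hE : QPic E 𝒬 𝓗) (hER : E ⊆ R) (hR : IsOpen R) (hG : IsCompact G)
    (hQG : ∀ Q ∈ 𝒬, Q.car ⊆ G ∨ Disjoint Q.car G) {A0 : Set (ℝ × ℝ)} (hA0 : IsCompact A0)
    (h : A0 ⊆ R \ G) : ∃ A, IsCompact A ∧ A0 ⊆ A ∧ A ⊆ R \ G ∧
      ∀ Q ∈ 𝒬, (Q.car ∩ A0).Nonempty → Q.car ⊆ A := by
  classical
  obtain ⟨δ, hδ, hδA⟩ := hA0.exists_cthickening_subset_open (hR.sdiff hG.isClosed) h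
  have hfin : {Q : 𝒬 | δ ≤ Q.1.s}.Finite := by
    have h1 := hE.summable_sq.tendsto_cofinite_zero
    have h2 : ∀ᶠ Q : 𝒬 in cofinite, Q.1.s ^ 2 < δ ^ 2 := h1.eventually (gt_mem_nhds (by positivity))
    refine (Filter.eventually_cofinite.1 h2).subset fun Q hQ => ?_
    have : δ ^ 2 ≤ Q.1.s ^ 2 := pow_le_pow_left₀ hδ.le hQ 2
    exact not_lt.2 this
  have hin : ∀ Q ∈ 𝒬, (Q.car ∩ A0).Nonempty → Q.car ⊆ R \ G := by
    rintro Q hQ ⟨p, hp, hpA⟩
    rcases hQG Q hQ with h1 | h1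
    · exact absurd (h1 hp) (h hpA).2
    · exact fun q hq => ⟨hER (hE.sub Q hQ hq), disjoint_left.1 h1 hq⟩
  refine ⟨Metric.cthickening δ A0 ∪ ⋃ Q ∈ hfin.toFinset.filter fun Q => (Q.1.car ∩ A0).Nonempty,
    Q.1.car, ?_, ?_, ?_, ?_⟩
  · exact hA0.cthickening.union (Finset.isCompact_biUnion _ fun Q _ => Q.1.isCompact_car)
  · exact (Metric.self_subset_cthickening A0).trans subset_union_left
  · refine union_subset hδA (iUnion₂_subset fun Q hQ => ?_)
    exact hin Q.1 Q.2 (Finset.mem_filter.1 hQ).2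
  · intro Q hQ hne
    by_cases hs : δ ≤ Q.s
    · refine subset_union_of_subset_right ?_ _
      exact subset_iUnion₂_of_subset (⟨Q, hQ⟩ : 𝒬)
        (Finset.mem_filter.2 ⟨hfin.mem_toFinset.2 hs, hne⟩) subset_rfl
    · refine subset_union_of_subset_left ?_ _
      obtain ⟨p, hp, hpA⟩ := hne
      intro q hq
      refine Metric.mem_cthickening_of_dist_le q p δ A0 hpA ?_
      have h1 := Metric.dist_le_diam_of_mem Q.isCompact_car.isBounded hq hp
      have h2 := Q.diam_le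
      linarith [not_le.1 hs]

theorem abs_deriv_comp_le' {h e : ℝ → ℝ} {d s K : ℝ}
    (hh : ∀ s t, |h s - h t| ≤ K * |s - t|) (he : HasDerivAt e d s) :
    |deriv (fun r => h (e r)) s| ≤ K * |d| := by
  have hK : 0 ≤ K := by
    have := hh 1 0
    simp only [sub_zero, abs_one, mul_one] at this
    exact (abs_nonneg _).trans this
  by_cases hd : DifferentiableAt ℝ (fun r => h (e r)) s
  · have h1 := hd.hasDerivAt.tendsto_slope.abs
    have h2 := (he.tendsto_slope.abs).const_mul K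
    refine le_of_tendsto_of_tendsto h1 h2 ?_
    refine Eventually.of_forall fun t => ?_
    simp only [slope_def_field, abs_div]
    rw [mul_div_assoc']
    exact div_le_div_of_nonneg_right (hh _ _) (abs_nonneg _)
  · rw [deriv_zero_of_not_differentiableAt hd, abs_zero]; positivity

/-- gradient of a product `κ * T ∘ u` at a point of differentiability -/
theorem g2_le {u : ℝ × ℝ → ℝ} {T : ℝ → ℝ} {LT Lκ : ℝ≥0} {M Cκ : ℝ} (hT : LipschitzWith LT T)
    (hTb : ∀ s, |T s| ≤ M) (hκ : LipschitzWith Lκ κ) (hCκ : ∀ p, |κ p| ≤ Cκ) {p : ℝ × ℝ}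
    (h1 : DifferentiableAt ℝ κ p) (h2 : DifferentiableAt ℝ u p)
    (h3 : DifferentiableAt ℝ (fun q => T (u q)) p) :
    g2 (fun q => κ q * T (u q)) p ≤
      4 * (Lκ : ℝ) ^ 2 * M ^ 2 + 2 * (Cκ ^ 2 * (LT : ℝ) ^ 2) * g2 u p := by
  have hTl : ∀ s t, |T s - T t| ≤ (LT : ℝ) * |s - t| := fun s t => by
    have := hT.dist_le_mul s t
    rwa [Real.dist_eq, Real.dist_eq] at this
  have hM : 0 ≤ M := (abs_nonneg _).trans (hTb 0)
  have hC : 0 ≤ Cκ := (abs_nonneg _).trans (hCκ p)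
  have e1 : |gx (fun q => T (u q)) p| ≤ LT * |gx u p| := by
    have a1 := abs_deriv_comp_le' (h := T) (e := fun s => u (s, p.2)) hTl (gx_eq_deriv h2)
    rwa [(gx_eq_deriv (x := p.1) (y := p.2) h3).deriv] at a1
  have e2 : |gy (fun q => T (u q)) p| ≤ LT * |gy u p| := by
    have a1 := abs_deriv_comp_le' (h := T) (e := fun s => u (p.1, s)) hTl (gy_eq_deriv h2)
    rwa [(gy_eq_deriv (x := p.1) (y := p.2) h3).deriv] at a1
  have key : ∀ a b k t l d : ℝ, |k| ≤ Cκ → |t| ≤ M → |l| ≤ (Lκ : ℝ) → |d| ≤ (LT : ℝ) * |b| →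
      (k * d + t * l) ^ 2 ≤ 2 * (Lκ : ℝ) ^ 2 * M ^ 2 + 2 * (Cκ ^ 2 * (LT : ℝ) ^ 2) * b ^ 2 := by
    intro a b k t l d hk ht hl hd
    have b1 : (k * d) ^ 2 ≤ Cκ ^ 2 * ((LT : ℝ) ^ 2 * b ^ 2) := by
      rw [mul_pow]
      have c1 : k ^ 2 ≤ Cκ ^ 2 := by rw [← sq_abs]; exact pow_le_pow_left₀ (abs_nonneg _) hk 2
      have c2 : d ^ 2 ≤ (LT : ℝ) ^ 2 * b ^ 2 := by
        rw [← sq_abs d, ← sq_abs b, ← mul_pow]; exact pow_le_pow_left₀ (abs_nonneg _) hd 2
      exact mul_le_mul c1 c2 (sq_nonneg _) (sq_nonneg _)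
    have b2 : (t * l) ^ 2 ≤ M ^ 2 * (Lκ : ℝ) ^ 2 := by
      rw [mul_pow]
      have c1 : t ^ 2 ≤ M ^ 2 := by rw [← sq_abs]; exact pow_le_pow_left₀ (abs_nonneg _) ht 2
      have c2 : l ^ 2 ≤ (Lκ : ℝ) ^ 2 := by
        rw [← sq_abs]; exact pow_le_pow_left₀ (abs_nonneg _) hl 2
      exact mul_le_mul c1 c2 (sq_nonneg _) (sq_nonneg _)
    nlinarith [sq_nonneg (k * d - t * l)]
  have k1 := key 0 (gx u p) (κ p) (T (u p)) (gx κ p) _ (hCκ p) (hTb _) (abs_gx_le hκ p) e1
  have k2 := key 0 (gy u p) (κ p) (T (u p)) (gy κ p) _ (hCκ p) (hTb _) (abs_gy_le hκ p) e2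
  unfold g2
  rw [gx_mul (g := fun q => T (u q)) h1 h3, gy_mul (g := fun q => T (u q)) h1 h3]
  linarith

/-- **from the box means to the planar limit** -/
theorem plaLim_of_means (hE : QPic E 𝒬 𝓗) (hER : E ⊆ R) (hR : IsOpen R) (hG : IsCompact G)
    (hQG : ∀ Q ∈ 𝒬, Q.car ⊆ G ∨ Disjoint Q.car G) (hM : Means E R G 𝒬 F Fe) {T : ℝ → ℝ}
    {LT Lκ : ℝ≥0} {M : ℝ} (hT : LipschitzWith LT T) (hTb : ∀ s, |T s| ≤ M)
    (hκ : LipschitzWith Lκ κ) (hκc : HasCompactSupport κ) (hκs : tsupport κ ⊆ R \ G) :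
    PlaLim E 𝒬 fun p => κ p * T (F p) := by
  classical
  obtain ⟨A, hA, hA0, hAR, hAQ⟩ := exists_cpt hE hER hR hG hQG hκc.isCompact hκs
  obtain ⟨C, hC⟩ := hM.loc A hA hAR
  obtain ⟨N, hN⟩ := eventually_atTop.1 hC
  obtain ⟨Cκ, hCκ⟩ := hκc.exists_bound_of_continuous hκ.continuous
  have hCκ' : ∀ p, |κ p| ≤ Cκ := hCκ
  have hM0 : 0 ≤ M := (abs_nonneg _).trans (hTb 0)
  have hC0 : 0 ≤ Cκ := (abs_nonneg _).trans (hCκ' 0)
  have hκz : ∀ p ∉ tsupport κ, κ p = 0 := fun p hp => image_eq_zero_of_notMem_tsupport hp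
  have hTl : ∀ s t, |T s - T t| ≤ (LT : ℝ) * |s - t| := fun s t => by
    have := hT.dist_le_mul s t
    rwa [Real.dist_eq, Real.dist_eq] at this
  have hκl : ∀ p q, |κ p - κ q| ≤ (Lκ : ℝ) * dist p q := fun p q => by
    have := hκ.dist_le_mul p q
    rwa [Real.dist_eq] at this
  set fn : ℕ → ℝ × ℝ → ℝ := fun n p => κ p * T (Fe (n + N) p) with hfn
  -- pointwise estimate
  have hpq : ∀ n p q, |fn n p - fn n q| ≤
      (Lκ : ℝ) * dist p q * M + Cκ * ((LT : ℝ) * |Fe (n + N) p - Fe (n + N) q|) := by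
    intro n p q
    have e1 : fn n p - fn n q = (κ p - κ q) * T (Fe (n + N) p) +
        κ q * (T (Fe (n + N) p) - T (Fe (n + N) q)) := by rw [hfn]; ring
    rw [e1]
    refine (abs_add_le _ _).trans (add_le_add ?_ ?_)
    · rw [abs_mul]
      exact mul_le_mul (hκl p q) (hTb _) (abs_nonneg _)
        (mul_nonneg Lκ.coe_nonneg dist_nonneg)
    · rw [abs_mul]
      exact mul_le_mul (hCκ' q) (hTl _ _) (abs_nonneg _) hC0
  have hlip : ∀ n, ∃ L : ℝ≥0, LipschitzWith L (fn n) := by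
    intro n
    obtain ⟨⟨O, L, hO, hAO, hL⟩, -, -⟩ := hN (n + N) (Nat.le_add_left _ _)
    refine ⟨Lκ * ⟨M, hM0⟩ + ⟨Cκ, hC0⟩ * (LT * L), LipschitzWith.of_dist_le_mul fun p q => ?_⟩
    rw [Real.dist_eq]
    have hcoe : ((Lκ * ⟨M, hM0⟩ + ⟨Cκ, hC0⟩ * (LT * L) : ℝ≥0) : ℝ) * dist p q =
        (Lκ : ℝ) * dist p q * M + Cκ * ((LT : ℝ) * ((L : ℝ) * dist p q)) := by
      push_cast
      show ((Lκ : ℝ) * M + Cκ * ((LT : ℝ) * (L : ℝ))) * dist p q = _
      ring
    rw [hcoe]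
    have hrest : 0 ≤ Cκ * ((LT : ℝ) * ((L : ℝ) * dist p q)) :=
      mul_nonneg hC0 (mul_nonneg LT.coe_nonneg (mul_nonneg L.coe_nonneg dist_nonneg))
    by_cases hp : p ∈ tsupport κ
    · by_cases hq : q ∈ tsupport κ
      · refine (hpq n p q).trans ?_
        have h1 := hL.dist_le_mul p (hAO (hA0 hp)) q (hAO (hA0 hq))
        rw [Real.dist_eq] at h1
        gcongr
      · have h0 : fn n q = 0 := by rw [hfn]; simp only; rw [hκz q hq, zero_mul]
        rw [h0, sub_zero]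
        have h1 : |fn n p| ≤ (Lκ : ℝ) * dist p q * M := by
          rw [hfn]; simp only
          rw [abs_mul]
          have h2 := hκl p q
          rw [hκz q hq, sub_zero] at h2
          exact mul_le_mul h2 (hTb _) (abs_nonneg _) (mul_nonneg Lκ.coe_nonneg dist_nonneg)
        linarith
    · have h0 : fn n p = 0 := by rw [hfn]; simp only; rw [hκz p hp, zero_mul]
      rw [h0, zero_sub, abs_neg]
      have h1 : |fn n q| ≤ (Lκ : ℝ) * dist p q * M := by
        rw [hfn]; simp only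
        rw [abs_mul]
        have h2 := hκl p q
        rw [hκz p hp, zero_sub, abs_neg] at h2
        exact mul_le_mul h2 (hTb _) (abs_nonneg _) (mul_nonneg Lκ.coe_nonneg dist_nonneg)
      linarith
  refine ⟨fn, hlip, ⟨tsupport κ, hκc.isCompact, fun n p hp => ?_⟩, ⟨Cκ * M, fun n p => ?_⟩,
    fun p hp => ?_, ⟨(4 * (Lκ : ℝ) ^ 2 * M ^ 2 * (volume : Measure (ℝ × ℝ)).real A +
      2 * (Cκ ^ 2 * (LT : ℝ) ^ 2) * C) + (2 * ((Lκ : ℝ) ^ 2 * M ^ 2) * (∑' Q : 𝒬, Q.1.s ^ 2) +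
      2 * (Cκ ^ 2 * (LT : ℝ) ^ 2) * C), fun n => ?_⟩⟩
  · rw [hfn]; simp only; rw [hκz p hp, zero_mul]
  · rw [hfn]; simp only; rw [abs_mul]
    exact mul_le_mul (hCκ' p) (hTb _) (abs_nonneg _) hC0
  · by_cases hps : p ∈ tsupport κ
    · have h1 := hM.lim p (hκs hps).1 hp
      have h2 := (tendsto_add_atTop_iff_nat N).2 h1
      exact ((hT.continuous.tendsto _).comp h2).const_mul (κ p)
    · simp only [hfn, hκz p hps, zero_mul]
      exact tendsto_const_nhds
  · obtain ⟨⟨O, L, hO, hAO, hL⟩, hen, o, ho, hos⟩ := hN (n + N) (Nat.le_add_left _ _)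
    obtain ⟨Ln, hLn⟩ := hlip n
    refine add_le_add ?_ ?_
    · -- energy
      have hEm : MeasurableSet E := hE.cpt.isClosed.measurableSet
      have hAm : MeasurableSet (A \ E) := hA.isClosed.measurableSet.diff hEm
      have hAE : A \ E ⊆ univ \ E := fun p hp => ⟨trivial, hp.2⟩
      have hfinA : volume (A \ E) ≠ ⊤ :=
        (lt_of_le_of_lt (measure_mono sdiff_subset) hA.measure_lt_top).ne
      have h0 : ∀ p ∈ (univ \ E) \ (A \ E), g2 (fn n) p = 0 := by
        intro p hp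
        have hpA : p ∉ tsupport κ := fun h' => hp.2 ⟨hA0 h', hp.1.2⟩
        have h1 : fn n =ᶠ[𝓝 p] fun _ => 0 := by
          filter_upwards [notMem_tsupport_iff_eventuallyEq.1 hpA] with q hq
          show κ q * _ = 0
          rw [hq]; simp
        unfold g2
        rw [gx_congr h1, gy_congr h1, gx_const, gy_const]; simp
      have hred : En (univ \ E) (fn n) = ∫ p in A \ E, g2 (fn n) p :=
        setIntegral_eq_of_subset_of_forall_sdiff_eq_zero (MeasurableSet.univ.diff hEm) hAE h0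
      rw [hred]
      have hgb : ∀ {u : ℝ × ℝ → ℝ} {K : ℝ≥0}, LipschitzOnWith K u O → ∀ p ∈ O,
          g2 u p ≤ 2 * (K : ℝ) ^ 2 := by
        intro u K hu p hp
        have h1 := norm_fderiv_le_of_lipschitzOn ℝ (hO.mem_nhds hp) hu
        have h2 : |gx u p| ≤ K := by
          have h3 := (fderiv ℝ u p).le_opNorm ((1 : ℝ), (0 : ℝ))
          have h4 : ‖((1 : ℝ), (0 : ℝ))‖ = 1 := by simp [Prod.norm_def]
          rw [h4, mul_one] at h3
          exact h3.trans h1
        have h2' : |gy u p| ≤ K := by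
          have h3 := (fderiv ℝ u p).le_opNorm ((0 : ℝ), (1 : ℝ))
          have h4 : ‖((0 : ℝ), (1 : ℝ))‖ = 1 := by simp [Prod.norm_def]
          rw [h4, mul_one] at h3
          exact h3.trans h1
        have h5 := pow_le_pow_left₀ (abs_nonneg _) h2 2
        have h6 := pow_le_pow_left₀ (abs_nonneg _) h2' 2
        rw [sq_abs] at h5 h6
        unfold g2
        linarith
      have hint : ∀ {u : ℝ × ℝ → ℝ} {K : ℝ≥0}, LipschitzOnWith K u O →
          IntegrableOn (g2 u) (A \ E) := by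
        intro u K hu
        refine Measure.integrableOn_of_bounded (M := 2 * (K : ℝ) ^ 2) hfinA
          (measurable_g2 u).aestronglyMeasurable ?_
        rw [ae_restrict_iff' hAm]
        refine Eventually.of_forall fun p hp => ?_
        rw [Real.norm_eq_abs, abs_of_nonneg (g2_nonneg _ _)]
        exact hgb hu p (hAO hp.1)
      have hTu : LipschitzOnWith (LT * L) (fun q => T (Fe (n + N) q)) O :=
        hT.comp_lipschitzOnWith hL
      have hae1 : ∀ᵐ p : ℝ × ℝ, p ∈ O → DifferentiableAt ℝ (Fe (n + N)) p := by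
        filter_upwards [hL.ae_differentiableWithinAt_of_mem (μ := volume)] with p hp hpO
        exact (hp hpO).differentiableAt (hO.mem_nhds hpO)
      have hae2 : ∀ᵐ p : ℝ × ℝ, p ∈ O → DifferentiableAt ℝ (fun q => T (Fe (n + N) q)) p := by
        filter_upwards [hTu.ae_differentiableWithinAt_of_mem (μ := volume)] with p hp hpO
        exact (hp hpO).differentiableAt (hO.mem_nhds hpO)
      have hle : ∫ p in A \ E, g2 (fn n) p ≤ ∫ p in A \ E, (4 * (Lκ : ℝ) ^ 2 * M ^ 2 +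
          2 * (Cκ ^ 2 * (LT : ℝ) ^ 2) * g2 (Fe (n + N)) p) := by
        refine setIntegral_mono_ae_restrict (hint hLn.lipschitzOnWith)
          ((integrableOn_const hfinA).add ((hint hL).const_mul _)) ?_
        rw [EventuallyLE, ae_restrict_iff' hAm]
        filter_upwards [hae1, hae2, hκ.ae_differentiableAt (μ := volume)] with p h1 h2 h3 hp
        exact g2_le hT hTb hκ hCκ' h3 (h1 (hAO hp.1)) (h2 (hAO hp.1))
      have hic : IntegrableOn (fun _ : ℝ × ℝ => 4 * (Lκ : ℝ) ^ 2 * M ^ 2) (A \ E) volume :=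
        integrableOn_const hfinA
      refine hle.trans ?_
      have e1 : ∫ p in A \ E, 2 * (Cκ ^ 2 * (LT : ℝ) ^ 2) * g2 (Fe (n + N)) p =
          2 * (Cκ ^ 2 * (LT : ℝ) ^ 2) * ∫ p in A \ E, g2 (Fe (n + N)) p := integral_const_mul _ _
      rw [integral_add hic ((hint hL).const_mul _), e1, setIntegral_const, smul_eq_mul]
      refine add_le_add ?_ ?_
      · rw [mul_comm]
        refine mul_le_mul_of_nonneg_left ?_ (by positivity)
        exact measureReal_mono sdiff_subset hA.measure_lt_top.ne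
      · exact mul_le_mul_of_nonneg_left hen (by positivity)
    · -- charges
      have hch : ∀ Q : 𝒬, ch E univ (fn n) Q.1 ^ 2 ≤ 2 * ((Lκ : ℝ) ^ 2 * M ^ 2) * Q.1.s ^ 2 +
          (if (Q.1.car ∩ tsupport κ).Nonempty then 2 * (Cκ ^ 2 * (LT : ℝ) ^ 2) * o Q.1 ^ 2
            else 0) := by
        intro Q
        by_cases hne : (Q.1.car ∩ tsupport κ).Nonempty
        · rw [if_pos hne]
          have hQA := hAQ Q.1 Q.2 hne
          have ho0 : 0 ≤ o Q.1 := by
            obtain ⟨p, hp⟩ := Q.1.nonempty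
            have := ho Q.1 Q.2 hQA p hp p hp
            simpa using this
          have h1 : ch E univ (fn n) Q.1 ≤
              (Lκ : ℝ) * Q.1.s * M + Cκ * ((LT : ℝ) * o Q.1) := by
            refine ch_le_of_lip hLn ?_ fun p hp q hq => ?_
            · have := Q.1.hs
              have := LT.coe_nonneg
              have := Lκ.coe_nonneg
              positivity
            · refine (hpq n p q).trans ?_
              have h2 := Metric.dist_le_diam_of_mem Q.1.isCompact_car.isBounded hp hq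
              have h3 := Q.1.diam_le
              have h4 := ho Q.1 Q.2 hQA p hp q hq
              have h5 : dist p q ≤ Q.1.s := h2.trans h3
              gcongr
          have h2 := pow_le_pow_left₀ (ch_nonneg _ _ _ _) h1 2
          refine h2.trans ?_
          nlinarith [sq_nonneg ((Lκ : ℝ) * Q.1.s * M - Cκ * ((LT : ℝ) * o Q.1))]
        · rw [if_neg hne, add_zero]
          have h1 : ch E univ (fn n) Q.1 ≤ 0 := by
            refine ch_le_of_lip hLn le_rfl fun p hp q hq => ?_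
            have h0 : ∀ r ∈ Q.1.car, fn n r = 0 := fun r hr => by
              rw [hfn]; simp only
              rw [hκz r fun h' => hne ⟨r, hr, h'⟩, zero_mul]
            rw [h0 p hp, h0 q hq]; simp
          have h2 : ch E univ (fn n) Q.1 = 0 := le_antisymm h1 (ch_nonneg _ _ _ _)
          rw [h2, zero_pow two_ne_zero]
          positivity
      have hCnn : 0 ≤ C := by
        have := hos ∅ (by simp)
        simpa using this
      refine Real.tsum_le_of_sum_le (fun Q => sq_nonneg _) fun t => ?_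
      refine (Finset.sum_le_sum fun Q _ => hch Q).trans ?_
      rw [Finset.sum_add_distrib]
      refine add_le_add ?_ ?_
      · rw [← Finset.mul_sum]
        exact mul_le_mul_of_nonneg_left
          (hE.summable_sq.sum_le_tsum t fun _ _ => sq_nonneg _) (by positivity)
      · rw [← Finset.sum_filter, ← Finset.mul_sum]
        refine mul_le_mul_of_nonneg_left ?_ (by positivity)
        have h1 := hos ((t.filter fun Q => (Q.1.car ∩ tsupport κ).Nonempty).map
          (Function.Embedding.subtype _)) (fun Q hQ => by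
            obtain ⟨Q', hQ', rfl⟩ := Finset.mem_map.1 hQ
            exact ⟨Q'.2, hAQ Q'.1 Q'.2 (Finset.mem_filter.1 hQ').2⟩)
        rw [Finset.sum_map] at h1
        exact h1

end Crest.Agent.R105.Psq_463
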