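import Crest.Agent.R105.Aps2_187
import Crest.Agent.R105.Mq2_347
import Crest.Agent.R105.Psq3_463

/-! Row 105, S0138, APS: from line formulas (347's `LineB`) to the box means (`Means` of 463). -/

set_option autoImplicit false

open MeasureTheory Set Metric Filter Topology
open scoped ENNReal Function NNReal

namespace Crest.Agent.R105.Aps_187

open Crest.Agent.R105.Mq_347 (vol_cb H NQ measurableSet_NQ measurable_H LF bm LineB H_sq_le)
open Crest.Agent.R105.CF_363 Crest.Agent.R105.Stp_722 Crest.Agent.R105.Cq_463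
open Crest.Agent.R105.Psq_463 (Means)

noncomputable section

variable {ι : Type*} {c : ι → ℝ × ℝ} {h : ι → ℝ} {μ : ι → Measure (ℝ × ℝ)} {G : ℝ × ℝ → ℝ≥0∞}
  {ε : ℝ} {R G0 E : Set (ℝ × ℝ)} {ψ Ψ F : ℝ × ℝ → ℝ} {𝒬 : Set Sqr}

theorem bm_near {m δ : ℝ} {p : ℝ × ℝ} (hε : 0 < ε) (hi : IntegrableOn ψ (closedBall p ε))
    (hδ : ∀ᵐ u : ℝ × ℝ, u ∈ closedBall p ε → |ψ u - m| ≤ δ) : |bm ε ψ p - m| ≤ δ := by
  have hv : volume.real (closedBall p ε) = 4 * ε ^ 2 := by
    rw [measureReal_def, vol_cb p hε.le, ENNReal.toReal_ofReal (by positivity)]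
  have hv1 : volume (closedBall p ε) ≠ ∞ := by rw [vol_cb p hε.le]; exact ENNReal.ofReal_ne_top
  have e1 : bm ε ψ p - m = (4 * ε ^ 2)⁻¹ * ∫ u in closedBall p ε, (ψ u - m) := by
    rw [integral_sub hi (integrableOn_const hv1), setIntegral_const, hv, smul_eq_mul]
    unfold bm
    field_simp
  have h1 : ‖∫ u in closedBall p ε, (ψ u - m)‖ ≤ δ * volume.real (closedBall p ε) := by
    refine norm_setIntegral_le_of_norm_le_const_ae' hv1.lt_top ?_
    filter_upwards [hδ] with u hu hup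
    rw [Real.norm_eq_abs]; exact hu hup
  rw [e1, abs_mul, abs_of_pos (by positivity), ← Real.norm_eq_abs]
  calc (4 * ε ^ 2)⁻¹ * ‖∫ u in closedBall p ε, (ψ u - m)‖
      ≤ (4 * ε ^ 2)⁻¹ * (δ * volume.real (closedBall p ε)) := by gcongr
    _ = δ := by rw [hv]; field_simp

theorem O1_of_line (hL : LineB R ψ Ψ G) (hG : Measurable G) (hε : 0 < ε)
    (hi : ∀ z, closedBall z (3 * ε) ⊆ R → IntegrableOn ψ (closedBall z (3 * ε))) :
    O1 R (R.indicator G) ε (bm ε ψ) := by
  intro z hz p hp q hq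
  have h1 := Crest.Agent.R105.Mq_347.O1 hL hG hε hz (hi z hz) hq hp
  have e : H ε (R.indicator G) z = H ε G z := by
    unfold H
    congr 1
    refine setLIntegral_congr_fun isClosed_closedBall.measurableSet fun u hu => ?_
    exact indicator_of_mem (hz hu) _
  rw [e, ← Real.norm_eq_abs, ofReal_norm]
  refine h1.trans ?_
  rw [mul_comm]
  gcongr
  have := dist_nonneg (x := p) (y := q)
  linarith

theorem car_inj {Q Q' : Sqr} (h : Q.car = Q'.car) : Q = Q' := by
  have key : ∀ Q Q' : Sqr, Q.car = Q'.car → Q'.x ≤ Q.x ∧ Q'.y ≤ Q.y ∧ Q.x + Q.s ≤ Q'.x + Q'.s := by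
    intro Q Q' h
    have hs := Q.hs
    have h1 : ((Q.x, Q.y) : ℝ × ℝ) ∈ Q'.car := by
      rw [← h]; exact Sqr.mem_car.2 ⟨⟨le_rfl, by simp; linarith⟩, ⟨le_rfl, by simp; linarith⟩⟩
    have h2 : ((Q.x + Q.s, Q.y) : ℝ × ℝ) ∈ Q'.car := by
      rw [← h]; exact Sqr.mem_car.2 ⟨⟨by simp; linarith, by simp⟩, ⟨le_rfl, by simp; linarith⟩⟩
    exact ⟨(Sqr.mem_car.1 h1).1.1, (Sqr.mem_car.1 h1).2.1, (Sqr.mem_car.1 h2).1.2⟩
  obtain ⟨a1, a2, a3⟩ := key Q Q' h
  obtain ⟨b1, b2, b3⟩ := key Q' Q h.symm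
  ext
  · linarith
  · linarith
  · linarith

/-- **from line formulas to box means** -/
theorem means_of_line [Countable ι] [∀ i, SFinite (μ i)] (hE : IsClosed E) (hR : IsOpen R)
    (hG0 : IsClosed G0) (hh : ∀ i, 0 < h i)
    (hd : Pairwise (Disjoint on fun i => closedBall (c i) (h i)))
    (hcE : ∀ i, closedBall (c i) (h i) ⊆ E)
    (hq : ∀ Q ∈ 𝒬, Q.car ⊆ R \ G0 → ∃ i, closedBall (c i) (h i) = Q.car)
    (hGm : Measurable G) (hG1 : ∫⁻ z in R \ G0, G z ≠ ∞) (hLF : LF c h μ G)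
    (hG2 : ∫⁻ z in (R \ G0) \ ⋃ i, closedBall (c i) (h i), G z ^ 2 ≠ ∞)
    (hμ2 : ∑' i, μ i univ ^ 2 ≠ ∞) (hL : LineB (R \ G0) ψ Ψ G)
    (hG0E : G0 ⊆ E) (hi : ∀ z r, closedBall z r ⊆ R \ G0 → IntegrableOn ψ (closedBall z r))
    {o : ι → ℝ} (ho2 : ∑' i, ENNReal.ofReal (o i) ^ 2 ≠ ∞)
    (hosc : ∀ i, closedBall (c i) (h i) ⊆ R \ G0 →
      ∃ m, ∀ᵐ u : ℝ × ℝ, u ∈ ball (c i) (h i) → |ψ u - m| ≤ o i)
    (hFc : ContinuousOn F (R \ E)) (hFψ : ∀ᵐ p : ℝ × ℝ, p ∈ R → p ∉ E → ψ p = F p) :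
    Means E R G0 𝒬 F fun n => bm (1 / ((n : ℝ) + 1)) ψ := by
  have hlim0 : Tendsto (fun n : ℕ => 1 / ((n : ℝ) + 1)) atTop (𝓝 0) :=
    tendsto_one_div_add_atTop_nhds_zero_nat
  have hpos : ∀ n : ℕ, 0 < 1 / ((n : ℝ) + 1) := fun n => by positivity
  refine ⟨fun p hpR hpE => ?_, fun A hA hAW => ?_⟩
  · -- the limit
    have hRE : IsOpen (R \ E) := hR.sdiff hE
    have hc : ContinuousAt F p := hFc.continuousAt (hRE.mem_nhds ⟨hpR, hpE⟩)
    rw [Metric.tendsto_atTop]
    intro δ hδ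
    obtain ⟨r1, hr1, h1⟩ := Metric.continuousAt_iff.1 hc (δ / 2) (by positivity)
    obtain ⟨r2, hr2, h2⟩ := Metric.isOpen_iff.1 hRE p ⟨hpR, hpE⟩
    obtain ⟨N, hN⟩ := (Metric.tendsto_atTop.1 hlim0) (min r1 r2) (by positivity)
    refine ⟨N, fun n hn => ?_⟩
    have h3 := hN n hn
    rw [Real.dist_eq, sub_zero, abs_of_pos (hpos n), lt_min_iff] at h3
    rw [Real.dist_eq]
    have hsub : closedBall p (1 / ((n : ℝ) + 1)) ⊆ R \ G0 := fun u hu => by
      have h5 := h2 (mem_ball.mpr (lt_of_le_of_lt (mem_closedBall.1 hu) h3.2))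
      exact ⟨h5.1, fun hc => h5.2 (hG0E hc)⟩
    refine lt_of_le_of_lt (bm_near (hpos n) (hi _ _ hsub) (m := F p) (δ := δ / 2) ?_) (by linarith)
    filter_upwards [hFψ] with u hu hup
    rw [mem_closedBall] at hup
    have h4 := h2 (mem_ball.mpr (lt_of_le_of_lt hup h3.2))
    rw [hu h4.1 h4.2, ← Real.dist_eq]
    exact (h1 (lt_of_le_of_lt hup h3.1)).le
  · -- the local bounds
    set W : Set (ℝ × ℝ) := R \ G0 with hWdef
    have hWo : IsOpen W := hR.sdiff hG0
    have hGm' : Measurable (W.indicator G) := hGm.indicator hWo.measurableSet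
    have hG1' : ∫⁻ z, W.indicator G z ≠ ∞ := by
      rw [lintegral_indicator hWo.measurableSet]; exact hG1
    have hLF' : LF c h μ (W.indicator G) := fun i z r hr hz =>
      (lintegral_mono fun u => indicator_le_self W G u).trans (hLF i z r hr hz)
    set U : Set (ℝ × ℝ) := ⋃ i, closedBall (c i) (h i) with hU
    have hUm : MeasurableSet U := MeasurableSet.iUnion fun i => isClosed_closedBall.measurableSet
    have hG2' : ∫⁻ z in Uᶜ, W.indicator G z ^ 2 ≠ ∞ := by
      have e : ∫⁻ z in Uᶜ, W.indicator G z ^ 2 = ∫⁻ z in W \ U, G z ^ 2 := by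
        have e1 : ∀ z, W.indicator G z ^ 2 = W.indicator (fun z => G z ^ 2) z := by
          intro z
          by_cases hz : z ∈ W
          · rw [indicator_of_mem hz, indicator_of_mem hz]
          · rw [indicator_of_notMem hz, indicator_of_notMem hz]; simp
        simp_rw [e1]
        rw [setLIntegral_indicator hWo.measurableSet, sdiff_eq]
      rw [e]; exact hG2
    set CH : ℝ≥0∞ := 200000000 * ((∫⁻ z in Uᶜ, W.indicator G z ^ 2) + ∑' i, μ i univ ^ 2) with hCH
    have hCH1 : CH ≠ ∞ := ENNReal.mul_ne_top (by norm_num) (ENNReal.add_ne_top.mpr ⟨hG2', hμ2⟩)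
    have hHle : ∀ n : ℕ, ∫⁻ z in NQ c h (1 / ((n : ℝ) + 1)),
        H (1 / ((n : ℝ) + 1)) (W.indicator G) z ^ 2 ≤ CH := fun n =>
      H_sq_le hh hd hGm' hLF' (hpos n)
    have hO1 : ∀ n : ℕ, O1 W (W.indicator G) (1 / ((n : ℝ) + 1)) (bm (1 / ((n : ℝ) + 1)) ψ) :=
      fun n => O1_of_line hL hGm (hpos n) fun z hz => hi _ _ hz
    obtain ⟨δ, hδ, hδA⟩ := hA.exists_cthickening_subset_open hWo hAW
    have hball : ∀ z ∈ A, ∀ r ≤ δ, closedBall z r ⊆ W := by
      intro z hz r hr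
      exact (closedBall_subset_closedBall hr).trans ((closedBall_subset_cthickening hz δ).trans hδA)
    set S2 : ℝ≥0∞ := 3 * (∑' i, ENNReal.ofReal (2 * o i) ^ 2) + 156 * CH with hS2
    have ho2' : ∑' i, ENNReal.ofReal (2 * o i) ^ 2 ≠ ∞ := by
      have e : ∀ i, ENNReal.ofReal (2 * o i) ^ 2 = 4 * ENNReal.ofReal (o i) ^ 2 := by
        intro i
        rw [ENNReal.ofReal_mul (by norm_num), mul_pow]
        norm_num
      simp_rw [e]
      rw [ENNReal.tsum_mul_left]
      exact ENNReal.mul_ne_top (by norm_num) ho2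
    refine ⟨max (2 * CH.toReal) S2.toReal, ?_⟩
    have hev : ∀ᶠ n : ℕ in atTop, 1 / ((n : ℝ) + 1) < δ / 4 := hlim0.eventually (gt_mem_nhds (by positivity))
    filter_upwards [hev] with n hn
    set e : ℝ := 1 / ((n : ℝ) + 1) with he
    have hen : 0 < e := hpos n
    refine ⟨?_, ?_, ?_⟩
    · obtain ⟨O, L, h1, h2, h3⟩ := lip_nhd (hO1 n) hen hG1' hA fun z hz =>
        hball z hz (4 * e) (by linarith)
      exact ⟨O, L, h1, h2, h3⟩
    · refine le_trans ?_ (le_max_left _ _)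
      refine energy (c := c) (h := h) (hO1 n) hen hGm' hG1' (hA.measurableSet.diff hE.measurableSet)
        (fun z hz i hi => ?_) (fun z hz => hball z hz.1 (3 * e) (by linarith)) (hHle n) hCH1
      have : z ∉ closedBall (c i) (h i) := fun hc => hz.2 (hcE i hc)
      rw [mem_closedBall, not_le] at this
      linarith
    · classical
      have hinn : ∀ i, closedBall (c i) (h i) ⊆ W → ∀ p, closedBall p e ⊆ closedBall (c i) (h i) →
          ∀ m, (∀ᵐ u : ℝ × ℝ, u ∈ ball (c i) (h i) → |ψ u - m| ≤ o i) →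
          |bm e ψ p - m| ≤ o i := by
        intro i hiW p hp m hm
        refine bm_near hen (hi _ _ (hp.trans hiW)) ?_
        have hae : ∀ᵐ u : ℝ × ℝ, u ∉ sphere (c i) (h i) := by
          rw [ae_iff]
          simp only [not_not]
          exact Measure.addHaar_sphere_of_ne_zero _ _ (hh i).ne'
        filter_upwards [hm, hae] with u hu hus hup
        refine hu ?_
        have h1 := hp hup
        rw [mem_closedBall] at h1
        rw [mem_ball]
        exact lt_of_le_of_ne h1 fun h2 => hus (mem_sphere.mpr h2)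
      obtain ⟨σ, hσ1, hσ2⟩ := charges (c := c) (h := h) (hO1 n) hGm' hh hd hen
        (o := fun i => ENNReal.ofReal (2 * o i)) (hHle n) hCH1 ho2'
        {i | closedBall (c i) (h i) ⊆ A}
        (fun i hi p hp => hball p (hi hp) (4 * e) (by linarith))
        (fun i hi p q hp hq => by
          have hiW : closedBall (c i) (h i) ⊆ W := subset_trans hi hAW
          obtain ⟨m, hm⟩ := hosc i hiW
          have h1 := hinn i hiW p hp m hm
          have h2 := hinn i hiW q hq m hm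
          refine ENNReal.ofReal_le_ofReal ?_
          rw [abs_le] at *
          constructor <;> linarith)
      set o' : Sqr → ℝ := fun Q => if hQ : ∃ i, closedBall (c i) (h i) = Q.car then
        σ hQ.choose else 0 with ho'
      have ho'1 : ∀ Q (hQ : ∃ i, closedBall (c i) (h i) = Q.car), o' Q = σ hQ.choose := by
        intro Q hQ; rw [ho']; simp only [dif_pos hQ]
      refine ⟨o', fun Q hQ hQA p hp q hqQ => ?_, fun t ht => ?_⟩
      · have hx := hq Q hQ (hQA.trans hAW)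
        rw [ho'1 Q hx]
        have hs := hx.choose_spec
        refine hσ1 hx.choose ?_ p (by rw [hs]; exact hp) q (by rw [hs]; exact hqQ)
        change closedBall _ _ ⊆ A
        rw [hs]; exact hQA
      · refine le_trans ?_ (le_max_right _ _)
        have hx : ∀ Q : t, ∃ i, closedBall (c i) (h i) = Q.1.car := fun Q =>
          hq Q.1 (ht Q.1 Q.2).1 ((ht Q.1 Q.2).2.trans hAW)
        set j : t → ι := fun Q => (hx Q).choose with hj
        have hji : Function.Injective j := by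
          intro Q Q' hQQ
          refine Subtype.ext (car_inj ?_)
          rw [← (hx Q).choose_spec, ← (hx Q').choose_spec]
          have : (hx Q).choose = (hx Q').choose := hQQ
          rw [this]
        calc ∑ Q ∈ t, o' Q ^ 2 = ∑ Q : t, o' Q.1 ^ 2 := (Finset.sum_coe_sort t fun Q => o' Q ^ 2).symm
          _ = ∑ Q : t, σ (j Q) ^ 2 := by
              refine Finset.sum_congr rfl fun Q _ => ?_
              rw [ho'1 Q.1 (hx Q)]
          _ = ∑ i ∈ Finset.univ.image j, σ i ^ 2 := by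
              rw [Finset.sum_image fun Q _ Q' _ hQQ => hji hQQ]
          _ ≤ S2.toReal := hσ2 _

end

end Crest.Agent.R105.Aps_187
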