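import Crest.Agent.R105.Mp4_87

/-! Row 105, S0138, exact squares: stream function in `lines form` for an integrable field
(no `L²` hypothesis), `S` relativised to columns without mass below. -/

open MeasureTheory Set Filter Topology

namespace Crest.Agent.R105.Sq_87

open Crest.Agent.R105.Mp_87 (lam lam_mono Rc measurableSet_Rc restrict_Rc hline vline wx wy ae_swap
  ae_x_of_ae ae_y_of_ae ii_mono)

/-- The stream function on `(a,b) × (c,∞)`, lower problem with level `B`, integrable field. -/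
structure LinesI (a b c B σ : ℝ) (X1 X2 : ℝ × ℝ → ℝ) (μ : Measure (ℝ × ℝ))
    (ψ Ψ : ℝ × ℝ → ℝ) : Prop where
  mψ : Measurable ψ
  mΨ : Measurable Ψ
  m1 : Measurable X1
  m2 : Measurable X2
  L1 : Integrable X1 (volume : Measure (ℝ × ℝ))
  L2 : Integrable X2 (volume : Measure (ℝ × ℝ))
  strip : ∀ p : ℝ × ℝ, B ≤ p.2 → ψ p = -σ * lam μ p.1
  V : ∀ᵐ x, x ∈ Ioo a b → ∀ y y', c < y → y ≤ y' →
    ψ (x, y') - ψ (x, y) = ∫ t in y..y', X1 (x, t)
  H : ∀ᵐ y, c < y → ∀ x ∈ Ioo a b, ∀ x' ∈ Ioo a b, x ≤ x' →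
    Ψ (x', y) - Ψ (x, y) = -(∫ s in x..x', X2 (s, y))
      - σ * (μ {q | q.1 ∈ Ico x x' ∧ q.2 < y}).toReal
  E : ∀ᵐ p : ℝ × ℝ, p.1 ∈ Ioo a b → c < p.2 → Ψ p = ψ p
  S : ∀ᵐ y, c < y → μ {q | q.2 < y ∧ μ {q2 | q2.1 = q.1 ∧ q2.2 < y} = 0 ∧
    Ψ (q.1, y) ≠ -σ * lam μ q.1} = 0

/-- good abscissa -/
structure GoodX (a b c : ℝ) (X1 : ℝ × ℝ → ℝ) (ψ Ψ : ℝ × ℝ → ℝ) (x : ℝ) : Prop where
  int : ∀ y y', IntervalIntegrable (fun t => X1 (x, t)) volume y y'
  V : ∀ y y', c < y → y ≤ y' → ψ (x, y') - ψ (x, y) = ∫ t in y..y', X1 (x, t)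
  E : ∀ᵐ y, c < y → Ψ (x, y) = ψ (x, y)

/-- good height -/
structure GoodY (a b σ : ℝ) (X2 : ℝ × ℝ → ℝ) (μ : Measure (ℝ × ℝ)) (ψ Ψ : ℝ × ℝ → ℝ)
    (y : ℝ) : Prop where
  int : ∀ x x', IntervalIntegrable (fun t => X2 (t, y)) volume x x'
  H : ∀ x ∈ Ioo a b, ∀ x' ∈ Ioo a b, x ≤ x' →
    Ψ (x', y) - Ψ (x, y) = -(∫ s in x..x', X2 (s, y))
      - σ * (μ {q | q.1 ∈ Ico x x' ∧ q.2 < y}).toReal
  E : ∀ᵐ x, x ∈ Ioo a b → Ψ (x, y) = ψ (x, y)
  S : μ {q | q.2 < y ∧ μ {q2 | q2.1 = q.1 ∧ q2.2 < y} = 0 ∧ Ψ (q.1, y) ≠ -σ * lam μ q.1} = 0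

theorem ae_int_x {X : ℝ × ℝ → ℝ} (h : Integrable X (volume : Measure (ℝ × ℝ))) :
    ∀ᵐ x : ℝ, Integrable (fun t : ℝ => X (x, t)) volume := by
  rw [Measure.volume_eq_prod] at h
  exact h.prod_right_ae

theorem ae_int_y {X : ℝ × ℝ → ℝ} (h : Integrable X (volume : Measure (ℝ × ℝ))) :
    ∀ᵐ y : ℝ, Integrable (fun s : ℝ => X (s, y)) volume := by
  rw [Measure.volume_eq_prod] at h
  exact h.prod_left_ae

variable {a b c B σ : ℝ} {X1 X2 ψ Ψ : ℝ × ℝ → ℝ} {μ : Measure (ℝ × ℝ)}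

theorem LinesI.goodX (L : LinesI a b c B σ X1 X2 μ ψ Ψ) :
    ∀ᵐ x, x ∈ Ioo a b → GoodX a b c X1 ψ Ψ x := by
  filter_upwards [ae_int_x L.L1, L.V, ae_x_of_ae L.E] with x h1 h2 h3 hx
  refine ⟨fun y y' => h1.intervalIntegrable, h2 hx, ?_⟩
  filter_upwards [h3] with y hy hc
  exact hy hx hc

theorem LinesI.goodY (L : LinesI a b c B σ X1 X2 μ ψ Ψ) :
    ∀ᵐ y, c < y → GoodY a b σ X2 μ ψ Ψ y := by
  filter_upwards [ae_int_y L.L2, L.H, ae_y_of_ae L.E, L.S] with y h1 h2 h3 h4 hy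
  refine ⟨fun x x' => h1.intervalIntegrable, h2 hy, ?_, h4 hy⟩
  filter_upwards [h3] with x hx hab
  exact hx hab hy

/-- continuity of `Ψ(·, y)` on a closed interval without atoms -/
theorem GoodY.continuousOn [IsFiniteMeasure μ] {y x0 x1 : ℝ} (G : GoodY a b σ X2 μ ψ Ψ y)
    (ha : a < x0) (hb : x1 < b)
    (hat : ∀ x ∈ Icc x0 x1, μ {q | q.1 = x ∧ q.2 < y} = 0) :
    ContinuousOn (fun s => Ψ (s, y)) (Icc x0 x1) := by
  rcases lt_or_ge x1 x0 with hlt | hle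
  · rw [Icc_eq_empty (not_le.mpr hlt)]; exact continuousOn_empty _
  set ν : Measure ℝ := (μ.restrict {q : ℝ × ℝ | q.2 < y}).map Prod.fst with hν
  have hms : MeasurableSet {q : ℝ × ℝ | q.2 < y} := measurableSet_lt measurable_snd measurable_const
  have hνa : ∀ A : Set ℝ, MeasurableSet A → ν A = μ {q | q.1 ∈ A ∧ q.2 < y} := by
    intro A hA
    rw [hν, Measure.map_apply measurable_fst hA, Measure.restrict_apply (measurable_fst hA)]
    rfl
  have : IsFiniteMeasure ν := by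
    rw [hν]; infer_instance
  -- cdf-like function
  have hG : ContinuousOn (fun s => (ν (Ico x0 s)).toReal) (Icc x0 x1) := by
    intro s hs
    -- use left/right continuity of measures of intervals
    have hs0 : ν {s} = 0 := by rw [hνa _ (measurableSet_singleton s)]; exact hat s hs
    have hkey : ∀ ε : ℝ, 0 < ε → ∃ δ > 0, (ν (Icc (s - δ) (s + δ))).toReal < ε := by
      intro ε hε
      have hanti : Antitone (fun n : ℕ => Icc (s - 1 / (n + 1 : ℝ)) (s + 1 / (n + 1 : ℝ))) := by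
        intro n m hnm
        have h1 : (1 : ℝ) / (m + 1) ≤ 1 / (n + 1) := by
          apply one_div_le_one_div_of_le (by positivity)
          have : (n : ℝ) ≤ m := by exact_mod_cast hnm
          linarith
        exact Icc_subset_Icc (by linarith) (by linarith)
      have hInt : (⋂ n : ℕ, Icc (s - 1 / (n + 1 : ℝ)) (s + 1 / (n + 1 : ℝ))) = {s} := by
        ext t
        simp only [mem_iInter, mem_Icc, mem_singleton_iff]
        constructor
        · intro h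
          have hlim : Tendsto (fun n : ℕ => (1 : ℝ) / (n + 1)) atTop (𝓝 0) :=
            tendsto_one_div_add_atTop_nhds_zero_nat
          have h1 : s ≤ t := by
            have := hlim.const_sub s
            simp only [sub_zero] at this
            exact le_of_tendsto' this (fun n => (h n).1)
          have h2 : t ≤ s := by
            have := hlim.const_add s
            simp only [add_zero] at this
            exact ge_of_tendsto' this (fun n => (h n).2)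
          exact le_antisymm h2 h1
        · rintro rfl n
          have : (0 : ℝ) ≤ 1 / (n + 1) := by positivity
          constructor <;> linarith
      have ht := tendsto_measure_iInter_atTop (μ := ν)
        (s := fun n : ℕ => Icc (s - 1 / ((n : ℝ) + 1)) (s + 1 / ((n : ℝ) + 1)))
        (fun n => measurableSet_Icc.nullMeasurableSet)
        hanti ⟨0, measure_ne_top _ _⟩
      rw [hInt, hs0] at ht
      have ht2 : Tendsto (fun n : ℕ => (ν (Icc (s - 1 / ((n : ℝ) + 1)) (s + 1 / ((n : ℝ) + 1)))).toReal)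
          atTop (𝓝 0) := by
        have := (ENNReal.tendsto_toReal (by simp : (0 : ENNReal) ≠ ⊤)).comp ht
        rw [ENNReal.toReal_zero] at this
        exact this
      obtain ⟨n, hn⟩ := ((tendsto_order.1 ht2).2 ε hε).exists
      exact ⟨1 / (n + 1), by positivity, hn⟩
    rw [Metric.continuousWithinAt_iff]
    intro ε hε
    obtain ⟨δ, hδ, hlt⟩ := hkey ε hε
    refine ⟨δ, hδ, fun {t} ht hts => ?_⟩
    rw [Real.dist_eq] at hts ⊢
    have hts' := abs_lt.mp hts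
    rcases le_total s t with hst | hst
    · have h1 : Ico x0 t = Ico x0 s ∪ Ico s t := (Ico_union_Ico_eq_Ico hs.1 hst).symm
      have h2 : ν (Ico x0 t) = ν (Ico x0 s) + ν (Ico s t) := by
        rw [h1, measure_union (Ico_disjoint_Ico_same) measurableSet_Ico]
      rw [h2, ENNReal.toReal_add (measure_ne_top _ _) (measure_ne_top _ _), add_sub_cancel_left,
        abs_of_nonneg ENNReal.toReal_nonneg]
      refine lt_of_le_of_lt (ENNReal.toReal_mono (measure_ne_top _ _) (measure_mono ?_)) hlt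
      intro r hr
      exact ⟨by linarith [hr.1], by linarith [hr.2]⟩
    · have h1 : Ico x0 s = Ico x0 t ∪ Ico t s := (Ico_union_Ico_eq_Ico ht.1 hst).symm
      have h2 : ν (Ico x0 s) = ν (Ico x0 t) + ν (Ico t s) := by
        rw [h1, measure_union (Ico_disjoint_Ico_same) measurableSet_Ico]
      rw [h2, ENNReal.toReal_add (measure_ne_top _ _) (measure_ne_top _ _), abs_sub_comm,
        add_sub_cancel_left, abs_of_nonneg ENNReal.toReal_nonneg]
      refine lt_of_le_of_lt (ENNReal.toReal_mono (measure_ne_top _ _) (measure_mono ?_)) hlt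
      intro r hr
      exact ⟨by linarith [hr.1], by linarith [hr.2]⟩
  have hac : ContinuousOn (fun s => ∫ t in x0..s, X2 (t, y)) (Icc x0 x1) := by
    have h1 := (G.int x0 x1).absolutelyContinuousOnInterval_intervalIntegral
      (c := x0) (by simp)
    have h2 := h1.continuousOn
    rwa [uIcc_of_le hle] at h2
  have hcomb : ContinuousOn (fun s => Ψ (x0, y) - (∫ t in x0..s, X2 (t, y))
      - σ * (ν (Ico x0 s)).toReal) (Icc x0 x1) :=
    (continuousOn_const.sub hac).sub (continuousOn_const.mul hG)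
  apply hcomb.congr
  intro s hs
  have h1 := G.H x0 ⟨ha, lt_of_le_of_lt hle hb⟩ s ⟨lt_of_lt_of_le ha hs.1, lt_of_le_of_lt hs.2 hb⟩ hs.1
  rw [← hνa _ measurableSet_Ico] at h1
  simp only
  linarith

/-- the four sides of a rectangle are good and there is no atom in the column below its top -/
structure GoodR (a b c σ : ℝ) (X1 X2 : ℝ × ℝ → ℝ) (μ : Measure (ℝ × ℝ)) (ψ Ψ : ℝ × ℝ → ℝ)
    (x0 x1 y0 y1 : ℝ) : Prop where
  ha : a < x0
  hx : x0 < x1
  hb : x1 < b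
  hc : c < y0
  hy : y0 < y1
  gx0 : GoodX a b c X1 ψ Ψ x0
  gx1 : GoodX a b c X1 ψ Ψ x1
  gy0 : GoodY a b σ X2 μ ψ Ψ y0
  gy1 : GoodY a b σ X2 μ ψ Ψ y1
  hat : ∀ x ∈ Icc x0 x1, μ {q | q.1 = x ∧ q.2 < y1} = 0

/-- boundary values `≤ M` -/
structure BdLe (M : ℝ) (ψ Ψ : ℝ × ℝ → ℝ) (x0 x1 y0 y1 : ℝ) : Prop where
  l : ∀ y ∈ Icc y0 y1, ψ (x0, y) ≤ M
  r : ∀ y ∈ Icc y0 y1, ψ (x1, y) ≤ M
  d : ∀ x ∈ Icc x0 x1, Ψ (x, y0) ≤ M
  u : ∀ x ∈ Icc x0 x1, Ψ (x, y1) ≤ M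

theorem flux_zero [IsFiniteMeasure μ] (L : LinesI a b c B σ X1 X2 μ ψ Ψ) (hσ : σ = 1 ∨ σ = -1)
    {x0 x1 y0 y1 M : ℝ} (R : GoodR a b c σ X1 X2 μ ψ Ψ x0 x1 y0 y1)
    (hM : BdLe M ψ Ψ x0 x1 y0 y1) :
    ∀ᵐ y, y ∈ Ioo y0 y1 → μ {q | q.1 ∈ Ioo x0 x1 ∧ q.2 < y ∧ M < Ψ (q.1, y)} = 0 := by
  have hC : μ {q | q.1 ∈ Ioo x0 x1 ∧ q.2 < y1 ∧ M < -σ * lam μ q.1} = 0 := by
    rcases lt_or_ge B y1 with hB | hB
    · have hemp : {q : ℝ × ℝ | q.1 ∈ Ioo x0 x1 ∧ q.2 < y1 ∧ M < -σ * lam μ q.1} = ∅ := by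
        ext q
        simp only [mem_ofPred_eq, mem_empty_iff_false, iff_false, not_and, not_lt]
        intro hq _
        set y := (max B y0 + y1) / 2 with hy
        have hm : max B y0 < y1 := max_lt hB R.hy
        have hyB : B ≤ y := by
          have := le_max_left B y0
          rw [hy]; linarith
        have hyI : y ∈ Icc y0 y1 := by
          have := le_max_right B y0
          constructor <;> rw [hy] <;> linarith
        have h0 := hM.l y hyI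
        have h1 := hM.r y hyI
        rw [L.strip (x0, y) hyB] at h0
        rw [L.strip (x1, y) hyB] at h1
        simp only at h0 h1
        have m0 := lam_mono μ hq.1.le
        have m1 := lam_mono μ hq.2.le
        rcases hσ with rfl | rfl <;> linarith
      rw [hemp]; exact measure_empty
    · apply measure_mono_null _ R.gy1.S
      intro q hq
      refine ⟨hq.2.1, R.hat q.1 ⟨hq.1.1.le, hq.1.2.le⟩, fun heq => ?_⟩
      have h1 := hM.u q.1 ⟨hq.1.1.le, hq.1.2.le⟩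
      rw [heq] at h1
      exact absurd hq.2.2 (not_lt.mpr h1)
  filter_upwards [L.S] with y hS hy
  have hyc : c < y := R.hc.trans hy.1
  apply measure_mono_null _ (measure_union_null (hS hyc) hC)
  intro q hq
  by_cases h : Ψ (q.1, y) = -σ * lam μ q.1
  · right
    exact ⟨hq.1, hq.2.1.trans hy.2, h ▸ hq.2.2⟩
  · left
    refine ⟨hq.2.1, ?_, h⟩
    apply measure_mono_null _ (R.hat q.1 ⟨hq.1.1.le, hq.1.2.le⟩)
    intro q2 hq2
    exact ⟨hq2.1, hq2.2.trans hy.2⟩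

/-- horizontal lines of `w = (ψ-M)⁺` -/
theorem w_hlines [IsFiniteMeasure μ] (L : LinesI a b c B σ X1 X2 μ ψ Ψ) (hσ : σ = 1 ∨ σ = -1)
    {x0 x1 y0 y1 M : ℝ} (R : GoodR a b c σ X1 X2 μ ψ Ψ x0 x1 y0 y1)
    (hM : BdLe M ψ Ψ x0 x1 y0 y1) :
    ∀ᵐ y, y ∈ Ioo y0 y1 → (∀ x ∈ Icc x0 x1, max (Ψ (x, y) - M) 0 =
      ∫ s in x0..x, wx M X2 Ψ (s, y)) ∧ Ψ (x0, y) ≤ M ∧ Ψ (x1, y) ≤ M := by
  filter_upwards [flux_zero L hσ R hM, L.goodY, R.gx0.E, R.gx1.E] with y h1 h2 h3 h4 hy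
  have hyc : c < y := R.hc.trans hy.1
  have G := h2 hyc
  have hat' : ∀ x ∈ Icc x0 x1, μ {q | q.1 = x ∧ q.2 < y} = 0 := by
    intro x hx
    apply measure_mono_null _ (R.hat x hx)
    intro q hq
    exact ⟨hq.1, hq.2.trans hy.2⟩
  have hyI : y ∈ Icc y0 y1 := ⟨hy.1.le, hy.2.le⟩
  have e0 : Ψ (x0, y) ≤ M := by rw [h3 hyc]; exact hM.l y hyI
  have e1 : Ψ (x1, y) ≤ M := by rw [h4 hyc]; exact hM.r y hyI
  refine ⟨?_, e0, e1⟩
  have hmem : ∀ x ∈ Icc x0 x1, x ∈ Ioo a b := fun x hx =>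
    ⟨lt_of_lt_of_le R.ha hx.1, lt_of_le_of_lt hx.2 R.hb⟩
  exact hline R.hx.le (G.int x0 x1) (G.continuousOn R.ha R.hb hat')
    (fun x hx x' hx' hxx' => G.H x (hmem x hx) x' (hmem x' hx') hxx') hat' e0 (h1 hy)

/-- vertical lines of `w = (ψ-M)⁺` -/
theorem w_vlines (L : LinesI a b c B σ X1 X2 μ ψ Ψ)
    {x0 x1 y0 y1 M : ℝ} (R : GoodR a b c σ X1 X2 μ ψ Ψ x0 x1 y0 y1)
    (hM : BdLe M ψ Ψ x0 x1 y0 y1) :
    ∀ᵐ x, x ∈ Ioo x0 x1 → (∀ y ∈ Icc y0 y1, max (ψ (x, y) - M) 0 =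
      ∫ t in y0..y, wy M X1 ψ (x, t)) ∧ ψ (x, y0) ≤ M ∧ ψ (x, y1) ≤ M := by
  filter_upwards [L.goodX, R.gy0.E, R.gy1.E] with x h1 h2 h3 hx
  have hxab : x ∈ Ioo a b := ⟨R.ha.trans hx.1, hx.2.trans R.hb⟩
  have G := h1 hxab
  have hxI : x ∈ Icc x0 x1 := ⟨hx.1.le, hx.2.le⟩
  have e0 : ψ (x, y0) ≤ M := by rw [← h2 hxab]; exact hM.d x hxI
  have e1 : ψ (x, y1) ≤ M := by rw [← h3 hxab]; exact hM.u x hxI
  refine ⟨?_, e0, e1⟩
  exact vline R.hy.le (G.int y0 y1)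
    (fun y hy => by have := G.V y0 y R.hc hy.1; linarith) e0

end Crest.Agent.R105.Sq_87
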