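import Crest.Agent.R105.Str5_421
import Crest.Agent.R105.SqA_87

/-!
Row 105, lemma A with squares (helper421): `LinesI` for an integrable field.
-/

open MeasureTheory Set Filter Topology
open Crest.Agent.R105.CF_363 (Hair)
open Crest.Agent.R105.Mp_87 (lam)
open Crest.Agent.R105.Sq_87 (LinesI)

namespace Crest.Agent.R105.Str_421

variable {a b c B : ℝ} {𝓗 : Set Hair} {X1 X2 : ℝ × ℝ → ℝ} {μ : Measure (ℝ × ℝ)}

/-- **The stream function on a rectangle** for an integrable field. -/
theorem linesI [IsFiniteMeasure μ] (hab : a < b) (hcB : c < B) (h : FlowF a b c B 𝓗 X1 X2 μ) :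
    LinesI a b c B 1 X1 X2 μ (psi X1 μ) (Psi a b X1 X2 μ) where
  mψ := meas_psi h.m1
  mΨ := meas_Psi h.m1 h.m2
  m1 := h.m1
  m2 := h.m2
  L1 := h.i1
  L2 := h.i2
  strip p hp := by rw [strip_eq h p hp]; ring
  V := by
    filter_upwards [V_ae h] with x hx _ y y' _ _
    exact hx y y'
  H := by
    filter_upwards [H_ae h] with y hy _ x _ x' _ hxx
    rw [hy x x' hxx]; ring
  E := E_ae hab h
  S := by
    filter_upwards [S_rel hab hcB h] with y hy hcy
    simpa only [neg_one_mul] using hy hcy

end Crest.Agent.R105.Str_421
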