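import Crest.Agent.R105.SqF2_136
import Crest.Agent.R105.Str8_421

/-! Row 105, S0138, APS: refilling of squares. Two integrable fields with the same boundary functional
on every open square differ by the rotated gradient of a function which vanishes off the open
squares. -/

open MeasureTheory Set Filter Topology Metric
open scoped NNReal

namespace Crest.Agent.R105.Mq_347

open Crest.Agent.R105.CF_363 (gx gy SL cut Hair CF measurable_gx measurable_gy gx_congr gy_congr
  gx_eq_deriv gy_eq_deriv)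
open Crest.Agent.R105.Str_421
open Crest.Agent.R105.SqF_136 (FillC FillP fill2)

theorem mem_ball_iff {c : ℝ × ℝ} {h : ℝ} {p : ℝ × ℝ} :
    p ∈ ball c h ↔ p.1 ∈ Ioo (c.1 - h) (c.1 + h) ∧ p.2 ∈ Ioo (c.2 - h) (c.2 + h) := by
  rw [mem_ball, Prod.dist_eq, max_lt_iff, Real.dist_eq, Real.dist_eq, abs_lt, abs_lt, mem_Ioo,
    mem_Ioo]
  constructor
  · rintro ⟨⟨h1, h2⟩, h3, h4⟩
    exact ⟨⟨by linarith, by linarith⟩, by linarith, by linarith⟩
  · rintro ⟨⟨h1, h2⟩, h3, h4⟩
    exact ⟨⟨by linarith, by linarith⟩, by linarith, by linarith⟩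

/-- zero integral over all intervals of a family: zero integral over half lines ending outside -/
theorem line_zero1 {ι : Type*} [Countable ι] {I : ι → Set ℝ} (hm : ∀ i, MeasurableSet (I i))
    (ho : ∀ i, (I i).OrdConnected) (hd : Pairwise fun i j => Disjoint (I i) (I j))
    {w : ℝ → ℝ} (hw : Integrable w) (h0 : ∀ s, s ∉ ⋃ i, I i → w s = 0)
    (hj : ∀ i, ∫ s in I i, w s = 0) {x : ℝ} (hx : x ∉ ⋃ i, I i) :
    ∫ s in Iio x, w s = 0 := by
  have hT : ∀ i, ∫ s in I i ∩ Iio x, w s = 0 := by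
    intro i
    by_cases hne : ∃ s ∈ I i, s < x
    · obtain ⟨s, hs, hsx⟩ := hne
      have : I i ∩ Iio x = I i := by
        refine inter_eq_left.mpr fun t ht => ?_
        by_contra hcon
        exact hx (mem_iUnion.mpr ⟨i, (ho i).out hs ht ⟨hsx.le, not_lt.mp hcon⟩⟩)
      rw [this, hj i]
    · have : I i ∩ Iio x = ∅ := by
        ext s
        simp only [mem_inter_iff, mem_Iio, mem_empty_iff_false, iff_false, not_and, not_lt]
        intro hs
        by_contra hcon
        exact hne ⟨s, hs, not_le.mp hcon⟩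
      rw [this]; simp
  have hsub : (⋃ i, I i ∩ Iio x) ⊆ Iio x := iUnion_subset fun i => inter_subset_right
  rw [setIntegral_eq_of_subset_of_forall_sdiff_eq_zero measurableSet_Iio hsub]
  · rw [integral_iUnion (fun i => (hm i).inter measurableSet_Iio)
      (fun i j hij => (hd hij).mono inter_subset_left inter_subset_left) hw.integrableOn]
    simp [hT]
  · rintro s ⟨hs, hsn⟩
    refine h0 s fun hcon => hsn ?_
    obtain ⟨i, hi⟩ := mem_iUnion.mp hcon
    exact mem_iUnion.mpr ⟨i, hi, hs⟩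

theorem line_zero_total {ι : Type*} [Countable ι] {I : ι → Set ℝ} (hm : ∀ i, MeasurableSet (I i))
    (hd : Pairwise fun i j => Disjoint (I i) (I j))
    {w : ℝ → ℝ} (hw : Integrable w) (h0 : ∀ s, s ∉ ⋃ i, I i → w s = 0)
    (hj : ∀ i, ∫ s in I i, w s = 0) : ∫ s, w s = 0 := by
  rw [← setIntegral_eq_integral_of_forall_compl_eq_zero h0, integral_iUnion hm hd hw.integrableOn]
  simp [hj]

theorem line_zero2 {ι : Type*} [Countable ι] {I : ι → Set ℝ} (hm : ∀ i, MeasurableSet (I i))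
    (ho : ∀ i, (I i).OrdConnected) (hd : Pairwise fun i j => Disjoint (I i) (I j))
    {w : ℝ → ℝ} (hw : Integrable w) (h0 : ∀ s, s ∉ ⋃ i, I i → w s = 0)
    (hj : ∀ i, ∫ s in I i, w s = 0) {x : ℝ} (hx : x ∉ ⋃ i, I i) :
    ∫ s in Ioi x, w s = 0 := by
  have h1 := line_zero1 hm ho hd hw h0 hj hx
  have h2 := line_zero_total hm hd hw h0 hj
  have h3 := integral_add_compl (measurableSet_Iio (a := x)) hw
  rw [compl_Iio, integral_Ici_eq_integral_Ioi, h1, h2] at h3
  linarith

section Sec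

variable {ι : Type*} [Countable ι] {c : ι → ℝ × ℝ} {h : ι → ℝ} {D1 D2 : ℝ × ℝ → ℝ}

/-- the gradient of a Lipschitz function is bounded -/
theorem gx_bd {L : ℝ} {e : ℝ × ℝ → ℝ} (hL : 0 ≤ L) (he : ∀ p q, |e p - e q| ≤ L * dist p q)
    (p : ℝ × ℝ) : |gx e p| ≤ L ∧ |gy e p| ≤ L := by
  have hSL : SL univ L e := fun p q _ => he p q
  exact ⟨hSL.abs_gx_le isOpen_univ hL (mem_univ p), hSL.abs_gy_le isOpen_univ hL (mem_univ p)⟩

theorem int_mul_gx {X : ℝ × ℝ → ℝ} (hX : Integrable X) {L : ℝ} {e : ℝ × ℝ → ℝ} (hL : 0 ≤ L)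
    (he : ∀ p q, |e p - e q| ≤ L * dist p q) : Integrable fun p => X p * gx e p := by
  refine hX.mul_bdd (c := L) (measurable_gx e).aestronglyMeasurable
    (Eventually.of_forall fun p => ?_)
  rw [Real.norm_eq_abs]; exact (gx_bd hL he p).1

theorem int_mul_gy {X : ℝ × ℝ → ℝ} (hX : Integrable X) {L : ℝ} {e : ℝ × ℝ → ℝ} (hL : 0 ≤ L)
    (he : ∀ p q, |e p - e q| ≤ L * dist p q) : Integrable fun p => X p * gy e p := by
  refine hX.mul_bdd (c := L) (measurable_gy e).aestronglyMeasurable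
    (Eventually.of_forall fun p => ?_)
  rw [Real.norm_eq_abs]; exact (gx_bd hL he p).2

/-- horizontal sections of a null field have zero integral -/
theorem sec_H {c : ℝ × ℝ} {h : ℝ} (i2 : Integrable D2)
    (hN : ∀ (L : ℝ) (e : ℝ × ℝ → ℝ), 0 ≤ L → (∀ p q, |e p - e q| ≤ L * dist p q) →
      ∫ p in ball c h, (D1 p * gx e p + D2 p * gy e p) = 0) :
    ∀ᵐ y : ℝ, ∫ s in {s : ℝ | (s, y) ∈ ball c h}, D2 (s, y) = 0 := by
  have hbm : MeasurableSet (ball c h) := measurableSet_ball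
  set K : ℝ → ℝ := fun y => ∫ s, (ball c h).indicator D2 (s, y) with hK
  have hKeq : ∀ y, ∫ s in {s : ℝ | (s, y) ∈ ball c h}, D2 (s, y) = K y := by
    intro y
    have hms : MeasurableSet {s : ℝ | (s, y) ∈ ball c h} :=
      (measurable_id.prodMk measurable_const) hbm
    rw [hK]; simp only
    rw [← integral_indicator hms]
    rfl
  have hi : Integrable ((ball c h).indicator D2) := i2.indicator hbm
  have hKi : Integrable K := by
    rw [Measure.volume_eq_prod] at hi
    exact hi.integral_prod_right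
  have htest : ∀ u v : ℝ, ∫ t, I1 u v t * K t = 0 := by
    intro u v
    have hP : ∀ᵐ s, HasDerivAt (P (I1 u v)) (I1 u v s) s := P_hasDerivAt (I1_int u v)
    have hg := grad_prod (β := fun _ => (1 : ℝ)) (D := fun _ => 0)
      (Eventually.of_forall fun x => hasDerivAt_const x 1) hP
    have he : ∀ p q : ℝ × ℝ, |1 * P (I1 u v) p.2 - 1 * P (I1 u v) q.2| ≤ 1 * dist p q := by
      intro p q
      rw [one_mul, one_mul]
      refine (P_lip (I1_int u v) (I1_bdd u v) _ _).trans ?_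
      have : |p.2 - q.2| ≤ dist p q := by
        rw [← Real.dist_eq, Prod.dist_eq]; exact le_max_right _ _
      linarith
    have h1 := hN 1 _ zero_le_one he
    have h2 : ∫ p in ball c h, (D1 p * gx (fun p : ℝ × ℝ => 1 * P (I1 u v) p.2) p +
        D2 p * gy (fun p : ℝ × ℝ => 1 * P (I1 u v) p.2) p) =
        ∫ p : ℝ × ℝ, I1 u v p.2 * (ball c h).indicator D2 p := by
      rw [← integral_indicator hbm]
      refine integral_congr_ae ?_
      filter_upwards [hg] with p hp
      by_cases hpb : p ∈ ball c h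
      · rw [indicator_of_mem hpb, indicator_of_mem hpb, hp.1, hp.2]; ring
      · rw [indicator_of_notMem hpb, indicator_of_notMem hpb, mul_zero]
    rw [h2] at h1
    have hint : Integrable (fun p : ℝ × ℝ => I1 u v p.2 * (ball c h).indicator D2 p) :=
      int_mul_snd hi (I1_meas u v) (I1_bdd u v)
    have e1 : ∫ p : ℝ × ℝ, I1 u v p.2 * (ball c h).indicator D2 p =
        ∫ y, ∫ x, I1 u v (x, y).2 * (ball c h).indicator D2 (x, y) := by
      rw [Measure.volume_eq_prod] at hint ⊢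
      exact integral_prod_symm _ hint
    rw [e1] at h1
    rw [← h1]
    congr 1; ext y
    rw [hK, ← integral_const_mul]
  have h3 : ∀ n : ℕ, ∀ᵐ t : ℝ, t ∈ Ioo (-(n : ℝ)) n → K t = 0 := fun n =>
    zero_of_tests (fun u' _ => hKi.bdd_mul (c := 1) (I1_meas _ _).aestronglyMeasurable
      (Eventually.of_forall fun p => by rw [Real.norm_eq_abs]; exact I1_bdd _ _ _))
      (fun u' x _ _ _ => htest u' x)
  filter_upwards [ae_all_iff.mpr h3] with y hy
  obtain ⟨n, hn⟩ := exists_nat_gt |y|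
  rw [hKeq]
  exact hy n ⟨by linarith [neg_abs_le y], by linarith [le_abs_self y]⟩

/-- vertical sections of a null field have zero integral -/
theorem sec_V {c : ℝ × ℝ} {h : ℝ} (i1 : Integrable D1)
    (hN : ∀ (L : ℝ) (e : ℝ × ℝ → ℝ), 0 ≤ L → (∀ p q, |e p - e q| ≤ L * dist p q) →
      ∫ p in ball c h, (D1 p * gx e p + D2 p * gy e p) = 0) :
    ∀ᵐ x : ℝ, ∫ t in {t : ℝ | (x, t) ∈ ball c h}, D1 (x, t) = 0 := by
  have hbm : MeasurableSet (ball c h) := measurableSet_ball
  set K : ℝ → ℝ := fun x => ∫ t, (ball c h).indicator D1 (x, t) with hK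
  have hKeq : ∀ x, ∫ t in {t : ℝ | (x, t) ∈ ball c h}, D1 (x, t) = K x := by
    intro x
    have hms : MeasurableSet {t : ℝ | (x, t) ∈ ball c h} :=
      (measurable_const.prodMk measurable_id) hbm
    rw [hK]; simp only
    rw [← integral_indicator hms]
    rfl
  have hi : Integrable ((ball c h).indicator D1) := i1.indicator hbm
  have hKi : Integrable K := by
    rw [Measure.volume_eq_prod] at hi
    exact hi.integral_prod_left
  have htest : ∀ u v : ℝ, ∫ t, I1 u v t * K t = 0 := by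
    intro u v
    have hP : ∀ᵐ s, HasDerivAt (P (I1 u v)) (I1 u v s) s := P_hasDerivAt (I1_int u v)
    have hg := grad_prod (φ := fun _ => (1 : ℝ)) (E := fun _ => 0) hP
      (Eventually.of_forall fun x => hasDerivAt_const x 1)
    have he : ∀ p q : ℝ × ℝ, |P (I1 u v) p.1 * 1 - P (I1 u v) q.1 * 1| ≤ 1 * dist p q := by
      intro p q
      rw [mul_one, mul_one]
      refine (P_lip (I1_int u v) (I1_bdd u v) _ _).trans ?_
      have : |p.1 - q.1| ≤ dist p q := by
        rw [← Real.dist_eq, Prod.dist_eq]; exact le_max_left _ _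
      linarith
    have h1 := hN 1 _ zero_le_one he
    have h2 : ∫ p in ball c h, (D1 p * gx (fun p : ℝ × ℝ => P (I1 u v) p.1 * 1) p +
        D2 p * gy (fun p : ℝ × ℝ => P (I1 u v) p.1 * 1) p) =
        ∫ p : ℝ × ℝ, I1 u v p.1 * (ball c h).indicator D1 p := by
      rw [← integral_indicator hbm]
      refine integral_congr_ae ?_
      filter_upwards [hg] with p hp
      by_cases hpb : p ∈ ball c h
      · rw [indicator_of_mem hpb, indicator_of_mem hpb, hp.1, hp.2]; ring
      · rw [indicator_of_notMem hpb, indicator_of_notMem hpb, mul_zero]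
    rw [h2] at h1
    have hint : Integrable (fun p : ℝ × ℝ => I1 u v p.1 * (ball c h).indicator D1 p) :=
      int_mul_fst hi (I1_meas u v) (I1_bdd u v)
    have e1 : ∫ p : ℝ × ℝ, I1 u v p.1 * (ball c h).indicator D1 p =
        ∫ x, ∫ y, I1 u v (x, y).1 * (ball c h).indicator D1 (x, y) := by
      rw [Measure.volume_eq_prod] at hint ⊢
      exact integral_prod _ hint
    rw [e1] at h1
    rw [← h1]
    congr 1; ext y
    rw [hK, ← integral_const_mul]
  have h3 : ∀ n : ℕ, ∀ᵐ t : ℝ, t ∈ Ioo (-(n : ℝ)) n → K t = 0 := fun n =>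
    zero_of_tests (fun u' _ => hKi.bdd_mul (c := 1) (I1_meas _ _).aestronglyMeasurable
      (Eventually.of_forall fun p => by rw [Real.norm_eq_abs]; exact I1_bdd _ _ _))
      (fun u' x _ _ _ => htest u' x)
  filter_upwards [ae_all_iff.mpr h3] with y hy
  obtain ⟨n, hn⟩ := exists_nat_gt |y|
  rw [hKeq]
  exact hy n ⟨by linarith [neg_abs_le y], by linarith [le_abs_self y]⟩

end Sec

section Str0

variable {ι : Type*} [Countable ι] {c : ι → ℝ × ℝ} {h : ι → ℝ} {D1 D2 : ℝ × ℝ → ℝ}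
  {a b c' B : ℝ}

/-- a null field is a flow without sources -/
theorem flow0 (hd : Pairwise fun i j => Disjoint (ball (c i) (h i)) (ball (c j) (h j)))
    (hbox : ∀ i, ball (c i) (h i) ⊆ Ioo a b ×ˢ Ioo c' B)
    (m1 : Measurable D1) (m2 : Measurable D2) (i1 : Integrable D1) (i2 : Integrable D2)
    (z : ∀ p, p ∉ ⋃ i, ball (c i) (h i) → D1 p = 0 ∧ D2 p = 0)
    (hN : ∀ i, ∀ (L : ℝ) (e : ℝ × ℝ → ℝ), 0 ≤ L → (∀ p q, |e p - e q| ≤ L * dist p q) →
      ∫ p in ball (c i) (h i), (D1 p * gx e p + D2 p * gy e p) = 0) :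
    FlowF a b c' B ∅ D1 D2 0 where
  m1 := m1
  m2 := m2
  i1 := i1
  i2 := i2
  z1 p hp := by
    refine (z p fun hc => hp ?_).1
    obtain ⟨i, hi⟩ := mem_iUnion.mp hc
    have := hbox i hi
    exact ⟨this.1.1, this.1.2, this.2.1, this.2.2⟩
  z2 p hp := by
    refine (z p fun hc => hp ?_).2
    obtain ⟨i, hi⟩ := mem_iUnion.mp hc
    have := hbox i hi
    exact ⟨this.1.1, this.1.2, this.2.1, this.2.2⟩
  carried := by simp
  sat := by simp
  F := by
    intro J hJ _ e he _
    have hJ0 : J = ∅ := by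
      ext K; simp only [Finset.notMem_empty, iff_false]; exact fun hK => (hJ K hK).elim
    subst hJ0
    have hcut : cut (∅ : Finset Hair) = ∅ := by simp [cut]
    rw [hcut, sdiff_empty] at he
    obtain ⟨L, C, hL, hSL, -⟩ := he
    have hconv : Convex ℝ (Wm a b c' B) := by
      have : Wm a b c' B = Ioo a b ×ˢ Ioc c' B := by
        ext p; simp only [Wm, mem_ofPred_eq, mem_prod, mem_Ioo, mem_Ioc]; tauto
      rw [this]
      exact (convex_Ioo _ _).prod (convex_Ioc _ _)
    have hl : LipschitzOnWith (Real.toNNReal L) e (Wm a b c' B) := by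
      refine LipschitzOnWith.of_dist_le_mul fun p hp q hq => ?_
      rw [Real.dist_eq, Real.coe_toNNReal _ hL]
      exact hSL p q (hconv.segment_subset hp hq)
    obtain ⟨E, hE, hEq⟩ := hl.extend_real
    have hE' : ∀ p q : ℝ × ℝ, |E p - E q| ≤ L * dist p q := by
      intro p q
      have := hE.dist_le_mul p q
      rwa [Real.dist_eq, Real.coe_toNNReal _ hL] at this
    have hsubW : ∀ i, ball (c i) (h i) ⊆ Wm a b c' B := by
      intro i p hp
      have := hbox i hp
      exact ⟨this.1.1, this.1.2, this.2.1, this.2.2.le⟩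
    have hUW : (⋃ i, ball (c i) (h i)) ⊆ Wm a b c' B := iUnion_subset hsubW
    have hint : Integrable fun p => D1 p * gx E p + D2 p * gy E p :=
      (int_mul_gx i1 hL hE').add (int_mul_gy i2 hL hE')
    have hWm : MeasurableSet (Wm a b c' B) := by
      have : Wm a b c' B = Ioo a b ×ˢ Ioc c' B := by
        ext p; simp only [Wm, mem_ofPred_eq, mem_prod, mem_Ioo, mem_Ioc]; tauto
      rw [this]; exact measurableSet_Ioo.prod measurableSet_Ioc
    rw [integral_zero_measure]
    have e1 : ∫ p in Wm a b c' B, (D1 p * gx e p + D2 p * gy e p) =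
        ∫ p in ⋃ i, ball (c i) (h i), (D1 p * gx e p + D2 p * gy e p) :=
      setIntegral_eq_of_subset_of_forall_sdiff_eq_zero hWm hUW (fun p hp => by
        rw [(z p hp.2).1, (z p hp.2).2]; ring)
    have e2 : ∫ p in ⋃ i, ball (c i) (h i), (D1 p * gx e p + D2 p * gy e p) =
        ∫ p in ⋃ i, ball (c i) (h i), (D1 p * gx E p + D2 p * gy E p) := by
      refine setIntegral_congr_fun (MeasurableSet.iUnion fun i => measurableSet_ball) ?_
      intro p hp
      obtain ⟨i, hi⟩ := mem_iUnion.mp hp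
      have hev : e =ᶠ[𝓝 p] E := by
        filter_upwards [isOpen_ball.mem_nhds hi] with q hq using hEq (hsubW i hq)
      simp only
      rw [gx_congr hev, gy_congr hev]
    rw [e1, e2, integral_iUnion (fun i => measurableSet_ball) hd hint.integrableOn]
    simp [hN _ L E hL hE']

/-- sections of the family of squares -/
theorem secH_ord (c : ℝ × ℝ) (h y : ℝ) : ({s : ℝ | (s, y) ∈ ball c h}).OrdConnected := by
  by_cases hy : y ∈ Ioo (c.2 - h) (c.2 + h)
  · have : {s : ℝ | (s, y) ∈ ball c h} = Ioo (c.1 - h) (c.1 + h) := by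
      ext s; rw [mem_ofPred_eq, mem_ball_iff]; exact ⟨fun hh => hh.1, fun hh => ⟨hh, hy⟩⟩
    rw [this]; exact ordConnected_Ioo
  · have : {s : ℝ | (s, y) ∈ ball c h} = ∅ := by
      ext s; rw [mem_ofPred_eq, mem_ball_iff]; exact ⟨fun hh => hy hh.2, fun hh => hh.elim⟩
    rw [this]; exact ordConnected_empty

theorem secV_ord (c : ℝ × ℝ) (h x : ℝ) : ({t : ℝ | (x, t) ∈ ball c h}).OrdConnected := by
  by_cases hx : x ∈ Ioo (c.1 - h) (c.1 + h)
  · have : {t : ℝ | (x, t) ∈ ball c h} = Ioo (c.2 - h) (c.2 + h) := by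
      ext s; rw [mem_ofPred_eq, mem_ball_iff]; exact ⟨fun hh => hh.2, fun hh => ⟨hx, hh⟩⟩
    rw [this]; exact ordConnected_Ioo
  · have : {t : ℝ | (x, t) ∈ ball c h} = ∅ := by
      ext s; rw [mem_ofPred_eq, mem_ball_iff]; exact ⟨fun hh => hx hh.1, fun hh => hh.elim⟩
    rw [this]; exact ordConnected_empty

theorem secH_meas (c : ℝ × ℝ) (h y : ℝ) : MeasurableSet {s : ℝ | (s, y) ∈ ball c h} :=
  (measurable_id.prodMk measurable_const) measurableSet_ball

theorem secV_meas (c : ℝ × ℝ) (h x : ℝ) : MeasurableSet {t : ℝ | (x, t) ∈ ball c h} :=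
  (measurable_const.prodMk measurable_id) measurableSet_ball

/-- **the stream function of a null field vanishes off the open squares** -/
theorem stream0 (hd : Pairwise fun i j => Disjoint (ball (c i) (h i)) (ball (c j) (h j)))
    (hab : a < b) (hbox : ∀ i, ball (c i) (h i) ⊆ Ioo a b ×ˢ Ioo c' B)
    (m1 : Measurable D1) (m2 : Measurable D2) (i1 : Integrable D1) (i2 : Integrable D2)
    (z : ∀ p, p ∉ ⋃ i, ball (c i) (h i) → D1 p = 0 ∧ D2 p = 0)
    (hN : ∀ i, ∀ (L : ℝ) (e : ℝ × ℝ → ℝ), 0 ≤ L → (∀ p q, |e p - e q| ≤ L * dist p q) →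
      ∫ p in ball (c i) (h i), (D1 p * gx e p + D2 p * gy e p) = 0) :
    ∃ δV δH : ℝ × ℝ → ℝ, Measurable δV ∧ Measurable δH ∧
      (∀ p, p ∉ ⋃ i, ball (c i) (h i) → δV p = 0 ∧ δH p = 0) ∧
      (∀ᵐ p : ℝ × ℝ, δH p = δV p) ∧
      (∀ᵐ x : ℝ, ∀ y y', δV (x, y') - δV (x, y) = ∫ t in y..y', D1 (x, t)) ∧
      (∀ᵐ y : ℝ, ∀ x x', δH (x', y) - δH (x, y) = -∫ s in x..x', D2 (s, y)) := by
  set U : Set (ℝ × ℝ) := ⋃ i, ball (c i) (h i) with hU
  have hUm : MeasurableSet U := MeasurableSet.iUnion fun i => measurableSet_ball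
  have hbox' : ∀ i, ball (c i) (h i) ⊆ Ioo (a - 1) b ×ˢ Ioo c' B := fun i p hp =>
    ⟨⟨by linarith [(hbox i hp).1.1], (hbox i hp).1.2⟩, (hbox i hp).2⟩
  have FF := flow0 hd hbox' m1 m2 i1 i2 z hN
  have hab' : a - 1 < b := by linarith
  have mψ : Measurable (psi D1 0) := meas_psi m1
  have mG : Measurable (GG D2 0) := meas_GG m2
  have hψ : ∀ p, psi D1 0 p = - ∫ t in Ioi p.2, D1 (p.1, t) := by
    intro p
    have h0 : Crest.Agent.R105.Mp_87.lam 0 p.1 = 0 := by rw [lam_eq]; simp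
    unfold psi
    rw [h0]
    simp only [neg_zero, zero_sub]
    rfl
  have hG : ∀ p, GG D2 0 p = - ∫ s in Iio p.1, D2 (s, p.2) := by
    intro p
    unfold GG
    simp only [Measure.coe_zero, Pi.zero_apply, ENNReal.toReal_zero, sub_zero]
    rfl
  -- vertical lines
  have hx1 : ∀ᵐ x : ℝ, Integrable (fun t => D1 (x, t)) := by
    have := i1
    rw [Measure.volume_eq_prod] at this
    exact this.prod_right_ae
  have hy1 : ∀ᵐ y : ℝ, Integrable (fun s => D2 (s, y)) := by
    have := i2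
    rw [Measure.volume_eq_prod] at this
    exact this.prod_left_ae
  have hVz : ∀ᵐ x : ℝ, ∀ y, (x, y) ∉ U → psi D1 0 (x, y) = 0 := by
    filter_upwards [hx1, ae_all_iff.mpr fun i => sec_V i1 (hN i)] with x h1 h2 y hy
    rw [hψ, neg_eq_zero]
    refine line_zero2 (I := fun i => {t : ℝ | (x, t) ∈ ball (c i) (h i)})
      (fun i => secV_meas _ _ _) (fun i => secV_ord _ _ _) ?_ h1 ?_ h2 ?_
    · intro i j hij
      exact Set.disjoint_left.mpr fun t h3 h4 => Set.disjoint_left.mp (hd hij) h3 h4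
    · intro s hs
      refine (z (x, s) fun hc => hs ?_).1
      obtain ⟨i, hi⟩ := mem_iUnion.mp hc
      exact mem_iUnion.mpr ⟨i, hi⟩
    · intro hc
      obtain ⟨i, hi⟩ := mem_iUnion.mp hc
      exact hy (mem_iUnion.mpr ⟨i, hi⟩)
  have hHz : ∀ᵐ y : ℝ, ∀ x, (x, y) ∉ U → GG D2 0 (x, y) = 0 := by
    filter_upwards [hy1, ae_all_iff.mpr fun i => sec_H i2 (hN i)] with y h1 h2 x hx
    rw [hG, neg_eq_zero]
    refine line_zero1 (I := fun i => {s : ℝ | (s, y) ∈ ball (c i) (h i)})
      (fun i => secH_meas _ _ _) (fun i => secH_ord _ _ _) ?_ h1 ?_ h2 ?_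
    · intro i j hij
      exact Set.disjoint_left.mpr fun t h3 h4 => Set.disjoint_left.mp (hd hij) h3 h4
    · intro s hs
      refine (z (s, y) fun hc => hs ?_).2
      obtain ⟨i, hi⟩ := mem_iUnion.mp hc
      exact mem_iUnion.mpr ⟨i, hi⟩
    · intro hc
      obtain ⟨i, hi⟩ := mem_iUnion.mp hc
      exact hx (mem_iUnion.mpr ⟨i, hi⟩)
  refine ⟨U.indicator (psi D1 0), U.indicator (GG D2 0), mψ.indicator hUm, mG.indicator hUm,
    fun p hp => ⟨indicator_of_notMem hp _, indicator_of_notMem hp _⟩, ?_, ?_, ?_⟩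
  · -- a.e. equality
    have hE := E_ae hab' FF
    have hE' := Crest.Agent.R105.CF_363.ae_swap hE
    have hC : ∀ᵐ y : ℝ, c' < y → CC (a - 1) b D1 D2 0 y = 0 := by
      filter_upwards [hE'] with y hy hcy
      have hpos : (volume : Measure ℝ) (Ioo (a - 1) a) ≠ 0 := by
        rw [Real.volume_Ioo]; simp
      obtain ⟨x, hxI, hx⟩ := (frequently_ae_mem_iff.mpr hpos |>.and_eventually hy).exists
      have h1 := hx ⟨hxI.1, by linarith [hxI.2]⟩ hcy
      have hz : ∀ s t : ℝ, s ≤ a → D1 (s, t) = 0 ∧ D2 (s, t) = 0 := by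
        intro s t hs
        refine z (s, t) fun hc => ?_
        obtain ⟨i, hi⟩ := mem_iUnion.mp hc
        exact absurd (hbox i hi).1.1 (not_lt.mpr hs)
      have h2 : psi D1 0 (x, y) = 0 := by
        rw [hψ, neg_eq_zero]
        exact setIntegral_eq_zero_of_forall_eq_zero fun t _ => (hz x t hxI.2.le).1
      have h3 : GG D2 0 (x, y) = 0 := by
        rw [hG, neg_eq_zero]
        exact setIntegral_eq_zero_of_forall_eq_zero fun s hs => (hz s y (le_of_lt (lt_trans hs hxI.2))).2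
      unfold Psi at h1
      rw [h2, h3, zero_add] at h1
      exact h1
    filter_upwards [hE, ae_snd hC] with p h1 h2
    by_cases hp : p ∈ U
    · rw [indicator_of_mem hp, indicator_of_mem hp]
      obtain ⟨i, hi⟩ := mem_iUnion.mp hp
      have hb := hbox' i hi
      have h3 := h1 hb.1 hb.2.1
      unfold Psi at h3
      rw [h2 hb.2.1, add_zero] at h3
      exact h3
    · rw [indicator_of_notMem hp, indicator_of_notMem hp]
  · filter_upwards [V_ae FF, hVz] with x h1 h2 y y'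
    have e : ∀ y, U.indicator (psi D1 0) (x, y) = psi D1 0 (x, y) := by
      intro y
      by_cases hp : (x, y) ∈ U
      · exact indicator_of_mem hp _
      · rw [indicator_of_notMem hp, h2 y hp]
    rw [e, e]
    exact h1 y y'
  · filter_upwards [hy1, hHz] with y h1 h2 x x'
    have e : ∀ x, U.indicator (GG D2 0) (x, y) = GG D2 0 (x, y) := by
      intro x
      by_cases hp : (x, y) ∈ U
      · exact indicator_of_mem hp _
      · rw [indicator_of_notMem hp, h2 x hp]
    rw [e, e, hG, hG]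
    have e1 := intervalIntegral.integral_Iic_sub_Iic (f := fun s => D2 (s, y)) (μ := volume)
      (a := x) (b := x') h1.integrableOn h1.integrableOn
    rw [integral_Iic_eq_integral_Iio, integral_Iic_eq_integral_Iio] at e1
    rw [← e1]; ring

end Str0

section Refill

variable {ι : Type*} [Countable ι] {c : ι → ℝ × ℝ} {h : ι → ℝ}
  {a b c' B : ℝ}

/-- the mass bound of the fill -/
theorem FillP_bound {x y h : ℝ} (hh : 0 < h) {n1 n2 : Measure (ℝ × ℝ)} {Y1 Y2 : ℝ × ℝ → ℝ}
    (C : FillP x y h n1 n2 Y1 Y2) :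
    (∫ u in ball (x, y) h, |Y1 u| ≤ 2 * h * (n1 univ + n2 univ).toReal) ∧
    (∫ u in ball (x, y) h, |Y2 u| ≤ 2 * h * (n1 univ + n2 univ).toReal) := by
  have h1 := C.F3 (x - h) (x + h) (y - h) (y + h) (by linarith) (by linarith) univ
    MeasurableSet.univ (fun _ _ _ _ _ => mem_univ _)
  have e : ball (x, y) h = Ioo (x - h) (x + h) ×ˢ Ioo (y - h) (y + h) := by
    ext p; rw [mem_ball_iff]; rfl
  rw [e]
  constructor
  · have := h1.1
    have e2 : x + h - (x - h) = 2 * h := by ring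
    rwa [e2] at this
  · have := h1.2
    have e2 : y + h - (y - h) = 2 * h := by ring
    rwa [e2] at this

/-- **REFILL.** -/
theorem refill (hh : ∀ i, 0 < h i)
    (hd : Pairwise fun i j => Disjoint (ball (c i) (h i)) (ball (c j) (h j)))
    (hab : a < b) (hbox : ∀ i, ball (c i) (h i) ⊆ Ioo a b ×ˢ Ioo c' B)
    (n1 n2 : ι → Measure (ℝ × ℝ)) [∀ i, IsFiniteMeasure (n1 i)] [∀ i, IsFiniteMeasure (n2 i)]
    (h1 : ∀ i, n1 i (closedBall (c i) (h i))ᶜ = 0) (h2 : ∀ i, n2 i (closedBall (c i) (h i))ᶜ = 0)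
    (hm : ∀ i, n1 i univ = n2 i univ)
    (hs : Summable fun i => h i * (n1 i univ + n2 i univ).toReal)
    {X1 X2 : ℝ × ℝ → ℝ} (m1 : Measurable X1) (m2 : Measurable X2)
    (i1 : Integrable X1) (i2 : Integrable X2)
    (F1 : ∀ i, ∀ (L : ℝ) (e : ℝ × ℝ → ℝ), 0 ≤ L → (∀ p q, |e p - e q| ≤ L * dist p q) →
      ∫ p in ball (c i) (h i), (X1 p * gx e p + X2 p * gy e p) =
        (∫ p, e p ∂(n1 i)) - ∫ p, e p ∂(n2 i)) :
    ∃ (Z1 Z2 : ℝ × ℝ → ℝ) (Y1 Y2 : ι → ℝ × ℝ → ℝ) (δV δH : ℝ × ℝ → ℝ),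
      (∀ i, FillP (c i).1 (c i).2 (h i) (n1 i) (n2 i) (Y1 i) (Y2 i)) ∧
      Measurable Z1 ∧ Measurable Z2 ∧ Integrable Z1 ∧ Integrable Z2 ∧
      (∀ p, p ∉ ⋃ i, ball (c i) (h i) → Z1 p = X1 p ∧ Z2 p = X2 p) ∧
      (∀ i, ∀ p ∈ ball (c i) (h i), Z1 p = Y1 i p ∧ Z2 p = Y2 i p) ∧
      Measurable δV ∧ Measurable δH ∧
      (∀ p, p ∉ ⋃ i, ball (c i) (h i) → δV p = 0 ∧ δH p = 0) ∧
      (∀ᵐ p : ℝ × ℝ, δH p = δV p) ∧
      (∀ᵐ x : ℝ, ∀ y y', δV (x, y') - δV (x, y) = ∫ t in y..y', (X1 (x, t) - Z1 (x, t))) ∧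
      (∀ᵐ y : ℝ, ∀ x x', δH (x', y) - δH (x, y) = -∫ s in x..x', (X2 (s, y) - Z2 (s, y))) := by
  set U : Set (ℝ × ℝ) := ⋃ i, ball (c i) (h i) with hU
  have hUm : MeasurableSet U := MeasurableSet.iUnion fun i => measurableSet_ball
  have hfill : ∀ i, ∃ Y : (ℝ × ℝ → ℝ) × (ℝ × ℝ → ℝ),
      FillP (c i).1 (c i).2 (h i) (n1 i) (n2 i) Y.1 Y.2 := by
    intro i
    obtain ⟨Y1, Y2, hY⟩ := fill2 (x := (c i).1) (y := (c i).2) (hh i) (n1 i) (n2 i) (h1 i) (h2 i)
      (hm i)
    exact ⟨(Y1, Y2), hY⟩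
  choose Y hY using hfill
  -- the new field
  set t : Option ι → Set (ℝ × ℝ) := fun o => o.elim Uᶜ fun i => ball (c i) (h i) with ht
  have tm : ∀ o, MeasurableSet (t o) := by
    intro o
    cases o with
    | none => exact hUm.compl
    | some i => exact measurableSet_ball
  have hdisj : ∀ o o', o ≠ o' → Disjoint (t o) (t o') := by
    intro o o' hne
    cases o with
    | none =>
      cases o' with
      | none => exact absurd rfl hne
      | some j =>
        exact Set.disjoint_left.mpr fun p hp hq => hp (mem_iUnion.mpr ⟨j, hq⟩)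
    | some i =>
      cases o' with
      | none => exact Set.disjoint_left.mpr fun p hq hp => hp (mem_iUnion.mpr ⟨i, hq⟩)
      | some j => exact hd fun hij => hne (by rw [hij])
  have hglue : ∀ (X : ℝ × ℝ → ℝ) (W : ι → ℝ × ℝ → ℝ), Measurable X → (∀ i, Measurable (W i)) →
      ∃ Z : ℝ × ℝ → ℝ, Measurable Z ∧ (∀ p, p ∉ U → Z p = X p) ∧
        ∀ i, ∀ p ∈ ball (c i) (h i), Z p = W i p := by
    intro X W hX hW
    obtain ⟨Z, hZ, hZe⟩ := exists_measurable_piecewise t tm
      (fun o => o.elim X fun i => W i) (by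
        intro o
        cases o with
        | none => exact hX
        | some i => exact hW i) (by
        intro o o' hne p hp
        exact absurd hp.2 (Set.disjoint_left.mp (hdisj o o' hne) hp.1))
    exact ⟨Z, hZ, fun p hp => hZe none hp, fun i p hp => hZe (some i) hp⟩
  obtain ⟨Z1, mZ1, z1o, z1i⟩ := hglue X1 (fun i => (Y i).1) m1 fun i => (hY i).m1
  obtain ⟨Z2, mZ2, z2o, z2i⟩ := hglue X2 (fun i => (Y i).2) m2 fun i => (hY i).m2
  have hZint : ∀ (X Z : ℝ × ℝ → ℝ) (W : ι → ℝ × ℝ → ℝ), Integrable X → (∀ i, Integrable (W i)) →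
      (∀ i, ∫ u in ball (c i) (h i), |W i u| ≤ 2 * h i * (n1 i univ + n2 i univ).toReal) →
      (∀ p, p ∉ U → Z p = X p) → (∀ i, ∀ p ∈ ball (c i) (h i), Z p = W i p) →
      Integrable Z := by
    intro X Z W hX hW hWb ho hi
    have k1 : IntegrableOn Z Uᶜ :=
      (hX.integrableOn (s := Uᶜ)).congr_fun (fun p hp => (ho p hp).symm) hUm.compl
    have k2 : IntegrableOn Z U := by
      refine integrableOn_iUnion_of_summable_integral_norm
        (fun i => (hW i).integrableOn.congr_fun (fun p hp => (hi i p hp).symm) measurableSet_ball)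
        ?_
      refine Summable.of_nonneg_of_le (fun i => integral_nonneg fun p => norm_nonneg _)
        (fun i => ?_) (hs.mul_left 2)
      have e : ∫ p in ball (c i) (h i), ‖Z p‖ = ∫ p in ball (c i) (h i), |W i p| :=
        setIntegral_congr_fun measurableSet_ball fun p hp => by
          rw [hi i p hp, Real.norm_eq_abs]
      rw [e]
      refine (hWb i).trans (le_of_eq (by ring))
    have := k2.union k1
    rwa [union_compl_self, integrableOn_univ] at this
  have iZ1 : Integrable Z1 := hZint X1 Z1 _ i1 (fun i => (hY i).i1)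
    (fun i => (FillP_bound (hh i) (hY i)).1) z1o z1i
  have iZ2 : Integrable Z2 := hZint X2 Z2 _ i2 (fun i => (hY i).i2)
    (fun i => (FillP_bound (hh i) (hY i)).2) z2o z2i
  obtain ⟨δV, δH, d1, d2, d3, d4, d5, d6⟩ := stream0 (D1 := fun p => X1 p - Z1 p)
    (D2 := fun p => X2 p - Z2 p) hd hab hbox (m1.sub mZ1) (m2.sub mZ2) (i1.sub iZ1) (i2.sub iZ2)
    (fun p hp => ⟨by rw [z1o p hp, sub_self], by rw [z2o p hp, sub_self]⟩)
    (by
      intro i L e hL he
      have e1 := F1 i L e hL he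
      have e2 := (hY i).F1 L e hL he
      have e3 : ∫ p in ball (c i) (h i), (Z1 p * gx e p + Z2 p * gy e p) =
          ∫ p in ball (c i) (h i), ((Y i).1 p * gx e p + (Y i).2 p * gy e p) :=
        setIntegral_congr_fun measurableSet_ball fun p hp => by
          rw [z1i i p hp, z2i i p hp]
      have j1 : IntegrableOn (fun p => X1 p * gx e p + X2 p * gy e p) (ball (c i) (h i)) :=
        ((int_mul_gx i1 hL he).add (int_mul_gy i2 hL he)).integrableOn
      have j2 : IntegrableOn (fun p => Z1 p * gx e p + Z2 p * gy e p) (ball (c i) (h i)) :=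
        ((int_mul_gx iZ1 hL he).add (int_mul_gy iZ2 hL he)).integrableOn
      have e4 : ∫ p in ball (c i) (h i), ((X1 p - Z1 p) * gx e p + (X2 p - Z2 p) * gy e p) =
          (∫ p in ball (c i) (h i), (X1 p * gx e p + X2 p * gy e p)) -
          ∫ p in ball (c i) (h i), (Z1 p * gx e p + Z2 p * gy e p) := by
        rw [← integral_sub j1 j2]
        congr 1; ext p; ring
      rw [e4, e1, e3]
      have e5 : ball (c i) (h i) = ball ((c i).1, (c i).2) (h i) := rfl
      rw [e5, e2, sub_self])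
  exact ⟨Z1, Z2, fun i => (Y i).1, fun i => (Y i).2, δV, δH, hY, mZ1, mZ2, iZ1, iZ2,
    fun p hp => ⟨z1o p hp, z2o p hp⟩, fun i p hp => ⟨z1i i p hp, z2i i p hp⟩, d1, d2, d3, d4,
    d5, d6⟩

end Refill

end Crest.Agent.R105.Mq_347
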