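import Crest.Agent.R105.Mq1_347
import Crest.Agent.R105.Mq3_347

/-! Row 105, S0138, APS: the fills of the squares satisfy the local flow bound `LF`. -/

open MeasureTheory Set Filter Topology Metric
open scoped NNReal ENNReal

namespace Crest.Agent.R105.Mq_347

open Crest.Agent.R105.SqF_136 (FillC FillP fill2)

variable {ι : Type*} [Countable ι] {c : ι → ℝ × ℝ} {h : ι → ℝ}

/-- `|Z1| + |Z2|` -/
noncomputable def GZ (Z1 Z2 : ℝ × ℝ → ℝ) (p : ℝ × ℝ) : ℝ≥0∞ := ‖Z1 p‖ₑ + ‖Z2 p‖ₑ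

theorem measurable_GZ {Z1 Z2 : ℝ × ℝ → ℝ} (m1 : Measurable Z1) (m2 : Measurable Z2) :
    Measurable (GZ Z1 Z2) := m1.enorm.add m2.enorm

theorem ball_ae_closedBall (z : ℝ × ℝ) {r : ℝ} (hr : 0 < r) :
    (closedBall z r : Set (ℝ × ℝ)) =ᵐ[volume] ball z r := by
  refine (ball_subset_closedBall.eventuallyLE.antisymm ?_).symm
  refine ae_le_set.mpr ?_
  have : closedBall z r \ ball z r = sphere z r := by
    ext p
    simp only [Set.mem_sdiff, mem_closedBall, mem_ball, not_lt, mem_sphere]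
    exact ⟨fun hh => le_antisymm hh.1 hh.2, fun hh => ⟨hh.le, hh.ge⟩⟩
  rw [this]
  exact Measure.addHaar_sphere_of_ne_zero _ _ hr.ne'

theorem lint_enorm_le {Y : ℝ × ℝ → ℝ} (hY : Integrable Y) {s : Set (ℝ × ℝ)} {M : ℝ}
    (hM : ∫ u in s, |Y u| ≤ M) : ∫⁻ u in s, ‖Y u‖ₑ ≤ ENNReal.ofReal M := by
  rw [← ofReal_integral_norm_eq_lintegral_enorm hY.integrableOn]
  exact ENNReal.ofReal_le_ofReal hM

omit [Countable ι] in
/-- **the local flow bound from the fills** -/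
theorem flux_local (hh : ∀ i, 0 < h i) {n1 n2 : ι → Measure (ℝ × ℝ)}
    [∀ i, IsFiniteMeasure (n1 i)] [∀ i, IsFiniteMeasure (n2 i)]
    {Y1 Y2 : ι → ℝ × ℝ → ℝ}
    (hY : ∀ i, FillP (c i).1 (c i).2 (h i) (n1 i) (n2 i) (Y1 i) (Y2 i)) {Z1 Z2 : ℝ × ℝ → ℝ}
    (hZ : ∀ i, ∀ p ∈ ball (c i) (h i), Z1 p = Y1 i p ∧ Z2 p = Y2 i p) :
    LF c h (fun i => n1 i + n2 i) (GZ Z1 Z2) := by
  intro i z r hr hzr
  set P : Set (ℝ × ℝ) := closedBall z (15 * r) with hP
  have hPm : MeasurableSet P := isClosed_closedBall.measurableSet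
  have hfin : (n1 i P + n2 i P) ≠ ∞ := ENNReal.add_ne_top.mpr ⟨measure_ne_top _ _, measure_ne_top _ _⟩
  set R : Set (ℝ × ℝ) := Ioo (z.1 - 3 * r) (z.1 + 3 * r) ×ˢ Ioo (z.2 - 3 * r) (z.2 + 3 * r) with hR
  have hRb : ball z (3 * r) = R := by ext p; rw [mem_ball_iff]; rfl
  set S : Set (ℝ × ℝ) := R ∩ ball (c i) (h i) with hS
  have e0 : (closedBall z (3 * r) ∩ closedBall (c i) (h i) : Set (ℝ × ℝ)) =ᵐ[volume] S := by
    rw [hS, ← hRb]
    exact (ball_ae_closedBall z (by linarith)).inter (ball_ae_closedBall (c i) (hh i))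
  have hSm : MeasurableSet S :=
    (measurableSet_Ioo.prod measurableSet_Ioo).inter measurableSet_ball
  have e1 : ∫⁻ u in closedBall z (3 * r) ∩ closedBall (c i) (h i), GZ Z1 Z2 u =
      ∫⁻ u in S, (‖Y1 i u‖ₑ + ‖Y2 i u‖ₑ) := by
    rw [setLIntegral_congr e0]
    refine setLIntegral_congr_fun hSm fun u hu => ?_
    simp only [GZ]
    rw [(hZ i u hu.2).1, (hZ i u hu.2).2]
  rw [e1, lintegral_add_left (hY i).m1.enorm]
  -- the condition of (F3) holds only near the square: use (F4)-free form: F3 on the box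
  have hcond : ∀ p ∈ closedBall ((c i).1, (c i).2) (h i), ∀ u ∈ R,
      dist u p ≤ 3 * (h i - dist u ((c i).1, (c i).2)) → p ∈ P := by
    intro p _ u hu hup
    have hu' : dist u z < 3 * r := by rw [← hRb] at hu; exact hu
    have h1 : dist z (c i) ≤ dist u z + dist u (c i) := by
      have := dist_triangle z u (c i)
      rwa [dist_comm z u] at this
    have h2 : h i - dist u ((c i).1, (c i).2) ≤ 4 * r := by
      have : dist u ((c i).1, (c i).2) = dist u (c i) := rfl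
      rw [this]; linarith
    rw [hP, mem_closedBall]
    have h3 := dist_triangle p u z
    rw [dist_comm p u] at h3
    linarith
  have hF := (hY i).F3 (z.1 - 3 * r) (z.1 + 3 * r) (z.2 - 3 * r) (z.2 + 3 * r) (by linarith)
    (by linarith) P hPm hcond
  have e2 : z.1 + 3 * r - (z.1 - 3 * r) = 6 * r := by ring
  have e3 : z.2 + 3 * r - (z.2 - 3 * r) = 6 * r := by ring
  rw [e2, e3] at hF
  have k1 : ∫⁻ u in S, ‖Y1 i u‖ₑ ≤ ENNReal.ofReal (6 * r * (n1 i P + n2 i P).toReal) :=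
    (lintegral_mono_set inter_subset_left).trans (lint_enorm_le (hY i).i1 hF.1)
  have k2 : ∫⁻ u in S, ‖Y2 i u‖ₑ ≤ ENNReal.ofReal (6 * r * (n1 i P + n2 i P).toReal) :=
    (lintegral_mono_set inter_subset_left).trans (lint_enorm_le (hY i).i2 hF.2)
  refine (add_le_add k1 k2).trans (le_of_eq ?_)
  rw [ENNReal.ofReal_mul (by linarith), ENNReal.ofReal_toReal hfin, Measure.add_apply, ← add_mul,
    ← ENNReal.ofReal_add (by linarith) (by linarith)]
  congr 2; ring

end Crest.Agent.R105.Mq_347
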