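import Crest.Agent.R105.Mq2_347
import Crest.Agent.R105.Mq4_347

/-! Row 105, S0138, APS: oscillation of a stream function inside a filled square. -/

set_option autoImplicit false

open MeasureTheory Set Metric Filter Topology
open scoped ENNReal Function NNReal

namespace Crest.Agent.R105.Aps_187

open Crest.Agent.R105.Mq_347 (LineB GZ mem_ball_iff ae_fst' lint_enorm_le)
open Crest.Agent.R105.SqF_136 (FillC FillP)

noncomputable section

/-- one-dimensional: bounds on all intervals give an a.e. bound -/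
theorem ae_le_of_Ioo {g : ℝ → ℝ≥0∞} (hg : Measurable g) {M : ℝ} (hM : 0 ≤ M)
    (h : ∀ a b, a < b → ∫⁻ x in Ioo a b, g x ≤ ENNReal.ofReal ((b - a) * M)) :
    ∀ᵐ x, g x ≤ ENNReal.ofReal M := by
  have hfin : ∀ a b, a < b → ∫⁻ x in Ioo a b, g x ≠ ∞ := fun a b hab =>
    ne_top_of_le_ne_top ENNReal.ofReal_ne_top (h a b hab)
  have hloc : LocallyIntegrable (fun x => (g x).toReal) volume := by
    intro x
    refine ⟨Ioo (x - 1) (x + 1), Ioo_mem_nhds (by linarith) (by linarith), ?_⟩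
    exact integrable_toReal_of_lintegral_ne_top hg.aemeasurable (hfin _ _ (by linarith))
  have hgf : ∀ᵐ x, g x < ∞ := by
    have h1 : ∀ n : ℕ, ∀ᵐ x, x ∈ Ioo (-(n : ℝ) - 1) ((n : ℝ) + 1) → g x < ∞ := by
      intro n
      rw [← ae_restrict_iff' measurableSet_Ioo]
      exact ae_lt_top hg (hfin _ _ (by have : (0 : ℝ) ≤ n := n.cast_nonneg; linarith))
    filter_upwards [ae_all_iff.2 h1] with x hx
    obtain ⟨n, hn⟩ := exists_nat_ge |x|
    have := abs_le.mp hn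
    exact hx n ⟨by linarith [this.1], by linarith [this.2]⟩
  filter_upwards [hgf, IsUnifLocDoublingMeasure.ae_tendsto_average volume hloc 1] with x hx hav
  have hδ : Tendsto (fun n : ℕ => 1 / ((n : ℝ) + 1)) atTop (𝓝[>] 0) :=
    tendsto_nhdsWithin_iff.2 ⟨tendsto_one_div_add_atTop_nhds_zero_nat,
      Eventually.of_forall fun n => by simp only [mem_Ioi]; positivity⟩
  have h1 := hav (fun _ : ℕ => x) (fun n : ℕ => 1 / ((n : ℝ) + 1)) hδ
    (Eventually.of_forall fun n => by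
      rw [one_mul]; exact mem_closedBall_self (by positivity))
  have h2 : (g x).toReal ≤ M := by
    refine le_of_tendsto' h1 fun n => ?_
    set r : ℝ := 1 / ((n : ℝ) + 1) with hr
    have hr0 : 0 < r := by positivity
    rw [setAverage_eq, Real.closedBall_eq_Icc]
    have e1 : ∫ y in Icc (x - r) (x + r), (g y).toReal ≤ 2 * r * M := by
      rw [integral_Icc_eq_integral_Ioo, integral_toReal hg.aemeasurable
        (ae_lt_top hg (hfin _ _ (by linarith)))]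
      refine ENNReal.toReal_le_of_le_ofReal (by positivity) ?_
      refine (h _ _ (by linarith)).trans (le_of_eq ?_)
      congr 1; ring
    have e2 : volume.real (Icc (x - r) (x + r)) = 2 * r := by
      rw [Real.volume_real_Icc_of_le (by linarith)]; ring
    rw [e2, smul_eq_mul]
    calc (2 * r)⁻¹ * ∫ y in Icc (x - r) (x + r), (g y).toReal ≤ (2 * r)⁻¹ * (2 * r * M) := by
          gcongr
      _ = M := by field_simp
  rw [← ENNReal.ofReal_toReal hx.ne]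
  exact ENNReal.ofReal_le_ofReal h2

/-- vertical lines -/
theorem ae_V {g : ℝ × ℝ → ℝ≥0∞} (hg : Measurable g) {J : Set ℝ} {M : ℝ}
    (hM : 0 ≤ M)
    (h : ∀ a b, a < b → ∫⁻ u in Ioo a b ×ˢ J, g u ≤ ENNReal.ofReal ((b - a) * M)) :
    ∀ᵐ x, ∫⁻ t in J, g (x, t) ≤ ENNReal.ofReal M := by
  refine ae_le_of_Ioo (hg.lintegral_prod_right' (ν := volume.restrict J)) hM fun a b hab => ?_
  refine (le_of_eq ?_).trans (h a b hab)
  rw [Measure.volume_eq_prod, ← Measure.prod_restrict, lintegral_prod _ hg.aemeasurable]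

/-- horizontal lines -/
theorem ae_H {g : ℝ × ℝ → ℝ≥0∞} (hg : Measurable g) {J : Set ℝ} {M : ℝ}
    (hM : 0 ≤ M)
    (h : ∀ a b, a < b → ∫⁻ u in J ×ˢ Ioo a b, g u ≤ ENNReal.ofReal ((b - a) * M)) :
    ∀ᵐ y, ∫⁻ s in J, g (s, y) ≤ ENNReal.ofReal M := by
  refine ae_le_of_Ioo (hg.lintegral_prod_left' (μ := volume.restrict J)) hM fun a b hab => ?_
  refine (le_of_eq ?_).trans (h a b hab)
  rw [Measure.volume_eq_prod, ← Measure.prod_restrict, lintegral_prod_symm _ hg.aemeasurable]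

/-- line formulas with the right component on each line: `ψ` and `Z1` on vertical, `Ψ` and `Z2` on
horizontal lines -/
structure LineC (W : Set (ℝ × ℝ)) (ψ Ψ Z1 Z2 : ℝ × ℝ → ℝ) : Prop where
  H : ∀ᵐ y : ℝ, ∀ x x', x ≤ x' → (∀ s ∈ Icc x x', (s, y) ∈ W) →
    ‖Ψ (x', y) - Ψ (x, y)‖ₑ ≤ ∫⁻ s in Icc x x', ‖Z2 (s, y)‖ₑ
  V : ∀ᵐ x : ℝ, ∀ y y', y ≤ y' → (∀ t ∈ Icc y y', (x, t) ∈ W) →
    ‖ψ (x, y') - ψ (x, y)‖ₑ ≤ ∫⁻ t in Icc y y', ‖Z1 (x, t)‖ₑ
  E : ∀ᵐ p : ℝ × ℝ, p ∈ W → Ψ p = ψ p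

variable {W : Set (ℝ × ℝ)} {ψ Ψ Z1 Z2 : ℝ × ℝ → ℝ}

theorem LineC.toB (L : LineC W ψ Ψ Z1 Z2) : LineB W ψ Ψ (GZ Z1 Z2) where
  H := by
    filter_upwards [L.H] with y hy x x' hx hW
    exact (hy x x' hx hW).trans (lintegral_mono fun s => le_add_self)
  V := by
    filter_upwards [L.V] with x hx y y' hy hW
    exact (hx y y' hy hW).trans (lintegral_mono fun s => le_self_add)
  E := L.E

theorem ofReal_abs_le_add {a b c : ℝ} {M : ℝ} (hM : 0 ≤ M) (h1 : ‖a - b‖ₑ ≤ ENNReal.ofReal M)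
    (h2 : ‖b - c‖ₑ ≤ ENNReal.ofReal M) : |a - c| ≤ 2 * M := by
  rw [← ofReal_norm, Real.norm_eq_abs] at h1 h2
  have k1 := (ENNReal.ofReal_le_ofReal_iff hM).mp h1
  have k2 := (ENNReal.ofReal_le_ofReal_iff hM).mp h2
  rw [abs_le] at *
  constructor <;> linarith

/-- **oscillation in the open square** -/
theorem osc_open (L : LineC W ψ Ψ Z1 Z2) (m1 : Measurable Z1) (m2 : Measurable Z2) {c : ℝ × ℝ}
    {h : ℝ} (hh : 0 < h) (hcW : ball c h ⊆ W) {M : ℝ} (hM : 0 ≤ M)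
    (F1 : ∀ a b, a < b → ∫⁻ u in Ioo a b ×ˢ Ioo (c.2 - h) (c.2 + h), ‖Z1 u‖ₑ ≤
      ENNReal.ofReal ((b - a) * M))
    (F2 : ∀ a b, a < b → ∫⁻ u in Ioo (c.1 - h) (c.1 + h) ×ˢ Ioo a b, ‖Z2 u‖ₑ ≤
      ENNReal.ofReal ((b - a) * M)) :
    ∃ m, ∀ᵐ u : ℝ × ℝ, u ∈ ball c h → |ψ u - m| ≤ 2 * M := by
  have hV := ae_V (g := fun u => ‖Z1 u‖ₑ) m1.enorm hM F1
  have hH := ae_H (g := fun u => ‖Z2 u‖ₑ) m2.enorm hM F2
  have hE' : ∀ᵐ y : ℝ, ∀ᵐ x : ℝ, ((x, y) : ℝ × ℝ) ∈ W → Ψ (x, y) = ψ (x, y) := by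
    have h1 := L.E
    rw [Measure.volume_eq_prod] at h1
    exact Measure.ae_ae_of_ae_prod
      ((Measure.measurePreserving_swap (μ := volume) (ν := volume)).quasiMeasurePreserving.ae h1)
  obtain ⟨y0, hy0, hy1, hy2, hy3⟩ : ∃ y0 ∈ Ioo (c.2 - h) (c.2 + h),
      (∀ x x', x ≤ x' → (∀ s ∈ Icc x x', (s, y0) ∈ W) →
        ‖Ψ (x', y0) - Ψ (x, y0)‖ₑ ≤ ∫⁻ s in Icc x x', ‖Z2 (s, y0)‖ₑ) ∧
      (∫⁻ s in Ioo (c.1 - h) (c.1 + h), ‖Z2 (s, y0)‖ₑ ≤ ENNReal.ofReal M) ∧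
      ∀ᵐ x : ℝ, ((x, y0) : ℝ × ℝ) ∈ W → Ψ (x, y0) = ψ (x, y0) := by
    have hpos : volume (Ioo (c.2 - h) (c.2 + h)) ≠ 0 := by
      rw [Real.volume_Ioo]; simp; linarith
    have hae := L.H.and (hH.and hE')
    by_contra hcon
    refine hpos (measure_mono_null (fun y hy => ?_) (ae_iff.1 hae))
    exact fun h3 => hcon ⟨y, hy, h3.1, h3.2.1, h3.2.2⟩
  refine ⟨Ψ (c.1, y0), ?_⟩
  have hmem : ∀ x y : ℝ, x ∈ Ioo (c.1 - h) (c.1 + h) → y ∈ Ioo (c.2 - h) (c.2 + h) →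
      ((x, y) : ℝ × ℝ) ∈ ball c h := fun x y hx hy => mem_ball_iff.2 ⟨hx, hy⟩
  have hH0 : ∀ x ∈ Ioo (c.1 - h) (c.1 + h), ‖Ψ (x, y0) - Ψ (c.1, y0)‖ₑ ≤ ENNReal.ofReal M := by
    intro x hx
    have hc1 : c.1 ∈ Ioo (c.1 - h) (c.1 + h) := ⟨by linarith, by linarith⟩
    have key : ∀ a ∈ Ioo (c.1 - h) (c.1 + h), ∀ b ∈ Ioo (c.1 - h) (c.1 + h), a ≤ b →
        ‖Ψ (b, y0) - Ψ (a, y0)‖ₑ ≤ ENNReal.ofReal M := by
      intro a ha b hb hab
      refine (hy1 a b hab fun s hs => hcW (hmem s y0 ⟨ha.1.trans_le hs.1, hs.2.trans_lt hb.2⟩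
        hy0)).trans ((lintegral_mono_set fun s hs => ?_).trans hy2)
      exact ⟨ha.1.trans_le hs.1, hs.2.trans_lt hb.2⟩
    rcases le_total x c.1 with hxc | hxc
    · rw [← enorm_neg, neg_sub]; exact key x hx c.1 hc1 hxc
    · exact key c.1 hc1 x hx hxc
  filter_upwards [ae_fst' (L.V.and (hV.and hy3))] with u hu huB
  obtain ⟨hu1, hu2, hu3⟩ := hu
  obtain ⟨hx, hy⟩ := mem_ball_iff.1 huB
  have e : ψ u = ψ (u.1, u.2) := rfl
  rw [e]
  have k1 : ‖ψ (u.1, u.2) - ψ (u.1, y0)‖ₑ ≤ ENNReal.ofReal M := by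
    have key : ∀ a ∈ Ioo (c.2 - h) (c.2 + h), ∀ b ∈ Ioo (c.2 - h) (c.2 + h), a ≤ b →
        ‖ψ (u.1, b) - ψ (u.1, a)‖ₑ ≤ ENNReal.ofReal M := by
      intro a ha b hb hab
      refine (hu1 a b hab fun s hs => hcW (hmem u.1 s hx ⟨ha.1.trans_le hs.1,
        hs.2.trans_lt hb.2⟩)).trans ((lintegral_mono_set fun s hs => ?_).trans hu2)
      exact ⟨ha.1.trans_le hs.1, hs.2.trans_lt hb.2⟩
    rcases le_total u.2 y0 with hxc | hxc
    · rw [← enorm_neg, neg_sub]; exact key u.2 hy y0 hy0 hxc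
    · exact key y0 hy0 u.2 hy hxc
  have k2 := hH0 u.1 hx
  rw [hu3 (hcW (hmem u.1 y0 hx hy0))] at k2
  exact ofReal_abs_le_add hM k1 k2

/-- the same from the fill -/
theorem osc_fill (L : LineC W ψ Ψ Z1 Z2) {c : ℝ × ℝ} {h : ℝ} (hh : 0 < h) (hcW : ball c h ⊆ W) {n1 n2 : Measure (ℝ × ℝ)} [IsFiniteMeasure n1]
    [IsFiniteMeasure n2] {Y1 Y2 : ℝ × ℝ → ℝ} (hY : FillP c.1 c.2 h n1 n2 Y1 Y2)
    (hZ : ∀ p ∈ ball c h, Z1 p = Y1 p ∧ Z2 p = Y2 p) :
    ∃ m, ∀ᵐ u : ℝ × ℝ, u ∈ ball c h → |ψ u - m| ≤ 2 * ((n1 + n2) univ).toReal := by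
  -- replace the fields by the fill on the square
  have hB : MeasurableSet (ball c h) := measurableSet_ball
  set Z1' : ℝ × ℝ → ℝ := (ball c h).indicator Z1 with hZ1
  set Z2' : ℝ × ℝ → ℝ := (ball c h).indicator Z2 with hZ2
  have hL' : LineC (ball c h) ψ Ψ Z1' Z2' := by
    refine ⟨?_, ?_, ?_⟩
    · filter_upwards [L.H] with y hy x x' hx hW
      refine (hy x x' hx fun s hs => hcW (hW s hs)).trans (le_of_eq ?_)
      refine setLIntegral_congr_fun measurableSet_Icc fun s hs => ?_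
      simp only [hZ2]
      rw [indicator_of_mem (hW s hs)]
    · filter_upwards [L.V] with x hx y y' hy hW
      refine (hx y y' hy fun s hs => hcW (hW s hs)).trans (le_of_eq ?_)
      refine setLIntegral_congr_fun measurableSet_Icc fun s hs => ?_
      simp only [hZ1]
      rw [indicator_of_mem (hW s hs)]
    · filter_upwards [L.E] with p hp hpB using hp (hcW hpB)
  have e1 : Z1' = Y1 := by
    funext p
    by_cases hp : p ∈ ball c h
    · rw [hZ1, indicator_of_mem hp, (hZ p hp).1]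
    · rw [hZ1, indicator_of_notMem hp]; exact ((hY.z p hp).1).symm
  have e2 : Z2' = Y2 := by
    funext p
    by_cases hp : p ∈ ball c h
    · rw [hZ2, indicator_of_mem hp, (hZ p hp).2]
    · rw [hZ2, indicator_of_notMem hp]; exact ((hY.z p hp).2).symm
  rw [e1, e2] at hL'
  have hF := fun a b c' d hab hcd => hY.F3 a b c' d hab hcd univ MeasurableSet.univ
    (fun _ _ _ _ _ => mem_univ _)
  refine osc_open hL' hY.m1 hY.m2 hh subset_rfl ENNReal.toReal_nonneg (fun a b hab => ?_)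
    (fun a b hab => ?_)
  · exact lint_enorm_le hY.i1 (hF a b _ _ hab.le (by linarith)).1
  · exact lint_enorm_le hY.i2 (hF _ _ a b (by linarith) hab.le).2

end

end Crest.Agent.R105.Aps_187
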