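import Mathlib

/-!
Row 105, AREA0, part 1: a local diffeomorphism of the plane that is close to the identity at
infinity is a homeomorphism; maximum principle for homeomorphisms.
-/

open Set Metric Filter Topology MeasureTheory

namespace Crest.Agent.R105.Ar1_222

theorem locInj {F : ℂ → ℂ} (hF : ContDiff ℝ 1 F) (hdet : ∀ z, (fderiv ℝ F z).det ≠ 0) (z : ℂ) :
    ∃ U ∈ 𝓝 z, InjOn F U := by
  have h1 : HasStrictFDerivAt F (fderiv ℝ F z) z := hF.contDiffAt.hasStrictFDerivAt (by simp)
  have e := ContinuousLinearMap.coe_toContinuousLinearEquivOfDetNeZero (fderiv ℝ F z) (hdet z)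
  rw [← e] at h1
  refine ⟨(h1.toOpenPartialHomeomorph F).source, ?_, ?_⟩
  · exact (h1.toOpenPartialHomeomorph F).open_source.mem_nhds
      h1.mem_toOpenPartialHomeomorph_source
  · have := (h1.toOpenPartialHomeomorph F).injOn
    simpa using this

theorem openMap {F : ℂ → ℂ} (hF : ContDiff ℝ 1 F) (hdet : ∀ z, (fderiv ℝ F z).det ≠ 0) :
    IsOpenMap F := by
  rw [isOpenMap_iff_nhds_le]
  intro z
  have h1 : HasStrictFDerivAt F (fderiv ℝ F z) z := hF.contDiffAt.hasStrictFDerivAt (by simp)
  have e := ContinuousLinearMap.coe_toContinuousLinearEquivOfDetNeZero (fderiv ℝ F z) (hdet z)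
  rw [← e] at h1
  exact (h1.map_nhds_eq_of_equiv).ge

theorem proper_of {F : ℂ → ℂ} (hF : Continuous F)
    (h0 : Tendsto (fun z => F z - z) (cocompact ℂ) (𝓝 0)) : IsProperMap F := by
  rw [isProperMap_iff_tendsto_cocompact]
  refine ⟨hF, ?_⟩
  rw [← Metric.cobounded_eq_cocompact, ← tendsto_norm_atTop_iff_cobounded]
  rw [← Metric.cobounded_eq_cocompact] at h0
  have h1 : ∀ᶠ z in Bornology.cobounded ℂ, ‖F z - z‖ < 1 := by
    have := h0.norm
    rw [norm_zero] at this
    exact this.eventually (gt_mem_nhds one_pos)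
  have h2 : Tendsto (fun z : ℂ => ‖z‖ - 1) (Bornology.cobounded ℂ) atTop :=
    tendsto_atTop_add_const_right _ _ tendsto_norm_cobounded_atTop
  refine tendsto_atTop_mono' _ ?_ h2
  filter_upwards [h1] with z hz
  have := norm_sub_norm_le z (z - F z)
  have e : z - (z - F z) = F z := by ring
  rw [e, norm_sub_rev z (F z)] at this
  linarith

/-- a near-identity local diffeomorphism of the plane is a homeomorphism -/
theorem exists_homeo {F : ℂ → ℂ} (hF : ContDiff ℝ 1 F) (hdet : ∀ z, (fderiv ℝ F z).det ≠ 0)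
    (h0 : Tendsto (fun z => F z - z) (cocompact ℂ) (𝓝 0))
    (h1 : Tendsto (fun z => fderiv ℝ F z - ContinuousLinearMap.id ℝ ℂ) (cocompact ℂ) (𝓝 0)) :
    ∃ e : ℂ ≃ₜ ℂ, ⇑e = F := by
  have hc : Continuous F := hF.continuous
  have hop := openMap hF hdet
  have hpr := proper_of hc h0
  have hcl := hpr.isClosedMap
  have hsurj : Function.Surjective F := by
    rw [← range_eq_univ]
    have hcp : IsClopen (range F) := ⟨hcl.isClosed_range, hop.isOpen_range⟩
    rcases isClopen_iff.1 hcp with h | h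
    · exact absurd h (range_nonempty F).ne_empty
    · exact h
  -- the set of values taken twice
  set D : Set ℂ := {w | ∃ z z', z ≠ z' ∧ F z = w ∧ F z' = w} with hD
  have hDo : IsOpen D := by
    rw [isOpen_iff_mem_nhds]
    rintro w ⟨z, z', hne, hz, hz'⟩
    obtain ⟨U, V, hU, hV, hzU, hzV, hdis⟩ := t2_separation hne
    have m1 : F '' U ∈ 𝓝 w := (hop U hU).mem_nhds ⟨z, hzU, hz⟩
    have m2 : F '' V ∈ 𝓝 w := (hop V hV).mem_nhds ⟨z', hzV, hz'⟩
    filter_upwards [m1, m2] with y ⟨a, ha, hay⟩ ⟨b, hb, hby⟩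
    refine ⟨a, b, ?_, hay, hby⟩
    rintro rfl
    exact (disjoint_left.1 hdis) ha hb
  have hDc : IsClosed D := by
    apply IsSeqClosed.isClosed
    intro w x hw hx
    choose z z' hne hz hz' using hw
    obtain ⟨r, hr⟩ : ∃ r, ∀ n, ‖w n‖ ≤ r := by
      obtain ⟨r, hr⟩ := (hx.norm.bddAbove_range)
      exact ⟨r, fun n => hr ⟨n, rfl⟩⟩
    have hK : IsCompact (F ⁻¹' closedBall 0 r) := hpr.isCompact_preimage (isCompact_closedBall _ _)
    have hm : ∀ n, (z n, z' n) ∈ (F ⁻¹' closedBall 0 r) ×ˢ (F ⁻¹' closedBall 0 r) := by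
      intro n
      simp only [mem_prod, mem_preimage, mem_closedBall_zero_iff]
      exact ⟨by rw [hz n]; exact hr n, by rw [hz' n]; exact hr n⟩
    obtain ⟨⟨a, b⟩, -, φ, hφ, hlim⟩ := (hK.prod hK).tendsto_subseq hm
    have la : Tendsto (fun n => z (φ n)) atTop (𝓝 a) := (continuous_fst.tendsto _).comp hlim
    have lb : Tendsto (fun n => z' (φ n)) atTop (𝓝 b) := (continuous_snd.tendsto _).comp hlim
    have lx : Tendsto (fun n => w (φ n)) atTop (𝓝 x) := hx.comp hφ.tendsto_atTop
    have ea : F a = x := by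
      have := (hc.tendsto a).comp la
      refine tendsto_nhds_unique this ?_
      refine lx.congr fun n => ?_
      simp [hz]
    have eb : F b = x := by
      have := (hc.tendsto b).comp lb
      refine tendsto_nhds_unique this ?_
      refine lx.congr fun n => ?_
      simp [hz']
    refine ⟨a, b, ?_, ea, eb⟩
    rintro rfl
    obtain ⟨U, hU, hinj⟩ := locInj hF hdet a
    obtain ⟨n, hn1, hn2⟩ := ((la.eventually hU).and (lb.eventually hU)).exists
    exact hne (φ n) (hinj hn1 hn2 (by rw [hz, hz']))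
  -- near infinity injective
  have hDu : D ≠ univ := by
    intro hu
    rw [← Metric.cobounded_eq_cocompact] at h0 h1
    have e0 : ∀ᶠ z in Bornology.cobounded ℂ, ‖F z - z‖ < 1 := by
      have := h0.norm
      rw [norm_zero] at this
      exact this.eventually (gt_mem_nhds one_pos)
    have e1 : ∀ᶠ z in Bornology.cobounded ℂ, ‖fderiv ℝ F z - ContinuousLinearMap.id ℝ ℂ‖ < 1/2 := by
      have := h1.norm
      rw [norm_zero] at this
      exact this.eventually (gt_mem_nhds (by norm_num))
    obtain ⟨r, hr⟩ : ∃ r : ℝ, ∀ z : ℂ, r ≤ ‖z‖ →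
        ‖F z - z‖ < 1 ∧ ‖fderiv ℝ F z - ContinuousLinearMap.id ℝ ℂ‖ < 1/2 := by
      have := (e0.and e1)
      rw [(Metric.hasBasis_cobounded_compl_ball (0:ℂ)).eventually_iff] at this
      obtain ⟨r, -, hr⟩ := this
      refine ⟨r, fun z hz => hr ?_⟩
      simpa using hz
    -- a large value
    obtain ⟨B, hB⟩ := ((isCompact_closedBall (0:ℂ) (r + 4)).image hc).isBounded.subset_closedBall 0
    obtain ⟨w, hw⟩ : ∃ w : ℂ, B < ‖w‖ := by
      refine ⟨((|B| + 1 : ℝ) : ℂ), ?_⟩
      rw [Complex.norm_real, Real.norm_of_nonneg (by positivity)]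
      linarith [le_abs_self B]
    obtain ⟨z, z', hne, hz, hz'⟩ : w ∈ D := by rw [hu]; trivial
    have big : ∀ y, F y = w → r + 4 < ‖y‖ := by
      intro y hy
      by_contra hcon
      push Not at hcon
      have := hB ⟨y, by simpa using hcon, hy⟩
      rw [mem_closedBall_zero_iff] at this
      linarith
    have bz := big z hz
    have bz' := big z' hz'
    have d1 := (hr z (by linarith)).1
    have d2 := (hr z' (by linarith)).1
    have hd : ‖z' - z‖ < 2 := by
      have : z' - z = (F z - z) - (F z' - z') := by rw [hz, hz']; ring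
      rw [this]
      refine (norm_sub_le _ _).trans_lt (by linarith)
    have hseg : ∀ y ∈ ball z 3, ‖fderiv ℝ (fun z => F z - z) y‖ ≤ 1/2 := by
      intro y hy
      have hy' : r ≤ ‖y‖ := by
        rw [mem_ball, dist_eq_norm] at hy
        have := norm_sub_norm_le z (z - y)
        have e : z - (z - y) = y := by ring
        rw [e, norm_sub_rev z y] at this
        linarith
      have hd : DifferentiableAt ℝ F y := hF.differentiable (by simp) y
      rw [fderiv_fun_sub hd differentiableAt_fun_id, fderiv_fun_id]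
      exact (hr y hy').2.le
    have key := (convex_ball z 3).norm_image_sub_le_of_norm_fderiv_le (𝕜 := ℝ)
      (f := fun z => F z - z) (fun y _ => (hF.differentiable (by simp) y).sub differentiableAt_id)
      hseg (mem_ball_self (by norm_num)) (show z' ∈ ball z 3 by
        rw [mem_ball, dist_eq_norm]; linarith)
    have e2 : (F z' - z') - (F z - z) = -(z' - z) := by rw [hz, hz']; ring
    simp only [e2, norm_neg] at key
    have : 0 < ‖z' - z‖ := norm_pos_iff.2 (sub_ne_zero.2 (Ne.symm hne))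
    linarith
  have hDe : D = ∅ := (isClopen_iff.1 ⟨hDc, hDo⟩).resolve_right hDu
  have hinj : Function.Injective F := by
    intro a b hab
    by_contra hne
    have : F a ∈ D := ⟨a, b, hne, rfl, hab.symm⟩
    rw [hDe] at this
    exact this
  exact ⟨(Equiv.ofBijective F ⟨hinj, hsurj⟩).toHomeomorphOfContinuousOpen hc hop, rfl⟩

/-- maximum principle for open continuous maps -/
theorem max_open {F : ℂ → ℂ} (hc : Continuous F) (ho : IsOpenMap F) {p w : ℂ} {ρ δ : ℝ}
    (h : ∀ y ∈ sphere p ρ, ‖F y - w‖ ≤ δ) {z : ℂ} (hz : z ∈ closedBall p ρ) :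
    ‖F z - w‖ ≤ δ := by
  obtain ⟨m, hm, hmax⟩ := (isCompact_closedBall p ρ).exists_isMaxOn ⟨z, hz⟩
    ((hc.sub continuous_const).norm.continuousOn (s := closedBall p ρ) : ContinuousOn
      (fun y => ‖F y - w‖) (closedBall p ρ))
  refine (hmax hz).trans ?_
  by_cases hs : m ∈ sphere p ρ
  · exact h m hs
  have hb : m ∈ ball p ρ := by
    rw [mem_closedBall] at hm
    rw [mem_sphere] at hs
    exact lt_of_le_of_ne hm hs
  exfalso
  -- `F m` is interior to the image, so there are points further away from `w`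
  have hn : F '' ball p ρ ∈ 𝓝 (F m) := (ho _ isOpen_ball).mem_nhds ⟨m, hb, rfl⟩
  obtain ⟨t, ht, hsub⟩ := Metric.mem_nhds_iff.1 hn
  have key : ∃ v, v ∈ ball (F m) t ∧ ‖F m - w‖ < ‖v - w‖ := by
    by_cases h0 : F m = w
    · refine ⟨F m + ((t/2 : ℝ) : ℂ), ?_, ?_⟩
      · rw [mem_ball, dist_eq_norm, add_sub_cancel_left, Complex.norm_real,
          Real.norm_of_nonneg (by linarith)]; linarith
      · rw [← h0, sub_self, norm_zero, add_sub_cancel_left, Complex.norm_real,
          Real.norm_of_nonneg (by linarith)]; linarith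
    · have hpos : 0 < ‖F m - w‖ := norm_pos_iff.2 (sub_ne_zero.2 h0)
      set s : ℝ := t / (2 * ‖F m - w‖) with hs'
      have hspos : 0 < s := by positivity
      refine ⟨F m + (s:ℂ) * (F m - w), ?_, ?_⟩
      · rw [mem_ball, dist_eq_norm, add_sub_cancel_left, norm_mul, Complex.norm_real,
          Real.norm_of_nonneg hspos.le]
        have : s * ‖F m - w‖ = t / 2 := by rw [hs']; field_simp
        rw [this]; linarith
      · have e : F m + (s:ℂ) * (F m - w) - w = ((1 + s : ℝ) : ℂ) * (F m - w) := by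
          push_cast; ring
        rw [e, norm_mul, Complex.norm_real, Real.norm_of_nonneg (by linarith)]
        nlinarith
  obtain ⟨v, hv, hlt⟩ := key
  obtain ⟨y, hy, hyv⟩ := hsub hv
  have h3 : ‖F y - w‖ ≤ ‖F m - w‖ := hmax (ball_subset_closedBall hy)
  rw [hyv] at h3
  linarith

end Crest.Agent.R105.Ar1_222
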