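import Mathlib

/-!
Row 105 (S0139), AREA0, part 1: a local diffeomorphism of `ℂ` at bounded distance from the identity,
injective near infinity, is a homeomorphism; maximum principle for open maps.
-/

open Set Metric Filter Topology

namespace Crest.Agent.R105.Ar1_853

/-- a continuous map at bounded distance from the identity is proper -/
theorem isProper {f : ℂ → ℂ} (hf : Continuous f) {M : ℝ} (hM : ∀ z, ‖f z - z‖ ≤ M) :
    IsProperMap f := by
  rw [isProperMap_iff_isCompact_preimage]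
  refine ⟨hf, fun K hK => ?_⟩
  obtain ⟨r, hr⟩ := hK.isBounded.subset_closedBall 0
  apply (isCompact_closedBall (0:ℂ) (r + M)).of_isClosed_subset (hK.isClosed.preimage hf)
  intro z hz
  have h1 := hr hz
  rw [mem_closedBall, dist_zero_right] at h1 ⊢
  have h2 := norm_sub_le (f z) (f z - z)
  rw [sub_sub_cancel] at h2
  linarith [hM z]

/-- counting preimages -/
theorem bij {f : ℂ → ℂ} (hf : Continuous f) (ho : IsOpenMap f) {M : ℝ} (hM : ∀ z, ‖f z - z‖ ≤ M)
    (hl : ∀ z, ∃ U ∈ 𝓝 z, InjOn f U) (hinf : ∃ w, ∀ z z', f z = w → f z' = w → z = z') :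
    Function.Bijective f := by
  have hcl : IsClosedMap f := (isProper hf hM).isClosedMap
  have hsurj : Function.Surjective f := by
    have h1 : IsClopen (range f) := ⟨by simpa using hcl univ isClosed_univ,
      by simpa using ho univ isOpen_univ⟩
    exact range_eq_univ.1 (h1.eq_univ (range_nonempty f))
  set S : Set ℂ := {w | ∀ z z', f z = w → f z' = w → z = z'} with hS
  have hSo : IsOpen S := by
    rw [isOpen_iff_mem_nhds]
    intro w0 hw0
    obtain ⟨z0, hz0⟩ := hsurj w0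
    obtain ⟨U, hU, hinj⟩ := hl z0
    obtain ⟨V, hVU, hVo, hzV⟩ := _root_.mem_nhds_iff.1 hU
    have h1 : IsOpen (f '' Vᶜ)ᶜ := (hcl _ hVo.isClosed_compl).isOpen_compl
    refine mem_of_superset (h1.mem_nhds ?_) ?_
    · rintro ⟨z, hz, hzw⟩
      have := hw0 z z0 hzw hz0
      rw [this] at hz
      exact hz hzV
    · intro w hw z z' hz hz'
      have a1 : z ∈ V := by
        by_contra h
        exact hw ⟨z, h, hz⟩
      have a2 : z' ∈ V := by
        by_contra h
        exact hw ⟨z', h, hz'⟩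
      exact hinj (hVU a1) (hVU a2) (hz.trans hz'.symm)
  have hSc : IsClosed S := by
    rw [← isOpen_compl_iff, isOpen_iff_mem_nhds]
    intro w0 hw0
    have : ∃ z z', f z = w0 ∧ f z' = w0 ∧ z ≠ z' := by
      by_contra hcon
      push Not at hcon
      exact hw0 hcon
    obtain ⟨z, z', hz, hz', hne⟩ := this
    obtain ⟨U, V, hU, hV, hzU, hzV, hUV⟩ := t2_separation hne
    have h1 : f '' U ∈ 𝓝 w0 := (ho U hU).mem_nhds ⟨z, hzU, hz⟩
    have h2 : f '' V ∈ 𝓝 w0 := (ho V hV).mem_nhds ⟨z', hzV, hz'⟩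
    filter_upwards [h1, h2]
    rintro w ⟨a, ha, haw⟩ ⟨b, hb, hbw⟩ hw
    have := hw a b haw hbw
    rw [this] at ha
    exact disjoint_left.1 hUV ha hb
  have hS1 : S = univ := IsClopen.eq_univ ⟨hSc, hSo⟩ hinf
  refine ⟨fun a b hab => ?_, hsurj⟩
  have : f b ∈ S := by rw [hS1]; trivial
  exact this a b hab rfl

/-- **local diffeomorphisms close to the identity are homeomorphisms** -/
theorem exists_homeo {f : ℂ → ℂ} (hf : ContDiff ℝ 1 f) (hd : ∀ z, (fderiv ℝ f z).det ≠ 0) {M : ℝ}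
    (hM : ∀ z, ‖f z - z‖ ≤ M) (hinf : ∃ w, ∀ z z', f z = w → f z' = w → z = z') :
    ∃ e : ℂ ≃ₜ ℂ, (∀ z, e z = f z) := by
  have hst : ∀ z, HasStrictFDerivAt f
      ((fderiv ℝ f z).toContinuousLinearEquivOfDetNeZero (hd z) : ℂ →L[ℝ] ℂ) z := by
    intro z
    rw [ContinuousLinearMap.coe_toContinuousLinearEquivOfDetNeZero]
    exact hf.contDiffAt.hasStrictFDerivAt (by simp)
  have ho : IsOpenMap f := isOpenMap_iff_nhds_le.2 fun z => (hst z).map_nhds_eq_of_equiv.ge
  have hb := bij hf.continuous ho hM (fun z => ⟨((hst z).toOpenPartialHomeomorph f).source,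
    ((hst z).toOpenPartialHomeomorph f).open_source.mem_nhds
      (hst z).mem_toOpenPartialHomeomorph_source, ((hst z).toOpenPartialHomeomorph f).injOn⟩) hinf
  exact ⟨(Equiv.ofBijective f hb).toHomeomorphOfContinuousOpen hf.continuous ho, fun z => rfl⟩

/-- derivative of the inverse -/
theorem symm_deriv {e : ℂ ≃ₜ ℂ} (hf : ContDiff ℝ 1 e) (hd : ∀ z, (fderiv ℝ e z).det ≠ 0) :
    ContDiff ℝ 1 e.symm ∧ ∀ w v, fderiv ℝ e (e.symm w) (fderiv ℝ e.symm w v) = v := by
  have h1 : ∀ z, HasFDerivAt e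
      ((fderiv ℝ e z).toContinuousLinearEquivOfDetNeZero (hd z) : ℂ →L[ℝ] ℂ) z := by
    intro z
    rw [ContinuousLinearMap.coe_toContinuousLinearEquivOfDetNeZero]
    exact (hf.differentiable (by simp) z).hasFDerivAt
  have h2 : ContDiff ℝ 1 e.symm := e.contDiff_symm h1 hf
  refine ⟨h2, fun w v => ?_⟩
  have h3 : HasFDerivAt (e ∘ e.symm) ((fderiv ℝ e (e.symm w)).comp (fderiv ℝ e.symm w)) w :=
    ((hf.differentiable (by simp) _).hasFDerivAt).comp w
      (h2.differentiable (by simp) w).hasFDerivAt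
  have h4 : (e ∘ e.symm : ℂ → ℂ) = id := by ext z; simp
  rw [h4] at h3
  have h5 := h3.unique (hasFDerivAt_id w)
  have := congrArg (fun L : ℂ →L[ℝ] ℂ => L v) h5
  simpa using this

/-- maximum principle for open maps -/
theorem exists_sphere_max {f : ℂ → ℂ} (hf : Continuous f) (ho : IsOpenMap f) {c : ℂ} (hc : c ≠ 0)
    {z0 : ℂ} {ρ : ℝ} (hρ : 0 < ρ) :
    ∃ p ∈ sphere z0 ρ, ∀ a ∈ closedBall z0 ρ, (c * f a).re ≤ (c * f p).re := by
  have hcont : Continuous fun z => (c * f z).re :=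
    Complex.continuous_re.comp (continuous_const.mul hf)
  obtain ⟨p, hp, hmax⟩ := (isCompact_closedBall z0 ρ).exists_isMaxOn
    (nonempty_closedBall.2 hρ.le) hcont.continuousOn
  refine ⟨p, ?_, fun a ha => hmax ha⟩
  by_contra hps
  have hpb : p ∈ ball z0 ρ := by
    rw [mem_closedBall] at hp
    rw [mem_sphere] at hps
    rw [mem_ball]
    exact lt_of_le_of_ne hp hps
  have h1 : f '' ball z0 ρ ∈ 𝓝 (f p) := (ho _ isOpen_ball).mem_nhds ⟨p, hpb, rfl⟩
  have h2 : Tendsto (fun t : ℝ => f p + t * (starRingEnd ℂ) c) (𝓝[>] 0) (𝓝 (f p)) := by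
    have : Tendsto (fun t : ℝ => f p + t * (starRingEnd ℂ) c) (𝓝 0)
        (𝓝 (f p + (0:ℝ) * (starRingEnd ℂ) c)) := by
      apply Continuous.tendsto
      fun_prop
    rw [Complex.ofReal_zero, zero_mul, add_zero] at this
    exact this.mono_left nhdsWithin_le_nhds
  obtain ⟨t, ht1, ht2⟩ := ((h2.eventually h1).and self_mem_nhdsWithin).exists
  obtain ⟨a, ha, hat⟩ := ht1
  have h3 := hmax (ball_subset_closedBall ha)
  simp only [mem_ofPred_eq] at h3
  rw [hat, mul_add, Complex.add_re] at h3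
  have h4 : (c * (t * (starRingEnd ℂ) c)).re = t * ‖c‖ ^ 2 := by
    have : c * (t * (starRingEnd ℂ) c) = ((t * ‖c‖ ^ 2 : ℝ) : ℂ) := by
      rw [mul_left_comm, Complex.mul_conj, Complex.normSq_eq_norm_sq]
      push_cast; ring
    rw [this, Complex.ofReal_re]
  rw [h4] at h3
  have h5 : 0 < t * ‖c‖ ^ 2 := by
    have : 0 < ‖c‖ := norm_pos_iff.2 hc
    have ht3 : 0 < t := ht2
    positivity
  linarith

/-- the oscillation on a disc is at most the oscillation on the circle -/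
theorem osc_le {f : ℂ → ℂ} (hf : Continuous f) (ho : IsOpenMap f) {z0 : ℂ} {ρ : ℝ} (hρ : 0 < ρ)
    {a b : ℂ} (ha : a ∈ closedBall z0 ρ) (hb : b ∈ closedBall z0 ρ) :
    ∃ p ∈ sphere z0 ρ, ∃ q ∈ sphere z0 ρ, ‖f a - f b‖ ≤ ‖f p - f q‖ := by
  rcases eq_or_ne (f a) (f b) with hab | hab
  · have h0 : z0 + ρ ∈ sphere z0 ρ := by
      rw [mem_sphere, dist_eq_norm, add_sub_cancel_left, Complex.norm_real,
        Real.norm_of_nonneg hρ.le]
    exact ⟨z0 + ρ, h0, z0 + ρ, h0, by rw [hab]; simp⟩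
  · set c := (starRingEnd ℂ) (f a - f b) with hc
    have hc0 : c ≠ 0 := by
      rw [hc]
      exact (map_ne_zero _).2 (sub_ne_zero.2 hab)
    obtain ⟨p, hp, hpm⟩ := exists_sphere_max hf ho hc0 (z0 := z0) hρ
    obtain ⟨q, hq, hqm⟩ := exists_sphere_max hf ho (neg_ne_zero.2 hc0) (z0 := z0) hρ
    refine ⟨p, hp, q, hq, ?_⟩
    have h1 := hpm a ha
    have h2 := hqm b hb
    have h3 : (c * (f a - f b)).re ≤ (c * (f p - f q)).re := by
      simp only [mul_sub, Complex.sub_re, neg_mul, Complex.neg_re] at h1 h2 ⊢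
      linarith
    have h4 : (c * (f a - f b)).re = ‖f a - f b‖ ^ 2 := by
      have : c * (f a - f b) = ((‖f a - f b‖ ^ 2 : ℝ) : ℂ) := by
        rw [hc, mul_comm, Complex.mul_conj, Complex.normSq_eq_norm_sq]
      rw [this, Complex.ofReal_re]
    have h5 : (c * (f p - f q)).re ≤ ‖f a - f b‖ * ‖f p - f q‖ := by
      refine (Complex.re_le_norm _).trans ?_
      rw [norm_mul, hc, Complex.norm_conj]
    have h6 : 0 < ‖f a - f b‖ := norm_pos_iff.2 (sub_ne_zero.2 hab)
    have h7 : ‖f a - f b‖ * ‖f a - f b‖ ≤ ‖f a - f b‖ * ‖f p - f q‖ := by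
      nlinarith
    exact le_of_mul_le_mul_left h7 h6

end Crest.Agent.R105.Ar1_853
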