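import Crest.Agent.R105.Ar1_222

/-!
Row 105, AREA0, part 2: Courant--Lebesgue on circles, equicontinuity of near-identity
homeomorphisms of bounded dilatation.
-/

open Set Metric Filter Topology MeasureTheory
open scoped Real ENNReal

namespace Crest.Agent.R105.Ar2_222

open Crest.Agent.R105.Ar1_222

noncomputable section

/-- the circle point -/
def cp (p : ℂ) (ρ θ : ℝ) : ℂ := p + ρ * Complex.exp (θ * Complex.I)

theorem cp_cont (p : ℂ) : Continuous fun q : ℝ × ℝ => cp p q.1 q.2 := by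
  unfold cp; fun_prop

theorem cp_cont' (p : ℂ) (ρ : ℝ) : Continuous fun θ : ℝ => cp p ρ θ := by
  unfold cp; fun_prop

theorem polar_le {g : ℂ → ℝ} (hg : Continuous g) (p : ℂ) {r : ℝ} (hr : 0 < r) :
    ∫⁻ ρ in Ioo r 1, ∫⁻ θ in Ioo (-π) π, ENNReal.ofReal ρ * ENNReal.ofReal (g (cp p ρ θ))
      ≤ ∫⁻ z in ball p 1, ENNReal.ofReal (g z) := by
  have m0 : Measurable fun z => ENNReal.ofReal (g z) := hg.measurable.ennreal_ofReal
  have e1 : ∫⁻ z in ball p 1, ENNReal.ofReal (g z)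
      = ∫⁻ z : ℂ, (ball (0:ℂ) 1).indicator (fun z => ENNReal.ofReal (g (p + z))) z := by
    rw [← lintegral_indicator measurableSet_ball,
      ← lintegral_add_left_eq_self (μ := (volume : Measure ℂ))
        ((ball p 1).indicator fun z => ENNReal.ofReal (g z)) p]
    congr 1
    ext z
    by_cases hz : z ∈ ball (0:ℂ) 1
    · rw [indicator_of_mem hz, indicator_of_mem]
      simpa using hz
    · rw [indicator_of_notMem hz, indicator_of_notMem]
      simpa using hz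
  rw [e1, ← Complex.lintegral_comp_polarCoord_symm]
  have hsub : Ioo r 1 ×ˢ Ioo (-π) π ⊆ polarCoord.target := by
    rintro ⟨ρ, θ⟩ ⟨h1, h2⟩
    rw [polarCoord_target]
    exact ⟨hr.trans h1.1, h2⟩
  refine le_trans (le_of_eq ?_) (lintegral_mono_set hsub)
  have hm : Measurable fun q : ℝ × ℝ => ENNReal.ofReal q.1 * ENNReal.ofReal (g (cp p q.1 q.2)) :=
    (measurable_fst.ennreal_ofReal).mul (hg.comp (cp_cont p)).measurable.ennreal_ofReal
  have e2 : ∫⁻ q in Ioo r 1 ×ˢ Ioo (-π) π, ENNReal.ofReal q.1 * ENNReal.ofReal (g (cp p q.1 q.2))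
      = ∫⁻ ρ in Ioo r 1, ∫⁻ θ in Ioo (-π) π, ENNReal.ofReal ρ * ENNReal.ofReal (g (cp p ρ θ)) := by
    rw [Measure.volume_eq_prod]
    exact setLIntegral_prod _ hm.aemeasurable
  rw [← e2]
  apply setLIntegral_congr_fun (measurableSet_Ioo.prod measurableSet_Ioo)
  rintro ⟨ρ, θ⟩ ⟨h1, h2⟩
  simp only [smul_eq_mul]
  have hρ : 0 < ρ := hr.trans h1.1
  have e3 : Complex.polarCoord.symm (ρ, θ) = ρ * Complex.exp (θ * Complex.I) := by
    rw [Complex.polarCoord_symm_apply, Complex.exp_mul_I]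
    push_cast
    rfl
  rw [e3, indicator_of_mem]
  · rfl
  · rw [mem_ball_zero_iff, norm_mul, Complex.norm_exp_ofReal_mul_I, Complex.norm_real,
      Real.norm_of_nonneg hρ.le, mul_one]
    exact h1.2

theorem cs {f : ℝ → ℝ} (hf : Continuous f) :
    (∫ θ in (-π)..π, f θ) ^ 2 ≤ 2 * π * ∫ θ in (-π)..π, f θ ^ 2 := by
  set I := ∫ θ in (-π)..π, f θ with hI
  have hπ : 0 < π := Real.pi_pos
  have h0 : 0 ≤ ∫ θ in (-π)..π, (f θ - I / (2 * π)) ^ 2 :=
    intervalIntegral.integral_nonneg (by linarith) fun _ _ => sq_nonneg _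
  have i1 : IntervalIntegrable (fun θ => f θ ^ 2) volume (-π) π := (hf.pow 2).intervalIntegrable _ _
  have i2 : IntervalIntegrable (fun θ => 2 * (I / (2 * π)) * f θ) volume (-π) π :=
    (continuous_const.mul hf).intervalIntegrable _ _
  have i3 : IntervalIntegrable (fun _ : ℝ => (I / (2 * π)) ^ 2) volume (-π) π :=
    continuous_const.intervalIntegrable _ _
  have e : ∫ θ in (-π)..π, (f θ - I / (2 * π)) ^ 2
      = (∫ θ in (-π)..π, f θ ^ 2) - 2 * (I / (2 * π)) * I + (2 * π) * (I / (2 * π)) ^ 2 := by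
    have e1 : (fun θ => (f θ - I / (2 * π)) ^ 2)
        = fun θ => (f θ ^ 2 - 2 * (I / (2 * π)) * f θ) + (I / (2 * π)) ^ 2 := by
      ext θ; ring
    rw [e1, intervalIntegral.integral_add (i1.sub i2) i3, intervalIntegral.integral_sub i1 i2,
      intervalIntegral.integral_const_mul, intervalIntegral.integral_const, ← hI, smul_eq_mul]
    ring
  have e2 : 2 * (I / (2 * π)) * I - (2 * π) * (I / (2 * π)) ^ 2 = I ^ 2 / (2 * π) := by
    field_simp; ring
  have h1 : I ^ 2 / (2 * π) ≤ ∫ θ in (-π)..π, f θ ^ 2 := by linarith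
  rw [div_le_iff₀ (by positivity)] at h1
  linarith

theorem osc_le {F : ℂ → ℂ} (hF : ContDiff ℝ 1 F) (p : ℂ) {ρ : ℝ} (hρ : 0 < ρ) {y y' : ℂ}
    (hy : y ∈ sphere p ρ) (hy' : y' ∈ sphere p ρ) :
    ‖F y - F y'‖ ≤ ρ * ∫ θ in (-π)..π, ‖fderiv ℝ F (cp p ρ θ)‖ := by
  have hc : Continuous fun θ : ℝ => ‖fderiv ℝ F (cp p ρ θ)‖ :=
    ((hF.continuous_fderiv (by simp)).comp (cp_cont' p ρ)).norm
  have par : ∀ y ∈ sphere p ρ, ∃ θ ∈ Icc (-π) π, cp p ρ θ = y := by
    intro y hy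
    refine ⟨(y - p).arg, ⟨(Complex.neg_pi_lt_arg _).le, Complex.arg_le_pi _⟩, ?_⟩
    have := Complex.norm_mul_exp_arg_mul_I (y - p)
    rw [mem_sphere, dist_eq_norm] at hy
    rw [hy] at this
    unfold cp
    rw [this]; ring
  obtain ⟨a, ha, rfl⟩ := par y hy
  obtain ⟨b, hb, rfl⟩ := par y' hy'
  have hd : ∀ θ : ℝ, HasDerivAt (fun θ : ℝ => F (cp p ρ θ))
      (fderiv ℝ F (cp p ρ θ) (ρ * (Complex.exp (θ * Complex.I) * Complex.I))) θ := by
    intro θ
    have h2 : HasDerivAt (fun θ : ℝ => cp p ρ θ) (ρ * (Complex.exp (θ * Complex.I) * Complex.I)) θ := by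
      unfold cp
      have h3 : HasDerivAt (fun θ : ℝ => (θ : ℂ) * Complex.I) Complex.I θ := by
        simpa using (Complex.ofRealCLM.hasDerivAt (x := θ)).mul_const Complex.I
      exact (h3.cexp.const_mul (ρ:ℂ)).const_add p
    exact (hF.differentiable (by simp) _).hasFDerivAt.comp_hasDerivAt θ h2
  have hdc : Continuous fun θ : ℝ =>
      fderiv ℝ F (cp p ρ θ) (ρ * (Complex.exp (θ * Complex.I) * Complex.I)) := by
    have := (hF.continuous_fderiv (by simp)).comp (cp_cont' p ρ)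
    exact this.clm_apply (by fun_prop)
  have hn : ∀ θ : ℝ, ‖fderiv ℝ F (cp p ρ θ) (ρ * (Complex.exp (θ * Complex.I) * Complex.I))‖
      ≤ ρ * ‖fderiv ℝ F (cp p ρ θ)‖ := by
    intro θ
    refine (ContinuousLinearMap.le_opNorm _ _).trans (le_of_eq ?_)
    rw [norm_mul, norm_mul, Complex.norm_exp_ofReal_mul_I, Complex.norm_I, Complex.norm_real,
      Real.norm_of_nonneg hρ.le]
    ring
  have hπ : 0 < π := Real.pi_pos
  have ftc := intervalIntegral.integral_eq_sub_of_hasDerivAt (a := b) (b := a)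
    (fun θ _ => hd θ) (hdc.intervalIntegrable _ _)
  rw [← ftc]
  refine intervalIntegral.norm_integral_le_abs_integral_norm.trans ?_
  have hsub : uIoc b a ⊆ uIoc (-π) π := by
    rw [uIoc_of_le (by linarith : -π ≤ π)]
    intro x hx
    rw [mem_uIoc] at hx
    rcases hx with hx | hx
    · exact ⟨lt_of_le_of_lt hb.1 hx.1, hx.2.trans ha.2⟩
    · exact ⟨lt_of_le_of_lt ha.1 hx.1, hx.2.trans hb.2⟩
  refine (intervalIntegral.abs_integral_mono_interval hsub
    (Eventually.of_forall fun _ => norm_nonneg _) (hdc.norm.intervalIntegrable _ _)).trans ?_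
  rw [abs_of_nonneg (intervalIntegral.integral_nonneg (by linarith) fun _ _ => norm_nonneg _),
    ← intervalIntegral.integral_const_mul]
  exact intervalIntegral.integral_mono_on (by linarith) (hdc.norm.intervalIntegrable _ _)
    ((continuous_const.mul hc).intervalIntegrable _ _) fun θ _ => hn θ

/-- **Courant--Lebesgue** -/
theorem exists_circle {F : ℂ → ℂ} (hF : ContDiff ℝ 1 F) (p : ℂ) {r E : ℝ} (hr : 0 < r)
    (hr1 : r < 1) (hE0 : 0 < E)
    (hE : ∫⁻ z in ball p 1, ENNReal.ofReal (‖fderiv ℝ F z‖ ^ 2) ≤ ENNReal.ofReal E) :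
    ∃ ρ ∈ Ioo r 1, ∀ y ∈ sphere p ρ, ∀ y' ∈ sphere p ρ,
      ‖F y - F y'‖ ^ 2 ≤ 4 * π * E / Real.log (1 / r) := by
  have hc1 : Continuous fun z => ‖fderiv ℝ F z‖ := (hF.continuous_fderiv (by simp)).norm
  have hc2 : Continuous fun z => ‖fderiv ℝ F z‖ ^ 2 := hc1.pow 2
  have hπ : 0 < π := Real.pi_pos
  have hlog : 0 < Real.log (1 / r) := Real.log_pos (by rw [lt_div_iff₀ hr]; linarith)
  set c := 2 * E / Real.log (1 / r) with hcdef
  have hcpos : 0 < c := by positivity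
  have key : ∃ ρ ∈ Ioo r 1, ρ ^ 2 * (∫ θ in (-π)..π, ‖fderiv ℝ F (cp p ρ θ)‖ ^ 2) < c := by
    by_contra hcon
    push Not at hcon
    have h1 := (polar_le hc2 p hr).trans hE
    have h2 : ∫⁻ ρ in Ioo r 1, ENNReal.ofReal (c * (1 / ρ))
        ≤ ∫⁻ ρ in Ioo r 1, ∫⁻ θ in Ioo (-π) π, ENNReal.ofReal ρ *
          ENNReal.ofReal (‖fderiv ℝ F (cp p ρ θ)‖ ^ 2) := by
      apply setLIntegral_mono'  measurableSet_Ioo
      intro ρ hρ
      have hρ0 : 0 < ρ := hr.trans hρ.1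
      have hcθ : Continuous fun θ : ℝ => ‖fderiv ℝ F (cp p ρ θ)‖ ^ 2 := hc2.comp (cp_cont' p ρ)
      rw [lintegral_const_mul _ hcθ.measurable.ennreal_ofReal]
      have h3 : ENNReal.ofReal (∫ θ in Ioo (-π) π, ‖fderiv ℝ F (cp p ρ θ)‖ ^ 2)
          = ∫⁻ θ in Ioo (-π) π, ENNReal.ofReal (‖fderiv ℝ F (cp p ρ θ)‖ ^ 2) :=
        ofReal_integral_eq_lintegral_ofReal
          ((hcθ.integrableOn_Icc).mono_set Ioo_subset_Icc_self)
          (Eventually.of_forall fun _ => sq_nonneg _)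
      rw [← h3, ← ENNReal.ofReal_mul hρ0.le, ← integral_Ioc_eq_integral_Ioo,
        ← intervalIntegral.integral_of_le (by linarith)]
      apply ENNReal.ofReal_le_ofReal
      have h4 := hcon ρ hρ
      rw [mul_one_div, div_le_iff₀ hρ0]
      linarith
    have h5 : ∫⁻ ρ in Ioo r 1, ENNReal.ofReal (c * (1 / ρ)) = ENNReal.ofReal (2 * E) := by
      have hci : ContinuousOn (fun ρ : ℝ => c * (1 / ρ)) (Icc r 1) := by
        apply continuousOn_const.mul
        apply continuousOn_const.div continuousOn_id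
        intro x hx
        exact (hr.trans_le hx.1).ne'
      have h6 : ENNReal.ofReal (∫ ρ in Ioo r 1, c * (1 / ρ))
          = ∫⁻ ρ in Ioo r 1, ENNReal.ofReal (c * (1 / ρ)) :=
        ofReal_integral_eq_lintegral_ofReal
          ((hci.integrableOn_compact isCompact_Icc).mono_set Ioo_subset_Icc_self)
          ((ae_restrict_mem measurableSet_Ioo).mono fun ρ hρ => by
            have : 0 < ρ := hr.trans hρ.1
            simp only [Pi.zero_apply]
            positivity)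
      rw [← h6, ← integral_Ioc_eq_integral_Ioo, ← intervalIntegral.integral_of_le hr1.le,
        intervalIntegral.integral_const_mul, integral_one_div_of_pos hr one_pos, hcdef]
      congr 1
      field_simp
    have h7 := h2.trans h1
    rw [h5, ENNReal.ofReal_le_ofReal_iff hE0.le] at h7
    linarith
  obtain ⟨ρ, hρ, hlt⟩ := key
  have hρ0 : 0 < ρ := hr.trans hρ.1
  refine ⟨ρ, hρ, fun y hy y' hy' => ?_⟩
  have h1 := osc_le hF p hρ0 hy hy'
  have h2 := cs (f := fun θ => ‖fderiv ℝ F (cp p ρ θ)‖) (hc1.comp (cp_cont' p ρ))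
  calc ‖F y - F y'‖ ^ 2 ≤ (ρ * ∫ θ in (-π)..π, ‖fderiv ℝ F (cp p ρ θ)‖) ^ 2 := by
        gcongr
    _ = ρ ^ 2 * (∫ θ in (-π)..π, ‖fderiv ℝ F (cp p ρ θ)‖) ^ 2 := by ring
    _ ≤ ρ ^ 2 * (2 * π * ∫ θ in (-π)..π, ‖fderiv ℝ F (cp p ρ θ)‖ ^ 2) := by gcongr
    _ = 2 * π * (ρ ^ 2 * ∫ θ in (-π)..π, ‖fderiv ℝ F (cp p ρ θ)‖ ^ 2) := by ring
    _ ≤ 2 * π * c := by gcongr
    _ = 4 * π * E / Real.log (1 / r) := by rw [hcdef]; ring

/-- near-identity homeomorphisms of bounded dilatation -/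
structure Qc (M : ℝ) (e : ℂ ≃ₜ ℂ) : Prop where
  c1 : ContDiff ℝ 1 e
  dil : ∀ z, ‖fderiv ℝ e z‖ ^ 2 ≤ 2 * |(fderiv ℝ e z).det|
  near : ∀ z, ‖e z - z‖ ≤ M

theorem Qc.M0 {M : ℝ} {e : ℂ ≃ₜ ℂ} (h : Qc M e) : 0 ≤ M := (norm_nonneg _).trans (h.near 0)

theorem Qc.energy {M : ℝ} {e : ℂ ≃ₜ ℂ} (h : Qc M e) (p : ℂ) :
    ∫⁻ z in ball p 1, ENNReal.ofReal (‖fderiv ℝ e z‖ ^ 2)
      ≤ ENNReal.ofReal (2 * (π * (1 + M) ^ 2)) := by
  have hM := h.M0
  have hdc : Continuous fun z => (fderiv ℝ e z).det :=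
    (ContinuousLinearMap.continuous_det).comp (h.c1.continuous_fderiv (by simp))
  have h1 : ∫⁻ z in ball p 1, ENNReal.ofReal (‖fderiv ℝ e z‖ ^ 2)
      ≤ ∫⁻ z in ball p 1, 2 * ENNReal.ofReal |(fderiv ℝ e z).det| := by
    apply lintegral_mono
    intro z
    have e2 : (2:ℝ≥0∞) = ENNReal.ofReal 2 := by simp
    simp only
    rw [e2, ← ENNReal.ofReal_mul (by norm_num)]
    exact ENNReal.ofReal_le_ofReal (h.dil z)
  rw [lintegral_const_mul _ (hdc.abs.measurable.ennreal_ofReal),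
    lintegral_abs_det_fderiv_eq_addHaar_image volume measurableSet_ball
      (fun z _ => ((h.c1.differentiable (by simp) z).hasFDerivAt.hasFDerivWithinAt))
      e.injective.injOn] at h1
  refine h1.trans ?_
  have h2 : e '' ball p 1 ⊆ ball p (1 + M + 0) := by
    rintro _ ⟨z, hz, rfl⟩
    rw [mem_ball, dist_eq_norm] at hz ⊢
    have e1 : e z - p = (e z - z) + (z - p) := by ring
    rw [e1]
    have := h.near z
    refine (norm_add_le _ _).trans_lt (by linarith)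
  rw [add_zero] at h2
  have h3 := measure_mono (μ := volume) h2
  rw [Complex.volume_ball] at h3
  calc 2 * volume (e '' ball p 1) ≤ 2 * (ENNReal.ofReal (1 + M) ^ 2 * ↑NNReal.pi) := by gcongr
    _ = ENNReal.ofReal (2 * (π * (1 + M) ^ 2)) := by
      rw [ENNReal.ofReal_mul (by norm_num), ENNReal.ofReal_mul Real.pi_pos.le,
        ENNReal.ofReal_pow (by linarith)]
      have e3 : (NNReal.pi : ℝ≥0∞) = ENNReal.ofReal π := by
        rw [← NNReal.coe_real_pi, ENNReal.ofReal_coe_nnreal]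
      rw [e3]
      simp
      ring

/-- **equicontinuity** -/
theorem Qc.equi {M : ℝ} (hM : 0 ≤ M) {ε : ℝ} (hε : 0 < ε) : ∃ r : ℝ, 0 < r ∧
    ∀ e : ℂ ≃ₜ ℂ, Qc M e → ∀ z z' : ℂ, ‖z - z'‖ ≤ r → ‖e z - e z'‖ ≤ ε := by
  set E := 2 * (π * (1 + M) ^ 2) with hE
  have hπ : 0 < π := Real.pi_pos
  have hEpos : 0 < E := by positivity
  -- choose `r` with `4 π E / log (1/r) ≤ (ε/2)²`
  have hK : 0 < 4 * π * E / (ε / 2) ^ 2 := by positivity
  set K := 4 * π * E / (ε / 2) ^ 2 with hKdef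
  refine ⟨Real.exp (-K), Real.exp_pos _, fun e he z z' hzz => ?_⟩
  have hr1 : Real.exp (-K) < 1 := by rw [Real.exp_lt_one_iff]; linarith
  obtain ⟨ρ, hρ, hosc⟩ := exists_circle he.c1 z (Real.exp_pos _) hr1 hEpos (he.energy z)
  have hρ0 : 0 < ρ := (Real.exp_pos _).trans hρ.1
  have hlog : Real.log (1 / Real.exp (-K)) = K := by
    rw [one_div, ← Real.exp_neg, neg_neg, Real.log_exp]
  rw [hlog] at hosc
  have hq : 4 * π * E / K = (ε / 2) ^ 2 := by
    rw [hKdef]; field_simp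
  rw [hq] at hosc
  have hosc' : ∀ y ∈ sphere z ρ, ∀ y' ∈ sphere z ρ, ‖e y - e y'‖ ≤ ε / 2 := fun y hy y' hy' =>
    abs_le_of_sq_le_sq' (hosc y hy y' hy') (by positivity) |>.2
  have hy0 : z + (ρ : ℂ) ∈ sphere z ρ := by
    rw [mem_sphere, dist_eq_norm, add_sub_cancel_left, Complex.norm_real,
      Real.norm_of_nonneg hρ0.le]
  have a1 := max_open e.continuous e.isOpenMap (fun y hy => hosc' y hy _ hy0)
    (show z ∈ closedBall z ρ from mem_closedBall_self hρ0.le)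
  have a2 := max_open e.continuous e.isOpenMap (fun y hy => hosc' y hy _ hy0)
    (show z' ∈ closedBall z ρ by
      rw [mem_closedBall, dist_eq_norm, norm_sub_rev]; linarith [hρ.1])
  have e1 : e z - e z' = (e z - e (z + ρ)) - (e z' - e (z + ρ)) := by ring
  rw [e1]
  refine (norm_sub_le _ _).trans (by linarith)

end

end Crest.Agent.R105.Ar2_222
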