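import Crest.Agent.R105.Ar1_853

/-!
Row 105 (S0139), AREA0, part 2: the Courant-Lebesgue lemma, and the energy of a quasiconformal
diffeomorphism.
-/

open Set Metric MeasureTheory Filter Topology
open scoped Real
open Crest.Agent.R105.Ar1_853

namespace Crest.Agent.R105.Ar2_853

theorem continuous_circleMap' (z0 : ℂ) : Continuous fun p : ℝ × ℝ => circleMap z0 p.1 p.2 := by
  unfold circleMap
  fun_prop

theorem continuous_nD {f : ℂ → ℂ} (hf : ContDiff ℝ 1 f) : Continuous fun z => ‖fderiv ℝ f z‖ :=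
  (hf.continuous_fderiv (by simp)).norm

theorem exists_angle {z0 p : ℂ} {ρ : ℝ} (hp : p ∈ sphere z0 ρ) :
    ∃ α ∈ Icc (-π) π, circleMap z0 ρ α = p := by
  refine ⟨Complex.arg (p - z0), ⟨(Complex.neg_pi_lt_arg _).le, Complex.arg_le_pi _⟩, ?_⟩
  rw [mem_sphere, dist_eq_norm] at hp
  unfold circleMap
  rw [← hp, Complex.norm_mul_exp_arg_mul_I]
  ring

theorem arc_aux {f : ℂ → ℂ} (hf : ContDiff ℝ 1 f) {z0 : ℂ} {ρ : ℝ} (hρ : 0 < ρ) {α β : ℝ}
    (hα : α ∈ Icc (-π) π) (hβ : β ∈ Icc (-π) π) (hαβ : α ≤ β) :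
    ‖f (circleMap z0 ρ β) - f (circleMap z0 ρ α)‖
      ≤ ∫ θ in (-π)..π, ρ * ‖fderiv ℝ f (circleMap z0 ρ θ)‖ := by
  have hd : ∀ θ, HasDerivAt (fun θ => f (circleMap z0 ρ θ))
      (fderiv ℝ f (circleMap z0 ρ θ) (circleMap 0 ρ θ * Complex.I)) θ := fun θ =>
    ((hf.differentiable (by simp) _).hasFDerivAt).comp_hasDerivAt θ (hasDerivAt_circleMap z0 ρ θ)
  have hc1 : Continuous fun θ => circleMap z0 ρ θ := continuous_circleMap _ _
  have hcont : Continuous fun θ => fderiv ℝ f (circleMap z0 ρ θ) (circleMap 0 ρ θ * Complex.I) :=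
    ((hf.continuous_fderiv (by simp)).comp hc1).clm_apply
      ((continuous_circleMap _ _).mul continuous_const)
  have hcont2 : Continuous fun θ => ρ * ‖fderiv ℝ f (circleMap z0 ρ θ)‖ :=
    continuous_const.mul ((continuous_nD hf).comp hc1)
  have h1 := intervalIntegral.integral_eq_sub_of_hasDerivAt (a := α) (b := β) (fun θ _ => hd θ)
    (hcont.intervalIntegrable _ _)
  rw [← h1]
  refine (intervalIntegral.norm_integral_le_integral_norm hαβ).trans ?_
  refine (intervalIntegral.integral_mono_on hαβ (hcont.norm.intervalIntegrable _ _)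
    (hcont2.intervalIntegrable _ _) fun θ _ => ?_).trans ?_
  · refine (ContinuousLinearMap.le_opNorm _ _).trans (le_of_eq ?_)
    rw [norm_mul, Complex.norm_I, mul_one, norm_circleMap_zero, abs_of_pos hρ, mul_comm]
  · refine intervalIntegral.integral_mono_interval hα.1 hαβ hβ.2 ?_ (hcont2.intervalIntegrable _ _)
    exact Eventually.of_forall fun θ => by positivity

theorem arc {f : ℂ → ℂ} (hf : ContDiff ℝ 1 f) {z0 : ℂ} {ρ : ℝ} (hρ : 0 < ρ) {p q : ℂ}
    (hp : p ∈ sphere z0 ρ) (hq : q ∈ sphere z0 ρ) :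
    ‖f p - f q‖ ≤ ∫ θ in (-π)..π, ρ * ‖fderiv ℝ f (circleMap z0 ρ θ)‖ := by
  obtain ⟨α, hα, rfl⟩ := exists_angle hp
  obtain ⟨β, hβ, rfl⟩ := exists_angle hq
  rcases le_total α β with h | h
  · rw [norm_sub_rev]
    exact arc_aux hf hρ hα hβ h
  · exact arc_aux hf hρ hβ hα h

theorem arc_sq {f : ℂ → ℂ} (hf : ContDiff ℝ 1 f) {z0 : ℂ} {ρ : ℝ} (hρ : 0 < ρ) {D : ℝ}
    (hD : D ≤ ∫ θ in (-π)..π, ρ * ‖fderiv ℝ f (circleMap z0 ρ θ)‖) (hD0 : 0 < D) :
    D ^ 2 ≤ 2 * π * (ρ ^ 2 * ∫ θ in (-π)..π, ‖fderiv ℝ f (circleMap z0 ρ θ)‖ ^ 2) := by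
  have hc : Continuous fun θ => ‖fderiv ℝ f (circleMap z0 ρ θ)‖ :=
    (continuous_nD hf).comp (continuous_circleMap _ _)
  have hπ := Real.pi_pos
  -- `x ≤ (t x² + 1/t) / 2` with `t = 2π / D`
  have h1 : ∫ θ in (-π)..π, ρ * ‖fderiv ℝ f (circleMap z0 ρ θ)‖
      ≤ ∫ θ in (-π)..π, ((π / D) * ρ ^ 2 * ‖fderiv ℝ f (circleMap z0 ρ θ)‖ ^ 2 + D / (4 * π)) := by
    refine intervalIntegral.integral_mono_on (by linarith)
      ((continuous_const.mul hc).intervalIntegrable _ _)
      (((continuous_const.mul (hc.pow 2)).add continuous_const).intervalIntegrable _ _)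
      fun θ _ => ?_
    set x := ρ * ‖fderiv ℝ f (circleMap z0 ρ θ)‖ with hx
    have h2 : π / D * ρ ^ 2 * ‖fderiv ℝ f (circleMap z0 ρ θ)‖ ^ 2 = π / D * x ^ 2 := by
      rw [hx]; ring
    rw [h2]
    have h3 : π / D * x ^ 2 + D / (4 * π) - x = (π / D) * (x - D / (2 * π)) ^ 2 := by
      field_simp
      ring
    have h4 : 0 ≤ (π / D) * (x - D / (2 * π)) ^ 2 := by positivity
    linarith
  have hc2 : Continuous fun θ => π / D * ρ ^ 2 * ‖fderiv ℝ f (circleMap z0 ρ θ)‖ ^ 2 :=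
    continuous_const.mul (hc.pow 2)
  have hadd : ∫ θ in (-π)..π, ((π / D) * ρ ^ 2 * ‖fderiv ℝ f (circleMap z0 ρ θ)‖ ^ 2 + D / (4 * π))
      = (∫ θ in (-π)..π, ((π / D) * ρ ^ 2 * ‖fderiv ℝ f (circleMap z0 ρ θ)‖ ^ 2))
        + ∫ _ in (-π)..π, D / (4 * π) :=
    intervalIntegral.integral_add (hc2.intervalIntegrable _ _)
      (continuous_const.intervalIntegrable _ _)
  rw [intervalIntegral.integral_const_mul (π / D * ρ ^ 2),
    intervalIntegral.integral_const, smul_eq_mul] at hadd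
  rw [hadd] at h1
  set I := ∫ θ in (-π)..π, ‖fderiv ℝ f (circleMap z0 ρ θ)‖ ^ 2 with hI
  have h5 : D ≤ π / D * ρ ^ 2 * I + D / 2 := by
    refine hD.trans (h1.trans (le_of_eq ?_))
    congr 1
    field_simp
    ring
  have h6 : D / 2 ≤ π / D * ρ ^ 2 * I := by linarith
  have h7 : D * (D / 2) ≤ D * (π / D * ρ ^ 2 * I) := mul_le_mul_of_nonneg_left h6 hD0.le
  have h8 : D * (π / D * ρ ^ 2 * I) = π * ρ ^ 2 * I := by field_simp
  rw [h8] at h7
  nlinarith

/-- polar coordinates on an annulus -/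
theorem polar_annulus {g : ℂ → ℝ} (hg : Continuous g) (z0 : ℂ) {r s : ℝ} (hr : 0 < r)
    (hrs : r < s) :
    ∫ ρ in r..s, ρ * ∫ θ in (-π)..π, g (circleMap z0 ρ θ)
      = ∫ z in ball z0 s \ closedBall z0 r, g z := by
  have hπ := Real.pi_pos
  have hms : MeasurableSet (ball z0 s \ closedBall z0 r) :=
    measurableSet_ball.diff measurableSet_closedBall
  rw [← integral_indicator hms]
  set H : ℂ → ℝ := (ball z0 s \ closedBall z0 r).indicator g with hH
  rw [← integral_add_left_eq_self H z0, ← Complex.integral_comp_polarCoord_symm]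
  have hsub : Ioo r s ×ˢ Ioo (-π) π ⊆ polarCoord.target := by
    rw [polarCoord_target]
    rintro ⟨a, b⟩ ⟨ha, hb⟩
    exact ⟨hr.trans ha.1, hb⟩
  have hcm : ∀ p : ℝ × ℝ, z0 + Complex.polarCoord.symm p = circleMap z0 p.1 p.2 := by
    intro p
    rw [Complex.polarCoord_symm_apply]
    unfold circleMap
    rw [Complex.exp_mul_I]
    push_cast
    rfl
  have hzero : ∀ p ∈ polarCoord.target \ (Ioo r s ×ˢ Ioo (-π) π),
      p.1 • H (z0 + Complex.polarCoord.symm p) = 0 := by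
    rintro ⟨a, b⟩ ⟨hp1, hp2⟩
    rw [polarCoord_target] at hp1
    have ha : 0 < a := hp1.1
    have : H (z0 + Complex.polarCoord.symm (a, b)) = 0 := by
      rw [hH]
      apply indicator_of_notMem
      rintro ⟨h1, h2⟩
      rw [mem_ball, dist_eq_norm, add_sub_cancel_left, Complex.norm_polarCoord_symm,
        abs_of_pos ha] at h1
      rw [mem_closedBall, dist_eq_norm, add_sub_cancel_left, Complex.norm_polarCoord_symm,
        abs_of_pos ha, not_le] at h2
      exact hp2 ⟨⟨h2, h1⟩, hp1.2⟩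
    rw [this, smul_zero]
  have hopen : IsOpen (polarCoord.target) := polarCoord.open_target
  rw [setIntegral_eq_of_subset_of_forall_sdiff_eq_zero hopen.measurableSet hsub hzero]
  have hcongr : ∫ p in Ioo r s ×ˢ Ioo (-π) π, p.1 • H (z0 + Complex.polarCoord.symm p)
      = ∫ p in Ioo r s ×ˢ Ioo (-π) π, p.1 * g (circleMap z0 p.1 p.2) := by
    apply setIntegral_congr_fun (measurableSet_Ioo.prod measurableSet_Ioo)
    rintro ⟨a, b⟩ ⟨ha, hb⟩
    have ha0 : 0 < a := hr.trans ha.1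
    have h1 : H (z0 + Complex.polarCoord.symm (a, b)) = g (circleMap z0 a b) := by
      rw [hH, indicator_of_mem, hcm]
      constructor
      · rw [mem_ball, dist_eq_norm, add_sub_cancel_left, Complex.norm_polarCoord_symm,
          abs_of_pos ha0]
        exact ha.2
      · rw [mem_closedBall, dist_eq_norm, add_sub_cancel_left, Complex.norm_polarCoord_symm,
          abs_of_pos ha0, not_le]
        exact ha.1
    simp only [smul_eq_mul]
    rw [h1]
  rw [hcongr]
  have hcg : Continuous fun p : ℝ × ℝ => p.1 * g (circleMap z0 p.1 p.2) :=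
    continuous_fst.mul (hg.comp (continuous_circleMap' z0))
  have hint : IntegrableOn (fun p : ℝ × ℝ => p.1 * g (circleMap z0 p.1 p.2))
      (Ioo r s ×ˢ Ioo (-π) π) (volume.prod volume) := by
    have h1 : IntegrableOn (fun p : ℝ × ℝ => p.1 * g (circleMap z0 p.1 p.2))
      (Icc r s ×ˢ Icc (-π) π) (volume.prod volume) :=
      hcg.continuousOn.integrableOn_compact (isCompact_Icc.prod isCompact_Icc)
    exact h1.mono_set (prod_mono Ioo_subset_Icc_self Ioo_subset_Icc_self)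
  have h3 := setIntegral_prod (μ := volume) (ν := volume)
    (fun p : ℝ × ℝ => p.1 * g (circleMap z0 p.1 p.2)) hint
  rw [Measure.volume_eq_prod, h3, intervalIntegral.integral_of_le hrs.le, integral_Ioc_eq_integral_Ioo]
  apply setIntegral_congr_fun measurableSet_Ioo
  intro ρ _
  simp only
  rw [intervalIntegral.integral_of_le (by linarith), integral_Ioc_eq_integral_Ioo,
    integral_const_mul]

/-- **Courant-Lebesgue** -/
theorem courant_lebesgue {f : ℂ → ℂ} (hf : ContDiff ℝ 1 f) (ho : IsOpenMap f) {z0 : ℂ} {r s : ℝ}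
    (hr : 0 < r) (hrs : r < s) {a b : ℂ} (ha : a ∈ closedBall z0 r) (hb : b ∈ closedBall z0 r) :
    ‖f a - f b‖ ^ 2 * Real.log (s / r) ≤ 2 * π * ∫ z in ball z0 s, ‖fderiv ℝ f z‖ ^ 2 := by
  have hπ := Real.pi_pos
  have hcD : Continuous fun z => ‖fderiv ℝ f z‖ ^ 2 := (continuous_nD hf).pow 2
  rcases eq_or_ne (f a) (f b) with hab | hab
  · rw [hab, sub_self, norm_zero]
    have : 0 ≤ ∫ z in ball z0 s, ‖fderiv ℝ f z‖ ^ 2 := integral_nonneg fun _ => by positivity
    have h2 : 0 ≤ 2 * π * ∫ z in ball z0 s, ‖fderiv ℝ f z‖ ^ 2 := by positivity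
    simpa using h2
  set D := ‖f a - f b‖ with hD
  have hD0 : 0 < D := norm_pos_iff.2 (sub_ne_zero.2 hab)
  have hkey : ∀ ρ ∈ Icc r s, D ^ 2 * ρ⁻¹
      ≤ 2 * π * (ρ * ∫ θ in (-π)..π, ‖fderiv ℝ f (circleMap z0 ρ θ)‖ ^ 2) := by
    intro ρ hρ
    have hρ0 : 0 < ρ := hr.trans_le hρ.1
    have hcb : closedBall z0 r ⊆ closedBall z0 ρ := closedBall_subset_closedBall hρ.1
    obtain ⟨p, hp, q, hq, hpq⟩ := osc_le hf.continuous ho hρ0 (hcb ha) (hcb hb)
    have h1 := arc_sq hf hρ0 (hpq.trans (arc hf hρ0 hp hq)) hD0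
    have h2 : D ^ 2 * ρ⁻¹ ≤ (2 * π * (ρ ^ 2 * ∫ θ in (-π)..π,
        ‖fderiv ℝ f (circleMap z0 ρ θ)‖ ^ 2)) * ρ⁻¹ :=
      mul_le_mul_of_nonneg_right h1 (by positivity)
    refine h2.trans (le_of_eq ?_)
    field_simp
  have hcI : Continuous fun ρ : ℝ => ∫ θ in (-π)..π, ‖fderiv ℝ f (circleMap z0 ρ θ)‖ ^ 2 := by
    apply intervalIntegral.continuous_parametric_intervalIntegral_of_continuous'
    exact hcD.comp (continuous_circleMap' z0)
  have hcI2 : Continuous fun ρ : ℝ => 2 * π * (ρ * ∫ θ in (-π)..π,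
      ‖fderiv ℝ f (circleMap z0 ρ θ)‖ ^ 2) :=
    continuous_const.mul (continuous_id.mul hcI)
  have hinv : ContinuousOn (fun ρ : ℝ => D ^ 2 * ρ⁻¹) (uIcc r s) := by
    apply ContinuousOn.mul continuousOn_const
    apply ContinuousOn.inv₀ continuousOn_id
    intro x hx
    rw [uIcc_of_le hrs.le] at hx
    exact (hr.trans_le hx.1).ne'
  have h1 := intervalIntegral.integral_mono_on (μ := volume) hrs.le hinv.intervalIntegrable
    (hcI2.intervalIntegrable _ _) hkey
  rw [intervalIntegral.integral_const_mul, integral_inv_of_pos hr (hr.trans hrs),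
    intervalIntegral.integral_const_mul, polar_annulus hcD z0 hr hrs] at h1
  refine h1.trans (mul_le_mul_of_nonneg_left ?_ (by positivity))
  apply setIntegral_mono_set
  · exact (hcD.continuousOn.integrableOn_compact (isCompact_closedBall z0 s)).mono_set
      ball_subset_closedBall
  · exact Eventually.of_forall fun z => by positivity
  · exact (Eventually.of_forall fun z hz => hz.1)

/-- the energy of a quasiconformal diffeomorphism -/
theorem energy_le {e : ℂ → ℂ} (hf : ContDiff ℝ 1 e) (hinj : Function.Injective e) {K : ℝ}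
    (hK0 : 0 ≤ K) (hK : ∀ z, ‖fderiv ℝ e z‖ ^ 2 ≤ K * |(fderiv ℝ e z).det|) {z0 : ℂ} {s : ℝ}
    {w0 : ℂ} {t : ℝ} (ht : 0 ≤ t) (hst : e '' ball z0 s ⊆ ball w0 t) :
    ∫ z in ball z0 s, ‖fderiv ℝ e z‖ ^ 2 ≤ K * (π * t ^ 2) := by
  have hcD : Continuous fun z => ‖fderiv ℝ e z‖ ^ 2 := (continuous_nD hf).pow 2
  have hcdet : Continuous fun z => |(fderiv ℝ e z).det| :=
    (ContinuousLinearMap.continuous_det.comp (hf.continuous_fderiv (by simp))).abs
  have hi1 : IntegrableOn (fun z => ‖fderiv ℝ e z‖ ^ 2) (ball z0 s) :=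
    (hcD.continuousOn.integrableOn_compact (isCompact_closedBall z0 s)).mono_set
      ball_subset_closedBall
  have hi2 : IntegrableOn (fun z => |(fderiv ℝ e z).det|) (ball z0 s) :=
    (hcdet.continuousOn.integrableOn_compact (isCompact_closedBall z0 s)).mono_set
      ball_subset_closedBall
  have h1 : ∫ z in ball z0 s, ‖fderiv ℝ e z‖ ^ 2 ≤ ∫ z in ball z0 s, K * |(fderiv ℝ e z).det| :=
    setIntegral_mono hi1 (hi2.const_mul K) fun z => hK z
  rw [integral_const_mul] at h1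
  refine h1.trans (mul_le_mul_of_nonneg_left ?_ hK0)
  have h2 := lintegral_abs_det_fderiv_eq_addHaar_image volume (s := ball z0 s) (f := e)
    (f' := fun z => fderiv ℝ e z) measurableSet_ball
    (fun z _ => ((hf.differentiable (by simp) z).hasFDerivAt).hasFDerivWithinAt) hinj.injOn
  have h3 : volume (e '' ball z0 s) ≤ ENNReal.ofReal (π * t ^ 2) := by
    refine (measure_mono hst).trans (le_of_eq ?_)
    rw [Complex.volume_ball, ENNReal.ofReal_mul Real.pi_pos.le, ← ENNReal.ofReal_pow ht,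
      mul_comm, ← NNReal.coe_real_pi, ENNReal.ofReal_coe_nnreal]
  rw [← h2, ← ofReal_integral_eq_lintegral_ofReal hi2
    (Eventually.of_forall fun z => abs_nonneg _)] at h3
  exact (ENNReal.ofReal_le_ofReal_iff (by positivity)).1 h3

end Crest.Agent.R105.Ar2_853
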