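import Crest.Agent.R105.Ar2_222
import Crest.Agent.R096.BelD_205

/-!
Row 105, AREA0, part 3: near-identity quasiconformal homeomorphisms with a small smooth Beltrami
coefficient (helper205's solution of the Beltrami equation), with uniform bounds.
-/

open Set Metric Filter Topology MeasureTheory
open scoped Real ENNReal ComplexConjugate ContDiff
open Crest.Agent.R096.BelA_205 Crest.Agent.R096.BelB_205 Crest.Agent.R096.BelC_205
open Crest.Agent.R096.BelD_205

namespace Crest.Agent.R105.Ar3_222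

open Crest.Agent.R105.Ar1_222 Crest.Agent.R105.Ar2_222

noncomputable section

/-! ### linear algebra -/

theorem id_eq_LL : ContinuousLinearMap.id ℝ ℂ = LL 1 0 := by
  ext v
  simp [LL_apply]

theorem LL_a (a b : ℂ) : (LL a b 1 - Complex.I * LL a b Complex.I) / 2 = a := by
  simp only [LL_apply, map_one, Complex.conj_I]
  linear_combination ((b - a) / 2) * Complex.I_sq

theorem LL_b (a b : ℂ) : (LL a b 1 + Complex.I * LL a b Complex.I) / 2 = b := by
  simp only [LL_apply, map_one, Complex.conj_I]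
  linear_combination ((a - b) / 2) * Complex.I_sq

theorem det_LL (a b : ℂ) : (LL a b).det = ‖a‖ ^ 2 - ‖b‖ ^ 2 := by
  rw [det_eq, LL_a, LL_b]

theorem dil_LL {a b : ℂ} (hb : ‖b‖ ≤ ‖a‖ / 4) : ‖LL a b‖ ^ 2 ≤ 2 * |(LL a b).det| := by
  have h1 := norm_LL_le a b
  have hb0 := norm_nonneg b
  have ha0 := norm_nonneg a
  rw [det_LL]
  have h2 : 0 ≤ ‖a‖ ^ 2 - ‖b‖ ^ 2 := by nlinarith
  rw [abs_of_nonneg h2]
  have h3 : ‖LL a b‖ ^ 2 ≤ (‖a‖ + ‖b‖) ^ 2 := by gcongr
  nlinarith

theorem dil_inv {a b : ℂ} (ha : a ≠ 0) (hb : ‖b‖ ≤ ‖a‖ / 4) {L : ℂ →L[ℝ] ℂ}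
    (hL : L.comp (LL a b) = ContinuousLinearMap.id ℝ ℂ) : ‖L‖ ^ 2 ≤ 2 * |L.det| := by
  have hb0 := norm_nonneg b
  have ha0 : 0 < ‖a‖ := norm_pos_iff.2 ha
  set D := ‖a‖ ^ 2 - ‖b‖ ^ 2 with hD
  have hDpos : 0 < D := by nlinarith
  have hdet : L.det * D = 1 := by
    have h1 : (L.comp (LL a b)).det = 1 := by
      rw [hL]; simp [ContinuousLinearMap.det]
    have h2 : (L.comp (LL a b)).det = L.det * (LL a b).det := by
      unfold ContinuousLinearMap.det
      exact LinearMap.det_comp _ _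
    rw [h2, det_LL] at h1
    exact h1
  have hDc : (D : ℂ) = a * conj a - b * conj b := by
    rw [Complex.mul_conj, Complex.mul_conj, Complex.normSq_eq_norm_sq, Complex.normSq_eq_norm_sq,
      hD]
    push_cast; ring
  have hDc0 : (D : ℂ) ≠ 0 := by exact_mod_cast hDpos.ne'
  have hbd : ∀ u, ‖L u‖ ≤ (‖a‖ + ‖b‖) / D * ‖u‖ := by
    intro u
    set v : ℂ := (conj a * u - b * conj u) / D with hv
    have h1 : LL a b v = u := by
      rw [LL_apply, hv, map_div₀, map_sub, map_mul, map_mul, Complex.conj_conj, Complex.conj_conj,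
        Complex.conj_ofReal]
      field_simp
      rw [hDc]; ring
    have h2 : L u = v := by
      have := congrArg (fun T : ℂ →L[ℝ] ℂ => T v) hL
      simp only [ContinuousLinearMap.comp_apply, ContinuousLinearMap.id_apply] at this
      rw [h1] at this
      exact this
    rw [h2, hv, norm_div, Complex.norm_real, Real.norm_of_nonneg hDpos.le, div_mul_eq_mul_div]
    gcongr
    refine (norm_sub_le _ _).trans (le_of_eq ?_)
    rw [norm_mul, norm_mul, Complex.norm_conj, Complex.norm_conj]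
    ring
  have hop : ‖L‖ ≤ (‖a‖ + ‖b‖) / D :=
    ContinuousLinearMap.opNorm_le_bound _ (by positivity) hbd
  have hdet' : |L.det| = 1 / D := by
    rw [abs_of_pos (by by_contra hcon; push Not at hcon; nlinarith), eq_div_iff hDpos.ne', hdet]
  rw [hdet']
  have h3 : ‖L‖ ^ 2 ≤ ((‖a‖ + ‖b‖) / D) ^ 2 := by gcongr
  refine h3.trans ?_
  rw [div_pow, div_le_iff₀ (by positivity)]
  have h4 : 2 * (1 / D) * D ^ 2 = 2 * D := by field_simp
  rw [h4, hD]
  nlinarith

/-! ### the members -/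

/-- the bound -/
def VR (R : ℝ) : ℝ := volume.real (closedBall (0:ℂ) R)

theorem VR_nonneg (R : ℝ) : 0 ≤ VR R := by unfold VR; positivity

/-- a member of the approximating family -/
structure Mem (R c : ℝ) (N : Set ℂ) (e : ℂ ≃ₜ ℂ) (ν : ℂ → ℂ) : Prop where
  tst : Tst R ν
  eq : ∀ z, e z = z + P ν z
  off : ∀ z, z ∉ N → ν z = 0
  l1 : ∫ z, ‖ν z‖ ≤ VR R
  qc : Qc (4 * R + VR R) e
  qci : Qc (4 * R + VR R) e.symm
  mass : c ≤ (∫ z, ν z).re

/-- the data after choosing `n` -/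
structure Dat (R : ℝ) (N : Set ℂ) (F ν : ℂ → ℂ) : Prop where
  tst : Tst R ν
  eq : ∀ z, F z = z + P ν z
  off : ∀ z, z ∉ N → ν z = 0
  ne : ∀ z, dz F z ≠ 0
  le : ∀ z, ‖ν z‖ ≤ ‖dz F z‖ / 4

namespace Dat

variable {R : ℝ} {N : Set ℂ} {F ν : ℂ → ℂ}

theorem feq (h : Dat R N F ν) : F = fun z => z + P ν z := funext h.eq

theorem smooth (h : Dat R N F ν) : ContDiff ℝ ∞ F := by
  rw [h.feq]; exact contDiff_id.add (P_smooth h.tst)

theorem diffP (h : Dat R N F ν) : Differentiable ℝ (P ν) :=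
  (P_smooth h.tst).differentiable (by simp)

theorem dzb_eq (h : Dat R N F ν) (z : ℂ) : dzb F z = ν z := by
  rw [h.feq, dzb_id_add h.diffP, dzb_P h.tst]

theorem dz_eq (h : Dat R N F ν) (z : ℂ) : dz F z = 1 + dz (P ν) z := by
  rw [h.feq, dz_id_add h.diffP]

theorem fd (h : Dat R N F ν) (z : ℂ) : fderiv ℝ F z = LL (dz F z) (ν z) := by
  rw [fderiv_eq_LL, h.dzb_eq]

theorem det_pos (h : Dat R N F ν) (z : ℂ) : 0 < (fderiv ℝ F z).det := by
  rw [h.fd, det_LL]
  have h1 := h.le z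
  have h2 : 0 < ‖dz F z‖ := norm_pos_iff.2 (h.ne z)
  have h3 := norm_nonneg (ν z)
  nlinarith

theorem exists_e (h : Dat R N F ν) : ∃ e : ℂ ≃ₜ ℂ, ⇑e = F := by
  apply exists_homeo (h.smooth.of_le (by simp)) (fun z => (h.det_pos z).ne')
  · refine (P_tendsto h.tst).congr fun z => ?_
    rw [h.eq]; ring
  · have h1 : Tendsto (fun z => ‖P (dz ν) z‖ + ‖ν z‖) (cocompact ℂ) (𝓝 0) := by
      have t1 := (P_tendsto h.tst.dz).norm
      rw [norm_zero] at t1
      have t2 : Tendsto (fun z => ‖ν z‖) (cocompact ℂ) (𝓝 0) := by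
        apply tendsto_const_nhds.congr'
        filter_upwards [(tendsto_norm_cocompact_atTop (E := ℂ)).eventually (eventually_gt_atTop R)]
          with z hz
        rw [h.tst.zero z hz]; simp
      have := t1.add t2
      rwa [add_zero] at this
    apply squeeze_zero_norm _ h1
    intro z
    rw [h.fd, id_eq_LL, LL_sub, sub_zero, h.dz_eq, add_sub_cancel_left, dz_P h.tst]
    exact norm_LL_le _ _

/-- the `L²` bound -/
theorem A_le (h : Dat R N F ν) (hN : MeasurableSet N) (hNR : N ⊆ closedBall 0 R) :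
    A ν ≤ volume.real N / 7 := by
  have hNf : volume N ≠ ⊤ := ((measure_mono hNR).trans_lt measure_closedBall_lt_top).ne
  have hi := integrable_sq_P h.tst
  have hc : IntegrableOn (fun _ : ℂ => (1:ℝ)/8) N := integrableOn_const hNf (by simp)
  have hint : Integrable (fun z => N.indicator (fun _ => (1:ℝ)/8) z + 1/8 * ‖dz (P ν) z‖ ^ 2) :=
    ((integrable_indicator_iff hN).2 hc).add (hi.const_mul _)
  have h1 : A ν ≤ ∫ z, (N.indicator (fun _ => (1:ℝ)/8) z + 1/8 * ‖dz (P ν) z‖ ^ 2) := by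
    apply A_le_of h.tst hint
    intro z
    by_cases hz : z ∈ N
    · rw [indicator_of_mem hz]
      have h2 := h.le z
      have h3 : ‖dz F z‖ ≤ 1 + ‖dz (P ν) z‖ := by
        rw [h.dz_eq]
        refine (norm_add_le _ _).trans (le_of_eq (by simp))
      have h4 := norm_nonneg (ν z)
      have h5 := norm_nonneg (dz (P ν) z)
      have h6 : ‖ν z‖ ^ 2 ≤ ((1 + ‖dz (P ν) z‖) / 4) ^ 2 := by
        gcongr
        linarith
      nlinarith [sq_nonneg (1 - ‖dz (P ν) z‖)]
    · rw [indicator_of_notMem hz, h.off z hz]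
      simp only [norm_zero]
      have := sq_nonneg ‖dz (P ν) z‖
      linarith
  rw [integral_add ((integrable_indicator_iff hN).2 hc) (hi.const_mul _),
    integral_indicator hN, setIntegral_const, integral_const_mul, isometry h.tst] at h1
  have h2 : (∫ z, ‖ν z‖ ^ 2) = A ν := rfl
  rw [h2, smul_eq_mul] at h1
  linarith

theorem l1_le (h : Dat R N F ν) (hN : MeasurableSet N) (hNR : N ⊆ closedBall 0 R) :
    ∫ z, ‖ν z‖ ≤ VR R := by
  have h1 := int_le_sq h.tst one_pos
  have h2 := h.A_le hN hNR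
  have h3 : volume.real N ≤ VR R :=
    measureReal_mono hNR (measure_closedBall_lt_top.ne)
  have h4 : 0 ≤ volume.real N := measureReal_nonneg
  rw [one_mul, inv_one, one_mul] at h1
  unfold VR at *
  linarith

theorem near (h : Dat R N F ν) (hR : 1 ≤ R) (hN : MeasurableSet N) (hNR : N ⊆ closedBall 0 R)
    {e : ℂ ≃ₜ ℂ} (he : ⇑e = F) (z : ℂ) : ‖e z - z‖ ≤ 4 * R + VR R := by
  have hR0 : 0 < R := by linarith
  have hV := VR_nonneg R
  have big : ∀ z, 2 * R ≤ ‖z‖ → ‖e z - z‖ ≤ VR R := by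
    intro z hz
    rw [he, h.eq, add_sub_cancel_left]
    refine (P_decay h.tst hR0 hz).trans ?_
    have h1 := h.l1_le hN hNR
    have h2 : ‖z‖⁻¹ ≤ (2:ℝ)⁻¹ := inv_anti₀ (by norm_num) (by linarith)
    have h3 : π⁻¹ ≤ (1:ℝ) := inv_le_one_of_one_le₀ (by linarith [Real.pi_gt_three])
    have h0 : 0 ≤ ∫ ζ, ‖ν ζ‖ := integral_nonneg fun _ => norm_nonneg _
    calc 2 * π⁻¹ * (∫ ζ, ‖ν ζ‖) * ‖z‖⁻¹ ≤ 2 * 1 * VR R * 2⁻¹ := by gcongr
      _ = VR R := by ring
  by_cases hz : 2 * R ≤ ‖z‖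
  · linarith [big z hz]
  · push Not at hz
    have h1 : ∀ y ∈ sphere (0:ℂ) (2 * R), ‖e y - 0‖ ≤ 2 * R + VR R := by
      intro y hy
      rw [mem_sphere_zero_iff_norm] at hy
      have h2 := big y hy.ge
      rw [sub_zero]
      have e1 : e y = (e y - y) + y := by ring
      rw [e1]
      refine (norm_add_le _ _).trans (by linarith)
    have h3 := max_open e.continuous e.isOpenMap h1 (show z ∈ closedBall (0:ℂ) (2 * R) by
      rw [mem_closedBall_zero_iff]; exact hz.le)
    rw [sub_zero] at h3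
    refine (norm_sub_le _ _).trans (by linarith)

theorem qc (h : Dat R N F ν) (hR : 1 ≤ R) (hN : MeasurableSet N) (hNR : N ⊆ closedBall 0 R)
    {e : ℂ ≃ₜ ℂ} (he : ⇑e = F) : Qc (4 * R + VR R) e where
  c1 := by rw [he]; exact h.smooth.of_le (by simp)
  dil z := by rw [he, h.fd]; exact dil_LL (h.le z)
  near := h.near hR hN hNR he

theorem qci (h : Dat R N F ν) (hR : 1 ≤ R) (hN : MeasurableSet N) (hNR : N ⊆ closedBall 0 R)
    {e : ℂ ≃ₜ ℂ} (he : ⇑e = F) : Qc (4 * R + VR R) e.symm := by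
  have hc1 : ContDiff ℝ 1 e := by rw [he]; exact h.smooth.of_le (by simp)
  have hd : ∀ z, HasFDerivAt e (((fderiv ℝ e z).toContinuousLinearEquivOfDetNeZero
      (by rw [he]; exact (h.det_pos z).ne') : ℂ ≃L[ℝ] ℂ) : ℂ →L[ℝ] ℂ) z := by
    intro z
    rw [ContinuousLinearMap.coe_toContinuousLinearEquivOfDetNeZero]
    exact (hc1.differentiable (by simp) z).hasFDerivAt
  have hs : ContDiff ℝ 1 e.symm := e.contDiff_symm hd hc1
  refine ⟨hs, fun w => ?_, fun w => ?_⟩
  · have h1 : HasFDerivAt e.symm (fderiv ℝ e.symm w) (e (e.symm w)) := by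
      rw [e.apply_symm_apply]
      exact (hs.differentiable (by simp) w).hasFDerivAt
    have h2 : HasFDerivAt e (fderiv ℝ e (e.symm w)) (e.symm w) :=
      (hc1.differentiable (by simp) _).hasFDerivAt
    have h3 := h1.comp (e.symm w) h2
    have h4 : (e.symm ∘ e : ℂ → ℂ) = id := by ext z; simp
    rw [h4] at h3
    have h5 := h3.unique (hasFDerivAt_id _)
    have h6 : fderiv ℝ e (e.symm w) = LL (dz F (e.symm w)) (ν (e.symm w)) := by
      rw [he, h.fd]
    rw [h6] at h5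
    exact dil_inv (h.ne _) (h.le _) h5
  · have := h.near hR hN hNR he (e.symm w)
    rw [e.apply_symm_apply, norm_sub_rev] at this
    exact this

end Dat

/-- **existence of a member** -/
theorem exists_Mem {R : ℝ} (hR : 1 ≤ R) {E N : Set ℂ} (hN : MeasurableSet N)
    (hNR : N ⊆ closedBall 0 R) (hEm : MeasurableSet E) (hEN : E ⊆ N) {φ : ℂ → ℝ}
    (hφ : ContDiff ℝ ∞ φ) (h0 : ∀ z, 0 ≤ φ z) (h1 : ∀ z, φ z ≤ 1) (hoff : ∀ z, z ∉ N → φ z = 0)
    (hon : ∀ z ∈ E, φ z = 1) (hvol : volume.real N ≤ 3 / 2 * volume.real E) :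
    ∃ e ν, Mem R (volume.real E / 64) N e ν := by
  have hNf : volume N ≠ ⊤ := ((measure_mono hNR).trans_lt measure_closedBall_lt_top).ne
  have hEf : volume E ≠ ⊤ := ((measure_mono hEN).trans_lt hNf.lt_top).ne
  set μ : ℂ → ℂ := fun z => ((φ z / 8 : ℝ) : ℂ) with hμdef
  have hμn : ∀ z, ‖μ z‖ = φ z / 8 := fun z => by
    rw [hμdef]
    simp only
    rw [Complex.norm_real, Real.norm_of_nonneg (by have := h0 z; positivity)]
  have hμ : Tst R μ := by
    refine ⟨Complex.ofRealCLM.contDiff.comp (hφ.div_const 8), fun z hz => ?_⟩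
    have : z ∉ N := fun hzN => by
      have := hNR hzN
      rw [mem_closedBall_zero_iff] at this
      linarith
    simp only [hμdef, hoff z this]
    simp
  obtain ⟨C, ρ, hBd⟩ := exists_Bd (k := 1/8) hμ (fun z => by rw [hμn]; linarith [h1 z]) (by norm_num)
  have hexp := Real.exp_pos (-Bd.Sg R C ρ)
  obtain ⟨n, hn1, hn2⟩ := ((hBd.g_tendsto.eventually (gt_mem_nhds (half_pos hexp))).and
    (hBd.g_tendsto.eventually (gt_mem_nhds (show (0:ℝ) < 1/8 by norm_num)))).exists
  have hs : (1:ℝ) ∈ Icc (0:ℝ) 1 := ⟨by norm_num, le_refl _⟩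
  have hνe : ∀ z, ν μ n 1 z = μ z * Complex.exp (σ μ n 1 z) := fun z => by unfold ν; simp
  have hlow : ∀ z, ‖Complex.exp (σ μ n 1 z)‖ / 2 ≤ ‖dz (F μ n 1) z‖ := by
    intro z
    have a1 := hBd.g_le n hs z
    have a2 := hBd.le_exp n hs z
    have a3 := norm_sub_norm_le (Complex.exp (σ μ n 1 z)) (dz (F μ n 1) z)
    rw [norm_sub_rev] at a3
    linarith
  have D : Dat R N (F μ n 1) (ν μ n 1) := by
    refine ⟨tst_ν hμ n 1, fun z => rfl, fun z hz => ?_, fun z hz => ?_, fun z => ?_⟩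
    · rw [hνe]; simp only [hμdef, hoff z hz]; simp
    · have a1 := hlow z
      have a2 := hBd.le_exp n hs z
      rw [hz, norm_zero] at a1
      linarith
    · rw [hνe, norm_mul, hμn]
      have a1 := hlow z
      have a2 := norm_nonneg (Complex.exp (σ μ n 1 z))
      have a3 : φ z / 8 * ‖Complex.exp (σ μ n 1 z)‖ ≤ 1 / 8 * ‖Complex.exp (σ μ n 1 z)‖ := by
        gcongr; exact h1 z
      linarith
  obtain ⟨e, he⟩ := D.exists_e
  refine ⟨e, ν μ n 1, D.tst, fun z => by rw [he]; rfl, D.off, D.l1_le hN hNR, D.qc hR hN hNR he,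
    D.qci hR hN hNR he, ?_⟩
  -- the mass
  have hre : (∫ z, ν μ n 1 z).re = ∫ z, (ν μ n 1 z).re := by
    have := Complex.reCLM.integral_comp_comm D.tst.integrable
    simp only [Complex.reCLM_apply] at this
    exact this.symm
  rw [hre]
  have iE : Integrable (E.indicator fun _ : ℂ => (1:ℝ)/8) :=
    (integrable_indicator_iff hEm).2 (integrableOn_const hEf (by simp))
  have iN : Integrable (N.indicator fun _ : ℂ => (3:ℝ)/64) :=
    (integrable_indicator_iff hN).2 (integrableOn_const hNf (by simp))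
  have iP := (integrable_sq_P D.tst).const_mul (1/8 : ℝ)
  have hlb : ∀ z, E.indicator (fun _ : ℂ => (1:ℝ)/8) z - N.indicator (fun _ : ℂ => (3:ℝ)/64) z
      - 1/8 * ‖dz (P (ν μ n 1)) z‖ ^ 2 ≤ (ν μ n 1 z).re := by
    intro z
    by_cases hzN : z ∈ N
    · rw [indicator_of_mem hzN]
      have a1 := hBd.g_le n hs z
      set g := dz (F μ n 1) z - Complex.exp (σ μ n 1 z) with hg
      have e1 : ν μ n 1 z = μ z * (1 + dz (P (ν μ n 1)) z - g) := by
        rw [hνe, hg, D.dz_eq]; ring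
      have e2 : (ν μ n 1 z).re = φ z / 8 * (1 + (dz (P (ν μ n 1)) z - g).re) := by
        rw [e1]
        simp only [hμdef]
        rw [Complex.re_ofReal_mul]
        simp only [Complex.sub_re, Complex.add_re, Complex.one_re]
        ring
      have e3 : |(dz (P (ν μ n 1)) z - g).re| ≤ ‖dz (P (ν μ n 1)) z‖ + 1/8 := by
        refine (Complex.abs_re_le_norm _).trans ((norm_sub_le _ _).trans ?_)
        linarith
      have e4 : ‖dz (P (ν μ n 1)) z‖ ≤ 1/4 + ‖dz (P (ν μ n 1)) z‖ ^ 2 := by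
        nlinarith [sq_nonneg (‖dz (P (ν μ n 1)) z‖ - 1/2)]
      have e5 := abs_le.1 e3
      have p0 := h0 z
      have p1 := h1 z
      have e6 : φ z / 8 * (-(3/8) - ‖dz (P (ν μ n 1)) z‖ ^ 2)
          ≤ φ z / 8 * (dz (P (ν μ n 1)) z - g).re := by
        apply mul_le_mul_of_nonneg_left _ (by positivity)
        linarith [e5.1]
      have e7 : -(3/64) - 1/8 * ‖dz (P (ν μ n 1)) z‖ ^ 2
          ≤ φ z / 8 * (-(3/8) - ‖dz (P (ν μ n 1)) z‖ ^ 2) := by
        nlinarith [sq_nonneg ‖dz (P (ν μ n 1)) z‖]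
      have e8 : E.indicator (fun _ : ℂ => (1:ℝ)/8) z ≤ φ z / 8 := by
        by_cases hzE : z ∈ E
        · rw [indicator_of_mem hzE, hon z hzE]
        · rw [indicator_of_notMem hzE]; positivity
      rw [e2]
      linarith
    · rw [indicator_of_notMem hzN, indicator_of_notMem (fun h => hzN (hEN h)), D.off z hzN]
      have := sq_nonneg ‖dz (P (ν μ n 1)) z‖
      simp only [Complex.zero_re]
      linarith
  have iEN : Integrable (fun z => E.indicator (fun _ : ℂ => (1:ℝ)/8) z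
      - N.indicator (fun _ : ℂ => (3:ℝ)/64) z) := iE.sub iN
  have key := integral_mono (iEN.sub iP) (Complex.reCLM.integrable_comp D.tst.integrable) hlb
  simp only [Pi.sub_apply, Complex.reCLM_apply] at key
  rw [integral_sub iEN iP, integral_sub iE iN, integral_indicator hEm,
    integral_indicator hN, setIntegral_const, setIntegral_const, integral_const_mul,
    isometry D.tst] at key
  have hA := D.A_le hN hNR
  have hA' : (∫ z, ‖ν μ n 1 z‖ ^ 2) = A (ν μ n 1) := rfl
  rw [hA', smul_eq_mul, smul_eq_mul] at key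
  have hE0 : 0 ≤ volume.real E := measureReal_nonneg
  refine le_trans ?_ key
  linarith

end

end Crest.Agent.R105.Ar3_222
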