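import Crest.Agent.R096.BelD_205
import Crest.Agent.R105.Ar2_853

/-!
Row 105 (S0139), AREA0, part 3: the approximate solutions of the Beltrami equation (R096 BelD), with
small coefficient: energy and first coefficient.
-/

open Set Metric MeasureTheory Filter Topology
open scoped ContDiff Real ComplexConjugate
open Crest.Agent.R096.BelA_205 Crest.Agent.R096.BelB_205 Crest.Agent.R096.BelC_205
open Crest.Agent.R096.BelD_205
open Crest.Agent.R105.Ar1_853 Crest.Agent.R105.Ar2_853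

namespace Crest.Agent.R105.Ar3_853

noncomputable section

theorem exists_nu {R : ℝ} {μ : ℂ → ℂ} (hμ : Tst R μ) (hk : ∀ z, ‖μ z‖ ≤ 1 / 10) :
    ∃ ν g : ℂ → ℂ, Tst R ν ∧ (∀ z, ν z = μ z * (1 + dz (P ν) z - g z)) ∧
      (∀ z, ‖g z‖ ≤ 1 / 10) ∧ (∀ z, 1 + dz (P ν) z ≠ 0) ∧
      (∀ z, ‖ν z‖ ≤ 1 / 9 * ‖1 + dz (P ν) z‖) ∧ ∀ z, μ z = 0 → ν z = 0 := by
  obtain ⟨C, ρ, h⟩ := exists_Bd hμ hk (by norm_num)
  have ht := h.g_tendsto
  have hpos : 0 < min (1 / 10) (Real.exp (-Bd.Sg R C ρ) / 10) := by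
    apply lt_min (by norm_num)
    positivity
  obtain ⟨n, hn⟩ := (ht.eventually (gt_mem_nhds hpos)).exists
  have hs : (1:ℝ) ∈ Icc (0:ℝ) 1 := ⟨by norm_num, le_refl _⟩
  have hν := tst_ν hμ n 1
  have hPd : Differentiable ℝ (P (ν μ n 1)) := (P_smooth hν).differentiable (by simp)
  have e1 : ∀ z, dz (F μ n 1) z = 1 + dz (P (ν μ n 1)) z := fun z => dz_id_add hPd z
  set g : ℂ → ℂ := fun z => dz (F μ n 1) z - Complex.exp (σ μ n 1 z) with hg
  have hgl : ∀ z, ‖g z‖ ≤ 1 / 10 := fun z =>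
    (h.g_le n hs z).trans (hn.le.trans (min_le_left _ _))
  have hgl2 : ∀ z, ‖g z‖ ≤ ‖Complex.exp (σ μ n 1 z)‖ / 10 := fun z => by
    have h1 := (h.g_le n hs z).trans (hn.le.trans (min_le_right _ _))
    have h2 := h.le_exp n hs z
    have h3 : ‖g z‖ ≤ Real.exp (-Bd.Sg R C ρ) / 10 := h1
    linarith
  have e2 : ∀ z, ν μ n 1 z = μ z * Complex.exp (σ μ n 1 z) := by
    intro z
    unfold ν; simp
  have e3 : ∀ z, 1 + dz (P (ν μ n 1)) z - g z = Complex.exp (σ μ n 1 z) := by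
    intro z
    rw [← e1, hg]
    ring
  have e4 : ∀ z, ‖Complex.exp (σ μ n 1 z)‖ * (9 / 10) ≤ ‖1 + dz (P (ν μ n 1)) z‖ := by
    intro z
    have h1 : Complex.exp (σ μ n 1 z) = (1 + dz (P (ν μ n 1)) z) - g z := (e3 z).symm
    have h2 := norm_sub_le (1 + dz (P (ν μ n 1)) z) (g z)
    rw [← h1] at h2
    linarith [hgl2 z]
  have e5 : ∀ z, 0 < ‖Complex.exp (σ μ n 1 z)‖ := fun z => norm_pos_iff.2 (Complex.exp_ne_zero _)
  refine ⟨ν μ n 1, g, hν, fun z => by rw [e3, e2], hgl, fun z h0 => ?_, fun z => ?_, fun z hz => ?_⟩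
  · have := e4 z
    rw [h0, norm_zero] at this
    linarith [e5 z]
  · rw [e2, norm_mul]
    have h1 := mul_le_mul_of_nonneg_right (hk z) (e5 z).le
    linarith [e4 z]
  · rw [e2, hz, zero_mul]

section est

variable {R : ℝ} {m : ℂ → ℝ} {ν g : ℂ → ℂ} (hm : Tst R fun z => (m z : ℂ))
  (hm0 : ∀ z, 0 ≤ m z) (hm1 : ∀ z, m z ≤ 1 / 10) (hν : Tst R ν)
  (heq : ∀ z, ν z = (m z : ℂ) * (1 + dz (P ν) z - g z)) (hg : ∀ z, ‖g z‖ ≤ 1 / 10)

include hm hm0 hm1 hν heq hg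

theorem A_nu : A ν ≤ 5 / 2 * A fun z => (m z : ℂ) := by
  have i1 := integrable_sq_P hν
  have i2 := sq_integrable hm
  have i3 : Integrable fun z => 121 / 50 * ‖(m z : ℂ)‖ ^ 2 + 1 / 50 * ‖dz (P ν) z‖ ^ 2 :=
    (i2.const_mul _).add (i1.const_mul _)
  have h1 : A ν ≤ ∫ z, (121 / 50 * ‖(m z : ℂ)‖ ^ 2 + 1 / 50 * ‖dz (P ν) z‖ ^ 2) := by
    apply A_le_of hν i3
    intro z
    have h2 : ‖(m z : ℂ)‖ = m z := by rw [Complex.norm_real, Real.norm_of_nonneg (hm0 z)]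
    rw [heq, norm_mul, h2]
    have h3 : ‖1 + dz (P ν) z - g z‖ ≤ 11 / 10 + ‖dz (P ν) z‖ := by
      have a1 := norm_sub_le (1 + dz (P ν) z) (g z)
      have a2 := norm_add_le (1:ℂ) (dz (P ν) z)
      rw [norm_one] at a2
      linarith [hg z]
    set x := ‖dz (P ν) z‖ with hx
    have hx0 : 0 ≤ x := norm_nonneg _
    have h4 : m z * ‖1 + dz (P ν) z - g z‖ ≤ m z * (11 / 10 + x) :=
      mul_le_mul_of_nonneg_left h3 (hm0 z)
    have h5 : (m z * ‖1 + dz (P ν) z - g z‖) ^ 2 ≤ (m z * (11 / 10 + x)) ^ 2 := by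
      have := hm0 z
      gcongr
    refine h5.trans ?_
    have h6 : m z ^ 2 ≤ 1 / 100 := by nlinarith [hm0 z, hm1 z]
    have h7 : (m z * (11 / 10 + x)) ^ 2 ≤ 2 * m z ^ 2 * (121 / 100) + 2 * m z ^ 2 * x ^ 2 := by
      have : 0 ≤ m z ^ 2 * (11 / 10 - x) ^ 2 := by positivity
      nlinarith
    have h8 : m z ^ 2 * x ^ 2 ≤ 1 / 100 * x ^ 2 := mul_le_mul_of_nonneg_right h6 (sq_nonneg x)
    linarith
  rw [integral_add (i2.const_mul _) (i1.const_mul _), integral_const_mul, integral_const_mul] at h1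
  have h2 : ∫ z, ‖dz (P ν) z‖ ^ 2 = A ν := isometry hν
  have h3 : ∫ z, ‖(m z : ℂ)‖ ^ 2 = A fun z => (m z : ℂ) := rfl
  rw [h2, h3] at h1
  have h4 := A_nonneg fun z => (m z : ℂ)
  linarith

omit hν heq hg in
theorem A_m : A (fun z => (m z : ℂ)) ≤ 1 / 10 * ∫ z, m z := by
  have i2 := sq_integrable hm
  have im : Integrable m := by
    have := hm.integrable.re
    simpa using this
  rw [← integral_const_mul]
  apply integral_mono i2 (im.const_mul _)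
  intro z
  simp only
  rw [Complex.norm_real, Real.norm_of_nonneg (hm0 z)]
  nlinarith [hm0 z, hm1 z]

theorem re_int : 1 / 2 * ∫ z, m z ≤ (∫ z, ν z).re := by
  have i1 := integrable_sq_P hν
  have i2 := sq_integrable hm
  have im : Integrable m := by
    have := hm.integrable.re
    simpa using this
  have h0 : (∫ z, ν z).re = ∫ z, (ν z).re := by
    have := (Complex.reCLM).integral_comp_comm hν.integrable
    simp only [Complex.reCLM_apply] at this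
    exact this.symm
  have ire : Integrable fun z => (ν z).re := hν.integrable.re
  have i5 : Integrable fun z => ‖(m z : ℂ)‖ ^ 2 + 1 / 4 * ‖dz (P ν) z‖ ^ 2 :=
    i2.add (i1.const_mul _)
  have i6 : Integrable fun z => 9 / 10 * m z - (‖(m z : ℂ)‖ ^ 2 + 1 / 4 * ‖dz (P ν) z‖ ^ 2) :=
    (im.const_mul _).sub i5
  have h1 : ∫ z, (9 / 10 * m z - (‖(m z : ℂ)‖ ^ 2 + 1 / 4 * ‖dz (P ν) z‖ ^ 2))
      ≤ ∫ z, (ν z).re := by
    apply integral_mono i6 ire
    intro z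
    simp only
    have h2 : ‖(m z : ℂ)‖ = m z := by rw [Complex.norm_real, Real.norm_of_nonneg (hm0 z)]
    have h3 : (ν z).re = m z * (1 + (dz (P ν) z - g z).re) := by
      rw [heq z, Complex.re_ofReal_mul]
      congr 1
      simp only [Complex.add_re, Complex.sub_re, Complex.one_re]
      ring
    have h4 : -(‖dz (P ν) z‖ + 1 / 10) ≤ (dz (P ν) z - g z).re := by
      have a1 := (abs_le.1 (Complex.abs_re_le_norm (dz (P ν) z - g z))).1
      have a2 := norm_sub_le (dz (P ν) z) (g z)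
      linarith [hg z]
    rw [h3, h2]
    set x := ‖dz (P ν) z‖ with hx
    have h5 : m z * (1 - (x + 1 / 10)) ≤ m z * (1 + (dz (P ν) z - g z).re) :=
      mul_le_mul_of_nonneg_left (by linarith) (hm0 z)
    have h6 : m z * x ≤ m z ^ 2 + 1 / 4 * x ^ 2 := by nlinarith [sq_nonneg (m z - x / 2)]
    nlinarith
  rw [integral_sub (im.const_mul _) i5, integral_const_mul] at h1
  have h7 : ∫ z, (‖(m z : ℂ)‖ ^ 2 + 1 / 4 * ‖dz (P ν) z‖ ^ 2)
      = A (fun z => (m z : ℂ)) + 1 / 4 * A ν := by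
    rw [integral_add i2 (i1.const_mul _), integral_const_mul]
    have h2 : ∫ z, ‖dz (P ν) z‖ ^ 2 = A ν := isometry hν
    rw [h2]
    rfl
  have h8 := A_nu hm hm0 hm1 hν heq hg
  have h9 := A_m hm hm0 hm1
  have h10 : 0 ≤ ∫ z, m z := integral_nonneg hm0
  rw [h7] at h1
  rw [h0]
  linarith

theorem int_nu : ∫ z, ‖ν z‖ ≤ volume.real (closedBall (0:ℂ) R) := by
  have h1 := int_le_sq hν (one_pos)
  have h8 := A_nu hm hm0 hm1 hν heq hg
  have h2 : A (fun z => (m z : ℂ)) ≤ 1 / 100 * volume.real (closedBall (0:ℂ) R) := by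
    have h3 : A (fun z => (m z : ℂ)) = ∫ z in closedBall (0:ℂ) R, ‖(m z : ℂ)‖ ^ 2 := by
      unfold A
      rw [setIntegral_eq_integral_of_forall_compl_eq_zero]
      intro ζ hζ
      have : (m ζ : ℂ) = 0 := hm.zero ζ (by simpa using hζ)
      rw [this]; simp
    rw [h3]
    have h4 : ∫ z in closedBall (0:ℂ) R, ‖(m z : ℂ)‖ ^ 2
        ≤ ∫ z in closedBall (0:ℂ) R, (1 / 100 : ℝ) := by
      apply setIntegral_mono (sq_integrable hm).integrableOn
      · exact integrableOn_const (measure_closedBall_lt_top.ne) (by simp)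
      · intro z
        simp only
        rw [Complex.norm_real, Real.norm_of_nonneg (hm0 z)]
        nlinarith [hm0 z, hm1 z]
    refine h4.trans ?_
    rw [setIntegral_const, smul_eq_mul]
    linarith
  have h5 : 0 ≤ volume.real (closedBall (0:ℂ) R) := by positivity
  rw [inv_one] at h1
  linarith

end est

/-- the Cauchy kernel (alias) -/
abbrev BelK : ℂ → ℂ := Crest.Agent.R096.BelA_205.ker

/-- first coefficient at infinity -/
theorem P_coef {R : ℝ} {u : ℂ → ℂ} (h : Tst R u) (hR : 0 < R) {z : ℂ} (hz : 2 * R ≤ ‖z‖) :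
    ‖P u z - BelK z * ∫ ζ, u ζ‖ ≤ 2 * R * π⁻¹ * (∫ ζ, ‖u ζ‖) * (‖z‖⁻¹) ^ 2 := by
  rw [P_swap]
  have hzpos : 0 < ‖z‖ := by linarith
  have h1 : (∫ ζ, BelK (z - ζ) * u ζ) - BelK z * ∫ ζ, u ζ = ∫ ζ, (BelK (z - ζ) - BelK z) * u ζ := by
    rw [← integral_const_mul, ← integral_sub (exists_int' h z) (h.integrable.const_mul _)]
    congr 1; ext ζ; ring
  rw [h1]
  have hle : ∀ ζ, ‖(BelK (z - ζ) - BelK z) * u ζ‖ ≤ (2 * R * π⁻¹ * (‖z‖⁻¹) ^ 2) * ‖u ζ‖ := by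
    intro ζ
    rw [norm_mul]
    by_cases hζ : R < ‖ζ‖
    · rw [h.zero ζ hζ]; simp
    · apply mul_le_mul_of_nonneg_right _ (norm_nonneg _)
      push Not at hζ
      have h1 : ‖z‖ / 2 ≤ ‖z - ζ‖ := by
        have := norm_sub_norm_le z ζ
        linarith
      have hz0 : z ≠ 0 := norm_pos_iff.1 hzpos
      have hzz : z - ζ ≠ 0 := norm_pos_iff.1 (by linarith)
      have e : BelK (z - ζ) - BelK z = (π:ℂ)⁻¹ * (ζ * (z - ζ)⁻¹ * z⁻¹) := by
        unfold BelK Crest.Agent.R096.BelA_205.ker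
        have hp : (π : ℂ) ≠ 0 := by exact_mod_cast Real.pi_ne_zero
        field_simp
        ring
      rw [e, norm_mul, norm_mul, norm_mul, norm_inv, norm_inv, norm_inv, Complex.norm_real,
        Real.norm_of_nonneg Real.pi_pos.le]
      have h2 : ‖z - ζ‖⁻¹ ≤ (‖z‖ / 2)⁻¹ := inv_anti₀ (by positivity) h1
      calc π⁻¹ * (‖ζ‖ * ‖z - ζ‖⁻¹ * ‖z‖⁻¹) ≤ π⁻¹ * (R * (‖z‖ / 2)⁻¹ * ‖z‖⁻¹) := by gcongr
        _ = 2 * R * π⁻¹ * (‖z‖⁻¹) ^ 2 := by field_simp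
  calc ‖∫ ζ, (BelK (z - ζ) - BelK z) * u ζ‖ ≤ ∫ ζ, (2 * R * π⁻¹ * (‖z‖⁻¹) ^ 2) * ‖u ζ‖ :=
        norm_integral_le_of_norm_le (h.integrable.norm.const_mul _) (Eventually.of_forall hle)
    _ = 2 * R * π⁻¹ * (∫ ζ, ‖u ζ‖) * (‖z‖⁻¹) ^ 2 := by rw [integral_const_mul]; ring

end

end Crest.Agent.R105.Ar3_853
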