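import Crest.Agent.R105.Ar3_222
import Crest.Prelude.Def_CircleDomain

/-!
Row 105, AREA0, part 4: a conformally removable compact set has area zero.
-/

open Set Metric Topology MeasureTheory
open Filter hiding ker
open scoped Real ENNReal ComplexConjugate ContDiff
open Crest.Agent.R096.BelA_205 Crest.Agent.R096.BelB_205 Crest.Agent.R096.BelC_205
open Crest.Agent.R096.BelD_205

namespace Crest.Agent.R105.Ar4_222

open Crest.Agent.R105.Ar1_222 Crest.Agent.R105.Ar2_222 Crest.Agent.R105.Ar3_222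

noncomputable section

/-! ### compactness -/

theorem exists_pt {M : ℝ} (e : ℕ → ℂ ≃ₜ ℂ) (h : ∀ n, Qc M (e n)) (U : Ultrafilter ℕ) (z : ℂ) :
    ∃ w : ℂ, Tendsto (fun n => e n z) U (𝓝 w) := by
  have h1 : ((U.map fun n => e n z : Ultrafilter ℂ) : Filter ℂ) ≤ 𝓟 (closedBall z M) := by
    rw [Ultrafilter.coe_map, le_principal_iff, mem_map]
    filter_upwards with n
    rw [mem_preimage, mem_closedBall, dist_eq_norm]
    exact (h n).near z
  obtain ⟨w, -, hw⟩ := (isCompact_closedBall z M).ultrafilter_le_nhds _ h1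
  exact ⟨w, hw⟩

theorem lim_equi {M : ℝ} (e : ℕ → ℂ ≃ₜ ℂ) (h : ∀ n, Qc M (e n)) (U : Ultrafilter ℕ) {f : ℂ → ℂ}
    (hf : ∀ z, Tendsto (fun n => e n z) U (𝓝 (f z))) {ε : ℝ} (hε : 0 < ε) :
    ∃ r : ℝ, 0 < r ∧ (∀ n (z z' : ℂ), ‖z - z'‖ ≤ r → ‖e n z - e n z'‖ ≤ ε) ∧
      ∀ z z' : ℂ, ‖z - z'‖ ≤ r → ‖f z - f z'‖ ≤ ε := by
  obtain ⟨r, hr, hr'⟩ := Qc.equi ((h 0).M0) hε
  refine ⟨r, hr, fun n z z' hz => hr' _ (h n) z z' hz, fun z z' hz => ?_⟩
  have := ((hf z).sub (hf z')).norm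
  exact le_of_tendsto this (Eventually.of_forall fun n => hr' _ (h n) z z' hz)

theorem lim_cont {M : ℝ} (e : ℕ → ℂ ≃ₜ ℂ) (h : ∀ n, Qc M (e n)) (U : Ultrafilter ℕ) {f : ℂ → ℂ}
    (hf : ∀ z, Tendsto (fun n => e n z) U (𝓝 (f z))) : Continuous f := by
  rw [Metric.continuous_iff]
  intro z ε hε
  obtain ⟨r, hr, -, hr'⟩ := lim_equi e h U hf (half_pos hε)
  refine ⟨r, hr, fun y hy => ?_⟩
  rw [dist_eq_norm] at hy ⊢
  linarith [hr' y z hy.le]

theorem lim_inv {M : ℝ} (e : ℕ → ℂ ≃ₜ ℂ) (h' : ∀ n, Qc M (e n).symm)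
    (U : Ultrafilter ℕ) {f g : ℂ → ℂ} (hf : ∀ z, Tendsto (fun n => e n z) U (𝓝 (f z)))
    (hg : ∀ z, Tendsto (fun n => (e n).symm z) U (𝓝 (g z))) (z : ℂ) : g (f z) = z := by
  have h1 : Tendsto (fun n => (e n).symm (f z)) U (𝓝 z) := by
    rw [Metric.tendsto_nhds]
    intro ε hε
    obtain ⟨r, hr, hr', -⟩ := lim_equi (fun n => (e n).symm) h' U hg (half_pos hε)
    have h2 := hf z
    rw [Metric.tendsto_nhds] at h2
    filter_upwards [h2 r hr] with n hn
    rw [dist_eq_norm] at hn ⊢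
    have h3 := hr' n (f z) (e n z) (by rw [norm_sub_rev]; exact hn.le)
    simp only [Homeomorph.symm_apply_apply] at h3
    linarith
  exact tendsto_nhds_unique (hg (f z)) h1

/-- limits of near-identity homeomorphisms of bounded dilatation -/
theorem exists_limit {M : ℝ} (e : ℕ → ℂ ≃ₜ ℂ) (h : ∀ n, Qc M (e n)) (h' : ∀ n, Qc M (e n).symm)
    (U : Ultrafilter ℕ) :
    ∃ f : ℂ ≃ₜ ℂ, TendstoLocallyUniformly (fun n => (e n : ℂ → ℂ)) f U ∧
      ∀ z, Tendsto (fun n => e n z) U (𝓝 (f z)) := by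
  choose f hf using exists_pt e h U
  choose g hg using exists_pt (fun n => (e n).symm) h' U
  refine ⟨⟨⟨f, g, lim_inv e h' U hf hg, ?_⟩, lim_cont e h U hf, lim_cont _ h' U hg⟩, ?_, hf⟩
  · exact lim_inv (fun n => (e n).symm) (by simpa using h) U hg (by simpa using hf)
  · rw [Metric.tendstoLocallyUniformly_iff]
    intro ε hε z
    obtain ⟨r, hr, hr1, hr2⟩ := lim_equi e h U hf (show 0 < ε / 4 by positivity)
    refine ⟨closedBall z r, closedBall_mem_nhds z hr, ?_⟩
    have h2 := hf z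
    rw [Metric.tendsto_nhds] at h2
    filter_upwards [h2 (ε / 4) (by positivity)] with n hn y hy
    rw [mem_closedBall, dist_eq_norm] at hy
    rw [dist_eq_norm] at hn ⊢
    have a1 := hr1 n y z hy
    have a2 := hr2 y z hy
    show ‖f y - e n y‖ < ε
    have e1 : f y - e n y = (f y - f z) - (e n z - f z) - (e n y - e n z) := by ring
    rw [e1]
    refine (norm_sub_le _ _).trans_lt ?_
    have := norm_sub_le (f y - f z) (e n z - f z)
    linarith

/-! ### decay -/

theorem P_decay3 {R : ℝ} {u : ℂ → ℂ} (h : Tst R u) (hR : 0 < R) {z : ℂ} (hz : 2 * R ≤ ‖z‖) :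
    ‖P u z - ker z * ∫ ζ, u ζ‖ ≤ 2 * R * π⁻¹ * (∫ ζ, ‖u ζ‖) * (‖z‖⁻¹) ^ 2 := by
  rw [P_swap]
  have hzpos : 0 < ‖z‖ := by linarith
  have h1 : (∫ ζ, ker (z - ζ) * u ζ) - ker z * (∫ ζ, u ζ) = ∫ ζ, (ker (z - ζ) - ker z) * u ζ := by
    have : ∫ ζ, (ker (z - ζ) - ker z) * u ζ
        = (∫ ζ, ker (z - ζ) * u ζ) - ∫ ζ, ker z * u ζ := by
      rw [← integral_sub (exists_int' h z) (h.integrable.const_mul _)]
      congr 1; ext ζ; ring
    rw [this, integral_const_mul]
  rw [h1]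
  have hle : ∀ ζ, ‖(ker (z - ζ) - ker z) * u ζ‖ ≤ (2 * R * π⁻¹ * (‖z‖⁻¹) ^ 2) * ‖u ζ‖ := by
    intro ζ
    rw [norm_mul]
    by_cases hζ : R < ‖ζ‖
    · rw [h.zero ζ hζ]; simp
    · apply mul_le_mul_of_nonneg_right _ (norm_nonneg _)
      push Not at hζ
      have h1 : ‖z‖ / 2 ≤ ‖z - ζ‖ := by
        have := norm_sub_norm_le z ζ
        linarith
      have hz0 : z ≠ 0 := norm_pos_iff.1 hzpos
      have hzz : z - ζ ≠ 0 := norm_pos_iff.1 (by linarith)
      have e : ker (z - ζ) - ker z = (π:ℂ)⁻¹ * (ζ * (z - ζ)⁻¹ * z⁻¹) := by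
        unfold ker
        have hp : (π : ℂ) ≠ 0 := by exact_mod_cast Real.pi_ne_zero
        field_simp
        ring
      rw [e, norm_mul, norm_mul, norm_mul, norm_inv, norm_inv, norm_inv, Complex.norm_real,
        Real.norm_of_nonneg Real.pi_pos.le]
      have h2 : ‖z - ζ‖⁻¹ ≤ (‖z‖ / 2)⁻¹ := inv_anti₀ (by positivity) h1
      calc π⁻¹ * (‖ζ‖ * ‖z - ζ‖⁻¹ * ‖z‖⁻¹) ≤ π⁻¹ * (R * (‖z‖ / 2)⁻¹ * ‖z‖⁻¹) := by gcongr
        _ = 2 * R * π⁻¹ * (‖z‖⁻¹) ^ 2 := by field_simp
  calc ‖∫ ζ, (ker (z - ζ) - ker z) * u ζ‖ ≤ ∫ ζ, (2 * R * π⁻¹ * (‖z‖⁻¹) ^ 2) * ‖u ζ‖ :=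
        norm_integral_le_of_norm_le (h.integrable.norm.const_mul _) (Eventually.of_forall hle)
    _ = _ := by rw [integral_const_mul]; ring

theorem Mem_diff {R c : ℝ} {N : Set ℂ} {e : ℂ ≃ₜ ℂ} {ν : ℂ → ℂ} (h : Mem R c N e ν) {z : ℂ}
    (hz : z ∉ N) : DifferentiableAt ℂ e z := by
  have hP : Differentiable ℝ (P ν) := (P_smooth h.tst).differentiable (by simp)
  have he : (e : ℂ → ℂ) = fun z => z + P ν z := funext h.eq
  have hd : DifferentiableAt ℝ e z := by
    rw [he]; exact differentiableAt_id.add (hP z)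
  rw [differentiableAt_complex_iff_differentiableAt_real]
  refine ⟨hd, ?_⟩
  have h1 : dzb e z = 0 := by
    rw [he, dzb_id_add hP, dzb_P h.tst]; exact h.off z hz
  unfold dzb dd at h1
  have h2 : fderiv ℝ e z 1 + Complex.I * fderiv ℝ e z Complex.I = 0 := by
    simpa using h1
  rw [smul_eq_mul]
  linear_combination (-Complex.I) * h2 + (fderiv ℝ e z Complex.I) * Complex.I_sq

/-- the neighbourhoods -/
theorem exists_delta {E : Set ℂ} (hE : IsCompact E) (h0 : 0 < volume.real E) :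
    ∃ δ : ℝ, 0 < δ ∧ δ ≤ 1 ∧ ∀ t, 0 < t → t ≤ δ →
      volume.real (thickening t E) ≤ 3 / 2 * volume.real E := by
  have hEf : volume E ≠ ⊤ := hE.measure_lt_top.ne
  have hf : ∃ R > 0, volume (thickening R E) ≠ ⊤ :=
    ⟨1, one_pos, (hE.isBounded.thickening.measure_lt_top).ne⟩
  have h1 := tendsto_measure_thickening_of_isClosed hf hE.isClosed
  have h2 : volume E < ENNReal.ofReal (3 / 2 * volume.real E) := by
    rw [← ENNReal.ofReal_toReal hEf]
    exact (ENNReal.ofReal_lt_ofReal_iff (by positivity)).2 (by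
      have : (volume E).toReal = volume.real E := rfl
      rw [this]; linarith)
  have h3 := h1.eventually (gt_mem_nhds h2)
  rw [eventually_nhdsWithin_iff, Metric.eventually_nhds_iff] at h3
  obtain ⟨η, hη, h3⟩ := h3
  refine ⟨min (η / 2) 1, by positivity, min_le_right _ _, fun t ht htl => ?_⟩
  have h4 := h3 (y := t) (by
    rw [Real.dist_eq, sub_zero, abs_of_pos ht]
    linarith [min_le_left (η / 2) 1]) ht
  exact ENNReal.toReal_le_of_le_ofReal (by positivity) h4.le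

theorem exists_bump {E : Set ℂ} (hE : IsCompact E) {t : ℝ} (ht : 0 < t) :
    ∃ φ : ℂ → ℝ, ContDiff ℝ ∞ φ ∧ (∀ z, 0 ≤ φ z) ∧ (∀ z, φ z ≤ 1) ∧
      (∀ z, z ∉ thickening t E → φ z = 0) ∧ ∀ z ∈ E, φ z = 1 := by
  have hs : IsClosed (thickening t E)ᶜ := isOpen_thickening.isClosed_compl
  have hd : Disjoint (thickening t E)ᶜ E := by
    rw [disjoint_left]
    intro z hz hzE
    exact hz (self_subset_thickening ht E hzE)
  obtain ⟨f, hf0, hf1, hf⟩ := exists_contMDiffMap_zero_one_of_isClosed (n := (⊤ : ℕ∞))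
    (modelWithCornersSelf ℝ ℂ) hs hE.isClosed hd
  refine ⟨f, f.contMDiff.contDiff, fun z => (hf z).1, fun z => (hf z).2, fun z hz => hf0 hz,
    fun z hz => hf1 hz⟩

/-- **a compact set of positive area is not removable** -/
theorem exists_phi {E : Set ℂ} (hE : IsCompact E) (h0 : 0 < volume.real E) :
    ∃ f : ℂ ≃ₜ ℂ, DifferentiableOn ℂ f Eᶜ ∧ ¬ ∃ a b : ℂ, ∀ z : ℂ, f z = a * z + b := by
  obtain ⟨B, hB⟩ := hE.isBounded.subset_closedBall 0
  set R : ℝ := |B| + 1 with hR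
  have hR1 : 1 ≤ R := by rw [hR]; linarith [abs_nonneg B]
  have hR0 : 0 < R := by linarith
  obtain ⟨δ, hδ0, hδ1, hδ⟩ := exists_delta hE h0
  have ht : ∀ n : ℕ, 0 < δ / ((n:ℝ) + 1) ∧ δ / ((n:ℝ) + 1) ≤ δ := by
    intro n
    refine ⟨by positivity, ?_⟩
    rw [div_le_iff₀ (by positivity)]
    nlinarith [(Nat.cast_nonneg n : (0:ℝ) ≤ n)]
  have hmem : ∀ n : ℕ, ∃ e ν, Mem R (volume.real E / 64) (thickening (δ / ((n:ℝ) + 1)) E) e ν := by
    intro n
    obtain ⟨φ, p1, p2, p3, p4, p5⟩ := exists_bump hE (ht n).1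
    refine exists_Mem hR1 isOpen_thickening.measurableSet ?_ hE.measurableSet
      (self_subset_thickening (ht n).1 E) p1 p2 p3 p4 p5 (hδ _ (ht n).1 (ht n).2)
    intro z hz
    rw [mem_thickening_iff] at hz
    obtain ⟨y, hy, hzy⟩ := hz
    have h1 := hB hy
    rw [mem_closedBall_zero_iff] at h1 ⊢
    rw [dist_eq_norm] at hzy
    have e1 : z = (z - y) + y := by ring
    rw [e1]
    refine (norm_add_le _ _).trans ?_
    have := (ht n).2
    have := le_abs_self B
    linarith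
  choose e ν hm using hmem
  set U : Ultrafilter ℕ := Filter.hyperfilter ℕ with hU
  have hUle : (U : Filter ℕ) ≤ atTop := by
    rw [← Nat.cofinite_eq_atTop]; exact Filter.hyperfilter_le_cofinite
  obtain ⟨f, hf, hfp⟩ := exists_limit e (fun n => (hm n).qc) (fun n => (hm n).qci) U
  refine ⟨f, ?_, ?_⟩
  · -- holomorphic off `E`
    intro z hz
    apply DifferentiableAt.differentiableWithinAt
    have hz' : z ∉ E := hz
    obtain ⟨s, hs, hsub⟩ := Metric.mem_nhds_iff.1 (hE.isClosed.isOpen_compl.mem_nhds hz')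
    have hloc : TendstoLocallyUniformlyOn (fun n => (e n : ℂ → ℂ)) f U (ball z (s / 2)) :=
      (tendstoLocallyUniformlyOn_univ.2 hf).mono (subset_univ _)
    have hev : ∀ᶠ n in (U : Filter ℕ), DifferentiableOn ℂ (e n) (ball z (s / 2)) := by
      apply hUle
      have t1 : Tendsto (fun n : ℕ => δ / ((n:ℝ) + 1)) atTop (𝓝 0) :=
        tendsto_const_div_atTop_nhds_zero_nat δ |>.comp (tendsto_add_atTop_nat 1) |>.congr
          (fun n => by simp)
      filter_upwards [t1.eventually (gt_mem_nhds (show (0:ℝ) < s / 2 by positivity))] with n hn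
      intro y hy
      apply (Mem_diff (hm n) ?_).differentiableWithinAt
      intro hyN
      rw [mem_thickening_iff] at hyN
      obtain ⟨x, hx, hyx⟩ := hyN
      have hxb : x ∈ ball z s := by
        rw [mem_ball] at hy ⊢
        have := dist_triangle x y z
        rw [dist_comm x y] at this
        linarith
      exact hsub hxb hx
    have hdo := hloc.differentiableOn hev isOpen_ball
    exact hdo.differentiableAt (isOpen_ball.mem_nhds (mem_ball_self (by positivity)))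
  · rintro ⟨a, b, hab⟩
    set V := VR R with hV
    have hV0 : 0 ≤ V := VR_nonneg R
    have hπ : 0 < π := Real.pi_pos
    -- `f` is near the identity
    have hnear : ∀ z, ‖f z - z‖ ≤ 4 * R + V := by
      intro z
      exact le_of_tendsto ((hfp z).sub_const z).norm (Eventually.of_forall fun n => (hm n).qc.near z)
    have ha : a = 1 := by
      by_contra hne
      have h1 : 0 < ‖a - 1‖ := norm_pos_iff.2 (sub_ne_zero.2 hne)
      set x : ℝ := (4 * R + V + ‖b‖ + 1) / ‖a - 1‖ with hx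
      have h2 := hnear (x : ℂ)
      rw [hab] at h2
      have e1 : a * (x:ℂ) + b - x = (a - 1) * x + b := by ring
      rw [e1] at h2
      have h3 : ‖(a - 1) * (x:ℂ)‖ - ‖b‖ ≤ ‖(a - 1) * (x:ℂ) + b‖ := by
        have := norm_sub_norm_le ((a - 1) * (x:ℂ)) (-b)
        rw [norm_neg, sub_neg_eq_add] at this
        exact this
      rw [norm_mul, Complex.norm_real, Real.norm_of_nonneg (by positivity)] at h3
      have h4 : ‖a - 1‖ * x = 4 * R + V + ‖b‖ + 1 := by rw [hx]; field_simp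
      linarith
    have hdec : ∀ x : ℝ, 2 * R ≤ x → ‖b‖ ≤ V * x⁻¹ := by
      intro x hx
      have hx0 : 0 < x := by linarith
      have hnx : ‖(x:ℂ)‖ = x := by rw [Complex.norm_real, Real.norm_of_nonneg hx0.le]
      have h1 : ‖f x - x‖ ≤ V * x⁻¹ := by
        refine le_of_tendsto ((hfp x).sub_const (x:ℂ)).norm (Eventually.of_forall fun n => ?_)
        rw [(hm n).eq, add_sub_cancel_left]
        have h2 := P_decay (hm n).tst hR0 (z := (x:ℂ)) (by rw [hnx]; exact hx)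
        rw [hnx] at h2
        refine h2.trans ?_
        have h3 := (hm n).l1
        have h4 : 2 * π⁻¹ ≤ 1 := by
          rw [← div_eq_mul_inv, div_le_one hπ]; linarith [Real.pi_gt_three]
        have h5 : 0 ≤ ∫ ζ, ‖ν n ζ‖ := integral_nonneg fun _ => norm_nonneg _
        calc 2 * π⁻¹ * (∫ ζ, ‖ν n ζ‖) * x⁻¹ ≤ 1 * V * x⁻¹ := by gcongr
          _ = V * x⁻¹ := by ring
      rw [hab, ha] at h1
      have e1 : 1 * (x:ℂ) + b - x = b := by ring
      rwa [e1] at h1
    have hb : b = 0 := by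
      by_contra hne
      have h1 : 0 < ‖b‖ := norm_pos_iff.2 hne
      have h2 := hdec (max (2 * R) ((V + 1) / ‖b‖)) (le_max_left _ _)
      have h3 : (V + 1) / ‖b‖ ≤ max (2 * R) ((V + 1) / ‖b‖) := le_max_right _ _
      have h4 : (max (2 * R) ((V + 1) / ‖b‖))⁻¹ ≤ ((V + 1) / ‖b‖)⁻¹ :=
        inv_anti₀ (by positivity) h3
      have h5 : V * ((V + 1) / ‖b‖)⁻¹ < ‖b‖ := by
        rw [inv_div, ← mul_div_assoc, div_lt_iff₀ (by positivity)]
        nlinarith
      have h6 := mul_le_mul_of_nonneg_left h4 hV0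
      linarith
    -- the mass
    set c := volume.real E / 64 with hc
    have hc0 : 0 < c := by positivity
    set x : ℝ := max (2 * R) (4 * R * V / c) with hx
    have hx1 : 2 * R ≤ x := le_max_left _ _
    have hx2 : 4 * R * V / c ≤ x := le_max_right _ _
    have hx0 : 0 < x := by linarith
    have hnx : ‖(x:ℂ)‖ = x := by rw [Complex.norm_real, Real.norm_of_nonneg hx0.le]
    have hlow : ∀ n, c / (2 * π * x) ≤ (e n x - x).re := by
      intro n
      rw [(hm n).eq, add_sub_cancel_left]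
      have h2 := P_decay3 (hm n).tst hR0 (z := (x:ℂ)) (by rw [hnx]; exact hx1)
      rw [hnx] at h2
      have h3 : ‖P (ν n) x - ker x * ∫ ζ, ν n ζ‖ ≤ 2 * R * π⁻¹ * V * (x⁻¹) ^ 2 := by
        refine h2.trans ?_
        have := (hm n).l1
        gcongr
      have h4 : (ker x * ∫ ζ, ν n ζ).re = (π * x)⁻¹ * (∫ ζ, ν n ζ).re := by
        have : ker (x:ℂ) = (((π * x)⁻¹ : ℝ) : ℂ) := by
          unfold ker
          push_cast
          rw [mul_inv]
        rw [this, Complex.re_ofReal_mul]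
      have h5 := (Complex.abs_re_le_norm (P (ν n) x - ker x * ∫ ζ, ν n ζ)).trans h3
      rw [Complex.sub_re, h4] at h5
      have h6 := (abs_le.1 h5).1
      have h7 : (π * x)⁻¹ * c ≤ (π * x)⁻¹ * (∫ ζ, ν n ζ).re :=
        mul_le_mul_of_nonneg_left (hm n).mass (by positivity)
      have h8 : 2 * R * π⁻¹ * V * (x⁻¹) ^ 2 ≤ (π * x)⁻¹ * (c / 2) := by
        rw [div_le_iff₀ hc0] at hx2
        have e1 : 2 * R * π⁻¹ * V * (x⁻¹) ^ 2 = (π * x)⁻¹ * ((4 * R * V) * x⁻¹ / 2) := by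
          rw [mul_inv]; ring
        rw [e1]
        apply mul_le_mul_of_nonneg_left _ (by positivity)
        have : 4 * R * V * x⁻¹ ≤ c := by
          rw [← div_eq_mul_inv, div_le_iff₀ hx0]; linarith
        linarith
      have e2 : c / (2 * π * x) = (π * x)⁻¹ * c - (π * x)⁻¹ * (c / 2) := by
        field_simp; ring
      rw [e2]
      linarith
    have hlim : c / (2 * π * x) ≤ (f x - x).re :=
      ge_of_tendsto ((Complex.continuous_re.tendsto _).comp ((hfp x).sub_const (x:ℂ)))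
        (Eventually.of_forall hlow)
    rw [hab, ha, hb] at hlim
    have e3 : 1 * (x:ℂ) + 0 - x = 0 := by ring
    rw [e3, Complex.zero_re] at hlim
    have : 0 < c / (2 * π * x) := by positivity
    linarith

/-- **AREA0**: a conformally removable compact set has area zero. -/
theorem volume_zero_of_removable {E : Set ℂ} (hE : IsCompact E)
    (h : Crest.AnalysisR.IsConformallyRemovable E) : volume E = 0 := by
  by_contra hne
  have h0 : 0 < volume.real E :=
    ENNReal.toReal_pos hne hE.measure_lt_top.ne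
  obtain ⟨f, hf, hna⟩ := exists_phi hE h0
  exact hna (h f hf)

end

end Crest.Agent.R105.Ar4_222
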