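import Crest.Agent.R105.Ar3_853

/-!
Row 105 (S0139), AREA0, part 4: the approximating quasiconformal homeomorphisms, with uniform
constants.
-/

open Set Metric MeasureTheory Filter Topology
open scoped ContDiff Real ComplexConjugate
open Crest.Agent.R096.BelA_205 Crest.Agent.R096.BelB_205 Crest.Agent.R096.BelC_205
open Crest.Agent.R096.BelD_205
open Crest.Agent.R105.Ar1_853 Crest.Agent.R105.Ar2_853 Crest.Agent.R105.Ar3_853

namespace Crest.Agent.R105.Ar4_853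

noncomputable section

/-- volume of the disc -/
def VR (R : ℝ) : ℝ := volume.real (closedBall (0:ℂ) R)

theorem VR_nonneg (R : ℝ) : 0 ≤ VR R := by unfold VR; positivity

/-- the displacement bound -/
def MR (R : ℝ) : ℝ := 4 * R + π⁻¹ * VR R * R⁻¹

/-- the approximants -/
structure Nice (R : ℝ) (m : ℂ → ℝ) (e : ℂ ≃ₜ ℂ) : Prop where
  c1 : ContDiff ℝ 1 e
  c1' : ContDiff ℝ 1 e.symm
  q : ∀ z, ‖fderiv ℝ e z‖ ^ 2 ≤ 2 * |(fderiv ℝ e z).det|
  q' : ∀ z, ‖fderiv ℝ e.symm z‖ ^ 2 ≤ 2 * |(fderiv ℝ e.symm z).det|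
  bd : ∀ z, ‖e z - z‖ ≤ MR R
  hol : ∀ z, m z = 0 → DifferentiableAt ℂ e z
  dec : ∀ z, 2 * R ≤ ‖z‖ → ‖e z - z‖ ≤ 2 * π⁻¹ * VR R * ‖z‖⁻¹
  coef : ∀ x : ℝ, 2 * R ≤ x →
    π⁻¹ * x⁻¹ * (1 / 2 * ∫ z, m z) - 2 * R * π⁻¹ * VR R * (x⁻¹) ^ 2 ≤ (e x - x).re

/-- linear algebra -/
theorem inv_est {a b : ℂ} (hab : ‖b‖ ≤ 1 / 9 * ‖a‖) (ha : a ≠ 0) {L : ℂ →L[ℝ] ℂ}
    (hL : ∀ v, LL a b (L v) = v) : ‖L‖ ^ 2 ≤ 2 * |L.det| := by
  have ha0 : 0 < ‖a‖ := norm_pos_iff.2 ha
  have h1 : ∀ v, ‖L v‖ ≤ (9 / 8 * ‖a‖⁻¹) * ‖v‖ := by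
    intro v
    have h2 : a * L v = v - b * conj (L v) := by
      have := hL v
      rw [LL_apply] at this
      linear_combination this
    have h3 : ‖a‖ * ‖L v‖ ≤ ‖v‖ + ‖b‖ * ‖L v‖ := by
      rw [← norm_mul, h2]
      refine (norm_sub_le _ _).trans ?_
      rw [norm_mul, Complex.norm_conj]
    have h4 : ‖b‖ * ‖L v‖ ≤ 1 / 9 * ‖a‖ * ‖L v‖ := mul_le_mul_of_nonneg_right hab (norm_nonneg _)
    have h5 : ‖a‖ * ‖L v‖ ≤ 9 / 8 * ‖v‖ := by linarith
    calc ‖L v‖ = ‖a‖⁻¹ * (‖a‖ * ‖L v‖) := by field_simp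
      _ ≤ ‖a‖⁻¹ * (9 / 8 * ‖v‖) := mul_le_mul_of_nonneg_left h5 (by positivity)
      _ = (9 / 8 * ‖a‖⁻¹) * ‖v‖ := by ring
  have h2 : ‖L‖ ≤ 9 / 8 * ‖a‖⁻¹ := ContinuousLinearMap.opNorm_le_bound _ (by positivity) h1
  have h3 : (LL a b).det * L.det = 1 := by
    have h4 : (LL a b).comp L = ContinuousLinearMap.id ℝ ℂ := by
      ext v
      rw [ContinuousLinearMap.comp_apply, hL]
      rfl
    have h5 : ((LL a b).comp L).det = (LL a b).det * L.det := by
      unfold ContinuousLinearMap.det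
      exact LinearMap.det_comp (LL a b : ℂ →ₗ[ℝ] ℂ) (L : ℂ →ₗ[ℝ] ℂ)
    rw [← h5, h4]
    unfold ContinuousLinearMap.det
    simp
  have h4 : (LL a b).det = ‖a‖ ^ 2 - ‖b‖ ^ 2 := by
    rw [det_eq]
    have e1 : (LL a b 1 - Complex.I * LL a b Complex.I) / 2 = a := by
      rw [LL_apply, LL_apply]
      simp only [map_one, Complex.conj_I]
      linear_combination (-(1/2:ℂ) * (a - b)) * Complex.I_sq
    have e2 : (LL a b 1 + Complex.I * LL a b Complex.I) / 2 = b := by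
      rw [LL_apply, LL_apply]
      simp only [map_one, Complex.conj_I]
      linear_combination ((1/2:ℂ) * (a - b)) * Complex.I_sq
    rw [e1, e2]
  have h5 : 0 < (LL a b).det := by
    rw [h4]
    nlinarith [norm_nonneg b]
  have h6 : (LL a b).det ≤ ‖a‖ ^ 2 := by
    rw [h4]; nlinarith [sq_nonneg ‖b‖]
  have h7 : (‖a‖ ^ 2)⁻¹ ≤ L.det := by
    have : L.det = ((LL a b).det)⁻¹ := by
      field_simp
      linarith
    rw [this]
    exact inv_anti₀ h5 h6
  have h8 : 0 ≤ (‖a‖ ^ 2)⁻¹ := by positivity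
  rw [abs_of_nonneg (h8.trans h7)]
  calc ‖L‖ ^ 2 ≤ (9 / 8 * ‖a‖⁻¹) ^ 2 := by gcongr
    _ = 81 / 64 * (‖a‖ ^ 2)⁻¹ := by field_simp; norm_num
    _ ≤ 2 * L.det := by linarith

theorem exists_nice {R : ℝ} (hR : 0 < R) {m : ℂ → ℝ} (hm : Tst R fun z => (m z : ℂ))
    (hm0 : ∀ z, 0 ≤ m z) (hm1 : ∀ z, m z ≤ 1 / 10) : ∃ e : ℂ ≃ₜ ℂ, Nice R m e := by
  obtain ⟨ν, g, hν, heq, hg, hne, hqc, hz⟩ := exists_nu hm (fun z => by
    rw [Complex.norm_real, Real.norm_of_nonneg (hm0 z)]; exact hm1 z)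
  set h : ℂ → ℂ := P ν with hh
  have hs : ContDiff ℝ ∞ h := P_smooth hν
  have hd : Differentiable ℝ h := hs.differentiable (by simp)
  set f : ℂ → ℂ := fun z => z + h z with hf
  have hfs : ContDiff ℝ ∞ f := contDiff_id.add hs
  have hfd : Differentiable ℝ f := hfs.differentiable (by simp)
  have hdz : ∀ z, dz f z = 1 + dz h z := fun z => dz_id_add hd z
  have hdzb : ∀ z, dzb f z = ν z := fun z => by
    rw [hf, dzb_id_add hd, hh, dzb_P hν]
  have hfder : ∀ z, fderiv ℝ f z = LL (dz f z) (dzb f z) := fun z => fderiv_eq_LL f z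
  have hqc' : ∀ z, ‖dzb f z‖ ≤ 1 / 9 * ‖dz f z‖ := fun z => by rw [hdz, hdzb]; exact hqc z
  have hne' : ∀ z, dz f z ≠ 0 := fun z => by rw [hdz]; exact hne z
  have hdet : ∀ z, (fderiv ℝ f z).det = ‖dz f z‖ ^ 2 - ‖dzb f z‖ ^ 2 := fun z => det_fderiv f z
  have hpos : ∀ z, 80 / 81 * ‖dz f z‖ ^ 2 ≤ (fderiv ℝ f z).det := fun z => by
    rw [hdet]
    have h1 := hqc' z
    have h2 := norm_nonneg (dzb f z)
    nlinarith
  have hdpos : ∀ z, 0 < (fderiv ℝ f z).det := fun z => by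
    have h1 := hpos z
    have h2 : 0 < ‖dz f z‖ := norm_pos_iff.2 (hne' z)
    have h3 : 0 < 80 / 81 * ‖dz f z‖ ^ 2 := by positivity
    linarith
  -- sup bound of the displacement
  obtain ⟨B, hB⟩ := hν.cont.bounded_above_of_compact_support hν.compact
  set M : ℝ := CP R * B with hM
  have hhM : ∀ z, ‖h z‖ ≤ M := fun z => P_sup hν hB z
  -- injectivity near infinity
  have hinf : ∃ w, ∀ z z', f z = w → f z' = w → z = z' := by
    have t1 : Tendsto (dz h) (cocompact ℂ) (𝓝 0) := by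
      rw [hh, dz_P hν]
      exact P_tendsto hν.dz
    have t2 : ∀ᶠ z in cocompact ℂ, ‖dz h z‖ < 1 / 2 := by
      have := t1.norm
      rw [norm_zero] at this
      exact this.eventually (gt_mem_nhds (by norm_num))
    obtain ⟨K, hK, hKs⟩ := mem_cocompact.1 t2
    obtain ⟨ρ0, hρ0⟩ := hK.isBounded.subset_closedBall 0
    have hsmall : ∀ z, max ρ0 R < ‖z‖ → ‖fderiv ℝ h z‖ ≤ 1 / 2 := by
      intro z hzz
      have h1 : z ∉ K := fun hk => by
        have := hρ0 hk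
        rw [mem_closedBall, dist_zero_right] at this
        exact absurd this (not_le.2 ((le_max_left _ _).trans_lt hzz))
      have h2 : ‖dz h z‖ < 1 / 2 := hKs h1
      have h3 : dzb h z = 0 := by
        rw [hh, dzb_P hν]
        exact hν.zero z ((le_max_right _ _).trans_lt hzz)
      rw [fderiv_eq_LL, h3]
      refine (norm_LL_le _ _).trans ?_
      rw [norm_zero]; linarith
    set w : ℂ := ((|max ρ0 R| + |M| + 1 : ℝ) : ℂ) with hw
    have hwn : ‖w‖ = |max ρ0 R| + |M| + 1 := by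
      rw [hw, Complex.norm_real, Real.norm_of_nonneg (by positivity)]
    refine ⟨w, fun z z' hz hz' => ?_⟩
    have hmem : ∀ y, f y = w → y ∈ closedBall w |M| := by
      intro y hy
      rw [mem_closedBall, dist_eq_norm]
      have : y - w = -h y := by rw [← hy, hf]; ring
      rw [this, norm_neg]
      exact (hhM y).trans (le_abs_self M)
    have hfar : ∀ y ∈ closedBall w |M|, max ρ0 R < ‖y‖ := by
      intro y hy
      rw [mem_closedBall, dist_eq_norm] at hy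
      have h1 := norm_sub_norm_le w y
      rw [norm_sub_rev, hwn] at h1
      have h2 := le_abs_self (max ρ0 R)
      linarith
    have h1 := (convex_closedBall w |M|).norm_image_sub_le_of_norm_fderiv_le (𝕜 := ℝ)
      (fun y _ => hd y) (fun y hy => hsmall y (hfar y hy)) (hmem z hz) (hmem z' hz')
    have h2 : h z' - h z = z - z' := by
      have : z + h z = z' + h z' := hz.trans hz'.symm
      linear_combination -this
    rw [h2, norm_sub_rev z' z] at h1
    have h3 : ‖z - z'‖ = 0 := by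
      have := norm_nonneg (z - z')
      linarith
    exact sub_eq_zero.1 (norm_eq_zero.1 h3)
  obtain ⟨e, he⟩ := exists_homeo (hfs.of_le (by exact_mod_cast le_top)) (fun z => (hdpos z).ne')
    (fun z => by rw [hf]; simpa using hhM z) hinf
  have hef : (e : ℂ → ℂ) = f := funext he
  have hc1 : ContDiff ℝ 1 e := by rw [hef]; exact hfs.of_le (by exact_mod_cast le_top)
  have hdetne : ∀ z, (fderiv ℝ e z).det ≠ 0 := fun z => by rw [hef]; exact (hdpos z).ne'
  obtain ⟨hc1', hinv⟩ := symm_deriv hc1 hdetne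
  have hdec : ∀ z, 2 * R ≤ ‖z‖ → ‖e z - z‖ ≤ 2 * π⁻¹ * VR R * ‖z‖⁻¹ := by
    intro z hzR
    rw [hef, hf]
    simp only [add_sub_cancel_left]
    refine (P_decay hν hR hzR).trans ?_
    have := int_nu hm hm0 hm1 hν heq hg
    have hV : ∫ z, ‖ν z‖ ≤ VR R := this
    gcongr
  refine ⟨e, hc1, hc1', fun z => ?_, fun w => ?_, fun z => ?_, fun z hmz => ?_, hdec,
    fun x hx => ?_⟩
  · rw [hef, abs_of_pos (hdpos z)]
    have h1 : ‖fderiv ℝ f z‖ ≤ 10 / 9 * ‖dz f z‖ := by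
      rw [hfder]
      refine (norm_LL_le _ _).trans ?_
      linarith [hqc' z]
    have h2 : ‖fderiv ℝ f z‖ ^ 2 ≤ (10 / 9 * ‖dz f z‖) ^ 2 := by gcongr
    have h3 := hpos z
    have h4 : 0 ≤ ‖dz f z‖ ^ 2 := by positivity
    have h5 : (10 / 9 * ‖dz f z‖) ^ 2 = 100 / 81 * ‖dz f z‖ ^ 2 := by ring
    linarith
  · apply inv_est (hqc' (e.symm w)) (hne' _)
    intro v
    rw [← hfder, ← hef]
    exact hinv w v
  · by_cases hzR : 2 * R ≤ ‖z‖
    · refine (hdec z hzR).trans ?_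
      have hzp : 0 < ‖z‖ := by linarith
      have h1 : ‖z‖⁻¹ ≤ (2 * R)⁻¹ := inv_anti₀ (by positivity) hzR
      have h2 : 2 * π⁻¹ * VR R * ‖z‖⁻¹ ≤ 2 * π⁻¹ * VR R * (2 * R)⁻¹ := by
        have := VR_nonneg R
        gcongr
      refine h2.trans ?_
      unfold MR
      rw [mul_inv]
      have h3 : 2 * π⁻¹ * VR R * (2⁻¹ * R⁻¹) = π⁻¹ * VR R * R⁻¹ := by ring
      rw [h3]; linarith
    · push Not at hzR
      rcases eq_or_ne (e z) 0 with h0 | h0
      · rw [h0, zero_sub, norm_neg]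
        have := VR_nonneg R
        have h2 : 0 ≤ π⁻¹ * VR R * R⁻¹ := by positivity
        unfold MR; linarith
      · obtain ⟨p, hp, hpm⟩ := exists_sphere_max e.continuous e.isOpenMap
          (c := conj (e z)) ((map_ne_zero _).2 h0) (z0 := 0) (ρ := 2 * R) (by positivity)
        have h1 := hpm z (by rw [mem_closedBall, dist_zero_right]; exact hzR.le)
        have h2 : (conj (e z) * e z).re = ‖e z‖ ^ 2 := by
          rw [mul_comm, Complex.mul_conj, Complex.ofReal_re, Complex.normSq_eq_norm_sq]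
        have h3 : (conj (e z) * e p).re ≤ ‖e z‖ * ‖e p‖ := by
          refine (Complex.re_le_norm _).trans ?_
          rw [norm_mul, Complex.norm_conj]
        have h4 : 0 < ‖e z‖ := norm_pos_iff.2 h0
        have h5 : ‖e z‖ ≤ ‖e p‖ := by
          rw [h2] at h1
          have : ‖e z‖ * ‖e z‖ ≤ ‖e z‖ * ‖e p‖ := by nlinarith
          exact le_of_mul_le_mul_left this h4
        rw [mem_sphere, dist_zero_right] at hp
        have h6 := hdec p hp.ge
        rw [hp, mul_inv] at h6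
        have h7 := norm_sub_norm_le (e p) p
        have h8 := norm_sub_le (e z) z
        have h9 : 2 * π⁻¹ * VR R * (2⁻¹ * R⁻¹) = π⁻¹ * VR R * R⁻¹ := by ring
        rw [h9] at h6
        unfold MR
        linarith
  · rw [hef]
    have h1 : ν z = 0 := hz z (by rw [hmz]; simp)
    have h2 : HasFDerivAt f (LL (dz f z) (dzb f z)) z := by
      rw [← hfder]
      exact (hfd z).hasFDerivAt
    rw [hdzb, h1] at h2
    have h3 : HasDerivAt f (dz f z) z := by
      rw [hasDerivAt_iff_hasFDerivAt]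
      have h4 : HasFDerivAt f (ContinuousLinearMap.restrictScalars ℝ
          (ContinuousLinearMap.smulRight (1 : ℂ →L[ℂ] ℂ) (dz f z))) z := by
        convert h2 using 1
        ext v
        rw [LL_apply]
        simp [mul_comm]
      exact hasFDerivAt_of_restrictScalars ℝ h4 rfl
    exact h3.differentiableAt
  · have hx0 : 0 < x := by linarith
    have h1 := P_coef hν hR (z := (x : ℂ)) (by
      rw [Complex.norm_real, Real.norm_of_nonneg hx0.le]; exact hx)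
    rw [Complex.norm_real, Real.norm_of_nonneg hx0.le] at h1
    have h2 : (e x - x) = h x := by rw [hef, hf]; ring
    have h3 : (BelK (x:ℂ) * ∫ ζ, ν ζ).re = π⁻¹ * x⁻¹ * (∫ ζ, ν ζ).re := by
      have : BelK (x : ℂ) = ((π⁻¹ * x⁻¹ : ℝ) : ℂ) := by
        unfold BelK Crest.Agent.R096.BelA_205.ker
        push_cast; rfl
      rw [this, Complex.re_ofReal_mul]
    have h4 := (abs_le.1 ((Complex.abs_re_le_norm _).trans h1)).1
    rw [Complex.sub_re, h3] at h4
    have h5 := re_int hm hm0 hm1 hν heq hg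
    have h6 : ∫ z, ‖ν z‖ ≤ VR R := int_nu hm hm0 hm1 hν heq hg
    have h7 : π⁻¹ * x⁻¹ * (1 / 2 * ∫ z, m z) ≤ π⁻¹ * x⁻¹ * (∫ ζ, ν ζ).re :=
      mul_le_mul_of_nonneg_left h5 (by positivity)
    have h8 : 2 * R * π⁻¹ * (∫ ζ, ‖ν ζ‖) * (x⁻¹) ^ 2 ≤ 2 * R * π⁻¹ * VR R * (x⁻¹) ^ 2 := by
      gcongr
    rw [h2]
    linarith

end

end Crest.Agent.R105.Ar4_853
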