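import Crest.Prelude.Def_CircleDomain
import Crest.Agent.R105.Ar4_853

/-!
Row 105 (S0139), AREA0: a compact conformally removable set has area zero.
-/

open Set Metric MeasureTheory Filter Topology
open scoped ContDiff Real ComplexConjugate Manifold
open Crest.Agent.R096.BelA_205
open Crest.Agent.R105.Ar1_853 Crest.Agent.R105.Ar2_853 Crest.Agent.R105.Ar3_853
open Crest.Agent.R105.Ar4_853

namespace Crest.Agent.R105.Ar5_853

noncomputable section

/-- the modulus of continuity -/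
def dlt (M ε : ℝ) : ℝ := Real.exp (-(4 * π ^ 2 * (M + 1) ^ 2 / ε ^ 2))

theorem dlt_pos (M ε : ℝ) : 0 < dlt M ε := Real.exp_pos _

theorem equi {e : ℂ ≃ₜ ℂ} (c1 : ContDiff ℝ 1 e)
    (q : ∀ z, ‖fderiv ℝ e z‖ ^ 2 ≤ 2 * |(fderiv ℝ e z).det|) {M : ℝ}
    (bd : ∀ z, ‖e z - z‖ ≤ M) {ε : ℝ} (hε : 0 < ε) {a b : ℂ} (hab : ‖b - a‖ ≤ dlt M ε) :
    ‖e b - e a‖ ≤ ε := by
  have hM : 0 ≤ M := (norm_nonneg _).trans (bd 0)
  have hπ := Real.pi_pos
  have hΛ : 0 < 4 * π ^ 2 * (M + 1) ^ 2 / ε ^ 2 := by positivity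
  have h1 : dlt M ε < 1 := by
    unfold dlt
    rw [Real.exp_lt_one_iff]
    linarith
  have h2 := courant_lebesgue c1 e.isOpenMap (z0 := a) (dlt_pos M ε) h1 (a := b) (b := a)
    (by rw [mem_closedBall, dist_eq_norm]; exact hab)
    (mem_closedBall_self (dlt_pos M ε).le)
  have h3 : Real.log (1 / dlt M ε) = 4 * π ^ 2 * (M + 1) ^ 2 / ε ^ 2 := by
    unfold dlt
    rw [one_div, Real.log_inv, Real.log_exp, neg_neg]
  have h4 : ∫ z in ball a 1, ‖fderiv ℝ e z‖ ^ 2 ≤ 2 * (π * (M + 1) ^ 2) := by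
    apply energy_le c1 e.injective (by norm_num) q (w0 := a) (by linarith)
    rintro _ ⟨z, hz, rfl⟩
    rw [mem_ball, dist_eq_norm] at hz ⊢
    have : e z - a = (e z - z) + (z - a) := by ring
    rw [this]
    refine (norm_add_le _ _).trans_lt ?_
    linarith [bd z]
  rw [h3] at h2
  have h5 : ‖e b - e a‖ ^ 2 * (4 * π ^ 2 * (M + 1) ^ 2 / ε ^ 2)
      ≤ ε ^ 2 * (4 * π ^ 2 * (M + 1) ^ 2 / ε ^ 2) := by
    have e1 : ε ^ 2 * (4 * π ^ 2 * (M + 1) ^ 2 / ε ^ 2) = 2 * π * (2 * (π * (M + 1) ^ 2)) := by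
      field_simp
      ring
    rw [e1]
    exact h2.trans (mul_le_mul_of_nonneg_left h4 (by positivity))
  have h6 := le_of_mul_le_mul_right h5 hΛ
  exact (pow_le_pow_iff_left₀ (norm_nonneg _) hε.le (by norm_num)).1 h6

/-- Ascoli for sequences (after R264 CN3). -/
theorem ascoli (f : ℕ → ℂ → ℂ) (hb : ∀ x, ∃ C : ℝ, ∀ j, ‖f j x‖ ≤ C)
    (he : ∀ ε > 0, ∃ δ > 0, ∀ j a b, ‖b - a‖ ≤ δ → ‖f j b - f j a‖ ≤ ε) :
    ∃ (σ : ℕ → ℕ) (g : ℂ → ℂ), StrictMono σ ∧
      TendstoLocallyUniformly (fun j => f (σ j)) g atTop := by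
  obtain ⟨D, hDc, hDd⟩ := TopologicalSpace.exists_countable_dense ℂ
  have : Countable D := hDc.to_subtype
  choose C hC using hb
  have hcpt : IsCompact (Set.pi univ (fun d : D => closedBall (0 : ℂ) (C d))) :=
    isCompact_univ_pi fun d => isCompact_closedBall _ _
  have hmem : ∀ j, (fun d : D => f j d) ∈ Set.pi univ (fun d : D => closedBall (0 : ℂ) (C d)) := by
    intro j d _
    rw [mem_closedBall, dist_zero_right]
    exact hC d j
  obtain ⟨a, -, σ, hσ, hlim⟩ := hcpt.tendsto_subseq hmem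
  have hD : ∀ d : D, Tendsto (fun j => f (σ j) d) atTop (𝓝 (a d)) := fun d =>
    (tendsto_pi_nhds.1 hlim) d
  have hcau : ∀ x, CauchySeq (fun j => f (σ j) x) := by
    intro x
    rw [Metric.cauchySeq_iff]
    intro ε hε
    obtain ⟨δ, hδ, h⟩ := he (ε / 4) (by linarith)
    obtain ⟨d, hdV, hdD⟩ := mem_closure_iff_nhds.1 (hDd x) (closedBall x δ)
      (closedBall_mem_nhds x hδ)
    rw [mem_closedBall, dist_eq_norm] at hdV
    have h1 : CauchySeq (fun j => f (σ j) d) := (hD ⟨d, hdD⟩).cauchySeq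
    obtain ⟨N1, hN1⟩ := Metric.cauchySeq_iff.1 h1 (ε / 4) (by linarith)
    refine ⟨N1, fun j hj k hk => ?_⟩
    have a1 := h (σ j) x d hdV
    have a2 := h (σ k) x d hdV
    have a3 := hN1 j hj k hk
    have a4 := dist_triangle4 (f (σ j) x) (f (σ j) d) (f (σ k) d) (f (σ k) x)
    rw [dist_comm (f (σ j) x) (f (σ j) d)] at a4
    rw [← dist_eq_norm] at a1 a2
    linarith
  have hex : ∀ x, ∃ y, Tendsto (fun j => f (σ j) x) atTop (𝓝 y) := fun x =>
    cauchySeq_tendsto_of_complete (hcau x)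
  choose g hg using hex
  refine ⟨σ, g, hσ, ?_⟩
  rw [Metric.tendstoLocallyUniformly_iff]
  intro ε hε x
  obtain ⟨δ, hδ, h⟩ := he (ε / 4) (by linarith)
  refine ⟨closedBall x δ, closedBall_mem_nhds x hδ, ?_⟩
  have h1 : ∀ᶠ j in atTop, dist (f (σ j) x) (g x) < ε / 4 :=
    (Metric.tendsto_nhds.1 (hg x)) _ (by linarith)
  have h2 : ∀ y ∈ closedBall x δ, dist (g y) (g x) ≤ ε / 4 := by
    intro y hy
    rw [mem_closedBall, dist_eq_norm] at hy
    refine le_of_tendsto ((hg y).dist (hg x)) (Eventually.of_forall fun j => ?_)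
    rw [dist_eq_norm]
    exact h (σ j) x y hy
  filter_upwards [h1] with j hj1 y hy
  have a2 := h2 y hy
  rw [mem_closedBall, dist_eq_norm] at hy
  have a1 := h (σ j) x y hy
  have a4 := dist_triangle4 (g y) (g x) (f (σ j) x) (f (σ j) y)
  rw [dist_comm (g x), dist_comm (f (σ j) x) (f (σ j) y)] at a4
  rw [← dist_eq_norm] at a1
  linarith

/-- the cutoffs -/
theorem exists_cut {E : Set ℂ} (hE : IsCompact E) {R : ℝ} (hER : E ⊆ closedBall 0 (R - 1)) {δ : ℝ}
    (hδ : 0 < δ) (hδ1 : δ ≤ 1) : ∃ m : ℂ → ℝ, Tst R (fun z => (m z : ℂ)) ∧ (∀ z, 0 ≤ m z) ∧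
      (∀ z, m z ≤ 1 / 10) ∧ (∀ z, z ∉ thickening δ E → m z = 0) ∧
      1 / 10 * volume.real E ≤ ∫ z, m z := by
  obtain ⟨χ, h0, h1, h01⟩ := exists_contMDiffMap_zero_one_of_isClosed (n := (⊤ : ℕ∞)) 𝓘(ℝ, ℂ)
    (s := (thickening δ E)ᶜ) (t := E) isOpen_thickening.isClosed_compl hE.isClosed (by
      rw [disjoint_left]
      intro z hz hzE
      exact hz (self_subset_thickening hδ E hzE))
  have hχ : ContDiff ℝ ∞ (χ : ℂ → ℝ) := contMDiff_iff_contDiff.1 χ.contMDiff
  have hsm : ContDiff ℝ ∞ fun z => ((1 / 10 * χ z : ℝ) : ℂ) :=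
    Complex.ofRealCLM.contDiff.comp (contDiff_const.mul hχ)
  have hout : ∀ z, R < ‖z‖ → z ∉ thickening δ E := by
    intro z hz hzt
    rw [mem_thickening_iff] at hzt
    obtain ⟨y, hy, hyz⟩ := hzt
    have h2 := hER hy
    rw [mem_closedBall, dist_zero_right] at h2
    rw [dist_eq_norm] at hyz
    have h3 := norm_sub_norm_le z y
    linarith
  have hT : Tst R fun z => ((1 / 10 * χ z : ℝ) : ℂ) := by
    refine ⟨hsm, fun z hz => ?_⟩
    have : χ z = 0 := h0 (hout z hz)
    rw [this]; simp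
  refine ⟨fun z => 1 / 10 * χ z, hT, fun z => ?_, fun z => ?_, fun z hz => ?_, ?_⟩
  · have := (h01 z).1
    positivity
  · have := (h01 z).2
    linarith
  · have : χ z = 0 := h0 hz
    show 1 / 10 * χ z = 0
    rw [this]; simp
  · have hi : Integrable fun z => 1 / 10 * χ z := by
      have := hT.integrable.re
      simpa using this
    have h2 : ∫ z in E, (1 / 10 : ℝ) ≤ ∫ z in E, 1 / 10 * χ z := by
      apply setIntegral_mono_on _ hi.integrableOn hE.measurableSet
      · intro z hz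
        have : χ z = 1 := h1 hz
        rw [this]; norm_num
      · exact integrableOn_const hE.measure_lt_top.ne (by simp)
    have h3 : ∫ z in E, 1 / 10 * χ z ≤ ∫ z, 1 / 10 * χ z :=
      setIntegral_le_integral hi (Eventually.of_forall fun z => by
        have := (h01 z).1
        simp only [Pi.zero_apply]
        positivity)
    rw [setIntegral_const, smul_eq_mul] at h2
    linarith

/-- **a nontrivial homeomorphism** -/
theorem exists_homeo_of_pos {E : Set ℂ} (hE : IsCompact E) (hpos : 0 < volume.real E) :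
    ∃ φ : ℂ ≃ₜ ℂ, DifferentiableOn ℂ φ Eᶜ ∧ ¬ ∃ a b : ℂ, ∀ z : ℂ, φ z = a * z + b := by
  have hπ := Real.pi_pos
  obtain ⟨r, hr⟩ := hE.isBounded.subset_closedBall 0
  set R : ℝ := |r| + 2 with hR
  have hRpos : 0 < R := by positivity
  have hER : E ⊆ closedBall 0 (R - 1) := hr.trans (closedBall_subset_closedBall (by
    have := le_abs_self r
    linarith))
  have hδn : ∀ n : ℕ, 0 < 1 / ((n:ℝ) + 1) ∧ 1 / ((n:ℝ) + 1) ≤ 1 := fun n => by
    refine ⟨by positivity, ?_⟩
    rw [div_le_one (by positivity)]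
    linarith [Nat.cast_nonneg (α := ℝ) n]
  choose m hT hm0 hm1 hms hmi using fun n : ℕ => exists_cut hE hER (hδn n).1 (hδn n).2
  choose e he using fun n : ℕ => exists_nice hRpos (hT n) (hm0 n) (hm1 n)
  set M := MR R with hM
  have bd' : ∀ n w, ‖(e n).symm w - w‖ ≤ M := by
    intro n w
    have := (he n).bd ((e n).symm w)
    rw [Homeomorph.apply_symm_apply] at this
    rw [norm_sub_rev]
    exact this
  have hnorm : ∀ (u : ℕ → ℂ → ℂ), (∀ n z, ‖u n z - z‖ ≤ M) → ∀ x, ∃ C : ℝ, ∀ j, ‖u j x‖ ≤ C := by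
    intro u hu x
    refine ⟨M + ‖x‖, fun j => ?_⟩
    have h1 := norm_add_le (u j x - x) x
    rw [sub_add_cancel] at h1
    linarith [hu j x]
  obtain ⟨σ₁, f, hσ₁, hf⟩ := ascoli (fun n => (e n : ℂ → ℂ)) (hnorm _ fun n z => (he n).bd z)
    (fun ε hε => ⟨dlt M ε, dlt_pos _ _, fun j a b hab =>
      equi (he j).c1 (he j).q (he j).bd hε hab⟩)
  obtain ⟨σ₂, g, hσ₂, hg⟩ := ascoli (fun n => ((e (σ₁ n)).symm : ℂ → ℂ))
    (hnorm _ fun n z => bd' (σ₁ n) z)
    (fun ε hε => ⟨dlt M ε, dlt_pos _ _, fun j a b hab =>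
      equi (he (σ₁ j)).c1' (he (σ₁ j)).q' (bd' (σ₁ j)) hε hab⟩)
  set τ : ℕ → ℕ := fun j => σ₁ (σ₂ j) with hτ
  have hτm : StrictMono τ := hσ₁.comp hσ₂
  have hf2 : TendstoLocallyUniformly (fun j => (e (τ j) : ℂ → ℂ)) f atTop := by
    intro u hu x
    obtain ⟨t, ht, h⟩ := hf u hu x
    exact ⟨t, ht, hσ₂.tendsto_atTop.eventually h⟩
  have hg2 : TendstoLocallyUniformly (fun j => ((e (τ j)).symm : ℂ → ℂ)) g atTop := hg
  have hfc : Continuous f := hf2.continuous (Eventually.of_forall fun j =>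
    (e (τ j)).continuous).frequently
  have hgc : Continuous g := hg2.continuous (Eventually.of_forall fun j =>
    (e (τ j)).symm.continuous).frequently
  have hfp : ∀ z, Tendsto (fun j => e (τ j) z) atTop (𝓝 (f z)) := fun z =>
    hf2.tendsto_comp hfc.continuousAt tendsto_const_nhds
  have hgp : ∀ z, Tendsto (fun j => (e (τ j)).symm z) atTop (𝓝 (g z)) := fun z =>
    hg2.tendsto_comp hgc.continuousAt tendsto_const_nhds
  have hfg : ∀ w, f (g w) = w := fun w => by
    have h1 := hf2.tendsto_comp hfc.continuousAt (hgp w)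
    simp only [Homeomorph.apply_symm_apply] at h1
    exact tendsto_nhds_unique h1 tendsto_const_nhds
  have hgf : ∀ w, g (f w) = w := fun w => by
    have h1 := hg2.tendsto_comp hgc.continuousAt (hfp w)
    simp only [Homeomorph.symm_apply_apply] at h1
    exact tendsto_nhds_unique h1 tendsto_const_nhds
  let φ : ℂ ≃ₜ ℂ :=
    { toFun := f, invFun := g, left_inv := hgf, right_inv := hfg, continuous_toFun := hfc,
      continuous_invFun := hgc }
  have hφ : ∀ z, φ z = f z := fun z => rfl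
  refine ⟨φ, ?_, ?_⟩
  · intro z0 hz0
    have hφf : (φ : ℂ → ℂ) = f := rfl
    rw [hφf]
    apply DifferentiableAt.differentiableWithinAt
    obtain ⟨d, hd, hdE⟩ := Metric.isOpen_iff.1 hE.isClosed.isOpen_compl z0 hz0
    have h1 : TendstoLocallyUniformlyOn (fun j => (e (τ j) : ℂ → ℂ)) f atTop (ball z0 (d / 2)) :=
      hf2.tendstoLocallyUniformlyOn
    have h2 : ∀ᶠ j in atTop, DifferentiableOn ℂ (e (τ j) : ℂ → ℂ) (ball z0 (d / 2)) := by
      have t1 : Tendsto (fun j : ℕ => 1 / ((τ j : ℝ) + 1)) atTop (𝓝 0) :=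
        tendsto_one_div_add_atTop_nhds_zero_nat.comp hτm.tendsto_atTop
      filter_upwards [t1.eventually (gt_mem_nhds (show (0:ℝ) < d / 2 by positivity))] with j hj
      intro z hz
      apply DifferentiableAt.differentiableWithinAt
      apply (he (τ j)).hol
      apply hms
      rw [mem_thickening_iff]
      rintro ⟨y, hy, hyz⟩
      have h3 : y ∈ ball z0 d := by
        rw [mem_ball] at hz ⊢
        have := dist_triangle y z z0
        rw [dist_comm y z] at this
        linarith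
      exact hdE h3 hy
    have h3 := h1.differentiableOn h2 isOpen_ball
    exact (h3 z0 (mem_ball_self (by positivity))).differentiableAt
      (isOpen_ball.mem_nhds (mem_ball_self (by positivity)))
  · rintro ⟨a, b, hab⟩
    have hV := VR_nonneg R
    -- the displacement tends to zero
    have hdec : ∀ z, 2 * R ≤ ‖z‖ → ‖f z - z‖ ≤ 2 * π⁻¹ * VR R * ‖z‖⁻¹ := by
      intro z hz
      refine le_of_tendsto ((hfp z).sub_const z).norm (Eventually.of_forall fun j => ?_)
      exact (he (τ j)).dec z hz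
    set Cc := 2 * π⁻¹ * VR R with hCc
    have hCc0 : 0 ≤ Cc := by positivity
    have hu : ∀ t : ℝ, 2 * R ≤ t → ‖(a - 1) * t + b‖ ≤ Cc * t⁻¹ := by
      intro t ht
      have ht0 : 0 < t := by linarith
      have h1 := hdec (t : ℂ) (by rw [Complex.norm_real, Real.norm_of_nonneg ht0.le]; exact ht)
      rw [Complex.norm_real, Real.norm_of_nonneg ht0.le] at h1
      have h2 : f t - t = (a - 1) * t + b := by
        have := hab t
        rw [hφ] at this
        rw [this]; ring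
      rw [h2] at h1
      exact h1
    have hb0 : b = 0 := by
      have h1 : ∀ t : ℝ, 2 * R ≤ t → ‖b‖ ≤ 3 * Cc * t⁻¹ := by
        intro t ht
        have ht0 : 0 < t := by linarith
        have e1 := hu t ht
        have e2 := hu (2 * t) (by linarith)
        have e3 : b = ((a - 1) * t + b) + ((a - 1) * t + b)
            - ((a - 1) * ((2 * t : ℝ) : ℂ) + b) := by
          push_cast; ring
        have e4 : ‖b‖ ≤ ‖(a - 1) * t + b‖ + ‖(a - 1) * t + b‖
            + ‖(a - 1) * ((2 * t : ℝ) : ℂ) + b‖ := by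
          conv_lhs => rw [e3]
          refine (norm_sub_le _ _).trans ?_
          have := norm_add_le ((a - 1) * (t:ℂ) + b) ((a - 1) * t + b)
          linarith
        have e5 : (2 * t)⁻¹ ≤ t⁻¹ := inv_anti₀ ht0 (by linarith)
        have e6 : Cc * (2 * t)⁻¹ ≤ Cc * t⁻¹ := mul_le_mul_of_nonneg_left e5 hCc0
        linarith
      have h2 : Tendsto (fun t : ℝ => 3 * Cc * t⁻¹) atTop (𝓝 0) := by
        simpa using tendsto_inv_atTop_zero.const_mul (3 * Cc)
      have h3 : ‖b‖ ≤ 0 := ge_of_tendsto h2 (by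
        filter_upwards [eventually_ge_atTop (2 * R)] with t ht
        exact h1 t ht)
      exact norm_le_zero_iff.1 h3
    have ha1 : a - 1 = 0 := by
      have h1 : ∀ t : ℝ, max (2 * R) 1 ≤ t → ‖a - 1‖ ≤ Cc * t⁻¹ := by
        intro t ht
        have e1 := hu t ((le_max_left _ _).trans ht)
        have ht1 : 1 ≤ t := (le_max_right _ _).trans ht
        rw [hb0, add_zero, norm_mul, Complex.norm_real,
          Real.norm_of_nonneg (by linarith)] at e1
        have e2 : ‖a - 1‖ * 1 ≤ ‖a - 1‖ * t := mul_le_mul_of_nonneg_left ht1 (norm_nonneg _)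
        linarith
      have h2 : Tendsto (fun t : ℝ => Cc * t⁻¹) atTop (𝓝 0) := by
        simpa using tendsto_inv_atTop_zero.const_mul Cc
      have h3 : ‖a - 1‖ ≤ 0 := ge_of_tendsto h2 (by
        filter_upwards [eventually_ge_atTop (max (2 * R) 1)] with t ht
        exact h1 t ht)
      exact norm_le_zero_iff.1 h3
    have hid : ∀ z, f z = z := fun z => by
      have := hab z
      rw [hφ, hb0] at this
      rw [this]
      linear_combination ha1 * z
    -- the coefficient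
    set c : ℝ := 1 / 20 * volume.real E with hc
    have hc0 : 0 < c := by positivity
    set x : ℝ := max (2 * R) (4 * R * VR R / c + 1) with hx
    have hx2R : 2 * R ≤ x := le_max_left _ _
    have hx0 : 0 < x := by linarith
    have hxc : 4 * R * VR R / c ≤ x := le_trans (by linarith) (le_max_right _ _)
    have hlow : ∀ j, π⁻¹ * x⁻¹ * (c / 2) ≤ (e (τ j) x - x).re := by
      intro j
      have h1 := (he (τ j)).coef x hx2R
      have h2 : c ≤ 1 / 2 * ∫ z, m (τ j) z := by
        have := hmi (τ j)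
        rw [hc]; linarith
      have h3 : π⁻¹ * x⁻¹ * c ≤ π⁻¹ * x⁻¹ * (1 / 2 * ∫ z, m (τ j) z) :=
        mul_le_mul_of_nonneg_left h2 (by positivity)
      have h4 : 2 * R * π⁻¹ * VR R * (x⁻¹) ^ 2 ≤ π⁻¹ * x⁻¹ * (c / 2) := by
        have e1 : 4 * R * VR R ≤ x * c := by
          rwa [div_le_iff₀ hc0] at hxc
        have e2 : 2 * R * VR R * x⁻¹ ≤ c / 2 := by
          rw [← div_eq_mul_inv, div_le_iff₀ hx0]
          linarith
        calc 2 * R * π⁻¹ * VR R * (x⁻¹) ^ 2 = π⁻¹ * x⁻¹ * (2 * R * VR R * x⁻¹) := by ring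
          _ ≤ π⁻¹ * x⁻¹ * (c / 2) := mul_le_mul_of_nonneg_left e2 (by positivity)
      linarith
    have hlim : Tendsto (fun j => (e (τ j) x - x).re) atTop (𝓝 (f x - x).re) :=
      (Complex.continuous_re.tendsto _).comp ((hfp x).sub_const _)
    have h1 := ge_of_tendsto' hlim hlow
    rw [hid, sub_self, Complex.zero_re] at h1
    have h2 : 0 < π⁻¹ * x⁻¹ * (c / 2) := by positivity
    linarith

/-- **AREA0** -/
theorem area0 {E : Set ℂ} (hE : IsCompact E) (h : Crest.AnalysisR.IsConformallyRemovable E) :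
    volume E = 0 := by
  by_contra hne
  have hpos : 0 < volume.real E := by
    rw [measureReal_def]
    exact ENNReal.toReal_pos hne hE.measure_lt_top.ne
  obtain ⟨φ, hφ, hn⟩ := exists_homeo_of_pos hE hpos
  exact hn (h φ hφ)

end

end Crest.Agent.R105.Ar5_853
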