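import Crest.Agent.R105.SkA1_8
import Crest.Agent.R105.Ni2_459

/-!
# Row 105, S0138, first half: `AREAP` of `SkA1_8` (helper584), adapter of 459's `area_ZF`
-/

set_option autoImplicit false

open MeasureTheory Set Filter Topology Metric
open scoped NNReal ENNReal ContDiff

namespace Crest.Agent.R105.Are_584

open Crest.AnalysisR Bd_775 IfB_641 Tc_808 Ni_459 Grd_782

/-- **AREAP** -/
theorem areap : SkA_8.AREAP := by
  intro Y a b hY ha hb la lb ja jb h F hF
  exact area_ZF hY ha hb la lb ja jb h hF.measurableSet

end Crest.Agent.R105.Are_584
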