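import Crest.Agent.R105.IfB2_641

/-!
# Row 105, S0139 [B], ATTP: literal leaves of the assembly (helper6)

* `C2P` : near minimisers with compact support and the monotonicity property `Mn` (61)
* `C3P` : good circle, three functions (590)
* `C4P` : uniform Cauchy estimate modulo constants on balls, from `Att1_823.cauchy_sq` (823)
* `C5P` = `ATTP` from `C2P`, `C4P` (6)
-/

set_option autoImplicit false

open MeasureTheory Set Filter Topology Metric Bornology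
open scoped ContDiff NNReal

namespace Crest.Agent.R105.Asm_6

open Crest.Agent.R105.IfB_641

/-- `u` is monotone with tolerance `e`: no bounded components of super/sublevel sets at the level of
any point -/
def Mn (u : ℂ → ℝ) (e : ℝ) : Prop :=
  ∀ p, ¬ IsBounded (connectedComponentIn {w | u w < u p + e} p) ∧
    ¬ IsBounded (connectedComponentIn {w | u p - e < u w} p)

/-- (C2) compactly supported monotone near minimisers -/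
def C2P : Prop :=
  ∀ (C : Set ℂ) (x0 : ℂ → ℝ), TD C → X0 C x0 → ∀ (b : ℕ → ℂ → ℝ) (m : ℝ), Sel C x0 b m →
    ∀ ε : ℝ, 0 < ε → ∃ φ : ℂ → ℝ, D C φ ∧ Gen C (range b) φ ∧ HasCompactSupport φ ∧
      J C x0 φ ≤ m + ε ∧ Mn (fun z => x0 z + φ z) ε

/-- (C3) good circle (Courant-Lebesgue) for three functions at once -/
def C3P : Prop :=
  ∀ (O : Set ℂ), IsOpen O → ∀ R0 R1 : ℝ, 0 < R0 → R0 < R1 →
    {z : ℂ | R0 ≤ ‖z‖ ∧ ‖z‖ ≤ R1} ⊆ O → ∀ (f : Fin 3 → ℂ → ℝ) (E : Fin 3 → ℝ),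
    (∀ i, LocallyLipschitzOn O (f i)) → (∀ i, IntegrableOn (Bd_775.en (f i)) O) →
    (∀ i, 0 < E i) → (∀ i, ∫ z in O, Bd_775.en (f i) z ≤ E i) →
    ∃ r : ℝ, R0 < r ∧ r < R1 ∧ ∀ i z w, ‖z‖ = r → ‖w‖ = r →
      |f i z - f i w| ^ 2 ≤ 6 * Real.pi * E i / Real.log (R1 / R0)

/-- (C4) uniform Cauchy estimate modulo constants -/
def C4P : Prop :=
  ∀ (C : Set ℂ) (x0 : ℂ → ℝ), TD C → X0 C x0 → ∀ R0 : ℝ, 0 < R0 → C ⊆ ball 0 R0 →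
    (∀ z, R0 ≤ ‖z‖ → x0 z = z.re) → ∀ S : Set (ℂ → ℝ), (∀ s ∈ S, D C s) → Iso C S →
    ∀ h : ℝ, 0 < h → ∀ E : ℝ, 0 < E → ∃ δ : ℝ, 0 < δ ∧ ∀ φ φ' : ℂ → ℝ,
      Gen C S φ → Gen C S φ' →
      Mn (fun z => x0 z + φ z) (h / 16) → Mn (fun z => x0 z + φ' z) (h / 16) →
      di C φ φ ≤ E → di C φ' φ' ≤ E →
      di C (fun z => φ' z - φ z) (fun z => φ' z - φ z) ≤ δ →
      ∀ z w : ℂ, ‖z‖ ≤ R0 → ‖w‖ ≤ R0 → |(φ' z - φ z) - (φ' w - φ w)| ≤ h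

/-- clamp to `[-δ, δ]` -/
def cl (δ s : ℝ) : ℝ := max (-δ) (min s δ)

/-- `ψ` on the closed ball of radius `r`, clamped to `[-δ, δ]` outside -/
noncomputable def Kl (r δ : ℝ) (ψ : ℂ → ℝ) (z : ℂ) : ℝ := if ‖z‖ ≤ r then ψ z else cl δ (ψ z)

/-- (C4a) the clamping operator: `|ψ| ≤ δ` on the circle -/
def C4aP : Prop :=
  ∀ (C : Set ℂ), IsCompact C → ∀ r δ : ℝ, 0 < δ → C ⊆ ball 0 r → ∀ ψ : ℂ → ℝ, D C ψ →
    (∀ z, ‖z‖ = r → |ψ z| ≤ δ) →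
    D C (Kl r δ ψ) ∧ LC C (fun z => Kl r δ ψ z - ψ z) ∧
      (∀ z, r ≤ ‖z‖ → |Kl r δ ψ z| ≤ δ) ∧ di C (Kl r δ ψ) (Kl r δ ψ) ≤ di C ψ ψ

end Crest.Agent.R105.Asm_6
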