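import Crest.Agent.R105.Asm0_6

/-!
# Row 105, S0139, ATTP: leaf `C4aP` of `Asm0_6` (helper987): the clamping operator
-/

set_option autoImplicit false

open MeasureTheory Set Filter Topology Metric Bornology
open scoped ContDiff NNReal

namespace Crest.Agent.R105.Asm_987

open Crest.Agent.R105.IfB_641 Crest.Agent.R105.Asm_6

/-- on a segment from inside to outside of the closed ball there is a point of the sphere -/
theorem exists_sphere {r : ℝ} {x y : ℂ} (hx : ‖x‖ ≤ r) (hy : r < ‖y‖) :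
    ∃ w ∈ segment ℝ x y, ‖w‖ = r := by
  have h1 : IsPreconnected (segment ℝ x y) := (convex_segment x y).isPreconnected
  have h2 := h1.image (fun w : ℂ => ‖w‖) continuous_norm.continuousOn
  have h3 : r ∈ (fun w : ℂ => ‖w‖) '' segment ℝ x y :=
    h2.ordConnected.out (mem_image_of_mem _ (left_mem_segment ℝ x y))
      (mem_image_of_mem _ (right_mem_segment ℝ x y)) ⟨hx, hy.le⟩
  obtain ⟨w, hw, h⟩ := h3
  exact ⟨w, hw, h⟩

/-- gluing zero inside the ball -/
theorem lip_glue {r : ℝ} {g : ℂ → ℝ} {B : Set ℂ} {K : ℝ≥0} (hB : Convex ℝ B)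
    (hg : LipschitzOnWith K g B) (h0 : ∀ w ∈ B, ‖w‖ = r → g w = 0) :
    LipschitzOnWith K (fun z => if ‖z‖ ≤ r then 0 else g z) B := by
  have key : ∀ x ∈ B, ∀ y ∈ B, ‖x‖ ≤ r → r < ‖y‖ → |g y| ≤ K * dist x y := by
    intro x hx y hy h1 h2
    obtain ⟨w, hw, hwr⟩ := exists_sphere h1 h2
    have hwB : w ∈ B := hB.segment_subset hx hy hw
    have h3 := hg.dist_le_mul y hy w hwB
    rw [Real.dist_eq, h0 w hwB hwr, sub_zero] at h3
    refine h3.trans (mul_le_mul_of_nonneg_left ?_ K.2)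
    obtain ⟨a, b, ha, hb, hab, rfl⟩ := hw
    rw [dist_eq_norm, dist_eq_norm]
    have h4 : y - (a • x + b • y) = a • (y - x) := by
      have : y = (a + b) • y := by rw [hab, one_smul]
      calc y - (a • x + b • y) = (a + b) • y - (a • x + b • y) := by rw [← this]
        _ = a • (y - x) := by rw [add_smul, smul_sub]; abel
    rw [h4, norm_smul, Real.norm_of_nonneg ha, norm_sub_rev]
    have : a ≤ 1 := by linarith
    nlinarith [norm_nonneg (x - y)]
  refine LipschitzOnWith.of_dist_le_mul fun x hx y hy => ?_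
  rw [Real.dist_eq]
  by_cases h1 : ‖x‖ ≤ r
  · by_cases h2 : ‖y‖ ≤ r
    · simp only [if_pos h1, if_pos h2, sub_self, abs_zero]
      positivity
    · simp only [if_pos h1, if_neg h2, zero_sub, abs_neg]
      exact key x hx y hy h1 (not_le.1 h2)
  · by_cases h2 : ‖y‖ ≤ r
    · simp only [if_neg h1, if_pos h2, sub_zero]
      rw [dist_comm]
      exact key y hy x hx h2 (not_le.1 h1)
    · simp only [if_neg h1, if_neg h2]
      have := hg.dist_le_mul x hx y hy
      rwa [Real.dist_eq] at this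

theorem cl_lip (δ : ℝ) : LipschitzWith 1 (cl δ) := by
  unfold cl
  exact (LipschitzWith.id.min_const δ).const_max (-δ)

theorem cl_abs {δ : ℝ} (hδ : 0 < δ) (s : ℝ) : |cl δ s| ≤ δ := by
  unfold cl
  rw [abs_le]
  exact ⟨le_max_left _ _, max_le (by linarith) (min_le_right _ _)⟩

theorem cl_of_abs {δ s : ℝ} (h : |s| ≤ δ) : cl δ s = s := by
  unfold cl
  rw [abs_le] at h
  rw [min_eq_left h.2, max_eq_right h.1]

/-- `cl δ s - s` -/
def hh (δ s : ℝ) : ℝ := cl δ s - s

theorem hh_lip (δ : ℝ) : LipschitzWith 2 (hh δ) := by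
  have h : LipschitzWith (1 + 1) (fun s : ℝ => cl δ s - id s) := (cl_lip δ).sub LipschitzWith.id
  have h2 : (1 + 1 : ℝ≥0) = 2 := by norm_num
  rw [h2] at h
  exact h

theorem Kl_eq (r δ : ℝ) (ψ : ℂ → ℝ) (z : ℂ) :
    Kl r δ ψ z - ψ z = if ‖z‖ ≤ r then 0 else hh δ (ψ z) := by
  unfold Kl hh
  split_ifs <;> simp

section
variable {C : Set ℂ} {r δ : ℝ} {ψ : ℂ → ℝ}

/-- the difference -/
noncomputable def df (r δ : ℝ) (ψ : ℂ → ℝ) (z : ℂ) : ℝ := if ‖z‖ ≤ r then 0 else hh δ (ψ z)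

theorem df_in {z : ℂ} (hz : ‖z‖ < r) : df r δ ψ =ᶠ[𝓝 z] fun _ => (0 : ℝ) := by
  filter_upwards [(isOpen_lt continuous_norm continuous_const).mem_nhds hz] with w hw
  unfold df
  rw [if_pos (le_of_lt hw)]

theorem df_out {z : ℂ} (hz : r < ‖z‖) : df r δ ψ =ᶠ[𝓝 z] fun w => hh δ (ψ w) := by
  filter_upwards [(isOpen_lt continuous_const continuous_norm).mem_nhds hz] with w hw
  unfold df
  rw [if_neg (not_le.2 hw)]

theorem Kl_in {z : ℂ} (hz : ‖z‖ < r) : Kl r δ ψ =ᶠ[𝓝 z] ψ := by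
  filter_upwards [(isOpen_lt continuous_norm continuous_const).mem_nhds hz] with w hw
  unfold Kl
  rw [if_pos (le_of_lt hw)]

theorem Kl_out {z : ℂ} (hz : r < ‖z‖) : Kl r δ ψ =ᶠ[𝓝 z] fun w => cl δ (ψ w) := by
  filter_upwards [(isOpen_lt continuous_const continuous_norm).mem_nhds hz] with w hw
  unfold Kl
  rw [if_neg (not_le.2 hw)]

theorem notMem_C (hCr : C ⊆ ball 0 r) {z : ℂ} (hz : r ≤ ‖z‖) : z ∉ C := fun h => by
  have := hCr h
  rw [mem_ball_zero_iff] at this
  linarith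

theorem df_ll (hC : IsCompact C) (hCr : C ⊆ ball 0 r) (hψ : D C ψ)
    (hs : ∀ z, ‖z‖ = r → |ψ z| ≤ δ) : LocallyLipschitz (df r δ ψ) := by
  intro z
  rcases lt_or_ge ‖z‖ r with hz | hz
  · refine ⟨0, {w | df r δ ψ w = 0}, df_in hz, LipschitzOnWith.of_dist_le_mul fun a ha b hb => ?_⟩
    rw [mem_ofPred_eq] at ha hb
    rw [ha, hb]; simp
  · have hzC := notMem_C hCr hz
    obtain ⟨K, t, ht, hK⟩ := hψ.loc hzC
    rw [hC.isClosed.isOpen_compl.nhdsWithin_eq hzC] at ht
    obtain ⟨ε, hε, hb⟩ := Metric.mem_nhds_iff.1 ht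
    refine ⟨2 * K, ball z ε, ball_mem_nhds z hε, ?_⟩
    refine lip_glue (convex_ball z ε) ((hh_lip δ).comp_lipschitzOnWith (hK.mono hb)) ?_
    intro w _ hw
    simp only [hh, cl_of_abs (hs w hw), sub_self]

theorem c4aP : C4aP := by
  intro C hC r δ hδ hCr ψ hψ hs
  have hll := df_ll hC hCr hψ hs
  have hdf : (fun z => Kl r δ ψ z - ψ z) = df r δ ψ := funext fun z => Kl_eq r δ ψ z
  have hKl : Kl r δ ψ = fun z => df r δ ψ z + ψ z := by
    funext z
    have : Kl r δ ψ z - ψ z = df r δ ψ z := congrFun hdf z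
    linarith
  have hsph : volume (sphere (0 : ℂ) r) = 0 := Measure.addHaar_sphere _ _ _
  have hae : ∀ᵐ z : ℂ, ‖z‖ ≠ r := by
    rw [ae_iff]
    refine measure_mono_null (fun z hz => ?_) hsph
    simp only [mem_ofPred_eq, not_not] at hz
    rw [mem_sphere_zero_iff_norm]; exact hz
  have hdiff : ∀ᵐ z ∂(volume.restrict Cᶜ), DifferentiableAt ℝ ψ z := hψ.q.ae_diff hC.isClosed
  have hen : ∀ᵐ z ∂(volume.restrict Cᶜ), en (Kl r δ ψ) z ≤ en ψ z := by
    filter_upwards [hdiff, ae_restrict_of_ae hae] with z hz hzr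
    rcases lt_or_gt_of_ne hzr with h | h
    · rw [Bd_775.en_eq_of_eventuallyEq (Kl_in h)]
    · rw [Bd_775.en_eq_of_eventuallyEq (Kl_out h)]
      have := Bd_775.en_comp_le (cl_lip δ) hz
      simpa using this
  have hcont : Continuous (Kl r δ ψ) := by
    rw [hKl]; exact hll.continuous.add hψ.cont
  have hfin : IntegrableOn (en (Kl r δ ψ)) Cᶜ := by
    refine hψ.fin.mono' (Bd_775.measurable_en _).aestronglyMeasurable ?_
    filter_upwards [hen] with z hz
    rw [Real.norm_of_nonneg (Bd_775.en_nonneg _ _)]; exact hz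
  have hbdd : ∃ M, ∀ z, |Kl r δ ψ z| ≤ M := by
    obtain ⟨M, hM⟩ := hψ.bdd
    refine ⟨max M δ, fun z => ?_⟩
    unfold Kl
    split_ifs
    · exact (hM z).trans (le_max_left _ _)
    · exact (cl_abs hδ _).trans (le_max_right _ _)
  refine ⟨⟨hcont, hbdd, ?_, hfin⟩, ?_, ?_, ?_⟩
  · rw [hKl]
    refine Bd_775.ll_add ?_ hψ.loc
    intro z _
    obtain ⟨K, t, ht, h⟩ := hll z
    exact ⟨K, t, mem_nhdsWithin_of_mem_nhds ht, h⟩
  · rw [hdf]
    refine ⟨hll, ?_, ?_, ?_⟩
    · obtain ⟨M, hM⟩ := hψ.bdd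
      obtain ⟨N, hN⟩ := hbdd
      refine ⟨N + M, fun z => ?_⟩
      rw [← hdf]
      exact (abs_sub _ _).trans (add_le_add (hN z) (hM z))
    · have h1 : Integrable (indicator Cᶜ (fun z => 4 * en ψ z)) :=
        (integrable_indicator_iff hC.isClosed.isOpen_compl.measurableSet).2 (hψ.fin.const_mul 4)
      refine h1.mono' (Bd_775.measurable_en _).aestronglyMeasurable ?_
      rw [ae_restrict_iff' hC.isClosed.isOpen_compl.measurableSet] at hdiff
      filter_upwards [hdiff, hae] with z hz hzr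
      rw [Real.norm_of_nonneg (Bd_775.en_nonneg _ _)]
      rcases lt_or_gt_of_ne hzr with h | h
      · rw [Bd_775.en_eq_of_eventuallyEq (df_in h), Bd_775.en_const]
        exact indicator_nonneg (fun w _ => by have := Bd_775.en_nonneg ψ w; positivity) z
      · have hzC : z ∈ Cᶜ := notMem_C hCr h.le
        rw [Bd_775.en_eq_of_eventuallyEq (df_out h), indicator_of_mem hzC]
        have := Bd_775.en_comp_le (hh_lip δ) (hz hzC)
        refine this.trans (le_of_eq ?_)
        norm_num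
    · intro z hz
      have h1 := df_in (δ := δ) (ψ := ψ) (mem_ball_zero_iff.1 (hCr hz))
      filter_upwards [h1] with w hw
      rw [hw, h1.self_of_nhds]
  · intro z hz
    unfold Kl
    split_ifs with h
    · exact hs z (le_antisymm h hz)
    · exact cl_abs hδ _
  · have h1 : ∀ u : ℂ → ℝ, dot u u = en u := fun u => by
      funext z; unfold Bd_775.dot Bd_775.en; ring
    unfold di
    rw [h1, h1]
    exact integral_mono_ae hfin hψ.fin hen

end

end Crest.Agent.R105.Asm_987
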