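import Mathlib
import Crest.Agent.R105.Bd1_775

/-!
# Row 105, S0139 [B], attainment (helper823, task 2290): pointwise calculus and Stokes

`f = (min b t1 - a)^+`, `g = max a t0`, `q = c - ((t1 - g)^+)^2/2`.
-/

set_option autoImplicit false

open MeasureTheory Set Filter Topology Metric
open scoped NNReal ENNReal ContDiff

namespace Crest.Agent.R105.Att1_823

open Bd_775

noncomputable section

/-! ### derivatives of `max` and `min` with a constant -/

lemma fderiv_max_of_lt {u : ℂ → ℝ} {c : ℝ} {z : ℂ} (hu : ContinuousAt u z) (h : c < u z) :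
    fderiv ℝ (fun w => max (u w) c) z = fderiv ℝ u z := by
  refine Filter.EventuallyEq.fderiv_eq ?_
  filter_upwards [hu.eventually (lt_mem_nhds h)] with w hw
  exact max_eq_left (le_of_lt hw)

lemma fderiv_max_of_le {u : ℂ → ℝ} {c : ℝ} {z : ℂ} (h : u z ≤ c) :
    fderiv ℝ (fun w => max (u w) c) z = 0 := by
  have : IsLocalMin (fun w => max (u w) c) z := by
    refine Eventually.of_forall fun w => ?_
    show max (u z) c ≤ max (u w) c
    rw [max_eq_right h]
    exact le_max_right _ _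
  exact this.fderiv_eq_zero

lemma fderiv_min_of_lt {u : ℂ → ℝ} {c : ℝ} {z : ℂ} (hu : ContinuousAt u z) (h : u z < c) :
    fderiv ℝ (fun w => min (u w) c) z = fderiv ℝ u z := by
  refine Filter.EventuallyEq.fderiv_eq ?_
  filter_upwards [hu.eventually (gt_mem_nhds h)] with w hw
  exact min_eq_left (le_of_lt hw)

lemma fderiv_min_of_le {u : ℂ → ℝ} {c : ℝ} {z : ℂ} (h : c ≤ u z) :
    fderiv ℝ (fun w => min (u w) c) z = 0 := by
  have : IsLocalMax (fun w => min (u w) c) z := by
    refine Eventually.of_forall fun w => ?_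
    show min (u w) c ≤ min (u z) c
    rw [min_eq_right h]
    exact min_le_right _ _
  exact this.fderiv_eq_zero

/-- the function `f = (min b t1 - a)^+` -/
def ff (a b : ℂ → ℝ) (t1 : ℝ) (z : ℂ) : ℝ := max (min (b z) t1 - a z) 0
/-- the function `g = max a t0` -/
def gg (a : ℂ → ℝ) (t0 : ℝ) (z : ℂ) : ℝ := max (a z) t0
/-- the function `q = (t1-t0)²/2 - ((t1 - g)^+)²/2` -/
def qq (a : ℂ → ℝ) (t0 t1 : ℝ) (z : ℂ) : ℝ :=
  (t1 - t0) ^ 2 / 2 - (max (t1 - gg a t0 z) 0) ^ 2 / 2

/-- `|df ∧ dg| ≤ |d(b-a) ∧ da|` -/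
lemma wdg_le {a b : ℂ → ℝ} {t0 t1 : ℝ} {z : ℂ} (ha : DifferentiableAt ℝ a z)
    (hb : DifferentiableAt ℝ b z) (hm : DifferentiableAt ℝ (fun w => min (b w) t1) z) :
    |wdg (ff a b t1) (gg a t0) z| ≤ |wdg (fun w => b w - a w) a z| := by
  by_cases h1 : min (b z) t1 - a z ≤ 0
  · have : fderiv ℝ (ff a b t1) z = 0 := fderiv_max_of_le (u := fun w => min (b w) t1 - a w) h1
    unfold wdg gx gy
    rw [this]; simp
  push Not at h1
  by_cases h2 : a z ≤ t0
  · have : fderiv ℝ (gg a t0) z = 0 := fderiv_max_of_le h2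
    unfold wdg gx gy
    rw [this]; simp
  push Not at h2
  have e1 : fderiv ℝ (ff a b t1) z = fderiv ℝ (fun w => min (b w) t1 - a w) z :=
    fderiv_max_of_lt (u := fun w => min (b w) t1 - a w) (hm.sub ha).continuousAt h1
  have e2 : fderiv ℝ (gg a t0) z = fderiv ℝ a z := fderiv_max_of_lt ha.continuousAt h2
  have e3 : fderiv ℝ (fun w => min (b w) t1 - a w) z
      = fderiv ℝ (fun w => min (b w) t1) z - fderiv ℝ a z := fderiv_fun_sub hm ha
  have e4 : fderiv ℝ (fun w => b w - a w) z = fderiv ℝ b z - fderiv ℝ a z := fderiv_fun_sub hb ha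
  unfold wdg gx gy
  rw [e1, e2, e3, e4]
  by_cases h3 : b z < t1
  · rw [fderiv_min_of_lt hb.continuousAt h3]
  · push Not at h3
    rw [fderiv_min_of_le h3]
    have : ((0 - fderiv ℝ a z) 1 * (fderiv ℝ a z) Complex.I
        - (0 - fderiv ℝ a z) Complex.I * (fderiv ℝ a z) 1) = 0 := by
      simp only [zero_sub, neg_apply]; ring
    rw [this, abs_zero]
    exact abs_nonneg _

lemma hasDerivAt_sq_max (s : ℝ) : HasDerivAt (fun r : ℝ => (max r 0) ^ 2) (2 * max s 0) s := by
  rcases lt_trichotomy s 0 with h | h | h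
  · rw [max_eq_right h.le, mul_zero]
    refine (hasDerivAt_const s (0 : ℝ)).congr_of_eventuallyEq ?_
    filter_upwards [gt_mem_nhds h] with r hr
    rw [max_eq_right hr.le]; simp
  · subst h
    rw [max_self, mul_zero]
    rw [hasDerivAt_iff_isLittleO]
    simp only [max_self, sub_zero, smul_zero]
    have : (fun r : ℝ => (max r 0) ^ 2 - (0 : ℝ) ^ 2) =O[𝓝 0] fun r : ℝ => r ^ 2 := by
      refine Asymptotics.IsBigO.of_bound 1 (Eventually.of_forall fun r => ?_)
      rw [one_mul, Real.norm_eq_abs, Real.norm_eq_abs, zero_pow two_ne_zero, sub_zero,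
        abs_of_nonneg (sq_nonneg _), abs_of_nonneg (sq_nonneg _)]
      rcases le_total r 0 with h | h
      · rw [max_eq_right h]; simpa using sq_nonneg r
      · rw [max_eq_left h]
    refine this.trans_isLittleO ?_
    have h2 : (fun r : ℝ => r ^ 2) =o[𝓝 0] fun r : ℝ => r ^ 1 :=
      Asymptotics.isLittleO_pow_pow (by norm_num)
    simpa using h2
  · rw [max_eq_left h.le]
    have h1 : HasDerivAt (fun r : ℝ => r ^ 2) (2 * s) s := by
      simpa using hasDerivAt_pow 2 s
    refine h1.congr_of_eventuallyEq ?_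
    filter_upwards [lt_mem_nhds h] with r hr
    rw [max_eq_left hr.le]

/-- `dq = (t1 - g)^+ dg` -/
lemma fderiv_qq {a : ℂ → ℝ} {t0 t1 : ℝ} {z : ℂ} (hg : DifferentiableAt ℝ (gg a t0) z) :
    HasFDerivAt (qq a t0 t1) (max (t1 - gg a t0 z) 0 • fderiv ℝ (gg a t0) z) z := by
  have h1 : HasFDerivAt (fun w => t1 - gg a t0 w) (-fderiv ℝ (gg a t0) z) z :=
    hg.hasFDerivAt.const_sub t1
  have h2 := (hasDerivAt_sq_max (t1 - gg a t0 z)).comp_hasFDerivAt z h1
  have h3 := (h2.mul_const (1 / 2)).const_sub ((t1 - t0) ^ 2 / 2)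
  have h4 : qq a t0 t1 = fun x => (t1 - t0) ^ 2 / 2
      - ((fun r : ℝ => (max r 0) ^ 2) ∘ fun w => t1 - gg a t0 w) x * (1 / 2) := by
    funext x
    simp only [qq, Function.comp]
    ring
  rw [h4]
  refine h3.congr_fderiv ?_
  ext
  simp; ring

/-- `f dθ ∧ dg = dθ ∧ dq` -/
lemma f_wdg {a b θ : ℂ → ℝ} {t0 t1 : ℝ} {z : ℂ} (hg : DifferentiableAt ℝ (gg a t0) z)
    (h : a z < t0 ∨ t1 < b z ∨ ∀ᶠ w in 𝓝 z, θ w = θ z) :
    ff a b t1 z * wdg θ (gg a t0) z = wdg θ (qq a t0 t1) z := by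
  have hq := (fderiv_qq (t1 := t1) hg).fderiv
  unfold wdg gx gy
  rw [hq]
  simp only [smul_apply, smul_eq_mul]
  by_cases h1 : a z ≤ t0
  · have : fderiv ℝ (gg a t0) z = 0 := fderiv_max_of_le h1
    rw [this]; simp
  push Not at h1
  rcases h with h | h | h
  · exact absurd h (not_lt.2 h1.le)
  · have e1 : gg a t0 z = a z := max_eq_left h1.le
    have e2 : ff a b t1 z = max (t1 - a z) 0 := by
      unfold ff; rw [min_eq_right h.le]
    rw [e1, e2]; ring
  · have : fderiv ℝ θ z = 0 := by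
      have h2 : θ =ᶠ[𝓝 z] fun _ => θ z := h
      rw [h2.fderiv_eq]; simp
    rw [this]; simp

/-! ### Stokes -/

/-- `∫ ∂_v F = 0` for `F` Lipschitz with compact support -/
lemma int_fderiv {F : ℂ → ℝ} {K : ℝ≥0} (hF : LipschitzWith K F) (hc : HasCompactSupport F)
    (v : ℂ) : ∫ z, fderiv ℝ F z v = 0 := by
  have h1 := LipschitzWith.integral_lineDeriv_mul_eq (μ := (volume : Measure ℂ))
    (LipschitzWith.const (α := ℂ) (1 : ℝ)) hF hc (-v)
  have h2 : ∀ x : ℂ, lineDeriv ℝ (fun _ : ℂ => (1 : ℝ)) x (-v) = 0 := by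
    intro x; simp [lineDeriv]
  simp only [h2, zero_mul, integral_zero, mul_one, neg_neg] at h1
  rw [h1]
  refine integral_congr_ae ?_
  filter_upwards [hF.ae_differentiableAt (μ := (volume : Measure ℂ))] with z hz
  exact (hz.lineDeriv_eq_fderiv).symm

lemma fderiv_eq_zero_of_notMem_tsupport {F : ℂ → ℝ} {z : ℂ} (h : z ∉ tsupport F) :
    fderiv ℝ F z = 0 := by
  have : F =ᶠ[𝓝 z] fun _ => (0 : ℝ) := by
    rw [notMem_tsupport_iff_eventuallyEq] at h; exact h
  rw [this.fderiv_eq]; simp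

lemma integrable_fderiv {F : ℂ → ℝ} {K : ℝ≥0} (hF : LipschitzWith K F)
    (hc : HasCompactSupport F) (v : ℂ) : Integrable (fun z => fderiv ℝ F z v) := by
  have h1 : IntegrableOn (fun z => fderiv ℝ F z v) (tsupport F) := by
    refine Measure.integrableOn_of_bounded (M := (K : ℝ) * ‖v‖) hc.isCompact.measure_lt_top.ne
      (measurable_fderiv_apply_const ℝ F v).aestronglyMeasurable ?_
    refine Eventually.of_forall fun z => ?_
    exact ((fderiv ℝ F z).le_opNorm _).trans
      (mul_le_mul_of_nonneg_right (norm_fderiv_le_of_lipschitz ℝ hF) (norm_nonneg _))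
  rwa [integrableOn_iff_integrable_of_support_subset] at h1
  intro z hz
  by_contra h2
  apply hz
  show fderiv ℝ F z v = 0
  rw [fderiv_eq_zero_of_notMem_tsupport h2]; simp

/-- local product of Lipschitz functions -/
lemma lip_mul_at {u v : ℂ → ℝ} {z : ℂ} (hu : ∃ K : ℝ≥0, ∃ t ∈ 𝓝 z, LipschitzOnWith K u t)
    (hv : ∃ K : ℝ≥0, ∃ t ∈ 𝓝 z, LipschitzOnWith K v t) :
    ∃ K : ℝ≥0, ∃ t ∈ 𝓝 z, LipschitzOnWith K (fun w => u w * v w) t := by
  obtain ⟨K, s, hs, h3⟩ := hu
  obtain ⟨L, t, ht, h4⟩ := hv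
  set M : ℝ := |u z| + |v z| + K + L with hM
  have hM0 : 0 ≤ M := by positivity
  refine ⟨M.toNNReal * L + M.toNNReal * K, (s ∩ t) ∩ ball z 1,
    inter_mem (inter_mem hs ht) (ball_mem_nhds z one_pos), ?_⟩
  have hzs : z ∈ s := mem_of_mem_nhds hs
  have hzt : z ∈ t := mem_of_mem_nhds ht
  refine LipschitzOnWith.of_dist_le_mul fun x hx y hy => ?_
  rw [Real.dist_eq]
  have e1 := h3.dist_le_mul x hx.1.1 y hy.1.1
  have e2 := h4.dist_le_mul x hx.1.2 y hy.1.2
  rw [Real.dist_eq] at e1 e2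
  have h1 : |u x| ≤ M := by
    have := h3.dist_le_mul x hx.1.1 z hzs
    rw [Real.dist_eq] at this
    have h5 : (K : ℝ) * dist x z ≤ K * 1 := mul_le_mul_of_nonneg_left (mem_ball.1 hx.2).le K.2
    have h6 : |u x| ≤ |u z| + |u x - u z| := by
      have := abs_add_le (u z) (u x - u z)
      rwa [add_sub_cancel] at this
    have h7 : (0 : ℝ) ≤ L := L.2
    have h8 := abs_nonneg (v z)
    linarith
  have h2 : |v y| ≤ M := by
    have := h4.dist_le_mul y hy.1.2 z hzt
    rw [Real.dist_eq] at this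
    have h5 : (L : ℝ) * dist y z ≤ L * 1 := mul_le_mul_of_nonneg_left (mem_ball.1 hy.2).le L.2
    have h6 : |v y| ≤ |v z| + |v y - v z| := by
      have := abs_add_le (v z) (v y - v z)
      rwa [add_sub_cancel] at this
    have h7 : (0 : ℝ) ≤ K := K.2
    have h8 := abs_nonneg (u z)
    linarith
  have : u x * v x - u y * v y = u x * (v x - v y) + v y * (u x - u y) := by ring
  rw [this]
  refine (abs_add_le _ _).trans ?_
  rw [abs_mul, abs_mul]
  have e3 : |u x| * |v x - v y| ≤ M * (L * dist x y) :=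
    mul_le_mul h1 e2 (abs_nonneg _) hM0
  have e4 : |v y| * |u x - u y| ≤ M * (K * dist x y) :=
    mul_le_mul h2 e1 (abs_nonneg _) hM0
  push_cast
  rw [Real.coe_toNNReal M hM0]
  nlinarith

lemma contDiff_gx {θ : ℂ → ℝ} (hθ : ContDiff ℝ ∞ θ) : ContDiff ℝ ∞ (gx θ) := by
  unfold gx
  exact (hθ.fderiv_right (m := ∞) (by simp)).clm_apply contDiff_const

lemma contDiff_gy {θ : ℂ → ℝ} (hθ : ContDiff ℝ ∞ θ) : ContDiff ℝ ∞ (gy θ) := by
  unfold gy
  exact (hθ.fderiv_right (m := ∞) (by simp)).clm_apply contDiff_const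

lemma gx_gy {θ : ℂ → ℝ} (hθ : ContDiff ℝ ∞ θ) (z : ℂ) : gx (gy θ) z = gy (gx θ) z := by
  have hd : DifferentiableAt ℝ (fderiv ℝ θ) z :=
    ((hθ.fderiv_right (m := ∞) (by simp)).differentiable (by simp)).differentiableAt
  have h1 : ∀ u v : ℂ, fderiv ℝ (fun w => fderiv ℝ θ w v) z u
      = fderiv ℝ (fderiv ℝ θ) z u v := by
    intro u v
    rw [fderiv_clm_apply hd (differentiableAt_const v)]
    simp
  have h2 : IsSymmSndFDerivAt ℝ θ z := by
    have h3 : ContDiff ℝ 2 θ := hθ.of_le (by exact WithTop.coe_le_coe.2 (le_top (a := (2:ℕ∞))))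
    exact h3.contDiffAt.isSymmSndFDerivAt (by simp)
  show fderiv ℝ (fun w => fderiv ℝ θ w Complex.I) z 1
    = fderiv ℝ (fun w => fderiv ℝ θ w 1) z Complex.I
  rw [h1, h1]
  exact h2 _ _

lemma lip_at_of_contDiff {θ : ℂ → ℝ} (hθ : ContDiff ℝ ∞ θ) (z : ℂ) :
    ∃ K : ℝ≥0, ∃ t ∈ 𝓝 z, LipschitzOnWith K θ t :=
  (hθ.contDiffAt (x := z)).of_le (by simp) |>.exists_lipschitzOnWith

/-- **Stokes**: `∫_{Cᶜ} dθ ∧ de = 0` -/
theorem stokes {C : Set ℂ} (hC : IsClosed C) {θ e : ℂ → ℝ} (hθ : ContDiff ℝ ∞ θ)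
    (hlc : ∀ z ∈ C, ∀ᶠ w in 𝓝 z, θ w = θ z) (he : LocallyLipschitzOn Cᶜ e) {S : Set ℂ}
    (hS : IsCompact S) (hSx : ∀ z ∉ S, gx θ z * e z = 0) (hSy : ∀ z ∉ S, gy θ z * e z = 0) :
    IntegrableOn (wdg θ e) Cᶜ ∧ ∫ z in Cᶜ, wdg θ e z = 0 := by
  -- derivatives of θ vanish near C
  have hd0 : ∀ z ∈ C, ∀ᶠ w in 𝓝 z, fderiv ℝ θ w = 0 := by
    intro z hz
    have h1 : ∀ᶠ w in 𝓝 z, ∀ᶠ w' in 𝓝 w, θ w' = θ z := (hlc z hz).eventually_nhds
    filter_upwards [h1] with w hw
    have h2 : θ =ᶠ[𝓝 w] fun _ => θ z := hw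
    rw [h2.fderiv_eq]; simp
  have key : ∀ k : ℂ → ℝ, ContDiff ℝ ∞ k → (∀ z ∈ C, ∀ᶠ w in 𝓝 z, k w = 0) →
      (∀ z ∉ S, k z * e z = 0) → ∃ K : ℝ≥0, LipschitzWith K (fun z => k z * e z) ∧
        HasCompactSupport (fun z => k z * e z) ∧
        (∀ z ∈ C, (fun z => k z * e z) =ᶠ[𝓝 z] fun _ => 0) := by
    intro k hk hk0 hkS
    have hsup : HasCompactSupport (fun z => k z * e z) := by
      refine HasCompactSupport.of_support_subset_isCompact hS ?_
      intro z hz
      by_contra h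
      exact hz (hkS z h)
    have hC0 : ∀ z ∈ C, (fun z => k z * e z) =ᶠ[𝓝 z] fun _ => 0 := by
      intro z hz
      filter_upwards [hk0 z hz] with w hw
      rw [hw, zero_mul]
    have hll : LocallyLipschitz (fun z => k z * e z) := by
      intro z
      by_cases hz : z ∈ C
      · refine ⟨0, {w | k w * e w = 0}, hC0 z hz, ?_⟩
        refine LipschitzOnWith.of_dist_le_mul fun x hx y hy => ?_
        have hx' : k x * e x = 0 := hx
        have hy' : k y * e y = 0 := hy
        simp only [hx', hy', dist_self]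
        positivity
      · refine lip_mul_at (lip_at_of_contDiff hk z) ?_
        obtain ⟨K, t, ht, h⟩ := he (show z ∈ Cᶜ from hz)
        rw [hC.isOpen_compl.nhdsWithin_eq hz] at ht
        exact ⟨K, t, ht, h⟩
    obtain ⟨K, hK⟩ := lipschitz_of_compact hll hsup
    exact ⟨K, hK, hsup, hC0⟩
  obtain ⟨K1, hK1, hs1, hC1⟩ := key (gy θ) (contDiff_gy hθ)
    (fun z hz => (hd0 z hz).mono fun w hw => by unfold gy; rw [hw]; simp) hSy
  obtain ⟨K2, hK2, hs2, hC2⟩ := key (gx θ) (contDiff_gx hθ)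
    (fun z hz => (hd0 z hz).mono fun w hw => by unfold gx; rw [hw]; simp) hSx
  have i1 := integrable_fderiv hK1 hs1 1
  have i2 := integrable_fderiv hK2 hs2 Complex.I
  have z1 := int_fderiv hK1 hs1 1
  have z2 := int_fderiv hK2 hs2 Complex.I
  have hae : ∀ᵐ z ∂(volume.restrict Cᶜ), wdg θ e z
      = fderiv ℝ (fun z => gx θ z * e z) z Complex.I - fderiv ℝ (fun z => gy θ z * e z) z 1 := by
    filter_upwards [ae_diff hC.isOpen_compl he] with z hz
    have d1 : DifferentiableAt ℝ (gx θ) z :=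
      ((contDiff_gx hθ).differentiable (by simp)).differentiableAt
    have d2 : DifferentiableAt ℝ (gy θ) z :=
      ((contDiff_gy hθ).differentiable (by simp)).differentiableAt
    have e1 := gy_mul d1 hz
    have e2 := gx_mul d2 hz
    show wdg θ e z = gy (fun z => gx θ z * e z) z - gx (fun z => gy θ z * e z) z
    rw [e1, e2, gx_gy hθ]
    unfold wdg; ring
  have hz1 : ∫ z in Cᶜ, fderiv ℝ (fun z => gy θ z * e z) z 1 = 0 := by
    rw [← z1]
    refine setIntegral_eq_integral_of_forall_compl_eq_zero fun z hz => ?_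
    rw [(hC1 z (not_not.1 hz)).fderiv_eq]; simp
  have hz2 : ∫ z in Cᶜ, fderiv ℝ (fun z => gx θ z * e z) z Complex.I = 0 := by
    rw [← z2]
    refine setIntegral_eq_integral_of_forall_compl_eq_zero fun z hz => ?_
    rw [(hC2 z (not_not.1 hz)).fderiv_eq]; simp
  refine ⟨(i2.integrableOn.sub i1.integrableOn).congr (hae.mono fun z h => h.symm), ?_⟩
  rw [integral_congr_ae hae, integral_sub i2.integrableOn i1.integrableOn, hz1, hz2, sub_zero]
/-- `∫ ∂_yθ(z) η'(Re z) = ∫ η'` when `θ = 1` at the top and `0` at the bottom -/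
theorem int_top {θ : ℂ → ℝ} {η : ℝ → ℝ} {L M c : ℝ}
    (hθ : ContDiff ℝ ∞ θ)
    (hη : ContDiff ℝ ∞ η) (h1 : ∀ z : ℂ, |z.re| ≤ L → M ≤ z.im → θ z = 1)
    (h0 : ∀ z : ℂ, |z.re| ≤ L → z.im ≤ -M → θ z = 0)
    (e0 : ∀ x ≤ -L, η x = 0) (e1 : ∀ x, L ≤ x → η x = c) :
    Integrable (fun z : ℂ => gy θ z * deriv η z.re) ∧
    (∀ z : ℂ, z ∉ (Icc (-L) L ×ℂ Icc (-M) M) → gy θ z * deriv η z.re = 0) ∧
      ∫ z : ℂ, gy θ z * deriv η z.re = c := by
  have hline : ∀ x y : ℝ, HasDerivAt (fun s : ℝ => θ ((x : ℂ) + s * Complex.I))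
      (gy θ ((x : ℂ) + y * Complex.I)) y := by
    intro x y
    have hd : HasFDerivAt θ (fderiv ℝ θ ((x : ℂ) + y * Complex.I)) ((x : ℂ) + y * Complex.I) :=
      ((hθ.differentiable (by simp)) _).hasFDerivAt
    have h2 : HasDerivAt (fun s : ℝ => (x : ℂ) + s * Complex.I) Complex.I y := by
      have h3 : HasDerivAt (fun s : ℝ => (s : ℂ)) 1 y := by
        simpa using (hasDerivAt_id y).ofReal_comp
      simpa using (h3.mul_const Complex.I).const_add (x : ℂ)
    exact hd.comp_hasDerivAt y h2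
  have hgy : ∀ x y : ℝ, |x| ≤ L → M < |y| → gy θ ((x : ℂ) + y * Complex.I) = 0 := by
    intro x y hx hy
    rw [← (hline x y).deriv]
    rcases lt_abs.1 hy with h | h
    · have : (fun s : ℝ => θ ((x : ℂ) + s * Complex.I)) =ᶠ[𝓝 y] fun _ => 1 := by
        filter_upwards [lt_mem_nhds h] with s hs
        exact h1 _ (by simpa using hx) (by simpa using hs.le)
      rw [this.deriv_eq]; simp
    · have : (fun s : ℝ => θ ((x : ℂ) + s * Complex.I)) =ᶠ[𝓝 y] fun _ => 0 := by
        have h' : y < -M := by linarith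
        filter_upwards [gt_mem_nhds h'] with s hs
        exact h0 _ (by simpa using hx) (by simpa using hs.le)
      rw [this.deriv_eq]; simp
  have hηd : ∀ x : ℝ, L < |x| → deriv η x = 0 := by
    intro x hx
    rcases lt_abs.1 hx with h | h
    · have : η =ᶠ[𝓝 x] fun _ => c := by
        filter_upwards [lt_mem_nhds h] with s hs
        exact e1 _ hs.le
      rw [this.deriv_eq]; simp
    · have : η =ᶠ[𝓝 x] fun _ => 0 := by
        have h' : x < -L := by linarith
        filter_upwards [gt_mem_nhds h'] with s hs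
        exact e0 _ hs.le
      rw [this.deriv_eq]; simp
  have hz0 : ∀ x y : ℝ, ¬ (|x| ≤ L ∧ |y| ≤ M) →
      gy θ ((x : ℂ) + y * Complex.I) * deriv η x = 0 := by
    intro x y h
    by_cases hx : |x| ≤ L
    · have hy : M < |y| := by
        by_contra h2
        exact h ⟨hx, not_lt.1 h2⟩
      rw [hgy x y hx hy, zero_mul]
    · rw [hηd x (not_le.1 hx), mul_zero]
  have hz0' : ∀ z : ℂ, z ∉ (Icc (-L) L ×ℂ Icc (-M) M) → gy θ z * deriv η z.re = 0 := by
    intro z hz
    have h2 : ¬ (|z.re| ≤ L ∧ |z.im| ≤ M) := by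
      intro h3
      apply hz
      rw [Complex.mem_reProdIm]
      exact ⟨abs_le.1 h3.1, abs_le.1 h3.2⟩
    have := hz0 z.re z.im h2
    rwa [Complex.re_add_im] at this
  have hη1 : ContDiff ℝ ∞ (deriv η) := by
    have : ContDiff ℝ (((⊤ : ℕ∞) : WithTop ℕ∞) + 1) η := by simpa using hη
    exact (contDiff_succ_iff_deriv.1 this).2.2
  have hcont : Continuous (fun z : ℂ => gy θ z * deriv η z.re) :=
    (contDiff_gy hθ).continuous.mul (hη1.continuous.comp Complex.continuous_re)
  have hcpt : HasCompactSupport (fun z : ℂ => gy θ z * deriv η z.re) := by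
    refine HasCompactSupport.of_support_subset_isCompact
      (isCompact_Icc.reProdIm isCompact_Icc) (K := Icc (-L) L ×ℂ Icc (-M) M) ?_
    intro z hz
    by_contra h
    exact hz (hz0' z h)
  have hint : Integrable (fun z : ℂ => gy θ z * deriv η z.re) :=
    hcont.integrable_of_hasCompactSupport hcpt
  refine ⟨hint, hz0', ?_⟩
  have hmp := Complex.volume_preserving_equiv_real_prod.symm
  have hfub : ∫ z : ℂ, gy θ z * deriv η z.re
      = ∫ x : ℝ, ∫ y : ℝ, gy θ ((x : ℂ) + y * Complex.I) * deriv η x := by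
    rw [← hmp.integral_comp (MeasurableEquiv.measurableEmbedding _)]
    have hint2 : Integrable (fun p : ℝ × ℝ =>
        gy θ (Complex.measurableEquivRealProd.symm p)
          * deriv η (Complex.measurableEquivRealProd.symm p).re) :=
      (hmp.integrable_comp_emb (MeasurableEquiv.measurableEmbedding _)).2 hint
    rw [Measure.volume_eq_prod] at hint2 ⊢
    rw [integral_prod _ hint2]
    refine integral_congr_ae (Eventually.of_forall fun x => ?_)
    refine integral_congr_ae (Eventually.of_forall fun y => ?_)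
    have : Complex.measurableEquivRealProd.symm (x, y) = (x : ℂ) + y * Complex.I := by
      apply Complex.ext <;> simp [Complex.measurableEquivRealProd]
    simp only [this]
    simp
  rw [hfub]
  have hin : ∀ x : ℝ, ∫ y : ℝ, gy θ ((x : ℂ) + y * Complex.I) * deriv η x = deriv η x := by
    intro x
    by_cases hx : |x| ≤ L
    · rw [integral_mul_const]
      have hi : Integrable (fun y : ℝ => gy θ ((x : ℂ) + y * Complex.I)) := by
        refine Continuous.integrable_of_hasCompactSupport ?_ ?_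
        · exact (contDiff_gy hθ).continuous.comp (by fun_prop)
        · refine HasCompactSupport.of_support_subset_isCompact (isCompact_Icc (a := -M) (b := M)) ?_
          intro y hy
          by_contra h
          apply hy
          refine hgy x y hx ?_
          by_contra h2
          exact h (abs_le.1 (not_lt.1 h2))
      have h3 := integral_of_hasDerivAt_of_tendsto (m := 0) (n := 1) (hline x) hi ?_ ?_
      · rw [h3]; ring
      · refine tendsto_const_nhds.congr' ?_
        filter_upwards [eventually_le_atBot (-M)] with s hs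
        exact (h0 _ (by simpa using hx) (by simpa using hs)).symm
      · refine tendsto_const_nhds.congr' ?_
        filter_upwards [eventually_ge_atTop M] with s hs
        exact (h1 _ (by simpa using hx) (by simpa using hs)).symm
    · simp [hηd x (not_le.1 hx)]
  rw [integral_congr_ae (Eventually.of_forall hin)]
  have hi : Integrable (deriv η) := by
    refine Continuous.integrable_of_hasCompactSupport hη1.continuous ?_
    refine HasCompactSupport.of_support_subset_isCompact (isCompact_Icc (a := -L) (b := L)) ?_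
    intro y hy
    by_contra h
    apply hy
    refine hηd y ?_
    by_contra h2
    exact h (abs_le.1 (not_lt.1 h2))
  have h3 := integral_of_hasDerivAt_of_tendsto (f := η) (m := 0) (n := c)
    (fun x => ((hη.differentiable (by simp)) x).hasDerivAt) hi ?_ ?_
  · rw [h3]; ring
  · refine tendsto_const_nhds.congr' ?_
    filter_upwards [eventually_le_atBot (-L)] with s hs
    exact (e0 _ hs).symm
  · refine tendsto_const_nhds.congr' ?_
    filter_upwards [eventually_ge_atTop L] with s hs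
    exact (e1 _ hs).symm

end
end Crest.Agent.R105.Att1_823
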