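import Mathlib
import Crest.Agent.R193.Planar2
import Crest.Agent.R105.Thin1_12

/-!
# R105, leaf THETA of (ATT) (helper590, for helper823): the cut-off of the attachment inequality

`exists_theta`: `P`, `W` open connected sets of the plane with a common point, `P` containing a left half
plane and `W` a right half plane, `C` compact and totally disconnected. There is a smooth
`θ : ℂ → [0,1]`, locally constant at the points of `C` and off `P ∪ W`, `= 1` above and `= 0` below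
(in the strip `|Re z| ≤ L`).
-/

set_option linter.style.longLine false

namespace Crest.Agent.R105.Sep_590

open Set Topology Metric Filter
open scoped ContDiff Manifold

section general

variable {X : Type*} [TopologicalSpace X]

/-- Splitting a compact set: if no component of `K` joins `M` to `N`, there is a relatively clopen
part of `K` which contains `M` and misses `N`. -/
theorem exists_split [T2Space X] {K M N : Set X} (hK : IsCompact K) (hM : IsCompact M)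
    (hMK : M ⊆ K) (hN : IsClosed N)
    (h : ∀ z ∈ M, Disjoint (connectedComponentIn K z) N) :
    ∃ K₁, IsCompact K₁ ∧ IsCompact (K \ K₁) ∧ K₁ ⊆ K ∧ M ⊆ K₁ ∧ Disjoint K₁ N := by
  have h1 : ∀ z ∈ M, ∃ K₁, IsCompact K₁ ∧ IsCompact (K \ K₁) ∧ K₁ ⊆ K ∧
      connectedComponentIn K z ⊆ K₁ ∧ K₁ ⊆ Nᶜ := fun z hz =>
    Thin_12.exists_clopen hK (hMK hz) hN.isOpen_compl (disjoint_left.1 (h z hz))
  choose! Z hZ1 hZ2 hZ3 hZ4 hZ5 using h1
  obtain ⟨t, ht, hcov⟩ := hM.elim_nhds_subcover (fun z => (K \ Z z)ᶜ) (fun z hz =>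
    (hZ2 z hz).isClosed.isOpen_compl.mem_nhds
      (fun hh => hh.2 (hZ4 z hz (mem_connectedComponentIn (hMK hz)))))
  refine ⟨⋃ z ∈ t, Z z, t.isCompact_biUnion fun z hz => hZ1 z (ht z hz), ?_,
    iUnion₂_subset fun z hz => hZ3 z (ht z hz), ?_, ?_⟩
  · refine hK.of_isClosed_subset ?_ sdiff_subset
    have : K \ ⋃ z ∈ t, Z z = K ∩ ⋂ z ∈ t, (K \ Z z) := by
      ext y
      simp only [Set.mem_sdiff, mem_iUnion, mem_inter_iff, mem_iInter, not_exists]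
      exact ⟨fun hy => ⟨hy.1, fun z hz => ⟨hy.1, hy.2 z hz⟩⟩, fun hy => ⟨hy.1, fun z hz => (hy.2 z hz).2⟩⟩
    rw [this]
    exact hK.isClosed.inter (isClosed_biInter fun z hz => (hZ2 z (ht z hz)).isClosed)
  · intro y hy
    obtain ⟨z, hz, hyz⟩ := mem_iUnion₂.1 (hcov hy)
    exact mem_iUnion₂.2 ⟨z, hz, by_contra fun hh => hyz ⟨hMK hy, hh⟩⟩
  · rw [disjoint_left]
    intro y hy
    obtain ⟨z, hz, hyz⟩ := mem_iUnion₂.1 hy
    exact hZ5 z (ht z hz) hyz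

end general

/-- Smooth Urysohn function between two disjoint closed sets, locally constant near both. -/
theorem exists_smooth {T B : Set ℂ} (hT : IsClosed T) (hB : IsClosed B) (h : Disjoint T B) :
    ∃ θ : ℂ → ℝ, ContDiff ℝ ∞ θ ∧ (∀ z, 0 ≤ θ z ∧ θ z ≤ 1) ∧ (∀ z ∈ T, ∀ᶠ w in 𝓝 z, θ w = 1) ∧
      (∀ z ∈ B, ∀ᶠ w in 𝓝 z, θ w = 0) := by
  obtain ⟨f, hf0, hf1, hf⟩ := exists_contMDiffMap_zero_one_nhds_of_isClosed (n := (⊤ : ℕ∞)) 𝓘(ℝ, ℂ) hB hT h.symm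
  refine ⟨f, f.contMDiff.contDiff, fun z => ⟨(hf z).1, (hf z).2⟩, fun z hz => ?_, fun z hz => ?_⟩
  · exact (hf1.filter_mono (nhds_le_nhdsSet hz))
  · exact (hf0.filter_mono (nhds_le_nhdsSet hz))

/-- `continua_cross` in `ℂ`. -/
theorem cross {L M : ℝ} {H V : Set ℂ} (hH : IsCompact H) (hV : IsCompact V)
    (hHc : IsPreconnected H) (hVc : IsPreconnected V)
    (hHy : ∀ p ∈ H, |p.im| ≤ M) (hVx : ∀ p ∈ V, |p.re| ≤ L)
    (hH1 : ∃ p ∈ H, p.re ≤ -L) (hH2 : ∃ p ∈ H, L ≤ p.re)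
    (hV1 : ∃ p ∈ V, p.im ≤ -M) (hV2 : ∃ p ∈ V, M ≤ p.im) : (H ∩ V).Nonempty := by
  have he : Continuous Complex.equivRealProdCLM := Complex.equivRealProdCLM.continuous
  obtain ⟨p1, hp1, hp1'⟩ := hH1
  obtain ⟨p2, hp2, hp2'⟩ := hH2
  obtain ⟨q1, hq1, hq1'⟩ := hV1
  obtain ⟨q2, hq2, hq2'⟩ := hV2
  obtain ⟨x, ⟨y, hy, hxy⟩, ⟨y', hy', hxy'⟩⟩ := R193.Planar.continua_cross (a := -L) (b := L) (c := -M) (d := M)
    (hH.image he) (hV.image he) (hHc.image _ he.continuousOn) (hVc.image _ he.continuousOn)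
    (by rintro _ ⟨p, hp, rfl⟩; exact abs_le.1 (hHy p hp))
    (by rintro _ ⟨p, hp, rfl⟩; exact abs_le.1 (hVx p hp))
    ⟨_, ⟨p1, hp1, rfl⟩, hp1'⟩ ⟨_, ⟨p2, hp2, rfl⟩, hp2'⟩ ⟨_, ⟨q1, hq1, rfl⟩, hq1'⟩ ⟨_, ⟨q2, hq2, rfl⟩, hq2'⟩
  have : y = y' := Complex.equivRealProdCLM.injective (hxy.trans hxy'.symm)
  exact ⟨y, hy, this ▸ hy'⟩

/-- A compact connected subset of an open connected set through two given points. -/
theorem exists_cont {P : Set ℂ} (hP : IsOpen P) (hPc : IsPreconnected P) {p q : ℂ} (hp : p ∈ P) (hq : q ∈ P) :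
    ∃ H ⊆ P, IsCompact H ∧ IsPreconnected H ∧ p ∈ H ∧ q ∈ H := by
  have hpc : IsPathConnected P := hP.isConnected_iff_isPathConnected.1 ⟨⟨p, hp⟩, hPc⟩
  obtain ⟨γ, hγ⟩ := hpc.joinedIn p hp q hq
  refine ⟨range γ, range_subset_iff.2 hγ, isCompact_range γ.continuous, isPreconnected_range γ.continuous,
    ⟨0, γ.source⟩, ⟨1, γ.target⟩⟩

theorem exists_theta {C P W : Set ℂ} (hC : IsCompact C) (hCt : IsTotallyDisconnected C)
    (hP : IsOpen P) (hW : IsOpen W) (hPc : IsPreconnected P) (hWc : IsPreconnected W) {p : ℂ}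
    (hpP : p ∈ P) (hpW : p ∈ W) {L : ℝ} (hL : ∀ z : ℂ, z.re ≤ -L → z ∈ P)
    (hR : ∀ z : ℂ, L ≤ z.re → z ∈ W) :
    ∃ (M : ℝ) (θ : ℂ → ℝ), L < M ∧ ContDiff ℝ ∞ θ ∧ (∀ z, 0 ≤ θ z ∧ θ z ≤ 1) ∧
      (∀ z : ℂ, |z.re| ≤ L → M ≤ z.im → θ z = 1) ∧ (∀ z : ℂ, |z.re| ≤ L → z.im ≤ -M → θ z = 0) ∧
      (∀ z ∈ C, ∀ᶠ w in 𝓝 z, θ w = θ z) ∧ (∀ z, z ∉ P → z ∉ W → ∀ᶠ w in 𝓝 z, θ w = θ z) := by
  -- the horizontal continuum
  obtain ⟨H₁, hH₁P, hH₁, hH₁c, hpH₁, hlH₁⟩ := exists_cont hP hPc hpP (hL (-L : ℝ) (by simp))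
  obtain ⟨H₂, hH₂W, hH₂, hH₂c, hpH₂, hrH₂⟩ := exists_cont hW hWc hpW (hR (L : ℝ) (by simp))
  have hHcpt : IsCompact (H₁ ∪ H₂) := hH₁.union hH₂
  have hHcon : IsPreconnected (H₁ ∪ H₂) := hH₁c.union p hpH₁ hpH₂ hH₂c
  obtain ⟨R, hR1⟩ := hHcpt.isBounded.exists_norm_le
  obtain ⟨M, hM⟩ : ∃ M : ℝ, M = max (max R L) 0 + 1 := ⟨_, rfl⟩
  have hRM : R < M := by rw [hM]; linarith [le_max_left R L, le_max_left (max R L) 0]
  have hLM : L < M := by rw [hM]; linarith [le_max_right R L, le_max_left (max R L) 0]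
  have hM0 : 0 < M := by rw [hM]; linarith [le_max_right (max R L) 0]
  have hHim : ∀ z ∈ H₁ ∪ H₂, |z.im| < M := fun z hz =>
    ((Complex.abs_im_le_norm z).trans (hR1 z hz)).trans_lt hRM
  -- the set to be split
  have hcs : IsClosed {z : ℂ | |z.re| ≤ L} := isClosed_le (by fun_prop) (by fun_prop)
  have hci : IsClosed {z : ℂ | |z.im| ≤ M} := isClosed_le (by fun_prop) (by fun_prop)
  have htop : IsClosed {z : ℂ | M ≤ z.im} := isClosed_le (by fun_prop) (by fun_prop)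
  have hbot : IsClosed {z : ℂ | z.im ≤ -M} := isClosed_le (by fun_prop) (by fun_prop)
  have hbd : IsCompact ({z : ℂ | |z.re| ≤ L} ∩ {z : ℂ | |z.im| ≤ M}) := by
    refine Metric.isCompact_of_isClosed_isBounded (hcs.inter hci) ?_
    refine isBounded_iff_forall_norm_le.2 ⟨L + M, fun z hz => ?_⟩
    exact (Complex.norm_le_abs_re_add_abs_im z).trans (add_le_add hz.1 hz.2)
  have hstrip : ∀ z, z ∉ P → z ∉ W → |z.re| ≤ L := fun z h1 h2 => by
    rw [abs_le]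
    constructor
    · by_contra h; exact h1 (hL z (not_le.1 h).le)
    · by_contra h; exact h2 (hR z (not_le.1 h).le)
  obtain ⟨Tp, hTp⟩ : ∃ Tp : Set ℂ, Tp = {z : ℂ | |z.re| ≤ L} ∩ {z : ℂ | M ≤ z.im} := ⟨_, rfl⟩
  obtain ⟨Bt, hBt⟩ : ∃ Bt : Set ℂ, Bt = {z : ℂ | |z.re| ≤ L} ∩ {z : ℂ | z.im ≤ -M} := ⟨_, rfl⟩
  have hTpc : IsClosed Tp := by rw [hTp]; exact hcs.inter htop
  have hBtc : IsClosed Bt := by rw [hBt]; exact hcs.inter hbot
  obtain ⟨K, hK⟩ : ∃ K : Set ℂ, K = ((P ∪ W)ᶜ ∪ Tp ∪ Bt) ∩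
      ({z : ℂ | |z.re| ≤ L} ∩ {z : ℂ | |z.im| ≤ M}) := ⟨_, rfl⟩
  have hKc : IsCompact K := by
    rw [hK]
    exact hbd.inter_left (((hP.union hW).isClosed_compl.union hTpc).union hBtc)
  have hKre : ∀ z ∈ K, |z.re| ≤ L := fun z hz => by rw [hK] at hz; exact hz.2.1
  have hKim : ∀ z ∈ K, |z.im| ≤ M := fun z hz => by rw [hK] at hz; exact hz.2.2
  have hHK : Disjoint (H₁ ∪ H₂) K := by
    rw [disjoint_left]
    intro z hz hzK
    rw [hK] at hzK
    have hzM := abs_lt.1 (hHim z hz)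
    rcases hzK.1 with (h | h) | h
    · exact h (hz.imp (fun h => hH₁P h) (fun h => hH₂W h))
    · rw [hTp] at h; exact absurd h.2 (not_le.2 hzM.2)
    · rw [hBt] at h; exact absurd h.2 (not_le.2 hzM.1)
  obtain ⟨T, hT, hB, hTK, hTT, hTB⟩ := exists_split hKc (M := K ∩ Tp) (N := Bt)
    (hKc.inter_right hTpc) inter_subset_left hBtc (by
      intro z hz
      rw [disjoint_left]
      intro y hy hyB
      have hzc : connectedComponentIn K z ⊆ K := connectedComponentIn_subset _ _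
      obtain ⟨x, hx1, hx2⟩ := cross (L := L) (M := M) hHcpt (Thin_12.isCompact_cc hKc z) hHcon
        isPreconnected_connectedComponentIn (fun q hq => (hHim q hq).le)
        (fun q hq => hKre q (hzc hq))
        ⟨_, Or.inl hlH₁, by simp⟩ ⟨_, Or.inr hrH₂, by simp⟩
        ⟨y, hy, by rw [hBt] at hyB; exact hyB.2⟩
        ⟨z, mem_connectedComponentIn hz.1, by rw [hTp] at hz; exact hz.2.2⟩
      exact disjoint_left.1 hHK hx1 (hzc hx2))
  -- the closed sets `T₁`, `B₁`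
  have hTB1 : Disjoint (T ∪ Tp) (K \ T ∪ Bt) := by
    rw [disjoint_union_left, disjoint_union_right, disjoint_union_right]
    refine ⟨⟨disjoint_sdiff_right, hTB⟩, ?_, ?_⟩
    · rw [disjoint_left]
      intro z hz hz'
      exact hz'.2 (hTT ⟨hz'.1, hz⟩)
    · rw [disjoint_left]
      intro z hz hz'
      rw [hTp] at hz; rw [hBt] at hz'
      have h1 : M ≤ z.im := hz.2
      have h2 : z.im ≤ -M := hz'.2
      linarith
  have hT1 : IsClosed (T ∪ Tp) := hT.isClosed.union hTpc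
  have hB1 : IsClosed (K \ T ∪ Bt) := hB.isClosed.union hBtc
  obtain ⟨Z, hZ, hZ', hZC, hTZ, hZB⟩ := exists_split hC (M := C ∩ (T ∪ Tp)) (N := K \ T ∪ Bt)
    (hC.inter_right hT1) inter_subset_left hB1 (by
      intro z hz
      have : connectedComponentIn C z ⊆ {z} := by
        intro y hy
        exact hCt _ (connectedComponentIn_subset _ _) isPreconnected_connectedComponentIn hy
          (mem_connectedComponentIn hz.1)
      exact (disjoint_singleton_left.2 (disjoint_left.1 hTB1 hz.2)).mono_left this)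
  obtain ⟨θ, hθ, hθ01, hθ1, hθ0⟩ := exists_smooth (T := T ∪ Tp ∪ Z) (B := K \ T ∪ Bt ∪ (C \ Z))
    (hT1.union hZ.isClosed) (hB1.union hZ'.isClosed) (by
      refine disjoint_union_left.2 ⟨disjoint_union_right.2 ⟨hTB1, ?_⟩,
        disjoint_union_right.2 ⟨hZB, disjoint_sdiff_right⟩⟩
      rw [disjoint_left]
      intro z hz hz'
      exact hz'.2 (hTZ ⟨hz'.1, hz⟩))
  have key1 : ∀ z ∈ T ∪ Tp ∪ Z, ∀ᶠ w in 𝓝 z, θ w = θ z := fun z hz => by
    filter_upwards [hθ1 z hz] with w hw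
    rw [hw, (hθ1 z hz).self_of_nhds]
  have key0 : ∀ z ∈ K \ T ∪ Bt ∪ (C \ Z), ∀ᶠ w in 𝓝 z, θ w = θ z := fun z hz => by
    filter_upwards [hθ0 z hz] with w hw
    rw [hw, (hθ0 z hz).self_of_nhds]
  refine ⟨M, θ, hLM, hθ, hθ01, ?_, ?_, ?_, ?_⟩
  · intro z h1 h2
    exact (hθ1 z (Or.inl (Or.inr (by rw [hTp]; exact ⟨h1, h2⟩)))).self_of_nhds
  · intro z h1 h2
    exact (hθ0 z (Or.inl (Or.inr (by rw [hBt]; exact ⟨h1, h2⟩)))).self_of_nhds
  · intro z hz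
    by_cases h : z ∈ Z
    · exact key1 z (Or.inr h)
    · exact key0 z (Or.inr ⟨hz, h⟩)
  · intro z h1 h2
    have h3 := hstrip z h1 h2
    rcases le_or_gt M z.im with h4 | h4
    · exact key1 z (Or.inl (Or.inr (by rw [hTp]; exact ⟨h3, h4⟩)))
    rcases le_or_gt z.im (-M) with h5 | h5
    · exact key0 z (Or.inl (Or.inr (by rw [hBt]; exact ⟨h3, h5⟩)))
    have hzK : z ∈ K := by
      rw [hK]
      exact ⟨Or.inl (Or.inl (fun h => h.elim h1 h2)), h3, abs_le.2 ⟨h5.le, h4.le⟩⟩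
    by_cases h : z ∈ T
    · exact key1 z (Or.inl (Or.inl h))
    · exact key0 z (Or.inl (Or.inl ⟨hzK, h⟩))

end Crest.Agent.R105.Sep_590
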