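import Mathlib
import Crest.Agent.R105.Att1_823
import Crest.Agent.R105.Sep1_590

/-!
# Row 105, S0139 [B], attainment (helper823, task 2290): the uniform Cauchy inequality
-/

set_option autoImplicit false

open MeasureTheory Set Filter Topology Metric
open scoped NNReal ENNReal ContDiff

namespace Crest.Agent.R105.Att1_823

open Bd_775

noncomputable section

lemma lip_max (c : ℝ) : LipschitzWith 1 (fun s : ℝ => max s c) := LipschitzWith.id.max_const c

lemma lip_min (c : ℝ) : LipschitzWith 1 (fun s : ℝ => min s c) := LipschitzWith.id.min_const c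

/-- **The inequality, with the separating function `θ` given.** -/
theorem cauchy_aux {C : Set ℂ} (hC : IsCompact C) {a b θ : ℂ → ℝ}
    (hal : LocallyLipschitzOn Cᶜ a) (hbl : LocallyLipschitzOn Cᶜ b)
    (hab : HasCompactSupport (fun z => b z - a z)) {t0 t1 L M : ℝ} (ht : t0 < t1)
    (hθ : ContDiff ℝ ∞ θ) (hθ01 : ∀ z, 0 ≤ θ z ∧ θ z ≤ 1)
    (h1 : ∀ z : ℂ, |z.re| ≤ L → M ≤ z.im → θ z = 1)
    (h0 : ∀ z : ℂ, |z.re| ≤ L → z.im ≤ -M → θ z = 0)
    (hlc : ∀ z ∈ C, ∀ᶠ w in 𝓝 z, θ w = θ z)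
    (htri : ∀ z, a z < t0 ∨ t1 < b z ∨ ∀ᶠ w in 𝓝 z, θ w = θ z)
    (hLa : ∀ z : ℂ, z.re ≤ -L → a z ≤ t0) (hLb : ∀ z : ℂ, L ≤ z.re → t1 ≤ a z)
    (hiso : ∀ θ : ℂ → ℝ, ContDiff ℝ ∞ θ → HasCompactSupport θ →
      (∀ z ∈ C, ∀ᶠ w in 𝓝 z, θ w = θ z) →
      om C (fun z => θ z * max (min (b z) t1 - a z) 0) (fun z => max (a z) t0) = 0)
    (hint : IntegrableOn (wdg (fun z => b z - a z) a) Cᶜ) :
    (t1 - t0) ^ 2 / 2 ≤ ∫ z in Cᶜ, |wdg (fun w => b w - a w) a z| := by
  have hCc : IsClosed C := hC.isClosed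
  have hO : IsOpen Cᶜ := hCc.isOpen_compl
  -- `0 < L`
  have hL : 0 < L := by
    by_contra h
    push Not at h
    have e1 := hLa 0 (by simpa using h)
    have e2 := hLb 0 (by simpa using h)
    linarith
  set c : ℝ := (t1 - t0) ^ 2 / 2 with hc
  -- local Lipschitz
  have lg : LocallyLipschitzOn Cᶜ (gg a t0) := ll_comp (lip_max t0) hal
  have lm : LocallyLipschitzOn Cᶜ (fun w => min (b w) t1) := ll_comp (lip_min t1) hbl
  have lf : LocallyLipschitzOn Cᶜ (ff a b t1) := ll_comp (lip_max 0) (ll_sub lm hal)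
  have lh : LocallyLipschitzOn Cᶜ (fun w => max (t1 - gg a t0 w) 0) :=
    ll_comp (lip_max 0) (ll_sub (ll_const t1) lg)
  have hh : ∀ z, |max (t1 - gg a t0 z) 0| ≤ t1 - t0 := by
    intro z
    rw [abs_of_nonneg (le_max_right _ _)]
    refine max_le ?_ (by linarith)
    have : t0 ≤ gg a t0 z := le_max_right _ _
    linarith
  have lq : LocallyLipschitzOn Cᶜ (qq a t0 t1) := by
    have e1 := ll_comp (h := fun s : ℝ => c - s * (1 / 2)) (K := 1)
      (LipschitzWith.of_dist_le_mul fun x y => by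
        rw [Real.dist_eq, Real.dist_eq]
        have : c - x * (1 / 2) - (c - y * (1 / 2)) = -((1 / 2) * (x - y)) := by ring
        rw [this, abs_neg, abs_mul, abs_of_pos (by norm_num : (0 : ℝ) < 1 / 2)]
        have := abs_nonneg (x - y)
        push_cast
        linarith) (ll_mul lh lh hh hh)
    refine (show qq a t0 t1 = _ from ?_) ▸ e1
    funext z
    simp only [qq]
    ring
  -- the comparison function
  set η : ℝ → ℝ := fun x => c * Real.smoothTransition (x / (2 * L) + 1 / 2) with hη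
  have hηs : ContDiff ℝ ∞ η := by
    have : ContDiff ℝ ∞ (fun x : ℝ => x / (2 * L) + 1 / 2) := by fun_prop
    exact contDiff_const.mul (Real.smoothTransition.contDiff.comp this)
  have hη0 : ∀ x ≤ -L, η x = 0 := by
    intro x hx
    have : x / (2 * L) + 1 / 2 ≤ 0 := by
      rw [div_add_div _ _ (by positivity) (by norm_num)]
      apply div_nonpos_of_nonpos_of_nonneg <;> nlinarith
    rw [hη]; simp only []
    rw [Real.smoothTransition.zero_of_nonpos this, mul_zero]
  have hη1 : ∀ x, L ≤ x → η x = c := by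
    intro x hx
    have : 1 ≤ x / (2 * L) + 1 / 2 := by
      rw [div_add_div _ _ (by positivity) (by norm_num), le_div_iff₀ (by positivity)]
      nlinarith
    rw [hη]; simp only []
    rw [Real.smoothTransition.one_of_one_le this, mul_one]
  have hq0 : ∀ z, a z ≤ t0 → qq a t0 t1 z = 0 := by
    intro z hz
    have : gg a t0 z = t0 := max_eq_right hz
    simp only [qq, this]
    rw [max_eq_left (by linarith)]; ring
  have hq1 : ∀ z, t1 ≤ a z → qq a t0 t1 z = c := by
    intro z hz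
    have : gg a t0 z = a z := max_eq_left (by linarith)
    simp only [qq, this]
    rw [max_eq_right (by linarith)]; ring
  set ηr : ℂ → ℝ := fun z => η z.re with hηr
  have hηrs : ContDiff ℝ ∞ ηr := hηs.comp Complex.reCLM.contDiff
  have hηrd : ∀ z v, fderiv ℝ ηr z v = deriv η z.re * v.re := by
    intro z v
    have e1 : HasDerivAt η (deriv η z.re) z.re := ((hηs.differentiable (by simp)) _).hasDerivAt
    have e2 : HasFDerivAt (fun w : ℂ => w.re) Complex.reCLM z := Complex.reCLM.hasFDerivAt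
    have e3 := (e1.comp_hasFDerivAt z e2).fderiv
    have e4 : fderiv ℝ ηr z = deriv η z.re • Complex.reCLM := e3
    rw [e4]; simp
  set e : ℂ → ℝ := fun z => qq a t0 t1 z - ηr z with he
  have le : LocallyLipschitzOn Cᶜ e := by
    refine ll_sub lq ?_
    intro z _
    obtain ⟨K, t, ht', h⟩ := lip_at_of_contDiff hηrs z
    exact ⟨K, t, mem_nhdsWithin_of_mem_nhds ht', h⟩
  have he0 : ∀ z : ℂ, L ≤ |z.re| → e z = 0 := by
    intro z hz
    rcases le_abs.1 hz with h | h
    · simp only [he, hηr]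
      rw [hq1 z (hLb z h), hη1 _ h, sub_self]
    · have h' : z.re ≤ -L := by linarith
      simp only [he, hηr]
      rw [hq0 z (hLa z h'), hη0 _ h', sub_self]
  -- derivatives of θ vanish
  have hθd : ∀ z, (∀ᶠ w in 𝓝 z, θ w = θ z) → fderiv ℝ θ z = 0 := by
    intro z hz
    have h2 : θ =ᶠ[𝓝 z] fun _ => θ z := hz
    rw [h2.fderiv_eq]; simp
  have hθM : ∀ z : ℂ, |z.re| < L → M < |z.im| → fderiv ℝ θ z = 0 := by
    intro z hz hz'
    apply hθd
    have hre : ∀ᶠ w : ℂ in 𝓝 z, |w.re| < L :=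
      (continuous_abs.comp Complex.continuous_re).continuousAt.eventually (gt_mem_nhds hz)
    rcases lt_abs.1 hz' with h | h
    · have him : ∀ᶠ w : ℂ in 𝓝 z, M < w.im :=
        Complex.continuous_im.continuousAt.eventually (lt_mem_nhds h)
      filter_upwards [hre, him] with w hw hw'
      rw [h1 w hw.le hw'.le, h1 z hz.le h.le]
    · have h' : z.im < -M := by linarith
      have him : ∀ᶠ w : ℂ in 𝓝 z, w.im < -M :=
        Complex.continuous_im.continuousAt.eventually (gt_mem_nhds h')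
      filter_upwards [hre, him] with w hw hw'
      rw [h0 w hw.le hw'.le, h0 z hz.le h'.le]
  have hS : ∀ z ∉ (Icc (-L) L ×ℂ Icc (-M) M), fderiv ℝ θ z = 0 ∨ e z = 0 := by
    intro z hz
    by_cases hz1 : L ≤ |z.re|
    · exact Or.inr (he0 z hz1)
    · left
      push Not at hz1
      refine hθM z hz1 ?_
      by_contra h
      push Not at h
      apply hz
      rw [Complex.mem_reProdIm]
      exact ⟨abs_le.1 hz1.le, abs_le.1 h⟩
  obtain ⟨ie, ze⟩ := stokes hCc hθ hlc le (S := Icc (-L) L ×ℂ Icc (-M) M)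
    (isCompact_Icc.reProdIm isCompact_Icc)
    (fun z hz => by
      rcases hS z hz with h | h
      · unfold gx; rw [h]; simp
      · rw [h, mul_zero])
    (fun z hz => by
      rcases hS z hz with h | h
      · unfold gy; rw [h]; simp
      · rw [h, mul_zero])
  obtain ⟨it, -, zt⟩ := int_top (c := c) hθ hηs h1 h0 hη0 hη1
  -- `∫ dθ ∧ d(η ∘ re) = - c`
  have hwη : ∀ z, wdg θ ηr z = -(gy θ z * deriv η z.re) := by
    intro z
    unfold wdg
    have e1 : gx ηr z = deriv η z.re := by unfold gx; rw [hηrd]; simp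
    have e2 : gy ηr z = 0 := by unfold gy; rw [hηrd]; simp
    rw [e1, e2]; ring
  have iη : IntegrableOn (wdg θ ηr) Cᶜ := by
    have : wdg θ ηr = fun z => -(gy θ z * deriv η z.re) := funext hwη
    rw [this]
    exact it.neg.integrableOn
  have zη : ∫ z in Cᶜ, wdg θ ηr z = -c := by
    simp only [hwη]
    rw [integral_neg, ← zt]
    congr 1
    refine setIntegral_eq_integral_of_forall_compl_eq_zero fun z hz => ?_
    unfold gy
    rw [hθd z (hlc z (not_not.1 hz))]; simp
  -- a.e. differentiability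
  have da := ae_diff hO hal
  have db := ae_diff hO hbl
  have dg := ae_diff hO lg
  have dm := ae_diff hO lm
  have df := ae_diff hO lf
  have dq := ae_diff hO lq
  -- `f dθ ∧ dg`
  have hF3 : ∀ᵐ z ∂(volume.restrict Cᶜ), ff a b t1 z * wdg θ (gg a t0) z
      = wdg θ e z + wdg θ ηr z := by
    filter_upwards [dg, dq] with z hz hz'
    rw [f_wdg hz (htri z)]
    have d1 : DifferentiableAt ℝ ηr z := (hηrs.differentiable (by simp)) z
    unfold wdg
    have e1 : gx e z = gx (qq a t0 t1) z - gx ηr z := gx_sub hz' d1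
    have e2 : gy e z = gy (qq a t0 t1) z - gy ηr z := gy_sub hz' d1
    rw [e1, e2]; ring
  have i3 : IntegrableOn (fun z => ff a b t1 z * wdg θ (gg a t0) z) Cᶜ :=
    (ie.add iη).congr (hF3.mono fun z h => h.symm)
  have z3 : ∫ z in Cᶜ, ff a b t1 z * wdg θ (gg a t0) z = -c := by
    rw [integral_congr_ae hF3, integral_add ie iη, ze, zη, zero_add]
  -- `θ df ∧ dg`
  have hF1 : ∀ᵐ z ∂(volume.restrict Cᶜ), ‖θ z * wdg (ff a b t1) (gg a t0) z‖
      ≤ |wdg (fun w => b w - a w) a z| := by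
    filter_upwards [da, db, dm] with z h2 h3 h4
    rw [Real.norm_eq_abs, abs_mul, abs_of_nonneg (hθ01 z).1]
    refine (mul_le_mul_of_nonneg_right (hθ01 z).2 (abs_nonneg _)).trans ?_
    rw [one_mul]
    exact wdg_le h2 h3 h4
  have i1 : IntegrableOn (fun z => θ z * wdg (ff a b t1) (gg a t0) z) Cᶜ :=
    Integrable.mono' hint.abs
      (hθ.continuous.measurable.mul (measurable_wdg _ _)).aestronglyMeasurable hF1
  -- the cut off
  have hK : IsCompact (C ∪ tsupport (fun z => b z - a z)) := hC.union hab.isCompact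
  obtain ⟨R, hR⟩ := hK.isBounded.subset_ball (0 : ℂ)
  have hR' : C ∪ tsupport (fun z => b z - a z) ⊆ ball (0 : ℂ) (max R 1) :=
    hR.trans (ball_subset_ball (le_max_left _ _))
  set κ : ContDiffBump (0 : ℂ) := ⟨max R 1, max R 1 + 1, by positivity, by linarith⟩ with hκ
  have hκ1 : ∀ z ∈ ball (0 : ℂ) (max R 1), κ z = 1 := fun z hz =>
    κ.one_of_mem_closedBall (ball_subset_closedBall hz)
  have hf0 : ∀ z, z ∉ tsupport (fun z => b z - a z) → ff a b t1 z = 0 := by
    intro z hz
    have e1 : b z - a z = 0 :=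
      image_eq_zero_of_notMem_tsupport (f := fun z => b z - a z) hz
    unfold ff
    apply max_eq_right
    have : min (b z) t1 ≤ b z := min_le_left _ _
    linarith
  have hfeq : (fun z => (θ z * κ z) * max (min (b z) t1 - a z) 0)
      = fun z => θ z * ff a b t1 z := by
    funext z
    show (θ z * κ z) * ff a b t1 z = θ z * ff a b t1 z
    by_cases hz : z ∈ tsupport (fun z => b z - a z)
    · rw [hκ1 z (hR' (Or.inr hz)), mul_one]
    · rw [hf0 z hz]; ring
  have hz2 : om C (fun z => θ z * ff a b t1 z) (gg a t0) = 0 := by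
    have := hiso (fun z => θ z * κ z) (hθ.mul κ.contDiff) (κ.hasCompactSupport.mul_left)
      (fun z hz => by
        have e1 : ∀ᶠ w in 𝓝 z, w ∈ ball (0 : ℂ) (max R 1) :=
          isOpen_ball.mem_nhds (hR' (Or.inl hz))
        filter_upwards [hlc z hz, e1] with w hw hw'
        rw [hw, hκ1 w hw', hκ1 z (hR' (Or.inl hz))])
    rw [hfeq] at this
    exact this
  have hF2 : ∀ᵐ z ∂(volume.restrict Cᶜ), wdg (fun z => θ z * ff a b t1 z) (gg a t0) z
      = θ z * wdg (ff a b t1) (gg a t0) z + ff a b t1 z * wdg θ (gg a t0) z := by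
    filter_upwards [df] with z hz
    have d1 : DifferentiableAt ℝ θ z := (hθ.differentiable (by simp)) z
    unfold wdg
    rw [gx_mul d1 hz, gy_mul d1 hz]; ring
  have hsum : ∫ z in Cᶜ, θ z * wdg (ff a b t1) (gg a t0) z = c := by
    unfold om at hz2
    rw [integral_congr_ae hF2, integral_add i1 i3, z3] at hz2
    linarith
  rw [← hsum]
  refine integral_mono_ae i1 hint.abs ?_
  filter_upwards [hF1] with z hz
  exact (le_abs_self _).trans hz

/-- `|du ∧ dv| ≤ (s |∇u|² + |∇v|²/s)/2` -/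
lemma abs_wdg_le_s (u v : ℂ → ℝ) (z : ℂ) {s : ℝ} (hs : 0 < s) :
    |wdg u v z| ≤ (s * en u z + s⁻¹ * en v z) / 2 := by
  unfold wdg en
  have h1 : s * s⁻¹ = 1 := mul_inv_cancel₀ hs.ne'
  have h0 : 0 < s⁻¹ := inv_pos.2 hs
  have k : ∀ p q : ℝ, p * q ≤ (s * p ^ 2 + s⁻¹ * q ^ 2) / 2 := by
    intro p q
    have : (s * p - q) ^ 2 * s⁻¹ = s * p ^ 2 * (s * s⁻¹) - 2 * p * q * (s * s⁻¹) + s⁻¹ * q ^ 2 := by
      ring
    have h2 : 0 ≤ (s * p - q) ^ 2 * s⁻¹ := by positivity
    rw [this, h1] at h2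
    linarith
  rw [abs_le]; constructor
  · have e1 := k (gx u z) (-gy v z)
    have e2 := k (gy u z) (gx v z)
    nlinarith
  · have e1 := k (gx u z) (gy v z)
    have e2 := k (gy u z) (-gx v z)
    nlinarith

/-- Cauchy-Schwarz for `∫ |du ∧ dv|` -/
lemma int_wdg_sq {S : Set ℂ} {u v : ℂ → ℝ} (hu : IntegrableOn (en u) S)
    (hv : IntegrableOn (en v) S) :
    IntegrableOn (wdg u v) S ∧
    (∫ z in S, |wdg u v z|) ^ 2 ≤ (∫ z in S, en u z) * ∫ z in S, en v z := by
  have hi : IntegrableOn (wdg u v) S :=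
    Integrable.mono' ((hu.add hv).div_const 2) (measurable_wdg _ _).aestronglyMeasurable
      (Eventually.of_forall fun z => abs_wdg_le u v z)
  refine ⟨hi, ?_⟩
  set A := ∫ z in S, en u z with hA
  set B := ∫ z in S, en v z with hB
  set W := ∫ z in S, |wdg u v z| with hW
  have hA0 : 0 ≤ A := integral_nonneg fun z => en_nonneg u z
  have hB0 : 0 ≤ B := integral_nonneg fun z => en_nonneg v z
  have hW0 : 0 ≤ W := integral_nonneg fun z => abs_nonneg _
  have key : ∀ s : ℝ, 0 < s → W ≤ (s * A + s⁻¹ * B) / 2 := by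
    intro s hs
    have h1 : W ≤ ∫ z in S, (s * en u z + s⁻¹ * en v z) / 2 :=
      integral_mono hi.abs (((hu.const_mul s).add (hv.const_mul s⁻¹)).div_const 2)
        fun z => abs_wdg_le_s u v z hs
    rwa [integral_div, integral_add (hu.const_mul s) (hv.const_mul s⁻¹), integral_const_mul,
      integral_const_mul] at h1
  have hq : ∀ s : ℝ, 0 ≤ A * (s * s) + (-2 * W) * s + B := by
    intro s
    rcases lt_or_ge 0 s with hs | hs
    · have h1 := key s hs
      have h2 := mul_le_mul_of_nonneg_left h1 hs.le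
      have h3 : s * ((s * A + s⁻¹ * B) / 2) = (A * (s * s) + (s * s⁻¹) * B) / 2 := by ring
      rw [h3, mul_inv_cancel₀ hs.ne'] at h2
      linarith
    · have h1 : 0 ≤ A * (s * s) := mul_nonneg hA0 (mul_self_nonneg s)
      have h2 : 0 ≤ (-2 * W) * s := by nlinarith
      linarith
  have hd := discrim_le_zero hq
  unfold discrim at hd
  nlinarith

/-- **The uniform Cauchy inequality** (helper61's form). -/
theorem cauchy {C : Set ℂ} (hC : IsCompact C) (hCt : IsTotallyDisconnected C) {a b : ℂ → ℝ}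
    (ha : Continuous a) (hb : Continuous b) (hal : LocallyLipschitzOn Cᶜ a)
    (hbl : LocallyLipschitzOn Cᶜ b) (hab : HasCompactSupport (fun z => b z - a z))
    {t0 t1 L : ℝ} (ht : t0 < t1) {p : ℂ} (hp : a p < t0) (hp' : t1 < b p)
    (hL : ∀ z : ℂ, z.re ≤ -L → z ∈ connectedComponentIn {w | a w < t0} p)
    (hR : ∀ z : ℂ, L ≤ z.re → z ∈ connectedComponentIn {w | t1 < b w} p)
    (hiso : ∀ θ : ℂ → ℝ, ContDiff ℝ ∞ θ → HasCompactSupport θ →
      (∀ z ∈ C, ∀ᶠ w in 𝓝 z, θ w = θ z) →
      om C (fun z => θ z * max (min (b z) t1 - a z) 0) (fun z => max (a z) t0) = 0)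
    (hint : IntegrableOn (wdg (fun z => b z - a z) a) Cᶜ) :
    (t1 - t0) ^ 2 / 2 ≤ ∫ z in Cᶜ, |wdg (fun w => b w - a w) a z| := by
  have hPo : IsOpen {w | a w < t0} := isOpen_lt ha continuous_const
  have hWo : IsOpen {w | t1 < b w} := isOpen_lt continuous_const hb
  -- enlarge `L` so that `a = b` for `|Re z| ≥ L'`
  obtain ⟨R, hR0⟩ := hab.isCompact.isBounded.subset_ball (0 : ℂ)
  set L' := max L (max R 1) with hL'
  have hLL : L ≤ L' := le_max_left _ _
  have hRL : R ≤ L' := (le_max_left _ _).trans (le_max_right _ _)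
  have heq : ∀ z : ℂ, L' ≤ |z.re| → b z = a z := by
    intro z hz
    have : z ∉ tsupport (fun z => b z - a z) := by
      intro h
      have h1 := hR0 h
      rw [mem_ball_zero_iff] at h1
      have h2 := Complex.abs_re_le_norm z
      linarith
    have := image_eq_zero_of_notMem_tsupport (f := fun z => b z - a z) this
    linarith
  obtain ⟨M, θ, -, hθ, hθ01, h1, h0, hlc, hel⟩ :=
    Sep_590.exists_theta (P := connectedComponentIn {w | a w < t0} p)
      (W := connectedComponentIn {w | t1 < b w} p) hC hCt (hPo.connectedComponentIn)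
      (hWo.connectedComponentIn) isPreconnected_connectedComponentIn
      isPreconnected_connectedComponentIn (mem_connectedComponentIn hp)
      (mem_connectedComponentIn hp') (L := L') (fun z hz => hL z (by linarith))
      (fun z hz => hR z (by linarith))
  refine cauchy_aux hC hal hbl hab ht hθ hθ01 h1 h0 hlc ?_ ?_ ?_ hiso hint
  · intro z
    by_cases hz : z ∈ connectedComponentIn {w | a w < t0} p
    · exact Or.inl (connectedComponentIn_subset {w | a w < t0} p hz)
    by_cases hz' : z ∈ connectedComponentIn {w | t1 < b w} p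
    · exact Or.inr (Or.inl (connectedComponentIn_subset {w | t1 < b w} p hz'))
    · exact Or.inr (Or.inr (hel z hz hz'))
  · intro z hz
    have : z ∈ {w | a w < t0} := connectedComponentIn_subset _ _ (hL z (by linarith))
    exact (show a z < t0 from this).le
  · intro z hz
    have h3 : z ∈ {w | t1 < b w} := connectedComponentIn_subset _ _ (hR z (by linarith))
    have h4 : b z = a z := heq z (hz.trans (le_abs_self _))
    have h5 : t1 < b z := h3
    linarith

/-- squared form: `(t1-t0)^4/4 ≤ (∫_{Cᶜ} |∇(b-a)|²) (∫_{Cᶜ ∩ supp(b-a)} |∇a|²)` -/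
theorem cauchy_sq {C : Set ℂ} (hC : IsCompact C) (hCt : IsTotallyDisconnected C) {a b : ℂ → ℝ}
    (ha : Continuous a) (hb : Continuous b) (hal : LocallyLipschitzOn Cᶜ a)
    (hbl : LocallyLipschitzOn Cᶜ b) (hab : HasCompactSupport (fun z => b z - a z))
    {t0 t1 L : ℝ} (ht : t0 < t1) {p : ℂ} (hp : a p < t0) (hp' : t1 < b p)
    (hL : ∀ z : ℂ, z.re ≤ -L → z ∈ connectedComponentIn {w | a w < t0} p)
    (hR : ∀ z : ℂ, L ≤ z.re → z ∈ connectedComponentIn {w | t1 < b w} p)
    (hiso : ∀ θ : ℂ → ℝ, ContDiff ℝ ∞ θ → HasCompactSupport θ →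
      (∀ z ∈ C, ∀ᶠ w in 𝓝 z, θ w = θ z) →
      om C (fun z => θ z * max (min (b z) t1 - a z) 0) (fun z => max (a z) t0) = 0)
    (hEb : IntegrableOn (en (fun z => b z - a z)) Cᶜ)
    (hEa : IntegrableOn (en a) (Cᶜ ∩ tsupport (fun z => b z - a z))) :
    ((t1 - t0) ^ 2 / 2) ^ 2 ≤ (∫ z in Cᶜ, en (fun z => b z - a z) z) *
      ∫ z in Cᶜ ∩ tsupport (fun z => b z - a z), en a z := by
  set T := tsupport (fun z => b z - a z) with hT
  have hCm : MeasurableSet Cᶜ := hC.isClosed.isOpen_compl.measurableSet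
  have hTm : MeasurableSet T := (isClosed_tsupport _).measurableSet
  have h0 : ∀ z ∈ Cᶜ \ (Cᶜ ∩ T), wdg (fun z => b z - a z) a z = 0 := by
    intro z hz
    have hzT : z ∉ T := fun h => hz.2 ⟨hz.1, h⟩
    unfold wdg gx gy
    rw [fderiv_eq_zero_of_notMem_tsupport hzT]; simp
  obtain ⟨i1, s1⟩ := int_wdg_sq (hEb.mono_set inter_subset_left) hEa
  have i2 : IntegrableOn (wdg (fun z => b z - a z) a) Cᶜ :=
    i1.of_forall_sdiff_eq_zero hCm h0
  have e1 : ∫ z in Cᶜ, |wdg (fun w => b w - a w) a z|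
      = ∫ z in Cᶜ ∩ T, |wdg (fun w => b w - a w) a z| :=
    setIntegral_eq_of_subset_of_forall_sdiff_eq_zero hCm inter_subset_left
      (fun z hz => by rw [h0 z hz, abs_zero])
  have h1 := cauchy hC hCt ha hb hal hbl hab ht hp hp' hL hR hiso i2
  rw [e1] at h1
  have h2 : (0 : ℝ) ≤ (t1 - t0) ^ 2 / 2 := by positivity
  refine (pow_le_pow_left₀ h2 h1 2).trans (s1.trans ?_)
  refine mul_le_mul_of_nonneg_right ?_ (integral_nonneg fun z => en_nonneg a z)
  exact setIntegral_mono_set hEb (Eventually.of_forall fun z => en_nonneg _ z)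
    (Eventually.of_forall fun z hz => hz.1)

end
end Crest.Agent.R105.Att1_823
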