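import Crest.Agent.R105.Asm1_987
import Crest.Agent.R105.Att2_823
import Crest.Agent.R105.Mid1_987

/-!
# Row 105, S0139, ATTP: leaf `C4P` of `Asm0_6` (helper987), from `C3P` and 823's `cauchy_sq`
-/

set_option autoImplicit false

open MeasureTheory Set Filter Topology Metric Bornology
open scoped ContDiff NNReal

namespace Crest.Agent.R105.Asm_987

open Crest.Agent.R105.IfB_641 Crest.Agent.R105.Asm_6

/-! ### topology -/

theorem abs_re_le' (z : ℂ) : |z.re| ≤ ‖z‖ := Complex.abs_re_le_norm z
theorem abs_im_le' (z : ℂ) : |z.im| ≤ ‖z‖ := Complex.abs_im_le_norm z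

/-- the half plane minus the open disc is connected -/
theorem preconn_S {r τ σ : ℝ} (hr : 0 < r) (hσ : σ = 1 ∨ σ = -1) :
    IsPreconnected {z : ℂ | r ≤ ‖z‖ ∧ σ * z.re < τ} := by
  set S : Set ℂ := {z : ℂ | r ≤ ‖z‖ ∧ σ * z.re < τ} with hS
  have hσ2 : σ * σ = 1 := by rcases hσ with h | h <;> rw [h] <;> norm_num
  set m : ℝ := min τ (-r) with hm
  set H : Set ℂ := {z : ℂ | σ * z.re < m} with hH
  have hHc : Convex ℝ H := by
    intro x hx y hy a b ha hb hab
    simp only [hH, mem_ofPred_eq] at hx hy ⊢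
    have e : (a • x + b • y).re = a * x.re + b * y.re := by simp
    rw [e]
    have e2 : σ * (a * x.re + b * y.re) = a * (σ * x.re) + b * (σ * y.re) := by ring
    rw [e2]
    have e3 : m = a * m + b * m := by rw [← add_mul, hab, one_mul]
    rw [e3]
    rcases ha.eq_or_lt with h | h
    · have hb1 : b = 1 := by linarith
      subst h; rw [hb1]; linarith
    · have := mul_lt_mul_of_pos_left hx h
      have := mul_le_mul_of_nonneg_left hy.le hb
      linarith
  have hHS : H ⊆ S := by
    intro z hz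
    have h1 : σ * z.re < m := hz
    have h2 : σ * z.re < -r := h1.trans_le (min_le_right _ _)
    refine ⟨?_, h1.trans_le (min_le_left _ _)⟩
    have h3 : |z.re| ≤ ‖z‖ := abs_re_le' z
    rcases hσ with h | h <;> rw [h] at h2
    · have := neg_abs_le z.re; linarith
    · have := le_abs_self z.re; linarith
  set q : ℂ := ⟨σ * (m - 1), 0⟩ with hq
  have hqH : q ∈ H := by
    simp only [hH, mem_ofPred_eq, hq]
    rw [← mul_assoc, hσ2]; linarith
  refine isPreconnected_of_forall q fun z hz => ?_
  -- the vertical direction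
  obtain ⟨ε, hε, hεi⟩ : ∃ ε : ℝ, (ε = 1 ∨ ε = -1) ∧ 0 ≤ ε * z.im := by
    rcases le_total 0 z.im with h | h
    · exact ⟨1, Or.inl rfl, by linarith⟩
    · exact ⟨-1, Or.inr rfl, by linarith⟩
  have hε2 : ε * ε = 1 := by rcases hε with h | h <;> rw [h] <;> norm_num
  set z1 : ℂ := ⟨z.re, z.im + ε * r⟩ with hz1
  set z2 : ℂ := ⟨σ * (m - 1), z.im + ε * r⟩ with hz2
  have hs1 : segment ℝ z z1 ⊆ S := by
    rintro w ⟨a, b, ha, hb, hab, rfl⟩
    have e1 : (a • z + b • z1).re = z.re := by
      simp only [hz1, Complex.add_re, Complex.real_smul, Complex.mul_re, Complex.ofReal_re,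
        Complex.ofReal_im, zero_mul, sub_zero]
      rw [← add_mul, hab, one_mul]
    have e2 : (a • z + b • z1).im = z.im + b * (ε * r) := by
      simp only [hz1, Complex.add_im, Complex.real_smul, Complex.mul_im, Complex.ofReal_re,
        Complex.ofReal_im, zero_mul, add_zero]
      have : a * z.im + b * (z.im + ε * r) = (a + b) * z.im + b * (ε * r) := by ring
      rw [this, hab, one_mul]
    refine ⟨?_, by rw [e1]; exact hz.2⟩
    refine hz.1.trans ?_
    rw [Complex.norm_def, Complex.norm_def]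
    apply Real.sqrt_le_sqrt
    rw [Complex.normSq_apply, Complex.normSq_apply, e1, e2]
    have h3 : 0 ≤ 2 * b * r * (ε * z.im) := by positivity
    have h4 : (b * (ε * r)) * (b * (ε * r)) = (b * r) * (b * r) := by
      calc (b * (ε * r)) * (b * (ε * r)) = (ε * ε) * ((b * r) * (b * r)) := by ring
        _ = _ := by rw [hε2, one_mul]
    nlinarith [mul_self_nonneg (b * r)]
  have hs2 : segment ℝ z1 z2 ⊆ S := by
    rintro w ⟨a, b, ha, hb, hab, rfl⟩
    have e2 : (a • z1 + b • z2).im = z.im + ε * r := by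
      simp only [hz1, hz2, Complex.add_im, Complex.real_smul, Complex.mul_im, Complex.ofReal_re,
        Complex.ofReal_im, zero_mul, add_zero]
      rw [← add_mul, hab, one_mul]
    have e1 : (a • z1 + b • z2).re = a * z.re + b * (σ * (m - 1)) := by
      simp only [hz1, hz2, Complex.add_re, Complex.real_smul, Complex.mul_re, Complex.ofReal_re,
        Complex.ofReal_im, zero_mul, sub_zero]
    constructor
    · refine le_trans ?_ (abs_im_le' _)
      rw [e2]
      have h5 : ε * (z.im + ε * r) = ε * z.im + r := by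
        rw [mul_add, ← mul_assoc, hε2, one_mul]
      have h6 : r ≤ ε * (z.im + ε * r) := by rw [h5]; linarith
      refine h6.trans ?_
      rcases hε with h | h <;> rw [h]
      · rw [one_mul]; exact le_abs_self _
      · rw [neg_one_mul]; exact neg_le_abs _
    · rw [e1]
      have e3 : σ * (a * z.re + b * (σ * (m - 1))) = a * (σ * z.re) + b * (m - 1) := by
        calc σ * (a * z.re + b * (σ * (m - 1))) = a * (σ * z.re) + (σ * σ) * (b * (m - 1)) := by
              ring
          _ = _ := by rw [hσ2, one_mul]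
      rw [e3]
      have h7 : m - 1 < τ := by
        have := min_le_left τ (-r); linarith
      have h8 : τ = a * τ + b * τ := by rw [← add_mul, hab, one_mul]
      rw [h8]
      have hz2' := hz.2
      rcases ha.eq_or_lt with h | h
      · have hb1 : b = 1 := by linarith
        subst h; rw [hb1]; linarith
      · have := mul_lt_mul_of_pos_left hz2' h
        have := mul_le_mul_of_nonneg_left h7.le hb
        linarith
  have hz2H : z2 ∈ H := by
    simp only [hH, mem_ofPred_eq, hz2]
    rw [← mul_assoc, hσ2]; linarith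
  refine ⟨H ∪ (segment ℝ z1 z2 ∪ segment ℝ z z1), union_subset hHS (union_subset hs2 hs1),
    Or.inl hqH, Or.inr (Or.inr (left_mem_segment ℝ z z1)), ?_⟩
  refine hHc.isPreconnected.union z2 hz2H (Or.inl (right_mem_segment ℝ z1 z2)) ?_
  exact (convex_segment z1 z2).isPreconnected.union z1 (left_mem_segment ℝ z1 z2)
    (right_mem_segment ℝ z z1) (convex_segment z z1).isPreconnected

/-- the far part of a level set is reached from `p` -/
theorem far {r τ σ : ℝ} (hr : 0 < r) (hσ : σ = 1 ∨ σ = -1) {O A : Set ℂ} {p : ℂ} (hp : ‖p‖ ≤ r)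
    (hO : ¬ IsBounded (connectedComponentIn O p)) (h1 : ∀ w ∈ O, ‖w‖ ≤ r → w ∈ A)
    (h2 : ∀ w : ℂ, r ≤ ‖w‖ → σ * w.re < τ → w ∈ A)
    (h3 : ∀ w ∈ O, ‖w‖ = r → σ * w.re < τ) :
    ∀ z : ℂ, r ≤ ‖z‖ → σ * z.re < τ → z ∈ connectedComponentIn A p := by
  set Ω := connectedComponentIn O p with hΩ
  set S : Set ℂ := {z : ℂ | r ≤ ‖z‖ ∧ σ * z.re < τ} with hS
  set T : Set ℂ := (Ω ∩ closedBall 0 r) ∪ S with hT
  have hΩO : Ω ⊆ O := connectedComponentIn_subset _ _
  have hpΩ : p ∈ Ω := by
    by_contra h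
    have h4 : Ω = ∅ := by
      rw [hΩ]
      refine connectedComponentIn_eq_empty fun hpO => h ?_
      exact mem_connectedComponentIn hpO
    rw [h4] at hO
    exact hO isBounded_empty
  have hΩout : ∃ x ∈ Ω, r < ‖x‖ := by
    by_contra h
    push Not at h
    exact hO (isBounded_closedBall.subset fun x hx => mem_closedBall_zero_iff.2 (h x hx))
  have hSc : IsPreconnected S := preconn_S hr hσ
  have hTc : IsPreconnected T := by
    intro u v hu hv hTuv hTu hTv
    by_contra hno
    rw [not_nonempty_iff_eq_empty] at hno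
    -- symmetric statement
    have key : ∀ u v : Set ℂ, IsOpen u → IsOpen v → T ⊆ u ∪ v → (T ∩ v).Nonempty →
        T ∩ (u ∩ v) = ∅ → S ⊆ u → False := by
      intro u v hu hv hTuv hTv hno hSu
      obtain ⟨x, hxT, hxv⟩ := hTv
      have hxu : x ∉ u := fun h => by
        have : x ∈ T ∩ (u ∩ v) := ⟨hxT, h, hxv⟩
        rw [hno] at this; exact this
      have hxΩ : x ∈ Ω ∩ closedBall 0 r := by
        rcases hxT with h | h
        · exact h
        · exact absurd (hSu h) hxu
      have hxr : ‖x‖ ≤ r := mem_closedBall_zero_iff.1 hxΩ.2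
      have hΩc : IsPreconnected Ω := isPreconnected_connectedComponentIn
      have c1 : Ω ⊆ (u ∪ (closedBall 0 r)ᶜ) ∪ (v ∩ ball 0 r) := by
        intro y hy
        rcases lt_trichotomy ‖y‖ r with h | h | h
        · rcases hTuv (Or.inl ⟨hy, mem_closedBall_zero_iff.2 h.le⟩) with h' | h'
          · exact Or.inl (Or.inl h')
          · exact Or.inr ⟨h', mem_ball_zero_iff.2 h⟩
        · exact Or.inl (Or.inl (hSu ⟨h.ge, h3 y (hΩO hy) h⟩))
        · refine Or.inl (Or.inr ?_)
          rw [mem_compl_iff, mem_closedBall_zero_iff, not_le]; exact h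
      have c2 : (Ω ∩ (u ∪ (closedBall 0 r)ᶜ)).Nonempty := by
        obtain ⟨y, hy, hyr⟩ := hΩout
        refine ⟨y, hy, Or.inr ?_⟩
        rw [mem_compl_iff, mem_closedBall_zero_iff, not_le]; exact hyr
      have c3 : (Ω ∩ (v ∩ ball 0 r)).Nonempty := by
        refine ⟨x, hxΩ.1, hxv, mem_ball_zero_iff.2 (lt_of_le_of_ne hxr fun h => hxu ?_)⟩
        exact hSu ⟨h.ge, h3 x (hΩO hxΩ.1) h⟩
      obtain ⟨y, hyΩ, hyu, hyv⟩ := hΩc (u ∪ (closedBall 0 r)ᶜ) (v ∩ ball 0 r)
        (hu.union isClosed_closedBall.isOpen_compl) (hv.inter isOpen_ball) c1 c2 c3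
      have hyr : ‖y‖ < r := mem_ball_zero_iff.1 hyv.2
      have hyu' : y ∈ u := by
        rcases hyu with h | h
        · exact h
        · exact absurd (mem_closedBall_zero_iff.2 hyr.le) h
      have : y ∈ T ∩ (u ∩ v) := ⟨Or.inl ⟨hyΩ, mem_closedBall_zero_iff.2 hyr.le⟩, hyu', hyv.1⟩
      rw [hno] at this; exact this
    have hSuv : S ⊆ u ∪ v := subset_union_right.trans hTuv
    have hSno : S ∩ (u ∩ v) = ∅ := by
      rw [← subset_empty_iff, ← hno]
      exact inter_subset_inter_left _ subset_union_right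
    rcases isPreconnected_iff_subset_of_disjoint.1 hSc u v hu hv hSuv hSno with h | h
    · exact key u v hu hv hTuv hTv hno h
    · refine key v u hv hu ?_ hTu ?_ h
      · rw [union_comm]; exact hTuv
      · rw [inter_comm v u]; exact hno
  have hTA : T ⊆ A := by
    rintro x (hx | hx)
    · exact h1 x (hΩO hx.1) (mem_closedBall_zero_iff.1 hx.2)
    · exact h2 x hx.1 hx.2
  intro z hz1 hz2
  exact hTc.subset_connectedComponentIn (Or.inl ⟨hpΩ, mem_closedBall_zero_iff.2 hp⟩) hTA
    (Or.inr ⟨hz1, hz2⟩)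

end Crest.Agent.R105.Asm_987
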