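import Crest.Agent.R105.Asm2_987

/-!
# Row 105, S0139, ATTP: leaf `C4P` of `Asm0_6` (helper987), part 2: the comparison functions
-/

set_option autoImplicit false

open MeasureTheory Set Filter Topology Metric Bornology
open scoped ContDiff NNReal

namespace Crest.Agent.R105.Asm_987

open Crest.Agent.R105.IfB_641 Crest.Agent.R105.Asm_6

theorem dot_self (u : ℂ → ℝ) : dot u u = en u := by
  funext z; unfold Bd_775.dot Bd_775.en; ring

theorem di_self (C : Set ℂ) (u : ℂ → ℝ) : di C u u = ∫ z in Cᶜ, en u z := by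
  unfold di; rw [dot_self]

theorem gx_sub_const (u : ℂ → ℝ) (c : ℝ) : gx (fun z => u z - c) = gx u := by
  funext z; unfold Bd_775.gx; rw [fderiv_sub_const]
theorem gy_sub_const (u : ℂ → ℝ) (c : ℝ) : gy (fun z => u z - c) = gy u := by
  funext z; unfold Bd_775.gy; rw [fderiv_sub_const]

theorem en_sub_const (u : ℂ → ℝ) (c : ℝ) : en (fun z => u z - c) = en u := by
  funext z; unfold Bd_775.en; rw [gx_sub_const, gy_sub_const]

theorem d_sub_const {C : Set ℂ} {u : ℂ → ℝ} (h : D C u) (c : ℝ) : D C (fun z => u z - c) := by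
  obtain ⟨M, hM⟩ := h.bdd
  refine ⟨h.cont.sub continuous_const, ⟨M + |c|, fun z => ?_⟩, Bd_775.ll_sub h.loc
    (Bd_775.ll_const c), ?_⟩
  · exact (abs_sub _ _).trans (by linarith [hM z])
  · rw [en_sub_const]; exact h.fin

/-- hypotheses on the background -/
structure Bg (C : Set ℂ) (x0 η : ℂ → ℝ) (R0 R1 : ℝ) : Prop where
  td : TD C
  hX : X0 C x0
  R0pos : 0 < R0
  hR : R0 < R1
  hCR : C ⊆ ball 0 R0
  far : ∀ z : ℂ, R0 ≤ ‖z‖ → x0 z = z.re
  ηs : ContDiff ℝ ∞ η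
  ηc : HasCompactSupport η
  η1 : ∀ z : ℂ, ‖z‖ ≤ R1 → ∀ᶠ w in 𝓝 z, η w = 1
  η01 : ∀ z, η z ∈ Icc (0 : ℝ) 1

section
variable {C : Set ℂ} {x0 η φ φ' : ℂ → ℝ} {R0 R1 r δ1 δ2 : ℝ}

/-- `a = x0 + Kl (φ - φ(r))` -/
noncomputable def fa (x0 : ℂ → ℝ) (r δ1 : ℝ) (φ : ℂ → ℝ) (z : ℂ) : ℝ :=
  x0 z + Kl r δ1 (fun w => φ w - φ r) z

/-- `b - a` -/
noncomputable def fd (η : ℂ → ℝ) (r δ2 : ℝ) (φ φ' : ℂ → ℝ) (z : ℂ) : ℝ :=
  η z * Kl r δ2 (fun w => (φ' w - φ w) - (φ' r - φ r)) z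

/-- `b` -/
noncomputable def fb (x0 η : ℂ → ℝ) (r δ1 δ2 : ℝ) (φ φ' : ℂ → ℝ) (z : ℂ) : ℝ :=
  fa x0 r δ1 φ z + fd η r δ2 φ φ' z

theorem ηlc (B : Bg C x0 η R0 R1) : LC C η := by
  refine Mid_987.lc_of_smooth B.ηs B.ηc fun z hz => ?_
  have h1 : ‖z‖ ≤ R1 := by
    have := mem_ball_zero_iff.1 (B.hCR hz)
    linarith [B.hR]
  have h2 := B.η1 z h1
  filter_upwards [h2] with w hw
  rw [hw, h2.self_of_nhds]

theorem η_one (B : Bg C x0 η R0 R1) {z : ℂ} (hz : ‖z‖ ≤ R1) : η z = 1 :=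
  (B.η1 z hz).self_of_nhds

theorem fa_in {z : ℂ} (hz : ‖z‖ ≤ r) : fa x0 r δ1 φ z = x0 z + φ z - φ r := by
  unfold fa Kl; rw [if_pos hz]; ring

theorem fb_in (B : Bg C x0 η R0 R1) (hr : r < R1) {z : ℂ} (hz : ‖z‖ ≤ r) :
    fb x0 η r δ1 δ2 φ φ' z = x0 z + φ' z - φ' r := by
  unfold fb fd
  rw [fa_in hz, η_one B (hz.trans hr.le)]
  unfold Kl; rw [if_pos hz]; ring

/-- bundle of facts on the clamped functions -/
theorem kl_facts (B : Bg C x0 η R0 R1) (hr : R0 < r) {δ : ℝ} (hδ : 0 < δ) {ψ : ℂ → ℝ}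
    (hψ : D C ψ) (hs : ∀ z, ‖z‖ = r → |ψ z| ≤ δ) :
    D C (Kl r δ ψ) ∧ LC C (fun z => Kl r δ ψ z - ψ z) ∧
      (∀ z, r ≤ ‖z‖ → |Kl r δ ψ z| ≤ δ) ∧ di C (Kl r δ ψ) (Kl r δ ψ) ≤ di C ψ ψ :=
  c4aP C B.td.cpt r δ hδ (B.hCR.trans (ball_subset_ball hr.le)) ψ hψ hs

theorem fa_far (B : Bg C x0 η R0 R1) (hr : R0 < r)
    (k3 : ∀ z, r ≤ ‖z‖ → |Kl r δ1 (fun w => φ w - φ r) z| ≤ δ1) {z : ℂ} (hz : r ≤ ‖z‖) :
    |fa x0 r δ1 φ z - z.re| ≤ δ1 := by
  unfold fa
  rw [B.far z (hr.le.trans hz), add_sub_cancel_left]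
  exact k3 z hz

theorem fd_far (B : Bg C x0 η R0 R1)
    (k3 : ∀ z, r ≤ ‖z‖ → |Kl r δ2 (fun w => (φ' w - φ w) - (φ' r - φ r)) z| ≤ δ2)
    {z : ℂ} (hz : r ≤ ‖z‖) : |fd η r δ2 φ φ' z| ≤ δ2 := by
  unfold fd
  obtain ⟨h0, h1⟩ := B.η01 z
  rw [abs_mul, abs_of_nonneg h0]
  have := k3 z hz
  have h2 := abs_nonneg (Kl r δ2 (fun w => (φ' w - φ w) - (φ' r - φ r)) z)
  nlinarith

/-- energy of `b - a` -/
theorem fd_energy (B : Bg C x0 η R0 R1) (hr1 : r < R1) {v : ℂ → ℝ}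
    (hv : D C v) (k3 : ∀ z, r ≤ ‖z‖ → |v z| ≤ δ2) :
    IntegrableOn (en (fun z => η z * v z)) Cᶜ ∧
      ∫ z in Cᶜ, en (fun z => η z * v z) z ≤ 2 * di C v v + 2 * δ2 ^ 2 * ∫ z in Cᶜ, en η z := by
  have hηf : IntegrableOn (en η) Cᶜ := (ηlc B).fin.integrableOn
  have hdiff := hv.q.ae_diff B.td.cpt.isClosed
  have hpt : ∀ᵐ z ∂(volume.restrict Cᶜ), en (fun z => η z * v z) z ≤
      2 * en v z + 2 * δ2 ^ 2 * en η z := by
    filter_upwards [hdiff] with z hz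
    have hηd : DifferentiableAt ℝ η z := (B.ηs.differentiable (by simp)).differentiableAt
    obtain ⟨h0, h1⟩ := B.η01 z
    have e1 : en (fun z => η z * v z) z ≤ 2 * (η z) ^ 2 * en v z + 2 * (v z) ^ 2 * en η z := by
      unfold Bd_775.en
      rw [Bd_775.gx_mul hηd hz, Bd_775.gy_mul hηd hz]
      nlinarith [sq_nonneg (η z * gx v z - v z * gx η z), sq_nonneg (η z * gy v z - v z * gy η z)]
    have e2 : (η z) ^ 2 * en v z ≤ en v z := by
      have : (η z) ^ 2 ≤ 1 := by nlinarith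
      have := mul_le_mul_of_nonneg_right this (Bd_775.en_nonneg v z)
      linarith
    have e3 : (v z) ^ 2 * en η z ≤ δ2 ^ 2 * en η z := by
      rcases le_or_gt ‖z‖ R1 with h | h
      · have h3 : en η z = 0 := by
          rw [Bd_775.en_eq_of_eventuallyEq (B.η1 z h : η =ᶠ[𝓝 z] fun _ => 1), Bd_775.en_const]
        rw [h3]; simp
      · refine mul_le_mul_of_nonneg_right ?_ (Bd_775.en_nonneg η z)
        rw [← sq_abs (v z)]
        exact pow_le_pow_left₀ (abs_nonneg _) (k3 z (hr1.le.trans h.le)) 2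
    linarith
  have hi : IntegrableOn (fun z => 2 * en v z + 2 * δ2 ^ 2 * en η z) Cᶜ :=
    (hv.fin.const_mul 2).add (hηf.const_mul (2 * δ2 ^ 2))
  have hI : IntegrableOn (en (fun z => η z * v z)) Cᶜ := by
    refine hi.mono' (Bd_775.measurable_en _).aestronglyMeasurable ?_
    filter_upwards [hpt] with z hz
    rw [Real.norm_of_nonneg (Bd_775.en_nonneg _ _)]; exact hz
  refine ⟨hI, (integral_mono_ae hI hi hpt).trans (le_of_eq ?_)⟩
  rw [integral_add (hv.fin.const_mul 2) (hηf.const_mul (2 * δ2 ^ 2)), integral_const_mul,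
    integral_const_mul, di_self]

theorem en_x0_int (B : Bg C x0 η R0 R1) : IntegrableOn (en x0) (tsupport η) := by
  have h1 : Continuous (en x0) := by
    have : en x0 = fun z => gx x0 z ^ 2 + gy x0 z ^ 2 := rfl
    rw [this]
    exact ((Mid_987.contDiff_gx B.hX.sm).continuous.pow 2).add
      ((Mid_987.contDiff_gy B.hX.sm).continuous.pow 2)
  exact h1.continuousOn.integrableOn_compact B.ηc.isCompact

/-- energy of `a` on `supp (b - a)` -/
theorem fa_energy (B : Bg C x0 η R0 R1) {v : ℂ → ℝ} (hv : D C v) {T : Set ℂ}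
    (hTη : T ⊆ tsupport η) :
    IntegrableOn (en (fun z => x0 z + v z)) (Cᶜ ∩ T) ∧
      ∫ z in Cᶜ ∩ T, en (fun z => x0 z + v z) z ≤
        2 * (∫ z in tsupport η, en x0 z) + 2 * di C v v := by
  have hx := en_x0_int B
  have hx' : IntegrableOn (en x0) (Cᶜ ∩ T) := hx.mono_set (inter_subset_right.trans hTη)
  have hv' : IntegrableOn (en v) (Cᶜ ∩ T) := hv.fin.mono_set inter_subset_left
  have hdiff := ae_mono (Measure.restrict_mono (inter_subset_left (s := Cᶜ) (t := T)) le_rfl)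
    (hv.q.ae_diff B.td.cpt.isClosed)
  have hpt : ∀ᵐ z ∂(volume.restrict (Cᶜ ∩ T)), en (fun z => x0 z + v z) z ≤
      2 * en x0 z + 2 * en v z := by
    filter_upwards [hdiff] with z hz
    exact Bd_775.en_add_le (B.hX.sm.differentiable (by simp)).differentiableAt hz
  have hi : IntegrableOn (fun z => 2 * en x0 z + 2 * en v z) (Cᶜ ∩ T) :=
    (hx'.const_mul 2).add (hv'.const_mul 2)
  have hI : IntegrableOn (en (fun z => x0 z + v z)) (Cᶜ ∩ T) := by
    refine hi.mono' (Bd_775.measurable_en _).aestronglyMeasurable ?_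
    filter_upwards [hpt] with z hz
    rw [Real.norm_of_nonneg (Bd_775.en_nonneg _ _)]; exact hz
  refine ⟨hI, (integral_mono_ae hI hi hpt).trans ?_⟩
  rw [integral_add (hx'.const_mul 2) (hv'.const_mul 2), integral_const_mul,
    integral_const_mul, di_self]
  have e1 : ∫ z in Cᶜ ∩ T, en x0 z ≤ ∫ z in tsupport η, en x0 z :=
    setIntegral_mono_set hx (Eventually.of_forall fun z => Bd_775.en_nonneg _ _)
      (Eventually.of_forall fun z hz => hTη hz.2)
  have e2 : ∫ z in Cᶜ ∩ T, en v z ≤ ∫ z in Cᶜ, en v z :=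
    setIntegral_mono_set hv.fin (Eventually.of_forall fun z => Bd_775.en_nonneg _ _)
      (Eventually.of_forall fun z hz => hz.1)
  linarith

/-- isotropy of the test pair -/
theorem iso_pair (B : Bg C x0 η R0 R1) {S : Set (ℂ → ℝ)} (hiso : Iso C S) {v w : ℂ → ℝ}
    (hv : Gen C S v) (hw : Gen C S w) (t0 t1 : ℝ) {θ : ℂ → ℝ} (hθ : ContDiff ℝ ∞ θ)
    (hθc : HasCompactSupport θ) (hθl : ∀ z ∈ C, ∀ᶠ w in 𝓝 z, θ w = θ z) :
    om C (fun z => θ z * max (min ((x0 z + v z) + η z * w z) t1 - (x0 z + v z)) 0)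
      (fun z => max (x0 z + v z) t0) = 0 := by
  obtain ⟨κ, hκ, hκc, -, hκ1, -⟩ := Mid_987.exists_cut_in
    (hθc.isCompact.union (isCompact_closedBall (0 : ℂ) R1)) isOpen_univ (subset_univ _)
  have hx : LC C (fun z => κ z * x0 z) := by
    refine Mid_987.lc_of_smooth (hκ.mul B.hX.sm) hκc.mul_right fun z hz => ?_
    have h2 : x0 =ᶠ[𝓝 z] fun _ => (0 : ℝ) :=
      notMem_tsupport_iff_eventuallyEq.1 fun h' => (B.hX.zero h') hz
    filter_upwards [h2] with w hw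
    rw [hw, h2.self_of_nhds]; ring
  have g1 : Gen C S (fun z => κ z * x0 z + v z) := Gen.add (Gen.lc hx) hv
  have g2 : Gen C S (fun z => (κ z * x0 z + v z) + η z * w z) :=
    Gen.add g1 (Gen.mul (Gen.lc (ηlc B)) hw)
  have hmax : ∀ c : ℝ, LipschitzWith 1 (fun s : ℝ => max s c) := fun c =>
    LipschitzWith.id.max_const c
  have hmin : ∀ c : ℝ, LipschitzWith 1 (fun s : ℝ => min s c) := fun c =>
    LipschitzWith.id.min_const c
  have g3 : Gen C S (fun z => θ z * max (min ((κ z * x0 z + v z) + η z * w z) t1 -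
      (κ z * x0 z + v z)) 0) :=
    Gen.mul (Gen.lc (Mid_987.lc_of_smooth hθ hθc hθl))
      (Gen.comp (hmax 0) (Gen.sub (Gen.comp (hmin t1) g2) g1))
  have g4 : Gen C S (fun z => max (κ z * x0 z + v z) t0) := Gen.comp (hmax t0) g1
  refine Eq.trans ?_ (hiso _ _ g3 g4)
  refine setIntegral_congr_fun B.td.cpt.isClosed.isOpen_compl.measurableSet fun z _ => ?_
  by_cases hz : z ∈ tsupport θ
  · refine Bd_775.wdg_eq_of_eventuallyEq ?_ ?_
    · filter_upwards [hκ1 z (Or.inl hz)] with y hy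
      rw [hy, one_mul]
    · filter_upwards [hκ1 z (Or.inl hz)] with y hy
      rw [hy, one_mul]
  · have h3 : θ =ᶠ[𝓝 z] fun _ => (0 : ℝ) := notMem_tsupport_iff_eventuallyEq.1 hz
    have h4 : ∀ k : ℂ → ℝ, (fun z => θ z * k z) =ᶠ[𝓝 z] fun _ => (0 : ℝ) := fun k => by
      filter_upwards [h3] with y hy
      rw [hy, zero_mul]
    have h5 : ∀ k l : ℂ → ℝ, Bd_775.wdg (fun z => θ z * k z) l z = 0 := fun k l => by
      unfold Bd_775.wdg
      rw [Bd_775.gx_eq_of_eventuallyEq (h4 k), Bd_775.gy_eq_of_eventuallyEq (h4 k),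
        Bd_775.gx_const, Bd_775.gy_const]
      ring
    change Bd_775.wdg _ _ z = Bd_775.wdg _ _ z
    rw [h5, h5]

/-- **the one-sided estimate on a good circle** -/
theorem core (B : Bg C x0 η R0 R1) (hr : R0 < r) (hr1 : r < R1) {S : Set (ℂ → ℝ)}
    (hS : ∀ s ∈ S, D C s) (hiso : Iso C S) {h E δ : ℝ} (hδ1 : 0 < δ1) (hδ1h : δ1 ≤ h / 16)
    (hδ2 : 0 < δ2) (hδ2h : δ2 ≤ h / 16) (hφ : Gen C S φ) (hφ' : Gen C S φ')
    (hM : Mn (fun z => x0 z + φ z) (h / 16)) (hM' : Mn (fun z => x0 z + φ' z) (h / 16))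
    (o1 : ∀ z w : ℂ, ‖z‖ = r → ‖w‖ = r → |φ z - φ w| ≤ δ1)
    (o1' : ∀ z w : ℂ, ‖z‖ = r → ‖w‖ = r → |φ' z - φ' w| ≤ δ1)
    (o2 : ∀ z w : ℂ, ‖z‖ = r → ‖w‖ = r → |(φ' z - φ z) - (φ' w - φ w)| ≤ δ2)
    (hE : di C φ φ ≤ E) (hd : di C (fun z => φ' z - φ z) (fun z => φ' z - φ z) ≤ δ)
    (hsmall : (2 * δ + 2 * δ2 ^ 2 * ∫ z in Cᶜ, en η z) *
      (2 * (∫ z in tsupport η, en x0 z) + 2 * E) < ((h / 16) ^ 2 / 2) ^ 2)
    {p : ℂ} (hp : ‖p‖ ≤ r) : (φ' p - φ p) - (φ' r - φ r) ≤ h / 2 := by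
  by_contra hcon
  push Not at hcon
  have hr0 : 0 < r := B.R0pos.trans hr
  have hrn : ‖(r : ℂ)‖ = r := by rw [Complex.norm_real, Real.norm_of_nonneg hr0.le]
  have hCc := B.td.cpt.isClosed
  have hcg : ∀ s ∈ S, Continuous s := fun s hs => (hS s hs).cont
  have hqg : ∀ s ∈ S, Q C s := fun s hs => (hS s hs).q
  have dφ : D C φ := (Gen.q hCc hqg hφ).d (Mid_987.Gen.cont hcg hφ)
  have dφ' : D C φ' := (Gen.q hCc hqg hφ').d (Mid_987.Gen.cont hcg hφ')
  have gd : Gen C S (fun z => φ' z - φ z) := Gen.sub hφ' hφ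
  have dd : D C (fun z => φ' z - φ z) := (Gen.q hCc hqg gd).d (Mid_987.Gen.cont hcg gd)
  obtain ⟨k1, k2, k3, k4⟩ := kl_facts B hr hδ1 (d_sub_const dφ (φ r)) (fun z hz => o1 z r hz hrn)
  obtain ⟨l1, l2, l3, l4⟩ := kl_facts B hr hδ2 (d_sub_const dd (φ' r - φ r))
    (fun z hz => o2 z r hz hrn)
  set v : ℂ → ℝ := Kl r δ1 (fun z => φ z - φ r) with hv
  set w : ℂ → ℝ := Kl r δ2 (fun z => (φ' z - φ z) - (φ' r - φ r)) with hw
  have hvE : di C v v ≤ E := by
    refine k4.trans ?_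
    rw [di_self, en_sub_const, ← di_self]; exact hE
  have hwE : di C w w ≤ δ := by
    refine l4.trans ?_
    rw [di_self, en_sub_const, ← di_self]; exact hd
  have gv : Gen C S v := by
    have h1 := Gen.add (Gen.sub hφ (Gen.const (φ r))) (Gen.lc k2)
    convert h1 using 2
    ring
  have gw : Gen C S w := by
    have h1 := Gen.add (Gen.sub gd (Gen.const (φ' r - φ r))) (Gen.lc l2)
    convert h1 using 2
    ring
  -- the functions
  set a : ℂ → ℝ := fun z => x0 z + v z with ha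
  set b : ℂ → ℝ := fun z => (x0 z + v z) + η z * w z with hb
  have a_in : ∀ z : ℂ, ‖z‖ ≤ r → a z = x0 z + φ z - φ r := fun z hz => by
    simp only [ha, hv, Kl, if_pos hz]; ring
  have b_in : ∀ z : ℂ, ‖z‖ ≤ r → b z = x0 z + φ' z - φ' r := fun z hz => by
    simp only [hb, hv, hw, Kl, if_pos hz, η_one B (hz.trans hr1.le)]; ring
  have a_far : ∀ z : ℂ, r ≤ ‖z‖ → |a z - z.re| ≤ δ1 := fun z hz => by
    simp only [ha]
    rw [B.far z (hr.le.trans hz), add_sub_cancel_left]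
    exact k3 z hz
  have d_far : ∀ z : ℂ, r ≤ ‖z‖ → |η z * w z| ≤ δ2 := fun z hz => by
    obtain ⟨h0, h1⟩ := B.η01 z
    rw [abs_mul, abs_of_nonneg h0]
    have := l3 z hz
    have h2 := abs_nonneg (w z)
    nlinarith
  have hac : Continuous a := B.hX.sm.continuous.add k1.cont
  have hbc : Continuous b := hac.add (B.ηs.continuous.mul l1.cont)
  have hba : (fun z => b z - a z) = fun z => η z * w z := by
    funext z; simp only [hb, ha]; ring
  have hsupp : HasCompactSupport (fun z => b z - a z) := by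
    rw [hba]; exact B.ηc.mul_right
  have hal : LocallyLipschitzOn Cᶜ a :=
    Bd_775.ll_add (Mid_987.ll_on (Mid_987.ll_smooth B.hX.sm) _) k1.loc
  have hbl : LocallyLipschitzOn Cᶜ b := by
    refine Bd_775.ll_add hal ?_
    exact ((ηlc B).q.mul hCc l1.q).loc
  -- levels
  set t0 : ℝ := a p + 3 * (h / 16) with ht0
  set t1 : ℝ := b p - 4 * (h / 16) with ht1
  have hh : 0 < h / 16 := hδ1.trans_le hδ1h
  have hgap : h / 16 < t1 - t0 := by
    rw [ht1, ht0, a_in p hp, b_in p hp]; linarith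
  -- left
  have hL : ∀ z : ℂ, r ≤ ‖z‖ → 1 * z.re < a p + h / 16 + δ1 →
      z ∈ connectedComponentIn {y | a y < t0} p := by
    refine far hr0 (Or.inl rfl) hp (hM p).1 ?_ ?_ ?_
    · intro y hy hyr
      have h1 : x0 y + φ y < x0 p + φ p + h / 16 := hy
      rw [mem_ofPred_eq, ht0, a_in y hyr, a_in p hp]; linarith
    · intro y hy hy2
      have h1 := (abs_le.1 (a_far y hy)).2
      rw [mem_ofPred_eq, ht0]; linarith
    · intro y hy hyr
      have h1 : x0 y + φ y < x0 p + φ p + h / 16 := hy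
      have h2 := (abs_le.1 (a_far y hyr.ge)).1
      have h3 := a_in y hyr.le
      have h4 := a_in p hp
      rw [one_mul]; linarith
  -- right
  have hR : ∀ z : ℂ, r ≤ ‖z‖ → (-1) * z.re < -(b p - h / 16 - δ1) →
      z ∈ connectedComponentIn {y | t1 < b y} p := by
    refine far hr0 (Or.inr rfl) hp (hM' p).2 ?_ ?_ ?_
    · intro y hy hyr
      have h1 : x0 p + φ' p - h / 16 < x0 y + φ' y := hy
      rw [mem_ofPred_eq, ht1, b_in y hyr, b_in p hp]; linarith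
    · intro y hy hy2
      have h1 := (abs_le.1 (a_far y hy)).1
      have h2 := (abs_le.1 (d_far y hy)).1
      have h3 : b y = a y + η y * w y := rfl
      rw [mem_ofPred_eq, ht1]; linarith
    · intro y hy hyr
      have h1 : x0 p + φ' p - h / 16 < x0 y + φ' y := hy
      have h3 := b_in y hyr.le
      have h4 := b_in p hp
      have h5 := (abs_le.1 (o1' y r hyr hrn)).2
      have h6 := B.far y (hr.le.trans hyr.ge)
      linarith
  set L : ℝ := max r (max (-(a p + h / 16 + δ1)) (b p - h / 16 - δ1)) + 1 with hLdef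
  have hLr : r < L := by have := le_max_left r (max (-(a p + h / 16 + δ1)) (b p - h / 16 - δ1)); linarith
  have hL1 : -(a p + h / 16 + δ1) < L := by
    have h1 := le_max_right r (max (-(a p + h / 16 + δ1)) (b p - h / 16 - δ1))
    have h2 := le_max_left (-(a p + h / 16 + δ1)) (b p - h / 16 - δ1)
    linarith
  have hL2 : b p - h / 16 - δ1 < L := by
    have h1 := le_max_right r (max (-(a p + h / 16 + δ1)) (b p - h / 16 - δ1))
    have h2 := le_max_right (-(a p + h / 16 + δ1)) (b p - h / 16 - δ1)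
    linarith
  obtain ⟨fE1, fE2⟩ := fd_energy B hr1 l1 l3
  have hTη : tsupport (fun z => b z - a z) ⊆ tsupport η := by
    rw [hba]; exact closure_mono (fun z hz h0 => hz (by simp only [h0, zero_mul]))
  obtain ⟨fA1, fA2⟩ := fa_energy B k1 hTη
  have main := Att1_823.cauchy_sq B.td.cpt B.td.td hac hbc hal hbl hsupp (t0 := t0) (t1 := t1)
    (L := L) (by linarith) (p := p) (by rw [ht0]; linarith) (by rw [ht1]; linarith)
    (fun z hz => hL z (by have := abs_re_le' z; have := neg_abs_le z.re; linarith) (by linarith))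
    (fun z hz => hR z (by have := abs_re_le' z; have := le_abs_self z.re; linarith) (by linarith))
    (fun θ h1 h2 h3 => iso_pair B hiso gv gw t0 t1 h1 h2 h3)
    (by rw [hba]; exact fE1) fA1
  rw [hba] at main
  have e1 : (0 : ℝ) ≤ ∫ z in Cᶜ, en (fun z => η z * w z) z :=
    integral_nonneg fun z => Bd_775.en_nonneg _ _
  have e2 : (0 : ℝ) ≤ ∫ z in Cᶜ ∩ tsupport (fun z => η z * w z), en a z :=
    integral_nonneg fun z => Bd_775.en_nonneg _ _
  have e3 : ((h / 16) ^ 2 / 2) ^ 2 ≤ ((t1 - t0) ^ 2 / 2) ^ 2 := by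
    have : (h / 16) ^ 2 ≤ (t1 - t0) ^ 2 := pow_le_pow_left₀ hh.le hgap.le 2
    refine pow_le_pow_left₀ (by positivity) (by linarith) 2
  rw [hba] at fA2
  have e4 : ∫ z in Cᶜ, en (fun z => η z * w z) z ≤ 2 * δ + 2 * δ2 ^ 2 * ∫ z in Cᶜ, en η z := by
    linarith
  have e5 : ∫ z in Cᶜ ∩ tsupport (fun z => η z * w z), en a z ≤
      2 * (∫ z in tsupport η, en x0 z) + 2 * E := by linarith
  have e6 := mul_le_mul e4 e5 e2 (e1.trans e4)
  linarith

end

end Crest.Agent.R105.Asm_987
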