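import Crest.Agent.R105.Asm3_987

/-!
# Row 105, S0139, ATTP: leaf `C4P` of `Asm0_6` (helper987), part 3: `c4P_of : C3P → C4P`
-/

set_option autoImplicit false

open MeasureTheory Set Filter Topology Metric Bornology
open scoped ContDiff NNReal

namespace Crest.Agent.R105.Asm_987

open Crest.Agent.R105.IfB_641 Crest.Agent.R105.Asm_6

theorem en_swap (u v : ℂ → ℝ) : en (fun z => u z - v z) = en (fun z => v z - u z) := by
  funext z
  have h : (fun z => u z - v z) = fun z => -(v z - u z) := by funext z; ring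
  unfold Bd_775.en Bd_775.gx Bd_775.gy
  rw [h, fderiv_fun_neg]
  simp

theorem di_swap (C : Set ℂ) (u v : ℂ → ℝ) :
    di C (fun z => u z - v z) (fun z => u z - v z) =
      di C (fun z => v z - u z) (fun z => v z - u z) := by
  rw [di_self, di_self, en_swap]

theorem le_of_sq {x y : ℝ} (hy : 0 ≤ y) (h : |x| ^ 2 ≤ y ^ 2) : |x| ≤ y :=
  (pow_le_pow_iff_left₀ (abs_nonneg x) hy (by norm_num)).1 h

/-- **C4P** from **C3P** -/
theorem c4P_of (H3 : C3P) : C4P := by
  intro C x0 htd hX R0 hR0 hCR hfar S hS hiso h hh E hE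
  have hh16 : 0 < h / 16 := by linarith
  set δ1 : ℝ := h / 16 with hδ1
  set lg : ℝ := 6 * Real.pi * E / δ1 ^ 2 with hlg
  have hpi := Real.pi_pos
  have hlg0 : 0 < lg := by rw [hlg]; positivity
  set R1 : ℝ := R0 * Real.exp lg with hR1
  have hRR : R0 < R1 := by
    have h1 : 1 < Real.exp lg := Real.one_lt_exp_iff.2 hlg0
    rw [hR1]; nlinarith
  have hlog : Real.log (R1 / R0) = lg := by
    rw [hR1, mul_div_cancel_left₀ _ hR0.ne', Real.log_exp]
  obtain ⟨η, η1, η2, -, η3, η4⟩ := Mid_987.exists_cut_in (isCompact_closedBall (0 : ℂ) R1)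
    isOpen_univ (subset_univ _)
  have B : Bg C x0 η R0 R1 := ⟨htd, hX, hR0, hRR, hCR, hfar, η1, η2,
    fun z hz => η3 z (mem_closedBall_zero_iff.2 hz), η4⟩
  set A : ℝ := ∫ z in Cᶜ, en η z with hA
  set X : ℝ := ∫ z in tsupport η, en x0 z with hXd
  have hA0 : 0 ≤ A := integral_nonneg fun z => Bd_775.en_nonneg _ _
  have hX0 : 0 ≤ X := integral_nonneg fun z => Bd_775.en_nonneg _ _
  set M : ℝ := (2 + 2 * (δ1 ^ 2 / E) * A) * (2 * X + 2 * E) with hM
  have hM0 : 0 < M := by rw [hM]; positivity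
  set c : ℝ := ((h / 16) ^ 2 / 2) ^ 2 with hc
  have hc0 : 0 < c := by rw [hc]; positivity
  set δ : ℝ := min E (c / (2 * M)) with hδ
  have hδ0 : 0 < δ := lt_min hE (by positivity)
  have hδE : δ ≤ E := min_le_left _ _
  have hδM : δ * M < c := by
    have h1 : δ ≤ c / (2 * M) := min_le_right _ _
    have h2 : δ * M ≤ c / (2 * M) * M := mul_le_mul_of_nonneg_right h1 hM0.le
    have h3 : c / (2 * M) * M = c / 2 := by field_simp
    linarith
  set δ2 : ℝ := δ1 * Real.sqrt (δ / E) with hδ2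
  have hδ20 : 0 < δ2 := mul_pos hh16 (Real.sqrt_pos.2 (by positivity))
  have hδ2s : δ2 ^ 2 = δ1 ^ 2 * (δ / E) := by
    rw [hδ2, mul_pow, Real.sq_sqrt (by positivity)]
  have hδ2h : δ2 ≤ h / 16 := by
    rw [hδ2]
    have h1 : Real.sqrt (δ / E) ≤ 1 := by
      rw [Real.sqrt_le_one]
      exact (div_le_one hE).2 hδE
    nlinarith
  refine ⟨δ, hδ0, fun φ φ' hφ hφ' hMφ hMφ' hEφ hEφ' hd z w hz hw => ?_⟩
  have hCc := htd.cpt.isClosed
  have hqg : ∀ s ∈ S, Q C s := fun s hs => (hS s hs).q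
  have qφ := Gen.q hCc hqg hφ
  have qφ' := Gen.q hCc hqg hφ'
  have qd := Gen.q hCc hqg (Gen.sub hφ' hφ)
  obtain ⟨r, hr, hr1, hosc⟩ := H3 Cᶜ hCc.isOpen_compl R0 R1 hR0 hRR (fun y hy hyC => by
      have := mem_ball_zero_iff.1 (hCR hyC)
      linarith [hy.1])
    ![φ, φ', fun z => φ' z - φ z] ![E, E, δ]
    (fun i => by
      fin_cases i
      · exact qφ.loc
      · exact qφ'.loc
      · exact qd.loc)
    (fun i => by
      fin_cases i
      · exact qφ.fin
      · exact qφ'.fin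
      · exact qd.fin)
    (fun i => by
      fin_cases i
      · exact hE
      · exact hE
      · exact hδ0)
    (fun i => by
      fin_cases i
      · have := hEφ; rwa [di_self] at this
      · have := hEφ'; rwa [di_self] at this
      · have := hd; rwa [di_self] at this)
  rw [hlog] at hosc
  have e1 : 6 * Real.pi * E / lg = δ1 ^ 2 := by
    rw [hlg]; field_simp
  have e2 : 6 * Real.pi * δ / lg = δ2 ^ 2 := by
    rw [hδ2s, hlg]; field_simp
  have o1 : ∀ z w : ℂ, ‖z‖ = r → ‖w‖ = r → |φ z - φ w| ≤ δ1 := fun z w hz hw => by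
    have := hosc 0 z w hz hw
    refine le_of_sq hh16.le (this.trans (le_of_eq ?_))
    exact e1
  have o1' : ∀ z w : ℂ, ‖z‖ = r → ‖w‖ = r → |φ' z - φ' w| ≤ δ1 := fun z w hz hw => by
    have := hosc 1 z w hz hw
    refine le_of_sq hh16.le (this.trans (le_of_eq ?_))
    exact e1
  have o2 : ∀ z w : ℂ, ‖z‖ = r → ‖w‖ = r → |(φ' z - φ z) - (φ' w - φ w)| ≤ δ2 :=
    fun z w hz hw => by
      have := hosc 2 z w hz hw
      refine le_of_sq hδ20.le (this.trans (le_of_eq ?_))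
      exact e2
  have o2' : ∀ z w : ℂ, ‖z‖ = r → ‖w‖ = r → |(φ z - φ' z) - (φ w - φ' w)| ≤ δ2 :=
    fun z w hz hw => by
      have := o2 z w hz hw
      rw [abs_sub_comm] at this
      convert this using 2
      ring
  have hsmall : (2 * δ + 2 * δ2 ^ 2 * ∫ z in Cᶜ, en η z) *
      (2 * (∫ z in tsupport η, en x0 z) + 2 * E) < ((h / 16) ^ 2 / 2) ^ 2 := by
    rw [← hA, ← hXd, ← hc]
    refine lt_of_le_of_lt (le_of_eq ?_) hδM
    rw [hδ2s, hM]
    field_simp
  have f1 : ∀ p : ℂ, ‖p‖ ≤ R0 → (φ' p - φ p) - (φ' r - φ r) ≤ h / 2 := fun p hp =>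
    core B hr hr1 hS hiso hh16 le_rfl hδ20 hδ2h hφ hφ' hMφ hMφ' o1 o1' o2 hEφ hd hsmall
      (hp.trans hr.le)
  have f2 : ∀ p : ℂ, ‖p‖ ≤ R0 → (φ p - φ' p) - (φ r - φ' r) ≤ h / 2 := fun p hp =>
    core B hr hr1 hS hiso hh16 le_rfl hδ20 hδ2h hφ' hφ hMφ' hMφ o1' o1 o2' hEφ'
      (by rw [di_swap]; exact hd) hsmall (hp.trans hr.le)
  have g1 := f1 z hz
  have g2 := f2 z hz
  have g3 := f1 w hw
  have g4 := f2 w hw
  rw [abs_le]
  constructor <;> linarith

end Crest.Agent.R105.Asm_987
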