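import Mathlib

/-!
# R105 / COFAT (node D2), part (D), polar half (helper231): Cauchy-Schwarz on an annulus

* `polar` : `∫⁻ z in {a < dist z p < b} G = ∫⁻ t ∈ (a,b) ∫⁻ θ ∈ (-π,π) t * G (circleMap p t θ)`;
* `polar_cs` : `(∫⁻ t ∈ (a,b) ∫⁻ θ G (circleMap p t θ))² ≤ 2π log (b/a) * ∫⁻ annulus G²`.
-/

set_option autoImplicit false

open Set Filter Topology Metric MeasureTheory
open scoped ENNReal

namespace Crest.Agent.R105.CofP_231

theorem circleMap_eq_polar (p : ℂ) (t θ : ℝ) :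
    circleMap p t θ = p + Complex.polarCoord.symm (t, θ) := by
  rw [Complex.polarCoord_symm_apply, circleMap, Complex.exp_mul_I]
  push_cast
  ring

theorem lintegral_prodIoo {F : ℝ × ℝ → ℝ≥0∞} (hF : Measurable F) (a b c d : ℝ) :
    ∫⁻ q in Ioo a b ×ˢ Ioo c d, F q = ∫⁻ t in Ioo a b, ∫⁻ θ in Ioo c d, F (t, θ) := by
  rw [Measure.volume_eq_prod, ← Measure.prod_restrict,
    lintegral_prod _ hF.aemeasurable]

theorem measurable_circleMap (p : ℂ) : Measurable fun q : ℝ × ℝ => circleMap p q.1 q.2 := by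
  have : Continuous fun q : ℝ × ℝ => circleMap p q.1 q.2 := by
    unfold circleMap
    fun_prop
  exact this.measurable

/-- polar coordinates on an annulus -/
theorem polar {G : ℂ → ℝ≥0∞} (hG : Measurable G) (p : ℂ) {a : ℝ} (ha : 0 ≤ a) (b : ℝ) :
    ∫⁻ z in {z | dist z p ∈ Ioo a b}, G z =
      ∫⁻ t in Ioo a b, ∫⁻ θ in Ioo (-Real.pi) Real.pi,
        ENNReal.ofReal t * G (circleMap p t θ) := by
  have hA : MeasurableSet {z : ℂ | dist z p ∈ Ioo a b} :=
    (measurable_id.dist measurable_const) measurableSet_Ioo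
  set H : ℂ → ℝ≥0∞ := fun z => {z : ℂ | dist z p ∈ Ioo a b}.indicator G (p + z) with hH
  have h1 : ∫⁻ z in {z : ℂ | dist z p ∈ Ioo a b}, G z = ∫⁻ z, H z := by
    rw [← lintegral_indicator hA, ← lintegral_add_left_eq_self _ p]
  rw [h1, ← Complex.lintegral_comp_polarCoord_symm]
  have h2 : ∀ q ∈ polarCoord.target, ENNReal.ofReal q.1 • H (Complex.polarCoord.symm q) =
      (Ioo a b ×ˢ Ioo (-Real.pi) Real.pi).indicator
        (fun q : ℝ × ℝ => ENNReal.ofReal q.1 * G (circleMap p q.1 q.2)) q := by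
    rintro ⟨t, θ⟩ ⟨ht, hθ⟩
    simp only [hH, smul_eq_mul, indicator]
    rw [← circleMap_eq_polar]
    have h3 : dist (circleMap p t θ) p = t := by
      rw [dist_eq_norm, circleMap_sub_center, norm_circleMap_zero, abs_of_pos ht]
    simp only [mem_ofPred_eq, h3]
    by_cases h4 : t ∈ Ioo a b
    · rw [if_pos h4, if_pos ⟨h4, hθ⟩]
    · rw [if_neg h4, if_neg fun h => h4 h.1, mul_zero]
  rw [setLIntegral_congr_fun polarCoord.open_target.measurableSet h2]
  rw [lintegral_indicator (measurableSet_Ioo.prod measurableSet_Ioo),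
    Measure.restrict_restrict (measurableSet_Ioo.prod measurableSet_Ioo)]
  have h5 : Ioo a b ×ˢ Ioo (-Real.pi) Real.pi ∩ polarCoord.target =
      Ioo a b ×ˢ Ioo (-Real.pi) Real.pi := by
    refine inter_eq_left.2 ?_
    rintro ⟨t, θ⟩ ⟨h, h'⟩
    exact ⟨ha.trans_lt h.1, h'⟩
  rw [h5]
  exact lintegral_prodIoo ((ENNReal.measurable_ofReal.comp measurable_fst).mul
    (hG.comp (measurable_circleMap p))) a b _ _

theorem lintegral_inv {a b : ℝ} (ha : 0 < a) (hab : a ≤ b) :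
    ∫⁻ t in Ioo a b, ENNReal.ofReal t⁻¹ = ENNReal.ofReal (Real.log (b / a)) := by
  have h0 : (0:ℝ) ∉ uIcc a b := by
    rw [uIcc_of_le hab]
    exact fun h => absurd h.1 (not_le.2 ha)
  rw [← integral_inv h0, intervalIntegral.integral_of_le hab, ← setLIntegral_congr Ioo_ae_eq_Ioc.symm,
    ofReal_integral_eq_lintegral_ofReal]
  · have := (intervalIntegral.intervalIntegrable_inv (μ := volume) (f := fun t : ℝ => t)
      (a := a) (b := b) (fun t ht h => h0 (h ▸ ht)) continuousOn_id)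
    exact (intervalIntegrable_iff_integrableOn_Ioc_of_le hab).1 this
  · refine (ae_restrict_iff' measurableSet_Ioc).2 (Eventually.of_forall fun t ht => ?_)
    exact inv_nonneg.2 (ha.le.trans ht.1.le)

/-- **Cauchy-Schwarz on an annulus** -/
theorem polar_cs {G : ℂ → ℝ≥0∞} (hG : Measurable G) (p : ℂ) {a b : ℝ} (ha : 0 < a)
    (hab : a ≤ b) :
    (∫⁻ t in Ioo a b, ∫⁻ θ in Ioo (-Real.pi) Real.pi, G (circleMap p t θ)) ^ 2 ≤
      ENNReal.ofReal (2 * Real.pi * Real.log (b / a)) *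
        ∫⁻ z in {z | dist z p ∈ Ioo a b}, G z ^ 2 := by
  have hGm : Measurable fun q : ℝ × ℝ => G (circleMap p q.1 q.2) :=
    hG.comp (measurable_circleMap p)
  set μ : Measure (ℝ × ℝ) := volume.restrict (Ioo a b ×ˢ Ioo (-Real.pi) Real.pi) with hμ
  set u : ℝ × ℝ → ℝ≥0∞ := fun q => ENNReal.ofReal (Real.sqrt q.1) * G (circleMap p q.1 q.2)
    with hu
  set v : ℝ × ℝ → ℝ≥0∞ := fun q => ENNReal.ofReal (Real.sqrt q.1)⁻¹ with hv
  have hum : Measurable u :=
    (ENNReal.measurable_ofReal.comp (Real.continuous_sqrt.measurable.comp measurable_fst)).mul hGm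
  have hvm : Measurable v :=
    ENNReal.measurable_ofReal.comp (Real.continuous_sqrt.measurable.comp measurable_fst).inv
  have h1 : ∫⁻ t in Ioo a b, ∫⁻ θ in Ioo (-Real.pi) Real.pi, G (circleMap p t θ) =
      ∫⁻ q, (u * v) q ∂μ := by
    rw [← lintegral_prodIoo hGm]
    refine setLIntegral_congr_fun (measurableSet_Ioo.prod measurableSet_Ioo) ?_
    rintro ⟨t, θ⟩ ⟨ht, hθ⟩
    have ht0 : 0 < t := ha.trans ht.1
    have h2 : ENNReal.ofReal (Real.sqrt t) * ENNReal.ofReal (Real.sqrt t)⁻¹ = 1 := by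
      rw [← ENNReal.ofReal_mul (Real.sqrt_nonneg _),
        mul_inv_cancel₀ (Real.sqrt_pos.2 ht0).ne', ENNReal.ofReal_one]
    simp only [hu, hv, Pi.mul_apply]
    rw [mul_right_comm, h2, one_mul]
  have h3 := ENNReal.lintegral_mul_le_Lp_mul_Lq μ (Real.HolderConjugate.two_two)
    hum.aemeasurable hvm.aemeasurable
  have h4 : ∫⁻ q, u q ^ (2:ℝ) ∂μ = ∫⁻ z in {z | dist z p ∈ Ioo a b}, G z ^ 2 := by
    rw [polar (hG.pow_const 2) p ha.le b, hμ]
    have hm2 : Measurable fun q : ℝ × ℝ => ENNReal.ofReal q.1 * G (circleMap p q.1 q.2) ^ 2 :=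
      (ENNReal.measurable_ofReal.comp measurable_fst).mul (hGm.pow_const 2)
    rw [← lintegral_prodIoo hm2]
    refine setLIntegral_congr_fun (measurableSet_Ioo.prod measurableSet_Ioo) ?_
    rintro ⟨t, θ⟩ ⟨ht, hθ⟩
    have ht0 : 0 < t := ha.trans ht.1
    simp only [hu]
    rw [ENNReal.rpow_two, mul_pow, ← ENNReal.ofReal_pow (Real.sqrt_nonneg _), Real.sq_sqrt ht0.le]
  have h5 : ∫⁻ q, v q ^ (2:ℝ) ∂μ = ENNReal.ofReal (2 * Real.pi * Real.log (b / a)) := by
    have h6 : ∫⁻ q, v q ^ (2:ℝ) ∂μ = ∫⁻ q in Ioo a b ×ˢ Ioo (-Real.pi) Real.pi,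
        ENNReal.ofReal q.1⁻¹ := by
      refine setLIntegral_congr_fun (measurableSet_Ioo.prod measurableSet_Ioo) ?_
      rintro ⟨t, θ⟩ ⟨ht, hθ⟩
      have ht0 : 0 < t := ha.trans ht.1
      simp only [hv]
      rw [ENNReal.rpow_two, ← ENNReal.ofReal_pow (by positivity), inv_pow, Real.sq_sqrt ht0.le]
    have hm3 : Measurable fun q : ℝ × ℝ => ENNReal.ofReal q.1⁻¹ :=
      ENNReal.measurable_ofReal.comp measurable_fst.inv
    rw [h6, lintegral_prodIoo hm3]
    simp only [lintegral_const, Measure.restrict_apply MeasurableSet.univ, univ_inter,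
      Real.volume_Ioo]
    rw [lintegral_mul_const' _ _ (by finiteness), lintegral_inv ha hab,
      ← ENNReal.ofReal_mul (Real.log_nonneg ((one_le_div ha).2 hab))]
    congr 1
    ring
  rw [h1]
  calc (∫⁻ q, (u * v) q ∂μ) ^ 2
      ≤ ((∫⁻ q, u q ^ (2:ℝ) ∂μ) ^ (1 / (2:ℝ)) * (∫⁻ q, v q ^ (2:ℝ) ∂μ) ^ (1 / (2:ℝ))) ^ 2 := by
        gcongr
    _ = (∫⁻ q, v q ^ (2:ℝ) ∂μ) * ∫⁻ q, u q ^ (2:ℝ) ∂μ := by
        rw [mul_pow, ← ENNReal.rpow_two, ← ENNReal.rpow_two, ← ENNReal.rpow_mul,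
          ← ENNReal.rpow_mul]
        norm_num
        rw [mul_comm]
    _ = _ := by rw [h4, h5]

end Crest.Agent.R105.CofP_231
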