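import Crest.Agent.R105.Asm0_6
import Crest.Agent.R105.CofP_231

/-!
# R105, S0139, ATTP leaf (C3) (helper590): good circle (Courant-Lebesgue) for three functions

`osc_circle` : oscillation of a locally Lipschitz function on a circle;
`c3P : Asm_6.C3P`.
-/

set_option autoImplicit false

open MeasureTheory Set Filter Topology Metric
open scoped ContDiff NNReal ENNReal

namespace Crest.Agent.R105.Cl_590

open Crest.Agent.R105.Bd_775

/-- FTC for Lipschitz functions on an interval, absolute value form -/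
theorem enorm_sub_le {h : ℝ → ℝ} {K : ℝ≥0} {α β : ℝ} (hK : LipschitzOnWith K h (uIcc α β)) :
    ‖h β - h α‖ₑ ≤ ∫⁻ θ in uIoc α β, ‖deriv h θ‖ₑ := by
  have h1 := (hK.absolutelyContinuousOnInterval).integral_deriv_eq_sub
  rw [← h1, intervalIntegral.intervalIntegral_eq_integral_uIoc]
  refine (enorm_smul_le.trans ?_)
  have h2 : ‖(if α ≤ β then 1 else -1 : ℝ)‖ₑ = 1 := by
    split_ifs <;> simp
  rw [h2, one_mul]
  exact enorm_integral_le_lintegral_enorm _

theorem circleMap_eq_of_norm {z : ℂ} {t : ℝ} (hz : ‖z‖ = t) : circleMap 0 t z.arg = z := by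
  rw [circleMap_zero, ← hz]
  exact Complex.norm_mul_exp_arg_mul_I z

/-- oscillation along a circle -/
theorem osc_circle {f : ℂ → ℝ} {O : Set ℂ} (hO : IsOpen O) (hf : LocallyLipschitzOn O f) {t : ℝ}
    (ht : 0 < t) (hc : ∀ z : ℂ, ‖z‖ = t → z ∈ O)
    (hd : ∀ᵐ θ ∂(volume.restrict (Ioo (-Real.pi) Real.pi)), DifferentiableAt ℝ f (circleMap 0 t θ))
    {B : ℝ} (hB : ∫⁻ θ in Ioo (-Real.pi) Real.pi, ENNReal.ofReal (t ^ 2 * en f (circleMap 0 t θ)) ≤
      ENNReal.ofReal B) (hB0 : 0 ≤ B) {z w : ℂ} (hz : ‖z‖ = t) (hw : ‖w‖ = t) :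
    |f z - f w| ^ 2 ≤ 2 * Real.pi * B := by
  set h : ℝ → ℝ := fun θ => f (circleMap 0 t θ) with hh
  have hcm : ∀ θ, circleMap 0 t θ ∈ O := fun θ => hc _ (by
    rw [norm_circleMap_zero, abs_of_pos ht])
  -- locally Lipschitz
  have hll : LocallyLipschitzOn (univ : Set ℝ) h := by
    intro θ _
    obtain ⟨K, s, hs, hK⟩ := hf (hcm θ)
    rw [hO.nhdsWithin_eq (hcm θ)] at hs
    refine ⟨K * Real.nnabs t, (circleMap 0 t) ⁻¹' s,
      mem_nhdsWithin_of_mem_nhds ((continuous_circleMap 0 t).continuousAt.preimage_mem_nhds hs), ?_⟩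
    exact hK.comp ((lipschitzWith_circleMap 0 t).lipschitzOnWith) (fun x hx => hx)
  have hder : ∀ θ, DifferentiableAt ℝ f (circleMap 0 t θ) →
      ‖deriv h θ‖ ^ 2 ≤ t ^ 2 * en f (circleMap 0 t θ) := by
    intro θ hθ
    have h1 : HasDerivAt h ((fderiv ℝ f (circleMap 0 t θ)) (circleMap 0 t θ * Complex.I)) θ :=
      hθ.hasFDerivAt.comp_hasDerivAt θ (hasDerivAt_circleMap 0 t θ)
    rw [h1.deriv, en_eq]
    have h2 := (fderiv ℝ f (circleMap 0 t θ)).le_opNorm (circleMap 0 t θ * Complex.I)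
    have h3 : ‖circleMap 0 t θ * Complex.I‖ = t := by
      rw [norm_mul, Complex.norm_I, mul_one, norm_circleMap_zero, abs_of_pos ht]
    rw [h3] at h2
    calc _ ≤ (‖fderiv ℝ f (circleMap 0 t θ)‖ * t) ^ 2 := pow_le_pow_left₀ (norm_nonneg _) h2 2
      _ = _ := by ring
  set X : ℝ := |f z - f w| with hX
  rcases eq_or_lt_of_le (abs_nonneg (f z - f w)) with h0 | h0
  · rw [hX, ← h0]
    have := Real.pi_pos
    nlinarith [mul_nonneg Real.pi_pos.le hB0]
  have hXpos : 0 < X := h0
  -- the integral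
  obtain ⟨K, hK⟩ := (hll.mono (subset_univ (uIcc w.arg z.arg))).exists_lipschitzOnWith_of_compact
    isCompact_uIcc
  have h1 := enorm_sub_le hK
  have hhz : h z.arg = f z := by simp only [hh]; rw [circleMap_eq_of_norm hz]
  have hhw : h w.arg = f w := by simp only [hh]; rw [circleMap_eq_of_norm hw]
  rw [hhz, hhw] at h1
  have hsub : uIoc w.arg z.arg ⊆ Ioc (-Real.pi) Real.pi := by
    intro θ hθ
    rw [mem_uIoc] at hθ
    rcases hθ with hθ | hθ
    · exact ⟨(Complex.neg_pi_lt_arg w).trans hθ.1, hθ.2.trans (Complex.arg_le_pi z)⟩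
    · exact ⟨(Complex.neg_pi_lt_arg z).trans hθ.1, hθ.2.trans (Complex.arg_le_pi w)⟩
  set l : ℝ := 2 * Real.pi / X with hl
  have hlpos : 0 < l := by positivity
  have h2 : ENNReal.ofReal X ≤ ENNReal.ofReal (l / 2 * B + Real.pi / l) := by
    calc ENNReal.ofReal X = ‖f z - f w‖ₑ := by
          rw [Real.enorm_eq_ofReal_abs]
      _ ≤ ∫⁻ θ in uIoc w.arg z.arg, ‖deriv h θ‖ₑ := h1
      _ ≤ ∫⁻ θ in Ioc (-Real.pi) Real.pi, ‖deriv h θ‖ₑ := lintegral_mono_set hsub
      _ = ∫⁻ θ in Ioo (-Real.pi) Real.pi, ‖deriv h θ‖ₑ := by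
          rw [setLIntegral_congr Ioo_ae_eq_Ioc]
      _ ≤ ∫⁻ θ in Ioo (-Real.pi) Real.pi, (ENNReal.ofReal (l / 2) *
            ENNReal.ofReal (t ^ 2 * en f (circleMap 0 t θ)) + ENNReal.ofReal (1 / (2 * l))) := by
          refine lintegral_mono_ae ?_
          filter_upwards [hd] with θ hθ
          have h3 := hder θ hθ
          rw [← ofReal_norm, ← ENNReal.ofReal_mul (by positivity),
            ← ENNReal.ofReal_add (mul_nonneg (by positivity)
              (mul_nonneg (sq_nonneg _) (en_nonneg _ _))) (by positivity)]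
          refine ENNReal.ofReal_le_ofReal ?_
          have h4 : ‖deriv h θ‖ ≤ l / 2 * ‖deriv h θ‖ ^ 2 + 1 / (2 * l) := by
            have h5 : 0 ≤ (l * ‖deriv h θ‖ - 1) ^ 2 / (2 * l) := by positivity
            have h6 : (l * ‖deriv h θ‖ - 1) ^ 2 / (2 * l) =
                l / 2 * ‖deriv h θ‖ ^ 2 + 1 / (2 * l) - ‖deriv h θ‖ := by
              field_simp; ring
            linarith
          nlinarith [mul_le_mul_of_nonneg_left h3 (by positivity : 0 ≤ l / 2)]
      _ = ENNReal.ofReal (l / 2) * (∫⁻ θ in Ioo (-Real.pi) Real.pi,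
            ENNReal.ofReal (t ^ 2 * en f (circleMap 0 t θ))) +
            ENNReal.ofReal (1 / (2 * l)) * ENNReal.ofReal (2 * Real.pi) := by
          rw [lintegral_add_right _ measurable_const, lintegral_const_mul' _ _ ENNReal.ofReal_ne_top,
            lintegral_const, Measure.restrict_apply_univ, Real.volume_Ioo]
          congr 3; ring
      _ ≤ ENNReal.ofReal (l / 2) * ENNReal.ofReal B +
            ENNReal.ofReal (1 / (2 * l)) * ENNReal.ofReal (2 * Real.pi) := by gcongr
      _ = ENNReal.ofReal (l / 2 * B + Real.pi / l) := by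
          rw [← ENNReal.ofReal_mul (by positivity), ← ENNReal.ofReal_mul (by positivity),
            ← ENNReal.ofReal_add (by positivity) (by positivity)]
          congr 2
          field_simp
  have h3 : X ≤ l / 2 * B + Real.pi / l :=
    (ENNReal.ofReal_le_ofReal_iff (by positivity)).1 h2
  have h4 : Real.pi / l = X / 2 := by
    rw [hl]; field_simp
  have h5 : l / 2 * B * X = Real.pi * B := by
    rw [hl]; field_simp
  rw [h4] at h3
  nlinarith [mul_le_mul_of_nonneg_right h3 hXpos.le]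

/-- good circle for finitely many functions with weights -/
theorem good_circle {O : Set ℂ} (hO : IsOpen O) {R0 R1 : ℝ} (hR0 : 0 < R0) (hR : R0 < R1)
    (hsub : {z : ℂ | R0 ≤ ‖z‖ ∧ ‖z‖ ≤ R1} ⊆ O) {n : ℕ} (f : Fin n → ℂ → ℝ) (E : Fin n → ℝ)
    (hf : ∀ i, LocallyLipschitzOn O (f i)) (hen : ∀ i, IntegrableOn (en (f i)) O)
    (hE : ∀ i, 0 < E i) (hle : ∀ i, ∫ z in O, en (f i) z ≤ E i) :
    ∃ r : ℝ, R0 < r ∧ r < R1 ∧ ∀ i z w, ‖z‖ = r → ‖w‖ = r →
      |f i z - f i w| ^ 2 ≤ 2 * Real.pi * (n * E i / Real.log (R1 / R0)) := by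
  classical
  have hR1 : 0 < R1 := hR0.trans hR
  have hlog : 0 < Real.log (R1 / R0) := Real.log_pos (by rw [lt_div_iff₀ hR0]; linarith)
  rcases Nat.eq_zero_or_pos n with rfl | hn
  · exact ⟨(R0 + R1) / 2, by linarith, by linarith, fun i => i.elim0⟩
  have hn' : (0 : ℝ) < n := by exact_mod_cast hn
  set N : Set ℂ := {z | ∃ i, ¬ DifferentiableAt ℝ (f i) z} with hN
  have hNm : MeasurableSet N := by
    have : N = ⋃ i, {z | DifferentiableAt ℝ (f i) z}ᶜ := by
      ext z; simp [hN]
    rw [this]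
    exact MeasurableSet.iUnion fun i => (measurableSet_of_differentiableAt ℝ (f i)).compl
  have hN0 : ∀ᵐ z ∂(volume.restrict O), z ∉ N := by
    have := ae_all_iff.2 fun i => ae_diff hO (hf i)
    filter_upwards [this] with z hz
    rintro ⟨i, hi⟩
    exact hi (hz i)
  set G : ℂ → ℝ≥0∞ := fun z => ∑ i, ENNReal.ofReal (en (f i) z / E i) + N.indicator (fun _ => ⊤) z
    with hG
  have hGm : Measurable G := by
    refine Measurable.add ?_ (measurable_const.indicator hNm)
    exact Finset.measurable_sum _ fun i _ => ((measurable_en (f i)).div_const _).ennreal_ofReal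
  set A : Set ℂ := {z : ℂ | dist z 0 ∈ Ioo R0 R1} with hA
  have hAO : A ⊆ O := by
    intro z hz
    simp only [hA, mem_ofPred_eq, dist_zero_right] at hz
    exact hsub ⟨hz.1.le, hz.2.le⟩
  have hint : ∫⁻ z in A, G z ≤ n := by
    calc ∫⁻ z in A, G z ≤ ∫⁻ z in O, G z := lintegral_mono_set hAO
      _ = ∫⁻ z in O, ∑ i, ENNReal.ofReal (en (f i) z / E i) := by
          refine lintegral_congr_ae ?_
          filter_upwards [hN0] with z hz
          simp [hG, hz]
      _ = ∑ i, ∫⁻ z in O, ENNReal.ofReal (en (f i) z / E i) :=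
          lintegral_finsetSum _ fun i _ => ((measurable_en (f i)).div_const _).ennreal_ofReal
      _ ≤ ∑ i : Fin n, (1 : ℝ≥0∞) := by
          refine Finset.sum_le_sum fun i _ => ?_
          rw [← ofReal_integral_eq_lintegral_ofReal ((hen i).div_const _)
            (Eventually.of_forall fun z => div_nonneg (en_nonneg _ _) (hE i).le)]
          rw [integral_div]
          refine ENNReal.ofReal_le_one.2 ?_
          exact (div_le_one (hE i)).2 (hle i)
      _ = n := by simp
  rw [CofP_231.polar hGm 0 hR0.le R1] at hint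
  set κ : ℝ := n / Real.log (R1 / R0) with hκ
  have hκ0 : 0 < κ := div_pos hn' hlog
  set Φ : ℝ → ℝ≥0∞ := fun t => ∫⁻ θ in Ioo (-Real.pi) Real.pi,
    ENNReal.ofReal t * G (circleMap 0 t θ) with hΦ
  have hex : ∃ t ∈ Ioo R0 R1, Φ t ≤ ENNReal.ofReal (κ * t⁻¹) := by
    by_contra hcon
    push Not at hcon
    have h1 : ∫⁻ t in Ioo R0 R1, ENNReal.ofReal (κ * t⁻¹) = n := by
      have : ∀ t : ℝ, ENNReal.ofReal (κ * t⁻¹) = ENNReal.ofReal κ * ENNReal.ofReal t⁻¹ :=
        fun t => ENNReal.ofReal_mul hκ0.le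
      simp_rw [this]
      rw [lintegral_const_mul' _ _ ENNReal.ofReal_ne_top, CofP_231.lintegral_inv hR0 hR.le,
        ← ENNReal.ofReal_mul hκ0.le, hκ, div_mul_cancel₀ _ hlog.ne']
      simp
    have h2 : ∫⁻ t in Ioo R0 R1, ENNReal.ofReal (κ * t⁻¹) < ∫⁻ t in Ioo R0 R1, Φ t := by
      have hμ : (volume.restrict (Ioo R0 R1) : Measure ℝ) ≠ 0 := by
        rw [Ne, Measure.restrict_eq_zero, Real.volume_Ioo]
        simp [hR]
      refine lintegral_strict_mono hμ ?_ (by rw [h1]; simp) ?_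
      · have hm2 : Measurable fun q : ℝ × ℝ => ENNReal.ofReal q.1 * G (circleMap 0 q.1 q.2) :=
          (ENNReal.measurable_ofReal.comp measurable_fst).mul
            (hGm.comp (CofP_231.measurable_circleMap 0))
        exact (hm2.lintegral_prod_right' (ν := volume.restrict (Ioo (-Real.pi) Real.pi))).aemeasurable
      · refine (ae_restrict_iff' measurableSet_Ioo).2 (Eventually.of_forall fun t ht => ?_)
        exact hcon t ht
    rw [h1] at h2
    exact absurd hint (not_le.2 h2)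
  obtain ⟨t, ht, htΦ⟩ := hex
  have ht0 : 0 < t := hR0.trans ht.1
  have hmG : Measurable fun θ : ℝ => ENNReal.ofReal t * G (circleMap 0 t θ) :=
    measurable_const.mul (hGm.comp (continuous_circleMap 0 t).measurable)
  have hfin : ∀ᵐ θ ∂(volume.restrict (Ioo (-Real.pi) Real.pi)),
      ENNReal.ofReal t * G (circleMap 0 t θ) < ⊤ :=
    ae_lt_top hmG (ne_top_of_le_ne_top ENNReal.ofReal_ne_top htΦ)
  have hnN : ∀ᵐ θ ∂(volume.restrict (Ioo (-Real.pi) Real.pi)), circleMap 0 t θ ∉ N := by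
    filter_upwards [hfin] with θ hθ hmem
    have : G (circleMap 0 t θ) = ⊤ := by simp [hG, hmem]
    rw [this, ENNReal.mul_top (by simpa using ht0)] at hθ
    exact lt_irrefl _ hθ
  refine ⟨t, ht.1, ht.2, fun i z w hz hw => ?_⟩
  refine osc_circle hO (hf i) ht0 (fun z hz => hsub ⟨hz ▸ ht.1.le, hz ▸ ht.2.le⟩) ?_ ?_
    (by have := hE i; positivity) hz hw
  · filter_upwards [hnN] with θ hθ
    by_contra h
    exact hθ ⟨i, h⟩
  · have hEi := hE i
    calc ∫⁻ θ in Ioo (-Real.pi) Real.pi, ENNReal.ofReal (t ^ 2 * en (f i) (circleMap 0 t θ))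
        = ENNReal.ofReal (t * E i) * ∫⁻ θ in Ioo (-Real.pi) Real.pi,
            ENNReal.ofReal t * ENNReal.ofReal (en (f i) (circleMap 0 t θ) / E i) := by
          rw [← lintegral_const_mul' _ _ ENNReal.ofReal_ne_top]
          refine lintegral_congr fun θ => ?_
          rw [← ENNReal.ofReal_mul ht0.le, ← ENNReal.ofReal_mul (by positivity)]
          congr 1
          field_simp
      _ ≤ ENNReal.ofReal (t * E i) * Φ t := by
          refine mul_le_mul_right (lintegral_mono fun θ => mul_le_mul_right ?_ _) _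
          refine le_trans ?_ (le_self_add)
          exact Finset.single_le_sum (f := fun i => ENNReal.ofReal (en (f i) (circleMap 0 t θ) / E i))
            (fun _ _ => zero_le) (Finset.mem_univ i)
      _ ≤ ENNReal.ofReal (t * E i) * ENNReal.ofReal (κ * t⁻¹) := by gcongr
      _ = ENNReal.ofReal (n * E i / Real.log (R1 / R0)) := by
          rw [← ENNReal.ofReal_mul (by positivity)]
          congr 1
          rw [hκ]
          field_simp

theorem c3P : Asm_6.C3P := by
  intro O hO R0 R1 hR0 hR hsub f E hf hen hE hle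
  obtain ⟨r, h1, h2, h3⟩ := good_circle hO hR0 hR hsub f E hf hen hE hle
  refine ⟨r, h1, h2, fun i z w hz hw => (h3 i z w hz hw).trans (le_of_eq ?_)⟩
  push_cast
  ring

end Crest.Agent.R105.Cl_590
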