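import Crest.Agent.R105.Asm4_987
import Crest.Agent.R105.Cl1_590

/-!
# Row 105, S0139, ATTP: `c4P : C4P`
-/

namespace Crest.Agent.R105.Asm_987

theorem c4P : Crest.Agent.R105.Asm_6.C4P := c4P_of Crest.Agent.R105.Cl_590.c3P

end Crest.Agent.R105.Asm_987
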