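import Mathlib

/-!
Abstract greedy selection with closings (post #9488 (3)).

`X` complete metric space, `Iso` a predicate on sets of finite character, closed under limits of
finite families, `J` continuous and bounded below.  `select` produces a sequence `b` with
`dist (b 0) v ≤ η`, `Iso (range b)`, `J (b k) → m` and the robust greedy property.
-/

open Set Filter Topology

namespace Crest.Agent.R105.Sel_658

variable {X : Type*}

/-- dependent choice along `ℕ` with an invariant -/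
theorem exists_seq_inv {S : Type*} (Inv : ℕ → S → Prop) (R : ℕ → S → S → Prop) (s0 : S)
    (h0 : Inv 0 s0) (hstep : ∀ k s, Inv k s → ∃ s', Inv (k + 1) s' ∧ R k s s') :
    ∃ σ : ℕ → S, σ 0 = s0 ∧ ∀ k, Inv k (σ k) ∧ R k (σ k) (σ (k + 1)) := by
  classical
  choose! nx hnx using hstep
  let σ : ℕ → S := fun k => Nat.rec s0 (fun k s => nx k s) k
  have hσ0 : σ 0 = s0 := rfl
  have hσs : ∀ k, σ (k + 1) = nx k (σ k) := fun k => rfl
  have hI : ∀ k, Inv k (σ k) := by
    intro k
    induction k with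
    | zero => rw [hσ0]; exact h0
    | succ k ih => rw [hσs]; exact (hnx k _ ih).1
  refine ⟨σ, hσ0, fun k => ⟨hI k, ?_⟩⟩
  rw [hσs]
  exact (hnx k _ (hI k)).2

/-- The hypotheses on the isotropy predicate. -/
structure IsoPred [TopologicalSpace X] (Iso : Set X → Prop) : Prop where
  mono : ∀ {S T : Set X}, S ⊆ T → Iso T → Iso S
  fin : ∀ {S : Set X}, (∀ F ⊆ S, F.Finite → Iso F) → Iso S
  lim : ∀ (n : ℕ) (s : ℕ → ℕ → X) (b : ℕ → X), (∀ k, Iso (s k '' Iic n)) →
    (∀ i ≤ n, Tendsto (fun k => s k i) atTop (𝓝 (b i))) → Iso (b '' Iic n)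

theorem IsoPred.range [TopologicalSpace X] {Iso : Set X → Prop} (hI : IsoPred Iso) {b : ℕ → X}
    (h : ∀ n, Iso (b '' Iic n)) : Iso (range b) := by
  classical
  refine hI.fin fun F hF hfin => ?_
  -- `F ⊆ b '' Iic n` for some `n`
  have : ∃ n, F ⊆ b '' Iic n := by
    have hch : ∀ x ∈ F, ∃ i, b i = x := fun x hx => hF hx
    choose! f hf using hch
    obtain ⟨n, hn⟩ := (hfin.image f).bddAbove
    exact ⟨n, fun x hx => ⟨f x, hn ⟨x, hx, rfl⟩, hf x hx⟩⟩
  obtain ⟨n, hn⟩ := this
  exact hI.mono hn (h n)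

/-- **Greedy selection with closings.** -/
theorem select [MetricSpace X] [CompleteSpace X] {Iso : Set X → Prop} (hI : IsoPred Iso)
    {J : X → ℝ} (hJ : Continuous J) {L : ℝ} (hL : ∀ x, L ≤ J x) {v u₀ : X} (h0 : Iso {v, u₀})
    {η : ℝ} (hη : 0 < η) :
    ∃ (b : ℕ → X) (m : ℝ), dist (b 0) v ≤ η ∧ Iso (range b) ∧
      Tendsto (fun k => J (b k)) atTop (𝓝 m) ∧ L ≤ m ∧
      ∀ g > 0, ∃ n : ℕ, ∃ δ > 0, ∀ (c : ℕ → X) (u : X), (∀ i ≤ n, dist (c i) (b i) ≤ δ) →
        Iso (insert u (c '' Iic n)) → m - g ≤ J u := by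
  classical
  -- states
  let Inv : ℕ → (ℕ → X) × (ℕ → ℝ) → Prop := fun k p =>
    Iso (p.1 '' Iic (k + 1)) ∧ ∀ i ≤ k + 1, 0 < p.2 i
  let R : ℕ → (ℕ → X) × (ℕ → ℝ) → (ℕ → X) × (ℕ → ℝ) → Prop := fun k p q =>
    (∀ i ≤ k + 1, dist (q.1 i) (p.1 i) ≤ p.2 i * (J (p.1 (k + 1)) - J (q.1 (k + 2)))) ∧
    (∀ (c : ℕ → X) (u : X), Iso (insert u (c '' Iic (k + 1))) →
      (∀ i ≤ k + 1, dist (c i) (p.1 i) ≤ p.2 i * (J (p.1 (k + 1)) - J u)) →
      J (q.1 (k + 2)) ≤ J u + (1 / 2 : ℝ) ^ k) ∧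
    (∀ i ≤ k + 1, q.2 i = p.2 i) ∧
    (∀ x, dist x (q.1 (k + 2)) ≤ q.2 (k + 2) * (J (q.1 (k + 2)) - L) →
      |J x - J (q.1 (k + 2))| ≤ (1 / 2 : ℝ) ^ k)
  have hκ : ∀ (u : X) (ε : ℝ), 0 < ε → ∃ κ > 0, ∀ x, dist x u ≤ κ * (J u - L) → |J x - J u| ≤ ε := by
    intro u ε hε
    obtain ⟨ρ, hρ, h⟩ := Metric.continuous_iff.1 hJ u ε hε
    have hpos : 0 < J u - L + 1 := by linarith [hL u]
    refine ⟨ρ / 2 / (J u - L + 1), by positivity, fun x hx => ?_⟩
    have h1 : ρ / 2 / (J u - L + 1) * (J u - L) ≤ ρ / 2 := by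
      rw [div_mul_eq_mul_div, div_le_iff₀ hpos]
      have := hL u
      nlinarith
    have h2 := h x (by linarith)
    rw [Real.dist_eq] at h2
    exact h2.le
  obtain ⟨σ, hσ0, hσ⟩ := exists_seq_inv Inv R
    ((fun i => if i = 0 then v else u₀), (fun _ => η / (J u₀ - L + 1))) (by
      have hpos : 0 < J u₀ - L + 1 := by linarith [hL u₀]
      refine ⟨hI.mono ?_ h0, fun i _ => by positivity⟩
      rintro x ⟨i, -, rfl⟩
      by_cases hi : i = 0 <;> simp [hi]) (by
      intro k p hp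
      obtain ⟨hiso, hpos⟩ := hp
      -- the admissible values
      let A : Set ℝ := {t | ∃ (c : ℕ → X) (u : X), Iso (insert u (c '' Iic (k + 1))) ∧
        (∀ i ≤ k + 1, dist (c i) (p.1 i) ≤ p.2 i * (J (p.1 (k + 1)) - J u)) ∧ J u = t}
      have hAne : A.Nonempty := by
        refine ⟨J (p.1 (k + 1)), p.1, p.1 (k + 1), ?_, fun i _ => by simp, rfl⟩
        rwa [insert_eq_of_mem]
        exact ⟨k + 1, mem_Iic.2 le_rfl, rfl⟩
      have hAb : BddBelow A := ⟨L, by rintro t ⟨c, u, -, -, rfl⟩; exact hL u⟩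
      obtain ⟨t, ⟨c, u, hcu, hd, rfl⟩, ht⟩ := exists_lt_of_csInf_lt hAne
        (show sInf A < sInf A + (1 / 2 : ℝ) ^ k by
          have : (0 : ℝ) < (1 / 2 : ℝ) ^ k := by positivity
          linarith)
      obtain ⟨κ, hκ0, hκ1⟩ := hκ u ((1 / 2 : ℝ) ^ k) (by positivity)
      refine ⟨(fun i => if i ≤ k + 1 then c i else u, fun i => if i ≤ k + 1 then p.2 i else κ),
        ⟨?_, ?_⟩, ?_, ?_, ?_, ?_⟩
      · refine hI.mono ?_ hcu
        rintro x ⟨i, -, rfl⟩
        by_cases hi : i ≤ k + 1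
        · right
          exact ⟨i, hi, by simp [hi]⟩
        · left
          simp [hi]
      · intro i _
        by_cases hi : i ≤ k + 1
        · simpa [hi] using hpos i hi
        · simpa [hi] using hκ0
      · intro i hi
        simp only [hi, if_true]
        have : ¬ (k + 2 ≤ k + 1) := by omega
        simp only [this, if_false]
        exact hd i hi
      · intro c' u' hiso' hd'
        have h1 : ¬ (k + 2 ≤ k + 1) := by omega
        simp only [h1, if_false]
        have : sInf A ≤ J u' := csInf_le hAb ⟨c', u', hiso', hd', rfl⟩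
        linarith
      · intro i hi
        simp [hi]
      · intro x hx
        have h1 : ¬ (k + 2 ≤ k + 1) := by omega
        simp only [h1, if_false] at hx ⊢
        exact hκ1 x hx)
  -- notation
  set s : ℕ → ℕ → X := fun k => (σ k).1 with hs
  set κ : ℕ → ℕ → ℝ := fun k => (σ k).2 with hκdef
  have hiso : ∀ k, Iso (s k '' Iic (k + 1)) := fun k => (hσ k).1.1
  have hκpos : ∀ k i, i ≤ k + 1 → 0 < κ k i := fun k => (hσ k).1.2
  have hd : ∀ k i, i ≤ k + 1 → dist (s (k + 1) i) (s k i) ≤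
      κ k i * (J (s k (k + 1)) - J (s (k + 1) (k + 2))) := fun k => (hσ k).2.1
  have hopt : ∀ k (c : ℕ → X) (u : X), Iso (insert u (c '' Iic (k + 1))) →
      (∀ i ≤ k + 1, dist (c i) (s k i) ≤ κ k i * (J (s k (k + 1)) - J u)) →
      J (s (k + 1) (k + 2)) ≤ J u + (1 / 2 : ℝ) ^ k := fun k => (hσ k).2.2.1
  have hκs : ∀ k i, i ≤ k + 1 → κ (k + 1) i = κ k i := fun k => (hσ k).2.2.2.1
  have hcont : ∀ k x, dist x (s (k + 1) (k + 2)) ≤ κ (k + 1) (k + 2) * (J (s (k + 1) (k + 2)) - L) →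
      |J x - J (s (k + 1) (k + 2))| ≤ (1 / 2 : ℝ) ^ k := fun k => (hσ k).2.2.2.2
  let j : ℕ → ℝ := fun k => J (s k (k + 1))
  have hjs : ∀ k, j (k + 1) ≤ j k := by
    intro k
    have h1 := hd k 0 (by omega)
    have h2 := hκpos k 0 (by omega)
    have h3 : 0 ≤ κ k 0 * (j k - j (k + 1)) := le_trans dist_nonneg h1
    by_contra h
    push Not at h
    have : κ k 0 * (j k - j (k + 1)) < 0 := mul_neg_of_pos_of_neg h2 (by linarith)
    linarith
  have hjanti : Antitone j := antitone_nat_of_succ_le hjs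
  have hjL : ∀ k, L ≤ j k := fun k => hL _
  obtain ⟨m, hm⟩ : ∃ m, Tendsto j atTop (𝓝 m) :=
    ⟨_, tendsto_atTop_ciInf hjanti ⟨L, by rintro _ ⟨k, rfl⟩; exact hjL k⟩⟩
  have hmj : ∀ k, m ≤ j k := fun k => hjanti.le_of_tendsto hm k
  have hLm : L ≤ m := ge_of_tendsto' hm hjL
  -- stable constants
  have hκst : ∀ k l i, i ≤ k + 1 → κ (k + l) i = κ k i := by
    intro k l i hi
    induction l with
    | zero => rfl
    | succ l ih => rw [← add_assoc, hκs (k + l) i (by omega), ih]
  -- total change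
  have htot : ∀ k l i, i ≤ k + 1 → dist (s (k + l) i) (s k i) ≤ κ k i * (j k - j (k + l)) := by
    intro k l i hi
    induction l with
    | zero => simp
    | succ l ih =>
      have h1 := hd (k + l) i (by omega)
      rw [hκst k l i hi] at h1
      have h2 := dist_triangle (s (k + l + 1) i) (s (k + l) i) (s k i)
      have h3 : κ k i * (j k - j (k + (l + 1))) =
          κ k i * (j (k + l) - j (k + l + 1)) + κ k i * (j k - j (k + l)) := by
        rw [← add_assoc]; ring
      rw [h3, ← add_assoc]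
      have h1' : dist (s (k + l + 1) i) (s (k + l) i) ≤ κ k i * (j (k + l) - j (k + l + 1)) := h1
      linarith
  have hcau : ∀ i, CauchySeq (fun k => s k i) := by
    intro i
    refine Metric.cauchySeq_iff'.2 fun ε hε => ?_
    -- choose `k ≥ i` with `κ k i * (j k - m) < ε`
    have hpos : 0 < κ i i := hκpos i i (by omega)
    have hlim : Tendsto (fun k => κ i i * (j k - m)) atTop (𝓝 0) := by
      have := (hm.sub_const m).const_mul (κ i i)
      simpa using this
    obtain ⟨N, hN⟩ := (Filter.eventually_atTop.1 (hlim.eventually (gt_mem_nhds hε)))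
    refine ⟨max N i, fun n hn => ?_⟩
    obtain ⟨l, rfl⟩ := Nat.exists_eq_add_of_le hn
    have h1 := htot (max N i) l i (by have := le_max_right N i; omega)
    have h2 : κ (max N i) i = κ i i := by
      obtain ⟨l', hl'⟩ := Nat.exists_eq_add_of_le (le_max_right N i)
      rw [hl']
      exact hκst i l' i (by omega)
    rw [h2] at h1
    have h3 := hN (max N i) (le_max_left _ _)
    have h4 : κ i i * (j (max N i) - j (max N i + l)) ≤ κ i i * (j (max N i) - m) := by
      apply mul_le_mul_of_nonneg_left _ hpos.le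
      linarith [hmj (max N i + l)]
    exact lt_of_le_of_lt (h1.trans h4) h3
  have hb : ∀ i, ∃ x, Tendsto (fun k => s k i) atTop (𝓝 x) := fun i =>
    cauchySeq_tendsto_of_complete (hcau i)
  choose b hb using hb
  have hbd : ∀ k i, i ≤ k + 1 → dist (b i) (s k i) ≤ κ k i * (j k - m) := by
    intro k i hi
    have h1 : Tendsto (fun l => dist (s (k + l) i) (s k i)) atTop (𝓝 (dist (b i) (s k i))) := by
      have h2 : Tendsto (fun l => s (k + l) i) atTop (𝓝 (b i)) := by
        have := (hb i).comp (tendsto_add_atTop_nat k)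
        refine this.congr fun l => ?_
        simp [add_comm]
      exact h2.dist tendsto_const_nhds
    refine le_of_tendsto' h1 fun l => (htot k l i hi).trans ?_
    apply mul_le_mul_of_nonneg_left _ (hκpos k i hi).le
    linarith [hmj (k + l)]
  refine ⟨b, m, ?_, ?_, ?_, hLm, ?_⟩
  · -- closeness to `v`
    have h1 := hbd 0 0 (by omega)
    have h2 : s 0 0 = v := by simp [hs, hσ0]
    have h3 : κ 0 0 = η / (J u₀ - L + 1) := by simp [hκdef, hσ0]
    have h4 : j 0 = J u₀ := by simp [j, hs, hσ0]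
    rw [h2, h3, h4] at h1
    refine h1.trans ?_
    have hpos : 0 < J u₀ - L + 1 := by linarith [hL u₀]
    rw [div_mul_eq_mul_div, div_le_iff₀ hpos]
    apply mul_le_mul_of_nonneg_left _ hη.le
    linarith
  · -- isotropy of the limit
    refine hI.range fun n => ?_
    refine hI.lim n (fun k => s (k + n)) b (fun k => hI.mono (image_mono ?_) (hiso (k + n))) ?_
    · exact Iic_subset_Iic.2 (by omega)
    · intro i _
      exact (hb i).comp (tendsto_add_atTop_nat n)
  · -- `J (b k) → m`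
    have h1 : ∀ k, |J (b (k + 2)) - j (k + 1)| ≤ (1 / 2 : ℝ) ^ k := by
      intro k
      refine hcont k (b (k + 2)) ((hbd (k + 1) (k + 2) (by omega)).trans ?_)
      apply mul_le_mul_of_nonneg_left _ (hκpos (k + 1) (k + 2) (by omega)).le
      have : j (k + 1) = J (s (k + 1) (k + 2)) := rfl
      rw [this]
      linarith
    have h2 : Tendsto (fun k => J (b (k + 2)) - j (k + 1)) atTop (𝓝 0) := by
      refine squeeze_zero_norm (a := fun k => (1 / 2 : ℝ) ^ k) (fun k => ?_)
        (tendsto_pow_atTop_nhds_zero_of_lt_one (by norm_num) (by norm_num))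
      simpa using h1 k
    have h3 : Tendsto (fun k => J (b (k + 2))) atTop (𝓝 m) := by
      have := h2.add (hm.comp (tendsto_add_atTop_nat 1))
      simpa using this
    exact (tendsto_add_atTop_iff_nat 2).1 h3
  · -- robust greedy property
    intro g hg
    obtain ⟨k, hk⟩ : ∃ k : ℕ, (1 / 2 : ℝ) ^ k < g := exists_pow_lt_of_lt_one hg (by norm_num)
    obtain ⟨κ₀, hκ₀, hκ₀le⟩ : ∃ κ₀ > 0, ∀ i ≤ k + 1, κ₀ ≤ κ k i := by
      have hfin : (Iic (k + 1)).Finite := finite_Iic _
      obtain ⟨i₀, hi₀, hmin⟩ := Set.exists_min_image (Iic (k + 1)) (κ k) hfin ⟨0, by simp⟩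
      exact ⟨κ k i₀, hκpos k i₀ hi₀, fun i hi => hmin i hi⟩
    refine ⟨k + 1, κ₀ * g, by positivity, fun c u hc hcu => ?_⟩
    by_contra hlt
    push Not at hlt
    have h1 := hopt k c u hcu (fun i hi => by
      have h2 := dist_triangle (c i) (b i) (s k i)
      have h3 := hc i hi
      have h4 := hbd k i hi
      have h5 := hκ₀le i hi
      have h6 := hκpos k i hi
      have h7 : κ₀ * g ≤ κ k i * g := mul_le_mul_of_nonneg_right h5 hg.le
      have h8 : κ k i * (j k - m) + κ k i * g ≤ κ k i * (J (s k (k + 1)) - J u) := by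
        rw [← mul_add]
        apply mul_le_mul_of_nonneg_left _ h6.le
        show j k - m + g ≤ j k - J u
        linarith
      linarith)
    have h2 : m ≤ j (k + 1) := hmj (k + 1)
    have h3 : j (k + 1) = J (s (k + 1) (k + 2)) := rfl
    linarith

end Crest.Agent.R105.Sel_658
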