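import Crest.Agent.R105.Bd3_775
import Crest.Agent.R105.IfB0_641
import Crest.Agent.R105.Sel1_658

/-!
# Row 105, S0139 [B]: the honest class satisfies the hypotheses of 658's `select` (helper775)

* `cv_of_tendsto` : convergence in `metr hC` gives `Cv`
* `isoPred hC : IsoPred (IsoH C)` in the metric space `metr hC`
* `continuous_di`, `continuous_J`
-/

set_option autoImplicit false
set_option linter.style.haveILetI false

open MeasureTheory Set Filter Topology Metric
open scoped NNReal ENNReal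

namespace Crest.Agent.R105.Bd_775

noncomputable section

section
variable {C : Set ℂ}

lemma unif_bdd {a : ℕ → ℂ → ℝ} (h : ∀ n, ∃ M, ∀ z, |a n z| ≤ M) {M₀ : ℝ}
    (h' : ∀ᶠ n in atTop, ∀ z, |a n z| ≤ M₀) : ∃ M, ∀ n z, |a n z| ≤ M := by
  obtain ⟨N, hN⟩ := eventually_atTop.1 h'
  choose M hM using h
  refine ⟨(Finset.range N).sum (fun k => |M k|) + |M₀|, fun n z => ?_⟩
  by_cases hn : N ≤ n
  · have h1 := hN n hn z
    have h2 : 0 ≤ (Finset.range N).sum (fun k => |M k|) := Finset.sum_nonneg fun _ _ => abs_nonneg _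
    linarith [le_abs_self M₀]
  · have h1 := hM n z
    have h2 : |M n| ≤ (Finset.range N).sum (fun k => |M k|) :=
      Finset.single_le_sum (f := fun k => |M k|) (fun _ _ => abs_nonneg _)
        (Finset.mem_range.2 (not_le.1 hn))
    linarith [le_abs_self (M n), abs_nonneg M₀]

/-- convergence in the metric gives `Cv` -/
theorem cv_of_tendsto (hC : IsClosed C) {x : ℕ → Hn C} {y : Hn C}
    (h : letI := metr hC; Tendsto x atTop (𝓝 y)) : Cv C (fun n => (x n).1) y.1 := by
  letI := metr hC
  have hn : ∀ r > 0, ∀ᶠ n in atTop, Near C r (x n).1 y.1 := by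
    intro r hr
    filter_upwards [(Metric.tendsto_nhds.1 h) r hr] with n hn
    exact near_of_dist_lt hC hn
  refine ⟨fun r hr => ?_, ?_, fun ε hε => ?_⟩
  · filter_upwards [hn (min r (1 / 2)) (by positivity)] with n h1 z hz
    rcases h1.off with h2 | h2
    · have := h2.trans (min_le_right r (1 / 2)); norm_num at this
    · exact h2 z fun h3 => hz (thickening_mono (min_le_left _ _) C h3)
  · obtain ⟨M, hM⟩ := y.2.bdd
    refine unif_bdd (fun n => (x n).2.bdd) (M₀ := M + 1) ?_
    filter_upwards [hn 1 one_pos] with n h1 z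
    have h2 := h1.sup z
    have h3 : |(x n).1 z| ≤ |(x n).1 z - y.1 z| + |y.1 z| := by
      have := abs_add_le ((x n).1 z - y.1 z) (y.1 z)
      rwa [sub_add_cancel] at this
    linarith [hM z]
  · obtain ⟨r, hr, h1⟩ := y.2.q.small hC (ε := ε / 4) (by positivity)
    have hρ : 0 < Real.sqrt (ε / 4) := Real.sqrt_pos.2 (by positivity)
    refine ⟨r, hr, ?_⟩
    filter_upwards [hn (Real.sqrt (ε / 4)) hρ] with n h2
    have h3 := h2.enr
    rw [Real.sq_sqrt (by positivity)] at h3
    have h4 : Ln C r (x n).1 ≤ ENNReal.ofReal 2 * Ln C r (fun w => (x n).1 w - y.1 w) +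
        ENNReal.ofReal 2 * Ln C r y.1 := by
      refine Ln_le_of_ae (by norm_num) (by norm_num) ?_
      filter_upwards [ae_diff_near hC (x n).2.q r, ae_diff_near hC y.2.q r] with z d1 d2
      have := en_add_le (u := fun w => (x n).1 w - y.1 w) (v := y.1) (d1.fun_sub d2) d2
      have e : (fun w => (x n).1 w - y.1 w + y.1 w) = (x n).1 := by funext w; ring
      rwa [e] at this
    refine h4.trans ?_
    have h5 : Ln C r (fun w => (x n).1 w - y.1 w) ≤ ENNReal.ofReal (ε / 4) :=
      (lintegral_mono_set inter_subset_left).trans h3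
    calc _ ≤ ENNReal.ofReal 2 * ENNReal.ofReal (ε / 4) + ENNReal.ofReal 2 * ENNReal.ofReal (ε / 4) := by
          gcongr
      _ = ENNReal.ofReal ε := by
          rw [← ENNReal.ofReal_mul (by norm_num), ← ENNReal.ofReal_add (by positivity) (by positivity)]
          congr 1; ring

/-- isotropic sets of honest functions -/
def IsoH (C : Set ℂ) (S : Set (Hn C)) : Prop :=
  IfB_641.Iso C ((fun x : Hn C => x.1) '' S)

/-- finite support of generation -/
lemma gen_finite {S : Set (ℂ → ℝ)} {u : ℂ → ℝ} (h : IfB_641.Gen C S u) :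
    ∃ F ⊆ S, F.Finite ∧ IfB_641.Gen C F u := by
  unfold IfB_641.Gen at h
  induction h with
  | const c => exact ⟨∅, empty_subset _, finite_empty, IfB_641.Gen.const c⟩
  | lc h' => exact ⟨∅, empty_subset _, finite_empty, IfB_641.Gen.lc h'⟩
  | of i => exact ⟨{i.1}, singleton_subset_iff.2 i.2, finite_singleton _,
      IfB_641.Gen.of (mem_singleton _)⟩
  | add _ _ h1 h2 =>
    obtain ⟨F, hF, fF, gF⟩ := h1
    obtain ⟨G, hG, fG, gG⟩ := h2
    exact ⟨F ∪ G, union_subset hF hG, fF.union fG,
      IfB_641.Gen.add (gF.mono subset_union_left) (gG.mono subset_union_right)⟩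
  | mul _ _ h1 h2 =>
    obtain ⟨F, hF, fF, gF⟩ := h1
    obtain ⟨G, hG, fG, gG⟩ := h2
    exact ⟨F ∪ G, union_subset hF hG, fF.union fG,
      IfB_641.Gen.mul (gF.mono subset_union_left) (gG.mono subset_union_right)⟩
  | comp hh _ h1 =>
    obtain ⟨F, hF, fF, gF⟩ := h1
    exact ⟨F, hF, fF, IfB_641.Gen.comp hh gF⟩

theorem iso_of_finite {S : Set (ℂ → ℝ)} (h : ∀ F ⊆ S, F.Finite → IfB_641.Iso C F) :
    IfB_641.Iso C S := by
  intro u v hu hv
  obtain ⟨F, hF, fF, gF⟩ := gen_finite hu
  obtain ⟨G, hG, fG, gG⟩ := gen_finite hv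
  exact h (F ∪ G) (union_subset hF hG) (fF.union fG) u v (gF.mono subset_union_left)
    (gG.mono subset_union_right)

/-- the hypotheses of `Sel_658.select` -/
theorem isoPred (hC : IsClosed C) :
    letI := metr hC; Sel_658.IsoPred (IsoH C) := by
  letI := metr hC
  refine ⟨fun hST hT => IfB_641.Iso.mono (image_mono hST) hT, ?_, ?_⟩
  · intro S h
    refine iso_of_finite fun F hF fF => ?_
    obtain ⟨F', hF', fF', rfl⟩ := exists_subset_image_finite_and.1 ⟨F, hF, fF, rfl⟩
    exact h F' hF' fF'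
  · intro n s b hs hb
    unfold IsoH at hs ⊢
    have e : ∀ t : ℕ → Hn C, (fun x : Hn C => x.1) '' (t '' Iic n) =
        range (fun i : Iic n => (t i).1) := by
      intro t
      rw [image_image]
      ext u
      constructor
      · rintro ⟨i, hi, rfl⟩; exact ⟨⟨i, hi⟩, rfl⟩
      · rintro ⟨i, rfl⟩; exact ⟨i.1, i.2, rfl⟩
    rw [e b, IfB_641.iso_range]
    refine iso_of_cv (b := fun k (i : Iic n) => (s k i).1) hC (fun k i => (s k i).2.q)
      (fun i => (b i).2.q) (fun i => ?_) (Frequently.of_forall fun k => ?_)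
    · exact cv_of_tendsto hC (x := fun k => s k i) (hb i i.2)
    · rw [← IfB_641.iso_range, ← e (s k)]
      exact hs k

/-! ### continuity of the energy -/

lemma setIntegral_en_eq {u : ℂ → ℝ} (hu : Q C u) :
    ENNReal.ofReal (∫ z in Cᶜ, en u z) = ∫⁻ z in Cᶜ, ENNReal.ofReal (en u z) :=
  ofReal_integral_eq_lintegral_ofReal hu.fin (Eventually.of_forall fun z => en_nonneg u z)

lemma en_integral_le {u : ℂ → ℝ} (hu : Q C u) {K : ℝ} (hK : 0 ≤ K)
    (h : ∫⁻ z in Cᶜ, ENNReal.ofReal (en u z) ≤ ENNReal.ofReal K) : ∫ z in Cᶜ, en u z ≤ K := by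
  rw [← setIntegral_en_eq hu] at h
  exact (ENNReal.ofReal_le_ofReal_iff hK).1 h

lemma di_self (u : ℂ → ℝ) : IfB_641.di C u u = ∫ z in Cᶜ, en u z := by
  unfold IfB_641.di; congr 1; funext z; unfold dot en; ring

lemma di_self_nonneg (u : ℂ → ℝ) : 0 ≤ IfB_641.di C u u := by
  rw [di_self]; exact integral_nonneg fun z => en_nonneg u z

/-- the energy of `u` against that of `v` -/
lemma di_le (hC : IsClosed C) {u v : ℂ → ℝ} (hu : Q C u) (hv : Q C v) {t : ℝ} (ht : 0 < t) :
    IfB_641.di C u u ≤ (1 + t) * IfB_641.di C v v +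
      (1 + 1 / t) * IfB_641.di C (fun w => u w - v w) (fun w => u w - v w) := by
  rw [di_self, di_self, di_self]
  have hw := hu.sub hC hv
  rw [← integral_const_mul, ← integral_const_mul, ← integral_add (hv.fin.const_mul _)
    (hw.fin.const_mul _)]
  refine integral_mono_ae hu.fin ((hv.fin.const_mul _).add (hw.fin.const_mul _)) ?_
  filter_upwards [hu.ae_diff hC, hv.ae_diff hC] with z d1 d2
  unfold en
  rw [gx_sub d1 d2, gy_sub d1 d2]
  have key : ∀ a b : ℝ, a ^ 2 ≤ (1 + t) * b ^ 2 + (1 + 1 / t) * (a - b) ^ 2 := by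
    intro a b
    have : (1 + t) * b ^ 2 + (1 + 1 / t) * (a - b) ^ 2 - a ^ 2 = (t * b - (a - b)) ^ 2 / t := by
      field_simp; ring
    have h3 : 0 ≤ (t * b - (a - b)) ^ 2 / t := by positivity
    linarith
  have e1 := key (gx u z) (gx v z)
  have e2 := key (gy u z) (gy v z)
  linarith

theorem continuous_di (hC : IsClosed C) :
    letI := metr hC; Continuous fun x : Hn C => IfB_641.di C x.1 x.1 := by
  letI := metr hC
  rw [Metric.continuous_iff']
  intro y ε hε
  set A := IfB_641.di C y.1 y.1 with hA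
  have hA0 : 0 ≤ A := di_self_nonneg _
  -- choose the weight
  obtain ⟨t, ht, ht1, htA⟩ : ∃ t : ℝ, 0 < t ∧ t ≤ 1 ∧ t * (A + 1) ≤ ε / 8 := by
    refine ⟨min 1 (ε / (8 * (A + 1))), by positivity, min_le_left _ _, ?_⟩
    calc min 1 (ε / (8 * (A + 1))) * (A + 1) ≤ (ε / (8 * (A + 1))) * (A + 1) := by
          gcongr; exact min_le_right _ _
      _ = ε / 8 := by field_simp
  set s : ℝ := min 1 (t * ε / 16) with hs
  have hs0 : 0 < s := by positivity
  have hsr : 0 < Real.sqrt s := Real.sqrt_pos.2 hs0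
  filter_upwards [Metric.ball_mem_nhds y hsr] with x hx
  have hn := near_of_dist_lt hC (Metric.mem_ball.1 hx)
  have h1 : IfB_641.di C (fun w => x.1 w - y.1 w) (fun w => x.1 w - y.1 w) ≤ s := by
    rw [di_self]
    refine en_integral_le (x.2.q.sub hC y.2.q) hs0.le ?_
    have := hn.enr
    rwa [Real.sq_sqrt hs0.le] at this
  have h2 : IfB_641.di C (fun w => y.1 w - x.1 w) (fun w => y.1 w - x.1 w) ≤ s := by
    rw [di_self] at h1 ⊢
    refine le_trans (le_of_eq ?_) h1
    congr 1; funext z; exact en_sub_comm _ _ _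
  have h3 := di_le hC x.2.q y.2.q ht
  have h4 := di_le hC y.2.q x.2.q ht
  rw [← hA] at h3 h4
  set B := IfB_641.di C x.1 x.1 with hB
  have hts : (1 + 1 / t) * s ≤ ε / 8 := by
    have h5 : s ≤ t * ε / 16 := min_le_right _ _
    calc (1 + 1 / t) * s ≤ (1 + 1 / t) * (t * ε / 16) := by gcongr
      _ = (t + 1) * ε / 16 := by field_simp
      _ ≤ ε / 8 := by nlinarith
  have h5 : B ≤ A + ε / 4 := by
    have : (1 + 1 / t) * IfB_641.di C (fun w => x.1 w - y.1 w) (fun w => x.1 w - y.1 w) ≤
      (1 + 1 / t) * s := mul_le_mul_of_nonneg_left h1 (by positivity)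
    nlinarith
  have h6 : A ≤ B + t * B + ε / 8 := by
    have : (1 + 1 / t) * IfB_641.di C (fun w => y.1 w - x.1 w) (fun w => y.1 w - x.1 w) ≤
      (1 + 1 / t) * s := mul_le_mul_of_nonneg_left h2 (by positivity)
    nlinarith
  have h7 : t * B ≤ ε / 8 + ε / 4 := by
    have : t * B ≤ t * (A + ε / 4) := mul_le_mul_of_nonneg_left h5 ht.le
    nlinarith
  rw [Real.dist_eq, abs_lt]
  constructor <;> linarith

/-- the linear term is continuous -/
theorem continuous_lin (hC : IsClosed C) {g : ℂ → ℝ} (hg : Integrable g) :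
    letI := metr hC; Continuous fun x : Hn C => ∫ z, x.1 z * g z := by
  letI := metr hC
  rw [Metric.continuous_iff']
  intro y ε hε
  set A := ∫ z, |g z| with hA
  have hA0 : 0 ≤ A := integral_nonneg fun z => abs_nonneg _
  have hint : ∀ x : Hn C, Integrable fun z => x.1 z * g z := by
    intro x
    obtain ⟨M, hM⟩ := x.2.bdd
    exact hg.bdd_mul x.2.cont.aestronglyMeasurable (Eventually.of_forall fun z => by
      rw [Real.norm_eq_abs]; exact hM z)
  filter_upwards [Metric.ball_mem_nhds y (show 0 < ε / (A + 1) by positivity)] with x hx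
  have hn := near_of_dist_lt hC (Metric.mem_ball.1 hx)
  rw [Real.dist_eq, ← integral_sub (hint x) (hint y)]
  calc |∫ z, (x.1 z * g z - y.1 z * g z)| ≤ ∫ z, |x.1 z * g z - y.1 z * g z| :=
        abs_integral_le_integral_abs
    _ ≤ ∫ z, (ε / (A + 1)) * |g z| := by
        refine integral_mono_of_nonneg (Eventually.of_forall fun z => abs_nonneg _)
          (hg.abs.const_mul _) (Eventually.of_forall fun z => ?_)
        simp only []
        rw [← sub_mul, abs_mul]
        exact mul_le_mul_of_nonneg_right (hn.sup z) (abs_nonneg _)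
    _ = (ε / (A + 1)) * A := by rw [integral_const_mul]
    _ < ε := by
        rw [div_mul_eq_mul_div, div_lt_iff₀ (by positivity)]
        nlinarith

theorem continuous_J (hC : IsClosed C) {x0 : ℂ → ℝ} (hx0 : Integrable (IfB_641.lap x0)) :
    letI := metr hC; Continuous fun x : Hn C => IfB_641.J C x0 x.1 := by
  letI := metr hC
  unfold IfB_641.J
  exact (continuous_di hC).sub (continuous_const.mul (continuous_lin hC hx0))

end

end

end Crest.Agent.R105.Bd_775
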