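import Crest.Agent.R105.Asm0_6
import Crest.Agent.R105.Bd4_775

/-!
# Row 105, S0139 [B], ATTP, part C5 (a): energy inequalities, the good sequence (helper6)
-/

set_option autoImplicit false

open MeasureTheory Set Filter Topology Metric Bornology
open scoped ContDiff NNReal

namespace Crest.Agent.R105.Asm_6

open Crest.Agent.R105.IfB_641

variable {C : Set ℂ} {x0 u v φ ψ : ℂ → ℝ} {b : ℕ → ℂ → ℝ} {m : ℝ}

theorem Gen.d (hC : IsClosed C) {S : Set (ℂ → ℝ)} (hS : ∀ s ∈ S, D C s) (hu : Gen C S u) :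
    D C u :=
  (Gen.q hC (fun s hs => (hS s hs).q) hu).d
    (Bd_775.Gen.cont (fun i => (hS _ i.2).cont) hu)

theorem min_gen (hC : IsClosed C) (hs : Sel C x0 b m) (hφ : Gen C (range b) φ) :
    m ≤ J C x0 φ := by
  have hd : D C φ := Gen.d hC (by rintro _ ⟨i, rfl⟩; exact hs.mem i) hφ
  refine hs.min φ (Or.inl hd) (Iso.trans ?_ hs.iso)
  intro s hs'
  rcases hs' with rfl | hs'
  · exact hφ
  · exact Gen.of hs'

theorem di_const_right (u : ℂ → ℝ) (c : ℝ) : di C u (fun _ => c) = 0 := by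
  unfold di
  have : ∀ z, dot u (fun _ => c) z = 0 := fun z => by
    unfold Bd_775.dot; rw [Bd_775.gx_const, Bd_775.gy_const]; ring
  simp only [this, integral_zero]

/-- `∫ lap x0 = 0` -/
theorem int_lap (hC : IsClosed C) (hx : X0 C x0) (hs : Sel C x0 b m) : ∫ z, lap x0 z = 0 := by
  have h1 : ∀ t : ℝ, m ≤ J C x0 (b 0) - 2 * t * ∫ z, lap x0 z := by
    intro t
    have hg : Gen C (range b) (fun z => b 0 z + t * (1 : ℝ)) :=
      Gen.add (Gen.of (mem_range_self 0)) (Gen.smul t (Gen.const 1))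
    have h2 := min_gen hC hs hg
    have h3 := J_expand hC hx (hs.mem 0).q (Bd_775.Q.const C 1) t
    rw [di_const_right, di_const_right] at h3
    simp only [one_mul] at h3
    linarith
  by_contra hne
  set I := ∫ z, lap x0 z with hI
  have h2 := h1 ((J C x0 (b 0) - m + 1) / (2 * I))
  have h3 : 2 * ((J C x0 (b 0) - m + 1) / (2 * I)) * I = J C x0 (b 0) - m + 1 := by
    field_simp
  linarith

theorem J_add_const (hC : IsClosed C) (hx : X0 C x0) (h0 : ∫ z, lap x0 z = 0) (hu : Q C u)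
    (c : ℝ) : J C x0 (fun z => u z + c) = J C x0 u := by
  have h3 := J_expand hC hx hu (Bd_775.Q.const C 1) c
  rw [di_const_right, di_const_right] at h3
  simp only [one_mul, mul_one, h0, sub_zero, mul_zero, add_zero] at h3
  exact h3

/-- parallelogram -/
theorem para (hC : IsClosed C) (hx : X0 C x0) (hs : Sel C x0 b m) (hu : Gen C (range b) u)
    (hv : Gen C (range b) v) :
    di C (fun z => v z - u z) (fun z => v z - u z) ≤ 2 * (J C x0 u - m) + 2 * (J C x0 v - m) := by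
  have hS : ∀ s ∈ range b, D C s := by rintro _ ⟨i, rfl⟩; exact hs.mem i
  have qu : Q C u := (Gen.d hC hS hu).q
  have qv : Q C v := (Gen.d hC hS hv).q
  have qw : Q C (fun z => v z - u z) := qv.sub hC qu
  have e1 := J_expand hC hx qu qw 1
  have e2 := J_expand hC hx qu qw (1 / 2)
  have e3 : (fun z => u z + 1 * (v z - u z)) = v := by funext z; ring
  rw [e3] at e1
  have h1 : m ≤ J C x0 (fun z => u z + 1 / 2 * (v z - u z)) :=
    min_gen hC hs (Gen.add hu (Gen.smul (1 / 2) (Gen.sub hv hu)))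
  rw [e2] at h1
  linarith

/-- near Euler-Lagrange -/
theorem near_el (hC : IsClosed C) (hx : X0 C x0) (hs : Sel C x0 b m) (hu : Gen C (range b) u)
    (hψ : Gen C (range b) ψ) :
    (di C u ψ - ∫ z, ψ z * lap x0 z) ^ 2 ≤ (J C x0 u - m) * di C ψ ψ := by
  have hS : ∀ s ∈ range b, D C s := by rintro _ ⟨i, rfl⟩; exact hs.mem i
  have qu : Q C u := (Gen.d hC hS hu).q
  have qψ : Q C ψ := (Gen.d hC hS hψ).q
  set A := di C u ψ - ∫ z, ψ z * lap x0 z with hA
  set B := di C ψ ψ with hB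
  have h1 : ∀ t : ℝ, 0 ≤ B * (t * t) + (2 * A) * t + (J C x0 u - m) := by
    intro t
    have h2 := min_gen hC hs (Gen.add hu (Gen.smul t hψ))
    rw [J_expand hC hx qu qψ t] at h2
    nlinarith
  have h2 := discrim_le_zero h1
  unfold discrim at h2
  nlinarith

theorem di_nonneg (u : ℂ → ℝ) : 0 ≤ di C u u := Bd_775.di_self_nonneg u

theorem di_sub_comm (u v : ℂ → ℝ) :
    di C (fun z => u z - v z) (fun z => u z - v z) =
      di C (fun z => v z - u z) (fun z => v z - u z) := by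
  rw [Bd_775.di_self, Bd_775.di_self]
  congr 1; funext z; exact Bd_775.en_sub_comm _ _ _

theorem di_sub_const (u : ℂ → ℝ) (c : ℝ) :
    di C (fun z => u z + c) (fun z => u z + c) = di C u u := by
  rw [Bd_775.di_self, Bd_775.di_self]
  congr 1; funext z
  unfold Bd_775.en Bd_775.gx Bd_775.gy
  rw [fderiv_add_const]

theorem di_comp_le (hC : IsClosed C) (hu : Q C u) {h : ℝ → ℝ} (hh : LipschitzWith 1 h) :
    di C (fun z => h (u z)) (fun z => h (u z)) ≤ di C u u := by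
  rw [Bd_775.di_self, Bd_775.di_self]
  refine integral_mono_ae (hu.comp hC hh).fin hu.fin ?_
  filter_upwards [hu.ae_diff hC] with z hz
  have := Bd_775.en_comp_le hh hz
  simpa using this

/-! ### the clamp -/

theorem cl_lip (δ : ℝ) : LipschitzWith 1 (cl δ) := by
  unfold cl
  exact (LipschitzWith.id.min_const δ).const_max (-δ)

theorem cl_of_le {δ s : ℝ} (h : |s| ≤ δ) : cl δ s = s := by
  unfold cl
  rw [min_eq_left (abs_le.1 h).2, max_eq_right (abs_le.1 h).1]

theorem abs_cl_le {δ : ℝ} (h : 0 ≤ δ) (s : ℝ) : |cl δ s| ≤ δ := by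
  unfold cl
  rw [abs_le]
  exact ⟨le_max_left _ _, max_le (by linarith) (min_le_right _ _)⟩

theorem cl_sub_le (δ s t : ℝ) : |cl δ s - cl δ t| ≤ |s - t| := by
  have := (cl_lip δ).dist_le_mul s t
  rw [Real.dist_eq, Real.dist_eq] at this
  simpa using this

theorem lap_zero_far {R0 : ℝ} (h0 : ∀ z, R0 ≤ ‖z‖ → x0 z = z.re) {z : ℂ} (hz : R0 < ‖z‖) :
    lap x0 z = 0 := by
  have : x0 =ᶠ[𝓝 z] fun w : ℂ => w.re := by
    have ho : IsOpen {w : ℂ | R0 < ‖w‖} := isOpen_lt continuous_const continuous_norm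
    filter_upwards [ho.mem_nhds hz] with w hw using h0 w (le_of_lt hw)
  rw [(lap_of_eq this).eq_of_nhds, lap_re]; rfl

theorem J_clamp_le (hC : IsClosed C) {R0 K : ℝ} (h0 : ∀ z, R0 ≤ ‖z‖ → x0 z = z.re) (hu : Q C u)
    (hK : ∀ z, ‖z‖ ≤ R0 → |u z| ≤ K) : J C x0 (fun z => cl K (u z)) ≤ J C x0 u := by
  unfold J
  have h1 := di_comp_le hC hu (cl_lip K)
  have h2 : ∫ z, cl K (u z) * lap x0 z = ∫ z, u z * lap x0 z := by
    congr 1; funext z
    by_cases hz : ‖z‖ ≤ R0
    · rw [cl_of_le (hK z hz)]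
    · rw [lap_zero_far h0 (not_le.1 hz)]; ring
  rw [h2]; linarith

/-! ### the good sequence -/

theorem Mn.mono {e e' : ℝ} (h : Mn u e) (he : e ≤ e') : Mn u e' := by
  intro p
  refine ⟨fun hb => (h p).1 (hb.subset (connectedComponentIn_mono p ?_)),
    fun hb => (h p).2 (hb.subset (connectedComponentIn_mono p ?_))⟩
  · intro w (hw : u w < u p + e)
    show u w < u p + e'
    linarith
  · intro w (hw : u p - e < u w)
    show u p - e' < u w
    linarith

/-- output of part (a) -/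
structure GS (C : Set ℂ) (x0 : ℂ → ℝ) (b : ℕ → ℂ → ℝ) (m : ℝ) (χ : ℕ → ℂ → ℝ) : Prop where
  gen : ∀ k, Gen C (range b) (χ k)
  bdd : ∃ K : ℝ, ∀ k z, |χ k z| ≤ K
  uni : ∀ R h : ℝ, 0 < h → ∃ K : ℕ, ∀ k l, K ≤ k → K ≤ l → ∀ z, ‖z‖ ≤ R → |χ k z - χ l z| ≤ h
  lim : Tendsto (fun k => J C x0 (χ k)) atTop (𝓝 m)

theorem exists_gs (h2 : C2P) (h4 : C4P) (hC : TD C) (hx : X0 C x0) (hs : Sel C x0 b m) :
    ∃ χ, GS C x0 b m χ := by
  have hcl : IsClosed C := hC.cpt.isClosed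
  have hS : ∀ s ∈ range b, D C s := by rintro _ ⟨i, rfl⟩; exact hs.mem i
  have hlap := int_lap hcl hx hs
  choose φ hφD hφg hφc hφJ hφM using fun k : ℕ => h2 C x0 hC hx b m hs (1 / ((k : ℝ) + 1))
    (by positivity)
  -- energies
  have hpara : ∀ k l, di C (fun z => φ l z - φ k z) (fun z => φ l z - φ k z) ≤
      2 * (1 / ((k : ℝ) + 1)) + 2 * (1 / ((l : ℝ) + 1)) := by
    intro k l
    have h1 := para hcl hx hs (hφg k) (hφg l)
    have h2 := hφJ k
    have h3 := hφJ l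
    linarith
  obtain ⟨E, hE0, hE⟩ : ∃ E : ℝ, 0 < E ∧ ∀ k, di C (φ k) (φ k) ≤ E := by
    refine ⟨2 * di C (φ 0) (φ 0) + 2 * 4 + 1, ?_, fun k => ?_⟩
    · have := di_nonneg (C := C) (φ 0); linarith
    · have h1 := Bd_775.di_le hcl (hφD k).q (hφD 0).q (t := 1) one_pos
      have h2 := hpara 0 k
      have h3 : (1 : ℝ) / ((k : ℝ) + 1) ≤ 1 := by
        rw [div_le_one (by positivity)]; linarith [Nat.cast_nonneg (α := ℝ) k]
      norm_num at h1 h2
      have h4 : ((k : ℝ) + 1)⁻¹ ≤ 1 := by rw [← one_div]; exact h3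
      linarith
  -- a radius
  obtain ⟨R0, hR0, hCR, hxR⟩ : ∃ R0 : ℝ, 0 < R0 ∧ C ⊆ ball 0 R0 ∧ ∀ z, R0 ≤ ‖z‖ → x0 z = z.re := by
    obtain ⟨R1, hR1⟩ := hC.cpt.isBounded.subset_ball (0 : ℂ)
    obtain ⟨R2, hR2⟩ := hx.far
    refine ⟨max (max R1 R2) 1, lt_max_of_lt_right one_pos,
      hR1.trans (ball_subset_ball ((le_max_left _ _).trans (le_max_left _ _))), fun z hz => ?_⟩
    exact hR2 z (((le_max_right _ _).trans (le_max_left _ _)).trans hz)
  -- uniform estimate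
  have huni : ∀ R h : ℝ, 0 < h → ∃ K : ℕ, ∀ k l, K ≤ k → K ≤ l → ∀ z, ‖z‖ ≤ R →
      |(φ k z - φ k 0) - (φ l z - φ l 0)| ≤ h := by
    intro R h hh
    obtain ⟨δ, hδ, H⟩ := h4 C x0 hC hx (max R R0) (lt_max_of_lt_right hR0)
      (hCR.trans (ball_subset_ball (le_max_right _ _)))
      (fun z hz => hxR z ((le_max_right _ _).trans hz)) (range b) hS hs.iso h hh E hE0
    obtain ⟨K, hK⟩ := exists_nat_one_div_lt (show (0 : ℝ) < min (h / 16) (δ / 4) by positivity)
    have hK' : ∀ k, K ≤ k → 1 / ((k : ℝ) + 1) ≤ min (h / 16) (δ / 4) := fun k hk =>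
      (Nat.one_div_le_one_div hk).trans hK.le
    refine ⟨K, fun k l hk hl z hz => ?_⟩
    have h1 := hK' k hk
    have h2 := hK' l hl
    have h3 := H (φ l) (φ k) (hφg l) (hφg k)
      ((hφM l).mono (h2.trans (min_le_left _ _))) ((hφM k).mono (h1.trans (min_le_left _ _)))
      (hE l) (hE k) (by
        have h5 := hpara l k
        have h6 := h1.trans (min_le_right _ _)
        have h7 := h2.trans (min_le_right _ _)
        linarith) z 0 (hz.trans (le_max_left _ _)) (by simp [hR0.le])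
    have e : (φ k z - φ k 0) - (φ l z - φ l 0) = (φ k z - φ l z) - (φ k 0 - φ l 0) := by ring
    rw [e]; exact h3
  -- bound on the ball
  obtain ⟨K1, hK1⟩ := huni R0 1 one_pos
  obtain ⟨M, hM⟩ := (hφD K1).bdd
  set K0 : ℝ := 2 * M + 1 with hK0
  have hM0 : 0 ≤ M := (abs_nonneg _).trans (hM 0)
  have hbd : ∀ k, K1 ≤ k → ∀ z, ‖z‖ ≤ R0 → |φ k z - φ k 0| ≤ K0 := by
    intro k hk z hz
    have h1 := hK1 k K1 hk le_rfl z hz
    have h2 := hM z
    have h3 := hM 0
    rw [abs_le] at h1 h2 h3 ⊢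
    constructor <;> linarith [h1.1, h1.2, h2.1, h2.2, h3.1, h3.2]
  have hψg : ∀ k, Gen C (range b) (fun z => φ k z - φ k 0) := fun k =>
    Gen.sub (hφg k) (Gen.const _)
  refine ⟨fun k z => cl K0 (φ (k + K1) z - φ (k + K1) 0), fun k => ?_, ⟨K0, fun k z => ?_⟩, ?_, ?_⟩
  · exact Gen.comp (cl_lip K0) (hψg (k + K1))
  · exact abs_cl_le (by linarith) _
  · intro R h hh
    obtain ⟨K, hK⟩ := huni R h hh
    refine ⟨K, fun k l hk hl z hz => (cl_sub_le _ _ _).trans ?_⟩
    exact hK (k + K1) (l + K1) (by omega) (by omega) z hz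
  · have hJ : ∀ k, J C x0 (fun z => cl K0 (φ (k + K1) z - φ (k + K1) 0)) ≤
        m + 1 / ((k : ℝ) + 1) := by
      intro k
      refine (J_clamp_le hcl hxR (Gen.d hcl hS (hψg (k + K1))).q (hbd _ (by omega))).trans ?_
      have e1 := J_add_const hcl hx hlap (hφD (k + K1)).q (-φ (k + K1) 0)
      have e2 : (fun z => φ (k + K1) z - φ (k + K1) 0) =
          fun z => φ (k + K1) z + -φ (k + K1) 0 := by funext z; ring
      rw [e2, e1]
      refine (hφJ (k + K1)).trans ?_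
      have : (1 : ℝ) / (((k + K1 : ℕ) : ℝ) + 1) ≤ 1 / ((k : ℝ) + 1) :=
        Nat.one_div_le_one_div (by omega)
      linarith
    refine tendsto_of_tendsto_of_tendsto_of_le_of_le tendsto_const_nhds ?_
      (fun k => min_gen hcl hs (Gen.comp (cl_lip K0) (hψg (k + K1)))) hJ
    have : Tendsto (fun k : ℕ => m + 1 / ((k : ℝ) + 1)) atTop (𝓝 (m + 0)) :=
      tendsto_const_nhds.add tendsto_one_div_add_atTop_nhds_zero_nat
    simpa using this

end Crest.Agent.R105.Asm_6
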