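import Crest.Agent.R105.Dir4_508

/-!
# Row 105, LIB-DIR 5: holomorphic completion, carrier free (helper508)

* `completion_weak` : `x` with weak gradient `G` on the open set `U`, `∫ conj G * gr ψ = 0` for all
  test functions `ψ` locally constant near `Uᶜ`: there is `F` holomorphic on `U` with `Re F = x`,
  `conj F' = G` almost everywhere
* `completion` : the form used for minimisers `x0 + u` over any compact `E`
-/

set_option autoImplicit false

open MeasureTheory Set Filter Topology Complex Metric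
open scoped ContDiff ComplexConjugate ENNReal NNReal

namespace Crest.Agent.R105.Dir_508

open Crest.Agent.R105.Tra_937 Crest.Agent.R165.Cl1x722 Crest.Agent.R165.Cl3x722
  Crest.Agent.R165.Cl4x722

noncomputable section

/-- a holomorphic function which is real almost everywhere has zero derivative -/
lemma deriv_eq_zero_of_real {U : Set ℂ} (hU : IsOpen U) {v : ℂ → ℂ} (hv : DifferentiableOn ℂ v U)
    (h : ∀ᵐ z, z ∈ U → (v z).im = 0) : ∀ z ∈ U, deriv v z = 0 := by
  have heq : EqOn (fun z => (v z).im) (fun _ => (0 : ℝ)) U := by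
    refine Measure.eqOn_open_of_ae_eq (μ := (volume : Measure ℂ)) ?_ hU
      (continuous_im.comp_continuousOn hv.continuousOn) continuousOn_const
    rw [Filter.EventuallyEq, ae_restrict_iff' hU.measurableSet]
    exact h
  intro z hz
  have hd : DifferentiableAt ℂ v z := (hv z hz).differentiableAt (hU.mem_nhds hz)
  have h1 : HasFDerivAt (fun w => (v w).im)
      (imCLM.comp ((ContinuousLinearMap.toSpanSingleton ℂ (deriv v z)).restrictScalars ℝ)) z :=
    imCLM.hasFDerivAt.comp z (hd.hasDerivAt.hasFDerivAt.restrictScalars ℝ)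
  have h2 : HasFDerivAt (fun w => (v w).im) (0 : ℂ →L[ℝ] ℝ) z := by
    refine (hasFDerivAt_const (0 : ℝ) z).congr_of_eventuallyEq ?_
    filter_upwards [hU.mem_nhds hz] with w hw
    exact heq hw
  have h3 := h1.unique h2
  have h4 := DFunLike.congr_fun h3 1
  have h5 := DFunLike.congr_fun h3 I
  apply Complex.ext
  · simpa using h5
  · simpa using h4

/-- **holomorphic completion, weak form** -/
theorem completion_weak {U : Set ℂ} (hU : IsOpen U) {x : ℂ → ℝ} {G : ℂ → ℂ}
    (hx : LocallyIntegrableOn x U) (hG : LocallyIntegrableOn G U)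
    (hw : ∀ ψ : ℂ → ℝ, ContDiff ℝ ∞ ψ → HasCompactSupport ψ → tsupport ψ ⊆ U →
      ∫ z, (x z : ℂ) * gr ψ z = - ∫ z, (ψ z : ℂ) * G z)
    (hT : ∀ ψ : ℂ → ℝ, Tst U ψ → ∫ z, conj (G z) * gr ψ z = 0) :
    ∃ F : ℂ → ℂ, DifferentiableOn ℂ F U ∧ (∀ᵐ z, z ∈ U → (F z).re = x z) ∧
      ∀ᵐ z, z ∈ U → G z = conj (deriv F z) := by
  have hGc : LocallyIntegrableOn (fun z => conj (G z)) U := by
    intro z hz
    obtain ⟨s, hs, hi⟩ := hG z hz
    exact ⟨s, hs, (Complex.conjLIE.toContinuousLinearEquiv.toContinuousLinearMap.integrable_comp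
      hi : _)⟩
  obtain ⟨p0, hp0, hpG⟩ := exists_primitive_weak hU hGc hT
  have hp0' : ∀ z ∈ U, DifferentiableAt ℂ p0 z := fun z hz =>
    (hp0 z hz).differentiableAt (hU.mem_nhds hz)
  have hrl : LocallyLipschitzOn U fun z => (p0 z).re := by
    intro z hz
    have h1 : ContDiffAt ℂ 1 p0 z :=
      ((hp0.analyticAt (hU.mem_nhds hz)).contDiffAt).of_le (by exact_mod_cast le_top)
    obtain ⟨K, t, ht, hK⟩ := (h1.restrict_scalars ℝ).exists_lipschitzOnWith
    refine ⟨1 * K, t, mem_nhdsWithin_of_mem_nhds ht, ?_⟩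
    have h2 : LipschitzWith 1 (fun z : ℂ => z.re) := by
      refine LipschitzWith.of_dist_le_mul fun a b => ?_
      rw [Real.dist_eq, ← Complex.sub_re, NNReal.coe_one, one_mul, dist_eq_norm]
      exact Complex.abs_re_le_norm _
    exact h2.comp_lipschitzOnWith hK
  set w : ℂ → ℝ := fun z => x z - (p0 z).re with hwdef
  have hpre : LocallyIntegrableOn (fun z => (p0 z).re) U :=
    hrl.continuousOn.locallyIntegrableOn hU.measurableSet
  have hwl : LocallyIntegrableOn (fun z => (w z : ℂ)) U := by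
    have h1 : LocallyIntegrableOn w U := hx.sub hpre
    intro z hz
    obtain ⟨s, hs, hi⟩ := h1 z hz
    exact ⟨s, hs, hi.ofReal⟩
  -- weak gradient of the real part
  have hre : ∀ ψ : ℂ → ℝ, ContDiff ℝ ∞ ψ → HasCompactSupport ψ → tsupport ψ ⊆ U →
      ∫ z, ((p0 z).re : ℂ) * gr ψ z = - ∫ z, (ψ z : ℂ) * conj (deriv p0 z) := by
    intro ψ h1 h2 h3
    obtain ⟨χ, c1, c2, c3, c4, -⟩ := exists_cutoff h2.isCompact hU h3
    obtain ⟨K, hK⟩ := lipschitz_mul hrl c1 c2 c3
    set f : ℂ → ℝ := fun z => χ z * (p0 z).re with hf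
    have hpar : ∀ v : ℂ, ∫ z, fderiv ℝ ψ z v * f z = - ∫ z, fderiv ℝ f z v * ψ z := fun v => by
      rw [int_fderiv_mul hK h1 h2 v, neg_neg]
    have e1 : ∀ z, ((p0 z).re : ℂ) * gr ψ z = ((fderiv ℝ ψ z 1 * f z : ℝ) : ℂ) +
        ((fderiv ℝ ψ z I * f z : ℝ) : ℂ) * I := by
      intro z
      by_cases hzs : z ∈ tsupport ψ
      · have h4 : f z = (p0 z).re := by
          rw [hf]
          simp only
          rw [((eventually_nhdsSet_iff_forall.1 c4) z hzs).self_of_nhds, one_mul]
        rw [h4]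
        unfold gr
        push_cast
        ring
      · have h6 : z ∉ tsupport (fderiv ℝ ψ) := fun h' => hzs (tsupport_fderiv_subset ℝ h')
        rw [gr_of_notMem h6, image_eq_zero_of_notMem_tsupport h6]
        simp
    have e2 : ∀ z, (ψ z : ℂ) * conj (deriv p0 z) = ((fderiv ℝ f z 1 * ψ z : ℝ) : ℂ) +
        ((fderiv ℝ f z I * ψ z : ℝ) : ℂ) * I := by
      intro z
      by_cases hzs : z ∈ tsupport ψ
      · have h4 : f =ᶠ[𝓝 z] fun z => (p0 z).re := by
          filter_upwards [(eventually_nhdsSet_iff_forall.1 c4) z hzs] with y hy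
          rw [hf]
          simp only
          rw [hy, one_mul]
        have h5 := gr_re_hol (hp0' z (h3 hzs))
        rw [← h5]
        unfold gr
        rw [h4.fderiv_eq]
        push_cast
        ring
      · rw [image_eq_zero_of_notMem_tsupport hzs]
        simp
    have hs : ∀ v : ℂ, Continuous fun z => fderiv ℝ ψ z v := fun v =>
      ((h1.fderiv_right (m := ∞) (by simp)).clm_apply contDiff_const).continuous
    have i1 : ∀ v : ℂ, Integrable fun z => fderiv ℝ ψ z v * f z := fun v =>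
      ((hs v).mul hK.continuous).integrable_of_hasCompactSupport
        (h2.fderiv_apply ℝ v).mul_right
    have i2 : ∀ v : ℂ, Integrable fun z => fderiv ℝ f z v * ψ z := by
      intro v
      have hg : Integrable ψ := h1.continuous.integrable_of_hasCompactSupport h2
      refine Integrable.bdd_mul (c := K * ‖v‖) hg ?_ (ae_of_all _ fun z => ?_)
      · exact (measurable_fderiv_apply_const ℝ f v).aestronglyMeasurable
      · exact ((fderiv ℝ f z).le_opNorm v).trans (mul_le_mul_of_nonneg_right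
          (norm_fderiv_le_of_lipschitz ℝ hK) (norm_nonneg _))
    simp only [e1, e2]
    have j1 : Integrable fun z => ((fderiv ℝ ψ z 1 * f z : ℝ) : ℂ) := (i1 1).ofReal
    have j2 : Integrable fun z => ((fderiv ℝ ψ z I * f z : ℝ) : ℂ) * I :=
      ((i1 I).ofReal).mul_const I
    have j3 : Integrable fun z => ((fderiv ℝ f z 1 * ψ z : ℝ) : ℂ) := (i2 1).ofReal
    have j4 : Integrable fun z => ((fderiv ℝ f z I * ψ z : ℝ) : ℂ) * I :=
      ((i2 I).ofReal).mul_const I
    rw [integral_add j1 j2, integral_add j3 j4, integral_mul_const, integral_mul_const,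
      integral_complex_ofReal, integral_complex_ofReal, integral_complex_ofReal,
      integral_complex_ofReal, hpar, hpar]
    push_cast
    ring
  have hwd : Crest.Agent.R165.Cl3x722.WDbar U (fun z => (w z : ℂ)) 0 := by
    refine wdbar_of_tst hwl fun ψ h1 h2 h3 => ?_
    have hxl : LocallyIntegrableOn (fun z => (x z : ℂ)) U := by
      intro z hz
      obtain ⟨s, hs, hi⟩ := hx z hz
      exact ⟨s, hs, hi.ofReal⟩
    have hpl : LocallyIntegrableOn (fun z => ((p0 z).re : ℂ)) U := by
      intro z hz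
      obtain ⟨s, hs, hi⟩ := hpre z hz
      exact ⟨s, hs, hi.ofReal⟩
    have i1 := (Tst.of_supp h1 h2 h3).int_gr hxl
    have i2 := (Tst.of_supp h1 h2 h3).int_gr hpl
    have e1 : ∫ z, (w z : ℂ) * gr ψ z = (∫ z, (x z : ℂ) * gr ψ z) -
        ∫ z, ((p0 z).re : ℂ) * gr ψ z := by
      rw [← integral_sub i1 i2]
      refine integral_congr_ae (ae_of_all _ fun z => ?_)
      simp only [hwdef]
      push_cast
      ring
    have e2 : ∫ z, (ψ z : ℂ) * G z = ∫ z, (ψ z : ℂ) * conj (deriv p0 z) := by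
      refine integral_congr_ae ?_
      filter_upwards [hpG] with z hz
      by_cases hzs : z ∈ tsupport ψ
      · rw [← hz (h3 hzs), Complex.conj_conj]
      · rw [image_eq_zero_of_notMem_tsupport hzs]
        simp
    rw [e1, hw ψ h1 h2 h3, hre ψ h1 h2 h3, e2]
    ring
  obtain ⟨v, hv, hvw⟩ := Crest.Agent.R165.Cl4x722.weyl hU hwl hwd
  have hv0 : ∀ z ∈ U, deriv v z = 0 := by
    refine deriv_eq_zero_of_real hU hv ?_
    filter_upwards [hvw] with z hz hzU
    rw [← hz hzU, Complex.ofReal_im]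
  refine ⟨fun z => p0 z + v z, hp0.add hv, ?_, ?_⟩
  · filter_upwards [hvw] with z hz hzU
    rw [← hz hzU, Complex.add_re, Complex.ofReal_re]
    simp only [hwdef]
    ring
  · filter_upwards [hpG] with z hz hzU
    have hvd : DifferentiableAt ℂ v z := (hv z hzU).differentiableAt (hU.mem_nhds hzU)
    rw [deriv_fun_add (hp0' z hzU) hvd, hv0 z hzU, add_zero, ← hz hzU, Complex.conj_conj]

/-- weak gradient of a locally Lipschitz function -/
lemma weak_gr {U : Set ℂ} (hU : IsOpen U) {u : ℂ → ℝ} (hu : LocallyLipschitzOn U u) {ψ : ℂ → ℝ}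
    (h1 : ContDiff ℝ ∞ ψ) (h2 : HasCompactSupport ψ) (h3 : tsupport ψ ⊆ U) :
    ∫ z, (u z : ℂ) * gr ψ z = - ∫ z, (ψ z : ℂ) * gr u z := by
  obtain ⟨χ, c1, c2, c3, c4, -⟩ := exists_cutoff h2.isCompact hU h3
  obtain ⟨K, hK⟩ := lipschitz_mul hu c1 c2 c3
  set f : ℂ → ℝ := fun z => χ z * u z with hf
  have hpar : ∀ v : ℂ, ∫ z, fderiv ℝ ψ z v * f z = - ∫ z, fderiv ℝ f z v * ψ z := fun v => by
    rw [int_fderiv_mul hK h1 h2 v, neg_neg]
  have e1 : ∀ z, (u z : ℂ) * gr ψ z = ((fderiv ℝ ψ z 1 * f z : ℝ) : ℂ) +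
      ((fderiv ℝ ψ z I * f z : ℝ) : ℂ) * I := by
    intro z
    by_cases hzs : z ∈ tsupport ψ
    · have h4 : f z = u z := by
        rw [hf]
        simp only
        rw [((eventually_nhdsSet_iff_forall.1 c4) z hzs).self_of_nhds, one_mul]
      rw [h4]
      unfold gr
      push_cast
      ring
    · have h6 : z ∉ tsupport (fderiv ℝ ψ) := fun h' => hzs (tsupport_fderiv_subset ℝ h')
      rw [gr_of_notMem h6, image_eq_zero_of_notMem_tsupport h6]
      simp
  have e2 : ∀ z, (ψ z : ℂ) * gr u z = ((fderiv ℝ f z 1 * ψ z : ℝ) : ℂ) +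
      ((fderiv ℝ f z I * ψ z : ℝ) : ℂ) * I := by
    intro z
    by_cases hzs : z ∈ tsupport ψ
    · have h4 : f =ᶠ[𝓝 z] u := by
        filter_upwards [(eventually_nhdsSet_iff_forall.1 c4) z hzs] with y hy
        rw [hf]
        simp only
        rw [hy, one_mul]
      unfold gr
      rw [h4.fderiv_eq]
      push_cast
      ring
    · rw [image_eq_zero_of_notMem_tsupport hzs]
      simp
  have hs : ∀ v : ℂ, Continuous fun z => fderiv ℝ ψ z v := fun v =>
    ((h1.fderiv_right (m := ∞) (by simp)).clm_apply contDiff_const).continuous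
  have i1 : ∀ v : ℂ, Integrable fun z => fderiv ℝ ψ z v * f z := fun v =>
    ((hs v).mul hK.continuous).integrable_of_hasCompactSupport
      (h2.fderiv_apply ℝ v).mul_right
  have i2 : ∀ v : ℂ, Integrable fun z => fderiv ℝ f z v * ψ z := by
    intro v
    have hg : Integrable ψ := h1.continuous.integrable_of_hasCompactSupport h2
    refine Integrable.bdd_mul (c := K * ‖v‖) hg ?_ (ae_of_all _ fun z => ?_)
    · exact (measurable_fderiv_apply_const ℝ f v).aestronglyMeasurable
    · exact ((fderiv ℝ f z).le_opNorm v).trans (mul_le_mul_of_nonneg_right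
        (norm_fderiv_le_of_lipschitz ℝ hK) (norm_nonneg _))
  simp only [e1, e2]
  have j1 : Integrable fun z => ((fderiv ℝ ψ z 1 * f z : ℝ) : ℂ) := (i1 1).ofReal
  have j2 : Integrable fun z => ((fderiv ℝ ψ z I * f z : ℝ) : ℂ) * I :=
    ((i1 I).ofReal).mul_const I
  have j3 : Integrable fun z => ((fderiv ℝ f z 1 * ψ z : ℝ) : ℂ) := (i2 1).ofReal
  have j4 : Integrable fun z => ((fderiv ℝ f z I * ψ z : ℝ) : ℂ) * I :=
    ((i2 I).ofReal).mul_const I
  rw [integral_add j1 j2, integral_add j3 j4, integral_mul_const, integral_mul_const,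
    integral_complex_ofReal, integral_complex_ofReal, integral_complex_ofReal,
    integral_complex_ofReal, hpar, hpar]
  push_cast
  ring

/-- the gradient of a locally Lipschitz function is locally integrable -/
lemma locInt_gr {U : Set ℂ} (hU : IsOpen U) {u : ℂ → ℝ} (hu : LocallyLipschitzOn U u) :
    LocallyIntegrableOn (gr u) U := by
  intro z hz
  obtain ⟨K, t, ht, hK⟩ := hu hz
  rw [hU.nhdsWithin_eq hz] at ht
  obtain ⟨r, hr, hB⟩ := Metric.mem_nhds_iff.1 (inter_mem ht (hU.mem_nhds hz))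
  refine ⟨ball z r, mem_nhdsWithin_of_mem_nhds (ball_mem_nhds z hr), ?_⟩
  refine Measure.integrableOn_of_bounded (M := 2 * (K : ℝ)) measure_ball_lt_top.ne
    (measurable_gr u).aestronglyMeasurable ?_
  rw [ae_restrict_iff' measurableSet_ball]
  refine ae_of_all _ fun w hw => ?_
  have h1 : ‖fderiv ℝ u w‖ ≤ K :=
    norm_fderiv_le_of_lipschitzOn ℝ (isOpen_ball.mem_nhds hw) (hK.mono fun y hy => (hB hy).1)
  have h2 : ∀ v : ℂ, ‖v‖ = 1 → |fderiv ℝ u w v| ≤ K := by
    intro v hv
    have := (fderiv ℝ u w).le_opNorm v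
    rw [hv, mul_one] at this
    exact this.trans h1
  unfold gr
  refine (norm_add_le _ _).trans ?_
  rw [norm_mul, Complex.norm_I, mul_one, Complex.norm_real, Complex.norm_real]
  have h3 := h2 1 norm_one
  have h4 := h2 I Complex.norm_I
  rw [Real.norm_eq_abs, Real.norm_eq_abs]
  linarith

/-- **holomorphic completion of a minimiser, carrier free**: `x = x0 + u`, `E` compact -/
theorem completion {E : Set ℂ} (hE : IsCompact E) {x0 u : ℂ → ℝ} (hx : ContDiff ℝ ∞ x0)
    (hfar : ∃ R : ℝ, ∀ z, R ≤ ‖z‖ → x0 z = z.re) (hbd : ∃ M R : ℝ, ∀ z, R ≤ ‖z‖ → |u z| ≤ M)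
    (hu : LocallyLipschitzOn Eᶜ u)
    (hEL : ∀ ψ, Tst Eᶜ ψ → ∫ z in Eᶜ, dot u ψ z = ∫ z, ψ z * IfB_641.lap x0 z) :
    ∃ (F : ℂ → ℂ) (c : ℂ), DifferentiableOn ℂ F Eᶜ ∧ (∀ z ∈ Eᶜ, (F z).re = x0 z + u z) ∧
      Tendsto (fun z => F z - z) (cocompact ℂ) (𝓝 c) := by
  have hC : IsOpen Eᶜ := hE.isClosed.isOpen_compl
  have hx1 : LocallyLipschitzOn Eᶜ x0 :=
    (hx.of_le (by exact_mod_cast le_top) : ContDiff ℝ 1 x0).locallyLipschitz.locallyLipschitzOn
  have hs : LocallyLipschitzOn Eᶜ fun z => x0 z + u z := Bd_775.ll_add hx1 hu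
  have hi := locInt_gr hC hu
  have hi0 := locInt_gr hC hx1
  have hd : ∀ᵐ z, z ∈ Eᶜ → DifferentiableAt ℝ u z :=
    (ae_restrict_iff' hC.measurableSet).1 (Bd_775.ae_diff hC hu)
  have hgr : ∀ᵐ z, z ∈ Eᶜ → gr (fun z => x0 z + u z) z = gr x0 z + gr u z := by
    filter_upwards [hd] with z hz hzE
    unfold gr
    rw [fderiv_fun_add (hx.differentiable (by simp) z) (hz hzE)]
    simp only [_root_.add_apply]
    push_cast
    ring
  obtain ⟨F, hF, hre, -⟩ := completion_weak hC
    (hs.continuousOn.locallyIntegrableOn hC.measurableSet) (locInt_gr hC hs)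
    (fun ψ h1 h2 h3 => weak_gr hC hs h1 h2 h3) (by
      intro ψ hψ
      have hcl : ∀ {v : ℂ → ℝ}, LocallyIntegrableOn (gr v) Eᶜ →
          LocallyIntegrableOn (fun z => conj (gr v z)) Eᶜ := by
        intro v hv z hz
        obtain ⟨s, hs, hi⟩ := hv z hz
        exact ⟨s, hs, (Complex.conjLIE.toContinuousLinearEquiv.toContinuousLinearMap.integrable_comp
          hi : _)⟩
      have i1 := hψ.int_gr (hcl hi0)
      have i2 := hψ.int_gr (hcl hi)
      have e1 : ∫ z, conj (gr (fun z => x0 z + u z) z) * gr ψ z =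
          (∫ z, conj (gr x0 z) * gr ψ z) + ∫ z, conj (gr u z) * gr ψ z := by
        rw [← integral_add i1 i2]
        refine integral_congr_ae ?_
        filter_upwards [hgr] with z hz
        by_cases hzE : z ∈ Eᶜ
        · rw [hz hzE, map_add]
          ring
        · rw [gr_of_notMem fun h' => hzE (hψ.sub h')]
          simp
      have e2 : ∫ z, dot u ψ z = ∫ z, ψ z * IfB_641.lap x0 z := by
        rw [← hEL ψ hψ]
        symm
        refine setIntegral_eq_integral_of_forall_compl_eq_zero fun z hz => ?_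
        exact dot_of_notMem fun h' => hz (hψ.sub h')
      rw [e1, int_conj_gr i1, int_conj_gr i2, int_dot_smooth hx hψ.sm hψ.cpt, e2,
        wdg_tst hC hx1 hψ, wdg_tst hC hu hψ]
      push_cast
      ring)
  have hre' : ∀ z ∈ Eᶜ, (F z).re = x0 z + u z := by
    refine Measure.eqOn_open_of_ae_eq (μ := (volume : Measure ℂ)) ?_ hC
      (continuous_re.comp_continuousOn hF.continuousOn) hs.continuousOn
    rw [Filter.EventuallyEq, ae_restrict_iff' hC.measurableSet]
    exact hre
  obtain ⟨M, R3, hM⟩ := hbd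
  obtain ⟨R1, hR1⟩ := hfar
  obtain ⟨R2, hR2⟩ := hE.isBounded.subset_closedBall (0 : ℂ)
  set R : ℝ := max (max (max R1 R2) R3) 1 with hR
  have hR0 : 0 < R := lt_max_of_lt_right one_pos
  have hsub : {z : ℂ | R < ‖z‖} ⊆ Eᶜ := by
    intro z hz hzC
    have := hR2 hzC
    rw [mem_closedBall, dist_zero_right] at this
    have h3 : R2 ≤ R := (le_max_right _ _).trans ((le_max_left _ _).trans (le_max_left _ _))
    exact absurd (this.trans h3) (not_le.2 hz)
  obtain ⟨c, hc⟩ := exists_limit_of_re_bdd (q := fun z => F z - z) (R := R) (M := M) hR0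
    ((hF.mono hsub).sub differentiableOn_id) (by
      intro z hz
      have h3 : R1 ≤ ‖z‖ :=
        ((le_max_left _ _).trans ((le_max_left _ _).trans (le_max_left _ _))).trans hz.le
      have h5 : R3 ≤ ‖z‖ := ((le_max_right _ _).trans (le_max_left _ _)).trans hz.le
      rw [Complex.sub_re, hre' z (hsub hz), hR1 z h3, add_sub_cancel_left]
      exact hM z h5)
  exact ⟨F, c, hF, hre', hc⟩

end

end Crest.Agent.R105.Dir_508
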