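import Crest.Agent.R105.Asm5a_6
import Crest.Agent.R105.Dir5_508

/-!
# Row 105, S0139 [B], ATTP, part C5 (b): the limit function (helper6)
-/

set_option autoImplicit false

open MeasureTheory Set Filter Topology Metric Bornology
open scoped ContDiff NNReal ComplexConjugate ENNReal

namespace Crest.Agent.R105.Asm_6

open Crest.Agent.R105.IfB_641 Crest.Agent.R105.Dir_508

variable {C : Set ℂ} {x0 : ℂ → ℝ} {b : ℕ → ℂ → ℝ} {m : ℝ} {χ : ℕ → ℂ → ℝ}

theorem exists_lim_fun (hg : GS C x0 b m χ) (hD : ∀ k, Continuous (χ k)) :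
    ∃ f : ℂ → ℝ, Continuous f ∧ (∃ K : ℝ, ∀ z, |f z| ≤ K) ∧
      ∀ R h : ℝ, 0 < h → ∃ K : ℕ, ∀ k, K ≤ k → ∀ z, ‖z‖ ≤ R → |χ k z - f z| ≤ h := by
  have hc : ∀ z, CauchySeq fun k => χ k z := by
    intro z
    rw [Metric.cauchySeq_iff']
    intro ε hε
    obtain ⟨K, hK⟩ := hg.uni ‖z‖ (ε / 2) (by positivity)
    refine ⟨K, fun n hn => ?_⟩
    rw [Real.dist_eq]
    exact lt_of_le_of_lt (hK n K hn le_rfl z le_rfl) (by linarith)
  choose f hf using fun z => cauchySeq_tendsto_of_complete (hc z)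
  have hu : ∀ R h : ℝ, 0 < h → ∃ K : ℕ, ∀ k, K ≤ k → ∀ z, ‖z‖ ≤ R → |χ k z - f z| ≤ h := by
    intro R h hh
    obtain ⟨K, hK⟩ := hg.uni R h hh
    refine ⟨K, fun k hk z hz => ?_⟩
    refine le_of_tendsto ((tendsto_const_nhds.sub (hf z)).abs) ?_
    filter_upwards [eventually_ge_atTop K] with l hl
    exact hK k l hk hl z hz
  refine ⟨f, ?_, ?_, hu⟩
  · refine continuous_of_locally_uniform_approx_of_continuousAt fun z u hu' => ?_
    obtain ⟨ε, hε, hεu⟩ := Metric.mem_uniformity_dist.1 hu'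
    obtain ⟨K, hK⟩ := hu (‖z‖ + 1) (ε / 2) (by positivity)
    refine ⟨ball z 1, ball_mem_nhds z one_pos, χ K, (hD K).continuousAt, fun y hy => hεu ?_⟩
    have h1 : ‖y‖ ≤ ‖z‖ + 1 := by
      have h2 := norm_sub_norm_le y z
      rw [mem_ball, dist_eq_norm] at hy
      linarith
    rw [dist_comm, Real.dist_eq]
    exact lt_of_le_of_lt (hK K le_rfl y h1) (by linarith)
  · obtain ⟨K, hK⟩ := hg.bdd
    exact ⟨K, fun z => le_of_tendsto (hf z).abs (Eventually.of_forall fun k => hK k z)⟩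

/-! ### `L²` -/

theorem norm_toLp_sq {μ : Measure ℂ} {f : ℂ → ℂ} (h : MemLp f 2 μ) :
    ‖h.toLp f‖ ^ 2 = ∫ z, ‖f z‖ ^ 2 ∂μ := by
  have h0 : 0 ≤ ∫ z, ‖f z‖ ^ 2 ∂μ := integral_nonneg fun z => by positivity
  rw [Lp.norm_toLp, h.eLpNorm_eq_integral_rpow_norm two_ne_zero ENNReal.ofNat_ne_top,
    ENNReal.toReal_ofReal (by positivity)]
  simp only [ENNReal.toReal_ofNat, Real.rpow_ofNat]
  rw [← Real.rpow_natCast, ← Real.rpow_mul h0]
  norm_num

theorem lim_inner {μ : Measure ℂ} {G : Lp ℂ 2 μ} {g : ℕ → Lp ℂ 2 μ}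
    (hg : Tendsto g atTop (𝓝 G)) {Ψ : ℂ → ℂ} (hΨ : MemLp Ψ 2 μ) :
    Tendsto (fun k => ∫ z, conj (g k z) * Ψ z ∂μ) atTop (𝓝 (∫ z, conj (G z) * Ψ z ∂μ)) := by
  have h1 : ∀ f : Lp ℂ 2 μ, inner ℂ f (hΨ.toLp Ψ) = ∫ z, conj (f z) * Ψ z ∂μ := by
    intro f
    rw [L2.inner_def]
    refine integral_congr_ae ?_
    filter_upwards [hΨ.coeFn_toLp] with z hz
    rw [hz]
    simp [RCLike.inner_apply, mul_comm]
  simp only [← h1]
  exact hg.inner tendsto_const_nhds

theorem gr_sub {u v : ℂ → ℝ} {z : ℂ} (hu : DifferentiableAt ℝ u z)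
    (hv : DifferentiableAt ℝ v z) : gr (fun w => u w - v w) z = gr u z - gr v z := by
  unfold gr
  rw [fderiv_fun_sub hu hv]
  simp only [_root_.sub_apply]
  push_cast
  ring


theorem norm_sub_sq {u v : ℂ → ℝ} (hC : IsClosed C) (hu : Q C u) (hv : Q C v) :
    ‖(memLp_gr hu.fin).toLp (gr u) - (memLp_gr hv.fin).toLp (gr v)‖ ^ 2 =
      di C (fun z => u z - v z) (fun z => u z - v z) := by
  rw [← MemLp.toLp_sub, norm_toLp_sq, Bd_775.di_self]
  refine integral_congr_ae ?_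
  filter_upwards [hu.ae_diff hC, hv.ae_diff hC] with z h1 h2
  rw [← norm_gr_sq, gr_sub h1 h2]
  rfl

theorem norm_sub_G {u : ℂ → ℝ} (hu : Q C u) {G : Lp ℂ 2 (volume.restrict Cᶜ)} :
    ‖(memLp_gr hu.fin).toLp (gr u) - G‖ ^ 2 = ∫ z in Cᶜ, ‖gr u z - G z‖ ^ 2 := by
  have h1 : G = (Lp.memLp G).toLp G := (Lp.toLp_coeFn G _).symm
  conv_lhs => rw [h1]
  rw [← MemLp.toLp_sub, norm_toLp_sq]
  rfl

/-- the `L²` limit of the gradients -/
theorem exists_G (hC : IsClosed C) (hx : X0 C x0) (hs : Sel C x0 b m) (hg : GS C x0 b m χ)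
    (hQ : ∀ k, Q C (χ k)) :
    ∃ G : Lp ℂ 2 (volume.restrict Cᶜ),
      Tendsto (fun k => (memLp_gr (hQ k).fin).toLp (gr (χ k))) atTop (𝓝 G) := by
  refine cauchySeq_tendsto_of_complete ?_
  rw [Metric.cauchySeq_iff']
  intro ε hε
  have h1 : ∀ᶠ k in atTop, J C x0 (χ k) - m < ε ^ 2 / 8 := by
    have h2 : Tendsto (fun k => J C x0 (χ k) - m) atTop (𝓝 (m - m)) := hg.lim.sub_const m
    rw [sub_self] at h2
    exact h2.eventually (gt_mem_nhds (by positivity))
  obtain ⟨N, hN⟩ := eventually_atTop.1 h1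
  refine ⟨N, fun n hn => ?_⟩
  rw [dist_eq_norm]
  have h2 := norm_sub_sq hC (hQ n) (hQ N)
  have h3 := para hC hx hs (hg.gen N) (hg.gen n)
  have h4 := hN n hn
  have h5 := hN N le_rfl
  refine lt_of_pow_lt_pow_left₀ 2 hε.le ?_
  rw [h2]
  have : 0 < ε ^ 2 := by positivity
  linarith

/-- the weak gradient of the limit -/
theorem weak_G (hC : IsClosed C) {f : ℂ → ℝ} (hf : Continuous f)
    (hu : ∀ R h : ℝ, 0 < h → ∃ K : ℕ, ∀ k, K ≤ k → ∀ z, ‖z‖ ≤ R → |χ k z - f z| ≤ h)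
    (hD : ∀ k, D C (χ k)) {G : Lp ℂ 2 (volume.restrict Cᶜ)}
    (hG : Tendsto (fun k => (memLp_gr (hD k).fin).toLp (gr (χ k))) atTop (𝓝 G))
    {ψ : ℂ → ℝ} (h1 : ContDiff ℝ ∞ ψ) (h2 : HasCompactSupport ψ) (h3 : tsupport ψ ⊆ Cᶜ) :
    ∫ z, (f z : ℂ) * gr ψ z = - ∫ z, (ψ z : ℂ) * G z := by
  have hψc : Continuous (gr ψ) := continuous_gr (h1.of_le (by exact_mod_cast le_top))
  have hψs : HasCompactSupport (gr ψ) :=
    (h2.fderiv ℝ).of_isClosed_subset (isClosed_tsupport _) (tsupport_gr ψ)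
  have hi : Integrable (gr ψ) := hψc.integrable_of_hasCompactSupport hψs
  -- left side
  have hL : Tendsto (fun k => ∫ z, (χ k z : ℂ) * gr ψ z) atTop (𝓝 (∫ z, (f z : ℂ) * gr ψ z)) := by
    rw [Metric.tendsto_atTop]
    intro ε hε
    obtain ⟨R, hR⟩ := hψs.isCompact.isBounded.subset_closedBall (0 : ℂ)
    set A := ∫ z, ‖gr ψ z‖ with hA
    have hA0 : 0 ≤ A := integral_nonneg fun z => norm_nonneg _
    obtain ⟨K, hK⟩ := hu R (ε / (2 * (A + 1))) (by positivity)
    refine ⟨K, fun k hk => ?_⟩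
    have i1 : ∀ {v : ℂ → ℝ}, Continuous v → Integrable fun z => (v z : ℂ) * gr ψ z := fun hv =>
      ((Complex.continuous_ofReal.comp hv).mul hψc).integrable_of_hasCompactSupport hψs.mul_left
    rw [dist_eq_norm, ← integral_sub (i1 (hD k).cont) (i1 hf)]
    have h5 : ‖∫ z, ((χ k z : ℂ) * gr ψ z - (f z : ℂ) * gr ψ z)‖ ≤
        ∫ z, (ε / (2 * (A + 1))) * ‖gr ψ z‖ := by
      refine norm_integral_le_of_norm_le (hi.norm.const_mul _) (ae_of_all _ fun z => ?_)
      rw [← sub_mul, norm_mul, ← Complex.ofReal_sub, Complex.norm_real, Real.norm_eq_abs]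
      by_cases hz : z ∈ tsupport (gr ψ)
      · have h6 := hR hz
        rw [mem_closedBall, dist_zero_right] at h6
        exact mul_le_mul_of_nonneg_right (hK k hk z h6) (norm_nonneg _)
      · rw [image_eq_zero_of_notMem_tsupport hz, norm_zero, mul_zero, mul_zero]
    refine lt_of_le_of_lt h5 ?_
    rw [integral_const_mul, ← hA, div_mul_eq_mul_div, div_lt_iff₀ (by positivity)]
    nlinarith
  -- right side
  have hΨ : MemLp (fun z => (ψ z : ℂ)) 2 (volume.restrict Cᶜ) :=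
    ((Complex.continuous_ofReal.comp h1.continuous).memLp_of_hasCompactSupport
      (h2.comp_left (g := fun t : ℝ => (t : ℂ)) (by simp))).restrict _
  have hR := lim_inner hG hΨ
  have e1 : ∀ (Y : ℂ → ℂ), ∫ z in Cᶜ, (ψ z : ℂ) * Y z = ∫ z, (ψ z : ℂ) * Y z := by
    intro Y
    refine setIntegral_eq_integral_of_forall_compl_eq_zero fun z hz => ?_
    rw [image_eq_zero_of_notMem_tsupport fun h' => hz (h3 h')]
    simp
  have e2 : ∀ (Y : ℂ → ℂ), ∫ z in Cᶜ, conj (Y z) * (ψ z : ℂ) =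
      conj (∫ z in Cᶜ, (ψ z : ℂ) * Y z) := by
    intro Y
    rw [← integral_conj]
    congr 1; funext z
    rw [map_mul, Complex.conj_ofReal, mul_comm]
  have hR2 : Tendsto (fun k => ∫ z, (ψ z : ℂ) * gr (χ k) z) atTop
      (𝓝 (∫ z, (ψ z : ℂ) * G z)) := by
    have h5 : ∀ k, ∫ z in Cᶜ, conj (((memLp_gr (hD k).fin).toLp (gr (χ k)) : ℂ → ℂ) z) * (ψ z : ℂ)
        = conj (∫ z, (ψ z : ℂ) * gr (χ k) z) := by
      intro k
      rw [← e1, ← e2]
      refine integral_congr_ae ?_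
      filter_upwards [(memLp_gr (hD k).fin).coeFn_toLp] with z hz
      rw [hz]
    simp only [h5] at hR
    rw [e2, e1] at hR
    have h6 := (Complex.continuous_conj.tendsto _).comp hR
    simp only [Complex.conj_conj] at h6
    refine h6.congr fun k => ?_
    simp
  have h4 : ∀ k, ∫ z, (χ k z : ℂ) * gr ψ z = - ∫ z, (ψ z : ℂ) * gr (χ k) z := fun k =>
    weak_gr hC.isOpen_compl (hD k).loc h1 h2 h3
  simp only [h4] at hL
  exact tendsto_nhds_unique hL hR2.neg

/-- the Euler-Lagrange equation of the limit -/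
theorem el_G (hC : IsClosed C) (hx : X0 C x0) (hs : Sel C x0 b m) (hg : GS C x0 b m χ)
    (hD : ∀ k, D C (χ k)) {G : Lp ℂ 2 (volume.restrict Cᶜ)}
    (hG : Tendsto (fun k => (memLp_gr (hD k).fin).toLp (gr (χ k))) atTop (𝓝 G))
    {ψ : ℂ → ℝ} (hψ : Tst Cᶜ ψ) :
    ∫ z, conj (G z) * gr ψ z = ((∫ z, ψ z * lap x0 z : ℝ) : ℂ) := by
  have hO := hC.isOpen_compl
  have hΨ : MemLp (gr ψ) 2 (volume.restrict Cᶜ) :=
    ((continuous_gr (hψ.sm.of_le (by exact_mod_cast le_top))).memLp_of_hasCompactSupport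
      hψ.cpt_gr).restrict _
  have hR := lim_inner hG hΨ
  have e0 : ∀ k, ∫ z in Cᶜ, conj (((memLp_gr (hD k).fin).toLp (gr (χ k)) : ℂ → ℂ) z) * gr ψ z
      = ((di C (χ k) ψ : ℝ) : ℂ) := by
    intro k
    have h1 : ∫ z in Cᶜ, conj (((memLp_gr (hD k).fin).toLp (gr (χ k)) : ℂ → ℂ) z) * gr ψ z =
        ∫ z in Cᶜ, conj (gr (χ k) z) * gr ψ z := by
      refine integral_congr_ae ?_
      filter_upwards [(memLp_gr (hD k).fin).coeFn_toLp] with z hz
      rw [hz]
    have hi : Integrable fun z => conj (gr (χ k) z) * gr ψ z := by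
      refine hψ.int_gr (Y := fun z => conj (gr (χ k) z)) ?_
      intro z hz
      obtain ⟨s, hs, hi⟩ := locInt_gr hO (hD k).loc z hz
      exact ⟨s, hs, (Complex.conjLIE.toContinuousLinearEquiv.toContinuousLinearMap.integrable_comp
        hi : _)⟩
    rw [h1, setInt_eq hψ.sub (fun z => conj (gr (χ k) z)), int_conj_gr hi,
      wdg_tst hO (hD k).loc hψ]
    have h2 : ∫ z, Tra_937.dot (χ k) ψ z = di C (χ k) ψ := by
      unfold di
      symm
      refine setIntegral_eq_integral_of_forall_compl_eq_zero fun z hz => ?_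
      exact dot_of_notMem fun h' => hz (hψ.sub h')
    rw [h2]; simp
  simp only [e0] at hR
  rw [setInt_eq hψ.sub (fun z => conj (G z))] at hR
  -- the limit of `di (χ k) ψ`
  have h5 : Tendsto (fun k => di C (χ k) ψ) atTop (𝓝 (∫ z, ψ z * lap x0 z)) := by
    rw [← tendsto_sub_nhds_zero_iff]
    have h6 : ∀ k, (di C (χ k) ψ - ∫ z, ψ z * lap x0 z) ^ 2 ≤ (J C x0 (χ k) - m) * di C ψ ψ :=
      fun k => near_el hC hx hs (hg.gen k) (Gen.lc hψ.lc)
    have h7 : Tendsto (fun k => (J C x0 (χ k) - m) * di C ψ ψ) atTop (𝓝 0) := by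
      have := (hg.lim.sub_const m).mul_const (di C ψ ψ)
      simpa using this
    have h8 : Tendsto (fun k => (di C (χ k) ψ - ∫ z, ψ z * lap x0 z) ^ 2) atTop (𝓝 0) :=
      squeeze_zero (fun k => sq_nonneg _) h6 h7
    have h9 := h8.sqrt
    simp only [Real.sqrt_sq_eq_abs, Real.sqrt_zero] at h9
    exact (tendsto_zero_iff_abs_tendsto_zero _).2 h9
  exact tendsto_nhds_unique hR ((Complex.continuous_ofReal.tendsto _).comp h5)

theorem di_eq_norm {u : ℂ → ℝ} (hu : Q C u) :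
    di C u u = ‖(memLp_gr hu.fin).toLp (gr u)‖ ^ 2 := by
  rw [norm_toLp_sq, Bd_775.di_self]
  refine integral_congr_ae (ae_of_all _ fun z => ?_)
  exact (norm_gr_sq u z).symm

theorem tendsto_lin (hx : X0 C x0) {f : ℂ → ℝ} (hf : Continuous f)
    (hu : ∀ R h : ℝ, 0 < h → ∃ K : ℕ, ∀ k, K ≤ k → ∀ z, ‖z‖ ≤ R → |χ k z - f z| ≤ h)
    (hD : ∀ k, Continuous (χ k)) :
    Tendsto (fun k => ∫ z, χ k z * lap x0 z) atTop (𝓝 (∫ z, f z * lap x0 z)) := by
  have hi : Integrable (lap x0) := hx.lap_cont.integrable_of_hasCompactSupport hx.lap_cpt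
  rw [Metric.tendsto_atTop]
  intro ε hε
  obtain ⟨R, hR⟩ := hx.lap_cpt.isCompact.isBounded.subset_closedBall (0 : ℂ)
  set A := ∫ z, ‖lap x0 z‖ with hA
  have hA0 : 0 ≤ A := integral_nonneg fun z => norm_nonneg _
  obtain ⟨K, hK⟩ := hu R (ε / (2 * (A + 1))) (by positivity)
  refine ⟨K, fun k hk => ?_⟩
  have i1 : ∀ {v : ℂ → ℝ}, Continuous v → Integrable fun z => v z * lap x0 z := fun hv =>
    (hv.mul hx.lap_cont).integrable_of_hasCompactSupport hx.lap_cpt.mul_left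
  rw [dist_eq_norm, ← integral_sub (i1 (hD k)) (i1 hf)]
  have h5 : ‖∫ z, (χ k z * lap x0 z - f z * lap x0 z)‖ ≤
      ∫ z, (ε / (2 * (A + 1))) * ‖lap x0 z‖ := by
    refine norm_integral_le_of_norm_le (hi.norm.const_mul _) (ae_of_all _ fun z => ?_)
    rw [← sub_mul, norm_mul, Real.norm_eq_abs]
    by_cases hz : z ∈ tsupport (lap x0)
    · have h6 := hR hz
      rw [mem_closedBall, dist_zero_right] at h6
      exact mul_le_mul_of_nonneg_right (hK k hk z h6) (norm_nonneg _)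
    · rw [image_eq_zero_of_notMem_tsupport hz, norm_zero, mul_zero, mul_zero]
  refine lt_of_le_of_lt h5 ?_
  rw [integral_const_mul, ← hA, div_mul_eq_mul_div, div_lt_iff₀ (by positivity)]
  nlinarith

/-- **THE LIMIT** -/
theorem exists_limit (hC : TD C) (hx : X0 C x0) (hs : Sel C x0 b m) (hg : GS C x0 b m χ) :
    ∃ f : ℂ → ℝ, D C f ∧
      (∀ R h : ℝ, 0 < h → ∃ K : ℕ, ∀ k, K ≤ k → ∀ z, ‖z‖ ≤ R → |χ k z - f z| ≤ h) ∧
      Tendsto (fun k => di C (fun z => χ k z - f z) (fun z => χ k z - f z)) atTop (𝓝 0) ∧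
      J C x0 f = m := by
  have hcl : IsClosed C := hC.cpt.isClosed
  have hO : IsOpen Cᶜ := hcl.isOpen_compl
  have hS : ∀ s ∈ range b, D C s := by rintro _ ⟨i, rfl⟩; exact hs.mem i
  have hD : ∀ k, D C (χ k) := fun k => Gen.d hcl hS (hg.gen k)
  have hQ : ∀ k, Q C (χ k) := fun k => (hD k).q
  obtain ⟨f, hfc, hfb, hu⟩ := exists_lim_fun hg fun k => (hD k).cont
  obtain ⟨G, hG⟩ := exists_G hcl hx hs hg hQ
  have hxc : Continuous (gr x0) := continuous_gr (hx.sm.of_le (by exact_mod_cast le_top))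
  have hx1 : LocallyLipschitzOn Cᶜ x0 :=
    (hx.sm.of_le (by exact_mod_cast le_top) : ContDiff ℝ 1 x0).locallyLipschitz.locallyLipschitzOn
  have lx : LocallyIntegrableOn (gr x0) Cᶜ := hxc.locallyIntegrable.locallyIntegrableOn _
  have lG : LocallyIntegrableOn (fun z => G z) Cᶜ := locInt_of_memLp hO (Lp.memLp G)
  have hconj : ∀ {Y : ℂ → ℂ}, LocallyIntegrableOn Y Cᶜ →
      LocallyIntegrableOn (fun z => conj (Y z)) Cᶜ := by
    intro Y hY z hz
    obtain ⟨s, hs, hi⟩ := hY z hz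
    exact ⟨s, hs, (Complex.conjLIE.toContinuousLinearEquiv.toContinuousLinearMap.integrable_comp
      hi : _)⟩
  obtain ⟨F, hF, hre, hFG⟩ := completion_weak hO (x := fun z => x0 z + f z)
    (G := fun z => gr x0 z + G z)
    ((hx.sm.continuous.add hfc).locallyIntegrable.locallyIntegrableOn _) (lx.add lG) (by
      intro ψ h1 h2 h3
      have e1 := weak_gr hO hx1 h1 h2 h3
      have e2 := weak_G hcl hfc hu hD hG h1 h2 h3
      have hψc : Continuous (gr ψ) := continuous_gr (h1.of_le (by exact_mod_cast le_top))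
      have hT : Tst Cᶜ ψ := Tst.of_supp h1 h2 h3
      have i1 : Integrable fun z => (x0 z : ℂ) * gr ψ z :=
        ((Complex.continuous_ofReal.comp hx.sm.continuous).mul
          hψc).integrable_of_hasCompactSupport hT.cpt_gr.mul_left
      have i2 : Integrable fun z => (f z : ℂ) * gr ψ z :=
        ((Complex.continuous_ofReal.comp hfc).mul
          hψc).integrable_of_hasCompactSupport hT.cpt_gr.mul_left
      have hψo : Continuous fun z => (ψ z : ℂ) := Complex.continuous_ofReal.comp h1.continuous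
      have hcs : HasCompactSupport fun z => (ψ z : ℂ) :=
        h2.comp_left (g := fun t : ℝ => (t : ℂ)) (by simp)
      have hts : tsupport (fun z => (ψ z : ℂ)) ⊆ Cᶜ := by
        refine (closure_mono ?_).trans h3
        intro z hz h'
        exact hz (by simp [h'])
      have j1 : Integrable fun z => (ψ z : ℂ) * gr x0 z :=
        (hψo.mul hxc).integrable_of_hasCompactSupport hcs.mul_right
      have j2 : Integrable fun z => (ψ z : ℂ) * G z := by
        have h5 := Crest.Agent.R165.Cl4x722.integrable_mul_test lG hψo hcs hts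
        exact h5.congr (ae_of_all _ fun z => mul_comm _ _)
      have e3 : ∫ z, ((x0 z + f z : ℝ) : ℂ) * gr ψ z =
          (∫ z, (x0 z : ℂ) * gr ψ z) + ∫ z, (f z : ℂ) * gr ψ z := by
        rw [← integral_add i1 i2]
        congr 1; funext z; push_cast; ring
      have e4 : ∫ z, (ψ z : ℂ) * (gr x0 z + G z) =
          (∫ z, (ψ z : ℂ) * gr x0 z) + ∫ z, (ψ z : ℂ) * G z := by
        rw [← integral_add j1 j2]
        congr 1; funext z; ring
      rw [e3, e4, e1, e2]; ring) (by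
      intro ψ hψ
      have e1 := el_G hcl hx hs hg hD hG hψ
      have i1 := hψ.int_gr (hconj lx)
      have i2 := hψ.int_gr (hconj lG)
      have e2 : ∫ z, conj (gr x0 z + G z) * gr ψ z =
          (∫ z, conj (gr x0 z) * gr ψ z) + ∫ z, conj (G z) * gr ψ z := by
        rw [← integral_add i1 i2]
        congr 1; funext z; rw [map_add]; ring
      rw [e2, e1, int_conj_gr i1, int_dot_smooth hx.sm hψ.sm hψ.cpt, wdg_tst hO hx1 hψ]
      push_cast
      ring)
  have hre' : ∀ z ∈ Cᶜ, (F z).re = x0 z + f z := by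
    refine Measure.eqOn_open_of_ae_eq (μ := (volume : Measure ℂ)) ?_ hO
      (Complex.continuous_re.comp_continuousOn hF.continuousOn)
      (hx.sm.continuous.add hfc).continuousOn
    rw [Filter.EventuallyEq, ae_restrict_iff' hO.measurableSet]
    exact hre
  have hfe : ∀ z ∈ Cᶜ, f =ᶠ[𝓝 z] fun w => (F w).re - x0 w := by
    intro z hz
    filter_upwards [hO.mem_nhds hz] with w hw
    rw [hre' w hw]; ring
  have hloc : LocallyLipschitzOn Cᶜ f := by
    intro z hz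
    have h1 : ContDiffAt ℂ 1 F z := (hF.analyticAt (hO.mem_nhds hz)).contDiffAt
    have h2 : ContDiffAt ℝ 1 (fun w => (F w).re - x0 w) z :=
      (Complex.reCLM.contDiff.contDiffAt.comp z (h1.restrict_scalars ℝ)).sub
        (hx.sm.of_le (by exact_mod_cast le_top) : ContDiff ℝ 1 x0).contDiffAt
    obtain ⟨K, t, ht, h3⟩ := h2.exists_lipschitzOnWith
    refine ⟨K, t ∩ Cᶜ, mem_nhdsWithin_of_mem_nhds (inter_mem ht (hO.mem_nhds hz)), ?_⟩
    intro a ha c hc
    have ea : f a = (F a).re - x0 a := by rw [hre' a ha.2]; ring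
    have ec : f c = (F c).re - x0 c := by rw [hre' c hc.2]; ring
    rw [ea, ec]
    exact h3 ha.1 hc.1
  have hgrf : ∀ᵐ z ∂(volume.restrict Cᶜ), gr f z = G z := by
    rw [ae_restrict_iff' hO.measurableSet]
    filter_upwards [hFG] with z hz hzC
    have hFd : DifferentiableAt ℂ F z := (hF z hzC).differentiableAt (hO.mem_nhds hzC)
    have h1 : DifferentiableAt ℝ (fun w => (F w).re) z :=
      Complex.reCLM.differentiableAt.comp z (hFd.restrictScalars ℝ)
    have h2 : gr f z = gr (fun w => (F w).re - x0 w) z := by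
      unfold gr; rw [(hfe z hzC).fderiv_eq]
    rw [h2, gr_sub h1 (hx.sm.differentiable (by simp) z), gr_re_hol hFd, ← hz hzC]
    ring
  have hfin : IntegrableOn (Bd_775.en f) Cᶜ := by
    have h1 := (memLp_two_iff_integrable_sq_norm (Lp.aestronglyMeasurable G)).1 (Lp.memLp G)
    refine h1.congr ?_
    filter_upwards [hgrf] with z hz
    rw [← hz, norm_gr_sq]
  have hDf : D C f := ⟨hfc, hfb, hloc, hfin⟩
  have hGf : (memLp_gr hfin).toLp (gr f) = G := by
    have h1 : (Lp.memLp G).toLp G = G := Lp.toLp_coeFn G _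
    rw [← h1]
    exact MemLp.toLp_congr _ _ hgrf
  refine ⟨f, hDf, hu, ?_, ?_⟩
  · have h1 : ∀ k, di C (fun z => χ k z - f z) (fun z => χ k z - f z) =
        ‖(memLp_gr (hD k).fin).toLp (gr (χ k)) - G‖ ^ 2 := by
      intro k
      rw [← norm_sub_sq hcl (hQ k) hDf.q, hGf]
    simp only [h1]
    have h2 := ((hG.sub_const G).norm).pow 2
    simpa using h2
  · have h1 : Tendsto (fun k => di C (χ k) (χ k)) atTop (𝓝 (di C f f)) := by
      have h2 : ∀ k, di C (χ k) (χ k) = ‖(memLp_gr (hD k).fin).toLp (gr (χ k))‖ ^ 2 :=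
        fun k => di_eq_norm (hQ k)
      simp only [h2]
      rw [di_eq_norm hDf.q, hGf]
      exact hG.norm.pow 2
    have h2 := tendsto_lin hx hfc hu fun k => (hD k).cont
    have h3 : Tendsto (fun k => J C x0 (χ k)) atTop (𝓝 (J C x0 f)) := by
      unfold J
      exact h1.sub (h2.const_mul 2)
    exact tendsto_nhds_unique h3 hg.lim

end Crest.Agent.R105.Asm_6
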