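import Crest.Agent.R105.Asm5b_6

/-!
# Row 105, S0139 [B], ATTP, part C5 (c): isotropy of the limit, `ATTP` from `C2P`, `C4P` (helper6)
-/

set_option autoImplicit false
set_option linter.style.haveILetI false

open MeasureTheory Set Filter Topology Metric Bornology
open scoped ContDiff NNReal ENNReal

namespace Crest.Agent.R105.Asm_6

open Crest.Agent.R105.IfB_641

variable {C : Set ℂ} {x0 : ℂ → ℝ} {b : ℕ → ℂ → ℝ} {m : ℝ} {χ : ℕ → ℂ → ℝ}

/-- functions of class `Q` vanishing near `C` are in `LC` -/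
theorem lc_of_zero (hC : IsClosed C) {g : ℂ → ℝ} (hg : Q C g)
    (h0 : ∀ z ∈ C, ∀ᶠ w in 𝓝 z, g w = 0) : LC C g where
  lip := by
    intro z
    by_cases hz : z ∈ C
    · refine ⟨0, {w | g w = 0}, h0 z hz, ?_⟩
      intro x hx y hy
      rw [show g x = 0 from hx, show g y = 0 from hy]
      simp
    · obtain ⟨K, t, ht, h⟩ := hg.loc hz
      rw [hC.isOpen_compl.nhdsWithin_eq hz] at ht
      exact ⟨K, t, ht, h⟩
  bdd := hg.bdd
  fin := by
    have h1 := hg.fin
    rwa [integrableOn_iff_integrable_of_support_subset] at h1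
    intro z hz hzC
    apply hz
    have h2 : g =ᶠ[𝓝 z] fun _ => (0 : ℝ) := h0 z hzC
    rw [Bd_775.en_eq_of_eventuallyEq h2, Bd_775.en_const]
  lc := by
    intro z hz
    filter_upwards [h0 z hz] with w hw
    rw [hw, (h0 z hz).self_of_nhds]

theorem en_mul_le' {u v : ℂ → ℝ} {z : ℂ} {M : ℝ} (hu : DifferentiableAt ℝ u z)
    (hv : DifferentiableAt ℝ v z) (h1 : |u z| ≤ 1) (h2 : |v z| ≤ M) :
    Bd_775.en (fun w => u w * v w) z ≤ 2 * Bd_775.en v z + 2 * M ^ 2 * Bd_775.en u z := by
  unfold Bd_775.en; rw [Bd_775.gx_mul hu hv, Bd_775.gy_mul hu hv]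
  have h3 : u z ^ 2 ≤ 1 := by rw [← sq_abs]; nlinarith [abs_nonneg (u z)]
  have h4 : v z ^ 2 ≤ M ^ 2 := by rw [← sq_abs]; exact pow_le_pow_left₀ (abs_nonneg _) h2 2
  have key : ∀ p q : ℝ, (u z * p + v z * q) ^ 2 ≤ 2 * p ^ 2 + 2 * M ^ 2 * q ^ 2 := by
    intro p q
    have e1 : (u z * p + v z * q) ^ 2 ≤ 2 * (u z ^ 2 * p ^ 2 + v z ^ 2 * q ^ 2) := by
      nlinarith [sq_nonneg (u z * p - v z * q)]
    have e2 : u z ^ 2 * p ^ 2 ≤ 1 * p ^ 2 := mul_le_mul_of_nonneg_right h3 (sq_nonneg _)
    have e3 : v z ^ 2 * q ^ 2 ≤ M ^ 2 * q ^ 2 := mul_le_mul_of_nonneg_right h4 (sq_nonneg _)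
    linarith
  have e1 := key (Bd_775.gx v z) (Bd_775.gx u z)
  have e2 := key (Bd_775.gy v z) (Bd_775.gy u z)
  linarith

/-- **approximants equal to `f` off small neighbourhoods of `C`** -/
theorem exists_near (hC : TD C) (hg : GS C x0 b m χ) (hS : ∀ s ∈ range b, D C s) {f : ℂ → ℝ}
    (hf : D C f)
    (hu : ∀ R h : ℝ, 0 < h → ∃ K : ℕ, ∀ k, K ≤ k → ∀ z, ‖z‖ ≤ R → |χ k z - f z| ≤ h)
    (hdi : Tendsto (fun k => di C (fun z => χ k z - f z) (fun z => χ k z - f z)) atTop (𝓝 0))
    {r : ℝ} (hr : 0 < r) : ∃ a, Gen C (range b) a ∧ Bd_775.Near C r a f := by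
  have hcl : IsClosed C := hC.cpt.isClosed
  obtain ⟨ζ, z1, z2, z3, z4, z5⟩ := Dir_508.exists_cutoff hC.cpt (isOpen_thickening (δ := r))
    (self_subset_thickening hr C)
  have hζ1 : ∀ z, |ζ z| ≤ 1 := fun z => by
    rw [abs_of_nonneg (z5 z).1]; exact (z5 z).2
  have hζlc : LC C ζ := by
    have h1 : ContDiff ℝ 1 ζ := z1.of_le (by exact_mod_cast le_top)
    obtain ⟨D, hD⟩ := h1.lipschitzWith_of_hasCompactSupport z2 one_ne_zero
    refine Bd_775.LC.of_lipschitz hD z2 fun z hz => ?_
    have h2 := (eventually_nhdsSet_iff_forall.1 z4) z hz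
    filter_upwards [h2] with w hw
    rw [hw, h2.self_of_nhds]
  set A := ∫ z in Cᶜ, Bd_775.en ζ z with hA
  have hA0 : 0 ≤ A := integral_nonneg fun z => Bd_775.en_nonneg _ z
  obtain ⟨R, hR⟩ := z2.isCompact.isBounded.subset_closedBall (0 : ℂ)
  set s : ℝ := min r (r / (2 * (A + 1))) with hs
  have hs0 : 0 < s := by positivity
  obtain ⟨K1, hK1⟩ := hu R s hs0
  have h1 : ∀ᶠ k in atTop, di C (fun z => χ k z - f z) (fun z => χ k z - f z) < r ^ 2 / 4 :=
    hdi.eventually (gt_mem_nhds (by positivity))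
  obtain ⟨k, hk1, hk2⟩ := (h1.and (eventually_ge_atTop K1)).exists
  have hDk : D C (χ k) := Gen.d hcl hS (hg.gen k)
  have hQd : Q C (fun z => χ k z - f z) := hDk.q.sub hcl hf.q
  have hd : ∀ z, |ζ z * (χ k z - f z)| ≤ s := by
    intro z
    by_cases hz : z ∈ tsupport ζ
    · have h2 := hR hz
      rw [mem_closedBall, dist_zero_right] at h2
      rw [abs_mul]
      have h3 := hK1 k hk2 z h2
      calc |ζ z| * |χ k z - f z| ≤ 1 * s :=
            mul_le_mul (hζ1 z) h3 (abs_nonneg _) zero_le_one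
        _ = s := one_mul s
    · rw [image_eq_zero_of_notMem_tsupport hz, zero_mul, abs_zero]; exact hs0.le
  refine ⟨fun z => f z + ζ z * (χ k z - f z), ?_, ?_⟩
  · have e : (fun z => f z + ζ z * (χ k z - f z)) =
        fun z => χ k z + (ζ z - 1) * (χ k z - f z) := by funext z; ring
    rw [e]
    refine Gen.add (hg.gen k) (Gen.lc (lc_of_zero hcl ?_ ?_))
    · exact (hζlc.q.sub hcl (Bd_775.Q.const C 1)).mul hcl hQd
    · intro z hz
      filter_upwards [(eventually_nhdsSet_iff_forall.1 z4) z hz] with w hw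
      rw [hw, sub_self, zero_mul]
  · refine ⟨Or.inr fun z hz => ?_, fun z => ?_, ?_⟩
    · have : ζ z = 0 := image_eq_zero_of_notMem_tsupport fun h' => hz (z3 h')
      simp only [this]; ring
    · have e : f z + ζ z * (χ k z - f z) - f z = ζ z * (χ k z - f z) := by ring
      simp only [e]
      exact (hd z).trans (min_le_left _ _)
    · have e : (fun w => f w + ζ w * (χ k w - f w) - f w) = fun w => ζ w * (χ k w - f w) := by
        funext w; ring
      have hQm : Q C (fun w => ζ w * (χ k w - f w)) := hζlc.q.mul hcl hQd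
      have e2 : ∀ z, Bd_775.en (fun w => (fun z => f z + ζ z * (χ k z - f z)) w - f w) z =
          Bd_775.en (fun w => ζ w * (χ k w - f w)) z := fun z => by
        simp only [e]
      simp only [e2]
      rw [← Bd_775.setIntegral_en_eq hQm]
      refine ENNReal.ofReal_le_ofReal ?_
      -- pointwise estimate, with `|χ k - f| ≤ s` where `ζ ≠ 0`
      have hpt : ∀ᵐ z ∂(volume.restrict Cᶜ), Bd_775.en (fun w => ζ w * (χ k w - f w)) z ≤
          2 * Bd_775.en (fun w => χ k w - f w) z + 2 * s ^ 2 * Bd_775.en ζ z := by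
        filter_upwards [hζlc.q.ae_diff hcl, hQd.ae_diff hcl] with z d1 d2
        by_cases hz : z ∈ tsupport ζ
        · have h2 := hR hz
          rw [mem_closedBall, dist_zero_right] at h2
          exact en_mul_le' d1 d2 (hζ1 z) (hK1 k hk2 z h2)
        · have h3 : (fun w => ζ w * (χ k w - f w)) =ᶠ[𝓝 z] fun _ => (0 : ℝ) := by
            have h4 : ζ =ᶠ[𝓝 z] 0 := notMem_tsupport_iff_eventuallyEq.1 hz
            filter_upwards [h4] with w hw
            rw [hw]; simp
          rw [Bd_775.en_eq_of_eventuallyEq h3, Bd_775.en_const]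
          have := Bd_775.en_nonneg (fun w => χ k w - f w) z
          have := Bd_775.en_nonneg ζ z
          positivity
      have h5 := integral_mono_ae hQm.fin ((hQd.fin.const_mul 2).add
        (hζlc.q.fin.const_mul (2 * s ^ 2))) hpt
      refine h5.trans ?_
      have h6 : ∫ z in Cᶜ, (2 * Bd_775.en (fun w => χ k w - f w) z +
          2 * s ^ 2 * Bd_775.en ζ z) =
          2 * (∫ z in Cᶜ, Bd_775.en (fun w => χ k w - f w) z) + 2 * s ^ 2 * A := by
        rw [← integral_const_mul, hA, ← integral_const_mul]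
        exact integral_add (hQd.fin.const_mul 2) (hζlc.q.fin.const_mul (2 * s ^ 2))
      have h7 : ∫ z in Cᶜ, Bd_775.en (fun w => χ k w - f w) z < r ^ 2 / 4 := by
        rw [← Bd_775.di_self]; exact hk1
      have h8 : 2 * s ^ 2 * A ≤ r ^ 2 / 2 := by
        have h9 : s ≤ r / (2 * (A + 1)) := min_le_right _ _
        have h10 : s ≤ r := min_le_left _ _
        have h11 : s * (A + 1) ≤ r / 2 := by
          calc s * (A + 1) ≤ r / (2 * (A + 1)) * (A + 1) :=
                mul_le_mul_of_nonneg_right h9 (by positivity)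
            _ = r / 2 := by field_simp
        have h12 : s ^ 2 * A ≤ s * (s * (A + 1)) := by nlinarith
        have h13 : s * (s * (A + 1)) ≤ s * (r / 2) := mul_le_mul_of_nonneg_left h11 hs0.le
        -- `s * A ≤ r / 2`, need one more factor
        have h14 : s ≤ r / 2 := by
          have : r / (2 * (A + 1)) ≤ r / 2 := by
            apply div_le_div_of_nonneg_left hr.le (by norm_num) (by linarith)
          exact h9.trans this
        nlinarith
      refine le_trans (le_of_eq h6) ?_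
      linarith

/-- **isotropy of the limit** -/
theorem iso_limit (hC : TD C) (hs : Sel C x0 b m) {f : ℂ → ℝ} (hf : D C f)
    (hn : ∀ r : ℝ, 0 < r → ∃ a, Gen C (range b) a ∧ Bd_775.Near C r a f) :
    Iso C (insert f (range b)) := by
  have hcl : IsClosed C := hC.cpt.isClosed
  have hS : ∀ s ∈ range b, D C s := by rintro _ ⟨i, rfl⟩; exact hs.mem i
  choose a ha hn using fun n : ℕ => hn (1 / ((n : ℝ) + 1)) (by positivity)
  have hcv : Bd_775.Cv C a f := by
    have h1 := Bd_775.cv_of_tendsto hcl (x := fun n => (⟨a n, Gen.d hcl hS (ha n)⟩ : Bd_775.Hn C))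
      (y := ⟨f, hf⟩) (by
        letI := Bd_775.metr hcl
        rw [tendsto_iff_dist_tendsto_zero]
        refine squeeze_zero (fun n => dist_nonneg) (fun n => ?_)
          tendsto_one_div_add_atTop_nhds_zero_nat
        exact Bd_775.dist_le_of_near hcl (by positivity) (hn n))
    exact h1
  have hr : insert f (range b) = range (fun i : Option ℕ => i.elim f b) := by
    ext u
    constructor
    · rintro (rfl | ⟨i, rfl⟩)
      · exact ⟨none, rfl⟩
      · exact ⟨some i, rfl⟩
    · rintro ⟨i, rfl⟩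
      cases i with
      | none => exact mem_insert _ _
      | some i => exact mem_insert_of_mem _ ⟨i, rfl⟩
  rw [hr, iso_range]
  refine Bd_775.iso_of_cv (b := fun n (i : Option ℕ) => i.elim (a n) b) hcl ?_ ?_ ?_
    (Frequently.of_forall fun n => ?_)
  · intro n i
    cases i with
    | none => exact (Gen.d hcl hS (ha n)).q
    | some i => exact (hs.mem i).q
  · intro i
    cases i with
    | none => exact hf.q
    | some i => exact (hs.mem i).q
  · intro i
    cases i with
    | none => exact hcv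
    | some i => exact Bd_775.Cv.of_const hcl (hs.mem i).q
  · rw [← iso_range]
    refine Iso.trans ?_ hs.iso
    rintro _ ⟨i, rfl⟩
    cases i with
    | none => exact ha n
    | some i => exact Gen.of ⟨i, rfl⟩

/-- **`ATTP` from the leaves** -/
theorem attp_of (h2 : C2P) (h4 : C4P) : ATTP := by
  intro C x0 hC hx b m hs
  have hcl : IsClosed C := hC.cpt.isClosed
  have hS : ∀ s ∈ range b, D C s := by rintro _ ⟨i, rfl⟩; exact hs.mem i
  obtain ⟨χ, hg⟩ := exists_gs h2 h4 hC hx hs
  obtain ⟨f, hf, hu, hdi, hJ⟩ := exists_limit hC hx hs hg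
  exact ⟨f, hf, iso_limit hC hs hf fun r hr => exists_near hC hg hS hf hu hdi hr, hJ⟩

end Crest.Agent.R105.Asm_6
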