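import Crest.Agent.R105.Mr2_61

/-!
# Row 105, ATT (B): monotone replacement, output form (helper61)
-/

set_option autoImplicit false

open Set Filter Topology Metric Bornology
open scoped ContDiff

namespace Crest.Agent.R105.Mr_61

lemma Pm.unb {u : ℂ → ℝ} {t e s : ℝ} (h : Pm u t e) {p : ℂ} (hp : u p < t - e) (he : 0 < e)
    (hts : t ≤ s) : ¬ IsBounded (connectedComponentIn {w | u w < s} p) := by
  intro hb
  refine h p hp (hb.subset ?_)
  refine isPreconnected_connectedComponentIn.subset_connectedComponentIn
    (mem_connectedComponentIn (show p ∈ {w | u w < t} from by show u p < t; linarith)) ?_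
  intro w hw
  have : u w < t := connectedComponentIn_subset {w | u w < t} p hw
  exact this.trans_le hts

lemma Pp.unb {u : ℂ → ℝ} {t e s : ℝ} (h : Pp u t e) {p : ℂ} (hp : t + e < u p) (he : 0 < e)
    (hts : s ≤ t) : ¬ IsBounded (connectedComponentIn {w | s < u w} p) := by
  intro hb
  refine h p hp (hb.subset ?_)
  refine isPreconnected_connectedComponentIn.subset_connectedComponentIn
    (mem_connectedComponentIn (show p ∈ {w | t < u w} from by show t < u p; linarith)) ?_
  intro w hw
  have : t < u w := connectedComponentIn_subset {w | t < u w} p hw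
  exact hts.trans_lt this

/-- **MONOTONE REPLACEMENT, output form.** `u` continuous, `= re` off `ball 0 R`; a class `PP` closed
under component switches. For `M`, `e > 0` there is `u'` in the class, `= u` off `ball 0 R`, whose
gradient at every point is the old one or zero, such that for all levels `|c| ≤ M`: a point with
`u' p ≤ c` lies in an unbounded component of `{u' < c + e}`, a point with `c ≤ u' p` in an unbounded
component of `{c - e < u'}`. -/
theorem exists_mono' {C : Set ℂ} (hC : IsCompact C) (htd : IsTotallyDisconnected C) {u : ℂ → ℝ}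
    (hu : Continuous u) {R : ℝ} (hR : ∀ z, R ≤ ‖z‖ → u z = z.re) {PP : (ℂ → ℝ) → Prop}
    (hcl : Cl C PP) (hP : PP u) (M : ℝ) {e : ℝ} (he : 0 < e) :
    ∃ u', PP u' ∧ Rep R u u' ∧ ∀ c, |c| ≤ M → ∀ p,
      (u' p ≤ c → ¬ IsBounded (connectedComponentIn {w | u' w < c + e} p)) ∧
      (c ≤ u' p → ¬ IsBounded (connectedComponentIn {w | c - e < u' w} p)) := by
  obtain ⟨T, hT⟩ := exists_grid (|M| + e) (e / 4) (by linarith)
  obtain ⟨u', hP', hr, h⟩ := exists_mono hC htd hu (farRe_re hR) hcl hP T (e := e / 4) (by linarith)
  refine ⟨u', hP', hr, fun c hc p => ⟨fun hp => ?_, fun hp => ?_⟩⟩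
  · obtain ⟨t, ht, h1, h2⟩ := hT (c + e / 2) (by
      have := abs_add_le c (e / 2)
      rw [abs_of_pos (show 0 < e / 2 by linarith)] at this
      linarith [le_abs_self M])
    exact (h t ht).2.unb (by linarith) (by linarith) (by linarith)
  · obtain ⟨t, ht, h1, h2⟩ := hT (c - 3 * e / 4) (by
      have := abs_sub c (3 * e / 4)
      rw [abs_of_pos (show 0 < 3 * e / 4 by linarith)] at this
      linarith [le_abs_self M])
    exact (h t ht).1.unb (by linarith) (by linarith) (by linarith)

end Crest.Agent.R105.Mr_61
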