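import Crest.Agent.R105.Asm0_6
import Crest.Agent.R105.Stk2_939
import Crest.Agent.R105.Mid1_987
import Crest.Agent.R105.Mr3_61

/-!
# Row 105, S0139 [B], ATTP: leaf `C2P` of helper6 (`Asm0_6`) (helper61)

* `exists_cpt` : logarithmic cut-off of an honest function, `J` increases by at most `ε`
* `cl_PP` : `x0 + Gen` is closed under component switches (`Mr_61.Cl`)
* `J_le_of_rep` : a replacement does not increase `J`
* `Mn_of` : tolerance monotonicity at all points
* `c2p : Asm_6.C2P`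
-/

set_option autoImplicit false

open MeasureTheory Set Filter Topology Metric Bornology
open scoped ContDiff NNReal

namespace Crest.Agent.R105.C2P_61

open Crest.Agent.R105.IfB_641 Crest.Agent.R105.Mr_61

variable {C : Set ℂ} {x0 : ℂ → ℝ} {S : Set (ℂ → ℝ)}

/-! ### 1. cut-off -/

lemma en_mul_le' {η b : ℂ → ℝ} {z : ℂ} {M s : ℝ} (hs : 0 < s) (hη : DifferentiableAt ℝ η z)
    (hb : DifferentiableAt ℝ b z) (h1 : |η z| ≤ 1) (h2 : |b z| ≤ M) :
    en (fun w => η w * b w) z ≤ (1 + s) * en b z + (1 + s⁻¹) * M ^ 2 * en η z := by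
  have e1 : η z ^ 2 ≤ 1 := by rw [← sq_abs]; nlinarith [abs_nonneg (η z)]
  have e2 : b z ^ 2 ≤ M ^ 2 := by rw [← sq_abs]; exact pow_le_pow_left₀ (abs_nonneg _) h2 2
  have key : ∀ p q : ℝ, (η z * p + b z * q) ^ 2 ≤ (1 + s) * p ^ 2 + (1 + s⁻¹) * M ^ 2 * q ^ 2 := by
    intro p q
    have h3 : 2 * (η z * p) * (b z * q) ≤ s * (η z * p) ^ 2 + s⁻¹ * (b z * q) ^ 2 := by
      have h4 : 0 ≤ s * (η z * p - s⁻¹ * (b z * q)) ^ 2 := by positivity
      have h5 : s * (η z * p - s⁻¹ * (b z * q)) ^ 2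
          = s * (η z * p) ^ 2 - 2 * (s * s⁻¹) * (η z * p) * (b z * q)
            + (s * s⁻¹) * s⁻¹ * (b z * q) ^ 2 := by ring
      rw [h5, mul_inv_cancel₀ hs.ne'] at h4
      linarith
    have h6 : (η z * p) ^ 2 ≤ p ^ 2 := by
      rw [mul_pow]; exact mul_le_of_le_one_left (sq_nonneg _) e1
    have h7 : (b z * q) ^ 2 ≤ M ^ 2 * q ^ 2 := by
      rw [mul_pow]; exact mul_le_mul_of_nonneg_right e2 (sq_nonneg _)
    have h8 : (η z * p + b z * q) ^ 2
        ≤ (1 + s) * (η z * p) ^ 2 + (1 + s⁻¹) * (b z * q) ^ 2 := by nlinarith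
    refine h8.trans ?_
    have h9 : (1 + s) * (η z * p) ^ 2 ≤ (1 + s) * p ^ 2 :=
      mul_le_mul_of_nonneg_left h6 (by positivity)
    have h10 : (1 + s⁻¹) * (b z * q) ^ 2 ≤ (1 + s⁻¹) * (M ^ 2 * q ^ 2) :=
      mul_le_mul_of_nonneg_left h7 (by positivity)
    linarith
  unfold Bd_775.en
  rw [Bd_775.gx_mul hη hb, Bd_775.gy_mul hη hb]
  have k1 := key (gx b z) (gx η z)
  have k2 := key (gy b z) (gy η z)
  nlinarith

lemma di_self' (u : ℂ → ℝ) : di C u u = ∫ z in Cᶜ, en u z := by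
  unfold di
  congr 1
  funext z
  unfold Bd_775.dot Bd_775.en
  ring

/-- logarithmic cut-off of a bounded honest function -/
theorem exists_cpt (hC : IsCompact C) (hx : X0 C x0) {b : ℂ → ℝ} (hb : D C b)
    (hg : Gen C S b) {ε : ℝ} (hε : 0 < ε) :
    ∃ φ : ℂ → ℝ, D C φ ∧ Gen C S φ ∧ HasCompactSupport φ ∧ J C x0 φ ≤ J C x0 b + ε := by
  have hcl := hC.isClosed
  obtain ⟨M, hM⟩ := hb.bdd
  set E := di C b b with hE
  have hE0 : 0 ≤ E := by
    rw [hE, di_self']; exact integral_nonneg fun z => Bd_775.en_nonneg _ z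
  obtain ⟨R1, hR1⟩ := hC.isBounded.subset_closedBall (0 : ℂ)
  obtain ⟨R2, hR2⟩ := hx.lap_far
  set R₀ := max R1 R2 with hR₀
  set s := ε / (2 * (E + 1)) with hs
  have hs0 : 0 < s := by positivity
  set δ := ε / (2 * ((1 + s⁻¹) * (M ^ 2 + 1))) with hδ
  have hδ0 : 0 < δ := by positivity
  obtain ⟨η, ⟨K, hK⟩, hηc, hη01, hη1, hηi, hηe⟩ := Stk_939.exists_cut_inf (R₀ + 1) hδ0
  have hlc : LC C η := by
    refine Bd_775.LC.of_lipschitz hK hηc fun z hz => ?_
    have hz' : ‖z‖ < R₀ + 1 := by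
      have h1 := hR1 hz
      rw [mem_closedBall, dist_zero_right] at h1
      linarith [le_max_left R1 R2]
    have h2 : ∀ᶠ w in 𝓝 z, ‖w‖ < R₀ + 1 := continuous_norm.continuousAt.eventually_lt
      continuousAt_const hz'
    filter_upwards [h2] with w hw
    rw [hη1 w hw.le, hη1 z hz'.le]
  have hgen : Gen C S (fun z => η z * b z) := Gen.mul (Gen.lc hlc) hg
  have hQ : Q C (fun z => η z * b z) := hlc.q.mul hcl hb.q
  refine ⟨fun z => η z * b z, hQ.d (hK.continuous.mul hb.cont), hgen, hηc.mul_right, ?_⟩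
  have hlap : ∫ z, (η z * b z) * lap x0 z = ∫ z, b z * lap x0 z := by
    refine integral_congr_ae (Eventually.of_forall fun z => ?_)
    simp only []
    by_cases hz : ‖z‖ ≤ R₀
    · rw [hη1 z (by linarith), one_mul]
    · rw [hR2 z (by linarith [le_max_right R1 R2, not_le.1 hz]), mul_zero, mul_zero]
  unfold J
  rw [hlap]
  have hmain : di C (fun z => η z * b z) (fun z => η z * b z) ≤ E + ε := by
    rw [di_self']
    have h1 : ∫ z in Cᶜ, en (fun z => η z * b z) z
        ≤ ∫ z in Cᶜ, ((1 + s) * en b z + (1 + s⁻¹) * M ^ 2 * en η z) := by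
      refine integral_mono_ae hQ.fin
        ((hb.fin.const_mul (1 + s)).add (hηi.integrableOn.const_mul _)) ?_
      filter_upwards [hlc.q.ae_diff hcl, hb.q.ae_diff hcl] with z h1 h2
      exact en_mul_le' hs0 h1 h2 (by rw [abs_of_nonneg (hη01 z).1]; exact (hη01 z).2) (hM z)
    refine h1.trans ?_
    rw [integral_add (hb.fin.const_mul (1 + s)) (hηi.integrableOn.const_mul _),
      integral_const_mul, integral_const_mul, ← di_self', ← hE]
    have h2 : ∫ z in Cᶜ, en η z ≤ δ :=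
      (setIntegral_le_integral hηi (Eventually.of_forall fun z => Bd_775.en_nonneg _ z)).trans hηe
    have h3 : s * E ≤ ε / 2 := by
      rw [hs, div_mul_eq_mul_div, div_le_div_iff₀ (by positivity) two_pos]
      nlinarith
    have h4 : (1 + s⁻¹) * M ^ 2 * ∫ z in Cᶜ, en η z ≤ ε / 2 := by
      have h5 : (1 + s⁻¹) * M ^ 2 * ∫ z in Cᶜ, en η z ≤ (1 + s⁻¹) * (M ^ 2 + 1) * δ := by
        refine mul_le_mul ?_ h2 (integral_nonneg fun z => Bd_775.en_nonneg _ z) (by positivity)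
        exact mul_le_mul_of_nonneg_left (by linarith) (by positivity)
      refine h5.trans (le_of_eq ?_)
      rw [hδ]; field_simp
    linarith
  linarith

/-! ### 2. the class is closed under switches -/

theorem lip_up (t e : ℝ) : LipschitzWith 1 (fun s : ℝ => max (s - t - e) 0) :=
  ((LipschitzWith.id.sub (LipschitzWith.const t)).sub (LipschitzWith.const e)).max_const 0 |>.weaken
    (by simp)

theorem lip_dn (t e : ℝ) : LipschitzWith 1 (fun s : ℝ => max (t - e - s) 0) :=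
  ((LipschitzWith.const (t - e)).sub LipschitzWith.id).max_const 0 |>.weaken (by simp)

/-- the class `x0 + Gen` -/
def PP (C : Set ℂ) (x0 : ℂ → ℝ) (S : Set (ℂ → ℝ)) (u : ℂ → ℝ) : Prop :=
  ∃ φ, Gen C S φ ∧ u = fun z => x0 z + φ z

theorem lc_of_cut {χ : ℂ → ℝ} (h : Cut C χ) : LC C χ :=
  Mid_987.lc_of_smooth h.sm h.cpt h.lc

/-- `h(x0 + φ) χ` is generated -/
theorem gen_mul_cut (hx : X0 C x0) {φ χ : ℂ → ℝ} (hg : Gen C S φ) (hχ : Cut C χ) {h : ℝ → ℝ}
    {K : ℝ≥0} (hh : LipschitzWith K h) : Gen C S (fun z => h (x0 z + φ z) * χ z) := by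
  obtain ⟨κ, hκ, hκc, -, hκ1, -⟩ := Mid_987.exists_cut_in hχ.cpt.isCompact isOpen_univ
    (subset_univ _)
  have h1 : LC C (fun z => x0 z * κ z) := by
    refine Mid_987.lc_of_smooth (hx.sm.mul hκ) hκc.mul_left fun z hz => ?_
    have h2 : x0 =ᶠ[𝓝 z] 0 := notMem_tsupport_iff_eventuallyEq.1 fun h => hx.zero h hz
    filter_upwards [h2] with w hw
    rw [hw, h2.self_of_nhds]; simp
  have h3 : Gen C S (fun z => h (x0 z * κ z + φ z) * χ z) :=
    Gen.mul (Gen.comp hh (Gen.add (Gen.lc h1) hg)) (Gen.lc (lc_of_cut hχ))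
  convert h3 using 2 with z
  by_cases hz : z ∈ tsupport χ
  · rw [(hκ1 z hz).self_of_nhds, mul_one]
  · rw [image_eq_zero_of_notMem_tsupport hz, mul_zero, mul_zero]

theorem cl_PP (hx : X0 C x0) : Cl C (PP C x0 S) := by
  constructor
  · rintro u t e χ ⟨φ, hφ, rfl⟩ _ hχ
    refine ⟨_, Gen.sub hφ (gen_mul_cut hx hφ hχ (lip_up t e)), ?_⟩
    funext z; ring
  · rintro u t e χ ⟨φ, hφ, rfl⟩ _ hχ
    refine ⟨_, Gen.add hφ (gen_mul_cut hx hφ hχ (lip_dn t e)), ?_⟩
    funext z; ring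

/-! ### 3. `J` decreases -/

lemma en_add' {u v : ℂ → ℝ} {z : ℂ} (hu : DifferentiableAt ℝ u z) (hv : DifferentiableAt ℝ v z) :
    en (fun w => u w + v w) z = en u z + 2 * dot u v z + en v z := by
  unfold Bd_775.en Bd_775.dot
  rw [Bd_775.gx_add hu hv, Bd_775.gy_add hu hv]; ring

theorem J_eq (hC : IsCompact C) (hx : X0 C x0) {φ : ℂ → ℝ} (hφ : D C φ)
    (hc : HasCompactSupport φ) :
    IntegrableOn (fun z => en φ z + 2 * dot x0 φ z) Cᶜ ∧
      J C x0 φ = ∫ z in Cᶜ, (en φ z + 2 * dot x0 φ z) := by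
  obtain ⟨h1, h2⟩ := Mid_987.di_x0 hC hx hφ.q hc
  refine ⟨hφ.fin.add (h1.const_mul 2), ?_⟩
  rw [integral_add hφ.fin (h1.const_mul 2), integral_const_mul, ← di_self']
  unfold J
  have h3 : ∫ z in Cᶜ, dot x0 φ z = di C x0 φ := rfl
  rw [h3, h2]; ring

theorem J_le_of_rep (hC : IsCompact C) (hx : X0 C x0) {φ φ' : ℂ → ℝ} (hφ : D C φ)
    (hc : HasCompactSupport φ) (hφ' : D C φ') (hc' : HasCompactSupport φ')
    (hr : ∀ z, fderiv ℝ (fun z => x0 z + φ' z) z = fderiv ℝ (fun z => x0 z + φ z) z ∨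
      fderiv ℝ (fun z => x0 z + φ' z) z = 0) : J C x0 φ' ≤ J C x0 φ := by
  obtain ⟨i1, e1⟩ := J_eq hC hx hφ hc
  obtain ⟨i2, e2⟩ := J_eq hC hx hφ' hc'
  rw [e1, e2]
  refine integral_mono_ae i2 i1 ?_
  filter_upwards [hφ.q.ae_diff hC.isClosed, hφ'.q.ae_diff hC.isClosed] with z h1 h2
  have h0 : DifferentiableAt ℝ x0 z := hx.sm.differentiable (by simp) z
  have k1 := en_add' h0 h1
  have k2 := en_add' h0 h2
  have k3 : en (fun z => x0 z + φ' z) z ≤ en (fun z => x0 z + φ z) z := by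
    rw [Bd_775.en_eq, Bd_775.en_eq]
    rcases hr z with h | h
    · rw [h]
    · rw [h, norm_zero, zero_pow two_ne_zero]; exact sq_nonneg _
  linarith

/-! ### 4. monotonicity at all points -/

lemma exists_norm_eq {W : Set ℂ} (hW : IsPreconnected W) {p : ℂ} {R : ℝ} (hp : p ∈ W)
    (hpR : ‖p‖ ≤ R) (hb : ¬ IsBounded W) : ∃ w ∈ W, ‖w‖ = R := by
  obtain ⟨q, hq, hqR⟩ : ∃ q ∈ W, R ≤ ‖q‖ := by
    by_contra h
    push Not at h
    refine hb ((isBounded_closedBall (x := (0 : ℂ)) (r := R)).subset fun w hw => ?_)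
    rw [mem_closedBall, dist_zero_right]
    exact (h w hw).le
  have h1 := (hW.image _ continuous_norm.continuousOn).ordConnected.out
    (mem_image_of_mem _ hp) (mem_image_of_mem _ hq)
  obtain ⟨w, hw, hwR⟩ := h1 ⟨hpR, hqR⟩
  exact ⟨w, hw, hwR⟩

theorem Mn_of {u : ℂ → ℝ} {R e : ℝ} (hR0 : 0 ≤ R) (hR : ∀ z, R ≤ ‖z‖ → u z = z.re) (he : 0 < e)
    (he1 : e ≤ 1)
    (h : ∀ c, |c| ≤ R + 1 → ∀ p,
      (u p ≤ c → ¬ IsBounded (connectedComponentIn {w | u w < c + e} p)) ∧
      (c ≤ u p → ¬ IsBounded (connectedComponentIn {w | c - e < u w} p))) : Asm_6.Mn u e := by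
  intro p
  rcases le_or_gt R ‖p‖ with hp | hp
  · constructor
    · have h1 := far_unbounded (farRe_re hR).neg (-(u p + e)) p (by linarith) hp
      have h2 : {w : ℂ | -(u p + e) < -u w} = {w | u w < u p + e} := by
        ext w; simp only [mem_ofPred_eq]; constructor <;> intro h <;> linarith
      rwa [h2] at h1
    · exact far_unbounded (farRe_re hR) (u p - e) p (by linarith) hp
  · have hre : ∀ w : ℂ, ‖w‖ = R → |u w| ≤ R := by
      intro w hw
      rw [hR w hw.ge]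
      exact (Complex.abs_re_le_norm w).trans hw.le
    have hup : u p ≤ R + 1 := by
      by_contra hn
      rw [not_le] at hn
      have h1 := (h (R + 1) (by rw [abs_of_nonneg (by linarith)]) p).2 hn.le
      obtain ⟨w, hw, hwR⟩ := exists_norm_eq isPreconnected_connectedComponentIn
        (mem_connectedComponentIn (show p ∈ {w | R + 1 - e < u w} by
          show R + 1 - e < u p; linarith)) hp.le h1
      have h2 : R + 1 - e < u w := connectedComponentIn_subset {w | R + 1 - e < u w} p hw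
      have h3 := (abs_le.1 (hre w hwR)).2
      linarith
    have hlo : -(R + 1) ≤ u p := by
      by_contra hn
      rw [not_le] at hn
      have h1 := (h (-(R + 1)) (by rw [abs_neg, abs_of_nonneg (by linarith)]) p).1 hn.le
      obtain ⟨w, hw, hwR⟩ := exists_norm_eq isPreconnected_connectedComponentIn
        (mem_connectedComponentIn (show p ∈ {w | u w < -(R + 1) + e} by
          show u p < -(R + 1) + e; linarith)) hp.le h1
      have h2 : u w < -(R + 1) + e := connectedComponentIn_subset {w | u w < -(R + 1) + e} p hw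
      have h3 := (abs_le.1 (hre w hwR)).1
      linarith
    have h1 := h (u p) (abs_le.2 ⟨hlo, hup⟩) p
    exact ⟨h1.1 le_rfl, h1.2 le_rfl⟩

theorem mn_mono {u : ℂ → ℝ} {e e' : ℝ} (h : Asm_6.Mn u e) (hee : e ≤ e') (he : 0 < e) :
    Asm_6.Mn u e' := by
  intro p
  refine ⟨fun hb => (h p).1 (hb.subset ?_), fun hb => (h p).2 (hb.subset ?_)⟩
  · refine isPreconnected_connectedComponentIn.subset_connectedComponentIn
      (mem_connectedComponentIn (show p ∈ {w | u w < u p + e} by show u p < u p + e; linarith)) ?_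
    intro w hw
    have : u w < u p + e := connectedComponentIn_subset {w | u w < u p + e} p hw
    show u w < u p + e'
    linarith
  · refine isPreconnected_connectedComponentIn.subset_connectedComponentIn
      (mem_connectedComponentIn (show p ∈ {w | u p - e < u w} by show u p - e < u p; linarith)) ?_
    intro w hw
    have : u p - e < u w := connectedComponentIn_subset {w | u p - e < u w} p hw
    show u p - e' < u w
    linarith

/-! ### 5. assembly -/

/-- (C2), for any set `S` of honest functions -/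
theorem c2 (hC : TD C) (hx : X0 C x0) (hS : ∀ s ∈ S, D C s) {b : ℂ → ℝ} (hb : Gen C S b)
    {ε : ℝ} (hε : 0 < ε) :
    ∃ φ : ℂ → ℝ, D C φ ∧ Gen C S φ ∧ HasCompactSupport φ ∧
      J C x0 φ ≤ J C x0 b + ε ∧ Asm_6.Mn (fun z => x0 z + φ z) ε := by
  have hcl := hC.cpt.isClosed
  have hd : ∀ u, Gen C S u → D C u := fun u hu =>
    (hu.q hcl fun s hs => (hS s hs).q).d (Mid_987.Gen.cont (fun s hs => (hS s hs).cont) hu)
  obtain ⟨φ, hφ, hgφ, hcφ, hJφ⟩ := exists_cpt hC.cpt hx (hd b hb) hb hε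
  obtain ⟨R1, hR1⟩ := hcφ.isCompact.isBounded.subset_ball (0 : ℂ)
  obtain ⟨R2, hR2⟩ := hx.far
  set R := max (max R1 R2) 0 with hRdef
  have hRR1 : R1 ≤ R := (le_max_left _ _).trans (le_max_left _ _)
  have hRR2 : R2 ≤ R := (le_max_right _ _).trans (le_max_left _ _)
  have hR : ∀ z, R ≤ ‖z‖ → x0 z + φ z = z.re := by
    intro z hz
    have h1 : z ∉ tsupport φ := by
      intro h
      have := hR1 h
      rw [mem_ball, dist_zero_right] at this
      linarith
    rw [image_eq_zero_of_notMem_tsupport h1, add_zero]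
    exact hR2 z (hRR2.trans hz)
  set e := min ε 1 with he
  have he0 : 0 < e := lt_min hε one_pos
  obtain ⟨u', ⟨φ', hφ', rfl⟩, hr, hm⟩ := exists_mono' hC.cpt hC.td
    (u := fun z => x0 z + φ z) (hx.sm.continuous.add hφ.cont) hR (cl_PP (S := S) hx)
    ⟨φ, hgφ, rfl⟩ (R + 1) he0
  have hR' : ∀ z, R ≤ ‖z‖ → x0 z + φ' z = z.re := fun z hz => by
    have h1 : x0 z + φ' z = x0 z + φ z := hr.far z hz
    rw [h1]; exact hR z hz
  have hc' : HasCompactSupport φ' := by
    refine HasCompactSupport.intro (isCompact_closedBall (0 : ℂ) R) fun z hz => ?_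
    rw [mem_closedBall, dist_zero_right, not_le] at hz
    have h1 := hR' z hz.le
    have h2 := hR2 z (hRR2.trans hz.le)
    linarith
  refine ⟨φ', hd _ hφ', hφ', hc', ?_, ?_⟩
  · exact (J_le_of_rep hC.cpt hx hφ hcφ (hd _ hφ') hc' hr.grad).trans hJφ
  · exact mn_mono (Mn_of (le_max_right _ _) hR' he0 (min_le_right _ _) hm) (min_le_left _ _) he0

/-- **(C2)** -/
theorem c2p : Asm_6.C2P := by
  intro C x0 hC hx b m hs ε hε
  have h1 : ∀ᶠ k in atTop, J C x0 (b k) < m + ε / 2 :=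
    hs.lim.eventually (gt_mem_nhds (by linarith))
  obtain ⟨k, hk⟩ := h1.exists
  obtain ⟨φ, h2, h3, h4, h5, h6⟩ := c2 (S := range b) hC hx
    (by rintro s ⟨i, rfl⟩; exact hs.mem i) (Gen.of (mem_range_self k)) (half_pos hε)
  exact ⟨φ, h2, h3, h4, by linarith, mn_mono h6 (by linarith) (half_pos hε)⟩

end Crest.Agent.R105.C2P_61
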