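import Crest.Agent.R105.Asm5c_6
import Crest.Agent.R105.C2P_61
import Crest.Agent.R105.Asm5_987

/-!
# Row 105, S0139 [B]: `ATTP` (attainment), assembled (helper6)
-/

set_option autoImplicit false

namespace Crest.Agent.R105.Asm_6

/-- **ATTAINMENT** -/
theorem attp : IfB_641.ATTP := attp_of C2P_61.c2p Asm_987.c4P

end Crest.Agent.R105.Asm_6
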