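import Crest.Agent.R105.Ta4_937

/-!
# Row 105, S0138: adapter z-plane <-> picture plane with solids, part 5 (helper937)

Level sets `Lv`, super / sublevel sets of the envelopes and switched functions `Swd` are transported.
`u` on the z-side, `φ` in the picture, `u = φ ∘ F` on `U`.
-/

set_option autoImplicit false

open MeasureTheory Set Filter Topology Metric
open scoped NNReal ENNReal

namespace Crest.Agent.R105.Ta_937

open Ends_897 Tc_808 Ni_459

noncomputable section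

variable {U V : Set ℂ} {F : ℂ → ℂ} {u φ : ℂ → ℝ}

theorem up_eq (h : EndMap U V F) (he : ∀ z ∈ U, u z = φ (F z)) :
    up Uᶜ u = up Uᶜ (φ ∘ F) := up_congr fun z hz => he z (not_not.1 hz)

theorem lo_eq (h : EndMap U V F) (he : ∀ z ∈ U, u z = φ (F z)) :
    lo Uᶜ u = lo Uᶜ (φ ∘ F) := lo_congr fun z hz => he z (not_not.1 hz)

theorem sa_of_env {Y : Set ℂ} (u : ℂ → ℝ) (P : ℝ → ℝ → Prop) :
    Sa Y {z | P (lo Y u z) (up Y u z)} := by
  intro z hz
  by_cases hzY : z ∈ Y
  · intro w hw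
    show P (lo Y u w) (up Y u w)
    rw [lo_congr_cc hzY hw, up_congr_cc hzY hw]
    exact hz
  · rw [connectedComponentIn_eq_empty hzY]; exact empty_subset _

/-- sets defined by the envelopes correspond to each other. -/
theorem sat_env (h : EndMap U V F) (he : ∀ z ∈ U, u z = φ (F z)) (P : ℝ → ℝ → Prop) :
    sat h {z | P (lo Uᶜ u z) (up Uᶜ u z)} = {ζ | P (lo Vᶜ φ ζ) (up Vᶜ φ ζ)} := by
  ext ζ
  by_cases hζV : ζ ∈ V
  · obtain ⟨z, hz, rfl⟩ : ζ ∈ F '' U := by rw [h.img]; exact hζV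
    rw [F_mem_sat h hz]
    show P (lo Uᶜ u z) (up Uᶜ u z) ↔ P (lo Vᶜ φ (F z)) (up Vᶜ φ (F z))
    rw [up_eq h he, lo_eq h he, up_comp_of_U h φ hz, lo_comp_of_U h φ hz]
  · obtain ⟨K, hK⟩ := exists_K h hζV
    rw [mem_sat_of_mem h K hK]
    obtain ⟨z0, hz0⟩ := K.nonempty
    constructor
    · intro h1
      have h2 := h1 hz0
      show P (lo Vᶜ φ ζ) (up Vᶜ φ ζ)
      rw [← lo_comp_of_mem h φ K hz0 hK, ← up_comp_of_mem h φ K hz0 hK, ← up_eq h he,
        ← lo_eq h he]
      exact h2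
    · intro h1 z hz
      show P (lo Uᶜ u z) (up Uᶜ u z)
      rw [up_eq h he, lo_eq h he, lo_comp_of_mem h φ K hz hK, up_comp_of_mem h φ K hz hK]
      exact h1

/-- level sets -/
theorem sat_Lv (h : EndMap U V F) (he : ∀ z ∈ U, u z = φ (F z)) (t : ℝ) :
    sat h (Lv Uᶜ u t) = Lv Vᶜ φ t := sat_env h he fun l r => l ≤ t ∧ t ≤ r

theorem sa_Lv {Y : Set ℂ} (u : ℂ → ℝ) (t : ℝ) : Sa Y (Lv Y u t) :=
  sa_of_env u fun l r => l ≤ t ∧ t ≤ r

/-- components of saturated sets are saturated. -/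
theorem Sa.comp {Y W : Set ℂ} (h : Sa Y W) (z : ℂ) : Sa Y (connectedComponentIn W z) := by
  intro w hw
  by_cases hwY : w ∈ Y
  · have hwW := connectedComponentIn_subset _ _ hw
    rw [connectedComponentIn_eq hw]
    exact (isPreconnected_connectedComponentIn).subset_connectedComponentIn
      (mem_connectedComponentIn hwY) (h w hwW)
  · rw [connectedComponentIn_eq_empty hwY]; exact empty_subset _

/-- a bounded component of an open saturated set comes from a bounded component. -/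
theorem bounded_comp (h : EndMap U V F) {W : Set ℂ} (hW : Sa Uᶜ W) (ho : IsOpen W) {ζ : ℂ}
    (hζ : ζ ∈ sat h W) (hb : Bornology.IsBounded (connectedComponentIn (sat h W) ζ)) :
    ∃ z ∈ W, Bornology.IsBounded (connectedComponentIn W z) := by
  -- the corresponding point
  obtain ⟨z, hzW, hzζ⟩ : ∃ z ∈ W, ∀ C, Sa Uᶜ C → z ∈ C → ζ ∈ sat h C := by
    by_cases hζV : ζ ∈ V
    · obtain ⟨z, hz, rfl⟩ : ζ ∈ F '' U := by rw [h.img]; exact hζV
      exact ⟨z, (F_mem_sat h hz).1 hζ, fun C _ hzC => (F_mem_sat h hz).2 hzC⟩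
    · obtain ⟨K, hK⟩ := exists_K h hζV
      obtain ⟨z0, hz0⟩ := K.nonempty
      exact ⟨z0, (mem_sat_of_mem h K hK).1 hζ hz0,
        fun C hC hzC => (mem_sat_of_mem h K hK).2 (hC.cmp K ⟨z0, hz0, hzC⟩)⟩
  refine ⟨z, hzW, ?_⟩
  set C := connectedComponentIn W z with hCdef
  have hCs : Sa Uᶜ C := hW.comp z
  have hCo : IsOpen C := ho.connectedComponentIn
  have hzC : z ∈ C := mem_connectedComponentIn hzW
  have h1 : IsPreconnected (sat h C) :=
    isPreconnected_sat h hCs (Or.inl hCo) isPreconnected_connectedComponentIn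
  have h2 : sat h C ⊆ connectedComponentIn (sat h W) ζ :=
    h1.subset_connectedComponentIn (hzζ C hCs hzC) (sat_mono h (connectedComponentIn_subset _ _))
  have h3 : C ⊆ sat h.symm (connectedComponentIn (sat h W) ζ) := by
    rw [← sat_sat h hCs]
    exact sat_mono h.symm h2
  exact (isBounded_sat h.symm hb).subset h3

/-- **switched functions are transported**. -/
theorem swd_of (h : EndMap U V F) (he : ∀ z ∈ U, u z = φ (F z)) (hu : LB u) (hs : Swd Uᶜ u) :
    Swd Vᶜ φ := by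
  have hUe : Crest.AnalysisR.IsExteriorDomain (Uᶜ)ᶜ := by rw [compl_compl]; exact h.hU
  constructor
  · intro t ζ hζ hb
    have e := sat_env h he fun l _ => t < l
    have hζ' : ζ ∈ sat h {z | t < lo Uᶜ u z} := by rw [e]; exact hζ
    obtain ⟨z, hz, hzb⟩ := bounded_comp h (sa_of_env u fun l _ => t < l)
      (isOpen_lt_lo hUe hu t) hζ' (by rw [e]; exact hb)
    exact hs.gt t z hz hzb
  · intro t ζ hζ hb
    have e := sat_env h he fun _ r => r < t
    have hζ' : ζ ∈ sat h {z | up Uᶜ u z < t} := by rw [e]; exact hζ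
    obtain ⟨z, hz, hzb⟩ := bounded_comp h (sa_of_env u fun _ r => r < t)
      (isOpen_up_lt hUe hu t) hζ' (by rw [e]; exact hb)
    exact hs.lt t z hz hzb

theorem swd_iff (h : EndMap U V F) (he : ∀ z ∈ U, u z = φ (F z)) (hu : LB u) (hφ : LB φ) :
    Swd Uᶜ u ↔ Swd Vᶜ φ := by
  refine ⟨swd_of h he hu, swd_of h.symm (fun w hw => ?_) hφ⟩
  rw [he _ (h.inv_mem hw), h.inv_right hw]

/-- closed connected saturated subsets of the levels correspond to each other. -/
theorem sat_continuum (h : EndMap U V F) {C : Set ℂ} (hC : Sa Uᶜ C) (hc : IsCompact C)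
    (hp : IsPreconnected C) :
    IsCompact (sat h C) ∧ IsPreconnected (sat h C) ∧ Sa Vᶜ (sat h C) ∧
      sat h C \ Vᶜ = F '' (C \ Uᶜ) := by
  refine ⟨isCompact_sat h hC hc, isPreconnected_sat h hC (Or.inr hc.isClosed) hp, sa_sat h C, ?_⟩
  ext ζ
  constructor
  · rintro ⟨h1, h2⟩
    obtain ⟨z, hz, rfl⟩ : ζ ∈ F '' U := by rw [h.img]; exact not_not.1 h2
    exact ⟨z, ⟨(F_mem_sat h hz).1 h1, not_not.2 hz⟩, rfl⟩
  · rintro ⟨z, ⟨hzC, hzU⟩, rfl⟩
    have hz : z ∈ U := not_not.1 hzU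
    exact ⟨(F_mem_sat h hz).2 hzC, not_not.2 (h.mapsTo hz)⟩

end

end Crest.Agent.R105.Ta_937
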