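import Crest.Agent.R105.Ta6_937
import Crest.Agent.R105.Ta5_937
import Crest.Agent.R105.Elf3_600

/-!
# Row 105, S0138: E-L in the picture with solids (helper937)

* `el_C`  : `|∫_V φ_x| ≤ Σ wd L * osc φ L` on the picture in `ℂ`, from 600's `el_crude_x`;
* `tt_RR` : the test functions of the second half (`Reg`, `OscLe 0` off the solids, `OscLe (o Q)` at
  the solids, `Σ o² < ∞`) are in the class `TT` of the picture, hence (`tt_pull`) of the z-plane;
* `el_RR` : `|∫_{Eᶜ} gx ψ| ≤ Σ Q.s * o Q` on `ℝ × ℝ`.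
-/

set_option autoImplicit false

open MeasureTheory Set Filter Topology Metric
open scoped NNReal ENNReal

namespace Crest.Agent.R105.Ta_937

open Tc_808 Sqr_185 Ends_897
open Bd_775 (Q)
open Cq_463 (Sqr QPic AttAt Att)
open CF_363 (Hair g2)
open Skp2_257 (Comps Reg)
open Tra_937 (setR setC toC ofC)
open Pct_185 (PicT Sol)
open Exs_992 (PicS)
open Stp_722 (OscLe)
open SelT_871 (JT)

noncomputable section

variable {U E : Set ℂ} {F : ℂ → ℂ} {x0 u φ : ℂ → ℝ} {ψ : ℝ × ℝ → ℝ}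

/-! ### support -/

theorem compact_comp (h : EndMap U (F '' U) F) {φ : ℂ → ℝ} (hφ : HasCompactSupport φ) :
    HasCompactSupport (φ ∘ F) := by
  have hb : Bornology.IsBounded (Function.support (φ ∘ F)) := by
    obtain ⟨R, hR⟩ := hφ.isCompact.isBounded.exists_norm_le
    obtain ⟨ρ, hρ⟩ := h.symm.bdd R
    refine ((isCompact_compl h.hU).isBounded.union
      (isBounded_iff_forall_norm_le.2 ⟨ρ, fun z hz => hz⟩)).subset
      (t := Uᶜ ∪ {z | ‖z‖ ≤ ρ}) ?_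
    intro z hz
    by_cases hzU : z ∈ U
    · right
      have h1 : F z ∈ tsupport φ := subset_tsupport _ hz
      have h2 := hρ (F z) (mem_image_of_mem F hzU) (hR _ h1)
      rwa [h.inv_left hzU] at h2
    · exact Or.inl hzU
  exact HasCompactSupport.of_support_subset_isCompact
    (Metric.isCompact_of_isClosed_isBounded isClosed_closure hb.closure) subset_closure

/-! ### oscillation of the coordinate -/

theorem osc_coord (h : EndMap U (F '' U) F) (hx0 : IfB_641.X0 Uᶜ x0)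
    (hx : ∀ z ∈ U, x0 z + u z = (F z).re) (K : Cmp Uᶜ) :
    osc Uᶜ u K.1 = wd (corE h K).1 := by
  have h1 : osc Uᶜ u K.1 = osc Uᶜ ((fun w : ℂ => w.re) ∘ F) K.1 := by
    refine osc_congr (O := (tsupport x0)ᶜ) (isClosed_tsupport x0).isOpen_compl
      (fun z hz hc => hx0.zero hc (K.subset hz)) fun z hz hzU => ?_
    have h2 := hx z (not_not.1 hzU)
    rw [image_eq_zero_of_notMem_tsupport hz, zero_add] at h2
    exact h2
  rw [h1, osc_comp h, osc_re (isCompact_compl h.hV)]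
  rfl

/-- **E-L in the picture, crude form** -/
theorem el_C (h : EndMap U (F '' U) F) (hF : Tra_937.Uni U F) (hx0 : IfB_641.X0 Uᶜ x0)
    (hu : TT Uᶜ u) (hx : ∀ z ∈ U, x0 z + u z = (F z).re) (hφ : TT (F '' U)ᶜ φ)
    (hc : HasCompactSupport φ)
    (hmin : ∀ t : ℝ, JT Uᶜ x0 u ≤ JT Uᶜ x0 (fun z => u z + t * φ (F z))) :
    |∫ w in F '' U, Tra_937.gx φ w| ≤
      ∑' L : Cmp (F '' U)ᶜ, wd L.1 * osc (F '' U)ᶜ φ L.1 := by
  have hl : LocallyLipschitzOn (F '' U) φ := by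
    have := hφ.q.loc; rwa [compl_compl] at this
  have hU' : Crest.AnalysisR.IsExteriorDomain (Uᶜ)ᶜ := by rw [compl_compl]; exact h.hU
  have h1 := Elf_600.el_crude_x hU' hx0 hu (tt_comp h hF hφ) (compact_comp h hc) hmin
  rw [compl_compl] at h1
  have h2 : ∫ z in U, Bd_775.dot (fun w => x0 w + u w) (φ ∘ F) z = ∫ w in F '' U, Tra_937.gx φ w :=
    int_dot_re h hF hx hl
  rw [h2] at h1
  refine h1.trans (le_of_eq ?_)
  rw [← (corE h).tsum_eq]
  refine tsum_congr fun K => ?_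
  rw [osc_comp h, osc_coord h hx0 hx]

/-! ### the two planes -/

theorem gx_toC'' (f : ℝ × ℝ → ℝ) (z : ℂ) : Tra_937.gx (toC f) z = CF_363.gx f (z.re, z.im) := by
  unfold Tra_937.gx CF_363.gx
  rw [Tra_937.toC_eq, show fderiv ℝ (f ∘ Complex.equivRealProdCLM) z =
    (fderiv ℝ f (Complex.equivRealProdCLM z)).comp (Complex.equivRealProdCLM : ℂ →L[ℝ] ℝ × ℝ) from
    ContinuousLinearEquiv.comp_right_fderiv Complex.equivRealProdCLM]
  change fderiv ℝ f (z.re, z.im) ((1 : ℂ).re, (1 : ℂ).im) = _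
  simp

theorem gy_toC'' (f : ℝ × ℝ → ℝ) (z : ℂ) : Tra_937.gy (toC f) z = CF_363.gy f (z.re, z.im) := by
  unfold Tra_937.gy CF_363.gy
  rw [Tra_937.toC_eq, show fderiv ℝ (f ∘ Complex.equivRealProdCLM) z =
    (fderiv ℝ f (Complex.equivRealProdCLM z)).comp (Complex.equivRealProdCLM : ℂ →L[ℝ] ℝ × ℝ) from
    ContinuousLinearEquiv.comp_right_fderiv Complex.equivRealProdCLM]
  change fderiv ℝ f (z.re, z.im) (Complex.I.re, Complex.I.im) = _
  simp

theorem en_toC'' (f : ℝ × ℝ → ℝ) (z : ℂ) : Bd_775.en (toC f) z = g2 f (z.re, z.im) := by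
  change Tra_937.gx (toC f) z ^ 2 + Tra_937.gy (toC f) z ^ 2 = _
  rw [gx_toC'', gy_toC'']
  rfl

theorem oscLe_toC {V P : Set ℂ} {f : ℝ × ℝ → ℝ} {c : ℝ} :
    OscLe (setR V) (setR P) f c ↔ OscLe V P (toC f) c := by
  constructor
  · intro h ε hε
    obtain ⟨O, hO, hP, H⟩ := h ε hε
    refine ⟨setC O, Tra_937.isOpen_setC.2 hO, fun z hz => hP (show (z.re, z.im) ∈ setR P from hz),
      fun q hq q' hq' => H (q.re, q.im) ⟨hq.1, hq.2⟩ (q'.re, q'.im) ⟨hq'.1, hq'.2⟩⟩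
  · intro h ε hε
    obtain ⟨O, hO, hP, H⟩ := h ε hε
    refine ⟨setR O, Tra_937.isOpen_setR.2 hO, fun z hz => hP hz,
      fun q hq q' hq' => H ⟨q.1, q.2⟩ ⟨hq.1, hq.2⟩ ⟨q'.1, q'.2⟩ ⟨hq'.1, hq'.2⟩⟩

theorem compact_toC (hψ : HasCompactSupport ψ) : HasCompactSupport (toC ψ) := by
  rw [Tra_937.toC_eq]
  exact hψ.comp_homeomorph Complex.equivRealProdCLM.toHomeomorph

/-- the regularity of the second half is the class `Q` -/
theorem q_toC (hψ : Reg (setR E) ψ) : Q E (toC ψ) where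
  bdd := by
    obtain ⟨C, hC⟩ := hψ.bdd
    exact ⟨C, fun z => hC _⟩
  loc := by
    have h := hψ.lip
    rw [← Tra_937.setR_compl] at h
    have := Tra_937.locLip_toC.2 h
    rwa [Tra_937.setC_setR] at this
  fin := by
    have h := hψ.fin
    rw [← Tra_937.setR_compl] at h
    have := (Tra_937.integrableOn_toC _ _).2 h
    rw [Tra_937.setC_setR] at this
    refine this.congr (ae_of_all _ fun z => ?_)
    rw [en_toC'']
    rfl

/-! ### solids and squares -/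

/-- the solid of a square -/
def solOf (h : PicT E) (Q : sqs E) : Sol E :=
  ⟨Q.2.choose, by rw [sqK_wd h.cpt Q.2.choose_spec]; exact Q.1.hs⟩

theorem solOf_spec (h : PicT E) (Q : sqs E) : SqK (solOf h Q).1.1 Q.1.x Q.1.y Q.1.s :=
  Q.2.choose_spec

/-- squares = solids -/
def solE (h : PicT E) : sqs E ≃ Sol E :=
  Equiv.ofBijective (solOf h) <| by
    constructor
    · intro Q Q' he
      have h1 := solOf_spec h Q
      have h2 := solOf_spec h Q'
      rw [← he] at h2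
      exact Subtype.ext (sqK_unique h.cpt h1 h2)
    · intro L
      obtain ⟨Q, hQ, hQL, -⟩ := exists_sqr h L.2
      refine ⟨⟨Q, hQ⟩, Subtype.ext ?_⟩
      exact (eq_cmp (sqK_car hQL) (solOf_spec h ⟨Q, hQ⟩)).symm

theorem wd_solE (h : PicT E) (Q : sqs E) : wd (solE h Q).1.1 = Q.1.s :=
  sqK_wd h.cpt (solOf_spec h Q)

theorem car_solE (h : PicT E) (Q : sqs E) : Q.1.car ⊆ setR (solE h Q).1.1 :=
  sqK_car (solOf_spec h Q)

/-- sums over the components with weights `wd` are sums over the squares -/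
theorem tsum_wd (h : PicT E) (f : Cmp E → ℝ) :
    ∑' L : Cmp E, wd L.1 * f L = ∑' Q : sqs E, Q.1.s * f (solE h Q).1 := by
  have h1 : (fun L : Cmp E => wd L.1 * f L).support ⊆ {L : Cmp E | 0 < wd L.1} := by
    intro L hL
    have hw : 0 ≤ wd L.1 := by
      have := lo_le_hi (L.isCompact h.cpt) L.nonempty
      unfold wd; linarith
    refine lt_of_le_of_ne hw fun h0 => hL ?_
    simp only [← h0, zero_mul]
  rw [← tsum_subtype_eq_of_support_subset h1]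
  change ∑' L : Sol E, wd L.1.1 * f L.1 = _
  rw [← (solE h).tsum_eq]
  exact tsum_congr fun Q => by rw [wd_solE]

section RR
variable (hP : PicT E) (hψ : Reg (setR E) ψ) {o : Sqr → ℝ} (ho : ∀ Q, 0 ≤ o Q)
  (h0 : ∀ P ∈ Comps (setR E), (∀ Q ∈ sqs E, ¬ Q.car ⊆ P) → OscLe (setR E)ᶜ P ψ 0)
  (h1 : ∀ P ∈ Comps (setR E), ∀ Q ∈ sqs E, Q.car ⊆ P → OscLe (setR E)ᶜ P ψ (o Q))
include hP hψ h0

theorem osc_flat (L : Cmp E) (hL : ¬ 0 < wd L.1) : osc E (toC ψ) L.1 = 0 := by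
  refine le_antisymm ?_ (osc_nonneg _ _ _)
  have h2 := h0 (setR L.1) (mem_comps.2 ⟨L, rfl⟩) fun Q hQ hc => by
    obtain ⟨L', hL'⟩ := hQ
    have h3 := eq_cmp hc hL'
    subst h3
    rw [sqK_wd hP.cpt hL'] at hL
    exact hL Q.hs
  rw [← Tra_937.setR_compl, oscLe_toC] at h2
  have h3 := (osc_le_iff (U := Eᶜ) (q_toC hψ).bdd le_rfl).2 h2
  rwa [compl_compl] at h3

include ho h1

omit h0 in
theorem osc_solid (Q : sqs E) : osc E (toC ψ) (solE hP Q).1.1 ≤ o Q.1 := by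
  have h2 := h1 (setR (solE hP Q).1.1) (mem_comps.2 ⟨_, rfl⟩) Q.1 Q.2 (car_solE hP Q)
  rw [← Tra_937.setR_compl, oscLe_toC] at h2
  have h3 := (osc_le_iff (U := Eᶜ) (q_toC hψ).bdd (ho _)).2 h2
  rwa [compl_compl] at h3

/-- **the test functions of the second half are `T`-finite** -/
theorem tt_RR (hs : Summable fun Q : sqs E => o Q.1 ^ 2) : TT E (toC ψ) where
  q := q_toC hψ
  sum := by
    have hsup : (fun L : Cmp E => osc E (toC ψ) L.1 ^ 2).support ⊆ {L : Cmp E | 0 < wd L.1} := by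
      intro L hL
      by_contra hc
      apply hL
      simp only [osc_flat hP hψ h0 L hc, ne_eq, OfNat.ofNat_ne_zero, not_false_eq_true, zero_pow]
    rw [← Set.indicator_eq_self.2 hsup, ← summable_subtype_iff_indicator]
    change Summable fun L : Sol E => osc E (toC ψ) L.1.1 ^ 2
    rw [← (solE hP).summable_iff]
    refine Summable.of_nonneg_of_le (fun _ => sq_nonneg _) (fun Q => ?_) hs
    exact pow_le_pow_left₀ (osc_nonneg _ _ _) (osc_solid hP hψ ho h1 Q) 2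

omit h0 in
/-- the charge of the test functions of the second half -/
theorem tsum_RR (hs : Summable fun Q : sqs E => o Q.1 ^ 2) :
    ∑' L : Cmp E, wd L.1 * osc E (toC ψ) L.1 ≤ ∑' Q : sqs E, Q.1.s * o Q.1 := by
  rw [tsum_wd hP fun L => osc E (toC ψ) L.1]
  have h2 : Summable fun Q : sqs E => Q.1.s ^ 2 := by
    have h3 : Summable fun L : Sol E => wd L.1.1 ^ 2 := hP.sum.comp_injective Subtype.val_injective
    rw [← (solE hP).summable_iff] at h3
    refine h3.congr fun Q => ?_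
    simp only [Function.comp_apply, wd_solE]
  have h4 : Summable fun Q : sqs E => Q.1.s * o Q.1 := by
    refine Summable.of_nonneg_of_le (fun Q => mul_nonneg Q.1.hs.le (ho _)) (fun Q => ?_)
      ((h2.add hs).div_const 2)
    nlinarith [sq_nonneg (Q.1.s - o Q.1)]
  have h5 : ∀ Q : sqs E, Q.1.s * osc E (toC ψ) (solE hP Q).1.1 ≤ Q.1.s * o Q.1 := fun Q =>
    mul_le_mul_of_nonneg_left (osc_solid hP hψ ho h1 Q) Q.1.hs.le
  have h6 : Summable fun Q : sqs E => Q.1.s * osc E (toC ψ) (solE hP Q).1.1 :=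
    Summable.of_nonneg_of_le (fun Q => mul_nonneg Q.1.hs.le (osc_nonneg _ _ _)) h5 h4
  exact h6.tsum_le_tsum h5 h4

end RR

/-- the test functions on the z-plane -/
theorem tt_pull (h : EndMap U (F '' U) F) (hF : Tra_937.Uni U F) (hP : PicT (F '' U)ᶜ)
    (hψ : Reg (setR (F '' U)ᶜ) ψ) {o : Sqr → ℝ} (ho : ∀ Q, 0 ≤ o Q)
    (hs : Summable fun Q : sqs (F '' U)ᶜ => o Q.1 ^ 2)
    (h0 : ∀ P ∈ Comps (setR (F '' U)ᶜ), (∀ Q ∈ sqs (F '' U)ᶜ, ¬ Q.car ⊆ P) →
      OscLe (setR (F '' U)ᶜ)ᶜ P ψ 0)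
    (h1 : ∀ P ∈ Comps (setR (F '' U)ᶜ), ∀ Q ∈ sqs (F '' U)ᶜ, Q.car ⊆ P →
      OscLe (setR (F '' U)ᶜ)ᶜ P ψ (o Q)) :
    TT Uᶜ (fun z => toC ψ (F z)) ∧ HasCompactSupport (fun z => toC ψ (F z)) :=
  ⟨tt_comp h hF (tt_RR hP hψ ho h0 h1 hs), compact_comp h (compact_toC hψ.cpt)⟩

/-- **(E): the crude E-L inequality of the second half** -/
theorem el_RR (h : EndMap U (F '' U) F) (hF : Tra_937.Uni U F) (hx0 : IfB_641.X0 Uᶜ x0)
    (hu : TT Uᶜ u) (hx : ∀ z ∈ U, x0 z + u z = (F z).re) (hP : PicT (F '' U)ᶜ)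
    (hψ : Reg (setR (F '' U)ᶜ) ψ) {o : Sqr → ℝ} (ho : ∀ Q, 0 ≤ o Q)
    (hs : Summable fun Q : sqs (F '' U)ᶜ => o Q.1 ^ 2)
    (h0 : ∀ P ∈ Comps (setR (F '' U)ᶜ), (∀ Q ∈ sqs (F '' U)ᶜ, ¬ Q.car ⊆ P) →
      OscLe (setR (F '' U)ᶜ)ᶜ P ψ 0)
    (h1 : ∀ P ∈ Comps (setR (F '' U)ᶜ), ∀ Q ∈ sqs (F '' U)ᶜ, Q.car ⊆ P →
      OscLe (setR (F '' U)ᶜ)ᶜ P ψ (o Q))
    (hmin : ∀ t : ℝ, JT Uᶜ x0 u ≤ JT Uᶜ x0 (fun z => u z + t * toC ψ (F z))) :
    |∫ p in (setR (F '' U)ᶜ)ᶜ, CF_363.gx ψ p| ≤ ∑' Q : sqs (F '' U)ᶜ, Q.1.s * o Q.1 := by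
  have h2 := el_C h hF hx0 hu hx (tt_RR hP hψ ho h0 h1 hs) (compact_toC hψ.cpt) hmin
  have h3 : ∫ w in F '' U, Tra_937.gx (toC ψ) w = ∫ p in (setR (F '' U)ᶜ)ᶜ, CF_363.gx ψ p := by
    rw [← Tra_937.integral_toC, ← Tra_937.setR_compl, Tra_937.setC_setR, compl_compl]
    congr 1
    funext w
    exact gx_toC'' ψ w
  rw [h3] at h2
  exact h2.trans (tsum_RR hP hψ ho h1 hs)

end

end Crest.Agent.R105.Ta_937
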