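import Crest.Agent.R105.Ni2_459

/-!
# Row 105, S0138, node E13: the TAIL LEMMA (helper403)

`E` compact, `p ∈ E`, a straight segment `p + r v`, `0 < r < η0`, off the component of `p`.
If `f > c` (every `c < x`) at the points of the segment off `E` near `p`, then `lo E f > σ`
(`σ < x`) at ALL points of the segment near `p`, in particular at the components of `E` which it
meets.  Hence the segment near `p` lies in ONE component of `{t1 < lo E re} ∩ {σ < lo E f}`.
-/

set_option autoImplicit false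

open MeasureTheory Set Filter Topology Metric
open scoped NNReal ENNReal

namespace Crest.Agent.R105.Tail_403

open Crest.AnalysisR Tc_808 Ni_459

variable {E : Set ℂ} {f g : ℂ → ℝ} {p v : ℂ} {η0 x : ℝ}

/-- points of the segment off `E` accumulate at every component which the segment meets -/
theorem exists_off (hE : IsCompact E) (hp : p ∈ E) {r : ℝ} (hr : 0 < r)
    (hw : p + r • v ∈ E) (hoff : p + r • v ∉ connectedComponentIn E p) {O : Set ℂ}
    (hO : Nb E (p + r • v) O) : ∃ r' ∈ Ioo 0 r, p + r' • v ∉ E ∧ p + r' • v ∈ O := by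
  have hcont : Continuous fun r' : ℝ => p + r' • v := by fun_prop
  set S : Set ℝ := {r' | r' ∈ Icc 0 r ∧ p + r' • v ∉ E} with hS
  have hSne : S.Nonempty := by
    by_contra hemp
    rw [not_nonempty_iff_eq_empty] at hemp
    apply hoff
    have h1 : (fun r' : ℝ => p + r' • v) '' Icc 0 r ⊆ E := by
      rintro _ ⟨r', hr', rfl⟩
      by_contra hcon
      have : r' ∈ S := ⟨hr', hcon⟩
      rw [hemp] at this; exact this
    have h2 : IsPreconnected ((fun r' : ℝ => p + r' • v) '' Icc 0 r) :=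
      isPreconnected_Icc.image _ hcont.continuousOn
    refine h2.subset_connectedComponentIn ?_ h1 ⟨r, ⟨hr.le, le_rfl⟩, rfl⟩
    exact ⟨0, ⟨le_rfl, hr.le⟩, by simp⟩
  have hSb : BddAbove S := ⟨r, fun r' hr' => hr'.1.2⟩
  set m := sSup S with hm
  have hmr : m ≤ r := csSup_le hSne fun r' hr' => hr'.1.2
  have hm0 : 0 ≤ m := by
    obtain ⟨r', hr'⟩ := hSne
    exact hr'.1.1.trans (le_csSup hSb hr')
  have hgt : ∀ r' ∈ Ioc m r, p + r' • v ∈ E := by
    intro r' hr'
    by_contra hcon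
    have : r' ∈ S := ⟨⟨hm0.trans hr'.1.le, hr'.2⟩, hcon⟩
    exact absurd (le_csSup hSb this) (not_le.2 hr'.1)
  have hmE : p + m • v ∈ E := by
    rcases hmr.eq_or_lt with h | h
    · rw [h]; exact hw
    · have hcl : IsClosed {r' : ℝ | p + r' • v ∈ E} := hE.isClosed.preimage hcont
      have hsub : closure (Ioc m r) ⊆ {r' : ℝ | p + r' • v ∈ E} :=
        closure_minimal hgt hcl
      rw [closure_Ioc h.ne] at hsub
      exact hsub ⟨le_rfl, h.le⟩
  have hmem : p + m • v ∈ connectedComponentIn E (p + r • v) := by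
    have h1 : (fun r' : ℝ => p + r' • v) '' Icc m r ⊆ E := by
      rintro _ ⟨r', hr', rfl⟩
      rcases hr'.1.eq_or_lt with h | h
      · rw [← h]; exact hmE
      · exact hgt r' ⟨h, hr'.2⟩
    have h2 : IsPreconnected ((fun r' : ℝ => p + r' • v) '' Icc m r) :=
      isPreconnected_Icc.image _ hcont.continuousOn
    exact h2.subset_connectedComponentIn ⟨r, ⟨hmr, le_rfl⟩, rfl⟩ h1 ⟨m, ⟨le_rfl, hmr⟩, rfl⟩
  have hmO : p + m • v ∈ O := hO.sub hmem
  have hOo : IsOpen {r' : ℝ | p + r' • v ∈ O} := hO.op.preimage hcont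
  obtain ⟨δ, hδ, hball⟩ := Metric.isOpen_iff.1 hOo m hmO
  obtain ⟨r', hr'S, hr'm⟩ := exists_lt_of_lt_csSup hSne (show m - δ < sSup S by linarith)
  have hr'le : r' ≤ m := le_csSup hSb hr'S
  have hr'O : p + r' • v ∈ O := hball (by rw [mem_ball, Real.dist_eq, abs_lt]; constructor <;> linarith)
  refine ⟨r', ⟨?_, ?_⟩, hr'S.2, hr'O⟩
  · rcases hr'S.1.1.eq_or_lt with h | h
    · exfalso; apply hr'S.2; rw [← h]; simpa using hp
    · exact h
  · rcases hr'S.1.2.eq_or_lt with h | h
    · exfalso; apply hr'S.2; rw [h]; exact hw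
    · exact h

/-- **the tail lemma** -/
theorem tail_lo (hE : IsExteriorDomain Eᶜ) (hf : LB f) (hc : ∀ w ∉ E, ContinuousAt f w)
    (hs : Summable fun K : Cmp E => osc E f K.1 ^ 2) (hp : p ∈ E) (h0 : 0 < η0)
    (hoff : ∀ r ∈ Ioo (0 : ℝ) η0, p + r • v ∉ connectedComponentIn E p)
    (hlim : ∀ c < x, ∃ η > 0, ∀ r ∈ Ioo (0 : ℝ) η, p + r • v ∉ E → c < f (p + r • v))
    {σ : ℝ} (hσ : σ < x) : ∃ η > 0, ∀ r ∈ Ioo (0 : ℝ) η, σ < lo E f (p + r • v) := by
  classical
  have hEc : IsCompact E := cpt_of hE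
  set δ : ℝ := (x - σ) / 2 with hδ
  have hδ0 : 0 < δ := by rw [hδ]; linarith
  obtain ⟨η1, hη1, h1⟩ := hlim (x - δ) (by linarith)
  -- finitely many components with large oscillation
  have hfin : {K : Cmp E | δ ≤ osc E f K.1}.Finite := by
    have h2 := hs.tendsto_cofinite_zero.eventually (gt_mem_nhds (show (0 : ℝ) < δ ^ 2 by positivity))
    rw [Filter.eventually_cofinite] at h2
    refine h2.subset fun K hK => ?_
    simp only [mem_ofPred_eq, not_lt] at hK ⊢
    exact pow_le_pow_left₀ hδ0.le hK 2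
  set 𝓕 : Set (Cmp E) := {K : Cmp E | δ ≤ osc E f K.1 ∧ p ∉ K.1} with h𝓕
  have h𝓕f : 𝓕.Finite := hfin.subset fun K hK => hK.1
  have hCcl : IsClosed (⋃ K ∈ 𝓕, K.1) :=
    h𝓕f.isClosed_biUnion fun K _ => (K.isCompact hEc).isClosed
  have hpC : p ∉ ⋃ K ∈ 𝓕, K.1 := by
    intro h
    obtain ⟨K, hK, hpK⟩ := mem_iUnion₂.1 h
    exact hK.2 hpK
  obtain ⟨ρ, hρ, hball⟩ := Metric.isOpen_iff.1 hCcl.isOpen_compl p hpC
  set η2 : ℝ := ρ / (‖v‖ + 1) with hη2
  have hη20 : 0 < η2 := by positivity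
  refine ⟨min η0 (min η1 η2), lt_min h0 (lt_min hη1 hη20), fun r hr => ?_⟩
  have hr0 : 0 < r := hr.1
  have hrη0 : r < η0 := hr.2.trans_le (min_le_left _ _)
  have hrη1 : r < η1 := hr.2.trans_le ((min_le_right _ _).trans (min_le_left _ _))
  have hrη2 : r < η2 := hr.2.trans_le ((min_le_right _ _).trans (min_le_right _ _))
  by_cases hwE : p + r • v ∈ E
  · have hoffr := hoff r ⟨hr0, hrη0⟩
    -- small oscillation
    have hK : osc E f (connectedComponentIn E (p + r • v)) < δ := by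
      by_contra hcon
      push Not at hcon
      have hpK : p ∉ (Cmp.of hwE).1 := by
        intro hpK
        apply hoffr
        have h3 : connectedComponentIn E (p + r • v) = connectedComponentIn E p :=
          connectedComponentIn_eq hpK
        rw [← h3]
        exact mem_connectedComponentIn hwE
      have hmem : p + r • v ∈ ⋃ K ∈ 𝓕, K.1 :=
        mem_iUnion₂.2 ⟨Cmp.of hwE, ⟨hcon, hpK⟩, mem_connectedComponentIn hwE⟩
      have hin : p + r • v ∈ ball p ρ := by
        rw [mem_ball, dist_eq_norm, add_sub_cancel_left, norm_smul, Real.norm_eq_abs,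
          abs_of_pos hr0]
        calc r * ‖v‖ ≤ r * (‖v‖ + 1) := by nlinarith [norm_nonneg v]
          _ < η2 * (‖v‖ + 1) := by
              apply mul_lt_mul_of_pos_right hrη2; positivity
          _ = ρ := by rw [hη2]; field_simp
      exact hball hin hmem
    -- the upper envelope
    have hup : x - δ ≤ up E f (p + r • v) := by
      by_contra hcon
      push Not at hcon
      obtain ⟨O, hO, hOl⟩ := exists_lt_of_up_lt hE hf hcon
      obtain ⟨r', hr', hr'E, hr'O⟩ := exists_off hEc hp hr0 hwE hoffr hO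
      have h4 := h1 r' ⟨hr'.1, hr'.2.trans hrη1⟩ hr'E
      exact lt_asymm h4 (hOl _ hr'O hr'E)
    have hosc := osc_eq' hE hf hwE
    rw [hosc] at hK
    have : x - δ - δ = σ := by rw [hδ]; ring
    linarith
  · rw [lo_of_notMem hE hf hwE (hc _ hwE)]
    have h4 := h1 r ⟨hr0, hrη1⟩ hwE
    have : x - δ = σ + δ := by rw [hδ]; ring
    linarith

/-- mirror form -/
theorem tail_up (hE : IsExteriorDomain Eᶜ) (hf : LB f) (hc : ∀ w ∉ E, ContinuousAt f w)
    (hs : Summable fun K : Cmp E => osc E f K.1 ^ 2) (hp : p ∈ E) (h0 : 0 < η0)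
    (hoff : ∀ r ∈ Ioo (0 : ℝ) η0, p + r • v ∉ connectedComponentIn E p)
    (hlim : ∀ c > x, ∃ η > 0, ∀ r ∈ Ioo (0 : ℝ) η, p + r • v ∉ E → f (p + r • v) < c)
    {σ : ℝ} (hσ : x < σ) : ∃ η > 0, ∀ r ∈ Ioo (0 : ℝ) η, up E f (p + r • v) < σ := by
  have hs' : Summable fun K : Cmp E => osc E (fun z => - f z) K.1 ^ 2 := by
    refine hs.congr fun K => ?_
    obtain ⟨z, hz⟩ := K.nonempty
    have hzE := K.subset hz
    rw [← Ni_459.Cmp.cc_eq K hz, osc_eq' hE hf hzE, osc_eq' hE hf.neg hzE]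
    unfold lo
    simp only [neg_neg]
    ring
  obtain ⟨η, hη, h⟩ := tail_lo (f := fun z => - f z) (x := -x) hE hf.neg (fun w hw => (hc w hw).neg)
    hs' hp h0 hoff (fun c hcx => by
      obtain ⟨η, hη, h⟩ := hlim (-c) (by linarith)
      exact ⟨η, hη, fun r hr hrE => by have := h r hr hrE; linarith⟩) (σ := -σ) (by linarith)
  refine ⟨η, hη, fun r hr => ?_⟩
  have := h r hr
  unfold lo at this
  simp only [neg_neg] at this
  linarith

/-- **the tail lies in one component** of any open set which contains it -/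
theorem tail_comp {W : Set ℂ} {η : ℝ} (hW : ∀ r ∈ Ioo (0 : ℝ) η, p + r • v ∈ W) {r0 : ℝ}
    (hr0 : r0 ∈ Ioo 0 η) :
    ∀ r ∈ Ioo (0 : ℝ) η, p + r • v ∈ connectedComponentIn W (p + r0 • v) := by
  intro r hr
  have hcont : Continuous fun r' : ℝ => p + r' • v := by fun_prop
  have h2 : IsPreconnected ((fun r' : ℝ => p + r' • v) '' Ioo 0 η) :=
    isPreconnected_Ioo.image _ hcont.continuousOn
  refine h2.subset_connectedComponentIn ⟨r0, hr0, rfl⟩ ?_ ⟨r, hr, rfl⟩
  rintro _ ⟨r', hr', rfl⟩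
  exact hW r' hr'

end Crest.Agent.R105.Tail_403
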