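import Crest.Agent.R105.E13_499
import Crest.Agent.R105.Tail1_403
import Crest.Agent.R105.Uw4_913
import Crest.Agent.R105.Ta7_937

/-!
# Row 105, S0138, node E13: ATNE from PTW, part 1: regions (helper948)

* `Wr E L m = {ζ ∉ L, 0 < lo E m ζ}`, `Rg E L m r` = its component of `r` : open, connected,
  saturated; `Rg \ E` is connected
* `uc_of` : the trace of `Rg` on the domain is 499's `Uc`
* `tail_Wr` : the end germ of a segment lies in the region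
-/

set_option autoImplicit false

open MeasureTheory Set Filter Topology Metric
open scoped NNReal ENNReal ContDiff

namespace Crest.Agent.R105.Atl_948

open Crest.AnalysisR (IsExteriorDomain)
open Ni_459 (LB Nb nb_of_mem nb_of_notMem isOpen_lt_lo lo_congr_cc lo_of_notMem le_lo
  exists_gt_of_lt_lo exists_lt_of_up_lt cpt_of)
open Tc_808 Bd_775 Ends_897
open Ta_937 (corE map_corE eK_mem)

/-- the region in a picture -/
def Wr (E L : Set ℂ) (m : ℂ → ℝ) : Set ℂ := {ζ | ζ ∉ L ∧ 0 < Ni_459.lo E m ζ}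

/-- a component of the region -/
def Rg (E L : Set ℂ) (m : ℂ → ℝ) (r : ℂ) : Set ℂ := connectedComponentIn (Wr E L m) r

variable {E : Set ℂ} {m : ℂ → ℝ}

theorem isOpen_Wr (hE : IsExteriorDomain Eᶜ) (hm : LB m) (L : Cmp E) : IsOpen (Wr E L.1 m) :=
  (L.isCompact (cpt_of hE)).isClosed.isOpen_compl.inter (isOpen_lt_lo hE hm 0)

theorem Wr_sat (L : Cmp E) {ζ : ℂ} (h : ζ ∈ Wr E L.1 m) :
    connectedComponentIn E ζ ⊆ Wr E L.1 m := by
  intro w hw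
  have hζE : ζ ∈ E := connectedComponentIn_nonempty_iff.1 ⟨w, hw⟩
  refine ⟨fun hwL => ?_, ?_⟩
  · have h1 : connectedComponentIn E w = L.1 := Ni_459.Cmp.cc_eq L hwL
    have h2 : connectedComponentIn E ζ = connectedComponentIn E w := connectedComponentIn_eq hw
    exact h.1 (h1 ▸ h2 ▸ mem_connectedComponentIn hζE)
  · show 0 < Ni_459.lo E m w
    rw [lo_congr_cc hζE hw]
    exact h.2

theorem isOpen_Rg (hE : IsExteriorDomain Eᶜ) (hm : LB m) (L : Cmp E) (r : ℂ) :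
    IsOpen (Rg E L.1 m r) := (isOpen_Wr hE hm L).connectedComponentIn

theorem preconn_Rg (L : Set ℂ) (r : ℂ) : IsPreconnected (Rg E L m r) :=
  isPreconnected_connectedComponentIn

theorem Rg_sub (L : Set ℂ) (r : ℂ) : Rg E L m r ⊆ Wr E L m := connectedComponentIn_subset _ _

theorem Rg_eq {L : Set ℂ} {r ζ : ℂ} (h : ζ ∈ Rg E L m r) : Rg E L m r = Rg E L m ζ :=
  connectedComponentIn_eq h

/-- a connected subset of the region which meets `Rg` lies in `Rg` -/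
theorem sub_Rg {L S : Set ℂ} {r ζ : ℂ} (hS : IsPreconnected S) (hSW : S ⊆ Wr E L m)
    (hζ : ζ ∈ S) (h : ζ ∈ Rg E L m r) : S ⊆ Rg E L m r := by
  rw [Rg_eq h]
  exact hS.subset_connectedComponentIn hζ hSW

theorem Rg_sat (L : Cmp E) {r ζ : ℂ} (h : ζ ∈ Rg E L.1 m r) :
    connectedComponentIn E ζ ⊆ Rg E L.1 m r := by
  intro w hw
  have hζE : ζ ∈ E := connectedComponentIn_nonempty_iff.1 ⟨w, hw⟩
  exact sub_Rg isPreconnected_connectedComponentIn (Wr_sat L (Rg_sub _ _ h))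
    (mem_connectedComponentIn hζE) h hw

theorem preconn_Rg_diff (hE : IsExteriorDomain Eᶜ) (hm : LB m) (L : Cmp E) (r : ℂ) :
    IsPreconnected (Rg E L.1 m r \ E) :=
  Uw_913.preconn_sdiff hE (isOpen_Rg hE hm L r) (preconn_Rg _ _) fun _ hz => Rg_sat L hz

/-- a dense countable set of base points is enough -/
theorem exists_base (hE : IsExteriorDomain Eᶜ) (hm : LB m) (L : Cmp E) {D : Set ℂ} (hD : Dense D)
    {ζ : ℂ} (hζ : ζ ∈ Wr E L.1 m) : ∃ r ∈ D, ζ ∈ Rg E L.1 m r := by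
  obtain ⟨r, hr1, hr2⟩ := hD.exists_mem_open (isOpen_Rg hE hm L ζ)
    ⟨ζ, mem_connectedComponentIn hζ⟩
  refine ⟨r, hr1, ?_⟩
  rw [← Rg_eq hr2]
  exact mem_connectedComponentIn hζ

/-- lower envelope at a component -/
theorem le_lo_of_ev (hE : IsExteriorDomain Eᶜ) (hm : LB m) (L : Cmp E) {c : ℝ}
    (h : ∀ᶠ w in eK E L.1, c ≤ m w) : ∀ ζ ∈ L.1, c ≤ Ni_459.lo E m ζ := by
  intro ζ hζ
  obtain ⟨O, hO, hLO, hOm⟩ := mem_eK.1 h
  refine le_lo hE hm (nb_of_mem (L.subset hζ) hO ?_) fun w hw hwE => hOm w hw hwE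
  rw [Ni_459.Cmp.cc_eq L hζ]
  exact hLO

/-- values off `E` -/
theorem Wr_off (hE : IsExteriorDomain Eᶜ) (hm : LB m) (hc : ContinuousOn m Eᶜ) {L : Set ℂ} {ζ : ℂ}
    (hζ : ζ ∉ E) (h : ζ ∈ Wr E L m) : 0 < m ζ := by
  have h1 := h.2
  rwa [lo_of_notMem hE hm hζ (hc.continuousAt (hE.1.mem_nhds hζ))] at h1

theorem mem_Wr_off (hE : IsExteriorDomain Eᶜ) (hm : LB m) (hc : ContinuousOn m Eᶜ) {L : Cmp E}
    {ζ : ℂ} (hζ : ζ ∉ E) (h : 0 < m ζ) : ζ ∈ Wr E L.1 m := by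
  refine ⟨fun hL => hζ (L.subset hL), ?_⟩
  rwa [lo_of_notMem hE hm hζ (hc.continuousAt (hE.1.mem_nhds hζ))]

/-- **the trace of a component of the region is `Uc`** -/
theorem uc_of {Y V : Set ℂ} {P : ℂ → ℂ} (hP : EndMap Yᶜ V P) (K : Cmp Yᶜᶜ) {m mP : ℂ → ℝ}
    (hmP : ∀ z, z ∉ Y → mP (P z) = m z) (hlb : LB mP) (hc : ContinuousOn mP V) (r : ℂ) :
    E13_499.Uc Y K.1 m {z | z ∉ Y ∧ P z ∈ Rg Vᶜ (corE hP K).1 mP r} := by
  have hE : IsExteriorDomain Vᶜᶜ := by rw [compl_compl]; exact hP.hV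
  have hc' : ContinuousOn mP Vᶜᶜ := by rw [compl_compl]; exact hc
  have hPV : ∀ z, z ∉ Y → P z ∉ Vᶜ := fun z hz h => h (hP.mapsTo hz)
  have hcP : ∀ z, z ∉ Y → ContinuousAt P z := fun z hz =>
    hP.cont.continuousAt (hP.hU.1.mem_nhds hz)
  have hRo := isOpen_Rg hE hlb (corE hP K) r
  refine ⟨?_, ?_, ?_, ?_⟩
  · exact hP.cont.isOpen_inter_preimage hP.hU.1 hRo
  · rintro z ⟨hz, hzR⟩
    refine ⟨hz, ?_⟩
    rw [← hmP z hz]
    exact Wr_off hE hlb hc' (hPV z hz) (Rg_sub _ _ hzR)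
  · intro z hz hmz hzO
    rw [← hmP z hz] at hmz
    have h1 : P z ∈ Wr Vᶜ (corE hP K).1 mP := mem_Wr_off hE hlb hc' (hPV z hz) hmz
    have h2 : Rg Vᶜ (corE hP K).1 mP (P z) ∈ 𝓝 (P z) :=
      (isOpen_Rg hE hlb (corE hP K) (P z)).mem_nhds (mem_connectedComponentIn h1)
    filter_upwards [(hcP z hz).preimage_mem_nhds h2] with w hw hwO
    refine hzO ⟨hz, ?_⟩
    have h3 : Rg Vᶜ (corE hP K).1 mP (P z) = Rg Vᶜ (corE hP K).1 mP (P w) := Rg_eq hw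
    rw [Rg_eq hwO.2, ← h3]
    exact mem_connectedComponentIn h1
  · rintro K' hK' ⟨c, hc0, hev⟩
    have e : Yᶜᶜ = Y := compl_compl Y
    obtain ⟨K'', hK''⟩ : ∃ K'' : Cmp Yᶜᶜ, K''.1 = K'.1 := by
      refine ⟨⟨K'.1, ?_⟩, rfl⟩
      obtain ⟨z, hz, he⟩ := K'.2
      exact ⟨z, by rwa [e], by rw [e]; exact he⟩
    have hne : corE hP K'' ≠ corE hP K := by
      intro h
      have := (corE hP).injective h
      exact hK' (by rw [← hK'', this])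
    have hmap := map_corE hP K''
    have hee : ∀ S : Set ℂ, eK Yᶜᶜ S = eK Y S := fun S => by rw [e]
    rw [hK'', hee] at hmap
    have hev' : ∀ᶠ w in eK Vᶜ (corE hP K'').1, c ≤ mP w := by
      rw [← hmap, eventually_map]
      have h1 : ∀ᶠ w in eK Y K'.1, w ∉ Y := mem_inf_of_right (mem_principal_self _)
      filter_upwards [hev, h1] with w hw hwY
      rw [hmP w hwY]; exact hw
    have hsub : (corE hP K'').1 ⊆ Wr Vᶜ (corE hP K).1 mP := by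
      intro ζ hζ
      refine ⟨fun hζ' => disjoint_left.1 (Cmp.disjoint hne) hζ hζ', ?_⟩
      exact hc0.trans_le (le_lo_of_ev hE hlb _ hev' ζ hζ)
    obtain ⟨ζ0, hζ0⟩ := (corE hP K'').nonempty
    have h0 : (corE hP K'').1 ⊆ Rg Vᶜ (corE hP K).1 mP ζ0 :=
      (corE hP K'').preconn.subset_connectedComponentIn hζ0 hsub
    have hR0 : ∀ᶠ w in eK Y K'.1, w ∉ Y ∧ P w ∈ Rg Vᶜ (corE hP K).1 mP ζ0 := by
      have h2 : ∀ᶠ w in eK Vᶜ (corE hP K'').1, w ∈ Rg Vᶜ (corE hP K).1 mP ζ0 :=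
        mem_inf_of_left ((isOpen_Rg hE hlb (corE hP K) ζ0).mem_nhdsSet.2 h0)
      rw [← hmap, eventually_map] at h2
      have h1 : ∀ᶠ w in eK Y K'.1, w ∉ Y := mem_inf_of_right (mem_principal_self _)
      exact h1.and h2
    by_cases hm : ζ0 ∈ Rg Vᶜ (corE hP K).1 mP r
    · left
      rw [← Rg_eq hm] at hR0
      exact hR0
    · right
      filter_upwards [hR0] with w hw hwO
      apply hm
      rw [Rg_eq hwO.2, ← Rg_eq hw.2]
      exact mem_connectedComponentIn (hsub hζ0)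

/-! ### the tail -/

/-- limit of `f` at the end `p` of the segment `p + r v`, through the points off `E` -/
def Lm (E : Set ℂ) (f : ℂ → ℝ) (p v : ℂ) (x : ℝ) : Prop :=
  ∀ ε > 0, ∃ η > 0, ∀ r ∈ Ioo (0 : ℝ) η, p + r • v ∉ E → |f (p + r • v) - x| < ε

theorem env_near (hE : IsExteriorDomain Eᶜ) {f : ℂ → ℝ} (hf : LB f)
    (hc : ∀ w ∉ E, ContinuousAt f w) (hs : Summable fun K : Cmp E => osc E f K.1 ^ 2) {p v : ℂ}
    {η0 x : ℝ} (hp : p ∈ E) (h0 : 0 < η0)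
    (hoff : ∀ r ∈ Ioo (0 : ℝ) η0, p + r • v ∉ connectedComponentIn E p) (hl : Lm E f p v x)
    {ε : ℝ} (hε : 0 < ε) : ∃ η > 0, ∀ r ∈ Ioo (0 : ℝ) η, ∃ O, Nb E (p + r • v) O ∧
      ∀ w ∈ O, w ∉ E → |f w - x| < ε := by
  obtain ⟨η1, hη1, g1⟩ := Tail_403.tail_lo (x := x) hE hf hc hs hp h0 hoff (fun c hcx => by
    obtain ⟨η, hη, h⟩ := hl (x - c) (by linarith)
    exact ⟨η, hη, fun r hr hrE => by have := (abs_lt.1 (h r hr hrE)).1; linarith⟩)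
    (σ := x - ε) (by linarith)
  obtain ⟨η2, hη2, g2⟩ := Tail_403.tail_up (x := x) hE hf hc hs hp h0 hoff (fun c hcx => by
    obtain ⟨η, hη, h⟩ := hl (c - x) (by linarith)
    exact ⟨η, hη, fun r hr hrE => by have := (abs_lt.1 (h r hr hrE)).2; linarith⟩)
    (σ := x + ε) (by linarith)
  refine ⟨min η1 η2, lt_min hη1 hη2, fun r hr => ?_⟩
  obtain ⟨O1, hO1, h1⟩ := exists_gt_of_lt_lo hE hf
    (g1 r ⟨hr.1, hr.2.trans_le (min_le_left _ _)⟩)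
  obtain ⟨O2, hO2, h2⟩ := exists_lt_of_up_lt hE hf
    (g2 r ⟨hr.1, hr.2.trans_le (min_le_right _ _)⟩)
  refine ⟨O1 ∩ O2, hO1.inter hO2, fun w hw hwE => ?_⟩
  have := h1 w hw.1 hwE
  have := h2 w hw.2 hwE
  rw [abs_lt]
  constructor <;> linarith

/-- **the end germ lies in the region** -/
theorem tail_Wr (hE : IsExteriorDomain Eᶜ) {f1 f2 : ℂ → ℝ} (hf1 : LB f1) (hf2 : LB f2)
    (hc1 : ∀ w ∉ E, ContinuousAt f1 w) (hc2 : ∀ w ∉ E, ContinuousAt f2 w)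
    (hs1 : Summable fun K : Cmp E => osc E f1 K.1 ^ 2)
    (hs2 : Summable fun K : Cmp E => osc E f2 K.1 ^ 2) (L : Cmp E) {p v : ℂ} {η0 x1 x2 : ℝ}
    (hp : p ∈ L.1) (h0 : 0 < η0) (hoff : ∀ r ∈ Ioo (0 : ℝ) η0, p + r • v ∉ L.1)
    (hl1 : Lm E f1 p v x1) (hl2 : Lm E f2 p v x2) {m : ℂ → ℝ} (hm : LB m) {ε g0 : ℝ} (hε : 0 < ε)
    (hg0 : 0 < g0) (hG : ∀ w, w ∉ E → |f1 w - x1| < ε → |f2 w - x2| < ε → g0 ≤ m w) :
    ∃ η > 0, ∀ r ∈ Ioo (0 : ℝ) η, p + r • v ∈ Wr E L.1 m := by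
  have hcc : connectedComponentIn E p = L.1 := Ni_459.Cmp.cc_eq L hp
  obtain ⟨η1, hη1, g1⟩ := env_near hE hf1 hc1 hs1 (L.subset hp) h0 (by rwa [hcc]) hl1 hε
  obtain ⟨η2, hη2, g2⟩ := env_near hE hf2 hc2 hs2 (L.subset hp) h0 (by rwa [hcc]) hl2 hε
  refine ⟨min η0 (min η1 η2), lt_min h0 (lt_min hη1 hη2), fun r hr => ⟨?_, ?_⟩⟩
  · exact hoff r ⟨hr.1, hr.2.trans_le (min_le_left _ _)⟩
  · obtain ⟨O1, hO1, h1⟩ := g1 r
      ⟨hr.1, hr.2.trans_le ((min_le_right _ _).trans (min_le_left _ _))⟩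
    obtain ⟨O2, hO2, h2⟩ := g2 r
      ⟨hr.1, hr.2.trans_le ((min_le_right _ _).trans (min_le_right _ _))⟩
    exact hg0.trans_le (le_lo hE hm (hO1.inter hO2) fun w hw hwE =>
      hG w hwE (h1 w hw.1 hwE) (h2 w hw.2 hwE))

end Crest.Agent.R105.Atl_948
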