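import Crest.Agent.R105.Red1_828

/-!
# Row 105 (S0138, S0139): first reductions, part 2 (helper828)

* `exteriorDomain_image` : the image of an exterior domain under an injective holomorphic map
  tending to infinity at infinity is an exterior domain;
* `s0138_of` , `s0139_of` : the two statements from their normalised forms (`f z - z → 0`);
* `interior_compl_eq`, `compl_frontier_eq` : what `(frontier U)ᶜ` is for a circle domain.
-/

set_option autoImplicit false

open Set Filter Metric Topology Bornology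
open Crest.AnalysisR

namespace Crest.Agent.R105.Red_828

theorem exteriorDomain_image {U : Set ℂ} (hU : IsExteriorDomain U) {f : ℂ → ℂ}
    (hf : DifferentiableOn ℂ f U) (hinj : InjOn f U)
    (hinf : Tendsto f (cocompact ℂ) (cocompact ℂ)) : IsExteriorDomain (f '' U) := by
  refine ⟨Crest.Agent.Lib.isOpen_image_of_injOn hU.1 hf hinj,
    hU.2.1.image f hf.continuousOn, ?_⟩
  obtain ⟨r, hr, hd, hi, hk⟩ := inv8_spec hU hf hinj hinf
  have hopen : IsOpen (inv8 f '' ball 0 r) :=
    Crest.Agent.Lib.isOpen_image_of_injOn isOpen_ball hd hi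
  have h0 : (0 : ℂ) ∈ inv8 f '' ball 0 r := ⟨0, mem_ball_self hr, inv8_zero f⟩
  obtain ⟨ρ, hρ, hb⟩ := Metric.isOpen_iff.1 hopen 0 h0
  refine ⟨ρ⁻¹, fun w hw => ?_⟩
  have hw0 : 0 < ‖w‖ := lt_trans (inv_pos.2 hρ) hw
  have hwne : w ≠ 0 := norm_pos_iff.1 hw0
  have hwb : w⁻¹ ∈ ball (0 : ℂ) ρ := by
    rw [mem_ball_zero_iff, norm_inv]
    exact (inv_lt_comm₀ hρ hw0).1 hw
  obtain ⟨v, hv, hvw⟩ := hb hwb
  have hvne : v ≠ 0 := by
    rintro rfl
    rw [inv8_zero] at hvw
    exact (inv_ne_zero hwne) hvw.symm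
  rw [inv8_of_ne f hvne] at hvw
  exact ⟨v⁻¹, (hk v hv hvne).1, inv_injective hvw⟩

/-- a function at bounded distance from the identity near infinity tends to infinity -/
theorem tendsto_cocompact_of_bdd {g : ℂ → ℂ} {C R : ℝ}
    (h : ∀ z : ℂ, R < ‖z‖ → ‖g z - z‖ ≤ C) : Tendsto g (cocompact ℂ) (cocompact ℂ) := by
  rw [← cobounded_eq_cocompact, ← tendsto_norm_atTop_iff_cobounded]
  have h1 : Tendsto (fun z : ℂ => ‖z‖ - C) (cobounded ℂ) atTop :=
    tendsto_atTop_add_const_right _ (-C) tendsto_norm_cobounded_atTop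
  refine tendsto_atTop_mono' _ ?_ h1
  have h2 : ∀ᶠ z : ℂ in cobounded ℂ, R < ‖z‖ :=
    tendsto_norm_cobounded_atTop.eventually_gt_atTop R
  filter_upwards [h2] with z hz
  have h3 := h z hz
  have h4 := norm_sub_norm_le z (g z)
  rw [norm_sub_rev] at h4
  linarith

theorem tendsto_cocompact_of_tendsto_sub {g : ℂ → ℂ} {c : ℂ}
    (h : Tendsto (fun z => g z - z) (cocompact ℂ) (𝓝 c)) :
    Tendsto g (cocompact ℂ) (cocompact ℂ) := by
  have h1 : ∀ᶠ z in cocompact ℂ, ‖g z - z‖ ≤ ‖c‖ + 1 := by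
    have := h.norm.eventually (gt_mem_nhds (lt_add_one ‖c‖))
    filter_upwards [this] with z hz using hz.le
  rw [← cobounded_eq_cocompact] at h1
  obtain ⟨R, -, hR⟩ := (hasBasis_cobounded_norm (E := ℂ)).mem_iff.1 h1
  exact tendsto_cocompact_of_bdd (C := ‖c‖ + 1) (R := R) fun z hz => hR hz.le

/-- **S0138 from the part about components**. -/
theorem s0138_of {U : Set ℂ} (hU : IsExteriorDomain U)
    (H : ∃ g : ℂ → ℂ, DifferentiableOn ℂ g U ∧ InjOn g U ∧
      Tendsto g (cocompact ℂ) (cocompact ℂ) ∧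
      ∀ z : ℂ, z ∉ g '' U → ∃ c : ℂ, ∃ r : ℝ, 0 ≤ r ∧
        connectedComponentIn (g '' U)ᶜ z = closedBall c r) :
    ∃ f : ℂ → ℂ, DifferentiableOn ℂ f U ∧ Set.InjOn f U ∧
      Filter.Tendsto f (Filter.cocompact ℂ) (Filter.cocompact ℂ) ∧
      Crest.AnalysisR.IsCircleDomainFinitePart (f '' U) := by
  obtain ⟨g, h1, h2, h3, h4⟩ := H
  exact ⟨g, h1, h2, h3, exteriorDomain_image hU h1 h2 h3, h4⟩

/-- affine maps preserve circle domains -/
theorem circleDomain_affine {V : Set ℂ} (hV : IsCircleDomainFinitePart V) {a : ℂ} (ha : a ≠ 0)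
    (b : ℂ) : IsCircleDomainFinitePart ((fun w => a * w + b) '' V) := by
  set e : ℂ ≃ₜ ℂ := (Homeomorph.mulLeft₀ a ha).trans (Homeomorph.addRight b) with he
  have hev : ∀ w, e w = a * w + b := fun w => rfl
  have hdiff : DifferentiableOn ℂ (fun w : ℂ => a * w + b) V := by fun_prop
  have hinj : InjOn (fun w : ℂ => a * w + b) V := fun x _ y _ h => e.injective h
  have hinf : Tendsto (fun w : ℂ => a * w + b) (cocompact ℂ) (cocompact ℂ) :=
    e.isClosedEmbedding.tendsto_cocompact
  refine ⟨exteriorDomain_image hV.1 hdiff hinj hinf, fun z hz => ?_⟩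
  have hcompl : ((fun w => a * w + b) '' V)ᶜ = e '' Vᶜ := by
    rw [image_compl_eq e.bijective]; rfl
  have hz1 : z ∈ e '' Vᶜ := by rw [← hcompl]; exact hz
  obtain ⟨w, hw, rfl⟩ := hz1
  obtain ⟨c, r, hr, hc⟩ := hV.2 w hw
  refine ⟨a * c + b, ‖a‖ * r, by positivity, ?_⟩
  rw [hcompl]
  have h1 : e '' connectedComponentIn Vᶜ w = connectedComponentIn (e '' Vᶜ) (e w) :=
    e.image_connectedComponentIn hw
  rw [← h1, hc]
  ext x
  constructor
  · rintro ⟨y, hy, rfl⟩
    rw [mem_closedBall, dist_eq_norm] at hy ⊢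
    rw [hev]
    have : a * y + b - (a * c + b) = a * (y - c) := by ring
    rw [this, norm_mul]
    exact mul_le_mul_of_nonneg_left hy (norm_nonneg _)
  · intro hx
    refine ⟨(x - b) / a, ?_, ?_⟩
    · rw [mem_closedBall, dist_eq_norm] at hx ⊢
      have : (x - b) / a - c = (x - (a * c + b)) / a := by
        field_simp
        ring
      rw [this, norm_div]
      exact (div_le_iff₀' (norm_pos_iff.2 ha)).2 hx
    · rw [hev]
      field_simp
      ring

/-- **S0139 from its normalised form** (`f z - z → 0` at infinity, conclusion `f = id` on `U`). -/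
theorem s0139_of
    (H : ∀ U V : Set ℂ, IsCircleDomainFinitePart U → IsCircleDomainFinitePart V →
      IsConformallyRemovable (frontier U) → ∀ f : ℂ → ℂ, DifferentiableOn ℂ f U → InjOn f U →
      f '' U = V → Tendsto (fun z => f z - z) (cocompact ℂ) (𝓝 0) → ∀ z ∈ U, f z = z)
    (U V : Set ℂ) (hU : Crest.AnalysisR.IsCircleDomainFinitePart U)
    (hV : Crest.AnalysisR.IsCircleDomainFinitePart V)
    (hE : Crest.AnalysisR.IsConformallyRemovable (frontier U)) (f : ℂ → ℂ)
    (hf : DifferentiableOn ℂ f U) (hinj : Set.InjOn f U) (hsurj : f '' U = V)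
    (hinf : Filter.Tendsto f (Filter.cocompact ℂ) (Filter.cocompact ℂ)) :
    ∃ a b : ℂ, a ≠ 0 ∧ ∀ z ∈ U, f z = a * z + b := by
  obtain ⟨a, b, ha, C, R, hR, hexp⟩ := exists_expansion hU.1 hf hinj hinf
  refine ⟨a, b, ha, ?_⟩
  have hainv : a⁻¹ ≠ 0 := inv_ne_zero ha
  set g : ℂ → ℂ := fun z => a⁻¹ * f z + (-(a⁻¹ * b)) with hg
  have hgV : g '' U = (fun w => a⁻¹ * w + (-(a⁻¹ * b))) '' V := by
    rw [← hsurj, image_image]
  have hV1 : IsCircleDomainFinitePart (g '' U) := hgV ▸ circleDomain_affine hV hainv _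
  have hgd : DifferentiableOn ℂ g U := (hf.const_mul _).add_const _
  have hgi : InjOn g U := by
    intro x hx y hy hxy
    refine hinj hx hy ?_
    have h1 : a⁻¹ * f x = a⁻¹ * f y := add_right_cancel hxy
    exact mul_left_cancel₀ hainv h1
  have hgt : Tendsto (fun z => g z - z) (cocompact ℂ) (𝓝 0) := by
    have h1 : Tendsto (fun z : ℂ => ‖a⁻¹‖ * (C / ‖z‖)) (cocompact ℂ) (𝓝 0) := by
      have h2 : Tendsto (fun z : ℂ => C / ‖z‖) (cocompact ℂ) (𝓝 0) :=
        (tendsto_norm_cocompact_atTop (E := ℂ)).const_div_atTop C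
      simpa using h2.const_mul ‖a⁻¹‖
    refine squeeze_zero_norm' ?_ h1
    have h3 : ∀ᶠ z : ℂ in cocompact ℂ, R < ‖z‖ :=
      (tendsto_norm_cocompact_atTop (E := ℂ)).eventually_gt_atTop R
    filter_upwards [h3] with z hz
    have h4 := (hexp z hz).2
    have h5 : g z - z = a⁻¹ * (f z - (a * z + b)) := by
      rw [hg]
      field_simp
      ring
    rw [h5, norm_mul]
    exact mul_le_mul_of_nonneg_left h4 (norm_nonneg _)
  have h := H U (g '' U) hU hV1 hE g hgd hgi rfl hgt
  intro z hz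
  have h1 := h z hz
  rw [hg] at h1
  simp only at h1
  have h2 : f z = a * (a⁻¹ * f z + (-(a⁻¹ * b))) + b := by
    field_simp
    ring
  rw [h2, h1]

/-- in a circle domain complement, interior points lie in open discs -/
theorem mem_interior_compl_iff {U : Set ℂ} (hU : IsCircleDomainFinitePart U) (z : ℂ) :
    z ∈ interior Uᶜ ↔ ∃ c : ℂ, ∃ r : ℝ, 0 < r ∧ z ∈ ball c r ∧
      connectedComponentIn Uᶜ z = closedBall c r := by
  constructor
  · intro hz
    have hzU : z ∈ Uᶜ := interior_subset hz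
    obtain ⟨c, r, hr, hc⟩ := hU.2 z hzU
    obtain ⟨ε, hε, hb⟩ := Metric.isOpen_iff.1 isOpen_interior z hz
    have h1 : ball z ε ⊆ connectedComponentIn Uᶜ z :=
      (convex_ball z ε).isPreconnected.subset_connectedComponentIn (mem_ball_self hε)
        (hb.trans interior_subset)
    rw [hc] at h1
    have h2 : z ∈ interior (closedBall c r) :=
      mem_interior.2 ⟨ball z ε, h1, isOpen_ball, mem_ball_self hε⟩
    have hr0 : r ≠ 0 := by
      rintro rfl
      rw [closedBall_zero] at h2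
      simp at h2
    rw [interior_closedBall c hr0] at h2
    exact ⟨c, r, lt_of_le_of_ne hr (Ne.symm hr0), h2, hc⟩
  · rintro ⟨c, r, hr, hz, hc⟩
    refine mem_interior.2 ⟨ball c r, ?_, isOpen_ball, hz⟩
    refine ball_subset_closedBall.trans ?_
    rw [← hc]
    exact connectedComponentIn_subset _ _

/-- the complement of the frontier -/
theorem compl_frontier_eq {U : Set ℂ} (hU : IsOpen U) : (frontier U)ᶜ = U ∪ interior Uᶜ := by
  rw [interior_compl, frontier, hU.interior_eq, sdiff_eq, compl_inter, compl_compl, union_comm]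

/-- a homeomorphism holomorphic on `U` and on the open discs is holomorphic off the frontier -/
theorem differentiableOn_compl_frontier {U : Set ℂ} (hU : IsCircleDomainFinitePart U)
    {φ : ℂ → ℂ} (h1 : DifferentiableOn ℂ φ U)
    (h2 : ∀ c : ℂ, ∀ r : ℝ, 0 < r → closedBall c r ⊆ Uᶜ →
      (∀ z ∈ closedBall c r, connectedComponentIn Uᶜ z = closedBall c r) →
      DifferentiableOn ℂ φ (ball c r)) :
    DifferentiableOn ℂ φ (frontier U)ᶜ := by
  rw [compl_frontier_eq hU.1.1]
  intro z hz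
  rcases hz with hz | hz
  · exact ((h1 z hz).differentiableAt (hU.1.1.mem_nhds hz)).differentiableWithinAt
  · obtain ⟨c, r, hr, hzb, hc⟩ := (mem_interior_compl_iff hU z).1 hz
    have hsub : closedBall c r ⊆ Uᶜ := by rw [← hc]; exact connectedComponentIn_subset _ _
    have hcomp : ∀ w ∈ closedBall c r, connectedComponentIn Uᶜ w = closedBall c r := by
      intro w hw
      rw [← hc] at hw ⊢
      exact (connectedComponentIn_eq hw).symm
    exact ((h2 c r hr hsub hcomp z hzb).differentiableAt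
      (isOpen_ball.mem_nhds hzb)).differentiableWithinAt

end Crest.Agent.R105.Red_828
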