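import Crest.Agent.R105.Pct4_185
import Crest.Agent.R105.SkA1_8
import Crest.Agent.R105.Red2_828

/-!
# R105 PIC-T (5): the picture with solids from 8's package `Pk` (helper185)

`NI.germ` : null image only sees the germs at the components (finite/countable families of
Lipschitz functions of `φ`); `picT_of_pk`.
-/

set_option autoImplicit false

open Set Filter MeasureTheory Metric
open scoped Topology NNReal ContDiff
open Crest.AnalysisR
open Crest.Agent.R105.Ends_897 (eF EndMap)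

namespace Crest.Agent.R105.Pct_185

open Tc_808 Sqr_185
open Sct_636 (LCE ELId)
open IfB_641 (X0)
open SelT_871 (JT)
open Tra_937 (Uni locLip_congr)

noncomputable section

variable {U : Set ℂ} {F : ℂ → ℂ} {x0 u : ℂ → ℝ}

/-- **the picture with solids, from the z-plane** (unbounded components in the picture) -/
theorem picT_of_JT' (h : EndMap U (F '' U) F) (hF : Uni U F) (hx0 : X0 Uᶜ x0) (hu : TT Uᶜ u)
    (hx : ∀ z ∈ U, x0 z + u z = (F z).re)
    (hR : ∀ t : ℝ, ∀ z ∈ (F '' U)ᶜᶜ, t < z.re →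
      ¬ Bornology.IsBounded (connectedComponentIn ((F '' U)ᶜᶜ ∩ {w | t < w.re}) z))
    (hL : ∀ t : ℝ, ∀ z ∈ (F '' U)ᶜᶜ, z.re < t →
      ¬ Bornology.IsBounded (connectedComponentIn ((F '' U)ᶜᶜ ∩ {w | w.re < t}) z))
    {adm : (ℂ → ℝ) → Prop}
    (hmin : ∀ ψ, adm ψ → TT Uᶜ ψ → HasCompactSupport ψ →
      ∀ t : ℝ, JT Uᶜ x0 u ≤ JT Uᶜ x0 (fun z => u z + t * ψ z))
    (hA : ∀ (χ : ℂ → ℝ) (G : ℝ → ℝ), Bd_775.LC Uᶜ χ → HasCompactSupport χ → ContDiff ℝ ∞ G →
      HasCompactSupport (deriv G) → adm (fun z => χ z * G (x0 z + u z)))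
    (hB : ∀ (ψ : ℂ → ℝ) (θ : ℝ → ℝ) (K₀ : Cmp Uᶜ), ContDiff ℝ ∞ θ → HasCompactSupport θ →
      TT Uᶜ ψ → HasCompactSupport ψ → (∀ L : Cmp Uᶜ, L ≠ K₀ →
        (∃ O, IsOpen O ∧ L.1 ⊆ O ∧ ∀ z ∈ O, z ∈ U → ψ z = θ (x0 z + u z)) ∨
        (∃ O, IsOpen O ∧ L.1 ⊆ O ∧ ∀ z ∈ O, z ∈ U → ψ z = 0)) → adm ψ) :
    PicT (F '' U)ᶜ := by
  classical
  have hUc : IsCompact Uᶜ := Ends_897.isCompact_compl h.hU
  have hE : IsCompact (F '' U)ᶜ := Ends_897.isCompact_compl h.hV
  have hsum : Summable fun L : Cmp (F '' U)ᶜ => wd L.1 ^ 2 := by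
    refine summable_wd h hx ?_
    refine hu.sum.congr fun K => ?_
    congr 1
    refine osc_congr (isClosed_tsupport x0).isOpen_compl
      (fun z hz hz' => hx0.zero hz' (K.subset hz)) fun z hz _ => ?_
    have : x0 z = 0 := image_eq_zero_of_notMem_tsupport hz
    rw [this, zero_add]
  refine picT_of_min hE hsum hR hL ?_ ?_
  · -- family A
    intro G χ hG hG' hχ
    obtain ⟨χ', h1, h2, h3⟩ := exists_LC_pull h hF hχ
    refine ⟨1, one_pos, fun τ _ => ?_⟩
    obtain ⟨Λ, hΛ⟩ := lip_of_deriv hG hG'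
    obtain ⟨t1, t2, -⟩ := Elf_600.test_chiG hUc hx0 hu h1 h2 hΛ
    refine mint_of_JT h hF hx0 hu hx (φ := fun w => G w.re * χ w)
      (ψ := fun z => χ' z * G (x0 z + u z)) ?_ ?_ t1 t2 (hmin _ (hA χ' G h1 h2 hG hG') t1 t2) τ
    · have := (TT_A hE hsum hG hG' hχ).q.loc
      rwa [compl_compl] at this
    · intro z hz
      rw [h3 z hz, hx z hz]
      ring
  · -- family B
    intro K hK0 hKs θ hθ hθc hθs κ hκ hκc hκE
    refine ⟨1, one_pos, fun τ _ => ?_⟩
    have hord : ∀ L : Cmp (F '' U)ᶜ, ∀ t, OrdConnected (sec L.1 t) := by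
      intro L t
      have h5 := Sct_636.sec_ordConnected hE (t := t) (hR t) (hL t) (pt L)
      rw [cc_pt] at h5
      exact h5
    set φ : ℂ → ℝ := fun z => up K.1 θ z * κ z.im with hφ
    have hTT : TT (F '' U)ᶜ φ := TT_B hE hord hsum hθ hθc hθs hκ hκc hκE
    set ψ : ℂ → ℝ := fun z => if z ∈ U then φ (F z) else 0 with hψ
    have hψU : ∀ z ∈ U, ψ z = φ (F z) := fun z hz => if_pos hz
    have hψb : ∃ M, ∀ z, |ψ z| ≤ M := by
      obtain ⟨M, hM⟩ := hTT.q.bdd
      refine ⟨M, fun z => ?_⟩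
      by_cases hz : z ∈ U
      · rw [hψU z hz]; exact hM _
      · simp only [hψ, if_neg hz, abs_zero]
        exact (abs_nonneg _).trans (hM 0)
    have hψT : TT Uᶜ ψ := TT_pull h hF hψU hψb hTT
    have hψc : HasCompactSupport ψ := by
      have hT : IsCompact ((fun q : ℝ × ℝ => (⟨q.1, q.2⟩ : ℂ)) '' (tsupport θ ×ˢ tsupport κ)) :=
        (hθc.isCompact.prod hκc.isCompact).image continuous_mk
      have h1 : ∀ᶠ z in cocompact ℂ, F z ∈
          ((fun q : ℝ × ℝ => (⟨q.1, q.2⟩ : ℂ)) '' (tsupport θ ×ˢ tsupport κ))ᶜ :=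
        h.inf hT.compl_mem_cocompact
      obtain ⟨T, hT', hTs⟩ := mem_cocompact.1 h1
      refine HasCompactSupport.of_support_subset_isCompact hT' fun z hz => ?_
      by_contra hzT
      have h3 := hTs hzT
      apply hz
      by_cases hzU : z ∈ U
      · rw [hψU z hzU]
        simp only [hφ]
        by_cases h4 : (F z).im ∈ tsupport κ
        · have h5 : (F z).re ∉ tsupport θ := fun hc =>
            h3 ⟨((F z).re, (F z).im), ⟨hc, h4⟩, rfl⟩
          have h6 : up K.1 θ (F z) = 0 := by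
            rcases up_mem (K := K.1) (θ := θ) (F z) with h7 | h7
            · rw [h7]; exact image_eq_zero_of_notMem_tsupport h5
            · exact h7
          rw [h6, zero_mul]
        · rw [image_eq_zero_of_notMem_tsupport h4, mul_zero]
      · exact if_neg hzU
    have hadm : adm ψ := by
      refine hB ψ θ ((eqv h).symm K) hθ hθc hψT hψc fun L hL => ?_
      have hL' : eqv h L ≠ K := fun hc => hL (by rw [← hc, Equiv.symm_apply_apply])
      rcases near_B (K := K) (θ := θ) (κ := κ) hE hord hθs hκE hL' with h1 | h1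
      · left
        have h2 : (eqv h L).1 ⊆ interior {z | up K.1 θ z * κ z.im = θ z.re} := fun p hp =>
          mem_interior_iff_mem_nhds.2 (h1 p hp)
        obtain ⟨O, hO, hLO, hsub⟩ := exists_nhd_of h L isOpen_interior h2
        refine ⟨O, hO, hLO, fun z hz hzU => ?_⟩
        have h3 := interior_subset (hsub z hz hzU)
        have h4 : up K.1 θ (F z) * κ (F z).im = θ (F z).re := h3
        rw [hψU z hzU, hx z hzU]
        exact h4
      · right
        have h2 : (eqv h L).1 ⊆ interior {z | up K.1 θ z * κ z.im = 0} := fun p hp =>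
          mem_interior_iff_mem_nhds.2 (h1 p hp)
        obtain ⟨O, hO, hLO, hsub⟩ := exists_nhd_of h L isOpen_interior h2
        refine ⟨O, hO, hLO, fun z hz hzU => ?_⟩
        have h3 := interior_subset (hsub z hz hzU)
        have h4 : up K.1 θ (F z) * κ (F z).im = 0 := h3
        rw [hψU z hzU]
        exact h4
    refine mint_of_JT h hF hx0 hu hx (φ := φ) (ψ := ψ) ?_ hψU hψT hψc
      (hmin ψ hadm hψT hψc) τ
    have := hTT.q.loc
    rwa [compl_compl] at this

/-! ### unbounded components -/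

/-- the components of `{t < σ re}` in the picture are unbounded if those on the z-plane are -/
theorem unbdd_of_z (h : EndMap U (F '' U) F) {g : ℂ → Prop}
    (hz : ∀ z₀ ∈ U, g (F z₀) →
      ¬ Bornology.IsBounded (connectedComponentIn {z | z ∈ U ∧ g (F z)} z₀)) :
    ∀ w ∈ (F '' U)ᶜᶜ, g w →
      ¬ Bornology.IsBounded (connectedComponentIn ((F '' U)ᶜᶜ ∩ {w | g w}) w) := by
  intro w hw hgw hb
  rw [compl_compl] at hw hb
  obtain ⟨z₀, hz₀, rfl⟩ := hw
  apply hz z₀ hz₀ hgw
  -- the component on the z-plane is mapped into the component of the picture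
  have h1 : F '' (connectedComponentIn {z | z ∈ U ∧ g (F z)} z₀)
      ⊆ connectedComponentIn (F '' U ∩ {w | g w}) (F z₀) := by
    have hpre : IsPreconnected (F '' (connectedComponentIn {z | z ∈ U ∧ g (F z)} z₀)) :=
      isPreconnected_connectedComponentIn.image F
        (h.cont.mono fun z hz => (connectedComponentIn_subset _ _ hz).1)
    refine hpre.subset_connectedComponentIn
      ⟨z₀, mem_connectedComponentIn ⟨hz₀, hgw⟩, rfl⟩ ?_
    rintro _ ⟨z, hz', rfl⟩
    have := connectedComponentIn_subset _ _ hz'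
    exact ⟨mem_image_of_mem F this.1, this.2⟩
  obtain ⟨R, hR⟩ := (hb.subset h1).exists_norm_le
  obtain ⟨ρ, hρ⟩ := h.symm.bdd R
  refine isBounded_iff_forall_norm_le.2 ⟨ρ, fun z hz' => ?_⟩
  have hzU : z ∈ U := (connectedComponentIn_subset _ _ hz').1
  have h2 := hρ (F z) (mem_image_of_mem F hzU) (hR _ (mem_image_of_mem F hz'))
  rwa [h.inv_left hzU] at h2

/-! ### germs and null images -/

section NIg

open Ni_459

variable {Y : Set ℂ} {a φ b : ℂ → ℝ}

/-- the value at a component without jump of a function which is `h ∘ φ` near it -/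
lemma up_of_germ (hY : IsExteriorDomain Yᶜ) (hφ : LB φ) (hb : LB b) {z : ℂ} (hz : z ∈ Y) {s : ℝ}
    (h1 : lo Y φ z = s) (h2 : up Y φ z = s) {k : ℝ → ℝ} (hk : Continuous k)
    (hg : ∃ O, IsOpen O ∧ connectedComponentIn Y z ⊆ O ∧ ∀ w ∈ O, w ∉ Y → b w = k (φ w)) :
    up Y b z = k s ∧ lo Y b z = k s := by
  obtain ⟨O, hO, hzO, hbk⟩ := hg
  have hnb : Nb Y z O := nb_of_mem hz hO hzO
  have key : ∀ ε > 0, ∃ P, Nb Y z P ∧ ∀ w ∈ P, w ∉ Y → |b w - k s| ≤ ε := by
    intro ε hε
    obtain ⟨δ, hδ, hkδ⟩ := Metric.continuousAt_iff.1 (hk.continuousAt (x := s)) ε hε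
    obtain ⟨P1, hP1, hP1'⟩ := exists_lt_of_up_lt hY hφ (show up Y φ z < s + δ by linarith)
    obtain ⟨P2, hP2, hP2'⟩ := exists_gt_of_lt_lo hY hφ (show s - δ < lo Y φ z by linarith)
    refine ⟨O ∩ (P1 ∩ P2), hnb.inter (hP1.inter hP2), fun w hw hwY => ?_⟩
    have e1 := hP1' w hw.2.1 hwY
    have e2 := hP2' w hw.2.2 hwY
    have e3 : dist (φ w) s < δ := by
      rw [Real.dist_eq, abs_lt]; constructor <;> linarith
    have e4 := hkδ e3
    rw [Real.dist_eq] at e4
    rw [hbk w hw.1 hwY]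
    exact e4.le
  have hup : up Y b z ≤ k s := le_of_forall_pos_le_add fun ε hε => by
    obtain ⟨P, hP, hP'⟩ := key ε hε
    refine up_le hY hb hP fun w hw hwY => ?_
    have := (abs_le.1 (hP' w hw hwY)).2
    linarith
  have hlo : k s ≤ lo Y b z := le_of_forall_pos_le_add fun ε hε => by
    obtain ⟨P, hP, hP'⟩ := key ε hε
    have h3 : k s - ε ≤ lo Y b z := le_lo hY hb hP fun w hw hwY => by
      have := (abs_le.1 (hP' w hw hwY)).1
      linarith
    linarith
  have hle := lo_le_up hY hb z (Y := Y)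
  constructor <;> linarith

/-- **null image only sees germs**: if near every component outside a countable family `b` is one
of countably many Lipschitz functions of `φ`, then `NI a φ → NI a b`. -/
theorem NI_germ (hY : IsExteriorDomain Yᶜ) (hφ : TT Y φ) (hb : ∃ M, ∀ z, |b z| ≤ M)
    {ι : Type*} [Countable ι] {k : ι → ℝ → ℝ} {Λ : ι → ℝ≥0}
    (hk : ∀ i, LipschitzWith (Λ i) (k i)) {S : Set (Cmp Y)} (hS : S.Countable)
    (hg : ∀ K : Cmp Y, K ∉ S → ∃ i, ∃ O, IsOpen O ∧ K.1 ⊆ O ∧ ∀ w ∈ O, w ∉ Y → b w = k i (φ w))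
    (hni : NI Y a φ) : NI Y a b := by
  have hφb : LB φ := LB.of_bdd hφ.q.bdd
  have hbb : LB b := LB.of_bdd hb
  -- the exceptional components
  set S' : Set (Cmp Y) := S ∪ Jmp Y φ with hS'
  have hS'c : S'.Countable := hS.union hφ.countable
  have hsub : NP Y a b ⊆ (⋃ i, (fun p : ℝ × ℝ => (p.1, k i p.2)) '' NP Y a φ) ∪
      (fun K : Cmp Y => (up Y a (Elf_600.pt K), up Y b (Elf_600.pt K))) '' S' := by
    rintro ⟨p, q⟩ ⟨z, hz, h1, h2, h3, h4⟩
    simp only at h1 h2 h3 h4
    by_cases hK : Cmp.of hz ∈ S'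
    · right
      refine ⟨Cmp.of hz, hK, ?_⟩
      have hcc : connectedComponentIn Y (Elf_600.pt (Cmp.of hz)) = connectedComponentIn Y z :=
        Elf_600.cc_pt (Cmp.of hz)
      have hzm : z ∈ connectedComponentIn Y (Elf_600.pt (Cmp.of hz)) := by
        rw [hcc]; exact mem_connectedComponentIn hz
      have hpt : Elf_600.pt (Cmp.of hz) ∈ Y := Elf_600.pt_mem' _
      simp only [Prod.mk.injEq]
      rw [← up_congr_cc hpt hzm, ← up_congr_cc hpt hzm]
      exact ⟨h2, h4⟩
    · left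
      simp only [hS', mem_union, not_or] at hK
      obtain ⟨hKS, hKJ⟩ := hK
      have hosc : osc Y φ (connectedComponentIn Y z) = 0 := by
        by_contra hne
        exact hKJ hne
      have h5 := osc_eq hY hφ.q.bdd hz
      rw [hosc] at h5
      obtain ⟨i, O, hO, hKO, hbk⟩ := hg _ hKS
      have h6 := up_of_germ hY hφb hbb hz (s := up Y φ z) (by linarith) rfl (hk i).continuous
        ⟨O, hO, hKO, hbk⟩
      refine mem_iUnion.2 ⟨i, (p, up Y φ z), ⟨z, hz, h1, h2, ?_, rfl⟩, ?_⟩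
      · simp only; linarith
      · simp only [Prod.mk.injEq, true_and]
        rw [← h6.1, h4]
  refine measure_mono_null hsub (measure_union_null (measure_iUnion_null fun i => ?_) ?_)
  · -- Lipschitz images of null sets are null
    have hL : LipschitzWith (max 1 (Λ i)) (fun p : ℝ × ℝ => (p.1, k i p.2)) := by
      refine LipschitzWith.of_dist_le_mul fun p q => ?_
      rw [Prod.dist_eq, Prod.dist_eq]
      have e1 := (hk i).dist_le_mul p.2 q.2
      have e2 : dist p.1 q.1 ≤ max (dist p.1 q.1) (dist p.2 q.2) := le_max_left _ _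
      have e3 : dist p.2 q.2 ≤ max (dist p.1 q.1) (dist p.2 q.2) := le_max_right _ _
      have e4 : (1 : ℝ) ≤ ((max 1 (Λ i) : ℝ≥0) : ℝ) := by
        exact_mod_cast le_max_left (1 : ℝ≥0) (Λ i)
      have e5 : ((Λ i : ℝ≥0) : ℝ) ≤ ((max 1 (Λ i) : ℝ≥0) : ℝ) := by
        exact_mod_cast le_max_right (1 : ℝ≥0) (Λ i)
      have e6 : 0 ≤ max (dist p.1 q.1) (dist p.2 q.2) := dist_nonneg.trans e2
      refine max_le ?_ ?_
      · calc dist p.1 q.1 ≤ 1 * max (dist p.1 q.1) (dist p.2 q.2) := by rw [one_mul]; exact e2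
          _ ≤ _ := mul_le_mul_of_nonneg_right e4 e6
      · calc dist (k i p.2) (k i q.2) ≤ Λ i * dist p.2 q.2 := e1
          _ ≤ Λ i * max (dist p.1 q.1) (dist p.2 q.2) := mul_le_mul_of_nonneg_left e3 (Λ i).2
          _ ≤ _ := mul_le_mul_of_nonneg_right e5 e6
    have h1 := hL.hausdorffMeasure_image_le (by norm_num : (0 : ℝ) ≤ 2) (NP Y a φ)
    rw [hausdorffMeasure_prod_real] at h1
    have h2 : volume (NP Y a φ) = 0 := hni
    rw [h2, mul_zero] at h1
    exact le_antisymm h1 zero_le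
  · exact (hS'c.image _).measure_zero _

end NIg

/-! ### the theorem over the package `Pk` -/

lemma finite_image_of_lc {Y : Set ℂ} (hY : IsCompact Y) {χ : ℂ → ℝ}
    (h : ∀ z ∈ Y, ∀ᶠ w in 𝓝 z, χ w = χ z) : (χ '' Y).Finite := by
  refine hY.induction_on (p := fun s => (χ '' s).Finite) (by simp) ?_ ?_ ?_
  · intro s t hst ht
    exact ht.subset (image_mono hst)
  · intro s t hs ht
    rw [image_union]
    exact hs.union ht
  · intro z hz
    refine ⟨{w | χ w = χ z}, mem_nhdsWithin_of_mem_nhds (h z hz), ?_⟩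
    refine (Set.finite_singleton (χ z)).subset ?_
    rintro _ ⟨w, hw, rfl⟩
    exact hw

/-- **the picture with solids from 8's package** -/
theorem picT_of_pk {a : ℕ → ℂ → ℝ} {φ : ℂ → ℝ} (P : SkA_8.Pk Uᶜ x0 a φ F) (hinj : InjOn F U)
    (hub : ∀ σ : ℝ, σ = 1 ∨ σ = -1 → ∀ t : ℝ, ∀ z₀ ∈ U, t < σ * (F z₀).re →
      ¬ Bornology.IsBounded (connectedComponentIn {z | z ∈ U ∧ t < σ * (F z).re} z₀)) :
    PicT (F '' U)ᶜ := by
  have hU : IsExteriorDomain U := by have := P.hY; rwa [compl_compl] at this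
  have hol : DifferentiableOn ℂ F U := by have := P.hol; rwa [compl_compl] at this
  have hre : ∀ z ∈ U, x0 z + φ z = (F z).re := fun z hz => (P.re z (not_not.2 hz)).symm
  obtain ⟨c, hc⟩ := P.inf
  have hinf : Tendsto F (cocompact ℂ) (cocompact ℂ) := Red_828.tendsto_cocompact_of_tendsto_sub hc
  have h : EndMap U (F '' U) F := EndMap.of_holo hU hol hinj hinf
  have hF : Uni U F := ⟨hU.1, hol, hinj⟩
  have hUc : IsCompact Uᶜ := Ends_897.isCompact_compl hU
  -- `x0 = 0` near the components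
  have hx00 : ∀ K : Cmp Uᶜ, ∃ O, IsOpen O ∧ K.1 ⊆ O ∧ ∀ z ∈ O, x0 z = 0 := fun K =>
    ⟨(tsupport x0)ᶜ, (isClosed_tsupport x0).isOpen_compl,
      fun z hz hz' => P.hx.zero hz' (K.subset hz), fun z hz => image_eq_zero_of_notMem_tsupport hz⟩
  refine picT_of_JT' h hF P.hx P.tt hre ?_ ?_
    (adm := fun ψ => ∀ t : ℝ, ∀ i, Ni_459.NI Uᶜ (a i) (fun z => φ z + t * ψ z)) ?_ ?_ ?_
  · intro t
    refine unbdd_of_z h (g := fun w => t < w.re) fun z₀ hz₀ ht => ?_
    have h1 := hub 1 (Or.inl rfl) t z₀ hz₀ (by simpa using ht)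
    simpa using h1
  · intro t
    refine unbdd_of_z h (g := fun w => w.re < t) fun z₀ hz₀ ht => ?_
    have h1 := hub (-1) (Or.inr rfl) (-t) z₀ hz₀ (by simpa using ht)
    simpa using h1
  · intro ψ hadm hψ hψc t
    have h1 : TT Uᶜ (fun z => φ z + t * ψ z) :=
      P.tt.add hUc.isClosed ((TT.const t).mul hUc.isClosed hψ)
    exact P.min _ h1 (hadm t)
  · -- `χ G(x)`
    intro χ G hχ hχc hG hG' t i
    obtain ⟨Λ, hΛ⟩ := lip_of_deriv hG hG'
    have hfin := finite_image_of_lc hUc hχ.lc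
    have hcnt : Countable (χ '' Uᶜ) := hfin.countable.to_subtype
    obtain ⟨t1, -, -⟩ := Elf_600.test_chiG hUc P.hx P.tt hχ hχc hΛ
    have h1 : TT Uᶜ (fun z => φ z + t * (χ z * G (x0 z + φ z))) :=
      P.tt.add hUc.isClosed ((TT.const t).mul hUc.isClosed t1)
    refine NI_germ P.hY P.tt h1.q.bdd (ι := χ '' Uᶜ)
      (k := fun c s => s + (t * c.1) * G s) (Λ := fun c => 1 + ‖t * c.1‖₊ * Λ) ?_
      (S := ∅) countable_empty ?_ (P.com i)
    · intro c
      refine LipschitzWith.id.add ?_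
      refine LipschitzWith.of_dist_le_mul fun p q => ?_
      rw [Real.dist_eq, ← mul_sub, abs_mul, NNReal.coe_mul, coe_nnnorm, Real.norm_eq_abs, mul_assoc]
      have := hΛ.dist_le_mul p q
      rw [Real.dist_eq (G p)] at this
      exact mul_le_mul_of_nonneg_left this (abs_nonneg _)
    · intro K _
      obtain ⟨c, O, hO, hKO, hc⟩ := Tc_808.LC.const_near hχ K.preconn K.subset
      obtain ⟨O', hO', hKO', hx0'⟩ := hx00 K
      obtain ⟨p, hp⟩ := K.nonempty
      refine ⟨⟨c, p, K.subset hp, hc p (hKO hp)⟩, O ∩ O', hO.inter hO', subset_inter hKO hKO',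
        fun w hw _ => ?_⟩
      simp only
      rw [hc w hw.1, hx0' w hw.2, zero_add]
      ring
  · -- exemption of one component
    intro ψ θ K₀ hθ hθc hψ hψc hg t i
    obtain ⟨Λ, hΛ⟩ := lip_of_deriv hθ hθc.deriv
    have h1 : TT Uᶜ (fun z => φ z + t * ψ z) :=
      P.tt.add hUc.isClosed ((TT.const t).mul hUc.isClosed hψ)
    refine NI_germ P.hY P.tt h1.q.bdd (ι := Bool)
      (k := fun c s => s + (if c then t * θ s else 0)) (Λ := fun _ => 1 + ‖t‖₊ * Λ) ?_
      (S := {K₀}) (countable_singleton _) ?_ (P.com i)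
    · intro c
      refine LipschitzWith.id.add ?_
      refine LipschitzWith.of_dist_le_mul fun p q => ?_
      cases c
      · simp only [Bool.false_eq_true, if_false, dist_self]
        positivity
      · simp only [if_true]
        rw [Real.dist_eq, ← mul_sub, abs_mul, NNReal.coe_mul, coe_nnnorm, Real.norm_eq_abs,
          mul_assoc]
        have := hΛ.dist_le_mul p q
        rw [Real.dist_eq (θ p)] at this
        exact mul_le_mul_of_nonneg_left this (abs_nonneg _)
    · intro K hK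
      obtain ⟨O', hO', hKO', hx0'⟩ := hx00 K
      rcases hg K hK with ⟨O, hO, hKO, hψO⟩ | ⟨O, hO, hKO, hψO⟩
      · refine ⟨true, O ∩ O', hO.inter hO', subset_inter hKO hKO', fun w hw hwY => ?_⟩
        simp only [if_true]
        rw [hψO w hw.1 (not_not.1 hwY), hx0' w hw.2, zero_add]
      · refine ⟨false, O ∩ O', hO.inter hO', subset_inter hKO hKO', fun w hw hwY => ?_⟩
        simp only [Bool.false_eq_true, if_false]
        rw [hψO w hw.1 (not_not.1 hwY), mul_zero]

end

end Crest.Agent.R105.Pct_185
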