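import Crest.Agent.R105.Uw5_913
import Crest.Agent.R105.Pct5_185

/-!
# Row 105, S0138 (T-frame), E8 + E9 + E10 joined over `SkA_8.Pk` (helper913)

`unbounded`, `injOn`, `picT : SkA_8.Pk Y x0 a φ F → InjOn F Yᶜ ∧ PicT (F '' Yᶜ)ᶜ`.
-/

set_option autoImplicit false

open MeasureTheory Set Filter Topology Metric
open scoped NNReal ENNReal ContDiff

namespace Crest.Agent.R105.Uw6_913

open Crest.AnalysisR Bd_775 IfB_641 Tc_808 Ni_459 Grd_782
open Crest.Agent.R105.Uw_913 (inc)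
open Crest.Agent.R105.Pct_185 (PicT)
open Crest.Agent.R105.Ends_897 (EndMap)
open Crest.Agent.R105.Uw5_913

variable {Y : Set ℂ} {x0 φ : ℂ → ℝ} {a : ℕ → ℂ → ℝ} {F : ℂ → ℂ}

/-- no bounded component of `{t < σ Re F}` in `U` -/
theorem unbounded (h : SkA_8.Pk Y x0 a φ F) {σ : ℝ} (hσ : σ = 1 ∨ σ = -1) {t : ℝ} {z0 : ℂ}
    (hz0 : z0 ∈ Yᶜ) (ht : t < σ * (F z0).re) :
    ¬ Bornology.IsBounded (connectedComponentIn {z | z ∈ Yᶜ ∧ t < σ * (F z).re} z0) := by
  intro hVb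
  have hYe : IsExteriorDomain Yᶜ := h.hY
  have e : Yᶜᶜ = Y := compl_compl Y
  have hx' : X0 Yᶜᶜ x0 := by rw [e]; exact h.hx
  have ht' : TT Yᶜᶜ φ := by rw [e]; exact h.tt
  obtain ⟨V, hV⟩ : ∃ V, V = connectedComponentIn {z | z ∈ Yᶜ ∧ t < σ * (F z).re} z0 := ⟨_, rfl⟩
  rw [← hV] at hVb
  have hfc : ContinuousOn (fun z => σ * (F z).re) Yᶜ :=
    continuousOn_const.mul (Complex.continuous_re.comp_continuousOn h.hol.continuousOn)
  have hσ2 : σ * σ = 1 := by rcases hσ with rfl | rfl <;> norm_num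
  have hWo : IsOpen {z | z ∈ Yᶜ ∧ t < σ * (F z).re} :=
    hfc.isOpen_inter_preimage hYe.1 isOpen_Ioi
  have hVo : IsOpen V := by rw [hV]; exact hWo.connectedComponentIn
  have hVW : V ⊆ {z | z ∈ Yᶜ ∧ t < σ * (F z).re} := by
    rw [hV]; exact connectedComponentIn_subset _ _
  have hVU : V ⊆ Yᶜ := fun z hz => (hVW hz).1
  have hfr : ∀ z ∈ Yᶜ, z ∈ frontier V → (F z).re = σ * t := by
    intro z hz hzf
    rw [hV] at hzf
    have h1 := Uw_913.frontier_cc hYe.1 hfc z0 z hz hzf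
    rw [← h1, ← mul_assoc, hσ2, one_mul]
  have hsg : ∀ z ∈ V, 0 ≤ σ * ((F z).re - σ * t) := by
    intro z hz
    have h1 := (hVW hz).2
    rw [mul_sub, ← mul_assoc, hσ2, one_mul]
    linarith
  have hTT := Uw_913.trunc_TT hYe h.hol hx' ht' h.re hVo hVU hVb hfr hσ hsg
  rw [e] at hTT
  have hni : ∀ i, NI Y (a i) (fun z => φ z + (-1) * inc V F (σ * t) z) := by
    intro i
    refine ni_near (G := fun _ r => r) (s := σ * t) h.hY h.tt (h.com i) hTT.q.bdd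
      (fun _ => ⟨1, LipschitzWith.id⟩) ?_
    intro z hz
    refine ⟨0, (tsupport x0)ᶜ, nb_of_mem hz (isClosed_tsupport x0).isOpen_compl
      (fun w hw h' => h.hx.zero h' (connectedComponentIn_subset _ _ hw)), fun w hw hwY => ?_⟩
    have h0 : x0 w = 0 := image_eq_zero_of_notMem_tsupport hw
    have h1 := h.re w hwY
    rw [h0, zero_add] at h1
    by_cases hwV : w ∈ V
    · right
      rw [Uw_913.inc_of_mem hwV, h1]; ring
    · left
      rw [Uw_913.inc_of_notMem hwV]; ring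
  refine Uw_913.no_bounded_comp hYe h.hol hx' ht' h.re h.inf hσ hz0 ht hV ?_ hVb
  have key := h.min _ hTT hni
  unfold Grd_782.TJ at key
  rw [e]
  exact key

/-- **the picture with solids from 8's package, hypothesis free** -/
theorem picT (h : SkA_8.Pk Y x0 a φ F) : InjOn F Yᶜ ∧ PicT (F '' Yᶜ)ᶜ := by
  refine ⟨injOn h, ?_⟩
  have hP : SkA_8.Pk Yᶜᶜ x0 a φ F := by rw [compl_compl]; exact h
  exact Pct_185.picT_of_pk hP (injOn h) fun σ hσ t z₀ hz₀ ht => unbounded h hσ hz₀ ht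

/-- the end map -/
theorem endMap (h : SkA_8.Pk Y x0 a φ F) : EndMap Yᶜ (F '' Yᶜ) F := by
  obtain ⟨c, hc⟩ := h.inf
  exact EndMap.of_holo h.hY h.hol (injOn h) (Red_828.tendsto_cocompact_of_tendsto_sub hc)

end Crest.Agent.R105.Uw6_913
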