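import Crest.Agent.R105.Wnd1_41
import Crest.Agent.R105.Uw6_913
import Crest.Agent.R105.Uw4_913

/-!
# Row 105, S0138, node E13 (ATN): `not_both` (helper948)

* `not_both_plane` : plane form, over 41's winding lemma
* `not_both_map`   : through an `EndMap`
* `conn_side`, `side_unbounded` : `{t < σ Re F}` is preconnected and unbounded in `U`
* `not_both` : the two regions `O₁`, `O₂` at a point of a line through the solid `K0` of the picture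
  of an anchor cannot both come back on the other side of `K0`
-/

set_option autoImplicit false

open MeasureTheory Set Filter Topology Metric
open scoped NNReal ENNReal ContDiff

namespace Crest.Agent.R105.Lop2_948

open Crest.AnalysisR Bd_775 IfB_641 Tc_808 Ni_459
open Crest.Agent.R105.Ends_897 (EndMap eF)
open Crest.Agent.R105.Sqr_185 (SqK)

/-- a connected open set contains a continuum through two given points -/
theorem exists_cont {O : Set ℂ} (ho : IsOpen O) (hc : IsPreconnected O) {a b : ℂ} (ha : a ∈ O)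
    (hb : b ∈ O) : ∃ K ⊆ O, IsCompact K ∧ IsPreconnected K ∧ a ∈ K ∧ b ∈ K := by
  have h1 : IsPathConnected O := (ho.isConnected_iff_isPathConnected).1 ⟨⟨a, ha⟩, hc⟩
  obtain ⟨γ, hγ⟩ := h1.joinedIn a ha b hb
  refine ⟨range γ, ?_, isCompact_range γ.continuous, isPreconnected_range γ.continuous,
    ⟨0, γ.source⟩, ⟨1, γ.target⟩⟩
  rintro _ ⟨s, rfl⟩
  exact hγ s

/-- **plane form** -/
theorem not_both_plane {O₁ O₂ M K : Set ℂ} {p a b : ℂ} (ho₁ : IsOpen O₁) (hc₁ : IsPreconnected O₁)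
    (ho₂ : IsOpen O₂) (hc₂ : IsPreconnected O₂)
    (h1 : ∀ z ∈ O₁, z.im = p.im → p.re < z.re) (h2 : ∀ z ∈ O₂, z.im = p.im → z.re < p.re)
    (ha₁ : a ∈ O₁) (ha₂ : a ∈ O₂) (hb₁ : b ∈ O₁) (hb₂ : b ∈ O₂)
    (har : a.re = p.re) (hbr : b.re = p.re) (hai : p.im < a.im) (hbi : b.im < p.im)
    (hK : IsPreconnected K) (hp : p ∈ K) (hM : IsPreconnected M)
    (hMu : ¬ Bornology.IsBounded M) (hMK : (K ∩ closure M).Nonempty)
    (hK₁ : Disjoint K O₁) (hK₂ : Disjoint K O₂) (hM₁ : Disjoint M O₁) (hM₂ : Disjoint M O₂) :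
    False := by
  obtain ⟨K₁, hs₁, hk₁, hp₁, haK₁, hbK₁⟩ := exists_cont ho₁ hc₁ ha₁ hb₁
  obtain ⟨K₂, hs₂, hk₂, hp₂, haK₂, hbK₂⟩ := exists_cont ho₂ hc₂ ha₂ hb₂
  obtain ⟨q, hqK, hqM⟩ := hMK
  have hM' : IsPreconnected (insert q M) :=
    hM.subset_closure (subset_insert q M) (insert_subset hqM subset_closure)
  have hC : IsPreconnected (K ∪ insert q M) := hK.union q hqK (mem_insert q M) hM'
  refine Wnd_41.wind (M := K ∪ insert q M) hk₁ hk₂ hp₁ hp₂ (fun z hz => h1 z (hs₁ hz))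
    (fun z hz => h2 z (hs₂ hz)) ⟨haK₁, haK₂⟩ ⟨hbK₁, hbK₂⟩ har hbr hai hbi hC (Or.inl hp)
    (fun hb => hMu (hb.subset ((subset_insert q M).trans subset_union_right))) ?_
  rw [disjoint_left]
  have hq₁ : ∀ z ∈ K ∪ insert q M, z ∉ O₁ := by
    rintro z (hz | hz | hz)
    · exact disjoint_left.1 hK₁ hz
    · rw [hz]; exact disjoint_left.1 hK₁ hqK
    · exact disjoint_left.1 hM₁ hz
  have hq₂ : ∀ z ∈ K ∪ insert q M, z ∉ O₂ := by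
    rintro z (hz | hz | hz)
    · exact disjoint_left.1 hK₂ hz
    · rw [hz]; exact disjoint_left.1 hK₂ hqK
    · exact disjoint_left.1 hM₂ hz
  rintro z hz (hz' | hz')
  · exact hq₁ z hz (hs₁ hz')
  · exact hq₂ z hz (hs₂ hz')

/-- accumulation goes through an `EndMap` -/
theorem closure_of_freq {U V : Set ℂ} {P : ℂ → ℂ} {z₀ p : ℂ}
    (ht : Tendsto P (eF U z₀) (eF V p)) {M : Set ℂ} (hMf : ∃ᶠ z in eF U z₀, z ∈ M) :
    (connectedComponentIn Vᶜ p ∩ closure (P '' M)).Nonempty := by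
  by_contra hcon
  rw [not_nonempty_iff_eq_empty, ← disjoint_iff_inter_eq_empty] at hcon
  have h1 : (closure (P '' M))ᶜ ∈ 𝓝ˢ (connectedComponentIn Vᶜ p) :=
    isClosed_closure.isOpen_compl.mem_nhdsSet.2 fun z hz hz' => disjoint_left.1 hcon hz hz'
  have h2 : ∀ᶠ w in eF V p, w ∈ (closure (P '' M))ᶜ := mem_inf_of_left h1
  have h3 := ht.eventually h2
  exact hMf (h3.mono fun z hz hzM => hz (subset_closure (mem_image_of_mem P hzM)))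

theorem unbounded_image {U V : Set ℂ} {P : ℂ → ℂ} (hP : EndMap U V P) {M : Set ℂ} (hMU : M ⊆ U)
    (hMu : ¬ Bornology.IsBounded M) : ¬ Bornology.IsBounded (P '' M) := by
  intro hb
  obtain ⟨R, hR⟩ := hb.exists_norm_le
  obtain ⟨ρ, hρ⟩ := hP.symm.bdd R
  refine hMu ((isBounded_closedBall (x := (0 : ℂ)) (r := ρ)).subset fun z hz => ?_)
  rw [mem_closedBall_zero_iff]
  have h1 := hρ (P z) (hP.mapsTo (hMU hz)) (hR _ (mem_image_of_mem P hz))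
  rwa [hP.inv_left (hMU hz)] at h1

/-- **through an `EndMap`**: `M ⊆ U` connected, unbounded, accumulating at the component of `z₀`;
`O₁`, `O₂` are open connected sets of the `P`-plane off the component of `p` -/
theorem not_both_map {U V : Set ℂ} {P : ℂ → ℂ} (hP : EndMap U V P) {z₀ p : ℂ} (hp : p ∉ V)
    (ht : Tendsto P (eF U z₀) (eF V p)) {M : Set ℂ} (hMU : M ⊆ U) (hM : IsPreconnected M)
    (hMu : ¬ Bornology.IsBounded M) (hMf : ∃ᶠ z in eF U z₀, z ∈ M)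
    {O₁ O₂ : Set ℂ} {a b : ℂ} (ho₁ : IsOpen O₁) (hc₁ : IsPreconnected O₁)
    (ho₂ : IsOpen O₂) (hc₂ : IsPreconnected O₂)
    (h1 : ∀ z ∈ O₁, z.im = p.im → p.re < z.re) (h2 : ∀ z ∈ O₂, z.im = p.im → z.re < p.re)
    (ha₁ : a ∈ O₁) (ha₂ : a ∈ O₂) (hb₁ : b ∈ O₁) (hb₂ : b ∈ O₂)
    (har : a.re = p.re) (hbr : b.re = p.re) (hai : p.im < a.im) (hbi : b.im < p.im)
    (hK₁ : Disjoint (connectedComponentIn Vᶜ p) O₁)
    (hK₂ : Disjoint (connectedComponentIn Vᶜ p) O₂)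
    (hM₁ : Disjoint (P '' M) O₁) (hM₂ : Disjoint (P '' M) O₂) : False :=
  not_both_plane ho₁ hc₁ ho₂ hc₂ h1 h2 ha₁ ha₂ hb₁ hb₂ har hbr hai hbi
    isPreconnected_connectedComponentIn (mem_connectedComponentIn hp)
    (hM.image P (hP.cont.mono hMU)) (unbounded_image hP hMU hMu) (closure_of_freq ht hMf)
    hK₁ hK₂ hM₁ hM₂

/-- the position of `O₁`, `O₂` with respect to the square -/
theorem pos_of_sq {K : Set ℂ} {A B S : ℝ} (hQ : SqK K A B S) {p : ℂ} (hp1 : A ≤ p.re)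
    (hp2 : p.re ≤ A + S) (hp3 : p.im ∈ Icc B (B + S)) {O₁ O₂ : Set ℂ} (hK₁ : Disjoint K O₁)
    (hK₂ : Disjoint K O₂) (hr₁ : ∀ z ∈ O₁, A ≤ z.re) (hr₂ : ∀ z ∈ O₂, z.re ≤ A + S) :
    (∀ z ∈ O₁, z.im = p.im → p.re < z.re) ∧ ∀ z ∈ O₂, z.im = p.im → z.re < p.re := by
  constructor
  · intro z hz hzp
    by_contra hcon
    refine disjoint_left.1 hK₁ (hQ.sub z ⟨hr₁ z hz, ?_⟩ (hzp ▸ hp3)) hz
    exact (not_lt.1 hcon).trans hp2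
  · intro z hz hzp
    by_contra hcon
    refine disjoint_left.1 hK₂ (hQ.sub z ⟨?_, hr₂ z hz⟩ (hzp ▸ hp3)) hz
    exact hp1.trans (not_lt.1 hcon)

/-! ### the sides of the final map -/

section sides

variable {Y : Set ℂ} {x0 φ : ℂ → ℝ} {a : ℕ → ℂ → ℝ} {F : ℂ → ℂ}

/-- `{t < σ Re F}` is connected -/
theorem conn_side (h : SkA_8.Pk Y x0 a φ F) {σ : ℝ} (hσ : σ = 1 ∨ σ = -1) (t : ℝ) :
    IsPreconnected {z | z ∈ Yᶜ ∧ t < σ * (F z).re} := by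
  refine Uw_913.preconn_of_unbounded h.hY.1 ?_ h.hol h.inf hσ fun z hz ht =>
    Uw6_913.unbounded h hσ hz ht
  exact (Ends_897.isCompact_compl h.hY).isBounded

/-- `{t < σ Re F}` is unbounded -/
theorem unb_side (h : SkA_8.Pk Y x0 a φ F) {σ : ℝ} (hσ : σ = 1 ∨ σ = -1) {t : ℝ}
    (hne : ∃ z ∈ Yᶜ, t < σ * (F z).re) :
    ¬ Bornology.IsBounded {z | z ∈ Yᶜ ∧ t < σ * (F z).re} := by
  obtain ⟨z, hz, ht⟩ := hne
  exact fun hb => Uw6_913.unbounded h hσ hz ht (hb.subset (connectedComponentIn_subset _ _))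

end sides

theorem isClosed_Y {Y : Set ℂ} (hY : IsExteriorDomain Yᶜ) : IsClosed Y :=
  isOpen_compl_iff.1 hY.1

/-- **`not_both`**: `K0` = component of `p` in the picture of the anchor (`P`-plane), `[A,A+S] x
[B,B+S]` its square, `p` a point of the square; `F` final map, `Re F < σ t` somewhere arbitrarily
near the solid; `O₁`, `O₂` open connected sets of the `P`-plane off `K0` and off
`{t < σ Re F}`, `O₁` in `{A ≤ re}`, `O₂` in `{re ≤ A + S}`. They cannot both contain a point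
`a` above `p` and a point `b` below `p` on the line `re = re p`. -/
theorem not_both {Y : Set ℂ} {x0 φ : ℂ → ℝ} {a : ℕ → ℂ → ℝ} {F P : ℂ → ℂ} {V : Set ℂ}
    (h : SkA_8.Pk Y x0 a φ F) (hP : EndMap Yᶜ V P) {z₀ p : ℂ} (hp : p ∉ V)
    (ht : Tendsto P (eF Yᶜ z₀) (eF V p)) {A B S : ℝ}
    (hQ : SqK (connectedComponentIn Vᶜ p) A B S) (hp1 : A ≤ p.re)
    (hp2 : p.re ≤ A + S) (hp3 : p.im ∈ Icc B (B + S)) {σ t : ℝ} (hσ : σ = 1 ∨ σ = -1)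
    (hMf : ∃ᶠ z in eF Yᶜ z₀, t < σ * (F z).re)
    {O₁ O₂ : Set ℂ} {c d : ℂ} (ho₁ : IsOpen O₁) (hc₁ : IsPreconnected O₁)
    (ho₂ : IsOpen O₂) (hc₂ : IsPreconnected O₂)
    (hr₁ : ∀ z ∈ O₁, A ≤ z.re) (hr₂ : ∀ z ∈ O₂, z.re ≤ A + S)
    (ha₁ : c ∈ O₁) (ha₂ : c ∈ O₂) (hb₁ : d ∈ O₁) (hb₂ : d ∈ O₂)
    (har : c.re = p.re) (hbr : d.re = p.re) (hai : p.im < c.im) (hbi : d.im < p.im)
    (hK₁ : Disjoint (connectedComponentIn Vᶜ p) O₁)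
    (hK₂ : Disjoint (connectedComponentIn Vᶜ p) O₂)
    (hM₁ : ∀ z ∈ Yᶜ, t < σ * (F z).re → P z ∉ O₁)
    (hM₂ : ∀ z ∈ Yᶜ, t < σ * (F z).re → P z ∉ O₂) : False := by
  obtain ⟨h1, h2⟩ := pos_of_sq hQ hp1 hp2 hp3 hK₁ hK₂ hr₁ hr₂
  have hMf' : ∃ᶠ z in eF Yᶜ z₀, z ∈ {z | z ∈ Yᶜ ∧ t < σ * (F z).re} := by
    have h3 : ∀ᶠ z in eF Yᶜ z₀, z ∈ Yᶜ := mem_inf_of_right (mem_principal_self _)
    exact (hMf.and_eventually h3).mono fun z hz => ⟨hz.2, hz.1⟩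
  obtain ⟨z, hz⟩ := hMf'.exists
  refine not_both_map hP hp ht (M := {z | z ∈ Yᶜ ∧ t < σ * (F z).re}) (fun z hz => hz.1)
    (conn_side h hσ t) (unb_side h hσ ⟨z, hz.1, hz.2⟩) hMf' ho₁ hc₁ ho₂ hc₂ h1 h2 ha₁ ha₂ hb₁ hb₂
    har hbr hai hbi hK₁ hK₂ ?_ ?_
  · rw [disjoint_left]
    rintro _ ⟨z, hz, rfl⟩
    exact hM₁ z hz.1 hz.2
  · rw [disjoint_left]
    rintro _ ⟨z, hz, rfl⟩
    exact hM₂ z hz.1 hz.2

/-- the same, `O₁`, `O₂` open connected subsets of the domain (`z`-plane) -/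
theorem not_both_z {Y : Set ℂ} {x0 φ : ℂ → ℝ} {a : ℕ → ℂ → ℝ} {F P : ℂ → ℂ} {V : Set ℂ}
    (h : SkA_8.Pk Y x0 a φ F) (hP : EndMap Yᶜ V P) {z₀ p : ℂ} (hp : p ∉ V)
    (ht : Tendsto P (eF Yᶜ z₀) (eF V p)) {A B S : ℝ}
    (hQ : SqK (connectedComponentIn Vᶜ p) A B S) (hp1 : A ≤ p.re)
    (hp2 : p.re ≤ A + S) (hp3 : p.im ∈ Icc B (B + S)) {σ t : ℝ} (hσ : σ = 1 ∨ σ = -1)
    (hMf : ∃ᶠ z in eF Yᶜ z₀, t < σ * (F z).re)
    {O₁ O₂ : Set ℂ} {c d : ℂ} (ho₁ : IsOpen O₁) (hc₁ : IsPreconnected O₁)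
    (ho₂ : IsOpen O₂) (hc₂ : IsPreconnected O₂) (hO₁ : O₁ ⊆ Yᶜ) (hO₂ : O₂ ⊆ Yᶜ)
    (hr₁ : ∀ z ∈ O₁, A ≤ (P z).re) (hr₂ : ∀ z ∈ O₂, (P z).re ≤ A + S)
    (ha₁ : c ∈ O₁) (ha₂ : c ∈ O₂) (hb₁ : d ∈ O₁) (hb₂ : d ∈ O₂)
    (har : (P c).re = p.re) (hbr : (P d).re = p.re)
    (hai : p.im < (P c).im) (hbi : (P d).im < p.im)
    (hM₁ : ∀ z ∈ O₁, σ * (F z).re ≤ t) (hM₂ : ∀ z ∈ O₂, σ * (F z).re ≤ t) : False := by
  have hdis : ∀ O ⊆ Yᶜ, Disjoint (connectedComponentIn Vᶜ p) (P '' O) := by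
    intro O hO
    rw [disjoint_left]
    rintro _ hz ⟨w, hw, rfl⟩
    exact connectedComponentIn_subset _ _ hz (hP.mapsTo (hO hw))
  have hMd : ∀ O ⊆ Yᶜ, (∀ z ∈ O, σ * (F z).re ≤ t) → ∀ z ∈ Yᶜ, t < σ * (F z).re →
      P z ∉ P '' O := by
    rintro O hO hM z hz hz' ⟨w, hw, he⟩
    rw [hP.inj (hO hw) hz he] at hw
    exact absurd (hM z hw) (not_le.2 hz')
  exact not_both h hP hp ht hQ hp1 hp2 hp3 hσ hMf (hP.opn _ hO₁ ho₁)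
    (hc₁.image P (hP.cont.mono hO₁)) (hP.opn _ hO₂ ho₂) (hc₂.image P (hP.cont.mono hO₂))
    (by rintro _ ⟨z, hz, rfl⟩; exact hr₁ z hz) (by rintro _ ⟨z, hz, rfl⟩; exact hr₂ z hz)
    (mem_image_of_mem P ha₁) (mem_image_of_mem P ha₂) (mem_image_of_mem P hb₁)
    (mem_image_of_mem P hb₂) har hbr hai hbi (hdis _ hO₁) (hdis _ hO₂) (hMd _ hO₁ hM₁)
    (hMd _ hO₂ hM₂)

/-- the same, `O₁`, `O₂` open connected saturated sets of the `z`-plane; only their points off `Y`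
matter -/
theorem not_both_sat {Y : Set ℂ} {x0 φ : ℂ → ℝ} {a : ℕ → ℂ → ℝ} {F P : ℂ → ℂ} {V : Set ℂ}
    (h : SkA_8.Pk Y x0 a φ F) (hP : EndMap Yᶜ V P) {z₀ p : ℂ} (hp : p ∉ V)
    (ht : Tendsto P (eF Yᶜ z₀) (eF V p)) {A B S : ℝ}
    (hQ : SqK (connectedComponentIn Vᶜ p) A B S) (hp1 : A ≤ p.re)
    (hp2 : p.re ≤ A + S) (hp3 : p.im ∈ Icc B (B + S)) {σ t : ℝ} (hσ : σ = 1 ∨ σ = -1)
    (hMf : ∃ᶠ z in eF Yᶜ z₀, t < σ * (F z).re)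
    {O₁ O₂ : Set ℂ} {c d : ℂ} (ho₁ : IsOpen O₁) (hc₁ : IsPreconnected O₁)
    (ho₂ : IsOpen O₂) (hc₂ : IsPreconnected O₂)
    (hs₁ : ∀ z ∈ O₁, connectedComponentIn Y z ⊆ O₁) (hs₂ : ∀ z ∈ O₂, connectedComponentIn Y z ⊆ O₂)
    (hr₁ : ∀ z ∈ O₁ \ Y, A ≤ (P z).re) (hr₂ : ∀ z ∈ O₂ \ Y, (P z).re ≤ A + S)
    (hc : c ∉ Y) (hd : d ∉ Y) (ha₁ : c ∈ O₁) (ha₂ : c ∈ O₂) (hb₁ : d ∈ O₁) (hb₂ : d ∈ O₂)
    (har : (P c).re = p.re) (hbr : (P d).re = p.re)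
    (hai : p.im < (P c).im) (hbi : (P d).im < p.im)
    (hM₁ : ∀ z ∈ O₁ \ Y, σ * (F z).re ≤ t) (hM₂ : ∀ z ∈ O₂ \ Y, σ * (F z).re ≤ t) : False :=
  not_both_z h hP hp ht hQ hp1 hp2 hp3 hσ hMf (ho₁.sdiff (isClosed_Y h.hY))
    (Uw_913.preconn_sdiff h.hY ho₁ hc₁ hs₁) (ho₂.sdiff (isClosed_Y h.hY))
    (Uw_913.preconn_sdiff h.hY ho₂ hc₂ hs₂) (fun _ hz => hz.2) (fun _ hz => hz.2) hr₁ hr₂
    ⟨ha₁, hc⟩ ⟨ha₂, hc⟩ ⟨hb₁, hd⟩ ⟨hb₂, hd⟩ har hbr hai hbi hM₁ hM₂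

end Crest.Agent.R105.Lop2_948
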