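import Crest.Agent.R105.Atl1_948
import Crest.Agent.R105.Lop2_948

/-!
# Row 105, S0138, node E13: ATNE from PTW, part 2: the data of the two pictures (helper948)

* `Th ex q1 q2` : the step, `rmp_Th : Rmp`
* `xP` : `Re F` in the picture of the anchor; `LB`, continuity, `Σ osc²`
* `mz`, `mP` : the function of the quadrant in the two planes
* `neBot_top`, `neBot_bot` : the ends are real ends
* `freq_side` : points of `{ex Re F < ex q}` near the solid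
-/

set_option autoImplicit false

open MeasureTheory Set Filter Topology Metric
open scoped NNReal ENNReal ContDiff

namespace Crest.Agent.R105.Atl_948

open Crest.AnalysisR (IsExteriorDomain)
open Ni_459 (LB Nb nb_of_mem nb_of_notMem isOpen_lt_lo lo_congr_cc lo_of_notMem le_lo
  exists_gt_of_lt_lo exists_lt_of_up_lt cpt_of)
open Tc_808 Bd_775 Ends_897
open Pct_185 (PicT)
open Sqr_185 (sec SqK)
open Ta_937 (corE map_corE eK_mem)
open E13_499 (Stp Rmp cF pu TopF BotF)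

/-! ### the step -/

/-- the step: `0 → 1` (`ex = 1`) or `1 → 0` (`ex = -1`) on `[q1, q2]` -/
noncomputable def Th (ex q1 q2 x : ℝ) : ℝ :=
  Real.smoothTransition (1 / 2 + ex * (x - (q1 + q2) / 2) / (q2 - q1))

section Th
variable {ex q1 q2 x : ℝ}

theorem Th_mem (ex q1 q2 x : ℝ) : 0 ≤ Th ex q1 q2 x ∧ Th ex q1 q2 x ≤ 1 :=
  ⟨Real.smoothTransition.nonneg _, Real.smoothTransition.le_one _⟩

theorem Th_smooth (ex q1 q2 : ℝ) : ContDiff ℝ (⊤ : ℕ∞) (Th ex q1 q2) := by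
  unfold Th
  refine Real.smoothTransition.contDiff.comp ?_
  fun_prop

theorem Th_arg (hq : q1 < q2) :
    1 / 2 + ex * (x - (q1 + q2) / 2) / (q2 - q1) =
      (ex * x + ((q2 - q1) - ex * (q1 + q2)) / 2) / (q2 - q1) := by
  have : q2 - q1 ≠ 0 := by linarith [sub_pos.2 hq]
  field_simp
  ring

theorem Th_one_pos (hq : q1 < q2) : (0 < Th 1 q1 q2 x → q1 < x) ∧ (x ≤ q1 → Th 1 q1 q2 x = 0) ∧
    (q2 ≤ x → Th 1 q1 q2 x = 1) := by
  have h0 : 0 < q2 - q1 := sub_pos.2 hq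
  have harg : 1 / 2 + 1 * (x - (q1 + q2) / 2) / (q2 - q1) = (x - q1) / (q2 - q1) := by
    rw [Th_arg hq]; congr 1; ring
  have h1 : x ≤ q1 → Th 1 q1 q2 x = 0 := by
    intro h
    unfold Th
    rw [harg]
    exact Real.smoothTransition.zero_of_nonpos (div_nonpos_of_nonpos_of_nonneg (by linarith) h0.le)
  refine ⟨fun h => ?_, h1, fun h => ?_⟩
  · by_contra hcon
    rw [h1 (not_lt.1 hcon)] at h
    exact lt_irrefl _ h
  · unfold Th
    rw [harg]
    exact Real.smoothTransition.one_of_one_le ((one_le_div h0).2 (by linarith))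

theorem Th_neg_pos (hq : q1 < q2) : (0 < Th (-1) q1 q2 x → x < q2) ∧
    (q2 ≤ x → Th (-1) q1 q2 x = 0) ∧ (x ≤ q1 → Th (-1) q1 q2 x = 1) := by
  have h0 : 0 < q2 - q1 := sub_pos.2 hq
  have harg : 1 / 2 + (-1) * (x - (q1 + q2) / 2) / (q2 - q1) = (q2 - x) / (q2 - q1) := by
    rw [Th_arg hq]; congr 1; ring
  have h1 : q2 ≤ x → Th (-1) q1 q2 x = 0 := by
    intro h
    unfold Th
    rw [harg]
    exact Real.smoothTransition.zero_of_nonpos (div_nonpos_of_nonpos_of_nonneg (by linarith) h0.le)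
  refine ⟨fun h => ?_, h1, fun h => ?_⟩
  · by_contra hcon
    rw [h1 (not_lt.1 hcon)] at h
    exact lt_irrefl _ h
  · unfold Th
    rw [harg]
    exact Real.smoothTransition.one_of_one_le ((one_le_div h0).2 (by linarith))

theorem Th_diff (ex q1 q2 : ℝ) : Differentiable ℝ (Th ex q1 q2) :=
  (Th_smooth ex q1 q2).differentiable (by simp)

theorem Th_mono (hq : q1 < q2) : Monotone (Th 1 q1 q2) := by
  intro x y hxy
  unfold Th
  refine Real.smoothTransition.monotone ?_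
  have h0 : 0 < q2 - q1 := sub_pos.2 hq
  have : 1 * (x - (q1 + q2) / 2) / (q2 - q1) ≤ 1 * (y - (q1 + q2) / 2) / (q2 - q1) := by
    apply div_le_div_of_nonneg_right _ h0.le
    linarith
  linarith

theorem Th_anti (hq : q1 < q2) : Antitone (Th (-1) q1 q2) := by
  intro x y hxy
  unfold Th
  refine Real.smoothTransition.monotone ?_
  have h0 : 0 < q2 - q1 := sub_pos.2 hq
  have : (-1) * (y - (q1 + q2) / 2) / (q2 - q1) ≤ (-1) * (x - (q1 + q2) / 2) / (q2 - q1) := by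
    apply div_le_div_of_nonneg_right _ h0.le
    linarith
  linarith

/-- off `[q1, q2]` the derivative vanishes -/
theorem Th_deriv (hex : ex = 1 ∨ ex = -1) (hq : q1 < q2) (hx : x ∉ Icc q1 q2) :
    deriv (Th ex q1 q2) x = 0 := by
  have key : ∀ c, (∀ᶠ y in 𝓝 x, Th ex q1 q2 y = c) → deriv (Th ex q1 q2) x = 0 := by
    intro c hc
    have : Th ex q1 q2 =ᶠ[𝓝 x] fun _ => c := hc
    rw [this.deriv_eq, deriv_const]
  rcases lt_or_ge x q1 with h | h
  · have h1 : ∀ᶠ y in 𝓝 x, y < q1 := gt_mem_nhds h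
    rcases hex with rfl | rfl
    · exact key 0 (h1.mono fun y hy => (Th_one_pos hq).2.1 hy.le)
    · exact key 1 (h1.mono fun y hy => (Th_neg_pos hq).2.2 hy.le)
  · have h2 : q2 < x := by
      by_contra hcon
      exact hx ⟨h, not_lt.1 hcon⟩
    have h1 : ∀ᶠ y in 𝓝 x, q2 < y := lt_mem_nhds h2
    rcases hex with rfl | rfl
    · exact key 1 (h1.mono fun y hy => (Th_one_pos hq).2.2 hy.le)
    · exact key 0 (h1.mono fun y hy => (Th_neg_pos hq).2.1 hy.le)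

theorem stp_Th (hex : ex = 1 ∨ ex = -1) (hq : q1 < q2) : Stp (Th ex q1 q2) where
  smooth := Th_smooth ex q1 q2
  rg := Th_mem ex q1 q2
  supp := HasCompactSupport.intro (isCompact_Icc (a := q1) (b := q2)) fun _ hx =>
    Th_deriv hex hq hx

theorem rmp_Th {l h : ℝ} (hex : ex = 1 ∨ ex = -1) (hq : q1 < q2) (hl : l < q1) (hh : q2 < h) :
    Rmp (Th ex q1 q2) l h ex where
  st := stp_Th hex hq
  mono := by
    intro σ
    rcases hex with rfl | rfl
    · rw [one_mul]; exact (Th_mono hq).deriv_nonneg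
    · have h1 : Monotone fun x => - Th (-1) q1 q2 x := fun x y hxy => neg_le_neg (Th_anti hq hxy)
      have h2 := h1.deriv_nonneg (x := σ)
      rw [deriv.fun_neg] at h2
      linarith
  supp := by
    intro σ hσ
    by_contra hcon
    apply hσ
    refine Th_deriv hex hq fun h1 => hcon ⟨?_, ?_⟩
    · linarith [h1.1]
    · linarith [h1.2]
  sg := by
    rcases hex with rfl | rfl
    · exact Or.inl ⟨rfl, (Th_one_pos hq).2.1 hl.le, (Th_one_pos hq).2.2 hh.le⟩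
    · exact Or.inr ⟨rfl, (Th_neg_pos hq).2.2 hl.le, (Th_neg_pos hq).2.1 hh.le⟩

end Th

/-! ### `Re F` in the picture of the anchor -/

section pic

variable {Y : Set ℂ} {x0 φ A : ℂ → ℝ} {a b : ℕ → ℂ → ℝ} {F P : ℂ → ℂ}

/-- `Re F` in the picture `P` -/
noncomputable def xP (hi : SkA_8.Pk Y x0 b A P) (F : ℂ → ℂ) : ℂ → ℝ :=
  (P '' Yᶜ).indicator fun ζ => (F ((Uw6_913.endMap hi).inv ζ)).re

theorem xP_apply (hi : SkA_8.Pk Y x0 b A P) (F : ℂ → ℂ) {z : ℂ} (hz : z ∉ Y) :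
    xP hi F (P z) = (F z).re := by
  unfold xP
  rw [indicator_of_mem (mem_image_of_mem P hz), (Uw6_913.endMap hi).inv_left hz]

theorem xP_pu (hi : SkA_8.Pk Y x0 b A P) (F : ℂ → ℂ) {ζ : ℂ} (hζ : ζ ∉ (P '' Yᶜ)ᶜ) :
    xP hi F ζ = pu hi (fun z => (F z).re) ζ := by
  unfold xP
  rw [indicator_of_mem (not_not.1 hζ)]
  rfl

theorem lb_xP (h : SkA_8.Pk Y x0 a φ F) (hi : SkA_8.Pk Y x0 b A P) : LB (xP hi F) := by
  intro R
  obtain ⟨ρ, hρ⟩ := (Uw6_913.endMap hi).symm.bdd R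
  obtain ⟨ρ', hρ'⟩ := (Uw6_913.endMap h).bdd ρ
  refine ⟨max ρ' 0, fun ζ hζ => ?_⟩
  by_cases hV : ζ ∈ P '' Yᶜ
  · unfold xP
    rw [indicator_of_mem hV]
    refine (Complex.abs_re_le_norm _).trans ((hρ' _ ?_ ?_).trans (le_max_left _ _))
    · exact (Uw6_913.endMap hi).inv_mem hV
    · exact hρ ζ hV hζ
  · unfold xP
    rw [indicator_of_notMem hV, abs_zero]
    exact le_max_right _ _

theorem cont_xP (h : SkA_8.Pk Y x0 a φ F) (hi : SkA_8.Pk Y x0 b A P) :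
    ContinuousOn (xP hi F) (P '' Yᶜ) := by
  have h1 : ContinuousOn (fun ζ => (F ((Uw6_913.endMap hi).inv ζ)).re) (P '' Yᶜ) := by
    refine Complex.continuous_re.comp_continuousOn ?_
    exact h.hol.continuousOn.comp (Uw6_913.endMap hi).symm.cont
      fun ζ hζ => (Uw6_913.endMap hi).inv_mem hζ
  refine h1.congr fun ζ hζ => ?_
  unfold xP
  rw [indicator_of_mem hζ]

/-- `osc` of `Re F` in the picture -/
theorem osc_xP (h : SkA_8.Pk Y x0 a φ F) (hi : SkA_8.Pk Y x0 b A P) (K : Cmp Yᶜᶜ) :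
    osc (P '' Yᶜ)ᶜ (xP hi F) (corE (Uw6_913.endMap hi) K).1 = osc Yᶜᶜ φ K.1 := by
  rw [← Ta_937.osc_comp]
  have hKY : K.1 ⊆ Y := K.subset.trans (compl_compl Y).subset
  refine osc_congr (O := (tsupport x0)ᶜ) (isClosed_tsupport x0).isOpen_compl
    (fun z hz hc => h.hx.zero hc (hKY hz)) fun z hz hzU => ?_
  have hzY : z ∉ Y := by rwa [compl_compl] at hzU
  show xP hi F (P z) = φ z
  rw [xP_apply hi F hzY, h.re z hzY, image_eq_zero_of_notMem_tsupport hz, zero_add]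

theorem sum_of_cor {E' : Set ℂ} {U V : Set ℂ} {f : ℂ → ℂ} (hP : EndMap U V f) {u v : ℂ → ℝ}
    (hE' : E' = Uᶜ) (hs : Summable fun K : Cmp E' => osc E' v K.1 ^ 2)
    (ho : ∀ K : Cmp Uᶜ, osc Vᶜ u (corE hP K).1 = osc Uᶜ v K.1) :
    Summable fun L : Cmp Vᶜ => osc Vᶜ u L.1 ^ 2 := by
  subst hE'
  rw [← (corE hP).summable_iff]
  refine hs.congr fun K => ?_
  simp only [Function.comp]
  rw [ho K]

theorem sum_xP (h : SkA_8.Pk Y x0 a φ F) (hi : SkA_8.Pk Y x0 b A P) :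
    Summable fun L : Cmp (P '' Yᶜ)ᶜ => osc (P '' Yᶜ)ᶜ (xP hi F) L.1 ^ 2 :=
  sum_of_cor (Uw6_913.endMap hi) (compl_compl Y).symm h.tt.sum (osc_xP h hi)

theorem sum_re (hi : SkA_8.Pk Y x0 b A P) :
    Summable fun L : Cmp (P '' Yᶜ)ᶜ => osc (P '' Yᶜ)ᶜ (fun w => w.re) L.1 ^ 2 := by
  have h1 := (Uw6_913.picT hi).2
  refine h1.sum.congr fun L => ?_
  rw [Sqr_185.osc_re h1.cpt]
  rfl

/-! ### the function of the quadrant -/

/-- in the `z`-plane -/
noncomputable def mz (x0 A φ : ℂ → ℝ) (eu t0 : ℝ) (θ : ℝ → ℝ) (z : ℂ) : ℝ :=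
  min (eu * (x0 z + A z - t0)) (θ (x0 z + φ z))

/-- in the picture of the anchor -/
noncomputable def mP (hi : SkA_8.Pk Y x0 b A P) (F : ℂ → ℂ) (eu t0 : ℝ) (θ : ℝ → ℝ) (ζ : ℂ) : ℝ :=
  min (eu * (ζ.re - t0)) (θ (xP hi F ζ))

theorem mP_apply (h : SkA_8.Pk Y x0 a φ F) (hi : SkA_8.Pk Y x0 b A P) (eu t0 : ℝ) (θ : ℝ → ℝ)
    {z : ℂ} (hz : z ∉ Y) : mP hi F eu t0 θ (P z) = mz x0 A φ eu t0 θ z := by
  unfold mP mz
  rw [xP_apply hi F hz, h.re z hz, hi.re z hz]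

theorem lb_mP (hi : SkA_8.Pk Y x0 b A P) (F : ℂ → ℂ) (eu t0 : ℝ) {θ : ℝ → ℝ}
    (hθ : ∀ t, 0 ≤ θ t ∧ θ t ≤ 1) : LB (mP hi F eu t0 θ) := by
  intro R
  refine ⟨|eu| * (R + |t0|) + 1, fun ζ hζ => ?_⟩
  unfold mP
  have h1 : |eu * (ζ.re - t0)| ≤ |eu| * (R + |t0|) := by
    rw [abs_mul]
    refine mul_le_mul_of_nonneg_left ?_ (abs_nonneg _)
    have h2 := abs_sub ζ.re t0
    have h3 := (Complex.abs_re_le_norm ζ).trans hζ
    linarith
  have h4 := hθ (xP hi F ζ)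
  have h5 := abs_le.1 h1
  rw [abs_le]
  rcases min_cases (eu * (ζ.re - t0)) (θ (xP hi F ζ)) with ⟨h6, h7⟩ | ⟨h6, h7⟩
  · rw [h6]; constructor <;> linarith [h5.1, h5.2]
  · rw [h6]; constructor <;> linarith [h5.1, h5.2, h4.1, h4.2]

theorem cont_mP (h : SkA_8.Pk Y x0 a φ F) (hi : SkA_8.Pk Y x0 b A P) (eu t0 : ℝ) {θ : ℝ → ℝ}
    (hθ : Continuous θ) : ContinuousOn (mP hi F eu t0 θ) (P '' Yᶜ) := by
  have h1 : ContinuousOn (fun ζ : ℂ => eu * (ζ.re - t0)) (P '' Yᶜ) :=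
    (continuous_const.mul (Complex.continuous_re.sub continuous_const)).continuousOn
  have h2 : ContinuousOn (fun ζ : ℂ => θ (xP hi F ζ)) (P '' Yᶜ) :=
    hθ.comp_continuousOn (cont_xP h hi)
  exact continuous_min.comp_continuousOn (h1.prodMk h2)

end pic

/-! ### the ends are real ends -/

theorem exists_off_top {E : Set ℂ} (hE : IsCompact E) (L : Cmp E) {t : ℝ}
    (hne : (sec L.1 t).Nonempty) {η : ℝ} (hη : 0 < η) :
    ∃ v ∈ Ioo (sSup (sec L.1 t)) (sSup (sec L.1 t) + η), (⟨t, v⟩ : ℂ) ∉ E := by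
  by_contra hcon
  push Not at hcon
  have hc := Sqr_185.isCompact_sec (L.isCompact hE) t
  have hm : sSup (sec L.1 t) ∈ sec L.1 t := hc.sSup_mem hne
  have hcont : Continuous fun y : ℝ => (⟨t, y⟩ : ℂ) := Sqr_185.continuous_mk_right t
  have h1 : IsPreconnected ((fun y : ℝ => (⟨t, y⟩ : ℂ)) ''
      Ico (sSup (sec L.1 t)) (sSup (sec L.1 t) + η)) :=
    isPreconnected_Ico.image _ hcont.continuousOn
  have h2 : (fun y : ℝ => (⟨t, y⟩ : ℂ)) '' Ico (sSup (sec L.1 t)) (sSup (sec L.1 t) + η) ⊆ E := by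
    rintro _ ⟨y, hy, rfl⟩
    rcases hy.1.eq_or_lt with h | h
    · rw [← h]; exact L.subset hm
    · exact hcon y ⟨h, hy.2⟩
  have h3 := h1.subset_connectedComponentIn (x := (⟨t, sSup (sec L.1 t)⟩ : ℂ))
    ⟨sSup (sec L.1 t), ⟨le_rfl, by linarith⟩, rfl⟩ h2
  rw [Ni_459.Cmp.cc_eq L hm] at h3
  have h4 : sSup (sec L.1 t) + η / 2 ∈ sec L.1 t :=
    h3 ⟨_, ⟨by linarith, by linarith⟩, rfl⟩
  have := le_csSup hc.bddAbove h4
  linarith

theorem exists_off_bot {E : Set ℂ} (hE : IsCompact E) (L : Cmp E) {t : ℝ}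
    (hne : (sec L.1 t).Nonempty) {η : ℝ} (hη : 0 < η) :
    ∃ v ∈ Ioo (sInf (sec L.1 t) - η) (sInf (sec L.1 t)), (⟨t, v⟩ : ℂ) ∉ E := by
  by_contra hcon
  push Not at hcon
  have hc := Sqr_185.isCompact_sec (L.isCompact hE) t
  have hm : sInf (sec L.1 t) ∈ sec L.1 t := hc.sInf_mem hne
  have hcont : Continuous fun y : ℝ => (⟨t, y⟩ : ℂ) := Sqr_185.continuous_mk_right t
  have h1 : IsPreconnected ((fun y : ℝ => (⟨t, y⟩ : ℂ)) ''
      Ioc (sInf (sec L.1 t) - η) (sInf (sec L.1 t))) :=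
    isPreconnected_Ioc.image _ hcont.continuousOn
  have h2 : (fun y : ℝ => (⟨t, y⟩ : ℂ)) '' Ioc (sInf (sec L.1 t) - η) (sInf (sec L.1 t)) ⊆ E := by
    rintro _ ⟨y, hy, rfl⟩
    rcases hy.2.eq_or_lt with h | h
    · rw [h]; exact L.subset hm
    · exact hcon y ⟨hy.1, h⟩
  have h3 := h1.subset_connectedComponentIn (x := (⟨t, sInf (sec L.1 t)⟩ : ℂ))
    ⟨sInf (sec L.1 t), ⟨by linarith, le_rfl⟩, rfl⟩ h2
  rw [Ni_459.Cmp.cc_eq L hm] at h3
  have h4 : sInf (sec L.1 t) - η / 2 ∈ sec L.1 t :=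
    h3 ⟨_, ⟨by linarith, by linarith⟩, rfl⟩
  have := csInf_le hc.bddBelow h4
  linarith

theorem neBot_top {E : Set ℂ} (hE : IsCompact E) (L : Cmp E) {t : ℝ}
    (hne : (sec L.1 t).Nonempty) : (TopF E L.1 t).NeBot := by
  unfold TopF
  rw [← mem_closure_iff_nhdsWithin_neBot, Metric.mem_closure_iff]
  intro ε hε
  obtain ⟨v, hv, hvE⟩ := exists_off_top hE L hne hε
  refine ⟨v, ⟨hvE, hv.1⟩, ?_⟩
  rw [Real.dist_eq, abs_lt]
  constructor <;> linarith [hv.1, hv.2]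

theorem neBot_bot {E : Set ℂ} (hE : IsCompact E) (L : Cmp E) {t : ℝ}
    (hne : (sec L.1 t).Nonempty) : (BotF E L.1 t).NeBot := by
  unfold BotF
  rw [← mem_closure_iff_nhdsWithin_neBot, Metric.mem_closure_iff]
  intro ε hε
  obtain ⟨v, hv, hvE⟩ := exists_off_bot hE L hne hε
  refine ⟨v, ⟨hvE, hv.2⟩, ?_⟩
  rw [Real.dist_eq, abs_lt]
  constructor <;> linarith [hv.1, hv.2]

/-! ### points of a side near the solid -/

/-- near a component of a picture there are points on each side of an interior abscissa -/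
theorem freq_pic {E : Set ℂ} (L : Cmp E) {p : ℂ} (hp : p ∈ L.1) (hcl : p ∈ closure Eᶜ) {ex q : ℝ}
    (hpq : ex * p.re < ex * q) : ∃ᶠ w in eK E L.1, ex * w.re < ex * q := by
  intro hcon
  obtain ⟨O, hO, hLO, h1⟩ := mem_eK.1 hcon
  have hop : IsOpen (O ∩ {w : ℂ | ex * w.re < ex * q}) :=
    hO.inter (isOpen_lt (continuous_const.mul Complex.continuous_re) continuous_const)
  obtain ⟨w, ⟨hw1, hw2⟩, hw3⟩ := mem_closure_iff.1 hcl _ hop ⟨hLO hp, hpq⟩
  exact h1 w hw1 hw3 hw2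

theorem freq_side {Y : Set ℂ} {x0 φ : ℂ → ℝ} {a : ℕ → ℂ → ℝ} {F : ℂ → ℂ}
    (h : SkA_8.Pk Y x0 a φ F) (K : Cmp Yᶜᶜ) {ex q : ℝ} (hex : ex = 1 ∨ ex = -1)
    (hl : Sqr_185.lo (cF h K).1 < q) (hh : q < Sqr_185.hi (cF h K).1) :
    ∃ᶠ z in eK Yᶜᶜ K.1, ex * (F z).re < ex * q := by
  have hE : IsCompact (F '' Yᶜ)ᶜ := (Uw6_913.picT h).2.cpt
  have hc := (cF h K).isCompact hE
  have key : ∃ᶠ w in eK (F '' Yᶜ)ᶜ (cF h K).1, ex * w.re < ex * q := by
    rcases hex with rfl | rfl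
    · obtain ⟨p, hp, h1⟩ := Sqr_185.exists_lo hc (cF h K).nonempty
      refine freq_pic _ hp (Sqr_185.lo_mem_closure _ hp fun w hw => ?_) (by linarith)
      rw [h1]; exact Sqr_185.lo_le hc hw
    · obtain ⟨p, hp, h1⟩ := Sqr_185.exists_hi hc (cF h K).nonempty
      refine freq_pic _ hp (Sqr_185.hi_mem_closure _ hp fun w hw => ?_) (by linarith)
      rw [h1]; exact Sqr_185.le_hi hc hw
  unfold cF at key
  rwa [← map_corE, frequently_map] at key

end Crest.Agent.R105.Atl_948
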