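import Crest.Agent.R105.Atl2_948

/-!
# Row 105, S0138, node E13: ATNE from PTW, part 3: the logic (helper948)

`atne (hPTW : E13_499.PTW) : E13_499.ATNE`
-/

set_option autoImplicit false

open MeasureTheory Set Filter Topology Metric
open scoped NNReal ENNReal ContDiff

namespace Crest.Agent.R105.Atl_948

open Crest.AnalysisR (IsExteriorDomain)
open Ni_459 (LB Nb nb_of_mem nb_of_notMem isOpen_lt_lo lo_congr_cc lo_of_notMem le_lo
  exists_gt_of_lt_lo exists_lt_of_up_lt cpt_of)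
open Tc_808 Bd_775 Ends_897
open Pct_185 (PicT)
open Sqr_185 (sec SqK)
open Ta_937 (corE map_corE eK_mem)
open E13_499 (Stp Rmp cF pu TopF BotF InT InB PTW ATNE Ed Uc)

/-! ### elementary -/

theorem arith_one {e y be s lT lB n m y' : ℝ} (he : e = 1 ∨ e = -1) (hT : lT ∈ Icc (0 : ℝ) 1)
    (hB : lB ∈ Icc (0 : ℝ) 1) (hn : n = 1) (hm : m = 0)
    (h1 : e * (n - m) + lT - lB = 0)
    (h2 : e * (n * y - m * y') + lT * (be + s) - lB * be ∈ Icc 0 s) : y ∈ Icc be (be + s) := by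
  subst hn hm
  obtain ⟨h3, h4⟩ := h2
  rcases he with rfl | rfl
  · have hB1 : lB = 1 := by linarith [hT.1, hB.2]
    have hT0 : lT = 0 := by linarith [hT.1, hB.2]
    subst hB1 hT0
    constructor <;> linarith
  · have hT1 : lT = 1 := by linarith [hT.2, hB.1]
    have hB0 : lB = 0 := by linarith [hT.2, hB.1]
    subst hT1 hB0
    constructor <;> linarith

theorem arith_two {e y be s lT lB n m y' : ℝ} (he : e = 1 ∨ e = -1) (hT : lT ∈ Icc (0 : ℝ) 1)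
    (hB : lB ∈ Icc (0 : ℝ) 1) (hn : n = 1) (hm : m = 0)
    (h1 : e * (m - n) + lT - lB = 0)
    (h2 : e * (m * y' - n * y) + lT * (be + s) - lB * be ∈ Icc 0 s) : y ∈ Icc be (be + s) := by
  refine arith_one (e := -e) (y' := y') (n := n) (m := m) ?_ hT hB hn hm ?_ ?_
  · rcases he with rfl | rfl <;> norm_num
  · linear_combination h1
  · have h3 : -e * (n * y - m * y') + lT * (be + s) - lB * be =
        e * (m * y' - n * y) + lT * (be + s) - lB * be := by ring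
    rw [h3]; exact h2

/-- choice of the step -/
theorem choose_step {l h x x' : ℝ} (hlh : l < h) : ∃ ex : ℝ, (ex = 1 ∨ ex = -1) ∧ ∃ q1 q2 : ℚ,
    (q1 : ℝ) < q2 ∧ l < q1 ∧ (q2 : ℝ) < h ∧ Th ex q1 q2 x = 1 ∧
    (Th ex q1 q2 x' = 0 ∨ Th ex q1 q2 x' = 1) := by
  rcases lt_or_ge l x with hx | hx
  · have hc : l < min x h := lt_min hx hlh
    by_cases h1 : l < x' ∧ x' < min x h
    · obtain ⟨q1, hq1, hq1'⟩ := exists_rat_btwn h1.2
      obtain ⟨q2, hq2, hq2'⟩ := exists_rat_btwn hq1'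
      refine ⟨1, Or.inl rfl, q1, q2, hq2, h1.1.trans hq1, hq2'.trans_le (min_le_right _ _), ?_,
        Or.inl ?_⟩
      · exact (Th_one_pos hq2).2.2 (hq2'.trans_le (min_le_left _ _)).le
      · exact (Th_one_pos hq2).2.1 hq1.le
    · obtain ⟨q1, hq1, hq1'⟩ := exists_rat_btwn hc
      obtain ⟨q2, hq2, hq2'⟩ := exists_rat_btwn hq1'
      refine ⟨1, Or.inl rfl, q1, q2, hq2, hq1, hq2'.trans_le (min_le_right _ _), ?_, ?_⟩
      · exact (Th_one_pos hq2).2.2 (hq2'.trans_le (min_le_left _ _)).le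
      · rcases le_or_gt x' l with h2 | h2
        · exact Or.inl ((Th_one_pos hq2).2.1 (h2.trans hq1.le))
        · refine Or.inr ((Th_one_pos hq2).2.2 (hq2'.le.trans ?_))
          by_contra hcon
          exact h1 ⟨h2, not_le.1 hcon⟩
  · have hc : max x l < h := max_lt (hx.trans_lt hlh) hlh
    by_cases h1 : max x l < x' ∧ x' < h
    · obtain ⟨q1, hq1, hq1'⟩ := exists_rat_btwn h1.1
      obtain ⟨q2, hq2, hq2'⟩ := exists_rat_btwn hq1'
      refine ⟨-1, Or.inr rfl, q1, q2, hq2, (le_max_right _ _).trans_lt hq1, hq2'.trans h1.2, ?_,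
        Or.inl ?_⟩
      · exact (Th_neg_pos hq2).2.2 ((le_max_left _ _).trans hq1.le)
      · exact (Th_neg_pos hq2).2.1 hq2'.le
    · obtain ⟨q1, hq1, hq1'⟩ := exists_rat_btwn hc
      obtain ⟨q2, hq2, hq2'⟩ := exists_rat_btwn hq1'
      refine ⟨-1, Or.inr rfl, q1, q2, hq2, (le_max_right _ _).trans_lt hq1, hq2', ?_, ?_⟩
      · exact (Th_neg_pos hq2).2.2 ((le_max_left _ _).trans hq1.le)
      · rcases le_or_gt h x' with h2 | h2
        · exact Or.inl ((Th_neg_pos hq2).2.1 (hq2'.le.trans h2))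
        · refine Or.inr ((Th_neg_pos hq2).2.2 (le_trans ?_ hq1.le))
          by_contra hcon
          exact h1 ⟨not_le.1 hcon, h2⟩

theorem Th_pos_side {ex q1 q2 : ℝ} (hex : ex = 1 ∨ ex = -1) (hq : q1 < q2) :
    ∃ q0 ∈ Icc q1 q2, ∀ x, 0 < Th ex q1 q2 x → ex * q0 < ex * x := by
  rcases hex with rfl | rfl
  · refine ⟨q1, ⟨le_rfl, hq.le⟩, fun x hx => ?_⟩
    have := (Th_one_pos hq).1 hx
    linarith
  · refine ⟨q2, ⟨hq.le, le_rfl⟩, fun x hx => ?_⟩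
    have := (Th_neg_pos hq).1 hx
    linarith

/-! ### the two pictures -/

section

variable {Y : Set ℂ} {x0 φ : ℂ → ℝ} {a b : ℕ → ℂ → ℝ} {F P : ℂ → ℂ} {i : ℕ}

/-- the trace of a component of the quadrant region -/
def Oz (hi : SkA_8.Pk Y x0 b (a i) P) (F : ℂ → ℂ) (K : Cmp Yᶜᶜ) (eu t0 : ℝ) (θ : ℝ → ℝ) (r : ℂ) :
    Set ℂ := {z | z ∉ Y ∧ P z ∈ Rg (P '' Yᶜ)ᶜ (cF hi K).1 (mP hi F eu t0 θ) r}

open Classical in
/-- the conclusion of `PTW` -/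
def Bl (hi : SkA_8.Pk Y x0 b (a i) P) (K : Cmp Yᶜᶜ) (be s ex eu : ℝ) (θ : ℝ → ℝ) (O : Set ℂ)
    (xT xB yT yB : ℝ → ℝ) (t : ℝ) : Prop :=
  ∃ lT ∈ Icc (0 : ℝ) 1, ∃ lB ∈ Icc (0 : ℝ) 1,
      eu * ex * ((if InT hi K O t then θ (xT t) ^ 2 else 0) -
        (if InB hi K O t then θ (xB t) ^ 2 else 0)) + lT - lB = 0 ∧
      eu * ex * ((if InT hi K O t then θ (xT t) ^ 2 else 0) * yT t -
        (if InB hi K O t then θ (xB t) ^ 2 else 0) * yB t) + lT * (be + s) - lB * be ∈ Icc 0 s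

variable (h : SkA_8.Pk Y x0 a φ F) (hi : SkA_8.Pk Y x0 b (a i) P) (K : Cmp Yᶜᶜ)

include hi in
theorem extE : IsExteriorDomain (P '' Yᶜ)ᶜᶜ := by
  rw [compl_compl]; exact (Uw6_913.endMap hi).hV

include h in
theorem uc_Oz (eu t0 ex q1 q2 : ℝ) (r : ℂ) :
    Uc Y K.1 (fun z => min (eu * (x0 z + a i z - t0)) (Th ex q1 q2 (x0 z + φ z)))
      (Oz hi F K eu t0 (Th ex q1 q2) r) :=
  uc_of (Uw6_913.endMap hi) K (m := mz x0 (a i) φ eu t0 (Th ex q1 q2))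
    (fun _ hz => mP_apply h hi eu t0 _ hz) (lb_mP hi F eu t0 (Th_mem ex q1 q2))
    (cont_mP h hi eu t0 (Th_smooth ex q1 q2).continuous) r

/-- membership of the inverse image -/
theorem inv_mem_Oz {eu t0 : ℝ} {θ : ℝ → ℝ} {r ζ : ℂ} (hζ : ζ ∉ (P '' Yᶜ)ᶜ) :
    (Uw6_913.endMap hi).inv ζ ∈ Oz hi F K eu t0 θ r ↔
      ζ ∈ Rg (P '' Yᶜ)ᶜ (cF hi K).1 (mP hi F eu t0 θ) r := by
  have hV : ζ ∈ P '' Yᶜ := not_not.1 hζ
  unfold Oz
  rw [mem_ofPred_eq, (Uw6_913.endMap hi).inv_right hV]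
  exact ⟨fun h => h.2, fun h => ⟨(Uw6_913.endMap hi).inv_mem hV, h⟩⟩

/-- all PTW instances which are needed -/
theorem ae_bl (hPTW : PTW) {be s : ℝ} {xT xB yT yB vT vB : ℝ → ℝ} (hs : 0 < s)
    (hsq : SqK (cF h K).1 (Sqr_185.lo (cF h K).1) be s) (hwd : s = Sqr_185.wd (cF h K).1)
    (hEd : Ed h hi K xT xB yT yB vT vB) {ex eu : ℝ} (hex : ex = 1 ∨ ex = -1)
    (heu : eu = 1 ∨ eu = -1) :
    ∀ᵐ t : ℝ, ∀ q1 q2 t0 : ℚ, ∀ n : ℕ, (q1 : ℝ) < q2 → Sqr_185.lo (cF h K).1 < q1 →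
      (q2 : ℝ) < Sqr_185.hi (cF h K).1 →
      (t0 : ℝ) ∈ Icc (Sqr_185.lo (cF hi K).1) (Sqr_185.hi (cF hi K).1) →
      t ∈ Ioo (Sqr_185.lo (cF hi K).1) (Sqr_185.hi (cF hi K).1) → 0 < eu * (t - t0) →
      Bl hi K be s ex eu (Th ex q1 q2)
        (Oz hi F K eu t0 (Th ex q1 q2) (TopologicalSpace.denseSeq ℂ n)) xT xB yT yB t := by
  rw [ae_all_iff]; intro q1
  rw [ae_all_iff]; intro q2
  rw [ae_all_iff]; intro t0
  rw [ae_all_iff]; intro n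
  by_cases hq : (q1 : ℝ) < q2
  swap
  · exact Eventually.of_forall fun t h1 => absurd h1 hq
  by_cases hl : Sqr_185.lo (cF h K).1 < q1
  swap
  · exact Eventually.of_forall fun t _ h1 => absurd h1 hl
  by_cases hh : (q2 : ℝ) < Sqr_185.hi (cF h K).1
  swap
  · exact Eventually.of_forall fun t _ _ h1 => absurd h1 hh
  by_cases ht0 : (t0 : ℝ) ∈ Icc (Sqr_185.lo (cF hi K).1) (Sqr_185.hi (cF hi K).1)
  swap
  · exact Eventually.of_forall fun t _ _ _ h1 => absurd h1 ht0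
  have h1 := hPTW Y x0 φ a b F P i K (Th ex q1 q2)
    (Oz hi F K eu t0 (Th ex q1 q2) (TopologicalSpace.denseSeq ℂ n)) h hi be s ex eu t0
    xT xB yT yB vT vB hs hsq hwd hEd (rmp_Th hex hq hl hh) heu ht0 (uc_Oz h hi K eu t0 ex q1 q2 _)
  filter_upwards [h1] with t ht _ _ _ _ ht1 ht2
  exact ht ht1 ht2

/-- the neighbourhood of the value -/
theorem exists_g0 {eu t t0 x : ℝ} {θ : ℝ → ℝ} (heu : eu = 1 ∨ eu = -1) (ht : 0 < eu * (t - t0))
    (hθ : Continuous θ) (hx : θ x = 1) : ∃ ε > 0, ∃ g0 > 0, ∀ u x', |u - t| < ε → |x' - x| < ε →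
      g0 ≤ min (eu * (u - t0)) (θ x') := by
  have h1 : ∀ᶠ x' in 𝓝 x, 1 / 2 < θ x' :=
    hθ.continuousAt.eventually (lt_mem_nhds (by rw [hx]; norm_num))
  obtain ⟨ε, hε, h2⟩ := Metric.eventually_nhds_iff.1 h1
  refine ⟨min ε (eu * (t - t0) / 2), lt_min hε (by linarith), min (1 / 2) (eu * (t - t0) / 2),
    lt_min (by norm_num) (by linarith), fun u x' hu hx' => le_min ?_ ?_⟩
  · refine (min_le_right _ _).trans ?_
    have h3 := hu.trans_le (min_le_right _ _)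
    rcases heu with rfl | rfl
    · have := (abs_lt.1 h3).1; linarith
    · have := (abs_lt.1 h3).2; linarith
  · have h3 : |x' - x| < ε := hx'.trans_le (min_le_left _ _)
    have h4 : 1 / 2 < θ x' := h2 (y := x') (by rw [Real.dist_eq]; exact h3)
    exact (min_le_left _ _).trans h4.le

theorem mk_add_I (t y r : ℝ) : (⟨t, y⟩ : ℂ) + r • Complex.I = ⟨t, y + r⟩ := by
  apply Complex.ext <;> simp

theorem mk_sub_I (t y r : ℝ) : (⟨t, y⟩ : ℂ) + r • (-Complex.I) = ⟨t, y - r⟩ := by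
  apply Complex.ext <;> simp [sub_eq_add_neg]

include h in
/-- the end germ of a segment lies in one component of the region -/
theorem germ_gen {eu t0 t x η0 : ℝ} {ex q1 q2 : ℝ} {p v : ℂ} (heu : eu = 1 ∨ eu = -1)
    (ht : 0 < eu * (t - t0)) (hx : Th ex q1 q2 x = 1) (hp : p ∈ (cF hi K).1) (h0 : 0 < η0)
    (hoff : ∀ r ∈ Ioo (0 : ℝ) η0, p + r • v ∉ (cF hi K).1) (hre : ∀ r : ℝ, (p + r • v).re = t)
    (hl : Lm (P '' Yᶜ)ᶜ (xP hi F) p v x) :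
    ∃ η > 0, ∃ n : ℕ, ∀ r ∈ Ioo (0 : ℝ) η, p + r • v ∈
      Rg (P '' Yᶜ)ᶜ (cF hi K).1 (mP hi F eu t0 (Th ex q1 q2)) (TopologicalSpace.denseSeq ℂ n) := by
  have hE := extE hi
  have hEo : IsOpen (P '' Yᶜ) := (Uw6_913.endMap hi).hV.1
  obtain ⟨ε, hε, g0, hg0, hG⟩ := exists_g0 heu ht (Th_smooth ex q1 q2).continuous hx
  obtain ⟨η, hη, h1⟩ := tail_Wr (m := mP hi F eu t0 (Th ex q1 q2)) hE (f1 := fun w => w.re)
    (LB.of_cont Complex.continuous_re) (lb_xP h hi)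
    (fun w _ => Complex.continuous_re.continuousAt)
    (fun w hw => (cont_xP h hi).continuousAt (hEo.mem_nhds (not_not.1 hw))) (sum_re hi)
    (sum_xP h hi) (cF hi K) hp h0 hoff
    (x1 := t) (x2 := x) (fun ε hε => ⟨1, one_pos, fun r _ _ => by
      show |(p + r • v).re - t| < ε
      rw [hre r, sub_self, abs_zero]; exact hε⟩) hl (lb_mP hi F eu t0 (Th_mem ex q1 q2)) hε hg0
    (fun w _ h2 h3 => hG _ _ h2 h3)
  have hmem := h1 (η / 2) ⟨by linarith, by linarith⟩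
  obtain ⟨r0, ⟨n, rfl⟩, hn⟩ := exists_base hE (lb_mP hi F eu t0 (Th_mem ex q1 q2)) (cF hi K)
    (TopologicalSpace.denseRange_denseSeq ℂ) hmem
  refine ⟨η, hη, n, fun r hr => ?_⟩
  have hcont : Continuous fun r' : ℝ => p + r' • v := by fun_prop
  have h2 : IsPreconnected ((fun r' : ℝ => p + r' • v) '' Ioo 0 η) :=
    isPreconnected_Ioo.image _ hcont.continuousOn
  refine sub_Rg h2 ?_ ⟨η / 2, ⟨by linarith, by linarith⟩, rfl⟩ hn ⟨r, hr, rfl⟩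
  rintro _ ⟨r', hr', rfl⟩
  exact h1 r' hr'

include h in
theorem germ_top {eu t0 t x : ℝ} {ex q1 q2 : ℝ} (heu : eu = 1 ∨ eu = -1)
    (ht : 0 < eu * (t - t0)) (hx : Th ex q1 q2 x = 1) (hne : (sec (cF hi K).1 t).Nonempty)
    (hl : Tendsto (fun v : ℝ => pu hi (fun z => (F z).re) ⟨t, v⟩)
      (TopF (P '' Yᶜ)ᶜ (cF hi K).1 t) (𝓝 x)) :
    ∃ n : ℕ, InT hi K (Oz hi F K eu t0 (Th ex q1 q2) (TopologicalSpace.denseSeq ℂ n)) t := by
  have hEc : IsCompact (P '' Yᶜ)ᶜ := (Uw6_913.picT hi).2.cpt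
  have hc := Sqr_185.isCompact_sec ((cF hi K).isCompact hEc) t
  have hm : sSup (sec (cF hi K).1 t) ∈ sec (cF hi K).1 t := hc.sSup_mem hne
  obtain ⟨η, hη, n, h1⟩ := germ_gen h hi K (p := ⟨t, sSup (sec (cF hi K).1 t)⟩) (v := Complex.I)
    (η0 := 1) heu ht hx hm one_pos (fun r hr hmem => by
      rw [mk_add_I] at hmem
      have := le_csSup hc.bddAbove (show _ ∈ sec (cF hi K).1 t from hmem)
      linarith [hr.1]) (fun r => by rw [mk_add_I]) (by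
      intro ε hε
      have h2 := hl.eventually (Metric.ball_mem_nhds x hε)
      unfold TopF at h2
      rw [eventually_nhdsWithin_iff, Metric.eventually_nhds_iff] at h2
      obtain ⟨δ, hδ, h3⟩ := h2
      refine ⟨δ, hδ, fun r hr hrE => ?_⟩
      rw [mk_add_I] at hrE ⊢
      rw [xP_pu hi F hrE]
      have h4 := h3 (y := sSup (sec (cF hi K).1 t) + r) (by
        rw [Real.dist_eq, abs_lt]; constructor <;> linarith [hr.1, hr.2])
        ⟨hrE, by linarith [hr.1]⟩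
      rwa [Real.dist_eq] at h4)
  refine ⟨n, ?_⟩
  unfold InT TopF
  rw [eventually_nhdsWithin_iff, Metric.eventually_nhds_iff]
  refine ⟨η, hη, fun v hv hvS => ?_⟩
  rw [inv_mem_Oz hi K hvS.1]
  have h2 := h1 (v - sSup (sec (cF hi K).1 t)) (by
    rw [Real.dist_eq, abs_lt] at hv
    have := hvS.2
    constructor <;> linarith [hv.2])
  rwa [mk_add_I, add_sub_cancel] at h2

include h in
theorem germ_bot {eu t0 t x : ℝ} {ex q1 q2 : ℝ} (heu : eu = 1 ∨ eu = -1)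
    (ht : 0 < eu * (t - t0)) (hx : Th ex q1 q2 x = 1) (hne : (sec (cF hi K).1 t).Nonempty)
    (hl : Tendsto (fun v : ℝ => pu hi (fun z => (F z).re) ⟨t, v⟩)
      (BotF (P '' Yᶜ)ᶜ (cF hi K).1 t) (𝓝 x)) :
    ∃ n : ℕ, InB hi K (Oz hi F K eu t0 (Th ex q1 q2) (TopologicalSpace.denseSeq ℂ n)) t := by
  have hEc : IsCompact (P '' Yᶜ)ᶜ := (Uw6_913.picT hi).2.cpt
  have hc := Sqr_185.isCompact_sec ((cF hi K).isCompact hEc) t
  have hm : sInf (sec (cF hi K).1 t) ∈ sec (cF hi K).1 t := hc.sInf_mem hne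
  obtain ⟨η, hη, n, h1⟩ := germ_gen h hi K (p := ⟨t, sInf (sec (cF hi K).1 t)⟩)
    (v := -Complex.I) (η0 := 1) heu ht hx hm one_pos (fun r hr hmem => by
      rw [mk_sub_I] at hmem
      have := csInf_le hc.bddBelow (show _ ∈ sec (cF hi K).1 t from hmem)
      linarith [hr.1]) (fun r => by rw [mk_sub_I]) (by
      intro ε hε
      have h2 := hl.eventually (Metric.ball_mem_nhds x hε)
      unfold BotF at h2
      rw [eventually_nhdsWithin_iff, Metric.eventually_nhds_iff] at h2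
      obtain ⟨δ, hδ, h3⟩ := h2
      refine ⟨δ, hδ, fun r hr hrE => ?_⟩
      rw [mk_sub_I] at hrE ⊢
      rw [xP_pu hi F hrE]
      have h4 := h3 (y := sInf (sec (cF hi K).1 t) - r) (by
        rw [Real.dist_eq, abs_lt]; constructor <;> linarith [hr.1, hr.2])
        ⟨hrE, by linarith [hr.1]⟩
      rwa [Real.dist_eq] at h4)
  refine ⟨n, ?_⟩
  unfold InB BotF
  rw [eventually_nhdsWithin_iff, Metric.eventually_nhds_iff]
  refine ⟨η, hη, fun v hv hvS => ?_⟩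
  rw [inv_mem_Oz hi K hvS.1]
  have h2 := h1 (sInf (sec (cF hi K).1 t) - v) (by
    rw [Real.dist_eq, abs_lt] at hv
    have := hvS.2
    constructor <;> linarith [hv.1])
  rwa [mk_sub_I, sub_sub_cancel] at h2

include h in
/-- **no two ends on both sides** -/
theorem clash {t t1 t2 : ℝ} {ex q1 q2 : ℝ} {r1 r2 : ℂ} (hex : ex = 1 ∨ ex = -1) (hq : q1 < q2)
    (hl : Sqr_185.lo (cF h K).1 < q1) (hh : q2 < Sqr_185.hi (cF h K).1)
    (ht : t ∈ Ioo (Sqr_185.lo (cF hi K).1) (Sqr_185.hi (cF hi K).1))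
    (ht1 : Sqr_185.lo (cF hi K).1 ≤ t1) (ht2 : t2 ≤ Sqr_185.hi (cF hi K).1)
    (hT1 : InT hi K (Oz hi F K 1 t1 (Th ex q1 q2) r1) t)
    (hB1 : InB hi K (Oz hi F K 1 t1 (Th ex q1 q2) r1) t)
    (hT2 : InT hi K (Oz hi F K (-1) t2 (Th ex q1 q2) r2) t)
    (hB2 : InB hi K (Oz hi F K (-1) t2 (Th ex q1 q2) r2) t) : False := by
  have hpic := (Uw6_913.picT hi).2
  have hEc : IsCompact (P '' Yᶜ)ᶜ := hpic.cpt
  have hE := extE hi
  have hLc := (cF hi K).isCompact hEc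
  have hne : (sec (cF hi K).1 t).Nonempty := Sqr_185.sec_nonempty hLc (cF hi K).preconn
    (cF hi K).nonempty ⟨ht.1.le, ht.2.le⟩
  have hc := Sqr_185.isCompact_sec hLc t
  -- the points `c`, `d`
  obtain ⟨v1, ⟨h1a, h1b⟩, h1E, h1v⟩ : ∃ v1, ((Uw6_913.endMap hi).inv ⟨t, v1⟩ ∈
      Oz hi F K 1 t1 (Th ex q1 q2) r1 ∧ (Uw6_913.endMap hi).inv ⟨t, v1⟩ ∈
      Oz hi F K (-1) t2 (Th ex q1 q2) r2) ∧ (⟨t, v1⟩ : ℂ) ∉ (P '' Yᶜ)ᶜ ∧
      sSup (sec (cF hi K).1 t) < v1 := by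
    have := neBot_top hEc (cF hi K) hne
    have h3 : ∀ᶠ v in TopF (P '' Yᶜ)ᶜ (cF hi K).1 t, (⟨t, v⟩ : ℂ) ∉ (P '' Yᶜ)ᶜ ∧
        sSup (sec (cF hi K).1 t) < v := self_mem_nhdsWithin
    exact ((hT1.and hT2).and h3).exists
  obtain ⟨v2, ⟨h2a, h2b⟩, h2E, h2v⟩ : ∃ v2, ((Uw6_913.endMap hi).inv ⟨t, v2⟩ ∈
      Oz hi F K 1 t1 (Th ex q1 q2) r1 ∧ (Uw6_913.endMap hi).inv ⟨t, v2⟩ ∈
      Oz hi F K (-1) t2 (Th ex q1 q2) r2) ∧ (⟨t, v2⟩ : ℂ) ∉ (P '' Yᶜ)ᶜ ∧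
      v2 < sInf (sec (cF hi K).1 t) := by
    have := neBot_bot hEc (cF hi K) hne
    have h3 : ∀ᶠ v in BotF (P '' Yᶜ)ᶜ (cF hi K).1 t, (⟨t, v⟩ : ℂ) ∉ (P '' Yᶜ)ᶜ ∧
        v < sInf (sec (cF hi K).1 t) := self_mem_nhdsWithin
    exact ((hB1.and hB2).and h3).exists
  rw [inv_mem_Oz hi K h1E] at h1a h1b
  rw [inv_mem_Oz hi K h2E] at h2a h2b
  -- the square
  have hw : 0 < Sqr_185.wd (cF hi K).1 := by
    unfold Sqr_185.wd; linarith [ht.1.trans ht.2]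
  obtain ⟨B, hB⟩ := hpic.sq (cF hi K) hw
  have hAS : Sqr_185.lo (cF hi K).1 + Sqr_185.wd (cF hi K).1 = Sqr_185.hi (cF hi K).1 := by
    unfold Sqr_185.wd; ring
  have htI : t ∈ Icc (Sqr_185.lo (cF hi K).1)
      (Sqr_185.lo (cF hi K).1 + Sqr_185.wd (cF hi K).1) := by
    rw [hAS]; exact ⟨ht.1.le, ht.2.le⟩
  have hpL : (⟨t, B + Sqr_185.wd (cF hi K).1 / 2⟩ : ℂ) ∈ (cF hi K).1 :=
    hB.sub _ htI ⟨by simp only; linarith, by simp only; linarith⟩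
  have htop : B + Sqr_185.wd (cF hi K).1 ≤ sSup (sec (cF hi K).1 t) :=
    le_csSup hc.bddAbove (show (⟨t, B + Sqr_185.wd (cF hi K).1⟩ : ℂ) ∈ (cF hi K).1 from
      hB.sub _ htI ⟨by simp only; linarith, by simp only; linarith⟩)
  have hbot : sInf (sec (cF hi K).1 t) ≤ B :=
    csInf_le hc.bddBelow (show (⟨t, B⟩ : ℂ) ∈ (cF hi K).1 from
      hB.sub _ htI ⟨by simp only; linarith, by simp only; linarith⟩)
  have hcc : connectedComponentIn (P '' Yᶜ)ᶜ (⟨t, B + Sqr_185.wd (cF hi K).1 / 2⟩ : ℂ) =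
      (cF hi K).1 := Ni_459.Cmp.cc_eq (cF hi K) hpL
  have hpV : (⟨t, B + Sqr_185.wd (cF hi K).1 / 2⟩ : ℂ) ∉ P '' Yᶜ := (cF hi K).subset hpL
  obtain ⟨z₀, hz₀, hKz⟩ := K.2
  have hKz' : connectedComponentIn Yᶜᶜ z₀ = K.1 := hKz.symm
  have htend : Tendsto P (eF Yᶜ z₀)
      (eF (P '' Yᶜ) (⟨t, B + Sqr_185.wd (cF hi K).1 / 2⟩ : ℂ)) := by
    rw [← eK_eq_eF, ← eK_eq_eF, hcc, hKz']
    exact Ta_937.tendsto_corE (Uw6_913.endMap hi) K
  obtain ⟨q0, hq0, hside⟩ := Th_pos_side hex hq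
  have hfreq := freq_side h K hex (hl.trans_le hq0.1) (hq0.2.trans_lt hh)
  have hm : ∀ (eu t0 : ℝ) (r : ℂ), ∀ z ∈ Yᶜ, -(ex * q0) < (-ex) * (F z).re →
      P z ∉ Rg (P '' Yᶜ)ᶜ (cF hi K).1 (mP hi F eu t0 (Th ex q1 q2)) r \ (P '' Yᶜ)ᶜ := by
    intro eu t0 r z hz hzq hzR
    have h3 := Wr_off hE (lb_mP hi F eu t0 (Th_mem ex q1 q2)) (by
      rw [compl_compl]; exact cont_mP h hi eu t0 (Th_smooth ex q1 q2).continuous) hzR.2
      (Rg_sub _ _ hzR.1)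
    rw [mP_apply h hi eu t0 _ hz] at h3
    have h4 := (lt_min_iff.1 h3).2
    rw [← h.re z hz] at h4
    have := hside _ h4
    linarith
  refine Lop2_948.not_both h (Uw6_913.endMap hi) hpV htend
    (A := Sqr_185.lo (cF hi K).1) (B := B) (S := Sqr_185.wd (cF hi K).1) (by rw [hcc]; exact hB)
    htI.1 htI.2 ⟨by simp only; linarith, by simp only; linarith⟩
    (σ := -ex) (t := -(ex * q0)) (by rcases hex with rfl | rfl <;> simp)
    (by
      rw [← eK_eq_eF, hKz']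
      exact hfreq.mono fun z hz => by linarith)
    (O₁ := Rg (P '' Yᶜ)ᶜ (cF hi K).1 (mP hi F 1 t1 (Th ex q1 q2)) r1 \ (P '' Yᶜ)ᶜ)
    (O₂ := Rg (P '' Yᶜ)ᶜ (cF hi K).1 (mP hi F (-1) t2 (Th ex q1 q2)) r2 \ (P '' Yᶜ)ᶜ)
    (c := ⟨t, v1⟩) (d := ⟨t, v2⟩)
    ((isOpen_Rg hE (lb_mP hi F _ _ (Th_mem ex q1 q2)) _ _).sdiff hEc.isClosed)
    (preconn_Rg_diff hE (lb_mP hi F _ _ (Th_mem ex q1 q2)) _ _)
    ((isOpen_Rg hE (lb_mP hi F _ _ (Th_mem ex q1 q2)) _ _).sdiff hEc.isClosed)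
    (preconn_Rg_diff hE (lb_mP hi F _ _ (Th_mem ex q1 q2)) _ _) ?_ ?_
    ⟨h1a, h1E⟩ ⟨h1b, h1E⟩ ⟨h2a, h2E⟩ ⟨h2b, h2E⟩ rfl rfl (by simp only; linarith)
    (by simp only; linarith) ?_ ?_ (hm _ _ _) (hm _ _ _)
  · intro z hz
    have h3 := Wr_off hE (lb_mP hi F 1 t1 (Th_mem ex q1 q2)) (by
      rw [compl_compl]; exact cont_mP h hi 1 t1 (Th_smooth ex q1 q2).continuous) hz.2
      (Rg_sub _ _ hz.1)
    have h4 := (lt_min_iff.1 h3).1
    linarith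
  · intro z hz
    have h3 := Wr_off hE (lb_mP hi F (-1) t2 (Th_mem ex q1 q2)) (by
      rw [compl_compl]; exact cont_mP h hi (-1) t2 (Th_smooth ex q1 q2).continuous) hz.2
      (Rg_sub _ _ hz.1)
    have h4 := (lt_min_iff.1 h3).1
    linarith
  · rw [disjoint_left]
    exact fun z hz hz' => hz'.2 (connectedComponentIn_subset _ _ hz)
  · rw [disjoint_left]
    exact fun z hz hz' => hz'.2 (connectedComponentIn_subset _ _ hz)

end

/-- **ATNE from PTW** -/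
theorem atne (hPTW : PTW) : ATNE := by
  intro Y x0 φ a b F P i K h hi be s xT xB yT yB vT vB hs hsq hwd hEd
  have hlh : Sqr_185.lo (cF h K).1 < Sqr_185.hi (cF h K).1 := by
    unfold Sqr_185.wd at hwd; linarith
  have A := fun (ex eu : ℝ) (hex : ex = 1 ∨ ex = -1) (heu : eu = 1 ∨ eu = -1) =>
    ae_bl h hi K hPTW hs hsq hwd hEd hex heu
  filter_upwards [hEd.x, A 1 1 (Or.inl rfl) (Or.inl rfl), A 1 (-1) (Or.inl rfl) (Or.inr rfl),
    A (-1) 1 (Or.inr rfl) (Or.inl rfl), A (-1) (-1) (Or.inr rfl) (Or.inr rfl)]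
    with t hx h11 h12 h21 h22 ht
  obtain ⟨hxT, hxB⟩ := hx ht
  have hBl : ∀ ex eu : ℝ, (ex = 1 ∨ ex = -1) → (eu = 1 ∨ eu = -1) →
      ∀ q1 q2 t0 : ℚ, ∀ n : ℕ, (q1 : ℝ) < q2 → Sqr_185.lo (cF h K).1 < q1 →
      (q2 : ℝ) < Sqr_185.hi (cF h K).1 →
      (t0 : ℝ) ∈ Icc (Sqr_185.lo (cF hi K).1) (Sqr_185.hi (cF hi K).1) →
      t ∈ Ioo (Sqr_185.lo (cF hi K).1) (Sqr_185.hi (cF hi K).1) → 0 < eu * (t - t0) →
      Bl hi K be s ex eu (Th ex q1 q2)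
        (Oz hi F K eu t0 (Th ex q1 q2) (TopologicalSpace.denseSeq ℂ n)) xT xB yT yB t := by
    rintro ex eu (rfl | rfl) (rfl | rfl)
    exacts [h11, h12, h21, h22]
  have hpic := (Uw6_913.picT hi).2
  have hne : (sec (cF hi K).1 t).Nonempty := Sqr_185.sec_nonempty
    ((cF hi K).isCompact hpic.cpt) (cF hi K).preconn (cF hi K).nonempty ⟨ht.1.le, ht.2.le⟩
  obtain ⟨t1, ht1, ht1'⟩ := exists_rat_btwn ht.1
  obtain ⟨t2, ht2, ht2'⟩ := exists_rat_btwn ht.2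
  constructor
  · obtain ⟨ex, hex, q1, q2, hq, hl, hh, hθT, hθB⟩ := choose_step (x := xT t) (x' := xB t) hlh
    obtain ⟨n1, hn1⟩ := germ_top h hi K (eu := 1) (t0 := t1) (Or.inl rfl) (by linarith) hθT hne hxT
    obtain ⟨n2, hn2⟩ := germ_top h hi K (eu := -1) (t0 := t2) (Or.inr rfl) (by linarith) hθT hne
      hxT
    have key : ∀ (eu : ℝ) (O : Set ℂ), (eu = 1 ∨ eu = -1) → InT hi K O t →
        Bl hi K be s ex eu (Th ex q1 q2) O xT xB yT yB t →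
        ¬ (InB hi K O t ∧ Th ex q1 q2 (xB t) = 1) → yT t ∈ Icc be (be + s) := by
      rintro eu O heu hT ⟨lT, hlT, lB, hlB, g1, g2⟩ hnot
      refine arith_one (e := eu * ex) ?_ hlT hlB ?_ ?_ g1 g2
      · rcases heu with rfl | rfl <;> rcases hex with rfl | rfl <;> norm_num
      · rw [if_pos hT, hθT, one_pow]
      · split_ifs with hB
        · rcases hθB with h0 | h0
          · rw [h0]; norm_num
          · exact absurd ⟨hB, h0⟩ hnot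
        · rfl
    by_cases c1 : InB hi K (Oz hi F K 1 t1 (Th ex q1 q2) (TopologicalSpace.denseSeq ℂ n1)) t ∧
        Th ex q1 q2 (xB t) = 1
    · by_cases c2 : InB hi K (Oz hi F K (-1) t2 (Th ex q1 q2) (TopologicalSpace.denseSeq ℂ n2)) t ∧
        Th ex q1 q2 (xB t) = 1
      · exact (clash h hi K hex hq hl hh ht ht1.le ht2'.le hn1 c1.1 hn2 c2.1).elim
      · exact key (-1) _ (Or.inr rfl) hn2 (hBl ex (-1) hex (Or.inr rfl) q1 q2 t2 n2 hq hl hh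
          ⟨(ht.1.trans ht2).le, ht2'.le⟩ ht (by linarith)) c2
    · exact key 1 _ (Or.inl rfl) hn1 (hBl ex 1 hex (Or.inl rfl) q1 q2 t1 n1 hq hl hh
        ⟨ht1.le, (ht1'.trans ht.2).le⟩ ht (by linarith)) c1
  · obtain ⟨ex, hex, q1, q2, hq, hl, hh, hθB, hθT⟩ := choose_step (x := xB t) (x' := xT t) hlh
    obtain ⟨n1, hn1⟩ := germ_bot h hi K (eu := 1) (t0 := t1) (Or.inl rfl) (by linarith) hθB hne hxB
    obtain ⟨n2, hn2⟩ := germ_bot h hi K (eu := -1) (t0 := t2) (Or.inr rfl) (by linarith) hθB hne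
      hxB
    have key : ∀ (eu : ℝ) (O : Set ℂ), (eu = 1 ∨ eu = -1) → InB hi K O t →
        Bl hi K be s ex eu (Th ex q1 q2) O xT xB yT yB t →
        ¬ (InT hi K O t ∧ Th ex q1 q2 (xT t) = 1) → yB t ∈ Icc be (be + s) := by
      rintro eu O heu hB ⟨lT, hlT, lB, hlB, g1, g2⟩ hnot
      refine arith_two (e := eu * ex) ?_ hlT hlB ?_ ?_ g1 g2
      · rcases heu with rfl | rfl <;> rcases hex with rfl | rfl <;> norm_num
      · rw [if_pos hB, hθB, one_pow]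
      · split_ifs with hT
        · rcases hθT with h0 | h0
          · rw [h0]; norm_num
          · exact absurd ⟨hT, h0⟩ hnot
        · rfl
    by_cases c1 : InT hi K (Oz hi F K 1 t1 (Th ex q1 q2) (TopologicalSpace.denseSeq ℂ n1)) t ∧
        Th ex q1 q2 (xT t) = 1
    · by_cases c2 : InT hi K (Oz hi F K (-1) t2 (Th ex q1 q2) (TopologicalSpace.denseSeq ℂ n2)) t ∧
        Th ex q1 q2 (xT t) = 1
      · exact (clash h hi K hex hq hl hh ht ht1.le ht2'.le c1.1 hn1 c2.1 hn2).elim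
      · exact key (-1) _ (Or.inr rfl) hn2 (hBl ex (-1) hex (Or.inr rfl) q1 q2 t2 n2 hq hl hh
          ⟨(ht.1.trans ht2).le, ht2'.le⟩ ht (by linarith)) c2
    · exact key 1 _ (Or.inl rfl) hn1 (hBl ex 1 hex (Or.inl rfl) q1 q2 t1 n1 hq hl hh
        ⟨ht1.le, (ht1'.trans ht.2).le⟩ ht (by linarith)) c1

end Crest.Agent.R105.Atl_948
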