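import Mathlib

/-!
# Row 105, S0138: generic levels meet a solid only through its square (helper403, (ATN) of #10534)

`P` = component (square `Q` and attached pieces), `u` = an anchor, `V` = the domain.
If `u` has a limit `c w` over `V` at every point `w` of `P` outside `Q`, and `t` is none of these
limits, then near `P` the level `{u = t}` stays near `Q`.
-/

set_option autoImplicit false

open Set MeasureTheory Filter Topology Metric

namespace Crest.Agent.R105.Atn_403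

variable {X : Type*} [PseudoMetricSpace X]

/-- one component, one level -/
theorem atn_one {V P Q : Set X} {u c : X → ℝ} {t : ℝ}
    (hlim : ∀ w ∈ P, w ∉ Q → Tendsto u (𝓝[V] w) (𝓝 (c w)))
    (ht : ∀ w ∈ P, w ∉ Q → c w ≠ t) {δ : ℝ} (hδ : 0 < δ) :
    ∃ O : Set X, IsOpen O ∧ P ⊆ O ∧ ∀ z ∈ O, z ∈ V → u z = t → infDist z Q < δ := by
  have key : ∀ w ∈ P, ∃ O : Set X, IsOpen O ∧ w ∈ O ∧
      ∀ z ∈ O, z ∈ V → u z = t → infDist z Q < δ := by
    intro w hw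
    by_cases hQ : w ∈ Q
    · refine ⟨ball w δ, isOpen_ball, mem_ball_self hδ, fun z hz _ _ => ?_⟩
      exact (infDist_le_dist_of_mem hQ).trans_lt (mem_ball.1 hz)
    · have h1 : ∀ᶠ z in 𝓝[V] w, u z ≠ t :=
        (hlim w hw hQ).eventually_ne (ht w hw hQ)
      rw [eventually_nhdsWithin_iff] at h1
      obtain ⟨O, hO, hOo, hwO⟩ := _root_.eventually_nhds_iff.1 h1
      exact ⟨O, hOo, hwO, fun z hz hV hu => absurd hu (hO z hz hV)⟩
  choose! O hO hwO hz using key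
  refine ⟨⋃ w ∈ P, O w, isOpen_biUnion fun w hw => hO w hw,
    fun w hw => mem_biUnion hw (hwO w hw), fun z hzO hV hu => ?_⟩
  obtain ⟨w, hw, hzw⟩ := mem_iUnion₂.1 hzO
  exact hz w hw z hzw hV hu

/-- (ATN) for countably many components: a.e. level -/
theorem atn {ι : Type*} [Countable ι] {V : Set X} {P Q : ι → Set X} {u : X → ℝ} {c : ι → X → ℝ}
    (hlim : ∀ i, ∀ w ∈ P i, w ∉ Q i → Tendsto u (𝓝[V] w) (𝓝 (c i w)))
    (hnull : ∀ i, volume (c i '' (P i \ Q i)) = 0) :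
    ∀ᵐ t : ℝ, ∀ i, ∀ δ > 0, ∃ O : Set X, IsOpen O ∧ P i ⊆ O ∧
      ∀ z ∈ O, z ∈ V → u z = t → infDist z (Q i) < δ := by
  rw [ae_all_iff]
  intro i
  have h0 : ∀ᵐ t : ℝ, t ∉ c i '' (P i \ Q i) := by
    rw [ae_iff]
    refine measure_mono_null (fun t ht => ?_) (hnull i)
    exact not_not.1 ht
  filter_upwards [h0] with t ht δ hδ
  exact atn_one (hlim i) (fun w hw hQ h => ht ⟨w, ⟨hw, hQ⟩, h⟩) hδ

/-- (ATN) with the null set of values given on pieces: every point of `P i \ Q i` lies on one of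
countably many families `A i n` whose values are null -/
theorem atn' {ι κ : Type*} [Countable ι] [Countable κ] {V : Set X} {P Q : ι → Set X} {u : X → ℝ}
    {c : ι → X → ℝ} {A : ι → κ → Set X}
    (hlim : ∀ i, ∀ w ∈ P i, w ∉ Q i → Tendsto u (𝓝[V] w) (𝓝 (c i w)))
    (hcov : ∀ i, P i \ Q i ⊆ ⋃ n, A i n) (hnull : ∀ i n, volume (c i '' A i n) = 0) :
    ∀ᵐ t : ℝ, ∀ i, ∀ δ > 0, ∃ O : Set X, IsOpen O ∧ P i ⊆ O ∧
      ∀ z ∈ O, z ∈ V → u z = t → infDist z (Q i) < δ := by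
  refine atn hlim fun i => ?_
  refine measure_mono_null ?_ (measure_iUnion_null fun n => hnull i n)
  rintro _ ⟨w, hw, rfl⟩
  obtain ⟨n, hn⟩ := mem_iUnion.1 (hcov i hw)
  exact mem_iUnion.2 ⟨n, w, hn, rfl⟩

/-- consumer form: `b` close to its values on `Q` near `Q`, values on `Q` of oscillation `≤ σ`:
the jump of `b` at `P` along the level `{u = t}` is `≤ σ + d` -/
theorem jump_le {V P Q : Set X} {u b : X → ℝ} {t : ℝ}
    (hat : ∀ δ > 0, ∃ O : Set X, IsOpen O ∧ P ⊆ O ∧ ∀ z ∈ O, z ∈ V → u z = t → infDist z Q < δ)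
    {σ : ℝ} (hσ : ∀ p ∈ Q, ∀ q ∈ Q, |b p - b q| ≤ σ)
    (hb : ∀ d > 0, ∃ δ > 0, ∀ z ∈ V, infDist z Q < δ → ∃ q ∈ Q, |b z - b q| ≤ d)
    {d : ℝ} (hd : 0 < d) :
    ∃ O : Set X, IsOpen O ∧ P ⊆ O ∧
      ∀ p ∈ O, ∀ q ∈ O, p ∈ V → q ∈ V → u p = t → u q = t → |b p - b q| ≤ σ + d := by
  obtain ⟨δ, hδ, h⟩ := hb (d / 2) (half_pos hd)
  obtain ⟨O, hO, hPO, hOz⟩ := hat δ hδ
  refine ⟨O, hO, hPO, fun p hp q hq hpV hqV hup huq => ?_⟩
  obtain ⟨p', hp', h1⟩ := h p hpV (hOz p hp hpV hup)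
  obtain ⟨q', hq', h2⟩ := h q hqV (hOz q hq hqV huq)
  have h3 := hσ p' hp' q' hq'
  rw [abs_le] at h1 h2 h3 ⊢
  constructor <;> linarith [h1.1, h1.2, h2.1, h2.2, h3.1, h3.2]

/-- transport through a map `F` (domain side): `F` maps small neighbourhoods of `K` in `V'` into
neighbourhoods of `P` -/
theorem atn_pull {Z : Type*} [TopologicalSpace Z] {V P Q : Set X} {V' K : Set Z} {F : Z → X}
    {u : X → ℝ} {t : ℝ} (hF : ∀ z ∈ V', F z ∈ V)
    (hnb : ∀ O : Set X, IsOpen O → P ⊆ O → ∃ O' : Set Z, IsOpen O' ∧ K ⊆ O' ∧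
      ∀ z ∈ O', z ∈ V' → F z ∈ O)
    (hat : ∀ δ > 0, ∃ O : Set X, IsOpen O ∧ P ⊆ O ∧ ∀ z ∈ O, z ∈ V → u z = t → infDist z Q < δ)
    {δ : ℝ} (hδ : 0 < δ) :
    ∃ O' : Set Z, IsOpen O' ∧ K ⊆ O' ∧ ∀ z ∈ O', z ∈ V' → u (F z) = t → infDist (F z) Q < δ := by
  obtain ⟨O, hO, hPO, h⟩ := hat δ hδ
  obtain ⟨O', hO', hK, h'⟩ := hnb O hO hPO
  exact ⟨O', hO', hK, fun z hz hV hu => h _ (h' z hz hV) (hF z hV) hu⟩

end Crest.Agent.R105.Atn_403
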