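import Mathlib

/-!
# Row 105 (S0138, T-frame): core of (ATT) of helper459 #9956

`ZZ am ap bm bp F` = multivalued image of `F` under the pair of interval valued maps `[am, ap]`,
`[bm, bp]`.  `att_core` : a ghost of `b` over `a` in `N` (value of `b` at `z0` much larger than the
values of `a` near the end), `b` switched, level sets of `a` reach the frontier of `N`, and
`|a - b| < h / 5` on the frontier, force `4/5 h² ≤ |Z_F(a,b)|`, `F = {z ∈ N | β + h ≤ ap z}`.
-/

set_option autoImplicit false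

open Set Filter Metric Topology MeasureTheory
open scoped ENNReal

namespace Crest.Agent.R105.Att1_790

/-- multivalued image of `F` -/
def ZZ {X : Type*} (am ap bm bp : X → ℝ) (F : Set X) : Set (ℝ × ℝ) :=
  {p | ∃ z ∈ F, (am z ≤ p.1 ∧ p.1 ≤ ap z) ∧ bm z ≤ p.2 ∧ p.2 ≤ bp z}

section top

variable {X : Type*} [TopologicalSpace X]

/-- a preconnected set on which an interval valued usc map takes values below and above `s` meets
the level `s`. -/
theorem exists_level {am ap : X → ℝ} (hle : ∀ z, am z ≤ ap z) (ham : LowerSemicontinuous am)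
    (hap : UpperSemicontinuous ap) {C : Set X} (hC : IsPreconnected C) {s : ℝ} {p q : X}
    (hp : p ∈ C) (hq : q ∈ C) (hps : am p ≤ s) (hqs : s ≤ ap q) :
    ∃ z ∈ C, am z ≤ s ∧ s ≤ ap z := by
  by_contra hne
  push Not at hne
  have h1 : IsOpen {z | s < am z} := ham.isOpen_preimage s
  have h2 : IsOpen {z | ap z < s} := hap.isOpen_preimage s
  have hcov : C ⊆ {z | s < am z} ∪ {z | ap z < s} := by
    intro z hz
    by_cases h : am z ≤ s
    · exact Or.inr (hne z hz h)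
    · exact Or.inl (not_le.1 h)
  have hp' : p ∈ {z | ap z < s} := hne p hp hps
  have hq' : q ∈ {z | s < am z} := by
    by_contra h
    exact absurd (hne q hq (not_lt.1 h)) (not_lt.2 hqs)
  obtain ⟨w, -, hw1, hw2⟩ := hC _ _ h1 h2 hcov ⟨q, hq, hq'⟩ ⟨p, hp, hp'⟩
  exact absurd (hw1.trans_le (hle w)) (not_lt.2 (le_of_lt hw2))

variable {am ap bm bp : X → ℝ}

/-- the crossing point of a superlevel component of `b` with a level set of `a` inside `N` -/
theorem exists_cross (hle : ∀ z, am z ≤ ap z) (ham : LowerSemicontinuous am)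
    (hap : UpperSemicontinuous ap) (hbb : ∀ z, bm z ≤ bp z) {N : Set X} (hN : IsClosed N)
    {h t : ℝ} (hh : 0 < h)
    (hfa : ∀ z ∈ frontier N, am z = ap z) (hfd : ∀ z ∈ frontier N, |bp z - ap z| < h / 5)
    {D : Set X} (hD : IsPreconnected D) (hDb : ∀ z ∈ D, t + h < bm z) {z0 w : X} (hz0 : z0 ∈ D)
    (hz0N : z0 ∈ N) (hz0a : ap z0 < t) (hw : w ∈ D) (hwN : w ∉ interior N) :
    ∃ q ∈ D, q ∈ N ∧ am q ≤ t ∧ t ≤ ap q := by
  by_contra hne
  push Not at hne
  have hfr : ∀ z ∈ D, z ∈ frontier N → t < ap z := by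
    intro z hz hzf
    have h1 := abs_lt.1 (hfd z hzf)
    have h2 := hDb z hz
    have h3 := hbb z
    linarith [h1.2]
  have hO1 : IsOpen (interior N ∩ {z | ap z < t}) := isOpen_interior.inter (hap.isOpen_preimage t)
  have hO2 : IsOpen ({z | t < am z} ∪ Nᶜ) := (ham.isOpen_preimage t).union hN.isOpen_compl
  have hfrm : ∀ z, z ∈ N → z ∉ interior N → z ∈ frontier N := fun z h1 h2 =>
    ⟨subset_closure h1, h2⟩
  have hcov : D ⊆ (interior N ∩ {z | ap z < t}) ∪ ({z | t < am z} ∪ Nᶜ) := by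
    intro z hz
    by_cases hzN : z ∈ N
    · by_cases h1 : am z ≤ t
      · have h2 := hne z hz hzN h1
        refine Or.inl ⟨?_, h2⟩
        by_contra h3
        exact absurd (hfr z hz (hfrm z hzN h3)) (not_lt.2 h2.le)
      · exact Or.inr (Or.inl (not_le.1 h1))
    · exact Or.inr (Or.inr hzN)
  have hz0i : z0 ∈ interior N := by
    by_contra h3
    exact absurd (hfr z0 hz0 (hfrm z0 hz0N h3)) (not_lt.2 hz0a.le)
  have hw2 : w ∈ {z | t < am z} ∪ Nᶜ := by
    by_cases hwN' : w ∈ N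
    · have h1 := hfrm w hwN' hwN
      left
      show t < am w
      rw [hfa w h1]
      exact hfr w hw h1
    · exact Or.inr hwN'
  obtain ⟨y, -, ⟨hy1, hy2⟩, hy3⟩ := hD _ _ hO1 hO2 hcov ⟨z0, hz0, hz0i, hz0a⟩ ⟨w, hw, hw2⟩
  rcases hy3 with hy3 | hy3
  · exact absurd (lt_of_lt_of_le hy3 (hle y)) (not_lt.2 (le_of_lt hy2))
  · exact hy3 (interior_subset hy1)

end top

/-- the sheared square -/
theorem volume_band (c h : ℝ) (hh : 0 < h) :
    volume {p : ℝ × ℝ | (c < p.1 ∧ p.1 < c + h) ∧ p.1 + h / 5 < p.2 ∧ p.2 < p.1 + h} =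
      ENNReal.ofReal (4 / 5 * h ^ 2) := by
  have h1 : {p : ℝ × ℝ | (c < p.1 ∧ p.1 < c + h) ∧ p.1 + h / 5 < p.2 ∧ p.2 < p.1 + h} =
      regionBetween (fun t => t + h / 5) (fun t => t + h) (Ioo c (c + h)) := by
    ext p
    simp only [mem_ofPred_eq, regionBetween, mem_Ioo]
  rw [h1, Measure.volume_eq_prod, volume_regionBetween_eq_lintegral
    (by fun_prop) (by fun_prop) measurableSet_Ioo]
  have h2 : ∀ t : ℝ, ENNReal.ofReal (((fun t => t + h) - fun t => t + h / 5) t) =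
      ENNReal.ofReal (4 / 5 * h) := by
    intro t
    congr 1
    simp only [Pi.sub_apply]
    ring
  simp_rw [h2]
  rw [lintegral_const, Measure.restrict_apply_univ, Real.volume_Ioo,
    ← ENNReal.ofReal_mul (by positivity)]
  congr 1
  ring

/-- **Core of (ATT)** of #9956. -/
theorem att_core {X : Type*} [TopologicalSpace X] {am ap bm bp : X → ℝ}
    (haa : ∀ z, am z ≤ ap z) (hbb : ∀ z, bm z ≤ bp z)
    (ham : LowerSemicontinuous am) (hap : UpperSemicontinuous ap)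
    (hbm : LowerSemicontinuous bm) (hbp : UpperSemicontinuous bp)
    {N : Set X} (hN : IsClosed N) {h β : ℝ} (hh : 0 < h)
    (hfa : ∀ z ∈ frontier N, am z = ap z)
    (hfd : ∀ z ∈ frontier N, |bp z - ap z| < h / 5)
    {z0 : X} (hz0 : z0 ∈ N) (ha0 : ap z0 < β + h) (hb0 : β + 3 * h < bm z0)
    (swb : ∀ t, t < bm z0 → ∃ D, IsPreconnected D ∧ z0 ∈ D ∧ (∀ z ∈ D, t < bm z) ∧
      ∃ w ∈ D, w ∉ interior N)
    (bump : ∀ t, ∀ q ∈ N, am q ≤ t → t ≤ ap q → ∃ C ⊆ N, IsPreconnected C ∧ q ∈ C ∧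
      (∀ z ∈ C, am z ≤ t ∧ t ≤ ap z) ∧ ∃ w ∈ C, w ∈ frontier N) :
    ENNReal.ofReal (4 / 5 * h ^ 2) ≤ volume (ZZ am ap bm bp {z ∈ N | β + h ≤ ap z}) := by
  rw [← volume_band (β + h) h hh]
  refine measure_mono ?_
  rintro ⟨t, s⟩ ⟨⟨ht1, ht2⟩, hs1, hs2⟩
  simp only at ht1 ht2 hs1 hs2
  obtain ⟨D, hD, hz0D, hDb, w, hw, hwN⟩ := swb (t + h) (by linarith)
  obtain ⟨q, hqD, hqN, hq1, hq2⟩ := exists_cross haa ham hap hbb hN hh hfa hfd hD hDb hz0D hz0
    (by linarith) hw hwN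
  obtain ⟨C, hCN, hC, hqC, hCL, w', hw', hwf⟩ := bump t q hqN hq1 hq2
  have h1 : t + h < bm q := hDb q hqD
  have h2 : bp w' < t + h / 5 := by
    have h3 := hCL w' hw'
    rw [hfa w' hwf] at h3
    have h4 : ap w' = t := le_antisymm h3.1 h3.2
    have h5 := (abs_lt.1 (hfd w' hwf)).2
    linarith
  obtain ⟨z, hzC, hz1, hz2⟩ := exists_level hbb hbm hbp hC (s := s) hw' hqC
    ((hbb w').trans (by linarith)) (by linarith [hbb q])
  have h6 := hCL z hzC
  exact ⟨z, ⟨hCN hzC, ht1.le.trans h6.2⟩, h6, hz1, hz2⟩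

end Crest.Agent.R105.Att1_790
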