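import Crest.Agent.R105.Att1_790
import Crest.Agent.R105.Tc1_808
import Crest.Agent.R105.Thin1_12

/-!
# Row 105 (S0138, T-frame): limit half of (ATT) of helper459 #9956

`Env Y u um up` : `um ≤ up` lower / upper envelopes of `u`.
`osc_le` : under `small` (areas of the multivalued images of compact sets near `K0`, off `K0`, are
eventually small) the oscillation of the limit at `K0` is at most the limit of the oscillations.
-/

set_option autoImplicit false

open Set Filter Metric Topology MeasureTheory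
open scoped ENNReal

namespace Crest.Agent.R105.Att2_790

open Att1_790 Tc_808

/-- lower and upper envelope -/
structure Env (Y : Set ℂ) (u um up : ℂ → ℝ) : Prop where
  le : ∀ z, um z ≤ up z
  lsc : LowerSemicontinuous um
  usc : UpperSemicontinuous up
  eqm : ∀ z ∉ Y, um z = u z
  eqp : ∀ z ∉ Y, up z = u z
  cm : ∀ K : Cmp Y, ∀ z ∈ K.1, ∀ w ∈ K.1, um z = um w
  cp : ∀ K : Cmp Y, ∀ z ∈ K.1, ∀ w ∈ K.1, up z = up w

/-- superlevel components of `u` are not contained in small sets (`u` switched) -/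
def SwUp (um : ℂ → ℝ) : Prop :=
  ∀ N : Set ℂ, IsCompact N → ∀ t, ∀ z0 ∈ N, t < um z0 →
    ∃ D, IsPreconnected D ∧ z0 ∈ D ∧ (∀ z ∈ D, t < um z) ∧ ∃ w ∈ D, w ∉ interior N

/-- level sets reach the frontier -/
def Bump (um up : ℂ → ℝ) : Prop :=
  ∀ N : Set ℂ, IsCompact N → ∀ t, ∀ q ∈ N, um q ≤ t → t ≤ up q →
    ∃ C ⊆ N, IsPreconnected C ∧ q ∈ C ∧ (∀ z ∈ C, um z ≤ t ∧ t ≤ up z) ∧ ∃ w ∈ C, w ∈ frontier N

/-- **upper half of (ATT)** -/
theorem upper {Y : Set ℂ} {a am ap : ℂ → ℝ} (ha : Env Y a am ap)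
    {b bm bp : ℕ → ℂ → ℝ} (hb : ∀ n, Env Y (b n) (bm n) (bp n)) {x : ℂ → ℝ}
    (hbump : Bump am ap) (hsw : ∀ n, SwUp (bm n))
    (hconv : ∀ A, IsCompact A → A ⊆ Yᶜ → TendstoUniformlyOn b x atTop A)
    {h : ℝ} (hh : 0 < h) (K0 : Cmp Y) {β : ℝ} (hβ : ∀ z ∈ K0.1, ap z = β)
    {N : Set ℂ} (hN : IsOpen N) (hNc : IsCompact (closure N)) (hKN : K0.1 ⊆ N)
    (hNY : Disjoint (frontier N) Y)
    (hax : ∀ z ∈ frontier N, |x z - a z| < h / 10)
    (hsmall : ∀ᶠ n in atTop, ∀ F, IsCompact F → F ⊆ closure N → Disjoint F K0.1 →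
      volume (ZZ am ap (bm n) (bp n) F) ≤ ENNReal.ofReal (h ^ 2 / 2)) :
    ∃ O, IsOpen O ∧ K0.1 ⊆ O ∧ ∀ z ∈ O, z ∉ Y → x z ≤ β + 4 * h := by
  refine ⟨N ∩ {z | ap z < β + h}, hN.inter (ha.usc.isOpen_preimage _),
    fun z hz => ⟨hKN hz, by show ap z < β + h; rw [hβ z hz]; linarith⟩, ?_⟩
  rintro z0 ⟨hz0N, hz0a⟩ hz0Y
  by_contra hcon
  push Not at hcon
  have hfrY : frontier (closure N) ⊆ Yᶜ := by
    intro z hz
    exact Set.disjoint_left.1 hNY (frontier_closure_subset hz)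
  have hfrc : IsCompact (frontier (closure N)) :=
    hNc.of_isClosed_subset isClosed_frontier (by
      have := frontier_subset_closure (s := closure N); rwa [closure_closure] at this)
  have e1 : ∀ᶠ n in atTop, ∀ z ∈ frontier (closure N), |x z - b n z| < h / 10 := by
    have := hconv _ hfrc hfrY
    rw [Metric.tendstoUniformlyOn_iff] at this
    filter_upwards [this (h / 10) (by positivity)] with n hn z hz
    have := hn z hz
    rwa [Real.dist_eq] at this
  have e2 : ∀ᶠ n in atTop, |x z0 - b n z0| < h := by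
    have := hconv {z0} isCompact_singleton (by simpa using hz0Y)
    rw [Metric.tendstoUniformlyOn_iff] at this
    filter_upwards [this h hh] with n hn
    have := hn z0 rfl
    rwa [Real.dist_eq] at this
  obtain ⟨n, h1, h2, h3⟩ := (e1.and (e2.and hsmall)).exists
  have hcore := att_core (am := am) (ap := ap) (bm := bm n) (bp := bp n) ha.le (hb n).le ha.lsc
    ha.usc (hb n).lsc (hb n).usc (N := closure N) isClosed_closure (h := h) (β := β) hh
    (fun z hz => by rw [ha.eqm z (hfrY hz), ha.eqp z (hfrY hz)])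
    (fun z hz => by
      rw [(hb n).eqp z (hfrY hz), ha.eqp z (hfrY hz)]
      have h4 := hax z (frontier_closure_subset hz)
      have h5 := h1 z hz
      rw [abs_lt] at h4 h5 ⊢
      constructor <;> linarith [h4.1, h4.2, h5.1, h5.2])
    (z0 := z0) (subset_closure hz0N) hz0a
    (by
      rw [(hb n).eqm z0 hz0Y]
      rw [abs_lt] at h2
      linarith [h2.1, h2.2])
    (fun t ht => hsw n (closure N) hNc t z0 (subset_closure hz0N) ht)
    (fun t q hq hq1 hq2 => hbump (closure N) hNc t q hq hq1 hq2)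
  have hFc : IsCompact {z ∈ closure N | β + h ≤ ap z} := by
    refine hNc.of_isClosed_subset ?_ (fun z hz => hz.1)
    exact isClosed_closure.inter (ha.usc.isClosed_preimage _)
  have h4 := h3 _ hFc (fun z hz => hz.1) (by
    rw [Set.disjoint_left]
    rintro z ⟨-, hz⟩ hzK
    rw [hβ z hzK] at hz
    linarith)
  have h5 := hcore.trans h4
  rw [ENNReal.ofReal_le_ofReal_iff (by positivity)] at h5
  nlinarith [sq_nonneg h, mul_pos hh hh]

/-! ### the lower half, by reflection -/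

theorem Env.neg {Y : Set ℂ} {u um up : ℂ → ℝ} (h : Env Y u um up) :
    Env Y (fun z => - u z) (fun z => - up z) (fun z => - um z) where
  le z := neg_le_neg (h.le z)
  lsc := by
    have := h.usc
    exact this.neg
  usc := by
    have := h.lsc
    exact this.neg
  eqm z hz := by rw [h.eqp z hz]
  eqp z hz := by rw [h.eqm z hz]
  cm K z hz w hw := by rw [h.cp K z hz w hw]
  cp K z hz w hw := by rw [h.cm K z hz w hw]

theorem volume_ZZ_neg {X : Type*} (am ap bm bp : X → ℝ) (F : Set X) :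
    volume (ZZ (fun z => - ap z) (fun z => - am z) (fun z => - bp z) (fun z => - bm z) F) =
      volume (ZZ am ap bm bp F) := by
  have h1 : ZZ (fun z => - ap z) (fun z => - am z) (fun z => - bp z) (fun z => - bm z) F =
      Neg.neg ⁻¹' (ZZ am ap bm bp F) := by
    ext p
    simp only [ZZ, mem_ofPred_eq, mem_preimage, Prod.fst_neg, Prod.snd_neg]
    constructor
    · rintro ⟨z, hz, ⟨h1, h2⟩, h3, h4⟩
      exact ⟨z, hz, ⟨by linarith, by linarith⟩, by linarith, by linarith⟩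
    · rintro ⟨z, hz, ⟨h1, h2⟩, h3, h4⟩
      exact ⟨z, hz, ⟨by linarith, by linarith⟩, by linarith, by linarith⟩
  rw [h1]
  exact Measure.measure_preimage_neg volume _

/-- sublevel components of `u` are not contained in small sets (`u` switched) -/
def SwDn (up : ℂ → ℝ) : Prop :=
  ∀ N : Set ℂ, IsCompact N → ∀ t, ∀ z0 ∈ N, up z0 < t →
    ∃ D, IsPreconnected D ∧ z0 ∈ D ∧ (∀ z ∈ D, up z < t) ∧ ∃ w ∈ D, w ∉ interior N

theorem SwDn.neg {up : ℂ → ℝ} (h : SwDn up) : SwUp (fun z => - up z) := by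
  intro N hN t z0 hz0 ht
  obtain ⟨D, hD, h1, h2, h3⟩ := h N hN (-t) z0 hz0 (by linarith)
  exact ⟨D, hD, h1, fun z hz => by linarith [h2 z hz], h3⟩

theorem Bump.neg {um up : ℂ → ℝ} (h : Bump um up) : Bump (fun z => - up z) (fun z => - um z) := by
  intro N hN t q hq h1 h2
  obtain ⟨C, hC, h3, h4, h5, h6⟩ := h N hN (-t) q hq (by linarith) (by linarith)
  exact ⟨C, hC, h3, h4, fun z hz => ⟨by linarith [(h5 z hz).2], by linarith [(h5 z hz).1]⟩, h6⟩

/-- **lower half of (ATT)** -/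
theorem lower {Y : Set ℂ} {a am ap : ℂ → ℝ} (ha : Env Y a am ap)
    {b bm bp : ℕ → ℂ → ℝ} (hb : ∀ n, Env Y (b n) (bm n) (bp n)) {x : ℂ → ℝ}
    (hbump : Bump am ap) (hsw : ∀ n, SwDn (bp n))
    (hconv : ∀ A, IsCompact A → A ⊆ Yᶜ → TendstoUniformlyOn b x atTop A)
    {h : ℝ} (hh : 0 < h) (K0 : Cmp Y) {β : ℝ} (hβ : ∀ z ∈ K0.1, am z = β)
    {N : Set ℂ} (hN : IsOpen N) (hNc : IsCompact (closure N)) (hKN : K0.1 ⊆ N)
    (hNY : Disjoint (frontier N) Y)
    (hax : ∀ z ∈ frontier N, |x z - a z| < h / 10)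
    (hsmall : ∀ᶠ n in atTop, ∀ F, IsCompact F → F ⊆ closure N → Disjoint F K0.1 →
      volume (ZZ am ap (bm n) (bp n) F) ≤ ENNReal.ofReal (h ^ 2 / 2)) :
    ∃ O, IsOpen O ∧ K0.1 ⊆ O ∧ ∀ z ∈ O, z ∉ Y → β - 4 * h ≤ x z := by
  have hconv' : ∀ A, IsCompact A → A ⊆ Yᶜ →
      TendstoUniformlyOn (fun n z => - b n z) (fun z => - x z) atTop A := by
    intro A hA hAY
    have := hconv A hA hAY
    rw [Metric.tendstoUniformlyOn_iff] at this ⊢
    intro ε hε
    filter_upwards [this ε hε] with n hn z hz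
    rw [dist_neg_neg]
    exact hn z hz
  obtain ⟨O, hO, hKO, hx⟩ := upper (b := fun n z => - b n z) ha.neg (fun n => (hb n).neg)
    (x := fun z => - x z) hbump.neg (fun n => (hsw n).neg) hconv' hh K0 (β := -β)
    (fun z hz => by rw [hβ z hz]) hN hNc hKN hNY
    (fun z hz => by
      have h1 : - x z - - a z = - (x z - a z) := by ring
      show |- x z - - a z| < h / 10
      rw [h1, abs_neg]
      exact hax z hz)
    (by
      filter_upwards [hsmall] with n hn F hF hFN hFK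
      rw [volume_ZZ_neg]
      exact hn F hF hFN hFK)
  refine ⟨O, hO, hKO, fun z hz hzY => ?_⟩
  have := hx z hz hzY
  linarith

/-- **(ATT)**: the oscillation of the limit. -/
theorem osc_le {Y : Set ℂ} (hY : IsCompact Y) {u um up : ℕ → ℂ → ℝ}
    (hu : ∀ n, Env Y (u n) (um n) (up n)) {x : ℂ → ℝ} (hbump : ∀ n, Bump (um n) (up n))
    (hup : ∀ n, SwUp (um n)) (hdn : ∀ n, SwDn (up n))
    (hconv : ∀ A, IsCompact A → A ⊆ Yᶜ → TendstoUniformlyOn u x atTop A)
    (K0 : Cmp Y) {s0 : ℝ}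
    (hs : ∀ z ∈ K0.1, Tendsto (fun n => up n z - um n z) atTop (𝓝 s0))
    (hsmall : ∀ ε > 0, ∃ W, IsOpen W ∧ K0.1 ⊆ W ∧ ∀ᶠ m in atTop, ∀ᶠ n in atTop, ∀ F,
      IsCompact F → F ⊆ W → Disjoint F K0.1 →
      volume (ZZ (um m) (up m) (um n) (up n) F) ≤ ENNReal.ofReal ε) :
    osc Y x K0.1 ≤ s0 := by
  obtain ⟨z1, hz1⟩ := K0.nonempty
  have hK0 : connectedComponentIn Y z1 = K0.1 := by
    rw [K0.eq_of_mem hz1]; rfl
  have hs0 : 0 ≤ s0 := ge_of_tendsto' (hs z1 hz1) fun n => by linarith [(hu n).le z1]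
  refine osc_le_of_forall hs0 fun ε hε => ?_
  -- parameters
  set h : ℝ := ε / 9 with hh
  have hh0 : 0 < h := by positivity
  obtain ⟨W, hW, hKW, hWs⟩ := hsmall (h ^ 2 / 2) (by positivity)
  obtain ⟨N, hN, hKN, hNW, hNc, hNY⟩ := Thin_12.thin_nhd hY (K0.subset hz1) hW (by rwa [hK0])
  rw [hK0] at hKN
  have hfrc : IsCompact (frontier N) :=
    hNc.of_isClosed_subset isClosed_frontier frontier_subset_closure
  have hfrY : frontier N ⊆ Yᶜ := fun z hz => Set.disjoint_left.1 hNY hz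
  have e1 : ∀ᶠ m in atTop, ∀ z ∈ frontier N, |x z - u m z| < h / 10 := by
    have := hconv _ hfrc hfrY
    rw [Metric.tendstoUniformlyOn_iff] at this
    filter_upwards [this (h / 10) (by positivity)] with n hn z hz
    have := hn z hz
    rwa [Real.dist_eq] at this
  have e2 : ∀ᶠ m in atTop, up m z1 - um m z1 < s0 + h :=
    (hs z1 hz1).eventually (gt_mem_nhds (by linarith))
  obtain ⟨m, h1, h2, h3⟩ := (e1.and (e2.and hWs)).exists
  have h3' : ∀ᶠ n in atTop, ∀ F, IsCompact F → F ⊆ closure N → Disjoint F K0.1 →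
      volume (ZZ (um m) (up m) (um n) (up n) F) ≤ ENNReal.ofReal (h ^ 2 / 2) := by
    filter_upwards [h3] with n hn F hF hFN hFK
    exact hn F hF (hFN.trans hNW) hFK
  obtain ⟨O1, hO1, hKO1, hx1⟩ := upper (hu m) hu (hbump m) hup hconv hh0 K0
    (β := up m z1) (fun z hz => (hu m).cp K0 z hz z1 hz1) hN hNc hKN hNY h1 h3'
  obtain ⟨O2, hO2, hKO2, hx2⟩ := lower (hu m) hu (hbump m) hdn hconv hh0 K0
    (β := um m z1) (fun z hz => (hu m).cm K0 z hz z1 hz1) hN hNc hKN hNY h1 h3'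
  refine ⟨O1 ∩ O2, hO1.inter hO2, subset_inter hKO1 hKO2, fun z hz hzY w hw hwY => ?_⟩
  have k1 := hx1 z hz.1 hzY
  have k2 := hx2 z hz.2 hzY
  have k3 := hx1 w hw.1 hwY
  have k4 := hx2 w hw.2 hwY
  have k5 : 9 * h = ε := by rw [hh]; ring
  rw [abs_le]
  constructor <;> linarith

end Crest.Agent.R105.Att2_790
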