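import Crest.Agent.R105.Asm5_987
import Crest.Agent.R105.Asm5c_6
import Crest.Agent.R105.C2P_61

/-!
# Row 105, S0139: ATTP (6 attp_of, 61 c2p, 590 c3P, 987 c4P, 823 cauchy_sq)
-/

namespace Crest.Agent.R105.Asm_987

theorem attp : Crest.Agent.R105.IfB_641.ATTP :=
  Crest.Agent.R105.Asm_6.attp_of Crest.Agent.R105.C2P_61.c2p c4P

end Crest.Agent.R105.Asm_987
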