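import Crest.Agent.R105.Els1_173

/-!
# Row 105, S0138, node E13: the E-L side, mirror form (helper395, after helper173's Els1)

`els_final_c`: as `Els_173.els_final` with an arbitrary jump `c = G (up) - G (lo)` (`c = 1`: 173's
form, `c = -1`: steps down, the mirror case `x < sg` of E13):
`|E(χ q)| ≤ s + ε` and `|E(χ q) + s c| ≤ s + ε`.
-/

set_option autoImplicit false

open MeasureTheory Set Filter Topology Metric
open scoped NNReal ENNReal ContDiff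

namespace Crest.Agent.R105.Els_395

open Bd_775 Tc_808 Ends_897 Crest.AnalysisR
open IfB_641 (X0)
open SelT_871 (JT)
open Ni_459 (NI Swd LB cpt_of)
open SkA_8 (Pk)
open Elf_600 (pt pt_mem upK loK)
open Els_173

variable {Y : Set ℂ} {x0 φ χ ψ q : ℂ → ℝ} {a : ℕ → ℂ → ℝ} {F : ℂ → ℂ}

/-- **the E-L side, final form with any jump `c`.** `0 ≤ q ≤ G(x) ≤ 1`, `G (up) - G (lo) = c`:
`|E(χ q)| ≤ s + ε` and `|E(χ q) + s * c| ≤ s + ε` for every cut-off `χ` of `K0` with small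
support, `s = osc φ K0`, `E(ψ) = ∫ dψ ∧ dy`. -/
theorem els_final_c (h : Pk Y x0 a φ F) (K0 : Cmp Y) {G : ℝ → ℝ} {Λ : ℝ≥0} (hG : LipschitzWith Λ G)
    (hG01 : ∀ t, G t ∈ Icc (0:ℝ) 1) {c : ℝ} (hG1 : G (upK Y φ K0) - G (loK Y φ K0) = c) {χ0 q : ℂ → ℝ}
    (hχ0 : LC Y χ0) (hχ0c : HasCompactSupport χ0) {O1 : Set ℂ} (hO1 : IsOpen O1)
    (hKO1 : K0.1 ⊆ O1) (h1 : ∀ z ∈ O1, χ0 z = 1) (q0 : ∀ z ∈ O1, 0 ≤ q z)
    (q1 : ∀ z ∈ O1, q z ≤ G (x0 z + φ z)) (hq : TT Y (fun z => χ0 z * q z))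
    (hni : ∀ i, NI Y (a i) (fun z => χ0 z * q z)) {ε : ℝ} (hε : 0 < ε) :
    ∃ O, IsOpen O ∧ K0.1 ⊆ O ∧ ∀ χ, Ct Y O χ → (∀ z ∈ K0.1, χ z = 1) →
      |∫ z in Yᶜ, wdg (fun z => χ z * q z) (fun w => (F w).im) z| ≤ osc Y φ K0.1 + ε ∧
      |(∫ z in Yᶜ, wdg (fun z => χ z * q z) (fun w => (F w).im) z) + osc Y φ K0.1 * c| ≤
        osc Y φ K0.1 + ε := by
  have hYc := cpt_of h.hY
  have hYo : IsOpen Yᶜ := hYc.isClosed.isOpen_compl
  have hm : MeasurableSet Yᶜ := hYo.measurableSet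
  set s := osc Y φ K0.1 with hs
  have hs0 : 0 ≤ s := osc_nonneg _ _ _
  obtain ⟨tG, -, -⟩ := Elf_600.test_chiG hYc h.hx h.tt hχ0 hχ0c hG
  have nG : ∀ i, NI Y (a i) (fun z => χ0 z * G (x0 z + φ z)) := fun i =>
    N8_602.ni_test h.hY h.hx h.tt hχ0 hχ0c hG (h.com i)
  set ψ1 : ℂ → ℝ := fun z => χ0 z * q z with hψ1
  set ψ2 : ℂ → ℝ := fun z => χ0 z * G (x0 z + φ z) + (-1) * ψ1 z with hψ2
  have t2 : TT Y ψ2 := tG.add hYc.isClosed ((TT.const (-1)).mul hYc.isClosed hq)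
  have n2 : ∀ i, NI Y (a i) ψ2 := fun i => by
    have h3 := Nip_31.linG h.hY h.hx (h.tta i) (h.swd i) tG hq (nG i) (hni i) 1 (-1)
    simpa only [one_mul] using h3
  obtain ⟨P1, hP1, hK1, b1⟩ := els_upper h K0 hq hni (half_pos hε)
  obtain ⟨P2, hP2, hK2, b2⟩ := els_upper h K0 t2 n2 (half_pos hε)
  obtain ⟨P3, hP3, hK3, b3⟩ := els_exact h K0 hG (half_pos hε)
  have o1 : osc Y ψ1 K0.1 ≤ 1 := osc_le_one hO1 hKO1 fun z hz => by
    have e1 := hG01 (x0 z + φ z)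
    simp only [hψ1, h1 z hz, one_mul]
    exact ⟨q0 z hz, (q1 z hz).trans e1.2⟩
  have o2 : osc Y ψ2 K0.1 ≤ 1 := osc_le_one hO1 hKO1 fun z hz => by
    have e1 := hG01 (x0 z + φ z)
    have e2 := q0 z hz
    have e3 := q1 z hz
    simp only [hψ2, hψ1, h1 z hz, one_mul]
    exact ⟨by linarith, by linarith [e1.2]⟩
  refine ⟨O1 ∩ (P1 ∩ (P2 ∩ P3)), hO1.inter (hP1.inter (hP2.inter hP3)),
    subset_inter hKO1 (subset_inter hK1 (subset_inter hK2 hK3)), fun χ hχ hχ1 => ?_⟩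
  have c1 := b1 χ (hχ.mono fun z hz => hz.2.1)
  have c2 := b2 χ (hχ.mono fun z hz => hz.2.2.1)
  have c3 := b3 χ (hχ.mono fun z hz => hz.2.2.2) hχ1
  rw [hG1] at c3
  have m1 : s * osc Y ψ1 K0.1 ≤ s := mul_le_of_le_one_right hs0 o1
  have m2 : s * osc Y ψ2 K0.1 ≤ s := mul_le_of_le_one_right hs0 o2
  -- replace `ψ1` by `q`
  have hχz : ∀ z, z ∉ O1 → χ z = 0 := fun z hz =>
    image_eq_zero_of_notMem_tsupport fun hm => hz (hχ.sub hm).1
  have e1 : (fun z => χ z * ψ1 z) = fun z => χ z * q z := by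
    funext z
    by_cases hz : z ∈ O1
    · simp only [hψ1, h1 z hz, one_mul]
    · simp only [hχz z hz, zero_mul]
  rw [e1] at c1
  -- replace `ψ2`
  have e2 : (fun z => χ z * ψ2 z) = fun z => χ z * G (x0 z + φ z) + (-1) * (χ z * q z) := by
    funext z
    by_cases hz : z ∈ O1
    · simp only [hψ2, hψ1, h1 z hz, one_mul]; ring
    · simp only [hχz z hz]; ring
  -- additivity of the integral
  obtain ⟨tχG, -, -⟩ := Elf_600.test_chiG hYc h.hx h.tt hχ.lc hχ.cpt hG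
  have tχq : TT Y (fun z => χ z * q z) := by
    rw [← e1]; exact (TT.lc hχ.lc).mul hYc.isClosed hq
  have d1 := (Bd_775.Q.ae_diff tχG.q hYc.isClosed)
  have d2 := (Bd_775.Q.ae_diff tχq.q hYc.isClosed)
  have dy : ∀ {ψ : ℂ → ℝ}, TT Y ψ → HasCompactSupport ψ →
      IntegrableOn (wdg ψ (fun w => (F w).im)) Yᶜ := by
    intro ψ hψ hψc
    have e3 : ∀ z ∈ Yᶜ, wdg ψ (fun w => (F w).im) z =
        dot (fun w => x0 w + φ w) ψ z := fun z hz =>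
      Elf_600.wdg_eq_dot (x := fun w => x0 w + φ w) h.hol hYc.isClosed h.re _ hz
    refine IntegrableOn.congr_fun ?_ (fun z hz => (e3 z hz).symm) hm
    obtain ⟨i1, -⟩ := Mid_987.di_x0 hYc h.hx hψ.q hψc
    refine (i1.add (integrableOn_dot h.tt.q hψ.q)).congr ?_
    filter_upwards [h.tt.q.ae_diff hYc.isClosed] with z h4
    have h5 : DifferentiableAt ℝ x0 z := h.hx.sm.differentiable (by simp) z
    simp only [Pi.add_apply]
    unfold dot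
    rw [gx_add h5 h4, gy_add h5 h4]
    ring
  have iA := dy tχG hχ.cpt.mul_right
  have iB := dy tχq hχ.cpt.mul_right
  have e4 : ∫ z in Yᶜ, wdg (fun z => χ z * ψ2 z) (fun w => (F w).im) z =
      (∫ z in Yᶜ, wdg (fun z => χ z * G (x0 z + φ z)) (fun w => (F w).im) z) -
        ∫ z in Yᶜ, wdg (fun z => χ z * q z) (fun w => (F w).im) z := by
    rw [e2, ← integral_sub iA iB]
    refine integral_congr_ae ?_
    filter_upwards [d1, d2] with z h4 h5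
    unfold wdg
    rw [gx_add h4 (h5.const_mul (-1)), gy_add h4 (h5.const_mul (-1))]
    have g1 : gx (fun z => (-1) * (χ z * q z)) z = -gx (fun z => χ z * q z) z := by
      unfold gx
      rw [fderiv_const_mul h5]; simp
    have g2 : gy (fun z => (-1) * (χ z * q z)) z = -gy (fun z => χ z * q z) z := by
      unfold gy
      rw [fderiv_const_mul h5]; simp
    rw [g1, g2]
    ring
  rw [e4] at c2
  refine ⟨by linarith, ?_⟩
  rw [abs_le] at c2 c3 ⊢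
  constructor <;> linarith [c2.1, c2.2, c3.1, c3.2]

/-- **the mirror form**: `G` decreases from `1` to `0` over the range of `x` on `K0`. -/
theorem els_final' (h : Pk Y x0 a φ F) (K0 : Cmp Y) {G : ℝ → ℝ} {Λ : ℝ≥0} (hG : LipschitzWith Λ G)
    (hG01 : ∀ t, G t ∈ Icc (0:ℝ) 1) (hG1 : G (loK Y φ K0) - G (upK Y φ K0) = 1) {χ0 q : ℂ → ℝ}
    (hχ0 : LC Y χ0) (hχ0c : HasCompactSupport χ0) {O1 : Set ℂ} (hO1 : IsOpen O1)
    (hKO1 : K0.1 ⊆ O1) (h1 : ∀ z ∈ O1, χ0 z = 1) (q0 : ∀ z ∈ O1, 0 ≤ q z)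
    (q1 : ∀ z ∈ O1, q z ≤ G (x0 z + φ z)) (hq : TT Y (fun z => χ0 z * q z))
    (hni : ∀ i, NI Y (a i) (fun z => χ0 z * q z)) {ε : ℝ} (hε : 0 < ε) :
    ∃ O, IsOpen O ∧ K0.1 ⊆ O ∧ ∀ χ, Ct Y O χ → (∀ z ∈ K0.1, χ z = 1) →
      |∫ z in Yᶜ, wdg (fun z => χ z * q z) (fun w => (F w).im) z| ≤ osc Y φ K0.1 + ε ∧
      |(∫ z in Yᶜ, wdg (fun z => χ z * q z) (fun w => (F w).im) z) - osc Y φ K0.1| ≤
        osc Y φ K0.1 + ε := by
  obtain ⟨O, hO, hK, hb⟩ := els_final_c h K0 hG hG01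
    (c := -1) (by linarith) hχ0 hχ0c hO1 hKO1 h1 q0 q1 hq hni hε
  refine ⟨O, hO, hK, fun χ hχ hχ1 => ?_⟩
  have := hb χ hχ hχ1
  rwa [mul_neg_one, ← sub_eq_add_neg] at this

end Crest.Agent.R105.Els_395
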