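import Crest.Agent.R105.Fml2_61
import Crest.Agent.R105.Els2_395
import Crest.Agent.R105.Adg3_600
import Crest.Agent.R105.E13_499
import Crest.Agent.R105.Ta7_937

/-!
# Row 105, S0138, E13, BAL piece (B4) of 61 #11579: the E-L side for chains (helper173)

* `lohi`, `osc_wd` : range of `φ` at `K` = range of `re` on the picture component
* `el_chn` : `0 ≤ q ≤ G(x) ≤ 1` near `K`, `∫ d(χ_n q) ∧ dy → c` :
  `|c| ≤ s ∧ |- s (G hi - G lo) - c| ≤ s`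
* `el_gg` : the same for `q = gg ^ 2`, `G = θ ^ 2`, from `Adg_600.Uc`
-/

set_option autoImplicit false

open MeasureTheory Set Filter Topology Metric
open scoped NNReal ENNReal ContDiff

namespace Crest.Agent.R105.Bal_173

open Bd_775 Tc_808 Ends_897 Crest.AnalysisR
open IfB_641 (X0)
open Ni_459 (NI cpt_of)
open SkA_8 (Pk)
open Elf_600 (pt pt_mem pt_mem' cc_pt upK loK)
open Els_173 (Ct)
open Fml_61 (ChnE)
open E13_499 (cF Rmp Stp gg mm)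

noncomputable section

variable {Y : Set ℂ} {x0 φ A χ0 q : ℂ → ℝ} {a : ℕ → ℂ → ℝ} {F : ℂ → ℂ} {χ : ℕ → ℂ → ℝ}
  {G h1 θ : ℝ → ℝ} {O : Set ℂ}

/-- a component of `Yᶜᶜ` is a component of `Y` -/
def ty (K : Cmp Yᶜᶜ) : Cmp Y := ⟨K.1, by
  obtain ⟨z, hz, e⟩ := K.2
  exact ⟨z, not_not.1 hz, by rw [e, compl_compl]⟩⟩

@[simp] theorem ty_val (K : Cmp Yᶜᶜ) : (ty K).1 = K.1 := rfl

/-- jump of `φ` at `K` = width of the picture component -/
theorem osc_wd (h : Pk Y x0 a φ F) (K : Cmp Yᶜᶜ) : osc Y φ K.1 = Sqr_185.wd (cF h K).1 := by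
  have hx : X0 Yᶜᶜ x0 := by rw [compl_compl]; exact h.hx
  have h2 := Ta_937.osc_coord (Uw6_913.endMap h) hx (fun z hz => (h.re z hz).symm) K
  have e : osc Yᶜᶜ φ K.1 = osc Y φ K.1 := congrArg (fun S => osc S φ K.1) (compl_compl Y)
  rw [← e]
  exact h2

/-- range of `φ` at `K` = range of `re` on the picture component -/
theorem lohi (h : Pk Y x0 a φ F) (K : Cmp Yᶜᶜ) :
    loK Y φ (ty K) = Sqr_185.lo (cF h K).1 ∧ upK Y φ (ty K) = Sqr_185.hi (cF h K).1 := by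
  have hE := Uw6_913.endMap h
  have hYc := cpt_of h.hY
  have hLc : IsCompact (cF h K).1 := Cmp.isCompact (Ends_897.isCompact_compl hE.hV) _
  have e1 : eK Yᶜᶜ K.1 = eK Y K.1 := congrArg (fun S => eK S K.1) (compl_compl Y)
  have key : ∀ ε > 0, ∀ᶠ z in eK Y K.1,
      Sqr_185.lo (cF h K).1 - ε < φ z ∧ φ z < Sqr_185.hi (cF h K).1 + ε := by
    intro ε hε
    have h2 : {w : ℂ | Sqr_185.lo (cF h K).1 - ε < w.re ∧ w.re < Sqr_185.hi (cF h K).1 + ε} ∈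
        eK (F '' Yᶜ)ᶜ (cF h K).1 := by
      refine mem_eK.2 ⟨_, ?_, fun w hw => ?_, fun w hw _ => hw⟩
      · exact (isOpen_lt continuous_const Complex.continuous_re).inter
          (isOpen_lt Complex.continuous_re continuous_const)
      · have g1 := Sqr_185.lo_le hLc hw
        have g2 := Sqr_185.le_hi hLc hw
        exact ⟨by linarith, by linarith⟩
    have h3 := (Ta_937.tendsto_corE hE K).eventually h2
    rw [e1] at h3
    have h4 : ∀ᶠ z in eK Y K.1, z ∉ tsupport x0 ∧ z ∉ Y := by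
      refine mem_eK.2 ⟨(tsupport x0)ᶜ, (isClosed_tsupport x0).isOpen_compl,
        fun z hz hc => h.hx.zero hc ((ty K).subset hz), fun z hz hzY => ⟨hz, hzY⟩⟩
    filter_upwards [h3, h4] with z h5 h6
    have h7 := h.re z h6.2
    rw [image_eq_zero_of_notMem_tsupport h6.1, zero_add] at h7
    rw [← h7]
    exact h5
  have hb := Ni_459.LB.of_bdd h.tt.q.bdd
  have u1 : upK Y φ (ty K) ≤ Sqr_185.hi (cF h K).1 := by
    refine le_of_forall_pos_le_add fun ε hε => ?_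
    obtain ⟨N, hN, hKN, h5⟩ := mem_eK.1 (key ε hε)
    exact Ni_459.up_le h.hY hb (Ni_459.nb_of_mem (pt_mem' (ty K)) hN (by rw [cc_pt]; exact hKN))
      fun w hw hwY => (h5 w hw hwY).2.le
  have l1 : Sqr_185.lo (cF h K).1 ≤ loK Y φ (ty K) := by
    refine le_of_forall_pos_sub_le fun ε hε => ?_
    obtain ⟨N, hN, hKN, h5⟩ := mem_eK.1 (key ε hε)
    exact Ni_459.le_lo h.hY hb (Ni_459.nb_of_mem (pt_mem' (ty K)) hN (by rw [cc_pt]; exact hKN))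
      fun w hw hwY => (h5 w hw hwY).1.le
  have h8 := Elf_600.osc_eq h.hY h.tt.q.bdd (ty K)
  rw [ty_val, osc_wd h K] at h8
  unfold Sqr_185.wd at h8
  exact ⟨by linarith, by linarith⟩

/-- **(B4) the E-L side for chains** -/
theorem el_chn (h : Pk Y x0 a φ F) (K : Cmp Yᶜᶜ) {Λ : ℝ≥0} (hG : LipschitzWith Λ G)
    (hG01 : ∀ t, G t ∈ Icc (0:ℝ) 1) (hχ0 : LC Y χ0) (hχ0c : HasCompactSupport χ0) {O1 : Set ℂ}
    (hO1 : IsOpen O1) (hKO1 : K.1 ⊆ O1) (h1 : ∀ z ∈ O1, χ0 z = 1) (q0 : ∀ z ∈ O1, 0 ≤ q z)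
    (q1 : ∀ z ∈ O1, q z ≤ G (x0 z + φ z)) (hq : TT Y (fun z => χ0 z * q z))
    (hni : ∀ i, NI Y (a i) (fun z => χ0 z * q z)) (hχ : ChnE Yᶜᶜ K.1 χ) {c : ℝ}
    (hc : Tendsto (fun n => ∫ z in Yᶜ, wdg (fun z => χ n z * q z) (fun w => (F w).im) z) atTop
      (𝓝 c)) :
    |c| ≤ Sqr_185.wd (cF h K).1 ∧
    |- Sqr_185.wd (cF h K).1 * (G (Sqr_185.hi (cF h K).1) - G (Sqr_185.lo (cF h K).1)) - c| ≤
      Sqr_185.wd (cF h K).1 := by
  obtain ⟨e1, e2⟩ := lohi h K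
  have e3 := osc_wd h K
  have main : ∀ ε > 0, |c| ≤ Sqr_185.wd (cF h K).1 + ε ∧
      |c + Sqr_185.wd (cF h K).1 * (G (Sqr_185.hi (cF h K).1) - G (Sqr_185.lo (cF h K).1))| ≤
        Sqr_185.wd (cF h K).1 + ε := by
    intro ε hε
    obtain ⟨N, hN, hKN, h2⟩ := Els_395.els_final_c h (ty K) hG hG01
      (c := G (Sqr_185.hi (cF h K).1) - G (Sqr_185.lo (cF h K).1)) (by rw [e1, e2]) hχ0 hχ0c hO1
      hKO1 h1 q0 q1 hq hni hε
    rw [ty_val, e3] at h2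
    have h3 : ∀ᶠ n in atTop, Ct Y N (χ n) ∧ ∀ z ∈ K.1, χ n z = 1 := by
      filter_upwards [hχ.sh N hN hKN] with n hn
      have h4 := Pct_185.LCE.LC (hχ.lce n)
      rw [compl_compl] at h4
      exact ⟨⟨h4, (hχ.lce n).supp, hχ.c01 n, hn⟩, hχ.one n⟩
    constructor
    · refine le_of_tendsto hc.abs ?_
      filter_upwards [h3] with n hn
      exact (h2 _ hn.1 hn.2).1
    · refine le_of_tendsto (hc.add_const _).abs ?_
      filter_upwards [h3] with n hn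
      exact (h2 _ hn.1 hn.2).2
  constructor
  · exact le_of_forall_pos_le_add fun ε hε => (main ε hε).1
  · have h5 := le_of_forall_pos_le_add fun ε hε => (main ε hε).2
    rw [← abs_neg]
    refine (le_of_eq (congrArg abs ?_)).trans h5
    ring

/-! ### steps -/

theorem stp_lip (h : Stp h1) : ∃ L : ℝ≥0, LipschitzWith L h1 := by
  have hd : Continuous (deriv h1) := h.smooth.continuous_deriv (by simp)
  obtain ⟨C, hC⟩ := h.supp.exists_bound_of_continuous hd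
  refine ⟨C.toNNReal, lipschitzWith_of_nnnorm_deriv_le (h.smooth.differentiable (by simp))
    fun x => ?_⟩
  rw [← NNReal.coe_le_coe, coe_nnnorm, Real.coe_toNNReal']
  exact (hC x).trans (le_max_left _ _)

theorem sq_lip {L : ℝ≥0} (h : LipschitzWith L h1) (h01 : ∀ t, h1 t ∈ Icc (0:ℝ) 1) :
    LipschitzWith (2 * L) fun t => h1 t ^ 2 := by
  refine LipschitzWith.of_dist_le_mul fun s t => ?_
  have e := h.dist_le_mul s t
  rw [Real.dist_eq] at e ⊢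
  have e2 : h1 s ^ 2 - h1 t ^ 2 = (h1 s + h1 t) * (h1 s - h1 t) := by ring
  rw [e2, abs_mul, abs_of_nonneg (add_nonneg (h01 s).1 (h01 t).1)]
  have e3 : h1 s + h1 t ≤ 2 := by linarith [(h01 s).2, (h01 t).2]
  calc (h1 s + h1 t) * |h1 s - h1 t| ≤ 2 * (L * dist s t) :=
        mul_le_mul e3 e (abs_nonneg _) (by norm_num)
    _ = _ := by push_cast; ring

theorem gg_sq (z : ℂ) : gg x0 A φ h1 θ O z ^ 2 =
    O.indicator (fun z => h1 (x0 z + A z) ^ 2 * θ (x0 z + φ z) ^ 2) z := by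
  unfold gg mm
  by_cases hz : z ∈ O
  · rw [indicator_of_mem hz, indicator_of_mem hz]; ring
  · rw [indicator_of_notMem hz, indicator_of_notMem hz]; ring

theorem mm_rg (hh : Stp h1) (hθ : Stp θ) (z : ℂ) : 0 ≤ mm x0 A φ h1 θ z ∧ mm x0 A φ h1 θ z ≤ 1 :=
  ⟨mul_nonneg (hh.rg _).1 (hθ.rg _).1, mul_le_one₀ (hh.rg _).2 (hθ.rg _).1 (hθ.rg _).2⟩

/-- admissibility of `χ0 gg ^ 2` -/
theorem adm_gg (h : Pk Y x0 a φ F) (i : ℕ) (hh : Stp h1) (hθ : Stp θ) (hχ0 : LC Y χ0)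
    (hχ0c : HasCompactSupport χ0) (h01 : ∀ z, χ0 z ∈ Icc (0:ℝ) 1)
    (hu : Adg_600.Uc Y (mm x0 (a i) φ h1 θ) O) :
    Adg_600.Adm Y a (fun z => χ0 z * gg x0 (a i) φ h1 θ O z ^ 2) := by
  obtain ⟨L, hL⟩ := stp_lip hh
  obtain ⟨L', hL'⟩ := stp_lip hθ
  have b1 : ∀ z, h1 (x0 z + a i z) ^ 2 * θ (x0 z + φ z) ^ 2 = mm x0 (a i) φ h1 θ z ^ 2 := fun z => by
    unfold mm; ring
  have hu2 : Adg_600.Uc Y (fun z => h1 (x0 z + a i z) ^ 2 * θ (x0 z + φ z) ^ 2) O := by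
    refine hu.mono h.hY (Ni_459.LB.of_bdd ⟨1, fun z => ?_⟩) (Ni_459.LB.of_bdd ⟨1, fun z => ?_⟩)
      fun z _ => ?_
    · obtain ⟨g1, g2⟩ := mm_rg (x0 := x0) (A := a i) (φ := φ) hh hθ z
      rw [b1, abs_of_nonneg (sq_nonneg _)]
      nlinarith
    · obtain ⟨g1, g2⟩ := mm_rg (x0 := x0) (A := a i) (φ := φ) hh hθ z
      rw [abs_of_nonneg g1]
      exact g2
    · obtain ⟨g1, g2⟩ := mm_rg (x0 := x0) (A := a i) (φ := φ) hh hθ z
      rw [b1]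
      nlinarith
  have h2 := Adg_600.adm_uc h (Adg_600.adm_anchor h i) (Adg_600.adm_phi h) hχ0 hχ0c h01
    (sq_lip hL hh.rg) (sq_lip hL' hθ.rg)
    (fun s => ⟨sq_nonneg _, pow_le_one₀ (hh.rg s).1 (hh.rg s).2⟩)
    (fun s => ⟨sq_nonneg _, pow_le_one₀ (hθ.rg s).1 (hθ.rg s).2⟩) hu2
  have e : (fun z => χ0 z * gg x0 (a i) φ h1 θ O z ^ 2) = fun z => χ0 z *
      O.indicator (fun z => h1 (x0 z + a i z) ^ 2 * θ (x0 z + φ z) ^ 2) z := by
    funext z; rw [gg_sq]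
  rw [e]
  exact h2

/-- **(B4)** -/
theorem el_gg (h : Pk Y x0 a φ F) (K : Cmp Yᶜᶜ) (i : ℕ) (hh : Stp h1) (hθ : Stp θ)
    (hu : Adg_600.Uc Y (mm x0 (a i) φ h1 θ) O) (hχ0 : LC Y χ0) (hχ0c : HasCompactSupport χ0)
    (h01 : ∀ z, χ0 z ∈ Icc (0:ℝ) 1) {O1 : Set ℂ} (hO1 : IsOpen O1) (hKO1 : K.1 ⊆ O1)
    (h2 : ∀ z ∈ O1, χ0 z = 1) (hχ : ChnE Yᶜᶜ K.1 χ) {c s : ℝ} (hs : s = Sqr_185.wd (cF h K).1)
    (hc : Tendsto (fun n => ∫ z in Yᶜ, wdg (fun z => χ n z * gg x0 (a i) φ h1 θ O z ^ 2)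
      (fun w => (F w).im) z) atTop (𝓝 c)) :
    |c| ≤ s ∧
    |- s * (θ (Sqr_185.hi (cF h K).1) ^ 2 - θ (Sqr_185.lo (cF h K).1) ^ 2) - c| ≤ s := by
  obtain ⟨L', hL'⟩ := stp_lip hθ
  have h3 := adm_gg h i hh hθ hχ0 hχ0c h01 hu
  rw [hs]
  refine el_chn h K (G := fun t => θ t ^ 2) (sq_lip hL' hθ.rg)
    (fun s => ⟨sq_nonneg _, pow_le_one₀ (hθ.rg s).1 (hθ.rg s).2⟩) hχ0 hχ0c hO1 hKO1 h2
    (fun z _ => sq_nonneg _) (fun z _ => ?_) h3.tt h3.ni hχ hc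
  rw [gg_sq]
  by_cases hz : z ∈ O
  · rw [indicator_of_mem hz]
    exact mul_le_of_le_one_left (sq_nonneg _) (pow_le_one₀ (hh.rg _).1 (hh.rg _).2)
  · rw [indicator_of_notMem hz]
    exact sq_nonneg _

end

end Crest.Agent.R105.Bal_173
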