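import Crest.Agent.R105.Bal4_173

/-!
# Row 105, S0138, E13, BAL piece (B4) of 61 #11579: the adapter of the cuts (helper173)

* `lo_mm` : `lo (mm) = 0` at `K` for a step `θ` inside the range of `K`
* `uc_of` : `E13_499.Uc Y K.1 mm O` and `Rmp θ` give `Adg_600.Uc Y mm O`
* `el_bal` : the E-L clauses of BAL from 499's `Uc` and `Rmp`
-/

set_option autoImplicit false

open MeasureTheory Set Filter Topology Metric
open scoped NNReal ENNReal ContDiff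

namespace Crest.Agent.R105.Bal_173

open Bd_775 Tc_808 Ends_897 Crest.AnalysisR
open IfB_641 (X0)
open Ni_459 (NI cpt_of)
open SkA_8 (Pk)
open Elf_600 (pt pt_mem pt_mem' cc_pt upK loK)
open Els_173 (Ct)
open Fml_61 (ChnE)
open E13_499 (cF Rmp Stp gg mm)

noncomputable section

variable {Y : Set ℂ} {x0 φ A χ0 q : ℂ → ℝ} {a : ℕ → ℂ → ℝ} {F : ℂ → ℂ} {χ : ℕ → ℂ → ℝ}
  {G h1 θ : ℝ → ℝ} {O : Set ℂ} {ex : ℝ}

theorem mm_LB (hh : Stp h1) (hθ : Stp θ) : Ni_459.LB (mm x0 A φ h1 θ) :=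
  Ni_459.LB.of_bdd ⟨1, fun z => by
    obtain ⟨g1, g2⟩ := mm_rg (x0 := x0) (A := A) (φ := φ) hh hθ z
    rw [abs_of_nonneg g1]
    exact g2⟩

/-- values of `φ` near `K` close to the ends of the range -/
theorem near_end (h : Pk Y x0 a φ F) (K : Cmp Yᶜᶜ) {r : ℝ}
    (hr : r = Sqr_185.lo (cF h K).1 ∨ r = Sqr_185.hi (cF h K).1) {z : ℂ} (hz : z ∈ K.1)
    {N : Set ℂ} (hN : Ni_459.Nb Y z N) {δ : ℝ} (hδ : 0 < δ) :
    ∃ w ∈ N, w ∉ Y ∧ |x0 w + φ w - r| < δ := by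
  obtain ⟨e1, e2⟩ := lohi h K
  have hb := Ni_459.LB.of_bdd h.tt.q.bdd
  have hzY : z ∈ Y := (ty K).subset hz
  have l1 : Ni_459.lo Y φ z = Sqr_185.lo (cF h K).1 := by
    rw [← e1]; exact Elf_600.loK_eq (ty K) hz
  have l2 : Ni_459.up Y φ z = Sqr_185.hi (cF h K).1 := by
    rw [← e2]; exact Elf_600.upK_eq (ty K) hz
  have hT : Ni_459.Nb Y z (tsupport x0)ᶜ := by
    refine Ni_459.nb_of_mem hzY (isClosed_tsupport x0).isOpen_compl fun w hw hc => ?_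
    exact h.hx.zero hc (connectedComponentIn_subset _ _ hw)
  rcases hr with rfl | rfl
  · obtain ⟨M, hM, h3⟩ := Ni_459.exists_gt_of_lt_lo h.hY hb
      (show Sqr_185.lo (cF h K).1 - δ < Ni_459.lo Y φ z by rw [l1]; linarith)
    obtain ⟨w, hw, hwY, h4⟩ := Ni_459.exists_of_lo_lt h.hY hb
      (show Ni_459.lo Y φ z < Sqr_185.lo (cF h K).1 + δ by rw [l1]; linarith)
      ((hN.inter hT).inter hM)
    refine ⟨w, hw.1.1, hwY, ?_⟩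
    rw [image_eq_zero_of_notMem_tsupport hw.1.2, zero_add, abs_lt]
    have := h3 w hw.2 hwY
    constructor <;> linarith
  · obtain ⟨M, hM, h3⟩ := Ni_459.exists_lt_of_up_lt h.hY hb
      (show Ni_459.up Y φ z < Sqr_185.hi (cF h K).1 + δ by rw [l2]; linarith)
    obtain ⟨w, hw, hwY, h4⟩ := Ni_459.exists_of_lt_up h.hY hb
      (show Sqr_185.hi (cF h K).1 - δ < Ni_459.up Y φ z by rw [l2]; linarith)
      ((hN.inter hT).inter hM)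
    refine ⟨w, hw.1.1, hwY, ?_⟩
    rw [image_eq_zero_of_notMem_tsupport hw.1.2, zero_add, abs_lt]
    have := h3 w hw.2 hwY
    constructor <;> linarith

theorem lo_mm (h : Pk Y x0 a φ F) (K : Cmp Yᶜᶜ) (hh : Stp h1)
    (hθ : Rmp θ (Sqr_185.lo (cF h K).1) (Sqr_185.hi (cF h K).1) ex) {z : ℂ} (hz : z ∈ K.1) :
    Ni_459.lo Y (mm x0 A φ h1 θ) z ≤ 0 := by
  obtain ⟨r, hr, hr0⟩ : ∃ r, (r = Sqr_185.lo (cF h K).1 ∨ r = Sqr_185.hi (cF h K).1) ∧ θ r = 0 := by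
    rcases hθ.sg with ⟨-, h2, -⟩ | ⟨-, -, h2⟩
    · exact ⟨_, Or.inl rfl, h2⟩
    · exact ⟨_, Or.inr rfl, h2⟩
  by_contra hcon
  push Not at hcon
  obtain ⟨c, hc0, hc⟩ := exists_between hcon
  obtain ⟨N, hN, h3⟩ := Ni_459.exists_gt_of_lt_lo h.hY (mm_LB (x0 := x0) (A := A) (φ := φ) hh hθ.st) hc
  obtain ⟨δ, hδ, h4⟩ := Metric.continuousAt_iff.1 (hθ.st.smooth.continuous.continuousAt (x := r)) c hc0
  obtain ⟨w, hw, hwY, h5⟩ := near_end h K hr hz hN hδ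
  have h6 := h4 (x := x0 w + φ w) (by rwa [Real.dist_eq])
  rw [hr0, Real.dist_eq, sub_zero, abs_of_nonneg (hθ.st.rg _).1] at h6
  have h7 := h3 w hw hwY
  have h8 : mm x0 A φ h1 θ w ≤ θ (x0 w + φ w) :=
    mul_le_of_le_one_left (hθ.st.rg _).1 (hh.rg _).2
  linarith

/-- **the adapter** -/
theorem uc_of (h : Pk Y x0 a φ F) (K : Cmp Yᶜᶜ) (hh : Stp h1)
    (hθ : Rmp θ (Sqr_185.lo (cF h K).1) (Sqr_185.hi (cF h K).1) ex)
    (hu : E13_499.Uc Y K.1 (mm x0 A φ h1 θ) O) : Adg_600.Uc Y (mm x0 A φ h1 θ) O where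
  op z hz _ := hu.op.mem_nhds hz
  cl z hzY h0 hzO := hu.co z hzY h0 hzO
  cmp z hzY h0 := by
    have hzK : z ∉ K.1 := fun hz => absurd (lo_mm (A := A) h K hh hθ hz) (not_le.2 h0)
    have hne : (Cmp.of hzY).1 ≠ K.1 := fun e => hzK (by
      rw [← e]; exact mem_connectedComponentIn hzY)
    obtain ⟨c, hc0, hc⟩ := exists_between h0
    obtain ⟨N, hN, h3⟩ := Ni_459.exists_gt_of_lt_lo h.hY
      (mm_LB (x0 := x0) (A := A) (φ := φ) hh hθ.st) hc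
    have h4 : ∀ᶠ w in eK Y (Cmp.of hzY).1, c ≤ mm x0 A φ h1 θ w :=
      mem_eK.2 ⟨N, hN.op, hN.sub, fun w hw hwY => (h3 w hw hwY).le⟩
    rcases hu.lc (Cmp.of hzY) hne ⟨c, hc0, h4⟩ with h5 | h5
    · left
      obtain ⟨M, hM, hKM, h6⟩ := mem_eK.1 h5
      exact ⟨M, Ni_459.nb_of_mem hzY hM hKM, h6⟩
    · right
      obtain ⟨M, hM, hKM, h6⟩ := mem_eK.1 h5
      exact ⟨M, Ni_459.nb_of_mem hzY hM hKM, h6⟩

/-- **(B4) in 499's letters** -/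
theorem el_bal (h : Pk Y x0 a φ F) (K : Cmp Yᶜᶜ) (i : ℕ) (hh : Stp h1)
    (hθ : Rmp θ (Sqr_185.lo (cF h K).1) (Sqr_185.hi (cF h K).1) ex)
    (hu : E13_499.Uc Y K.1 (mm x0 (a i) φ h1 θ) O) (hχ0 : LC Y χ0) (hχ0c : HasCompactSupport χ0)
    (h01 : ∀ z, χ0 z ∈ Icc (0:ℝ) 1) {O1 : Set ℂ} (hO1 : IsOpen O1) (hKO1 : K.1 ⊆ O1)
    (h2 : ∀ z ∈ O1, χ0 z = 1) (hχ : ChnE Yᶜᶜ K.1 χ) {c s : ℝ} (hs : s = Sqr_185.wd (cF h K).1)
    (hc : Tendsto (fun n => ∫ z in Yᶜ, wdg (fun z => χ n z * gg x0 (a i) φ h1 θ O z ^ 2)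
      (fun w => (F w).im) z) atTop (𝓝 c)) :
    |c| ≤ s ∧
    |- s * (θ (Sqr_185.hi (cF h K).1) ^ 2 - θ (Sqr_185.lo (cF h K).1) ^ 2) - c| ≤ s :=
  el_gg h K i hh hθ.st (uc_of h K hh hθ hu) hχ0 hχ0c h01 hO1 hKO1 h2 hχ hs hc

end

end Crest.Agent.R105.Bal_173
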