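import Mathlib
import Crest.Agent.R202.Miranda
import Crest.Agent.R105.Thin1_891

/-!
# Row 105, BARRIER LEMMA, part 1 (helper764): separation by a cut-off

* `cross` : two paths of a box cross (Poincaré-Miranda)
* `meets` : a compact connected set joining bottom to top meets an open connected set joining
  left to right
* `exists_kappa` (SEP): for an open barrier there is a smooth cut-off `κ`, `1` above, `0` below,
  locally constant near `E` and near the points of the box outside the barrier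
-/

set_option autoImplicit false

open Set Filter Topology Metric
open scoped ContDiff

namespace Crest.Agent.R105.Bar_764

/-- two paths cross -/
theorem cross {α β : ℝ → ℂ} (hα : ContinuousOn α (Icc 0 1)) (hβ : ContinuousOn β (Icc 0 1))
    {A H : ℝ} (hα0 : (α 0).re ≤ -A) (hα1 : A ≤ (α 1).re)
    (hαH : ∀ t ∈ Icc (0 : ℝ) 1, |(α t).im| ≤ H) (hβ0 : (β 0).im ≤ -H) (hβ1 : H ≤ (β 1).im)
    (hβA : ∀ t ∈ Icc (0 : ℝ) 1, |(β t).re| ≤ A) :
    ∃ s ∈ Icc (0 : ℝ) 1, ∃ t ∈ Icc (0 : ℝ) 1, α s = β t := by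
  set q : ℝ → ℝ := fun x => (x + 1) / 2 with hq
  have hqm : ∀ x ∈ Icc (-1 : ℝ) 1, q x ∈ Icc (0 : ℝ) 1 := by
    intro x hx
    simp only [hq]
    exact ⟨by linarith [hx.1], by linarith [hx.2]⟩
  have hqc : Continuous q := by rw [hq]; fun_prop
  obtain ⟨x, hx, h⟩ := Crest.Agent.R202.poincare_miranda (ι := Fin 2)
    (fun x => ![(α (q (x 0))).re - (β (q (x 1))).re, (β (q (x 1))).im - (α (q (x 0))).im])
    (by
      rw [continuousOn_pi]
      have h1 : ContinuousOn (fun x : Fin 2 → ℝ => α (q (x 0)))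
          (Set.pi Set.univ fun _ => Set.Icc (-1 : ℝ) 1) :=
        hα.comp (hqc.comp (continuous_apply 0)).continuousOn fun x hx => hqm _ (hx 0 (mem_univ _))
      have h2 : ContinuousOn (fun x : Fin 2 → ℝ => β (q (x 1)))
          (Set.pi Set.univ fun _ => Set.Icc (-1 : ℝ) 1) :=
        hβ.comp (hqc.comp (continuous_apply 1)).continuousOn fun x hx => hqm _ (hx 1 (mem_univ _))
      intro i
      fin_cases i
      · exact (Complex.continuous_re.comp_continuousOn h1).sub
          (Complex.continuous_re.comp_continuousOn h2)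
      · exact (Complex.continuous_im.comp_continuousOn h2).sub
          (Complex.continuous_im.comp_continuousOn h1))
    (by
      intro x hx i hi
      have m0 := hqm _ (hx 0 (mem_univ _))
      have m1 := hqm _ (hx 1 (mem_univ _))
      fin_cases i
      · change x 0 = 1 at hi
        change 0 ≤ (α (q (x 0))).re - (β (q (x 1))).re
        have e : q (x 0) = 1 := by rw [hi]; simp [hq]
        rw [e]
        have := (abs_le.1 (hβA _ m1)).2
        linarith
      · change x 1 = 1 at hi
        change 0 ≤ (β (q (x 1))).im - (α (q (x 0))).im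
        have e : q (x 1) = 1 := by rw [hi]; simp [hq]
        rw [e]
        have := (abs_le.1 (hαH _ m0)).2
        linarith)
    (by
      intro x hx i hi
      have m0 := hqm _ (hx 0 (mem_univ _))
      have m1 := hqm _ (hx 1 (mem_univ _))
      fin_cases i
      · change x 0 = -1 at hi
        change (α (q (x 0))).re - (β (q (x 1))).re ≤ 0
        have e : q (x 0) = 0 := by rw [hi]; simp [hq]
        rw [e]
        have := (abs_le.1 (hβA _ m1)).1
        linarith
      · change x 1 = -1 at hi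
        change (β (q (x 1))).im - (α (q (x 0))).im ≤ 0
        have e : q (x 1) = 0 := by rw [hi]; simp [hq]
        rw [e]
        have := (abs_le.1 (hαH _ m0)).1
        linarith)
  refine ⟨q (x 0), hqm _ (hx 0 (mem_univ _)), q (x 1), hqm _ (hx 1 (mem_univ _)), ?_⟩
  have h0 : (α (q (x 0))).re - (β (q (x 1))).re = 0 := h 0
  have h1 : (β (q (x 1))).im - (α (q (x 0))).im = 0 := h 1
  exact Complex.ext (by linarith) (by linarith)

/-- the thickening of a preconnected set is preconnected -/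
theorem isPreconnected_thickening {Z : Set ℂ} (hZ : IsPreconnected Z) {ε : ℝ} :
    IsPreconnected (thickening ε Z) := by
  rcases Z.eq_empty_or_nonempty with rfl | ⟨z₀, hz₀⟩
  · rw [thickening_empty]; exact isPreconnected_empty
  rcases le_or_gt ε 0 with hε | hε
  · rw [thickening_of_nonpos hε]; exact isPreconnected_empty
  have e : thickening ε Z = ⋃ z : Z, (Z ∪ ball z.1 ε) := by
    rw [thickening_eq_biUnion_ball]
    ext w
    simp only [mem_iUnion, exists_prop, mem_union, Subtype.exists]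
    constructor
    · rintro ⟨z, h1, h2⟩; exact ⟨z, h1, Or.inr h2⟩
    · rintro ⟨z, h1, h2 | h2⟩
      · exact ⟨w, h2, mem_ball_self hε⟩
      · exact ⟨z, h1, h2⟩
  rw [e]
  refine isPreconnected_iUnion ⟨z₀, mem_iInter.2 fun _ => Or.inl hz₀⟩ fun z => ?_
  exact hZ.union z.1 z.2 (mem_ball_self hε) (convex_ball _ _).isPreconnected

/-- a compact connected set joining bottom to top meets an open connected set joining left to
right -/
theorem meets {A A' H : ℝ} (hA : A < A') {Z : Set ℂ} (hZ : IsCompact Z) (hZc : IsPreconnected Z)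
    (hZA : ∀ z ∈ Z, |z.re| ≤ A) {zt zb : ℂ} (hzt : zt ∈ Z) (hzt' : H ≤ zt.im)
    (hzb : zb ∈ Z) (hzb' : zb.im ≤ -H) {W : Set ℂ} (hW : IsOpen W) (hWc : IsPreconnected W)
    (hWH : ∀ z ∈ W, |z.im| ≤ H) {zl zr : ℂ} (hzl : zl ∈ W) (hzl' : zl.re ≤ -A')
    (hzr : zr ∈ W) (hzr' : A' ≤ zr.re) : (Z ∩ W).Nonempty := by
  by_contra hne
  rw [not_nonempty_iff_eq_empty, ← disjoint_iff_inter_eq_empty] at hne
  have hWp : IsPathConnected W := (hW.isConnected_iff_isPathConnected).1 ⟨⟨zl, hzl⟩, hWc⟩
  obtain ⟨α, hα⟩ := hWp.joinedIn zl hzl zr hzr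
  have hαW : range α ⊆ W := by rintro _ ⟨t, rfl⟩; exact hα t
  have hαc : IsCompact (range α) := isCompact_range α.continuous
  obtain ⟨r, hr, hrd⟩ : ∃ r : ℝ, 0 < r ∧ Disjoint (thickening r Z) (range α) := by
    obtain ⟨δ, hδ, hd⟩ := (hne.mono_right hαW).exists_thickenings hZ hαc.isClosed
    exact ⟨δ, hδ, hd.mono_right (self_subset_thickening hδ _)⟩
  set ε := min r (A' - A) with hε
  have hε0 : 0 < ε := lt_min hr (by linarith)
  have hNp : IsPathConnected (thickening ε Z) := (isOpen_thickening.isConnected_iff_isPathConnected).1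
    ⟨⟨zt, self_subset_thickening hε0 _ hzt⟩, isPreconnected_thickening hZc⟩
  obtain ⟨β, hβ⟩ := hNp.joinedIn zb (self_subset_thickening hε0 _ hzb) zt
    (self_subset_thickening hε0 _ hzt)
  obtain ⟨s, _, t, _, hst⟩ := cross (α := α.extend) (β := β.extend) (A := A') (H := H)
    α.continuous_extend.continuousOn β.continuous_extend.continuousOn
    (by rw [α.extend_zero]; exact hzl') (by rw [α.extend_one]; exact hzr')
    (fun t ht => by
      rw [α.extend_apply ht]
      exact hWH _ (hα _))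
    (by rw [β.extend_zero]; exact hzb') (by rw [β.extend_one]; exact hzt')
    (fun t ht => by
      rw [β.extend_apply ht]
      obtain ⟨z, hz, hzd⟩ := mem_thickening_iff.1 (hβ ⟨t, ht⟩)
      have h1 := hZA z hz
      have h2 : |(β ⟨t, ht⟩).re - z.re| < ε := by
        rw [← Complex.sub_re]
        refine (Complex.abs_re_le_norm _).trans_lt ?_
        rwa [← dist_eq_norm]
      have h3 : ε ≤ A' - A := min_le_right _ _
      rw [abs_lt] at h2
      rw [abs_le] at h1 ⊢
      constructor <;> linarith)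
  have m1 : α.extend s ∈ range α := by
    rw [← α.extend_range]; exact mem_range_self s
  have m2 : β.extend t ∈ thickening ε Z := by
    have : β.extend t ∈ range β := by rw [← β.extend_range]; exact mem_range_self t
    obtain ⟨t', ht'⟩ := this
    rw [← ht']; exact hβ t'
  exact disjoint_left.1 hrd (thickening_mono (min_le_left _ _) _ m2) (hst ▸ m1)

/-- the closed box -/
def Bx (A H : ℝ) : Set ℂ := {z | |z.re| ≤ A ∧ |z.im| ≤ H}

theorem mem_Bx {A H : ℝ} {z : ℂ} : z ∈ Bx A H ↔ |z.re| ≤ A ∧ |z.im| ≤ H := Iff.rfl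

theorem isClosed_Bx (A H : ℝ) : IsClosed (Bx A H) :=
  (isClosed_le (Complex.continuous_re.abs) continuous_const).inter
    (isClosed_le (Complex.continuous_im.abs) continuous_const)

theorem isCompact_Bx (A H : ℝ) : IsCompact (Bx A H) := by
  refine Metric.isCompact_of_isClosed_isBounded (isClosed_Bx A H) ?_
  refine isBounded_iff_forall_norm_le.2 ⟨A + H, fun z hz => ?_⟩
  exact (Complex.norm_le_abs_re_add_abs_im z).trans (add_le_add hz.1 hz.2)

/-- locally `0` or locally `1` -/
def Loc (κ : ℂ → ℝ) (z : ℂ) : Prop := (∀ᶠ w in 𝓝 z, κ w = 0) ∨ (∀ᶠ w in 𝓝 z, κ w = 1)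

/-- smooth Urysohn function, locally constant near two disjoint closed sets -/
theorem exists_step {S₀ S₁ : Set ℂ} (h0 : IsClosed S₀) (h1 : IsClosed S₁) (hd : Disjoint S₀ S₁) :
    ∃ κ : ℂ → ℝ, ContDiff ℝ ∞ κ ∧ (∀ z, 0 ≤ κ z) ∧ (∀ z, κ z ≤ 1) ∧
      (∀ z ∈ S₀, ∀ᶠ w in 𝓝 z, κ w = 0) ∧ (∀ z ∈ S₁, ∀ᶠ w in 𝓝 z, κ w = 1) := by
  obtain ⟨f, hf, -, hf0, hf1⟩ := exists_contMDiff_zero_iff_one_iff_of_isClosed
    (modelWithCornersSelf ℝ ℂ) (n := ⊤) h0 h1 hd
  have hfs : ContDiff ℝ ∞ f := hf.contDiff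
  have hfc : Continuous f := hfs.continuous
  refine ⟨fun z => Real.smoothTransition (3 * f z - 1),
    Real.smoothTransition.contDiff.comp ((contDiff_const.mul hfs).sub contDiff_const),
    fun z => Real.smoothTransition.nonneg _, fun z => Real.smoothTransition.le_one _,
    fun z hz => ?_, fun z hz => ?_⟩
  · have : ∀ᶠ w in 𝓝 z, f w < 1 / 3 :=
      hfc.continuousAt.eventually_lt_const (by rw [(hf0 z).1 hz]; norm_num)
    filter_upwards [this] with w hw
    exact Real.smoothTransition.zero_of_nonpos (by linarith)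
  · have : ∀ᶠ w in 𝓝 z, 2 / 3 < f w :=
      hfc.continuousAt.eventually_const_lt (by rw [(hf1 z).1 hz]; norm_num)
    filter_upwards [this] with w hw
    exact Real.smoothTransition.one_of_one_le (by linarith)

/-- **(SEP)** barrier lemma. `E` compact in the open box, `Ω` open and saturated, `W ⊆ Ω` an open
connected set in the strip `|Im| < H` joining `Re ≤ -A'` to `Re ≥ A'`, `A < A'`. There is a smooth
`κ`, `1` above, `0` below, locally constant near `E` and near every point of the box outside `Ω`. -/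
theorem exists_kappa {E Ω W : Set ℂ} {A A' H : ℝ} (hA : A < A') (hE : IsCompact E)
    (hEA : ∀ z ∈ E, |z.re| ≤ A) (hEH : ∀ z ∈ E, |z.im| < H) (hΩ : IsOpen Ω)
    (hsat : ∀ z ∈ E, z ∈ Ω → connectedComponentIn E z ⊆ Ω) (hW : IsOpen W) (hWΩ : W ⊆ Ω)
    (hWc : IsPreconnected W) (hWH : ∀ z ∈ W, |z.im| < H) {zl zr : ℂ} (hzl : zl ∈ W)
    (hzl' : zl.re ≤ -A') (hzr : zr ∈ W) (hzr' : A' ≤ zr.re) :
    ∃ κ : ℂ → ℝ, ContDiff ℝ ∞ κ ∧ (∀ z, 0 ≤ κ z) ∧ (∀ z, κ z ≤ 1) ∧
      (∀ z, H ≤ z.im → ∀ᶠ w in 𝓝 z, κ w = 1) ∧ (∀ z, z.im ≤ -H → ∀ᶠ w in 𝓝 z, κ w = 0) ∧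
      (∀ z ∈ E, Loc κ z) ∧ (∀ z ∈ Bx A H, z ∉ Ω → Loc κ z) := by
  classical
  have hH : 0 < H := (abs_nonneg _).trans_lt (hWH zl hzl)
  set top : Set ℂ := {z | z ∈ Bx A H ∧ z.im = H} with htop
  set bot : Set ℂ := {z | z ∈ Bx A H ∧ z.im = -H} with hbot
  have htopc : IsCompact top := by
    refine (isCompact_Bx A H).of_isClosed_subset ?_ fun z hz => hz.1
    exact (isClosed_Bx A H).inter (isClosed_eq Complex.continuous_im continuous_const)
  have hbotc : IsCompact bot := by
    refine (isCompact_Bx A H).of_isClosed_subset ?_ fun z hz => hz.1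
    exact (isClosed_Bx A H).inter (isClosed_eq Complex.continuous_im continuous_const)
  set R : Set ℂ := Bx A H \ Ω with hR
  have hRc : IsCompact R := (isCompact_Bx A H).diff hΩ
  set Q : Set ℂ := (E ∪ R) ∪ (top ∪ bot) with hQ
  have hQc : IsCompact Q := (hE.union hRc).union (htopc.union hbotc)
  have hQB : Q ⊆ Bx A H := by
    rintro z ((h | h) | (h | h))
    · exact ⟨hEA z h, (hEH z h).le⟩
    · exact h.1
    · exact h.1
    · exact h.1
  have htQ : top ⊆ Q := fun z hz => Or.inr (Or.inl hz)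
  -- no component of `Q` meets both sides
  have key : ∀ z ∈ top, connectedComponentIn Q z ⊆ botᶜ := by
    intro z hz z' hz' hzb
    set Z := connectedComponentIn Q z with hZ
    have hZQ : Z ⊆ Q := connectedComponentIn_subset Q z
    have hZp : IsPreconnected Z := isPreconnected_connectedComponentIn
    have hZc : IsCompact Z := by
      refine hQc.of_isClosed_subset ?_ hZQ
      by_cases hzQ : z ∈ Q
      · rw [hZ, connectedComponentIn_eq_image hzQ]
        exact hQc.isClosed.isClosedEmbedding_subtypeVal.isClosedMap _ isClosed_connectedComponent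
      · rw [hZ, connectedComponentIn_eq_empty hzQ]; exact isClosed_empty
    have hzZ : z ∈ Z := mem_connectedComponentIn (htQ hz)
    -- `Z` misses `E ∩ Ω`
    have h1 : ∀ e ∈ Z, e ∈ E → e ∉ Ω := by
      intro e heZ heE heΩ
      obtain ⟨F, hF, hcF, hFU⟩ := Thin_891.exists_piece hE heE
        (hΩ.inter (isOpen_lt (g := fun _ : ℂ => H) (Complex.continuous_im.abs) continuous_const))
        (subset_inter (hsat e heE heΩ) fun w hw =>
          hEH w (connectedComponentIn_subset E e hw))
      have hFd : ∀ w ∈ F, w ∈ Ω ∧ |w.im| < H := fun w hw => hFU hw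
      have hFt : ∀ w ∈ F, w ∉ top ∧ w ∉ bot := by
        intro w hw
        have h2 := (hFd w hw).2
        constructor
        · rintro ⟨-, h3⟩
          rw [h3, abs_of_pos hH] at h2
          exact lt_irrefl _ h2
        · rintro ⟨-, h3⟩
          rw [h3, abs_neg, abs_of_pos hH] at h2
          exact lt_irrefl _ h2
      have hFQ : Thin_891.Piece Q F := by
        refine ⟨fun w hw => Or.inl (Or.inl (hF.sub hw)), hF.cpt, ?_⟩
        have e1 : Q \ F = ((E \ F) ∪ R) ∪ (top ∪ bot) := by
          ext w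
          simp only [hQ, Set.mem_sdiff, mem_union]
          constructor
          · rintro ⟨(h | h) | h, h2⟩
            · exact Or.inl (Or.inl ⟨h, h2⟩)
            · exact Or.inl (Or.inr h)
            · exact Or.inr h
          · rintro ((⟨h, h2⟩ | h) | h)
            · exact ⟨Or.inl (Or.inl h), h2⟩
            · exact ⟨Or.inl (Or.inr h), fun h2 => h.2 (hFd w h2).1⟩
            · refine ⟨Or.inr h, fun h2 => ?_⟩
              rcases h with h | h
              · exact (hFt w h2).1 h
              · exact (hFt w h2).2 h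
        rw [e1]
        exact (hF.cpt'.union hRc).union (htopc.union hbotc)
      have h2 : Z ⊆ F := hFQ.subset_of_isPreconnected hZp hZQ
        ⟨e, heZ, hcF (mem_connectedComponentIn heE)⟩
      exact (hFt z (h2 hzZ)).1 hz
    -- the barrier
    obtain ⟨w, hwZ, hwW⟩ := meets (A := A) (A' := A') (H := H) hA hZc hZp
      (fun w hw => (hQB (hZQ hw)).1) hzZ hz.2.ge hz' hzb.2.le hW hWc
      (fun w hw => (hWH w hw).le) hzl hzl' hzr hzr'
    have hwΩ := hWΩ hwW
    have hwH := hWH w hwW
    rcases hZQ hwZ with (h | h) | (h | h)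
    · exact h1 w hwZ h hwΩ
    · exact h.2 hwΩ
    · rw [h.2, abs_of_pos hH] at hwH; exact lt_irrefl _ hwH
    · rw [h.2, abs_neg, abs_of_pos hH] at hwH; exact lt_irrefl _ hwH
  -- the partition
  obtain ⟨n, p, F, hp, hF, hFU, -, -, hcov⟩ := Thin_891.exists_pieces hQc htopc htQ
    (fun _ => botᶜ) (fun _ _ => hbotc.isClosed.isOpen_compl) key
  set Q₁ : Set ℂ := ⋃ i, F i with hQ₁
  have hP : Thin_891.Piece Q Q₁ := by
    have : ∀ s : Finset (Fin n), Thin_891.Piece Q (⋃ i ∈ s, F i) := by
      intro s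
      induction s using Finset.induction_on with
      | empty => simpa using Thin_891.Piece.empty hQc
      | insert a s ha ih => rw [Finset.set_biUnion_insert]; exact (hF _).union ih
    have h2 := this Finset.univ
    simpa using h2
  have hQ₁b : Disjoint Q₁ bot := by
    rw [disjoint_left]
    rintro z hz hzb
    obtain ⟨i, hi⟩ := mem_iUnion.1 hz
    exact hFU i hi hzb
  set S₁ : Set ℂ := Q₁ ∪ {z | H ≤ z.im} with hS₁
  set S₀ : Set ℂ := (Q \ Q₁) ∪ {z | z.im ≤ -H} with hS₀
  have hS₁c : IsClosed S₁ := hP.cpt.isClosed.union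
    (isClosed_le continuous_const Complex.continuous_im)
  have hS₀c : IsClosed S₀ := hP.cpt'.isClosed.union
    (isClosed_le Complex.continuous_im continuous_const)
  have hdis : Disjoint S₀ S₁ := by
    rw [disjoint_left]
    rintro z (h | h) (h' | h')
    · exact h.2 h'
    · have h3 := hQB h.1
      have h4 : z.im = H := le_antisymm (le_of_abs_le h3.2) h'
      exact h.2 (hcov ⟨h3, h4⟩)
    · have h3 := hQB (hP.sub h')
      have h4 : z.im = -H := le_antisymm h (neg_le_of_abs_le h3.2)
      exact disjoint_left.1 hQ₁b h' ⟨h3, h4⟩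
    · have h1 : z.im ≤ -H := h
      have h2 : H ≤ z.im := h'
      linarith
  obtain ⟨κ, hκ, hκ0, hκ1, hκS₀, hκS₁⟩ := exists_step hS₀c hS₁c hdis
  have hQl : ∀ z ∈ Q, Loc κ z := by
    intro z hz
    by_cases h : z ∈ Q₁
    · exact Or.inr (hκS₁ z (Or.inl h))
    · exact Or.inl (hκS₀ z (Or.inl ⟨hz, h⟩))
  exact ⟨κ, hκ, hκ0, hκ1, fun z hz => hκS₁ z (Or.inr hz), fun z hz => hκS₀ z (Or.inr hz),
    fun z hz => hQl z (Or.inl (Or.inl hz)), fun z hz hzΩ => hQl z (Or.inl (Or.inr ⟨hz, hzΩ⟩))⟩

end Crest.Agent.R105.Bar_764
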