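import Crest.Agent.R105.Bd1_775

/-!
# Row 105, S0139 [B]: closedness of isotropy (helper775)

* `Ln C r u = ∫⁻_{Cᶜ ∩ thickening r C} en u`
* `Cv C a a∞` : eventually equal off every neighbourhood of `C`, uniformly bounded, the energy
  does not concentrate at `C`
* `iso_of_cv` : limits of isotropic families are isotropic
-/

set_option autoImplicit false

open MeasureTheory Set Filter Topology Metric
open scoped NNReal ENNReal

namespace Crest.Agent.R105.Bd_775

noncomputable section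

/-- energy near `C` -/
def Ln (C : Set ℂ) (r : ℝ) (u : ℂ → ℝ) : ℝ≥0∞ :=
  ∫⁻ z in Cᶜ ∩ thickening r C, ENNReal.ofReal (en u z)

/-- convergence -/
structure Cv (C : Set ℂ) (a : ℕ → ℂ → ℝ) (a' : ℂ → ℝ) : Prop where
  eq : ∀ r > 0, ∀ᶠ n in atTop, ∀ z ∉ thickening r C, a n z = a' z
  bdd : ∃ M, ∀ n z, |a n z| ≤ M
  small : ∀ ε : ℝ, 0 < ε → ∃ r > 0, ∀ᶠ n in atTop, Ln C r (a n) ≤ ENNReal.ofReal ε

section
variable {C : Set ℂ} {u v : ℂ → ℝ}

lemma Ln_mono {r s : ℝ} (h : r ≤ s) : Ln C r u ≤ Ln C s u :=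
  lintegral_mono_set (inter_subset_inter_right _ (thickening_mono h C))

lemma ae_diff_near (hC : IsClosed C) (hu : Q C u) (r : ℝ) :
    ∀ᵐ z ∂(volume.restrict (Cᶜ ∩ thickening r C)), DifferentiableAt ℝ u z :=
  ae_restrict_of_ae_restrict_of_subset inter_subset_left (hu.ae_diff hC)

lemma Ln_le_of_ae {r K L : ℝ} (hK : 0 ≤ K) (hL : 0 ≤ L) {w : ℂ → ℝ}
    (h : ∀ᵐ z ∂(volume.restrict (Cᶜ ∩ thickening r C)), en w z ≤ K * en u z + L * en v z) :
    Ln C r w ≤ ENNReal.ofReal K * Ln C r u + ENNReal.ofReal L * Ln C r v := by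
  unfold Ln
  rw [← lintegral_const_mul _ (measurable_en u).ennreal_ofReal,
    ← lintegral_const_mul _ (measurable_en v).ennreal_ofReal,
    ← lintegral_add_left ((measurable_en u).ennreal_ofReal.const_mul _)]
  refine lintegral_mono_ae ?_
  filter_upwards [h] with z hz
  rw [← ENNReal.ofReal_mul hK, ← ENNReal.ofReal_mul hL,
    ← ENNReal.ofReal_add (mul_nonneg hK (en_nonneg _ _)) (mul_nonneg hL (en_nonneg _ _))]
  exact ENNReal.ofReal_le_ofReal hz

/-- the energy near `C` of a function of class `Q` is small -/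
lemma Q.small (hC : IsClosed C) (hu : Q C u) {ε : ℝ} (hε : 0 < ε) :
    ∃ r > 0, Ln C r u ≤ ENNReal.ofReal ε := by
  have hfin : ∫⁻ z in Cᶜ, ENNReal.ofReal (en u z) ≠ ∞ := by
    have := hu.fin.2
    rw [hasFiniteIntegral_iff_ofReal (Eventually.of_forall fun z => en_nonneg u z)] at this
    exact this.ne
  set s : ℕ → Set ℂ := fun n => Cᶜ ∩ thickening (1 / ((n : ℝ) + 1)) C with hs
  have hmono : Antitone s := by
    intro m n hmn
    refine inter_subset_inter_right _ (thickening_mono ?_ C)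
    exact Nat.one_div_le_one_div hmn
  have hint : ⋂ n, s n = ∅ := by
    ext z
    simp only [mem_iInter, mem_empty_iff_false, iff_false, not_forall]
    by_contra hcon
    push Not at hcon
    have hzC : z ∉ C := (hcon 0).1
    have : z ∈ closure C := by
      rw [Metric.mem_closure_iff]
      intro e he
      obtain ⟨n, hn⟩ := exists_nat_one_div_lt he
      obtain ⟨w, hw, hd⟩ := mem_thickening_iff.1 (hcon n).2
      exact ⟨w, hw, hd.trans hn⟩
    rw [hC.closure_eq] at this
    exact hzC this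
  have hmeas : ∀ n, NullMeasurableSet (s n) volume :=
    fun n => (hC.isOpen_compl.inter isOpen_thickening).measurableSet.nullMeasurableSet
  set μ := volume.withDensity (fun z => ENNReal.ofReal (en u z)) with hμ
  have hμs : ∀ n, μ (s n) = Ln C (1 / ((n : ℝ) + 1)) u := fun n => by
    rw [hμ, withDensity_apply _ (hC.isOpen_compl.inter isOpen_thickening).measurableSet]; rfl
  have hlim : Tendsto (fun n => μ (s n)) atTop (𝓝 (μ (⋂ n, s n))) := by
    refine tendsto_measure_iInter_atTop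
      (fun n => (hC.isOpen_compl.inter isOpen_thickening).measurableSet.nullMeasurableSet)
      hmono ⟨0, ?_⟩
    rw [hμs]
    refine ne_top_of_le_ne_top hfin ?_
    exact lintegral_mono_set inter_subset_left
  rw [hint, measure_empty] at hlim
  obtain ⟨n, hn⟩ := (hlim.eventually (gt_mem_nhds
    (show (0 : ℝ≥0∞) < ENNReal.ofReal ε by simpa using hε))).exists
  refine ⟨1 / ((n : ℝ) + 1), by positivity, ?_⟩
  rw [← hμs]; exact hn.le

/-- equality off a neighbourhood of `C` gives equality of germs off a bigger one -/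
lemma eventuallyEq_of_eq_off {r : ℝ} (hr : 0 < r) (h : ∀ z ∉ thickening (r / 2) C, u z = v z)
    {z : ℂ} (hz : z ∉ thickening r C) : u =ᶠ[𝓝 z] v := by
  filter_upwards [ball_mem_nhds z (half_pos hr)] with w hw
  refine h w fun hw2 => hz ?_
  obtain ⟨c, hc, hd⟩ := mem_thickening_iff.1 hw2
  refine mem_thickening_iff.2 ⟨c, hc, ?_⟩
  rw [mem_ball, dist_comm] at hw
  have := dist_triangle z w c
  linarith

end

/-! ### closedness -/

section Closed
variable {C : Set ℂ} {ι : Type*} {b : ℕ → ι → ℂ → ℝ} {b' : ι → ℂ → ℝ}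

lemma Cv.of_const {u : ℂ → ℝ} (hC : IsClosed C) (hu : Q C u) : Cv C (fun _ => u) u :=
  ⟨fun _ _ => Eventually.of_forall fun _ _ _ => rfl, hu.bdd.imp fun _ h _ z => h z,
    fun _ hε => (hu.small hC hε).imp fun _ h => ⟨h.1, Eventually.of_forall fun _ => h.2⟩⟩

lemma Cv.add (hC : IsClosed C) {u v : ℕ → ℂ → ℝ} {u' v' : ℂ → ℝ} (hu : Cv C u u')
    (hv : Cv C v v') (qu : ∀ n, Q C (u n)) (qv : ∀ n, Q C (v n)) :
    Cv C (fun n z => u n z + v n z) (fun z => u' z + v' z) := by
  refine ⟨fun r hr => ?_, ?_, fun ε hε => ?_⟩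
  · filter_upwards [hu.eq r hr, hv.eq r hr] with n h1 h2 z hz
    rw [h1 z hz, h2 z hz]
  · obtain ⟨M, hM⟩ := hu.bdd
    obtain ⟨N, hN⟩ := hv.bdd
    exact ⟨M + N, fun n z => (abs_add_le _ _).trans (add_le_add (hM n z) (hN n z))⟩
  · obtain ⟨r, hr, h1⟩ := hu.small (ε / 4) (by positivity)
    obtain ⟨s, hs, h2⟩ := hv.small (ε / 4) (by positivity)
    refine ⟨min r s, lt_min hr hs, ?_⟩
    filter_upwards [h1, h2] with n h1 h2
    have h3 : Ln C (min r s) (fun z => u n z + v n z) ≤
        ENNReal.ofReal 2 * Ln C (min r s) (u n) + ENNReal.ofReal 2 * Ln C (min r s) (v n) := by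
      refine Ln_le_of_ae (by norm_num) (by norm_num) ?_
      filter_upwards [ae_diff_near hC (qu n) (min r s), ae_diff_near hC (qv n) (min r s)]
        with z hz1 hz2
      exact en_add_le hz1 hz2
    refine h3.trans ?_
    have h4 := (Ln_mono (u := u n) (C := C) (min_le_left r s)).trans h1
    have h5 := (Ln_mono (u := v n) (C := C) (min_le_right r s)).trans h2
    calc _ ≤ ENNReal.ofReal 2 * ENNReal.ofReal (ε / 4) + ENNReal.ofReal 2 * ENNReal.ofReal (ε / 4) := by
          gcongr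
      _ = ENNReal.ofReal ε := by
          rw [← ENNReal.ofReal_mul (by norm_num), ← ENNReal.ofReal_add (by positivity) (by positivity)]
          congr 1; ring

lemma Cv.mul (hC : IsClosed C) {u v : ℕ → ℂ → ℝ} {u' v' : ℂ → ℝ} (hu : Cv C u u')
    (hv : Cv C v v') (qu : ∀ n, Q C (u n)) (qv : ∀ n, Q C (v n)) :
    Cv C (fun n z => u n z * v n z) (fun z => u' z * v' z) := by
  obtain ⟨M₀, hM₀⟩ := hu.bdd
  obtain ⟨N₀, hN₀⟩ := hv.bdd
  obtain ⟨M, hMp, hM, hN⟩ : ∃ M, 0 < M ∧ (∀ n z, |u n z| ≤ M) ∧ ∀ n z, |v n z| ≤ M :=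
    ⟨max (max M₀ N₀) 1, lt_max_of_lt_right one_pos,
      fun n z => (hM₀ n z).trans ((le_max_left _ _).trans (le_max_left _ _)),
      fun n z => (hN₀ n z).trans ((le_max_right _ _).trans (le_max_left _ _))⟩
  refine ⟨fun r hr => ?_, ?_, fun ε hε => ?_⟩
  · filter_upwards [hu.eq r hr, hv.eq r hr] with n h1 h2 z hz
    rw [h1 z hz, h2 z hz]
  · refine ⟨M * M, fun n z => ?_⟩
    rw [abs_mul]; exact mul_le_mul (hM n z) (hN n z) (abs_nonneg _) hMp.le
  · obtain ⟨r, hr, h1⟩ := hu.small (ε / (4 * M ^ 2)) (by positivity)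
    obtain ⟨s, hs, h2⟩ := hv.small (ε / (4 * M ^ 2)) (by positivity)
    refine ⟨min r s, lt_min hr hs, ?_⟩
    filter_upwards [h1, h2] with n h1 h2
    have h3 : Ln C (min r s) (fun z => u n z * v n z) ≤
        ENNReal.ofReal (2 * M ^ 2) * Ln C (min r s) (u n) +
          ENNReal.ofReal (2 * M ^ 2) * Ln C (min r s) (v n) := by
      refine Ln_le_of_ae (by positivity) (by positivity) ?_
      filter_upwards [ae_diff_near hC (qu n) (min r s), ae_diff_near hC (qv n) (min r s)]
        with z hz1 hz2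
      exact en_mul_le hz1 hz2 (hM n z) (hN n z)
    refine h3.trans ?_
    have h4 := (Ln_mono (u := u n) (C := C) (min_le_left r s)).trans h1
    have h5 := (Ln_mono (u := v n) (C := C) (min_le_right r s)).trans h2
    calc _ ≤ ENNReal.ofReal (2 * M ^ 2) * ENNReal.ofReal (ε / (4 * M ^ 2)) +
          ENNReal.ofReal (2 * M ^ 2) * ENNReal.ofReal (ε / (4 * M ^ 2)) := by
          gcongr
      _ = ENNReal.ofReal ε := by
          rw [← ENNReal.ofReal_mul (by positivity),
            ← ENNReal.ofReal_add (by positivity) (by positivity)]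
          congr 1; field_simp; ring

lemma Cv.comp (hC : IsClosed C) {u : ℕ → ℂ → ℝ} {u' : ℂ → ℝ} (hu : Cv C u u')
    (qu : ∀ n, Q C (u n)) {h : ℝ → ℝ} {K : ℝ≥0} (hh : LipschitzWith K h) :
    Cv C (fun n z => h (u n z)) (fun z => h (u' z)) := by
  refine ⟨fun r hr => ?_, ?_, fun ε hε => ?_⟩
  · filter_upwards [hu.eq r hr] with n h1 z hz
    rw [h1 z hz]
  · obtain ⟨M, hM⟩ := hu.bdd
    refine ⟨|h 0| + K * M, fun n z => ?_⟩
    have h1 := hh.dist_le_mul (u n z) 0
    rw [Real.dist_eq, Real.dist_eq, sub_zero] at h1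
    have h2 : |h (u n z)| ≤ |h 0| + |h (u n z) - h 0| := by
      have := abs_add_le (h 0) (h (u n z) - h 0)
      rwa [add_sub_cancel] at this
    have h3 : (K : ℝ) * |u n z| ≤ K * M := mul_le_mul_of_nonneg_left (hM n z) K.2
    linarith
  · obtain ⟨r, hr, h1⟩ := hu.small (ε / (K ^ 2 + 1)) (by positivity)
    refine ⟨r, hr, ?_⟩
    filter_upwards [h1] with n h1
    have h3 : Ln C r (fun z => h (u n z)) ≤
        ENNReal.ofReal (K ^ 2) * Ln C r (u n) + ENNReal.ofReal 0 * Ln C r (u n) := by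
      refine Ln_le_of_ae (by positivity) le_rfl ?_
      filter_upwards [ae_diff_near hC (qu n) r] with z hz1
      rw [zero_mul, add_zero]
      exact en_comp_le hh hz1
    rw [ENNReal.ofReal_zero, zero_mul, add_zero] at h3
    refine h3.trans ?_
    calc _ ≤ ENNReal.ofReal (K ^ 2) * ENNReal.ofReal (ε / (K ^ 2 + 1)) := by gcongr
      _ ≤ ENNReal.ofReal ε := by
          rw [← ENNReal.ofReal_mul (by positivity)]
          refine ENNReal.ofReal_le_ofReal ?_
          rw [mul_div_assoc', div_le_iff₀ (by positivity)]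
          nlinarith [sq_nonneg (K : ℝ)]

/-- the same expression in the approximating families -/
theorem gen_cv (hC : IsClosed C) (hq : ∀ n i, Q C (b n i))
    (h : ∀ i, Cv C (fun n => b n i) (b' i)) {a : ℂ → ℝ} (ha : Gen C b' a) :
    ∃ a' : ℕ → ℂ → ℝ, (∀ n, Gen C (b n) (a' n)) ∧ Cv C a' a := by
  induction ha with
  | const c => exact ⟨fun _ _ => c, fun n => Gen.const c, Cv.of_const hC (Q.const C c)⟩
  | lc h => exact ⟨fun _ => _, fun n => Gen.lc h, Cv.of_const hC h.q⟩
  | of i => exact ⟨fun n => b n i, fun n => Gen.of i, h i⟩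
  | add _ _ h1 h2 =>
    obtain ⟨u, gu, cu⟩ := h1
    obtain ⟨v, gv, cv⟩ := h2
    exact ⟨_, fun n => (gu n).add (gv n), cu.add hC cv (fun n => (gu n).q hC (hq n))
      (fun n => (gv n).q hC (hq n))⟩
  | mul _ _ h1 h2 =>
    obtain ⟨u, gu, cu⟩ := h1
    obtain ⟨v, gv, cv⟩ := h2
    exact ⟨_, fun n => (gu n).mul (gv n), cu.mul hC cv (fun n => (gu n).q hC (hq n))
      (fun n => (gv n).q hC (hq n))⟩
  | comp hh _ h1 =>
    obtain ⟨u, gu, cu⟩ := h1
    exact ⟨_, fun n => Gen.comp hh (gu n), cu.comp hC (fun n => (gu n).q hC (hq n)) hh⟩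

/-- limits of the wedge integral -/
theorem om_tendsto (hC : IsClosed C) {u v : ℕ → ℂ → ℝ} {u' v' : ℂ → ℝ} (hu : Cv C u u')
    (hv : Cv C v v') (qu : ∀ n, Q C (u n)) (qv : ∀ n, Q C (v n)) (qu' : Q C u') (qv' : Q C v') :
    Tendsto (fun n => om C (u n) (v n)) atTop (𝓝 (om C u' v')) := by
  rw [Metric.tendsto_nhds]
  intro ε hε
  obtain ⟨r₁, hr₁, h1⟩ := hu.small (ε / 8) (by positivity)
  obtain ⟨r₂, hr₂, h2⟩ := hv.small (ε / 8) (by positivity)
  obtain ⟨r₃, hr₃, h3⟩ := qu'.small hC (ε := ε / 8) (by positivity)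
  obtain ⟨r₄, hr₄, h4⟩ := qv'.small hC (ε := ε / 8) (by positivity)
  set r := min (min r₁ r₂) (min r₃ r₄) with hr
  have hr0 : 0 < r := lt_min (lt_min hr₁ hr₂) (lt_min hr₃ hr₄)
  filter_upwards [h1, h2, hu.eq (r / 2) (half_pos hr0), hv.eq (r / 2) (half_pos hr0)]
    with n h1 h2 e1 e2
  set S : Set ℂ := Cᶜ ∩ thickening r C with hS
  have hSm : MeasurableSet S := (hC.isOpen_compl.inter isOpen_thickening).measurableSet
  have i1 := integrableOn_wdg (qu n) (qv n)
  have i2 := integrableOn_wdg qu' qv'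
  have key : ∀ (w : ℂ → ℝ) (q : Q C w) (hle : Ln C r w ≤ ENNReal.ofReal (ε / 8)),
      ∫ z in S, en w z ≤ ε / 8 := by
    intro w q hle
    have hi : IntegrableOn (en w) S := q.fin.mono_set inter_subset_left
    have := ofReal_integral_eq_lintegral_ofReal hi (Eventually.of_forall fun z => en_nonneg w z)
    unfold Ln at hle
    rw [← this] at hle
    exact (ENNReal.ofReal_le_ofReal_iff (by positivity)).1 hle
  have k1 := key (u n) (qu n) ((Ln_mono ((min_le_left _ _).trans (min_le_left _ _))).trans h1)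
  have k2 := key (v n) (qv n) ((Ln_mono ((min_le_left _ _).trans (min_le_right _ _))).trans h2)
  have k3 := key u' qu' ((Ln_mono ((min_le_right _ _).trans (min_le_left _ _))).trans h3)
  have k4 := key v' qv' ((Ln_mono ((min_le_right _ _).trans (min_le_right _ _))).trans h4)
  have hdiff : om C (u n) (v n) - om C u' v' = ∫ z in S, (wdg (u n) (v n) z - wdg u' v' z) := by
    unfold om
    rw [← integral_sub i1 i2]
    have i3 : IntegrableOn (fun z => wdg (u n) (v n) z - wdg u' v' z) Cᶜ := i1.sub i2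
    rw [← integral_inter_add_sdiff hSm i3]
    have e0 : ∫ z in Cᶜ \ S, (wdg (u n) (v n) z - wdg u' v' z) = 0 := by
      refine setIntegral_eq_zero_of_forall_eq_zero fun z hz => ?_
      have hz2 : z ∉ thickening r C := fun h => hz.2 ⟨hz.1, h⟩
      have g1 := eventuallyEq_of_eq_off hr0 e1 hz2
      have g2 := eventuallyEq_of_eq_off hr0 e2 hz2
      rw [wdg_eq_of_eventuallyEq g1 g2, sub_self]
    have e3 : Cᶜ ∩ S = S := inter_eq_right.2 inter_subset_left
    rw [e3, e0, add_zero]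
  rw [Real.dist_eq, hdiff]
  have hb : ∀ z, |wdg (u n) (v n) z - wdg u' v' z| ≤
      (en (u n) z + en (v n) z) / 2 + (en u' z + en v' z) / 2 := fun z =>
    (abs_sub _ _).trans (add_le_add (abs_wdg_le _ _ _) (abs_wdg_le _ _ _))
  have j1 : IntegrableOn (en (u n)) S := (qu n).fin.mono_set inter_subset_left
  have j2 : IntegrableOn (en (v n)) S := (qv n).fin.mono_set inter_subset_left
  have j3 : IntegrableOn (en u') S := qu'.fin.mono_set inter_subset_left
  have j4 : IntegrableOn (en v') S := qv'.fin.mono_set inter_subset_left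
  calc |∫ z in S, (wdg (u n) (v n) z - wdg u' v' z)|
      ≤ ∫ z in S, |wdg (u n) (v n) z - wdg u' v' z| := abs_integral_le_integral_abs
    _ ≤ ∫ z in S, ((en (u n) z + en (v n) z) / 2 + (en u' z + en v' z) / 2) := by
        refine integral_mono_of_nonneg (Eventually.of_forall fun z => abs_nonneg _) ?_
          (Eventually.of_forall hb)
        exact ((j1.add j2).div_const 2).add ((j3.add j4).div_const 2)
    _ = (∫ z in S, en (u n) z) / 2 + (∫ z in S, en (v n) z) / 2 +
        ((∫ z in S, en u' z) / 2 + (∫ z in S, en v' z) / 2) := by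
        have a1 : ∫ z in S, (en (u n) z + en (v n) z) =
          (∫ z in S, en (u n) z) + ∫ z in S, en (v n) z := integral_add j1 j2
        have a2 : ∫ z in S, (en u' z + en v' z) =
          (∫ z in S, en u' z) + ∫ z in S, en v' z := integral_add j3 j4
        have a3 : ∫ z in S, ((en (u n) z + en (v n) z) / 2 + (en u' z + en v' z) / 2) =
          (∫ z in S, (en (u n) z + en (v n) z) / 2) + ∫ z in S, (en u' z + en v' z) / 2 :=
          integral_add ((j1.add j2).div_const 2) ((j3.add j4).div_const 2)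
        rw [a3, integral_div, integral_div, a1, a2]
        ring
    _ ≤ ε / 8 / 2 + ε / 8 / 2 + (ε / 8 / 2 + ε / 8 / 2) := by gcongr
    _ < ε := by linarith

/-- **Isotropy is closed.** -/
theorem iso_of_cv (hC : IsClosed C) (hq : ∀ n i, Q C (b n i)) (hq' : ∀ i, Q C (b' i))
    (h : ∀ i, Cv C (fun n => b n i) (b' i)) (hb : ∃ᶠ n in atTop, Iso C (b n)) : Iso C b' := by
  intro u v hu hv
  obtain ⟨u', gu, cu⟩ := gen_cv hC hq h hu
  obtain ⟨v', gv, cv⟩ := gen_cv hC hq h hv
  have hlim := om_tendsto hC cu cv (fun n => (gu n).q hC (hq n)) (fun n => (gv n).q hC (hq n))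
    (hu.q hC hq') (hv.q hC hq')
  have h0 : ∃ᶠ n in atTop, om C (u' n) (v' n) = 0 := hb.mono fun n hn => hn _ _ (gu n) (gv n)
  by_contra hne
  have := (hlim.eventually (isOpen_ne.mem_nhds hne)).and_frequently h0
  obtain ⟨n, h1, h2⟩ := this.exists
  exact h1 h2

end Closed

end

end Crest.Agent.R105.Bd_775
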