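import Crest.Agent.R105.Bd2_775

/-!
# Row 105, S0139 [B]: the complete metric on the honest class (helper775)

`Near C r u v` : (`1 ≤ r` or `u = v` off the `r`-neighbourhood of `C`), `|u - v| ≤ r`,
`∫_{Cᶜ} en (u - v) ≤ r²`;  `Hn C = {u // D C u}`,  `metr hC : MetricSpace (Hn C)` with
`dist u v = inf {r > 0 | Near C r u v}`; complete.
-/

set_option autoImplicit false

open MeasureTheory Set Filter Topology Metric
open scoped NNReal ENNReal

namespace Crest.Agent.R105.Bd_775

noncomputable section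

/-! ### metrics from gauges -/

/-- a family of relations defining a metric -/
structure Gauge {X : Type*} (N : ℝ → X → X → Prop) : Prop where
  refl : ∀ r > 0, ∀ x, N r x x
  symm : ∀ r > 0, ∀ x y, N r x y → N r y x
  tri : ∀ r s, 0 < r → 0 < s → ∀ x y z, N r x y → N s y z → N (r + s) x z
  mono : ∀ r s, 0 < r → r ≤ s → ∀ x y, N r x y → N s x y
  ex : ∀ x y, ∃ r > 0, N r x y
  sep : ∀ x y, (∀ r > 0, N r x y) → x = y

namespace Gauge
variable {X : Type*} {N : ℝ → X → X → Prop}

/-- distance of a gauge -/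
def gd (N : ℝ → X → X → Prop) (x y : X) : ℝ := sInf {r | 0 < r ∧ N r x y}

lemma bddBelow (x y : X) : BddBelow {r : ℝ | 0 < r ∧ N r x y} := ⟨0, fun _ h => h.1.le⟩

lemma gd_nonneg (x y : X) : 0 ≤ gd N x y :=
  Real.sInf_nonneg fun r (h : 0 < r ∧ N r x y) => h.1.le

lemma gd_le {x y : X} {r : ℝ} (hr : 0 < r) (h : N r x y) : gd N x y ≤ r :=
  csInf_le (bddBelow x y) ⟨hr, h⟩

lemma of_gd_lt (g : Gauge N) {x y : X} {r : ℝ} (h : gd N x y < r) : N r x y := by
  obtain ⟨r₀, hr₀, h₀⟩ := g.ex x y
  have hne : {r : ℝ | 0 < r ∧ N r x y}.Nonempty := ⟨r₀, hr₀, h₀⟩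
  obtain ⟨s, hs, hsr⟩ := exists_lt_of_csInf_lt hne h
  exact g.mono s r hs.1 hsr.le x y hs.2

/-- the metric space of a gauge -/
@[instance_reducible] def metric (g : Gauge N) : MetricSpace X where
  dist := gd N
  dist_self x := le_antisymm (le_of_forall_pos_le_add fun r hr => by
    rw [zero_add]; exact gd_le hr (g.refl r hr x)) (gd_nonneg x x)
  dist_comm x y := by
    unfold gd; congr 1; ext r
    exact ⟨fun h => ⟨h.1, g.symm r h.1 _ _ h.2⟩, fun h => ⟨h.1, g.symm r h.1 _ _ h.2⟩⟩
  dist_triangle x y z := by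
    refine le_of_forall_pos_le_add fun e he => ?_
    have h1 := g.of_gd_lt (lt_add_of_pos_right (gd N x y) (half_pos he))
    have h2 := g.of_gd_lt (lt_add_of_pos_right (gd N y z) (half_pos he))
    have p1 : 0 < gd N x y + e / 2 := by have := gd_nonneg (N := N) x y; positivity
    have p2 : 0 < gd N y z + e / 2 := by have := gd_nonneg (N := N) y z; positivity
    have h3 := gd_le (add_pos p1 p2) (g.tri _ _ p1 p2 _ _ _ h1 h2)
    linarith
  eq_of_dist_eq_zero {x y} h := g.sep x y fun r hr => g.of_gd_lt (lt_of_le_of_lt (le_of_eq h) hr)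

end Gauge

/-! ### the relation `Near` -/

/-- closeness of order `r` -/
structure Near (C : Set ℂ) (r : ℝ) (u v : ℂ → ℝ) : Prop where
  off : 1 ≤ r ∨ ∀ z ∉ thickening r C, u z = v z
  sup : ∀ z, |u z - v z| ≤ r
  enr : ∫⁻ z in Cᶜ, ENNReal.ofReal (en (fun w => u w - v w) z) ≤ ENNReal.ofReal (r ^ 2)

section
variable {C : Set ℂ} {u v w : ℂ → ℝ} {r s : ℝ}

lemma Near.refl (hr : 0 < r) (u : ℂ → ℝ) : Near C r u u := by
  refine ⟨Or.inr fun _ _ => rfl, fun z => by simpa using hr.le, ?_⟩
  have : ∀ z, en (fun w => u w - u w) z = 0 := fun z => by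
    have : (fun w => u w - u w) = fun _ : ℂ => (0 : ℝ) := funext fun w => sub_self _
    rw [this]; exact en_const 0 z
  refine le_trans (le_of_eq ?_) zero_le
  refine (lintegral_congr fun z => ?_).trans lintegral_zero
  rw [this, ENNReal.ofReal_zero]

lemma gx_neg (u : ℂ → ℝ) (z : ℂ) : gx (fun w => - u w) z = - gx u z := by
  unfold gx; rw [fderiv_fun_neg]; rfl
lemma gy_neg (u : ℂ → ℝ) (z : ℂ) : gy (fun w => - u w) z = - gy u z := by
  unfold gy; rw [fderiv_fun_neg]; rfl
lemma en_neg (u : ℂ → ℝ) (z : ℂ) : en (fun w => - u w) z = en u z := by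
  unfold en; rw [gx_neg, gy_neg]; ring

lemma en_sub_comm (u v : ℂ → ℝ) (z : ℂ) :
    en (fun w => u w - v w) z = en (fun w => v w - u w) z := by
  rw [← en_neg]; congr 1; funext w; ring

lemma Near.symm (h : Near C r u v) : Near C r v u := by
  refine ⟨h.off.imp id fun h z hz => (h z hz).symm, fun z => by
    rw [abs_sub_comm]; exact h.sup z, ?_⟩
  refine le_trans (le_of_eq ?_) h.enr
  congr 1; funext z; rw [en_sub_comm]

lemma Near.mono (hr : 0 < r) (hrs : r ≤ s) (h : Near C r u v) : Near C s u v := by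
  refine ⟨?_, fun z => (h.sup z).trans hrs, h.enr.trans (ENNReal.ofReal_le_ofReal
    (pow_le_pow_left₀ hr.le hrs 2))⟩
  rcases h.off with h1 | h1
  · exact Or.inl (h1.trans hrs)
  · exact Or.inr fun z hz => h1 z fun h2 => hz (thickening_mono hrs C h2)

/-- Minkowski's inequality with weights -/
lemma lintegral_en_tri (hC : IsClosed C) (hr : 0 < r) (hs : 0 < s) {f g : ℂ → ℝ}
    (hf : LocallyLipschitzOn Cᶜ f) (hg : LocallyLipschitzOn Cᶜ g)
    (h1 : ∫⁻ z in Cᶜ, ENNReal.ofReal (en f z) ≤ ENNReal.ofReal (r ^ 2))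
    (h2 : ∫⁻ z in Cᶜ, ENNReal.ofReal (en g z) ≤ ENNReal.ofReal (s ^ 2)) :
    ∫⁻ z in Cᶜ, ENNReal.ofReal (en (fun w => f w + g w) z) ≤ ENNReal.ofReal ((r + s) ^ 2) := by
  have hA : (0 : ℝ) ≤ 1 + s / r := by positivity
  have hB : (0 : ℝ) ≤ 1 + r / s := by positivity
  have key : ∀ a b : ℝ, (a + b) ^ 2 ≤ (1 + s / r) * a ^ 2 + (1 + r / s) * b ^ 2 := by
    intro a b
    have : (1 + s / r) * a ^ 2 + (1 + r / s) * b ^ 2 - (a + b) ^ 2 =
        (s * a - r * b) ^ 2 / (r * s) := by field_simp; ring
    have h3 : 0 ≤ (s * a - r * b) ^ 2 / (r * s) := by positivity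
    linarith
  calc ∫⁻ z in Cᶜ, ENNReal.ofReal (en (fun w => f w + g w) z)
      ≤ ∫⁻ z in Cᶜ, (ENNReal.ofReal (1 + s / r) * ENNReal.ofReal (en f z) +
          ENNReal.ofReal (1 + r / s) * ENNReal.ofReal (en g z)) := by
        refine lintegral_mono_ae ?_
        filter_upwards [ae_diff hC.isOpen_compl hf, ae_diff hC.isOpen_compl hg] with z d1 d2
        rw [← ENNReal.ofReal_mul hA, ← ENNReal.ofReal_mul hB,
          ← ENNReal.ofReal_add (mul_nonneg hA (en_nonneg _ _)) (mul_nonneg hB (en_nonneg _ _))]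
        refine ENNReal.ofReal_le_ofReal ?_
        unfold en
        rw [gx_add d1 d2, gy_add d1 d2]
        have e1 := key (gx f z) (gx g z)
        have e2 := key (gy f z) (gy g z)
        linarith
    _ = ENNReal.ofReal (1 + s / r) * (∫⁻ z in Cᶜ, ENNReal.ofReal (en f z)) +
          ENNReal.ofReal (1 + r / s) * (∫⁻ z in Cᶜ, ENNReal.ofReal (en g z)) := by
        rw [lintegral_add_left ((measurable_en f).ennreal_ofReal.const_mul _),
          lintegral_const_mul _ (measurable_en f).ennreal_ofReal,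
          lintegral_const_mul _ (measurable_en g).ennreal_ofReal]
    _ ≤ ENNReal.ofReal (1 + s / r) * ENNReal.ofReal (r ^ 2) +
          ENNReal.ofReal (1 + r / s) * ENNReal.ofReal (s ^ 2) := by gcongr
    _ = ENNReal.ofReal ((r + s) ^ 2) := by
        rw [← ENNReal.ofReal_mul hA, ← ENNReal.ofReal_mul hB,
          ← ENNReal.ofReal_add (by positivity) (by positivity)]
        congr 1; field_simp; ring

lemma Near.tri (hC : IsClosed C) (hr : 0 < r) (hs : 0 < s) (hu : LocallyLipschitzOn Cᶜ u)
    (hv : LocallyLipschitzOn Cᶜ v) (hw : LocallyLipschitzOn Cᶜ w) (h1 : Near C r u v)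
    (h2 : Near C s v w) : Near C (r + s) u w := by
  refine ⟨?_, fun z => ?_, ?_⟩
  · rcases h1.off with h3 | h3
    · exact Or.inl (by linarith)
    rcases h2.off with h4 | h4
    · exact Or.inl (by linarith)
    refine Or.inr fun z hz => ?_
    rw [h3 z fun h => hz (thickening_mono (by linarith) C h),
      h4 z fun h => hz (thickening_mono (by linarith) C h)]
  · have := abs_add_le (u z - v z) (v z - w z)
    rw [sub_add_sub_cancel] at this
    exact this.trans (add_le_add (h1.sup z) (h2.sup z))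
  · have := lintegral_en_tri hC hr hs (ll_sub hu hv) (ll_sub hv hw) h1.enr h2.enr
    refine le_trans (le_of_eq ?_) this
    congr 1; funext z; congr 2; funext w'; ring

lemma Q.lintegral_en_ne_top (hu : Q C u) : ∫⁻ z in Cᶜ, ENNReal.ofReal (en u z) ≠ ∞ := by
  have := hu.fin.2
  rw [hasFiniteIntegral_iff_ofReal (Eventually.of_forall fun z => en_nonneg u z)] at this
  exact this.ne

lemma integrableOn_en_of (h : ∫⁻ z in Cᶜ, ENNReal.ofReal (en u z) ≠ ∞) :
    IntegrableOn (en u) Cᶜ := by
  refine ⟨(measurable_en u).aestronglyMeasurable, ?_⟩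
  rw [hasFiniteIntegral_iff_ofReal (Eventually.of_forall fun z => en_nonneg u z)]
  exact h.lt_top

lemma near_ex (hC : IsClosed C) (hu : Q C u) (hv : Q C v) : ∃ r > 0, Near C r u v := by
  obtain ⟨M, hM⟩ := (hu.sub hC hv).bdd
  have hf := (hu.sub hC hv).lintegral_en_ne_top
  set A := (∫⁻ z in Cᶜ, ENNReal.ofReal (en (fun w => u w - v w) z)).toReal with hA
  have hA0 : 0 ≤ A := ENNReal.toReal_nonneg
  refine ⟨max (max M 1) (A + 1), lt_max_of_lt_left (lt_max_of_lt_right one_pos),
    Or.inl ((le_max_right _ _).trans (le_max_left _ _)),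
    fun z => (hM z).trans ((le_max_left _ _).trans (le_max_left _ _)), ?_⟩
  rw [← ENNReal.ofReal_toReal hf]
  refine ENNReal.ofReal_le_ofReal ?_
  rw [← hA]
  have h1 : A + 1 ≤ max (max M 1) (A + 1) := le_max_right _ _
  nlinarith

end

/-! ### the metric space -/

/-- honest functions -/
def Hn (C : Set ℂ) : Type := {u : ℂ → ℝ // D C u}

/-- the gauge of `Near` -/
lemma gauge {C : Set ℂ} (hC : IsClosed C) :
    Gauge (fun (r : ℝ) (u v : Hn C) => Near C r u.1 v.1) where
  refl r hr x := Near.refl hr x.1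
  symm r _ x y h := h.symm
  tri r s hr hs x y z h1 h2 := h1.tri hC hr hs x.2.loc y.2.loc z.2.loc h2
  mono r s hr hrs x y h := h.mono hr hrs
  ex x y := near_ex hC x.2.q y.2.q
  sep x y h := by
    refine Subtype.ext (funext fun z => ?_)
    by_contra hne
    have hpos : 0 < |x.1 z - y.1 z| := abs_pos.2 (sub_ne_zero.2 hne)
    have := (h (|x.1 z - y.1 z| / 2) (half_pos hpos)).sup z
    linarith

/-- the metric on `Hn C` -/
@[instance_reducible] def metr {C : Set ℂ} (hC : IsClosed C) : MetricSpace (Hn C) := (gauge hC).metric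

section Metric
variable {C : Set ℂ} (hC : IsClosed C)
include hC

lemma near_of_dist_lt {x y : Hn C} {r : ℝ} (h : (metr hC).dist x y < r) : Near C r x.1 y.1 :=
  (gauge hC).of_gd_lt h

lemma dist_le_of_near {x y : Hn C} {r : ℝ} (hr : 0 < r) (h : Near C r x.1 y.1) :
    (metr hC).dist x y ≤ r := Gauge.gd_le hr h

/-- Fatou for the energy of the difference -/
lemma near_limit {u : ℕ → ℂ → ℝ} {x : ℂ → ℝ} {B : ℕ → ℝ}
    (hBt : Tendsto B atTop (𝓝 0)) (hB1 : ∀ n, B n < 1)
    (h : ∀ N n m, N ≤ n → N ≤ m → Near C (B N) (u n) (u m))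
    (hx : ∀ z, Tendsto (fun n => u n z) atTop (𝓝 (x z))) {N n : ℕ} (hn : N ≤ n) :
    Near C (B N) (u n) x := by
  have hoff : ∀ N n m, N ≤ n → N ≤ m → ∀ z ∉ thickening (B N) C, u n z = u m z := by
    intro N n m h1 h2
    rcases (h N n m h1 h2).off with h3 | h3
    · exact absurd (hB1 N) (not_lt.2 h3)
    · exact h3
  have hoffx : ∀ N n, N ≤ n → ∀ z ∉ thickening (B N) C, u n z = x z := by
    intro N n hn z hz
    refine tendsto_nhds_unique (tendsto_const_nhds) ((hx z).congr' ?_)
    filter_upwards [eventually_ge_atTop N] with m hm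
    exact (hoff N n m hn hm z hz).symm
  refine ⟨Or.inr (hoffx N n hn), fun z => ?_, ?_⟩
  · refine le_of_tendsto ((tendsto_const_nhds.sub (hx z)).abs) ?_
    filter_upwards [eventually_ge_atTop N] with m hm
    exact (h N n m hn hm).sup z
  · have hpt : ∀ z ∈ Cᶜ, ∀ᶠ m in atTop,
        en (fun w => u n w - u m w) z = en (fun w => u n w - x w) z := by
      intro z hz
      obtain ⟨ρ, hρ, hρz⟩ := Metric.isOpen_iff.1 hC.isOpen_compl z hz
      obtain ⟨M, hM⟩ := (hBt.eventually (gt_mem_nhds (half_pos hρ))).exists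
      filter_upwards [eventually_ge_atTop M] with m hm
      refine en_eq_of_eventuallyEq ?_
      filter_upwards [ball_mem_nhds z (half_pos hρ)] with w hw
      have hwn : w ∉ thickening (B M) C := by
        intro hw2
        obtain ⟨c, hc, hd⟩ := mem_thickening_iff.1 hw2
        refine hρz (mem_ball.2 ?_) hc
        rw [mem_ball] at hw
        have := dist_triangle c w z
        rw [dist_comm c w] at this
        linarith
      rw [hoffx M m hm w hwn]
    have hF := lintegral_liminf_le (μ := volume.restrict Cᶜ) (ι := ℕ) (u := atTop)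
      (f := fun m z => ENNReal.ofReal (en (fun w => u n w - u m w) z))
      (fun m => (measurable_en _).ennreal_ofReal)
    have h1 : ∫⁻ z in Cᶜ, ENNReal.ofReal (en (fun w => u n w - x w) z) ≤
        ∫⁻ z in Cᶜ, liminf (fun m => ENNReal.ofReal (en (fun w => u n w - u m w) z)) atTop := by
      refine lintegral_mono_ae ?_
      filter_upwards [ae_restrict_mem hC.isOpen_compl.measurableSet] with z hz
      refine le_of_eq ?_
      have := hpt z hz
      have h2 : Tendsto (fun m => ENNReal.ofReal (en (fun w => u n w - u m w) z)) atTop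
          (𝓝 (ENNReal.ofReal (en (fun w => u n w - x w) z))) :=
        tendsto_const_nhds.congr' (this.mono fun m hm => by simp only [hm])
      exact h2.liminf_eq.symm
    refine h1.trans (hF.trans ?_)
    refine liminf_le_of_frequently_le' ?_
    refine Eventually.frequently ?_
    filter_upwards [eventually_ge_atTop N] with m hm
    exact (h N n m hn hm).enr

lemma complete : @CompleteSpace (Hn C) (metr hC).toUniformSpace := by
  let _ := metr hC
  refine Metric.complete_of_convergent_controlled_sequences (fun n => (1 / 2 : ℝ) ^ (n + 1))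
    (fun n => by positivity) ?_
  intro u hu
  set B : ℕ → ℝ := fun n => (1 / 2 : ℝ) ^ (n + 1) with hBdef
  have hB0 : ∀ n, 0 < B n := fun n => by positivity
  have hBt : Tendsto B atTop (𝓝 0) := by
    have := (tendsto_pow_atTop_nhds_zero_of_lt_one (r := (1 / 2 : ℝ)) (by norm_num)
      (by norm_num)).comp (tendsto_add_atTop_nat 1)
    exact this
  have hB1 : ∀ n, B n < 1 := fun n => pow_lt_one₀ (by norm_num) (by norm_num) (by omega)
  have hN : ∀ N n m, N ≤ n → N ≤ m → Near C (B N) (u n).1 (u m).1 :=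
    fun N n m h1 h2 => near_of_dist_lt hC (hu N n m h1 h2)
  have hcau : ∀ z, CauchySeq fun n => (u n).1 z := by
    intro z
    rw [Metric.cauchySeq_iff']
    intro ε hε
    obtain ⟨N, hN'⟩ := (hBt.eventually (gt_mem_nhds hε)).exists
    refine ⟨N, fun n hn => ?_⟩
    rw [Real.dist_eq]
    exact lt_of_le_of_lt ((hN N n N hn le_rfl).sup z) hN'
  choose x hx using fun z => cauchySeq_tendsto_of_complete (hcau z)
  have hnear : ∀ N n, N ≤ n → Near C (B N) (u n).1 x := fun N n hn =>
    near_limit hC hBt hB1 hN hx hn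
  have hoff : ∀ N n, N ≤ n → ∀ z ∉ thickening (B N) C, (u n).1 z = x z := by
    intro N n hn
    rcases (hnear N n hn).off with h3 | h3
    · exact absurd (hB1 N) (not_lt.2 h3)
    · exact h3
  have hD : D C x := by
    refine ⟨?_, ?_, ?_, ?_⟩
    · have hunif : TendstoUniformly (fun n => (u n).1) x atTop := by
        rw [Metric.tendstoUniformly_iff]
        intro ε hε
        filter_upwards [hBt.eventually (gt_mem_nhds hε)] with n hn z
        rw [dist_comm, Real.dist_eq]
        exact lt_of_le_of_lt ((hnear n n le_rfl).sup z) hn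
      exact hunif.continuous (Frequently.of_forall fun n => (u n).2.cont)
    · obtain ⟨M, hM⟩ := (u 0).2.bdd
      refine ⟨M + B 0, fun z => ?_⟩
      have h1 := (hnear 0 0 le_rfl).sup z
      have h2 : |x z| ≤ |(u 0).1 z| + |(u 0).1 z - x z| := by
        have := abs_sub ((u 0).1 z) ((u 0).1 z - x z)
        rwa [sub_sub_cancel] at this
      linarith [hM z]
    · intro z hz
      obtain ⟨ρ, hρ, hρz⟩ := Metric.isOpen_iff.1 hC.isOpen_compl z hz
      obtain ⟨M, hM⟩ := (hBt.eventually (gt_mem_nhds (half_pos hρ))).exists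
      obtain ⟨K, t, ht, hL⟩ := (u M).2.loc hz
      rw [hC.isOpen_compl.nhdsWithin_eq hz] at ht
      refine ⟨K, t ∩ ball z (ρ / 2), ?_, ?_⟩
      · rw [hC.isOpen_compl.nhdsWithin_eq hz]
        exact inter_mem ht (ball_mem_nhds z (half_pos hρ))
      · have hEq : EqOn (u M).1 x (t ∩ ball z (ρ / 2)) := by
          intro w hw
          refine hoff M M le_rfl w fun hw2 => ?_
          obtain ⟨c, hc, hd⟩ := mem_thickening_iff.1 hw2
          refine hρz (mem_ball.2 ?_) hc
          have hw3 := mem_ball.1 hw.2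
          have := dist_triangle c w z
          rw [dist_comm c w] at this
          linarith
        intro a ha b hb
        rw [← hEq ha, ← hEq hb]
        exact hL ha.1 hb.1
    · have hll : LocallyLipschitzOn Cᶜ x := by
        intro z hz
        obtain ⟨ρ, hρ, hρz⟩ := Metric.isOpen_iff.1 hC.isOpen_compl z hz
        obtain ⟨M, hM⟩ := (hBt.eventually (gt_mem_nhds (half_pos hρ))).exists
        obtain ⟨K, t, ht, hL⟩ := (u M).2.loc hz
        rw [hC.isOpen_compl.nhdsWithin_eq hz] at ht
        refine ⟨K, t ∩ ball z (ρ / 2), ?_, ?_⟩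
        · rw [hC.isOpen_compl.nhdsWithin_eq hz]
          exact inter_mem ht (ball_mem_nhds z (half_pos hρ))
        · have hEq : EqOn (u M).1 x (t ∩ ball z (ρ / 2)) := by
            intro w hw
            refine hoff M M le_rfl w fun hw2 => ?_
            obtain ⟨c, hc, hd⟩ := mem_thickening_iff.1 hw2
            refine hρz (mem_ball.2 ?_) hc
            have hw3 := mem_ball.1 hw.2
            have := dist_triangle c w z
            rw [dist_comm c w] at this
            linarith
          intro a ha b hb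
          rw [← hEq ha, ← hEq hb]
          exact hL ha.1 hb.1
      have h1 : ∫⁻ z in Cᶜ, ENNReal.ofReal (en (u 0).1 z) ≠ ∞ := (u 0).2.q.lintegral_en_ne_top
      have h2 := (hnear 0 0 le_rfl).symm.enr
      have h3 : ∫⁻ z in Cᶜ, ENNReal.ofReal (en x z) ≤
          2 * (∫⁻ z in Cᶜ, ENNReal.ofReal (en (u 0).1 z)) +
          2 * ∫⁻ z in Cᶜ, ENNReal.ofReal (en (fun w => x w - (u 0).1 w) z) := by
        rw [← lintegral_const_mul _ (measurable_en _).ennreal_ofReal,
          ← lintegral_const_mul _ (measurable_en _).ennreal_ofReal,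
          ← lintegral_add_left ((measurable_en _).ennreal_ofReal.const_mul _)]
        refine lintegral_mono_ae ?_
        filter_upwards [ae_diff hC.isOpen_compl hll, ae_diff hC.isOpen_compl (u 0).2.loc]
          with z d1 d2
        have e1 := en_add_le (u := (u 0).1) (v := fun w => x w - (u 0).1 w) d2 (d1.fun_sub d2)
        have e2 : (fun w => (u 0).1 w + (x w - (u 0).1 w)) = x := by funext w; ring
        rw [e2] at e1
        have e3 : (2 : ℝ≥0∞) = ENNReal.ofReal 2 := by norm_num
        rw [e3, ← ENNReal.ofReal_mul (by norm_num), ← ENNReal.ofReal_mul (by norm_num),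
          ← ENNReal.ofReal_add (mul_nonneg (by norm_num) (en_nonneg _ _))
            (mul_nonneg (by norm_num) (en_nonneg _ _))]
        exact ENNReal.ofReal_le_ofReal e1
      refine integrableOn_en_of (ne_top_of_le_ne_top ?_ h3)
      refine ENNReal.add_ne_top.2 ⟨ENNReal.mul_ne_top (by norm_num) h1,
        ENNReal.mul_ne_top (by norm_num) (ne_top_of_le_ne_top ENNReal.ofReal_ne_top h2)⟩
  refine ⟨⟨x, hD⟩, ?_⟩
  rw [tendsto_iff_dist_tendsto_zero]
  refine squeeze_zero (fun n => dist_nonneg) (fun n => ?_) hBt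
  exact dist_le_of_near hC (hB0 n) (hnear n n le_rfl)

end Metric

end

end Crest.Agent.R105.Bd_775
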