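import Crest.Agent.R281.Mx1_405

/-!
# Row 105 (helper676), BOJ, part 1: Bojarski's lemma

`μ` doubling, `B i` pairwise disjoint balls, `a i ≥ 0`:
`∫ (∑ a i 1_(2 B i))² ≤ K ∑ (a i)² μ (B i)`.

* `strong`  : strong type (2,2) of the maximal function, through any measurable minorant
* `carleson`: `∑ (∫_(2 B i) f / μ (B i))² μ (B i) ≤ K ∫ f²`
* `boj`     : Bojarski's lemma (finite families)
-/

set_option autoImplicit false

open MeasureTheory Metric Set Filter Topology
open scoped ENNReal NNReal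

namespace Crest.Agent.R105.Boj_676

open Crest.Agent.R281.Mx_405

variable {X : Type*} [PseudoMetricSpace X] [MeasurableSpace X] [OpensMeasurableSpace X]
  [SecondCountableTopology X] {μ : Measure X} {C : ℝ≥0}

omit [OpensMeasurableSpace X] [SecondCountableTopology X] in
/-- the maximal function of a function cut at height `s` -/
theorem Mx_split (h : Dbl μ C) (f : X → ℝ≥0∞) (s : ℝ≥0∞) (x : X) :
    Mx μ f x ≤ s + Mx μ ({y | s < f y}.indicator f) x := by
  refine iSup_le fun r => iSup_le fun hr => ?_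
  have h1 : avg μ f x r ≤ s + avg μ ({y | s < f y}.indicator f) x r := by
    unfold avg
    have h2 : ∫⁻ y in closedBall x r, f y ∂μ ≤ s * μ (closedBall x r) +
        ∫⁻ y in closedBall x r, {y | s < f y}.indicator f y ∂μ := by
      have h3 : ∀ y, f y ≤ s + {y | s < f y}.indicator f y := by
        intro y
        by_cases hy : s < f y
        · rw [indicator_of_mem (by exact hy)]
          exact le_add_self
        · rw [indicator_of_notMem (by exact hy), add_zero]
          exact not_lt.1 hy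
      calc ∫⁻ y in closedBall x r, f y ∂μ ≤
          ∫⁻ y in closedBall x r, (s + {y | s < f y}.indicator f y) ∂μ :=
            lintegral_mono fun y => h3 y
        _ = _ := by
          rw [lintegral_add_left measurable_const, lintegral_const, Measure.restrict_apply_univ]
    have h4 := h.pos x r hr
    have h5 := h.fin x r
    calc (∫⁻ y in closedBall x r, f y ∂μ) / μ (closedBall x r) ≤
        (s * μ (closedBall x r) + ∫⁻ y in closedBall x r, {y | s < f y}.indicator f y ∂μ) /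
          μ (closedBall x r) := ENNReal.div_le_div_right h2 _
      _ = _ := by
        rw [ENNReal.add_div, ENNReal.mul_div_cancel_right h4.ne' h5.ne]
  exact h1.trans (add_le_add le_rfl (avg_le_Mx _ x hr))

/-- strong type (2,2) -/
theorem strong [SFinite μ] (h : Dbl μ C) {f : X → ℝ≥0∞} (hf : Measurable f) {g : X → ℝ}
    (hg : Measurable g) (g0 : ∀ x, 0 ≤ g x) {D : ℝ≥0} (hD : 0 < D)
    (hgM : ∀ x, ENNReal.ofReal (g x) ≤ D * Mx μ f x) :
    ∫⁻ x, ENNReal.ofReal (g x ^ 2) ∂μ ≤ 8 * D ^ 2 * C ^ 2 * ∫⁻ x, f x ^ 2 ∂μ := by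
  have hD0 : (D : ℝ≥0∞) ≠ 0 := by exact_mod_cast hD.ne'
  have hD1 : (D : ℝ≥0∞) ≠ ⊤ := ENNReal.coe_ne_top
  have h2D0 : (2 * D : ℝ≥0∞) ≠ 0 := mul_ne_zero two_ne_zero hD0
  have h2D1 : (2 * D : ℝ≥0∞) ≠ ⊤ := ENNReal.mul_ne_top ENNReal.ofNat_ne_top hD1
  have key : ∀ t : ℝ, 0 < t → μ {x | t < g x} * ENNReal.ofReal t ≤
      2 * D * C ^ 2 * ∫⁻ x, {y | ENNReal.ofReal t / (2 * D) < f y}.indicator f x ∂μ := by
    intro t ht
    set s : ℝ≥0∞ := ENNReal.ofReal t / (2 * D) with hs
    have hsD : ENNReal.ofReal t = 2 * D * s := by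
      rw [hs, ENNReal.mul_div_cancel h2D0 h2D1]
    have hsub : {x | t < g x} ⊆ {x | s < Mx μ ({y | s < f y}.indicator f) x} := by
      intro x hx
      have h1 : ENNReal.ofReal t < ENNReal.ofReal (g x) :=
        (ENNReal.ofReal_lt_ofReal_iff (ht.trans hx)).2 hx
      have h2 := (hgM x).trans (mul_le_mul_right (Mx_split h f s x) (D : ℝ≥0∞))
      by_contra hcon
      have h3 : Mx μ ({y | s < f y}.indicator f) x ≤ s := not_lt.1 hcon
      have h4 : (D : ℝ≥0∞) * (s + Mx μ ({y | s < f y}.indicator f) x) ≤ 2 * D * s := by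
        calc (D : ℝ≥0∞) * (s + Mx μ ({y | s < f y}.indicator f) x) ≤ D * (s + s) := by gcongr
          _ = 2 * D * s := by ring
      exact absurd (h1.trans_le (h2.trans h4)) (by rw [hsD]; exact lt_irrefl _)
    have h5 := weak_Mx h ({y | s < f y}.indicator f) s
    calc μ {x | t < g x} * ENNReal.ofReal t =
        2 * D * (s * μ {x | t < g x}) := by rw [hsD]; ring
      _ ≤ 2 * D * (s * μ {x | s < Mx μ ({y | s < f y}.indicator f) x}) := by gcongr
      _ ≤ 2 * D * (C ^ 2 * ∫⁻ x, {y | s < f y}.indicator f x ∂μ) := by gcongr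
      _ = _ := by ring
  have hlc := lintegral_rpow_eq_lintegral_meas_lt_mul μ (ae_of_all _ g0) hg.aemeasurable
    (p := 2) two_pos
  have e1 : ∫⁻ x, ENNReal.ofReal (g x ^ 2) ∂μ = ∫⁻ x, ENNReal.ofReal (g x ^ (2 : ℝ)) ∂μ := by
    refine lintegral_congr fun x => ?_
    rw [Real.rpow_two]
  rw [e1, hlc]
  have hmeas : Measurable (Function.uncurry fun (t : ℝ) (x : X) =>
      {y | ENNReal.ofReal t / (2 * D) < f y}.indicator f x) := by
    have : (Function.uncurry fun (t : ℝ) (x : X) =>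
        {y | ENNReal.ofReal t / (2 * D) < f y}.indicator f x) =
        {p : ℝ × X | ENNReal.ofReal p.1 / (2 * D) < f p.2}.indicator fun p => f p.2 := by
      funext p
      by_cases hp : ENNReal.ofReal p.1 / (2 * D) < f p.2
      · rw [indicator_of_mem (by exact hp)]
        simp only [Function.uncurry]
        rw [indicator_of_mem (by exact hp)]
      · rw [indicator_of_notMem (by exact hp)]
        simp only [Function.uncurry]
        rw [indicator_of_notMem (by exact hp)]
    rw [this]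
    refine (hf.comp measurable_snd).indicator (measurableSet_lt ?_ (hf.comp measurable_snd))
    exact (ENNReal.measurable_ofReal.comp measurable_fst).div_const _
  have h6 : ∫⁻ t in Ioi (0 : ℝ), μ {a | t < g a} * ENNReal.ofReal (t ^ ((2 : ℝ) - 1)) ≤
      ∫⁻ t in Ioi (0 : ℝ), 2 * D * C ^ 2 *
        ∫⁻ x, {y | ENNReal.ofReal t / (2 * D) < f y}.indicator f x ∂μ := by
    refine setLIntegral_mono' measurableSet_Ioi fun t ht => ?_
    have : t ^ ((2 : ℝ) - 1) = t := by norm_num
    rw [this]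
    exact key t ht
  have h7 : ∫⁻ t in Ioi (0 : ℝ), 2 * D * C ^ 2 *
        ∫⁻ x, {y | ENNReal.ofReal t / (2 * D) < f y}.indicator f x ∂μ =
      2 * D * C ^ 2 * ∫⁻ x, (∫⁻ t in Ioi (0 : ℝ),
        {y | ENNReal.ofReal t / (2 * D) < f y}.indicator f x) ∂μ := by
    rw [lintegral_const_mul' _ _ (by finiteness), lintegral_lintegral_swap hmeas.aemeasurable]
  have h8 : ∀ x, ∫⁻ t in Ioi (0 : ℝ), {y | ENNReal.ofReal t / (2 * D) < f y}.indicator f x ≤
      2 * D * f x ^ 2 := by
    intro x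
    have h9 : ∫⁻ t in Ioi (0 : ℝ), {y | ENNReal.ofReal t / (2 * D) < f y}.indicator f x =
        f x * volume ({t : ℝ | ENNReal.ofReal t / (2 * D) < f x} ∩ Ioi 0) := by
      have hms : MeasurableSet {t : ℝ | ENNReal.ofReal t / (2 * D) < f x} :=
        measurableSet_lt (ENNReal.measurable_ofReal.div_const _) measurable_const
      have : (fun t : ℝ => {y | ENNReal.ofReal t / (2 * D) < f y}.indicator f x) =
          {t : ℝ | ENNReal.ofReal t / (2 * D) < f x}.indicator fun _ => f x := by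
        funext t
        by_cases hp : ENNReal.ofReal t / (2 * D) < f x
        · rw [indicator_of_mem (by exact hp), indicator_of_mem (by exact hp)]
        · rw [indicator_of_notMem (by exact hp), indicator_of_notMem (by exact hp)]
      rw [this, lintegral_indicator hms, lintegral_const, Measure.restrict_restrict hms,
        Measure.restrict_apply_univ]
    rw [h9]
    have h10 : volume ({t : ℝ | ENNReal.ofReal t / (2 * D) < f x} ∩ Ioi 0) ≤ 2 * D * f x := by
      by_cases hfx : f x = ⊤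
      · rw [hfx, ENNReal.mul_top h2D0]; exact le_top
      · have h11 : {t : ℝ | ENNReal.ofReal t / (2 * D) < f x} ∩ Ioi 0 ⊆
            Ioc 0 (2 * D * f x).toReal := by
          rintro t ⟨ht, ht0⟩
          refine ⟨ht0, ?_⟩
          have h12 : ENNReal.ofReal t ≤ 2 * D * f x := by
            have := ENNReal.div_le_iff_le_mul (Or.inl h2D0) (Or.inl h2D1) |>.1 (le_of_lt ht)
            rw [mul_comm] at this
            exact this
          exact (ENNReal.ofReal_le_iff_le_toReal (ENNReal.mul_ne_top h2D1 hfx)).1 h12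
        refine (measure_mono h11).trans ?_
        rw [Real.volume_Ioc, sub_zero, ENNReal.ofReal_toReal (ENNReal.mul_ne_top h2D1 hfx)]
    calc f x * volume ({t : ℝ | ENNReal.ofReal t / (2 * D) < f x} ∩ Ioi 0) ≤
        f x * (2 * D * f x) := by gcongr
      _ = 2 * D * f x ^ 2 := by ring
  calc ENNReal.ofReal 2 * ∫⁻ t in Ioi (0 : ℝ), μ {a | t < g a} * ENNReal.ofReal (t ^ ((2 : ℝ) - 1))
      ≤ 2 * (2 * D * C ^ 2 * ∫⁻ x, 2 * D * f x ^ 2 ∂μ) := by
        rw [ENNReal.ofReal_ofNat]
        refine mul_le_mul_right (h6.trans ?_) 2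
        rw [h7]
        exact mul_le_mul_right (lintegral_mono h8) _
    _ = 8 * D ^ 2 * C ^ 2 * ∫⁻ x, f x ^ 2 ∂μ := by
        rw [lintegral_const_mul' _ _ h2D1]; ring

/-- the square function of the averages of `f` over the double balls -/
theorem carleson [SFinite μ] (h : Dbl μ C) {f : X → ℝ≥0∞} (hf : Measurable f) {ι : Type*}
    (I : Finset ι) {c : ι → X} {r : ι → ℝ} (hr : ∀ i ∈ I, 0 < r i)
    (hd : (I : Set ι).PairwiseDisjoint fun i => closedBall (c i) (r i)) {m : ι → ℝ}
    (m0 : ∀ i, 0 ≤ m i)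
    (hm : ∀ i ∈ I, ENNReal.ofReal (m i) * μ (closedBall (c i) (r i)) ≤
      ∫⁻ x in closedBall (c i) (2 * r i), f x ∂μ) (hC : 0 < C) :
    ∑ i ∈ I, ENNReal.ofReal (m i ^ 2) * μ (closedBall (c i) (r i)) ≤
      8 * C ^ 8 * ∫⁻ x, f x ^ 2 ∂μ := by
  classical
  set g : X → ℝ := fun x => ∑ i ∈ I, (closedBall (c i) (r i)).indicator (fun _ => m i) x with hg
  have hgm : Measurable g :=
    Finset.measurable_fun_sum I fun i _ => measurable_const.indicator measurableSet_closedBall
  have g0 : ∀ x, 0 ≤ g x := fun x =>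
    Finset.sum_nonneg fun i _ => indicator_nonneg (fun _ _ => m0 i) x
  have gin : ∀ i ∈ I, ∀ x ∈ closedBall (c i) (r i), g x = m i := by
    intro i hi x hx
    rw [hg]
    show ∑ j ∈ I, (closedBall (c j) (r j)).indicator (fun _ => m j) x = m i
    rw [Finset.sum_eq_single i]
    · rw [indicator_of_mem hx]
    · intro j hj hji
      refine indicator_of_notMem (fun hxj => ?_) _
      exact (Set.disjoint_left.1 (hd hi hj (Ne.symm hji))) hx hxj
    · exact fun h => absurd hi h
  have gM : ∀ x, ENNReal.ofReal (g x) ≤ (C ^ 3 : ℝ≥0) * Mx μ f x := by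
    intro x
    by_cases hx : ∃ i ∈ I, x ∈ closedBall (c i) (r i)
    · obtain ⟨i, hi, hxi⟩ := hx
      rw [gin i hi x hxi]
      have hri := hr i hi
      have h1 : closedBall (c i) (2 * r i) ⊆ closedBall x (4 * r i) := by
        intro y hy
        rw [mem_closedBall] at hy hxi ⊢
        have := dist_triangle_right y x (c i)
        linarith
      have h2 : closedBall x (4 * r i) ⊆ closedBall (c i) (2 ^ 3 * r i) := by
        intro y hy
        rw [mem_closedBall] at hy hxi ⊢
        have := dist_triangle y x (c i)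
        linarith
      have h3 : μ (closedBall x (4 * r i)) ≤ C ^ 3 * μ (closedBall (c i) (r i)) :=
        (measure_mono h2).trans (h.dbl_pow _ hri 3)
      have h4 : ∫⁻ y in closedBall x (4 * r i), f y ∂μ ≤ Mx μ f x * μ (closedBall x (4 * r i)) := by
        have h5 := avg_le_Mx (μ := μ) f x (r := 4 * r i) (by positivity)
        unfold avg at h5
        exact (ENNReal.div_le_iff (h.pos _ _ (by positivity)).ne' (h.fin _ _).ne).1 h5
      have h6 : ENNReal.ofReal (m i) * μ (closedBall (c i) (r i)) ≤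
          ((C ^ 3 : ℝ≥0) * Mx μ f x) * μ (closedBall (c i) (r i)) := by
        calc ENNReal.ofReal (m i) * μ (closedBall (c i) (r i)) ≤
            ∫⁻ x in closedBall (c i) (2 * r i), f x ∂μ := hm i hi
          _ ≤ ∫⁻ y in closedBall x (4 * r i), f y ∂μ := lintegral_mono_set h1
          _ ≤ Mx μ f x * μ (closedBall x (4 * r i)) := h4
          _ ≤ Mx μ f x * (C ^ 3 * μ (closedBall (c i) (r i))) := by gcongr
          _ = _ := by push_cast; ring
      exact (ENNReal.mul_le_mul_iff_left (h.pos _ _ hri).ne' (h.fin _ _).ne).1 h6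
    · have : g x = 0 := by
        rw [hg]
        refine Finset.sum_eq_zero fun i hi => ?_
        exact indicator_of_notMem (fun hxi => hx ⟨i, hi, hxi⟩) _
      rw [this, ENNReal.ofReal_zero]
      exact zero_le
  have h7 := strong h hf hgm g0 (D := C ^ 3) (by positivity) gM
  have h8 : ∑ i ∈ I, ENNReal.ofReal (m i ^ 2) * μ (closedBall (c i) (r i)) ≤
      ∫⁻ x, ENNReal.ofReal (g x ^ 2) ∂μ := by
    calc ∑ i ∈ I, ENNReal.ofReal (m i ^ 2) * μ (closedBall (c i) (r i)) =
        ∑ i ∈ I, ∫⁻ x in closedBall (c i) (r i), ENNReal.ofReal (g x ^ 2) ∂μ := by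
          refine Finset.sum_congr rfl fun i hi => ?_
          rw [setLIntegral_congr_fun measurableSet_closedBall fun x hx => by
            show ENNReal.ofReal (g x ^ 2) = ENNReal.ofReal (m i ^ 2)
            rw [gin i hi x hx], lintegral_const, Measure.restrict_apply_univ]
      _ = ∫⁻ x in ⋃ i ∈ I, closedBall (c i) (r i), ENNReal.ofReal (g x ^ 2) ∂μ := by
          rw [lintegral_biUnion_finset hd fun i _ => measurableSet_closedBall]
      _ ≤ _ := setLIntegral_le_lintegral _ _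
  refine h8.trans (h7.trans (le_of_eq ?_))
  push_cast
  ring

/-- **Bojarski's lemma** -/
theorem boj [SFinite μ] (h : Dbl μ C) {ι : Type*} (I : Finset ι) {c : ι → X} {r : ι → ℝ}
    (hr : ∀ i ∈ I, 0 < r i)
    (hd : (I : Set ι).PairwiseDisjoint fun i => closedBall (c i) (r i)) {a : ι → ℝ}
    (a0 : ∀ i, 0 ≤ a i) (hC : 0 < C) :
    ∫⁻ x, (∑ i ∈ I, (closedBall (c i) (2 * r i)).indicator (fun _ => ENNReal.ofReal (a i)) x) ^ 2 ∂μ
      ≤ 8 * C ^ 8 * ∑ i ∈ I, ENNReal.ofReal (a i ^ 2) * μ (closedBall (c i) (r i)) := by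
  classical
  set f : X → ℝ≥0∞ := fun x =>
    ∑ i ∈ I, (closedBall (c i) (2 * r i)).indicator (fun _ => ENNReal.ofReal (a i)) x with hf
  have hfm : Measurable f :=
    Finset.measurable_fun_sum I fun i _ => measurable_const.indicator measurableSet_closedBall
  -- everything is finite
  have hfb : ∀ x, f x ≤ ∑ i ∈ I, ENNReal.ofReal (a i) := fun x =>
    Finset.sum_le_sum fun i _ => indicator_le_self _ _ x
  have hA : ∑ i ∈ I, ENNReal.ofReal (a i) ≠ ⊤ := ENNReal.sum_ne_top.2 fun i _ => ENNReal.ofReal_ne_top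
  have hfi : ∀ i, ∫⁻ x in closedBall (c i) (2 * r i), f x ∂μ ≠ ⊤ := by
    intro i
    refine ne_top_of_le_ne_top ?_ (lintegral_mono fun x => hfb x)
    rw [lintegral_const, Measure.restrict_apply_univ]
    exact ENNReal.mul_ne_top hA (h.fin _ _).ne
  have hsq : ∫⁻ x, f x ^ 2 ∂μ =
      ∑ i ∈ I, ENNReal.ofReal (a i) * ∫⁻ x in closedBall (c i) (2 * r i), f x ∂μ := by
    have e1 : ∀ x, f x ^ 2 = ∑ i ∈ I,
        (closedBall (c i) (2 * r i)).indicator (fun x => ENNReal.ofReal (a i) * f x) x := by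
      intro x
      rw [sq]
      nth_rewrite 1 [hf]
      rw [Finset.sum_mul]
      refine Finset.sum_congr rfl fun i _ => ?_
      by_cases hx : x ∈ closedBall (c i) (2 * r i)
      · rw [indicator_of_mem hx, indicator_of_mem hx]
      · rw [indicator_of_notMem hx, indicator_of_notMem hx, zero_mul]
    simp only [e1]
    rw [lintegral_finsetSum _ fun i _ =>
      (hfm.const_mul _).indicator measurableSet_closedBall]
    refine Finset.sum_congr rfl fun i _ => ?_
    rw [lintegral_indicator measurableSet_closedBall, lintegral_const_mul _ hfm]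
  have hsqf : ∫⁻ x, f x ^ 2 ∂μ ≠ ⊤ := by
    rw [hsq]
    exact ENNReal.sum_ne_top.2 fun i _ => ENNReal.mul_ne_top ENNReal.ofReal_ne_top (hfi i)
  -- the averages
  set q : ι → ℝ := fun i => (μ (closedBall (c i) (r i))).toReal with hq
  have hqe : ∀ i, ENNReal.ofReal (q i) = μ (closedBall (c i) (r i)) := fun i =>
    ENNReal.ofReal_toReal (h.fin _ _).ne
  have hq0 : ∀ i, 0 ≤ q i := fun i => ENNReal.toReal_nonneg
  have hqp : ∀ i ∈ I, 0 < q i := fun i hi =>
    ENNReal.toReal_pos (h.pos _ _ (hr i hi)).ne' (h.fin _ _).ne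
  set t : ι → ℝ := fun i => (∫⁻ x in closedBall (c i) (2 * r i), f x ∂μ).toReal with ht
  have hte : ∀ i, ENNReal.ofReal (t i) = ∫⁻ x in closedBall (c i) (2 * r i), f x ∂μ := fun i =>
    ENNReal.ofReal_toReal (hfi i)
  have ht0 : ∀ i, 0 ≤ t i := fun i => ENNReal.toReal_nonneg
  set m : ι → ℝ := fun i => t i / q i with hm
  have m0 : ∀ i, 0 ≤ m i := fun i => div_nonneg (ht0 i) (hq0 i)
  have hmq : ∀ i ∈ I, m i * q i = t i := fun i hi => div_mul_cancel₀ _ (hqp i hi).ne'
  have hcar := carleson h hfm I hr hd m0 (fun i hi => by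
    rw [← hqe i, ← ENNReal.ofReal_mul (m0 i), hmq i hi, hte i]) hC
  -- real numbers
  set S : ℝ := (∫⁻ x, f x ^ 2 ∂μ).toReal with hS
  have hSe : ENNReal.ofReal S = ∫⁻ x, f x ^ 2 ∂μ := ENNReal.ofReal_toReal hsqf
  have hS0 : 0 ≤ S := ENNReal.toReal_nonneg
  have r1 : S = ∑ i ∈ I, a i * t i := by
    have : ENNReal.ofReal S = ENNReal.ofReal (∑ i ∈ I, a i * t i) := by
      rw [hSe, hsq, ENNReal.ofReal_sum_of_nonneg fun i _ => mul_nonneg (a0 i) (ht0 i)]
      exact Finset.sum_congr rfl fun i _ => by rw [ENNReal.ofReal_mul (a0 i), hte i]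
    exact (ENNReal.ofReal_eq_ofReal_iff hS0
      (Finset.sum_nonneg fun i _ => mul_nonneg (a0 i) (ht0 i))).1 this
  have r2 : ∑ i ∈ I, m i ^ 2 * q i ≤ 8 * (C : ℝ) ^ 8 * S := by
    have e2 : ∑ i ∈ I, ENNReal.ofReal (m i ^ 2) * μ (closedBall (c i) (r i)) =
        ENNReal.ofReal (∑ i ∈ I, m i ^ 2 * q i) := by
      rw [ENNReal.ofReal_sum_of_nonneg fun i _ => mul_nonneg (sq_nonneg _) (hq0 i)]
      exact Finset.sum_congr rfl fun i _ => by
        rw [ENNReal.ofReal_mul (sq_nonneg _), hqe i]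
    have e3 : 8 * (C : ℝ≥0∞) ^ 8 * ∫⁻ x, f x ^ 2 ∂μ = ENNReal.ofReal (8 * (C : ℝ) ^ 8 * S) := by
      rw [ENNReal.ofReal_mul (by positivity), hSe, ENNReal.ofReal_mul (by norm_num),
        ENNReal.ofReal_pow (p := (C : ℝ)) C.2, ENNReal.ofReal_coe_nnreal, ENNReal.ofReal_ofNat]
    rw [e2, e3] at hcar
    exact (ENNReal.ofReal_le_ofReal_iff (by positivity)).1 hcar
  set Q : ℝ := ∑ i ∈ I, a i ^ 2 * q i with hQ
  have hQ0 : 0 ≤ Q := Finset.sum_nonneg fun i _ => mul_nonneg (sq_nonneg _) (hq0 i)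
  have r3 : S ^ 2 ≤ Q * (8 * (C : ℝ) ^ 8 * S) := by
    have e4 : S = ∑ i ∈ I, (a i * √(q i)) * (m i * √(q i)) := by
      rw [r1]
      refine Finset.sum_congr rfl fun i hi => ?_
      rw [← hmq i hi]
      have := Real.mul_self_sqrt (hq0 i)
      linear_combination (-(a i * m i)) * this
    have e5 := Finset.sum_mul_sq_le_sq_mul_sq I (fun i => a i * √(q i)) (fun i => m i * √(q i))
    rw [← e4] at e5
    have e6 : ∑ i ∈ I, (a i * √(q i)) ^ 2 = Q :=
      Finset.sum_congr rfl fun i _ => by rw [mul_pow, Real.sq_sqrt (hq0 i)]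
    have e7 : ∑ i ∈ I, (m i * √(q i)) ^ 2 = ∑ i ∈ I, m i ^ 2 * q i :=
      Finset.sum_congr rfl fun i _ => by rw [mul_pow, Real.sq_sqrt (hq0 i)]
    rw [e6, e7] at e5
    exact e5.trans (mul_le_mul_of_nonneg_left r2 hQ0)
  have r4 : S ≤ 8 * (C : ℝ) ^ 8 * Q := by
    rcases hS0.eq_or_lt with h0 | h0
    · rw [← h0]; positivity
    · have : S * S ≤ (8 * (C : ℝ) ^ 8 * Q) * S := by nlinarith
      exact le_of_mul_le_mul_right this h0
  have r5 : ∑ i ∈ I, ENNReal.ofReal (a i ^ 2) * μ (closedBall (c i) (r i)) = ENNReal.ofReal Q := by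
    rw [hQ, ENNReal.ofReal_sum_of_nonneg fun i _ => mul_nonneg (sq_nonneg _) (hq0 i)]
    exact Finset.sum_congr rfl fun i _ => by rw [ENNReal.ofReal_mul (sq_nonneg _), hqe i]
  show ∫⁻ x, f x ^ 2 ∂μ ≤ _
  rw [← hSe, r5]
  have e8 : 8 * (C : ℝ≥0∞) ^ 8 * ENNReal.ofReal Q = ENNReal.ofReal (8 * (C : ℝ) ^ 8 * Q) := by
    rw [ENNReal.ofReal_mul (by positivity), ENNReal.ofReal_mul (by norm_num),
      ENNReal.ofReal_pow (p := (C : ℝ)) C.2, ENNReal.ofReal_coe_nnreal, ENNReal.ofReal_ofNat]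
  rw [e8]
  exact ENNReal.ofReal_le_ofReal r4

end Crest.Agent.R105.Boj_676
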