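import Crest.Agent.R105.Boj1_676

/-!
# Row 105 (helper676), BOJ, part 2: Bojarski's lemma for the balls `K B i`, countable families, and
the plane (`boj_plane`).
-/

set_option autoImplicit false

open MeasureTheory Metric Set Filter Topology
open scoped ENNReal NNReal

namespace Crest.Agent.R105.Boj_676

open Crest.Agent.R281.Mx_405

variable {X : Type*} [PseudoMetricSpace X] [MeasurableSpace X] [OpensMeasurableSpace X]
  [SecondCountableTopology X] {μ : Measure X} {C : ℝ≥0}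

/-- the square function of the averages of `f` over the double balls -/
theorem carlesonK [SFinite μ] (h : Dbl μ C) {K : ℝ} {k : ℕ}
    (hk : K + 2 ≤ 2 ^ k) (hK : 0 ≤ K) {f : X → ℝ≥0∞} (hf : Measurable f) {ι : Type*}
    (I : Finset ι) {c : ι → X} {r : ι → ℝ} (hr : ∀ i ∈ I, 0 < r i)
    (hd : (I : Set ι).PairwiseDisjoint fun i => closedBall (c i) (r i)) {m : ι → ℝ}
    (m0 : ∀ i, 0 ≤ m i)
    (hm : ∀ i ∈ I, ENNReal.ofReal (m i) * μ (closedBall (c i) (r i)) ≤
      ∫⁻ x in closedBall (c i) (K * r i), f x ∂μ) (hC : 0 < C) :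
    ∑ i ∈ I, ENNReal.ofReal (m i ^ 2) * μ (closedBall (c i) (r i)) ≤
      8 * C ^ (2 * k + 2) * ∫⁻ x, f x ^ 2 ∂μ := by
  classical
  set g : X → ℝ := fun x => ∑ i ∈ I, (closedBall (c i) (r i)).indicator (fun _ => m i) x with hg
  have hgm : Measurable g :=
    Finset.measurable_fun_sum I fun i _ => measurable_const.indicator measurableSet_closedBall
  have g0 : ∀ x, 0 ≤ g x := fun x =>
    Finset.sum_nonneg fun i _ => indicator_nonneg (fun _ _ => m0 i) x
  have gin : ∀ i ∈ I, ∀ x ∈ closedBall (c i) (r i), g x = m i := by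
    intro i hi x hx
    rw [hg]
    show ∑ j ∈ I, (closedBall (c j) (r j)).indicator (fun _ => m j) x = m i
    rw [Finset.sum_eq_single i]
    · rw [indicator_of_mem hx]
    · intro j hj hji
      refine indicator_of_notMem (fun hxj => ?_) _
      exact (Set.disjoint_left.1 (hd hi hj (Ne.symm hji))) hx hxj
    · exact fun h => absurd hi h
  have gM : ∀ x, ENNReal.ofReal (g x) ≤ (C ^ k : ℝ≥0) * Mx μ f x := by
    intro x
    by_cases hx : ∃ i ∈ I, x ∈ closedBall (c i) (r i)
    · obtain ⟨i, hi, hxi⟩ := hx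
      rw [gin i hi x hxi]
      have hri := hr i hi
      have h1 : closedBall (c i) (K * r i) ⊆ closedBall x ((K + 1) * r i) := by
        intro y hy
        rw [mem_closedBall] at hy hxi ⊢
        have := dist_triangle_right y x (c i)
        nlinarith
      have h2 : closedBall x ((K + 1) * r i) ⊆ closedBall (c i) (2 ^ k * r i) := by
        intro y hy
        rw [mem_closedBall] at hy hxi ⊢
        have := dist_triangle y x (c i)
        have h9 := mul_le_mul_of_nonneg_right hk hri.le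
        nlinarith
      have h3 : μ (closedBall x ((K + 1) * r i)) ≤ C ^ k * μ (closedBall (c i) (r i)) :=
        (measure_mono h2).trans (h.dbl_pow _ hri k)
      have h4 : ∫⁻ y in closedBall x ((K + 1) * r i), f y ∂μ ≤ Mx μ f x * μ (closedBall x ((K + 1) * r i)) := by
        have h5 := avg_le_Mx (μ := μ) f x (r := (K + 1) * r i) (by positivity)
        unfold avg at h5
        exact (ENNReal.div_le_iff (h.pos _ _ (by positivity)).ne' (h.fin _ _).ne).1 h5
      have h6 : ENNReal.ofReal (m i) * μ (closedBall (c i) (r i)) ≤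
          ((C ^ k : ℝ≥0) * Mx μ f x) * μ (closedBall (c i) (r i)) := by
        calc ENNReal.ofReal (m i) * μ (closedBall (c i) (r i)) ≤
            ∫⁻ x in closedBall (c i) (K * r i), f x ∂μ := hm i hi
          _ ≤ ∫⁻ y in closedBall x ((K + 1) * r i), f y ∂μ := lintegral_mono_set h1
          _ ≤ Mx μ f x * μ (closedBall x ((K + 1) * r i)) := h4
          _ ≤ Mx μ f x * (C ^ k * μ (closedBall (c i) (r i))) := by gcongr
          _ = _ := by push_cast; ring
      exact (ENNReal.mul_le_mul_iff_left (h.pos _ _ hri).ne' (h.fin _ _).ne).1 h6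
    · have : g x = 0 := by
        rw [hg]
        refine Finset.sum_eq_zero fun i hi => ?_
        exact indicator_of_notMem (fun hxi => hx ⟨i, hi, hxi⟩) _
      rw [this, ENNReal.ofReal_zero]
      exact zero_le
  have h7 := strong h hf hgm g0 (D := C ^ k) (by positivity) gM
  have h8 : ∑ i ∈ I, ENNReal.ofReal (m i ^ 2) * μ (closedBall (c i) (r i)) ≤
      ∫⁻ x, ENNReal.ofReal (g x ^ 2) ∂μ := by
    calc ∑ i ∈ I, ENNReal.ofReal (m i ^ 2) * μ (closedBall (c i) (r i)) =
        ∑ i ∈ I, ∫⁻ x in closedBall (c i) (r i), ENNReal.ofReal (g x ^ 2) ∂μ := by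
          refine Finset.sum_congr rfl fun i hi => ?_
          rw [setLIntegral_congr_fun measurableSet_closedBall fun x hx => by
            show ENNReal.ofReal (g x ^ 2) = ENNReal.ofReal (m i ^ 2)
            rw [gin i hi x hx], lintegral_const, Measure.restrict_apply_univ]
      _ = ∫⁻ x in ⋃ i ∈ I, closedBall (c i) (r i), ENNReal.ofReal (g x ^ 2) ∂μ := by
          rw [lintegral_biUnion_finset hd fun i _ => measurableSet_closedBall]
      _ ≤ _ := setLIntegral_le_lintegral _ _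
  refine h8.trans (h7.trans (le_of_eq ?_))
  push_cast
  rw [← pow_mul]
  ring

/-- **Bojarski's lemma** -/
theorem bojK [SFinite μ] (h : Dbl μ C) {K : ℝ} {k : ℕ} (hk : K + 2 ≤ 2 ^ k) (hK : 0 ≤ K) {ι : Type*} (I : Finset ι) {c : ι → X} {r : ι → ℝ}
    (hr : ∀ i ∈ I, 0 < r i)
    (hd : (I : Set ι).PairwiseDisjoint fun i => closedBall (c i) (r i)) {a : ι → ℝ}
    (a0 : ∀ i, 0 ≤ a i) (hC : 0 < C) :
    ∫⁻ x, (∑ i ∈ I, (closedBall (c i) (K * r i)).indicator (fun _ => ENNReal.ofReal (a i)) x) ^ 2 ∂μ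
      ≤ 8 * C ^ (2 * k + 2) * ∑ i ∈ I, ENNReal.ofReal (a i ^ 2) * μ (closedBall (c i) (r i)) := by
  classical
  set f : X → ℝ≥0∞ := fun x =>
    ∑ i ∈ I, (closedBall (c i) (K * r i)).indicator (fun _ => ENNReal.ofReal (a i)) x with hf
  have hfm : Measurable f :=
    Finset.measurable_fun_sum I fun i _ => measurable_const.indicator measurableSet_closedBall
  -- everything is finite
  have hfb : ∀ x, f x ≤ ∑ i ∈ I, ENNReal.ofReal (a i) := fun x =>
    Finset.sum_le_sum fun i _ => indicator_le_self _ _ x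
  have hA : ∑ i ∈ I, ENNReal.ofReal (a i) ≠ ⊤ := ENNReal.sum_ne_top.2 fun i _ => ENNReal.ofReal_ne_top
  have hfi : ∀ i, ∫⁻ x in closedBall (c i) (K * r i), f x ∂μ ≠ ⊤ := by
    intro i
    refine ne_top_of_le_ne_top ?_ (lintegral_mono fun x => hfb x)
    rw [lintegral_const, Measure.restrict_apply_univ]
    exact ENNReal.mul_ne_top hA (h.fin _ _).ne
  have hsq : ∫⁻ x, f x ^ 2 ∂μ =
      ∑ i ∈ I, ENNReal.ofReal (a i) * ∫⁻ x in closedBall (c i) (K * r i), f x ∂μ := by
    have e1 : ∀ x, f x ^ 2 = ∑ i ∈ I,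
        (closedBall (c i) (K * r i)).indicator (fun x => ENNReal.ofReal (a i) * f x) x := by
      intro x
      rw [sq]
      nth_rewrite 1 [hf]
      rw [Finset.sum_mul]
      refine Finset.sum_congr rfl fun i _ => ?_
      by_cases hx : x ∈ closedBall (c i) (K * r i)
      · rw [indicator_of_mem hx, indicator_of_mem hx]
      · rw [indicator_of_notMem hx, indicator_of_notMem hx, zero_mul]
    simp only [e1]
    rw [lintegral_finsetSum _ fun i _ =>
      (hfm.const_mul _).indicator measurableSet_closedBall]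
    refine Finset.sum_congr rfl fun i _ => ?_
    rw [lintegral_indicator measurableSet_closedBall, lintegral_const_mul _ hfm]
  have hsqf : ∫⁻ x, f x ^ 2 ∂μ ≠ ⊤ := by
    rw [hsq]
    exact ENNReal.sum_ne_top.2 fun i _ => ENNReal.mul_ne_top ENNReal.ofReal_ne_top (hfi i)
  -- the averages
  set q : ι → ℝ := fun i => (μ (closedBall (c i) (r i))).toReal with hq
  have hqe : ∀ i, ENNReal.ofReal (q i) = μ (closedBall (c i) (r i)) := fun i =>
    ENNReal.ofReal_toReal (h.fin _ _).ne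
  have hq0 : ∀ i, 0 ≤ q i := fun i => ENNReal.toReal_nonneg
  have hqp : ∀ i ∈ I, 0 < q i := fun i hi =>
    ENNReal.toReal_pos (h.pos _ _ (hr i hi)).ne' (h.fin _ _).ne
  set t : ι → ℝ := fun i => (∫⁻ x in closedBall (c i) (K * r i), f x ∂μ).toReal with ht
  have hte : ∀ i, ENNReal.ofReal (t i) = ∫⁻ x in closedBall (c i) (K * r i), f x ∂μ := fun i =>
    ENNReal.ofReal_toReal (hfi i)
  have ht0 : ∀ i, 0 ≤ t i := fun i => ENNReal.toReal_nonneg
  set m : ι → ℝ := fun i => t i / q i with hm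
  have m0 : ∀ i, 0 ≤ m i := fun i => div_nonneg (ht0 i) (hq0 i)
  have hmq : ∀ i ∈ I, m i * q i = t i := fun i hi => div_mul_cancel₀ _ (hqp i hi).ne'
  have hcar := carlesonK h hk hK hfm I hr hd m0 (fun i hi => by
    rw [← hqe i, ← ENNReal.ofReal_mul (m0 i), hmq i hi, hte i]) hC
  -- real numbers
  set S : ℝ := (∫⁻ x, f x ^ 2 ∂μ).toReal with hS
  have hSe : ENNReal.ofReal S = ∫⁻ x, f x ^ 2 ∂μ := ENNReal.ofReal_toReal hsqf
  have hS0 : 0 ≤ S := ENNReal.toReal_nonneg
  have r1 : S = ∑ i ∈ I, a i * t i := by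
    have : ENNReal.ofReal S = ENNReal.ofReal (∑ i ∈ I, a i * t i) := by
      rw [hSe, hsq, ENNReal.ofReal_sum_of_nonneg fun i _ => mul_nonneg (a0 i) (ht0 i)]
      exact Finset.sum_congr rfl fun i _ => by rw [ENNReal.ofReal_mul (a0 i), hte i]
    exact (ENNReal.ofReal_eq_ofReal_iff hS0
      (Finset.sum_nonneg fun i _ => mul_nonneg (a0 i) (ht0 i))).1 this
  have r2 : ∑ i ∈ I, m i ^ 2 * q i ≤ 8 * (C : ℝ) ^ (2 * k + 2) * S := by
    have e2 : ∑ i ∈ I, ENNReal.ofReal (m i ^ 2) * μ (closedBall (c i) (r i)) =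
        ENNReal.ofReal (∑ i ∈ I, m i ^ 2 * q i) := by
      rw [ENNReal.ofReal_sum_of_nonneg fun i _ => mul_nonneg (sq_nonneg _) (hq0 i)]
      exact Finset.sum_congr rfl fun i _ => by
        rw [ENNReal.ofReal_mul (sq_nonneg _), hqe i]
    have e3 : 8 * (C : ℝ≥0∞) ^ (2 * k + 2) * ∫⁻ x, f x ^ 2 ∂μ = ENNReal.ofReal (8 * (C : ℝ) ^ (2 * k + 2) * S) := by
      rw [ENNReal.ofReal_mul (by positivity), hSe, ENNReal.ofReal_mul (by norm_num),
        ENNReal.ofReal_pow (p := (C : ℝ)) C.2, ENNReal.ofReal_coe_nnreal, ENNReal.ofReal_ofNat]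
    rw [e2, e3] at hcar
    exact (ENNReal.ofReal_le_ofReal_iff (by positivity)).1 hcar
  set Q : ℝ := ∑ i ∈ I, a i ^ 2 * q i with hQ
  have hQ0 : 0 ≤ Q := Finset.sum_nonneg fun i _ => mul_nonneg (sq_nonneg _) (hq0 i)
  have r3 : S ^ 2 ≤ Q * (8 * (C : ℝ) ^ (2 * k + 2) * S) := by
    have e4 : S = ∑ i ∈ I, (a i * √(q i)) * (m i * √(q i)) := by
      rw [r1]
      refine Finset.sum_congr rfl fun i hi => ?_
      rw [← hmq i hi]
      have := Real.mul_self_sqrt (hq0 i)
      linear_combination (-(a i * m i)) * this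
    have e5 := Finset.sum_mul_sq_le_sq_mul_sq I (fun i => a i * √(q i)) (fun i => m i * √(q i))
    rw [← e4] at e5
    have e6 : ∑ i ∈ I, (a i * √(q i)) ^ 2 = Q :=
      Finset.sum_congr rfl fun i _ => by rw [mul_pow, Real.sq_sqrt (hq0 i)]
    have e7 : ∑ i ∈ I, (m i * √(q i)) ^ 2 = ∑ i ∈ I, m i ^ 2 * q i :=
      Finset.sum_congr rfl fun i _ => by rw [mul_pow, Real.sq_sqrt (hq0 i)]
    rw [e6, e7] at e5
    exact e5.trans (mul_le_mul_of_nonneg_left r2 hQ0)
  have r4 : S ≤ 8 * (C : ℝ) ^ (2 * k + 2) * Q := by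
    rcases hS0.eq_or_lt with h0 | h0
    · rw [← h0]; positivity
    · have : S * S ≤ (8 * (C : ℝ) ^ (2 * k + 2) * Q) * S := by nlinarith
      exact le_of_mul_le_mul_right this h0
  have r5 : ∑ i ∈ I, ENNReal.ofReal (a i ^ 2) * μ (closedBall (c i) (r i)) = ENNReal.ofReal Q := by
    rw [hQ, ENNReal.ofReal_sum_of_nonneg fun i _ => mul_nonneg (sq_nonneg _) (hq0 i)]
    exact Finset.sum_congr rfl fun i _ => by rw [ENNReal.ofReal_mul (sq_nonneg _), hqe i]
  show ∫⁻ x, f x ^ 2 ∂μ ≤ _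
  rw [← hSe, r5]
  have e8 : 8 * (C : ℝ≥0∞) ^ (2 * k + 2) * ENNReal.ofReal Q = ENNReal.ofReal (8 * (C : ℝ) ^ (2 * k + 2) * Q) := by
    rw [ENNReal.ofReal_mul (by positivity), ENNReal.ofReal_mul (by norm_num),
      ENNReal.ofReal_pow (p := (C : ℝ)) C.2, ENNReal.ofReal_coe_nnreal, ENNReal.ofReal_ofNat]
  rw [e8]
  exact ENNReal.ofReal_le_ofReal r4

/-- Bojarski's lemma for countable families -/
theorem boj_tsum [SFinite μ] (h : Dbl μ C) {K : ℝ} {k : ℕ} (hk : K + 2 ≤ 2 ^ k) (hK : 0 ≤ K)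
    (hC : 0 < C) {ι : Type*} [Countable ι] {c : ι → X} {r : ι → ℝ} (hr : ∀ i, 0 < r i)
    (hd : Pairwise fun i j => Disjoint (closedBall (c i) (r i)) (closedBall (c j) (r j)))
    (a : ι → ℝ≥0∞) :
    ∫⁻ x, (∑' i, (closedBall (c i) (K * r i)).indicator (fun _ => a i) x) ^ 2 ∂μ ≤
      8 * C ^ (2 * k + 2) * ∑' i, a i ^ 2 * μ (closedBall (c i) (r i)) := by
  classical
  have hC0 : (8 * (C : ℝ≥0∞) ^ (2 * k + 2)) ≠ 0 :=
    mul_ne_zero (by norm_num) (pow_ne_zero _ (by exact_mod_cast hC.ne'))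
  by_cases hfin : ∀ i, a i ≠ ⊤
  · have hfs : ∀ s : Finset ι,
        ∫⁻ x, (∑ i ∈ s, (closedBall (c i) (K * r i)).indicator (fun _ => a i) x) ^ 2 ∂μ ≤
          8 * C ^ (2 * k + 2) * ∑' i, a i ^ 2 * μ (closedBall (c i) (r i)) := by
      intro s
      have h1 := bojK h hk hK s (c := c) (r := r) (fun i _ => hr i)
        (fun i _ j _ hij => hd hij) (a := fun i => (a i).toReal)
        (fun i => ENNReal.toReal_nonneg) hC
      have h2 : ∀ i, ENNReal.ofReal (a i).toReal = a i := fun i => ENNReal.ofReal_toReal (hfin i)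
      have h3 : ∀ i, ENNReal.ofReal ((a i).toReal ^ 2) = a i ^ 2 := fun i => by
        rw [ENNReal.ofReal_pow ENNReal.toReal_nonneg, h2]
      simp only [h2, h3] at h1
      refine h1.trans ?_
      gcongr
      exact ENNReal.sum_le_tsum s
    have e1 : ∀ x, (∑' i, (closedBall (c i) (K * r i)).indicator (fun _ => a i) x) ^ 2 =
        ⨆ s : Finset ι, (∑ i ∈ s, (closedBall (c i) (K * r i)).indicator (fun _ => a i) x) ^ 2 := by
      intro x
      rw [ENNReal.tsum_eq_iSup_sum]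
      exact (Monotone.map_iSup_of_continuousAt (f := fun t : ℝ≥0∞ => t ^ 2)
        (ENNReal.continuous_pow 2).continuousAt (fun a b hab => pow_le_pow_left' hab 2)
        (by simp))
    simp only [e1]
    rw [lintegral_iSup_directed]
    · exact iSup_le hfs
    · intro s
      exact ((Finset.measurable_fun_sum s fun i _ =>
        measurable_const.indicator measurableSet_closedBall).pow_const 2).aemeasurable
    · refine Monotone.directed_le fun s t hst x => ?_
      exact pow_le_pow_left' (Finset.sum_le_sum_of_subset hst) 2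
  · push Not at hfin
    obtain ⟨i, hi⟩ := hfin
    have : ∑' i, a i ^ 2 * μ (closedBall (c i) (r i)) = ⊤ := by
      refine ENNReal.tsum_eq_top_of_eq_top ⟨i, ?_⟩
      rw [hi]
      exact ENNReal.mul_eq_top.2 (Or.inr ⟨by simp, (h.pos _ _ (hr i)).ne'⟩)
    rw [this, ENNReal.mul_top hC0]
    exact le_top

/-- the plane is doubling -/
theorem dbl_plane : Dbl (volume : Measure ℂ) 4 := by
  refine ⟨fun x r hr => ?_, fun x r hr => ?_, fun x r => ?_⟩
  · rw [Complex.volume_closedBall, Complex.volume_closedBall, ENNReal.ofReal_mul (by norm_num)]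
    rw [mul_pow]
    norm_num
    refine le_of_eq ?_
    ring
  · exact measure_closedBall_pos _ _ hr
  · exact measure_closedBall_lt_top

/-- **Bojarski's lemma in the plane**, in the form of task 2295 -/
theorem boj_plane {K : ℝ} (hK : 0 ≤ K) : ∃ C : ℝ≥0, 0 < C ∧ ∀ {ι : Type} [Countable ι] (c : ι → ℂ)
    (r : ι → ℝ) (_ : ∀ i, 0 < r i)
    (_ : Pairwise fun i j => Disjoint (closedBall (c i) (r i)) (closedBall (c j) (r j)))
    (a : ι → ℝ≥0∞),
    ∫⁻ z, (∑' i, (closedBall (c i) (K * r i)).indicator (fun _ => a i) z) ^ 2 ≤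
      C * ∑' i, a i ^ 2 * volume (closedBall (c i) (r i)) := by
  obtain ⟨k, hk⟩ := pow_unbounded_of_one_lt (K + 2) (one_lt_two (α := ℝ))
  refine ⟨8 * 4 ^ (2 * k + 2), by positivity, fun {ι} _ c r hr hd a => ?_⟩
  have := boj_tsum dbl_plane hk.le hK (by norm_num) hr hd a
  push_cast at this ⊢
  exact this

end Crest.Agent.R105.Boj_676
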