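import Mathlib

/-!
# Row 105, S0138, node E13 (499 #11166 (2a)), helper31, part 1: functions of bounded variation
along vertical lines off a compact set (`BVL`), algebra.
-/

set_option autoImplicit false

open MeasureTheory Set Filter Topology Metric
open scoped ENNReal NNReal

namespace Crest.Agent.R105.Bvl_31

/-- the part off `E` of the vertical line over `t`, heights at most `R` -/
def ln (E : Set ℂ) (R t : ℝ) : Set ℝ := {v | (⟨t, v⟩ : ℂ) ∉ E ∧ |v| ≤ R}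

/-- `w` has bounded variation along a.e. vertical line off `E`, integrably in the line -/
def BVL (E : Set ℂ) (w : ℂ → ℝ) : Prop :=
  ∀ R : ℝ, ∃ M : ℝ → ℝ≥0∞, Measurable M ∧ (∫⁻ t in Icc (-R) R, M t) ≠ ∞ ∧
    ∀ᵐ t : ℝ, eVariationOn (fun v : ℝ => w ⟨t, v⟩) (ln E R t) ≤ M t

/-- locally bounded off `E` -/
def Bd (E : Set ℂ) (w : ℂ → ℝ) : Prop := ∀ R : ℝ, ∃ C : ℝ, ∀ z ∉ E, ‖z‖ ≤ R → |w z| ≤ C

section gen

variable {α : Type*} [LinearOrder α]

/-- comparison of variations -/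
theorem eVar_le {f g h : α → ℝ} {s : Set α} {A B : ℝ≥0∞}
    (H : ∀ x ∈ s, ∀ y ∈ s, edist (h x) (h y) ≤ A * edist (f x) (f y) + B * edist (g x) (g y)) :
    eVariationOn h s ≤ A * eVariationOn f s + B * eVariationOn g s := by
  refine iSup_le fun p => ?_
  calc ∑ i ∈ Finset.range p.1, edist (h (p.2.1 (i + 1))) (h (p.2.1 i))
      ≤ ∑ i ∈ Finset.range p.1, (A * edist (f (p.2.1 (i + 1))) (f (p.2.1 i)) +
        B * edist (g (p.2.1 (i + 1))) (g (p.2.1 i))) :=
        Finset.sum_le_sum fun i _ => H _ (p.2.2.2 _) _ (p.2.2.2 _)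
    _ = A * ∑ i ∈ Finset.range p.1, edist (f (p.2.1 (i + 1))) (f (p.2.1 i)) +
        B * ∑ i ∈ Finset.range p.1, edist (g (p.2.1 (i + 1))) (g (p.2.1 i)) := by
        rw [Finset.sum_add_distrib, Finset.mul_sum, Finset.mul_sum]
    _ ≤ _ := by
        gcongr
        · exact le_iSup (fun p : ℕ × {u : ℕ → α // Monotone u ∧ ∀ i, u i ∈ s} =>
            ∑ i ∈ Finset.range p.1, edist (f (p.2.1 (i + 1))) (f (p.2.1 i))) p
        · exact le_iSup (fun p : ℕ × {u : ℕ → α // Monotone u ∧ ∀ i, u i ∈ s} =>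
            ∑ i ∈ Finset.range p.1, edist (g (p.2.1 (i + 1))) (g (p.2.1 i))) p

end gen

variable {E : Set ℂ} {w w' : ℂ → ℝ}

/-- enough: the lines over `[-R, R]` -/
theorem BVL.mk' (h : ∀ R : ℝ, ∃ M : ℝ → ℝ≥0∞, Measurable M ∧ (∫⁻ t in Icc (-R) R, M t) ≠ ∞ ∧
    ∀ᵐ t : ℝ, |t| ≤ R → eVariationOn (fun v : ℝ => w ⟨t, v⟩) (ln E R t) ≤ M t) : BVL E w := by
  classical
  intro R
  obtain ⟨M, h1, h2, h3⟩ := h R
  refine ⟨fun t => if t ∈ Icc (-R) R then M t else ∞, Measurable.ite measurableSet_Icc h1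
    measurable_const, ?_, ?_⟩
  · rw [setLIntegral_congr_fun (g := M) measurableSet_Icc fun t ht => by simp only [if_pos ht]]
    exact h2
  · filter_upwards [h3] with t ht
    by_cases hR : t ∈ Icc (-R) R
    · simp only [if_pos hR]
      exact ht (abs_le.2 hR)
    · simp only [if_neg hR]
      exact le_top

theorem BVL.congr (h : BVL E w) (he : ∀ z ∉ E, w z = w' z) : BVL E w' := by
  intro R
  obtain ⟨M, h1, h2, h3⟩ := h R
  refine ⟨M, h1, h2, ?_⟩
  filter_upwards [h3] with t ht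
  rw [← eVariationOn.congr (f := fun v : ℝ => w ⟨t, v⟩) fun v hv => he _ hv.1]
  exact ht

/-- linear combination of variations -/
theorem BVL.comb {f g h : ℂ → ℝ} (hf : BVL E f) (hg : BVL E g)
    (H : ∀ R : ℝ, ∃ A B : ℝ≥0∞, A ≠ ∞ ∧ B ≠ ∞ ∧ ∀ z ∉ E, ∀ z' ∉ E, ‖z‖ ≤ R → ‖z'‖ ≤ R →
      edist (h z) (h z') ≤ A * edist (f z) (f z') + B * edist (g z) (g z')) : BVL E h := by
  refine BVL.mk' fun R => ?_
  obtain ⟨M, h1, h2, h3⟩ := hf R
  obtain ⟨M', h1', h2', h3'⟩ := hg R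
  obtain ⟨A, B, hA, hB, hH⟩ := H (2 * |R|)
  refine ⟨fun t => A * M t + B * M' t, (h1.const_mul A).add (h1'.const_mul B), ?_, ?_⟩
  · rw [lintegral_add_left (h1.const_mul A), lintegral_const_mul _ h1, lintegral_const_mul _ h1']
    exact ENNReal.add_ne_top.2 ⟨ENNReal.mul_ne_top hA h2, ENNReal.mul_ne_top hB h2'⟩
  · filter_upwards [h3, h3'] with t ht ht' hR
    refine (eVar_le (f := fun v : ℝ => f ⟨t, v⟩) (g := fun v : ℝ => g ⟨t, v⟩) (A := A) (B := B)
      fun x hx y hy => ?_).trans ?_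
    · have key : ∀ v : ℝ, |v| ≤ R → ‖(⟨t, v⟩ : ℂ)‖ ≤ 2 * |R| := fun v hv => by
        refine (Complex.norm_le_abs_re_add_abs_im _).trans ?_
        have h4 : |t| + |v| ≤ R + R := add_le_add hR hv
        have h5 := le_abs_self R
        simp only
        linarith
      exact hH _ hx.1 _ hy.1 (key x hx.2) (key y hy.2)
    · exact add_le_add (mul_le_mul_right ht A) (mul_le_mul_right ht' B)

theorem BVL.add {f g : ℂ → ℝ} (hf : BVL E f) (hg : BVL E g) : BVL E fun z => f z + g z := by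
  refine hf.comb hg fun R => ⟨1, 1, ENNReal.one_ne_top, ENNReal.one_ne_top, fun z _ z' _ _ _ => ?_⟩
  rw [one_mul, one_mul]
  exact edist_add_add_le _ _ _ _

theorem BVL.mul {f g : ℂ → ℝ} (hf : BVL E f) (hg : BVL E g) (bf : Bd E f) (bg : Bd E g) :
    BVL E fun z => f z * g z := by
  refine hf.comb hg fun R => ?_
  obtain ⟨C, hC⟩ := bf R
  obtain ⟨D, hD⟩ := bg R
  refine ⟨ENNReal.ofReal D, ENNReal.ofReal C, ENNReal.ofReal_ne_top, ENNReal.ofReal_ne_top,
    fun z hz z' hz' h h' => ?_⟩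
  have e : ∀ a b : ℝ, edist a b = ENNReal.ofReal |a - b| := fun a b => by
    rw [edist_dist, Real.dist_eq]
  have hD0 : 0 ≤ D := (abs_nonneg _).trans (hD z' hz' h')
  have hC0 : 0 ≤ C := (abs_nonneg _).trans (hC z hz h)
  rw [e, e, e, ← ENNReal.ofReal_mul hD0, ← ENNReal.ofReal_mul hC0,
    ← ENNReal.ofReal_add (mul_nonneg hD0 (abs_nonneg _)) (mul_nonneg hC0 (abs_nonneg _))]
  refine ENNReal.ofReal_le_ofReal ?_
  have e1 : f z * g z - f z' * g z' = (f z - f z') * g z' + f z * (g z - g z') := by ring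
  rw [e1]
  refine (abs_add_le _ _).trans ?_
  rw [abs_mul, abs_mul]
  have h1 := mul_le_mul_of_nonneg_left (hD z' hz' h') (abs_nonneg (f z - f z'))
  have h2 := mul_le_mul_of_nonneg_right (hC z hz h) (abs_nonneg (g z - g z'))
  linarith

/-- Lipschitz functions on bounded sets are enough (only the values of `f` on balls matter) -/
theorem BVL.comp {f : ℂ → ℝ} (hf : BVL E f) (bf : Bd E f) {G : ℝ → ℝ}
    (hG : ∀ C : ℝ, ∃ L : ℝ, 0 ≤ L ∧ ∀ a b : ℝ, |a| ≤ C → |b| ≤ C → |G a - G b| ≤ L * |a - b|) :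
    BVL E fun z => G (f z) := by
  refine hf.comb hf fun R => ?_
  obtain ⟨C, hC⟩ := bf R
  obtain ⟨L, hL0, hL⟩ := hG C
  refine ⟨ENNReal.ofReal L, 0, ENNReal.ofReal_ne_top, ENNReal.zero_ne_top,
    fun z hz z' hz' h h' => ?_⟩
  have e : ∀ a b : ℝ, edist a b = ENNReal.ofReal |a - b| := fun a b => by
    rw [edist_dist, Real.dist_eq]
  rw [zero_mul, add_zero, e, e, ← ENNReal.ofReal_mul hL0]
  exact ENNReal.ofReal_le_ofReal (hL _ _ (hC z hz h) (hC z' hz' h'))

theorem BVL.comp_lip {f : ℂ → ℝ} (hf : BVL E f) {G : ℝ → ℝ} {L : ℝ≥0} (hG : LipschitzWith L G) :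
    BVL E fun z => G (f z) := by
  refine hf.comb hf fun R => ⟨L, 0, ENNReal.coe_ne_top, ENNReal.zero_ne_top,
    fun z _ z' _ _ _ => ?_⟩
  rw [zero_mul, add_zero]
  exact hG _ _

/-- functions of the real part -/
theorem BVL.of_re (g : ℝ → ℝ) : BVL E fun z => g z.re := by
  refine fun R => ⟨fun _ => 0, measurable_const, by simp, Eventually.of_forall fun t => ?_⟩
  refine iSup_le fun p => ?_
  simp

theorem BVL.const (c : ℝ) : BVL E fun _ => c := BVL.of_re fun _ => c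

/-- the imaginary part -/
theorem BVL.im : BVL E fun z => z.im := by
  refine fun R => ⟨fun _ => ENNReal.ofReal (2 * |R|), measurable_const, ?_,
    Eventually.of_forall fun t => ?_⟩
  · rw [setLIntegral_const]
    exact ENNReal.mul_ne_top ENNReal.ofReal_ne_top measure_Icc_lt_top.ne
  · have h1 : ln E R t ⊆ univ ∩ Icc (-|R|) |R| := fun v hv =>
      ⟨trivial, abs_le.1 (hv.2.trans (le_abs_self R))⟩
    refine (eVariationOn.mono _ h1).trans ?_
    have h2 : MonotoneOn (fun v : ℝ => (⟨t, v⟩ : ℂ).im) univ := fun a _ b _ hab => hab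
    refine (h2.eVariationOn_le (mem_univ _) (mem_univ _)).trans (le_of_eq ?_)
    congr 1
    ring

theorem Bd.mul {f g : ℂ → ℝ} (hf : Bd E f) (hg : Bd E g) : Bd E fun z => f z * g z := by
  intro R
  obtain ⟨C, hC⟩ := hf R
  obtain ⟨D, hD⟩ := hg R
  refine ⟨C * D, fun z hz h => ?_⟩
  rw [abs_mul]
  exact mul_le_mul (hC z hz h) (hD z hz h) (abs_nonneg _) ((abs_nonneg _).trans (hC z hz h))

theorem Bd.of_bdd {f : ℂ → ℝ} {C : ℝ} (h : ∀ z, |f z| ≤ C) : Bd E f := fun _ => ⟨C, fun z _ _ => h z⟩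

theorem Bd.of_cont {f : ℂ → ℝ} (h : Continuous f) : Bd E f := by
  intro R
  obtain ⟨C, hC⟩ := (isCompact_closedBall (0 : ℂ) R).exists_bound_of_continuousOn h.continuousOn
  exact ⟨C, fun z _ hz => hC z (mem_closedBall_zero_iff.2 hz)⟩

end Crest.Agent.R105.Bvl_31
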