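import Crest.Agent.R105.Nip4_31

/-!
# Row 105, S0138 (T-frame), module NI of helper459, part (P2), file 5 (helper31)

T4, first half: `NI Y A f` implies, for a.e. `t`, the slice bound for all saturated continua of
the level set `Lv Y A t` inside a fixed ball.
-/

set_option autoImplicit false

open Set Filter Topology MeasureTheory Metric
open scoped ENNReal NNReal

namespace Crest.Agent.R105.Nip_31

open Bd_775 Tc_808 Ni_459 Crest.AnalysisR

/-- oscillation as a point function -/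
noncomputable def osp (Y : Set ℂ) (u : ℂ → ℝ) (z : ℂ) : ℝ := up Y u z - lo Y u z

/-- a point of the component -/
noncomputable def pt {Y : Set ℂ} (K : Cmp Y) : ℂ := K.nonempty.some

lemma pt_mem {Y : Set ℂ} (K : Cmp Y) : pt K ∈ K.1 := K.nonempty.some_mem

/-- components where `u` jumps -/
def JJ (Y : Set ℂ) (u : ℂ → ℝ) : Set (Cmp Y) := {K | lo Y u (pt K) ≠ up Y u (pt K)}

/-- control of `f` along the level `t` of `a`, inside the ball of radius `R`
(459's `SliceBd` with continua in a bounded region) -/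
def SlB (Y : Set ℂ) (a f : ℂ → ℝ) (R t : ℝ) : Prop :=
  ∃ (ν : Measure ℂ) (S : Set ℂ), IsFiniteMeasure ν ∧ {K : Cmp Y | K.1 ⊆ S}.Countable ∧
    (∀ K : Cmp Y, (K.1 ∩ S).Nonempty → K.1 ⊆ S) ∧ ν (Y \ S) = 0 ∧
    ∀ C ⊆ Lv Y a t ∩ ball 0 R, IsCompact C → IsPreconnected C →
      (∀ z ∈ C, connectedComponentIn Y z ⊆ C) →
      ∀ p ∈ C \ Y, ∀ q ∈ C \ Y, |f p - f q| ≤ (ν C).toReal

section

variable {Y : Set ℂ} {A f : ℂ → ℝ} {R : ℝ}

/-- the jump part of `ρ` -/
noncomputable def rE (Y : Set ℂ) (A f : ℂ → ℝ) (𝒥 : Set (Cmp Y)) : Measure (ℝ × ℂ) :=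
  Measure.sum fun K : 𝒥 => ENNReal.ofReal (osp Y f (pt K.1)) •
    ((volume.restrict (Icc (lo Y A (pt K.1)) (up Y A (pt K.1)))).prod (Measure.dirac (pt K.1)))

/-- the regular part of `ρ` -/
noncomputable def rU (Y : Set ℂ) (A f : ℂ → ℝ) (W : Set ℂ) : Measure (ℝ × ℂ) :=
  ((volume.restrict (W \ Y)).withDensity fun z => ENNReal.ofReal |wdg A f z|).map
    fun z => (up Y A z, z)

lemma rE_apply {𝒥 : Set (Cmp Y)} {T : Set ℝ} {F : Set ℂ} (hT : MeasurableSet T)
    (hF : MeasurableSet F) : rE Y A f 𝒥 (T ×ˢ F) = ∑' K : 𝒥,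
      ENNReal.ofReal (osp Y f (pt K.1)) * (volume (T ∩ Icc (lo Y A (pt K.1)) (up Y A (pt K.1))) *
        F.indicator 1 (pt K.1)) := by
  unfold rE
  rw [Measure.sum_apply _ (hT.prod hF)]
  refine tsum_congr fun K => ?_
  rw [Measure.smul_apply, smul_eq_mul, Measure.prod_prod, Measure.restrict_apply hT,
    Measure.dirac_apply' _ hF]

lemma rU_apply (hm : Measurable (up Y A)) {W : Set ℂ} {T : Set ℝ} {F : Set ℂ}
    (hT : MeasurableSet T) (hF : MeasurableSet F) :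
    rU Y A f W (T ×ˢ F) = ∫⁻ z in (W \ Y) ∩ (F ∩ up Y A ⁻¹' T), ENNReal.ofReal |wdg A f z| := by
  unfold rU
  have hmap : Measurable fun z : ℂ => (up Y A z, z) := hm.prodMk measurable_id
  rw [Measure.map_apply hmap (hT.prod hF), withDensity_apply _ (hmap (hT.prod hF)),
    Measure.restrict_restrict (hmap (hT.prod hF)), inter_comm]
  congr 2
  ext z
  simp [and_comm]


lemma up_eq (hY : IsExteriorDomain Yᶜ) (hf : LocallyLipschitzOn Yᶜ f) (hfb : LB f) {z : ℂ}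
    (hz : z ∉ Y) : up Y f z = f z := by
  have hYc : IsCompact Y := cpt_of hY
  have hc : ContinuousAt f z := hf.continuousOn.continuousAt (hYc.isClosed.isOpen_compl.mem_nhds hz)
  exact up_of_notMem hY hfb hz hc

lemma lo_eq (hY : IsExteriorDomain Yᶜ) (hf : LocallyLipschitzOn Yᶜ f) (hfb : LB f) {z : ℂ}
    (hz : z ∉ Y) : lo Y f z = f z := by
  have hYc : IsCompact Y := cpt_of hY
  have hc : ContinuousAt f z := hf.continuousOn.continuousAt (hYc.isClosed.isOpen_compl.mem_nhds hz)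
  exact lo_of_notMem hY hfb hz hc

lemma pt_cc (K : Cmp Y) {z : ℂ} (hz : z ∈ K.1) : pt K ∈ connectedComponentIn Y z := by
  have h : connectedComponentIn Y z = K.1 := (congrArg Subtype.val (K.eq_of_mem hz)).symm
  rw [h]
  exact pt_mem K

lemma up_pt (u : ℂ → ℝ) (K : Cmp Y) {z : ℂ} (hz : z ∈ K.1) : up Y u z = up Y u (pt K) :=
  (up_congr_cc (K.subset hz) (pt_cc K hz)).symm

lemma lo_pt (u : ℂ → ℝ) (K : Cmp Y) {z : ℂ} (hz : z ∈ K.1) : lo Y u z = lo Y u (pt K) :=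
  (lo_congr_cc (K.subset hz) (pt_cc K hz)).symm

/-- **(AREA) over slabs** -/
theorem area_slab (hY : IsExteriorDomain Yᶜ) (hA : LocallyLipschitzOn Yᶜ A) (hAb : LB A)
    (hf : LocallyLipschitzOn Yᶜ f) (hfb : LB f) (hNI : NI Y A f) {𝒥 : Set (Cmp Y)}
    (h𝒥 : 𝒥.Countable) (hJA : JJ Y A ⊆ 𝒥) (hJf : JJ Y f ⊆ 𝒥) {W F : Set ℂ} {T : Set ℝ}
    (hF : IsCompact F) (hFs : Sat Y F) (hFW : F ⊆ W) (hT : MeasurableSet T) :
    volume (Nip_31.ZF (lo Y A) (up Y A) (lo Y f) (up Y f) F ∩ T ×ˢ univ) ≤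
      (rU Y A f W + rE Y A f 𝒥) (T ×ˢ F) := by
  classical
  have hYc : IsCompact Y := cpt_of hY
  have : Countable 𝒥 := h𝒥.to_subtype
  have hm : Measurable (up Y A) := (usc_up hY hAb).measurable
  set P : 𝒥 → Set (ℝ × ℝ) := fun K => if pt K.1 ∈ F then
    (T ∩ Icc (lo Y A (pt K.1)) (up Y A (pt K.1))) ×ˢ Icc (lo Y f (pt K.1)) (up Y f (pt K.1))
    else ∅ with hP
  have hcov : Nip_31.ZF (lo Y A) (up Y A) (lo Y f) (up Y f) F ∩ T ×ˢ univ ⊆
      ((fun z => (A z, f z)) '' ((F \ Y) ∩ up Y A ⁻¹' T)) ∪ (⋃ K : 𝒥, P K) ∪ NP Y A f := by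
    rintro ⟨x, y⟩ ⟨⟨z, hz, h1, h2, h3, h4⟩, hxT, -⟩
    simp only at h1 h2 h3 h4 hxT
    by_cases hzY : z ∈ Y
    · set K : Cmp Y := Cmp.of hzY with hK
      have hzK : z ∈ K.1 := mem_connectedComponentIn hzY
      rw [lo_pt A K hzK] at h1
      rw [up_pt A K hzK] at h2
      rw [lo_pt f K hzK] at h3
      rw [up_pt f K hzK] at h4
      by_cases hKJ : K ∈ 𝒥
      · refine Or.inl (Or.inr (mem_iUnion.2 ⟨⟨K, hKJ⟩, ?_⟩))
        have hpF : pt K ∈ F := hFs z hz hzY (pt_cc K hzK)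
        simp only [hP, if_pos hpF]
        exact ⟨⟨hxT, h1, h2⟩, h3, h4⟩
      · refine Or.inr ⟨pt K, K.subset (pt_mem K), ?_⟩
        have e1 : lo Y A (pt K) = up Y A (pt K) := by
          by_contra h; exact hKJ (hJA h)
        have e2 : lo Y f (pt K) = up Y f (pt K) := by
          by_contra h; exact hKJ (hJf h)
        refine ⟨?_, ?_, ?_, ?_⟩ <;> simp only <;> linarith
    · refine Or.inl (Or.inl ⟨z, ⟨⟨hz, hzY⟩, ?_⟩, ?_⟩)
      · rw [lo_eq hY hA hAb hzY] at h1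
        rw [up_eq hY hA hAb hzY] at h2
        show up Y A z ∈ T
        rw [up_eq hY hA hAb hzY, le_antisymm h1 h2]
        exact hxT
      · rw [lo_eq hY hA hAb hzY] at h1
        rw [up_eq hY hA hAb hzY] at h2
        rw [lo_eq hY hf hfb hzY] at h3
        rw [up_eq hY hf hfb hzY] at h4
        exact Prod.ext (le_antisymm h1 h2) (le_antisymm h3 h4)
  have hFm : MeasurableSet F := hF.measurableSet
  have hM : MeasurableSet ((F \ Y) ∩ up Y A ⁻¹' T) :=
    (hFm.diff hYc.measurableSet).inter (hm hT)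
  have h1 : volume ((fun z => (A z, f z)) '' ((F \ Y) ∩ up Y A ⁻¹' T)) ≤
      rU Y A f W (T ×ˢ F) := by
    rw [rU_apply hm hT hFm]
    have e : (W \ Y) ∩ (F ∩ up Y A ⁻¹' T) = (F \ Y) ∩ up Y A ⁻¹' T := by
      ext z
      constructor
      · rintro ⟨⟨-, h⟩, h', h''⟩; exact ⟨⟨h', h⟩, h''⟩
      · rintro ⟨⟨h, h'⟩, h''⟩; exact ⟨⟨hFW h, h'⟩, h, h''⟩
    rw [e]
    exact area hYc.isClosed hA hf hM fun z hz => hz.1.2
  have h2 : volume (⋃ K : 𝒥, P K) ≤ rE Y A f 𝒥 (T ×ˢ F) := by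
    rw [rE_apply hT hFm]
    refine (measure_iUnion_le _).trans (ENNReal.tsum_le_tsum fun K => ?_)
    by_cases hp : pt K.1 ∈ F
    · simp only [hP, if_pos hp, indicator_of_mem hp, Pi.one_apply, mul_one]
      rw [Measure.volume_eq_prod, Measure.prod_prod, Real.volume_Icc, mul_comm]
      exact le_rfl
    · simp only [hP, if_neg hp, measure_empty]
      exact bot_le
  calc _ ≤ volume (((fun z => (A z, f z)) '' ((F \ Y) ∩ up Y A ⁻¹' T)) ∪ (⋃ K : 𝒥, P K) ∪
        NP Y A f) := measure_mono hcov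
    _ ≤ volume ((fun z => (A z, f z)) '' ((F \ Y) ∩ up Y A ⁻¹' T)) + volume (⋃ K : 𝒥, P K) +
        volume (NP Y A f) := (measure_union_le _ _).trans (add_le_add_left (measure_union_le _ _) _)
    _ ≤ rU Y A f W (T ×ˢ F) + rE Y A f 𝒥 (T ×ˢ F) := by
        rw [show volume (NP Y A f) = 0 from hNI, add_zero]
        exact add_le_add h1 h2
    _ = _ := by rw [Measure.add_apply]

/-- **T4, first half.** -/
theorem ni_slice (hY : IsExteriorDomain Yᶜ) (hA : LocallyLipschitzOn Yᶜ A) (hAb : LB A)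
    (hf : LocallyLipschitzOn Yᶜ f) (hfb : LB f) (hNI : NI Y A f) {𝒥 : Set (Cmp Y)}
    (h𝒥 : 𝒥.Countable) (hJA : JJ Y A ⊆ 𝒥) (hJf : JJ Y f ⊆ 𝒥)
    (hU : ∫⁻ z in ball 0 R \ Y, ENNReal.ofReal |wdg A f z| ≠ ∞)
    (hS : ∑' K : 𝒥, ENNReal.ofReal (osp Y f (pt K.1)) *
      ENNReal.ofReal (osp Y A (pt K.1)) ≠ ∞) :
    ∀ᵐ t, SlB Y A f R t := by
  classical
  have hYc : IsCompact Y := cpt_of hY
  have : Countable 𝒥 := h𝒥.to_subtype
  have hm : Measurable (up Y A) := (usc_up hY hAb).measurable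
  set ρ : Measure (ℝ × ℂ) := rU Y A f (ball 0 R) + rE Y A f 𝒥 with hρ
  have hρ1 : rU Y A f (ball 0 R) univ ≠ ∞ := by
    rw [← univ_prod_univ, rU_apply hm MeasurableSet.univ MeasurableSet.univ]
    simpa using hU
  have hρ2 : rE Y A f 𝒥 univ ≠ ∞ := by
    rw [← univ_prod_univ, rE_apply MeasurableSet.univ MeasurableSet.univ]
    simpa [osp, Real.volume_Icc] using hS
  have hfin : IsFiniteMeasure ρ := ⟨by
    rw [hρ, Measure.add_apply]
    exact ENNReal.add_lt_top.2 ⟨hρ1.lt_top, hρ2.lt_top⟩⟩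
  have hsl := slice_le (E := Y) (W₀ := ball 0 R) hYc isOpen_ball (lsc_lo hY hAb)
    (usc_up hY hAb) (lsc_lo hY hfb) (usc_up hY hfb) (ρ := ρ)
    (fun F hF hFs hFW T hT => area_slab hY hA hAb hf hfb hNI h𝒥 hJA hJf hF hFs hFW hT)
  -- the set of charged components
  set S : Set ℂ := ⋃ K ∈ 𝒥, K.1 with hSdef
  have hSm : MeasurableSet S := MeasurableSet.biUnion h𝒥 fun K _ =>
    (K.isCompact hYc).measurableSet
  have hKS : ∀ K : Cmp Y, (K.1 ∩ S).Nonempty → K ∈ 𝒥 := by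
    rintro K ⟨z, hz, hzS⟩
    obtain ⟨K', hK', hzK'⟩ := mem_iUnion₂.1 hzS
    have : K = K' := by
      by_contra hne
      exact disjoint_left.1 (Cmp.disjoint hne) hz hzK'
    rw [this]; exact hK'
  have hnull : ρ (univ ×ˢ (Y \ S)) = 0 := by
    have hYS : MeasurableSet (Y \ S) := hYc.measurableSet.diff hSm
    rw [hρ, Measure.add_apply, rU_apply hm MeasurableSet.univ hYS,
      rE_apply MeasurableSet.univ hYS]
    have e1 : (ball (0 : ℂ) R \ Y) ∩ (Y \ S ∩ up Y A ⁻¹' univ) = ∅ := by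
      ext z; simp only [mem_inter_iff, Set.mem_sdiff, mem_empty_iff_false, iff_false]
      rintro ⟨⟨-, h⟩, ⟨h', -⟩, -⟩; exact h h'
    rw [e1, Measure.restrict_empty, lintegral_zero_measure, zero_add]
    refine ENNReal.tsum_eq_zero.2 fun K => ?_
    have : pt K.1 ∉ Y \ S := fun h => h.2 (mem_iUnion₂.2 ⟨K.1, K.2, pt_mem _⟩)
    rw [indicator_of_notMem this]
    simp
  have hnull' : ∀ᵐ t, slc ρ t (Y \ S) = 0 := by
    have hYS : MeasurableSet (Y \ S) := hYc.measurableSet.diff hSm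
    have h1 := lintegral_slc_le ρ (S := univ ×ˢ (Y \ S)) (MeasurableSet.univ.prod hYS)
    rw [hnull, nonpos_iff_eq_zero, lintegral_eq_zero_iff
      (measurable_slc ρ (MeasurableSet.univ.prod hYS))] at h1
    filter_upwards [h1] with t ht
    have e : Prod.mk t ⁻¹' ((univ : Set ℝ) ×ˢ (Y \ S)) = Y \ S := by ext; simp
    rw [e] at ht
    exact ht
  filter_upwards [hsl, hnull', ae_slc_lt_top ρ] with t ht ht0 htt
  refine ⟨slc ρ t, S, ⟨htt univ⟩, ?_, fun K hK => ?_, ht0, ?_⟩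
  · refine h𝒥.mono fun K hK => hKS K ⟨pt K, pt_mem K, hK (pt_mem K)⟩
  · intro z hz
    exact mem_iUnion₂.2 ⟨K, hKS K hK, hz⟩
  · intro C hC hCc hCp hCs p hp q hq
    have hsC : Sat Y C := fun z hz _ => hCs z hz
    have h1 := ht C hCc hsC fun z hz => (hC hz).2
    -- the slice is an interval containing both values
    have h2 : uIcc (f p) (f q) ⊆ {s | (t, s) ∈ Nip_31.ZF (lo Y A) (up Y A) (lo Y f) (up Y f) C} := by
      intro s hs
      by_contra hcon
      have hno : ∀ z ∈ C, ¬ (lo Y f z ≤ s ∧ s ≤ up Y f z) := fun z hz h =>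
        hcon ⟨z, hz, (hC hz).1.1, (hC hz).1.2, h.1, h.2⟩
      have hcov : C ⊆ {z | up Y f z < s} ∪ {z | s < lo Y f z} := by
        intro z hz
        by_cases h : lo Y f z ≤ s
        · left
          by_contra h'
          exact hno z hz ⟨h, not_lt.1 h'⟩
        · right; exact not_le.1 h
      have hdis : ∀ z, ¬ (up Y f z < s ∧ s < lo Y f z) := fun z h => by
        have := lo_le_up hY hfb z
        linarith [h.1, h.2]
      have key : ∀ x y : ℂ, x ∈ C \ Y → y ∈ C \ Y → f x < s → s < f y → False := by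
        intro x y hx hy hxs hys
        obtain ⟨z, -, hz1, hz2⟩ := hCp _ _ (isOpen_up_lt hY hfb s) (isOpen_lt_lo hY hfb s) hcov
          ⟨x, hx.1, by simp only [mem_ofPred_eq]; rw [up_eq hY hf hfb hx.2]; exact hxs⟩
          ⟨y, hy.1, by simp only [mem_ofPred_eq]; rw [lo_eq hY hf hfb hy.2]; exact hys⟩
        exact hdis z ⟨hz1, hz2⟩
      have hps : f p ≠ s := fun h => hno p hp.1 (by
        rw [lo_eq hY hf hfb hp.2, up_eq hY hf hfb hp.2, h]; exact ⟨le_rfl, le_rfl⟩)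
      have hqs : f q ≠ s := fun h => hno q hq.1 (by
        rw [lo_eq hY hf hfb hq.2, up_eq hY hf hfb hq.2, h]; exact ⟨le_rfl, le_rfl⟩)
      rcases le_total (f p) (f q) with hle | hle
      · rw [uIcc_of_le hle] at hs
        exact key p q hp hq (lt_of_le_of_ne hs.1 hps) (lt_of_le_of_ne hs.2 hqs.symm)
      · rw [uIcc_of_ge hle] at hs
        exact key q p hq hp (lt_of_le_of_ne hs.1 hqs) (lt_of_le_of_ne hs.2 hps.symm)
    have h3 : ENNReal.ofReal |f p - f q| ≤ slc ρ t C := by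
      refine le_trans (le_of_eq ?_) ((measure_mono h2).trans h1)
      rw [Real.volume_interval, abs_sub_comm]
    have h4 := ENNReal.toReal_mono (htt C).ne h3
    rwa [ENNReal.toReal_ofReal (abs_nonneg _)] at h4

end

end Crest.Agent.R105.Nip_31
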