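import Crest.Agent.R105.Ta5_937
import Crest.Agent.R105.Nip5_31

/-!
# Row 105, S0138 (NI frame): vertical lines of a picture ⟹ slice bounds, part 1 (helper818)

Outer greedy of helper319 (#10367): the anchors `X_i` have their own univalent picture `P_i`, the
level sets of `X_i` are the vertical lines of the `P_i`-plane.

* `St Y R`   : saturation of `R`; closed if `R` is closed;
* `seg`      : a connected saturated set on the line `re = t` contains, with two points off `Y`,
  everything between them;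
* `Lv_re`    : the level set of `re` consists of points of the line and of components which meet it;
* `LineBd`   : the line inequality (output of 319's (Y)); `slb_of_line : LineBd → SlB Y re g R t`.
-/

set_option autoImplicit false

open MeasureTheory Set Filter Topology Metric
open scoped NNReal ENNReal

namespace Crest.Agent.R105.Vb_818

open Ends_897 Tc_808 Ni_459 Ta_937 Nip_31 Crest.AnalysisR

noncomputable section

/-- saturation -/
def St (Y R : Set ℂ) : Set ℂ := {z | z ∈ R ∨ (connectedComponentIn Y z ∩ R).Nonempty}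

theorem isClosed_St {Y R : Set ℂ} (hY : IsCompact Y) (hR : IsClosed R) : IsClosed (St Y R) := by
  rw [← isOpen_compl_iff, isOpen_iff_mem_nhds]
  intro z hz
  have hz' : ¬ (z ∈ R ∨ (connectedComponentIn Y z ∩ R).Nonempty) := hz
  rw [not_or, not_nonempty_iff_eq_empty] at hz'
  have hnb : Nb Y z Rᶜ := ⟨hR.isOpen_compl, hz'.1, fun w hw hwR => by
    have : w ∈ connectedComponentIn Y z ∩ R := ⟨hw, hwR⟩
    rw [hz'.2] at this; exact this⟩
  obtain ⟨P, -, hP, hPO⟩ := hnb.shrink hY
  filter_upwards [hP.op.mem_nhds hP.mem] with w hw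
  intro hwS
  rcases hwS with h | ⟨x, hx, hxR⟩
  · exact (hPO w hw).mem h
  · exact (hPO w hw).sub hx hxR

/-- the vertical line -/
def Ln (t : ℝ) : Set ℂ := {z | z.re = t}

/-- sections of the components are order connected -/
def Sec (Y : Set ℂ) : Prop :=
  ∀ z ∈ Y, ∀ t : ℝ, OrdConnected {y : ℝ | (⟨t, y⟩ : ℂ) ∈ connectedComponentIn Y z}

theorem isClosed_half (t s : ℝ) : IsClosed {z : ℂ | z.re = t ∧ z.im ≤ s} :=
  (isClosed_eq Complex.continuous_re continuous_const).inter
    (isClosed_le Complex.continuous_im continuous_const)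

theorem isClosed_half' (t s : ℝ) : IsClosed {z : ℂ | z.re = t ∧ s ≤ z.im} :=
  (isClosed_eq Complex.continuous_re continuous_const).inter
    (isClosed_le continuous_const Complex.continuous_im)

/-- **everything between two points belongs to the set** -/
theorem seg {Y D : Set ℂ} (hY : IsCompact Y) (sec : Sec Y) {t : ℝ} (hD : IsPreconnected D)
    (hs : Sa Y D) (hL : D ⊆ St Y (Ln t)) {p q w : ℂ} (hp : p ∈ D) (hq : q ∈ D) (hpY : p ∉ Y)
    (hqY : q ∉ Y) (hpw : p.im ≤ w.im) (hwq : w.im ≤ q.im) (hw : w.re = t) : w ∈ D := by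
  by_contra hwD
  have line : ∀ z ∈ D, z ∉ Y → z.re = t := by
    intro z hz hzY
    rcases hL hz with h | ⟨x, hx, -⟩
    · exact h
    · rw [connectedComponentIn_eq_empty hzY] at hx; exact hx.elim
  set A := St Y {z : ℂ | z.re = t ∧ z.im ≤ w.im} with hA
  set B := St Y {z : ℂ | z.re = t ∧ w.im ≤ z.im} with hB
  have hcov : D ⊆ A ∪ B := by
    intro z hz
    rcases hL hz with h | ⟨x, hx, hxt⟩
    · rcases le_total z.im w.im with h' | h'
      · exact Or.inl (Or.inl ⟨h, h'⟩)
      · exact Or.inr (Or.inl ⟨h, h'⟩)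
    · rcases le_total x.im w.im with h' | h'
      · exact Or.inl (Or.inr ⟨x, hx, hxt, h'⟩)
      · exact Or.inr (Or.inr ⟨x, hx, hxt, h'⟩)
  obtain ⟨z, hzD, hzA, hzB⟩ := (isPreconnected_closed_iff.1 hD) A B
    (isClosed_St hY (isClosed_half _ _)) (isClosed_St hY (isClosed_half' _ _)) hcov
    ⟨p, hp, Or.inl ⟨line p hp hpY, hpw⟩⟩ ⟨q, hq, Or.inl ⟨line q hq hqY, hwq⟩⟩
  by_cases hzY : z ∈ Y
  · have key : ∀ {R : Set ℂ}, z ∈ St Y R → ∃ x ∈ connectedComponentIn Y z, x ∈ R := by
      intro R h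
      rcases h with h | ⟨x, hx, hxR⟩
      · exact ⟨z, mem_connectedComponentIn hzY, h⟩
      · exact ⟨x, hx, hxR⟩
    obtain ⟨x, hx, hxt, hx1⟩ := key hzA
    obtain ⟨y, hy, hyt, hy1⟩ := key hzB
    have h1 : w.im ∈ {s : ℝ | (⟨t, s⟩ : ℂ) ∈ connectedComponentIn Y z} := by
      refine (sec z hzY t).out (x := x.im) (y := y.im) ?_ ?_ ⟨hx1, hy1⟩
      · change (⟨t, x.im⟩ : ℂ) ∈ connectedComponentIn Y z
        rw [← hxt]; exact hx
      · change (⟨t, y.im⟩ : ℂ) ∈ connectedComponentIn Y z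
        rw [← hyt]; exact hy
    have h2 : (⟨t, w.im⟩ : ℂ) = w := Complex.ext hw.symm rfl
    have h3 : (⟨t, w.im⟩ : ℂ) ∈ connectedComponentIn Y z := h1
    rw [h2] at h3
    exact hwD (hs z hzD h3)
  · have e : connectedComponentIn Y z = ∅ := connectedComponentIn_eq_empty hzY
    have ha : z.re = t ∧ z.im ≤ w.im := by
      rcases hzA with h | ⟨x, hx, -⟩
      · exact h
      · rw [e] at hx; exact hx.elim
    have hb : z.re = t ∧ w.im ≤ z.im := by
      rcases hzB with h | ⟨x, hx, -⟩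
      · exact h
      · rw [e] at hx; exact hx.elim
    have : z = w := Complex.ext (ha.1.trans hw.symm) (le_antisymm ha.2 hb.2)
    exact hwD (this ▸ hzD)

theorem lb_re : LB (fun z : ℂ => z.re) := LB.of_cont Complex.continuous_re

/-- the level sets of `re` -/
theorem Lv_re {Y : Set ℂ} (hY : IsExteriorDomain Yᶜ) (t : ℝ) :
    Lv Y (fun z => z.re) t ⊆ St Y (Ln t) := by
  intro z hz
  have hlu := lb_re
  by_cases hzY : z ∈ Y
  · right
    set K := connectedComponentIn Y z with hK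
    have hzK : z ∈ K := mem_connectedComponentIn hzY
    have hKc : IsCompact K := Ends_897.isCompact_cc (cpt_of hY) z
    have hre : IsCompact (Complex.re '' K) := hKc.image Complex.continuous_re
    have hoc : OrdConnected (Complex.re '' K) :=
      (isPreconnected_connectedComponentIn.image _ Complex.continuous_re.continuousOn).ordConnected
    have hne : K.Nonempty := ⟨z, hzK⟩
    -- a point on the left
    have hl : ∃ x ∈ K, x.re ≤ t := by
      by_contra hcon
      push Not at hcon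
      obtain ⟨x, hx, hmin⟩ := hKc.exists_isMinOn hne Complex.continuous_re.continuousOn
      obtain ⟨c, hc1, hc2⟩ := exists_between (hcon x hx)
      have hnb : Nb Y z {w : ℂ | c < w.re} :=
        nb_of_mem hzY (isOpen_lt continuous_const Complex.continuous_re)
          fun w hw => lt_of_lt_of_le hc2 (hmin hw)
      have := le_lo (u := fun z : ℂ => z.re) hY hlu hnb fun w hw _ => le_of_lt hw
      exact absurd (this.trans hz.1) (not_le.2 hc1)
    have hr : ∃ x ∈ K, t ≤ x.re := by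
      by_contra hcon
      push Not at hcon
      obtain ⟨x, hx, hmax⟩ := hKc.exists_isMaxOn hne Complex.continuous_re.continuousOn
      obtain ⟨c, hc1, hc2⟩ := exists_between (hcon x hx)
      have hnb : Nb Y z {w : ℂ | w.re < c} :=
        nb_of_mem hzY (isOpen_lt Complex.continuous_re continuous_const)
          fun w hw => lt_of_le_of_lt (hmax hw) hc1
      have := up_le (u := fun z : ℂ => z.re) hY hlu hnb fun w hw _ => le_of_lt hw
      exact absurd (hz.2.trans this) (not_le.2 hc2)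
    obtain ⟨x, hx, hxt⟩ := hl
    obtain ⟨y, hy, hyt⟩ := hr
    obtain ⟨v, hv, hvt⟩ := hoc.out ⟨x, hx, rfl⟩ ⟨y, hy, rfl⟩ ⟨hxt, hyt⟩
    exact ⟨v, hv, hvt⟩
  · left
    have hc : ContinuousAt (fun z : ℂ => z.re) z := Complex.continuous_re.continuousAt
    have h1 := lo_of_notMem hY hlu hzY hc
    have h2 := up_of_notMem hY hlu hzY hc
    have h3 := hz.1
    have h4 := hz.2
    rw [h1] at h3
    rw [h2] at h4
    exact le_antisymm h3 h4

/-- **the line inequality** on `re = t` (picture plane, `Y` the complement of the picture) -/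
structure LineBd (Y : Set ℂ) (g : ℂ → ℝ) (t : ℝ) (m : ℝ → ℝ≥0∞) (w : Cmp Y → ℝ≥0∞) : Prop where
  meas : Measurable m
  fin : ∀ R : ℝ, ∫⁻ y in Ioo (-R) R ∩ {y | (⟨t, y⟩ : ℂ) ∉ Y}, m y ≠ ∞
  sum : ∑' K, w K ≠ ∞
  bd : ∀ p q : ℝ, p < q → (⟨t, p⟩ : ℂ) ∉ Y → (⟨t, q⟩ : ℂ) ∉ Y →
    ENNReal.ofReal |g ⟨t, q⟩ - g ⟨t, p⟩| ≤ (∫⁻ y in Ioo p q ∩ {y | (⟨t, y⟩ : ℂ) ∉ Y}, m y) +
      ∑' K : {K : Cmp Y // ∃ y ∈ Ioo p q, (⟨t, y⟩ : ℂ) ∈ K.1}, w K.1

theorem measurable_mk (t : ℝ) : Measurable (fun y : ℝ => (⟨t, y⟩ : ℂ)) := by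
  have h : Continuous (fun y : ℝ => (⟨t, y⟩ : ℂ)) := by
    have : (fun y : ℝ => (⟨t, y⟩ : ℂ)) = fun y : ℝ => (t : ℂ) + y * Complex.I := by
      ext y; apply Complex.ext <;> simp
    rw [this]; fun_prop
  exact h.measurable

/-- the measure of the line -/
def nuL (Y : Set ℂ) (t R : ℝ) (m : ℝ → ℝ≥0∞) : Measure ℂ :=
  ((volume.restrict (Ioo (-R) R ∩ {y : ℝ | (⟨t, y⟩ : ℂ) ∉ Y})).withDensity m).map
    fun y : ℝ => (⟨t, y⟩ : ℂ)

/-- the atoms -/
def nuA (Y : Set ℂ) (w : Cmp Y → ℝ≥0∞) : Measure ℂ :=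
  Measure.sum fun K : Cmp Y => w K • Measure.dirac (pt K)

theorem nuL_apply {Y : Set ℂ} {t R : ℝ} {m : ℝ → ℝ≥0∞} {A : Set ℂ} (hA : MeasurableSet A) :
    nuL Y t R m A =
      ∫⁻ y in {y : ℝ | (⟨t, y⟩ : ℂ) ∈ A} ∩ (Ioo (-R) R ∩ {y : ℝ | (⟨t, y⟩ : ℂ) ∉ Y}), m y := by
  unfold nuL
  have hm := measurable_mk t
  rw [Measure.map_apply hm hA, withDensity_apply _ (hm hA), Measure.restrict_restrict (hm hA)]
  rfl

theorem nuA_apply {Y : Set ℂ} {w : Cmp Y → ℝ≥0∞} {A : Set ℂ} (hA : MeasurableSet A) :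
    nuA Y w A = ∑' K : Cmp Y, w K * A.indicator 1 (pt K) := by
  unfold nuA
  rw [Measure.sum_apply _ hA]
  refine tsum_congr fun K => ?_
  rw [Measure.smul_apply, smul_eq_mul, Measure.dirac_apply' _ hA]

/-- **slice bounds from the line inequality**, picture plane -/
theorem slb_of_line {Y : Set ℂ} (hY : IsExteriorDomain Yᶜ) (sec : Sec Y) {g : ℂ → ℝ} {t : ℝ}
    {m : ℝ → ℝ≥0∞} {w : Cmp Y → ℝ≥0∞} (h : LineBd Y g t m w) (R : ℝ) :
    SlB Y (fun z => z.re) g R t := by
  classical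
  have hYc := cpt_of hY
  have hYm : MeasurableSet Y := hYc.isClosed.measurableSet
  have hw0 : {K : Cmp Y | w K ≠ 0}.Countable := by
    have := Summable.countable_support_ennreal h.sum
    exact this
  set S : Set ℂ := ⋃ K ∈ {K : Cmp Y | w K ≠ 0}, K.1 with hS
  have hSm : MeasurableSet S := MeasurableSet.biUnion hw0 fun K _ =>
    (K.isCompact hYc).isClosed.measurableSet
  have hsat : ∀ K : Cmp Y, (K.1 ∩ S).Nonempty → w K ≠ 0 := by
    rintro K ⟨z, hz, hzS⟩
    rw [hS] at hzS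
    simp only [mem_iUnion] at hzS
    obtain ⟨K', hK', hzK'⟩ := hzS
    have : K = K' := (K.eq_of_mem hz).trans (K'.eq_of_mem hzK').symm
    rw [this]; exact hK'
  refine ⟨nuL Y t R m + nuA Y w, S, ?_, ?_, ?_, ?_, ?_⟩
  · refine ⟨?_⟩
    rw [Measure.add_apply, nuL_apply MeasurableSet.univ, nuA_apply MeasurableSet.univ]
    refine ENNReal.add_lt_top.2 ⟨?_, ?_⟩
    · refine lt_of_le_of_lt (lintegral_mono_set inter_subset_right) (lt_top_iff_ne_top.2 (h.fin R))
    · simp only [indicator_univ, Pi.one_apply, mul_one]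
      exact lt_top_iff_ne_top.2 h.sum
  · refine hw0.mono fun K hK => ?_
    obtain ⟨z, hz⟩ := K.nonempty
    exact hsat K ⟨z, hz, hK hz⟩
  · intro K hK
    have h1 := hsat K hK
    intro z hz
    rw [hS]
    exact mem_biUnion (show K ∈ {K : Cmp Y | w K ≠ 0} from h1) hz
  · rw [Measure.add_apply, nuL_apply (hYm.diff hSm), nuA_apply (hYm.diff hSm)]
    have e1 : {y : ℝ | (⟨t, y⟩ : ℂ) ∈ Y \ S} ∩ (Ioo (-R) R ∩ {y : ℝ | (⟨t, y⟩ : ℂ) ∉ Y}) = ∅ := by
      rw [eq_empty_iff_forall_notMem]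
      rintro y ⟨h1, -, h2⟩
      exact h2 h1.1
    rw [e1]
    simp only [Measure.restrict_empty, lintegral_zero_measure, zero_add]
    rw [ENNReal.tsum_eq_zero]
    intro K
    by_cases hK : w K = 0
    · rw [hK, zero_mul]
    · have : pt K ∉ Y \ S := fun hm => hm.2 (by
        rw [hS]; exact mem_biUnion (show K ∈ {K : Cmp Y | w K ≠ 0} from hK) (pt_mem K))
      rw [indicator_of_notMem this, mul_zero]
  · intro C hC hCc hCp hCs
    have hCm : MeasurableSet C := hCc.isClosed.measurableSet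
    have hL : C ⊆ St Y (Ln t) := fun z hz => Lv_re hY t (hC hz).1
    have line : ∀ z ∈ C, z ∉ Y → z.re = t := by
      intro z hz hzY
      rcases hL hz with h | ⟨x, hx, -⟩
      · exact h
      · rw [connectedComponentIn_eq_empty hzY] at hx; exact hx.elim
    have hfin : (nuL Y t R m + nuA Y w) C ≠ ∞ := by
      rw [Measure.add_apply, nuL_apply hCm, nuA_apply hCm]
      refine ENNReal.add_ne_top.2 ⟨?_, ?_⟩
      · exact ne_top_of_le_ne_top (h.fin R) (lintegral_mono_set inter_subset_right)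
      · refine ne_top_of_le_ne_top h.sum (ENNReal.tsum_le_tsum fun K => ?_)
        refine (mul_le_mul_right (indicator_le_self' (s := C) (f := (1 : ℂ → ℝ≥0∞))
          (fun _ _ => zero_le) (pt K)) (w K)).trans ?_
        simp
    -- ordered version
    have key : ∀ p ∈ C \ Y, ∀ q ∈ C \ Y, p.im < q.im →
        |g q - g p| ≤ ((nuL Y t R m + nuA Y w) C).toReal := by
      rintro p ⟨hp, hpY⟩ q ⟨hq, hqY⟩ hpq
      have ep : (⟨t, p.im⟩ : ℂ) = p := Complex.ext (line p hp hpY).symm rfl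
      have eq : (⟨t, q.im⟩ : ℂ) = q := Complex.ext (line q hq hqY).symm rfl
      have h1 := h.bd p.im q.im hpq (by rw [ep]; exact hpY) (by rw [eq]; exact hqY)
      rw [ep, eq] at h1
      have hseg : ∀ y ∈ Ioo p.im q.im, (⟨t, y⟩ : ℂ) ∈ C := fun y hy =>
        seg hYc sec hCp hCs hL hp hq hpY hqY (w := ⟨t, y⟩) hy.1.le hy.2.le rfl
      rw [← ENNReal.toReal_ofReal (abs_nonneg (g q - g p))]
      refine ENNReal.toReal_mono hfin (h1.trans ?_)
      rw [Measure.add_apply, nuL_apply hCm, nuA_apply hCm]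
      refine add_le_add ?_ ?_
      · refine lintegral_mono_set fun y hy => ⟨hseg y hy.1, ?_, hy.2⟩
        have h2 := (hC (hseg y hy.1)).2
        rw [mem_ball_zero_iff] at h2
        have h3 : |y| ≤ ‖(⟨t, y⟩ : ℂ)‖ := Complex.abs_im_le_norm ⟨t, y⟩
        exact abs_lt.1 (lt_of_le_of_lt h3 h2)
      · have h2 : ∀ K : {K : Cmp Y // ∃ y ∈ Ioo p.im q.im, (⟨t, y⟩ : ℂ) ∈ K.1},
            w K.1 = w K.1 * C.indicator 1 (pt K.1) := by
          rintro ⟨K, y, hy, hyK⟩
          have h3 : K.1 ⊆ C := by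
            rw [← cc_of_mem K hyK]
            exact hCs _ (hseg y hy)
          simp only
          rw [indicator_of_mem (h3 (pt_mem K)), Pi.one_apply, mul_one]
        rw [tsum_congr h2]
        exact ENNReal.tsum_comp_le_tsum_of_injective Subtype.val_injective
          (fun K => w K * C.indicator 1 (pt K))
    intro p hp q hq
    rcases lt_trichotomy p.im q.im with h1 | h1 | h1
    · rw [abs_sub_comm]; exact key p hp q hq h1
    · have : p = q := Complex.ext ((line p hp.1 hp.2).trans (line q hq.1 hq.2).symm) h1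
      rw [this, sub_self, abs_zero]; exact ENNReal.toReal_nonneg
    · exact key q hq p hp h1

end

end Crest.Agent.R105.Vb_818
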