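import Crest.Agent.R105.Bvl1_31
import Crest.Agent.R105.Vb1_818
import Crest.Agent.R105.Nip5_31

/-!
# Row 105, S0138, node E13 (499 #11166 (2a)), helper31, part 2: in the plane of a picture with
order connected sections, `NI E re w` implies `BVL E w`.

* `ni_slice_int` : `Nip5_31.ni_slice` with the slice measures and their integrable total mass;
* `st_Lv` : the saturation of a piece of the line `re = t` lies in the level set of `re`;
* `bvl_ni` : `NI E re w` + local finiteness of `|dre ∧ dw|` + summable jumps ⟹ `BVL E w`.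
-/

set_option autoImplicit false

open MeasureTheory Set Filter Topology Metric
open scoped ENNReal NNReal

namespace Crest.Agent.R105.Bvl_31

open Bd_775 Tc_808 Ni_459 Nip_31 Crest.AnalysisR

section

variable {Y : Set ℂ} {A f : ℂ → ℝ} {R : ℝ}

/-- **T4 with integrable total mass** -/
theorem ni_slice_int (hY : IsExteriorDomain Yᶜ) (hA : LocallyLipschitzOn Yᶜ A) (hAb : LB A)
    (hf : LocallyLipschitzOn Yᶜ f) (hfb : LB f) (hNI : NI Y A f) {𝒥 : Set (Cmp Y)}
    (h𝒥 : 𝒥.Countable) (hJA : JJ Y A ⊆ 𝒥) (hJf : JJ Y f ⊆ 𝒥)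
    (hU : ∫⁻ z in ball 0 R \ Y, ENNReal.ofReal |wdg A f z| ≠ ∞)
    (hS : ∑' K : 𝒥, ENNReal.ofReal (osp Y f (pt K.1)) *
      ENNReal.ofReal (osp Y A (pt K.1)) ≠ ∞) :
    ∃ ν : ℝ → Measure ℂ, (Measurable fun t => ν t univ) ∧ (∫⁻ t, ν t univ) ≠ ∞ ∧
      ∀ᵐ t, ∀ C ⊆ Lv Y A t ∩ ball 0 R, IsCompact C → IsPreconnected C →
        (∀ z ∈ C, connectedComponentIn Y z ⊆ C) →
        ∀ p ∈ C \ Y, ∀ q ∈ C \ Y, ENNReal.ofReal |f p - f q| ≤ ν t C := by
  classical
  have hYc : IsCompact Y := cpt_of hY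
  have : Countable 𝒥 := h𝒥.to_subtype
  have hm : Measurable (up Y A) := (usc_up hY hAb).measurable
  set ρ : Measure (ℝ × ℂ) := rU Y A f (ball 0 R) + rE Y A f 𝒥 with hρ
  have hρ1 : rU Y A f (ball 0 R) univ ≠ ∞ := by
    rw [← univ_prod_univ, rU_apply hm MeasurableSet.univ MeasurableSet.univ]
    simpa using hU
  have hρ2 : rE Y A f 𝒥 univ ≠ ∞ := by
    rw [← univ_prod_univ, rE_apply MeasurableSet.univ MeasurableSet.univ]
    simpa [osp, Real.volume_Icc] using hS
  have hfin : IsFiniteMeasure ρ := ⟨by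
    rw [hρ, Measure.add_apply]
    exact ENNReal.add_lt_top.2 ⟨hρ1.lt_top, hρ2.lt_top⟩⟩
  have hsl := slice_le (E := Y) (W₀ := ball 0 R) hYc isOpen_ball (lsc_lo hY hAb)
    (usc_up hY hAb) (lsc_lo hY hfb) (usc_up hY hfb) (ρ := ρ)
    (fun F hF hFs hFW T hT => area_slab hY hA hAb hf hfb hNI h𝒥 hJA hJf hF hFs hFW hT)
  have e : ∀ t : ℝ, Prod.mk t ⁻¹' (univ : Set (ℝ × ℂ)) = univ := fun t => by simp
  have hmeas : Measurable fun t => slc ρ t univ := by
    have h := measurable_slc ρ (S := (univ : Set (ℝ × ℂ))) MeasurableSet.univ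
    simpa only [e] using h
  have hint : (∫⁻ t, slc ρ t univ) ≠ ∞ := by
    have h := lintegral_slc_le ρ (S := (univ : Set (ℝ × ℂ))) MeasurableSet.univ
    simp only [e] at h
    exact (h.trans_lt (measure_lt_top ρ _)).ne
  refine ⟨slc ρ, hmeas, hint, ?_⟩
  filter_upwards [hsl] with t ht C hC hCc hCp hCs p hp q hq
  have hsC : Sat Y C := fun z hz _ => hCs z hz
  have h1 := ht C hCc hsC fun z hz => (hC hz).2
  -- the slice is an interval containing both values
  have h2 : uIcc (f p) (f q) ⊆ {s | (t, s) ∈ Nip_31.ZF (lo Y A) (up Y A) (lo Y f) (up Y f) C} := by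
    intro s hs
    by_contra hcon
    have hno : ∀ z ∈ C, ¬ (lo Y f z ≤ s ∧ s ≤ up Y f z) := fun z hz h =>
      hcon ⟨z, hz, (hC hz).1.1, (hC hz).1.2, h.1, h.2⟩
    have hcov : C ⊆ {z | up Y f z < s} ∪ {z | s < lo Y f z} := by
      intro z hz
      by_cases h : lo Y f z ≤ s
      · left
        by_contra h'
        exact hno z hz ⟨h, not_lt.1 h'⟩
      · right; exact not_le.1 h
    have hdis : ∀ z, ¬ (up Y f z < s ∧ s < lo Y f z) := fun z h => by
      have := lo_le_up hY hfb z
      linarith [h.1, h.2]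
    have key : ∀ x y : ℂ, x ∈ C \ Y → y ∈ C \ Y → f x < s → s < f y → False := by
      intro x y hx hy hxs hys
      obtain ⟨z, -, hz1, hz2⟩ := hCp _ _ (isOpen_up_lt hY hfb s) (isOpen_lt_lo hY hfb s) hcov
        ⟨x, hx.1, by simp only [mem_ofPred_eq]; rw [up_eq hY hf hfb hx.2]; exact hxs⟩
        ⟨y, hy.1, by simp only [mem_ofPred_eq]; rw [lo_eq hY hf hfb hy.2]; exact hys⟩
      exact hdis z ⟨hz1, hz2⟩
    have hps : f p ≠ s := fun h => hno p hp.1 (by
      rw [lo_eq hY hf hfb hp.2, up_eq hY hf hfb hp.2, h]; exact ⟨le_rfl, le_rfl⟩)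
    have hqs : f q ≠ s := fun h => hno q hq.1 (by
      rw [lo_eq hY hf hfb hq.2, up_eq hY hf hfb hq.2, h]; exact ⟨le_rfl, le_rfl⟩)
    rcases le_total (f p) (f q) with hle | hle
    · rw [uIcc_of_le hle] at hs
      exact key p q hp hq (lt_of_le_of_ne hs.1 hps) (lt_of_le_of_ne hs.2 hqs.symm)
    · rw [uIcc_of_ge hle] at hs
      exact key q p hq hp (lt_of_le_of_ne hs.1 hqs) (lt_of_le_of_ne hs.2 hps.symm)
  refine le_trans (le_of_eq ?_) ((measure_mono h2).trans h1)
  rw [Real.volume_interval, abs_sub_comm]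

end

section pic

variable {E : Set ℂ}

theorem lo_re_le (hE : IsExteriorDomain Eᶜ) {z x : ℂ} (_hz : z ∈ E)
    (hx : x ∈ connectedComponentIn E z) : lo E (fun w => w.re) z ≤ x.re := by
  by_contra hcon
  obtain ⟨c, hc1, hc2⟩ := exists_between (not_le.1 hcon)
  obtain ⟨O, hO, hOc⟩ := exists_gt_of_lt_lo hE Vb_818.lb_re hc2
  have hEc : IsCompact E := cpt_of hE
  have hKc : IsCompact (connectedComponentIn E z) := Ends_897.isCompact_cc hEc z
  obtain ⟨k, hk, hmin⟩ := hKc.exists_isMinOn ⟨x, hx⟩ Complex.continuous_re.continuousOn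
  have hkc : k.re < c := lt_of_le_of_lt (hmin hx) hc1
  have hkO : k ∈ O := hO.sub hk
  have hop : IsOpen (O ∩ {w : ℂ | w.re < c}) :=
    hO.op.inter (isOpen_lt Complex.continuous_re continuous_const)
  obtain ⟨r, hr, hball⟩ := Metric.isOpen_iff.1 hop k ⟨hkO, hkc⟩
  have hsub : ball k r ⊆ E := by
    intro w hw
    by_contra hwE
    have h1 := hball hw
    have h2 : c < w.re := hOc w h1.1 hwE
    exact lt_asymm h2 h1.2
  have hkE : k ∈ E := connectedComponentIn_subset _ _ hk
  have h3 : ball k r ⊆ connectedComponentIn E k :=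
    (convex_ball k r).isPreconnected.subset_connectedComponentIn (mem_ball_self hr) hsub
  rw [← connectedComponentIn_eq hk] at h3
  have h4 : k - ((r / 2 : ℝ) : ℂ) ∈ ball k r := by
    rw [mem_ball, dist_eq_norm]
    have : k - ((r / 2 : ℝ) : ℂ) - k = -((r / 2 : ℝ) : ℂ) := by ring
    rw [this, norm_neg, Complex.norm_real, Real.norm_eq_abs, abs_of_pos (by linarith)]
    linarith
  have h5 : k.re ≤ (k - ((r / 2 : ℝ) : ℂ)).re := hmin (h3 h4)
  simp only [Complex.sub_re, Complex.ofReal_re] at h5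
  linarith

theorem le_up_re (hE : IsExteriorDomain Eᶜ) {z x : ℂ} (_hz : z ∈ E)
    (hx : x ∈ connectedComponentIn E z) : x.re ≤ up E (fun w => w.re) z := by
  by_contra hcon
  obtain ⟨c, hc1, hc2⟩ := exists_between (not_le.1 hcon)
  obtain ⟨O, hO, hOc⟩ := exists_lt_of_up_lt hE Vb_818.lb_re hc1
  have hEc : IsCompact E := cpt_of hE
  have hKc : IsCompact (connectedComponentIn E z) := Ends_897.isCompact_cc hEc z
  obtain ⟨k, hk, hmax⟩ := hKc.exists_isMaxOn ⟨x, hx⟩ Complex.continuous_re.continuousOn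
  have hkc : c < k.re := lt_of_lt_of_le hc2 (hmax hx)
  have hkO : k ∈ O := hO.sub hk
  have hop : IsOpen (O ∩ {w : ℂ | c < w.re}) :=
    hO.op.inter (isOpen_lt continuous_const Complex.continuous_re)
  obtain ⟨r, hr, hball⟩ := Metric.isOpen_iff.1 hop k ⟨hkO, hkc⟩
  have hsub : ball k r ⊆ E := by
    intro w hw
    by_contra hwE
    have h1 := hball hw
    have h2 : w.re < c := hOc w h1.1 hwE
    exact lt_asymm h2 h1.2
  have h3 : ball k r ⊆ connectedComponentIn E k :=
    (convex_ball k r).isPreconnected.subset_connectedComponentIn (mem_ball_self hr) hsub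
  rw [← connectedComponentIn_eq hk] at h3
  have h4 : k + ((r / 2 : ℝ) : ℂ) ∈ ball k r := by
    rw [mem_ball, dist_eq_norm]
    have : k + ((r / 2 : ℝ) : ℂ) - k = ((r / 2 : ℝ) : ℂ) := by ring
    rw [this, Complex.norm_real, Real.norm_eq_abs, abs_of_pos (by linarith)]
    linarith
  have h5 : (k + ((r / 2 : ℝ) : ℂ)).re ≤ k.re := hmax (h3 h4)
  simp only [Complex.add_re, Complex.ofReal_re] at h5
  linarith

/-- closed vertical segment -/
def sg (t p q : ℝ) : Set ℂ := {z | z.re = t ∧ p ≤ z.im ∧ z.im ≤ q}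

theorem isClosed_sg (t p q : ℝ) : IsClosed (sg t p q) :=
  (isClosed_eq Complex.continuous_re continuous_const).inter
    ((isClosed_le continuous_const Complex.continuous_im).inter
      (isClosed_le Complex.continuous_im continuous_const))

theorem isPreconnected_sg (t p q : ℝ) : IsPreconnected (sg t p q) := by
  have h : sg t p q = (fun v : ℝ => (⟨t, v⟩ : ℂ)) '' Icc p q := by
    ext z
    constructor
    · rintro ⟨h1, h2, h3⟩
      exact ⟨z.im, ⟨h2, h3⟩, Complex.ext h1.symm rfl⟩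
    · rintro ⟨v, hv, rfl⟩
      exact ⟨rfl, hv.1, hv.2⟩
  rw [h]
  refine isPreconnected_Icc.image _ (Continuous.continuousOn ?_)
  have : (fun y : ℝ => (⟨t, y⟩ : ℂ)) = fun y : ℝ => (t : ℂ) + y * Complex.I := by
    ext y; apply Complex.ext <;> simp
  rw [this]; fun_prop

/-- saturation of the segment -/
def Cs (E : Set ℂ) (t p q : ℝ) : Set ℂ := Vb_818.St E (sg t p q)

theorem Cs_sat (t p q : ℝ) : ∀ z ∈ Cs E t p q, connectedComponentIn E z ⊆ Cs E t p q := by
  intro z hz w hw
  have e : connectedComponentIn E z = connectedComponentIn E w := connectedComponentIn_eq hw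
  rcases hz with h | ⟨x, hx, hxs⟩
  · by_cases hzE : z ∈ E
    · exact Or.inr ⟨z, by rw [← e]; exact mem_connectedComponentIn hzE, h⟩
    · rw [connectedComponentIn_eq_empty hzE] at hw; exact hw.elim
  · exact Or.inr ⟨x, by rw [← e]; exact hx, hxs⟩

theorem Cs_preconn {t p q : ℝ} (hpq : p ≤ q) : IsPreconnected (Cs E t p q) := by
  have h0 : (⟨t, p⟩ : ℂ) ∈ sg t p q := ⟨rfl, le_rfl, hpq⟩
  refine isPreconnected_of_forall (⟨t, p⟩ : ℂ) fun y hy => ?_
  rcases hy with h | ⟨x, hx, hxs⟩
  · exact ⟨sg t p q, fun z hz => Or.inl hz, h0, h, isPreconnected_sg t p q⟩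
  · have hyE : y ∈ E := by
      by_contra hyE
      rw [connectedComponentIn_eq_empty hyE] at hx; exact hx.elim
    refine ⟨sg t p q ∪ connectedComponentIn E y, ?_, Or.inl h0,
      Or.inr (mem_connectedComponentIn hyE), ?_⟩
    · refine union_subset (fun z hz => Or.inl hz) fun z hz => ?_
      exact Or.inr ⟨x, by rw [← connectedComponentIn_eq hz]; exact hx, hxs⟩
    · exact (isPreconnected_sg t p q).union x hxs hx isPreconnected_connectedComponentIn

theorem Cs_Lv (hE : IsExteriorDomain Eᶜ) (t p q : ℝ) :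
    Cs E t p q ⊆ Lv E (fun w => w.re) t := by
  intro z hz
  by_cases hzE : z ∈ E
  · obtain ⟨x, hx, hxs⟩ : ∃ x ∈ connectedComponentIn E z, x ∈ sg t p q := by
      rcases hz with h | ⟨x, hx, hxs⟩
      · exact ⟨z, mem_connectedComponentIn hzE, h⟩
      · exact ⟨x, hx, hxs⟩
    have h1 := lo_re_le hE hzE hx
    have h2 := le_up_re hE hzE hx
    rw [hxs.1] at h1 h2
    exact ⟨h1, h2⟩
  · have h : z.re = t := by
      rcases hz with h | ⟨x, hx, -⟩
      · exact h.1
      · rw [connectedComponentIn_eq_empty hzE] at hx; exact hx.elim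
    have hc : ContinuousAt (fun w : ℂ => w.re) z := Complex.continuous_re.continuousAt
    have h1 := lo_of_notMem hE Vb_818.lb_re hzE hc
    have h2 := up_of_notMem hE Vb_818.lb_re hzE hc
    exact ⟨by rw [h1]; exact h.le, by rw [h2]; exact h.ge⟩

/-- **picture plane: `NI E re w` implies `BVL E w`** -/
theorem bvl_ni (hE : IsExteriorDomain Eᶜ) (sec : Vb_818.Sec E) {w : ℂ → ℝ}
    (hw : LocallyLipschitzOn Eᶜ w) (hwb : LB w) (hNI : NI E (fun z => z.re) w) {𝒥 : Set (Cmp E)}
    (h𝒥 : 𝒥.Countable) (hJA : JJ E (fun z => z.re) ⊆ 𝒥) (hJf : JJ E w ⊆ 𝒥)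
    (hU : ∀ R : ℝ, ∫⁻ z in ball 0 R \ E, ENNReal.ofReal |wdg (fun z => z.re) w z| ≠ ∞)
    (hS : ∑' K : 𝒥, ENNReal.ofReal (osp E w (pt K.1)) *
      ENNReal.ofReal (osp E (fun z => z.re) (pt K.1)) ≠ ∞) : BVL E w := by
  classical
  have hEc : IsCompact E := cpt_of hE
  obtain ⟨RE, hRE⟩ := hEc.isBounded.exists_norm_le
  have hre : LocallyLipschitzOn Eᶜ (fun z : ℂ => z.re) := by
    have : LipschitzWith 1 (fun z : ℂ => z.re) := by
      refine LipschitzWith.of_dist_le_mul fun x y => ?_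
      rw [Real.dist_eq, NNReal.coe_one, one_mul, dist_eq_norm, ← Complex.sub_re]
      exact Complex.abs_re_le_norm _
    exact this.locallyLipschitz.locallyLipschitzOn
  refine BVL.mk' fun R => ?_
  obtain ⟨ν, hν1, hν2, hν3⟩ := ni_slice_int (R := |RE| + 2 * |R| + 1) hE hre Vb_818.lb_re hw hwb hNI
    h𝒥 hJA hJf (hU _) hS
  refine ⟨fun t => 2 * ν t univ, hν1.const_mul 2, ?_, ?_⟩
  · rw [lintegral_const_mul _ hν1]
    refine ENNReal.mul_ne_top ENNReal.ofNat_ne_top ?_
    exact ((setLIntegral_le_lintegral _ _).trans_lt hν2.lt_top).ne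
  filter_upwards [hν3] with t ht htR
  -- one step
  have step : ∀ p q : ℝ, p ∈ ln E R t → q ∈ ln E R t → p ≤ q →
      edist (w ⟨t, q⟩) (w ⟨t, p⟩) ≤ ν t (Cs E t p q) := by
    intro p q hp hq hpq
    have hcl : IsClosed (Cs E t p q) := Vb_818.isClosed_St hEc (isClosed_sg t p q)
    have hbd : ∀ z ∈ Cs E t p q, ‖z‖ ≤ |RE| + 2 * |R| := by
      intro z hz
      by_cases hzE : z ∈ E
      · have h1 := hRE z hzE
        have h2 := le_abs_self RE
        have h3 := abs_nonneg R
        linarith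
      · rcases hz with h | ⟨x, hx, -⟩
        · have h1 : ‖z‖ ≤ |z.re| + |z.im| := Complex.norm_le_abs_re_add_abs_im z
          have h2 : |z.re| ≤ R := by rw [h.1]; exact htR
          have h3 : |z.im| ≤ R := abs_le.2 ⟨(abs_le.1 hp.2).1.trans h.2.1,
            h.2.2.trans (abs_le.1 hq.2).2⟩
          have h4 := le_abs_self R
          have h5 := abs_nonneg RE
          linarith
        · rw [connectedComponentIn_eq_empty hzE] at hx; exact hx.elim
    have hcpt : IsCompact (Cs E t p q) :=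
      Metric.isCompact_of_isClosed_isBounded hcl
        ((isBounded_iff_forall_norm_le).2 ⟨_, hbd⟩)
    have h := ht (Cs E t p q) (fun z hz => ⟨Cs_Lv hE t p q hz, by
      rw [mem_ball_zero_iff]; linarith [hbd z hz]⟩) hcpt (Cs_preconn hpq) (Cs_sat t p q)
      ⟨t, q⟩ ⟨Or.inl ⟨rfl, hpq, le_rfl⟩, hq.1⟩ ⟨t, p⟩ ⟨Or.inl ⟨rfl, le_rfl, hpq⟩, hp.1⟩
    rw [edist_dist, Real.dist_eq]
    exact h
  refine iSup_le fun pr => ?_
  obtain ⟨n, u, hu, hus⟩ := pr
  simp only
  set s : Finset ℕ := (Finset.range n).filter fun i => u i < u (i + 1) with hs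
  set D : ℕ → Set ℂ := fun i => Cs E t (u i) (u (i + 1)) \ {(⟨t, u i⟩ : ℂ)} with hD
  have hDm : ∀ i, MeasurableSet (D i) := fun i =>
    (Vb_818.isClosed_St hEc (isClosed_sg _ _ _)).measurableSet.diff (measurableSet_singleton _)
  have hdis : ∀ i j, i < j → Disjoint (D i) (D j) := by
    intro i j hij
    rw [Set.disjoint_left]
    rintro z ⟨hzi, -⟩ ⟨hzj, hzj'⟩
    have hmono : u (i + 1) ≤ u j := hu hij
    by_cases hzE : z ∈ E
    · have key : ∀ {k : ℕ}, z ∈ Cs E t (u k) (u (k + 1)) →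
          ∃ x ∈ connectedComponentIn E z, x ∈ sg t (u k) (u (k + 1)) := by
        intro k h
        rcases h with h | ⟨x, hx, hxR⟩
        · exact ⟨z, mem_connectedComponentIn hzE, h⟩
        · exact ⟨x, hx, hxR⟩
      obtain ⟨x, hx, hx1, hx2, hx3⟩ := key hzi
      obtain ⟨y, hy, hy1, hy2, hy3⟩ := key hzj
      have h1 : u (i + 1) ∈ {v : ℝ | (⟨t, v⟩ : ℂ) ∈ connectedComponentIn E z} := by
        refine (sec z hzE t).out (x := x.im) (y := y.im) ?_ ?_ ⟨hx3, hmono.trans hy2⟩
        · change (⟨t, x.im⟩ : ℂ) ∈ connectedComponentIn E z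
          rw [← hx1]; exact hx
        · change (⟨t, y.im⟩ : ℂ) ∈ connectedComponentIn E z
          rw [← hy1]; exact hy
      exact (hus (i + 1)).1 (connectedComponentIn_subset _ _ h1)
    · have e : connectedComponentIn E z = ∅ := connectedComponentIn_eq_empty hzE
      have h1 : z ∈ sg t (u i) (u (i + 1)) := by
        rcases hzi with h | ⟨x, hx, -⟩
        · exact h
        · rw [e] at hx; exact hx.elim
      have h2 : z ∈ sg t (u j) (u (j + 1)) := by
        rcases hzj with h | ⟨x, hx, -⟩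
        · exact h
        · rw [e] at hx; exact hx.elim
      refine hzj' ?_
      rw [mem_singleton_iff]
      exact Complex.ext h1.1 (le_antisymm (h1.2.2.trans hmono) h2.2.1)
  calc ∑ i ∈ Finset.range n, edist (w ⟨t, u (i + 1)⟩) (w ⟨t, u i⟩)
      = ∑ i ∈ s, edist (w ⟨t, u (i + 1)⟩) (w ⟨t, u i⟩) := by
        rw [hs, Finset.sum_filter]
        refine Finset.sum_congr rfl fun i _ => ?_
        split_ifs with h
        · rfl
        · rw [le_antisymm (not_lt.1 h) (hu (Nat.le_succ i)), edist_self]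
    _ ≤ ∑ i ∈ s, (ν t (D i) + ν t {(⟨t, u i⟩ : ℂ)}) := by
        refine Finset.sum_le_sum fun i _ => ?_
        refine (step _ _ (hus i) (hus (i + 1)) (hu (Nat.le_succ i))).trans ?_
        refine (measure_mono ?_).trans (measure_union_le _ _)
        intro z hz
        by_cases h : z = ⟨t, u i⟩
        · exact Or.inr h
        · exact Or.inl ⟨hz, h⟩
    _ = ν t (⋃ i ∈ s, D i) + ν t (⋃ i ∈ s, {(⟨t, u i⟩ : ℂ)}) := by
        rw [Finset.sum_add_distrib, measure_biUnion_finset, measure_biUnion_finset]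
        · intro i hi j hj hij
          have hi' := (Finset.mem_filter.1 (Finset.mem_coe.1 hi)).2
          have hj' := (Finset.mem_filter.1 (Finset.mem_coe.1 hj)).2
          rw [Function.onFun, disjoint_singleton]
          intro h
          have h' : u i = u j := congrArg Complex.im h
          rcases lt_or_gt_of_ne hij with h1 | h1
          · have := hu (Nat.succ_le_of_lt h1)
            linarith
          · have := hu (Nat.succ_le_of_lt h1)
            linarith
        · exact fun i _ => measurableSet_singleton _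
        · intro i _ j _ hij
          rcases lt_or_gt_of_ne hij with h1 | h1
          · exact hdis i j h1
          · exact (hdis j i h1).symm
        · exact fun i _ => hDm i
    _ ≤ ν t univ + ν t univ := add_le_add (measure_mono (subset_univ _))
        (measure_mono (subset_univ _))
    _ = 2 * ν t univ := (two_mul _).symm

end pic

end Crest.Agent.R105.Bvl_31
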