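import Mathlib
import Crest.Agent.R193.Planar2

/-!
# R105 (S0138, T-frame), SECT (helper636), part 1: vertical sections of components are intervals

`E ⊆ ℂ` compact.  If no component of `Eᶜ ∩ {t < re}` and of `Eᶜ ∩ {re < t}` is bounded, then the
section over `t` of every component of `E` is order connected.
-/

namespace Crest.Agent.R105.Sct_636

open Set Topology

/-- the real coordinates -/
noncomputable def cr (z : ℂ) : ℝ × ℝ := (z.re, z.im)

theorem continuous_cr : Continuous cr := by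
  unfold cr
  fun_prop

/-- From a point `z` of an open set `W` in an unbounded component one can reach points outside of
every ball by a compact connected subset of `W`. -/
theorem exists_continuum {W : Set ℂ} (hW : IsOpen W) {z : ℂ} (hz : z ∈ W)
    (hub : ¬ Bornology.IsBounded (connectedComponentIn W z)) (R : ℝ) :
    ∃ (H : Set ℂ) (w : ℂ), IsCompact H ∧ IsPreconnected H ∧ H ⊆ W ∧ z ∈ H ∧ w ∈ H ∧ R < ‖w‖ := by
  have hex : ∃ w ∈ connectedComponentIn W z, R < ‖w‖ := by
    by_contra hcon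
    push Not at hcon
    exact hub ((Metric.isBounded_iff_subset_closedBall 0).2
      ⟨R, fun w hw => by simpa [Metric.mem_closedBall, dist_eq_norm] using hcon w hw⟩)
  obtain ⟨w, hw, hRw⟩ := hex
  have hop : IsOpen (connectedComponentIn W z) := hW.connectedComponentIn
  have hcon : IsConnected (connectedComponentIn W z) :=
    isConnected_connectedComponentIn_iff.2 hz
  have hpc : IsPathConnected (connectedComponentIn W z) := hop.isConnected_iff_isPathConnected.1 hcon
  have hj := hpc.joinedIn z (mem_connectedComponentIn hz) w hw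
  obtain ⟨γ, hγ⟩ := hj
  refine ⟨range γ, w, isCompact_range γ.continuous, isPreconnected_range γ.continuous, ?_, ?_, ?_, hRw⟩
  · rintro _ ⟨s, rfl⟩
    exact connectedComponentIn_subset _ _ (hγ s)
  · exact ⟨0, γ.source⟩
  · exact ⟨1, γ.target⟩

/-- The horizontal segment. -/
theorem isPreconnected_hseg (a b y : ℝ) : IsPreconnected ((fun s : ℝ => ((s, y) : ℝ × ℝ)) '' Icc a b) :=
  isPreconnected_Icc.image _ (by fun_prop)

theorem isPreconnected_vseg (x a b : ℝ) : IsPreconnected ((fun s : ℝ => ((x, s) : ℝ × ℝ)) '' Icc a b) :=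
  isPreconnected_Icc.image _ (by fun_prop)

theorem isCompact_hseg (a b y : ℝ) : IsCompact ((fun s : ℝ => ((s, y) : ℝ × ℝ)) '' Icc a b) :=
  isCompact_Icc.image (by fun_prop)

theorem isCompact_vseg (x a b : ℝ) : IsCompact ((fun s : ℝ => ((x, s) : ℝ × ℝ)) '' Icc a b) :=
  isCompact_Icc.image (by fun_prop)

/-- **(S1).** -/
theorem sec_ordConnected {E : Set ℂ} (hE : IsCompact E) {t : ℝ}
    (hR : ∀ z ∈ Eᶜ, t < z.re → ¬ Bornology.IsBounded (connectedComponentIn (Eᶜ ∩ {w | t < w.re}) z))
    (hL : ∀ z ∈ Eᶜ, z.re < t → ¬ Bornology.IsBounded (connectedComponentIn (Eᶜ ∩ {w | w.re < t}) z))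
    (p : ℂ) : {y : ℝ | (⟨t, y⟩ : ℂ) ∈ connectedComponentIn E p}.OrdConnected := by
  set L := connectedComponentIn E p with hLdef
  have hLE : L ⊆ E := connectedComponentIn_subset _ _
  rw [ordConnected_iff]
  intro y1 hy1 y3 hy3 h13 y2 hy2
  simp only [mem_ofPred_eq] at hy1 hy3 ⊢
  by_contra hy2L
  have hpE : p ∈ E := by
    by_contra h
    rw [hLdef, connectedComponentIn_eq_empty h] at hy1
    exact hy1
  have hLclosed : IsCompact L := by
    have h1 : IsClosed L := by
      apply isClosed_of_closure_subset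
      apply isPreconnected_connectedComponentIn.closure.subset_connectedComponentIn
      · exact subset_closure (mem_connectedComponentIn hpE)
      · exact closure_minimal (connectedComponentIn_subset _ _) hE.isClosed
    exact hE.of_isClosed_subset h1 hLE
  -- a point of `V` in between
  have hz0 : ∃ y0, y1 < y0 ∧ y0 < y3 ∧ (⟨t, y0⟩ : ℂ) ∉ E := by
    by_contra hcon
    push Not at hcon
    have hseg : ((fun s : ℝ => (⟨t, s⟩ : ℂ)) '' Icc y1 y3) ⊆ E := by
      rintro _ ⟨s, ⟨hs1, hs2⟩, rfl⟩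
      rcases eq_or_lt_of_le hs1 with h | h
      · rw [← h]; exact hLE hy1
      rcases eq_or_lt_of_le hs2 with h' | h'
      · rw [h']; exact hLE hy3
      · exact hcon s h h'
    have hpc : IsPreconnected ((fun s : ℝ => (⟨t, s⟩ : ℂ)) '' Icc y1 y3) := by
      apply isPreconnected_Icc.image
      have : (fun s : ℝ => (⟨t, s⟩ : ℂ)) = fun s : ℝ => (t : ℂ) + s * Complex.I := by
        funext s; apply Complex.ext <;> simp
      rw [this]; fun_prop
    have hsub := hpc.subset_connectedComponentIn (x := (⟨t, y1⟩ : ℂ)) ⟨y1, ⟨le_rfl, h13⟩, rfl⟩ hseg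
    have heq : connectedComponentIn E (⟨t, y1⟩ : ℂ) = L := (connectedComponentIn_eq hy1).symm
    rw [heq] at hsub
    exact hy2L (hsub ⟨y2, hy2, rfl⟩)
  obtain ⟨y0, h10, h03, hz0E⟩ := hz0
  -- a small disc around z0 in V
  have hVo : IsOpen Eᶜ := hE.isClosed.isOpen_compl
  obtain ⟨δ, hδ, hball⟩ := Metric.isOpen_iff.1 hVo _ hz0E
  set z0 : ℂ := ⟨t, y0⟩ with hz0def
  set e : ℝ := δ / 2 with he
  have he0 : 0 < e := by rw [he]; linarith
  have heδ : e < δ := by rw [he]; linarith
  -- bound of E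
  obtain ⟨R, hRE⟩ : ∃ R : ℝ, ∀ z ∈ E, ‖z‖ ≤ R := by
    obtain ⟨R, hR⟩ := (Metric.isBounded_iff_subset_closedBall 0).1 hE.isBounded
    exact ⟨R, fun z hz => by simpa [Metric.mem_closedBall, dist_eq_norm] using hR hz⟩
  set B : ℝ := |R| + |t| + 1 with hB
  have hBR : R < B := by have := le_abs_self R; have := abs_nonneg t; linarith
  have hBt : |t| < B := by have := abs_nonneg R; linarith
  have hball' : ∀ s : ℝ, |s - t| ≤ e → (⟨s, y0⟩ : ℂ) ∈ Eᶜ := by
    intro s hs
    apply hball
    rw [Metric.mem_ball, dist_eq_norm]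
    have : (⟨s, y0⟩ : ℂ) - z0 = ((s - t : ℝ) : ℂ) := by
      apply Complex.ext <;> simp [hz0def]
    rw [this, Complex.norm_real, Real.norm_eq_abs]
    linarith
  -- the right continuum
  have hzR : (⟨t + e, y0⟩ : ℂ) ∈ Eᶜ ∩ {w : ℂ | t < w.re} :=
    ⟨hball' _ (by rw [add_sub_cancel_left, abs_of_pos he0]), by simp [he0]⟩
  obtain ⟨HR, wR, hHRc, hHRp, hHRW, hzHR, hwHR, hwR⟩ :=
    exists_continuum (hVo.inter (isOpen_lt continuous_const Complex.continuous_re)) hzR
      (hR _ hzR.1 hzR.2) (2 * B)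
  have hzL : (⟨t - e, y0⟩ : ℂ) ∈ Eᶜ ∩ {w : ℂ | w.re < t} :=
    ⟨hball' _ (by rw [sub_sub_cancel_left, abs_neg, abs_of_pos he0]), by simp [he0]⟩
  obtain ⟨HL, wL, hHLc, hHLp, hHLW, hzHL, hwHL, hwL⟩ :=
    exists_continuum (hVo.inter (isOpen_lt Complex.continuous_re continuous_const)) hzL
      (hL _ hzL.1 hzL.2) (2 * B)
  -- bound of all
  obtain ⟨T0, hT0⟩ : ∃ T : ℝ, ∀ z ∈ HR ∪ HL, ‖z‖ ≤ T := by
    obtain ⟨R, hR⟩ := (Metric.isBounded_iff_subset_closedBall 0).1 (hHRc.union hHLc).isBounded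
    exact ⟨R, fun z hz => by simpa [Metric.mem_closedBall, dist_eq_norm] using hR hz⟩
  set T : ℝ := |T0| + |y0| + |y1| + |y3| + 1 with hT
  have hT0T : T0 < T := by
    have := le_abs_self T0; have := abs_nonneg y0; have := abs_nonneg y1; have := abs_nonneg y3
    linarith
  have hy0T : |y0| < T := by
    have := abs_nonneg T0; have := abs_nonneg y1; have := abs_nonneg y3
    linarith
  have hy1T : |y1| < T := by
    have := abs_nonneg T0; have := abs_nonneg y0; have := abs_nonneg y3
    linarith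
  have hy3T : |y3| < T := by
    have := abs_nonneg T0; have := abs_nonneg y0; have := abs_nonneg y1
    linarith
  -- the horizontal continuum
  set M : Set (ℝ × ℝ) := (fun s : ℝ => ((s, y0) : ℝ × ℝ)) '' Icc (t - e) (t + e) with hM
  set AR : Set (ℝ × ℝ) := (fun s : ℝ => ((s, wR.im) : ℝ × ℝ)) '' Icc wR.re (max wR.re B) with hAR
  set AL : Set (ℝ × ℝ) := (fun s : ℝ => ((s, wL.im) : ℝ × ℝ)) '' Icc (min wL.re (-B)) wL.re with hAL
  set H : Set (ℝ × ℝ) := ((M ∪ cr '' HR) ∪ cr '' HL) ∪ AR ∪ AL with hH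
  set Vv : Set (ℝ × ℝ) := (cr '' L ∪ (fun s : ℝ => ((t, s) : ℝ × ℝ)) '' Icc y3 T) ∪
    (fun s : ℝ => ((t, s) : ℝ × ℝ)) '' Icc (-T) y1 with hVv
  have hHcomp : IsCompact H :=
    ((((isCompact_hseg _ _ _).union (hHRc.image continuous_cr)).union
      (hHLc.image continuous_cr)).union (isCompact_hseg _ _ _)).union (isCompact_hseg _ _ _)
  have hVcomp : IsCompact Vv :=
    ((hLclosed.image continuous_cr).union (isCompact_vseg _ _ _)).union (isCompact_vseg _ _ _)
  have hHcon : IsPreconnected H := by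
    have h1 : IsPreconnected (M ∪ cr '' HR) :=
      IsPreconnected.union (t + e, y0) ⟨t + e, ⟨by linarith, le_rfl⟩, rfl⟩
        ⟨_, hzHR, rfl⟩ (isPreconnected_hseg _ _ _) (hHRp.image _ continuous_cr.continuousOn)
    have h2 : IsPreconnected ((M ∪ cr '' HR) ∪ cr '' HL) :=
      IsPreconnected.union (t - e, y0) (Or.inl ⟨t - e, ⟨le_rfl, by linarith⟩, rfl⟩)
        ⟨_, hzHL, rfl⟩ h1 (hHLp.image _ continuous_cr.continuousOn)
    have h3 : IsPreconnected (((M ∪ cr '' HR) ∪ cr '' HL) ∪ AR) :=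
      IsPreconnected.union (wR.re, wR.im) (Or.inl (Or.inr ⟨wR, hwHR, rfl⟩))
        ⟨wR.re, ⟨le_rfl, le_max_left _ _⟩, rfl⟩ h2 (isPreconnected_hseg _ _ _)
    exact IsPreconnected.union (wL.re, wL.im) (Or.inl (Or.inr ⟨wL, hwHL, rfl⟩))
        ⟨wL.re, ⟨min_le_left _ _, le_rfl⟩, rfl⟩ h3 (isPreconnected_hseg _ _ _)
  have hVcon : IsPreconnected Vv := by
    have h1 : IsPreconnected (cr '' L ∪ (fun s : ℝ => ((t, s) : ℝ × ℝ)) '' Icc y3 T) :=
      IsPreconnected.union (t, y3) ⟨_, hy3, rfl⟩
        ⟨y3, ⟨le_rfl, by have := le_abs_self y3; linarith⟩, rfl⟩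
        (isPreconnected_connectedComponentIn.image _ continuous_cr.continuousOn)
        (isPreconnected_vseg _ _ _)
    exact IsPreconnected.union (t, y1) (Or.inl ⟨_, hy1, rfl⟩)
        ⟨y1, ⟨by have := neg_abs_le y1; linarith, le_rfl⟩, rfl⟩ h1 (isPreconnected_vseg _ _ _)
  have habs_re : ∀ z : ℂ, |z.re| ≤ ‖z‖ := Complex.abs_re_le_norm
  have habs_im : ∀ z : ℂ, |z.im| ≤ ‖z‖ := Complex.abs_im_le_norm
  have hcross := R193.Planar.continua_cross (a := -B) (b := B) (c := -T) (d := T)
    hHcomp hVcomp hHcon hVcon ?_ ?_ ?_ ?_ ?_ ?_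
  · obtain ⟨q, hqH, hqV⟩ := hcross
    -- points of the horizontal continuum are off E and off the rays
    have hoff : ∀ q ∈ H, (⟨q.1, q.2⟩ : ℂ) ∉ L ∧ (q.1 = t → q.2 = y0) := by
      rintro q ((((hq | hq) | hq) | hq) | hq)
      · obtain ⟨s, hs, rfl⟩ := hq
        refine ⟨fun h => hball' s ?_ (hLE h), fun _ => rfl⟩
        rw [abs_le]; constructor <;> linarith [hs.1, hs.2]
      · obtain ⟨z, hz, rfl⟩ := hq
        refine ⟨fun h => (hHRW hz).1 (hLE h), fun h => ?_⟩
        exfalso
        have h2 : t < z.re := (hHRW hz).2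
        have h3 : z.re = t := h
        linarith
      · obtain ⟨z, hz, rfl⟩ := hq
        refine ⟨fun h => (hHLW hz).1 (hLE h), fun h => ?_⟩
        exfalso
        have h2 : z.re < t := (hHLW hz).2
        have h3 : z.re = t := h
        linarith
      · obtain ⟨s, hs, rfl⟩ := hq
        have h2 : t < wR.re := (hHRW hwHR).2
        refine ⟨fun h => ?_, fun h => ?_⟩
        · by_cases hb : B ≤ wR.re
          · rw [max_eq_left hb] at hs
            have : s = wR.re := le_antisymm hs.2 hs.1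
            rw [this] at h
            exact (hHRW hwHR).1 (hLE h)
          · push Not at hb
            have h3 := hRE _ (hLE h)
            have h4 : |wR.im| ≤ R := (habs_im (⟨s, wR.im⟩ : ℂ)).trans h3
            have h5 : ‖wR‖ ≤ |wR.re| + |wR.im| := Complex.norm_le_abs_re_add_abs_im wR
            have h6 : |wR.re| < B := by
              rw [abs_lt]; constructor
              · have := neg_abs_le t; linarith
              · exact hb
            linarith
        · exfalso
          have h3 : s = t := h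
          linarith [hs.1]
      · obtain ⟨s, hs, rfl⟩ := hq
        have h2 : wL.re < t := (hHLW hwHL).2
        refine ⟨fun h => ?_, fun h => ?_⟩
        · by_cases hb : wL.re ≤ -B
          · rw [min_eq_left hb] at hs
            have : s = wL.re := le_antisymm hs.2 hs.1
            rw [this] at h
            exact (hHLW hwHL).1 (hLE h)
          · push Not at hb
            have h3 := hRE _ (hLE h)
            have h4 : |wL.im| ≤ R := (habs_im (⟨s, wL.im⟩ : ℂ)).trans h3
            have h5 : ‖wL‖ ≤ |wL.re| + |wL.im| := Complex.norm_le_abs_re_add_abs_im wL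
            have h6 : |wL.re| < B := by
              rw [abs_lt]; constructor
              · exact hb
              · have := le_abs_self t; linarith
            linarith
        · exfalso
          have h3 : s = t := h
          linarith [hs.2]
    obtain ⟨h1, h2⟩ := hoff q hqH
    rcases hqV with (hq | hq) | hq
    · obtain ⟨z, hz, rfl⟩ := hq
      exact h1 hz
    · obtain ⟨s, hs, rfl⟩ := hq
      have : s = y0 := h2 rfl
      linarith [hs.1]
    · obtain ⟨s, hs, rfl⟩ := hq
      have : s = y0 := h2 rfl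
      linarith [hs.2]
  · -- H in the strip
    rintro q ((((hq | hq) | hq) | hq) | hq)
    · obtain ⟨s, hs, rfl⟩ := hq
      exact ⟨by have := neg_abs_le y0; simp only; linarith, by have := le_abs_self y0; simp only; linarith⟩
    · obtain ⟨z, hz, rfl⟩ := hq
      have h1 := hT0 z (Or.inl hz)
      have h2 := abs_le.1 ((habs_im z).trans h1)
      exact ⟨by simp only [cr]; linarith, by simp only [cr]; linarith⟩
    · obtain ⟨z, hz, rfl⟩ := hq
      have h1 := hT0 z (Or.inr hz)
      have h2 := abs_le.1 ((habs_im z).trans h1)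
      exact ⟨by simp only [cr]; linarith, by simp only [cr]; linarith⟩
    · obtain ⟨s, hs, rfl⟩ := hq
      have h1 := hT0 wR (Or.inl hwHR)
      have h2 := abs_le.1 ((habs_im wR).trans h1)
      exact ⟨by simp only; linarith, by simp only; linarith⟩
    · obtain ⟨s, hs, rfl⟩ := hq
      have h1 := hT0 wL (Or.inr hwHL)
      have h2 := abs_le.1 ((habs_im wL).trans h1)
      exact ⟨by simp only; linarith, by simp only; linarith⟩
  · -- V in the strip
    have hBt' := abs_lt.1 hBt
    rintro q ((hq | hq) | hq)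
    · obtain ⟨z, hz, rfl⟩ := hq
      have h1 := hRE z (hLE hz)
      have h2 := abs_le.1 ((habs_re z).trans h1)
      exact ⟨by simp only [cr]; linarith, by simp only [cr]; linarith⟩
    · obtain ⟨s, hs, rfl⟩ := hq
      exact ⟨hBt'.1.le, hBt'.2.le⟩
    · obtain ⟨s, hs, rfl⟩ := hq
      exact ⟨hBt'.1.le, hBt'.2.le⟩
  · exact ⟨(min wL.re (-B), wL.im), Or.inr ⟨_, ⟨le_rfl, min_le_left _ _⟩, rfl⟩, min_le_right _ _⟩
  · exact ⟨(max wR.re B, wR.im), Or.inl (Or.inr ⟨_, ⟨le_max_left _ _, le_rfl⟩, rfl⟩), le_max_right _ _⟩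
  · exact ⟨(t, -T), Or.inr ⟨-T, ⟨le_rfl, by have := neg_abs_le y1; linarith⟩, rfl⟩, le_rfl⟩
  · exact ⟨(t, T), Or.inl (Or.inr ⟨T, ⟨by have := le_abs_self y3; linarith, le_rfl⟩, rfl⟩), le_rfl⟩

end Crest.Agent.R105.Sct_636
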