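import Mathlib
import Crest.Agent.R105.Thin1_12

/-!
# R105 (S0138, T-frame), SECT (helper636), part 2: areas from the Euler-Lagrange identity

`E ⊆ ℂ` compact, `z i ∈ E` representatives of countably many different components ("solids") with
`re (K i) ⊆ [α i, β i]`, `s i = β i - α i`.  Hypothesis = E-L of the picture function `x = re` for
the test functions `G (re) * χ`, `χ` smooth with compact support and locally constant near `E`:
`∫_{Eᶜ} ∂x (G(re) χ) + ∑' s i χ(z i) (G(β i) - G(α i)) = 0`.
Conclusion: `∫_{K i} g(re) = s i ∫_{α i}^{β i} g`, the other components and the rest are null.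
-/

namespace Crest.Agent.R105.Sct_636

open Set Topology MeasureTheory Filter
open scoped ContDiff

/-- smooth, compactly supported, locally constant near `E` -/
structure LCE (E : Set ℂ) (χ : ℂ → ℝ) : Prop where
  smooth : ContDiff ℝ ∞ χ
  supp : HasCompactSupport χ
  lc : ∀ z ∈ E, ∀ᶠ w in 𝓝 z, χ w = χ z

/-- the E-L identity for the test functions `G(re) χ` -/
def ELId (E : Set ℂ) {ι : Type*} (z : ι → ℂ) (s α β : ι → ℝ) : Prop :=
  ∀ (G : ℝ → ℝ) (χ : ℂ → ℝ), ContDiff ℝ ∞ G → HasCompactSupport (deriv G) → LCE E χ →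
    (∫ w in Eᶜ, fderiv ℝ (fun w => G w.re * χ w) w 1)
      + (∑' i, s i * χ (z i) * (G (β i) - G (α i))) = 0

theorem integral_fderiv_eq_zero {u : ℂ → ℝ} (hu : ContDiff ℝ ∞ u) (hs : HasCompactSupport u) (v : ℂ) :
    ∫ w, fderiv ℝ u w v = 0 := by
  have hd : Continuous fun w => fderiv ℝ u w v :=
    (hu.continuous_fderiv (by simp)).clm_apply continuous_const
  have hds : HasCompactSupport fun w => fderiv ℝ u w v := hs.fderiv_apply (𝕜 := ℝ) v
  have h := integral_mul_fderiv_eq_neg_fderiv_mul_of_integrable (μ := (volume : Measure ℂ))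
    (f := u) (g := fun _ => (1 : ℝ)) (v := v)
    (by simpa using hd.integrable_of_hasCompactSupport hds)
    (by simp)
    (by simpa using hu.continuous.integrable_of_hasCompactSupport hs)
    (fun x _ => (hu.differentiable (by simp)).differentiableAt)
    (fun x _ => differentiableAt_const _)
  simp at h
  linarith

/-- cut-offs shrinking to a component -/
theorem exists_cutoff {E : Set ℂ} (hE : IsCompact E) {p : ℂ} (hp : p ∈ E) :
    ∃ χ : ℕ → ℂ → ℝ, (∀ n, LCE E (χ n)) ∧ (∀ n w, χ n w ∈ Icc (0 : ℝ) 1) ∧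
      (∀ n, ∀ w ∈ connectedComponentIn E p, χ n w = 1) ∧
      ∀ w ∈ E, w ∉ connectedComponentIn E p → ∀ᶠ n in atTop, χ n w = 0 := by
  set K := connectedComponentIn E p with hK
  have hKc : IsCompact K := Thin_12.isCompact_cc hE p
  have hstep : ∀ n : ℕ, ∃ χ : ℂ → ℝ, LCE E χ ∧ (∀ w, χ w ∈ Icc (0 : ℝ) 1) ∧
      (∀ w ∈ K, χ w = 1) ∧ ∀ w ∈ E, w ∉ Metric.thickening (1 / ((n : ℝ) + 1)) K → χ w = 0 := by
    intro n
    have hpos : (0 : ℝ) < 1 / ((n : ℝ) + 1) := by positivity
    obtain ⟨S, hSc, hTc, hSE, hKS, hSW⟩ := Thin_12.exists_clopen hE hp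
      (W := Metric.thickening (1 / ((n : ℝ) + 1)) K) Metric.isOpen_thickening
      (Metric.self_subset_thickening hpos K)
    obtain ⟨δ, hδ, hdis⟩ := (disjoint_sdiff_right : Disjoint S (E \ S)).exists_cthickenings hSc
      hTc.isClosed
    obtain ⟨f, hf1, hf0, hf01⟩ := exists_contMDiffMap_one_nhds_of_subset_interior
      (I := modelWithCornersSelf ℝ ℂ) (n := ⊤) (M := ℂ) (s := S) (t := Metric.cthickening δ S)
      hSc.isClosed ((Metric.self_subset_thickening hδ S).trans
        (interior_maximal (Metric.thickening_subset_cthickening _ _) Metric.isOpen_thickening))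
    refine ⟨f, ⟨f.contMDiff.contDiff, ?_, ?_⟩, hf01, ?_, ?_⟩
    · exact HasCompactSupport.intro (hSc.cthickening (r := δ)) hf0
    · intro w hw
      by_cases hwS : w ∈ S
      · have h1 : ∀ᶠ x in 𝓝 w, f x = 1 := eventually_nhdsSet_iff_forall.1 hf1 w hwS
        have h2 := h1.self_of_nhds
        filter_upwards [h1] with x hx
        rw [hx, h2]
      · have h3 : Metric.thickening δ (E \ S) ∈ 𝓝 w :=
          Metric.isOpen_thickening.mem_nhds (Metric.self_subset_thickening hδ _ ⟨hw, hwS⟩)
        have h4 : ∀ x ∈ Metric.thickening δ (E \ S), f x = 0 := fun x hx => hf0 x fun hx' =>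
          disjoint_left.1 hdis hx' (Metric.thickening_subset_cthickening _ _ hx)
        have h5 := h4 w (mem_of_mem_nhds h3)
        filter_upwards [h3] with x hx
        rw [h4 x hx, h5]
    · intro w hw
      exact (eventually_nhdsSet_iff_forall.1 hf1 w (hKS hw)).self_of_nhds
    · intro w hw hwt
      have hwS : w ∉ S := fun h => hwt (hSW h)
      have h3 : w ∈ Metric.thickening δ (E \ S) := Metric.self_subset_thickening hδ _ ⟨hw, hwS⟩
      exact hf0 w fun hx' => disjoint_left.1 hdis hx' (Metric.thickening_subset_cthickening _ _ h3)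
  choose χ h1 h2 h3 h4 using hstep
  refine ⟨χ, h1, h2, h3, ?_⟩
  intro w hwE hwK
  have hKcl : IsClosed K := hKc.isClosed
  have hKne : K.Nonempty := ⟨p, mem_connectedComponentIn hp⟩
  have hpos : 0 < Metric.infDist w K := (hKcl.notMem_iff_infDist_pos hKne).1 hwK
  have htend : Tendsto (fun n : ℕ => 1 / ((n : ℝ) + 1)) atTop (𝓝 0) :=
    tendsto_one_div_add_atTop_nhds_zero_nat
  filter_upwards [htend.eventually_lt_const hpos] with n hn
  apply h4 n w hwE
  intro hmem
  rw [Metric.mem_thickening_iff_infDist_lt hKne] at hmem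
  linarith

section

variable {E : Set ℂ} {ι : Type*} {z : ι → ℂ} {s α β : ι → ℝ}

/-- the primitive of a smooth compactly supported function -/
theorem prim_smooth {g : ℝ → ℝ} (hg : ContDiff ℝ ∞ g) :
    ContDiff ℝ ∞ (fun x => ∫ t in (0 : ℝ)..x, g t) ∧
      deriv (fun x => ∫ t in (0 : ℝ)..x, g t) = g := by
  have hd : ∀ x, HasDerivAt (fun x => ∫ t in (0 : ℝ)..x, g t) (g x) x := fun x =>
    intervalIntegral.integral_hasDerivAt_right (hg.continuous.intervalIntegrable _ _)
      (hg.continuous.stronglyMeasurableAtFilter _ _) hg.continuous.continuousAt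
  have hderiv : deriv (fun x => ∫ t in (0 : ℝ)..x, g t) = g := funext fun x => (hd x).deriv
  refine ⟨?_, hderiv⟩
  rw [contDiff_infty_iff_deriv]
  exact ⟨fun x => (hd x).differentiableAt, by rw [hderiv]; exact hg⟩

/-- (A) -/
theorem integral_E (hE : IsCompact E) (hEL : ELId E z s α β) {g : ℝ → ℝ} (hg : ContDiff ℝ ∞ g)
    (hgs : HasCompactSupport g) {χ : ℂ → ℝ} (hχ : LCE E χ) :
    ∫ w in E, g w.re * χ w = ∑' i, s i * χ (z i) * ∫ t in (α i)..(β i), g t := by
  set G : ℝ → ℝ := fun x => ∫ t in (0 : ℝ)..x, g t with hG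
  obtain ⟨hG1, hG2⟩ := prim_smooth hg
  have hEL' := hEL G χ hG1 (by rw [hG2]; exact hgs) hχ
  have hGd : ∀ i, G (β i) - G (α i) = ∫ t in (α i)..(β i), g t := by
    intro i
    simp only [hG]
    rw [intervalIntegral.integral_interval_sub_left (hg.continuous.intervalIntegrable _ _)
      (hg.continuous.intervalIntegrable _ _)]
  set u : ℂ → ℝ := fun w => G w.re * χ w with hu
  have hre : ContDiff ℝ ∞ (fun w : ℂ => w.re) := Complex.reCLM.contDiff
  have hu1 : ContDiff ℝ ∞ u := (hG1.comp hre).mul hχ.smooth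
  have hus : HasCompactSupport u := hχ.supp.mul_left
  have h0 := integral_fderiv_eq_zero hu1 hus 1
  have hint : Integrable (fun w => fderiv ℝ u w 1) :=
    ((hu1.continuous_fderiv (by simp)).clm_apply continuous_const).integrable_of_hasCompactSupport
      (hus.fderiv_apply (𝕜 := ℝ) 1)
  rw [← integral_add_compl hE.measurableSet hint] at h0
  have hon : ∫ w in E, fderiv ℝ u w 1 = ∫ w in E, g w.re * χ w := by
    apply setIntegral_congr_fun hE.measurableSet
    intro w hw
    have hχ' : HasFDerivAt χ (0 : ℂ →L[ℝ] ℝ) w := by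
      have hev : χ =ᶠ[𝓝 w] fun _ => χ w := hχ.lc w hw
      exact (hasFDerivAt_const (χ w) w).congr_of_eventuallyEq hev
    have hGd' : HasDerivAt G (g w.re) w.re := by
      have := (hG1.differentiable (by simp)).differentiableAt (x := w.re)
      have h2 := this.hasDerivAt
      rw [hG2] at h2
      exact h2
    have hGf : HasFDerivAt (fun w : ℂ => G w.re) (g w.re • Complex.reCLM) w :=
      hGd'.comp_hasFDerivAt w Complex.reCLM.hasFDerivAt
    have hmul := hGf.mul hχ'
    have hfd : fderiv ℝ u w = G w.re • (0 : ℂ →L[ℝ] ℝ) + χ w • g w.re • Complex.reCLM := hmul.fderiv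
    simp only
    rw [hfd]
    simp [mul_comm]
  rw [hon] at h0
  have h5 : ∫ w in E, g w.re * χ w = - ∫ w in Eᶜ, fderiv ℝ u w 1 := eq_neg_of_add_eq_zero_left h0
  have : ∑' i, s i * χ (z i) * ∫ t in (α i)..(β i), g t
      = ∑' i, s i * χ (z i) * (G (β i) - G (α i)) := by
    congr 1; funext i; rw [hGd]
  rw [this, h5]
  linarith

open Classical in
/-- (B) -/
theorem integral_component (hE : IsCompact E) (hzE : ∀ i, z i ∈ E) (hEL : ELId E z s α β)
    (hs : ∀ i, s i = β i - α i) (hs0 : ∀ i, 0 ≤ s i) (hsum : Summable fun i => s i ^ 2)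
    {g : ℝ → ℝ} (hg : ContDiff ℝ ∞ g) (hgs : HasCompactSupport g) {p : ℂ} (hp : p ∈ E) :
    ∫ w in connectedComponentIn E p, g w.re =
      ∑' i, s i * (if z i ∈ connectedComponentIn E p then 1 else 0) * ∫ t in (α i)..(β i), g t := by
  obtain ⟨χ, hχ1, hχ2, hχ3, hχ4⟩ := exists_cutoff hE hp
  set K := connectedComponentIn E p with hK
  have hKE : K ⊆ E := connectedComponentIn_subset _ _
  obtain ⟨C, hC⟩ := hgs.exists_bound_of_continuous hg.continuous
  have hC0 : 0 ≤ C := (norm_nonneg _).trans (hC 0)
  have hgre : Continuous fun w : ℂ => g w.re := hg.continuous.comp Complex.continuous_re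
  -- left side
  have hl : Tendsto (fun n => ∫ w in E, g w.re * χ n w) atTop (𝓝 (∫ w in E, g w.re * (K.indicator 1 w))) := by
    apply tendsto_integral_of_dominated_convergence (fun _ => C)
    · intro n
      exact (hgre.mul (hχ1 n).smooth.continuous).aestronglyMeasurable
    · exact integrable_const_iff.2 (Or.inr (by
        rw [isFiniteMeasure_restrict]; exact hE.measure_lt_top.ne))
    · intro n
      refine Eventually.of_forall fun w => ?_
      rw [norm_mul]
      calc ‖g w.re‖ * ‖χ n w‖ ≤ C * 1 := by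
            apply mul_le_mul (hC _) _ (norm_nonneg _) hC0
            rw [Real.norm_eq_abs, abs_of_nonneg (hχ2 n w).1]; exact (hχ2 n w).2
        _ = C := mul_one _
    · refine (ae_restrict_iff' hE.measurableSet).2 (Eventually.of_forall fun w hw => ?_)
      apply Tendsto.const_mul
      by_cases hwK : w ∈ K
      · simp only [indicator_of_mem hwK, Pi.one_apply]
        exact tendsto_const_nhds.congr fun n => (hχ3 n w hwK).symm
      · simp only [indicator_of_notMem hwK]
        exact tendsto_const_nhds.congr' ((hχ4 w hw hwK).mono fun n hn => hn.symm)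
  have hl' : ∫ w in E, g w.re * (K.indicator 1 w) = ∫ w in K, g w.re := by
    have : (fun w => g w.re * (K.indicator (1 : ℂ → ℝ) w)) = K.indicator (fun w => g w.re) := by
      funext w
      by_cases hwK : w ∈ K <;> simp [hwK]
    rw [this, setIntegral_indicator (Thin_12.isCompact_cc hE p).measurableSet,
      inter_eq_self_of_subset_right hKE]
  -- right side
  have hr : Tendsto (fun n => ∑' i, s i * χ n (z i) * ∫ t in (α i)..(β i), g t) atTop
      (𝓝 (∑' i, s i * (if z i ∈ K then 1 else 0) * ∫ t in (α i)..(β i), g t)) := by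
    apply tendsto_tsum_of_dominated_convergence (bound := fun i => C * s i ^ 2)
      (hsum.mul_left C)
    · intro i
      apply Tendsto.mul_const
      apply Tendsto.const_mul
      by_cases hwK : z i ∈ K
      · simp only [hwK, if_true]
        exact tendsto_const_nhds.congr fun n => (hχ3 n _ hwK).symm
      · simp only [hwK, if_false]
        exact tendsto_const_nhds.congr' ((hχ4 _ (hzE i) hwK).mono fun n hn => hn.symm)
    · refine Eventually.of_forall fun n i => ?_
      have h1 : ‖∫ t in (α i)..(β i), g t‖ ≤ C * s i := by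
        have := intervalIntegral.norm_integral_le_of_norm_le_const (a := α i) (b := β i)
          (f := g) (C := C) (fun x _ => hC x)
        rw [← hs i, abs_of_nonneg (hs0 i)] at this
        exact this
      have h2 : ‖χ n (z i)‖ ≤ 1 := by
        rw [Real.norm_eq_abs, abs_of_nonneg (hχ2 n _).1]; exact (hχ2 n _).2
      rw [norm_mul, norm_mul, Real.norm_eq_abs (s i), abs_of_nonneg (hs0 i)]
      calc s i * ‖χ n (z i)‖ * ‖∫ t in (α i)..(β i), g t‖ ≤ s i * 1 * (C * s i) := by
            apply mul_le_mul _ h1 (norm_nonneg _) (by nlinarith [hs0 i])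
            exact mul_le_mul_of_nonneg_left h2 (hs0 i)
        _ = C * s i ^ 2 := by ring
  have heq : ∀ n, ∫ w in E, g w.re * χ n w = ∑' i, s i * χ n (z i) * ∫ t in (α i)..(β i), g t :=
    fun n => integral_E hE hEL hg hgs (hχ1 n)
  rw [← hl']
  refine tendsto_nhds_unique hl ?_
  simp_rw [heq]
  exact hr

end

end Crest.Agent.R105.Sct_636
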