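import Mathlib
import Crest.Agent.R105.Sct1_636
import Crest.Agent.R105.Sct2_636

/-!
# R105 (S0138, T-frame), SECT (helper636), part 3: section lengths, areas, sections are
`Icc (b t) (b t + s)`
-/

namespace Crest.Agent.R105.Sct_636

open Set Topology MeasureTheory Filter
open scoped ContDiff

/-- vertical section -/
def sec (K : Set ℂ) (t : ℝ) : Set ℝ := {y : ℝ | (⟨t, y⟩ : ℂ) ∈ K}

/-- the set in real coordinates -/
def rp (K : Set ℂ) : Set (ℝ × ℝ) := Complex.measurableEquivRealProd.symm ⁻¹' K

theorem mem_rp {K : Set ℂ} {t y : ℝ} : (t, y) ∈ rp K ↔ (⟨t, y⟩ : ℂ) ∈ K := Iff.rfl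

theorem continuous_mk (t : ℝ) : Continuous fun y : ℝ => (⟨t, y⟩ : ℂ) := by
  have : (fun y : ℝ => (⟨t, y⟩ : ℂ)) = fun y : ℝ => (t : ℂ) + y * Complex.I := by
    funext s; apply Complex.ext <;> simp
  rw [this]; fun_prop

theorem isCompact_sec {K : Set ℂ} (hK : IsCompact K) (t : ℝ) : IsCompact (sec K t) := by
  have hcl : IsClosed (sec K t) := hK.isClosed.preimage (continuous_mk t)
  obtain ⟨R, hR⟩ := (Metric.isBounded_iff_subset_closedBall 0).1 hK.isBounded
  refine (isCompact_Icc (a := -R) (b := R)).of_isClosed_subset hcl fun y hy => ?_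
  have h1 : ‖(⟨t, y⟩ : ℂ)‖ ≤ R := by
    simpa [Metric.mem_closedBall, dist_eq_norm] using hR hy
  have h2 : |y| ≤ R := (Complex.abs_im_le_norm (⟨t, y⟩ : ℂ)).trans h1
  exact abs_le.1 h2

theorem measurableSet_rp {K : Set ℂ} (hK : MeasurableSet K) : MeasurableSet (rp K) :=
  Complex.measurableEquivRealProd.symm.measurable hK

theorem volume_rp {K : Set ℂ} (hK : MeasurableSet K) : volume (rp K) = volume K := by
  have := Complex.volume_preserving_equiv_real_prod.symm.measure_preimage hK.nullMeasurableSet
  exact this

theorem volume_eq_lintegral_sec {K : Set ℂ} (hK : MeasurableSet K) :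
    volume K = ∫⁻ t, volume (sec K t) := by
  rw [← volume_rp hK, Measure.volume_eq_prod, Measure.prod_apply (measurableSet_rp hK)]
  rfl

theorem measurable_volume_sec {K : Set ℂ} (hK : MeasurableSet K) :
    Measurable fun t => volume (sec K t) :=
  measurable_measure_prodMk_left (measurableSet_rp hK)

theorem integral_re_eq {K : Set ℂ} (hK : IsCompact K) {g : ℝ → ℝ} (hg : Continuous g) :
    ∫ w in K, g w.re = ∫ t, g t * (volume (sec K t)).toReal := by
  have h1 : ∫ w in K, g w.re = ∫ q in rp K, g q.1 := by
    have := (Complex.volume_preserving_equiv_real_prod.symm).setIntegral_preimage_emb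
      Complex.measurableEquivRealProd.symm.measurableEmbedding (fun w : ℂ => g w.re) K
    rw [← this]
    rfl
  have hm := measurableSet_rp hK.measurableSet
  have hfin : volume (rp K) < ⊤ := by rw [volume_rp hK.measurableSet]; exact hK.measure_lt_top
  obtain ⟨R, hR⟩ := (Metric.isBounded_iff_subset_closedBall 0).1 hK.isBounded
  obtain ⟨C, hC⟩ := (isCompact_Icc (a := -R) (b := R)).exists_bound_of_continuousOn hg.continuousOn
  have hint : Integrable ((rp K).indicator fun q => g q.1) (volume.prod volume) := by
    rw [← Measure.volume_eq_prod, integrable_indicator_iff hm]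
    apply Measure.integrableOn_of_bounded (M := C) hfin.ne
    · exact (hg.comp continuous_fst).aestronglyMeasurable
    · refine (ae_restrict_iff' hm).2 (Eventually.of_forall fun q hq => ?_)
      apply hC
      have h1 : ‖(⟨q.1, q.2⟩ : ℂ)‖ ≤ R := by
        simpa [Metric.mem_closedBall, dist_eq_norm] using hR (show (⟨q.1, q.2⟩ : ℂ) ∈ K from hq)
      have h2 : |q.1| ≤ R := (Complex.abs_re_le_norm (⟨q.1, q.2⟩ : ℂ)).trans h1
      exact abs_le.1 h2
  rw [h1, ← integral_indicator hm, Measure.volume_eq_prod, integral_prod _ hint]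
  congr 1
  funext t
  have : (fun y => (rp K).indicator (fun q : ℝ × ℝ => g q.1) (t, y)) =
      (sec K t).indicator fun _ => g t := by
    funext y
    by_cases h : (⟨t, y⟩ : ℂ) ∈ K
    · rw [indicator_of_mem (show (t, y) ∈ rp K from h), indicator_of_mem (show y ∈ sec K t from h)]
    · rw [indicator_of_notMem (show (t, y) ∉ rp K from h),
        indicator_of_notMem (show y ∉ sec K t from h)]
  rw [this, integral_indicator_const _ (isCompact_sec hK t).measurableSet]
  simp [Measure.real, mul_comm]

theorem integrable_volume_sec {K : Set ℂ} (hK : IsCompact K) :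
    Integrable fun t => (volume (sec K t)).toReal := by
  refine integrable_toReal_of_lintegral_ne_top (measurable_volume_sec hK.measurableSet).aemeasurable ?_
  rw [← volume_eq_lintegral_sec hK.measurableSet]
  exact hK.measure_lt_top.ne

section

variable {E : Set ℂ} {ι : Type*} {z : ι → ℂ} {s α β : ι → ℝ}

/-- **lengths of the sections of a solid** -/
theorem volume_sec (hE : IsCompact E) (hzE : ∀ i, z i ∈ E)
    (hdist : ∀ i j, z j ∈ connectedComponentIn E (z i) → j = i) (hEL : ELId E z s α β)
    (hs : ∀ i, s i = β i - α i) (hs0 : ∀ i, 0 ≤ s i) (hsum : Summable fun i => s i ^ 2) (i : ι) :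
    ∀ᵐ t : ℝ, volume (sec (connectedComponentIn E (z i)) t) =
      (Icc (α i) (β i)).indicator (fun _ => ENNReal.ofReal (s i)) t := by
  classical
  set K := connectedComponentIn E (z i) with hK
  have hKc : IsCompact K := Thin_12.isCompact_cc hE _
  have hfin : ∀ t, volume (sec K t) ≠ ⊤ := fun t => (isCompact_sec hKc t).measure_lt_top.ne
  have h1 : ∀ᵐ t : ℝ, (volume (sec K t)).toReal = (Icc (α i) (β i)).indicator (fun _ => s i) t := by
    apply ae_eq_of_integral_contDiff_smul_eq
    · exact (integrable_volume_sec hKc).locallyIntegrable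
    · exact (integrable_indicator_iff measurableSet_Icc |>.2
        (integrableOn_const (by simp))).locallyIntegrable
    · intro g hg hgs
      have h2 := integral_component hE hzE hEL hs hs0 hsum hg hgs (hzE i)
      rw [integral_re_eq hKc hg.continuous, tsum_eq_single i] at h2
      · simp only [smul_eq_mul]
        rw [h2, if_pos (mem_connectedComponentIn (hzE i)), mul_one,
          intervalIntegral.integral_of_le (by linarith [hs0 i, hs i]), ← integral_Icc_eq_integral_Ioc,
          ← integral_const_mul, ← integral_indicator measurableSet_Icc]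
        congr 1
        funext t
        by_cases ht : t ∈ Icc (α i) (β i)
        · rw [indicator_of_mem ht, indicator_of_mem ht, mul_comm]
        · rw [indicator_of_notMem ht, indicator_of_notMem ht, mul_zero]
      · intro j hj
        have : z j ∉ K := fun h => hj (hdist i j h)
        rw [if_neg this]
        simp
  filter_upwards [h1] with t ht
  rw [← ENNReal.ofReal_toReal (hfin t), ht]
  by_cases h : t ∈ Icc (α i) (β i)
  · rw [indicator_of_mem h, indicator_of_mem h]
  · rw [indicator_of_notMem h, indicator_of_notMem h, ENNReal.ofReal_zero]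

/-- **area of a solid** -/
theorem volume_solid (hE : IsCompact E) (hzE : ∀ i, z i ∈ E)
    (hdist : ∀ i j, z j ∈ connectedComponentIn E (z i) → j = i) (hEL : ELId E z s α β)
    (hs : ∀ i, s i = β i - α i) (hs0 : ∀ i, 0 ≤ s i) (hsum : Summable fun i => s i ^ 2) (i : ι) :
    volume (connectedComponentIn E (z i)) = ENNReal.ofReal (s i ^ 2) := by
  have hKc : IsCompact (connectedComponentIn E (z i)) := Thin_12.isCompact_cc hE _
  rw [volume_eq_lintegral_sec hKc.measurableSet,
    lintegral_congr_ae (volume_sec hE hzE hdist hEL hs hs0 hsum i),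
    lintegral_indicator measurableSet_Icc, lintegral_const, Measure.restrict_apply_univ,
    Real.volume_Icc, ← hs, ← ENNReal.ofReal_mul (hs0 i), sq]

/-- **the other components are null** -/
theorem volume_other (hE : IsCompact E) (hzE : ∀ i, z i ∈ E) (hEL : ELId E z s α β)
    (hs : ∀ i, s i = β i - α i) (hs0 : ∀ i, 0 ≤ s i) (hsum : Summable fun i => s i ^ 2)
    {p : ℂ} (hp : ∀ i, z i ∉ connectedComponentIn E p) :
    volume (connectedComponentIn E p) = 0 := by
  classical
  by_cases hpE : p ∈ E
  swap
  · rw [connectedComponentIn_eq_empty hpE, measure_empty]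
  set K := connectedComponentIn E p with hK
  have hKc : IsCompact K := Thin_12.isCompact_cc hE _
  have hfin : ∀ t, volume (sec K t) ≠ ⊤ := fun t => (isCompact_sec hKc t).measure_lt_top.ne
  have h1 : ∀ᵐ t : ℝ, (volume (sec K t)).toReal = 0 := by
    apply ae_eq_zero_of_integral_contDiff_smul_eq_zero (integrable_volume_sec hKc).locallyIntegrable
    intro g hg hgs
    have h2 := integral_component hE hzE hEL hs hs0 hsum hg hgs hpE
    rw [integral_re_eq hKc hg.continuous] at h2
    simp only [smul_eq_mul]
    rw [h2]
    have hp' : ∀ i, z i ∉ connectedComponentIn E p := hp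
    simp [hp']
  rw [volume_eq_lintegral_sec hKc.measurableSet]
  rw [lintegral_congr_ae (g := fun _ => 0)]
  · simp
  · filter_upwards [h1] with t ht
    rcases (ENNReal.toReal_eq_zero_iff _).1 ht with h | h
    · exact h
    · exact absurd h (hfin t)

/-- **total area** -/
theorem volume_rest [Countable ι] (hE : IsCompact E) (hzE : ∀ i, z i ∈ E)
    (hdist : ∀ i j, z j ∈ connectedComponentIn E (z i) → j = i) (hEL : ELId E z s α β)
    (hs : ∀ i, s i = β i - α i) (hs0 : ∀ i, 0 ≤ s i) (hsum : Summable fun i => s i ^ 2) :
    volume (E \ ⋃ i, connectedComponentIn E (z i)) = 0 := by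
  have hKc : ∀ i, IsCompact (connectedComponentIn E (z i)) := fun i => Thin_12.isCompact_cc hE _
  have hdisj : Pairwise (Function.onFun Disjoint fun i => connectedComponentIn E (z i)) := by
    intro i j hij
    rw [Function.onFun, disjoint_left]
    intro w hw hw'
    apply hij
    have h1 := connectedComponentIn_eq hw
    have h2 := connectedComponentIn_eq hw'
    exact (hdist i j (by rw [h1, ← h2]; exact mem_connectedComponentIn (hzE j))).symm
  have hU : volume (⋃ i, connectedComponentIn E (z i)) = ENNReal.ofReal (∑' i, s i ^ 2) := by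
    rw [measure_iUnion hdisj fun i => (hKc i).measurableSet,
      ENNReal.ofReal_tsum_of_nonneg (fun i => sq_nonneg _) hsum]
    congr 1
    funext i
    exact volume_solid hE hzE hdist hEL hs hs0 hsum i
  -- upper bound for `volume E`
  have hEv : volume E ≤ ENNReal.ofReal (∑' i, s i ^ 2) := by
    -- a cut-off `= 1` near `E`
    obtain ⟨f, hf1, hf0, hf01⟩ := exists_contMDiffMap_one_nhds_of_subset_interior
      (I := modelWithCornersSelf ℝ ℂ) (n := ⊤) (M := ℂ) (s := E) (t := Metric.cthickening 1 E)
      hE.isClosed ((Metric.self_subset_thickening one_pos E).trans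
        (interior_maximal (Metric.thickening_subset_cthickening _ _) Metric.isOpen_thickening))
    have hχ : LCE E f := by
      refine ⟨f.contMDiff.contDiff, HasCompactSupport.intro (hE.cthickening (r := 1)) hf0, ?_⟩
      intro w hw
      have h1 : ∀ᶠ x in 𝓝 w, f x = 1 := eventually_nhdsSet_iff_forall.1 hf1 w hw
      have h2 := h1.self_of_nhds
      filter_upwards [h1] with x hx
      rw [hx, h2]
    have hfE : ∀ w ∈ E, f w = 1 := fun w hw =>
      (eventually_nhdsSet_iff_forall.1 hf1 w hw).self_of_nhds
    have hreE : IsCompact (Complex.re '' E) := hE.image Complex.continuous_re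
    obtain ⟨g, hg1, hg0, hg01⟩ := exists_contMDiffMap_one_nhds_of_subset_interior
      (I := modelWithCornersSelf ℝ ℝ) (n := ⊤) (M := ℝ) (s := Complex.re '' E)
      (t := Metric.cthickening 1 (Complex.re '' E))
      hreE.isClosed ((Metric.self_subset_thickening one_pos _).trans
        (interior_maximal (Metric.thickening_subset_cthickening _ _) Metric.isOpen_thickening))
    have hgs : HasCompactSupport g := HasCompactSupport.intro (hreE.cthickening (r := 1)) hg0
    have hgc : ContDiff ℝ ∞ g := g.contMDiff.contDiff
    have hgE : ∀ w ∈ E, g w.re = 1 := fun w hw =>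
      (eventually_nhdsSet_iff_forall.1 hg1 _ ⟨w, hw, rfl⟩).self_of_nhds
    have h1 := integral_E hE hEL hgc hgs hχ
    have h2 : ∫ w in E, g w.re * f w = (volume E).toReal := by
      rw [setIntegral_congr_fun hE.measurableSet (g := fun _ => (1 : ℝ))
        (fun w hw => by simp only; rw [hgE w hw, hfE w hw, one_mul])]
      simp [Measure.real]
    rw [h2] at h1
    rw [← ENNReal.ofReal_toReal hE.measure_lt_top.ne, h1]
    apply ENNReal.ofReal_le_ofReal
    have hbd : ∀ i, s i * f (z i) * (∫ t in (α i)..(β i), g t) ≤ s i ^ 2 := by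
      intro i
      rw [hfE _ (hzE i), mul_one, sq]
      apply mul_le_mul_of_nonneg_left _ (hs0 i)
      have hle : α i ≤ β i := by linarith [hs0 i, hs i]
      calc (∫ t in (α i)..(β i), g t) ≤ ∫ t in (α i)..(β i), (1 : ℝ) :=
            intervalIntegral.integral_mono_on hle (hgc.continuous.intervalIntegrable _ _)
              (continuous_const.intervalIntegrable _ _) fun t _ => (hg01 t).2
        _ = s i := by rw [intervalIntegral.integral_const, hs i]; simp
    have hnn : ∀ i, 0 ≤ s i * f (z i) * (∫ t in (α i)..(β i), g t) := by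
      intro i
      have hle : α i ≤ β i := by linarith [hs0 i, hs i]
      exact mul_nonneg (mul_nonneg (hs0 i) (hf01 _).1)
        (intervalIntegral.integral_nonneg hle fun t _ => (hg01 t).1)
    exact (Summable.of_nonneg_of_le hnn hbd hsum).tsum_le_tsum hbd hsum
  have hsub : (⋃ i, connectedComponentIn E (z i)) ⊆ E :=
    iUnion_subset fun i => connectedComponentIn_subset _ _
  have hUm : MeasurableSet (⋃ i, connectedComponentIn E (z i)) :=
    MeasurableSet.iUnion fun i => (hKc i).measurableSet
  rw [measure_sdiff hsub hUm.nullMeasurableSet (by rw [hU]; exact ENNReal.ofReal_ne_top), hU]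
  exact tsub_eq_zero_of_le hEv

/-- the bottom of the sections of a compact set -/
noncomputable def bot (K : Set ℂ) (t : ℝ) : ℝ := sInf (sec K t)

theorem measurable_bot {K : Set ℂ} (hK : IsCompact K) : Measurable (bot K) := by
  apply measurable_of_Iic
  intro c
  have hpr : ∀ a : Set ℂ, IsClosed a → MeasurableSet (Complex.re '' (K ∩ a)) := fun a ha =>
    ((hK.inter_right ha).image Complex.continuous_re).measurableSet
  have heq : bot K ⁻¹' Iic c = Complex.re '' (K ∩ {w | w.im ≤ c}) ∪
      ((Complex.re '' (K ∩ univ))ᶜ ∩ {_t : ℝ | (0 : ℝ) ≤ c}) := by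
    ext t
    simp only [mem_preimage, mem_Iic]
    constructor
    · intro h
      by_cases hne : (sec K t).Nonempty
      · left
        have hmem : sInf (sec K t) ∈ sec K t := (isCompact_sec hK t).sInf_mem hne
        exact ⟨⟨t, sInf (sec K t)⟩, ⟨hmem, h⟩, rfl⟩
      · right
        rw [not_nonempty_iff_eq_empty] at hne
        refine ⟨?_, ?_⟩
        · rintro ⟨w, ⟨hw, _⟩, hwt⟩
          have : w.im ∈ sec K t := by
            show (⟨t, w.im⟩ : ℂ) ∈ K
            rw [← hwt]
            exact hw
          rw [hne] at this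
          exact this
        · show (0 : ℝ) ≤ c
          rw [bot, hne, Real.sInf_empty] at h
          exact h
    · rintro (⟨w, ⟨hw, hwc⟩, hwt⟩ | ⟨h1, h2⟩)
      · have : w.im ∈ sec K t := by
          show (⟨t, w.im⟩ : ℂ) ∈ K
          rw [← hwt]
          exact hw
        exact (csInf_le (isCompact_sec hK t).bddBelow this).trans hwc
      · have hne : sec K t = ∅ := by
          rw [eq_empty_iff_forall_notMem]
          intro y hy
          exact h1 ⟨⟨t, y⟩, ⟨hy, trivial⟩, rfl⟩
        rw [bot, hne, Real.sInf_empty]
        exact h2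
  rw [heq]
  exact (hpr _ (isClosed_le Complex.continuous_im continuous_const)).union
    ((hpr _ isClosed_univ).compl.inter (MeasurableSet.const _))

/-- **(S3)** sections of the solids are `Icc (bot t) (bot t + s)`. -/
theorem sec_eq_Icc (hE : IsCompact E) (hzE : ∀ i, z i ∈ E)
    (hdist : ∀ i j, z j ∈ connectedComponentIn E (z i) → j = i) (hEL : ELId E z s α β)
    (hs : ∀ i, s i = β i - α i) (hs0 : ∀ i, 0 ≤ s i) (hsum : Summable fun i => s i ^ 2)
    (hR : ∀ t : ℝ, ∀ z ∈ Eᶜ, t < z.re →
      ¬ Bornology.IsBounded (connectedComponentIn (Eᶜ ∩ {w | t < w.re}) z))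
    (hL : ∀ t : ℝ, ∀ z ∈ Eᶜ, z.re < t →
      ¬ Bornology.IsBounded (connectedComponentIn (Eᶜ ∩ {w | w.re < t}) z)) (i : ι) :
    ∀ᵐ t : ℝ, t ∈ Icc (α i) (β i) → sec (connectedComponentIn E (z i)) t =
      Icc (bot (connectedComponentIn E (z i)) t) (bot (connectedComponentIn E (z i)) t + s i) := by
  have hKc : IsCompact (connectedComponentIn E (z i)) := Thin_12.isCompact_cc hE _
  rcases (hs0 i).eq_or_lt with h0 | hpos
  · -- `s i = 0`: the interval is a point
    have hnull : volume (Icc (α i) (β i)) = 0 := by
      rw [Real.volume_Icc, ← hs i, ← h0, ENNReal.ofReal_zero]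
    have : ∀ᵐ t : ℝ, t ∉ Icc (α i) (β i) := measure_eq_zero_iff_ae_notMem.1 hnull
    filter_upwards [this] with t ht h
    exact absurd h ht
  · filter_upwards [volume_sec hE hzE hdist hEL hs hs0 hsum i] with t ht hti
    rw [indicator_of_mem hti] at ht
    have hoc := sec_ordConnected hE (fun w hw h => hR t w hw h) (fun w hw h => hL t w hw h) (z i)
    have hcomp := isCompact_sec hKc t
    have hne : (sec (connectedComponentIn E (z i)) t).Nonempty := by
      by_contra hne
      rw [not_nonempty_iff_eq_empty] at hne
      rw [hne, measure_empty] at ht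
      have := ENNReal.ofReal_pos.2 hpos
      rw [← ht] at this
      exact lt_irrefl _ this
    have hconn : IsConnected (sec (connectedComponentIn E (z i)) t) := ⟨hne, hoc.isPreconnected⟩
    have heq := eq_Icc_of_connected_compact hconn hcomp
    rw [heq, Real.volume_Icc] at ht
    have hlen : sSup (sec (connectedComponentIn E (z i)) t) -
        sInf (sec (connectedComponentIn E (z i)) t) = s i := by
      have hle : sInf (sec (connectedComponentIn E (z i)) t) ≤
          sSup (sec (connectedComponentIn E (z i)) t) :=
        Real.sInf_le_sSup _ hcomp.bddBelow hcomp.bddAbove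
      exact (ENNReal.ofReal_eq_ofReal_iff (by linarith) (hs0 i)).1 ht
    rw [bot, show sInf (sec (connectedComponentIn E (z i)) t) + s i =
      sSup (sec (connectedComponentIn E (z i)) t) by linarith]
    exact heq

end

end Crest.Agent.R105.Sct_636
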