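import Crest.Agent.R105.Pct1_185
import Crest.Agent.R105.Sct3_636

/-!
# R105 PIC-T (2): the picture with solids (helper185)

`PicT E` : all components of `E` are vertical segments (points) or exact squares with attached
vertical pieces, `|E \ squares| = 0`, `Σ wd² < ∞`.
`picT_of_min` : from the `T`-minimality in the picture; `picT_of_minz` : from the z-plane.
-/

set_option autoImplicit false

open Set Filter MeasureTheory Metric
open scoped Topology ENNReal NNReal ContDiff
open Crest.AnalysisR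
open Crest.Agent.R105.Ends_897 (eF EndMap oscF)

namespace Crest.Agent.R105.Pct_185

open Tc_808 Sqr_185 Tra_937
open Sct_636 (LCE ELId)

noncomputable section

variable {E : Set ℂ}

/-! ### the E-L identity of 636 from the minimality -/

lemma LCE.LC {χ : ℂ → ℝ} (h : LCE E χ) : Bd_775.LC E χ where
  lip := (h.smooth.of_le (by simp : (1 : WithTop ℕ∞) ≤ ((⊤ : ℕ∞) : WithTop ℕ∞))).locallyLipschitz
  bdd := by
    obtain ⟨C, hC⟩ := h.supp.exists_bound_of_continuous h.smooth.continuous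
    exact ⟨C, fun z => hC z⟩
  fin := by
    have hd : Continuous (fderiv ℝ χ) := h.smooth.continuous_fderiv (by simp)
    have h1 : Continuous (Bd_775.en χ) :=
      ((hd.clm_apply continuous_const).pow 2).add ((hd.clm_apply continuous_const).pow 2)
    refine h1.integrable_of_hasCompactSupport ?_
    refine (h.supp.fderiv (𝕜 := ℝ)).mono ?_
    intro z hz hz0
    apply hz
    have h2 : fderiv ℝ χ z = 0 := hz0
    simp [Bd_775.en, Bd_775.gx, Bd_775.gy, h2]
  lc := h.lc

/-- first variation in the direction of `G(x) χ`, `χ` locally constant near `E` -/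
theorem firstVariation_lc (hE : IsCompact E) (hsum : Summable fun L : Cmp E => wd L.1 ^ 2)
    {G : ℝ → ℝ} {χ : ℂ → ℝ} (hG : ContDiff ℝ ∞ G) (hG' : HasCompactSupport (deriv G))
    (hχ : LCE E χ) {z : Cmp E → ℂ} (hz : ∀ L, z L ∈ L.1) {δ : ℝ} (hδ : 0 < δ)
    (hmin : ∀ τ : ℝ, |τ| ≤ δ → MINT E (fun w => τ * (G w.re * χ w))) :
    (∫ w in Eᶜ, fderiv ℝ (fun w => G w.re * χ w) w 1)
      + (∑' L : Cmp E, wd L.1 * (χ (z L) * (G (hi L.1) - G (lo L.1)))) = 0 := by
  have hGc : Continuous (deriv G) := hG.continuous_deriv (by simp)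
  obtain ⟨C, hC⟩ := hG'.exists_bound_of_continuous hGc
  have hC0 : 0 ≤ C := (norm_nonneg _).trans (hC 0)
  have hGd : Differentiable ℝ G := hG.differentiable (by simp)
  obtain ⟨X, hX⟩ := hχ.supp.exists_bound_of_continuous hχ.smooth.continuous
  have hX0 : 0 ≤ X := (norm_nonneg _).trans (hX 0)
  have hw0 : ∀ L : Cmp E, 0 ≤ wd L.1 := fun L => by
    have := lo_le_hi (L.isCompact hE) L.nonempty
    simp only [wd]; linarith
  -- `χ` is constant near `L`
  have hconst : ∀ L : Cmp E, ∀ p ∈ L.1, ∀ᶠ w in 𝓝 p, χ w = χ (z L) := by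
    intro L p hp
    obtain ⟨c, O, hO, hLO, hc⟩ := Tc_808.LC.const_near (LCE.LC hχ) L.preconn L.subset
    have h1 : χ (z L) = c := hc _ (hLO (hz L))
    filter_upwards [hO.mem_nhds (hLO hp)] with w hw
    rw [h1, hc w hw]
  have hosc : ∀ τ : ℝ, |τ| * (C * X) ≤ 1 → ∀ L : Cmp E,
      osc E (fun w => w.re + τ * (G w.re * χ w)) L.1
        = wd L.1 + τ * (χ (z L) * (G (hi L.1) - G (lo L.1))) := by
    intro τ hτ L
    have hm : Monotone fun t => t + (τ * χ (z L)) * G t := by
      refine monotone_shift hGd hC ?_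
      rw [abs_mul]
      have h1 : |χ (z L)| ≤ X := hX _
      calc |τ| * |χ (z L)| * C ≤ |τ| * X * C := by gcongr
        _ = |τ| * (C * X) := by ring
        _ ≤ 1 := hτ
    rw [osc_mono_re hE L hm (continuous_id.add (continuous_const.mul hG.continuous)) ?_]
    · simp only [wd]
      ring
    · intro p hp
      filter_upwards [hconst L p hp] with w hw
      rw [hw]
      ring
  have hDel : ∀ L : Cmp E, |χ (z L) * (G (hi L.1) - G (lo L.1))| ≤ (C * X) * wd L.1 := by
    intro L
    rw [abs_mul]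
    have h1 := (convex_univ (𝕜 := ℝ) (E := ℝ)).norm_image_sub_le_of_norm_deriv_le
      (f := G) (C := C) (x := lo L.1) (y := hi L.1) (fun x _ => hGd x) (fun x _ => hC x)
      (mem_univ _) (mem_univ _)
    have h2 : |hi L.1 - lo L.1| = wd L.1 := abs_of_nonneg (hw0 L)
    rw [Real.norm_eq_abs, Real.norm_eq_abs, h2] at h1
    calc |χ (z L)| * |G (hi L.1) - G (lo L.1)| ≤ X * (C * wd L.1) :=
          mul_le_mul (hX _) h1 (abs_nonneg _) hX0
      _ = (C * X) * wd L.1 := by ring
  have hS1 : Summable fun L : Cmp E => wd L.1 * (χ (z L) * (G (hi L.1) - G (lo L.1))) := by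
    refine Summable.of_norm_bounded (hsum.mul_left (C * X)) fun L => ?_
    rw [norm_mul, Real.norm_eq_abs, Real.norm_eq_abs, abs_of_nonneg (hw0 L)]
    nlinarith [hDel L, hw0 L]
  have hS2 : Summable fun L : Cmp E => (χ (z L) * (G (hi L.1) - G (lo L.1))) ^ 2 := by
    refine Summable.of_nonneg_of_le (fun _ => sq_nonneg _) (fun L => ?_)
      (hsum.mul_left ((C * X) ^ 2))
    rw [← sq_abs, ← mul_pow]
    exact pow_le_pow_left₀ (abs_nonneg _) (hDel L) 2
  have hCX : 0 ≤ C * X := mul_nonneg hC0 hX0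
  refine linear_of_quadratic (δ := min δ (1 / (C * X + 1))) (lt_min hδ (by positivity))
    (B := (∫ w in Eᶜ, Bd_775.en (fun w => G w.re * χ w) w)
      + ∑' L : Cmp E, (χ (z L) * (G (hi L.1) - G (lo L.1))) ^ 2) fun τ hτ => ?_
  have hτC : |τ| * (C * X) ≤ 1 := by
    have h1 : |τ| ≤ 1 / (C * X + 1) := hτ.trans (min_le_right _ _)
    rw [le_div_iff₀ (by positivity)] at h1
    nlinarith [abs_nonneg τ]
  have h := hmin τ (hτ.trans (min_le_left _ _))
  unfold MINT at h
  have e1 : ∀ w, fderiv ℝ (fun w => τ * (G w.re * χ w)) w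
      = τ • fderiv ℝ (fun w => G w.re * χ w) w := by
    intro w
    have h1 := congrFun (fderiv_const_smul_field (𝕜 := ℝ) (f := fun w : ℂ => G w.re * χ w) τ) w
    exact h1
  have e2 : ∫ w in Eᶜ, fderiv ℝ (fun w => τ * (G w.re * χ w)) w 1
      = τ * ∫ w in Eᶜ, fderiv ℝ (fun w => G w.re * χ w) w 1 := by
    rw [← integral_const_mul]
    congr 1
    ext w
    rw [e1 w]
    rfl
  have e3 : ∫ w in Eᶜ, Bd_775.en (fun w => τ * (G w.re * χ w)) w
      = τ ^ 2 * ∫ w in Eᶜ, Bd_775.en (fun w => G w.re * χ w) w := by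
    rw [← integral_const_mul]
    congr 1
    ext w
    simp only [Bd_775.en, Bd_775.gx, Bd_775.gy]
    rw [e1 w]
    simp only [_root_.smul_apply, smul_eq_mul]
    ring
  have e4 : ∀ L : Cmp E, osc E (fun w => w.re + τ * (G w.re * χ w)) L.1 ^ 2
      - osc E (fun w => w.re) L.1 ^ 2
      = 2 * τ * (wd L.1 * (χ (z L) * (G (hi L.1) - G (lo L.1))))
        + τ ^ 2 * (χ (z L) * (G (hi L.1) - G (lo L.1))) ^ 2 := by
    intro L
    rw [hosc τ hτC L, osc_re hE L]
    simp only [wd]
    ring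
  rw [e2, e3, tsum_congr e4, Summable.tsum_add (hS1.mul_left _) (hS2.mul_left _), tsum_mul_left,
    tsum_mul_left] at h
  nlinarith [h]

/-- the solids, as an index type -/
abbrev Sol (E : Set ℂ) := {L : Cmp E // 0 < wd L.1}

/-- a point of a component -/
def pt (L : Cmp E) : ℂ := L.nonempty.choose

lemma pt_mem (L : Cmp E) : pt L ∈ L.1 := L.nonempty.choose_spec

lemma cc_pt (L : Cmp E) : connectedComponentIn E (pt L) = L.1 := by
  have h := L.eq_of_mem (pt_mem L)
  exact (congrArg Subtype.val h).symm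

/-- **636's E-L identity** -/
theorem elId_of_min (hE : IsCompact E) (hsum : Summable fun L : Cmp E => wd L.1 ^ 2)
    (hmin : ∀ (G : ℝ → ℝ) (χ : ℂ → ℝ), ContDiff ℝ ∞ G → HasCompactSupport (deriv G) → LCE E χ →
      ∃ δ > 0, ∀ τ : ℝ, |τ| ≤ δ → MINT E (fun w => τ * (G w.re * χ w))) :
    ELId E (fun L : Sol E => pt L.1) (fun L => wd L.1.1) (fun L => lo L.1.1)
      (fun L => hi L.1.1) := by
  intro G χ hG hG' hχ
  obtain ⟨δ, hδ, hm⟩ := hmin G χ hG hG' hχ
  have h := firstVariation_lc hE hsum hG hG' hχ (z := pt) pt_mem hδ hm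
  refine Eq.trans ?_ h
  congr 1
  have hw0 : ∀ L : Cmp E, 0 ≤ wd L.1 := fun L => by
    have := lo_le_hi (L.isCompact hE) L.nonempty
    simp only [wd]; linarith
  have h1 : (fun L : Cmp E => wd L.1 * (χ (pt L) * (G (hi L.1) - G (lo L.1)))).support
      ⊆ {L : Cmp E | 0 < wd L.1} := by
    intro L hL
    rcases (hw0 L).lt_or_eq with h | h
    · exact h
    · exfalso
      apply hL
      simp only
      rw [← h, zero_mul]
  rw [← tsum_subtype_eq_of_support_subset h1]
  refine tsum_congr fun L => ?_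
  rw [mul_assoc]

/-! ### the picture theorem -/

/-- **the picture with solids** -/
structure PicT (E : Set ℂ) : Prop where
  cpt : IsCompact E
  ord : ∀ L : Cmp E, ∀ t, OrdConnected (sec L.1 t)
  sum : Summable fun L : Cmp E => wd L.1 ^ 2
  vol : ∀ L : Cmp E, 0 < wd L.1 → ∀ᵐ t : ℝ, volume (sec L.1 t)
      = (Icc (lo L.1) (hi L.1)).indicator (fun _ => ENNReal.ofReal (wd L.1)) t
  null : volume (E \ ⋃ L : Sol E, L.1.1) = 0
  sq : ∀ L : Cmp E, 0 < wd L.1 → ∃ b : ℝ, SqK L.1 (lo L.1) b (wd L.1)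

theorem countable_sol (hsum : Summable fun L : Cmp E => wd L.1 ^ 2) : Countable (Sol E) := by
  have h1 := hsum.countable_support
  refine (h1.mono ?_).to_subtype
  intro L hL
  have hL' : 0 < wd L.1 := hL
  simp only [Function.mem_support]
  positivity

/-- sections and areas -/
theorem sections_of_el (hE : IsCompact E) (hsum : Summable fun L : Cmp E => wd L.1 ^ 2)
    (hEL : ELId E (fun L : Sol E => pt L.1) (fun L => wd L.1.1) (fun L => lo L.1.1)
      (fun L => hi L.1.1)) :
    (∀ L : Cmp E, 0 < wd L.1 → ∀ᵐ t : ℝ, volume (sec L.1 t)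
      = (Icc (lo L.1) (hi L.1)).indicator (fun _ => ENNReal.ofReal (wd L.1)) t) ∧
    volume (E \ ⋃ L : Sol E, L.1.1) = 0 := by
  have hcnt := countable_sol hsum
  have hzE : ∀ L : Sol E, pt L.1 ∈ E := fun L => L.1.subset (pt_mem L.1)
  have hdist : ∀ L L' : Sol E, pt L'.1 ∈ connectedComponentIn E (pt L.1) → L' = L := by
    intro L L' h
    rw [cc_pt] at h
    apply Subtype.ext
    by_contra hne
    exact disjoint_left.1 (Cmp.disjoint hne) (pt_mem L'.1) h
  have hs2 : Summable fun L : Sol E => wd L.1.1 ^ 2 := hsum.comp_injective Subtype.val_injective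
  constructor
  · intro L hL
    have h := Sct_636.volume_sec hE hzE hdist hEL (fun _ => rfl) (fun L => L.2.le) hs2 ⟨L, hL⟩
    simp only [cc_pt] at h
    exact h
  · have h := Sct_636.volume_rest hE hzE hdist hEL (fun _ => rfl) (fun L => L.2.le) hs2
    simp only [cc_pt] at h
    exact h

/-- **the picture theorem**, from minimality in the picture -/
theorem picT_of_min (hE : IsCompact E) (hsum : Summable fun L : Cmp E => wd L.1 ^ 2)
    (hR : ∀ t : ℝ, ∀ z ∈ Eᶜ, t < z.re →
      ¬ Bornology.IsBounded (connectedComponentIn (Eᶜ ∩ {w | t < w.re}) z))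
    (hL : ∀ t : ℝ, ∀ z ∈ Eᶜ, z.re < t →
      ¬ Bornology.IsBounded (connectedComponentIn (Eᶜ ∩ {w | w.re < t}) z))
    (hminA : ∀ (G : ℝ → ℝ) (χ : ℂ → ℝ), ContDiff ℝ ∞ G → HasCompactSupport (deriv G) →
      LCE E χ → ∃ δ > 0, ∀ τ : ℝ, |τ| ≤ δ → MINT E (fun w => τ * (G w.re * χ w)))
    (hminB : ∀ K : Cmp E, 0 < wd K.1 → (∀ t, OrdConnected (sec K.1 t)) →
      ∀ θ : ℝ → ℝ, ContDiff ℝ ∞ θ → HasCompactSupport θ → tsupport θ ⊆ Ioo (lo K.1) (hi K.1) →
      ∀ κ : ℝ → ℝ, ContDiff ℝ ∞ κ → HasCompactSupport κ → (∀ p ∈ E, ∀ᶠ y in 𝓝 p.im, κ y = 1) →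
      ∃ δ > 0, ∀ τ : ℝ, |τ| ≤ δ → MINT E (fun z => τ * (up K.1 θ z * κ z.im))) : PicT E := by
  have hord : ∀ L : Cmp E, ∀ t, OrdConnected (sec L.1 t) := by
    intro L t
    have h := Sct_636.sec_ordConnected hE (t := t) (hR t) (hL t) (pt L)
    rw [cc_pt] at h
    exact h
  obtain ⟨h1, h2⟩ := sections_of_el hE hsum (elId_of_min hE hsum hminA)
  exact ⟨hE, hord, hsum, h1, h2, fun L hL0 =>
    exists_sqK hE hord hsum h1 h2 L hL0 (hminB L hL0 (hord L))⟩

/-- unbounded components from connectivity, right -/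
lemma unbdd_right (hE : IsCompact E) {t : ℝ} (h : IsPreconnected (Eᶜ ∩ {w : ℂ | t < w.re})) :
    ∀ z ∈ Eᶜ, t < z.re → ¬ Bornology.IsBounded (connectedComponentIn (Eᶜ ∩ {w | t < w.re}) z) := by
  intro z hz hzt hb
  rw [h.connectedComponentIn ⟨hz, hzt⟩] at hb
  obtain ⟨R, hR⟩ := hE.isBounded.exists_norm_le
  obtain ⟨M, hM⟩ := hb.exists_norm_le
  set x : ℝ := |R| + |M| + |t| + 1 with hx
  have hx0 : 0 ≤ x := by positivity
  have h1 : ((x : ℝ) : ℂ) ∈ Eᶜ ∩ {w : ℂ | t < w.re} := by
    constructor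
    · intro hc
      have h2 := hR _ hc
      rw [Complex.norm_real, Real.norm_eq_abs, abs_of_nonneg hx0] at h2
      have := le_abs_self R
      have := abs_nonneg M
      have := abs_nonneg t
      linarith
    · simp only [mem_ofPred_eq, Complex.ofReal_re]
      have := le_abs_self t
      have := abs_nonneg M
      have := abs_nonneg R
      linarith
  have h2 := hM _ h1
  rw [Complex.norm_real, Real.norm_eq_abs, abs_of_nonneg hx0] at h2
  have := le_abs_self M
  have := abs_nonneg R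
  have := abs_nonneg t
  linarith

/-- unbounded components from connectivity, left -/
lemma unbdd_left (hE : IsCompact E) {t : ℝ} (h : IsPreconnected (Eᶜ ∩ {w : ℂ | w.re < t})) :
    ∀ z ∈ Eᶜ, z.re < t → ¬ Bornology.IsBounded (connectedComponentIn (Eᶜ ∩ {w | w.re < t}) z) := by
  intro z hz hzt hb
  rw [h.connectedComponentIn ⟨hz, hzt⟩] at hb
  obtain ⟨R, hR⟩ := hE.isBounded.exists_norm_le
  obtain ⟨M, hM⟩ := hb.exists_norm_le
  set x : ℝ := |R| + |M| + |t| + 1 with hx
  have hx0 : 0 ≤ x := by positivity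
  have h1 : ((-x : ℝ) : ℂ) ∈ Eᶜ ∩ {w : ℂ | w.re < t} := by
    constructor
    · intro hc
      have h2 := hR _ hc
      rw [Complex.norm_real, Real.norm_eq_abs, abs_neg, abs_of_nonneg hx0] at h2
      have := le_abs_self R
      have := abs_nonneg M
      have := abs_nonneg t
      linarith
    · simp only [mem_ofPred_eq, Complex.ofReal_re]
      have := neg_abs_le t
      have := abs_nonneg M
      have := abs_nonneg R
      linarith
  have h2 := hM _ h1
  rw [Complex.norm_real, Real.norm_eq_abs, abs_neg, abs_of_nonneg hx0] at h2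
  have := le_abs_self M
  have := abs_nonneg R
  have := abs_nonneg t
  linarith

end

end Crest.Agent.R105.Pct_185
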