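import Crest.Agent.R105.Vb2_818
import Crest.Agent.R105.Pct2_185

/-!
# Row 105, S0138 (NI frame): slice bounds, part 3 (helper818)

`LY` = the conclusion of 319's `lemmaY` at the level `t` (literal);
`lineBd_of_ly : LY → LineBd`;  `slb_anchor` : slice bounds along the levels of an anchor with a
picture, in the `z`-plane.
-/

set_option autoImplicit false

open MeasureTheory Set Filter Topology Metric
open scoped NNReal ENNReal Classical

namespace Crest.Agent.R105.Vb_818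

open Ends_897 Tc_808 Ni_459 Ta_937 Nip_31 Crest.AnalysisR Bd_775

noncomputable section

/-- conclusion of 319's `lemmaY` at the level `t` -/
def LY (E : Set ℂ) (y : ℂ → ℝ) (s : Cmp E → ℝ) (t : ℝ) : Prop :=
  (Summable fun L : Pct_185.Sol E =>
    (Icc (Sqr_185.lo L.1.1) (Sqr_185.hi L.1.1)).indicator (fun _ => s L.1) t) ∧
  ∀ c d : ℝ, c ≤ d → (⟨t, c⟩ : ℂ) ∉ E → (⟨t, d⟩ : ℂ) ∉ E →
    IntervalIntegrable (fun v => Eᶜ.indicator (gy y) ⟨t, v⟩) volume c d ∧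
    |y ⟨t, d⟩ - y ⟨t, c⟩ - ∫ v in c..d, Eᶜ.indicator (gy y) ⟨t, v⟩| ≤
      ∑' L : Pct_185.Sol E, if t ∈ Icc (Sqr_185.lo L.1.1) (Sqr_185.hi L.1.1) ∧
        (Sqr_185.sec L.1.1 t ∩ Icc c d).Nonempty then s L.1 else 0

/-- the charges on the line `t` -/
def wl (E : Set ℂ) (s : Cmp E → ℝ) (t : ℝ) (K : Cmp E) : ℝ≥0∞ :=
  if 0 < Sqr_185.wd K.1 ∧ t ∈ Icc (Sqr_185.lo K.1) (Sqr_185.hi K.1) then ENNReal.ofReal (s K) else 0

/-- the density on the line `t` -/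
def ml (E : Set ℂ) (y : ℂ → ℝ) (t : ℝ) (v : ℝ) : ℝ≥0∞ := ‖Eᶜ.indicator (gy y) (⟨t, v⟩ : ℂ)‖ₑ

theorem lineBd_of_ly {E : Set ℂ} {y : ℂ → ℝ} {s : Cmp E → ℝ} {t : ℝ} (hE : IsCompact E)
    (hs0 : ∀ L, 0 ≤ s L) (h : LY E y s t) : LineBd E y t (ml E y t) (wl E s t) := by
  classical
  obtain ⟨hsum, hbd⟩ := h
  have hEm : MeasurableSet E := hE.isClosed.measurableSet
  have hgm : Measurable (gy y) := by
    unfold gy; exact measurable_fderiv_apply_const ℝ y _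
  have hmeas : Measurable (ml E y t) :=
    ((hgm.indicator hEm.compl).comp (measurable_mk t)).enorm
  -- the sum in `ENNReal`
  have hterm : ∀ L : Pct_185.Sol E,
      ENNReal.ofReal ((Icc (Sqr_185.lo L.1.1) (Sqr_185.hi L.1.1)).indicator (fun _ => s L.1) t) =
        wl E s t L.1 := by
    intro L
    unfold wl
    by_cases ht : t ∈ Icc (Sqr_185.lo L.1.1) (Sqr_185.hi L.1.1)
    · rw [indicator_of_mem ht, if_pos ⟨L.2, ht⟩]
    · rw [indicator_of_notMem ht, if_neg fun hh => ht hh.2, ENNReal.ofReal_zero]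
  have hsubE : ∑' K : Cmp E, wl E s t K = ∑' L : Pct_185.Sol E, wl E s t L.1 := by
    refine (tsum_subtype_eq_of_support_subset (s := {K : Cmp E | 0 < Sqr_185.wd K.1}) ?_).symm
    intro K hK
    by_contra hcon
    exact hK (if_neg fun hh => hcon hh.1)
  have hsumE : ∑' K : Cmp E, wl E s t K ≠ ∞ := by
    rw [hsubE]
    simp_rw [← hterm]
    rw [← ENNReal.ofReal_tsum_of_nonneg (fun L => indicator_nonneg (fun _ _ => hs0 _) _) hsum]
    exact ENNReal.ofReal_ne_top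
  refine ⟨hmeas, ?_, hsumE, ?_⟩
  · intro R
    obtain ⟨R0, hR0⟩ := hE.isBounded.exists_norm_le
    set M : ℝ := |R| + |R0| + 1 with hM
    have hM0 : 0 < M := by positivity
    have hout : ∀ v : ℝ, |R0| < |v| → (⟨t, v⟩ : ℂ) ∉ E := by
      intro v hv hm
      have h1 := hR0 _ hm
      have h2 : |v| ≤ ‖(⟨t, v⟩ : ℂ)‖ := Complex.abs_im_le_norm ⟨t, v⟩
      linarith [le_abs_self R0]
    have hMabs : |R0| < |M| := by rw [abs_of_pos hM0, hM]; linarith [abs_nonneg R]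
    have h1 := (hbd (-M) M (by linarith) (hout _ (by rw [abs_neg]; exact hMabs)) (hout _ hMabs)).1
    have h2 : IntegrableOn (fun v => Eᶜ.indicator (gy y) ⟨t, v⟩) (Ioc (-M) M) :=
      (intervalIntegrable_iff_integrableOn_Ioc_of_le (by linarith)).1 h1
    have h3 : ∫⁻ v in Ioc (-M) M, ml E y t v < ∞ := h2.2
    refine ne_top_of_le_ne_top h3.ne (lintegral_mono_set ?_)
    rintro v ⟨hv, -⟩
    have := le_abs_self R
    exact ⟨by linarith [hv.1, abs_nonneg R0], by linarith [hv.2, abs_nonneg R0]⟩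
  · intro c d hcd hc hd
    obtain ⟨h1, h2⟩ := hbd c d hcd.le hc hd
    set I : ℝ := ∫ v in c..d, Eᶜ.indicator (gy y) ⟨t, v⟩ with hI
    set Sg : ℝ := ∑' L : Pct_185.Sol E, if t ∈ Icc (Sqr_185.lo L.1.1) (Sqr_185.hi L.1.1) ∧
        (Sqr_185.sec L.1.1 t ∩ Icc c d).Nonempty then s L.1 else 0 with hT1
    have h3 : |y ⟨t, d⟩ - y ⟨t, c⟩| ≤ |I| + Sg := by
      have e : y ⟨t, d⟩ - y ⟨t, c⟩ = I + (y ⟨t, d⟩ - y ⟨t, c⟩ - I) := by ring
      rw [e]
      exact (abs_add_le _ _).trans (add_le_add le_rfl h2)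
    have hI' : ENNReal.ofReal |I| ≤ ∫⁻ v in Ioo c d ∩ {v | (⟨t, v⟩ : ℂ) ∉ E}, ml E y t v := by
      have e1 : ENNReal.ofReal |I| = ‖I‖ₑ := by
        rw [Real.enorm_eq_ofReal_abs]
      rw [e1, hI, intervalIntegral.integral_of_le hcd.le]
      refine (enorm_integral_le_lintegral_enorm _).trans ?_
      rw [← restrict_Ioo_eq_restrict_Ioc]
      have e2 : ∀ v, ‖Eᶜ.indicator (gy y) (⟨t, v⟩ : ℂ)‖ₑ =
          {v : ℝ | (⟨t, v⟩ : ℂ) ∉ E}.indicator (ml E y t) v := by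
        intro v
        by_cases hv : (⟨t, v⟩ : ℂ) ∈ E
        · rw [indicator_of_notMem (show v ∉ {v : ℝ | (⟨t, v⟩ : ℂ) ∉ E} from fun hh => hh hv),
            indicator_of_notMem (show (⟨t, v⟩ : ℂ) ∉ Eᶜ from fun hh => hh hv), enorm_zero]
        · rw [indicator_of_mem (show v ∈ {v : ℝ | (⟨t, v⟩ : ℂ) ∉ E} from hv)]
          rfl
      have hVm : MeasurableSet {v : ℝ | (⟨t, v⟩ : ℂ) ∉ E} := measurable_mk t hEm.compl
      rw [lintegral_congr e2, lintegral_indicator hVm, Measure.restrict_restrict hVm, inter_comm]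
    have hT0 : ∀ L : Pct_185.Sol E, 0 ≤ (if t ∈ Icc (Sqr_185.lo L.1.1) (Sqr_185.hi L.1.1) ∧
        (Sqr_185.sec L.1.1 t ∩ Icc c d).Nonempty then s L.1 else 0) := by
      intro L
      split_ifs
      · exact hs0 _
      · exact le_rfl
    have hTs : Summable fun L : Pct_185.Sol E =>
        (if t ∈ Icc (Sqr_185.lo L.1.1) (Sqr_185.hi L.1.1) ∧
          (Sqr_185.sec L.1.1 t ∩ Icc c d).Nonempty then s L.1 else 0) := by
      refine Summable.of_nonneg_of_le hT0 (fun L => ?_) hsum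
      by_cases ht : t ∈ Icc (Sqr_185.lo L.1.1) (Sqr_185.hi L.1.1)
      · rw [indicator_of_mem ht]
        split_ifs
        · exact le_rfl
        · exact hs0 _
      · rw [indicator_of_notMem ht, if_neg fun hh => ht hh.1]
    have hSg : ENNReal.ofReal Sg ≤
        ∑' K : {K : Cmp E // ∃ v ∈ Ioo c d, (⟨t, v⟩ : ℂ) ∈ K.1}, wl E s t K.1 := by
      rw [hT1, ENNReal.ofReal_tsum_of_nonneg hT0 hTs]
      have e3 : ∀ L : Pct_185.Sol E,
          ENNReal.ofReal (if t ∈ Icc (Sqr_185.lo L.1.1) (Sqr_185.hi L.1.1) ∧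
            (Sqr_185.sec L.1.1 t ∩ Icc c d).Nonempty then s L.1 else 0) ≤
          {K : Cmp E | ∃ v ∈ Ioo c d, (⟨t, v⟩ : ℂ) ∈ K.1}.indicator (wl E s t) L.1 := by
        intro L
        split_ifs with hh
        · obtain ⟨ht, v, hv, hvI⟩ := hh
          have hvE : (⟨t, v⟩ : ℂ) ∈ L.1.1 := hv
          have hvc : v ≠ c := fun e => hc (e ▸ L.1.subset hvE)
          have hvd : v ≠ d := fun e => hd (e ▸ L.1.subset hvE)
          have hmem : L.1 ∈ {K : Cmp E | ∃ v ∈ Ioo c d, (⟨t, v⟩ : ℂ) ∈ K.1} :=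
            ⟨v, ⟨lt_of_le_of_ne hvI.1 hvc.symm, lt_of_le_of_ne hvI.2 hvd⟩, hvE⟩
          rw [indicator_of_mem hmem, wl, if_pos ⟨L.2, ht⟩]
        · rw [ENNReal.ofReal_zero]; exact zero_le
      calc _ ≤ ∑' L : Pct_185.Sol E,
            {K : Cmp E | ∃ v ∈ Ioo c d, (⟨t, v⟩ : ℂ) ∈ K.1}.indicator (wl E s t) L.1 :=
            ENNReal.tsum_le_tsum e3
        _ ≤ ∑' K : Cmp E, {K : Cmp E | ∃ v ∈ Ioo c d, (⟨t, v⟩ : ℂ) ∈ K.1}.indicator (wl E s t) K :=
            ENNReal.tsum_comp_le_tsum_of_injective Subtype.val_injective _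
        _ = _ := (tsum_subtype _ _).symm
    calc ENNReal.ofReal |y ⟨t, d⟩ - y ⟨t, c⟩| ≤ ENNReal.ofReal (|I| + Sg) :=
          ENNReal.ofReal_le_ofReal h3
      _ ≤ ENNReal.ofReal |I| + ENNReal.ofReal Sg := ENNReal.ofReal_add_le
      _ ≤ _ := add_le_add hI' hSg

/-- **slice bounds along the levels of an anchor with a picture**, `z`-plane -/
theorem slb_anchor {U V : Set ℂ} {F : ℂ → ℂ} {X f g : ℂ → ℝ} {s : Cmp Vᶜ → ℝ}
    (h : EndMap U V F) (hX : ∀ z ∈ U, X z = (F z).re) (hf : ∀ z ∈ U, f z = g (F z))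
    (hord : ∀ L : Cmp Vᶜ, ∀ t, OrdConnected (Sqr_185.sec L.1 t)) (hs0 : ∀ L, 0 ≤ s L)
    {t : ℝ} (hL : LY Vᶜ g s t) (R : ℝ) : SlB Uᶜ X f R t := by
  have hV : IsExteriorDomain (Vᶜ)ᶜ := by rw [compl_compl]; exact h.hV
  have hVc : IsCompact Vᶜ := Ends_897.isCompact_compl h.hV
  have sec : Sec Vᶜ := fun z hz t => hord (Cmp.of hz) t
  exact slb_pull h (φ := fun w => w.re) hX hf
    (fun R => slb_of_line hV sec (lineBd_of_ly hVc hs0 hL) R) R

end

end Crest.Agent.R105.Vb_818
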