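import Crest.Agent.R105.Yv5_319
import Crest.Agent.R105.Vb3_818
import Crest.Agent.R105.Nip9_31
import Crest.Agent.R105.Uw6_913
import Crest.Agent.R105.N8b_602
import Crest.Agent.R105.Ni3_459

/-!
# R105 (S0138, NI frame): LEMMA Y for extremal anchors, over 8's package (helper319)

* `min_test`  : minimality against `χ G(x0 + a i)` (31's `linG`, 602's `ni_test`)
* `slb_im`    : `∀ᵐ t, ∀ R, SlB Y (x0 + a i) (Im F) R t` for an extremal anchor `a i`
* `slb_re`    : `∀ᵐ t, ∀ R, SlB Y (x0 + a i) (Re F) R t` (any anchor, from `NI`)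
* `lemY_ext`  : both, for all anchors
* `acv_ext`   : `ACV` of `Re F` and `Im F` along a.e. level
-/

set_option autoImplicit false

open Set Filter MeasureTheory Metric
open scoped Topology NNReal ContDiff ENNReal

namespace Crest.Agent.R105.Yv_319

open Tc_808 Bd_775 Sqr_185 Ends_897
open Crest.AnalysisR (IsExteriorDomain)
open IfB_641 (X0 Cpl)
open Ni_459 (NI Swd LB Lv cpt_of)
open Nip_31 (SlB ll_x0 lb_x0 ni_x0 jj_x0 jj_countable osp_x0 tt_sum tt_lb en_x0_fin)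

variable {Y : Set ℂ} {x0 φ X : ℂ → ℝ} {a : ℕ → ℂ → ℝ} {F P : ℂ → ℂ}

/-- an extremal anchor: minimiser over the commutant of a family of anchors -/
def ExtA (Y : Set ℂ) (x0 X : ℂ → ℝ) : Prop :=
  ∃ (b : ℕ → ℂ → ℝ) (P : ℂ → ℂ), SkA_8.Pk Y x0 b X P

/-- the final minimiser is minimal against `χ G (x0 + a i)` -/
theorem min_test (h : SkA_8.Pk Y x0 a φ F) (i : ℕ) (χ : ℂ → ℝ) (G : ℝ → ℝ) (Λ : ℝ≥0)
    (hχ : LC Y χ) (hχc : HasCompactSupport χ) (hG : LipschitzWith Λ G) (t : ℝ) :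
    SelT_871.JT Y x0 φ ≤ SelT_871.JT Y x0 (fun z => φ z + t * (χ z * G (x0 z + a i z))) := by
  have hYc := cpt_of h.hY
  have h1 : TT Y (fun z => χ z * G (x0 z + a i z)) :=
    (Elf_600.test_chiG hYc h.hx (h.tta i) hχ hχc hG).1
  have h2 : TT Y (fun z => φ z + t * (χ z * G (x0 z + a i z))) :=
    h.tt.add hYc.isClosed ((TT.const t).mul hYc.isClosed h1)
  refine h.min _ h2 fun j => ?_
  have h3 := N8_602.ni_test h.hY h.hx (h.tta i) hχ hχc hG (h.ni j i)
  have h4 := Nip_31.linG h.hY h.hx (h.tta j) (h.swd j) h.tt h1 (h.com j) h3 1 t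
  simpa only [one_mul] using h4

theorem uni_of_pk (h : SkA_8.Pk Y x0 a φ F) : Tra_937.Uni Yᶜ F :=
  ⟨h.hY.1, h.hol, (Uw6_913.picT h).1⟩

theorem energy_of_pk (h : SkA_8.Pk Y x0 a φ F) (R : ℝ) :
    IntegrableOn (fun z => ‖deriv F z‖ ^ 2) (Yᶜ ∩ ball 0 R) :=
  N8_602.energy (Uw5_913.pkT h) (Uw5_913.cpl h) R

/-- the line inequality in the picture of an extremal anchor -/
theorem line_im {b : ℕ → ℂ → ℝ} (h : SkA_8.Pk Y x0 a φ F) {i : ℕ}
    (hi : SkA_8.Pk Y x0 b (a i) P) :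
    ∀ᵐ t : ℝ, Vb_818.LY (P '' Yᶜ)ᶜ (yP (Uw6_913.endMap hi) F) (sP (Uw6_913.endMap hi) φ) t := by
  have e : Yᶜᶜ = Y := compl_compl Y
  have hE := Uw6_913.endMap hi
  have hPic := (Uw6_913.picT hi).2
  have hP := uni_of_pk hi
  have hx : X0 Yᶜᶜ x0 := by rw [e]; exact h.hx
  have hX : TT Yᶜᶜ (a i) := by rw [e]; exact h.tta i
  have hφ : TT Yᶜᶜ φ := by rw [e]; exact h.tt
  have hyd := yd_yP hE hP h.hol (Uw6_913.endMap h).bdd (energy_of_pk h)
  have hel : ELY (P '' Yᶜ)ᶜ (sP hE φ) (yP hE F) := by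
    refine ely_yP hE hP hx hX (fun z hz => (hi.re z hz).symm) hφ h.hol h.re ?_
    rw [e]
    exact min_test h i
  exact lemmaY hPic.cpt hPic.ord hPic.sum (sP_nonneg hE) (sP_summable hE hφ) hyd hel

/-- **Lemma Y for an extremal anchor** -/
theorem slb_im {b : ℕ → ℂ → ℝ} (h : SkA_8.Pk Y x0 a φ F) {i : ℕ}
    (hi : SkA_8.Pk Y x0 b (a i) P) :
    ∀ᵐ t : ℝ, ∀ R, SlB Y (fun z => x0 z + a i z) (fun z => (F z).im) R t := by
  have e : Yᶜᶜ = Y := compl_compl Y
  have hE := Uw6_913.endMap hi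
  have hPic := (Uw6_913.picT hi).2
  filter_upwards [line_im h hi] with t ht R
  have h1 := Vb_818.slb_anchor (X := fun z => x0 z + a i z) (f := fun z => (F z).im) hE
    (fun z hz => (hi.re z hz).symm) (fun z hz => (yP_apply hE hz).symm) hPic.ord
    (sP_nonneg hE) ht R
  rw [e] at h1
  exact h1

/-- the same for `Re F`, any anchor -/
theorem slb_re (h : SkA_8.Pk Y x0 a φ F) (i : ℕ) :
    ∀ᵐ t : ℝ, ∀ R, SlB Y (fun z => x0 z + a i z) (fun z => (F z).re) R t := by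
  have key : ∀ R, ∀ᵐ t : ℝ, SlB Y (fun z => x0 z + a i z) (fun z => x0 z + φ z) R t := by
    intro R
    have hni : NI Y (fun z => x0 z + a i z) (fun z => x0 z + φ z) := by
      rw [ni_x0 h.hx]
      refine Ni_459.NI.congr h.hY (tt_lb h.tt) (lb_x0 h.hx h.tt) (h.com i) ?_
      have hnear : ∀ᶠ z in 𝓝ˢ Y, x0 z = 0 := mem_nhdsSet_iff_exists.2 ⟨(tsupport x0)ᶜ,
        (isClosed_tsupport x0).isOpen_compl, fun z hz hz' => h.hx.zero hz' hz,
        fun z hz => image_eq_zero_of_notMem_tsupport hz⟩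
      filter_upwards [hnear] with z hz
      rw [hz, zero_add]
    refine Nip_31.ni_slice h.hY (ll_x0 h.hx (h.tta i)) (lb_x0 h.hx (h.tta i))
      (ll_x0 h.hx h.tt) (lb_x0 h.hx h.tt) hni (𝒥 := Nip_31.JJ Y (a i) ∪ Nip_31.JJ Y φ)
      ((jj_countable h.hY (h.tta i)).union (jj_countable h.hY h.tt)) ?_ ?_ ?_ ?_
    · rw [jj_x0 h.hx]; exact subset_union_left
    · rw [jj_x0 h.hx]; exact subset_union_right
    · have h1 : ∫⁻ z in ball 0 R \ Y,
          ENNReal.ofReal |wdg (fun w => x0 w + a i w) (fun w => x0 w + φ w) z| ≤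
          ∫⁻ z in ball 0 R \ Y, (ENNReal.ofReal (en (fun w => x0 w + a i w) z) +
            ENNReal.ofReal (en (fun w => x0 w + φ w) z)) := by
        refine lintegral_mono fun z => ?_
        rw [← ENNReal.ofReal_add (en_nonneg _ _) (en_nonneg _ _)]
        refine ENNReal.ofReal_le_ofReal ((Bd_775.abs_wdg_le _ _ z).trans ?_)
        have := en_nonneg (fun w => x0 w + φ w) z
        have := en_nonneg (fun w => x0 w + a i w) z
        linarith
      refine ne_top_of_le_ne_top ?_ h1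
      rw [lintegral_add_left (measurable_en _).ennreal_ofReal]
      exact ENNReal.add_ne_top.2 ⟨en_x0_fin h.hY h.hx (h.tta i) R, en_x0_fin h.hY h.hx h.tt R⟩
    · have h1 := tt_sum h.hY h.tt (h.tta i)
      refine ne_top_of_le_ne_top h1 ?_
      simp_rw [osp_x0 h.hx]
      exact ENNReal.tsum_comp_le_tsum_of_injective Subtype.val_injective
        (fun K : Cmp Y => ENNReal.ofReal (Nip_31.osp Y φ (Nip_31.pt K)) *
          ENNReal.ofReal (Nip_31.osp Y (a i) (Nip_31.pt K)))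
  have key2 : ∀ᵐ t : ℝ, ∀ n : ℕ, SlB Y (fun z => x0 z + a i z) (fun z => x0 z + φ z) n t :=
    ae_all_iff.2 fun n => key n
  filter_upwards [key2] with t ht R
  obtain ⟨n, hn⟩ := exists_nat_ge R
  obtain ⟨ν, S, hν, h1, h2, h3, h4⟩ := ht n
  refine ⟨ν, S, hν, h1, h2, h3, fun C hC hCc hCp hCs p hp q hq => ?_⟩
  have h5 := h4 C (hC.trans (inter_subset_inter_right _ (ball_subset_ball hn))) hCc hCp hCs
    p hp q hq
  show |(F p).re - (F q).re| ≤ _
  rw [h.re p hp.2, h.re q hq.2]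
  exact h5

/-- **LEMYP for extremal anchors** -/
theorem lemY_ext (h : SkA_8.Pk Y x0 a φ F) (hext : ∀ i, ExtA Y x0 (a i)) (i : ℕ) :
    ∀ᵐ t : ℝ, ∀ R, SlB Y (fun z => x0 z + a i z) (fun z => (F z).re) R t ∧
      SlB Y (fun z => x0 z + a i z) (fun z => (F z).im) R t := by
  obtain ⟨b, P, hi⟩ := hext i
  filter_upwards [slb_re h i, slb_im h hi] with t h1 h2 R
  exact ⟨h1 R, h2 R⟩

/-- `ACV` of `Re F` and `Im F` along a.e. level of an extremal anchor -/
theorem acv_ext (h : SkA_8.Pk Y x0 a φ F) (hext : ∀ i, ExtA Y x0 (a i)) (i : ℕ) :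
    ∀ᵐ t : ℝ, Sl_732.ACV Y (Lv Y (fun z => x0 z + a i z) t) (fun z => (F z).re) ∧
      Sl_732.ACV Y (Lv Y (fun z => x0 z + a i z) t) (fun z => (F z).im) := by
  obtain ⟨R, hR⟩ : ∃ R, Y ⊆ ball 0 R := by
    obtain ⟨R, h⟩ := (cpt_of h.hY).isBounded.exists_norm_le
    exact ⟨R + 1, fun z hz => by rw [mem_ball_zero_iff]; linarith [h z hz]⟩
  filter_upwards [lemY_ext h hext i] with t ht
  exact ⟨Nip_31.acv_of_slb hR (ht R).1, Nip_31.acv_of_slb hR (ht R).2⟩

end Crest.Agent.R105.Yv_319
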