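import Crest.Agent.R105.Bvl2_31
import Crest.Agent.R105.Yv6_319
import Crest.Agent.R105.Grd3_782

/-!
# Row 105, S0138, node E13 (499 #11166 (2a)), helper31, part 3: transport to the plane of a picture.

For a package `h : SkA_8.Pk Y x0 b X P` (any picture: `Re P = x0 + X` on `Yᶜ`) and `f ∈ TT Y` with
`NI Y X f`: every `w` with `w ∘ P = f` (or `x0 + f`) on `Yᶜ` has `BVL (P '' Yᶜ)ᶜ w` and
`Bd (P '' Yᶜ)ᶜ w`.
-/

set_option autoImplicit false

open MeasureTheory Set Filter Topology Metric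
open scoped ENNReal NNReal

namespace Crest.Agent.R105.Bvl_31

open Bd_775 Tc_808 Ni_459 Nip_31 Ta_937 Ends_897 Crest.AnalysisR
open IfB_641 (X0)

noncomputable section

/-! ### locally Lipschitz functions on the plane -/

theorem BVL.of_ll {E : Set ℂ} {w : ℂ → ℝ} (hw : LocallyLipschitz w) : BVL E w := by
  refine BVL.mk' fun R => ?_
  obtain ⟨K, hK⟩ := (hw.locallyLipschitzOn (s := closedBall 0 (2 * |R|))).exists_lipschitzOnWith_of_compact
    (isCompact_closedBall _ _)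
  refine ⟨fun _ => K * ENNReal.ofReal (2 * |R|), measurable_const, ?_,
    Eventually.of_forall fun t ht => ?_⟩
  · rw [setLIntegral_const]
    exact ENNReal.mul_ne_top (ENNReal.mul_ne_top ENNReal.coe_ne_top ENNReal.ofReal_ne_top)
      measure_Icc_lt_top.ne
  have hb : ∀ v ∈ ln E R t, (⟨t, v⟩ : ℂ) ∈ closedBall (0 : ℂ) (2 * |R|) := by
    intro v hv
    rw [mem_closedBall_zero_iff]
    refine (Complex.norm_le_abs_re_add_abs_im _).trans ?_
    have h4 : |t| + |v| ≤ R + R := add_le_add ht hv.2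
    have h5 := le_abs_self R
    simp only
    linarith
  have h1 : eVariationOn (fun v : ℝ => w ⟨t, v⟩) (ln E R t) ≤
      K * eVariationOn (fun v : ℝ => v) (ln E R t) + 0 * eVariationOn (fun v : ℝ => v) (ln E R t) := by
    refine eVar_le fun x hx y hy => ?_
    rw [zero_mul, add_zero]
    refine (hK (hb x hx) (hb y hy)).trans (le_of_eq ?_)
    congr 1
    rw [edist_dist, edist_dist, dist_eq_norm, Real.dist_eq]
    congr 1
    have : (⟨t, x⟩ : ℂ) - ⟨t, y⟩ = ((x - y : ℝ) : ℂ) * Complex.I := by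
      apply Complex.ext <;> simp
    rw [this, norm_mul, Complex.norm_I, mul_one, Complex.norm_real, Real.norm_eq_abs]
  rw [zero_mul, add_zero] at h1
  refine h1.trans (mul_le_mul_right ?_ _)
  have h2 : ln E R t ⊆ univ ∩ Icc (-|R|) |R| := fun v hv =>
    ⟨trivial, abs_le.1 (hv.2.trans (le_abs_self R))⟩
  refine (eVariationOn.mono _ h2).trans ?_
  have h3 : MonotoneOn (fun v : ℝ => v) univ := fun a _ b _ hab => hab
  refine (h3.eVariationOn_eq (mem_univ _) (mem_univ _)).le.trans (le_of_eq ?_)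
  congr 1
  ring

/-! ### envelopes of pushed functions -/

section push

variable {U : Set ℂ} {P : ℂ → ℂ} {x0 X f : ℂ → ℝ}

theorem up_push (h : EndMap U (P '' U) P) (f : ℂ → ℝ) (K : Cmp Uᶜ) :
    up (P '' U)ᶜ (push h f) (pt (corE h K)) = up Uᶜ f (pt K) := by
  rw [← up_comp_of_mem h (push h f) K (pt_mem K) (pt_mem (corE h K))]
  exact congrFun (up_congr (Y := Uᶜ) (u := push h f ∘ P) (v := f) fun z hz =>
    push_comp h f (not_not.1 hz)) _

theorem lo_push (h : EndMap U (P '' U) P) (f : ℂ → ℝ) (K : Cmp Uᶜ) :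
    lo (P '' U)ᶜ (push h f) (pt (corE h K)) = lo Uᶜ f (pt K) := by
  rw [← lo_comp_of_mem h (push h f) K (pt_mem K) (pt_mem (corE h K))]
  exact congrFun (lo_congr (Y := Uᶜ) (u := push h f ∘ P) (v := f) fun z hz =>
    push_comp h f (not_not.1 hz)) _

theorem osp_push (h : EndMap U (P '' U) P) (f : ℂ → ℝ) (K : Cmp Uᶜ) :
    osp (P '' U)ᶜ (push h f) (pt (corE h K)) = osp Uᶜ f (pt K) := by
  unfold osp
  rw [up_push, lo_push]

theorem jj_push (h : EndMap U (P '' U) P) (f : ℂ → ℝ) :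
    JJ (P '' U)ᶜ (push h f) ⊆ corE h '' JJ Uᶜ f := by
  intro L hL
  refine ⟨(corE h).symm L, ?_, Equiv.apply_symm_apply _ _⟩
  have h1 : lo (P '' U)ᶜ (push h f) (pt L) ≠ up (P '' U)ᶜ (push h f) (pt L) := hL
  rw [← Equiv.apply_symm_apply (corE h) L, lo_push, up_push] at h1
  exact h1

/-- `re` is the pushed anchor -/
theorem re_eq (h : EndMap U (P '' U) P) {A : ℂ → ℝ} (hre : ∀ z ∈ U, (P z).re = A z) :
    ∀ ζ ∉ (P '' U)ᶜ, (fun w : ℂ => w.re) ζ = push h A ζ := by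
  intro ζ hζ
  obtain ⟨z, hz, rfl⟩ := not_not.1 hζ
  rw [push_comp h A hz]
  exact hre z hz

/-- **`NI` on the `z`-side implies `BVL` in the picture** -/
theorem bvl_push (h : EndMap U (P '' U) P) (hP : Tra_937.Uni U P) (hx : X0 Uᶜ x0)
    (hX : TT Uᶜ X) (hre : ∀ z ∈ U, (P z).re = x0 z + X z)
    (hord : ∀ L : Cmp (P '' U)ᶜ, ∀ t, OrdConnected (Sqr_185.sec L.1 t)) (hf : TT Uᶜ f)
    (hni : NI Uᶜ X f) : BVL (P '' U)ᶜ (push h f) := by
  have hU : IsExteriorDomain Uᶜᶜ := by rw [compl_compl]; exact h.hU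
  have hV : IsExteriorDomain (P '' U)ᶜᶜ := by rw [compl_compl]; exact h.hV
  have sec : Vb_818.Sec (P '' U)ᶜ := fun z hz t => hord (Cmp.of hz) t
  have hw : TT (P '' U)ᶜ (push h f) := tt_push h hP hf
  have hrp := re_eq h (A := fun z => x0 z + X z) hre
  have hni' : NI (P '' U)ᶜ (fun w => w.re) (push h f) := by
    rw [ni_congr hrp fun ζ _ => rfl, ni_push h, ni_x0 hx]
    exact hni
  have hJre : JJ (P '' U)ᶜ (fun w => w.re) = JJ (P '' U)ᶜ (push h fun z => x0 z + X z) := by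
    unfold JJ
    rw [up_congr hrp, lo_congr hrp]
  refine bvl_ni hV sec hw.q.loc (tt_lb hw) hni'
    (𝒥 := (corE h '' JJ Uᶜ X) ∪ (corE h '' JJ Uᶜ f))
    (((jj_countable hU hX).image _).union ((jj_countable hU hf).image _)) ?_ ?_ ?_ ?_
  · rw [hJre]
    refine (jj_push h _).trans ?_
    rw [jj_x0 hx]
    exact subset_union_left
  · exact (jj_push h _).trans subset_union_right
  · intro R
    have hfin : ∫⁻ z in ball 0 R \ (P '' U)ᶜ, ENNReal.ofReal (en (push h f) z) ≠ ∞ := by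
      have h1 : IntegrableOn (en (push h f)) (ball 0 R \ (P '' U)ᶜ) :=
        hw.q.fin.mono_set fun z hz => hz.2
      have h2 := h1.2
      have h3 : ∫⁻ z in ball 0 R \ (P '' U)ᶜ, ENNReal.ofReal (en (push h f) z) =
          ∫⁻ z in ball 0 R \ (P '' U)ᶜ, ‖en (push h f) z‖ₑ := by
        refine lintegral_congr fun z => ?_
        rw [Real.enorm_eq_ofReal (en_nonneg _ _)]
      rw [h3]
      exact h2.ne
    have hre1 : ∀ z, en (fun w : ℂ => w.re) z ≤ 1 := by
      intro z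
      have h1 : LipschitzWith 1 (fun z : ℂ => z.re) := by
        refine LipschitzWith.of_dist_le_mul fun x y => ?_
        rw [Real.dist_eq, NNReal.coe_one, one_mul, dist_eq_norm, ← Complex.sub_re]
        exact Complex.abs_re_le_norm _
      refine (en_le_of_lipschitz h1 z).trans (by simp)
    have h1 : ∫⁻ z in ball 0 R \ (P '' U)ᶜ, ENNReal.ofReal |wdg (fun w => w.re) (push h f) z| ≤
        ∫⁻ z in ball 0 R \ (P '' U)ᶜ, (1 + ENNReal.ofReal (en (push h f) z)) := by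
      refine lintegral_mono fun z => ?_
      rw [← ENNReal.ofReal_one, ← ENNReal.ofReal_add zero_le_one (en_nonneg _ _)]
      refine ENNReal.ofReal_le_ofReal ((Bd_775.abs_wdg_le _ _ z).trans ?_)
      have := en_nonneg (push h f) z
      have := hre1 z
      linarith
    refine ne_top_of_le_ne_top ?_ h1
    rw [lintegral_add_left measurable_const]
    refine ENNReal.add_ne_top.2 ⟨?_, hfin⟩
    rw [setLIntegral_const, one_mul]
    exact ((measure_mono Set.sdiff_subset).trans_lt measure_ball_lt_top).ne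
  · have h1 := tt_sum hU hf hX
    have h2 : ∑' L : Cmp (P '' U)ᶜ, ENNReal.ofReal (osp (P '' U)ᶜ (push h f) (pt L)) *
        ENNReal.ofReal (osp (P '' U)ᶜ (fun w => w.re) (pt L)) =
        ∑' K : Cmp Uᶜ, ENNReal.ofReal (osp Uᶜ f (pt K)) * ENNReal.ofReal (osp Uᶜ X (pt K)) := by
      rw [← Equiv.tsum_eq (corE h)]
      refine tsum_congr fun K => ?_
      have e1 : osp (P '' U)ᶜ (fun w => w.re) (pt (corE h K)) = osp Uᶜ X (pt K) := by
        have : osp (P '' U)ᶜ (fun w => w.re) (pt (corE h K)) =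
            osp (P '' U)ᶜ (push h fun z => x0 z + X z) (pt (corE h K)) := by
          unfold osp
          rw [up_congr hrp, lo_congr hrp]
        rw [this, osp_push, osp_x0 hx]
      rw [e1, osp_push]
    rw [← h2] at h1
    refine ne_top_of_le_ne_top h1 ?_
    exact ENNReal.tsum_comp_le_tsum_of_injective Subtype.val_injective
      (fun L : Cmp (P '' U)ᶜ => ENNReal.ofReal (osp (P '' U)ᶜ (push h f) (pt L)) *
        ENNReal.ofReal (osp (P '' U)ᶜ (fun w => w.re) (pt L)))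

/-- functions which vanish near the compact set and are locally Lipschitz off it -/
theorem bvl_push_zero (h : EndMap U (P '' U) P) (hP : Tra_937.Uni U P) (hf : LocallyLipschitzOn U f)
    (h0 : ∀ z ∈ Uᶜ, ∀ᶠ w in 𝓝 z, f w = 0) : BVL (P '' U)ᶜ (push h f) := by
  classical
  set w : ℂ → ℝ := (P '' U).indicator (push h f) with hw
  have hVo : IsOpen (P '' U) := h.hV.1
  have hl : LocallyLipschitz w := by
    intro ζ
    by_cases hζ : ζ ∈ P '' U
    · obtain ⟨K, t, ht, hK⟩ := loc_push h hP hf hζ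
      rw [hVo.nhdsWithin_eq hζ] at ht
      refine ⟨K, t ∩ P '' U, inter_mem ht (hVo.mem_nhds hζ), ?_⟩
      intro x hx y hy
      rw [hw, indicator_of_mem hx.2, indicator_of_mem hy.2]
      exact hK hx.1 hy.1
    · have hζ' : ζ ∈ (P '' U)ᶜ := hζ
      set L : Cmp (P '' U)ᶜ := Cmp.of hζ' with hL
      set K : Cmp Uᶜ := (corE h).symm L with hKdef
      have hKL : corE h K = L := Equiv.apply_symm_apply _ _
      set O : Set ℂ := interior {z | f z = 0} with hO
      have hKO : K.1 ⊆ O := fun z hz => mem_interior_iff_mem_nhds.2 (h0 z (K.subset hz))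
      obtain ⟨O', h1, h2, h3⟩ := exists_nhd_push h K isOpen_interior hKO
      have hζO : ζ ∈ O' := h2 (by rw [hKL]; exact mem_connectedComponentIn hζ')
      refine ⟨0, O', h1.mem_nhds hζO, ?_⟩
      have hz : ∀ x ∈ O', w x = 0 := by
        intro x hx
        by_cases hxV : x ∈ P '' U
        · rw [hw, indicator_of_mem hxV]
          obtain ⟨z, hz, rfl⟩ := hxV
          rw [push_comp h f hz]
          have h4 : z ∈ {z | f z = 0} := interior_subset (h3 z hz hx)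
          exact h4
        · rw [hw, indicator_of_notMem hxV]
      intro x hx y hy
      rw [hz x hx, hz y hy, edist_self]
      exact bot_le
  refine (BVL.of_ll hl).congr fun ζ hζ => ?_
  rw [hw, indicator_of_mem (not_not.1 hζ)]

/-- pushed continuous functions are locally bounded -/
theorem bd_push (h : EndMap U (P '' U) P) (hf : LB f) : Bd (P '' U)ᶜ (push h f) := by
  intro R
  obtain ⟨ρ, hρ⟩ := h.symm.bdd R
  obtain ⟨C, hC⟩ := hf ρ
  exact ⟨C, fun ζ hζ hR => hC _ (hρ ζ (not_not.1 hζ) hR)⟩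

end push

/-! ### real form -/

/-- the bound as a real integrable function -/
theorem BVL.real {E : Set ℂ} {w : ℂ → ℝ} (h : BVL E w) (R : ℝ) :
    ∃ M : ℝ → ℝ, Integrable M ∧ (∀ t, 0 ≤ M t) ∧ ∀ᵐ t : ℝ, |t| ≤ R →
      eVariationOn (fun v : ℝ => w ⟨t, v⟩) {v : ℝ | (⟨t, v⟩ : ℂ) ∉ E ∧ |v| ≤ R} ≤
        ENNReal.ofReal (M t) := by
  classical
  obtain ⟨M, h1, h2, h3⟩ := h R
  have h4 : (∫⁻ t, (Icc (-R) R).indicator M t) ≠ ∞ := by
    rw [lintegral_indicator measurableSet_Icc]; exact h2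
  refine ⟨fun t => ((Icc (-R) R).indicator M t).toReal,
    integrable_toReal_of_lintegral_ne_top (h1.indicator measurableSet_Icc).aemeasurable h4,
    fun t => ENNReal.toReal_nonneg, ?_⟩
  filter_upwards [h3, ae_lt_top (h1.indicator measurableSet_Icc) h4] with t ht htt hR
  rw [ENNReal.ofReal_toReal htt.ne, indicator_of_mem (show t ∈ Icc (-R) R from abs_le.1 hR)]
  exact ht

/-! ### packages -/

section pk

variable {Y : Set ℂ} {x0 φ X f w : ℂ → ℝ} {a b : ℕ → ℂ → ℝ} {F P : ℂ → ℂ}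

/-- **test functions (`TT`, `NI Y X f`) have `BVL` in the picture of `x0 + X`** -/
theorem bvl_tt (h : SkA_8.Pk Y x0 b X P) (hf : TT Y f) (hni : NI Y X f)
    (hw : ∀ z ∈ Yᶜ, w (P z) = f z) : BVL (P '' Yᶜ)ᶜ w := by
  have e : Yᶜᶜ = Y := compl_compl Y
  have hE := Uw6_913.endMap h
  have h1 : BVL (P '' Yᶜ)ᶜ (push hE f) :=
    bvl_push hE (Yv_319.uni_of_pk h) (x0 := x0) (X := X) (by rw [e]; exact h.hx)
      (by rw [e]; exact h.tt) h.re (Uw6_913.picT h).2.ord (by rw [e]; exact hf)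
      (by rw [e]; exact hni)
  refine h1.congr fun ζ hζ => ?_
  obtain ⟨z, hz, rfl⟩ := not_not.1 hζ
  rw [push_comp hE f hz, hw z hz]

theorem bvl_x0' (h : SkA_8.Pk Y x0 b X P) (hw : ∀ z ∈ Yᶜ, w (P z) = x0 z) :
    BVL (P '' Yᶜ)ᶜ w := by
  have hE := Uw6_913.endMap h
  have hl : LocallyLipschitzOn Yᶜ x0 :=
    ((h.hx.sm.of_le (by exact_mod_cast le_top) : ContDiff ℝ 1 x0).locallyLipschitz).locallyLipschitzOn
  have h1 : BVL (P '' Yᶜ)ᶜ (push hE x0) := by
    refine bvl_push_zero hE (Yv_319.uni_of_pk h) hl fun z hz => ?_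
    have h2 : z ∉ tsupport x0 := fun h3 => hz (h.hx.zero h3)
    filter_upwards [(isClosed_tsupport x0).isOpen_compl.mem_nhds h2] with w hw
    exact image_eq_zero_of_notMem_tsupport hw
  refine h1.congr fun ζ hζ => ?_
  obtain ⟨z, hz, rfl⟩ := not_not.1 hζ
  rw [push_comp hE x0 hz, hw z hz]

/-- **`x0 + f`** -/
theorem bvl_x0 (h : SkA_8.Pk Y x0 b X P) (hf : TT Y f) (hni : NI Y X f)
    (hw : ∀ z ∈ Yᶜ, w (P z) = x0 z + f z) : BVL (P '' Yᶜ)ᶜ w := by
  have hE := Uw6_913.endMap h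
  have h1 : BVL (P '' Yᶜ)ᶜ (push hE x0) :=
    bvl_x0' h fun z hz => push_comp hE x0 hz
  have h2 : BVL (P '' Yᶜ)ᶜ (push hE f) :=
    bvl_tt h hf hni fun z hz => push_comp hE f hz
  refine (h1.add h2).congr fun ζ hζ => ?_
  obtain ⟨z, hz, rfl⟩ := not_not.1 hζ
  rw [push_comp hE x0 hz, push_comp hE f hz, hw z hz]

theorem bd_of (h : SkA_8.Pk Y x0 b X P) (hf : LB f) (hw : ∀ z ∈ Yᶜ, w (P z) = f z) :
    Bd (P '' Yᶜ)ᶜ w := by
  have hE := Uw6_913.endMap h
  intro R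
  obtain ⟨C, hC⟩ := bd_push hE hf R
  refine ⟨C, fun ζ hζ hR => ?_⟩
  have h1 := hC ζ hζ hR
  obtain ⟨z, hz, rfl⟩ := not_not.1 hζ
  rwa [push_comp hE f hz, ← hw z hz] at h1

theorem bd_x0 (h : SkA_8.Pk Y x0 b X P) (hf : TT Y f) (hw : ∀ z ∈ Yᶜ, w (P z) = x0 z + f z) :
    Bd (P '' Yᶜ)ᶜ w := bd_of h (lb_x0 h.hx hf) hw

theorem bd_tt (h : SkA_8.Pk Y x0 b X P) (hf : TT Y f) (hw : ∀ z ∈ Yᶜ, w (P z) = f z) :
    Bd (P '' Yᶜ)ᶜ w := bd_of h (tt_lb hf) hw

/-- local Lipschitz continuity in the picture -/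
theorem ll_of (h : SkA_8.Pk Y x0 b X P) (hf : LocallyLipschitzOn Yᶜ f)
    (hw : ∀ z ∈ Yᶜ, w (P z) = f z) : LocallyLipschitzOn (P '' Yᶜ) w := by
  have hE := Uw6_913.endMap h
  refine Tra_937.locLip_congr (u := push hE f) ?_ (loc_push hE (Yv_319.uni_of_pk h) hf)
  rintro _ ⟨z, hz, rfl⟩
  rw [push_comp hE f hz, hw z hz]

/-- **`x = Re F` along the vertical lines of the picture of the anchor `a i`** -/
theorem bvl_x (h : SkA_8.Pk Y x0 a φ F) {i : ℕ} (hi : SkA_8.Pk Y x0 b (a i) P)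
    (hw : ∀ z ∈ Yᶜ, w (P z) = (F z).re) : BVL (P '' Yᶜ)ᶜ w :=
  bvl_x0 hi h.tt (h.com i) fun z hz => (hw z hz).trans (h.re z hz)

/-- **`u = x0 + a i = Re P` along the vertical lines of the final picture** -/
theorem bvl_u (h : SkA_8.Pk Y x0 a φ F) {i : ℕ} (hi : SkA_8.Pk Y x0 b (a i) P)
    (hw : ∀ z ∈ Yᶜ, w (F z) = (P z).re) : BVL (F '' Yᶜ)ᶜ w :=
  bvl_x0 h (h.tta i) (Grd_782.NI_symm (h.com i)) fun z hz => (hw z hz).trans (hi.re z hz)

theorem bd_x (h : SkA_8.Pk Y x0 a φ F) {i : ℕ} (hi : SkA_8.Pk Y x0 b (a i) P)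
    (hw : ∀ z ∈ Yᶜ, w (P z) = (F z).re) : Bd (P '' Yᶜ)ᶜ w :=
  bd_x0 hi h.tt fun z hz => (hw z hz).trans (h.re z hz)

theorem bd_u (h : SkA_8.Pk Y x0 a φ F) {i : ℕ} (hi : SkA_8.Pk Y x0 b (a i) P)
    (hw : ∀ z ∈ Yᶜ, w (F z) = (P z).re) : Bd (F '' Yᶜ)ᶜ w :=
  bd_x0 h (h.tta i) fun z hz => (hw z hz).trans (hi.re z hz)

end pk

end

end Crest.Agent.R105.Bvl_31
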