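import Crest.Agent.R105.Bvl1_31
import Crest.Agent.R105.Yv6_319

/-!
# Row 105, S0138, node E13 (499 #11166 (2a)), helper253: `y` has bounded variation along the
vertical lines of the picture of an extremal anchor

* `var_line` : 818's `LineBd` bounds the variation on the part of the line off `E`
* `bvl_ly`   : 319's `LY` for a.e. line implies 31's `BVL`
* `bvl_y`    : `BVL` of `Im F ∘ P⁻¹` (319's `yP`)
-/

set_option autoImplicit false

open MeasureTheory Set Filter Topology Metric
open scoped ENNReal NNReal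

namespace Crest.Agent.R105.Bvy_253

open Tc_808 Bd_775 Sqr_185 Ends_897 Vb_818 Bvl_31
open Pct_185 (Sol)

noncomputable section

/-- the variation on a line from the line inequality -/
theorem var_line {E : Set ℂ} {g : ℂ → ℝ} {t : ℝ} {m : ℝ → ℝ≥0∞} {w : Cmp E → ℝ≥0∞}
    (hord : ∀ L : Cmp E, ∀ t, OrdConnected (sec L.1 t)) (h : LineBd E g t m w) (R : ℝ) :
    eVariationOn (fun v : ℝ => g ⟨t, v⟩) (ln E R t) ≤
      (∫⁻ v in Icc (-R) R ∩ {v | (⟨t, v⟩ : ℂ) ∉ E}, m v) + ∑' K, w K := by
  classical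
  refine iSup_le fun p => ?_
  obtain ⟨n, u, hu, hus⟩ := p
  simp only
  set N : Set ℝ := {v | (⟨t, v⟩ : ℂ) ∉ E} with hN
  -- one step
  have step : ∀ i, edist (g ⟨t, u (i + 1)⟩) (g ⟨t, u i⟩) ≤
      (∫⁻ v in Ioo (u i) (u (i + 1)) ∩ N, m v) +
        ∑' K : Cmp E, if ∃ y ∈ Ioo (u i) (u (i + 1)), (⟨t, y⟩ : ℂ) ∈ K.1 then w K else 0 := by
    intro i
    rcases (hu (Nat.le_succ i)).lt_or_eq with hlt | heq
    · have h1 := h.bd (u i) (u (i + 1)) hlt (hus i).1 (hus (i + 1)).1
      rw [edist_dist, Real.dist_eq]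
      refine h1.trans (add_le_add le_rfl (le_of_eq ?_))
      have h2 := tsum_subtype {K : Cmp E | ∃ y ∈ Ioo (u i) (u (i + 1)), (⟨t, y⟩ : ℂ) ∈ K.1} w
      refine h2.trans (tsum_congr fun K => ?_)
      simp only [indicator, mem_ofPred_eq]
    · have : g ⟨t, u (i + 1)⟩ = g ⟨t, u i⟩ := by rw [← heq]
      rw [this, edist_self]
      exact zero_le
  refine (Finset.sum_le_sum fun i _ => step i).trans ?_
  rw [Finset.sum_add_distrib]
  refine add_le_add ?_ ?_
  · -- the absolutely continuous part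
    set ν : Measure ℝ := (volume.restrict N).withDensity m with hν
    have hNE : MeasurableSet (Ioo (0:ℝ) 1) := measurableSet_Ioo
    have e : ∀ A : Set ℝ, MeasurableSet A → ∫⁻ v in A ∩ N, m v = ν A := by
      intro A hA
      rw [hν, withDensity_apply _ hA, Measure.restrict_restrict hA]
    have h1 : ∑ i ∈ Finset.range n, ∫⁻ v in Ioo (u i) (u (i + 1)) ∩ N, m v =
        ν (⋃ i ∈ Finset.range n, Ioo (u i) (u (i + 1))) := by
      have hd : ∀ i j, i ≠ j → Disjoint (Ioo (u i) (u (i + 1))) (Ioo (u j) (u (j + 1))) :=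
        fun i j hij => hu.pairwise_disjoint_on_Ioo_succ hij
      rw [measure_biUnion_finset (fun i _ j _ hij => hd i j hij) (fun i _ => measurableSet_Ioo)]
      exact Finset.sum_congr rfl fun i _ => e _ measurableSet_Ioo
    rw [h1, e _ measurableSet_Icc]
    refine measure_mono (iUnion₂_subset fun i _ v hv => ?_)
    have h2 := abs_le.1 (hus i).2
    have h3 := abs_le.1 (hus (i + 1)).2
    exact ⟨h2.1.trans hv.1.le, hv.2.le.trans h3.2⟩
  · rw [← Summable.tsum_finsetSum (fun i _ => ENNReal.summable)]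
    refine ENNReal.tsum_le_tsum fun K => ?_
    -- at most one step meets `K`
    rw [← Finset.sum_filter, Finset.sum_const, nsmul_eq_mul]
    have hcard : (Finset.filter (fun i => ∃ y ∈ Ioo (u i) (u (i + 1)), (⟨t, y⟩ : ℂ) ∈ K.1)
        (Finset.range n)).card ≤ 1 := by
      rw [Finset.card_le_one]
      have key : ∀ i j, i < j → (∃ y ∈ Ioo (u i) (u (i + 1)), (⟨t, y⟩ : ℂ) ∈ K.1) →
          (∃ y ∈ Ioo (u j) (u (j + 1)), (⟨t, y⟩ : ℂ) ∈ K.1) → False := by
        rintro i j hij ⟨y, hy, hyK⟩ ⟨y', hy', hyK'⟩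
        have h1 : u (i + 1) ≤ u j := hu hij
        have h2 : u (i + 1) ∈ sec K.1 t := (hord K t).out hyK hyK' ⟨hy.2.le, h1.trans hy'.1.le⟩
        exact (hus (i + 1)).1 (K.subset h2)
      intro i hi j hj
      rw [Finset.mem_filter] at hi hj
      rcases lt_trichotomy i j with hij | hij | hij
      · exact (key i j hij hi.2 hj.2).elim
      · exact hij
      · exact (key j i hij hj.2 hi.2).elim
    calc _ ≤ (1 : ℝ≥0∞) * w K := by
          gcongr
          exact_mod_cast hcard
      _ = w K := one_mul _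

/-- **`BVL` from the line inequality of 319** -/
theorem bvl_ly {E : Set ℂ} {y : ℂ → ℝ} {s : Cmp E → ℝ} (hE : IsCompact E)
    (hord : ∀ L : Cmp E, ∀ t, OrdConnected (sec L.1 t))
    (hsum : Summable fun L : Cmp E => wd L.1 ^ 2) (hs0 : ∀ L, 0 ≤ s L)
    (hs : Summable fun L => s L ^ 2) (hy : Yv_319.YD E y) (hL : ∀ᵐ t : ℝ, LY E y s t) :
    BVL E y := by
  classical
  have hEm : MeasurableSet E := hE.isClosed.measurableSet
  have hcs : Countable (Sol E) := Pct_185.countable_sol hsum
  refine BVL.mk' fun R => ?_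
  set S : ℂ → ℝ := (Eᶜ ∩ closedBall (0:ℂ) (2 * |R|)).indicator (gy y) with hS
  have hSm : Measurable S := (Bd_775.measurable_gy y).indicator
    (hEm.compl.inter isClosed_closedBall.measurableSet)
  have hSi : Integrable S := by
    rw [hS, integrable_indicator_iff (hEm.compl.inter isClosed_closedBall.measurableSet)]
    exact Yv_319.integrableOn_gy' hy _
  have hmk : Measurable fun p : ℝ × ℝ => (⟨p.1, p.2⟩ : ℂ) :=
    Complex.measurableEquivRealProd.symm.measurable
  have hSm2 : Measurable fun p : ℝ × ℝ => ‖S ⟨p.1, p.2⟩‖ₑ := (hSm.comp hmk).enorm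
  refine ⟨fun t => (∫⁻ v : ℝ, ‖S ⟨t, v⟩‖ₑ) + ∑' L : Sol E, wl E s t L.1, ?_, ?_, ?_⟩
  · refine (hSm2.lintegral_prod_right').add (Measurable.tsum fun L => ?_)
    unfold wl
    exact Measurable.ite (by
      by_cases h : 0 < wd L.1.1
      · simp only [h, true_and]; exact measurableSet_Icc
      · simp only [h, false_and]; exact MeasurableSet.const False) measurable_const measurable_const
  · have h1 : ∫⁻ t : ℝ, ∫⁻ v : ℝ, ‖S ⟨t, v⟩‖ₑ ≠ ∞ := by
      have mp := Complex.volume_preserving_equiv_real_prod.symm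
      have h2 : Integrable (fun p : ℝ × ℝ => S ⟨p.1, p.2⟩) ((volume : Measure ℝ).prod volume) :=
        mp.integrable_comp_of_integrable hSi
      have h3 := h2.2
      rw [hasFiniteIntegral_iff_enorm, lintegral_prod _ hSm2.aemeasurable] at h3
      exact h3.ne
    have h2 : ∫⁻ t : ℝ, ∑' L : Sol E, wl E s t L.1 ≠ ∞ := by
      have hm : ∀ L : Sol E, Measurable fun t => wl E s t L.1 := by
        intro L
        unfold wl
        exact Measurable.ite (by
          by_cases h : 0 < wd L.1.1
          · simp only [h, true_and]; exact measurableSet_Icc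
          · simp only [h, false_and]; exact MeasurableSet.const False) measurable_const
            measurable_const
      rw [lintegral_tsum fun L => (hm L).aemeasurable]
      have h3 : ∀ L : Sol E, ∫⁻ t : ℝ, wl E s t L.1 ≤ ENNReal.ofReal (s L.1 * wd L.1.1) := by
        intro L
        have h4 : ∀ t, wl E s t L.1 =
            (Icc (lo L.1.1) (hi L.1.1)).indicator (fun _ => ENNReal.ofReal (s L.1)) t := by
          intro t
          unfold wl
          by_cases h : t ∈ Icc (lo L.1.1) (hi L.1.1)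
          · rw [indicator_of_mem h, if_pos ⟨L.2, h⟩]
          · rw [indicator_of_notMem h, if_neg fun hh => h hh.2]
        simp_rw [h4]
        rw [lintegral_indicator measurableSet_Icc, setLIntegral_const, Real.volume_Icc,
          ← ENNReal.ofReal_mul (hs0 _)]
        exact le_rfl
      refine ne_top_of_le_ne_top ?_ (ENNReal.tsum_le_tsum h3)
      have h5 : Summable fun L : Sol E => s L.1 * wd L.1.1 := by
        have h6 : Summable fun L : Cmp E => s L ^ 2 + wd L.1 ^ 2 := hs.add hsum
        refine Summable.of_nonneg_of_le (fun L => mul_nonneg (hs0 _) L.2.le) (fun L => ?_)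
          (h6.comp_injective (i := fun L : Sol E => L.1) Subtype.val_injective)
        simp only [Function.comp]
        nlinarith [sq_nonneg (s L.1 - wd L.1.1), sq_nonneg (s L.1), sq_nonneg (wd L.1.1)]
      rw [← ENNReal.ofReal_tsum_of_nonneg (fun L => mul_nonneg (hs0 _) L.2.le) h5]
      exact ENNReal.ofReal_ne_top
    refine ne_top_of_le_ne_top ?_ (lintegral_mono' Measure.restrict_le_self le_rfl)
    rw [lintegral_add_left hSm2.lintegral_prod_right']
    exact ENNReal.add_ne_top.2 ⟨h1, h2⟩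
  · filter_upwards [hL] with t ht hR
    have h1 := var_line hord (lineBd_of_ly hE hs0 ht) R
    refine h1.trans (add_le_add ?_ ?_)
    · have hAm : MeasurableSet (Icc (-R) R ∩ {v | (⟨t, v⟩ : ℂ) ∉ E}) :=
        measurableSet_Icc.inter ((measurable_mk t) hEm.compl)
      rw [← lintegral_indicator hAm]
      refine lintegral_mono fun v => ?_
      by_cases hv : v ∈ Icc (-R) R ∩ {v | (⟨t, v⟩ : ℂ) ∉ E}
      · rw [indicator_of_mem hv]
        unfold ml
        have h2 : (⟨t, v⟩ : ℂ) ∈ closedBall (0:ℂ) (2 * |R|) := by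
          rw [mem_closedBall_zero_iff]
          refine (Complex.norm_le_abs_re_add_abs_im _).trans ?_
          have h4 : |t| + |v| ≤ R + R := add_le_add hR (abs_le.2 hv.1)
          have h5 := le_abs_self R
          simp only
          linarith
        rw [indicator_of_mem (show (⟨t, v⟩ : ℂ) ∈ Eᶜ from hv.2), hS,
          indicator_of_mem (show (⟨t, v⟩ : ℂ) ∈ Eᶜ ∩ closedBall 0 (2 * |R|) from ⟨hv.2, h2⟩)]
      · rw [indicator_of_notMem hv]; exact zero_le
    · refine le_of_eq (tsum_subtype_eq_of_support_subset (s := {K : Cmp E | 0 < wd K.1}) ?_).symm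
      intro K hK
      by_contra hcon
      exact hK (if_neg fun hh => hcon hh.1)

open IfB_641 in
/-- **`Im F` has bounded variation along the lines of the picture of an extremal anchor** -/
theorem bvl_y {Y : Set ℂ} {x0 φ : ℂ → ℝ} {a b : ℕ → ℂ → ℝ} {F P : ℂ → ℂ}
    (h : SkA_8.Pk Y x0 a φ F) {i : ℕ} (hi : SkA_8.Pk Y x0 b (a i) P) :
    BVL (P '' Yᶜ)ᶜ (Yv_319.yP (Uw6_913.endMap hi) F) := by
  have e : Yᶜᶜ = Y := compl_compl Y
  have hPic := (Uw6_913.picT hi).2
  have hφ : TT Yᶜᶜ φ := by rw [e]; exact h.tt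
  exact bvl_ly hPic.cpt hPic.ord hPic.sum (Yv_319.sP_nonneg _) (Yv_319.sP_summable _ hφ)
    (Yv_319.yd_yP (Uw6_913.endMap hi) (Yv_319.uni_of_pk hi) h.hol (Uw6_913.endMap h).bdd
      (Yv_319.energy_of_pk h)) (Yv_319.line_im h hi)

end

end Crest.Agent.R105.Bvy_253
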