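import Crest.Agent.R105.Bvl3_31
import Crest.Agent.R105.Bvy1_253
import Crest.Agent.R105.E13_499

/-!
# Row 105, S0138, node E13 (helper31): the literals `BVN`, `BVY` of helper499.
-/

set_option autoImplicit false

open MeasureTheory Set Filter Topology Metric
open scoped ENNReal NNReal

namespace Crest.Agent.R105.Bvl_31

open Bd_775 Tc_808 Ni_459 Nip_31 Ta_937 Ends_897 Crest.AnalysisR
open IfB_641 (X0)

/-- the two forms of `BVL` -/
theorem BVL.to499 {E : Set ℂ} {w : ℂ → ℝ} (h : BVL E w) : E13_499.BVL E w := by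
  intro R
  obtain ⟨M, h1, h2, h3⟩ := h R
  refine ⟨M, h1, h2, ?_⟩
  filter_upwards [h3] with t ht _
  exact ht

theorem bvn : E13_499.BVN := by
  intro Y x0 φ f a F h hf hni
  exact ⟨(bvl_tt h hf hni fun z hz => push_comp _ f hz).to499,
    (bvl_x0 h hf hni fun z hz => push_comp _ _ hz).to499⟩

theorem bvy : E13_499.BVY := by
  intro Y x0 φ a b F P i h hi
  refine BVL.to499 ((Bvy_253.bvl_y h hi).congr fun ζ hζ => ?_)
  obtain ⟨z, hz, rfl⟩ := not_not.1 hζ
  rw [Yv_319.yP_apply _ hz]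
  exact (push_comp (Uw6_913.endMap hi) (fun z => (F z).im) hz).symm

end Crest.Agent.R105.Bvl_31
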