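import Crest.Agent.R105.Bvl4_31

/-!
# Row 105, S0138, node E13 (helper31): algebra in the letters of helper499.

* `BVL.of499` : `E13_499.BVL` with a non measurable bound implies the measurable form (the variation
  over the line `t` is lower semicontinuous in `t`);
* algebra of `E13_499.BVL`, `Bd`, `E13_499.EndsOf`.
-/

set_option autoImplicit false

open MeasureTheory Set Filter Topology Metric
open scoped ENNReal NNReal

namespace Crest.Agent.R105.Bvl_31

open Tc_808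
open E13_499 (TopF BotF EndsOf)

variable {E : Set ℂ} {w w' : ℂ → ℝ}

theorem cont_mk (v : ℝ) : Continuous fun t : ℝ => (⟨t, v⟩ : ℂ) := by
  have : (fun t : ℝ => (⟨t, v⟩ : ℂ)) = fun t : ℝ => (t : ℂ) + v * Complex.I := by
    ext t; apply Complex.ext <;> simp
  rw [this]; fun_prop

/-- **the variation along the line is lower semicontinuous** -/
theorem lsc_var (hE : IsClosed E) (hw : ContinuousOn w Eᶜ) (R : ℝ) :
    LowerSemicontinuous fun t : ℝ => eVariationOn (fun v : ℝ => w ⟨t, v⟩) (ln E R t) := by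
  intro t0 c hc
  obtain ⟨⟨n, u, hu, hus⟩, hc'⟩ := lt_iSup_iff.1 hc
  simp only at hc'
  have hoff : ∀ᶠ t in 𝓝 t0, ∀ i ∈ Finset.range (n + 1), (⟨t, u i⟩ : ℂ) ∉ E := by
    rw [Filter.eventually_all_finset]
    intro i _
    exact (cont_mk (u i)).continuousAt.eventually (hE.isOpen_compl.mem_nhds (hus i).1)
  have hcont : ∀ i, ContinuousAt (fun t : ℝ => w ⟨t, u i⟩) t0 := by
    intro i
    have h1 : ContinuousAt w ⟨t0, u i⟩ := hw.continuousAt (hE.isOpen_compl.mem_nhds (hus i).1)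
    exact ContinuousAt.comp (f := fun t : ℝ => (⟨t, u i⟩ : ℂ)) h1 (cont_mk (u i)).continuousAt
  have hsum : ContinuousAt (fun t : ℝ => ∑ i ∈ Finset.range n,
      edist (w ⟨t, u (i + 1)⟩) (w ⟨t, u i⟩)) t0 := by
    unfold ContinuousAt
    exact tendsto_finsetSum _ fun i _ => (hcont (i + 1)).edist (hcont i)
  filter_upwards [hoff, hsum.eventually (lt_mem_nhds hc')] with t ht1 ht2
  refine lt_of_lt_of_le ht2 ?_
  have hmin : ∀ i, (fun i => u (min i n)) i ∈ ln E R t := fun i =>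
    ⟨ht1 _ (Finset.mem_range.2 (Nat.lt_succ_of_le (min_le_right _ _))), (hus _).2⟩
  have hmono : Monotone fun i => u (min i n) := fun i j hij => hu (min_le_min_right n hij)
  refine le_trans (le_of_eq ?_) (le_iSup (fun p : ℕ × {u : ℕ → ℝ // Monotone u ∧ ∀ i, u i ∈ ln E R t} =>
    ∑ i ∈ Finset.range p.1, edist (w ⟨t, p.2.1 (i + 1)⟩) (w ⟨t, p.2.1 i⟩))
    (n, ⟨fun i => u (min i n), hmono, hmin⟩))
  refine Finset.sum_congr rfl fun i hi => ?_
  have hi' := Finset.mem_range.1 hi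
  simp only
  rw [min_eq_left (Nat.succ_le_of_lt hi'), min_eq_left hi'.le]

/-- **the weak form implies the measurable form** -/
theorem BVL.of499 (hE : IsClosed E) (hw : ContinuousOn w Eᶜ) (h : E13_499.BVL E w) : BVL E w := by
  refine BVL.mk' fun R => ?_
  obtain ⟨M, -, h2, h3⟩ := h R
  refine ⟨fun t => eVariationOn (fun v : ℝ => w ⟨t, v⟩) (ln E R t), (lsc_var hE hw R).measurable,
    ?_, Eventually.of_forall fun t _ => le_rfl⟩
  refine ne_top_of_le_ne_top h2 (setLIntegral_mono_ae' measurableSet_Icc ?_)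
  filter_upwards [h3] with t ht hR
  exact ht hR

/-- the two forms of `BVL` (the literal of helper499 has `Measurable M` since 10:06Z) -/
theorem BVL.of499' (h : E13_499.BVL E w) : BVL E w := BVL.mk' fun R => by
  obtain ⟨M, h1, h2, h3⟩ := h R
  refine ⟨M, h1, h2, ?_⟩
  filter_upwards [h3] with t ht hR
  exact ht (abs_le.1 hR)

/-! ### `Bd` -/

theorem Bd.add {f g : ℂ → ℝ} (hf : Bd E f) (hg : Bd E g) : Bd E fun z => f z + g z := by
  intro R
  obtain ⟨C, hC⟩ := hf R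
  obtain ⟨D, hD⟩ := hg R
  exact ⟨C + D, fun z hz h => (abs_add_le _ _).trans (add_le_add (hC z hz h) (hD z hz h))⟩

theorem Bd.const (c : ℝ) : Bd E fun _ => c := Bd.of_bdd (C := |c|) fun _ => le_rfl

theorem Bd.comp {f : ℂ → ℝ} (hf : Bd E f) {G : ℝ → ℝ} (hG : Continuous G) :
    Bd E fun z => G (f z) := by
  intro R
  obtain ⟨C, hC⟩ := hf R
  obtain ⟨D, hD⟩ := (isCompact_Icc (a := -C) (b := C)).exists_bound_of_continuousOn hG.continuousOn
  exact ⟨D, fun z hz h => hD _ (abs_le.1 (hC z hz h))⟩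

theorem Bd.congr {f g : ℂ → ℝ} (hf : Bd E f) (h : ∀ z ∉ E, f z = g z) : Bd E g := by
  intro R
  obtain ⟨C, hC⟩ := hf R
  exact ⟨C, fun z hz hR => h z hz ▸ hC z hz hR⟩

theorem Bd.of499 (h : ∀ R : ℝ, ∃ M : ℝ, ∀ z, z ∉ E → ‖z‖ ≤ R → |w z| ≤ M) : Bd E w := h

/-! ### smooth outer functions -/

/-- locally Lipschitz functions of one variable -/
theorem lip_of_c1 {G : ℝ → ℝ} (hG : ContDiff ℝ 1 G) (C : ℝ) :
    ∃ L : ℝ, 0 ≤ L ∧ ∀ a b : ℝ, |a| ≤ C → |b| ≤ C → |G a - G b| ≤ L * |a - b| := by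
  obtain ⟨L, hL⟩ := (hG.locallyLipschitz.locallyLipschitzOn
    (s := Icc (-C) C)).exists_lipschitzOnWith_of_compact isCompact_Icc
  refine ⟨L, L.coe_nonneg, fun a b ha hb => ?_⟩
  have := hL.dist_le_mul a (abs_le.1 ha) b (abs_le.1 hb)
  rwa [Real.dist_eq, Real.dist_eq] at this

theorem BVL.comp_c1 {f : ℂ → ℝ} (hf : BVL E f) (bf : Bd E f) {G : ℝ → ℝ} (hG : ContDiff ℝ 1 G) :
    BVL E fun z => G (f z) := hf.comp bf (lip_of_c1 hG)

/-! ### `EndsOf` -/

variable {L : Cmp E} {wT wB wT' wB' : ℝ → ℝ}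

theorem ends_congr (h : EndsOf E L w wT wB) (he : ∀ z ∉ E, w z = w' z) : EndsOf E L w' wT wB := by
  filter_upwards [h] with t ht hI
  obtain ⟨h1, h2⟩ := ht hI
  constructor
  · refine h1.congr' ?_
    filter_upwards [self_mem_nhdsWithin] with v hv
    exact he _ hv.1
  · refine h2.congr' ?_
    filter_upwards [self_mem_nhdsWithin] with v hv
    exact he _ hv.1

theorem ends_congr' (h : EndsOf E L w wT wB)
    (hT : ∀ t ∈ Ioo (Sqr_185.lo L.1) (Sqr_185.hi L.1), wT t = wT' t)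
    (hB : ∀ t ∈ Ioo (Sqr_185.lo L.1) (Sqr_185.hi L.1), wB t = wB' t) : EndsOf E L w wT' wB' := by
  filter_upwards [h] with t ht hI
  rw [← hT t hI, ← hB t hI]
  exact ht hI

theorem ends_mul (h : EndsOf E L w wT wB) (h' : EndsOf E L w' wT' wB') :
    EndsOf E L (fun z => w z * w' z) (fun t => wT t * wT' t) (fun t => wB t * wB' t) := by
  filter_upwards [h, h'] with t h1 h2 hI
  exact ⟨(h1 hI).1.mul (h2 hI).1, (h1 hI).2.mul (h2 hI).2⟩

theorem ends_add (h : EndsOf E L w wT wB) (h' : EndsOf E L w' wT' wB') :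
    EndsOf E L (fun z => w z + w' z) (fun t => wT t + wT' t) (fun t => wB t + wB' t) := by
  filter_upwards [h, h'] with t h1 h2 hI
  exact ⟨(h1 hI).1.add (h2 hI).1, (h1 hI).2.add (h2 hI).2⟩

theorem ends_const (c : ℝ) : EndsOf E L (fun _ => c) (fun _ => c) (fun _ => c) :=
  Eventually.of_forall fun _ _ => ⟨tendsto_const_nhds, tendsto_const_nhds⟩

theorem ends_comp (h : EndsOf E L w wT wB) {G : ℝ → ℝ} (hG : Continuous G) :
    EndsOf E L (fun z => G (w z)) (fun t => G (wT t)) (fun t => G (wB t)) := by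
  filter_upwards [h] with t h1 hI
  exact ⟨(hG.tendsto _).comp (h1 hI).1, (hG.tendsto _).comp (h1 hI).2⟩

theorem ends_re (G : ℝ → ℝ) : EndsOf E L (fun z => G z.re) G G :=
  Eventually.of_forall fun _ _ => ⟨tendsto_const_nhds, tendsto_const_nhds⟩

/-- the heights themselves -/
theorem ends_im : EndsOf E L (fun z => z.im) (fun t => sSup (Sqr_185.sec L.1 t))
    (fun t => sInf (Sqr_185.sec L.1 t)) :=
  Eventually.of_forall fun _ _ => ⟨tendsto_nhdsWithin_of_tendsto_nhds tendsto_id,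
    tendsto_nhdsWithin_of_tendsto_nhds tendsto_id⟩

/-! ### the algebra of `E13_499.BVL` -/

theorem mul499 {f g : ℂ → ℝ} (hE : IsClosed E) (cf : ContinuousOn f Eᶜ) (cg : ContinuousOn g Eᶜ)
    (hf : E13_499.BVL E f) (hg : E13_499.BVL E g) (bf : Bd E f) (bg : Bd E g) :
    E13_499.BVL E fun z => f z * g z :=
  ((BVL.of499 hE cf hf).mul (BVL.of499 hE cg hg) bf bg).to499

theorem add499 {f g : ℂ → ℝ} (hE : IsClosed E) (cf : ContinuousOn f Eᶜ) (cg : ContinuousOn g Eᶜ)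
    (hf : E13_499.BVL E f) (hg : E13_499.BVL E g) : E13_499.BVL E fun z => f z + g z :=
  ((BVL.of499 hE cf hf).add (BVL.of499 hE cg hg)).to499

theorem comp499 {f : ℂ → ℝ} (hE : IsClosed E) (cf : ContinuousOn f Eᶜ) (hf : E13_499.BVL E f)
    (bf : Bd E f) {G : ℝ → ℝ} (hG : ContDiff ℝ 1 G) : E13_499.BVL E fun z => G (f z) :=
  ((BVL.of499 hE cf hf).comp_c1 bf hG).to499

end Crest.Agent.R105.Bvl_31
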