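import Mathlib

/-!
# Row 105, S0138, LEMMA Y (4b) of helper701 #10366, part 1 (helper473): grid regions, box kernel

* `rp w s` : the ramp `(s + w) / 2w` clamped to `[0,1]`, `dp w s` : its derivative off `|s| = w`
* `tz w l r s = rp w (s - l) - rp w (s - r)` : `1_[l,r] * box`
* mesh `d`, cell `(i,j) = [d i, d (i+1)] × [d j, d (j+1)]`, region `D : Finset (ℤ × ℤ)`
* `chi d D w` : `1_D * box kernel of half width w`
-/

set_option autoImplicit false

open MeasureTheory Set Filter Topology Metric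
open scoped NNReal ENNReal

namespace Crest.Agent.R105.Bxk_473

noncomputable section

/-! ### the ramp -/

/-- the ramp `0` for `s ≤ -w`, `1` for `w ≤ s` -/
def rp (w s : ℝ) : ℝ := max 0 (min 1 ((s + w) / (2 * w)))

/-- its derivative -/
def dp (w s : ℝ) : ℝ := if |s| < w then 1 / (2 * w) else 0

/-- `1_[l,r] * box` -/
def tz (w l r s : ℝ) : ℝ := rp w (s - l) - rp w (s - r)

variable {w l r s : ℝ}

lemma rp_nonneg (w s : ℝ) : 0 ≤ rp w s := le_max_left _ _

lemma rp_le_one (w s : ℝ) : rp w s ≤ 1 := max_le zero_le_one (min_le_left _ _)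

lemma rp_eq_zero (hw : 0 < w) (h : s ≤ -w) : rp w s = 0 := by
  unfold rp
  refine max_eq_left (min_le_of_right_le ?_)
  exact div_nonpos_of_nonpos_of_nonneg (by linarith) (by linarith)

lemma rp_eq_one (hw : 0 < w) (h : w ≤ s) : rp w s = 1 := by
  unfold rp
  rw [min_eq_left, max_eq_right zero_le_one]
  rw [le_div_iff₀ (by linarith)]; linarith

lemma rp_eq (hw : 0 < w) (h1 : -w ≤ s) (h2 : s ≤ w) : rp w s = (s + w) / (2 * w) := by
  unfold rp
  rw [min_eq_right, max_eq_right]
  · exact div_nonneg (by linarith) (by linarith)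
  · rw [div_le_iff₀ (by linarith)]; linarith

lemma rp_mono (hw : 0 < w) : Monotone (rp w) := by
  intro s s' h
  unfold rp
  refine max_le_max le_rfl (min_le_min le_rfl ?_)
  exact div_le_div_of_nonneg_right (by linarith) (by linarith)

lemma lipschitz_rp (hw : 0 < w) : LipschitzWith (Real.toNNReal (1 / (2 * w))) (rp w) := by
  have h1 : LipschitzWith (Real.toNNReal (1 / (2 * w))) (fun s : ℝ => (s + w) / (2 * w)) := by
    refine LipschitzWith.of_dist_le_mul fun x y => ?_
    rw [Real.coe_toNNReal _ (by positivity), Real.dist_eq, Real.dist_eq, ← sub_div, abs_div,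
      abs_of_pos (show (0 : ℝ) < 2 * w by linarith), show x + w - (y + w) = x - y by ring]
    rw [div_eq_mul_inv, one_div, mul_comm]
  exact (h1.const_min 1).const_max 0

lemma continuous_rp (hw : 0 < w) : Continuous (rp w) := (lipschitz_rp hw).continuous

lemma dp_nonneg (hw : 0 < w) (s : ℝ) : 0 ≤ dp w s := by unfold dp; split_ifs <;> positivity

lemma measurable_dp (w : ℝ) : Measurable (dp w) :=
  Measurable.ite (measurableSet_lt measurable_norm measurable_const) measurable_const
    measurable_const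

lemma hasDerivAt_rp (hw : 0 < w) (h : |s| ≠ w) : HasDerivAt (rp w) (dp w s) s := by
  rcases lt_or_gt_of_ne h with h | h
  · rw [dp, if_pos h]
    have h1 : HasDerivAt (fun s : ℝ => (s + w) / (2 * w)) (1 / (2 * w)) s :=
      ((hasDerivAt_id s).add_const w).div_const (2 * w)
    refine h1.congr_of_eventuallyEq ?_
    have : ∀ᶠ x : ℝ in 𝓝 s, |x| < w := (continuous_abs.tendsto s).eventually (gt_mem_nhds h)
    filter_upwards [this] with x hx
    rw [abs_lt] at hx
    exact rp_eq hw hx.1.le hx.2.le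
  · rw [dp, if_neg (not_lt.2 h.le)]
    rcases lt_abs.1 h with h | h
    · refine (hasDerivAt_const s (1 : ℝ)).congr_of_eventuallyEq ?_
      filter_upwards [lt_mem_nhds h] with x hx
      exact rp_eq_one hw hx.le
    · refine (hasDerivAt_const s (0 : ℝ)).congr_of_eventuallyEq ?_
      filter_upwards [gt_mem_nhds (show s < -w by linarith)] with x hx
      exact rp_eq_zero hw hx.le

lemma integral_dp (hw : 0 < w) (a : ℝ) : ∫ x, dp w (x - a) = 1 := by
  have h1 : (fun x => dp w (x - a)) = (Ioo (a - w) (a + w)).indicator fun _ => 1 / (2 * w) := by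
    funext x
    unfold dp
    by_cases hx : |x - a| < w
    · rw [if_pos hx, indicator_of_mem]
      rw [abs_lt] at hx; exact ⟨by linarith, by linarith⟩
    · rw [if_neg hx, indicator_of_notMem]
      intro hx'
      apply hx
      rw [abs_lt]; exact ⟨by linarith [hx'.1], by linarith [hx'.2]⟩
  rw [h1, integral_indicator measurableSet_Ioo, setIntegral_const, measureReal_def,
    Real.volume_Ioo, ENNReal.toReal_ofReal (by linarith), smul_eq_mul]
  field_simp
  ring

lemma integrable_dp (w a : ℝ) : Integrable fun x => dp w (x - a) := by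
  have h1 : (fun x => dp w (x - a)) = (Ioo (a - w) (a + w)).indicator fun _ => 1 / (2 * w) := by
    funext x
    unfold dp
    by_cases hx : |x - a| < w
    · rw [if_pos hx, indicator_of_mem]
      rw [abs_lt] at hx; exact ⟨by linarith, by linarith⟩
    · rw [if_neg hx, indicator_of_notMem]
      intro hx'
      apply hx
      rw [abs_lt]; exact ⟨by linarith [hx'.1], by linarith [hx'.2]⟩
  rw [h1]
  exact (integrableOn_const (by simp)).integrable_indicator measurableSet_Ioo

/-! ### trapezoids -/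

lemma tz_nonneg (hw : 0 < w) (h : l ≤ r) (s : ℝ) : 0 ≤ tz w l r s :=
  sub_nonneg.2 (rp_mono hw (by linarith))

lemma tz_le_one (w l r s : ℝ) : tz w l r s ≤ 1 := by
  unfold tz; linarith [rp_nonneg w (s - r), rp_le_one w (s - l)]

lemma abs_tz_le (hw : 0 < w) (h : l ≤ r) (s : ℝ) : |tz w l r s| ≤ 1 := by
  rw [abs_of_nonneg (tz_nonneg hw h s)]; exact tz_le_one _ _ _ _

lemma tz_eq_zero_left (hw : 0 < w) (h : l ≤ r) (hs : s ≤ l - w) : tz w l r s = 0 := by
  unfold tz; rw [rp_eq_zero hw (by linarith), rp_eq_zero hw (by linarith), sub_zero]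

lemma tz_eq_zero_right (hw : 0 < w) (h : l ≤ r) (hs : r + w ≤ s) : tz w l r s = 0 := by
  unfold tz; rw [rp_eq_one hw (by linarith), rp_eq_one hw (by linarith), sub_self]

lemma tz_eq_one (hw : 0 < w) (h1 : l + w ≤ s) (h2 : s ≤ r - w) : tz w l r s = 1 := by
  unfold tz; rw [rp_eq_one hw (by linarith), rp_eq_zero hw (by linarith), sub_zero]

lemma mem_of_tz_ne_zero (hw : 0 < w) (h : l ≤ r) (hs : tz w l r s ≠ 0) :
    s ∈ Ioo (l - w) (r + w) := by
  constructor
  · by_contra hc; exact hs (tz_eq_zero_left hw h (not_lt.1 hc))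
  · by_contra hc; exact hs (tz_eq_zero_right hw h (not_lt.1 hc))

lemma continuous_tz (hw : 0 < w) (l r : ℝ) : Continuous (tz w l r) :=
  ((continuous_rp hw).comp (continuous_id.sub continuous_const)).sub
    ((continuous_rp hw).comp (continuous_id.sub continuous_const))

/-- the trapezoid tends to the indicator -/
lemma tz_tendsto (h1 : s ≠ l) (h2 : s ≠ r) (h : l ≤ r) :
    ∀ᶠ w in 𝓝[>] (0 : ℝ), tz w l r s = (Ioc l r).indicator (fun _ => 1) s := by
  have e1 : ∀ᶠ w in 𝓝[>] (0 : ℝ), 0 < w := self_mem_nhdsWithin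
  have e2 : ∀ c : ℝ, 0 < c → ∀ᶠ w in 𝓝[>] (0 : ℝ), w < c := fun c hc =>
    mem_nhdsWithin_of_mem_nhds (gt_mem_nhds hc)
  rcases lt_or_gt_of_ne h1 with h1 | h1
  · filter_upwards [e1, e2 (l - s) (by linarith)] with w hw hw'
    rw [tz_eq_zero_left hw h (by linarith), indicator_of_notMem]
    exact fun hc => absurd hc.1 (by linarith)
  · rcases lt_or_gt_of_ne h2 with h2 | h2
    · filter_upwards [e1, e2 (s - l) (by linarith), e2 (r - s) (by linarith)] with w hw h3 h4
      rw [tz_eq_one hw (by linarith) (by linarith), indicator_of_mem (show s ∈ Ioc l r from ⟨h1, h2.le⟩)]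
    · filter_upwards [e1, e2 (s - r) (by linarith)] with w hw hw'
      rw [tz_eq_zero_right hw h (by linarith), indicator_of_notMem]
      exact fun hc => absurd hc.2 (by linarith)

/-! ### grid regions -/

/-- vertex -/
def gp (d : ℝ) (v : ℤ × ℤ) : ℂ := ⟨d * v.1, d * v.2⟩

/-- closed cell -/
def cell (d : ℝ) (c : ℤ × ℤ) : Set ℂ :=
  {z | z.re ∈ Icc (d * c.1) (d * (c.1 + 1)) ∧ z.im ∈ Icc (d * c.2) (d * (c.2 + 1))}

/-- closed region -/
def reg (d : ℝ) (D : Finset (ℤ × ℤ)) : Set ℂ := {z | ∃ c ∈ D, z ∈ cell d c}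

/-- edges: `(true, i, j)` vertical `{d i} × [d j, d (j+1)]`, `(false, i, j)` horizontal
`[d i, d (i+1)] × {d j}` -/
abbrev Ed : Type := Bool × ℤ × ℤ

/-- start of an edge -/
def st (e : Ed) : ℤ × ℤ := e.2

/-- end of an edge -/
def nd (e : Ed) : ℤ × ℤ := if e.1 then (e.2.1, e.2.2 + 1) else (e.2.1 + 1, e.2.2)

/-- closed edge -/
def eg (d : ℝ) (e : Ed) : Set ℂ :=
  if e.1 then {z | z.re = d * e.2.1 ∧ z.im ∈ Icc (d * e.2.2) (d * (e.2.2 + 1))}
  else {z | z.im = d * e.2.2 ∧ z.re ∈ Icc (d * e.2.1) (d * (e.2.1 + 1))}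

lemma mem_eg_true {d : ℝ} {i j : ℤ} {z : ℂ} :
    z ∈ eg d (true, i, j) ↔ z.re = d * i ∧ z.im ∈ Icc (d * j) (d * (j + 1)) := Iff.rfl

lemma mem_eg_false {d : ℝ} {i j : ℤ} {z : ℂ} :
    z ∈ eg d (false, i, j) ↔ z.im = d * j ∧ z.re ∈ Icc (d * i) (d * (i + 1)) := Iff.rfl

/-- indicator of the region on cells -/
def ic (D : Finset (ℤ × ℤ)) (c : ℤ × ℤ) : ℤ := if c ∈ D then 1 else 0

/-- coefficient of an edge in the (clockwise) boundary of the region -/
def ce (D : Finset (ℤ × ℤ)) (e : Ed) : ℤ :=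
  if e.1 then ic D e.2 - ic D (e.2.1 - 1, e.2.2) else ic D (e.2.1, e.2.2 - 1) - ic D e.2

lemma ce_true (D : Finset (ℤ × ℤ)) (i j : ℤ) : ce D (true, i, j) = ic D (i, j) - ic D (i - 1, j) :=
  rfl

lemma ce_false (D : Finset (ℤ × ℤ)) (i j : ℤ) :
    ce D (false, i, j) = ic D (i, j - 1) - ic D (i, j) := rfl

/-- the boundary of the region -/
def Bd (d : ℝ) (D : Finset (ℤ × ℤ)) : Set ℂ := {z | ∃ e : Ed, ce D e ≠ 0 ∧ z ∈ eg d e}

/-- the edges of the cells of `D` -/
def ED (D : Finset (ℤ × ℤ)) : Finset Ed :=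
  D.image (fun c => (true, c.1, c.2)) ∪ D.image (fun c => (true, c.1 + 1, c.2)) ∪
    (D.image (fun c => (false, c.1, c.2)) ∪ D.image (fun c => (false, c.1, c.2 + 1)))

/-- **summation by parts** -/
theorem sum_parts (D : Finset (ℤ × ℤ)) (I : Ed → ℝ) :
    ∑ c ∈ D, (I (true, c.1, c.2) - I (true, c.1 + 1, c.2) - I (false, c.1, c.2) +
      I (false, c.1, c.2 + 1)) = ∑ e ∈ ED D, (ce D e : ℝ) * I e := by
  classical
  -- coefficient as a sum over cells
  have hk : ∀ e : Ed, (ce D e : ℝ) = ∑ c ∈ D, ((if e = (true, c.1, c.2) then (1 : ℝ) else 0) -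
      (if e = (true, c.1 + 1, c.2) then (1 : ℝ) else 0) -
      (if e = (false, c.1, c.2) then (1 : ℝ) else 0) +
      (if e = (false, c.1, c.2 + 1) then (1 : ℝ) else 0)) := by
    rintro ⟨b, i, j⟩
    have key : ∀ c0 : ℤ × ℤ, ∑ c ∈ D, (if c0 = c then (1 : ℝ) else 0) = (ic D c0 : ℝ) := by
      intro c0
      rw [Finset.sum_ite_eq]; unfold ic; split_ifs <;> simp
    cases b
    · rw [ce_false]
      push_cast
      rw [← key (i, j - 1), ← key (i, j), ← Finset.sum_sub_distrib]
      refine Finset.sum_congr rfl fun c _ => ?_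
      have e1 : ((false, i, j) = ((true, c.1, c.2) : Ed)) ↔ False := by simp
      have e2 : ((false, i, j) = ((true, c.1 + 1, c.2) : Ed)) ↔ False := by simp
      have e3 : ((false, i, j) = ((false, c.1, c.2) : Ed)) ↔ ((i, j) = c) := by
        rw [Prod.mk.injEq, Prod.mk.injEq]
        simp
      have e4 : ((false, i, j) = ((false, c.1, c.2 + 1) : Ed)) ↔ ((i, j - 1) = c) := by
        simp only [true_and, Prod.ext_iff]
        constructor <;> rintro ⟨h1, h2⟩ <;> exact ⟨h1, by linarith⟩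
      simp only [e1, e2, e3, e4, if_false]
      ring
    · rw [ce_true]
      push_cast
      rw [← key (i, j), ← key (i - 1, j), ← Finset.sum_sub_distrib]
      refine Finset.sum_congr rfl fun c _ => ?_
      have e1 : ((true, i, j) = ((false, c.1, c.2) : Ed)) ↔ False := by simp
      have e2 : ((true, i, j) = ((false, c.1, c.2 + 1) : Ed)) ↔ False := by simp
      have e3 : ((true, i, j) = ((true, c.1, c.2) : Ed)) ↔ ((i, j) = c) := by
        rw [Prod.mk.injEq, Prod.mk.injEq]
        simp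
      have e4 : ((true, i, j) = ((true, c.1 + 1, c.2) : Ed)) ↔ ((i - 1, j) = c) := by
        simp only [true_and, Prod.ext_iff]
        constructor <;> rintro ⟨h1, h2⟩ <;> exact ⟨by linarith, h2⟩
      simp only [e1, e2, e3, e4, if_false]
      ring
  simp only [hk, Finset.sum_mul]
  rw [Finset.sum_comm]
  refine Finset.sum_congr rfl fun c hc => ?_
  have m1 : ((true, c.1, c.2) : Ed) ∈ ED D := by
    unfold ED; simp only [Finset.mem_union, Finset.mem_image]
    exact Or.inl (Or.inl ⟨c, hc, rfl⟩)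
  have m2 : ((true, c.1 + 1, c.2) : Ed) ∈ ED D := by
    unfold ED; simp only [Finset.mem_union, Finset.mem_image]
    exact Or.inl (Or.inr ⟨c, hc, rfl⟩)
  have m3 : ((false, c.1, c.2) : Ed) ∈ ED D := by
    unfold ED; simp only [Finset.mem_union, Finset.mem_image]
    exact Or.inr (Or.inl ⟨c, hc, rfl⟩)
  have m4 : ((false, c.1, c.2 + 1) : Ed) ∈ ED D := by
    unfold ED; simp only [Finset.mem_union, Finset.mem_image]
    exact Or.inr (Or.inr ⟨c, hc, rfl⟩)
  have s : ∀ e0 ∈ ED D, ∑ e ∈ ED D, (if e = e0 then (1 : ℝ) else 0) * I e = I e0 := by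
    intro e0 h0
    rw [Finset.sum_eq_single_of_mem e0 h0 fun e _ he => by rw [if_neg he, zero_mul], if_pos rfl,
      one_mul]
  simp only [sub_mul, add_mul, Finset.sum_add_distrib, Finset.sum_sub_distrib]
  rw [s _ m1, s _ m2, s _ m3, s _ m4]

/-- the boundary of a boundary vanishes -/
theorem sum_bd (D : Finset (ℤ × ℤ)) (g : ℤ × ℤ → ℝ) :
    ∑ e ∈ ED D, (ce D e : ℝ) * (g (nd e) - g (st e)) = 0 := by
  rw [← sum_parts]
  refine Finset.sum_eq_zero fun c _ => ?_
  simp only [nd, st, if_true, Bool.false_eq_true, if_false]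
  ring

end

end Crest.Agent.R105.Bxk_473
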