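import Crest.Agent.R105.Bxk1_473
import Crest.Agent.R105.Bd1_775

/-!
# Row 105, S0138, LEMMA Y (4b) of helper701 #10366, part 2 (helper473): the box function

`chi d D w = Σ_{c ∈ D} tz_i(re) tz_j(im)`.
* `chi_nonneg`, `chi_le_one`, `exists_lipschitz_chi`, `hasCompactSupport_chi`
* `Bdw d D w` : closed `w`-neighbourhood (sup norm) of the boundary; `chi_lc` : `chi` is locally
  constant off it; `chi_eventually` : `chi = 1_D` off `Bd d D` for small `w`
* `lc_chi` : `chi ∈ LC Y` for small `w` if `Bd d D ⊆ Yᶜ`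
* `wdg_chi` : a.e. formula for `dchi ∧ df` as a sum over the edges of the boundary
-/

set_option autoImplicit false

open MeasureTheory Set Filter Topology Metric
open scoped NNReal ENNReal

namespace Crest.Agent.R105.Bxk_473

open Bd_775

noncomputable section

/-- `1_D * box` -/
def chi (d : ℝ) (D : Finset (ℤ × ℤ)) (w : ℝ) (z : ℂ) : ℝ :=
  ∑ c ∈ D, tz w (d * c.1) (d * (c.1 + 1)) z.re * tz w (d * c.2) (d * (c.2 + 1)) z.im

variable {d w : ℝ} {D : Finset (ℤ × ℤ)} {z : ℂ}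

lemma le_succ (hd : 0 < d) (i : ℝ) : d * i ≤ d * (i + 1) := by nlinarith

lemma chi_nonneg (hd : 0 < d) (hw : 0 < w) (D : Finset (ℤ × ℤ)) (z : ℂ) : 0 ≤ chi d D w z :=
  Finset.sum_nonneg fun _ _ => mul_nonneg (tz_nonneg hw (le_succ hd _) _)
    (tz_nonneg hw (le_succ hd _) _)

lemma sum_tz (d w x : ℝ) (m : ℤ) (n : ℕ) :
    ∑ k ∈ Finset.range n, tz w (d * ((m + k : ℤ) : ℝ)) (d * (((m + k : ℤ) : ℝ) + 1)) x =
      rp w (x - d * m) - rp w (x - d * ((m : ℝ) + n)) := by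
  induction n with
  | zero => simp
  | succ n ih =>
    rw [Finset.sum_range_succ, ih]
    unfold tz
    push_cast
    ring_nf

lemma chi_le_one (hd : 0 < d) (hw : 0 < w) (D : Finset (ℤ × ℤ)) (z : ℂ) : chi d D w z ≤ 1 := by
  classical
  -- a big square containing `D`
  obtain ⟨N, hN⟩ : ∃ N : ℕ, ∀ c ∈ D, (-(N : ℤ) ≤ c.1 ∧ c.1 < N) ∧ (-(N : ℤ) ≤ c.2 ∧ c.2 < N) := by
    obtain ⟨B, hB⟩ : ∃ B : ℕ, ∀ c ∈ D, c.1.natAbs ≤ B ∧ c.2.natAbs ≤ B := by
      refine ⟨D.sup fun c => max c.1.natAbs c.2.natAbs, fun c hc => ?_⟩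
      have := Finset.le_sup (f := fun c : ℤ × ℤ => max c.1.natAbs c.2.natAbs) hc
      exact ⟨(le_max_left _ _).trans this, (le_max_right _ _).trans this⟩
    refine ⟨B + 1, fun c hc => ?_⟩
    have := hB c hc
    push_cast
    constructor <;> constructor <;> omega
  have h1 : ∀ x : ℝ, ∑ k ∈ Finset.range (2 * N),
      tz w (d * ((-(N : ℤ) + k : ℤ) : ℝ)) (d * (((-(N : ℤ) + k : ℤ) : ℝ) + 1)) x ≤ 1 := by
    intro x
    rw [sum_tz]
    linarith [rp_le_one w (x - d * ((-(N : ℤ) : ℤ) : ℝ)),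
      rp_nonneg w (x - d * (((-(N : ℤ) : ℤ) : ℝ) + ((2 * N : ℕ) : ℝ)))]
  have h0 : ∀ x : ℝ, 0 ≤ ∑ k ∈ Finset.range (2 * N),
      tz w (d * ((-(N : ℤ) + k : ℤ) : ℝ)) (d * (((-(N : ℤ) + k : ℤ) : ℝ) + 1)) x := fun x =>
    Finset.sum_nonneg fun _ _ => tz_nonneg hw (le_succ hd _) _
  -- injection of `D` in the square of indices
  set F : ℕ × ℕ → ℤ × ℤ := fun k => (-(N : ℤ) + k.1, -(N : ℤ) + k.2) with hF
  have hinj : Function.Injective F := by
    rintro ⟨a, b⟩ ⟨a', b'⟩ h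
    simp only [hF, Prod.mk.injEq, add_right_inj, Nat.cast_inj] at h
    rw [h.1, h.2]
  have hsub : D ⊆ (Finset.range (2 * N) ×ˢ Finset.range (2 * N)).image F := by
    intro c hc
    obtain ⟨⟨a1, a2⟩, b1, b2⟩ := hN c hc
    rw [Finset.mem_image]
    refine ⟨((c.1 + N).toNat, (c.2 + N).toNat), ?_, ?_⟩
    · rw [Finset.mem_product, Finset.mem_range, Finset.mem_range]
      constructor <;> omega
    · simp only [hF]
      refine Prod.ext ?_ ?_ <;> simp only <;> omega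
  calc chi d D w z
      ≤ ∑ c ∈ (Finset.range (2 * N) ×ˢ Finset.range (2 * N)).image F,
          tz w (d * c.1) (d * (c.1 + 1)) z.re * tz w (d * c.2) (d * (c.2 + 1)) z.im :=
        Finset.sum_le_sum_of_subset_of_nonneg hsub fun _ _ _ =>
          mul_nonneg (tz_nonneg hw (le_succ hd _) _) (tz_nonneg hw (le_succ hd _) _)
    _ = (∑ k ∈ Finset.range (2 * N),
          tz w (d * ((-(N : ℤ) + k : ℤ) : ℝ)) (d * (((-(N : ℤ) + k : ℤ) : ℝ) + 1)) z.re) *
        (∑ k ∈ Finset.range (2 * N),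
          tz w (d * ((-(N : ℤ) + k : ℤ) : ℝ)) (d * (((-(N : ℤ) + k : ℤ) : ℝ) + 1)) z.im) := by
        rw [Finset.sum_image fun _ _ _ _ h => hinj h, Finset.sum_mul_sum, Finset.sum_product]
    _ ≤ 1 * 1 := mul_le_mul (h1 _) (h1 _) (h0 _) zero_le_one
    _ = 1 := one_mul 1

lemma abs_chi_le (hd : 0 < d) (hw : 0 < w) (D : Finset (ℤ × ℤ)) (z : ℂ) : |chi d D w z| ≤ 1 := by
  rw [abs_of_nonneg (chi_nonneg hd hw D z)]; exact chi_le_one hd hw D z

lemma exists_lipschitz_tz (hw : 0 < w) (l r : ℝ) : ∃ K : ℝ≥0, LipschitzWith K (tz w l r) := by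
  have h1 : LipschitzWith (Real.toNNReal (1 / (2 * w)) * 1) (fun s : ℝ => rp w (s - l)) :=
    (lipschitz_rp hw).comp (LipschitzWith.of_dist_le_mul fun x y => by simp [Real.dist_eq])
  have h2 : LipschitzWith (Real.toNNReal (1 / (2 * w)) * 1) (fun s : ℝ => rp w (s - r)) :=
    (lipschitz_rp hw).comp (LipschitzWith.of_dist_le_mul fun x y => by simp [Real.dist_eq])
  exact ⟨_, h1.sub h2⟩

lemma lipschitz_mul {f g : ℂ → ℝ} {K L : ℝ≥0} (hf : LipschitzWith K f) (hg : LipschitzWith L g)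
    (hf1 : ∀ z, |f z| ≤ 1) (hg1 : ∀ z, |g z| ≤ 1) : LipschitzWith (K + L) fun z => f z * g z := by
  refine LipschitzWith.of_dist_le_mul fun x y => ?_
  have h1 := hf.dist_le_mul x y
  have h2 := hg.dist_le_mul x y
  rw [Real.dist_eq] at h1 h2 ⊢
  have : f x * g x - f y * g y = (f x - f y) * g x + f y * (g x - g y) := by ring
  rw [this]
  refine (abs_add_le _ _).trans ?_
  rw [abs_mul, abs_mul]
  push_cast
  have h3 : |f x - f y| * |g x| ≤ K * dist x y * 1 :=
    mul_le_mul h1 (hg1 x) (abs_nonneg _) (by positivity)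
  have h4 : |f y| * |g x - g y| ≤ 1 * (L * dist x y) :=
    mul_le_mul (hf1 y) h2 (abs_nonneg _) zero_le_one
  linarith

theorem exists_lipschitz_chi (hd : 0 < d) (hw : 0 < w) (D : Finset (ℤ × ℤ)) :
    ∃ K : ℝ≥0, LipschitzWith K (chi d D w) := by
  classical
  have hterm : ∀ c : ℤ × ℤ, ∃ K : ℝ≥0, LipschitzWith K fun z : ℂ =>
      tz w (d * c.1) (d * (c.1 + 1)) z.re * tz w (d * c.2) (d * (c.2 + 1)) z.im := by
    intro c
    obtain ⟨K, hK⟩ := exists_lipschitz_tz hw (d * c.1) (d * (c.1 + 1))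
    obtain ⟨L, hL⟩ := exists_lipschitz_tz hw (d * c.2) (d * (c.2 + 1))
    have hre : LipschitzWith 1 Complex.re := by
      refine LipschitzWith.of_dist_le_mul fun x y => ?_
      rw [Real.dist_eq, NNReal.coe_one, one_mul, ← Complex.sub_re, dist_eq_norm]
      exact Complex.abs_re_le_norm _
    have him : LipschitzWith 1 Complex.im := by
      refine LipschitzWith.of_dist_le_mul fun x y => ?_
      rw [Real.dist_eq, NNReal.coe_one, one_mul, ← Complex.sub_im, dist_eq_norm]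
      exact Complex.abs_im_le_norm _
    exact ⟨_, lipschitz_mul (hK.comp hre) (hL.comp him)
      (fun z => abs_tz_le hw (le_succ hd _) _) (fun z => abs_tz_le hw (le_succ hd _) _)⟩
  unfold chi
  induction D using Finset.induction_on with
  | empty =>
    refine ⟨0, ?_⟩
    simp only [Finset.sum_empty]
    exact LipschitzWith.const 0
  | insert c s hc ih =>
    obtain ⟨K, hK⟩ := ih
    obtain ⟨L, hL⟩ := hterm c
    refine ⟨L + K, ?_⟩
    simp only [Finset.sum_insert hc]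
    exact hL.add hK

lemma continuous_chi (hd : 0 < d) (hw : 0 < w) (D : Finset (ℤ × ℤ)) : Continuous (chi d D w) :=
  (exists_lipschitz_chi hd hw D).choose_spec.continuous

theorem hasCompactSupport_chi (hd : 0 < d) (hw : 0 < w) (D : Finset (ℤ × ℤ)) :
    HasCompactSupport (chi d D w) := by
  classical
  -- bounded set
  obtain ⟨B, hB⟩ : ∃ B : ℝ, ∀ c ∈ D, |(c.1 : ℝ)| ≤ B ∧ |(c.2 : ℝ)| ≤ B := by
    refine ⟨∑ c ∈ D, (|(c.1 : ℝ)| + |(c.2 : ℝ)|), fun c hc => ?_⟩
    have := Finset.single_le_sum (f := fun c : ℤ × ℤ => |(c.1 : ℝ)| + |(c.2 : ℝ)|)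
      (fun c _ => by positivity) hc
    constructor <;> linarith [abs_nonneg (c.1 : ℝ), abs_nonneg (c.2 : ℝ)]
  refine HasCompactSupport.of_support_subset_isCompact (K := closedBall (0 : ℂ)
    (2 * (d * (B + 1) + w))) (isCompact_closedBall _ _) ?_
  intro z hz
  rw [Function.mem_support] at hz
  obtain ⟨c, hc, hcz⟩ := Finset.exists_ne_zero_of_sum_ne_zero hz
  have h1 := mem_of_tz_ne_zero hw (le_succ hd _) (left_ne_zero_of_mul hcz)
  have h2 := mem_of_tz_ne_zero hw (le_succ hd _) (right_ne_zero_of_mul hcz)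
  obtain ⟨b1, b2⟩ := hB c hc
  rw [abs_le] at b1 b2
  have key : ∀ (x i : ℝ), x ∈ Ioo (d * i - w) (d * (i + 1) + w) → -B ≤ i → i ≤ B →
      |x| ≤ d * (B + 1) + w := by
    intro x i hx hi hi'
    rw [abs_le]
    constructor
    · nlinarith [hx.1, mul_le_mul_of_nonneg_left hi hd.le]
    · nlinarith [hx.2, mul_le_mul_of_nonneg_left hi' hd.le]
  rw [mem_closedBall_zero_iff]
  have h3 := Complex.norm_le_abs_re_add_abs_im z
  have h4 := key _ _ h1 b1.1 b1.2
  have h5 := key _ _ h2 b2.1 b2.2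
  linarith

/-! ### summation by parts for `chi` -/

lemma chi_eq_vert (d w : ℝ) (D : Finset (ℤ × ℤ)) (z : ℂ) : chi d D w z = ∑ e ∈ ED D, (ce D e : ℝ) *
    (if e.1 then rp w (z.re - d * e.2.1) * tz w (d * e.2.2) (d * (e.2.2 + 1)) z.im else 0) := by
  rw [← sum_parts]
  unfold chi
  refine Finset.sum_congr rfl fun c _ => ?_
  simp only [if_true, Bool.false_eq_true, if_false]
  unfold tz
  push_cast
  ring

lemma chi_eq_hor (d w : ℝ) (D : Finset (ℤ × ℤ)) (z : ℂ) : chi d D w z = ∑ e ∈ ED D, (ce D e : ℝ) *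
    (if e.1 then 0 else - (tz w (d * e.2.1) (d * (e.2.1 + 1)) z.re * rp w (z.im - d * e.2.2))) := by
  rw [← sum_parts]
  unfold chi
  refine Finset.sum_congr rfl fun c _ => ?_
  simp only [if_true, Bool.false_eq_true, if_false]
  unfold tz
  push_cast
  ring

/-! ### the neighbourhood of the boundary -/

/-- closed `w`-neighbourhood of an edge (sup norm) -/
def egw (d w : ℝ) (e : Ed) : Set ℂ :=
  if e.1 then {z | |z.re - d * e.2.1| ≤ w ∧ z.im ∈ Icc (d * e.2.2 - w) (d * (e.2.2 + 1) + w)}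
  else {z | |z.im - d * e.2.2| ≤ w ∧ z.re ∈ Icc (d * e.2.1 - w) (d * (e.2.1 + 1) + w)}

/-- closed `w`-neighbourhood of the boundary -/
def Bdw (d : ℝ) (D : Finset (ℤ × ℤ)) (w : ℝ) : Set ℂ := {z | ∃ e : Ed, ce D e ≠ 0 ∧ z ∈ egw d w e}

lemma mem_ED_of_ce {e : Ed} (h : ce D e ≠ 0) : e ∈ ED D := by
  obtain ⟨b, i, j⟩ := e
  by_contra hcon
  apply h
  unfold ED at hcon
  simp only [Finset.mem_union, Finset.mem_image, not_or, not_exists, not_and] at hcon
  obtain ⟨⟨h1, h2⟩, h3, h4⟩ := hcon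
  cases b
  · rw [ce_false]
    have e1 : ic D (i, j - 1) = 0 := by
      unfold ic; rw [if_neg]
      intro hc; exact h4 _ hc (by simp)
    have e2 : ic D (i, j) = 0 := by
      unfold ic; rw [if_neg]
      intro hc; exact h3 _ hc (by simp)
    rw [e1, e2, sub_self]
  · rw [ce_true]
    have e1 : ic D (i - 1, j) = 0 := by
      unfold ic; rw [if_neg]
      intro hc; exact h2 _ hc (by simp)
    have e2 : ic D (i, j) = 0 := by
      unfold ic; rw [if_neg]
      intro hc; exact h1 _ hc (by simp)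
    rw [e1, e2, sub_self]

lemma finite_ce (D : Finset (ℤ × ℤ)) : {e : Ed | ce D e ≠ 0}.Finite :=
  (ED D).finite_toSet.subset fun _ h => mem_ED_of_ce h

lemma isClosed_egw (d w : ℝ) (e : Ed) : IsClosed (egw d w e) := by
  unfold egw
  split_ifs
  · refine IsClosed.inter ?_ ?_
    · exact isClosed_le (continuous_abs.comp (Complex.continuous_re.sub continuous_const))
        continuous_const
    · exact isClosed_Icc.preimage Complex.continuous_im
  · refine IsClosed.inter ?_ ?_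
    · exact isClosed_le (continuous_abs.comp (Complex.continuous_im.sub continuous_const))
        continuous_const
    · exact isClosed_Icc.preimage Complex.continuous_re

lemma Bdw_eq (d : ℝ) (D : Finset (ℤ × ℤ)) (w : ℝ) :
    Bdw d D w = ⋃ e ∈ {e : Ed | ce D e ≠ 0}, egw d w e := by
  ext z; simp [Bdw]

lemma isClosed_Bdw (d : ℝ) (D : Finset (ℤ × ℤ)) (w : ℝ) : IsClosed (Bdw d D w) := by
  rw [Bdw_eq]
  exact (finite_ce D).isClosed_biUnion fun e _ => isClosed_egw d w e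

lemma egw_mono {w w' : ℝ} (h : w ≤ w') (e : Ed) : egw d w e ⊆ egw d w' e := by
  unfold egw
  split_ifs
  · rintro z ⟨h1, h2, h3⟩
    exact ⟨h1.trans h, by linarith, by linarith⟩
  · rintro z ⟨h1, h2, h3⟩
    exact ⟨h1.trans h, by linarith, by linarith⟩

lemma Bdw_mono {w w' : ℝ} (h : w ≤ w') (D : Finset (ℤ × ℤ)) : Bdw d D w ⊆ Bdw d D w' := by
  rintro z ⟨e, he, hz⟩
  exact ⟨e, he, egw_mono h e hz⟩

lemma eg_eq (d : ℝ) (e : Ed) : eg d e = egw d 0 e := by
  unfold eg egw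
  split_ifs
  · ext z
    simp only [mem_ofPred_eq, sub_zero, add_zero, abs_nonpos_iff, sub_eq_zero]
  · ext z
    simp only [mem_ofPred_eq, sub_zero, add_zero, abs_nonpos_iff, sub_eq_zero]

lemma Bd_eq (d : ℝ) (D : Finset (ℤ × ℤ)) : Bd d D = Bdw d D 0 := by
  unfold Bd Bdw; simp only [eg_eq]

lemma egw_subset_thick (hd : 0 < d) {w : ℝ} (hw : 0 ≤ w) (e : Ed) :
    egw d w e ⊆ cthickening (2 * w) (eg d e) := by
  intro z hz
  -- clamp
  have key : ∀ x l r : ℝ, l ≤ r → x ∈ Icc (l - w) (r + w) → ∃ y ∈ Icc l r, |x - y| ≤ w := by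
    intro x l r hlr hx
    refine ⟨max l (min r x), ⟨le_max_left _ _, max_le hlr (min_le_left _ _)⟩, ?_⟩
    rw [abs_le]
    rcases le_total x l with h | h
    · rw [min_eq_right (h.trans hlr), max_eq_left h]
      constructor <;> linarith [hx.1]
    · rcases le_total x r with h' | h'
      · rw [min_eq_right h', max_eq_right h]; constructor <;> linarith
      · rw [min_eq_left h', max_eq_right hlr]; constructor <;> linarith [hx.2]
  obtain ⟨b, i, j⟩ := e
  cases b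
  · obtain ⟨h1, h2⟩ : |z.im - d * j| ≤ w ∧ z.re ∈ Icc (d * i - w) (d * (i + 1) + w) := hz
    obtain ⟨y, hy, hy'⟩ := key z.re _ _ (le_succ hd _) h2
    refine mem_cthickening_of_dist_le z ⟨y, d * j⟩ _ _ (mem_eg_false.2 ⟨rfl, hy⟩) ?_
    rw [dist_eq_norm]
    refine (Complex.norm_le_abs_re_add_abs_im _).trans ?_
    simp only [Complex.sub_re, Complex.sub_im]
    linarith
  · obtain ⟨h1, h2⟩ : |z.re - d * i| ≤ w ∧ z.im ∈ Icc (d * j - w) (d * (j + 1) + w) := hz
    obtain ⟨y, hy, hy'⟩ := key z.im _ _ (le_succ hd _) h2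
    refine mem_cthickening_of_dist_le z ⟨d * i, y⟩ _ _ (mem_eg_true.2 ⟨rfl, hy⟩) ?_
    rw [dist_eq_norm]
    refine (Complex.norm_le_abs_re_add_abs_im _).trans ?_
    simp only [Complex.sub_re, Complex.sub_im]
    linarith

lemma isCompact_eg (d : ℝ) (e : Ed) : IsCompact (eg d e) := by
  refine Metric.isCompact_of_isClosed_isBounded (by rw [eg_eq]; exact isClosed_egw _ _ _) ?_
  obtain ⟨b, i, j⟩ := e
  rw [isBounded_iff_forall_norm_le]
  cases b
  · refine ⟨max |d * i| |d * (i + 1)| + |d * j|, fun z hz => ?_⟩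
    obtain ⟨h1, h2⟩ := mem_eg_false.1 hz
    refine (Complex.norm_le_abs_re_add_abs_im z).trans (add_le_add ?_ (by rw [h1]))
    exact abs_le_max_abs_abs h2.1 h2.2
  · refine ⟨|d * i| + max |d * j| |d * (j + 1)|, fun z hz => ?_⟩
    obtain ⟨h1, h2⟩ := mem_eg_true.1 hz
    refine (Complex.norm_le_abs_re_add_abs_im z).trans (add_le_add (by rw [h1]) ?_)
    exact abs_le_max_abs_abs h2.1 h2.2

lemma eventually_egw_subset (hd : 0 < d) {U : Set ℂ} (hU : IsOpen U) (e : Ed) (h : eg d e ⊆ U) :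
    ∀ᶠ w in 𝓝[>] (0 : ℝ), egw d w e ⊆ U := by
  obtain ⟨δ, hδ, hδU⟩ := (isCompact_eg d e).exists_cthickening_subset_open hU h
  have e1 : ∀ᶠ w in 𝓝[>] (0 : ℝ), 0 < w := self_mem_nhdsWithin
  have e2 : ∀ᶠ w in 𝓝[>] (0 : ℝ), w < δ / 2 := mem_nhdsWithin_of_mem_nhds
    (gt_mem_nhds (by positivity))
  filter_upwards [e1, e2] with w hw hw'
  exact (egw_subset_thick hd hw.le e).trans ((cthickening_mono (by linarith) _).trans hδU)

theorem eventually_Bdw_subset (hd : 0 < d) {U : Set ℂ} (hU : IsOpen U) (h : Bd d D ⊆ U) :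
    ∀ᶠ w in 𝓝[>] (0 : ℝ), Bdw d D w ⊆ U := by
  have h1 : ∀ᶠ w in 𝓝[>] (0 : ℝ), ∀ e ∈ {e : Ed | ce D e ≠ 0}, egw d w e ⊆ U :=
    (Filter.eventually_all_finite (finite_ce D)).2 fun e he =>
      eventually_egw_subset hd hU e fun z hz => h ⟨e, he, hz⟩
  filter_upwards [h1] with w hw
  rintro z ⟨e, he, hz⟩
  exact hw e he hz

end

end Crest.Agent.R105.Bxk_473
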