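import Crest.Agent.R105.Bxk2_473

/-!
# Row 105, S0138, LEMMA Y (4b) of helper701 #10366, part 3 (helper473)

* `chi_lc` : `chi` is locally constant off the closed `w`-neighbourhood of the boundary
* `chi_eventually` : `chi = 1_D` off the boundary, for small `w`
* `lc_chi` : `chi ∈ LC Y` for small `w` if `Bd d D ⊆ Yᶜ`
* `wdg_chi` : a.e. formula for `dchi ∧ df`
-/

set_option autoImplicit false

open MeasureTheory Set Filter Topology Metric
open scoped NNReal ENNReal

namespace Crest.Agent.R105.Bxk_473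

open Bd_775

noncomputable section

variable {d w : ℝ} {D : Finset (ℤ × ℤ)} {z : ℂ}

/-- the ramp does not change on an interval which stays away from the window -/
lemma rp_const (hw : 0 < w) {x x' a : ℝ} (h : ∀ s ∈ uIcc x x', w < |s - a|) :
    rp w (x - a) = rp w (x' - a) := by
  have hx := h x left_mem_uIcc
  have hx' := h x' right_mem_uIcc
  rcases lt_abs.1 hx with h1 | h1 <;> rcases lt_abs.1 hx' with h2 | h2
  · rw [rp_eq_one hw h1.le, rp_eq_one hw h2.le]
  · exfalso
    have := h a (by rw [mem_uIcc]; right; constructor <;> linarith)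
    rw [sub_self, abs_zero] at this; linarith
  · exfalso
    have := h a (by rw [mem_uIcc]; left; constructor <;> linarith)
    rw [sub_self, abs_zero] at this; linarith
  · rw [rp_eq_zero hw (by linarith), rp_eq_zero hw (by linarith)]

/-- invariance in the horizontal direction -/
lemma chi_hor (hd : 0 < d) (hw : 0 < w) {x x' y : ℝ}
    (h : ∀ s ∈ uIcc x x', (⟨s, y⟩ : ℂ) ∉ Bdw d D w) : chi d D w ⟨x, y⟩ = chi d D w ⟨x', y⟩ := by
  rw [chi_eq_vert, chi_eq_vert]
  refine Finset.sum_congr rfl fun e _ => ?_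
  obtain ⟨b, i, j⟩ := e
  cases b
  · simp
  · simp only [if_true]
    by_cases hce : ce D (true, i, j) = 0
    · rw [hce]; simp
    by_cases ht : tz w (d * j) (d * (j + 1)) y = 0
    · rw [ht]; simp
    · have hy := mem_of_tz_ne_zero hw (le_succ hd _) ht
      rw [rp_const hw (x := x) (x' := x')]
      intro s hs
      by_contra hcon
      exact h s hs ⟨(true, i, j), hce, not_lt.1 hcon, hy.1.le, hy.2.le⟩

/-- invariance in the vertical direction -/
lemma chi_vert (hd : 0 < d) (hw : 0 < w) {x y y' : ℝ}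
    (h : ∀ s ∈ uIcc y y', (⟨x, s⟩ : ℂ) ∉ Bdw d D w) : chi d D w ⟨x, y⟩ = chi d D w ⟨x, y'⟩ := by
  rw [chi_eq_hor, chi_eq_hor]
  refine Finset.sum_congr rfl fun e _ => ?_
  obtain ⟨b, i, j⟩ := e
  cases b
  · simp only [Bool.false_eq_true, if_false]
    by_cases hce : ce D (false, i, j) = 0
    · rw [hce]; simp
    by_cases ht : tz w (d * i) (d * (i + 1)) x = 0
    · rw [ht]; simp
    · have hy := mem_of_tz_ne_zero hw (le_succ hd _) ht
      rw [rp_const hw (x := y) (x' := y')]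
      intro s hs
      by_contra hcon
      exact h s hs ⟨(false, i, j), hce, not_lt.1 hcon, hy.1.le, hy.2.le⟩
  · simp

/-- an open coordinate square -/
def sqo (z : ℂ) (δ : ℝ) : Set ℂ := {z' | |z'.re - z.re| < δ ∧ |z'.im - z.im| < δ}

lemma isOpen_sqo (z : ℂ) (δ : ℝ) : IsOpen (sqo z δ) :=
  (isOpen_lt (continuous_abs.comp (Complex.continuous_re.sub continuous_const))
    continuous_const).inter
    (isOpen_lt (continuous_abs.comp (Complex.continuous_im.sub continuous_const)) continuous_const)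

lemma mem_sqo_self {δ : ℝ} (hδ : 0 < δ) (z : ℂ) : z ∈ sqo z δ := by simp [sqo, hδ]

lemma exists_sqo {O : Set ℂ} (hO : IsOpen O) (hz : z ∈ O) : ∃ δ > 0, sqo z δ ⊆ O := by
  obtain ⟨r, hr, hrO⟩ := Metric.isOpen_iff.1 hO z hz
  refine ⟨r / 2, by positivity, fun z' hz' => hrO ?_⟩
  rw [mem_ball, dist_eq_norm]
  refine (Complex.norm_le_abs_re_add_abs_im _).trans_lt ?_
  rw [Complex.sub_re, Complex.sub_im]
  linarith [hz'.1, hz'.2]

/-- `chi` is constant on a coordinate square off the neighbourhood of the boundary -/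
theorem chi_const_sqo (hd : 0 < d) (hw : 0 < w) {δ : ℝ} (h : sqo z δ ⊆ (Bdw d D w)ᶜ) {z' : ℂ}
    (hz' : z' ∈ sqo z δ) : chi d D w z' = chi d D w z := by
  have hcv : ∀ {a b s : ℝ}, |b - a| < δ → s ∈ uIcc a b → |s - a| < δ := by
    intro a b s hab hs
    refine lt_of_le_of_lt ?_ hab
    have := abs_sub_left_of_mem_uIcc hs
    simpa [abs_sub_comm] using this
  have hδ : 0 < δ := (abs_nonneg _).trans_lt hz'.1
  have e1 : chi d D w (⟨z.re, z.im⟩ : ℂ) = chi d D w ⟨z'.re, z.im⟩ := by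
    refine chi_hor hd hw fun s hs => h ⟨hcv hz'.1 hs, ?_⟩
    simpa using hδ
  have e2 : chi d D w (⟨z'.re, z.im⟩ : ℂ) = chi d D w ⟨z'.re, z'.im⟩ := by
    refine chi_vert hd hw fun s hs => h ⟨hz'.1, hcv hz'.2 hs⟩
  calc chi d D w z' = chi d D w ⟨z'.re, z'.im⟩ := rfl
    _ = chi d D w (⟨z.re, z.im⟩ : ℂ) := by rw [← e2, ← e1]
    _ = chi d D w z := rfl

/-- **local constancy** -/
theorem chi_lc (hd : 0 < d) (hw : 0 < w) (hz : z ∉ Bdw d D w) :
    ∀ᶠ z' in 𝓝 z, chi d D w z' = chi d D w z := by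
  obtain ⟨δ, hδ, hδO⟩ := exists_sqo (isClosed_Bdw d D w).isOpen_compl hz
  filter_upwards [(isOpen_sqo z δ).mem_nhds (mem_sqo_self hδ z)] with z' hz'
  exact chi_const_sqo hd hw hδO hz'

lemma isClosed_cell (d : ℝ) (c : ℤ × ℤ) : IsClosed (cell d c) :=
  (isClosed_Icc.preimage Complex.continuous_re).inter (isClosed_Icc.preimage Complex.continuous_im)

lemma isClosed_reg (d : ℝ) (D : Finset (ℤ × ℤ)) : IsClosed (reg d D) := by
  have : reg d D = ⋃ c ∈ D, cell d c := by ext z; simp [reg]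
  rw [this]
  exact D.finite_toSet.isClosed_biUnion fun c _ => isClosed_cell d c

lemma notMem_Bdw_of_small (hd : 0 < d) (hz : z ∉ Bd d D) :
    ∃ δ > 0, ∃ w0 > 0, sqo z δ ⊆ (Bdw d D w0)ᶜ := by
  -- `z` has a neighbourhood away from the compact set `Bd`
  have hcl : IsClosed (Bd d D) := by rw [Bd_eq]; exact isClosed_Bdw d D 0
  obtain ⟨r, hr, hrO⟩ := Metric.nhds_basis_closedBall.mem_iff.1
    (hcl.isOpen_compl.mem_nhds hz)
  have hU : IsOpen (closedBall z r)ᶜ := isClosed_closedBall.isOpen_compl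
  have hB : Bd d D ⊆ (closedBall z r)ᶜ := fun x hx hx' => hrO hx' hx
  obtain ⟨w0, hw0, hw0'⟩ := ((eventually_Bdw_subset hd hU hB).and self_mem_nhdsWithin).exists
  obtain ⟨δ, hδ, hδO⟩ := exists_sqo isOpen_ball (mem_ball_self hr : z ∈ ball z r)
  exact ⟨δ, hδ, w0, hw0', fun x hx hx' => hw0 hx' (ball_subset_closedBall (hδO hx))⟩

/-- **pointwise limit** : `chi` is the indicator of the region for small `w`, off the boundary -/
theorem chi_eventually (hd : 0 < d) (hz : z ∉ Bd d D) :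
    ∀ᶠ w in 𝓝[>] (0 : ℝ), chi d D w z = (reg d D).indicator (fun _ => (1 : ℝ)) z := by
  have e1 : ∀ᶠ w in 𝓝[>] (0 : ℝ), 0 < w := self_mem_nhdsWithin
  have e2 : ∀ c : ℝ, 0 < c → ∀ᶠ w in 𝓝[>] (0 : ℝ), w < c := fun c hc =>
    mem_nhdsWithin_of_mem_nhds (gt_mem_nhds hc)
  by_cases hzr : z ∈ reg d D
  · rw [indicator_of_mem hzr]
    obtain ⟨c, hc, ⟨⟨h1, h2⟩, h3, h4⟩⟩ := hzr
    obtain ⟨δ, hδ, w0, hw0, hsub⟩ := notMem_Bdw_of_small hd hz
    -- step towards the centre
    set η : ℝ := min (δ / 2) (d / 4) with hη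
    have hη0 : 0 < η := lt_min (by positivity) (by positivity)
    have hηδ : η < δ := lt_of_le_of_lt (min_le_left _ _) (by linarith)
    have hηd : η ≤ d / 4 := min_le_right _ _
    obtain ⟨x, hx1, hx2, hx3⟩ : ∃ x : ℝ, |x - z.re| < δ ∧ d * c.1 + η ≤ x ∧
        x ≤ d * (c.1 + 1) - η := by
      rcases le_total z.re (d * c.1 + d / 2) with h | h
      · exact ⟨z.re + η, by rw [add_sub_cancel_left, abs_of_pos hη0]; exact hηδ, by linarith,
          by linarith⟩
      · exact ⟨z.re - η, by rw [sub_sub_cancel_left, abs_neg, abs_of_pos hη0]; exact hηδ,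
          by linarith, by linarith⟩
    obtain ⟨y, hy1, hy2, hy3⟩ : ∃ y : ℝ, |y - z.im| < δ ∧ d * c.2 + η ≤ y ∧
        y ≤ d * (c.2 + 1) - η := by
      rcases le_total z.im (d * c.2 + d / 2) with h | h
      · exact ⟨z.im + η, by rw [add_sub_cancel_left, abs_of_pos hη0]; exact hηδ, by linarith,
          by linarith⟩
      · exact ⟨z.im - η, by rw [sub_sub_cancel_left, abs_neg, abs_of_pos hη0]; exact hηδ,
          by linarith, by linarith⟩
    filter_upwards [e1, e2 w0 hw0, e2 η hη0] with w hw hww0 hwη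
    have hs : sqo z δ ⊆ (Bdw d D w)ᶜ := fun x hx hx' => hsub hx (Bdw_mono hww0.le D hx')
    rw [← chi_const_sqo hd hw hs (z' := ⟨x, y⟩) ⟨hx1, hy1⟩]
    refine le_antisymm (chi_le_one hd hw D _) ?_
    calc (1 : ℝ) = tz w (d * c.1) (d * (c.1 + 1)) x * tz w (d * c.2) (d * (c.2 + 1)) y := by
          rw [tz_eq_one hw (by linarith) (by linarith), tz_eq_one hw (by linarith) (by linarith),
            one_mul]
      _ ≤ chi d D w ⟨x, y⟩ := Finset.single_le_sum
          (f := fun c : ℤ × ℤ => tz w (d * c.1) (d * (c.1 + 1)) x *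
            tz w (d * c.2) (d * (c.2 + 1)) y) (fun _ _ => mul_nonneg (tz_nonneg hw (le_succ hd _) _)
            (tz_nonneg hw (le_succ hd _) _)) hc
  · rw [indicator_of_notMem hzr]
    obtain ⟨δ, hδ, hδO⟩ := exists_sqo (isClosed_reg d D).isOpen_compl hzr
    filter_upwards [e1, e2 δ hδ] with w hw hwδ
    unfold chi
    refine Finset.sum_eq_zero fun c hc => ?_
    by_contra hne
    have h1 := mem_of_tz_ne_zero hw (le_succ hd _) (left_ne_zero_of_mul hne)
    have h2 := mem_of_tz_ne_zero hw (le_succ hd _) (right_ne_zero_of_mul hne)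
    -- clamp
    have key : ∀ x l r : ℝ, l ≤ r → x ∈ Ioo (l - w) (r + w) → ∃ y ∈ Icc l r, |y - x| < δ := by
      intro x l r hlr hx
      refine ⟨max l (min r x), ⟨le_max_left _ _, max_le hlr (min_le_left _ _)⟩, ?_⟩
      rw [abs_lt]
      rcases le_total x l with h | h
      · rw [min_eq_right (h.trans hlr), max_eq_left h]
        constructor <;> linarith [hx.1]
      · rcases le_total x r with h' | h'
        · rw [min_eq_right h', max_eq_right h]; constructor <;> linarith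
        · rw [min_eq_left h', max_eq_right hlr]; constructor <;> linarith [hx.2]
    obtain ⟨x, hx, hx'⟩ := key _ _ _ (le_succ hd _) h1
    obtain ⟨y, hy, hy'⟩ := key _ _ _ (le_succ hd _) h2
    exact hδO (show (⟨x, y⟩ : ℂ) ∈ sqo z δ from ⟨hx', hy'⟩) ⟨c, hc, hx, hy⟩

theorem chi_tendsto (hd : 0 < d) (hz : z ∉ Bd d D) :
    Tendsto (fun w => chi d D w z) (𝓝[>] 0) (𝓝 ((reg d D).indicator (fun _ => (1 : ℝ)) z)) :=
  tendsto_const_nhds.congr' ((chi_eventually hd hz).mono fun _ h => h.symm)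

/-- Lipschitz functions with compact support have finite energy -/
lemma integrable_en_of_lipschitz {χ : ℂ → ℝ} {K : ℝ≥0} (h : LipschitzWith K χ)
    (hc : HasCompactSupport χ) : Integrable (en χ) := by
  have h1 : ∀ z, en χ z ≤ (tsupport χ).indicator (fun _ => (K : ℝ) ^ 2) z := by
    intro z
    by_cases hz : z ∈ tsupport χ
    · rw [indicator_of_mem hz, en_eq]
      exact pow_le_pow_left₀ (norm_nonneg _) (norm_fderiv_le_of_lipschitz ℝ h) 2
    · rw [indicator_of_notMem hz, en_eq]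
      have : fderiv ℝ χ z = 0 := by
        by_contra hcon
        exact hz (support_fderiv_subset ℝ hcon)
      rw [this]; simp
  refine Integrable.mono' (g := (tsupport χ).indicator fun _ => (K : ℝ) ^ 2) ?_
    (measurable_en χ).aestronglyMeasurable (ae_of_all _ fun z => ?_)
  · exact (integrableOn_const (hs := hc.isCompact.measure_lt_top.ne)).integrable_indicator
      (isClosed_tsupport χ).measurableSet
  · rw [Real.norm_eq_abs, abs_of_nonneg (en_nonneg χ z)]; exact h1 z

/-- **admissibility** of `chi` -/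
theorem lc_chi (hd : 0 < d) (hw : 0 < w) {Y : Set ℂ} (h : Bdw d D w ⊆ Yᶜ) :
    LC Y (chi d D w) := by
  obtain ⟨K, hK⟩ := exists_lipschitz_chi hd hw D
  refine ⟨hK.locallyLipschitz, ⟨1, abs_chi_le hd hw D⟩,
    integrable_en_of_lipschitz hK (hasCompactSupport_chi hd hw D), fun z hz => ?_⟩
  exact chi_lc hd hw fun hz' => h hz' hz

theorem eventually_lc_chi (hd : 0 < d) {Y : Set ℂ} (hY : IsClosed Y) (h : Bd d D ⊆ Yᶜ) :
    ∀ᶠ w in 𝓝[>] (0 : ℝ), LC Y (chi d D w) := by
  filter_upwards [eventually_Bdw_subset hd hY.isOpen_compl h, self_mem_nhdsWithin] with w h1 h2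
  exact lc_chi hd h2 h1

/-! ### the derivative -/

/-- the density of an edge -/
def Te (d w : ℝ) (f : ℂ → ℝ) (z : ℂ) (e : Ed) : ℝ :=
  if e.1 then dp w (z.re - d * e.2.1) * tz w (d * e.2.2) (d * (e.2.2 + 1)) z.im * gy f z
  else tz w (d * e.2.1) (d * (e.2.1 + 1)) z.re * dp w (z.im - d * e.2.2) * gx f z

lemma hasDerivAt_tz {l r s : ℝ} (hw : 0 < w) (h1 : |s - l| ≠ w) (h2 : |s - r| ≠ w) :
    HasDerivAt (tz w l r) (dp w (s - l) - dp w (s - r)) s := by
  exact ((hasDerivAt_rp hw h1).comp_sub_const s l).sub ((hasDerivAt_rp hw h2).comp_sub_const s r)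

/-- exceptional lines -/
def Bad (d w : ℝ) (D : Finset (ℤ × ℤ)) (z : ℂ) : Prop :=
  ∃ c ∈ D, |z.re - d * c.1| = w ∨ |z.re - d * (c.1 + 1)| = w ∨ |z.im - d * c.2| = w ∨
    |z.im - d * (c.2 + 1)| = w

lemma hasFDerivAt_chi (hw : 0 < w) (hz : ¬ Bad d w D z) :
    HasFDerivAt (chi d D w) (∑ c ∈ D,
      (tz w (d * c.1) (d * (c.1 + 1)) z.re •
        ((dp w (z.im - d * c.2) - dp w (z.im - d * (c.2 + 1))) • Complex.imCLM) +
      tz w (d * c.2) (d * (c.2 + 1)) z.im •
        ((dp w (z.re - d * c.1) - dp w (z.re - d * (c.1 + 1))) • Complex.reCLM))) z := by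
  have : chi d D w = fun z : ℂ => ∑ c ∈ D,
      (tz w (d * c.1) (d * (c.1 + 1)) z.re * tz w (d * c.2) (d * (c.2 + 1)) z.im) := by
    funext z; rfl
  rw [this]
  refine HasFDerivAt.fun_sum fun c hc => ?_
  have h1 : |z.re - d * c.1| ≠ w := fun h => hz ⟨c, hc, Or.inl h⟩
  have h2 : |z.re - d * (c.1 + 1)| ≠ w := fun h => hz ⟨c, hc, Or.inr (Or.inl h)⟩
  have h3 : |z.im - d * c.2| ≠ w := fun h => hz ⟨c, hc, Or.inr (Or.inr (Or.inl h))⟩
  have h4 : |z.im - d * (c.2 + 1)| ≠ w := fun h => hz ⟨c, hc, Or.inr (Or.inr (Or.inr h))⟩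
  have e1 : HasFDerivAt (fun z : ℂ => tz w (d * c.1) (d * (c.1 + 1)) z.re)
      ((dp w (z.re - d * c.1) - dp w (z.re - d * (c.1 + 1))) • Complex.reCLM) z :=
    (hasDerivAt_tz hw h1 h2).comp_hasFDerivAt z Complex.reCLM.hasFDerivAt
  have e2 : HasFDerivAt (fun z : ℂ => tz w (d * c.2) (d * (c.2 + 1)) z.im)
      ((dp w (z.im - d * c.2) - dp w (z.im - d * (c.2 + 1))) • Complex.imCLM) z :=
    (hasDerivAt_tz hw h3 h4).comp_hasFDerivAt z Complex.imCLM.hasFDerivAt
  exact e1.mul e2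

lemma ae_not_bad (d w : ℝ) (D : Finset (ℤ × ℤ)) : ∀ᵐ z : ℂ, ¬ Bad d w D z := by
  have hre : ∀ a b : ℝ, ∀ᵐ z : ℂ, |z.re - a| ≠ b := by
    intro a b
    have h0 : ∀ c : ℝ, volume {z : ℂ | z.re = c} = 0 := fun c => by
      have := Complex.volume_preserving_equiv_real_prod.measure_preimage
        (s := {p : ℝ × ℝ | p.1 = c})
        ((measurableSet_eq_fun measurable_fst measurable_const).nullMeasurableSet)
      have h2 : volume {p : ℝ × ℝ | p.1 = c} = 0 := by
        have : {p : ℝ × ℝ | p.1 = c} = {c} ×ˢ univ := by ext p; simp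
        rw [this, Measure.volume_eq_prod, Measure.prod_prod, Real.volume_singleton, zero_mul]
      rw [h2] at this
      exact this
    rw [ae_iff]
    refine measure_mono_null (t := {z : ℂ | z.re = a + b} ∪ {z : ℂ | z.re = a - b}) ?_
      (measure_union_null (h0 _) (h0 _))
    intro z hz
    simp only [not_not, mem_ofPred_eq] at hz
    rcases le_total 0 (z.re - a) with h | h
    · rw [abs_of_nonneg h] at hz; left; simp only [mem_ofPred_eq]; linarith
    · rw [abs_of_nonpos h] at hz; right; simp only [mem_ofPred_eq]; linarith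
  have him : ∀ a b : ℝ, ∀ᵐ z : ℂ, |z.im - a| ≠ b := by
    intro a b
    have h0 : ∀ c : ℝ, volume {z : ℂ | z.im = c} = 0 := fun c => by
      have := Complex.volume_preserving_equiv_real_prod.measure_preimage
        (s := {p : ℝ × ℝ | p.2 = c})
        ((measurableSet_eq_fun measurable_snd measurable_const).nullMeasurableSet)
      have h2 : volume {p : ℝ × ℝ | p.2 = c} = 0 := by
        have : {p : ℝ × ℝ | p.2 = c} = univ ×ˢ {c} := by ext p; simp
        rw [this, Measure.volume_eq_prod, Measure.prod_prod, Real.volume_singleton, mul_zero]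
      rw [h2] at this
      exact this
    rw [ae_iff]
    refine measure_mono_null (t := {z : ℂ | z.im = a + b} ∪ {z : ℂ | z.im = a - b}) ?_
      (measure_union_null (h0 _) (h0 _))
    intro z hz
    simp only [not_not, mem_ofPred_eq] at hz
    rcases le_total 0 (z.im - a) with h | h
    · rw [abs_of_nonneg h] at hz; left; simp only [mem_ofPred_eq]; linarith
    · rw [abs_of_nonpos h] at hz; right; simp only [mem_ofPred_eq]; linarith
  have hall : ∀ᵐ z : ℂ, ∀ c ∈ D, |z.re - d * c.1| ≠ w ∧ |z.re - d * (c.1 + 1)| ≠ w ∧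
      |z.im - d * c.2| ≠ w ∧ |z.im - d * (c.2 + 1)| ≠ w := by
    have h1 := (ae_ball_iff (μ := (volume : Measure ℂ)) (S := (D : Set (ℤ × ℤ)))
      (p := fun z c _ => |z.re - d * c.1| ≠ w ∧ |z.re - d * (c.1 + 1)| ≠ w ∧
        |z.im - d * c.2| ≠ w ∧ |z.im - d * (c.2 + 1)| ≠ w) D.countable_toSet).2 fun c _ => by
          filter_upwards [hre (d * c.1) w, hre (d * (c.1 + 1)) w, him (d * c.2) w,
            him (d * (c.2 + 1)) w] with z h1 h2 h3 h4
          exact ⟨h1, h2, h3, h4⟩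
    exact h1
  filter_upwards [hall] with z hz
  rintro ⟨c, hc, h⟩
  obtain ⟨h1, h2, h3, h4⟩ := hz c hc
  rcases h with h | h | h | h
  · exact h1 h
  · exact h2 h
  · exact h3 h
  · exact h4 h

/-- **a.e. formula** -/
theorem wdg_chi (hw : 0 < w) (f : ℂ → ℝ) (hz : ¬ Bad d w D z) :
    wdg (chi d D w) f z = ∑ e ∈ ED D, (ce D e : ℝ) * Te d w f z e := by
  rw [← sum_parts]
  unfold wdg gx gy
  rw [(hasFDerivAt_chi hw hz).fderiv]
  simp only [sum_apply, add_apply, smul_apply, Complex.imCLM_apply, Complex.reCLM_apply, Complex.one_im,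
    Complex.one_re, Complex.I_re, Complex.I_im, smul_eq_mul, mul_zero, mul_one, zero_add, add_zero,
    Finset.sum_mul, ← Finset.sum_sub_distrib]
  refine Finset.sum_congr rfl fun c _ => ?_
  unfold Te gx gy
  simp only [if_true, Bool.false_eq_true, if_false]
  push_cast
  ring

end

end Crest.Agent.R105.Bxk_473
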