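import Crest.Agent.R105.Bxk3_473

/-!
# Row 105, S0138, LEMMA Y (4b) of helper701 #10366, part 4 (helper473): the limit `w → 0`

* `Je d O f e` : `∫_e 1_O df`
* `tendsto_edge` : one edge
* **`tendsto_chi`** : `∫_O dchi ∧ df → Σ_e c_e ∫_e 1_O df`
-/

set_option autoImplicit false

open MeasureTheory Set Filter Topology Metric
open scoped NNReal ENNReal

namespace Crest.Agent.R105.Bxk_473

open Bd_775

noncomputable section

/-! ### the one-edge limit in `ℝ × ℝ` -/

section K
variable {a c c' w0 M : ℝ} {H : ℝ → ℝ → ℝ}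

lemma K_bound (hcc : c ≤ c')
    (hb : ∀ x y, |x - a| ≤ w0 → y ∈ Icc (c - w0) (c' + w0) → |H x y| ≤ M) {w : ℝ} (hw : 0 < w)
    (hw0 : w ≤ w0) {x : ℝ} (hx : |x - a| ≤ w0) (y : ℝ) :
    |tz w c c' y * H x y| ≤ (Icc (c - w0) (c' + w0)).indicator (fun _ => M) y := by
  by_cases hy : y ∈ Icc (c - w0) (c' + w0)
  · rw [indicator_of_mem hy, abs_mul]
    calc |tz w c c' y| * |H x y| ≤ 1 * M :=
          mul_le_mul (abs_tz_le hw hcc y) (hb x y hx hy) (abs_nonneg _) zero_le_one
      _ = M := one_mul M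
  · rw [indicator_of_notMem hy]
    have : tz w c c' y = 0 := by
      by_contra hne
      have := mem_of_tz_ne_zero hw hcc hne
      exact hy ⟨by linarith [this.1], by linarith [this.2]⟩
    rw [this, zero_mul, abs_zero]

lemma K_inner (hw0 : 0 < w0) (hcc : c ≤ c') (hH : Measurable (Function.uncurry H))
    (hb : ∀ x y, |x - a| ≤ w0 → y ∈ Icc (c - w0) (c' + w0) → |H x y| ≤ M)
    (hc : ∀ᵐ y, y ∈ Ioo c c' → ContinuousAt (Function.uncurry H) (a, y)) :
    Tendsto (fun p : ℝ × ℝ => ∫ y, tz p.1 c c' y * H p.2 y) (𝓝[>] 0 ×ˢ 𝓝 a)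
      (𝓝 (∫ y in c..c', H a y)) := by
  have h1 : (∫ y in c..c', H a y) = ∫ y, (Ioc c c').indicator (fun _ => (1 : ℝ)) y * H a y := by
    rw [intervalIntegral.integral_of_le hcc, ← integral_indicator measurableSet_Ioc]
    refine integral_congr_ae (ae_of_all _ fun y => ?_)
    by_cases hy : y ∈ Ioc c c'
    · simp [indicator_of_mem hy]
    · simp [indicator_of_notMem hy]
  rw [h1]
  have e1 : ∀ᶠ p : ℝ × ℝ in 𝓝[>] 0 ×ˢ 𝓝 a, 0 < p.1 ∧ p.1 < w0 :=
    tendsto_fst.eventually ((eventually_mem_nhdsWithin.mono fun _ h => h).and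
      (mem_nhdsWithin_of_mem_nhds (gt_mem_nhds hw0)))
  have e2 : ∀ᶠ p : ℝ × ℝ in 𝓝[>] 0 ×ˢ 𝓝 a, |p.2 - a| < w0 := by
    refine tendsto_snd.eventually (?_ : ∀ᶠ x in 𝓝 a, |x - a| < w0)
    have : Tendsto (fun x : ℝ => |x - a|) (𝓝 a) (𝓝 |a - a|) :=
      (continuous_abs.comp (continuous_id.sub continuous_const)).tendsto a
    rw [sub_self, abs_zero] at this
    exact this.eventually (gt_mem_nhds hw0)
  refine tendsto_integral_filter_of_dominated_convergence
    ((Icc (c - w0) (c' + w0)).indicator fun _ => M) ?_ ?_ ?_ ?_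
  · filter_upwards [e1] with p hp
    refine ((continuous_tz hp.1 c c').measurable.mul ?_).aestronglyMeasurable
    exact hH.comp (measurable_const.prodMk measurable_id)
  · filter_upwards [e1, e2] with p hp hp2
    exact ae_of_all _ fun y => by
      rw [Real.norm_eq_abs]; exact K_bound hcc hb hp.1 hp.2.le hp2.le y
  · exact (integrableOn_const (by simp)).integrable_indicator measurableSet_Icc
  · have hne : ∀ b : ℝ, ∀ᵐ y : ℝ, y ≠ b := fun b => by
      rw [ae_iff]; simp
    filter_upwards [hc, hne c, hne c'] with y hy hyc hyc'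
    have hev : ∀ᶠ p : ℝ × ℝ in 𝓝[>] 0 ×ˢ 𝓝 a,
        tz p.1 c c' y = (Ioc c c').indicator (fun _ => (1 : ℝ)) y :=
      tendsto_fst.eventually (tz_tendsto hyc hyc' hcc)
    by_cases hyI : y ∈ Ioo c c'
    · have hcont := hy hyI
      have h2 : Tendsto (fun p : ℝ × ℝ => H p.2 y) (𝓝[>] 0 ×ˢ 𝓝 a) (𝓝 (H a y)) := by
        have h3 : Tendsto (fun x : ℝ => (x, y)) (𝓝 a) (𝓝 (a, y)) :=
          (continuous_id.prodMk continuous_const).tendsto a
        exact (hcont.tendsto.comp h3).comp tendsto_snd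
      refine (Tendsto.mul (tendsto_const_nhds (x := (Ioc c c').indicator (fun _ => (1 : ℝ)) y))
        h2).congr' ?_
      filter_upwards [hev] with p hp
      rw [hp]
    · have h0 : (Ioc c c').indicator (fun _ => (1 : ℝ)) y = 0 := by
        refine indicator_of_notMem ?_ _
        intro h
        exact hyI ⟨h.1, lt_of_le_of_ne h.2 hyc'⟩
      rw [h0, zero_mul]
      refine tendsto_const_nhds.congr' ?_
      filter_upwards [hev] with p hp
      rw [hp, h0, zero_mul]

lemma K_integrable (hcc : c ≤ c')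
    (hH : Measurable (Function.uncurry H))
    (hb : ∀ x y, |x - a| ≤ w0 → y ∈ Icc (c - w0) (c' + w0) → |H x y| ≤ M) {w : ℝ} (hw : 0 < w)
    (hww : w ≤ w0) :
    Integrable (fun p : ℝ × ℝ => dp w (p.1 - a) * (tz w c c' p.2 * H p.1 p.2)) := by
  have hmeas : Measurable fun p : ℝ × ℝ => dp w (p.1 - a) * (tz w c c' p.2 * H p.1 p.2) :=
    ((measurable_dp w).comp (measurable_fst.sub_const a)).mul
      (((continuous_tz hw c c').measurable.comp measurable_snd).mul hH)
  have hg : Integrable (fun p : ℝ × ℝ => dp w (p.1 - a) *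
      (Icc (c - w0) (c' + w0)).indicator (fun _ => M) p.2) := by
    have := (integrable_dp w a).mul_prod (ν := (volume : Measure ℝ))
      (g := (Icc (c - w0) (c' + w0)).indicator fun _ => M)
      ((integrableOn_const (by simp)).integrable_indicator measurableSet_Icc)
    exact this
  refine hg.mono' hmeas.aestronglyMeasurable (ae_of_all _ fun p => ?_)
  rw [Real.norm_eq_abs, abs_mul, abs_of_nonneg (dp_nonneg hw _)]
  by_cases hp : |p.1 - a| < w
  · exact mul_le_mul_of_nonneg_left (K_bound hcc hb hw hww (hp.le.trans hww) p.2)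
      (dp_nonneg hw _)
  · have : dp w (p.1 - a) = 0 := by unfold dp; rw [if_neg hp]
    rw [this, zero_mul, zero_mul]

/-- **the limit in `ℝ × ℝ`** -/
theorem K_lim (hw0 : 0 < w0) (hcc : c ≤ c') (_hM : 0 ≤ M) (hH : Measurable (Function.uncurry H))
    (hb : ∀ x y, |x - a| ≤ w0 → y ∈ Icc (c - w0) (c' + w0) → |H x y| ≤ M)
    (hc : ∀ᵐ y, y ∈ Ioo c c' → ContinuousAt (Function.uncurry H) (a, y)) :
    Tendsto (fun w => ∫ p : ℝ × ℝ, dp w (p.1 - a) * (tz w c c' p.2 * H p.1 p.2)) (𝓝[>] 0)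
      (𝓝 (∫ y in c..c', H a y)) := by
  set J0 : ℝ := ∫ y in c..c', H a y with hJ0
  have hin := K_inner hw0 hcc hH hb hc
  rw [Metric.tendsto_nhds]
  intro ε hε
  have h1 := (Metric.tendsto_nhds.1 hin) (ε / 2) (by positivity)
  obtain ⟨pa, hpa, pb, hpb, hab⟩ := eventually_prod_iff.1 h1
  obtain ⟨δ, hδ, hδb⟩ := Metric.eventually_nhds_iff.1 hpb
  have e3 : ∀ᶠ w in 𝓝[>] (0 : ℝ), 0 < w ∧ w < w0 ∧ w < δ := by
    have i1 : ∀ᶠ w in 𝓝[>] (0 : ℝ), w < w0 := mem_nhdsWithin_of_mem_nhds (gt_mem_nhds hw0)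
    have i2 : ∀ᶠ w in 𝓝[>] (0 : ℝ), w < δ := mem_nhdsWithin_of_mem_nhds (gt_mem_nhds hδ)
    filter_upwards [self_mem_nhdsWithin, i1, i2] with w h1 h2 h3
    exact ⟨h1, h2, h3⟩
  filter_upwards [hpa, e3] with w hwa hw
  obtain ⟨hw1, hw2, hw3⟩ := hw
  have hint := K_integrable hcc hH hb hw1 hw2.le
  have h2 : (∫ p : ℝ × ℝ, dp w (p.1 - a) * (tz w c c' p.2 * H p.1 p.2)) =
      ∫ x, dp w (x - a) * ∫ y, tz w c c' y * H x y := by
    rw [Measure.volume_eq_prod, integral_prod _ hint]
    refine integral_congr_ae (ae_of_all _ fun x => ?_)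
    exact integral_const_mul (dp w (x - a)) fun y => tz w c c' y * H x y
  have h3 : Integrable fun x => dp w (x - a) * ∫ y, tz w c c' y * H x y := by
    have h4 := hint.integral_prod_left
    refine h4.congr (ae_of_all _ fun x => ?_)
    exact integral_const_mul (dp w (x - a)) fun y => tz w c c' y * H x y
  have h4 : (∫ x, dp w (x - a) * J0) = J0 := by
    rw [integral_mul_const, integral_dp hw1, one_mul]
  rw [h2, Real.dist_eq]
  conv_lhs => rw [← h4]
  rw [← integral_sub h3 ((integrable_dp w a).mul_const J0)]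
  have h5 : ‖∫ x, (dp w (x - a) * (∫ y, tz w c c' y * H x y) - dp w (x - a) * J0)‖ ≤
      ∫ x, dp w (x - a) * (ε / 2) := by
    refine norm_integral_le_of_norm_le ((integrable_dp w a).mul_const _) (ae_of_all _ fun x => ?_)
    rw [← mul_sub, Real.norm_eq_abs, abs_mul, abs_of_nonneg (dp_nonneg hw1 _)]
    by_cases hx : |x - a| < w
    · refine mul_le_mul_of_nonneg_left ?_ (dp_nonneg hw1 _)
      have := hab hwa (hδb (by rw [Real.dist_eq]; exact hx.trans hw3) : pb x)
      rw [Real.dist_eq] at this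
      exact this.le
    · have : dp w (x - a) = 0 := by unfold dp; rw [if_neg hx]
      rw [this, zero_mul, zero_mul]
  rw [integral_mul_const, integral_dp hw1, one_mul, Real.norm_eq_abs] at h5
  linarith

end K

/-! ### transfer to `ℂ` -/

lemma integral_complex (Φ : ℂ → ℝ) : ∫ z, Φ z = ∫ p : ℝ × ℝ, Φ ⟨p.1, p.2⟩ := by
  have h := Complex.volume_preserving_equiv_real_prod.symm.integral_comp'
    (g := Φ)
  rw [← h]
  rfl

lemma integral_complex_swap (Φ : ℂ → ℝ) : ∫ z, Φ z = ∫ p : ℝ × ℝ, Φ ⟨p.2, p.1⟩ := by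
  rw [integral_complex, Measure.volume_eq_prod]
  exact (integral_prod_swap (μ := (volume : Measure ℝ)) (ν := (volume : Measure ℝ))
    (fun p : ℝ × ℝ => Φ ⟨p.1, p.2⟩)).symm

lemma integrable_complex {Φ : ℂ → ℝ} (h : Integrable fun p : ℝ × ℝ => Φ ⟨p.1, p.2⟩) :
    Integrable Φ := by
  have := (Complex.volume_preserving_equiv_real_prod.symm.integrable_comp_emb
    (Complex.measurableEquivRealProd.symm.measurableEmbedding) (g := Φ)).1 h
  exact this

lemma integrable_complex_swap {Φ : ℂ → ℝ} (h : Integrable fun p : ℝ × ℝ => Φ ⟨p.2, p.1⟩) :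
    Integrable Φ := by
  refine integrable_complex ?_
  have := h.swap
  exact this

/-! ### edges -/

variable {d w : ℝ} {D : Finset (ℤ × ℤ)} {U O : Set ℂ} {f : ℂ → ℝ}

/-- `∫_e 1_O df` -/
def Je (d : ℝ) (O : Set ℂ) (f : ℂ → ℝ) (e : Ed) : ℝ :=
  if e.1 then ∫ y in (d * e.2.2)..(d * (e.2.2 + 1)), O.indicator (gy f) ⟨d * e.2.1, y⟩
  else ∫ x in (d * e.2.1)..(d * (e.2.1 + 1)), O.indicator (gx f) ⟨x, d * e.2.2⟩

lemma continuousOn_gx (hU : IsOpen U) (hf : ContDiffOn ℝ 1 f U) : ContinuousOn (gx f) U := by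
  have := hf.continuousOn_fderiv_of_isOpen hU le_rfl
  exact this.clm_apply continuousOn_const

lemma continuousOn_gy (hU : IsOpen U) (hf : ContDiffOn ℝ 1 f U) : ContinuousOn (gy f) U := by
  have := hf.continuousOn_fderiv_of_isOpen hU le_rfl
  exact this.clm_apply continuousOn_const

lemma isCompact_egw (d w : ℝ) (e : Ed) : IsCompact (egw d w e) := by
  refine Metric.isCompact_of_isClosed_isBounded (isClosed_egw _ _ _) ?_
  obtain ⟨b, i, j⟩ := e
  rw [isBounded_iff_forall_norm_le]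
  cases b
  · refine ⟨max |d * i - w| |d * (i + 1) + w| + (|d * j| + w), fun z hz => ?_⟩
    obtain ⟨h1, h2⟩ : |z.im - d * j| ≤ w ∧ z.re ∈ Icc (d * i - w) (d * (i + 1) + w) := hz
    refine (Complex.norm_le_abs_re_add_abs_im z).trans (add_le_add ?_ ?_)
    · exact abs_le_max_abs_abs h2.1 h2.2
    · have := abs_add_le (z.im - d * j) (d * j)
      rw [sub_add_cancel] at this
      linarith
  · refine ⟨(|d * i| + w) + max |d * j - w| |d * (j + 1) + w|, fun z hz => ?_⟩
    obtain ⟨h1, h2⟩ : |z.re - d * i| ≤ w ∧ z.im ∈ Icc (d * j - w) (d * (j + 1) + w) := hz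
    refine (Complex.norm_le_abs_re_add_abs_im z).trans (add_le_add ?_ ?_)
    · have := abs_add_le (z.re - d * i) (d * i)
      rw [sub_add_cancel] at this
      linarith
    · exact abs_le_max_abs_abs h2.1 h2.2

lemma continuousAt_indicator {g : ℂ → ℝ} {z : ℂ} (hg : ContinuousAt g z) (hz : z ∉ frontier O) :
    ContinuousAt (O.indicator g) z := by
  by_cases hzO : z ∈ O
  · have hint : z ∈ interior O := by
      by_contra hcon
      exact hz ⟨subset_closure hzO, hcon⟩
    refine hg.congr ?_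
    filter_upwards [mem_interior_iff_mem_nhds.1 hint] with x hx
    rw [indicator_of_mem hx]
  · have hcl : z ∉ closure O := fun h => hz ⟨h, fun hi => hzO (interior_subset hi)⟩
    refine (continuousAt_const (y := (0 : ℝ))).congr ?_
    filter_upwards [isClosed_closure.isOpen_compl.mem_nhds hcl] with x hx
    rw [indicator_of_notMem fun h => hx (subset_closure h)]

/-- the data of `K_lim` for one edge -/
lemma edge_data (hd : 0 < d) (hU : IsOpen U) (hf : ContDiffOn ℝ 1 f U) {e : Ed}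
    (he : eg d e ⊆ U) : ∃ w0 > 0, ∃ M ≥ 0, egw d w0 e ⊆ U ∧
      (∀ z ∈ egw d w0 e, |gx f z| ≤ M) ∧ ∀ z ∈ egw d w0 e, |gy f z| ≤ M := by
  obtain ⟨w0, hw0, hw0'⟩ := ((eventually_egw_subset hd hU e he).and self_mem_nhdsWithin).exists
  obtain ⟨M1, hM1⟩ := (isCompact_egw d w0 e).exists_bound_of_continuousOn
    ((continuousOn_gx hU hf).mono hw0)
  obtain ⟨M2, hM2⟩ := (isCompact_egw d w0 e).exists_bound_of_continuousOn
    ((continuousOn_gy hU hf).mono hw0)
  refine ⟨w0, hw0', |M1| + |M2|, by positivity, hw0, fun z hz => ?_, fun z hz => ?_⟩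
  · have := hM1 z hz
    rw [Real.norm_eq_abs] at this
    linarith [le_abs_self M1, abs_nonneg M2]
  · have := hM2 z hz
    rw [Real.norm_eq_abs] at this
    linarith [le_abs_self M2, abs_nonneg M1]

lemma abs_indicator_le' {g : ℂ → ℝ} {M : ℝ} (hM : 0 ≤ M) {z : ℂ} (h : |g z| ≤ M) :
    |O.indicator g z| ≤ M := by
  by_cases hz : z ∈ O
  · rwa [indicator_of_mem hz]
  · rw [indicator_of_notMem hz, abs_zero]; exact hM

/-- **one edge** : limit and integrability -/
theorem tendsto_edge (hd : 0 < d) (hU : IsOpen U) (hf : ContDiffOn ℝ 1 f U)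
    (hO : MeasurableSet O) {e : Ed} (he : eg d e ⊆ U) (hfr : (eg d e ∩ frontier O).Countable) :
    Tendsto (fun w => ∫ z in O, Te d w f z e) (𝓝[>] 0) (𝓝 (Je d O f e)) ∧
      ∀ᶠ w in 𝓝[>] (0 : ℝ), IntegrableOn (fun z => Te d w f z e) O := by
  obtain ⟨w0, hw0, M, hM, hsub, hbx, hby⟩ := edge_data hd hU hf he
  have e3 : ∀ᶠ w in 𝓝[>] (0 : ℝ), 0 < w ∧ w < w0 :=
    (eventually_mem_nhdsWithin.mono fun _ h => h).and
      (mem_nhdsWithin_of_mem_nhds (gt_mem_nhds hw0))
  obtain ⟨b, i, j⟩ := e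
  cases b
  · -- horizontal
    set H : ℝ → ℝ → ℝ := fun x y => O.indicator (gx f) ⟨y, x⟩ with hH
    have hHm : Measurable (Function.uncurry H) := by
      have h1 : Measurable (O.indicator (gx f)) := (measurable_gx f).indicator hO
      have h2 : Measurable fun p : ℝ × ℝ => (⟨p.2, p.1⟩ : ℂ) :=
        Complex.measurableEquivRealProd.symm.measurable.comp measurable_swap
      exact h1.comp h2
    have hb : ∀ x y, |x - d * j| ≤ w0 → y ∈ Icc (d * (i : ℝ) - w0) (d * (i + 1) + w0) →
        |H x y| ≤ M := fun x y hx hy =>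
      abs_indicator_le' hM (hbx _ (show (⟨y, x⟩ : ℂ) ∈ egw d w0 (false, i, j) from ⟨hx, hy⟩))
    have hc : ∀ᵐ y, y ∈ Ioo (d * (i : ℝ)) (d * (i + 1)) →
        ContinuousAt (Function.uncurry H) (d * j, y) := by
      have hcn : {y : ℝ | (⟨y, d * j⟩ : ℂ) ∈ eg d (false, i, j) ∩ frontier O}.Countable := by
        refine hfr.preimage (f := fun y : ℝ => (⟨y, d * j⟩ : ℂ)) ?_
        intro y y' h
        exact congrArg Complex.re h
      filter_upwards [hcn.ae_notMem volume] with y hy hyI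
      have hmem : (⟨y, d * j⟩ : ℂ) ∈ eg d (false, i, j) :=
        mem_eg_false.2 ⟨rfl, hyI.1.le, hyI.2.le⟩
      have hnf : (⟨y, d * j⟩ : ℂ) ∉ frontier O := fun h => hy ⟨hmem, h⟩
      have h1 := continuousAt_indicator
        ((continuousOn_gx hU hf).continuousAt (hU.mem_nhds (he hmem))) hnf
      have h2 : Continuous fun p : ℝ × ℝ => (⟨p.2, p.1⟩ : ℂ) := by
        have : (fun p : ℝ × ℝ => (⟨p.2, p.1⟩ : ℂ)) =
            fun p => Complex.equivRealProdCLM.symm (p.2, p.1) := by
          funext p; rfl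
        rw [this]
        exact Complex.equivRealProdCLM.symm.continuous.comp continuous_swap
      exact ContinuousAt.comp (g := O.indicator (gx f)) (f := fun p : ℝ × ℝ => (⟨p.2, p.1⟩ : ℂ))
        (x := (d * j, y)) h1 h2.continuousAt
    have key : ∀ w, (fun p : ℝ × ℝ => dp w (p.1 - d * j) *
        (tz w (d * i) (d * (i + 1)) p.2 * H p.1 p.2)) =
        fun p => O.indicator (fun z => Te d w f z (false, i, j)) ⟨p.2, p.1⟩ := by
      intro w
      funext p
      simp only [hH]
      by_cases hp : (⟨p.2, p.1⟩ : ℂ) ∈ O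
      · rw [indicator_of_mem hp, indicator_of_mem hp]
        simp only [Te, Bool.false_eq_true, if_false]
        ring
      · rw [indicator_of_notMem hp, indicator_of_notMem hp]; ring
    constructor
    · have := K_lim hw0 (le_succ hd i) hM hHm hb hc
      simp only [key] at this
      have hJ : Je d O f (false, i, j) = ∫ y in (d * i)..(d * (i + 1)), H (d * j) y := by
        simp [Je, hH]
      rw [hJ]
      refine this.congr fun w => ?_
      rw [← integral_indicator hO, integral_complex_swap]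
    · filter_upwards [e3] with w hw
      have := K_integrable (le_succ hd i) hHm hb hw.1 hw.2.le
      rw [key] at this
      rw [← integrable_indicator_iff hO]
      exact integrable_complex_swap this
  · -- vertical
    set H : ℝ → ℝ → ℝ := fun x y => O.indicator (gy f) ⟨x, y⟩ with hH
    have hHm : Measurable (Function.uncurry H) := by
      have h1 : Measurable (O.indicator (gy f)) := (measurable_gy f).indicator hO
      have h2 : Measurable fun p : ℝ × ℝ => (⟨p.1, p.2⟩ : ℂ) :=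
        Complex.measurableEquivRealProd.symm.measurable
      exact h1.comp h2
    have hb : ∀ x y, |x - d * i| ≤ w0 → y ∈ Icc (d * (j : ℝ) - w0) (d * (j + 1) + w0) →
        |H x y| ≤ M := fun x y hx hy =>
      abs_indicator_le' hM (hby _ (show (⟨x, y⟩ : ℂ) ∈ egw d w0 (true, i, j) from ⟨hx, hy⟩))
    have hc : ∀ᵐ y, y ∈ Ioo (d * (j : ℝ)) (d * (j + 1)) →
        ContinuousAt (Function.uncurry H) (d * i, y) := by
      have hcn : {y : ℝ | (⟨d * i, y⟩ : ℂ) ∈ eg d (true, i, j) ∩ frontier O}.Countable := by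
        refine hfr.preimage (f := fun y : ℝ => (⟨d * i, y⟩ : ℂ)) ?_
        intro y y' h
        exact congrArg Complex.im h
      filter_upwards [hcn.ae_notMem volume] with y hy hyI
      have hmem : (⟨d * i, y⟩ : ℂ) ∈ eg d (true, i, j) :=
        mem_eg_true.2 ⟨rfl, hyI.1.le, hyI.2.le⟩
      have hnf : (⟨d * i, y⟩ : ℂ) ∉ frontier O := fun h => hy ⟨hmem, h⟩
      have h1 := continuousAt_indicator
        ((continuousOn_gy hU hf).continuousAt (hU.mem_nhds (he hmem))) hnf
      have h2 : Continuous fun p : ℝ × ℝ => (⟨p.1, p.2⟩ : ℂ) := by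
        have : (fun p : ℝ × ℝ => (⟨p.1, p.2⟩ : ℂ)) =
            fun p => Complex.equivRealProdCLM.symm p := by
          funext p; rfl
        rw [this]
        exact Complex.equivRealProdCLM.symm.continuous
      exact ContinuousAt.comp (g := O.indicator (gy f)) (f := fun p : ℝ × ℝ => (⟨p.1, p.2⟩ : ℂ))
        (x := (d * i, y)) h1 h2.continuousAt
    have key : ∀ w, (fun p : ℝ × ℝ => dp w (p.1 - d * i) *
        (tz w (d * j) (d * (j + 1)) p.2 * H p.1 p.2)) =
        fun p => O.indicator (fun z => Te d w f z (true, i, j)) ⟨p.1, p.2⟩ := by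
      intro w
      funext p
      simp only [hH]
      by_cases hp : (⟨p.1, p.2⟩ : ℂ) ∈ O
      · rw [indicator_of_mem hp, indicator_of_mem hp]
        simp only [Te, if_true]
        ring
      · rw [indicator_of_notMem hp, indicator_of_notMem hp]; ring
    constructor
    · have := K_lim hw0 (le_succ hd j) hM hHm hb hc
      simp only [key] at this
      have hJ : Je d O f (true, i, j) = ∫ y in (d * j)..(d * (j + 1)), H (d * i) y := by
        simp [Je, hH]
      rw [hJ]
      refine this.congr fun w => ?_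
      rw [← integral_indicator hO, integral_complex]
    · filter_upwards [e3] with w hw
      have := K_integrable (le_succ hd j) hHm hb hw.1 hw.2.le
      rw [key] at this
      rw [← integrable_indicator_iff hO]
      exact integrable_complex this

/-- **the limit** -/
theorem tendsto_chi (hd : 0 < d) (hU : IsOpen U) (hf : ContDiffOn ℝ 1 f U)
    (hO : MeasurableSet O) (hB : Bd d D ⊆ U) (hfr : (Bd d D ∩ frontier O).Countable) :
    Tendsto (fun w => ∫ z in O, wdg (chi d D w) f z) (𝓝[>] 0)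
      (𝓝 (∑ e ∈ ED D, (ce D e : ℝ) * Je d O f e)) := by
  have hedge : ∀ e : Ed, ce D e ≠ 0 →
      Tendsto (fun w => ∫ z in O, Te d w f z e) (𝓝[>] 0) (𝓝 (Je d O f e)) ∧
      ∀ᶠ w in 𝓝[>] (0 : ℝ), IntegrableOn (fun z => Te d w f z e) O := fun e he =>
    tendsto_edge hd hU hf hO (fun z hz => hB ⟨e, he, hz⟩)
      (hfr.mono (inter_subset_inter_left _ (fun z hz => ⟨e, he, hz⟩ : eg d e ⊆ Bd d D)))
  have h1 : Tendsto (fun w => ∑ e ∈ ED D, (ce D e : ℝ) * ∫ z in O, Te d w f z e) (𝓝[>] 0)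
      (𝓝 (∑ e ∈ ED D, (ce D e : ℝ) * Je d O f e)) := by
    refine tendsto_finsetSum _ fun e _ => ?_
    by_cases he : ce D e = 0
    · simp [he]
    · exact (hedge e he).1.const_mul _
  refine h1.congr' ?_
  have h2 : ∀ᶠ w in 𝓝[>] (0 : ℝ), ∀ e ∈ {e : Ed | ce D e ≠ 0},
      IntegrableOn (fun z => Te d w f z e) O :=
    (Filter.eventually_all_finite (finite_ce D)).2 fun e he => (hedge e he).2
  filter_upwards [h2, self_mem_nhdsWithin] with w hw hw0
  have h3 : (∫ z in O, wdg (chi d D w) f z) =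
      ∫ z in O, ∑ e ∈ ED D, (ce D e : ℝ) * Te d w f z e := by
    refine integral_congr_ae ?_
    filter_upwards [ae_restrict_of_ae (ae_not_bad d w D)] with z hz
    exact wdg_chi hw0 f hz
  rw [h3, integral_finsetSum]
  · refine Finset.sum_congr rfl fun e _ => ?_
    rw [integral_const_mul]
  · intro e _
    by_cases he : ce D e = 0
    · simp [he]
    · exact (hw e he).const_mul _

end

end Crest.Agent.R105.Bxk_473
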