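import Crest.Agent.R105.Lmy3_701

/-!
# Row 105, S0138, LEMMA Y, part (2b): the parity region of a closed grid loop made of a walk in `Gp`,
a walk in `Gm` and two cut edges (helper701, post #10366)
-/

set_option autoImplicit false

open Set Topology Relation

namespace Crest.Agent.R105.Lmy_701

theorem zmod2_cases (x : ZMod 2) : x = 0 ∨ x = 1 := by revert x; decide

theorem isH.seg {d : ℝ} {G : Set ℂ} {v w : ℤ × ℤ} {i j : ℤ} (h : isH v w i j)
    (hs : segment ℝ (gv d v) (gv d w) ⊆ G) : segment ℝ (gv d (i, j)) (gv d (i + 1, j)) ⊆ G := by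
  rcases h with ⟨rfl, rfl⟩ | ⟨rfl, rfl⟩
  · exact hs
  · rw [segment_symm]; exact hs

theorem isV.seg {d : ℝ} {G : Set ℂ} {v w : ℤ × ℤ} {i j : ℤ} (h : isV v w i j)
    (hs : segment ℝ (gv d v) (gv d w) ⊆ G) : segment ℝ (gv d (i, j)) (gv d (i, j + 1)) ⊆ G := by
  rcases h with ⟨rfl, rfl⟩ | ⟨rfl, rfl⟩
  · exact hs
  · rw [segment_symm]; exact hs

/-- potential (parity function) of a walk in `G` from `v` to `w` -/
structure Pot (d : ℝ) (G : Set ℂ) (v w : ℤ × ℤ) (P : ℤ × ℤ → ZMod 2) (M : ℤ) : Prop where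
  H : ∀ i j, P (i, j - 1) + P (i, j) ≠ 0 → segment ℝ (gv d (i, j)) (gv d (i + 1, j)) ⊆ G
  V : ∀ i j, P (i - 1, j) + P (i, j) + (Bi v i j + Bi w i j) ≠ 0 →
    segment ℝ (gv d (i, j)) (gv d (i, j + 1)) ⊆ G
  top : ∀ c : ℤ × ℤ, M ≤ c.2 → P c = 0
  right : ∀ c : ℤ × ℤ, M ≤ c.1 → P c = 0
  left : ∀ c : ℤ × ℤ, c.1 < -M → P c = 0
  bot : ∀ c : ℤ × ℤ, c.2 < -M → P c = Ai v c + Ai w c

theorem z2_a (a b c d : ZMod 2) (h : a + c + (b + d) ≠ 0) : a + b ≠ 0 ∨ c + d ≠ 0 := by
  revert a b c d; decide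

theorem z2_b (a b c d x y z : ZMod 2) (h : (a + c) + (b + d) + (x + z) ≠ 0) :
    a + b + (x + y) ≠ 0 ∨ c + d + (y + z) ≠ 0 := by
  revert a b c d x y z; decide

theorem z2_c (a b c : ZMod 2) : a + b + (b + c) = a + c := by revert a b c; decide

theorem exists_pot {d : ℝ} {G : Set ℂ} {v w : ℤ × ℤ} (h : Rch d G v w) :
    ∃ P M, Pot d G v w P M := by
  induction h with
  | refl =>
    refine ⟨0, 0, fun i j h => absurd (by simp) h, fun i j h => ?_, fun c _ => rfl, fun c _ => rfl,
      fun c _ => rfl, fun c _ => by rw [zmod2_add_self]; rfl⟩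
    rw [zmod2_add_self] at h
    simp at h
  | @tail w u _ hs ih =>
    obtain ⟨P, M, hP⟩ := ih
    set M' : ℤ := max M (|w.1| + |w.2| + |u.1| + |u.2| + 1) with hM'
    have hMM : M ≤ M' := le_max_left _ _
    have hM2 : |w.1| + |w.2| + |u.1| + |u.2| + 1 ≤ M' := le_max_right _ _
    have w1 := abs_le.1 (le_refl |w.1|)
    have w2 := abs_le.1 (le_refl |w.2|)
    have u1 := abs_le.1 (le_refl |u.1|)
    have u2 := abs_le.1 (le_refl |u.2|)
    have nw1 := abs_nonneg w.1
    have nw2 := abs_nonneg w.2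
    have nu1 := abs_nonneg u.1
    have nu2 := abs_nonneg u.2
    refine ⟨fun c => P c + st w u c, M', ?_, ?_, ?_, ?_, ?_, ?_⟩
    · intro i j h
      rcases z2_a _ _ _ _ h with h | h
      · exact hP.H i j h
      · rw [st_H hs.1] at h
        by_cases h' : isH w u i j
        · exact h'.seg hs.2
        · rw [if_neg h'] at h; exact absurd rfl h
    · intro i j h
      rcases z2_b _ _ _ _ _ (Bi w i j) _ h with h | h
      · exact hP.V i j h
      · rw [st_V hs.1] at h
        by_cases h' : isV w u i j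
        · exact h'.seg hs.2
        · rw [if_neg h'] at h; exact absurd rfl h
    · intro c hc
      show P c + st w u c = 0
      rw [hP.top c (hMM.trans hc), zero_add, st, if_neg (by omega)]
    · intro c hc
      show P c + st w u c = 0
      rw [hP.right c (hMM.trans hc), zero_add, st, Ai, Ai, if_pos (by omega : w.1 ≤ c.1),
        if_pos (by omega : u.1 ≤ c.1)]
      split_ifs <;> decide
    · intro c hc
      show P c + st w u c = 0
      rw [hP.left c (by omega), zero_add, st, Ai, Ai, if_neg (by omega : ¬ w.1 ≤ c.1),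
        if_neg (by omega : ¬ u.1 ≤ c.1)]
      split_ifs <;> decide
    · intro c hc
      show P c + st w u c = Ai v c + Ai u c
      rw [hP.bot c (by omega), st, if_pos (by omega), z2_c]

/-- the region of a closed loop with two cut edges -/
structure Loop (d : ℝ) (Gp Gm : Set ℂ) (v v' u u' : ℤ × ℤ) (D : Finset (ℤ × ℤ)) : Prop where
  H : ∀ i j, ¬ ((i, j - 1) ∈ D ↔ (i, j) ∈ D) →
    segment ℝ (gv d (i, j)) (gv d (i + 1, j)) ⊆ Gp ∨ segment ℝ (gv d (i, j)) (gv d (i + 1, j)) ⊆ Gm ∨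
      isH v v' i j ∨ isH u u' i j
  V : ∀ i j, ¬ ((i - 1, j) ∈ D ↔ (i, j) ∈ D) →
    segment ℝ (gv d (i, j)) (gv d (i, j + 1)) ⊆ Gp ∨ segment ℝ (gv d (i, j)) (gv d (i, j + 1)) ⊆ Gm ∨
      isV v v' i j ∨ isV u u' i j
  Hv : ∀ i j, isH v v' i j → ¬ ((i, j - 1) ∈ D ↔ (i, j) ∈ D)
  Vv : ∀ i j, isV v v' i j → ¬ ((i - 1, j) ∈ D ↔ (i, j) ∈ D)
  Hu : ∀ i j, isH u u' i j → ¬ ((i, j - 1) ∈ D ↔ (i, j) ∈ D)
  Vu : ∀ i j, isV u u' i j → ¬ ((i - 1, j) ∈ D ↔ (i, j) ∈ D)

theorem isH_ends {v v' u u' : ℤ × ℤ} {i j : ℤ} (h : isH v v' i j) (h' : isH u u' i j) :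
    (v = u ∧ v' = u') ∨ (v = u' ∧ v' = u) := by
  rcases h with ⟨rfl, rfl⟩ | ⟨rfl, rfl⟩ <;> rcases h' with ⟨rfl, rfl⟩ | ⟨rfl, rfl⟩ <;> simp

theorem isV_ends {v v' u u' : ℤ × ℤ} {i j : ℤ} (h : isV v v' i j) (h' : isV u u' i j) :
    (v = u ∧ v' = u') ∨ (v = u' ∧ v' = u) := by
  rcases h with ⟨rfl, rfl⟩ | ⟨rfl, rfl⟩ <;> rcases h' with ⟨rfl, rfl⟩ | ⟨rfl, rfl⟩ <;> simp

theorem z2_four (a a' b b' c c' e e' : ZMod 2)
    (h : a + b + c + e + (a' + b' + c' + e') ≠ 0) :
    a + a' ≠ 0 ∨ b + b' ≠ 0 ∨ c + c' ≠ 0 ∨ e + e' ≠ 0 := by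
  by_contra hcon
  push Not at hcon
  obtain ⟨h1, h2, h3, h4⟩ := hcon
  apply h
  linear_combination h1 + h2 + h3 + h4

theorem z2_fourV (a a' b b' c c' e e' x y z w : ZMod 2)
    (h : a + b + c + e + (a' + b' + c' + e') ≠ 0) :
    a + a' + (x + y) ≠ 0 ∨ b + b' + (y + z) ≠ 0 ∨ c + c' + (z + w) ≠ 0 ∨ e + e' + (w + x) ≠ 0 := by
  by_contra hcon
  push Not at hcon
  obtain ⟨h1, h2, h3, h4⟩ := hcon
  apply h
  linear_combination h1 + h2 + h3 + h4 - zmod2_add_self x - zmod2_add_self y - zmod2_add_self z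
    - zmod2_add_self w

theorem iff_of_par {P : ℤ × ℤ → ZMod 2} {D : Finset (ℤ × ℤ)} (hD : ∀ c, c ∈ D ↔ P c = 1)
    (c c' : ℤ × ℤ) : ¬ (c ∈ D ↔ c' ∈ D) ↔ P c + P c' ≠ 0 := by
  rw [hD, hD]
  generalize P c = x
  generalize P c' = y
  revert x y; decide

/-- **existence of the region** -/
theorem exists_loop {d : ℝ} {Gp Gm : Set ℂ} {v v' u u' : ℤ × ℤ} (h1 : Rch d Gp v' u')
    (h2 : Rch d Gm v u) (hv : Adj v v') (hu : Adj u u')
    (hvp : ¬ segment ℝ (gv d v) (gv d v') ⊆ Gp) (hvm : ¬ segment ℝ (gv d v) (gv d v') ⊆ Gm)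
    (hup : ¬ segment ℝ (gv d u) (gv d u') ⊆ Gp) (hum : ¬ segment ℝ (gv d u) (gv d u') ⊆ Gm)
    (hne : ¬ ((v = u ∧ v' = u') ∨ (v = u' ∧ v' = u))) :
    ∃ D : Finset (ℤ × ℤ), Loop d Gp Gm v v' u u' D := by
  obtain ⟨P1, M1, hP1⟩ := exists_pot h1
  obtain ⟨P2, M2, hP2⟩ := exists_pot h2.symm
  -- the loop: `v → v' → u' → u → v`
  set P : ℤ × ℤ → ZMod 2 := fun c => st v v' c + P1 c + st u' u c + P2 c with hP
  set M : ℤ := max M1 (max M2 (|v.1| + |v.2| + |v'.1| + |v'.2| + |u.1| + |u.2| + |u'.1| + |u'.2| + 1))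
    with hM
  have m1 : M1 ≤ M := le_max_left _ _
  have m2 : M2 ≤ M := (le_max_left _ _).trans (le_max_right _ _)
  have m3 : |v.1| + |v.2| + |v'.1| + |v'.2| + |u.1| + |u.2| + |u'.1| + |u'.2| + 1 ≤ M :=
    (le_max_right _ _).trans (le_max_right _ _)
  have v1 := abs_le.1 (le_refl |v.1|)
  have v2 := abs_le.1 (le_refl |v.2|)
  have v3 := abs_le.1 (le_refl |v'.1|)
  have v4 := abs_le.1 (le_refl |v'.2|)
  have v5 := abs_le.1 (le_refl |u.1|)
  have v6 := abs_le.1 (le_refl |u.2|)
  have v7 := abs_le.1 (le_refl |u'.1|)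
  have v8 := abs_le.1 (le_refl |u'.2|)
  have n1 := abs_nonneg v.1
  have n2 := abs_nonneg v.2
  have n3 := abs_nonneg v'.1
  have n4 := abs_nonneg v'.2
  have n5 := abs_nonneg u.1
  have n6 := abs_nonneg u.2
  have n7 := abs_nonneg u'.1
  have n8 := abs_nonneg u'.2
  have hout : ∀ c : ℤ × ℤ, P c = 1 → (-M ≤ c.1 ∧ c.1 ≤ M) ∧ -M ≤ c.2 ∧ c.2 ≤ M := by
    intro c hc
    by_contra hcon
    have hz : P c = 0 := by
      show st v v' c + P1 c + st u' u c + P2 c = 0
      by_cases a1 : M ≤ c.2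
      · rw [hP1.top c (m1.trans a1), hP2.top c (m2.trans a1), st, st, if_neg (by omega),
          if_neg (by omega)]; decide
      by_cases a2 : M ≤ c.1
      · rw [hP1.right c (m1.trans a2), hP2.right c (m2.trans a2), st, st]
        simp only [Ai, show v.1 ≤ c.1 by omega, show v'.1 ≤ c.1 by omega, show u.1 ≤ c.1 by omega,
          show u'.1 ≤ c.1 by omega, if_true]
        split_ifs <;> decide
      by_cases a3 : c.1 < -M
      · rw [hP1.left c (by omega), hP2.left c (by omega), st, st]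
        simp only [Ai, show ¬ v.1 ≤ c.1 by omega, show ¬ v'.1 ≤ c.1 by omega,
          show ¬ u.1 ≤ c.1 by omega, show ¬ u'.1 ≤ c.1 by omega, if_false]
        split_ifs <;> decide
      · have a4 : c.2 < -M := by omega
        rw [hP1.bot c (by omega), hP2.bot c (by omega), st, st, if_pos (by omega),
          if_pos (by omega)]
        linear_combination zmod2_add_self (Ai v c) + zmod2_add_self (Ai v' c) +
          zmod2_add_self (Ai u c) + zmod2_add_self (Ai u' c)
    rw [hz] at hc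
    exact absurd hc (by decide)
  set D : Finset (ℤ × ℤ) := ((Finset.Icc (-M) M) ×ˢ (Finset.Icc (-M) M)).filter (fun c => P c = 1)
    with hD
  have hmem : ∀ c, c ∈ D ↔ P c = 1 := by
    intro c
    rw [hD, Finset.mem_filter, Finset.mem_product, Finset.mem_Icc, Finset.mem_Icc]
    exact ⟨fun h => h.2, fun h => ⟨⟨(hout c h).1, (hout c h).2⟩, h⟩⟩
  have stH : ∀ i j, st v v' (i, j - 1) + st v v' (i, j) ≠ 0 → isH v v' i j := by
    intro i j h; rw [st_H hv] at h; by_contra h'; rw [if_neg h'] at h; exact h rfl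
  have stH' : ∀ i j, st u' u (i, j - 1) + st u' u (i, j) ≠ 0 → isH u u' i j := by
    intro i j h; rw [st_H hu.symm] at h; by_contra h'
    rw [if_neg (fun h'' => h' (by rcases h'' with ⟨a, b⟩ | ⟨a, b⟩
                                  · exact Or.inr ⟨a, b⟩
                                  · exact Or.inl ⟨a, b⟩))] at h
    exact h rfl
  have stV : ∀ i j, st v v' (i - 1, j) + st v v' (i, j) + (Bi v i j + Bi v' i j) ≠ 0 →
      isV v v' i j := by
    intro i j h; rw [st_V hv] at h; by_contra h'; rw [if_neg h'] at h; exact h rfl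
  have stV' : ∀ i j, st u' u (i - 1, j) + st u' u (i, j) + (Bi u' i j + Bi u i j) ≠ 0 →
      isV u u' i j := by
    intro i j h; rw [st_V hu.symm] at h; by_contra h'
    rw [if_neg (fun h'' => h' (by rcases h'' with ⟨a, b⟩ | ⟨a, b⟩
                                  · exact Or.inr ⟨a, b⟩
                                  · exact Or.inl ⟨a, b⟩))] at h
    exact h rfl
  refine ⟨D, ⟨?_, ?_, ?_, ?_, ?_, ?_⟩⟩
  · intro i j h
    rw [iff_of_par hmem] at h
    rcases z2_four _ _ _ _ _ _ _ _ h with h | h | h | h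
    · exact Or.inr (Or.inr (Or.inl (stH i j h)))
    · exact Or.inl (hP1.H i j h)
    · exact Or.inr (Or.inr (Or.inr (stH' i j h)))
    · exact Or.inr (Or.inl (hP2.H i j h))
  · intro i j h
    rw [iff_of_par hmem] at h
    rcases z2_fourV _ _ _ _ _ _ _ _ (Bi v i j) (Bi v' i j) (Bi u' i j) (Bi u i j) h with h | h | h | h
    · exact Or.inr (Or.inr (Or.inl (stV i j h)))
    · exact Or.inl (hP1.V i j h)
    · exact Or.inr (Or.inr (Or.inr (stV' i j h)))
    · exact Or.inr (Or.inl (hP2.V i j h))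
  · intro i j hH
    rw [iff_of_par hmem]
    have a1 : st v v' (i, j - 1) + st v v' (i, j) = 1 := by rw [st_H hv, if_pos hH]
    have a2 : P1 (i, j - 1) + P1 (i, j) = 0 := by
      by_contra h
      exact hvp (by
        have := hP1.H i j h
        rcases hH with ⟨rfl, rfl⟩ | ⟨rfl, rfl⟩
        · exact this
        · rw [segment_symm]; exact this)
    have a3 : P2 (i, j - 1) + P2 (i, j) = 0 := by
      by_contra h
      exact hvm (by
        have := hP2.H i j h
        rcases hH with ⟨rfl, rfl⟩ | ⟨rfl, rfl⟩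
        · exact this
        · rw [segment_symm]; exact this)
    have a4 : st u' u (i, j - 1) + st u' u (i, j) = 0 := by
      by_contra h
      exact hne (isH_ends hH (stH' i j h))
    have : P (i, j - 1) + P (i, j) = 1 := by
      show st v v' (i, j - 1) + P1 (i, j - 1) + st u' u (i, j - 1) + P2 (i, j - 1) +
        (st v v' (i, j) + P1 (i, j) + st u' u (i, j) + P2 (i, j)) = 1
      linear_combination a1 + a2 + a3 + a4
    rw [this]; decide
  · intro i j hV
    rw [iff_of_par hmem]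
    have a1 : st v v' (i - 1, j) + st v v' (i, j) + (Bi v i j + Bi v' i j) = 1 := by
      rw [st_V hv, if_pos hV]
    have a2 : P1 (i - 1, j) + P1 (i, j) + (Bi v' i j + Bi u' i j) = 0 := by
      by_contra h
      exact hvp (by
        have := hP1.V i j h
        rcases hV with ⟨rfl, rfl⟩ | ⟨rfl, rfl⟩
        · exact this
        · rw [segment_symm]; exact this)
    have a3 : P2 (i - 1, j) + P2 (i, j) + (Bi u i j + Bi v i j) = 0 := by
      by_contra h
      exact hvm (by
        have := hP2.V i j h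
        rcases hV with ⟨rfl, rfl⟩ | ⟨rfl, rfl⟩
        · exact this
        · rw [segment_symm]; exact this)
    have a4 : st u' u (i - 1, j) + st u' u (i, j) + (Bi u' i j + Bi u i j) = 0 := by
      by_contra h
      exact hne (isV_ends hV (stV' i j h))
    have : P (i - 1, j) + P (i, j) = 1 := by
      show st v v' (i - 1, j) + P1 (i - 1, j) + st u' u (i - 1, j) + P2 (i - 1, j) +
        (st v v' (i, j) + P1 (i, j) + st u' u (i, j) + P2 (i, j)) = 1
      linear_combination a1 + a2 + a3 + a4 - zmod2_add_self (Bi v i j) - zmod2_add_self (Bi v' i j) -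
          zmod2_add_self (Bi u i j) - zmod2_add_self (Bi u' i j)
    rw [this]; decide
  · intro i j hH
    rw [iff_of_par hmem]
    have a1 : st u' u (i, j - 1) + st u' u (i, j) = 1 := by
      rw [st_H hu.symm, if_pos (by rcases hH with ⟨a, b⟩ | ⟨a, b⟩
                                   · exact Or.inr ⟨a, b⟩
                                   · exact Or.inl ⟨a, b⟩)]
    have a2 : P1 (i, j - 1) + P1 (i, j) = 0 := by
      by_contra h
      exact hup (by
        have := hP1.H i j h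
        rcases hH with ⟨rfl, rfl⟩ | ⟨rfl, rfl⟩
        · exact this
        · rw [segment_symm]; exact this)
    have a3 : P2 (i, j - 1) + P2 (i, j) = 0 := by
      by_contra h
      exact hum (by
        have := hP2.H i j h
        rcases hH with ⟨rfl, rfl⟩ | ⟨rfl, rfl⟩
        · exact this
        · rw [segment_symm]; exact this)
    have a4 : st v v' (i, j - 1) + st v v' (i, j) = 0 := by
      by_contra h
      exact hne (isH_ends (stH i j h) hH)
    have : P (i, j - 1) + P (i, j) = 1 := by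
      show st v v' (i, j - 1) + P1 (i, j - 1) + st u' u (i, j - 1) + P2 (i, j - 1) +
        (st v v' (i, j) + P1 (i, j) + st u' u (i, j) + P2 (i, j)) = 1
      linear_combination a1 + a2 + a3 + a4
    rw [this]; decide
  · intro i j hV
    rw [iff_of_par hmem]
    have a1 : st u' u (i - 1, j) + st u' u (i, j) + (Bi u' i j + Bi u i j) = 1 := by
      rw [st_V hu.symm, if_pos (by rcases hV with ⟨a, b⟩ | ⟨a, b⟩
                                   · exact Or.inr ⟨a, b⟩
                                   · exact Or.inl ⟨a, b⟩)]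
    have a2 : P1 (i - 1, j) + P1 (i, j) + (Bi v' i j + Bi u' i j) = 0 := by
      by_contra h
      exact hup (by
        have := hP1.V i j h
        rcases hV with ⟨rfl, rfl⟩ | ⟨rfl, rfl⟩
        · exact this
        · rw [segment_symm]; exact this)
    have a3 : P2 (i - 1, j) + P2 (i, j) + (Bi u i j + Bi v i j) = 0 := by
      by_contra h
      exact hum (by
        have := hP2.V i j h
        rcases hV with ⟨rfl, rfl⟩ | ⟨rfl, rfl⟩
        · exact this
        · rw [segment_symm]; exact this)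
    have a4 : st v v' (i - 1, j) + st v v' (i, j) + (Bi v i j + Bi v' i j) = 0 := by
      by_contra h
      exact hne (isV_ends (stV i j h) hV)
    have : P (i - 1, j) + P (i, j) = 1 := by
      show st v v' (i - 1, j) + P1 (i - 1, j) + st u' u (i - 1, j) + P2 (i - 1, j) +
        (st v v' (i, j) + P1 (i, j) + st u' u (i, j) + P2 (i, j)) = 1
      linear_combination a1 + a2 + a3 + a4 - zmod2_add_self (Bi v i j) - zmod2_add_self (Bi v' i j) -
          zmod2_add_self (Bi u i j) - zmod2_add_self (Bi u' i j)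
    rw [this]; decide

end Crest.Agent.R105.Lmy_701
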