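import Crest.Agent.R105.Bxk4_473
import Crest.Agent.R105.Lmy4_701

/-!
# Row 105, S0138, LEMMA Y (4b) of helper701 #10366, part 5 (helper473): evaluation

* `th a t d e` : `+1` if `a > t` at the start only, `-1` if `a > t` at the end only
* `Crs a t d e p` : `a` crosses the value `t` on the edge `e` exactly at `p`
* **`tendsto_two`** : two cut edges: limit `c₂ θ₂ (f q - f p)`
* **`tendsto_loop`** : the same for 701's `Loop`
-/

set_option autoImplicit false

open MeasureTheory Set Filter Topology Metric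
open scoped NNReal ENNReal

namespace Crest.Agent.R105.Bxk_473

open Bd_775

noncomputable section

/-! ### one-dimensional integrals -/

section OneDim
variable {l r t m : ℝ} {φ F F' I : ℝ → ℝ}

lemma one_pos (hlr : l ≤ r) (hF : ∀ s ∈ Icc l r, HasDerivAt F (F' s) s)
    (hF' : ContinuousOn F' (Icc l r)) (hI : ∀ s ∈ Icc l r, I s = if t < φ s then F' s else 0)
    (h : ∀ s ∈ Icc l r, t < φ s) : ∫ s in l..r, I s = F r - F l := by
  rw [← uIcc_of_le hlr] at hF hF' hI h
  rw [← intervalIntegral.integral_eq_sub_of_hasDerivAt hF hF'.intervalIntegrable]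
  refine intervalIntegral.integral_congr fun s hs => ?_
  simp only [hI s hs, if_pos (h s hs)]

lemma one_neg (hlr : l ≤ r) (hI : ∀ s ∈ Icc l r, I s = if t < φ s then F' s else 0)
    (h : ∀ s ∈ Icc l r, φ s < t) : ∫ s in l..r, I s = 0 := by
  rw [← uIcc_of_le hlr] at hI h
  have : ∫ s in l..r, I s = ∫ _ in l..r, (0 : ℝ) := by
    refine intervalIntegral.integral_congr fun s hs => ?_
    simp only [hI s hs, if_neg (not_lt.2 (h s hs).le)]
  rw [this]; simp

lemma ne_ae (m : ℝ) : ∀ᵐ s : ℝ, s ≠ m := by rw [ae_iff]; simp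

/-- integral of a function which is `F'` before `m` and `0` after `m` -/
lemma one_left (hm : m ∈ Icc l r) (hF : ∀ s ∈ Icc l r, HasDerivAt F (F' s) s)
    (hF' : ContinuousOn F' (Icc l r)) (h1 : ∀ s ∈ Ico l m, I s = F' s)
    (h2 : ∀ s ∈ Ioc m r, I s = 0) : ∫ s in l..r, I s = F m - F l := by
  have i1 : (fun s => F' s) =ᵐ[volume.restrict (uIoc l m)] I := by
    rw [Filter.EventuallyEq, ae_restrict_iff' measurableSet_uIoc]
    filter_upwards [ne_ae m] with s hs hsm
    rw [uIoc_of_le hm.1] at hsm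
    exact (h1 s ⟨hsm.1.le, lt_of_le_of_ne hsm.2 hs⟩).symm
  have i2 : (fun _ => (0 : ℝ)) =ᵐ[volume.restrict (uIoc m r)] I := by
    rw [Filter.EventuallyEq, ae_restrict_iff' measurableSet_uIoc]
    refine ae_of_all _ fun s hs => ?_
    rw [uIoc_of_le hm.2] at hs
    exact (h2 s hs).symm
  have hlm : Icc l m ⊆ Icc l r := Icc_subset_Icc_right hm.2
  have hc : IntervalIntegrable F' volume l m := by
    refine ContinuousOn.intervalIntegrable ?_
    rw [uIcc_of_le hm.1]; exact hF'.mono hlm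
  have j1 : IntervalIntegrable I volume l m := hc.congr_ae i1
  have j2 : IntervalIntegrable I volume m r :=
    (intervalIntegrable_const (c := (0 : ℝ))).congr_ae i2
  rw [← intervalIntegral.integral_add_adjacent_intervals j1 j2]
  have k1 : ∫ s in l..m, I s = F m - F l := by
    rw [← intervalIntegral.integral_eq_sub_of_hasDerivAt (f := F) (f' := F')
      (fun s hs => hF s (hlm (by rwa [uIcc_of_le hm.1] at hs))) hc]
    refine intervalIntegral.integral_congr_ae ?_
    rw [Filter.EventuallyEq, ae_restrict_iff' measurableSet_uIoc] at i1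
    filter_upwards [i1] with s hs hs'
    exact (hs hs').symm
  have k2 : ∫ s in m..r, I s = 0 := by
    have : ∫ s in m..r, I s = ∫ _ in m..r, (0 : ℝ) := by
      refine intervalIntegral.integral_congr_ae ?_
      rw [Filter.EventuallyEq, ae_restrict_iff' measurableSet_uIoc] at i2
      filter_upwards [i2] with s hs hs'
      exact (hs hs').symm
    rw [this]; simp
  rw [k1, k2, add_zero]

/-- integral of a function which is `0` before `m` and `F'` after `m` -/
lemma one_right (hm : m ∈ Icc l r) (hF : ∀ s ∈ Icc l r, HasDerivAt F (F' s) s)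
    (hF' : ContinuousOn F' (Icc l r)) (h1 : ∀ s ∈ Ico l m, I s = 0)
    (h2 : ∀ s ∈ Ioc m r, I s = F' s) : ∫ s in l..r, I s = F r - F m := by
  have i1 : (fun _ => (0 : ℝ)) =ᵐ[volume.restrict (uIoc l m)] I := by
    rw [Filter.EventuallyEq, ae_restrict_iff' measurableSet_uIoc]
    filter_upwards [ne_ae m] with s hs hsm
    rw [uIoc_of_le hm.1] at hsm
    exact (h1 s ⟨hsm.1.le, lt_of_le_of_ne hsm.2 hs⟩).symm
  have i2 : (fun s => F' s) =ᵐ[volume.restrict (uIoc m r)] I := by
    rw [Filter.EventuallyEq, ae_restrict_iff' measurableSet_uIoc]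
    refine ae_of_all _ fun s hs => ?_
    rw [uIoc_of_le hm.2] at hs
    exact (h2 s hs).symm
  have hmr : Icc m r ⊆ Icc l r := Icc_subset_Icc_left hm.1
  have hc : IntervalIntegrable F' volume m r := by
    refine ContinuousOn.intervalIntegrable ?_
    rw [uIcc_of_le hm.2]; exact hF'.mono hmr
  have j1 : IntervalIntegrable I volume l m :=
    (intervalIntegrable_const (c := (0 : ℝ))).congr_ae i1
  have j2 : IntervalIntegrable I volume m r := hc.congr_ae i2
  rw [← intervalIntegral.integral_add_adjacent_intervals j1 j2]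
  have k2 : ∫ s in m..r, I s = F r - F m := by
    rw [← intervalIntegral.integral_eq_sub_of_hasDerivAt (f := F) (f' := F')
      (fun s hs => hF s (hmr (by rwa [uIcc_of_le hm.2] at hs))) hc]
    refine intervalIntegral.integral_congr_ae ?_
    rw [Filter.EventuallyEq, ae_restrict_iff' measurableSet_uIoc] at i2
    filter_upwards [i2] with s hs hs'
    exact (hs hs').symm
  have k1 : ∫ s in l..m, I s = 0 := by
    have : ∫ s in l..m, I s = ∫ _ in l..m, (0 : ℝ) := by
      refine intervalIntegral.integral_congr_ae ?_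
      rw [Filter.EventuallyEq, ae_restrict_iff' measurableSet_uIoc] at i1
      filter_upwards [i1] with s hs hs'
      exact (hs hs').symm
    rw [this]; simp
  rw [k1, k2, zero_add]

/-- sign before the crossing -/
lemma sgn_left (hm : m ∈ Icc l r) (hφ : ContinuousOn φ (Icc l r))
    (hne : ∀ s ∈ Icc l r, s ≠ m → φ s ≠ t) {s : ℝ} (hs : s ∈ Ico l m) :
    (t < φ l → t < φ s) ∧ (φ l < t → φ s < t) := by
  have hsub : Icc l s ⊆ Icc l r := Icc_subset_Icc_right (hs.2.le.trans hm.2)
  have hc := hφ.mono hsub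
  constructor
  · intro h
    by_contra hcon
    obtain ⟨x, hx, hxt⟩ := intermediate_value_Icc' hs.1 hc ⟨not_lt.1 hcon, h.le⟩
    exact hne x (hsub hx) (hx.2.trans_lt hs.2).ne hxt
  · intro h
    by_contra hcon
    obtain ⟨x, hx, hxt⟩ := intermediate_value_Icc hs.1 hc ⟨h.le, not_lt.1 hcon⟩
    exact hne x (hsub hx) (hx.2.trans_lt hs.2).ne hxt

lemma sgn_right (hm : m ∈ Icc l r) (hφ : ContinuousOn φ (Icc l r))
    (hne : ∀ s ∈ Icc l r, s ≠ m → φ s ≠ t) {s : ℝ} (hs : s ∈ Ioc m r) :
    (t < φ r → t < φ s) ∧ (φ r < t → φ s < t) := by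
  have hsub : Icc s r ⊆ Icc l r := Icc_subset_Icc_left (hm.1.trans hs.1.le)
  have hc := hφ.mono hsub
  constructor
  · intro h
    by_contra hcon
    obtain ⟨x, hx, hxt⟩ := intermediate_value_Icc hs.2 hc ⟨not_lt.1 hcon, h.le⟩
    exact hne x (hsub hx) (hs.1.trans_le hx.1).ne' hxt
  · intro h
    by_contra hcon
    obtain ⟨x, hx, hxt⟩ := intermediate_value_Icc' hs.2 hc ⟨h.le, not_lt.1 hcon⟩
    exact hne x (hsub hx) (hs.1.trans_le hx.1).ne' hxt

/-- all cases -/
lemma one_all (hlr : l ≤ r) (hφ : ContinuousOn φ (Icc l r))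
    (hF : ∀ s ∈ Icc l r, HasDerivAt F (F' s) s) (hF' : ContinuousOn F' (Icc l r))
    (hI : ∀ s ∈ Icc l r, I s = if t < φ s then F' s else 0) (m : ℝ)
    (h : (∀ s ∈ Icc l r, t < φ s) ∨ (∀ s ∈ Icc l r, φ s < t) ∨
      (m ∈ Icc l r ∧ (∀ s ∈ Icc l r, s ≠ m → φ s ≠ t) ∧ (φ l - t) * (φ r - t) < 0)) :
    ∫ s in l..r, I s = ((if t < φ r then F r else 0) - (if t < φ l then F l else 0)) +
      ((if t < φ l then 1 else 0) - (if t < φ r then 1 else 0)) * F m := by
  have hl : l ∈ Icc l r := ⟨le_rfl, hlr⟩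
  have hr : r ∈ Icc l r := ⟨hlr, le_rfl⟩
  rcases h with h | h | ⟨hm, hne, hs⟩
  · rw [one_pos hlr hF hF' hI h, if_pos (h r hr), if_pos (h l hl), if_pos (h l hl),
      if_pos (h r hr)]; ring
  · rw [one_neg hlr hI h, if_neg (not_lt.2 (h r hr).le), if_neg (not_lt.2 (h l hl).le),
      if_neg (not_lt.2 (h l hl).le), if_neg (not_lt.2 (h r hr).le)]; ring
  · rcases mul_neg_iff.1 hs with ⟨h1, h2⟩ | ⟨h1, h2⟩
    · have hl' : t < φ l := by linarith
      have hr' : φ r < t := by linarith
      rw [one_left (m := m) hm hF hF', if_neg (not_lt.2 hr'.le), if_pos hl', if_pos hl',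
        if_neg (not_lt.2 hr'.le)]
      · ring
      · intro s hs
        rw [hI s ⟨hs.1, hs.2.le.trans hm.2⟩, if_pos ((sgn_left hm hφ hne hs).1 hl')]
      · intro s hs
        rw [hI s ⟨hm.1.trans hs.1.le, hs.2⟩,
          if_neg (not_lt.2 ((sgn_right hm hφ hne hs).2 hr').le)]
    · have hl' : φ l < t := by linarith
      have hr' : t < φ r := by linarith
      rw [one_right (m := m) hm hF hF', if_pos hr', if_neg (not_lt.2 hl'.le),
        if_neg (not_lt.2 hl'.le), if_pos hr']
      · ring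
      · intro s hs
        rw [hI s ⟨hs.1, hs.2.le.trans hm.2⟩,
          if_neg (not_lt.2 ((sgn_left hm hφ hne hs).2 hl').le)]
      · intro s hs
        rw [hI s ⟨hm.1.trans hs.1.le, hs.2⟩, if_pos ((sgn_right hm hφ hne hs).1 hr')]

end OneDim

/-! ### edges -/

variable {d t : ℝ} {D : Finset (ℤ × ℤ)} {U : Set ℂ} {a f : ℂ → ℝ}

/-- sign of the crossing: `+1` if `a > t` at the start only, `-1` if at the end only -/
def th (a : ℂ → ℝ) (t d : ℝ) (e : Ed) : ℝ :=
  (if t < a (gp d (st e)) then 1 else 0) - (if t < a (gp d (nd e)) then 1 else 0)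

/-- `a` crosses the value `t` on the edge `e` exactly at `p` -/
structure Crs (a : ℂ → ℝ) (t d : ℝ) (e : Ed) (p : ℂ) : Prop where
  mem : p ∈ eg d e
  ne : ∀ z ∈ eg d e, z ≠ p → a z ≠ t
  sgn : (a (gp d (st e)) - t) * (a (gp d (nd e)) - t) < 0

lemma st_mem (hd : 0 < d) (e : Ed) : gp d (st e) ∈ eg d e := by
  obtain ⟨b, i, j⟩ := e
  cases b
  · exact mem_eg_false.2 ⟨rfl, le_rfl, le_succ hd _⟩
  · exact mem_eg_true.2 ⟨rfl, le_rfl, le_succ hd _⟩

lemma nd_mem (hd : 0 < d) (e : Ed) : gp d (nd e) ∈ eg d e := by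
  obtain ⟨b, i, j⟩ := e
  cases b
  · refine mem_eg_false.2 ⟨rfl, ?_, ?_⟩
    · show d * (i : ℝ) ≤ d * ((i + 1 : ℤ) : ℝ)
      push_cast; exact le_succ hd _
    · show d * ((i + 1 : ℤ) : ℝ) ≤ d * ((i : ℝ) + 1)
      push_cast; exact le_rfl
  · refine mem_eg_true.2 ⟨rfl, ?_, ?_⟩
    · show d * (j : ℝ) ≤ d * ((j + 1 : ℤ) : ℝ)
      push_cast; exact le_succ hd _
    · show d * ((j + 1 : ℤ) : ℝ) ≤ d * ((j : ℝ) + 1)
      push_cast; exact le_rfl

lemma hasDerivAt_vert (x : ℝ) (s : ℝ) :
    HasDerivAt (fun s : ℝ => (⟨x, s⟩ : ℂ)) Complex.I s := by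
  have h1 : (fun s : ℝ => (⟨x, s⟩ : ℂ)) = fun s : ℝ => (x : ℂ) + (s : ℂ) * Complex.I := by
    funext s; apply Complex.ext <;> simp
  rw [h1]
  simpa using ((Complex.ofRealCLM.hasDerivAt (x := s)).mul_const Complex.I).const_add (x : ℂ)

lemma hasDerivAt_hor (y : ℝ) (s : ℝ) :
    HasDerivAt (fun s : ℝ => (⟨s, y⟩ : ℂ)) 1 s := by
  have h1 : (fun s : ℝ => (⟨s, y⟩ : ℂ)) = fun s : ℝ => (s : ℂ) + (y : ℂ) * Complex.I := by
    funext s; apply Complex.ext <;> simp
  rw [h1]
  simpa using (Complex.ofRealCLM.hasDerivAt (x := s)).add_const ((y : ℂ) * Complex.I)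

/-- **evaluation of one edge** -/
theorem Je_eq (hd : 0 < d) (hU : IsOpen U) (ha : ContinuousOn a U) (hf : ContDiffOn ℝ 1 f U)
    {e : Ed} (he : eg d e ⊆ U) (p : ℂ)
    (h : (∀ z ∈ eg d e, t < a z) ∨ (∀ z ∈ eg d e, a z < t) ∨ Crs a t d e p) :
    Je d {z | z ∈ U ∧ t < a z} f e =
      ((if t < a (gp d (nd e)) then f (gp d (nd e)) else 0) -
        (if t < a (gp d (st e)) then f (gp d (st e)) else 0)) + th a t d e * f p := by
  have hdf : ∀ z ∈ U, HasFDerivAt f (fderiv ℝ f z) z := fun z hz =>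
    ((hf.contDiffAt (hU.mem_nhds hz)).differentiableAt (by simp)).hasFDerivAt
  obtain ⟨b, i, j⟩ := e
  cases b
  · -- horizontal
    have hcast : d * ((i + 1 : ℤ) : ℝ) = d * ((i : ℝ) + 1) := by push_cast; ring
    have hend : gp d (nd (false, i, j)) = ⟨d * (i + 1), d * j⟩ := by
      simp only [gp, nd, Bool.false_eq_true, if_false, hcast]
    have hst : gp d (st (false, i, j)) = ⟨d * i, d * j⟩ := rfl
    have hγ : Continuous fun s : ℝ => (⟨s, d * j⟩ : ℂ) :=
      continuous_iff_continuousAt.2 fun s => (hasDerivAt_hor (d * j) s).continuousAt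
    have hmem : ∀ s ∈ Icc (d * (i : ℝ)) (d * (i + 1)), (⟨s, d * j⟩ : ℂ) ∈ eg d (false, i, j) :=
      fun s hs => mem_eg_false.2 ⟨rfl, hs⟩
    rw [th, hend, hst]
    have hmain := one_all (l := d * i) (r := d * (i + 1)) (t := t)
      (φ := fun s => a ⟨s, d * j⟩) (F := fun s => f ⟨s, d * j⟩) (F' := fun s => gx f ⟨s, d * j⟩)
      (I := fun s => {z | z ∈ U ∧ t < a z}.indicator (gx f) ⟨s, d * j⟩) (le_succ hd _)
      (ha.comp hγ.continuousOn fun s hs => he (hmem s hs))
      (fun s hs => (hdf _ (he (hmem s hs))).comp_hasDerivAt s (hasDerivAt_hor (d * j) s))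
      ((continuousOn_gx hU hf).comp hγ.continuousOn fun s hs => he (hmem s hs))
      (fun s hs => by
        by_cases h : t < a ⟨s, d * j⟩
        · rw [if_pos h, indicator_of_mem (show (⟨s, d * j⟩ : ℂ) ∈ {z | z ∈ U ∧ t < a z} from
            ⟨he (hmem s hs), h⟩)]
        · rw [if_neg h, indicator_of_notMem fun hc => h hc.2])
      p.re
      (by
        rcases h with h | h | h
        · exact Or.inl fun s hs => h _ (hmem s hs)
        · exact Or.inr (Or.inl fun s hs => h _ (hmem s hs))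
        · refine Or.inr (Or.inr ⟨(mem_eg_false.1 h.mem).2, fun s hs hsm => ?_, ?_⟩)
          · exact h.ne _ (hmem s hs) fun hc => hsm (congrArg Complex.re hc)
          · have := h.sgn
            rw [hend, hst] at this
            exact this)
    have hJ : Je d {z | z ∈ U ∧ t < a z} f (false, i, j) =
      ∫ s in (d * (i : ℝ))..(d * (i + 1)), {z | z ∈ U ∧ t < a z}.indicator (gx f) ⟨s, d * j⟩ := by
      simp [Je]
    rw [hJ, hmain]
    rcases h with h | h | h
    · have h1 := h _ (hmem (d * i) ⟨le_rfl, le_succ hd _⟩)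
      have h2 := h _ (hmem (d * (i + 1)) ⟨le_succ hd _, le_rfl⟩)
      rw [if_pos h1, if_pos h1, if_pos h2, if_pos h2]; ring
    · have h1 := not_lt.2 (h _ (hmem (d * i) ⟨le_rfl, le_succ hd _⟩)).le
      have h2 := not_lt.2 (h _ (hmem (d * (i + 1)) ⟨le_succ hd _, le_rfl⟩)).le
      rw [if_neg h1, if_neg h1, if_neg h2, if_neg h2]; ring
    · have : (⟨p.re, d * j⟩ : ℂ) = p := by
        apply Complex.ext
        · rfl
        · exact (mem_eg_false.1 h.mem).1.symm
      rw [this]
  · -- vertical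
    have hcast : d * ((j + 1 : ℤ) : ℝ) = d * ((j : ℝ) + 1) := by push_cast; ring
    have hend : gp d (nd (true, i, j)) = ⟨d * i, d * (j + 1)⟩ := by
      simp only [gp, nd, if_true, hcast]
    have hst : gp d (st (true, i, j)) = ⟨d * i, d * j⟩ := rfl
    have hγ : Continuous fun s : ℝ => (⟨d * i, s⟩ : ℂ) :=
      continuous_iff_continuousAt.2 fun s => (hasDerivAt_vert (d * i) s).continuousAt
    have hmem : ∀ s ∈ Icc (d * (j : ℝ)) (d * (j + 1)), (⟨d * i, s⟩ : ℂ) ∈ eg d (true, i, j) :=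
      fun s hs => mem_eg_true.2 ⟨rfl, hs⟩
    rw [th, hend, hst]
    have hmain := one_all (l := d * j) (r := d * (j + 1)) (t := t)
      (φ := fun s => a ⟨d * i, s⟩) (F := fun s => f ⟨d * i, s⟩) (F' := fun s => gy f ⟨d * i, s⟩)
      (I := fun s => {z | z ∈ U ∧ t < a z}.indicator (gy f) ⟨d * i, s⟩) (le_succ hd _)
      (ha.comp hγ.continuousOn fun s hs => he (hmem s hs))
      (fun s hs => (hdf _ (he (hmem s hs))).comp_hasDerivAt s (hasDerivAt_vert (d * i) s))
      ((continuousOn_gy hU hf).comp hγ.continuousOn fun s hs => he (hmem s hs))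
      (fun s hs => by
        by_cases h : t < a ⟨d * i, s⟩
        · rw [if_pos h, indicator_of_mem (show (⟨d * i, s⟩ : ℂ) ∈ {z | z ∈ U ∧ t < a z} from
            ⟨he (hmem s hs), h⟩)]
        · rw [if_neg h, indicator_of_notMem fun hc => h hc.2])
      p.im
      (by
        rcases h with h | h | h
        · exact Or.inl fun s hs => h _ (hmem s hs)
        · exact Or.inr (Or.inl fun s hs => h _ (hmem s hs))
        · refine Or.inr (Or.inr ⟨(mem_eg_true.1 h.mem).2, fun s hs hsm => ?_, ?_⟩)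
          · exact h.ne _ (hmem s hs) fun hc => hsm (congrArg Complex.im hc)
          · have := h.sgn
            rw [hend, hst] at this
            exact this)
    have hJ : Je d {z | z ∈ U ∧ t < a z} f (true, i, j) =
      ∫ s in (d * (j : ℝ))..(d * (j + 1)), {z | z ∈ U ∧ t < a z}.indicator (gy f) ⟨d * i, s⟩ := by
      simp [Je]
    rw [hJ, hmain]
    rcases h with h | h | h
    · have h1 := h _ (hmem (d * j) ⟨le_rfl, le_succ hd _⟩)
      have h2 := h _ (hmem (d * (j + 1)) ⟨le_succ hd _, le_rfl⟩)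
      rw [if_pos h1, if_pos h1, if_pos h2, if_pos h2]; ring
    · have h1 := not_lt.2 (h _ (hmem (d * j) ⟨le_rfl, le_succ hd _⟩)).le
      have h2 := not_lt.2 (h _ (hmem (d * (j + 1)) ⟨le_succ hd _, le_rfl⟩)).le
      rw [if_neg h1, if_neg h1, if_neg h2, if_neg h2]; ring
    · have : (⟨d * i, p.im⟩ : ℂ) = p := by
        apply Complex.ext
        · exact (mem_eg_true.1 h.mem).1.symm
        · rfl
      rw [this]

lemma th_uncut (hd : 0 < d) {e : Ed} (h : (∀ z ∈ eg d e, t < a z) ∨ (∀ z ∈ eg d e, a z < t)) :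
    th a t d e = 0 := by
  unfold th
  rcases h with h | h
  · rw [if_pos (h _ (st_mem hd e)), if_pos (h _ (nd_mem hd e)), sub_self]
  · rw [if_neg (not_lt.2 (h _ (st_mem hd e)).le), if_neg (not_lt.2 (h _ (nd_mem hd e)).le),
      sub_self]

/-- **two cut edges** -/
theorem tendsto_two (hd : 0 < d) (hU : IsOpen U) (ha : ContinuousOn a U)
    (hf : ContDiffOn ℝ 1 f U) (hB : Bd d D ⊆ U) {e₁ e₂ : Ed} (hne : e₁ ≠ e₂) {p q : ℂ}
    (h : ∀ e, ce D e ≠ 0 → e ≠ e₁ → e ≠ e₂ → (∀ z ∈ eg d e, t < a z) ∨ ∀ z ∈ eg d e, a z < t)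
    (h₁ : Crs a t d e₁ p) (h₂ : Crs a t d e₂ q) :
    Tendsto (fun w => ∫ z in {z | z ∈ U ∧ t < a z}, wdg (chi d D w) f z) (𝓝[>] 0)
      (𝓝 ((ce D e₂ : ℝ) * th a t d e₂ * (f q - f p))) := by
  classical
  set O : Set ℂ := {z | z ∈ U ∧ t < a z} with hOdef
  have hO : IsOpen O := ha.isOpen_inter_preimage hU isOpen_Ioi
  -- the frontier
  have hfr : (Bd d D ∩ frontier O).Countable := by
    refine (Set.toFinite {p, q}).countable.mono ?_
    rintro z ⟨⟨e, he, hz⟩, hzf⟩
    have hzU : z ∈ U := hB ⟨e, he, hz⟩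
    have hat : a z = t := by
      rcases lt_trichotomy (a z) t with hlt | heq | hgt
      · exfalso
        have : {x | x ∈ U ∧ a x < t} ∈ 𝓝 z :=
          (ha.isOpen_inter_preimage hU isOpen_Iio).mem_nhds ⟨hzU, hlt⟩
        obtain ⟨x, hx, hx'⟩ := mem_closure_iff_nhds.1 hzf.1 _ this
        exact lt_asymm hx.2 hx'.2
      · exact heq
      · exact absurd (show z ∈ interior O by rw [hO.interior_eq]; exact ⟨hzU, hgt⟩) hzf.2
    by_cases h1 : e = e₁
    · subst h1
      left; by_contra hcon; exact h₁.ne z hz hcon hat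
    by_cases h2 : e = e₂
    · subst h2
      right; by_contra hcon; exact h₂.ne z hz hcon hat
    · rcases h e he h1 h2 with h3 | h3
      · exact absurd hat (h3 z hz).ne'
      · exact absurd hat (h3 z hz).ne
  have hlim := tendsto_chi hd hU hf hO.measurableSet hB hfr
  have hval : ∑ e ∈ ED D, (ce D e : ℝ) * Je d O f e =
      (ce D e₂ : ℝ) * th a t d e₂ * (f q - f p) := by
    set P : Ed → ℂ := fun e => if e = e₁ then p else q with hP
    have hJ : ∀ e, (ce D e : ℝ) * Je d O f e = (ce D e : ℝ) *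
        ((if t < a (gp d (nd e)) then f (gp d (nd e)) else 0) -
        (if t < a (gp d (st e)) then f (gp d (st e)) else 0)) +
        (ce D e : ℝ) * th a t d e * f (P e) := by
      intro e
      by_cases he : ce D e = 0
      · rw [he]; simp
      · rw [Je_eq hd hU ha hf (fun z hz => hB ⟨e, he, hz⟩) (P e)]
        · ring
        · by_cases h1 : e = e₁
          · subst h1; right; right
            simp only [hP, if_true]; exact h₁
          by_cases h2 : e = e₂
          · subst h2; right; right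
            simp only [hP, if_neg h1]; exact h₂
          · rcases h e he h1 h2 with h3 | h3
            · exact Or.inl h3
            · exact Or.inr (Or.inl h3)
    simp only [hJ, Finset.sum_add_distrib]
    rw [sum_bd D (fun v => if t < a (gp d v) then f (gp d v) else 0), zero_add]
    -- sums with two terms
    have two : ∀ g : Ed → ℝ, ∑ e ∈ ED D, (ce D e : ℝ) * th a t d e * g e =
        (ce D e₁ : ℝ) * th a t d e₁ * g e₁ + (ce D e₂ : ℝ) * th a t d e₂ * g e₂ := by
      intro g
      have hz : ∀ e, e ≠ e₁ → e ≠ e₂ → (ce D e : ℝ) * th a t d e * g e = 0 := by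
        intro e h1 h2
        by_cases he : ce D e = 0
        · rw [he]; simp
        · rw [th_uncut hd (h e he h1 h2)]; ring
      have hzE : ∀ e, e ∉ ED D → (ce D e : ℝ) * th a t d e * g e = 0 := by
        intro e he
        have : ce D e = 0 := by by_contra hc; exact he (mem_ED_of_ce hc)
        rw [this]; simp
      rw [← Finset.sum_pair hne (f := fun e => (ce D e : ℝ) * th a t d e * g e)]
      rw [← Finset.sum_subset (s₁ := ED D ∩ {e₁, e₂}) Finset.inter_subset_left,
        ← Finset.sum_subset (s₁ := ED D ∩ {e₁, e₂}) (s₂ := {e₁, e₂}) Finset.inter_subset_right]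
      · intro e he he'
        apply hzE
        intro hc
        exact he' (Finset.mem_inter.2 ⟨hc, he⟩)
      · intro e he he'
        apply hz
        · rintro rfl; exact he' (Finset.mem_inter.2 ⟨he, by simp⟩)
        · rintro rfl; exact he' (Finset.mem_inter.2 ⟨he, by simp⟩)
    have h0 : (ce D e₁ : ℝ) * th a t d e₁ + (ce D e₂ : ℝ) * th a t d e₂ = 0 := by
      have h1 := two fun _ => 1
      have h2 := sum_bd D (fun v => if t < a (gp d v) then (1 : ℝ) else 0)
      have h3 : ∑ e ∈ ED D, (ce D e : ℝ) * th a t d e * 1 = 0 := by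
        rw [← neg_eq_zero, ← Finset.sum_neg_distrib]
        rw [← h2]
        refine Finset.sum_congr rfl fun e _ => ?_
        unfold th; ring
      rw [h3] at h1
      linarith
    rw [two fun e => f (P e)]
    have hP1 : P e₁ = p := by simp [hP]
    have hP2 : P e₂ = q := by simp [hP, hne.symm]
    rw [hP1, hP2]
    linear_combination (f p) * h0
  rw [hval] at hlim
  exact hlim

end

end Crest.Agent.R105.Bxk_473
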