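import Crest.Agent.R105.Bxk5_473

/-!
# Row 105, S0138, LEMMA Y (4b) of helper701 #10366, part 6 (helper473): interface with 701's `Loop`

* `eg_eq_segment`, **`tendsto_loop`** : limit `f q - f p` for a `Loop` with crossings `p` (on the edge
  `v v'`) and `q` (on the horizontal edge `u u'`, cell above in the region)
* `integrableOn_chi`, `integral_diff_chi` : integrals of differences of box functions
* **`abs_sub_le_of_slice`** : `|A - A'| ≤ κ C` from the slice inequality for `chi - chi'`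
-/

set_option autoImplicit false

open MeasureTheory Set Filter Topology Metric
open scoped NNReal ENNReal

namespace Crest.Agent.R105.Bxk_473

open Bd_775 Lmy_701

noncomputable section

variable {d t : ℝ} {D : Finset (ℤ × ℤ)} {U : Set ℂ} {a f : ℂ → ℝ}

lemma gp_eq_gv (d : ℝ) (v : ℤ × ℤ) : gp d v = gv d v := rfl

lemma convex_eg (d : ℝ) (e : Ed) : Convex ℝ (eg d e) := by
  unfold eg
  split_ifs
  · intro z hz w hw α β hα hβ hαβ
    obtain ⟨h1, h2, h3⟩ := hz
    obtain ⟨k1, k2, k3⟩ := hw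
    simp only [mem_ofPred_eq, Complex.add_re, Complex.real_smul, Complex.mul_re,
      Complex.ofReal_re, Complex.ofReal_im, zero_mul, sub_zero, Complex.add_im, Complex.mul_im,
      add_zero]
    refine ⟨?_, ?_, ?_⟩
    · rw [h1, k1, ← add_mul, hαβ, one_mul]
    · calc d * (e.2.2 : ℝ) = α * (d * e.2.2) + β * (d * e.2.2) := by rw [← add_mul, hαβ, one_mul]
        _ ≤ _ := by gcongr
    · calc α * z.im + β * w.im ≤ α * (d * (e.2.2 + 1)) + β * (d * (e.2.2 + 1)) := by gcongr
        _ = d * (e.2.2 + 1) := by rw [← add_mul, hαβ, one_mul]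
  · intro z hz w hw α β hα hβ hαβ
    obtain ⟨h1, h2, h3⟩ := hz
    obtain ⟨k1, k2, k3⟩ := hw
    simp only [mem_ofPred_eq, Complex.add_re, Complex.real_smul, Complex.mul_re,
      Complex.ofReal_re, Complex.ofReal_im, zero_mul, sub_zero, Complex.add_im, Complex.mul_im,
      add_zero]
    refine ⟨?_, ?_, ?_⟩
    · rw [h1, k1, ← add_mul, hαβ, one_mul]
    · calc d * (e.2.1 : ℝ) = α * (d * e.2.1) + β * (d * e.2.1) := by rw [← add_mul, hαβ, one_mul]
        _ ≤ _ := by gcongr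
    · calc α * z.re + β * w.re ≤ α * (d * (e.2.1 + 1)) + β * (d * (e.2.1 + 1)) := by gcongr
        _ = d * (e.2.1 + 1) := by rw [← add_mul, hαβ, one_mul]

/-- closed edges are segments -/
theorem eg_eq_segment (hd : 0 < d) (e : Ed) : eg d e = segment ℝ (gv d (st e)) (gv d (nd e)) := by
  refine Subset.antisymm ?_ ((convex_eg d e).segment_subset (st_mem hd e) (nd_mem hd e))
  obtain ⟨b, i, j⟩ := e
  cases b
  · intro z hz
    obtain ⟨h1, h2, h3⟩ := mem_eg_false.1 hz
    refine ⟨(d * (i + 1) - z.re) / d, (z.re - d * i) / d, div_nonneg (by linarith) hd.le,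
      div_nonneg (by linarith) hd.le, by field_simp; ring, ?_⟩
    apply Complex.ext
    · simp only [gv, st, nd, Bool.false_eq_true, if_false, Complex.add_re, Complex.real_smul,
        Complex.mul_re, Complex.ofReal_re, Complex.ofReal_im, zero_mul, sub_zero, Int.cast_add,
        Int.cast_one]
      field_simp
      ring
    · simp only [gv, st, nd, Bool.false_eq_true, if_false, Complex.add_im, Complex.real_smul,
        Complex.mul_im, Complex.ofReal_re, Complex.ofReal_im, zero_mul, add_zero]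
      rw [h1]
      field_simp
      ring
  · intro z hz
    obtain ⟨h1, h2, h3⟩ := mem_eg_true.1 hz
    refine ⟨(d * (j + 1) - z.im) / d, (z.im - d * j) / d, div_nonneg (by linarith) hd.le,
      div_nonneg (by linarith) hd.le, by field_simp; ring, ?_⟩
    apply Complex.ext
    · simp only [gv, st, nd, if_true, Complex.add_re, Complex.real_smul,
        Complex.mul_re, Complex.ofReal_re, Complex.ofReal_im, zero_mul, sub_zero]
      rw [h1]
      field_simp
      ring
    · simp only [gv, st, nd, if_true, Complex.add_im, Complex.real_smul,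
        Complex.mul_im, Complex.ofReal_re, Complex.ofReal_im, zero_mul, add_zero, Int.cast_add,
        Int.cast_one]
      field_simp
      ring

/-- the edge of an adjacent pair -/
def edOf (v v' : ℤ × ℤ) : Ed :=
  if v.2 = v'.2 then (false, min v.1 v'.1, v.2) else (true, v.1, min v.2 v'.2)

lemma edOf_spec {v v' : ℤ × ℤ} (h : Adj v v') :
    (st (edOf v v') = v ∧ nd (edOf v v') = v') ∨ (st (edOf v v') = v' ∧ nd (edOf v v') = v) := by
  obtain ⟨v1, v2⟩ := v
  obtain ⟨w1, w2⟩ := v'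
  unfold edOf
  rcases h with ⟨h1, h2⟩ | ⟨h1, h2⟩
  · simp only at h1 h2
    subst h1
    simp only [if_true, st, nd, Bool.false_eq_true, if_false]
    rcases h2 with rfl | rfl
    · left; constructor <;> simp
    · right; constructor <;> simp
  · simp only at h1 h2
    subst h1
    rcases h2 with rfl | rfl
    · have : ¬ (v2 = v2 + 1) := by omega
      simp only [this, if_false, st, nd, if_true]
      left; constructor <;> simp
    · have : ¬ (w2 + 1 = w2) := by omega
      simp only [this, if_false, st, nd, if_true]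
      right; constructor <;> simp

lemma eg_edOf (hd : 0 < d) {v v' : ℤ × ℤ} (h : Adj v v') :
    eg d (edOf v v') = segment ℝ (gv d v) (gv d v') := by
  rw [eg_eq_segment hd]
  rcases edOf_spec h with ⟨h1, h2⟩ | ⟨h1, h2⟩
  · rw [h1, h2]
  · rw [h1, h2, segment_symm]

lemma edOf_of_isH {v v' : ℤ × ℤ} {i j : ℤ} (h : isH v v' i j) : edOf v v' = (false, i, j) := by
  rcases h with ⟨rfl, rfl⟩ | ⟨rfl, rfl⟩ <;> simp [edOf]

lemma edOf_of_isV {v v' : ℤ × ℤ} {i j : ℤ} (h : isV v v' i j) : edOf v v' = (true, i, j) := by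
  rcases h with ⟨rfl, rfl⟩ | ⟨rfl, rfl⟩
  · have : ¬ (j = j + 1) := by omega
    simp [edOf]
  · have : ¬ (j + 1 = j) := by omega
    simp [edOf]

lemma isH_or_isV {v v' : ℤ × ℤ} (h : Adj v v') :
    (∃ i j, isH v v' i j) ∨ ∃ i j, isV v v' i j := by
  obtain ⟨v1, v2⟩ := v
  obtain ⟨w1, w2⟩ := v'
  rcases h with ⟨h1, h2⟩ | ⟨h1, h2⟩
  · simp only at h1 h2
    subst h1
    rcases h2 with rfl | rfl
    · exact Or.inl ⟨v1, v2, Or.inl ⟨rfl, rfl⟩⟩
    · exact Or.inl ⟨w1, v2, Or.inr ⟨rfl, rfl⟩⟩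
  · simp only at h1 h2
    subst h1
    rcases h2 with rfl | rfl
    · exact Or.inr ⟨v1, v2, Or.inl ⟨rfl, rfl⟩⟩
    · exact Or.inr ⟨v1, w2, Or.inr ⟨rfl, rfl⟩⟩

lemma ce_ne_iff_true {i j : ℤ} :
    ce D (true, i, j) ≠ 0 ↔ ¬ ((i - 1, j) ∈ D ↔ (i, j) ∈ D) := by
  rw [ce_true]
  unfold ic
  by_cases h1 : (i, j) ∈ D <;> by_cases h2 : (i - 1, j) ∈ D <;> simp [h1, h2]

lemma ce_ne_iff_false {i j : ℤ} :
    ce D (false, i, j) ≠ 0 ↔ ¬ ((i, j - 1) ∈ D ↔ (i, j) ∈ D) := by
  rw [ce_false]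
  unfold ic
  by_cases h1 : (i, j) ∈ D <;> by_cases h2 : (i, j - 1) ∈ D <;> simp [h1, h2]

/-- the edges of the boundary of the region of a loop -/
lemma loop_edges (hd : 0 < d) {Gp Gm : Set ℂ} {v v' u u' : ℤ × ℤ} (hL : Loop d Gp Gm v v' u u' D)
    {e : Ed} (he : ce D e ≠ 0) :
    eg d e ⊆ Gp ∨ eg d e ⊆ Gm ∨ e = edOf v v' ∨ e = edOf u u' := by
  obtain ⟨b, i, j⟩ := e
  cases b
  · have hs : eg d (false, i, j) = segment ℝ (gv d (i, j)) (gv d (i + 1, j)) := by
      rw [eg_eq_segment hd]; simp [st, nd]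
    rw [hs]
    rcases hL.H i j (ce_ne_iff_false.1 he) with h | h | h | h
    · exact Or.inl h
    · exact Or.inr (Or.inl h)
    · exact Or.inr (Or.inr (Or.inl (edOf_of_isH h).symm))
    · exact Or.inr (Or.inr (Or.inr (edOf_of_isH h).symm))
  · have hs : eg d (true, i, j) = segment ℝ (gv d (i, j)) (gv d (i, j + 1)) := by
      rw [eg_eq_segment hd]; simp [st, nd]
    rw [hs]
    rcases hL.V i j (ce_ne_iff_true.1 he) with h | h | h | h
    · exact Or.inl h
    · exact Or.inr (Or.inl h)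
    · exact Or.inr (Or.inr (Or.inl (edOf_of_isV h).symm))
    · exact Or.inr (Or.inr (Or.inr (edOf_of_isV h).symm))

lemma loop_Bd (hd : 0 < d) {v v' u u' : ℤ × ℤ}
    (hL : Loop d {z | z ∈ U ∧ t < a z} {z | z ∈ U ∧ a z < t} v v' u u' D)
    (hv : Adj v v') (hu : Adj u u') (hvU : segment ℝ (gv d v) (gv d v') ⊆ U)
    (huU : segment ℝ (gv d u) (gv d u') ⊆ U) : Bd d D ⊆ U := by
  rintro z ⟨e, he, hz⟩
  rcases loop_edges hd hL he with h | h | h | h
  · exact (h hz).1
  · exact (h hz).1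
  · rw [h, eg_edOf hd hv] at hz; exact hvU hz
  · rw [h, eg_edOf hd hu] at hz; exact huU hz

/-- the boundary of the region of a loop meets the level set at the two crossings only -/
lemma loop_Bd_level (hd : 0 < d) {v v' u u' : ℤ × ℤ}
    (hL : Loop d {z | z ∈ U ∧ t < a z} {z | z ∈ U ∧ a z < t} v v' u u' D)
    (hv : Adj v v') (hu : Adj u u') {p q : ℂ}
    (hp : ∀ z ∈ segment ℝ (gv d v) (gv d v'), z ≠ p → a z ≠ t)
    (hq : ∀ z ∈ segment ℝ (gv d u) (gv d u'), z ≠ q → a z ≠ t) {z : ℂ} (hz : z ∈ Bd d D)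
    (hat : a z = t) : z = p ∨ z = q := by
  obtain ⟨e, he, hz⟩ := hz
  rcases loop_edges hd hL he with h | h | h | h
  · exact absurd hat (h hz).2.ne'
  · exact absurd hat (h hz).2.ne
  · rw [h, eg_edOf hd hv] at hz
    left; by_contra hcon; exact hp z hz hcon hat
  · rw [h, eg_edOf hd hu] at hz
    right; by_contra hcon; exact hq z hz hcon hat

lemma crs_edOf (hd : 0 < d) {v v' : ℤ × ℤ} (hv : Adj v v') {p : ℂ}
    (hp : p ∈ segment ℝ (gv d v) (gv d v'))
    (hp' : ∀ z ∈ segment ℝ (gv d v) (gv d v'), z ≠ p → a z ≠ t)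
    (h1 : a (gv d v) < t) (h2 : t < a (gv d v')) : Crs a t d (edOf v v') p := by
  refine ⟨by rwa [eg_edOf hd hv], fun z hz => hp' z (by rwa [eg_edOf hd hv] at hz), ?_⟩
  have hneg : (a (gv d v) - t) * (a (gv d v') - t) < 0 :=
    mul_neg_of_neg_of_pos (by linarith) (by linarith)
  rcases edOf_spec hv with ⟨k1, k2⟩ | ⟨k1, k2⟩
  · rw [k1, k2]; exact hneg
  · rw [k1, k2, mul_comm]; exact hneg

/-- **the limit for a loop**: `v, u` are in `{a < t}`, `v', u'` in `{t < a}`; the edge `u u'` is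
horizontal, oriented to the right, and the cell above it is in the region -/
theorem tendsto_loop (hd : 0 < d) (hU : IsOpen U) (ha : ContinuousOn a U)
    (hf : ContDiffOn ℝ 1 f U) {v v' : ℤ × ℤ} {i j : ℤ}
    (hL : Loop d {z | z ∈ U ∧ t < a z} {z | z ∈ U ∧ a z < t} v v' (i, j) (i + 1, j) D)
    (hv : Adj v v') (hvU : segment ℝ (gv d v) (gv d v') ⊆ U)
    (huU : segment ℝ (gv d (i, j)) (gv d (i + 1, j)) ⊆ U)
    (hne : edOf v v' ≠ (false, i, j)) {p q : ℂ}
    (hp : p ∈ segment ℝ (gv d v) (gv d v'))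
    (hp' : ∀ z ∈ segment ℝ (gv d v) (gv d v'), z ≠ p → a z ≠ t)
    (hp1 : a (gv d v) < t) (hp2 : t < a (gv d v'))
    (hq : q ∈ segment ℝ (gv d (i, j)) (gv d (i + 1, j)))
    (hq' : ∀ z ∈ segment ℝ (gv d (i, j)) (gv d (i + 1, j)), z ≠ q → a z ≠ t)
    (hq1 : a (gv d (i, j)) < t) (hq2 : t < a (gv d (i + 1, j))) (hin : (i, j) ∈ D) :
    Tendsto (fun w => ∫ z in {z | z ∈ U ∧ t < a z}, wdg (chi d D w) f z) (𝓝[>] 0)
      (𝓝 (f q - f p)) := by
  have hu : Adj (i, j) (i + 1, j) := Or.inl ⟨rfl, Or.inl rfl⟩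
  have heu : edOf (i, j) (i + 1, j) = (false, i, j) := edOf_of_isH (Or.inl ⟨rfl, rfl⟩)
  have hB := loop_Bd hd hL hv hu hvU huU
  have h2 := crs_edOf hd hu hq hq' hq1 hq2
  rw [heu] at h2
  have hmain := tendsto_two (D := D) hd hU ha hf hB hne
    (fun e he h1 h2' => by
      rcases loop_edges hd hL he with h | h | h | h
      · exact Or.inl fun z hz => (h hz).2
      · exact Or.inr fun z hz => (h hz).2
      · exact absurd h h1
      · rw [heu] at h; exact absurd h h2')
    (crs_edOf hd hv hp hp' hp1 hp2) h2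
  have hnot : (i, j - 1) ∉ D := by
    have := hL.Hu i j (Or.inl ⟨rfl, rfl⟩)
    tauto
  have hce : (ce D (false, i, j) : ℝ) = -1 := by
    rw [ce_false]; unfold ic; rw [if_neg hnot, if_pos hin]; norm_num
  have hth : th a t d (false, i, j) = -1 := by
    unfold th
    have e1 : gp d (st (false, i, j)) = gv d (i, j) := rfl
    have e2 : gp d (nd (false, i, j)) = gv d (i + 1, j) := by simp [nd, gp_eq_gv]
    rw [e1, e2, if_neg (not_lt.2 hq1.le), if_pos hq2]; norm_num
  rw [hce, hth] at hmain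
  simpa using hmain

/-! ### integrals of differences -/

theorem integrableOn_chi {O : Set ℂ} (hd : 0 < d) (hU : IsOpen U) (hf : ContDiffOn ℝ 1 f U)
    (hO : MeasurableSet O) (hB : Bd d D ⊆ U) (hfr : (Bd d D ∩ frontier O).Countable) :
    ∀ᶠ w in 𝓝[>] (0 : ℝ), IntegrableOn (fun z => wdg (chi d D w) f z) O := by
  have h2 : ∀ᶠ w in 𝓝[>] (0 : ℝ), ∀ e ∈ {e : Ed | ce D e ≠ 0},
      IntegrableOn (fun z => Te d w f z e) O :=
    (Filter.eventually_all_finite (finite_ce D)).2 fun e he =>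
      (tendsto_edge hd hU hf hO (fun z hz => hB ⟨e, he, hz⟩)
        (hfr.mono (inter_subset_inter_left _ (fun z hz => ⟨e, he, hz⟩ : eg d e ⊆ Bd d D)))).2
  filter_upwards [h2, self_mem_nhdsWithin] with w hw hw0
  have h3 : IntegrableOn (fun z => ∑ e ∈ ED D, (ce D e : ℝ) * Te d w f z e) O := by
    refine integrable_finsetSum _ fun e _ => ?_
    by_cases he : ce D e = 0
    · simp [he]
    · exact (hw e he).const_mul _
  refine h3.congr ?_
  filter_upwards [ae_restrict_of_ae (ae_not_bad d w D)] with z hz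
  exact (wdg_chi hw0 f hz).symm

lemma wdg_sub_of_diff {χ χ' : ℂ → ℝ} {z : ℂ} (h : DifferentiableAt ℝ χ z)
    (h' : DifferentiableAt ℝ χ' z) (f : ℂ → ℝ) :
    wdg (fun z => χ z - χ' z) f z = wdg χ f z - wdg χ' f z := by
  have : fderiv ℝ (fun z => χ z - χ' z) z = fderiv ℝ χ z - fderiv ℝ χ' z := fderiv_fun_sub h h'
  unfold wdg gx gy
  rw [this]
  simp only [sub_apply]
  ring

lemma wdg_sub_chi {d' w : ℝ} {D' : Finset (ℤ × ℤ)} (hw : 0 < w) (f : ℂ → ℝ) :
    ∀ᵐ z, wdg (fun z => chi d D w z - chi d' D' w z) f z =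
      wdg (chi d D w) f z - wdg (chi d' D' w) f z := by
  filter_upwards [ae_not_bad d w D, ae_not_bad d' w D'] with z h1 h2
  exact wdg_sub_of_diff (hasFDerivAt_chi hw h1).differentiableAt
    (hasFDerivAt_chi hw h2).differentiableAt f

/-- `∫ |chi - chi'| dκ` is eventually at most `κ C + ε` if the two functions agree off `C` -/
theorem eventually_integral_le {d' : ℝ} {D' : Finset (ℤ × ℤ)} (hd : 0 < d) (hd' : 0 < d')
    {κ : Measure ℂ} [IsFiniteMeasure κ] {C : Set ℂ} (hC : MeasurableSet C)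
    (h : ∀ᵐ z ∂κ, z ∉ C → ∀ᶠ w in 𝓝[>] (0 : ℝ), chi d D w z = chi d' D' w z) {ε : ℝ}
    (hε : 0 < ε) :
    ∀ᶠ w in 𝓝[>] (0 : ℝ), ∫ z, |chi d D w z - chi d' D' w z| ∂κ ≤ (κ C).toReal + ε := by
  have hbd : ∀ w, 0 < w → ∀ z, |chi d D w z - chi d' D' w z| ≤ 1 := by
    intro w hw z
    rw [abs_le]
    constructor <;> linarith [chi_nonneg hd hw D z, chi_le_one hd hw D z, chi_nonneg hd' hw D' z,
      chi_le_one hd' hw D' z]
  have hm : ∀ w, 0 < w → Continuous fun z => |chi d D w z - chi d' D' w z| := fun w hw =>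
    continuous_abs.comp ((continuous_chi hd hw D).sub (continuous_chi hd' hw D'))
  have hlim : Tendsto (fun w => ∫ z in Cᶜ, |chi d D w z - chi d' D' w z| ∂κ) (𝓝[>] 0)
      (𝓝 (∫ _ in Cᶜ, (0 : ℝ) ∂κ)) := by
    refine tendsto_integral_filter_of_dominated_convergence (fun _ => (1 : ℝ)) ?_ ?_
      (integrable_const _) ?_
    · filter_upwards [self_mem_nhdsWithin] with w hw
      exact (hm w hw).aestronglyMeasurable
    · filter_upwards [self_mem_nhdsWithin] with w hw
      refine ae_of_all _ fun z => ?_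
      rw [Real.norm_eq_abs, abs_abs]; exact hbd w hw z
    · rw [ae_restrict_iff' hC.compl]
      filter_upwards [h] with z hz hzC
      refine tendsto_const_nhds.congr' ?_
      filter_upwards [hz hzC] with w hw
      rw [hw, sub_self, abs_zero]
  rw [integral_zero] at hlim
  filter_upwards [hlim.eventually (gt_mem_nhds hε), self_mem_nhdsWithin] with w hw hw0
  have hint : Integrable (fun z => |chi d D w z - chi d' D' w z|) κ :=
    Integrable.mono' (integrable_const (1 : ℝ)) (hm w hw0).aestronglyMeasurable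
      (ae_of_all _ fun z => by rw [Real.norm_eq_abs, abs_abs]; exact hbd w hw0 z)
  rw [← integral_add_compl hC hint]
  refine add_le_add ?_ hw.le
  calc ∫ z in C, |chi d D w z - chi d' D' w z| ∂κ ≤ ∫ _ in C, (1 : ℝ) ∂κ :=
        integral_mono hint.integrableOn (integrable_const _) (hbd w hw0)
    _ = (κ C).toReal := by simp [measureReal_def]

/-- **conclusion** from the slice inequality for the differences of box functions -/
theorem abs_sub_le_of_slice {d' : ℝ} {D' : Finset (ℤ × ℤ)} (hd : 0 < d) (hd' : 0 < d')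
    (hU : IsOpen U) (hf : ContDiffOn ℝ 1 f U) {O : Set ℂ} (hO : MeasurableSet O)
    (hB : Bd d D ⊆ U) (hB' : Bd d' D' ⊆ U) (hfr : (Bd d D ∩ frontier O).Countable)
    (hfr' : (Bd d' D' ∩ frontier O).Countable) {A A' : ℝ}
    (hA : Tendsto (fun w => ∫ z in O, wdg (chi d D w) f z) (𝓝[>] 0) (𝓝 A))
    (hA' : Tendsto (fun w => ∫ z in O, wdg (chi d' D' w) f z) (𝓝[>] 0) (𝓝 A'))
    {κ : Measure ℂ} [IsFiniteMeasure κ] {C : Set ℂ} (hC : MeasurableSet C)
    (h : ∀ᵐ z ∂κ, z ∉ C → ∀ᶠ w in 𝓝[>] (0 : ℝ), chi d D w z = chi d' D' w z)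
    {s : ℕ → ℝ} (hs0 : ∀ n, 0 < s n) (hs : Tendsto s atTop (𝓝 0))
    (hsl : ∀ᶠ n in atTop, |∫ z in O, wdg (fun z => chi d D (s n) z - chi d' D' (s n) z) f z| ≤
      ∫ z, |chi d D (s n) z - chi d' D' (s n) z| ∂κ) :
    |A - A'| ≤ (κ C).toReal := by
  have hs' : Tendsto s atTop (𝓝[>] 0) :=
    tendsto_nhdsWithin_iff.2 ⟨hs, Eventually.of_forall hs0⟩
  refine le_of_forall_pos_le_add fun ε hε => ?_
  have h1 : Tendsto (fun n => |(∫ z in O, wdg (chi d D (s n)) f z) -
      ∫ z in O, wdg (chi d' D' (s n)) f z|) atTop (𝓝 |A - A'|) :=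
    ((hA.comp hs').sub (hA'.comp hs')).abs
  refine le_of_tendsto h1 ?_
  filter_upwards [hsl, hs'.eventually (eventually_integral_le hd hd' hC h hε),
    hs'.eventually (integrableOn_chi hd hU hf hO hB hfr),
    hs'.eventually (integrableOn_chi hd' hU hf hO hB' hfr')] with n hn h2 h3 h4
  refine le_trans ?_ (hn.trans h2)
  rw [← integral_sub h3 h4]
  refine le_of_eq (congrArg _ (integral_congr_ae ?_))
  filter_upwards [ae_restrict_of_ae (wdg_sub_chi (hs0 n) f)] with z hz
  exact hz.symm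

end

end Crest.Agent.R105.Bxk_473
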