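import Crest.Agent.R105.Asm0_6
import Crest.Agent.R105.Att2_823

/-!
# Row 105, S0139 [B], ATTP: `C4P` (uniform Cauchy estimate), part 1: topology (helper775)

* `conn_side` : the outside of a disc in an open half plane `σ Re z < τ` is preconnected
* `exit_set` : a component which leaves the disc contains a connected set in the closed disc that
  joins the centre point to the circle
* `comp_side` : the component of `{F < t}` contains a half plane
-/

set_option autoImplicit false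

open MeasureTheory Set Filter Topology Metric Bornology
open scoped ContDiff NNReal

namespace Crest.Agent.R105.C4_775

lemma convex_re (σ τ : ℝ) : Convex ℝ {z : ℂ | σ * z.re < τ} := by
  intro x hx y hy a b ha hb hab
  have hx' : σ * x.re < τ := hx
  have hy' : σ * y.re < τ := hy
  show σ * (a • x + b • y).re < τ
  have h1 : (a • x + b • y).re = a * x.re + b * y.re := by simp
  rw [h1]
  rcases ha.eq_or_lt with h | h
  · have hb1 : b = 1 := by linarith
    rw [← h, hb1]; linarith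
  · have h2 : a * (σ * x.re) < a * τ := mul_lt_mul_of_pos_left hx' h
    have h3 : b * (σ * y.re) ≤ b * τ := mul_le_mul_of_nonneg_left hy'.le hb
    have h4 : a * τ + b * τ = τ := by rw [← add_mul, hab, one_mul]
    linarith

lemma convex_re' (σ τ : ℝ) : Convex ℝ {z : ℂ | σ * z.re ≤ τ} := by
  intro x hx y hy a b ha hb hab
  have hx' : σ * x.re ≤ τ := hx
  have hy' : σ * y.re ≤ τ := hy
  show σ * (a • x + b • y).re ≤ τ
  have h1 : (a • x + b • y).re = a * x.re + b * y.re := by simp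
  rw [h1]
  have h2 : a * (σ * x.re) ≤ a * τ := mul_le_mul_of_nonneg_left hx' ha
  have h3 : b * (σ * y.re) ≤ b * τ := mul_le_mul_of_nonneg_left hy' hb
  have h4 : a * τ + b * τ = τ := by rw [← add_mul, hab, one_mul]
  linarith

lemma convex_im (σ τ : ℝ) : Convex ℝ {z : ℂ | τ ≤ σ * z.im} := by
  intro x hx y hy a b ha hb hab
  have hx' : τ ≤ σ * x.im := hx
  have hy' : τ ≤ σ * y.im := hy
  show τ ≤ σ * (a • x + b • y).im
  have h1 : (a • x + b • y).im = a * x.im + b * y.im := by simp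
  rw [h1]
  have h2 : a * τ ≤ a * (σ * x.im) := mul_le_mul_of_nonneg_left hx' ha
  have h3 : b * τ ≤ b * (σ * y.im) := mul_le_mul_of_nonneg_left hy' hb
  have h4 : a * τ + b * τ = τ := by rw [← add_mul, hab, one_mul]
  linarith

lemma convex_ver (x₀ : ℝ) : Convex ℝ {z : ℂ | z.re = x₀} := by
  intro x hx y hy a b ha hb hab
  have hx' : x.re = x₀ := hx
  have hy' : y.re = x₀ := hy
  show (a • x + b • y).re = x₀
  have h1 : (a • x + b • y).re = a * x.re + b * y.re := by simp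
  rw [h1, hx', hy', ← add_mul, hab, one_mul]

lemma norm_ge_re (z : ℂ) {σ r : ℝ} (hσ : σ = 1 ∨ σ = -1) (h : σ * z.re ≤ -r) : r ≤ ‖z‖ := by
  have h1 := Complex.abs_re_le_norm z
  rcases hσ with rfl | rfl
  · have := neg_abs_le z.re; linarith
  · have := le_abs_self z.re; linarith

lemma norm_ge_im (z : ℂ) {σ r : ℝ} (hσ : σ = 1 ∨ σ = -1) (h : r ≤ σ * z.im) : r ≤ ‖z‖ := by
  have h1 := Complex.abs_im_le_norm z
  rcases hσ with rfl | rfl
  · have := le_abs_self z.im; linarith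
  · have := neg_abs_le z.im; linarith

/-- vertical rays leave the disc -/
lemma norm_ray {z w : ℂ} {κ : ℝ} (hκ : κ = 1 ∨ κ = -1) (hre : w.re = z.re) (h0 : 0 ≤ κ * z.im)
    (h1 : κ * z.im ≤ κ * w.im) : ‖z‖ ≤ ‖w‖ := by
  have h2 : z.im ^ 2 ≤ w.im ^ 2 := by
    have h3 : (κ * z.im) ^ 2 ≤ (κ * w.im) ^ 2 := pow_le_pow_left₀ h0 h1 2
    have h4 : κ ^ 2 = 1 := by rcases hκ with rfl | rfl <;> norm_num
    rw [mul_pow, mul_pow, h4] at h3
    linarith
  have h5 : ‖z‖ ^ 2 ≤ ‖w‖ ^ 2 := by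
    rw [Complex.sq_norm, Complex.sq_norm, Complex.normSq_apply, Complex.normSq_apply, hre]
    nlinarith
  exact (pow_le_pow_iff_left₀ (norm_nonneg z) (norm_nonneg w) two_ne_zero).1 h5

/-- the outside of a disc in a half plane is connected -/
lemma conn_side {σ : ℝ} (hσ : σ = 1 ∨ σ = -1) {r : ℝ} (hr : 0 ≤ r) (τ : ℝ) :
    IsPreconnected {z : ℂ | r ≤ ‖z‖ ∧ σ * z.re < τ} := by
  -- base point
  set m : ℝ := min (τ - 1) (-r) with hm
  set x0 : ℂ := ⟨σ * m, 0⟩ with hx0
  have hσ2 : σ * σ = 1 := by rcases hσ with rfl | rfl <;> norm_num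
  have hσx : σ * x0.re = m := by rw [hx0]; show σ * (σ * m) = m; rw [← mul_assoc, hσ2, one_mul]
  have hm1 : m < τ := lt_of_le_of_lt (min_le_left _ _) (by linarith)
  have hm2 : m ≤ -r := min_le_right _ _
  refine isPreconnected_of_forall x0 ?_
  rintro y ⟨hy1, hy2⟩
  -- the side of `y`
  obtain ⟨κ, hκ, hκy⟩ : ∃ κ : ℝ, (κ = 1 ∨ κ = -1) ∧ 0 ≤ κ * y.im := by
    rcases le_total 0 y.im with h | h
    · exact ⟨1, Or.inl rfl, by linarith⟩
    · exact ⟨-1, Or.inr rfl, by linarith⟩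
  have hκ2 : κ * κ = 1 := by rcases hκ with rfl | rfl <;> norm_num
  set A : Set ℂ := {z | σ * z.re < τ} ∩ {z | σ * z.re ≤ -r} with hA
  set B : Set ℂ := {z | σ * z.re < τ} ∩ {z | r ≤ κ * z.im} with hB
  set V : Set ℂ := ({z | z.re = y.re}) ∩ {z | κ * y.im ≤ κ * z.im} with hV
  have cA : IsPreconnected A := ((convex_re σ τ).inter (convex_re' σ (-r))).isPreconnected
  have cB : IsPreconnected B := ((convex_re σ τ).inter (convex_im κ r)).isPreconnected
  have cV : IsPreconnected V :=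
    ((convex_ver y.re).inter (convex_im κ (κ * y.im))).isPreconnected
  -- meeting points
  set q1 : ℂ := ⟨σ * m, κ * r⟩ with hq1
  have q1re : σ * q1.re = m := by rw [hq1]; show σ * (σ * m) = m; rw [← mul_assoc, hσ2, one_mul]
  have q1im : κ * q1.im = r := by rw [hq1]; show κ * (κ * r) = r; rw [← mul_assoc, hκ2, one_mul]
  have hq1A : q1 ∈ A := ⟨by rw [mem_ofPred_eq, q1re]; exact hm1, by rw [mem_ofPred_eq, q1re]; exact hm2⟩
  have hq1B : q1 ∈ B := ⟨by rw [mem_ofPred_eq, q1re]; exact hm1, by rw [mem_ofPred_eq, q1im]⟩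
  set q2 : ℂ := ⟨y.re, κ * (max r (κ * y.im))⟩ with hq2
  have q2re : q2.re = y.re := rfl
  have q2im : κ * q2.im = max r (κ * y.im) := by
    rw [hq2]; show κ * (κ * _) = _; rw [← mul_assoc, hκ2, one_mul]
  have hq2B : q2 ∈ B := ⟨by rw [mem_ofPred_eq, q2re]; exact hy2,
    by rw [mem_ofPred_eq, q2im]; exact le_max_left _ _⟩
  have hq2V : q2 ∈ V := ⟨by rw [mem_ofPred_eq, q2re],
    by rw [mem_ofPred_eq, q2im]; exact le_max_right _ _⟩
  refine ⟨(A ∪ B) ∪ V, ?_, ?_, ?_, ?_⟩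
  · rintro z ((hz | hz) | hz)
    · exact ⟨norm_ge_re z hσ hz.2, hz.1⟩
    · exact ⟨norm_ge_im z hκ hz.2, hz.1⟩
    · have h1 : z.re = y.re := hz.1
      refine ⟨hy1.trans (norm_ray hκ h1 hκy hz.2), ?_⟩
      rw [h1]; exact hy2
  · refine Or.inl (Or.inl ⟨?_, ?_⟩)
    · rw [mem_ofPred_eq, hσx]; exact hm1
    · rw [mem_ofPred_eq, hσx]; exact hm2
  · exact Or.inr ⟨rfl, le_refl (κ * y.im)⟩
  · refine IsPreconnected.union q2 (Or.inr hq2B) hq2V ?_ cV
    exact IsPreconnected.union q1 hq1A hq1B cA cB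

/-- a component which leaves the disc contains a connected set in the closed disc that joins `p` to
the circle -/
lemma exit_set {F : Set ℂ} (hF : IsOpen F) {p : ℂ} (hp : p ∈ F) {r : ℝ} (hr : ‖p‖ < r)
    (hK : ¬ IsBounded (connectedComponentIn F p)) :
    ∃ (P : Set ℂ) (w : ℂ), IsPreconnected P ∧ p ∈ P ∧ w ∈ P ∧ ‖w‖ = r ∧ P ⊆ F ∧
      ∀ z ∈ P, ‖z‖ ≤ r := by
  set K := connectedComponentIn F p with hKd
  have hKo : IsOpen K := hF.connectedComponentIn
  have hKc : IsConnected K := ⟨⟨p, mem_connectedComponentIn hp⟩, isPreconnected_connectedComponentIn⟩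
  have hKp : IsPathConnected K := hKo.isConnected_iff_isPathConnected.1 hKc
  obtain ⟨q, hqK, hq⟩ : ∃ q ∈ K, r < ‖q‖ := by
    by_contra h
    push Not at h
    exact hK (isBounded_iff_forall_norm_le.2 ⟨r, h⟩)
  obtain ⟨γ, hγ⟩ := hKp.joinedIn p (mem_connectedComponentIn hp) q hqK
  have hγc : Continuous γ := γ.continuous
  have hn : Continuous fun t => ‖γ t‖ := hγc.norm
  set A : Set unitInterval := {t | r ≤ ‖γ t‖} with hA
  have hAc : IsClosed A := isClosed_le continuous_const hn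
  have hAn : A.Nonempty := ⟨1, by rw [hA, mem_ofPred_eq, γ.target]; exact hq.le⟩
  obtain ⟨t, htA, htm⟩ := hAc.isCompact.exists_isLeast hAn
  have h0t : (0 : unitInterval) ≤ t := unitInterval.nonneg'
  obtain ⟨s, hs, hsr⟩ : ∃ s ∈ Icc (0 : unitInterval) t, ‖γ s‖ = r := by
    have := intermediate_value_Icc h0t hn.continuousOn
    have hr' : r ∈ Icc ‖γ 0‖ ‖γ t‖ := ⟨by rw [γ.source]; exact hr.le, htA⟩
    obtain ⟨s, hs, h⟩ := this hr'
    exact ⟨s, hs, h⟩
  have hst : s = t := le_antisymm hs.2 (htm (by rw [hA, mem_ofPred_eq, hsr]))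
  subst hst
  refine ⟨γ '' Icc 0 s, γ s, ?_, ⟨0, ⟨le_refl _, h0t⟩, γ.source⟩, ⟨s, ⟨h0t, le_refl _⟩, rfl⟩, hsr,
    ?_, ?_⟩
  · exact (isPreconnected_Icc).image _ hγc.continuousOn
  · rintro _ ⟨t', _, rfl⟩
    exact connectedComponentIn_subset F p (hγ t')
  · rintro _ ⟨t', ht', rfl⟩
    by_contra h
    push Not at h
    have h1 : s ≤ t' := htm (by rw [hA, mem_ofPred_eq]; exact h.le)
    have h2 : t' = s := le_antisymm ht'.2 h1
    rw [h2, hsr] at h
    exact lt_irrefl _ h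

/-- the component of `{F < t}` through `p` contains a half plane -/
lemma comp_side {σ : ℝ} (hσ : σ = 1 ∨ σ = -1) {u F : ℂ → ℝ} (hu : Continuous u) {p : ℂ}
    {r e δ t c : ℝ} (he : 0 < e) (hp : ‖p‖ < r) (hin : ∀ z, ‖z‖ ≤ r → F z = u z - c)
    (hout : ∀ z, r ≤ ‖z‖ → |F z - σ * z.re| ≤ δ)
    (hK : ¬ IsBounded (connectedComponentIn {w | u w < u p + e} p)) (ht : F p + e + 2 * δ ≤ t) :
    ∃ L : ℝ, ∀ L', L ≤ L' → ∀ z : ℂ, σ * z.re ≤ -L' → z ∈ connectedComponentIn {w | F w < t} p := by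
  have hr : 0 < r := (norm_nonneg p).trans_lt hp
  obtain ⟨P, w, hPc, hpP, hwP, hwr, hPF, hPr⟩ :=
    exit_set (isOpen_lt hu continuous_const) (show u p < u p + e by linarith) hp hK
  set τ : ℝ := F p + e + δ with hτ
  have hFP : ∀ z ∈ P, F z < F p + e := by
    intro z hz
    have h1 : u z < u p + e := hPF hz
    rw [hin z (hPr z hz), hin p hp.le]
    linarith
  have hδ : 0 ≤ δ := (abs_nonneg _).trans (hout w hwr.ge)
  have hw1 : σ * w.re < τ := by
    have h1 := hFP w hwP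
    have h2 := (abs_le.1 (hout w hwr.ge)).1
    rw [hτ]; linarith
  set S' : Set ℂ := {z | r ≤ ‖z‖ ∧ σ * z.re < τ} with hS'
  have hSF : ∀ z ∈ S', F z < t := by
    rintro z ⟨h1, h2⟩
    have h3 := (abs_le.1 (hout z h1)).2
    rw [hτ] at h2
    linarith
  have hc : IsPreconnected (P ∪ S') :=
    IsPreconnected.union w hwP ⟨hwr.ge, hw1⟩ hPc (conn_side hσ hr.le τ)
  have hsub : P ∪ S' ⊆ connectedComponentIn {w | F w < t} p := by
    refine hc.subset_connectedComponentIn (Or.inl hpP) ?_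
    rintro z (hz | hz)
    · have := hFP z hz
      show F z < t
      linarith
    · exact hSF z hz
  refine ⟨max r (1 - τ), fun L' hL' z hz => hsub (Or.inr ⟨?_, ?_⟩)⟩
  · exact norm_ge_re z hσ (by have := le_max_left r (1 - τ); linarith)
  · have := le_max_right r (1 - τ)
    linarith

end Crest.Agent.R105.C4_775
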