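import Crest.Agent.R105.Asm0_6
import Crest.Agent.R105.Bd4_775

/-!
# Row 105, S0139, ATTP leaf `C4aP` (helper86): the clamping operator outside a disc
-/

set_option autoImplicit false

open MeasureTheory Set Filter Topology Metric Bornology
open scoped ContDiff NNReal

namespace Crest.Agent.R105.C4a_86

open Crest.Agent.R105.IfB_641 Crest.Agent.R105.Asm_6
open Crest.Agent.R105.Bd_775 (en ll_sub ll_comp measurable_en ae_diff en_nonneg en_comp_le
  en_eq_of_eventuallyEq en_const en_sub_le di_self)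

/-- gluing two Lipschitz functions on a convex set across the circle `‖z‖ = r` -/
theorem lip_glue {f g : ℂ → ℝ} {B : Set ℂ} (hB : Convex ℝ B) {K : ℝ≥0} {r : ℝ}
    (hf : LipschitzOnWith K f B) (hg : LipschitzOnWith K g B)
    (h : ∀ z ∈ B, ‖z‖ = r → f z = g z) :
    LipschitzOnWith K (fun z => if ‖z‖ ≤ r then f z else g z) B := by
  have key : ∀ w1 ∈ B, ∀ w2 ∈ B, ‖w1‖ ≤ r → r < ‖w2‖ → dist (f w1) (g w2) ≤ K * dist w1 w2 := by
    intro w1 h1 w2 h2 h1r h2r
    have hc : ContinuousOn (fun t : ℝ => ‖AffineMap.lineMap w1 w2 t‖) (Icc 0 1) :=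
      (AffineMap.lineMap_continuous.norm).continuousOn
    have hmem : r ∈ Icc ‖(AffineMap.lineMap w1 w2 (0 : ℝ) : ℂ)‖ ‖(AffineMap.lineMap w1 w2 (1 : ℝ) : ℂ)‖ := by
      simp only [AffineMap.lineMap_apply_zero, AffineMap.lineMap_apply_one]
      exact ⟨h1r, h2r.le⟩
    obtain ⟨t, ht, htr⟩ := intermediate_value_Icc (zero_le_one (α := ℝ)) hc hmem
    set w : ℂ := AffineMap.lineMap w1 w2 t with hw
    have hws : w ∈ segment ℝ w1 w2 := by
      rw [segment_eq_image_lineMap]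
      exact ⟨t, ht, rfl⟩
    have hwB : w ∈ B := hB.segment_subset h1 h2 hws
    have e1 := hf.dist_le_mul w1 h1 w hwB
    have e2 := hg.dist_le_mul w hwB w2 h2
    have e3 := h w hwB htr
    have e4 : dist w1 w + dist w w2 = dist w1 w2 := dist_add_dist_of_mem_segment hws
    calc dist (f w1) (g w2) ≤ dist (f w1) (f w) + dist (f w) (g w2) := dist_triangle _ _ _
      _ ≤ K * dist w1 w + K * dist w w2 := by rw [e3] at e1 ⊢; exact add_le_add e1 e2
      _ = K * dist w1 w2 := by rw [← e4]; ring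
  refine LipschitzOnWith.of_dist_le_mul fun w1 h1 w2 h2 => ?_
  by_cases a1 : ‖w1‖ ≤ r
  · by_cases a2 : ‖w2‖ ≤ r
    · simp only [if_pos a1, if_pos a2]
      exact hf.dist_le_mul w1 h1 w2 h2
    · simp only [if_pos a1, if_neg a2]
      exact key w1 h1 w2 h2 a1 (not_le.1 a2)
  · by_cases a2 : ‖w2‖ ≤ r
    · simp only [if_neg a1, if_pos a2]
      rw [dist_comm, dist_comm w1]
      exact key w2 h2 w1 h1 a2 (not_le.1 a1)
    · simp only [if_neg a1, if_neg a2]
      exact hg.dist_le_mul w1 h1 w2 h2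

theorem cl_lip (δ : ℝ) : LipschitzWith 1 (cl δ) := by
  unfold cl
  exact (LipschitzWith.id.min_const δ).const_max (-δ)

theorem cl_eq {δ s : ℝ} (h : |s| ≤ δ) : cl δ s = s := by
  rw [abs_le] at h
  unfold cl
  rw [min_eq_left h.2, max_eq_right h.1]

theorem abs_cl_le {δ : ℝ} (hδ : 0 < δ) (s : ℝ) : |cl δ s| ≤ δ := by
  unfold cl
  rw [abs_le]
  exact ⟨le_max_left _ _, max_le (by linarith) (min_le_right _ _)⟩

theorem abs_cl_le' {δ : ℝ} (hδ : 0 < δ) (s : ℝ) : |cl δ s| ≤ |s| := by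
  have h := (cl_lip δ).dist_le_mul s 0
  rw [cl_eq (show |(0 : ℝ)| ≤ δ by simpa using hδ.le)] at h
  simpa [Real.dist_eq] using h

variable {C : Set ℂ} {r δ : ℝ} {ψ : ℂ → ℝ}

theorem Kl_in {z : ℂ} (hz : ‖z‖ < r) : Kl r δ ψ =ᶠ[𝓝 z] ψ := by
  have : ∀ᶠ w in 𝓝 z, ‖w‖ < r := continuous_norm.continuousAt.eventually (gt_mem_nhds hz)
  filter_upwards [this] with w hw
  exact if_pos hw.le

theorem Kl_out {z : ℂ} (hz : r < ‖z‖) : Kl r δ ψ =ᶠ[𝓝 z] fun w => cl δ (ψ w) := by
  have : ∀ᶠ w in 𝓝 z, r < ‖w‖ := continuous_norm.continuousAt.eventually (lt_mem_nhds hz)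
  filter_upwards [this] with w hw
  exact if_neg (not_le.2 hw)

theorem Kl_cont (hψ : Continuous ψ) (hb : ∀ z, ‖z‖ = r → |ψ z| ≤ δ) : Continuous (Kl r δ ψ) := by
  unfold Kl
  exact hψ.if_le ((cl_lip δ).continuous.comp hψ) continuous_norm continuous_const
    fun z hz => (cl_eq (hb z hz)).symm

theorem abs_Kl_le (hδ : 0 < δ) {M : ℝ} (hM : ∀ z, |ψ z| ≤ M) (z : ℂ) : |Kl r δ ψ z| ≤ M := by
  unfold Kl
  split_ifs
  · exact hM z
  · exact (abs_cl_le' hδ _).trans (hM z)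

theorem Kl_loc (hC : IsClosed C) (hψ : LocallyLipschitzOn Cᶜ ψ)
    (hb : ∀ z, ‖z‖ = r → |ψ z| ≤ δ) : LocallyLipschitzOn Cᶜ (Kl r δ ψ) := by
  intro z hz
  obtain ⟨K, t, ht, hL⟩ := hψ hz
  rw [hC.isOpen_compl.nhdsWithin_eq hz] at ht
  obtain ⟨ρ, hρ, hρt⟩ := Metric.mem_nhds_iff.1 ht
  refine ⟨K, ball z ρ, mem_nhdsWithin_of_mem_nhds (ball_mem_nhds z hρ), ?_⟩
  have h1 : LipschitzOnWith K ψ (ball z ρ) := hL.mono hρt
  have h2 : LipschitzOnWith K (fun w => cl δ (ψ w)) (ball z ρ) := by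
    have := (cl_lip δ).comp_lipschitzOnWith h1
    rw [one_mul] at this
    exact this
  exact lip_glue (convex_ball z ρ) h1 h2 fun w _ hw => (cl_eq (hb w hw)).symm

/-- the circle is null -/
theorem ae_norm_ne (r : ℝ) : ∀ᵐ z : ℂ, ‖z‖ ≠ r := by
  have h : volume (sphere (0 : ℂ) r) = 0 := Measure.addHaar_sphere volume 0 r
  rw [ae_iff]
  refine measure_mono_null ?_ h
  intro z hz
  simp only [mem_ofPred_eq, not_not] at hz
  simpa using hz

theorem en_Kl_le (hC : IsClosed C) (hψ : LocallyLipschitzOn Cᶜ ψ) :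
    ∀ᵐ z ∂(volume.restrict Cᶜ), en (Kl r δ ψ) z ≤ en ψ z := by
  filter_upwards [ae_diff hC.isOpen_compl hψ, ae_restrict_of_ae (ae_norm_ne r)] with z hz hr
  rcases lt_or_gt_of_ne hr with h | h
  · exact (en_eq_of_eventuallyEq (Kl_in h)).le
  · rw [en_eq_of_eventuallyEq (Kl_out h)]
    refine (en_comp_le (cl_lip δ) hz).trans ?_
    simp

theorem Kl_fin (hC : IsClosed C) (hψ : D C ψ) : IntegrableOn (en (Kl r δ ψ)) Cᶜ := by
  refine Integrable.mono' hψ.fin (measurable_en _).aestronglyMeasurable ?_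
  filter_upwards [en_Kl_le (r := r) (δ := δ) hC hψ.loc] with z hz
  rwa [Real.norm_of_nonneg (en_nonneg _ _)]

theorem c4a : C4aP := by
  intro C hCc r δ hδ hCr ψ hψ hb
  have hC : IsClosed C := hCc.isClosed
  obtain ⟨M, hM⟩ := hψ.bdd
  have hD : D C (Kl r δ ψ) :=
    ⟨Kl_cont hψ.cont hb, ⟨M, abs_Kl_le hδ hM⟩, Kl_loc hC hψ.loc hb, Kl_fin hC hψ⟩
  have hnear : ∀ z ∈ C, (fun w => Kl r δ ψ w - ψ w) =ᶠ[𝓝 z] fun _ => (0 : ℝ) := by
    intro z hz
    have hzr : ‖z‖ < r := by simpa using hCr hz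
    filter_upwards [Kl_in (δ := δ) (ψ := ψ) hzr] with w hw
    simp only [hw, sub_self]
  refine ⟨hD, ?_, ?_, ?_⟩
  · refine ⟨?_, ⟨2 * M, fun z => ?_⟩, ?_, ?_⟩
    · intro z
      by_cases hz : z ∈ C
      · obtain ⟨t, ht, hto⟩ := (hnear z hz).exists_mem
        refine ⟨0, t, ht, ?_⟩
        refine LipschitzOnWith.of_dist_le_mul fun x hx y hy => ?_
        have e1 : Kl r δ ψ x - ψ x = 0 := hto hx
        have e2 : Kl r δ ψ y - ψ y = 0 := hto hy
        simp only [e1, e2, dist_self]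
        positivity
      · have h1 := ll_sub hD.loc hψ.loc
        obtain ⟨K, t, ht, h2⟩ := h1 (show z ∈ Cᶜ from hz)
        rw [hC.isOpen_compl.nhdsWithin_eq (show z ∈ Cᶜ from hz)] at ht
        exact ⟨K, t, ht, h2⟩
    · have h1 := abs_Kl_le (r := r) hδ hM z
      have h2 := abs_sub (Kl r δ ψ z) (ψ z)
      have h3 := hM z
      linarith
    · have h1 : IntegrableOn (en fun z => Kl r δ ψ z - ψ z) Cᶜ := by
        refine Integrable.mono' ((hD.fin.const_mul 2).add (hψ.fin.const_mul 2))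
          (measurable_en _).aestronglyMeasurable ?_
        filter_upwards [ae_diff hC.isOpen_compl hψ.loc, ae_diff hC.isOpen_compl hD.loc] with z h1 h2
        rw [Real.norm_of_nonneg (en_nonneg _ _)]
        exact en_sub_le h2 h1
      rwa [integrableOn_iff_integrable_of_support_subset] at h1
      intro z hz
      by_contra h2
      have h3 : z ∈ C := by simpa using h2
      apply hz
      rw [en_eq_of_eventuallyEq (hnear z h3), en_const]
    · intro z hz
      have h1 := hnear z hz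
      filter_upwards [h1] with w hw
      rw [hw, h1.eq_of_nhds]
  · intro z hz
    rcases hz.lt_or_eq with h | h
    · have : Kl r δ ψ z = cl δ (ψ z) := if_neg (not_le.2 h)
      rw [this]
      exact abs_cl_le hδ _
    · have : Kl r δ ψ z = ψ z := if_pos h.symm.le
      rw [this]
      exact hb z h.symm
  · rw [di_self, di_self]
    exact integral_mono_ae hD.fin hψ.fin (en_Kl_le hC hψ.loc)

end Crest.Agent.R105.C4a_86
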