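import Crest.Agent.R105.C4a_775
import Crest.Agent.R105.Bd4_775

/-!
# Row 105, S0139 [B], ATTP: `C4P` (uniform Cauchy estimate), part 2 (helper775)

`one_side` : the estimate for one sign; `c4p : C3P → C4aP → C4P`.
-/

set_option autoImplicit false

open MeasureTheory Set Filter Topology Metric Bornology
open scoped ContDiff NNReal

namespace Crest.Agent.R105.C4_775

open Crest.Agent.R105.IfB_641 Crest.Agent.R105.Asm_6

lemma fderiv_sub_c (u : ℂ → ℝ) (c : ℝ) (z : ℂ) : fderiv ℝ (fun w => u w - c) z = fderiv ℝ u z := by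
  have h := fderiv_sub_const (𝕜 := ℝ) (f := u) (x := z) c
  exact h

lemma en_sub_c (u : ℂ → ℝ) (c : ℝ) (z : ℂ) : en (fun w => u w - c) z = en u z := by
  unfold Bd_775.en Bd_775.gx Bd_775.gy
  rw [fderiv_sub_c]

lemma di_eq (C : Set ℂ) (u : ℂ → ℝ) : di C u u = ∫ z in Cᶜ, en u z := by
  unfold di
  congr 1
  funext z
  unfold Bd_775.dot Bd_775.en
  ring

lemma di_sub_c (C : Set ℂ) (u : ℂ → ℝ) (c : ℝ) :
    di C (fun w => u w - c) (fun w => u w - c) = di C u u := by
  rw [di_eq, di_eq]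
  simp only [en_sub_c]

lemma gen_d {C : Set ℂ} (hC : IsClosed C) {S : Set (ℂ → ℝ)} (hS : ∀ s ∈ S, D C s) {u : ℂ → ℝ}
    (hu : Gen C S u) : D C u :=
  (Gen.q hC (fun s hs => (hS s hs).q) hu).d (Bd_775.Gen.cont (fun i => (hS _ i.2).cont) hu)

lemma continuous_en {u : ℂ → ℝ} (h : ContDiff ℝ ∞ u) : Continuous (en u) :=
  ((contDiff_gx h).continuous.pow 2).add ((contDiff_gy h).continuous.pow 2)

/-- smooth compactly supported functions, locally constant near `C`, are in `LC` -/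
lemma lc_of_smooth {C : Set ℂ} {χ : ℂ → ℝ} (h : ContDiff ℝ ∞ χ) (hc : HasCompactSupport χ)
    (hl : ∀ z ∈ C, ∀ᶠ w in 𝓝 z, χ w = χ z) : LC C χ :=
  Bd_775.LC.of_compact (h.of_le (by exact_mod_cast le_top)).locallyLipschitz hc hl

/-- the isotropy hypothesis of `cauchy_sq` -/
lemma iso_theta {C : Set ℂ} {x0 : ℂ → ℝ} (hX : X0 C x0) {S : Set (ℂ → ℝ)} (hI : Iso C S)
    {A W : ℂ → ℝ} (hA : Gen C S A) (hW : Gen C S W) (t0 t1 : ℝ) {θ : ℂ → ℝ}
    (hθ : ContDiff ℝ ∞ θ) (hθc : HasCompactSupport θ) (hl : ∀ z ∈ C, ∀ᶠ w in 𝓝 z, θ w = θ z) :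
    om C (fun z => θ z * max (min (x0 z + A z + W z) t1 - (x0 z + A z)) 0)
      (fun z => max (x0 z + A z) t0) = 0 := by
  obtain ⟨ρ, hρ⟩ := hθc.isCompact.isBounded.subset_ball (0 : ℂ)
  set ρ' : ℝ := max ρ 1 with hρ'
  have hρ1 : 0 < ρ' := lt_of_lt_of_le one_pos (le_max_right _ _)
  let κ : ContDiffBump (0 : ℂ) := ⟨ρ', ρ' + 1, hρ1, by linarith⟩
  have hκ1 : ∀ z ∈ ball (0 : ℂ) ρ', κ z = 1 := fun z hz =>
    κ.one_of_mem_closedBall (ball_subset_closedBall hz)
  set y : ℂ → ℝ := fun z => κ z * x0 z with hy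
  have hyLC : LC C y := by
    refine lc_of_smooth (κ.contDiff.mul hX.sm) κ.hasCompactSupport.mul_right ?_
    intro z hz
    have h0 : x0 =ᶠ[𝓝 z] 0 := notMem_tsupport_iff_eventuallyEq.1 fun h => hX.zero h hz
    have h1 : x0 z = 0 := h0.eq_of_nhds
    filter_upwards [h0] with w hw
    show κ w * x0 w = κ z * x0 z
    rw [hw, h1]; simp
  have hθG : Gen C S θ := Gen.lc (lc_of_smooth hθ hθc hl)
  have hyG : Gen C S (fun z => y z + A z) := Gen.add (Gen.lc hyLC) hA
  have hmin : LipschitzWith 1 (fun s : ℝ => min s t1) := LipschitzWith.id.min_const t1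
  have hmax0 : LipschitzWith 1 (fun s : ℝ => max s 0) := LipschitzWith.id.max_const 0
  have hmax : LipschitzWith 1 (fun s : ℝ => max s t0) := LipschitzWith.id.max_const t0
  have h1 : Gen C S (fun z => θ z * max (min (y z + A z + W z) t1 - (y z + A z)) 0) :=
    Gen.mul hθG (Gen.comp hmax0 (Gen.sub (Gen.comp hmin (Gen.add hyG hW)) hyG))
  have h2 : Gen C S (fun z => max (y z + A z) t0) := Gen.comp hmax hyG
  have h3 := hI _ _ h1 h2
  refine Eq.trans ?_ h3
  unfold om
  congr 1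
  funext z
  by_cases hz : z ∈ tsupport θ
  · have hz' : z ∈ ball (0 : ℂ) ρ' := ball_subset_ball (le_max_left _ _) (hρ hz)
    have e : ∀ᶠ w in 𝓝 z, y w = x0 w := by
      filter_upwards [isOpen_ball.mem_nhds hz'] with w hw
      show κ w * x0 w = x0 w
      rw [hκ1 w hw, one_mul]
    refine Bd_775.wdg_eq_of_eventuallyEq ?_ ?_
    · filter_upwards [e] with w hw
      rw [hw]
    · filter_upwards [e] with w hw
      rw [hw]
  · have h0 : θ =ᶠ[𝓝 z] 0 := notMem_tsupport_iff_eventuallyEq.1 hz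
    have g0 : ∀ f : ℂ → ℝ, (fun w => θ w * f w) =ᶠ[𝓝 z] fun _ => 0 := by
      intro f
      filter_upwards [h0] with w hw
      rw [hw]; simp
    have k : ∀ f g : ℂ → ℝ, Bd_775.wdg (fun w => θ w * f w) g z = 0 := by
      intro f g
      rw [Bd_775.wdg_eq_of_eventuallyEq (g0 f) (Filter.EventuallyEq.refl _ g)]
      unfold Bd_775.wdg
      rw [Bd_775.gx_const, Bd_775.gy_const]; ring
    rw [k, k]

/-- energy of `η * W` when `η` is constant where `W` is big -/
lemma energy_mul {C : Set ℂ} (hC : IsClosed C) {η W : ℂ → ℝ} (hη : ContDiff ℝ ∞ η)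
    (hη01 : ∀ z, 0 ≤ η z ∧ η z ≤ 1) (hηi : Integrable (en η)) {R1 d : ℝ} (hd : 0 ≤ d)
    (hη1 : ∀ z ∈ ball (0 : ℂ) R1, η z = 1) (hW : Bd_775.Q C W) (hWd : ∀ z, R1 ≤ ‖z‖ → |W z| ≤ d)
    (hi : IntegrableOn (en fun z => η z * W z) Cᶜ) :
    ∫ z in Cᶜ, en (fun z => η z * W z) z ≤ 2 * di C W W + 2 * d ^ 2 * ∫ z, en η z := by
  have hCm : MeasurableSet Cᶜ := hC.isOpen_compl.measurableSet
  have hb : ∀ᵐ z ∂(volume.restrict Cᶜ), en (fun z => η z * W z) z
      ≤ 2 * en W z + 2 * d ^ 2 * en η z := by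
    filter_upwards [hW.ae_diff hC] with z hz
    have hηd : DifferentiableAt ℝ η z := hη.differentiable (by simp) z
    have e1 : en (fun z => η z * W z) z = (Bd_775.gx η z * W z + η z * Bd_775.gx W z) ^ 2
        + (Bd_775.gy η z * W z + η z * Bd_775.gy W z) ^ 2 := by
      unfold Bd_775.en
      rw [Bd_775.gx_mul hηd hz, Bd_775.gy_mul hηd hz]
      ring
    have e2 : (η z) ^ 2 ≤ 1 := by
      have := hη01 z
      nlinarith
    have e3 : en η z * (W z) ^ 2 ≤ d ^ 2 * en η z := by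
      by_cases hz1 : z ∈ ball (0 : ℂ) R1
      · have : en η z = 0 := by
          have h : η =ᶠ[𝓝 z] fun _ => (1 : ℝ) := by
            filter_upwards [isOpen_ball.mem_nhds hz1] with w hw using hη1 w hw
          rw [Bd_775.en_eq_of_eventuallyEq h, Bd_775.en_const]
        rw [this]; simp
      · have h1 : R1 ≤ ‖z‖ := by
          by_contra h
          push Not at h
          exact hz1 (mem_ball_zero_iff.2 h)
        have h2 : (W z) ^ 2 ≤ d ^ 2 := sq_le_sq' (by have := (abs_le.1 (hWd z h1)).1; linarith)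
          (abs_le.1 (hWd z h1)).2
        rw [mul_comm]
        exact mul_le_mul_of_nonneg_right h2 (Bd_775.en_nonneg η z)
    rw [e1]
    have e4 : (Bd_775.gx η z * W z + η z * Bd_775.gx W z) ^ 2
        + (Bd_775.gy η z * W z + η z * Bd_775.gy W z) ^ 2
        ≤ 2 * (en η z * (W z) ^ 2) + 2 * ((η z) ^ 2 * en W z) := by
      unfold Bd_775.en
      nlinarith [sq_nonneg (Bd_775.gx η z * W z - η z * Bd_775.gx W z),
        sq_nonneg (Bd_775.gy η z * W z - η z * Bd_775.gy W z)]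
    have e5 : (η z) ^ 2 * en W z ≤ en W z := by
      have := mul_le_mul_of_nonneg_right e2 (Bd_775.en_nonneg W z)
      linarith
    linarith
  have i1 : IntegrableOn (fun z => 2 * en W z) Cᶜ := hW.fin.const_mul 2
  have i2 : IntegrableOn (fun z => 2 * d ^ 2 * en η z) Cᶜ := (hηi.const_mul _).integrableOn
  have i12 : Integrable (fun z => 2 * en W z + 2 * d ^ 2 * en η z) (volume.restrict Cᶜ) :=
    Integrable.add i1 i2
  calc ∫ z in Cᶜ, en (fun z => η z * W z) z
      ≤ ∫ z in Cᶜ, (2 * en W z + 2 * d ^ 2 * en η z) :=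
        integral_mono_ae hi i12 hb
    _ = 2 * di C W W + 2 * d ^ 2 * ∫ z in Cᶜ, en η z := by
        rw [integral_add i1 i2, integral_const_mul, integral_const_mul, di_eq]
    _ ≤ 2 * di C W W + 2 * d ^ 2 * ∫ z, en η z := by
        have : ∫ z in Cᶜ, en η z ≤ ∫ z, en η z :=
          setIntegral_le_integral hηi (Eventually.of_forall fun z => Bd_775.en_nonneg η z)
        have hd2 : 0 ≤ 2 * d ^ 2 := by positivity
        nlinarith [mul_le_mul_of_nonneg_left this hd2]

/-- energy of `x0 + A` on a compact set -/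
lemma energy_add {C : Set ℂ} (hC : IsClosed C) {x0 A : ℂ → ℝ} (hx : ContDiff ℝ ∞ x0)
    (hA : Bd_775.Q C A) {T : Set ℂ} {ρ : ℝ} (hT : MeasurableSet T) (hTρ : T ⊆ closedBall 0 ρ) :
    IntegrableOn (en fun z => x0 z + A z) (Cᶜ ∩ T) ∧
    ∫ z in Cᶜ ∩ T, en (fun z => x0 z + A z) z
      ≤ 2 * (∫ z in closedBall (0 : ℂ) ρ, en x0 z) + 2 * di C A A := by
  have hCm : MeasurableSet Cᶜ := hC.isOpen_compl.measurableSet
  have hm : MeasurableSet (Cᶜ ∩ T) := hCm.inter hT
  have ix : IntegrableOn (en x0) (closedBall (0 : ℂ) ρ) :=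
    (continuous_en hx).continuousOn.integrableOn_compact (isCompact_closedBall 0 ρ)
  have ix' : IntegrableOn (fun z => 2 * en x0 z) (Cᶜ ∩ T) :=
    (ix.mono_set (inter_subset_right.trans hTρ)).const_mul 2
  have iA' : IntegrableOn (fun z => 2 * en A z) (Cᶜ ∩ T) :=
    (hA.fin.mono_set inter_subset_left).const_mul 2
  have hb : ∀ᵐ z ∂(volume.restrict (Cᶜ ∩ T)), en (fun z => x0 z + A z) z
      ≤ 2 * en x0 z + 2 * en A z := by
    have h1 : ∀ᵐ z ∂(volume.restrict (Cᶜ ∩ T)), DifferentiableAt ℝ A z :=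
      ae_mono (Measure.restrict_mono inter_subset_left le_rfl) (hA.ae_diff hC)
    filter_upwards [h1] with z hz
    have h2 := Bd_775.en_add_le (hx.differentiable (by simp) z) hz
    linarith
  have i12 : Integrable (fun z => 2 * en x0 z + 2 * en A z) (volume.restrict (Cᶜ ∩ T)) :=
    Integrable.add ix' iA'
  have i3 : IntegrableOn (en fun z => x0 z + A z) (Cᶜ ∩ T) := by
    refine Integrable.mono' i12 (Bd_775.measurable_en _).aestronglyMeasurable ?_
    filter_upwards [hb] with z hz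
    rw [Real.norm_of_nonneg (Bd_775.en_nonneg _ z)]
    exact hz
  refine ⟨i3, ?_⟩
  calc ∫ z in Cᶜ ∩ T, en (fun z => x0 z + A z) z
      ≤ ∫ z in Cᶜ ∩ T, (2 * en x0 z + 2 * en A z) := integral_mono_ae i3 i12 hb
    _ = 2 * (∫ z in Cᶜ ∩ T, en x0 z) + 2 * ∫ z in Cᶜ ∩ T, en A z := by
        rw [integral_add ix' iA', integral_const_mul, integral_const_mul]
    _ ≤ 2 * (∫ z in closedBall (0 : ℂ) ρ, en x0 z) + 2 * di C A A := by
        have h1 : ∫ z in Cᶜ ∩ T, en x0 z ≤ ∫ z in closedBall (0 : ℂ) ρ, en x0 z :=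
          setIntegral_mono_set ix (Eventually.of_forall fun z => Bd_775.en_nonneg x0 z)
            (Eventually.of_forall fun z hz => hTρ hz.2)
        have h2 : ∫ z in Cᶜ ∩ T, en A z ≤ di C A A := by
          rw [di_eq]
          exact setIntegral_mono_set hA.fin (Eventually.of_forall fun z => Bd_775.en_nonneg A z)
            (Eventually.of_forall fun z hz => hz.1)
        linarith

end Crest.Agent.R105.C4_775
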