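import Crest.Agent.R105.C4b_775

/-!
# Row 105, S0139 [B], ATTP: `C4P` (uniform Cauchy estimate), part 3 (helper775)

`c4p : C3P → C4aP → C4P`.
-/

set_option autoImplicit false

open MeasureTheory Set Filter Topology Metric Bornology
open scoped ContDiff NNReal

namespace Crest.Agent.R105.C4_775

open Crest.Agent.R105.IfB_641 Crest.Agent.R105.Asm_6

/-- the estimate, one sign -/
theorem one_side (h4 : C4aP) {C : Set ℂ} {x0 : ℂ → ℝ} (hT : TD C) (hX : X0 C x0)
    {R0 R1 r : ℝ} (hCR : C ⊆ ball 0 R0)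
    (hfar : ∀ z, R0 ≤ ‖z‖ → x0 z = z.re) (hr0 : R0 < r) (hr1 : r < R1)
    {S : Set (ℂ → ℝ)} (hS : ∀ s ∈ S, D C s) (hI : Iso C S)
    {h : ℝ} (hh : 0 < h) {E δ δ2 : ℝ} (hδ2 : 0 < δ2) (hδ2h : δ2 ≤ h / 64)
    {η : ℂ → ℝ} (hη : ContDiff ℝ ∞ η) (hηc : HasCompactSupport η)
    (hη01 : ∀ z, 0 ≤ η z ∧ η z ≤ 1) (hη1 : ∀ z ∈ ball (0 : ℂ) R1, η z = 1)
    (hηs : tsupport η ⊆ closedBall 0 (2 * R1))
    {φ φ' : ℂ → ℝ} (hφ : Gen C S φ) (hφ' : Gen C S φ')
    (hM : Mn (fun z => x0 z + φ z) (h / 16)) (hM' : Mn (fun z => x0 z + φ' z) (h / 16))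
    (hE1 : di C φ φ ≤ E) (hE2 : di C (fun z => φ' z - φ z) (fun z => φ' z - φ z) ≤ δ)
    {α β : ℝ} (c1 : ∀ z, ‖z‖ = r → |φ z - α| ≤ h / 16)
    (c3 : ∀ z, ‖z‖ = r → |φ' z - φ z - (β - α)| ≤ δ2)
    (hsmall : (2 * δ + 2 * δ2 ^ 2 * ∫ z, en η z) *
      (2 * (∫ z in closedBall (0 : ℂ) (2 * R1), en x0 z) + 2 * E) < ((h / 16) ^ 2 / 2) ^ 2) :
    ∀ p, ‖p‖ ≤ r → φ' p - φ p - (β - α) ≤ h / 2 := by
  intro p hp
  have hC : IsCompact C := hT.cpt
  have hCc : IsClosed C := hC.isClosed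
  have hCr : C ⊆ ball 0 r := hCR.trans (ball_subset_ball hr0.le)
  have hCR1 : C ⊆ ball 0 R1 := hCr.trans (ball_subset_ball hr1.le)
  by_contra hcon
  push Not at hcon
  -- `p` is inside
  have hpr : ‖p‖ < r := by
    rcases hp.lt_or_eq with h1 | h1
    · exact h1
    · have := (abs_le.1 (c3 p h1)).2
      exfalso; linarith
  set d1 : ℝ := h / 16 with hd1
  have hd1p : 0 < d1 := by rw [hd1]; positivity
  set ψ1 : ℂ → ℝ := fun z => φ z - α with hψ1
  set ψ2 : ℂ → ℝ := fun z => φ' z - φ z - (β - α) with hψ2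
  have g1 : Gen C S ψ1 := Gen.sub hφ (Gen.const α)
  have g2 : Gen C S ψ2 := Gen.sub (Gen.sub hφ' hφ) (Gen.const (β - α))
  have D1' : D C ψ1 := gen_d hCc hS g1
  have D2' : D C ψ2 := gen_d hCc hS g2
  obtain ⟨KA, LA, bA, eA⟩ := h4 C hC r d1 hd1p hCr ψ1 D1' c1
  obtain ⟨KW, LW, bW, eW⟩ := h4 C hC r δ2 hδ2 hCr ψ2 D2' c3
  set A : ℂ → ℝ := Kl r d1 ψ1 with hA
  set W : ℂ → ℝ := Kl r δ2 ψ2 with hW
  have gA : Gen C S A := by
    have : A = fun z => (Kl r d1 ψ1 z - ψ1 z) + ψ1 z := by funext z; rw [hA]; ring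
    rw [this]; exact Gen.add (Gen.lc LA) g1
  have gW : Gen C S W := by
    have : W = fun z => (Kl r δ2 ψ2 z - ψ2 z) + ψ2 z := by funext z; rw [hW]; ring
    rw [this]; exact Gen.add (Gen.lc LW) g2
  have hηLC : LC C η := by
    refine lc_of_smooth hη hηc fun z hz => ?_
    have h1 : η z = 1 := hη1 z (hCR1 hz)
    filter_upwards [isOpen_ball.mem_nhds (hCR1 hz)] with w hw
    rw [hη1 w hw, h1]
  have gηW : Gen C S (fun z => η z * W z) := Gen.mul (Gen.lc hηLC) gW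
  have DηW : D C (fun z => η z * W z) := gen_d hCc hS gηW
  -- the two functions
  set a : ℂ → ℝ := fun z => x0 z + A z with ha
  set b : ℂ → ℝ := fun z => x0 z + A z + η z * W z with hb
  have hba : (fun z => b z - a z) = fun z => η z * W z := by
    funext z; rw [hb, ha]; ring
  have hAin : ∀ z, ‖z‖ ≤ r → A z = φ z - α := by
    intro z hz
    rw [hA]; unfold Kl; rw [if_pos hz]
  have hWin : ∀ z, ‖z‖ ≤ r → W z = φ' z - φ z - (β - α) := by
    intro z hz
    rw [hW]; unfold Kl; rw [if_pos hz]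
  have hηin : ∀ z, ‖z‖ ≤ r → η z = 1 := fun z hz =>
    hη1 z (mem_ball_zero_iff.2 (hz.trans_lt hr1))
  have ain : ∀ z, ‖z‖ ≤ r → a z = x0 z + φ z - α := by
    intro z hz
    show x0 z + A z = _
    rw [hAin z hz]; ring
  have bin : ∀ z, ‖z‖ ≤ r → b z = x0 z + φ' z - β := by
    intro z hz
    show x0 z + A z + η z * W z = _
    rw [hAin z hz, hWin z hz, hηin z hz]; ring
  have aout : ∀ z, r ≤ ‖z‖ → |a z - z.re| ≤ d1 := by
    intro z hz
    have h1 : a z - z.re = A z := by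
      show x0 z + A z - z.re = A z
      rw [hfar z (hr0.le.trans hz)]; ring
    rw [h1]; exact bA z hz
  have bout : ∀ z, r ≤ ‖z‖ → |b z - z.re| ≤ d1 + δ2 := by
    intro z hz
    have h1 : b z - z.re = A z + η z * W z := by
      show x0 z + A z + η z * W z - z.re = _
      rw [hfar z (hr0.le.trans hz)]; ring
    rw [h1]
    have h2 : |η z * W z| ≤ δ2 := by
      rw [abs_mul, abs_of_nonneg (hη01 z).1]
      calc η z * |W z| ≤ 1 * |W z| := mul_le_mul_of_nonneg_right (hη01 z).2 (abs_nonneg _)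
        _ = |W z| := one_mul _
        _ ≤ δ2 := bW z hz
    exact (abs_add_le _ _).trans (add_le_add (bA z hz) h2)
  -- continuity
  have cx : Continuous x0 := hX.sm.continuous
  have Dφ : D C φ := gen_d hCc hS hφ
  have Dφ' : D C φ' := gen_d hCc hS hφ'
  have DA : D C A := gen_d hCc hS gA
  have ca : Continuous a := cx.add DA.cont
  have cb : Continuous b := (cx.add DA.cont).add DηW.cont
  have lx : LocallyLipschitzOn Cᶜ x0 :=
    ((hX.sm.of_le (by exact_mod_cast le_top) : ContDiff ℝ 1 x0).locallyLipschitz).locallyLipschitzOn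
  have la : LocallyLipschitzOn Cᶜ a := Bd_775.ll_add lx DA.loc
  have lb : LocallyLipschitzOn Cᶜ b := Bd_775.ll_add la DηW.loc
  -- levels
  have hwp : b p - a p = φ' p - φ p - (β - α) := by
    rw [ain p hp, bin p hp]; ring
  set t0 : ℝ := a p + 3 * d1 with ht0
  set t1 : ℝ := b p - 3 * d1 - h / 32 with ht1
  have ht : t0 < t1 := by rw [ht0, ht1, hd1]; linarith
  have ht' : d1 ≤ t1 - t0 := by rw [ht0, ht1, hd1]; linarith
  -- left component
  obtain ⟨L1, hL1⟩ := comp_side (σ := 1) (Or.inl rfl) (u := fun z => x0 z + φ z) (F := a)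
    (cx.add Dφ.cont) (r := r) (e := d1) (δ := d1) (t := t0) (c := α) hd1p hpr
    (fun z hz => ain z hz) (fun z hz => by rw [one_mul]; exact aout z hz) (hM p).1
    (by rw [ht0]; linarith)
  have hKb : ¬ IsBounded (connectedComponentIn {w | -(x0 w + φ' w) < -(x0 p + φ' p) + d1} p) := by
    have : {w | -(x0 w + φ' w) < -(x0 p + φ' p) + d1} = {w | x0 p + φ' p - d1 < x0 w + φ' w} := by
      ext w
      simp only [mem_ofPred_eq]
      constructor <;> intro h' <;> linarith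
    rw [this]
    exact (hM' p).2
  obtain ⟨L2, hL2⟩ := comp_side (σ := -1) (Or.inr rfl) (u := fun z => -(x0 z + φ' z))
    (F := fun z => - b z) (cx.add Dφ'.cont).neg (r := r) (e := d1) (δ := d1 + δ2) (t := -t1)
    (c := -β) hd1p hpr (fun z hz => by show - b z = _; rw [bin z hz]; ring)
    (fun z hz => by
      have : - b z - -1 * z.re = -(b z - z.re) := by ring
      rw [this, abs_neg]; exact bout z hz) hKb
    (by rw [ht1]; linarith)
  set L : ℝ := max L1 L2 with hL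
  have hLa : ∀ z : ℂ, z.re ≤ -L → z ∈ connectedComponentIn {w | a w < t0} p := fun z hz =>
    hL1 L (le_max_left _ _) z (by rw [one_mul]; exact hz)
  have hLb : ∀ z : ℂ, L ≤ z.re → z ∈ connectedComponentIn {w | t1 < b w} p := by
    intro z hz
    have h1 := hL2 L (le_max_right _ _) z (by linarith)
    have h2 : {w | - b w < -t1} = {w | t1 < b w} := by
      ext w
      simp only [mem_ofPred_eq]
      constructor <;> intro h' <;> linarith
    rw [← h2]; exact h1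
  have hcs : HasCompactSupport (fun z => b z - a z) := by
    rw [hba]; exact hηc.mul_right
  have hsup : tsupport (fun z => b z - a z) ⊆ closedBall 0 (2 * R1) := by
    rw [hba]; exact (tsupport_mul_subset_left).trans hηs
  have hTm : MeasurableSet (tsupport (fun z => b z - a z)) := (isClosed_tsupport _).measurableSet
  obtain ⟨iEa, bEa⟩ := energy_add hCc hX.sm DA.q hTm hsup
  have iEb : IntegrableOn (en (fun z => b z - a z)) Cᶜ := by rw [hba]; exact DηW.fin
  have key := Att1_823.cauchy_sq hC hT.td ca cb la lb hcs ht (p := p) (L := L)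
    (by rw [ht0]; linarith) (by rw [ht1]; linarith) hLa hLb ?_ iEb iEa
  · -- energies
    have b1 : ∫ z in Cᶜ, en (fun z => b z - a z) z ≤ 2 * δ + 2 * δ2 ^ 2 * ∫ z, en η z := by
      have h1 := energy_mul hCc hη hη01 hηLC.fin hδ2.le hη1 KW.q
        (fun z hz => bW z (hr1.le.trans hz)) DηW.fin
      rw [hba]
      have h2 : di C W W ≤ δ := by
        refine eW.trans ?_
        rw [hψ2, di_sub_c C (fun z => φ' z - φ z) (β - α)]
        exact hE2
      linarith
    have b2 : ∫ z in Cᶜ ∩ tsupport (fun z => b z - a z), en a z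
        ≤ 2 * (∫ z in closedBall (0 : ℂ) (2 * R1), en x0 z) + 2 * E := by
      have h2 : di C A A ≤ E := by
        refine eA.trans ?_
        rw [hψ1, di_sub_c C φ α]
        exact hE1
      linarith
    have n2 : 0 ≤ ∫ z in Cᶜ ∩ tsupport (fun z => b z - a z), en a z :=
      integral_nonneg fun z => Bd_775.en_nonneg a z
    have n1 : 0 ≤ ∫ z in Cᶜ, en (fun z => b z - a z) z :=
      integral_nonneg fun z => Bd_775.en_nonneg _ z
    have b3 := mul_le_mul b1 b2 n2 (n1.trans b1)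
    have b4 : (d1 ^ 2 / 2) ^ 2 ≤ ((t1 - t0) ^ 2 / 2) ^ 2 := by
      have h1 : d1 ^ 2 ≤ (t1 - t0) ^ 2 := pow_le_pow_left₀ hd1p.le ht' 2
      exact pow_le_pow_left₀ (by positivity) (by linarith) 2
    linarith
  · intro θ hθ hθc hl
    exact iso_theta hX hI gA gηW t0 t1 hθ hθc hl

theorem c4p (h3 : C3P) (h4 : C4aP) : C4P := by
  intro C x0 hT hX R0 hR0 hCR hfar S hS hI h hh E hE
  have hpi := Real.pi_pos
  have hC : IsCompact C := hT.cpt
  have hCc : IsClosed C := hC.isClosed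
  -- the outer radius
  set Λ : ℝ := 6 * Real.pi * E / (h / 16) ^ 2 with hΛ
  have hΛp : 0 < Λ := by rw [hΛ]; positivity
  set R1 : ℝ := R0 * Real.exp Λ with hR1
  have hR01 : R0 < R1 := by
    rw [hR1]
    have : 1 < Real.exp Λ := Real.one_lt_exp_iff.2 hΛp
    nlinarith
  have hR1p : 0 < R1 := hR0.trans hR01
  have hlog : Real.log (R1 / R0) = Λ := by
    rw [hR1, mul_comm, mul_div_assoc, div_self hR0.ne', mul_one, Real.log_exp]
  -- the cut-off
  let κ : ContDiffBump (0 : ℂ) := ⟨R1, 2 * R1, hR1p, by linarith⟩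
  set η : ℂ → ℝ := fun z => κ z with hηd
  have hη : ContDiff ℝ ∞ η := κ.contDiff
  have hηc : HasCompactSupport η := κ.hasCompactSupport
  have hη01 : ∀ z, 0 ≤ η z ∧ η z ≤ 1 := fun z => ⟨κ.nonneg, κ.le_one⟩
  have hη1 : ∀ z ∈ ball (0 : ℂ) R1, η z = 1 := fun z hz =>
    κ.one_of_mem_closedBall (ball_subset_closedBall hz)
  have hηs : tsupport η ⊆ closedBall 0 (2 * R1) := by
    rw [hηd]; exact (κ.tsupport_eq).subset
  set Cη : ℝ := ∫ z, en η z with hCη
  have hCη0 : 0 ≤ Cη := integral_nonneg fun z => Bd_775.en_nonneg η z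
  set X : ℝ := ∫ z in closedBall (0 : ℂ) (2 * R1), en x0 z with hXd
  have hX0 : 0 ≤ X := integral_nonneg fun z => Bd_775.en_nonneg x0 z
  set M : ℝ := (2 + 12 * Real.pi * Cη / Λ) * (2 * X + 2 * E) with hM
  have hM0 : 0 ≤ M := by rw [hM]; positivity
  set c : ℝ := ((h / 16) ^ 2 / 2) ^ 2 with hc
  have hcp : 0 < c := by rw [hc]; positivity
  set δ : ℝ := min ((h / 64) ^ 2 * Λ / (6 * Real.pi)) (c / (M + 1)) with hδ
  have hδp : 0 < δ := by
    rw [hδ]
    refine lt_min ?_ ?_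
    · positivity
    · positivity
  refine ⟨δ, hδp, ?_⟩
  intro φ φ' hφ hφ' hMφ hMφ' hEφ hEφ' hd
  have Dφ : D C φ := gen_d hCc hS hφ
  have Dφ' : D C φ' := gen_d hCc hS hφ'
  have Dw : D C (fun z => φ' z - φ z) := gen_d hCc hS (Gen.sub hφ' hφ)
  -- the good circle
  set f : Fin 3 → ℂ → ℝ := ![φ, φ', fun z => φ' z - φ z] with hf
  set Ev : Fin 3 → ℝ := ![E, E, δ] with hEv
  obtain ⟨r, hr0, hr1, hcirc⟩ := h3 Cᶜ hCc.isOpen_compl R0 R1 hR0 hR01
    (fun z hz hzC => by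
      have := mem_ball_zero_iff.1 (hCR hzC)
      have := hz.1
      linarith) f Ev
    (by
      intro i
      fin_cases i
      · exact Dφ.loc
      · exact Dφ'.loc
      · exact Dw.loc)
    (by
      intro i
      fin_cases i
      · exact Dφ.fin
      · exact Dφ'.fin
      · exact Dw.fin)
    (by
      intro i
      fin_cases i
      · exact hE
      · exact hE
      · exact hδp)
    (by
      intro i
      fin_cases i
      · show ∫ z in Cᶜ, Bd_775.en φ z ≤ E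
        rw [← di_eq]; exact hEφ
      · show ∫ z in Cᶜ, Bd_775.en φ' z ≤ E
        rw [← di_eq]; exact hEφ'
      · show ∫ z in Cᶜ, Bd_775.en (fun z => φ' z - φ z) z ≤ δ
        rw [← di_eq]; exact hd)
  rw [hlog] at hcirc
  have hrp : 0 < r := hR0.trans hr0
  have hnr : ‖(r : ℂ)‖ = r := by rw [Complex.norm_real, Real.norm_of_nonneg hrp.le]
  set δ2 : ℝ := Real.sqrt (6 * Real.pi * δ / Λ) with hδ2
  have hδ2a : 0 < 6 * Real.pi * δ / Λ := by positivity
  have hδ2p : 0 < δ2 := Real.sqrt_pos.2 hδ2a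
  have hδ2s : δ2 ^ 2 = 6 * Real.pi * δ / Λ := Real.sq_sqrt hδ2a.le
  have hδ2h : δ2 ≤ h / 64 := by
    refine Real.sqrt_le_iff.2 ⟨by positivity, ?_⟩
    rw [div_le_iff₀ hΛp]
    have h1 : δ ≤ (h / 64) ^ 2 * Λ / (6 * Real.pi) := min_le_left _ _
    have h2 : 6 * Real.pi * δ ≤ 6 * Real.pi * ((h / 64) ^ 2 * Λ / (6 * Real.pi)) :=
      mul_le_mul_of_nonneg_left h1 (by positivity)
    have h3 : 6 * Real.pi * ((h / 64) ^ 2 * Λ / (6 * Real.pi)) = (h / 64) ^ 2 * Λ := by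
      field_simp
    linarith
  have hsm : (2 * δ + 2 * δ2 ^ 2 * Cη) * (2 * X + 2 * E) < c := by
    have h1 : (2 * δ + 2 * δ2 ^ 2 * Cη) * (2 * X + 2 * E) = δ * M := by
      rw [hδ2s, hM]; field_simp; ring
    rw [h1]
    have h2 : δ ≤ c / (M + 1) := min_le_right _ _
    calc δ * M < δ * (M + 1) := mul_lt_mul_of_pos_left (by linarith) hδp
      _ ≤ c / (M + 1) * (M + 1) := mul_le_mul_of_nonneg_right h2 (by linarith)
      _ = c := by field_simp
  have hE16 : 6 * Real.pi * E / Λ = (h / 16) ^ 2 := by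
    rw [hΛ]; field_simp
  set α : ℝ := φ (r : ℂ) with hα
  set β : ℝ := φ' (r : ℂ) with hβ
  have h16 : (0 : ℝ) ≤ h / 16 := by positivity
  have c1 : ∀ z, ‖z‖ = r → |φ z - α| ≤ h / 16 := by
    intro z hz
    have h1 : |φ z - φ (r : ℂ)| ^ 2 ≤ 6 * Real.pi * E / Λ := hcirc 0 z r hz hnr
    rw [hE16] at h1
    exact (pow_le_pow_iff_left₀ (abs_nonneg _) h16 two_ne_zero).1 h1
  have c2 : ∀ z, ‖z‖ = r → |φ' z - β| ≤ h / 16 := by
    intro z hz
    have h1 : |φ' z - φ' (r : ℂ)| ^ 2 ≤ 6 * Real.pi * E / Λ := hcirc 1 z r hz hnr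
    rw [hE16] at h1
    exact (pow_le_pow_iff_left₀ (abs_nonneg _) h16 two_ne_zero).1 h1
  have c3 : ∀ z, ‖z‖ = r → |φ' z - φ z - (β - α)| ≤ δ2 := by
    intro z hz
    have h1 : |(φ' z - φ z) - (φ' (r : ℂ) - φ (r : ℂ))| ^ 2 ≤ 6 * Real.pi * δ / Λ :=
      hcirc 2 z r hz hnr
    rw [← hδ2s] at h1
    exact (pow_le_pow_iff_left₀ (abs_nonneg _) hδ2p.le two_ne_zero).1 h1
  have c3' : ∀ z, ‖z‖ = r → |φ z - φ' z - (α - β)| ≤ δ2 := by
    intro z hz
    have h1 : φ z - φ' z - (α - β) = -(φ' z - φ z - (β - α)) := by ring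
    rw [h1, abs_neg]; exact c3 z hz
  have hd' : di C (fun z => φ z - φ' z) (fun z => φ z - φ' z) ≤ δ := by
    have h1 : di C (fun z => φ z - φ' z) (fun z => φ z - φ' z)
        = di C (fun z => φ' z - φ z) (fun z => φ' z - φ z) := by
      rw [di_eq, di_eq]
      congr 1
      funext z
      exact Bd_775.en_sub_comm φ φ' z
    rw [h1]; exact hd
  have up := one_side h4 hT hX hCR hfar hr0 hr1 hS hI hh hδ2p hδ2h hη hηc hη01 hη1 hηs hφ hφ'
    hMφ hMφ' hEφ hd c1 c3 hsm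
  have dn := one_side h4 hT hX hCR hfar hr0 hr1 hS hI hh hδ2p hδ2h hη hηc hη01 hη1 hηs hφ' hφ
    hMφ' hMφ hEφ' hd' c2 c3' hsm
  intro z w hz hw
  have z1 := up z (hz.trans hr0.le)
  have z2 := dn z (hz.trans hr0.le)
  have w1 := up w (hw.trans hr0.le)
  have w2 := dn w (hw.trans hr0.le)
  rw [abs_le]
  constructor <;> linarith

end Crest.Agent.R105.C4_775
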