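import Crest.Agent.R105.Asm0_6
import Crest.Agent.R105.Bd4_775

/-!
# Row 105, S0139 [B], ATTP: `C4aP` (the clamping operator) (helper775)
-/

set_option autoImplicit false

open MeasureTheory Set Filter Topology Metric Bornology
open scoped ContDiff NNReal

namespace Crest.Agent.R105.C4d_775

open Crest.Agent.R105.IfB_641 Crest.Agent.R105.Asm_6

lemma cl_lip (δ : ℝ) : LipschitzWith 1 (cl δ) := by
  unfold cl
  exact (LipschitzWith.id.min_const δ).const_max (-δ)

lemma cl_of_le {δ s : ℝ} (h : |s| ≤ δ) : cl δ s = s := by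
  obtain ⟨h1, h2⟩ := abs_le.1 h
  unfold cl; rw [min_eq_left h2, max_eq_right h1]

lemma abs_cl_le {δ : ℝ} (h : 0 ≤ δ) (s : ℝ) : |cl δ s| ≤ δ := by
  unfold cl
  rw [abs_le]
  exact ⟨le_max_left _ _, max_le (by linarith) (min_le_right _ _)⟩

/-- `cl δ s - s` is 1-Lipschitz -/
lemma cl_sub_lip (δ : ℝ) : LipschitzWith 1 (fun s => cl δ s - s) := by
  refine LipschitzWith.of_le_add fun s t => ?_
  unfold cl
  rw [Real.dist_eq]
  rcases le_total s t with h | h
  · rw [abs_sub_comm, abs_of_nonneg (sub_nonneg.2 h)]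
    have h1 : max (-δ) (min s δ) ≤ max (-δ) (min t δ) := max_le_max le_rfl (min_le_min h le_rfl)
    linarith
  · rw [abs_of_nonneg (sub_nonneg.2 h)]
    have h1 : max (-δ) (min s δ) - max (-δ) (min t δ) ≤ s - t := by
      have := (cl_lip δ).dist_le_mul s t
      unfold cl at this
      rw [Real.dist_eq, Real.dist_eq, NNReal.coe_one, one_mul, abs_of_nonneg (sub_nonneg.2 h)] at this
      exact (le_abs_self _).trans this
    linarith

/-- gluing a locally Lipschitz function, zero on the circle, with `0` inside -/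
lemma ll_glue {O : Set ℂ} (hO : IsOpen O) {r : ℝ} (hr : ∀ z, r ≤ ‖z‖ → z ∈ O) {k : ℂ → ℝ}
    (hk : LocallyLipschitzOn O k) (h0 : ∀ z, ‖z‖ = r → k z = 0) :
    LocallyLipschitz (fun z => if ‖z‖ ≤ r then 0 else k z) := by
  intro z
  rcases lt_or_ge ‖z‖ r with hz | hz
  · refine ⟨0, ball 0 r, isOpen_ball.mem_nhds (mem_ball_zero_iff.2 hz), ?_⟩
    refine LipschitzOnWith.of_dist_le_mul fun x hx y hy => ?_
    have hx' := (mem_ball_zero_iff.1 hx).le
    have hy' := (mem_ball_zero_iff.1 hy).le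
    simp only [hx', hy', if_true, dist_self]
    positivity
  · obtain ⟨K, t, ht, hK⟩ := hk (hr z hz)
    rw [hO.nhdsWithin_eq (hr z hz)] at ht
    obtain ⟨ε, hε, hb⟩ := Metric.mem_nhds_iff.1 ht
    have hK' : LipschitzOnWith K k (ball z ε) := hK.mono hb
    refine ⟨K, ball z ε, ball_mem_nhds z hε, ?_⟩
    -- crossing
    have cross : ∀ x ∈ ball z ε, ∀ y ∈ ball z ε, ‖x‖ ≤ r → r < ‖y‖ → |k y| ≤ K * dist x y := by
      intro x hx y hy h1 h2
      obtain ⟨q, hq, hqr⟩ : ∃ q ∈ segment ℝ x y, ‖q‖ = r := by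
        have hc : IsPreconnected (segment ℝ x y) := (convex_segment x y).isPreconnected
        have := hc.intermediate_value (left_mem_segment ℝ x y) (right_mem_segment ℝ x y)
          (f := fun w => ‖w‖) continuous_norm.continuousOn
        obtain ⟨q, hq, h⟩ := this ⟨h1, h2.le⟩
        exact ⟨q, hq, h⟩
      have hqb : q ∈ ball z ε := (convex_ball z ε).segment_subset hx hy hq
      have h3 := hK'.dist_le_mul y hy q hqb
      rw [Real.dist_eq, h0 q hqr, sub_zero] at h3
      refine h3.trans (mul_le_mul_of_nonneg_left ?_ K.2)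
      have h4 : dist x q + dist q y = dist x y := dist_add_dist_of_mem_segment hq
      rw [dist_comm y q]
      linarith [dist_nonneg (x := x) (y := q)]
    refine LipschitzOnWith.of_dist_le_mul fun x hx y hy => ?_
    rw [Real.dist_eq]
    rcases le_or_gt ‖x‖ r with h1 | h1 <;> rcases le_or_gt ‖y‖ r with h2 | h2
    · simp only [h1, h2, if_true, sub_self, abs_zero]; positivity
    · simp only [h1, if_true, not_le.2 h2, if_false, zero_sub, abs_neg]
      exact cross x hx y hy h1 h2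
    · simp only [not_le.2 h1, if_false, h2, if_true, sub_zero]
      rw [dist_comm]
      exact cross y hy x hx h2 h1
    · simp only [not_le.2 h1, not_le.2 h2, if_false]
      have := hK'.dist_le_mul x hx y hy
      rwa [Real.dist_eq] at this

lemma ae_norm_ne (r : ℝ) : ∀ᵐ z : ℂ, ‖z‖ ≠ r := by
  have h : volume (sphere (0 : ℂ) r) = 0 := Measure.addHaar_sphere volume 0 r
  rw [ae_iff]
  refine measure_mono_null ?_ h
  intro z hz
  rw [mem_sphere_zero_iff_norm]
  by_contra h'
  exact hz h'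

lemma near_in {r : ℝ} {z : ℂ} (hz : ‖z‖ < r) (f g : ℂ → ℝ) :
    (fun w => if ‖w‖ ≤ r then f w else g w) =ᶠ[𝓝 z] f := by
  filter_upwards [isOpen_ball.mem_nhds (mem_ball_zero_iff.2 hz)] with w hw
  rw [if_pos (mem_ball_zero_iff.1 hw).le]

lemma near_out {r : ℝ} {z : ℂ} (hz : r < ‖z‖) (f g : ℂ → ℝ) :
    (fun w => if ‖w‖ ≤ r then f w else g w) =ᶠ[𝓝 z] g := by
  have ho : IsOpen {w : ℂ | r < ‖w‖} := isOpen_lt continuous_const continuous_norm
  filter_upwards [ho.mem_nhds hz] with w hw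
  rw [if_neg (not_le.2 hw)]

theorem c4aP : C4aP := by
  intro C hC r δ hδ hCr ψ hψ hcirc
  have hCc : IsClosed C := hC.isClosed
  have hCm : MeasurableSet Cᶜ := hCc.isOpen_compl.measurableSet
  have hout : ∀ z : ℂ, r ≤ ‖z‖ → z ∈ Cᶜ := fun z hz hzC => by
    have := mem_ball_zero_iff.1 (hCr hzC); linarith
  set k : ℂ → ℝ := fun z => cl δ (ψ z) - ψ z with hk
  set g : ℂ → ℝ := fun z => if ‖z‖ ≤ r then 0 else k z with hg
  have hKg : ∀ z, Kl r δ ψ z - ψ z = g z := by
    intro z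
    rw [hg, hk]; unfold Kl
    by_cases h : ‖z‖ ≤ r
    · simp only [h, if_true, sub_self]
    · simp only [h, if_false]
  have lk : LocallyLipschitzOn Cᶜ k := Bd_775.ll_comp (cl_sub_lip δ) hψ.loc
  have h0 : ∀ z, ‖z‖ = r → k z = 0 := by
    intro z hz
    rw [hk]
    simp only [cl_of_le (hcirc z hz), sub_self]
  have Lg : LocallyLipschitz g := ll_glue hCc.isOpen_compl hout lk h0
  have hdiff : ∀ᵐ z : ℂ, z ∈ Cᶜ → DifferentiableAt ℝ ψ z :=
    (ae_restrict_iff' hCm).1 (hψ.q.ae_diff hCc)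
  -- energy of `g`
  have hgen : ∀ᵐ z : ℂ, Bd_775.en g z ≤ Cᶜ.indicator (Bd_775.en ψ) z := by
    filter_upwards [hdiff, ae_norm_ne r] with z h1 h2
    rcases lt_or_gt_of_ne h2 with h3 | h3
    · have : Bd_775.en g z = 0 := by
        rw [Bd_775.en_eq_of_eventuallyEq (near_in h3 (fun _ => 0) k), Bd_775.en_const]
      rw [this]
      exact indicator_nonneg (fun w _ => Bd_775.en_nonneg ψ w) z
    · have hz : z ∈ Cᶜ := hout z h3.le
      rw [indicator_of_mem hz, Bd_775.en_eq_of_eventuallyEq (near_out h3 (fun _ => 0) k)]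
      have h4 := Bd_775.en_comp_le (cl_sub_lip δ) (h1 hz)
      rw [NNReal.coe_one, one_pow, one_mul] at h4
      exact h4
  have ig : Integrable (Bd_775.en g) := by
    refine Integrable.mono' (hψ.fin.integrable_indicator hCm)
      (Bd_775.measurable_en _).aestronglyMeasurable ?_
    filter_upwards [hgen] with z hz
    rw [Real.norm_of_nonneg (Bd_775.en_nonneg _ z)]
    exact hz
  obtain ⟨M, hM⟩ := hψ.bdd
  have hgb : ∀ z, |g z| ≤ δ + M := by
    intro z
    rw [← hKg]
    unfold Kl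
    by_cases h : ‖z‖ ≤ r
    · simp only [h, if_true, sub_self, abs_zero]
      have := (abs_nonneg _).trans (hM z)
      linarith
    · simp only [h, if_false]
      exact (abs_sub _ _).trans (add_le_add (abs_cl_le hδ.le _) (hM z))
  have LCg : LC C (fun z => Kl r δ ψ z - ψ z) := by
    have : (fun z => Kl r δ ψ z - ψ z) = g := funext hKg
    rw [this]
    refine ⟨Lg, ⟨δ + M, hgb⟩, ig, fun z hz => ?_⟩
    have h1 := near_in (mem_ball_zero_iff.1 (hCr hz)) (fun _ => (0 : ℝ)) k
    have h2 : g z = 0 := h1.eq_of_nhds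
    filter_upwards [h1] with w hw
    rw [h2]; exact hw
  have hKeq : Kl r δ ψ = fun z => ψ z + g z := by
    funext z; rw [← hKg]; ring
  have hKen : ∀ᵐ z ∂(volume.restrict Cᶜ), Bd_775.en (Kl r δ ψ) z ≤ Bd_775.en ψ z := by
    rw [ae_restrict_iff' hCm]
    filter_upwards [hdiff, ae_norm_ne r] with z h1 h2 hz
    rcases lt_or_gt_of_ne h2 with h3 | h3
    · exact (Bd_775.en_eq_of_eventuallyEq (near_in h3 ψ (fun w => cl δ (ψ w)))).le
    · have h5 : Bd_775.en (Kl r δ ψ) z = Bd_775.en (fun w => cl δ (ψ w)) z :=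
        Bd_775.en_eq_of_eventuallyEq (near_out h3 ψ (fun w => cl δ (ψ w)))
      rw [h5]
      have h4 := Bd_775.en_comp_le (cl_lip δ) (h1 hz)
      rw [NNReal.coe_one, one_pow, one_mul] at h4
      exact h4
  have iK : IntegrableOn (Bd_775.en (Kl r δ ψ)) Cᶜ := by
    refine Integrable.mono' hψ.fin (Bd_775.measurable_en _).aestronglyMeasurable ?_
    filter_upwards [hKen] with z hz
    rw [Real.norm_of_nonneg (Bd_775.en_nonneg _ z)]
    exact hz
  have hKb : ∀ z, r ≤ ‖z‖ → |Kl r δ ψ z| ≤ δ := by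
    intro z hz
    unfold Kl
    by_cases h : ‖z‖ ≤ r
    · rw [if_pos h]; exact hcirc z (le_antisymm h hz)
    · rw [if_neg h]; exact abs_cl_le hδ.le _
  have DK : D C (Kl r δ ψ) := by
    refine ⟨?_, ⟨M + (δ + M), fun z => ?_⟩, ?_, iK⟩
    · rw [hKeq]; exact hψ.cont.add Lg.continuous
    · rw [hKeq]; exact (abs_add_le _ _).trans (add_le_add (hM z) (hgb z))
    · rw [hKeq]; exact Bd_775.ll_add hψ.loc Lg.locallyLipschitzOn
  refine ⟨DK, LCg, hKb, ?_⟩
  rw [Bd_775.di_self, Bd_775.di_self]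
  exact integral_mono_ae iK hψ.fin hKen

end Crest.Agent.R105.C4d_775
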