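import Crest.Agent.R105.C4c_775
import Crest.Agent.R105.C4d_775
import Crest.Agent.R105.Cl1_590

/-!
# Row 105, S0139 [B], ATTP: `C4P` without hypotheses (helper775)
-/

set_option autoImplicit false

namespace Crest.Agent.R105.C4e_775

/-- uniform Cauchy estimate modulo constants -/
theorem c4P : Asm_6.C4P := C4_775.c4p Cl_590.c3P C4d_775.c4aP

end Crest.Agent.R105.C4e_775
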