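import Mathlib
import Crest.Agent.R105.CF3_363

/-!
# Row 105: decomposition of a function on an open rectangle which is Lipschitz (along segments) off
a closed set contained in finitely many vertical lines:
`e = (Lipschitz) + ∑ ξ, 1_{x > ξ} j_ξ(y)`, with `j_ξ` Lipschitz and zero off the slits.
-/

namespace Crest.Agent.R105.CF_363

open Set Filter MeasureTheory Topology
open scoped ENNReal NNReal

theorem isClosed_fst_mem (X : Finset ℝ) : IsClosed {p : ℝ × ℝ | p.1 ∈ X} :=
  (X.finite_toSet.isClosed).preimage continuous_fst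

theorem dist_fst_le (p q : ℝ × ℝ) : |p.1 - q.1| ≤ dist p q := by
  rw [← Real.dist_eq, Prod.dist_eq]; exact le_max_left _ _

theorem dist_snd_le (p q : ℝ × ℝ) : |p.2 - q.2| ≤ dist p q := by
  rw [← Real.dist_eq, Prod.dist_eq]; exact le_max_right _ _

/-- Limits along horizontals. -/
theorem tendsto_right {e E : ℝ × ℝ → ℝ} {ξ y δ : ℝ} (hδ : 0 < δ)
    (he : ContinuousAt e (ξ, y)) (hE : Continuous E)
    (h : ∀ x ∈ Ioo ξ (ξ + δ), e (x, y) = E (x, y)) : e (ξ, y) = E (ξ, y) := by
  have hc : Tendsto (fun x : ℝ => (x, y)) (𝓝[>] ξ) (𝓝 (ξ, y)) :=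
    tendsto_nhdsWithin_of_tendsto_nhds (Continuous.tendsto' (by fun_prop) _ _ rfl)
  have h1 : Tendsto (fun x : ℝ => e (x, y)) (𝓝[>] ξ) (𝓝 (e (ξ, y))) := he.tendsto.comp hc
  have h2 : Tendsto (fun x : ℝ => E (x, y)) (𝓝[>] ξ) (𝓝 (E (ξ, y))) :=
    (hE.tendsto _).comp hc
  refine tendsto_nhds_unique h1 (h2.congr' ?_)
  filter_upwards [Ioo_mem_nhdsGT (by linarith : ξ < ξ + δ)] with x hx
  exact (h x hx).symm

theorem tendsto_left {e E : ℝ × ℝ → ℝ} {ξ y δ : ℝ} (hδ : 0 < δ)
    (he : ContinuousAt e (ξ, y)) (hE : Continuous E)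
    (h : ∀ x ∈ Ioo (ξ - δ) ξ, e (x, y) = E (x, y)) : e (ξ, y) = E (ξ, y) := by
  have hc : Tendsto (fun x : ℝ => (x, y)) (𝓝[<] ξ) (𝓝 (ξ, y)) :=
    tendsto_nhdsWithin_of_tendsto_nhds (Continuous.tendsto' (by fun_prop) _ _ rfl)
  have h1 : Tendsto (fun x : ℝ => e (x, y)) (𝓝[<] ξ) (𝓝 (e (ξ, y))) := he.tendsto.comp hc
  have h2 : Tendsto (fun x : ℝ => E (x, y)) (𝓝[<] ξ) (𝓝 (E (ξ, y))) :=
    (hE.tendsto _).comp hc
  refine tendsto_nhds_unique h1 (h2.congr' ?_)
  filter_upwards [Ioo_mem_nhdsLT (by linarith : ξ - δ < ξ)] with x hx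
  exact (h x hx).symm

/-- The decomposition. -/
theorem decomp {a b c d : ℝ} (X : Finset ℝ) : ∀ {S : Set (ℝ × ℝ)}, IsClosed S →
    (∀ p ∈ S, p.1 ∈ X) → ∀ {L : ℝ≥0} {e : ℝ × ℝ → ℝ}, SL ((Ioo a b ×ˢ Ioo c d) \ S) L e →
    ∃ (M : ℝ≥0) (j : ℝ → ℝ → ℝ) (e0 : ℝ × ℝ → ℝ), LipschitzWith M e0 ∧
      (∀ ξ ∈ X, LipschitzWith M (j ξ)) ∧ (∀ ξ ∈ X, ξ ∉ Ioo a b → j ξ = 0) ∧
      (∀ ξ ∈ X, ∀ y ∈ Ioo c d, (ξ, y) ∉ S → j ξ y = 0) ∧
      (∀ p ∈ Ioo a b ×ˢ Ioo c d, p.1 ∉ X →
        e p = e0 p + ∑ ξ ∈ X, if ξ < p.1 then j ξ p.2 else 0) := by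
  classical
  induction X using Finset.induction_on with
  | empty =>
    intro S hS hSX L e he
    have hS0 : S = ∅ := by
      ext p; simp only [mem_empty_iff_false, iff_false]
      exact fun hp => by simpa using hSX p hp
    subst hS0
    rw [sdiff_empty] at he
    have hconv : Convex ℝ (Ioo a b ×ˢ Ioo c d) := (convex_Ioo a b).prod (convex_Ioo c d)
    have h1 := he.lipschitzOnWith hconv subset_rfl
    obtain ⟨g, hg, hge⟩ := h1.extend_real
    refine ⟨_, fun _ _ => 0, g, hg, by simp, by simp, by simp, fun p hp _ => ?_⟩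
    simpa using hge hp
  | insert ξ X hξX ih =>
    intro S hS hSX L e he
    set R : Set (ℝ × ℝ) := Ioo a b ×ˢ Ioo c d with hR
    have hRo : IsOpen R := isOpen_Ioo.prod isOpen_Ioo
    set S' : Set (ℝ × ℝ) := S ∩ {p : ℝ × ℝ | p.1 ∈ X} with hS'
    have hS'c : IsClosed S' := hS.inter (isClosed_fst_mem X)
    have hS'X : ∀ p ∈ S', p.1 ∈ X := fun p hp => hp.2
    have hSS' : ∀ p, p.1 ≠ ξ → p ∈ S → p ∈ S' := by
      intro p hp hpS
      refine ⟨hpS, ?_⟩
      rcases Finset.mem_insert.mp (hSX p hpS) with h | h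
      · exact absurd h hp
      · exact h
    by_cases hξ : ξ ∈ Ioo a b
    swap
    · have hsub : R \ S' ⊆ R \ S := by
        rintro p ⟨hpR, hpS⟩
        refine ⟨hpR, fun h => hpS (hSS' p ?_ h)⟩
        rintro rfl
        exact hξ hpR.1
      obtain ⟨M, j, e0, h1, h2, h3, h4, h5⟩ := ih hS'c hS'X (he.mono hsub)
      have hne : ∀ x ∈ X, x ≠ ξ := by rintro x hx rfl; exact hξX hx
      refine ⟨M, Function.update j ξ 0, e0, h1, ?_, ?_, ?_, ?_⟩
      · intro x hx
        rcases Finset.mem_insert.mp hx with h | h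
        · subst h; rw [Function.update_self]; exact LipschitzWith.const' 0
        · rw [Function.update_of_ne (hne x h)]; exact h2 x h
      · intro x hx hxab
        rcases Finset.mem_insert.mp hx with h | h
        · subst h; rw [Function.update_self]
        · rw [Function.update_of_ne (hne x h)]; exact h3 x h hxab
      · intro x hx y hy hxy
        rcases Finset.mem_insert.mp hx with h | h
        · subst h; rw [Function.update_self]; rfl
        · rw [Function.update_of_ne (hne x h)]
          exact h4 x h y hy fun hc => hxy hc.1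
      · intro p hp hpX
        rw [Finset.sum_insert hξX, Function.update_self]
        have hp' : p.1 ∉ X := fun h => hpX (Finset.mem_insert_of_mem h)
        have h7 : ∑ x ∈ X, (if x < p.1 then Function.update j ξ 0 x p.2 else 0) =
            ∑ x ∈ X, if x < p.1 then j x p.2 else 0 := by
          refine Finset.sum_congr rfl fun x hx => ?_
          rw [Function.update_of_ne (hne x hx)]
        rw [h7, h5 p hp hp']
        simp
    · -- the main case
      obtain ⟨δ, hδ, hδ'⟩ : ∃ δ > 0, Metric.ball ξ δ ⊆ Ioo a b ∩ (↑X : Set ℝ)ᶜ :=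
        Metric.isOpen_iff.mp (isOpen_Ioo.inter X.finite_toSet.isClosed.isOpen_compl) ξ
          ⟨hξ, by simpa using hξX⟩
      have hball : ∀ x, ξ - δ < x → x < ξ + δ → x ∈ Ioo a b ∧ x ∉ X := by
        intro x h1 h2
        have : x ∈ Metric.ball ξ δ := by
          rw [Metric.mem_ball, Real.dist_eq, abs_lt]; constructor <;> linarith
        simpa using hδ' this
      have hCp : Ioo ξ (ξ + δ) ×ˢ Ioo c d ⊆ R \ S := by
        rintro p ⟨hp1, hp2⟩
        have := hball p.1 (by linarith [hp1.1]) hp1.2
        refine ⟨⟨this.1, hp2⟩, fun h => ?_⟩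
        rcases Finset.mem_insert.mp (hSX p h) with h | h
        · linarith [hp1.1]
        · exact this.2 h
      have hCm : Ioo (ξ - δ) ξ ×ˢ Ioo c d ⊆ R \ S := by
        rintro p ⟨hp1, hp2⟩
        have := hball p.1 hp1.1 (by linarith [hp1.2])
        refine ⟨⟨this.1, hp2⟩, fun h => ?_⟩
        rcases Finset.mem_insert.mp (hSX p h) with h | h
        · linarith [hp1.2]
        · exact this.2 h
      obtain ⟨Ep, hEp, hEpe⟩ := (he.lipschitzOnWith
        ((convex_Ioo ξ (ξ + δ)).prod (convex_Ioo c d)) hCp).extend_real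
      obtain ⟨Em, hEm, hEme⟩ := (he.lipschitzOnWith
        ((convex_Ioo (ξ - δ) ξ).prod (convex_Ioo c d)) hCm).extend_real
      simp only [Real.toNNReal_coe] at hEp hEm
      have hEp' : ∀ p q, |Ep p - Ep q| ≤ L * dist p q := fun p q => by
        have := hEp.dist_le_mul p q; rwa [Real.dist_eq] at this
      have hEm' : ∀ p q, |Em p - Em q| ≤ L * dist p q := fun p q => by
        have := hEm.dist_le_mul p q; rwa [Real.dist_eq] at this
      set j0 : ℝ → ℝ := fun y => Ep (ξ, y) - Em (ξ, y) with hj0
      have hj0l : ∀ y y', |j0 y - j0 y'| ≤ (2 * L : ℝ) * |y - y'| := by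
        intro y y'
        have h1 := hEp' (ξ, y) (ξ, y')
        have h2 := hEm' (ξ, y) (ξ, y')
        have hd : dist ((ξ, y) : ℝ × ℝ) (ξ, y') = |y - y'| := by simp [Prod.dist_eq, Real.dist_eq]
        rw [hd] at h1 h2
        calc |j0 y - j0 y'| = |(Ep (ξ, y) - Ep (ξ, y')) - (Em (ξ, y) - Em (ξ, y'))| := by
              simp only [hj0]; congr 1; ring
          _ ≤ |Ep (ξ, y) - Ep (ξ, y')| + |Em (ξ, y) - Em (ξ, y')| := abs_sub _ _
          _ ≤ _ := by linarith
      have hj02 : ∀ p q : ℝ × ℝ, |j0 p.2 - j0 q.2| ≤ (2 * L : ℝ) * dist p q := fun p q =>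
        (hj0l _ _).trans (mul_le_mul_of_nonneg_left (dist_snd_le p q) (by positivity))
      set e' : ℝ × ℝ → ℝ := fun p =>
        if p.1 = ξ then Em p else if ξ < p.1 then e p - j0 p.2 else e p with he'
      have hSL' : SL (R \ S') (3 * L : ℝ≥0) e' := by
        refine SL_of_local_ball fun p hp => ?_
        by_cases hpξ : p.1 = ξ
        · -- on the line
          have hO : IsOpen (Ioo (ξ - δ) (ξ + δ) ×ˢ Ioo c d) := isOpen_Ioo.prod isOpen_Ioo
          obtain ⟨r, hr, hrO⟩ := Metric.isOpen_iff.mp hO p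
            ⟨⟨by linarith, by linarith⟩, hp.1.2⟩
          refine ⟨r, hr, LipschitzOnWith.of_dist_le_mul fun z hz w hw => ?_⟩
          rw [Real.dist_eq]
          refine lip_glue (convex_ball p r) (ξ := ξ) (f := e') (L := (3 * L : ℝ≥0)) ?_ ?_
            z hz w hw
          · have key : ∀ z ∈ Metric.ball p r, z.1 ≤ ξ → e' z = Em z := by
              intro z hz hz'
              rcases eq_or_lt_of_le hz' with h | h
              · simp only [he', if_pos h]
              · simp only [he', if_neg h.ne, if_neg (not_lt.mpr hz')]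
                exact hEme ⟨⟨(hrO hz).1.1, h⟩, (hrO hz).2⟩
            intro z hz w hw hz' hw'
            rw [key z hz hz', key w hw hw']
            refine (hEm' z w).trans ?_
            push_cast
            have := dist_nonneg (x := z) (y := w)
            have := L.2
            nlinarith [mul_nonneg L.2 (dist_nonneg (x := z) (y := w))]
          · have key : ∀ z ∈ Metric.ball p r, ξ ≤ z.1 → e' z = Ep z - j0 z.2 := by
              intro z hz hz'
              rcases eq_or_lt_of_le hz' with h | h
              · have hz0 : z = (ξ, z.2) := by rw [h]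
                simp only [he', if_pos h.symm, hj0]
                rw [← hz0]; ring
              · simp only [he', if_neg h.ne', if_pos h]
                rw [hEpe ⟨⟨h, (hrO hz).1.2⟩, (hrO hz).2⟩]
            intro z hz w hw hz' hw'
            rw [key z hz hz', key w hw hw']
            have h1 := hEp' z w
            have h2 := hj02 z w
            calc |Ep z - j0 z.2 - (Ep w - j0 w.2)| = |(Ep z - Ep w) - (j0 z.2 - j0 w.2)| := by
                  congr 1; ring
              _ ≤ |Ep z - Ep w| + |j0 z.2 - j0 w.2| := abs_sub _ _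
              _ ≤ L * dist z w + 2 * L * dist z w := add_le_add h1 h2
              _ = _ := by push_cast; ring
        · have hpS : p ∈ (R \ S) ∩ {z : ℝ × ℝ | z.1 ≠ ξ} :=
            ⟨⟨hp.1, fun h => hp.2 (hSS' p hpξ h)⟩, hpξ⟩
          have hO : IsOpen ((R \ S) ∩ {z : ℝ × ℝ | z.1 ≠ ξ}) :=
            (hRo.sdiff hS).inter (isOpen_ne.preimage continuous_fst)
          obtain ⟨r, hr, hrO⟩ := Metric.isOpen_iff.mp hO p hpS
          have hl := he.lipschitzOnWith (convex_ball p r) fun z hz => (hrO hz).1
          simp only [Real.toNNReal_coe] at hl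
          have hl' : ∀ z ∈ Metric.ball p r, ∀ w ∈ Metric.ball p r,
              |e z - e w| ≤ L * dist z w := fun z hz w hw => by
            have := hl.dist_le_mul z hz w hw; rwa [Real.dist_eq] at this
          refine ⟨r, hr, LipschitzOnWith.of_dist_le_mul fun z hz w hw => ?_⟩
          rw [Real.dist_eq]
          have hside : ∀ z ∈ Metric.ball p r, ∀ w ∈ Metric.ball p r, z.1 < ξ → ¬ ξ < w.1 := by
            intro z hz w hw hzξ hwξ
            obtain ⟨m, hm, hmξ, -⟩ := cross (p := z) (q := w) hzξ.le hwξ.le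
            exact (hrO ((convex_ball p r).segment_subset hz hw hm)).2 hmξ
          have hz1 : z.1 ≠ ξ := (hrO hz).2
          have hw1 : w.1 ≠ ξ := (hrO hw).2
          have h1 := hl' z hz w hw
          have h2 := hj02 z w
          have h0 : 0 ≤ (L : ℝ) * dist z w := mul_nonneg L.2 dist_nonneg
          simp only [he', if_neg hz1, if_neg hw1]
          rcases lt_or_gt_of_ne hz1 with h | h
          · rw [if_neg (not_lt.mpr h.le), if_neg (hside z hz w hw h)]
            refine h1.trans ?_
            push_cast; linarith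
          · have hw2 : ξ < w.1 := by
              rcases lt_or_gt_of_ne hw1 with h' | h'
              · exact absurd h (hside w hw z hz h')
              · exact h'
            rw [if_pos h, if_pos hw2]
            calc |e z - j0 z.2 - (e w - j0 w.2)| = |(e z - e w) - (j0 z.2 - j0 w.2)| := by
                  congr 1; ring
              _ ≤ |e z - e w| + |j0 z.2 - j0 w.2| := abs_sub _ _
              _ ≤ L * dist z w + 2 * L * dist z w := add_le_add h1 h2
              _ = _ := by push_cast; ring
      obtain ⟨M, j, e0, h1, h2, h3, h4, h5⟩ := ih hS'c hS'X hSL'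
      have hne : ∀ x ∈ X, x ≠ ξ := by rintro x hx rfl; exact hξX hx
      have hj0L : LipschitzWith (2 * L) j0 := LipschitzWith.of_dist_le_mul fun y y' => by
        rw [Real.dist_eq, Real.dist_eq]; push_cast; exact hj0l y y'
      refine ⟨Max.max M (2 * L), Function.update j ξ j0, e0, h1.weaken (le_max_left _ _),
        ?_, ?_, ?_, ?_⟩
      · intro x hx
        rcases Finset.mem_insert.mp hx with h | h
        · subst h; rw [Function.update_self]; exact hj0L.weaken (le_max_right _ _)
        · rw [Function.update_of_ne (hne x h)]; exact (h2 x h).weaken (le_max_left _ _)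
      · intro x hx hxab
        rcases Finset.mem_insert.mp hx with h | h
        · subst h; exact absurd hξ hxab
        · rw [Function.update_of_ne (hne x h)]; exact h3 x h hxab
      · intro x hx y hy hxy
        rcases Finset.mem_insert.mp hx with h | h
        · subst h; rw [Function.update_self]
          have hcont : ContinuousAt e (x, y) := by
            refine he.continuousAt (hRo.sdiff hS) ⟨⟨hξ, hy⟩, hxy⟩
          have t1 := tendsto_right hδ hcont hEp.continuous
            fun s hs => hEpe ⟨hs, hy⟩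
          have t2 := tendsto_left hδ hcont hEm.continuous
            fun s hs => hEme ⟨hs, hy⟩
          simp only [hj0]; rw [← t1, ← t2, sub_self]
        · rw [Function.update_of_ne (hne x h)]
          exact h4 x h y hy fun hc => hxy hc.1
      · intro p hp hpX
        have hp' : p.1 ∉ X := fun h => hpX (Finset.mem_insert_of_mem h)
        have hpξ : p.1 ≠ ξ := fun h => hpX (h ▸ Finset.mem_insert_self _ _)
        rw [Finset.sum_insert hξX, Function.update_self]
        have h6 := h5 p hp hp'
        have h7 : ∑ x ∈ X, (if x < p.1 then Function.update j ξ j0 x p.2 else 0) =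
            ∑ x ∈ X, if x < p.1 then j x p.2 else 0 := by
          refine Finset.sum_congr rfl fun x hx => ?_
          rw [Function.update_of_ne (hne x hx)]
        rw [h7]
        have h8 : e p = e' p + (if ξ < p.1 then j0 p.2 else 0) := by
          simp only [he', if_neg hpξ]
          split_ifs <;> ring
        rw [h8, h6]; ring

end Crest.Agent.R105.CF_363
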