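import Mathlib
import Crest.Agent.R105.CF4_363

/-!
# Row 105: Green's formula on a rectangle.
`∫_R (w₂ ∂ₓe - w₁ ∂_y e) = 0` for `e` Lipschitz and `w` with zero boundary values, absolutely
continuous on almost every horizontal and vertical line with partial derivatives `w₁`, `w₂`.
-/

namespace Crest.Agent.R105.CF_363

open Set Filter MeasureTheory Topology
open scoped ENNReal NNReal Interval

/-- one-dimensional integration by parts -/
theorem ibp {α β : ℝ} {f ψ ψ' : ℝ → ℝ} (hf : IntervalIntegrable f volume α β)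
    (h0 : ∫ t in α..β, f t = 0) (hψ : AbsolutelyContinuousOnInterval ψ α β)
    (hd : ∀ᵐ t, t ∈ uIcc α β → HasDerivAt ψ (ψ' t) t) :
    ∫ t in α..β, f t * ψ t = - ∫ t in α..β, (∫ s in α..t, f s) * ψ' t := by
  have hφ : AbsolutelyContinuousOnInterval (fun t => ∫ s in α..t, f s) α β :=
    hf.absolutelyContinuousOnInterval_intervalIntegral (c := α) (by simp)
  have h1 := AbsolutelyContinuousOnInterval.integral_mul_deriv_eq_deriv_mul hψ hφ
  simp only [h0, intervalIntegral.integral_same, mul_zero, sub_zero, zero_sub] at h1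
  have e1 : ∫ t in α..β, f t * ψ t = ∫ x in α..β, ψ x * deriv (fun t => ∫ s in α..t, f s) x := by
    apply intervalIntegral.integral_congr_ae
    filter_upwards [hf.ae_hasDerivAt_integral] with t ht ht'
    rw [(ht (uIoc_subset_uIcc ht') α (by simp)).deriv, mul_comm]
  have e2 : ∫ t in α..β, (∫ s in α..t, f s) * ψ' t =
      ∫ x in α..β, deriv ψ x * ∫ s in α..x, f s := by
    apply intervalIntegral.integral_congr_ae
    filter_upwards [hd] with t ht ht'
    rw [(ht (uIoc_subset_uIcc ht')).deriv, mul_comm]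
  rw [e1, e2, h1]

theorem volume_restrict_rect (a b c d : ℝ) :
    (volume : Measure (ℝ × ℝ)).restrict (Ioo a b ×ˢ Ioo c d) =
      (volume.restrict (Ioo a b)).prod (volume.restrict (Ioo c d)) := by
  rw [Measure.prod_restrict, Measure.volume_eq_prod]

theorem integral_rect {a b c d : ℝ} {F : ℝ × ℝ → ℝ} (hF : IntegrableOn F (Ioo a b ×ˢ Ioo c d)) :
    ∫ p in Ioo a b ×ˢ Ioo c d, F p = ∫ x in Ioo a b, ∫ y in Ioo c d, F (x, y) := by
  unfold IntegrableOn at hF
  rw [volume_restrict_rect] at hF ⊢
  exact integral_prod F hF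

theorem integral_rect_symm {a b c d : ℝ} {F : ℝ × ℝ → ℝ}
    (hF : IntegrableOn F (Ioo a b ×ˢ Ioo c d)) :
    ∫ p in Ioo a b ×ˢ Ioo c d, F p = ∫ y in Ioo c d, ∫ x in Ioo a b, F (x, y) := by
  unfold IntegrableOn at hF
  rw [volume_restrict_rect] at hF ⊢
  exact integral_prod_symm F hF

theorem ae_rect {a b c d : ℝ} {P : ℝ × ℝ → Prop}
    (h : ∀ᵐ p ∂(volume.restrict (Ioo a b ×ˢ Ioo c d)), P p) :
    (∀ᵐ x ∂(volume.restrict (Ioo a b)), ∀ᵐ y ∂(volume.restrict (Ioo c d)), P (x, y)) ∧
    (∀ᵐ y ∂(volume.restrict (Ioo c d)), ∀ᵐ x ∂(volume.restrict (Ioo a b)), P (x, y)) := by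
  rw [volume_restrict_rect] at h
  refine ⟨Measure.ae_ae_of_ae_prod h, ?_⟩
  have h1 := (Measure.measurePreserving_swap (μ := (volume : Measure ℝ).restrict (Ioo c d))
    (ν := (volume : Measure ℝ).restrict (Ioo a b))).quasiMeasurePreserving.ae h
  exact Measure.ae_ae_of_ae_prod h1

theorem intervalIntegral_eq_Ioo {a b : ℝ} (hab : a ≤ b) (f : ℝ → ℝ) :
    ∫ t in a..b, f t = ∫ t in Ioo a b, f t := by
  rw [intervalIntegral.integral_of_le hab, integral_Ioc_eq_integral_Ioo]

/-- joint measurability of a primitive -/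
theorem stronglyMeasurable_prim {g : ℝ × ℝ → ℝ} (hg : Measurable g) (a : ℝ) :
    StronglyMeasurable (fun p : ℝ × ℝ => ∫ s in a..p.1, g (s, p.2)) := by
  have h1 : ∀ p : ℝ × ℝ, ∫ s in a..p.1, g (s, p.2) =
      (∫ s, (if a < s ∧ s ≤ p.1 then g (s, p.2) else 0)) -
        ∫ s, (if p.1 < s ∧ s ≤ a then g (s, p.2) else 0) := by
    intro p
    rw [intervalIntegral, ← integral_indicator measurableSet_Ioc,
      ← integral_indicator measurableSet_Ioc]
    congr 1 <;> (congr 1; ext s; simp only [indicator, mem_Ioc])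
  simp_rw [h1]
  have m1 : StronglyMeasurable
      (fun q : (ℝ × ℝ) × ℝ => if a < q.2 ∧ q.2 ≤ q.1.1 then g (q.2, q.1.2) else 0) := by
    apply Measurable.stronglyMeasurable
    apply Measurable.ite
    · exact (measurableSet_lt measurable_const measurable_snd).inter
        (measurableSet_le measurable_snd (measurable_fst.fst))
    · exact hg.comp (measurable_snd.prodMk measurable_fst.snd)
    · exact measurable_const
  have m2 : StronglyMeasurable
      (fun q : (ℝ × ℝ) × ℝ => if q.1.1 < q.2 ∧ q.2 ≤ a then g (q.2, q.1.2) else 0) := by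
    apply Measurable.stronglyMeasurable
    apply Measurable.ite
    · exact (measurableSet_lt measurable_fst.fst measurable_snd).inter
        (measurableSet_le measurable_snd measurable_const)
    · exact hg.comp (measurable_snd.prodMk measurable_fst.snd)
    · exact measurable_const
  exact m1.integral_prod_right'.sub m2.integral_prod_right'

/-- integrability of the primitive on the rectangle -/
theorem integrable_prim {a b c d : ℝ} {g : ℝ × ℝ → ℝ} (hg : Measurable g)
    (hgi : IntegrableOn g (Ioo a b ×ˢ Ioo c d)) :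
    IntegrableOn (fun p : ℝ × ℝ => ∫ s in a..p.1, g (s, p.2)) (Ioo a b ×ˢ Ioo c d) := by
  have hA : Integrable (fun y => ∫ x in Ioo a b, ‖g (x, y)‖) (volume.restrict (Ioo c d)) := by
    have := hgi
    unfold IntegrableOn at this
    rw [volume_restrict_rect] at this
    exact this.integral_norm_prod_right
  have hB : Integrable (fun p : ℝ × ℝ => ∫ x in Ioo a b, ‖g (x, p.2)‖)
      (volume.restrict (Ioo a b ×ˢ Ioo c d)) := by
    rw [volume_restrict_rect]
    exact hA.comp_snd _
  refine Integrable.mono' hB (stronglyMeasurable_prim hg a).aestronglyMeasurable ?_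
  have hsecI : ∀ᵐ y ∂(volume.restrict (Ioo c d)),
      Integrable (fun x => g (x, y)) (volume.restrict (Ioo a b)) := by
    have := hgi
    unfold IntegrableOn at this
    rw [volume_restrict_rect] at this
    exact this.prod_left_ae
  have h2 : ∀ᵐ p ∂(volume.restrict (Ioo a b ×ˢ Ioo c d)),
      Integrable (fun x => g (x, p.2)) (volume.restrict (Ioo a b)) := by
    rw [volume_restrict_rect]
    exact (Measure.quasiMeasurePreserving_snd).ae hsecI
  filter_upwards [h2, ae_restrict_mem (measurableSet_Ioo.prod measurableSet_Ioo)] with p hp hpR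
  rw [intervalIntegral.integral_of_le hpR.1.1.le]
  refine (norm_integral_le_integral_norm _).trans ?_
  refine setIntegral_mono_set hp.norm (Eventually.of_forall fun x => norm_nonneg _) ?_
  exact (Ioc_subset_Ioo_right hpR.1.2).eventuallyLE

/-- Step 1: the identity for difference quotients. -/
theorem green_step {a b c d L h : ℝ} (hab : a ≤ b) (hcd : c ≤ d) (hL : 0 ≤ L) (hh : 0 < h)
    {w1 w2 e : ℝ × ℝ → ℝ} (hw1m : Measurable w1)
    (hw1 : IntegrableOn w1 (Ioo a b ×ˢ Ioo c d)) (hw2 : IntegrableOn w2 (Ioo a b ×ˢ Ioo c d))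
    (hb : ∀ᵐ y, y ∈ Ioo c d → ∫ s in a..b, w1 (s, y) = 0)
    (hd : ∀ᵐ x, x ∈ Ioo a b → ∫ t in c..d, w2 (x, t) = 0)
    (hUV : ∀ᵐ p : ℝ × ℝ, p ∈ Ioo a b ×ˢ Ioo c d →
      ∫ s in a..p.1, w1 (s, p.2) = ∫ t in c..p.2, w2 (p.1, t))
    (he : ∀ p q : ℝ × ℝ, |e p - e q| ≤ L * dist p q) :
    ∫ p in Ioo a b ×ˢ Ioo c d, w2 p * ((e (p.1 + h, p.2) - e p) / h) =
      ∫ p in Ioo a b ×ˢ Ioo c d, w1 p * (h⁻¹ * ∫ s in p.1..(p.1 + h), gy e (s, p.2)) := by
  set R : Set (ℝ × ℝ) := Ioo a b ×ˢ Ioo c d with hR
  have heSL : SL univ L e := fun p q _ => he p q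
  have hec : Continuous e := continuous_iff_continuousAt.mpr fun p =>
    heSL.continuousAt isOpen_univ (mem_univ p)
  have hgyb : ∀ p, |gy e p| ≤ L := fun p => heSL.abs_gy_le isOpen_univ hL (mem_univ p)
  have hgym : Measurable (gy e) := measurable_gy e
  have hgyl : ∀ y, Measurable fun s => gy e (s, y) := fun y =>
    hgym.comp (measurable_id.prodMk measurable_const)
  have hgyi : ∀ y α β, IntervalIntegrable (fun s => gy e (s, y)) volume α β := by
    intro y α β
    rw [intervalIntegrable_iff]
    refine Measure.integrableOn_of_bounded (M := L) (by simp)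
      (hgyl y).aestronglyMeasurable (Eventually.of_forall fun s => by
        rw [Real.norm_eq_abs]; exact hgyb _)
  -- the second difference quotient
  set D : ℝ × ℝ → ℝ := fun p => (gy e (p.1 + h, p.2) - gy e p) / h with hD
  have hDm : Measurable D := by
    apply Measurable.div_const
    exact (hgym.comp ((measurable_fst.add_const h).prodMk measurable_snd)).sub hgym
  have hDb : ∀ p, |D p| ≤ 2 * L / h := by
    intro p
    simp only [hD]
    rw [abs_div, abs_of_pos hh]
    apply div_le_div_of_nonneg_right _ hh.le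
    calc |gy e (p.1 + h, p.2) - gy e p| ≤ |gy e (p.1 + h, p.2)| + |gy e p| := abs_sub _ _
      _ ≤ 2 * L := by linarith [hgyb (p.1 + h, p.2), hgyb p]
  set U : ℝ × ℝ → ℝ := fun p => ∫ s in a..p.1, w1 (s, p.2) with hU
  have hUi : IntegrableOn U R := integrable_prim hw1m hw1
  have hUD : IntegrableOn (fun p => U p * D p) R :=
    hUi.mul_bdd (c := 2 * L / h) hDm.aestronglyMeasurable (Eventually.of_forall fun p => by
      rw [Real.norm_eq_abs]; exact hDb p)
  -- sections
  have hdiff : ∀ᵐ p : ℝ × ℝ, DifferentiableAt ℝ e p := by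
    filter_upwards [heSL.ae_differentiableAt (μ := volume) isOpen_univ] with p hp
    exact hp (mem_univ p)
  have hsec1 : ∀ᵐ y ∂(volume.restrict (Ioo c d)),
      Integrable (fun x => w1 (x, y)) (volume.restrict (Ioo a b)) := by
    have := hw1
    unfold IntegrableOn at this
    rw [hR, volume_restrict_rect] at this
    exact this.prod_left_ae
  have hsec2 : ∀ᵐ x ∂(volume.restrict (Ioo a b)),
      Integrable (fun y => w2 (x, y)) (volume.restrict (Ioo c d)) := by
    have := hw2
    unfold IntegrableOn at this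
    rw [hR, volume_restrict_rect] at this
    exact this.prod_right_ae
  -- Δ is Lipschitz and bounded
  have hΔb : ∀ p : ℝ × ℝ, |(e (p.1 + h, p.2) - e p) / h| ≤ L := by
    intro p
    rw [abs_div, abs_of_pos hh, div_le_iff₀ hh]
    refine (he _ _).trans ?_
    have : dist (p.1 + h, p.2) p = h := by
      rw [Prod.dist_eq]; simp [abs_of_pos hh, hh.le]
    rw [this]
  have hΔm : Measurable fun p : ℝ × ℝ => (e (p.1 + h, p.2) - e p) / h := by
    have : Continuous fun p : ℝ × ℝ => (e (p.1 + h, p.2) - e p) / h := by fun_prop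
    exact this.measurable
  have hF1 : IntegrableOn (fun p => w2 p * ((e (p.1 + h, p.2) - e p) / h)) R :=
    hw2.mul_bdd (c := L) hΔm.aestronglyMeasurable (Eventually.of_forall fun p => by
      rw [Real.norm_eq_abs]; exact hΔb p)
  -- G
  set G : ℝ × ℝ → ℝ := fun p => h⁻¹ * ∫ s in p.1..(p.1 + h), gy e (s, p.2) with hG
  have hGeq : ∀ p : ℝ × ℝ, G p = h⁻¹ * ((∫ s in a..(p.1 + h), gy e (s, p.2)) -
      ∫ s in a..p.1, gy e (s, p.2)) := by
    intro p
    simp only [hG]
    rw [intervalIntegral.integral_interval_sub_left (hgyi _ _ _) (hgyi _ _ _)]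
  have hGm : Measurable G := by
    have h1 := (stronglyMeasurable_prim hgym a).measurable
    have h2 : Measurable fun p : ℝ × ℝ => ∫ s in a..(p.1 + h), gy e (s, p.2) :=
      h1.comp ((measurable_fst.add_const h).prodMk measurable_snd)
    have : G = fun p : ℝ × ℝ => h⁻¹ * ((∫ s in a..(p.1 + h), gy e (s, p.2)) -
      ∫ s in a..p.1, gy e (s, p.2)) := funext hGeq
    rw [this]
    exact (h2.sub h1).const_mul _
  have hGb : ∀ p, |G p| ≤ L := by
    intro p
    simp only [hG]
    rw [abs_mul, abs_of_pos (inv_pos.mpr hh)]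
    have h1 : |∫ s in p.1..(p.1 + h), gy e (s, p.2)| ≤ L * |p.1 + h - p.1| :=
      intervalIntegral.norm_integral_le_of_norm_le_const fun s _ =>
        (Real.norm_eq_abs _).trans_le (hgyb (s, p.2))
    rw [add_sub_cancel_left, abs_of_pos hh] at h1
    calc h⁻¹ * _ ≤ h⁻¹ * (L * h) := mul_le_mul_of_nonneg_left h1 (inv_pos.mpr hh).le
      _ = L := by field_simp
  have hF2 : IntegrableOn (fun p => w1 p * G p) R :=
    hw1.mul_bdd (c := L) hGm.aestronglyMeasurable (Eventually.of_forall fun p => by
      rw [Real.norm_eq_abs]; exact hGb p)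
  -- left side
  have hleft : ∫ p in R, w2 p * ((e (p.1 + h, p.2) - e p) / h) =
      ∫ x in Ioo a b, ∫ y in Ioo c d, - (U (x, y) * D (x, y)) := by
    rw [hR, integral_rect hF1]
    apply integral_congr_ae
    have hdx : ∀ᵐ x : ℝ, ∀ᵐ y : ℝ, DifferentiableAt ℝ e (x, y) := ae_unswap hdiff
    have hdxh : ∀ᵐ x : ℝ, ∀ᵐ y : ℝ, DifferentiableAt ℝ e (x + h, y) :=
      (measurePreserving_add_right volume h).quasiMeasurePreserving.ae hdx
    have hUV' : ∀ᵐ x : ℝ, ∀ᵐ y : ℝ, (x, y) ∈ Ioo a b ×ˢ Ioo c d →
        ∫ s in a..x, w1 (s, y) = ∫ t in c..y, w2 (x, t) := ae_unswap hUV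
    filter_upwards [hsec2, ae_restrict_of_ae hdx, ae_restrict_of_ae hdxh,
      ae_restrict_of_ae hUV', ae_restrict_of_ae hd,
      ae_restrict_mem measurableSet_Ioo] with x h1 h2 h3 h4 h5 hx
    have hii : IntervalIntegrable (fun y => w2 (x, y)) volume c d := by
      rw [intervalIntegrable_iff_integrableOn_Ioo_of_le hcd]; exact h1
    have hlip : LipschitzWith (Real.toNNReal (2 * L / h))
        (fun y => (e (x + h, y) - e (x, y)) / h) := by
      refine LipschitzWith.of_dist_le_mul fun y y' => ?_
      rw [Real.dist_eq, Real.coe_toNNReal _ (by positivity)]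
      have a1 := he (x + h, y) (x + h, y')
      have a2 := he (x, y) (x, y')
      have d1 : dist ((x + h, y) : ℝ × ℝ) (x + h, y') = dist y y' := by simp [Prod.dist_eq]
      have d2 : dist ((x, y) : ℝ × ℝ) (x, y') = dist y y' := by simp [Prod.dist_eq]
      rw [d1] at a1
      rw [d2] at a2
      have : (e (x + h, y) - e (x, y)) / h - (e (x + h, y') - e (x, y')) / h =
          ((e (x + h, y) - e (x + h, y')) - (e (x, y) - e (x, y'))) / h := by ring
      rw [this, abs_div, abs_of_pos hh, div_mul_eq_mul_div, div_le_div_iff_of_pos_right hh]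
      refine (abs_sub _ _).trans ?_
      linarith
    have key := ibp (f := fun y => w2 (x, y)) (ψ := fun y => (e (x + h, y) - e (x, y)) / h)
      (ψ' := fun y => D (x, y)) hii (h5 hx)
      (hlip.lipschitzOnWith).absolutelyContinuousOnInterval (by
        filter_upwards [h2, h3] with y hy hy' _
        have b1 := gy_eq_deriv hy
        have b2 := gy_eq_deriv hy'
        exact (b2.sub b1).div_const h)
    rw [intervalIntegral_eq_Ioo hcd, intervalIntegral_eq_Ioo hcd] at key
    rw [key, ← integral_neg]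
    apply integral_congr_ae
    filter_upwards [ae_restrict_of_ae h4, ae_restrict_mem measurableSet_Ioo] with y hy hy'
    simp only [hU]
    rw [hy ⟨hx, hy'⟩]
  -- right side
  have hright : ∫ p in R, w1 p * G p =
      ∫ y in Ioo c d, ∫ x in Ioo a b, - (U (x, y) * D (x, y)) := by
    rw [hR, integral_rect_symm hF2]
    apply integral_congr_ae
    filter_upwards [hsec1, ae_restrict_of_ae hb, ae_restrict_mem measurableSet_Ioo]
      with y h1 h5 hy
    have hii : IntervalIntegrable (fun x => w1 (x, y)) volume a b := by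
      rw [intervalIntegrable_iff_integrableOn_Ioo_of_le hab]; exact h1
    have hloc : LocallyIntegrable (fun s => gy e (s, y)) volume := by
      intro x
      refine ⟨Ioc (x - 1) (x + 1), Ioc_mem_nhds (by linarith) (by linarith), ?_⟩
      have := hgyi y (x - 1) (x + 1)
      rwa [intervalIntegrable_iff_integrableOn_Ioc_of_le (by linarith)] at this
    have hder := LocallyIntegrable.ae_hasDerivAt_integral hloc
    have hderh : ∀ᵐ x : ℝ, ∀ c, HasDerivAt (fun x => ∫ t in c..x, gy e (t, y))
        (gy e (x + h, y)) (x + h) :=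
      (measurePreserving_add_right volume h).quasiMeasurePreserving.ae hder
    have hPlip : LipschitzWith (Real.toNNReal L) (fun x => ∫ t in a..x, gy e (t, y)) := by
      refine LipschitzWith.of_dist_le_mul fun x x' => ?_
      rw [Real.dist_eq, Real.coe_toNNReal _ hL,
        intervalIntegral.integral_interval_sub_left (hgyi _ _ _) (hgyi _ _ _), dist_comm,
        Real.dist_eq, abs_sub_comm x' x]
      exact intervalIntegral.norm_integral_le_of_norm_le_const fun s _ =>
        (Real.norm_eq_abs _).trans_le (hgyb (s, y))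
    have hGlip : AbsolutelyContinuousOnInterval (fun x => G (x, y)) a b := by
      have e1 : (fun x => G (x, y)) = fun x => h⁻¹ * ((∫ t in a..(x + h), gy e (t, y)) -
          ∫ t in a..x, gy e (t, y)) := funext fun x => hGeq (x, y)
      rw [e1]
      have l1 : LipschitzWith (Real.toNNReal L) (fun x => ∫ t in a..(x + h), gy e (t, y)) := by
        refine LipschitzWith.of_dist_le_mul fun x x' => ?_
        have := hPlip.dist_le_mul (x + h) (x' + h)
        rwa [dist_add_right] at this
      have l2 := l1.sub hPlip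
      have l3 : LipschitzWith _ (fun x => h⁻¹ * ((∫ t in a..(x + h), gy e (t, y)) -
          ∫ t in a..x, gy e (t, y))) := (lipschitzWith_smul (h⁻¹ : ℝ)).comp l2
      exact l3.lipschitzOnWith.absolutelyContinuousOnInterval
    have key := ibp (f := fun x => w1 (x, y)) (ψ := fun x => G (x, y))
      (ψ' := fun x => D (x, y)) hii (h5 hy) hGlip (by
        filter_upwards [hder, hderh] with x hx hx' _
        have b1 := hx a
        have b2 : HasDerivAt (fun x => ∫ t in a..(x + h), gy e (t, y)) (gy e (x + h, y)) x := by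
          exact (hx' a).comp_add_const x h
        have b3 : HasDerivAt (fun x => h⁻¹ * ((∫ t in a..(x + h), gy e (t, y)) -
            ∫ t in a..x, gy e (t, y))) (h⁻¹ * (gy e (x + h, y) - gy e (x, y))) x :=
          (b2.sub b1).const_mul h⁻¹
        have e2 : D (x, y) = h⁻¹ * (gy e (x + h, y) - gy e (x, y)) := by
          simp only [hD]; ring
        have e1 : (fun x => G (x, y)) = fun x => h⁻¹ * ((∫ t in a..(x + h), gy e (t, y)) -
          ∫ t in a..x, gy e (t, y)) := funext fun x => hGeq (x, y)
        rw [e1, e2]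
        exact b3)
    rw [intervalIntegral_eq_Ioo hab, intervalIntegral_eq_Ioo hab] at key
    rw [key, ← integral_neg]
  have hn : IntegrableOn (fun p => -(U p * D p)) R := hUD.neg
  rw [hleft, hright, ← integral_rect hn, ← integral_rect_symm hn]

end Crest.Agent.R105.CF_363
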