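import Mathlib
import Crest.Agent.R105.CF5_363

/-!
# Row 105: Green's formula on a rectangle with hairs.
-/

namespace Crest.Agent.R105.CF_363

open Set Filter MeasureTheory Topology
open scoped ENNReal NNReal Interval

theorem measurableSet_tendsto_fun {α : Type*} [MeasurableSpace α] {G : ℕ → α → ℝ} {g : α → ℝ}
    (hG : ∀ n, Measurable (G n)) (hg : Measurable g) :
    MeasurableSet {p | Tendsto (fun n => G n p) atTop (𝓝 (g p))} := by
  have : {p | Tendsto (fun n => G n p) atTop (𝓝 (g p))} =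
      ⋂ k : ℕ, ⋃ N : ℕ, ⋂ n : ℕ, ⋂ _ : N ≤ n, {p | |G n p - g p| < 1 / ((k : ℝ) + 1)} := by
    ext p
    simp only [mem_ofPred_eq, mem_iInter, mem_iUnion]
    rw [Metric.tendsto_atTop]
    constructor
    · intro h k
      obtain ⟨N, hN⟩ := h (1 / ((k : ℝ) + 1)) (by positivity)
      exact ⟨N, fun n hn => by have := hN n hn; rwa [Real.dist_eq] at this⟩
    · intro h ε hε
      obtain ⟨k, hk⟩ := exists_nat_one_div_lt hε
      obtain ⟨N, hN⟩ := h k
      exact ⟨N, fun n hn => by rw [Real.dist_eq]; exact (hN n hn).trans hk⟩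
  rw [this]
  refine MeasurableSet.iInter fun k => MeasurableSet.iUnion fun N => MeasurableSet.iInter fun n =>
    MeasurableSet.iInter fun _ => ?_
  exact measurableSet_lt ((hG n).sub hg).abs measurable_const

/-- Green's formula for Lipschitz `e` and `w` vanishing on the boundary (`w₁` measurable). -/
theorem green_core {a b c d L : ℝ} (hab : a ≤ b) (hcd : c ≤ d) (hL : 0 ≤ L)
    {w1 w2 e : ℝ × ℝ → ℝ} (hw1m : Measurable w1)
    (hw1 : IntegrableOn w1 (Ioo a b ×ˢ Ioo c d)) (hw2 : IntegrableOn w2 (Ioo a b ×ˢ Ioo c d))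
    (hb : ∀ᵐ y, y ∈ Ioo c d → ∫ s in a..b, w1 (s, y) = 0)
    (hd : ∀ᵐ x, x ∈ Ioo a b → ∫ t in c..d, w2 (x, t) = 0)
    (hUV : ∀ᵐ p : ℝ × ℝ, p ∈ Ioo a b ×ˢ Ioo c d →
      ∫ s in a..p.1, w1 (s, p.2) = ∫ t in c..p.2, w2 (p.1, t))
    (he : ∀ p q : ℝ × ℝ, |e p - e q| ≤ L * dist p q) :
    ∫ p in Ioo a b ×ˢ Ioo c d, w2 p * gx e p = ∫ p in Ioo a b ×ˢ Ioo c d, w1 p * gy e p := by
  set R : Set (ℝ × ℝ) := Ioo a b ×ˢ Ioo c d with hR
  set h : ℕ → ℝ := fun n => 1 / ((n : ℝ) + 1) with hh
  have hpos : ∀ n, 0 < h n := fun n => by simp only [hh]; positivity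
  have hlim : Tendsto h atTop (𝓝[>] 0) := by
    rw [tendsto_nhdsWithin_iff]
    exact ⟨tendsto_one_div_add_atTop_nhds_zero_nat, Eventually.of_forall fun n => hpos n⟩
  have heSL : SL univ L e := fun p q _ => he p q
  have hec : Continuous e := continuous_iff_continuousAt.mpr fun p =>
    heSL.continuousAt isOpen_univ (mem_univ p)
  have hgyb : ∀ p, |gy e p| ≤ L := fun p => heSL.abs_gy_le isOpen_univ hL (mem_univ p)
  have hgym : Measurable (gy e) := measurable_gy e
  have hgyl : ∀ y, Measurable fun s => gy e (s, y) := fun y =>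
    hgym.comp (measurable_id.prodMk measurable_const)
  have hgyi : ∀ y α β, IntervalIntegrable (fun s => gy e (s, y)) volume α β := by
    intro y α β
    rw [intervalIntegrable_iff]
    refine Measure.integrableOn_of_bounded (M := L) (by simp)
      (hgyl y).aestronglyMeasurable (Eventually.of_forall fun s => by
        rw [Real.norm_eq_abs]; exact hgyb _)
  have hΔb : ∀ n, ∀ p : ℝ × ℝ, |(e (p.1 + h n, p.2) - e p) / h n| ≤ L := by
    intro n p
    rw [abs_div, abs_of_pos (hpos n), div_le_iff₀ (hpos n)]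
    refine (he _ _).trans ?_
    have : dist (p.1 + h n, p.2) p = h n := by
      rw [Prod.dist_eq]; simp [abs_of_pos (hpos n), (hpos n).le]
    rw [this]
  have hΔm : ∀ n, Measurable fun p : ℝ × ℝ => (e (p.1 + h n, p.2) - e p) / h n := by
    intro n
    have : Continuous fun p : ℝ × ℝ => (e (p.1 + h n, p.2) - e p) / h n := by fun_prop
    exact this.measurable
  set G : ℕ → ℝ × ℝ → ℝ := fun n p => (h n)⁻¹ * ∫ s in p.1..(p.1 + h n), gy e (s, p.2) with hG
  have hGeq : ∀ n, ∀ p : ℝ × ℝ, G n p = (h n)⁻¹ * ((∫ s in a..(p.1 + h n), gy e (s, p.2)) -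
      ∫ s in a..p.1, gy e (s, p.2)) := by
    intro n p
    simp only [hG]
    rw [intervalIntegral.integral_interval_sub_left (hgyi _ _ _) (hgyi _ _ _)]
  have hGm : ∀ n, Measurable (G n) := by
    intro n
    have h1 := (stronglyMeasurable_prim hgym a).measurable
    have h2 : Measurable fun p : ℝ × ℝ => ∫ s in a..(p.1 + h n), gy e (s, p.2) :=
      h1.comp ((measurable_fst.add_const (h n)).prodMk measurable_snd)
    have : G n = fun p : ℝ × ℝ => (h n)⁻¹ * ((∫ s in a..(p.1 + h n), gy e (s, p.2)) -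
      ∫ s in a..p.1, gy e (s, p.2)) := funext (hGeq n)
    rw [this]
    exact (h2.sub h1).const_mul _
  have hGb : ∀ n p, |G n p| ≤ L := by
    intro n p
    simp only [hG]
    rw [abs_mul, abs_of_pos (inv_pos.mpr (hpos n))]
    have h1 : |∫ s in p.1..(p.1 + h n), gy e (s, p.2)| ≤ L * |p.1 + h n - p.1| :=
      intervalIntegral.norm_integral_le_of_norm_le_const fun s _ =>
        (Real.norm_eq_abs _).trans_le (hgyb (s, p.2))
    rw [add_sub_cancel_left, abs_of_pos (hpos n)] at h1
    have hne := (hpos n).ne'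
    calc (h n)⁻¹ * _ ≤ (h n)⁻¹ * (L * h n) :=
          mul_le_mul_of_nonneg_left h1 (inv_pos.mpr (hpos n)).le
      _ = L := by field_simp
  have step := fun n => green_step hab hcd hL (hpos n) hw1m hw1 hw2 hb hd hUV he
  have lim1 : Tendsto (fun n => ∫ p in R, w2 p * ((e (p.1 + h n, p.2) - e p) / h n)) atTop
      (𝓝 (∫ p in R, w2 p * gx e p)) := by
    refine tendsto_integral_of_dominated_convergence (fun p => |w2 p| * L)
      (fun n => hw2.aestronglyMeasurable.mul (hΔm n).aestronglyMeasurable)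
      (hw2.abs.mul_const L) (fun n => Eventually.of_forall fun p => ?_) ?_
    · rw [Real.norm_eq_abs, abs_mul]
      exact mul_le_mul_of_nonneg_left (hΔb n p) (abs_nonneg _)
    · have : ∀ᵐ p : ℝ × ℝ, p ∈ (univ : Set (ℝ × ℝ)) → DifferentiableAt ℝ e p :=
        heSL.ae_differentiableAt (μ := volume) isOpen_univ
      refine ae_restrict_of_ae ?_
      filter_upwards [this] with p hp
      have h1 := (gx_eq_deriv (x := p.1) (y := p.2) (hp (mem_univ p))).tendsto_slope_zero_right
      have h2 := (h1.comp hlim).const_mul (w2 p)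
      refine h2.congr fun n => ?_
      simp only [Function.comp, smul_eq_mul]
      rw [div_eq_inv_mul]
  have lim2 : Tendsto (fun n => ∫ p in R, w1 p * G n p) atTop
      (𝓝 (∫ p in R, w1 p * gy e p)) := by
    refine tendsto_integral_of_dominated_convergence (fun p => |w1 p| * L)
      (fun n => hw1.aestronglyMeasurable.mul (hGm n).aestronglyMeasurable)
      (hw1.abs.mul_const L) (fun n => Eventually.of_forall fun p => ?_) ?_
    · rw [Real.norm_eq_abs, abs_mul]
      exact mul_le_mul_of_nonneg_left (hGb n p) (abs_nonneg _)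
    · have hae : ∀ᵐ y : ℝ, ∀ᵐ x : ℝ,
          Tendsto (fun n => G n (x, y)) atTop (𝓝 (gy e (x, y))) := by
        refine Eventually.of_forall fun y => ?_
        have hloc : LocallyIntegrable (fun s => gy e (s, y)) volume := by
          intro x
          refine ⟨Ioc (x - 1) (x + 1), Ioc_mem_nhds (by linarith) (by linarith), ?_⟩
          have := hgyi y (x - 1) (x + 1)
          rwa [intervalIntegrable_iff_integrableOn_Ioc_of_le (by linarith)] at this
        filter_upwards [LocallyIntegrable.ae_hasDerivAt_integral hloc] with x hx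
        have h1 := ((hx a).tendsto_slope_zero_right).comp hlim
        refine h1.congr fun n => ?_
        simp only [Function.comp, smul_eq_mul]
        rw [hGeq]
      have hms := measurableSet_tendsto_fun hGm hgym
      have hae2 : ∀ᵐ x : ℝ, ∀ᵐ y : ℝ, Tendsto (fun n => G n (x, y)) atTop (𝓝 (gy e (x, y))) :=
        (Measure.ae_ae_comm (μ := (volume : Measure ℝ)) (ν := (volume : Measure ℝ))
          (p := fun x y => Tendsto (fun n => G n (x, y)) atTop (𝓝 (gy e (x, y)))) hms).mpr hae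
      have hae3 : ∀ᵐ p : ℝ × ℝ, p ∈ {p | Tendsto (fun n => G n p) atTop (𝓝 (gy e p))} := by
        rw [Measure.volume_eq_prod]
        exact (Measure.ae_prod_mem_iff_ae_ae_mem hms).mpr hae2
      refine ae_restrict_of_ae ?_
      filter_upwards [hae3] with p hp
      exact hp.const_mul (w1 p)
  have lim2' : Tendsto (fun n => ∫ p in R, w2 p * ((e (p.1 + h n, p.2) - e p) / h n)) atTop
      (𝓝 (∫ p in R, w1 p * gy e p)) := lim2.congr fun n => (step n).symm
  exact tendsto_nhds_unique lim1 lim2'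

/-- The jump function of a family of disjoint hairs vanishes at the tips. -/
theorem jump_tips {c d : ℝ} {J : Finset Hair}
    (hJ : ∀ K ∈ J, ∀ K' ∈ J, K ≠ K' → Disjoint K.car K'.car) {K : Hair} (hK : K ∈ J)
    {j : ℝ → ℝ} (hj : Continuous j) (h0 : ∀ y ∈ Ioo c d, (K.x, y) ∉ cut J → j y = 0)
    (hcb : c < K.b) (htd : K.t < d) : j K.b = 0 ∧ j K.t = 0 := by
  classical
  have hbt := K.hbt
  have hcl : IsClosed (cut (J.erase K)) := isClosed_cut _
  have hnot : ∀ y, y ∈ Icc K.b K.t → (K.x, y) ∉ cut (J.erase K) := by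
    rintro y hy ⟨K', hK', hm⟩
    rw [Finset.mem_erase] at hK'
    exact Set.disjoint_left.mp (hJ K' hK'.2 K hK hK'.1) hm ⟨rfl, hy.1, hy.2⟩
  have hopen : ∀ y, y ∈ Icc K.b K.t → ∀ᶠ z in 𝓝 y, (K.x, z) ∉ cut (J.erase K) := by
    intro y hy
    have hc : Continuous fun z : ℝ => (K.x, z) := by fun_prop
    exact (hcl.isOpen_compl.preimage hc).mem_nhds (hnot y hy)
  have hsplit : ∀ z, (K.x, z) ∉ cut (J.erase K) → z ∉ Icc K.b K.t → (K.x, z) ∉ cut J := by
    rintro z h1 h2 ⟨K', hK', hm⟩
    by_cases hKK : K' = K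
    · subst hKK; exact h2 ⟨hm.2.1, hm.2.2⟩
    · exact h1 ⟨K', Finset.mem_erase.mpr ⟨hKK, hK'⟩, hm⟩
  constructor
  · have h1 : Tendsto j (𝓝[<] K.b) (𝓝 (j K.b)) := hj.continuousAt.tendsto.mono_left inf_le_left
    have h2 : Tendsto j (𝓝[<] K.b) (𝓝 0) := by
      refine Tendsto.congr' ?_ tendsto_const_nhds
      filter_upwards [(hopen K.b ⟨le_rfl, hbt.le⟩).filter_mono inf_le_left,
        Ioo_mem_nhdsLT hcb] with z hz hz'
      exact (h0 z ⟨hz'.1, by linarith [hz'.2]⟩
        (hsplit z hz fun h => absurd h.1 (not_le.mpr hz'.2))).symm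
    exact tendsto_nhds_unique h1 h2
  · have h1 : Tendsto j (𝓝[>] K.t) (𝓝 (j K.t)) := hj.continuousAt.tendsto.mono_left inf_le_left
    have h2 : Tendsto j (𝓝[>] K.t) (𝓝 0) := by
      refine Tendsto.congr' ?_ tendsto_const_nhds
      filter_upwards [(hopen K.t ⟨hbt.le, le_rfl⟩).filter_mono inf_le_left,
        Ioo_mem_nhdsGT htd] with z hz hz'
      exact (h0 z ⟨by linarith [hz'.1], hz'.2⟩
        (hsplit z hz fun h => absurd h.2 (not_le.mpr hz'.1))).symm
    exact tendsto_nhds_unique h1 h2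

/-- Green's formula with hairs: `w` has zero boundary values on the rectangle and is a.e. constant
on every hair (the constant being `0` for hairs which are not inside the rectangle). -/
theorem green_hairs {a b c d L : ℝ} (hab : a ≤ b) (hcd : c ≤ d) (hL : 0 ≤ L)
    {J : Finset Hair} (hJ : ∀ K ∈ J, ∀ K' ∈ J, K ≠ K' → Disjoint K.car K'.car)
    {w1 w2 e : ℝ × ℝ → ℝ} (hw1m : Measurable w1)
    (hw1 : IntegrableOn w1 (Ioo a b ×ˢ Ioo c d)) (hw2 : IntegrableOn w2 (Ioo a b ×ˢ Ioo c d))
    (hb : ∀ᵐ y, y ∈ Ioo c d → ∫ s in a..b, w1 (s, y) = 0)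
    (hd : ∀ᵐ x, x ∈ Ioo a b → ∫ t in c..d, w2 (x, t) = 0)
    (hUV : ∀ᵐ p : ℝ × ℝ, p ∈ Ioo a b ×ˢ Ioo c d →
      ∫ s in a..p.1, w1 (s, p.2) = ∫ t in c..p.2, w2 (p.1, t))
    (he : SL ((Ioo a b ×ˢ Ioo c d) \ cut J) L e)
    (hκ : ∀ K ∈ J, K.x ∈ Ioo a b → ∃ κ : ℝ,
      (∀ᵐ y, y ∈ Ioo c d → y ∈ Ioo K.b K.t → ∫ s in a..K.x, w1 (s, y) = κ) ∧
      (κ ≠ 0 → c < K.b ∧ K.t < d)) :
    ∫ p in Ioo a b ×ˢ Ioo c d, w2 p * gx e p = ∫ p in Ioo a b ×ˢ Ioo c d, w1 p * gy e p := by
  classical
  set R : Set (ℝ × ℝ) := Ioo a b ×ˢ Ioo c d with hR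
  have hRo : IsOpen R := isOpen_Ioo.prod isOpen_Ioo
  set X : Finset ℝ := J.image Hair.x with hX
  have hSX : ∀ p ∈ cut J, p.1 ∈ X := by
    rintro p ⟨K, hK, hp⟩
    rw [hp.1]; exact Finset.mem_image_of_mem _ hK
  lift L to ℝ≥0 using hL
  obtain ⟨M, j, e0, h1, h2, h3, h4, h5⟩ := decomp X (isClosed_cut J) hSX he
  have he0 : ∀ p q, |e0 p - e0 q| ≤ (M : ℝ) * dist p q := fun p q => by
    have := h1.dist_le_mul p q; rwa [Real.dist_eq] at this
  have core := green_core hab hcd M.2 hw1m hw1 hw2 hb hd hUV he0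
  -- off the lines
  have hX0 : volume {p : ℝ × ℝ | p.1 ∈ X} = 0 := by
    have : {p : ℝ × ℝ | p.1 ∈ X} = (↑X : Set ℝ) ×ˢ univ := by ext p; simp
    rw [this, Measure.volume_eq_prod, Measure.prod_prod]
    simp [X.finite_toSet.measure_zero]
  have hofX : ∀ᵐ p : ℝ × ℝ, p.1 ∉ X := by
    have := measure_eq_zero_iff_ae_notMem.mp hX0
    filter_upwards [this] with p hp using hp
  have hjd : ∀ᵐ p : ℝ × ℝ, ∀ ξ ∈ X, HasDerivAt (j ξ) (deriv (j ξ) p.2) p.2 := by
    have h6 : ∀ᵐ y : ℝ, ∀ ξ ∈ X, HasDerivAt (j ξ) (deriv (j ξ) y) y := by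
      rw [Finset.eventually_all]
      intro ξ hξ
      filter_upwards [(h2 ξ hξ).ae_differentiableAt_real] with y hy
      exact hy.hasDerivAt
    have : ∀ᵐ p : ℝ × ℝ ∂((volume : Measure ℝ).prod volume),
        ∀ ξ ∈ X, HasDerivAt (j ξ) (deriv (j ξ) p.2) p.2 :=
      Measure.quasiMeasurePreserving_snd.ae h6
    rwa [Measure.volume_eq_prod]
  have he0d : ∀ᵐ p : ℝ × ℝ, DifferentiableAt ℝ e0 p := h1.ae_differentiableAt
  have hgrad : ∀ᵐ p : ℝ × ℝ, p ∈ R → gx e p = gx e0 p ∧
      gy e p = gy e0 p + ∑ ξ ∈ X, if ξ < p.1 then deriv (j ξ) p.2 else 0 := by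
    filter_upwards [hofX, hjd, he0d] with p hpX hpj hp0 hpR
    have hO : IsOpen (R ∩ {z : ℝ × ℝ | z.1 ∈ X}ᶜ) := hRo.inter (isClosed_fst_mem X).isOpen_compl
    -- locally the indicators are constant
    have hloc : ∀ᶠ z in 𝓝 p, z ∈ R ∧ z.1 ∉ X ∧ ∀ ξ ∈ X, (ξ < z.1 ↔ ξ < p.1) := by
      have e1 : ∀ᶠ z in 𝓝 p, z ∈ R ∩ {z : ℝ × ℝ | z.1 ∈ X}ᶜ := hO.mem_nhds ⟨hpR, hpX⟩
      have e2 : ∀ᶠ z in 𝓝 p, ∀ ξ ∈ X, (ξ < z.1 ↔ ξ < p.1) := by
        rw [Finset.eventually_all]
        intro ξ hξ
        have hne : ξ ≠ p.1 := by rintro rfl; exact hpX hξ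
        rcases lt_or_gt_of_ne hne with h | h
        · filter_upwards [(isOpen_lt continuous_const continuous_fst).mem_nhds h] with z hz
          exact ⟨fun _ => h, fun _ => hz⟩
        · filter_upwards [(isOpen_lt continuous_fst continuous_const).mem_nhds h] with z hz
          exact ⟨fun h' => absurd h' (not_lt.mpr (le_of_lt hz)),
            fun h' => absurd h' (not_lt.mpr h.le)⟩
      filter_upwards [e1, e2] with z hz1 hz2
      exact ⟨hz1.1, hz1.2, hz2⟩
    have heq : e =ᶠ[𝓝 p] fun z => e0 z + ∑ ξ ∈ X, if ξ < p.1 then j ξ z.2 else 0 := by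
      filter_upwards [hloc] with z hz
      rw [h5 z hz.1 hz.2.1]
      congr 1
      refine Finset.sum_congr rfl fun ξ hξ => ?_
      simp only [hz.2.2 ξ hξ]
    have hterm : ∀ ξ ∈ X, HasFDerivAt (fun z : ℝ × ℝ => if ξ < p.1 then j ξ z.2 else 0)
        ((if ξ < p.1 then deriv (j ξ) p.2 else 0) • (ContinuousLinearMap.snd ℝ ℝ ℝ)) p := by
      intro ξ hξ
      by_cases h : ξ < p.1
      · simp only [if_pos h]
        have := (hpj ξ hξ).hasFDerivAt.comp p (hasFDerivAt_snd (𝕜 := ℝ) (p := p))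
        exact this.congr_fderiv (by ext <;> simp)
      · simp only [if_neg h, zero_smul]
        exact hasFDerivAt_const _ _
    have hsum := HasFDerivAt.fun_sum hterm
    have htot := hp0.hasFDerivAt.add hsum
    have hfd := (htot.congr_of_eventuallyEq heq).fderiv
    constructor
    · simp only [gx, hfd, add_apply, sum_apply, smul_apply]
      simp
    · simp only [gy, hfd, add_apply, sum_apply, smul_apply]
      simp
  have hLgx : ∫ p in R, w2 p * gx e p = ∫ p in R, w2 p * gx e0 p := by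
    apply integral_congr_ae
    filter_upwards [ae_restrict_of_ae hgrad, ae_restrict_mem hRo.measurableSet] with p hp hpR
    rw [(hp hpR).1]
  -- bounded measurable derivatives of the jumps
  have hjb : ∀ ξ ∈ X, ∀ y, |deriv (j ξ) y| ≤ M := fun ξ hξ y => by
    have := norm_deriv_le_of_lipschitz (h2 ξ hξ) (x₀ := y)
    rwa [Real.norm_eq_abs] at this
  have hsecm : ∀ ξ, Measurable fun p : ℝ × ℝ => if ξ < p.1 then deriv (j ξ) p.2 else 0 := by
    intro ξ
    apply Measurable.ite (measurableSet_lt measurable_const measurable_fst)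
    · exact (measurable_deriv (j ξ)).comp measurable_snd
    · exact measurable_const
  have hint : ∀ ξ ∈ X, IntegrableOn
      (fun p => w1 p * (if ξ < p.1 then deriv (j ξ) p.2 else 0)) R := by
    intro ξ hξ
    refine hw1.mul_bdd (c := M) (hsecm ξ).aestronglyMeasurable
      (Eventually.of_forall fun p => ?_)
    rw [Real.norm_eq_abs]
    split_ifs
    · exact hjb ξ hξ _
    · simp
  have hint0 : IntegrableOn (fun p => w1 p * gy e0 p) R := by
    have heSL : SL univ M e0 := fun p q _ => he0 p q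
    refine hw1.mul_bdd (c := M) (measurable_gy e0).aestronglyMeasurable
      (Eventually.of_forall fun p => ?_)
    rw [Real.norm_eq_abs]
    exact heSL.abs_gy_le isOpen_univ M.2 (mem_univ p)
  have hRgy : ∫ p in R, w1 p * gy e p = (∫ p in R, w1 p * gy e0 p) +
      ∑ ξ ∈ X, ∫ p in R, w1 p * (if ξ < p.1 then deriv (j ξ) p.2 else 0) := by
    rw [← integral_finsetSum X hint, ← integral_add hint0 (integrable_finsetSum X hint)]
    apply integral_congr_ae
    filter_upwards [ae_restrict_of_ae hgrad, ae_restrict_mem hRo.measurableSet] with p hp hpR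
    rw [(hp hpR).2, mul_add, Finset.mul_sum]
  -- each jump term vanishes
  have hzero : ∀ ξ ∈ X, ∫ p in R, w1 p * (if ξ < p.1 then deriv (j ξ) p.2 else 0) = 0 := by
    intro ξ hξ
    by_cases hξab : ξ ∈ Ioo a b
    swap
    · have hj0 : j ξ = 0 := h3 ξ hξ hξab
      have : ∀ p : ℝ × ℝ, w1 p * (if ξ < p.1 then deriv (j ξ) p.2 else 0) = 0 := by
        intro p
        rw [hj0]
        have : deriv (0 : ℝ → ℝ) p.2 = 0 := by
          have : (0 : ℝ → ℝ) = fun _ => (0 : ℝ) := rfl
          rw [this, deriv_const]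
        rw [this]; simp
      simp [this]
    rw [hR, integral_rect_symm (hint ξ hξ)]
    have hsec1 : ∀ᵐ y ∂(volume.restrict (Ioo c d)),
        Integrable (fun x => w1 (x, y)) (volume.restrict (Ioo a b)) := by
      have := hw1
      unfold IntegrableOn at this
      rw [hR, volume_restrict_rect] at this
      exact this.prod_left_ae
    -- the inner integral
    have hinner : ∀ᵐ y ∂(volume.restrict (Ioo c d)),
        ∫ x in Ioo a b, w1 (x, y) * (if ξ < x then deriv (j ξ) y else 0) =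
          - (deriv (j ξ) y * ∫ s in a..ξ, w1 (s, y)) := by
      filter_upwards [hsec1, ae_restrict_of_ae hb, ae_restrict_mem measurableSet_Ioo]
        with y hy1 hy2 hy3
      have hii : IntervalIntegrable (fun x => w1 (x, y)) volume a b := by
        rw [intervalIntegrable_iff_integrableOn_Ioo_of_le hab]; exact hy1
      have e1 : ∫ x in Ioo a b, w1 (x, y) * (if ξ < x then deriv (j ξ) y else 0) =
          ∫ x in Ioo ξ b, w1 (x, y) * deriv (j ξ) y := by
        rw [← integral_indicator measurableSet_Ioo, ← integral_indicator measurableSet_Ioo]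
        congr 1
        ext x
        simp only [indicator, mem_Ioo]
        by_cases hx : ξ < x
        · have : a < x := hξab.1.trans hx
          simp [hx, this]
        · simp [hx]
      have i1 : IntervalIntegrable (fun x => w1 (x, y)) volume a ξ := hii.mono_set (by
        rw [uIcc_of_le hab, uIcc_of_le hξab.1.le]; exact Icc_subset_Icc_right hξab.2.le)
      have i2 : IntervalIntegrable (fun x => w1 (x, y)) volume ξ b := hii.mono_set (by
        rw [uIcc_of_le hab, uIcc_of_le hξab.2.le]; exact Icc_subset_Icc_left hξab.1.le)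
      have e2 := intervalIntegral.integral_add_adjacent_intervals i1 i2
      rw [hy2 hy3] at e2
      rw [e1, integral_mul_const, ← intervalIntegral_eq_Ioo hξab.2.le]
      have e3 : ∫ x in ξ..b, w1 (x, y) = - ∫ s in a..ξ, w1 (s, y) := by linarith
      rw [e3]; ring
    rw [integral_congr_ae hinner, integral_neg, neg_eq_zero]
    -- now the one-dimensional integral
    set Jξ : Finset Hair := J.filter fun K => K.x = ξ with hJξ
    choose! κ hκ1 hκ2 using hκ
    have hae : ∀ᵐ y ∂(volume.restrict (Ioo c d)),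
        deriv (j ξ) y * ∫ s in a..ξ, w1 (s, y) =
          ∑ K ∈ Jξ, (Ioo K.b K.t).indicator (fun y => κ K * deriv (j ξ) y) y := by
      have hfin : ∀ᵐ y : ℝ, ∀ K ∈ Jξ, y ≠ K.b ∧ y ≠ K.t := by
        rw [Finset.eventually_all]
        intro K _
        filter_upwards [Measure.ae_ne volume K.b, Measure.ae_ne volume K.t]
          with y hy hy' using ⟨hy, hy'⟩
      have hκae : ∀ᵐ y : ℝ, ∀ K ∈ Jξ, y ∈ Ioo c d → y ∈ Ioo K.b K.t →
          ∫ s in a..ξ, w1 (s, y) = κ K := by
        rw [Finset.eventually_all]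
        intro K hK
        have hK' := Finset.mem_filter.mp hK
        have := hκ1 K hK'.1 (by rw [hK'.2]; exact hξab)
        rw [hK'.2] at this
        exact this
      filter_upwards [ae_restrict_of_ae hfin, ae_restrict_of_ae hκae,
        ae_restrict_mem measurableSet_Ioo] with y hy1 hy2 hy3
      by_cases hex : ∃ K ∈ Jξ, y ∈ Ioo K.b K.t
      · obtain ⟨K, hK, hyK⟩ := hex
        rw [Finset.sum_eq_single K]
        · rw [indicator_of_mem hyK, hy2 K hK hy3 hyK, mul_comm]
        · intro K' hK' hne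
          apply indicator_of_notMem
          intro hyK'
          have a1 := Finset.mem_filter.mp hK
          have a2 := Finset.mem_filter.mp hK'
          have m1 : (ξ, y) ∈ K'.car := ⟨a2.2.symm, hyK'.1.le, hyK'.2.le⟩
          have m2 : (ξ, y) ∈ K.car := ⟨a1.2.symm, hyK.1.le, hyK.2.le⟩
          exact Set.disjoint_left.mp (hJ K' a2.1 K a1.1 hne) m1 m2
        · intro h; exact absurd hK h
      · push Not at hex
        rw [Finset.sum_eq_zero (fun K hK => indicator_of_notMem (hex K hK) _)]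
        have hcut : (ξ, y) ∉ cut J := by
          rintro ⟨K, hK, hm⟩
          have hKJ : K ∈ Jξ := Finset.mem_filter.mpr ⟨hK, hm.1.symm⟩
          refine hex K hKJ ⟨lt_of_le_of_ne hm.2.1 (hy1 K hKJ).1.symm,
            lt_of_le_of_ne hm.2.2 (hy1 K hKJ).2⟩
        have hj0 : j ξ =ᶠ[𝓝 y] fun _ => 0 := by
          have hc : Continuous fun z : ℝ => (ξ, z) := by fun_prop
          filter_upwards [((isClosed_cut J).isOpen_compl.preimage hc).mem_nhds hcut,
            isOpen_Ioo.mem_nhds hy3] with z hz1 hz2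
          exact h4 ξ hξ z hz2 hz1
        rw [hj0.deriv_eq, deriv_const, zero_mul]
    rw [integral_congr_ae hae]
    have hji : ∀ s : Set ℝ, MeasurableSet s → Bornology.IsBounded s →
        IntegrableOn (deriv (j ξ)) s := by
      intro s _ hs
      refine Measure.integrableOn_of_bounded (M := M) hs.measure_lt_top.ne
        (measurable_deriv (j ξ)).aestronglyMeasurable (Eventually.of_forall fun y => ?_)
      rw [Real.norm_eq_abs]; exact hjb ξ hξ y
    rw [integral_finsetSum]
    · refine Finset.sum_eq_zero fun K hK => ?_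
      have hK' := Finset.mem_filter.mp hK
      rw [setIntegral_indicator measurableSet_Ioo]
      by_cases hκ0 : κ K = 0
      · simp [hκ0]
      · obtain ⟨hcb, htd⟩ := hκ2 K hK'.1 (by rw [hK'.2]; exact hξab) hκ0
        have e1 : Ioo c d ∩ Ioo K.b K.t = Ioo K.b K.t := by
          apply inter_eq_right.mpr
          exact Ioo_subset_Ioo hcb.le htd.le
        rw [e1, integral_const_mul, ← intervalIntegral_eq_Ioo K.hbt.le]
        have e2 : ∫ y in K.b..K.t, deriv (j ξ) y = j ξ K.t - j ξ K.b :=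
          ((h2 ξ hξ).lipschitzOnWith).absolutelyContinuousOnInterval.integral_deriv_eq_sub
        have e3 := jump_tips hJ hK'.1 (h2 ξ hξ).continuous (c := c) (d := d)
          (by rw [hK'.2]; exact fun y hy hn => h4 ξ hξ y hy hn) hcb htd
        rw [e2, e3.1, e3.2]; simp
    · intro K _
      exact ((hji _ measurableSet_Ioo (Metric.isBounded_Ioo c d)).const_mul (κ K)).indicator
        measurableSet_Ioo
  rw [hLgx, hRgy, Finset.sum_eq_zero hzero, add_zero]
  exact core

end Crest.Agent.R105.CF_363
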