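import Mathlib
import Crest.Agent.R105.CF2_363

/-!
# Row 105: reflection `(x, y) ↦ (x, -y)` in the class `CF`.
-/

namespace Crest.Agent.R105.CF_363

open Set Filter MeasureTheory Topology
open scoped ENNReal NNReal

/-- the reflection -/
def rf (p : ℝ × ℝ) : ℝ × ℝ := (p.1, -p.2)

@[simp] theorem rf_fst (p : ℝ × ℝ) : (rf p).1 = p.1 := rfl
@[simp] theorem rf_snd (p : ℝ × ℝ) : (rf p).2 = -p.2 := rfl
@[simp] theorem rf_mk (x y : ℝ) : rf (x, y) = (x, -y) := rfl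
@[simp] theorem rf_rf (p : ℝ × ℝ) : rf (rf p) = p := by simp [rf]

theorem continuous_rf : Continuous rf := by unfold rf; fun_prop

theorem measurable_rf : Measurable rf := continuous_rf.measurable

/-- `rf` as a continuous linear equivalence -/
noncomputable def rfL : (ℝ × ℝ) ≃L[ℝ] (ℝ × ℝ) :=
  (ContinuousLinearEquiv.refl ℝ ℝ).prodCongr (ContinuousLinearEquiv.neg ℝ)

@[simp] theorem rfL_apply (p : ℝ × ℝ) : rfL p = rf p := rfl

theorem dist_rf (p q : ℝ × ℝ) : dist (rf p) (rf q) = dist p q := by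
  simp [rf, Prod.dist_eq]

theorem isometry_rf : Isometry rf := Isometry.of_dist_eq dist_rf

theorem rf_image_eq_preimage (U : Set (ℝ × ℝ)) : rf '' U = rf ⁻¹' U := by
  ext p
  constructor
  · rintro ⟨q, hq, rfl⟩; simpa using hq
  · intro hp; exact ⟨rf p, hp, rf_rf p⟩

theorem measurePreserving_rf : MeasurePreserving rf (volume : Measure (ℝ × ℝ)) volume := by
  rw [Measure.volume_eq_prod]
  exact (MeasurePreserving.id (volume : Measure ℝ)).prod (Measure.measurePreserving_neg volume)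

theorem measurableEmbedding_rf : MeasurableEmbedding rf := by
  have : rf = (rfL.toHomeomorph : (ℝ × ℝ) ≃ₜ (ℝ × ℝ)) := rfl
  rw [this]
  exact rfL.toHomeomorph.measurableEmbedding

theorem segment_rf (p q : ℝ × ℝ) : segment ℝ (rf p) (rf q) = rf '' segment ℝ p q := by
  have := (rfL.toLinearMap).toAffineMap
  rw [segment_eq_image_lineMap, segment_eq_image_lineMap, image_image]
  apply image_congr
  intro t _
  ext <;> simp [AffineMap.lineMap_apply, rf]; ring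

theorem SL.refl {U : Set (ℝ × ℝ)} {L : ℝ} {f : ℝ × ℝ → ℝ} (h : SL U L f) :
    SL (rf ⁻¹' U) L (fun p => f (rf p)) := by
  intro p q hpq
  have h1 := h (rf p) (rf q) (by
    rw [segment_rf]; rintro _ ⟨z, hz, rfl⟩; exact hpq hz)
  rwa [dist_rf] at h1

theorem CF.refl {U : Set (ℝ × ℝ)} {f : ℝ × ℝ → ℝ} (h : CF U f) :
    CF (rf ⁻¹' U) (fun p => f (rf p)) := by
  obtain ⟨L, C, hL, h1, h2⟩ := h
  exact ⟨L, C, hL, h1.refl, fun p hp => h2 _ hp⟩

/-- the reflected hair -/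
def Hair.refl (K : Hair) : Hair := ⟨K.x, -K.t, -K.b, neg_lt_neg K.hbt⟩

@[simp] theorem Hair.refl_x (K : Hair) : K.refl.x = K.x := rfl
@[simp] theorem Hair.refl_b (K : Hair) : K.refl.b = -K.t := rfl
@[simp] theorem Hair.refl_t (K : Hair) : K.refl.t = -K.b := rfl

@[simp] theorem Hair.refl_refl (K : Hair) : K.refl.refl = K := by
  ext <;> simp [Hair.refl]

theorem Hair.refl_injective : Function.Injective Hair.refl := fun K K' h => by
  rw [← K.refl_refl, h, K'.refl_refl]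

theorem Hair.mem_car_refl {K : Hair} {p : ℝ × ℝ} : p ∈ K.refl.car ↔ rf p ∈ K.car := by
  simp only [Hair.mem_car, Hair.refl_x, Hair.refl_b, Hair.refl_t, rf_fst, rf_snd]
  constructor
  · rintro ⟨h1, h2, h3⟩; exact ⟨h1, by linarith, by linarith⟩
  · rintro ⟨h1, h2, h3⟩; exact ⟨h1, by linarith, by linarith⟩

theorem Hair.car_refl (K : Hair) : K.refl.car = rf ⁻¹' K.car := by
  ext p; exact Hair.mem_car_refl

open Classical in
/-- the reflected finite family -/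
noncomputable def reflJ (J : Finset Hair) : Finset Hair := J.image Hair.refl

theorem mem_reflJ {J : Finset Hair} {K : Hair} : K ∈ reflJ J ↔ K.refl ∈ J := by
  classical
  unfold reflJ
  rw [Finset.mem_image]
  constructor
  · rintro ⟨K', hK', rfl⟩; simpa using hK'
  · intro h; exact ⟨K.refl, h, K.refl_refl⟩

@[simp] theorem reflJ_reflJ (J : Finset Hair) : reflJ (reflJ J) = J := by
  ext K; simp [mem_reflJ]

theorem mem_cut_reflJ {J : Finset Hair} {p : ℝ × ℝ} : p ∈ cut (reflJ J) ↔ rf p ∈ cut J := by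
  simp only [mem_cut, mem_reflJ]
  constructor
  · rintro ⟨K, hK, hp⟩
    refine ⟨K.refl, hK, ?_⟩
    rw [← Hair.mem_car_refl, Hair.refl_refl]; exact hp
  · rintro ⟨K, hK, hp⟩
    exact ⟨K.refl, by simpa using hK, Hair.mem_car_refl.mpr hp⟩

theorem cut_reflJ (J : Finset Hair) : cut (reflJ J) = rf ⁻¹' cut J := by
  ext p; exact mem_cut_reflJ

theorem diff_cut_reflJ (W : Set (ℝ × ℝ)) (J : Finset Hair) :
    rf ⁻¹' W \ cut (reflJ J) = rf ⁻¹' (W \ cut J) := by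
  rw [cut_reflJ]; rfl

/-- the reflected family of hairs -/
def reflH (𝓗 : Set Hair) : Set Hair := {K | K.refl ∈ 𝓗}

@[simp] theorem reflH_reflH (𝓗 : Set Hair) : reflH (reflH 𝓗) = 𝓗 := by
  ext K; simp [reflH]

theorem CFJ.refl {𝓗 : Set Hair} {W : Set (ℝ × ℝ)} {f : ℝ × ℝ → ℝ} (h : CFJ 𝓗 W f) :
    CFJ (reflH 𝓗) (rf ⁻¹' W) (fun p => f (rf p)) := by
  obtain ⟨J, hJ, h⟩ := h
  refine ⟨reflJ J, fun K hK => hJ _ (mem_reflJ.mp hK), ?_⟩
  rw [diff_cut_reflJ]
  exact h.refl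

theorem CFJ_refl_iff {𝓗 : Set Hair} {W : Set (ℝ × ℝ)} {f : ℝ × ℝ → ℝ} :
    CFJ (reflH 𝓗) (rf ⁻¹' W) (fun p => f (rf p)) ↔ CFJ 𝓗 W f := by
  refine ⟨fun h => ?_, CFJ.refl⟩
  have := h.refl
  simpa [← preimage_comp, Function.comp_def] using this

theorem disjoint_reflJ {J : Finset Hair}
    (hJ : ∀ K ∈ J, ∀ K' ∈ J, K ≠ K' → Disjoint K.car K'.car) :
    ∀ K ∈ reflJ J, ∀ K' ∈ reflJ J, K ≠ K' → Disjoint K.car K'.car := by
  intro K hK K' hK' hne
  have h := hJ _ (mem_reflJ.mp hK) _ (mem_reflJ.mp hK') fun h => hne (Hair.refl_injective h)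
  rw [Hair.car_refl, Hair.car_refl] at h
  rw [Set.disjoint_left] at h ⊢
  intro p hp hp'
  exact h (a := rf p) (by simpa using hp) (by simpa using hp')

theorem fderiv_comp_rf (f : ℝ × ℝ → ℝ) (p : ℝ × ℝ) :
    fderiv ℝ (fun q => f (rf q)) p = (fderiv ℝ f (rf p)).comp (rfL : (ℝ × ℝ) →L[ℝ] (ℝ × ℝ)) := by
  have := rfL.comp_right_fderiv (f := f) (x := p)
  exact this

theorem differentiableAt_comp_rf {f : ℝ × ℝ → ℝ} {p : ℝ × ℝ} :
    DifferentiableAt ℝ (fun q => f (rf q)) p ↔ DifferentiableAt ℝ f (rf p) :=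
  rfL.comp_right_differentiableAt_iff (f := f) (x := p)

theorem gx_rf (f : ℝ × ℝ → ℝ) (p : ℝ × ℝ) : gx (fun q => f (rf q)) p = gx f (rf p) := by
  simp [gx, fderiv_comp_rf]

theorem gy_rf (f : ℝ × ℝ → ℝ) (p : ℝ × ℝ) : gy (fun q => f (rf q)) p = - gy f (rf p) := by
  have h : rf ((0 : ℝ), (1 : ℝ)) = -((0 : ℝ), (1 : ℝ)) := by ext <;> simp
  simp only [gy, fderiv_comp_rf, ContinuousLinearMap.comp_apply, ContinuousLinearEquiv.coe_coe,
    rfL_apply, h, map_neg]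

theorem g2_rf (f : ℝ × ℝ → ℝ) (p : ℝ × ℝ) : g2 (fun q => f (rf q)) p = g2 f (rf p) := by
  simp [g2, gx_rf, gy_rf]

/-- change of variables -/
theorem integral_rf (F : ℝ × ℝ → ℝ) (W : Set (ℝ × ℝ)) :
    ∫ p in rf ⁻¹' W, F (rf p) = ∫ p in W, F p :=
  measurePreserving_rf.setIntegral_preimage_emb measurableEmbedding_rf F W

theorem En_rf (f : ℝ × ℝ → ℝ) (W : Set (ℝ × ℝ)) :
    En (rf ⁻¹' W) (fun q => f (rf q)) = En W f := by
  unfold En
  simp_rw [g2_rf]
  exact integral_rf (g2 f) W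

theorem integrableOn_rf {F : ℝ × ℝ → ℝ} {W : Set (ℝ × ℝ)} :
    IntegrableOn (fun p => F (rf p)) (rf ⁻¹' W) ↔ IntegrableOn F W :=
  measurePreserving_rf.integrableOn_comp_preimage measurableEmbedding_rf

theorem memLp_rf {F : ℝ × ℝ → ℝ} {q : ℝ≥0∞} (h : MemLp F q (volume : Measure (ℝ × ℝ))) :
    MemLp (fun p => F (rf p)) q (volume : Measure (ℝ × ℝ)) :=
  h.comp_measurePreserving measurePreserving_rf

end Crest.Agent.R105.CF_363
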