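import Mathlib

/-!
# Row 105, S0138 (NI frame): the stream function on a compact family of hairs has null joint image

`psi = G ∘ x` on the family (`G` monotone, `x` = abscissa of the hair), `u` = any measurable
function of the hair: off countably many values of `G` the hair is determined by the value of `G`,
so `{(u K, psi K)}` lies in a measurable graph over the second axis and countably many horizontal
lines: it is Lebesgue null.  (Replaces NULLIM: nothing is asked of `u`.)
-/

set_option autoImplicit false

open MeasureTheory Set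

namespace Crest.Agent.R105.Cdf_377

/-- the graph of a measurable function over the second axis is null -/
theorem volume_graph_snd {f : ℝ → ℝ} (hf : Measurable f) :
    volume {p : ℝ × ℝ | p.1 = f p.2} = 0 := by
  have hm : MeasurableSet {p : ℝ × ℝ | p.1 = f p.2} :=
    measurableSet_eq_fun measurable_fst (hf.comp measurable_snd)
  rw [Measure.volume_eq_prod, Measure.prod_apply_symm hm]
  simp

/-- the values which a monotone function takes more than once are countable -/
theorem countable_plateau {G : ℝ → ℝ} (hG : Monotone G) :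
    {w | ∃ s s', s < s' ∧ G s = w ∧ G s' = w}.Countable := by
  refine ((countable_range ((↑) : ℚ → ℝ)).image G).mono ?_
  rintro w ⟨s, s', hlt, h1, h2⟩
  obtain ⟨q, hq1, hq2⟩ := exists_rat_btwn hlt
  exact ⟨q, mem_range_self q, le_antisymm ((hG hq2.le).trans h2.le) (h1.symm.le.trans (hG hq1.le))⟩

/-- horizontal lines at countably many heights are null -/
theorem volume_snd_countable {D : Set ℝ} (hD : D.Countable) :
    volume {p : ℝ × ℝ | p.2 ∈ D} = 0 := by
  have : {p : ℝ × ℝ | p.2 ∈ D} = univ ×ˢ D := by ext p; simp
  rw [this, Measure.volume_eq_prod, Measure.prod_prod, hD.measure_zero, mul_zero]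

/-- generalised inverse on `[a, b]` -/
noncomputable def inv (G : ℝ → ℝ) (a b w : ℝ) : ℝ := sSup ({a} ∪ {s | s ∈ Icc a b ∧ G s ≤ w})

theorem inv_mono (G : ℝ → ℝ) {a b : ℝ} (hab : a ≤ b) : Monotone (inv G a b) := by
  intro w w' h
  refine csSup_le_csSup ⟨b, ?_⟩ ⟨a, Or.inl rfl⟩ (union_subset_union_right _ ?_)
  · rintro s (hs | hs)
    · rw [mem_singleton_iff] at hs; rw [hs]; exact hab
    · exact hs.1.2
  · rintro s ⟨h1, h2⟩
    exact ⟨h1, h2.trans h⟩

theorem inv_eq {G : ℝ → ℝ} (hG : Monotone G) {a b s : ℝ} (hs : s ∈ Icc a b)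
    (hD : ∀ s', s < s' → G s' ≠ G s) : inv G a b (G s) = s := by
  refine IsGreatest.csSup_eq ⟨Or.inr ⟨hs, le_rfl⟩, ?_⟩
  rintro r (hr | ⟨_, hr⟩)
  · rw [mem_singleton_iff] at hr; rw [hr]; exact hs.1
  · by_contra hlt
    rw [not_le] at hlt
    exact hD r hlt (le_antisymm hr (hG hlt.le))

/-- **joint image of a measurable function and a monotone function of one variable**, compact
range -/
theorem volume_image_Icc {v G : ℝ → ℝ} (hv : Measurable v) (hG : Monotone G) (a b : ℝ) :
    volume ((fun s => (v s, G s)) '' Icc a b) = 0 := by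
  rcases lt_or_ge b a with hab | hab
  · rw [Icc_eq_empty (not_le.2 hab)]; simp
  have hf : Measurable (fun w => v (inv G a b w)) := hv.comp (inv_mono G hab).measurable
  refine measure_mono_null ?_ (measure_union_null (volume_graph_snd hf)
    (volume_snd_countable (countable_plateau hG)))
  rintro _ ⟨s, hs, rfl⟩
  by_cases hD : ∀ s', s < s' → G s' ≠ G s
  · left
    show v s = v (inv G a b (G s))
    rw [inv_eq hG hs hD]
  · right
    push Not at hD
    obtain ⟨s', h1, h2⟩ := hD
    exact ⟨s, s', h1, rfl, h2⟩

/-- **joint image of a measurable function and a monotone function of one variable is null** -/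
theorem volume_image {v G : ℝ → ℝ} (hv : Measurable v) (hG : Monotone G) :
    volume (range fun s => (v s, G s)) = 0 := by
  refine measure_mono_null ?_ ((measure_iUnion_null_iff
    (s := fun n : ℕ => (fun s => (v s, G s)) '' Icc (-(n : ℝ)) n)).2
    fun n => volume_image_Icc hv hG _ _)
  rintro _ ⟨s, rfl⟩
  obtain ⟨n, hn⟩ := exists_nat_ge |s|
  exact mem_iUnion.2 ⟨n, s, abs_le.1 hn, rfl⟩

theorem volume_image_anti {v G : ℝ → ℝ} (hv : Measurable v) (hG : Antitone G) :
    volume (range fun s => (v s, G s)) = 0 := by
  have h := volume_image (v := fun s => v (-s)) (hv.comp measurable_neg)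
    (G := fun s => G (-s)) (fun s s' hs => hG (neg_le_neg hs))
  refine measure_mono_null ?_ h
  rintro _ ⟨s, rfl⟩
  exact ⟨-s, by simp⟩

/-- **NULL JOINT IMAGE ON A FAMILY** `X` = a type of components, `x` = abscissa, `psi = G ∘ x` with
`G` monotone (the distribution function of the flux), `u K = v (x K)` with `v` measurable
(`v s = up (s, B)` for a level `B` crossed by the whole family, `up` upper semicontinuous). -/
theorem volume_family {X : Type*} (S : Set X) {x u ψ : X → ℝ} {v G : ℝ → ℝ} (hv : Measurable v)
    (hG : Monotone G ∨ Antitone G) (hu : ∀ K ∈ S, u K = v (x K)) (hψ : ∀ K ∈ S, ψ K = G (x K)) :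
    volume ((fun K => (u K, ψ K)) '' S) = 0 := by
  have h : volume (range fun s => (v s, G s)) = 0 := by
    rcases hG with h | h
    · exact volume_image hv h
    · exact volume_image_anti hv h
  refine measure_mono_null ?_ h
  rintro _ ⟨K, hK, rfl⟩
  exact ⟨x K, by simp [hu K hK, hψ K hK]⟩

/-- the version on the plane: `up` measurable, the family crosses the height `B` -/
theorem volume_family_plane {X : Type*} (S : Set X) {x u ψ : X → ℝ} {up : ℝ × ℝ → ℝ} {G : ℝ → ℝ}
    {B : ℝ} (hup : Measurable up) (hG : Monotone G ∨ Antitone G)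
    (hu : ∀ K ∈ S, u K = up (x K, B)) (hψ : ∀ K ∈ S, ψ K = G (x K)) :
    volume ((fun K => (u K, ψ K)) '' S) = 0 :=
  volume_family S (v := fun s => up (s, B)) (hup.comp (measurable_id.prodMk measurable_const))
    hG hu hψ

end Crest.Agent.R105.Cdf_377
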