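import Crest.Agent.R105.Ni0_459
import Crest.Agent.R105.Cdf1_377

/-!
# Row 105, S0138 (NI frame): the admissibility of the stream function of a hair family

`NPon Y a b F` = the part of `NP Y a b` over `F`.
* `volume_NPon_family`: on a family of components which cross the height `B` and on which
  `psi = G ∘ re` with `G` monotone, the joint image with ANY `u` is null (`up Y u` is u.s.c.)
* `NI.of_local`: `NI` is a germwise, countably local condition
* `NI.of_family`: the two together: `NI Y u psi` for the stream function of a hair family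
-/

set_option autoImplicit false

open MeasureTheory Set Filter Topology Metric

namespace Crest.Agent.R105.Cdf_377

open Ni_459 Crest.AnalysisR

variable {Y F : Set ℂ} {a b u ψ : ℂ → ℝ}

/-- values over `F` at the components where neither `a` nor `b` jumps -/
def NPon (Y : Set ℂ) (a b : ℂ → ℝ) (F : Set ℂ) : Set (ℝ × ℝ) :=
  {p | ∃ z ∈ F, lo Y a z = p.1 ∧ up Y a z = p.1 ∧ lo Y b z = p.2 ∧ up Y b z = p.2}

theorem NPon_self : NPon Y a b Y = NP Y a b := rfl

theorem NPon_mono {F' : Set ℂ} (h : F ⊆ F') : NPon Y a b F ⊆ NPon Y a b F' := by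
  rintro p ⟨z, hz, h'⟩
  exact ⟨z, h hz, h'⟩

theorem NPon_iUnion {ι : Sort*} {F : ι → Set ℂ} : NPon Y a b (⋃ i, F i) = ⋃ i, NPon Y a b (F i) := by
  ext p
  constructor
  · rintro ⟨z, hz, h'⟩
    obtain ⟨i, hi⟩ := mem_iUnion.1 hz
    exact mem_iUnion.2 ⟨i, z, hi, h'⟩
  · intro hp
    obtain ⟨i, z, hz, h'⟩ := mem_iUnion.1 hp
    exact ⟨z, mem_iUnion.2 ⟨i, hz⟩, h'⟩

/-- the envelope only sees the germ at the component -/
theorem up_congr_germ {z : ℂ} {O : Set ℂ} (hO : Nb Y z O) (h : ∀ w ∈ O, w ∉ Y → a w = b w) :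
    up Y a z = up Y b z := by
  have key : ∀ a b : ℂ → ℝ, (∀ w ∈ O, w ∉ Y → a w = b w) →
      {c | ∃ P, Nb Y z P ∧ ∀ w ∈ P, w ∉ Y → a w ≤ c} ⊆
        {c | ∃ P, Nb Y z P ∧ ∀ w ∈ P, w ∉ Y → b w ≤ c} := by
    rintro a b h c ⟨P, hP, hc⟩
    exact ⟨O ∩ P, hO.inter hP, fun w hw hwY => by rw [← h w hw.1 hwY]; exact hc w hw.2 hwY⟩
  unfold up
  rw [subset_antisymm (key a b h) (key b a fun w hw hwY => (h w hw hwY).symm)]

theorem lo_congr_germ {z : ℂ} {O : Set ℂ} (hO : Nb Y z O) (h : ∀ w ∈ O, w ∉ Y → a w = b w) :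
    lo Y a z = lo Y b z := by
  unfold lo
  rw [up_congr_germ hO fun w hw hwY => by rw [h w hw hwY]]

/-- **measurability of the envelope along a horizontal line** -/
theorem measurable_up_line (hY : IsExteriorDomain Yᶜ) (hu : LB u) (B : ℝ) :
    Measurable fun s : ℝ => up Y u (⟨s, B⟩ : ℂ) := by
  have h1 : Measurable (up Y u) := (usc_up hY hu).measurable
  have h2 : Measurable fun s : ℝ => (⟨s, B⟩ : ℂ) := by
    have : (fun s : ℝ => (⟨s, B⟩ : ℂ)) = fun s : ℝ => (s : ℂ) + (B : ℂ) * Complex.I := by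
      funext s
      apply Complex.ext <;> simp
    rw [this]
    exact (Complex.measurable_ofReal.add measurable_const)
  exact h1.comp h2

/-- **(1) the stream function of a hair family: null joint image on the family, for every `u`.**
`g` = union of the family, `hB` = the component of each point contains the point of the height `B`
with the same abscissa (vertical segments which cross the height `B`) -/
theorem volume_NPon_family (hY : IsExteriorDomain Yᶜ) (hu : LB u) {g : Set ℂ} {B : ℝ} {G : ℝ → ℝ}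
    (hG : Monotone G ∨ Antitone G) (hgY : g ⊆ Y)
    (hB : ∀ z ∈ g, (⟨z.re, B⟩ : ℂ) ∈ connectedComponentIn Y z)
    (hψ : ∀ z ∈ g, lo Y ψ z = up Y ψ z → up Y ψ z = G z.re) : volume (NPon Y u ψ g) = 0 := by
  have h := volume_family (X := ℂ) {z ∈ g | lo Y ψ z = up Y ψ z} (x := fun z => z.re)
    (u := up Y u) (ψ := up Y ψ) (measurable_up_line hY hu B) hG
    (fun z hz => (up_congr_cc (hgY hz.1) (hB z hz.1)).symm) (fun z hz => hψ z hz.1 hz.2)
  refine measure_mono_null ?_ h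
  rintro p ⟨z, hz, -, h1, h3, h2⟩
  exact ⟨z, ⟨hz, h3.trans h2.symm⟩, Prod.ext h1 h2⟩

/-- **(2) `NI` is countably local** -/
theorem volume_NPon_local {ι : Type*} [Countable ι] {β : ι → ℂ → ℝ} (h : ∀ i, NI Y a (β i))
    (hF : F ⊆ Y)
    (hloc : ∀ z ∈ F, ∃ i O, Nb Y z O ∧ ∀ w ∈ O, w ∉ Y → β i w = b w) :
    volume (NPon Y a b F) = 0 := by
  refine measure_mono_null (t := ⋃ i, NP Y a (β i)) ?_ (measure_iUnion_null h)
  rintro p ⟨z, hz, h1, h2, h3, h4⟩
  obtain ⟨i, O, hO, hO'⟩ := hloc z hz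
  exact mem_iUnion.2 ⟨i, z, hF hz, h1, h2, by rw [lo_congr_germ hO hO', h3],
    by rw [up_congr_germ hO hO', h4]⟩

/-- **(3) `NI` of the stream function of a hair family** `g`: away from `g` it is germwise one of
countably many admissible functions, on `g` it is a monotone function of the abscissa at all
components where it does not jump -/
theorem NI.of_family (hY : IsExteriorDomain Yᶜ) (hu : LB u) {g : Set ℂ} {B : ℝ} {G : ℝ → ℝ}
    (hG : Monotone G ∨ Antitone G) (hgY : g ⊆ Y)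
    (hB : ∀ z ∈ g, (⟨z.re, B⟩ : ℂ) ∈ connectedComponentIn Y z)
    (hψ : ∀ z ∈ g, lo Y ψ z = up Y ψ z → up Y ψ z = G z.re)
    {ι : Type*} [Countable ι] {β : ι → ℂ → ℝ} (h : ∀ i, NI Y u (β i))
    (hloc : ∀ z ∈ Y \ g, ∃ i O, Nb Y z O ∧ ∀ w ∈ O, w ∉ Y → β i w = ψ w) :
    NI Y u ψ := by
  have h1 := volume_NPon_family hY hu hG hgY hB hψ
  have h2 := volume_NPon_local h (F := Y \ g) sdiff_subset hloc
  refine measure_mono_null ?_ (measure_union_null h1 h2)
  rintro p ⟨z, hz, h'⟩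
  by_cases hzg : z ∈ g
  · exact Or.inl ⟨z, hzg, h'⟩
  · exact Or.inr ⟨z, ⟨hz, hzg⟩, h'⟩

/-- variant: the joint image is null on a piece `g` (whatever the reason) -/
theorem NI.of_pieces {g : Set ℂ} (hg : volume (NPon Y u ψ g) = 0)
    {ι : Type*} [Countable ι] {β : ι → ℂ → ℝ} (h : ∀ i, NI Y u (β i))
    (hloc : ∀ z ∈ Y \ g, ∃ i O, Nb Y z O ∧ ∀ w ∈ O, w ∉ Y → β i w = ψ w) :
    NI Y u ψ := by
  have h2 := volume_NPon_local h (F := Y \ g) sdiff_subset hloc
  refine measure_mono_null ?_ (measure_union_null hg h2)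
  rintro p ⟨z, hz, h'⟩
  by_cases hzg : z ∈ g
  · exact Or.inl ⟨z, hzg, h'⟩
  · exact Or.inr ⟨z, ⟨hz, hzg⟩, h'⟩

end Crest.Agent.R105.Cdf_377
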