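import Crest.Agent.R105.Ends3_897

/-! Row 105, LIB-ENDS (helper897), part 4: clopen pieces of the complement correspond. -/

set_option autoImplicit false

open Set Filter Topology Metric
open scoped ENNReal

namespace Crest.Agent.R105.Ends_897

open Crest.AnalysisR

/-- a piece of a compact set: closed with closed rest -/
structure Piece (X A : Set ℂ) : Prop where
  sub : A ⊆ X
  cpt : IsCompact A
  rest : IsCompact (X \ A)

theorem Piece.compl {X A : Set ℂ} (h : Piece X A) : Piece X (X \ A) :=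
  ⟨sdiff_subset, h.rest, by rw [sdiff_sdiff_cancel_left h.sub]; exact h.cpt⟩

/-- a component meeting a piece lies in it -/
theorem Piece.cc_subset {X A : Set ℂ} (h : Piece X A) {z : ℂ} (hz : z ∈ A) :
    connectedComponentIn X z ⊆ A := by
  intro w hw
  by_contra hwA
  obtain ⟨u, v, hu, hv, hAu, hv', huv⟩ :=
    SeparatedNhds.of_isCompact_isCompact h.cpt h.rest disjoint_sdiff_right
  have hsub := connectedComponentIn_subset X z
  have hcov : connectedComponentIn X z ⊆ u ∪ v := fun y hy => by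
    by_cases hyA : y ∈ A
    · exact Or.inl (hAu hyA)
    · exact Or.inr (hv' ⟨hsub hy, hyA⟩)
  obtain ⟨y, -, hy1, hy2⟩ := isPreconnected_connectedComponentIn u v hu hv hcov
    ⟨z, mem_connectedComponentIn (h.sub hz), hAu hz⟩ ⟨w, hw, hv' ⟨hsub hw, hwA⟩⟩
  exact disjoint_left.1 huv hy1 hy2

theorem Piece.mem_iff {X A : Set ℂ} (h : Piece X A) {z z' : ℂ} (hz : z ∈ X) (hz' : z' ∈ X)
    (he : connectedComponentIn X z = connectedComponentIn X z') : z ∈ A ↔ z' ∈ A := by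
  constructor
  · intro hzA
    exact h.cc_subset hzA (he ▸ mem_connectedComponentIn hz')
  · intro hzA
    exact h.cc_subset hzA (he ▸ mem_connectedComponentIn hz)

/-- the filter of a piece is the supremum of the filters of its components -/
theorem Piece.filter_eq {U A : Set ℂ} (h : Piece Uᶜ A) :
    𝓝ˢ A ⊓ 𝓟 U = ⨆ z : A, eF U z := by
  have h1 : A = ⋃ z : A, connectedComponentIn Uᶜ (z : ℂ) := by
    ext w
    rw [mem_iUnion]
    constructor
    · intro hw; exact ⟨⟨w, hw⟩, mem_connectedComponentIn (h.sub hw)⟩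
    · rintro ⟨z, hz⟩; exact h.cc_subset z.2 hz
  have h2 : 𝓝ˢ A = ⨆ z : A, 𝓝ˢ (connectedComponentIn Uᶜ (z : ℂ)) := by
    conv_lhs => rw [h1]
    exact nhdsSet_iUnion _
  rw [h2, ← iSup_inf_principal]
  rfl

namespace EndMap

variable {U V : Set ℂ} {f : ℂ → ℂ}

/-- the piece of `Vᶜ` corresponding to `A` -/
def img' (_ : EndMap U V f) (A : Set ℂ) : Set ℂ :=
  {ζ | ζ ∉ V ∧ ∀ z, z ∉ U → map f (eF U z) = eF V ζ → z ∈ A}

theorem mem_img'_iff (h : EndMap U V f) {A : Set ℂ} (hA : Piece Uᶜ A) {z ζ : ℂ} (hz : z ∉ U)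
    (hζ : ζ ∉ V) (he : map f (eF U z) = eF V ζ) : ζ ∈ h.img' A ↔ z ∈ A := by
  constructor
  · intro hm; exact hm.2 z hz he
  · intro hzA
    refine ⟨hζ, fun z' hz' he' => ?_⟩
    exact (hA.mem_iff hz hz' (h.map_injective hz (he.trans he'.symm))).1 hzA

theorem img'_compl (h : EndMap U V f) {A : Set ℂ} (hA : Piece Uᶜ A) :
    Vᶜ \ h.img' A = h.img' (Uᶜ \ A) := by
  ext ζ
  constructor
  · rintro ⟨hζ, hn⟩
    obtain ⟨z, hz, he⟩ := h.exists_end' hζ
    rw [h.mem_img'_iff hA.compl hz hζ he]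
    rw [h.mem_img'_iff hA hz hζ he] at hn
    exact ⟨hz, hn⟩
  · intro hm
    have hζ : ζ ∉ V := hm.1
    obtain ⟨z, hz, he⟩ := h.exists_end' hζ
    rw [h.mem_img'_iff hA.compl hz hζ he] at hm
    refine ⟨hζ, ?_⟩
    rw [h.mem_img'_iff hA hz hζ he]
    exact hm.2

theorem img'_nhds (h : EndMap U V f) {A : Set ℂ} (hA : Piece Uᶜ A) {ζ : ℂ}
    (hζ : ζ ∈ h.img' A) : ∃ B : Set ℂ, Piece Vᶜ B ∧ ζ ∈ B ∧ B ⊆ h.img' A := by
  obtain ⟨z, hz, he⟩ := h.exists_end' hζ.1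
  have hzA := (h.mem_img'_iff hA hz hζ.1 he).1 hζ
  obtain ⟨N, N', hN, hN', hAN, hAN', hNN⟩ :=
    SeparatedNhds.of_isCompact_isCompact hA.cpt hA.rest disjoint_sdiff_right
  have h1 : N ∩ U ∈ eF U z :=
    inter_mem_inf (hN.mem_nhdsSet.2 ((hA.cc_subset hzA).trans hAN)) (mem_principal_self U)
  have h2 : f '' (N ∩ U) ∈ eF V ζ := by rw [← he]; exact image_mem_map h1
  obtain ⟨T, hT, hTs⟩ := mem_inf_principal.1 h2 |> fun h => (⟨_, h, fun _ hx => hx⟩ :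
    ∃ T ∈ 𝓝ˢ (connectedComponentIn Vᶜ ζ), ∀ x ∈ T, x ∈ V → x ∈ f '' (N ∩ U))
  obtain ⟨W, hWo, hMW, hWT⟩ := mem_nhdsSet_iff_exists.1 hT
  obtain ⟨B, hBc, hBc', hBV, hMB, hBW⟩ := exists_clopen (isCompact_compl h.hV)
    (show ζ ∈ Vᶜ from hζ.1) hWo hMW
  have hB : Piece Vᶜ B := ⟨hBV, hBc, hBc'⟩
  refine ⟨B, hB, hMB (mem_connectedComponentIn hζ.1), fun ζ' hζ' => ?_⟩
  have hζ'V : ζ' ∉ V := hBV hζ'
  obtain ⟨z', hz', he'⟩ := h.exists_end' hζ'V
  rw [h.mem_img'_iff hA hz' hζ'V he']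
  by_contra hz'A
  have h3 : W ∩ V ∈ eF V ζ' :=
    inter_mem_inf (hWo.mem_nhdsSet.2 ((hB.cc_subset hζ').trans hBW)) (mem_principal_self V)
  have h4 : f ⁻¹' (W ∩ V) ∈ eF U z' := by rw [← mem_map, he']; exact h3
  have h5 : N' ∈ eF U z' := mem_inf_of_left (hN'.mem_nhdsSet.2
    ((hA.compl.cc_subset ⟨hz', hz'A⟩).trans hAN'))
  have := eF_neBot h.hU hz'
  obtain ⟨y, ⟨hy1, hy2⟩, hyU⟩ :=
    ((inter_mem h4 h5 : f ⁻¹' (W ∩ V) ∩ N' ∈ eF U z') |> fun h => (inter_mem h (eventually_mem U z'))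
      |> Filter.nonempty_of_mem)
  obtain ⟨x, ⟨hxN, hxU⟩, hxy⟩ := hTs (f y) (hWT hy1.1) hy1.2
  have : x = y := h.inj hxU hyU hxy
  subst this
  exact disjoint_left.1 hNN hxN hy2

/-- a subset of a closed set which is locally a piece is relatively open: its rest is closed -/
theorem isClosed_rest {X B : Set ℂ} (hX : IsClosed X)
    (h : ∀ ζ ∈ B, ∃ B' : Set ℂ, Piece X B' ∧ ζ ∈ B' ∧ B' ⊆ B) : IsClosed (X \ B) := by
  rw [← isOpen_compl_iff, isOpen_iff_mem_nhds]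
  intro x hx
  by_cases hxX : x ∈ X
  · have hxB : x ∈ B := by
      by_contra hn; exact hx ⟨hxX, hn⟩
    obtain ⟨B', hB', hxB', hsub⟩ := h x hxB
    filter_upwards [hB'.rest.isClosed.isOpen_compl.mem_nhds fun hm => hm.2 hxB'] with y hy hyX
    exact hy ⟨hyX.1, fun hm => hyX.2 (hsub hm)⟩
  · filter_upwards [hX.isOpen_compl.mem_nhds hxX] with y hy hyX using hy hyX.1

/-- **(E5)** pieces go to pieces -/
theorem img'_piece (h : EndMap U V f) {A : Set ℂ} (hA : Piece Uᶜ A) : Piece Vᶜ (h.img' A) := by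
  have hV := isCompact_compl h.hV
  have hr : ∀ {A : Set ℂ}, Piece Uᶜ A → IsCompact (Vᶜ \ h.img' A) := fun hA =>
    hV.of_isClosed_subset (isClosed_rest hV.isClosed fun ζ hζ => h.img'_nhds hA hζ) sdiff_subset
  refine ⟨fun ζ hζ => hζ.1, ?_, hr hA⟩
  have h1 := hr hA.compl
  rw [← h.img'_compl hA, sdiff_sdiff_cancel_left (fun ζ hζ => hζ.1)] at h1
  exact h1

/-- **(E5)** the filters of corresponding pieces correspond -/
theorem map_piece (h : EndMap U V f) {A : Set ℂ} (hA : Piece Uᶜ A) :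
    map f (𝓝ˢ A ⊓ 𝓟 U) = 𝓝ˢ (h.img' A) ⊓ 𝓟 V := by
  rw [hA.filter_eq, (h.img'_piece hA).filter_eq, map_iSup]
  apply le_antisymm
  · refine iSup_le fun z => ?_
    obtain ⟨ζ, hζ, he⟩ := h.exists_end (hA.sub z.2)
    rw [he]
    exact le_iSup (fun ζ : h.img' A => eF V (ζ : ℂ))
      ⟨ζ, (h.mem_img'_iff hA (hA.sub z.2) hζ he).2 z.2⟩
  · refine iSup_le fun ζ => ?_
    obtain ⟨z, hz, he⟩ := h.exists_end' ζ.2.1
    rw [← he]
    exact le_iSup (fun z : A => map f (eF U (z : ℂ)))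
      ⟨z, (h.mem_img'_iff hA hz ζ.2.1 he).1 ζ.2⟩

end EndMap

end Crest.Agent.R105.Ends_897
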