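import Crest.Agent.R105.Rd0_557
import Crest.Agent.R105.Ends4_897
import Crest.Agent.R105.Red2_828

/-!
# Row 105 (S0139): CEN, part 1 (helper985)

Topology: centre values of a conformal map between circle domains on the components of the
complement.
-/

set_option autoImplicit false

open Set Filter Metric Topology MeasureTheory
open Crest.AnalysisR

namespace Crest.Agent.R105.Cen_985

open Crest.Agent.R105.Ends_897

/-- a closed disc determines its centre and radius -/
theorem closedBall_inj {a b : ℂ} {r s : ℝ} (hr : 0 ≤ r) (hs : 0 ≤ s)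
    (h : closedBall a r = closedBall b s) : a = b ∧ r = s := by
  have key : ∀ {a b : ℂ} {r s : ℝ}, 0 ≤ r → 0 ≤ s → closedBall a r ⊆ closedBall b s →
      ‖a - b‖ + r ≤ s := by
    intro a b r s hr _ hsub
    by_cases hab : a = b
    · subst hab
      have h1 : a + (r : ℂ) ∈ closedBall a r := by
        rw [mem_closedBall, dist_eq_norm]
        simp [abs_of_nonneg hr]
      have h2 := hsub h1
      rw [mem_closedBall, dist_eq_norm] at h2
      simpa [abs_of_nonneg hr] using h2
    · have hn : 0 < ‖a - b‖ := norm_pos_iff.2 (sub_ne_zero.2 hab)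
      set u : ℂ := (a - b) / (‖a - b‖ : ℂ) with hu
      have hun : ‖u‖ = 1 := by
        rw [hu, norm_div, Complex.norm_real, Real.norm_eq_abs, abs_of_pos hn, div_self hn.ne']
      have h1 : a + (r : ℂ) * u ∈ closedBall a r := by
        rw [mem_closedBall, dist_eq_norm]
        rw [add_sub_cancel_left, norm_mul, hun, mul_one, Complex.norm_real, Real.norm_eq_abs,
          abs_of_nonneg hr]
      have h2 := hsub h1
      rw [mem_closedBall, dist_eq_norm] at h2
      have h3 : a + (r : ℂ) * u - b = ((‖a - b‖ + r : ℝ) : ℂ) * u := by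
        have hne : (‖a - b‖ : ℂ) ≠ 0 := by exact_mod_cast hn.ne'
        have h4 : a - b = (‖a - b‖ : ℂ) * u := by
          rw [hu]; field_simp
        push_cast
        rw [add_mul, ← h4]; ring
      rw [h3, norm_mul, hun, mul_one, Complex.norm_real, Real.norm_eq_abs,
        abs_of_nonneg (by positivity)] at h2
      exact h2
  have h1 := key hr hs h.subset
  have h2 := key hs hr h.symm.subset
  have h3 := norm_nonneg (a - b)
  have h4 := norm_nonneg (b - a)
  refine ⟨?_, by linarith⟩
  have : ‖a - b‖ = 0 := by linarith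
  exact sub_eq_zero.1 (norm_eq_zero.1 this)

/-- the frontier of a closed disc determines its centre -/
theorem center_mem_of_frontier {a b : ℂ} {r s : ℝ} (hr : 0 ≤ r)
    (h : frontier (closedBall a r) ⊆ closedBall b s) : a ∈ closedBall b s := by
  rcases hr.eq_or_lt with h0 | h0
  · subst h0
    apply h
    rw [closedBall_zero]
    rw [frontier, closure_singleton, interior_singleton]
    simp
  · have hf : ∀ w : ℂ, ‖w‖ = r → a + w ∈ closedBall b s := by
      intro w hw
      apply h
      rw [frontier_closedBall a h0.ne', mem_sphere, dist_eq_norm, add_sub_cancel_left, hw]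
    have h1 := hf (r : ℂ) (by simp [abs_of_pos h0])
    have h2 := hf (-(r : ℂ)) (by simp [abs_of_pos h0])
    have h3 := (convex_closedBall b s) h1 h2 (a := 1 / 2) (b := 1 / 2) (by norm_num) (by norm_num)
      (by norm_num)
    have h4 : (1 / 2 : ℝ) • (a + (r : ℂ)) + (1 / 2 : ℝ) • (a + -(r : ℂ)) = a := by
      simp only [Complex.real_smul]
      push_cast
      ring
    rwa [h4] at h3

section

variable {U : Set ℂ} {f : ℂ → ℂ}

/-- the chosen data at a point of the complement -/
theorem exists_data (h : EndMap U (f '' U) f) (hV : IsCircleDomainFinitePart (f '' U)) {z : ℂ}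
    (hz : z ∉ U) : ∃ (c' : ℂ) (R : ℝ) (ζ : ℂ), ζ ∉ f '' U ∧ map f (eF U z) = eF (f '' U) ζ ∧
      0 ≤ R ∧ connectedComponentIn (f '' U)ᶜ ζ = closedBall c' R := by
  obtain ⟨ζ, hζ, he⟩ := h.exists_end hz
  obtain ⟨c, r, hr, hc⟩ := hV.2 ζ hζ
  exact ⟨c, r, ζ, hζ, he, hr, hc⟩

open Classical in
/-- centre of the image component -/
noncomputable def cen (U : Set ℂ) (f : ℂ → ℂ) (z : ℂ) : ℂ :=
  if hz : ∃ (c' : ℂ) (R : ℝ) (ζ : ℂ), ζ ∉ f '' U ∧ map f (eF U z) = eF (f '' U) ζ ∧
      0 ≤ R ∧ connectedComponentIn (f '' U)ᶜ ζ = closedBall c' R then hz.choose else 0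

open Classical in
/-- radius of the image component -/
noncomputable def rad (U : Set ℂ) (f : ℂ → ℂ) (z : ℂ) : ℝ :=
  if hz : ∃ (c' : ℂ) (R : ℝ) (ζ : ℂ), ζ ∉ f '' U ∧ map f (eF U z) = eF (f '' U) ζ ∧
      0 ≤ R ∧ connectedComponentIn (f '' U)ᶜ ζ = closedBall c' R then hz.choose_spec.choose else 0

theorem cen_spec (h : EndMap U (f '' U) f) (hV : IsCircleDomainFinitePart (f '' U)) {z : ℂ}
    (hz : z ∉ U) : ∃ ζ : ℂ, ζ ∉ f '' U ∧ map f (eF U z) = eF (f '' U) ζ ∧
      0 ≤ rad U f z ∧ connectedComponentIn (f '' U)ᶜ ζ = closedBall (cen U f z) (rad U f z) := by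
  have he := exists_data h hV hz
  rw [cen, rad, dif_pos he, dif_pos he]
  exact he.choose_spec.choose_spec

theorem rad_nonneg (h : EndMap U (f '' U) f) (hV : IsCircleDomainFinitePart (f '' U)) {z : ℂ}
    (hz : z ∉ U) : 0 ≤ rad U f z := (cen_spec h hV hz).choose_spec.2.2.1

/-- the data depend on the component only -/
theorem cen_congr (h : EndMap U (f '' U) f) (hV : IsCircleDomainFinitePart (f '' U)) {z z' : ℂ}
    (hz : z ∉ U) (hz' : z' ∉ U) (he : connectedComponentIn Uᶜ z = connectedComponentIn Uᶜ z') :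
    cen U f z = cen U f z' ∧ rad U f z = rad U f z' := by
  obtain ⟨ζ, hζ, h1, h2, h3⟩ := cen_spec h hV hz
  obtain ⟨ζ', hζ', h1', h2', h3'⟩ := cen_spec h hV hz'
  have h4 : eF (f '' U) ζ = eF (f '' U) ζ' := by rw [← h1, ← h1', eF_congr he]
  have h5 := cc_eq_of_eF_le h.hV hζ h4.le
  rw [h3, h3'] at h5
  exact closedBall_inj h2 h2' h5

/-- different components have disjoint images -/
theorem disjoint_image (h : EndMap U (f '' U) f) (hV : IsCircleDomainFinitePart (f '' U))
    {z z' : ℂ} (hz : z ∉ U) (hz' : z' ∉ U)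
    (he : connectedComponentIn Uᶜ z ≠ connectedComponentIn Uᶜ z') :
    Disjoint (closedBall (cen U f z) (rad U f z)) (closedBall (cen U f z') (rad U f z')) := by
  obtain ⟨ζ, hζ, h1, h2, h3⟩ := cen_spec h hV hz
  obtain ⟨ζ', hζ', h1', h2', h3'⟩ := cen_spec h hV hz'
  rw [← h3, ← h3', disjoint_left]
  intro w hw hw'
  have h4 : connectedComponentIn (f '' U)ᶜ ζ = connectedComponentIn (f '' U)ᶜ ζ' :=
    (connectedComponentIn_eq hw).trans (connectedComponentIn_eq hw').symm
  apply he
  refine h.map_injective hz ?_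
  rw [h1, h1', eF_congr h4]

theorem image_subset (h : EndMap U (f '' U) f) (hV : IsCircleDomainFinitePart (f '' U))
    {z : ℂ} (hz : z ∉ U) : closedBall (cen U f z) (rad U f z) ⊆ (f '' U)ᶜ := by
  obtain ⟨ζ, hζ, h1, h2, h3⟩ := cen_spec h hV hz
  rw [← h3]
  exact connectedComponentIn_subset _ _

open Classical in
/-- the extension of `f` by the centres -/
noncomputable def ext (U : Set ℂ) (f : ℂ → ℂ) (z : ℂ) : ℂ := if z ∈ U then f z else cen U f z

theorem ext_of_mem {z : ℂ} (hz : z ∈ U) : ext U f z = f z := if_pos hz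

theorem ext_of_not_mem {z : ℂ} (hz : z ∉ U) : ext U f z = cen U f z := if_neg hz

/-- **near a component the extension is close to the image disc** -/
theorem near (h : EndMap U (f '' U) f) (hV : IsCircleDomainFinitePart (f '' U))
    {z : ℂ} (hz : z ∉ U) {ε : ℝ} (hε : 0 < ε) : ∃ N : Set ℂ, IsOpen N ∧
      connectedComponentIn Uᶜ z ⊆ N ∧ ∀ w ∈ N, ‖ext U f w - cen U f z‖ ≤ rad U f z + ε := by
  obtain ⟨ζ, hζ, h1, h2, h3⟩ := cen_spec h hV hz
  set c' := cen U f z
  set R := rad U f z
  have hT : closedBall c' (R + ε) ∈ eF (f '' U) ζ := by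
    refine mem_inf_of_left ?_
    rw [h3]
    refine mem_of_superset ((isOpen_ball (x := c') (ε := R + ε)).mem_nhdsSet.2 ?_)
      ball_subset_closedBall
    exact closedBall_subset_ball (by linarith)
  rw [← h1] at hT
  obtain ⟨N', hN', hN'o, hN'K⟩ : ∃ N' : Set ℂ, (∀ w ∈ N', w ∈ U → f w ∈ closedBall c' (R + ε)) ∧
      IsOpen N' ∧ connectedComponentIn Uᶜ z ⊆ N' := by
    have h5 := mem_inf_principal.1 (show f ⁻¹' closedBall c' (R + ε) ∈ eF U z from hT)
    obtain ⟨W, hWo, hMW, hWT⟩ := mem_nhdsSet_iff_exists.1 h5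
    exact ⟨W, fun w hw hwU => hWT hw hwU, hWo, hMW⟩
  obtain ⟨B, hBc, hBc', hBU, hKB, hBN⟩ := exists_clopen (isCompact_compl h.hU)
    (show z ∈ Uᶜ from hz) hN'o hN'K
  have hP : Piece Uᶜ B := ⟨hBU, hBc, hBc'⟩
  refine ⟨N' ∩ (Uᶜ \ B)ᶜ, hN'o.inter hBc'.isClosed.isOpen_compl, fun w hw => ⟨hN'K hw, fun hm =>
    hm.2 (hKB hw)⟩, ?_⟩
  rintro w ⟨hwN, hwB⟩
  by_cases hwU : w ∈ U
  · rw [ext_of_mem hwU]
    have := hN' w hwN hwU
    rwa [mem_closedBall, dist_eq_norm] at this
  · rw [ext_of_not_mem hwU]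
    have hwB' : w ∈ B := by
      by_contra hn; exact hwB ⟨hwU, hn⟩
    obtain ⟨ζ', hζ', g1, g2, g3⟩ := cen_spec h hV hwU
    have hsub : frontier (closedBall (cen U f w) (rad U f w)) ⊆ closedBall c' (R + ε) := by
      rw [← g3]
      intro x hx
      have hcl := clusterPt_eF_of_frontier h.hV hx
      rw [← g1] at hcl
      have hm : closedBall c' (R + ε) ∈ map f (eF U w) := by
        rw [mem_map]
        refine mem_inf_principal.2 ?_
        refine mem_of_superset (hN'o.mem_nhdsSet.2 ((hP.cc_subset hwB').trans hBN)) ?_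
        intro y hy hyU
        exact hN' y hy hyU
      have := hcl.mem_closure_of_mem _ hm
      rwa [isClosed_closedBall.closure_eq] at this
    have := center_mem_of_frontier g2 hsub
    rwa [mem_closedBall, dist_eq_norm] at this

/-- continuity of the extension at the points which are point components with point images -/
theorem continuousAt_ext (h : EndMap U (f '' U) f) (hV : IsCircleDomainFinitePart (f '' U))
    {z : ℂ} (hz : z ∉ U) (hr : rad U f z = 0) : ContinuousAt (ext U f) z := by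
  rw [Metric.continuousAt_iff']
  intro ε hε
  obtain ⟨N, hN, hKN, hw⟩ := near h hV hz (half_pos hε)
  filter_upwards [hN.mem_nhds (hKN (mem_connectedComponentIn hz))] with w hwN
  rw [dist_eq_norm, ext_of_not_mem hz]
  have := hw w hwN
  rw [hr] at this
  linarith

end

end Crest.Agent.R105.Cen_985
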