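import Crest.Agent.R105.Cen1_985
import Crest.Agent.R105.Ar4_222
import Crest.Agent.R105.Pth2_988

/-!
# Row 105 (S0139): CEN, part 2 (helper985)

The countable family of components and the data `Dat` of a conformal map between circle domains.
-/

set_option autoImplicit false

open Set Filter Metric Topology MeasureTheory
open Crest.AnalysisR

namespace Crest.Agent.R105.Cen_985

open Crest.Agent.R105.Ends_897 Crest.Agent.R105.Rd_557

/-- radii of disjoint discs in a set of finite area are square summable -/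
theorem summable_sq {ι : Type} {c : ι → ℂ} {r : ι → ℝ} (hr : ∀ i, 0 ≤ r i) {X : Set ℂ}
    (hX : volume X ≠ ⊤) (hd : Pairwise fun i j => Disjoint (closedBall (c i) (r i))
      (closedBall (c j) (r j))) (hs : ∀ i, closedBall (c i) (r i) ⊆ X) [Countable ι] :
    Summable fun i => r i ^ 2 := by
  have h4 : volume (⋃ i, closedBall (c i) (r i)) = ∑' i, ENNReal.ofReal (Real.pi * r i ^ 2) := by
    rw [measure_iUnion hd fun i => measurableSet_closedBall]
    congr 1
    funext i
    rw [Complex.volume_closedBall, ENNReal.ofReal_mul Real.pi_pos.le, mul_comm,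
      ENNReal.ofReal_pow (hr i)]
    congr 1
    rw [← NNReal.coe_real_pi, ENNReal.ofReal_coe_nnreal]
  have h5 : ∑' i, ENNReal.ofReal (Real.pi * r i ^ 2) ≠ ⊤ := by
    rw [← h4]
    exact ((measure_mono (iUnion_subset hs)).trans_lt (lt_top_iff_ne_top.2 hX)).ne
  have h6 : Summable fun i => Real.pi * r i ^ 2 := by
    have := ENNReal.summable_toReal h5
    refine this.congr fun i => ?_
    exact ENNReal.toReal_ofReal (by positivity)
  have h7 := h6.mul_left (Real.pi)⁻¹
  refine h7.congr fun i => ?_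
  rw [← mul_assoc, inv_mul_cancel₀ Real.pi_pos.ne', one_mul]

/-- finiteness of the energy on bounded sets -/
theorem integrableOn_deriv {U : Set ℂ} {f : ℂ → ℂ} (h : EndMap U (f '' U) f)
    (hf : DifferentiableOn ℂ f U) (T : ℝ) :
    IntegrableOn (fun z => ‖deriv f z‖ ^ 2) (U ∩ closedBall 0 T) := by
  obtain ⟨ρ, hρ⟩ := h.bdd (T + 1)
  have ho : IsOpen (U ∩ ball (0 : ℂ) (T + 1)) := h.hU.1.inter isOpen_ball
  have h1 : IntegrableOn (fun _ : ℂ => (1 : ℝ)) (f '' (U ∩ ball (0 : ℂ) (T + 1))) := by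
    refine integrableOn_const (hs := ?_)
    have hsub : f '' (U ∩ ball (0 : ℂ) (T + 1)) ⊆ closedBall 0 ρ := by
      rintro _ ⟨z, ⟨hz, hz'⟩, rfl⟩
      rw [mem_closedBall_zero_iff]
      refine hρ z hz ?_
      rw [mem_ball_zero_iff] at hz'
      exact hz'.le
    exact ((measure_mono hsub).trans_lt measure_closedBall_lt_top).ne
  rw [Pth_988.integrableOn_image ho (hf.mono inter_subset_left)
    (h.inj.mono inter_subset_left)] at h1
  simp only [mul_one] at h1
  refine h1.mono_set ?_
  rintro z ⟨hz, hz'⟩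
  refine ⟨hz, ?_⟩
  rw [mem_closedBall_zero_iff] at hz'
  rw [mem_ball_zero_iff]
  linarith

/-- the index set -/
def Idx (U : Set ℂ) (f : ℂ → ℂ) : Set (ℂ × ℝ) :=
  {p | p.1 ∉ U ∧ 0 ≤ p.2 ∧ connectedComponentIn Uᶜ p.1 = closedBall p.1 p.2 ∧
    (0 < p.2 ∨ 0 < rad U f p.1)}

section

variable {U : Set ℂ} {f : ℂ → ℂ}

theorem Idx.disj (i j : Idx U f) (hij : i ≠ j) :
    connectedComponentIn Uᶜ i.1.1 ≠ connectedComponentIn Uᶜ j.1.1 := by
  intro h
  rw [i.2.2.2.1, j.2.2.2.1] at h
  obtain ⟨h1, h2⟩ := closedBall_inj i.2.2.1 j.2.2.1 h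
  exact hij (Subtype.ext (Prod.ext h1 h2))

theorem cc_disjoint {z z' : ℂ} (h : connectedComponentIn Uᶜ z ≠ connectedComponentIn Uᶜ z') :
    Disjoint (connectedComponentIn Uᶜ z) (connectedComponentIn Uᶜ z') := by
  rw [disjoint_left]
  intro w hw hw'
  exact h ((connectedComponentIn_eq hw).trans (connectedComponentIn_eq hw').symm)

theorem Idx.countable (h : EndMap U (f '' U) f) (hV : IsCircleDomainFinitePart (f '' U)) :
    (Idx U f).Countable := by
  have h1 : {p ∈ Idx U f | 0 < p.2}.Countable := by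
    refine PairwiseDisjoint.countable_of_nonempty_interior (s := fun p : ℂ × ℝ =>
      closedBall p.1 p.2) ?_ ?_
    · intro p hp q hq hpq
      have := cc_disjoint (Idx.disj ⟨p, hp.1⟩ ⟨q, hq.1⟩ (fun he => hpq (congrArg Subtype.val he)))
      rwa [hp.1.2.2.1, hq.1.2.2.1] at this
    · intro p hp
      rw [interior_closedBall _ hp.2.ne']
      exact ⟨p.1, mem_ball_self hp.2⟩
  have h2 : {p ∈ Idx U f | 0 < rad U f p.1}.Countable := by
    refine PairwiseDisjoint.countable_of_nonempty_interior (s := fun p : ℂ × ℝ =>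
      closedBall (cen U f p.1) (rad U f p.1)) ?_ ?_
    · intro p hp q hq hpq
      exact disjoint_image h hV hp.1.1 hq.1.1
        (Idx.disj ⟨p, hp.1⟩ ⟨q, hq.1⟩ (fun he => hpq (congrArg Subtype.val he)))
    · intro p hp
      rw [interior_closedBall _ hp.2.ne']
      exact ⟨_, mem_ball_self hp.2⟩
  refine (h1.union h2).mono fun p hp => ?_
  rcases hp.2.2.2 with h3 | h3
  · exact Or.inl ⟨hp, h3⟩
  · exact Or.inr ⟨hp, h3⟩

/-- a point of the complement outside the listed components is a point component with a point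
image -/
theorem dust_spec (h : EndMap U (f '' U) f) (hU : IsCircleDomainFinitePart U)
    (hV : IsCircleDomainFinitePart (f '' U)) {z : ℂ} (hz : z ∉ U)
    (hn : ∀ i : Idx U f, z ∉ closedBall i.1.1 i.1.2) :
    connectedComponentIn Uᶜ z = {z} ∧ rad U f z = 0 := by
  obtain ⟨c, r, hr, hc⟩ := hU.2 z hz
  have hcm : c ∈ connectedComponentIn Uᶜ z := by rw [hc]; exact mem_closedBall_self hr
  have hcU : c ∉ U := connectedComponentIn_subset _ _ hcm
  have hce : connectedComponentIn Uᶜ c = closedBall c r := by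
    rw [← connectedComponentIn_eq hcm, hc]
  have hcr := cen_congr h hV hz hcU (by rw [hc, hce])
  have hnot : (c, r) ∉ Idx U f := by
    intro hm
    refine hn ⟨(c, r), hm⟩ ?_
    show z ∈ closedBall c r
    rw [← hc]
    exact mem_connectedComponentIn hz
  have h1 : ¬ (0 < r ∨ 0 < rad U f c) := fun hh => hnot ⟨hcU, hr, hce, hh⟩
  push Not at h1
  have hr0 : r = 0 := le_antisymm h1.1 hr
  have hz0 : z ∈ closedBall c r := by rw [← hc]; exact mem_connectedComponentIn hz
  rw [hr0, closedBall_zero] at hz0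
  have hzc : z = c := hz0
  refine ⟨?_, ?_⟩
  · rw [hc, hr0, closedBall_zero, hzc]
  · rw [hcr.2]
    exact le_antisymm h1.2 (rad_nonneg h hV hcU)

theorem comp_spec (i : Idx U f) {z : ℂ} (hz : z ∈ closedBall i.1.1 i.1.2) :
    z ∉ U ∧ connectedComponentIn Uᶜ z = closedBall i.1.1 i.1.2 := by
  have h1 : z ∈ connectedComponentIn Uᶜ i.1.1 := by rw [i.2.2.2.1]; exact hz
  refine ⟨connectedComponentIn_subset _ _ h1, ?_⟩
  rw [← connectedComponentIn_eq h1, i.2.2.2.1]

theorem mem_frontier_of_cc {z : ℂ} (hz : z ∉ U)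
    (h : connectedComponentIn Uᶜ z = {z}) : z ∈ frontier U := by
  rw [← frontier_compl]
  refine ⟨subset_closure hz, fun hi => ?_⟩
  obtain ⟨ε, hε, hb⟩ := Metric.isOpen_iff.1 isOpen_interior z hi
  have h1 : ball z ε ⊆ connectedComponentIn Uᶜ z :=
    (convex_ball z ε).isPreconnected.subset_connectedComponentIn (mem_ball_self hε)
      (hb.trans interior_subset)
  rw [h] at h1
  have h2 : z + ((ε / 2 : ℝ) : ℂ) ∈ ball z ε := by
    rw [mem_ball, dist_eq_norm, add_sub_cancel_left, Complex.norm_real, Real.norm_eq_abs,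
      abs_of_pos (half_pos hε)]
    exact half_lt_self hε
  have h3 : z + ((ε / 2 : ℝ) : ℂ) = z := h1 h2
  have h4 : ((ε / 2 : ℝ) : ℂ) = 0 := by
    have := congrArg (fun w => w - z) h3
    simpa using this
  have h5 : ε / 2 = 0 := by exact_mod_cast h4
  linarith

/-- **CEN** -/
theorem cenP : CenP := by
  intro U V hU hV hrem f hf hinj hUV hinf
  subst hUV
  have hE : EndMap U (f '' U) f := EndMap.of_holo hU.1 hf hinj
    (Crest.Agent.R105.Red_828.tendsto_cocompact_of_tendsto_sub hinf)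
  obtain ⟨L0, hL0⟩ := hU.1.2.2
  have hL : Uᶜ ⊆ closedBall 0 (max L0 1) := by
    intro z hz
    rw [mem_closedBall_zero_iff]
    by_contra hcon
    exact hz (hL0 z (lt_of_le_of_lt (le_max_left _ _) (not_le.1 hcon)))
  have hfr : IsCompact (frontier U) := by
    rw [← frontier_compl]
    exact (isCompact_compl hU.1).of_isClosed_subset isClosed_frontier
      (by
        have := frontier_subset_closure (s := Uᶜ)
        rwa [hU.1.1.isClosed_compl.closure_eq] at this)
  have hnul : volume (frontier U) = 0 := Ar4_222.volume_zero_of_removable hfr hrem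
  have hcnt : Countable (Idx U f) := (Idx.countable hE hV).to_subtype
  have hdisj : Pairwise fun i j : Idx U f =>
      Disjoint (closedBall i.1.1 i.1.2) (closedBall j.1.1 j.1.2) := by
    intro i j hij
    have := cc_disjoint (Idx.disj i j hij)
    rwa [i.2.2.2.1, j.2.2.2.1] at this
  have hdisj' : Pairwise fun i j : Idx U f =>
      Disjoint (closedBall (cen U f i.1.1) (rad U f i.1.1))
        (closedBall (cen U f j.1.1) (rad U f j.1.1)) := by
    intro i j hij
    exact disjoint_image hE hV i.2.1 j.2.1 (Idx.disj i j hij)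
  have hR0 : ∀ i : Idx U f, 0 ≤ rad U f i.1.1 := fun i => rad_nonneg hE hV i.2.1
  have hfin : ∀ {W : Set ℂ}, IsExteriorDomain W → volume Wᶜ ≠ ⊤ := fun hW =>
    (isCompact_compl hW).measure_lt_top.ne
  have hsr : Summable fun i : Idx U f => i.1.2 ^ 2 :=
    summable_sq (c := fun i : Idx U f => i.1.1) (fun i => i.2.2.1) (hfin hU.1) hdisj
      (fun i z hz => (comp_spec i hz).1)
  have hsR : Summable fun i : Idx U f => rad U f i.1.1 ^ 2 :=
    summable_sq (c := fun i : Idx U f => cen U f i.1.1) hR0 (hfin hV.1) hdisj'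
      (fun i => image_subset hE hV i.2.1)
  have hval : ∀ i : Idx U f, ∀ z ∈ closedBall i.1.1 i.1.2, ext U f z = cen U f i.1.1 := by
    intro i z hz
    obtain ⟨h1, h2⟩ := comp_spec i hz
    rw [ext_of_not_mem h1]
    exact (cen_congr hE hV h1 i.2.1 (by rw [h2, i.2.2.2.1])).1
  have hnearC : ∀ i : Idx U f, ∀ ε > 0, ∃ N : Set ℂ, IsOpen N ∧ closedBall i.1.1 i.1.2 ⊆ N ∧
      ∀ w ∈ N, ‖ext U f w - cen U f i.1.1‖ ≤ rad U f i.1.1 + ε := by
    intro i ε hε
    obtain ⟨N, h1, h2, h3⟩ := near hE hV i.2.1 hε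
    rw [i.2.2.2.1] at h2
    exact ⟨N, h1, h2, h3⟩
  have hdust : ∀ z ∉ U, (∀ i : Idx U f, z ∉ closedBall i.1.1 i.1.2) →
      connectedComponentIn Uᶜ z = {z} ∧ ContinuousAt (ext U f) z := by
    intro z hz hn
    obtain ⟨h1, h2⟩ := dust_spec hE hU hV hz hn
    exact ⟨h1, continuousAt_ext hE hV hz h2⟩
  have hC1 : ContDiffOn ℝ 1 (ext U f) U := by
    have h1 : ContDiffOn ℂ 1 f U := hf.contDiffOn hU.1.1
    have h2 : ContDiffOn ℝ 1 f U := h1.restrict_scalars ℝ
    exact h2.congr fun z hz => ext_of_mem hz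
  have mk : ∀ (ℓ : ℂ →L[ℝ] ℝ), (∀ w, |ℓ w| ≤ ‖w‖) → DatR U (max L0 1)
      (fun i : Idx U f => i.1.1) (fun i => i.1.2) (fun i => ℓ (cen U f i.1.1))
      (fun i => rad U f i.1.1) (fun z => ℓ (ext U f z)) := by
    intro ℓ hℓ
    refine ⟨hU.1, hL, hcnt, fun i => i.2.2.1, hR0, fun i => i.2.2.2.2, fun i z hz =>
      comp_spec i hz, hdisj, ?_, ?_, ?_, ?_, hsr, hsR⟩
    · intro z hz hn
      obtain ⟨h1, h2⟩ := hdust z hz hn
      exact ⟨h1, ℓ.continuous.continuousAt.comp h2⟩
    · intro i z hz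
      simp only [hval i z hz]
    · intro i ε hε
      obtain ⟨N, h1, h2, h3⟩ := hnearC i ε hε
      refine ⟨N, h1, h2, fun w hw => ?_⟩
      rw [← map_sub]
      exact (hℓ _).trans (h3 w hw)
    · exact ℓ.contDiff.comp_contDiffOn hC1
  refine ⟨max L0 1, Idx U f, fun i => i.1.1, fun i => i.1.2, fun i => cen U f i.1.1,
    fun i => rad U f i.1.1, ext U f, ?_⟩
  exact {
    re := mk Complex.reCLM (fun w => Complex.abs_re_le_norm w)
    im := mk Complex.imCLM (fun w => Complex.abs_im_le_norm w)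
    hf := hf
    inj := hinj
    inf := hinf
    eq := fun z hz => ext_of_mem hz
    nearC := hnearC
    en := integrableOn_deriv hE hf
    nul := hnul
    vol := fun z hz hn => mem_frontier_of_cc hz (hdust z hz hn).1
    disj' := hdisj'
    img := fun i => image_subset hE hV i.2.1 }

end

end Crest.Agent.R105.Cen_985
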