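import Crest.Agent.R105.Cq3_463

/-!
# Row 105 (S0138, picture with solids): cost of `u z` on one side of a level line

`cost`: `u` Lipschitz along segments off finitely many hairs, vanishing at the line
`{σ y = B}`, `z` a cut-off on the side `W = {B < σ y}` with small energy; then `u z` (extended by
`0` across the line) lies in the class `CFJ 𝓗 univ` and its energy with charges is controlled.
-/

set_option autoImplicit false

namespace Crest.Agent.R105.Clc_72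

open Set Filter MeasureTheory Topology Metric
open Crest.Agent.R105.CF_363 Crest.Agent.R105.Stp_722 Crest.Agent.R105.Cq_463
open scoped ENNReal

variable {E : Set (ℝ × ℝ)} {𝒬 : Set Sqr} {𝓗 : Set Hair} {σ B : ℝ}

/-- one side of the level line -/
def Sd (σ B : ℝ) : Set (ℝ × ℝ) := {p | B < σ * p.2}

theorem mem_Sd {p : ℝ × ℝ} : p ∈ Sd σ B ↔ B < σ * p.2 := Iff.rfl

theorem isOpen_Sd (σ B : ℝ) : IsOpen (Sd σ B) :=
  isOpen_lt continuous_const (continuous_const.mul continuous_snd)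

theorem isClosed_cl (σ B : ℝ) : IsClosed {p : ℝ × ℝ | B ≤ σ * p.2} :=
  isClosed_le continuous_const (continuous_const.mul continuous_snd)

theorem closure_Sd_sub : closure (Sd σ B) ⊆ {p : ℝ × ℝ | B ≤ σ * p.2} :=
  closure_minimal (fun p (hp : B < σ * p.2) => (le_of_lt hp : B ≤ σ * p.2)) (isClosed_cl σ B)

theorem convex_Sd (σ B : ℝ) : Convex ℝ (Sd σ B) := by
  intro p hp q hq a b ha hb hab
  rw [mem_Sd] at hp hq ⊢
  show B < σ * (a • p + b • q).2
  simp only [Prod.snd_add, Prod.smul_snd, smul_eq_mul]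
  have e : σ * (a * p.2 + b * q.2) = a * (σ * p.2) + b * (σ * q.2) := by ring
  rw [e]
  rcases ha.eq_or_lt with rfl | ha'
  · have : b = 1 := by linarith
    subst this; linarith
  · have h1 : a * B < a * (σ * p.2) := mul_lt_mul_of_pos_left hp ha'
    have h2 : b * B ≤ b * (σ * q.2) := mul_le_mul_of_nonneg_left hq.le hb
    have h3 : B = a * B + b * B := by rw [← add_mul, hab, one_mul]
    linarith

theorem sgn_sq (hσ : σ = 1 ∨ σ = -1) : σ * σ = 1 := by rcases hσ with rfl | rfl <;> norm_num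

theorem sgn_dist (hσ : σ = 1 ∨ σ = -1) (p q : ℝ × ℝ) : σ * p.2 - σ * q.2 ≤ dist p q := by
  have h : |p.2 - q.2| ≤ dist p q := by
    rw [← Real.dist_eq, Prod.dist_eq]; exact le_max_right _ _
  have h' := abs_le.1 h
  rcases hσ with rfl | rfl <;> linarith [h'.1, h'.2]

/-- the level line is a null set -/
theorem volume_line (hσ : σ = 1 ∨ σ = -1) : volume {p : ℝ × ℝ | σ * p.2 = B} = 0 := by
  have h : {p : ℝ × ℝ | σ * p.2 = B} ⊆ univ ×ˢ {σ * B} := by
    rintro p (hp : σ * p.2 = B)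
    refine ⟨mem_univ _, ?_⟩
    show p.2 = σ * B
    rw [← hp, ← mul_assoc, sgn_sq hσ, one_mul]
  refine measure_mono_null h ?_
  rw [Measure.volume_eq_prod, Measure.prod_prod]; simp

/-- the function `u z`, extended by `0` -/
noncomputable def ext (σ B : ℝ) (u z : ℝ × ℝ → ℝ) (p : ℝ × ℝ) : ℝ :=
  if B < σ * p.2 then u p * z p else 0

variable {J : Finset Hair} {u z : ℝ × ℝ → ℝ} {L A C ε : ℝ} {S : Set (ℝ × ℝ)}

theorem ext_of_mem {p : ℝ × ℝ} (hp : p ∈ Sd σ B) : ext σ B u z p = u p * z p := if_pos hp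

theorem ext_of_notMem {p : ℝ × ℝ} (hp : p ∉ Sd σ B) : ext σ B u z p = 0 := if_neg hp

theorem abs_ext_le (hA : 0 ≤ A) (huA : ∀ p, |u p| ≤ A) (hz01 : ∀ p, 0 ≤ z p ∧ z p ≤ 1)
    (p : ℝ × ℝ) : |ext σ B u z p| ≤ A := by
  by_cases hp : p ∈ Sd σ B
  · rw [ext_of_mem hp, abs_mul, abs_of_nonneg (hz01 p).1]
    calc |u p| * z p ≤ A * 1 := mul_le_mul (huA p) (hz01 p).2 (hz01 p).1 hA
      _ = A := mul_one A
  · rw [ext_of_notMem hp, abs_zero]; exact hA

theorem ext_supp (hzS : ∀ p, B < σ * p.2 → p ∉ S → z p = 0) {p : ℝ × ℝ} (hp : p ∉ S) :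
    ext σ B u z p = 0 := by
  by_cases hpW : p ∈ Sd σ B
  · rw [ext_of_mem hpW, hzS p hpW hp, mul_zero]
  · exact ext_of_notMem hpW

/-- near the line `u z` is small -/
theorem abs_ext_le_line (hC : 0 ≤ C) (hu0 : ∀ p, |u p| ≤ C * max 0 (σ * p.2 - B))
    (hz01 : ∀ p, 0 ≤ z p ∧ z p ≤ 1) {p : ℝ × ℝ} (hp : p ∈ Sd σ B) :
    |ext σ B u z p| ≤ C * (σ * p.2 - B) := by
  have h0 : 0 ≤ σ * p.2 - B := by have := mem_Sd.1 hp; linarith
  have h1 : |u p| ≤ C * (σ * p.2 - B) := by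
    have := hu0 p; rwa [max_eq_right h0] at this
  rw [ext_of_mem hp, abs_mul, abs_of_nonneg (hz01 p).1]
  calc |u p| * z p ≤ (C * (σ * p.2 - B)) * 1 :=
        mul_le_mul h1 (hz01 p).2 (hz01 p).1 (mul_nonneg hC h0)
    _ = _ := mul_one _

theorem ext_cfj (hσ : σ = 1 ∨ σ = -1) (hJ : ∀ K ∈ J, K ∈ 𝓗) (hA : 0 ≤ A)
    (hC : 0 ≤ C) (hu : SL (univ \ cut J) L u) (huA : ∀ p, |u p| ≤ A)
    (hu0 : ∀ p, |u p| ≤ C * max 0 (σ * p.2 - B)) (hz : CFJ 𝓗 (Sd σ B) z)
    (hz01 : ∀ p, 0 ≤ z p ∧ z p ≤ 1) : CFJ 𝓗 univ (ext σ B u z) := by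
  classical
  obtain ⟨Jz, hJz, Lz, Cz, hLz, hz1, -⟩ := hz
  refine ⟨J ∪ Jz, fun K hK => ?_, max (A * Lz + 1 * L) C, A, le_max_of_le_right hC, ?_,
    fun p _ => abs_ext_le hA huA hz01 p⟩
  · rcases Finset.mem_union.1 hK with h | h
    · exact hJ K h
    · exact hJz K h
  · have hm : SL (Sd σ B \ cut (J ∪ Jz)) (A * Lz + 1 * L) (fun p => u p * z p) := by
      refine SL.mul (hu.mono ?_) (hz1.mono ?_) (fun p _ => huA p) (fun p _ => ?_)
      · exact sdiff_subset_sdiff (subset_univ _) (cut_mono Finset.subset_union_left)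
      · exact sdiff_subset_sdiff (Subset.refl _) (cut_mono Finset.subset_union_right)
      · rw [abs_of_nonneg (hz01 p).1]; exact (hz01 p).2
    have mixed : ∀ p q : ℝ × ℝ, p ∈ Sd σ B → q ∉ Sd σ B →
        |ext σ B u z p - ext σ B u z q| ≤ max (A * Lz + 1 * L) C * dist p q := by
      intro p q hp hq
      rw [ext_of_notMem hq, sub_zero]
      refine (abs_ext_le_line hC hu0 hz01 hp).trans ?_
      have h1 : σ * p.2 - B ≤ dist p q := by
        have := sgn_dist hσ p q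
        have h2 : σ * q.2 ≤ B := not_lt.1 hq
        linarith
      calc C * (σ * p.2 - B) ≤ C * dist p q := mul_le_mul_of_nonneg_left h1 hC
        _ ≤ _ := mul_le_mul_of_nonneg_right (le_max_right _ _) dist_nonneg
    intro p q hpq
    by_cases hp : p ∈ Sd σ B
    · by_cases hq : q ∈ Sd σ B
      · rw [ext_of_mem hp, ext_of_mem hq]
        have := hm p q (fun r hr => ⟨(convex_Sd σ B).segment_subset hp hq hr, (hpq hr).2⟩)
        exact this.trans (mul_le_mul_of_nonneg_right (le_max_left _ _) dist_nonneg)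
      · exact mixed p q hp hq
    · by_cases hq : q ∈ Sd σ B
      · rw [abs_sub_comm, dist_comm]; exact mixed q p hq hp
      · rw [ext_of_notMem hp, ext_of_notMem hq, sub_zero, abs_zero]
        exact mul_nonneg (le_max_of_le_right hC) dist_nonneg

/-! ### energy -/

theorem En_ext_le (hE : QPic E 𝒬 𝓗) (hσ : σ = 1 ∨ σ = -1) (hJ : ∀ K ∈ J, K ∈ 𝓗) (hL : 0 ≤ L)
    (hA : 0 ≤ A) (hC : 0 ≤ C) (hu : SL (univ \ cut J) L u) (huA : ∀ p, |u p| ≤ A)
    (hu0 : ∀ p, |u p| ≤ C * max 0 (σ * p.2 - B)) (hz : CFJ 𝓗 (Sd σ B) z)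
    (hz01 : ∀ p, 0 ≤ z p ∧ z p ≤ 1) (hS : IsCompact S)
    (hzS : ∀ p, B < σ * p.2 → p ∉ S → z p = 0) :
    En (univ \ E) (ext σ B u z) ≤
      2 * A ^ 2 * En (Sd σ B \ E) z + 4 * L ^ 2 * (volume (S \ E)).toReal := by
  obtain ⟨R0, hR0, hSR, hR0v⟩ := exists_box hS
  have hEc := hE.cpt.isClosed
  have hWo := isOpen_Sd σ B
  set R := (Sd σ B \ E) ∩ R0 with hRdef
  set R1 := (univ \ E) ∩ R0 with hR1def
  have hRo : IsOpen R := (hWo.sdiff hEc).inter hR0
  have hR1o : IsOpen R1 := (isOpen_univ.sdiff hEc).inter hR0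
  have hRR1 : R ⊆ R1 := fun p hp => ⟨⟨mem_univ _, hp.1.2⟩, hp.2⟩
  have hRv : volume R ≠ ∞ := ne_top_of_le_ne_top hR0v (measure_mono inter_subset_right)
  have e1 : En R1 (ext σ B u z) = En (univ \ E) (ext σ B u z) :=
    En_inter_supp (isOpen_univ.sdiff hEc) hS.isClosed (fun p _ hp => ext_supp hzS hp) hSR
  have e2 : En R z = En (Sd σ B \ E) z :=
    En_inter_supp (hWo.sdiff hEc) hS.isClosed (fun p hp hpS => hzS p hp.1 hpS) hSR
  have e3 : En R1 (ext σ B u z) = En R (ext σ B u z) := by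
    unfold En
    refine setIntegral_eq_of_subset_of_ae_sdiff_eq_zero hR1o.measurableSet.nullMeasurableSet
      hRR1 ?_
    filter_upwards [measure_eq_zero_iff_ae_notMem.mp (volume_line (B := B) hσ)] with p hp hpR
    have hlt : σ * p.2 < B := by
      refine lt_of_le_of_ne (not_lt.1 fun h => hpR.2 ⟨⟨h, hpR.1.1.2⟩, hpR.1.2⟩) hp
    have ho : IsOpen {q : ℝ × ℝ | σ * q.2 < B} :=
      isOpen_lt (continuous_const.mul continuous_snd) continuous_const
    have : ext σ B u z =ᶠ[𝓝 p] fun _ => 0 := by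
      filter_upwards [ho.mem_nhds hlt] with q hq
      exact ext_of_notMem (not_lt.2 (le_of_lt hq))
    simp [g2, gx_congr this, gy_congr this]
  rw [← e1, ← e2, e3]
  have hfC : CFJ 𝓗 univ (ext σ B u z) := ext_cfj hσ hJ hA hC hu huA hu0 hz hz01
  have hfR : CFJ 𝓗 R (ext σ B u z) := hfC.mono (Subset.refl _) (subset_univ _)
  have hzR : CFJ 𝓗 R z := hz.mono (Subset.refl _) (fun p hp => hp.1.1)
  have hif := hfR.integrableOn_g2 hRo hRv
  have hiz := hzR.integrableOn_g2 hRo hRv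
  have hud : ∀ᵐ p ∂(volume.restrict R), DifferentiableAt ℝ u p :=
    ae_restrict_of_diff hRo (volume_cut J)
      ((hu.mono (sdiff_subset_sdiff_left (subset_univ R))).ae_differentiableAt (μ := volume)
        (isOpen_diff_cut hRo J))
  have hind : IntegrableOn (S.indicator fun _ => 4 * L ^ 2) R :=
    (integrableOn_const hRv).indicator hS.isClosed.measurableSet
  have key : En R (ext σ B u z) ≤
      ∫ p in R, (2 * A ^ 2 * g2 z p + S.indicator (fun _ => 4 * L ^ 2) p) := by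
    unfold En
    refine integral_mono_ae hif ((hiz.const_mul _).add hind) ?_
    filter_upwards [hud, hzR.ae_differentiableAt hRo, ae_restrict_mem hRo.measurableSet,
      ae_restrict_of_ae (measure_eq_zero_iff_ae_notMem.mp (volume_cut J))] with p h1 h2 hp hpJ
    show g2 (ext σ B u z) p ≤ 2 * A ^ 2 * g2 z p + S.indicator (fun _ => 4 * L ^ 2) p
    by_cases hpS : p ∈ S
    · rw [indicator_of_mem hpS]
      have hloc : ext σ B u z =ᶠ[𝓝 p] fun q => u q * z q := by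
        filter_upwards [hWo.mem_nhds hp.1.1] with q hq
        exact ext_of_mem hq
      have e : g2 (ext σ B u z) p = g2 (fun q => u q * z q) p := by
        simp only [g2, gx_congr hloc, gy_congr hloc]
      rw [e]
      refine (g2_mul_le h1 h2).trans ?_
      have a1 := huA p
      have a2 : u p ^ 2 ≤ A ^ 2 := sq_le_sq' (by linarith [abs_le.mp a1]) (abs_le.mp a1).2
      have b2 : z p ^ 2 ≤ 1 := by nlinarith [(hz01 p).1, (hz01 p).2]
      have g1 := g2_nonneg u p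
      have g3 := g2_nonneg z p
      have g4 : g2 u p ≤ 2 * L ^ 2 :=
        hu.g2_le (isOpen_diff_cut isOpen_univ J) hL ⟨mem_univ _, hpJ⟩
      nlinarith [mul_le_mul_of_nonneg_right a2 g3, mul_le_mul_of_nonneg_right b2 g1]
    · rw [indicator_of_notMem hpS, add_zero]
      have hloc : ext σ B u z =ᶠ[𝓝 p] fun _ => 0 := by
        filter_upwards [hS.isClosed.isOpen_compl.mem_nhds hpS] with q hq
        exact ext_supp hzS hq
      have e : g2 (ext σ B u z) p = 0 := by simp [g2, gx_congr hloc, gy_congr hloc]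
      rw [e]
      have := g2_nonneg z p
      positivity
  refine key.trans ?_
  rw [integral_add (hiz.const_mul _) hind, integral_const_mul,
    setIntegral_indicator hS.isClosed.measurableSet, setIntegral_const, smul_eq_mul]
  refine add_le_add le_rfl ?_
  rw [mul_comm]
  refine mul_le_mul_of_nonneg_left ?_ (by positivity)
  refine ENNReal.toReal_mono (ne_top_of_le_ne_top hS.measure_lt_top.ne
    (measure_mono sdiff_subset)) (measure_mono fun p hp => ⟨hp.2, hp.1.1.2⟩)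

/-! ### charges -/

/-- near a corner `(Q.x, σ B)` of a square crossing the level there are points off `E` above the
level -/
theorem exists_near (hE : QPic E 𝒬 𝓗) (hσ : σ = 1 ∨ σ = -1) {Q : Sqr} (hQ : Q ∈ 𝒬)
    (h1 : Q.y ≤ σ * B) (h2 : σ * B ≤ Q.y + Q.s) {δ : ℝ} (hδ : 0 < δ) :
    ∃ r : ℝ × ℝ, r ∉ E ∧ dist r (Q.x, σ * B) < δ ∧ r ∈ Sd σ B ∧ σ * r.2 - B < δ := by
  set D : Set (ℝ × ℝ) := {p | Q.x - δ < p.1 ∧ p.1 < Q.x ∧ B < σ * p.2 ∧ σ * p.2 < B + δ} with hD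
  have hss := sgn_sq hσ
  by_contra hno
  push Not at hno
  have hDE : D ⊆ E := by
    intro p hp
    by_contra hpE
    obtain ⟨a1, a2, a3, a4⟩ := hp
    have hd : dist p (Q.x, σ * B) < δ := by
      rw [Prod.dist_eq, Real.dist_eq, Real.dist_eq]
      refine max_lt (abs_lt.2 ⟨by linarith, by linarith⟩) ?_
      have e : p.2 - σ * B = σ * (σ * p.2 - B) := by
        rw [mul_sub, ← mul_assoc, hss, one_mul]
      show |p.2 - σ * B| < δ
      rw [e, abs_mul, abs_of_pos (show 0 < σ * p.2 - B by linarith)]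
      have : |σ| = 1 := by rcases hσ with rfl | rfl <;> norm_num
      rw [this]; linarith
    have := hno p hpE hd a3
    linarith
  have hDo : IsOpen D := by
    have c1 : Continuous fun p : ℝ × ℝ => σ * p.2 := continuous_const.mul continuous_snd
    exact (isOpen_lt continuous_const continuous_fst).inter
      ((isOpen_lt continuous_fst continuous_const).inter
        ((isOpen_lt continuous_const c1).inter (isOpen_lt c1 continuous_const)))
  have hDc : Convex ℝ D := by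
    have e : D = Ioo (Q.x - δ) Q.x ×ˢ {t : ℝ | B < σ * t ∧ σ * t < B + δ} := by
      ext p; simp only [hD, mem_ofPred_eq, mem_prod, mem_Ioo, and_assoc]
    rw [e]
    refine (convex_Ioo _ _).prod ?_
    have hlin : IsLinearMap ℝ fun t : ℝ => σ * t := IsLinearMap.isLinearMap_smul σ
    exact (convex_halfSpace_gt hlin B).inter (convex_halfSpace_lt hlin (B + δ))
  have hpt : ∀ t : ℝ, 0 < t → t < δ → (Q.x - t, σ * (B + t)) ∈ D := by
    intro t ht htδ
    have e : σ * (σ * (B + t)) = B + t := by rw [← mul_assoc, hss, one_mul]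
    refine ⟨by dsimp only; linarith, by dsimp only; linarith, ?_, ?_⟩
    · show B < σ * (σ * (B + t)); rw [e]; linarith
    · show σ * (σ * (B + t)) < B + δ; rw [e]; linarith
  have hcl : (Q.x, σ * B) ∈ closure D := by
    have ht : Tendsto (fun t : ℝ => (Q.x - t, σ * (B + t))) (𝓝[>] 0) (𝓝 (Q.x, σ * B)) := by
      have hc : Continuous fun t : ℝ => (Q.x - t, σ * (B + t)) := by fun_prop
      have := (hc.tendsto 0).mono_left (nhdsWithin_le_nhds (s := Ioi 0))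
      simpa using this
    refine mem_closure_of_tendsto ht ?_
    filter_upwards [Ioo_mem_nhdsGT hδ] with t ht
    exact hpt t ht.1 ht.2
  have hQm : (Q.x, σ * B) ∈ Q.car := ⟨⟨le_rfl, by have := Q.hs; dsimp only; linarith⟩, h1, h2⟩
  -- `D` meets a square
  have hpos : 0 < volume D := hDo.measure_pos volume ⟨_, hpt (δ / 2) (by linarith) (by linarith)⟩
  obtain ⟨Q', hQ', hm⟩ : ∃ Q' ∈ 𝒬, (D ∩ Q'.car).Nonempty := by
    by_contra hc
    push Not at hc
    have : D ⊆ E \ ⋃ Q ∈ 𝒬, Q.car := by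
      intro p hp
      refine ⟨hDE hp, fun h => ?_⟩
      obtain ⟨Q', hQ', hpQ'⟩ := mem_iUnion₂.1 h
      have := hc Q' hQ'
      exact (this ▸ (⟨hp, hpQ'⟩ : p ∈ D ∩ Q'.car) : p ∈ (∅ : Set (ℝ × ℝ)))
    exact hpos.ne' (measure_mono_null this hE.null)
  have hP : IsPreconnected (insert (Q.x, σ * B) D) :=
    hDc.isPreconnected.subset_closure (subset_insert _ _)
      (insert_subset hcl subset_closure)
  have heq : Q = Q' := by
    refine hE.sep (insert (Q.x, σ * B) D) ?_ hP Q hQ Q' hQ' ⟨_, mem_insert _ _, hQm⟩ ?_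
    · exact insert_subset (hE.sub Q hQ hQm) hDE
    · obtain ⟨p, hp, hp'⟩ := hm
      exact ⟨p, mem_insert_of_mem _ hp, hp'⟩
  obtain ⟨p, hp, hp'⟩ := hm
  rw [← heq] at hp'
  have := hp'.1.1
  linarith [hp.2.1]

/-- the charge of `u z` at a square which does not meet the cut -/
theorem ch_ext_le (hE : QPic E 𝒬 𝓗) (hσ : σ = 1 ∨ σ = -1) (hL : 0 ≤ L)
    (hA : 0 ≤ A) (hC : 0 ≤ C) (hu : SL (univ \ cut J) L u) (huA : ∀ p, |u p| ≤ A)
    (hu0 : ∀ p, |u p| ≤ C * max 0 (σ * p.2 - B)) (hz : CFJ 𝓗 (Sd σ B) z)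
    (hz01 : ∀ p, 0 ≤ z p ∧ z p ≤ 1) {Q : Sqr} (hQ : Q ∈ 𝒬) (hQJ : Disjoint Q.car (cut J)) :
    ch E univ (ext σ B u z) Q ≤ A * ch E (Sd σ B) z Q + L * Q.s := by
  set c := ch E (Sd σ B) z Q with hc
  have hc0 : 0 ≤ c := ch_nonneg _ _ _ _
  have hWo := isOpen_Sd σ B
  have hosc : OscLe (Eᶜ ∩ Sd σ B) (Q.car ∩ closure (Sd σ B)) z c := (CFJ.fin hE hz _).oscLe
  have huo : OscLe univ Q.car u (L * diam Q.car) :=
    SL_oscLe hu hL convex_univ (isClosed_cut J) (Subset.refl _) Q.isCompact_car Q.convex_car hQJ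
  have huo' : OscLe univ Q.car u (L * Q.s) :=
    huo.mono (mul_le_mul_of_nonneg_left Q.diam_le hL)
  have hsimp : ch E univ (ext σ B u z) Q = chg (Eᶜ ∩ univ) (Q.car ∩ closure univ) (ext σ B u z) :=
    rfl
  rw [hsimp, closure_univ, inter_univ, inter_univ]
  refine chg_le (by have := Q.hs; positivity) ?_
  intro ε hε
  obtain ⟨O1, hO1, hP1, H1⟩ := hosc (ε / (4 * (A + 1))) (by positivity)
  obtain ⟨O2, hO2, hP2, H2⟩ := huo' (ε / 4) (by positivity)
  have hA1 : A * (ε / (4 * (A + 1))) ≤ ε / 4 := by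
    rw [mul_div_assoc', div_le_div_iff₀ (by positivity) (by norm_num)]; nlinarith
  -- both points above the level
  have both : ∀ q, q ∈ O1 → q ∈ O2 → q ∈ Eᶜ → q ∈ Sd σ B → ∀ q', q' ∈ O1 → q' ∈ O2 → q' ∈ Eᶜ →
      q' ∈ Sd σ B → |ext σ B u z q - ext σ B u z q'| ≤ A * c + L * Q.s + ε / 2 := by
    intro q a1 a2 a3 a4 q' b1 b2 b3 b4
    rw [ext_of_mem a4, ext_of_mem b4]
    have k1 := H1 q ⟨a1, a3, a4⟩ q' ⟨b1, b3, b4⟩
    have k2 := H2 q ⟨a2, mem_univ _⟩ q' ⟨b2, mem_univ _⟩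
    have e : u q * z q - u q' * z q' = u q * (z q - z q') + z q' * (u q - u q') := by ring
    rw [e]
    refine (abs_add_le _ _).trans ?_
    rw [abs_mul, abs_mul, abs_of_nonneg (hz01 q').1]
    have k3 : |u q| * |z q - z q'| ≤ A * (c + ε / (4 * (A + 1))) :=
      mul_le_mul (huA q) k1 (abs_nonneg _) hA
    have k4 : z q' * |u q - u q'| ≤ 1 * (L * Q.s + ε / 4) :=
      mul_le_mul (hz01 q').2 k2 (abs_nonneg _) zero_le_one
    linarith [mul_add A c (ε / (4 * (A + 1)))]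
  -- open set, general part
  by_cases hQW : Q.car ⊆ Sd σ B
  · -- `Q` above the level
    refine ⟨O1 ∩ O2 ∩ Sd σ B, (hO1.inter hO2).inter hWo, ?_, ?_⟩
    · exact subset_inter (subset_inter (fun p hp => hP1 ⟨hp, subset_closure (hQW hp)⟩) hP2) hQW
    · rintro q ⟨⟨⟨a1, a2⟩, a4⟩, a3⟩ q' ⟨⟨⟨b1, b2⟩, b4⟩, b3⟩
      have := both q a1 a2 a3 a4 q' b1 b2 b3 b4
      linarith
  by_cases hQc : Q.car ∩ {p : ℝ × ℝ | B ≤ σ * p.2} = ∅
  · -- `Q` below the level
    refine ⟨{p : ℝ × ℝ | B ≤ σ * p.2}ᶜ, (isClosed_cl σ B).isOpen_compl, ?_, ?_⟩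
    · intro p hp hp'
      exact (hQc ▸ (⟨hp, hp'⟩ : p ∈ Q.car ∩ {p : ℝ × ℝ | B ≤ σ * p.2}) :
        p ∈ (∅ : Set (ℝ × ℝ)))
    · rintro q ⟨a1, -⟩ q' ⟨b1, -⟩
      have n1 : q ∉ Sd σ B := fun h => a1 (show B ≤ σ * q.2 from le_of_lt h)
      have n2 : q' ∉ Sd σ B := fun h => b1 (show B ≤ σ * q'.2 from le_of_lt h)
      rw [ext_of_notMem n1, ext_of_notMem n2, sub_zero, abs_zero]
      have := Q.hs
      positivity
  · -- `Q` crosses the level
    obtain ⟨p1, hp1, hp1W⟩ := nonempty_iff_ne_empty.2 hQc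
    obtain ⟨p2, hp2, hp2W⟩ := not_subset.1 hQW
    have hp1W : B ≤ σ * p1.2 := hp1W
    have hp2W : σ * p2.2 ≤ B := not_lt.1 hp2W
    have g1 := hp1.2
    have g2 := hp2.2
    have hlev : Q.y ≤ σ * B ∧ σ * B ≤ Q.y + Q.s := by
      obtain ⟨g11, g12⟩ := g1
      obtain ⟨g21, g22⟩ := g2
      rcases hσ with rfl | rfl
      · constructor <;> linarith
      · constructor <;> linarith
    obtain ⟨hl1, hl2⟩ := hlev
    have hQm : (Q.x, σ * B) ∈ Q.car := ⟨⟨le_rfl, by have := Q.hs; dsimp only; linarith⟩, hl1, hl2⟩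
    -- the corner lies in the closure of the side
    have hcl : (Q.x, σ * B) ∈ closure (Sd σ B) := by
      rw [Metric.mem_closure_iff]
      intro δ hδ
      obtain ⟨r, -, hr, hrW, -⟩ := exists_near hE hσ hQ hl1 hl2 hδ
      exact ⟨r, hrW, by rw [dist_comm]; exact hr⟩
    have hnb : O1 ∩ O2 ∈ 𝓝 (Q.x, σ * B) :=
      (hO1.inter hO2).mem_nhds ⟨hP1 ⟨hQm, hcl⟩, hP2 hQm⟩
    obtain ⟨δ0, hδ0, hball⟩ := Metric.mem_nhds_iff.1 hnb
    have hCC : C * (ε / (4 * (C + 1))) ≤ ε / 4 := by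
      rw [mul_div_assoc', div_le_div_iff₀ (by positivity) (by norm_num)]; nlinarith
    obtain ⟨r, hrE, hr, hrW, hrs⟩ := exists_near hE hσ hQ hl1 hl2
      (lt_min hδ0 (show 0 < ε / (4 * (C + 1)) by positivity))
    have hrO := hball (show r ∈ ball (Q.x, σ * B) δ0 from lt_of_lt_of_le hr (min_le_left _ _))
    have hfr : |ext σ B u z r| ≤ ε / 4 := by
      refine (abs_ext_le_line hC hu0 hz01 hrW).trans ?_
      refine (mul_le_mul_of_nonneg_left ((le_of_lt hrs).trans (min_le_right _ _)) hC).trans hCC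
    refine ⟨(O1 ∪ (closure (Sd σ B))ᶜ) ∩ O2,
      (hO1.union isClosed_closure.isOpen_compl).inter hO2, ?_, ?_⟩
    · refine subset_inter (fun p hp => ?_) hP2
      by_cases h : p ∈ closure (Sd σ B)
      · exact Or.inl (hP1 ⟨hp, h⟩)
      · exact Or.inr h
    · have hin : ∀ q, q ∈ O1 ∪ (closure (Sd σ B))ᶜ → q ∈ Sd σ B → q ∈ O1 := by
        intro q h1 h2
        rcases h1 with h | h
        · exact h
        · exact absurd (subset_closure h2) h
      have mixed : ∀ q ∈ ((O1 ∪ (closure (Sd σ B))ᶜ) ∩ O2) ∩ Eᶜ, q ∈ Sd σ B →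
          |ext σ B u z q| ≤ A * c + L * Q.s + ε := by
        rintro q ⟨⟨a1, a2⟩, a3⟩ a4
        have k1 := both q (hin q a1 a4) a2 a3 a4 r hrO.1 hrO.2 hrE hrW
        have k2 := abs_le.1 k1
        have k3 := abs_le.1 hfr
        rw [abs_le]; constructor <;> linarith [k2.1, k2.2, k3.1, k3.2]
      intro q hq q' hq'
      by_cases m1 : q ∈ Sd σ B
      · by_cases m2 : q' ∈ Sd σ B
        · have := both q (hin q hq.1.1 m1) hq.1.2 hq.2 m1 q' (hin q' hq'.1.1 m2) hq'.1.2 hq'.2 m2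
          linarith
        · rw [ext_of_notMem m2, sub_zero]; exact mixed q hq m1
      · by_cases m2 : q' ∈ Sd σ B
        · rw [ext_of_notMem m1, zero_sub, abs_neg]; exact mixed q' hq' m2
        · rw [ext_of_notMem m1, ext_of_notMem m2, sub_zero, abs_zero]
          have := Q.hs
          positivity

/-- the charge of `u z` at a square which does not meet the support -/
theorem ch_ext_eq_zero (hS : IsCompact S) (hzS : ∀ p, B < σ * p.2 → p ∉ S → z p = 0) {Q : Sqr}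
    (hQ : ¬ (Q.car ∩ S ∩ {p : ℝ × ℝ | B ≤ σ * p.2}).Nonempty) :
    ch E univ (ext σ B u z) Q = 0 := by
  have ho : IsOpen (S ∩ {p : ℝ × ℝ | B ≤ σ * p.2})ᶜ :=
    (hS.isClosed.inter (isClosed_cl σ B)).isOpen_compl
  refine chg_eq_zero ho (a := 0) ?_ ?_
  · rintro p ⟨hp, -⟩ hp'
    exact hQ ⟨p, ⟨hp, hp'.1⟩, hp'.2⟩
  · rintro p ⟨hp, -⟩
    by_cases h : p ∈ Sd σ B
    · exact ext_supp hzS fun hpS => hp ⟨hpS, (le_of_lt h : B ≤ σ * p.2)⟩
    · exact ext_of_notMem h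

theorem Ch_ext_le (hE : QPic E 𝒬 𝓗) (hσ : σ = 1 ∨ σ = -1) (hJ : ∀ K ∈ J, K ∈ 𝓗) (hL : 0 ≤ L)
    (hA : 0 ≤ A) (hC : 0 ≤ C) (hu : SL (univ \ cut J) L u) (huA : ∀ p, |u p| ≤ A)
    (hu0 : ∀ p, |u p| ≤ C * max 0 (σ * p.2 - B)) (hz : CFJ 𝓗 (Sd σ B) z)
    (hz01 : ∀ p, 0 ≤ z p ∧ z p ≤ 1) (hS : IsCompact S)
    (hzS : ∀ p, B < σ * p.2 → p ∉ S → z p = 0)
    {T : ℝ} (hT0 : 0 ≤ T) (hT : ∀ s : Finset 𝒬,
      (∀ Q ∈ s, (Q.1.car ∩ S ∩ {p | B ≤ σ * p.2}).Nonempty) → ∑ Q ∈ s, Q.1.s ^ 2 ≤ T)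
    (hcut : ∀ Q ∈ 𝒬, (Q.car ∩ S ∩ {p | B ≤ σ * p.2}).Nonempty → Disjoint Q.car (cut J)) :
    Ch E univ 𝒬 (ext σ B u z) ≤ 2 * A ^ 2 * Ch E (Sd σ B) 𝒬 z + 2 * L ^ 2 * T := by
  classical
  have hfC : CFJ 𝓗 univ (ext σ B u z) := ext_cfj hσ hJ hA hC hu huA hu0 hz hz01
  set m : 𝒬 → ℝ := fun Q =>
    if (Q.1.car ∩ S ∩ {p | B ≤ σ * p.2}).Nonempty then Q.1.s ^ 2 else 0 with hm
  have hm0 : ∀ Q, 0 ≤ m Q := fun Q => by rw [hm]; dsimp only; split_ifs <;> positivity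
  have hms : Summable m := by
    refine Summable.of_nonneg_of_le hm0 (fun Q => ?_) hE.summable_sq
    rw [hm]; dsimp only; split_ifs
    · exact le_rfl
    · positivity
  have hmT : ∑' Q, m Q ≤ T := by
    refine hms.tsum_le_of_sum_le fun s => ?_
    rw [hm, ← Finset.sum_filter]
    exact hT _ fun Q hQ => (Finset.mem_filter.1 hQ).2
  have hzs := (summable_ch hE (convex_Sd σ B) hz).mul_left (2 * A ^ 2)
  have h2 := hms.mul_left (2 * L ^ 2)
  have key : ∑' Q : 𝒬, ch E univ (ext σ B u z) Q ^ 2 ≤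
      ∑' Q : 𝒬, (2 * A ^ 2 * ch E (Sd σ B) z Q ^ 2 + 2 * L ^ 2 * m Q) := by
    refine Summable.tsum_le_tsum (fun Q => ?_) (summable_ch hE convex_univ hfC) (hzs.add h2)
    by_cases hQ : (Q.1.car ∩ S ∩ {p | B ≤ σ * p.2}).Nonempty
    · have h1 := ch_ext_le hE hσ hL hA hC hu huA hu0 hz hz01 Q.2 (hcut Q.1 Q.2 hQ)
      have h3 := pow_le_pow_left₀ (ch_nonneg _ _ _ _) h1 2
      have h4 : m Q = Q.1.s ^ 2 := if_pos hQ
      rw [h4]
      refine h3.trans ?_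
      nlinarith [sq_nonneg (A * ch E (Sd σ B) z Q - L * Q.1.s)]
    · rw [ch_ext_eq_zero hS hzS hQ, zero_pow two_ne_zero]
      have := hm0 Q
      positivity
  unfold Ch
  refine key.trans ?_
  rw [hzs.tsum_add h2, tsum_mul_left, tsum_mul_left]
  exact add_le_add le_rfl (mul_le_mul_of_nonneg_left hmT (by positivity))

/-- **COST** -/
theorem cost (hE : QPic E 𝒬 𝓗) {σ : ℝ} (hσ : σ = 1 ∨ σ = -1) {B : ℝ} {J : Finset Hair}
    (hJ : ∀ K ∈ J, K ∈ 𝓗) {u : ℝ × ℝ → ℝ} {L A C ε : ℝ} (hL : 0 ≤ L) (hA : 0 ≤ A) (hC : 0 ≤ C)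
    (hu : SL (univ \ cut J) L u) (huA : ∀ p, |u p| ≤ A)
    (hu0 : ∀ p, |u p| ≤ C * max 0 (σ * p.2 - B)) {z : ℝ × ℝ → ℝ} {S : Set (ℝ × ℝ)}
    (hz : CFJ 𝓗 {p | B < σ * p.2} z) (hz01 : ∀ p, 0 ≤ z p ∧ z p ≤ 1) (hS : IsCompact S)
    (hzS : ∀ p, B < σ * p.2 → p ∉ S → z p = 0)
    (hzE : TQ E {p | B < σ * p.2} 𝒬 z ≤ ε) {T : ℝ} (hT0 : 0 ≤ T)
    (hT : ∀ s : Finset 𝒬, (∀ Q ∈ s, (Q.1.car ∩ S ∩ {p | B ≤ σ * p.2}).Nonempty) →
      ∑ Q ∈ s, Q.1.s ^ 2 ≤ T)
    (hcut : ∀ Q ∈ 𝒬, (Q.car ∩ S ∩ {p | B ≤ σ * p.2}).Nonempty → Disjoint Q.car (cut J)) :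
    let f := fun p : ℝ × ℝ => if B < σ * p.2 then u p * z p else 0
    CFJ 𝓗 univ f ∧ (∀ p ∉ S, f p = 0) ∧ (∀ p, |f p| ≤ A) ∧
      TQ E univ 𝒬 f ≤ 2 * A ^ 2 * ε + 4 * L ^ 2 * (volume (S \ E)).toReal + 2 * L ^ 2 * T := by
  intro f
  have e : f = ext σ B u z := rfl
  rw [e]
  refine ⟨ext_cfj hσ hJ hA hC hu huA hu0 hz hz01, fun p hp => ext_supp hzS hp,
    fun p => abs_ext_le hA huA hz01 p, ?_⟩
  have h1 := En_ext_le hE hσ hJ hL hA hC hu huA hu0 hz hz01 hS hzS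
  have h2 := Ch_ext_le hE hσ hJ hL hA hC hu huA hu0 hz hz01 hS hzS hT0 hT hcut
  have h3 : TQ E (Sd σ B) 𝒬 z ≤ ε := hzE
  unfold TQ at h3 ⊢
  have h4 := mul_le_mul_of_nonneg_left h3 (show 0 ≤ 2 * A ^ 2 by positivity)
  rw [mul_add] at h4
  linarith

end Crest.Agent.R105.Clc_72
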