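import Crest.Agent.R105.Sin1_891
import Crest.Agent.R105.Cq3_463

/-!
Row 105 (S0138, picture with solids), task 2398, part 1 (PC-Q): the logarithmic cut-off at a point
for the energy `TQ` with the charges of the squares. The radii are chosen adaptively.
-/

set_option autoImplicit false

open Set Filter MeasureTheory Topology Metric
open scoped ENNReal NNReal

namespace Crest.Agent.R105.Cln_891

open CF_363 Stp_722 Cq_463 Sin_891

variable {E : Set (ℝ × ℝ)} {𝒬 : Set Sqr} {𝓗 : Set Hair} {f g : ℝ × ℝ → ℝ}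

theorem bmp_CF (c : ℝ × ℝ) {r : ℝ} (hr : 0 < r) : CF univ (bmp c r) :=
  ⟨r⁻¹, 1, by positivity, bmp_SL hr univ, fun p _ => by
    rw [abs_of_nonneg (bmp_nonneg _ _ _)]; exact bmp_le_one _ _ _⟩

/-- a square which meets `closedBall c (2 * r)` has a substantial part in `closedBall c (3 * r)`. -/
theorem volume_part (Q : Sqr) {c : ℝ × ℝ} {r : ℝ} (hr : 0 < r)
    (h : (Q.car ∩ closedBall c (2 * r)).Nonempty) :
    ENNReal.ofReal (min Q.s r ^ 2) ≤ volume (Q.car ∩ closedBall c (3 * r)) := by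
  obtain ⟨p, hp, hpc⟩ := h
  obtain ⟨⟨h1, h2⟩, h3, h4⟩ := Sqr.mem_car.1 hp
  set t := min Q.s r with ht
  have ht0 : 0 < t := lt_min Q.hs hr
  have hts : t ≤ Q.s := min_le_left _ _
  have htr : t ≤ r := min_le_right _ _
  let u := min p.1 (Q.x + Q.s - t)
  let v := min p.2 (Q.y + Q.s - t)
  have hu1 : Q.x ≤ u := le_min h1 (by linarith)
  have hv1 : Q.y ≤ v := le_min h3 (by linarith)
  have hu2 : u + t ≤ Q.x + Q.s := by have := min_le_right p.1 (Q.x + Q.s - t); simp only [u]; linarith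
  have hv2 : v + t ≤ Q.y + Q.s := by have := min_le_right p.2 (Q.y + Q.s - t); simp only [v]; linarith
  have hu3 : u ≤ p.1 := min_le_left _ _
  have hv3 : v ≤ p.2 := min_le_left _ _
  have hu4 : p.1 ≤ u + t := by
    rcases min_cases p.1 (Q.x + Q.s - t) with h | h <;> simp only [u] <;> rw [h.1] <;> linarith
  have hv4 : p.2 ≤ v + t := by
    rcases min_cases p.2 (Q.y + Q.s - t) with h | h <;> simp only [v] <;> rw [h.1] <;> linarith
  have hsub : Icc u (u + t) ×ˢ Icc v (v + t) ⊆ Q.car ∩ closedBall c (3 * r) := by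
    rintro q ⟨⟨a1, a2⟩, b1, b2⟩
    refine ⟨Sqr.mem_car.2 ⟨⟨by linarith, by linarith⟩, by linarith, by linarith⟩, ?_⟩
    rw [mem_closedBall] at hpc ⊢
    have h5 : dist q p ≤ r := by
      rw [Prod.dist_eq, Real.dist_eq, Real.dist_eq]
      refine max_le ?_ ?_ <;> rw [abs_le] <;> constructor <;> linarith
    have := dist_triangle q p c
    linarith
  refine le_trans (le_of_eq ?_) (measure_mono hsub)
  rw [Measure.volume_eq_prod, Measure.prod_prod, Real.volume_Icc, Real.volume_Icc,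
    show u + t - u = t by ring, show v + t - v = t by ring, ← ENNReal.ofReal_mul ht0.le, sq]

theorem ch_bmp_eq_zero (c : ℝ × ℝ) {r : ℝ} (hr : 0 < r) {Q : Sqr}
    (h : ¬ (Q.car ∩ closedBall c (2 * r)).Nonempty) : ch E univ (bmp c r) Q = 0 := by
  unfold ch
  refine chg_eq_zero (O := (closedBall c (2 * r))ᶜ) isClosed_closedBall.isOpen_compl ?_
    (a := 0) ?_
  · rintro q ⟨hq, -⟩ hq'
    exact h ⟨q, hq, hq'⟩
  · rintro q ⟨hq, -⟩
    rw [mem_compl_iff, mem_closedBall, not_le] at hq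
    exact bmp_eq_zero hr hq.le

theorem ch_bmp_le (c : ℝ × ℝ) {r : ℝ} (hr : 0 < r) (Q : Sqr) :
    ch E univ (bmp c r) Q ≤ min Q.s r / r := by
  have h1 : ch E univ (bmp c r) Q ≤ r⁻¹ * Q.s :=
    ch_le_of_SL (S := ∅) convex_univ (by positivity) (by rw [sdiff_empty]; exact bmp_SL hr univ)
      isClosed_empty (disjoint_empty _)
  have h2 : ch E univ (bmp c r) Q ≤ 1 := by
    unfold ch
    refine chg_le zero_le_one fun ε hε => ⟨univ, isOpen_univ, subset_univ _, fun q _ q' _ => ?_⟩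
    have := bmp_nonneg c r q
    have := bmp_le_one c r q
    have := bmp_nonneg c r q'
    have := bmp_le_one c r q'
    rw [abs_le]; constructor <;> linarith
  rw [← min_div_div_right hr.le, div_self hr.ne']
  refine le_min ?_ h2
  rw [div_eq_inv_mul]; exact h1

/-- the charges of a bump are bounded by an absolute constant. -/
theorem Ch_bmp_le (hE : QPic E 𝒬 𝓗) (c : ℝ × ℝ) {r : ℝ} (hr : 0 < r) :
    Ch E univ 𝒬 (bmp c r) ≤ 36 := by
  classical
  unfold Ch
  refine Real.tsum_le_of_sum_le (fun _ => sq_nonneg _) fun s => ?_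
  -- comparison with the area
  have h1 : ∀ Q : 𝒬, ENNReal.ofReal (ch E univ (bmp c r) Q ^ 2 * r ^ 2) ≤
      volume (Q.1.car ∩ closedBall c (3 * r)) := by
    intro Q
    by_cases h : (Q.1.car ∩ closedBall c (2 * r)).Nonempty
    · refine le_trans (ENNReal.ofReal_le_ofReal ?_) (volume_part Q.1 hr h)
      have h2 := ch_bmp_le (E := E) c hr Q.1
      have h3 : ch E univ (bmp c r) Q * r ≤ min Q.1.s r := by rwa [le_div_iff₀ hr] at h2
      rw [← mul_pow]
      exact pow_le_pow_left₀ (mul_nonneg (ch_nonneg _ _ _ _) hr.le) h3 2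
    · rw [ch_bmp_eq_zero c hr h]
      simp
  have h2 : ∑ Q ∈ s, volume (Q.1.car ∩ closedBall c (3 * r)) ≤ volume (closedBall c (3 * r)) := by
    rw [← measure_biUnion_finset]
    · exact measure_mono (iUnion₂_subset fun Q _ => inter_subset_right)
    · intro Q _ Q' _ hne
      exact (hE.disjoint Q.2 Q'.2 (fun he => hne (Subtype.ext he))).mono inter_subset_left
        inter_subset_left
    · exact fun Q _ => (Q.1.isCompact_car.measurableSet).inter measurableSet_closedBall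
  have h3 : volume (closedBall c (3 * r)) = ENNReal.ofReal (36 * r ^ 2) := by
    rw [← ENNReal.ofReal_toReal (measure_closedBall_lt_top (μ := volume) (x := c)
      (r := 3 * r)).ne, volume_closedBall_plane c (by positivity)]
    congr 1; ring
  have h4 : ∑ Q ∈ s, ENNReal.ofReal (ch E univ (bmp c r) Q ^ 2 * r ^ 2) ≤
      ENNReal.ofReal (36 * r ^ 2) := by
    rw [← h3]
    exact (Finset.sum_le_sum fun Q _ => h1 Q).trans h2
  rw [← ENNReal.ofReal_sum_of_nonneg (fun Q _ => by positivity),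
    ENNReal.ofReal_le_ofReal_iff (by positivity), ← Finset.sum_mul] at h4
  have hr2 : 0 < r ^ 2 := by positivity
  exact le_of_mul_le_mul_right h4 hr2

/-- energy of a bump -/
theorem En_bmp_le (c : ℝ × ℝ) {r : ℝ} (hr : 0 < r) : En univ (bmp c r) ≤ 32 := by
  have hpt : ∀ p, g2 (bmp c r) p ≤ (closedBall c (2 * r)).indicator (fun _ => 2 * (r⁻¹) ^ 2) p := by
    intro p
    by_cases hp : p ∈ closedBall c (2 * r)
    · rw [indicator_of_mem hp]
      exact (bmp_SL hr univ).g2_le isOpen_univ (by positivity) (mem_univ p)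
    · rw [indicator_of_notMem hp, g2_eq_zero (c := 0)]
      filter_upwards [isClosed_closedBall.isOpen_compl.mem_nhds hp] with q hq
      rw [mem_compl_iff, mem_closedBall, not_le] at hq
      exact bmp_eq_zero hr hq.le
  have hint : Integrable ((closedBall c (2 * r)).indicator
      (fun _ => 2 * (r⁻¹) ^ 2)) volume := by
    rw [integrable_indicator_iff measurableSet_closedBall]
    exact integrableOn_const (measure_closedBall_lt_top.ne)
  unfold En
  rw [setIntegral_univ]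
  refine (integral_mono_of_nonneg (ae_of_all _ fun p => g2_nonneg _ p) hint
    (ae_of_all _ hpt)).trans (le_of_eq ?_)
  rw [integral_indicator measurableSet_closedBall, setIntegral_const, smul_eq_mul,
    Measure.real, volume_closedBall_plane c (by positivity)]
  field_simp
  ring

/-- one adaptive step. -/
theorem step_bmp (hE : QPic E 𝒬 𝓗) {c : ℝ × ℝ} (hc : ∀ Q ∈ 𝒬, c ∉ Q.car) {F : ℝ × ℝ → ℝ}
    (hF : CF univ F) {k ρ : ℝ} (hρ : 0 < ρ) (hFk : ∀ p ∈ closedBall c ρ, F p = k) :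
    ∃ r, 0 < r ∧ 2 * r < ρ ∧
      Ch E univ 𝒬 (fun p => F p + bmp c r p) ≤ Ch E univ 𝒬 F + 73 ∧
      ∀ p, g2 (fun p => F p + bmp c r p) p = g2 F p + g2 (bmp c r) p := by
  classical
  have hFJ : CFJ 𝓗 univ F := hF.cfj
  have hs := summable_ch hE convex_univ hFJ
  -- a finite set which carries almost everything
  obtain ⟨s, hs1⟩ : ∃ s : Finset 𝒬, Ch E univ 𝒬 F - 1 < ∑ Q ∈ s, ch E univ F Q ^ 2 :=
    (hs.hasSum.eventually (lt_mem_nhds (show Ch E univ 𝒬 F - 1 < ∑' Q : 𝒬, ch E univ F Q ^ 2 by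
      unfold Ch; linarith))).exists
  -- the radius
  have hcl : IsClosed (⋃ Q ∈ s, Q.1.car) :=
    s.finite_toSet.isClosed_biUnion fun Q _ => Q.1.isCompact_car.isClosed
  have hcm : c ∈ (⋃ Q ∈ s, Q.1.car)ᶜ := by
    intro h
    obtain ⟨Q, _, hQ⟩ := mem_iUnion₂.1 h
    exact hc Q.1 Q.2 hQ
  obtain ⟨δ, hδ, hδs⟩ := Metric.isOpen_iff.1 hcl.isOpen_compl c hcm
  let r := min ρ δ / 4
  have hm : 0 < min ρ δ := lt_min hρ hδ
  have hr : 0 < r := by simp only [r]; positivity
  have hrρ : 2 * r < ρ := by have := min_le_left ρ δ; simp only [r]; linarith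
  have hrδ : 2 * r < δ := by have := min_le_right ρ δ; simp only [r]; linarith
  have hb : CFJ 𝓗 univ (bmp c r) := (bmp_CF c hr).cfj
  refine ⟨r, hr, hrρ, ?_, ?_⟩
  · have hsb := summable_ch hE convex_univ hb
    have hFb : CFJ 𝓗 univ (fun p => F p + bmp c r p) := hFJ.add hb
    have hsFb := summable_ch hE convex_univ hFb
    let t : 𝒬 → ℝ := fun Q => if Q ∈ s then ch E univ F Q ^ 2 else 0
    have ht : Summable t := summable_of_ne_finset_zero (s := s) fun Q hQ => if_neg hQ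
    have htsum : ∑' Q, t Q = ∑ Q ∈ s, ch E univ F Q ^ 2 := by
      rw [tsum_eq_sum (s := s) fun Q hQ => if_neg hQ]
      exact Finset.sum_congr rfl fun Q hQ => if_pos hQ
    have hpt : ∀ Q : 𝒬, ch E univ (fun p => F p + bmp c r p) Q ^ 2 ≤
        ch E univ F Q ^ 2 + (2 * ch E univ (bmp c r) Q ^ 2 + (ch E univ F Q ^ 2 - t Q)) := by
      intro Q
      have ht0 : 0 ≤ ch E univ F Q ^ 2 - t Q := by
        simp only [t]; split_ifs
        · simp
        · rw [sub_zero]; positivity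
      by_cases hQ : (Q.1.car ∩ closedBall c (2 * r)).Nonempty
      · have hQs : Q ∉ s := by
          intro hQs
          obtain ⟨p, hp, hp'⟩ := hQ
          have : p ∈ ball c δ := by
            rw [mem_closedBall] at hp'; rw [mem_ball]; linarith
          exact hδs this (mem_iUnion₂.2 ⟨Q, hQs, hp⟩)
        have h1 : ch E univ (fun p => F p + bmp c r p) Q ≤
            ch E univ F Q + ch E univ (bmp c r) Q :=
          chg_add (CFJ.fin hE hFJ _) (CFJ.fin hE hb _)
        have h2 := pow_le_pow_left₀ (ch_nonneg _ _ _ _) h1 2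
        have h3 : t Q = 0 := if_neg hQs
        rw [h3]
        nlinarith [sq_nonneg (ch E univ F Q - ch E univ (bmp c r) Q)]
      · have h1 : ch E univ (fun p => F p + bmp c r p) Q = ch E univ F Q := by
          unfold ch
          refine chg_congr (O := (closedBall c (2 * r))ᶜ) isClosed_closedBall.isOpen_compl ?_ ?_
          · rintro q ⟨hq, -⟩ hq'
            exact hQ ⟨q, hq, hq'⟩
          · rintro q ⟨hq, -⟩
            rw [mem_compl_iff, mem_closedBall, not_le] at hq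
            rw [bmp_eq_zero hr hq.le, add_zero]
        rw [h1]
        have := sq_nonneg (ch E univ (bmp c r) Q)
        linarith
    have h1 : Ch E univ 𝒬 (fun p => F p + bmp c r p) ≤
        Ch E univ 𝒬 F + (2 * Ch E univ 𝒬 (bmp c r) + (Ch E univ 𝒬 F - ∑' Q, t Q)) := by
      unfold Ch
      rw [← hs.tsum_sub ht, ← tsum_mul_left, ← (hsb.mul_left 2).tsum_add (hs.sub ht),
        ← hs.tsum_add ((hsb.mul_left 2).add (hs.sub ht))]
      exact Summable.tsum_le_tsum hpt hsFb (hs.add ((hsb.mul_left 2).add (hs.sub ht)))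
    have h2 := Ch_bmp_le hE c hr
    rw [htsum] at h1
    linarith
  · intro p
    by_cases hp : dist p c < ρ
    · have h1 : F =ᶠ[𝓝 p] fun _ => k := by
        filter_upwards [isOpen_ball.mem_nhds (mem_ball.2 hp)] with q hq
        exact hFk q (ball_subset_closedBall hq)
      have h2 : (fun p => F p + bmp c r p) =ᶠ[𝓝 p] fun p => k + bmp c r p := by
        filter_upwards [h1] with q hq
        rw [hq]
      rw [g2_eq_zero h1, zero_add, g2_congr h2]
      simp only [g2, gx, gy, fderiv_const_add]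
    · have h1 : bmp c r =ᶠ[𝓝 p] fun _ => 0 := by
        have : p ∈ (closedBall c (2 * r))ᶜ := by
          rw [mem_compl_iff, mem_closedBall, not_le]; linarith [not_lt.1 hp]
        filter_upwards [isClosed_closedBall.isOpen_compl.mem_nhds this] with q hq
        rw [mem_compl_iff, mem_closedBall, not_le] at hq
        exact bmp_eq_zero hr hq.le
      have h2 : (fun p => F p + bmp c r p) =ᶠ[𝓝 p] F := by
        filter_upwards [h1] with q hq
        rw [hq, add_zero]
      rw [g2_eq_zero h1, add_zero, g2_congr h2]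

/-- the sum of `n` adaptively chosen bumps. -/
theorem exists_sum_bmp (hE : QPic E 𝒬 𝓗) {c : ℝ × ℝ} (hc : ∀ Q ∈ 𝒬, c ∉ Q.car) {ρ₀ : ℝ}
    (hρ₀ : 0 < ρ₀) (n : ℕ) :
    ∃ (F : ℝ × ℝ → ℝ) (ρ : ℝ), 0 < ρ ∧ ρ < ρ₀ ∧ CF univ F ∧ (∀ p, 0 ≤ F p ∧ F p ≤ n) ∧
      (∀ p ∈ closedBall c ρ, F p = n) ∧ (∀ p, ρ₀ ≤ dist p c → F p = 0) ∧
      En univ F ≤ 32 * n ∧ Ch E univ 𝒬 F ≤ 73 * n := by
  induction n with
  | zero =>
    refine ⟨fun _ => 0, ρ₀ / 2, by linarith, by linarith, CF_const 0, fun p => by simp,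
      fun p _ => by simp, fun p _ => rfl, ?_, ?_⟩
    · rw [En_const]; simp
    · have : Ch E univ 𝒬 (fun _ => (0 : ℝ)) = 0 := by
        unfold Ch ch
        simp [chg_const]
      rw [this]; simp
  | succ n ih =>
    obtain ⟨F, ρ, hρ, hρρ, hF, h01, h1, h0, hen, hch⟩ := ih
    obtain ⟨r, hr, hrρ, hch', hg⟩ := step_bmp hE hc hF (k := n) hρ h1
    have hgi : ∀ {f : ℝ × ℝ → ℝ}, CF univ f → (∀ p, ρ₀ + 2 * r ≤ dist p c → f p = 0) →
        Integrable (g2 f) := by
      intro f hf hf0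
      have := integrableOn_g2 isOpen_univ (CF.cfj (𝓗 := ∅) hf)
        (isCompact_closedBall c (ρ₀ + 2 * r)) (fun p _ hp => hf0 p (by
          rw [mem_closedBall, not_le] at hp; exact hp.le))
      simpa using this
    refine ⟨fun p => F p + bmp c r p, r, hr, by linarith, hF.add (bmp_CF c hr), fun p => ?_,
      fun p hp => ?_, fun p hp => ?_, ?_, ?_⟩
    · have := bmp_nonneg c r p
      have := bmp_le_one c r p
      have := h01 p
      push_cast
      constructor <;> linarith [this.1, this.2]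
    · beta_reduce
      rw [h1 p (closedBall_subset_closedBall (by linarith) hp), bmp_eq_one hr (mem_closedBall.1 hp)]
      push_cast; ring
    · beta_reduce
      rw [h0 p hp, zero_add]
      exact bmp_eq_zero hr (by linarith)
    · have h2 : En univ (fun p => F p + bmp c r p) = En univ F + En univ (bmp c r) := by
        unfold En
        simp only [setIntegral_univ]
        rw [← integral_add (hgi hF fun p hp => h0 p (by linarith)) (hgi (bmp_CF c hr)
          fun p hp => bmp_eq_zero hr (by linarith))]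
        exact integral_congr_ae (ae_of_all _ hg)
      rw [h2]
      have := En_bmp_le c hr
      push_cast
      linarith
    · push_cast
      linarith

/-- **logarithmic cut-off at a point, with charges** (PC-Q). -/
theorem exists_point_cut_Q (hE : QPic E 𝒬 𝓗) {c : ℝ × ℝ} (hc : ∀ Q ∈ 𝒬, c ∉ Q.car) {ρ₀ : ℝ}
    (hρ₀ : 0 < ρ₀) {ε : ℝ} (hε : 0 < ε) :
    ∃ (l : ℝ × ℝ → ℝ) (ρ : ℝ), 0 < ρ ∧ ρ < ρ₀ ∧ CF univ l ∧ (∀ p, 0 ≤ l p ∧ l p ≤ 1) ∧
      (∀ p ∈ closedBall c ρ, l p = 1) ∧ (∀ p, ρ₀ ≤ dist p c → l p = 0) ∧ En univ l ≤ ε ∧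
      Ch E univ 𝒬 l ≤ ε ∧ TQ E univ 𝒬 l ≤ ε := by
  obtain ⟨n, hn⟩ := exists_nat_gt (105 / ε)
  have hn0 : 0 < (n : ℝ) := lt_trans (by positivity) hn
  obtain ⟨F, ρ, hρ, hρρ, hF, h01, h1, h0, hen, hch⟩ := exists_sum_bmp hE hc hρ₀ n
  let l : ℝ × ℝ → ℝ := fun p => (n : ℝ)⁻¹ * F p
  have hl : CF univ l := hF.const_mul _
  have hl0 : ∀ p, ρ₀ ≤ dist p c → l p = 0 := fun p hp => by simp only [l]; rw [h0 p hp, mul_zero]
  have hE1 : En univ l ≤ 32 / n := by
    have h2 := (CF.cfj (𝓗 := ∅) hF).En_const_mul isOpen_univ (n : ℝ)⁻¹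
    have h3 : En univ l = ((n : ℝ)⁻¹) ^ 2 * En univ F := h2
    rw [h3]
    have h4 : ((n : ℝ)⁻¹) ^ 2 * En univ F ≤ ((n : ℝ)⁻¹) ^ 2 * (32 * n) := by gcongr
    refine h4.trans (le_of_eq ?_)
    field_simp
  have hC1 : Ch E univ 𝒬 l ≤ 73 / n := by
    have h2 := Ch_comp_le (𝒬 := 𝒬) hE convex_univ hF.cfj (G := fun t => (n : ℝ)⁻¹ * t)
      (abs_nonneg (n : ℝ)⁻¹) (fun s t => by rw [← mul_sub, abs_mul])
    rw [sq_abs] at h2
    refine h2.trans ?_
    have h4 : ((n : ℝ)⁻¹) ^ 2 * Ch E univ 𝒬 F ≤ ((n : ℝ)⁻¹) ^ 2 * (73 * n) := by gcongr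
    refine h4.trans (le_of_eq ?_)
    field_simp
  have h105 : 105 / (n : ℝ) ≤ ε := by
    rw [div_le_iff₀ hn0]; rw [div_lt_iff₀ hε] at hn; linarith
  have h32 : 32 / (n : ℝ) ≤ 105 / n := by gcongr; norm_num
  have h73 : 73 / (n : ℝ) ≤ 105 / n := by gcongr; norm_num
  have hsum : 32 / (n : ℝ) + 73 / n = 105 / n := by rw [← add_div]; norm_num
  refine ⟨l, ρ, hρ, hρρ, hl, fun p => ?_, fun p hp => ?_, hl0, by linarith, by linarith, ?_⟩
  · have h2 := h01 p
    refine ⟨mul_nonneg (inv_nonneg.2 hn0.le) h2.1, ?_⟩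
    change (n : ℝ)⁻¹ * F p ≤ 1
    rw [inv_mul_le_iff₀ hn0, mul_one]
    exact h2.2
  · change (n : ℝ)⁻¹ * F p = 1
    rw [h1 p hp, inv_mul_cancel₀ hn0.ne']
  · have h2 : En (univ \ E) l ≤ En univ l :=
      En_mono isOpen_univ (subset_univ _) (CF.cfj (𝓗 := ∅) hl) (isCompact_closedBall c ρ₀)
        (fun p _ hp => hl0 p (by rw [mem_closedBall, not_le] at hp; exact hp.le))
    unfold TQ
    linarith

end Crest.Agent.R105.Cln_891
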