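import Crest.Agent.R105.Cln1_891

/-!
Row 105 (S0138, picture with solids), task 2398, part 2: geometry of one solid (density of `V` at
the boundary of a square, the function `F` of the abscissa, thin neighbourhoods).
-/

set_option autoImplicit false

open Set Filter MeasureTheory Topology Metric
open scoped ENNReal NNReal

namespace Crest.Agent.R105.Cln_891

open CF_363 Stp_722 Cq_463

variable {E : Set (ℝ × ℝ)} {𝒬 : Set Sqr} {𝓗 : Set Hair}

/-- **density of `V` at a boundary point of a square.** -/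
theorem dens (hE : QPic E 𝒬 𝓗) {Q : Sqr} (hQ : Q ∈ 𝒬) {p : ℝ × ℝ} (hp : p ∈ Q.car)
    {U : Set (ℝ × ℝ)} (hU : IsOpen U) (hUc : IsPreconnected U) (hUn : U.Nonempty)
    (hpU : p ∈ closure U) (hd : Disjoint U Q.car) : (U \ E).Nonempty := by
  by_contra hne
  rw [not_nonempty_iff_eq_empty, sdiff_eq_empty] at hne
  have hpos : 0 < volume U := hU.measure_pos volume hUn
  have h1 : ¬ U ⊆ E \ ⋃ Q ∈ 𝒬, Q.car := fun h =>
    absurd (measure_mono_null h hE.null) hpos.ne'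
  obtain ⟨x, hxU, hx⟩ := not_subset.1 h1
  have hx2 : x ∈ ⋃ Q ∈ 𝒬, Q.car := by
    by_contra h; exact hx ⟨hne hxU, h⟩
  obtain ⟨Q', hQ', hxQ'⟩ := mem_iUnion₂.1 hx2
  have hpre : IsPreconnected (Q.car ∪ insert p U) := by
    refine IsPreconnected.union p hp (mem_insert _ _) Q.convex_car.isPreconnected ?_
    exact hUc.subset_closure (subset_insert _ _)
      (insert_subset hpU subset_closure)
  have hsub : Q.car ∪ insert p U ⊆ E :=
    union_subset (hE.sub Q hQ) (insert_subset (hE.sub Q hQ hp) hne)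
  have := hE.sep _ hsub hpre Q hQ Q' hQ' ⟨p, Or.inl hp, hp⟩ ⟨x, Or.inr (mem_insert_of_mem _ hxU), hxQ'⟩
  subst this
  exact Set.disjoint_left.1 hd hxU hxQ'

/-- one solid: a compact connected part `P` of `E` containing the square `Q`, lying over it;
the cuts which meet `P` stay above or below the square. -/
structure Solid (E : Set (ℝ × ℝ)) (𝒬 : Set Sqr) (𝓗 : Set Hair) (P : Set (ℝ × ℝ)) (Q : Sqr) :
    Prop where
  mem : Q ∈ 𝒬
  cpt : IsCompact P
  pre : IsPreconnected P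
  sub : P ⊆ E
  car : Q.car ⊆ P
  abs : ∀ p ∈ P, Q.x ≤ p.1 ∧ p.1 ≤ Q.x + Q.s
  cuts : ∀ K ∈ 𝓗, (K.car ∩ P).Nonempty → Q.y + Q.s ≤ K.b ∨ K.t ≤ Q.y

variable {P : Set (ℝ × ℝ)} {Q : Sqr}

theorem Solid.eq_of_meets (h : Solid E 𝒬 𝓗 P Q) (hE : QPic E 𝒬 𝓗) {Q' : Sqr} (hQ' : Q' ∈ 𝒬)
    (hm : (P ∩ Q'.car).Nonempty) : Q' = Q := by
  have hn : (P ∩ Q.car).Nonempty := by
    obtain ⟨p, hp⟩ := Q.nonempty
    exact ⟨p, h.car hp, hp⟩
  exact (hE.sep P h.sub h.pre Q h.mem Q' hQ' hn hm).symm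

theorem Solid.disj (h : Solid E 𝒬 𝓗 P Q) (hE : QPic E 𝒬 𝓗) {Q' : Sqr} (hQ' : Q' ∈ 𝒬)
    (hne : Q' ≠ Q) : Disjoint P Q'.car := by
  rw [disjoint_iff_inter_eq_empty]
  by_contra hc
  exact hne (h.eq_of_meets hE hQ' (nonempty_iff_ne_empty.2 hc))

/-- `P` minus the square is null -/
theorem Solid.null (h : Solid E 𝒬 𝓗 P Q) (hE : QPic E 𝒬 𝓗) : volume (P \ Q.car) = 0 := by
  refine measure_mono_null ?_ hE.null
  rintro p ⟨hp, hpQ⟩
  refine ⟨h.sub hp, fun hc => ?_⟩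
  obtain ⟨Q', hQ', hpQ'⟩ := mem_iUnion₂.1 hc
  have := h.eq_of_meets hE hQ' ⟨p, hp, hpQ'⟩
  subst this
  exact hpQ hpQ'

/-- nearest abscissa in the base of the square -/
noncomputable def clp (Q : Sqr) (a : ℝ) : ℝ := max Q.x (min (Q.x + Q.s) a)

theorem clp_mem (Q : Sqr) (a : ℝ) : Q.x ≤ clp Q a ∧ clp Q a ≤ Q.x + Q.s :=
  ⟨le_max_left _ _, max_le (by linarith [Q.hs]) (min_le_left _ _)⟩

theorem clp_of_mem {Q : Sqr} {a : ℝ} (h1 : Q.x ≤ a) (h2 : a ≤ Q.x + Q.s) : clp Q a = a := by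
  unfold clp
  rw [min_eq_right h2, max_eq_right h1]

theorem abs_clp_sub (Q : Sqr) (a b : ℝ) : |clp Q a - clp Q b| ≤ |a - b| := by
  unfold clp
  refine (abs_max_sub_max_le_max _ _ _ _).trans ?_
  rw [sub_self, abs_zero]
  refine max_le (abs_nonneg _) ?_
  refine (abs_min_sub_min_le_max _ _ _ _).trans ?_
  rw [sub_self, abs_zero]
  exact max_le (abs_nonneg _) le_rfl

/-- the nearest abscissa is at least as near as any abscissa of the base -/
theorem abs_sub_clp {Q : Sqr} {a b : ℝ} (h1 : Q.x ≤ b) (h2 : b ≤ Q.x + Q.s) :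
    |a - clp Q a| ≤ |a - b| := by
  unfold clp
  rcases le_total a (Q.x + Q.s) with h | h
  · rw [min_eq_right h]
    rcases le_total Q.x a with h' | h'
    · rw [max_eq_right h', sub_self, abs_zero]; exact abs_nonneg _
    · rw [max_eq_left h', abs_sub_comm, abs_of_nonneg (by linarith), abs_sub_comm,
        abs_of_nonneg (by linarith)]
      linarith
  · rw [min_eq_left h, max_eq_right (by linarith [Q.hs]), abs_of_nonneg (by linarith),
      abs_of_nonneg (by linarith)]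
    linarith

/-- the function of the abscissa read off inside the square -/
noncomputable def FF (Q : Sqr) (y₁ : ℝ) (φ : ℝ × ℝ → ℝ) (p : ℝ × ℝ) : ℝ := φ (clp Q p.1, y₁)

/-- cuts do not reach the interior heights of the square. -/
theorem Solid.notMem_cut (h : Solid E 𝒬 𝓗 P Q) {J : Finset Hair} (hJ : ∀ K ∈ J, K ∈ 𝓗)
    {r : ℝ} (hr : ∀ K ∈ J, Disjoint K.car P → Disjoint K.car (thickening r P))
    {y₁ : ℝ} (h1 : Q.y < y₁) (h2 : y₁ < Q.y + Q.s) {a : ℝ} (ha : |a - clp Q a| < r) :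
    (a, y₁) ∉ cut J := by
  intro hc
  obtain ⟨K, hK, hpK⟩ := mem_cut.1 hc
  obtain ⟨e1, e2, e3⟩ := Hair.mem_car.1 hpK
  by_cases hd : Disjoint K.car P
  · have hm : (a, y₁) ∈ thickening r P := by
      rw [mem_thickening_iff]
      refine ⟨(clp Q a, y₁), h.car (Sqr.mem_car.2 ⟨clp_mem Q a, h1.le, h2.le⟩), ?_⟩
      rw [Prod.dist_eq, Real.dist_eq, dist_self]
      exact max_lt ha ((abs_nonneg _).trans_lt ha)
    exact Set.disjoint_left.1 (hr K hK hd) hpK hm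
  · rw [not_disjoint_iff_nonempty_inter] at hd
    dsimp only at e2 e3
    rcases h.cuts K (hJ K hK) hd with h3 | h3 <;> linarith

theorem segment_hor {a b y : ℝ} {p : ℝ × ℝ} (hp : p ∈ segment ℝ (a, y) (b, y)) :
    p.2 = y ∧ p.1 ∈ uIcc a b := by
  rw [segment_x] at hp
  obtain ⟨x, hx, rfl⟩ := hp
  exact ⟨rfl, hx⟩

theorem segment_ver {a b x : ℝ} {p : ℝ × ℝ} (hp : p ∈ segment ℝ (x, a) (x, b)) :
    p.1 = x ∧ p.2 ∈ uIcc a b := by
  rw [segment_y] at hp
  obtain ⟨y, hy, rfl⟩ := hp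
  exact ⟨rfl, hy⟩

theorem dist_hor (a b y : ℝ) : dist (a, y) (b, y) = |a - b| := by
  rw [Prod.dist_eq, dist_self, Real.dist_eq]
  exact max_eq_left (abs_nonneg _)

theorem dist_ver (x a b : ℝ) : dist (x, a) (x, b) = |a - b| := by
  rw [Prod.dist_eq, dist_self, Real.dist_eq]
  exact max_eq_right (abs_nonneg _)

variable {J : Finset Hair} {L : ℝ} {φ : ℝ × ℝ → ℝ} {y₁ : ℝ}

theorem Solid.FF_lip (h : Solid E 𝒬 𝓗 P Q) (hJ : ∀ K ∈ J, K ∈ 𝓗) (hL : 0 ≤ L)
    (hφ : SL (univ \ cut J) L φ) (h1 : Q.y < y₁) (h2 : y₁ < Q.y + Q.s) (p q : ℝ × ℝ) :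
    |FF Q y₁ φ p - FF Q y₁ φ q| ≤ L * |p.1 - q.1| := by
  obtain ⟨r, hr0, hr⟩ : ∃ r > 0, ∀ K ∈ J, Disjoint K.car P → Disjoint K.car (thickening r P) := by
    have : ∀ K : Hair, ∃ r > 0, Disjoint K.car P → Disjoint K.car (thickening r P) := by
      intro K
      by_cases hd : Disjoint K.car P
      · obtain ⟨r, hr, hrd⟩ := hd.exists_thickenings K.isCompact_car h.cpt.isClosed
        exact ⟨r, hr, fun _ => hrd.mono_left (self_subset_thickening hr _)⟩
      · exact ⟨1, one_pos, fun h => absurd h hd⟩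
    choose ρ hρ hρd using this
    rcases J.eq_empty_or_nonempty with rfl | hne
    · exact ⟨1, one_pos, by simp⟩
    · refine ⟨J.inf' hne ρ, (Finset.lt_inf'_iff hne).2 fun K _ => hρ K, fun K hK hd => ?_⟩
      exact (hρd K hd).mono_right (thickening_mono (Finset.inf'_le _ hK) _)
  have hseg : segment ℝ (clp Q p.1, y₁) (clp Q q.1, y₁) ⊆ univ \ cut J := by
    intro v hv
    refine ⟨mem_univ _, ?_⟩
    obtain ⟨hv2, hv1⟩ := segment_hor hv
    have hm : Q.x ≤ v.1 ∧ v.1 ≤ Q.x + Q.s := by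
      have a1 := clp_mem Q p.1
      have a2 := clp_mem Q q.1
      rw [mem_uIcc] at hv1
      rcases hv1 with hv1 | hv1 <;> constructor <;> linarith [hv1.1, hv1.2, a1.1, a1.2, a2.1, a2.2]
    have : v = (v.1, y₁) := by rw [← hv2]
    rw [this]
    refine h.notMem_cut hJ hr h1 h2 ?_
    rw [clp_of_mem hm.1 hm.2, sub_self, abs_zero]
    exact hr0
  have h3 := hφ _ _ hseg
  rw [dist_hor] at h3
  exact h3.trans (mul_le_mul_of_nonneg_left (abs_clp_sub _ _ _) hL)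

/-- radius of a neighbourhood of `P` which avoids the cuts off `P` -/
theorem exists_rad (hP : IsCompact P) (J : Finset Hair) :
    ∃ r > 0, ∀ K ∈ J, Disjoint K.car P → Disjoint K.car (thickening r P) := by
  have : ∀ K : Hair, ∃ r > 0, Disjoint K.car P → Disjoint K.car (thickening r P) := by
    intro K
    by_cases hd : Disjoint K.car P
    · obtain ⟨r, hr, hrd⟩ := hd.exists_thickenings K.isCompact_car hP.isClosed
      exact ⟨r, hr, fun _ => hrd.mono_left (self_subset_thickening hr _)⟩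
    · exact ⟨1, one_pos, fun h => absurd h hd⟩
  choose ρ hρ hρd using this
  rcases J.eq_empty_or_nonempty with rfl | hne
  · exact ⟨1, one_pos, by simp⟩
  · refine ⟨J.inf' hne ρ, (Finset.lt_inf'_iff hne).2 fun K _ => hρ K, fun K hK hd => ?_⟩
    exact (hρd K hd).mono_right (thickening_mono (Finset.inf'_le _ hK) _)

/-- a nearby abscissa which carries no cut -/
theorem exists_free (hφ : SL (univ \ cut J) L φ) {q : ℝ × ℝ} (hq : q ∉ cut J) {η r : ℝ}
    (hη : 0 < η) (hr : 0 < r) :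
    ∃ a : ℝ, |a - q.1| < r ∧ (∀ K ∈ J, a ≠ K.x) ∧ |φ (a, q.2) - φ q| ≤ η := by
  have hc : ContinuousAt φ q := hφ.continuousAt (isOpen_diff_cut isOpen_univ J) ⟨mem_univ _, hq⟩
  have hc2 : Tendsto (fun a : ℝ => φ (a, q.2)) (𝓝 q.1) (𝓝 (φ q)) := by
    have : Tendsto (fun a : ℝ => (a, q.2)) (𝓝 q.1) (𝓝 q) := by
      have := (continuous_id.prodMk (continuous_const (y := q.2))).tendsto (q.1 : ℝ)
      simpa using this
    exact hc.tendsto.comp this
  have h1 : ∀ᶠ a in 𝓝 q.1, |φ (a, q.2) - φ q| ≤ η := by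
    have := hc2.eventually (Metric.closedBall_mem_nhds (φ q) hη)
    filter_upwards [this] with a ha
    rwa [Real.dist_eq] at ha
  have h2 : ∀ᶠ a in 𝓝 q.1, |a - q.1| < r := by
    filter_upwards [Metric.ball_mem_nhds q.1 hr] with a ha
    rwa [mem_ball, Real.dist_eq] at ha
  have h3 : ∀ᶠ a in 𝓝[≠] q.1, ∀ K ∈ J, a ≠ K.x := by
    rw [Filter.eventually_all_finset]
    intro K _
    by_cases hK : K.x = q.1
    · rw [hK]
      exact self_mem_nhdsWithin
    · have : ∀ᶠ a in 𝓝 q.1, a ≠ K.x := (isOpen_ne).mem_nhds (Ne.symm hK)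
      exact this.filter_mono nhdsWithin_le_nhds
  have h4 := ((h1.and h2).filter_mono (nhdsWithin_le_nhds (s := {q.1}ᶜ))).and h3
  obtain ⟨a, ⟨ha1, ha2⟩, ha3⟩ := h4.exists
  exact ⟨a, ha2, ha3, ha1⟩

/-- **(K1)** near `P`, at heights close to the square, `φ` is close to `FF`. -/
theorem Solid.near_FF (h : Solid E 𝒬 𝓗 P Q) (hJ : ∀ K ∈ J, K ∈ 𝓗) (hJE : ∀ K ∈ J, K.car ⊆ E)
    (hL : 0 ≤ L)
    (hφ : SL (univ \ cut J) L φ) (h1 : Q.y < y₁) (h2 : y₁ < Q.y + Q.s) {δ η : ℝ}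
    (hη : 0 < η) :
    ∃ O, IsOpen O ∧ P ⊆ O ∧ ∀ q ∈ O \ E, |q.2 - y₁| ≤ δ → |φ q - FF Q y₁ φ q| ≤ L * δ + η := by
  obtain ⟨r₀, hr₀, hr⟩ := exists_rad h.cpt J
  set r := min (r₀ / 3) (η / (4 * (L + 1))) with hrdef
  have hr0 : 0 < r := lt_min (by positivity) (by positivity)
  have hr1 : r ≤ r₀ / 3 := min_le_left _ _
  have hr2 : L * r ≤ η / 4 := by
    have e1 : r ≤ η / (4 * (L + 1)) := min_le_right _ _
    have e2 : L * r ≤ L * (η / (4 * (L + 1))) := by gcongr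
    have e3 : L * (η / (4 * (L + 1))) ≤ η / 4 := by
      rw [show L * (η / (4 * (L + 1))) = L * η / (4 * (L + 1)) by ring,
        div_le_div_iff₀ (by positivity) (by norm_num)]
      nlinarith
    linarith
  refine ⟨thickening r P, isOpen_thickening, self_subset_thickening hr0 P, ?_⟩
  rintro q ⟨hq, hqE⟩ hqy
  have hqJ : q ∉ cut J := fun hc => by
    obtain ⟨K, hK, hqK⟩ := mem_cut.1 hc
    exact hqE (hJE K hK hqK)
  obtain ⟨p, hpP, hpq⟩ := mem_thickening_iff.1 hq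
  have hpx := h.abs p hpP
  have hqx : |q.1 - clp Q q.1| < r := by
    refine (abs_sub_clp hpx.1 hpx.2).trans_lt ?_
    have : |q.1 - p.1| ≤ dist q p := by
      rw [Prod.dist_eq, Real.dist_eq]; exact le_max_left _ _
    linarith
  obtain ⟨a, ha1, ha2, ha3⟩ := exists_free hφ hqJ (show 0 < η / 4 by positivity) hr0
  -- vertical
  have hv : |φ (a, q.2) - φ (a, y₁)| ≤ L * |q.2 - y₁| := by
    have := hφ (a, q.2) (a, y₁) (by
      intro v hv
      refine ⟨mem_univ _, fun hc => ?_⟩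
      obtain ⟨K, hK, hvK⟩ := mem_cut.1 hc
      exact ha2 K hK ((segment_ver hv).1.symm.trans (Hair.mem_car.1 hvK).1))
    rwa [dist_ver] at this
  -- horizontal
  have hac : |a - clp Q a| < 2 * r := by
    have e1 : |a - clp Q a| ≤ |a - clp Q q.1| := abs_sub_clp (clp_mem Q q.1).1 (clp_mem Q q.1).2
    have e2 := abs_sub_le a q.1 (clp Q q.1)
    linarith
  have hh : |φ (a, y₁) - φ (clp Q a, y₁)| ≤ L * |a - clp Q a| := by
    have := hφ (a, y₁) (clp Q a, y₁) (by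
      intro v hv
      refine ⟨mem_univ _, ?_⟩
      obtain ⟨hv2, hv1⟩ := segment_hor hv
      have : v = (v.1, y₁) := by rw [← hv2]
      rw [this]
      refine h.notMem_cut hJ hr h1 h2 ?_
      have e1 : |v.1 - clp Q v.1| ≤ |v.1 - clp Q a| := abs_sub_clp (clp_mem Q a).1 (clp_mem Q a).2
      have e2 : |v.1 - clp Q a| ≤ |a - clp Q a| := by
        have := abs_sub_right_of_mem_uIcc hv1
        rwa [abs_sub_comm v.1, abs_sub_comm a]
      linarith)
    rwa [dist_hor] at this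
  -- back to `q`
  have hb : |FF Q y₁ φ (a, q.2) - FF Q y₁ φ q| ≤ L * |a - q.1| := h.FF_lip hJ hL hφ h1 h2 _ _
  have hFa : FF Q y₁ φ (a, q.2) = φ (clp Q a, y₁) := rfl
  rw [hFa] at hb
  have e1 : L * |q.2 - y₁| ≤ L * δ := by gcongr
  have e2 : L * |a - clp Q a| ≤ 2 * (L * r) := by
    have : L * |a - clp Q a| ≤ L * (2 * r) := by gcongr
    linarith
  have e3 : L * |a - q.1| ≤ L * r := by gcongr
  have k1 := abs_le.1 ha3
  have k2 := abs_le.1 hv
  have k3 := abs_le.1 hh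
  have k4 := abs_le.1 hb
  rw [abs_le]
  constructor <;> linarith [k1.1, k1.2, k2.1, k2.2, k3.1, k3.2, k4.1, k4.2]

end Crest.Agent.R105.Cln_891
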