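import Crest.Agent.R105.Cln2_891
import Crest.Agent.R105.Thin1_12
import Crest.Agent.R105.Thin5_891

/-!
Row 105 (S0138, picture with solids), task 2398, part 3: face values, thin neighbourhoods of one
solid, one-sided cut-offs with small oscillation at all other components (nested averaging).
-/

set_option autoImplicit false

open Set Filter MeasureTheory Topology Metric
open scoped ENNReal NNReal

namespace Crest.Agent.R105.Cln_891

open CF_363 Stp_722 Cq_463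

local notation "cc" => connectedComponentIn

variable {E : Set (ℝ × ℝ)} {𝒬 : Set Sqr} {𝓗 : Set Hair} {P : Set (ℝ × ℝ)} {Q : Sqr}
  {J : Finset Hair} {L : ℝ} {φ : ℝ × ℝ → ℝ}

/-- the side: `σ = 1`, `e` = the top, or `σ = -1`, `e` = minus the bottom. -/
def IsSide (Q : Sqr) (σ e : ℝ) : Prop := (σ = 1 ∧ e = Q.y + Q.s) ∨ (σ = -1 ∧ e = -Q.y)

theorem IsSide.sig {σ e : ℝ} (h : IsSide Q σ e) : σ = 1 ∨ σ = -1 := by
  rcases h with ⟨h, -⟩ | ⟨h, -⟩
  · exact Or.inl h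
  · exact Or.inr h

theorem sig_mul {σ : ℝ} (h : σ = 1 ∨ σ = -1) (a : ℝ) : σ * (σ * a) = a := by
  rcases h with rfl | rfl <;> ring

theorem sig_abs {σ : ℝ} (h : σ = 1 ∨ σ = -1) (a b : ℝ) : |σ * a - σ * b| = |a - b| := by
  rcases h with rfl | rfl
  · rw [one_mul, one_mul]
  · rw [show -1 * a - -1 * b = -(a - b) by ring, abs_neg]

theorem IsSide.le {σ e : ℝ} (h : IsSide Q σ e) {p : ℝ × ℝ} (hp : p ∈ Q.car) : σ * p.2 ≤ e := by
  obtain ⟨-, h1, h2⟩ := Sqr.mem_car.1 hp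
  rcases h with ⟨rfl, rfl⟩ | ⟨rfl, rfl⟩ <;> linarith

theorem IsSide.level {σ e : ℝ} (h : IsSide Q σ e) {δ : ℝ} (h0 : 0 < δ) (h1 : δ < Q.s) :
    Q.y < σ * (e - δ) ∧ σ * (e - δ) < Q.y + Q.s := by
  rcases h with ⟨rfl, rfl⟩ | ⟨rfl, rfl⟩ <;> constructor <;> linarith

theorem IsSide.face {σ e : ℝ} (h : IsSide Q σ e) (a : ℝ) : (clp Q a, σ * e) ∈ Q.car := by
  refine Sqr.mem_car.2 ⟨clp_mem Q a, ?_⟩
  have := Q.hs
  rcases h with ⟨rfl, rfl⟩ | ⟨rfl, rfl⟩ <;> constructor <;> dsimp only <;> linarith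

/-- **(K2)**: values of `FF` are close to values of `φ` at points of `V` near the face. -/
theorem Solid.exists_face (h : Solid E 𝒬 𝓗 P Q) (hE : QPic E 𝒬 𝓗) (hJ : ∀ K ∈ J, K ∈ 𝓗)
    (hL : 0 ≤ L) (hφ : SL (univ \ cut J) L φ) {σ e : ℝ} (he : IsSide Q σ e) {δ η : ℝ}
    (hδ : 0 < δ) (hδs : δ < Q.s) (hη : 0 < η) {O : Set (ℝ × ℝ)} (hO : IsOpen O) (hQO : Q.car ⊆ O)
    (p : ℝ × ℝ) :
    ∃ v ∈ O \ E, e < σ * v.2 ∧ σ * v.2 < e + δ ∧
      |φ v - FF Q (σ * (e - δ)) φ p| ≤ L * (2 * δ) + η := by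
  obtain ⟨l1, l2⟩ := he.level hδ hδs
  obtain ⟨O₁, hO₁, hPO₁, hn⟩ := h.near_FF hJ (fun K hK => hE.hsub K (hJ K hK)) hL hφ l1 l2
    (δ := 2 * δ) (half_pos hη)
  set c : ℝ × ℝ := (clp Q p.1, σ * e) with hc
  have hcQ : c ∈ Q.car := he.face _
  obtain ⟨r₀, hr₀, hball⟩ := Metric.isOpen_iff.1 (hO.inter hO₁) c ⟨hQO hcQ, hPO₁ (h.car hcQ)⟩
  set r := min r₀ (min δ (η / (2 * (L + 1)))) with hr
  have hr0 : 0 < r := lt_min hr₀ (lt_min hδ (by positivity))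
  have hr1 : r ≤ δ := (min_le_right _ _).trans (min_le_left _ _)
  have hr2 : L * r ≤ η / 2 := by
    have e1 : r ≤ η / (2 * (L + 1)) := (min_le_right _ _).trans (min_le_right _ _)
    have e2 : L * r ≤ L * (η / (2 * (L + 1))) := by gcongr
    have e3 : L * (η / (2 * (L + 1))) ≤ η / 2 := by
      rw [show L * (η / (2 * (L + 1))) = L * η / (2 * (L + 1)) by ring,
        div_le_div_iff₀ (by positivity) (by norm_num)]
      nlinarith
    linarith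
  have hσ := he.sig
  -- the open half ball
  set U : Set (ℝ × ℝ) := ball c r ∩ {v | e < σ * v.2} with hU
  have hUo : IsOpen U := isOpen_ball.inter
    (isOpen_lt continuous_const (continuous_const.mul continuous_snd))
  have hUc : Convex ℝ U := by
    refine (convex_ball c r).inter ?_
    intro a ha b hb s t hs ht hst
    simp only [mem_ofPred_eq, Prod.snd_add, Prod.smul_snd, smul_eq_mul] at *
    rcases hs.eq_or_lt with rfl | hs'
    · rw [zero_add] at hst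
      subst hst
      simpa using hb
    · have e1 : s * e < s * (σ * a.2) := by gcongr
      have e2 : t * e ≤ t * (σ * b.2) := by gcongr
      have e3 : e = s * e + t * e := by rw [← add_mul, hst, one_mul]
      have e4 : σ * (s * a.2 + t * b.2) = s * (σ * a.2) + t * (σ * b.2) := by ring
      rw [e4]; linarith
  have hin : ∀ t : ℝ, 0 < t → t < r → (clp Q p.1, σ * (e + t)) ∈ U := by
    intro t ht htr
    refine ⟨?_, ?_⟩
    · rw [mem_ball, hc, dist_ver, sig_abs hσ, add_sub_cancel_left, abs_of_pos ht]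
      exact htr
    · change e < σ * (σ * (e + t))
      rw [sig_mul hσ]; linarith
  have hUn : U.Nonempty := ⟨_, hin (r / 2) (by linarith) (by linarith)⟩
  have hcU : c ∈ closure U := by
    rw [Metric.mem_closure_iff]
    intro s hs
    refine ⟨_, hin (min s r / 2) (by have := lt_min hs hr0; linarith)
      (by have := min_le_right s r; linarith), ?_⟩
    rw [dist_comm, hc, dist_ver, sig_abs hσ, add_sub_cancel_left]
    have h1 := lt_min hs hr0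
    rw [abs_of_pos (by linarith)]
    have := min_le_left s r
    linarith
  have hUd : Disjoint U Q.car := by
    rw [Set.disjoint_left]
    intro v hv hvQ
    exact absurd (he.le hvQ) (not_le.2 hv.2)
  obtain ⟨v, hv, hvE⟩ := dens hE h.mem hcQ hUo hUc.isPreconnected hUn hcU hUd
  have hvb : v ∈ ball c r := hv.1
  have hvb' : v ∈ O ∩ O₁ := hball (ball_subset_ball (min_le_left _ _) hvb)
  rw [mem_ball, Prod.dist_eq, max_lt_iff, Real.dist_eq, Real.dist_eq] at hvb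
  have hv2 : |σ * v.2 - e| < r := by
    have := hvb.2
    rw [hc] at this
    rw [← sig_abs hσ, sig_mul hσ] at this
    exact this
  have hv2' : σ * v.2 < e + δ := by have := (abs_lt.1 hv2).2; linarith
  refine ⟨v, ⟨hvb'.1, hvE⟩, hv.2, hv2', ?_⟩
  have k1 := hn v ⟨hvb'.2, hvE⟩ (by
    rw [← sig_abs hσ, sig_mul hσ]
    have := abs_lt.1 hv2
    rw [abs_le]; constructor <;> linarith [this.1, this.2])
  have k2 : |FF Q (σ * (e - δ)) φ v - FF Q (σ * (e - δ)) φ p| ≤ L * |v.1 - clp Q p.1| := by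
    have := h.FF_lip hJ hL hφ l1 l2 v (clp Q p.1, 0)
    have e1 : FF Q (σ * (e - δ)) φ (clp Q p.1, (0 : ℝ)) = FF Q (σ * (e - δ)) φ p := by
      unfold FF
      rw [clp_of_mem (clp_mem Q p.1).1 (clp_mem Q p.1).2]
    rwa [e1] at this
  have k3 : L * |v.1 - clp Q p.1| ≤ L * r := by
    have := hvb.1.le
    gcongr
  have a1 := abs_le.1 k1
  have a2 := abs_le.1 k2
  rw [abs_le]
  constructor <;> linarith [a1.1, a1.2, a2.1, a2.2]

/-- the components: thin ones lie over one abscissa, the others are solids. -/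
def Comp (E : Set (ℝ × ℝ)) (𝒬 : Set Sqr) (𝓗 : Set Hair) : Prop :=
  ∀ x ∈ E, (∀ p ∈ cc E x, p.1 = x.1) ∨ ∃ Q, Solid E 𝒬 𝓗 (cc E x) Q

/-- **thin neighbourhoods of a solid** -/
theorem exists_thin (hE : QPic E 𝒬 𝓗) (hC : Comp E 𝒬 𝓗) {x₀ : ℝ × ℝ} (hx₀ : x₀ ∈ E)
    (h : Solid E 𝒬 𝓗 (cc E x₀) Q) (hJ : ∀ K ∈ J, K ∈ 𝓗)
    {N : Set (ℝ × ℝ)} (hN : IsOpen N) (hPN : cc E x₀ ⊆ N) {T : ℝ} (hT : 0 < T) :
    ∃ N', IsOpen N' ∧ cc E x₀ ⊆ N' ∧ N' ⊆ N ∧ (∀ S ⊆ N', (volume (S \ E)).toReal ≤ T) ∧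
      (∀ Q' ∈ 𝒬, Q' ≠ Q → (Q'.car ∩ N').Nonempty → Disjoint Q'.car (cut J)) ∧
      (∀ s : Finset 𝒬, (∀ Q' ∈ s, Q'.1 ≠ Q ∧ (Q'.1.car ∩ N').Nonempty) →
        ∑ Q' ∈ s, Q'.1.s ^ 2 ≤ T) ∧
      ∀ x ∈ E, x ∉ cc E x₀ → (cc E x ∩ N').Nonempty →
        cc E x ⊆ N ∧ ∀ p ∈ cc E x, |p.1 - x.1| ≤ T := by
  classical
  have hs := hE.summable_sq
  set tot := ∑' Q' : 𝒬, Q'.1.s ^ 2 with htot
  obtain ⟨s₁, hs1⟩ : ∃ s₁ : Finset 𝒬, tot - T < ∑ Q' ∈ s₁, Q'.1.s ^ 2 :=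
    (hs.hasSum.eventually (lt_mem_nhds (show tot - T < tot by linarith))).exists
  have htouch := hE.finite_touch hJ
  have hbig : {Q' : 𝒬 | ¬ Q'.1.s ^ 2 < T ^ 2}.Finite := by
    have := hs.tendsto_cofinite_zero.eventually (gt_mem_nhds (show (0 : ℝ) < T ^ 2 by positivity))
    exact this
  set F : Finset 𝒬 := (s₁ ∪ htouch.toFinset ∪ hbig.toFinset).filter fun Q' => Q'.1 ≠ Q with hF
  -- components of the squares of `F`
  let c : 𝒬 → Set (ℝ × ℝ) := fun Q' => cc E (Q'.1.x, Q'.1.y)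
  have hcm : ∀ Q' : 𝒬, (Q'.1.x, Q'.1.y) ∈ Q'.1.car := fun Q' =>
    Sqr.mem_car.2 ⟨⟨le_rfl, by linarith [Q'.1.hs]⟩, le_rfl, by linarith [Q'.1.hs]⟩
  have hccar : ∀ Q' : 𝒬, Q'.1.car ⊆ c Q' := fun Q' =>
    Q'.1.convex_car.isPreconnected.subset_connectedComponentIn (hcm Q') (hE.sub _ Q'.2)
  have hG : IsClosed (⋃ Q' ∈ F, c Q') :=
    F.finite_toSet.isClosed_biUnion fun Q' _ => (Thin_12.isCompact_cc hE.cpt _).isClosed
  have hPG : cc E x₀ ⊆ (⋃ Q' ∈ F, c Q')ᶜ := by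
    intro p hp hc
    obtain ⟨Q', hQ', hpQ'⟩ := mem_iUnion₂.1 hc
    have hne := (Finset.mem_filter.1 hQ').2
    have e1 : cc E (Q'.1.x, Q'.1.y) = cc E p := connectedComponentIn_eq hpQ'
    have e2 : cc E x₀ = cc E p := connectedComponentIn_eq hp
    refine hne (h.eq_of_meets hE Q'.2 ⟨(Q'.1.x, Q'.1.y), ?_, hcm Q'⟩)
    rw [e2, ← e1]
    exact mem_connectedComponentIn (hE.sub _ Q'.2 (hcm Q'))
  -- the radius: components near `P` stay in `N`
  obtain ⟨r₁, hr₁, hrad⟩ := Thin_891.exists_radius hE.cpt hx₀ hN hPN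
  -- volume
  have hPfin : volume (cc E x₀) ≠ ∞ := h.cpt.measure_lt_top.ne
  have ht := tendsto_measure_thickening_of_isClosed (μ := volume) (s := cc E x₀)
    ⟨1, one_pos, (h.cpt.isBounded.thickening (δ := 1)).measure_lt_top.ne⟩ h.cpt.isClosed
  have hTe : (0 : ℝ≥0∞) < ENNReal.ofReal T := ENNReal.ofReal_pos.2 hT
  have hev : ∀ᶠ r in 𝓝[>] (0 : ℝ),
      volume (thickening r (cc E x₀)) < volume (cc E x₀) + ENNReal.ofReal T :=
    ht.eventually (gt_mem_nhds (ENNReal.lt_add_right hPfin hTe.ne'))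
  have hev2 : ∀ᶠ r in 𝓝[>] (0 : ℝ), r < r₁ := by
    filter_upwards [mem_nhdsWithin_of_mem_nhds (gt_mem_nhds hr₁)] with r hr using hr
  obtain ⟨r, ⟨hr, hrr⟩, hr0⟩ := ((hev.and hev2).and self_mem_nhdsWithin).exists
  have hr0' : 0 < r := hr0
  refine ⟨N ∩ (⋃ Q' ∈ F, c Q')ᶜ ∩ thickening r (cc E x₀),
    (hN.inter hG.isOpen_compl).inter isOpen_thickening,
    subset_inter (subset_inter hPN hPG) (self_subset_thickening hr0' _),
    fun p hp => hp.1.1, ?_, ?_, ?_, ?_⟩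
  · intro S hS
    have h1 : S \ E ⊆ thickening r (cc E x₀) \ cc E x₀ := by
      rintro p ⟨hp, hpE⟩
      exact ⟨(hS hp).2, fun hpP => hpE (h.sub hpP)⟩
    have h2 : volume (thickening r (cc E x₀) \ cc E x₀) ≤ ENNReal.ofReal T := by
      rw [measure_sdiff (self_subset_thickening hr0' _) h.cpt.measurableSet.nullMeasurableSet hPfin,
        tsub_le_iff_left]
      exact hr.le
    exact ENNReal.toReal_le_of_le_ofReal hT.le ((measure_mono h1).trans h2)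
  · intro Q' hQ' hne hm
    by_contra hd
    obtain ⟨p, hp, hpN⟩ := hm
    refine hpN.1.2 (mem_iUnion₂.2 ⟨⟨Q', hQ'⟩, ?_, hccar ⟨Q', hQ'⟩ hp⟩)
    rw [hF, Finset.mem_filter, Finset.mem_union, Finset.mem_union]
    exact ⟨Or.inl (Or.inr (htouch.mem_toFinset.2 hd)), hne⟩
  · intro s hsN
    have hdis : Disjoint s s₁ := by
      rw [Finset.disjoint_left]
      intro Q' hQ' hQ1
      obtain ⟨hne, p, hp, hpN⟩ := hsN Q' hQ'
      refine hpN.1.2 (mem_iUnion₂.2 ⟨Q', ?_, hccar Q' hp⟩)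
      rw [hF, Finset.mem_filter, Finset.mem_union, Finset.mem_union]
      exact ⟨Or.inl (Or.inl hQ1), hne⟩
    have h1 : ∑ Q' ∈ s ∪ s₁, Q'.1.s ^ 2 ≤ tot := hs.sum_le_tsum _ fun _ _ => sq_nonneg _
    rw [Finset.sum_union hdis] at h1
    linarith
  · rintro x hx hxP ⟨y, hy, hyN⟩
    refine ⟨(self_subset_cthickening _).trans (hrad (cc E x) (connectedComponentIn_subset _ _)
      isPreconnected_connectedComponentIn ⟨y, self_subset_cthickening _ hy, ?_⟩), ?_⟩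
    · exact thickening_subset_cthickening_of_le hrr.le _ hyN.2
    · intro p hp
      rcases hC x hx with h1 | ⟨Q', h1⟩
      · rw [h1 p hp, sub_self, abs_zero]; exact hT.le
      · have hxs := h1.abs x (mem_connectedComponentIn hx)
        have hps := h1.abs p hp
        have hle : |p.1 - x.1| ≤ Q'.s := by
          rw [abs_le]; constructor <;> linarith [hxs.1, hxs.2, hps.1, hps.2]
        by_contra hlt
        rw [not_le] at hlt
        have hQ'T : T < Q'.s := hlt.trans_le hle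
        -- the component of `Q'` is in `F`
        have e1 : cc E x = c ⟨Q', h1.mem⟩ := by
          exact connectedComponentIn_eq (h1.car (hcm ⟨Q', h1.mem⟩))
        have hne : Q' ≠ Q := by
          rintro rfl
          refine hxP ?_
          have e2 : cc E x₀ = c ⟨Q', h1.mem⟩ := connectedComponentIn_eq (h.car (hcm ⟨Q', h1.mem⟩))
          rw [e2, ← e1]
          exact mem_connectedComponentIn hx
        refine hyN.1.2 (mem_iUnion₂.2 ⟨⟨Q', h1.mem⟩, ?_, e1 ▸ hy⟩)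
        rw [hF, Finset.mem_filter, Finset.mem_union, Finset.mem_union]
        refine ⟨Or.inr (hbig.mem_toFinset.2 ?_), hne⟩
        change ¬ Q'.s ^ 2 < T ^ 2
        rw [not_lt]
        exact pow_le_pow_left₀ hT.le hQ'T.le 2

/-- the part of `P` at level `≥ B` is null from outside. -/
def OutN (E : Set (ℝ × ℝ)) (𝒬 : Set Sqr) (𝓗 : Set Hair) (P : Set (ℝ × ℝ)) (σ B : ℝ) : Prop :=
  ∀ N, IsOpen N → P ⊆ N → ∀ ε > 0, ∃ (z : ℝ × ℝ → ℝ) (S : Set (ℝ × ℝ)),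
    CFJ 𝓗 {p | B < σ * p.2} z ∧ (∀ p, 0 ≤ z p ∧ z p ≤ 1) ∧ IsCompact S ∧ S ⊆ N ∧
    (∀ p, B < σ * p.2 → p ∉ S → z p = 0) ∧ TQ E {p | B < σ * p.2} 𝒬 z ≤ ε ∧
    ∃ O, IsOpen O ∧ P ∩ {p | B ≤ σ * p.2} ⊆ O ∧ ∀ p ∈ O \ E, B < σ * p.2 → z p = 1

/-! ### the half plane -/

/-- the open half plane `{σ y > B}` -/
def HP (σ B : ℝ) : Set (ℝ × ℝ) := {p | B < σ * p.2}

theorem isOpen_HP (σ B : ℝ) : IsOpen (HP σ B) :=
  isOpen_lt continuous_const (continuous_const.mul continuous_snd)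

theorem convex_HP (σ B : ℝ) : Convex ℝ (HP σ B) := by
  intro a ha b hb s t hs ht hst
  have ha' : B < σ * a.2 := ha
  have hb' : B < σ * b.2 := hb
  change B < σ * (s • a + t • b).2
  simp only [Prod.snd_add, Prod.smul_snd, smul_eq_mul]
  have e3 : B = s * B + t * B := by rw [← add_mul, hst, one_mul]
  have e4 : σ * (s * a.2 + t * b.2) = s * (σ * a.2) + t * (σ * b.2) := by ring
  rw [e4]
  rcases hs.eq_or_lt with rfl | hs'
  · rw [zero_add] at hst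
    subst hst
    linarith
  · have e1 : s * B < s * (σ * a.2) := by gcongr
    have e2 : t * B ≤ t * (σ * b.2) := by gcongr
    linarith

theorem closure_HP_subset (σ B : ℝ) : closure (HP σ B) ⊆ {p | B ≤ σ * p.2} :=
  closure_minimal (fun p (hp : B < σ * p.2) => show B ≤ σ * p.2 from hp.le)
    (isClosed_le continuous_const (continuous_const.mul continuous_snd))

/-- **nested averaging**, sum form -/
theorem out_layer (hE : QPic E 𝒬 𝓗) {x₀ : ℝ × ℝ} (hx₀ : x₀ ∈ E) {σ B : ℝ}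
    (hO : OutN E 𝒬 𝓗 (cc E x₀) σ B) (M : ℕ) :
    ∀ N, IsOpen N → cc E x₀ ⊆ N → ∀ ε > 0, ∃ (z : ℝ × ℝ → ℝ) (S : Set (ℝ × ℝ)),
      CFJ 𝓗 (HP σ B) z ∧ (∀ p, 0 ≤ z p ∧ z p ≤ M) ∧ IsCompact S ∧ S ⊆ N ∧
      (∀ p ∈ HP σ B, p ∉ S → z p = 0) ∧ TQ E (HP σ B) 𝒬 z ≤ ε ∧
      (∃ O, IsOpen O ∧ cc E x₀ ∩ {p | B ≤ σ * p.2} ⊆ O ∧ ∀ p ∈ O \ E, p ∈ HP σ B → z p = M) ∧
      ∀ x ∈ E, x ∉ cc E x₀ → OscLe (Eᶜ ∩ HP σ B) (cc E x ∩ {p | B ≤ σ * p.2}) z 1 := by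
  induction M with
  | zero =>
    intro N hN hPN ε hε
    refine ⟨fun _ => 0, ∅, CFJ_const 0, fun p => by simp, isCompact_empty, empty_subset _,
      fun _ _ _ => rfl, ?_, ⟨univ, isOpen_univ, subset_univ _, fun p _ _ => by simp⟩,
      fun x _ _ => (oscLe_const 0).mono zero_le_one⟩
    have : TQ E (HP σ B) 𝒬 (fun _ : ℝ × ℝ => (0 : ℝ)) = 0 := TQ_zero
    rw [this]; exact hε.le
  | succ M ih =>
    intro N hN hPN ε hε
    obtain ⟨z₁, S₁, hz₁, h01, hS₁, hSN₁, h0₁, hE₁, O₁, hO₁, hPO₁, h1₁⟩ :=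
      hO N hN hPN (ε / 4) (by positivity)
    have hcont : Continuous fun p : ℝ × ℝ => σ * p.2 := continuous_const.mul continuous_snd
    obtain ⟨N₂, hN₂, hPN₂, hcl, -, hfr⟩ := Thin_12.thin_nhd hE.cpt hx₀
      (W := (O₁ ∪ {p | σ * p.2 < B}) ∩ N)
      ((hO₁.union (isOpen_lt hcont continuous_const)).inter hN) (by
        intro p hp
        refine ⟨?_, hPN hp⟩
        by_cases hc : B ≤ σ * p.2
        · exact Or.inl (hPO₁ ⟨hp, hc⟩)
        · exact Or.inr (not_le.1 hc))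
    obtain ⟨z₂, S₂, hz₂, h02, hS₂, hSN₂, h0₂, hE₂, ⟨O₂, hO₂, hPO₂, h1₂⟩, hosc⟩ :=
      ih N₂ hN₂ hPN₂ (ε / 4) (by positivity)
    have hN₂N : N₂ ⊆ N := fun p hp => (hcl (subset_closure hp)).2
    have hN₂1 : ∀ p ∈ N₂ \ E, p ∈ HP σ B → z₁ p = 1 := by
      rintro p ⟨hp, hpE⟩ hpB
      rcases (hcl (subset_closure hp)).1 with h | h
      · exact h1₁ p ⟨h, hpE⟩ hpB
      · have h' : σ * p.2 < B := h
        have h'' : B < σ * p.2 := hpB
        linarith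
    have hc₁ : Cc 𝓗 (HP σ B) z₁ := ⟨hz₁, S₁, hS₁, h0₁⟩
    have hc₂ : Cc 𝓗 (HP σ B) z₂ := ⟨hz₂, S₂, hS₂, h0₂⟩
    refine ⟨fun p => z₁ p + z₂ p, S₁ ∪ S₂, hz₁.add hz₂, fun p => ?_, hS₁.union hS₂,
      union_subset hSN₁ (hSN₂.trans hN₂N), fun p hp hpS => ?_, ?_,
      ⟨O₁ ∩ O₂, hO₁.inter hO₂, subset_inter hPO₁ hPO₂, fun p hp hpB => ?_⟩, fun x hx hxP => ?_⟩
    · have a1 := h01 p
      have a2 := h02 p
      push_cast
      constructor <;> linarith [a1.1, a1.2, a2.1, a2.2]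
    · rw [mem_union, not_or] at hpS
      beta_reduce
      rw [h0₁ p hp hpS.1, h0₂ p hp hpS.2, add_zero]
    · have := TQ_add_le hE (isOpen_HP σ B) (convex_HP σ B) hc₁ hc₂
      have e1 : TQ E (HP σ B) 𝒬 z₁ ≤ ε / 4 := hE₁
      linarith
    · beta_reduce
      rw [h1₁ p ⟨hp.1.1, hp.2⟩ hpB, h1₂ p ⟨hp.1.2, hp.2⟩ hpB]; push_cast; ring
    · have hcases : cc E x ⊆ N₂ ∨ cc E x ⊆ (closure N₂)ᶜ := by
        refine (isPreconnected_connectedComponentIn).subset_or_subset hN₂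
          isClosed_closure.isOpen_compl ?_ ?_
        · rw [Set.disjoint_left]
          exact fun p hp hp' => hp' (subset_closure hp)
        · intro p hp
          by_cases hpN : p ∈ N₂
          · exact Or.inl hpN
          · refine Or.inr fun hpc => Set.disjoint_left.1 hfr ?_ (connectedComponentIn_subset _ _ hp)
            rw [hN₂.frontier_eq]
            exact ⟨hpc, hpN⟩
      rcases hcases with hc | hc
      · intro δ hδ
        obtain ⟨O, hO, hPO, H⟩ := hosc x hx hxP δ hδ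
        refine ⟨O ∩ N₂, hO.inter hN₂, subset_inter hPO (inter_subset_left.trans hc),
          fun q hq q' hq' => ?_⟩
        beta_reduce
        rw [hN₂1 q ⟨hq.1.2, hq.2.1⟩ hq.2.2, hN₂1 q' ⟨hq'.1.2, hq'.2.1⟩ hq'.2.2,
          add_sub_add_left_eq_sub]
        exact H q ⟨hq.1.1, hq.2⟩ q' ⟨hq'.1.1, hq'.2⟩
      · intro δ hδ
        refine ⟨(closure N₂)ᶜ, isClosed_closure.isOpen_compl, inter_subset_left.trans hc,
          fun q hq q' hq' => ?_⟩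
        beta_reduce
        rw [h0₂ q hq.2.2 fun hqS => hq.1 (subset_closure (hSN₂ hqS)),
          h0₂ q' hq'.2.2 fun hqS => hq'.1 (subset_closure (hSN₂ hqS)), add_zero, add_zero]
        have a1 := h01 q
        have a2 := h01 q'
        rw [abs_le]
        constructor <;> linarith [a1.1, a1.2, a2.1, a2.2]

/-- **nested averaging**: one-sided cut-offs which vary little at all other components. -/
theorem out_avg (hE : QPic E 𝒬 𝓗) {x₀ : ℝ × ℝ} (hx₀ : x₀ ∈ E) {σ B : ℝ}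
    (hO : OutN E 𝒬 𝓗 (cc E x₀) σ B) {m : ℝ} (hm : 0 < m) {N : Set (ℝ × ℝ)} (hN : IsOpen N)
    (hPN : cc E x₀ ⊆ N) {ε : ℝ} (hε : 0 < ε) : ∃ (z : ℝ × ℝ → ℝ) (S : Set (ℝ × ℝ)),
      CFJ 𝓗 (HP σ B) z ∧ (∀ p, 0 ≤ z p ∧ z p ≤ 1) ∧ IsCompact S ∧ S ⊆ N ∧
      (∀ p ∈ HP σ B, p ∉ S → z p = 0) ∧ TQ E (HP σ B) 𝒬 z ≤ ε ∧
      (∃ O, IsOpen O ∧ cc E x₀ ∩ {p | B ≤ σ * p.2} ⊆ O ∧ ∀ p ∈ O \ E, p ∈ HP σ B → z p = 1) ∧
      ∀ x ∈ E, x ∉ cc E x₀ → OscLe (Eᶜ ∩ HP σ B) (cc E x ∩ {p | B ≤ σ * p.2}) z m := by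
  obtain ⟨M, hM⟩ := exists_nat_gt (1 / m)
  have hM0 : (0 : ℝ) < M := lt_trans (by positivity) hM
  obtain ⟨z, S, hz, h0M, hS, hSN, h0, hEn, ⟨O, hO', hPO, h1⟩, hosc⟩ :=
    out_layer hE hx₀ hO M N hN hPN (M ^ 2 * ε) (by positivity)
  have hc : Cc 𝓗 (HP σ B) z := ⟨hz, S, hS, h0⟩
  refine ⟨fun p => (M : ℝ)⁻¹ * z p, S, hz.const_mul _, fun p => ⟨?_, ?_⟩, hS, hSN,
    fun p hp hpS => ?_, ?_, ⟨O, hO', hPO, fun p hp hpB => ?_⟩, fun x hx hxP => ?_⟩
  · have := (h0M p).1; positivity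
  · rw [inv_mul_le_iff₀ hM0, mul_one]; exact (h0M p).2
  · beta_reduce
    rw [h0 p hp hpS, mul_zero]
  · refine (TQ_const_mul_le hE (isOpen_HP σ B) (convex_HP σ B) hc _).trans ?_
    calc ((M : ℝ)⁻¹) ^ 2 * TQ E (HP σ B) 𝒬 z ≤ ((M : ℝ)⁻¹) ^ 2 * (M ^ 2 * ε) :=
          mul_le_mul_of_nonneg_left hEn (by positivity)
      _ = ε := by field_simp
  · beta_reduce
    rw [h1 p hp hpB]; exact inv_mul_cancel₀ hM0.ne'
  · have h2 := (hosc x hx hxP)
    have h3 : OscLe (Eᶜ ∩ HP σ B) (cc E x ∩ {p | B ≤ σ * p.2}) (fun p => (M : ℝ)⁻¹ * z p)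
        ((M : ℝ)⁻¹ * 1) := by
      intro δ hδ
      obtain ⟨O', hO', hPO', H⟩ := h2 (M * δ) (by positivity)
      refine ⟨O', hO', hPO', fun q hq q' hq' => ?_⟩
      beta_reduce
      rw [← mul_sub, abs_mul, abs_of_pos (by positivity : (0 : ℝ) < (M : ℝ)⁻¹),
        inv_mul_le_iff₀ hM0]
      refine (H q hq q' hq').trans (le_of_eq ?_)
      field_simp
    refine h3.mono ?_
    rw [mul_one, inv_le_comm₀ hM0 hm, ← one_div]
    exact hM.le

end Crest.Agent.R105.Cln_891
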