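import Crest.Agent.R105.Stp1_722

/-!
Row 105 (Koebe), task 2230 (PP-STEP), part 2: the one-sided operation
`χ' = χ + θ z (c - χ)`, `θ = clamp ((B - h) / τ)`, and its effect on the oscillation of portions.
-/

set_option autoImplicit false

open Set Filter Topology Metric

namespace Crest.Agent.R105.Stp_722

variable {X : Type*}

/-- the ramp `clamp ((B - t) / τ)` -/
noncomputable def th (B τ t : ℝ) : ℝ := max 0 (min 1 ((B - t) / τ))

theorem th_nonneg (B τ t : ℝ) : 0 ≤ th B τ t := le_max_left _ _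

theorem th_le_one (B τ t : ℝ) : th B τ t ≤ 1 := max_le zero_le_one (min_le_left _ _)

theorem th_eq_zero {B τ t : ℝ} (hτ : 0 < τ) (h : B ≤ t) : th B τ t = 0 := by
  unfold th
  rw [max_eq_left]
  exact (min_le_right _ _).trans (div_nonpos_of_nonpos_of_nonneg (by linarith) hτ.le)

theorem th_eq_one {B τ t : ℝ} (hτ : 0 < τ) (h : t ≤ B - τ) : th B τ t = 1 := by
  unfold th
  have : 1 ≤ (B - t) / τ := by rw [le_div_iff₀ hτ]; linarith
  rw [min_eq_left this, max_eq_right zero_le_one]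

theorem th_le {B τ t : ℝ} (hτ : 0 < τ) : th B τ t ≤ |B - t| / τ := by
  unfold th
  apply max_le (by positivity)
  refine (min_le_right _ _).trans ?_
  gcongr
  exact le_abs_self _

theorem abs_th_sub_le {B τ s t : ℝ} (hτ : 0 < τ) : |th B τ s - th B τ t| ≤ |s - t| / τ := by
  have e : (B - s) / τ - (B - t) / τ = -((s - t) / τ) := by ring
  have h1 : |th B τ s - th B τ t| ≤ |(B - s) / τ - (B - t) / τ| := by
    unfold th
    refine (abs_max_sub_max_le_max _ _ _ _).trans (max_le (by simp) ?_)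
    exact (abs_min_sub_min_le_max _ _ _ _).trans (max_le (by simp) le_rfl)
  rw [e, abs_neg, abs_div, abs_of_pos hτ] at h1
  exact h1

section op

variable (h : X → ℝ) (B τ : ℝ) (z c χ : X → ℝ)

/-- the operation -/
noncomputable def op (x : X) : ℝ := χ x + th B τ (h x) * z x * (c x - χ x)

variable {h B τ z c χ}

theorem op_eq_of_z {x : X} (hz : z x = 0) : op h B τ z c χ x = χ x := by simp [op, hz]

theorem op_eq_of_le (hτ : 0 < τ) {x : X} (hx : B ≤ h x) : op h B τ z c χ x = χ x := by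
  simp [op, th_eq_zero hτ hx]

theorem op_eq_of_c {x : X} (hz : c x = χ x) : op h B τ z c χ x = χ x := by simp [op, hz]

theorem w_nonneg (hz : ∀ x, 0 ≤ z x ∧ z x ≤ 1) (x : X) : 0 ≤ th B τ (h x) * z x :=
  mul_nonneg (th_nonneg _ _ _) (hz x).1

theorem w_le_one (hz : ∀ x, 0 ≤ z x ∧ z x ≤ 1) (x : X) : th B τ (h x) * z x ≤ 1 :=
  mul_le_one₀ (th_le_one _ _ _) (hz x).1 (hz x).2

/-- values stay in the hull -/
theorem op_mem_Icc (hz : ∀ x, 0 ≤ z x ∧ z x ≤ 1) {lo hi : ℝ} {x : X} (hx : χ x ∈ Icc lo hi)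
    (hc : c x ∈ Icc lo hi) : op h B τ z c χ x ∈ Icc lo hi := by
  have h0 := w_nonneg (h := h) (B := B) (τ := τ) hz x
  have h1 := w_le_one (h := h) (B := B) (τ := τ) hz x
  have e : op h B τ z c χ x = (1 - th B τ (h x) * z x) * χ x + th B τ (h x) * z x * c x := by
    unfold op; ring
  rw [e]
  obtain ⟨a1, a2⟩ := hx
  obtain ⟨b1, b2⟩ := hc
  set w := th B τ (h x) * z x
  constructor <;> nlinarith [mul_nonneg h0 (sub_nonneg.2 b1), mul_nonneg h0 (sub_nonneg.2 b2),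
    mul_nonneg (sub_nonneg.2 h1) (sub_nonneg.2 a1), mul_nonneg (sub_nonneg.2 h1) (sub_nonneg.2 a2)]

/-- distance to the old function -/
theorem abs_op_sub_le (hz : ∀ x, 0 ≤ z x ∧ z x ≤ 1) {x : X} {A : ℝ} (hA : |c x - χ x| ≤ A) :
    |op h B τ z c χ x - χ x| ≤ A := by
  have h0 := w_nonneg (h := h) (B := B) (τ := τ) hz x
  have h1 := w_le_one (h := h) (B := B) (τ := τ) hz x
  have e : op h B τ z c χ x - χ x = th B τ (h x) * z x * (c x - χ x) := by unfold op; ring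
  rw [e, abs_mul, abs_of_nonneg h0]
  calc _ ≤ 1 * |c x - χ x| := by gcongr
    _ ≤ A := by rw [one_mul]; exact hA

variable [TopologicalSpace X] {V P : Set X}

/-- every level crossed by `P` is attained at a point of `P` which is visible from `V`. -/
def Lev (V : Set X) (h : X → ℝ) (P : Set X) : Prop :=
  ∀ t, (∃ x ∈ P, h x ≤ t) → (∃ x ∈ P, t ≤ h x) → ∃ p ∈ P, p ∈ closure V ∧ h p = t

theorem Lev.of_preconnected (hh : Continuous h) (hP : IsPreconnected P) (hPV : P ⊆ closure V) :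
    Lev V h P := by
  rintro t ⟨x, hx, hxt⟩ ⟨y, hy, hyt⟩
  obtain ⟨p, hp, hpt⟩ := hP.intermediate_value hx hy hh.continuousOn ⟨hxt, hyt⟩
  exact ⟨p, hp, hPV hp, hpt⟩

theorem Lev.neg (hP : Lev V h P) : Lev V (fun x => - h x) P := by
  rintro t ⟨x, hx, hxt⟩ ⟨y, hy, hyt⟩
  obtain ⟨p, hp, hpV, hpt⟩ := hP (-t) ⟨y, hy, by linarith⟩ ⟨x, hx, by linarith⟩
  exact ⟨p, hp, hpV, by simp [hpt]⟩

/-- portions that miss the closed support of `z` -/
theorem growth_off {C : Set X} (hC : IsClosed C) (hz0 : ∀ x ∉ C, z x = 0) (hPC : Disjoint P C)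
    {a : ℝ} (ha : OscLe V P χ a) : OscLe V P (op h B τ z c χ) a :=
  ha.congr hC.isOpen_compl hPC.subset_compl_right fun q hq => op_eq_of_z (hz0 q hq.1)

/-- **growth of the oscillation of a portion** `P` inside a thin piece `N`, `k` = the value of the
constant, `η` = bound of `χ - k` in the layer, `A` = bound of `χ - k` everywhere on `N`, `m` =
oscillation of `z`. -/
theorem growth_lev (hh : Continuous h) (hτ : 0 < τ) (hP : Lev V h P)
    {N : Set X} (hN : IsOpen N) (hPN : P ⊆ N) {k A η m a : ℝ}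
    (hη0 : 0 ≤ η) (hA0 : 0 ≤ A) (hm0 : 0 ≤ m)
    (hc : ∀ q ∈ N ∩ V, c q = k) (hA : ∀ q ∈ N ∩ V, |χ q - k| ≤ A)
    (hη : ∀ q ∈ N ∩ V, |h q - B| < 2 * τ → |χ q - k| ≤ η)
    (hz01 : ∀ x, 0 ≤ z x ∧ z x ≤ 1)
    (hz : OscLe (V ∩ {x | h x < B}) (P ∩ {x | h x ≤ B}) z m) (ha : OscLe V P χ a) :
    OscLe V P (op h B τ z c χ) (a + m * A + 2 * η) := by
  -- away from the region `h < B - τ` the change is at most `η`
  have hnear : ∀ q ∈ N ∩ V, B - τ ≤ h q → |op h B τ z c χ q - χ q| ≤ η := by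
    intro q hq hBq
    rcases le_or_gt B (h q) with h1 | h1
    · rw [op_eq_of_le hτ h1, sub_self, abs_zero]; exact hη0
    · apply abs_op_sub_le hz01
      rw [hc q hq, abs_sub_comm]
      exact hη q hq (by rw [abs_lt]; constructor <;> linarith)
  -- in the region `h < B - τ`
  have hbelow : ∀ q ∈ N ∩ V, h q < B - τ → op h B τ z c χ q = χ q + z q * (k - χ q) := by
    intro q hq hBq
    unfold op
    rw [th_eq_one hτ hBq.le, one_mul, hc q hq]
  intro ε hε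
  obtain ⟨O, hO, hPO, H⟩ := ha (ε / 2) (by linarith)
  obtain ⟨Oz, hOz, hPOz, Hz⟩ := hz (ε / (2 * (A + 1))) (by positivity)
  have hεA : ε / (2 * (A + 1)) * A ≤ ε / 2 := by
    rw [div_mul_eq_mul_div, div_le_div_iff₀ (by positivity) (by norm_num)]
    nlinarith
  -- both below
  have hbb : ∀ q ∈ N ∩ V, ∀ q' ∈ N ∩ V, q ∈ Oz → q' ∈ Oz → q ∈ O → q' ∈ O → h q < B - τ →
      h q' < B - τ → |op h B τ z c χ q - op h B τ z c χ q'| ≤ a + m * A + ε := by
    intro q hq q' hq' h1 h2 h3 h4 h5 h6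
    rw [hbelow q hq h5, hbelow q' hq' h6]
    have hzz := Hz q ⟨h1, hq.2, by simp only [mem_ofPred_eq]; linarith⟩ q'
      ⟨h2, hq'.2, by simp only [mem_ofPred_eq]; linarith⟩
    have := abs_combo_le (a := χ q) (hz01 q).1 (hz01 q).2 hzz (hA q' hq')
    have h7 := H q ⟨h3, hq.2⟩ q' ⟨h4, hq'.2⟩
    have h8 : (m + ε / (2 * (A + 1))) * A = m * A + ε / (2 * (A + 1)) * A := by ring
    linarith
  -- both above
  have haa : ∀ q ∈ N ∩ V, ∀ q' ∈ N ∩ V, q ∈ O → q' ∈ O → B - τ ≤ h q → B - τ ≤ h q' →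
      |op h B τ z c χ q - op h B τ z c χ q'| ≤ a + 2 * η + ε / 2 := by
    intro q hq q' hq' h3 h4 h5 h6
    have e1 := abs_le.1 (hnear q hq h5)
    have e2 := abs_le.1 (hnear q' hq' h6)
    have e3 := abs_le.1 (H q ⟨h3, hq.2⟩ q' ⟨h4, hq'.2⟩)
    rw [abs_le]; constructor <;> linarith
  have hmA : 0 ≤ m * A := mul_nonneg hm0 hA0
  by_cases h1 : P ⊆ {x | h x < B - τ}
  · refine ⟨(O ∩ Oz) ∩ (N ∩ {x | h x < B - τ}), (hO.inter hOz).inter (hN.inter
      (isOpen_lt hh continuous_const)), ?_, ?_⟩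
    · refine subset_inter (subset_inter hPO ?_) (subset_inter hPN h1)
      intro x hx
      exact hPOz ⟨hx, by have := h1 hx; simp only [mem_ofPred_eq] at this ⊢; linarith⟩
    · intro q hq q' hq'
      exact (hbb q ⟨hq.1.2.1, hq.2⟩ q' ⟨hq'.1.2.1, hq'.2⟩ hq.1.1.2 hq'.1.1.2 hq.1.1.1 hq'.1.1.1
        hq.1.2.2 hq'.1.2.2).trans (by linarith)
  by_cases h2 : P ⊆ {x | B - τ < h x}
  · refine ⟨O ∩ (N ∩ {x | B - τ < h x}), hO.inter (hN.inter (isOpen_lt continuous_const hh)),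
      subset_inter hPO (subset_inter hPN h2), ?_⟩
    intro q hq q' hq'
    exact (haa q ⟨hq.1.2.1, hq.2⟩ q' ⟨hq'.1.2.1, hq'.2⟩ hq.1.1 hq'.1.1
        (le_of_lt hq.1.2.2) (le_of_lt hq'.1.2.2)).trans (by linarith)
  -- a point on the level `B - τ`
  obtain ⟨x1, hx1, hx1'⟩ := not_subset.1 h1
  obtain ⟨x2, hx2, hx2'⟩ := not_subset.1 h2
  simp only [mem_ofPred_eq, not_lt] at hx1' hx2'
  obtain ⟨p0, hp0, hpV0, hp0'⟩ := hP (B - τ) ⟨x2, hx2, hx2'⟩ ⟨x1, hx1, hx1'⟩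
  obtain ⟨v, hv, hvV⟩ := mem_closure_iff.1 hpV0 ((O ∩ N) ∩ {x | |h x - B| < 2 * τ})
    ((hO.inter hN).inter (isOpen_lt (by fun_prop) continuous_const))
    ⟨⟨hPO hp0, hPN hp0⟩, by
      simp only [mem_ofPred_eq, hp0']
      rw [show B - τ - B = -τ by ring, abs_neg, abs_of_pos hτ]; linarith⟩
  have hvk := abs_le.1 (hη v ⟨hv.1.2, hvV⟩ hv.2)
  -- mixed
  have hmix : ∀ q ∈ N ∩ V, ∀ q' ∈ N ∩ V, q ∈ O → q' ∈ O → B - τ ≤ h q → h q' < B - τ →
      |op h B τ z c χ q - op h B τ z c χ q'| ≤ a + 2 * η + ε / 2 := by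
    intro q hq q' hq' h3 h4 h5 h6
    have e1 := abs_le.1 (hnear q hq h5)
    have e3 := abs_le.1 (H q ⟨h3, hq.2⟩ q' ⟨h4, hq'.2⟩)
    have e4 := abs_le.1 (H q ⟨h3, hq.2⟩ v ⟨hv.1.1, hvV⟩)
    rw [hbelow q' hq' h6]
    obtain ⟨z0, z1⟩ := hz01 q'
    have f1 : |χ q - (χ q' + z q' * (k - χ q'))| ≤ a + η + ε / 2 := by
      have e : χ q - (χ q' + z q' * (k - χ q')) = (1 - z q') * (χ q - χ q') + z q' * (χ q - k) := by
        ring
      rw [e, abs_le]
      have g1 : χ q - χ q' ≤ a + η + ε / 2 := by linarith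
      have g2 : -(a + η + ε / 2) ≤ χ q - χ q' := by linarith
      have g3 : χ q - k ≤ a + η + ε / 2 := by linarith
      have g4 : -(a + η + ε / 2) ≤ χ q - k := by linarith
      constructor <;> nlinarith [mul_nonneg z0 (sub_nonneg.2 g3), mul_nonneg z0 (sub_nonneg.2 g4),
        mul_nonneg (sub_nonneg.2 z1) (sub_nonneg.2 g1), mul_nonneg (sub_nonneg.2 z1) (sub_nonneg.2 g2)]
    have f2 := abs_le.1 f1
    rw [abs_le]; constructor <;> linarith
  refine ⟨(O ∩ N) ∩ (Oz ∪ {x | B - τ < h x}), (hO.inter hN).inter (hOz.union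
    (isOpen_lt continuous_const hh)), ?_, ?_⟩
  · refine subset_inter (subset_inter hPO hPN) ?_
    intro x hx
    rcases le_or_gt (h x) B with h3 | h3
    · exact Or.inl (hPOz ⟨hx, h3⟩)
    · exact Or.inr (by simp only [mem_ofPred_eq]; linarith)
  · intro q hq q' hq'
    have hqN : q ∈ N ∩ V := ⟨hq.1.1.2, hq.2⟩
    have hqN' : q' ∈ N ∩ V := ⟨hq'.1.1.2, hq'.2⟩
    rcases lt_or_ge (h q) (B - τ) with h3 | h3 <;> rcases lt_or_ge (h q') (B - τ) with h4 | h4
    · have m1 : q ∈ Oz := hq.1.2.resolve_right (by simp only [mem_ofPred_eq, not_lt]; exact h3.le)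
      have m2 : q' ∈ Oz := hq'.1.2.resolve_right (by simp only [mem_ofPred_eq, not_lt]; exact h4.le)
      exact (hbb q hqN q' hqN' m1 m2 hq.1.1.1 hq'.1.1.1 h3 h4).trans (by linarith)
    · rw [abs_sub_comm]
      exact (hmix q' hqN' q hqN hq'.1.1.1 hq.1.1.1 h4 h3).trans (by linarith)
    · exact (hmix q hqN q' hqN' hq.1.1.1 hq'.1.1.1 h3 h4).trans (by linarith)
    · exact (haa q hqN q' hqN' hq.1.1.1 hq'.1.1.1 h3 h4).trans (by linarith)

/-- the same for a connected portion visible from `V`. -/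
theorem growth_in (hh : Continuous h) (hτ : 0 < τ) (hP : IsPreconnected P)
    (hPV : P ⊆ closure V) {N : Set X} (hN : IsOpen N) (hPN : P ⊆ N) {k A η m a : ℝ}
    (hη0 : 0 ≤ η) (hA0 : 0 ≤ A) (hm0 : 0 ≤ m)
    (hc : ∀ q ∈ N ∩ V, c q = k) (hA : ∀ q ∈ N ∩ V, |χ q - k| ≤ A)
    (hη : ∀ q ∈ N ∩ V, |h q - B| < 2 * τ → |χ q - k| ≤ η)
    (hz01 : ∀ x, 0 ≤ z x ∧ z x ≤ 1)
    (hz : OscLe (V ∩ {x | h x < B}) (P ∩ {x | h x ≤ B}) z m) (ha : OscLe V P χ a) :
    OscLe V P (op h B τ z c χ) (a + m * A + 2 * η) :=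
  growth_lev hh hτ (Lev.of_preconnected hh hP hPV) hN hPN hη0 hA0 hm0 hc hA hη hz01 hz ha

/-- growth of the local jump at a point: only the jump of `z` counts. -/
theorem growth_point (hh : Continuous h) (hτ : 0 < τ) {p : X} {N : Set X} (hN : IsOpen N)
    (hpN : p ∈ N) {k A m a : ℝ} (hA0 : 0 ≤ A) (hm0 : 0 ≤ m)
    (hc : ∀ q ∈ N ∩ V, c q = k) (hA : ∀ q ∈ N ∩ V, |χ q - k| ≤ A)
    (hz01 : ∀ x, 0 ≤ z x ∧ z x ≤ 1)
    (hz : OscLe (V ∩ {x | h x < B}) ({p} ∩ {x | h x ≤ B}) z m) (ha : OscLe V {p} χ a) :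
    OscLe V {p} (op h B τ z c χ) (a + m * A) := by
  have hmA : 0 ≤ m * A := mul_nonneg hm0 hA0
  rcases lt_or_ge B (h p) with h1 | h1
  · -- above the level nothing changes
    refine (ha.congr (O := {x | B < h x}) (isOpen_lt continuous_const hh)
      (by simpa using h1) fun q hq => op_eq_of_le hτ (le_of_lt hq.1)).mono (by linarith)
  intro ε hε
  set e' := ε / (4 * (A + 1)) with he'
  have he'0 : 0 < e' := by positivity
  have hεA : e' * A ≤ ε / 4 := by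
    rw [he', div_mul_eq_mul_div, div_le_div_iff₀ (by positivity) (by norm_num)]
    nlinarith
  obtain ⟨O, hO, hPO, H⟩ := ha (ε / 2) (by linarith)
  obtain ⟨Oz, hOz, hPOz, Hz⟩ := hz e' he'0
  have hpz : p ∈ Oz := hPOz ⟨rfl, h1⟩
  -- near `p` the ramp varies by less than `e'`
  have hcont : Continuous fun x => th B τ (h x) := by unfold th; fun_prop
  set Oθ : Set X := {x | |th B τ (h x) - th B τ (h p)| < e' / 2} with hOθ
  have hOθo : IsOpen Oθ := isOpen_lt (by fun_prop) continuous_const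
  have hpθ : p ∈ Oθ := by simp [hOθ]; linarith
  -- the weight varies by at most `m + 2 e'`
  have hw : ∀ q ∈ (Oz ∩ Oθ) ∩ V, ∀ q' ∈ (Oz ∩ Oθ) ∩ V,
      |th B τ (h q) * z q - th B τ (h q') * z q'| ≤ m + 2 * e' := by
    intro q hq q' hq'
    have t0 : |th B τ (h q) - th B τ (h p)| < e' / 2 := hq.1.2
    have t0' : |th B τ (h q') - th B τ (h p)| < e' / 2 := hq'.1.2
    have t1 := abs_lt.1 t0
    have t2 := abs_lt.1 t0'
    have hθ : |th B τ (h q) - th B τ (h q')| ≤ e' := by rw [abs_le]; constructor <;> linarith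
    obtain ⟨z0, z1⟩ := hz01 q
    obtain ⟨z0', z1'⟩ := hz01 q'
    have s0 := th_nonneg B τ (h q)
    have s1 := th_le_one B τ (h q)
    have s0' := th_nonneg B τ (h q')
    have s1' := th_le_one B τ (h q')
    rcases le_or_gt B (h q) with h2 | h2
    · -- `θ q = 0`
      have z : th B τ (h q) = 0 := th_eq_zero hτ h2
      rw [z] at hθ ⊢
      rw [zero_mul, zero_sub, abs_neg, abs_of_nonneg (mul_nonneg s0' z0')]
      rw [zero_sub, abs_neg, abs_of_nonneg s0'] at hθ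
      have := mul_le_mul hθ z1' z0' (by linarith)
      linarith
    rcases le_or_gt B (h q') with h3 | h3
    · have z : th B τ (h q') = 0 := th_eq_zero hτ h3
      rw [z] at hθ ⊢
      rw [zero_mul, sub_zero, abs_of_nonneg (mul_nonneg s0 z0)]
      rw [sub_zero, abs_of_nonneg s0] at hθ
      have := mul_le_mul hθ z1 z0 (by linarith)
      linarith
    have hzz := Hz q ⟨hq.1.1, hq.2, h2⟩ q' ⟨hq'.1.1, hq'.2, h3⟩
    have e : th B τ (h q) * z q - th B τ (h q') * z q' =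
        (th B τ (h q) - th B τ (h q')) * z q + th B τ (h q') * (z q - z q') := by ring
    rw [e]
    calc _ ≤ |(th B τ (h q) - th B τ (h q')) * z q| + |th B τ (h q') * (z q - z q')| :=
          abs_add_le _ _
      _ = |th B τ (h q) - th B τ (h q')| * z q + th B τ (h q') * |z q - z q'| := by
          rw [abs_mul, abs_mul, abs_of_nonneg z0, abs_of_nonneg s0']
      _ ≤ e' * 1 + 1 * (m + e') := by gcongr
      _ = m + 2 * e' := by ring
  refine ⟨(O ∩ N) ∩ (Oz ∩ Oθ), (hO.inter hN).inter (hOz.inter hOθo), ?_, ?_⟩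
  · rintro x hx
    have : x = p := hx
    subst this
    exact ⟨⟨hPO rfl, hpN⟩, hpz, hpθ⟩
  · intro q hq q' hq'
    have hqN : q ∈ N ∩ V := ⟨hq.1.1.2, hq.2⟩
    have hqN' : q' ∈ N ∩ V := ⟨hq'.1.1.2, hq'.2⟩
    have h7 := H q ⟨hq.1.1.1, hq.2⟩ q' ⟨hq'.1.1.1, hq'.2⟩
    have h8 := abs_combo_le (a := χ q) (w_nonneg (h := h) (B := B) (τ := τ) hz01 q)
      (w_le_one hz01 q) (hw q ⟨hq.1.2, hq.2⟩ q' ⟨hq'.1.2, hq'.2⟩) (hA q' hqN')
    unfold op
    rw [hc q hqN, hc q' hqN']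
    have h9 : (m + 2 * e') * A = m * A + 2 * (e' * A) := by ring
    linarith

/-- flatness of the part below the level of a hair near which `z = 1`. -/
theorem flat (hh : Continuous h) (hτ : 0 < τ) (hPB : P ⊆ {x | h x ≤ B}) {N : Set X}
    (hN : IsOpen N) (hPN : P ⊆ N) {k η : ℝ} (hη0 : 0 ≤ η) (hc : ∀ q ∈ N ∩ V, c q = k)
    (hη : ∀ q ∈ N ∩ V, |h q - B| < 2 * τ → |χ q - k| ≤ η)
    {O : Set X} (hO : IsOpen O) (hPO : P ⊆ O) (hz1 : ∀ q ∈ O ∩ V, h q < B → z q = 1) :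
    OscLe V P (op h B τ z c χ) (2 * η) := by
  refine oscLe_of_const (k := k) (O := (O ∩ N) ∩ {x | h x < B + τ}) ((hO.inter hN).inter
    (isOpen_lt hh continuous_const)) ?_ ?_
  · intro x hx
    refine ⟨⟨hPO hx, hPN hx⟩, ?_⟩
    have := hPB hx
    simp only [mem_ofPred_eq] at this ⊢
    linarith
  · intro q hq
    have hqN : q ∈ N ∩ V := ⟨hq.1.1.2, hq.2⟩
    have hq3 : h q < B + τ := hq.1.2
    rcases le_or_gt B (h q) with h1 | h1
    · rw [op_eq_of_le hτ h1]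
      exact hη q hqN (by rw [abs_lt]; constructor <;> linarith)
    · have z1 := hz1 q ⟨hq.1.1.1, hq.2⟩ h1
      have e : op h B τ z c χ q - k = (1 - th B τ (h q)) * (χ q - k) := by
        unfold op; rw [z1, hc q hqN]; ring
      rw [e]
      rcases le_or_gt (h q) (B - τ) with h2 | h2
      · rw [th_eq_one hτ h2]; simpa using hη0
      · have h3 := hη q hqN (by rw [abs_lt]; constructor <;> linarith)
        have s0 := th_nonneg B τ (h q)
        have s1 := th_le_one B τ (h q)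
        rw [abs_mul, abs_of_nonneg (by linarith : (0:ℝ) ≤ 1 - th B τ (h q))]
        calc _ ≤ 1 * η := by gcongr; linarith
          _ = η := one_mul _

end op

end Crest.Agent.R105.Stp_722
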