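import Crest.Agent.R105.Cln3_891
import Crest.Agent.R105.Stp2_722
import Crest.Agent.R105.Clc1_72

/-!
Row 105 (S0138, picture with solids), task 2398, part 4: flattening of the outer parts of ONE solid
on one side (`clean_side`).
-/

set_option autoImplicit false

open Set Filter MeasureTheory Topology Metric
open scoped ENNReal NNReal

namespace Crest.Agent.R105.Cln_891

open CF_363 Stp_722 Cq_463

local notation "cc" => connectedComponentIn

variable {E : Set (ℝ × ℝ)} {𝒬 : Set Sqr} {𝓗 : Set Hair} {P : Set (ℝ × ℝ)} {Q : Sqr}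
  {J : Finset Hair} {L : ℝ} {φ : ℝ × ℝ → ℝ}

theorem lev_sig {V R : Set (ℝ × ℝ)} (h : Lev V Prod.snd R) {σ : ℝ} (hσ : σ = 1 ∨ σ = -1) :
    Lev V (fun p : ℝ × ℝ => -(σ * p.2)) R := by
  rcases hσ with rfl | rfl
  · have := h.neg
    simpa using this
  · simpa using h

set_option maxHeartbeats 2000000 in
/-- **one-sided cleaning.** -/
theorem clean_side (hE : QPic E 𝒬 𝓗) (hC : Comp E 𝒬 𝓗) {x₀ : ℝ × ℝ} (hx₀ : x₀ ∈ E)
    (h : Solid E 𝒬 𝓗 (cc E x₀) Q) {σ e : ℝ} (he : IsSide Q σ e)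
    (hOut : ∀ B > e, OutN E 𝒬 𝓗 (cc E x₀) σ B) (hφ : CFJ 𝓗 univ φ) {R : ℝ} (hR : ∀ p, |φ p| ≤ R)
    {N : Set (ℝ × ℝ)} (hN : IsOpen N) (hPN : cc E x₀ ⊆ N) {ε η : ℝ} (hε : 0 < ε) (hη : 0 < η) :
    ∃ (φ₁ : ℝ × ℝ → ℝ) (S : Set (ℝ × ℝ)), CFJ 𝓗 univ φ₁ ∧ (∀ p, |φ₁ p| ≤ R) ∧ IsCompact S ∧
      S ⊆ N ∧ (∀ p ∉ S, φ₁ p = φ p) ∧ (∃ B > e, ∀ p, σ * p.2 ≤ B → φ₁ p = φ p) ∧
      TQ E univ 𝒬 (fun p => φ₁ p - φ p) ≤ ε ∧
      (∀ p, ∃ w k : ℝ, 0 ≤ w ∧ w ≤ 1 ∧ φ₁ p = φ p + w * (k - φ p) ∧ k ∈ φ '' Q.car ∧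
        ∀ O, IsOpen O → Q.car ⊆ O → ∃ v ∈ O \ E, |φ v - k| ≤ η) ∧
      (∃ O, IsOpen O ∧ cc E x₀ ∩ {p | e ≤ σ * p.2} ⊆ O ∧ ∀ q ∈ O \ E, ∀ O', IsOpen O' →
        Q.car ⊆ O' → ∃ v ∈ O' \ E, |φ₁ q - φ v| ≤ η) ∧
      ∀ x ∈ E, x ∉ cc E x₀ → ∀ R' ⊆ cc E x, Lev Eᶜ Prod.snd R' → ∀ b, OscLe Eᶜ R' φ b →
        OscLe Eᶜ R' φ₁ (b + η) := by
  have hR0 : 0 ≤ R := (abs_nonneg _).trans (hR (0, 0))
  have hσ := he.sig
  obtain ⟨J, hJ, L, _, hL, hSL, -⟩ := hφ
  have hJE : ∀ K ∈ J, K.car ⊆ E := fun K hK => hE.hsub K (hJ K hK)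
  have hφ : CFJ 𝓗 univ φ := ⟨J, hJ, L, R, hL, hSL, fun p _ => hR p⟩
  set δ := min (Q.s / 2) (η / (64 * (L + 1))) with hδ
  have hδ0 : 0 < δ := lt_min (by have := Q.hs; linarith) (by positivity)
  have hδs : δ < Q.s := (min_le_left _ _).trans_lt (by have := Q.hs; linarith)
  have hLδ : L * δ ≤ η / 64 := by
    have e1 : δ ≤ η / (64 * (L + 1)) := min_le_right _ _
    have e2 : L * δ ≤ L * (η / (64 * (L + 1))) := by gcongr
    have e3 : L * (η / (64 * (L + 1))) ≤ η / 64 := by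
      rw [show L * (η / (64 * (L + 1))) = L * η / (64 * (L + 1)) by ring,
        div_le_div_iff₀ (by positivity) (by norm_num)]
      nlinarith
    linarith
  obtain ⟨l1, l2⟩ := he.level hδ0 hδs
  set y₁ := σ * (e - δ) with hy₁
  set F := FF Q y₁ φ with hF
  set B := e + δ with hB
  -- near `P`
  obtain ⟨O₁, hO₁, hPO₁, hn⟩ := h.near_FF hJ hJE hL hSL l1 l2 (δ := 4 * δ)
    (show 0 < η / 16 by positivity)
  have hn' : ∀ q ∈ O₁ \ E, e - δ ≤ σ * q.2 → σ * q.2 ≤ e + 3 * δ → |φ q - F q| ≤ η / 8 := by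
    intro q hq h1 h2
    have := hn q hq (by
      rw [← sig_abs hσ, hy₁, sig_mul hσ, abs_le]
      constructor <;> linarith)
    linarith
  have hface : ∀ O, IsOpen O → Q.car ⊆ O → ∀ p, ∃ v ∈ O \ E, |φ v - F p| ≤ η / 2 := by
    intro O hO hQO p
    obtain ⟨v, hv, -, -, hv2⟩ := h.exists_face hE hJ hL hSL he hδ0 hδs
      (show 0 < η / 8 by positivity) hO hQO p
    exact ⟨v, hv, hv2.trans (by linarith)⟩
  -- the Lipschitz function
  have hFR : ∀ p, |F p| ≤ R := fun p => hR _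
  have hFSL : SL univ L F := by
    intro p q _
    refine (h.FF_lip hJ hL hSL l1 l2 p q).trans ?_
    gcongr
    rw [Prod.dist_eq, Real.dist_eq]
    exact le_max_left _ _
  set hh : ℝ × ℝ → ℝ := fun p => -(σ * p.2) with hhd
  have hhc : Continuous hh := (continuous_const.mul continuous_snd).neg
  set θ : ℝ × ℝ → ℝ := fun p => th (-B) δ (hh p) with hθ
  have hθ0 : ∀ p, 0 ≤ θ p := fun p => th_nonneg _ _ _
  have hθ1 : ∀ p, θ p ≤ 1 := fun p => th_le_one _ _ _
  have hθSL : SL univ (1 / δ) θ := by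
    intro p q _
    refine (abs_th_sub_le hδ0).trans ?_
    rw [div_mul_eq_mul_div, one_mul]
    gcongr
    simp only [hhd]
    rw [show -(σ * p.2) - -(σ * q.2) = -(σ * p.2 - σ * q.2) by ring, abs_neg, sig_abs hσ,
      Prod.dist_eq, Real.dist_eq, Real.dist_eq]
    exact le_max_right _ _
  set u : ℝ × ℝ → ℝ := fun p => θ p * (F p - φ p) with hu
  have hFφ : ∀ p, |F p - φ p| ≤ 2 * R := fun p => by
    have := abs_sub (F p) (φ p)
    linarith [hFR p, hR p]
  have huSL : SL (univ \ cut J) (1 * (L + L) + 2 * R * (1 / δ)) u :=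
    (hθSL.mono (subset_univ _)).mul ((hFSL.mono (subset_univ _)).sub hSL)
      (fun p _ => by rw [abs_of_nonneg (hθ0 p)]; exact hθ1 p) (fun p _ => hFφ p)
  have huA : ∀ p, |u p| ≤ 2 * R := by
    intro p
    simp only [hu]
    rw [abs_mul, abs_of_nonneg (hθ0 p)]
    calc θ p * |F p - φ p| ≤ 1 * (2 * R) := mul_le_mul (hθ1 p) (hFφ p) (abs_nonneg _) zero_le_one
      _ = 2 * R := one_mul _
  have hu0 : ∀ p, |u p| ≤ (2 * R / δ) * max 0 (σ * p.2 - B) := by
    intro p
    simp only [hu]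
    rw [abs_mul, abs_of_nonneg (hθ0 p)]
    have e1 : θ p ≤ max 0 (σ * p.2 - B) / δ := by
      simp only [hθ, hhd, th]
      rw [← max_div_div_right hδ0.le, zero_div, show -B - -(σ * p.2) = σ * p.2 - B by ring]
      exact max_le_max le_rfl (min_le_right _ _)
    calc θ p * |F p - φ p| ≤ (max 0 (σ * p.2 - B) / δ) * (2 * R) :=
          mul_le_mul e1 (hFφ p) (abs_nonneg _) (by positivity)
      _ = _ := by ring
  set Lu := 1 * (L + L) + 2 * R * (1 / δ) with hLu
  have hLu0 : 0 ≤ Lu := by positivity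
  -- thin neighbourhood
  set T := min (ε / (3 * (4 * Lu ^ 2 + 1))) (η / (32 * (L + 1))) with hT
  have hT0 : 0 < T := lt_min (by positivity) (by positivity)
  have hT1 : T ≤ ε / (3 * (4 * Lu ^ 2 + 1)) := min_le_left _ _
  have hLT : L * (2 * T) ≤ η / 16 := by
    have e1 : T ≤ η / (32 * (L + 1)) := min_le_right _ _
    have e2 : L * (2 * T) ≤ L * (2 * (η / (32 * (L + 1)))) := by gcongr
    have e3 : L * (2 * (η / (32 * (L + 1)))) ≤ η / 16 := by
      rw [show L * (2 * (η / (32 * (L + 1)))) = (2 * L) * η / (32 * (L + 1)) by ring,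
        div_le_div_iff₀ (by positivity) (by norm_num)]
      nlinarith
    linarith
  obtain ⟨N', hN', hPN', hN'N, hvol, hcut, hsum, hwid⟩ :=
    exists_thin hE hC hx₀ h hJ (hN.inter hO₁) (subset_inter hPN hPO₁) hT0
  set ε₁ := ε / (3 * (2 * (2 * R) ^ 2 + 1)) with hε₁
  have hε₁0 : 0 < ε₁ := by positivity
  set m := η / (8 * (2 * R + 1)) with hm
  have hm0 : 0 < m := by positivity
  have hmR : m * (2 * R) ≤ η / 8 := by
    rw [hm, show η / (8 * (2 * R + 1)) * (2 * R) = η * (2 * R) / (8 * (2 * R + 1)) by ring,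
      div_le_div_iff₀ (by positivity) (by norm_num)]
    nlinarith
  obtain ⟨z, S, hz, hz01, hS, hSN, hzS, hzE, ⟨O₂, hO₂, hPO₂, hz1⟩, hzosc⟩ :=
    out_avg hE hx₀ (hOut B (by rw [hB]; linarith)) hm0 hN' hPN' hε₁0
  have hmeet : ∀ Q' ∈ 𝒬, (Q'.car ∩ S ∩ {p | B ≤ σ * p.2}).Nonempty →
      Q' ≠ Q ∧ (Q'.car ∩ N').Nonempty := by
    rintro Q' hQ' ⟨p, ⟨hp, hpS⟩, hpB⟩
    refine ⟨?_, p, hp, hSN hpS⟩
    rintro rfl
    have := he.le hp
    have hpB' : B ≤ σ * p.2 := hpB
    linarith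
  obtain ⟨c1, c2, c3, c4⟩ := Clc_72.cost hE hσ (B := B) hJ hLu0 (show 0 ≤ 2 * R by positivity)
    (show 0 ≤ 2 * R / δ by positivity) huSL huA hu0 hz hz01 hS hzS hzE hT0.le
    (fun s hs => hsum s fun Q' hQ' => hmeet Q'.1 Q'.2 (hs Q' hQ'))
    (fun Q' hQ' hm => hcut Q' hQ' (hmeet Q' hQ' hm).1 (hmeet Q' hQ' hm).2)
  set f : ℝ × ℝ → ℝ := fun p => if B < σ * p.2 then u p * z p else 0 with hf
  -- the weight
  set w : ℝ × ℝ → ℝ := fun p => θ p * z p with hw
  have hfw : ∀ p, f p = w p * (F p - φ p) := by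
    intro p
    simp only [hf, hw, hu]
    split_ifs with hp
    · ring
    · have : θ p = 0 := th_eq_zero hδ0 (by simp only [hhd]; linarith)
      rw [this]; ring
  have hw01 : ∀ p, 0 ≤ w p ∧ w p ≤ 1 := fun p =>
    ⟨mul_nonneg (hθ0 p) (hz01 p).1, mul_le_one₀ (hθ1 p) (hz01 p).1 (hz01 p).2⟩
  refine ⟨fun p => φ p + f p, S, hφ.add c1, fun p => ?_, hS, fun p hp => (hN'N (hSN hp)).1,
    fun p hp => by beta_reduce; rw [c2 p hp, add_zero], ⟨B, by rw [hB]; linarith, fun p hp => ?_⟩, ?_,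
    fun p => ⟨w p, F p, (hw01 p).1, (hw01 p).2, by beta_reduce; rw [hfw],
      ⟨(clp Q p.1, y₁), Sqr.mem_car.2 ⟨clp_mem Q p.1, l1.le, l2.le⟩, rfl⟩, fun O hO hQO => ?_⟩,
    ?_, ?_⟩
  · beta_reduce
    rw [hfw]
    obtain ⟨w0, w1⟩ := hw01 p
    have a1 := abs_le.1 (hR p)
    have a2 := abs_le.1 (hFR p)
    rw [abs_le]
    constructor
    · nlinarith [mul_nonneg w0 (show 0 ≤ F p + R by linarith),
        mul_nonneg (show 0 ≤ 1 - w p by linarith) (show 0 ≤ φ p + R by linarith)]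
    · nlinarith [mul_nonneg w0 (show 0 ≤ R - F p by linarith),
        mul_nonneg (show 0 ≤ 1 - w p by linarith) (show 0 ≤ R - φ p by linarith)]
  · have : f p = 0 := by simp only [hf]; rw [if_neg (not_lt.2 hp)]
    beta_reduce
    rw [this, add_zero]
  · have e0 : (fun p => φ p + f p - φ p) = f := by funext p; ring
    rw [e0]
    refine c4.trans ?_
    have v1 := hvol S hSN
    have g1 : 2 * (2 * R) ^ 2 * ε₁ ≤ ε / 3 := by
      rw [hε₁, show 2 * (2 * R) ^ 2 * (ε / (3 * (2 * (2 * R) ^ 2 + 1))) =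
        (2 * (2 * R) ^ 2) * ε / (3 * (2 * (2 * R) ^ 2 + 1)) by ring,
        div_le_div_iff₀ (by positivity) (by norm_num)]
      nlinarith [sq_nonneg R]
    have g2 : 4 * Lu ^ 2 * T ≤ ε / 3 := by
      refine (mul_le_mul_of_nonneg_left hT1 (by positivity)).trans ?_
      rw [show 4 * Lu ^ 2 * (ε / (3 * (4 * Lu ^ 2 + 1))) =
        (4 * Lu ^ 2) * ε / (3 * (4 * Lu ^ 2 + 1)) by ring,
        div_le_div_iff₀ (by positivity) (by norm_num)]
      nlinarith [sq_nonneg Lu]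
    have g3 : 4 * Lu ^ 2 * (volume (S \ E)).toReal ≤ 4 * Lu ^ 2 * T := by gcongr
    have g4 : 2 * Lu ^ 2 * T ≤ 4 * Lu ^ 2 * T := by
      have := mul_nonneg (sq_nonneg Lu) hT0.le
      linarith
    linarith
  · obtain ⟨v, hv, hv2⟩ := hface O hO hQO p
    exact ⟨v, hv, hv2.trans (by linarith)⟩
  · have hcont : Continuous fun p : ℝ × ℝ => σ * p.2 := continuous_const.mul continuous_snd
    refine ⟨O₁ ∩ {p | e - δ < σ * p.2} ∩ (O₂ ∪ {p | σ * p.2 < e + 3 * δ}),
      (hO₁.inter (isOpen_lt continuous_const hcont)).inter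
        (hO₂.union (isOpen_lt hcont continuous_const)), ?_, ?_⟩
    · rintro p ⟨hpP, hpe⟩
      have hpe' : e ≤ σ * p.2 := hpe
      refine ⟨⟨hPO₁ hpP, ?_⟩, ?_⟩
      · change e - δ < σ * p.2
        linarith
      · by_cases hc : B ≤ σ * p.2
        · exact Or.inl (hPO₂ ⟨hpP, hc⟩)
        · refine Or.inr ?_
          change σ * p.2 < e + 3 * δ
          rw [not_le, hB] at hc
          linarith
    · rintro q ⟨⟨⟨hq1, hq2⟩, hq3⟩, hqE⟩ O' hO' hQO'
      have hq2' : e - δ < σ * q.2 := hq2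
      have key : |φ q + f q - F q| ≤ η / 2 := by
        by_cases hc : σ * q.2 < e + 3 * δ
        · have h1 : |φ q - F q| ≤ η / 2 := (hn' q ⟨hq1, hqE⟩ hq2'.le hc.le).trans (by linarith)
          rw [hfw, show φ q + w q * (F q - φ q) - F q = (1 - w q) * (φ q - F q) by ring, abs_mul,
            abs_of_nonneg (by linarith [(hw01 q).2])]
          calc (1 - w q) * |φ q - F q| ≤ 1 * (η / 2) :=
                mul_le_mul (by linarith [(hw01 q).1]) h1 (abs_nonneg _) zero_le_one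
            _ = η / 2 := one_mul _
        · rcases hq3 with hq3 | hq3
          · rw [not_lt] at hc
            have hBq : B < σ * q.2 := by rw [hB]; linarith
            have hz := hz1 q ⟨hq3, hqE⟩ hBq
            have hθq : θ q = 1 := th_eq_one hδ0 (by simp only [hhd, hB]; linarith)
            have hwq : w q = 1 := by
              simp only [hw]
              rw [hz, hθq, one_mul]
            rw [hfw, hwq, one_mul, show φ q + (F q - φ q) - F q = 0 by ring, abs_zero]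
            positivity
          · exact absurd hq3 hc
      obtain ⟨v, hv, hv2⟩ := hface O' hO' hQO' q
      refine ⟨v, hv, ?_⟩
      have a1 := abs_le.1 key
      have a2 := abs_le.1 hv2
      beta_reduce
      rw [abs_le]
      constructor <;> linarith [a1.1, a1.2, a2.1, a2.2]
  · -- growth at the other components
    intro x hx hxP R' hR' hLev b hb
    by_cases hd : Disjoint (cc E x) S
    · refine (hb.congr hS.isClosed.isOpen_compl (hR'.trans hd.subset_compl_right)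
        fun q hq => ?_).mono (by linarith)
      rw [c2 q hq.1, add_zero]
    · rw [not_disjoint_iff] at hd
      obtain ⟨y, hy, hyS⟩ := hd
      obtain ⟨hxN, hxw⟩ := hwid x hx hxP ⟨y, hy, hSN hyS⟩
      set k := F x with hk
      set N'' : Set (ℝ × ℝ) := O₁ ∩ {q | |q.1 - x.1| < 2 * T} with hN''
      have hN''o : IsOpen N'' := hO₁.inter
        (isOpen_lt ((continuous_fst.sub continuous_const).abs) continuous_const)
      have hxN'' : cc E x ⊆ N'' := fun p hp => ⟨(hxN hp).2, by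
        change |p.1 - x.1| < 2 * T
        have := hxw p hp
        linarith⟩
      have hFk : ∀ q ∈ N'', |F q - k| ≤ η / 16 := by
        intro q hq
        have h1 := h.FF_lip hJ hL hSL l1 l2 q x
        have h2 : |q.1 - x.1| < 2 * T := hq.2
        have h3 : L * |q.1 - x.1| ≤ L * (2 * T) := by gcongr
        exact h1.trans (h3.trans hLT)
      have hgrow := growth_lev (V := Eᶜ) (h := hh) (B := -B) (τ := δ) (z := z) (c := fun _ => k)
        (χ := φ) hhc hδ0 (lev_sig hLev hσ) hN''o (hR'.trans hxN'') (k := k) (A := 2 * R)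
        (η := 3 * η / 16) (m := m) (a := b) (by positivity) (by positivity) hm0.le
        (fun _ _ => rfl) (fun q _ => by
          have := abs_sub (φ q) k
          have h1 := hR q
          have h2 : |k| ≤ R := hFR x
          linarith)
        (fun q hq hqB => by
          have h1 : |-(σ * q.2) - -B| < 2 * δ := hqB
          rw [show -(σ * q.2) - -B = B - σ * q.2 by ring, hB] at h1
          obtain ⟨h2, h3⟩ := abs_lt.1 h1
          have h4 := hn' q ⟨hq.1.1, hq.2⟩ (by linarith) (by linarith)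
          have h5 := hFk q hq.1
          have := abs_sub_le (φ q) (F q) k
          linarith)
        hz01 (((hzosc x hx hxP).mono_V (fun q hq => ⟨hq.1, by
          have h1 : -(σ * q.2) < -B := hq.2
          change B < σ * q.2
          linarith⟩)).mono_set (fun q hq => ⟨hR' hq.1, by
          have h1 : -(σ * q.2) ≤ -B := hq.2
          change B ≤ σ * q.2
          linarith⟩)) hb
      refine (hgrow.of_near (η := η / 16) hN''o (hR'.trans hxN'') fun q hq => ?_).mono ?_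
      · beta_reduce
        have e1 : φ q + f q - op hh (-B) δ z (fun _ => k) φ q = w q * (F q - k) := by
          rw [hfw]
          unfold op
          simp only [hw, hθ]
          ring
        rw [e1, abs_mul, abs_of_nonneg (hw01 q).1]
        calc w q * |F q - k| ≤ 1 * (η / 16) :=
              mul_le_mul (hw01 q).2 (hFk q hq.1) (abs_nonneg _) zero_le_one
          _ = η / 16 := one_mul _
      · linarith

end Crest.Agent.R105.Cln_891
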