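import Crest.Agent.R105.Cln4_891

/-!
Row 105 (S0138, picture with solids), task 2398, part 5: CLEANQ, the flattening of the outer parts
of ONE solid on both sides.
-/

set_option autoImplicit false

open Set Filter MeasureTheory Topology Metric
open scoped ENNReal NNReal

namespace Crest.Agent.R105.Cln_891

open CF_363 Stp_722 Cq_463

local notation "cc" => connectedComponentIn

variable {E : Set (ℝ × ℝ)} {𝒬 : Set Sqr} {𝓗 : Set Hair} {Q : Sqr} {φ : ℝ × ℝ → ℝ}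

theorem mix_mem {a k w lo hi : ℝ} (hw0 : 0 ≤ w) (hw1 : w ≤ 1) (ha : a ∈ Icc lo hi)
    (hk : k ∈ Icc lo hi) : a + w * (k - a) ∈ Icc lo hi := by
  obtain ⟨a1, a2⟩ := ha
  obtain ⟨b1, b2⟩ := hk
  constructor <;> nlinarith [mul_nonneg hw0 (sub_nonneg.2 b1), mul_nonneg hw0 (sub_nonneg.2 b2),
    mul_nonneg (sub_nonneg.2 hw1) (sub_nonneg.2 a1), mul_nonneg (sub_nonneg.2 hw1) (sub_nonneg.2 a2)]

/-- **CLEANQ** -/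
theorem cleanQ (hE : QPic E 𝒬 𝓗) (hC : Comp E 𝒬 𝓗) {x₀ : ℝ × ℝ} (hx₀ : x₀ ∈ E)
    (h : Solid E 𝒬 𝓗 (cc E x₀) Q)
    (hup : ∀ B > Q.y + Q.s, OutN E 𝒬 𝓗 (cc E x₀) 1 B)
    (hdn : ∀ B > -Q.y, OutN E 𝒬 𝓗 (cc E x₀) (-1) B)
    (hφ : CFJ 𝓗 univ φ) {R : ℝ} (hR : ∀ p, |φ p| ≤ R)
    {N : Set (ℝ × ℝ)} (hN : IsOpen N) (hPN : cc E x₀ ⊆ N) {ε η : ℝ} (hε : 0 < ε) (hη : 0 < η) :
    ∃ (φ' : ℝ × ℝ → ℝ) (S : Set (ℝ × ℝ)), CFJ 𝓗 univ φ' ∧ (∀ p, |φ' p| ≤ R) ∧ IsCompact S ∧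
      S ⊆ N ∧ (∀ p ∉ S, φ' p = φ p) ∧ TQ E univ 𝒬 (fun p => φ' p - φ p) ≤ ε ∧
      (∃ O, IsOpen O ∧ Q.car ⊆ O ∧ ∀ p ∈ O, φ' p = φ p) ∧
      (∀ c, OscLe Eᶜ Q.car φ c → OscLe Eᶜ (cc E x₀) φ' (c + η)) ∧
      (∀ p lo hi, φ p ∈ Icc lo hi → (∀ q ∈ Q.car, φ q ∈ Icc lo hi) → φ' p ∈ Icc lo hi) ∧
      (∀ p lo hi, φ p ∈ Icc lo hi → (∃ O, IsOpen O ∧ Q.car ⊆ O ∧ ∀ v ∈ O \ E, φ v ∈ Icc lo hi) →
        φ' p ∈ Icc (lo - η) (hi + η)) ∧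
      ∀ x ∈ E, x ∉ cc E x₀ → ∀ R' ⊆ cc E x, Lev Eᶜ Prod.snd R' → ∀ b, OscLe Eᶜ R' φ b →
        OscLe Eᶜ R' φ' (b + η) := by
  obtain ⟨φ₁, S₁, h1, hR₁, hS₁, hSN₁, h01, ⟨B₁, hB₁, hB₁'⟩, hT₁, hm₁, ⟨O₁, hO₁, hPO₁, hosc₁⟩, hg₁⟩ :=
    clean_side hE hC hx₀ h (σ := 1) (e := Q.y + Q.s) (Or.inl ⟨rfl, rfl⟩) hup hφ hR hN hPN
      (show 0 < ε / 4 by positivity) (show 0 < η / 2 by positivity)
  obtain ⟨φ₂, S₂, h2, hR₂, hS₂, hSN₂, h02, ⟨B₂, hB₂, hB₂'⟩, hT₂, hm₂, ⟨O₂, hO₂, hPO₂, hosc₂⟩, hg₂⟩ :=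
    clean_side hE hC hx₀ h (σ := -1) (e := -Q.y) (Or.inr ⟨rfl, rfl⟩) hdn h1 hR₁ hN hPN
      (show 0 < ε / 4 by positivity) (show 0 < η / 2 by positivity)
  have hQ1 : ∀ p ∈ Q.car, 1 * p.2 ≤ B₁ := fun p hp => by
    have := (Sqr.mem_car.1 hp).2.2; linarith
  have hQ2 : ∀ p ∈ Q.car, -1 * p.2 ≤ B₂ := fun p hp => by
    have := (Sqr.mem_car.1 hp).2.1; linarith
  -- the open strip where nothing changes
  set A₁ : Set (ℝ × ℝ) := {p | 1 * p.2 < B₁} with hA₁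
  set A₂ : Set (ℝ × ℝ) := {p | -1 * p.2 < B₂} with hA₂
  have hA₁o : IsOpen A₁ := isOpen_lt (continuous_const.mul continuous_snd) continuous_const
  have hA₂o : IsOpen A₂ := isOpen_lt (continuous_const.mul continuous_snd) continuous_const
  have hQA₁ : Q.car ⊆ A₁ := fun p hp => by
    change 1 * p.2 < B₁
    have := (Sqr.mem_car.1 hp).2.2; linarith
  have hQA₂ : Q.car ⊆ A₂ := fun p hp => by
    change -1 * p.2 < B₂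
    have := (Sqr.mem_car.1 hp).2.1; linarith
  have e1 : ∀ p ∈ A₁, φ₁ p = φ p := fun p hp => hB₁' p (le_of_lt hp)
  have e2 : ∀ p ∈ A₂, φ₂ p = φ₁ p := fun p hp => hB₂' p (le_of_lt hp)
  refine ⟨φ₂, S₁ ∪ S₂, h2, hR₂, hS₁.union hS₂, union_subset hSN₁ hSN₂, fun p hp => ?_, ?_,
    ⟨A₁ ∩ A₂, hA₁o.inter hA₂o, subset_inter hQA₁ hQA₂, fun p hp => (e2 p hp.2).trans (e1 p hp.1)⟩,
    fun c hc => ?_, fun p lo hi hp hq => ?_, fun p lo hi hp hq => ?_, fun x hx hxP R' hR' hL b hb => ?_⟩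
  · rw [mem_union, not_or] at hp
    rw [h02 p hp.2, h01 p hp.1]
  · have c1 : Cc 𝓗 univ (fun p => φ₂ p - φ₁ p) := ⟨h2.sub h1, S₂, hS₂, fun p _ hp => by
      beta_reduce; rw [h02 p hp, sub_self]⟩
    have c2 : Cc 𝓗 univ (fun p => φ₁ p - φ p) := ⟨h1.sub hφ, S₁, hS₁, fun p _ hp => by
      beta_reduce; rw [h01 p hp, sub_self]⟩
    have h3 := TQ_add_le hE isOpen_univ convex_univ c1 c2
    have e : (fun q => φ₂ q - φ₁ q + (φ₁ q - φ q)) = fun p => φ₂ p - φ p := by funext q; ring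
    rw [e] at h3
    linarith
  · -- oscillation at the solid
    intro ε' hε'
    obtain ⟨O, hO, hQO, H⟩ := hc ε' hε'
    have key : ∀ q ∈ ((O₁ ∩ A₂) ∪ (O₂ ∩ A₁) ∪ (O ∩ A₁ ∩ A₂)) \ E, ∃ v ∈ O \ E,
        |φ₂ q - φ v| ≤ η / 2 := by
      rintro q ⟨(⟨hq, hqA⟩ | ⟨hq, hqA⟩) | ⟨⟨hq, hqA1⟩, hqA2⟩, hqE⟩
      · obtain ⟨v, hv, hv2⟩ := hosc₁ q ⟨hq, hqE⟩ O hO hQO
        exact ⟨v, hv, by rw [e2 q hqA]; exact hv2⟩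
      · obtain ⟨v, hv, hv2⟩ := hosc₂ q ⟨hq, hqE⟩ (O ∩ A₁) (hO.inter hA₁o) (subset_inter hQO hQA₁)
        exact ⟨v, ⟨hv.1.1, hv.2⟩, by rw [← e1 v hv.1.2]; exact hv2⟩
      · exact ⟨q, ⟨hq, hqE⟩, by
          rw [e2 q hqA2, e1 q hqA1, sub_self, abs_zero]; positivity⟩
    refine ⟨(O₁ ∩ A₂) ∪ (O₂ ∩ A₁) ∪ (O ∩ A₁ ∩ A₂),
      ((hO₁.inter hA₂o).union (hO₂.inter hA₁o)).union ((hO.inter hA₁o).inter hA₂o), ?_, ?_⟩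
    · intro p hp
      by_cases c1 : Q.y + Q.s ≤ p.2
      · refine Or.inl (Or.inl ⟨hPO₁ ⟨hp, ?_⟩, ?_⟩)
        · change Q.y + Q.s ≤ 1 * p.2
          linarith
        · change -1 * p.2 < B₂
          have := Q.hs
          linarith
      · by_cases c2 : p.2 ≤ Q.y
        · refine Or.inl (Or.inr ⟨hPO₂ ⟨hp, ?_⟩, ?_⟩)
          · change -Q.y ≤ -1 * p.2
            linarith
          · change 1 * p.2 < B₁
            have := Q.hs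
            linarith
        · rw [not_le] at c1 c2
          have hpQ : p ∈ Q.car := Sqr.mem_car.2 ⟨h.abs p hp, c2.le, c1.le⟩
          exact Or.inr ⟨⟨hQO hpQ, hQA₁ hpQ⟩, hQA₂ hpQ⟩
    · rintro q ⟨hq, hqE⟩ q' ⟨hq', hqE'⟩
      obtain ⟨v, hv, hv2⟩ := key q ⟨hq, hqE⟩
      obtain ⟨v', hv', hv2'⟩ := key q' ⟨hq', hqE'⟩
      have h3 := abs_le.1 (H v ⟨hv.1, hv.2⟩ v' ⟨hv'.1, hv'.2⟩)
      have h4 := abs_le.1 hv2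
      have h5 := abs_le.1 hv2'
      rw [abs_le]
      constructor <;> linarith [h3.1, h3.2, h4.1, h4.2, h5.1, h5.2]
  · obtain ⟨w, k, hw0, hw1, hk, ⟨v, hv, rfl⟩, -⟩ := hm₁ p
    have hp1 : φ₁ p ∈ Icc lo hi := by rw [hk]; exact mix_mem hw0 hw1 hp (hq v hv)
    obtain ⟨w', k', hw0', hw1', hk', ⟨v', hv', rfl⟩, -⟩ := hm₂ p
    rw [hk']
    refine mix_mem hw0' hw1' hp1 ?_
    rw [e1 v' (hQA₁ hv')]
    exact hq v' hv'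
  · obtain ⟨O, hO, hQO, H⟩ := hq
    obtain ⟨w, k, hw0, hw1, hk, -, hk1⟩ := hm₁ p
    obtain ⟨v, hv, hv2⟩ := hk1 O hO hQO
    have hk2 : k ∈ Icc (lo - η) (hi + η) := by
      have h3 := H v hv
      have h4 := abs_le.1 hv2
      constructor <;> linarith [h3.1, h3.2, h4.1, h4.2]
    have hp0 : φ p ∈ Icc (lo - η) (hi + η) := ⟨by linarith [hp.1], by linarith [hp.2]⟩
    have hp1 : φ₁ p ∈ Icc (lo - η) (hi + η) := by rw [hk]; exact mix_mem hw0 hw1 hp0 hk2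
    obtain ⟨w', k', hw0', hw1', hk', -, hk1'⟩ := hm₂ p
    obtain ⟨v', hv', hv2'⟩ := hk1' (O ∩ A₁) (hO.inter hA₁o) (subset_inter hQO hQA₁)
    rw [hk']
    refine mix_mem hw0' hw1' hp1 ?_
    have h3 := H v' ⟨hv'.1.1, hv'.2⟩
    rw [e1 v' hv'.1.2] at hv2'
    have h4 := abs_le.1 hv2'
    constructor <;> linarith [h3.1, h3.2, h4.1, h4.2]
  · have := hg₂ x hx hxP R' hR' hL _ (hg₁ x hx hxP R' hR' hL b hb)
    exact this.mono (by linarith)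

end Crest.Agent.R105.Cln_891
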