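import Crest.Agent.R105.Cq9_463
import Crest.Agent.R105.Skp2_257

/-!
# Row 105 (S0138, picture with solids): the limit with exempt solids, literal Props

Form of 423 (#10259). `StepQ` = (B) (one halving step on a relatively clopen part, all squares of the
part have small oscillation), `LimQ` = (C)(D)(F) = output of the iteration.
`C1 C0 θ` = the constant of the final charges.
-/

set_option autoImplicit false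

namespace Crest.Agent.R105.Exs_992

open Set Filter MeasureTheory Topology Metric
open Crest.Agent.R105.CF_363 Crest.Agent.R105.Stp_722 Crest.Agent.R105.Cq_463
open Crest.Agent.R105.Skp2_257 (Comps Reg)

/-- The picture with solids: `QPic`, every cuttable hair which meets a square stands on it or hangs
from it, and every component is a point, a hair of `𝓗`, or a square with attached hairs. -/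
structure PicS (E : Set (ℝ × ℝ)) (𝒬 : Set Sqr) (𝓗 : Set Hair) : Prop where
  q : QPic E 𝒬 𝓗
  att : Att 𝒬 𝓗
  comp : ∀ P ∈ Comps E, (∃ p, P = {p}) ∨ (∃ K ∈ 𝓗, P = K.car) ∨
    ∃ Q ∈ 𝒬, Q.car ⊆ P ∧ ∀ p ∈ P, p ∉ Q.car →
      ∃ K ∈ 𝓗, K.car ⊆ P ∧ p ∈ K.car ∧ (K.car ∩ Q.car).Nonempty

/-- **(B)** one halving step on the relatively clopen part `E'`, stated by components: all
components of `E'` have oscillation `≤ 2 d`, all squares of `E'` oscillation `≤ θ d`. -/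
def StepQ (E : Set (ℝ × ℝ)) (𝒬 : Set Sqr) (𝓗 : Set Hair) (C0 θ : ℝ) : Prop :=
  ∀ r : ℝ × ℝ → ℝ, CFJ 𝓗 univ r → HasCompactSupport r → (∃ C : ℝ, ∀ p, |r p| ≤ C) →
  ∀ E', IsCompact E' → E' ⊆ E → IsCompact (E \ E') → ∀ d > 0,
    (∀ P ∈ Comps E, P ⊆ E' → OscLe Eᶜ P r (2 * d)) →
    (∀ Q ∈ 𝒬, Q.car ⊆ E' → OscLe Eᶜ Q.car r (θ * d)) →
    ∀ W, IsOpen W → E' ⊆ W → ∀ κ > 0,
    ∃ φ : ℝ × ℝ → ℝ, CFJ 𝓗 univ φ ∧ (∃ S, IsCompact S ∧ S ⊆ W ∧ ∀ p ∉ S, φ p = 0) ∧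
      (∀ p, |φ p| ≤ C0 * d) ∧ TQ E univ 𝒬 φ ≤ κ ^ 2 ∧
      ∀ P ∈ Comps E, P ⊆ E' → OscLe Eᶜ P (fun p => r p + φ p) d

/-- A family of local functionals `jm f i`, e.g. the jumps at the hairs: `jm f i` depends only on
`f` near the connected portion `P i` of `E`. -/
structure LocFun (E : Set (ℝ × ℝ)) {ι : Type} (P : ι → Set (ℝ × ℝ))
    (jm : (ℝ × ℝ → ℝ) → ι → ℝ) : Prop where
  sub : ∀ i, P i ⊆ E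
  con : ∀ i, IsPreconnected (P i)
  ne : ∀ i, (P i).Nonempty
  loc : ∀ i f g O, IsOpen O → P i ⊆ O → (∀ p ∈ O, f p = g p) → jm f i = jm g i

/-- `StepQ` with one sided increments of the charges of the squares and of the functionals `jm`
(lead (D2)): `ch (r + φ) Q ≤ ch r Q + a Q`, `jm (r + φ) i ≤ jm r i + b i`, `a, b` small in `ℓ²`. -/
def StepJ (E : Set (ℝ × ℝ)) (𝒬 : Set Sqr) (𝓗 : Set Hair) {ι : Type}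
    (jm : (ℝ × ℝ → ℝ) → ι → ℝ) (C0 θ : ℝ) : Prop :=
  ∀ r : ℝ × ℝ → ℝ, CFJ 𝓗 univ r → HasCompactSupport r → (∃ C : ℝ, ∀ p, |r p| ≤ C) →
  ∀ E', IsCompact E' → E' ⊆ E → IsCompact (E \ E') → ∀ d > 0,
    (∀ P ∈ Comps E, P ⊆ E' → OscLe Eᶜ P r (2 * d)) →
    (∀ Q ∈ 𝒬, Q.car ⊆ E' → OscLe Eᶜ Q.car r (θ * d)) →
    ∀ W, IsOpen W → E' ⊆ W → ∀ κ > 0,
    ∃ φ : ℝ × ℝ → ℝ, CFJ 𝓗 univ φ ∧ (∃ S, IsCompact S ∧ S ⊆ W ∧ ∀ p ∉ S, φ p = 0) ∧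
      (∀ p, |φ p| ≤ C0 * d) ∧ (∫ p in Eᶜ, g2 φ p) ≤ κ ^ 2 ∧
      (∃ a : Sqr → ℝ, (∀ Q, 0 ≤ a Q) ∧ (Summable fun Q : 𝒬 => a Q.1 ^ 2) ∧
        ∑' Q : 𝒬, a Q.1 ^ 2 ≤ κ ^ 2 ∧
        ∀ Q ∈ 𝒬, ch E univ (fun p => r p + φ p) Q ≤ ch E univ r Q + a Q) ∧
      (∃ b : ι → ℝ, (∀ i, 0 ≤ b i) ∧ (Summable fun i => b i ^ 2) ∧ ∑' i, b i ^ 2 ≤ κ ^ 2 ∧
        ∀ i, jm (fun p => r p + φ p) i ≤ jm r i + b i) ∧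
      ∀ P ∈ Comps E, P ⊆ E' → OscLe Eᶜ P (fun p => r p + φ p) d

/-- `ψ` is the limit of the functions `S m`, which are cut along finitely many hairs: uniformly
bounded, common compact support, eventually equal on compact subsets of `Eᶜ`, energy distance to
zero. -/
structure LimOf (E : Set (ℝ × ℝ)) (𝓗 : Set Hair) (S : ℕ → ℝ × ℝ → ℝ) (ψ : ℝ × ℝ → ℝ) : Prop where
  cfj : ∀ m, CFJ 𝓗 univ (S m)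
  bdd : ∃ C : ℝ, ∀ m p, |S m p| ≤ C
  supp : ∃ A, IsCompact A ∧ ∀ m, ∀ p ∉ A, S m p = 0
  eq : ∀ A, IsCompact A → A ⊆ Eᶜ → ∀ᶠ m in atTop, ∀ p ∈ A, S m p = ψ p
  en : Tendsto (fun m => ∫ p in Eᶜ, g2 (fun q => S m q - ψ q) p) atTop (𝓝 0)
  reg : Reg E ψ

/-- **(C)(D)(F)** output of the iteration: `ψ` is a limit of functions cut along finitely many
hairs, has oscillation zero at all components which are not solid and small charges at the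
solids (whole component!). -/
def LimQ (E : Set (ℝ × ℝ)) (𝒬 : Set Sqr) (𝓗 : Set Hair) (C1 : ℝ) : Prop :=
  ∀ Φ : ℝ × ℝ → ℝ, CFJ 𝓗 univ Φ → HasCompactSupport Φ → (∃ C : ℝ, ∀ p, |Φ p| ≤ C) →
  ∀ κ > 0, ∃ (S : ℕ → ℝ × ℝ → ℝ) (ψ : ℝ × ℝ → ℝ) (δ : Sqr → ℝ), LimOf E 𝓗 S ψ ∧
    (∀ Q, 0 ≤ δ Q) ∧ (Summable fun Q : 𝒬 => δ Q.1 ^ 2) ∧ (∑' Q : 𝒬, δ Q.1 ^ 2 ≤ κ ^ 2) ∧
    (∀ m, ∀ Q ∈ 𝒬, ch E univ (S m) Q ≤ ch E univ Φ Q + δ Q) ∧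
    (∀ P ∈ Comps E, (∀ Q ∈ 𝒬, ¬ Q.car ⊆ P) → OscLe Eᶜ P ψ 0) ∧
    (∀ P ∈ Comps E, ∀ Q ∈ 𝒬, Q.car ⊆ P → OscLe Eᶜ P ψ (C1 * (ch E univ Φ Q + δ Q))) ∧
    (∫ p in Eᶜ, g2 (fun q => Φ q - ψ q) p) ≤ κ ^ 2 ∧
    |(∫ p in Eᶜ, gx ψ p) - ∫ p in Eᶜ, gx Φ p| ≤ κ

/-- `LimQ` with the functionals `jm`; moreover the oscillations of the approximating functions
`S m` at every component are finally under control. -/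
def LimJ (E : Set (ℝ × ℝ)) (𝒬 : Set Sqr) (𝓗 : Set Hair) {ι : Type}
    (jm : (ℝ × ℝ → ℝ) → ι → ℝ) (C1 : ℝ) : Prop :=
  ∀ Φ : ℝ × ℝ → ℝ, CFJ 𝓗 univ Φ → HasCompactSupport Φ → (∃ C : ℝ, ∀ p, |Φ p| ≤ C) →
  ∀ κ > 0, ∃ (S : ℕ → ℝ × ℝ → ℝ) (ψ : ℝ × ℝ → ℝ) (δ : Sqr → ℝ) (β : ι → ℝ), LimOf E 𝓗 S ψ ∧
    S 0 = Φ ∧
    (∀ Q, 0 ≤ δ Q) ∧ (Summable fun Q : 𝒬 => δ Q.1 ^ 2) ∧ (∑' Q : 𝒬, δ Q.1 ^ 2 ≤ κ ^ 2) ∧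
    (∀ m, ∀ Q ∈ 𝒬, ch E univ (S m) Q ≤ ch E univ Φ Q + δ Q) ∧
    (∀ i, 0 ≤ β i) ∧ (Summable fun i => β i ^ 2) ∧ (∑' i, β i ^ 2 ≤ κ ^ 2) ∧
    (∀ m i, jm (S m) i ≤ jm Φ i + β i) ∧
    (∀ P ∈ Comps E, (∀ Q ∈ 𝒬, ¬ Q.car ⊆ P) → OscLe Eᶜ P ψ 0 ∧
      ∀ η > 0, ∀ᶠ m in atTop, OscLe Eᶜ P (S m) η) ∧
    (∀ P ∈ Comps E, ∀ Q ∈ 𝒬, Q.car ⊆ P → OscLe Eᶜ P ψ (C1 * (ch E univ Φ Q + δ Q)) ∧
      ∀ η > 0, ∀ᶠ m in atTop, OscLe Eᶜ P (S m) (C1 * (ch E univ Φ Q + δ Q) + η)) ∧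
    (∫ p in Eᶜ, g2 (fun q => Φ q - ψ q) p) ≤ κ ^ 2 ∧
    |(∫ p in Eᶜ, gx ψ p) - ∫ p in Eᶜ, gx Φ p| ≤ κ

/-- the constant -/
noncomputable def C1 (C0 θ : ℝ) : ℝ := 1 + (4 + 4 * C0) / θ

/-- **LIMJ** (992) -/
def LIMJ : Prop := ∀ E 𝒬 𝓗, QPic E 𝒬 𝓗 → ∀ (ι : Type) (P : ι → Set (ℝ × ℝ))
  (jm : (ℝ × ℝ → ℝ) → ι → ℝ), LocFun E P jm → ∀ C0 θ, 0 ≤ C0 → 0 < θ →
  StepJ E 𝒬 𝓗 jm C0 θ → LimJ E 𝒬 𝓗 jm (C1 C0 θ)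

/-- **LIMQ** (992) -/
def LIMQ : Prop := ∀ E 𝒬 𝓗, PicS E 𝒬 𝓗 → ∀ C0 θ, 0 ≤ C0 → 0 < θ → StepQ E 𝒬 𝓗 C0 θ →
  LimQ E 𝒬 𝓗 (C1 C0 θ)

end Crest.Agent.R105.Exs_992
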