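import Crest.Agent.R105.Stp7_722

/-!
Row 105 (S0138, picture with solids), task 2456 (STEPQ), part 0: the literal black box `LayerOpR`
(744 #10437: `Stp_722.LayerOp` with `B < B'` replaced by `B + ρ ≤ B'`) and the standing
assumptions. Definitions only.
-/

set_option autoImplicit false
set_option linter.unusedSectionVars false

open Set Filter Topology Metric

namespace Crest.Agent.R105.Spq_722

open Stp_722

local notation "cc" => connectedComponentIn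

variable {X : Type*} [TopologicalSpace X] [T2Space X]

/-- black box of 744 #10437. -/
def LayerOpR (V E : Set X) (h : X → ℝ) (Hr : Set X) (Cl : (X → ℝ) → Prop)
    (D : (X → ℝ) → (X → ℝ) → ℝ → Prop) (ρ : ℝ) : Prop :=
  ∀ (B B' : ℝ) (G W : Set X) (χ c c' : X → ℝ) (R τ m ε : ℝ), B + ρ ≤ B' → IsCompact G → G ⊆ Hr →
    (∀ x ∈ G, ∀ y ∈ cc E x, y ∈ G) → IsOpen W → G ⊆ W →
    (∀ x ∈ G, (∃ y ∈ cc E x, h y ≤ B) ∧ ∃ y ∈ cc E x, B' ≤ h y) →
    Cl χ → (∀ x, |χ x| ≤ R) → (∀ x, |c x| ≤ R) → (∀ x, |c' x| ≤ R) →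
    (∀ x ∈ W, ∀ᶠ y in 𝓝 x, c y = c x) → (∀ x ∈ W, ∀ᶠ y in 𝓝 x, c' y = c' x) →
    0 < τ → 0 < m → 0 < ε →
    ∃ z z' : X → ℝ, Cut V E h B W m z ∧ Cut V E (fun x => - h x) (-B') W m z' ∧
      (∀ x ∈ G, OneOn V h B (cc E x) z ∨ OneOn V (fun x => - h x) (-B') (cc E x) z') ∧
      Cl (op2 h B B' τ z z' c c' χ) ∧ D χ (op2 h B B' τ z z' c c' χ) ε

/-- standing assumptions of the step with solids -/
structure SetupR (V E : Set X) (h : X → ℝ) (Hr : Set X) (Cl : (X → ℝ) → Prop)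
    (D : (X → ℝ) → (X → ℝ) → ℝ → Prop) (ρ : ℝ) : Prop where
  hE : IsCompact E
  hh : Continuous h
  levI : ∀ x ∈ E, ∀ I : Set ℝ, I.OrdConnected → Lev V h (cc E x ∩ h ⁻¹' I)
  D0 : ∀ χ, Cl χ → D χ χ 0
  Dadd : ∀ χ₁ χ₂ χ₃ s t, D χ₁ χ₂ s → D χ₂ χ₃ t → D χ₁ χ₃ (s + t)
  layer : LayerOpR V E h Hr Cl D ρ

/-- a saturated family of components whose complement is open on the components (then the members
crossing two levels form a compact set) -/
structure FamC (E g : Set X) : Prop where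
  sub : g ⊆ E
  sat : ∀ x ∈ g, ∀ y ∈ cc E x, y ∈ g
  nb : ∀ x ∈ E \ g, ∃ O, IsOpen O ∧ cc E x ⊆ O ∧ ∀ y ∈ E, cc E y ⊆ O → y ∉ g

end Crest.Agent.R105.Spq_722
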