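import Crest.Agent.R105.Laq3_744
import Crest.Agent.R105.Spq0_722

/-!
# Row 105 (S0138, picture with solids): class `ClQ`, distance `DQ`, and `Spq_722.LayerOpR`
-/

set_option autoImplicit false

noncomputable section

namespace Crest.Agent.R105.Laq4_744

open Set Filter MeasureTheory Topology Metric
open CF_363 Stp_722 Cq_463 Lop2_744 Lop3_744 Lop4_744 Laq2_744 Laq3_744
open Skp2_257 (Comps Lo Up)
open Nal_649 (FamQ Win OneNear)
open Fnc_189 (LayOutQ isOpen_Lo isOpen_Up)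
open scoped ENNReal NNReal

/-- the class of the STEP with solids -/
def ClQ (𝓗 : Set Hair) (χ : ℝ × ℝ → ℝ) : Prop :=
  CFJ 𝓗 univ χ ∧ HasCompactSupport χ ∧ ∃ C : ℝ, ∀ p, |χ p| ≤ C

/-- the distance of the STEP with solids: energy off `E` and charges of the squares -/
def DQ (E : Set (ℝ × ℝ)) (𝒬 : Set Sqr) (𝓗 : Set Hair) (χ χ' : ℝ × ℝ → ℝ) (ε : ℝ) : Prop :=
  0 ≤ ε ∧ ClQ 𝓗 χ ∧ ClQ 𝓗 χ' ∧ TQ E univ 𝒬 (fun q => χ' q - χ q) ≤ ε ^ 2

/-- the points whose component contains no square of side `≥ ρ` -/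
def HrQ (E : Set (ℝ × ℝ)) (𝒬 : Set Sqr) (ρ : ℝ) : Set (ℝ × ℝ) :=
  {x ∈ E | ∀ Q ∈ 𝒬, Q.car ⊆ connectedComponentIn E x → Q.s < ρ}

variable {E : Set (ℝ × ℝ)} {𝒬 : Set Sqr} {𝓗 : Set Hair} {f g f' f'' : ℝ × ℝ → ℝ}

theorem ClQ.cc (h : ClQ 𝓗 f) : Cc 𝓗 univ f :=
  ⟨h.1, tsupport f, h.2.1, fun _ _ hp => image_eq_zero_of_notMem_tsupport hp⟩

theorem _root_.Crest.Agent.R105.Cq_463.Cc.ae_diff (h : Cc 𝓗 univ f) : ∀ᵐ p : ℝ × ℝ, DifferentiableAt ℝ f p := by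
  obtain ⟨⟨J, hJ, L, C, hL, h1, -⟩, -⟩ := h
  have h2 := h1.ae_differentiableAt (μ := volume) (isOpen_diff_cut isOpen_univ J)
  have h3 : ∀ᵐ p : ℝ × ℝ, p ∉ cut J := measure_eq_zero_iff_ae_notMem.mp (volume_cut J)
  filter_upwards [h2, h3] with p hp hp' using hp ⟨mem_univ p, hp'⟩

theorem _root_.Crest.Agent.R105.Cq_463.Cc.integrable (h : Cc 𝓗 univ f) : Integrable (g2 f) := by
  obtain ⟨⟨J, hJ, L, C, hL, h1, -⟩, S, hS, h0⟩ := h
  have := integrableOn_z hL isOpen_univ h1 hS fun x hx => h0 x (mem_univ _) hx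
  rwa [integrableOn_univ] at this

/-- weighted subadditivity of the energy with charges -/
theorem TQ_add_weighted (hE : QPic E 𝒬 𝓗) (hf : Cc 𝓗 univ f) (hg : Cc 𝓗 univ g) {s t : ℝ}
    (hs : 0 < s) (ht : 0 < t) :
    TQ E univ 𝒬 (fun q => f q + g q) ≤
      (1 + t / s) * TQ E univ 𝒬 f + (1 + s / t) * TQ E univ 𝒬 g := by
  have e1 : En (univ \ E) (fun q => f q + g q) ≤
      (1 + t / s) * En (univ \ E) f + (1 + s / t) * En (univ \ E) g := by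
    unfold En
    rw [← integral_const_mul, ← integral_const_mul,
      ← integral_add (hf.integrable.integrableOn.const_mul _)
        (hg.integrable.integrableOn.const_mul _)]
    refine integral_mono_ae (hf.add hg).integrable.integrableOn
      ((hf.integrable.integrableOn.const_mul _).add (hg.integrable.integrableOn.const_mul _)) ?_
    filter_upwards [ae_restrict_of_ae hf.ae_diff, ae_restrict_of_ae hg.ae_diff] with p hp hp'
    exact g2_add_weighted hp hp' hs ht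
  have e2 := Ch_le_of_le hE convex_univ (hf.add hg).1 hf.1 hg.1 (a := 1 + t / s) (b := 1 + s / t)
    (fun Q _ => by
      have h1 := chg_add (P := Q.car ∩ closure univ) (CFJ.fin hE hf.1 _) (CFJ.fin hE hg.1 _)
      have h2 := pow_le_pow_left₀ (chg_nonneg _ _ _) h1 2
      refine h2.trans ?_
      unfold ch
      set a := chg (Eᶜ ∩ univ) (Q.car ∩ closure univ) f
      set b := chg (Eᶜ ∩ univ) (Q.car ∩ closure univ) g
      have e : (1 + t / s) * a ^ 2 + (1 + s / t) * b ^ 2 - (a + b) ^ 2 =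
          (t * a - s * b) ^ 2 / (s * t) := by
        field_simp
        ring
      have : 0 ≤ (t * a - s * b) ^ 2 / (s * t) := by positivity
      linarith)
  unfold TQ
  linarith

/-- Minkowski -/
theorem TQ_add_sq (hE : QPic E 𝒬 𝓗) (hf : Cc 𝓗 univ f) (hg : Cc 𝓗 univ g) {s t : ℝ}
    (hs : 0 ≤ s) (ht : 0 ≤ t) (h1 : TQ E univ 𝒬 f ≤ s ^ 2) (h2 : TQ E univ 𝒬 g ≤ t ^ 2) :
    TQ E univ 𝒬 (fun q => f q + g q) ≤ (s + t) ^ 2 := by
  have hle : ∀ η : ℝ, 0 < η → TQ E univ 𝒬 (fun q => f q + g q) ≤ (s + t + 2 * η) ^ 2 := by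
    intro η hη
    have hs' : 0 < s + η := by linarith
    have ht' : 0 < t + η := by linarith
    refine (TQ_add_weighted hE hf hg hs' ht').trans ?_
    have k1 : TQ E univ 𝒬 f ≤ (s + η) ^ 2 := h1.trans (by nlinarith)
    have k2 : TQ E univ 𝒬 g ≤ (t + η) ^ 2 := h2.trans (by nlinarith)
    calc _ ≤ (1 + (t + η) / (s + η)) * (s + η) ^ 2 + (1 + (s + η) / (t + η)) * (t + η) ^ 2 := by
          gcongr
      _ = (s + t + 2 * η) ^ 2 := by
          field_simp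
          ring
  have hI0 := TQ_nonneg E univ 𝒬 (fun q => f q + g q)
  have h4 : √(TQ E univ 𝒬 (fun q => f q + g q)) ≤ s + t := by
    refine le_of_forall_pos_le_add fun η hη => ?_
    have h5 := hle (η / 2) (by positivity)
    have h6 : s + t + 2 * (η / 2) = s + t + η := by ring
    rw [h6] at h5
    exact Real.sqrt_le_left (by linarith) |>.2 h5
  calc _ = √(TQ E univ 𝒬 (fun q => f q + g q)) ^ 2 := (Real.sq_sqrt hI0).symm
    _ ≤ (s + t) ^ 2 := by gcongr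

theorem DQ.refl (h : ClQ 𝓗 f) : DQ E 𝒬 𝓗 f f 0 := by
  refine ⟨le_rfl, h, h, ?_⟩
  have : (fun q => f q - f q) = (0 : ℝ × ℝ → ℝ) := by funext q; simp
  rw [this, TQ_zero]
  simp

theorem DQ.trans (hE : QPic E 𝒬 𝓗) {s t : ℝ} (h1 : DQ E 𝒬 𝓗 f f' s) (h2 : DQ E 𝒬 𝓗 f' f'' t) :
    DQ E 𝒬 𝓗 f f'' (s + t) := by
  obtain ⟨hs, c1, c2, e1⟩ := h1
  obtain ⟨ht, _, c3, e2⟩ := h2
  refine ⟨add_nonneg hs ht, c1, c3, ?_⟩
  have hsum : (fun q => f'' q - f q) = fun q => (f' q - f q) + (f'' q - f' q) := by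
    funext q; ring
  rw [hsum]
  exact TQ_add_sq hE (c2.cc.sub c1.cc) (c3.cc.sub c2.cc) hs ht e1 e2

/-! ### the black box -/

theorem TQ_congr (hE : QPic E 𝒬 𝓗) {W : Set (ℝ × ℝ)} (hW : IsOpen W) {u v : ℝ × ℝ → ℝ}
    (h : EqOn u v W) : TQ E W 𝒬 u = TQ E W 𝒬 v := by
  have e1 : En (W \ E) u = En (W \ E) v :=
    En_congr (hW.sdiff hE.cpt.isClosed) fun p hp => h hp.1
  have e2 : Ch E W 𝒬 u = Ch E W 𝒬 v := by
    unfold Ch ch
    refine tsum_congr fun Q => ?_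
    rw [chg_congr isOpen_univ (subset_univ _) fun q hq => h hq.2.2]
  unfold TQ
  rw [e1, e2]

theorem oneQ_of_half (hE : QPic E 𝒬 𝓗) {W N : Set (ℝ × ℝ)} {h : ℝ × ℝ → ℝ} {B ε : ℝ}
    {z : ℝ × ℝ → ℝ} (hz : Nal_649.HalfQ E 𝒬 𝓗 W N ε z) (hW : W = {x | h x < B})
    (hWo : IsOpen W) : OneQ E 𝒬 𝓗 h B N ε (W.indicator z) where
  cf := by
    rw [← hW]
    exact cfj_congr hz.cf fun p hp => (indicator_of_mem hp z).symm
  z01 := fun x => by
    by_cases hx : x ∈ W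
    · rw [indicator_of_mem hx]; exact hz.rg x
    · rw [indicator_of_notMem hx]; exact ⟨le_rfl, zero_le_one⟩
  supp := by
    obtain ⟨S, hS, hSN, h0⟩ := hz.sp
    refine ⟨S, hS, hSN, fun x hx => ?_⟩
    by_cases hxW : x ∈ W
    · rw [indicator_of_mem hxW]; exact h0 x hxW hx
    · rw [indicator_of_notMem hxW]
  en := by
    rw [← hW, TQ_congr hE hWo (v := z) fun p hp => indicator_of_mem hp z]
    exact hz.en

theorem _root_.Crest.Agent.R105.Laq3_744.OneQ.mono {N : Set (ℝ × ℝ)} {h : ℝ × ℝ → ℝ} {B ε ε' : ℝ}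
    {z : ℝ × ℝ → ℝ} (hz : OneQ E 𝒬 𝓗 h B N ε z) (hε : ε ≤ ε') : OneQ E 𝒬 𝓗 h B N ε' z :=
  ⟨hz.cf, hz.z01, hz.supp, hz.en.trans hε⟩

/-- one operation: class, support -/
theorem _root_.Crest.Agent.R105.Laq3_744.OneQ.op_spec {h : ℝ × ℝ → ℝ} {B τ R ε : ℝ} {N W : Set (ℝ × ℝ)} {z c χ : ℝ × ℝ → ℝ}
    (hz : OneQ E 𝒬 𝓗 h B N ε z) (hh : ∀ x y, |h x - h y| ≤ dist x y) (hτ : 0 < τ)
    (hNW : N ⊆ W) (hχ : ClQ 𝓗 χ)
    (hc : ∀ x ∈ W, ∀ᶠ y in 𝓝 x, c y = c x) (hcR : ∀ x, |c x| ≤ R) (hχR : ∀ x, |χ x| ≤ R) :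
    ClQ 𝓗 (op h B τ z c χ) := by
  obtain ⟨C, hC, hCN, h0⟩ := hz.supp
  refine ⟨op_cfj hh hτ hχ.1 hz.cf hz.z01 hC.isClosed h0 (fun x hx => hc x (hNW (hCN hx))) hcR hχR,
    ?_, R, op_abs_le hz.z01 hcR hχR⟩
  refine HasCompactSupport.intro (hC.union hχ.2.1) fun x hx => ?_
  rw [mem_union, not_or] at hx
  rw [op_eq_of_z (h0 x hx.1)]
  exact image_eq_zero_of_notMem_tsupport hx.2

/-- the family of the components contained in a saturated set -/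
def famC (E G : Set (ℝ × ℝ)) : Set (Set (ℝ × ℝ)) := {P | P ∈ Comps E ∧ P ⊆ G}

theorem sUnion_famC {G : Set (ℝ × ℝ)} (hGE : G ⊆ E)
    (hGs : ∀ x ∈ G, ∀ y ∈ connectedComponentIn E x, y ∈ G) : ⋃₀ famC E G = G := by
  ext x
  constructor
  · rintro ⟨P, hP, hxP⟩
    exact hP.2 hxP
  · intro hx
    exact ⟨connectedComponentIn E x, ⟨⟨x, hGE hx, rfl⟩, hGs x hx⟩,
      mem_connectedComponentIn (hGE hx)⟩

theorem slab_neg (B : ℝ) : Slab {x : ℝ × ℝ | -x.2 < -B} := by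
  have : {x : ℝ × ℝ | -x.2 < -B} = {p | B < p.2} := by
    ext x; simp
  rw [this]
  exact slab_up B

/-- **`LayerOpR`** for a picture with squares. -/
theorem layerOpR (hE : QPic E 𝒬 𝓗) {ρ : ℝ} (hρ : 0 < ρ)
    (hL : ∀ g Bm Bp, FamQ E g Bm Bp → Win 𝒬 g Bm Bp → LayOutQ E 𝒬 𝓗 g Bm Bp) :
    Spq_722.LayerOpR Eᶜ E Prod.snd (HrQ E 𝒬 ρ) (ClQ 𝓗) (DQ E 𝒬 𝓗) ρ := by
  classical
  intro B B' G W χ c c' R τ m ε hBB hG hGH hGs hW hGW hcross hχ hχR hcR hc'R hc hc' hτ hm hε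
  have hBB' : B < B' := by linarith
  have hGE : G ⊆ E := fun x hx => (hGH hx).1
  have hun := sUnion_famC hGE hGs
  have hFam : FamQ E (famC E G) B B' := by
    refine ⟨hBB', fun P hP => hP.1, by rw [hun]; exact hG, ?_⟩
    rintro P ⟨⟨x, hx, rfl⟩, hPG⟩
    exact hcross x (hPG (mem_connectedComponentIn hx))
  have hWin : Win 𝒬 (famC E G) B B' := by
    rintro P ⟨⟨x, hx, rfl⟩, hPG⟩ Q hQ hQP
    have h1 := (hGH (hPG (mem_connectedComponentIn hx))).2 Q hQ hQP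
    by_contra hcon
    push Not at hcon
    linarith [hcon.1, hcon.2]
  obtain ⟨a, b, hab, hEab⟩ := exists_height hE.cpt
  obtain ⟨δ₁, hδ₁, H₁⟩ := exists_cost (h := Prod.snd) (B := B) (τ := τ) (R := R) hE lip_snd hτ
    (volume_snd_eq B) (slab_lo B) hχ.1 hχR hEab hab.le (ε := ε ^ 2 / 4) (by positivity)
  obtain ⟨δ₂, hδ₂, H₂⟩ := exists_cost (h := fun x : ℝ × ℝ => - x.2) (B := -B') (τ := τ) (R := R)
    hE lip_neg_snd hτ (volume_neg_snd_eq (-B')) (slab_neg B') hχ.1 hχR hEab hab.le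
    (ε := ε ^ 2 / 4) (by positivity)
  set δ : ℝ := min δ₁ δ₂ with hδ
  have hδ0 : 0 < δ := lt_min hδ₁ hδ₂
  obtain ⟨O₁, hEO, hO₁, -, hvO⟩ := hE.cpt.measurableSet.exists_isOpen_sdiff_lt
    (μ := (volume : Measure (ℝ × ℝ))) hE.cpt.measure_lt_top.ne (ε := ENNReal.ofReal δ)
    (ENNReal.ofReal_pos.2 hδ0).ne'
  have hbo : IsOpen {p : ℝ × ℝ | a < p.2 ∧ p.2 < b} :=
    (isOpen_lt continuous_const continuous_snd).inter (isOpen_lt continuous_snd continuous_const)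
  obtain ⟨n, p, N, hp, hNo, hNU, -, hsat, hcov⟩ := exists_thick hE.cpt hG hGE
    (fun _ => W ∩ (O₁ ∩ {p : ℝ × ℝ | a < p.2 ∧ p.2 < b}))
    (fun x _ => hW.inter (hO₁.inter hbo))
    (fun x hx => subset_inter (fun y hy => hGW (hGs x hx y hy))
      ((connectedComponentIn_subset E x).trans (subset_inter hEO hEab)))
  set N' : Set (ℝ × ℝ) := ⋃ i, N i with hN'
  have hN'o : IsOpen N' := isOpen_iUnion hNo
  have hN'U : N' ⊆ W ∩ (O₁ ∩ {p : ℝ × ℝ | a < p.2 ∧ p.2 < b}) := iUnion_subset hNU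
  have hN'W : N' ⊆ W := hN'U.trans inter_subset_left
  have hN'ab : ∀ p ∈ N', a < p.2 ∧ p.2 < b := fun p hp => (hN'U hp).2.2
  have hN'v : volume (N' \ E) ≤ ENNReal.ofReal δ :=
    (measure_mono (sdiff_subset_sdiff_left (hN'U.trans (inter_subset_right.trans
      inter_subset_left)))).trans hvO.le
  have hN'sat : ∀ Q ∈ 𝒬, (Q.car ∩ N').Nonempty → Q.car ⊆ N' := by
    rintro Q hQ ⟨y, hyQ, hyN⟩
    obtain ⟨i, hi⟩ := mem_iUnion.1 hyN
    have hyE : y ∈ E := hE.sub Q hQ hyQ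
    have h1 := hsat i y hyE ⟨y, mem_connectedComponentIn hyE, hi⟩
    exact (Q.convex_car.isPreconnected.subset_connectedComponentIn hyQ (hE.sub Q hQ)).trans
      (h1.trans (subset_iUnion N i))
  obtain ⟨zm, zp, hzm, hzp, hom, hop, hone⟩ := hL _ B B' hFam hWin N' hN'o
    (by rw [hun]; exact hcov) (⌈1 / m⌉₊ + 1) (by omega) δ hδ0
  have hMm : (1 : ℝ) / ((⌈1 / m⌉₊ + 1 : ℕ) : ℝ) ≤ m := by
    rw [div_le_iff₀ (by positivity)]
    have h2 : 1 / m ≤ ((⌈1 / m⌉₊ + 1 : ℕ) : ℝ) := by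
      push_cast
      linarith [Nat.le_ceil (1 / m)]
    rw [div_le_iff₀ hm] at h2
    linarith
  have hUp : Up B' = {x : ℝ × ℝ | - x.2 < -B'} := by
    ext x; simp [Up]
  have hz1 : OneQ E 𝒬 𝓗 Prod.snd B N' δ ((Lo B).indicator zm) :=
    oneQ_of_half hE hzm rfl (isOpen_Lo B)
  have hz2 : OneQ E 𝒬 𝓗 (fun x => - x.2) (-B') N' δ ((Up B').indicator zp) :=
    oneQ_of_half hE hzp hUp (isOpen_Up B')
  have hcl1 : ClQ 𝓗 (op Prod.snd B τ ((Lo B).indicator zm) c χ) :=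
    hz1.op_spec lip_snd hτ hN'W hχ hc hcR hχR
  have hcl2 : ClQ 𝓗 (op (fun x => - x.2) (-B') τ ((Up B').indicator zp) c' χ) :=
    hz2.op_spec lip_neg_snd hτ hN'W hχ hc' hc'R hχR
  have hcl : ClQ 𝓗 (op2 Prod.snd B B' τ ((Lo B).indicator zm) ((Up B').indicator zp) c c' χ) :=
    hz2.op_spec lip_neg_snd hτ hN'W hcl1 hc' hc'R (op_abs_le hz1.z01 hcR hχR)
  have en1 := H₁ N' _ c hN'ab (hN'v.trans (ENNReal.ofReal_le_ofReal (min_le_left _ _)))
    (hz1.mono (min_le_left _ _)) hcR (fun x hx => hc x (hN'W hx)) hN'sat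
  have en2 := H₂ N' _ c' hN'ab (hN'v.trans (ENNReal.ofReal_le_ofReal (min_le_right _ _)))
    (hz2.mono (min_le_right _ _)) hc'R (fun x hx => hc' x (hN'W hx)) hN'sat
  refine ⟨(Lo B).indicator zm, (Up B').indicator zp, ⟨hz1.z01, ?_, ?_⟩, ⟨hz2.z01, ?_, ?_⟩, ?_,
    hcl, hε.le, hχ, hcl, ?_⟩
  · obtain ⟨C, hC, hCN, h0⟩ := hz1.supp
    exact ⟨C, hC.isClosed, hCN.trans hN'W, h0⟩
  · intro x hx
    refine ((hom _ ⟨x, hx, rfl⟩).mono hMm).congr isOpen_univ (subset_univ _) fun q hq => ?_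
    exact indicator_of_mem hq.2.2 zm
  · obtain ⟨C, hC, hCN, h0⟩ := hz2.supp
    exact ⟨C, hC.isClosed, hCN.trans hN'W, h0⟩
  · intro x hx
    have h3 : OscLe (Eᶜ ∩ Up B') (connectedComponentIn E x ∩ {p | B' ≤ p.2})
        ((Up B').indicator zp) m :=
      ((hop _ ⟨x, hx, rfl⟩).mono hMm).congr isOpen_univ (subset_univ _) fun q hq =>
        indicator_of_mem hq.2.2 zp
    have e1 : {y : ℝ × ℝ | (fun x : ℝ × ℝ => - Prod.snd x) y < -B'} = Up B' := hUp.symm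
    have e2 : {y : ℝ × ℝ | (fun x : ℝ × ℝ => - Prod.snd x) y ≤ -B'} = {p | B' ≤ p.2} := by
      ext y; simp
    rw [e1, e2]
    exact h3
  · intro x hx
    have hxE := hGE hx
    rcases hone _ ⟨⟨x, hxE, rfl⟩, hGs x hx⟩ with ⟨O, hO, hKO, hO1⟩ | ⟨O, hO, hKO, hO1⟩
    · left
      refine ⟨O, hO, hKO, fun q hq hqB => ?_⟩
      rw [indicator_of_mem (show q ∈ Lo B from hqB)]
      exact hO1 q hq hqB
    · right
      refine ⟨O, hO, ?_, fun q hq hqB => ?_⟩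
      · rintro y ⟨hy, hyB⟩
        refine hKO ⟨hy, ?_⟩
        have h4 : - y.2 ≤ -B' := hyB
        change B' ≤ y.2
        linarith
      · have h4 : - q.2 < -B' := hqB
        have h5 : q ∈ Up B' := by change B' < q.2; linarith
        rw [indicator_of_mem h5]
        exact hO1 q hq h5
  · rw [op2_sub hBB' hτ]
    have := TQ_add_le hE isOpen_univ convex_univ (hcl1.cc.sub hχ.cc) (hcl2.cc.sub hχ.cc)
    linarith

end Crest.Agent.R105.Laq4_744
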