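import Crest.Agent.R105.Cln6_891
import Crest.Agent.R105.Spq3_722
import Crest.Agent.R105.Exs0_992
import Crest.Agent.R105.Laq4_744

/-!
Row 105 (S0138, picture with solids), task 2398, part 7: `Solid` and `Comp` from `PicS` (992), and
CLEANQ in the letters of 722 (`Spq_722.Treat`, class `ClQ`, distance `DQ` of 744).
-/

set_option autoImplicit false

open Set Filter MeasureTheory Topology Metric
open scoped ENNReal NNReal

namespace Crest.Agent.R105.Cln_891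

open CF_363 Stp_722 Cq_463 Nal_649 Exs_992 Laq4_744
open Crest.Agent.R105.Skp2_257 (Comps Lo Up)

local notation "cc" => connectedComponentIn

variable {E : Set (ℝ × ℝ)} {𝒬 : Set Sqr} {𝓗 : Set Hair} {Q : Sqr} {φ : ℝ × ℝ → ℝ}
  {P : Set (ℝ × ℝ)}

theorem mem_corner (Q : Sqr) : (Q.x, Q.y) ∈ Q.car :=
  Sqr.mem_car.2 ⟨⟨le_rfl, by linarith [Q.hs]⟩, ⟨le_rfl, by linarith [Q.hs]⟩⟩

theorem corner_mem (hE : QPic E 𝒬 𝓗) (hQ : Q ∈ 𝒬) : (Q.x, Q.y) ∈ E := hE.sub Q hQ (mem_corner Q)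

theorem car_sub (hE : QPic E 𝒬 𝓗) (hQ : Q ∈ 𝒬) : Q.car ⊆ comp E Q :=
  Q.convex_car.isPreconnected.subset_connectedComponentIn (mem_corner Q) (hE.sub Q hQ)

theorem isPreconnected_hair (K : Hair) : IsPreconnected K.car := by
  rw [K.car_eq]
  exact isPreconnected_singleton.prod isPreconnected_Icc

/-- two components with a common point -/
theorem cc_eq {x y z : ℝ × ℝ} (h1 : z ∈ cc E x) (h2 : z ∈ cc E y) : cc E x = cc E y :=
  (connectedComponentIn_eq h1).trans (connectedComponentIn_eq h2).symm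

/-- the component which contains a square is a solid -/
theorem solid_of (hS : PicS E 𝒬 𝓗) {x : ℝ × ℝ} (hx : x ∈ E) (hQ : Q ∈ 𝒬) (hQx : Q.car ⊆ cc E x) :
    Solid E 𝒬 𝓗 (cc E x) Q := by
  have hs := Q.hs
  -- the structure of the component
  have hst : ∀ p ∈ cc E x, p ∉ Q.car →
      ∃ K ∈ 𝓗, K.car ⊆ cc E x ∧ p ∈ K.car ∧ (K.car ∩ Q.car).Nonempty := by
    rcases hS.comp (cc E x) ⟨x, hx, rfl⟩ with ⟨p, hp⟩ | ⟨K, hK, hP⟩ | ⟨Q', hQ', hQ'P, h⟩
    · exfalso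
      have h1 : (Q.x, Q.y) = p := by
        have := hQx (mem_corner Q); rw [hp] at this; exact this
      have h2 : (Q.x + Q.s, Q.y) = p := by
        have : (Q.x + Q.s, Q.y) ∈ cc E x := hQx (Sqr.mem_car.2
          ⟨⟨by simp only; linarith, le_rfl⟩, ⟨le_rfl, by simp only; linarith⟩⟩)
        rw [hp] at this; exact this
      have h3 := congrArg Prod.fst (h1.trans h2.symm)
      simp only at h3
      linarith
    · exfalso
      have h1 : (Q.x, Q.y) ∈ K.car := hP ▸ hQx (mem_corner Q)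
      have h2 : (Q.x + Q.s, Q.y) ∈ K.car := hP ▸ hQx (Sqr.mem_car.2
        ⟨⟨by simp only; linarith, le_rfl⟩, ⟨le_rfl, by simp only; linarith⟩⟩)
      have h3 : Q.x = K.x := h1.1
      have h4 : Q.x + Q.s = K.x := h2.1
      linarith
    · have hQQ : Q = Q' := hS.q.sep (cc E x) (connectedComponentIn_subset _ _)
        isPreconnected_connectedComponentIn Q hQ Q' hQ' ⟨_, hQx (mem_corner Q), mem_corner Q⟩
        ⟨_, hQ'P (mem_corner Q'), mem_corner Q'⟩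
      rw [hQQ]
      exact h
  refine ⟨hQ, Thin_12.isCompact_cc hS.q.cpt x, isPreconnected_connectedComponentIn,
    connectedComponentIn_subset _ _, hQx, ?_, ?_⟩
  · intro p hp
    by_cases hpQ : p ∈ Q.car
    · exact (Sqr.mem_car.1 hpQ).1
    · obtain ⟨K, -, -, hpK, q, hqK, hqQ⟩ := hst p hp hpQ
      have h1 : p.1 = q.1 := hpK.1.trans hqK.1.symm
      rw [h1]
      exact (Sqr.mem_car.1 hqQ).1
  · rintro K hK ⟨p, hpK, hpP⟩
    by_cases hKQ : (K.car ∩ Q.car).Nonempty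
    · rcases hS.att K hK Q hQ hKQ with h | h
      · exact Or.inl h.ge
      · exact Or.inr h.le
    · have hKP : K.car ⊆ cc E x := by
        have h1 : K.car ⊆ cc E p := (isPreconnected_hair K).subset_connectedComponentIn hpK
          (hS.q.hsub K hK)
        rwa [← connectedComponentIn_eq hpP] at h1
      have hpt : ∀ p ∈ K.car, Q.y + Q.s ≤ p.2 ∨ p.2 ≤ Q.y := by
        intro p hp
        obtain ⟨K', hK', -, hpK', hKQ'⟩ := hst p (hKP hp) fun h => hKQ ⟨p, hp, h⟩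
        rcases hS.att K' hK' Q hQ hKQ' with h | h
        · left; rw [← h]; exact hpK'.2.1
        · right; rw [← h]; exact hpK'.2.2
      by_contra hcon
      push Not at hcon
      obtain ⟨h1, h2⟩ := hcon
      have hbt := K.hbt
      have hb : (K.x, K.b) ∈ K.car := ⟨rfl, le_rfl, hbt.le⟩
      have ht : (K.x, K.t) ∈ K.car := ⟨rfl, hbt.le, le_rfl⟩
      have h3 : K.b ≤ Q.y := (hpt _ hb).resolve_left (by simp only; linarith)
      have h4 : Q.y + Q.s ≤ K.t := (hpt _ ht).resolve_right (by simp only; linarith)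
      have hm : (K.x, Q.y + Q.s / 2) ∈ K.car :=
        ⟨rfl, by simp only; linarith, by simp only; linarith⟩
      rcases hpt _ hm with h | h
      · simp only at h; linarith
      · simp only at h; linarith

theorem solid_comp (hS : PicS E 𝒬 𝓗) (hQ : Q ∈ 𝒬) : Solid E 𝒬 𝓗 (comp E Q) Q :=
  solid_of hS (corner_mem hS.q hQ) hQ (car_sub hS.q hQ)

theorem comp_of_picS (hS : PicS E 𝒬 𝓗) : Comp E 𝒬 𝓗 := by
  intro x hx
  have hxx : x ∈ cc E x := mem_connectedComponentIn hx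
  rcases hS.comp (cc E x) ⟨x, hx, rfl⟩ with ⟨p, hp⟩ | ⟨K, hK, hP⟩ | ⟨Q', hQ', hQ'P, -⟩
  · left
    intro q hq
    rw [hp] at hq hxx
    rw [mem_singleton_iff.1 hq, mem_singleton_iff.1 hxx]
  · left
    intro q hq
    rw [hP] at hq hxx
    exact hq.1.trans hxx.1.symm
  · exact Or.inr ⟨Q', solid_of hS hx hQ' hQ'P⟩

/-! ### `Treat` at a solid -/

/-- the two plane (or half plane) cut-offs of a solid which CLEANQ needs -/
def Outs (E : Set (ℝ × ℝ)) (𝒬 : Set Sqr) (𝓗 : Set Hair) (Q : Sqr) : Prop :=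
  (∀ B > Q.y + Q.s, OutN E 𝒬 𝓗 (comp E Q) 1 B) ∧ ∀ B > -Q.y, OutN E 𝒬 𝓗 (comp E Q) (-1) B

theorem outs_of_null (hup : ∀ B, Q.y + Q.s < B → NullUp E 𝒬 𝓗 (comp E Q) B)
    (hdn : ∀ B, B < Q.y → NullLo E 𝒬 𝓗 (comp E Q) B) : Outs E 𝒬 𝓗 Q :=
  ⟨fun B hB => outN_of_nullUp (hup B hB), fun B hB => by
    have := outN_of_nullLo (hdn (-B) (by have : B > -Q.y := hB; linarith))
    rwa [neg_neg] at this⟩

/-- **CLEANQ at a solid in the letters of 722.** -/
theorem treat_solid (hS : PicS E 𝒬 𝓗) (hQ : Q ∈ 𝒬) (hO : Outs E 𝒬 𝓗 Q) :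
    Spq_722.Treat Eᶜ E Prod.snd (ClQ 𝓗) (DQ E 𝒬 𝓗) (Sqr.car '' 𝒬) (comp E Q) := by
  intro χ c N ε η hχ hc hsq hN hPN hε hη
  obtain ⟨hχ1, hχ2, R, hR⟩ := hχ
  obtain ⟨χ', S, h1, h2, h3, h4, h5, h6, -, h8, -, h10, h11⟩ := cleanQ hS.q (comp_of_picS hS)
    (corner_mem hS.q hQ) (solid_comp hS hQ) hO.1 hO.2 hχ1 hR hN hPN (ε := ε ^ 2) (by positivity) hη
  have hcl : ClQ 𝓗 χ' := by
    refine ⟨h1, ?_, R, h2⟩
    refine HasCompactSupport.intro (hχ2.union h3) fun p hp => ?_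
    rw [h5 p fun h => hp (Or.inr h)]
    exact image_eq_zero_of_notMem_tsupport fun h => hp (Or.inl h)
  refine ⟨χ', ⟨hε.le, ⟨hχ1, hχ2, R, hR⟩, hcl, h6⟩, hcl, ⟨S, h3.isClosed, h4, h5⟩, ?_, ?_, ?_⟩
  · intro lo hi hl q hq
    exact h10 q lo hi (hl q hq) ⟨N, hN, (car_sub hS.q hQ).trans hPN, fun v hv => hl v hv⟩
  · exact h8 c (hsq Q.car ⟨Q, hQ, rfl⟩ (car_sub hS.q hQ))
  · exact h11

end Crest.Agent.R105.Cln_891
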