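import Crest.Agent.R105.Cln7_891
import Crest.Agent.R105.SkT1_137

/-!
Row 105 (S0138, picture with solids), task 2398, part 8: `treat_solid` from the cheap cut-offs
(`SkT1_137.Cheap`) or from `SOLO`.
-/

set_option autoImplicit false

open Set Filter MeasureTheory Topology Metric
open scoped ENNReal NNReal

namespace Crest.Agent.R105.Cln_891

open CF_363 Stp_722 Cq_463 Nal_649 Exs_992 Laq4_744
open Crest.Agent.R105.Skp2_257 (Comps Lo Up)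

local notation "cc" => connectedComponentIn

variable {E W : Set (ℝ × ℝ)} {𝒬 : Set Sqr} {𝓗 : Set Hair} {Q : Sqr} {f : ℝ × ℝ → ℝ}
  {P : Set (ℝ × ℝ)}

theorem TQ_mono_W (hE : QPic E 𝒬 𝓗) (hW : Convex ℝ W) (hf : Cc 𝓗 univ f) :
    TQ E W 𝒬 f ≤ TQ E univ 𝒬 f := by
  unfold TQ
  refine add_le_add ?_ ?_
  · unfold En
    exact setIntegral_mono_set hf.integrable.integrableOn
      (Filter.Eventually.of_forall fun p => g2_nonneg _ _)
      (LE.le.eventuallyLE (sdiff_subset_sdiff_left (subset_univ W)))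
  · unfold Ch
    refine (summable_ch hE hW (hf.1.mono subset_rfl (subset_univ _))).tsum_le_tsum (fun Q => ?_)
      (summable_ch hE convex_univ hf.1)
    refine pow_le_pow_left₀ (ch_nonneg _ _ _ _) ?_ 2
    unfold ch
    refine (chg_mono_V (CFJ.fin hE hf.1 _) (inter_subset_inter_right _ (subset_univ W))).trans
      (chg_mono_set (CFJ.fin hE hf.1 _) ?_)
    rw [closure_univ]
    exact inter_subset_inter_right _ (subset_univ _)

theorem outN_of_sin (hE : QPic E 𝒬 𝓗) {σ B : ℝ} {S₀ : Set (ℝ × ℝ)}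
    (hS₀ : P ∩ {p | B ≤ σ * p.2} = S₀) (h : SkT1_137.SinOutQ E 𝒬 𝓗 S₀) : OutN E 𝒬 𝓗 P σ B := by
  intro N hN hPN ε hε
  obtain ⟨ζ, hζ, O, hO, hSO, h1⟩ := h N hN (by rw [← hS₀]; exact inter_subset_left.trans hPN) ε hε
  obtain ⟨S, hS, hSN, h0⟩ := hζ.sp
  refine ⟨ζ, S, hζ.cf.mono subset_rfl (subset_univ _), hζ.rg, hS, hSN,
    fun p _ hpS => h0 p (mem_univ _) hpS, ?_, O, hO, ?_, fun p hp _ => h1 p hp.1⟩
  · exact (TQ_mono_W hE (convex_HP σ B) ⟨hζ.cf, S, hS, h0⟩).trans hζ.en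
  · rw [hS₀]; exact hSO

theorem outs_of_sin (hE : QPic E 𝒬 𝓗)
    (hup : ∀ δ > 0, SkT1_137.SinOutQ E 𝒬 𝓗 (comp E Q ∩ {p | Q.y + Q.s + δ ≤ p.2}))
    (hlo : ∀ δ > 0, SkT1_137.SinOutQ E 𝒬 𝓗 (comp E Q ∩ {p | p.2 ≤ Q.y - δ})) :
    Outs E 𝒬 𝓗 Q := by
  constructor
  · intro B hB
    refine outN_of_sin hE ?_ (hup (B - (Q.y + Q.s)) (sub_pos.2 hB))
    ext p
    simp only [mem_inter_iff, mem_ofPred_eq, one_mul]
    rw [show Q.y + Q.s + (B - (Q.y + Q.s)) = B by ring]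
  · intro B hB
    refine outN_of_sin hE ?_ (hlo (B + Q.y) (by have : B > -Q.y := hB; linarith))
    ext p
    simp only [mem_inter_iff, mem_ofPred_eq]
    constructor
    · rintro ⟨h1, h2⟩; exact ⟨h1, by linarith⟩
    · rintro ⟨h1, h2⟩; exact ⟨h1, by linarith⟩

/-- **`treat_solid` from the cheap cut-offs of 137.** -/
theorem treat_cheap (hS : PicS E 𝒬 𝓗) (hC : SkT1_137.Cheap E 𝒬 𝓗) (hQ : Q ∈ 𝒬) :
    Spq_722.Treat Eᶜ E Prod.snd (ClQ 𝓗) (DQ E 𝒬 𝓗) (Sqr.car '' 𝒬) (comp E Q) :=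
  treat_solid hS hQ (outs_of_sin hS.q (hC.up Q hQ) (hC.lo Q hQ))

/-- **`treat_solid` from `SOLO`** (OUTQ is not needed). -/
theorem treat_solo (hS : PicS E 𝒬 𝓗) (hO : SkT1_137.SOLO E 𝒬 𝓗) (hQ : Q ∈ 𝒬) :
    Spq_722.Treat Eᶜ E Prod.snd (ClQ 𝓗) (DQ E 𝒬 𝓗) (Sqr.car '' 𝒬) (comp E Q) :=
  treat_solid hS hQ (outs_of_null (hO Q hQ).1 (hO Q hQ).2)

/-- the same for any component which contains a square -/
theorem treat_cheap' (hS : PicS E 𝒬 𝓗) (hC : SkT1_137.Cheap E 𝒬 𝓗) (hP : P ∈ Comps E)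
    (hQ : Q ∈ 𝒬) (hQP : Q.car ⊆ P) :
    Spq_722.Treat Eᶜ E Prod.snd (ClQ 𝓗) (DQ E 𝒬 𝓗) (Sqr.car '' 𝒬) P := by
  have : P = comp E Q := SkT1_137.eq_comp hS.q hQ hP hQP
  rw [this]
  exact treat_cheap hS hC hQ

end Crest.Agent.R105.Cln_891
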