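import Crest.Agent.R105.Bd2_775

/-!
# Row 105, S0139 [B], CLOSE, part 1: analysis (helper658)

* `ae_level`  : `en v = 0` a.e. on the level set `{v = B}` (v continuous)
* `flat_small`: the energy of the clamped function `clamp s (v - B)` tends to `0` with `s`
* `log_cut`   : logarithmic cut-off functions at a point of the plane, energy `≤ κ`
-/

set_option autoImplicit false

open MeasureTheory Set Filter Topology Metric
open scoped NNReal ENNReal

namespace Crest.Agent.R105.Clo_658

open Crest.Agent.R105.Bd_775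

/-! ### level sets -/

/-- the points of a level set with a non-zero derivative are isolated, hence countable -/
theorem countable_level (g : ℝ → ℝ) (B : ℝ) :
    {t : ℝ | g t = B ∧ ∃ d, d ≠ 0 ∧ HasDerivAt g d t}.Countable := by
  set T : Set ℝ := {t : ℝ | g t = B ∧ ∃ d, d ≠ 0 ∧ HasDerivAt g d t} with hT
  have h1 : ∀ t ∈ T, ∃ U ∈ 𝓝 t, U ∩ T = {t} := by
    rintro t ⟨ht, d, hd, hg⟩
    have h2 : ∀ᶠ s in 𝓝[≠] t, g s ≠ B := hg.eventually_ne hd
    rw [eventually_nhdsWithin_iff] at h2
    refine ⟨_, h2, ?_⟩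
    ext s
    simp only [mem_inter_iff, mem_ofPred_eq, mem_compl_iff, mem_singleton_iff]
    constructor
    · rintro ⟨h3, h4⟩
      by_contra h5
      exact h3 h5 h4.1
    · rintro rfl
      exact ⟨fun h => absurd rfl h, ht, d, hd, hg⟩
  have h2 : DiscreteTopology T := by
    rw [discreteTopology_subtype_iff]
    intro t ht
    obtain ⟨U, hU, hUT⟩ := h1 t ht
    rw [inf_principal_eq_bot, mem_nhdsWithin_iff_exists_mem_nhds_inter]
    refine ⟨U, hU, ?_⟩
    rintro s ⟨hs1, hs2⟩ hs3
    have : s ∈ U ∩ T := ⟨hs1, hs3⟩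
    rw [hUT] at this
    exact hs2 this
  exact (HereditarilyLindelofSpace.isLindelof T).countable h2

theorem ae_level_dir {v : ℂ → ℝ} (hv : Continuous v) (B : ℝ) (e : ℂ) :
    ∀ᵐ z : ℂ, v z = B → fderiv ℝ v z e = 0 := by
  set s : Set ℂ := {z | v z = B → fderiv ℝ v z e = 0} with hs
  have hsm : MeasurableSet s := by
    have h1 : s = {z | v z = B}ᶜ ∪ {z | fderiv ℝ v z e = 0} := by
      ext z; simp only [hs, mem_ofPred_eq, mem_union, mem_compl_iff]; tauto
    rw [h1]
    refine MeasurableSet.union ?_ ?_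
    · exact (isClosed_eq hv continuous_const).measurableSet.compl
    · exact (measurable_fderiv_apply_const ℝ v e) (measurableSet_singleton 0)
  let L : ℝ →ₗ[ℝ] ℂ := LinearMap.toSpanSingleton ℝ ℂ e
  refine ae_mem_of_ae_add_linearMap_mem L volume volume hsm fun p => ?_
  have h2 := (countable_level (fun t : ℝ => v (p + t • e)) B).ae_notMem (volume : Measure ℝ)
  filter_upwards [h2] with t ht
  have hL : L t = t • e := by simp [L]
  rw [hL]
  show v (p + t • e) = B → fderiv ℝ v (p + t • e) e = 0
  intro h3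
  by_contra h4
  refine ht ⟨h3, _, h4, ?_⟩
  have hd : DifferentiableAt ℝ v (p + t • e) := by
    by_contra h5
    exact h4 (by rw [fderiv_zero_of_not_differentiableAt h5]; rfl)
  have h6 : HasDerivAt (fun r : ℝ => p + r • e) e t := by
    have := ((hasDerivAt_id t).smul_const e).const_add p
    simpa using this
  exact hd.hasFDerivAt.comp_hasDerivAt t h6

theorem ae_level {v : ℂ → ℝ} (hv : Continuous v) (B : ℝ) :
    ∀ᵐ z : ℂ, v z = B → en v z = 0 := by
  filter_upwards [ae_level_dir hv B 1, ae_level_dir hv B Complex.I] with z h1 h2 h3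
  unfold en gx gy
  rw [h1 h3, h2 h3]; ring

/-! ### clamping -/

/-- clamp to `[-s, s]` -/
def clamp (s t : ℝ) : ℝ := max (-s) (min s t)

theorem clamp_lip (s : ℝ) : LipschitzWith 1 (clamp s) :=
  (LipschitzWith.id.const_min s).const_max (-s)

theorem abs_clamp_le {s : ℝ} (hs : 0 ≤ s) (t : ℝ) : |clamp s t| ≤ s := by
  unfold clamp
  rw [abs_le]
  exact ⟨le_max_left _ _, max_le (by linarith) (min_le_left _ _)⟩

theorem clamp_of_le {s t : ℝ} (h : |t| ≤ s) : clamp s t = t := by
  unfold clamp
  have := abs_le.1 h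
  rw [min_eq_right this.2, max_eq_right this.1]

theorem clamp_of_gt {s t : ℝ} (hs : 0 ≤ s) (h : s < t) : clamp s t = s := by
  unfold clamp
  rw [min_eq_left h.le, max_eq_right (by linarith)]

theorem clamp_of_lt {s t : ℝ} (hs : 0 ≤ s) (h : t < -s) : clamp s t = -s := by
  unfold clamp
  rw [min_eq_right (by linarith), max_eq_left h.le]

/-- the energy of the clamped function tends to `0` -/
theorem flat_small {C : Set ℂ} (hC : IsClosed C) {v : ℂ → ℝ} (hv : D C v) (B : ℝ) {κ : ℝ}
    (hκ : 0 < κ) : ∃ s₀ > 0, ∀ s, 0 < s → s ≤ s₀ →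
      ∫ z in Cᶜ, en (fun w => clamp s (v w - B)) z ≤ κ := by
  have hq : ∀ s, Q C (fun w => clamp s (v w - B)) := fun s =>
    (hv.q.sub hC (Q.const C B)).comp hC (clamp_lip s)
  have key : Tendsto (fun s : ℝ => ∫ z in Cᶜ, en (fun w => clamp s (v w - B)) z) (𝓝[>] 0)
      (𝓝 (∫ z in Cᶜ, (0 : ℝ))) := by
    refine tendsto_integral_filter_of_dominated_convergence (fun z => en v z)
      (Eventually.of_forall fun s => (measurable_en _).aestronglyMeasurable) ?_ hv.fin ?_
    · refine Eventually.of_forall fun s => ?_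
      filter_upwards [hv.q.ae_diff hC] with z hz
      rw [Real.norm_of_nonneg (en_nonneg _ _)]
      have h1 : DifferentiableAt ℝ (fun w => v w - B) z := hz.sub_const B
      have h2 := en_comp_le (clamp_lip s) h1
      have h3 : en (fun w => v w - B) z = en v z := by
        unfold en gx gy
        rw [fderiv_sub_const]
      rw [h3] at h2
      simpa using h2
    · filter_upwards [hv.q.ae_diff hC, ae_restrict_of_ae (ae_level hv.cont B)] with z hz hl
      by_cases hB : v z = B
      · have : ∀ s, en (fun w => clamp s (v w - B)) z = 0 := by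
          intro s
          have h1 : DifferentiableAt ℝ (fun w => v w - B) z := hz.sub_const B
          have h2 := en_comp_le (clamp_lip s) h1
          have h3 : en (fun w => v w - B) z = en v z := by
            unfold en gx gy
            rw [fderiv_sub_const]
          rw [h3, hl hB, mul_zero] at h2
          exact le_antisymm h2 (en_nonneg _ _)
        simp only [this]
        exact tendsto_const_nhds
      · have hpos : 0 < |v z - B| := abs_pos.2 (sub_ne_zero.2 hB)
        have h0 : ∀ᶠ s : ℝ in 𝓝[>] 0, s < |v z - B| :=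
          (gt_mem_nhds hpos).filter_mono nhdsWithin_le_nhds
        refine tendsto_const_nhds.congr' ?_
        filter_upwards [h0, self_mem_nhdsWithin] with s hs hs0
        have hs0' : 0 < s := hs0
        symm
        have hcont : ContinuousAt (fun w => v w - B) z := (hv.cont.continuousAt).sub_const B
        rcases lt_or_gt_of_ne (sub_ne_zero.2 hB) with h | h
        · rw [abs_of_neg h] at hs
          have h1 : ∀ᶠ w in 𝓝 z, v w - B < -s := hcont.eventually (gt_mem_nhds (by linarith))
          have h2 : (fun w => clamp s (v w - B)) =ᶠ[𝓝 z] fun _ => -s := by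
            filter_upwards [h1] with w hw
            exact clamp_of_lt hs0'.le hw
          rw [en_eq_of_eventuallyEq h2, en_const]
        · rw [abs_of_pos h] at hs
          have h1 : ∀ᶠ w in 𝓝 z, s < v w - B := hcont.eventually (lt_mem_nhds hs)
          have h2 : (fun w => clamp s (v w - B)) =ᶠ[𝓝 z] fun _ => s := by
            filter_upwards [h1] with w hw
            exact clamp_of_gt hs0'.le hw
          rw [en_eq_of_eventuallyEq h2, en_const]
  rw [integral_zero] at key
  have h1 := key.eventually (gt_mem_nhds hκ)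
  rw [eventually_nhdsWithin_iff] at h1
  obtain ⟨s₁, hs₁, h2⟩ := Metric.eventually_nhds_iff_ball.1 h1
  refine ⟨s₁ / 2, half_pos hs₁, fun s hs hs2 => ?_⟩
  refine (h2 s ?_ hs).le
  rw [mem_ball, Real.dist_eq, sub_zero, abs_of_pos hs]
  linarith

/-! ### logarithmic cut-offs -/

/-- a cut-off at `q` supported in `closedBall q ρ` with energy at most `κ` -/
def HasCut (q : ℂ) (ρ κ : ℝ) : Prop :=
  ∃ (η : ℂ → ℝ) (K : ℝ≥0) (r : ℝ), 0 < r ∧ r < ρ ∧ LipschitzWith K η ∧
    (∀ z, 0 ≤ η z ∧ η z ≤ 1) ∧ (∀ z ∈ ball q r, η z = 1) ∧ (∀ z ∉ closedBall q ρ, η z = 0) ∧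
    ∫ z, en η z ≤ κ

theorem hasCut_supp {q : ℂ} {ρ : ℝ} {η : ℂ → ℝ} (h : ∀ z ∉ closedBall q ρ, η z = 0) :
    HasCompactSupport η :=
  HasCompactSupport.intro (isCompact_closedBall q ρ) h

theorem hasCut_base (q : ℂ) {ρ : ℝ} (hρ : 0 < ρ) : HasCut q ρ (4 * Real.pi) := by
  set f : ℂ → ℝ := fun z => 2 - 2 / ρ * dist z q with hf
  have hK : (0 : ℝ) ≤ 2 / ρ := by positivity
  have hfl : LipschitzWith (2 / ρ).toNNReal f := by
    refine LipschitzWith.of_dist_le_mul fun x y => ?_
    rw [Real.coe_toNNReal _ hK, Real.dist_eq]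
    have h1 : f x - f y = -(2 / ρ * (dist x q - dist y q)) := by simp only [hf]; ring
    rw [h1, abs_neg, abs_mul, abs_of_nonneg hK]
    exact mul_le_mul_of_nonneg_left (abs_dist_sub_le x y q) hK
  have hηl : LipschitzWith (2 / ρ).toNNReal (fun z => max 0 (min 1 (f z))) :=
    (hfl.const_min 1).const_max 0
  have h0 : ∀ z ∉ closedBall q ρ, max 0 (min 1 (f z)) = 0 := by
    intro z hz
    rw [mem_closedBall, not_le] at hz
    have h1 : f z ≤ 0 := by
      simp only [hf]
      have : 2 ≤ 2 / ρ * dist z q := by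
        rw [div_mul_eq_mul_div, le_div_iff₀ hρ]; nlinarith
      linarith
    rw [max_eq_left]
    exact (min_le_right _ _).trans h1
  refine ⟨fun z => max 0 (min 1 (f z)), _, ρ / 2, half_pos hρ, half_lt_self hρ, hηl,
    fun z => ⟨le_max_left _ _, max_le zero_le_one (min_le_left _ _)⟩, ?_, h0, ?_⟩
  · intro z hz
    rw [mem_ball] at hz
    have h1 : 1 ≤ f z := by
      simp only [hf]
      have : 2 / ρ * dist z q ≤ 1 := by
        rw [div_mul_eq_mul_div, div_le_iff₀ hρ]; nlinarith
      linarith
    simp only [min_eq_left h1]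
    exact max_eq_right zero_le_one
  · have hz : ∀ z ∉ closedBall q ρ, en (fun z => max 0 (min 1 (f z))) z = 0 := by
      intro z hz
      have h1 : (closedBall q ρ)ᶜ ∈ 𝓝 z := isClosed_closedBall.isOpen_compl.mem_nhds hz
      have h2 : (fun z => max 0 (min 1 (f z))) =ᶠ[𝓝 z] fun _ => (0 : ℝ) := by
        filter_upwards [h1] with w hw
        exact h0 w hw
      rw [en_eq_of_eventuallyEq h2, en_const]
    rw [← setIntegral_eq_integral_of_forall_compl_eq_zero hz]
    calc ∫ z in closedBall q ρ, en (fun z => max 0 (min 1 (f z))) z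
        ≤ ∫ z in closedBall q ρ, ((2 / ρ) ^ 2 : ℝ) := by
          refine setIntegral_mono_on ?_ ?_ measurableSet_closedBall fun z _ => ?_
          · exact (integrable_en_of_lipschitz hηl (hasCut_supp h0)).integrableOn
          · exact integrableOn_const (isCompact_closedBall q ρ).measure_lt_top.ne
          · have := en_le_of_lipschitz hηl z
            rwa [Real.coe_toNNReal _ hK] at this
      _ = 4 * Real.pi := by
          rw [setIntegral_const, measureReal_def, Complex.volume_closedBall, smul_eq_mul,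
            ENNReal.toReal_mul, ENNReal.toReal_pow, ENNReal.toReal_ofReal hρ.le]
          simp only [ENNReal.coe_toReal, NNReal.coe_real_pi]
          field_simp
          ring

theorem hasCut_half {q : ℂ} {κ : ℝ} (h : ∀ ρ > 0, HasCut q ρ κ) {ρ : ℝ} (hρ : 0 < ρ) :
    HasCut q ρ (κ / 2) := by
  obtain ⟨η₁, K₁, r₁, hr₁, hrρ, hl₁, h01, h1, h0, he₁⟩ := h ρ hρ
  obtain ⟨η₂, K₂, r₂, hr₂, hrρ₂, hl₂, h01', h1', h0', he₂⟩ := h (r₁ / 2) (half_pos hr₁)
  have hK : LipschitzWith (K₁ + K₂) (fun z => η₁ z + η₂ z) := hl₁.add hl₂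
  have hl : LipschitzWith ((2 : ℝ≥0)⁻¹ * (K₁ + K₂)) (fun z => (η₁ z + η₂ z) / 2) := by
    refine LipschitzWith.of_dist_le_mul fun x y => ?_
    have h2 := hK.dist_le_mul x y
    rw [Real.dist_eq] at h2 ⊢
    have h3 : (η₁ x + η₂ x) / 2 - (η₁ y + η₂ y) / 2 = (η₁ x + η₂ x - (η₁ y + η₂ y)) / 2 := by ring
    rw [h3, abs_div, abs_of_pos (show (0 : ℝ) < 2 by norm_num)]
    push_cast at h2 ⊢
    linarith
  have hen : ∀ z, en (fun z => (η₁ z + η₂ z) / 2) z ≤ (en η₁ z + en η₂ z) / 4 := by
    intro z
    by_cases hz : z ∈ ball q r₁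
    · have h2 : (fun z => (η₁ z + η₂ z) / 2) =ᶠ[𝓝 z] fun z => (1 + η₂ z) / 2 := by
        filter_upwards [isOpen_ball.mem_nhds hz] with w hw
        rw [h1 w hw]
      rw [en_eq_of_eventuallyEq h2]
      have h3 : en (fun z => (1 + η₂ z) / 2) z = en η₂ z / 4 := by
        have : (fun z => (1 + η₂ z) / 2) = fun z => (1 / 2 : ℝ) * η₂ z + 1 / 2 := by
          funext w; ring
        rw [this]
        unfold en gx gy
        by_cases hd : DifferentiableAt ℝ η₂ z
        · rw [fderiv_add_const, fderiv_const_mul hd]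
          simp only [_root_.smul_apply, smul_eq_mul]
          ring
        · rw [fderiv_add_const, fderiv_zero_of_not_differentiableAt hd,
            fderiv_zero_of_not_differentiableAt]
          · simp
          · intro h4
            apply hd
            have := h4.const_mul (2 : ℝ)
            refine this.congr_of_eventuallyEq (Eventually.of_forall fun w => ?_)
            ring
      rw [h3]
      have := en_nonneg η₁ z
      linarith
    · have hz2 : z ∉ closedBall q (r₁ / 2) := by
        intro h2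
        apply hz
        rw [mem_ball]
        rw [mem_closedBall] at h2
        linarith
      have h2 : (fun z => (η₁ z + η₂ z) / 2) =ᶠ[𝓝 z] fun z => η₁ z / 2 := by
        filter_upwards [isClosed_closedBall.isOpen_compl.mem_nhds hz2] with w hw
        rw [h0' w hw, add_zero]
      rw [en_eq_of_eventuallyEq h2]
      have h3 : en (fun z => η₁ z / 2) z = en η₁ z / 4 := by
        have : (fun z => η₁ z / 2) = fun z => (1 / 2 : ℝ) * η₁ z := by
          funext w; ring
        rw [this]
        unfold en gx gy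
        by_cases hd : DifferentiableAt ℝ η₁ z
        · rw [fderiv_const_mul hd]
          simp only [_root_.smul_apply, smul_eq_mul]
          ring
        · rw [fderiv_zero_of_not_differentiableAt hd, fderiv_zero_of_not_differentiableAt]
          · simp
          · intro h4
            apply hd
            have := h4.const_mul (2 : ℝ)
            refine this.congr_of_eventuallyEq (Eventually.of_forall fun w => ?_)
            ring
      rw [h3]
      have := en_nonneg η₂ z
      linarith
  have hsupp : ∀ z ∉ closedBall q ρ, (η₁ z + η₂ z) / 2 = 0 := by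
    intro z hz
    have hz2 : z ∉ closedBall q (r₁ / 2) := by
      intro h2
      apply hz
      rw [mem_closedBall] at h2 ⊢
      linarith
    rw [h0 z hz, h0' z hz2]; norm_num
  refine ⟨fun z => (η₁ z + η₂ z) / 2, _, r₂, hr₂, by linarith, hl, fun z => ?_, fun z hz => ?_,
    hsupp, ?_⟩
  · have := h01 z; have := h01' z
    constructor <;> linarith
  · have hz1 : z ∈ ball q r₁ := by
      rw [mem_ball] at hz ⊢
      linarith
    simp only [h1 z hz1, h1' z hz]
    norm_num
  · have i1 := integrable_en_of_lipschitz hl₁ (hasCut_supp h0)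
    have i2 := integrable_en_of_lipschitz hl₂ (hasCut_supp h0')
    have i3 := integrable_en_of_lipschitz hl (hasCut_supp hsupp)
    calc ∫ z, en (fun z => (η₁ z + η₂ z) / 2) z ≤ ∫ z, (en η₁ z + en η₂ z) / 4 :=
          integral_mono i3 ((i1.add i2).div_const 4) hen
      _ = ((∫ z, en η₁ z) + ∫ z, en η₂ z) / 4 := by
          rw [integral_div, integral_add i1 i2]
      _ ≤ κ / 2 := by linarith

/-- **logarithmic cut-offs** -/
theorem log_cut (q : ℂ) {ρ κ : ℝ} (hρ : 0 < ρ) (hκ : 0 < κ) : HasCut q ρ κ := by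
  have h1 : ∀ n : ℕ, ∀ ρ > 0, HasCut q ρ (4 * Real.pi / 2 ^ n) := by
    intro n
    induction n with
    | zero => intro ρ hρ; simpa using hasCut_base q hρ
    | succ n ih =>
      intro ρ hρ
      have := hasCut_half ih hρ
      rwa [div_div, ← pow_succ] at this
  obtain ⟨n, hn⟩ : ∃ n : ℕ, 4 * Real.pi / 2 ^ n ≤ κ := by
    have h2 : Tendsto (fun n : ℕ => 4 * Real.pi * (1 / 2 : ℝ) ^ n) atTop (𝓝 (4 * Real.pi * 0)) :=
      (tendsto_pow_atTop_nhds_zero_of_lt_one (by norm_num) (by norm_num)).const_mul _
    rw [mul_zero] at h2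
    obtain ⟨n, hn⟩ := (h2.eventually (gt_mem_nhds hκ)).exists
    refine ⟨n, ?_⟩
    rw [one_div, inv_pow] at hn
    rw [div_eq_mul_inv]
    exact hn.le
  obtain ⟨η, K, r, a, b, c, d, e, f, g⟩ := h1 n ρ hρ
  exact ⟨η, K, r, a, b, c, d, e, f, g.trans hn⟩

end Crest.Agent.R105.Clo_658
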