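import Mathlib

/-!
Row 105 (S0139), item (1F), part 1: one-dimensional antiderivative `HH` of `h k' - k h'` for
Lipschitz `h, k`, the quadratic estimate, and the pointwise consequences.
-/

open MeasureTheory Set Filter Topology

namespace Crest.Agent.R105.OneF_871

/-- the antiderivative of `h k' - k h'`. -/
noncomputable def HH (h k : ℝ → ℝ) (s : ℝ) : ℝ :=
  ∫ t in (0:ℝ)..s, (h t * deriv k t - k t * deriv h t)

theorem deriv_int {h : ℝ → ℝ} {L : NNReal} (hh : LipschitzWith L h) (a b : ℝ) :
    IntervalIntegrable (deriv h) volume a b := by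
  have h1 : AbsolutelyContinuousOnInterval h a b :=
    LipschitzOnWith.absolutelyContinuousOnInterval (hh.lipschitzOnWith)
  exact h1.intervalIntegrable_deriv

theorem deriv_eq {h : ℝ → ℝ} {L : NNReal} (hh : LipschitzWith L h) (a b : ℝ) :
    ∫ t in a..b, deriv h t = h b - h a := by
  have h1 : AbsolutelyContinuousOnInterval h a b :=
    LipschitzOnWith.absolutelyContinuousOnInterval (hh.lipschitzOnWith)
  exact h1.integral_deriv_eq_sub

theorem deriv_bd {h : ℝ → ℝ} {L : NNReal} (hh : LipschitzWith L h) (t : ℝ) :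
    |deriv h t| ≤ L := by
  have := norm_deriv_le_of_lipschitz (x₀ := t) hh
  simpa using this

theorem mul_int {h k : ℝ → ℝ} {K : NNReal} (hh : Continuous h) (hk : LipschitzWith K k)
    (a b : ℝ) : IntervalIntegrable (fun t => h t * deriv k t) volume a b :=
  (deriv_int hk a b).continuousOn_mul hh.continuousOn

theorem HH_sub {h k : ℝ → ℝ} {L K : NNReal} (hh : LipschitzWith L h) (hk : LipschitzWith K k)
    (r s : ℝ) :
    HH h k s - HH h k r = ∫ t in r..s, (h t * deriv k t - k t * deriv h t) := by
  unfold HH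
  have i1 : ∀ a b, IntervalIntegrable (fun t => h t * deriv k t - k t * deriv h t) volume a b :=
    fun a b => (mul_int hh.continuous hk a b).sub (mul_int hk.continuous hh a b)
  rw [intervalIntegral.integral_interval_sub_left (i1 _ _) (i1 _ _)]

theorem HH_est {h k : ℝ → ℝ} {L K : NNReal} (hh : LipschitzWith L h) (hk : LipschitzWith K k)
    (r s : ℝ) :
    |HH h k s - HH h k r - (h r * (k s - k r) - k r * (h s - h r))|
      ≤ 2 * L * K * |s - r| * |s - r| := by
  have e1 : HH h k s - HH h k r - (h r * (k s - k r) - k r * (h s - h r))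
      = ∫ t in r..s, ((h t - h r) * deriv k t - (k t - k r) * deriv h t) := by
    rw [HH_sub hh hk, ← deriv_eq hk r s, ← deriv_eq hh r s, ← intervalIntegral.integral_const_mul,
      ← intervalIntegral.integral_const_mul, ← intervalIntegral.integral_sub,
      ← intervalIntegral.integral_sub]
    · congr 1; ext t; ring
    · exact (mul_int hh.continuous hk _ _).sub (mul_int hk.continuous hh _ _)
    · exact ((deriv_int hk r s).const_mul _).sub ((deriv_int hh r s).const_mul _)
    · exact (deriv_int hk r s).const_mul _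
    · exact (deriv_int hh r s).const_mul _
  rw [e1]
  have := intervalIntegral.norm_integral_le_of_norm_le_const (a := r) (b := s)
    (f := fun t => (h t - h r) * deriv k t - (k t - k r) * deriv h t)
    (C := 2 * L * K * |s - r|) ?_
  · simpa [Real.norm_eq_abs] using this
  · intro t ht
    rw [Real.norm_eq_abs]
    have h1 : |t - r| ≤ |s - r| := by
      rcases le_total r s with hrs | hrs
      · rw [uIoc_of_le hrs] at ht
        rw [abs_of_nonneg (by linarith [ht.1]), abs_of_nonneg (by linarith)]
        linarith [ht.2]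
      · rw [uIoc_of_ge hrs] at ht
        rw [abs_of_nonpos (by linarith [ht.2]), abs_of_nonpos (by linarith)]
        linarith [ht.1]
    have h2 : |h t - h r| ≤ L * |t - r| := by
      have := hh.dist_le_mul t r
      simpa [Real.dist_eq] using this
    have h3 : |k t - k r| ≤ K * |t - r| := by
      have := hk.dist_le_mul t r
      simpa [Real.dist_eq] using this
    have h4 := deriv_bd hk t
    have h5 := deriv_bd hh t
    have hL : (0:ℝ) ≤ L := L.2
    have hK : (0:ℝ) ≤ K := K.2
    have h6 : |(h t - h r) * deriv k t| ≤ L * |s - r| * K := by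
      rw [abs_mul]
      exact mul_le_mul (h2.trans (mul_le_mul_of_nonneg_left h1 hL)) h4 (abs_nonneg _) (by positivity)
    have h7 : |(k t - k r) * deriv h t| ≤ K * |s - r| * L := by
      rw [abs_mul]
      exact mul_le_mul (h3.trans (mul_le_mul_of_nonneg_left h1 hK)) h5 (abs_nonneg _) (by positivity)
    calc |(h t - h r) * deriv k t - (k t - k r) * deriv h t|
        ≤ |(h t - h r) * deriv k t| + |(k t - k r) * deriv h t| := abs_sub _ _
      _ ≤ L * |s - r| * K + K * |s - r| * L := add_le_add h6 h7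
      _ = 2 * L * K * |s - r| := by ring

/-- `HH h k` is locally Lipschitz. -/
theorem HH_locLip {h k : ℝ → ℝ} {L K : NNReal} (hh : LipschitzWith L h) (hk : LipschitzWith K k) :
    LocallyLipschitz (HH h k) := by
  intro x
  have hL : (0:ℝ) ≤ L := L.2
  have hK : (0:ℝ) ≤ K := K.2
  -- bound on the ball of radius 1
  set A : ℝ := (|h x| + L) * K + (|k x| + K) * L + 2 * L * K * 2 with hA
  have hA0 : 0 ≤ A := by positivity
  refine ⟨⟨A, hA0⟩, Metric.ball x 1, Metric.ball_mem_nhds _ one_pos, ?_⟩
  refine LipschitzOnWith.of_dist_le_mul fun s hs r hr => ?_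
  rw [Real.dist_eq, Real.dist_eq]
  show |HH h k s - HH h k r| ≤ A * |s - r|
  have h0 := HH_est hh hk r s
  have hr' : |r - x| < 1 := by simpa [Real.dist_eq] using hr
  have hs' : |s - x| < 1 := by simpa [Real.dist_eq] using hs
  have hsr : |s - r| ≤ 2 := by
    have : s - r = (s - x) - (r - x) := by ring
    rw [this]; exact (abs_sub _ _).trans (by linarith)
  have h1 : |h r| ≤ |h x| + L := by
    have := hh.dist_le_mul r x
    rw [Real.dist_eq, Real.dist_eq] at this
    have h2 : |h r| ≤ |h x| + |h r - h x| := by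
      have := abs_add_le (h x) (h r - h x)
      simpa using this
    nlinarith
  have h2 : |k r| ≤ |k x| + K := by
    have := hk.dist_le_mul r x
    rw [Real.dist_eq, Real.dist_eq] at this
    have h2 : |k r| ≤ |k x| + |k r - k x| := by
      have := abs_add_le (k x) (k r - k x)
      simpa using this
    nlinarith
  have h3 : |k s - k r| ≤ K * |s - r| := by
    have := hk.dist_le_mul s r
    simpa [Real.dist_eq] using this
  have h4 : |h s - h r| ≤ L * |s - r| := by
    have := hh.dist_le_mul s r
    simpa [Real.dist_eq] using this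
  have h5 : |h r * (k s - k r) - k r * (h s - h r)|
      ≤ (|h x| + L) * (K * |s - r|) + (|k x| + K) * (L * |s - r|) := by
    refine (abs_sub _ _).trans ?_
    rw [abs_mul, abs_mul]
    exact add_le_add (mul_le_mul h1 h3 (abs_nonneg _) (by positivity))
      (mul_le_mul h2 h4 (abs_nonneg _) (by positivity))
  have h6 : |HH h k s - HH h k r| ≤
      |HH h k s - HH h k r - (h r * (k s - k r) - k r * (h s - h r))|
        + |h r * (k s - k r) - k r * (h s - h r)| := by
    have := abs_add_le (HH h k s - HH h k r - (h r * (k s - k r) - k r * (h s - h r)))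
      (h r * (k s - k r) - k r * (h s - h r))
    simpa using this
  have h7 : 2 * L * K * |s - r| * |s - r| ≤ 2 * L * K * 2 * |s - r| := by
    have : 0 ≤ |s - r| := abs_nonneg _
    have h8 : 2 * (L:ℝ) * K * |s - r| ≤ 2 * L * K * 2 :=
      mul_le_mul_of_nonneg_left hsr (by positivity)
    exact mul_le_mul_of_nonneg_right h8 this
  calc |HH h k s - HH h k r| ≤ _ := h6
    _ ≤ 2 * L * K * 2 * |s - r| + ((|h x| + L) * (K * |s - r|) + (|k x| + K) * (L * |s - r|)) :=
        add_le_add (h0.trans h7) h5
    _ = A * |s - r| := by rw [hA]; ring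

/-! ### pointwise identities -/

/-- If `u` is Lipschitz near `w`, `a = h ∘ u`, `b = k ∘ u` near `w` and `a, b` are differentiable at
`w`, then `B = HH h k ∘ u` is differentiable at `w` with `dB = a db - b da`. -/
theorem HH_hasFDerivAt {E : Type*} [NormedAddCommGroup E] [NormedSpace ℝ E]
    {h k : ℝ → ℝ} {L K : NNReal} (hh : LipschitzWith L h) (hk : LipschitzWith K k)
    {u a b B : E → ℝ} {w : E} {M : ℝ} (hu : ∀ᶠ w' in 𝓝 w, |u w' - u w| ≤ M * ‖w' - w‖)
    (ha : ∀ᶠ w' in 𝓝 w, a w' = h (u w')) (hb : ∀ᶠ w' in 𝓝 w, b w' = k (u w'))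
    (hB : ∀ᶠ w' in 𝓝 w, B w' = HH h k (u w'))
    (da : DifferentiableAt ℝ a w) (db : DifferentiableAt ℝ b w) :
    HasFDerivAt B (a w • fderiv ℝ b w - b w • fderiv ℝ a w) w := by
  have ha0 := ha.self_of_nhds
  have hb0 := hb.self_of_nhds
  have hB0 := hB.self_of_nhds
  -- the auxiliary function
  have h1 : HasFDerivAt (fun w' => a w * b w' - b w * a w')
      (a w • fderiv ℝ b w - b w • fderiv ℝ a w) w :=
    (db.hasFDerivAt.const_mul (a w)).sub (da.hasFDerivAt.const_mul (b w))
  -- the difference is `O(‖w' - w‖ ^ 2)`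
  have hM : 0 ≤ |M| := abs_nonneg M
  have h2 : HasFDerivAt (fun w' => B w' - (a w * b w' - b w * a w')) (0 : E →L[ℝ] ℝ) w := by
    rw [hasFDerivAt_iff_isLittleO_nhds_zero]
    have h3 : (fun v : E => B (w + v) - (a w * b (w + v) - b w * a (w + v))
        - (B w - (a w * b w - b w * a w)) - (0 : E →L[ℝ] ℝ) v)
        =O[𝓝 0] (fun v => ‖v‖ * ‖v‖) := by
      have ht : Tendsto (fun v : E => w + v) (𝓝 0) (𝓝 w) := by
        have : Tendsto (fun v : E => w + v) (𝓝 0) (𝓝 (w + 0)) :=
          (continuous_const.add continuous_id).tendsto 0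
        simpa using this
      refine Asymptotics.IsBigO.of_bound (2 * L * K * |M| * |M|) ?_
      filter_upwards [ht.eventually hu, ht.eventually ha, ht.eventually hb, ht.eventually hB]
        with v hv1 hv2 hv3 hv4
      have h4 := HH_est hh hk (u w) (u (w + v))
      have e1 : B (w + v) - (a w * b (w + v) - b w * a (w + v))
        - (B w - (a w * b w - b w * a w)) - (0 : E →L[ℝ] ℝ) v
          = HH h k (u (w + v)) - HH h k (u w)
            - (h (u w) * (k (u (w+v)) - k (u w)) - k (u w) * (h (u (w+v)) - h (u w))) := by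
        rw [hv2, hv3, hv4, ha0, hb0, hB0]
        simp
        ring
      rw [e1, Real.norm_eq_abs]
      refine h4.trans ?_
      have h5 : |u (w + v) - u w| ≤ |M| * ‖v‖ := by
        refine hv1.trans ?_
        simp only [add_sub_cancel_left]
        exact mul_le_mul_of_nonneg_right (le_abs_self M) (norm_nonneg _)
      have h6 : |u (w + v) - u w| * |u (w + v) - u w| ≤ (|M| * ‖v‖) * (|M| * ‖v‖) :=
        mul_le_mul h5 h5 (abs_nonneg _) (by positivity)
      have hL : (0:ℝ) ≤ L := L.2
      have hK : (0:ℝ) ≤ K := K.2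
      have h7 : ‖‖v‖ * ‖v‖‖ = ‖v‖ * ‖v‖ := by
        rw [Real.norm_eq_abs, abs_of_nonneg (by positivity)]
      rw [h7]
      calc 2 * (L:ℝ) * K * |u (w + v) - u w| * |u (w + v) - u w|
          = 2 * L * K * (|u (w + v) - u w| * |u (w + v) - u w|) := by ring
        _ ≤ 2 * L * K * ((|M| * ‖v‖) * (|M| * ‖v‖)) :=
            mul_le_mul_of_nonneg_left h6 (by positivity)
        _ = _ := by ring
    refine h3.trans_isLittleO ?_
    have : (fun v : E => ‖v‖ * ‖v‖) =o[𝓝 0] (fun v : E => ‖v‖) := by
      have h8 : (fun v : E => ‖v‖) =o[𝓝 0] (fun _ : E => (1:ℝ)) := by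
        rw [Asymptotics.isLittleO_one_iff]
        simpa using (continuous_norm (E := E)).tendsto 0
      have := h8.mul_isBigO (Asymptotics.isBigO_refl (fun v : E => ‖v‖) (𝓝 0))
      simpa using this
    exact this.trans_isBigO (Asymptotics.isBigO_refl _ _).norm_left
  have h3 := h2.add h1
  rw [zero_add] at h3
  refine h3.congr_of_eventuallyEq (Eventually.of_forall fun w' => ?_)
  simp

/-- If `u` is differentiable at `w` with `du(v) = 0` and `a = h ∘ u` near `w`, `h` Lipschitz, `a`
differentiable at `w`, then `da(v) = 0`. -/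
theorem ker_sub {E : Type*} [NormedAddCommGroup E] [NormedSpace ℝ E]
    {h : ℝ → ℝ} {L : NNReal} (hh : LipschitzWith L h) {u a : E → ℝ} {w : E}
    (ha : ∀ᶠ w' in 𝓝 w, a w' = h (u w'))
    (du : DifferentiableAt ℝ u w) (da : DifferentiableAt ℝ a w) {v : E}
    (hv : fderiv ℝ u w v = 0) : fderiv ℝ a w v = 0 := by
  have h1 : HasDerivAt (fun t : ℝ => u (w + t • v)) (fderiv ℝ u w v) 0 := by
    have := du.hasFDerivAt.hasLineDerivAt v
    exact this
  have h2 : HasDerivAt (fun t : ℝ => a (w + t • v)) (fderiv ℝ a w v) 0 := by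
    have := da.hasFDerivAt.hasLineDerivAt v
    exact this
  rw [hv] at h1
  have h1' := hasDerivAt_iff_isLittleO_nhds_zero.1 h1
  have h3 : HasDerivAt (fun t : ℝ => a (w + t • v)) 0 0 := by
    rw [hasDerivAt_iff_isLittleO_nhds_zero]
    refine Asymptotics.IsBigO.trans_isLittleO (g := fun t : ℝ => u (w + (0 + t) • v)
      - u (w + (0:ℝ) • v) - t • (0:ℝ)) ?_ h1'
    have ht : Tendsto (fun t : ℝ => w + t • v) (𝓝 0) (𝓝 w) := by
      have : Tendsto (fun t : ℝ => w + t • v) (𝓝 0) (𝓝 (w + (0:ℝ) • v)) :=
        (continuous_const.add (continuous_id.smul continuous_const)).tendsto 0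
      simpa using this
    refine Asymptotics.IsBigO.of_bound L ?_
    filter_upwards [ht.eventually ha] with t ht1
    have ha0 := ha.self_of_nhds
    simp only [zero_add, zero_smul, add_zero, smul_zero, sub_zero]
    rw [ht1, ha0, Real.norm_eq_abs, Real.norm_eq_abs]
    have := hh.dist_le_mul (u (w + t • v)) (u w)
    simpa [Real.dist_eq] using this
  exact h2.unique h3

/-- `da ∧ db = 0` for functions of one function. -/
theorem wedge_zero {h k : ℝ → ℝ} {L K : NNReal} (hh : LipschitzWith L h) (hk : LipschitzWith K k)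
    {u a b : ℂ → ℝ} {w : ℂ}
    (ha : ∀ᶠ w' in 𝓝 w, a w' = h (u w')) (hb : ∀ᶠ w' in 𝓝 w, b w' = k (u w'))
    (du : DifferentiableAt ℝ u w) (da : DifferentiableAt ℝ a w) (db : DifferentiableAt ℝ b w) :
    fderiv ℝ a w 1 * fderiv ℝ b w Complex.I - fderiv ℝ a w Complex.I * fderiv ℝ b w 1 = 0 := by
  by_cases h0 : fderiv ℝ u w 1 = 0
  · rw [ker_sub hh ha du da h0, ker_sub hk hb du db h0]; ring
  · set p := fderiv ℝ u w 1 with hp
    set q := fderiv ℝ u w Complex.I with hq
    -- kernel vector `v = p I - q 1`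
    have hv : fderiv ℝ u w (p • Complex.I - q • (1:ℂ)) = 0 := by
      rw [map_sub, map_smul, map_smul, ← hp, ← hq]; simp; ring
    have h1 := ker_sub hh ha du da hv
    have h2 := ker_sub hk hb du db hv
    rw [map_sub, map_smul, map_smul] at h1 h2
    simp only [smul_eq_mul] at h1 h2
    have h3 : p * (fderiv ℝ a w 1 * fderiv ℝ b w Complex.I
        - fderiv ℝ a w Complex.I * fderiv ℝ b w 1) = 0 := by
      linear_combination fderiv ℝ a w 1 * h2 - fderiv ℝ b w 1 * h1
    exact (mul_eq_zero.1 h3).resolve_left h0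

end Crest.Agent.R105.OneF_871
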