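import Mathlib
import Crest.Agent.R105.Bd1_775
import Crest.Agent.R105.OneF1_871

/-!
Row 105 (S0139), item (1F), part 2: cut-offs near a compact set, uniform versions of germ
statements, the Stokes formula `om C χ w = 0` for `χ` locally constant near `C`.
-/

set_option autoImplicit false

open MeasureTheory Set Filter Topology Metric
open scoped NNReal ENNReal

namespace Crest.Agent.R105.OneF_871

open Crest.Agent.R105.Bd_775

/-- Lipschitz cut-off near a compact set. -/
theorem exists_cut {C : Set ℂ} (hC : IsCompact C) {δ : ℝ} (hδ : 0 < δ) :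
    ∃ (θ : ℂ → ℝ) (K : ℝ≥0), LipschitzWith K θ ∧ HasCompactSupport θ ∧ (∀ z, 0 ≤ θ z ∧ θ z ≤ 1) ∧
      (∀ z ∈ thickening δ C, θ z = 1) ∧
      (∀ z, z ∉ thickening (2 * δ) C → ∀ᶠ w in 𝓝 z, θ w = 0) := by
  have hδ2 : 0 < δ / 2 := by linarith
  set f := thickenedIndicator hδ2 (thickening δ C) with hf
  have hK : LipschitzWith (δ / 2).toNNReal⁻¹ f := lipschitzWith_thickenedIndicator hδ2 _
  have hsub : thickening (δ / 2) (thickening δ C) ⊆ cthickening (δ / 2 + δ) C :=
    (thickening_thickening_subset _ _ _).trans (thickening_subset_cthickening _ _)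
  have hz : ∀ z, z ∉ cthickening (δ / 2 + δ) C → f z = 0 := by
    intro z hz
    exact thickenedIndicator_zero hδ2 _ fun h => hz (hsub h)
  refine ⟨fun z => (f z : ℝ), (δ / 2).toNNReal⁻¹, ?_, ?_, ?_, ?_, ?_⟩
  · refine LipschitzWith.of_dist_le_mul fun x y => ?_
    have := hK.dist_le_mul x y
    rwa [NNReal.dist_eq] at this
  · refine HasCompactSupport.intro (hC.cthickening (r := δ / 2 + δ)) fun z h => ?_
    rw [hz z h]; rfl
  · intro z
    exact ⟨(f z).2, by exact_mod_cast thickenedIndicator_le_one hδ2 _ z⟩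
  · intro z hz
    have h1 : f z = 1 := thickenedIndicator_one hδ2 _ hz
    show ((f z : ℝ≥0) : ℝ) = 1
    rw [h1]; rfl
  · intro z hz'
    have h1 : z ∉ cthickening (δ / 2 + δ) C := by
      intro h
      exact hz' (cthickening_subset_thickening' (by linarith) (by linarith) C h)
    have h2 : (cthickening (δ / 2 + δ) C)ᶜ ∈ 𝓝 z :=
      isClosed_cthickening.isOpen_compl.mem_nhds h1
    filter_upwards [h2] with w hw
    show ((f w : ℝ≥0) : ℝ) = 0
    rw [hz w hw]; rfl

/-- uniform version of germ statements with labels. -/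
theorem unif {C : Set ℂ} (hC : IsCompact C) {ι : Type*} {l : ℂ → ι}
    (hl : ∀ z ∈ C, ∀ᶠ w in 𝓝 z, l w = l z) {R : ι → ℂ → Prop}
    (hR : ∀ z ∈ C, ∀ᶠ w in 𝓝 z, R (l z) w) :
    ∃ δ > 0, ∀ w ∈ thickening δ C, R (l w) w ∧ (∀ᶠ w' in 𝓝 w, l w' = l w) ∧ l w ∈ l '' C := by
  have h1 : ∀ z : C, ∃ ε > 0, ∀ w ∈ ball (z : ℂ) ε, l w = l z ∧ R (l z) w := by
    intro z
    have := (hl z z.2).and (hR z z.2)
    obtain ⟨ε, hε, h⟩ := Metric.eventually_nhds_iff_ball.1 this
    exact ⟨ε, hε, h⟩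
  choose ε hε h1 using h1
  obtain ⟨δ, hδ, h2⟩ := lebesgue_number_lemma_of_metric (s := C)
    (c := fun z : C => ball (z : ℂ) (ε z)) hC (fun z => isOpen_ball)
    (fun z hz => mem_iUnion.2 ⟨⟨z, hz⟩, mem_ball_self (hε _)⟩)
  refine ⟨δ, hδ, fun w hw => ?_⟩
  obtain ⟨z, hz, hwz⟩ := mem_thickening_iff.1 hw
  obtain ⟨i, hi⟩ := h2 z hz
  have e1 := (h1 i w (hi hwz)).1
  have e2 := (h1 i z (hi (mem_ball_self hδ))).1
  refine ⟨?_, ?_, ?_⟩
  · rw [e1]; exact (h1 i w (hi hwz)).2
  · have h3 : ball z δ ∈ 𝓝 w := isOpen_ball.mem_nhds hwz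
    filter_upwards [h3] with w' hw'
    rw [(h1 i w' (hi hw')).1, e1]
  · rw [e1]; exact mem_image_of_mem _ i.2

/-- the labels near `C` are finitely many -/
theorem finite_labels {C : Set ℂ} (hC : IsCompact C) {ι : Type*} {l : ℂ → ι}
    (hl : ∀ z ∈ C, ∀ᶠ w in 𝓝 z, l w = l z) : (l '' C).Finite := by
  obtain ⟨t, ht, h⟩ := hC.elim_nhds_subcover (fun z => {w | l w = l z}) (fun z hz => hl z hz)
  refine (t.finite_toSet.image l).subset ?_
  rintro _ ⟨z, hz, rfl⟩
  obtain ⟨i, hi, hzi⟩ := mem_iUnion₂.1 (h hz)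
  exact ⟨i, hi, hzi.symm⟩

lemma wdg_zero_left {u v : ℂ → ℝ} {z : ℂ} {c : ℝ} (h : ∀ᶠ w in 𝓝 z, u w = c) :
    wdg u v z = 0 := by
  have : u =ᶠ[𝓝 z] fun _ => c := h
  unfold wdg
  rw [gx_eq_of_eventuallyEq this, gy_eq_of_eventuallyEq this, gx_const, gy_const]; ring

lemma wdg_zero_right {u v : ℂ → ℝ} {z : ℂ} {c : ℝ} (h : ∀ᶠ w in 𝓝 z, v w = c) :
    wdg u v z = 0 := by
  have : v =ᶠ[𝓝 z] fun _ => c := h
  unfold wdg
  rw [gx_eq_of_eventuallyEq this, gy_eq_of_eventuallyEq this, gx_const, gy_const]; ring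

lemma en_zero {u : ℂ → ℝ} {z : ℂ} {c : ℝ} (h : ∀ᶠ w in 𝓝 z, u w = c) : en u z = 0 := by
  have : u =ᶠ[𝓝 z] fun _ => c := h
  rw [en_eq_of_eventuallyEq this, en_const]

/-- functions vanishing near `C` which are in `Q C` are in `LC C`. -/
theorem LC.of_zero {C : Set ℂ} (hC : IsClosed C) {f : ℂ → ℝ} (hf : Q C f)
    (h0 : ∀ z ∈ C, ∀ᶠ w in 𝓝 z, f w = 0) : LC C f := by
  refine ⟨?_, hf.bdd, ?_, ?_⟩
  · intro z
    by_cases hz : z ∈ C
    · refine ⟨0, _, h0 z hz, ?_⟩
      refine LipschitzOnWith.of_dist_le_mul fun x hx y hy => ?_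
      simp only [mem_ofPred_eq] at hx hy
      rw [hx, hy]; simp
    · obtain ⟨K, t, ht, h⟩ := hf.loc hz
      rw [hC.isOpen_compl.nhdsWithin_eq hz] at ht
      exact ⟨K, t, ht, h⟩
  · have h1 : IntegrableOn (en f) C := by
      refine (integrableOn_zero (s := C) (μ := volume)).congr_fun ?_ hC.measurableSet
      intro z hz
      exact (en_zero (h0 z hz)).symm
    have := hf.fin.union h1
    rwa [compl_union_self, integrableOn_univ] at this
  · intro z hz
    filter_upwards [h0 z hz] with w hw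
    rw [hw, (h0 z hz).self_of_nhds]

/-- the Stokes hypothesis: bounded, locally Lipschitz functions of finite energy on the plane. -/
def StokesP : Prop := ∀ f g : ℂ → ℝ, LocallyLipschitz f → LocallyLipschitz g →
  (∃ M, ∀ z, |f z| ≤ M) → (∃ M, ∀ z, |g z| ≤ M) → Integrable (en f) → Integrable (en g) →
  ∫ z, wdg f g z = 0

theorem cut_lc {C : Set ℂ} {θ : ℂ → ℝ} {K : ℝ≥0} (hK : LipschitzWith K θ)
    (hc : HasCompactSupport θ) {δ : ℝ} (hδ : 0 < δ) (h1 : ∀ z ∈ thickening δ C, θ z = 1) :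
    LC C θ := by
  refine LC.of_lipschitz hK hc fun z hz => ?_
  have : thickening δ C ∈ 𝓝 z := isOpen_thickening.mem_nhds (self_subset_thickening hδ C hz)
  filter_upwards [this] with w hw
  rw [h1 w hw, h1 z (self_subset_thickening hδ C hz)]

/-- **Stokes**: `∫_{Cᶜ} dχ ∧ dw = 0` for `χ` locally constant near the compact set `C`. -/
theorem stokes (St : StokesP) {C : Set ℂ} (hC : IsCompact C) {χ w : ℂ → ℝ} (hχ : LC C χ)
    (hw : Q C w) : om C χ w = 0 := by
  have hCc := hC.isClosed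
  obtain ⟨δ, hδ, hU⟩ := unif hC (l := χ) hχ.lc (R := fun _ _ => True)
    (fun _ _ => Eventually.of_forall fun _ => trivial)
  obtain ⟨θ, K, hK, hc, h01, h1, h0⟩ := exists_cut hC (δ := δ / 2) (by linarith)
  have hθ : LC C θ := cut_lc hK hc (by linarith : 0 < δ / 2) h1
  set w' : ℂ → ℝ := fun z => (1 - θ z) * w z with hw'
  have hq : Q C w' := ((Q.const C 1).sub hCc hθ.q).mul hCc hw
  have hz : ∀ z ∈ C, ∀ᶠ x in 𝓝 z, w' x = 0 := by
    intro z hz
    have : thickening (δ / 2) C ∈ 𝓝 z :=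
      isOpen_thickening.mem_nhds (self_subset_thickening (by linarith) C hz)
    filter_upwards [this] with x hx
    simp only [hw', h1 x hx]; ring
  have hL : LC C w' := LC.of_zero hCc hq hz
  have hS := St χ w' hχ.lip hL.lip hχ.bdd hL.bdd hχ.fin hL.fin
  -- compare
  have e1 : ∫ z in Cᶜ, wdg χ w' z = ∫ z, wdg χ w' z := by
    refine setIntegral_eq_integral_of_forall_compl_eq_zero fun z hz' => ?_
    exact wdg_zero_right (hz z (not_not.1 hz'))
  have e2 : ∫ z in Cᶜ, wdg χ w z = ∫ z in Cᶜ, wdg χ w' z := by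
    refine setIntegral_congr_fun hCc.isOpen_compl.measurableSet fun z _ => ?_
    by_cases hzd : z ∈ thickening δ C
    · rw [wdg_zero_left (hU z hzd).2.1, wdg_zero_left (hU z hzd).2.1]
    · refine wdg_eq_of_eventuallyEq (EventuallyEq.refl _ _) ?_
      have := h0 z (by rw [show 2 * (δ / 2) = δ by ring]; exact hzd)
      filter_upwards [this] with x hx
      simp only [hw', hx]; ring
  show ∫ z in Cᶜ, wdg χ w z = 0
  rw [e2, e1, hS]

lemma wdg_add_left {u v w : ℂ → ℝ} {z : ℂ} (hu : DifferentiableAt ℝ u z)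
    (hv : DifferentiableAt ℝ v z) :
    wdg (fun x => u x + v x) w z = wdg u w z + wdg v w z := by
  unfold wdg; rw [gx_add hu hv, gy_add hu hv]; ring

lemma wdg_add_right {u v w : ℂ → ℝ} {z : ℂ} (hu : DifferentiableAt ℝ u z)
    (hv : DifferentiableAt ℝ v z) :
    wdg w (fun x => u x + v x) z = wdg w u z + wdg w v z := by
  unfold wdg; rw [gx_add hu hv, gy_add hu hv]; ring

theorem om_add_left {C : Set ℂ} (hC : IsClosed C) {u v w : ℂ → ℝ} (hu : Q C u) (hv : Q C v)
    (hw : Q C w) : om C (fun z => u z + v z) w = om C u w + om C v w := by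
  unfold om
  rw [← integral_add (integrableOn_wdg hu hw) (integrableOn_wdg hv hw)]
  refine integral_congr_ae ?_
  filter_upwards [hu.ae_diff hC, hv.ae_diff hC] with z h1 h2
  exact wdg_add_left h1 h2

theorem om_add_right {C : Set ℂ} (hC : IsClosed C) {u v w : ℂ → ℝ} (hu : Q C u) (hv : Q C v)
    (hw : Q C w) : om C w (fun z => u z + v z) = om C w u + om C w v := by
  rw [om_antisymm, om_add_left hC hu hv hw, om_antisymm (u := u), om_antisymm (u := v)]; ring

/-- the form `om` depends only on the germs at `C` (first argument) -/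
theorem om_congr_left (St : StokesP) {C : Set ℂ} (hC : IsCompact C) {u v w : ℂ → ℝ} (hu : Q C u)
    (hv : Q C v) (hw : Q C w) (h : ∀ z ∈ C, ∀ᶠ x in 𝓝 z, u x = v x) : om C u w = om C v w := by
  have hCc := hC.isClosed
  have h1 : Q C (fun z => u z - v z) := hu.sub hCc hv
  have h2 : LC C (fun z => u z - v z) := LC.of_zero hCc h1 fun z hz => by
    filter_upwards [h z hz] with x hx
    rw [hx]; ring
  have h3 := stokes St hC h2 hw
  have h4 : (fun z => (u z - v z) + v z) = u := by funext z; ring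
  have h5 := om_add_left hCc h1 hv hw
  rw [h4, h3, zero_add] at h5
  exact h5

/-- the form `om` depends only on the germs at `C` (second argument) -/
theorem om_congr_right (St : StokesP) {C : Set ℂ} (hC : IsCompact C) {u v w : ℂ → ℝ} (hu : Q C u)
    (hv : Q C v) (hw : Q C w) (h : ∀ z ∈ C, ∀ᶠ x in 𝓝 z, u x = v x) : om C w u = om C w v := by
  rw [om_antisymm, om_congr_left St hC hu hv hw h, ← om_antisymm]

end Crest.Agent.R105.OneF_871
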