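import Mathlib
import Crest.Agent.R105.OneF2_871

/-!
Row 105 (S0139), item (1F), part 3: ONE FUNCTION.  If `a, a'` are, near the compact set `C`,
(finitely many) Lipschitz functions of one function `u ∈ Q C`, then `om C a a' = 0`.
-/

set_option autoImplicit false

open MeasureTheory Set Filter Topology Metric
open scoped NNReal ENNReal

namespace Crest.Agent.R105.OneF_871

open Crest.Agent.R105.Bd_775

/-- near `C` the function `a` is a Lipschitz function of `u`, chosen by a locally constant label -/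
def Lab (C : Set ℂ) (u a : ℂ → ℝ) : Prop :=
  ∃ (ι : Type) (l : ℂ → ι) (h : ι → ℝ → ℝ), (∀ i, ∃ K : ℝ≥0, LipschitzWith K (h i)) ∧
    (∀ z ∈ C, ∀ᶠ w in 𝓝 z, l w = l z) ∧ (∀ z ∈ C, ∀ᶠ w in 𝓝 z, a w = h (l z) (u w))

section
variable {C : Set ℂ} {u a a' : ℂ → ℝ}

theorem Lab.of_lc (h : ∀ z ∈ C, ∀ᶠ w in 𝓝 z, a w = a z) : Lab C u a :=
  ⟨ℝ, a, fun c _ => c, fun c => ⟨0, LipschitzWith.const c⟩, h, h⟩

theorem Lab.self : Lab C u u :=
  ⟨Unit, fun _ => (), fun _ s => s, fun _ => ⟨1, LipschitzWith.id⟩,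
    fun _ _ => Eventually.of_forall fun _ => rfl, fun _ _ => Eventually.of_forall fun _ => rfl⟩

theorem Lab.congr (h : Lab C u a) (h' : ∀ z ∈ C, ∀ᶠ w in 𝓝 z, a' w = a w) : Lab C u a' := by
  obtain ⟨ι, l, f, hf, hl, ha⟩ := h
  refine ⟨ι, l, f, hf, hl, fun z hz => ?_⟩
  filter_upwards [h' z hz, ha z hz] with w h1 h2
  rw [h1, h2]

theorem Lab.comp {g : ℝ → ℝ} {K : ℝ≥0} (hg : LipschitzWith K g) (h : Lab C u a) :
    Lab C u (fun z => g (a z)) := by
  obtain ⟨ι, l, f, hf, hl, ha⟩ := h
  refine ⟨ι, l, fun i s => g (f i s), fun i => ?_, hl, fun z hz => ?_⟩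
  · obtain ⟨L, hL⟩ := hf i
    exact ⟨K * L, hg.comp hL⟩
  · filter_upwards [ha z hz] with w h1
    rw [h1]

theorem Lab.add (h : Lab C u a) (h' : Lab C u a') : Lab C u (fun z => a z + a' z) := by
  obtain ⟨ι, l, f, hf, hl, ha⟩ := h
  obtain ⟨ι', l', f', hf', hl', ha'⟩ := h'
  refine ⟨ι × ι', fun z => (l z, l' z), fun p s => f p.1 s + f' p.2 s, fun p => ?_, ?_, ?_⟩
  · obtain ⟨L, hL⟩ := hf p.1
    obtain ⟨L', hL'⟩ := hf' p.2
    exact ⟨L + L', hL.add hL'⟩
  · intro z hz
    filter_upwards [hl z hz, hl' z hz] with w h1 h2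
    rw [h1, h2]
  · intro z hz
    filter_upwards [ha z hz, ha' z hz] with w h1 h2
    rw [h1, h2]

/-- product of two bounded-range Lipschitz functions of one variable -/
theorem lip_mul_clamp {f g : ℝ → ℝ} {K L : ℝ≥0} (hf : LipschitzWith K f) (hg : LipschitzWith L g)
    {M : ℝ} (hM : 0 ≤ M) :
    ∃ N : ℝ≥0, LipschitzWith N
      (fun s => f (max (-M) (min M s)) * g (max (-M) (min M s))) := by
  set c : ℝ → ℝ := fun s => max (-M) (min M s) with hc
  have hcl : LipschitzWith 1 c := by
    have h1 : LipschitzWith 1 (fun s : ℝ => min M s) := LipschitzWith.id.const_min M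
    exact h1.const_max (-M)
  have hcb : ∀ s, |c s| ≤ M := by
    intro s
    rw [abs_le]
    exact ⟨le_max_left _ _, max_le (by linarith) (min_le_left _ _)⟩
  have hfb : ∀ s, |f (c s)| ≤ |f 0| + K * M := by
    intro s
    have h1 := hf.dist_le_mul (c s) 0
    rw [Real.dist_eq, Real.dist_eq, sub_zero] at h1
    have h2 : |f (c s)| ≤ |f 0| + |f (c s) - f 0| := by
      have := abs_add_le (f 0) (f (c s) - f 0)
      rwa [add_sub_cancel] at this
    have h3 : (K : ℝ) * |c s| ≤ K * M := mul_le_mul_of_nonneg_left (hcb s) K.2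
    linarith
  have hgb : ∀ s, |g (c s)| ≤ |g 0| + L * M := by
    intro s
    have h1 := hg.dist_le_mul (c s) 0
    rw [Real.dist_eq, Real.dist_eq, sub_zero] at h1
    have h2 : |g (c s)| ≤ |g 0| + |g (c s) - g 0| := by
      have := abs_add_le (g 0) (g (c s) - g 0)
      rwa [add_sub_cancel] at this
    have h3 : (L : ℝ) * |c s| ≤ L * M := mul_le_mul_of_nonneg_left (hcb s) L.2
    linarith
  have hA : 0 ≤ (|f 0| + K * M) * L + (|g 0| + L * M) * K := by positivity
  refine ⟨⟨_, hA⟩, LipschitzWith.of_dist_le_mul fun x y => ?_⟩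
  have e1 := (hf.comp hcl).dist_le_mul x y
  have e2 := (hg.comp hcl).dist_le_mul x y
  simp only [Function.comp_apply, mul_one, Real.dist_eq] at e1 e2 ⊢
  have : f (c x) * g (c x) - f (c y) * g (c y)
      = f (c x) * (g (c x) - g (c y)) + g (c y) * (f (c x) - f (c y)) := by ring
  rw [this]
  refine (abs_add_le _ _).trans ?_
  rw [abs_mul, abs_mul]
  have e3 : |f (c x)| * |g (c x) - g (c y)| ≤ (|f 0| + K * M) * (L * |x - y|) :=
    mul_le_mul (hfb x) e2 (abs_nonneg _) (by positivity)
  have e4 : |g (c y)| * |f (c x) - f (c y)| ≤ (|g 0| + L * M) * (K * |x - y|) :=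
    mul_le_mul (hgb y) e1 (abs_nonneg _) (by positivity)
  show _ ≤ ((|f 0| + K * M) * L + (|g 0| + L * M) * K) * |x - y|
  nlinarith

theorem Lab.mul {M : ℝ} (hM : ∀ z, |u z| ≤ M) (h : Lab C u a) (h' : Lab C u a') :
    Lab C u (fun z => a z * a' z) := by
  obtain ⟨ι, l, f, hf, hl, ha⟩ := h
  obtain ⟨ι', l', f', hf', hl', ha'⟩ := h'
  have hM0 : 0 ≤ M := (abs_nonneg _).trans (hM 0)
  refine ⟨ι × ι', fun z => (l z, l' z), fun p s => f p.1 (max (-M) (min M s)) *
    f' p.2 (max (-M) (min M s)), fun p => ?_, ?_, ?_⟩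
  · obtain ⟨L, hL⟩ := hf p.1
    obtain ⟨L', hL'⟩ := hf' p.2
    exact lip_mul_clamp hL hL' hM0
  · intro z hz
    filter_upwards [hl z hz, hl' z hz] with w h1 h2
    rw [h1, h2]
  · intro z hz
    filter_upwards [ha z hz, ha' z hz] with w h1 h2
    have h3 := abs_le.1 (hM w)
    rw [h1, h2, min_eq_right h3.2, max_eq_right h3.1]

/-- everything generated by one function has a labelling -/
theorem Lab.gen {M : ℝ} (hM : ∀ z, |u z| ≤ M) (h : Gen C (fun _ : Unit => u) a) : Lab C u a := by
  induction h with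
  | const c => exact Lab.of_lc fun _ _ => Eventually.of_forall fun _ => rfl
  | lc h => exact Lab.of_lc h.lc
  | of i => exact Lab.self
  | add _ _ h1 h2 => exact h1.add h2
  | mul _ _ h1 h2 => exact h1.mul hM h2
  | comp hh _ h1 => exact h1.comp hh

/-- **ONE FUNCTION**: `a, a'` are near `C` Lipschitz functions of `u`. -/
theorem core (St : StokesP) (hC : IsCompact C) (hu : Q C u) (ha : Q C a) (ha' : Q C a')
    (hL : Lab C u a) (hL' : Lab C u a') : om C a a' = 0 := by
  have hCc := hC.isClosed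
  obtain ⟨M, hM⟩ := hu.bdd
  obtain ⟨A, hA⟩ := ha.bdd
  obtain ⟨A', hA'⟩ := ha'.bdd
  have hM0 : 0 ≤ M := (abs_nonneg _).trans (hM 0)
  have hA0 : 0 ≤ A := (abs_nonneg _).trans (hA 0)
  have hA0' : 0 ≤ A' := (abs_nonneg _).trans (hA' 0)
  obtain ⟨ι, l, f, hf, hl, hf1⟩ := hL
  obtain ⟨ι', l', f', hf', hl', hf1'⟩ := hL'
  choose K hK using hf
  choose K' hK' using hf'
  set p : ℂ → ι × ι' := fun z => (l z, l' z) with hp
  have hpl : ∀ z ∈ C, ∀ᶠ w in 𝓝 z, p w = p z := by
    intro z hz
    filter_upwards [hl z hz, hl' z hz] with w h1 h2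
    simp only [hp, h1, h2]
  obtain ⟨δ, hδ, hU⟩ := unif hC hpl (R := fun q w => a w = f q.1 (u w) ∧ a' w = f' q.2 (u w))
    (fun z hz => (hf1 z hz).and (hf1' z hz))
  obtain ⟨θ, κ, hκ, hc, h01, h1, h0⟩ := exists_cut hC (δ := δ / 4) (by linarith)
  obtain ⟨η, κ', hκ', hc', h01', h1', h0'⟩ := exists_cut hC (δ := δ / 2) (by linarith)
  have hθ : LC C θ := cut_lc hκ hc (by linarith : 0 < δ / 4) h1
  have hη : LC C η := cut_lc hκ' hc' (by linarith : 0 < δ / 2) h1'
  rw [show 2 * (δ / 4) = δ / 2 by ring] at h0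
  rw [show 2 * (δ / 2) = δ by ring] at h0'
  set N := thickening δ C with hN
  have hNo : IsOpen N := isOpen_thickening
  -- the function `B`
  set B : ℂ → ℝ := fun w => HH (f (l w)) (f' (l' w)) (u w) with hB
  set W : ℂ → ℝ := fun w => η w * B w with hW
  have hCN : C ⊆ N := self_subset_thickening hδ C
  have hloc : ∀ z ∈ N, (∀ᶠ w in 𝓝 z, a w = f (l z) (u w)) ∧ (∀ᶠ w in 𝓝 z, a' w = f' (l' z) (u w))
      ∧ (∀ᶠ w in 𝓝 z, B w = HH (f (l z)) (f' (l' z)) (u w)) := by
    intro z hz
    have e1 := hNo.mem_nhds hz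
    have e2 := (hU z hz).2.1
    refine ⟨?_, ?_, ?_⟩
    · filter_upwards [e1, e2] with w hw1 hw2
      have := (hU w hw1).1.1
      rw [hw2] at this
      exact this
    · filter_upwards [e1, e2] with w hw1 hw2
      have := (hU w hw1).1.2
      rw [hw2] at this
      exact this
    · filter_upwards [e2] with w hw2
      have h3 : l w = l z := congrArg Prod.fst hw2
      have h4 : l' w = l' z := congrArg Prod.snd hw2
      simp only [hB, h3, h4]
  -- `B` is bounded on `N`
  have hBb : ∃ b : ℝ, 0 ≤ b ∧ ∀ w ∈ N, |B w| ≤ b := by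
    have h2 : ∀ q : ι × ι', ∃ b : ℝ, ∀ s, |s| ≤ M → |HH (f q.1) (f' q.2) s| ≤ b := by
      intro q
      have hcont : Continuous (HH (f q.1) (f' q.2)) :=
        (HH_locLip (hK q.1) (hK' q.2)).continuous
      obtain ⟨b, hb⟩ := (isCompact_Icc (a := -M) (b := M)).exists_bound_of_continuousOn
        hcont.continuousOn
      exact ⟨b, fun s hs => by simpa using hb s (abs_le.1 hs)⟩
    choose b hb using h2
    have hfin : (b '' (p '' C)).Finite := (finite_labels hC hpl).image b
    obtain ⟨b0, hb0⟩ := hfin.bddAbove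
    refine ⟨max b0 0, le_max_right _ _, fun w hw => ?_⟩
    have h3 := hb (p w) (u w) (hM w)
    exact h3.trans ((hb0 (mem_image_of_mem b (hU w hw).2.2)).trans (le_max_left _ _))
  obtain ⟨b, hb0, hb⟩ := hBb
  -- derivative of `B`
  have hBd : ∀ z ∈ N, z ∈ Cᶜ → DifferentiableAt ℝ a z → DifferentiableAt ℝ a' z →
      HasFDerivAt B (a z • fderiv ℝ a' z - a' z • fderiv ℝ a z) z := by
    intro z hz hzC h3 h4
    obtain ⟨e1, e2, e3⟩ := hloc z hz
    obtain ⟨L, t, ht, hLt⟩ := hu.loc hzC
    rw [hCc.isOpen_compl.nhdsWithin_eq hzC] at ht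
    refine HH_hasFDerivAt (hK (l z)) (hK' (l' z)) (u := u) (M := L) ?_ e1 e2 e3 h3 h4
    filter_upwards [ht] with w hw
    have := hLt.dist_le_mul w hw z (mem_of_mem_nhds ht)
    rwa [Real.dist_eq, dist_eq_norm] at this
  -- `W` is in `Q C`
  have hWn : ∀ z ∉ N, ∀ᶠ w in 𝓝 z, W w = 0 := by
    intro z hz
    filter_upwards [h0' z hz] with w hw
    simp only [hW, hw, zero_mul]
  have hη1 : ∀ z, |η z| ≤ 1 := fun z => by
    rw [abs_of_nonneg (h01' z).1]; exact (h01' z).2
  have hWb : ∀ z, |W z| ≤ b := by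
    intro z
    by_cases hz : z ∈ N
    · simp only [hW, abs_mul]
      calc |η z| * |B z| ≤ 1 * b := mul_le_mul (hη1 z) (hb z hz) (abs_nonneg _) zero_le_one
        _ = b := one_mul b
    · rw [(hWn z hz).self_of_nhds, abs_zero]; exact hb0
  have hWq : Q C W := by
    refine ⟨⟨b, hWb⟩, ?_, ?_⟩
    · intro z hz
      by_cases hzN : z ∈ N
      · obtain ⟨e1, e2, e3⟩ := hloc z hzN
        -- near `z`: Lipschitz
        obtain ⟨L, t, ht, hLt⟩ := hu.loc hz
        obtain ⟨L2, s, hs, hLs⟩ := HH_locLip (hK (l z)) (hK' (l' z)) (u z)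
        rw [hCc.isOpen_compl.nhdsWithin_eq hz] at ht ⊢
        have huc : ContinuousAt u z := by
          have := hu.loc.continuousOn.continuousAt (hCc.isOpen_compl.mem_nhds hz)
          exact this
        have hBl : LipschitzOnWith (L2 * L) B (t ∩ (u ⁻¹' s) ∩ {w | B w = HH (f (l z)) (f' (l' z)) (u w)}) := by
          refine LipschitzOnWith.of_dist_le_mul fun x hx y hy => ?_
          rw [hx.2, hy.2]
          have g1 := hLs.dist_le_mul (u x) hx.1.2 (u y) hy.1.2
          have g2 := hLt.dist_le_mul x hx.1.1 y hy.1.1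
          push_cast
          calc dist (HH (f (l z)) (f' (l' z)) (u x)) (HH (f (l z)) (f' (l' z)) (u y))
              ≤ L2 * dist (u x) (u y) := g1
            _ ≤ L2 * (L * dist x y) := mul_le_mul_of_nonneg_left g2 L2.2
            _ = _ := by ring
        refine ⟨b.toNNReal * κ' + (1 : ℝ≥0) * (L2 * L),
          (t ∩ (u ⁻¹' s) ∩ {w | B w = HH (f (l z)) (f' (l' z)) (u w)}) ∩ N, ?_, ?_⟩
        · exact inter_mem (inter_mem (inter_mem ht (huc.preimage_mem_nhds hs)) e3)
            (hNo.mem_nhds hzN)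
        · refine LipschitzOnWith.of_dist_le_mul fun x hx y hy => ?_
          have g1 := hBl.dist_le_mul x hx.1 y hy.1
          have g2 := hκ'.dist_le_mul x y
          rw [Real.dist_eq] at g1 g2 ⊢
          have g3 : W x - W y = B x * (η x - η y) + η y * (B x - B y) := by
            simp only [hW]; ring
          rw [g3]
          refine (abs_add_le _ _).trans ?_
          rw [abs_mul, abs_mul]
          have g4 : |B x| * |η x - η y| ≤ b * (κ' * dist x y) :=
            mul_le_mul (hb x hx.2) g2 (abs_nonneg _) hb0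
          have g5 : |η y| * |B x - B y| ≤ 1 * (((L2 * L : ℝ≥0) : ℝ) * dist x y) :=
            mul_le_mul (hη1 y) g1 (abs_nonneg _) zero_le_one
          push_cast at g5 ⊢
          rw [Real.coe_toNNReal b hb0]
          nlinarith
      · rw [hCc.isOpen_compl.nhdsWithin_eq hz]
        refine ⟨0, _, hWn z hzN, ?_⟩
        refine LipschitzOnWith.of_dist_le_mul fun x hx y hy => ?_
        simp only [mem_ofPred_eq] at hx hy
        rw [hx, hy]; simp
    · have hdom : IntegrableOn (fun z => 2 * b ^ 2 * en η z + 2 * (2 * A ^ 2 * en a' z +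
          2 * A' ^ 2 * en a z)) Cᶜ :=
        ((hη.q.fin.const_mul _).add (((ha'.fin.const_mul _).add (ha.fin.const_mul _)).const_mul _))
      refine Integrable.mono' hdom (measurable_en _).aestronglyMeasurable ?_
      filter_upwards [ha.ae_diff hCc, ha'.ae_diff hCc, hη.q.ae_diff hCc,
        ae_restrict_mem hCc.isOpen_compl.measurableSet] with z g1 g2 g3 g4
      rw [Real.norm_of_nonneg (en_nonneg _ _)]
      have n1 := en_nonneg η z
      have n2 := en_nonneg a z
      have n3 := en_nonneg a' z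
      by_cases hzN : z ∈ N
      · have g5 := hBd z hzN g4 g1 g2
        have g6 : DifferentiableAt ℝ B z := g5.differentiableAt
        have x1 : gx B z = a z * gx a' z - a' z * gx a z := by
          unfold gx; rw [g5.fderiv]; simp
        have y1 : gy B z = a z * gy a' z - a' z * gy a z := by
          unfold gy; rw [g5.fderiv]; simp
        have x2 : gx W z = η z * gx B z + B z * gx η z := gx_mul g3 g6
        have y2 : gy W z = η z * gy B z + B z * gy η z := gy_mul g3 g6
        have s1 : η z ^ 2 ≤ 1 := by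
          rw [← sq_abs]; have := hη1 z; nlinarith [abs_nonneg (η z)]
        have s2 : B z ^ 2 ≤ b ^ 2 := by
          rw [← sq_abs]; exact pow_le_pow_left₀ (abs_nonneg _) (hb z hzN) 2
        have s3 : a z ^ 2 ≤ A ^ 2 := by
          rw [← sq_abs]; exact pow_le_pow_left₀ (abs_nonneg _) (hA z) 2
        have s4 : a' z ^ 2 ≤ A' ^ 2 := by
          rw [← sq_abs]; exact pow_le_pow_left₀ (abs_nonneg _) (hA' z) 2
        have t1 : en B z ≤ 2 * A ^ 2 * en a' z + 2 * A' ^ 2 * en a z := by
          have : en B z ≤ 2 * (a z ^ 2 * en a' z) + 2 * (a' z ^ 2 * en a z) := by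
            unfold en; rw [x1, y1]
            nlinarith [sq_nonneg (a z * gx a' z + a' z * gx a z),
              sq_nonneg (a z * gy a' z + a' z * gy a z)]
          have u1 := mul_le_mul_of_nonneg_right s3 n3
          have u2 := mul_le_mul_of_nonneg_right s4 n2
          nlinarith
        have t2 : en W z ≤ 2 * (η z ^ 2 * en B z) + 2 * (B z ^ 2 * en η z) := by
          unfold en; rw [x2, y2]
          nlinarith [sq_nonneg (η z * gx B z - B z * gx η z),
            sq_nonneg (η z * gy B z - B z * gy η z)]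
        have n4 := en_nonneg B z
        have t3 := mul_le_mul_of_nonneg_right s1 n4
        have t4 := mul_le_mul_of_nonneg_right s2 n1
        nlinarith
      · rw [en_zero (hWn z hzN)]
        positivity
  -- reduce to `θ a`, `θ a'`
  have hθa : Q C (fun z => θ z * a z) := hθ.q.mul hCc ha
  have hθa' : Q C (fun z => θ z * a' z) := hθ.q.mul hCc ha'
  have hnear : ∀ z ∈ C, ∀ᶠ w in 𝓝 z, θ w = 1 := by
    intro z hz
    have : thickening (δ / 4) C ∈ 𝓝 z :=
      isOpen_thickening.mem_nhds (self_subset_thickening (by linarith) C hz)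
    filter_upwards [this] with w hw
    exact h1 w hw
  have r1 : om C a a' = om C (fun z => θ z * a z) (fun z => θ z * a' z) := by
    rw [om_congr_left St hC ha hθa ha', om_congr_right St hC ha' hθa' hθa]
    · intro z hz
      filter_upwards [hnear z hz] with w hw
      rw [hw, one_mul]
    · intro z hz
      filter_upwards [hnear z hz] with w hw
      rw [hw, one_mul]
  -- `χ = θ²`
  have hθ1 : ∀ z, |θ z| ≤ 1 := fun z => by
    rw [abs_of_nonneg (h01 z).1]; exact (h01 z).2
  have hχ : LC C (fun z => θ z * θ z) := by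
    refine LC.of_compact ?_ ?_ ?_
    · have := ll_mul (O := univ) (locallyLipschitzOn_univ.2 hθ.lip)
        (locallyLipschitzOn_univ.2 hθ.lip) hθ1 hθ1
      exact locallyLipschitzOn_univ.1 this
    · exact hc.mul_left
    · intro z hz
      filter_upwards [hθ.lc z hz] with w hw
      rw [hw]
  have hS := stokes St hC hχ hWq
  have r2 : 2 * om C (fun z => θ z * a z) (fun z => θ z * a' z) = om C (fun z => θ z * θ z) W := by
    unfold om
    rw [← integral_const_mul]
    refine integral_congr_ae ?_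
    filter_upwards [hu.ae_diff hCc, ha.ae_diff hCc, ha'.ae_diff hCc, hθ.q.ae_diff hCc,
      ae_restrict_mem hCc.isOpen_compl.measurableSet] with z g0 g1 g2 g3 g4
    by_cases hz : z ∈ thickening (δ / 2) C
    · have hzN : z ∈ N := thickening_mono (by linarith) C hz
      obtain ⟨e1, e2, e3⟩ := hloc z hzN
      have g5 := hBd z hzN g4 g1 g2
      have g6 : W =ᶠ[𝓝 z] B := by
        filter_upwards [isOpen_thickening.mem_nhds hz] with w hw
        simp only [hW, h1' w hw, one_mul]
      have x1 : gx W z = a z * gx a' z - a' z * gx a z := by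
        rw [gx_eq_of_eventuallyEq g6]; unfold gx; rw [g5.fderiv]; simp
      have y1 : gy W z = a z * gy a' z - a' z * gy a z := by
        rw [gy_eq_of_eventuallyEq g6]; unfold gy; rw [g5.fderiv]; simp
      have w0 : gx a z * gy a' z - gy a z * gx a' z = 0 :=
        wedge_zero (hK (l z)) (hK' (l' z)) e1 e2 g0 g1 g2
      unfold wdg
      rw [gx_mul g3 g1, gy_mul g3 g1, gx_mul g3 g2, gy_mul g3 g2, gx_mul g3 g3, gy_mul g3 g3,
        x1, y1]
      linear_combination (2 * θ z ^ 2) * w0
    · have k0 := h0 z hz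
      have k1 : ∀ᶠ w in 𝓝 z, θ w * a w = 0 := by
        filter_upwards [k0] with w hw
        rw [hw, zero_mul]
      have k2 : ∀ᶠ w in 𝓝 z, θ w * θ w = 0 := by
        filter_upwards [k0] with w hw
        rw [hw, zero_mul]
      rw [wdg_zero_left k1, wdg_zero_left k2, mul_zero]
  rw [r1]
  linarith

/-- **ONE FUNCTION IS ISOTROPIC.** -/
theorem iso_one (St : StokesP) (hC : IsCompact C) (hu : Q C u) : Iso C (fun _ : Unit => u) := by
  intro v w hv hw
  obtain ⟨M, hM⟩ := hu.bdd
  exact core St hC hu (hv.q hC.isClosed fun _ => hu) (hw.q hC.isClosed fun _ => hu)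
    (Lab.gen hM hv) (Lab.gen hM hw)

end
end Crest.Agent.R105.OneF_871
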