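import Mathlib
import Crest.Agent.R105.OneF3_871
import Crest.Agent.R105.IfB0_641

/-!
Row 105 (S0139), CLOSE, isotropy half: if `F` consists of generated functions which are locally
constant at the points of a clopen piece `P = {χ = 1}` of `C`, and `u = ψ` near `C \ P`, then
`insert u F` is isotropic.
-/

set_option autoImplicit false

open MeasureTheory Set Filter Topology Metric
open scoped NNReal ENNReal

namespace Crest.Agent.R105.Clo_871

open Crest.Agent.R105.Bd_775 Crest.Agent.R105.OneF_871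

variable {C : Set ℂ}

/-- `χ A` and `(1 - χ) B` are orthogonal for `om`, `χ` the indicator of a clopen piece -/
theorem om_split (St : StokesP) (hC : IsCompact C) {χ A B : ℂ → ℝ} (hχ : LC C χ)
    (h01 : ∀ z ∈ C, χ z = 0 ∨ χ z = 1) (hA : Q C A) (hB : Q C B) :
    om C (fun z => χ z * A z) (fun z => (1 - χ z) * B z) = 0 := by
  classical
  have hCc := hC.isClosed
  have hX : Q C (fun z => χ z * A z) := hχ.q.mul hCc hA
  have hY : Q C (fun z => (1 - χ z) * B z) := ((Q.const C 1).sub hCc hχ.q).mul hCc hB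
  refine core St hC (u := fun z => χ z * A z + (1 - χ z) * B z) (hX.add hCc hY) hX hY ?_ ?_
  · refine ⟨ℝ, χ, fun c s => if c = 1 then s else 0, fun c => ?_, hχ.lc, fun z hz => ?_⟩
    · by_cases hc : c = 1
      · refine ⟨1, ?_⟩
        simp only [hc, if_true]; exact LipschitzWith.id
      · refine ⟨0, ?_⟩
        simp only [hc, if_false]; exact LipschitzWith.const (0:ℝ)
    · filter_upwards [hχ.lc z hz] with w hw
      rcases h01 z hz with h | h
      · rw [hw, h]; simp
      · rw [hw, h]; simp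
  · refine ⟨ℝ, χ, fun c s => if c = 1 then 0 else s, fun c => ?_, hχ.lc, fun z hz => ?_⟩
    · by_cases hc : c = 1
      · refine ⟨0, ?_⟩
        simp only [hc, if_true]; exact LipschitzWith.const (0:ℝ)
      · refine ⟨1, ?_⟩
        simp only [hc, if_false]; exact LipschitzWith.id
    · filter_upwards [hχ.lc z hz] with w hw
      rcases h01 z hz with h | h
      · rw [hw, h]; simp
      · rw [hw, h]; simp

/-- labelling on a clopen piece: everything generated by `u` and functions which are locally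
constant at the points of `P = {χ = 1}` -/
theorem lab_piece {χ u : ℂ → ℝ} {F : Set (ℂ → ℝ)} {M : ℝ} (hM : ∀ z, |u z| ≤ M)
    (hF : ∀ g ∈ F, ∀ z ∈ C, χ z = 1 → ∀ᶠ w in 𝓝 z, g w = g z) {a : ℂ → ℝ}
    (ha : IfB_641.Gen C (insert u F) a) : Lab {z ∈ C | χ z = 1} u a := by
  unfold IfB_641.Gen at ha
  induction ha with
  | const c => exact Lab.of_lc fun _ _ => Eventually.of_forall fun _ => rfl
  | lc h => exact Lab.of_lc fun z hz => h.lc z hz.1
  | of i =>
    rcases i.2 with h | h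
    · have : (i : ℂ → ℝ) = u := h
      show Lab _ u (i : ℂ → ℝ)
      rw [this]; exact Lab.self
    · exact Lab.of_lc fun z hz => hF _ h z hz.1 hz.2
  | add _ _ h1 h2 => exact h1.add h2
  | mul _ _ h1 h2 => exact h1.mul hM h2
  | comp hh _ h1 => exact h1.comp hh

/-- from the clopen piece to `C` -/
theorem lab_ext {χ u a : ℂ → ℝ} (hχ : LC C χ) (h01 : ∀ z ∈ C, χ z = 0 ∨ χ z = 1)
    (h : Lab {z ∈ C | χ z = 1} u a) : Lab C u (fun z => χ z * a z) := by
  classical
  obtain ⟨ι, l, f, hf, hl, ha⟩ := h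
  refine ⟨Option ι, fun w => if χ w = 1 then some (l w) else none,
    fun o => match o with
      | some i => f i
      | none => fun _ => 0, ?_, ?_, ?_⟩
  · rintro (_ | i)
    · exact ⟨0, LipschitzWith.const (0:ℝ)⟩
    · exact hf i
  · intro z hz
    rcases h01 z hz with h0 | h1
    · filter_upwards [hχ.lc z hz] with w hw
      simp [hw, h0]
    · filter_upwards [hχ.lc z hz, hl z ⟨hz, h1⟩] with w hw hw2
      simp [hw, h1, hw2]
  · intro z hz
    rcases h01 z hz with h0 | h1
    · filter_upwards [hχ.lc z hz] with w hw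
      simp [hw, h0]
    · filter_upwards [hχ.lc z hz, ha z ⟨hz, h1⟩] with w hw hw2
      simp [hw, h1, hw2]

/-- the same expression in `ψ` instead of `u` -/
theorem transfer {χ u ψ : ℂ → ℝ} {F S : Set (ℂ → ℝ)}
    (hF : ∀ g ∈ F, IfB_641.Gen C (insert ψ S) g)
    (hu : ∀ z ∈ C, χ z = 0 → ∀ᶠ w in 𝓝 z, u w = ψ w) {a : ℂ → ℝ}
    (ha : IfB_641.Gen C (insert u F) a) :
    ∃ a', IfB_641.Gen C (insert ψ S) a' ∧ ∀ z ∈ C, χ z = 0 → ∀ᶠ w in 𝓝 z, a w = a' w := by
  unfold IfB_641.Gen at ha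
  induction ha with
  | const c => exact ⟨_, IfB_641.Gen.const c, fun _ _ _ => Eventually.of_forall fun _ => rfl⟩
  | lc h => exact ⟨_, IfB_641.Gen.lc h, fun _ _ _ => Eventually.of_forall fun _ => rfl⟩
  | of i =>
    rcases i.2 with h | h
    · have : (i : ℂ → ℝ) = u := h
      refine ⟨ψ, IfB_641.Gen.of (mem_insert _ _), fun z hz h0 => ?_⟩
      filter_upwards [hu z hz h0] with w hw
      rw [← hw]
      exact congrFun this w
    · exact ⟨_, hF _ h, fun _ _ _ => Eventually.of_forall fun _ => rfl⟩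
  | add _ _ h1 h2 =>
    obtain ⟨a1, g1, e1⟩ := h1
    obtain ⟨a2, g2, e2⟩ := h2
    refine ⟨_, g1.add g2, fun z hz h0 => ?_⟩
    filter_upwards [e1 z hz h0, e2 z hz h0] with w w1 w2
    rw [w1, w2]
  | mul _ _ h1 h2 =>
    obtain ⟨a1, g1, e1⟩ := h1
    obtain ⟨a2, g2, e2⟩ := h2
    refine ⟨_, g1.mul g2, fun z hz h0 => ?_⟩
    filter_upwards [e1 z hz h0, e2 z hz h0] with w w1 w2
    rw [w1, w2]
  | comp hh _ h1 =>
    obtain ⟨a1, g1, e1⟩ := h1
    refine ⟨_, IfB_641.Gen.comp hh g1, fun z hz h0 => ?_⟩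
    filter_upwards [e1 z hz h0] with w w1
    rw [w1]

/-- **CLOSE, isotropy half.** -/
theorem close_iso (St : StokesP) (hC : IsCompact C) {χ u ψ : ℂ → ℝ} {F S : Set (ℂ → ℝ)}
    (hS : IfB_641.Iso C (insert ψ S)) (hSQ : ∀ s ∈ S, Q C s) (hψ : Q C ψ) (hu : Q C u)
    (hF : ∀ g ∈ F, IfB_641.Gen C (insert ψ S) g) (hχ : LC C χ)
    (h01 : ∀ z ∈ C, χ z = 0 ∨ χ z = 1)
    (hP : ∀ g ∈ F, ∀ z ∈ C, χ z = 1 → ∀ᶠ w in 𝓝 z, g w = g z)
    (hoff : ∀ z ∈ C, χ z = 0 → ∀ᶠ w in 𝓝 z, u w = ψ w) : IfB_641.Iso C (insert u F) := by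
  intro A B hA hB
  have hCc := hC.isClosed
  have hTQ : ∀ s ∈ insert ψ S, Q C s := by
    rintro s (rfl | hs)
    · exact hψ
    · exact hSQ s hs
  have hFQ : ∀ s ∈ insert u F, Q C s := by
    rintro s (rfl | hs)
    · exact hu
    · exact IfB_641.Gen.q hCc hTQ (hF s hs)
  have qA : Q C A := IfB_641.Gen.q hCc hFQ hA
  have qB : Q C B := IfB_641.Gen.q hCc hFQ hB
  have qχ := hχ.q
  have q1χ : Q C (fun z => 1 - χ z) := (Q.const C 1).sub hCc qχ
  obtain ⟨A', gA', eA⟩ := transfer hF hoff hA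
  obtain ⟨B', gB', eB⟩ := transfer hF hoff hB
  have qA' : Q C A' := IfB_641.Gen.q hCc hTQ gA'
  have qB' : Q C B' := IfB_641.Gen.q hCc hTQ gB'
  obtain ⟨M, hM⟩ := hu.bdd
  have lA := lab_ext hχ h01 (lab_piece hM hP hA)
  have lB := lab_ext hχ h01 (lab_piece hM hP hB)
  -- the four pieces
  have q1 := qχ.mul hCc qA
  have q2 := q1χ.mul hCc qA
  have q3 := qχ.mul hCc qB
  have q4 := q1χ.mul hCc qB
  have eqA : (fun z => χ z * A z + (1 - χ z) * A z) = A := by funext z; ring
  have eqB : (fun z => χ z * B z + (1 - χ z) * B z) = B := by funext z; ring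
  have s1 := om_add_left hCc q1 q2 qB
  rw [eqA] at s1
  have s2 := om_add_right hCc q3 q4 q1
  rw [eqB] at s2
  have s3 := om_add_right hCc q3 q4 q2
  rw [eqB] at s3
  have t1 : om C (fun z => χ z * A z) (fun z => χ z * B z) = 0 := core St hC hu q1 q3 lA lB
  have t2 : om C (fun z => χ z * A z) (fun z => (1 - χ z) * B z) = 0 :=
    om_split St hC hχ h01 qA qB
  have t3 : om C (fun z => (1 - χ z) * A z) (fun z => χ z * B z) = 0 := by
    rw [om_antisymm, om_split St hC hχ h01 qB qA, neg_zero]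
  have t4 : om C (fun z => (1 - χ z) * A z) (fun z => (1 - χ z) * B z) = 0 := by
    have q5 := q1χ.mul hCc qA'
    have q6 := q1χ.mul hCc qB'
    rw [om_congr_left St hC q2 q5 q4, om_congr_right St hC q4 q6 q5]
    · have g1 : IfB_641.Gen C (insert ψ S) (fun z => 1 - χ z) :=
        (IfB_641.Gen.const 1).sub (IfB_641.Gen.lc hχ)
      exact hS _ _ (g1.mul gA') (g1.mul gB')
    · intro z hz
      rcases h01 z hz with h | h
      · filter_upwards [eB z hz h] with w hw
        rw [hw]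
      · filter_upwards [hχ.lc z hz] with w hw
        rw [hw, h]; ring
    · intro z hz
      rcases h01 z hz with h | h
      · filter_upwards [eA z hz h] with w hw
        rw [hw]
      · filter_upwards [hχ.lc z hz] with w hw
        rw [hw, h]; ring
  rw [s1, s2, s3, t1, t2, t3, t4]; ring

end Crest.Agent.R105.Clo_871
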