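import Crest.Agent.R105.Bd4_775
import Crest.Agent.R105.OneF3_871
import Crest.Agent.R105.Clo1_658

/-!
# Row 105, S0139 [B]: the CLOSING LEMMA (helper658)

`C` compact and totally disconnected, `b i` honest, `ψ` with one atom at `q ∈ C`, `{ψ} ∪ {b i}`
isotropic.  Then there are honest `c i` close to `b i` (`i ≤ n`), constant near `q`, and an honest
`u` close to `ψ`, with `{u} ∪ {c i : i ≤ n}` isotropic.
-/

set_option autoImplicit false

open MeasureTheory Set Filter Topology Metric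
open scoped NNReal ENNReal

namespace Crest.Agent.R105.Clo_658

open Crest.Agent.R105.Bd_775
open Crest.Agent.R105.OneF_871 (StokesP om_congr_left om_congr_right om_add_left om_add_right Lab core
  exists_cut cut_lc wdg_zero_left wdg_zero_right)

/-! ### clopen splitting -/

/-- small clopen pieces -/
theorem split {C : Set ℂ} (hC : IsCompact C) (htd : IsTotallyDisconnected C) {q : ℂ} (hq : q ∈ C)
    {r : ℝ} (hr : 0 < r) : ∃ C₁ C₂ : Set ℂ, IsCompact C₁ ∧ IsCompact C₂ ∧ C₁ ∪ C₂ = C ∧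
      Disjoint C₁ C₂ ∧ q ∈ C₁ ∧ C₁ ⊆ ball q r := by
  have : CompactSpace C := isCompact_iff_compactSpace.1 hC
  have : TotallyDisconnectedSpace C := totallyDisconnectedSpace_subtype_iff.2 htd
  obtain ⟨V, hV, hqV, hVU⟩ := compact_exists_isClopen_in_isOpen (X := C) (x := ⟨q, hq⟩)
    (U := Subtype.val ⁻¹' ball q r) (isOpen_ball.preimage continuous_subtype_val)
    (by simpa using hr)
  refine ⟨Subtype.val '' V, Subtype.val '' Vᶜ, hV.1.isCompact.image continuous_subtype_val,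
    hV.compl.1.isCompact.image continuous_subtype_val, ?_, ?_, ⟨_, hqV, rfl⟩, ?_⟩
  · rw [← image_union, union_compl_self, image_univ, Subtype.range_coe]
  · exact (disjoint_image_iff Subtype.val_injective).2 disjoint_compl_right
  · rintro _ ⟨x, hx, rfl⟩
    exact hVU hx

/-- the data of a cut-off for a piece `A` of `C`: `θ = 1` near `A`, `θ = 0` off `thickening t A` -/
structure Cutp (C A : Set ℂ) (t : ℝ) (θ : ℂ → ℝ) : Prop where
  lc : LC C θ
  mem : ∀ z, 0 ≤ θ z ∧ θ z ≤ 1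
  one : ∀ z ∈ A, ∀ᶠ w in 𝓝 z, θ w = 1
  zero : ∀ z ∉ thickening t A, ∀ᶠ w in 𝓝 z, θ w = 0

theorem exists_cutp {C A B : Set ℂ} (hA : IsCompact A) (hAB : A ∪ B = C) {t : ℝ} (ht : 0 < t)
    (hd : Disjoint (thickening t A) B) : ∃ θ, Cutp C A t θ := by
  obtain ⟨θ, K, hK, hc, h01, h1, h0⟩ := exists_cut hA (δ := t / 2) (by linarith)
  rw [show 2 * (t / 2) = t by ring] at h0
  have hone : ∀ z ∈ A, ∀ᶠ w in 𝓝 z, θ w = 1 := by
    intro z hz
    filter_upwards [isOpen_thickening.mem_nhds (self_subset_thickening (half_pos ht) A hz)]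
      with w hw
    exact h1 w hw
  refine ⟨θ, LC.of_lipschitz hK hc ?_, h01, hone, h0⟩
  intro z hz
  rw [← hAB] at hz
  rcases hz with hz | hz
  · filter_upwards [hone z hz] with w hw
    rw [hw, (hone z hz).self_of_nhds]
  · have hz2 : z ∉ thickening t A := fun h => disjoint_left.1 hd h hz
    filter_upwards [h0 z hz2] with w hw
    rw [hw, (h0 z hz2).self_of_nhds]

/-- two cut-offs with disjoint supports, the first near `C₁`, the second near `C₂` -/
theorem exists_cut2 {C C₁ C₂ : Set ℂ} (h₁ : IsCompact C₁) (h₂ : IsCompact C₂)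
    (hu : C₁ ∪ C₂ = C) (hd : Disjoint C₁ C₂) {r : ℝ} (hr : 0 < r) :
    ∃ (t : ℝ) (θ₁ θ₂ : ℂ → ℝ), 0 < t ∧ t ≤ r ∧ Disjoint (thickening t C₁) (thickening t C₂) ∧
      Cutp C C₁ t θ₁ ∧ Cutp C C₂ t θ₂ := by
  obtain ⟨t₀, ht₀, h0⟩ := hd.exists_thickenings h₁ h₂.isClosed
  have ht : 0 < min t₀ r := lt_min ht₀ hr
  have hdis : Disjoint (thickening (min t₀ r) C₁) (thickening (min t₀ r) C₂) :=
    h0.mono (thickening_mono (min_le_left _ _) _) (thickening_mono (min_le_left _ _) _)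
  obtain ⟨θ₁, H₁⟩ := exists_cutp h₁ hu ht (hdis.mono_right (self_subset_thickening ht _))
  obtain ⟨θ₂, H₂⟩ := exists_cutp h₂ ((union_comm _ _).trans hu) ht
    (hdis.symm.mono_right (self_subset_thickening ht _))
  exact ⟨_, θ₁, θ₂, ht, min_le_right _ _, hdis, H₁, H₂⟩

/-! ### localisation of `om` -/

section Local
variable {C C₁ C₂ : Set ℂ} {t : ℝ} {θ₁ θ₂ : ℂ → ℝ}

theorem disj_zero (hdis : Disjoint (thickening t C₁) (thickening t C₂))
    (H₁ : Cutp C C₁ t θ₁) (H₂ : Cutp C C₂ t θ₂) (z : ℂ) :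
    (∀ᶠ w in 𝓝 z, θ₁ w = 0) ∨ ∀ᶠ w in 𝓝 z, θ₂ w = 0 := by
  by_cases hz : z ∈ thickening t C₁
  · exact Or.inr (H₂.zero z fun h => disjoint_left.1 hdis hz h)
  · exact Or.inl (H₁.zero z hz)

theorem sum_one (ht : 0 < t) (hdis : Disjoint (thickening t C₁) (thickening t C₂))
    (hu : C₁ ∪ C₂ = C) (H₁ : Cutp C C₁ t θ₁) (H₂ : Cutp C C₂ t θ₂) {z : ℂ} (hz : z ∈ C) :
    ∀ᶠ w in 𝓝 z, θ₁ w + θ₂ w = 1 := by
  rw [← hu] at hz
  rcases hz with hz | hz
  · have h2 : z ∉ thickening t C₂ := fun h =>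
      disjoint_left.1 hdis (self_subset_thickening ht _ hz) h
    filter_upwards [H₁.one z hz, H₂.zero z h2] with w e1 e2
    rw [e1, e2]; norm_num
  · have h2 : z ∉ thickening t C₁ := fun h =>
      disjoint_left.1 hdis h (self_subset_thickening ht _ hz)
    filter_upwards [H₂.one z hz, H₁.zero z h2] with w e1 e2
    rw [e1, e2]; norm_num

/-- `om C v w` is the sum of the two local contributions -/
theorem om_split (St : StokesP) (hC : IsCompact C) (ht : 0 < t)
    (hdis : Disjoint (thickening t C₁) (thickening t C₂)) (hu : C₁ ∪ C₂ = C)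
    (H₁ : Cutp C C₁ t θ₁) (H₂ : Cutp C C₂ t θ₂) {v w : ℂ → ℝ} (hv : Q C v) (hw : Q C w) :
    om C v w = om C (fun z => θ₁ z * v z) (fun z => θ₁ z * w z) +
      om C (fun z => θ₂ z * v z) (fun z => θ₂ z * w z) := by
  have hCc := hC.isClosed
  have v1 : Q C (fun z => θ₁ z * v z) := H₁.lc.q.mul hCc hv
  have v2 : Q C (fun z => θ₂ z * v z) := H₂.lc.q.mul hCc hv
  have w1 : Q C (fun z => θ₁ z * w z) := H₁.lc.q.mul hCc hw
  have w2 : Q C (fun z => θ₂ z * w z) := H₂.lc.q.mul hCc hw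
  have vs : Q C (fun z => θ₁ z * v z + θ₂ z * v z) := v1.add hCc v2
  have ws : Q C (fun z => θ₁ z * w z + θ₂ z * w z) := w1.add hCc w2
  have e1 : om C v w = om C (fun z => θ₁ z * v z + θ₂ z * v z) w := by
    refine om_congr_left St hC hv vs hw fun z hz => ?_
    filter_upwards [sum_one ht hdis hu H₁ H₂ hz] with x hx
    rw [← add_mul, hx, one_mul]
  have e2 : om C (fun z => θ₁ z * v z + θ₂ z * v z) w =
      om C (fun z => θ₁ z * v z + θ₂ z * v z) (fun z => θ₁ z * w z + θ₂ z * w z) := by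
    refine om_congr_right St hC hw ws vs fun z hz => ?_
    filter_upwards [sum_one ht hdis hu H₁ H₂ hz] with x hx
    rw [← add_mul, hx, one_mul]
  have c1 : om C (fun z => θ₁ z * v z) (fun z => θ₂ z * w z) = 0 := by
    unfold om
    rw [← integral_zero ℂ ℝ]
    congr 1
    funext z
    rcases disj_zero hdis H₁ H₂ z with h | h
    · refine wdg_zero_left (c := 0) ?_
      filter_upwards [h] with x hx
      rw [hx, zero_mul]
    · refine wdg_zero_right (c := 0) ?_
      filter_upwards [h] with x hx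
      rw [hx, zero_mul]
  have c2 : om C (fun z => θ₂ z * v z) (fun z => θ₁ z * w z) = 0 := by
    unfold om
    rw [← integral_zero ℂ ℝ]
    congr 1
    funext z
    rcases disj_zero hdis H₁ H₂ z with h | h
    · refine wdg_zero_right (c := 0) ?_
      filter_upwards [h] with x hx
      rw [hx, zero_mul]
    · refine wdg_zero_left (c := 0) ?_
      filter_upwards [h] with x hx
      rw [hx, zero_mul]
  rw [e1, e2, om_add_left hCc v1 v2 ws, om_add_right hCc w1 w2 v1, om_add_right hCc w1 w2 v2,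
    c1, c2]
  ring

end Local

/-! ### isotropy of the closed family -/

/-- values of `θ₁` near `C` are `0` or `1` -/
theorem cut_cases {C C₁ C₂ : Set ℂ} {t : ℝ} {θ₁ : ℂ → ℝ} (ht : 0 < t)
    (hdis : Disjoint (thickening t C₁) (thickening t C₂)) (hu : C₁ ∪ C₂ = C)
    (H₁ : Cutp C C₁ t θ₁) {z : ℂ} (hz : z ∈ C) :
    (z ∈ C₁ ∧ ∀ᶠ w in 𝓝 z, θ₁ w = 1) ∨ ∀ᶠ w in 𝓝 z, θ₁ w = 0 := by
  rw [← hu] at hz
  rcases hz with hz | hz
  · exact Or.inl ⟨hz, H₁.one z hz⟩
  · exact Or.inr (H₁.zero z fun h => disjoint_left.1 hdis h (self_subset_thickening ht _ hz))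

/-- near `C₁` everything generated by `u` and functions constant near `C₁` is a function of `u` -/
theorem lab_of_gen {C C₁ C₂ : Set ℂ} {t : ℝ} {θ₁ u : ℂ → ℝ} (ht : 0 < t)
    (hdis : Disjoint (thickening t C₁) (thickening t C₂)) (hu : C₁ ∪ C₂ = C)
    (H₁ : Cutp C C₁ t θ₁) {M : ℝ} (hM : ∀ z, |u z| ≤ M) {S : Set (ℂ → ℝ)}
    (hS : ∀ s ∈ S, ∃ B : ℝ, ∀ z ∈ C₁, ∀ᶠ w in 𝓝 z, s w = B) {v : ℂ → ℝ}
    (hv : IfB_641.Gen C (insert u S) v) : Lab C u (fun z => θ₁ z * v z) := by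
  have hθ : Lab C u θ₁ := Lab.of_lc H₁.lc.lc
  unfold IfB_641.Gen at hv
  induction hv with
  | const c => exact hθ.mul hM (Lab.of_lc fun _ _ => Eventually.of_forall fun _ => rfl)
  | lc h => exact hθ.mul hM (Lab.of_lc h.lc)
  | of i =>
    rcases mem_insert_iff.1 i.2 with h | h
    · rw [h]
      exact hθ.mul hM Lab.self
    · obtain ⟨B, hB⟩ := hS _ h
      refine (hθ.mul hM (Lab.of_lc (a := fun _ => B)
        fun _ _ => Eventually.of_forall fun _ => rfl)).congr fun z hz => ?_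
      rcases cut_cases ht hdis hu H₁ hz with h1 | h1
      · filter_upwards [hB z h1.1] with w hw
        rw [hw]
      · filter_upwards [h1] with w hw
        rw [hw, zero_mul, zero_mul]
  | add _ _ h1 h2 =>
    refine (h1.add h2).congr fun z _ => Eventually.of_forall fun w => ?_
    ring
  | mul _ _ h1 h2 =>
    refine (h1.mul hM h2).congr fun z hz => ?_
    rcases cut_cases ht hdis hu H₁ hz with h3 | h3
    · filter_upwards [h3.2] with w hw
      rw [hw]; ring
    · filter_upwards [h3] with w hw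
      rw [hw]; ring
  | comp hh _ h1 =>
    refine (hθ.mul hM (h1.comp hh)).congr fun z hz => ?_
    rcases cut_cases ht hdis hu H₁ hz with h3 | h3
    · filter_upwards [h3.2] with w hw
      rw [hw, one_mul, one_mul, one_mul]
    · filter_upwards [h3] with w hw
      rw [hw, zero_mul, zero_mul]

/-- replace generators off a set `U` -/
theorem gen_replace {C U : Set ℂ} {S T : Set (ℂ → ℝ)}
    (h : ∀ s ∈ S, ∃ s', IfB_641.Gen C T s' ∧ ∀ z ∉ U, s z = s' z) {v : ℂ → ℝ}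
    (hv : IfB_641.Gen C S v) : ∃ v', IfB_641.Gen C T v' ∧ ∀ z ∉ U, v z = v' z := by
  unfold IfB_641.Gen at hv
  induction hv with
  | const c => exact ⟨_, IfB_641.Gen.const c, fun _ _ => rfl⟩
  | lc h => exact ⟨_, IfB_641.Gen.lc h, fun _ _ => rfl⟩
  | of i => exact h _ i.2
  | add _ _ h1 h2 =>
    obtain ⟨v, gv, ev⟩ := h1
    obtain ⟨w, gw, ew⟩ := h2
    exact ⟨_, gv.add gw, fun z hz => by simp only [ev z hz, ew z hz]⟩
  | mul _ _ h1 h2 =>
    obtain ⟨v, gv, ev⟩ := h1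
    obtain ⟨w, gw, ew⟩ := h2
    exact ⟨_, gv.mul gw, fun z hz => by simp only [ev z hz, ew z hz]⟩
  | comp hh _ h1 =>
    obtain ⟨v, gv, ev⟩ := h1
    exact ⟨_, gv.comp hh, fun z hz => by simp only [ev z hz]⟩

/-- **isotropy of the closed family**: `T ∪ {ψ}` isotropic, the members of `S` are generated by `T`
and constant near `C₁`, `u = ψ` off `U`, `U` away from `C₂` -/
theorem iso_closed (St : StokesP) {C C₁ C₂ U : Set ℂ} (hC : IsCompact C) {t : ℝ} {θ₁ θ₂ : ℂ → ℝ}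
    (ht : 0 < t) (hdis : Disjoint (thickening t C₁) (thickening t C₂)) (hu : C₁ ∪ C₂ = C)
    (H₁ : Cutp C C₁ t θ₁) (H₂ : Cutp C C₂ t θ₂) {u ψ : ℂ → ℝ} (qu : Q C u)
    {S T : Set (ℂ → ℝ)} (qS : ∀ s ∈ S, Q C s)
    (hS : ∀ s ∈ S, ∃ B : ℝ, ∀ z ∈ C₁, ∀ᶠ w in 𝓝 z, s w = B)
    (hST : ∀ s ∈ S, IfB_641.Gen C T s) (hUψ : ∀ z ∉ U, u z = ψ z) (hU : ∀ z ∈ U, θ₂ z = 0)
    (hiso : IfB_641.Iso C (insert ψ T)) : IfB_641.Iso C (insert u S) := by
  have hCc := hC.isClosed
  have qI : ∀ s ∈ insert u S, Q C s := by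
    intro s hs
    rcases mem_insert_iff.1 hs with h | h
    · rw [h]; exact qu
    · exact qS s h
  intro v w hv hw
  have qv := hv.q hCc qI
  have qw := hw.q hCc qI
  obtain ⟨M, hM⟩ := qu.bdd
  rw [om_split St hC ht hdis hu H₁ H₂ qv qw]
  have e1 : om C (fun z => θ₁ z * v z) (fun z => θ₁ z * w z) = 0 :=
    core St hC qu (H₁.lc.q.mul hCc qv) (H₁.lc.q.mul hCc qw)
      (lab_of_gen ht hdis hu H₁ hM hS hv) (lab_of_gen ht hdis hu H₁ hM hS hw)
  have hrep : ∀ s ∈ insert u S, ∃ s', IfB_641.Gen C (insert ψ T) s' ∧ ∀ z ∉ U, s z = s' z := by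
    intro s hs
    rcases mem_insert_iff.1 hs with h | h
    · rw [h]; exact ⟨ψ, IfB_641.Gen.of (mem_insert _ _), hUψ⟩
    · exact ⟨s, (hST s h).mono (subset_insert _ _), fun _ _ => rfl⟩
  obtain ⟨v', gv, ev⟩ := gen_replace hrep hv
  obtain ⟨w', gw, ew⟩ := gen_replace hrep hw
  have e2 : (fun z => θ₂ z * v z) = fun z => θ₂ z * v' z := by
    funext z
    by_cases hz : z ∈ U
    · rw [hU z hz, zero_mul, zero_mul]
    · rw [ev z hz]
  have e3 : (fun z => θ₂ z * w z) = fun z => θ₂ z * w' z := by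
    funext z
    by_cases hz : z ∈ U
    · rw [hU z hz, zero_mul, zero_mul]
    · rw [ew z hz]
  rw [e1, e2, e3, zero_add]
  exact hiso _ _ ((IfB_641.Gen.lc H₂.lc).mul gv) ((IfB_641.Gen.lc H₂.lc).mul gw)

/-! ### the closing lemma -/

/-- energy of `χ * f` with `|χ| ≤ 1`, `|f| ≤ s` -/
theorem en_cut_mul_le {χ f : ℂ → ℝ} {z : ℂ} {s : ℝ} (hd : DifferentiableAt ℝ χ z)
    (hd' : DifferentiableAt ℝ f z) (h1 : |χ z| ≤ 1) (h2 : |f z| ≤ s) :
    en (fun w => χ w * f w) z ≤ 2 * en f z + 2 * s ^ 2 * en χ z := by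
  unfold en; rw [gx_mul hd hd', gy_mul hd hd']
  have h3 : χ z ^ 2 ≤ 1 := by
    rw [← sq_abs]; nlinarith [abs_nonneg (χ z)]
  have h4 : f z ^ 2 ≤ s ^ 2 := by
    rw [← sq_abs]; exact pow_le_pow_left₀ (abs_nonneg _) h2 2
  have e1 : (χ z * gx f z + f z * gx χ z) ^ 2 ≤ 2 * (χ z ^ 2 * gx f z ^ 2 + f z ^ 2 * gx χ z ^ 2) := by
    nlinarith [sq_nonneg (χ z * gx f z - f z * gx χ z)]
  have e2 : (χ z * gy f z + f z * gy χ z) ^ 2 ≤ 2 * (χ z ^ 2 * gy f z ^ 2 + f z ^ 2 * gy χ z ^ 2) := by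
    nlinarith [sq_nonneg (χ z * gy f z - f z * gy χ z)]
  have e3 : χ z ^ 2 * gx f z ^ 2 ≤ 1 * gx f z ^ 2 := mul_le_mul_of_nonneg_right h3 (sq_nonneg _)
  have e4 : f z ^ 2 * gx χ z ^ 2 ≤ s ^ 2 * gx χ z ^ 2 := mul_le_mul_of_nonneg_right h4 (sq_nonneg _)
  have e5 : χ z ^ 2 * gy f z ^ 2 ≤ 1 * gy f z ^ 2 := mul_le_mul_of_nonneg_right h3 (sq_nonneg _)
  have e6 : f z ^ 2 * gy χ z ^ 2 ≤ s ^ 2 * gy χ z ^ 2 := mul_le_mul_of_nonneg_right h4 (sq_nonneg _)
  nlinarith

theorem lip_q {C : Set ℂ} {η : ℂ → ℝ} {K : ℝ≥0} (hK : LipschitzWith K η)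
    (hc : HasCompactSupport η) : Q C η := by
  obtain ⟨M, hM⟩ := hc.exists_bound_of_continuous hK.continuous
  exact ⟨⟨M, fun z => by simpa using hM z⟩, hK.locallyLipschitz.locallyLipschitzOn,
    (integrable_en_of_lipschitz hK hc).integrableOn⟩

/-- flattening of one honest function near `q` at small cost -/
theorem flatten {C : Set ℂ} (hC : IsClosed C) {χ : ℂ → ℝ} (hχ : LC C χ)
    (hχ01 : ∀ z, 0 ≤ χ z ∧ χ z ≤ 1) {δ : ℝ} (hδ : 0 < δ)
    (hoff : ∀ z ∉ thickening δ C, χ z = 0) {b : ℂ → ℝ} (hb : D C b) (B : ℝ) :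
    ∃ s₀ > 0, ∀ s, 0 < s → s ≤ s₀ → D C (fun z => b z - χ z * clamp s (b z - B)) ∧
      Near C δ (fun z => b z - χ z * clamp s (b z - B)) b := by
  obtain ⟨s₁, hs₁, h1⟩ := flat_small hC hb B (κ := δ ^ 2 / 4) (by positivity)
  set E := ∫ z in Cᶜ, en χ z with hE
  have hE0 : 0 ≤ E := integral_nonneg fun z => en_nonneg _ _
  set s₂ := min δ (δ / (2 * (E + 1))) with hs₂
  have hs₂p : 0 < s₂ := by positivity
  refine ⟨min s₁ s₂, lt_min hs₁ hs₂p, fun s hs hs' => ?_⟩
  have qf : Q C (fun w => clamp s (b w - B)) := (hb.q.sub hC (Q.const C B)).comp hC (clamp_lip s)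
  have qm : Q C (fun w => χ w * clamp s (b w - B)) := hχ.q.mul hC qf
  have hcont : Continuous (fun z => b z - χ z * clamp s (b z - B)) :=
    hb.cont.sub (hχ.cont.mul ((clamp_lip s).continuous.comp (hb.cont.sub continuous_const)))
  have hD : D C (fun z => b z - χ z * clamp s (b z - B)) := (hb.q.sub hC qm).d hcont
  refine ⟨hD, Or.inr fun z hz => ?_, fun z => ?_, ?_⟩
  · rw [hoff z hz, zero_mul, sub_zero]
  · have h2 : b z - χ z * clamp s (b z - B) - b z = -(χ z * clamp s (b z - B)) := by ring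
    rw [h2, abs_neg, abs_mul]
    have h3 : |χ z| ≤ 1 := by rw [abs_of_nonneg (hχ01 z).1]; exact (hχ01 z).2
    have h4 := abs_clamp_le hs.le (b z - B)
    have h5 : s ≤ δ := hs'.trans ((min_le_right _ _).trans (min_le_left _ _))
    calc |χ z| * |clamp s (b z - B)| ≤ 1 * s := mul_le_mul h3 h4 (abs_nonneg _) zero_le_one
      _ ≤ δ := by linarith
  · have e1 : ∀ z, en (fun w => b w - χ w * clamp s (b w - B) - b w) z =
        en (fun w => χ w * clamp s (b w - B)) z := by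
      intro z
      rw [← en_neg (fun w => χ w * clamp s (b w - B))]
      congr 1; funext w; ring
    simp only [e1]
    rw [← setIntegral_en_eq qm]
    refine ENNReal.ofReal_le_ofReal ?_
    have h5 : s ≤ δ / (2 * (E + 1)) := hs'.trans ((min_le_right _ _).trans (min_le_right _ _))
    have h6 : s * (2 * (E + 1)) ≤ δ := by
      rwa [le_div_iff₀ (by positivity)] at h5
    calc ∫ z in Cᶜ, en (fun w => χ w * clamp s (b w - B)) z
        ≤ ∫ z in Cᶜ, (2 * en (fun w => clamp s (b w - B)) z + 2 * s ^ 2 * en χ z) := by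
          refine integral_mono_ae qm.fin ((qf.fin.const_mul _).add (hχ.q.fin.const_mul _)) ?_
          filter_upwards [hχ.q.ae_diff hC, qf.ae_diff hC] with z d1 d2
          refine en_cut_mul_le d1 d2 ?_ (abs_clamp_le hs.le _)
          rw [abs_of_nonneg (hχ01 z).1]; exact (hχ01 z).2
      _ = 2 * (∫ z in Cᶜ, en (fun w => clamp s (b w - B)) z) + 2 * s ^ 2 * E := by
          rw [integral_add (qf.fin.const_mul _) (hχ.q.fin.const_mul _), integral_const_mul,
            integral_const_mul]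
      _ ≤ 2 * (δ ^ 2 / 4) + 2 * s ^ 2 * E := by
          have := h1 s hs (hs'.trans (min_le_left _ _))
          linarith
      _ ≤ δ ^ 2 := by
          have h7 : (s * (2 * (E + 1))) ^ 2 ≤ δ ^ 2 :=
            pow_le_pow_left₀ (by positivity) h6 2
          have h8 : 2 * s ^ 2 * E ≤ (s * (2 * (E + 1))) ^ 2 / 2 := by
            nlinarith [mul_nonneg (sq_nonneg s) hE0, mul_nonneg (sq_nonneg s) (sq_nonneg E),
              sq_nonneg s]
          linarith

/-- **CLOSING LEMMA** -/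
theorem close (St : StokesP) {C : Set ℂ} (hC : IsCompact C) (htd : IsTotallyDisconnected C)
    {b : ℕ → Hn C} {q : ℂ} (hq : q ∈ C) {ψ : ℂ → ℝ} (hψ : IfB_641.D1 C q ψ)
    (hiso : IfB_641.Iso C (insert ψ (range fun i => (b i).1))) (n : ℕ) {δ ε : ℝ} (hδ : 0 < δ)
    (hε : 0 < ε) :
    ∃ (c : ℕ → Hn C) (u : Hn C), (∀ i ≤ n, Near C δ (c i).1 (b i).1) ∧
      IfB_641.Iso C (insert u.1 ((fun i => (c i).1) '' Iic n)) ∧
      (∃ ρ, 0 < ρ ∧ ρ ≤ δ ∧ ∀ z ∉ ball q ρ, u.1 z = ψ z) ∧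
      (∀ M, (∀ z, |ψ z| ≤ M) → ∀ z, |u.1 z| ≤ M) ∧
      (∫ z in Cᶜ, en (fun w => u.1 w - ψ w) z) ≤ ε := by
  have hCc := hC.isClosed
  -- cut-off for the flattening
  obtain ⟨A₁, A₂, hA₁, hA₂, hAu, hAd, hqA, hAb⟩ := split hC htd hq (half_pos hδ)
  obtain ⟨t, χ, χ', ht, htδ, hdis, HX, HX'⟩ := exists_cut2 hA₁ hA₂ hAu hAd (half_pos hδ)
  have hoff : ∀ z ∉ thickening δ C, χ z = 0 := by
    intro z hz
    refine (HX.zero z fun h => hz ?_).self_of_nhds
    exact thickening_mono (by linarith) _ (thickening_subset_of_subset _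
      (hAu ▸ subset_union_left) h)
  -- flattening
  have hfl : ∀ i, ∃ s₀ > 0, ∀ s, 0 < s → s ≤ s₀ →
      D C (fun z => (b i).1 z - χ z * clamp s ((b i).1 z - (b i).1 q)) ∧
      Near C δ (fun z => (b i).1 z - χ z * clamp s ((b i).1 z - (b i).1 q)) (b i).1 := fun i =>
    flatten hCc HX.lc HX.mem hδ hoff (b i).2 _
  choose s₀ hs₀ hfl using hfl
  obtain ⟨s, hs, hsle⟩ : ∃ s > 0, ∀ i ≤ n, s ≤ s₀ i := by
    have h1 : (Finset.range (n + 1)).Nonempty := ⟨0, Finset.mem_range.2 (Nat.succ_pos n)⟩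
    obtain ⟨i₀, hi₀, hmin⟩ := (Finset.range (n + 1)).exists_min_image s₀ h1
    exact ⟨s₀ i₀, hs₀ i₀, fun i hi => hmin i (Finset.mem_range.2 (Nat.lt_succ_of_le hi))⟩
  set c : ℕ → Hn C := fun i => if hi : i ≤ n then
    ⟨fun z => (b i).1 z - χ z * clamp s ((b i).1 z - (b i).1 q), (hfl i s hs (hsle i hi)).1⟩
    else b i with hc
  have hci : ∀ i ≤ n, (c i).1 = fun z => (b i).1 z - χ z * clamp s ((b i).1 z - (b i).1 q) := by
    intro i hi
    have h1 : c i = ⟨fun z => (b i).1 z - χ z * clamp s ((b i).1 z - (b i).1 q),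
      (hfl i s hs (hsle i hi)).1⟩ := dif_pos hi
    rw [h1]
  -- the radius on which everything is constant
  have hρ₁ : ∀ᶠ z in 𝓝 q, χ z = 1 ∧ ∀ i ≤ n, |(b i).1 z - (b i).1 q| < s := by
    refine (HX.one q hqA).and ?_
    have h1 : ∀ i ∈ Finset.range (n + 1), ∀ᶠ z in 𝓝 q, |(b i).1 z - (b i).1 q| < s := by
      intro i _
      have h2 : ContinuousAt (fun z => |(b i).1 z - (b i).1 q|) q :=
        ((b i).2.cont.sub continuous_const).abs.continuousAt
      refine h2.eventually (gt_mem_nhds ?_)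
      simpa using hs
    filter_upwards [(Filter.eventually_all_finset _).2 h1] with z hz i hi
    exact hz i (Finset.mem_range.2 (Nat.lt_succ_of_le hi))
  obtain ⟨ρ₁, hρ₁, hflat⟩ := Metric.eventually_nhds_iff_ball.1 hρ₁
  have hcB : ∀ i ≤ n, ∀ z ∈ ball q ρ₁, (c i).1 z = (b i).1 q := by
    intro i hi z hz
    rw [hci i hi]
    obtain ⟨h1, h2⟩ := hflat z hz
    simp only []
    rw [h1, clamp_of_le (h2 i hi).le]
    ring
  -- the splitting near `q`
  obtain ⟨C₁, C₂, h₁, h₂, hu, hd, hqC, hCb⟩ := split hC htd hq hρ₁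
  have hq2 : q ∉ C₂ := fun h => disjoint_left.1 hd hqC h
  obtain ⟨r₂, hr₂, hb2⟩ := Metric.isOpen_iff.1 h₂.isClosed.isOpen_compl q hq2
  obtain ⟨t', θ₁, θ₂, ht', htr, hdis', H₁, H₂⟩ := exists_cut2 h₁ h₂ hu hd (half_pos hr₂)
  -- sup of `ψ`
  obtain ⟨M₀, hM₀⟩ := hψ.toQ.bdd
  obtain ⟨M, hMp, hM⟩ : ∃ M, 0 < M ∧ ∀ z, |ψ z| ≤ M :=
    ⟨max M₀ 1, lt_max_of_lt_right one_pos, fun z => (hM₀ z).trans (le_max_left _ _)⟩
  obtain ⟨r₃, hr₃, hsm⟩ := hψ.toQ.small hCc (ε := ε / 4) (by positivity)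
  -- the radius of the logarithmic cut-off
  set ρ := min δ (min (r₂ / 2) r₃) with hρ
  have hρp : 0 < ρ := by positivity
  obtain ⟨η, K, r, hr, hrρ, hηl, hη01, hη1, hη0, hηe⟩ :=
    log_cut q (ρ := ρ / 2) (κ := ε / (4 * M ^ 2)) (half_pos hρp) (by positivity)
  have hηs := hasCut_supp hη0
  have qη : Q C η := lip_q hηl hηs
  have hηoff : ∀ z ∉ ball q ρ, η z = 0 := by
    intro z hz
    refine hη0 z fun h => hz ?_
    rw [mem_closedBall] at h
    rw [mem_ball]; linarith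
  have hqηψ : Q C (fun z => η z * ψ z) := qη.mul hCc hψ.toQ
  have hqu : Q C (fun z => ψ z - η z * ψ z) := hψ.toQ.sub hCc hqηψ
  have hcu : Continuous (fun z => ψ z - η z * ψ z) := by
    rw [continuous_iff_continuousAt]
    intro z
    by_cases hz : z = q
    · rw [hz]
      have h1 : (fun z => ψ z - η z * ψ z) =ᶠ[𝓝 q] fun _ => (0 : ℝ) := by
        filter_upwards [ball_mem_nhds q hr] with w hw
        rw [hη1 w hw]; ring
      exact continuousAt_const.congr h1.symm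
    · exact (hψ.cont z hz).sub (hηl.continuous.continuousAt.mul (hψ.cont z hz))
  refine ⟨c, ⟨fun z => ψ z - η z * ψ z, hqu.d hcu⟩, fun i hi => ?_, ?_, ⟨ρ, hρp, min_le_left _ _,
    fun z hz => ?_⟩, fun N hN z => ?_, ?_⟩
  · rw [hci i hi]
    exact (hfl i s hs (hsle i hi)).2
  · refine iso_closed St hC (U := ball q ρ) (T := range fun i => (b i).1) ht' hdis' hu H₁ H₂ hqu
      ?_ ?_ ?_ ?_ ?_ hiso
    · rintro _ ⟨i, -, rfl⟩
      exact (c i).2.q
    · rintro _ ⟨i, hi, rfl⟩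
      refine ⟨(b i).1 q, fun z hz => ?_⟩
      filter_upwards [isOpen_ball.mem_nhds (hCb hz)] with w hw
      exact hcB i hi w hw
    · rintro _ ⟨i, hi, rfl⟩
      show IfB_641.Gen C _ (c i).1
      rw [hci i hi]
      have g1 : IfB_641.Gen C (range fun i => (b i).1) (b i).1 := IfB_641.Gen.of ⟨i, rfl⟩
      have g2 : IfB_641.Gen C (range fun i => (b i).1) (fun z => (b i).1 z - (b i).1 q) :=
        g1.sub (IfB_641.Gen.const _)
      exact g1.sub ((IfB_641.Gen.lc HX.lc).mul (g2.comp (clamp_lip s)))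
    · intro z hz
      rw [hηoff z hz]; ring
    · intro z hz
      refine (H₂.zero z fun h => ?_).self_of_nhds
      obtain ⟨x, hx, hdx⟩ := mem_thickening_iff.1 h
      refine hb2 (mem_ball.2 ?_) hx
      rw [mem_ball] at hz
      have h1 : ρ ≤ r₂ / 2 := (min_le_right _ _).trans (min_le_left _ _)
      have h2 := dist_triangle x z q
      rw [dist_comm x z] at h2
      linarith
  · simp only []
    rw [hηoff z hz]; ring
  · simp only []
    have h1 : ψ z - η z * ψ z = (1 - η z) * ψ z := by ring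
    have h2 : |1 - η z| ≤ 1 := by
      rw [abs_le]; have := hη01 z; constructor <;> linarith
    rw [h1, abs_mul]
    calc |1 - η z| * |ψ z| ≤ 1 * |ψ z| := mul_le_mul_of_nonneg_right h2 (abs_nonneg _)
      _ ≤ N := by rw [one_mul]; exact hN z
  · have e1 : ∀ z, en (fun w => ψ w - η w * ψ w - ψ w) z = en (fun w => η w * ψ w) z := by
      intro z
      rw [← en_neg (fun w => η w * ψ w)]
      congr 1; funext w; ring
    simp only [e1]
    set S : Set ℂ := Cᶜ ∩ thickening r₃ C with hS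
    have hSm : MeasurableSet S := (hCc.isOpen_compl.inter isOpen_thickening).measurableSet
    have k1 : ∫ z in S, en ψ z ≤ ε / 4 := by
      have hi : IntegrableOn (en ψ) S := hψ.toQ.fin.mono_set inter_subset_left
      have := ofReal_integral_eq_lintegral_ofReal hi (Eventually.of_forall fun z => en_nonneg ψ z)
      unfold Ln at hsm
      rw [← this] at hsm
      exact (ENNReal.ofReal_le_ofReal_iff (by positivity)).1 hsm
    have i1 : IntegrableOn (S.indicator (en ψ)) Cᶜ := hψ.toQ.fin.indicator hSm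
    have i2 : IntegrableOn (en η) Cᶜ := qη.fin
    have hb : ∀ᵐ z ∂(volume.restrict Cᶜ), en (fun w => η w * ψ w) z ≤
        2 * S.indicator (en ψ) z + 2 * M ^ 2 * en η z := by
      filter_upwards [qη.ae_diff hCc, hψ.toQ.ae_diff hCc,
        ae_restrict_mem hCc.isOpen_compl.measurableSet] with z d1 d2 hzC
      by_cases hz : z ∈ S
      · rw [indicator_of_mem hz]
        refine en_cut_mul_le d1 d2 ?_ (hM z)
        rw [abs_of_nonneg (hη01 z).1]; exact (hη01 z).2
      · rw [indicator_of_notMem hz]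
        have hz2 : z ∉ closedBall q (ρ / 2) := by
          intro h
          apply hz
          refine ⟨hzC, mem_thickening_iff.2 ⟨q, hq, ?_⟩⟩
          rw [mem_closedBall] at h
          have h1 : ρ ≤ r₃ := (min_le_right _ _).trans (min_le_right _ _)
          linarith
        have h3 : ∀ᶠ w in 𝓝 z, η w * ψ w = 0 := by
          filter_upwards [isClosed_closedBall.isOpen_compl.mem_nhds hz2] with w hw
          rw [hη0 w hw, zero_mul]
        have h4 : (fun w => η w * ψ w) =ᶠ[𝓝 z] fun _ => (0 : ℝ) := h3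
        rw [en_eq_of_eventuallyEq h4, en_const]
        have := en_nonneg η z
        positivity
    have k2 : ∫ z in Cᶜ, en η z ≤ ε / (4 * M ^ 2) := by
      refine le_trans ?_ hηe
      exact setIntegral_le_integral (integrable_en_of_lipschitz hηl hηs)
        (Eventually.of_forall fun z => en_nonneg _ _)
    calc ∫ z in Cᶜ, en (fun w => η w * ψ w) z
        ≤ ∫ z in Cᶜ, (2 * S.indicator (en ψ) z + 2 * M ^ 2 * en η z) :=
          integral_mono_ae hqηψ.fin ((i1.const_mul _).add (i2.const_mul _)) hb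
      _ = 2 * (∫ z in Cᶜ, S.indicator (en ψ) z) + 2 * M ^ 2 * ∫ z in Cᶜ, en η z := by
          rw [integral_add (i1.const_mul _) (i2.const_mul _), integral_const_mul,
            integral_const_mul]
      _ ≤ 2 * (ε / 4) + 2 * M ^ 2 * (ε / (4 * M ^ 2)) := by
          have h1 : ∫ z in Cᶜ, S.indicator (en ψ) z = ∫ z in S, en ψ z := by
            rw [setIntegral_indicator hSm]
            congr 2
            exact inter_eq_right.2 inter_subset_left
          rw [h1]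
          gcongr
      _ = ε := by field_simp; ring

end Crest.Agent.R105.Clo_658
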