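import Crest.Agent.R105.Isx1_909
import Crest.Agent.R105.Bd2_775

/-!
# Row 105, ISO (helper909), part 2: flattening

`C` closed/compact (arbitrary), `G ⊆ C` compact, `u ∈ D C`, `volume (u '' G) = 0`.
Then `u` is a limit (in the sense `Cv C`) of elements `w n` of the algebra generated by `u` (and `LC`),
which are locally constant near `G`.
-/

set_option autoImplicit false

open MeasureTheory Set Filter Topology Metric
open scoped NNReal ENNReal

namespace Crest.Agent.R105.Isx_909

open Crest.Agent.R105.Bd_775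

/-- cut-off: `1` on `infDist ≤ r`, `0` on `infDist ≥ 2 r` -/
noncomputable def ctf (C : Set ℂ) (r : ℝ) (z : ℂ) : ℝ := max 0 (min 1 (2 - infDist z C / r))

theorem ctf_nonneg (C : Set ℂ) (r : ℝ) (z : ℂ) : 0 ≤ ctf C r z := le_max_left _ _

theorem ctf_le_one (C : Set ℂ) (r : ℝ) (z : ℂ) : ctf C r z ≤ 1 :=
  max_le zero_le_one (min_le_left _ _)

theorem ctf_eq_one {C : Set ℂ} {r : ℝ} (hr : 0 < r) {z : ℂ} (h : infDist z C ≤ r) :
    ctf C r z = 1 := by
  unfold ctf
  have : infDist z C / r ≤ 1 := (div_le_one hr).2 h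
  rw [min_eq_left (by linarith), max_eq_right zero_le_one]

theorem ctf_eq_zero {C : Set ℂ} {r : ℝ} (hr : 0 < r) {z : ℂ} (h : 2 * r ≤ infDist z C) :
    ctf C r z = 0 := by
  unfold ctf
  have : 2 ≤ infDist z C / r := (le_div_iff₀ hr).2 h
  rw [min_eq_right (by linarith), max_eq_left (by linarith)]

theorem ctf_lip {C : Set ℂ} {r : ℝ} (hr : 0 < r) : LipschitzWith (1 / r).toNNReal (ctf C r) := by
  have h1 : LipschitzWith (1 / r).toNNReal (fun z : ℂ => 2 - infDist z C / r) := by
    refine LipschitzWith.of_dist_le_mul fun z w => ?_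
    rw [Real.dist_eq, Real.coe_toNNReal _ (by positivity)]
    have h2 := (lipschitz_infDist_pt C).dist_le_mul z w
    rw [Real.dist_eq, NNReal.coe_one, one_mul] at h2
    have h3 : 2 - infDist z C / r - (2 - infDist w C / r) = -((infDist z C - infDist w C) / r) := by
      ring
    rw [h3, abs_neg, abs_div, abs_of_pos hr, div_le_iff₀ hr]
    calc |infDist z C - infDist w C| ≤ dist z w := h2
      _ = 1 / r * dist z w * r := by field_simp
  exact (h1.const_min 1).const_max 0

theorem ctf_near {C : Set ℂ} {r : ℝ} (hr : 0 < r) {z : ℂ} (hz : z ∈ C) :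
    ∀ᶠ w in 𝓝 z, ctf C r w = 1 := by
  filter_upwards [ball_mem_nhds z hr] with w hw
  exact ctf_eq_one hr ((infDist_le_dist_of_mem hz).trans (mem_ball.1 hw).le)

theorem ctf_compact {C : Set ℂ} (hC : IsCompact C) (hne : C.Nonempty) {r : ℝ} (hr : 0 < r) :
    HasCompactSupport (ctf C r) := by
  refine HasCompactSupport.intro (hC.cthickening (r := 2 * r)) fun z hz => ?_
  apply ctf_eq_zero hr
  by_contra h
  push Not at h
  apply hz
  have := (infDist_lt_iff hne).1 h
  obtain ⟨y, hy, hd⟩ := this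
  exact mem_cthickening_of_dist_le z y _ _ hy hd.le

theorem ctf_LC {C : Set ℂ} (hC : IsCompact C) (hne : C.Nonempty) {r : ℝ} (hr : 0 < r) :
    LC C (ctf C r) := by
  refine LC.of_lipschitz (ctf_lip hr) (ctf_compact hC hne hr) fun z hz => ?_
  filter_upwards [ctf_near hr hz] with w hw
  rw [hw, (ctf_near hr hz).self_of_nhds]

/-- energy of `wO O ∘ u` -/
theorem en_wO_le {u : ℂ → ℝ} (hu : Measurable u) {O : Set ℝ} (hO : MeasurableSet O) :
    ∀ᵐ z, DifferentiableAt ℝ u z →
      en (fun w => wO O (u w)) z ≤ (u ⁻¹' O).indicator (en u) z := by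
  have h1 : volume {s | ¬ (s ∉ O → HasDerivAt (wO O) 0 s)} = 0 := by
    have := ae_hasDerivAt_wO hO
    rwa [ae_iff] at this
  filter_upwards [fderiv_zero_of_null hu h1] with z hz hd
  have h2 := en_comp_le (lip_wO hO) hd
  rw [NNReal.coe_one, one_pow, one_mul] at h2
  by_cases hzO : u z ∈ O
  · rw [indicator_of_mem (by exact hzO)]
    exact h2
  · rw [indicator_of_notMem (by exact hzO)]
    by_cases h3 : HasDerivAt (wO O) 0 (u z)
    · have h4 : HasFDerivAt (fun w => wO O (u w)) ((0:ℝ) • fderiv ℝ u z) z :=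
        h3.comp_hasFDerivAt z hd.hasFDerivAt
      rw [en_eq, h4.fderiv]; simp
    · have h5 : fderiv ℝ u z = 0 := by
        apply hz hd
        simp only [Classical.not_imp]
        exact ⟨hzO, h3⟩
      rw [en_eq u z, h5] at h2
      simpa using h2

/-- one step of the flattening -/
theorem flat_step {C : Set ℂ} (hC : IsCompact C) {u : ℂ → ℝ} (hu : D C u) {G : Set ℂ}
    (hG : IsCompact G) (hGC : G ⊆ C) (hne : G.Nonempty) (hnull : volume (u '' G) = 0)
    {r ε : ℝ} (hr : 0 < r) (hε : 0 < ε) :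
    ∃ w : ℂ → ℝ, Gen C (fun _ : Unit => u) w ∧ (∀ z ∈ G, ∀ᶠ z' in 𝓝 z, w z' = w z) ∧
      (∀ z, 2 * r ≤ infDist z C → w z = u z) ∧ (∀ z, |w z - u z| ≤ ε) ∧
      ∫⁻ z in Cᶜ, ENNReal.ofReal (en (fun z => w z - u z) z) ≤ ENNReal.ofReal ε := by
  have hCne : C.Nonempty := hne.mono hGC
  set K : Set ℝ := u '' G with hK
  have hKc : IsCompact K := hG.image hu.cont
  set E : ℝ := ∫ z, en (ctf C r) z with hE
  have hLC := ctf_LC hC hCne hr
  have hE0 : 0 ≤ E := integral_nonneg fun z => en_nonneg _ _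
  -- the energy distribution
  set μ : Measure ℝ := ((volume.restrict Cᶜ).withDensity
    (fun z => ENNReal.ofReal (en u z))).map u with hμ
  have hum : Measurable u := hu.cont.measurable
  have hμO : ∀ O : Set ℝ, MeasurableSet O →
      μ O = ∫⁻ z in Cᶜ, (u ⁻¹' O).indicator (fun z => ENNReal.ofReal (en u z)) z := by
    intro O hO
    rw [hμ, Measure.map_apply hum hO, withDensity_apply _ (hum hO),
      lintegral_indicator (hum hO)]
  have hfin : ∫⁻ z in Cᶜ, ENNReal.ofReal (en u z) ≠ ∞ := by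
    have := hu.fin.2
    rw [hasFiniteIntegral_iff_ofReal (Eventually.of_forall fun z => en_nonneg u z)] at this
    exact this.ne
  have hμfin : IsFiniteMeasure μ := by
    constructor
    rw [hμO _ MeasurableSet.univ]
    simpa using lt_top_iff_ne_top.2 hfin
  have hμK : μ K = 0 := by
    rw [hμO K hKc.measurableSet]
    have h0 : ∀ᵐ z ∂(volume.restrict Cᶜ),
        (u ⁻¹' K).indicator (fun z => ENNReal.ofReal (en u z)) z = 0 := by
      filter_upwards [ae_restrict_of_ae (fderiv_zero_of_null hum hnull),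
        hu.q.ae_diff hC.isClosed] with z hz hd
      by_cases hzK : u z ∈ K
      · rw [indicator_of_mem (by exact hzK), en_eq, hz hd hzK]; simp
      · rw [indicator_of_notMem (by exact hzK)]
    rw [lintegral_congr_ae h0]; simp
  obtain ⟨ε₁, hε₁, hε₁ε, hε₁E⟩ : ∃ ε₁ : ℝ, 0 < ε₁ ∧ ε₁ ≤ ε ∧ 2 * ε₁ ^ 2 * E ≤ ε / 2 := by
    refine ⟨min ε (min 1 (ε / (4 * (E + 1)))), ?_, min_le_left _ _, ?_⟩
    · positivity
    · set e := min ε (min 1 (ε / (4 * (E + 1)))) with he
      have he0 : 0 < e := by positivity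
      have he1 : e ≤ 1 := (min_le_right _ _).trans (min_le_left _ _)
      have he2 : e ≤ ε / (4 * (E + 1)) := (min_le_right _ _).trans (min_le_right _ _)
      rw [le_div_iff₀ (by positivity)] at he2
      have : e ^ 2 ≤ e := by nlinarith
      nlinarith
  have hv1 : Tendsto (fun δ => volume (thickening δ K)) (𝓝[>] 0) (𝓝 (volume K)) :=
    tendsto_measure_thickening_of_isClosed
      ⟨1, one_pos, (hKc.isBounded.thickening.measure_lt_top).ne⟩ hKc.isClosed
  have hv2 : Tendsto (fun δ => μ (thickening δ K)) (𝓝[>] 0) (𝓝 (μ K)) :=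
    tendsto_measure_thickening_of_isClosed ⟨1, one_pos, measure_ne_top _ _⟩ hKc.isClosed
  rw [hnull] at hv1
  rw [hμK] at hv2
  obtain ⟨δ, hδ1, hδ2, hδ0⟩ := ((hv1.eventually (gt_mem_nhds
    (show (0 : ℝ≥0∞) < ENNReal.ofReal ε₁ by simpa using hε₁))).and
    ((hv2.eventually (gt_mem_nhds
    (show (0 : ℝ≥0∞) < ENNReal.ofReal (ε / 4) by simp; positivity))).and
    self_mem_nhdsWithin)).exists
  set O : Set ℝ := thickening δ K with hO
  have hOo : IsOpen O := isOpen_thickening
  have hOm : MeasurableSet O := hOo.measurableSet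
  have hδ0' : 0 < δ := hδ0
  have hKO : K ⊆ O := self_subset_thickening hδ0' K
  have hwO : ∀ s, |wO O s| ≤ ε₁ := by
    intro s
    refine (abs_wO_le hOm (hδ1.trans ENNReal.ofReal_lt_top).ne s).trans ?_
    exact (ENNReal.toReal_le_of_le_ofReal hε₁.le hδ1.le)
  refine ⟨fun z => u z - ctf C r z * wO O (u z), ?_, ?_, ?_, ?_, ?_⟩
  · exact (Gen.of ()).sub ((Gen.lc hLC).mul (Gen.comp (lip_wO hOm) (Gen.of ())))
  · intro z hz
    have h1 := ctf_near hr (hGC hz)
    have h2 := (hu.cont.tendsto z).eventually (flat_locconst hOo (hKO ⟨z, hz, rfl⟩))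
    filter_upwards [h1, h2] with w hw1 hw2
    rw [hw1, h1.self_of_nhds, one_mul, one_mul]
    exact hw2
  · intro z hz
    simp only []
    rw [ctf_eq_zero hr hz]; ring
  · intro z
    have : u z - ctf C r z * wO O (u z) - u z = -(ctf C r z * wO O (u z)) := by ring
    rw [this, abs_neg, abs_mul, abs_of_nonneg (ctf_nonneg _ _ _)]
    calc ctf C r z * |wO O (u z)| ≤ 1 * ε₁ :=
          mul_le_mul (ctf_le_one _ _ _) (hwO _) (abs_nonneg _) zero_le_one
      _ ≤ ε := by rw [one_mul]; exact hε₁ε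
  · have hle : ∀ᵐ z ∂(volume.restrict Cᶜ),
        ENNReal.ofReal (en (fun z => u z - ctf C r z * wO O (u z) - u z) z) ≤
        2 * (u ⁻¹' O).indicator (fun z => ENNReal.ofReal (en u z)) z +
          ENNReal.ofReal (2 * ε₁ ^ 2) * ENNReal.ofReal (en (ctf C r) z) := by
      filter_upwards [ae_restrict_of_ae (en_wO_le hum hOm), hu.q.ae_diff hC.isClosed,
        (hu.q.comp hC.isClosed (lip_wO hOm)).ae_diff hC.isClosed,
        hLC.q.ae_diff hC.isClosed] with z h1 h2 h3 h4
      have h5 := h1 h2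
      have e1 : (fun z => u z - ctf C r z * wO O (u z) - u z) =
          fun z => -1 * (ctf C r z * wO O (u z)) := by funext z; ring
      have h6 : en (fun z => u z - ctf C r z * wO O (u z) - u z) z =
          en (fun z => ctf C r z * wO O (u z)) z := by
        have h34 : DifferentiableAt ℝ (fun z => ctf C r z * wO O (u z)) z := h4.mul h3
        have h35 := fderiv_const_mul h34 (-1 : ℝ)
        rw [e1, en_eq, en_eq, h35]
        simp
      have h7 : en (fun z => ctf C r z * wO O (u z)) z ≤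
          2 * en (fun w => wO O (u w)) z + 2 * ε₁ ^ 2 * en (ctf C r) z := by
        unfold en
        rw [gx_mul h4 h3, gy_mul h4 h3]
        have c1 : ctf C r z ^ 2 ≤ 1 := by
          have := ctf_nonneg C r z
          have := ctf_le_one C r z
          nlinarith
        have c2 : wO O (u z) ^ 2 ≤ ε₁ ^ 2 := by
          rw [← sq_abs]; exact pow_le_pow_left₀ (abs_nonneg _) (hwO _) 2
        set a := ctf C r z
        set b := wO O (u z)
        set p := gx (fun w => wO O (u w)) z
        set q := gx (ctf C r) z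
        set p' := gy (fun w => wO O (u w)) z
        set q' := gy (ctf C r) z
        have m1 : (a * p + b * q) ^ 2 ≤ 2 * (a ^ 2 * p ^ 2) + 2 * (b ^ 2 * q ^ 2) := by
          nlinarith [sq_nonneg (a * p - b * q)]
        have m2 : (a * p' + b * q') ^ 2 ≤ 2 * (a ^ 2 * p' ^ 2) + 2 * (b ^ 2 * q' ^ 2) := by
          nlinarith [sq_nonneg (a * p' - b * q')]
        have m3 := mul_le_mul_of_nonneg_right c1 (sq_nonneg p)
        have m4 := mul_le_mul_of_nonneg_right c1 (sq_nonneg p')
        have m5 := mul_le_mul_of_nonneg_right c2 (sq_nonneg q)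
        have m6 := mul_le_mul_of_nonneg_right c2 (sq_nonneg q')
        nlinarith
      rw [h6]
      have h8 : en (fun z => ctf C r z * wO O (u z)) z ≤
          2 * (u ⁻¹' O).indicator (en u) z + 2 * ε₁ ^ 2 * en (ctf C r) z := by linarith
      refine (ENNReal.ofReal_le_ofReal h8).trans ?_
      have hi0 : 0 ≤ (u ⁻¹' O).indicator (en u) z := indicator_nonneg (fun z _ => en_nonneg u z) z
      rw [ENNReal.ofReal_add (by positivity) (mul_nonneg (by positivity) (en_nonneg _ _)),
        ENNReal.ofReal_mul (by norm_num), ENNReal.ofReal_mul (by positivity)]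
      have e2 : ENNReal.ofReal ((u ⁻¹' O).indicator (en u) z) =
          (u ⁻¹' O).indicator (fun z => ENNReal.ofReal (en u z)) z := by
        by_cases hz : z ∈ u ⁻¹' O
        · rw [indicator_of_mem hz, indicator_of_mem hz]
        · rw [indicator_of_notMem hz, indicator_of_notMem hz]; simp
      rw [e2]
      norm_num
    refine (lintegral_mono_ae hle).trans ?_
    rw [lintegral_add_right _ ((measurable_en _).ennreal_ofReal.const_mul _),
      lintegral_const_mul _ ((measurable_en u).ennreal_ofReal.indicator (hum hOm)),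
      lintegral_const_mul _ (measurable_en _).ennreal_ofReal, ← hμO O hOm]
    have i1 : ∫⁻ z in Cᶜ, ENNReal.ofReal (en (ctf C r) z) ≤ ENNReal.ofReal E := by
      rw [hE, ofReal_integral_eq_lintegral_ofReal hLC.fin
        (Eventually.of_forall fun z => en_nonneg _ _)]
      exact setLIntegral_le_lintegral _ _
    calc 2 * μ O + ENNReal.ofReal (2 * ε₁ ^ 2) * ∫⁻ z in Cᶜ, ENNReal.ofReal (en (ctf C r) z)
        ≤ 2 * ENNReal.ofReal (ε / 4) + ENNReal.ofReal (2 * ε₁ ^ 2) * ENNReal.ofReal E := by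
          gcongr
      _ = ENNReal.ofReal (ε / 2) + ENNReal.ofReal (2 * ε₁ ^ 2 * E) := by
          rw [← ENNReal.ofReal_mul (by positivity)]
          congr 1
          have : (2 : ℝ≥0∞) = ENNReal.ofReal 2 := by simp
          rw [this, ← ENNReal.ofReal_mul (by norm_num)]
          congr 1; ring
      _ ≤ ENNReal.ofReal (ε / 2) + ENNReal.ofReal (ε / 2) := by
          gcongr
      _ = ENNReal.ofReal ε := by
          rw [← ENNReal.ofReal_add (by positivity) (by positivity)]; congr 1; ring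

/-- **Flattening.** -/
theorem exists_flat_seq {C : Set ℂ} (hC : IsCompact C) {u : ℂ → ℝ} (hu : D C u) {G : Set ℂ}
    (hG : IsCompact G) (hGC : G ⊆ C) (hnull : volume (u '' G) = 0) :
    ∃ w : ℕ → ℂ → ℝ, (∀ n, Gen C (fun _ : Unit => u) (w n)) ∧ (∀ n, D C (w n)) ∧
      (∀ n, ∀ z ∈ G, ∀ᶠ z' in 𝓝 z, w n z' = w n z) ∧ Cv C w u ∧
      (∀ n z, |w n z - u z| ≤ 1 / ((n:ℝ) + 1)) ∧
      (∀ n, ∫⁻ z in Cᶜ, ENNReal.ofReal (en (fun z => w n z - u z) z) ≤
        ENNReal.ofReal (1 / ((n:ℝ) + 1))) := by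
  rcases G.eq_empty_or_nonempty with hGe | hne
  · subst hGe
    refine ⟨fun _ => u, fun _ => Gen.of (), fun _ => hu, fun _ z hz => absurd hz (notMem_empty z),
      Cv.of_const hC.isClosed hu.q, fun n z => ?_, fun n => ?_⟩
    · rw [sub_self, abs_zero]; positivity
    · have : (fun z => u z - u z) = fun _ => (0:ℝ) := by funext z; ring
      simp only [this, en_const]; simp
  have hCne : C.Nonempty := hne.mono hGC
  have hstep : ∀ n : ℕ, _ := fun n => flat_step hC hu hG hGC hne hnull
    (r := 1 / ((n:ℝ) + 1)) (ε := 1 / ((n:ℝ) + 1)) (by positivity) (by positivity)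
  choose w h1 h2 h3 h4 h5 using hstep
  have hQ : ∀ n, Q C (w n) := fun n => (h1 n).q hC.isClosed fun _ => hu.q
  have hcont : ∀ n, Continuous (w n) := fun n => (h1 n).cont fun _ => hu.cont
  refine ⟨w, h1, fun n => (hQ n).d (hcont n), h2, ⟨fun r hr => ?_, ?_, fun ε hε => ?_⟩, h4, h5⟩
  · have : Tendsto (fun n : ℕ => 2 * (1 / ((n:ℝ) + 1))) atTop (𝓝 (2 * 0)) :=
      tendsto_one_div_add_atTop_nhds_zero_nat.const_mul 2
    rw [mul_zero] at this
    filter_upwards [this.eventually (gt_mem_nhds hr)] with n hn z hz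
    apply h3
    by_contra hlt
    push Not at hlt
    apply hz
    rw [mem_thickening_iff]
    obtain ⟨y, hy, hd⟩ := (infDist_lt_iff hCne).1 (hlt.trans hn)
    exact ⟨y, hy, hd⟩
  · obtain ⟨M, hM⟩ := hu.bdd
    refine ⟨M + 1, fun n z => ?_⟩
    have h6 : |w n z| ≤ |u z| + |w n z - u z| := by
      have := abs_add_le (u z) (w n z - u z)
      rwa [add_sub_cancel] at this
    have h7 : (1 : ℝ) / ((n:ℝ) + 1) ≤ 1 := by
      rw [div_le_one (by positivity)]; linarith [Nat.cast_nonneg (α := ℝ) n]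
    linarith [hM z, h4 n z]
  · obtain ⟨r, hr, hle⟩ := hu.q.small hC.isClosed (ε := ε / 4) (by positivity)
    refine ⟨r, hr, ?_⟩
    have : Tendsto (fun n : ℕ => (1:ℝ) / ((n:ℝ) + 1)) atTop (𝓝 0) :=
      tendsto_one_div_add_atTop_nhds_zero_nat
    filter_upwards [this.eventually (gt_mem_nhds (show (0:ℝ) < ε / 4 by positivity))] with n hn
    have hdiff : Q C (fun z => w n z - u z) := (hQ n).sub hC.isClosed hu.q
    have h6 : Ln C r (w n) ≤ ENNReal.ofReal 2 * Ln C r u +
        ENNReal.ofReal 2 * Ln C r (fun z => w n z - u z) := by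
      refine Ln_le_of_ae (by norm_num) (by norm_num) ?_
      filter_upwards [ae_diff_near hC.isClosed hu.q r, ae_diff_near hC.isClosed hdiff r]
        with z hz1 hz2
      have h7 := en_add_le hz1 hz2
      have h8 : (fun z => u z + (w n z - u z)) = w n := by funext z; ring
      rwa [h8] at h7
    have h9 : Ln C r (fun z => w n z - u z) ≤ ENNReal.ofReal (ε / 4) := by
      refine (lintegral_mono_set inter_subset_left).trans ((h5 n).trans ?_)
      exact ENNReal.ofReal_le_ofReal hn.le
    refine h6.trans ?_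
    calc _ ≤ ENNReal.ofReal 2 * ENNReal.ofReal (ε / 4) +
          ENNReal.ofReal 2 * ENNReal.ofReal (ε / 4) := by gcongr
      _ = ENNReal.ofReal ε := by
          rw [← ENNReal.ofReal_mul (by norm_num), ← ENNReal.ofReal_add (by positivity)
            (by positivity)]
          congr 1; ring

/-- **Closing**: isotropy of the flattened families gives isotropy of the family itself. -/
theorem iso_of_flat {C : Set ℂ} (hC : IsCompact C) {ι : Type*} {b : ι → ℂ → ℝ}
    (hb : ∀ i, D C (b i)) {κ : Type*} {ψ : κ → ℂ → ℝ} (hψ : ∀ k, Q C (ψ k)) {G : Set ℂ}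
    (hG : IsCompact G) (hGC : G ⊆ C) (hnull : ∀ i, volume (b i '' G) = 0)
    (hcore : ∀ β : ι → ℂ → ℝ, (∀ i, D C (β i)) → (∀ i, Gen C (fun _ : Unit => b i) (β i)) →
      (∀ i, ∀ z ∈ G, ∀ᶠ z' in 𝓝 z, β i z' = β i z) → Iso C (Sum.elim β ψ)) :
    Iso C (Sum.elim b ψ) := by
  have h := fun i => exists_flat_seq hC (hb i) hG hGC (hnull i)
  choose w h1 h2 h3 h4 h5 h6 using h
  refine iso_of_cv (b := fun n => Sum.elim (fun i => w i n) ψ) hC.isClosed ?_ ?_ ?_ ?_
  · rintro n (i | k)
    · exact (h2 i n).q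
    · exact hψ k
  · rintro (i | k)
    · exact (hb i).q
    · exact hψ k
  · rintro (i | k)
    · exact h4 i
    · exact Cv.of_const hC.isClosed (hψ k)
  · exact Frequently.of_forall fun n => hcore _ (fun i => h2 i n) (fun i => h1 i n)
      (fun i => h3 i n)

end Crest.Agent.R105.Isx_909
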