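import Mathlib

/-!
# Row 105, ATT (B): monotone replacement (helper61)

`Pp u t e` : every point with `u z > t + e` lies in an unbounded component of `{u > t}`.
`Pm u t e` : every point with `u z < t - e` lies in an unbounded component of `{u < t}`.

One component switch `u₁ = u - max (u - t - e) 0 * χ` (χ smooth, compactly supported, locally constant
near `C`, values in `[0,1]`) produces `Pp u₁ t e` and preserves all other `Pp`, `Pm`.
-/

set_option autoImplicit false

open Set Filter Topology Metric Bornology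
open scoped ContDiff

namespace Crest.Agent.R105.Mr_61

/-- every point with `u z > t + e` lies in an unbounded component of `{u > t}` -/
def Pp (u : ℂ → ℝ) (t e : ℝ) : Prop :=
  ∀ z, t + e < u z → ¬ IsBounded (connectedComponentIn {w | t < u w} z)

/-- every point with `u z < t - e` lies in an unbounded component of `{u < t}` -/
def Pm (u : ℂ → ℝ) (t e : ℝ) : Prop :=
  ∀ z, u z < t - e → ¬ IsBounded (connectedComponentIn {w | u w < t} z)

/-- cut-off functions: smooth, compactly supported, values in `[0,1]`, locally constant near `C` -/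
structure Cut (C : Set ℂ) (χ : ℂ → ℝ) : Prop where
  sm : ContDiff ℝ ∞ χ
  cpt : HasCompactSupport χ
  mem : ∀ z, χ z ∈ Icc (0 : ℝ) 1
  lc : ∀ z ∈ C, ∀ᶠ w in 𝓝 z, χ w = χ z

lemma Pp_neg {u : ℂ → ℝ} {t e : ℝ} : Pp (fun z => -u z) (-t) e ↔ Pm u t e := by
  unfold Pp Pm
  have h : {w : ℂ | -t < -u w} = {w | u w < t} := by
    ext w; simp
  rw [h]
  refine forall_congr' fun z => ?_
  have : (-t + e < -u z) ↔ (u z < t - e) := ⟨fun h => by linarith, fun h => by linarith⟩
  rw [this]

lemma Pm_neg {u : ℂ → ℝ} {t e : ℝ} : Pm (fun z => -u z) (-t) e ↔ Pp u t e := by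
  rw [← Pp_neg]
  simp

/-- clopen separation in a compact totally disconnected set -/
lemma sep {C P Q : Set ℂ} (hC : IsCompact C) (htd : IsTotallyDisconnected C) (hP : IsClosed P)
    (hQ : IsClosed Q) (hPQ : Disjoint P Q) :
    ∃ C₁ C₂ : Set ℂ, IsClosed C₁ ∧ IsClosed C₂ ∧ C = C₁ ∪ C₂ ∧ Disjoint C₁ C₂ ∧
      Disjoint C₁ Q ∧ Disjoint C₂ P := by
  have : CompactSpace C := isCompact_iff_compactSpace.mp hC
  have : TotallyDisconnectedSpace C := totallyDisconnectedSpace_subtype_iff.2 htd
  obtain ⟨V, hV, h1, h2⟩ := exists_clopen_of_closed_subset_open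
    (Z := (Subtype.val ⁻¹' P : Set C)) (U := (Subtype.val ⁻¹' Qᶜ : Set C))
    (hP.preimage continuous_subtype_val) (hQ.isOpen_compl.preimage continuous_subtype_val)
    (fun z hz hzQ => disjoint_left.1 hPQ hz hzQ)
  refine ⟨Subtype.val '' V, Subtype.val '' Vᶜ, ?_, ?_, ?_, ?_, ?_, ?_⟩
  · exact (hV.isClosed.isCompact.image continuous_subtype_val).isClosed
  · exact (hV.compl.isClosed.isCompact.image continuous_subtype_val).isClosed
  · rw [← image_union, union_compl_self, image_univ, Subtype.range_coe]
  · rw [disjoint_left]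
    rintro _ ⟨z, hz, rfl⟩ ⟨w, hw, hwz⟩
    rw [Subtype.val_injective hwz] at hw
    exact hw hz
  · rw [disjoint_left]
    rintro _ ⟨z, hz, rfl⟩ hQz
    exact h2 hz hQz
  · rw [disjoint_left]
    rintro _ ⟨z, hz, rfl⟩ hPz
    exact hz (h1 hPz)

/-- **separating cut-off** -/
theorem exists_cut {C P Q : Set ℂ} (hC : IsCompact C) (htd : IsTotallyDisconnected C)
    (hP : IsCompact P) (hQ : IsClosed Q) (hPQ : Disjoint P Q) :
    ∃ χ, Cut C χ ∧ (∀ᶠ z in 𝓝ˢ P, χ z = 1) ∧ (∀ᶠ z in 𝓝ˢ Q, χ z = 0) := by
  obtain ⟨C₁, C₂, h1, h2, h3, h4, h5, h6⟩ := sep hC htd hP.isClosed hQ hPQ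
  have hC₁ : IsCompact C₁ := hC.of_isClosed_subset h1 (by rw [h3]; exact subset_union_left)
  obtain ⟨r, hr⟩ := (hP.union hC₁).isBounded.subset_ball (0 : ℂ)
  have hcl1 : IsClosed ((Q ∪ C₂) ∪ (ball (0 : ℂ) r)ᶜ) := (hQ.union h2).union isOpen_ball.isClosed_compl
  have hcl2 : IsClosed (P ∪ C₁) := hP.isClosed.union h1
  have hd : Disjoint ((Q ∪ C₂) ∪ (ball (0 : ℂ) r)ᶜ) (P ∪ C₁) := by
    rw [disjoint_left]
    rintro z ((hz | hz) | hz) hz'
    · rcases hz' with hz' | hz'
      · exact disjoint_left.1 hPQ hz' hz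
      · exact disjoint_left.1 h5 hz' hz
    · rcases hz' with hz' | hz'
      · exact disjoint_left.1 h6 hz hz'
      · exact disjoint_left.1 h4 hz' hz
    · exact hz (hr hz')
  obtain ⟨f, hf0, hf1, hfm⟩ := exists_contMDiffMap_zero_one_nhds_of_isClosed (n := (⊤ : ℕ∞))
    (modelWithCornersSelf ℝ ℂ) hcl1 hcl2 hd
  have hf0' : ∀ z ∈ (Q ∪ C₂) ∪ (ball (0 : ℂ) r)ᶜ, ∀ᶠ w in 𝓝 z, f w = 0 := fun z hz =>
    hf0.filter_mono (nhds_le_nhdsSet hz)
  have hf1' : ∀ z ∈ P ∪ C₁, ∀ᶠ w in 𝓝 z, f w = 1 := fun z hz =>
    hf1.filter_mono (nhds_le_nhdsSet hz)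
  refine ⟨f, ⟨?_, ?_, fun z => hfm z, ?_⟩, ?_, ?_⟩
  · exact f.contMDiff.contDiff
  · refine HasCompactSupport.intro (isCompact_closedBall (0 : ℂ) r) fun z hz => ?_
    have hz' : z ∈ (ball (0 : ℂ) r)ᶜ := fun h => hz (ball_subset_closedBall h)
    exact (hf0' z (Or.inr hz')).self_of_nhds
  · intro z hz
    rw [h3] at hz
    rcases hz with hz | hz
    · have := hf1' z (Or.inr hz)
      filter_upwards [this] with w hw
      rw [hw, this.self_of_nhds]
    · have := hf0' z (Or.inl (Or.inr hz))
      filter_upwards [this] with w hw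
      rw [hw, this.self_of_nhds]
  · exact hf1.filter_mono (nhdsSet_mono subset_union_left)
  · exact hf0.filter_mono (nhdsSet_mono (subset_union_left.trans subset_union_left))

/-! ### components -/

section comp

variable {u : ℂ → ℝ} {t : ℝ}

/-- the union of the bounded components of `{u > t}` -/
def Ob (u : ℂ → ℝ) (t : ℝ) : Set ℂ :=
  {z | t < u z ∧ IsBounded (connectedComponentIn {w | t < u w} z)}

/-- the union of the unbounded components of `{u > t}` -/
def Oi (u : ℂ → ℝ) (t : ℝ) : Set ℂ :=
  {z | t < u z ∧ ¬ IsBounded (connectedComponentIn {w | t < u w} z)}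

lemma isOpen_gt (hu : Continuous u) (t : ℝ) : IsOpen {w | t < u w} :=
  isOpen_lt continuous_const hu

lemma comp_nhds (hu : Continuous u) {z : ℂ} (hz : t < u z) :
    connectedComponentIn {w | t < u w} z ∈ 𝓝 z :=
  ((isOpen_gt hu t).connectedComponentIn).mem_nhds (mem_connectedComponentIn hz)

lemma comp_sub {z : ℂ} : connectedComponentIn {w | t < u w} z ⊆ {w | t < u w} :=
  connectedComponentIn_subset _ _

lemma comp_eq {z w : ℂ} (h : w ∈ connectedComponentIn {w | t < u w} z) :
    connectedComponentIn {w | t < u w} w = connectedComponentIn {w | t < u w} z :=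
  (connectedComponentIn_eq h).symm

lemma Ob_of_comp {z w : ℂ} (hz : z ∈ Ob u t) (h : w ∈ connectedComponentIn {w | t < u w} z) :
    w ∈ Ob u t := ⟨comp_sub h, by rw [comp_eq h]; exact hz.2⟩

lemma Oi_of_comp {z w : ℂ} (hz : z ∈ Oi u t) (h : w ∈ connectedComponentIn {w | t < u w} z) :
    w ∈ Oi u t := ⟨comp_sub h, by rw [comp_eq h]; exact hz.2⟩

lemma isOpen_Ob (hu : Continuous u) (t : ℝ) : IsOpen (Ob u t) := by
  rw [isOpen_iff_mem_nhds]
  intro z hz
  filter_upwards [comp_nhds hu hz.1] with w hw
  exact Ob_of_comp hz hw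

lemma isOpen_Oi (hu : Continuous u) (t : ℝ) : IsOpen (Oi u t) := by
  rw [isOpen_iff_mem_nhds]
  intro z hz
  filter_upwards [comp_nhds hu hz.1] with w hw
  exact Oi_of_comp hz hw

lemma not_both {z : ℂ} (h1 : z ∈ Ob u t) (h2 : z ∈ Oi u t) : False := h2.2 h1.2

lemma Oi_or_Ob {z : ℂ} (h : t < u z) : z ∈ Oi u t ∨ z ∈ Ob u t := by
  by_cases hb : IsBounded (connectedComponentIn {w | t < u w} z)
  · exact Or.inr ⟨h, hb⟩
  · exact Or.inl ⟨h, hb⟩

end comp

/-! ### one step -/

/-- the component switch -/
def sw (u : ℂ → ℝ) (t e : ℝ) (χ : ℂ → ℝ) : ℂ → ℝ := fun z => u z - max (u z - t - e) 0 * χ z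

/-- the data of a good cut-off for the level `t` -/
structure Adm (u : ℂ → ℝ) (t e : ℝ) (χ : ℂ → ℝ) : Prop where
  one : ∀ z ∈ Ob u t, t + e ≤ u z → χ z = 1
  zero : ∀ z ∉ Ob u t, t + e ≤ u z → χ z = 0

theorem exists_adm {C : Set ℂ} (hC : IsCompact C) (htd : IsTotallyDisconnected C) {u : ℂ → ℝ}
    (hu : Continuous u) {R t e : ℝ} (he : 0 < e)
    (hfar : ∀ z, t < u z → R ≤ ‖z‖ → ¬ IsBounded (connectedComponentIn {w | t < u w} z)) :
    ∃ χ, Cut C χ ∧ Adm u t e χ := by
  have hP : IsCompact ({z | t + e ≤ u z} ∩ (Oi u t)ᶜ) := by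
    refine Metric.isCompact_of_isClosed_isBounded
      ((isClosed_le continuous_const hu).inter (isOpen_Oi hu t).isClosed_compl) ?_
    refine (isBounded_ball (x := (0 : ℂ)) (r := R)).subset ?_
    rintro z ⟨hz1, hz2⟩
    rw [mem_ball, dist_zero_right]
    by_contra h
    have h1 : t < u z := by
      have : t + e ≤ u z := hz1
      linarith
    exact hz2 ⟨h1, hfar z h1 (not_lt.1 h)⟩
  have hQ : IsClosed ({z | t + e ≤ u z} ∩ (Ob u t)ᶜ) :=
    (isClosed_le continuous_const hu).inter (isOpen_Ob hu t).isClosed_compl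
  have hd : Disjoint ({z | t + e ≤ u z} ∩ (Oi u t)ᶜ) ({z | t + e ≤ u z} ∩ (Ob u t)ᶜ) := by
    rw [disjoint_left]
    rintro z ⟨h1, h2⟩ ⟨-, h3⟩
    have h4 : t < u z := by
      have : t + e ≤ u z := h1
      linarith
    rcases Oi_or_Ob h4 with h | h
    · exact h2 h
    · exact h3 h
  obtain ⟨χ, hχ, h1, h0⟩ := exists_cut hC htd hP hQ hd
  refine ⟨χ, hχ, ?_, ?_⟩
  · intro z hz hzt
    have hm : z ∈ {z | t + e ≤ u z} ∩ (Oi u t)ᶜ := ⟨hzt, fun h => not_both hz h⟩
    exact (h1.filter_mono (nhds_le_nhdsSet hm)).self_of_nhds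
  · intro z hz hzt
    have hm : z ∈ {z | t + e ≤ u z} ∩ (Ob u t)ᶜ := ⟨hzt, hz⟩
    exact (h0.filter_mono (nhds_le_nhdsSet hm)).self_of_nhds

section step

variable {u : ℂ → ℝ} {t e : ℝ} {χ : ℂ → ℝ} (hu : Continuous u) (he : 0 < e) (hA : Adm u t e χ)

include hA in
lemma sw_Ob {z : ℂ} (hz : z ∈ Ob u t) : sw u t e χ z = min (u z) (t + e) := by
  unfold sw
  by_cases h : t + e ≤ u z
  · rw [hA.one z hz h, min_eq_right h, max_eq_left (by linarith)]; ring
  · rw [not_le] at h
    rw [min_eq_left h.le, max_eq_right (by linarith)]; ring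

include hA in
lemma sw_not {z : ℂ} (hz : z ∉ Ob u t) : sw u t e χ z = u z := by
  unfold sw
  by_cases h : t + e ≤ u z
  · rw [hA.zero z hz h]; ring
  · rw [not_le] at h
    rw [max_eq_right (by linarith)]; ring

include hA in
lemma sw_le (z : ℂ) : sw u t e χ z ≤ u z := by
  by_cases h : z ∈ Ob u t
  · rw [sw_Ob hA h]; exact min_le_left _ _
  · rw [sw_not hA h]

include hA in
lemma min_le_sw (z : ℂ) : min (u z) (t + e) ≤ sw u t e χ z := by
  by_cases h : z ∈ Ob u t
  · rw [sw_Ob hA h]
  · rw [sw_not hA h]; exact min_le_left _ _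

include hu he hA in
lemma sw_local (z : ℂ) : (∀ᶠ w in 𝓝 z, sw u t e χ w = u w) ∨
    (∀ᶠ w in 𝓝 z, sw u t e χ w = min (u w) (t + e)) := by
  by_cases h : z ∈ Ob u t
  · right
    filter_upwards [(isOpen_Ob hu t).mem_nhds h] with w hw
    exact sw_Ob hA hw
  · left
    by_cases h2 : t + e ≤ u z
    · have h3 : z ∈ Oi u t := (Oi_or_Ob (by linarith : t < u z)).resolve_right h
      filter_upwards [(isOpen_Oi hu t).mem_nhds h3] with w hw
      exact sw_not hA fun h4 => not_both h4 hw
    · rw [not_le] at h2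
      have : ∀ᶠ w in 𝓝 z, u w < t + e := hu.continuousAt.eventually_lt continuousAt_const h2
      filter_upwards [this] with w hw
      unfold sw
      rw [max_eq_right (by linarith)]; ring

include hu he hA in
/-- the gradient is the old one or zero, at every point -/
theorem fderiv_sw (z : ℂ) : fderiv ℝ (sw u t e χ) z = fderiv ℝ u z ∨
    fderiv ℝ (sw u t e χ) z = 0 := by
  rcases sw_local hu he hA z with h | h
  · left
    exact Filter.EventuallyEq.fderiv_eq h
  · have h1 : fderiv ℝ (sw u t e χ) z = fderiv ℝ (fun w => min (u w) (t + e)) z :=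
      Filter.EventuallyEq.fderiv_eq h
    rw [h1]
    rcases lt_trichotomy (u z) (t + e) with h2 | h2 | h2
    · left
      refine Filter.EventuallyEq.fderiv_eq ?_
      have : ∀ᶠ w in 𝓝 z, u w < t + e := hu.continuousAt.eventually_lt continuousAt_const h2
      filter_upwards [this] with w hw
      exact min_eq_left hw.le
    · right
      refine IsLocalMax.fderiv_eq_zero ?_
      refine Filter.Eventually.of_forall fun w => ?_
      show min (u w) (t + e) ≤ min (u z) (t + e)
      rw [h2, min_self]
      exact min_le_right _ _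
    · right
      have : ∀ᶠ w in 𝓝 z, t + e < u w := continuousAt_const.eventually_lt hu.continuousAt h2
      have h3 : (fun w => min (u w) (t + e)) =ᶠ[𝓝 z] fun _ => t + e := by
        filter_upwards [this] with w hw
        exact min_eq_right hw.le
      rw [h3.fderiv_eq]
      simp

include he hA in
/-- the level `t` becomes good -/
theorem Pp_sw : Pp (sw u t e χ) t e := by
  intro z hz hb
  have h1 : z ∉ Ob u t := by
    intro h
    rw [sw_Ob hA h] at hz
    exact absurd hz (not_lt.2 (min_le_right _ _))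
  have h2 : sw u t e χ z = u z := sw_not hA h1
  have h3 : t < u z := by rw [h2] at hz; linarith
  have h4 : z ∈ Oi u t := (Oi_or_Ob h3).resolve_right h1
  refine h4.2 (hb.subset ?_)
  refine isPreconnected_connectedComponentIn.subset_connectedComponentIn
    (mem_connectedComponentIn h3) ?_
  intro w hw
  have h5 : w ∈ Oi u t := Oi_of_comp h4 hw
  show t < sw u t e χ w
  rw [sw_not hA fun h => not_both h h5]
  exact h5.1

include he hA in
/-- other superlevel sets stay good -/
theorem Pp_sw_of {s e' : ℝ} (he' : 0 < e') (h : Pp u s e') : Pp (sw u t e χ) s e' := by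
  intro z hz hb
  have hz1 : s + e' < u z := hz.trans_le (sw_le hA z)
  have hz2 : s < u z := by linarith
  refine h z hz1 (hb.subset ?_)
  refine isPreconnected_connectedComponentIn.subset_connectedComponentIn
    (mem_connectedComponentIn hz2) ?_
  intro w hw
  have hws : s < u w := connectedComponentIn_subset {w | s < u w} z hw
  show s < sw u t e χ w
  rcases lt_or_ge s (t + e) with hst | hst
  · exact (lt_min hws hst).trans_le (min_le_sw hA w)
  · rw [sw_not hA]
    · exact hws
    · intro hwb
      refine h z hz1 (hwb.2.subset ?_)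
      rw [connectedComponentIn_eq hw]
      refine isPreconnected_connectedComponentIn.subset_connectedComponentIn
        (mem_connectedComponentIn hws) ?_
      intro v hv
      have : s < u v := connectedComponentIn_subset {w | s < u w} w hv
      show t < u v
      linarith

include hu he hA in
/-- sublevel sets stay good -/
theorem Pm_sw_of {s e' : ℝ} (he' : 0 < e') (h : Pm u s e') : Pm (sw u t e χ) s e' := by
  intro z hz hb
  by_cases hzu : u z < s - e'
  · refine h z hzu (hb.subset ?_)
    refine isPreconnected_connectedComponentIn.subset_connectedComponentIn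
      (mem_connectedComponentIn (show z ∈ {w | u w < s} from by show u z < s; linarith)) ?_
    intro w hw
    have hws : u w < s := connectedComponentIn_subset {w | u w < s} z hw
    exact (sw_le hA w).trans_lt hws
  · rw [not_lt] at hzu
    have hzb : z ∈ Ob u t := by
      by_contra hn
      rw [sw_not hA hn] at hz
      linarith
    have hzt : t + e < s - e' := by
      rw [sw_Ob hA hzb] at hz
      rcases min_lt_iff.1 hz with h1 | h1
      · linarith
      · exact h1
    set W := connectedComponentIn {w | t < u w} z with hW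
    have hWb : IsBounded W := hzb.2
    have hzW : z ∈ W := mem_connectedComponentIn hzb.1
    have hWo : IsOpen W := (isOpen_gt hu t).connectedComponentIn
    -- a frontier point
    obtain ⟨w, hw⟩ : (frontier W).Nonempty := by
      rw [Set.nonempty_iff_ne_empty]
      intro hfr
      have hcl : IsClopen W := isClopen_iff_frontier_eq_empty.2 hfr
      rcases isClopen_iff.1 hcl with h1 | h1
      · rw [h1] at hzW; exact hzW
      · have : IsBounded (univ : Set ℂ) := by rw [← h1]; exact hWb
        exact (NormedSpace.unbounded_univ ℝ ℂ) this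
    have hwc : w ∈ closure W := frontier_subset_closure hw
    have hwn : w ∉ W := by
      rw [frontier, hWo.interior_eq] at hw
      exact hw.2
    have hwt : u w ≤ t := by
      by_contra hn
      rw [not_le] at hn
      obtain ⟨v, hv1, hv2⟩ := mem_closure_iff_nhds.1 hwc _ (comp_nhds hu hn)
      have h1 : connectedComponentIn {w | t < u w} v = connectedComponentIn {w | t < u w} w :=
        comp_eq hv1
      have h2 : connectedComponentIn {w | t < u w} v = W := comp_eq hv2
      apply hwn
      rw [← h2, h1]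
      exact mem_connectedComponentIn hn
    have hws : u w < s - e' := by linarith
    refine h w hws (hb.subset ?_)
    -- glue
    set V := connectedComponentIn {v | u v < s} w with hV
    have hwV : w ∈ V := mem_connectedComponentIn (show u w < s by linarith)
    have hT : IsPreconnected (insert w W) :=
      isPreconnected_connectedComponentIn.subset_closure (subset_insert _ _)
        (insert_subset hwc subset_closure)
    have hTV : IsPreconnected (insert w W ∪ V) :=
      hT.union w (mem_insert _ _) hwV isPreconnected_connectedComponentIn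
    have hsub : insert w W ∪ V ⊆ {v | sw u t e χ v < s} := by
      rintro v ((rfl | hv) | hv)
      · exact (sw_le hA _).trans_lt (by linarith)
      · have hvb : v ∈ Ob u t := Ob_of_comp hzb hv
        show sw u t e χ v < s
        rw [sw_Ob hA hvb]
        exact (min_le_right _ _).trans_lt (by linarith)
      · have hvs : u v < s := connectedComponentIn_subset {v | u v < s} w hv
        exact (sw_le hA v).trans_lt hvs
    exact subset_union_right.trans
      (hTV.subset_connectedComponentIn (Or.inl (Or.inr hzW)) hsub)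

end step

end Crest.Agent.R105.Mr_61
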