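import Mathlib
import Crest.Agent.R105.Clo1_871
import Crest.Agent.R105.Stk2_939
import Crest.Agent.R105.Isx2_909
import Crest.Agent.R105.Bd4_775
import Crest.Agent.R105.Mr1_61

/-!
Row 105 (S0139), CLOSE: an atom of `ψ` at `q` is closed at arbitrarily small cost, after a cheap
flattening of finitely many `b i` near `q`.
-/

set_option autoImplicit false

open MeasureTheory Set Filter Topology Metric
open scoped NNReal ENNReal

namespace Crest.Agent.R105.Clo_871

open Crest.Agent.R105.Bd_775 Crest.Agent.R105.OneF_871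

/-- the Stokes hypothesis holds (939) -/
theorem stokesP : StokesP := by
  intro f g hf hg hfb hgb hfe hge
  have h := Stk_939.om_of_zero' (C := ∅) isClosed_empty (κ := f) (u := g)
    ⟨hfb, hf.locallyLipschitzOn, hfe.integrableOn⟩ (fun z hz => absurd hz (notMem_empty z))
    hg.locallyLipschitzOn hge.integrableOn
  unfold om at h
  rwa [compl_empty, setIntegral_univ] at h

variable {C : Set ℂ}

/-- one function is isotropic -/
theorem iso_one (hC : IsCompact C) {u : ℂ → ℝ} (hu : Q C u) : Bd_775.Iso C (fun _ : Unit => u) :=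
  OneF_871.iso_one stokesP hC hu

/-- closing the atom: the function `(1 - ζ) ψ` -/
theorem close_fun (hC : IsClosed C) {q : ℂ} {ψ : ℂ → ℝ} (hψ : IfB_641.D1 C q ψ) {M : ℝ}
    (hM : ∀ z, |ψ z| ≤ M) {ρ ε : ℝ} (hρ : 0 < ρ) (hε : 0 < ε) :
    ∃ u : ℂ → ℝ, D C u ∧ (∀ z, |u z| ≤ M) ∧ (∀ z ∉ closedBall q ρ, u z = ψ z) ∧
      (∀ z ∉ closedBall q ρ, ∀ᶠ w in 𝓝 z, u w = ψ w) ∧
      IntegrableOn (en (fun z => u z - ψ z)) Cᶜ ∧
      ∫ z in Cᶜ, en (fun z => u z - ψ z) z ≤ ε := by
  have hM0 : 0 ≤ M := (abs_nonneg _).trans (hM 0)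
  have hQ := hψ.toQ
  -- a small ball
  obtain ⟨ρ', hρ', hρρ, hsm⟩ : ∃ ρ' > 0, ρ' ≤ ρ ∧ ∫ z in Cᶜ ∩ closedBall q ρ', en ψ z ≤ ε / 4 := by
    have hI : IntegrableOn (en ψ) Cᶜ := hQ.fin
    have h1 : Tendsto (fun n : ℕ => ∫ z in Cᶜ ∩ closedBall q (ρ / (n + 1)), en ψ z) atTop
        (𝓝 (∫ z in ⋂ n : ℕ, (Cᶜ ∩ closedBall q (ρ / (n + 1))), en ψ z)) := by
      refine tendsto_setIntegral_of_antitone
        (fun n => hC.isOpen_compl.measurableSet.inter measurableSet_closedBall) ?_
        ⟨0, hI.mono_set inter_subset_left⟩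
      intro m n hmn
      refine inter_subset_inter_right _ (closedBall_subset_closedBall ?_)
      have : (m : ℝ) ≤ n := by exact_mod_cast hmn
      exact div_le_div_of_nonneg_left hρ.le (by positivity) (by linarith)
    have h2 : ∫ z in ⋂ n : ℕ, (Cᶜ ∩ closedBall q (ρ / (n + 1))), en ψ z = 0 := by
      have h3 : (⋂ n : ℕ, (Cᶜ ∩ closedBall q (ρ / (n + 1)))) ⊆ {q} := by
        intro z hz
        rw [mem_iInter] at hz
        by_contra hne
        have hd : 0 < dist z q := dist_pos.2 hne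
        obtain ⟨n, hn⟩ := exists_nat_gt (ρ / dist z q)
        have h4 := (hz n).2
        rw [mem_closedBall] at h4
        have h5 : ρ < n * dist z q := by rwa [div_lt_iff₀ hd] at hn
        have h6 : dist z q * (n + 1) ≤ ρ := by rwa [le_div_iff₀ (by positivity)] at h4
        nlinarith
      have h4 : volume (⋂ n : ℕ, (Cᶜ ∩ closedBall q (ρ / (n + 1)))) = 0 :=
        measure_mono_null h3 (by simp)
      rw [Measure.restrict_eq_zero.2 h4, integral_zero_measure]
    rw [h2] at h1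
    obtain ⟨n, hn⟩ := ((h1.eventually (gt_mem_nhds (show (0:ℝ) < ε / 4 by positivity)))).exists
    refine ⟨ρ / (n + 1), by positivity, ?_, hn.le⟩
    exact div_le_self hρ.le (by linarith [(Nat.cast_nonneg n : (0:ℝ) ≤ n)])
  obtain ⟨ζ, ⟨K, hK⟩, hcs, hts, h01, hnear, hei, he⟩ :=
    Stk_939.exists_cut_pt q hρ' (show 0 < ε / (4 * (M ^ 2 + 1)) by positivity)
  have hζ1 : ∀ z, |ζ z| ≤ 1 := fun z => by
    rw [abs_of_nonneg (h01 z).1]; exact (h01 z).2
  have hζQ : Q C ζ := by
    refine ⟨⟨1, hζ1⟩, hK.locallyLipschitz.locallyLipschitzOn, hei.integrableOn⟩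
  have hoff : ∀ z ∉ closedBall q ρ', ∀ᶠ w in 𝓝 z, ζ w = 0 := by
    intro z hz
    have : z ∉ tsupport ζ := fun h => hz (hts h)
    exact notMem_tsupport_iff_eventuallyEq.1 this
  set u : ℂ → ℝ := fun z => (1 - ζ z) * ψ z with hu
  have huQ : Q C u := ((Q.const C 1).sub hC hζQ).mul hC hQ
  have huc : Continuous u := by
    rw [continuous_iff_continuousAt]
    intro z
    by_cases hz : z = q
    · subst hz
      have : u =ᶠ[𝓝 z] fun _ => (0:ℝ) := by
        filter_upwards [hnear] with w hw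
        simp only [hu, hw]; ring
      exact continuousAt_const.congr this.symm
    · exact (continuousAt_const.sub hK.continuous.continuousAt).mul (hψ.cont z hz)
  have hev : ∀ z ∉ closedBall q ρ, ∀ᶠ w in 𝓝 z, u w = ψ w := by
    intro z hz
    filter_upwards [hoff z fun h => hz (closedBall_subset_closedBall hρρ h)] with w hw
    simp only [hu, hw]; ring
  have hd : Q C (fun z => u z - ψ z) := huQ.sub hC hQ
  refine ⟨u, huQ.d huc, fun z => ?_, fun z hz => (hev z hz).self_of_nhds, hev, hd.fin, ?_⟩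
  · simp only [hu, abs_mul]
    have : |1 - ζ z| ≤ 1 := by
      rw [abs_le]; constructor <;> linarith [(h01 z).1, (h01 z).2]
    calc |1 - ζ z| * |ψ z| ≤ 1 * M := mul_le_mul this (hM z) (abs_nonneg _) zero_le_one
      _ = M := one_mul M
  · -- energy of `u - ψ = - ζ ψ`
    have e1 : ∀ᵐ z ∂(volume.restrict Cᶜ), en (fun z => u z - ψ z) z ≤
        2 * (closedBall q ρ').indicator (en ψ) z + 2 * M ^ 2 * en ζ z := by
      filter_upwards [hQ.ae_diff hC, hζQ.ae_diff hC] with z d1 d2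
      have hfun : (fun z => u z - ψ z) = fun z => (-1) * (ζ z * ψ z) := by
        funext w; simp only [hu]; ring
      by_cases hz : z ∈ closedBall q ρ'
      · rw [indicator_of_mem hz, hfun]
        have hd3 : DifferentiableAt ℝ (fun z => ζ z * ψ z) z := d2.mul d1
        have x1 : gx (fun z => (-1) * (ζ z * ψ z)) z = -(ζ z * gx ψ z + ψ z * gx ζ z) := by
          rw [gx_mul (differentiableAt_const _) hd3, gx_mul d2 d1, gx_const]; ring
        have y1 : gy (fun z => (-1) * (ζ z * ψ z)) z = -(ζ z * gy ψ z + ψ z * gy ζ z) := by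
          rw [gy_mul (differentiableAt_const _) hd3, gy_mul d2 d1, gy_const]; ring
        have s1 : ζ z ^ 2 ≤ 1 := by
          rw [← sq_abs]; have := hζ1 z; nlinarith [abs_nonneg (ζ z)]
        have s2 : ψ z ^ 2 ≤ M ^ 2 := by
          rw [← sq_abs]; exact pow_le_pow_left₀ (abs_nonneg _) (hM z) 2
        have n1 := en_nonneg ζ z
        have n2 := en_nonneg ψ z
        have t1 : en (fun z => (-1) * (ζ z * ψ z)) z ≤
            2 * (ζ z ^ 2 * en ψ z) + 2 * (ψ z ^ 2 * en ζ z) := by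
          unfold en; rw [x1, y1]
          nlinarith [sq_nonneg (ζ z * gx ψ z - ψ z * gx ζ z),
            sq_nonneg (ζ z * gy ψ z - ψ z * gy ζ z)]
        have t2 := mul_le_mul_of_nonneg_right s1 n2
        have t3 := mul_le_mul_of_nonneg_right s2 n1
        nlinarith
      · rw [indicator_of_notMem hz]
        have : ∀ᶠ w in 𝓝 z, (fun z => u z - ψ z) w = 0 := by
          filter_upwards [hoff z hz] with w hw
          simp only [hu, hw]; ring
        rw [en_zero this]
        have := en_nonneg ζ z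
        positivity
    have i1 : IntegrableOn (fun z => (closedBall q ρ').indicator (en ψ) z) Cᶜ :=
      hQ.fin.indicator measurableSet_closedBall
    calc ∫ z in Cᶜ, en (fun z => u z - ψ z) z
        ≤ ∫ z in Cᶜ, (2 * (closedBall q ρ').indicator (en ψ) z + 2 * M ^ 2 * en ζ z) :=
          integral_mono_ae hd.fin ((i1.const_mul 2).add (hei.integrableOn.const_mul _)) e1
      _ = 2 * (∫ z in Cᶜ, (closedBall q ρ').indicator (en ψ) z) +
            2 * M ^ 2 * (∫ z in Cᶜ, en ζ z) := by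
          rw [integral_add (i1.const_mul 2) (hei.integrableOn.const_mul _), integral_const_mul,
            integral_const_mul]
      _ ≤ 2 * (ε / 4) + 2 * M ^ 2 * (ε / (4 * (M ^ 2 + 1))) := by
          have j1 : ∫ z in Cᶜ, (closedBall q ρ').indicator (en ψ) z ≤ ε / 4 := by
            rw [setIntegral_indicator measurableSet_closedBall]; exact hsm
          have j2 : ∫ z in Cᶜ, en ζ z ≤ ε / (4 * (M ^ 2 + 1)) := by
            refine le_trans ?_ he
            exact setIntegral_le_integral hei (Eventually.of_forall fun z => en_nonneg ζ z)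
          have : 0 ≤ 2 * M ^ 2 := by positivity
          nlinarith [mul_le_mul_of_nonneg_left j2 this]
      _ ≤ ε := by
          have h4 : 2 * M ^ 2 * (ε / (4 * (M ^ 2 + 1))) ≤ ε / 2 := by
            rw [← sub_nonneg]
            have : ε / 2 - 2 * M ^ 2 * (ε / (4 * (M ^ 2 + 1))) = ε / (2 * (M ^ 2 + 1)) := by
              field_simp; ring
            rw [this]; positivity
          linarith

/-- **CLOSE** (775 #9829) -/
theorem close (hC : IsCompact C) (htd : IsTotallyDisconnected C) {b : ℕ → Hn C}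
    {ψ : ℂ → ℝ} {q : ℂ} (hq : q ∈ C) (hψ : IfB_641.D1 C q ψ)
    (hiso : IfB_641.Iso C (insert ψ (range fun i => (b i).1))) {M : ℝ} (hM : ∀ z, |ψ z| ≤ M)
    (n : ℕ) {δ ε : ℝ} (hδ : 0 < δ) (hε : 0 < ε) :
    ∃ (c : ℕ → Hn C) (u : Hn C), (∀ i ≤ n, Near C δ (c i).1 (b i).1) ∧
      IfB_641.Iso C (insert u.1 ((fun i => (c i).1) '' Iic n)) ∧
      (∀ z, |u.1 z| ≤ M) ∧ (∀ z ∉ closedBall q δ, u.1 z = ψ z) ∧
      IntegrableOn (en (fun z => u.1 z - ψ z)) Cᶜ ∧
      ∫ z in Cᶜ, en (fun z => u.1 z - ψ z) z ≤ ε := by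
  have hCc := hC.isClosed
  -- flattening
  have hflat : ∀ i, ∃ c : Hn C, Gen C (fun _ : Unit => (b i).1) c.1 ∧
      (∀ᶠ z in 𝓝 q, c.1 z = c.1 q) ∧ Near C δ c.1 (b i).1 := by
    intro i
    obtain ⟨w, hg, hD, hl, hcv, hs, he⟩ := Isx_909.exists_flat_seq hC (b i).2
      (G := {q}) isCompact_singleton (singleton_subset_iff.2 hq) (by simp)
    have h1 := hcv.eq δ hδ
    have h2 : ∀ᶠ k : ℕ in atTop, 1 / ((k:ℝ) + 1) < min δ (δ ^ 2) :=
      tendsto_one_div_add_atTop_nhds_zero_nat.eventually (gt_mem_nhds (by positivity))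
    obtain ⟨k, hk1, hk2⟩ := (h1.and h2).exists
    refine ⟨⟨w k, hD k⟩, hg k, hl k q rfl, Or.inr hk1, fun z => ?_, ?_⟩
    · exact (hs k z).trans (hk2.le.trans (min_le_left _ _))
    · exact (he k).trans (ENNReal.ofReal_le_ofReal (hk2.le.trans (min_le_right _ _)))
  choose c hcg hcl hcn using hflat
  -- common ball
  obtain ⟨r, hr, hball⟩ : ∃ r > 0, ∀ i ≤ n, ∀ z ∈ ball q r, (c i).1 z = (c i).1 q := by
    have : ∀ᶠ z in 𝓝 q, ∀ i ∈ Iic n, (c i).1 z = (c i).1 q :=
      (eventually_all_finite (finite_Iic n)).2 fun i _ => hcl i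
    obtain ⟨r, hr, h⟩ := Metric.eventually_nhds_iff_ball.1 this
    exact ⟨r, hr, fun i hi z hz => h z hz i hi⟩
  -- clopen split
  obtain ⟨P, P', hP, hP', hCP, hdis, hd1, hd2⟩ := Mr_61.sep hC htd (P := {q}) (Q := (ball q r)ᶜ)
    isClosed_singleton isOpen_ball.isClosed_compl
    (disjoint_left.2 fun z hz hz' => hz' (by rw [mem_singleton_iff.1 hz]; exact mem_ball_self hr))
  have hPc : IsCompact P := hC.of_isClosed_subset hP (by rw [hCP]; exact subset_union_left)
  have hqP : q ∈ P := by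
    rw [hCP] at hq
    rcases hq with h | h
    · exact h
    · exact absurd (mem_singleton q) (disjoint_left.1 hd2 h)
  have hPball : P ⊆ ball q r := fun z hz => not_not.1 fun h => disjoint_left.1 hd1 hz h
  obtain ⟨χ, hχ, hχ1, hχ0⟩ := Mr_61.exists_cut hC htd hPc hP' hdis
  have hχ1' : ∀ z ∈ P, ∀ᶠ w in 𝓝 z, χ w = 1 := fun z hz => eventually_nhdsSet_iff_forall.1 hχ1 z hz
  have hχ0' : ∀ z ∈ P', ∀ᶠ w in 𝓝 z, χ w = 0 := fun z hz => eventually_nhdsSet_iff_forall.1 hχ0 z hz
  have hχL : LC C χ := by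
    refine LC.of_compact ?_ hχ.cpt hχ.lc
    exact (hχ.sm.of_le (by norm_num) : ContDiff ℝ 1 χ).locallyLipschitz
  -- radius of the cut-off
  obtain ⟨ρ, hρ, hρδ, hρP⟩ : ∃ ρ > 0, ρ ≤ δ ∧ Disjoint (closedBall q ρ) P' := by
    have hqP' : q ∉ P' := disjoint_left.1 hdis hqP
    have : P'ᶜ ∈ 𝓝 q := hP'.isOpen_compl.mem_nhds hqP'
    obtain ⟨s, hs, hs'⟩ := Metric.nhds_basis_closedBall.mem_iff.1 this
    refine ⟨min s δ, by positivity, min_le_right _ _, disjoint_left.2 fun z hz hz' => ?_⟩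
    exact hs' (closedBall_subset_closedBall (min_le_left _ _) hz) hz'
  obtain ⟨u, huD, huM, huo, huo', hui, hue⟩ := close_fun hCc hψ hM hρ hε
  have hbQ : ∀ s ∈ range (fun i => (b i).1), Q C s := by
    rintro _ ⟨i, rfl⟩; exact (b i).2.q
  refine ⟨c, ⟨u, huD⟩, fun i _ => hcn i, ?_, huM, fun z hz => huo z fun h =>
    hz (closedBall_subset_closedBall hρδ h), hui, hue⟩
  refine close_iso stokesP hC hiso hbQ hψ.toQ huD.q (χ := χ) ?_ hχL ?_ ?_ ?_
  · rintro _ ⟨i, hi, rfl⟩
    refine IfB_641.Gen.trans (S := {(b i).1}) ?_ ?_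
    · rintro s (rfl : s = (b i).1)
      exact IfB_641.Gen.of (mem_insert_of_mem _ (mem_range_self i))
    · have : ({(b i).1} : Set (ℂ → ℝ)) = range (fun _ : Unit => (b i).1) := by simp
      rw [this]
      exact IfB_641.gen_range.2 (hcg i)
  · intro z hz
    rw [hCP] at hz
    rcases hz with h | h
    · exact Or.inr (hχ1' z h).self_of_nhds
    · exact Or.inl (hχ0' z h).self_of_nhds
  · rintro _ ⟨i, hi, rfl⟩ z hz hz1
    have hzP : z ∈ P := by
      rw [hCP] at hz
      rcases hz with h | h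
      · exact h
      · have := (hχ0' z h).self_of_nhds
        rw [hz1] at this; norm_num at this
    have hzb := hPball hzP
    filter_upwards [isOpen_ball.mem_nhds hzb] with w hw
    rw [hball i hi w hw, hball i hi z hzb]
  · intro z hz hz0
    have hzP : z ∈ P' := by
      rw [hCP] at hz
      rcases hz with h | h
      · have := (hχ1' z h).self_of_nhds
        rw [hz0] at this; norm_num at this
      · exact h
    exact huo' z fun h => disjoint_left.1 hρP h hzP

end Crest.Agent.R105.Clo_871
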