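import Mathlib

/-!
# Row 105, S0139 [B], ATTP, component part of C4P (helper6)
-/

set_option autoImplicit false

open Set Filter Topology Metric Bornology

namespace Crest.Agent.R105.Cmp_6

theorem exists_hit {W : Set ℂ} (hW : IsOpen W) {p q : ℂ} (hpW : p ∈ W)
    (hc : q ∈ connectedComponentIn W p) {r : ℝ} (hp : ‖p‖ ≤ r) (hq : r ≤ ‖q‖) :
    ∃ S : Set ℂ, IsPreconnected S ∧ p ∈ S ∧ S ⊆ W ∧ (∀ w ∈ S, ‖w‖ ≤ r) ∧ ∃ w ∈ S, ‖w‖ = r := by
  have hK : IsOpen (connectedComponentIn W p) := hW.connectedComponentIn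
  have hKc : IsConnected (connectedComponentIn W p) :=
    isConnected_connectedComponentIn_iff.2 hpW
  have hpath := (hK.isConnected_iff_isPathConnected.1 hKc)
  obtain ⟨γ, hγ⟩ := hpath.joinedIn p (mem_connectedComponentIn hpW) q hc
  set g : C(ℝ, ℂ) := γ.extend with hg
  have hgc : Continuous g := g.continuous
  have hgm : ∀ t ∈ Icc (0 : ℝ) 1, g t ∈ connectedComponentIn W p := by
    intro t ht
    have : g t = γ ⟨t, ht⟩ := γ.extend_apply ht
    rw [this]; exact hγ _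
  have h0 : g 0 = p := γ.extend_zero
  have h1 : g 1 = q := γ.extend_one
  set T : Set ℝ := Icc (0 : ℝ) 1 ∩ {t | r ≤ ‖g t‖} with hT
  have hTc : IsCompact T :=
    isCompact_Icc.inter_right (isClosed_le continuous_const hgc.norm)
  have hTn : T.Nonempty := ⟨1, ⟨by norm_num, le_rfl⟩, by show r ≤ ‖g 1‖; rw [h1]; exact hq⟩
  obtain ⟨t0, ht0, hmin⟩ := hTc.exists_isLeast hTn
  have hmin' : ∀ t, t ∈ T → t0 ≤ t := fun t ht => hmin ht
  have hr0 : ‖g t0‖ = r := by
    have h2 := intermediate_value_Icc ht0.1.1 (hgc.norm.continuousOn (s := Icc 0 t0))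
    obtain ⟨t, ht, htr⟩ := h2 ⟨by simpa [h0] using hp, ht0.2⟩
    have h3 : t0 ≤ t := hmin' t ⟨⟨ht.1, ht.2.trans ht0.1.2⟩, by
      show r ≤ ‖g t‖
      exact le_of_eq htr.symm⟩
    have h4 : t = t0 := le_antisymm ht.2 h3
    rw [← h4]; exact htr
  refine ⟨g '' Icc 0 t0, isPreconnected_Icc.image g hgc.continuousOn,
    ⟨0, ⟨le_rfl, ht0.1.1⟩, h0⟩, ?_, ?_, g t0, ⟨t0, ⟨ht0.1.1, le_rfl⟩, rfl⟩, hr0⟩
  · rintro _ ⟨t, ht, rfl⟩
    exact connectedComponentIn_subset _ _ (hgm t ⟨ht.1, ht.2.trans ht0.1.2⟩)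
  · rintro _ ⟨t, ht, rfl⟩
    by_contra h
    have h2 : t ∈ T := ⟨⟨ht.1, ht.2.trans ht0.1.2⟩, (not_le.1 h).le⟩
    have h3 : t = t0 := le_antisymm ht.2 (hmin' t h2)
    rw [h3, hr0] at h
    exact h le_rfl

theorem le_norm_of_im {r : ℝ} {w : ℂ} (h : r ≤ |w.im|) : r ≤ ‖w‖ := h.trans (Complex.abs_im_le_norm w)

theorem le_norm_of_re {r : ℝ} {w : ℂ} (h : r ≤ |w.re|) : r ≤ ‖w‖ := h.trans (Complex.abs_re_le_norm w)

/-- the far region `{r ≤ |z|, re z < τ}` -/
theorem far_left {r τ L : ℝ} (hr : 0 ≤ r) (hL : r ≤ L) (hLτ : -L < τ) {z y : ℂ} (hz : r ≤ ‖z‖)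
    (hzτ : z.re < τ) (hy : y.re ≤ -L) :
    ∃ S : Set ℂ, IsPreconnected S ∧ z ∈ S ∧ y ∈ S ∧ ∀ w ∈ S, r ≤ ‖w‖ ∧ w.re < τ := by
  -- half plane
  have hH : Convex ℝ {w : ℂ | w.re ≤ -L} := convex_halfSpace_re_le _
  have hHs : ∀ w ∈ {w : ℂ | w.re ≤ -L}, r ≤ ‖w‖ ∧ w.re < τ := by
    intro w (hw : w.re ≤ -L)
    refine ⟨le_norm_of_re ?_, by linarith⟩
    rw [le_abs]; right; linarith
  rcases le_total 0 z.im with hi | hi
  · set V : Set ℂ := {w | w.re = z.re ∧ z.im ≤ w.im} with hV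
    set W : Set ℂ := {w | r ≤ w.im ∧ w.re < τ} with hW
    have cV : Convex ℝ V := by
      have : V = {w : ℂ | w.re = z.re} ∩ {w | z.im ≤ w.im} := rfl
      rw [this]
      refine Convex.inter ?_ (convex_halfSpace_im_ge _)
      have : {w : ℂ | w.re = z.re} = {w : ℂ | w.re ≤ z.re} ∩ {w | z.re ≤ w.re} := by
        ext w; simp only [mem_setOf_eq, mem_inter_iff]; exact le_antisymm_iff
      rw [this]
      exact (convex_halfSpace_re_le _).inter (convex_halfSpace_re_ge _)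
    have cW : Convex ℝ W := (convex_halfSpace_im_ge _).inter (convex_halfSpace_re_lt _)
    refine ⟨(V ∪ W) ∪ {w : ℂ | w.re ≤ -L}, ?_, Or.inl (Or.inl ⟨rfl, le_rfl⟩), Or.inr hy, ?_⟩
    · refine IsPreconnected.union ⟨-L, r⟩ (Or.inr ⟨le_rfl, hLτ⟩) (show (-L : ℝ) ≤ -L from le_rfl)
        ?_ hH.isPreconnected
      exact IsPreconnected.union ⟨z.re, max z.im r⟩ ⟨rfl, le_max_left _ _⟩
        ⟨le_max_right _ _, hzτ⟩ cV.isPreconnected cW.isPreconnected
    · rintro w ((⟨h1, h2⟩ | ⟨h1, h2⟩) | hw)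
      · refine ⟨hz.trans ?_, by rw [h1]; exact hzτ⟩
        rw [← sq_le_sq₀ (norm_nonneg _) (norm_nonneg _), ← Complex.normSq_eq_norm_sq,
          ← Complex.normSq_eq_norm_sq, Complex.normSq_apply, Complex.normSq_apply, h1]
        nlinarith
      · refine ⟨le_norm_of_im (h1.trans (le_abs_self _)), h2⟩
      · exact hHs w hw
  · set V : Set ℂ := {w | w.re = z.re ∧ w.im ≤ z.im} with hV
    set W : Set ℂ := {w | w.im ≤ -r ∧ w.re < τ} with hW
    have cV : Convex ℝ V := by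
      have : V = {w : ℂ | w.re = z.re} ∩ {w | w.im ≤ z.im} := rfl
      rw [this]
      refine Convex.inter ?_ (convex_halfSpace_im_le _)
      have : {w : ℂ | w.re = z.re} = {w : ℂ | w.re ≤ z.re} ∩ {w | z.re ≤ w.re} := by
        ext w; simp only [mem_setOf_eq, mem_inter_iff]; exact le_antisymm_iff
      rw [this]
      exact (convex_halfSpace_re_le _).inter (convex_halfSpace_re_ge _)
    have cW : Convex ℝ W := (convex_halfSpace_im_le _).inter (convex_halfSpace_re_lt _)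
    refine ⟨(V ∪ W) ∪ {w : ℂ | w.re ≤ -L}, ?_, Or.inl (Or.inl ⟨rfl, le_rfl⟩), Or.inr hy, ?_⟩
    · refine IsPreconnected.union ⟨-L, -r⟩ (Or.inr ⟨le_rfl, hLτ⟩) (show (-L : ℝ) ≤ -L from le_rfl)
        ?_ hH.isPreconnected
      exact IsPreconnected.union ⟨z.re, min z.im (-r)⟩ ⟨rfl, min_le_left _ _⟩
        ⟨min_le_right _ _, hzτ⟩ cV.isPreconnected cW.isPreconnected
    · rintro w ((⟨h1, h2⟩ | ⟨h1, h2⟩) | hw)
      · refine ⟨hz.trans ?_, by rw [h1]; exact hzτ⟩
        rw [← sq_le_sq₀ (norm_nonneg _) (norm_nonneg _), ← Complex.normSq_eq_norm_sq,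
          ← Complex.normSq_eq_norm_sq, Complex.normSq_apply, Complex.normSq_apply, h1]
        nlinarith
      · refine ⟨le_norm_of_im ?_, h2⟩
        rw [le_abs]; right; linarith
      · exact hHs w hw

/-- **component lemma, left** -/
theorem comp_left {u a : ℂ → ℝ} (hu : Continuous u) {r s t δ : ℝ} {p : ℂ} (hp : ‖p‖ ≤ r)
    (hEq : ∀ z, ‖z‖ ≤ r → a z = u z) (hfar : ∀ z : ℂ, r ≤ ‖z‖ → |a z - z.re| ≤ δ)
    (hps : u p < s) (hunb : ¬ IsBounded (connectedComponentIn {w | u w < s} p))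
    (ht : s + 2 * δ ≤ t) :
    ∃ L0 : ℝ, ∀ L, L0 ≤ L → ∀ z : ℂ, z.re ≤ -L → z ∈ connectedComponentIn {w | a w < t} p := by
  have hr : 0 ≤ r := (norm_nonneg p).trans hp
  have hδ : 0 ≤ δ := by
    have := hfar (r : ℂ) (by simp [abs_of_nonneg hr])
    exact (abs_nonneg _).trans this
  refine ⟨max r (1 - (s + δ)), fun L hL y hy => ?_⟩
  have hL1 : r ≤ L := (le_max_left _ _).trans hL
  have hL2 : 1 - (s + δ) ≤ L := (le_max_right _ _).trans hL
  -- a far point of the component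
  obtain ⟨q, hq, hqr⟩ : ∃ q ∈ connectedComponentIn {w | u w < s} p, r ≤ ‖q‖ := by
    by_contra h
    push Not at h
    refine hunb ((isBounded_closedBall (x := (0 : ℂ)) (r := r)).subset fun q hq => ?_)
    rw [mem_closedBall, dist_zero_right]
    exact (h q hq).le
  obtain ⟨S1, c1, p1, s1, n1, w, hw, hwr⟩ := exists_hit (isOpen_lt hu continuous_const)
    (show p ∈ {w | u w < s} from hps) hq hp hqr
  have hws : u w < s := s1 hw
  have hwa := hfar w hwr.ge
  rw [hEq w hwr.le, abs_le] at hwa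
  obtain ⟨S2, c2, w2, y2, s2⟩ := far_left (τ := s + δ) hr hL1 (by linarith) hwr.ge
    (by linarith [hwa.1]) hy
  have hsub : S1 ∪ S2 ⊆ {w | a w < t} := by
    rintro v (hv | hv)
    · show a v < t
      rw [hEq v (n1 v hv)]
      have : u v < s := s1 hv
      linarith
    · show a v < t
      have h1 := s2 v hv
      have h2 := (abs_le.1 (hfar v h1.1)).2
      linarith [h1.2]
  exact (c1.union w hw w2 c2).subset_connectedComponentIn (Or.inl p1) hsub (Or.inr y2)

/-- **component lemma, right** -/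
theorem comp_right {u a : ℂ → ℝ} (hu : Continuous u) {r s t δ : ℝ} {p : ℂ} (hp : ‖p‖ ≤ r)
    (hEq : ∀ z, ‖z‖ ≤ r → a z = u z) (hfar : ∀ z : ℂ, r ≤ ‖z‖ → |a z - z.re| ≤ δ)
    (hps : s < u p) (hunb : ¬ IsBounded (connectedComponentIn {w | s < u w} p))
    (ht : t ≤ s - 2 * δ) :
    ∃ L0 : ℝ, ∀ L, L0 ≤ L → ∀ z : ℂ, L ≤ z.re → z ∈ connectedComponentIn {w | t < a w} p := by
  set n : ℂ ≃ₜ ℂ := Homeomorph.neg ℂ with hn
  have hpre : ∀ (f : ℂ → ℝ) (c : ℝ) (x : ℂ),
      connectedComponentIn {w | -f (-w) < -c} (-x) = n '' connectedComponentIn {w | c < f w} x := by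
    intro f c x
    by_cases hx : c < f x
    · have h1 := n.image_connectedComponentIn (s := {w | c < f w}) (x := x) hx
      rw [h1]
      congr 1
      ext w
      simp only [mem_setOf_eq, mem_image, hn, Homeomorph.coe_neg]
      constructor
      · intro hw
        exact ⟨-w, by linarith, by simp⟩
      · rintro ⟨v, hv, rfl⟩
        rw [neg_neg]; linarith
    · rw [connectedComponentIn_eq_empty (show x ∉ {w | c < f w} from hx), image_empty]
      refine connectedComponentIn_eq_empty ?_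
      intro h
      have h2 : -f (- -x) < -c := h
      rw [neg_neg] at h2
      exact hx (by linarith)
  obtain ⟨L0, hL0⟩ := comp_left (u := fun z => -u (-z)) (a := fun z => -a (-z)) (p := -p)
    (r := r) (s := -s) (t := -t) (δ := δ) (hu.comp continuous_neg).neg (by rw [norm_neg]; exact hp)
    (fun z hz => by rw [hEq (-z) (by rw [norm_neg]; exact hz)])
    (fun z hz => by
      have h1 := hfar (-z) (by rw [norm_neg]; exact hz)
      rw [Complex.neg_re] at h1
      have h2 : -a (-z) - z.re = -(a (-z) - -z.re) := by ring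
      rw [h2, abs_neg]; exact h1)
    (by simp only [neg_neg]; linarith)
    (by
      rw [hpre u s p]
      intro hb
      apply hunb
      have h1 : connectedComponentIn {w | s < u w} p =
          -(n '' connectedComponentIn {w | s < u w} p) := by
        rw [hn, Homeomorph.coe_neg, image_neg_eq_neg, neg_neg]
      rw [h1]
      exact hb.neg) (by linarith)
  refine ⟨L0, fun L hL z hz => ?_⟩
  have h1 := hL0 L hL (-z) (by rw [Complex.neg_re]; linarith)
  rw [hpre a t p] at h1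
  obtain ⟨v, hv, hvz⟩ := h1
  have : v = z := neg_injective hvz
  rwa [this] at hv

end Crest.Agent.R105.Cmp_6
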