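import Mathlib

/-!
# Row 105 (S0138), node E13 (4) of 499 #11166 in the form of 41 #11310 / 948 #11335: counting

Helper116.  For one fixed open set `O` (component of `W`): `a t`, `c t` = germs of the top / bottom end of
the line `t` in `O` (times the value of the `x`-step there), `ya t`, `yc t` = limits of `y` there;
`p`, `q` = averages of the germs of the ends `T`, `B` of the vertical lines of the final picture.
COUNT and crude E-L for all smooth steps give: for a.e. `t`, if exactly one of the two ends of the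
line `t` lies in `O`, then `y` is in `[b, b + s]` there.
-/

set_option autoImplicit false

open MeasureTheory Set Filter Topology Metric
open scoped ContDiff

namespace Crest.Agent.R105.Cnt_116

/-- smooth step from `0` to `1` inside `(t1, t2)` -/
structure Stp (t1 t2 : ℝ) (h : ℝ → ℝ) : Prop where
  sm : ContDiff ℝ ∞ h
  mono : Monotone h
  lo : ∃ t, t1 < t ∧ ∀ v ≤ t, h v = 0
  hi : ∃ t, t < t2 ∧ ∀ v, t ≤ v → h v = 1

theorem Stp.nonneg {t1 t2 : ℝ} {h : ℝ → ℝ} (H : Stp t1 t2 h) (v : ℝ) : 0 ≤ h v := by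
  obtain ⟨t, -, ht⟩ := H.lo
  rcases le_total v t with hv | hv
  · exact (ht v hv).ge
  · rw [← ht t le_rfl]; exact H.mono hv

theorem Stp.le_one {t1 t2 : ℝ} {h : ℝ → ℝ} (H : Stp t1 t2 h) (v : ℝ) : h v ≤ 1 := by
  obtain ⟨t, -, ht⟩ := H.hi
  rcases le_total v t with hv | hv
  · rw [← ht t le_rfl]; exact H.mono hv
  · exact (ht v hv).le

/-- the standard step around `t` of half width `ε` -/
noncomputable def stp (t ε v : ℝ) : ℝ := Real.smoothTransition ((v - t + ε) / (2 * ε))

theorem stp_contDiff (t ε : ℝ) : ContDiff ℝ ∞ (stp t ε) :=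
  Real.smoothTransition.contDiff.comp (by fun_prop)

theorem stp_mono {t ε : ℝ} (hε : 0 < ε) : Monotone (stp t ε) := by
  intro v w hvw
  unfold stp
  apply Real.smoothTransition.monotone
  gcongr

theorem stp_zero {t ε v : ℝ} (hε : 0 < ε) (h : v ≤ t - ε) : stp t ε v = 0 := by
  unfold stp
  apply Real.smoothTransition.zero_of_nonpos
  exact div_nonpos_of_nonpos_of_nonneg (by linarith) (by positivity)

theorem stp_one {t ε v : ℝ} (hε : 0 < ε) (h : t + ε ≤ v) : stp t ε v = 1 := by
  unfold stp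
  apply Real.smoothTransition.one_of_one_le
  rw [le_div_iff₀ (by positivity)]
  linarith

theorem stp_stp {t1 t2 t ε : ℝ} (hε : 0 < ε) (h1 : t1 < t - ε) (h2 : t + ε < t2) :
    Stp t1 t2 (stp t ε) where
  sm := stp_contDiff t ε
  mono := stp_mono hε
  lo := ⟨t - ε, h1, fun _ hv => stp_zero hε hv⟩
  hi := ⟨t + ε, h2, fun _ hv => stp_one hε hv⟩

/-- a bound of the derivative of the smooth transition -/
theorem exists_bound : ∃ C : ℝ, 0 ≤ C ∧ ∀ x, |deriv Real.smoothTransition x| ≤ C := by
  have hc : Continuous (deriv Real.smoothTransition) :=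
    (Real.smoothTransition.contDiff (n := (⊤ : ℕ∞))).continuous_deriv (by simp)
  obtain ⟨C, hC⟩ := (isCompact_Icc (a := (0 : ℝ)) (b := 1)).exists_bound_of_continuousOn
    hc.continuousOn
  refine ⟨max C 0, le_max_right _ _, fun x => ?_⟩
  by_cases hx : x ∈ Icc (0 : ℝ) 1
  · exact (by simpa [Real.norm_eq_abs] using hC x hx : |deriv Real.smoothTransition x| ≤ C).trans
      (le_max_left _ _)
  · have h0 : deriv Real.smoothTransition x = 0 := by
      rw [mem_Icc, not_and_or, not_le, not_le] at hx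
      rcases hx with hx | hx
      · have : Real.smoothTransition =ᶠ[𝓝 x] fun _ => 0 := by
          filter_upwards [Iio_mem_nhds hx] with y hy
          exact Real.smoothTransition.zero_of_nonpos hy.le
        rw [this.deriv_eq]; simp
      · have : Real.smoothTransition =ᶠ[𝓝 x] fun _ => 1 := by
          filter_upwards [Ioi_mem_nhds hx] with y hy
          exact Real.smoothTransition.one_of_one_le (le_of_lt hy)
        rw [this.deriv_eq]; simp
    rw [h0, abs_zero]
    exact le_max_right _ _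

/-- the kernel `(h ^ k)'` -/
noncomputable def ker (k : ℕ) (t ε v : ℝ) : ℝ := deriv (fun v => stp t ε v ^ k) v

theorem ker_cont (k : ℕ) (t ε : ℝ) : Continuous (ker k t ε) :=
  ((stp_contDiff t ε).pow k).continuous_deriv (by simp)

theorem ker_bound {C : ℝ} (hC : ∀ x, |deriv Real.smoothTransition x| ≤ C) (k : ℕ) {t ε : ℝ}
    (hε : 0 < ε) (v : ℝ) : |ker k t ε v| ≤ k * (C / (2 * ε)) := by
  have hd : DifferentiableAt ℝ (stp t ε) v := (stp_contDiff t ε).differentiable (by simp) v
  have h1 : deriv (stp t ε) v = deriv Real.smoothTransition ((v - t + ε) / (2 * ε)) * (1 / (2 * ε)) := by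
    have h2 : HasDerivAt (fun v : ℝ => (v - t + ε) / (2 * ε)) (1 / (2 * ε)) v := by
      have := (((hasDerivAt_id v).sub_const t).add_const ε).div_const (2 * ε)
      simpa using this
    have h3 : HasDerivAt Real.smoothTransition
        (deriv Real.smoothTransition ((v - t + ε) / (2 * ε))) ((v - t + ε) / (2 * ε)) :=
      ((Real.smoothTransition.contDiff (n := (⊤ : ℕ∞))).differentiable (by simp) _).hasDerivAt
    exact (h3.comp v h2).deriv
  have h4 : ker k t ε v = k * stp t ε v ^ (k - 1) * deriv (stp t ε) v := by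
    unfold ker
    rw [deriv_fun_pow hd]
  have h5 : |stp t ε v| ≤ 1 := by
    rw [abs_le]
    unfold stp
    exact ⟨by linarith [Real.smoothTransition.nonneg ((v - t + ε) / (2 * ε))],
      Real.smoothTransition.le_one _⟩
  rw [h4, h1, abs_mul, abs_mul, abs_mul, abs_pow, Nat.abs_cast]
  have h6 : |stp t ε v| ^ (k - 1) ≤ 1 := pow_le_one₀ (abs_nonneg _) h5
  have h7 : |(1 : ℝ) / (2 * ε)| = 1 / (2 * ε) := abs_of_pos (by positivity)
  rw [h7]
  calc (k : ℝ) * |stp t ε v| ^ (k - 1) * (|deriv Real.smoothTransition ((v - t + ε) / (2 * ε))| * (1 / (2 * ε)))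
      ≤ (k : ℝ) * 1 * (C * (1 / (2 * ε))) := by
        gcongr
        exact hC _
    _ = k * (C / (2 * ε)) := by ring

theorem ker_zero {k : ℕ} {t ε v : ℝ} (hε : 0 < ε) (hv : v ∉ closedBall t ε) : ker k t ε v = 0 := by
  rw [mem_closedBall, Real.dist_eq, not_le, lt_abs] at hv
  unfold ker
  rcases hv with hv | hv
  · have : (fun v => stp t ε v ^ k) =ᶠ[𝓝 v] fun _ => 1 := by
      filter_upwards [Ioi_mem_nhds (show t + ε < v by linarith)] with y hy
      rw [stp_one hε (le_of_lt hy), one_pow]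
    rw [this.deriv_eq]; simp
  · have : (fun v => stp t ε v ^ k) =ᶠ[𝓝 v] fun _ => 0 ^ k := by
      filter_upwards [Iio_mem_nhds (show v < t - ε by linarith)] with y hy
      rw [stp_zero hε (le_of_lt hy)]
    rw [this.deriv_eq]; simp

theorem ker_int {k : ℕ} (hk : k ≠ 0) {t ε : ℝ} (hε : 0 < ε) : ∫ v, ker k t ε v = 1 := by
  have h1 : ∫ v, ker k t ε v = ∫ v in (t - ε)..(t + ε), ker k t ε v := by
    rw [intervalIntegral.integral_of_le (by linarith), ← integral_Icc_eq_integral_Ioc]
    symm
    apply setIntegral_eq_integral_of_forall_compl_eq_zero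
    intro v hv
    refine ker_zero hε fun h => hv ?_
    rw [Real.closedBall_eq_Icc] at h
    exact h
  rw [h1]
  unfold ker
  rw [intervalIntegral.integral_deriv_eq_sub]
  · rw [stp_one hε le_rfl, stp_zero hε le_rfl, one_pow, zero_pow hk, sub_zero]
  · intro x _
    exact ((stp_contDiff t ε).pow k).differentiable (by simp) x
  · exact (ker_cont k t ε).intervalIntegrable _ _

/-- **approximate identity** -/
theorem ker_tendsto {k : ℕ} (hk : k ≠ 0) {f : ℝ → ℝ} (hf : Integrable f) :
    ∀ᵐ t : ℝ, ∀ ε : ℕ → ℝ, (∀ n, 0 < ε n) → Tendsto ε atTop (𝓝 0) →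
      Tendsto (fun n => ∫ v, ker k t (ε n) v * f v) atTop (𝓝 (f t)) := by
  obtain ⟨C, hC0, hC⟩ := exists_bound
  have h0 := IsUnifLocDoublingMeasure.ae_tendsto_average_norm_sub (μ := (volume : Measure ℝ))
    hf.locallyIntegrable 1
  filter_upwards [h0] with t ht ε hε hlim
  have hlim' : Tendsto ε atTop (𝓝[>] 0) :=
    tendsto_nhdsWithin_iff.2 ⟨hlim, Eventually.of_forall hε⟩
  have h1 := ht (fun _ : ℕ => t) ε hlim' (Eventually.of_forall fun n =>
    mem_closedBall_self (by have := hε n; positivity))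
  rw [tendsto_iff_norm_sub_tendsto_zero]
  have h2 : Tendsto (fun n => (k * C) * ⨍ y in closedBall t (ε n), ‖f y - f t‖) atTop (𝓝 0) := by
    have := h1.const_mul ((k : ℝ) * C)
    rwa [mul_zero] at this
  refine squeeze_zero (fun _ => norm_nonneg _) (fun n => ?_) h2
  have hεn := hε n
  have hki : Integrable fun v => ker k t (ε n) v * f v := by
    refine hf.bdd_mul (c := k * (C / (2 * ε n))) (ker_cont k t (ε n)).aestronglyMeasurable ?_
    exact ae_of_all _ fun v => ker_bound hC k hεn v
  have hk2 : Integrable fun v => ker k t (ε n) v * f t := by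
    refine Integrable.mul_const ?_ _
    refine (ker_cont k t (ε n)).integrable_of_hasCompactSupport ?_
    refine HasCompactSupport.intro (isCompact_closedBall t (ε n)) fun v hv => ker_zero hεn hv
  have e1 : (∫ v, ker k t (ε n) v * f v) - f t = ∫ v, ker k t (ε n) v * (f v - f t) := by
    have : f t = ∫ v, ker k t (ε n) v * f t := by
      rw [integral_mul_const, ker_int hk hεn, one_mul]
    conv_lhs => rw [this]
    rw [← integral_sub hki hk2]
    exact integral_congr_ae (ae_of_all _ fun v => by ring)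
  have e2 : ∫ v, ker k t (ε n) v * (f v - f t) =
      ∫ v in closedBall t (ε n), ker k t (ε n) v * (f v - f t) := by
    symm
    apply setIntegral_eq_integral_of_forall_compl_eq_zero
    intro v hv
    rw [ker_zero hεn hv, zero_mul]
  rw [e1, e2]
  have hfi : IntegrableOn (fun v => ‖f v - f t‖) (closedBall t (ε n)) :=
    (hf.integrableOn.sub (integrableOn_const (measure_closedBall_lt_top.ne))).norm
  calc ‖∫ v in closedBall t (ε n), ker k t (ε n) v * (f v - f t)‖
      ≤ ∫ v in closedBall t (ε n), ‖ker k t (ε n) v * (f v - f t)‖ := norm_integral_le_integral_norm _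
    _ ≤ ∫ v in closedBall t (ε n), (k * (C / (2 * ε n))) * ‖f v - f t‖ := by
        refine integral_mono_of_nonneg (ae_of_all _ fun _ => norm_nonneg _) (hfi.const_mul _)
          (ae_of_all _ fun v => ?_)
        simp only
        rw [norm_mul]
        exact mul_le_mul_of_nonneg_right (ker_bound hC k hεn v) (norm_nonneg _)
    _ = (k * C) * ⨍ y in closedBall t (ε n), ‖f y - f t‖ := by
        rw [integral_const_mul, setAverage_eq, measureReal_def, Real.volume_closedBall,
          ENNReal.toReal_ofReal (by positivity), smul_eq_mul]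
        field_simp

/-- the arithmetic of four ends -/
theorem four_ends {u v p q : ℕ → ℝ} {U V b s L R : ℝ} (hu : Tendsto u atTop (𝓝 U))
    (hv : Tendsto v atTop (𝓝 V)) (hp : ∀ᶠ n in atTop, p n ∈ Icc (0 : ℝ) 1)
    (hq : ∀ᶠ n in atTop, q n ∈ Icc (0 : ℝ) 1) (h1 : ∀ᶠ n in atTop, u n + q n - p n = 0)
    (h2 : ∀ᶠ n in atTop, v n + b * q n - (b + s) * p n ∈ Icc L R) :
    (U = -1 → V + b ∈ Icc L R) ∧ (U = 1 → V - (b + s) ∈ Icc L R) := by
  constructor
  · rintro rfl
    have hp0 : Tendsto p atTop (𝓝 0) := by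
      have h3 : Tendsto (fun n => 1 + u n) atTop (𝓝 0) := by
        have := hu.const_add 1
        rwa [add_neg_cancel] at this
      refine tendsto_of_tendsto_of_tendsto_of_le_of_le' tendsto_const_nhds h3 ?_ ?_
      · filter_upwards [hp] with n hn using hn.1
      · filter_upwards [hq, h1] with n hn h1n
        linarith [hn.2]
    have hq1 : Tendsto q atTop (𝓝 1) := by
      have h3 : Tendsto (fun n => p n - u n) atTop (𝓝 1) := by
        have := hp0.sub hu
        rwa [zero_sub, neg_neg] at this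
      refine h3.congr' ?_
      filter_upwards [h1] with n hn
      linarith
    have h4 : Tendsto (fun n => v n + b * q n - (b + s) * p n) atTop (𝓝 (V + b)) := by
      have := (hv.add (hq1.const_mul b)).sub (hp0.const_mul (b + s))
      simpa using this
    exact isClosed_Icc.mem_of_tendsto h4 h2
  · rintro rfl
    have hq0 : Tendsto q atTop (𝓝 0) := by
      have h3 : Tendsto (fun n => 1 - u n) atTop (𝓝 0) := by
        have := hu.const_sub 1
        rwa [sub_self] at this
      refine tendsto_of_tendsto_of_tendsto_of_le_of_le' tendsto_const_nhds h3 ?_ ?_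
      · filter_upwards [hq] with n hn using hn.1
      · filter_upwards [hp, h1] with n hn h1n
        linarith [hn.2]
    have hp1 : Tendsto p atTop (𝓝 1) := by
      have h3 : Tendsto (fun n => q n + u n) atTop (𝓝 1) := by
        have := hq0.add hu
        rwa [zero_add] at this
      refine h3.congr' ?_
      filter_upwards [h1] with n hn
      linarith
    have h4 : Tendsto (fun n => v n + b * q n - (b + s) * p n) atTop (𝓝 (V - (b + s))) := by
      have := (hv.add (hq0.const_mul b)).sub (hp1.const_mul (b + s))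
      simpa using this
    exact isClosed_Icc.mem_of_tendsto h4 h2

section

variable {a c ya yc : ℝ → ℝ} {b s t1 t2 : ℝ}

/-- the kernel integral of a function integrable on `(t1, t2)` only -/
theorem int_ind {k : ℕ} {t ε : ℝ} (hε : 0 < ε) (h1 : t1 < t - ε) (h2 : t + ε < t2) (f : ℝ → ℝ) :
    ∫ v, ker k t ε v * f v = ∫ v, ker k t ε v * (Ioo t1 t2).indicator f v := by
  refine integral_congr_ae (ae_of_all _ fun v => ?_)
  by_cases hv : v ∈ Ioo t1 t2
  · simp only [indicator_of_mem hv]
  · have : ker k t ε v = 0 := by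
      refine ker_zero hε fun h => hv ?_
      rw [Real.closedBall_eq_Icc] at h
      exact ⟨by linarith [h.1], by linarith [h.2]⟩
    simp only [this, zero_mul]

/-- general form, `κ = 1` (step up) or `κ = -1` (step down) -/
theorem cnt (κ : ℝ) {k : ℕ} (hk : k ≠ 0) {L R : ℝ} (hf : IntegrableOn (fun t => c t - a t) (Ioo t1 t2))
    (hg : IntegrableOn (fun t => c t * yc t - a t * ya t) (Ioo t1 t2))
    (hE : ∀ h, Stp t1 t2 h → ∃ p ∈ Icc (0 : ℝ) 1, ∃ q ∈ Icc (0 : ℝ) 1,
      κ * (∫ t, deriv (fun v => h v ^ k) t * (c t - a t)) + q - p = 0 ∧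
      κ * (∫ t, deriv (fun v => h v ^ k) t * (c t * yc t - a t * ya t)) + b * q - (b + s) * p ∈ Icc L R) :
    ∀ᵐ t : ℝ, t ∈ Ioo t1 t2 →
      (κ * (c t - a t) = -1 → κ * (c t * yc t - a t * ya t) + b ∈ Icc L R) ∧
      (κ * (c t - a t) = 1 → κ * (c t * yc t - a t * ya t) - (b + s) ∈ Icc L R) := by
  have hf' := (integrable_indicator_iff measurableSet_Ioo).2 hf
  have hg' := (integrable_indicator_iff measurableSet_Ioo).2 hg
  filter_upwards [ker_tendsto hk hf', ker_tendsto hk hg'] with t h1 h2 ht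
  -- the radii
  obtain ⟨ρ, hρ, hρ1, hρ2⟩ : ∃ ρ : ℝ, 0 < ρ ∧ t1 < t - ρ ∧ t + ρ < t2 := by
    refine ⟨min (t - t1) (t2 - t) / 2, ?_, ?_, ?_⟩
    · have := lt_min (sub_pos.2 ht.1) (sub_pos.2 ht.2); positivity
    · have := min_le_left (t - t1) (t2 - t)
      have h3 := lt_min (sub_pos.2 ht.1) (sub_pos.2 ht.2)
      linarith [sub_pos.2 ht.1]
    · have := min_le_right (t - t1) (t2 - t)
      linarith [sub_pos.2 ht.2]
  set ε : ℕ → ℝ := fun n => ρ / (n + 1) with hεdef
  have hε : ∀ n, 0 < ε n := fun n => by rw [hεdef]; positivity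
  have hερ : ∀ n, ε n ≤ ρ := fun n => by
    rw [hεdef]
    exact div_le_self hρ.le (by linarith [(Nat.cast_nonneg n : (0 : ℝ) ≤ n)])
  have hlim : Tendsto ε atTop (𝓝 0) := by
    have := tendsto_one_div_add_atTop_nhds_zero_nat.const_mul ρ
    rw [mul_zero] at this
    refine this.congr fun n => ?_
    rw [hεdef]; ring
  have h3 := h1 ε hε hlim
  have h4 := h2 ε hε hlim
  rw [indicator_of_mem ht] at h3 h4
  have ha1 : ∀ n, t1 < t - ε n := fun n => by linarith [hερ n]
  have ha2 : ∀ n, t + ε n < t2 := fun n => by linarith [hερ n]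
  choose p hp q hq e1 e2 using fun n => hE (stp t (ε n)) (stp_stp (hε n) (ha1 n) (ha2 n))
  have h5 : Tendsto (fun n => κ * ∫ v, ker k t (ε n) v * (c v - a v)) atTop (𝓝 (κ * (c t - a t))) := by
    refine (h3.const_mul κ).congr fun n => ?_
    rw [← int_ind (hε n) (ha1 n) (ha2 n)]
  have h6 : Tendsto (fun n => κ * ∫ v, ker k t (ε n) v * (c v * yc v - a v * ya v)) atTop
      (𝓝 (κ * (c t * yc t - a t * ya t))) := by
    refine (h4.const_mul κ).congr fun n => ?_
    rw [← int_ind (hε n) (ha1 n) (ha2 n)]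
  exact four_ends h5 h6 (Eventually.of_forall hp) (Eventually.of_forall hq)
    (Eventually.of_forall e1) (Eventually.of_forall e2)

/-- **step up** (`W = {t1 < lo u, sg < lo x}`) -/
theorem cnt_up {k : ℕ} (hk : k ≠ 0) (hf : IntegrableOn (fun t => c t - a t) (Ioo t1 t2))
    (hg : IntegrableOn (fun t => c t * yc t - a t * ya t) (Ioo t1 t2))
    (hE : ∀ h, Stp t1 t2 h → ∃ p ∈ Icc (0 : ℝ) 1, ∃ q ∈ Icc (0 : ℝ) 1,
      (∫ t, deriv (fun v => h v ^ k) t * (c t - a t)) + q - p = 0 ∧
      (∫ t, deriv (fun v => h v ^ k) t * (c t * yc t - a t * ya t)) + b * q - (b + s) * p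
        ∈ Icc (-s) 0) :
    ∀ᵐ t : ℝ, t ∈ Ioo t1 t2 →
      (a t = 1 → c t = 0 → ya t ∈ Icc b (b + s)) ∧ (a t = 0 → c t = 1 → yc t ∈ Icc b (b + s)) := by
  have h := cnt (a := a) (c := c) (ya := ya) (yc := yc) (b := b) (s := s) 1 hk hf hg
    (by simpa only [one_mul] using hE)
  filter_upwards [h] with t ht h1
  obtain ⟨h2, h3⟩ := ht h1
  constructor
  · intro ha hc
    obtain ⟨h4, h5⟩ := h2 (by rw [ha, hc]; norm_num)
    rw [ha, hc] at h4 h5
    exact ⟨by linarith, by linarith⟩
  · intro ha hc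
    obtain ⟨h4, h5⟩ := h3 (by rw [ha, hc]; norm_num)
    rw [ha, hc] at h4 h5
    exact ⟨by linarith, by linarith⟩

/-- **step down** (`W = {up u < t2, sg < lo x}`): the `u`-step is `1 - h` or `h` reversed, so the
`u`-part has the opposite sign -/
theorem cnt_dn {k : ℕ} (hk : k ≠ 0) (hf : IntegrableOn (fun t => c t - a t) (Ioo t1 t2))
    (hg : IntegrableOn (fun t => c t * yc t - a t * ya t) (Ioo t1 t2))
    (hE : ∀ h, Stp t1 t2 h → ∃ p ∈ Icc (0 : ℝ) 1, ∃ q ∈ Icc (0 : ℝ) 1,
      -(∫ t, deriv (fun v => h v ^ k) t * (c t - a t)) + q - p = 0 ∧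
      -(∫ t, deriv (fun v => h v ^ k) t * (c t * yc t - a t * ya t)) + b * q - (b + s) * p
        ∈ Icc (-s) 0) :
    ∀ᵐ t : ℝ, t ∈ Ioo t1 t2 →
      (a t = 1 → c t = 0 → ya t ∈ Icc b (b + s)) ∧ (a t = 0 → c t = 1 → yc t ∈ Icc b (b + s)) := by
  have h := cnt (a := a) (c := c) (ya := ya) (yc := yc) (b := b) (s := s) (-1) hk hf hg
    (by simpa only [neg_one_mul] using hE)
  filter_upwards [h] with t ht h1
  obtain ⟨h2, h3⟩ := ht h1
  constructor
  · intro ha hc
    obtain ⟨h4, h5⟩ := h3 (by rw [ha, hc]; norm_num)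
    rw [ha, hc] at h4 h5
    exact ⟨by linarith, by linarith⟩
  · intro ha hc
    obtain ⟨h4, h5⟩ := h2 (by rw [ha, hc]; norm_num)
    rw [ha, hc] at h4 h5
    exact ⟨by linarith, by linarith⟩

end

end Crest.Agent.R105.Cnt_116
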