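import Crest.Agent.R105.Cnt1_116

/-!
# Row 105 (S0138), node E13, PTW of 499 #11465 from BAL (1-D Lebesgue points + compactness)

Helper116.  `lp_core`: a closed condition on `(∫ (h^k)' f, ∫ (h^k)' g)` for all steps `h` passes to
`(f t, g t)` for almost every `t`.  `ptw` / `ptw_dn`: the literal of 499 for steps up / down in `u`.
`ptw_top`, `ptw_bot`: the arithmetic of the ends.
-/

set_option autoImplicit false

open MeasureTheory Set Filter Topology Metric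
open scoped ContDiff

namespace Crest.Agent.R105.Cnt_116

variable {t1 t2 : ℝ}

/-- the abstract form -/
theorem lp_core {k : ℕ} (hk : k ≠ 0) {f g : ℝ → ℝ} (hf : IntegrableOn f (Ioo t1 t2))
    (hg : IntegrableOn g (Ioo t1 t2)) {S : Set (ℝ × ℝ)} (hS : IsClosed S)
    (hE : ∀ h, Stp t1 t2 h →
      ((∫ t, deriv (fun v => h v ^ k) t * f t), (∫ t, deriv (fun v => h v ^ k) t * g t)) ∈ S) :
    ∀ᵐ t : ℝ, t ∈ Ioo t1 t2 → (f t, g t) ∈ S := by
  have hf' := (integrable_indicator_iff measurableSet_Ioo).2 hf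
  have hg' := (integrable_indicator_iff measurableSet_Ioo).2 hg
  filter_upwards [ker_tendsto hk hf', ker_tendsto hk hg'] with t h1 h2 ht
  obtain ⟨ρ, hρ, hρ1, hρ2⟩ : ∃ ρ : ℝ, 0 < ρ ∧ t1 < t - ρ ∧ t + ρ < t2 := by
    refine ⟨min (t - t1) (t2 - t) / 2, ?_, ?_, ?_⟩
    · have := lt_min (sub_pos.2 ht.1) (sub_pos.2 ht.2); positivity
    · have := min_le_left (t - t1) (t2 - t)
      have h3 := lt_min (sub_pos.2 ht.1) (sub_pos.2 ht.2)
      linarith [sub_pos.2 ht.1]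
    · have := min_le_right (t - t1) (t2 - t)
      linarith [sub_pos.2 ht.2]
  set ε : ℕ → ℝ := fun n => ρ / (n + 1) with hεdef
  have hε : ∀ n, 0 < ε n := fun n => by rw [hεdef]; positivity
  have hερ : ∀ n, ε n ≤ ρ := fun n => by
    rw [hεdef]
    exact div_le_self hρ.le (by linarith [(Nat.cast_nonneg n : (0 : ℝ) ≤ n)])
  have hlim : Tendsto ε atTop (𝓝 0) := by
    have := tendsto_one_div_add_atTop_nhds_zero_nat.const_mul ρ
    rw [mul_zero] at this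
    refine this.congr fun n => ?_
    rw [hεdef]; ring
  have h3 := h1 ε hε hlim
  have h4 := h2 ε hε hlim
  rw [indicator_of_mem ht] at h3 h4
  have ha1 : ∀ n, t1 < t - ε n := fun n => by linarith [hερ n]
  have ha2 : ∀ n, t + ε n < t2 := fun n => by linarith [hερ n]
  have h5 : Tendsto (fun n => ∫ v, ker k t (ε n) v * f v) atTop (𝓝 (f t)) :=
    h3.congr fun n => by rw [← int_ind (hε n) (ha1 n) (ha2 n)]
  have h6 : Tendsto (fun n => ∫ v, ker k t (ε n) v * g v) atTop (𝓝 (g t)) :=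
    h4.congr fun n => by rw [← int_ind (hε n) (ha1 n) (ha2 n)]
  exact hS.mem_of_tendsto (h5.prodMk_nhds h6)
    (Eventually.of_forall fun n => hE (stp t (ε n)) (stp_stp (hε n) (ha1 n) (ha2 n)))

/-- smooth step from `1` down to `0` inside `(t1, t2)` -/
structure StpD (t1 t2 : ℝ) (H : ℝ → ℝ) : Prop where
  sm : ContDiff ℝ ∞ H
  anti : Antitone H
  lo : ∃ t, t1 < t ∧ ∀ v ≤ t, H v = 1
  hi : ∃ t, t < t2 ∧ ∀ v, t ≤ v → H v = 0

theorem Stp.dn {h : ℝ → ℝ} (H : Stp (-t2) (-t1) h) : StpD t1 t2 (fun v => h (-v)) where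
  sm := H.sm.comp contDiff_neg
  anti := fun _ _ hvw => H.mono (neg_le_neg hvw)
  lo := by
    obtain ⟨t, ht, h1⟩ := H.hi
    exact ⟨-t, by linarith, fun v hv => h1 _ (by linarith)⟩
  hi := by
    obtain ⟨t, ht, h1⟩ := H.lo
    exact ⟨-t, by linarith, fun v hv => h1 _ (by linarith)⟩

/-- the abstract form for steps down: `-(H^k)'` is the approximate identity -/
theorem lp_core_dn {k : ℕ} (hk : k ≠ 0) {f g : ℝ → ℝ} (hf : IntegrableOn f (Ioo t1 t2))
    (hg : IntegrableOn g (Ioo t1 t2)) {S : Set (ℝ × ℝ)} (hS : IsClosed S)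
    (hE : ∀ H, StpD t1 t2 H →
      (-(∫ t, deriv (fun v => H v ^ k) t * f t), -(∫ t, deriv (fun v => H v ^ k) t * g t)) ∈ S) :
    ∀ᵐ t : ℝ, t ∈ Ioo t1 t2 → (f t, g t) ∈ S := by
  have hneg : ∀ {F : ℝ → ℝ}, IntegrableOn F (Ioo t1 t2) →
      IntegrableOn (fun t => F (-t)) (Ioo (-t2) (-t1)) := by
    intro F hF
    have h1 := (integrable_indicator_iff measurableSet_Ioo).2 hF
    have h2 := h1.comp_neg
    refine (integrable_indicator_iff measurableSet_Ioo).1 (h2.congr (ae_of_all _ fun v => ?_))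
    simp only [indicator_apply, mem_Ioo]
    have : (t1 < -v ∧ -v < t2) ↔ (-t2 < v ∧ v < -t1) :=
      ⟨fun h => ⟨by linarith [h.2], by linarith [h.1]⟩, fun h => ⟨by linarith [h.2], by linarith [h.1]⟩⟩
    simp only [this]
  have hint : ∀ (F h : ℝ → ℝ), ∫ t, deriv (fun v => h v ^ k) t * F (-t) =
      -∫ t, deriv (fun v => h (-v) ^ k) t * F t := by
    intro F h
    rw [← integral_neg, ← integral_neg_eq_self (fun t => deriv (fun v => h v ^ k) t * F (-t))]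
    refine integral_congr_ae (ae_of_all _ fun t => ?_)
    have := deriv_comp_neg (fun v => h v ^ k) t
    simp only [neg_neg] at this ⊢
    rw [this]
    ring
  have h := lp_core (t1 := -t2) (t2 := -t1) hk (hneg hf) (hneg hg) hS (fun h hh => by
    rw [hint f h, hint g h]
    exact hE _ hh.dn)
  have h' : ∀ᵐ t : ℝ, -t ∈ Ioo (-t2) (-t1) → (f (- -t), g (- -t)) ∈ S := by
    have := (Measure.measurePreserving_neg (volume : Measure ℝ)).quasiMeasurePreserving.ae h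
    exact this
  filter_upwards [h'] with t ht h1
  rw [neg_neg] at ht
  exact ht ⟨by linarith [h1.2], by linarith [h1.1]⟩

/-- the closed set of the balance -/
def BS (e b s : ℝ) : Set (ℝ × ℝ) :=
  {w | ∃ lT ∈ Icc (0 : ℝ) 1, ∃ lB ∈ Icc (0 : ℝ) 1,
    e * w.1 + lT - lB = 0 ∧ e * w.2 + lT * (b + s) - lB * b ∈ Icc 0 s}

theorem isClosed_BS (e b s : ℝ) : IsClosed (BS e b s) := by
  have h1 : IsClosed {w : (Icc (0 : ℝ) 1 × Icc (0 : ℝ) 1) × (ℝ × ℝ) |
      e * w.2.1 + (w.1.1 : ℝ) - (w.1.2 : ℝ) = 0 ∧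
      e * w.2.2 + (w.1.1 : ℝ) * (b + s) - (w.1.2 : ℝ) * b ∈ Icc 0 s} := by
    refine IsClosed.inter (isClosed_eq (by fun_prop) continuous_const) ?_
    exact isClosed_Icc.preimage (by fun_prop)
  have h2 := isClosedMap_snd_of_compactSpace _ h1
  convert h2 using 1
  ext w
  simp only [BS, mem_ofPred_eq, mem_image, Prod.exists, Subtype.exists, exists_prop]
  constructor
  · rintro ⟨lT, h1, lB, h2, h3, h4⟩
    exact ⟨lT, h1, lB, h2, w.1, w.2, ⟨h3, h4⟩, rfl⟩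
  · rintro ⟨lT, h1, lB, h2, u, v, ⟨h3, h4⟩, rfl⟩
    exact ⟨lT, h1, lB, h2, h3, h4⟩

section

variable {k : ℕ} {e b s : ℝ} {nT nB yT yB : ℝ → ℝ}

/-- **PTW from BAL, steps up** -/
theorem ptw (hk : k ≠ 0) (hf : IntegrableOn (fun t => nT t - nB t) (Ioo t1 t2))
    (hg : IntegrableOn (fun t => nT t * yT t - nB t * yB t) (Ioo t1 t2))
    (hE : ∀ h, Stp t1 t2 h → ∃ lT ∈ Icc (0 : ℝ) 1, ∃ lB ∈ Icc (0 : ℝ) 1,
      e * (∫ t, deriv (fun v => h v ^ k) t * (nT t - nB t)) + lT - lB = 0 ∧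
      e * (∫ t, deriv (fun v => h v ^ k) t * (nT t * yT t - nB t * yB t)) + lT * (b + s) - lB * b
        ∈ Icc 0 s) :
    ∀ᵐ t : ℝ, t ∈ Ioo t1 t2 → ∃ lT ∈ Icc (0 : ℝ) 1, ∃ lB ∈ Icc (0 : ℝ) 1,
      e * (nT t - nB t) + lT - lB = 0 ∧
      e * (nT t * yT t - nB t * yB t) + lT * (b + s) - lB * b ∈ Icc 0 s :=
  lp_core hk hf hg (isClosed_BS e b s) hE

/-- **PTW from BAL, steps down** (`-(H^k)'` is the approximate identity) -/
theorem ptw_dn (hk : k ≠ 0) (hf : IntegrableOn (fun t => nT t - nB t) (Ioo t1 t2))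
    (hg : IntegrableOn (fun t => nT t * yT t - nB t * yB t) (Ioo t1 t2))
    (hE : ∀ H, StpD t1 t2 H → ∃ lT ∈ Icc (0 : ℝ) 1, ∃ lB ∈ Icc (0 : ℝ) 1,
      e * (-∫ t, deriv (fun v => H v ^ k) t * (nT t - nB t)) + lT - lB = 0 ∧
      e * (-∫ t, deriv (fun v => H v ^ k) t * (nT t * yT t - nB t * yB t)) + lT * (b + s) - lB * b
        ∈ Icc 0 s) :
    ∀ᵐ t : ℝ, t ∈ Ioo t1 t2 → ∃ lT ∈ Icc (0 : ℝ) 1, ∃ lB ∈ Icc (0 : ℝ) 1,
      e * (nT t - nB t) + lT - lB = 0 ∧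
      e * (nT t * yT t - nB t * yB t) + lT * (b + s) - lB * b ∈ Icc 0 s :=
  lp_core_dn hk hf hg (isClosed_BS e b s) hE

end

/-- the top end alone in `O` (`e = 1` or `e = -1`) -/
theorem ptw_top {e b s nT nB yT yB : ℝ} (he : e = 1 ∨ e = -1)
    (h : ∃ lT ∈ Icc (0 : ℝ) 1, ∃ lB ∈ Icc (0 : ℝ) 1, e * (nT - nB) + lT - lB = 0 ∧
      e * (nT * yT - nB * yB) + lT * (b + s) - lB * b ∈ Icc 0 s)
    (hT : nT = 1) (hB : nB = 0) : yT ∈ Icc b (b + s) := by
  obtain ⟨lT, h1, lB, h2, h3, h4⟩ := h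
  subst hT hB
  rcases he with rfl | rfl
  · have e1 : lT = 0 := by linarith [h1.1, h2.2]
    have e2 : lB = 1 := by linarith
    subst e1 e2
    exact ⟨by linarith [h4.1], by linarith [h4.2]⟩
  · have e1 : lB = 0 := by linarith [h1.2, h2.1]
    have e2 : lT = 1 := by linarith
    subst e1 e2
    exact ⟨by linarith [h4.2], by linarith [h4.1]⟩

/-- the bottom end alone in `O` -/
theorem ptw_bot {e b s nT nB yT yB : ℝ} (he : e = 1 ∨ e = -1)
    (h : ∃ lT ∈ Icc (0 : ℝ) 1, ∃ lB ∈ Icc (0 : ℝ) 1, e * (nT - nB) + lT - lB = 0 ∧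
      e * (nT * yT - nB * yB) + lT * (b + s) - lB * b ∈ Icc 0 s)
    (hT : nT = 0) (hB : nB = 1) : yB ∈ Icc b (b + s) := by
  obtain ⟨lT, h1, lB, h2, h3, h4⟩ := h
  subst hT hB
  rcases he with rfl | rfl
  · have e1 : lB = 0 := by linarith [h1.2, h2.1]
    have e2 : lT = 1 := by linarith
    subst e1 e2
    exact ⟨by linarith [h4.2], by linarith [h4.1]⟩
  · have e1 : lT = 0 := by linarith [h1.1, h2.2]
    have e2 : lB = 1 := by linarith
    subst e1 e2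
    exact ⟨by linarith [h4.1], by linarith [h4.2]⟩

end Crest.Agent.R105.Cnt_116
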