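import Mathlib

/-!
Courant-Lebesgue on axis-parallel squares (everything is Tonelli on lines).
-/

open MeasureTheory Set
open scoped ENNReal NNReal

namespace Crest.Agent.R105.Sq_363

/-- open square with centre `p` and half side `s` -/
def Qo (p : ℝ × ℝ) (s : ℝ) : Set (ℝ × ℝ) :=
  Ioo (p.1 - s) (p.1 + s) ×ˢ Ioo (p.2 - s) (p.2 + s)

/-- sum of the integrals of `u` over the four sides of the square with centre `p`, half side `s` -/
noncomputable def bq (u : ℝ × ℝ → ℝ≥0∞) (p : ℝ × ℝ) (s : ℝ) : ℝ≥0∞ :=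
  ((∫⁻ t in Icc (p.2 - s) (p.2 + s), u (p.1 + s, t)) +
  (∫⁻ t in Icc (p.2 - s) (p.2 + s), u (p.1 - s, t))) +
  ((∫⁻ t in Icc (p.1 - s) (p.1 + s), u (t, p.2 + s)) +
  (∫⁻ t in Icc (p.1 - s) (p.1 + s), u (t, p.2 - s)))

/-- Cauchy-Schwarz -/
theorem cs {α : Type*} [MeasurableSpace α] (μ : Measure α) {f : α → ℝ≥0∞} (hf : AEMeasurable f μ) :
    (∫⁻ x, f x ∂μ) ^ 2 ≤ μ univ * ∫⁻ x, f x ^ 2 ∂μ := by
  have h := ENNReal.lintegral_mul_le_Lp_mul_Lq μ Real.HolderConjugate.two_two hf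
    (aemeasurable_const (b := (1 : ℝ≥0∞)))
  simp only [Pi.mul_apply, mul_one, ENNReal.rpow_two, one_pow, lintegral_one] at h
  have h2 : (∫⁻ x, f x ∂μ) ^ 2 ≤ ((∫⁻ x, f x ^ 2 ∂μ) ^ (1 / (2:ℝ)) * (μ univ) ^ (1 / (2:ℝ))) ^ 2 :=
    pow_le_pow_left₀ zero_le h 2
  refine h2.trans (le_of_eq ?_)
  rw [mul_pow, ← ENNReal.rpow_natCast, ← ENNReal.rpow_natCast, ← ENNReal.rpow_mul,
    ← ENNReal.rpow_mul]
  norm_num
  rw [mul_comm]

theorem sq_sum2 (x y : ℝ≥0∞) : (x + y) ^ 2 ≤ 4 * (x ^ 2 + y ^ 2) := by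
  rcases le_total x y with h | h
  · calc (x + y) ^ 2 ≤ (y + y) ^ 2 := by gcongr
      _ = 4 * y ^ 2 := by ring
      _ ≤ 4 * (x ^ 2 + y ^ 2) := by gcongr; exact le_add_self
  · calc (x + y) ^ 2 ≤ (x + x) ^ 2 := by gcongr
      _ = 4 * x ^ 2 := by ring
      _ ≤ 4 * (x ^ 2 + y ^ 2) := by gcongr; exact le_self_add

theorem sq_sum4 (a b c d : ℝ≥0∞) :
    ((a + b) + (c + d)) ^ 2 ≤ 16 * ((a ^ 2 + b ^ 2) + (c ^ 2 + d ^ 2)) := by
  calc ((a + b) + (c + d)) ^ 2 ≤ 4 * ((a + b) ^ 2 + (c + d) ^ 2) := sq_sum2 _ _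
    _ ≤ 4 * (4 * (a ^ 2 + b ^ 2) + 4 * (c ^ 2 + d ^ 2)) := by
        gcongr <;> exact sq_sum2 _ _
    _ = 16 * ((a ^ 2 + b ^ 2) + (c ^ 2 + d ^ 2)) := by ring

variable {u : ℝ × ℝ → ℝ≥0∞} {p : ℝ × ℝ}

theorem mvert (hu : Measurable u) (x : ℝ) : Measurable fun t => u (x, t) :=
  hu.comp measurable_prodMk_left

theorem mhor (hu : Measurable u) (y : ℝ) : Measurable fun t => u (t, y) :=
  hu.comp measurable_prodMk_right

theorem bq_mono {u v : ℝ × ℝ → ℝ≥0∞} (h : ∀ x, u x ≤ v x) (s : ℝ) : bq u p s ≤ bq v p s := by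
  unfold bq
  gcongr <;> exact h _

theorem bq_add {u v : ℝ × ℝ → ℝ≥0∞} (hu : Measurable u) (s : ℝ) :
    bq (fun q => u q + v q) p s = bq u p s + bq v p s := by
  unfold bq
  rw [lintegral_add_left (mvert hu _), lintegral_add_left (mvert hu _),
    lintegral_add_left (mhor hu _), lintegral_add_left (mhor hu _)]
  ring

theorem side_cs {f : ℝ → ℝ≥0∞} (hf : Measurable f) (a s : ℝ) :
    (∫⁻ t in Icc (a - s) (a + s), f t) ^ 2 ≤
      ENNReal.ofReal (2 * s) * ∫⁻ t in Icc (a - s) (a + s), f t ^ 2 := by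
  have h := cs (volume.restrict (Icc (a - s) (a + s))) hf.aemeasurable
  rw [Measure.restrict_apply_univ, Real.volume_Icc] at h
  convert h using 3
  ring

/-- Cauchy-Schwarz on the boundary of a square -/
theorem bq_sq (hu : Measurable u) (s : ℝ) :
    (bq u p s) ^ 2 ≤ 16 * (ENNReal.ofReal (2 * s) * bq (fun q => u q ^ 2) p s) := by
  unfold bq
  refine (sq_sum4 _ _ _ _).trans ?_
  gcongr
  rw [mul_add, mul_add, mul_add]
  gcongr
  · exact side_cs (mvert hu _) _ _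
  · exact side_cs (mvert hu _) _ _
  · exact side_cs (mhor hu _) _ _
  · exact side_cs (mhor hu _) _ _

/-- Tonelli: right/left sides -/
theorem int_side {g : ℝ × ℝ → ℝ≥0∞} (hg : Measurable g) (p : ℝ × ℝ) {r R : ℝ} (hr : 0 ≤ r)
    (σ : ℝ) (hσ : σ = 1 ∨ σ = -1) :
    ∫⁻ s in Ioo r R, ∫⁻ t in Icc (p.2 - s) (p.2 + s), g (p.1 + σ * s, t) ≤
      ∫⁻ q in Qo p R, g q := by
  have h1 : ∫⁻ s in Ioo r R, ∫⁻ t in Icc (p.2 - s) (p.2 + s), g (p.1 + σ * s, t) ≤
      ∫⁻ s in Ioo r R, ∫⁻ t in Ioo (p.2 - R) (p.2 + R), g (p.1 + σ * s, t) := by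
    refine setLIntegral_mono' measurableSet_Ioo fun s hs => ?_
    refine lintegral_mono_set fun t ht => ⟨?_, ?_⟩
    · linarith [ht.1, hs.2]
    · linarith [ht.2, hs.2]
  refine h1.trans ?_
  have h2 : ∫⁻ q in Qo p R, g q =
      ∫⁻ x in Ioo (p.1 - R) (p.1 + R), ∫⁻ t in Ioo (p.2 - R) (p.2 + R), g (x, t) := by
    unfold Qo
    rw [Measure.volume_eq_prod, ← Measure.prod_restrict, lintegral_prod _ hg.aemeasurable]
  rw [h2]
  set G : ℝ → ℝ≥0∞ := fun x => ∫⁻ t in Ioo (p.2 - R) (p.2 + R), g (x, t) with hG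
  have hGm : Measurable G := Measurable.lintegral_prod_right' hg
  have hmp : MeasurePreserving (fun s : ℝ => p.1 + σ * s) volume volume := by
    rcases hσ with rfl | rfl
    · simpa using measurePreserving_add_left volume p.1
    · have := (measurePreserving_add_left (volume : Measure ℝ) p.1).comp
        (Measure.measurePreserving_neg (volume : Measure ℝ))
      convert this using 1
      ext s; simp
  have h3 : ∫⁻ s in Ioo r R, G (p.1 + σ * s) ≤
      ∫⁻ s in (fun s : ℝ => p.1 + σ * s) ⁻¹' (Ioo (p.1 - R) (p.1 + R)), G (p.1 + σ * s) := by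
    refine lintegral_mono_set fun s hs => ?_
    rcases hσ with rfl | rfl
    · refine ⟨?_, ?_⟩ <;> simp only [one_mul] <;> linarith [hs.1, hs.2]
    · refine ⟨?_, ?_⟩ <;> simp only [neg_mul, one_mul] <;> linarith [hs.1, hs.2]
  refine h3.trans (le_of_eq ?_)
  exact hmp.setLIntegral_comp_preimage measurableSet_Ioo hGm


theorem meas_side {g : ℝ × ℝ → ℝ≥0∞} (hg : Measurable g) (p : ℝ × ℝ) (σ : ℝ) :
    Measurable fun s : ℝ => ∫⁻ t in Icc (p.2 - s) (p.2 + s), g (p.1 + σ * s, t) := by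
  have h : (fun s : ℝ => ∫⁻ t in Icc (p.2 - s) (p.2 + s), g (p.1 + σ * s, t)) =
      fun s : ℝ => ∫⁻ t, ({q : ℝ × ℝ | p.2 - q.1 ≤ q.2 ∧ q.2 ≤ p.2 + q.1}.indicator
        (fun q : ℝ × ℝ => g (p.1 + σ * q.1, q.2))) (s, t) := by
    ext s
    rw [← lintegral_indicator measurableSet_Icc]
    refine lintegral_congr fun t => ?_
    by_cases ht : t ∈ Icc (p.2 - s) (p.2 + s)
    · rw [indicator_of_mem ht, indicator_of_mem (show (s, t) ∈
        {q : ℝ × ℝ | p.2 - q.1 ≤ q.2 ∧ q.2 ≤ p.2 + q.1} from ⟨ht.1, ht.2⟩)]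
    · rw [indicator_of_notMem ht, indicator_of_notMem]
      exact fun h => ht ⟨h.1, h.2⟩
  rw [h]
  refine Measurable.lintegral_prod_right' (f := ({q : ℝ × ℝ | p.2 - q.1 ≤ q.2 ∧
    q.2 ≤ p.2 + q.1}.indicator (fun q : ℝ × ℝ => g (p.1 + σ * q.1, q.2)))) ?_
  refine Measurable.indicator ?_ ?_
  · exact hg.comp ((measurable_const.add (measurable_const.mul measurable_fst)).prodMk
      measurable_snd)
  · exact (measurableSet_le (measurable_const.sub measurable_fst) measurable_snd).inter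
      (measurableSet_le measurable_snd (measurable_const.add measurable_fst))

theorem bq_eq (u : ℝ × ℝ → ℝ≥0∞) (p : ℝ × ℝ) (s : ℝ) :
    bq u p s = ((∫⁻ t in Icc (p.2 - s) (p.2 + s), u (p.1 + 1 * s, t)) +
    (∫⁻ t in Icc (p.2 - s) (p.2 + s), u (p.1 + (-1) * s, t))) +
    ((∫⁻ t in Icc (p.swap.2 - s) (p.swap.2 + s), (u ∘ Prod.swap) (p.swap.1 + 1 * s, t)) +
    (∫⁻ t in Icc (p.swap.2 - s) (p.swap.2 + s), (u ∘ Prod.swap) (p.swap.1 + (-1) * s, t))) := by
  unfold bq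
  simp only [one_mul, neg_mul, Function.comp, Prod.swap_prod_mk, Prod.fst_swap, Prod.snd_swap,
    sub_eq_add_neg]

theorem meas_bq (hu : Measurable u) (p : ℝ × ℝ) : Measurable (bq u p) := by
  have : bq u p = fun s => bq u p s := rfl
  rw [this]
  simp_rw [bq_eq u p]
  have hs : Measurable (u ∘ Prod.swap) := hu.comp measurable_swap
  exact ((meas_side hu p 1).add (meas_side hu p (-1))).add
    ((meas_side hs p.swap 1).add (meas_side hs p.swap (-1)))

theorem int_swap {g : ℝ × ℝ → ℝ≥0∞} (hg : Measurable g) (p : ℝ × ℝ) (R : ℝ) :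
    ∫⁻ q in Qo p.swap R, (g ∘ Prod.swap) q = ∫⁻ q in Qo p R, g q := by
  have hmp : MeasurePreserving (Prod.swap : ℝ × ℝ → ℝ × ℝ) volume volume := by
    rw [Measure.volume_eq_prod]; exact Measure.measurePreserving_swap
  have hpre : Prod.swap ⁻¹' (Qo p R) = Qo p.swap R := by
    ext q; simp [Qo, and_comm]
  rw [← hpre]
  exact hmp.setLIntegral_comp_preimage (measurableSet_Ioo.prod measurableSet_Ioo) hg

/-- Tonelli for the boundaries of concentric squares -/
theorem int_bq {g : ℝ × ℝ → ℝ≥0∞} (hg : Measurable g) (p : ℝ × ℝ) {r R : ℝ} (hr : 0 ≤ r) :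
    ∫⁻ s in Ioo r R, bq g p s ≤ 4 * ∫⁻ q in Qo p R, g q := by
  have hs : Measurable (g ∘ Prod.swap) := hg.comp measurable_swap
  simp_rw [bq_eq g p]
  have hadd : Measurable fun s : ℝ => (∫⁻ t in Icc (p.2 - s) (p.2 + s), g (p.1 + 1 * s, t)) +
      ∫⁻ t in Icc (p.2 - s) (p.2 + s), g (p.1 + (-1) * s, t) :=
    (meas_side hg p 1).add (meas_side hg p (-1))
  rw [lintegral_add_left hadd,
    lintegral_add_left (meas_side hg p 1), lintegral_add_left (meas_side hs p.swap 1)]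
  have e1 := int_side hg p (r := r) (R := R) hr 1 (Or.inl rfl)
  have e2 := int_side hg p (r := r) (R := R) hr (-1) (Or.inr rfl)
  have e3 := int_side hs p.swap (r := r) (R := R) hr 1 (Or.inl rfl)
  have e4 := int_side hs p.swap (r := r) (R := R) hr (-1) (Or.inr rfl)
  rw [int_swap hg] at e3 e4
  calc _ ≤ ((∫⁻ q in Qo p R, g q) + (∫⁻ q in Qo p R, g q)) +
        ((∫⁻ q in Qo p R, g q) + (∫⁻ q in Qo p R, g q)) :=
      add_le_add (add_le_add e1 e2) (add_le_add e3 e4)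
    _ = 4 * ∫⁻ q in Qo p R, g q := by ring

/-- `∫ (bq u)² / s ds ≤ 128 ∫ u²` -/
theorem int_bq_sq (hu : Measurable u) (p : ℝ × ℝ) {r R : ℝ} (hr : 0 ≤ r) :
    ∫⁻ s in Ioo r R, ENNReal.ofReal (1 / s) * (bq u p s) ^ 2 ≤ 128 * ∫⁻ q in Qo p R, u q ^ 2 := by
  have h1 : ∫⁻ s in Ioo r R, ENNReal.ofReal (1 / s) * (bq u p s) ^ 2 ≤
      ∫⁻ s in Ioo r R, 32 * bq (fun q => u q ^ 2) p s := by
    refine setLIntegral_mono' measurableSet_Ioo fun s hs => ?_
    have hs0 : 0 < s := lt_of_le_of_lt hr hs.1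
    calc ENNReal.ofReal (1 / s) * (bq u p s) ^ 2
        ≤ ENNReal.ofReal (1 / s) * (16 * (ENNReal.ofReal (2 * s) * bq (fun q => u q ^ 2) p s)) := by
          gcongr; exact bq_sq hu s
      _ = (16 * (ENNReal.ofReal (1 / s) * ENNReal.ofReal (2 * s))) *
            bq (fun q => u q ^ 2) p s := by ring
      _ = 32 * bq (fun q => u q ^ 2) p s := by
          rw [← ENNReal.ofReal_mul (by positivity)]
          have : 1 / s * (2 * s) = 2 := by field_simp
          rw [this]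
          norm_num
  refine h1.trans ?_
  rw [lintegral_const_mul _ (meas_bq (hu.pow_const 2) p)]
  calc _ ≤ 32 * (4 * ∫⁻ q in Qo p R, u q ^ 2) := by
        gcongr; exact int_bq (hu.pow_const 2) p hr
    _ = 128 * ∫⁻ q in Qo p R, u q ^ 2 := by ring

/-- average principle with the measure `ds / s` -/
theorem exists_le_log {h : ℝ → ℝ≥0∞} (hh : Measurable h) {r R : ℝ} (hr : 0 < r) (hR : r < R)
    {N : Set ℝ} (hN : volume N = 0) :
    ∃ s ∈ Ioo r R, s ∉ N ∧
      h s * ENNReal.ofReal (Real.log (R / r)) ≤ ∫⁻ s in Ioo r R, ENNReal.ofReal (1 / s) * h s := by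
  set w : ℝ → ℝ≥0∞ := fun s => ENNReal.ofReal (1 / s) with hw
  have hwm : Measurable w := by
    exact ENNReal.measurable_ofReal.comp (measurable_const.div measurable_id)
  set μ : Measure ℝ := (volume.restrict (Ioo r R)).withDensity w with hμ
  have htot : μ univ = ENNReal.ofReal (Real.log (R / r)) := by
    rw [hμ, withDensity_apply _ MeasurableSet.univ, Measure.restrict_univ]
    have hint : IntervalIntegrable (fun s : ℝ => 1 / s) volume r R := by
      refine ContinuousOn.intervalIntegrable ?_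
      refine ContinuousOn.div continuousOn_const continuousOn_id ?_
      intro x hx
      rw [uIcc_of_le hR.le] at hx
      exact (lt_of_lt_of_le hr hx.1).ne'
    have hI : ∫ s in Ioo r R, 1 / s = Real.log (R / r) := by
      rw [← integral_Ioc_eq_integral_Ioo, ← intervalIntegral.integral_of_le hR.le,
        integral_one_div_of_pos hr (hr.trans hR)]
    rw [← hI, ofReal_integral_eq_lintegral_ofReal]
    · exact ((intervalIntegrable_iff_integrableOn_Ioo_of_le hR.le).1 hint)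
    · refine (ae_restrict_iff' measurableSet_Ioo).2 (Filter.Eventually.of_forall fun s hs => ?_)
      have : 0 < s := hr.trans hs.1
      show (0:ℝ) ≤ 1 / s
      positivity
  have hlog : 0 < Real.log (R / r) := Real.log_pos ((one_lt_div hr).2 hR)
  have hne : μ ≠ 0 := by
    intro h0
    rw [h0] at htot
    simp only [Measure.coe_zero, Pi.zero_apply] at htot
    have := ENNReal.ofReal_pos.2 hlog
    rw [← htot] at this
    exact lt_irrefl _ this
  have hnull : μ (N ∪ (Ioo r R)ᶜ) = 0 := by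
    rw [measure_union_null_iff]
    constructor
    · have hac : μ ≪ volume := (withDensity_absolutelyContinuous _ _).trans
        Measure.restrict_le_self.absolutelyContinuous
      exact hac hN
    · have hac : μ ≪ volume.restrict (Ioo r R) := withDensity_absolutelyContinuous _ _
      apply hac
      rw [Measure.restrict_apply measurableSet_Ioo.compl]
      simp
  have : IsFiniteMeasure μ := ⟨by rw [htot]; exact ENNReal.ofReal_lt_top⟩
  obtain ⟨s, hs, hle⟩ := exists_notMem_null_le_laverage hne hh.aemeasurable hnull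
  have hs1 : s ∉ N := fun h => hs (Or.inl h)
  have hs2 : s ∈ Ioo r R := by
    by_contra h
    exact hs (Or.inr h)
  refine ⟨s, hs2, hs1, ?_⟩
  rw [laverage_eq, htot] at hle
  have hfin : ENNReal.ofReal (Real.log (R / r)) ≠ ∞ := ENNReal.ofReal_ne_top
  have hpos : ENNReal.ofReal (Real.log (R / r)) ≠ 0 := (ENNReal.ofReal_pos.2 hlog).ne'
  rw [ENNReal.le_div_iff_mul_le (Or.inl hpos) (Or.inl hfin)] at hle
  refine hle.trans (le_of_eq ?_)
  rw [hμ, lintegral_withDensity_eq_lintegral_mul _ hwm hh]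
  rfl

/-- **Courant-Lebesgue on squares.** -/
theorem exists_good (hu : Measurable u) (p : ℝ × ℝ) {r R : ℝ} (hr : 0 < r) (hR : r < R)
    {N : Set ℝ} (hN : volume N = 0) :
    ∃ s ∈ Ioo r R, s ∉ N ∧
      (bq u p s) ^ 2 * ENNReal.ofReal (Real.log (R / r)) ≤ 128 * ∫⁻ q in Qo p R, u q ^ 2 := by
  obtain ⟨s, hs, hsN, h⟩ := exists_le_log ((meas_bq hu p).pow_const 2) hr hR hN
  exact ⟨s, hs, hsN, h.trans (int_bq_sq hu p hr.le)⟩

/-- two functions at the same radius -/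
theorem exists_good2 {v : ℝ × ℝ → ℝ≥0∞} (hu : Measurable u) (hv : Measurable v) (p p' : ℝ × ℝ)
    {r R : ℝ} (hr : 0 < r) (hR : r < R) {N : Set ℝ} (hN : volume N = 0) :
    ∃ s ∈ Ioo r R, s ∉ N ∧
      ((bq u p s) ^ 2 + (bq v p' s) ^ 2) * ENNReal.ofReal (Real.log (R / r)) ≤
        128 * (∫⁻ q in Qo p R, u q ^ 2) + 128 * ∫⁻ q in Qo p' R, v q ^ 2 := by
  obtain ⟨s, hs, hsN, h⟩ := exists_le_log (((meas_bq hu p).pow_const 2).add
    ((meas_bq hv p').pow_const 2)) hr hR hN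
  refine ⟨s, hs, hsN, h.trans ?_⟩
  simp_rw [Pi.add_apply, mul_add]
  rw [lintegral_add_left]
  · exact add_le_add (int_bq_sq hu p hr.le) (int_bq_sq hv p' hr.le)
  · exact (ENNReal.measurable_ofReal.comp (measurable_const.div measurable_id)).mul
      ((meas_bq hu p).pow_const 2)

/-- if `u²` is integrable near `p`, then for every `ε > 0` there are arbitrarily small good squares
with boundary integral `< ε` -/
theorem exists_small (hu : Measurable u) (p : ℝ × ℝ) {R : ℝ} (hR : 0 < R)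
    (hfin : ∫⁻ q in Qo p R, u q ^ 2 ≠ ∞) {N : Set ℝ} (hN : volume N = 0) {ε : ℝ≥0∞} (hε : 0 < ε) :
    ∃ s ∈ Ioo 0 R, s ∉ N ∧ bq u p s < ε := by
  by_contra hcon
  push Not at hcon
  wlog hε1 : ε ≤ 1 generalizing ε
  · refine this (ε := min ε 1) (lt_min hε one_pos) (fun s hs hsN => ?_) (min_le_right _ _)
    exact (min_le_left _ _).trans (hcon s hs hsN)
  have hεtop : ε ≠ ∞ := ne_top_of_le_ne_top ENNReal.one_ne_top hε1
  -- choose r with ε² log (R/r) > 128 ∫
  have key : ∀ r ∈ Ioo 0 R, ε ^ 2 * ENNReal.ofReal (Real.log (R / r)) ≤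
      128 * ∫⁻ q in Qo p R, u q ^ 2 := by
    intro r hr
    obtain ⟨s, hs, hsN, h⟩ := exists_good hu p hr.1 hr.2 hN
    refine le_trans ?_ h
    gcongr
    exact hcon s ⟨hr.1.trans hs.1, hs.2⟩ hsN
  set C : ℝ≥0∞ := 128 * ∫⁻ q in Qo p R, u q ^ 2 with hC
  have hCtop : C ≠ ∞ := ENNReal.mul_ne_top (by norm_num) hfin
  have hε2 : ε ^ 2 ≠ 0 := pow_ne_zero _ hε.ne'
  have hε2t : ε ^ 2 ≠ ∞ := ENNReal.pow_ne_top hεtop
  set D : ℝ := (C / ε ^ 2).toReal with hD
  have hDt : C / ε ^ 2 ≠ ∞ := ENNReal.div_ne_top hCtop hε2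
  have hr : R * Real.exp (-(D + 1)) ∈ Ioo 0 R := by
    refine ⟨by positivity, ?_⟩
    have : Real.exp (-(D + 1)) < 1 := by
      rw [Real.exp_lt_one_iff]
      have : 0 ≤ D := ENNReal.toReal_nonneg
      linarith
    calc R * Real.exp (-(D + 1)) < R * 1 := by gcongr
      _ = R := mul_one _
  have h1 := key _ hr
  have h2 : Real.log (R / (R * Real.exp (-(D + 1)))) = D + 1 := by
    rw [div_mul_eq_div_div, div_self hR.ne', one_div, ← Real.exp_neg, neg_neg, Real.log_exp]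
  rw [h2, mul_comm, ← ENNReal.le_div_iff_mul_le (Or.inl hε2) (Or.inl hε2t)] at h1
  have h3 := (ENNReal.ofReal_le_iff_le_toReal hDt).1 h1
  linarith

end Crest.Agent.R105.Sq_363
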