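import Crest.Agent.R105.Cof3_430
import Crest.Agent.R105.Sq1_363
import Crest.Agent.R105.Bd1_775

/-!
# Row 105, S0138, CONV 1 (helper755): good circles (Courant-Lebesgue) around any centre

* `good_circle` : `f` locally Lipschitz on the open set `O`, the closed annulus
  `a ≤ dist z p ≤ b` in `O`, energy over the open annulus at most `E`: there is `t ∈ (a, b)` with
  `(f z - f w)^2 ≤ 2 π E / log (b / a)` on the circle of radius `t`
-/

set_option autoImplicit false

open MeasureTheory Set Filter Topology Metric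
open scoped NNReal ENNReal Real

namespace Crest.Agent.R105.Cnv_755

open Crest.Agent.R105.Cof_430 (pt pt_eq continuous_pt hasDerivAt_pt norm_cs lint_polar lint_sq)
open Crest.Agent.R105.Bd_775 (gx gy en en_eq)

theorem dist_pt (p : ℂ) {t : ℝ} (ht : 0 ≤ t) (θ : ℝ) : dist (pt p t θ) p = t := by
  rw [pt, dist_eq_norm, add_sub_cancel_left, norm_mul, norm_cs, mul_one, Complex.norm_real,
    Real.norm_of_nonneg ht]

theorem exists_pt {p z : ℂ} {t : ℝ} (h : dist z p = t) : ∃ θ ∈ Icc (-π) π, z = pt p t θ := by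
  refine ⟨Complex.arg (z - p), ⟨(Complex.neg_pi_lt_arg _).le, Complex.arg_le_pi _⟩, ?_⟩
  have h1 : ‖z - p‖ = t := by rw [← h, dist_eq_norm]
  have h2 := Complex.norm_mul_cos_add_sin_mul_I (z - p)
  rw [h1] at h2
  rw [pt, Complex.ofReal_cos, Complex.ofReal_sin, h2]
  ring

theorem lipschitz_pt (p : ℂ) {t : ℝ} (ht : 0 ≤ t) : LipschitzWith t.toNNReal (pt p t) := by
  refine lipschitzWith_of_nnnorm_deriv_le (fun θ => (hasDerivAt_pt p t θ).differentiableAt) ?_
  intro θ
  rw [(hasDerivAt_pt p t θ).deriv, ← NNReal.coe_le_coe, coe_nnnorm, Real.coe_toNNReal _ ht]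
  have e : (-Real.sin θ + Real.cos θ * Complex.I : ℂ) =
      Complex.I * (Real.cos θ + Real.sin θ * Complex.I) := by
    have := Complex.I_mul_I
    linear_combination (-Real.sin θ : ℂ) * this
  rw [e, norm_mul, norm_mul, norm_cs, Complex.norm_I, Complex.norm_real,
    Real.norm_of_nonneg ht, one_mul, mul_one]

/-- the variation along the circle is bounded by the integral of the gradient -/
theorem osc_circle {O : Set ℂ} {f : ℂ → ℝ} (hf : LocallyLipschitzOn O f) {p : ℂ}
    {t : ℝ} (ht : 0 < t) (hsub : sphere p t ⊆ O)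
    (hd : ∀ᵐ θ ∂(volume.restrict (Ioo (-π) π)), DifferentiableAt ℝ f (pt p t θ)) {z w : ℂ}
    (hz : dist z p = t) (hw : dist w p = t) :
    ENNReal.ofReal |f z - f w| ≤
      ∫⁻ θ in Ioo (-π) π, ENNReal.ofReal t * ENNReal.ofReal ‖fderiv ℝ f (pt p t θ)‖ := by
  -- Lipschitz on the circle
  obtain ⟨K, hK⟩ := (hf.mono hsub).exists_lipschitzOnWith_of_compact (isCompact_sphere p t)
  have hL : LipschitzWith (K * t.toNNReal) (fun θ => f (pt p t θ)) := by
    have h1 : LipschitzOnWith (K * t.toNNReal) (f ∘ pt p t) univ :=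
      hK.comp ((lipschitz_pt p ht.le).lipschitzOnWith (s := univ)) (fun θ _ => by
        rw [mem_sphere]; exact dist_pt p ht.le θ)
    exact lipschitzOnWith_univ.1 h1
  -- wlog ordered angles
  have key : ∀ θ1 ∈ Icc (-π) π, ∀ θ2 ∈ Icc (-π) π, θ1 ≤ θ2 →
      ENNReal.ofReal |f (pt p t θ2) - f (pt p t θ1)| ≤
      ∫⁻ θ in Ioo (-π) π, ENNReal.ofReal t * ENNReal.ofReal ‖fderiv ℝ f (pt p t θ)‖ := by
    intro θ1 h1 θ2 h2 h12
    have hac : AbsolutelyContinuousOnInterval (fun θ => f (pt p t θ)) θ1 θ2 :=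
      (hL.lipschitzOnWith (s := uIcc θ1 θ2)).absolutelyContinuousOnInterval
    have hftc := hac.integral_deriv_eq_sub
    have hsubI : Ioc θ1 θ2 ⊆ Icc (-π) π := fun x hx => ⟨h1.1.trans hx.1.le, hx.2.trans h2.2⟩
    have e1 : (volume.restrict (Icc (-π) π) : Measure ℝ) = volume.restrict (Ioo (-π) π) :=
      Measure.restrict_congr_set Ioo_ae_eq_Icc.symm
    rw [← hftc, intervalIntegral.integral_of_le h12, ← Real.norm_eq_abs]
    calc ENNReal.ofReal ‖∫ x in Ioc θ1 θ2, deriv (fun θ => f (pt p t θ)) x‖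
        ≤ ∫⁻ x in Ioc θ1 θ2, ENNReal.ofReal ‖deriv (fun θ => f (pt p t θ)) x‖ := by
          rw [ofReal_norm]
          refine (enorm_integral_le_lintegral_enorm _).trans (le_of_eq ?_)
          refine lintegral_congr fun x => ?_
          rw [ofReal_norm]
      _ ≤ ∫⁻ x in Icc (-π) π, ENNReal.ofReal ‖deriv (fun θ => f (pt p t θ)) x‖ :=
          lintegral_mono_set hsubI
      _ = ∫⁻ x in Ioo (-π) π, ENNReal.ofReal ‖deriv (fun θ => f (pt p t θ)) x‖ := by rw [e1]
      _ ≤ _ := by
          refine lintegral_mono_ae ?_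
          filter_upwards [hd] with θ hθ
          have h3 : HasDerivAt (fun θ => f (pt p t θ))
              (fderiv ℝ f (pt p t θ) (t * (-Real.sin θ + Real.cos θ * Complex.I))) θ :=
            hθ.hasFDerivAt.comp_hasDerivAt θ (hasDerivAt_pt p t θ)
          rw [h3.deriv, ← ENNReal.ofReal_mul ht.le]
          refine ENNReal.ofReal_le_ofReal ?_
          refine ((fderiv ℝ f (pt p t θ)).le_opNorm _).trans ?_
          have e : (-Real.sin θ + Real.cos θ * Complex.I : ℂ) =
              Complex.I * (Real.cos θ + Real.sin θ * Complex.I) := by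
            have := Complex.I_mul_I
            linear_combination (-Real.sin θ : ℂ) * this
          rw [e, norm_mul, norm_mul, norm_cs, Complex.norm_I, Complex.norm_real,
            Real.norm_of_nonneg ht.le, one_mul, mul_one, mul_comm]
  obtain ⟨θ1, h1, rfl⟩ := exists_pt hz
  obtain ⟨θ2, h2, rfl⟩ := exists_pt hw
  rcases le_total θ1 θ2 with h | h
  · rw [abs_sub_comm]
    exact key θ1 h1 θ2 h2 h
  · exact key θ2 h2 θ1 h1 h

/-- **good circle** -/
theorem good_circle {O : Set ℂ} (hO : IsOpen O) {f : ℂ → ℝ} (hf : LocallyLipschitzOn O f) {p : ℂ}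
    {a b : ℝ} (ha : 0 < a) (hab : a < b) (hsub : ∀ z, a < dist z p → dist z p < b → z ∈ O) {E : ℝ}
    (hE : ∫⁻ z in {z | dist z p ∈ Ioo a b}, ENNReal.ofReal (en f z) ≤ ENNReal.ofReal E) :
    ∃ t ∈ Ioo a b, ∀ z w, dist z p = t → dist w p = t →
      (f z - f w) ^ 2 * Real.log (b / a) ≤ 2 * π * max E 0 := by
  set G : ℂ → ℝ≥0∞ := fun z => ENNReal.ofReal ‖fderiv ℝ f z‖ with hG
  have hGm : Measurable G := (measurable_fderiv ℝ f).norm.ennreal_ofReal
  have hG2 : ∀ z, G z ^ 2 = ENNReal.ofReal (en f z) := by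
    intro z
    rw [hG, en_eq, ← ENNReal.ofReal_pow (norm_nonneg _)]
  -- the null set
  set D : Set ℂ := {z | DifferentiableAt ℝ f z}ᶜ ∩ {z | dist z p ∈ Ioo a b} with hD
  have hAm : MeasurableSet {z : ℂ | dist z p ∈ Ioo a b} :=
    (isOpen_Ioo.preimage (continuous_id.dist continuous_const)).measurableSet
  have hDm : MeasurableSet D :=
    (measurableSet_of_differentiableAt ℝ f).compl.inter hAm
  have hD0 : volume D = 0 := by
    have h1 := Bd_775.ae_diff hO hf
    rw [ae_restrict_iff' hO.measurableSet] at h1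
    refine measure_mono_null ?_ h1
    rintro z ⟨h2, h3⟩ h4
    exact h2 (h4 (hsub z h3.1 h3.2))
  have hpm : Measurable fun q : ℝ × ℝ => pt p q.1 q.2 := by
    unfold pt
    fun_prop
  have hN : ∀ᵐ t ∂(volume.restrict (Ioo a b)),
      ∀ᵐ θ ∂(volume.restrict (Ioo (-π) π)), DifferentiableAt ℝ f (pt p t θ) := by
    have h1 := lint_polar (G := D.indicator 1) (measurable_one.indicator hDm) p (b := b) ha.le
    rw [lintegral_indicator_one hDm] at h1
    have h2 : volume.restrict {z | dist z p ∈ Ioo a b} D = 0 :=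
      le_antisymm ((Measure.restrict_apply_le _ _).trans hD0.le) zero_le
    rw [h2] at h1
    have hm : Measurable fun t : ℝ => ∫⁻ θ in Ioo (-π) π,
        ENNReal.ofReal t * D.indicator 1 (pt p t θ) := by
      refine Measurable.lintegral_prod_right' (f := fun q : ℝ × ℝ =>
        ENNReal.ofReal q.1 * D.indicator 1 (pt p q.1 q.2)) ?_
      exact (ENNReal.measurable_ofReal.comp measurable_fst).mul
        ((measurable_one.indicator hDm).comp hpm)
    have h3 := (lintegral_eq_zero_iff hm).1 h1
    filter_upwards [h3, ae_restrict_mem measurableSet_Ioo] with t ht htm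
    have ht0 : 0 < t := ha.trans htm.1
    have hm2 : Measurable fun θ : ℝ => ENNReal.ofReal t * D.indicator (1 : ℂ → ℝ≥0∞) (pt p t θ) :=
      ((measurable_one.indicator hDm).comp (continuous_pt p t).measurable).const_mul _
    have h4 := (lintegral_eq_zero_iff hm2).1 ht
    filter_upwards [h4] with θ hθ
    by_contra h5
    have h6 : pt p t θ ∈ D := ⟨h5, by
      show dist (pt p t θ) p ∈ Ioo a b
      rw [dist_pt p ht0.le]; exact htm⟩
    have h7 : ENNReal.ofReal t * D.indicator (1 : ℂ → ℝ≥0∞) (pt p t θ) = 0 := hθ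
    rw [indicator_of_mem h6, Pi.one_apply, mul_one, ENNReal.ofReal_eq_zero] at h7
    linarith
  rw [ae_restrict_iff' measurableSet_Ioo] at hN
  -- the length function
  set L : ℝ → ℝ≥0∞ := fun t => ∫⁻ θ in Ioo (-π) π, ENNReal.ofReal t * G (pt p t θ) with hLdef
  have hLm : Measurable L := by
    refine Measurable.lintegral_prod_right' (f := fun q : ℝ × ℝ =>
      ENNReal.ofReal q.1 * G (pt p q.1 q.2)) ?_
    exact (ENNReal.measurable_ofReal.comp measurable_fst).mul (hGm.comp hpm)
  obtain ⟨t, ht, htN, hLt⟩ := Crest.Agent.R105.Sq_363.exists_le_log (hLm.pow_const 2) ha hab hN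
  have hgood : ∀ᵐ θ ∂(volume.restrict (Ioo (-π) π)), DifferentiableAt ℝ f (pt p t θ) := by
    by_contra h
    exact htN (fun h' => h (h' ht))
  have ht0 : 0 < t := ha.trans ht.1
  have hsph : sphere p t ⊆ O := fun z hz => by
    rw [mem_sphere] at hz
    exact hsub z (by rw [hz]; exact ht.1) (by rw [hz]; exact ht.2)
  -- total bound
  have hb : ∫⁻ s in Ioo a b, ENNReal.ofReal (1 / s) * L s ^ 2 ≤
      ENNReal.ofReal (2 * π * max E 0) := by
    calc ∫⁻ s in Ioo a b, ENNReal.ofReal (1 / s) * L s ^ 2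
        ≤ ∫⁻ s in Ioo a b, ENNReal.ofReal (2 * π) *
            ∫⁻ θ in Ioo (-π) π, ENNReal.ofReal s * G (pt p s θ) ^ 2 := by
          refine setLIntegral_mono' measurableSet_Ioo fun s hs => ?_
          have hs0 : 0 < s := ha.trans hs.1
          have h1 := lint_sq (μ := volume.restrict (Ioo (-π) π))
            (g := fun θ => ENNReal.ofReal s * G (pt p s θ))
            ((hGm.comp (continuous_pt p s).measurable).const_mul _).aemeasurable
          have h2 : (volume.restrict (Ioo (-π) π)) univ = ENNReal.ofReal (2 * π) := by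
            rw [Measure.restrict_apply_univ, Real.volume_Ioo]
            congr 1; ring
          rw [h2] at h1
          have h3 : ∫⁻ θ in Ioo (-π) π, (ENNReal.ofReal s * G (pt p s θ)) ^ 2 =
              ENNReal.ofReal s * ∫⁻ θ in Ioo (-π) π, ENNReal.ofReal s * G (pt p s θ) ^ 2 := by
            rw [← lintegral_const_mul]
            · refine lintegral_congr fun θ => ?_
              ring
            · exact ((hGm.comp (continuous_pt p s).measurable).pow_const 2).const_mul _
          rw [h3] at h1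
          calc ENNReal.ofReal (1 / s) * L s ^ 2 ≤ ENNReal.ofReal (1 / s) *
                ((ENNReal.ofReal s * ∫⁻ θ in Ioo (-π) π, ENNReal.ofReal s * G (pt p s θ) ^ 2) *
                  ENNReal.ofReal (2 * π)) := by gcongr
            _ = (ENNReal.ofReal (1 / s) * ENNReal.ofReal s) * (ENNReal.ofReal (2 * π) *
                ∫⁻ θ in Ioo (-π) π, ENNReal.ofReal s * G (pt p s θ) ^ 2) := by ring
            _ = _ := by
                rw [← ENNReal.ofReal_mul (by positivity)]
                have : 1 / s * s = 1 := by field_simp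
                rw [this, ENNReal.ofReal_one, one_mul]
      _ = ENNReal.ofReal (2 * π) * ∫⁻ z in {z | dist z p ∈ Ioo a b}, G z ^ 2 := by
          rw [← lint_polar (hGm.pow_const 2) p ha.le, lintegral_const_mul]
          refine Measurable.lintegral_prod_right' (f := fun q : ℝ × ℝ =>
            ENNReal.ofReal q.1 * G (pt p q.1 q.2) ^ 2) ?_
          exact (ENNReal.measurable_ofReal.comp measurable_fst).mul ((hGm.comp hpm).pow_const 2)
      _ ≤ ENNReal.ofReal (2 * π) * ENNReal.ofReal (max E 0) := by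
          gcongr
          simp only [hG2]
          exact hE.trans (ENNReal.ofReal_le_ofReal (le_max_left _ _))
      _ = _ := by rw [← ENNReal.ofReal_mul (by positivity)]
  refine ⟨t, ht, fun z w hz hw => ?_⟩
  have h1 := osc_circle hf ht0 hsph hgood hz hw
  have hlog : 0 < Real.log (b / a) := Real.log_pos ((one_lt_div ha).2 hab)
  have h2 : ENNReal.ofReal ((f z - f w) ^ 2 * Real.log (b / a)) ≤
      ENNReal.ofReal (2 * π * max E 0) := by
    rw [ENNReal.ofReal_mul (sq_nonneg _), ← sq_abs, ENNReal.ofReal_pow (abs_nonneg _)]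
    calc ENNReal.ofReal |f z - f w| ^ 2 * ENNReal.ofReal (Real.log (b / a))
        ≤ L t ^ 2 * ENNReal.ofReal (Real.log (b / a)) := by gcongr
      _ ≤ _ := hLt.trans hb
  exact (ENNReal.ofReal_le_ofReal_iff (by positivity)).1 h2

end Crest.Agent.R105.Cnv_755
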