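import Crest.Agent.R105.Cnv1_755

/-!
# Row 105, S0138, CONV 2 (helper755): averages along segments

* `line_avg` : `w` locally Lipschitz on the open set `O`, `ball p η + [0, 1] v ⊆ O`, energy over `O`
  at most `E`: there is `a ∈ ball p η` with `(w (a + v) - w a)^2 * (π η^2) ≤ ‖v‖^2 E`
-/

set_option autoImplicit false

open MeasureTheory Set Filter Topology Metric
open scoped NNReal ENNReal Real

namespace Crest.Agent.R105.Cnv_755

open Crest.Agent.R105.Cof_430 (lint_sq)
open Crest.Agent.R105.Bd_775 (gx gy en en_eq)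

theorem line_avg {O : Set ℂ} (hO : IsOpen O) {w : ℂ → ℝ} (hw : LocallyLipschitzOn O w) {p v : ℂ}
    {η : ℝ} (hη : 0 < η) (hsub : ∀ s ∈ Icc (0:ℝ) 1, ∀ a ∈ ball p η, a + s * v ∈ O) {E : ℝ}
    (hE0 : 0 ≤ E) (hE : ∫⁻ z in O, ENNReal.ofReal (en w z) ≤ ENNReal.ofReal E) :
    ∃ a ∈ ball p η, (w (a + v) - w a) ^ 2 * (π * η ^ 2) ≤ ‖v‖ ^ 2 * E := by
  set G : ℂ → ℝ≥0∞ := fun z => ENNReal.ofReal ‖fderiv ℝ w z‖ with hG
  have hGm : Measurable G := (measurable_fderiv ℝ w).norm.ennreal_ofReal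
  have hG2 : ∀ z, G z ^ 2 = ENNReal.ofReal (en w z) := by
    intro z
    rw [hG, en_eq, ← ENNReal.ofReal_pow (norm_nonneg _)]
  set g : ℂ → ℝ≥0∞ := O.indicator G with hg
  have hgm : Measurable g := hGm.indicator hO.measurableSet
  -- the null set
  set D : Set ℂ := {z | DifferentiableAt ℝ w z}ᶜ ∩ O with hD
  have hDm : MeasurableSet D := (measurableSet_of_differentiableAt ℝ w).compl.inter hO.measurableSet
  have hD0 : volume D = 0 := by
    have h1 := Bd_775.ae_diff hO hw
    rw [ae_restrict_iff' hO.measurableSet] at h1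
    refine measure_mono_null ?_ h1
    rintro z ⟨h2, h3⟩ h4
    exact h2 (h4 h3)
  have hpm : Measurable fun q : ℂ × ℝ => q.1 + (q.2 : ℂ) * v := by fun_prop
  have hN : ∀ᵐ a : ℂ, ∀ᵐ s : ℝ ∂(volume.restrict (Icc (0:ℝ) 1)), a + (s : ℂ) * v ∉ D := by
    have h1 : ∫⁻ a : ℂ, ∫⁻ s : ℝ in Icc (0:ℝ) 1,
        D.indicator (1 : ℂ → ℝ≥0∞) (a + (s : ℂ) * v) = 0 := by
      rw [lintegral_lintegral_swap (f := fun (a : ℂ) (s : ℝ) =>
        D.indicator (1 : ℂ → ℝ≥0∞) (a + (s : ℂ) * v))
        (((measurable_one.indicator hDm).comp hpm).aemeasurable)]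
      have h2 : ∀ s : ℝ, ∫⁻ a : ℂ, D.indicator (1 : ℂ → ℝ≥0∞) (a + (s : ℂ) * v) = 0 := by
        intro s
        rw [lintegral_add_right_eq_self (fun a => D.indicator (1 : ℂ → ℝ≥0∞) a),
          lintegral_indicator_one hDm, hD0]
      simp only [h2, lintegral_zero]
    have hm : Measurable fun a : ℂ => ∫⁻ s : ℝ in Icc (0:ℝ) 1,
        D.indicator (1 : ℂ → ℝ≥0∞) (a + (s : ℂ) * v) :=
      Measurable.lintegral_prod_right' (f := fun q : ℂ × ℝ =>
        D.indicator (1 : ℂ → ℝ≥0∞) (q.1 + (q.2 : ℂ) * v)) ((measurable_one.indicator hDm).comp hpm)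
    have h3 := (lintegral_eq_zero_iff hm).1 h1
    filter_upwards [h3] with a ha
    have hm2 : Measurable fun s : ℝ => D.indicator (1 : ℂ → ℝ≥0∞) (a + (s : ℂ) * v) :=
      (measurable_one.indicator hDm).comp (by fun_prop)
    have h4 := (lintegral_eq_zero_iff hm2).1 ha
    filter_upwards [h4] with s hs h5
    have h6 : D.indicator (1 : ℂ → ℝ≥0∞) (a + (s : ℂ) * v) = 0 := hs
    rw [indicator_of_mem h5] at h6
    exact one_ne_zero h6
  -- the fundamental theorem on the segments
  have hF : ∀ᵐ a : ℂ, a ∈ ball p η → ENNReal.ofReal |w (a + v) - w a| ≤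
      ∫⁻ s : ℝ in Icc (0:ℝ) 1, ENNReal.ofReal ‖v‖ * g (a + (s : ℂ) * v) := by
    filter_upwards [hN] with a ha hab
    have hseg : ∀ s ∈ Icc (0:ℝ) 1, a + (s : ℂ) * v ∈ O := fun s hs => hsub s hs a hab
    have hcl : LipschitzWith ‖v‖₊ (fun s : ℝ => a + (s : ℂ) * v) := by
      refine LipschitzWith.of_dist_le_mul fun s t => ?_
      rw [dist_add_left, dist_eq_norm, ← sub_mul, norm_mul, mul_comm, ← Complex.ofReal_sub,
        Complex.norm_real, coe_nnnorm, Real.dist_eq, Real.norm_eq_abs]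
    have hcpt : IsCompact ((fun s : ℝ => a + (s : ℂ) * v) '' Icc (0:ℝ) 1) :=
      isCompact_Icc.image hcl.continuous
    have him : (fun s : ℝ => a + (s : ℂ) * v) '' Icc (0:ℝ) 1 ⊆ O := by
      rintro _ ⟨s, hs, rfl⟩
      exact hseg s hs
    obtain ⟨K, hK⟩ := (hw.mono him).exists_lipschitzOnWith_of_compact hcpt
    have hL : LipschitzOnWith (K * ‖v‖₊) (fun s : ℝ => w (a + (s : ℂ) * v)) (uIcc (0:ℝ) 1) := by
      rw [uIcc_of_le zero_le_one]
      exact hK.comp (hcl.lipschitzOnWith (s := Icc (0:ℝ) 1)) (fun s hs => mem_image_of_mem _ hs)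
    have hftc := hL.absolutelyContinuousOnInterval.integral_deriv_eq_sub
    simp only [Complex.ofReal_one, one_mul, Complex.ofReal_zero, zero_mul, add_zero] at hftc
    rw [← hftc, intervalIntegral.integral_of_le zero_le_one, ← Real.norm_eq_abs]
    have e1 : (volume.restrict (Ioc (0:ℝ) 1) : Measure ℝ) = volume.restrict (Icc (0:ℝ) 1) :=
      Measure.restrict_congr_set Ioc_ae_eq_Icc
    rw [e1, ofReal_norm]
    refine (enorm_integral_le_lintegral_enorm _).trans ?_
    refine lintegral_mono_ae ?_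
    filter_upwards [ha, ae_restrict_mem measurableSet_Icc] with s hs hsI
    have hsO := hseg s hsI
    have hdf : DifferentiableAt ℝ w (a + (s : ℂ) * v) := by
      by_contra h
      exact hs ⟨h, hsO⟩
    have h2 : HasDerivAt (fun s : ℝ => a + (s : ℂ) * v) v s := by
      have h := ((Complex.ofRealCLM.hasDerivAt (x := s)).mul_const v).const_add a
      simpa using h
    have h3 : HasDerivAt (fun s : ℝ => w (a + (s : ℂ) * v)) (fderiv ℝ w (a + (s : ℂ) * v) v) s :=
      hdf.hasFDerivAt.comp_hasDerivAt s h2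
    rw [h3.deriv, hg, indicator_of_mem hsO, ← ENNReal.ofReal_mul (norm_nonneg _), ← ofReal_norm]
    refine ENNReal.ofReal_le_ofReal ?_
    exact ((fderiv ℝ w (a + (s : ℂ) * v)).le_opNorm v).trans (le_of_eq (mul_comm _ _))
  -- the square integral
  have hI : ∫⁻ a in ball p η, ENNReal.ofReal ((w (a + v) - w a) ^ 2) ≤
      ENNReal.ofReal (‖v‖ ^ 2 * E) := by
    calc ∫⁻ a in ball p η, ENNReal.ofReal ((w (a + v) - w a) ^ 2)
        ≤ ∫⁻ a in ball p η, ∫⁻ s : ℝ in Icc (0:ℝ) 1,
            ENNReal.ofReal (‖v‖ ^ 2) * g (a + (s : ℂ) * v) ^ 2 := by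
          refine lintegral_mono_ae ?_
          rw [ae_restrict_iff' measurableSet_ball]
          filter_upwards [hF] with a ha hab
          have h1 := ha hab
          have h2 := lint_sq (μ := volume.restrict (Icc (0:ℝ) 1))
            (g := fun s : ℝ => ENNReal.ofReal ‖v‖ * g (a + (s : ℂ) * v))
            ((hgm.comp (by fun_prop : Measurable fun s : ℝ => a + (s : ℂ) * v)).const_mul
              _).aemeasurable
          rw [Measure.restrict_apply_univ, Real.volume_Icc, sub_zero, ENNReal.ofReal_one,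
            mul_one] at h2
          rw [← sq_abs, ENNReal.ofReal_pow (abs_nonneg _)]
          refine ((pow_le_pow_left₀ zero_le h1 2).trans h2).trans (le_of_eq ?_)
          refine lintegral_congr fun s => ?_
          rw [mul_pow, ← ENNReal.ofReal_pow (norm_nonneg _)]
      _ ≤ ∫⁻ a : ℂ, ∫⁻ s : ℝ in Icc (0:ℝ) 1,
            ENNReal.ofReal (‖v‖ ^ 2) * g (a + (s : ℂ) * v) ^ 2 := setLIntegral_le_lintegral _ _
      _ = ∫⁻ s : ℝ in Icc (0:ℝ) 1, ∫⁻ a : ℂ,
            ENNReal.ofReal (‖v‖ ^ 2) * g (a + (s : ℂ) * v) ^ 2 := by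
          rw [lintegral_lintegral_swap]
          exact (((hgm.comp hpm).pow_const 2).const_mul _).aemeasurable
      _ = ∫⁻ s : ℝ in Icc (0:ℝ) 1, ENNReal.ofReal (‖v‖ ^ 2) * ∫⁻ a : ℂ, g a ^ 2 := by
          refine lintegral_congr fun s => ?_
          rw [lintegral_const_mul]
          · rw [lintegral_add_right_eq_self (fun a => g a ^ 2)]
          · exact (hgm.comp (by fun_prop : Measurable fun a : ℂ => a + (s : ℂ) * v)).pow_const 2
      _ = ENNReal.ofReal (‖v‖ ^ 2) * ∫⁻ z in O, ENNReal.ofReal (en w z) := by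
          rw [lintegral_const, Measure.restrict_apply_univ, Real.volume_Icc, sub_zero,
            ENNReal.ofReal_one, mul_one, ← lintegral_indicator hO.measurableSet]
          congr 1
          refine lintegral_congr fun z => ?_
          rw [hg]
          by_cases hz : z ∈ O
          · rw [indicator_of_mem hz, indicator_of_mem hz, hG2]
          · rw [indicator_of_notMem hz, indicator_of_notMem hz]
            simp
      _ ≤ ENNReal.ofReal (‖v‖ ^ 2) * ENNReal.ofReal E := by gcongr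
      _ = _ := by rw [← ENNReal.ofReal_mul (by positivity)]
  have hb0 : volume (ball p η) ≠ 0 := (measure_ball_pos volume p hη).ne'
  have hbt : volume (ball p η) ≠ ∞ := measure_ball_lt_top.ne
  have hc1 : ContinuousOn (fun a => (w (a + v) - w a) ^ 2) (ball p η) := by
    have h1 : ContinuousOn w O := hw.continuousOn
    refine ((ContinuousOn.comp (t := O) h1 (by fun_prop) ?_).sub (h1.mono ?_)).pow 2
    · intro a ha
      have := hsub 1 ⟨zero_le_one, le_rfl⟩ a ha
      simpa using this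
    · intro a ha
      have := hsub 0 ⟨le_rfl, zero_le_one⟩ a ha
      simpa using this
  obtain ⟨a, ha, hle⟩ := exists_le_setLAverage hb0 hbt
    ((hc1.aemeasurable measurableSet_ball).ennreal_ofReal)
  refine ⟨a, ha, ?_⟩
  rw [setLAverage_eq, ENNReal.le_div_iff_mul_le (Or.inl hb0) (Or.inl hbt)] at hle
  have hv : volume (ball p η) = ENNReal.ofReal (π * η ^ 2) := by
    rw [Complex.volume_ball, ENNReal.ofReal_mul Real.pi_pos.le, ENNReal.ofReal_pow hη.le, mul_comm]
    congr 1
    rw [← NNReal.coe_real_pi, ENNReal.ofReal_coe_nnreal]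
  rw [hv, ← ENNReal.ofReal_mul (sq_nonneg _)] at hle
  exact (ENNReal.ofReal_le_ofReal_iff (by positivity)).1 (hle.trans hI)

end Crest.Agent.R105.Cnv_755
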