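import Crest.Agent.R105.Cnv2_755

/-!
# Row 105, S0138, CONV 3 (helper755): locally uniform convergence

* `NoIs U u` : weak maximum / minimum principle on discs with boundary in `U`
* `CSeq U u` : locally Lipschitz, `NoIs`, gradients Cauchy in `L²(U)`
* `CSeq.equi` : equicontinuity on compact subsets; `CSeq.cauchy_ball`; `CSeq.exists_limit`:
  `u n - u n z0` converges locally uniformly on `U` (`U` open, preconnected); `CSeq.bdd`
-/

set_option autoImplicit false

open MeasureTheory Set Filter Topology Metric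
open scoped NNReal ENNReal Real

namespace Crest.Agent.R105.Cnv_755

open Crest.Agent.R105.Bd_775 (gx gy en en_eq)

/-- weak maximum and minimum principle -/
structure NoIs (U : Set ℂ) (u : ℂ → ℝ) : Prop where
  mx : ∀ (p : ℂ) (r t : ℝ), 0 < r → sphere p r ⊆ U → (∀ z ∈ sphere p r, u z ≤ t) →
    ∀ z ∈ ball p r ∩ U, u z ≤ t
  mn : ∀ (p : ℂ) (r t : ℝ), 0 < r → sphere p r ⊆ U → (∀ z ∈ sphere p r, t ≤ u z) →
    ∀ z ∈ ball p r ∩ U, t ≤ u z

/-- sequences with Cauchy gradients -/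
structure CSeq (U : Set ℂ) (u : ℕ → ℂ → ℝ) : Prop where
  lip : ∀ n, LocallyLipschitzOn U (u n)
  mono : ∀ n, NoIs U (u n)
  cau : ∀ ε : ℝ, 0 < ε → ∃ N, ∀ m, N ≤ m → ∀ n, N ≤ n →
    ∫⁻ z in U, ENNReal.ofReal (en (fun z => u m z - u n z) z) ≤ ENNReal.ofReal ε

theorem NoIs.circle {U : Set ℂ} (hU : IsOpen U) {u : ℂ → ℝ} (hl : LocallyLipschitzOn U u)
    (hm : NoIs U u) {p : ℂ} {a b : ℝ} (ha : 0 < a) (hab : a < b) (hsub : closedBall p b ⊆ U)
    {E : ℝ} (hE : ∫⁻ z in closedBall p b, ENNReal.ofReal (en u z) ≤ ENNReal.ofReal E) {z w : ℂ}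
    (hz : z ∈ closedBall p a) (hw : w ∈ closedBall p a) :
    (u z - u w) ^ 2 * Real.log (b / a) ≤ 2 * π * max E 0 := by
  obtain ⟨t, ht, h⟩ := good_circle hU hl ha hab
    (fun z h1 h2 => hsub (mem_closedBall.2 h2.le)) (E := E)
    ((lintegral_mono_set (fun z hz => mem_closedBall.2 hz.2.le)).trans hE)
  have ht0 : 0 < t := ha.trans ht.1
  have hs : sphere p t ⊆ U := fun z hz => hsub (mem_closedBall.2 (by
    rw [mem_sphere] at hz; rw [hz]; exact ht.2.le))
  have hc : ContinuousOn u (sphere p t) := hl.continuousOn.mono hs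
  have hne : (sphere p t).Nonempty := NormedSpace.sphere_nonempty.2 ht0.le
  obtain ⟨z1, hz1, hmax⟩ := (isCompact_sphere p t).exists_isMaxOn hne hc
  obtain ⟨z2, hz2, hmin⟩ := (isCompact_sphere p t).exists_isMinOn hne hc
  have hin : ∀ q ∈ closedBall p a, u z2 ≤ u q ∧ u q ≤ u z1 := by
    intro q hq
    have hqb : q ∈ ball p t ∩ U := ⟨mem_ball.2 ((mem_closedBall.1 hq).trans_lt ht.1),
      hsub (closedBall_subset_closedBall hab.le hq)⟩
    exact ⟨hm.mn p t (u z2) ht0 hs (fun z hz => hmin hz) q hqb,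
      hm.mx p t (u z1) ht0 hs (fun z hz => hmax hz) q hqb⟩
  have h1 := h z1 z2 (mem_sphere.1 hz1) (mem_sphere.1 hz2)
  have hlog : 0 < Real.log (b / a) := Real.log_pos ((one_lt_div ha).2 hab)
  obtain ⟨a1, a2⟩ := hin z hz
  obtain ⟨b1, b2⟩ := hin w hw
  have h2 : (u z - u w) ^ 2 ≤ (u z1 - u z2) ^ 2 := by
    rw [← sq_abs (u z - u w)]
    exact pow_le_pow_left₀ (abs_nonneg _) (abs_le.2 ⟨by linarith, by linarith⟩) 2
  exact (mul_le_mul_of_nonneg_right h2 hlog.le).trans h1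

/-- energy of a locally Lipschitz function over a compact set -/
theorem lint_en_lt_top {U : Set ℂ} (hU : IsOpen U) {u : ℂ → ℝ} (hl : LocallyLipschitzOn U u)
    {K : Set ℂ} (hK : IsCompact K) (hKU : K ⊆ U) :
    ∫⁻ z in K, ENNReal.ofReal (en u z) < ∞ := by
  obtain ⟨δ, hδ, hKδ⟩ := hK.exists_cthickening_subset_open hU hKU
  have hK' : IsCompact (cthickening δ K) := hK.cthickening
  obtain ⟨L, hL⟩ := (hl.mono hKδ).exists_lipschitzOnWith_of_compact hK'
  have hb : ∀ z ∈ K, ENNReal.ofReal (en u z) ≤ ENNReal.ofReal ((L : ℝ) ^ 2) := by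
    intro z hz
    refine ENNReal.ofReal_le_ofReal ?_
    rw [en_eq]
    have h1 : cthickening δ K ∈ 𝓝 z := by
      refine mem_of_superset (ball_mem_nhds z hδ) ?_
      intro w hw
      exact mem_cthickening_of_dist_le w z δ K hz (mem_ball.1 hw).le
    exact pow_le_pow_left₀ (norm_nonneg _) (norm_fderiv_le_of_lipschitzOn ℝ h1 hL) 2
  calc ∫⁻ z in K, ENNReal.ofReal (en u z) ≤ ∫⁻ _z in K, ENNReal.ofReal ((L : ℝ) ^ 2) :=
        setLIntegral_mono' hK.measurableSet hb
    _ < ∞ := by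
        rw [lintegral_const, Measure.restrict_apply_univ]
        exact ENNReal.mul_lt_top ENNReal.ofReal_lt_top hK.measure_lt_top

theorem en_le_two {u v : ℂ → ℝ} {z : ℂ} (hu : DifferentiableAt ℝ u z)
    (hv : DifferentiableAt ℝ v z) : en u z ≤ 2 * en (fun z => u z - v z) z + 2 * en v z := by
  have h : fderiv ℝ (fun z => u z - v z) z = fderiv ℝ u z - fderiv ℝ v z := fderiv_fun_sub hu hv
  unfold en gx gy
  rw [h]
  simp only [_root_.sub_apply]
  nlinarith [sq_nonneg (fderiv ℝ u z 1 - 2 * fderiv ℝ v z 1),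
    sq_nonneg (fderiv ℝ u z Complex.I - 2 * fderiv ℝ v z Complex.I)]

variable {U : Set ℂ} {u : ℕ → ℂ → ℝ}

/-- local energies are eventually bounded -/
theorem CSeq.loc_bdd (hU : IsOpen U) (h : CSeq U u) {K : Set ℂ} (hK : IsCompact K) (hKU : K ⊆ U) :
    ∃ (N : ℕ) (E : ℝ), 0 ≤ E ∧ ∀ n, N ≤ n →
      ∫⁻ z in K, ENNReal.ofReal (en (u n) z) ≤ ENNReal.ofReal E := by
  obtain ⟨N, hN⟩ := h.cau 1 one_pos
  have h0 := lint_en_lt_top hU (h.lip N) hK hKU
  set A : ℝ≥0∞ := 2 * ENNReal.ofReal 1 + 2 * ∫⁻ z in K, ENNReal.ofReal (en (u N) z) with hA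
  have hAt : A ≠ ∞ := ENNReal.add_ne_top.2 ⟨ENNReal.mul_ne_top (by norm_num) ENNReal.ofReal_ne_top,
    ENNReal.mul_ne_top (by norm_num) h0.ne⟩
  refine ⟨N, A.toReal, ENNReal.toReal_nonneg, fun n hn => ?_⟩
  rw [ENNReal.ofReal_toReal hAt]
  have hd1 := (ae_restrict_iff' hU.measurableSet).1 (Bd_775.ae_diff hU (h.lip n))
  have hd2 := (ae_restrict_iff' hU.measurableSet).1 (Bd_775.ae_diff hU (h.lip N))
  calc ∫⁻ z in K, ENNReal.ofReal (en (u n) z)
      ≤ ∫⁻ z in K, (2 * ENNReal.ofReal (en (fun z => u n z - u N z) z) +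
          2 * ENNReal.ofReal (en (u N) z)) := by
        refine lintegral_mono_ae ?_
        refine (ae_restrict_iff' hK.measurableSet).2 ?_
        filter_upwards [hd1, hd2] with z h1 h2 hz
        have h3 := en_le_two (h1 (hKU hz)) (h2 (hKU hz))
        refine (ENNReal.ofReal_le_ofReal h3).trans (le_of_eq ?_)
        rw [ENNReal.ofReal_add (mul_nonneg (by norm_num) (Bd_775.en_nonneg _ _))
          (mul_nonneg (by norm_num) (Bd_775.en_nonneg _ _)), ENNReal.ofReal_mul (by norm_num),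
          ENNReal.ofReal_mul (by norm_num), ENNReal.ofReal_ofNat]
    _ = 2 * (∫⁻ z in K, ENNReal.ofReal (en (fun z => u n z - u N z) z)) +
          2 * ∫⁻ z in K, ENNReal.ofReal (en (u N) z) := by
        rw [lintegral_add_left, lintegral_const_mul, lintegral_const_mul]
        · exact (Bd_775.measurable_en _).ennreal_ofReal
        · exact (Bd_775.measurable_en _).ennreal_ofReal
        · exact (Bd_775.measurable_en _).ennreal_ofReal.const_mul _
    _ ≤ A := by
        rw [hA]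
        gcongr
        exact (lintegral_mono_set hKU).trans (hN n hn N le_rfl)

/-- **equicontinuity on compact subsets** -/
theorem CSeq.equi (hU : IsOpen U) (h : CSeq U u) {K : Set ℂ} (hK : IsCompact K) (hKU : K ⊆ U)
    {ε : ℝ} (hε : 0 < ε) {ρ0 : ℝ} (hρ0 : 0 < ρ0) :
    ∃ δ : ℝ, 0 < δ ∧ δ ≤ ρ0 ∧ ∃ N : ℕ, ∀ n, N ≤ n → ∀ z ∈ K, ∀ w, dist w z ≤ δ →
      |u n w - u n z| ≤ ε := by
  obtain ⟨ρ1, hρ1, hKρ1⟩ := hK.exists_cthickening_subset_open hU hKU
  set ρ : ℝ := min ρ1 ρ0 with hρdef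
  have hρ : 0 < ρ := lt_min hρ1 hρ0
  have hKρ : cthickening ρ K ⊆ U := (cthickening_mono (min_le_left _ _) _).trans hKρ1
  obtain ⟨N, E, hE0, hE⟩ := h.loc_bdd hU hK.cthickening hKρ
  -- choose `δ`
  set T : ℝ := 2 * π * max E 0 / ε ^ 2 + 1 with hT
  have hT1 : 1 ≤ T := by
    rw [hT]
    have : 0 ≤ 2 * π * max E 0 / ε ^ 2 := by positivity
    linarith
  set δ : ℝ := ρ * Real.exp (-T) with hδdef
  have hδ : 0 < δ := by positivity
  have hδρ : δ < ρ := by
    rw [hδdef]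
    have : Real.exp (-T) < 1 := Real.exp_lt_one_iff.2 (by linarith)
    nlinarith
  refine ⟨δ, hδ, hδρ.le.trans (min_le_right _ _), N, fun n hn z hz w hw => ?_⟩
  have hcb : closedBall z ρ ⊆ cthickening ρ K := fun y hy =>
    mem_cthickening_of_dist_le y z ρ K hz (mem_closedBall.1 hy)
  have h1 := (h.mono n).circle hU (h.lip n) hδ hδρ (hcb.trans hKρ) (E := E)
    ((lintegral_mono_set hcb).trans (hE n hn)) (mem_closedBall.2 hw)
    (mem_closedBall_self hδ.le)
  have h2 : Real.log (ρ / δ) = T := by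
    rw [hδdef, div_mul_eq_div_div, div_self hρ.ne', Real.log_div one_ne_zero (Real.exp_ne_zero _),
      Real.log_one, Real.log_exp]
    ring
  rw [h2] at h1
  have h3 : 2 * π * max E 0 ≤ ε ^ 2 * T := by
    rw [hT]
    have : ε ^ 2 * (2 * π * max E 0 / ε ^ 2 + 1) = 2 * π * max E 0 + ε ^ 2 := by
      field_simp
    rw [this]
    nlinarith [sq_nonneg ε]
  have h4 : (u n w - u n z) ^ 2 ≤ ε ^ 2 := by
    have := h1.trans h3
    exact le_of_mul_le_mul_right this (by linarith)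
  exact abs_le_of_sq_le_sq h4 hε.le

/-- the differences are nearly constant on balls -/
theorem CSeq.cauchy_ball (hU : IsOpen U) (h : CSeq U u) {z0 : ℂ} {ρ : ℝ} (hρ : 0 < ρ)
    (hB : closedBall z0 (2 * ρ) ⊆ U) {ε : ℝ} (hε : 0 < ε) :
    ∃ N : ℕ, ∀ m, N ≤ m → ∀ n, N ≤ n → ∀ z ∈ ball z0 ρ, ∀ z' ∈ ball z0 ρ,
      |(u m z' - u n z') - (u m z - u n z)| ≤ ε := by
  have hKU : closedBall z0 ρ ⊆ U := (closedBall_subset_closedBall (by linarith)).trans hB
  obtain ⟨δ, hδ, hδρ, N1, hN1⟩ := h.equi hU (isCompact_closedBall z0 ρ) hKU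
    (show (0:ℝ) < ε / 8 by positivity) hρ
  set ε' : ℝ := (ε / 2) ^ 2 * (π * δ ^ 2) / (2 * ρ) ^ 2 with hε'
  have hε'0 : 0 < ε' := by positivity
  obtain ⟨N2, hN2⟩ := h.cau ε' hε'0
  refine ⟨max N1 N2, fun m hm n hn z hz z' hz' => ?_⟩
  have hw : LocallyLipschitzOn U (fun z => u m z - u n z) := Bd_775.ll_sub (h.lip m) (h.lip n)
  have hsub : ∀ s ∈ Icc (0:ℝ) 1, ∀ a ∈ ball z δ, a + (s : ℂ) * (z' - z) ∈ U := by
    intro s hs a ha
    refine hB ?_
    have h1 : z + (s : ℂ) * (z' - z) ∈ ball z0 ρ := by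
      have := (convex_ball z0 ρ).add_smul_sub_mem hz hz' hs
      rwa [Complex.real_smul] at this
    rw [mem_closedBall]
    calc dist (a + (s : ℂ) * (z' - z)) z0
        ≤ dist (a + (s : ℂ) * (z' - z)) (z + (s : ℂ) * (z' - z)) +
          dist (z + (s : ℂ) * (z' - z)) z0 := dist_triangle _ _ _
      _ = dist a z + dist (z + (s : ℂ) * (z' - z)) z0 := by rw [dist_add_right]
      _ ≤ δ + ρ := add_le_add (mem_ball.1 ha).le (mem_ball.1 h1).le
      _ ≤ 2 * ρ := by linarith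
  obtain ⟨a, ha, hle⟩ := line_avg hU hw hδ hsub hε'0.le
    (hN2 m ((le_max_right _ _).trans hm) n ((le_max_right _ _).trans hn))
  have hv : ‖z' - z‖ ≤ 2 * ρ := by
    rw [← dist_eq_norm]
    have := dist_triangle_right z' z z0
    have h1 := mem_ball.1 hz
    have h2 := mem_ball.1 hz'
    linarith
  have h5 : ((u m (a + (z' - z)) - u n (a + (z' - z))) - (u m a - u n a)) ^ 2 ≤ (ε / 2) ^ 2 := by
    have h6 : ‖z' - z‖ ^ 2 * ε' ≤ (ε / 2) ^ 2 * (π * δ ^ 2) := by
      calc ‖z' - z‖ ^ 2 * ε' ≤ (2 * ρ) ^ 2 * ε' := by gcongr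
        _ = _ := by rw [hε']; field_simp
    exact le_of_mul_le_mul_right (hle.trans h6) (by positivity)
  have h7 := abs_le_of_sq_le_sq h5 (by positivity)
  have hz1 : z ∈ closedBall z0 ρ := ball_subset_closedBall hz
  have hz1' : z' ∈ closedBall z0 ρ := ball_subset_closedBall hz'
  have hm1 := (le_max_left N1 N2).trans hm
  have hn1 := (le_max_left N1 N2).trans hn
  have da : dist a z ≤ δ := (mem_ball.1 ha).le
  have da' : dist (a + (z' - z)) z' ≤ δ := by
    have : a + (z' - z) - z' = a - z := by ring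
    rw [dist_eq_norm, this, ← dist_eq_norm]
    exact da
  have e1 := hN1 m hm1 z hz1 a da
  have e2 := hN1 n hn1 z hz1 a da
  have e3 := hN1 m hm1 z' hz1' _ da'
  have e4 := hN1 n hn1 z' hz1' _ da'
  rw [abs_le] at *
  constructor <;> linarith [e1.1, e1.2, e2.1, e2.2, e3.1, e3.2, e4.1, e4.2, h7.1, h7.2]

/-- pointwise Cauchy, base point `z0` -/
theorem CSeq.cauchy_pt (hU : IsOpen U) (hUc : IsPreconnected U) (h : CSeq U u) {z0 z : ℂ}
    (hz0 : z0 ∈ U) (hz : z ∈ U) : ∀ ε : ℝ, 0 < ε → ∃ N, ∀ m, N ≤ m → ∀ n, N ≤ n →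
      |(u m z - u n z) - (u m z0 - u n z0)| ≤ ε := by
  refine hUc.induction₂' (fun a b => ∀ ε : ℝ, 0 < ε → ∃ N, ∀ m, N ≤ m → ∀ n, N ≤ n →
      |(u m b - u n b) - (u m a - u n a)| ≤ ε) ?_ ?_ hz0 hz
  · intro a ha
    obtain ⟨r, hr, hB⟩ := Metric.isOpen_iff.1 hU a ha
    have hB' : closedBall a (2 * (r / 4)) ⊆ U :=
      (closedBall_subset_ball (by linarith)).trans hB
    have hmem : ball a (r / 4) ∈ 𝓝[U] a := mem_nhdsWithin_of_mem_nhds (ball_mem_nhds a (by positivity))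
    filter_upwards [hmem] with b hb
    constructor
    · intro ε hε
      obtain ⟨N, hN⟩ := h.cauchy_ball hU (show 0 < r / 4 by positivity) hB' hε
      exact ⟨N, fun m hm n hn => hN m hm n hn a (mem_ball_self (by positivity)) b hb⟩
    · intro ε hε
      obtain ⟨N, hN⟩ := h.cauchy_ball hU (show 0 < r / 4 by positivity) hB' hε
      exact ⟨N, fun m hm n hn => hN m hm n hn b hb a (mem_ball_self (by positivity))⟩
  · intro a b c _ _ _ hab hbc ε hε
    obtain ⟨N1, h1⟩ := hab (ε / 2) (by positivity)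
    obtain ⟨N2, h2⟩ := hbc (ε / 2) (by positivity)
    refine ⟨max N1 N2, fun m hm n hn => ?_⟩
    have e1 := h1 m ((le_max_left _ _).trans hm) n ((le_max_left _ _).trans hn)
    have e2 := h2 m ((le_max_right _ _).trans hm) n ((le_max_right _ _).trans hn)
    rw [abs_le] at *
    constructor <;> linarith [e1.1, e1.2, e2.1, e2.2]

/-- **locally uniform convergence modulo constants** -/
theorem CSeq.exists_limit (hU : IsOpen U) (hUc : IsPreconnected U) (h : CSeq U u) {z0 : ℂ}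
    (hz0 : z0 ∈ U) : ∃ x : ℂ → ℝ, ContinuousOn x U ∧
      TendstoLocallyUniformlyOn (fun n z => u n z - u n z0) x atTop U := by
  have hcau : ∀ z ∈ U, CauchySeq (fun n => u n z - u n z0) := by
    intro z hz
    rw [Metric.cauchySeq_iff]
    intro ε hε
    obtain ⟨N, hN⟩ := h.cauchy_pt hU hUc hz0 hz (ε / 2) (by positivity)
    refine ⟨N, fun m hm n hn => ?_⟩
    rw [Real.dist_eq]
    have := hN m hm n hn
    have e : u m z - u m z0 - (u n z - u n z0) = (u m z - u n z) - (u m z0 - u n z0) := by ring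
    rw [e]
    linarith
  have hlim : ∀ z, ∃ l, z ∈ U → Tendsto (fun n => u n z - u n z0) atTop (𝓝 l) := by
    intro z
    by_cases hz : z ∈ U
    · obtain ⟨l, hl⟩ := cauchySeq_tendsto_of_complete (hcau z hz)
      exact ⟨l, fun _ => hl⟩
    · exact ⟨0, fun h => absurd h hz⟩
  choose x hx using hlim
  have hloc : TendstoLocallyUniformlyOn (fun n z => u n z - u n z0) x atTop U := by
    rw [Metric.tendstoLocallyUniformlyOn_iff]
    intro ε hε a ha
    obtain ⟨r, hr, hB⟩ := Metric.isOpen_iff.1 hU a ha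
    have hB' : closedBall a (2 * (r / 4)) ⊆ U :=
      (closedBall_subset_ball (by linarith)).trans hB
    obtain ⟨N1, h1⟩ := h.cauchy_ball hU (show 0 < r / 4 by positivity) hB'
      (show 0 < ε / 4 by positivity)
    obtain ⟨N2, h2⟩ := h.cauchy_pt hU hUc hz0 ha (ε / 4) (by positivity)
    refine ⟨ball a (r / 4), mem_nhdsWithin_of_mem_nhds (ball_mem_nhds a (by positivity)), ?_⟩
    filter_upwards [eventually_ge_atTop (max N1 N2)] with n hn y hy
    have hyU : y ∈ U := hB' (ball_subset_closedBall (ball_subset_ball (by linarith) hy))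
    have hle : ∀ m, max N1 N2 ≤ m → |(u m y - u m z0) - (u n y - u n z0)| ≤ ε / 2 := by
      intro m hm
      have e1 := h1 m ((le_max_left _ _).trans hm) n ((le_max_left _ _).trans hn) a
        (mem_ball_self (by positivity)) y hy
      have e2 := h2 m ((le_max_right _ _).trans hm) n ((le_max_right _ _).trans hn)
      rw [abs_le] at *
      constructor <;> linarith [e1.1, e1.2, e2.1, e2.2]
    have hl : |x y - (u n y - u n z0)| ≤ ε / 2 := by
      refine le_of_tendsto (((hx y hyU).sub_const _).abs) ?_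
      filter_upwards [eventually_ge_atTop (max N1 N2)] with m hm
      exact hle m hm
    rw [Real.dist_eq]
    linarith
  refine ⟨x, ?_, hloc⟩
  exact hloc.continuousOn (Eventually.of_forall fun n =>
    (h.lip n).continuousOn.sub continuousOn_const).frequently

/-- bounds near the complement -/
theorem CSeq.bdd (hU : IsOpen U) (h : CSeq U u) {z0 : ℂ} {x : ℂ → ℝ}
    (hx : TendstoLocallyUniformlyOn (fun n z => u n z - u n z0) x atTop U) (hxc : ContinuousOn x U)
    (hb : Bornology.IsBounded Uᶜ) (R : ℝ) :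
    ∃ (N : ℕ) (M : ℝ), ∀ n, N ≤ n → ∀ z ∈ closedBall (0:ℂ) R ∩ U, |u n z - u n z0| ≤ M := by
  obtain ⟨R1, hR1⟩ := hb.subset_closedBall (0:ℂ)
  set R' : ℝ := max (max R R1) 0 + 1 with hR'
  have hR'0 : 0 < R' := by
    have := le_max_right (max R R1) 0
    rw [hR']; linarith
  have hRR : R < R' := by
    have := (le_max_left R R1).trans (le_max_left (max R R1) 0)
    rw [hR']; linarith
  have hs : sphere (0:ℂ) R' ⊆ U := by
    intro z hz
    by_contra h'
    have h1 := hR1 h'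
    rw [mem_closedBall] at h1
    rw [mem_sphere] at hz
    have := (le_max_right R R1).trans (le_max_left (max R R1) 0)
    rw [hz, hR'] at h1
    linarith
  have hcs := isCompact_sphere (0:ℂ) R'
  obtain ⟨M0, hM0⟩ := hcs.exists_bound_of_continuousOn (hxc.mono hs)
  have hun := (tendstoLocallyUniformlyOn_iff_forall_isCompact hU).1 hx _ hs hcs
  rw [Metric.tendstoUniformlyOn_iff] at hun
  obtain ⟨N, hN⟩ := eventually_atTop.1 (hun 1 one_pos)
  refine ⟨N, M0 + 1, fun n hn z hz => ?_⟩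
  have hsb : ∀ w ∈ sphere (0:ℂ) R', |u n w - u n z0| ≤ M0 + 1 := by
    intro w hw
    have h1 := hN n hn w hw
    have h2 := hM0 w hw
    rw [Real.dist_eq] at h1
    rw [Real.norm_eq_abs] at h2
    rw [abs_lt] at h1
    rw [abs_le] at *
    constructor <;> linarith [h1.1, h1.2, h2.1, h2.2]
  have hzb : z ∈ ball (0:ℂ) R' ∩ U := ⟨mem_ball.2 ((mem_closedBall.1 hz.1).trans_lt hRR), hz.2⟩
  have h3 := (h.mono n).mx 0 R' (M0 + 1 + u n z0) hR'0 hs (fun w hw => by
    have := (abs_le.1 (hsb w hw)).2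
    linarith) z hzb
  have h4 := (h.mono n).mn 0 R' (-(M0 + 1) + u n z0) hR'0 hs (fun w hw => by
    have := (abs_le.1 (hsb w hw)).1
    linarith) z hzb
  rw [abs_le]
  constructor <;> linarith

end Crest.Agent.R105.Cnv_755
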