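import Crest.Agent.R105.Prim1_591

/-!
# R105, PRIM 2 (helper591): behaviour at infinity of holomorphic functions on `{R < ‖z‖}`

* `tendsto_inv` : transport of limits at `∞` to punctured neighbourhoods of `0`
* `tendsto_of_re_bdd` (INF1): `Re q` bounded ⟹ `q → c`
* `sq_le`, `mul_tendsto_zero` : `π |h ζ|² ≤ (M/δ) ∫_{B(ζ,ρ)} |h|²`, `z h(z) → 0` for `h ∈ L²`
* `sub_le_of_tendsto` : `k → a` ⟹ `|k z - a| ≤ C/|z|`
* `sq_decay` (INF2): `h ∈ L²` ⟹ `|h z| ≤ C/|z|²`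
* `prim_tendsto`, `prim_decay` (INF3): `p' = h ∈ L²` ⟹ `p → c`, `|p z - c| ≤ C/|z|`
-/

set_option autoImplicit false

open Set Filter Topology Metric Complex MeasureTheory

namespace Crest.Agent.R105.Prim591

noncomputable section

theorem tendsto_inv_cocompact : Tendsto (fun ζ : ℂ => ζ⁻¹) (𝓝[≠] 0) (cocompact ℂ) := by
  rw [← Metric.cobounded_eq_cocompact]
  exact tendsto_inv₀_nhdsNE_zero

theorem tendsto_inv_nhdsNE : Tendsto (fun z : ℂ => z⁻¹) (cocompact ℂ) (𝓝[≠] 0) := by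
  refine tendsto_nhdsWithin_iff.2 ⟨?_, ?_⟩
  · rw [← Metric.cobounded_eq_cocompact]
    exact tendsto_inv₀_cobounded
  have : ∀ᶠ z : ℂ in cocompact ℂ, z ≠ 0 := by
    have h := (isCompact_singleton (x := (0:ℂ))).compl_mem_cocompact
    filter_upwards [h] with z hz using hz
  filter_upwards [this] with z hz
  simpa using hz

/-- (INF1) -/
theorem tendsto_of_re_bdd {R M : ℝ} {q : ℂ → ℂ} (hq : ∀ z, R < ‖z‖ → DifferentiableAt ℂ q z)
    (hb : ∀ z, R < ‖z‖ → |(q z).re| ≤ M) : ∃ c, Tendsto q (cocompact ℂ) (𝓝 c) := by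
  -- `g ζ = 1 / (M + 1 - q (1/ζ))`
  set g : ℂ → ℂ := fun ζ => ((M + 1 : ℝ) - q ζ⁻¹)⁻¹ with hg
  have hfar : ∀ᶠ ζ : ℂ in 𝓝[≠] 0, R < ‖ζ⁻¹‖ := by
    have h1 : ∀ᶠ z : ℂ in cocompact ℂ, R < ‖z‖ :=
      tendsto_norm_cocompact_atTop.eventually_gt_atTop R
    exact tendsto_inv_cocompact.eventually h1
  have hre : ∀ ζ : ℂ, R < ‖ζ⁻¹‖ → 1 ≤ ((M + 1 : ℝ) - q ζ⁻¹ : ℂ).re := by
    intro ζ hζ
    have := abs_le.1 (hb _ hζ)
    simp only [sub_re, ofReal_re]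
    linarith [this.2]
  have hne : ∀ ζ : ℂ, R < ‖ζ⁻¹‖ → ((M + 1 : ℝ) - q ζ⁻¹ : ℂ) ≠ 0 := by
    intro ζ hζ h0
    have := hre ζ hζ
    rw [h0] at this
    simp at this
    linarith
  have hgpos : ∀ ζ : ℂ, R < ‖ζ⁻¹‖ → 0 < (g ζ).re := by
    intro ζ hζ
    simp only [hg, inv_re]
    exact div_pos (by linarith [hre ζ hζ]) (normSq_pos.2 (hne ζ hζ))
  have hgb : ∀ ζ : ℂ, R < ‖ζ⁻¹‖ → ‖g ζ‖ ≤ 1 := by
    intro ζ hζ
    simp only [hg, norm_inv]
    exact inv_le_one_of_one_le₀ ((hre ζ hζ).trans ((le_abs_self _).trans (abs_re_le_norm _)))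
  have hgd : ∀ᶠ ζ in 𝓝[≠] (0:ℂ), DifferentiableAt ℂ g ζ := by
    filter_upwards [hfar, self_mem_nhdsWithin] with ζ hζ hζ0
    have h1 : DifferentiableAt ℂ (fun ζ : ℂ => ζ⁻¹) ζ := differentiableAt_inv hζ0
    have h2 : DifferentiableAt ℂ (fun ζ : ℂ => q ζ⁻¹) ζ :=
      DifferentiableAt.comp (g := q) ζ (hq _ hζ) h1
    exact (h2.const_sub _).inv (hne ζ hζ)
  have hbu : IsBoundedUnder (· ≤ ·) (𝓝[≠] (0:ℂ)) fun z => ‖g z - g 0‖ := by
    refine ⟨1 + ‖g 0‖, eventually_map.2 ?_⟩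
    filter_upwards [hfar] with ζ hζ
    exact norm_sub_le_of_le (hgb ζ hζ) le_rfl
  have hlim := tendsto_limUnder_of_differentiable_on_punctured_nhds_of_bounded_under hgd hbu
  set g0 := limUnder (𝓝[≠] (0:ℂ)) g with hg0
  have hlim' : Tendsto (fun z : ℂ => g z⁻¹) (cocompact ℂ) (𝓝 g0) := hlim.comp tendsto_inv_nhdsNE
  have hback : ∀ z : ℂ, R < ‖z‖ → z ≠ 0 → q z = (M + 1 : ℝ) - (g z⁻¹)⁻¹ := by
    intro z hz hz0
    simp only [hg, inv_inv]
    ring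
  have hbackev : ∀ᶠ z in cocompact ℂ, ((M + 1 : ℝ) : ℂ) - (g z⁻¹)⁻¹ = q z := by
    have h1 : ∀ᶠ z : ℂ in cocompact ℂ, R < ‖z‖ :=
      tendsto_norm_cocompact_atTop.eventually_gt_atTop R
    have h2 : ∀ᶠ z : ℂ in cocompact ℂ, z ≠ 0 := by
      have h := (isCompact_singleton (x := (0:ℂ))).compl_mem_cocompact
      filter_upwards [h] with z hz using hz
    filter_upwards [h1, h2] with z hz hz0 using (hback z hz hz0).symm
  by_cases h0 : g0 = 0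
  · exfalso
    -- the extension `G` of `g` by `0`
    obtain ⟨s, hs, hsd⟩ : ∃ s ∈ 𝓝 (0:ℂ), ∀ ζ ∈ s, ζ ≠ 0 → DifferentiableAt ℂ g ζ ∧ R < ‖ζ⁻¹‖ := by
      have := hgd.and hfar
      rw [eventually_nhdsWithin_iff] at this
      exact ⟨_, this, fun ζ hζ hζ0 => hζ hζ0⟩
    have hG : DifferentiableOn ℂ (Function.update g 0 g0) s := by
      rw [hg0]
      refine differentiableOn_update_limUnder_of_isLittleO hs
        (fun ζ hζ => (hsd ζ hζ.1 hζ.2).1.differentiableWithinAt) hbu.isLittleO_sub_self_inv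
    have hGa : AnalyticAt ℂ (Function.update g 0 g0) 0 := by
      have h1 : DifferentiableOn ℂ (Function.update g 0 g0) (interior s) := hG.mono interior_subset
      exact h1.analyticAt (isOpen_interior.mem_nhds (mem_interior_iff_mem_nhds.2 hs))
    have hG0 : Function.update g 0 g0 0 = 0 := by simp [h0]
    rcases hGa.eventually_constant_or_nhds_le_map_nhds with hc | hc
    · -- constant: contradiction with `Re g > 0`
      have h1 : ∀ᶠ ζ in 𝓝[≠] (0:ℂ), Function.update g 0 g0 ζ = 0 := by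
        have := hc.filter_mono (nhdsWithin_le_nhds (s := {(0:ℂ)}ᶜ))
        filter_upwards [this] with ζ hζ
        rw [hζ, hG0]
      obtain ⟨ζ, hζ, hζR, hζ0⟩ := (h1.and (hfar.and self_mem_nhdsWithin)).exists
      rw [Function.update_of_ne hζ0] at hζ
      have := hgpos ζ hζR
      rw [hζ] at this
      simp at this
    · rw [hG0] at hc
      -- a neighbourhood of `0` is covered
      have h1 : (Function.update g 0 g0) '' s ∈ 𝓝 (0:ℂ) := by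
        apply hc
        exact mem_map.2 (mem_of_superset hs (subset_preimage_image _ _))
      obtain ⟨ε, hε, hball⟩ := Metric.mem_nhds_iff.1 h1
      have h2 : (-(ε / 2) : ℝ) ∈ ((↑) : ℝ → ℂ) ⁻¹' (ball (0:ℂ) ε) := by
        simp only [mem_preimage, mem_ball_zero_iff, norm_real, Real.norm_eq_abs, abs_neg]
        rw [abs_of_pos (by positivity)]
        linarith
      obtain ⟨ζ, hζs, hζ⟩ := hball h2
      by_cases hζ0 : ζ = 0
      · rw [hζ0, hG0] at hζ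
        have h3 : (-(ε / 2) : ℝ) = 0 := by exact_mod_cast hζ.symm
        linarith
      · rw [Function.update_of_ne hζ0] at hζ
        have h3 := hgpos ζ (hsd ζ hζs hζ0).2
        rw [hζ, ofReal_re] at h3
        linarith
  · refine ⟨(M + 1 : ℝ) - g0⁻¹, ?_⟩
    exact (tendsto_const_nhds.sub (hlim'.inv₀ h0)).congr' hbackev

/-! ### `L²` decay -/

theorem exists_ww_le : ∃ M : ℝ, 0 ≤ M ∧ ∀ δ > 0, ∀ u : ℂ, |ww δ u| ≤ M / δ := by
  have hc : Continuous (deriv Real.smoothTransition) :=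
    (Real.smoothTransition.contDiff (n := 1)).continuous_deriv le_rfl
  obtain ⟨M, hM⟩ := isCompact_Icc.exists_bound_of_continuousOn (s := Icc (0:ℝ) 1) hc.continuousOn
  have hb : ∀ x, |deriv Real.smoothTransition x| ≤ max M 0 := by
    intro x
    by_cases hx : x ∈ Icc (0:ℝ) 1
    · exact (hM x hx).trans (le_max_left _ _)
    · rw [mem_Icc, not_and_or, not_le, not_le] at hx
      have : deriv Real.smoothTransition x = 0 := by
        rcases hx with hx | hx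
        · have h1 : Real.smoothTransition =ᶠ[𝓝 x] fun _ => 0 := by
            filter_upwards [gt_mem_nhds hx] with s hs
              using Real.smoothTransition.zero_of_nonpos (le_of_lt hs)
          rw [h1.deriv_eq]; simp
        · have h1 : Real.smoothTransition =ᶠ[𝓝 x] fun _ => 1 := by
            filter_upwards [lt_mem_nhds hx] with s hs
              using Real.smoothTransition.one_of_one_le (le_of_lt hs)
          rw [h1.deriv_eq]; simp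
      rw [this]; simp
  refine ⟨max M 0, le_max_right _ _, fun δ hδ u => ?_⟩
  unfold ww
  have h1 : HasDerivAt (Gs δ) (deriv Real.smoothTransition ((‖u‖ ^ 2 - δ) / δ) * (1 / δ))
      (‖u‖ ^ 2) := by
    have h2 : HasDerivAt (fun s : ℝ => (s - δ) / δ) (1 / δ) (‖u‖ ^ 2) :=
      ((hasDerivAt_id (‖u‖ ^ 2)).sub_const δ).div_const δ
    have h3 : HasDerivAt Real.smoothTransition
        (deriv Real.smoothTransition ((‖u‖ ^ 2 - δ) / δ)) ((‖u‖ ^ 2 - δ) / δ) :=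
      ((Real.smoothTransition.contDiff (n := 1)).differentiable (by simp) _).hasDerivAt
    exact HasDerivAt.comp (h₂ := Real.smoothTransition) (h := fun s : ℝ => (s - δ) / δ)
      (‖u‖ ^ 2) h3 h2
  rw [h1.deriv, abs_mul, abs_of_pos (by positivity : (0:ℝ) < 1 / δ), mul_one_div]
  gcongr
  exact hb _

theorem sq_le {M δ ρ : ℝ} (hM : ∀ δ > 0, ∀ u : ℂ, |ww δ u| ≤ M / δ) (hδ : 0 < δ) (hρ : 0 < ρ)
    (hδρ : 2 * δ < ρ ^ 2) {ζ : ℂ} {h : ℂ → ℂ} (hh : DifferentiableOn ℂ h (ball ζ ρ))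
    (hi : IntegrableOn (fun w => ‖h w‖ ^ 2) (ball ζ ρ)) :
    Real.pi * ‖h ζ‖ ^ 2 ≤ M / δ * ∫ w in ball ζ ρ, ‖h w‖ ^ 2 := by
  have h1 := mean_rad hδ hρ hδρ (h := fun z => h z ^ 2) (hh.pow 2)
  have h2 : Real.pi * ‖h ζ‖ ^ 2 = ‖(Real.pi : ℂ) * h ζ ^ 2‖ := by
    rw [norm_mul, norm_pow, norm_real, Real.norm_eq_abs, abs_of_pos Real.pi_pos]
  rw [h2, ← h1]
  have h3 : ∀ w : ℂ, w ∉ ball ζ ρ → ‖h w‖ ^ 2 * |ww δ (w - ζ)| = 0 := by
    intro w hw
    rw [mem_ball, dist_eq_norm, not_lt] at hw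
    rw [ww_of_gt hδ (by nlinarith [norm_nonneg (w - ζ)])]
    simp
  calc ‖∫ w : ℂ, h (ζ + w) ^ 2 * (ww δ w : ℂ)‖ ≤ ∫ w : ℂ, ‖h (ζ + w) ^ 2 * (ww δ w : ℂ)‖ :=
        norm_integral_le_integral_norm _
    _ = ∫ w : ℂ, ‖h (ζ + w)‖ ^ 2 * |ww δ (ζ + w - ζ)| := by
        refine integral_congr_ae (Eventually.of_forall fun w => ?_)
        simp only [norm_mul, norm_pow, norm_real, Real.norm_eq_abs, add_sub_cancel_left]
    _ = ∫ w : ℂ, ‖h w‖ ^ 2 * |ww δ (w - ζ)| :=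
        integral_add_left_eq_self (fun w => ‖h w‖ ^ 2 * |ww δ (w - ζ)|) ζ
    _ = ∫ w in ball ζ ρ, ‖h w‖ ^ 2 * |ww δ (w - ζ)| :=
        (setIntegral_eq_integral_of_forall_compl_eq_zero h3).symm
    _ ≤ ∫ w in ball ζ ρ, M / δ * ‖h w‖ ^ 2 := by
        refine integral_mono_of_nonneg (Eventually.of_forall fun w => by positivity)
          (hi.const_mul _) (Eventually.of_forall fun w => ?_)
        simp only
        rw [mul_comm]
        exact mul_le_mul_of_nonneg_right (hM δ hδ _) (by positivity)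
    _ = M / δ * ∫ w in ball ζ ρ, ‖h w‖ ^ 2 := integral_const_mul _ _

/-- `z h(z) → 0` at infinity if `h` is holomorphic and `L²` near infinity -/
theorem mul_tendsto_zero {R : ℝ} {h : ℂ → ℂ} (hd : ∀ z, R < ‖z‖ → DifferentiableAt ℂ h z)
    (hi : IntegrableOn (fun w => ‖h w‖ ^ 2) {z : ℂ | R < ‖z‖}) :
    Tendsto (fun z => z * h z) (cocompact ℂ) (𝓝 0) := by
  obtain ⟨M, hM0, hM⟩ := exists_ww_le
  set T : ℝ → ℝ := fun r => ∫ w in {z : ℂ | r < ‖z‖}, ‖h w‖ ^ 2 with hT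
  have hT0 : Tendsto T atTop (𝓝 0) := by
    have h1 := tendsto_setIntegral_of_antitone (μ := (volume : Measure ℂ))
      (f := fun w : ℂ => ‖h w‖ ^ 2) (s := fun r : ℝ => {z : ℂ | r < ‖z‖})
      (fun r => (isOpen_lt continuous_const continuous_norm).measurableSet)
      (fun a b hab z hz => lt_of_le_of_lt hab hz) ⟨R, hi⟩
    have h2 : (⋂ r : ℝ, {z : ℂ | r < ‖z‖}) = ∅ := by
      ext z
      simp only [mem_iInter, mem_ofPred_eq, mem_empty_iff_false, iff_false, not_forall, not_lt]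
      exact ⟨‖z‖, le_rfl⟩
    rw [h2] at h1
    simpa using h1
  have hev : ∀ᶠ z : ℂ in cocompact ℂ, max 1 (2 * R + 1) ≤ ‖z‖ :=
    tendsto_norm_cocompact_atTop.eventually_ge_atTop _
  -- bound
  have hbd : ∀ z : ℂ, max 1 (2 * R + 1) ≤ ‖z‖ →
      ‖z * h z‖ ^ 2 ≤ (16 * M / Real.pi) * T (‖z‖ / 2) := by
    intro z hz
    have hz1 : 1 ≤ ‖z‖ := (le_max_left _ _).trans hz
    have hz2 : 2 * R + 1 ≤ ‖z‖ := (le_max_right _ _).trans hz
    have hsub : ball z (‖z‖ / 2) ⊆ {w : ℂ | ‖z‖ / 2 < ‖w‖} := by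
      intro w hw
      rw [mem_ball, dist_eq_norm] at hw
      have := norm_sub_norm_le z w
      rw [norm_sub_rev] at this
      show ‖z‖ / 2 < ‖w‖
      linarith
    have hsub2 : {w : ℂ | ‖z‖ / 2 < ‖w‖} ⊆ {w : ℂ | R < ‖w‖} := by
      intro w hw
      have : ‖z‖ / 2 < ‖w‖ := hw
      show R < ‖w‖
      linarith
    have h1 := sq_le hM (δ := ‖z‖ ^ 2 / 16) (ρ := ‖z‖ / 2) (by positivity) (by positivity)
      (by nlinarith) (ζ := z) (h := h)
      (fun w hw => (hd w (hsub2 (hsub hw))).differentiableWithinAt)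
      (hi.mono_set (hsub.trans hsub2))
    have h2 : ∫ w in ball z (‖z‖ / 2), ‖h w‖ ^ 2 ≤ T (‖z‖ / 2) :=
      setIntegral_mono_set (hi.mono_set hsub2) (Eventually.of_forall fun w => by positivity)
        (LE.le.eventuallyLE hsub)
    have h3 : Real.pi * ‖h z‖ ^ 2 ≤ M / (‖z‖ ^ 2 / 16) * T (‖z‖ / 2) :=
      h1.trans (mul_le_mul_of_nonneg_left h2 (by positivity))
    have h4 : ‖z * h z‖ ^ 2 = ‖z‖ ^ 2 / Real.pi * (Real.pi * ‖h z‖ ^ 2) := by
      rw [norm_mul]; field_simp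
    rw [h4]
    calc ‖z‖ ^ 2 / Real.pi * (Real.pi * ‖h z‖ ^ 2)
        ≤ ‖z‖ ^ 2 / Real.pi * (M / (‖z‖ ^ 2 / 16) * T (‖z‖ / 2)) :=
          mul_le_mul_of_nonneg_left h3 (by positivity)
      _ = (16 * M / Real.pi) * T (‖z‖ / 2) := by field_simp
  have hlim : Tendsto (fun z : ℂ => (16 * M / Real.pi) * T (‖z‖ / 2)) (cocompact ℂ) (𝓝 0) := by
    have h1 : Tendsto (fun z : ℂ => ‖z‖ / 2) (cocompact ℂ) atTop :=
      tendsto_norm_cocompact_atTop.atTop_div_const (by norm_num)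
    simpa using (hT0.comp h1).const_mul (16 * M / Real.pi)
  have hsq : Tendsto (fun z : ℂ => ‖z * h z‖ ^ 2) (cocompact ℂ) (𝓝 0) :=
    squeeze_zero' (Eventually.of_forall fun z => by positivity)
      (hev.mono fun z hz => hbd z hz) hlim
  rw [tendsto_zero_iff_norm_tendsto_zero]
  have h5 := (Real.continuous_sqrt.tendsto 0).comp hsq
  simp only [Real.sqrt_zero] at h5
  refine h5.congr fun z => ?_
  simp only [Function.comp_apply]
  exact Real.sqrt_sq (norm_nonneg _)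

/-- removable singularity at infinity: if `k → a` at infinity then `k = a + O(1/z)` -/
theorem sub_le_of_tendsto {R : ℝ} {k : ℂ → ℂ} {a : ℂ} (hd : ∀ z, R < ‖z‖ → DifferentiableAt ℂ k z)
    (hl : Tendsto k (cocompact ℂ) (𝓝 a)) : ∃ C R₁ : ℝ, 0 ≤ C ∧ 0 < R₁ ∧
      ∀ z, R₁ < ‖z‖ → ‖k z - a‖ ≤ C / ‖z‖ := by
  set g : ℂ → ℂ := fun ζ => k ζ⁻¹ with hg
  have hfar : ∀ᶠ ζ : ℂ in 𝓝[≠] 0, R < ‖ζ⁻¹‖ :=
    tendsto_inv_cocompact.eventually (tendsto_norm_cocompact_atTop.eventually_gt_atTop R)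
  have hgd : ∀ᶠ ζ in 𝓝[≠] (0:ℂ), DifferentiableAt ℂ g ζ := by
    filter_upwards [hfar, self_mem_nhdsWithin] with ζ hζ hζ0
    exact DifferentiableAt.comp (g := k) ζ (hd _ hζ) (differentiableAt_inv hζ0)
  have hgl : Tendsto g (𝓝[≠] 0) (𝓝 a) := hl.comp tendsto_inv_cocompact
  have hda : DifferentiableAt ℂ (Function.update g 0 a) 0 := by
    have h1 : ∀ᶠ ζ in 𝓝 (0:ℂ), ζ ≠ 0 → DifferentiableAt ℂ g ζ := by
      rwa [eventually_nhdsWithin_iff] at hgd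
    have h2 : ContinuousAt (Function.update g 0 a) 0 := continuousAt_update_same.2 hgl
    have h3 : ∀ᶠ ζ in 𝓝[≠] (0:ℂ), DifferentiableAt ℂ (Function.update g 0 a) ζ := by
      filter_upwards [hgd, self_mem_nhdsWithin] with ζ hζ hζ0
      have h4 : Function.update g 0 a =ᶠ[𝓝 ζ] g := by
        filter_upwards [isOpen_compl_singleton.mem_nhds hζ0] with y hy
        exact Function.update_of_ne hy _ _
      exact h4.differentiableAt_iff.2 hζ
    exact (analyticAt_of_differentiable_on_punctured_nhds_of_continuousAt h3 h2).differentiableAt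
  have hO := hda.isBigO_sub
  obtain ⟨C, hC⟩ := hO.bound
  simp only [Function.update_self, sub_zero] at hC
  obtain ⟨ε, hε, hball⟩ := Metric.eventually_nhds_iff.1 hC
  refine ⟨|C|, ε⁻¹, abs_nonneg _, by positivity, fun z hz => ?_⟩
  have hz0 : 0 < ‖z‖ := lt_trans (by positivity) hz
  have hzne : z ≠ 0 := norm_pos_iff.1 hz0
  have h1 : dist z⁻¹ 0 < ε := by
    rw [dist_zero_right, norm_inv]
    exact inv_lt_of_inv_lt₀ hε hz
  have h2 := hball h1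
  rw [Function.update_of_ne (inv_ne_zero hzne)] at h2
  simp only [hg, inv_inv, norm_inv] at h2
  calc ‖k z - a‖ ≤ C * ‖z‖⁻¹ := h2
    _ ≤ |C| * ‖z‖⁻¹ := mul_le_mul_of_nonneg_right (le_abs_self C) (by positivity)
    _ = |C| / ‖z‖ := by rw [div_eq_mul_inv]

/-- (INF2) -/
theorem sq_decay {R : ℝ} {h : ℂ → ℂ} (hd : ∀ z, R < ‖z‖ → DifferentiableAt ℂ h z)
    (hi : IntegrableOn (fun w => ‖h w‖ ^ 2) {z : ℂ | R < ‖z‖}) :
    ∃ C R₁ : ℝ, 0 ≤ C ∧ 0 < R₁ ∧ ∀ z, R₁ < ‖z‖ → ‖h z‖ ≤ C / ‖z‖ ^ 2 := by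
  obtain ⟨C, R₁, hC, hR₁, hb⟩ := sub_le_of_tendsto (k := fun z => z * h z) (R := R)
    (fun z hz => differentiableAt_id.mul (hd z hz)) (mul_tendsto_zero hd hi)
  refine ⟨C, R₁, hC, hR₁, fun z hz => ?_⟩
  have hz0 : 0 < ‖z‖ := lt_trans hR₁ hz
  have h1 := hb z hz
  rw [sub_zero, norm_mul] at h1
  rw [le_div_iff₀ (by positivity)]
  rw [le_div_iff₀ hz0] at h1
  calc ‖h z‖ * ‖z‖ ^ 2 = ‖z‖ * ‖h z‖ * ‖z‖ := by ring
    _ ≤ C := h1

theorem isPreconnected_far {R : ℝ} (hR : 0 ≤ R) : IsPreconnected {z : ℂ | R < ‖z‖} := by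
  have h1 : {z : ℂ | R < ‖z‖} = (fun p : ℝ × ℝ => (p.1 : ℂ) * exp (p.2 * I)) ''
      (Ioi R ×ˢ univ) := by
    ext z
    constructor
    · intro hz
      exact ⟨(‖z‖, arg z), ⟨hz, trivial⟩, norm_mul_exp_arg_mul_I z⟩
    · rintro ⟨⟨r, θ⟩, ⟨hr, -⟩, rfl⟩
      have hr' : R < r := hr
      show R < ‖(r : ℂ) * exp (θ * I)‖
      rw [norm_mul, Complex.norm_exp_ofReal_mul_I, mul_one, Complex.norm_real,
        Real.norm_of_nonneg (hR.trans hr'.le)]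
      exact hr'
  rw [h1]
  refine IsPreconnected.image ?_ _ (by fun_prop)
  exact isPreconnected_Ioi.prod isPreconnected_univ

/-- a primitive of `O(1/z²)` has a limit at infinity -/
theorem prim_tendsto {R : ℝ} {h p : ℂ → ℂ} (hd : ∀ z, R < ‖z‖ → DifferentiableAt ℂ h z)
    {C : ℝ} (hb : ∀ z, R < ‖z‖ → ‖h z‖ ≤ C / ‖z‖ ^ 2) (hp : ∀ z, R < ‖z‖ → HasDerivAt p (h z) z) :
    ∃ c, Tendsto p (cocompact ℂ) (𝓝 c) := by
  set k : ℂ → ℂ := fun ζ => -((ζ ^ 2)⁻¹ * h ζ⁻¹) with hk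
  have hfar : ∀ᶠ ζ : ℂ in 𝓝[≠] 0, R < ‖ζ⁻¹‖ :=
    tendsto_inv_cocompact.eventually (tendsto_norm_cocompact_atTop.eventually_gt_atTop R)
  have hkd : ∀ᶠ ζ in 𝓝[≠] (0:ℂ), DifferentiableAt ℂ k ζ := by
    filter_upwards [hfar, self_mem_nhdsWithin] with ζ hζ hζ0
    have h1 : DifferentiableAt ℂ (fun ζ : ℂ => h ζ⁻¹) ζ :=
      DifferentiableAt.comp (g := h) ζ (hd _ hζ) (differentiableAt_inv hζ0)
    have h2 : DifferentiableAt ℂ (fun ζ : ℂ => (ζ ^ 2)⁻¹) ζ :=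
      (differentiableAt_id.pow 2).inv (pow_ne_zero 2 hζ0)
    exact (h2.mul h1).neg
  have hkb : IsBoundedUnder (· ≤ ·) (𝓝[≠] (0:ℂ)) fun z => ‖k z - k 0‖ := by
    refine ⟨C + ‖k 0‖, eventually_map.2 ?_⟩
    filter_upwards [hfar, self_mem_nhdsWithin] with ζ hζ hζ0
    refine norm_sub_le_of_le ?_ le_rfl
    have h1 := hb _ hζ
    have h2 : 0 < ‖ζ‖ := norm_pos_iff.2 hζ0
    simp only [hk, norm_neg, norm_mul, norm_inv, norm_pow]
    rw [norm_inv] at h1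
    calc (‖ζ‖ ^ 2)⁻¹ * ‖h ζ⁻¹‖ ≤ (‖ζ‖ ^ 2)⁻¹ * (C / (‖ζ‖⁻¹) ^ 2) :=
          mul_le_mul_of_nonneg_left h1 (by positivity)
      _ = C := by field_simp
  obtain ⟨s, hs, hsd⟩ : ∃ s ∈ 𝓝 (0:ℂ), ∀ ζ ∈ s, ζ ≠ 0 → DifferentiableAt ℂ k ζ ∧ R < ‖ζ⁻¹‖ := by
    have := hkd.and hfar
    rw [eventually_nhdsWithin_iff] at this
    exact ⟨_, this, fun ζ hζ hζ0 => hζ hζ0⟩
  set K : ℂ → ℂ := Function.update k 0 (limUnder (𝓝[≠] (0:ℂ)) k) with hK
  have hKd : DifferentiableOn ℂ K s := by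
    rw [hK]
    exact differentiableOn_update_limUnder_of_isLittleO hs
      (fun ζ hζ => (hsd ζ hζ.1 hζ.2).1.differentiableWithinAt) hkb.isLittleO_sub_self_inv
  obtain ⟨r, hr, hrs⟩ := Metric.mem_nhds_iff.1 hs
  obtain ⟨Q, hQ⟩ := (hKd.mono hrs).isExactOn_ball
  -- the far region
  set R' : ℝ := max (max R 0) r⁻¹ with hR'
  have hR'0 : 0 ≤ R' := (le_max_right _ _).trans (le_max_left _ _)
  have hmem : ∀ z : ℂ, R' < ‖z‖ → R < ‖z‖ ∧ z ≠ 0 ∧ z⁻¹ ∈ ball (0:ℂ) r := by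
    intro z hz
    have h1 : R < ‖z‖ := lt_of_le_of_lt ((le_max_left _ _).trans (le_max_left _ _)) hz
    have h2 : r⁻¹ < ‖z‖ := lt_of_le_of_lt (le_max_right _ _) hz
    have h3 : z ≠ 0 := by
      rintro rfl
      rw [norm_zero] at h2
      exact absurd h2 (not_lt.2 (by positivity))
    refine ⟨h1, h3, ?_⟩
    rw [mem_ball_zero_iff, norm_inv]
    exact inv_lt_of_inv_lt₀ hr h2
  have hder : ∀ z : ℂ, R' < ‖z‖ → HasDerivAt (fun z => p z - Q z⁻¹) 0 z := by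
    intro z hz
    obtain ⟨h1, h2, h3⟩ := hmem z hz
    have h4 := hp z h1
    have h5 : HasDerivAt (fun z : ℂ => z⁻¹) (-(z ^ 2)⁻¹) z := hasDerivAt_inv h2
    have h6 : HasDerivAt (fun z : ℂ => Q z⁻¹) (K z⁻¹ * -(z ^ 2)⁻¹) z :=
      HasDerivAt.comp (h₂ := Q) z (hQ _ h3) h5
    refine (h4.sub h6).congr_deriv ?_
    rw [hK, Function.update_of_ne (inv_ne_zero h2)]
    simp only [hk, inv_inv, inv_pow]
    field_simp
    ring
  obtain ⟨z1, hz1⟩ : ∃ z1 : ℂ, R' < ‖z1‖ := ⟨((R' + 1 : ℝ) : ℂ), by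
    rw [norm_real, Real.norm_of_nonneg (by linarith)]; linarith⟩
  have hopen : IsOpen {z : ℂ | R' < ‖z‖} := isOpen_lt continuous_const continuous_norm
  have hconst : ∀ z : ℂ, R' < ‖z‖ → p z - Q z⁻¹ = p z1 - Q z1⁻¹ := by
    intro z hz
    refine hopen.is_const_of_deriv_eq_zero (f := fun z => p z - Q z⁻¹) (isPreconnected_far hR'0)
      (fun w hw => (hder w hw).differentiableAt.differentiableWithinAt)
      (fun w hw => (hder w hw).deriv) hz hz1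
  have hQl : Tendsto (fun z : ℂ => Q z⁻¹) (cocompact ℂ) (𝓝 (Q 0)) := by
    have h1 : ContinuousAt Q 0 := (hQ 0 (mem_ball_self hr)).continuousAt
    exact h1.tendsto.comp (tendsto_inv_nhdsNE.mono_right nhdsWithin_le_nhds)
  refine ⟨Q 0 + (p z1 - Q z1⁻¹), ?_⟩
  refine (hQl.add tendsto_const_nhds).congr' ?_
  filter_upwards [tendsto_norm_cocompact_atTop.eventually_gt_atTop R'] with z hz
  rw [← hconst z hz]; ring

/-- (INF3) -/
theorem prim_decay {R : ℝ} {h p : ℂ → ℂ} (hd : ∀ z, R < ‖z‖ → DifferentiableAt ℂ h z)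
    (hi : IntegrableOn (fun w => ‖h w‖ ^ 2) {z : ℂ | R < ‖z‖})
    (hp : ∀ z, R < ‖z‖ → HasDerivAt p (h z) z) :
    ∃ (c : ℂ) (C R₁ : ℝ), 0 ≤ C ∧ 0 < R₁ ∧ Tendsto p (cocompact ℂ) (𝓝 c) ∧
      (∀ z, R₁ < ‖z‖ → ‖p z - c‖ ≤ C / ‖z‖) ∧ ∀ z, R₁ < ‖z‖ → ‖h z‖ ≤ C / ‖z‖ ^ 2 := by
  obtain ⟨C, R₁, hC, hR₁, hb⟩ := sq_decay hd hi
  obtain ⟨c, hc⟩ := prim_tendsto (R := max R R₁) (C := C)
    (fun z hz => hd z (lt_of_le_of_lt (le_max_left _ _) hz))
    (fun z hz => hb z (lt_of_le_of_lt (le_max_right _ _) hz))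
    (fun z hz => hp z (lt_of_le_of_lt (le_max_left _ _) hz))
  obtain ⟨C', R₂, hC', hR₂, hb'⟩ := sub_le_of_tendsto (fun z hz => (hp z hz).differentiableAt) hc
  refine ⟨c, max C C', max R₁ R₂, hC.trans (le_max_left _ _), lt_max_of_lt_left hR₁, hc,
    fun z hz => ?_, fun z hz => ?_⟩
  · have hz0 : 0 < ‖z‖ := lt_trans (lt_max_of_lt_left hR₁) hz
    exact (hb' z (lt_of_le_of_lt (le_max_right _ _) hz)).trans
      (div_le_div_of_nonneg_right (le_max_right _ _) hz0.le)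
  · have hz0 : 0 < ‖z‖ := lt_trans (lt_max_of_lt_left hR₁) hz
    exact (hb z (lt_of_le_of_lt (le_max_left _ _) hz)).trans
      (div_le_div_of_nonneg_right (le_max_left _ _) (by positivity))

end

end Crest.Agent.R105.Prim591
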