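import Crest.Agent.R105.Cnv3_755
import Crest.Agent.R105.Dir5_508
import Crest.Agent.R105.Prim2_591

/-!
# Row 105, S0138, CONV 4 (helper755): the limit is the real part of a holomorphic function

* `lp_lim`, `lim_int` : limits in `L²`
* `CSeq.exists_hol` : if `∫_U dot (u n) ψ → 0` for all test functions of 508 then `u n - u n z0`
  converges locally uniformly on `U` to `Re F`, `F` holomorphic on `U`, with the gradients in `L²(U)`
* `CSeq.at_inf` : `F z - z → c` at infinity if `u n - re` has finite energy near infinity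
-/

set_option autoImplicit false

open MeasureTheory Set Filter Topology Metric Complex
open scoped NNReal ENNReal Real ComplexConjugate ContDiff

namespace Crest.Agent.R105.Cnv_755

open Crest.Agent.R105.Bd_775 (en en_eq)
open Crest.Agent.R105.Dir_508 Crest.Agent.R165.Cl1x722 Crest.Agent.R165.Cl3x722
  Crest.Agent.R165.Cl4x722

theorem eLp2 (f : ℂ → ℂ) (μ : Measure ℂ) : eLpNorm f 2 μ ^ 2 = ∫⁻ z, ‖f z‖ₑ ^ 2 ∂μ := by
  have h := eLpNorm_nnreal_pow_eq_lintegral (f := f) (μ := μ) (p := 2) two_ne_zero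
  simp only [NNReal.coe_ofNat, ENNReal.rpow_ofNat] at h
  rw [← h]
  norm_num

theorem lp_lim {μ : Measure ℂ} {g : ℕ → ℂ → ℂ} (hg : ∀ n, MemLp (g n) 2 μ)
    (hc : ∀ ε : ℝ, 0 < ε → ∃ N, ∀ m, N ≤ m → ∀ n, N ≤ n →
      ∫⁻ z, ‖g m z - g n z‖ₑ ^ 2 ∂μ ≤ ENNReal.ofReal ε) :
    ∃ H, MemLp H 2 μ ∧ Tendsto (fun n => ∫⁻ z, ‖g n z - H z‖ₑ ^ 2 ∂μ) atTop (𝓝 0) := by
  have hcau : CauchySeq (fun n => (hg n).toLp (g n)) := by
    rw [EMetric.cauchySeq_iff]
    intro ε hε
    rcases eq_or_ne ε ⊤ with rfl | hεt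
    · exact ⟨0, fun m _ n _ => edist_lt_top _ _⟩
    · have hr : 0 < (ε.toReal / 2) ^ 2 := by
        have := ENNReal.toReal_pos hε.ne' hεt
        positivity
      obtain ⟨N, hN⟩ := hc _ hr
      refine ⟨N, fun m hm n hn => ?_⟩
      rw [Lp.edist_toLp_toLp]
      have h1 := hN m hm n hn
      have h2 : eLpNorm (g m - g n) 2 μ ^ 2 ≤ ENNReal.ofReal (ε.toReal / 2) ^ 2 := by
        rw [eLp2, ← ENNReal.ofReal_pow (by positivity)]
        exact h1
      have h3 : eLpNorm (g m - g n) 2 μ ≤ ENNReal.ofReal (ε.toReal / 2) :=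
        (ENNReal.pow_le_pow_left_iff two_ne_zero).1 h2
      refine h3.trans_lt ?_
      conv_rhs => rw [← ENNReal.ofReal_toReal hεt]
      have := ENNReal.toReal_pos hε.ne' hεt
      exact (ENNReal.ofReal_lt_ofReal_iff this).2 (by linarith)
  obtain ⟨H, hH⟩ := cauchySeq_tendsto_of_complete hcau
  refine ⟨H, Lp.memLp H, ?_⟩
  have h1 := (Lp.tendsto_Lp_iff_tendsto_eLpNorm' _ _).1 hH
  have h2 : Tendsto (fun n => eLpNorm (g n - ⇑H) 2 μ) atTop (𝓝 0) := by
    refine h1.congr fun n => eLpNorm_congr_ae ?_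
    exact ((hg n).coeFn_toLp).sub EventuallyEq.rfl
  have h3 : Tendsto (fun n => eLpNorm (g n - ⇑H) 2 μ ^ 2) atTop (𝓝 (0 ^ 2)) :=
    ((ENNReal.continuous_pow 2).tendsto 0).comp h2
  simp only [eLp2] at h3
  simpa using h3

theorem lim_int {μ : Measure ℂ} {g : ℕ → ℂ → ℂ} {H β : ℂ → ℂ} (hg : ∀ n, MemLp (g n) 2 μ)
    (hH : MemLp H 2 μ) (ht : Tendsto (fun n => ∫⁻ z, ‖g n z - H z‖ₑ ^ 2 ∂μ) atTop (𝓝 0))
    (hβ : MemLp β 2 μ) :
    Tendsto (fun n => ∫ z, g n z * β z ∂μ) atTop (𝓝 (∫ z, H z * β z ∂μ)) := by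
  refine tendsto_integral_of_L1 _ (hH.integrable_mul hβ).aestronglyMeasurable
    (Eventually.of_forall fun n => (hg n).integrable_mul hβ) ?_
  have hb : ∀ n, ∫⁻ z, ‖g n z * β z - H z * β z‖ₑ ∂μ ≤
      (∫⁻ z, ‖g n z - H z‖ₑ ^ 2 ∂μ) ^ (1 / (2:ℝ)) * (∫⁻ z, ‖β z‖ₑ ^ 2 ∂μ) ^ (1 / (2:ℝ)) := by
    intro n
    have h := ENNReal.lintegral_mul_le_Lp_mul_Lq μ Real.HolderConjugate.two_two
      (f := fun z => ‖g n z - H z‖ₑ) (g := fun z => ‖β z‖ₑ)
      (((hg n).sub hH).1.enorm) hβ.1.enorm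
    simp only [Pi.mul_apply, ENNReal.rpow_two] at h
    refine le_trans (le_of_eq ?_) h
    refine lintegral_congr fun z => ?_
    rw [← enorm_mul, sub_mul]
  have hfin : (∫⁻ z, ‖β z‖ₑ ^ 2 ∂μ) ^ (1 / (2:ℝ)) ≠ ⊤ := by
    refine ENNReal.rpow_ne_top_of_nonneg (by norm_num) ?_
    rw [← eLp2]
    exact ENNReal.pow_ne_top hβ.2.ne
  have h0 : Tendsto (fun n => (∫⁻ z, ‖g n z - H z‖ₑ ^ 2 ∂μ) ^ (1 / (2:ℝ)) *
      (∫⁻ z, ‖β z‖ₑ ^ 2 ∂μ) ^ (1 / (2:ℝ))) atTop (𝓝 0) := by
    have h1 : Tendsto (fun n => (∫⁻ z, ‖g n z - H z‖ₑ ^ 2 ∂μ) ^ (1 / (2:ℝ))) atTop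
        (𝓝 ((0:ℝ≥0∞) ^ (1 / (2:ℝ)))) :=
      ((ENNReal.continuous_rpow_const).tendsto 0).comp ht
    rw [ENNReal.zero_rpow_of_pos (by norm_num)] at h1
    have h2 := ENNReal.Tendsto.mul_const h1 (Or.inr hfin)
    rwa [zero_mul] at h2
  exact tendsto_of_tendsto_of_tendsto_of_le_of_le tendsto_const_nhds h0 (fun _ => zero_le) hb

theorem enorm_gr_sq (u : ℂ → ℝ) (z : ℂ) : ‖gr u z‖ₑ ^ 2 = ENNReal.ofReal (en u z) := by
  rw [← norm_gr_sq, ENNReal.ofReal_pow (norm_nonneg _), ofReal_norm]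

theorem gr_sub {u v : ℂ → ℝ} {z : ℂ} (hu : DifferentiableAt ℝ u z) (hv : DifferentiableAt ℝ v z) :
    gr (fun z => u z - v z) z = gr u z - gr v z := by
  unfold gr
  rw [fderiv_fun_sub hu hv]
  simp only [_root_.sub_apply]
  push_cast
  ring

theorem gr_sub_const (u : ℂ → ℝ) (c : ℝ) (z : ℂ) : gr (fun z => u z - c) z = gr u z := by
  unfold gr
  rw [fderiv_sub_const]

variable {U : Set ℂ} {u : ℕ → ℂ → ℝ}

/-- **the limit is the real part of a holomorphic function** -/
theorem CSeq.exists_hol (hU : IsOpen U) (hUc : IsPreconnected U) (h : CSeq U u) {z0 : ℂ}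
    (hz0 : z0 ∈ U)
    (hEL : ∀ ψ : ℂ → ℝ, Tst U ψ → Tendsto (fun n => ∫ z in U, Bd_775.dot (u n) ψ z) atTop (𝓝 0)) :
    ∃ (F : ℂ → ℂ) (N : ℕ) (H : ℂ → ℂ), DifferentiableOn ℂ F U ∧
      TendstoLocallyUniformlyOn (fun n z => u n z - u n z0) (fun z => (F z).re) atTop U ∧
      Tendsto (fun n => ∫⁻ z in U, ENNReal.ofReal (en (fun z => u n z - (F z).re) z)) atTop (𝓝 0) ∧
      MemLp H 2 (volume.restrict U) ∧ (∀ᵐ z, z ∈ U → conj (deriv F z) = H z + gr (u N) z) := by
  obtain ⟨x, hxc, hx⟩ := h.exists_limit hU hUc hz0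
  obtain ⟨N, hN⟩ := h.cau 1 one_pos
  set μ : Measure ℂ := volume.restrict U with hμ
  have hd : ∀ n, ∀ᵐ z ∂μ, DifferentiableAt ℝ (u n) z := fun n => Bd_775.ae_diff hU (h.lip n)
  set g : ℕ → ℂ → ℂ := fun n => gr (fun z => u (N + n) z - u N z) with hg
  have hgm : ∀ n, MemLp (g n) 2 μ := by
    intro n
    refine ⟨(measurable_gr _).aestronglyMeasurable, ?_⟩
    have h1 : eLpNorm (g n) 2 μ ^ 2 ≤ ENNReal.ofReal 1 := by
      rw [eLp2]
      simp only [hg, enorm_gr_sq]
      exact hN (N + n) (Nat.le_add_right _ _) N le_rfl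
    by_contra h2
    rw [not_lt, top_le_iff] at h2
    rw [h2] at h1
    simp at h1
  have hgd : ∀ n, ∀ᵐ z ∂μ, g n z = gr (u (N + n)) z - gr (u N) z := by
    intro n
    filter_upwards [hd (N + n), hd N] with z h1 h2
    exact gr_sub h1 h2
  obtain ⟨H, hH, hHl⟩ := lp_lim hgm (by
    intro ε hε
    obtain ⟨N1, h1⟩ := h.cau ε hε
    refine ⟨N1, fun m hm n hn => ?_⟩
    refine le_trans (le_of_eq ?_) (h1 (N + m) (hm.trans (Nat.le_add_left _ _)) (N + n)
      (hn.trans (Nat.le_add_left _ _)))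
    refine lintegral_congr_ae ?_
    filter_upwards [hgd m, hgd n, hd (N + m), hd (N + n)] with z e1 e2 d1 d2
    rw [e1, e2, ← enorm_gr_sq, gr_sub d1 d2]
    congr 2
    ring)
  set G : ℂ → ℂ := fun z => H z + gr (u N) z with hG
  have hGl : LocallyIntegrableOn G U := (locInt_of_memLp hU hH).add (locInt_gr hU (h.lip N))
  have hxl : LocallyIntegrableOn x U := hxc.locallyIntegrableOn hU.measurableSet
  -- test functions in `L²`
  have hcpt : ∀ β : ℂ → ℂ, Continuous β → HasCompactSupport β → MemLp β 2 μ := fun β h1 h2 =>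
    (h1.memLp_of_hasCompactSupport h2).restrict U
  have hsplit : ∀ (n : ℕ) (β : ℂ → ℂ), Continuous β → HasCompactSupport β → tsupport β ⊆ U →
      ∫ z in U, gr (u (N + n)) z * β z =
        (∫ z in U, g n z * β z) + ∫ z in U, gr (u N) z * β z := by
    intro n β h1 h2 h3
    have i1 : Integrable (fun z => g n z * β z) μ := (hgm n).integrable_mul (hcpt β h1 h2)
    have i2 : Integrable (fun z => gr (u N) z * β z) μ := by
      have := integrable_mul_test (locInt_gr hU (h.lip N)) h1 h2 h3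
      exact this.restrict
    rw [← integral_add i1 i2]
    refine integral_congr_ae ?_
    filter_upwards [hgd n] with z hz
    rw [hz]
    ring
  have hsplitG : ∀ β : ℂ → ℂ, Continuous β → HasCompactSupport β → tsupport β ⊆ U →
      ∫ z in U, G z * β z = (∫ z in U, H z * β z) + ∫ z in U, gr (u N) z * β z := by
    intro β h1 h2 h3
    have i1 : Integrable (fun z => H z * β z) μ := hH.integrable_mul (hcpt β h1 h2)
    have i2 : Integrable (fun z => gr (u N) z * β z) μ := by
      have := integrable_mul_test (locInt_gr hU (h.lip N)) h1 h2 h3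
      exact this.restrict
    rw [← integral_add i1 i2]
    refine integral_congr_ae (ae_of_all _ fun z => ?_)
    simp only [hG]
    ring
  have hlimG : ∀ β : ℂ → ℂ, Continuous β → HasCompactSupport β → tsupport β ⊆ U →
      Tendsto (fun n => ∫ z in U, gr (u (N + n)) z * β z) atTop (𝓝 (∫ z in U, G z * β z)) := by
    intro β h1 h2 h3
    rw [hsplitG β h1 h2 h3]
    refine ((lim_int hgm hH hHl (hcpt β h1 h2)).add_const _).congr fun n => ?_
    rw [hsplit n β h1 h2 h3]
  have hset : ∀ (Y β : ℂ → ℂ), tsupport β ⊆ U → ∫ z in U, Y z * β z = ∫ z, Y z * β z := by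
    intro Y β h3
    refine setIntegral_eq_integral_of_forall_compl_eq_zero fun z hz => ?_
    rw [image_eq_zero_of_notMem_tsupport fun h' => hz (h3 h'), mul_zero]
  -- the shifted functions
  have hv : ∀ n, LocallyLipschitzOn U (fun z => u n z - u n z0) := fun n =>
    Bd_775.ll_sub (h.lip n) (fun z _ => ⟨0, univ, univ_mem, by
      intro a _ b _; simp⟩)
  -- weak gradient
  have hw : ∀ ψ : ℂ → ℝ, ContDiff ℝ ∞ ψ → HasCompactSupport ψ → tsupport ψ ⊆ U →
      ∫ z, (x z : ℂ) * gr ψ z = - ∫ z, (ψ z : ℂ) * G z := by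
    intro ψ h1 h2 h3
    have hgc : Continuous (gr ψ) := continuous_gr (h1.of_le (by exact_mod_cast le_top))
    have hT : Tst U ψ := Tst.of_supp h1 h2 h3
    have hgs : tsupport (gr ψ) ⊆ U := (tsupport_gr ψ).trans hT.sub
    have hgcpt : HasCompactSupport (gr ψ) := hT.cpt_gr
    have hψc : Continuous (fun z => (ψ z : ℂ)) := continuous_ofReal.comp h1.continuous
    have hψs1 : tsupport (fun z => (ψ z : ℂ)) ⊆ tsupport ψ := closure_mono fun z hz => by
      intro h'
      exact hz (by simp [h'])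
    have hψs : tsupport (fun z => (ψ z : ℂ)) ⊆ U := hψs1.trans h3
    have hψcpt : HasCompactSupport (fun z => (ψ z : ℂ)) :=
      h2.of_isClosed_subset (isClosed_tsupport _) hψs1
    -- left side
    have hL : Tendsto (fun n => ∫ z, ((u n z - u n z0 : ℝ) : ℂ) * gr ψ z) atTop
        (𝓝 (∫ z, (x z : ℂ) * gr ψ z)) := by
      have hun := (tendstoLocallyUniformlyOn_iff_forall_isCompact hU).1 hx _ hgs hgcpt
      rw [Metric.tendstoUniformlyOn_iff] at hun
      have hK : IsCompact (tsupport (gr ψ)) := hgcpt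
      obtain ⟨M, hM⟩ := hK.exists_bound_of_continuousOn (hxc.mono hgs)
      refine tendsto_integral_filter_of_dominated_convergence (fun z => (M + 1) * ‖gr ψ z‖) ?_ ?_
        ?_ ?_
      · refine Eventually.of_forall fun n => ?_
        have := integrable_mul_test
          (((continuous_ofReal.comp_continuousOn (hv n).continuousOn).locallyIntegrableOn
            hU.measurableSet : LocallyIntegrableOn (fun z => ((u n z - u n z0 : ℝ) : ℂ)) U))
          hgc hgcpt hgs
        exact this.aestronglyMeasurable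
      · filter_upwards [hun 1 one_pos] with n hn
        refine ae_of_all _ fun z => ?_
        by_cases hz : z ∈ tsupport (gr ψ)
        · rw [norm_mul, Complex.norm_real]
          refine mul_le_mul_of_nonneg_right ?_ (norm_nonneg _)
          have e1 := hn z hz
          have e2 := hM z hz
          rw [Real.dist_eq, abs_lt] at e1
          rw [Real.norm_eq_abs, abs_le] at e2
          rw [Real.norm_eq_abs, abs_le]
          constructor <;> linarith [e1.1, e1.2, e2.1, e2.2]
        · rw [image_eq_zero_of_notMem_tsupport hz]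
          simp
      · exact (hgc.norm.integrable_of_hasCompactSupport hgcpt.norm).const_mul _
      · refine ae_of_all _ fun z => ?_
        by_cases hz : z ∈ tsupport (gr ψ)
        · have := hx.tendsto_at (hgs hz)
          exact ((continuous_ofReal.tendsto _).comp this).mul_const _
        · rw [image_eq_zero_of_notMem_tsupport hz]
          simp
    have hL' := hL.comp (tendsto_add_atTop_nat N)
    -- right side
    have hR := (hlimG _ hψc hψcpt hψs).neg
    have heq : ∀ n, ∫ z, ((u (n + N) z - u (n + N) z0 : ℝ) : ℂ) * gr ψ z =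
        - ∫ z in U, gr (u (N + n)) z * (ψ z : ℂ) := by
      intro n
      rw [weak_gr hU (hv (n + N)) h1 h2 h3, hset _ _ hψs, add_comm N n]
      congr 1
      refine integral_congr_ae (ae_of_all _ fun z => ?_)
      simp only [gr_sub_const]
      ring
    have h5 : Tendsto (fun n => - ∫ z in U, gr (u (N + n)) z * (ψ z : ℂ)) atTop
        (𝓝 (∫ z, (x z : ℂ) * gr ψ z)) := hL'.congr fun n => heq n
    rw [tendsto_nhds_unique h5 hR, hset _ _ hψs]
    congr 1
    refine integral_congr_ae (ae_of_all _ fun z => ?_)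
    simp only
    ring
  -- orthogonality
  have hT : ∀ ψ : ℂ → ℝ, Tst U ψ → ∫ z, conj (G z) * gr ψ z = 0 := by
    intro ψ hψ
    have hgc : Continuous (gr ψ) := continuous_gr (hψ.sm.of_le (by exact_mod_cast le_top))
    have hgs : tsupport (gr ψ) ⊆ U := (tsupport_gr ψ).trans hψ.sub
    set β : ℂ → ℂ := fun z => conj (gr ψ z) with hβ
    have hβc : Continuous β := continuous_conj.comp hgc
    have hβs1 : tsupport β ⊆ tsupport (gr ψ) := closure_mono fun z hz => by
      intro h'
      exact hz (by simp [hβ, h'])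
    have hβs : tsupport β ⊆ U := hβs1.trans hgs
    have hβcpt : HasCompactSupport β :=
      hψ.cpt_gr.of_isClosed_subset (isClosed_tsupport _) hβs1
    have h1 := hlimG β hβc hβcpt hβs
    have h2 : ∀ n, ∫ z in U, gr (u (N + n)) z * β z =
        conj (((∫ z in U, Bd_775.dot (u (N + n)) ψ z : ℝ) : ℂ)) := by
      intro n
      have hcl : LocallyIntegrableOn (fun z => conj (gr (u (N + n)) z)) U := by
        intro z hz
        obtain ⟨s, hs, hi⟩ := locInt_gr hU (h.lip (N + n)) z hz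
        exact ⟨s, hs,
          (Complex.conjLIE.toContinuousLinearEquiv.toContinuousLinearMap.integrable_comp hi : _)⟩
      have h3 := int_conj_gr (hψ.int_gr hcl)
      rw [wdg_tst hU (h.lip (N + n)) hψ, ofReal_zero, zero_mul, add_zero] at h3
      have h4 : ∫ z in U, Bd_775.dot (u (N + n)) ψ z = ∫ z, Tra_937.dot (u (N + n)) ψ z := by
        refine setIntegral_eq_integral_of_forall_compl_eq_zero fun z hz => ?_
        exact dot_of_notMem fun h' => hz (hψ.sub h')
      rw [h4, ← h3, ← integral_conj, hset _ _ hβs]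
      refine integral_congr_ae (ae_of_all _ fun z => ?_)
      simp [hβ]
    have h3 : Tendsto (fun n => ∫ z in U, gr (u (N + n)) z * β z) atTop (𝓝 0) := by
      have h4 := (hEL ψ hψ).comp (tendsto_add_atTop_nat N)
      have h5 : Tendsto (fun n : ℕ => conj (((∫ z in U, Bd_775.dot (u (n + N)) ψ z : ℝ) : ℂ)))
          atTop (𝓝 (conj ((0 : ℝ) : ℂ))) :=
        (continuous_conj.tendsto _).comp ((continuous_ofReal.tendsto _).comp h4)
      rw [ofReal_zero, map_zero] at h5
      refine h5.congr fun n => ?_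
      rw [h2 n, add_comm]
    have h4 : ∫ z, G z * β z = 0 := by
      rw [← hset _ _ hβs]
      exact tendsto_nhds_unique h1 h3
    have h5 := congrArg conj h4
    rw [← integral_conj, map_zero] at h5
    rw [← h5]
    refine integral_congr_ae (ae_of_all _ fun z => ?_)
    simp [hβ]
  obtain ⟨F, hF, hFx, hFG⟩ := completion_weak hU hxl hGl hw hT
  have hre : EqOn (fun z => (F z).re) x U := by
    refine Measure.eqOn_open_of_ae_eq (μ := (volume : Measure ℂ)) ?_ hU
      (continuous_re.comp_continuousOn hF.continuousOn) hxc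
    rw [Filter.EventuallyEq, ae_restrict_iff' hU.measurableSet]
    exact hFx
  refine ⟨F, N, H, hF, ?_, ?_, hH, ?_⟩
  · exact hx.congr_right fun z hz => (hre hz).symm
  · have h1 : ∀ n, ∫⁻ z in U, ENNReal.ofReal (en (fun z => u (N + n) z - (F z).re) z) =
        ∫⁻ z, ‖g n z - H z‖ₑ ^ 2 ∂μ := by
      intro n
      refine lintegral_congr_ae ?_
      filter_upwards [hd (N + n), hgd n, (ae_restrict_iff' hU.measurableSet).2 hFG,
        ae_restrict_mem hU.measurableSet] with z d1 e1 e2 hz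
      have hFd : DifferentiableAt ℂ F z := (hF z hz).differentiableAt (hU.mem_nhds hz)
      have d3 : DifferentiableAt ℝ (fun z => (F z).re) z :=
        reCLM.differentiableAt.comp z (hFd.restrictScalars ℝ)
      rw [← enorm_gr_sq, gr_sub d1 d3, gr_re_hol hFd, ← e2, e1]
      congr 2
      simp only [hG]
      ring
    have h2 : Tendsto (fun n => ∫⁻ z in U,
        ENNReal.ofReal (en (fun z => u (N + n) z - (F z).re) z)) atTop (𝓝 0) :=
      hHl.congr fun n => (h1 n).symm
    have h3 : Tendsto (fun n => ∫⁻ z in U,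
        ENNReal.ofReal (en (fun z => u (n + N) z - (F z).re) z)) atTop (𝓝 0) := by
      refine h2.congr fun n => ?_
      rw [add_comm]
    exact (tendsto_add_atTop_iff_nat N).1 h3
  · filter_upwards [hFG] with z hz hzU
    rw [← hz hzU]

/-- behaviour at infinity -/
theorem at_inf {F H : ℂ → ℂ} {v : ℂ → ℝ} (hU : IsOpen U) (hF : DifferentiableOn ℂ F U)
    (hH : MemLp H 2 (volume.restrict U)) (hG : ∀ᵐ z, z ∈ U → conj (deriv F z) = H z + gr v z)
    (hv : LocallyLipschitzOn U v) {R : ℝ} (hR : {z : ℂ | R < ‖z‖} ⊆ U)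
    (hfin : ∫⁻ z in {z : ℂ | R < ‖z‖}, ENNReal.ofReal (en (fun z => v z - z.re) z) ≠ ⊤) :
    ∃ c, Tendsto (fun z => F z - z) (cocompact ℂ) (𝓝 c) := by
  set W : Set ℂ := {z : ℂ | R < ‖z‖} with hW
  have hWo : IsOpen W := isOpen_lt continuous_const continuous_norm
  have hFd : ∀ z ∈ W, DifferentiableAt ℂ F z := fun z hz =>
    (hF z (hR hz)).differentiableAt (hU.mem_nhds (hR hz))
  have hvd : ∀ᵐ z, z ∈ U → DifferentiableAt ℝ v z :=
    (ae_restrict_iff' hU.measurableSet).1 (Bd_775.ae_diff hU hv)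
  -- `F' - 1` is square integrable
  have h1 : ∀ᵐ z ∂(volume.restrict W), conj (deriv F z - 1) = H z + gr (fun z => v z - z.re) z := by
    rw [ae_restrict_iff' hWo.measurableSet]
    filter_upwards [hG, hvd] with z e1 e2 hz
    have e3 : gr (fun z : ℂ => z.re) z = 1 := by
      unfold gr
      have : fderiv ℝ (fun z : ℂ => z.re) z = reCLM := reCLM.fderiv
      rw [this]
      simp
    have d3 : DifferentiableAt ℝ (fun z : ℂ => z.re) z := reCLM.differentiableAt
    rw [gr_sub (e2 (hR hz)) d3, e3, map_sub, map_one, e1 (hR hz)]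
    ring
  have h2 : MemLp (gr (fun z => v z - z.re)) 2 (volume.restrict W) := by
    refine ⟨(measurable_gr _).aestronglyMeasurable, ?_⟩
    by_contra h3
    rw [not_lt, top_le_iff] at h3
    have h4 := eLp2 (gr (fun z => v z - z.re)) (volume.restrict W)
    simp only [enorm_gr_sq] at h4
    rw [h3] at h4
    apply hfin
    rw [← h4]
    simp
  have h3 : MemLp H 2 (volume.restrict W) := hH.mono_measure (Measure.restrict_mono hR le_rfl)
  have h4 : MemLp (fun z => conj (deriv F z - 1)) 2 (volume.restrict W) :=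
    (memLp_congr_ae (h1 : (fun z => conj (deriv F z - 1)) =ᵐ[volume.restrict W] _)).2 (h3.add h2)
  have h5 : IntegrableOn (fun z => ‖deriv F z - 1‖ ^ 2) W := by
    have h6 := (memLp_two_iff_integrable_sq_norm h4.1).1 h4
    refine h6.congr (ae_of_all _ fun z => ?_)
    simp only [RCLike.norm_conj]
  have h6 : ∀ z : ℂ, R < ‖z‖ → DifferentiableAt ℂ (fun z => deriv F z - 1) z := by
    intro z hz
    have h7 : DifferentiableOn ℂ (deriv F) U := hF.deriv hU
    exact ((h7 z (hR hz)).differentiableAt (hU.mem_nhds (hR hz))).sub_const _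
  obtain ⟨C, R1, hC, hR1, hb⟩ := Prim591.sq_decay h6 h5
  refine Prim591.prim_tendsto (R := max R R1) (h := fun z => deriv F z - 1) (C := C) ?_ ?_ ?_
  · intro z hz
    exact h6 z ((le_max_left _ _).trans_lt hz)
  · intro z hz
    exact hb z ((le_max_right _ _).trans_lt hz)
  · intro z hz
    have := (hFd z ((le_max_left _ _).trans_lt hz)).hasDerivAt.sub (hasDerivAt_id z)
    exact this

end Crest.Agent.R105.Cnv_755
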