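import Mathlib

/-!
# Row 105, S0138, NI-COAREA (helper392), part 1

* `null_of_null_image`: invertible derivative on `s` and null image imply `s` null;
* `grad_zero`: the gradient of a locally Lipschitz function vanishes a.e. on the preimage of a null set;
* `area_le`: area inequality for a pair of locally Lipschitz functions.
-/

set_option autoImplicit false

open MeasureTheory Set Filter Topology Metric
open scoped ENNReal NNReal

namespace Crest.Agent.R105.Coa_392

/-! ### invertible derivative and null image -/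

theorem null_of_null_image {E : Type*} [NormedAddCommGroup E] [NormedSpace ℝ E]
    [FiniteDimensional ℝ E] [MeasurableSpace E] [BorelSpace E] (μ : Measure E)
    [μ.IsAddHaarMeasure] {s : Set E} (hs : MeasurableSet s) {f : E → E} {f' : E → E →L[ℝ] E}
    (hf' : ∀ x ∈ s, HasFDerivWithinAt f (f' x) s x) (hdet : ∀ x ∈ s, (f' x).det ≠ 0)
    (h0 : μ (f '' s) = 0) : μ s = 0 := by
  classical
  rcases s.eq_empty_or_nonempty with rfl | hne
  · simp
  -- the admissible error
  have hr : ∀ A : E →L[ℝ] E, ∃ r : ℝ≥0, r ≠ 0 ∧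
      (A.det ≠ 0 → ∀ (t : Set E), ApproximatesLinearOn f A t r → InjOn f t) := by
    intro A
    by_cases hA : A.det = 0
    · exact ⟨1, one_ne_zero, fun h => absurd hA h⟩
    · set B : E ≃L[ℝ] E := A.toContinuousLinearEquivOfDetNeZero hA with hB
      have hBA : (B : E →L[ℝ] E) = A := by
        ext x; simp [hB]
      rcases subsingleton_or_nontrivial E with hE | hE
      · exact ⟨1, one_ne_zero, fun _ t _ => fun x _ y _ _ => Subsingleton.elim x y⟩
      · have hpos : 0 < ‖(B.symm : E →L[ℝ] E)‖₊ := B.nnnorm_symm_pos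
        refine ⟨‖(B.symm : E →L[ℝ] E)‖₊⁻¹ / 2, (by positivity), fun _ t ht => ?_⟩
        rw [← hBA] at ht
        refine ht.injOn (Or.inr ?_)
        exact NNReal.half_lt_self (by positivity)
  choose r hr0 hr1 using hr
  obtain ⟨t, A, -, ht, hcov, happ, hA⟩ :=
    exists_partition_approximatesLinearOn_of_hasFDerivWithinAt f s f' hf' r hr0
  have key : ∀ n, μ (s ∩ t n) = 0 := by
    intro n
    obtain ⟨y, hy, hAy⟩ := hA hne n
    have hinj : InjOn f (s ∩ t n) := hr1 (A n) (by rw [hAy]; exact hdet y hy) _ (happ n)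
    have hms : MeasurableSet (s ∩ t n) := hs.inter (ht n)
    have hd : ∀ x ∈ s ∩ t n, HasFDerivWithinAt f (f' x) (s ∩ t n) x := fun x hx =>
      (hf' x hx.1).mono inter_subset_left
    have h1 := lintegral_abs_det_fderiv_eq_addHaar_image μ hms hd hinj
    have h2 : μ (f '' (s ∩ t n)) = 0 := measure_mono_null (image_mono inter_subset_left) h0
    rw [h2] at h1
    have h3 : (fun x => ENNReal.ofReal |(f' x).det|) =ᵐ[μ.restrict (s ∩ t n)] 0 :=
      (lintegral_eq_zero_iff' (aemeasurable_ofReal_abs_det_fderivWithin μ hms hd)).1 h1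
    rw [Filter.EventuallyEq, ae_restrict_iff' hms] at h3
    rw [← nonpos_iff_eq_zero]
    refine (measure_mono (t := {x | ¬ (x ∈ s ∩ t n → ENNReal.ofReal |(f' x).det| = (0 : E → ℝ≥0∞) x)})
      ?_).trans (le_of_eq h3)
    intro x hx hx'
    have := hx' hx
    simp only [Pi.zero_apply, ENNReal.ofReal_eq_zero] at this
    exact hdet x hx.1 (abs_eq_zero.1 (le_antisymm this (abs_nonneg _)))
  have : s = ⋃ n, s ∩ t n := by
    rw [← inter_iUnion]; exact (inter_eq_self_of_subset_left hcov).symm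
  rw [this]
  exact measure_iUnion_null key

/-! ### determinants of real linear maps of `ℂ` -/

theorem det_eq (A : ℂ →L[ℝ] ℂ) :
    A.det = (A 1).re * (A Complex.I).im - (A Complex.I).re * (A 1).im := by
  rw [ContinuousLinearMap.det, ← LinearMap.det_toMatrix Complex.basisOneI, Matrix.det_fin_two]
  simp [LinearMap.toMatrix_apply]

/-! ### a.e. differentiability -/

theorem ae_diff {U : Set ℂ} (hU : IsOpen U) {F : Type*} [NormedAddCommGroup F] [NormedSpace ℝ F]
    [FiniteDimensional ℝ F] {u : ℂ → F}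
    (hu : LocallyLipschitzOn U u) : ∀ᵐ z : ℂ, z ∈ U → DifferentiableAt ℝ u z := by
  have key : ∀ z ∈ U, ∃ V ∈ 𝓝[U] z, volume {w | ¬ (w ∈ U → DifferentiableAt ℝ u w) ∧ w ∈ V} = 0 := by
    intro z hz
    obtain ⟨K, t, ht, hK⟩ := hu hz
    rw [hU.nhdsWithin_eq hz] at ht
    obtain ⟨r, hr, hrt⟩ := Metric.mem_nhds_iff.1 ht
    refine ⟨ball z r ∩ U, inter_mem (mem_nhdsWithin_of_mem_nhds (ball_mem_nhds z hr))
      self_mem_nhdsWithin, ?_⟩
    have h1 : ∀ᵐ w ∂(volume.restrict (ball z r)), DifferentiableWithinAt ℝ u (ball z r) w :=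
      (hK.mono hrt).ae_differentiableWithinAt measurableSet_ball
    rw [ae_restrict_iff' measurableSet_ball] at h1
    refine measure_mono_null ?_ h1
    rintro w ⟨hw1, hw2⟩ hw3
    exact hw1 fun _ => (hw3 hw2.1).differentiableAt (isOpen_ball.mem_nhds hw2.1)
  have h2 : volume ({w | ¬ (w ∈ U → DifferentiableAt ℝ u w)} ∩ U) = 0 := by
    refine measure_null_of_locally_null _ fun z hz => ?_
    obtain ⟨V, hV, hV0⟩ := key z hz.2
    refine ⟨{w | ¬ (w ∈ U → DifferentiableAt ℝ u w)} ∩ U ∩ V, ?_, ?_⟩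
    · exact inter_mem self_mem_nhdsWithin
        (nhdsWithin_mono _ inter_subset_right hV)
    · refine measure_mono_null ?_ hV0
      rintro w ⟨⟨hw1, -⟩, hw2⟩
      exact ⟨hw1, hw2⟩
  refine measure_mono_null ?_ h2
  intro w hw
  refine ⟨hw, ?_⟩
  by_contra hwU
  exact hw fun h => absurd h hwU

theorem continuousOn_of_lip {U : Set ℂ} {F : Type*} [PseudoEMetricSpace F] {u : ℂ → F}
    (hu : LocallyLipschitzOn U u) : ContinuousOn u U := hu.continuousOn

/-! ### the gradient vanishes on preimages of null sets -/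

theorem measurable_indicator {U : Set ℂ} (hU : IsOpen U) {a : ℂ → ℝ} (ha : ContinuousOn a U) :
    Measurable (U.indicator a) := by
  classical
  have h := ContinuousOn.measurable_piecewise (f := a) (g := fun _ => (0 : ℝ)) ha
    continuousOn_const hU.measurableSet
  have h2 : U.piecewise a (fun _ => (0 : ℝ)) = U.indicator a := by
    ext z; simp [Set.piecewise, Set.indicator]
  rwa [h2] at h

theorem measurableSet_diff (u : ℂ → ℝ) : MeasurableSet {z : ℂ | DifferentiableAt ℝ u z} :=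
  measurableSet_of_differentiableAt ℝ u

theorem null_re {Z : Set ℝ} (hZ : volume Z = 0) : volume {w : ℂ | w.re ∈ Z} = 0 := by
  have h1 : {w : ℂ | w.re ∈ Z} = Complex.measurableEquivRealProd ⁻¹' (Z ×ˢ univ) := by
    ext w; simp
  rw [h1, Complex.volume_preserving_equiv_real_prod.measure_preimage_equiv,
    Measure.volume_eq_prod, Measure.prod_prod, hZ, zero_mul]

theorem grad_zero_dir {U : Set ℂ} (hU : IsOpen U) {a : ℂ → ℝ} (ha : LocallyLipschitzOn U a)
    {Z : Set ℝ} (hZ : volume Z = 0) (hZm : MeasurableSet Z) {v : ℂ} {L : ℂ →L[ℝ] ℝ}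
    (hdet : ∀ M : ℂ →L[ℝ] ℝ, M v ≠ 0 → M 1 * L Complex.I - M Complex.I * L 1 ≠ 0) :
    ∀ᵐ z : ℂ, z ∈ U → a z ∈ Z → fderiv ℝ a z v = 0 := by
  classical
  set S : Set ℂ := (U ∩ {z : ℂ | U.indicator a z ∈ Z}) ∩ ({z : ℂ | DifferentiableAt ℝ a z} ∩
    {z : ℂ | fderiv ℝ a z v ≠ 0}) with hS
  have hSm : MeasurableSet S := by
    refine (hU.measurableSet.inter (measurable_indicator hU ha.continuousOn hZm)).inter
      ((measurableSet_diff a).inter ?_)
    exact (measurableSet_eq_fun (measurable_fderiv_apply_const ℝ a v) measurable_const).compl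
  set Φ : ℂ → ℂ := fun z => (a z : ℂ) + (L z : ℂ) * Complex.I with hΦ
  set Φ' : ℂ → ℂ →L[ℝ] ℂ := fun z => Complex.ofRealCLM.comp (fderiv ℝ a z) +
    Complex.I • (Complex.ofRealCLM.comp L) with hΦ'
  have hd : ∀ z ∈ S, HasFDerivWithinAt Φ (Φ' z) S z := by
    rintro z ⟨-, hz, -⟩
    have h1 : HasFDerivAt (fun z => (a z : ℂ)) (Complex.ofRealCLM.comp (fderiv ℝ a z)) z :=
      Complex.ofRealCLM.hasFDerivAt.comp z hz.hasFDerivAt
    have h2 : HasFDerivAt (fun z => (L z : ℂ)) (Complex.ofRealCLM.comp L) z :=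
      Complex.ofRealCLM.hasFDerivAt.comp z L.hasFDerivAt
    have h3 : HasFDerivAt (fun z => (L z : ℂ) * Complex.I) (Complex.I • (Complex.ofRealCLM.comp L)) z := by
      simpa [mul_comm] using h2.mul_const Complex.I
    exact (h1.add h3).hasFDerivWithinAt
  have hdet' : ∀ z ∈ S, (Φ' z).det ≠ 0 := by
    rintro z ⟨-, -, hz⟩
    rw [det_eq]
    have := hdet (fderiv ℝ a z) hz
    simpa [hΦ'] using this
  have h0 : volume (Φ '' S) = 0 := by
    refine measure_mono_null ?_ (null_re hZ)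
    rintro _ ⟨z, ⟨⟨hzU, hz⟩, -⟩, rfl⟩
    simp only [mem_ofPred_eq, indicator_of_mem hzU] at hz
    simpa [hΦ] using hz
  have hS0 := null_of_null_image volume hSm hd hdet' h0
  have h4 := ae_diff hU ha
  rw [← compl_mem_ae_iff] at hS0
  filter_upwards [h4, hS0] with z h5 h6 hzU hzZ
  by_contra h7
  exact h6 ⟨⟨hzU, by simpa [indicator_of_mem hzU] using hzZ⟩, h5 hzU, h7⟩

/-- the gradient of a locally Lipschitz function vanishes a.e. on the preimage of a null set -/
theorem grad_zero {U : Set ℂ} (hU : IsOpen U) {a : ℂ → ℝ} (ha : LocallyLipschitzOn U a)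
    {Z : Set ℝ} (hZ : volume Z = 0) : ∀ᵐ z : ℂ, z ∈ U → a z ∈ Z → fderiv ℝ a z = 0 := by
  set Z' := toMeasurable volume Z with hZ'
  have h1 : volume Z' = 0 := by rw [hZ', measure_toMeasurable, hZ]
  have h2 : MeasurableSet Z' := measurableSet_toMeasurable _ _
  have h3 := grad_zero_dir hU ha h1 h2 (v := 1) (L := Complex.imCLM)
    (fun M hM => by simpa using hM)
  have h4 := grad_zero_dir hU ha h1 h2 (v := Complex.I) (L := Complex.reCLM)
    (fun M hM => by simpa using hM)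
  filter_upwards [h3, h4] with z h5 h6 hzU hzZ
  have h7 := h5 hzU (subset_toMeasurable _ _ hzZ)
  have h8 := h6 hzU (subset_toMeasurable _ _ hzZ)
  ext w
  have : w = w.re • (1 : ℂ) + w.im • Complex.I := by simp
  rw [this, map_add, map_smul, map_smul, h7, h8]
  simp

/-! ### null sets and the area inequality -/

theorem null_image {U : Set ℂ} {Φ : ℂ → ℝ × ℝ} (hΦ : LocallyLipschitzOn U Φ) {N : Set ℂ}
    (hN : N ⊆ U) (h0 : volume N = 0) : volume (Φ '' N) = 0 := by
  choose! K t ht hK using fun z (hz : z ∈ U) => hΦ hz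
  obtain ⟨T, hTU, hTc, hcov⟩ := TopologicalSpace.countable_cover_nhdsWithin ht
  have key : ∀ z ∈ T, volume (Φ '' (N ∩ t z)) = 0 := by
    intro z hz
    set e : (ℝ × ℝ) ≃L[ℝ] ℂ := Complex.equivRealProdCLM.symm with he
    have h1 : LipschitzOnWith (K z * ‖(e : (ℝ × ℝ) →L[ℝ] ℂ)‖₊) (Φ ∘ e) (e ⁻¹' (N ∩ t z)) := by
      refine (hK z (hTU hz)).comp (e.lipschitz.lipschitzOnWith) ?_
      intro p hp
      exact hp.2
    have h2 : (e ⁻¹' (N ∩ t z)) = Complex.measurableEquivRealProd.symm ⁻¹' (N ∩ t z) := rfl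
    have h3 : volume (e ⁻¹' (N ∩ t z)) = 0 := by
      rw [h2, Complex.volume_preserving_equiv_real_prod.symm.measure_preimage_equiv]
      exact measure_mono_null inter_subset_left h0
    have h4 : (Φ ∘ e) '' (e ⁻¹' (N ∩ t z)) = Φ '' (N ∩ t z) := by
      rw [image_comp, image_preimage_eq _ e.surjective]
    rw [← h4, ← hausdorffMeasure_prod_real]
    rw [← nonpos_iff_eq_zero]
    refine (h1.hausdorffMeasure_image_le (by norm_num)).trans ?_
    rw [hausdorffMeasure_prod_real, h3, mul_zero]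
  have h5 : Φ '' N ⊆ ⋃ z ∈ T, Φ '' (N ∩ t z) := by
    rintro _ ⟨w, hw, rfl⟩
    obtain ⟨z, hz, hwz⟩ := mem_iUnion₂.1 (hcov (hN hw))
    exact mem_iUnion₂.2 ⟨z, hz, w, ⟨hw, hwz⟩, rfl⟩
  exact measure_mono_null h5 ((measure_biUnion_null_iff hTc).2 key)

theorem det_le (M L : ℂ →L[ℝ] ℝ) : |M 1 * L Complex.I - M Complex.I * L 1| ≤ ‖M‖ * ‖L‖ := by
  set u : ℂ := (L 1 : ℂ) + (L Complex.I : ℂ) * Complex.I with hu
  set w : ℂ := (L Complex.I : ℂ) - (L 1 : ℂ) * Complex.I with hw
  have h1 : M w = M 1 * L Complex.I - M Complex.I * L 1 := by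
    have : w = (L Complex.I) • (1 : ℂ) - (L 1) • Complex.I := by simp [hw]
    rw [this, map_sub, map_smul, map_smul, smul_eq_mul, smul_eq_mul]; ring
  have h2 : L u = ‖u‖ ^ 2 := by
    have : u = (L 1) • (1 : ℂ) + (L Complex.I) • Complex.I := by simp [hu]
    rw [Complex.sq_norm, Complex.normSq_apply]
    conv_lhs => rw [this, map_add, map_smul, map_smul, smul_eq_mul, smul_eq_mul]
    simp [hu]
  have h3 : ‖w‖ = ‖u‖ := by
    rw [← sq_eq_sq₀ (norm_nonneg _) (norm_nonneg _), Complex.sq_norm, Complex.sq_norm,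
      Complex.normSq_apply, Complex.normSq_apply]
    simp [hu, hw]; ring
  have h4 : ‖u‖ ≤ ‖L‖ := by
    have h5 : ‖u‖ ^ 2 ≤ ‖L‖ * ‖u‖ := by
      rw [← h2]; exact (le_abs_self _).trans (L.le_opNorm u)
    by_contra h6
    push Not at h6
    have : 0 < ‖u‖ := lt_of_le_of_lt (norm_nonneg L) h6
    nlinarith
  rw [← h1]
  calc |M w| ≤ ‖M‖ * ‖w‖ := M.le_opNorm w
    _ ≤ ‖M‖ * ‖L‖ := by rw [h3]; gcongr

theorem area_le {U : Set ℂ} (hU : IsOpen U) {a b : ℂ → ℝ} (ha : LocallyLipschitzOn U a)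
    (hb : LocallyLipschitzOn U b) {A : Set ℂ} (hA : MeasurableSet A) :
    volume ((fun z => (a z, b z)) '' (A ∩ U)) ≤
      ∫⁻ z in A ∩ U, ‖fderiv ℝ a z‖ₑ * ‖fderiv ℝ b z‖ₑ := by
  set D : Set ℂ := {z : ℂ | DifferentiableAt ℝ a z} ∩ {z : ℂ | DifferentiableAt ℝ b z} with hD
  have hDm : MeasurableSet D := (measurableSet_diff a).inter (measurableSet_diff b)
  have hAU : MeasurableSet (A ∩ U) := hA.inter hU.measurableSet
  have h0 : volume ((A ∩ U) \ D) = 0 := by
    have h1 := (ae_diff hU ha).and (ae_diff hU hb)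
    refine measure_mono_null ?_ h1
    rintro z ⟨⟨-, hzU⟩, hzD⟩ hz
    exact hzD ⟨hz.1 hzU, hz.2 hzU⟩
  have hlip : LocallyLipschitzOn U (fun z => (a z, b z)) := by
    intro z hz
    obtain ⟨K, t, ht, hK⟩ := ha hz
    obtain ⟨K', t', ht', hK'⟩ := hb hz
    exact ⟨max K K', t ∩ t', inter_mem ht ht',
      (hK.mono inter_subset_left).prodMk (hK'.mono inter_subset_right)⟩
  have hnull : volume ((fun z => (a z, b z)) '' ((A ∩ U) \ D)) = 0 :=
    null_image hlip (fun z hz => hz.1.2) h0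
  -- the differentiable part
  set G : Set ℂ := (A ∩ U) ∩ D with hG
  have hGm : MeasurableSet G := hAU.inter hDm
  set Ψ : ℂ → ℂ := fun z => (a z : ℂ) + (b z : ℂ) * Complex.I with hΨ
  set Ψ' : ℂ → ℂ →L[ℝ] ℂ := fun z => Complex.ofRealCLM.comp (fderiv ℝ a z) +
    Complex.I • (Complex.ofRealCLM.comp (fderiv ℝ b z)) with hΨ'
  have hd : ∀ z ∈ G, HasFDerivWithinAt Ψ (Ψ' z) G z := by
    rintro z ⟨-, hz, hz'⟩
    have h1 : HasFDerivAt (fun z => (a z : ℂ)) (Complex.ofRealCLM.comp (fderiv ℝ a z)) z :=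
      Complex.ofRealCLM.hasFDerivAt.comp z hz.hasFDerivAt
    have h2 : HasFDerivAt (fun z => (b z : ℂ)) (Complex.ofRealCLM.comp (fderiv ℝ b z)) z :=
      Complex.ofRealCLM.hasFDerivAt.comp z hz'.hasFDerivAt
    have h3 : HasFDerivAt (fun z => (b z : ℂ) * Complex.I)
        (Complex.I • (Complex.ofRealCLM.comp (fderiv ℝ b z))) z := by
      simpa [mul_comm] using h2.mul_const Complex.I
    exact (h1.add h3).hasFDerivWithinAt
  have hle := addHaar_image_le_lintegral_abs_det_fderiv volume hGm hd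
  have himg : (fun z => (a z, b z)) '' G = Complex.measurableEquivRealProd.symm ⁻¹' (Ψ '' G) := by
    ext p
    constructor
    · rintro ⟨z, hz, rfl⟩
      refine ⟨z, hz, ?_⟩
      apply Complex.measurableEquivRealProd.injective
      rw [MeasurableEquiv.apply_symm_apply]
      simp [hΨ]
    · rintro ⟨z, hz, hzp⟩
      refine ⟨z, hz, ?_⟩
      have h5 := congrArg Complex.measurableEquivRealProd hzp
      rw [MeasurableEquiv.apply_symm_apply] at h5
      rw [← h5]
      simp [hΨ]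
  have hvol : volume ((fun z => (a z, b z)) '' G) = volume (Ψ '' G) := by
    rw [himg, Complex.volume_preserving_equiv_real_prod.symm.measure_preimage_equiv]
  have hdet : ∀ z, ENNReal.ofReal |(Ψ' z).det| ≤ ‖fderiv ℝ a z‖ₑ * ‖fderiv ℝ b z‖ₑ := by
    intro z
    rw [det_eq]
    have h6 := det_le (fderiv ℝ a z) (fderiv ℝ b z)
    have h7 : (Ψ' z 1).re * (Ψ' z Complex.I).im - (Ψ' z Complex.I).re * (Ψ' z 1).im =
        fderiv ℝ a z 1 * fderiv ℝ b z Complex.I - fderiv ℝ a z Complex.I * fderiv ℝ b z 1 := by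
      simp [hΨ']
    rw [h7]
    calc ENNReal.ofReal _ ≤ ENNReal.ofReal (‖fderiv ℝ a z‖ * ‖fderiv ℝ b z‖) :=
          ENNReal.ofReal_le_ofReal h6
      _ = _ := by
          rw [ENNReal.ofReal_mul (norm_nonneg _), ofReal_norm, ofReal_norm]
  calc volume ((fun z => (a z, b z)) '' (A ∩ U))
      ≤ volume ((fun z => (a z, b z)) '' G ∪ (fun z => (a z, b z)) '' ((A ∩ U) \ D)) := by
        refine measure_mono ?_
        rw [← image_union, hG, inter_union_sdiff]
    _ ≤ volume ((fun z => (a z, b z)) '' G) + volume ((fun z => (a z, b z)) '' ((A ∩ U) \ D)) :=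
        measure_union_le _ _
    _ = volume (Ψ '' G) := by rw [hnull, add_zero, hvol]
    _ ≤ ∫⁻ z in G, ENNReal.ofReal |(Ψ' z).det| := hle
    _ ≤ ∫⁻ z in G, ‖fderiv ℝ a z‖ₑ * ‖fderiv ℝ b z‖ₑ := lintegral_mono fun z => hdet z
    _ ≤ ∫⁻ z in A ∩ U, ‖fderiv ℝ a z‖ₑ * ‖fderiv ℝ b z‖ₑ := by
        exact lintegral_mono_set inter_subset_left

end Crest.Agent.R105.Coa_392
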