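import Mathlib
import Crest.Agent.R105.Coa1_392

/-!
# Row 105, S0138, NI-COAREA (helper392), part 2: disintegration of `|∇a| dA` over the levels of `a`
-/

set_option autoImplicit false

open MeasureTheory Set Filter Topology Metric ProbabilityTheory
open scoped ENNReal NNReal

namespace Crest.Agent.R105.Coa_392

theorem disint {U : Set ℂ} (hU : IsOpen U) {a : ℂ → ℝ} (ha : LocallyLipschitzOn U a) :
    ∃ m : ℝ → Measure ℂ, (∀ A, MeasurableSet A → Measurable fun t => m t A) ∧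
      (∀ t, SigmaFinite (m t)) ∧
      (∀ t, m t {z | ¬ (z ∈ U ∧ a z = t)} = 0) ∧
      (∀ f : ℂ → ℝ≥0∞, Measurable f → Measurable (fun t => ∫⁻ z, f z ∂(m t)) ∧
        ∫⁻ t, ∫⁻ z, f z ∂(m t) = ∫⁻ z in U, f z * ‖fderiv ℝ a z‖ₑ) := by
  classical
  set a' : ℂ → ℝ := U.indicator a with ha'def
  have ha' : Measurable a' := measurable_indicator hU ha.continuousOn
  set g0 : ℂ → ℝ≥0 := fun z => ‖fderiv ℝ a z‖₊ with hg0def
  have hg0 : Measurable g0 := (measurable_fderiv ℝ a).nnnorm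
  set ν : Measure ℂ := (volume.restrict U).withDensity fun z => (g0 z : ℝ≥0∞) with hν
  have : SigmaFinite ν := SigmaFinite.withDensity g0
  obtain ⟨g, hgpos, hgm, hgfin⟩ := exists_pos_lintegral_lt_of_sigmaFinite ν one_ne_zero
  set ν' : Measure ℂ := ν.withDensity fun z => (g z : ℝ≥0∞) with hν'
  have : IsFiniteMeasure ν' := ⟨by
    rw [hν', withDensity_apply _ MeasurableSet.univ, Measure.restrict_univ]
    exact hgfin.trans ENNReal.one_lt_top⟩
  have hm : Measurable fun z => (a' z, z) := ha'.prodMk measurable_id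
  set ρ : Measure (ℝ × ℂ) := ν'.map fun z => (a' z, z) with hρ
  have : IsFiniteMeasure ρ := by rw [hρ]; infer_instance
  have hfst : ρ.fst = ν'.map a' := by
    rw [Measure.fst, hρ, Measure.map_map measurable_fst hm]; rfl
  have hac : ρ.fst ≪ volume := by
    refine Measure.AbsolutelyContinuous.mk fun Z hZm hZ => ?_
    rw [hfst, Measure.map_apply ha' hZm]
    refine withDensity_absolutelyContinuous ν _ ?_
    rw [hν, withDensity_apply _ (ha' hZm)]
    refine lintegral_eq_zero_of_ae_eq_zero ?_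
    rw [Measure.restrict_restrict (ha' hZm)]
    rw [Filter.EventuallyEq, ae_restrict_iff' ((ha' hZm).inter hU.measurableSet)]
    filter_upwards [grad_zero hU ha hZ] with z hz hz2
    have h1 : a z ∈ Z := by
      have := hz2.1
      rwa [mem_preimage, ha'def, indicator_of_mem hz2.2] at this
    have h2 := hz hz2.2 h1
    simp [hg0def, h2]
  set r : ℝ → ℝ≥0∞ := ρ.fst.rnDeriv volume with hr
  have hrm : Measurable r := Measure.measurable_rnDeriv _ _
  set r' : ℝ → ℝ≥0 := fun t => (r t).toNNReal with hr'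
  have hr'm : Measurable r' := hrm.ennreal_toNNReal
  have hrr : (fun t => (r' t : ℝ≥0∞)) =ᵐ[volume] r := by
    filter_upwards [Measure.rnDeriv_lt_top ρ.fst volume] with t ht
    exact ENNReal.coe_toNNReal ht.ne
  have hwd : volume.withDensity (fun t => (r' t : ℝ≥0∞)) = ρ.fst := by
    rw [withDensity_congr_ae hrr]
    exact Measure.withDensity_rnDeriv_eq _ _ hac
  set κ : Kernel ℝ ℂ := ρ.condKernel with hκ
  set L : ℝ → Set ℂ := fun t => U ∩ a' ⁻¹' {t} with hL
  have hLm : ∀ t, MeasurableSet (L t) := fun t =>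
    hU.measurableSet.inter (ha' (measurableSet_singleton t))
  set m : ℝ → Measure ℂ := fun t =>
    ((((r' t) • κ t)).withDensity (fun z => (((g z)⁻¹ : ℝ≥0) : ℝ≥0∞))).restrict (L t) with hmdef
  -- the integral against `m t`
  set F : (ℂ → ℝ≥0∞) → ℝ × ℂ → ℝ≥0∞ := fun f =>
    ({p : ℝ × ℂ | p.2 ∈ U ∧ a' p.2 = p.1}).indicator
      (fun p => (((g p.2)⁻¹ : ℝ≥0) : ℝ≥0∞) * f p.2) with hF
  have hPm : MeasurableSet {p : ℝ × ℂ | p.2 ∈ U ∧ a' p.2 = p.1} :=
    (measurable_snd hU.measurableSet).inter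
      (measurableSet_eq_fun (ha'.comp measurable_snd) measurable_fst)
  have hFm : ∀ f : ℂ → ℝ≥0∞, Measurable f → Measurable (F f) := by
    intro f hf
    exact (((hgm.inv.coe_nnreal_ennreal.comp measurable_snd).mul (hf.comp measurable_snd))).indicator
      hPm
  have hint : ∀ f : ℂ → ℝ≥0∞, Measurable f → ∀ t,
      ∫⁻ z, f z ∂(m t) = (r' t : ℝ≥0∞) * ∫⁻ z, F f (t, z) ∂(κ t) := by
    intro f hf t
    rw [hmdef]
    simp only
    have hgi : Measurable (fun z => (((g z)⁻¹ : ℝ≥0) : ℝ≥0∞)) := hgm.inv.coe_nnreal_ennreal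
    rw [← lintegral_indicator (hLm t), lintegral_withDensity_eq_lintegral_mul _
      hgi (hf.indicator (hLm t))]
    have hsm : ((r' t) • κ t : Measure ℂ) = ((r' t : ℝ≥0∞)) • κ t := rfl
    rw [hsm, lintegral_smul_measure, smul_eq_mul]
    congr 1
    refine lintegral_congr fun z => ?_
    simp only [Pi.mul_apply, hF]
    by_cases hz : z ∈ L t
    · have hz' : ((t, z) : ℝ × ℂ) ∈ {p : ℝ × ℂ | p.2 ∈ U ∧ a' p.2 = p.1} := ⟨hz.1, hz.2⟩
      rw [indicator_of_mem hz, indicator_of_mem hz']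
    · have hz' : ((t, z) : ℝ × ℂ) ∉ {p : ℝ × ℂ | p.2 ∈ U ∧ a' p.2 = p.1} := fun h => hz ⟨h.1, h.2⟩
      rw [indicator_of_notMem hz, indicator_of_notMem hz', mul_zero]
  have hmeas : ∀ f : ℂ → ℝ≥0∞, Measurable f → Measurable (fun t => ∫⁻ z, f z ∂(m t)) := by
    intro f hf
    have : (fun t => ∫⁻ z, f z ∂(m t)) = fun t => (r' t : ℝ≥0∞) * ∫⁻ z, F f (t, z) ∂(κ t) :=
      funext fun t => hint f hf t
    rw [this]
    exact hr'm.coe_nnreal_ennreal.mul ((hFm f hf).lintegral_kernel_prod_right' (κ := κ))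
  refine ⟨m, ?_, ?_, ?_, ?_⟩
  · intro A hA
    have := hmeas (A.indicator 1) (measurable_one.indicator hA)
    simpa [lintegral_indicator_one hA] using this
  · intro t
    rw [hmdef]
    infer_instance
  · intro t
    have h1 : {z : ℂ | ¬ (z ∈ U ∧ a z = t)} = (L t)ᶜ := by
      ext z
      simp only [hL, mem_ofPred_eq, mem_compl_iff, mem_inter_iff, mem_preimage, mem_singleton_iff,
        ha'def, not_iff_not]
      constructor
      · rintro ⟨h, h'⟩
        exact ⟨h, by rwa [indicator_of_mem h]⟩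
      · rintro ⟨h, h'⟩
        exact ⟨h, by rwa [indicator_of_mem h] at h'⟩
    rw [h1, hmdef]
    simp only
    rw [Measure.restrict_apply (hLm t).compl]
    simp
  · intro f hf
    refine ⟨hmeas f hf, ?_⟩
    calc ∫⁻ t, ∫⁻ z, f z ∂(m t) = ∫⁻ t, (r' t : ℝ≥0∞) * ∫⁻ z, F f (t, z) ∂(κ t) :=
          lintegral_congr fun t => hint f hf t
      _ = ∫⁻ t, ∫⁻ z, F f (t, z) ∂(κ t) ∂(volume.withDensity (fun t => (r' t : ℝ≥0∞))) := by
          rw [lintegral_withDensity_eq_lintegral_mul _ hr'm.coe_nnreal_ennreal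
            ((hFm f hf).lintegral_kernel_prod_right' (κ := κ))]
          rfl
      _ = ∫⁻ p, F f p ∂(ρ.fst ⊗ₘ κ) := by
          rw [hwd, Measure.lintegral_compProd (hFm f hf)]
      _ = ∫⁻ p, F f p ∂ρ := by rw [hκ, Measure.disintegrate]
      _ = ∫⁻ z, F f (a' z, z) ∂ν' := by rw [hρ, lintegral_map (hFm f hf) hm]
      _ = ∫⁻ z, (g z : ℝ≥0∞) * F f (a' z, z) ∂ν := by
          have h7 := lintegral_withDensity_eq_lintegral_mul ν hgm.coe_nnreal_ennreal
            ((hFm f hf).comp hm)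
          exact h7
      _ = ∫⁻ z in U, (g0 z : ℝ≥0∞) * ((g z : ℝ≥0∞) * F f (a' z, z)) := by
          have h7 := lintegral_withDensity_eq_lintegral_mul (volume.restrict U)
            hg0.coe_nnreal_ennreal (hgm.coe_nnreal_ennreal.mul ((hFm f hf).comp hm))
          exact h7
      _ = ∫⁻ z in U, f z * ‖fderiv ℝ a z‖ₑ := by
          refine setLIntegral_congr_fun hU.measurableSet fun z hz => ?_
          have hz' : ((a' z, z) : ℝ × ℂ) ∈ {p : ℝ × ℂ | p.2 ∈ U ∧ a' p.2 = p.1} := ⟨hz, rfl⟩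
          simp only [hF]
          rw [indicator_of_mem hz', ← mul_assoc (g z : ℝ≥0∞), ← ENNReal.coe_mul,
            mul_inv_cancel₀ (hgpos z).ne', ENNReal.coe_one, one_mul, mul_comm]
          rfl

end Crest.Agent.R105.Coa_392
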