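import Mathlib
import Crest.Agent.R105.Coa2_392

/-!
# Row 105, S0138, NI-COAREA (helper392), part 3: slice area inequality
-/

set_option autoImplicit false

open MeasureTheory Set Filter Topology Metric ProbabilityTheory
open scoped ENNReal NNReal

namespace Crest.Agent.R105.Coa_392

/-- `m` is a disintegration of `|∇a| dA` on `U` over the levels of `a` -/
structure Disint (U : Set ℂ) (a : ℂ → ℝ) (m : ℝ → Measure ℂ) : Prop where
  meas : ∀ A, MeasurableSet A → Measurable fun t => m t A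
  sfin : ∀ t, SigmaFinite (m t)
  conc : ∀ t, m t {z | ¬ (z ∈ U ∧ a z = t)} = 0
  measf : ∀ f : ℂ → ℝ≥0∞, Measurable f → Measurable (fun t => ∫⁻ z, f z ∂(m t))
  coarea : ∀ f : ℂ → ℝ≥0∞, Measurable f →
    ∫⁻ t, ∫⁻ z, f z ∂(m t) = ∫⁻ z in U, f z * ‖fderiv ℝ a z‖ₑ

theorem exists_disint {U : Set ℂ} (hU : IsOpen U) {a : ℂ → ℝ} (ha : LocallyLipschitzOn U a) :
    ∃ m, Disint U a m := by
  obtain ⟨m, h1, h2, h3, h4⟩ := disint hU ha
  exact ⟨m, h1, h2, h3, fun f hf => (h4 f hf).1, fun f hf => (h4 f hf).2⟩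

namespace Disint

variable {U : Set ℂ} {a : ℂ → ℝ} {m : ℝ → Measure ℂ}

/-- coarea formula on a slab -/
theorem coarea_slab (hU : IsOpen U) (ha : ContinuousOn a U) (h : Disint U a m) {T : Set ℝ}
    (hT : MeasurableSet T) {A : Set ℂ} (hA : MeasurableSet A) {f : ℂ → ℝ≥0∞} (hf : Measurable f) :
    ∫⁻ t in T, ∫⁻ z in A, f z ∂(m t) =
      ∫⁻ z in (A ∩ (U ∩ a ⁻¹' T)), f z * ‖fderiv ℝ a z‖ₑ := by
  classical
  have ha' := measurable_indicator hU ha
  set B : Set ℂ := A ∩ ((U.indicator a) ⁻¹' T) with hB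
  have hBm : MeasurableSet B := hA.inter (ha' hT)
  have h1 := h.coarea (B.indicator f) (hf.indicator hBm)
  have h2 : ∀ t, ∫⁻ z, B.indicator f z ∂(m t) = T.indicator (fun t => ∫⁻ z in A, f z ∂(m t)) t := by
    intro t
    rw [lintegral_indicator hBm]
    have h3 : ∀ᵐ z ∂(m t), z ∈ U ∧ a z = t := h.conc t
    by_cases ht : t ∈ T
    · rw [indicator_of_mem ht]
      refine setLIntegral_congr ?_
      filter_upwards [h3] with z hz
      have h4 : (z ∈ B) = (z ∈ A) := by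
        rw [hB]
        simp only [mem_inter_iff, mem_preimage, indicator_of_mem hz.1, hz.2, ht, and_true]
      exact h4
    · rw [indicator_of_notMem ht]
      have h5 : m t B = 0 := by
        refine measure_mono_null ?_ (h.conc t)
        rintro z ⟨-, hz⟩ hz'
        rw [mem_preimage, indicator_of_mem hz'.1, hz'.2] at hz
        exact ht hz
      exact setLIntegral_measure_zero _ _ h5
  have h6 : ∫⁻ t, ∫⁻ z, B.indicator f z ∂(m t) = ∫⁻ t in T, ∫⁻ z in A, f z ∂(m t) := by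
    rw [lintegral_congr h2, lintegral_indicator hT]
  rw [← h6, h1]
  have h7 : ∀ z, B.indicator f z * ‖fderiv ℝ a z‖ₑ =
      B.indicator (fun z => f z * ‖fderiv ℝ a z‖ₑ) z := by
    intro z
    by_cases hz : z ∈ B
    · rw [indicator_of_mem hz, indicator_of_mem hz]
    · rw [indicator_of_notMem hz, indicator_of_notMem hz, zero_mul]
  rw [lintegral_congr h7, lintegral_indicator hBm, Measure.restrict_restrict hBm]
  congr 2
  ext z
  simp only [hB, mem_inter_iff, mem_preimage]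
  constructor
  · rintro ⟨⟨h8, h9⟩, h10⟩
    rw [indicator_of_mem h10] at h9
    exact ⟨h8, h10, h9⟩
  · rintro ⟨h8, h10, h9⟩
    refine ⟨⟨h8, ?_⟩, h10⟩
    rw [indicator_of_mem h10]; exact h9

end Disint

/-! ### the slice inequality for one open set -/

theorem sigma_open {V : Set ℂ} (hV : IsOpen V) : ∃ K : ℕ → Set ℂ, (∀ n, IsCompact (K n)) ∧
    (∀ n, K n ⊆ V) ∧ ⋃ n, K n = V := by
  have h1 : IsSigmaCompact V := by
    have : IsLocallyClosed V := hV.isLocallyClosed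
    have : SigmaCompactSpace V := by
      have : LocallyCompactSpace V := hV.locallyCompactSpace
      infer_instance
    exact isSigmaCompact_iff_sigmaCompactSpace.2 inferInstance
  obtain ⟨K, hK, hKV⟩ := h1
  exact ⟨K, hK, fun n => by rw [← hKV]; exact subset_iUnion K n, hKV⟩

theorem measurable_image {U : Set ℂ} (hU : IsOpen U) {a b : ℂ → ℝ} (ha : ContinuousOn a U)
    (hb : ContinuousOn b U) {A : Set ℂ} (hA : IsOpen A) :
    MeasurableSet ((fun z => (a z, b z)) '' (A ∩ U)) := by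
  obtain ⟨K, hK, hKV, hKU⟩ := sigma_open (hA.inter hU)
  rw [← hKU, image_iUnion]
  refine MeasurableSet.iUnion fun n => ?_
  have hc : ContinuousOn (fun z => (a z, b z)) (K n) :=
    (ha.prodMk hb).mono ((hKV n).trans inter_subset_right)
  exact ((hK n).image_of_continuousOn hc).isClosed.measurableSet

theorem slice_one {U : Set ℂ} (hU : IsOpen U) {a b : ℂ → ℝ} {m : ℝ → Measure ℂ}
    (ha : LocallyLipschitzOn U a) (h : Disint U a m) (hb : LocallyLipschitzOn U b) {A : Set ℂ}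
    (hA : IsOpen A) :
    ∀ᵐ t, volume (b '' (A ∩ (U ∩ a ⁻¹' {t}))) ≤ ∫⁻ z in A, ‖fderiv ℝ b z‖ₑ ∂(m t) := by
  have hac := ha.continuousOn
  have hbc := hb.continuousOn
  set S : Set (ℝ × ℝ) := (fun z => (a z, b z)) '' (A ∩ U) with hS
  have hSm : MeasurableSet S := measurable_image hU hac hbc hA
  have hslice : ∀ t, Prod.mk t ⁻¹' S = b '' (A ∩ (U ∩ a ⁻¹' {t})) := by
    intro t
    ext s
    constructor
    · rintro ⟨z, hz, hzs⟩
      simp only [Prod.mk.injEq] at hzs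
      exact ⟨z, ⟨hz.1, hz.2, hzs.1⟩, hzs.2⟩
    · rintro ⟨z, ⟨hz1, hz2, hz3⟩, rfl⟩
      refine ⟨z, ⟨hz1, hz2⟩, ?_⟩
      have : a z = t := hz3
      simp [this]
  have hF : Measurable fun t => volume (Prod.mk t ⁻¹' S) := measurable_measure_prodMk_left hSm
  have hbm : Measurable fun z => ‖fderiv ℝ b z‖ₑ := (measurable_fderiv ℝ b).enorm
  have key := ae_le_of_forall_setLIntegral_le_of_sigmaFinite (μ := volume)
    (g := fun t => ∫⁻ z in A, ‖fderiv ℝ b z‖ₑ ∂(m t)) hF ?_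
  · filter_upwards [key] with t ht
    rwa [hslice] at ht
  · intro T hT _
    rw [h.coarea_slab hU hac hT hA.measurableSet hbm]
    have h1 : ∫⁻ t in T, volume (Prod.mk t ⁻¹' S) = volume (S ∩ (T ×ˢ univ)) := by
      rw [Measure.volume_eq_prod, Measure.prod_apply (hSm.inter (hT.prod MeasurableSet.univ)),
        ← lintegral_indicator hT]
      refine lintegral_congr fun t => ?_
      by_cases ht : t ∈ T
      · rw [indicator_of_mem ht]
        congr 1
        ext s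
        simp [ht]
      · rw [indicator_of_notMem ht]
        have : Prod.mk t ⁻¹' (S ∩ (T ×ˢ univ)) = ∅ := by
          ext s
          simp [ht]
        rw [this, measure_empty]
    have h2 : S ∩ (T ×ˢ univ) = (fun z => (a z, b z)) '' ((A ∩ (U.indicator a) ⁻¹' T) ∩ U) := by
      ext p
      constructor
      · rintro ⟨⟨z, hz, rfl⟩, hp, -⟩
        refine ⟨z, ⟨⟨hz.1, ?_⟩, hz.2⟩, rfl⟩
        rw [mem_preimage, indicator_of_mem hz.2]; exact hp
      · rintro ⟨z, ⟨⟨hz1, hz2⟩, hz3⟩, rfl⟩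
        rw [mem_preimage, indicator_of_mem hz3] at hz2
        exact ⟨⟨z, ⟨hz1, hz3⟩, rfl⟩, hz2, mem_univ _⟩
    rw [h1, h2]
    refine (area_le hU ha hb (hA.measurableSet.inter (measurable_indicator hU hac hT))).trans ?_
    refine le_of_eq ?_
    have h3 : (A ∩ (U.indicator a) ⁻¹' T) ∩ U = A ∩ (U ∩ a ⁻¹' T) := by
      ext z
      simp only [mem_inter_iff, mem_preimage]
      constructor
      · rintro ⟨⟨h8, h9⟩, h10⟩
        rw [indicator_of_mem h10] at h9
        exact ⟨h8, h10, h9⟩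
      · rintro ⟨h8, h10, h9⟩
        refine ⟨⟨h8, ?_⟩, h10⟩
        rw [indicator_of_mem h10]; exact h9
    rw [h3]
    exact lintegral_congr fun z => mul_comm _ _

/-! ### all open and closed sets at once -/

theorem slice_all {U : Set ℂ} (hU : IsOpen U) {a b : ℂ → ℝ} {m : ℝ → Measure ℂ}
    (ha : LocallyLipschitzOn U a) (h : Disint U a m) (hb : LocallyLipschitzOn U b)
    (hfin : ∀ R : ℝ, ∫⁻ z in U ∩ ball 0 R, ‖fderiv ℝ a z‖ₑ * ‖fderiv ℝ b z‖ₑ < ⊤) :
    ∀ᵐ t, (∀ R : ℝ, ∫⁻ z in ball 0 R, ‖fderiv ℝ b z‖ₑ ∂(m t) < ⊤) ∧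
      ∀ C, IsOpen C ∨ IsClosed C →
        volume (b '' (C ∩ (U ∩ a ⁻¹' {t}))) ≤ ∫⁻ z in C, ‖fderiv ℝ b z‖ₑ ∂(m t) := by
  have hbm : Measurable fun z => ‖fderiv ℝ b z‖ₑ := (measurable_fderiv ℝ b).enorm
  -- a countable family of open sets
  set 𝓑 : Set (Set ℂ) := TopologicalSpace.countableBasis ℂ with h𝓑
  have hB : TopologicalSpace.IsTopologicalBasis 𝓑 := TopologicalSpace.isBasis_countableBasis ℂ
  have hBc : 𝓑.Countable := TopologicalSpace.countable_countableBasis ℂ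
  set 𝓕 : Set (Set (Set ℂ)) := {F | F.Finite ∧ F ⊆ 𝓑} with h𝓕
  have hFc : 𝓕.Countable := Set.countable_ofPred_finite_subset hBc
  have hFo : ∀ F ∈ 𝓕, IsOpen (⋃₀ F) := fun F hF => isOpen_sUnion fun B hBF => hB.isOpen (hF.2 hBF)
  have h1 : ∀ᵐ t, ∀ F ∈ 𝓕, volume (b '' ((⋃₀ F) ∩ (U ∩ a ⁻¹' {t}))) ≤
      ∫⁻ z in ⋃₀ F, ‖fderiv ℝ b z‖ₑ ∂(m t) :=
    (ae_ball_iff hFc).2 fun F hF => slice_one hU ha h hb (hFo F hF)
  have h2 : ∀ᵐ t, ∀ n : ℕ, ∫⁻ z in ball 0 (n : ℝ), ‖fderiv ℝ b z‖ₑ ∂(m t) < ⊤ := by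
    refine ae_all_iff.2 fun n => ?_
    have h3 := h.coarea_slab hU ha.continuousOn (T := univ) MeasurableSet.univ
      (A := ball 0 (n : ℝ)) measurableSet_ball hbm
    rw [Measure.restrict_univ] at h3
    refine ae_lt_top' ?_ ?_
    · have h4 := h.measf ((ball (0 : ℂ) (n : ℝ)).indicator fun z => ‖fderiv ℝ b z‖ₑ)
        (hbm.indicator measurableSet_ball)
      simp only [lintegral_indicator measurableSet_ball] at h4
      exact h4.aemeasurable
    · rw [h3]
      refine (lt_of_le_of_lt (le_of_eq ?_) (hfin n)).ne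
      have h5 : ball (0 : ℂ) (n : ℝ) ∩ (U ∩ a ⁻¹' univ) = U ∩ ball 0 (n : ℝ) := by
        rw [preimage_univ, inter_univ, inter_comm]
      rw [h5]
      exact lintegral_congr fun z => mul_comm _ _
  filter_upwards [h1, h2] with t ht1 ht2
  set L : Set ℂ := U ∩ a ⁻¹' {t} with hL
  -- open sets
  have hopen : ∀ W, IsOpen W → volume (b '' (W ∩ L)) ≤ ∫⁻ z in W, ‖fderiv ℝ b z‖ₑ ∂(m t) := by
    intro W hW
    have hWB : W = ⋃₀ {B ∈ 𝓑 | B ⊆ W} := hB.open_eq_sUnion' hW
    rcases W.eq_empty_or_nonempty with rfl | hne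
    · simp
    have hne' : ({B ∈ 𝓑 | B ⊆ W}).Nonempty := by
      rw [hWB] at hne
      obtain ⟨z, B, hB1, -⟩ := hne
      exact ⟨B, by simpa [← hWB] using hB1⟩
    obtain ⟨e, he⟩ := (hBc.mono (sep_subset 𝓑 (fun B => B ⊆ W))).exists_eq_range hne'
    have he1 : ∀ n, e n ∈ 𝓑 ∧ e n ⊆ W := fun n => by
      have : e n ∈ {B ∈ 𝓑 | B ⊆ W} := by rw [he]; exact mem_range_self n
      exact this
    set A : ℕ → Set ℂ := fun n => ⋃₀ (e '' Iic n) with hA
    have hAF : ∀ n, e '' Iic n ∈ 𝓕 := fun n =>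
      ⟨(finite_Iic n).image e, by rintro _ ⟨i, -, rfl⟩; exact (he1 i).1⟩
    have hAW : ∀ n, A n ⊆ W := fun n => sUnion_subset (by rintro _ ⟨i, -, rfl⟩; exact (he1 i).2)
    have hAm : Monotone fun n => b '' (A n ∩ L) := by
      intro n k hnk
      refine image_mono (inter_subset_inter_left _ (sUnion_mono (image_mono ?_)))
      exact Iic_subset_Iic.2 hnk
    have hAU : b '' (W ∩ L) = ⋃ n, b '' (A n ∩ L) := by
      rw [← image_iUnion, ← iUnion_inter]
      congr 2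
      refine Subset.antisymm ?_ (iUnion_subset hAW)
      intro z hz
      rw [hWB, he] at hz
      obtain ⟨_, ⟨n, rfl⟩, hzn⟩ := hz
      exact mem_iUnion.2 ⟨n, e n, ⟨n, le_refl n, rfl⟩, hzn⟩
    rw [hAU, hAm.measure_iUnion]
    exact iSup_le fun n => (ht1 _ (hAF n)).trans (lintegral_mono_set (hAW n))
  have hball : ∀ R : ℝ, ∫⁻ z in ball 0 R, ‖fderiv ℝ b z‖ₑ ∂(m t) < ⊤ := by
    intro R
    obtain ⟨n, hn⟩ := exists_nat_ge R
    exact lt_of_le_of_lt (lintegral_mono_set (ball_subset_ball hn)) (ht2 n)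
  refine ⟨hball, ?_⟩
  rintro C (hC | hC)
  · exact hopen C hC
  -- closed sets
  set μ' : Measure ℂ := (m t).withDensity fun z => ‖fderiv ℝ b z‖ₑ with hμ'
  have hμ : ∀ A, MeasurableSet A → μ' A = ∫⁻ z in A, ‖fderiv ℝ b z‖ₑ ∂(m t) := fun A hA =>
    withDensity_apply _ hA
  have hbd : ∀ n : ℕ, volume (b '' ((C ∩ closedBall 0 (n : ℝ)) ∩ L)) ≤
      ∫⁻ z in C, ‖fderiv ℝ b z‖ₑ ∂(m t) := by
    intro n
    have hCn : IsClosed (C ∩ closedBall (0 : ℂ) (n : ℝ)) := hC.inter isClosed_closedBall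
    have hsub : thickening 1 (C ∩ closedBall (0 : ℂ) (n : ℝ)) ⊆ ball 0 ((n : ℝ) + 2) := by
      intro z hz
      obtain ⟨w, hw, hzw⟩ := mem_thickening_iff.1 hz
      have h6 : dist w 0 ≤ n := hw.2
      rw [mem_ball]
      calc dist z 0 ≤ dist z w + dist w 0 := dist_triangle _ _ _
        _ < (n : ℝ) + 2 := by linarith
    have hT : Tendsto (fun r => μ' (thickening r (C ∩ closedBall (0 : ℂ) (n : ℝ)))) (𝓝[>] 0)
        (𝓝 (μ' (C ∩ closedBall (0 : ℂ) (n : ℝ)))) := by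
      refine tendsto_measure_thickening_of_isClosed ⟨1, one_pos, ?_⟩ hCn
      refine (lt_of_le_of_lt (measure_mono hsub) ?_).ne
      rw [hμ _ measurableSet_ball]
      exact hball _
    have h7 : volume (b '' ((C ∩ closedBall 0 (n : ℝ)) ∩ L)) ≤
        μ' (C ∩ closedBall (0 : ℂ) (n : ℝ)) := by
      refine ge_of_tendsto hT ?_
      filter_upwards [self_mem_nhdsWithin] with r hr
      rw [hμ _ isOpen_thickening.measurableSet]
      refine (measure_mono ?_).trans (hopen _ isOpen_thickening)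
      exact image_mono (inter_subset_inter_left _ (self_subset_thickening hr _))
    refine h7.trans ?_
    rw [hμ _ hCn.measurableSet]
    exact lintegral_mono_set inter_subset_left
  have hCm : Monotone fun n : ℕ => b '' ((C ∩ closedBall 0 (n : ℝ)) ∩ L) := by
    intro n k hnk
    refine image_mono (inter_subset_inter_left _ (inter_subset_inter_right _ ?_))
    exact closedBall_subset_closedBall (by exact_mod_cast hnk)
  have hCU : b '' (C ∩ L) = ⋃ n : ℕ, b '' ((C ∩ closedBall 0 (n : ℝ)) ∩ L) := by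
    rw [← image_iUnion, ← iUnion_inter, ← inter_iUnion]
    congr 2
    refine (inter_eq_self_of_subset_left ?_).symm
    intro z _
    obtain ⟨n, hn⟩ := exists_nat_ge (dist z 0)
    exact mem_iUnion.2 ⟨n, hn⟩
  rw [hCU, hCm.measure_iUnion]
  exact iSup_le hbd

end Crest.Agent.R105.Coa_392
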