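import Mathlib
import Crest.Agent.R105.Coa3_392

/-!
# Row 105, S0138, NI-COAREA (helper392), part 4: the literal statement and consequences
-/

set_option autoImplicit false

open MeasureTheory Set Filter Topology Metric ProbabilityTheory
open scoped ENNReal NNReal

namespace Crest.Agent.R105.Coa_392

/-- **COAREA**: one family `m` for all `b` -/
theorem coarea {U : Set ℂ} (hU : IsOpen U) {a : ℂ → ℝ} (ha : LocallyLipschitzOn U a) :
    ∃ m : ℝ → Measure ℂ, (∀ A, MeasurableSet A → Measurable fun t => m t A) ∧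
      (∀ t, SigmaFinite (m t)) ∧
      (∀ t, m t {z | ¬ (z ∈ U ∧ a z = t)} = 0) ∧
      (∀ f : ℂ → ℝ≥0∞, Measurable f →
        ∫⁻ t, ∫⁻ z, f z ∂(m t) = ∫⁻ z in U, f z * ‖fderiv ℝ a z‖ₑ) ∧
      (∀ b : ℂ → ℝ, LocallyLipschitzOn U b →
        (∀ R : ℝ, ∫⁻ z in U ∩ ball 0 R, ‖fderiv ℝ a z‖ₑ * ‖fderiv ℝ b z‖ₑ < ⊤) →
        ∀ᵐ t, (∀ R : ℝ, ∫⁻ z in ball 0 R, ‖fderiv ℝ b z‖ₑ ∂(m t) < ⊤) ∧
          ∀ C, IsOpen C ∨ IsClosed C →
            volume (b '' (C ∩ U ∩ a ⁻¹' {t})) ≤ ∫⁻ z in C, ‖fderiv ℝ b z‖ₑ ∂(m t)) := by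
  obtain ⟨m, h⟩ := exists_disint hU ha
  refine ⟨m, h.meas, h.sfin, h.conc, h.coarea, fun b hb hfin => ?_⟩
  filter_upwards [slice_all hU ha h hb hfin] with t ht
  refine ⟨ht.1, fun C hC => ?_⟩
  rw [inter_assoc]
  exact ht.2 C hC

namespace Disint

variable {U : Set ℂ} {a : ℂ → ℝ} {m : ℝ → Measure ℂ}

/-- a planar null set is null for almost every slice measure -/
theorem ae_null (h : Disint U a m) {N : Set ℂ} (hN : volume N = 0) : ∀ᵐ t, m t N = 0 := by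
  set N' := toMeasurable volume N with hN'
  have h1 : volume N' = 0 := by rw [hN', measure_toMeasurable, hN]
  have h2 : MeasurableSet N' := measurableSet_toMeasurable _ _
  have h3 := h.coarea (N'.indicator 1) (measurable_one.indicator h2)
  have h4 : ∫⁻ z in U, N'.indicator (1 : ℂ → ℝ≥0∞) z * ‖fderiv ℝ a z‖ₑ = 0 := by
    refine lintegral_eq_zero_of_ae_eq_zero ?_
    have h5 : ∀ᵐ z : ℂ, z ∉ N' := measure_eq_zero_iff_ae_notMem.1 h1
    filter_upwards [ae_restrict_of_ae h5] with z hz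
    simp [hz]
  rw [h4] at h3
  have h6 : Measurable fun t => ∫⁻ z, N'.indicator (1 : ℂ → ℝ≥0∞) z ∂(m t) :=
    h.measf _ (measurable_one.indicator h2)
  have h7 := (lintegral_eq_zero_iff h6).1 h3
  filter_upwards [h7] with t ht
  have h8 : m t N' = 0 := by
    simpa [lintegral_indicator_one h2] using ht
  exact measure_mono_null (subset_toMeasurable _ _) h8

/-- an a.e. property holds a.e. for almost every slice measure -/
theorem ae_slice (h : Disint U a m) {P : ℂ → Prop} (hP : ∀ᵐ z : ℂ, z ∈ U → P z) :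
    ∀ᵐ t, ∀ᵐ z ∂(m t), P z := by
  filter_upwards [h.ae_null hP] with t ht
  have h1 : ∀ᵐ z ∂(m t), z ∈ U → P z := ht
  have h2 : ∀ᵐ z ∂(m t), z ∈ U ∧ a z = t := h.conc t
  filter_upwards [h1, h2] with z h3 h4
  exact h3 h4.1

theorem ae_fderiv_add (hU : IsOpen U) (h : Disint U a m) {b b' : ℂ → ℝ}
    (hb : LocallyLipschitzOn U b) (hb' : LocallyLipschitzOn U b') :
    ∀ᵐ t, ∀ᵐ z ∂(m t), ‖fderiv ℝ (fun z => b z + b' z) z‖ₑ ≤ ‖fderiv ℝ b z‖ₑ + ‖fderiv ℝ b' z‖ₑ := by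
  refine h.ae_slice ?_
  filter_upwards [ae_diff hU hb, ae_diff hU hb'] with z h1 h2 hz
  have h3 : fderiv ℝ (fun z => b z + b' z) z = fderiv ℝ b z + fderiv ℝ b' z :=
    ((h1 hz).hasFDerivAt.add (h2 hz).hasFDerivAt).fderiv
  rw [h3]
  exact enorm_add_le (fderiv ℝ b z) (fderiv ℝ b' z)

/-- `∫ gₙ dm_t → 0` for a.e. `t` along a subsequence -/
theorem tendsto_slices (h : Disint U a m) {g : ℕ → ℂ → ℝ≥0∞} (hg : ∀ n, Measurable (g n))
    (h0 : Tendsto (fun n => ∫⁻ z in U, g n z * ‖fderiv ℝ a z‖ₑ) atTop (𝓝 0)) :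
    ∃ φ : ℕ → ℕ, StrictMono φ ∧
      ∀ᵐ t, Tendsto (fun n => ∫⁻ z, g (φ n) z ∂(m t)) atTop (𝓝 0) := by
  have h1 : ∀ n : ℕ, ∀ᶠ k in atTop, ∫⁻ z in U, g k z * ‖fderiv ℝ a z‖ₑ ≤ (2 : ℝ≥0∞)⁻¹ ^ n := by
    intro n
    have h2 : (0 : ℝ≥0∞) < (2 : ℝ≥0∞)⁻¹ ^ n := by
      refine ENNReal.pow_pos ?_ n
      simp
    exact (h0.eventually (ge_mem_nhds h2))
  obtain ⟨φ, hφ, hφ'⟩ := extraction_forall_of_eventually h1
  refine ⟨φ, hφ, ?_⟩
  have h3 : ∫⁻ t, ∑' n, ∫⁻ z, g (φ n) z ∂(m t) ≠ ⊤ := by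
    rw [lintegral_tsum fun n => (h.measf _ (hg _)).aemeasurable]
    refine (lt_of_le_of_lt (ENNReal.tsum_le_tsum fun n => (?_ : _ ≤ (2 : ℝ≥0∞)⁻¹ ^ n)) ?_).ne
    · rw [h.coarea _ (hg _)]; exact hφ' n
    · rw [ENNReal.tsum_geometric]
      simp
  have h4 : ∀ᵐ t, ∑' n, ∫⁻ z, g (φ n) z ∂(m t) < ⊤ :=
    ae_lt_top (Measurable.tsum fun n => h.measf _ (hg _)) h3
  filter_upwards [h4] with t ht
  exact ENNReal.tendsto_atTop_zero_of_tsum_ne_top ht.ne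

end Disint

end Crest.Agent.R105.Coa_392
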