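import Crest.Agent.R105.Coa4_392
import Crest.Agent.R105.Bd1_775

/-!
# Row 105, S0138, T2 of #10219 (helper392): area inequality with the Jacobian `wdg`
-/

set_option autoImplicit false

open MeasureTheory Set Filter Topology Metric
open scoped ENNReal NNReal

namespace Crest.Agent.R105.Coa_392

open Bd_775

theorem area_wdg' {U : Set ℂ} (hU : IsOpen U) {a b : ℂ → ℝ} (ha : LocallyLipschitzOn U a)
    (hb : LocallyLipschitzOn U b) {A : Set ℂ} (hA : MeasurableSet A) :
    volume ((fun z => (a z, b z)) '' (A ∩ U)) ≤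
      ∫⁻ z in A ∩ U, ENNReal.ofReal |wdg a b z| := by
  set D : Set ℂ := {z : ℂ | DifferentiableAt ℝ a z} ∩ {z : ℂ | DifferentiableAt ℝ b z} with hD
  have hDm : MeasurableSet D := (measurableSet_diff a).inter (measurableSet_diff b)
  have hAU : MeasurableSet (A ∩ U) := hA.inter hU.measurableSet
  have h0 : volume ((A ∩ U) \ D) = 0 := by
    have h1 := (ae_diff hU ha).and (ae_diff hU hb)
    refine measure_mono_null ?_ h1
    rintro z ⟨⟨-, hzU⟩, hzD⟩ hz
    exact hzD ⟨hz.1 hzU, hz.2 hzU⟩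
  have hlip : LocallyLipschitzOn U (fun z => (a z, b z)) := by
    intro z hz
    obtain ⟨K, t, ht, hK⟩ := ha hz
    obtain ⟨K', t', ht', hK'⟩ := hb hz
    exact ⟨max K K', t ∩ t', inter_mem ht ht',
      (hK.mono inter_subset_left).prodMk (hK'.mono inter_subset_right)⟩
  have hnull : volume ((fun z => (a z, b z)) '' ((A ∩ U) \ D)) = 0 :=
    null_image hlip (fun z hz => hz.1.2) h0
  set G : Set ℂ := (A ∩ U) ∩ D with hG
  have hGm : MeasurableSet G := hAU.inter hDm
  set Ψ : ℂ → ℂ := fun z => (a z : ℂ) + (b z : ℂ) * Complex.I with hΨ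
  set Ψ' : ℂ → ℂ →L[ℝ] ℂ := fun z => Complex.ofRealCLM.comp (fderiv ℝ a z) +
    Complex.I • (Complex.ofRealCLM.comp (fderiv ℝ b z)) with hΨ'
  have hd : ∀ z ∈ G, HasFDerivWithinAt Ψ (Ψ' z) G z := by
    rintro z ⟨-, hz, hz'⟩
    have h1 : HasFDerivAt (fun z => (a z : ℂ)) (Complex.ofRealCLM.comp (fderiv ℝ a z)) z :=
      Complex.ofRealCLM.hasFDerivAt.comp z hz.hasFDerivAt
    have h2 : HasFDerivAt (fun z => (b z : ℂ)) (Complex.ofRealCLM.comp (fderiv ℝ b z)) z :=
      Complex.ofRealCLM.hasFDerivAt.comp z hz'.hasFDerivAt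
    have h3 : HasFDerivAt (fun z => (b z : ℂ) * Complex.I)
        (Complex.I • (Complex.ofRealCLM.comp (fderiv ℝ b z))) z := by
      simpa [mul_comm] using h2.mul_const Complex.I
    exact (h1.add h3).hasFDerivWithinAt
  have hle := addHaar_image_le_lintegral_abs_det_fderiv volume hGm hd
  have himg : (fun z => (a z, b z)) '' G = Complex.measurableEquivRealProd.symm ⁻¹' (Ψ '' G) := by
    ext p
    constructor
    · rintro ⟨z, hz, rfl⟩
      refine ⟨z, hz, ?_⟩
      apply Complex.measurableEquivRealProd.injective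
      rw [MeasurableEquiv.apply_symm_apply]
      simp [hΨ]
    · rintro ⟨z, hz, hzp⟩
      refine ⟨z, hz, ?_⟩
      have h5 := congrArg Complex.measurableEquivRealProd hzp
      rw [MeasurableEquiv.apply_symm_apply] at h5
      rw [← h5]
      simp [hΨ]
  have hvol : volume ((fun z => (a z, b z)) '' G) = volume (Ψ '' G) := by
    rw [himg, Complex.volume_preserving_equiv_real_prod.symm.measure_preimage_equiv]
  have hdet : ∀ z, ENNReal.ofReal |(Ψ' z).det| = ENNReal.ofReal |wdg a b z| := by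
    intro z
    rw [det_eq]
    congr 2
    simp [hΨ', wdg, gx, gy]
  calc volume ((fun z => (a z, b z)) '' (A ∩ U))
      ≤ volume ((fun z => (a z, b z)) '' G ∪ (fun z => (a z, b z)) '' ((A ∩ U) \ D)) := by
        refine measure_mono ?_
        rw [← image_union, hG, inter_union_sdiff]
    _ ≤ volume ((fun z => (a z, b z)) '' G) + volume ((fun z => (a z, b z)) '' ((A ∩ U) \ D)) :=
        measure_union_le _ _
    _ = volume (Ψ '' G) := by rw [hnull, add_zero, hvol]
    _ ≤ ∫⁻ z in G, ENNReal.ofReal |(Ψ' z).det| := hle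
    _ = ∫⁻ z in G, ENNReal.ofReal |wdg a b z| := lintegral_congr fun z => hdet z
    _ ≤ ∫⁻ z in A ∩ U, ENNReal.ofReal |wdg a b z| := lintegral_mono_set inter_subset_left

/-- **T2 of #10219** -/
theorem area {Y : Set ℂ} (hY : IsOpen Yᶜ) {a b : ℂ → ℝ} (ha : LocallyLipschitzOn Yᶜ a)
    (hb : LocallyLipschitzOn Yᶜ b) {N : Set ℂ} (hN : MeasurableSet N) :
    volume ((fun z => (a z, b z)) '' (N \ Y)) ≤
      ∫⁻ z in N \ Y, ENNReal.ofReal |wdg a b z| := by
  have h := area_wdg' hY ha hb hN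
  have h1 : N ∩ Yᶜ = N \ Y := rfl
  rwa [h1] at h

theorem wdg_le (a b : ℂ → ℝ) (z : ℂ) : |wdg a b z| ≤ ‖fderiv ℝ a z‖ * ‖fderiv ℝ b z‖ := by
  have := det_le (fderiv ℝ a z) (fderiv ℝ b z)
  simpa [wdg, gx, gy] using this

theorem ofReal_wdg_le (a b : ℂ → ℝ) (z : ℂ) :
    ENNReal.ofReal |wdg a b z| ≤ ‖fderiv ℝ a z‖ₑ * ‖fderiv ℝ b z‖ₑ := by
  refine (ENNReal.ofReal_le_ofReal (wdg_le a b z)).trans ?_
  rw [ENNReal.ofReal_mul (norm_nonneg _), ofReal_norm, ofReal_norm]

end Crest.Agent.R105.Coa_392
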