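import Mathlib

/-!
# Row 105, finite Koebe theorem (FK) by the continuity method: literal definitions (helper644)

`Sig U f`      : `f` holomorphic + injective on `U`, `f z - z → 0` at infinity.
`Fam K`        : finite (or any) family of pairwise disjoint nondegenerate continua in `ℂ`
                 whose union has preconnected complement.
`dom K`        : `(⋃ i, K i)ᶜ`.
`LMap K K' f`  : labelled normalised conformal map of `dom K` onto `dom K'`.
`discs x`, `X n`; `slits y`, `Y n` : configurations, parametrised by `Fin n → ℂ × ℝ`.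
-/

set_option autoImplicit false

open Set Filter Topology Metric Complex

namespace Crest.Agent.R105.FK_644

/-- normalised conformal map of `U` (`∞` is fixed, `f z = z + o(1)`). -/
structure Sig (U : Set ℂ) (f : ℂ → ℂ) : Prop where
  hol : DifferentiableOn ℂ f U
  inj : InjOn f U
  inf : Tendsto (fun z => f z - z) (cocompact ℂ) (𝓝 0)

/-- the complement of the union of the family -/
def dom {ι : Type*} (K : ι → Set ℂ) : Set ℂ := (⋃ i, K i)ᶜ

/-- pairwise disjoint nondegenerate continua, union with preconnected complement. -/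
structure Fam {ι : Type*} (K : ι → Set ℂ) : Prop where
  cpt : ∀ i, IsCompact (K i)
  conn : ∀ i, IsConnected (K i)
  nt : ∀ i, (K i).Nontrivial
  disj : ∀ i j, i ≠ j → Disjoint (K i) (K j)
  compl : IsPreconnected (dom K)

/-- labelled normalised conformal map: `K i` corresponds to `K' i`. -/
structure LMap {ι : Type*} (K K' : ι → Set ℂ) (f : ℂ → ℂ) : Prop where
  sig : Sig (dom K) f
  img : f '' dom K = dom K'
  lab : ∀ i, Tendsto f (𝓝ˢ (K i) ⊓ 𝓟 (dom K)) (𝓝ˢ (K' i))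

/-- the closed discs of a configuration -/
def discs {ι : Type*} (x : ι → ℂ × ℝ) (i : ι) : Set ℂ := closedBall (x i).1 (x i).2

/-- the horizontal slits of a configuration: left end point and length -/
def slits {ι : Type*} (y : ι → ℂ × ℝ) (i : ι) : Set ℂ :=
  segment ℝ (y i).1 ((y i).1 + ((y i).2 : ℂ))

/-- configurations of disjoint closed discs of positive radius -/
def X (n : ℕ) : Set (Fin n → ℂ × ℝ) :=
  {x | (∀ i, 0 < (x i).2) ∧ ∀ i j, i ≠ j → Disjoint (discs x i) (discs x j)}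

/-- configurations of disjoint horizontal slits of positive length -/
def Y (n : ℕ) : Set (Fin n → ℂ × ℝ) :=
  {y | (∀ i, 0 < (y i).2) ∧ ∀ i j, i ≠ j → Disjoint (slits y i) (slits y j)}

/-! ## the leaves -/

/-- (F1) invariance of domain (any finite dimensional space) -/
def IOD : Prop := ∀ (m : ℕ) (A : Set (Fin m → ℝ)) (Φ : (Fin m → ℝ) → Fin m → ℝ), IsOpen A →
  ContinuousOn Φ A → InjOn Φ A → IsOpen (Φ '' A)

/-- (F2) slit theorem, labelled -/
def Slit : Prop := ∀ (n : ℕ) (K : Fin n → Set ℂ), Fam K → ∃ y ∈ Y n, ∃ f, LMap K (slits y) f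

/-- (F3a) -/
def UniqSlit : Prop := ∀ (n : ℕ) (y y' : Fin n → ℂ × ℝ), y ∈ Y n → y' ∈ Y n →
  ∀ f, LMap (slits y) (slits y') f → y = y'

/-- (F3b) -/
def UniqDisc : Prop := ∀ (n : ℕ) (x x' : Fin n → ℂ × ℝ), x ∈ X n → x' ∈ X n →
  ∀ f, LMap (discs x) (discs x') f → x = x'

/-- (F4, properness) -/
def Prop4 : Prop := ∀ (n : ℕ) (x y : ℕ → Fin n → ℂ × ℝ) (f : ℕ → ℂ → ℂ),
  (∀ k, x k ∈ X n) → (∀ k, y k ∈ Y n) → (∀ k, LMap (discs (x k)) (slits (y k)) (f k)) →
  ∀ y' ∈ Y n, Tendsto y atTop (𝓝 y') →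
  ∃ x' ∈ X n, ∃ φ : ℕ → ℕ, StrictMono φ ∧ Tendsto (x ∘ φ) atTop (𝓝 x') ∧
    ∃ g, LMap (discs x') (slits y') g

/-- (F4, continuity) -/
def Cont4 : Prop := ∀ (n : ℕ) (x y : ℕ → Fin n → ℂ × ℝ) (f : ℕ → ℂ → ℂ),
  (∀ k, x k ∈ X n) → (∀ k, y k ∈ Y n) → (∀ k, LMap (discs (x k)) (slits (y k)) (f k)) →
  ∀ x' ∈ X n, Tendsto x atTop (𝓝 x') →
  ∃ y' ∈ Y n, ∃ φ : ℕ → ℕ, StrictMono φ ∧ Tendsto (y ∘ φ) atTop (𝓝 y') ∧
    ∃ g, LMap (discs x') (slits y') g

/-- (F5) -/
def ConnY : Prop := ∀ n, IsPreconnected (Y n)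

/-- **finite Koebe theorem**, labelled -/
def FK : Prop := ∀ (n : ℕ) (K : Fin n → Set ℂ), Fam K →
  ∃ x ∈ X n, ∃ f, LMap K (discs x) f

end Crest.Agent.R105.FK_644
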