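import Mathlib
import Crest.Agent.R105.Red2_828
import Crest.Agent.R105.FKd_644

/-!
# Row 105, S0138, top file in the T-frame (helper8)

* `Fat τ K`  : `area (K ∩ B(x,r)) ≥ τ r²` for `x ∈ K`, `0 < r ≤ diam K` (form of 430's COFAT);
* `Cofat τ V`: exterior domain, components of the complement are points or `τ`-fat;
* `FatPic`   : every exterior domain `U` has `f ∈ Sig U` with `f '' U` cofat (T-frame);
* `SqPic`    : the same with closed axis-parallel squares and points;
* `COFAT`    : a cofat domain has `g ∈ Sig` onto a circle domain (Schramm; 430 / 515 over FK);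
* `s0138 : FatPic → COFAT → S0138`, `fatPic_of_sqPic : SqPic → FatPic`.
-/

set_option autoImplicit false

open Set Filter Metric Topology MeasureTheory
open Crest.AnalysisR

namespace Crest.Agent.R105.Top1_8

open FK_644 (Sig)

/-- `τ`-fat set -/
def Fat (τ : ℝ) (K : Set ℂ) : Prop :=
  ∀ x ∈ K, ∀ r : ℝ, 0 < r → r ≤ diam K → ENNReal.ofReal (τ * r ^ 2) ≤ volume (K ∩ closedBall x r)

/-- all components of the complement are points or `τ`-fat -/
def Cofat (τ : ℝ) (V : Set ℂ) : Prop :=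
  IsExteriorDomain V ∧ ∀ z ∈ Vᶜ, connectedComponentIn Vᶜ z = {z} ∨
    Fat τ (connectedComponentIn Vᶜ z)

/-- closed axis-parallel square with centre `c` and half side `s` -/
def Sq (c : ℂ) (s : ℝ) : Set ℂ := {w : ℂ | |w.re - c.re| ≤ s ∧ |w.im - c.im| ≤ s}

/-- FATPIC : the output of the T-frame, weak form -/
def FatPic : Prop := ∀ U : Set ℂ, IsExteriorDomain U →
  ∃ f : ℂ → ℂ, Sig U f ∧ ∃ τ : ℝ, 0 < τ ∧ Cofat τ (f '' U)

/-- SQPIC : the output of the T-frame, strong form -/
def SqPic : Prop := ∀ U : Set ℂ, IsExteriorDomain U →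
  ∃ f : ℂ → ℂ, Sig U f ∧ ∀ z ∈ (f '' U)ᶜ, ∃ (c : ℂ) (s : ℝ), 0 ≤ s ∧
    connectedComponentIn (f '' U)ᶜ z = Sq c s

/-- COFAT -/
def COFAT : Prop := ∀ (V : Set ℂ) (τ : ℝ), 0 < τ → Cofat τ V →
  ∃ g : ℂ → ℂ, Sig V g ∧ IsCircleDomainFinitePart (g '' V)

theorem sig_cocompact {U : Set ℂ} {f : ℂ → ℂ} (h : Sig U f) :
    Tendsto f (cocompact ℂ) (cocompact ℂ) := by
  have := Red_828.tendsto_cocompact_of_tendsto_sub (g := f) (c := 0) (by simpa using h.inf)
  exact this

theorem sig_exterior {U : Set ℂ} {f : ℂ → ℂ} (h : Sig U f) (hU : IsExteriorDomain U) :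
    IsExteriorDomain (f '' U) :=
  Red_828.exteriorDomain_image hU h.hol h.inj (sig_cocompact h)

/-- composition -/
theorem sig_comp {U : Set ℂ} {f g : ℂ → ℂ} (hf : Sig U f) (hg : Sig (f '' U) g) :
    Sig U (g ∘ f) where
  hol := hg.hol.comp hf.hol (mapsTo_image f U)
  inj := hg.inj.comp hf.inj (mapsTo_image f U)
  inf := by
    have h1 : Tendsto (fun z => g (f z) - f z) (cocompact ℂ) (𝓝 0) :=
      hg.inf.comp (sig_cocompact hf)
    have h2 := h1.add hf.inf
    simp only [add_zero, sub_add_sub_cancel] at h2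
    exact h2

/-- **S0138 from FATPIC and COFAT** -/
theorem s0138 (h1 : FatPic) (h2 : COFAT) (U : Set ℂ) (hU : IsExteriorDomain U) :
    ∃ f : ℂ → ℂ, DifferentiableOn ℂ f U ∧ Set.InjOn f U ∧
      Filter.Tendsto f (Filter.cocompact ℂ) (Filter.cocompact ℂ) ∧
      IsCircleDomainFinitePart (f '' U) := by
  obtain ⟨f, hf, τ, hτ, hc⟩ := h1 U hU
  obtain ⟨g, hg, hcd⟩ := h2 _ τ hτ hc
  have h := sig_comp hf hg
  refine ⟨g ∘ f, h.hol, h.inj, sig_cocompact h, ?_⟩
  rw [image_comp]
  exact hcd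

/-! ### squares are fat -/

/-- closed box -/
def Box (a b t : ℝ) : Set ℂ := {w : ℂ | (a ≤ w.re ∧ w.re ≤ a + t) ∧ b ≤ w.im ∧ w.im ≤ b + t}

theorem volume_box (a b : ℝ) {t : ℝ} (ht : 0 ≤ t) : volume (Box a b t) = ENNReal.ofReal (t ^ 2) := by
  have h : Box a b t = Complex.measurableEquivRealProd ⁻¹' (Icc a (a + t) ×ˢ Icc b (b + t)) := by
    ext w
    simp only [Box, mem_ofPred_eq, mem_preimage, Complex.measurableEquivRealProd_apply, mem_prod, mem_Icc]
  rw [h, Complex.volume_preserving_equiv_real_prod.measure_preimage_equiv]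
  rw [Measure.volume_eq_prod, Measure.prod_prod, Real.volume_Icc, Real.volume_Icc,
    ← ENNReal.ofReal_mul (by linarith)]
  congr 1
  ring

theorem norm_le_of_box {z w : ℂ} {t : ℝ} (h1 : |w.re - z.re| ≤ t) (h2 : |w.im - z.im| ≤ t) :
    dist w z ≤ 2 * t := by
  rw [dist_eq_norm]
  refine (Complex.norm_le_abs_re_add_abs_im _).trans ?_
  simp only [Complex.sub_re, Complex.sub_im]
  linarith

theorem diam_sq_le {c : ℂ} {s : ℝ} (hs : 0 ≤ s) : diam (Sq c s) ≤ 4 * s := by
  refine diam_le_of_forall_dist_le (by linarith) fun x hx y hy => ?_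
  refine (norm_le_of_box (t := 2 * s) ?_ ?_).trans (by linarith)
  · have h1 := abs_le.1 hx.1
    have h2 := abs_le.1 hy.1
    rw [abs_le]; constructor <;> linarith
  · have h1 := abs_le.1 hx.2
    have h2 := abs_le.1 hy.2
    rw [abs_le]; constructor <;> linarith

/-- a closed square is `1/16`-fat -/
theorem fat_sq {c : ℂ} {s : ℝ} (hs : 0 ≤ s) : Fat (1 / 16) (Sq c s) := by
  intro x hx r hr hrd
  have hrs : r ≤ 4 * s := hrd.trans (diam_sq_le hs)
  set t : ℝ := r / 4 with ht
  have ht0 : 0 ≤ t := by positivity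
  have hts : t ≤ s := by rw [ht]; linarith
  have hx1 := abs_le.1 hx.1
  have hx2 := abs_le.1 hx.2
  obtain ⟨a, ha1, ha2, ha3⟩ : ∃ a : ℝ, c.re - s ≤ a ∧ a + t ≤ c.re + s ∧
      (a = x.re ∨ a = x.re - t) := by
    rcases le_total x.re c.re with h | h
    · exact ⟨x.re, by linarith, by linarith, Or.inl rfl⟩
    · exact ⟨x.re - t, by linarith, by linarith, Or.inr rfl⟩
  obtain ⟨b, hb1, hb2, hb3⟩ : ∃ b : ℝ, c.im - s ≤ b ∧ b + t ≤ c.im + s ∧
      (b = x.im ∨ b = x.im - t) := by
    rcases le_total x.im c.im with h | h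
    · exact ⟨x.im, by linarith, by linarith, Or.inl rfl⟩
    · exact ⟨x.im - t, by linarith, by linarith, Or.inr rfl⟩
  have hsub : Box a b t ⊆ Sq c s ∩ closedBall x r := by
    rintro w ⟨⟨h1, h2⟩, h3, h4⟩
    refine ⟨⟨?_, ?_⟩, ?_⟩
    · rw [abs_le]; constructor <;> linarith
    · rw [abs_le]; constructor <;> linarith
    · rw [mem_closedBall]
      refine (norm_le_of_box (t := t) ?_ ?_).trans (by rw [ht]; linarith)
      · rw [abs_le]
        rcases ha3 with h | h <;> rw [h] at h1 h2 <;> constructor <;> linarith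
      · rw [abs_le]
        rcases hb3 with h | h <;> rw [h] at h3 h4 <;> constructor <;> linarith
  refine le_trans ?_ (measure_mono hsub)
  rw [volume_box a b ht0]
  apply ENNReal.ofReal_le_ofReal
  rw [ht]
  apply le_of_eq
  ring

theorem sq_zero (c : ℂ) : Sq c 0 = {c} := by
  ext w
  constructor
  · rintro ⟨h1, h2⟩
    rw [abs_le] at h1 h2
    exact Complex.ext (by linarith [h1.1, h1.2]) (by linarith [h2.1, h2.2])
  · rintro rfl
    simp [Sq]

/-- **FATPIC from SQPIC** -/
theorem fatPic_of_sqPic (h : SqPic) : FatPic := by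
  intro U hU
  obtain ⟨f, hf, hsq⟩ := h U hU
  refine ⟨f, hf, 1 / 16, by norm_num, sig_exterior hf hU, fun z hz => ?_⟩
  obtain ⟨c, s, hs, he⟩ := hsq z hz
  rw [he]
  exact Or.inr (fat_sq hs)

/-! ### fatness from an inscribed ball (convex solids, D-frame) -/

/-- a convex set which contains a ball `B(c, κ · diam K)` is fat -/
theorem fat_of_convex {K : Set ℂ} (hK : Convex ℝ K) (hb : Bornology.IsBounded K) {c : ℂ} {κ : ℝ}
    (hκ : 0 < κ) (hc : closedBall c (κ * diam K) ⊆ K) :
    Fat (κ ^ 2 / 4) K := by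
  intro x hx r hr hrd
  have hd : 0 < diam K := lt_of_lt_of_le hr hrd
  -- the homothety with centre `x` and ratio `l = r / (2 diam K)`
  set l : ℝ := r / (2 * diam K) with hl
  have hl0 : 0 < l := by positivity
  have hl1 : l ≤ 1 / 2 := by
    rw [hl, div_le_iff₀ (by positivity)]
    linarith
  have hcK : c ∈ K := hc (mem_closedBall_self (by positivity))
  have hcx : dist c x ≤ diam K := dist_le_diam_of_mem hb hcK hx
  have hsub : closedBall (x + (l : ℂ) * (c - x)) (l * (κ * diam K)) ⊆ K ∩ closedBall x r := by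
    intro w hw
    rw [mem_closedBall, dist_eq_norm] at hw
    -- `w = (1 - l) x + l y`, `y ∈ closedBall c (κ diam K)`
    set y : ℂ := x + (l : ℂ)⁻¹ * (w - x) with hy
    have hlc : (l : ℂ) ≠ 0 := by exact_mod_cast hl0.ne'
    have hyc : y ∈ closedBall c (κ * diam K) := by
      rw [mem_closedBall, dist_eq_norm]
      have h1 : y - c = (l : ℂ)⁻¹ * (w - (x + (l : ℂ) * (c - x))) := by
        rw [hy]; field_simp; ring
      rw [h1, norm_mul, norm_inv, Complex.norm_real, Real.norm_eq_abs, abs_of_pos hl0,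
        inv_mul_le_iff₀ hl0]
      exact hw
    have hyK : y ∈ K := hc hyc
    have hw2 : w = (1 - l) • x + l • y := by
      rw [hy]
      simp only [Complex.real_smul]
      push_cast
      field_simp
      ring
    refine ⟨?_, ?_⟩
    · rw [hw2]
      exact hK hx hyK (by linarith) hl0.le (by ring)
    · rw [mem_closedBall, dist_eq_norm, hw2]
      have h2 : (1 - l) • x + l • y - x = l • (y - x) := by
        simp only [Complex.real_smul]; push_cast; ring
      rw [h2, norm_smul, Real.norm_eq_abs, abs_of_pos hl0]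
      have h3 : ‖y - x‖ ≤ diam K := by
        rw [← dist_eq_norm]; exact dist_le_diam_of_mem hb hyK hx
      calc l * ‖y - x‖ ≤ l * diam K := by gcongr
        _ = r / 2 := by rw [hl]; field_simp
        _ ≤ r := by linarith
  refine le_trans ?_ (measure_mono hsub)
  rw [Complex.volume_closedBall, hl]
  have h4 : r / (2 * diam K) * (κ * diam K) = κ * r / 2 := by field_simp
  rw [h4, ← ENNReal.ofReal_pow (by positivity)]
  have h5 : (1 : ENNReal) ≤ (NNReal.pi : ENNReal) := by
    have : (1 : NNReal) ≤ NNReal.pi := by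
      rw [← NNReal.coe_le_coe]
      simpa using (by linarith [Real.pi_gt_three] : (1 : ℝ) ≤ Real.pi)
    exact_mod_cast this
  calc ENNReal.ofReal (κ ^ 2 / 4 * r ^ 2) = ENNReal.ofReal ((κ * r / 2) ^ 2) := by
        congr 1; ring
    _ = ENNReal.ofReal ((κ * r / 2) ^ 2) * 1 := by rw [mul_one]
    _ ≤ ENNReal.ofReal ((κ * r / 2) ^ 2) * NNReal.pi := by gcongr

end Crest.Agent.R105.Top1_8
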