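import Mathlib
import Crest.Agent.R105.Top1_8

/-!
# Row 105, COFAT, part 1 (helper430): windows and fatness

`finite_big` : only finitely many fat solids of diameter `≥ η` meet a given ball;
`window`     : for every scale `s` there is a smaller scale `s'` such that no solid (not containing
               `p`) meets both `{dist z p ≥ s}` and `closedBall p (2 s')`;
`windows`    : a whole sequence of scales `t k`.
-/

set_option autoImplicit false

open Set Filter Metric Topology MeasureTheory

namespace Crest.Agent.R105.Cof_430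

open Top1_8 (Fat)

variable {ι : Type*} {K : ι → Set ℂ} {τ : ℝ}

theorem finite_big (hτ : 0 < τ) (hcpt : ∀ i, IsCompact (K i))
    (hfat : ∀ i, Fat τ (K i)) (hdisj : Pairwise (Function.onFun Disjoint K)) (p : ℂ) (R : ℝ)
    {η : ℝ} (hη : 0 < η) :
    {i | η ≤ diam (K i) ∧ (K i ∩ closedBall p R).Nonempty}.Finite := by
  have h := MeasureTheory.Measure.finite_const_le_meas_of_disjoint_iUnion
    (volume : Measure ℂ) (ε := ENNReal.ofReal (τ * η ^ 2))
    (by positivity) (As := fun i => K i ∩ closedBall p (R + η))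
    (fun i => (hcpt i).isClosed.measurableSet.inter measurableSet_closedBall)
    (fun i j hij => (hdisj hij).mono inter_subset_left inter_subset_left)
    (ne_top_of_le_ne_top (measure_closedBall_lt_top (x := p) (r := R + η)).ne
      (measure_mono (iUnion_subset fun i => inter_subset_right)))
  refine h.subset ?_
  rintro i ⟨hi, x, hx, hxR⟩
  refine (hfat i x hx η hη hi).trans (measure_mono (inter_subset_inter_right _ ?_))
  exact closedBall_subset_closedBall' (by
    have : dist x p ≤ R := hxR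
    linarith)

theorem window (hτ : 0 < τ) (hcpt : ∀ i, IsCompact (K i))
    (hfat : ∀ i, Fat τ (K i)) (hdisj : Pairwise (Function.onFun Disjoint K)) (p : ℂ)
    {s : ℝ} (hs : 0 < s) :
    ∃ s', 0 < s' ∧ 4 * s' ≤ s ∧ ∀ i, p ∉ K i → (∃ z ∈ K i, s ≤ dist z p) →
      Disjoint (K i) (closedBall p (2 * s')) := by
  have hfin := finite_big hτ hcpt hfat hdisj p s (η := s / 2) (by positivity)
  set J := {i | s / 2 ≤ diam (K i) ∧ (K i ∩ closedBall p s).Nonempty} with hJ
  have hcl : IsClosed (⋃ i ∈ J ∩ {i | p ∉ K i}, K i) :=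
    (hfin.subset inter_subset_left).isClosed_biUnion fun i _ => (hcpt i).isClosed
  have hp : p ∈ (⋃ i ∈ J ∩ {i | p ∉ K i}, K i)ᶜ := by
    simp only [mem_compl_iff, mem_iUnion, not_exists]
    intro i hi hpi
    exact hi.2 hpi
  obtain ⟨ρ, hρ, hb⟩ := Metric.mem_nhds_iff.1 (hcl.isOpen_compl.mem_nhds hp)
  refine ⟨min (s / 8) (ρ / 4), by positivity, ?_, ?_⟩
  · have := min_le_left (s / 8) (ρ / 4)
    linarith
  · intro i hpi ⟨z, hz, hzs⟩
    rw [Set.disjoint_left]
    intro w hw hwb
    have hw1 : dist w p ≤ 2 * min (s / 8) (ρ / 4) := hwb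
    have h1 := min_le_left (s / 8) (ρ / 4)
    have h2 := min_le_right (s / 8) (ρ / 4)
    by_cases hi : i ∈ J
    · have : w ∈ ball p ρ := by
        rw [mem_ball]; linarith
      exact hb this (mem_biUnion (show i ∈ J ∩ {i | p ∉ K i} from ⟨hi, hpi⟩) hw)
    · apply hi
      refine ⟨?_, w, hw, ?_⟩
      · have h3 : dist z w ≤ diam (K i) := dist_le_diam_of_mem (hcpt i).isBounded hz hw
        have h4 : dist z p ≤ dist z w + dist w p := dist_triangle _ _ _
        linarith
      · rw [mem_closedBall]; linarith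

/-- **Windows.** A decreasing sequence of scales below `ε` such that every solid not containing
`p` meets at most one of the closed annuli `t k ≤ dist z p ≤ 2 t k`. -/
theorem windows (hτ : 0 < τ) (hcpt : ∀ i, IsCompact (K i))
    (hfat : ∀ i, Fat τ (K i)) (hdisj : Pairwise (Function.onFun Disjoint K)) (p : ℂ)
    {ε : ℝ} (hε : 0 < ε) :
    ∃ t : ℕ → ℝ, (∀ k, 0 < t k) ∧ (∀ k, 4 * t (k + 1) ≤ t k) ∧ (∀ k, 2 * t k ≤ ε) ∧
      ∀ i, p ∉ K i → ∀ k l, k < l → (∃ z ∈ K i, t k ≤ dist z p) →
        Disjoint (K i) (closedBall p (2 * t l)) := by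
  classical
  have H : ∀ s : {s : ℝ // 0 < s}, ∃ s' : {s : ℝ // 0 < s}, 4 * s'.1 ≤ s.1 ∧
      ∀ i, p ∉ K i → (∃ z ∈ K i, s.1 ≤ dist z p) → Disjoint (K i) (closedBall p (2 * s'.1)) := by
    intro s
    obtain ⟨s', h1, h2, h3⟩ := window hτ hcpt hfat hdisj p s.2
    exact ⟨⟨s', h1⟩, h2, h3⟩
  choose nx hnx1 hnx2 using H
  set t : ℕ → {s : ℝ // 0 < s} := fun k => nx^[k] ⟨ε / 2, by positivity⟩ with ht
  have hsucc : ∀ k, t (k + 1) = nx (t k) := by
    intro k
    simp only [ht, Function.iterate_succ', Function.comp]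
  have h4 : ∀ k, 4 * (t (k + 1)).1 ≤ (t k).1 := by
    intro k; rw [hsucc]; exact hnx1 _
  have hle : ∀ k, (t (k + 1)).1 ≤ (t k).1 := by
    intro k
    have := h4 k
    have := (t (k + 1)).2
    linarith
  have hanti : Antitone fun k => (t k).1 := antitone_nat_of_succ_le hle
  refine ⟨fun k => (t k).1, fun k => (t k).2, h4, ?_, ?_⟩
  · intro k
    have h0 : (t 0).1 = ε / 2 := rfl
    have := hanti (Nat.zero_le k)
    simp only at this
    linarith
  · intro i hpi k l hkl hz
    have h1 := hnx2 (t k) i hpi hz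
    rw [← hsucc] at h1
    have h2 : (t l).1 ≤ (t (k + 1)).1 := hanti hkl
    exact h1.mono_right (closedBall_subset_closedBall (by linarith))

end Crest.Agent.R105.Cof_430
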