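import Mathlib
import Crest.Agent.Lib.InjHolo
import Crest.Agent.Lib.Bieberbach
import Crest.Agent.R162.KBDisc

/-!
Row 105. Univalent maps near infinity (helper231): the class Sigma and its elementary bounds.

`Ext R = {z | R < ‖z‖}`; `f` holomorphic, injective on `Ext R`, `f z - z → 0` at infinity. Then
* `norm_le_of_not_mem_image`: every omitted value `w ∉ f '' Ext R` has `‖w‖ ≤ 2 R` (Bieberbach),
* `norm_sub_le_four_mul`: `‖f z - w‖ ≤ 4 ‖z‖` (Koebe 1/4),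
* `norm_sub_self_le`: `‖f z - z‖ ≤ 7 R² / ‖z‖`,
* `exists_not_mem_image`: there is an omitted value.
No `sorry`.
-/

set_option autoImplicit false

open Set Filter Topology Metric Complex

namespace Crest.Agent.R105.Uni231

/-- exterior of the closed disc of radius `R` about `0` -/
def Ext (R : ℝ) : Set ℂ := {z | R < ‖z‖}

theorem mem_Ext {R : ℝ} {z : ℂ} : z ∈ Ext R ↔ R < ‖z‖ := Iff.rfl

theorem isOpen_Ext (R : ℝ) : IsOpen (Ext R) := isOpen_lt continuous_const continuous_norm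

theorem Ext_mem_cocompact (R : ℝ) : Ext R ∈ cocompact ℂ := by
  have h : (closedBall (0:ℂ) R)ᶜ ∈ cocompact ℂ := (isCompact_closedBall _ _).compl_mem_cocompact
  filter_upwards [h] with z hz
  simpa [mem_Ext] using hz

theorem Ext_anti {R S : ℝ} (h : R ≤ S) : Ext S ⊆ Ext R := fun _ hz => lt_of_le_of_lt h hz

/-- `R / ζ` tends to infinity at `0`. -/
theorem tendsto_div_cocompact {R : ℝ} (hR : 0 < R) :
    Tendsto (fun ζ : ℂ => (R : ℂ) / ζ) (𝓝[≠] 0) (cocompact ℂ) := by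
  rw [← Metric.cobounded_eq_cocompact, ← tendsto_norm_atTop_iff_cobounded]
  have h1 : Tendsto (fun ζ : ℂ => ‖ζ⁻¹‖) (𝓝[≠] 0) atTop :=
    tendsto_norm_cobounded_atTop.comp tendsto_inv₀_nhdsNE_zero
  have h2 := h1.const_mul_atTop hR
  refine h2.congr fun ζ => ?_
  rw [div_eq_mul_inv, norm_mul, Complex.norm_real, Real.norm_eq_abs, abs_of_pos hR]

/-- the regular part `ζ ↦ f (R/ζ) - R/ζ`, value `0` at `0`. -/
noncomputable def reg (f : ℂ → ℂ) (R : ℝ) (ζ : ℂ) : ℂ :=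
  if ζ = 0 then 0 else f ((R : ℂ) / ζ) - (R : ℂ) / ζ

theorem reg_zero (f : ℂ → ℂ) (R : ℝ) : reg f R 0 = 0 := by simp [reg]

theorem reg_of_ne {f : ℂ → ℂ} {R : ℝ} {ζ : ℂ} (h : ζ ≠ 0) :
    reg f R ζ = f ((R : ℂ) / ζ) - (R : ℂ) / ζ := by simp [reg, h]

theorem div_mem_Ext {R : ℝ} (hR : 0 < R) {ζ : ℂ} (hζ : ζ ∈ ball (0:ℂ) 1) (h0 : ζ ≠ 0) :
    (R : ℂ) / ζ ∈ Ext R := by
  rw [mem_ball_zero_iff] at hζ
  have h1 : 0 < ‖ζ‖ := norm_pos_iff.2 h0
  rw [mem_Ext, norm_div, Complex.norm_real, Real.norm_eq_abs, abs_of_pos hR, lt_div_iff₀ h1]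
  nlinarith

theorem div_mem_ball {R : ℝ} (hR : 0 < R) {z : ℂ} (hz : z ∈ Ext R) :
    (R : ℂ) / z ∈ ball (0:ℂ) 1 := by
  have hz' : R < ‖z‖ := hz
  rw [mem_ball_zero_iff, norm_div, Complex.norm_real, Real.norm_eq_abs, abs_of_pos hR,
    div_lt_one (hR.trans hz')]
  exact hz'

theorem ne_zero_of_mem_Ext {R : ℝ} (hR : 0 < R) {z : ℂ} (hz : z ∈ Ext R) : z ≠ 0 := by
  rintro rfl
  have hz' : R < ‖(0:ℂ)‖ := hz
  rw [norm_zero] at hz'
  linarith

section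

variable {f : ℂ → ℂ} {R : ℝ}

theorem reg_continuousAt_zero (hR : 0 < R)
    (hlim : Tendsto (fun z => f z - z) (cocompact ℂ) (𝓝 0)) : ContinuousAt (reg f R) 0 := by
  rw [continuousAt_iff_punctured_nhds, reg_zero]
  refine (hlim.comp (tendsto_div_cocompact hR)).congr' ?_
  filter_upwards [self_mem_nhdsWithin] with ζ hζ
  rw [reg_of_ne hζ]
  rfl

theorem reg_differentiableOn (hR : 0 < R) (hf : DifferentiableOn ℂ f (Ext R))
    (hlim : Tendsto (fun z => f z - z) (cocompact ℂ) (𝓝 0)) :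
    DifferentiableOn ℂ (reg f R) (ball 0 1) := by
  have h0 : ball (0:ℂ) 1 ∈ 𝓝 (0:ℂ) := ball_mem_nhds 0 one_pos
  rw [← Complex.differentiableOn_compl_singleton_and_continuousAt_iff h0]
  refine ⟨?_, reg_continuousAt_zero hR hlim⟩
  intro ζ hζ
  have hne : ζ ≠ 0 := hζ.2
  have h1 : DifferentiableAt ℂ (fun ζ : ℂ => (R : ℂ) / ζ) ζ :=
    (differentiableAt_const _).div differentiableAt_id hne
  have h2 : DifferentiableAt ℂ f ((R : ℂ) / ζ) :=
    hf.differentiableAt ((isOpen_Ext R).mem_nhds (div_mem_Ext hR hζ.1 hne))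
  have h3 : DifferentiableAt ℂ (fun ζ : ℂ => f ((R : ℂ) / ζ) - (R : ℂ) / ζ) ζ :=
    (h2.comp ζ h1).sub h1
  refine (h3.congr_of_eventuallyEq ?_).differentiableWithinAt
  filter_upwards [isOpen_ne.mem_nhds hne] with η hη
  exact reg_of_ne hη

/-- the denominator `R + ζ (reg ζ - w) = ζ (f (R/ζ) - w)` -/
theorem den_ne_zero (hR : 0 < R) {w : ℂ} (hw : w ∉ f '' Ext R) {ζ : ℂ}
    (hζ : ζ ∈ ball (0:ℂ) 1) : (R : ℂ) + ζ * (reg f R ζ - w) ≠ 0 := by
  have hRc : (R : ℂ) ≠ 0 := by exact_mod_cast hR.ne'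
  by_cases h : ζ = 0
  · rw [h, zero_mul, add_zero]; exact hRc
  · rw [reg_of_ne h]
    have e : (R : ℂ) + ζ * (f ((R : ℂ) / ζ) - (R : ℂ) / ζ - w) = ζ * (f ((R : ℂ) / ζ) - w) := by
      field_simp
      ring
    rw [e]
    apply mul_ne_zero h
    intro h2
    exact hw ⟨_, div_mem_Ext hR hζ h, sub_eq_zero.1 h2⟩

/-- the univalent function of the disc attached to an omitted value:
`R ζ / (R + ζ (reg ζ - w)) = R / (f (R/ζ) - w)`. -/
noncomputable def dsk (f : ℂ → ℂ) (R : ℝ) (w : ℂ) (ζ : ℂ) : ℂ :=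
  (R : ℂ) * ζ / ((R : ℂ) + ζ * (reg f R ζ - w))

theorem dsk_zero (w : ℂ) : dsk f R w 0 = 0 := by simp [dsk]

theorem dsk_of_ne (hR : 0 < R) {w : ℂ} (hw : w ∉ f '' Ext R) {ζ : ℂ}
    (hζ : ζ ∈ ball (0:ℂ) 1) (h : ζ ≠ 0) : dsk f R w ζ = (R : ℂ) / (f ((R : ℂ) / ζ) - w) := by
  have h1 := den_ne_zero hR hw hζ
  have h2 : f ((R : ℂ) / ζ) - w ≠ 0 := by
    intro h2
    exact hw ⟨_, div_mem_Ext hR hζ h, sub_eq_zero.1 h2⟩
  rw [reg_of_ne h] at h1
  rw [dsk, reg_of_ne h]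
  have e : (R : ℂ) + ζ * (f ((R : ℂ) / ζ) - (R : ℂ) / ζ - w) = ζ * (f ((R : ℂ) / ζ) - w) := by
    field_simp
    ring
  rw [e]
  field_simp

theorem dsk_hasDerivAt (hR : 0 < R) (hf : DifferentiableOn ℂ f (Ext R))
    (hlim : Tendsto (fun z => f z - z) (cocompact ℂ) (𝓝 0)) {w : ℂ} (hw : w ∉ f '' Ext R) {ζ : ℂ}
    (hζ : ζ ∈ ball (0:ℂ) 1) :
    HasDerivAt (dsk f R w) ((R : ℂ) * ((R : ℂ) - ζ ^ 2 * deriv (reg f R) ζ) /
      ((R : ℂ) + ζ * (reg f R ζ - w)) ^ 2) ζ := by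
  have h1 := den_ne_zero hR hw hζ
  have hr : HasDerivAt (reg f R) (deriv (reg f R) ζ) ζ :=
    ((reg_differentiableOn hR hf hlim).differentiableAt (isOpen_ball.mem_nhds hζ)).hasDerivAt
  have h2 : HasDerivAt (fun ζ : ℂ => (R : ℂ) + ζ * (reg f R ζ - w))
      (1 * (reg f R ζ - w) + ζ * deriv (reg f R) ζ) ζ :=
    (((hasDerivAt_id ζ).mul (hr.sub_const w))).const_add (R : ℂ)
  have h3 : HasDerivAt (fun ζ : ℂ => (R : ℂ) * ζ) ((R : ℂ) * 1) ζ :=
    (hasDerivAt_id ζ).const_mul (R : ℂ)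
  refine (h3.div h2 h1).congr_deriv ?_
  congr 1
  ring

theorem dsk_differentiableOn (hR : 0 < R) (hf : DifferentiableOn ℂ f (Ext R))
    (hlim : Tendsto (fun z => f z - z) (cocompact ℂ) (𝓝 0)) {w : ℂ} (hw : w ∉ f '' Ext R) :
    DifferentiableOn ℂ (dsk f R w) (ball 0 1) := fun _ hζ =>
  (dsk_hasDerivAt hR hf hlim hw hζ).differentiableAt.differentiableWithinAt

theorem dsk_ne_zero (hR : 0 < R) {w : ℂ} (hw : w ∉ f '' Ext R) {ζ : ℂ}
    (hζ : ζ ∈ ball (0:ℂ) 1) (h : ζ ≠ 0) : dsk f R w ζ ≠ 0 := by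
  rw [dsk]
  exact div_ne_zero (mul_ne_zero (by exact_mod_cast hR.ne') h) (den_ne_zero hR hw hζ)

theorem dsk_injOn (hR : 0 < R) (hinj : InjOn f (Ext R)) {w : ℂ} (hw : w ∉ f '' Ext R) :
    InjOn (dsk f R w) (ball 0 1) := by
  have hRc : (R : ℂ) ≠ 0 := by exact_mod_cast hR.ne'
  intro a ha b hb hab
  by_cases h0 : a = 0
  · subst h0
    by_contra hne
    rw [dsk_zero] at hab
    exact dsk_ne_zero hR hw hb (Ne.symm hne) hab.symm
  by_cases h0' : b = 0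
  · subst h0'
    rw [dsk_zero] at hab
    exact absurd hab (dsk_ne_zero hR hw ha h0)
  rw [dsk_of_ne hR hw ha h0, dsk_of_ne hR hw hb h0'] at hab
  have ha2 : f ((R : ℂ) / a) - w ≠ 0 := fun h2 =>
    hw ⟨_, div_mem_Ext hR ha h0, sub_eq_zero.1 h2⟩
  have hb2 : f ((R : ℂ) / b) - w ≠ 0 := fun h2 =>
    hw ⟨_, div_mem_Ext hR hb h0', sub_eq_zero.1 h2⟩
  rw [div_eq_div_iff ha2 hb2] at hab
  have h3 : f ((R : ℂ) / a) = f ((R : ℂ) / b) := by
    have := mul_left_cancel₀ hRc hab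
    linear_combination -this
  have h4 := hinj (div_mem_Ext hR ha h0) (div_mem_Ext hR hb h0') h3
  rw [div_eq_div_iff h0 h0'] at h4
  exact (mul_left_cancel₀ hRc h4).symm

theorem dsk_deriv_zero (hR : 0 < R) (hf : DifferentiableOn ℂ f (Ext R))
    (hlim : Tendsto (fun z => f z - z) (cocompact ℂ) (𝓝 0)) {w : ℂ} (hw : w ∉ f '' Ext R) :
    deriv (dsk f R w) 0 = 1 := by
  have hRc : (R : ℂ) ≠ 0 := by exact_mod_cast hR.ne'
  rw [(dsk_hasDerivAt hR hf hlim hw (mem_ball_self one_pos)).deriv]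
  simp only [ne_eq, OfNat.ofNat_ne_zero, not_false_eq_true, zero_pow, zero_mul, sub_zero,
    add_zero]
  field_simp

/-- **Omitted values**: if `f` is univalent on `Ext R`, `f z - z → 0` at infinity, then every
omitted value has modulus at most `2 R`. -/
theorem norm_le_of_not_mem_image (hR : 0 < R) (hf : DifferentiableOn ℂ f (Ext R))
    (hinj : InjOn f (Ext R))
    (hlim : Tendsto (fun z => f z - z) (cocompact ℂ) (𝓝 0)) {w : ℂ} (hw : w ∉ f '' Ext R) :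
    ‖w‖ ≤ 2 * R := by
  have hRc : (R : ℂ) ≠ 0 := by exact_mod_cast hR.ne'
  have h0m : (0:ℂ) ∈ ball (0:ℂ) 1 := mem_ball_self one_pos
  have hnh : ball (0:ℂ) 1 ∈ 𝓝 (0:ℂ) := ball_mem_nhds 0 one_pos
  have hb := Lib.Bieberbach.bieberbach_normalized (dsk_differentiableOn hR hf hlim hw)
    (dsk_injOn hR hinj hw) (dsk_zero w) (dsk_deriv_zero hR hf hlim hw)
  have hreg := reg_differentiableOn hR hf hlim
  have hrd : ∀ ζ ∈ ball (0:ℂ) 1, HasDerivAt (reg f R) (deriv (reg f R) ζ) ζ := fun ζ hζ =>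
    (hreg.differentiableAt (isOpen_ball.mem_nhds hζ)).hasDerivAt
  have hdd : deriv (deriv (dsk f R w)) 0 = 2 * w / R := by
    have a2 : HasDerivAt (deriv (reg f R)) (deriv (deriv (reg f R)) 0) 0 :=
      ((hreg.deriv isOpen_ball).differentiableAt hnh).hasDerivAt
    have b1 : HasDerivAt (fun ζ : ℂ => (R : ℂ) * ((R : ℂ) - ζ ^ 2 * deriv (reg f R) ζ))
        ((R : ℂ) * (-(((2 : ℕ) : ℂ) * (0:ℂ) ^ (2 - 1) * 1 * deriv (reg f R) 0
          + (0:ℂ) ^ 2 * deriv (deriv (reg f R)) 0))) 0 :=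
      (((((hasDerivAt_id (0:ℂ)).fun_pow 2).mul a2).const_sub (R : ℂ)).const_mul (R : ℂ))
    have b2 : HasDerivAt (fun ζ : ℂ => (R : ℂ) + ζ * (reg f R ζ - w))
        (1 * (reg f R 0 - w) + 0 * deriv (reg f R) 0) 0 :=
      (((hasDerivAt_id (0:ℂ)).mul ((hrd 0 h0m).sub_const w))).const_add (R : ℂ)
    have hd0 : ((R : ℂ) + 0 * (reg f R 0 - w)) ^ 2 ≠ 0 :=
      pow_ne_zero 2 (den_ne_zero hR hw h0m)
    have b3 := b1.div (b2.fun_pow 2) hd0
    have hev : deriv (dsk f R w) =ᶠ[𝓝 0] (fun ζ => (R : ℂ) * ((R : ℂ) - ζ ^ 2 *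
        deriv (reg f R) ζ) / ((R : ℂ) + ζ * (reg f R ζ - w)) ^ 2) := by
      filter_upwards [hnh] with z hz
      rw [(dsk_hasDerivAt hR hf hlim hw hz).deriv]
    have b4 := b3.congr_of_eventuallyEq hev
    rw [b4.deriv]
    simp only [reg_zero]
    norm_num
    field_simp
  rw [hdd, norm_div, norm_mul, Complex.norm_real, Real.norm_eq_abs, abs_of_pos hR,
    Complex.norm_ofNat, div_le_iff₀ hR] at hb
  linarith

/-- the image of `Ext R` contains `Ext (2 R)` -/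
theorem Ext_two_mul_subset (hR : 0 < R) (hf : DifferentiableOn ℂ f (Ext R))
    (hinj : InjOn f (Ext R))
    (hlim : Tendsto (fun z => f z - z) (cocompact ℂ) (𝓝 0)) : Ext (2 * R) ⊆ f '' Ext R := by
  intro w hw
  by_contra h
  exact absurd (norm_le_of_not_mem_image hR hf hinj hlim h) (not_le.2 hw)

/-- Koebe 1/4 for the omitted values: `‖f z - w‖ ≤ 4 ‖z‖`. -/
theorem norm_sub_le_four_mul (hR : 0 < R) (hf : DifferentiableOn ℂ f (Ext R))
    (hinj : InjOn f (Ext R))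
    (hlim : Tendsto (fun z => f z - z) (cocompact ℂ) (𝓝 0)) {w : ℂ} (hw : w ∉ f '' Ext R)
    {z : ℂ} (hz : z ∈ Ext R) : ‖f z - w‖ ≤ 4 * ‖z‖ := by
  have hRc : (R : ℂ) ≠ 0 := by exact_mod_cast hR.ne'
  have hz0 : z ≠ 0 := ne_zero_of_mem_Ext hR hz
  have hζ := div_mem_ball hR hz
  have hζn : ‖(R : ℂ) / z‖ < 1 := by simpa using hζ
  have hζ0 : (R : ℂ) / z ≠ 0 := div_ne_zero hRc hz0
  have h1 := R162.KBD.growth_lower (dsk_differentiableOn hR hf hlim hw) (dsk_injOn hR hinj hw) hζn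
  rw [dsk_zero, sub_zero, dsk_deriv_zero hR hf hlim hw, dsk_of_ne hR hw hζ hζ0,
    div_div_cancel₀ hRc, norm_one, norm_div, norm_div, Complex.norm_real, Real.norm_eq_abs,
    abs_of_pos hR] at h1
  have h2 : f z - w ≠ 0 := fun h2 => hw ⟨z, hz, sub_eq_zero.1 h2⟩
  have h3 : 0 < ‖f z - w‖ := norm_pos_iff.2 h2
  have h4 : 0 < ‖z‖ := norm_pos_iff.2 hz0
  rw [div_mul_div_comm, one_mul, div_le_div_iff₀ (by positivity) h3] at h1
  nlinarith

/-- Univalent maps near infinity omit a value (Liouville). -/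
theorem exists_not_mem_image (hR : 0 < R) (hf : DifferentiableOn ℂ f (Ext R))
    (hinj : InjOn f (Ext R)) : ∃ w, w ∉ f '' Ext R := by
  by_contra hcon
  push Not at hcon
  have huniv : f '' Ext R = univ := eq_univ_of_forall hcon
  obtain ⟨g, hg, hginj, hgim, hgf, hfg⟩ := Lib.exists_holomorphic_inverse (isOpen_Ext R) hf hinj
  rw [huniv] at hg hginj hgim hfg
  have hgE : ∀ w, g w ∈ Ext R := fun w => by rw [← hgim]; exact ⟨w, mem_univ _, rfl⟩
  have hg0 : ∀ w, g w ≠ 0 := fun w => ne_zero_of_mem_Ext hR (hgE w)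
  have hgd : Differentiable ℂ g := differentiableOn_univ.1 hg
  have hinv : Differentiable ℂ (fun w => (g w)⁻¹) := hgd.inv hg0
  have hbd : Bornology.IsBounded (range (fun w => (g w)⁻¹)) := by
    rw [isBounded_iff_forall_norm_le]
    refine ⟨R⁻¹, ?_⟩
    rintro _ ⟨w, rfl⟩
    simp only [norm_inv]
    exact inv_anti₀ hR (hgE w).le
  have h := hinv.apply_eq_apply_of_bounded hbd 0 1
  have h2 : g 0 = g 1 := inv_injective h
  exact zero_ne_one (hginj (mem_univ _) (mem_univ _) h2)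

/-- `‖reg ζ‖ ≤ 7 R`. -/
theorem reg_norm_le (hR : 0 < R) (hf : DifferentiableOn ℂ f (Ext R))
    (hinj : InjOn f (Ext R))
    (hlim : Tendsto (fun z => f z - z) (cocompact ℂ) (𝓝 0)) {ζ : ℂ} (hζ : ζ ∈ ball (0:ℂ) 1) :
    ‖reg f R ζ‖ ≤ 7 * R := by
  obtain ⟨w, hw⟩ := exists_not_mem_image hR hf hinj
  have hw2 := norm_le_of_not_mem_image hR hf hinj hlim hw
  have hreg := reg_differentiableOn hR hf hlim
  -- bound on circles
  have hcirc : ∀ r : ℝ, 0 < r → r < 1 → ∀ η : ℂ, ‖η‖ = r → ‖reg f R η‖ ≤ 5 * R / r + 2 * R := by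
    intro r hr0 hr1 η hη
    have hη0 : η ≠ 0 := by
      rintro rfl; rw [norm_zero] at hη; linarith
    have hηb : η ∈ ball (0:ℂ) 1 := by rw [mem_ball_zero_iff, hη]; exact hr1
    have hE := div_mem_Ext hR hηb hη0
    have h1 := norm_sub_le_four_mul hR hf hinj hlim hw hE
    have h2 : ‖(R : ℂ) / η‖ = R / r := by
      rw [norm_div, Complex.norm_real, Real.norm_eq_abs, abs_of_pos hR, hη]
    rw [h2] at h1
    rw [reg_of_ne hη0]
    have e : f ((R : ℂ) / η) - (R : ℂ) / η = (f ((R : ℂ) / η) - w) + w - (R : ℂ) / η := by ring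
    rw [e]
    refine (norm_sub_le _ _).trans ?_
    rw [h2]
    have h3 := norm_add_le (f ((R : ℂ) / η) - w) w
    have h4 : 5 * R / r = 4 * (R / r) + R / r := by ring
    rw [h4]
    linarith
  have hmax : ∀ r : ℝ, ‖ζ‖ < r → r < 1 → ‖reg f R ζ‖ ≤ 5 * R / r + 2 * R := by
    intro r hζr hr1
    have hr0 : 0 < r := (norm_nonneg ζ).trans_lt hζr
    have hd : DiffContOnCl ℂ (reg f R) (ball 0 r) := by
      apply DifferentiableOn.diffContOnCl
      rw [closure_ball _ hr0.ne']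
      exact hreg.mono (closedBall_subset_ball hr1)
    refine Complex.norm_le_of_forall_mem_frontier_norm_le isBounded_ball hd ?_ ?_
    · intro η hη
      rw [frontier_ball _ hr0.ne', mem_sphere_zero_iff_norm] at hη
      exact hcirc r hr0 hr1 η hη
    · exact subset_closure (by rw [mem_ball_zero_iff]; exact hζr)
  have hζ1 : ‖ζ‖ < 1 := by simpa using hζ
  have ht : Tendsto (fun r : ℝ => 5 * R / r + 2 * R) (𝓝[<] 1) (𝓝 (5 * R / 1 + 2 * R)) := by
    apply Tendsto.mono_left _ nhdsWithin_le_nhds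
    exact ((tendsto_const_nhds.div tendsto_id one_ne_zero).add_const _)
  have h7 : 7 * R = 5 * R / 1 + 2 * R := by ring
  rw [h7]
  refine ge_of_tendsto ht ?_
  filter_upwards [Ioo_mem_nhdsLT hζ1] with r hr
  exact hmax r hr.1 hr.2

/-- **Deviation**: `‖f z - z‖ ≤ 7 R² / ‖z‖` on `Ext R`. -/
theorem norm_sub_self_le (hR : 0 < R) (hf : DifferentiableOn ℂ f (Ext R))
    (hinj : InjOn f (Ext R))
    (hlim : Tendsto (fun z => f z - z) (cocompact ℂ) (𝓝 0)) {z : ℂ} (hz : z ∈ Ext R) :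
    ‖f z - z‖ ≤ 7 * R ^ 2 / ‖z‖ := by
  have hRc : (R : ℂ) ≠ 0 := by exact_mod_cast hR.ne'
  have hz0 : z ≠ 0 := ne_zero_of_mem_Ext hR hz
  have hζ := div_mem_ball hR hz
  have hζ0 : (R : ℂ) / z ≠ 0 := div_ne_zero hRc hz0
  have hmaps : MapsTo (reg f R) (ball 0 1) (closedBall (reg f R 0) (7 * R)) := by
    intro η hη
    rw [reg_zero, mem_closedBall_zero_iff]
    exact reg_norm_le hR hf hinj hlim hη
  have h1 : dist (reg f R ((R : ℂ) / z)) (reg f R 0) ≤ 7 * R / 1 * dist ((R : ℂ) / z) 0 :=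
    Complex.dist_le_div_mul_dist_of_mapsTo_ball (reg_differentiableOn hR hf hlim) hmaps hζ
  rw [reg_zero, dist_zero_right, dist_zero_right, reg_of_ne hζ0, div_div_cancel₀ hRc, norm_div,
    Complex.norm_real, Real.norm_eq_abs, abs_of_pos hR] at h1
  refine h1.trans (le_of_eq ?_)
  ring

theorem norm_le_add (hR : 0 < R) (hf : DifferentiableOn ℂ f (Ext R))
    (hinj : InjOn f (Ext R))
    (hlim : Tendsto (fun z => f z - z) (cocompact ℂ) (𝓝 0)) {z : ℂ} (hz : z ∈ Ext R) :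
    ‖f z‖ ≤ ‖z‖ + 7 * R := by
  have h1 := norm_sub_self_le hR hf hinj hlim hz
  have hz' : R < ‖z‖ := hz
  have hz0 : 0 < ‖z‖ := hR.trans hz'
  have h2 : 7 * R ^ 2 / ‖z‖ ≤ 7 * R := by
    rw [div_le_iff₀ hz0]
    nlinarith
  have e : f z = (f z - z) + z := by ring
  rw [e]
  refine (norm_add_le _ _).trans ?_
  linarith

end

end Crest.Agent.R105.Uni231
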