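import Mathlib
import Crest.Prelude.Def_CircleDomain
import Crest.Agent.R105.Uni1_231

/-!
Row 105. The class `Sig U` of univalent maps `f z = z + o(1)` on an exterior domain (helper231):
bounds, images, compositions and inverses. No `sorry`.
-/

set_option autoImplicit false

open Set Filter Topology Metric Complex

namespace Crest.Agent.R105.Uni231

open Crest.AnalysisR

/-- `f` is holomorphic and injective on `U` and `f z = z + o(1)` at infinity. -/
structure Sig (U : Set ℂ) (f : ℂ → ℂ) : Prop where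
  diff : DifferentiableOn ℂ f U
  inj : InjOn f U
  lim : Tendsto (fun z => f z - z) (cocompact ℂ) (𝓝 0)

theorem exists_Ext_subset {U : Set ℂ} (hU : IsExteriorDomain U) : ∃ R : ℝ, 0 < R ∧ Ext R ⊆ U := by
  obtain ⟨R, hR⟩ := hU.2.2
  exact ⟨max R 1, lt_max_of_lt_right one_pos, fun z hz => hR z (lt_of_le_of_lt (le_max_left _ _) hz)⟩

theorem sig_id (U : Set ℂ) : Sig U id :=
  ⟨differentiableOn_id, injOn_id U, by simp⟩

namespace Sig

variable {U V : Set ℂ} {f g : ℂ → ℂ} {R : ℝ}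

theorem mono (h : Sig U f) (hV : V ⊆ U) : Sig V f :=
  ⟨h.diff.mono hV, h.inj.mono hV, h.lim⟩

theorem congr (h : Sig U f) (hU : U ∈ cocompact ℂ) (hfg : ∀ z ∈ U, g z = f z) : Sig U g := by
  refine ⟨h.diff.congr hfg, h.inj.congr fun z hz => (hfg z hz).symm, h.lim.congr' ?_⟩
  filter_upwards [hU] with z hz
  rw [hfg z hz]

theorem tendsto_cocompact (h : Sig U f) : Tendsto f (cocompact ℂ) (cocompact ℂ) := by
  rw [← Metric.cobounded_eq_cocompact]
  have hl := h.lim
  rw [← Metric.cobounded_eq_cocompact] at hl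
  have h1 : ∀ᶠ z in Bornology.cobounded ℂ, ‖f z - z‖ < 1 := by
    have := hl.norm
    rw [norm_zero] at this
    exact this.eventually (gt_mem_nhds one_pos)
  rw [← tendsto_norm_atTop_iff_cobounded]
  have h2 : Tendsto (fun z : ℂ => ‖z‖ - 1) (Bornology.cobounded ℂ) atTop :=
    tendsto_norm_cobounded_atTop.atTop_add tendsto_const_nhds (C := (-1:ℝ))
  refine tendsto_atTop_mono' _ ?_ h2
  filter_upwards [h1] with z hz
  have h3 : ‖z‖ ≤ ‖f z‖ + ‖f z - z‖ := by
    have e : z = f z - (f z - z) := by ring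
    calc ‖z‖ = ‖f z - (f z - z)‖ := by rw [← e]
      _ ≤ _ := norm_sub_le _ _
  linarith

theorem comp (h : Sig U f) (hg : Sig V g) (hV : MapsTo f U V) : Sig U (g ∘ f) := by
  refine ⟨hg.diff.comp h.diff hV, hg.inj.comp h.inj hV, ?_⟩
  have h1 := hg.lim.comp h.tendsto_cocompact
  have h2 := h1.add h.lim
  rw [add_zero] at h2
  refine h2.congr fun z => ?_
  simp only [Function.comp]
  ring

/-- complement of the image is contained in the disc of radius `2 R` -/
theorem norm_le_of_not_mem (h : Sig U f) (hR : 0 < R) (hU : Ext R ⊆ U) {w : ℂ}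
    (hw : w ∉ f '' U) : ‖w‖ ≤ 2 * R :=
  norm_le_of_not_mem_image hR (h.diff.mono hU) (h.inj.mono hU) h.lim
    fun hw' => hw (image_mono hU hw')

theorem Ext_subset_image (h : Sig U f) (hR : 0 < R) (hU : Ext R ⊆ U) :
    Ext (2 * R) ⊆ f '' Ext R :=
  Ext_two_mul_subset hR (h.diff.mono hU) (h.inj.mono hU) h.lim

/-- `f` maps `U ∩ {‖z‖ ≤ S}` into the disc of radius `2 S`, for all `S ≥ R`. -/
theorem norm_le (h : Sig U f) (hR : 0 < R) (hU : Ext R ⊆ U) {S : ℝ} (hS : R ≤ S) {z : ℂ}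
    (hz : z ∈ U) (hzS : ‖z‖ ≤ S) : ‖f z‖ ≤ 2 * S := by
  have hSU : Ext S ⊆ U := (Ext_anti hS).trans hU
  refine norm_le_of_not_mem_image (hR.trans_le hS) (h.diff.mono hSU) (h.inj.mono hSU) h.lim ?_
  rintro ⟨z', hz', he⟩
  have := h.inj (hSU hz') hz he
  subst this
  exact absurd hz' (not_lt.2 hzS)

theorem norm_sub_self_le (h : Sig U f) (hR : 0 < R) (hU : Ext R ⊆ U) {z : ℂ}
    (hz : R < ‖z‖) : ‖f z - z‖ ≤ 7 * R ^ 2 / ‖z‖ :=
  Uni231.norm_sub_self_le hR (h.diff.mono hU) (h.inj.mono hU) h.lim hz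

theorem norm_sub_four (h : Sig U f) (hR : 0 < R) (hU : Ext R ⊆ U) {z w : ℂ}
    (hz : R < ‖z‖) (hw : w ∉ f '' U) : ‖f z - w‖ ≤ 4 * ‖z‖ :=
  norm_sub_le_four_mul hR (h.diff.mono hU) (h.inj.mono hU) h.lim
    (fun hw' => hw (image_mono hU hw')) hz

theorem isOpen_image (h : Sig U f) (hU : IsOpen U) : IsOpen (f '' U) :=
  Lib.isOpen_image_of_injOn hU h.diff h.inj

/-- the image of an exterior domain is an exterior domain -/
theorem image_exterior (h : Sig U f) (hU : IsExteriorDomain U) : IsExteriorDomain (f '' U) := by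
  obtain ⟨R, hR, hRU⟩ := exists_Ext_subset hU
  refine ⟨h.isOpen_image hU.1, hU.2.1.image f h.diff.continuousOn, 2 * R, fun z hz => ?_⟩
  exact image_mono hRU (h.Ext_subset_image hR hRU hz)

/-- the inverse is in the class -/
theorem exists_inverse (h : Sig U f) (hU : IsOpen U) (hR : 0 < R) (hRU : Ext R ⊆ U) :
    ∃ g : ℂ → ℂ, Sig (f '' U) g ∧ g '' (f '' U) = U ∧ (∀ z ∈ U, g (f z) = z) ∧
      (∀ w ∈ f '' U, f (g w) = w) := by
  obtain ⟨g, hg, hginj, hgim, hgf, hfg⟩ := Lib.exists_holomorphic_inverse hU h.diff h.inj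
  refine ⟨g, ⟨hg, hginj, ?_⟩, hgim, hgf, hfg⟩
  have hmem : ∀ w ∈ Ext (2 * R), w ∈ f '' U := fun w hw =>
    image_mono hRU (h.Ext_subset_image hR hRU hw)
  -- `g` tends to infinity
  have hgc : Tendsto g (cocompact ℂ) (cocompact ℂ) := by
    rw [← Metric.cobounded_eq_cocompact, ← tendsto_norm_atTop_iff_cobounded, Filter.tendsto_atTop]
    intro S
    rw [Metric.cobounded_eq_cocompact]
    filter_upwards [Ext_mem_cocompact (2 * max R S)] with w hw
    have hw2 : w ∈ Ext (2 * R) := Ext_anti (by have := le_max_left R S; linarith) hw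
    obtain ⟨z, hz, rfl⟩ := hmem w hw2
    rw [hgf z hz]
    by_contra hcon
    push Not at hcon
    have := h.norm_le hR hRU (le_max_left R S) hz (hcon.le.trans (le_max_right R S))
    exact absurd hw (not_lt.2 this)
  have h1 := (h.lim.comp hgc).neg
  rw [neg_zero] at h1
  refine h1.congr' ?_
  filter_upwards [Ext_mem_cocompact (2 * R)] with w hw
  simp only [Function.comp]
  rw [hfg w (hmem w hw)]
  ring

theorem deriv_ne_zero (h : Sig U f) (hU : IsOpen U) {z : ℂ} (hz : z ∈ U) : deriv f z ≠ 0 :=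
  Lib.deriv_ne_zero_of_injOn hU h.diff h.inj hz

end Sig

/-- composition with the inverse: if `f : U → V`, `h : U → W` are in the class, then
`h = k ∘ f` for a `k` in the class on `V = f '' U`. -/
theorem Sig.exists_transition {U : Set ℂ} {f h : ℂ → ℂ} {R : ℝ} (hf : Sig U f) (hh : Sig U h)
    (hU : IsOpen U) (hR : 0 < R) (hRU : Ext R ⊆ U) :
    ∃ k : ℂ → ℂ, Sig (f '' U) k ∧ (∀ z ∈ U, k (f z) = h z) ∧ k '' (f '' U) = h '' U := by
  obtain ⟨g, hg, hgim, hgf, hfg⟩ := hf.exists_inverse hU hR hRU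
  refine ⟨h ∘ g, hg.comp hh ?_, ?_, ?_⟩
  · intro w hw
    rw [← hgim]
    exact ⟨w, hw, rfl⟩
  · intro z hz
    simp only [Function.comp]
    rw [hgf z hz]
  · rw [image_comp, hgim]

/-- A map with a simple pole-like behaviour `f z - z → 0` which is injective on an exterior domain
and which is equal to `z` at infinity can be conjugated by translations. -/
theorem Sig.translate {U : Set ℂ} {f : ℂ → ℂ} (hf : Sig U f) (c : ℂ) :
    Sig ((fun z => z + c) '' U) (fun z => f (z - c) + c) := by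
  refine ⟨?_, ?_, ?_⟩
  · rintro _ ⟨z, hz, rfl⟩
    have h1 : DifferentiableWithinAt ℂ f U (z + c - c) := by
      rw [add_sub_cancel_right]; exact hf.diff z hz
    refine DifferentiableWithinAt.add_const c ?_
    refine h1.comp (z + c) (differentiableWithinAt_id.sub_const c) ?_
    rintro _ ⟨y, hy, rfl⟩
    simpa using hy
  · rintro _ ⟨a, ha, rfl⟩ _ ⟨b, hb, rfl⟩ hab
    simp only [add_sub_cancel_right] at hab
    have := hf.inj ha hb (add_right_cancel hab)
    rw [this]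
  · have h1 : Tendsto (fun z : ℂ => z - c) (cocompact ℂ) (cocompact ℂ) :=
      (Homeomorph.subRight c).isClosedEmbedding.tendsto_cocompact
    refine (hf.lim.comp h1).congr fun z => ?_
    simp only [Function.comp]
    ring

/-- dilations -/
theorem Sig.dilate {U : Set ℂ} {f : ℂ → ℂ} (hf : Sig U f) {a : ℂ} (ha : a ≠ 0) :
    Sig ((fun z => a * z) '' U) (fun z => a * f (z / a)) := by
  refine ⟨?_, ?_, ?_⟩
  · rintro _ ⟨z, hz, rfl⟩
    have h1 : DifferentiableWithinAt ℂ f U (a * z / a) := by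
      rw [mul_div_cancel_left₀ _ ha]; exact hf.diff z hz
    refine DifferentiableWithinAt.const_mul ?_ a
    refine h1.comp (a * z) (differentiableWithinAt_id.div_const a) ?_
    rintro _ ⟨y, hy, rfl⟩
    simpa [mul_div_cancel_left₀ _ ha] using hy
  · rintro _ ⟨x, hx, rfl⟩ _ ⟨y, hy, rfl⟩ hab
    simp only [mul_div_cancel_left₀ _ ha] at hab
    have := hf.inj hx hy (mul_left_cancel₀ ha hab)
    rw [this]
  · have h1 : Tendsto (fun z : ℂ => z / a) (cocompact ℂ) (cocompact ℂ) :=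
      (Homeomorph.mulRight₀ a⁻¹ (inv_ne_zero ha)).isClosedEmbedding.tendsto_cocompact
    have h2 := (hf.lim.comp h1).const_mul a
    rw [mul_zero] at h2
    refine h2.congr fun z => ?_
    simp only [Function.comp]
    field_simp

/-! ### the first coefficient -/

/-- the coefficient `b₁` of `f z = z + b₁/z + ...` -/
noncomputable def b1 (f : ℂ → ℂ) : ℂ := limUnder (cocompact ℂ) (fun z => z * (f z - z))

theorem tendsto_b1_aux {f : ℂ → ℂ} {R : ℝ} (hR : 0 < R) (hf : DifferentiableOn ℂ f (Ext R))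
    (hlim : Tendsto (fun z => f z - z) (cocompact ℂ) (𝓝 0)) :
    Tendsto (fun z => z * (f z - z)) (cocompact ℂ) (𝓝 ((R : ℂ) * deriv (reg f R) 0)) := by
  have hRc : (R : ℂ) ≠ 0 := by exact_mod_cast hR.ne'
  have hd : HasDerivAt (reg f R) (deriv (reg f R) 0) 0 :=
    ((reg_differentiableOn hR hf hlim).differentiableAt
      (isOpen_ball.mem_nhds (mem_ball_self one_pos))).hasDerivAt
  rw [hasDerivAt_iff_tendsto_slope] at hd
  have h1 : Tendsto (fun z : ℂ => (R : ℂ) / z) (cocompact ℂ) (𝓝[≠] 0) := by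
    rw [tendsto_nhdsWithin_iff]
    constructor
    · have := (tendsto_inv₀_cobounded (α := ℂ)).const_mul (R : ℂ)
      rw [Metric.cobounded_eq_cocompact, mul_zero] at this
      exact this.congr fun z => by rw [div_eq_mul_inv]
    · filter_upwards [Ext_mem_cocompact R] with z hz
      exact div_ne_zero hRc (ne_zero_of_mem_Ext hR hz)
  have h2 := (hd.comp h1).const_mul (R : ℂ)
  refine h2.congr' ?_
  filter_upwards [Ext_mem_cocompact R] with z hz
  have hz0 := ne_zero_of_mem_Ext hR hz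
  simp only [Function.comp, slope_def_field, reg_zero, sub_zero]
  rw [reg_of_ne (div_ne_zero hRc hz0), div_div_cancel₀ hRc]
  field_simp

theorem Sig.tendsto_b1 {U : Set ℂ} {f : ℂ → ℂ} (h : Sig U f) {R : ℝ} (hR : 0 < R)
    (hU : Ext R ⊆ U) : Tendsto (fun z => z * (f z - z)) (cocompact ℂ) (𝓝 (b1 f)) :=
  tendsto_nhds_limUnder ⟨_, tendsto_b1_aux hR (h.diff.mono hU) h.lim⟩

theorem Sig.b1_eq {U : Set ℂ} {f : ℂ → ℂ} (h : Sig U f) {R : ℝ} (hR : 0 < R)
    (hU : Ext R ⊆ U) : b1 f = (R : ℂ) * deriv (reg f R) 0 :=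
  tendsto_nhds_unique (h.tendsto_b1 hR hU) (tendsto_b1_aux hR (h.diff.mono hU) h.lim)

theorem Sig.norm_b1_le {U : Set ℂ} {f : ℂ → ℂ} (h : Sig U f) {R : ℝ} (hR : 0 < R)
    (hU : Ext R ⊆ U) : ‖b1 f‖ ≤ 7 * R ^ 2 := by
  have h1 := (h.tendsto_b1 hR hU).norm
  refine le_of_tendsto h1 ?_
  filter_upwards [Ext_mem_cocompact R] with z hz
  have h2 := h.norm_sub_self_le hR hU hz
  have hz0 : 0 < ‖z‖ := hR.trans hz
  rw [norm_mul]
  calc ‖z‖ * ‖f z - z‖ ≤ ‖z‖ * (7 * R ^ 2 / ‖z‖) := by gcongr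
    _ = 7 * R ^ 2 := by field_simp

/-- additivity of `b₁` under composition -/
theorem Sig.b1_comp {U V : Set ℂ} {f g : ℂ → ℂ} (h : Sig U f) (hg : Sig V g) {R S : ℝ}
    (hR : 0 < R) (hU : Ext R ⊆ U) (hS : 0 < S) (hV : Ext S ⊆ V) :
    Tendsto (fun z => z * ((g ∘ f) z - z)) (cocompact ℂ) (𝓝 (b1 f + b1 g)) := by
  have h1 := h.tendsto_b1 hR hU
  have h2 := (hg.tendsto_b1 hS hV).comp h.tendsto_cocompact
  have h3 : Tendsto (fun z => g (f z) - f z) (cocompact ℂ) (𝓝 0) :=
    hg.lim.comp h.tendsto_cocompact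
  have h4 := (h1.add h2).sub (h3.mul h.lim)
  rw [mul_zero, sub_zero] at h4
  refine h4.congr fun z => ?_
  simp only [Function.comp]
  ring

end Crest.Agent.R105.Uni231
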