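import Mathlib
import Crest.Agent.Lib.InjHolo
import Crest.Agent.R264.MontelU
import Crest.Agent.R105.Uni2_231

/-!
Row 105. Limits of univalent maps of the class `Sig` (helper231): compactness (ultrafilter and
subsequence form), Hurwitz, kernel convergence of images, convergence of inverse maps.
The domains may vary: `f k` is in the class on `Uk k`, and every compact subset of `U` is eventually
in `Uk k`. No `sorry`.
-/

set_option autoImplicit false

open Set Filter Topology Metric Complex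

namespace Crest.Agent.R105.Uni231

variable {ι : Type*} {l : Filter ι}

theorem tlu_of_local {U : Set ℂ} {f : ι → ℂ → ℂ} {g : ℂ → ℂ}
    (h : ∀ a ∈ U, ∃ r > 0, TendstoLocallyUniformlyOn f g l (ball a r)) :
    TendstoLocallyUniformlyOn f g l U := by
  intro V hV a ha
  obtain ⟨r, hr, hl⟩ := h a ha
  obtain ⟨t, ht, h2⟩ := hl V hV a (mem_ball_self hr)
  rw [IsOpen.nhdsWithin_eq isOpen_ball (mem_ball_self hr)] at ht
  exact ⟨t, mem_nhdsWithin_of_mem_nhds ht, h2⟩

theorem exists_closedBall_subset {U : Set ℂ} (hU : IsOpen U) {a : ℂ} (ha : a ∈ U) :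
    ∃ r > 0, closedBall a r ⊆ U := by
  obtain ⟨r, hr, hb⟩ := Metric.isOpen_iff.1 hU a ha
  exact ⟨r / 2, half_pos hr, (closedBall_subset_ball (half_lt_self hr)).trans hb⟩

/-- quantitative Hurwitz / open mapping theorem for locally uniform limits of injective maps -/
theorem eventually_ball_subset_image {f : ι → ℂ → ℂ} {g : ℂ → ℂ} {a : ℂ} {r m : ℝ}
    (hr : 0 < r) (hm : 0 < m)
    (hd : ∀ᶠ k in l, DiffContOnCl ℂ (f k) (ball a r))
    (hinj : ∀ᶠ k in l, InjOn (f k) (ball a r))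
    (hu : TendstoUniformlyOn f g l (closedBall a r))
    (hmg : ∀ z ∈ sphere a r, m ≤ ‖g z - g a‖) :
    ∀ᶠ k in l, ball (g a) (m / 8) ⊆ f k '' closedBall a r := by
  rw [Metric.tendstoUniformlyOn_iff] at hu
  filter_upwards [hd, hinj, hu (m / 8) (by positivity)] with k hdk hik huk
  have ha : dist (g a) (f k a) < m / 8 := huk a (mem_closedBall_self hr.le)
  have h1 : ∀ z ∈ sphere a r, 3 * m / 4 ≤ ‖f k z - f k a‖ := by
    intro z hz
    have hz1 := huk z (sphere_subset_closedBall hz)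
    rw [dist_eq_norm] at hz1 ha
    have e : g z - g a = (f k z - f k a) + ((g z - f k z) - (g a - f k a)) := by ring
    have h2 := norm_add_le (f k z - f k a) ((g z - f k z) - (g a - f k a))
    rw [← e] at h2
    have h3 := norm_sub_le (g z - f k z) (g a - f k a)
    have h4 := hmg z hz
    linarith
  have h2 := hdk.ball_subset_image_closedBall hr h1 (by
    rw [← Filter.not_eventually]
    exact Lib.not_eventually_const_of_injOn isOpen_ball hik (mem_ball_self hr) _)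
  refine Subset.trans (ball_subset_ball' ?_) h2
  rw [dist_eq_norm] at ha ⊢
  linarith

section

variable {U : Set ℂ} {Uk : ι → Set ℂ} {f : ι → ℂ → ℂ} {g : ℂ → ℂ} {R : ℝ}

theorem differentiableOn_of_tlu [l.NeBot] (hU : IsOpen U)
    (hf : ∀ᶠ k in l, DifferentiableOn ℂ (f k) (Uk k))
    (hex : ∀ K ⊆ U, IsCompact K → ∀ᶠ k in l, K ⊆ Uk k)
    (h : TendstoLocallyUniformlyOn f g l U) : DifferentiableOn ℂ g U := by
  intro a ha
  obtain ⟨r, hr, hrU⟩ := exists_closedBall_subset hU ha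
  have h1 : TendstoLocallyUniformlyOn f g l (ball a r) :=
    h.mono (ball_subset_closedBall.trans hrU)
  have h2 : ∀ᶠ k in l, DifferentiableOn ℂ (f k) (ball a r) := by
    filter_upwards [hf, hex _ hrU (isCompact_closedBall a r)] with k hk hk2
    exact hk.mono (ball_subset_closedBall.trans hk2)
  exact ((h1.differentiableOn h2 isOpen_ball).differentiableAt
    (ball_mem_nhds a hr)).differentiableWithinAt

theorem not_const_of_lim {c : ℂ} (hRU : Ext R ⊆ U)
    (hlim : Tendsto (fun z => g z - z) (cocompact ℂ) (𝓝 0)) (hc : ∀ z ∈ U, g z = c) : False := by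
  have h1 : Tendsto (fun z : ℂ => ‖g z - z‖) (cocompact ℂ) (𝓝 0) := by
    simpa using hlim.norm
  have h2 : ∀ᶠ z in cocompact ℂ, ‖g z - z‖ < 1 := h1.eventually (gt_mem_nhds one_pos)
  have h3 : ∀ᶠ z in cocompact ℂ, (False : Prop) := by
    filter_upwards [h2, Ext_mem_cocompact R, Ext_mem_cocompact (‖c‖ + 1)] with z hz hzR hzc
    rw [hc z (hRU hzR)] at hz
    have h4 : ‖z‖ ≤ ‖c‖ + ‖c - z‖ := by
      have e : z = c - (c - z) := by ring
      calc ‖z‖ = ‖c - (c - z)‖ := by rw [← e]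
        _ ≤ _ := norm_sub_le _ _
    have h5 : ‖c‖ + 1 < ‖z‖ := hzc
    linarith
  exact (h3.exists).elim fun _ h => h

/-- small circles on which the limit stays away from its central value -/
theorem exists_good_radius (hU : IsOpen U) (hUc : IsPreconnected U) (hg : DifferentiableOn ℂ g U)
    (hRU : Ext R ⊆ U) (hlim : Tendsto (fun z => g z - z) (cocompact ℂ) (𝓝 0))
    {a : ℂ} (ha : a ∈ U) {ε : ℝ} (hε : 0 < ε) :
    ∃ r > 0, r < ε ∧ closedBall a r ⊆ U ∧ ∃ m > 0, ∀ z ∈ sphere a r, m ≤ ‖g z - g a‖ := by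
  have hga : AnalyticOnNhd ℂ g U := hg.analyticOnNhd hU
  have h1 : ∀ᶠ z in 𝓝[≠] a, g z ≠ g a := by
    refine ((hga a ha).eventually_eq_or_eventually_ne analyticAt_const).resolve_left ?_
    intro hev
    exact not_const_of_lim hRU hlim
      (fun z hz => hga.eqOn_of_preconnected_of_eventuallyEq analyticOnNhd_const hUc ha hev hz)
  rw [eventually_nhdsWithin_iff] at h1
  obtain ⟨r, hr, hrb⟩ := Metric.eventually_nhds_iff_ball.1 (h1.and (hU.mem_nhds ha))
  have hρ : 0 < min (r / 2) (ε / 2) := by positivity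
  refine ⟨min (r / 2) (ε / 2), hρ, ?_, ?_, ?_⟩
  · have := min_le_right (r / 2) (ε / 2); linarith
  · intro z hz
    refine (hrb z ?_).2
    rw [mem_closedBall] at hz
    rw [mem_ball]
    have := min_le_left (r / 2) (ε / 2)
    linarith
  · have hsub : sphere a (min (r / 2) (ε / 2)) ⊆ ball a r := by
      intro z hz
      rw [mem_sphere] at hz
      rw [mem_ball]
      have := min_le_left (r / 2) (ε / 2)
      linarith
    have hcont : ContinuousOn (fun z => ‖g z - g a‖) (sphere a (min (r / 2) (ε / 2))) := by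
      refine ((hg.continuousOn.mono ?_).sub continuousOn_const).norm
      intro z hz
      exact (hrb z (hsub hz)).2
    obtain ⟨z₀, hz₀, hmin⟩ := (isCompact_sphere a (min (r / 2) (ε / 2))).exists_isMinOn
      (NormedSpace.sphere_nonempty.2 hρ.le) hcont
    refine ⟨‖g z₀ - g a‖, ?_, fun z hz => hmin hz⟩
    rw [gt_iff_lt, norm_pos_iff, sub_ne_zero]
    refine (hrb z₀ (hsub hz₀)).1 ?_
    rintro rfl
    rw [mem_sphere, dist_self] at hz₀
    linarith

/-- **limit of the class** (varying domains) -/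
theorem sig_of_tlu [l.NeBot] (hU : IsOpen U) (hUc : IsPreconnected U) (hR : 0 < R)
    (hRU : Ext R ⊆ U) (hf : ∀ᶠ k in l, Sig (Uk k) (f k)) (hRk : ∀ᶠ k in l, Ext R ⊆ Uk k)
    (hex : ∀ K ⊆ U, IsCompact K → ∀ᶠ k in l, K ⊆ Uk k)
    (h : TendstoLocallyUniformlyOn f g l U) : Sig U g := by
  have hg : DifferentiableOn ℂ g U :=
    differentiableOn_of_tlu hU (hf.mono fun k hk => hk.diff) hex h
  have hpt : ∀ z ∈ U, Tendsto (fun k => f k z) l (𝓝 (g z)) := fun z hz => h.tendsto_at hz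
  have hdev : ∀ z, R < ‖z‖ → ‖g z - z‖ ≤ 7 * R ^ 2 / ‖z‖ := by
    intro z hz
    refine le_of_tendsto (((hpt z (hRU hz)).sub_const z).norm) ?_
    filter_upwards [hf, hRk] with k hk hk2
    exact hk.norm_sub_self_le hR hk2 hz
  have hlim : Tendsto (fun z => g z - z) (cocompact ℂ) (𝓝 0) := by
    rw [tendsto_zero_iff_norm_tendsto_zero]
    have h0 : Tendsto (fun z : ℂ => 7 * R ^ 2 / ‖z‖) (cocompact ℂ) (𝓝 0) := by
      rw [← Metric.cobounded_eq_cocompact]
      exact tendsto_norm_cobounded_atTop.const_div_atTop _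
    refine squeeze_zero' (Eventually.of_forall fun z => norm_nonneg _) ?_ h0
    filter_upwards [Ext_mem_cocompact R] with z hz
    exact hdev z hz
  refine ⟨hg, ?_, hlim⟩
  intro a ha b hb hab
  by_contra hne
  have hd : 0 < dist a b := dist_pos.2 hne
  obtain ⟨r, hr, hrε, hrU, m, hm, hmg⟩ :=
    exists_good_radius hU hUc hg hRU hlim ha (half_pos hd)
  obtain ⟨r', hr', hrε', hrU', m', hm', hmg'⟩ :=
    exists_good_radius hU hUc hg hRU hlim hb (half_pos hd)
  have key : ∀ (c : ℂ) (ρ μ : ℝ), 0 < ρ → closedBall c ρ ⊆ U → 0 < μ →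
      (∀ z ∈ sphere c ρ, μ ≤ ‖g z - g c‖) →
      ∀ᶠ k in l, ball (g c) (μ / 8) ⊆ f k '' closedBall c ρ := by
    intro c ρ μ hρ hρU hμ hμg
    refine eventually_ball_subset_image hρ hμ ?_ ?_ ?_ hμg
    · filter_upwards [hf, hex _ hρU (isCompact_closedBall c ρ)] with k hk hk2
      apply DifferentiableOn.diffContOnCl
      rw [closure_ball _ hρ.ne']
      exact hk.diff.mono hk2
    · filter_upwards [hf, hex _ hρU (isCompact_closedBall c ρ)] with k hk hk2
      exact hk.inj.mono (ball_subset_closedBall.trans hk2)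
    · exact (tendstoLocallyUniformlyOn_iff_forall_isCompact hU).1 h _ hρU
        (isCompact_closedBall c ρ)
  obtain ⟨k, hk1, hk2, hk3, hk4, hk5⟩ := ((key a r m hr hrU hm hmg).and
    ((key b r' m' hr' hrU' hm' hmg').and (hf.and ((hex _ hrU (isCompact_closedBall a r)).and
      (hex _ hrU' (isCompact_closedBall b r')))))).exists
  obtain ⟨x, hx, hxe⟩ := hk1 (mem_ball_self (by positivity))
  obtain ⟨y, hy, hye⟩ := hk2 (mem_ball_self (by positivity))
  have hxy : x = y := hk3.inj (hk4 hx) (hk5 hy) (by rw [hxe, hye, hab])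
  subst hxy
  rw [mem_closedBall] at hx hy
  have := dist_triangle_left a b x
  linarith

/-- **compactness**, ultrafilter form -/
theorem exists_limit_ultra (u : Ultrafilter ι) (hU : IsOpen U) (hUc : IsPreconnected U)
    (hR : 0 < R) (hRU : Ext R ⊆ U) (hf : ∀ᶠ k in (u : Filter ι), Sig (Uk k) (f k))
    (hRk : ∀ᶠ k in (u : Filter ι), Ext R ⊆ Uk k)
    (hex : ∀ K ⊆ U, IsCompact K → ∀ᶠ k in (u : Filter ι), K ⊆ Uk k) :
    ∃ g : ℂ → ℂ, Sig U g ∧ TendstoLocallyUniformlyOn f g u U := by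
  classical
  have hbd : ∀ z ∈ U, ∃ x : ℂ, Tendsto (fun k => f k z) u (𝓝 x) := by
    intro z hz
    have h1 : ∀ᶠ k in (u : Filter ι), f k z ∈ closedBall (0:ℂ) (2 * max R ‖z‖) := by
      filter_upwards [hf, hRk, hex {z} (singleton_subset_iff.2 hz) isCompact_singleton]
        with k hk hk2 hk3
      rw [mem_closedBall_zero_iff]
      exact hk.norm_le hR hk2 (le_max_left _ _) (hk3 (mem_singleton z)) (le_max_right _ _)
    obtain ⟨x, _, hx⟩ := (isCompact_closedBall (0:ℂ) (2 * max R ‖z‖)).ultrafilter_le_nhds'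
      (u.map (fun k => f k z)) h1
    exact ⟨x, hx⟩
  choose! g hg using hbd
  have htlu : TendstoLocallyUniformlyOn f g u U := by
    apply tlu_of_local
    intro a ha
    obtain ⟨r, hr, hrU⟩ := exists_closedBall_subset hU ha
    refine ⟨r, hr, ?_⟩
    have hrb := ball_subset_closedBall.trans hrU
    refine R264.tlu_of_pointwise (M := 2 * max R (‖a‖ + r)) isOpen_ball ?_ ?_
      fun z hz => hg z (hrb hz)
    · filter_upwards [hf, hex _ hrU (isCompact_closedBall a r)] with k hk hk2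
      exact hk.diff.mono (ball_subset_closedBall.trans hk2)
    · filter_upwards [hf, hRk, hex _ hrU (isCompact_closedBall a r)] with k hk hkR hk2
      intro z hz
      refine hk.norm_le hR hkR (le_max_left _ _) (hk2 (ball_subset_closedBall hz)) ?_
      refine le_trans ?_ (le_max_right _ _)
      rw [mem_ball, dist_eq_norm] at hz
      have e : z = a + (z - a) := by ring
      calc ‖z‖ = ‖a + (z - a)‖ := by rw [← e]
        _ ≤ ‖a‖ + ‖z - a‖ := norm_add_le _ _
        _ ≤ _ := by linarith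
  exact ⟨g, sig_of_tlu hU hUc hR hRU hf hRk hex htlu, htlu⟩

/-- **kernel convergence**: near every image point of the limit -/
theorem exists_ball_subset_image [l.NeBot] (hU : IsOpen U) (hUc : IsPreconnected U)
    (hR : 0 < R) (hRU : Ext R ⊆ U) (hf : ∀ᶠ k in l, Sig (Uk k) (f k))
    (hRk : ∀ᶠ k in l, Ext R ⊆ Uk k)
    (hex : ∀ K ⊆ U, IsCompact K → ∀ᶠ k in l, K ⊆ Uk k)
    (h : TendstoLocallyUniformlyOn f g l U) {a : ℂ} (ha : a ∈ U) {ε : ℝ} (hε : 0 < ε) :
    ∃ r > 0, r < ε ∧ closedBall a r ⊆ U ∧ ∃ δ > 0,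
      ∀ᶠ k in l, closedBall a r ⊆ Uk k ∧ ball (g a) δ ⊆ f k '' closedBall a r := by
  have hg := sig_of_tlu hU hUc hR hRU hf hRk hex h
  obtain ⟨r, hr, hrε, hrU, m, hm, hmg⟩ := exists_good_radius hU hUc hg.diff hRU hg.lim ha hε
  refine ⟨r, hr, hrε, hrU, m / 8, by positivity, ?_⟩
  refine (hex _ hrU (isCompact_closedBall a r)).and ?_
  refine eventually_ball_subset_image hr hm ?_ ?_ ?_ hmg
  · filter_upwards [hf, hex _ hrU (isCompact_closedBall a r)] with k hk hk2
    apply DifferentiableOn.diffContOnCl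
    rw [closure_ball _ hr.ne']
    exact hk.diff.mono hk2
  · filter_upwards [hf, hex _ hrU (isCompact_closedBall a r)] with k hk hk2
    exact hk.inj.mono (ball_subset_closedBall.trans hk2)
  · exact (tendstoLocallyUniformlyOn_iff_forall_isCompact hU).1 h _ hrU (isCompact_closedBall a r)

/-- compact subsets of the limit image are eventually covered, by the image of a fixed compact set -/
theorem exists_compact_cover [l.NeBot] (hU : IsOpen U) (hUc : IsPreconnected U)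
    (hR : 0 < R) (hRU : Ext R ⊆ U) (hf : ∀ᶠ k in l, Sig (Uk k) (f k))
    (hRk : ∀ᶠ k in l, Ext R ⊆ Uk k)
    (hex : ∀ K ⊆ U, IsCompact K → ∀ᶠ k in l, K ⊆ Uk k)
    (h : TendstoLocallyUniformlyOn f g l U) {K : Set ℂ} (hK : IsCompact K) (hKU : K ⊆ g '' U) :
    ∃ L : Set ℂ, IsCompact L ∧ L ⊆ U ∧ ∀ᶠ k in l, K ⊆ f k '' L := by
  have h1 : ∀ w ∈ K, ∃ s ∈ 𝓝[K] w, ∃ L : Set ℂ, IsCompact L ∧ L ⊆ U ∧
      ∀ᶠ k in l, s ⊆ f k '' L := by
    intro w hw
    obtain ⟨a, ha, rfl⟩ := hKU hw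
    obtain ⟨r, hr, _, hrU, δ, hδ, hev⟩ :=
      exists_ball_subset_image hU hUc hR hRU hf hRk hex h ha one_pos
    exact ⟨ball (g a) δ, mem_nhdsWithin_of_mem_nhds (ball_mem_nhds _ hδ), closedBall a r,
      isCompact_closedBall a r, hrU, hev.mono fun k hk => hk.2⟩
  refine hK.induction_on (p := fun s => ∃ L : Set ℂ, IsCompact L ∧ L ⊆ U ∧
      ∀ᶠ k in l, s ⊆ f k '' L) ?_ ?_ ?_ h1
  · exact ⟨∅, isCompact_empty, empty_subset _, by simp⟩
  · rintro s t hst ⟨L, hL, hLU, hev⟩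
    exact ⟨L, hL, hLU, hev.mono fun k hk => hst.trans hk⟩
  · rintro s t ⟨L, hL, hLU, hev⟩ ⟨L', hL', hLU', hev'⟩
    refine ⟨L ∪ L', hL.union hL', union_subset hLU hLU', ?_⟩
    filter_upwards [hev, hev'] with k hk hk'
    rw [image_union]
    exact union_subset_union hk hk'

theorem eventually_subset_image [l.NeBot] (hU : IsOpen U) (hUc : IsPreconnected U)
    (hR : 0 < R) (hRU : Ext R ⊆ U) (hf : ∀ᶠ k in l, Sig (Uk k) (f k))
    (hRk : ∀ᶠ k in l, Ext R ⊆ Uk k)
    (hex : ∀ K ⊆ U, IsCompact K → ∀ᶠ k in l, K ⊆ Uk k)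
    (h : TendstoLocallyUniformlyOn f g l U) {K : Set ℂ} (hK : IsCompact K) (hKU : K ⊆ g '' U) :
    ∀ᶠ k in l, K ⊆ f k '' Uk k := by
  obtain ⟨L, hL, hLU, hev⟩ := exists_compact_cover hU hUc hR hRU hf hRk hex h hK hKU
  filter_upwards [hev, hex L hLU hL] with k hk hk2
  exact hk.trans (image_mono hk2)

/-- limits of omitted values are omitted -/
theorem not_mem_image_of_tendsto [l.NeBot] (hU : IsOpen U) (hUc : IsPreconnected U)
    (hR : 0 < R) (hRU : Ext R ⊆ U) (hf : ∀ᶠ k in l, Sig (Uk k) (f k))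
    (hRk : ∀ᶠ k in l, Ext R ⊆ Uk k)
    (hex : ∀ K ⊆ U, IsCompact K → ∀ᶠ k in l, K ⊆ Uk k)
    (h : TendstoLocallyUniformlyOn f g l U) {w : ι → ℂ} {w₀ : ℂ}
    (hw : ∀ᶠ k in l, w k ∉ f k '' Uk k) (hlim : Tendsto w l (𝓝 w₀)) : w₀ ∉ g '' U := by
  rintro ⟨a, ha, rfl⟩
  obtain ⟨r, hr, _, hrU, δ, hδ, hev⟩ :=
    exists_ball_subset_image hU hUc hR hRU hf hRk hex h ha one_pos
  obtain ⟨k, h1, ⟨h2, h3⟩, h4⟩ :=
    (hw.and (hev.and (hlim.eventually (ball_mem_nhds (g a) hδ)))).exists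
  exact h1 (image_mono h2 (h3 h4))

/-- **inverse maps converge locally uniformly** -/
theorem inverse_tlu [l.NeBot] (hU : IsOpen U) (hUc : IsPreconnected U)
    (hR : 0 < R) (hRU : Ext R ⊆ U) (hf : ∀ᶠ k in l, Sig (Uk k) (f k))
    (hRk : ∀ᶠ k in l, Ext R ⊆ Uk k)
    (hex : ∀ K ⊆ U, IsCompact K → ∀ᶠ k in l, K ⊆ Uk k)
    (h : TendstoLocallyUniformlyOn f g l U) {p : ι → ℂ → ℂ} {q : ℂ → ℂ}
    (hp : ∀ᶠ k in l, ∀ z ∈ Uk k, p k (f k z) = z) (hq : ∀ z ∈ U, q (g z) = z) :
    TendstoLocallyUniformlyOn p q l (g '' U) := by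
  have hg := sig_of_tlu hU hUc hR hRU hf hRk hex h
  rw [Metric.tendstoLocallyUniformlyOn_iff]
  rintro ε hε _ ⟨a, ha, rfl⟩
  obtain ⟨r, hr, hrε, hrU, δ, hδ, hev⟩ :=
    exists_ball_subset_image hU hUc hR hRU hf hRk hex h ha (half_pos hε)
  have hqc : ContinuousAt q (g a) := Lib.continuousAt_inverse_of_injOn hU hg.diff hg.inj hq ha
  have hqn : ∀ᶠ w in 𝓝 (g a), dist (q w) a < ε / 2 := by
    have := hqc.tendsto
    rw [hq a ha] at this
    exact this.eventually (ball_mem_nhds a (half_pos hε))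
  obtain ⟨t, ht, htb⟩ := Metric.eventually_nhds_iff_ball.1 hqn
  refine ⟨ball (g a) (min δ t), mem_nhdsWithin_of_mem_nhds
    (ball_mem_nhds _ (lt_min hδ ht)), ?_⟩
  filter_upwards [hev, hp] with k hk hpk w hw
  obtain ⟨z, hz, rfl⟩ := hk.2 (ball_subset_ball (min_le_left _ _) hw)
  rw [hpk z (hk.1 hz)]
  have h1 := htb _ (ball_subset_ball (min_le_right _ _) hw)
  rw [mem_closedBall] at hz
  have h2 := dist_triangle_right (q (f k z)) z a
  linarith

end

/-! ### subsequences -/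

theorem exists_subseq_of_hyper {U : Set ℂ} (hU : IsOpen U) {f : ℕ → ℂ → ℂ} {g : ℂ → ℂ}
    (h : TendstoLocallyUniformlyOn f g (hyperfilter ℕ : Filter ℕ) U) :
    ∃ φ : ℕ → ℕ, StrictMono φ ∧ TendstoLocallyUniformlyOn (fun n => f (φ n)) g atTop U := by
  have : LocallyCompactSpace U := hU.locallyCompactSpace
  let K : CompactExhaustion U := CompactExhaustion.choice U
  have hK : ∀ n, IsCompact (Subtype.val '' (K n) : Set ℂ) := fun n =>
    (K.isCompact n).image continuous_subtype_val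
  have hKU : ∀ n, (Subtype.val '' (K n) : Set ℂ) ⊆ U := by
    rintro n _ ⟨x, _, rfl⟩; exact x.2
  have h1 : ∀ n : ℕ, ∃ᶠ k in (atTop : Filter ℕ),
      ∀ z ∈ (Subtype.val '' (K n) : Set ℂ), dist (g z) (f k z) < 1 / ((n : ℝ) + 1) := by
    intro n
    have h2 := (tendstoLocallyUniformlyOn_iff_forall_isCompact hU).1 h _ (hKU n) (hK n)
    rw [Metric.tendstoUniformlyOn_iff] at h2
    have h3 := h2 (1 / ((n : ℝ) + 1)) (by positivity)
    have h4 : (hyperfilter ℕ : Filter ℕ) ≤ atTop := by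
      rw [← Nat.cofinite_eq_atTop]; exact hyperfilter_le_cofinite
    exact h3.frequently.filter_mono h4
  obtain ⟨φ, hφ, hφ2⟩ := extraction_forall_of_frequently h1
  refine ⟨φ, hφ, ?_⟩
  rw [tendstoLocallyUniformlyOn_iff_forall_isCompact hU]
  intro C hC hCc
  rw [Metric.tendstoUniformlyOn_iff]
  intro ε hε
  have hC' : IsCompact ((Subtype.val : U → ℂ) ⁻¹' C) := by
    rw [Subtype.isCompact_iff, Subtype.image_preimage_coe, inter_eq_right.2 hC]
    exact hCc
  obtain ⟨N, hN⟩ := K.exists_superset_of_isCompact hC'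
  obtain ⟨M, hM⟩ := exists_nat_one_div_lt hε
  filter_upwards [eventually_ge_atTop (max N M)] with n hn z hz
  have hzK : z ∈ (Subtype.val '' (K n) : Set ℂ) :=
    ⟨⟨z, hC hz⟩, K.subset (le_of_max_le_left hn) (hN hz), rfl⟩
  refine (hφ2 n z hzK).trans_le (le_trans ?_ hM.le)
  have : (M : ℝ) ≤ n := by exact_mod_cast le_of_max_le_right hn
  exact one_div_le_one_div_of_le (by positivity) (by linarith)

/-- **sequential compactness** of the class (varying domains) -/
theorem exists_subseq {U : Set ℂ} {Uk : ℕ → Set ℂ} {f : ℕ → ℂ → ℂ} {R : ℝ}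
    (hU : IsOpen U) (hUc : IsPreconnected U) (hR : 0 < R) (hRU : Ext R ⊆ U)
    (hf : ∀ᶠ n in atTop, Sig (Uk n) (f n)) (hRk : ∀ᶠ n in atTop, Ext R ⊆ Uk n)
    (hex : ∀ K ⊆ U, IsCompact K → ∀ᶠ n in atTop, K ⊆ Uk n) :
    ∃ φ : ℕ → ℕ, ∃ g : ℂ → ℂ, StrictMono φ ∧ Sig U g ∧
      TendstoLocallyUniformlyOn (fun n => f (φ n)) g atTop U := by
  have h4 : (hyperfilter ℕ : Filter ℕ) ≤ atTop := by
    rw [← Nat.cofinite_eq_atTop]; exact hyperfilter_le_cofinite
  obtain ⟨g, hg, hlim⟩ := exists_limit_ultra (hyperfilter ℕ) hU hUc hR hRU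
    (hf.filter_mono h4) (hRk.filter_mono h4) (fun K hK hKc => (hex K hK hKc).filter_mono h4)
  obtain ⟨φ, hφ, hφ2⟩ := exists_subseq_of_hyper hU hlim
  exact ⟨φ, g, hφ, hg, hφ2⟩

end Crest.Agent.R105.Uni231
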