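import Crest.Agent.R105.FKd_644
import Crest.Agent.R105.Uni3_231
import Crest.Agent.R105.Ends3_897
import Crest.Agent.R105.Thin1_12

/-!
# Row 105, finite Koebe (helper644), part 1: planar topology of finite families

* `preconn_union`   : the complement of the union of two disjoint compact sets with preconnected
                      complements is preconnected (Janiszewski)
* `preconn_iUnion`  : finite families
* `preconn_comps`   : finite unions of components of the complement of an exterior domain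
* `preconn_convex`  : complements of compact convex sets
* `fam_discs`, `fam_slits`
-/

set_option autoImplicit false

open Set Filter Topology Metric Complex

namespace Crest.Agent.R105.FK_644

open Crest.AnalysisR Crest.Agent.R193.Planar

/-- Janiszewski for two disjoint compact sets. -/
theorem preconn_union {K1 K2 : Set ℂ} (h1 : IsCompact K1) (h2 : IsCompact K2)
    (hd : Disjoint K1 K2) (hc1 : IsPreconnected K1ᶜ) (hc2 : IsPreconnected K2ᶜ) :
    IsPreconnected (K1 ∪ K2)ᶜ := by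
  classical
  have hSo : IsOpen (K1 ∪ K2)ᶜ := (h1.union h2).isClosed.isOpen_compl
  intro u v hu hv huv ⟨x, hxS, hxu⟩ ⟨y, hyS, hyv⟩
  by_contra hcon
  rw [not_nonempty_iff_eq_empty] at hcon
  set c : ℂ → ℝ := fun z => if z ∈ (K1 ∪ K2)ᶜ ∩ u then 1 else 0 with hcdef
  have hc : LCOff (K1 ∪ K2) c := by
    intro z hz
    by_cases hzu : z ∈ u
    · filter_upwards [(hSo.inter hu).mem_nhds ⟨hz, hzu⟩] with w hw
      simp only [hcdef]
      rw [if_pos hw, if_pos ⟨hz, hzu⟩]
    · have hzv : z ∈ v := (huv hz).resolve_left hzu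
      filter_upwards [(hSo.inter hv).mem_nhds ⟨hz, hzv⟩] with w hw
      have hwu : w ∉ (K1 ∪ K2)ᶜ ∩ u := by
        intro hw'
        have : w ∈ (K1 ∪ K2)ᶜ ∩ (u ∩ v) := ⟨hw.1, hw'.2, hw.2⟩
        rw [hcon] at this
        exact this
      simp only [hcdef]
      rw [if_neg hwu, if_neg fun h => hzu h.2]
  obtain ⟨c1, c2, hl1, hl2, hs⟩ := Ends_897.split_C h1 h2.isClosed hd hc
  have hx1 : x ∉ K1 := fun h => hxS (Or.inl h)
  have hx2 : x ∉ K2 := fun h => hxS (Or.inr h)
  have hy1 : y ∉ K1 := fun h => hyS (Or.inl h)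
  have hy2 : y ∉ K2 := fun h => hyS (Or.inr h)
  have e1 : c1 x = c1 y := hl1.eq_of_preconnected hc1 disjoint_compl_left hx1 hy1
  have e2 : c2 x = c2 y := hl2.eq_of_preconnected hc2 disjoint_compl_left hx2 hy2
  have hcx : c x = 1 := if_pos ⟨hxS, hxu⟩
  have hcy : c y = 0 := by
    refine if_neg fun h => ?_
    have : y ∈ (K1 ∪ K2)ᶜ ∩ (u ∩ v) := ⟨hyS, h.2, hyv⟩
    rw [hcon] at this
    exact this
  have := hs x hxS
  have := hs y hyS
  rw [hcx] at *
  linarith

/-- finite unions -/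
theorem preconn_biUnion {ι : Type*} (s : Finset ι) {K : ι → Set ℂ} (hK : ∀ i ∈ s, IsCompact (K i))
    (hd : ∀ i ∈ s, ∀ j ∈ s, i ≠ j → Disjoint (K i) (K j))
    (hc : ∀ i ∈ s, IsPreconnected (K i)ᶜ) : IsPreconnected (⋃ i ∈ s, K i)ᶜ := by
  classical
  induction s using Finset.induction_on with
  | empty => simpa using isPreconnected_univ
  | insert a t ha ih =>
    rw [Finset.set_biUnion_insert]
    refine preconn_union (hK a (Finset.mem_insert_self _ _))
      (t.isCompact_biUnion fun i hi => hK i (Finset.mem_insert_of_mem hi)) ?_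
      (hc a (Finset.mem_insert_self _ _)) (ih (fun i hi => hK i (Finset.mem_insert_of_mem hi))
        (fun i hi j hj => hd i (Finset.mem_insert_of_mem hi) j (Finset.mem_insert_of_mem hj))
        fun i hi => hc i (Finset.mem_insert_of_mem hi))
    rw [disjoint_iUnion₂_right]
    intro i hi
    exact hd a (Finset.mem_insert_self _ _) i (Finset.mem_insert_of_mem hi)
      (by rintro rfl; exact ha hi)

theorem preconn_iUnion {ι : Type*} [Finite ι] {K : ι → Set ℂ} (hK : ∀ i, IsCompact (K i))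
    (hd : ∀ i j, i ≠ j → Disjoint (K i) (K j))
    (hc : ∀ i, IsPreconnected (K i)ᶜ) : IsPreconnected (dom K) := by
  classical
  have := Fintype.ofFinite ι
  have := preconn_biUnion (Finset.univ : Finset ι) (K := K) (fun i _ => hK i)
    (fun i _ j _ => hd i j) (fun i _ => hc i)
  simpa [dom] using this

/-- complements of compact convex sets of the plane are preconnected. -/
theorem preconn_convex {D : Set ℂ} (hD : IsCompact D) (hc : Convex ℝ D) : IsPreconnected Dᶜ := by
  obtain ⟨C, hC⟩ := hD.isBounded.exists_norm_le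
  set M := max C 0 with hM
  have hfar : {w : ℂ | M < ‖w‖} ⊆ Dᶜ := by
    intro w hw hwD
    have h1 := hC w hwD
    have h2 : M < ‖w‖ := hw
    have h3 := le_max_left C 0
    linarith
  have hp := Ends_897.isPreconnected_norm_gt (le_max_right C 0 : (0:ℝ) ≤ M)
  have hM0 : 0 ≤ M := le_max_right C 0
  set w0 : ℂ := ((M + 1 : ℝ) : ℂ) with hw0
  have hw0m : w0 ∈ {w : ℂ | M < ‖w‖} := by
    rw [mem_setOf_eq, hw0, Complex.norm_real, Real.norm_eq_abs, abs_of_nonneg (by linarith)]
    linarith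
  rcases D.eq_empty_or_nonempty with rfl | ⟨a, ha⟩
  · rw [compl_empty]; exact isPreconnected_univ
  refine isPreconnected_of_forall w0 fun y hy => ?_
  -- the ray from `y`
  obtain ⟨l, u, hlu, hul⟩ := geometric_hahn_banach_closed_point hc hD.isClosed hy
  set v : ℂ := y - a with hv
  have hlv : 0 < l v := by
    rw [hv, map_sub]
    linarith [hlu a ha]
  have hv0 : 0 < ‖v‖ := by
    rw [norm_pos_iff]
    rintro h0
    rw [h0, map_zero] at hlv
    exact lt_irrefl _ hlv
  set ray : Set ℂ := (fun t : ℝ => y + (t : ℂ) * v) '' Ici 0 with hray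
  have hrp : IsPreconnected ray :=
    isPreconnected_Ici.image _ (by fun_prop)
  have hrD : ray ⊆ Dᶜ := by
    rintro _ ⟨t, ht, rfl⟩ hmem
    have h1 := hlu _ hmem
    have h2 : l (y + (t : ℂ) * v) = l y + t * l v := by
      rw [map_add, ← Complex.real_smul, map_smul, smul_eq_mul]
    have h3 : 0 ≤ t * l v := mul_nonneg ht hlv.le
    linarith
  set T : ℝ := (M + 1 + ‖y‖) / ‖v‖ with hT
  have hT0 : 0 ≤ T := by positivity
  have hTm : y + (T : ℂ) * v ∈ {w : ℂ | M < ‖w‖} := by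
    rw [mem_setOf_eq]
    have h1 : ‖(T : ℂ) * v‖ = M + 1 + ‖y‖ := by
      rw [norm_mul, Complex.norm_real, Real.norm_eq_abs, abs_of_nonneg hT0, hT,
        div_mul_cancel₀ _ hv0.ne']
    have h2 : ‖(T : ℂ) * v‖ ≤ ‖y + (T : ℂ) * v‖ + ‖y‖ := by
      have : (T : ℂ) * v = (y + (T : ℂ) * v) - y := by ring
      calc ‖(T : ℂ) * v‖ = ‖(y + (T : ℂ) * v) - y‖ := by rw [← this]
        _ ≤ _ := norm_sub_le _ _
    linarith
  refine ⟨ray ∪ {w : ℂ | M < ‖w‖}, union_subset hrD hfar, Or.inr hw0m,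
    Or.inl ⟨0, mem_Ici.2 le_rfl, by simp⟩, ?_⟩
  exact hrp.union _ ⟨T, hT0, rfl⟩ hTm hp

/-- finite unions of components of the complement of an exterior domain -/
theorem preconn_comps {V : Set ℂ} (hV : IsExteriorDomain V) {ι : Type*} [Finite ι] {z : ι → ℂ}
    (hinj : ∀ i j, i ≠ j → connectedComponentIn Vᶜ (z i) ≠ connectedComponentIn Vᶜ (z j)) :
    IsPreconnected (dom fun i => connectedComponentIn Vᶜ (z i)) := by
  refine preconn_iUnion (fun i => Ends_897.isCompact_cc (Ends_897.isCompact_compl hV) _) ?_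
    fun i => Thin_12.isPreconnected_compl_cc hV.2.1.isPreconnected _
  intro i j hij
  rw [disjoint_left]
  intro w hw hw'
  exact hinj i j hij ((connectedComponentIn_eq hw).trans (connectedComponentIn_eq hw').symm)

theorem isCompact_discs {ι : Type*} (x : ι → ℂ × ℝ) (i : ι) : IsCompact (discs x i) :=
  isCompact_closedBall _ _

theorem slits_eq_image {ι : Type*} (y : ι → ℂ × ℝ) (i : ι) :
    slits y i = (fun t : ℝ => (y i).1 + (t : ℂ) * ((y i).2 : ℂ)) '' Icc 0 1 := by
  rw [slits, segment_eq_image']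
  congr 1
  ext t
  rw [add_sub_cancel_left, Complex.real_smul]

theorem isCompact_slits {ι : Type*} (y : ι → ℂ × ℝ) (i : ι) : IsCompact (slits y i) := by
  rw [slits_eq_image]
  exact isCompact_Icc.image (by fun_prop)

theorem fam_discs {n : ℕ} {x : Fin n → ℂ × ℝ} (hx : x ∈ X n) : Fam (discs x) where
  cpt i := isCompact_discs x i
  conn i := ⟨⟨(x i).1, mem_closedBall_self (hx.1 i).le⟩, (convex_closedBall _ _).isPreconnected⟩
  nt i := by
    refine ⟨(x i).1, mem_closedBall_self (hx.1 i).le, (x i).1 + ((x i).2 : ℂ), ?_, ?_⟩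
    · rw [discs, mem_closedBall, dist_eq_norm, add_sub_cancel_left, Complex.norm_real,
        Real.norm_eq_abs, abs_of_pos (hx.1 i)]
    · intro h
      have : ((x i).2 : ℂ) = 0 := by
        have := h.symm
        rwa [add_eq_left] at this
      have h2 := hx.1 i
      rw [Complex.ofReal_eq_zero] at this
      rw [this] at h2
      exact lt_irrefl _ h2
  disj := hx.2
  compl := preconn_iUnion (isCompact_discs x) hx.2
    fun i => preconn_convex (isCompact_discs x i) (convex_closedBall _ _)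

theorem fam_slits {n : ℕ} {y : Fin n → ℂ × ℝ} (hy : y ∈ Y n) : Fam (slits y) where
  cpt i := isCompact_slits y i
  conn i := ⟨⟨(y i).1, left_mem_segment ℝ _ _⟩, (convex_segment _ _).isPreconnected⟩
  nt i := by
    refine ⟨(y i).1, left_mem_segment ℝ _ _, (y i).1 + ((y i).2 : ℂ), right_mem_segment ℝ _ _, ?_⟩
    intro h
    have : ((y i).2 : ℂ) = 0 := by
      have := h.symm
      rwa [add_eq_left] at this
    have h2 := hy.1 i
    rw [Complex.ofReal_eq_zero] at this
    rw [this] at h2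
    exact lt_irrefl _ h2
  disj := hy.2
  compl := preconn_iUnion (isCompact_slits y) hy.2
    fun i => preconn_convex (isCompact_slits y i) (convex_segment _ _)

/-! ### domains of finite families -/

section

variable {ι : Type*} [Finite ι] {K K' : ι → Set ℂ} {f g : ℂ → ℂ}

theorem compl_dom {ι : Type*} (K : ι → Set ℂ) : (dom K)ᶜ = ⋃ i, K i := compl_compl _

theorem Fam.isCompact_union (h : Fam K) : IsCompact (⋃ i, K i) := isCompact_iUnion h.cpt

theorem Fam.exterior (h : Fam K) : IsExteriorDomain (dom K) := by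
  obtain ⟨C, hC⟩ := h.isCompact_union.isBounded.exists_norm_le
  have hmem : ∀ z : ℂ, C < ‖z‖ → z ∈ dom K := by
    intro z hz hzK
    exact absurd (hC z hzK) (not_le.2 hz)
  refine ⟨h.isCompact_union.isClosed.isOpen_compl, ⟨⟨((|C| + 1 : ℝ) : ℂ), hmem _ ?_⟩, h.compl⟩,
    C, hmem⟩
  rw [Complex.norm_real, Real.norm_eq_abs, abs_of_nonneg (by positivity)]
  linarith [le_abs_self C]

/-- the components of the complement -/
theorem Fam.cc_eq (h : Fam K) {i : ι} {z : ℂ} (hz : z ∈ K i) :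
    connectedComponentIn (dom K)ᶜ z = K i := by
  classical
  rw [compl_dom]
  have hzU : z ∈ ⋃ i, K i := mem_iUnion.2 ⟨i, hz⟩
  refine Subset.antisymm ?_
    ((h.conn i).isPreconnected.subset_connectedComponentIn hz (subset_iUnion K i))
  have h1 : IsClosed (K i) := (h.cpt i).isClosed
  have h2 : IsClosed (⋃ j ∈ {j | j ≠ i}, K j) :=
    (toFinite {j | j ≠ i}).isClosed_biUnion fun j _ => (h.cpt j).isClosed
  have h3 : connectedComponentIn (⋃ i, K i) z ⊆ K i ∪ ⋃ j ∈ {j | j ≠ i}, K j := by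
    intro w hw
    obtain ⟨j, hj⟩ := mem_iUnion.1 (connectedComponentIn_subset _ _ hw)
    by_cases hji : j = i
    · subst hji; exact Or.inl hj
    · exact Or.inr (mem_biUnion hji hj)
  have h4 := isPreconnected_closed_iff.1 (isPreconnected_connectedComponentIn
    (F := ⋃ i, K i) (x := z)) _ _ h1 h2 h3 ⟨z, mem_connectedComponentIn hzU, hz⟩
  intro w hw
  by_contra hwi
  have hw2 := (h3 hw).resolve_left hwi
  obtain ⟨y, hy1, hy2, hy3⟩ := h4 ⟨w, hw, hw2⟩
  obtain ⟨j, hj, hyj⟩ := mem_iUnion₂.1 hy3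
  exact disjoint_left.1 (h.disj j i hj) hyj hy2

theorem Fam.eF_eq (h : Fam K) {i : ι} {z : ℂ} (hz : z ∈ K i) :
    Ends_897.eF (dom K) z = 𝓝ˢ (K i) ⊓ 𝓟 (dom K) := by
  rw [Ends_897.eF, h.cc_eq hz]

theorem not_mem_dom {ι : Type*} {K : ι → Set ℂ} {z : ℂ} (hz : z ∉ dom K) : ∃ i, z ∈ K i := by
  have : z ∈ (dom K)ᶜ := hz
  rw [compl_dom] at this
  exact mem_iUnion.1 this

theorem not_mem_dom' {ι : Type*} {K : ι → Set ℂ} {i : ι} {z : ℂ} (hz : z ∈ K i) : z ∉ dom K :=
  fun h => h (mem_iUnion.2 ⟨i, hz⟩)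

theorem Sig.toU {U : Set ℂ} (h : Sig U f) : Uni231.Sig U f := ⟨h.hol, h.inj, h.inf⟩

theorem Sig.ofU {U : Set ℂ} (h : Uni231.Sig U f) : Sig U f := ⟨h.diff, h.inj, h.lim⟩

theorem Sig.endMap {U : Set ℂ} (h : Sig U f) (hU : IsExteriorDomain U) :
    Ends_897.EndMap U (f '' U) f :=
  Ends_897.EndMap.of_holo hU h.hol h.inj h.toU.tendsto_cocompact

theorem LMap.endMap (h : LMap K K' f) (hK : Fam K) : Ends_897.EndMap (dom K) (dom K') f := by
  have := h.sig.endMap hK.exterior
  rwa [h.img] at this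

theorem Fam.neBot (h : Fam K) (i : ι) : (𝓝ˢ (K i) ⊓ 𝓟 (dom K)).NeBot := by
  obtain ⟨z, hz⟩ := (h.conn i).nonempty
  rw [← h.eF_eq hz]
  exact Ends_897.eF_neBot h.exterior (not_mem_dom' hz)

/-- the label filters are equal -/
theorem LMap.lab_eq (h : LMap K K' f) (hK : Fam K) (hK' : Fam K') (i : ι) :
    map f (𝓝ˢ (K i) ⊓ 𝓟 (dom K)) = 𝓝ˢ (K' i) ⊓ 𝓟 (dom K') := by
  obtain ⟨z, hz⟩ := (hK.conn i).nonempty
  obtain ⟨ζ, hζ, he⟩ := (h.endMap hK).exists_end (not_mem_dom' hz)
  obtain ⟨j, hj⟩ := not_mem_dom hζ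
  rw [hK.eF_eq hz, hK'.eF_eq hj] at he
  have hl := h.lab i
  rw [Tendsto, he] at hl
  by_cases hji : j = i
  · rw [he, hji]
  · exfalso
    have h1 : Disjoint (𝓝ˢ (K' j)) (𝓝ˢ (K' i)) :=
      separatedNhds_iff_disjoint.1
        (SeparatedNhds.of_isCompact_isCompact (hK'.cpt j) (hK'.cpt i) (hK'.disj j i hji))
    have h2 := hK'.neBot j
    exact h2.ne (eq_bot_iff.2 ((le_inf (inf_le_left : 𝓝ˢ (K' j) ⊓ 𝓟 (dom K') ≤ _) hl).trans
      h1.eq_bot.le))

theorem LMap.symm (h : LMap K K' f) (hK : Fam K) (hK' : Fam K') :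
    ∃ g, LMap K' K g ∧ (∀ z ∈ dom K, g (f z) = z) ∧ ∀ w ∈ dom K', f (g w) = w := by
  obtain ⟨R, hR, hRU⟩ := Uni231.exists_Ext_subset hK.exterior
  obtain ⟨g, hg, hgim, hgf, hfg⟩ := h.sig.toU.exists_inverse hK.exterior.1 hR hRU
  rw [h.img] at hg hgim hfg
  refine ⟨g, ⟨Sig.ofU hg, hgim, fun i => ?_⟩, hgf, hfg⟩
  rw [← h.lab_eq hK hK' i, tendsto_map'_iff]
  have h1 : (g ∘ f) =ᶠ[𝓝ˢ (K i) ⊓ 𝓟 (dom K)] id := by
    filter_upwards [mem_inf_of_right (mem_principal_self (dom K))] with z hz using hgf z hz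
  exact (tendsto_congr' h1).2 (tendsto_id.mono_left inf_le_left)

theorem LMap.mapsTo (h : LMap K K' f) : MapsTo f (dom K) (dom K') := by
  intro z hz
  rw [← h.img]
  exact mem_image_of_mem f hz

theorem LMap.trans {K'' : ι → Set ℂ} (h : LMap K K' f) (h' : LMap K' K'' g) :
    LMap K K'' (g ∘ f) := by
  refine ⟨Sig.ofU (h.sig.toU.comp h'.sig.toU h.mapsTo), ?_, fun i => ?_⟩
  · rw [image_comp, h.img, h'.img]
  · have h1 : Tendsto f (𝓝ˢ (K i) ⊓ 𝓟 (dom K)) (𝓝ˢ (K' i) ⊓ 𝓟 (dom K')) :=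
      tendsto_inf.2 ⟨h.lab i, tendsto_principal.2
        (mem_of_superset (mem_inf_of_right (mem_principal_self (dom K))) h.mapsTo)⟩
    exact (h'.lab i).comp h1

end

end Crest.Agent.R105.FK_644
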