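import Mathlib
import Crest.Agent.R105.FK1_644

/-!
# R105 / COFAT (node D2), part 1 (helper515)

`K : ι → Set ℂ` a finite family of continua, `f` a labelled conformal map of `dom K` onto the
complement of the discs `closedBall (x i).1 (x i).2`.

* `hat T = f '' (T ∩ dom K) ∪ ⋃ {discs x i | K i meets T}`;
* `hat_compact`, `hat_preconn` : `hat T` is compact / connected if `T` is;
* `hat_closedBall_subset` : maximum principle: if `hat (sphere p t) ⊆ closedBall c R` then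
  `hat (closedBall p t) ⊆ closedBall c R`;
* `dist_le_of_mem`, `exists_center` : small one-dimensional image measure of
  `hat (sphere p t)` (without the disc of `p`) ⟹ `f` maps `ball p t` near the disc of `p`.
-/

set_option autoImplicit false

open Set Filter Topology Metric MeasureTheory

namespace Crest.Agent.R105.Cof_515

open FK_644

section

variable {ι : Type*} {K : ι → Set ℂ} {x : ι → ℂ × ℝ} {f : ℂ → ℂ}

/-- image of `T` under `f`, a component `K i` which meets `T` being replaced by its disc. -/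
def hat (K : ι → Set ℂ) (x : ι → ℂ × ℝ) (f : ℂ → ℂ) (T : Set ℂ) : Set ℂ :=
  f '' (T ∩ dom K) ∪ ⋃ i ∈ {i : ι | (K i ∩ T).Nonempty}, discs x i

theorem mem_hat_of_dom {T : Set ℂ} {z : ℂ} (hz : z ∈ T) (hd : z ∈ dom K) :
    f z ∈ hat K x f T := Or.inl ⟨z, ⟨hz, hd⟩, rfl⟩

theorem disc_subset_hat {T : Set ℂ} {i : ι} (h : (K i ∩ T).Nonempty) :
    discs x i ⊆ hat K x f T := fun _ hy => Or.inr (mem_biUnion (show i ∈ {i | _} from h) hy)

theorem mem_hat_iff {T : Set ℂ} {y : ℂ} : y ∈ hat K x f T ↔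
    (∃ z ∈ T, z ∈ dom K ∧ f z = y) ∨ ∃ i, (K i ∩ T).Nonempty ∧ y ∈ discs x i := by
  constructor
  · rintro (⟨z, ⟨hz, hd⟩, rfl⟩ | hy)
    · exact Or.inl ⟨z, hz, hd, rfl⟩
    · obtain ⟨i, hi, hy⟩ := mem_iUnion₂.1 hy
      exact Or.inr ⟨i, hi, hy⟩
  · rintro (⟨z, hz, hd, rfl⟩ | ⟨i, hi, hy⟩)
    · exact mem_hat_of_dom hz hd
    · exact disc_subset_hat hi hy

/-- an ultrafilter which converges to a compact set converges to a point of it -/
theorem exists_le_nhds {D : Set ℂ} (hD : IsCompact D) {u : Ultrafilter ℂ}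
    (h : (u : Filter ℂ) ≤ 𝓝ˢ D) : ∃ y ∈ D, (u : Filter ℂ) ≤ 𝓝 y := by
  by_contra hcon
  have hcon' : ∀ y ∈ D, ¬ ((u : Filter ℂ) ≤ 𝓝 y) := fun y hy h' => hcon ⟨y, hy, h'⟩
  have h1 : ∀ y ∈ D, ∃ s ∈ 𝓝 y, s ∉ (u : Filter ℂ) := by
    intro y hy
    have := hcon' y hy
    rw [Filter.not_le] at this
    exact this
  choose! s hs hsu using h1
  obtain ⟨F, hF, hcov⟩ := hD.elim_nhds_subcover (fun y => interior (s y))
    (fun y hy => interior_mem_nhds.2 (hs y hy))
  have h2 : (⋃ y ∈ (F : Set ℂ), interior (s y)) ∈ (u : Filter ℂ) := by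
    refine h ((isOpen_biUnion fun y _ => isOpen_interior).mem_nhdsSet.2 ?_)
    simpa using hcov
  have h3 : (⋃ y ∈ (F : Set ℂ), interior (s y)) ∈ u := h2
  rw [Ultrafilter.finite_biUnion_mem_iff F.finite_toSet] at h3
  obtain ⟨y, hy, hyu⟩ := h3
  exact hsu y (hF y hy) (mem_of_superset hyu interior_subset)

variable [Finite ι]

theorem hat_compact (hK : Fam K) (hm : LMap K (discs x) f) {T : Set ℂ} (hT : IsCompact T) :
    IsCompact (hat K x f T) := by
  rw [isCompact_iff_ultrafilter_le_nhds]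
  intro u hu
  rw [le_principal_iff] at hu
  have hu' : hat K x f T ∈ u := hu
  rw [hat, Ultrafilter.union_mem_iff, Ultrafilter.finite_biUnion_mem_iff (toFinite _)] at hu'
  rcases hu' with hu' | ⟨i, hi, hiu⟩
  · -- values at points of the domain
    set v := Ultrafilter.ofComapInfPrincipal hu' with hv
    have hvm : T ∩ dom K ∈ v := Ultrafilter.ofComapInfPrincipal_mem hu'
    have hvu : v.map f = u := Ultrafilter.ofComapInfPrincipal_eq_of_map hu'
    have hvu' : map f (v : Filter ℂ) = (u : Filter ℂ) := by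
      rw [← hvu]; rfl
    obtain ⟨z, hz, hvz⟩ := isCompact_iff_ultrafilter_le_nhds.1 hT v
      (le_principal_iff.2 (mem_of_superset hvm inter_subset_left))
    by_cases hzd : z ∈ dom K
    · refine ⟨f z, mem_hat_of_dom hz hzd, ?_⟩
      rw [← hvu']
      have hopen : IsOpen (dom K) := hK.exterior.1
      have hc : ContinuousAt f z := (hm.sig.hol.continuousOn.continuousAt (hopen.mem_nhds hzd))
      exact (map_mono hvz).trans hc
    · obtain ⟨i, hzi⟩ := not_mem_dom hzd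
      have h1 : (v : Filter ℂ) ≤ 𝓝ˢ (K i) ⊓ 𝓟 (dom K) :=
        le_inf (hvz.trans (nhds_le_nhdsSet hzi))
          (le_principal_iff.2 (mem_of_superset hvm inter_subset_right))
      have h2 : (u : Filter ℂ) ≤ 𝓝ˢ (discs x i) := by
        rw [← hvu']
        exact (map_mono h1).trans (hm.lab i)
      obtain ⟨y, hy, hyu⟩ := exists_le_nhds (isCompact_discs x i) h2
      exact ⟨y, disc_subset_hat ⟨z, hzi, hz⟩ hy, hyu⟩
  · obtain ⟨y, hy, hyu⟩ := isCompact_iff_ultrafilter_le_nhds.1 (isCompact_discs x i) u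
      (le_principal_iff.2 hiu)
    exact ⟨y, disc_subset_hat hi hy, hyu⟩

/-- the part of `T` which is mapped into `A` -/
def pre (K : ι → Set ℂ) (x : ι → ℂ × ℝ) (f : ℂ → ℂ) (T A : Set ℂ) : Set ℂ :=
  {z | z ∈ T ∧ ((z ∈ dom K ∧ f z ∈ A) ∨ ∃ i, z ∈ K i ∧ discs x i ⊆ A)}

theorem isClosed_pre (hK : Fam K) (hm : LMap K (discs x) f) {T A B : Set ℂ}
    (hT : IsClosed T) (hA : IsClosed A)
    (hAB : ∀ i, (K i ∩ T).Nonempty → discs x i ⊆ A ∨ Disjoint (discs x i) A) :
    IsClosed (pre K x f T A) := by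
  rw [← isOpen_compl_iff, isOpen_iff_mem_nhds]
  intro z hz
  by_cases hzT : z ∈ T
  swap
  · filter_upwards [hT.isOpen_compl.mem_nhds hzT] with w hw hwp using hw hwp.1
  by_cases hzd : z ∈ dom K
  · have hopen : IsOpen (dom K) := hK.exterior.1
    have hfz : f z ∉ A := fun h => hz ⟨hzT, Or.inl ⟨hzd, h⟩⟩
    have hc : ContinuousAt f z := (hm.sig.hol.continuousOn.continuousAt (hopen.mem_nhds hzd))
    filter_upwards [hopen.mem_nhds hzd, hc.preimage_mem_nhds (hA.isOpen_compl.mem_nhds hfz)]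
      with w hw hw' hwp
    rcases hwp.2 with h | ⟨i, hi, -⟩
    · exact hw' h.2
    · exact not_mem_dom' hi hw
  · obtain ⟨i, hzi⟩ := not_mem_dom hzd
    have hni : ¬ discs x i ⊆ A := fun h => hz ⟨hzT, Or.inr ⟨i, hzi, h⟩⟩
    have hdis := (hAB i ⟨z, hzi, hzT⟩).resolve_left hni
    have h1 : Aᶜ ∈ 𝓝ˢ (discs x i) := hA.isOpen_compl.mem_nhdsSet.2
      (fun y hy hyA => disjoint_left.1 hdis hy hyA)
    have h2 : f ⁻¹' Aᶜ ∈ 𝓝ˢ (K i) ⊓ 𝓟 (dom K) := hm.lab i h1
    rw [mem_inf_principal] at h2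
    have h3 := nhds_le_nhdsSet hzi h2
    have h4 : ∀ᶠ w in 𝓝 z, ∀ j, j ≠ i → w ∉ K j := by
      rw [eventually_all]
      intro j
      by_cases hji : j = i
      · exact Eventually.of_forall fun w h => absurd hji h
      · filter_upwards [(hK.cpt j).isClosed.isOpen_compl.mem_nhds
          (fun h => disjoint_left.1 (hK.disj j i hji) h hzi)] with w hw _ using hw
    filter_upwards [h3, h4] with w hw hw4 hwp
    rcases hwp.2 with ⟨hd, hfA⟩ | ⟨j, hj, hjA⟩
    · exact hw hd hfA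
    · by_cases hji : j = i
      · subst hji; exact hni hjA
      · exact hw4 j hji hj

theorem hat_preconn (hK : Fam K) (hm : LMap K (discs x) f) (hx : ∀ i, 0 ≤ (x i).2)
    {T : Set ℂ} (hT : IsCompact T)
    (hTc : IsPreconnected T) : IsPreconnected (hat K x f T) := by
  rw [isPreconnected_closed_iff]
  intro A B hA hB hAB hneA hneB
  by_contra hcon
  rw [not_nonempty_iff_eq_empty] at hcon
  have hemp : ∀ y, y ∈ hat K x f T → y ∈ A → y ∈ B → False := by
    intro y h1 h2 h3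
    have : y ∈ hat K x f T ∩ (A ∩ B) := ⟨h1, h2, h3⟩
    rw [hcon] at this
    exact this
  -- every disc is in `A` or in `B`
  have hdisc : ∀ i, (K i ∩ T).Nonempty → discs x i ⊆ A ∨ discs x i ⊆ B := by
    intro i hi
    have hpc : IsPreconnected (discs x i) := (convex_closedBall _ _).isPreconnected
    by_contra hno
    rw [not_or] at hno
    obtain ⟨h1, h2⟩ := hno
    rw [not_subset] at h1 h2
    obtain ⟨a, ha, haA⟩ := h1
    obtain ⟨b, hb, hbB⟩ := h2
    have haB : a ∈ B := (hAB (disc_subset_hat hi ha)).resolve_left haA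
    have hbA : b ∈ A := (hAB (disc_subset_hat hi hb)).resolve_right hbB
    obtain ⟨y, hy, hyA, hyB⟩ := isPreconnected_closed_iff.1 hpc A B hA hB
      ((disc_subset_hat hi).trans hAB) ⟨b, hb, hbA⟩ ⟨a, ha, haB⟩
    exact hemp y (disc_subset_hat hi hy) hyA hyB
  have hcen : ∀ i, (x i).1 ∈ discs x i := fun i => mem_closedBall_self (hx i)
  have hdA : ∀ i, (K i ∩ T).Nonempty → discs x i ⊆ A ∨ Disjoint (discs x i) A := by
    intro i hi
    rcases hdisc i hi with h | h
    · exact Or.inl h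
    · exact Or.inr (disjoint_left.2 fun y hy hyA => hemp y (disc_subset_hat hi hy) hyA (h hy))
  have hdB : ∀ i, (K i ∩ T).Nonempty → discs x i ⊆ B ∨ Disjoint (discs x i) B := by
    intro i hi
    rcases hdisc i hi with h | h
    · exact Or.inr (disjoint_left.2 fun y hy hyB => hemp y (disc_subset_hat hi hy) (h hy) hyB)
    · exact Or.inl h
  have hcA := isClosed_pre (B := B) hK hm hT.isClosed hA hdA
  have hcB := isClosed_pre (B := A) hK hm hT.isClosed hB hdB
  have hcov : T ⊆ pre K x f T A ∪ pre K x f T B := by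
    intro z hz
    by_cases hzd : z ∈ dom K
    · rcases hAB (mem_hat_of_dom hz hzd) with h | h
      · exact Or.inl ⟨hz, Or.inl ⟨hzd, h⟩⟩
      · exact Or.inr ⟨hz, Or.inl ⟨hzd, h⟩⟩
    · obtain ⟨i, hzi⟩ := not_mem_dom hzd
      rcases hdisc i ⟨z, hzi, hz⟩ with h | h
      · exact Or.inl ⟨hz, Or.inr ⟨i, hzi, h⟩⟩
      · exact Or.inr ⟨hz, Or.inr ⟨i, hzi, h⟩⟩
  have hne : ∀ C : Set ℂ, (∀ i, (K i ∩ T).Nonempty → discs x i ⊆ C ∨ Disjoint (discs x i) C) →
      (hat K x f T ∩ C).Nonempty → (T ∩ pre K x f T C).Nonempty := by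
    rintro C hC ⟨y, hy, hyC⟩
    rcases mem_hat_iff.1 hy with ⟨z, hz, hd, rfl⟩ | ⟨i, hi, hyi⟩
    · exact ⟨z, hz, hz, Or.inl ⟨hd, hyC⟩⟩
    · obtain ⟨z, hzi, hz⟩ := hi
      refine ⟨z, hz, hz, Or.inr ⟨i, hzi, (hC i ⟨z, hzi, hz⟩).resolve_right ?_⟩⟩
      intro h
      exact disjoint_left.1 h hyi hyC
  obtain ⟨z, hz, hzA, hzB⟩ := isPreconnected_closed_iff.1 hTc _ _ hcA hcB hcov
    (hne A hdA hneA) (hne B hdB hneB)
  rcases hzA.2 with ⟨hd, hfA⟩ | ⟨i, hi, hiA⟩
  · rcases hzB.2 with ⟨-, hfB⟩ | ⟨j, hj, -⟩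
    · exact hemp _ (mem_hat_of_dom hz hd) hfA hfB
    · exact not_mem_dom' hj hd
  · rcases hzB.2 with ⟨hd, -⟩ | ⟨j, hj, hjB⟩
    · exact not_mem_dom' hi hd
    · have hij : i = j := by
        by_contra hne'
        exact disjoint_left.1 (hK.disj i j hne') hi hj
      subst hij
      exact hemp _ (disc_subset_hat ⟨z, hi, hz⟩ (hcen i)) (hiA (hcen i)) (hjB (hcen i))

end

end Crest.Agent.R105.Cof_515
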