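import Mathlib

/-!
# Row 105, COFAT, part 2 (helper430): length of a Lipschitz image of a curve

`curve_len` : `S ⊆ ℝ` open, `h : ℝ → ℂ` of class `C¹` on `S`, `φ` 1-Lipschitz:
`volume (φ ∘ h '' S) ≤ ∫⁻ x in S, ‖h' x‖ₑ`.
-/

set_option autoImplicit false

open Set Filter Metric Topology MeasureTheory
open scoped ENNReal

namespace Crest.Agent.R105.Cof_430

theorem edist_le_of_Icc {h h' : ℝ → ℂ} {a b : ℝ} (hab : a ≤ b)
    (hd : ∀ x ∈ Icc a b, HasDerivAt h (h' x) x) (hc : ContinuousOn h' (Icc a b)) :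
    edist (h a) (h b) ≤ ∫⁻ x in Icc a b, ‖h' x‖ₑ := by
  have h1 : ∫ x in a..b, h' x = h b - h a :=
    intervalIntegral.integral_eq_sub_of_hasDerivAt (by rwa [uIcc_of_le hab])
      (ContinuousOn.intervalIntegrable (by rwa [uIcc_of_le hab]))
  rw [edist_comm, edist_eq_enorm_sub, ← h1, intervalIntegral.integral_of_le hab]
  refine (enorm_integral_le_lintegral_enorm _).trans ?_
  exact lintegral_mono_set Ioc_subset_Icc_self

theorem vol_Icc {h h' : ℝ → ℂ} {φ : ℂ → ℝ} (hφ : LipschitzWith 1 φ) {a b : ℝ}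
    (hd : ∀ x ∈ Icc a b, HasDerivAt h (h' x) x) (hc : ContinuousOn h' (Icc a b)) :
    volume ((φ ∘ h) '' Icc a b) ≤ ∫⁻ x in Icc a b, ‖h' x‖ₑ := by
  refine (Real.volume_le_diam _).trans (Metric.ediam_le ?_)
  have key : ∀ s ∈ Icc a b, ∀ t ∈ Icc a b, s ≤ t →
      edist (φ (h s)) (φ (h t)) ≤ ∫⁻ x in Icc a b, ‖h' x‖ₑ := by
    intro s hs t ht hst
    have hsub : Icc s t ⊆ Icc a b := Icc_subset_Icc hs.1 ht.2
    have h1 : edist (φ (h s)) (φ (h t)) ≤ edist (h s) (h t) := by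
      simpa using hφ (h s) (h t)
    exact h1.trans ((edist_le_of_Icc hst (fun x hx => hd x (hsub hx)) (hc.mono hsub)).trans
      (lintegral_mono_set hsub))
  rintro _ ⟨s, hs, rfl⟩ _ ⟨t, ht, rfl⟩
  rcases le_total s t with hst | hst
  · exact key s hs t ht hst
  · rw [edist_comm]; exact key t ht s hs hst

/-- dyadic interval of level `n` around `x` -/
noncomputable def dy (n : ℕ) (k : ℤ) : Set ℝ := Icc ((k : ℝ) / 2 ^ n) (((k : ℝ) + 1) / 2 ^ n)

noncomputable def dyo (n : ℕ) (k : ℤ) : Set ℝ := Ico ((k : ℝ) / 2 ^ n) (((k : ℝ) + 1) / 2 ^ n)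

theorem mem_dyo {n : ℕ} {k : ℤ} {x : ℝ} : x ∈ dyo n k ↔ ⌊2 ^ n * x⌋ = k := by
  have h2 : (0 : ℝ) < 2 ^ n := by positivity
  rw [dyo, mem_Ico, Int.floor_eq_iff, div_le_iff₀ h2, lt_div_iff₀ h2, mul_comm x]

theorem dyo_subset (n : ℕ) (k : ℤ) : dyo n k ⊆ dy n k := Ico_subset_Icc_self

/-- union of the dyadic intervals of level `n` whose closure is in `S` -/
noncomputable def part (S : Set ℝ) (n : ℕ) : Set ℝ := ⋃ k : {k : ℤ // dy n k ⊆ S}, dyo n k

theorem mem_part {S : Set ℝ} {n : ℕ} {x : ℝ} : x ∈ part S n ↔ dy n ⌊2 ^ n * x⌋ ⊆ S := by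
  constructor
  · intro hx
    obtain ⟨⟨k, hk⟩, hxk⟩ := mem_iUnion.1 hx
    rw [mem_dyo] at hxk
    rw [hxk]; exact hk
  · intro h
    exact mem_iUnion.2 ⟨⟨_, h⟩, mem_dyo.2 rfl⟩

theorem part_mono (S : Set ℝ) : Monotone (part S) := by
  refine monotone_nat_of_le_succ fun n x hx => ?_
  rw [mem_part] at hx ⊢
  refine Subset.trans ?_ hx
  have h2 : (0 : ℝ) < 2 ^ n := by positivity
  set m := ⌊2 ^ n * x⌋ with hm
  set m' := ⌊2 ^ (n + 1) * x⌋ with hm'
  have e1 := Int.floor_le (2 ^ n * x)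
  have e2 := Int.lt_floor_add_one (2 ^ n * x)
  rw [← hm] at e1 e2
  have e3 : 2 * m ≤ m' := by
    rw [hm', Int.le_floor]
    push_cast
    rw [pow_succ]; linarith
  have e4 : m' ≤ 2 * m + 1 := by
    rw [← Int.lt_add_one_iff, hm', Int.floor_lt]
    push_cast
    rw [pow_succ]; linarith
  have e3' : 2 * (m : ℝ) ≤ m' := by exact_mod_cast e3
  have e4' : (m' : ℝ) ≤ 2 * m + 1 := by exact_mod_cast e4
  refine Icc_subset_Icc ?_ ?_
  · rw [div_le_div_iff₀ h2 (by positivity), pow_succ]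
    nlinarith
  · rw [div_le_div_iff₀ (by positivity) h2, pow_succ]
    nlinarith

theorem iUnion_part {S : Set ℝ} (hS : IsOpen S) : ⋃ n, part S n = S := by
  apply Subset.antisymm
  · refine iUnion_subset fun n x hx => ?_
    have h1 := mem_part.1 hx
    exact h1 (dyo_subset _ _ (mem_dyo.2 rfl))
  · intro x hx
    obtain ⟨r, hr, hb⟩ := Metric.isOpen_iff.1 hS x hx
    obtain ⟨n, hn⟩ := exists_pow_lt_of_lt_one hr (by norm_num : (1 / 2 : ℝ) < 1)
    refine mem_iUnion.2 ⟨n, mem_part.2 (Subset.trans ?_ hb)⟩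
    have h2 : (0 : ℝ) < 2 ^ n := by positivity
    intro y hy
    rw [Real.ball_eq_Ioo]
    have e0 : (1 / 2 : ℝ) ^ n = 1 / 2 ^ n := by rw [one_div, inv_pow, one_div]
    rw [e0] at hn
    have e1 := Int.floor_le (2 ^ n * x)
    have e2 := Int.lt_floor_add_one (2 ^ n * x)
    obtain ⟨y1, y2⟩ := hy
    rw [div_le_iff₀ h2] at y1
    rw [le_div_iff₀ h2] at y2
    rw [div_lt_iff₀ h2] at hn
    constructor
    · by_contra hcon
      push Not at hcon
      nlinarith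
    · by_contra hcon
      push Not at hcon
      nlinarith

/-- **Length of a Lipschitz image of a curve.** -/
theorem curve_len {S : Set ℝ} (hS : IsOpen S) {h h' : ℝ → ℂ} {φ : ℂ → ℝ} (hφ : LipschitzWith 1 φ)
    (hd : ∀ x ∈ S, HasDerivAt h (h' x) x) (hc : ContinuousOn h' S) :
    volume ((φ ∘ h) '' S) ≤ ∫⁻ x in S, ‖h' x‖ₑ := by
  have h1 : (φ ∘ h) '' S = ⋃ n, (φ ∘ h) '' part S n := by
    rw [← image_iUnion, iUnion_part hS]
  have hmono : Monotone fun n => (φ ∘ h) '' part S n := fun m n hmn =>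
    image_mono (part_mono S hmn)
  rw [h1, hmono.measure_iUnion]
  refine iSup_le fun n => ?_
  have hle : ∀ k : {k : ℤ // dy n k ⊆ S},
      volume ((φ ∘ h) '' dyo n k) ≤ ∫⁻ x in dyo n k, ‖h' x‖ₑ := by
    intro k
    refine (measure_mono (image_mono (dyo_subset n k))).trans
      ((vol_Icc hφ (fun x hx => hd x (k.2 hx)) (hc.mono k.2)).trans ?_)
    exact (setLIntegral_congr Ico_ae_eq_Icc).ge
  calc volume ((φ ∘ h) '' part S n)
      ≤ ∑' k : {k : ℤ // dy n k ⊆ S}, volume ((φ ∘ h) '' dyo n k) := by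
        rw [part, image_iUnion]; exact measure_iUnion_le _
    _ ≤ ∑' k : {k : ℤ // dy n k ⊆ S}, ∫⁻ x in dyo n k, ‖h' x‖ₑ := ENNReal.tsum_le_tsum hle
    _ = ∫⁻ x in part S n, ‖h' x‖ₑ := by
        rw [part, lintegral_iUnion (s := fun k : {k : ℤ // dy n k ⊆ S} => dyo n k)
          (fun k => (measurableSet_Ico : MeasurableSet (dyo n k)))]
        intro k l hkl
        refine Set.disjoint_left.2 fun x hx hx' => hkl (Subtype.ext ?_)
        rw [← mem_dyo.1 hx, ← mem_dyo.1 hx']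
    _ ≤ ∫⁻ x in S, ‖h' x‖ₑ := by
        refine lintegral_mono_set ?_
        exact (subset_iUnion (part S) n).trans (iUnion_part hS).le

end Crest.Agent.R105.Cof_430
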