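import Mathlib
import Crest.Agent.R105.Cof1_515

/-!
# R105 / COFAT (node D2), part 2 (helper515)

maximum principle and the estimate from the one-dimensional image measure.
-/

set_option autoImplicit false

open Set Filter Topology Metric MeasureTheory

namespace Crest.Agent.R105.Cof_515

open FK_644

section

variable {ι : Type*} [Finite ι] {K : ι → Set ℂ} {x : ι → ℂ × ℝ} {f : ℂ → ℂ}

/-- `hat T` is a neighbourhood of the discs of the components inside the interior of `T` -/
theorem hat_mem_nhdsSet (hK : Fam K) (hD : Fam (discs x)) (hm : LMap K (discs x) f) {T : Set ℂ}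
    {i : ι} (hi : K i ⊆ interior T) : hat K x f T ∈ 𝓝ˢ (discs x i) := by
  have h0 : dom K ∩ interior T ∈ 𝓝ˢ (K i) ⊓ 𝓟 (dom K) := by
    rw [inter_comm]
    exact inter_mem_inf (isOpen_interior.mem_nhdsSet.2 hi) (mem_principal_self _)
  have h1 : f '' (dom K ∩ interior T) ∈ 𝓝ˢ (discs x i) ⊓ 𝓟 (dom (discs x)) := by
    rw [← hm.lab_eq hK hD i]
    exact image_mem_map h0
  rw [mem_inf_principal] at h1
  have h2 : (⋃ j ∈ {j : ι | j ≠ i}, discs x j)ᶜ ∈ 𝓝ˢ (discs x i) := by
    refine (((toFinite {j : ι | j ≠ i}).isClosed_biUnion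
      fun j _ => (isCompact_discs x j).isClosed).isOpen_compl).mem_nhdsSet.2 ?_
    intro y hy hy'
    obtain ⟨j, hj, hyj⟩ := mem_iUnion₂.1 hy'
    exact disjoint_left.1 (hD.disj j i hj) hyj hy
  obtain ⟨z, hz⟩ := (hK.conn i).nonempty
  have hne : (K i ∩ T).Nonempty := ⟨z, hz, interior_subset (hi hz)⟩
  filter_upwards [h1, h2] with y hy1 hy2
  by_cases hyd : y ∈ dom (discs x)
  · obtain ⟨w, ⟨hw1, hw2⟩, hw3⟩ := hy1 hyd
    rw [← hw3]
    exact mem_hat_of_dom (interior_subset hw2) hw1
  · obtain ⟨j, hj⟩ := not_mem_dom hyd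
    by_cases hji : j = i
    · subst hji; exact disc_subset_hat hne hj
    · exact absurd (mem_iUnion₂.2 ⟨j, hji, hj⟩) hy2

/-- the distance to `c` has no local maximum except possibly `c` -/
theorem exists_farther {c y : ℂ} {Z : Set ℂ} (hZ : Z ∈ 𝓝 y) (hy : 0 < dist y c) :
    ∃ y' ∈ Z, dist y c < dist y' c := by
  have h1 : Tendsto (fun s : ℝ => y + (s : ℂ) * (y - c)) (𝓝[>] 0) (𝓝 y) := by
    have : Continuous fun s : ℝ => y + (s : ℂ) * (y - c) := by fun_prop
    have h2 := this.tendsto 0
    simp only [Complex.ofReal_zero, zero_mul, add_zero] at h2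
    exact h2.mono_left nhdsWithin_le_nhds
  obtain ⟨s, hs, hs0⟩ := ((h1.eventually hZ).and self_mem_nhdsWithin).exists
  refine ⟨_, hs, ?_⟩
  have hs0' : 0 < s := hs0
  have h3 : y + (s : ℂ) * (y - c) - c = ((1 + s : ℝ) : ℂ) * (y - c) := by push_cast; ring
  rw [dist_eq_norm (y + _) c, h3, norm_mul, Complex.norm_real, Real.norm_eq_abs,
    abs_of_pos (by linarith), ← dist_eq_norm]
  nlinarith

/-- **maximum principle** -/
theorem hat_closedBall_subset (hK : Fam K) (hD : Fam (discs x)) (hm : LMap K (discs x) f)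
    {p c : ℂ} {t R : ℝ} (hR : 0 ≤ R)
    (h : hat K x f (sphere p t) ⊆ closedBall c R) :
    hat K x f (closedBall p t) ⊆ closedBall c R := by
  intro y hy
  have hcpt := hat_compact hK hm (isCompact_closedBall p t)
  obtain ⟨y0, hy0, hmax⟩ := hcpt.exists_isMaxOn ⟨y, hy⟩
    (continuous_id.dist (continuous_const (y := c))).continuousOn
  have hmax' : ∀ w ∈ hat K x f (closedBall p t), dist w c ≤ dist y0 c := fun w hw => hmax hw
  rw [mem_closedBall]
  refine (hmax' y hy).trans ?_
  by_contra hcon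
  rw [not_le] at hcon
  have hy0s : y0 ∉ hat K x f (sphere p t) := fun hs => by
    have := h hs
    rw [mem_closedBall] at this
    linarith
  have hZ : hat K x f (closedBall p t) ∈ 𝓝 y0 := by
    rcases mem_hat_iff.1 hy0 with ⟨z, hz, hd, rfl⟩ | ⟨i, hi, hyi⟩
    · have hzb : z ∈ ball p t := by
        rcases (mem_closedBall.1 hz).lt_or_eq with h' | h'
        · exact h'
        · exact absurd (mem_hat_of_dom (mem_sphere.2 h') hd) hy0s
      have hopen : IsOpen (dom K) := hK.exterior.1
      have h1 : f '' (dom K ∩ ball p t) ∈ 𝓝 (f z) := by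
        have h2 := (hm.endMap hK).opn (dom K ∩ ball p t) inter_subset_left
          (hopen.inter isOpen_ball)
        exact h2.mem_nhds ⟨z, ⟨hd, hzb⟩, rfl⟩
      refine mem_of_superset h1 ?_
      rintro _ ⟨w, ⟨hw1, hw2⟩, rfl⟩
      exact mem_hat_of_dom (ball_subset_closedBall hw2) hw1
    · have hdis : Disjoint (K i) (sphere p t) := by
        rw [disjoint_left]
        intro w hw hws
        exact hy0s (disc_subset_hat ⟨w, hw, hws⟩ hyi)
      have hsub : K i ⊆ ball p t := by
        have hpc := (hK.conn i).isPreconnected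
        have hcov : K i ⊆ ball p t ∪ (closedBall p t)ᶜ := by
          intro w hw
          by_cases hwb : w ∈ closedBall p t
          · rcases (mem_closedBall.1 hwb).lt_or_eq with h' | h'
            · exact Or.inl h'
            · exact absurd (mem_sphere.2 h') (disjoint_left.1 hdis hw)
          · exact Or.inr hwb
        refine hpc.subset_left_of_subset_union isOpen_ball isClosed_closedBall.isOpen_compl
          ?_ hcov ?_
        · exact disjoint_left.2 fun w h1 h2 => h2 (ball_subset_closedBall h1)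
        · obtain ⟨w, hw, hwb⟩ := hi
          refine ⟨w, hw, ?_⟩
          rcases hcov hw with h' | h'
          · exact h'
          · exact absurd hwb h'
      exact mem_nhdsSet_iff_forall.1 (hat_mem_nhdsSet hK hD hm
        (hsub.trans (interior_maximal ball_subset_closedBall isOpen_ball))) y0 hyi
  obtain ⟨y', hy', hlt⟩ := exists_farther hZ (lt_of_le_of_lt hR hcon)
  exact absurd (hmax' y' hy') (not_le.2 hlt)

/-- the rest of the circle: everything but the disc of the component of the centre -/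
def rest (K : ι → Set ℂ) (x : ι → ℂ × ℝ) (f : ℂ → ℂ) (p : ℂ) (t : ℝ) : Set ℂ :=
  f '' (sphere p t ∩ dom K) ∪ ⋃ i, ⋃ (_ : (K i ∩ sphere p t).Nonempty ∧ p ∉ K i), discs x i

omit [Finite ι] in
theorem hat_subset_rest {p : ℂ} {t : ℝ} {y : ℂ} (hy : y ∈ hat K x f (sphere p t)) :
    y ∈ rest K x f p t ∨ ∃ i, p ∈ K i ∧ y ∈ discs x i := by
  rcases mem_hat_iff.1 hy with ⟨z, hz, hd, rfl⟩ | ⟨i, hi, hyi⟩
  · exact Or.inl (Or.inl ⟨z, ⟨hz, hd⟩, rfl⟩)
  · by_cases hp : p ∈ K i
    · exact Or.inr ⟨i, hp, hyi⟩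
    · exact Or.inl (Or.inr (mem_iUnion₂.2 ⟨i, ⟨hi, hp⟩, hyi⟩))

/-- **(1)** near a component: `f` is close to its disc -/
theorem dist_le_of_mem (hK : Fam K) (hD : Fam (discs x)) (hm : LMap K (discs x) f)
    (hx : ∀ i, 0 ≤ (x i).2) {p : ℂ} {t ε : ℝ} (hε : 0 ≤ ε)
    (hL : ∀ φ : ℂ → ℝ, LipschitzWith 1 φ → volume (φ '' rest K x f p t) ≤ ENNReal.ofReal ε)
    {i : ι} (hp : p ∈ K i) (hi : (K i ∩ sphere p t).Nonempty) {w : ℂ} (hw : w ∈ dom K)
    (hwt : w ∈ closedBall p t) : dist (f w) (x i).1 ≤ (x i).2 + ε := by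
  have hsub : hat K x f (sphere p t) ⊆ closedBall (x i).1 ((x i).2 + ε) := by
    intro y hy
    rw [mem_closedBall]
    by_contra hcon
    rw [not_le] at hcon
    set φ : ℂ → ℝ := fun w => dist w (x i).1 with hφ
    have hφl : LipschitzWith 1 φ := LipschitzWith.dist_left _
    have hpc : IsPreconnected (hat K x f (sphere p t)) :=
      hat_preconn hK hm hx (isCompact_sphere p t)
        (isPreconnected_sphere (by
          rw [← Module.finrank_eq_rank, Complex.finrank_real_complex]
          exact_mod_cast one_lt_two) p t)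
    have himg := (hpc.image φ hφl.continuous.continuousOn).ordConnected
    have hc0 : (x i).1 ∈ hat K x f (sphere p t) :=
      disc_subset_hat hi (mem_closedBall_self (hx i))
    have hIoc : Ioc (x i).2 (dist y (x i).1) ⊆ φ '' rest K x f p t := by
      intro s hs
      have h1 : s ∈ φ '' hat K x f (sphere p t) := by
        refine himg.out ⟨_, hc0, rfl⟩ ⟨y, hy, rfl⟩ ⟨?_, hs.2⟩
        simp only [hφ, dist_self]
        exact (hx i).trans hs.1.le
      obtain ⟨v, hv, hvs⟩ := h1
      rcases hat_subset_rest hv with h2 | ⟨j, hj, hvj⟩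
      · exact ⟨v, h2, hvs⟩
      · have hji : j = i := by
          by_contra hne
          exact disjoint_left.1 (hK.disj j i hne) hj hp
        subst hji
        exfalso
        have h3 : φ v ≤ (x j).2 := mem_closedBall.1 hvj
        rw [hvs] at h3
        exact absurd hs.1 (not_lt.2 h3)
    have h4 := (measure_mono hIoc).trans (hL φ hφl)
    rw [Real.volume_Ioc] at h4
    have h5 := (ENNReal.ofReal_le_ofReal_iff hε).1 h4
    linarith
  have h6 := hat_closedBall_subset hK hD hm (by linarith [hx i]) hsub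
    (mem_hat_of_dom hwt hw)
  exact mem_closedBall.1 h6

/-- **(2)** near a point which is not in one of the components -/
theorem exists_center (hK : Fam K) (hD : Fam (discs x)) (hm : LMap K (discs x) f)
    (hx : ∀ i, 0 ≤ (x i).2) {p : ℂ} {t ε : ℝ} (ht : 0 ≤ t) (hε : 0 ≤ ε)
    (hL : ∀ φ : ℂ → ℝ, LipschitzWith 1 φ → volume (φ '' rest K x f p t) ≤ ENNReal.ofReal ε)
    (hp : ∀ i, p ∉ K i) : ∃ c : ℂ, ∀ w ∈ dom K, w ∈ closedBall p t → dist (f w) c ≤ ε := by
  obtain ⟨z, hz⟩ : (sphere p t).Nonempty := NormedSpace.sphere_nonempty.2 ht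
  obtain ⟨c, hc⟩ : (hat K x f (sphere p t)).Nonempty := by
    by_cases hzd : z ∈ dom K
    · exact ⟨_, mem_hat_of_dom hz hzd⟩
    · obtain ⟨i, hzi⟩ := not_mem_dom hzd
      exact ⟨_, disc_subset_hat ⟨z, hzi, hz⟩ (mem_closedBall_self (hx i))⟩
  refine ⟨c, fun w hw hwt => ?_⟩
  have hsub : hat K x f (sphere p t) ⊆ closedBall c ε := by
    intro y hy
    rw [mem_closedBall]
    by_contra hcon
    rw [not_le] at hcon
    set φ : ℂ → ℝ := fun w => dist w c with hφ
    have hφl : LipschitzWith 1 φ := LipschitzWith.dist_left _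
    have hpc : IsPreconnected (hat K x f (sphere p t)) :=
      hat_preconn hK hm hx (isCompact_sphere p t)
        (isPreconnected_sphere (by
          rw [← Module.finrank_eq_rank, Complex.finrank_real_complex]
          exact_mod_cast one_lt_two) p t)
    have himg := (hpc.image φ hφl.continuous.continuousOn).ordConnected
    have hIoc : Ioc 0 (dist y c) ⊆ φ '' rest K x f p t := by
      intro s hs
      have h1 : s ∈ φ '' hat K x f (sphere p t) := by
        refine himg.out ⟨_, hc, rfl⟩ ⟨y, hy, rfl⟩ ⟨?_, hs.2⟩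
        simp only [hφ, dist_self]
        exact hs.1.le
      obtain ⟨v, hv, hvs⟩ := h1
      rcases hat_subset_rest hv with h2 | ⟨j, hj, hvj⟩
      · exact ⟨v, h2, hvs⟩
      · exact absurd hj (hp j)
    have h4 := (measure_mono hIoc).trans (hL φ hφl)
    rw [Real.volume_Ioc] at h4
    have h5 := (ENNReal.ofReal_le_ofReal_iff hε).1 h4
    linarith
  exact mem_closedBall.1 (hat_closedBall_subset hK hD hm hε hsub (mem_hat_of_dom hwt hw))

end

end Crest.Agent.R105.Cof_515
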