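import Mathlib
import Crest.Agent.R105.Cof2_430

/-!
# Row 105, COFAT, part 3 (helper430): circles in polar coordinates

`pt p t θ = p + t e^{iθ}`; `len W f p t` = length of the image of the part of the circle in `W`.
* `circ_len` : `volume (φ '' (f '' (sphere p t ∩ W))) ≤ len W f p t` for `φ` 1-Lipschitz;
* `lint_len` : `∫⁻ t in Ioo a b, len W f p t = ∫⁻ z in {a < dist z p < b}, |f'| 1_W`.
-/

set_option autoImplicit false

open Set Filter Metric Topology MeasureTheory
open scoped ENNReal Real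

namespace Crest.Agent.R105.Cof_430

/-- point of the circle -/
noncomputable def pt (p : ℂ) (t θ : ℝ) : ℂ :=
  p + t * (Real.cos θ + Real.sin θ * Complex.I)

/-- length of the image of the circle (the part in `W`) -/
noncomputable def len (W : Set ℂ) (f : ℂ → ℂ) (p : ℂ) (t : ℝ) : ℝ≥0∞ :=
  ∫⁻ θ in Ioo (-π) π, ENNReal.ofReal t * W.indicator (fun z => ‖deriv f z‖ₑ) (pt p t θ)

theorem pt_eq (p : ℂ) (t θ : ℝ) : pt p t θ = p + Complex.polarCoord.symm (t, θ) := by
  simp [pt]

theorem norm_cs (θ : ℝ) : ‖(Real.cos θ + Real.sin θ * Complex.I : ℂ)‖ = 1 := by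
  have h := Complex.norm_polarCoord_symm (1, θ)
  simpa only [Complex.polarCoord_symm_apply, Complex.ofReal_one, one_mul, abs_one] using h

theorem hasDerivAt_pt (p : ℂ) (t θ : ℝ) :
    HasDerivAt (pt p t) (t * (-Real.sin θ + Real.cos θ * Complex.I)) θ := by
  unfold pt
  have h1 : HasDerivAt (fun θ : ℝ => (Real.cos θ : ℂ)) (-Real.sin θ : ℂ) θ := by
    have := (Real.hasDerivAt_cos θ).ofReal_comp
    simpa using this
  have h2 : HasDerivAt (fun θ : ℝ => (Real.sin θ : ℂ)) (Real.cos θ : ℂ) θ :=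
    (Real.hasDerivAt_sin θ).ofReal_comp
  have h3 := ((h1.add (h2.mul_const Complex.I)).const_mul (t : ℂ)).const_add p
  exact h3

theorem continuous_pt (p : ℂ) (t : ℝ) : Continuous (pt p t) := by
  unfold pt; fun_prop

theorem norm_dpt {t : ℝ} (ht : 0 < t) (θ : ℝ) :
    ‖((t * (-Real.sin θ + Real.cos θ * Complex.I) : ℂ))‖ₑ = ENNReal.ofReal t := by
  have e : (-Real.sin θ + Real.cos θ * Complex.I : ℂ) =
      Complex.I * (Real.cos θ + Real.sin θ * Complex.I) := by
    have := Complex.I_mul_I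
    linear_combination (-Real.sin θ : ℂ) * this
  have h : ‖((t * (-Real.sin θ + Real.cos θ * Complex.I) : ℂ))‖ = t := by
    rw [e, norm_mul, norm_mul, norm_cs, Complex.norm_I, Complex.norm_real, Real.norm_eq_abs,
      abs_of_pos ht, one_mul, mul_one]
  rw [← ofReal_norm, h]

/-- **The image of a circle under an arc-length estimate.** -/
theorem circ_len {W : Set ℂ} (hW : IsOpen W) {f : ℂ → ℂ} (hf : DifferentiableOn ℂ f W) {φ : ℂ → ℝ}
    (hφ : LipschitzWith 1 φ) (p : ℂ) {t : ℝ} (ht : 0 < t) :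
    volume (φ '' (f '' (sphere p t ∩ W))) ≤ len W f p t := by
  set S : Set ℝ := Ioo (-π) π ∩ pt p t ⁻¹' W with hS
  have hSo : IsOpen S := isOpen_Ioo.inter (hW.preimage (continuous_pt p t))
  set h' : ℝ → ℂ := fun θ =>
    (t * (-Real.sin θ + Real.cos θ * Complex.I) : ℂ) • deriv f (pt p t θ) with hh'
  have hd : ∀ θ ∈ S, HasDerivAt (f ∘ pt p t) (h' θ) θ := by
    intro θ hθ
    have h1 : HasDerivAt f (deriv f (pt p t θ)) (pt p t θ) :=
      (hf.differentiableAt (hW.mem_nhds hθ.2)).hasDerivAt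
    exact h1.scomp θ (hasDerivAt_pt p t θ)
  have hdc : ContinuousOn (deriv f) W := (hf.deriv hW).continuousOn
  have hc : ContinuousOn h' S := by
    have h0 : Continuous fun θ : ℝ => (t * (-Real.sin θ + Real.cos θ * Complex.I) : ℂ) := by
      fun_prop
    refine h0.continuousOn.smul ?_
    exact hdc.comp (continuous_pt p t).continuousOn fun θ hθ => hθ.2
  have h1 := curve_len hSo hφ hd hc
  have hsub : φ '' (f '' (sphere p t ∩ W)) ⊆ (φ ∘ (f ∘ pt p t)) '' S ∪ {φ (f (pt p t π))} := by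
    rintro _ ⟨_, ⟨z, ⟨hz, hzW⟩, rfl⟩, rfl⟩
    have hz' : ‖z - p‖ = t := by rw [← dist_eq_norm]; exact hz
    have e : pt p t (Complex.arg (z - p)) = z := by
      have := Complex.norm_mul_cos_add_sin_mul_I (z - p)
      rw [hz'] at this
      unfold pt
      rw [Complex.ofReal_cos, Complex.ofReal_sin, this]; ring
    have ha := Complex.arg_mem_Ioc (z - p)
    by_cases h : Complex.arg (z - p) = π
    · right
      rw [mem_singleton_iff, ← h, e]
    · left
      refine ⟨Complex.arg (z - p), ⟨⟨ha.1, lt_of_le_of_ne ha.2 h⟩, ?_⟩, ?_⟩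
      · rw [mem_preimage, e]; exact hzW
      · simp only [Function.comp, e]
  refine (measure_mono hsub).trans ((measure_union_le _ _).trans ?_)
  rw [measure_singleton, add_zero]
  refine h1.trans ?_
  unfold len
  refine le_trans (le_of_eq ?_) (lintegral_mono_set (inter_subset_left : S ⊆ Ioo (-π) π))
  refine setLIntegral_congr_fun hSo.measurableSet fun θ hθ => ?_
  simp only [hh']
  rw [smul_eq_mul, enorm_mul, norm_dpt ht, indicator_of_mem (show pt p t θ ∈ W from hθ.2)]

theorem lint_polar {G : ℂ → ℝ≥0∞} (hG : Measurable G) (p : ℂ) {a b : ℝ} (ha : 0 ≤ a) :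
    ∫⁻ t in Ioo a b, ∫⁻ θ in Ioo (-π) π, ENNReal.ofReal t * G (pt p t θ) =
      ∫⁻ z in {z | dist z p ∈ Ioo a b}, G z := by
  have hm : MeasurableSet {z : ℂ | dist z p ∈ Ioo a b} :=
    (isOpen_Ioo.preimage (continuous_id.dist continuous_const)).measurableSet
  rw [← lintegral_indicator hm]
  set G1 : ℂ → ℝ≥0∞ := fun z => {z : ℂ | dist z p ∈ Ioo a b}.indicator G (p + z) with hG1
  have hG1m : Measurable G1 := (hG.indicator hm).comp (measurable_const_add p)
  have e1 : ∫⁻ z, {z : ℂ | dist z p ∈ Ioo a b}.indicator G z = ∫⁻ z, G1 z :=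
    (lintegral_add_left_eq_self (fun z => {z : ℂ | dist z p ∈ Ioo a b}.indicator G z) p).symm
  rw [e1, ← Complex.lintegral_comp_polarCoord_symm]
  have e2 : polarCoord.target = Ioi (0 : ℝ) ×ˢ Ioo (-π) π := rfl
  rw [e2, Measure.volume_eq_prod, ← Measure.prod_restrict]
  have hms : Measurable fun q : ℝ × ℝ =>
      ENNReal.ofReal q.1 • G1 (Complex.polarCoord.symm q) := by
    have h3 : Measurable fun q : ℝ × ℝ => (Complex.polarCoord.symm q : ℂ) := by
      have : (fun q : ℝ × ℝ => (Complex.polarCoord.symm q : ℂ)) =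
          fun q : ℝ × ℝ => (q.1 * (Real.cos q.2 + Real.sin q.2 * Complex.I) : ℂ) := by
        funext q; exact Complex.polarCoord_symm_apply q
      rw [this]
      fun_prop
    exact (ENNReal.measurable_ofReal.comp measurable_fst).smul (hG1m.comp h3)
  rw [lintegral_prod _ hms.aemeasurable]
  have hsub : Ioo a b ⊆ Ioi (0 : ℝ) := fun t ht => lt_of_le_of_lt ha ht.1
  rw [← lintegral_indicator measurableSet_Ioo, ← lintegral_indicator measurableSet_Ioi]
  refine lintegral_congr fun t => ?_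
  by_cases ht : t ∈ Ioi (0 : ℝ)
  · rw [indicator_of_mem ht]
    have hn : ∀ θ : ℝ, dist (p + Complex.polarCoord.symm (t, θ)) p = t := by
      intro θ
      rw [dist_eq_norm, add_sub_cancel_left, Complex.norm_polarCoord_symm]
      exact abs_of_pos ht
    by_cases ht' : t ∈ Ioo a b
    · rw [indicator_of_mem ht']
      refine lintegral_congr fun θ => ?_
      simp only [hG1, smul_eq_mul]
      rw [indicator_of_mem (show p + Complex.polarCoord.symm (t, θ) ∈
        {z : ℂ | dist z p ∈ Ioo a b} by rw [mem_ofPred_eq, hn]; exact ht'), pt_eq]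
    · rw [indicator_of_notMem ht']
      symm
      rw [lintegral_eq_zero_iff' (by
        exact ((hms.comp (measurable_prodMk_left (x := t))).aemeasurable))]
      refine Filter.Eventually.of_forall fun θ => ?_
      simp only [hG1, smul_eq_mul]
      rw [indicator_of_notMem (show p + Complex.polarCoord.symm (t, θ) ∉
        {z : ℂ | dist z p ∈ Ioo a b} by rw [mem_ofPred_eq, hn]; exact ht'), mul_zero]
      rfl
  · rw [indicator_of_notMem ht, indicator_of_notMem fun h => ht (hsub h)]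

theorem measurable_dn {W : Set ℂ} (hW : IsOpen W) (f : ℂ → ℂ) :
    Measurable (W.indicator fun z => ‖deriv f z‖ₑ) :=
  (measurable_deriv f).enorm.indicator hW.measurableSet

/-- **Length-area identity on an annulus.** -/
theorem lint_len {W : Set ℂ} (hW : IsOpen W) (f : ℂ → ℂ) (p : ℂ) {a b : ℝ} (ha : 0 ≤ a) :
    ∫⁻ t in Ioo a b, len W f p t =
      ∫⁻ z in {z | dist z p ∈ Ioo a b}, W.indicator (fun z => ‖deriv f z‖ₑ) z :=
  lint_polar (measurable_dn hW f) p ha

/-- Cauchy-Schwarz on a set of finite measure -/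
theorem lint_sq {α : Type*} [MeasurableSpace α] {μ : Measure α} {g : α → ℝ≥0∞}
    (hg : AEMeasurable g μ) : (∫⁻ z, g z ∂μ) ^ 2 ≤ (∫⁻ z, g z ^ 2 ∂μ) * μ univ := by
  have h := ENNReal.lintegral_mul_le_Lp_mul_Lq μ Real.HolderConjugate.two_two hg
    (aemeasurable_const (b := (1 : ℝ≥0∞)))
  simp only [Pi.mul_apply, mul_one, ENNReal.one_rpow, lintegral_one] at h
  calc (∫⁻ z, g z ∂μ) ^ 2 ≤ ((∫⁻ z, g z ^ (2:ℝ) ∂μ) ^ (1 / (2:ℝ)) * μ univ ^ (1 / (2:ℝ))) ^ 2 := by
        gcongr
    _ = (∫⁻ z, g z ^ 2 ∂μ) * μ univ := by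
        rw [mul_pow, ← ENNReal.rpow_natCast, ← ENNReal.rpow_mul, ← ENNReal.rpow_natCast,
          ← ENNReal.rpow_mul]
        norm_num

/-- **Squared length-area inequality.** -/
theorem len_sq {W : Set ℂ} (hW : IsOpen W) (f : ℂ → ℂ) (p : ℂ) {a b : ℝ} (ha : 0 ≤ a) :
    (∫⁻ t in Ioo a b, len W f p t) ^ 2 ≤
      (∫⁻ z in {z | dist z p ∈ Ioo a b} ∩ W, ‖deriv f z‖ₑ ^ 2) * volume (closedBall p b) := by
  rw [lint_len hW f p ha]
  have hm : MeasurableSet {z : ℂ | dist z p ∈ Ioo a b} :=
    (isOpen_Ioo.preimage (continuous_id.dist continuous_const)).measurableSet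
  refine (lint_sq (measurable_dn hW f).aemeasurable).trans ?_
  refine mul_le_mul' (le_of_eq ?_) ?_
  · rw [inter_comm, ← Measure.restrict_restrict hW.measurableSet,
      ← lintegral_indicator hW.measurableSet]
    refine lintegral_congr fun z => ?_
    by_cases hz : z ∈ W
    · rw [indicator_of_mem hz, indicator_of_mem hz]
    · rw [indicator_of_notMem hz, indicator_of_notMem hz]; simp
  · rw [Measure.restrict_apply_univ]
    exact measure_mono fun z hz => le_of_lt hz.2

end Crest.Agent.R105.Cof_430
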