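import Mathlib
import Crest.Agent.R105.FKd_644

/-!
# R105 / COFAT (node D2): literal interface between 430 / 107 / 917 and 515

`K : ι → Set ℂ` : the nondegenerate components of `Vᶜ`; `s : Finset ι` a finite part;
`c i`, `r i` centre and radius of the disc of `K i`.
-/

set_option autoImplicit false

open Set Filter Topology Metric MeasureTheory

namespace Crest.Agent.R105.Cof_515

open FK_644 (Sig)

variable {ι : Type*}

/-- complement of the finite part `s` of the family -/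
def domF (K : ι → Set ℂ) (s : Finset ι) : Set ℂ := (⋃ i ∈ s, K i)ᶜ

/-- a labelled normalised conformal map of `domF K s` onto the complement of closed discs -/
structure Stage (K : ι → Set ℂ) (s : Finset ι) (c : ι → ℂ) (r : ι → ℝ) (f : ℂ → ℂ) : Prop where
  sig : Sig (domF K s) f
  img : f '' domF K s = (⋃ i ∈ s, closedBall (c i) (r i))ᶜ
  rpos : ∀ i ∈ s, 0 < r i
  dis : ∀ i ∈ s, ∀ j ∈ s, i ≠ j → Disjoint (closedBall (c i) (r i)) (closedBall (c j) (r j))
  lab : ∀ i ∈ s, Tendsto f (𝓝ˢ (K i) ⊓ 𝓟 (domF K s)) (𝓝ˢ (closedBall (c i) (r i)))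

/-- image of the circle, without the disc of the component of the centre -/
def restF (K : ι → Set ℂ) (s : Finset ι) (c : ι → ℂ) (r : ι → ℝ) (f : ℂ → ℂ) (p : ℂ) (t : ℝ) :
    Set ℂ :=
  f '' (sphere p t ∩ domF K s) ∪
    ⋃ i ∈ s, ⋃ (_ : (K i ∩ sphere p t).Nonempty ∧ p ∉ K i), closedBall (c i) (r i)

/-- (S4), the Courant-Lebesgue estimate with hops, uniform in the stage -/
def S4 (V : Set ℂ) (K : ι → Set ℂ) (F : ℕ → Finset ι) (c : ℕ → ι → ℂ) (r : ℕ → ι → ℝ)
    (f : ℕ → ℂ → ℂ) (l : Filter ℕ) : Prop :=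
  ∀ p ∉ V, ∀ ε > 0, ∃ δ > 0, ∀ᶠ n in l, ∃ t, δ < t ∧ t < ε ∧
    ∀ φ : ℂ → ℝ, LipschitzWith 1 φ →
      volume (φ '' restF K (F n) (c n) (r n) (f n) p t) ≤ ENNReal.ofReal ε

end Crest.Agent.R105.Cof_515
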