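import Mathlib
import Crest.Agent.R105.Cof2_515
import Crest.Agent.R105.CofI_515
import Crest.Agent.R105.Ends3_897
import Crest.Agent.R105.Uni3_231

/-!
# R105 / COFAT (node D2), part 3 (helper515): the limit

`isCircle_of_stages` : stages `f n` of an exterior domain `V` (all nondegenerate components of
`Vᶜ` are the `K i`), (S4), convergence of the maps and of the discs along a filter `l`
⟹ the image of the limit is a circle domain.
-/

set_option autoImplicit false

open Set Filter Topology Metric MeasureTheory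
open Crest.AnalysisR

namespace Crest.Agent.R105.Cof_515

open FK_644

variable {ι : Type*}

/-- everything about the components which is used -/
structure Comps (V : Set ℂ) (K : ι → Set ℂ) : Prop where
  ext : IsExteriorDomain V
  cc : ∀ i, ∀ z ∈ K i, z ∉ V ∧ connectedComponentIn Vᶜ z = K i
  nt : ∀ i, (K i).Nontrivial
  inj : ∀ i j, K i = K j → i = j
  all : ∀ z ∉ V, connectedComponentIn Vᶜ z = {z} ∨ ∃ i, z ∈ K i

namespace Comps

variable {V : Set ℂ} {K : ι → Set ℂ}

theorem conn (h : Comps V K) (i : ι) : IsConnected (K i) := by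
  obtain ⟨z, hz⟩ := (h.nt i).nonempty
  rw [← (h.cc i z hz).2]
  exact isConnected_connectedComponentIn_iff.2 (h.cc i z hz).1

theorem cpt (h : Comps V K) (i : ι) : IsCompact (K i) := by
  obtain ⟨z, hz⟩ := (h.nt i).nonempty
  rw [← (h.cc i z hz).2]
  exact Ends_897.isCompact_cc (Ends_897.isCompact_compl h.ext) z

theorem disj (h : Comps V K) {i j : ι} (hij : i ≠ j) : Disjoint (K i) (K j) := by
  rw [disjoint_left]
  intro z hi hj
  exact hij (h.inj i j ((h.cc i z hi).2.symm.trans (h.cc j z hj).2))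

/-- the finite part as a `Fin`-like family -/
def sub (K : ι → Set ℂ) (s : Finset ι) : {i // i ∈ s} → Set ℂ := fun i => K i

theorem dom_sub (s : Finset ι) : dom (sub K s) = domF K s := by
  ext z
  simp only [dom, domF, mem_compl_iff, mem_iUnion, sub, Subtype.exists, exists_prop]

theorem subset_domF (h : Comps V K) (s : Finset ι) : V ⊆ domF K s := by
  intro z hz hz'
  obtain ⟨i, -, hzi⟩ := mem_iUnion₂.1 hz'
  exact (h.cc i z hzi).1 hz

theorem fam (h : Comps V K) (s : Finset ι) : Fam (sub K s) where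
  cpt i := h.cpt i
  conn i := h.conn i
  nt i := h.nt i
  disj i j hij := h.disj fun he => hij (Subtype.ext he)
  compl := by
    have h3 : ∀ i : {i // i ∈ s}, connectedComponentIn Vᶜ ((h.nt i).nonempty.choose) = K i :=
      fun i => (h.cc i _ (h.nt i).nonempty.choose_spec).2
    have h1 := preconn_comps h.ext (ι := {i // i ∈ s})
      (z := fun i => (h.nt i).nonempty.choose) (fun i j hij he => by
        rw [h3 i, h3 j] at he
        exact hij (Subtype.ext (h.inj _ _ he)))
    have h2 : sub K s = fun i : {i // i ∈ s} =>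
        connectedComponentIn Vᶜ ((h.nt i).nonempty.choose) := by
      funext i
      exact (h3 i).symm
    rw [h2]
    exact h1

theorem not_mem_of_single (h : Comps V K) {z : ℂ} (hz : connectedComponentIn Vᶜ z = {z}) (i : ι) :
    z ∉ K i := by
  intro hi
  have h1 := (h.cc i z hi).2
  rw [hz] at h1
  have h2 := h.nt i
  rw [← h1] at h2
  exact not_nontrivial_singleton h2

/-- a component which contains `p` and another point meets small circles around `p` -/
theorem meets_sphere (h : Comps V K) {i : ι} {p : ℂ} (hp : p ∈ K i) :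
    ∃ ρ > 0, ∀ t, 0 ≤ t → t < ρ → (K i ∩ sphere p t).Nonempty := by
  obtain ⟨q, hq, hqp⟩ := (h.nt i).exists_ne p
  refine ⟨dist q p, dist_pos.2 hqp, fun t ht0 ht => ?_⟩
  have h1 := ((h.conn i).isPreconnected.image (fun w => dist w p)
    (continuous_id.dist continuous_const).continuousOn).ordConnected
  obtain ⟨w, hw, hwt⟩ := h1.out ⟨p, hp, rfl⟩ ⟨q, hq, rfl⟩
    (show t ∈ Icc (dist p p) (dist q p) from ⟨by rw [dist_self]; exact ht0, ht.le⟩)
  exact ⟨w, hw, mem_sphere.2 hwt⟩

end Comps

/-- the discs of a stage as a finite family -/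
def disF (s : Finset ι) (c : ι → ℂ) (r : ι → ℝ) : {i // i ∈ s} → ℂ × ℝ := fun i => (c i, r i)

namespace Stage

variable {V : Set ℂ} {K : ι → Set ℂ} {s : Finset ι} {c : ι → ℂ} {r : ι → ℝ} {f : ℂ → ℂ}

theorem dom_dis : dom (discs (disF s c r)) = (⋃ i ∈ s, closedBall (c i) (r i))ᶜ := by
  ext z
  simp only [dom, discs, disF, mem_compl_iff, mem_iUnion, Subtype.exists, exists_prop]

theorem lmap (h : Stage K s c r f) : LMap (Comps.sub K s) (discs (disF s c r)) f where
  sig := by rw [Comps.dom_sub]; exact h.sig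
  img := by rw [Comps.dom_sub, dom_dis]; exact h.img
  lab i := by rw [Comps.dom_sub]; exact h.lab i i.2

theorem famD (h : Stage K s c r f) : Fam (discs (disF s c r)) where
  cpt i := isCompact_discs _ i
  conn i := ⟨⟨c i, mem_closedBall_self (h.rpos i i.2).le⟩, (convex_closedBall _ _).isPreconnected⟩
  nt i := by
    have hr := h.rpos i i.2
    refine ⟨c i, mem_closedBall_self hr.le, c i + (r i : ℂ), ?_, ?_⟩
    · rw [discs, mem_closedBall, dist_eq_norm]
      simp only [disF, add_sub_cancel_left, Complex.norm_real, Real.norm_eq_abs, abs_of_pos hr]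
      exact le_rfl
    · intro he
      have : (r i : ℂ) = 0 := by
        have h1 := congrArg (fun w => w - c i) he
        simpa using h1.symm
      exact hr.ne' (by exact_mod_cast this)
  disj i j hij := h.dis i i.2 j j.2 fun he => hij (Subtype.ext he)
  compl := preconn_iUnion (fun i => isCompact_discs _ i)
    (fun i j hij => h.dis i i.2 j j.2 fun he => hij (Subtype.ext he))
    fun i => preconn_convex (isCompact_discs _ i) (convex_closedBall _ _)

theorem rest_eq (p : ℂ) (t : ℝ) : rest (Comps.sub K s) (disF s c r) f p t = restF K s c r f p t := by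
  rw [rest, restF, Comps.dom_sub]
  congr 1
  ext y
  simp only [mem_iUnion, Subtype.exists, Comps.sub, discs, disF]

variable (hC : Comps V K) (h : Stage K s c r f)

include hC h in
theorem dist_le {p : ℂ} {t ε : ℝ} (hε : 0 ≤ ε)
    (hL : ∀ φ : ℂ → ℝ, LipschitzWith 1 φ → volume (φ '' restF K s c r f p t) ≤ ENNReal.ofReal ε)
    {i : ι} (his : i ∈ s) (hp : p ∈ K i) (hi : (K i ∩ sphere p t).Nonempty) {w : ℂ} (hw : w ∈ V)
    (hwt : w ∈ closedBall p t) : dist (f w) (c i) ≤ r i + ε :=
  dist_le_of_mem (hC.fam s) h.famD h.lmap (fun i => (h.rpos i i.2).le) hε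
    (fun φ hφ => by rw [rest_eq]; exact hL φ hφ) (i := ⟨i, his⟩) hp hi
    (by rw [Comps.dom_sub]; exact hC.subset_domF s hw) hwt

include hC h in
theorem exists_center' {p : ℂ} {t ε : ℝ} (ht : 0 ≤ t) (hε : 0 ≤ ε)
    (hL : ∀ φ : ℂ → ℝ, LipschitzWith 1 φ → volume (φ '' restF K s c r f p t) ≤ ENNReal.ofReal ε)
    (hp : ∀ i, p ∉ K i) : ∃ a : ℂ, ∀ w ∈ V, w ∈ closedBall p t → dist (f w) a ≤ ε := by
  obtain ⟨a, ha⟩ := exists_center (hC.fam s) h.famD h.lmap (fun i => (h.rpos i i.2).le) ht hε
    (fun φ hφ => by rw [rest_eq]; exact hL φ hφ) (fun i => hp i)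
  exact ⟨a, fun w hw hwt => ha w (by rw [Comps.dom_sub]; exact hC.subset_domF s hw) hwt⟩

end Stage

section

variable {V : Set ℂ} {K : ι → Set ℂ} {F : ℕ → Finset ι} {c : ℕ → ι → ℂ} {r : ℕ → ι → ℝ}
  {f : ℕ → ℂ → ℂ} {g : ℂ → ℂ} {l : Filter ℕ} {c' : ι → ℂ} {r' : ι → ℝ}

/-- **(7), final form**: the limit of the stages is a circle domain map -/
theorem isCircle_of_stages [l.NeBot] (hC : Comps V K) (hF : ∀ i, ∀ᶠ n in l, i ∈ F n)
    (hst : ∀ᶠ n in l, Stage K (F n) (c n) (r n) (f n)) (hS4 : S4 V K F c r f l)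
    (hg : Sig V g) (hlim : TendstoLocallyUniformlyOn f g l V)
    (hc : ∀ i, Tendsto (fun n => c n i) l (𝓝 (c' i)))
    (hr : ∀ i, Tendsto (fun n => r n i) l (𝓝 (r' i))) :
    IsCircleDomainFinitePart (g '' V) := by
  have hpt : ∀ z ∈ V, Tendsto (fun n => f n z) l (𝓝 (g z)) := fun z hz => hlim.tendsto_at hz
  have hgc : Tendsto g (cocompact ℂ) (cocompact ℂ) := hg.toU.tendsto_cocompact
  refine Ends_897.isCircleDomain_image hC.ext hg.hol hg.inj hgc fun z hz => ?_
  rcases hC.all z hz with h1 | ⟨i, hi⟩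
  · -- a point component
    have hp : ∀ i, z ∉ K i := hC.not_mem_of_single h1
    have hosc : ∀ ε > 0, ∃ δ > 0, ∀ w ∈ V ∩ ball z δ, ∀ w' ∈ V ∩ ball z δ,
        dist (g w) (g w') ≤ ε := by
      intro ε hε
      obtain ⟨δ, hδ, hev⟩ := hS4 z hz (ε / 2) (by positivity)
      refine ⟨δ, hδ, fun w hw w' hw' => ?_⟩
      have h2 : Tendsto (fun n => dist (f n w) (f n w')) l (𝓝 (dist (g w) (g w'))) :=
        (hpt w hw.1).dist (hpt w' hw'.1)
      refine le_of_tendsto h2 ?_
      filter_upwards [hev, hst] with n hn hs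
      obtain ⟨t, ht1, -, hL⟩ := hn
      obtain ⟨a, ha⟩ := Stage.exists_center' hC hs (hδ.le.trans ht1.le) (by positivity) hL hp
      have h3 := ha w hw.1 (ball_subset_closedBall (ball_subset_ball ht1.le hw.2))
      have h4 := ha w' hw'.1 (ball_subset_closedBall (ball_subset_ball ht1.le hw'.2))
      have h5 := dist_triangle_right (f n w) (f n w') a
      linarith
    have hcc : Ends_897.eF V z = 𝓝 z ⊓ 𝓟 V := by
      rw [Ends_897.eF, h1, nhdsSet_singleton]
    have hne : (Ends_897.eF V z).NeBot := Ends_897.eF_neBot hC.ext hz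
    have hcauchy : Cauchy (map g (Ends_897.eF V z)) := by
      rw [Metric.cauchy_iff]
      refine ⟨hne.map g, fun ε hε => ?_⟩
      obtain ⟨δ, hδ, hd⟩ := hosc (ε / 2) (by positivity)
      refine ⟨g '' (V ∩ ball z δ), image_mem_map ?_, ?_⟩
      · rw [hcc, inter_comm]
        exact inter_mem_inf (ball_mem_nhds z hδ) (mem_principal_self V)
      · rintro _ ⟨w, hw, rfl⟩ _ ⟨w', hw', rfl⟩
        exact lt_of_le_of_lt (hd w hw w' hw') (by linarith)
    obtain ⟨a, ha⟩ := CompleteSpace.complete hcauchy
    refine ⟨a, 0, le_rfl, fun ε hε => ?_, by simp⟩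
    have h2 : Tendsto g (Ends_897.eF V z) (𝓝 a) := ha
    filter_upwards [h2 (ball_mem_nhds a hε)] with w hw
    rw [zero_add]
    exact hw
  · -- a nondegenerate component
    have hK := (hC.cc i z hi).2
    have hr0 : 0 ≤ r' i := by
      refine ge_of_tendsto (hr i) ?_
      filter_upwards [hF i, hst] with n hn hs using (hs.rpos i hn).le
    refine ⟨c' i, r' i, hr0, fun ε hε => ?_, ?_⟩
    · rw [Ends_897.eF, hK]
      have h2 : ∀ᶠ w in 𝓝ˢ (K i), w ∈ V → dist (g w) (c' i) < r' i + ε := by
        rw [eventually_nhdsSet_iff_forall]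
        intro p hp
        have hpV : p ∉ V := (hC.cc i p hp).1
        obtain ⟨ρ, hρ, hmeet⟩ := hC.meets_sphere hp
        obtain ⟨δ, hδ, hev⟩ := hS4 p hpV (min (ε / 2) ρ) (lt_min (by positivity) hρ)
        filter_upwards [ball_mem_nhds p hδ] with w hw hwV
        have h3 : Tendsto (fun n => dist (f n w) (c n i)) l (𝓝 (dist (g w) (c' i))) :=
          (hpt w hwV).dist (hc i)
        have h4 : Tendsto (fun n => r n i + ε / 2) l (𝓝 (r' i + ε / 2)) :=
          (hr i).add_const _
        have h5 : dist (g w) (c' i) ≤ r' i + ε / 2 := by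
          refine le_of_tendsto_of_tendsto h3 h4 ?_
          filter_upwards [hev, hst, hF i] with n hn hs hin
          obtain ⟨t, ht1, ht2, hL⟩ := hn
          have h6 := Stage.dist_le hC hs (le_min (by positivity) hρ.le) hL hin hp
            (hmeet t (hδ.le.trans ht1.le) (ht2.trans_le (min_le_right _ _))) hwV
            (ball_subset_closedBall (ball_subset_ball ht1.le hw))
          exact h6.trans (by gcongr; exact min_le_left _ _)
        linarith
      rw [eventually_inf_principal]
      exact h2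
    · -- the open disc is omitted
      rw [disjoint_left]
      intro w hw hwV
      obtain ⟨R, hR, hRV⟩ := Uni231.exists_Ext_subset hC.ext
      have hev : ∀ᶠ n in l, w ∉ f n '' V := by
        have h6 : Tendsto (fun n => dist w (c n i)) l (𝓝 (dist w (c' i))) :=
          tendsto_const_nhds.dist (hc i)
        have h7 : ∀ᶠ n in l, dist w (c n i) < r n i := h6.eventually_lt (hr i) hw
        filter_upwards [h7, hst, hF i] with n hn hs hin
        rintro ⟨v, hv, hvw⟩
        have h8 : w ∈ f n '' domF K (F n) := ⟨v, hC.subset_domF _ hv, hvw⟩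
        rw [hs.img] at h8
        exact h8 (mem_iUnion₂.2 ⟨i, hin, mem_closedBall.2 hn.le⟩)
      refine Uni231.not_mem_image_of_tendsto (Uk := fun _ => V) hC.ext.1
        hC.ext.2.1.isPreconnected hR hRV ?_ (Eventually.of_forall fun _ => hRV)
        (fun C hC' _ => Eventually.of_forall fun _ => hC') hlim hev tendsto_const_nhds hwV
      filter_upwards [hst] with n hs
      exact hs.sig.toU.mono (hC.subset_domF _)

end

end Crest.Agent.R105.Cof_515
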