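import Mathlib
/-! R105 HOP (helper190): hop lemma for fat solids. Plain averaging, no logarithm. -/
set_option autoImplicit false
open MeasureTheory Set ENNReal Metric
namespace Crest.Agent.R105.Hop_190

set_option linter.unusedSectionVars false
set_option linter.unusedVariables false
variable {X ι : Type*}

theorem cs_fin (s : Finset ι) (a b : ι → ℝ≥0∞) :
    (∑ j ∈ s, a j * b j) ^ 2 ≤ (∑ j ∈ s, a j ^ 2) * ∑ j ∈ s, b j ^ 2 := by
  have h := ENNReal.inner_le_Lp_mul_Lq s a b (p := 2) (q := 2) Real.HolderConjugate.two_two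
  calc (∑ j ∈ s, a j * b j) ^ 2
      ≤ ((∑ j ∈ s, a j ^ (2:ℝ)) ^ (1 / (2:ℝ)) * (∑ j ∈ s, b j ^ (2:ℝ)) ^ (1 / (2:ℝ))) ^ 2 := by
        gcongr
    _ = (∑ j ∈ s, a j ^ 2) * ∑ j ∈ s, b j ^ 2 := by
        rw [mul_pow, ← ENNReal.rpow_natCast, ← ENNReal.rpow_mul, ← ENNReal.rpow_natCast,
          ← ENNReal.rpow_mul]
        norm_num

/-- squared Cauchy–Schwarz for series in `ℝ≥0∞` -/
theorem cs (a b : ι → ℝ≥0∞) :
    (∑' j, a j * b j) ^ 2 ≤ (∑' j, a j ^ 2) * ∑' j, b j ^ 2 := by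
  have h1 : ∑' j, a j * b j ≤ ((∑' j, a j ^ 2) * ∑' j, b j ^ 2) ^ ((2:ℝ)⁻¹) := by
    rw [ENNReal.tsum_eq_iSup_sum]
    refine iSup_le fun s => ?_
    rw [ENNReal.le_rpow_inv_iff (by norm_num : (0:ℝ) < 2)]
    have h2 := (cs_fin s a b).trans
      (mul_le_mul' (ENNReal.sum_le_tsum s) (ENNReal.sum_le_tsum (f := fun j => b j ^ 2) s))
    calc (∑ j ∈ s, a j * b j) ^ (2:ℝ) = (∑ j ∈ s, a j * b j) ^ 2 := by
          rw [← ENNReal.rpow_natCast]; norm_num
      _ ≤ _ := h2
  calc (∑' j, a j * b j) ^ 2 ≤ (((∑' j, a j ^ 2) * ∑' j, b j ^ 2) ^ ((2:ℝ)⁻¹)) ^ 2 := by gcongr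
    _ = _ := by
        rw [← ENNReal.rpow_natCast, ← ENNReal.rpow_mul]
        norm_num

/-- the set of parameters `s ∈ I` at which the level set `{φ = s}` meets `Q` inside the window -/
def tr (φ : X → ℝ) (W : Set X) (I : Set ℝ) (Q : Set X) : Set ℝ := φ '' (Q ∩ W) ∩ I

/-- sum of the hops over the members of the family met by the level `{φ = s}` in the window -/
noncomputable def hopSum (φ : X → ℝ) (W : Set X) (Q : ι → Set X) (R : ι → ℝ≥0∞) (s : ℝ) : ℝ≥0∞ :=
  ∑' j, R j * (φ '' (Q j ∩ W)).indicator (fun _ => 1) s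

theorem hopSum_ge_of_mem {φ : X → ℝ} {W : Set X} {Q : ι → Set X} {R : ι → ℝ≥0∞} {s : ℝ}
    (F : Finset ι) (hF : ∀ j ∈ F, ∃ z ∈ Q j ∩ W, φ z = s) :
    ∑ j ∈ F, R j ≤ hopSum φ W Q R s := by
  unfold hopSum
  calc ∑ j ∈ F, R j = ∑ j ∈ F, R j * (φ '' (Q j ∩ W)).indicator (fun _ => 1) s := by
        refine Finset.sum_congr rfl fun j hj => ?_
        obtain ⟨z, hz, hs⟩ := hF j hj
        have hmem : s ∈ φ '' (Q j ∩ W) := ⟨z, hz, hs⟩
        rw [indicator_of_mem hmem, mul_one]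
    _ ≤ _ := ENNReal.sum_le_tsum F

section
variable [MetricSpace X] [MeasurableSpace X] [BorelSpace X]

/-- **Hop lemma**, squared form. -/
theorem hop_sq [Countable ι] (μ : Measure X) (Q : ι → Set X) (hQ : ∀ j, IsCompact (Q j))
    (hd : Pairwise (Function.onFun Disjoint Q)) (R : ι → ℝ≥0∞)
    {φ : X → ℝ} (hφ : Continuous φ) {I : Set ℝ} (hI : MeasurableSet I)
    {W W' : Set X} (hW : IsClosed W) (hW' : MeasurableSet W') {τ : ℝ≥0∞} (hτ : τ ≠ 0) (hτ' : τ ≠ ∞)
    (hfat : ∀ j, (Q j ∩ W).Nonempty → τ * volume (tr φ W I (Q j)) ^ 2 ≤ μ (Q j ∩ W')) :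
    (∫⁻ s in I, hopSum φ W Q R s) ^ 2 ≤
      (∑' j, {j | (Q j ∩ W).Nonempty}.indicator (fun j => R j ^ 2) j) * (τ⁻¹ * μ W') := by
  classical
  have hm : ∀ j, MeasurableSet (φ '' (Q j ∩ W)) := fun j =>
    (((hQ j).inter_right hW).image hφ).isClosed.measurableSet
  set m : ι → ℝ≥0∞ := fun j => volume (tr φ W I (Q j)) with hmdef
  set N : Set ι := {j | (Q j ∩ W).Nonempty} with hN
  have hm0 : ∀ j, j ∉ N → m j = 0 := by
    intro j hj
    have : Q j ∩ W = ∅ := not_nonempty_iff_eq_empty.1 hj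
    simp [hmdef, tr, this]
  have h1 : ∫⁻ s in I, hopSum φ W Q R s = ∑' j, N.indicator R j * m j := by
    unfold hopSum
    rw [lintegral_tsum]
    · refine tsum_congr fun j => ?_
      rw [lintegral_const_mul _ (measurable_const.indicator (hm j)),
        lintegral_indicator (hm j), Measure.restrict_restrict (hm j)]
      simp only [lintegral_const, one_mul, Measure.restrict_apply MeasurableSet.univ, univ_inter]
      by_cases hj : j ∈ N
      · rw [indicator_of_mem hj]; rfl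
      · rw [indicator_of_notMem hj, zero_mul]
        have := hm0 j hj
        simp only [hmdef, tr] at this
        rw [this, mul_zero]
    · intro j
      exact (measurable_const.mul (measurable_const.indicator (hm j))).aemeasurable
  have h2 : ∑' j, m j ^ 2 ≤ τ⁻¹ * μ W' := by
    have h3 : ∀ j, m j ^ 2 ≤ τ⁻¹ * μ (Q j ∩ W') := by
      intro j
      by_cases hj : j ∈ N
      · have := hfat j hj
        calc m j ^ 2 = τ⁻¹ * (τ * m j ^ 2) := by
              rw [← mul_assoc, ENNReal.inv_mul_cancel hτ hτ', one_mul]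
          _ ≤ _ := by gcongr
      · rw [hm0 j hj]; simp
    calc ∑' j, m j ^ 2 ≤ ∑' j, τ⁻¹ * μ (Q j ∩ W') := ENNReal.tsum_le_tsum h3
      _ = τ⁻¹ * ∑' j, μ (Q j ∩ W') := ENNReal.tsum_mul_left
      _ = τ⁻¹ * μ (⋃ j, Q j ∩ W') := by
          rw [measure_iUnion (fun i j hij => (hd hij).mono inter_subset_left inter_subset_left)
            (fun j => (hQ j).isClosed.measurableSet.inter hW')]
      _ ≤ τ⁻¹ * μ W' := by gcongr; exact iUnion_subset fun j => inter_subset_right
  rw [h1]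
  calc (∑' j, N.indicator R j * m j) ^ 2 ≤ (∑' j, N.indicator R j ^ 2) * ∑' j, m j ^ 2 := cs _ _
    _ ≤ _ := by
        gcongr with j
        by_cases hj : j ∈ N
        · rw [indicator_of_mem hj, indicator_of_mem hj]
        · rw [indicator_of_notMem hj, indicator_of_notMem hj]; simp

/-- `K` is `τ`-fat (644's form, radius up to the diameter) -/
def Fat (μ : Measure X) (τ : ℝ≥0∞) (K : Set X) : Prop :=
  ∀ z ∈ K, ∀ ρ : ℝ, 0 < ρ → ENNReal.ofReal ρ ≤ Metric.ediam K →
    τ * ENNReal.ofReal ρ ^ 2 ≤ μ (K ∩ closedBall z ρ)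

omit [BorelSpace X] in
theorem Fat.tr_le {μ : Measure X} {τ : ℝ≥0∞} {K : Set X} (h : Fat μ τ K) {φ : X → ℝ}
    (hφ : LipschitzWith 1 φ) {I : Set ℝ} {r : ℝ} (hr : 0 < r) (hI : volume I ≤ ENNReal.ofReal r)
    {W W' : Set X} (hW' : ∀ z ∈ W, closedBall z r ⊆ W') (hn : (K ∩ W).Nonempty) :
    τ * volume (tr φ W I K) ^ 2 ≤ μ (K ∩ W') := by
  obtain ⟨z, hzK, hzW⟩ := hn
  set m := volume (tr φ W I K) with hm
  have h1 : m ≤ ENNReal.ofReal r := (measure_mono inter_subset_right).trans hI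
  have hmt : m ≠ ∞ := ne_top_of_le_ne_top ENNReal.ofReal_ne_top h1
  have h2 : m ≤ Metric.ediam K := by
    calc m ≤ volume (φ '' K) := measure_mono
            (inter_subset_left.trans (image_mono inter_subset_left))
      _ ≤ Metric.ediam (φ '' K) := Real.volume_le_diam _
      _ ≤ 1 * Metric.ediam K := hφ.ediam_image_le K
      _ = Metric.ediam K := one_mul _
  rcases eq_or_ne m 0 with h0 | h0
  · rw [h0]; simp
  have hpos : 0 < m.toReal := ENNReal.toReal_pos h0 hmt
  have h3 := h z hzK m.toReal hpos (by rwa [ENNReal.ofReal_toReal hmt])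
  rw [ENNReal.ofReal_toReal hmt] at h3
  refine h3.trans (measure_mono (inter_subset_inter_right _ ?_))
  refine (closedBall_subset_closedBall ?_).trans (hW' z hzW)
  exact ENNReal.toReal_le_of_le_ofReal hr.le h1

theorem measurable_hopSum [Countable ι] {Q : ι → Set X} (hQ : ∀ j, IsCompact (Q j))
    (R : ι → ℝ≥0∞) {φ : X → ℝ} (hφ : Continuous φ) {W : Set X} (hW : IsClosed W) :
    Measurable (hopSum φ W Q R) := by
  unfold hopSum
  exact Measurable.tsum fun j => measurable_const.mul (measurable_const.indicator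
    (((hQ j).inter_right hW).image hφ).isClosed.measurableSet)

/-- square sum of the weights of the solids which meet `W` -/
noncomputable def mass (W : Set X) (Q : ι → Set X) (R : ι → ℝ≥0∞) : ℝ≥0∞ :=
  ∑' j, {j | (Q j ∩ W).Nonempty}.indicator (fun j => R j ^ 2) j

omit [BorelSpace X] [MeasurableSpace X] in
theorem mass_mono {W W' : Set X} (h : W ⊆ W') (Q : ι → Set X) (R : ι → ℝ≥0∞) :
    mass W Q R ≤ mass W' Q R := by
  unfold mass
  refine ENNReal.tsum_le_tsum fun j => ?_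
  refine indicator_le_indicator_of_subset ?_ (fun _ => bot_le) j
  intro i hi
  exact hi.mono (inter_subset_inter_right _ h)

omit [BorelSpace X] [MeasurableSpace X] in
theorem mass_le (W : Set X) (Q : ι → Set X) (R : ι → ℝ≥0∞) :
    mass W Q R ≤ ∑' j, R j ^ 2 :=
  ENNReal.tsum_le_tsum fun j => indicator_le_self _ _ j

/-- **Hop lemma for fat solids**, all windows. -/
theorem hop_fat [Countable ι] (μ : Measure X) (Q : ι → Set X) (hQ : ∀ j, IsCompact (Q j))
    (hd : Pairwise (Function.onFun Disjoint Q)) {τ : ℝ≥0∞} (hτ : τ ≠ 0) (hτ' : τ ≠ ∞)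
    (hfat : ∀ j, Fat μ τ (Q j)) (R : ι → ℝ≥0∞)
    {φ : X → ℝ} (hφ : LipschitzWith 1 φ) {I : Set ℝ} (hI : MeasurableSet I)
    {r : ℝ} (hr : 0 < r) (hIr : volume I ≤ ENNReal.ofReal r) (p : X) :
    (∫⁻ s in I, hopSum φ (closedBall p (2 * r)) Q R s) ^ 2 ≤
      mass (closedBall p (2 * r)) Q R * (τ⁻¹ * μ (closedBall p (3 * r))) := by
  refine hop_sq μ Q hQ hd R hφ.continuous hI isClosed_closedBall
    isClosed_closedBall.measurableSet hτ hτ' fun j hj => ?_
  refine (hfat j).tr_le hφ hr hIr (fun z hz => ?_) hj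
  intro y hy
  rw [mem_closedBall] at hy hz ⊢
  linarith [dist_triangle y z p]

/-- Markov form: the bad set of levels is small. -/
theorem hop_bad [Countable ι] (μ : Measure X) (Q : ι → Set X) (hQ : ∀ j, IsCompact (Q j))
    (hd : Pairwise (Function.onFun Disjoint Q)) {τ : ℝ≥0∞} (hτ : τ ≠ 0) (hτ' : τ ≠ ∞)
    (hfat : ∀ j, Fat μ τ (Q j)) (R : ι → ℝ≥0∞)
    {φ : X → ℝ} (hφ : LipschitzWith 1 φ) {I : Set ℝ} (hI : MeasurableSet I)
    {r : ℝ} (hr : 0 < r) (hIr : volume I ≤ ENNReal.ofReal r) (p : X) (lam : ℝ≥0∞) :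
    (lam * volume {s ∈ I | lam ≤ hopSum φ (closedBall p (2 * r)) Q R s}) ^ 2 ≤
      mass (closedBall p (2 * r)) Q R * (τ⁻¹ * μ (closedBall p (3 * r))) := by
  refine le_trans ?_ (hop_fat μ Q hQ hd hτ hτ' hfat R hφ hI hr hIr p)
  gcongr
  have h := mul_meas_ge_le_lintegral (μ := volume.restrict I)
    (measurable_hopSum hQ R hφ.continuous (isClosed_closedBall (x := p) (ε := 2 * r))) lam
  refine le_trans (le_of_eq ?_) h
  rw [Measure.restrict_apply' hI]
  congr 2
  ext s
  constructor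
  · rintro ⟨h1, h2⟩; exact ⟨h2, h1⟩
  · rintro ⟨h1, h2⟩; exact ⟨h2, h1⟩

/-- There is a good level off any null set. -/
theorem exists_good [Countable ι] (μ : Measure X) (Q : ι → Set X) (hQ : ∀ j, IsCompact (Q j))
    (hd : Pairwise (Function.onFun Disjoint Q)) {τ : ℝ≥0∞} (hτ : τ ≠ 0) (hτ' : τ ≠ ∞)
    (hfat : ∀ j, Fat μ τ (Q j)) (R : ι → ℝ≥0∞)
    {φ : X → ℝ} (hφ : LipschitzWith 1 φ) {I : Set ℝ} (hI : MeasurableSet I)
    {r : ℝ} (hr : 0 < r) (hIr : volume I = ENNReal.ofReal r) (p : X) {N : Set ℝ}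
    (hN : volume N = 0) :
    ∃ s ∈ I, s ∉ N ∧ (hopSum φ (closedBall p (2 * r)) Q R s) ^ 2 ≤
      mass (closedBall p (2 * r)) Q R * (τ⁻¹ * μ (closedBall p (3 * r))) /
        ENNReal.ofReal r ^ 2 := by
  have hr0 : ENNReal.ofReal r ≠ 0 := by simpa using hr
  have hne : volume.restrict I ≠ 0 := by
    intro h
    have : volume.restrict I univ = 0 := by rw [h]; rfl
    rw [Measure.restrict_apply_univ, hIr] at this
    exact hr0 this
  have : IsFiniteMeasure (volume.restrict I) := ⟨by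
    rw [Measure.restrict_apply_univ, hIr]; exact ENNReal.ofReal_lt_top⟩
  have hN' : volume.restrict I (N ∪ Iᶜ) = 0 := by
    refine le_antisymm ((measure_union_le _ _).trans ?_) bot_le
    rw [Measure.restrict_apply' hI (t := Iᶜ)]
    simp only [compl_inter_self, measure_empty, add_zero]
    exact (Measure.restrict_apply_le _ _).trans hN.le
  obtain ⟨s, hs, hle⟩ := exists_notMem_null_le_laverage hne
    (measurable_hopSum hQ R hφ.continuous (isClosed_closedBall (x := p) (ε := 2 * r))).aemeasurable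
    hN'
  have hs1 : s ∉ N := fun h => hs (Or.inl h)
  have hs2 : s ∈ I := by
    by_contra h
    exact hs (Or.inr h)
  refine ⟨s, hs2, hs1, ?_⟩
  have h1 := hop_fat μ Q hQ hd hτ hτ' hfat R hφ hI hr hIr.le p
  rw [laverage_eq, Measure.restrict_apply_univ, hIr] at hle
  calc (hopSum φ (closedBall p (2 * r)) Q R s) ^ 2
      ≤ ((∫⁻ s in I, hopSum φ (closedBall p (2 * r)) Q R s) / ENNReal.ofReal r) ^ 2 := by gcongr
    _ = (∫⁻ s in I, hopSum φ (closedBall p (2 * r)) Q R s) ^ 2 / ENNReal.ofReal r ^ 2 := by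
        rw [div_eq_mul_inv, div_eq_mul_inv, mul_pow, ENNReal.inv_pow]
    _ ≤ _ := by gcongr

omit [BorelSpace X] [MeasurableSpace X] in
/-- the mass near a point outside the solids tends to zero -/
theorem mass_small {Q : ι → Set X} (hQ : ∀ j, IsClosed (Q j)) {R : ι → ℝ≥0∞}
    (hR : ∑' j, R j ^ 2 ≠ ∞) {p : X} (hp : ∀ j, R j ≠ 0 → p ∉ Q j) {ε : ℝ≥0∞} (hε : 0 < ε) :
    ∃ δ > 0, ∀ r ≤ δ, mass (closedBall p r) Q R < ε := by
  classical
  have h1 := ENNReal.tendsto_tsum_compl_atTop_zero hR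
  obtain ⟨F, hF⟩ := (h1.eventually (gt_mem_nhds hε)).exists
  have h2 : ∀ᶠ r : ℝ in nhdsWithin 0 (Ioi 0), ∀ j ∈ F, R j ≠ 0 → Disjoint (closedBall p r) (Q j) := by
    rw [Filter.eventually_all_finset]
    intro j _
    by_cases hj : R j = 0
    · exact Filter.Eventually.of_forall fun r h => absurd hj h
    · obtain ⟨δ, hδ, hb⟩ := Metric.nhds_basis_closedBall.mem_iff.1
        ((hQ j).isOpen_compl.mem_nhds (hp j hj))
      have : ∀ᶠ r : ℝ in nhdsWithin 0 (Ioi 0), r ≤ δ :=
        (Filter.Eventually.filter_mono nhdsWithin_le_nhds (Iic_mem_nhds hδ))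
      filter_upwards [this] with r hr _
      exact (disjoint_compl_left.mono_left (closedBall_subset_closedBall hr |>.trans hb))
  obtain ⟨δ, hδ1, hδ2⟩ := (h2.and self_mem_nhdsWithin).exists
  refine ⟨δ, hδ2, fun r hr => lt_of_le_of_lt ?_ hF⟩
  have h3 : ∑' b : {x // x ∉ F}, R b ^ 2 = ∑' j, {j | j ∉ F}.indicator (fun j => R j ^ 2) j :=
    tsum_subtype {j | j ∉ F} (fun j => R j ^ 2)
  rw [h3]
  refine (mass_mono (closedBall_subset_closedBall hr) Q R).trans ?_
  refine ENNReal.tsum_le_tsum fun j => ?_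
  by_cases hj : j ∈ F
  · by_cases hR0 : R j = 0
    · have : {j | (Q j ∩ closedBall p δ).Nonempty}.indicator (fun j => R j ^ 2) j ≤ R j ^ 2 :=
        indicator_le_self _ _ j
      rw [hR0] at this
      exact this.trans (by simp)
    · have hd := hδ1 j hj hR0
      rw [indicator_of_notMem (s := {j | (Q j ∩ closedBall p δ).Nonempty})]
      · exact bot_le
      · intro h
        exact not_nonempty_iff_eq_empty.2 (by rw [inter_comm]; exact hd.inter_eq) h
  · rw [indicator_of_mem (s := {j | j ∉ F}) hj]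
    exact indicator_le_self _ _ j

end

/-- discs, axis-parallel squares (sup norm of `ℝ × ℝ`) are fat, any norm on a plane -/
theorem fat_closedBall {E : Type*} [NormedAddCommGroup E] [NormedSpace ℝ E]
    [FiniteDimensional ℝ E] [MeasurableSpace E] [BorelSpace E] (h2 : Module.finrank ℝ E = 2)
    (μ : Measure E) [μ.IsAddHaarMeasure] (c : E) (s : ℝ) :
    Fat μ (μ (ball 0 1) / 4) (closedBall c s) := by
  intro z hz ρ hρ hd
  rw [mem_closedBall] at hz
  have hs : 0 ≤ s := dist_nonneg.trans hz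
  have h1 : ρ ≤ 2 * s := by
    have : ENNReal.ofReal ρ ≤ ENNReal.ofReal (2 * s) := by
      refine hd.trans (ediam_le fun x hx y hy => ?_)
      rw [mem_closedBall] at hx hy
      rw [edist_dist]
      apply ENNReal.ofReal_le_ofReal
      linarith [dist_triangle_right x y c]
    exact (ENNReal.ofReal_le_ofReal_iff (by positivity)).1 this
  obtain ⟨z', hz1, hz2⟩ : ∃ z' : E, dist z' c + ρ / 2 ≤ s ∧ dist z' z + ρ / 2 ≤ ρ := by
    by_cases hc : dist z c ≤ ρ / 2
    · refine ⟨c, by rw [dist_self]; linarith, ?_⟩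
      rw [dist_comm]; linarith
    · push Not at hc
      have hpos : 0 < dist z c := lt_of_le_of_lt (by positivity) hc
      refine ⟨AffineMap.lineMap z c (ρ / 2 / dist z c), ?_, ?_⟩
      · rw [dist_lineMap_right, Real.norm_eq_abs, abs_of_nonneg]
        · have : (1 - ρ / 2 / dist z c) * dist z c = dist z c - ρ / 2 := by
            field_simp
          rw [this]; linarith
        · rw [sub_nonneg, div_le_one hpos]; exact hc.le
      · rw [dist_lineMap_left, Real.norm_eq_abs, abs_of_nonneg (by positivity)]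
        have : ρ / 2 / dist z c * dist z c = ρ / 2 := by field_simp
        rw [this]; linarith
  have h3 : closedBall z' (ρ / 2) ⊆ closedBall c s ∩ closedBall z ρ := by
    intro y hy
    rw [mem_closedBall] at hy
    constructor <;> rw [mem_closedBall]
    · linarith [dist_triangle y z' c]
    · linarith [dist_triangle y z' z]
  refine le_trans (le_of_eq ?_) (measure_mono h3)
  rw [Measure.addHaar_closedBall _ _ (by positivity), h2, ← ENNReal.ofReal_pow hρ.le, div_pow,
    ENNReal.ofReal_div_of_pos (by norm_num)]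
  rw [show (2:ℝ) ^ 2 = 4 by norm_num, ENNReal.ofReal_ofNat, div_eq_mul_inv, div_eq_mul_inv]
  ring

end Crest.Agent.R105.Hop_190
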