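import Mathlib
import Crest.Agent.R105.Cof1_430
import Crest.Agent.R105.Cof3_430
import Crest.Agent.R105.Hop1_190

/-!
# Row 105, COFAT, part 4 (helper430): Courant-Lebesgue with hops, one stage, uniform

`stage` : (S4) of 644 #9298 in the literal form of 515's `CofI_515`, uniform over all finite
stages with area constant `A`.
-/

set_option autoImplicit false

open Set Filter Metric Topology MeasureTheory
open scoped ENNReal Real

namespace Crest.Agent.R105.Cof_430

open Top1_8 (Fat)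

variable {ι : Type*} {K : ι → Set ℂ} {τ : ℝ}

/-- the radii of the circles about `p` which meet `Q` -/
def rad (p : ℂ) (Q : Set ℂ) : Set ℝ := (fun z => dist z p) '' Q

theorem mem_rad {p : ℂ} {Q : Set ℂ} {t : ℝ} : t ∈ rad p Q ↔ (Q ∩ sphere p t).Nonempty :=
  ⟨fun ⟨z, hz, h⟩ => ⟨z, hz, h⟩, fun ⟨z, hz, h⟩ => ⟨z, hz, h⟩⟩

theorem measurableSet_rad (p : ℂ) {Q : Set ℂ} (hQ : IsCompact Q) : MeasurableSet (rad p Q) :=
  (hQ.image (continuous_id.dist continuous_const)).isClosed.measurableSet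

theorem vol_rad (p : ℂ) {Q : Set ℂ} (hQ : IsCompact Q) : volume (rad p Q) ≤ ENNReal.ofReal (diam Q) := by
  refine (Real.volume_le_diam _).trans ?_
  have h1 : LipschitzWith 1 fun z : ℂ => dist z p := LipschitzWith.dist_left p
  have h2 := h1.ediam_image_le Q
  rw [ENNReal.coe_one, one_mul] at h2
  refine h2.trans ?_
  rw [Metric.diam, ENNReal.ofReal_toReal hQ.isBounded.ediam_ne_top]

/-- solid number `i` meets the closed annulus `a ≤ |z-p| ≤ 2a` and does not contain `p` -/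
def Meets (K : ι → Set ℂ) (p : ℂ) (a : ℝ) (i : ι) : Prop :=
  p ∉ K i ∧ ∃ z ∈ K i, a ≤ dist z p ∧ dist z p ≤ 2 * a

theorem fat_rad (hτ : 0 < τ) (hcpt : ∀ i, IsCompact (K i)) (hfat : ∀ i, Fat τ (K i))
    (hnt : ∀ i, (K i).Nontrivial) (p : ℂ) {a : ℝ} (ha : 0 < a) {i : ι} (hi : Meets K p a i) :
    ENNReal.ofReal τ * volume (rad p (K i) ∩ Ioo a (2 * a)) ^ 2 ≤
      volume (K i ∩ closedBall p (3 * a)) := by
  obtain ⟨-, z, hz, -, hz2⟩ := hi
  have hd : 0 < diam (K i) := Metric.diam_pos (hnt i) (hcpt i).isBounded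
  set r := min (diam (K i)) a with hr
  have hr0 : 0 < r := lt_min hd ha
  have h1 : volume (rad p (K i) ∩ Ioo a (2 * a)) ≤ ENNReal.ofReal r := by
    rcases le_total (diam (K i)) a with h | h
    · rw [hr, min_eq_left h]
      exact (measure_mono inter_subset_left).trans (vol_rad p (hcpt i))
    · rw [hr, min_eq_right h]
      refine (measure_mono inter_subset_right).trans ?_
      rw [Real.volume_Ioo]
      exact ENNReal.ofReal_le_ofReal (by linarith)
  have h2 := hfat i z hz r hr0 (min_le_left _ _)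
  calc ENNReal.ofReal τ * volume (rad p (K i) ∩ Ioo a (2 * a)) ^ 2
      ≤ ENNReal.ofReal τ * ENNReal.ofReal r ^ 2 := by gcongr
    _ = ENNReal.ofReal (τ * r ^ 2) := by
        rw [← ENNReal.ofReal_pow hr0.le, ENNReal.ofReal_mul hτ.le]
    _ ≤ volume (K i ∩ closedBall z r) := h2
    _ ≤ volume (K i ∩ closedBall p (3 * a)) := by
        refine measure_mono (inter_subset_inter_right _ (closedBall_subset_closedBall' ?_))
        have := min_le_right (diam (K i)) a
        linarith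

open Classical in
/-- sum of the diameters of the discs attached to the solids met by the circle -/
noncomputable def hopS (K : ι → Set ℂ) (F : Finset ι) (r : ι → ℝ) (p : ℂ) (t : ℝ) : ℝ≥0∞ :=
  ∑ i ∈ F.filter (fun i => p ∉ K i), (rad p (K i)).indicator (fun _ => ENNReal.ofReal (2 * r i)) t

open Classical in
theorem hopS_sq (hτ : 0 < τ) (hcpt : ∀ i, IsCompact (K i)) (hfat : ∀ i, Fat τ (K i))
    (hnt : ∀ i, (K i).Nontrivial) (hdisj : Pairwise (Function.onFun Disjoint K))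
    (p : ℂ) {a : ℝ} (ha : 0 < a) (F : Finset ι) (r : ι → ℝ) :
    (∫⁻ t in Ioo a (2 * a), hopS K F r p t) ^ 2 ≤
      (∑ i ∈ F.filter (Meets K p a), ENNReal.ofReal (r i) ^ 2) *
        (4 * (ENNReal.ofReal τ)⁻¹ * volume (closedBall p (3 * a))) := by
  have e1 : ∫⁻ t in Ioo a (2 * a), hopS K F r p t =
      ∑ i ∈ F.filter (fun i => p ∉ K i),
        ENNReal.ofReal (2 * r i) * volume (rad p (K i) ∩ Ioo a (2 * a)) := by
    unfold hopS
    rw [lintegral_finsetSum]
    · refine Finset.sum_congr rfl fun i _ => ?_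
      rw [lintegral_indicator (measurableSet_rad p (hcpt i)), setLIntegral_const,
        Measure.restrict_apply (measurableSet_rad p (hcpt i))]
    · intro i _
      exact measurable_const.indicator (measurableSet_rad p (hcpt i))
  have e2 : ∑ i ∈ F.filter (fun i => p ∉ K i),
        ENNReal.ofReal (2 * r i) * volume (rad p (K i) ∩ Ioo a (2 * a)) =
      ∑ i ∈ F.filter (Meets K p a),
        ENNReal.ofReal (2 * r i) * volume (rad p (K i) ∩ Ioo a (2 * a)) := by
    symm
    refine Finset.sum_subset ?_ ?_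
    · intro i hi
      rw [Finset.mem_filter] at hi ⊢
      exact ⟨hi.1, hi.2.1⟩
    · intro i hi hi'
      rw [Finset.mem_filter] at hi hi'
      have : rad p (K i) ∩ Ioo a (2 * a) = ∅ := by
        rw [eq_empty_iff_forall_notMem]
        rintro t ⟨⟨z, hz, rfl⟩, ht⟩
        exact hi' ⟨hi.1, hi.2, z, hz, ht.1.le, ht.2.le⟩
      rw [this, measure_empty, mul_zero]
  rw [e1, e2]
  refine (Hop_190.cs_fin _ _ _).trans ?_
  have h3 : ∑ i ∈ F.filter (Meets K p a), volume (rad p (K i) ∩ Ioo a (2 * a)) ^ 2 ≤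
      (ENNReal.ofReal τ)⁻¹ * volume (closedBall p (3 * a)) := by
    have hτ0 : ENNReal.ofReal τ ≠ 0 := by
      rw [Ne, ENNReal.ofReal_eq_zero, not_le]; exact hτ
    rw [← ENNReal.mul_le_iff_le_inv hτ0 ENNReal.ofReal_ne_top, Finset.mul_sum]
    calc ∑ i ∈ F.filter (Meets K p a),
          ENNReal.ofReal τ * volume (rad p (K i) ∩ Ioo a (2 * a)) ^ 2
        ≤ ∑ i ∈ F.filter (Meets K p a), volume (K i ∩ closedBall p (3 * a)) := by
          refine Finset.sum_le_sum fun i hi => ?_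
          exact fat_rad hτ hcpt hfat hnt p ha (Finset.mem_filter.1 hi).2
      _ = volume (⋃ i ∈ F.filter (Meets K p a), K i ∩ closedBall p (3 * a)) := by
          rw [measure_biUnion_finset]
          · intro i _ j _ hij
            exact (hdisj hij).mono inter_subset_left inter_subset_left
          · intro i _
            exact (hcpt i).isClosed.measurableSet.inter measurableSet_closedBall
      _ ≤ volume (closedBall p (3 * a)) :=
          measure_mono (iUnion₂_subset fun i _ => inter_subset_right)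
  have h4 : ∑ i ∈ F.filter (Meets K p a), ENNReal.ofReal (2 * r i) ^ 2 =
      4 * ∑ i ∈ F.filter (Meets K p a), ENNReal.ofReal (r i) ^ 2 := by
    rw [Finset.mul_sum]
    refine Finset.sum_congr rfl fun i _ => ?_
    rw [ENNReal.ofReal_mul (by norm_num), mul_pow]
    norm_num
  rw [h4]
  calc _ ≤ 4 * (∑ i ∈ F.filter (Meets K p a), ENNReal.ofReal (r i) ^ 2) *
        ((ENNReal.ofReal τ)⁻¹ * volume (closedBall p (3 * a))) := by gcongr
    _ = _ := by ring

open Classical in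
/-- the energy of a window -/
noncomputable def EW (K : ι → Set ℂ) (F : Finset ι) (r : ι → ℝ) (W : Set ℂ) (f : ℂ → ℂ) (p : ℂ)
    (a : ℝ) : ℝ≥0∞ :=
  (∫⁻ z in {z | dist z p ∈ Ioo a (2 * a)} ∩ W, ‖deriv f z‖ₑ ^ 2) +
    ∑ i ∈ F.filter (Meets K p a), ENNReal.ofReal (r i) ^ 2

theorem measurable_hopS (hcpt : ∀ i, IsCompact (K i)) (p : ℂ) (F : Finset ι) (r : ι → ℝ) :
    Measurable (hopS K F r p) := by
  unfold hopS
  refine Finset.measurable_sum _ fun i _ => ?_
  exact measurable_const.indicator (measurableSet_rad p (hcpt i))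

theorem sq_add_le (x y : ℝ≥0∞) : (x + y) ^ 2 ≤ 2 * (x ^ 2 + y ^ 2) := by
  by_cases hx : x = ∞
  · subst hx; simp
  by_cases hy : y = ∞
  · subst hy; simp
  lift x to NNReal using hx
  lift y to NNReal using hy
  exact_mod_cast (add_sq_le : (x + y) ^ 2 ≤ 2 * (x ^ 2 + y ^ 2))

open Classical in
/-- **one window**: if every circle of the window is long, the window has much energy -/
theorem one_window (hτ : 0 < τ) (hcpt : ∀ i, IsCompact (K i)) (hfat : ∀ i, Fat τ (K i))
    (hnt : ∀ i, (K i).Nontrivial) (hdisj : Pairwise (Function.onFun Disjoint K))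
    (p : ℂ) {a : ℝ} (ha : 0 < a) (F : Finset ι) (r : ι → ℝ) {W : Set ℂ} (hW : IsOpen W)
    (f : ℂ → ℂ) {e : ℝ≥0∞}
    (h : ∀ t ∈ Ioo a (2 * a), e ≤ len W f p t + hopS K F r p t) :
    e ^ 2 ≤ (8 * NNReal.pi + 72 * (ENNReal.ofReal τ)⁻¹ * NNReal.pi) * EW K F r W f p a := by
  set I1 := ∫⁻ t in Ioo a (2 * a), len W f p t with hI1
  set I2 := ∫⁻ t in Ioo a (2 * a), hopS K F r p t with hI2
  set a' := ENNReal.ofReal a with ha'
  have ha0 : a' ≠ 0 := by rw [ha', Ne, ENNReal.ofReal_eq_zero, not_le]; exact ha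
  have hat : a' ≠ ∞ := ENNReal.ofReal_ne_top
  have h1 : e * a' ≤ I1 + I2 := by
    have e1 : ∫⁻ _ in Ioo a (2 * a), e = e * a' := by
      rw [setLIntegral_const, Real.volume_Ioo, ha']
      congr 2; ring
    rw [← e1, hI1, hI2, ← lintegral_add_right _ (measurable_hopS hcpt p F r)]
    exact setLIntegral_mono' measurableSet_Ioo h
  have h2 : I1 ^ 2 ≤ (∫⁻ z in {z | dist z p ∈ Ioo a (2 * a)} ∩ W, ‖deriv f z‖ₑ ^ 2) *
      (4 * a' ^ 2 * NNReal.pi) := by
    refine (len_sq hW f p ha.le).trans (mul_le_mul_right (le_of_eq ?_) _)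
    rw [Complex.volume_closedBall, ENNReal.ofReal_mul (by norm_num), mul_pow]
    have : (ENNReal.ofReal 2) ^ 2 = 4 := by norm_num
    rw [this]
  have h3 : I2 ^ 2 ≤ (∑ i ∈ F.filter (Meets K p a), ENNReal.ofReal (r i) ^ 2) *
      (36 * (ENNReal.ofReal τ)⁻¹ * a' ^ 2 * NNReal.pi) := by
    refine (hopS_sq hτ hcpt hfat hnt hdisj p ha F r).trans (mul_le_mul_right (le_of_eq ?_) _)
    rw [Complex.volume_closedBall, ENNReal.ofReal_mul (by norm_num), mul_pow]
    have : (ENNReal.ofReal 3) ^ 2 = 9 := by norm_num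
    rw [this]; ring
  have h4 : (I1 + I2) ^ 2 ≤ 2 * (I1 ^ 2 + I2 ^ 2) := sq_add_le _ _
  have h5 : e ^ 2 * a' ^ 2 ≤
      ((8 * NNReal.pi + 72 * (ENNReal.ofReal τ)⁻¹ * NNReal.pi) * EW K F r W f p a) * a' ^ 2 := by
    unfold EW
    set E1 := ∫⁻ z in {z | dist z p ∈ Ioo a (2 * a)} ∩ W, ‖deriv f z‖ₑ ^ 2
    set E2 := ∑ i ∈ F.filter (Meets K p a), ENNReal.ofReal (r i) ^ 2
    calc e ^ 2 * a' ^ 2 = (e * a') ^ 2 := by ring
      _ ≤ (I1 + I2) ^ 2 := by gcongr
      _ ≤ 2 * (I1 ^ 2 + I2 ^ 2) := h4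
      _ ≤ 2 * (E1 * (4 * a' ^ 2 * NNReal.pi) +
            E2 * (36 * (ENNReal.ofReal τ)⁻¹ * a' ^ 2 * NNReal.pi)) := by gcongr
      _ = (8 * NNReal.pi * E1 + 72 * (ENNReal.ofReal τ)⁻¹ * NNReal.pi * E2) * a' ^ 2 := by ring
      _ ≤ (8 * NNReal.pi * E1 + 72 * (ENNReal.ofReal τ)⁻¹ * NNReal.pi * E2 +
            (8 * NNReal.pi * E2 + 72 * (ENNReal.ofReal τ)⁻¹ * NNReal.pi * E1)) * a' ^ 2 := by
          gcongr ?_ * _; exact le_self_add
      _ = _ := by ring
  exact (ENNReal.mul_le_mul_iff_left (pow_ne_zero 2 ha0) (ENNReal.pow_ne_top hat)).1 h5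

end Crest.Agent.R105.Cof_430
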