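import Mathlib
import Crest.Agent.R105.Cof4_430

/-!
# Row 105, COFAT, part 5 (helper430): Courant-Lebesgue with hops, uniform over all stages
-/

set_option autoImplicit false

open Set Filter Metric Topology MeasureTheory
open scoped ENNReal Real

namespace Crest.Agent.R105.Cof_430

open Top1_8 (Fat)

variable {ι : Type*} {K : ι → Set ℂ} {τ : ℝ}

/-- the image of the circle together with the discs of the solids met by the circle -/
def chain (K : ι → Set ℂ) (F : Finset ι) (c : ι → ℂ) (r : ι → ℝ) (W : Set ℂ) (f : ℂ → ℂ) (p : ℂ)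
    (t : ℝ) : Set ℂ :=
  f '' (sphere p t ∩ W) ∪ ⋃ i ∈ F, ⋃ (_ : (K i ∩ sphere p t).Nonempty ∧ p ∉ K i),
    closedBall (c i) (r i)

theorem vol_ball {φ : ℂ → ℝ} (hφ : LipschitzWith 1 φ) (c : ℂ) (r : ℝ) :
    volume (φ '' closedBall c r) ≤ ENNReal.ofReal (2 * r) := by
  refine (Real.volume_le_diam _).trans (Metric.ediam_le ?_)
  rintro _ ⟨x, hx, rfl⟩ _ ⟨y, hy, rfl⟩
  have h1 : edist (φ x) (φ y) ≤ edist x y := by simpa using hφ x y
  refine h1.trans ?_
  rw [edist_dist]
  refine ENNReal.ofReal_le_ofReal ?_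
  have h2 : dist x y ≤ dist x c + dist y c := dist_triangle_right _ _ _
  have h3 : dist x c ≤ r := hx
  have h4 : dist y c ≤ r := hy
  linarith

open Classical in
theorem vol_chain (F : Finset ι) (c : ι → ℂ) (r : ι → ℝ) {W : Set ℂ} (hW : IsOpen W) {f : ℂ → ℂ}
    (hf : DifferentiableOn ℂ f W) (p : ℂ) {t : ℝ} (ht : 0 < t) {φ : ℂ → ℝ}
    (hφ : LipschitzWith 1 φ) :
    volume (φ '' chain K F c r W f p t) ≤ len W f p t + hopS K F r p t := by
  unfold chain
  rw [image_union]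
  refine (measure_union_le _ _).trans (add_le_add (circ_len hW hf hφ p ht) ?_)
  have hsub : φ '' (⋃ i ∈ F, ⋃ (_ : (K i ∩ sphere p t).Nonempty ∧ p ∉ K i),
      closedBall (c i) (r i)) ⊆
      ⋃ i ∈ F.filter (fun i => p ∉ K i), if t ∈ rad p (K i) then φ '' closedBall (c i) (r i)
        else ∅ := by
    rintro _ ⟨x, hx, rfl⟩
    simp only [mem_iUnion] at hx ⊢
    obtain ⟨i, hi, ⟨h1, h2⟩, hx⟩ := hx
    refine ⟨i, Finset.mem_filter.2 ⟨hi, h2⟩, ?_⟩
    rw [if_pos (mem_rad.2 h1)]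
    exact mem_image_of_mem _ hx
  refine (measure_mono hsub).trans ((measure_biUnion_finset_le _ _).trans ?_)
  unfold hopS
  refine Finset.sum_le_sum fun i _ => ?_
  by_cases h : t ∈ rad p (K i)
  · rw [if_pos h, indicator_of_mem h]
    exact vol_ball hφ _ _
  · rw [if_neg h, measure_empty]; exact bot_le

open Classical in
/-- **(S4), uniform over all stages.** -/
theorem stage (hτ : 0 < τ) (hcpt : ∀ i, IsCompact (K i)) (hfat : ∀ i, Fat τ (K i))
    (hnt : ∀ i, (K i).Nontrivial) (hdisj : Pairwise (Function.onFun Disjoint K))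
    (p : ℂ) {ε : ℝ} (hε : 0 < ε) {A : ℝ≥0∞} (hA : A ≠ ∞) :
    ∃ δ, 0 < δ ∧ ∀ (F : Finset ι) (c : ι → ℂ) (r : ι → ℝ) (W : Set ℂ) (f : ℂ → ℂ),
      IsOpen W → DifferentiableOn ℂ f W →
      (∫⁻ z in closedBall p ε ∩ W, ‖deriv f z‖ₑ ^ 2) + ∑ i ∈ F, ENNReal.ofReal (r i) ^ 2 ≤ A →
      ∃ t, δ < t ∧ t < ε ∧ ∀ φ : ℂ → ℝ, LipschitzWith 1 φ →
        volume (φ '' chain K F c r W f p t) ≤ ENNReal.ofReal ε := by
  obtain ⟨t, ht0, ht4, htε, htd⟩ := windows hτ hcpt hfat hdisj p hε
  have hle : ∀ k, t (k + 1) ≤ t k := fun k => by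
    have := ht4 k; have := ht0 (k + 1); linarith
  have hanti : Antitone t := antitone_nat_of_succ_le hle
  have hlt2 : ∀ {k l}, k < l → 4 * t l ≤ t k := fun {k l} hkl => by
    have h1 := hanti (Nat.succ_le_of_lt hkl)
    have h2 := ht4 k
    simp only [Nat.succ_eq_add_one] at h1
    linarith
  set C : ℝ≥0∞ := 8 * NNReal.pi + 72 * (ENNReal.ofReal τ)⁻¹ * NNReal.pi with hC
  have hCt : C ≠ ∞ := by
    have hτ0 : (ENNReal.ofReal τ)⁻¹ ≠ ∞ := by
      rw [Ne, ENNReal.inv_eq_top, ENNReal.ofReal_eq_zero, not_le]; exact hτ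
    refine ENNReal.add_ne_top.2 ⟨ENNReal.mul_ne_top (by norm_num) ENNReal.coe_ne_top, ?_⟩
    exact ENNReal.mul_ne_top (ENNReal.mul_ne_top (by norm_num) hτ0) ENNReal.coe_ne_top
  have hε0 : ENNReal.ofReal ε ^ 2 ≠ 0 := by
    refine pow_ne_zero 2 ?_
    rw [Ne, ENNReal.ofReal_eq_zero, not_le]; exact hε
  obtain ⟨m, hm⟩ := ENNReal.exists_nat_mul_gt hε0 (ENNReal.mul_ne_top hCt hA)
  refine ⟨t m, ht0 m, fun F c r W f hW hf hE => ?_⟩
  by_contra hcon
  push Not at hcon
  -- every window has much energy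
  have hwin : ∀ k ∈ Finset.range m, ENNReal.ofReal ε ^ 2 ≤ C * EW K F r W f p (t k) := by
    intro k hk
    refine one_window hτ hcpt hfat hnt hdisj p (ht0 k) F r hW f fun s hs => ?_
    have h1 : t m < s := by
      have h2 := hlt2 (Finset.mem_range.1 hk)
      have h3 := ht0 m
      have h4 := hs.1
      linarith
    have h2 : s < ε := lt_of_lt_of_le hs.2 (htε k)
    obtain ⟨φ, hφ, hφ2⟩ := hcon s h1 h2
    exact hφ2.le.trans (vol_chain F c r hW hf p ((ht0 k).trans hs.1) hφ)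
  -- total energy of the windows
  have hI : ∑ k ∈ Finset.range m,
      (∫⁻ z in {z | dist z p ∈ Ioo (t k) (2 * t k)} ∩ W, ‖deriv f z‖ₑ ^ 2) ≤
      ∫⁻ z in closedBall p ε ∩ W, ‖deriv f z‖ₑ ^ 2 := by
    rw [← lintegral_biUnion_finset]
    · refine lintegral_mono_set (iUnion₂_subset fun k _ => ?_)
      refine inter_subset_inter_left _ fun z hz => ?_
      rw [mem_closedBall]
      exact hz.2.le.trans (htε k)
    · intro k _ l _ hkl
      refine Set.disjoint_left.2 fun z hz hz' => ?_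
      obtain ⟨h1, h2⟩ := hz.1
      obtain ⟨h3, h4⟩ := hz'.1
      rcases lt_or_gt_of_ne hkl with h | h
      · have := hlt2 h; have := ht0 l; linarith
      · have := hlt2 h; have := ht0 k; linarith
    · intro k _
      exact ((isOpen_Ioo.preimage (continuous_id.dist continuous_const)).inter hW).measurableSet
  have hS : ∑ k ∈ Finset.range m,
      ∑ i ∈ F.filter (Meets K p (t k)), ENNReal.ofReal (r i) ^ 2 ≤
      ∑ i ∈ F, ENNReal.ofReal (r i) ^ 2 := by
    rw [← Finset.sum_biUnion]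
    · refine Finset.sum_le_sum_of_subset ?_
      intro i hi
      rw [Finset.mem_biUnion] at hi
      obtain ⟨k, _, hk⟩ := hi
      exact (Finset.mem_filter.1 hk).1
    · have key : ∀ k l, k < l → Disjoint (F.filter (Meets K p (t k)))
          (F.filter (Meets K p (t l))) := by
        intro k l hkl
        rw [Finset.disjoint_left]
        intro i hi hi'
        obtain ⟨-, hpi, z, hz, hz1, -⟩ := Finset.mem_filter.1 hi
        obtain ⟨-, -, w, hw, -, hw2⟩ := Finset.mem_filter.1 hi'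
        exact Set.disjoint_left.1 (htd i hpi k l hkl ⟨z, hz, hz1⟩) hw hw2
      intro k _ l _ hkl
      rcases lt_or_gt_of_ne hkl with h | h
      · exact key k l h
      · exact (key l k h).symm
  have hsum : (m : ℝ≥0∞) * ENNReal.ofReal ε ^ 2 ≤ C * A := by
    calc (m : ℝ≥0∞) * ENNReal.ofReal ε ^ 2
        = ∑ k ∈ Finset.range m, ENNReal.ofReal ε ^ 2 := by
          rw [Finset.sum_const, Finset.card_range, nsmul_eq_mul]
      _ ≤ ∑ k ∈ Finset.range m, C * EW K F r W f p (t k) := Finset.sum_le_sum hwin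
      _ = C * ∑ k ∈ Finset.range m, EW K F r W f p (t k) := by rw [Finset.mul_sum]
      _ ≤ C * A := by
          gcongr
          unfold EW
          rw [Finset.sum_add_distrib]
          exact (add_le_add hI hS).trans hE
  exact absurd hm (not_lt.2 hsum)

end Crest.Agent.R105.Cof_430
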