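import Mathlib

/-!
# R105 / COFAT (node D2), part 5 (helper515): one-dimensional measure of the image of a curve

* `volume_image_le` : `Θ ⊆ ℝ` open, `h : ℝ → ℂ` with continuous derivative `h'` on `Θ`, `φ`
  1-Lipschitz ⟹ `volume (φ '' (h '' Θ)) ≤ ∫⁻ Θ ‖h'‖`;
* `circle_image` : `volume (φ '' (f '' (sphere p t ∩ U))) ≤ ∫⁻ θ ∈ (-π, π), 1_U ‖f'‖ t`.
-/

set_option autoImplicit false

open Set Filter Topology Metric MeasureTheory
open scoped ENNReal

namespace Crest.Agent.R105.Cof5_515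

/-- the dyadic interval -/
def dy (n : ℕ) (k : ℤ) : Set ℝ := Icc ((k : ℝ) / 2 ^ n) (((k : ℝ) + 1) / 2 ^ n)

def dyo (n : ℕ) (k : ℤ) : Set ℝ := Ioc ((k : ℝ) / 2 ^ n) (((k : ℝ) + 1) / 2 ^ n)

theorem lintegral_dy (n : ℕ) (k : ℤ) (F : ℝ → ℝ≥0∞) :
    ∫⁻ s in dy n k, F s = ∫⁻ s in dyo n k, F s :=
  (setLIntegral_congr Ioc_ae_eq_Icc).symm

theorem dyo_disjoint (n : ℕ) : Pairwise (Function.onFun Disjoint (dyo n)) := by
  have key : ∀ k k' : ℤ, k < k' → Disjoint (dyo n k) (dyo n k') := by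
    intro k k' hk
    rw [disjoint_left]
    rintro s ⟨-, h1⟩ ⟨h2, -⟩
    have h3 : ((k : ℝ) + 1) / 2 ^ n ≤ (k' : ℝ) / 2 ^ n := by
      gcongr
      exact_mod_cast hk
    linarith
  intro k k' hk
  rcases lt_or_gt_of_ne hk with h | h
  · exact key k k' h
  · exact (key k' k h).symm

/-- union of the dyadic intervals of level `n` inside `Θ` -/
def lev (Θ : Set ℝ) (n : ℕ) : Set ℝ := ⋃ k ∈ {k : ℤ | dy n k ⊆ Θ}, dy n k

theorem lev_subset (Θ : Set ℝ) (n : ℕ) : lev Θ n ⊆ Θ :=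
  iUnion₂_subset fun _ hk => hk

theorem dy_succ (n : ℕ) (k : ℤ) : dy n k ⊆ dy (n + 1) (2 * k) ∪ dy (n + 1) (2 * k + 1) := by
  rintro s ⟨h1, h2⟩
  have hp : (0 : ℝ) < 2 ^ n := by positivity
  rw [div_le_iff₀ hp] at h1
  rw [le_div_iff₀ hp] at h2
  have hp' : (0 : ℝ) < 2 ^ (n + 1) := by positivity
  have e : s * 2 ^ (n + 1) = 2 * (s * 2 ^ n) := by ring
  rcases le_total (s * 2 ^ (n + 1)) (2 * k + 1) with h | h
  · left
    refine ⟨(div_le_iff₀ hp').2 ?_, (le_div_iff₀ hp').2 ?_⟩ <;> push_cast <;> linarith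
  · right
    refine ⟨(div_le_iff₀ hp').2 ?_, (le_div_iff₀ hp').2 ?_⟩ <;> push_cast <;> linarith

theorem dy_succ_subset (n : ℕ) (k : ℤ) :
    dy (n + 1) (2 * k) ⊆ dy n k ∧ dy (n + 1) (2 * k + 1) ⊆ dy n k := by
  have hp : (0 : ℝ) < 2 ^ n := by positivity
  have hp' : (0 : ℝ) < 2 ^ (n + 1) := by positivity
  constructor
  all_goals
    rintro s ⟨h1, h2⟩
    rw [div_le_iff₀ hp'] at h1
    rw [le_div_iff₀ hp'] at h2
    push_cast at h1 h2
    have e : s * 2 ^ (n + 1) = 2 * (s * 2 ^ n) := by ring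
    refine ⟨(div_le_iff₀ hp).2 ?_, (le_div_iff₀ hp).2 ?_⟩ <;> linarith

theorem lev_mono (Θ : Set ℝ) : Monotone (lev Θ) := by
  refine monotone_nat_of_le_succ fun n => ?_
  intro s hs
  obtain ⟨k, hk, hs⟩ := mem_iUnion₂.1 hs
  have hk' : dy n k ⊆ Θ := hk
  rcases dy_succ n k hs with h | h
  · exact mem_iUnion₂.2 ⟨2 * k, (dy_succ_subset n k).1.trans hk', h⟩
  · exact mem_iUnion₂.2 ⟨2 * k + 1, (dy_succ_subset n k).2.trans hk', h⟩

theorem iUnion_lev {Θ : Set ℝ} (hΘ : IsOpen Θ) : ⋃ n, lev Θ n = Θ := by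
  refine Subset.antisymm (iUnion_subset fun n => lev_subset Θ n) fun s hs => ?_
  obtain ⟨ε, hε, hb⟩ := Metric.isOpen_iff.1 hΘ s hs
  obtain ⟨n, hn⟩ := exists_pow_lt_of_lt_one hε (by norm_num : (1 / 2 : ℝ) < 1)
  have hp : (0 : ℝ) < 2 ^ n := by positivity
  have hn' : 1 / 2 ^ n < ε := by rwa [one_div_pow] at hn
  refine mem_iUnion.2 ⟨n, mem_iUnion₂.2 ⟨⌊s * 2 ^ n⌋, ?_, ?_⟩⟩
  · intro y hy
    apply hb
    have h1 := hy.1
    have h2 := hy.2
    rw [div_le_iff₀ hp] at h1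
    rw [le_div_iff₀ hp] at h2
    have h3 := Int.floor_le (s * 2 ^ n)
    have h4 := Int.lt_floor_add_one (s * 2 ^ n)
    rw [mem_ball, Real.dist_eq]
    have h5 : |y - s| * 2 ^ n ≤ 1 := by
      have h7 : |y - s| * 2 ^ n = |(y - s) * 2 ^ n| := by rw [abs_mul, abs_of_pos hp]
      rw [h7, abs_le]
      constructor <;> nlinarith
    have h6 : |y - s| ≤ 1 / 2 ^ n := by
      rw [le_div_iff₀ hp]; exact h5
    linarith
  · exact ⟨(div_le_iff₀ hp).2 (Int.floor_le _), (le_div_iff₀ hp).2 (Int.lt_floor_add_one _).le⟩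

theorem volume_image_Icc {h h' : ℝ → ℂ} {a b : ℝ} (hd : ∀ s ∈ Icc a b, HasDerivAt h (h' s) s)
    (hc : ContinuousOn h' (Icc a b)) {φ : ℂ → ℝ} (hφ : LipschitzWith 1 φ) :
    volume (φ '' (h '' Icc a b)) ≤ ∫⁻ s in Icc a b, ‖h' s‖ₑ := by
  refine (Real.volume_le_diam _).trans ?_
  have key : ∀ s ∈ Icc a b, ∀ s' ∈ Icc a b, s ≤ s' → edist (h s') (h s) ≤
      ∫⁻ s in Icc a b, ‖h' s‖ₑ := by
    intro s hs s' hs' hss
    have hsub : Icc s s' ⊆ Icc a b := Icc_subset_Icc hs.1 hs'.2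
    have h1 : ∫ y in s..s', h' y = h s' - h s := by
      refine intervalIntegral.integral_eq_sub_of_hasDerivAt (fun y hy => ?_) ?_
      · rw [uIcc_of_le hss] at hy
        exact hd y (hsub hy)
      · refine ContinuousOn.intervalIntegrable ?_
        rw [uIcc_of_le hss]
        exact hc.mono hsub
    rw [edist_eq_enorm_sub, ← h1, intervalIntegral.integral_of_le hss]
    refine (enorm_integral_le_lintegral_enorm _).trans ?_
    exact lintegral_mono_set (Ioc_subset_Icc_self.trans hsub)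
  refine ediam_le ?_
  rintro _ ⟨_, ⟨s, hs, rfl⟩, rfl⟩ _ ⟨_, ⟨s', hs', rfl⟩, rfl⟩
  have h2 := hφ (h s) (h s')
  rw [ENNReal.coe_one, one_mul] at h2
  refine h2.trans ?_
  rcases le_total s s' with h3 | h3
  · rw [edist_comm]; exact key s hs s' hs' h3
  · exact key s' hs' s hs h3

/-- **length bounds the one-dimensional measure of the image** -/
theorem volume_image_le {Θ : Set ℝ} (hΘ : IsOpen Θ) {h h' : ℝ → ℂ}
    (hd : ∀ s ∈ Θ, HasDerivAt h (h' s) s) (hc : ContinuousOn h' Θ) {φ : ℂ → ℝ}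
    (hφ : LipschitzWith 1 φ) :
    volume (φ '' (h '' Θ)) ≤ ∫⁻ s in Θ, ‖h' s‖ₑ := by
  have h1 : φ '' (h '' Θ) = ⋃ n, φ '' (h '' lev Θ n) := by
    rw [← image_iUnion, ← image_iUnion, iUnion_lev hΘ]
  have hmono : Monotone fun n => φ '' (h '' lev Θ n) := fun n m hnm =>
    image_mono (image_mono (lev_mono Θ hnm))
  rw [h1, hmono.measure_iUnion]
  refine iSup_le fun n => ?_
  have h2 : φ '' (h '' lev Θ n) = ⋃ k ∈ {k : ℤ | dy n k ⊆ Θ}, φ '' (h '' dy n k) := by
    rw [lev]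
    simp only [image_iUnion]
  rw [h2]
  refine (measure_biUnion_le volume (to_countable _) _).trans ?_
  have h3 : ∀ k : {k : ℤ | dy n k ⊆ Θ}, volume (φ '' (h '' dy n k)) ≤
      ∫⁻ s in dyo n k, ‖h' s‖ₑ := by
    intro k
    rw [← lintegral_dy]
    have hk : dy n k ⊆ Θ := k.2
    exact volume_image_Icc (fun s hs => hd s (hk hs)) (hc.mono hk) hφ
  refine (ENNReal.tsum_le_tsum h3).trans ?_
  have hdis : Pairwise (Function.onFun Disjoint fun k : {k : ℤ | dy n k ⊆ Θ} => dyo n k) := by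
    intro k k' hk
    exact dyo_disjoint n fun he => hk (Subtype.ext he)
  rw [← lintegral_iUnion (s := fun k : {k : ℤ | dy n k ⊆ Θ} => dyo n k)
    (fun k => measurableSet_Ioc) hdis (fun s => ‖h' s‖ₑ)]
  refine lintegral_mono_set (iUnion_subset fun k => ?_)
  have hk : dy n k ⊆ Θ := k.2
  exact Ioc_subset_Icc_self.trans hk

/-- **the image of a circle** -/
theorem circle_image {U : Set ℂ} (hU : IsOpen U) {f : ℂ → ℂ} (hf : DifferentiableOn ℂ f U)
    (p : ℂ) {t : ℝ} (ht : 0 < t) {φ : ℂ → ℝ} (hφ : LipschitzWith 1 φ) :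
    volume (φ '' (f '' (sphere p t ∩ U))) ≤
      ∫⁻ θ in Ioo (-Real.pi) Real.pi, ENNReal.ofReal t *
        U.indicator (fun z => ‖deriv f z‖ₑ) (circleMap p t θ) := by
  set Θ : Set ℝ := Ioo (-Real.pi) Real.pi ∩ circleMap p t ⁻¹' U with hΘ
  have hΘo : IsOpen Θ := isOpen_Ioo.inter (hU.preimage (continuous_circleMap p t))
  have hsub : sphere p t ∩ U ⊆ circleMap p t '' Θ ∪ {circleMap p t Real.pi} := by
    rintro z ⟨hz, hzU⟩
    have h1 : z ∈ circleMap p t '' Ioc (-Real.pi) (-Real.pi + 2 * Real.pi) := by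
      rw [(periodic_circleMap p t).image_Ioc Real.two_pi_pos (-Real.pi), range_circleMap,
        abs_of_pos ht]
      exact hz
    obtain ⟨θ, hθ, rfl⟩ := h1
    have h2 : -Real.pi + 2 * Real.pi = Real.pi := by ring
    rw [h2] at hθ
    rcases hθ.2.lt_or_eq with h3 | h3
    · exact Or.inl ⟨θ, ⟨⟨hθ.1, h3⟩, hzU⟩, rfl⟩
    · exact Or.inr (by rw [h3]; rfl)
  have h1 : volume (φ '' (f '' (sphere p t ∩ U))) ≤
      volume (φ '' ((f ∘ circleMap p t) '' Θ)) + volume {φ (f (circleMap p t Real.pi))} := by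
    refine (measure_mono ?_).trans (measure_union_le _ _)
    rw [image_comp]
    refine (image_mono (image_mono hsub)).trans ?_
    rw [image_union, image_union, image_singleton, image_singleton]
  rw [Real.volume_singleton, add_zero] at h1
  refine h1.trans ?_
  have hd : ∀ s ∈ Θ, HasDerivAt (f ∘ circleMap p t)
      (deriv f (circleMap p t s) * (circleMap 0 t s * Complex.I)) s := by
    intro s hs
    have h2 : HasDerivAt f (deriv f (circleMap p t s)) (circleMap p t s) :=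
      ((hf _ hs.2).differentiableAt (hU.mem_nhds hs.2)).hasDerivAt
    exact h2.comp_of_eq s (hasDerivAt_circleMap p t s) rfl
  have hc : ContinuousOn (fun s => deriv f (circleMap p t s) * (circleMap 0 t s * Complex.I)) Θ := by
    have h3 : ContinuousOn (deriv f) U := (hf.deriv hU).continuousOn
    refine ContinuousOn.mul (h3.comp (continuous_circleMap p t).continuousOn fun s hs => hs.2) ?_
    exact ((continuous_circleMap 0 t).mul continuous_const).continuousOn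
  refine (volume_image_le hΘo hd hc hφ).trans ?_
  rw [hΘ, inter_comm, ← Measure.restrict_restrict (hU.preimage
    (continuous_circleMap p t)).measurableSet]
  rw [← lintegral_indicator (hU.preimage (continuous_circleMap p t)).measurableSet]
  refine lintegral_mono fun s => ?_
  by_cases hs : circleMap p t s ∈ U
  · rw [indicator_of_mem (show s ∈ circleMap p t ⁻¹' U from hs), indicator_of_mem hs]
    have h4 : ‖circleMap 0 t s‖ₑ = ENNReal.ofReal t := by
      rw [← ofReal_norm, norm_circleMap_zero, abs_of_pos ht]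
    rw [enorm_mul, enorm_mul, h4]
    have h5 : ‖Complex.I‖ₑ = 1 := by
      rw [← ofReal_norm]; simp
    rw [h5, mul_one, mul_comm]
  · rw [indicator_of_notMem (show s ∉ circleMap p t ⁻¹' U from hs)]
    exact bot_le

end Crest.Agent.R105.Cof5_515
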