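import Mathlib
import Crest.Agent.R105.Uni2_231
import Crest.Agent.R105.FKd_644
import Crest.Agent.Lib.Bieberbach

/-!
# R105 / COFAT (node D2), part (D) (helper231): the uniform area bound

`area_bound` : `K i ⊆ closedBall 0 R`, `f : dom K → (⋃ discs x)ᶜ` a labelled normalised conformal
map, `x ∈ X n` ⟹ `∫⁻ (dom K ∩ closedBall 0 R) ‖f'‖² + ∑ π (x i).2 ^ 2 ≤ π (2 R)²`.
-/

set_option autoImplicit false

open Set Filter Topology Metric MeasureTheory
open scoped ENNReal

namespace Crest.Agent.R105.CofD_231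

open FK_644

variable {n : ℕ} {K : Fin n → Set ℂ} {x : Fin n → ℂ × ℝ} {f : ℂ → ℂ} {R : ℝ}

theorem sig_of (h : FK_644.Sig (dom K) f) : Uni231.Sig (dom K) f := ⟨h.hol, h.inj, h.inf⟩

theorem Ext_subset_dom (hK : ∀ i, K i ⊆ closedBall 0 R) : Uni231.Ext R ⊆ dom K := by
  intro z hz hz'
  obtain ⟨i, hi⟩ := mem_iUnion.1 hz'
  have h1 := hK i hi
  rw [mem_closedBall_zero_iff] at h1
  exact absurd hz (not_lt.2 h1)

theorem isOpen_dom (hK : ∀ i, IsClosed (K i)) : IsOpen (dom K) :=
  (isClosed_iUnion_of_finite hK).isOpen_compl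

/-- the discs of the image configuration lie in `closedBall 0 (2 R)` -/
theorem discs_subset (hR : 0 < R) (hK : ∀ i, K i ⊆ closedBall 0 R)
    (h : LMap K (discs x) f) (i : Fin n) : discs x i ⊆ closedBall 0 (2 * R) := by
  intro w hw
  rw [mem_closedBall_zero_iff]
  refine (sig_of h.sig).norm_le_of_not_mem hR (Ext_subset_dom hK) ?_
  intro h1
  rw [h.img] at h1
  exact h1 (mem_iUnion.2 ⟨i, hw⟩)

/-- the image of the part in `closedBall 0 R` lies in `closedBall 0 (2 R)` -/
theorem image_subset (hR : 0 < R) (hK : ∀ i, K i ⊆ closedBall 0 R)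
    (h : LMap K (discs x) f) : f '' (dom K ∩ closedBall 0 R) ⊆ closedBall 0 (2 * R) := by
  rintro _ ⟨z, ⟨hz, hzR⟩, rfl⟩
  rw [mem_closedBall_zero_iff]
  refine ((sig_of h.sig).mono (Ext_subset_dom hK)).norm_le_of_not_mem hR Subset.rfl ?_
  rintro ⟨z', hz', he⟩
  have h1 : z' = z := h.sig.inj (Ext_subset_dom hK hz') hz he
  rw [h1] at hz'
  rw [mem_closedBall_zero_iff] at hzR
  exact absurd hz' (not_lt.2 hzR)

/-- **(D)**, the uniform area bound -/
theorem area_bound (hR : 0 < R) (hKc : ∀ i, IsClosed (K i)) (hK : ∀ i, K i ⊆ closedBall 0 R)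
    (hx : x ∈ X n) (h : LMap K (discs x) f) :
    (∫⁻ z in dom K ∩ closedBall 0 R, ‖deriv f z‖ₑ ^ 2) +
      ∑ i, ENNReal.ofReal (Real.pi * (x i).2 ^ 2) ≤ ENNReal.ofReal (Real.pi * (2 * R) ^ 2) := by
  have hU := isOpen_dom hKc
  have hm : MeasurableSet (dom K ∩ closedBall (0:ℂ) R) :=
    hU.measurableSet.inter isClosed_closedBall.measurableSet
  have h1 := Lib.Bieberbach.vol_image hm (G := f) (G' := deriv f)
    (fun z hz => ((h.sig.hol _ hz.1).differentiableAt (hU.mem_nhds hz.1)).hasDerivAt)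
    (h.sig.inj.mono inter_subset_left)
  have h2 : ∀ z : ℂ, ‖deriv f z‖ₑ ^ 2 = ENNReal.ofReal (‖deriv f z‖ ^ 2) := by
    intro z
    rw [ENNReal.ofReal_pow (norm_nonneg _), ofReal_norm]
  simp only [h2]
  rw [h1]
  have hvol : ∀ (c : ℂ) (r : ℝ), 0 ≤ r → volume (closedBall c r) = ENNReal.ofReal (Real.pi * r ^ 2) := by
    intro c r hr
    rw [Complex.volume_closedBall, mul_comm, ENNReal.ofReal_mul Real.pi_pos.le,
      ENNReal.ofReal_pow hr]
    congr 1
    rw [← NNReal.coe_real_pi, ENNReal.ofReal_coe_nnreal]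
  have h3 : ∀ i, ENNReal.ofReal (Real.pi * (x i).2 ^ 2) = volume (discs x i) := fun i =>
    (hvol _ _ (hx.1 i).le).symm
  simp only [h3]
  rw [← hvol 0 (2 * R) (by positivity)]
  have h4 : volume (⋃ i, discs x i) = ∑ i, volume (discs x i) := by
    rw [measure_iUnion (fun i j hij => hx.2 i j hij)
      (fun i => isClosed_closedBall.measurableSet), tsum_fintype]
  rw [← h4, ← measure_union]
  · refine measure_mono (union_subset (image_subset hR hK h) (iUnion_subset fun i =>
      discs_subset hR hK h i))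
  · refine disjoint_left.2 ?_
    rintro w ⟨z, hz, rfl⟩ hw'
    have h5 : f z ∈ f '' dom K := ⟨z, hz.1, rfl⟩
    rw [h.img] at h5
    exact h5 hw'
  · exact MeasurableSet.iUnion fun i => isClosed_closedBall.measurableSet

end Crest.Agent.R105.CofD_231
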