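import Mathlib
import Crest.Agent.R105.FK1_644
import Crest.Agent.R105.Top1_8
import Crest.Agent.R105.Uni3_231

/-!
# Row 105, COFAT (S0138), assembly (helper917)

* `NC V K` : `K` is a nondegenerate component of the complement of `V`;
* `CLB`    : the uniform Courant-Lebesgue bound (the conclusion of steps (1)-(5) of 430 #9269 /
             (S4)-(S5) of 644 #9298) for circle maps of finite families of components;
* `cofat_of : FK → CLB → Top1_8.COFAT` (ultrafilter limit over the finite sets of components).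
-/

set_option autoImplicit false

open Set Filter Metric Topology
open Crest.AnalysisR

namespace Crest.Agent.R105.Cofa1_917

open FK_644 Top1_8

/-- `K` is a nondegenerate component of the complement of `V` -/
def NC (V K : Set ℂ) : Prop := ∃ z, z ∉ V ∧ K = connectedComponentIn Vᶜ z ∧ K.Nontrivial

/-- (CLB) uniform Courant-Lebesgue bound for circle maps of finite families of components -/
def CLB : Prop := ∀ (V : Set ℂ) (τ : ℝ), 0 < τ → Cofat τ V → ∀ p, p ∉ V → ∀ ε : ℝ, 0 < ε →
  ∃ δ : ℝ, 0 < δ ∧ ∀ (n : ℕ) (K : Fin n → Set ℂ) (x : Fin n → ℂ × ℝ) (f : ℂ → ℂ),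
    (∀ i, NC V (K i)) → Fam K → x ∈ X n → LMap K (discs x) f →
    (∀ i, p ∈ K i → ∀ z ∈ dom K, dist z p < δ → dist (f z) (x i).1 ≤ (x i).2 + ε) ∧
    (connectedComponentIn Vᶜ p = {p} → ∀ z ∈ dom K, ∀ z' ∈ dom K, dist z p < δ → dist z' p < δ →
      dist (f z) (f z') ≤ ε)

theorem NC.cc_eq {V K : Set ℂ} (h : NC V K) {p : ℂ} (hp : p ∈ K) :
    connectedComponentIn Vᶜ p = K := by
  obtain ⟨z, _, rfl, _⟩ := h
  exact (connectedComponentIn_eq hp).symm

theorem NC.subset {V K : Set ℂ} (h : NC V K) : K ⊆ Vᶜ := by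
  obtain ⟨z, _, rfl, _⟩ := h
  exact connectedComponentIn_subset _ _

theorem NC.disjoint {V K K' : Set ℂ} (h : NC V K) (h' : NC V K') (hne : K ≠ K') :
    Disjoint K K' := by
  rw [disjoint_left]
  intro w hw hw'
  exact hne ((h.cc_eq hw).symm.trans (h'.cc_eq hw'))

/-- a finite injective family of nondegenerate components is a `Fam` -/
theorem fam_of_NC {V : Set ℂ} (hV : IsExteriorDomain V) {ι : Type*} [Finite ι] {K : ι → Set ℂ}
    (h : ∀ i, NC V (K i)) (hi : Function.Injective K) : Fam K := by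
  have hz : ∀ i, ∃ z, z ∉ V ∧ K i = connectedComponentIn Vᶜ z ∧ (K i).Nontrivial := h
  choose z hzV hzK hzn using hz
  have hK : K = fun i => connectedComponentIn Vᶜ (z i) := funext hzK
  refine ⟨fun i => ?_, fun i => ?_, hzn, fun i j hij => (h i).disjoint (h j) (hi.ne hij), ?_⟩
  · rw [hzK i]; exact Ends_897.isCompact_cc (Ends_897.isCompact_compl hV) _
  · rw [hzK i]; exact isConnected_connectedComponentIn_iff.2 (hzV i)
  · rw [hK]
    refine preconn_comps hV fun i j hij => ?_
    rw [← hzK i, ← hzK j]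
    exact hi.ne hij

theorem subset_dom_of_NC {V : Set ℂ} {ι : Type*} {K : ι → Set ℂ} (h : ∀ i, NC V (K i)) :
    V ⊆ dom K := by
  intro w hw hwK
  obtain ⟨i, hi⟩ := mem_iUnion.1 hwK
  exact (h i).subset hi hw

/-- index type: finite sets of nondegenerate components -/
abbrev NCs (V : Set ℂ) : Type := {K : Set ℂ // NC V K}

/-- the family of a finite set of components -/
noncomputable def fam {V : Set ℂ} (s : Finset (NCs V)) (i : Fin s.card) : Set ℂ :=
  (s.equivFin.symm i).1.1

theorem fam_NC {V : Set ℂ} (s : Finset (NCs V)) (i : Fin s.card) : NC V (fam s i) :=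
  (s.equivFin.symm i).1.2

theorem fam_injective {V : Set ℂ} (s : Finset (NCs V)) : Function.Injective (fam s) := by
  intro i j hij
  have h1 : (s.equivFin.symm i).1 = (s.equivFin.symm j).1 := Subtype.ext hij
  exact s.equivFin.symm.injective (Subtype.ext h1)

/-- position of a component in the family -/
noncomputable def pos {V : Set ℂ} (s : Finset (NCs V)) (κ : NCs V) (h : κ ∈ s) : Fin s.card :=
  s.equivFin ⟨κ, h⟩

theorem fam_pos {V : Set ℂ} (s : Finset (NCs V)) (κ : NCs V) (h : κ ∈ s) :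
    fam s (pos s κ h) = κ.1 := by
  unfold fam pos
  rw [Equiv.symm_apply_apply]

theorem eF_eq_of_point {V : Set ℂ} {p : ℂ} (h : connectedComponentIn Vᶜ p = {p}) :
    Ends_897.eF V p = 𝓝[V] p := by
  rw [Ends_897.eF, h, nhdsSet_singleton]; rfl

/-- **the assembly of COFAT** -/
theorem cofat_of (hFK : FK) (hCL : CLB) : COFAT := by
  classical
  intro V τ hτ hV
  have hVe := hV.1
  obtain ⟨R, hR, hRV⟩ := Uni231.exists_Ext_subset hVe
  -- circle maps of the finite subfamilies
  have h1 : ∀ s : Finset (NCs V), ∃ x ∈ X s.card, ∃ f, LMap (fam s) (discs x) f := fun s =>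
    hFK _ _ (fam_of_NC hVe (fam_NC s) (fam_injective s))
  choose x hx f hf using h1
  have hVs : ∀ s : Finset (NCs V), V ⊆ dom (fam s) := fun s => subset_dom_of_NC (fam_NC s)
  set u : Ultrafilter (Finset (NCs V)) := Ultrafilter.of atTop with hu
  have hule : (u : Filter (Finset (NCs V))) ≤ atTop := Ultrafilter.of_le _
  obtain ⟨g, hg, hlim⟩ := Uni231.exists_limit_ultra (Uk := fun s => dom (fam s)) (f := f) u
    hVe.1 hVe.2.1.isPreconnected hR hRV (Eventually.of_forall fun s => (hf s).sig.toU)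
    (Eventually.of_forall fun s => hRV.trans (hVs s))
    (fun K hK _ => Eventually.of_forall fun s => hK.trans (hVs s))
  have hpt : ∀ z ∈ V, Tendsto (fun s => f s z) u (𝓝 (g z)) := fun z hz => hlim.tendsto_at hz
  refine ⟨g, Sig.ofU hg, Ends_897.isCircleDomain_image hVe hg.diff hg.inj hg.tendsto_cocompact ?_⟩
  intro p hp
  by_cases hcc : (connectedComponentIn Vᶜ p).Nontrivial
  · -- nondegenerate component
    set κ : NCs V := ⟨connectedComponentIn Vᶜ p, p, hp, rfl, hcc⟩ with hκ
    have hmem : ∀ᶠ s in (u : Filter (Finset (NCs V))), κ ∈ s :=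
      hule ((eventually_ge_atTop ({κ} : Finset (NCs V))).mono fun s hs =>
        hs (Finset.mem_singleton_self κ))
    -- the centre and the radius
    set d : Finset (NCs V) → ℂ × ℝ := fun s => if h : κ ∈ s then x s (pos s κ h) else (0, 0)
      with hd
    have hds : ∀ s (h : κ ∈ s), d s = x s (pos s κ h) := fun s h => by simp only [hd, dif_pos h]
    have hdisc : ∀ s (h : κ ∈ s), closedBall (d s).1 (d s).2 ⊆ (dom (discs (x s)))ᶜ := by
      intro s h
      rw [compl_dom, hds s h]
      exact subset_iUnion (discs (x s)) (pos s κ h)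
    have hbd : ∀ s, κ ∈ s → d s ∈ closedBall (0 : ℂ) (2 * R) ×ˢ Icc (0 : ℝ) (4 * R) := by
      intro s h
      have hom : ∀ w ∈ closedBall (d s).1 (d s).2, ‖w‖ ≤ 2 * R := by
        intro w hw
        refine (hf s).sig.toU.norm_le_of_not_mem hR (hRV.trans (hVs s)) ?_
        rw [(hf s).img]
        exact hdisc s h hw
      have hpos : 0 < (d s).2 := by rw [hds s h]; exact (hx s).1 _
      have hc := hom _ (mem_closedBall_self hpos.le)
      refine ⟨by rwa [mem_closedBall_zero_iff], hpos.le, ?_⟩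
      have h2 : (d s).1 + ((d s).2 : ℂ) ∈ closedBall (d s).1 (d s).2 := by
        rw [mem_closedBall, dist_eq_norm]
        simp only [add_sub_cancel_left, Complex.norm_real, Real.norm_eq_abs, abs_of_pos hpos,
          le_refl]
      have h3 := hom _ h2
      have h4 : ((d s).2 : ℝ) = ‖((d s).1 + ((d s).2 : ℂ)) - (d s).1‖ := by
        simp only [add_sub_cancel_left, Complex.norm_real, Real.norm_eq_abs, abs_of_pos hpos]
      rw [h4]
      refine (norm_sub_le _ _).trans ?_
      linarith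
    obtain ⟨⟨c, r⟩, ⟨_, hr0, _⟩, hcr⟩ := ((isCompact_closedBall (0:ℂ) (2 * R)).prod
      (isCompact_Icc (a := (0:ℝ)) (b := 4 * R))).ultrafilter_le_nhds' (u.map d)
      (hmem.mono fun s hs => hbd s hs)
    have hcr' : Tendsto d u (𝓝 (c, r)) := hcr
    have hc' : Tendsto (fun s => (d s).1) u (𝓝 c) := (continuous_fst.tendsto _).comp hcr'
    have hr' : Tendsto (fun s => (d s).2) u (𝓝 r) := (continuous_snd.tendsto _).comp hcr'
    refine ⟨c, r, hr0, ?_, ?_⟩
    · intro ε hε
      have h2 : ∀ q : ℂ, ∃ δ : ℝ, 0 < δ ∧ (q ∈ connectedComponentIn Vᶜ p → ∀ w ∈ V, dist w q < δ →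
          dist (g w) c ≤ r + ε / 2) := by
        intro q
        by_cases hq : q ∈ connectedComponentIn Vᶜ p
        · obtain ⟨δ, hδ, h3⟩ := hCL V τ hτ hV q (connectedComponentIn_subset _ _ hq) (ε / 2)
            (half_pos hε)
          refine ⟨δ, hδ, fun _ w hw hwq => ?_⟩
          refine le_of_tendsto_of_tendsto ((hpt w hw).dist hc') (hr'.add_const (ε / 2)) ?_
          filter_upwards [hmem] with s hs
          obtain ⟨h4, _⟩ := h3 s.card (fam s) (x s) (f s) (fam_NC s)
            (fam_of_NC hVe (fam_NC s) (fam_injective s)) (hx s) (hf s)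
          have h5 := h4 (pos s κ hs) (by rw [fam_pos]; exact hq) w (hVs s hw) hwq
          rw [← hds s hs] at h5
          exact h5
        · exact ⟨1, one_pos, fun h => absurd h hq⟩
      choose δ hδ h3 using h2
      have h4 : (⋃ q ∈ connectedComponentIn Vᶜ p, ball q (δ q)) ∈
          𝓝ˢ (connectedComponentIn Vᶜ p) := by
        refine (isOpen_biUnion fun q _ => isOpen_ball).mem_nhdsSet.2 fun q hq => ?_
        exact mem_biUnion hq (mem_ball_self (hδ q))
      have h5 : ∀ᶠ w in Ends_897.eF V p, w ∈ (⋃ q ∈ connectedComponentIn Vᶜ p, ball q (δ q)) :=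
        mem_inf_of_left h4
      have h6 : ∀ᶠ w in Ends_897.eF V p, w ∈ V := mem_inf_of_right (mem_principal_self V)
      filter_upwards [h5, h6] with w hw hwV
      obtain ⟨q, hq, hwq⟩ := mem_iUnion₂.1 hw
      exact (h3 q hq w hwV hwq).trans_lt (by linarith)
    · rw [disjoint_left]
      rintro _ hw ⟨v, hv, rfl⟩
      rw [mem_ball] at hw
      have h2 : ∀ᶠ s in (u : Filter (Finset (NCs V))), dist (f s v) (d s).1 < (d s).2 :=
        ((hpt v hv).dist hc').eventually_lt hr' hw
      obtain ⟨s, hs1, hs2⟩ := (h2.and hmem).exists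
      have h3 : f s v ∈ dom (discs (x s)) := (hf s).mapsTo (hVs s hv)
      exact hdisc s hs2 (mem_closedBall.2 hs1.le) h3
  · -- point component
    have hpt' : connectedComponentIn Vᶜ p = {p} := by
      rw [not_nontrivial_iff] at hcc
      exact hcc.eq_singleton_of_mem (mem_connectedComponentIn hp)
    have hne : (𝓝[V] p).NeBot := by
      rw [← eF_eq_of_point hpt']
      exact Ends_897.eF_neBot hVe hp
    have hosc : ∀ ε : ℝ, 0 < ε → ∃ δ : ℝ, 0 < δ ∧ ∀ z ∈ V, ∀ z' ∈ V, dist z p < δ →
        dist z' p < δ → dist (g z) (g z') ≤ ε := by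
      intro ε hε
      obtain ⟨δ, hδ, h3⟩ := hCL V τ hτ hV p hp ε hε
      refine ⟨δ, hδ, fun z hz z' hz' h4 h5 => ?_⟩
      refine le_of_tendsto ((hpt z hz).dist (hpt z' hz')) (Eventually.of_forall fun s => ?_)
      exact (h3 s.card (fam s) (x s) (f s) (fam_NC s)
        (fam_of_NC hVe (fam_NC s) (fam_injective s)) (hx s) (hf s)).2 hpt' z (hVs s hz) z'
        (hVs s hz') h4 h5
    have hcau : Cauchy (map g (𝓝[V] p)) := by
      rw [Metric.cauchy_iff]
      refine ⟨inferInstance, fun ε hε => ?_⟩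
      obtain ⟨δ, hδ, h3⟩ := hosc (ε / 2) (half_pos hε)
      refine ⟨g '' (V ∩ ball p δ), image_mem_map (inter_mem_nhdsWithin V (ball_mem_nhds p hδ)), ?_⟩
      · rintro _ ⟨a, ⟨ha, ha'⟩, rfl⟩ _ ⟨b, ⟨hb, hb'⟩, rfl⟩
        exact (h3 a ha b hb ha' hb').trans_lt (by linarith)
    obtain ⟨c, hc⟩ := CompleteSpace.complete hcau
    have hc' : Tendsto g (𝓝[V] p) (𝓝 c) := hc
    refine ⟨c, 0, le_rfl, fun ε hε => ?_, by rw [ball_zero]; exact empty_disjoint _⟩
    rw [eF_eq_of_point hpt', zero_add]
    exact hc'.eventually (ball_mem_nhds c hε)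

end Crest.Agent.R105.Cofa1_917
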