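import Crest.Agent.R105.Sin1_925

/-!
# Row 105, S0138, T-frame: cut-off at a point when disjoint squares are charged

`cap_point_sq`: `Q i` pairwise disjoint closed squares of side `s i` (finitely many of side `> η`
for every `η > 0`), `q` in none of them; there is a cut-off `lam` at `q` with small Dirichlet
energy AND small `∑ osc (lam; Q i) ^ 2`.
-/

namespace Crest.Agent.R105.Sin_925

open Set Filter MeasureTheory Topology Metric
open CF_363
open scoped ENNReal NNReal

/-- the closed square with lower left corner `c` and side `s` -/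
def sqr (c : ℝ × ℝ) (s : ℝ) : Set (ℝ × ℝ) := Icc c.1 (c.1 + s) ×ˢ Icc c.2 (c.2 + s)

theorem mem_sqr {c p : ℝ × ℝ} {s : ℝ} :
    p ∈ sqr c s ↔ (c.1 ≤ p.1 ∧ p.1 ≤ c.1 + s) ∧ (c.2 ≤ p.2 ∧ p.2 ≤ c.2 + s) := Iff.rfl

theorem isCompact_sqr (c : ℝ × ℝ) (s : ℝ) : IsCompact (sqr c s) := isCompact_Icc.prod isCompact_Icc

theorem measurableSet_sqr (c : ℝ × ℝ) (s : ℝ) : MeasurableSet (sqr c s) :=
  (isCompact_sqr c s).measurableSet

theorem dist_le_sqr {c p p' : ℝ × ℝ} {s : ℝ} (hp : p ∈ sqr c s) (hp' : p' ∈ sqr c s) :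
    dist p p' ≤ s := by
  obtain ⟨⟨a1, a2⟩, a3, a4⟩ := mem_sqr.1 hp
  obtain ⟨⟨b1, b2⟩, b3, b4⟩ := mem_sqr.1 hp'
  rw [Prod.dist_eq, Real.dist_eq, Real.dist_eq]
  refine max_le ?_ ?_ <;> rw [abs_le] <;> constructor <;> linarith

/-- length of `[a, a+s] ∩ [u - 2 δ, u + 2 δ]` if `[a, a+s]` meets `[u - δ, u + δ]` -/
theorem icc_inter_len {a s u δ t : ℝ} (h1 : a ≤ t) (h2 : t ≤ a + s)
    (h3 : u - δ ≤ t) (h4 : t ≤ u + δ) :
    ENNReal.ofReal (min s δ) ≤ volume (Icc a (a + s) ∩ Icc (u - 2 * δ) (u + 2 * δ)) := by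
  rw [Icc_inter_Icc, Real.volume_Icc]
  refine ENNReal.ofReal_le_ofReal ?_
  rcases le_total a (u - 2 * δ) with ha | ha <;>
    rcases le_total (a + s) (u + 2 * δ) with hb | hb
  · rw [sup_eq_right.2 ha, inf_eq_left.2 hb]
    refine (min_le_right _ _).trans ?_; linarith
  · rw [sup_eq_right.2 ha, inf_eq_right.2 hb]
    refine (min_le_right _ _).trans ?_; linarith
  · rw [sup_eq_left.2 ha, inf_eq_left.2 hb]
    refine (min_le_left _ _).trans ?_; linarith
  · rw [sup_eq_left.2 ha, inf_eq_right.2 hb]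
    refine (min_le_right _ _).trans ?_; linarith

theorem sqr_inter_vol {c q p : ℝ × ℝ} {s δ : ℝ} (hs : 0 ≤ s) (hδ : 0 ≤ δ) (hp : p ∈ sqr c s)
    (hpq : dist p q ≤ δ) :
    ENNReal.ofReal (min s δ ^ 2) ≤ volume (sqr c s ∩ closedBall q (2 * δ)) := by
  obtain ⟨⟨a1, a2⟩, a3, a4⟩ := mem_sqr.1 hp
  rw [Prod.dist_eq, Real.dist_eq, Real.dist_eq, max_le_iff, abs_le, abs_le] at hpq
  obtain ⟨⟨b1, b2⟩, b3, b4⟩ := hpq
  have e : sqr c s ∩ closedBall q (2 * δ) = (Icc c.1 (c.1 + s) ∩ Icc (q.1 - 2 * δ) (q.1 + 2 * δ)) ×ˢ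
      (Icc c.2 (c.2 + s) ∩ Icc (q.2 - 2 * δ) (q.2 + 2 * δ)) := by
    obtain ⟨x, y⟩ := q
    rw [← closedBall_prod_same, sqr, prod_inter_prod, Real.closedBall_eq_Icc,
      Real.closedBall_eq_Icc]
  rw [e, Measure.volume_eq_prod, Measure.prod_prod, sq,
    ENNReal.ofReal_mul (le_min hs hδ)]
  exact mul_le_mul' (icc_inter_len a1 a2 (by linarith) (by linarith))
    (icc_inter_len a3 a4 (by linarith) (by linarith))

theorem volume_closedBall_plane (q : ℝ × ℝ) {ρ : ℝ} (hρ : 0 ≤ ρ) :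
    volume (closedBall q ρ) = ENNReal.ofReal (4 * ρ ^ 2) := by
  obtain ⟨a, b⟩ := q
  rw [← closedBall_prod_same, Measure.volume_eq_prod, Measure.prod_prod, Real.volume_closedBall,
    Real.volume_closedBall, ← ENNReal.ofReal_mul (by positivity)]
  congr 1; ring

/-- disjoint squares which meet the ball of radius `δ` -/
theorem sum_sqr_le {ι : Type*} {c : ι → ℝ × ℝ} {s : ι → ℝ} (hs : ∀ i, 0 ≤ s i)
    (hd : Pairwise fun i j => Disjoint (sqr (c i) (s i)) (sqr (c j) (s j))) (q : ℝ × ℝ) {δ : ℝ}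
    (hδ : 0 < δ) (F : Finset ι) (hF : ∀ i ∈ F, ∃ p ∈ sqr (c i) (s i), dist p q ≤ δ) :
    ∑ i ∈ F, (min 1 (2 / δ * s i)) ^ 2 ≤ 64 := by
  have h1 : ∑ i ∈ F, ENNReal.ofReal (min (s i) δ ^ 2) ≤ ENNReal.ofReal (16 * δ ^ 2) := by
    calc ∑ i ∈ F, ENNReal.ofReal (min (s i) δ ^ 2)
        ≤ ∑ i ∈ F, volume (sqr (c i) (s i) ∩ closedBall q (2 * δ)) := by
          refine Finset.sum_le_sum fun i hi => ?_
          obtain ⟨p, hp, hpq⟩ := hF i hi
          exact sqr_inter_vol (hs i) hδ.le hp hpq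
      _ = volume (⋃ i ∈ F, sqr (c i) (s i) ∩ closedBall q (2 * δ)) := by
          rw [measure_biUnion_finset]
          · intro i _ j _ hij
            exact (hd hij).mono inter_subset_left inter_subset_left
          · intro i _
            exact (measurableSet_sqr _ _).inter measurableSet_closedBall
      _ ≤ volume (closedBall q (2 * δ)) :=
          measure_mono (iUnion₂_subset fun _ _ => inter_subset_right)
      _ = ENNReal.ofReal (16 * δ ^ 2) := by
          rw [volume_closedBall_plane q (by positivity)]; congr 1; ring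
  rw [← ENNReal.ofReal_sum_of_nonneg (fun i _ => sq_nonneg _)] at h1
  have h2 : ∑ i ∈ F, min (s i) δ ^ 2 ≤ 16 * δ ^ 2 :=
    (ENNReal.ofReal_le_ofReal_iff (by positivity)).1 h1
  have h3 : ∀ i ∈ F, (min 1 (2 / δ * s i)) ^ 2 ≤ 4 / δ ^ 2 * min (s i) δ ^ 2 := by
    intro i _
    have e : 4 / δ ^ 2 * min (s i) δ ^ 2 = (2 / δ * min (s i) δ) ^ 2 := by field_simp; ring
    rw [e]
    refine pow_le_pow_left₀ (le_min zero_le_one (by have := hs i; positivity)) ?_ 2
    rcases le_total (s i) δ with h | h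
    · rw [min_eq_left h]; exact min_le_right _ _
    · rw [min_eq_right h]
      refine (min_le_left _ _).trans ?_
      rw [div_mul_cancel₀ _ hδ.ne']; norm_num
  refine (Finset.sum_le_sum h3).trans ?_
  rw [← Finset.mul_sum]
  calc 4 / δ ^ 2 * ∑ i ∈ F, min (s i) δ ^ 2 ≤ 4 / δ ^ 2 * (16 * δ ^ 2) :=
        mul_le_mul_of_nonneg_left h2 (by positivity)
    _ = 64 := by field_simp; norm_num

/-- squares near a point which belongs to none of them are small -/
theorem small_near {ι : Type*} {c : ι → ℝ × ℝ} {s : ι → ℝ}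
    (hfin : ∀ η > 0, {i | η < s i}.Finite) {q : ℝ × ℝ} (hq : ∀ i, q ∉ sqr (c i) (s i)) {η : ℝ}
    (hη : 0 < η) : ∃ δ > 0, ∀ i, (∃ p ∈ sqr (c i) (s i), dist p q ≤ δ) → s i ≤ η := by
  have h1 : IsOpen (⋃ i ∈ {i | η < s i}, sqr (c i) (s i))ᶜ :=
    ((hfin η hη).isClosed_biUnion fun i _ => (isCompact_sqr _ _).isClosed).isOpen_compl
  have h2 : q ∈ (⋃ i ∈ {i | η < s i}, sqr (c i) (s i))ᶜ := by
    simp only [mem_compl_iff, mem_iUnion, not_exists]
    exact fun i _ h => hq i h
  obtain ⟨δ, hδ, hsub⟩ := nhds_basis_closedBall.mem_iff.1 (h1.mem_nhds h2)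
  refine ⟨δ, hδ, fun i ⟨p, hp, hpq⟩ => ?_⟩
  by_contra hcon
  rw [not_le] at hcon
  have := hsub (mem_closedBall.2 hpq)
  simp only [mem_compl_iff, mem_iUnion, not_exists] at this
  exact this i hcon hp

/-- the sum of `m` sparse tents -/
theorem tents_sq {ι : Type*} {c : ι → ℝ × ℝ} {s : ι → ℝ} (hs : ∀ i, 0 ≤ s i)
    (hd : Pairwise fun i j => Disjoint (sqr (c i) (s i)) (sqr (c j) (s j)))
    (hfin : ∀ η > 0, {i | η < s i}.Finite) {q : ℝ × ℝ} (hq : ∀ i, q ∉ sqr (c i) (s i)) {R : ℝ}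
    (hR : 0 < R) (m : ℕ) :
    ∃ ρ, 0 < ρ ∧ ρ ≤ R ∧ ∃ f : ℝ × ℝ → ℝ, CF univ f ∧ (∀ p, 0 ≤ f p ∧ f p ≤ m) ∧
      (∀ p, dist p q ≤ ρ → f p = m) ∧ (∀ p, R ≤ dist p q → f p = 0) ∧ En univ f ≤ 32 * m ∧
      ∃ o : ι → ℝ, (∀ i, 0 ≤ o i) ∧
        (∀ i, ∀ p ∈ sqr (c i) (s i), ∀ p' ∈ sqr (c i) (s i), |f p - f p'| ≤ o i) ∧
        ∀ F : Finset ι, ∑ i ∈ F, o i ^ 2 ≤ 64 * m := by
  classical
  induction m with
  | zero =>
    refine ⟨R, hR, le_rfl, fun _ => 0, CF_const 0, fun p => by simp, fun p _ => by simp,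
      fun p _ => rfl, by rw [En_const]; simp, fun _ => 0, fun _ => le_rfl, fun i p _ p' _ => by simp,
      fun F => by simp⟩
  | succ m ih =>
    obtain ⟨ρ, hρ, hρR, f, h1, h2, h3, h4, h5, o, ho0, ho, hosum⟩ := ih
    obtain ⟨δ₀, hδ₀, hsmall⟩ := small_near hfin hq (half_pos hρ)
    set δ := min δ₀ (ρ / 2) with hδdef
    have hδ : 0 < δ := lt_min hδ₀ (half_pos hρ)
    have hδ1 : δ ≤ δ₀ := min_le_left _ _
    have hδ2 : δ ≤ ρ / 2 := min_le_right _ _
    have hδρ : δ ≤ ρ := by linarith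
    have hδR : δ ≤ R := hδρ.trans hρR
    refine ⟨δ / 2, half_pos hδ, by linarith, fun p => f p + tent q δ p, h1.add (tent_cf hδ),
      fun p => ?_, fun p hp => ?_, fun p hp => ?_, ?_,
      fun i => if ∃ p ∈ sqr (c i) (s i), dist p q ≤ δ then min 1 (2 / δ * s i) else o i,
      fun i => ?_, fun i p hp p' hp' => ?_, fun F => ?_⟩
    · push_cast
      exact ⟨add_nonneg (h2 p).1 (tent_nonneg _ _ _), add_le_add (h2 p).2 (tent_le_one _ _ _)⟩
    · beta_reduce
      rw [h3 p (by linarith), tent_one hδ hp]; push_cast; ring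
    · beta_reduce
      rw [h4 p hp, tent_zero hδ (hδR.trans hp), add_zero]
    · have hint : IntegrableOn (g2 f) univ :=
        integrable_of_cpt (𝓗 := ∅) isOpen_univ h1.cfj (isCompact_closedBall q R)
          (fun p _ hp => h4 p (by rw [mem_closedBall, not_le] at hp; exact hp.le))
      have hind : Integrable ((ball q δ).indicator fun _ : ℝ × ℝ => 8 / δ ^ 2) :=
        (integrable_indicator_iff measurableSet_ball).2
          (integrableOn_const measure_ball_lt_top.ne)
      have hsum : ∫ p, (g2 f p + (ball q δ).indicator (fun _ => 8 / δ ^ 2) p) =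
          En univ f + 32 := by
        rw [integral_add (by simpa [IntegrableOn] using hint) hind,
          integral_indicator measurableSet_ball, setIntegral_const, Measure.real,
          volume_ball_plane q hδ.le]
        unfold En
        rw [Measure.restrict_univ, smul_eq_mul]
        congr 1
        field_simp
        norm_num
      have hle : En univ (fun p => f p + tent q δ p) ≤
          ∫ p, (g2 f p + (ball q δ).indicator (fun _ => 8 / δ ^ 2) p) := by
        unfold En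
        rw [Measure.restrict_univ]
        refine integral_mono_of_nonneg (ae_of_all _ fun p => g2_nonneg _ p)
          ((by simpa [IntegrableOn] using hint : Integrable (g2 f)).add hind) ?_
        have hs' : volume (sphere q δ) = 0 := Measure.addHaar_sphere _ _ _
        filter_upwards [measure_eq_zero_iff_ae_notMem.mp hs'] with p hp
        rcases lt_trichotomy (dist p q) δ with h | h | h
        · have hpb : p ∈ ball q δ := h
          rw [indicator_of_mem hpb]
          have e1 : EqOn (fun p => f p + tent q δ p) (fun p => m + tent q δ p)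
              (ball q δ) := fun y hy => by
            have hy' : dist y q < δ := hy
            simp only; rw [h3 y (by linarith)]
          rw [g2_congr_of isOpen_ball e1 hpb]
          have e2 : g2 (fun p => (m : ℝ) + tent q δ p) p ≤ 2 * (2 / δ) ^ 2 := by
            refine SL.g2_le (U := univ) (L := 2 / δ) ?_ isOpen_univ (by positivity) (mem_univ p)
            have := (SL_const (U := univ) (X := ℝ × ℝ) (m : ℝ)).add
              (SL_of_lipschitz (U := univ) (tent_lip (q := q) hδ))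
            rw [zero_add, Real.coe_toNNReal _ (by positivity)] at this
            exact this
          have e3 : 2 * (2 / δ) ^ 2 = 8 / δ ^ 2 := by field_simp; norm_num
          have := g2_nonneg f p
          linarith
        · exact absurd h hp
        · have hpb : p ∉ ball q δ := fun h' => absurd (mem_ball.1 h') (not_lt.2 h.le)
          rw [indicator_of_notMem hpb, add_zero]
          have e1 : EqOn (fun p => f p + tent q δ p) f (closedBall q δ)ᶜ := fun y hy => by
            simp only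
            rw [tent_zero hδ (le_of_lt (by simpa using hy)), add_zero]
          exact (g2_congr_of isClosed_closedBall.isOpen_compl e1 (by simpa using h)).le
      push_cast
      linarith
    · beta_reduce
      split_ifs
      · exact le_min zero_le_one (by have := hs i; positivity)
      · exact ho0 i
    · beta_reduce
      split_ifs with hc
      · have hsi : s i ≤ ρ / 2 := by
          obtain ⟨y, hy, hyq⟩ := hc
          exact hsmall i ⟨y, hy, hyq.trans hδ1⟩
        have hnear : ∀ y ∈ sqr (c i) (s i), dist y q ≤ ρ := by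
          intro y hy
          obtain ⟨y', hy', hyq⟩ := hc
          have := dist_triangle y y' q
          have := dist_le_sqr hy hy'
          linarith
        rw [h3 p (hnear p hp), h3 p' (hnear p' hp'), add_sub_add_left_eq_sub]
        refine le_min ?_ ?_
        · rw [abs_le]
          have := tent_nonneg q δ p
          have := tent_nonneg q δ p'
          have := tent_le_one q δ p
          have := tent_le_one q δ p'
          constructor <;> linarith
        · have h6 := (tent_lip (q := q) hδ).dist_le_mul p p'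
          rw [Real.coe_toNNReal _ (by positivity), Real.dist_eq] at h6
          exact h6.trans (mul_le_mul_of_nonneg_left (dist_le_sqr hp hp') (by positivity))
      · push Not at hc
        rw [tent_zero hδ (hc p hp).le, tent_zero hδ (hc p' hp').le, add_zero, add_zero]
        exact ho i p hp p' hp'
    · have hsplit : ∑ i ∈ F, (if ∃ p ∈ sqr (c i) (s i), dist p q ≤ δ then min 1 (2 / δ * s i)
          else o i) ^ 2 ≤ ∑ i ∈ F.filter (fun i => ∃ p ∈ sqr (c i) (s i), dist p q ≤ δ),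
            (min 1 (2 / δ * s i)) ^ 2 + ∑ i ∈ F, o i ^ 2 := by
        rw [Finset.sum_filter, ← Finset.sum_add_distrib]
        refine Finset.sum_le_sum fun i _ => ?_
        split_ifs
        · have := sq_nonneg (o i); linarith
        · rw [zero_add]
      have h6 := sum_sqr_le hs hd q hδ (F.filter (fun i => ∃ p ∈ sqr (c i) (s i), dist p q ≤ δ))
        (fun i hi => (Finset.mem_filter.1 hi).2)
      have h7 := hosum F
      refine hsplit.trans ?_
      push_cast
      linarith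

/-- **cut-off at a point**, small Dirichlet energy and small sum of the squared oscillations
over the squares. -/
theorem cap_point_sq {ι : Type*} {c : ι → ℝ × ℝ} {s : ι → ℝ} (hs : ∀ i, 0 ≤ s i)
    (hd : Pairwise fun i j => Disjoint (sqr (c i) (s i)) (sqr (c j) (s j)))
    (hfin : ∀ η > 0, {i | η < s i}.Finite) {q : ℝ × ℝ} (hq : ∀ i, q ∉ sqr (c i) (s i)) {R ε : ℝ}
    (hR : 0 < R) (hε : 0 < ε) :
    ∃ r, 0 < r ∧ ∃ lam : ℝ × ℝ → ℝ, CF univ lam ∧ (∀ p, 0 ≤ lam p ∧ lam p ≤ 1) ∧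
      (∀ p, dist p q ≤ r → lam p = 1) ∧ (∀ p, R ≤ dist p q → lam p = 0) ∧ En univ lam ≤ ε ∧
      ∃ o : ι → ℝ, (∀ i, 0 ≤ o i) ∧
        (∀ i, ∀ p ∈ sqr (c i) (s i), ∀ p' ∈ sqr (c i) (s i), |lam p - lam p'| ≤ o i) ∧
        (∀ F : Finset ι, ∑ i ∈ F, o i ^ 2 ≤ ε) ∧ Summable (fun i => o i ^ 2) ∧
        ∑' i, o i ^ 2 ≤ ε := by
  obtain ⟨m, hm⟩ := exists_nat_gt (64 / ε)
  have hm0 : (0 : ℝ) < m := (by positivity : (0 : ℝ) < 64 / ε).trans hm
  have hmε : 64 ≤ ε * m := by rw [div_lt_iff₀ hε] at hm; linarith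
  obtain ⟨ρ, hρ, -, f, h1, h2, h3, h4, h5, o, ho0, ho, hosum⟩ := tents_sq hs hd hfin hq hR m
  have hF : ∀ F : Finset ι, ∑ i ∈ F, ((m : ℝ)⁻¹ * o i) ^ 2 ≤ ε := by
    intro F
    have e : ∑ i ∈ F, ((m : ℝ)⁻¹ * o i) ^ 2 = ((m : ℝ)⁻¹) ^ 2 * ∑ i ∈ F, o i ^ 2 := by
      rw [Finset.mul_sum]; exact Finset.sum_congr rfl fun i _ => by ring
    rw [e]
    calc ((m : ℝ)⁻¹) ^ 2 * ∑ i ∈ F, o i ^ 2 ≤ ((m : ℝ)⁻¹) ^ 2 * (64 * m) :=
          mul_le_mul_of_nonneg_left (hosum F) (by positivity)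
      _ = 64 / m := by field_simp
      _ ≤ ε := by rw [div_le_iff₀ hm0]; exact hmε
  refine ⟨ρ, hρ, fun p => (m : ℝ)⁻¹ * f p, h1.const_mul _,
    fun p => ⟨by have := (h2 p).1; positivity, ?_⟩, fun p hp => ?_, fun p hp => ?_, ?_,
    fun i => (m : ℝ)⁻¹ * o i, fun i => by have := ho0 i; positivity, fun i p hp p' hp' => ?_, hF,
    summable_of_sum_le (fun i => sq_nonneg _) hF, ?_⟩
  · rw [inv_mul_le_iff₀ hm0]; simpa using (h2 p).2
  · beta_reduce
    rw [h3 p hp]; exact inv_mul_cancel₀ hm0.ne'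
  · beta_reduce
    rw [h4 p hp, mul_zero]
  · rw [CFJ.En_const_mul (𝓗 := ∅) isOpen_univ h1.cfj]
    calc ((m : ℝ)⁻¹) ^ 2 * En univ f ≤ ((m : ℝ)⁻¹) ^ 2 * (32 * m) :=
          mul_le_mul_of_nonneg_left h5 (by positivity)
      _ = 32 / m := by field_simp
      _ ≤ ε := by rw [div_le_iff₀ hm0]; linarith
  · beta_reduce
    rw [← mul_sub, abs_mul, abs_of_pos (by positivity : (0 : ℝ) < (m : ℝ)⁻¹)]
    exact mul_le_mul_of_nonneg_left (ho i p hp p' hp') (by positivity)
  · exact (summable_of_sum_le (fun i => sq_nonneg _) hF).tsum_le_of_sum_le hF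

end Crest.Agent.R105.Sin_925
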