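import Crest.Agent.R105.Sd1_938
import Crest.Agent.R105.Uw4_913
import Crest.Agent.R105.Uni3_659

/-!
Row 105, S0138 (helper938), LEMMA Y, part (0) of 701's plan (#10366): superlevel sets of a switched
function are open and connected, in the plane and in `U`; rational points are dense in continua
(also near a component of `Y`).
-/

set_option autoImplicit false

open MeasureTheory Set Filter Topology Metric
open scoped NNReal ENNReal

namespace Crest.Agent.R105.Sd_938

open Crest.AnalysisR (IsExteriorDomain)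

variable {Y : Set ℂ} {u : ℂ → ℝ}

/-- the far part of a superlevel set of `σ * re` -/
def Far (σ t S : ℝ) : Set ℂ := {z | t < σ * z.re ∧ (S < σ * z.re ∨ S < z.im ∨ z.im < -S)}

lemma preconn_Far {σ t S : ℝ} (hσ : σ = 1 ∨ σ = -1) (hS : |t| < S) : IsPreconnected (Far σ t S) := by
  have hS' := abs_lt.1 hS
  have h1 : IsPreconnected {z : ℂ | S < σ * z.re} := by
    have : Convex ℝ {z : ℂ | S < σ * z.re} := by
      rintro x hx y hy a b ha hb hab
      simp only [mem_ofPred_eq, Complex.add_re, Complex.real_smul, Complex.mul_re,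
        Complex.ofReal_re, Complex.ofReal_im, zero_mul, sub_zero] at hx hy ⊢
      rcases ha.eq_or_lt with rfl | ha'
      · have : b = 1 := by linarith
        subst this; linarith
      · have e1 := mul_lt_mul_of_pos_left hx ha'
        have e2 := mul_le_mul_of_nonneg_left hy.le hb
        have : S = a * S + b * S := by rw [← add_mul, hab, one_mul]
        nlinarith
    exact this.isPreconnected
  have h2 : IsPreconnected {z : ℂ | t < σ * z.re ∧ S < z.im} := by
    have : Convex ℝ {z : ℂ | t < σ * z.re ∧ S < z.im} := by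
      rintro x ⟨hx, hx'⟩ y ⟨hy, hy'⟩ a b ha hb hab
      simp only [mem_ofPred_eq, Complex.add_re, Complex.add_im, Complex.real_smul, Complex.mul_re,
        Complex.mul_im, Complex.ofReal_re, Complex.ofReal_im, zero_mul, sub_zero, add_zero]
      rcases ha.eq_or_lt with rfl | ha'
      · have : b = 1 := by linarith
        subst this; constructor <;> linarith
      · have e1 := mul_lt_mul_of_pos_left hx ha'
        have e2 := mul_le_mul_of_nonneg_left hy.le hb
        have e3 := mul_lt_mul_of_pos_left hx' ha'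
        have e4 := mul_le_mul_of_nonneg_left hy'.le hb
        have e5 : S = a * S + b * S := by rw [← add_mul, hab, one_mul]
        have e6 : t = a * t + b * t := by rw [← add_mul, hab, one_mul]
        constructor <;> nlinarith
    exact this.isPreconnected
  have h3 : IsPreconnected {z : ℂ | t < σ * z.re ∧ z.im < -S} := by
    have : Convex ℝ {z : ℂ | t < σ * z.re ∧ z.im < -S} := by
      rintro x ⟨hx, hx'⟩ y ⟨hy, hy'⟩ a b ha hb hab
      simp only [mem_ofPred_eq, Complex.add_re, Complex.add_im, Complex.real_smul, Complex.mul_re,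
        Complex.mul_im, Complex.ofReal_re, Complex.ofReal_im, zero_mul, sub_zero, add_zero]
      rcases ha.eq_or_lt with rfl | ha'
      · have : b = 1 := by linarith
        subst this; constructor <;> linarith
      · have e1 := mul_lt_mul_of_pos_left hx ha'
        have e2 := mul_le_mul_of_nonneg_left hy.le hb
        have e3 := mul_lt_mul_of_pos_left hx' ha'
        have e4 := mul_le_mul_of_nonneg_left hy'.le hb
        have e5 : -S = a * -S + b * -S := by rw [← add_mul, hab, one_mul]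
        have e6 : t = a * t + b * t := by rw [← add_mul, hab, one_mul]
        constructor <;> nlinarith
    exact this.isPreconnected
  have hss : σ * σ = 1 := by rcases hσ with rfl | rfl <;> norm_num
  have e : Far σ t S = ({z : ℂ | S < σ * z.re} ∪ {z : ℂ | t < σ * z.re ∧ S < z.im}) ∪
      {z : ℂ | t < σ * z.re ∧ z.im < -S} := by
    ext z
    simp only [Far, mem_ofPred_eq, mem_union]
    constructor
    · rintro ⟨h, h' | h' | h'⟩
      · exact Or.inl (Or.inl h')
      · exact Or.inl (Or.inr ⟨h, h'⟩)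
      · exact Or.inr ⟨h, h'⟩
    · rintro ((h | ⟨h, h'⟩) | ⟨h, h'⟩)
      · exact ⟨by linarith, Or.inl h⟩
      · exact ⟨h, Or.inr (Or.inl h')⟩
      · exact ⟨h, Or.inr (Or.inr h')⟩
  rw [e]
  refine IsPreconnected.union (x := (⟨σ * (S + 1), -(S + 1)⟩ : ℂ)) (Or.inl ?_) ?_
    (IsPreconnected.union (x := (⟨σ * (S + 1), S + 1⟩ : ℂ)) ?_ ?_ h1 h2) h3
  · show S < σ * (σ * (S + 1)); rw [← mul_assoc, hss]; linarith
  · refine ⟨?_, ?_⟩
    · show t < σ * (σ * (S + 1)); rw [← mul_assoc, hss]; linarith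
    · show -(S + 1) < -S; linarith
  · show S < σ * (σ * (S + 1)); rw [← mul_assoc, hss]; linarith
  · refine ⟨?_, ?_⟩
    · show t < σ * (σ * (S + 1)); rw [← mul_assoc, hss]; linarith
    · show S < S + 1; linarith

lemma locLip_neg {U : Set ℂ} {u : ℂ → ℝ} (h : LocallyLipschitzOn U u) :
    LocallyLipschitzOn U fun z => - u z := by
  intro z hz
  obtain ⟨K, V, hV, hK⟩ := h hz
  refine ⟨K, V, hV, LipschitzOnWith.of_dist_le_mul fun x hx y hy => ?_⟩
  rw [dist_neg_neg]
  exact hK.dist_le_mul x hx y hy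

section
variable (hY : IsExteriorDomain Yᶜ) (hu : Ni_459.LB u) (hl : LocallyLipschitzOn Yᶜ u)
include hY hu hl

lemma lo_eq {z : ℂ} (hz : z ∉ Y) : Ni_459.lo Y u z = u z :=
  Ni_459.lo_of_notMem hY hu hz (Uni_659.continuousAt_of_lip hY hl hz)

lemma up_eq {z : ℂ} (hz : z ∉ Y) : Ni_459.up Y u z = u z :=
  Ni_459.up_of_notMem hY hu hz (Uni_659.continuousAt_of_lip hY hl hz)

/-- **superlevel sets of a switched function are connected** (`σ = ±1`, `u = σ re` far away) -/
theorem conn_lo (hs : Ni_459.Swd Y u) {σ : ℝ} (hσ : σ = 1 ∨ σ = -1)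
    (hfar : ∃ R : ℝ, ∀ z : ℂ, R ≤ ‖z‖ → u z = σ * z.re) (t : ℝ) :
    IsPreconnected {z | t < Ni_459.lo Y u z} := by
  obtain ⟨R, hR⟩ := hfar
  obtain ⟨RY, hRY⟩ := (Ni_459.cpt_of hY).isBounded.exists_norm_le
  set S : ℝ := max (max R RY) |t| + 1 with hSdef
  have hSR : R < S := by rw [hSdef]; linarith [le_max_left (max R RY) |t|, le_max_left R RY]
  have hSRY : RY < S := by rw [hSdef]; linarith [le_max_left (max R RY) |t|, le_max_right R RY]
  have hSt : |t| < S := by rw [hSdef]; linarith [le_max_right (max R RY) |t|]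
  have hσa : ∀ z : ℂ, |σ * z.re| = |z.re| := by
    intro z; rcases hσ with rfl | rfl <;> simp [abs_neg]
  -- points outside of the square
  have hout : ∀ z : ℂ, (S < σ * z.re ∨ S < z.im ∨ z.im < -S ∨ σ * z.re < -S) → S < ‖z‖ := by
    intro z hz
    have h1 := Complex.abs_re_le_norm z
    have h2 := Complex.abs_im_le_norm z
    rw [← hσa] at h1
    rcases hz with h | h | h | h
    · exact h.trans_le ((le_abs_self _).trans h1)
    · exact h.trans_le ((le_abs_self _).trans h2)
    · have := neg_le_abs z.im; linarith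
    · have := neg_le_abs (σ * z.re); linarith
  have hoff : ∀ z : ℂ, S < ‖z‖ → Ni_459.lo Y u z = σ * z.re := by
    intro z hz
    have hzY : z ∉ Y := fun h => absurd (hRY z h) (not_le.2 (hSRY.trans hz))
    rw [lo_eq hY hu hl hzY, hR z (hSR.trans hz).le]
  have hsub : Far σ t S ⊆ {z | t < Ni_459.lo Y u z} := by
    rintro z ⟨h1, h2⟩
    have h3 : S < ‖z‖ := hout z (by tauto)
    show t < Ni_459.lo Y u z
    rw [hoff z h3]; exact h1
  have hpc := preconn_Far hσ hSt
  -- every component contains the far part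
  have key : ∀ z ∈ {z | t < Ni_459.lo Y u z},
      Far σ t S ⊆ connectedComponentIn {z | t < Ni_459.lo Y u z} z := by
    intro z hz
    have h1 := hs.gt t z hz
    have h2 : ∃ w ∈ connectedComponentIn {z | t < Ni_459.lo Y u z} z, 2 * S < ‖w‖ := by
      by_contra hcon
      push Not at hcon
      exact h1 (isBounded_iff_forall_norm_le.2 ⟨2 * S, hcon⟩)
    obtain ⟨w, hw, hwn⟩ := h2
    have hwt : t < Ni_459.lo Y u w :=
      connectedComponentIn_subset {z | t < Ni_459.lo Y u z} z hw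
    have hS0 : 0 < S := (abs_nonneg t).trans_lt hSt
    have hwF : w ∈ Far σ t S := by
      have h3 : S < ‖w‖ := by linarith
      rw [hoff w h3] at hwt
      refine ⟨hwt, ?_⟩
      by_contra hcon
      rw [not_or, not_or] at hcon
      push Not at hcon
      have h4 : |w.re| ≤ S := by
        rw [← hσa, abs_le]
        refine ⟨?_, hcon.1⟩
        have := (abs_lt.1 hSt).1
        linarith
      have h5 : |w.im| ≤ S := abs_le.2 ⟨hcon.2.2, hcon.2.1⟩
      have h6 := Complex.norm_le_abs_re_add_abs_im w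
      linarith
    rw [connectedComponentIn_eq hw]
    exact hpc.subset_connectedComponentIn hwF hsub
  rcases eq_empty_or_nonempty {z | t < Ni_459.lo Y u z} with he | ⟨z0, hz0⟩
  · rw [he]; exact isPreconnected_empty
  -- a point of the far part
  have hFne : (⟨σ * (S + 1), 0⟩ : ℂ) ∈ Far σ t S := by
    have hss : σ * σ = 1 := by rcases hσ with rfl | rfl <;> norm_num
    have := (abs_lt.1 hSt)
    refine ⟨?_, Or.inl ?_⟩
    · show t < σ * (σ * (S + 1)); rw [← mul_assoc, hss]; linarith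
    · show S < σ * (σ * (S + 1)); rw [← mul_assoc, hss]; linarith
  have h7 : {z | t < Ni_459.lo Y u z} ⊆
      connectedComponentIn {z | t < Ni_459.lo Y u z} (⟨σ * (S + 1), 0⟩ : ℂ) := by
    intro z hz
    have h8 := key z hz hFne
    rw [← connectedComponentIn_eq h8]
    exact mem_connectedComponentIn hz
  have h9 : {z | t < Ni_459.lo Y u z} =
      connectedComponentIn {z | t < Ni_459.lo Y u z} (⟨σ * (S + 1), 0⟩ : ℂ) :=
    Subset.antisymm h7 (connectedComponentIn_subset _ _)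
  rw [h9]
  exact isPreconnected_connectedComponentIn

omit hY hu hl in
/-- the superlevel sets are saturated -/
lemma sat_lo (t : ℝ) : ∀ z ∈ {z | t < Ni_459.lo Y u z},
    connectedComponentIn Y z ⊆ {z | t < Ni_459.lo Y u z} := by
  intro z hz w hw
  by_cases hzY : z ∈ Y
  · show t < Ni_459.lo Y u w
    rw [Ni_459.lo_congr_cc hzY hw]; exact hz
  · rw [connectedComponentIn_eq_empty hzY] at hw; exact absurd hw (notMem_empty w)

lemma gt_sdiff (t : ℝ) : {z | t < Ni_459.lo Y u z} \ Y = {z | z ∉ Y ∧ t < u z} := by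
  ext z
  constructor
  · rintro ⟨h, h'⟩
    have h1 : t < Ni_459.lo Y u z := h
    exact ⟨h', by rwa [lo_eq hY hu hl h'] at h1⟩
  · rintro ⟨h, h'⟩
    refine ⟨?_, h⟩
    show t < Ni_459.lo Y u z
    rwa [lo_eq hY hu hl h]

/-- **superlevel sets of a switched function in `U` are connected** -/
theorem conn_gt' (hs : Ni_459.Swd Y u) {σ : ℝ} (hσ : σ = 1 ∨ σ = -1)
    (hfar : ∃ R : ℝ, ∀ z : ℂ, R ≤ ‖z‖ → u z = σ * z.re) (t : ℝ) :
    IsPreconnected {z | z ∉ Y ∧ t < u z} := by
  rw [← gt_sdiff hY hu hl]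
  exact Uw_913.preconn_sdiff hY (Ni_459.isOpen_lt_lo hY hu t) (conn_lo hY hu hl hs hσ hfar t)
    (sat_lo t)

lemma isOpen_gt (t : ℝ) : IsOpen {z | z ∉ Y ∧ t < u z} := by
  rw [← gt_sdiff hY hu hl]
  exact (Ni_459.isOpen_lt_lo hY hu t).sdiff (Ni_459.cpt_of hY).isClosed

/-- `{u > t} ∩ U` is connected -/
theorem conn_gt (hs : Ni_459.Swd Y u) (hfar : ∃ R : ℝ, ∀ z : ℂ, R ≤ ‖z‖ → u z = z.re) (t : ℝ) :
    IsPreconnected {z | z ∉ Y ∧ t < u z} :=
  conn_gt' hY hu hl hs (Or.inl rfl) (by simpa using hfar) t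

/-- `{t < lo u}` is connected -/
theorem conn_P (hs : Ni_459.Swd Y u) (hfar : ∃ R : ℝ, ∀ z : ℂ, R ≤ ‖z‖ → u z = z.re) (t : ℝ) :
    IsPreconnected {z | t < Ni_459.lo Y u z} :=
  conn_lo hY hu hl hs (Or.inl rfl) (by simpa using hfar) t

/-- `{up u < t}` is connected -/
theorem conn_M (hs : Ni_459.Swd Y u) (hfar : ∃ R : ℝ, ∀ z : ℂ, R ≤ ‖z‖ → u z = z.re) (t : ℝ) :
    IsPreconnected {z | Ni_459.up Y u z < t} := by
  have h := conn_lo (u := fun z => - u z) hY hu.neg (locLip_neg hl) (Uni_659.Swd_neg hs)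
    (Or.inr rfl) (by
      obtain ⟨R, hR⟩ := hfar
      exact ⟨R, fun z hz => by simp [hR z hz]⟩) (-t)
  convert h using 1
  ext z
  simp only [mem_ofPred_eq, Uni_659.lo_neg, neg_lt_neg_iff]

/-- `{u < t} ∩ U` is connected -/
theorem conn_lt (hs : Ni_459.Swd Y u) (hfar : ∃ R : ℝ, ∀ z : ℂ, R ≤ ‖z‖ → u z = z.re) (t : ℝ) :
    IsPreconnected {z | z ∉ Y ∧ u z < t} := by
  have h := conn_gt' (u := fun z => - u z) hY hu.neg (locLip_neg hl) (Uni_659.Swd_neg hs)
    (Or.inr rfl) (by
      obtain ⟨R, hR⟩ := hfar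
      exact ⟨R, fun z hz => by simp [hR z hz]⟩) (-t)
  convert h using 1
  ext z
  simp only [mem_ofPred_eq, neg_lt_neg_iff]

lemma isOpen_lt (t : ℝ) : IsOpen {z | z ∉ Y ∧ u z < t} := by
  have h := isOpen_gt (u := fun z => - u z) hY hu.neg (locLip_neg hl) (-t)
  convert h using 1
  ext z
  simp only [mem_ofPred_eq, neg_lt_neg_iff]

/-- level set off `Y` -/
lemma mem_Lv {z : ℂ} (hz : z ∉ Y) {t : ℝ} : z ∈ Ni_459.Lv Y u t ↔ u z = t := by
  show Ni_459.lo Y u z ≤ t ∧ t ≤ Ni_459.up Y u z ↔ u z = t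
  rw [lo_eq hY hu hl hz, up_eq hY hu hl hz]
  exact ⟨fun h => le_antisymm h.1 h.2, fun h => ⟨h.le, h.ge⟩⟩

/-- **for a.e. `t` all points of `Lv Y u t \ Y` on rational lines are crossings** -/
theorem ae_cross_Lv : ∀ᵐ t : ℝ, ∀ p ∈ Ni_459.Lv Y u t, p ∉ Y → u p = t ∧
    ((∃ q : ℚ, p.im = q) → CrH u p) ∧ ((∃ q : ℚ, p.re = q) → CrV u p) := by
  filter_upwards [ae_cross hY.1 hl] with t ht p hp hpY
  have h1 : u p = t := (mem_Lv hY hu hl hpY).1 hp
  exact ⟨h1, ht p hpY h1⟩

end

/-- near a component of `Y` a connected set which leaves it has points off `Y` -/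
theorem exists_off_near (hY : IsExteriorDomain Yᶜ) {C : Set ℂ} (hC : IsPreconnected C) {z w : ℂ}
    (hz : z ∈ C) (hzY : z ∈ Y) (hw : w ∈ C) (hwz : w ∉ connectedComponentIn Y z) {O : Set ℂ}
    (hO : IsOpen O) (hzO : connectedComponentIn Y z ⊆ O) : ∃ r ∈ C, r ∈ O ∧ r ∉ Y := by
  have hK : IsCompact (connectedComponentIn Y z) := Thin_12.isCompact_cc (Ni_459.cpt_of hY) z
  obtain ⟨O', hO', hKO', hO'O, -⟩ := exists_open_between_and_isCompact_closure hK
    (hO.sdiff (isClosed_singleton (x := w)))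
    (fun x hx => ⟨hzO hx, fun h => hwz (by rwa [mem_singleton_iff.1 h] at hx)⟩)
  obtain ⟨N, hN, hzN, hNW, hfr, -⟩ := Ext_616.exists_sat_nhd (V := Yᶜ) hY (ζ := z)
    (fun h => h hzY) hO' (by rw [compl_compl]; exact hKO')
  rw [compl_compl] at hzN
  obtain ⟨r, hrC, hr⟩ := meets_frontier hC hz (hzN (mem_connectedComponentIn hzY)) hw
    (fun h => (hO'O (subset_closure (hNW h))).2 rfl)
  exact ⟨r, hrC, (hO'O (closure_mono hNW (frontier_subset_closure hr))).1, hfr hr⟩

/-- **points on rational lines off `Y` are dense in connected sets** (also near a component of `Y`) -/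
theorem exists_rat_off (hY : IsExteriorDomain Yᶜ) {C : Set ℂ} (hC : IsPreconnected C) {z w : ℂ}
    (hz : z ∈ C) (hw : w ∈ C) (hwz : w ∉ connectedComponentIn Y z) (hwz' : w ≠ z) {O : Set ℂ}
    (hO : Ni_459.Nb Y z O) :
    ∃ r ∈ C, r ∈ O ∧ r ∉ Y ∧ ((∃ c : ℚ, r.im = c) ∨ ∃ c : ℚ, r.re = c) := by
  have hYo : IsOpen Yᶜ := hY.1
  by_cases hzY : z ∈ Y
  · obtain ⟨r, hrC, hrO, hrY⟩ := exists_off_near hY hC hz hzY hw hwz hO.op hO.sub
    have hzr : z ≠ r := fun h => hrY (h ▸ hzY)
    obtain ⟨s, hsC, hsO, hs⟩ := exists_rat hC hrC hz hzr ((hO.op.inter hYo).mem_nhds ⟨hrO, hrY⟩)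
    exact ⟨s, hsC, hsO.1, hsO.2, hs⟩
  · obtain ⟨s, hsC, hsO, hs⟩ := exists_rat hC hz hw hwz' ((hO.op.inter hYo).mem_nhds ⟨hO.mem, hzY⟩)
    exact ⟨s, hsC, hsO.1, hsO.2, hs⟩

end Crest.Agent.R105.Sd_938
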