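import Crest.Agent.R105.Uni3_659
import Crest.Agent.R105.Nit1_39
import Crest.Agent.R105.Sd2_938

/-!
# Row 105, S0138: the level sets of a switched function (`= re` far away) are preconnected

(helper948; the proof is helper31's, file Nip7_31, repeated here over fewer imports)
-/

set_option autoImplicit false

open MeasureTheory Set Filter Topology Metric

namespace Crest.Agent.R105.Cpt_948

open Crest.AnalysisR (IsExteriorDomain)
open Crest.Agent.R105.Ni_459

/-- a closed set without islands whose part outside a compact set is preconnected (and nonempty)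
is preconnected -/
lemma preconn_of_noIsland {S B : Set ℂ} (hS : IsClosed S) (hN : Uni_659.NoIsland S)
    (hB : IsCompact B) (hSB : IsPreconnected (S \ B)) : IsPreconnected S := by
  rw [isPreconnected_iff_subset_of_fully_disjoint_closed hS]
  intro u v hu hv huv hd
  -- the part outside `B` lies in one of them
  have key : ∀ u v : Set ℂ, IsClosed u → IsClosed v → S ⊆ u ∪ v → Disjoint u v → S \ B ⊆ u →
      S ⊆ u := by
    intro u v hu hv huv hd hsub
    by_contra hcon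
    obtain ⟨z, hz, hzu⟩ := Set.not_subset.1 hcon
    have hzv : z ∈ v := (huv hz).resolve_left hzu
    have h1 : S ∩ v ⊆ B := by
      intro x hx
      by_contra hxB
      exact disjoint_left.1 hd (hsub ⟨hx.1, hxB⟩) hx.2
    refine hN (S ∩ v) inter_subset_left ⟨z, hz, hzv⟩ (hB.of_isClosed_subset (hS.inter hv) h1)
      ⟨uᶜ, hu.isOpen_compl, ?_⟩
    ext x
    constructor
    · rintro ⟨hx, hxS⟩
      exact ⟨hxS, (huv hxS).resolve_left hx⟩
    · rintro ⟨hxS, hxv⟩
      exact ⟨fun hxu => disjoint_left.1 hd hxu hxv, hxS⟩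
  have h2 : S \ B ⊆ u ∨ S \ B ⊆ v := by
    refine isPreconnected_iff_subset_of_disjoint_closed.1 hSB u v hu hv
      (sdiff_subset.trans huv) ?_
    rw [hd.inter_eq, inter_empty]
  rcases h2 with h2 | h2
  · exact Or.inl (key u v hu hv huv hd h2)
  · exact Or.inr (key v u hv hu (by rwa [union_comm]) hd.symm h2)

/-- the closed box -/
def bx (ρ : ℝ) : Set ℂ := {z | |z.re| ≤ ρ ∧ |z.im| ≤ ρ}

lemma bx_compact (ρ : ℝ) : IsCompact (bx ρ) := by
  refine (isCompact_closedBall (0 : ℂ) (2 * ρ)).of_isClosed_subset ?_ fun z hz => ?_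
  · exact (isClosed_le Complex.continuous_re.abs continuous_const).inter
      (isClosed_le Complex.continuous_im.abs continuous_const)
  · rw [mem_closedBall_zero_iff]
    have := Complex.norm_le_abs_re_add_abs_im z
    linarith [hz.1, hz.2]

lemma norm_of_notMem_bx {ρ : ℝ} {z : ℂ} (h : z ∉ bx ρ) : ρ < ‖z‖ := by
  by_contra hcon
  push Not at hcon
  exact h ⟨(Complex.abs_re_le_norm z).trans hcon, (Complex.abs_im_le_norm z).trans hcon⟩

lemma preconn_ge {t ρ : ℝ} (h1 : -ρ < t) (hρ : 0 < ρ) :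
    IsPreconnected {z : ℂ | z ∉ bx ρ ∧ t ≤ z.re} := by
  have c1 : Convex ℝ {z : ℂ | t ≤ z.re ∧ ρ < z.im} :=
    (convex_halfSpace_re_ge t).inter (convex_halfSpace_im_gt ρ)
  have c2 : Convex ℝ {z : ℂ | ρ < z.re ∧ t ≤ z.re} :=
    (convex_halfSpace_re_gt ρ).inter (convex_halfSpace_re_ge t)
  have c3 : Convex ℝ {z : ℂ | t ≤ z.re ∧ z.im < -ρ} :=
    (convex_halfSpace_re_ge t).inter (convex_halfSpace_im_lt (-ρ))
  set x : ℝ := max t ρ + 1 with hx
  have hxt : t < x := by rw [hx]; linarith [le_max_left t ρ]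
  have hxρ : ρ < x := by rw [hx]; linarith [le_max_right t ρ]
  have h12 := IsPreconnected.union (⟨x, ρ + 1⟩ : ℂ)
    (show (⟨x, ρ + 1⟩ : ℂ) ∈ {z : ℂ | t ≤ z.re ∧ ρ < z.im} from ⟨hxt.le, by simp⟩)
    (show (⟨x, ρ + 1⟩ : ℂ) ∈ {z : ℂ | ρ < z.re ∧ t ≤ z.re} from ⟨hxρ, hxt.le⟩)
    c1.isPreconnected c2.isPreconnected
  have h123 := IsPreconnected.union (⟨x, -ρ - 1⟩ : ℂ) (Or.inr ⟨hxρ, hxt.le⟩)
    (show (⟨x, -ρ - 1⟩ : ℂ) ∈ {z : ℂ | t ≤ z.re ∧ z.im < -ρ} from ⟨hxt.le, by simp⟩)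
    h12 c3.isPreconnected
  convert h123 using 1
  ext z
  constructor
  · rintro ⟨hz, hzt⟩
    simp only [bx, mem_ofPred_eq, not_and_or, not_le, lt_abs] at hz
    rcases hz with (hz | hz) | (hz | hz)
    · exact Or.inl (Or.inr ⟨hz, hzt⟩)
    · exfalso; linarith
    · exact Or.inl (Or.inl ⟨hzt, hz⟩)
    · exact Or.inr ⟨hzt, show z.im < -ρ by linarith⟩
  · rintro ((⟨h, h'⟩ | ⟨h, h'⟩) | ⟨h, h'⟩)
    · exact ⟨fun hb => by have := (abs_le.1 hb.2).2; linarith, h⟩
    · exact ⟨fun hb => by have := (abs_le.1 hb.1).2; linarith, h'⟩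
    · exact ⟨fun hb => by have := (abs_le.1 hb.2).1; linarith, h⟩

lemma preconn_le {t ρ : ℝ} (h1 : t < ρ) (hρ : 0 < ρ) :
    IsPreconnected {z : ℂ | z ∉ bx ρ ∧ z.re ≤ t} := by
  have h := (preconn_ge (t := -t) (ρ := ρ) (by linarith) hρ).image (fun z : ℂ => -z)
    continuous_neg.continuousOn
  convert h using 1
  ext z
  constructor
  · rintro ⟨hz, hzt⟩
    refine ⟨-z, ⟨fun hb => hz ?_, by simp only [Complex.neg_re]; linarith⟩, by simp⟩
    simpa [bx] using hb
  · rintro ⟨w, ⟨hw, hwt⟩, rfl⟩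
    refine ⟨fun hb => hw (by simpa [bx] using hb), ?_⟩
    simp only [Complex.neg_re]; linarith

variable {Y : Set ℂ} {A f : ℂ → ℝ} {R t : ℝ}

lemma contAt (hY : IsExteriorDomain Yᶜ) (hf : LocallyLipschitzOn Yᶜ f) {z : ℂ} (hz : z ∉ Y) :
    ContinuousAt f z :=
  hf.continuousOn.continuousAt ((cpt_of hY).isClosed.isOpen_compl.mem_nhds hz)

/-- **level sets of a switched function are preconnected** -/
theorem lv_preconn (hY : IsExteriorDomain Yᶜ) (hA : LocallyLipschitzOn Yᶜ A) (hAb : LB A)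
    (hR : Y ⊆ ball 0 R) (hfar : ∀ z : ℂ, R ≤ ‖z‖ → A z = z.re) (hs : Swd Y A) (t : ℝ) :
    IsPreconnected (Lv Y A t) := by
  set ρ : ℝ := max R (|t| + 1) with hρ
  have hρR : R ≤ ρ := le_max_left _ _
  have hρt : |t| < ρ := by rw [hρ]; linarith [le_max_right R (|t| + 1)]
  have hρ0 : 0 < ρ := (abs_nonneg t).trans_lt hρt
  have hout : ∀ z, z ∉ bx ρ → z ∉ Y ∧ A z = z.re := by
    intro z hz
    have h1 := norm_of_notMem_bx hz
    refine ⟨fun h => ?_, hfar z (hρR.trans h1.le)⟩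
    have h2 := mem_ball_zero_iff.1 (hR h)
    linarith
  have hge : IsPreconnected {z | t ≤ up Y A z} := by
    refine preconn_of_noIsland ((usc_up hY hAb).isClosed_preimage t)
      (Uni_659.noIsland_up hY hAb (fun z hz => contAt hY hA hz) hs t) (bx_compact ρ) ?_
    convert preconn_ge (t := t) (ρ := ρ) (by linarith [(abs_lt.1 hρt).1]) hρ0 using 1
    ext z
    constructor
    · rintro ⟨h1, h2⟩
      refine ⟨h2, ?_⟩
      obtain ⟨h3, h4⟩ := hout z h2
      rw [← h4, ← Sd_938.up_eq hY hAb hA h3]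
      exact h1
    · rintro ⟨h2, h1⟩
      obtain ⟨h3, h4⟩ := hout z h2
      refine ⟨?_, h2⟩
      show t ≤ up Y A z
      rw [Sd_938.up_eq hY hAb hA h3, h4]
      exact h1
  have hle : IsPreconnected {z | lo Y A z ≤ t} := by
    refine preconn_of_noIsland ((lsc_lo hY hAb).isClosed_preimage t)
      (Uni_659.noIsland_lo hY hAb (fun z hz => contAt hY hA hz) hs t) (bx_compact ρ) ?_
    convert preconn_le (t := t) (ρ := ρ) (abs_lt.1 hρt).2 hρ0 using 1
    ext z
    constructor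
    · rintro ⟨h1, h2⟩
      refine ⟨h2, ?_⟩
      obtain ⟨h3, h4⟩ := hout z h2
      rw [← h4, ← Sd_938.lo_eq hY hAb hA h3]
      exact h1
    · rintro ⟨h2, h1⟩
      obtain ⟨h3, h4⟩ := hout z h2
      refine ⟨?_, h2⟩
      show lo Y A z ≤ t
      rw [Sd_938.lo_eq hY hAb hA h3, h4]
      exact h1
  exact Nit_39.isPreconnected_level (lsc_lo hY hAb) (usc_up hY hAb) (lo_le_up hY hAb) hle hge

end Crest.Agent.R105.Cpt_948
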