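import Mathlib

/-!
# Row 105, S0138, Lemma Y (helper338), part 0: literal interface

`L` = level set `Lv Y a t` (closed, saturated for the compact `Y`, inside the strip `|re| + 1 ≤ X`).
* `Good L X p` : crossing sets
* `Lev`, `En`, `Cut`
* `Slc` : slice data of one generic level (output of helper392)
* `BumpL` : boundary bumping in `L` (helper659)
-/

set_option autoImplicit false

namespace Crest.Agent.R105.LmY_338

open Set Topology Metric Filter MeasureTheory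
open scoped ContDiff

/-- crossing sets -/
def Good (L : Set ℂ) (X : ℝ) (p : ℂ) : Prop :=
  ∃ H, IsCompact H ∧ IsPreconnected H ∧ H ∩ L ⊆ {p} ∧ (∃ q ∈ H, q.re ≤ -X) ∧ ∃ q ∈ H, X ≤ q.re

/-- the topological data of a level set -/
structure Lev (Y L : Set ℂ) (X : ℝ) : Prop where
  cY : IsCompact Y
  cL : IsClosed L
  sat : ∀ z ∈ L, connectedComponentIn Y z ⊆ L
  bdd : ∀ q ∈ L, |q.re| + 1 ≤ X

/-- smooth functions with values `1` / `0` near the upper / lower end of `L`, locally constant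
near `Y` -/
structure En (Y L : Set ℂ) (R : ℝ) (f : ℂ → ℝ) : Prop where
  sm : ContDiff ℝ ∞ f
  lc : ∀ z ∈ Y, ∀ᶠ w in 𝓝 z, f w = f z
  top : ∀ z ∈ L, R ≤ z.im → ∀ᶠ w in 𝓝 z, f w = 1
  bot : ∀ z ∈ L, z.im ≤ -R → ∀ᶠ w in 𝓝 z, f w = 0

/-- a cut of `L` at the ball `ball p r` -/
structure Cut (Y L : Set ℂ) (R : ℝ) (p : ℂ) (r : ℝ) (f : ℂ → ℝ) : Prop extends En Y L R f where
  c01 : ∀ z, 0 ≤ f z ∧ f z ≤ 1
  cst : ∀ z ∈ L, z ∉ ball p r → ∀ᶠ w in 𝓝 z, f w = f z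

/-- smooth, compactly supported, locally constant near `Y` -/
structure LCc (Y : Set ℂ) (g : ℂ → ℝ) : Prop where
  sm : ContDiff ℝ ∞ g
  cs : HasCompactSupport g
  lc : ∀ z ∈ Y, ∀ᶠ w in 𝓝 z, g w = g z

/-- slice data of a level set: `m` = slice of `|∇a| dA`, `e = i ∇a / |∇a|`, `σ = ∑ s_K δ_K` over the
components in `L`, `y` = conjugate function -/
structure Slc (Y L : Set ℂ) (X : ℝ) (m σ : Measure ℂ) (e : ℂ → ℂ) (y : ℂ → ℝ) : Prop where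
  mL : m (L \ Y)ᶜ = 0
  mfin : ∀ R, m (closedBall 0 R) < ⊤
  em : Measurable e
  e1 : ∀ z, ‖e z‖ ≤ 1
  s1 : ∀ g, LCc Y g → ∫ z, fderiv ℝ g z (e z) ∂m = 0
  s2 : ∃ (R₀ : ℝ) (f : ℂ → ℝ), (∀ R ≥ R₀, En Y L R f) ∧ ∫ z, fderiv ℝ f z (e z) ∂m = 1
  sf : σ univ < ⊤
  sL : σ (L ∩ Y)ᶜ = 0
  ys : ContDiffOn ℝ ∞ y Yᶜ
  yb : ∀ R, ∃ M, ∀ z ∉ Y, ‖z‖ ≤ R → |y z| ≤ M
  yi : ∀ R, IntegrableOn (fun z => ‖fderiv ℝ y z‖) (closedBall 0 R) m
  s3 : ∀ χ, LCc Y χ → |∫ z, fderiv ℝ (fun w => χ w * y w) z (e z) ∂m| ≤ ∫ z, |χ z| ∂σ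
  s5 : ∀ M ⊆ L \ Y, IsCompact M → IsPreconnected M → M.Nontrivial →
    ∃ p ∈ M, Good L X p ∧ m {p} = 0

/-- boundary bumping in the level set -/
def BumpL (Y L : Set ℂ) : Prop := ∀ z ∈ L, ∀ N, IsOpen N → Bornology.IsBounded N → z ∈ N →
  connectedComponentIn Y z ⊆ N → ∃ D ⊆ L ∩ closure N, IsCompact D ∧ IsPreconnected D ∧ z ∈ D ∧
    (D ∩ frontier N).Nonempty

end Crest.Agent.R105.LmY_338
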