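import Crest.Agent.R105.Ord1_642
import Crest.Agent.R105.LmY0_338
import Crest.Agent.R105.Sep1_590

/-!
# Row 105, S0138, HC: (1) CUT POINT of 250 #10537

`L` = level set in the letters of `LmY0_338` (`Lev Y L X`), connected, reaching both ends of the strip; `p ∈ L`
good.  For every connected `P ⊆ L` which avoids `p` the part of `L` on the other side of `p` is a closed connected
saturated unbounded set which contains `p` and misses `P`.
-/

set_option autoImplicit false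

open Set Filter Topology Metric

namespace Crest.Agent.R105.Cpt_642

open Ord_642 LmY_338

variable {Y L : Set ℂ} {X : ℝ} {p : ℂ}

/-- **a good point is a cut point** -/
theorem exists_cut (hL : Lev Y L X) (hLc : IsPreconnected L) (hup : ∀ R : ℝ, ∃ z ∈ L, R ≤ z.im)
    (hdn : ∀ R : ℝ, ∃ z ∈ L, z.im ≤ -R) (hg : Good L X p) :
    ∃ (R : ℝ) (n : ℂ → Prop), p ∈ L ∧ (∀ x ∈ L, x ≠ p → ∀ᶠ y in 𝓝[L] x, (n y ↔ n x)) ∧
      (∀ z ∈ L, z.im ≤ -R → z ≠ p ∧ n z) ∧ ∀ z ∈ L, R ≤ z.im → z ≠ p ∧ ¬ n z := by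
  obtain ⟨H, hHc, hHp, hHL, ⟨q₁, hq₁, hq₁'⟩, q₂, hq₂, hq₂'⟩ := hg
  have hX : 0 < X := by
    obtain ⟨z, hz, -⟩ := hup 0
    have := hL.bdd z hz
    linarith [abs_nonneg z.re]
  obtain ⟨M, hM⟩ : ∃ M : ℝ, ∀ q ∈ H, |q.im| ≤ M := by
    obtain ⟨M, hM⟩ := hHc.isBounded.exists_norm_le
    exact ⟨M, fun q hq => (Complex.abs_im_le_norm q).trans (hM q hq)⟩
  have hM0 : 0 ≤ M := (abs_nonneg _).trans (hM q₁ hq₁)
  set S : Set ℂ := (Ioo (-X) X ×ℂ univ) \ H with hS
  have hSo : IsOpen S := (isOpen_Ioo.reProdIm isOpen_univ).sdiff hHc.isClosed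
  set c : ℂ := ⟨0, M + 1⟩ with hc
  set U : Set ℂ := connectedComponentIn S c with hU
  have hUo : IsOpen U := hSo.connectedComponentIn
  have hUp : IsPreconnected U := isPreconnected_connectedComponentIn
  have hT : Ioo (-X) X ×ℂ Ioi M ⊆ S := fun z hz => by
    rw [Complex.mem_reProdIm] at hz
    refine ⟨Complex.mem_reProdIm.2 ⟨hz.1, mem_univ _⟩, fun h => ?_⟩
    have h1 := (abs_le.1 (hM z h)).2
    exact absurd hz.2 (not_lt.2 h1)
  have hB : Ioo (-X) X ×ℂ Iio (-M) ⊆ S := fun z hz => by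
    rw [Complex.mem_reProdIm] at hz
    refine ⟨Complex.mem_reProdIm.2 ⟨hz.1, mem_univ _⟩, fun h => ?_⟩
    have h1 := (abs_le.1 (hM z h)).1
    exact absurd hz.2 (not_lt.2 h1)
  have hcT : c ∈ Ioo (-X) X ×ℂ Ioi M := by
    rw [Complex.mem_reProdIm]
    exact ⟨⟨by simpa [hc] using hX, by simpa [hc] using hX⟩, by simp [hc]⟩
  have hcU : c ∈ U := mem_connectedComponentIn (hT hcT)
  have hTU : Ioo (-X) X ×ℂ Ioi M ⊆ U :=
    Convex.isPreconnected (((convex_Ioo (-X) X).linear_preimage Complex.reLm).inter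
      ((convex_Ioi M).linear_preimage Complex.imLm)) |>.subset_connectedComponentIn hcT hT
  have hBU : ∀ z ∈ Ioo (-X) X ×ℂ Iio (-M), z ∉ U := by
    intro z hz hzU
    obtain ⟨V, hVU, hVc, hVp, hzV, hcV⟩ := Sep_590.exists_cont hUo hUp hzU hcU
    rw [Complex.mem_reProdIm] at hz
    obtain ⟨x, hxH, hxV⟩ := Sep_590.cross (L := X) (M := M) hHc hVc hHp hVp hM (fun q hq => by
        have h1 := connectedComponentIn_subset _ _ (hVU hq)
        have h2 := (Complex.mem_reProdIm.1 h1.1).1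
        exact (abs_lt.2 h2).le) ⟨q₁, hq₁, hq₁'⟩ ⟨q₂, hq₂, hq₂'⟩ ⟨z, hzV, (mem_Iio.1 hz.2).le⟩
        ⟨c, hcV, by simp [hc]⟩
    exact (connectedComponentIn_subset _ _ (hVU hxV)).2 hxH
  have hLs : ∀ z ∈ L, z.re ∈ Ioo (-X) X := fun z hz => by
    have h1 := hL.bdd z hz
    have h2 : |z.re| < X := by linarith
    exact abs_lt.1 h2
  -- local constancy on `S`
  have hlc : ∀ x ∈ S, ∀ᶠ y in 𝓝 x, (y ∉ U ↔ x ∉ U) := by
    intro x hx
    by_cases hxU : x ∈ U
    · filter_upwards [hUo.mem_nhds hxU] with y hy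
      exact iff_of_false (fun h => h hy) (fun h => h hxU)
    · have h1 : IsOpen (connectedComponentIn S x) := hSo.connectedComponentIn
      filter_upwards [h1.mem_nhds (mem_connectedComponentIn hx)] with y hy
      refine iff_of_true (fun hyU => hxU ?_) hxU
      rw [hU, connectedComponentIn_eq hyU, ← connectedComponentIn_eq hy]
      exact mem_connectedComponentIn hx
  have hLS : ∀ x ∈ L, x ∉ H → x ∈ S := fun x hx hxH =>
    ⟨Complex.mem_reProdIm.2 ⟨hLs x hx, mem_univ _⟩, hxH⟩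
  have hbot : ∀ z ∈ L, z.im ≤ -(M + 1) → z ∉ U := fun z hz hzR =>
    hBU z (Complex.mem_reProdIm.2 ⟨hLs z hz, by simp only [mem_Iio]; linarith⟩)
  have htop : ∀ z ∈ L, M + 1 ≤ z.im → z ∈ U := fun z hz hzR =>
    hTU (Complex.mem_reProdIm.2 ⟨hLs z hz, by simp only [mem_Ioi]; linarith⟩)
  -- `p ∈ H ∩ L`
  have hpHL : p ∈ H ∩ L := by
    by_contra hcon
    have hd : ∀ x ∈ L, x ∈ S := fun x hx => hLS x hx fun h => by
      have h1 : x = p := hHL ⟨h, hx⟩
      exact hcon (h1 ▸ ⟨h, hx⟩)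
    obtain ⟨e, he, he'⟩ := hup (M + 1)
    obtain ⟨b, hb, hb'⟩ := hdn (M + 1)
    have h1 : L ⊆ U := fun x hx => by
      have h2 := hLc.subset_connectedComponentIn he hd
      have h3 : e ∈ connectedComponentIn S c := htop e he he'
      rw [hU, connectedComponentIn_eq h3]
      exact h2 hx
    exact hbot b hb hb' (h1 hb)
  refine ⟨M + 1, fun z => z ∉ U, hpHL.2, ?_, ?_, ?_⟩
  · intro x hx hxp
    exact nhdsWithin_le_nhds (hlc x (hLS x hx fun h => hxp (hHL ⟨h, hx⟩)))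
  · intro z hz hzR
    refine ⟨?_, hbot z hz hzR⟩
    rintro rfl
    have := (abs_le.1 (hM z hpHL.1)).1
    linarith
  · intro z hz hzR
    refine ⟨?_, fun h => h (htop z hz hzR)⟩
    rintro rfl
    have := (abs_le.1 (hM z hpHL.1)).2
    linarith

/-- **CUT POINT** -/
theorem cut_point (hL : Lev Y L X) (hLc : IsPreconnected L) (hup : ∀ R : ℝ, ∃ z ∈ L, R ≤ z.im)
    (hdn : ∀ R : ℝ, ∃ z ∈ L, z.im ≤ -R) (hg : Good L X p) (hpY : p ∉ Y) {P : Set ℂ}
    (hP : IsPreconnected P) (hPL : P ⊆ L) (hpP : p ∉ P) :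
    ∃ C ⊆ L \ P, IsClosed C ∧ IsPreconnected C ∧ p ∈ C ∧ (∀ z ∈ C, connectedComponentIn Y z ⊆ C) ∧
      ((∀ R : ℝ, ∃ z ∈ C, R ≤ z.im) ∨ ∀ R : ℝ, ∃ z ∈ C, z.im ≤ -R) := by
  obtain ⟨R, n, hpL, hlc, hbot, htop⟩ := exists_cut hL hLc hup hdn hg
  obtain ⟨e, he, he'⟩ := hup R
  obtain ⟨b, hb, hb'⟩ := hdn R
  have hc : Cut L b e p n :=
    ⟨hpL, hlc, ⟨hb, hbot b hb hb'⟩, ⟨he, htop e he he'⟩⟩
  have hdis : Disjoint (Sd L p n) (Td L p n) := disj
  -- the general statement for one side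
  have key : ∀ (b e : ℂ) (n : ℂ → Prop), Cut L b e p n → P ⊆ Td L p n →
      (insert p (Sd L p n) ⊆ L \ P) ∧ IsClosed (insert p (Sd L p n)) ∧
      IsPreconnected (insert p (Sd L p n)) ∧
      ∀ z ∈ insert p (Sd L p n), connectedComponentIn Y z ⊆ insert p (Sd L p n) := by
    intro b e n hc hPT
    refine ⟨?_, ?_, hc.conn_S hLc, ?_⟩
    · rintro z (rfl | hz)
      · exact ⟨hpL, hpP⟩
      · exact ⟨hz.1, fun h => disjoint_left.1 disj hz (hPT h)⟩
    · obtain ⟨O, hO, hOL⟩ := hc.neg.exists_open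
      rw [Sd_neg] at hOL
      have h1 : insert p (Sd L p n) = L \ O := by
        ext x
        constructor
        · rintro (rfl | hx)
          · refine ⟨hpL, fun h => ?_⟩
            have h2 : x ∈ Td L x n := by rw [← hOL]; exact ⟨h, hpL⟩
            exact h2.2.1 rfl
          · refine ⟨hx.1, fun h => ?_⟩
            have h2 : x ∈ Td L p n := by rw [← hOL]; exact ⟨h, hx.1⟩
            exact disjoint_left.1 disj hx h2
        · rintro ⟨hx, hxO⟩
          rcases mem_cases p n hx with h | h | h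
          · exact Or.inl h
          · exact Or.inr h
          · rw [← hOL] at h; exact (hxO h.1).elim
      rw [h1]
      exact hL.cL.sdiff hO
    · rintro z (rfl | hz)
      · rw [connectedComponentIn_eq_empty hpY]; exact empty_subset _
      · by_cases hzY : z ∈ Y
        · intro w hw
          exact Or.inr (hc.side isPreconnected_connectedComponentIn (hL.sat z hz.1)
            (fun h => hpY (connectedComponentIn_subset _ _ h)) (mem_connectedComponentIn hzY) hw hz)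
        · rw [connectedComponentIn_eq_empty hzY]; exact empty_subset _
  have hbot' : ∀ R' : ℝ, ∃ z ∈ insert p (Sd L p n), z.im ≤ -R' := by
    intro R'
    obtain ⟨z, hz, hz'⟩ := hdn (max R R')
    have h1 := le_max_left R R'
    have h2 := le_max_right R R'
    have h3 := hbot z hz (by linarith)
    exact ⟨z, Or.inr ⟨hz, h3⟩, by linarith⟩
  have htop' : ∀ R' : ℝ, ∃ z ∈ insert p (Td L p n), R' ≤ z.im := by
    intro R'
    obtain ⟨z, hz, hz'⟩ := hup (max R R')
    have h3 := htop z hz ((le_max_left _ _).trans hz')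
    exact ⟨z, Or.inr ⟨hz, h3⟩, (le_max_right _ _).trans hz'⟩
  by_cases hPS : ∃ x ∈ P, x ∈ Sd L p n
  · obtain ⟨x, hxP, hxS⟩ := hPS
    have hPS' : P ⊆ Sd L p n := fun y hy => hc.side hP hPL hpP hxP hy hxS
    obtain ⟨h1, h2, h3, h4⟩ := key e b (fun x => ¬ n x) hc.neg (by rw [Td_neg]; exact hPS')
    exact ⟨insert p (Td L p n), h1, h2, h3, mem_insert _ _, h4, Or.inl htop'⟩
  · have hPT : P ⊆ Td L p n := fun y hy => by
      rcases mem_cases p n (hPL hy) with h | h | h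
      · exact (hpP (h ▸ hy)).elim
      · exact (hPS ⟨y, hy, h⟩).elim
      · exact h
    obtain ⟨h1, h2, h3, h4⟩ := key b e n hc hPT
    exact ⟨insert p (Sd L p n), h1, h2, h3, mem_insert _ _, h4, Or.inr hbot'⟩

/-- the bounded form: in every compact neighbourhood `W` of `p` there is a continuum of `L \ P` from `p` to the
frontier of `W` -/
theorem exists_strand (hL : Lev Y L X) (hLc : IsPreconnected L) (hup : ∀ R : ℝ, ∃ z ∈ L, R ≤ z.im)
    (hdn : ∀ R : ℝ, ∃ z ∈ L, z.im ≤ -R) (hg : Good L X p) (hpY : p ∉ Y) {P : Set ℂ}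
    (hP : IsPreconnected P) (hPL : P ⊆ L) (hpP : p ∉ P) {W : Set ℂ} (hW : IsCompact W) (hpW : p ∈ W) :
    ∃ D ⊆ (L \ P) ∩ W, IsCompact D ∧ IsPreconnected D ∧ p ∈ D ∧ (D ∩ frontier W).Nonempty := by
  obtain ⟨C, hCL, hCc, hCp, hpC, -, hCu⟩ := cut_point hL hLc hup hdn hg hpY hP hPL hpP
  have hne : ¬ C ⊆ W := by
    intro hCW
    obtain ⟨M, hM⟩ := hW.isBounded.exists_norm_le
    rcases hCu with h | h
    · obtain ⟨z, hz, hz'⟩ := h (M + 1)
      have h1 := hM z (hCW hz)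
      have h2 := (le_abs_self _).trans (Complex.abs_im_le_norm z)
      linarith
    · obtain ⟨z, hz, hz'⟩ := h (M + 1)
      have h1 := hM z (hCW hz)
      have h2 := (neg_le_abs _).trans (Complex.abs_im_le_norm z)
      linarith
  refine ⟨connectedComponentIn (C ∩ W) p, fun x hx => ?_, ?_, isPreconnected_connectedComponentIn,
    mem_connectedComponentIn ⟨hpC, hpW⟩, Lt_275.bump hCc hCp hW hpC hpW hne⟩
  · have h1 := connectedComponentIn_subset _ _ hx
    exact ⟨hCL h1.1, h1.2⟩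
  · exact Thin_12.isCompact_cc (hW.inter_left hCc) p

end Crest.Agent.R105.Cpt_642
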