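import Crest.Agent.R096.Jn1_890
import Crest.Agent.R193.P_Comp
import Crest.Agent.R105.Thin1_12
import Crest.Agent.R105.Bar1_764

/-!
# Row 105, S0138 (T-frame), NI-3a (helper275): level sets are continua

`E ⊆ ℂ` compact, `u` continuous on `Eᶜ`, `up / um` its upper / lower boundary values, constant on
the components of `E` (structure `Pr`). If `{u > s}` and `{u < s}` are preconnected for all `s` and
`u = re` near infinity then `L_t = {um ≤ t ≤ up}` is a continuum in every big box, closed and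
connected in the plane.
-/

set_option autoImplicit false

open Set Filter Topology Metric

namespace Crest.Agent.R105.Lt_275

/-! ### saturation -/

section Sat
variable {X : Type*} [TopologicalSpace X] [T2Space X] {E F : Set X}

omit [T2Space X] in
theorem sub_left {C K L : Set X} (hC : IsPreconnected C) (hK : IsClosed K) (hL : IsClosed L)
    (hsub : C ⊆ K ∪ L) (hd : Disjoint K L) (hne : (C ∩ K).Nonempty) : C ⊆ K := by
  rcases isPreconnected_iff_subset_of_disjoint_closed.1 hC K L hK hL hsub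
    (by rw [hd.inter_eq, inter_empty]) with h | h
  · exact h
  · obtain ⟨x, hx, hxK⟩ := hne
    exact (disjoint_left.1 hd hxK (h hx)).elim

/-- `F` together with all components of `E` which meet `F` -/
def sat (E F : Set X) : Set X := F ∪ {z | z ∈ E ∧ (connectedComponentIn E z ∩ F).Nonempty}

omit [T2Space X] in
theorem subset_sat : F ⊆ sat E F := subset_union_left

theorem isClosed_meet (hE : IsCompact E) (hF : IsClosed F) :
    IsClosed {z | z ∈ E ∧ (connectedComponentIn E z ∩ F).Nonempty} := by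
  rw [← isOpen_compl_iff, isOpen_iff_mem_nhds]
  intro z hz
  by_cases hzE : z ∈ E
  · have hd : connectedComponentIn E z ⊆ Fᶜ := by
      intro w hw hwF
      exact hz ⟨hzE, w, hw, hwF⟩
    obtain ⟨K, h1, h2, hKE, hCK, hKF⟩ := Thin_12.exists_clopen hE hzE hF.isOpen_compl hd
    have hzK : z ∈ K := hCK (mem_connectedComponentIn hzE)
    have ho : (E \ K)ᶜ ∈ 𝓝 z := h2.isClosed.isOpen_compl.mem_nhds fun h => h.2 hzK
    filter_upwards [ho] with w hw hw'
    obtain ⟨hwE, q, hq, hqF⟩ := hw'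
    have hwK : w ∈ K := by
      by_contra h
      exact hw ⟨hwE, h⟩
    have hsub : connectedComponentIn E w ⊆ K := by
      refine sub_left isPreconnected_connectedComponentIn h1.isClosed h2.isClosed ?_ ?_
        ⟨w, mem_connectedComponentIn hwE, hwK⟩
      · intro y hy
        have hyE := connectedComponentIn_subset _ _ hy
        by_cases h : y ∈ K
        · exact Or.inl h
        · exact Or.inr ⟨hyE, h⟩
      · exact disjoint_sdiff_right
    exact hKF (hsub hq) hqF
  · filter_upwards [hE.isClosed.isOpen_compl.mem_nhds hzE] with w hw hw'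
    exact hw hw'.1

theorem isClosed_sat (hE : IsCompact E) (hF : IsClosed F) : IsClosed (sat E F) :=
  hF.union (isClosed_meet hE hF)

omit [T2Space X] in
theorem isPreconnected_sat (hF : IsPreconnected F) : IsPreconnected (sat E F) := by
  rcases F.eq_empty_or_nonempty with rfl | ⟨x0, hx0⟩
  · have : sat E (∅ : Set X) = ∅ := by
      unfold sat; simp
    rw [this]; exact isPreconnected_empty
  · refine isPreconnected_of_forall x0 ?_
    intro y hy
    rcases hy with hy | ⟨hyE, q, hq, hqF⟩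
    · exact ⟨F, subset_sat, hx0, hy, hF⟩
    · refine ⟨F ∪ connectedComponentIn E y, ?_, Or.inl hx0,
        Or.inr (mem_connectedComponentIn hyE), ?_⟩
      · rintro w (hw | hw)
        · exact subset_sat hw
        · refine Or.inr ⟨connectedComponentIn_subset _ _ hw, ?_⟩
          rw [← connectedComponentIn_eq hw]
          exact ⟨q, hq, hqF⟩
      · exact hF.union q hqF hq isPreconnected_connectedComponentIn

end Sat

/-! ### boundary bumping in a closed connected set -/

theorem bump {X : Type*} [TopologicalSpace X] [T2Space X] {L W : Set X} (hL : IsClosed L)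
    (hLp : IsPreconnected L) (hW : IsCompact W) {z : X} (hzL : z ∈ L) (hzW : z ∈ W)
    (hne : ¬ L ⊆ W) : (connectedComponentIn (L ∩ W) z ∩ frontier W).Nonempty := by
  by_contra hcon
  have hK : IsCompact (L ∩ W) := hW.inter_left hL
  have hint : connectedComponentIn (L ∩ W) z ⊆ interior W := by
    intro w hw
    by_contra h
    have hwW : w ∈ W := (connectedComponentIn_subset _ _ hw).2
    exact hcon ⟨w, hw, subset_closure hwW, h⟩
  obtain ⟨K, h1, h2, hKE, hCK, hKF⟩ := Thin_12.exists_clopen hK ⟨hzL, hzW⟩ isOpen_interior hint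
  have hsub : L ⊆ K := by
    refine sub_left hLp h1.isClosed (L := ((L ∩ W) \ K) ∪ (L \ interior W))
      (h2.isClosed.union (hL.sdiff isOpen_interior)) ?_ ?_ ?_
    · intro x hx
      by_cases hxW : x ∈ W
      · by_cases hxK : x ∈ K
        · exact Or.inl hxK
        · exact Or.inr (Or.inl ⟨⟨hx, hxW⟩, hxK⟩)
      · exact Or.inr (Or.inr ⟨hx, fun h => hxW (interior_subset h)⟩)
    · rw [disjoint_left]
      rintro x hx (h | h)
      · exact h.2 hx
      · exact h.2 (hKF hx)
    · exact ⟨z, hzL, hCK (mem_connectedComponentIn ⟨hzL, hzW⟩)⟩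
  exact hne fun x hx => (hKE (hsub hx)).2

/-! ### boundary values -/

/-- `up`, `um` are the upper / lower boundary values of `u` at the components of `E` -/
structure Pr (E : Set ℂ) (u up um : ℂ → ℝ) : Prop where
  hE : IsCompact E
  cont : ContinuousOn u Eᶜ
  eqp : ∀ z ∉ E, up z = u z
  eqm : ∀ z ∉ E, um z = u z
  le : ∀ z, um z ≤ up z
  limp : ∀ z ∈ E, ∀ s, up z < s → ∃ O, IsOpen O ∧ connectedComponentIn E z ⊆ O ∧
    ∀ w ∈ O, w ∉ E → u w < s
  limm : ∀ z ∈ E, ∀ s, s < um z → ∃ O, IsOpen O ∧ connectedComponentIn E z ⊆ O ∧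
    ∀ w ∈ O, w ∉ E → s < u w
  attp : ∀ z ∈ E, ∀ s, s < up z → ∀ O, IsOpen O → connectedComponentIn E z ⊆ O →
    ∃ w ∈ O, w ∉ E ∧ s < u w
  attm : ∀ z ∈ E, ∀ s, um z < s → ∀ O, IsOpen O → connectedComponentIn E z ⊆ O →
    ∃ w ∈ O, w ∉ E ∧ u w < s

section Lev
variable {E : Set ℂ} {u up um : ℂ → ℝ}

theorem Pr.neg (h : Pr E u up um) :
    Pr E (fun z => - u z) (fun z => - um z) (fun z => - up z) where
  hE := h.hE
  cont := h.cont.neg
  eqp z hz := by rw [h.eqm z hz]
  eqm z hz := by rw [h.eqp z hz]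
  le z := neg_le_neg (h.le z)
  limp z hz s hs := by
    obtain ⟨O, h1, h2, h3⟩ := h.limm z hz (-s) (by linarith)
    exact ⟨O, h1, h2, fun w hw hwE => by linarith [h3 w hw hwE]⟩
  limm z hz s hs := by
    obtain ⟨O, h1, h2, h3⟩ := h.limp z hz (-s) (by linarith)
    exact ⟨O, h1, h2, fun w hw hwE => by linarith [h3 w hw hwE]⟩
  attp z hz s hs O hO hKO := by
    obtain ⟨w, h1, h2, h3⟩ := h.attm z hz (-s) (by linarith) O hO hKO
    exact ⟨w, h1, h2, by linarith⟩
  attm z hz s hs O hO hKO := by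
    obtain ⟨w, h1, h2, h3⟩ := h.attp z hz (-s) (by linarith) O hO hKO
    exact ⟨w, h1, h2, by linarith⟩

/-- `up` is upper semicontinuous -/
theorem Pr.isClosed_ge (h : Pr E u up um) (t : ℝ) : IsClosed {z | t ≤ up z} := by
  rw [← isOpen_compl_iff, isOpen_iff_mem_nhds]
  intro z hz
  have hz' : up z < t := not_le.1 hz
  by_cases hzE : z ∈ E
  · obtain ⟨s, h1, h2⟩ := exists_between hz'
    obtain ⟨O, hO, hKO, hlt⟩ := h.limp z hzE s h1
    obtain ⟨K, h1', h2', hKE, hCK, hKF⟩ := Thin_12.exists_clopen h.hE hzE hO hKO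
    have hzK : z ∈ K := hCK (mem_connectedComponentIn hzE)
    filter_upwards [hO.mem_nhds (hKO (mem_connectedComponentIn hzE)),
      h2'.isClosed.isOpen_compl.mem_nhds fun h => h.2 hzK] with w hw hw' hcon
    have hcon' : t ≤ up w := hcon
    by_cases hwE : w ∈ E
    · have hwK : w ∈ K := by
        by_contra h
        exact hw' ⟨hwE, h⟩
      have hsub : connectedComponentIn E w ⊆ K := by
        refine sub_left isPreconnected_connectedComponentIn h1'.isClosed h2'.isClosed ?_ ?_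
          ⟨w, mem_connectedComponentIn hwE, hwK⟩
        · intro y hy
          have hyE := connectedComponentIn_subset _ _ hy
          by_cases h : y ∈ K
          · exact Or.inl h
          · exact Or.inr ⟨hyE, h⟩
        · exact disjoint_sdiff_right
      obtain ⟨w', h3, h4, h5⟩ := h.attp w hwE s (h2.trans_le hcon') O hO (hsub.trans hKF)
      linarith [hlt w' h3 h4]
    · have := hlt w hw hwE
      rw [h.eqp w hwE] at hcon'
      linarith
  · have hc : ContinuousAt u z := h.cont.continuousAt (h.hE.isClosed.isOpen_compl.mem_nhds hzE)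
    rw [h.eqp z hzE] at hz'
    filter_upwards [hc.eventually_lt continuousAt_const hz',
      h.hE.isClosed.isOpen_compl.mem_nhds hzE] with w hw hwE hcon
    have hcon' : t ≤ up w := hcon
    rw [h.eqp w hwE] at hcon'
    exact absurd hcon' (not_le.2 hw)

theorem Pr.isClosed_le (h : Pr E u up um) (t : ℝ) : IsClosed {z | um z ≤ t} := by
  have := h.neg.isClosed_ge (-t)
  simpa using this

theorem Pr.isClosed_lev (h : Pr E u up um) (t : ℝ) : IsClosed {z | um z ≤ t ∧ t ≤ up z} :=
  (h.isClosed_le t).inter (h.isClosed_ge t)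

/-- `up` is constant on the components -/
theorem Pr.up_const (h : Pr E u up um) {z w : ℂ} (hz : z ∈ E)
    (hw : w ∈ connectedComponentIn E z) : up w = up z := by
  have key : ∀ {z w : ℂ}, z ∈ E → w ∈ connectedComponentIn E z → up w ≤ up z := by
    intro z w hz hw
    by_contra hcon
    obtain ⟨s, h1, h2⟩ := exists_between (not_le.1 hcon)
    obtain ⟨O, hO, hKO, hlt⟩ := h.limp z hz s h1
    rw [connectedComponentIn_eq hw] at hKO
    obtain ⟨w', h3, h4, h5⟩ := h.attp w (connectedComponentIn_subset _ _ hw) s h2 O hO hKO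
    linarith [hlt w' h3 h4]
  refine le_antisymm (key hz hw) (key (connectedComponentIn_subset _ _ hw) ?_)
  rw [← connectedComponentIn_eq hw]
  exact mem_connectedComponentIn hz

theorem Pr.um_const (h : Pr E u up um) {z w : ℂ} (hz : z ∈ E)
    (hw : w ∈ connectedComponentIn E z) : um w = um z := by
  have := h.neg.up_const hz hw
  linarith

/-! ### retraction onto a box -/

/-- retraction onto the box `|re| ≤ A`, `|im| ≤ H` -/
def ret (A H : ℝ) (z : ℂ) : ℂ := ⟨max (-A) (min A z.re), max (-H) (min H z.im)⟩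

theorem continuous_ret (A H : ℝ) : Continuous (ret A H) := by
  have h1 : Continuous fun z : ℂ => max (-A) (min A z.re) :=
    continuous_const.max (continuous_const.min Complex.continuous_re)
  have h2 : Continuous fun z : ℂ => max (-H) (min H z.im) :=
    continuous_const.max (continuous_const.min Complex.continuous_im)
  have : ret A H = fun z => Complex.equivRealProdCLM.symm
      (max (-A) (min A z.re), max (-H) (min H z.im)) := by
    funext z
    apply Complex.ext <;> simp [ret]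
  rw [this]
  exact Complex.equivRealProdCLM.symm.continuous.comp (h1.prodMk h2)

theorem ret_mem {A H : ℝ} (hA : 0 ≤ A) (hH : 0 ≤ H) (z : ℂ) : ret A H z ∈ Bar_764.Bx A H := by
  rw [Bar_764.mem_Bx]
  constructor
  · simp only [ret]
    rw [abs_le]
    exact ⟨le_max_left _ _, max_le (by linarith) (min_le_left _ _)⟩
  · simp only [ret]
    rw [abs_le]
    exact ⟨le_max_left _ _, max_le (by linarith) (min_le_left _ _)⟩

theorem ret_eq {A H : ℝ} {z : ℂ} (hz : z ∈ Bar_764.Bx A H) : ret A H z = z := by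
  obtain ⟨h1, h2⟩ := Bar_764.mem_Bx.1 hz
  rw [abs_le] at h1 h2
  apply Complex.ext
  · simp only [ret]
    rw [min_eq_right h1.2, max_eq_right h1.1]
  · simp only [ret]
    rw [min_eq_right h2.2, max_eq_right h2.1]

theorem norm_ret_ge {A H R : ℝ} (hR : 0 ≤ R) (hA : R ≤ A) (hH : R ≤ H) {z : ℂ}
    (hz : z ∉ Bar_764.Bx A H) : R ≤ ‖ret A H z‖ := by
  rw [Bar_764.mem_Bx, not_and_or, not_le, not_le] at hz
  rcases hz with hz | hz
  · refine (hA.trans ?_).trans (Complex.abs_re_le_norm _)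
    simp only [ret]
    rcases lt_abs.1 hz with h | h
    · rw [min_eq_left h.le, max_eq_right (by linarith)]
      exact le_abs_self A
    · rw [min_eq_right (by linarith), max_eq_left (by linarith), abs_neg]
      exact le_abs_self A
  · refine (hH.trans ?_).trans (Complex.abs_im_le_norm _)
    simp only [ret]
    rcases lt_abs.1 hz with h | h
    · rw [min_eq_left h.le, max_eq_right (by linarith)]
      exact le_abs_self H
    · rw [min_eq_right (by linarith), max_eq_left (by linarith), abs_neg]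
      exact le_abs_self H

theorem norm_ge_of_notMem {A H R : ℝ} (hA : R ≤ A) (hH : R ≤ H) {z : ℂ}
    (hz : z ∉ Bar_764.Bx A H) : R ≤ ‖z‖ := by
  rw [Bar_764.mem_Bx, not_and_or, not_le, not_le] at hz
  rcases hz with hz | hz
  · exact hA.trans (hz.le.trans (Complex.abs_re_le_norm _))
  · exact hH.trans (hz.le.trans (Complex.abs_im_le_norm _))

theorem mem_Bx_of_norm {A H R : ℝ} (hA : R ≤ A) (hH : R ≤ H) {z : ℂ} (hz : ‖z‖ ≤ R) :
    z ∈ Bar_764.Bx A H :=
  Bar_764.mem_Bx.2 ⟨(Complex.abs_re_le_norm _).trans (hz.trans hA),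
    (Complex.abs_im_le_norm _).trans (hz.trans hH)⟩

/-- `u` is the real part near infinity -/
structure Nrm (E : Set ℂ) (u : ℂ → ℝ) (R : ℝ) : Prop where
  pos : 0 < R
  sub : ∀ z ∈ E, ‖z‖ < R
  eq : ∀ z, R ≤ ‖z‖ → u z = z.re

theorem Nrm.notMem {R : ℝ} (h : Nrm E u R) {z : ℂ} (hz : R ≤ ‖z‖) : z ∉ E := fun h' =>
  absurd (h.sub z h') (not_lt.2 hz)

/-- `{u > s}` in a box is preconnected -/
theorem conn_box {R A H s : ℝ} (hN : Nrm E u R) (hA : R ≤ A) (hH : R ≤ H) (hs : s < A)
    (hc : IsPreconnected {w | w ∉ E ∧ s < u w}) :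
    IsPreconnected ({w | w ∉ E ∧ s < u w} ∩ Bar_764.Bx A H) := by
  have hA0 : 0 ≤ A := hN.pos.le.trans hA
  have hH0 : 0 ≤ H := hN.pos.le.trans hH
  have : {w | w ∉ E ∧ s < u w} ∩ Bar_764.Bx A H = ret A H '' {w | w ∉ E ∧ s < u w} := by
    ext z
    constructor
    · rintro ⟨hz, hzB⟩
      exact ⟨z, hz, ret_eq hzB⟩
    · rintro ⟨w, hw, rfl⟩
      refine ⟨?_, ret_mem hA0 hH0 w⟩
      by_cases hwB : w ∈ Bar_764.Bx A H
      · rw [ret_eq hwB]; exact hw
      · have h1 := norm_ret_ge hN.pos.le hA hH hwB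
        refine ⟨hN.notMem h1, ?_⟩
        rw [hN.eq _ h1]
        have h2 := hw.2
        rw [hN.eq _ (norm_ge_of_notMem hA hH hwB)] at h2
        simp only [ret]
        exact lt_of_lt_of_le (lt_min hs h2) (le_max_right _ _)
  rw [this]
  exact hc.image _ (continuous_ret A H).continuousOn

/-- **`{t ≤ up}` in a box is preconnected** -/
theorem Pr.conn_ge (h : Pr E u up um) {R A H t : ℝ} (hN : Nrm E u R) (hA : R ≤ A) (hH : R ≤ H)
    (ht : t ≤ A) (hc : ∀ s, IsPreconnected {w | w ∉ E ∧ s < u w}) :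
    IsPreconnected ({z | t ≤ up z} ∩ Bar_764.Bx A H) := by
  let G : ℝ → Set ℂ := fun s => {w | w ∉ E ∧ s < u w} ∩ Bar_764.Bx A H
  have hGm : ∀ {s s' : ℝ}, s ≤ s' → G s' ⊆ G s := by
    intro s s' hss w hw
    exact ⟨⟨hw.1.1, hss.trans_lt hw.1.2⟩, hw.2⟩
  have hB : IsCompact (Bar_764.Bx A H) := Bar_764.isCompact_Bx A H
  have hGB : ∀ s, closure (G s) ⊆ Bar_764.Bx A H := fun s =>
    closure_minimal inter_subset_right hB.isClosed
  have hEB : E ⊆ Bar_764.Bx A H := fun z hz => mem_Bx_of_norm hA hH (hN.sub z hz).le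
  let Xs : {s : ℝ // s < t} → Set ℂ := fun s => sat E (closure (G s.1))
  have hXc : ∀ s, IsCompact (Xs s) := by
    intro s
    refine hB.of_isClosed_subset (isClosed_sat h.hE isClosed_closure) ?_
    rintro z (hz | hz)
    · exact hGB _ hz
    · exact hEB hz.1
  have hXp : ∀ s, IsPreconnected (Xs s) := fun s =>
    isPreconnected_sat (conn_box hN hA hH (s.2.trans_le ht) (hc s.1)).closure
  have hdir : Directed (fun x1 x2 : Set ℂ => x1 ⊇ x2) Xs := by
    intro s s'
    refine ⟨⟨max s.1 s'.1, max_lt s.2 s'.2⟩, ?_, ?_⟩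
    · rintro z (hz | ⟨hzE, q, hq, hqG⟩)
      · exact Or.inl (closure_mono (hGm (le_max_left _ _)) hz)
      · exact Or.inr ⟨hzE, q, hq, closure_mono (hGm (le_max_left _ _)) hqG⟩
    · rintro z (hz | ⟨hzE, q, hq, hqG⟩)
      · exact Or.inl (closure_mono (hGm (le_max_right _ _)) hz)
      · exact Or.inr ⟨hzE, q, hq, closure_mono (hGm (le_max_right _ _)) hqG⟩
  have hne : Nonempty {s : ℝ // s < t} := ⟨⟨t - 1, by linarith⟩⟩
  have key : {z | t ≤ up z} ∩ Bar_764.Bx A H = ⋂ s, Xs s := by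
    apply Subset.antisymm
    · rintro z ⟨hz, hzB⟩
      have hz' : t ≤ up z := hz
      rw [mem_iInter]
      rintro ⟨s, hs⟩
      by_cases hzE : z ∈ E
      · refine Or.inr ⟨hzE, ?_⟩
        by_contra hcon
        have hsub : connectedComponentIn E z ⊆ (closure (G s))ᶜ ∩ ball 0 R := by
          intro w hw
          refine ⟨fun hw' => hcon ⟨w, hw, hw'⟩, ?_⟩
          rw [mem_ball_zero_iff]
          exact hN.sub w (connectedComponentIn_subset _ _ hw)
        obtain ⟨w, h1, h2, h3⟩ := h.attp z hzE s (hs.trans_le hz') _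
          (isClosed_closure.isOpen_compl.inter isOpen_ball) hsub
        exact h1.1 (subset_closure ⟨⟨h2, h3⟩,
          mem_Bx_of_norm hA hH (mem_ball_zero_iff.1 h1.2).le⟩)
      · rw [h.eqp z hzE] at hz'
        exact Or.inl (subset_closure ⟨⟨hzE, hs.trans_le hz'⟩, hzB⟩)
    · intro z hz
      rw [mem_iInter] at hz
      have hzB : z ∈ Bar_764.Bx A H := by
        rcases hz ⟨t - 1, by linarith⟩ with h1 | h1
        · exact hGB _ h1
        · exact hEB h1.1
      refine ⟨?_, hzB⟩
      show t ≤ up z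
      by_contra hcon
      obtain ⟨s, h1, h2⟩ := exists_between (not_le.1 hcon)
      by_cases hzE : z ∈ E
      · obtain ⟨O, hO, hKO, hlt⟩ := h.limp z hzE s h1
        have hd : ∀ q ∈ O, q ∉ closure (G s) := by
          intro q hq hqG
          obtain ⟨w, hwO, hwG⟩ := mem_closure_iff.1 hqG O hO hq
          exact absurd hwG.1.2 (not_lt.2 (hlt w hwO hwG.1.1).le)
        rcases hz ⟨s, h2⟩ with h3 | ⟨-, q, hq, hqG⟩
        · exact hd z (hKO (mem_connectedComponentIn hzE)) h3
        · exact hd q (hKO hq) hqG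
      · rw [h.eqp z hzE] at h1
        rcases hz ⟨s, h2⟩ with h3 | h3
        · have hc : ContinuousAt u z :=
            h.cont.continuousAt (h.hE.isClosed.isOpen_compl.mem_nhds hzE)
          obtain ⟨w, hw1, hw2⟩ := mem_closure_iff_nhds.1 h3 _
            (hc.eventually_lt continuousAt_const h1)
          exact absurd hw2.1.2 (not_lt.2 (le_of_lt hw1))
        · exact hzE h3.1
  rw [key]
  exact R193.P_Comp.isPreconnected_iInter_of_directed hdir hXc hXp

/-- **`{um ≤ t}` in a box is preconnected** -/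
theorem Pr.conn_le (h : Pr E u up um) {R A H t : ℝ} (hN : Nrm E u R) (hA : R ≤ A) (hH : R ≤ H)
    (ht : -A ≤ t) (hc : ∀ s, IsPreconnected {w | w ∉ E ∧ u w < s}) :
    IsPreconnected ({z | um z ≤ t} ∩ Bar_764.Bx A H) := by
  -- reflect: `v z = - u (- conj z)`
  let σ : ℂ → ℂ := fun z => - (starRingEnd ℂ z)
  have hσ : Continuous σ := Complex.continuous_conj.neg
  have hσσ : ∀ z, σ (σ z) = z := by
    intro z; simp [σ]
  let e : ℂ ≃ₜ ℂ := ⟨⟨σ, σ, hσσ, hσσ⟩, hσ, hσ⟩
  have hcc : ∀ z, z ∈ σ '' E → connectedComponentIn (σ '' E) z = σ '' connectedComponentIn E (σ z) := by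
    rintro _ ⟨z, hz, rfl⟩
    rw [hσσ]
    exact (e.image_connectedComponentIn hz).symm
  have hmem : ∀ z, z ∈ σ '' E ↔ σ z ∈ E := by
    intro z
    constructor
    · rintro ⟨w, hw, rfl⟩; rwa [hσσ]
    · intro hz; exact ⟨σ z, hz, hσσ z⟩
  have him : ∀ S : Set ℂ, σ '' S = σ ⁻¹' S := fun S => e.image_eq_preimage_symm S
  have hPr : Pr (σ '' E) (fun z => - u (σ z)) (fun z => - um (σ z)) (fun z => - up (σ z)) := by
    have hn := h.neg
    refine ⟨h.hE.image hσ, ?_, ?_, ?_, ?_, ?_, ?_, ?_, ?_⟩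
    · refine hn.cont.comp hσ.continuousOn ?_
      intro z hz hz'
      exact hz ((hmem z).2 hz')
    · intro z hz; exact hn.eqp _ fun h' => hz ((hmem z).2 h')
    · intro z hz; exact hn.eqm _ fun h' => hz ((hmem z).2 h')
    · intro z; exact hn.le _
    · intro z hz s hs
      obtain ⟨O, h1, h2, h3⟩ := hn.limp (σ z) ((hmem z).1 hz) s hs
      refine ⟨σ ⁻¹' O, h1.preimage hσ, ?_, fun w hw hwE => h3 _ hw fun h' => hwE ((hmem w).2 h')⟩
      rw [hcc z hz, him]
      exact preimage_mono h2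
    · intro z hz s hs
      obtain ⟨O, h1, h2, h3⟩ := hn.limm (σ z) ((hmem z).1 hz) s hs
      refine ⟨σ ⁻¹' O, h1.preimage hσ, ?_, fun w hw hwE => h3 _ hw fun h' => hwE ((hmem w).2 h')⟩
      rw [hcc z hz, him]
      exact preimage_mono h2
    · intro z hz s hs O hO hKO
      obtain ⟨w, h1, h2, h3⟩ := hn.attp (σ z) ((hmem z).1 hz) s hs (σ ⁻¹' O) (hO.preimage hσ) (by
        rw [hcc z hz] at hKO
        exact image_subset_iff.1 hKO)
      refine ⟨σ w, h1, fun h' => h2 ?_, by rw [hσσ]; exact h3⟩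
      rw [hmem, hσσ] at h'; exact h'
    · intro z hz s hs O hO hKO
      obtain ⟨w, h1, h2, h3⟩ := hn.attm (σ z) ((hmem z).1 hz) s hs (σ ⁻¹' O) (hO.preimage hσ) (by
        rw [hcc z hz] at hKO
        exact image_subset_iff.1 hKO)
      refine ⟨σ w, h1, fun h' => h2 ?_, by rw [hσσ]; exact h3⟩
      rw [hmem, hσσ] at h'; exact h'
  have hσn : ∀ z, ‖σ z‖ = ‖z‖ := by intro z; simp [σ]
  have hσre : ∀ z, (σ z).re = - z.re := by intro z; simp [σ]
  have hσim : ∀ z, (σ z).im = z.im := by intro z; simp [σ]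
  have hNr : Nrm (σ '' E) (fun z => - u (σ z)) R := by
    refine ⟨hN.pos, ?_, ?_⟩
    · intro z hz
      rw [← hσn]
      exact hN.sub _ ((hmem z).1 hz)
    · intro z hz
      show - u (σ z) = z.re
      rw [hN.eq _ (by rw [hσn]; exact hz), hσre, neg_neg]
  have key := hPr.conn_ge hNr hA hH (t := -t) (by linarith) (by
    intro s
    have : {w | w ∉ σ '' E ∧ s < - u (σ w)} = σ '' {w | w ∉ E ∧ u w < -s} := by
      ext w
      constructor
      · rintro ⟨h1, h2⟩
        exact ⟨σ w, ⟨fun h' => h1 ((hmem w).2 h'), by linarith⟩, hσσ w⟩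
      · rintro ⟨v, ⟨h1, h2⟩, rfl⟩
        refine ⟨fun h' => h1 ?_, ?_⟩
        · have := (hmem _).1 h'
          rwa [hσσ] at this
        · rw [hσσ]; linarith
    rw [this]
    exact (hc (-s)).image _ hσ.continuousOn)
  have : {z | um z ≤ t} ∩ Bar_764.Bx A H =
      σ '' ({z | -t ≤ - um (σ z)} ∩ Bar_764.Bx A H) := by
    rw [him]
    ext z
    simp only [mem_inter_iff, mem_ofPred_eq, mem_preimage, Bar_764.mem_Bx, hσσ, hσre, hσim,
      abs_neg, neg_le_neg_iff]
  rw [this]
  exact key.image _ hσ.continuousOn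

/-- big boxes have trivial torsors -/
theorem triv_box (A H : ℝ) : R096.Coh_184.TrivAll Bool (ZMod 2) (Bar_764.Bx A H) := by
  let g : (Fin 2 → ℝ) → ℂ := fun v => ⟨v 0, v 1⟩
  have hg : Continuous g := by
    have : g = fun v => Complex.equivRealProdCLM.symm (v 0, v 1) := by
      funext z
      apply Complex.ext <;> simp [g]
    rw [this]
    exact Complex.equivRealProdCLM.symm.continuous.comp
      ((continuous_apply 0).prodMk (continuous_apply 1))
  have hK : IsCompact (Set.pi univ ![Icc (-A) A, Icc (-H) H] : Set (Fin 2 → ℝ)) := by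
    apply isCompact_univ_pi
    intro i
    fin_cases i <;> exact isCompact_Icc
  have hconv : Convex ℝ (Set.pi univ ![Icc (-A) A, Icc (-H) H] : Set (Fin 2 → ℝ)) := by
    apply convex_pi
    intro i _
    fin_cases i
    · exact convex_Icc _ _
    · exact convex_Icc _ _
  have himg : g '' (Set.pi univ ![Icc (-A) A, Icc (-H) H] : Set (Fin 2 → ℝ)) = Bar_764.Bx A H := by
    ext z
    rw [Bar_764.mem_Bx, abs_le, abs_le]
    constructor
    · rintro ⟨v, hv, rfl⟩
      have h0 := hv 0 (mem_univ _)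
      have h1 := hv 1 (mem_univ _)
      simp only [Matrix.cons_val_zero, Matrix.cons_val_one] at h0 h1
      exact ⟨⟨h0.1, h0.2⟩, ⟨h1.1, h1.2⟩⟩
    · rintro ⟨h0, h1⟩
      refine ⟨![z.re, z.im], ?_, ?_⟩
      · intro i _
        fin_cases i
        · exact ⟨h0.1, h0.2⟩
        · exact ⟨h1.1, h1.2⟩
      · apply Complex.ext <;> simp [g]
  rw [← himg]
  refine (R096.Coh_184.trivAll_convex hK hconv).of_image_compact hK hK.isClosed hg.continuousOn ?_
  intro v _ w _ hvw
  have h0 := congrArg Complex.re hvw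
  have h1 := congrArg Complex.im hvw
  funext i
  fin_cases i
  · exact h0
  · exact h1

/-- **`L_t` in a big box is a continuum** -/
theorem Pr.lev_box (h : Pr E u up um) {R A H t : ℝ} (hN : Nrm E u R) (hA : R ≤ A) (hH : R ≤ H)
    (ht : |t| ≤ A) (hp : ∀ s, IsPreconnected {w | w ∉ E ∧ s < u w})
    (hm : ∀ s, IsPreconnected {w | w ∉ E ∧ u w < s}) :
    IsCompact ({z | um z ≤ t ∧ t ≤ up z} ∩ Bar_764.Bx A H) ∧
      IsConnected ({z | um z ≤ t ∧ t ≤ up z} ∩ Bar_764.Bx A H) := by
  have hB : IsCompact (Bar_764.Bx A H) := Bar_764.isCompact_Bx A H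
  refine ⟨hB.inter_left (h.isClosed_lev t), ?_, ?_⟩
  · refine ⟨⟨t, H⟩, ?_, ?_⟩
    · have h1 : R ≤ ‖(⟨t, H⟩ : ℂ)‖ := by
        refine hH.trans (le_trans ?_ (Complex.abs_im_le_norm _))
        exact le_abs_self H
      have h2 : (⟨t, H⟩ : ℂ) ∉ E := hN.notMem h1
      have h3 : u ⟨t, H⟩ = t := hN.eq _ h1
      constructor
      · rw [h.eqm _ h2, h3]
      · rw [h.eqp _ h2, h3]
    · rw [Bar_764.mem_Bx]
      exact ⟨ht, (abs_of_nonneg (hN.pos.le.trans hH)).le⟩
  · have hY := h.conn_ge hN hA hH (abs_le.1 ht).2 hp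
    have hZ := h.conn_le hN hA hH (abs_le.1 ht).1 hm
    refine isPreconnected_of_forall_pair ?_
    intro x hx y hy
    have e : {z | um z ≤ t ∧ t ≤ up z} ∩ Bar_764.Bx A H =
        {z | t ≤ up z} ∩ {z | um z ≤ t} ∩ Bar_764.Bx A H := by
      ext z
      constructor
      · rintro ⟨⟨h1, h2⟩, h3⟩; exact ⟨⟨h2, h1⟩, h3⟩
      · rintro ⟨⟨h1, h2⟩, h3⟩; exact ⟨⟨h2, h1⟩, h3⟩
    rw [e] at hx hy ⊢
    refine ⟨connectedComponentIn ({z | t ≤ up z} ∩ {z | um z ≤ t} ∩ Bar_764.Bx A H) x,
      connectedComponentIn_subset _ _, mem_connectedComponentIn hx, ?_,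
      isPreconnected_connectedComponentIn⟩
    refine R096.Jn_890.janiszewski hB (triv_box A H) (h.isClosed_ge t) (h.isClosed_le t) ?_
      hY subset_rfl hZ subset_rfl ⟨hx.1.1, hx.2⟩ ⟨hy.1.1, hy.2⟩ ⟨hx.1.2, hx.2⟩ ⟨hy.1.2, hy.2⟩
    intro z _
    by_cases hz : t ≤ up z
    · exact Or.inl hz
    · exact Or.inr ((h.le z).trans (not_le.1 hz).le)

/-- **`L_t` is connected** -/
theorem Pr.lev_conn (h : Pr E u up um) {R : ℝ} (hN : Nrm E u R)
    (hp : ∀ s, IsPreconnected {w | w ∉ E ∧ s < u w})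
    (hm : ∀ s, IsPreconnected {w | w ∉ E ∧ u w < s}) (t : ℝ) :
    IsConnected {z | um z ≤ t ∧ t ≤ up z} := by
  set m := max R |t| with hmdef
  have hbox : ∀ z : ℂ, ∃ A, m ≤ A ∧ z ∈ Bar_764.Bx A A := by
    intro z
    refine ⟨max m ‖z‖, le_max_left _ _, ?_⟩
    rw [Bar_764.mem_Bx]
    exact ⟨(Complex.abs_re_le_norm _).trans (le_max_right _ _),
      (Complex.abs_im_le_norm _).trans (le_max_right _ _)⟩
  obtain ⟨z0, hz0, hz0B⟩ := (h.lev_box (A := m) (H := m) hN (le_max_left _ _) (le_max_left _ _)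
    (le_max_right _ _) hp hm).2.1
  refine ⟨⟨z0, hz0⟩, isPreconnected_of_forall z0 ?_⟩
  intro z hz
  obtain ⟨A, hA, hzA⟩ := hbox z
  refine ⟨{z | um z ≤ t ∧ t ≤ up z} ∩ Bar_764.Bx A A, inter_subset_left, ⟨hz0, ?_⟩, ⟨hz, hzA⟩,
    (h.lev_box hN ((le_max_left _ _).trans hA) ((le_max_left _ _).trans hA)
      ((le_max_right _ _).trans hA) hp hm).2.2⟩
  rw [Bar_764.mem_Bx] at hz0B ⊢
  exact ⟨hz0B.1.trans hA, hz0B.2.trans hA⟩

end Lev

end Crest.Agent.R105.Lt_275
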