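import Crest.Agent.R105.Cpt0_948
import Crest.Agent.R105.Sd2_938
import Crest.Agent.R105.Lt1_275

/-!
# Row 105, S0138, node E13 HC, piece (1) CUT POINT (helper948; plan 250 #10537)

`u` switched (`Swd`), `u = re` near infinity. `Crs Y u t z e` : `z` is a crossing point of the level
`t` (a good point), i.e. a segment `[z - e, z + e]` off `Y` passes from `{u < t}` to `{u > t}`.

* `exists_gam` : a closed set `Γ` through `z` joining far left to far right with `Γ ∩ L_t = {z}`
* **`cut`** : for every preconnected `K ⊆ L_t` with `z ∉ K` there is a closed, preconnected,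
  saturated, unbounded `C ⊆ L_t` with `z ∈ C`, disjoint from `K`
* **`cut_in`** : the same inside a bounded open `N` with `frontier N ∩ Y = ∅` : `C` is a continuum
  from `z` to `frontier N`
* `crs_of_fderiv` : points off `Y` where `u` is differentiable with derivative `≠ 0` are crossings
-/

set_option autoImplicit false

open MeasureTheory Set Filter Topology Metric

namespace Crest.Agent.R105.Cpt_948

open Crest.AnalysisR (IsExteriorDomain)
open Crest.Agent.R105.Ni_459

/-- crossing point of the level `t` in the direction `e` -/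
structure Crs (Y : Set ℂ) (u : ℂ → ℝ) (t : ℝ) (z e : ℂ) : Prop where
  off : z ∉ Y
  eq : u z = t
  pos : ∀ s : ℝ, 0 < s → s ≤ 1 → z + s • e ∉ Y ∧ t < u (z + s • e)
  neg : ∀ s : ℝ, 0 < s → s ≤ 1 → z - s • e ∉ Y ∧ u (z - s • e) < t

/-- one side of a cut point is connected -/
theorem preconn_of_cut {X : Type*} [TopologicalSpace X] {L F₁ F₂ : Set X} {z : X}
    (hL : IsPreconnected L) (h1 : IsClosed F₁) (h2 : IsClosed F₂) (h12 : L = F₁ ∪ F₂)
    (hi : F₁ ∩ F₂ ⊆ {z}) (hz : z ∈ F₁) (hz2 : z ∈ F₂) : IsPreconnected F₂ := by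
  rw [isPreconnected_closed_iff] at hL ⊢
  have key : ∀ A B : Set X, IsClosed A → IsClosed B → F₂ ⊆ A ∪ B → z ∈ A → (F₂ ∩ B).Nonempty →
      (F₂ ∩ (A ∩ B)).Nonempty := by
    intro A B hA hB hAB hzA hne
    obtain ⟨x, hxL, hx1, hx2⟩ := hL (F₁ ∪ (F₂ ∩ A)) (F₂ ∩ B) (h1.union (h2.inter hA))
      (h2.inter hB) (by
        rw [h12]
        rintro x (hx | hx)
        · exact Or.inl (Or.inl hx)
        · rcases hAB hx with h | h
          · exact Or.inl (Or.inr ⟨hx, h⟩)
          · exact Or.inr ⟨hx, h⟩)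
      ⟨z, by rw [h12]; exact Or.inl hz, Or.inl hz⟩
      (by
        obtain ⟨y, hy, hyB⟩ := hne
        exact ⟨y, by rw [h12]; exact Or.inr hy, hy, hyB⟩)
    rcases hx1 with h | h
    · have : x = z := hi ⟨h, hx2.1⟩
      subst this
      exact ⟨x, hx2.1, hzA, hx2.2⟩
    · exact ⟨x, h.1, h.2, hx2.2⟩
  intro A B hA hB hAB hnA hnB
  rcases hAB hz2 with h | h
  · exact key A B hA hB hAB h hnB
  · obtain ⟨x, h1, h2, h3⟩ := key B A hB hA (by rwa [union_comm]) h hnA
    exact ⟨x, h1, h3, h2⟩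

/-- an open connected set off `Γ` is not both above and below a left-right curve `Γ` -/
theorem not_both {Γ W : Set ℂ} {H : ℝ} (hH : ∀ w ∈ Γ, |w.im| ≤ H)
    (hj : ∀ A : ℝ, ∃ a b : ℂ, a.re ≤ -A ∧ A ≤ b.re ∧ JoinedIn Γ a b)
    (hWo : IsOpen W) (hWc : IsPreconnected W) (hd : Disjoint W Γ) {a b : ℂ} (ha : a ∈ W)
    (hb : b ∈ W) (ha' : H ≤ a.im) (hb' : b.im ≤ -H) : False := by
  have hWp : IsPathConnected W := (hWo.isConnected_iff_isPathConnected).1 ⟨⟨a, ha⟩, hWc⟩
  obtain ⟨β, hβ⟩ := hWp.joinedIn b hb a ha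
  obtain ⟨A, hA⟩ := (isCompact_range β.continuous).isBounded.exists_norm_le
  obtain ⟨c, d, hc, hd', hcd⟩ := hj A
  obtain ⟨α, hα⟩ := hcd
  obtain ⟨s, hs, t, ht, hst⟩ := Bar_764.cross (α := α.extend) (β := β.extend) (A := A) (H := H)
    α.continuous_extend.continuousOn β.continuous_extend.continuousOn
    (by rw [α.extend_zero]; exact hc) (by rw [α.extend_one]; exact hd')
    (fun t ht => by rw [α.extend_apply ht]; exact hH _ (hα _))
    (by rw [β.extend_zero]; exact hb') (by rw [β.extend_one]; exact ha')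
    (fun t ht => by
      rw [β.extend_apply ht]
      exact (Complex.abs_re_le_norm _).trans (hA _ (mem_range_self _)))
  rw [α.extend_apply hs, β.extend_apply ht] at hst
  exact disjoint_left.1 hd (hβ _) (hst ▸ hα _)

section
variable {Y : Set ℂ} {u : ℂ → ℝ} {t : ℝ} {z e : ℂ}

lemma Crs.mem_Lv (hY : IsExteriorDomain Yᶜ) (hu : LB u) (hl : LocallyLipschitzOn Yᶜ u)
    (h : Crs Y u t z e) : z ∈ Lv Y u t :=
  (Sd_938.mem_Lv hY hu hl h.off).2 h.eq

/-- **a curve through `z` which meets the level `L_t` only in `z`** -/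
theorem exists_gam (hY : IsExteriorDomain Yᶜ) (hu : LB u) (hl : LocallyLipschitzOn Yᶜ u)
    (hs : Swd Y u) (hfar : ∃ R : ℝ, ∀ z : ℂ, R ≤ ‖z‖ → u z = z.re) (hz : Crs Y u t z e) :
    ∃ (Γ : Set ℂ) (H : ℝ), IsClosed Γ ∧ z ∈ Γ ∧ (∀ w ∈ Γ, w ∈ Lv Y u t → w = z) ∧
      (∀ w ∈ Γ, |w.im| ≤ H) ∧
      ∀ A : ℝ, ∃ a b : ℂ, a.re ≤ -A ∧ A ≤ b.re ∧ JoinedIn Γ a b := by
  obtain ⟨R, hR⟩ := hfar
  obtain ⟨RY, hRY⟩ := (cpt_of hY).isBounded.exists_norm_le
  set S : ℝ := max (max R RY) |t| + 1 with hSdef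
  have hSR : R < S := by rw [hSdef]; linarith [le_max_left (max R RY) |t|, le_max_left R RY]
  have hSRY : RY < S := by rw [hSdef]; linarith [le_max_left (max R RY) |t|, le_max_right R RY]
  have hSt : |t| < S := by rw [hSdef]; linarith [le_max_right (max R RY) |t|]
  have hS0 : 0 < S := (abs_nonneg t).trans_lt hSt
  have hfarp : ∀ w : ℂ, S ≤ |w.re| → w ∉ Y ∧ u w = w.re := by
    intro w hw
    have h1 := hw.trans (Complex.abs_re_le_norm w)
    exact ⟨fun h => by linarith [hRY w h], hR w (by linarith)⟩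
  -- the two rays
  set Rp : Set ℂ := {w | S ≤ w.re ∧ w.im = 0} with hRp
  set Rm : Set ℂ := {w | w.re ≤ -S ∧ w.im = 0} with hRm
  have hRpc : Convex ℝ Rp := by
    have h1 : Convex ℝ {w : ℂ | S ≤ w.re} := convex_halfSpace_re_ge S
    have h2 : Convex ℝ {w : ℂ | w.im = 0} := by
      intro x hx y hy a b _ _ _
      simp only [mem_ofPred_eq] at hx hy ⊢
      simp [hx, hy]
    exact h1.inter h2
  have hRmc : Convex ℝ Rm := by
    have h1 : Convex ℝ {w : ℂ | w.re ≤ -S} := convex_halfSpace_re_le (-S)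
    have h2 : Convex ℝ {w : ℂ | w.im = 0} := by
      intro x hx y hy a b _ _ _
      simp only [mem_ofPred_eq] at hx hy ⊢
      simp [hx, hy]
    exact h1.inter h2
  have hRpcl : IsClosed Rp := (isClosed_le continuous_const Complex.continuous_re).inter
    (isClosed_eq Complex.continuous_im continuous_const)
  have hRmcl : IsClosed Rm := (isClosed_le Complex.continuous_re continuous_const).inter
    (isClosed_eq Complex.continuous_im continuous_const)
  have hSp : ((S : ℝ) : ℂ) ∈ Rp := ⟨by simp, by simp⟩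
  have hSm : ((-S : ℝ) : ℂ) ∈ Rm := ⟨by simp, by simp⟩
  have hRpP : ∀ w ∈ Rp, t < lo Y u w := by
    rintro w ⟨h1, -⟩
    obtain ⟨h2, h3⟩ := hfarp w (h1.trans (le_abs_self _))
    rw [Sd_938.lo_eq hY hu hl h2, h3]
    linarith [(abs_lt.1 hSt).2]
  have hRmM : ∀ w ∈ Rm, up Y u w < t := by
    rintro w ⟨h1, -⟩
    obtain ⟨h2, h3⟩ := hfarp w (by linarith [neg_le_abs w.re])
    rw [Sd_938.up_eq hY hu hl h2, h3]
    linarith [(abs_lt.1 hSt).1]
  -- `P`, `M` are path connected
  have hPc := Sd_938.conn_P hY hu hl hs ⟨R, hR⟩ t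
  have hMc := Sd_938.conn_M hY hu hl hs ⟨R, hR⟩ t
  have hPp : IsPathConnected {w | t < lo Y u w} :=
    ((isOpen_lt_lo hY hu t).isConnected_iff_isPathConnected).1 ⟨⟨_, hRpP _ hSp⟩, hPc⟩
  have hMp : IsPathConnected {w | up Y u w < t} :=
    ((isOpen_up_lt hY hu t).isConnected_iff_isPathConnected).1 ⟨⟨_, hRmM _ hSm⟩, hMc⟩
  have hzp : t < lo Y u (z + e) := by
    have := hz.pos 1 one_pos le_rfl
    rw [one_smul] at this
    rw [Sd_938.lo_eq hY hu hl this.1]; exact this.2
  have hzm : up Y u (z - e) < t := by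
    have := hz.neg 1 one_pos le_rfl
    rw [one_smul] at this
    rw [Sd_938.up_eq hY hu hl this.1]; exact this.2
  obtain ⟨γp, hγp⟩ := hPp.joinedIn (z + e) hzp _ (hRpP _ hSp)
  obtain ⟨γm, hγm⟩ := hMp.joinedIn _ (hRmM _ hSm) (z - e) hzm
  set Q : Set ℂ := (range γm ∪ segment ℝ (z - e) (z + e)) ∪ range γp with hQ
  have hsegc : IsCompact (segment ℝ (z - e) (z + e)) := by
    rw [segment_eq_image]
    exact isCompact_Icc.image (by fun_prop)
  have hQc : IsCompact Q :=
    ((isCompact_range γm.continuous).union hsegc).union (isCompact_range γp.continuous)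
  obtain ⟨H, hH⟩ := hQc.isBounded.exists_norm_le
  have hseg : ∀ w ∈ segment ℝ (z - e) (z + e), w ∈ Lv Y u t → w = z := by
    intro w hw hwL
    rw [segment_eq_image] at hw
    obtain ⟨θ, hθ, rfl⟩ := hw
    have e1 : (1 - θ) • (z - e) + θ • (z + e) = z + (2 * θ - 1) • e := by
      simp only [Complex.real_smul]
      push_cast
      ring
    have e2 : (1 - θ) • (z - e) + θ • (z + e) = z - (1 - 2 * θ) • e := by
      simp only [Complex.real_smul]
      push_cast
      ring
    rcases lt_trichotomy (2 * θ - 1) 0 with h | h | h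
    · obtain ⟨h1, h2⟩ := hz.neg (1 - 2 * θ) (by linarith) (by linarith [hθ.1])
      change (1 - θ) • (z - e) + θ • (z + e) ∈ _ at hwL
      rw [e2] at hwL
      rw [(Sd_938.mem_Lv hY hu hl h1).1 hwL] at h2
      exact absurd h2 (lt_irrefl _)
    · change (1 - θ) • (z - e) + θ • (z + e) = z
      rw [e1, h, zero_smul, add_zero]
    · obtain ⟨h1, h2⟩ := hz.pos (2 * θ - 1) h (by linarith [hθ.2])
      change (1 - θ) • (z - e) + θ • (z + e) ∈ _ at hwL
      rw [e1] at hwL
      rw [(Sd_938.mem_Lv hY hu hl h1).1 hwL] at h2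
      exact absurd h2 (lt_irrefl _)
  refine ⟨(Rm ∪ Q) ∪ Rp, max H 0, (hRmcl.union hQc.isClosed).union hRpcl, ?_, ?_, ?_, ?_⟩
  · refine Or.inl (Or.inr (Or.inl (Or.inr ?_)))
    rw [segment_eq_image]
    refine ⟨1 / 2, ⟨by norm_num, by norm_num⟩, ?_⟩
    simp only [Complex.real_smul]
    push_cast
    ring
  · rintro w ((hw | ((hw | hw) | hw)) | hw) hwL
    · exact absurd (hRmM w hw) (not_lt.2 hwL.2)
    · obtain ⟨s, rfl⟩ := hw
      exact absurd (hγm s) (not_lt.2 hwL.2)
    · exact hseg w hw hwL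
    · obtain ⟨s, rfl⟩ := hw
      exact absurd (hγp s) (not_lt.2 hwL.1)
    · exact absurd (hRpP w hw) (not_lt.2 hwL.1)
  · rintro w ((hw | hw) | hw)
    · rw [hw.2, abs_zero]; exact le_max_right _ _
    · exact ((Complex.abs_im_le_norm w).trans (hH w hw)).trans (le_max_left _ _)
    · rw [hw.2, abs_zero]; exact le_max_right _ _
  · intro A
    set B : ℝ := max A S with hB
    have hBp : ((B : ℝ) : ℂ) ∈ Rp := ⟨by simp [hB], by simp⟩
    have hBm : ((-B : ℝ) : ℂ) ∈ Rm := ⟨by simp [hB], by simp⟩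
    refine ⟨((-B : ℝ) : ℂ), ((B : ℝ) : ℂ), by simp [hB], by simp [hB], ?_⟩
    have j1 : JoinedIn Rm ((-B : ℝ) : ℂ) ((-S : ℝ) : ℂ) :=
      (hRmc.isPathConnected ⟨_, hSm⟩).joinedIn _ hBm _ hSm
    have j5 : JoinedIn Rp ((S : ℝ) : ℂ) ((B : ℝ) : ℂ) :=
      (hRpc.isPathConnected ⟨_, hSp⟩).joinedIn _ hSp _ hBp
    have j2 : JoinedIn (range γm) ((-S : ℝ) : ℂ) (z - e) := ⟨γm, fun s => mem_range_self s⟩
    have j4 : JoinedIn (range γp) (z + e) ((S : ℝ) : ℂ) := ⟨γp, fun s => mem_range_self s⟩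
    have j3 : JoinedIn (segment ℝ (z - e) (z + e)) (z - e) (z + e) :=
      ((convex_segment _ _).isPathConnected ⟨_, left_mem_segment ℝ _ _⟩).joinedIn _
        (left_mem_segment ℝ _ _) _ (right_mem_segment ℝ _ _)
    have s1 : Rm ⊆ (Rm ∪ Q) ∪ Rp := fun w hw => Or.inl (Or.inl hw)
    have s5 : Rp ⊆ (Rm ∪ Q) ∪ Rp := fun w hw => Or.inr hw
    have s2 : range γm ⊆ (Rm ∪ Q) ∪ Rp := fun w hw => Or.inl (Or.inr (Or.inl (Or.inl hw)))
    have s3 : segment ℝ (z - e) (z + e) ⊆ (Rm ∪ Q) ∪ Rp :=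
      fun w hw => Or.inl (Or.inr (Or.inl (Or.inr hw)))
    have s4 : range γp ⊆ (Rm ∪ Q) ∪ Rp := fun w hw => Or.inl (Or.inr (Or.inr hw))
    exact ((((j1.mono s1).trans (j2.mono s2)).trans (j3.mono s3)).trans (j4.mono s4)).trans
      (j5.mono s5)

/-- the part of the level outside of an open set `W` bounded by `Γ` -/
theorem cut_aux (hY : IsExteriorDomain Yᶜ) (hu : LB u) (hl : LocallyLipschitzOn Yᶜ u)
    (hs : Swd Y u) (hfar : ∃ R : ℝ, ∀ z : ℂ, R ≤ ‖z‖ → u z = z.re) (hzY : z ∉ Y)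
    (hzL : z ∈ Lv Y u t) {Γ W : Set ℂ} {H : ℝ} (hzΓ : z ∈ Γ)
    (hΓL : ∀ w ∈ Γ, w ∈ Lv Y u t → w = z) (hH : ∀ w ∈ Γ, |w.im| ≤ H)
    (hj : ∀ A : ℝ, ∃ a b : ℂ, a.re ≤ -A ∧ A ≤ b.re ∧ JoinedIn Γ a b)
    (hWo : IsOpen W) (hWc : IsPreconnected W) (hd : Disjoint W Γ) (hcl : closure W ⊆ W ∪ Γ) :
    IsClosed (Lv Y u t \ W) ∧ IsPreconnected (Lv Y u t \ W) ∧ z ∈ Lv Y u t \ W ∧
      (∀ w ∈ Lv Y u t \ W, connectedComponentIn Y w ⊆ Lv Y u t \ W) ∧
      ¬ Bornology.IsBounded (Lv Y u t \ W) := by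
  have hLcl := Uni_659.isClosed_nLv hY hu t
  have hzW : z ∉ W := fun h => disjoint_left.1 hd h hzΓ
  obtain ⟨R, hR⟩ := hfar
  obtain ⟨RY, hRY⟩ := (cpt_of hY).isBounded.exists_norm_le
  have hYR : Y ⊆ ball 0 (max R (RY + 1)) := fun w hw => by
    rw [mem_ball_zero_iff]
    exact (hRY w hw).trans_lt ((lt_add_one _).trans_le (le_max_right _ _))
  have hLp : IsPreconnected (Lv Y u t) := lv_preconn hY hl hu hYR
    (fun w hw => hR w ((le_max_left _ _).trans hw)) hs t
  refine ⟨hLcl.sdiff hWo, ?_, ⟨hzL, hzW⟩, ?_, ?_⟩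
  · refine preconn_of_cut (F₁ := (Lv Y u t ∩ closure W) ∪ {z}) hLp
      ((hLcl.inter isClosed_closure).union isClosed_singleton) (hLcl.sdiff hWo) ?_ ?_
      (Or.inr rfl) ⟨hzL, hzW⟩
    · apply Subset.antisymm
      · intro w hw
        by_cases h : w ∈ W
        · exact Or.inl (Or.inl ⟨hw, subset_closure h⟩)
        · exact Or.inr ⟨hw, h⟩
      · rintro w ((hw | hw) | hw)
        · exact hw.1
        · rw [mem_singleton_iff.1 hw]; exact hzL
        · exact hw.1
    · rintro w ⟨hw | hw, hw2⟩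
      · rcases hcl hw.2 with h | h
        · exact absurd h hw2.2
        · exact hΓL w h hw.1
      · exact hw
  · intro w hw v hv
    by_cases hwY : w ∈ Y
    · have hccL : connectedComponentIn Y w ⊆ Lv Y u t := by
        intro v hv
        refine ⟨?_, ?_⟩
        · rw [lo_congr_cc hwY hv]; exact hw.1.1
        · rw [up_congr_cc hwY hv]; exact hw.1.2
      have hccΓ : ∀ v ∈ connectedComponentIn Y w, v ∉ Γ := by
        intro v hv hvΓ
        have := hΓL v hvΓ (hccL hv)
        exact hzY (this ▸ connectedComponentIn_subset _ _ hv)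
      refine ⟨hccL hv, fun hvW => ?_⟩
      have hsub : connectedComponentIn Y w ⊆ W := by
        refine isPreconnected_connectedComponentIn.subset_left_of_subset_union hWo
          (isClosed_closure (s := W)).isOpen_compl
          (disjoint_left.2 fun x hx hx' => hx' (subset_closure hx)) (fun x hx => ?_) ⟨v, hv, hvW⟩
        by_cases h : x ∈ closure W
        · exact Or.inl ((hcl h).resolve_right (hccΓ x hx))
        · exact Or.inr h
      exact hw.2 (hsub (mem_connectedComponentIn hwY))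
    · rw [connectedComponentIn_eq_empty hwY] at hv
      exact hv.elim
  · intro hb
    obtain ⟨B, hB⟩ := hb.exists_norm_le
    set T : ℝ := max (max (max R RY) B) (max H 0) + 1 with hT
    have hTR : R < T := by
      rw [hT]; linarith [le_max_left (max (max R RY) B) (max H 0), le_max_left (max R RY) B,
        le_max_left R RY]
    have hTRY : RY < T := by
      rw [hT]; linarith [le_max_left (max (max R RY) B) (max H 0), le_max_left (max R RY) B,
        le_max_right R RY]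
    have hTB : B < T := by
      rw [hT]; linarith [le_max_left (max (max R RY) B) (max H 0), le_max_right (max R RY) B]
    have hTH : H < T := by
      rw [hT]; linarith [le_max_right (max (max R RY) B) (max H 0), le_max_left H 0]
    have hT0 : 0 < T := by
      rw [hT]; linarith [le_max_right (max (max R RY) B) (max H 0), le_max_right H 0]
    have key : ∀ w : ℂ, w.re = t → |w.im| = T → w ∈ W := by
      intro w h1 h2
      have h3 : T ≤ ‖w‖ := h2 ▸ Complex.abs_im_le_norm w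
      have h4 : w ∉ Y := fun h => by linarith [hRY w h]
      have h5 : w ∈ Lv Y u t := by
        rw [Sd_938.mem_Lv hY hu hl h4, hR w (by linarith), h1]
      by_contra h6
      linarith [hB w ⟨h5, h6⟩]
    refine not_both hH hj hWo hWc hd (key ⟨t, T⟩ rfl (abs_of_pos hT0))
      (key ⟨t, -T⟩ rfl (by rw [abs_neg, abs_of_pos hT0])) hTH.le ?_
    show -T ≤ -H
    linarith

/-- **CUT POINT** -/
theorem cut (hY : IsExteriorDomain Yᶜ) (hu : LB u) (hl : LocallyLipschitzOn Yᶜ u)
    (hs : Swd Y u) (hfar : ∃ R : ℝ, ∀ z : ℂ, R ≤ ‖z‖ → u z = z.re) (hz : Crs Y u t z e)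
    {K : Set ℂ} (hK : IsPreconnected K) (hKL : K ⊆ Lv Y u t) (hzK : z ∉ K) :
    ∃ C ⊆ Lv Y u t, IsClosed C ∧ IsPreconnected C ∧ z ∈ C ∧ Disjoint C K ∧
      (∀ w ∈ C, connectedComponentIn Y w ⊆ C) ∧ ¬ Bornology.IsBounded C := by
  obtain ⟨Γ, H, hΓ, hzΓ, hΓL, hH, hj⟩ := exists_gam hY hu hl hs hfar hz
  have hzL := hz.mem_Lv hY hu hl
  rcases K.eq_empty_or_nonempty with rfl | ⟨k, hk⟩
  · obtain ⟨h1, h2, h3, h4, h5⟩ := cut_aux (W := ∅) hY hu hl hs hfar hz.off hzL hzΓ hΓL hH hj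
      isOpen_empty isPreconnected_empty (empty_disjoint _) (by simp)
    exact ⟨_, sdiff_subset, h1, h2, h3, disjoint_empty _, h4, h5⟩
  · have hKΓ : K ⊆ Γᶜ := fun w hw hwΓ => hzK (hΓL w hwΓ (hKL hw) ▸ hw)
    have hWcl : closure (connectedComponentIn Γᶜ k) ⊆ connectedComponentIn Γᶜ k ∪ Γ := by
      intro x hx
      by_cases hxΓ : x ∈ Γ
      · exact Or.inr hxΓ
      · left
        have ho : connectedComponentIn Γᶜ x ∈ 𝓝 x :=
          hΓ.isOpen_compl.connectedComponentIn.mem_nhds (mem_connectedComponentIn hxΓ)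
        obtain ⟨y, hy1, hy2⟩ := mem_closure_iff_nhds.1 hx _ ho
        rw [connectedComponentIn_eq hy2, ← connectedComponentIn_eq hy1]
        exact mem_connectedComponentIn hxΓ
    obtain ⟨h1, h2, h3, h4, h5⟩ := cut_aux (W := connectedComponentIn Γᶜ k) hY hu hl hs hfar
      hz.off hzL hzΓ hΓL hH hj hΓ.isOpen_compl.connectedComponentIn
      isPreconnected_connectedComponentIn
      (disjoint_left.2 fun x hx hx' => connectedComponentIn_subset _ _ hx hx') hWcl
    refine ⟨_, sdiff_subset, h1, h2, h3, ?_, h4, h5⟩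
    exact disjoint_left.2 fun x hx hxK => hx.2 (hK.subset_connectedComponentIn hk hKΓ hxK)

/-- **CUT POINT, inside a bounded open set** -/
theorem cut_in (hY : IsExteriorDomain Yᶜ) (hu : LB u) (hl : LocallyLipschitzOn Yᶜ u)
    (hs : Swd Y u) (hfar : ∃ R : ℝ, ∀ z : ℂ, R ≤ ‖z‖ → u z = z.re) (hz : Crs Y u t z e)
    {K : Set ℂ} (hK : IsPreconnected K) (hKL : K ⊆ Lv Y u t) (hzK : z ∉ K)
    {N : Set ℂ} (hN : IsOpen N) (hNb : Bornology.IsBounded N) (hzN : z ∈ N)
    (hfN : frontier N ∩ Y = ∅) :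
    ∃ C ⊆ Lv Y u t ∩ closure N, IsCompact C ∧ IsPreconnected C ∧ z ∈ C ∧
      (C ∩ frontier N).Nonempty ∧ Disjoint C K ∧ ∀ w ∈ C, connectedComponentIn Y w ⊆ C := by
  obtain ⟨F, hFL, hFc, hFp, hzF, hFK, hFs, hFb⟩ := cut hY hu hl hs hfar hz hK hKL hzK
  have hNc : IsCompact (closure N) := hNb.isCompact_closure
  refine ⟨connectedComponentIn (F ∩ closure N) z, ?_, ?_, isPreconnected_connectedComponentIn,
    mem_connectedComponentIn ⟨hzF, subset_closure hzN⟩, ?_, ?_, ?_⟩
  · exact (connectedComponentIn_subset _ _).trans (inter_subset_inter_left _ hFL)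
  · exact Thin_12.isCompact_cc (hNc.inter_left hFc) z
  · obtain ⟨w, hw, hwf⟩ := Lt_275.bump hFc hFp hNc hzF (subset_closure hzN)
      (fun h => hFb (hNc.isBounded.subset h))
    exact ⟨w, hw, frontier_closure_subset hwf⟩
  · exact hFK.mono_left ((connectedComponentIn_subset _ _).trans inter_subset_left)
  · intro w hw
    by_cases hwY : w ∈ Y
    · have hwL := connectedComponentIn_subset _ _ hw
      have hwN : w ∈ N := by
        by_contra h
        have : w ∈ frontier N ∩ Y := ⟨⟨hwL.2, by rw [hN.interior_eq]; exact h⟩, hwY⟩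
        rw [hfN] at this; exact this
      have hK2 : connectedComponentIn Y w ⊆ closure N := by
        by_contra hcon
        obtain ⟨v, hv, hvf⟩ := Uni_659.meets_frontier isPreconnected_connectedComponentIn
          (mem_connectedComponentIn hwY) hwN (fun h => hcon (h.trans subset_closure))
        have : v ∈ frontier N ∩ Y := ⟨hvf, connectedComponentIn_subset _ _ hv⟩
        rw [hfN] at this; exact this
      rw [connectedComponentIn_eq hw]
      exact isPreconnected_connectedComponentIn.subset_connectedComponentIn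
        (mem_connectedComponentIn hwY) (subset_inter (hFs w hwL.1) hK2)
    · rw [connectedComponentIn_eq_empty hwY]
      exact empty_subset _

/-- components of `Y` are inside or outside of a level -/
lemma cc_subset_or (w : ℂ) (hw : w ∈ Y) :
    connectedComponentIn Y w ⊆ Lv Y u t ∨ Disjoint (Lv Y u t) (connectedComponentIn Y w) := by
  by_cases h : w ∈ Lv Y u t
  · left
    intro v hv
    refine ⟨?_, ?_⟩
    · rw [lo_congr_cc hw hv]; exact h.1
    · rw [up_congr_cc hw hv]; exact h.2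
  · right
    rw [disjoint_left]
    intro v hvL hv
    apply h
    refine ⟨?_, ?_⟩
    · rw [← lo_congr_cc hw hv]; exact hvL.1
    · rw [← up_congr_cc hw hv]; exact hvL.2

/-- **CUT POINT for a component of `Y`** (in the level or not) -/
theorem cut_cc (hY : IsExteriorDomain Yᶜ) (hu : LB u) (hl : LocallyLipschitzOn Yᶜ u)
    (hs : Swd Y u) (hfar : ∃ R : ℝ, ∀ z : ℂ, R ≤ ‖z‖ → u z = z.re) (hz : Crs Y u t z e)
    {k : ℂ} (hk : k ∈ Y) {N : Set ℂ} (hN : IsOpen N) (hNb : Bornology.IsBounded N) (hzN : z ∈ N)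
    (hfN : frontier N ∩ Y = ∅) :
    ∃ C ⊆ Lv Y u t ∩ closure N, IsCompact C ∧ IsPreconnected C ∧ z ∈ C ∧
      (C ∩ frontier N).Nonempty ∧ Disjoint C (connectedComponentIn Y k) ∧
      ∀ w ∈ C, connectedComponentIn Y w ⊆ C := by
  rcases cc_subset_or (u := u) (t := t) k hk with h | h
  · exact cut_in hY hu hl hs hfar hz isPreconnected_connectedComponentIn h
      (fun hc => hz.off (connectedComponentIn_subset _ _ hc)) hN hNb hzN hfN
  · obtain ⟨C, h1, h2, h3, h4, h5, -, h7⟩ := cut_in hY hu hl hs hfar hz isPreconnected_empty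
      (empty_subset _) (notMem_empty _) hN hNb hzN hfN
    exact ⟨C, h1, h2, h3, h4, h5, h.mono_left (h1.trans inter_subset_left), h7⟩

/-- regular points are crossings -/
theorem crs_of_fderiv (hY : IsExteriorDomain Yᶜ) (hzY : z ∉ Y) (hzt : u z = t)
    (hd : DifferentiableAt ℝ u z) (h0 : fderiv ℝ u z ≠ 0) : ∃ e, Crs Y u t z e := by
  obtain ⟨v, hv⟩ : ∃ v, 0 < fderiv ℝ u z v := by
    by_contra hcon
    push Not at hcon
    apply h0
    ext v
    have h1 := hcon v
    have h2 := hcon (-v)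
    rw [map_neg] at h2
    simpa using le_antisymm h1 (by linarith)
  have hg : HasDerivAt (fun s : ℝ => u (z + s • v)) (fderiv ℝ u z v) 0 := by
    have h1 : HasFDerivAt u (fderiv ℝ u z) (z + (0 : ℝ) • v) := by
      rw [zero_smul, add_zero]; exact hd.hasFDerivAt
    have h2 : HasDerivAt (fun s : ℝ => z + s • v) v 0 := by
      simpa using ((hasDerivAt_id (0 : ℝ)).smul_const v).const_add z
    exact h1.comp_hasDerivAt 0 h2
  rw [hasDerivAt_iff_tendsto_slope] at hg
  have hev := hg.eventually (lt_mem_nhds hv)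
  have hY' : ∀ᶠ s : ℝ in 𝓝 0, z + s • v ∉ Y := by
    have hc : Continuous fun s : ℝ => z + s • v := by fun_prop
    have h1 : (fun s : ℝ => z + s • v) ⁻¹' Yᶜ ∈ 𝓝 (0 : ℝ) := by
      refine (hY.1.preimage hc).mem_nhds ?_
      show z + (0 : ℝ) • v ∈ Yᶜ
      rw [zero_smul, add_zero]; exact hzY
    exact h1
  rw [eventually_nhdsWithin_iff] at hev
  obtain ⟨δ, hδ, hb⟩ := Metric.eventually_nhds_iff.1 (hev.and hY')
  refine ⟨(δ / 2) • v, hzY, hzt, fun s hs hs1 => ?_, fun s hs hs1 => ?_⟩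
  · have hp : 0 < s * (δ / 2) := by positivity
    have hlt : s * (δ / 2) < δ := by nlinarith
    obtain ⟨h1, h2⟩ := hb (y := s * (δ / 2)) (by
      rw [Real.dist_eq, sub_zero, abs_of_pos hp]; exact hlt)
    have h3 := h1 hp.ne'
    rw [smul_smul]
    refine ⟨h2, ?_⟩
    rw [slope_def_field] at h3
    simp only [zero_smul, add_zero, sub_zero, hzt] at h3
    have := (div_pos_iff_of_pos_right hp).1 h3
    linarith
  · have hp : 0 < s * (δ / 2) := by positivity
    have hlt : s * (δ / 2) < δ := by nlinarith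
    obtain ⟨h1, h2⟩ := hb (y := -(s * (δ / 2))) (by
      rw [Real.dist_eq, sub_zero, abs_neg, abs_of_pos hp]; exact hlt)
    have h3 := h1 (neg_ne_zero.2 hp.ne')
    rw [smul_smul]
    have e1 : z - (s * (δ / 2)) • v = z + (-(s * (δ / 2))) • v := by
      rw [neg_smul]; ring
    rw [e1]
    refine ⟨h2, ?_⟩
    rw [slope_def_field] at h3
    simp only [zero_smul, add_zero, sub_zero, hzt] at h3
    have h4 : (u (z + -(s * (δ / 2)) • v) - t) / -(s * (δ / 2)) =
        -((u (z + -(s * (δ / 2)) • v) - t) / (s * (δ / 2))) := by rw [div_neg]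
    rw [h4] at h3
    have h5 : (u (z + -(s * (δ / 2)) • v) - t) / (s * (δ / 2)) < 0 := by linarith
    by_contra hcon
    push Not at hcon
    exact absurd (div_nonneg (by linarith) hp.le) (not_le.2 h5)

end

end Crest.Agent.R105.Cpt_948
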