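import Mathlib
import Crest.Agent.R105.CFcls_363
import Crest.Agent.R105.Stp1_722

/-!
# Row 105 (S0138, picture with solids): oscillation charges, part 1

`chg V P f` = oscillation of `f` at the portion `P` of the complement of `V`, measured from `V`
(infimum of the admissible bounds of 722's `OscLe`).
-/

set_option autoImplicit false

namespace Crest.Agent.R105.Cq_463

open Set Filter MeasureTheory Topology Metric
open Crest.Agent.R105.CF_363 Crest.Agent.R105.Stp_722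

section top

variable {X : Type*} [TopologicalSpace X] {V P : Set X} {f g : X → ℝ} {c c' : ℝ}

/-- the oscillation of `f` at the portion `P`, seen from `V` -/
noncomputable def chg (V P : Set X) (f : X → ℝ) : ℝ := sInf {c | 0 ≤ c ∧ OscLe V P f c}

/-- `f` has finite oscillation at `P` -/
def Fin (V P : Set X) (f : X → ℝ) : Prop := ∃ c, OscLe V P f c

theorem chg_nonneg (V P : Set X) (f : X → ℝ) : 0 ≤ chg V P f :=
  Real.sInf_nonneg fun _ hx => hx.1

theorem chg_le (hc : 0 ≤ c) (h : OscLe V P f c) : chg V P f ≤ c :=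
  csInf_le ⟨0, fun _ hx => hx.1⟩ ⟨hc, h⟩

theorem OscLe.fin (h : OscLe V P f c) : Fin V P f := ⟨c, h⟩

theorem Fin.oscLe (h : Fin V P f) : OscLe V P f (chg V P f) := by
  obtain ⟨c, hc⟩ := h
  have hne : ({c | 0 ≤ c ∧ OscLe V P f c} : Set ℝ).Nonempty :=
    ⟨max c 0, le_max_right _ _, hc.mono (le_max_left _ _)⟩
  intro ε hε
  obtain ⟨c', ⟨hc0, hc'⟩, hlt⟩ := exists_lt_of_csInf_lt hne
    (show sInf {c | 0 ≤ c ∧ OscLe V P f c} < chg V P f + ε / 2 by unfold chg; linarith)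
  obtain ⟨O, hO, hPO, H⟩ := hc' (ε / 2) (by linarith)
  exact ⟨O, hO, hPO, fun q hq q' hq' => (H q hq q' hq').trans (by linarith)⟩

theorem chg_le_iff (h : Fin V P f) (hc : 0 ≤ c) : chg V P f ≤ c ↔ OscLe V P f c :=
  ⟨fun h1 => h.oscLe.mono h1, chg_le hc⟩

/-- bounded functions -/
theorem oscLe_of_bdd {A : ℝ} {O : Set X} (hO : IsOpen O) (hPO : P ⊆ O)
    (h : ∀ p ∈ O ∩ V, |f p| ≤ A) : OscLe V P f (2 * A) := by
  intro ε hε
  refine ⟨O, hO, hPO, fun q hq q' hq' => ?_⟩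
  have h1 := abs_le.1 (h q hq)
  have h2 := abs_le.1 (h q' hq')
  rw [abs_le]; constructor <;> linarith

theorem oscLe_of_bdd' {A : ℝ} (h : ∀ p ∈ V, |f p| ≤ A) : OscLe V P f (2 * A) :=
  oscLe_of_bdd isOpen_univ (subset_univ _) fun p hp => h p hp.2

theorem fin_of_bdd {A : ℝ} (h : ∀ p ∈ V, |f p| ≤ A) : Fin V P f := ⟨_, oscLe_of_bdd' h⟩

theorem oscLe_const (a : ℝ) : OscLe V P (fun _ => a) 0 := by
  intro ε hε
  exact ⟨univ, isOpen_univ, subset_univ _, fun q _ q' _ => by simpa using hε.le⟩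

theorem chg_const (a : ℝ) : chg V P (fun _ => a) = 0 :=
  le_antisymm (chg_le le_rfl (oscLe_const a)) (chg_nonneg _ _ _)

theorem oscLe_empty : OscLe V ∅ f 0 := by
  intro ε hε
  exact ⟨∅, isOpen_empty, subset_rfl, by simp⟩

theorem chg_empty : chg V ∅ f = 0 :=
  le_antisymm (chg_le le_rfl oscLe_empty) (chg_nonneg _ _ _)

/-- general two-argument rule -/
theorem oscLe_two {k : X → ℝ} {a b : ℝ} {A B : ℝ} (hA : 0 ≤ A) (hB : 0 ≤ B)
    (hf : OscLe V P f a) (hg : OscLe V P g b)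
    (h : ∀ q ∈ V, ∀ q' ∈ V, |k q - k q'| ≤ A * |f q - f q'| + B * |g q - g q'|) :
    OscLe V P k (A * a + B * b) := by
  intro ε hε
  obtain ⟨O, hO, hPO, H⟩ := hf (ε / (2 * (A + 1))) (by positivity)
  obtain ⟨O', hO', hPO', H'⟩ := hg (ε / (2 * (B + 1))) (by positivity)
  refine ⟨O ∩ O', hO.inter hO', subset_inter hPO hPO', fun q hq q' hq' => ?_⟩
  have h1 := H q ⟨hq.1.1, hq.2⟩ q' ⟨hq'.1.1, hq'.2⟩
  have h2 := H' q ⟨hq.1.2, hq.2⟩ q' ⟨hq'.1.2, hq'.2⟩
  have e1 : A * (ε / (2 * (A + 1))) ≤ ε / 2 := by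
    rw [mul_div_assoc', div_le_div_iff₀ (by positivity) (by norm_num)]; nlinarith
  have e2 : B * (ε / (2 * (B + 1))) ≤ ε / 2 := by
    rw [mul_div_assoc', div_le_div_iff₀ (by positivity) (by norm_num)]; nlinarith
  calc |k q - k q'| ≤ A * |f q - f q'| + B * |g q - g q'| := h q hq.2 q' hq'.2
    _ ≤ A * (a + ε / (2 * (A + 1))) + B * (b + ε / (2 * (B + 1))) := by gcongr
    _ ≤ A * a + B * b + ε := by linarith

theorem chg_two {k : X → ℝ} {A B : ℝ} (hA : 0 ≤ A) (hB : 0 ≤ B)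
    (hf : Fin V P f) (hg : Fin V P g)
    (h : ∀ q ∈ V, ∀ q' ∈ V, |k q - k q'| ≤ A * |f q - f q'| + B * |g q - g q'|) :
    chg V P k ≤ A * chg V P f + B * chg V P g :=
  chg_le (by have := chg_nonneg V P f; have := chg_nonneg V P g; positivity)
    (oscLe_two hA hB hf.oscLe hg.oscLe h)

theorem Fin.two {k : X → ℝ} {A B : ℝ} (hA : 0 ≤ A) (hB : 0 ≤ B)
    (hf : Fin V P f) (hg : Fin V P g)
    (h : ∀ q ∈ V, ∀ q' ∈ V, |k q - k q'| ≤ A * |f q - f q'| + B * |g q - g q'|) : Fin V P k :=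
  ⟨_, oscLe_two hA hB hf.oscLe hg.oscLe h⟩

theorem chg_comp {G : ℝ → ℝ} {M : ℝ} (hM : 0 ≤ M) (hG : ∀ s t, |G s - G t| ≤ M * |s - t|)
    (hf : Fin V P f) : chg V P (fun x => G (f x)) ≤ M * chg V P f := by
  have := chg_two (k := fun x => G (f x)) (g := f) (B := 0) hM le_rfl hf hf (fun q _ q' _ => by
    simpa using hG (f q) (f q'))
  simpa using this

theorem Fin.comp {G : ℝ → ℝ} {M : ℝ} (hM : 0 ≤ M) (hG : ∀ s t, |G s - G t| ≤ M * |s - t|)
    (hf : Fin V P f) : Fin V P (fun x => G (f x)) :=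
  Fin.two (g := f) (B := 0) hM le_rfl hf hf (fun q _ q' _ => by simpa using hG (f q) (f q'))

theorem chg_const_mul (a : ℝ) (hf : Fin V P f) : chg V P (fun x => a * f x) ≤ |a| * chg V P f :=
  chg_comp (G := fun t => a * t) (abs_nonneg a) (fun s t => by rw [← mul_sub, abs_mul]) hf

theorem chg_neg (hf : Fin V P f) : chg V P (fun x => - f x) ≤ chg V P f := by
  simpa using chg_comp (G := fun t => -t) zero_le_one (fun s t => by
    rw [one_mul, neg_sub_neg, abs_sub_comm]) hf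

theorem chg_abs (hf : Fin V P f) : chg V P (fun x => |f x|) ≤ chg V P f := by
  simpa using chg_comp (G := fun t => |t|) zero_le_one (fun s t => by
    rw [one_mul]; exact abs_abs_sub_abs_le_abs_sub _ _) hf

theorem Fin.add (hf : Fin V P f) (hg : Fin V P g) : Fin V P (fun x => f x + g x) :=
  Fin.two (A := 1) (B := 1) zero_le_one zero_le_one hf hg (fun q _ q' _ => by
    rw [one_mul, one_mul, show f q + g q - (f q' + g q') = (f q - f q') + (g q - g q') by ring]
    exact abs_add_le _ _)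

theorem chg_add (hf : Fin V P f) (hg : Fin V P g) :
    chg V P (fun x => f x + g x) ≤ chg V P f + chg V P g := by
  simpa using chg_two (k := fun x => f x + g x) zero_le_one zero_le_one hf hg (fun q _ q' _ => by
    rw [one_mul, one_mul, show f q + g q - (f q' + g q') = (f q - f q') + (g q - g q') by ring]
    exact abs_add_le _ _)

theorem Fin.sub (hf : Fin V P f) (hg : Fin V P g) : Fin V P (fun x => f x - g x) :=
  Fin.two (A := 1) (B := 1) zero_le_one zero_le_one hf hg (fun q _ q' _ => by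
    rw [one_mul, one_mul, show f q - g q - (f q' - g q') = (f q - f q') - (g q - g q') by ring]
    exact abs_sub _ _)

theorem chg_sub (hf : Fin V P f) (hg : Fin V P g) :
    chg V P (fun x => f x - g x) ≤ chg V P f + chg V P g := by
  simpa using chg_two (k := fun x => f x - g x) zero_le_one zero_le_one hf hg (fun q _ q' _ => by
    rw [one_mul, one_mul, show f q - g q - (f q' - g q') = (f q - f q') - (g q - g q') by ring]
    exact abs_sub _ _)

/-- convex combination -/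
theorem chg_convex {s t : ℝ} (hs : 0 ≤ s) (ht : 0 ≤ t) (hf : Fin V P f) (hg : Fin V P g) :
    chg V P (fun x => s * f x + t * g x) ≤ s * chg V P f + t * chg V P g :=
  chg_two hs ht hf hg (fun q _ q' _ => by
    rw [show s * f q + t * g q - (s * f q' + t * g q') = s * (f q - f q') + t * (g q - g q') by
      ring]
    refine (abs_add_le _ _).trans (le_of_eq ?_)
    rw [abs_mul, abs_mul, abs_of_nonneg hs, abs_of_nonneg ht])

/-- products -/
theorem oscLe_mul {A B a b : ℝ} (hA0 : 0 ≤ A) (hB0 : 0 ≤ B) (hA : ∀ p ∈ V, |f p| ≤ A)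
    (hB : ∀ p ∈ V, |g p| ≤ B) (hf : OscLe V P f a) (hg : OscLe V P g b) :
    OscLe V P (fun x => f x * g x) (B * a + A * b) :=
  oscLe_two hB0 hA0 hf hg (fun q hq q' hq' => by
    rw [show f q * g q - f q' * g q' = g q * (f q - f q') + f q' * (g q - g q') by ring]
    refine (abs_add_le _ _).trans ?_
    rw [abs_mul, abs_mul]
    exact add_le_add (mul_le_mul_of_nonneg_right (hB q hq) (abs_nonneg _))
      (mul_le_mul_of_nonneg_right (hA q' hq') (abs_nonneg _)))

theorem chg_mul {A B : ℝ} (hA0 : 0 ≤ A) (hB0 : 0 ≤ B) (hA : ∀ p ∈ V, |f p| ≤ A)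
    (hB : ∀ p ∈ V, |g p| ≤ B) :
    chg V P (fun x => f x * g x) ≤ B * chg V P f + A * chg V P g :=
  chg_le (by have := chg_nonneg V P f; have := chg_nonneg V P g; positivity)
    (oscLe_mul hA0 hB0 hA hB (fin_of_bdd hA).oscLe (fin_of_bdd hB).oscLe)

/-- maxima and minima -/
theorem oscLe_lat {k : X → ℝ} {a b : ℝ}
    (hf : OscLe V P f a) (hg : OscLe V P g b)
    (h : ∀ q ∈ V, ∀ q' ∈ V, |k q - k q'| ≤ max |f q - f q'| |g q - g q'|) :
    OscLe V P k (max a b) := by
  intro ε hε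
  obtain ⟨O, hO, hPO, H⟩ := hf ε hε
  obtain ⟨O', hO', hPO', H'⟩ := hg ε hε
  refine ⟨O ∩ O', hO.inter hO', subset_inter hPO hPO', fun q hq q' hq' => ?_⟩
  have h1 := H q ⟨hq.1.1, hq.2⟩ q' ⟨hq'.1.1, hq'.2⟩
  have h2 := H' q ⟨hq.1.2, hq.2⟩ q' ⟨hq'.1.2, hq'.2⟩
  refine (h q hq.2 q' hq'.2).trans (max_le (h1.trans ?_) (h2.trans ?_))
  · linarith [le_max_left a b]
  · linarith [le_max_right a b]

theorem Fin.max (hf : Fin V P f) (hg : Fin V P g) : Fin V P (fun x => max (f x) (g x)) :=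
  ⟨_, oscLe_lat hf.oscLe hg.oscLe fun _ _ _ _ => abs_max_sub_max_le_max _ _ _ _⟩

theorem Fin.min (hf : Fin V P f) (hg : Fin V P g) : Fin V P (fun x => min (f x) (g x)) :=
  ⟨_, oscLe_lat hf.oscLe hg.oscLe fun _ _ _ _ => abs_min_sub_min_le_max _ _ _ _⟩

theorem chg_max (hf : Fin V P f) (hg : Fin V P g) :
    chg V P (fun x => Max.max (f x) (g x)) ≤ Max.max (chg V P f) (chg V P g) :=
  chg_le ((chg_nonneg _ _ _).trans (le_max_left _ _))
    (oscLe_lat hf.oscLe hg.oscLe fun _ _ _ _ => abs_max_sub_max_le_max _ _ _ _)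

theorem chg_min (hf : Fin V P f) (hg : Fin V P g) :
    chg V P (fun x => Min.min (f x) (g x)) ≤ Max.max (chg V P f) (chg V P g) :=
  chg_le ((chg_nonneg _ _ _).trans (le_max_left _ _))
    (oscLe_lat hf.oscLe hg.oscLe fun _ _ _ _ => abs_min_sub_min_le_max _ _ _ _)

theorem chg_mono_set {P' : Set X} (hf : Fin V P f) (h : P' ⊆ P) : chg V P' f ≤ chg V P f :=
  chg_le (chg_nonneg _ _ _) (hf.oscLe.mono_set h)

theorem chg_mono_V {V' : Set X} (hf : Fin V P f) (h : V' ⊆ V) : chg V' P f ≤ chg V P f :=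
  chg_le (chg_nonneg _ _ _) (hf.oscLe.mono_V h)

theorem Fin.mono_set {P' : Set X} (hf : Fin V P f) (h : P' ⊆ P) : Fin V P' f :=
  ⟨_, hf.oscLe.mono_set h⟩

theorem Fin.mono_V {V' : Set X} (hf : Fin V P f) (h : V' ⊆ V) : Fin V' P f :=
  ⟨_, hf.oscLe.mono_V h⟩

/-- locality -/
theorem chg_congr {O : Set X} (hO : IsOpen O) (hP : P ⊆ O) (h : ∀ q ∈ O ∩ V, g q = f q) :
    chg V P g = chg V P f := by
  have : {c | 0 ≤ c ∧ OscLe V P g c} = {c | 0 ≤ c ∧ OscLe V P f c} := by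
    ext c
    constructor
    · rintro ⟨h0, h1⟩
      exact ⟨h0, h1.congr hO hP fun q hq => (h q hq).symm⟩
    · rintro ⟨h0, h1⟩
      exact ⟨h0, h1.congr hO hP h⟩
  unfold chg
  rw [this]

theorem chg_eq_zero {O : Set X} (hO : IsOpen O) (hP : P ⊆ O) {a : ℝ} (h : ∀ q ∈ O ∩ V, f q = a) :
    chg V P f = 0 := by
  rw [chg_congr hO hP h, chg_const]

/-- a product where the second factor is only controlled near `P` -/
theorem chg_mul_near {A B : ℝ} (hA0 : 0 ≤ A) (hB0 : 0 ≤ B) {O : Set X} (hO : IsOpen O)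
    (hPO : P ⊆ O) (hA : ∀ p ∈ O ∩ V, |f p| ≤ A) (hB : ∀ p ∈ O ∩ V, |g p| ≤ B)
    (hf : Fin V P f) (hg : Fin V P g) :
    chg V P (fun x => f x * g x) ≤ B * chg V P f + A * chg V P g := by
  refine chg_le (by have := chg_nonneg V P f; have := chg_nonneg V P g; positivity) ?_
  have key : OscLe (O ∩ V) P (fun x => f x * g x) (B * chg V P f + A * chg V P g) :=
    oscLe_mul hA0 hB0 hA hB (hf.oscLe.mono_V inter_subset_right)
      (hg.oscLe.mono_V inter_subset_right)
  intro ε hε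
  obtain ⟨O', hO', hPO', H⟩ := key ε hε
  exact ⟨O' ∩ O, hO'.inter hO, subset_inter hPO' hPO, fun q hq q' hq' =>
    H q ⟨hq.1.1, hq.1.2, hq.2⟩ q' ⟨hq'.1.1, hq'.1.2, hq'.2⟩⟩

end top

/-! ### Lipschitz functions -/

section lip

variable {X : Type*} [NormedAddCommGroup X] [NormedSpace ℝ X]

/-- oscillation of a function which is Lipschitz along segments of `W` off a closed set `S`,
at a convex compact portion `P` which does not meet `S`. -/
theorem SL_oscLe {W S V P : Set X} {L : ℝ} {f : X → ℝ} (h : SL (W \ S) L f) (hL : 0 ≤ L)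
    (hW : Convex ℝ W) (hS : IsClosed S) (hV : V ⊆ W) (hP : IsCompact P) (hPc : Convex ℝ P)
    (hPS : Disjoint P S) : OscLe V P f (L * diam P) := by
  intro ε hε
  obtain ⟨δ, hδ, hδS⟩ := hPS.exists_thickenings hP hS
  set δ' := min δ (ε / (2 * (L + 1))) with hδ'
  have hδ'0 : 0 < δ' := lt_min hδ (by positivity)
  refine ⟨thickening δ' P, isOpen_thickening, self_subset_thickening hδ'0 P, ?_⟩
  intro q hq q' hq'
  have hseg : segment ℝ q q' ⊆ W \ S := by
    intro r hr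
    refine ⟨hW.segment_subset (hV hq.2) (hV hq'.2) hr, fun hrS => ?_⟩
    have h1 : r ∈ thickening δ' P := (hPc.thickening δ').segment_subset hq.1 hq'.1 hr
    exact disjoint_left.1 hδS (thickening_mono (min_le_left _ _) _ h1)
      (self_subset_thickening hδ S hrS)
  have h1 := h q q' hseg
  obtain ⟨x, hx, hqx⟩ := mem_thickening_iff.1 hq.1
  obtain ⟨x', hx', hqx'⟩ := mem_thickening_iff.1 hq'.1
  have h2 : dist q q' ≤ diam P + 2 * δ' := by
    have e1 := dist_triangle4 q x x' q'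
    have e2 := dist_le_diam_of_mem hP.isBounded hx hx'
    rw [dist_comm x' q'] at e1
    linarith
  have h3 : L * (2 * δ') ≤ ε := by
    have e1 : δ' ≤ ε / (2 * (L + 1)) := min_le_right _ _
    have e2 : L * (2 * δ') ≤ L * (2 * (ε / (2 * (L + 1)))) := by gcongr
    have e3 : L * (2 * (ε / (2 * (L + 1)))) ≤ ε := by
      rw [show L * (2 * (ε / (2 * (L + 1)))) = L * ε / (L + 1) by field_simp]
      rw [div_le_iff₀ (by positivity)]; nlinarith
    linarith
  calc |f q - f q'| ≤ L * dist q q' := h1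
    _ ≤ L * (diam P + 2 * δ') := by gcongr
    _ = L * diam P + L * (2 * δ') := by ring
    _ ≤ L * diam P + ε := by linarith

end lip

end Crest.Agent.R105.Cq_463
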