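import Crest.Agent.R105.Cq2_463

/-!
# Row 105 (S0138, picture with solids): the line lemma across the squares
-/

set_option autoImplicit false

namespace Crest.Agent.R105.Cq_463

open Set Filter MeasureTheory Topology Metric
open Crest.Agent.R105.CF_363 Crest.Agent.R105.Stp_722
open scoped ENNReal

variable {E W : Set (ℝ × ℝ)} {𝒬 : Set Sqr} {𝓗 : Set Hair} {f g : ℝ × ℝ → ℝ}

/-- a good vertical line for `f` (Lipschitz along the segments of `W \ cut J`) -/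
structure GoodX (E W : Set (ℝ × ℝ)) (𝒬 : Set Sqr) (J : Finset Hair) (f : ℝ × ℝ → ℝ)
    (x : ℝ) : Prop where
  off : ∀ y, (x, y) ∉ cut J
  null : volume {t : ℝ | (x, t) ∈ E \ ⋃ Q ∈ 𝒬, Q.car} = 0
  ftc : ∀ a b : ℝ, (∀ y ∈ uIcc a b, (x, y) ∈ W) →
    f (x, b) - f (x, a) = ∫ y in a..b, gy f (x, y)

theorem ae_goodX (hE : QPic E 𝒬 𝓗) {J : Finset Hair} (hW : IsOpen W) {L : ℝ}
    (h : SL (W \ cut J) L f) : ∀ᵐ x : ℝ, GoodX E W 𝒬 J f x := by
  have h1 : ∀ᵐ x : ℝ, x ∉ (fun K : Hair => K.x) '' (J : Set Hair) :=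
    measure_eq_zero_iff_ae_notMem.1 ((J.finite_toSet.image _).measure_zero _)
  have h2 : ∀ᵐ x : ℝ, volume {t : ℝ | (x, t) ∈ E \ ⋃ Q ∈ 𝒬, Q.car} = 0 := by
    have h3 := hE.null
    rw [Measure.volume_eq_prod] at h3
    exact Measure.measure_ae_null_of_prod_null h3
  filter_upwards [h1, h2, h.ftc_y (isOpen_diff_cut hW J)] with x hx1 hx2 hx3
  have hoff : ∀ y, (x, y) ∉ cut J := by
    intro y hy
    obtain ⟨K, hK, hp⟩ := mem_cut.1 hy
    exact hx1 ⟨K, hK, hp.1.symm⟩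
  exact ⟨hoff, hx2, fun a b hab => hx3 a b fun y hy => ⟨hab y hy, hoff y⟩⟩

/-- a nondegenerate vertical segment of `E` on a good line lies in one square -/
theorem GoodX.seg (hE : QPic E 𝒬 𝓗) {J : Finset Hair} {x : ℝ} (hx : GoodX E W 𝒬 J f x)
    {a b : ℝ} (hab : a < b) (h : ∀ t ∈ Icc a b, (x, t) ∈ E) :
    ∃ Q ∈ 𝒬, ∀ t ∈ Icc a b, (x, t) ∈ Q.car := by
  -- every nondegenerate subinterval meets a square
  have hmeet : ∀ c d : ℝ, a ≤ c → c < d → d ≤ b → ∃ t ∈ Ioo c d, ∃ Q ∈ 𝒬, (x, t) ∈ Q.car := by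
    intro c d hc hcd hd
    by_contra hcon
    push Not at hcon
    have hsub : Ioo c d ⊆ {t : ℝ | (x, t) ∈ E \ ⋃ Q ∈ 𝒬, Q.car} := by
      intro t ht
      refine ⟨h t ⟨hc.trans ht.1.le, ht.2.le.trans hd⟩, fun hm => ?_⟩
      obtain ⟨Q, hQ, hQt⟩ := mem_iUnion₂.1 hm
      exact hcon t ht Q hQ hQt
    have := measure_mono_null hsub hx.null
    rw [Real.volume_Ioo, ENNReal.ofReal_eq_zero] at this
    linarith
  set P : Set (ℝ × ℝ) := (fun t : ℝ => (x, t)) '' Icc a b with hP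
  have hPc : IsPreconnected P := isPreconnected_Icc.image _ (by fun_prop)
  have hPE : P ⊆ E := by rintro _ ⟨t, ht, rfl⟩; exact h t ht
  obtain ⟨t0, ht0, Q, hQ, hQt0⟩ := hmeet a b le_rfl hab le_rfl
  have huniq : ∀ t ∈ Icc a b, ∀ Q' ∈ 𝒬, (x, t) ∈ Q'.car → Q' = Q := fun t ht Q' hQ' ht' =>
    hE.sep P hPE hPc Q' hQ' Q hQ ⟨(x, t), ⟨t, ht, rfl⟩, ht'⟩
      ⟨(x, t0), ⟨t0, Ioo_subset_Icc_self ht0, rfl⟩, hQt0⟩
  refine ⟨Q, hQ, fun t ht => ?_⟩
  obtain ⟨hxQ, -⟩ := Sqr.mem_car.1 hQt0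
  refine Sqr.mem_car.2 ⟨hxQ, ?_, ?_⟩
  · by_contra hc
    push Not at hc
    simp only at hc
    obtain ⟨t1, ht1, Q1, hQ1, hQt1⟩ := hmeet a (min Q.y b) le_rfl
      (lt_min (ht.1.trans_lt hc) hab) (min_le_right _ _)
    have e := huniq t1 ⟨ht1.1.le, ht1.2.le.trans (min_le_right _ _)⟩ Q1 hQ1 hQt1
    subst e
    have := (Sqr.mem_car.1 hQt1).2.1
    simp only at this
    have h2 := ht1.2.trans_le (min_le_left _ _)
    linarith
  · by_contra hc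
    push Not at hc
    simp only at hc
    obtain ⟨t1, ht1, Q1, hQ1, hQt1⟩ := hmeet (max (Q.y + Q.s) a) b (le_max_right _ _)
      (max_lt (hc.trans_le ht.2) hab) le_rfl
    have e := huniq t1 ⟨(le_max_right _ _).trans ht1.1.le, ht1.2.le⟩ Q1 hQ1 hQt1
    subst e
    have := (Sqr.mem_car.1 hQt1).2.2
    simp only at this
    have h2 := (le_max_left _ _).trans_lt ht1.1
    linarith

theorem GoodX.above (hE : QPic E 𝒬 𝓗) {J : Finset Hair} {x : ℝ} (hx : GoodX E W 𝒬 J f x)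
    {Q : Sqr} (hQ : Q ∈ 𝒬) (hxQ : x ∈ Icc Q.x (Q.x + Q.s)) {δ : ℝ} (hδ : 0 < δ) :
    ∃ t ∈ Ioo (Q.y + Q.s) (Q.y + Q.s + δ), (x, t) ∉ E := by
  by_contra hcon
  push Not at hcon
  have hs := Q.hs
  have hsub : ∀ t ∈ Icc Q.y (Q.y + Q.s + δ / 2), (x, t) ∈ E := by
    intro t ht
    rcases le_or_gt t (Q.y + Q.s) with h | h
    · exact hE.sub Q hQ (Sqr.mem_car.2 ⟨hxQ, ht.1, h⟩)
    · exact hcon t ⟨h, by linarith [ht.2]⟩
  obtain ⟨Q', hQ', h⟩ := hx.seg hE (by linarith) hsub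
  have h1 := h Q.y ⟨le_rfl, by linarith⟩
  have h2 := h (Q.y + Q.s + δ / 2) ⟨by linarith, le_rfl⟩
  have e : Q' = Q := by
    by_contra hne
    exact disjoint_left.1 (hE.disjoint hQ' hQ hne) h1 (Sqr.mem_car.2 ⟨hxQ, le_rfl, by
      simp only; linarith⟩)
  subst e
  have := (Sqr.mem_car.1 h2).2.2
  simp only at this
  linarith

theorem GoodX.below (hE : QPic E 𝒬 𝓗) {J : Finset Hair} {x : ℝ} (hx : GoodX E W 𝒬 J f x)
    {Q : Sqr} (hQ : Q ∈ 𝒬) (hxQ : x ∈ Icc Q.x (Q.x + Q.s)) {δ : ℝ} (hδ : 0 < δ) :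
    ∃ t ∈ Ioo (Q.y - δ) Q.y, (x, t) ∉ E := by
  by_contra hcon
  push Not at hcon
  have hs := Q.hs
  have hsub : ∀ t ∈ Icc (Q.y - δ / 2) (Q.y + Q.s), (x, t) ∈ E := by
    intro t ht
    rcases lt_or_ge t Q.y with h | h
    · exact hcon t ⟨by linarith [ht.1], h⟩
    · exact hE.sub Q hQ (Sqr.mem_car.2 ⟨hxQ, h, ht.2⟩)
  obtain ⟨Q', hQ', h⟩ := hx.seg hE (by linarith) hsub
  have h1 := h (Q.y + Q.s) ⟨by linarith, le_rfl⟩
  have h2 := h (Q.y - δ / 2) ⟨le_rfl, by linarith⟩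
  have e : Q' = Q := by
    by_contra hne
    exact disjoint_left.1 (hE.disjoint hQ' hQ hne) h1 (Sqr.mem_car.2 ⟨hxQ, by
      simp only; linarith, le_rfl⟩)
  subst e
  have := (Sqr.mem_car.1 h2).2.1
  simp only at this
  linarith

/-- jump of `f` across a square on a good line -/
theorem GoodX.face (hE : QPic E 𝒬 𝓗) {J : Finset Hair} (hW : IsOpen W) {L : ℝ}
    (h : SL (W \ cut J) L f) {x : ℝ} (hx : GoodX E W 𝒬 J f x)
    {Q : Sqr} (hQ : Q ∈ 𝒬) (hxQ : x ∈ Icc Q.x (Q.x + Q.s)) {c : ℝ}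
    (hc : OscLe (Eᶜ ∩ W) (Q.car ∩ closure W) f c)
    (hseg : ∀ t ∈ Icc Q.y (Q.y + Q.s), (x, t) ∈ W) :
    |f (x, Q.y + Q.s) - f (x, Q.y)| ≤ c := by
  have hs := Q.hs
  refine le_of_forall_pos_le_add fun ε hε => ?_
  obtain ⟨O, hO, hPO, H⟩ := hc (ε / 3) (by linarith)
  have hU := isOpen_diff_cut hW J
  have hline : Continuous fun t : ℝ => ((x, t) : ℝ × ℝ) := by fun_prop
  -- near a point of the square on the line
  have near : ∀ t0 ∈ Icc Q.y (Q.y + Q.s), ∃ δ > 0, ∀ t, |t - t0| < δ →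
      (x, t) ∈ O ∩ W ∧ |f (x, t) - f (x, t0)| ≤ ε / 3 := by
    intro t0 ht0
    have hw := hseg t0 ht0
    have hcont : ContinuousAt f (x, t0) := h.continuousAt hU ⟨hw, hx.off t0⟩
    have hcont' : ContinuousAt (fun t => f (x, t)) t0 :=
      ContinuousAt.comp (f := fun t : ℝ => ((x, t) : ℝ × ℝ)) hcont hline.continuousAt
    have h1 : ∀ᶠ t in 𝓝 t0, |f (x, t) - f (x, t0)| ≤ ε / 3 := by
      have := Metric.tendsto_nhds.1 hcont' (ε / 3) (by linarith)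
      filter_upwards [this] with t ht
      rw [Real.dist_eq] at ht
      exact ht.le
    have h2 : ∀ᶠ t in 𝓝 t0, (x, t) ∈ O ∩ W :=
      hline.continuousAt.eventually_mem ((hO.inter hW).mem_nhds
        ⟨hPO ⟨Sqr.mem_car.2 ⟨hxQ, ht0⟩, subset_closure hw⟩, hw⟩)
    obtain ⟨δ, hδ, hb⟩ := Metric.eventually_nhds_iff.1 (h2.and h1)
    exact ⟨δ, hδ, fun t ht => hb (by rw [Real.dist_eq]; exact ht)⟩
  obtain ⟨δ, hδ, hn⟩ := near (Q.y + Q.s) ⟨by linarith, le_rfl⟩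
  obtain ⟨δ', hδ', hn'⟩ := near Q.y ⟨le_rfl, by linarith⟩
  obtain ⟨t, ht, htE⟩ := hx.above hE hQ hxQ hδ
  obtain ⟨t', ht', htE'⟩ := hx.below hE hQ hxQ hδ'
  obtain ⟨a1, a2⟩ := hn t (by rw [abs_lt]; constructor <;> linarith [ht.1, ht.2])
  obtain ⟨b1, b2⟩ := hn' t' (by rw [abs_lt]; constructor <;> linarith [ht'.1, ht'.2])
  have h3 := abs_le.1 (H (x, t) ⟨a1.1, htE, a1.2⟩ (x, t') ⟨b1.1, htE', b1.2⟩)
  have h4 := abs_le.1 a2
  have h5 := abs_le.1 b2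
  rw [abs_le]; constructor <;> linarith

/-- the charge of the squares met by the open segment `{x} × (a, b)` (both end points off them) -/
noncomputable def hop (E W : Set (ℝ × ℝ)) (𝒬 : Set Sqr) (f : ℝ × ℝ → ℝ) (a b x : ℝ) : ℝ≥0∞ :=
  ∑' Q : 𝒬, {Q : 𝒬 | x ∈ Icc Q.1.x (Q.1.x + Q.1.s) ∧ a < Q.1.y ∧ Q.1.y + Q.1.s < b}.indicator
    (fun Q => ENNReal.ofReal (ch E W f Q.1)) Q

/-- **LINE LEMMA**: on a good vertical line the variation of `f` between two points off the squares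
is at most the integral of `|∂_y f|` off `E` plus the charges of the squares in between. -/
theorem GoodX.line (hE : QPic E 𝒬 𝓗) {J : Finset Hair} (hJ : ∀ K ∈ J, K ∈ 𝓗) (hW : IsOpen W)
    {L C : ℝ} (hL : 0 ≤ L) (h : SL (W \ cut J) L f) (hC : ∀ p ∈ W \ cut J, |f p| ≤ C)
    {x : ℝ} (hx : GoodX E W 𝒬 J f x) {a b : ℝ} (hab : a ≤ b) (hseg : ∀ t ∈ Icc a b, (x, t) ∈ W)
    (ha : (x, a) ∉ ⋃ Q ∈ 𝒬, Q.car) (hb : (x, b) ∉ ⋃ Q ∈ 𝒬, Q.car) :
    ‖f (x, b) - f (x, a)‖ₑ ≤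
      (∫⁻ t in {t ∈ Ioc a b | (x, t) ∉ E}, ‖gy f (x, t)‖ₑ) + hop E W 𝒬 f a b x := by
  classical
  have hcount := hE.countable.to_subtype
  have hfin : ∀ P, Fin (Eᶜ ∩ W) P f := fun P => CFJ.fin hE ⟨J, hJ, L, C, hL, h, hC⟩ P
  rw [hx.ftc a b (by rwa [uIcc_of_le hab]), intervalIntegral.integral_of_le hab]
  have hline : Continuous fun t : ℝ => ((x, t) : ℝ × ℝ) := by fun_prop
  have hmeas : Measurable fun t : ℝ => gy f (x, t) := (measurable_gy f).comp hline.measurable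
  -- integrability of the derivative on the segment
  have hint : IntegrableOn (fun t => gy f (x, t)) (Ioc a b) := by
    refine Measure.integrableOn_of_bounded (M := L) measure_Ioc_lt_top.ne
      hmeas.aestronglyMeasurable ?_
    filter_upwards [ae_restrict_mem measurableSet_Ioc] with t ht
    rw [Real.norm_eq_abs]
    exact h.abs_gy_le (isOpen_diff_cut hW J) hL ⟨hseg t ⟨ht.1.le, ht.2⟩, hx.off t⟩
  -- decomposition of the segment
  set I : 𝒬 → Set ℝ := fun Q => {t ∈ Ioc a b | (x, t) ∈ Q.1.car} with hI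
  have hIm : ∀ Q, MeasurableSet (I Q) := fun Q =>
    measurableSet_Ioc.inter (Q.1.isCompact_car.isClosed.preimage hline).measurableSet
  have hId : Pairwise (Function.onFun Disjoint I) := by
    intro Q Q' hne
    refine disjoint_left.2 fun t ht ht' => ?_
    exact disjoint_left.1 (hE.disjoint Q.2 Q'.2 fun he => hne (Subtype.ext he)) ht.2 ht'.2
  set A : Set ℝ := {t ∈ Ioc a b | (x, t) ∉ E} with hA
  have hAm : MeasurableSet A :=
    measurableSet_Ioc.inter (hE.cpt.isClosed.preimage hline).measurableSet.compl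
  have hdisj : Disjoint A (⋃ Q, I Q) := by
    refine disjoint_left.2 fun t ht ht' => ?_
    obtain ⟨Q, hQ⟩ := mem_iUnion.1 ht'
    exact ht.2 (hE.sub Q.1 Q.2 hQ.2)
  have hae : Ioc a b =ᵐ[volume] (A ∪ ⋃ Q, I Q : Set ℝ) := by
    have hnull := measure_eq_zero_iff_ae_notMem.1 hx.null
    filter_upwards [hnull] with t ht
    refine propext ⟨fun hm => ?_, fun hm => ?_⟩
    · by_cases hE' : (x, t) ∈ E
      · right
        by_contra hcon
        refine ht ⟨hE', fun hm' => hcon ?_⟩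
        obtain ⟨Q, hQ, hQt⟩ := mem_iUnion₂.1 hm'
        exact mem_iUnion.2 ⟨⟨Q, hQ⟩, hm, hQt⟩
      · exact Or.inl ⟨hm, hE'⟩
    · rcases hm with hm | hm
      · exact hm.1
      · obtain ⟨Q, hQ⟩ := mem_iUnion.1 hm
        exact hQ.1
  have hintA : IntegrableOn (fun t => gy f (x, t)) A := hint.mono_set fun t ht => ht.1
  have hintI : IntegrableOn (fun t => gy f (x, t)) (⋃ Q, I Q) :=
    hint.mono_set (iUnion_subset fun Q t ht => ht.1)
  rw [setIntegral_congr_set hae, setIntegral_union hdisj (MeasurableSet.iUnion hIm) hintA hintI]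
  refine (enorm_add_le _ _).trans (add_le_add (enorm_integral_le_lintegral_enorm _) ?_)
  rw [integral_iUnion hIm hId hintI]
  refine enorm_tsum_le_tsum_enorm.trans ?_
  refine ENNReal.tsum_le_tsum fun Q => ?_
  -- one square
  by_cases hne : (I Q).Nonempty
  · obtain ⟨t, ht, htQ⟩ := hne
    obtain ⟨hxQ, hty⟩ := Sqr.mem_car.1 htQ
    simp only at hxQ hty
    have hs := Q.1.hs
    have ha' : a < Q.1.y := by
      by_contra hcon
      push Not at hcon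
      exact ha (mem_iUnion₂.2 ⟨Q.1, Q.2, Sqr.mem_car.2 ⟨hxQ, hcon, ht.1.le.trans hty.2⟩⟩)
    have hb' : Q.1.y + Q.1.s < b := by
      by_contra hcon
      push Not at hcon
      exact hb (mem_iUnion₂.2 ⟨Q.1, Q.2, Sqr.mem_car.2 ⟨hxQ, hty.1.trans ht.2, hcon⟩⟩)
    have hIeq : I Q = Icc Q.1.y (Q.1.y + Q.1.s) := by
      ext u
      constructor
      · rintro ⟨-, hu⟩
        exact (Sqr.mem_car.1 hu).2
      · intro hu
        exact ⟨⟨ha'.trans_le hu.1, hu.2.trans hb'.le⟩, Sqr.mem_car.2 ⟨hxQ, hu⟩⟩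
    have hsegQ : ∀ u ∈ Icc Q.1.y (Q.1.y + Q.1.s), (x, u) ∈ W := fun u hu =>
      hseg u ⟨ha'.le.trans hu.1, hu.2.trans hb'.le⟩
    have e1 : ∫ t in I Q, gy f (x, t) = f (x, Q.1.y + Q.1.s) - f (x, Q.1.y) := by
      rw [hIeq, integral_Icc_eq_integral_Ioc, ← intervalIntegral.integral_of_le (by linarith),
        ← hx.ftc Q.1.y (Q.1.y + Q.1.s) (by rwa [uIcc_of_le (by linarith)])]
    rw [indicator_of_mem (show Q ∈ {Q : 𝒬 | x ∈ Icc Q.1.x (Q.1.x + Q.1.s) ∧ a < Q.1.y ∧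
      Q.1.y + Q.1.s < b} from ⟨hxQ, ha', hb'⟩), e1, ← ofReal_norm, Real.norm_eq_abs]
    exact ENNReal.ofReal_le_ofReal (hx.face hE hW h Q.2 hxQ (hfin _).oscLe hsegQ)
  · rw [not_nonempty_iff_eq_empty.1 hne]
    simp

end Crest.Agent.R105.Cq_463
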