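import Crest.Agent.R105.Cq3_463
import Crest.Agent.R105.Cq4_463
import Crest.Agent.R105.Loc1_271
import Crest.Agent.R105.Hop1_190

/-!
# Row 105 (S0138, picture with solids): Poincare inequality across the squares
-/

set_option autoImplicit false

namespace Crest.Agent.R105.Cq_463

open Set Filter MeasureTheory Topology Metric
open Crest.Agent.R105.CF_363 Crest.Agent.R105.Stp_722
open scoped ENNReal

variable {E W : Set (ℝ × ℝ)} {𝒬 : Set Sqr} {𝓗 : Set Hair} {f g : ℝ × ℝ → ℝ}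

/-- plane or half plane bounded by a horizontal line -/
structure Slab (W : Set (ℝ × ℝ)) : Prop where
  isOpen : IsOpen W
  convex : Convex ℝ W
  hor : ∀ x x' y, (x, y) ∈ W → (x', y) ∈ W
  dir : (∀ x y y', (x, y) ∈ W → y' ≤ y → (x, y') ∈ W) ∨
    (∀ x y y', (x, y) ∈ W → y ≤ y' → (x, y') ∈ W)

theorem slab_univ : Slab univ :=
  ⟨isOpen_univ, convex_univ, by simp, Or.inl (by simp)⟩

theorem slab_lo (B : ℝ) : Slab {p : ℝ × ℝ | p.2 < B} := by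
  refine ⟨isOpen_lt continuous_snd continuous_const, ?_, fun _ _ _ h => h,
    Or.inl fun x y y' h h' => ?_⟩
  · exact (convex_Iio B).linear_preimage (LinearMap.snd ℝ ℝ ℝ)
  · simp only [mem_ofPred_eq] at h ⊢; linarith

theorem slab_up (B : ℝ) : Slab {p : ℝ × ℝ | B < p.2} := by
  refine ⟨isOpen_lt continuous_const continuous_snd, ?_, fun _ _ _ h => h,
    Or.inr fun x y y' h h' => ?_⟩
  · exact (convex_Ioi B).linear_preimage (LinearMap.snd ℝ ℝ ℝ)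
  · simp only [mem_ofPred_eq] at h ⊢; linarith

/-- points of `Eᶜ ∩ W` on a good line, near a portion of a square -/
theorem Slab.near (hW : Slab W) (hE : QPic E 𝒬 𝓗) {J : Finset Hair} {x : ℝ}
    (hx : GoodX E W 𝒬 J f x) {Q : Sqr} (hQ : Q ∈ 𝒬) (hxQ : x ∈ Icc Q.x (Q.x + Q.s))
    (hne : (Q.car ∩ closure W).Nonempty) {O : Set (ℝ × ℝ)} (hO : IsOpen O)
    (hPO : Q.car ∩ closure W ⊆ O) : ∃ t, (x, t) ∈ O ∧ (x, t) ∈ W ∧ (x, t) ∉ E := by
  have hs := Q.hs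
  have hline : Continuous fun t : ℝ => ((x, t) : ℝ × ℝ) := by fun_prop
  obtain ⟨p, hpQ, hpW⟩ := hne
  obtain ⟨-, hp2⟩ := Sqr.mem_car.1 hpQ
  have key : ∀ t0 : ℝ, (x, t0) ∈ O → ∃ δ > 0, ∀ t, |t - t0| < δ → (x, t) ∈ O := by
    intro t0 h0
    obtain ⟨δ, hδ, hb⟩ := Metric.eventually_nhds_iff.1
      (hline.continuousAt.eventually_mem (hO.mem_nhds h0))
    exact ⟨δ, hδ, fun t ht => hb (by rw [Real.dist_eq]; exact ht)⟩
  rcases hW.dir with hd | hd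
  · have hin : ∀ t < Q.y, (x, t) ∈ W := by
      intro t ht
      obtain ⟨w, hw, hwp⟩ := Metric.mem_closure_iff.1 hpW (p.2 - t) (by linarith)
      have h1 : |p.2 - w.2| < p.2 - t := by
        rw [← Real.dist_eq]; exact (le_max_right _ _).trans_lt (by rwa [Prod.dist_eq] at hwp)
      have h2 : t ≤ w.2 := by linarith [(abs_lt.1 h1).2]
      exact hW.hor w.1 x t (hd w.1 w.2 t hw h2)
    have hcl : (x, Q.y) ∈ closure W := by
      have ht : Tendsto (fun t : ℝ => ((x, t) : ℝ × ℝ)) (𝓝[<] Q.y) (𝓝 (x, Q.y)) :=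
        (hline.tendsto Q.y).mono_left nhdsWithin_le_nhds
      exact mem_closure_of_tendsto ht (by
        filter_upwards [self_mem_nhdsWithin] with t ht using hin t ht)
    obtain ⟨δ, hδ, hb⟩ := key Q.y (hPO ⟨Sqr.mem_car.2 ⟨hxQ, le_rfl, by
      simp only; linarith⟩, hcl⟩)
    obtain ⟨t, ht, htE⟩ := hx.below hE hQ hxQ hδ
    exact ⟨t, hb t (by rw [abs_lt]; constructor <;> linarith [ht.1, ht.2]), hin t ht.2, htE⟩
  · have hin : ∀ t > Q.y + Q.s, (x, t) ∈ W := by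
      intro t ht
      obtain ⟨w, hw, hwp⟩ := Metric.mem_closure_iff.1 hpW (t - p.2) (by linarith)
      have h1 : |p.2 - w.2| < t - p.2 := by
        rw [← Real.dist_eq]; exact (le_max_right _ _).trans_lt (by rwa [Prod.dist_eq] at hwp)
      have h2 : w.2 ≤ t := by linarith [(abs_lt.1 h1).1]
      exact hW.hor w.1 x t (hd w.1 w.2 t hw h2)
    have hcl : (x, Q.y + Q.s) ∈ closure W := by
      have ht : Tendsto (fun t : ℝ => ((x, t) : ℝ × ℝ)) (𝓝[>] (Q.y + Q.s))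
          (𝓝 (x, Q.y + Q.s)) := (hline.tendsto _).mono_left nhdsWithin_le_nhds
      exact mem_closure_of_tendsto ht (by
        filter_upwards [self_mem_nhdsWithin] with t ht using hin t ht)
    obtain ⟨δ, hδ, hb⟩ := key (Q.y + Q.s) (hPO ⟨Sqr.mem_car.2 ⟨hxQ, by
      simp only; linarith, le_rfl⟩, hcl⟩)
    obtain ⟨t, ht, htE⟩ := hx.above hE hQ hxQ hδ
    exact ⟨t, hb t (by rw [abs_lt]; constructor <;> linarith [ht.1, ht.2]), hin t ht.1, htE⟩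

/-- all charges of the squares over `x` -/
noncomputable def hopT (E W : Set (ℝ × ℝ)) (𝒬 : Set Sqr) (f : ℝ × ℝ → ℝ) (x : ℝ) : ℝ≥0∞ :=
  ∑' Q : 𝒬, {Q : 𝒬 | x ∈ Icc Q.1.x (Q.1.x + Q.1.s)}.indicator
    (fun Q => ENNReal.ofReal (ch E W f Q.1)) Q

theorem hop_le_hopT (E W : Set (ℝ × ℝ)) (𝒬 : Set Sqr) (f : ℝ × ℝ → ℝ) (a b x : ℝ) :
    hop E W 𝒬 f a b x ≤ hopT E W 𝒬 f x := by
  refine ENNReal.tsum_le_tsum fun Q => ?_
  exact indicator_le_indicator_of_subset (fun Q hQ => hQ.1) (fun _ => zero_le) Q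

/-- total vertical variation available over `x` -/
noncomputable def HH (E W : Set (ℝ × ℝ)) (𝒬 : Set Sqr) (f : ℝ × ℝ → ℝ) (a b x : ℝ) : ℝ≥0∞ :=
  (∫⁻ t in {t ∈ Ioc a b | (x, t) ∈ W \ E}, ‖gy f (x, t)‖ₑ) + hopT E W 𝒬 f x

/-- **sup bound on a good line** -/
theorem GoodX.bound (hE : QPic E 𝒬 𝓗) {J : Finset Hair} (hJ : ∀ K ∈ J, K ∈ 𝓗) (hW : Slab W)
    {L C : ℝ} (hL : 0 ≤ L) (h : SL (W \ cut J) L f) (hC : ∀ p ∈ W \ cut J, |f p| ≤ C)
    {a b : ℝ} (hab : ∀ p ∈ E, a < p.2 ∧ p.2 < b)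
    (hz : ∀ p ∈ W, (p.2 ≤ a ∨ b ≤ p.2) → f p = 0)
    {x : ℝ} (hx : GoodX E W 𝒬 J f x) {y : ℝ} (hy : (x, y) ∈ W)
    (hyQ : (x, y) ∉ ⋃ Q ∈ 𝒬, Q.car) : ‖f (x, y)‖ₑ ≤ HH E W 𝒬 f a b x := by
  rcases le_or_gt y a with h1 | h1
  · rw [hz (x, y) hy (Or.inl h1)]; simp
  rcases le_or_gt b y with h2 | h2
  · rw [hz (x, y) hy (Or.inr h2)]; simp
  have hoff : ∀ t : ℝ, (t ≤ a ∨ b ≤ t) → (x, t) ∉ ⋃ Q ∈ 𝒬, Q.car := by
    intro t ht hm
    obtain ⟨Q, hQ, hQt⟩ := mem_iUnion₂.1 hm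
    have := hab _ (hE.sub Q hQ hQt)
    simp only at this
    rcases ht with h | h <;> linarith [this.1, this.2]
  rcases hW.dir with hd | hd
  · have hseg : ∀ t ∈ Icc a y, (x, t) ∈ W := fun t ht => hd x y t hy ht.2
    have h3 := hx.line hE hJ hW.isOpen hL h hC h1.le hseg (hoff a (Or.inl le_rfl)) hyQ
    rw [hz (x, a) (hseg a ⟨le_rfl, h1.le⟩) (Or.inl le_rfl), sub_zero] at h3
    refine h3.trans (add_le_add ?_ (hop_le_hopT _ _ _ _ _ _ _))
    exact lintegral_mono_set fun t ht => ⟨⟨ht.1.1, ht.1.2.trans h2.le⟩,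
      hseg t ⟨ht.1.1.le, ht.1.2⟩, ht.2⟩
  · have hseg : ∀ t ∈ Icc y b, (x, t) ∈ W := fun t ht => hd x y t hy ht.1
    have h3 := hx.line hE hJ hW.isOpen hL h hC h2.le hseg hyQ (hoff b (Or.inr le_rfl))
    rw [hz (x, b) (hseg b ⟨h2.le, le_rfl⟩) (Or.inr le_rfl), zero_sub, enorm_neg] at h3
    refine h3.trans (add_le_add ?_ (hop_le_hopT _ _ _ _ _ _ _))
    exact lintegral_mono_set fun t ht => ⟨⟨h1.trans ht.1.1, ht.1.2⟩,
      hseg t ⟨ht.1.1.le, ht.1.2⟩, ht.2⟩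

theorem sq_add_le (x y : ℝ≥0∞) : (x + y) ^ 2 ≤ 2 * (x ^ 2 + y ^ 2) := by
  rcases eq_or_ne x ∞ with rfl | hx
  · simp
  rcases eq_or_ne y ∞ with rfl | hy
  · simp
  lift x to NNReal using hx
  lift y to NNReal using hy
  have h := add_pow_le (zero_le : (0 : NNReal) ≤ x) (zero_le : (0 : NNReal) ≤ y) 2
  norm_num at h
  exact_mod_cast h

/-- vertical chords of the squares -/
theorem tsum_chord_le (hE : QPic E 𝒬 𝓗) {a b : ℝ} (hab : ∀ p ∈ E, a < p.2 ∧ p.2 < b) (x : ℝ) :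
    ∑' Q : 𝒬, {Q : 𝒬 | x ∈ Icc Q.1.x (Q.1.x + Q.1.s)}.indicator
      (fun Q => ENNReal.ofReal Q.1.s) Q ≤ ENNReal.ofReal (b - a) := by
  have hcount := hE.countable.to_subtype
  have hline : Continuous fun t : ℝ => ((x, t) : ℝ × ℝ) := by fun_prop
  set I : 𝒬 → Set ℝ := fun Q => {t | (x, t) ∈ Q.1.car} with hI
  have hIm : ∀ Q, MeasurableSet (I Q) := fun Q =>
    (Q.1.isCompact_car.isClosed.preimage hline).measurableSet
  have hId : Pairwise (Function.onFun Disjoint I) := by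
    intro Q Q' hne
    refine disjoint_left.2 fun t ht ht' => ?_
    exact disjoint_left.1 (hE.disjoint Q.2 Q'.2 fun he => hne (Subtype.ext he)) ht ht'
  have h1 : volume (⋃ Q, I Q) = ∑' Q, volume (I Q) := measure_iUnion hId hIm
  have h2 : volume (⋃ Q, I Q) ≤ ENNReal.ofReal (b - a) := by
    rw [← Real.volume_Ioo]
    refine measure_mono (iUnion_subset fun Q t ht => ?_)
    exact hab _ (hE.sub Q.1 Q.2 ht)
  rw [h1] at h2
  refine le_trans (ENNReal.tsum_le_tsum fun Q => ?_) h2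
  refine indicator_apply_le' (fun hQ => ?_) fun _ => zero_le
  have : I Q = Icc Q.1.y (Q.1.y + Q.1.s) := by
    ext t
    exact ⟨fun h => (Sqr.mem_car.1 h).2, fun h => Sqr.mem_car.2 ⟨hQ, h⟩⟩
  rw [this, Real.volume_Icc, show Q.1.y + Q.1.s - Q.1.y = Q.1.s by ring]

theorem measurable_ind (Q : Sqr) (c : ℝ≥0∞) :
    Measurable fun x : ℝ => (Icc Q.x (Q.x + Q.s)).indicator (fun _ => c) x :=
  measurable_const.indicator measurableSet_Icc

theorem hopT_eq (E W : Set (ℝ × ℝ)) (𝒬 : Set Sqr) (f : ℝ × ℝ → ℝ) (x : ℝ) :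
    hopT E W 𝒬 f x = ∑' Q : 𝒬, (Icc Q.1.x (Q.1.x + Q.1.s)).indicator
      (fun _ => ENNReal.ofReal (ch E W f Q.1)) x := by
  unfold hopT
  congr 1

theorem measurable_hopT (hE : QPic E 𝒬 𝓗) : Measurable (hopT E W 𝒬 f) := by
  have hcount := hE.countable.to_subtype
  have : hopT E W 𝒬 f = fun x => ∑' Q : 𝒬, (Icc Q.1.x (Q.1.x + Q.1.s)).indicator
      (fun _ => ENNReal.ofReal (ch E W f Q.1)) x := funext (hopT_eq E W 𝒬 f)
  rw [this]
  exact Measurable.tsum fun Q => measurable_ind Q.1 _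

/-- square of the hop function -/
theorem lintegral_hopT_sq (hE : QPic E 𝒬 𝓗) {a b : ℝ} (hab : ∀ p ∈ E, a < p.2 ∧ p.2 < b) :
    ∫⁻ x, hopT E W 𝒬 f x ^ 2 ≤
      ENNReal.ofReal (b - a) * ∑' Q : 𝒬, ENNReal.ofReal (ch E W f Q.1 ^ 2) := by
  have hcount := hE.countable.to_subtype
  set u : 𝒬 → ℝ≥0∞ := fun Q => ENNReal.ofReal Q.1.s with hu
  set c : 𝒬 → ℝ≥0∞ := fun Q => ENNReal.ofReal (ch E W f Q.1) with hc
  have hu0 : ∀ Q, u Q ≠ 0 := fun Q => by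
    simp only [hu, ne_eq, ENNReal.ofReal_eq_zero, not_le]; exact Q.1.hs
  have hut : ∀ Q, u Q ≠ ∞ := fun Q => ENNReal.ofReal_ne_top
  have hpt : ∀ x, hopT E W 𝒬 f x ^ 2 ≤ ENNReal.ofReal (b - a) *
      ∑' Q : 𝒬, (Icc Q.1.x (Q.1.x + Q.1.s)).indicator (fun _ => c Q ^ 2 / u Q) x := by
    intro x
    have h1 := Hop_190.cs (fun Q : 𝒬 => (Icc Q.1.x (Q.1.x + Q.1.s)).indicator
      (fun _ => u Q ^ (1 / 2 : ℝ)) x) (fun Q : 𝒬 => (Icc Q.1.x (Q.1.x + Q.1.s)).indicator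
      (fun _ => c Q / u Q ^ (1 / 2 : ℝ)) x)
    have half : ∀ Q, (u Q ^ (1 / 2 : ℝ)) ^ 2 = u Q := fun Q => by
      rw [← ENNReal.rpow_natCast, ← ENNReal.rpow_mul]; norm_num
    have hh0 : ∀ Q, u Q ^ (1 / 2 : ℝ) ≠ 0 := fun Q => by
      rw [Ne, ENNReal.rpow_eq_zero_iff]; simp [hu0 Q, hut Q]
    have hht : ∀ Q, u Q ^ (1 / 2 : ℝ) ≠ ∞ := fun Q =>
      ENNReal.rpow_ne_top_of_nonneg (by norm_num) (hut Q)
    have e1 : ∀ Q : 𝒬, (Icc Q.1.x (Q.1.x + Q.1.s)).indicator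
        (fun _ => u Q ^ (1 / 2 : ℝ)) x * (Icc Q.1.x (Q.1.x + Q.1.s)).indicator
        (fun _ => c Q / u Q ^ (1 / 2 : ℝ)) x =
        (Icc Q.1.x (Q.1.x + Q.1.s)).indicator (fun _ => c Q) x := by
      intro Q
      by_cases hx : x ∈ Icc Q.1.x (Q.1.x + Q.1.s)
      · simp only [indicator_of_mem hx]
        rw [ENNReal.mul_div_cancel (hh0 Q) (hht Q)]
      · simp only [indicator_of_notMem hx, mul_zero]
    have e2 : ∀ Q : 𝒬, ((Icc Q.1.x (Q.1.x + Q.1.s)).indicator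
        (fun _ => u Q ^ (1 / 2 : ℝ)) x) ^ 2 = (Icc Q.1.x (Q.1.x + Q.1.s)).indicator
        (fun _ => u Q) x := by
      intro Q
      by_cases hx : x ∈ Icc Q.1.x (Q.1.x + Q.1.s)
      · simp only [indicator_of_mem hx, half]
      · simp only [indicator_of_notMem hx]; norm_num
    have e3 : ∀ Q : 𝒬, ((Icc Q.1.x (Q.1.x + Q.1.s)).indicator
        (fun _ => c Q / u Q ^ (1 / 2 : ℝ)) x) ^ 2 = (Icc Q.1.x (Q.1.x + Q.1.s)).indicator
        (fun _ => c Q ^ 2 / u Q) x := by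
      intro Q
      by_cases hx : x ∈ Icc Q.1.x (Q.1.x + Q.1.s)
      · simp only [indicator_of_mem hx]
        rw [div_eq_mul_inv, mul_pow, ← ENNReal.inv_pow, half, div_eq_mul_inv]
      · simp only [indicator_of_notMem hx]; norm_num
    simp only [e1, e2, e3] at h1
    rw [hopT_eq]
    refine h1.trans (mul_le_mul' ?_ le_rfl)
    have := tsum_chord_le hE hab x
    exact this
  calc ∫⁻ x, hopT E W 𝒬 f x ^ 2
      ≤ ∫⁻ x, ENNReal.ofReal (b - a) *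
        ∑' Q : 𝒬, (Icc Q.1.x (Q.1.x + Q.1.s)).indicator (fun _ => c Q ^ 2 / u Q) x :=
        lintegral_mono hpt
    _ = ENNReal.ofReal (b - a) * ∑' Q : 𝒬, ∫⁻ x, (Icc Q.1.x (Q.1.x + Q.1.s)).indicator
          (fun _ => c Q ^ 2 / u Q) x := by
        rw [lintegral_const_mul' _ _ ENNReal.ofReal_ne_top]
        congr 1
        exact lintegral_tsum (f := fun (Q : 𝒬) x => (Icc Q.1.x (Q.1.x + Q.1.s)).indicator
          (fun _ => c Q ^ 2 / u Q) x) fun Q => (measurable_ind Q.1 _).aemeasurable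
    _ = ENNReal.ofReal (b - a) * ∑' Q : 𝒬, ENNReal.ofReal (ch E W f Q.1 ^ 2) := by
        congr 1
        refine tsum_congr fun Q => ?_
        rw [lintegral_indicator measurableSet_Icc, setLIntegral_const, Real.volume_Icc,
          show Q.1.x + Q.1.s - Q.1.x = Q.1.s by ring, ENNReal.div_mul_cancel (hu0 Q) (hut Q),
          ENNReal.ofReal_pow (ch_nonneg _ _ _ _)]

end Crest.Agent.R105.Cq_463
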