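import Crest.Agent.R105.Cq5_463

/-!
# Row 105 (S0138, picture with solids): Poincare inequality and cut-offs (LOC with squares)
-/

set_option autoImplicit false

namespace Crest.Agent.R105.Cq_463

open Set Filter MeasureTheory Topology Metric
open Crest.Agent.R105.CF_363 Crest.Agent.R105.Stp_722
open scoped ENNReal

variable {E W : Set (ℝ × ℝ)} {𝒬 : Set Sqr} {𝓗 : Set Hair} {f g : ℝ × ℝ → ℝ}

/-- the energy as a lower integral -/
noncomputable def eEn (W : Set (ℝ × ℝ)) (f : ℝ × ℝ → ℝ) : ℝ≥0∞ :=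
  ∫⁻ p in W, ENNReal.ofReal (g2 f p)

theorem eEn_eq {R : Set (ℝ × ℝ)} (h : IntegrableOn (g2 f) R) :
    eEn R f = ENNReal.ofReal (En R f) := by
  unfold eEn En
  rw [ofReal_integral_eq_lintegral_ofReal h (Eventually.of_forall fun p => g2_nonneg f p)]

theorem integrableOn_of_Cc (hE : QPic E 𝒬 𝓗) (hW : IsOpen W) (hf : Cc 𝓗 W f) :
    IntegrableOn (g2 f) (W \ E) := by
  obtain ⟨h1, S, hS, h2⟩ := hf
  obtain ⟨R, hR, hSR, hRv⟩ := exists_box hS
  have hWE := hW.sdiff hE.cpt.isClosed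
  have e1 : IntegrableOn (g2 f) ((W \ E) ∩ R) :=
    (h1.mono (Subset.refl 𝓗) (inter_subset_left.trans sdiff_subset)).integrableOn_g2
      (hWE.inter hR) (ne_top_of_le_ne_top hRv (measure_mono inter_subset_right))
  refine e1.of_forall_sdiff_eq_zero hWE.measurableSet ?_
  rintro p ⟨hpW, hp⟩
  have hpS : p ∉ S := fun h => hp ⟨hpW, hSR h⟩
  have : f =ᶠ[𝓝 p] fun _ => 0 := by
    filter_upwards [(hW.inter hS.isClosed.isOpen_compl).mem_nhds ⟨hpW.1, hpS⟩] with q hq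
    exact h2 q hq.1 hq.2
  simp [g2, gx_congr this, gy_congr this]

theorem ofReal_Ch (hE : QPic E 𝒬 𝓗) (hW : Convex ℝ W) (hf : CFJ 𝓗 W f) :
    ∑' Q : 𝒬, ENNReal.ofReal (ch E W f Q.1 ^ 2) = ENNReal.ofReal (Ch E W 𝒬 f) := by
  unfold Ch
  rw [ENNReal.ofReal_tsum_of_nonneg (fun _ => sq_nonneg _) (summable_ch hE hW hf)]

theorem ofReal_TQ (hE : QPic E 𝒬 𝓗) (hW : IsOpen W) (hWc : Convex ℝ W) (hf : Cc 𝓗 W f) :
    eEn (W \ E) f + ∑' Q : 𝒬, ENNReal.ofReal (ch E W f Q.1 ^ 2) =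
      ENNReal.ofReal (TQ E W 𝒬 f) := by
  rw [eEn_eq (integrableOn_of_Cc hE hW hf), ofReal_Ch hE hWc hf.1, TQ,
    ENNReal.ofReal_add (En_nonneg _ _) (Ch_nonneg _ _ _ _)]

/-- the vertical part -/
theorem lintegral_vert_sq (hE : QPic E 𝒬 𝓗) (hW : IsOpen W) (a b : ℝ) :
    ∫⁻ x, (∫⁻ t in {t ∈ Ioc a b | (x, t) ∈ W \ E}, ‖gy f (x, t)‖ₑ) ^ 2 ≤
      ENNReal.ofReal (b - a) * eEn (W \ E) f := by
  have hWE : MeasurableSet (W \ E) := (hW.sdiff hE.cpt.isClosed).measurableSet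
  set S : Set (ℝ × ℝ) := {p | p.2 ∈ Ioc a b ∧ p ∈ W \ E} with hS
  have hSm : MeasurableSet S := (measurableSet_Ioc.preimage measurable_snd).inter hWE
  have hgy : Measurable fun p : ℝ × ℝ => ‖gy f p‖ₑ ^ 2 := (measurable_gy f).enorm.pow_const 2
  have h1 : ∀ x : ℝ, (∫⁻ t in {t ∈ Ioc a b | (x, t) ∈ W \ E}, ‖gy f (x, t)‖ₑ) ^ 2 ≤
      ENNReal.ofReal (b - a) * ∫⁻ t, S.indicator (fun p => ‖gy f p‖ₑ ^ 2) (x, t) := by
    intro x
    have hline : Measurable fun t : ℝ => ((x, t) : ℝ × ℝ) := by fun_prop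
    have hAm : MeasurableSet {t ∈ Ioc a b | (x, t) ∈ W \ E} :=
      measurableSet_Ioc.inter (hWE.preimage hline)
    have e1 := Loc_271.sq_lintegral_le (volume.restrict {t ∈ Ioc a b | (x, t) ∈ W \ E})
      (g := fun t => ‖gy f (x, t)‖ₑ) ((measurable_gy f).comp hline).enorm.aemeasurable
    refine e1.trans (mul_le_mul' ?_ ?_)
    · rw [Measure.restrict_apply MeasurableSet.univ, univ_inter, ← Real.volume_Ioc]
      exact measure_mono fun t ht => ht.1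
    · rw [← lintegral_indicator hAm]
      refine lintegral_mono fun t => ?_
      by_cases ht : t ∈ {t ∈ Ioc a b | (x, t) ∈ W \ E}
      · rw [indicator_of_mem ht, indicator_of_mem (show (x, t) ∈ S from ht)]
      · rw [indicator_of_notMem ht]; exact zero_le
  calc ∫⁻ x, (∫⁻ t in {t ∈ Ioc a b | (x, t) ∈ W \ E}, ‖gy f (x, t)‖ₑ) ^ 2
      ≤ ∫⁻ x, ENNReal.ofReal (b - a) * ∫⁻ t, S.indicator (fun p => ‖gy f p‖ₑ ^ 2) (x, t) :=
        lintegral_mono h1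
    _ = ENNReal.ofReal (b - a) * ∫⁻ p, S.indicator (fun p => ‖gy f p‖ₑ ^ 2) p := by
        rw [lintegral_const_mul' _ _ ENNReal.ofReal_ne_top, Measure.volume_eq_prod,
          lintegral_prod _ (hgy.indicator hSm).aemeasurable]
    _ ≤ ENNReal.ofReal (b - a) * eEn (W \ E) f := by
        refine mul_le_mul' le_rfl ?_
        rw [lintegral_indicator hSm]
        refine (lintegral_mono_set (fun p hp => hp.2)).trans (lintegral_mono fun p => ?_)
        rw [← ofReal_norm, ← ENNReal.ofReal_pow (norm_nonneg _), Real.norm_eq_abs, sq_abs]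
        exact ENNReal.ofReal_le_ofReal (by unfold g2; nlinarith [sq_nonneg (gx f p)])

theorem measurable_HH (hE : QPic E 𝒬 𝓗) (hW : IsOpen W) (a b : ℝ) :
    Measurable (HH E W 𝒬 f a b) := by
  have hWE : MeasurableSet (W \ E) := (hW.sdiff hE.cpt.isClosed).measurableSet
  set S : Set (ℝ × ℝ) := {p | p.2 ∈ Ioc a b ∧ p ∈ W \ E} with hS
  have hSm : MeasurableSet S := (measurableSet_Ioc.preimage measurable_snd).inter hWE
  have h1 : Measurable fun x : ℝ => ∫⁻ t, S.indicator (fun p => ‖gy f p‖ₑ) (x, t) :=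
    ((measurable_gy f).enorm.indicator hSm).lintegral_prod_right'
  have h2 : HH E W 𝒬 f a b = fun x => (∫⁻ t, S.indicator (fun p => ‖gy f p‖ₑ) (x, t)) +
      hopT E W 𝒬 f x := by
    funext x
    have hline : Measurable fun t : ℝ => ((x, t) : ℝ × ℝ) := by fun_prop
    have hAm : MeasurableSet {t ∈ Ioc a b | (x, t) ∈ W \ E} :=
      measurableSet_Ioc.inter (hWE.preimage hline)
    unfold HH
    rw [← lintegral_indicator hAm]
    rfl
  rw [h2]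
  exact h1.add (measurable_hopT hE)

/-- **square function bound** -/
theorem lintegral_HH_sq (hE : QPic E 𝒬 𝓗) (hW : IsOpen W) (hWc : Convex ℝ W)
    (hf : Cc 𝓗 W f) {a b : ℝ} (hab : ∀ p ∈ E, a < p.2 ∧ p.2 < b) :
    ∫⁻ x, HH E W 𝒬 f a b x ^ 2 ≤ ENNReal.ofReal (2 * (b - a) * TQ E W 𝒬 f) := by
  rcases lt_or_ge b a with hba | hba
  · -- then everything is empty
    have hEe : E = ∅ := eq_empty_iff_forall_notMem.2 fun p hp => by
      have := hab p hp; linarith [this.1, this.2]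
    have hQe : ∀ Q : 𝒬, False := fun Q => by
      obtain ⟨p, hp⟩ := Q.1.nonempty
      have := hE.sub Q.1 Q.2 hp
      rw [hEe] at this
      exact this
    have : ∀ x, HH E W 𝒬 f a b x = 0 := by
      intro x
      have h1 : hopT E W 𝒬 f x = 0 := by
        unfold hopT
        exact ENNReal.tsum_eq_zero.2 fun Q => (hQe Q).elim
      have h2 : {t ∈ Ioc a b | (x, t) ∈ W \ E} = ∅ := by
        ext t; simp [Ioc_eq_empty (not_lt.2 hba.le)]
      unfold HH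
      rw [h1, h2]; simp
    simp [this]
  calc ∫⁻ x, HH E W 𝒬 f a b x ^ 2
      ≤ ∫⁻ x, 2 * ((∫⁻ t in {t ∈ Ioc a b | (x, t) ∈ W \ E}, ‖gy f (x, t)‖ₑ) ^ 2 +
          hopT E W 𝒬 f x ^ 2) := lintegral_mono fun x => sq_add_le _ _
    _ = 2 * ((∫⁻ x, (∫⁻ t in {t ∈ Ioc a b | (x, t) ∈ W \ E}, ‖gy f (x, t)‖ₑ) ^ 2) +
          ∫⁻ x, hopT E W 𝒬 f x ^ 2) := by
        rw [lintegral_const_mul' _ _ (by norm_num),
          lintegral_add_right _ ((measurable_hopT hE).pow_const 2)]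
    _ ≤ 2 * (ENNReal.ofReal (b - a) * eEn (W \ E) f +
          ENNReal.ofReal (b - a) * ∑' Q : 𝒬, ENNReal.ofReal (ch E W f Q.1 ^ 2)) := by
        gcongr
        · exact lintegral_vert_sq hE hW a b
        · exact lintegral_hopT_sq hE hab
    _ = ENNReal.ofReal (2 * (b - a) * TQ E W 𝒬 f) := by
        rw [← mul_add, ofReal_TQ hE hW hWc hf, ENNReal.ofReal_mul (by linarith),
          ENNReal.ofReal_mul (by norm_num), mul_assoc]
        norm_num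

/-- the class of functions of the Poincare inequality -/
structure Van (W : Set (ℝ × ℝ)) (a b : ℝ) (f : ℝ × ℝ → ℝ) : Prop where
  z : ∀ p ∈ W, (p.2 ≤ a ∨ b ≤ p.2) → f p = 0

/-- **POINCARE**: `∫_{W \ E} f² ≤ 2 (b-a)² TQ f`. -/
theorem poincare (hE : QPic E 𝒬 𝓗) (hW : Slab W) (hf : Cc 𝓗 W f) {a b : ℝ}
    (hab : ∀ p ∈ E, a < p.2 ∧ p.2 < b) (hba : a ≤ b) (hz : Van W a b f) :
    ∫⁻ p in W \ E, ‖f p‖ₑ ^ 2 ≤ ENNReal.ofReal (2 * (b - a) ^ 2 * TQ E W 𝒬 f) := by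
  have hWE : MeasurableSet (W \ E) := (hW.isOpen.sdiff hE.cpt.isClosed).measurableSet
  obtain ⟨J, hJ, L, C, hL, h1, h2⟩ := hf.1
  have hgood := ae_goodX hE hW.isOpen h1
  rw [← lintegral_indicator hWE, Measure.volume_eq_prod]
  refine (lintegral_prod_le _).trans ?_
  have hpt : ∀ᵐ x : ℝ, ∫⁻ t, (W \ E).indicator (fun p => ‖f p‖ₑ ^ 2) (x, t) ≤
      ENNReal.ofReal (b - a) * HH E W 𝒬 f a b x ^ 2 := by
    filter_upwards [hgood] with x hx
    calc ∫⁻ t, (W \ E).indicator (fun p => ‖f p‖ₑ ^ 2) (x, t)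
        ≤ ∫⁻ t, (Ioo a b).indicator (fun _ => HH E W 𝒬 f a b x ^ 2) t := by
          refine lintegral_mono fun t => ?_
          by_cases ht : (x, t) ∈ W \ E
          · rw [indicator_of_mem ht]
            by_cases hab' : t ∈ Ioo a b
            · rw [indicator_of_mem hab']
              gcongr
              refine hx.bound hE hJ hW hL h1 h2 hab hz.z ht.1 fun hm => ht.2 ?_
              obtain ⟨Q, hQ, hQt⟩ := mem_iUnion₂.1 hm
              exact hE.sub Q hQ hQt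
            · have : f (x, t) = 0 := by
                refine hz.z _ ht.1 ?_
                simp only [mem_Ioo, not_and_or, not_lt] at hab'
                exact hab'
              rw [this]; simp
          · rw [indicator_of_notMem ht]; exact zero_le
      _ = ENNReal.ofReal (b - a) * HH E W 𝒬 f a b x ^ 2 := by
          rw [lintegral_indicator measurableSet_Ioo, setLIntegral_const, Real.volume_Ioo,
            mul_comm]
  refine (lintegral_mono_ae hpt).trans ?_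
  rw [lintegral_const_mul' _ _ ENNReal.ofReal_ne_top]
  refine (mul_le_mul' le_rfl (lintegral_HH_sq hE hW.isOpen hW.convex hf hab)).trans_eq ?_
  rw [← ENNReal.ofReal_mul (by linarith)]
  congr 1
  ring

/-- **sup bound near a square**, from one good line -/
theorem GoodX.near_sq (hE : QPic E 𝒬 𝓗) {J : Finset Hair} (hJ : ∀ K ∈ J, K ∈ 𝓗) (hW : Slab W)
    {L C : ℝ} (hL : 0 ≤ L) (h : SL (W \ cut J) L f) (hC : ∀ p ∈ W \ cut J, |f p| ≤ C)
    {a b : ℝ} (hab : ∀ p ∈ E, a < p.2 ∧ p.2 < b) (hz : Van W a b f)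
    {x : ℝ} (hx : GoodX E W 𝒬 J f x) {Q : Sqr} (hQ : Q ∈ 𝒬) (hxQ : x ∈ Icc Q.x (Q.x + Q.s))
    (hne : (Q.car ∩ closure W).Nonempty) (hfin : HH E W 𝒬 f a b x ≠ ∞) {ε : ℝ} (hε : 0 < ε) :
    ∃ O, IsOpen O ∧ Q.car ∩ closure W ⊆ O ∧ ∀ q ∈ O ∩ (Eᶜ ∩ W),
      |f q| ≤ (HH E W 𝒬 f a b x).toReal + ch E W f Q + ε := by
  have hF : Fin (Eᶜ ∩ W) (Q.car ∩ closure W) f := CFJ.fin hE ⟨J, hJ, L, C, hL, h, hC⟩ _
  obtain ⟨O, hO, hPO, H⟩ := hF.oscLe ε hε
  refine ⟨O, hO, hPO, fun q hq => ?_⟩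
  obtain ⟨t, htO, htW, htE⟩ := hW.near hE hx hQ hxQ hne hO hPO
  have h1 := H q hq (x, t) ⟨htO, htE, htW⟩
  have h2 := hx.bound hE hJ hW hL h hC hab hz.z htW fun hm => htE (by
    obtain ⟨Q', hQ', hQt⟩ := mem_iUnion₂.1 hm
    exact hE.sub Q' hQ' hQt)
  have h3 : |f (x, t)| ≤ (HH E W 𝒬 f a b x).toReal := by
    have := ENNReal.toReal_mono hfin h2
    rwa [toReal_enorm, Real.norm_eq_abs] at this
  have h4 := abs_le.1 h1
  have h5 := abs_le.1 h3
  unfold ch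
  rw [abs_le]; constructor <;> linarith

/-- charge of a cut-off product at one square, from one good line -/
theorem GoodX.ch_mul (hE : QPic E 𝒬 𝓗) {J : Finset Hair} (hJ : ∀ K ∈ J, K ∈ 𝓗) (hW : Slab W)
    {L C : ℝ} (hL : 0 ≤ L) (h : SL (W \ cut J) L f) (hC : ∀ p ∈ W \ cut J, |f p| ≤ C)
    {a b : ℝ} (hab : ∀ p ∈ E, a < p.2 ∧ p.2 < b) (hz : Van W a b f)
    {x : ℝ} (hx : GoodX E W 𝒬 J f x) {Q : Sqr} (hQ : Q ∈ 𝒬) (hxQ : x ∈ Icc Q.x (Q.x + Q.s))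
    (hfin : HH E W 𝒬 f a b x ≠ ∞) {χ : ℝ × ℝ → ℝ} {ℓ : NNReal} (hχ : LipschitzWith ℓ χ)
    (hχ1 : ∀ p, |χ p| ≤ 1) :
    ch E W (fun p => χ p * f p) Q ≤
      ch E W f Q + ((HH E W 𝒬 f a b x).toReal + ch E W f Q) * (ℓ * Q.s) := by
  have hs := Q.hs
  have hc0 := ch_nonneg E W f Q
  have hH0 : 0 ≤ (HH E W 𝒬 f a b x).toReal := ENNReal.toReal_nonneg
  have hl0 : (0 : ℝ) ≤ ℓ := ℓ.coe_nonneg
  rcases eq_empty_or_nonempty (Q.car ∩ closure W) with he | hne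
  · have e0 : ch E W (fun p => χ p * f p) Q = 0 := by unfold ch; rw [he, chg_empty]
    rw [e0]; positivity
  have hχc : ch E W χ Q ≤ ℓ * Q.s := by
    refine ch_le_of_SL (S := ∅) hW.convex hl0 ?_ isClosed_empty (disjoint_empty _)
    rw [sdiff_empty]
    exact SL_of_lipschitzOn hχ.lipschitzOnWith
  refine le_of_forall_pos_le_add fun ε hε => ?_
  obtain ⟨O, hO, hPO, hb⟩ := hx.near_sq hE hJ hW hL h hC hab hz hQ hxQ hne hfin
    (ε := ε / (ℓ * Q.s + 1)) (by positivity)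
  have h1 := chg_mul_near (V := Eᶜ ∩ W) (P := Q.car ∩ closure W) (f := χ) (g := f)
    zero_le_one (B := (HH E W 𝒬 f a b x).toReal + ch E W f Q + ε / (ℓ * Q.s + 1))
    (by positivity) hO hPO (fun p _ => hχ1 p) hb (fin_of_bdd (A := 1) fun p _ => hχ1 p)
    (CFJ.fin hE ⟨J, hJ, L, C, hL, h, hC⟩ _)
  have h2 : ((HH E W 𝒬 f a b x).toReal + ch E W f Q + ε / (ℓ * Q.s + 1)) *
      chg (Eᶜ ∩ W) (Q.car ∩ closure W) χ ≤
      ((HH E W 𝒬 f a b x).toReal + ch E W f Q + ε / (ℓ * Q.s + 1)) * (ℓ * Q.s) :=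
    mul_le_mul_of_nonneg_left hχc (by positivity)
  have h3 : ε / (ℓ * Q.s + 1) * (ℓ * Q.s) ≤ ε := by
    rw [div_mul_eq_mul_div, div_le_iff₀ (by positivity)]; nlinarith [mul_nonneg hl0 hs.le]
  unfold ch at *
  nlinarith [h1, h2, h3]

/-- constant of the cut-off estimate -/
noncomputable def cutC (ℓ D : ℝ) : ℝ := 6 + 20 * ℓ ^ 2 * D ^ 2

/-- **CUT-OFF**: total charge of `χ f`. -/
theorem Ch_cut_le (hE : QPic E 𝒬 𝓗) (hW : Slab W) (hf : Cc 𝓗 W f) {a b : ℝ}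
    (hab : ∀ p ∈ E, a < p.2 ∧ p.2 < b) (hba : a ≤ b) (hz : Van W a b f)
    {χ : ℝ × ℝ → ℝ} {ℓ : NNReal} (hχ : LipschitzWith ℓ χ) (hχ1 : ∀ p, |χ p| ≤ 1) :
    ∑' Q : 𝒬, ENNReal.ofReal (ch E W (fun p => χ p * f p) Q.1 ^ 2) ≤
      ENNReal.ofReal ((4 + 12 * ℓ ^ 2 * (b - a) ^ 2) * TQ E W 𝒬 f) := by
  obtain ⟨J, hJ, L, C, hL, h1, h2⟩ := hf.1
  have hcount := hE.countable.to_subtype
  have hgood := ae_goodX hE hW.isOpen h1
  have hHm : Measurable (HH E W 𝒬 f a b) := measurable_HH hE hW.isOpen a b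
  have hH2 := lintegral_HH_sq hE hW.isOpen hW.convex hf hab
  have hHfin : ∀ᵐ x : ℝ, HH E W 𝒬 f a b x ≠ ∞ := by
    have := ae_lt_top (hHm.pow_const 2) (ne_top_of_le_ne_top ENNReal.ofReal_ne_top hH2)
    filter_upwards [this] with x hx
    intro h
    rw [h] at hx
    simp at hx
  have hD0 : 0 ≤ b - a := by linarith
  have hsD : ∀ Q ∈ 𝒬, Q.s ≤ b - a := by
    intro Q hQ
    have e1 := (hab _ (hE.sub Q hQ (Sqr.mem_car.2 ⟨⟨le_rfl, by
      simp only; linarith [Q.hs]⟩, le_rfl, by simp only; linarith [Q.hs]⟩ :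
        (Q.x, Q.y) ∈ Q.car))).1
    have e2 := (hab _ (hE.sub Q hQ (Sqr.mem_car.2 ⟨⟨le_rfl, by
      simp only; linarith [Q.hs]⟩, by simp only; linarith [Q.hs], le_rfl⟩ :
        (Q.x, Q.y + Q.s) ∈ Q.car))).2
    simp only at e1 e2
    linarith
  -- one square
  have key : ∀ Q : 𝒬, ENNReal.ofReal (ch E W (fun p => χ p * f p) Q.1 ^ 2) ≤
      ENNReal.ofReal (4 * (1 + ℓ ^ 2 * (b - a) ^ 2)) * ENNReal.ofReal (ch E W f Q.1 ^ 2) +
      ENNReal.ofReal (2 * ℓ ^ 2 * 2) * (ENNReal.ofReal Q.1.s *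
        ∫⁻ x in Icc Q.1.x (Q.1.x + Q.1.s), HH E W 𝒬 f a b x ^ 2) := by
    intro Q
    have hs := Q.1.hs
    set c := ch E W f Q.1 with hc
    have hc0 : 0 ≤ c := ch_nonneg _ _ _ _
    set m := ch E W (fun p => χ p * f p) Q.1 with hm
    have hm0 : 0 ≤ m := ch_nonneg _ _ _ _
    have hl0 : (0 : ℝ) ≤ ℓ := ℓ.coe_nonneg
    -- pointwise in x
    have hpt : ∀ᵐ x ∂(volume.restrict (Icc Q.1.x (Q.1.x + Q.1.s))),
        ENNReal.ofReal (m ^ 2) ≤
          ENNReal.ofReal (4 * (1 + ℓ ^ 2 * (b - a) ^ 2) * c ^ 2) +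
            ENNReal.ofReal (2 * ℓ ^ 2 * 2 * Q.1.s ^ 2) * HH E W 𝒬 f a b x ^ 2 := by
      filter_upwards [ae_restrict_of_ae hgood, ae_restrict_of_ae hHfin,
        ae_restrict_mem measurableSet_Icc] with x hx hfx hxQ
      have h3 := hx.ch_mul hE hJ hW hL h1 h2 hab hz Q.2 hxQ hfx hχ hχ1
      set H := (HH E W 𝒬 f a b x).toReal with hH
      have hH0 : 0 ≤ H := ENNReal.toReal_nonneg
      have h4 : HH E W 𝒬 f a b x ^ 2 = ENNReal.ofReal (H ^ 2) := by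
        rw [ENNReal.ofReal_pow hH0, hH, ENNReal.ofReal_toReal hfx]
      rw [h4, ← ENNReal.ofReal_mul (by positivity), ← ENNReal.ofReal_add (by positivity)
        (by positivity)]
      refine ENNReal.ofReal_le_ofReal ?_
      have h5 : m ^ 2 ≤ (c + (H + c) * (ℓ * Q.1.s)) ^ 2 := pow_le_pow_left₀ hm0 h3 2
      have hsd := hsD Q.1 Q.2
      have h6 : (ℓ * Q.1.s) ^ 2 ≤ ℓ ^ 2 * (b - a) ^ 2 := by
        rw [mul_pow]; gcongr
      have h7 : (c + (H + c) * (ℓ * Q.1.s)) ^ 2 ≤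
          4 * (1 + (ℓ * Q.1.s) ^ 2) * c ^ 2 + 4 * (ℓ * Q.1.s) ^ 2 * H ^ 2 := by
        set u := (ℓ : ℝ) * Q.1.s
        nlinarith [sq_nonneg (c - (H + c) * u), sq_nonneg (H * u - c * u)]
      have h8 : 4 * (1 + (ℓ * Q.1.s) ^ 2) * c ^ 2 ≤ 4 * (1 + ℓ ^ 2 * (b - a) ^ 2) * c ^ 2 := by
        gcongr
      have h9 : 4 * (ℓ * Q.1.s) ^ 2 * H ^ 2 = 2 * ℓ ^ 2 * 2 * Q.1.s ^ 2 * H ^ 2 := by ring
      linarith
    -- integrate over the shadow of the square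
    have h3 := lintegral_mono_ae hpt
    rw [lintegral_const, Measure.restrict_apply MeasurableSet.univ, univ_inter, Real.volume_Icc,
      show Q.1.x + Q.1.s - Q.1.x = Q.1.s by ring,
      lintegral_add_left measurable_const, lintegral_const,
      Measure.restrict_apply MeasurableSet.univ, univ_inter, Real.volume_Icc,
      show Q.1.x + Q.1.s - Q.1.x = Q.1.s by ring,
      lintegral_const_mul' _ _ ENNReal.ofReal_ne_top] at h3
    have hu0 : ENNReal.ofReal Q.1.s ≠ 0 := by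
      simp only [ne_eq, ENNReal.ofReal_eq_zero, not_le]; exact hs
    have hut : ENNReal.ofReal Q.1.s ≠ ∞ := ENNReal.ofReal_ne_top
    have h4 := mul_le_mul_left h3 (ENNReal.ofReal Q.1.s)⁻¹
    rw [mul_assoc, ENNReal.mul_inv_cancel hu0 hut, mul_one, add_mul, mul_assoc,
      ENNReal.mul_inv_cancel hu0 hut, mul_one] at h4
    refine h4.trans (add_le_add ?_ ?_)
    · rw [← ENNReal.ofReal_mul (by positivity)]
    · have e1 : ENNReal.ofReal (2 * ℓ ^ 2 * 2 * Q.1.s ^ 2) =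
          ENNReal.ofReal (2 * ℓ ^ 2 * 2) * (ENNReal.ofReal Q.1.s * ENNReal.ofReal Q.1.s) := by
        rw [← ENNReal.ofReal_mul hs.le, ← ENNReal.ofReal_mul (by positivity)]
        congr 1; ring
      rw [e1]
      refine le_of_eq ?_
      calc _ = ENNReal.ofReal (2 * ℓ ^ 2 * 2) * (ENNReal.ofReal Q.1.s *
            ∫⁻ x in Icc Q.1.x (Q.1.x + Q.1.s), HH E W 𝒬 f a b x ^ 2) *
              (ENNReal.ofReal Q.1.s * (ENNReal.ofReal Q.1.s)⁻¹) := by ring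
        _ = _ := by rw [ENNReal.mul_inv_cancel hu0 hut, mul_one]
  -- sum
  have hsum2 : ∑' Q : 𝒬, (ENNReal.ofReal Q.1.s *
      ∫⁻ x in Icc Q.1.x (Q.1.x + Q.1.s), HH E W 𝒬 f a b x ^ 2) ≤
      ENNReal.ofReal (b - a) * ∫⁻ x, HH E W 𝒬 f a b x ^ 2 := by
    have e1 : ∀ Q : 𝒬, (ENNReal.ofReal Q.1.s *
        ∫⁻ x in Icc Q.1.x (Q.1.x + Q.1.s), HH E W 𝒬 f a b x ^ 2) =
        ∫⁻ x, (Icc Q.1.x (Q.1.x + Q.1.s)).indicator (fun _ => ENNReal.ofReal Q.1.s) x *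
          HH E W 𝒬 f a b x ^ 2 := by
      intro Q
      rw [← lintegral_const_mul' _ _ ENNReal.ofReal_ne_top, ← lintegral_indicator
        measurableSet_Icc]
      refine lintegral_congr fun x => ?_
      by_cases hx : x ∈ Icc Q.1.x (Q.1.x + Q.1.s)
      · simp only [indicator_of_mem hx]
      · simp only [indicator_of_notMem hx, zero_mul]
    simp only [e1]
    rw [← lintegral_tsum (f := fun (Q : 𝒬) x => (Icc Q.1.x (Q.1.x + Q.1.s)).indicator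
      (fun _ => ENNReal.ofReal Q.1.s) x * HH E W 𝒬 f a b x ^ 2)
      fun Q => ((measurable_ind Q.1 _).mul (hHm.pow_const 2)).aemeasurable,
      ← lintegral_const_mul' _ _ ENNReal.ofReal_ne_top]
    refine lintegral_mono fun x => ?_
    rw [ENNReal.tsum_mul_right]
    refine mul_le_mul' ?_ le_rfl
    exact tsum_chord_le hE hab x
  calc ∑' Q : 𝒬, ENNReal.ofReal (ch E W (fun p => χ p * f p) Q.1 ^ 2)
      ≤ ∑' Q : 𝒬, (ENNReal.ofReal (4 * (1 + ℓ ^ 2 * (b - a) ^ 2)) *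
          ENNReal.ofReal (ch E W f Q.1 ^ 2) + ENNReal.ofReal (2 * ℓ ^ 2 * 2) *
          (ENNReal.ofReal Q.1.s *
            ∫⁻ x in Icc Q.1.x (Q.1.x + Q.1.s), HH E W 𝒬 f a b x ^ 2)) :=
        ENNReal.tsum_le_tsum key
    _ = ENNReal.ofReal (4 * (1 + ℓ ^ 2 * (b - a) ^ 2)) * ENNReal.ofReal (Ch E W 𝒬 f) +
          ENNReal.ofReal (2 * ℓ ^ 2 * 2) * ∑' Q : 𝒬, (ENNReal.ofReal Q.1.s *
            ∫⁻ x in Icc Q.1.x (Q.1.x + Q.1.s), HH E W 𝒬 f a b x ^ 2) := by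
        rw [ENNReal.tsum_add, ENNReal.tsum_mul_left, ENNReal.tsum_mul_left,
          ofReal_Ch hE hW.convex hf.1]
    _ ≤ ENNReal.ofReal (4 * (1 + ℓ ^ 2 * (b - a) ^ 2)) * ENNReal.ofReal (TQ E W 𝒬 f) +
          ENNReal.ofReal (2 * ℓ ^ 2 * 2) * (ENNReal.ofReal (b - a) *
            ENNReal.ofReal (2 * (b - a) * TQ E W 𝒬 f)) := by
        gcongr
        · exact Ch_le_TQ
        · exact hsum2.trans (mul_le_mul' le_rfl hH2)
    _ = ENNReal.ofReal ((4 + 12 * ℓ ^ 2 * (b - a) ^ 2) * TQ E W 𝒬 f) := by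
        have hT := TQ_nonneg E W 𝒬 f
        rw [← ENNReal.ofReal_mul hD0, ← ENNReal.ofReal_mul (by positivity),
          ← ENNReal.ofReal_mul (by positivity), ← ENNReal.ofReal_add (by positivity)
            (by positivity)]
        congr 1; ring

end Crest.Agent.R105.Cq_463
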