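import Crest.Agent.R105.Cq6_463

/-!
# Row 105 (S0138, picture with solids): the cut-off theorem for `TQ`
-/

set_option autoImplicit false

namespace Crest.Agent.R105.Cq_463

open Set Filter MeasureTheory Topology Metric
open Crest.Agent.R105.CF_363 Crest.Agent.R105.Stp_722
open scoped ENNReal

variable {E W : Set (ℝ × ℝ)} {𝒬 : Set Sqr} {𝓗 : Set Hair} {f g : ℝ × ℝ → ℝ}

theorem CFJ_of_lipschitz {ℓ : NNReal} {χ : ℝ × ℝ → ℝ} (hχ : LipschitzWith ℓ χ)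
    (hχ1 : ∀ p, |χ p| ≤ 1) : CFJ 𝓗 W χ :=
  (CF_of_lipschitz hχ (C := 1) fun p _ => hχ1 p).cfj

theorem g2_lip_le {ℓ : NNReal} {χ : ℝ × ℝ → ℝ} (hχ : LipschitzWith ℓ χ) (p : ℝ × ℝ) :
    g2 χ p ≤ 2 * ℓ ^ 2 :=
  (SL_of_lipschitz (U := univ) hχ).g2_le isOpen_univ ℓ.coe_nonneg (mem_univ p)

theorem eEn_cut_le (hW : IsOpen W) (hf : CFJ 𝓗 W f) (hE : QPic E 𝒬 𝓗)
    {χ : ℝ × ℝ → ℝ} {ℓ : NNReal} (hχ : LipschitzWith ℓ χ) (hχ1 : ∀ p, |χ p| ≤ 1) :
    eEn (W \ E) (fun p => χ p * f p) ≤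
      2 * eEn (W \ E) f + ENNReal.ofReal (4 * ℓ ^ 2) * ∫⁻ p in W \ E, ‖f p‖ₑ ^ 2 := by
  have hWE := hW.sdiff hE.cpt.isClosed
  have hf' : CFJ 𝓗 (W \ E) f := hf.mono (Subset.refl _) sdiff_subset
  unfold eEn
  rw [← lintegral_const_mul' _ _ ENNReal.ofReal_ne_top, ← lintegral_const_mul' _ _ (by norm_num),
    ← lintegral_add_left ((measurable_g2 f).ennreal_ofReal.const_mul _)]
  refine lintegral_mono_ae ?_
  filter_upwards [hf'.ae_differentiableAt hWE,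
    (CFJ_of_lipschitz (𝓗 := 𝓗) (W := W \ E) hχ hχ1).ae_differentiableAt hWE] with p h1 h2
  have h3 := g2_mul_le h2 h1
  have h4 := g2_lip_le hχ p
  have h5 : χ p ^ 2 ≤ 1 := by rw [← sq_abs]; exact pow_le_one₀ (abs_nonneg _) (hχ1 p)
  have h6 : ‖f p‖ₑ ^ 2 = ENNReal.ofReal (f p ^ 2) := by
    rw [← ofReal_norm, ← ENNReal.ofReal_pow (norm_nonneg _), Real.norm_eq_abs, sq_abs]
  have h7 : (2 : ℝ≥0∞) * ENNReal.ofReal (g2 f p) = ENNReal.ofReal (2 * g2 f p) := by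
    rw [ENNReal.ofReal_mul (by norm_num)]; norm_num
  have hg := g2_nonneg f p
  rw [h6, h7, ← ENNReal.ofReal_mul (by positivity), ← ENNReal.ofReal_add (by positivity)
    (by positivity)]
  refine ENNReal.ofReal_le_ofReal (h3.trans ?_)
  have e1 : χ p ^ 2 * g2 f p ≤ 1 * g2 f p := mul_le_mul_of_nonneg_right h5 hg
  have e2 : f p ^ 2 * g2 χ p ≤ f p ^ 2 * (2 * ℓ ^ 2) :=
    mul_le_mul_of_nonneg_left h4 (sq_nonneg _)
  nlinarith [e1, e2]

/-- **CUT-OFF THEOREM (LOC with squares)**: multiplication by an `ℓ`-Lipschitz cut-off is bounded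
for `TQ`, with a constant that depends only on `ℓ` and the height of the picture. -/
theorem TQ_cut_le (hE : QPic E 𝒬 𝓗) (hW : Slab W) (hf : Cc 𝓗 W f) {a b : ℝ}
    (hab : ∀ p ∈ E, a < p.2 ∧ p.2 < b) (hba : a ≤ b) (hz : Van W a b f)
    {χ : ℝ × ℝ → ℝ} {ℓ : NNReal} (hχ : LipschitzWith ℓ χ) (hχ1 : ∀ p, |χ p| ≤ 1) :
    TQ E W 𝒬 (fun p => χ p * f p) ≤ cutC ℓ (b - a) * TQ E W 𝒬 f := by
  have hχf : Cc 𝓗 W (fun p => χ p * f p) := Cc.mul' (CFJ_of_lipschitz hχ hχ1) hf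
  have hT := TQ_nonneg E W 𝒬 f
  have hT' := TQ_nonneg E W 𝒬 (fun p => χ p * f p)
  have hC0 : 0 ≤ cutC ℓ (b - a) := by unfold cutC; positivity
  have hP := poincare hE hW hf hab hba hz
  have h1 := eEn_cut_le hW.isOpen hf.1 hE hχ hχ1
  have h2 := Ch_cut_le hE hW hf hab hba hz hχ hχ1
  have h3 : ENNReal.ofReal (TQ E W 𝒬 (fun p => χ p * f p)) ≤
      ENNReal.ofReal (cutC ℓ (b - a) * TQ E W 𝒬 f) := by
    rw [← ofReal_TQ hE hW.isOpen hW.convex hχf]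
    calc _ ≤ (2 * eEn (W \ E) f + ENNReal.ofReal (4 * ℓ ^ 2) * ∫⁻ p in W \ E, ‖f p‖ₑ ^ 2) +
          ENNReal.ofReal ((4 + 12 * ℓ ^ 2 * (b - a) ^ 2) * TQ E W 𝒬 f) := add_le_add h1 h2
      _ ≤ (2 * ENNReal.ofReal (TQ E W 𝒬 f) + ENNReal.ofReal (4 * ℓ ^ 2) *
            ENNReal.ofReal (2 * (b - a) ^ 2 * TQ E W 𝒬 f)) +
          ENNReal.ofReal ((4 + 12 * ℓ ^ 2 * (b - a) ^ 2) * TQ E W 𝒬 f) := by
          gcongr
          rw [eEn_eq (integrableOn_of_Cc hE hW.isOpen hf)]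
          exact ENNReal.ofReal_le_ofReal En_le_TQ
      _ = ENNReal.ofReal (cutC ℓ (b - a) * TQ E W 𝒬 f) := by
          have e2 : (2 : ℝ≥0∞) * ENNReal.ofReal (TQ E W 𝒬 f) =
              ENNReal.ofReal (2 * TQ E W 𝒬 f) := by
            rw [ENNReal.ofReal_mul (by norm_num)]; norm_num
          rw [e2, ← ENNReal.ofReal_mul (by positivity), ← ENNReal.ofReal_add (by positivity)
            (by positivity), ← ENNReal.ofReal_add (by positivity) (by positivity)]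
          congr 1
          unfold cutC; ring
  exact (ENNReal.ofReal_le_ofReal_iff (by positivity)).1 h3

/-- the height of a compact picture and of a compact support -/
theorem exists_height {S : Set (ℝ × ℝ)} (hS : IsCompact S) :
    ∃ a b : ℝ, a < b ∧ ∀ p ∈ S, a < p.2 ∧ p.2 < b := by
  obtain ⟨r, hr⟩ := hS.isBounded.subset_ball (0 : ℝ × ℝ)
  refine ⟨-(|r| + 1), |r| + 1, by have := abs_nonneg r; linarith, fun p hp => ?_⟩
  have h1 := hr hp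
  rw [mem_ball, dist_zero_right, Prod.norm_def] at h1
  have h2 := (le_max_right ‖p.1‖ ‖p.2‖).trans_lt h1
  rw [Real.norm_eq_abs, abs_lt] at h2
  have h3 := le_abs_self r
  constructor <;> linarith [h2.1, h2.2]

end Crest.Agent.R105.Cq_463
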