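import Crest.Agent.R105.Cq7_463

/-!
# Row 105 (S0138, picture with solids): the face lemma
-/

set_option autoImplicit false

namespace Crest.Agent.R105.Cq_463

open Set Filter MeasureTheory Topology Metric
open Crest.Agent.R105.CF_363 Crest.Agent.R105.Stp_722
open scoped ENNReal

variable {E W : Set (ℝ × ℝ)} {𝒬 : Set Sqr} {𝓗 : Set Hair} {f g : ℝ × ℝ → ℝ}

theorem ch_le_sqrt_TQ (hE : QPic E 𝒬 𝓗) (hW : Convex ℝ W) (hf : CFJ 𝓗 W f) {Q : Sqr}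
    (hQ : Q ∈ 𝒬) : ch E W f Q ≤ √(TQ E W 𝒬 f) :=
  Real.le_sqrt_of_sq_le ((ch_sq_le_Ch hE hW hf hQ).trans Ch_le_TQ)

/-- **FACE LEMMA**: near the portion of a square `Q` in `closure W` the function is bounded by
`(1 + (2 (b-a) / s)^{1/2}) TQ^{1/2}`. -/
theorem face_le (hE : QPic E 𝒬 𝓗) (hW : Slab W) (hf : Cc 𝓗 W f) {a b : ℝ}
    (hab : ∀ p ∈ E, a < p.2 ∧ p.2 < b) (hz : Van W a b f) {Q : Sqr} (hQ : Q ∈ 𝒬)
    (hne : (Q.car ∩ closure W).Nonempty) {ε : ℝ} (hε : 0 < ε) :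
    ∃ O, IsOpen O ∧ Q.car ∩ closure W ⊆ O ∧ ∀ q ∈ O ∩ (Eᶜ ∩ W),
      |f q| ≤ √(2 * (b - a) * TQ E W 𝒬 f / Q.s) + √(TQ E W 𝒬 f) + ε := by
  obtain ⟨J, hJ, L, C, hL, h1, h2⟩ := hf.1
  have hs := Q.hs
  have hgood := ae_goodX hE hW.isOpen h1
  have hHm : Measurable (HH E W 𝒬 f a b) := measurable_HH hE hW.isOpen a b
  have hH2 := lintegral_HH_sq hE hW.isOpen hW.convex hf hab
  have hHfin : ∀ᵐ x : ℝ, HH E W 𝒬 f a b x ≠ ∞ := by
    have := ae_lt_top (hHm.pow_const 2) (ne_top_of_le_ne_top ENNReal.ofReal_ne_top hH2)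
    filter_upwards [this] with x hx
    intro h
    rw [h] at hx
    simp at hx
  have hvol : volume (Icc Q.x (Q.x + Q.s)) = ENNReal.ofReal Q.s := by
    rw [Real.volume_Icc, show Q.x + Q.s - Q.x = Q.s by ring]
  have hpos := measure_le_setLAverage_pos (μ := volume) (s := Icc Q.x (Q.x + Q.s))
    (f := fun x => HH E W 𝒬 f a b x ^ 2) (by
      rw [hvol]; simp only [ne_eq, ENNReal.ofReal_eq_zero, not_le]; exact hs)
    (by rw [hvol]; exact ENNReal.ofReal_ne_top) (hHm.pow_const 2).aemeasurable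
  obtain ⟨x, ⟨hxQ, hxa⟩, hx, hfx⟩ : ∃ x, x ∈ {x ∈ Icc Q.x (Q.x + Q.s) |
      HH E W 𝒬 f a b x ^ 2 ≤ ⨍⁻ y in Icc Q.x (Q.x + Q.s), HH E W 𝒬 f a b y ^ 2 ∂volume} ∧
      GoodX E W 𝒬 J f x ∧ HH E W 𝒬 f a b x ≠ ∞ := by
    by_contra hcon
    push Not at hcon
    refine hpos.ne' (measure_mono_null (fun y hy => ?_)
      (ae_iff.1 (hgood.and hHfin)))
    simp only [mem_ofPred_eq, not_and]
    intro hg hh
    exact hh (hcon y hy hg)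
  have hT := TQ_nonneg E W 𝒬 f
  have hHle : (HH E W 𝒬 f a b x).toReal ≤ √(2 * (b - a) * TQ E W 𝒬 f / Q.s) := by
    refine Real.le_sqrt_of_sq_le ?_
    have e1 : HH E W 𝒬 f a b x ^ 2 ≤ ENNReal.ofReal (2 * (b - a) * TQ E W 𝒬 f / Q.s) := by
      refine hxa.trans ?_
      rw [setLAverage_eq, hvol, ENNReal.ofReal_div_of_pos hs]
      gcongr
      exact (setLIntegral_le_lintegral _ _).trans hH2
    have e2 := ENNReal.toReal_mono ENNReal.ofReal_ne_top e1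
    rw [ENNReal.toReal_pow] at e2
    refine e2.trans_eq (ENNReal.toReal_ofReal ?_)
    have e3 : 0 ≤ b - a := by
      obtain ⟨p, hp⟩ := Q.nonempty
      have := hab p (hE.sub Q hQ hp)
      linarith [this.1, this.2]
    positivity
  obtain ⟨O, hO, hPO, hb⟩ := hx.near_sq hE hJ hW hL h1 h2 hab hz hQ hxQ hne hfx hε
  refine ⟨O, hO, hPO, fun q hq => (hb q hq).trans ?_⟩
  have := ch_le_sqrt_TQ hE hW.convex hf.1 hQ
  linarith

/-- **THE BODY IS NEVER NULL** (649 (2) / 772 (3)): a function which is at least `1/2` near the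
portion of `Q` has energy at least `c(s, b - a) > 0`. -/
theorem body_capacity (hE : QPic E 𝒬 𝓗) (hW : Slab W) (hf : Cc 𝓗 W f) {a b : ℝ}
    (hab : ∀ p ∈ E, a < p.2 ∧ p.2 < b) (hz : Van W a b f) {Q : Sqr} (hQ : Q ∈ 𝒬)
    (hne : (Q.car ∩ closure W).Nonempty) {m : ℝ} (hm : 0 ≤ m)
    (hbig : ∀ O, IsOpen O → Q.car ∩ closure W ⊆ O → ∃ q ∈ O ∩ (Eᶜ ∩ W), m ≤ |f q|) :
    m ^ 2 ≤ (4 * (b - a) / Q.s + 2) * TQ E W 𝒬 f := by
  have hs := Q.hs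
  have hT := TQ_nonneg E W 𝒬 f
  have h1 : m ≤ √(2 * (b - a) * TQ E W 𝒬 f / Q.s) + √(TQ E W 𝒬 f) := by
    refine le_of_forall_pos_le_add fun ε hε => ?_
    obtain ⟨O, hO, hPO, hb⟩ := face_le hE hW hf hab hz hQ hne hε
    obtain ⟨q, hq, hqm⟩ := hbig O hO hPO
    exact hqm.trans (hb q hq)
  have e3 : 0 ≤ b - a := by
    obtain ⟨p, hp⟩ := Q.nonempty
    have := hab p (hE.sub Q hQ hp)
    linarith [this.1, this.2]
  have h2 := pow_le_pow_left₀ hm h1 2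
  have h3 : √(2 * (b - a) * TQ E W 𝒬 f / Q.s) ^ 2 = 2 * (b - a) * TQ E W 𝒬 f / Q.s :=
    Real.sq_sqrt (by positivity)
  have h4 : √(TQ E W 𝒬 f) ^ 2 = TQ E W 𝒬 f := Real.sq_sqrt hT
  calc m ^ 2 ≤ (√(2 * (b - a) * TQ E W 𝒬 f / Q.s) + √(TQ E W 𝒬 f)) ^ 2 := h2
    _ ≤ 2 * (√(2 * (b - a) * TQ E W 𝒬 f / Q.s) ^ 2 + √(TQ E W 𝒬 f) ^ 2) := by
        nlinarith [sq_nonneg (√(2 * (b - a) * TQ E W 𝒬 f / Q.s) - √(TQ E W 𝒬 f))]
    _ = (4 * (b - a) / Q.s + 2) * TQ E W 𝒬 f := by rw [h3, h4]; field_simp; ring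

end Crest.Agent.R105.Cq_463
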