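import Crest.Agent.R105.Cq5_463

/-!
# Row 105 (S0138, picture with solids): the charge is at most the oscillation over the square

`Att 𝒬 𝓗` : a cuttable hair which meets a square stands on it or hangs from it.
-/

set_option autoImplicit false

namespace Crest.Agent.R105.Cq_463

open Set Filter MeasureTheory Topology Metric
open Crest.Agent.R105.CF_363 Crest.Agent.R105.Stp_722
open scoped ENNReal

variable {E W : Set (ℝ × ℝ)} {𝒬 : Set Sqr} {𝓗 : Set Hair} {f g : ℝ × ℝ → ℝ}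

/-- a hair that meets the square has its foot on the top or on the bottom side -/
def AttAt (Q : Sqr) (K : Hair) : Prop :=
  (K.car ∩ Q.car).Nonempty → K.b = Q.y + Q.s ∨ K.t = Q.y

def Att (𝒬 : Set Sqr) (𝓗 : Set Hair) : Prop := ∀ K ∈ 𝓗, ∀ Q ∈ 𝒬, AttAt Q K

theorem vseg_subset {W : Set (ℝ × ℝ)} {J : Finset Hair} {u v v' : ℝ}
    (hW : ∀ t ∈ uIcc v v', (u, t) ∈ W) (hJ : ∀ t ∈ uIcc v v', (u, t) ∉ cut J) :
    segment ℝ (u, v) (u, v') ⊆ W \ cut J := by
  rw [segment_y]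
  rintro _ ⟨t, ht, rfl⟩
  exact ⟨hW t ht, hJ t ht⟩

theorem hseg_subset {W : Set (ℝ × ℝ)} {J : Finset Hair} {u u' v : ℝ}
    (hW : ∀ t ∈ uIcc u u', (t, v) ∈ W) (hJ : ∀ t ∈ uIcc u u', (t, v) ∉ cut J) :
    segment ℝ (u, v) (u', v) ⊆ W \ cut J := by
  rw [segment_x]
  rintro _ ⟨t, ht, rfl⟩
  exact ⟨hW t ht, hJ t ht⟩

/-- every point of `W \ E` near the portion is joined to the square by a short path off the cut -/
theorem exists_path_to_sq (hWc : Convex ℝ W) (hWh : ∀ x x' y, (x, y) ∈ W → (x', y) ∈ W)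
    {J : Finset Hair} (hJE : ∀ K ∈ J, K.car ⊆ E) {Q : Sqr} (hatt : ∀ K ∈ J, AttAt Q K)
    {t0 : ℝ} (ht0 : t0 ∈ Ioo Q.y (Q.y + Q.s)) (ht0W : (Q.x, t0) ∈ W)
    {L : ℝ} (hL : 0 ≤ L) (h : SL (W \ cut J) L f) {ε : ℝ} (hε : 0 < ε) :
    ∃ δ > 0, ∀ q ∈ thickening δ Q.car ∩ (Eᶜ ∩ W), ∃ p ∈ (Q.car ∩ W) \ cut J,
      |f q - f p| ≤ ε := by
  classical
  have hs := Q.hs
  -- the hairs away from the square
  set J' : Finset Hair := J.filter fun K => ¬ (K.car ∩ Q.car).Nonempty with hJ'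
  have hd : Disjoint Q.car (cut J') := by
    refine disjoint_left.2 fun p hp hpJ => ?_
    obtain ⟨K, hK, hpK⟩ := mem_cut.1 hpJ
    exact (Finset.mem_filter.1 hK).2 ⟨p, hpK, hp⟩
  obtain ⟨δ₀, hδ₀, hδd⟩ := hd.exists_thickenings Q.isCompact_car (isClosed_cut J')
  -- the lengths of the hairs
  obtain ⟨ℓ, hℓ, hℓK⟩ : ∃ ℓ > 0, ∀ K ∈ J, ℓ ≤ K.t - K.b := by
    rcases J.eq_empty_or_nonempty with rfl | hne
    · exact ⟨1, one_pos, by simp⟩
    · obtain ⟨K, hK, hmin⟩ := J.exists_min_image (fun K => K.t - K.b) hne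
      exact ⟨K.t - K.b, by linarith [K.hbt], hmin⟩
  set δ : ℝ := min (min (δ₀ / 3) (min ℓ (t0 - Q.y))) (min (Q.y + Q.s - t0) (ε / (3 * (L + 1))))
    with hδ
  have hδ0 : 0 < δ := by
    refine lt_min (lt_min (by linarith) (lt_min hℓ (by linarith [ht0.1])))
      (lt_min (by linarith [ht0.2]) (by positivity))
  have hd1 : δ ≤ δ₀ / 3 := (min_le_left _ _).trans (min_le_left _ _)
  have hd2 : δ ≤ ℓ := (min_le_left _ _).trans ((min_le_right _ _).trans (min_le_left _ _))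
  have hd3 : δ ≤ t0 - Q.y := (min_le_left _ _).trans ((min_le_right _ _).trans (min_le_right _ _))
  have hd4 : δ ≤ Q.y + Q.s - t0 := (min_le_right _ _).trans (min_le_left _ _)
  have hd5 : δ ≤ ε / (3 * (L + 1)) := (min_le_right _ _).trans (min_le_right _ _)
  refine ⟨δ, hδ0, ?_⟩
  rintro ⟨u, v⟩ ⟨hq, hqE, hqW⟩
  obtain ⟨r, hr, hqr⟩ := mem_thickening_iff.1 hq
  obtain ⟨⟨r1, r2⟩, r3, r4⟩ := Sqr.mem_car.1 hr
  rw [Prod.dist_eq, max_lt_iff, Real.dist_eq, Real.dist_eq] at hqr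
  obtain ⟨hu, hv⟩ := hqr
  simp only at hu hv
  have hu' := abs_lt.1 hu
  have hv' := abs_lt.1 hv
  -- the end point
  set v' : ℝ := max (Q.y + δ) (min v (Q.y + Q.s - δ)) with hv'd
  set u' : ℝ := max Q.x (min u (Q.x + Q.s)) with hu'd
  have hδs : Q.y + δ ≤ Q.y + Q.s - δ := by linarith
  have a1 : Q.y + δ ≤ v' := le_max_left _ _
  have a2 : v' ≤ Q.y + Q.s - δ := max_le hδs (min_le_right _ _)
  have a3 : |v - v'| ≤ 2 * δ := by
    rw [abs_le]
    rcases le_total v (Q.y + Q.s - δ) with h1 | h1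
    · rw [hv'd, min_eq_left h1]
      rcases le_total (Q.y + δ) v with h2 | h2
      · rw [max_eq_right h2]; constructor <;> linarith
      · rw [max_eq_left h2]; constructor <;> linarith
    · rw [hv'd, min_eq_right h1, max_eq_right hδs]
      constructor <;> linarith
  have a4 : v' ∈ uIcc v t0 := by
    rw [hv'd, mem_uIcc]
    rcases le_total v (Q.y + Q.s - δ) with h1 | h1
    · rw [min_eq_left h1]
      rcases le_total (Q.y + δ) v with h2 | h2
      · rw [max_eq_right h2]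
        rcases le_total v t0 with h3 | h3
        · exact Or.inl ⟨le_rfl, h3⟩
        · exact Or.inr ⟨h3, le_rfl⟩
      · rw [max_eq_left h2]; exact Or.inl ⟨h2, by linarith⟩
    · rw [min_eq_right h1, max_eq_right hδs]
      exact Or.inr ⟨by linarith, h1⟩
  have b1 : Q.x ≤ u' := le_max_left _ _
  have b2 : u' ≤ Q.x + Q.s := max_le (by linarith) (min_le_right _ _)
  have b3 : |u - u'| ≤ δ := by
    rw [abs_le]
    rcases le_total u (Q.x + Q.s) with h1 | h1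
    · rw [hu'd, min_eq_left h1]
      rcases le_total Q.x u with h2 | h2
      · rw [max_eq_right h2]; constructor <;> linarith
      · rw [max_eq_left h2]; constructor <;> linarith
    · rw [hu'd, min_eq_right h1, max_eq_right (by linarith : Q.x ≤ Q.x + Q.s)]
      constructor <;> linarith
  -- vertical range of `W`
  have hvert : ∀ x t, t ∈ uIcc v t0 → (x, t) ∈ W := by
    intro x t ht
    have h1 : (x, v) ∈ W := hWh u x v hqW
    have h2 : (x, t0) ∈ W := hWh Q.x x t0 ht0W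
    have h3 := hWc.segment_subset h1 h2
    rw [segment_y] at h3
    exact h3 ⟨t, ht, rfl⟩
  have hsub : uIcc v v' ⊆ uIcc v t0 := uIcc_subset_uIcc left_mem_uIcc a4
  -- points of the path are close to the square
  have hclose : ∀ w t : ℝ, |w - r.1| < δ₀ → |t - r.2| < δ₀ → (w, t) ∉ cut J' := by
    intro w t h1 h2 hc
    refine disjoint_left.1 hδd (mem_thickening_iff.2 ⟨r, hr, ?_⟩)
      (self_subset_thickening hδ₀ _ hc)
    rw [Prod.dist_eq, max_lt_iff, Real.dist_eq, Real.dist_eq]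
    exact ⟨h1, h2⟩
  have hcutJ : ∀ p : ℝ × ℝ, p ∈ cut J → p ∉ cut J' → ∃ K ∈ J, p ∈ K.car ∧
      (K.b = Q.y + Q.s ∨ K.t = Q.y) := by
    intro p hp hp'
    obtain ⟨K, hK, hpK⟩ := mem_cut.1 hp
    refine ⟨K, hK, hpK, hatt K hK ?_⟩
    by_contra hc
    exact hp' (mem_cut.2 ⟨K, Finset.mem_filter.2 ⟨hK, hc⟩, hpK⟩)
  have hvoff : ∀ t ∈ uIcc v v', (u, t) ∉ cut J := by
    intro t ht hc
    have htr : |t - r.2| < δ₀ := by
      have h1 : |t - v| ≤ |v' - v| := by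
        have := abs_sub_left_of_mem_uIcc ht
        exact this
      rw [abs_sub_comm v' v] at h1
      have h2 := abs_sub_le t v r.2
      linarith
    obtain ⟨K, hK, hpK, hK'⟩ := hcutJ _ hc (hclose u t (by linarith) htr)
    obtain ⟨k1, k2, k3⟩ := hpK
    simp only at k1 k2 k3
    have hlen := hℓK K hK
    rcases mem_uIcc.1 ht with h1 | h1
    · -- `v ≤ t ≤ v'`
      rcases hK' with h2 | h2
      · linarith [h1.2]
      · refine hqE (hJE K hK ⟨k1, ?_, ?_⟩)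
        · simp only; linarith
        · simp only; linarith [h1.1]
    · rcases hK' with h2 | h2
      · refine hqE (hJE K hK ⟨k1, ?_, ?_⟩)
        · simp only; linarith [h1.2]
        · simp only; linarith
      · linarith [h1.1]
  have hhoff : ∀ t ∈ uIcc u u', (t, v') ∉ cut J := by
    intro t ht hc
    have htr : |t - r.1| < δ₀ := by
      have h1 : |t - u| ≤ |u' - u| := abs_sub_left_of_mem_uIcc ht
      rw [abs_sub_comm u' u] at h1
      have h2 := abs_sub_le t u r.1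
      linarith
    have hvr : |v' - r.2| < δ₀ := by
      have h2 := abs_sub_le v' v r.2
      rw [abs_sub_comm v' v] at h2
      linarith
    obtain ⟨K, hK, hpK, hK'⟩ := hcutJ _ hc (hclose t v' htr hvr)
    obtain ⟨k1, k2, k3⟩ := hpK
    simp only at k1 k2 k3
    rcases hK' with h2 | h2 <;> linarith
  have hp1 : (u', v') ∈ Q.car := Sqr.mem_car.2 ⟨⟨b1, b2⟩, by simp only; linarith, by
    simp only; linarith⟩
  refine ⟨(u', v'), ⟨⟨hp1, hvert u' v' a4⟩, hhoff u' right_mem_uIcc⟩, ?_⟩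
  have c1 := h (u, v) (u, v') (vseg_subset (fun t ht => hvert u t (hsub ht)) hvoff)
  have c2 := h (u, v') (u', v') (hseg_subset (fun t _ => hvert t v' a4) hhoff)
  have d1 : dist ((u, v) : ℝ × ℝ) (u, v') = |v - v'| := by simp [Prod.dist_eq, Real.dist_eq]
  have d2 : dist ((u, v') : ℝ × ℝ) (u', v') = |u - u'| := by simp [Prod.dist_eq, Real.dist_eq]
  rw [d1] at c1
  rw [d2] at c2
  have e1 := abs_sub_le (f (u, v)) (f (u, v')) (f (u', v'))
  have e2 : L * |v - v'| ≤ L * (2 * δ) := mul_le_mul_of_nonneg_left a3 hL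
  have e3 : L * |u - u'| ≤ L * δ := mul_le_mul_of_nonneg_left b3 hL
  have e4 : L * (3 * δ) ≤ ε := by
    have : L * (3 * δ) ≤ L * (3 * (ε / (3 * (L + 1)))) := by gcongr
    refine this.trans ?_
    rw [show L * (3 * (ε / (3 * (L + 1)))) = L * ε / (L + 1) by field_simp]
    rw [div_le_iff₀ (by positivity)]; nlinarith
  linarith

/-- **the charge is at most the oscillation over the square** (off the cut, inside `W`) -/
theorem oscLe_of_sq (hWc : Convex ℝ W) (hWh : ∀ x x' y, (x, y) ∈ W → (x', y) ∈ W)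
    {J : Finset Hair} (hJE : ∀ K ∈ J, K.car ⊆ E) {Q : Sqr} (hatt : ∀ K ∈ J, AttAt Q K)
    {t0 : ℝ} (ht0 : t0 ∈ Ioo Q.y (Q.y + Q.s)) (ht0W : (Q.x, t0) ∈ W)
    {L : ℝ} (hL : 0 ≤ L) (h : SL (W \ cut J) L f) {c : ℝ}
    (hc : ∀ p ∈ (Q.car ∩ W) \ cut J, ∀ p' ∈ (Q.car ∩ W) \ cut J, |f p - f p'| ≤ c) :
    OscLe (Eᶜ ∩ W) Q.car f c := by
  intro ε hε
  obtain ⟨δ, hδ, H⟩ := exists_path_to_sq hWc hWh hJE hatt ht0 ht0W hL h
    (show (0 : ℝ) < ε / 2 by linarith)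
  refine ⟨thickening δ Q.car, isOpen_thickening, self_subset_thickening hδ _, ?_⟩
  intro q hq q' hq'
  obtain ⟨p, hp, hqp⟩ := H q hq
  obtain ⟨p', hp', hqp'⟩ := H q' hq'
  have h1 := abs_le.1 hqp
  have h2 := abs_le.1 hqp'
  have h3 := abs_le.1 (hc p hp p' hp')
  rw [abs_le]; constructor <;> linarith

theorem ch_le_osc (hW : Slab W) (hE : QPic E 𝒬 𝓗) (hatt : Att 𝒬 𝓗) {J : Finset Hair}
    (hJ : ∀ K ∈ J, K ∈ 𝓗) {Q : Sqr} (hQ : Q ∈ 𝒬)
    {t0 : ℝ} (ht0 : t0 ∈ Ioo Q.y (Q.y + Q.s)) (ht0W : (Q.x, t0) ∈ W)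
    {L : ℝ} (hL : 0 ≤ L) (h : SL (W \ cut J) L f) {c : ℝ} (hc0 : 0 ≤ c)
    (hc : ∀ p ∈ (Q.car ∩ W) \ cut J, ∀ p' ∈ (Q.car ∩ W) \ cut J, |f p - f p'| ≤ c) :
    ch E W f Q ≤ c :=
  chg_le hc0 ((oscLe_of_sq hW.convex hW.hor (fun K hK => hE.hsub K (hJ K hK))
    (fun K hK => hatt K (hJ K hK) Q hQ) ht0 ht0W hL h hc).mono_set inter_subset_left)

end Crest.Agent.R105.Cq_463
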