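import Mathlib

/-! R105 (Koebe), D-frame: circumradius of bounded sets and bounded functions in a real Hilbert
space: seminorm, centre, strong convexity, continuity.  (helper927) -/

set_option autoImplicit false
set_option linter.unusedSectionVars false
set_option linter.unusedVariables false

namespace Crest.Agent.R105.Crd_927

open Metric Set Filter Topology

noncomputable section

variable {E : Type*} [NormedAddCommGroup E] [InnerProductSpace ℝ E]

/-- circumradius of a set -/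
def Rs (S : Set E) : ℝ := sInf {r : ℝ | 0 ≤ r ∧ ∃ c, S ⊆ closedBall c r}

/-- circumradius of a function -/
def Rc {X : Type*} (f : X → E) : ℝ := Rs (range f)

lemma bdd (S : Set E) : BddBelow {r : ℝ | 0 ≤ r ∧ ∃ c, S ⊆ closedBall c r} :=
  ⟨0, fun _ h => h.1⟩

lemma nonemp {S : Set E} (hS : Bornology.IsBounded S) :
    {r : ℝ | 0 ≤ r ∧ ∃ c, S ⊆ closedBall c r}.Nonempty := by
  obtain ⟨r, hr⟩ := hS.subset_closedBall (0 : E)
  exact ⟨max r 0, le_max_right _ _, 0, hr.trans (closedBall_subset_closedBall (le_max_left _ _))⟩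

lemma Rs_nonneg (S : Set E) : 0 ≤ Rs S := Real.sInf_nonneg fun _ h => h.1

lemma Rs_le {S : Set E} {c : E} {r : ℝ} (hr : 0 ≤ r) (h : S ⊆ closedBall c r) : Rs S ≤ r :=
  csInf_le (bdd S) ⟨hr, c, h⟩

lemma Rs_le' {S : Set E} (hne : S.Nonempty) {c : E} {r : ℝ} (h : S ⊆ closedBall c r) :
    Rs S ≤ r := by
  obtain ⟨x, hx⟩ := hne
  exact Rs_le (dist_nonneg.trans (h hx)) h

lemma Rs_empty : Rs (∅ : Set E) = 0 :=
  le_antisymm (Rs_le (c := 0) le_rfl (empty_subset _)) (Rs_nonneg _)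

lemma exists_lt {S : Set E} (hS : Bornology.IsBounded S) {ρ : ℝ} (h : Rs S < ρ) :
    ∃ c r, 0 ≤ r ∧ r < ρ ∧ S ⊆ closedBall c r := by
  obtain ⟨r, ⟨h0, c, hc⟩, hr⟩ := exists_lt_of_csInf_lt (nonemp hS) h
  exact ⟨c, r, h0, hr, hc⟩

lemma Rs_mono {S T : Set E} (hT : Bornology.IsBounded T) (h : S ⊆ T) : Rs S ≤ Rs T := by
  refine le_of_forall_pos_le_add fun ε hε => ?_
  obtain ⟨c, r, h0, hr, hc⟩ := exists_lt hT (lt_add_of_pos_right (Rs T) hε)
  exact (Rs_le h0 (h.trans hc)).trans hr.le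

/-- convexity of the set of balls containing `S` : the fundamental identity -/
lemma ball_conv {S : Set E} {c c' : E} {r r' t : ℝ} (h : S ⊆ closedBall c r)
    (h' : S ⊆ closedBall c' r') (ht0 : 0 ≤ t) (ht1 : t ≤ 1) :
    ∀ x ∈ S, ‖x - (c + t • (c' - c))‖ ^ 2 ≤
      (1 - t) * r ^ 2 + t * r' ^ 2 - t * (1 - t) * ‖c' - c‖ ^ 2 := by
  intro x hx
  have e : ‖x - (c + t • (c' - c))‖ ^ 2 =
      (1 - t) * ‖x - c‖ ^ 2 + t * ‖x - c'‖ ^ 2 - t * (1 - t) * ‖c' - c‖ ^ 2 := by
    have h1 : x - (c + t • (c' - c)) = (x - c) - t • (c' - c) := by abel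
    have h2 : x - c' = (x - c) - (c' - c) := by abel
    rw [h1, h2]
    generalize x - c = a
    generalize c' - c = b
    rw [norm_sub_sq_real, norm_sub_sq_real, norm_smul, inner_smul_right, mul_pow,
      Real.norm_eq_abs, sq_abs]
    ring
  have h1 : ‖x - c‖ ≤ r := by simpa [dist_eq_norm] using h hx
  have h2 : ‖x - c'‖ ≤ r' := by simpa [dist_eq_norm] using h' hx
  have h1' : ‖x - c‖ ^ 2 ≤ r ^ 2 := by gcongr
  have h2' : ‖x - c'‖ ^ 2 ≤ r' ^ 2 := by gcongr
  rw [e]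
  nlinarith [mul_le_mul_of_nonneg_left h1' (sub_nonneg.2 ht1), mul_le_mul_of_nonneg_left h2' ht0]

/-- two balls containing a nonempty set: distance of the centres -/
lemma sq_le {S : Set E} (hne : S.Nonempty) {c c' : E} {r r' t : ℝ}
    (h : S ⊆ closedBall c r) (h' : S ⊆ closedBall c' r') (ht0 : 0 ≤ t) (ht1 : t ≤ 1) :
    Rs S ^ 2 ≤ (1 - t) * r ^ 2 + t * r' ^ 2 - t * (1 - t) * ‖c' - c‖ ^ 2 := by
  have key := ball_conv h h' ht0 ht1
  set A := (1 - t) * r ^ 2 + t * r' ^ 2 - t * (1 - t) * ‖c' - c‖ ^ 2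
  obtain ⟨x0, hx0⟩ := hne
  have hA : 0 ≤ A := (sq_nonneg _).trans (key x0 hx0)
  have : S ⊆ closedBall (c + t • (c' - c)) (Real.sqrt A) := by
    intro x hx
    rw [mem_closedBall, dist_eq_norm]
    exact Real.le_sqrt_of_sq_le (key x hx)
  have h3 := Rs_le (Real.sqrt_nonneg A) this
  calc Rs S ^ 2 ≤ Real.sqrt A ^ 2 := by
        have := Rs_nonneg S
        gcongr
    _ = A := Real.sq_sqrt hA

/-- centres of two nearly optimal balls are close -/
lemma cen_close {S : Set E} (hne : S.Nonempty) {c c' : E} {r r' : ℝ}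
    (h : S ⊆ closedBall c r) (h' : S ⊆ closedBall c' r') :
    ‖c' - c‖ ^ 2 ≤ 2 * (r ^ 2 - Rs S ^ 2) + 2 * (r' ^ 2 - Rs S ^ 2) := by
  have := sq_le hne h h' (t := 1 / 2) (by norm_num) (by norm_num)
  nlinarith

/-- existence of the circumcentre -/
theorem exists_cen [CompleteSpace E] {S : Set E} (hS : Bornology.IsBounded S) :
    ∃ c, S ⊆ closedBall c (Rs S) := by
  rcases S.eq_empty_or_nonempty with rfl | hne
  · exact ⟨0, empty_subset _⟩
  have hex : ∀ n : ℕ, ∃ c r, 0 ≤ r ∧ r < Rs S + 1 / ((n : ℝ) + 1) ∧ S ⊆ closedBall c r :=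
    fun n => exists_lt hS (lt_add_of_pos_right _ (by positivity))
  choose c r hr0 hr hc using hex
  have hR := Rs_nonneg S
  have hrR : ∀ n, Rs S ≤ r n := fun n => Rs_le (hr0 n) (hc n)
  have hlim : Tendsto r atTop (𝓝 (Rs S)) := by
    refine tendsto_of_tendsto_of_tendsto_of_le_of_le tendsto_const_nhds ?_ hrR
      (fun n => (hr n).le)
    simpa using tendsto_const_nhds (x := Rs S).add tendsto_one_div_add_atTop_nhds_zero_nat
  have hlim2 : Tendsto (fun n => 2 * (r n ^ 2 - Rs S ^ 2)) atTop (𝓝 0) := by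
    have := ((hlim.pow 2).sub_const (Rs S ^ 2)).const_mul 2
    simpa using this
  have hcau : CauchySeq c := by
    rw [Metric.cauchySeq_iff']
    intro ε hε
    have h1 : ∀ᶠ n in atTop, 2 * (r n ^ 2 - Rs S ^ 2) < ε ^ 2 / 2 :=
      hlim2.eventually_lt_const (by positivity)
    obtain ⟨N, hN⟩ := eventually_atTop.1 h1
    refine ⟨N, fun n hn => ?_⟩
    rw [dist_eq_norm]
    have h2 := cen_close hne (hc N) (hc n)
    have h3 := hN N le_rfl
    have h4 := hN n hn
    exact lt_of_pow_lt_pow_left₀ 2 hε.le (by linarith)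
  obtain ⟨c0, hc0⟩ := cauchySeq_tendsto_of_complete hcau
  refine ⟨c0, fun x hx => ?_⟩
  rw [mem_closedBall]
  exact le_of_tendsto_of_tendsto (tendsto_const_nhds.dist hc0) hlim
    (Eventually.of_forall fun n => by simpa using hc n hx)

/-- the circumcentre (`0` for unbounded sets) -/
def cen (S : Set E) : E :=
  open Classical in if h : ∃ c, S ⊆ closedBall c (Rs S) then h.choose else 0

lemma subset_cen [CompleteSpace E] {S : Set E} (hS : Bornology.IsBounded S) :
    S ⊆ closedBall (cen S) (Rs S) := by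
  have h := exists_cen hS
  rw [cen, dif_pos h]
  exact h.choose_spec

/-- strong convexity: the optimal ball against any other ball -/
theorem cen_sq [CompleteSpace E] {S : Set E} (hS : Bornology.IsBounded S) (hne : S.Nonempty)
    {c' : E} {r' : ℝ} (h' : S ⊆ closedBall c' r') :
    Rs S ^ 2 + ‖c' - cen S‖ ^ 2 ≤ r' ^ 2 := by
  have key : ∀ t : ℝ, 0 < t → t ≤ 1 →
      Rs S ^ 2 + (1 - t) * ‖c' - cen S‖ ^ 2 ≤ r' ^ 2 := by
    intro t ht0 ht1
    have := sq_le hne (subset_cen hS) h' ht0.le ht1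
    have h1 : t * (Rs S ^ 2 + (1 - t) * ‖c' - cen S‖ ^ 2) ≤ t * r' ^ 2 := by nlinarith
    exact le_of_mul_le_mul_left h1 ht0
  have hlim : Tendsto (fun t : ℝ => Rs S ^ 2 + (1 - t) * ‖c' - cen S‖ ^ 2) (𝓝[>] 0)
      (𝓝 (Rs S ^ 2 + (1 - 0) * ‖c' - cen S‖ ^ 2)) := by
    apply Tendsto.mono_left _ nhdsWithin_le_nhds
    exact (Continuous.tendsto (by fun_prop) 0)
  have h2 : ∀ᶠ t : ℝ in 𝓝[>] 0, Rs S ^ 2 + (1 - t) * ‖c' - cen S‖ ^ 2 ≤ r' ^ 2 := by
    filter_upwards [Ioc_mem_nhdsGT (zero_lt_one' ℝ)] with t ht using key t ht.1 ht.2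
  simpa using le_of_tendsto hlim h2

theorem cen_unique [CompleteSpace E] {S : Set E} (hS : Bornology.IsBounded S) (hne : S.Nonempty)
    {c' : E} (h' : S ⊆ closedBall c' (Rs S)) : c' = cen S := by
  have := cen_sq hS hne h'
  have h2 : ‖c' - cen S‖ ^ 2 ≤ 0 := by linarith
  have h3 : ‖c' - cen S‖ = 0 := by
    have := sq_nonneg ‖c' - cen S‖
    exact pow_eq_zero_iff (two_ne_zero) |>.1 (le_antisymm h2 this)
  exact sub_eq_zero.1 (norm_eq_zero.1 h3)

lemma diam_le {S : Set E} (hS : Bornology.IsBounded S) : Metric.diam S ≤ 2 * Rs S := by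
  refine le_of_forall_pos_le_add fun ε hε => ?_
  obtain ⟨c, r, h0, hr, hc⟩ := exists_lt hS (lt_add_of_pos_right (Rs S) (half_pos hε))
  have h1 : Metric.diam S ≤ 2 * r :=
    (Metric.diam_mono hc isBounded_closedBall).trans (Metric.diam_closedBall h0)
  linarith

lemma Rs_le_diam {S : Set E} (hS : Bornology.IsBounded S) : Rs S ≤ Metric.diam S := by
  rcases S.eq_empty_or_nonempty with rfl | ⟨x, hx⟩
  · simp [Rs_empty]
  · exact Rs_le (c := x) Metric.diam_nonneg fun y hy => Metric.dist_le_diam_of_mem hS hy hx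

lemma Rs_closure {S : Set E} : Rs (closure S) = Rs S := by
  unfold Rs
  congr 1
  ext r
  simp only [mem_ofPred_eq, and_congr_right_iff]
  intro _
  refine exists_congr fun c => ⟨fun h => subset_closure.trans h, fun h => ?_⟩
  exact closure_minimal h isClosed_closedBall

lemma Rs_convexHull {S : Set E} : Rs (convexHull ℝ S) = Rs S := by
  unfold Rs
  congr 1
  ext r
  simp only [mem_ofPred_eq, and_congr_right_iff]
  intro _
  refine exists_congr fun c => ⟨fun h => (subset_convexHull ℝ S).trans h, fun h => ?_⟩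
  exact convexHull_min h (convex_closedBall c r)

lemma Rs_singleton (x : E) : Rs ({x} : Set E) = 0 :=
  le_antisymm (Rs_le (c := x) le_rfl (by simp)) (Rs_nonneg _)

lemma Rs_eq_zero {S : Set E} (hS : Bornology.IsBounded S) (h : Rs S = 0) : S.Subsingleton := by
  have h1 := diam_le hS
  rw [h, mul_zero] at h1
  intro x hx y hy
  exact dist_le_zero.1 ((Metric.dist_le_diam_of_mem hS hx hy).trans h1)

lemma Rs_eq_zero_iff {S : Set E} (hS : Bornology.IsBounded S) : Rs S = 0 ↔ S.Subsingleton := by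
  refine ⟨Rs_eq_zero hS, fun h => ?_⟩
  rcases h.eq_empty_or_singleton with h | ⟨x, h⟩
  · rw [h, Rs_empty]
  · rw [h, Rs_singleton]

/-- a set lying in the `ε`-neighbourhood of another one -/
lemma Rs_le_add {S T : Set E} (hT : Bornology.IsBounded T) {ε : ℝ} (hε : 0 ≤ ε)
    (h : ∀ x ∈ S, ∃ y ∈ T, dist x y ≤ ε) : Rs S ≤ Rs T + ε := by
  refine le_of_forall_pos_le_add fun η hη => ?_
  obtain ⟨c, r, h0, hr, hc⟩ := exists_lt hT (lt_add_of_pos_right (Rs T) hη)
  have : S ⊆ closedBall c (r + ε) := by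
    intro x hx
    obtain ⟨y, hy, hxy⟩ := h x hx
    have := hc hy
    rw [mem_closedBall] at this ⊢
    linarith [dist_triangle x y c]
  linarith [Rs_le (add_nonneg h0 hε) this]

/-- centres of Hausdorff-close sets are close -/
lemma cen_dist [CompleteSpace E] {S T : Set E} (hS : Bornology.IsBounded S)
    (hne : S.Nonempty) (hT : Bornology.IsBounded T) {ε : ℝ} (hε : 0 ≤ ε)
    (h : ∀ x ∈ S, ∃ y ∈ T, dist x y ≤ ε) :
    ‖cen T - cen S‖ ^ 2 ≤ (Rs T + ε) ^ 2 - Rs S ^ 2 := by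
  have : S ⊆ closedBall (cen T) (Rs T + ε) := by
    intro x hx
    obtain ⟨y, hy, hxy⟩ := h x hx
    have := subset_cen hT hy
    rw [mem_closedBall] at this ⊢
    linarith [dist_triangle x y (cen T)]
  linarith [cen_sq hS hne this]

/-! ### functions -/

variable {X : Type*}

/-- bounded range -/
def Bd (f : X → E) : Prop := Bornology.IsBounded (range f)

lemma Rc_nonneg (f : X → E) : 0 ≤ Rc f := Rs_nonneg _

lemma Bd_iff {f : X → E} : Bd f ↔ ∃ M : ℝ, ∀ x, ‖f x‖ ≤ M := by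
  unfold Bd
  rw [isBounded_iff_forall_norm_le]
  simp

lemma Bd.add {f g : X → E} (hf : Bd f) (hg : Bd g) : Bd (fun x => f x + g x) := by
  obtain ⟨M, hM⟩ := Bd_iff.1 hf
  obtain ⟨N, hN⟩ := Bd_iff.1 hg
  exact Bd_iff.2 ⟨M + N, fun x => (norm_add_le _ _).trans (add_le_add (hM x) (hN x))⟩

lemma Bd.smul {f : X → E} (hf : Bd f) (t : ℝ) : Bd (fun x => t • f x) := by
  obtain ⟨M, hM⟩ := Bd_iff.1 hf
  refine Bd_iff.2 ⟨|t| * M, fun x => ?_⟩
  rw [norm_smul, Real.norm_eq_abs]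
  exact mul_le_mul_of_nonneg_left (hM x) (abs_nonneg t)

lemma Bd.sub {f g : X → E} (hf : Bd f) (hg : Bd g) : Bd (fun x => f x - g x) := by
  have := hf.add (hg.smul (-1))
  simpa [sub_eq_add_neg] using this

lemma Bd.const (c : E) : Bd (fun _ : X => c) :=
  (Set.finite_range_const).isBounded

lemma Rc_le {f : X → E} {c : E} {r : ℝ} (hr : 0 ≤ r) (h : ∀ x, ‖f x - c‖ ≤ r) : Rc f ≤ r :=
  Rs_le (c := c) hr (by rintro _ ⟨x, rfl⟩; simpa [dist_eq_norm] using h x)

lemma exists_lt_fun {f : X → E} (hf : Bd f) {ρ : ℝ} (h : Rc f < ρ) :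
    ∃ c r, 0 ≤ r ∧ r < ρ ∧ ∀ x, ‖f x - c‖ ≤ r := by
  obtain ⟨c, r, h0, hr, hc⟩ := exists_lt hf h
  exact ⟨c, r, h0, hr, fun x => by simpa [dist_eq_norm] using hc ⟨x, rfl⟩⟩

theorem Rc_add {f g : X → E} (hf : Bd f) (hg : Bd g) :
    Rc (fun x => f x + g x) ≤ Rc f + Rc g := by
  refine le_of_forall_pos_le_add fun ε hε => ?_
  obtain ⟨c, r, h0, hr, hc⟩ := exists_lt_fun hf (lt_add_of_pos_right (Rc f) (half_pos hε))
  obtain ⟨d, s, k0, hs, hd⟩ := exists_lt_fun hg (lt_add_of_pos_right (Rc g) (half_pos hε))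
  have : Rc (fun x => f x + g x) ≤ r + s := by
    refine Rc_le (c := c + d) (add_nonneg h0 k0) fun x => ?_
    calc ‖f x + g x - (c + d)‖ = ‖(f x - c) + (g x - d)‖ := by congr 1; abel
      _ ≤ _ := (norm_add_le _ _).trans (add_le_add (hc x) (hd x))
  linarith

lemma Rc_smul_le {f : X → E} (hf : Bd f) (t : ℝ) : Rc (fun x => t • f x) ≤ |t| * Rc f := by
  refine le_of_forall_pos_le_add fun ε hε => ?_
  have hpos : 0 < ε / (|t| + 1) := by positivity
  obtain ⟨c, r, h0, hr, hc⟩ := exists_lt_fun hf (lt_add_of_pos_right (Rc f) hpos)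
  have : Rc (fun x => t • f x) ≤ |t| * r := by
    refine Rc_le (c := t • c) (by positivity) fun x => ?_
    rw [← smul_sub, norm_smul, Real.norm_eq_abs]
    exact mul_le_mul_of_nonneg_left (hc x) (abs_nonneg t)
  have h2 : |t| * (ε / (|t| + 1)) ≤ ε := by
    rw [mul_div_assoc', div_le_iff₀ (by positivity)]
    nlinarith [abs_nonneg t]
  nlinarith [abs_nonneg t]

theorem Rc_smul {f : X → E} (hf : Bd f) (t : ℝ) : Rc (fun x => t • f x) = |t| * Rc f := by
  refine le_antisymm (Rc_smul_le hf t) ?_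
  rcases eq_or_ne t 0 with rfl | ht
  · simpa using Rc_nonneg _
  · have h := Rc_smul_le (hf.smul t) t⁻¹
    simp only [smul_smul, inv_mul_cancel₀ ht, one_smul, abs_inv] at h
    have ht' : 0 < |t| := abs_pos.2 ht
    calc |t| * Rc f ≤ |t| * (|t|⁻¹ * Rc (fun x => t • f x)) := by gcongr
      _ = Rc (fun x => t • f x) := by field_simp

lemma Rc_neg {f : X → E} (hf : Bd f) : Rc (fun x => -f x) = Rc f := by
  have := Rc_smul hf (-1)
  simpa using this

lemma Rc_const (c : E) : Rc (fun _ : X => c) = 0 :=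
  le_antisymm (Rc_le (c := c) le_rfl (by simp)) (Rc_nonneg _)

theorem Rc_add_const {f : X → E} (hf : Bd f) (c : E) : Rc (fun x => f x + c) = Rc f := by
  refine le_antisymm ?_ ?_
  · have := Rc_add hf (Bd.const (X := X) c)
    rwa [Rc_const, add_zero] at this
  · have := Rc_add (hf.add (Bd.const (X := X) c)) (Bd.const (X := X) (-c))
    simpa [Rc_const] using this

lemma Rc_sub_le {f g : X → E} (hf : Bd f) (hg : Bd g) :
    |Rc f - Rc g| ≤ Rc (fun x => f x - g x) := by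
  have hng : Bd (fun x => -g x) := by simpa using hg.smul (-1)
  have hfg : Bd (fun x => f x - g x) := by simpa [sub_eq_add_neg] using hf.add hng
  have h1 := Rc_add hfg hg
  have h2 := Rc_add (by simpa using hfg.smul (-1) : Bd (fun x => -(f x - g x))) hf
  rw [Rc_neg hfg] at h2
  simp only [sub_add_cancel, neg_sub] at h1 h2
  rw [abs_le]
  constructor <;> linarith

lemma Rc_le_sup {f : X → E} {M : ℝ} (hM : 0 ≤ M) (h : ∀ x, ‖f x‖ ≤ M) : Rc f ≤ M :=
  Rc_le (c := 0) hM (by simpa using h)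

lemma Rc_comp_le {Y : Type*} {f : X → E} (hf : Bd f) (u : Y → X) : Rc (f ∘ u) ≤ Rc f :=
  Rs_mono hf (range_comp_subset_range u f)

lemma Rc_comp_surj {Y : Type*} {f : X → E} {u : Y → X} (hu : Function.Surjective u) :
    Rc (f ∘ u) = Rc f := by
  unfold Rc; rw [hu.range_comp]

/-- the circumcentre of a function -/
def ce (f : X → E) : E := cen (range f)

lemma norm_sub_ce [CompleteSpace E] {f : X → E} (hf : Bd f) (x : X) : ‖f x - ce f‖ ≤ Rc f := by
  have := subset_cen hf (mem_range_self x)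
  rwa [mem_closedBall, dist_eq_norm] at this

theorem ce_sq [CompleteSpace E] [Nonempty X] {f : X → E} (hf : Bd f) {c : E} {r : ℝ}
    (h : ∀ x, ‖f x - c‖ ≤ r) : Rc f ^ 2 + ‖c - ce f‖ ^ 2 ≤ r ^ 2 :=
  cen_sq hf (range_nonempty f) (by rintro _ ⟨x, rfl⟩; simpa [dist_eq_norm] using h x)

lemma osc_le [CompleteSpace E] {f : X → E} (hf : Bd f) (x y : X) : ‖f x - f y‖ ≤ 2 * Rc f := by
  calc ‖f x - f y‖ = ‖(f x - ce f) - (f y - ce f)‖ := by congr 1; abel
    _ ≤ ‖f x - ce f‖ + ‖f y - ce f‖ := norm_sub_le _ _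
    _ ≤ 2 * Rc f := by linarith [norm_sub_ce hf x, norm_sub_ce hf y]

/-- circumradius of a closed disc -/
lemma Rs_closedBall [Nontrivial E] (c : E) {r : ℝ} (hr : 0 ≤ r) : Rs (closedBall c r) = r := by
  refine le_antisymm (Rs_le hr subset_rfl) ?_
  obtain ⟨v, hv⟩ := exists_norm_eq E hr
  have h1 : c + v ∈ closedBall c r := by simp [hv]
  have h2 : c - v ∈ closedBall c r := by simp [hv]
  have h3 := Metric.dist_le_diam_of_mem isBounded_closedBall h1 h2
  have h4 := diam_le (isBounded_closedBall (x := c) (r := r))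
  have h5 : dist (c + v) (c - v) = 2 * r := by
    rw [dist_eq_norm]
    have : c + v - (c - v) = (2 : ℝ) • v := by rw [two_smul]; abel
    rw [this, norm_smul, hv]; norm_num
  linarith

end

end Crest.Agent.R105.Crd_927
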