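import Crest.Agent.R105.Crd1_927

/-! R105 (Koebe), D-frame: contact points of the circumscribed ball, contact weights, subgradient
and one-sided derivative of the squared circumradius, decreasing limits.  (helper927) -/

set_option autoImplicit false
set_option linter.unusedSectionVars false
set_option linter.unusedVariables false

namespace Crest.Agent.R105.Crd_927

open Metric Set Filter Topology

noncomputable section

variable {E : Type*} [NormedAddCommGroup E] [InnerProductSpace ℝ E]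

/-- squared distances from two centres, barycentre form -/
lemma bary_sq {ι : Type*} [Fintype ι] {w : ι → ℝ} {z : ι → E} {c : E} (w1 : ∑ i, w i = 1)
    (hb : ∑ i, w i • z i = c) (c' : E) :
    ∑ i, w i * ‖z i - c'‖ ^ 2 = ∑ i, w i * ‖z i - c‖ ^ 2 + ‖c - c'‖ ^ 2 := by
  have h0 : ∑ i, w i • (z i - c) = 0 := by
    simp_rw [smul_sub]
    rw [Finset.sum_sub_distrib, hb, ← Finset.sum_smul, w1, one_smul, sub_self]
  have h1 : ∀ i, w i * ‖z i - c'‖ ^ 2 = w i * ‖z i - c‖ ^ 2 + w i * ‖c - c'‖ ^ 2 +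
      2 * inner ℝ (w i • (z i - c)) (c - c') := by
    intro i
    have : z i - c' = (z i - c) + (c - c') := by abel
    rw [this, norm_add_sq_real, real_inner_smul_left]
    ring
  simp_rw [h1]
  rw [Finset.sum_add_distrib, Finset.sum_add_distrib, ← Finset.sum_mul, w1, ← Finset.mul_sum,
    ← sum_inner, h0, inner_zero_left]
  ring

/-- converse : contact points with barycentre `c` certify radius and centre -/
theorem cert_sq {S : Set E} {c : E} {r : ℝ} (hr : 0 ≤ r)
    {ι : Type*} [Fintype ι] {w : ι → ℝ} {z : ι → E} (w0 : ∀ i, 0 ≤ w i) (w1 : ∑ i, w i = 1)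
    (hz : ∀ i, z i ∈ S) (hct : ∀ i, ‖z i - c‖ = r) (hb : ∑ i, w i • z i = c)
    {c' : E} {r' : ℝ} (h' : S ⊆ closedBall c' r') : r ^ 2 + ‖c - c'‖ ^ 2 ≤ r' ^ 2 := by
  have h1 := bary_sq w1 hb c'
  simp_rw [hct] at h1
  rw [← Finset.sum_mul, w1, one_mul] at h1
  rw [← h1]
  calc ∑ i, w i * ‖z i - c'‖ ^ 2 ≤ ∑ i, w i * r' ^ 2 := by
        refine Finset.sum_le_sum fun i _ => mul_le_mul_of_nonneg_left ?_ (w0 i)
        have : ‖z i - c'‖ ≤ r' := by simpa [dist_eq_norm] using h' (hz i)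
        gcongr
    _ = r' ^ 2 := by rw [← Finset.sum_mul, w1, one_mul]

theorem cert [CompleteSpace E] {S : Set E} {c : E} {r : ℝ} (hr : 0 ≤ r)
    (hS : S ⊆ closedBall c r)
    {ι : Type*} [Fintype ι] {w : ι → ℝ} {z : ι → E} (w0 : ∀ i, 0 ≤ w i) (w1 : ∑ i, w i = 1)
    (hz : ∀ i, z i ∈ S) (hct : ∀ i, ‖z i - c‖ = r) (hb : ∑ i, w i • z i = c) :
    Rs S = r ∧ cen S = c := by
  have hSb : Bornology.IsBounded S := isBounded_closedBall.subset hS
  have h1 := cert_sq hr w0 w1 hz hct hb (subset_cen hSb)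
  have h2 := Rs_le hr hS
  have h3 := Rs_nonneg S
  have h4 : r ^ 2 ≤ Rs S ^ 2 := by nlinarith [sq_nonneg ‖c - cen S‖]
  have h5 : r ≤ Rs S := by
    exact le_of_sq_le_sq h4 h3
  have h6 : Rs S = r := le_antisymm h2 h5
  refine ⟨h6, ?_⟩
  rw [h6] at h1
  have h7 : ‖c - cen S‖ ^ 2 ≤ 0 := by linarith
  have h8 : ‖c - cen S‖ = 0 :=
    (pow_eq_zero_iff two_ne_zero).1 (le_antisymm h7 (sq_nonneg _))
  exact (sub_eq_zero.1 (norm_eq_zero.1 h8)).symm

/-- The convex hull of a compact set in finite dimension is compact. -/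
lemma isCompact_hull [FiniteDimensional ℝ E] {A : Set E} (hA : IsCompact A) :
    IsCompact (convexHull ℝ A) := by
  set n := Module.finrank ℝ E + 1 with hn
  have key : convexHull ℝ A = ⋃ k ∈ Finset.range (n + 1),
      (fun p : (Fin k → ℝ) × (Fin k → E) => ∑ i, p.1 i • p.2 i) ''
        (stdSimplex ℝ (Fin k) ×ˢ (Set.univ.pi fun _ => A)) := by
    apply Set.Subset.antisymm
    · intro x hx
      obtain ⟨ι, hι, z, w, hz, hai, hw, hw1, hx⟩ := eq_pos_convex_span_of_mem_convexHull hx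
      have hcard : Fintype.card ι ≤ n := by
        refine hai.card_le_finrank_succ.trans ?_
        have := Submodule.finrank_le (vectorSpan ℝ (Set.range z))
        omega
      set e := Fintype.equivFin ι with he
      simp only [Set.mem_iUnion, Finset.mem_range]
      refine ⟨Fintype.card ι, by omega, ⟨fun i => w (e.symm i), fun i => z (e.symm i)⟩, ?_, ?_⟩
      · refine ⟨⟨fun i => (hw _).le, ?_⟩, fun i _ => hz ⟨_, rfl⟩⟩
        show ∑ i, w (e.symm i) = 1
        rw [← hw1]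
        exact e.symm.sum_comp w
      · show ∑ i, w (e.symm i) • z (e.symm i) = x
        rw [← hx]
        exact e.symm.sum_comp (fun i => w i • z i)
    · intro x hx
      simp only [Set.mem_iUnion] at hx
      obtain ⟨k, -, ⟨w, z⟩, ⟨hw, hz⟩, rfl⟩ := hx
      exact mem_convexHull_iff_exists_fintype.2
        ⟨Fin k, inferInstance, w, z, hw.1, hw.2, fun i => hz i (Set.mem_univ _), rfl⟩
  rw [key]
  refine (Finset.range (n + 1)).isCompact_biUnion fun k _ => ?_
  refine IsCompact.image ((isCompact_stdSimplex (𝕜 := ℝ) (ι := Fin k)).prod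
    (isCompact_univ_pi fun _ => hA)) ?_
  fun_prop

/-- moving the centre strictly improves the radius if the centre can be separated from the
contact points -/
theorem cen_mem_convexHull [FiniteDimensional ℝ E] {S : Set E} (hS : IsCompact S)
    (hne : S.Nonempty) : cen S ∈ convexHull ℝ (S ∩ sphere (cen S) (Rs S)) := by
  have : CompleteSpace E := FiniteDimensional.complete ℝ E
  set c := cen S with hc
  set R := Rs S with hR
  have hsub : S ⊆ closedBall c R := subset_cen hS.isBounded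
  by_contra hcon
  have hT : IsCompact (S ∩ sphere c R) := hS.inter_right isClosed_sphere
  have hK : IsCompact (convexHull ℝ (S ∩ sphere c R)) := isCompact_hull hT
  obtain ⟨f, u, hfu, hfb⟩ := geometric_hahn_banach_point_closed (convex_convexHull ℝ _)
    hK.isClosed hcon
  obtain ⟨v, hv⟩ : ∃ v : E, ∀ y, f y = inner ℝ v y :=
    ⟨(InnerProductSpace.toDual ℝ E).symm f, fun y => by simp⟩
  set δ := u - f c with hδ
  have hδ0 : 0 < δ := by linarith
  have hT' : ∀ x ∈ S, ‖x - c‖ = R → δ < inner ℝ v (x - c) := by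
    intro x hx hxR
    have := hfb x (subset_convexHull ℝ _ ⟨hx, by simpa [dist_eq_norm] using hxR⟩)
    rw [inner_sub_right, ← hv, ← hv]
    linarith
  -- points with small inner product stay away from the sphere
  set B := S ∩ {x | inner ℝ v (x - c) ≤ δ / 2} with hB
  have hBc : IsCompact B := hS.inter_right (isClosed_le (by fun_prop) (by fun_prop))
  obtain ⟨ρ, hρR, hρ⟩ : ∃ ρ < R, ∀ x ∈ B, ‖x - c‖ ≤ ρ := by
    rcases B.eq_empty_or_nonempty with hBe | hBne
    · exact ⟨R - 1, by linarith, by simp [hBe]⟩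
    · obtain ⟨x0, hx0, hmax⟩ := hBc.exists_isMaxOn hBne
        (f := fun x => ‖x - c‖) (by fun_prop)
      refine ⟨‖x0 - c‖, ?_, fun x hx => hmax hx⟩
      have h1 : ‖x0 - c‖ ≤ R := by simpa [dist_eq_norm] using hsub hx0.1
      refine lt_of_le_of_ne h1 fun h => ?_
      have := hT' x0 hx0.1 h
      have h2 : inner ℝ v (x0 - c) ≤ δ / 2 := hx0.2
      linarith
  -- the step
  obtain ⟨ε, hε0, hε1, hε2⟩ : ∃ ε : ℝ, 0 < ε ∧ ε * ‖v‖ ^ 2 < δ ∧ ρ + ε * ‖v‖ < R := by
    have h1 : ∀ᶠ ε : ℝ in 𝓝[>] 0, ε * ‖v‖ ^ 2 < δ := by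
      have : Tendsto (fun ε : ℝ => ε * ‖v‖ ^ 2) (𝓝[>] 0) (𝓝 (0 * ‖v‖ ^ 2)) :=
        ((continuous_id.mul continuous_const).tendsto 0).mono_left nhdsWithin_le_nhds
      exact this.eventually_lt_const (by simpa using hδ0)
    have h2 : ∀ᶠ ε : ℝ in 𝓝[>] 0, ρ + ε * ‖v‖ < R := by
      have : Tendsto (fun ε : ℝ => ρ + ε * ‖v‖) (𝓝[>] 0) (𝓝 (ρ + 0 * ‖v‖)) :=
        ((continuous_const.add (continuous_id.mul continuous_const)).tendsto 0).mono_left
          nhdsWithin_le_nhds
      exact this.eventually_lt_const (by simpa using hρR)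
    have h0 : ∀ᶠ ε : ℝ in 𝓝[>] 0, 0 < ε := eventually_mem_nhdsWithin
    obtain ⟨ε, h3, h4, h5⟩ := (h0.and (h1.and h2)).exists
    exact ⟨ε, h3, h4, h5⟩
  have hall : ∀ x ∈ S, ‖x - (c + ε • v)‖ ≤
      max (Real.sqrt (R ^ 2 - ε * (δ - ε * ‖v‖ ^ 2))) (ρ + ε * ‖v‖) := by
    intro x hx
    by_cases hxB : x ∈ B
    · refine le_max_of_le_right ?_
      calc ‖x - (c + ε • v)‖ = ‖(x - c) - ε • v‖ := by congr 1; abel
        _ ≤ ‖x - c‖ + ‖ε • v‖ := norm_sub_le _ _
        _ ≤ ρ + ε * ‖v‖ := by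
            rw [norm_smul, Real.norm_eq_abs, abs_of_pos hε0]
            linarith [hρ x hxB]
    · refine le_max_of_le_left (Real.le_sqrt_of_sq_le ?_)
      have h1 : δ / 2 < inner ℝ v (x - c) := by
        by_contra h; exact hxB ⟨hx, not_lt.1 h⟩
      have h2 : ‖x - c‖ ≤ R := by simpa [dist_eq_norm] using hsub hx
      have h3 : ‖x - c‖ ^ 2 ≤ R ^ 2 := by gcongr
      have h4 : x - (c + ε • v) = (x - c) - ε • v := by abel
      rw [h4, norm_sub_sq_real, inner_smul_right, real_inner_comm, norm_smul, mul_pow,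
        Real.norm_eq_abs, sq_abs]
      nlinarith
  have hfin : max (Real.sqrt (R ^ 2 - ε * (δ - ε * ‖v‖ ^ 2))) (ρ + ε * ‖v‖) < R := by
    refine max_lt ?_ hε2
    obtain ⟨x0, hx0⟩ := hne
    have hR0 : 0 < R := by
      by_contra h
      have hR00 : R = 0 := le_antisymm (not_lt.1 h) (Rs_nonneg S)
      have h1 : ‖x0 - c‖ ≤ R := by simpa [dist_eq_norm] using hsub hx0
      have h2 : ‖x0 - c‖ = 0 := le_antisymm (h1.trans hR00.le) (norm_nonneg _)
      have h3 := hT' x0 hx0 (h2.trans hR00.symm)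
      rw [norm_eq_zero.1 h2, inner_zero_right] at h3
      linarith
    rw [Real.sqrt_lt' hR0]
    have : 0 < ε * (δ - ε * ‖v‖ ^ 2) := by
      apply mul_pos hε0; linarith
    linarith
  have := Rs_le' hne (c := c + ε • v) (fun x hx => by
    rw [mem_closedBall, dist_eq_norm]; exact hall x hx)
  linarith

/-- contact weights: finitely many contact points with barycentre the centre -/
theorem exists_weights [FiniteDimensional ℝ E] {S : Set E} (hS : IsCompact S)
    (hne : S.Nonempty) : ∃ (ι : Type) (_ : Fintype ι) (w : ι → ℝ) (z : ι → E),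
      (∀ i, 0 ≤ w i) ∧ ∑ i, w i = 1 ∧ (∀ i, z i ∈ S) ∧ (∀ i, ‖z i - cen S‖ = Rs S) ∧
      ∑ i, w i • z i = cen S := by
  obtain ⟨ι, hι, w, z, w0, w1, hz, hb⟩ :=
    (mem_convexHull_iff_exists_fintype (R := ℝ)).1 (cen_mem_convexHull hS hne)
  -- move the index type to `Fin n` (universe `Type`)
  let e := Fintype.equivFin ι
  refine ⟨Fin (Fintype.card ι), inferInstance, w ∘ e.symm, z ∘ e.symm, fun i => w0 _, ?_,
    fun i => (hz _).1, fun i => by simpa [dist_eq_norm] using (hz (e.symm i)).2, ?_⟩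
  · rw [← w1]; exact Equiv.sum_comp e.symm w
  · rw [← hb]; exact Equiv.sum_comp e.symm fun i => w i • z i

/-! ### contact data of a function -/

variable {X : Type*}

/-- finitely supported contact measure of `f` -/
structure CM (f : X → E) where
  ι : Type
  fin : Fintype ι
  w : ι → ℝ
  x : ι → X
  w0 : ∀ i, 0 ≤ w i
  w1 : ∑ i, w i = 1
  ct : ∀ i, ‖f (x i) - ce f‖ = Rc f
  bar : ∑ i, w i • f (x i) = ce f

attribute [instance] CM.fin

theorem exists_CM [FiniteDimensional ℝ E] [Nonempty X] {f : X → E} (hf : IsCompact (range f)) :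
    Nonempty (CM f) := by
  obtain ⟨ι, hι, w, z, w0, w1, hz, hct, hb⟩ := exists_weights hf (range_nonempty f)
  choose x hx using hz
  exact ⟨⟨ι, hι, w, x, w0, w1, fun i => by rw [hx]; exact hct i, by simp_rw [hx]; exact hb⟩⟩

/-- integral of `⟪f - c, g⟫` against the contact measure -/
def CM.I {f : X → E} (μ : CM f) (g : X → E) : ℝ :=
  ∑ i, μ.w i * inner ℝ (f (μ.x i) - ce f) (g (μ.x i))

lemma CM.zero {f : X → E} (μ : CM f) : ∑ i, μ.w i • (f (μ.x i) - ce f) = 0 := by
  simp_rw [smul_sub]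
  rw [Finset.sum_sub_distrib, μ.bar, ← Finset.sum_smul, μ.w1, one_smul, sub_self]

lemma CM.I_const {f : X → E} (μ : CM f) (d : E) : μ.I (fun _ => d) = 0 := by
  unfold CM.I
  simp_rw [← real_inner_smul_left]
  rw [← sum_inner, μ.zero, inner_zero_left]

lemma CM.I_sub {f : X → E} (μ : CM f) (g h : X → E) :
    μ.I (fun x => g x - h x) = μ.I g - μ.I h := by
  unfold CM.I
  rw [← Finset.sum_sub_distrib]
  refine Finset.sum_congr rfl fun i _ => ?_
  rw [inner_sub_right]; ring

lemma CM.I_add {f : X → E} (μ : CM f) (g h : X → E) :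
    μ.I (fun x => g x + h x) = μ.I g + μ.I h := by
  unfold CM.I
  rw [← Finset.sum_add_distrib]
  refine Finset.sum_congr rfl fun i _ => ?_
  rw [inner_add_right]; ring

lemma CM.I_smul {f : X → E} (μ : CM f) (t : ℝ) (g : X → E) :
    μ.I (fun x => t • g x) = t * μ.I g := by
  unfold CM.I
  rw [Finset.mul_sum]
  refine Finset.sum_congr rfl fun i _ => ?_
  rw [inner_smul_right]; ring

lemma CM.I_self {f : X → E} (μ : CM f) : μ.I f = Rc f ^ 2 := by
  have h := μ.I_sub f (fun _ => ce f)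
  rw [μ.I_const, sub_zero] at h
  rw [← h]
  unfold CM.I
  simp_rw [real_inner_self_eq_norm_sq, μ.ct]
  rw [← Finset.sum_mul, μ.w1, one_mul]

/-- subgradient inequality -/
theorem CM.I_le [CompleteSpace E] {f : X → E} (μ : CM f) {g : X → E} (hg : Bd g) :
    μ.I g ≤ Rc f * Rc g := by
  have h := μ.I_sub g (fun _ => ce g)
  rw [μ.I_const, sub_zero] at h
  rw [← h]
  unfold CM.I
  calc ∑ i, μ.w i * inner ℝ (f (μ.x i) - ce f) (g (μ.x i) - ce g)
      ≤ ∑ i, μ.w i * (Rc f * Rc g) := by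
        refine Finset.sum_le_sum fun i _ => mul_le_mul_of_nonneg_left ?_ (μ.w0 i)
        calc inner ℝ (f (μ.x i) - ce f) (g (μ.x i) - ce g)
            ≤ ‖f (μ.x i) - ce f‖ * ‖g (μ.x i) - ce g‖ := real_inner_le_norm _ _
          _ ≤ Rc f * Rc g := by
            rw [μ.ct]
            exact mul_le_mul_of_nonneg_left (norm_sub_ce hg _) (Rc_nonneg _)
    _ = Rc f * Rc g := by rw [← Finset.sum_mul, μ.w1, one_mul]

/-- quadratic lower bound: `Rc g ^ 2 ≥ Rc f ^ 2 + 2 I (g - f)` -/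
theorem CM.sq_ge [CompleteSpace E] {f : X → E} (μ : CM f) {g : X → E} (hg : Bd g) :
    Rc f ^ 2 + 2 * μ.I (fun x => g x - f x) ≤ Rc g ^ 2 := by
  rw [μ.I_sub, μ.I_self]
  nlinarith [μ.I_le hg, sq_nonneg (Rc f - Rc g)]

/-- the squared circumradius along a line -/
lemma sq_le_of_inner [Nonempty X] {f g : X → E} {c d : E} {R s M t : ℝ}
    (hf : ∀ x, ‖f x - c‖ ≤ R) (hg : ∀ x, ‖g x - d‖ ≤ M) (ht : 0 ≤ t)
    (hs : ∀ x, inner ℝ (f x - c) (g x - d) ≤ s) :
    Rc (fun x => f x + t • g x) ^ 2 ≤ R ^ 2 + 2 * t * s + t ^ 2 * M ^ 2 := by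
  have key : ∀ x, ‖f x + t • g x - (c + t • d)‖ ^ 2 ≤ R ^ 2 + 2 * t * s + t ^ 2 * M ^ 2 := by
    intro x
    have e : f x + t • g x - (c + t • d) = (f x - c) + t • (g x - d) := by
      rw [smul_sub]; abel
    rw [e, norm_add_sq_real, inner_smul_right, norm_smul, mul_pow, Real.norm_eq_abs, sq_abs]
    have h1 : ‖f x - c‖ ^ 2 ≤ R ^ 2 := by
      have := hf x
      gcongr
    have h2 : ‖g x - d‖ ^ 2 ≤ M ^ 2 := by
      have := hg x
      gcongr
    have h3 := mul_le_mul_of_nonneg_left (hs x) ht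
    have h4 := mul_le_mul_of_nonneg_left h2 (sq_nonneg t)
    linarith
  obtain ⟨x0⟩ := ‹Nonempty X›
  set A := R ^ 2 + 2 * t * s + t ^ 2 * M ^ 2
  have hA : 0 ≤ A := (sq_nonneg _).trans (key x0)
  have h1 : Rc (fun x => f x + t • g x) ≤ Real.sqrt A :=
    Rc_le (c := c + t • d) (Real.sqrt_nonneg A) fun x => Real.le_sqrt_of_sq_le (key x)
  calc Rc (fun x => f x + t • g x) ^ 2 ≤ Real.sqrt A ^ 2 := by
        have := Rc_nonneg (fun x => f x + t • g x)
        gcongr
    _ = A := Real.sq_sqrt hA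

/-- the same when the inner product is only controlled near the contact points -/
lemma sq_le_of_near [Nonempty X] {f g : X → E} {c d : E} {R s M η : ℝ} (hη : 0 < η)
    (hf : ∀ x, ‖f x - c‖ ≤ R) (hg : ∀ x, ‖g x - d‖ ≤ M)
    (hs : ∀ x, R - η < ‖f x - c‖ → inner ℝ (f x - c) (g x - d) ≤ s) :
    ∀ᶠ t : ℝ in 𝓝[>] 0, Rc (fun x => f x + t • g x) ^ 2 ≤
      max (R ^ 2 + 2 * t * s + t ^ 2 * M ^ 2) ((max (R - η) 0 + t * M) ^ 2) := by
  filter_upwards [self_mem_nhdsWithin] with t ht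
  have ht0 : (0 : ℝ) < t := ht
  obtain ⟨x0⟩ := ‹Nonempty X›
  have hM : 0 ≤ M := (norm_nonneg _).trans (hg x0)
  set A := max (R ^ 2 + 2 * t * s + t ^ 2 * M ^ 2) ((max (R - η) 0 + t * M) ^ 2)
  have key : ∀ x, ‖f x + t • g x - (c + t • d)‖ ^ 2 ≤ A := by
    intro x
    have e : f x + t • g x - (c + t • d) = (f x - c) + t • (g x - d) := by
      rw [smul_sub]; abel
    by_cases hx : R - η < ‖f x - c‖
    · refine le_max_of_le_left ?_
      rw [e, norm_add_sq_real, inner_smul_right, norm_smul, mul_pow, Real.norm_eq_abs, sq_abs]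
      have h1 : ‖f x - c‖ ^ 2 ≤ R ^ 2 := by
        have := hf x
        gcongr
      have h2 : ‖g x - d‖ ^ 2 ≤ M ^ 2 := by
        have := hg x
        gcongr
      have h3 := mul_le_mul_of_nonneg_left (hs x hx) ht0.le
      have h4 := mul_le_mul_of_nonneg_left h2 (sq_nonneg t)
      linarith
    · refine le_max_of_le_right ?_
      have h1 : ‖f x - c‖ ≤ max (R - η) 0 := le_max_of_le_left (not_lt.1 hx)
      have h2 : ‖f x + t • g x - (c + t • d)‖ ≤ max (R - η) 0 + t * M := by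
        rw [e]
        refine (norm_add_le _ _).trans (add_le_add h1 ?_)
        rw [norm_smul, Real.norm_eq_abs, abs_of_pos ht0]
        exact mul_le_mul_of_nonneg_left (hg x) ht0.le
      gcongr
  have hA : 0 ≤ A := (sq_nonneg _).trans (key x0)
  have h1 : Rc (fun x => f x + t • g x) ≤ Real.sqrt A :=
    Rc_le (c := c + t • d) (Real.sqrt_nonneg A) fun x => Real.le_sqrt_of_sq_le (key x)
  calc Rc (fun x => f x + t • g x) ^ 2 ≤ Real.sqrt A ^ 2 := by
        have := Rc_nonneg (fun x => f x + t • g x)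
        gcongr
    _ = A := Real.sq_sqrt hA

/-! ### decreasing limits of compact sets -/

/-- circumradius of a decreasing (directed) intersection of compact sets -/
theorem Rs_iInter_lt {ι : Type*} [Nonempty ι] {S : ι → Set E}
    (hdir : Directed (· ⊇ ·) S) (hc : ∀ i, IsCompact (S i)) {ρ : ℝ}
    (h : Rs (⋂ i, S i) < ρ) : ∃ i, Rs (S i) < ρ := by
  obtain ⟨i0⟩ := ‹Nonempty ι›
  have hb : Bornology.IsBounded (⋂ i, S i) := (hc i0).isBounded.subset (iInter_subset _ _)
  obtain ⟨c, r, h0, hr, hsub⟩ := exists_lt hb h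
  have hU : (⋂ i, S i) ⊆ ball c ((r + ρ) / 2) := fun x hx => by
    have := hsub hx
    rw [mem_closedBall] at this
    rw [mem_ball]; linarith
  obtain ⟨i, hi⟩ := exists_subset_nhds_of_isCompact hdir hc
    (fun x hx => isOpen_ball.mem_nhds (hU hx))
  refine ⟨i, lt_of_le_of_lt (Rs_le (c := c) (by linarith : 0 ≤ (r + ρ) / 2)
    (hi.trans ball_subset_closedBall)) (by linarith)⟩

end

end Crest.Agent.R105.Crd_927
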