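import Crest.Agent.R193.Planar2

/-!
# Row 105, S0138, node E13 (499 #11166 (3)): the CROSSING lemma (helper286)

`cross` : `K` compact = the rectangle `Q = [α, β] × [b, c]` with vertical teeth (`Comb`), `A`, `B`
disjoint open connected plane sets off `K`, `A` to the right of the line `x = σ₀` (`α < σ₀`),
containing a vertical segment `{σ₁} × (c, c+d]` above `Q` and a vertical segment `{σ₂} × [b-d, b)`
below `Q`; then `B` cannot contain points arbitrarily close to `K` with `x > σ₃ > max σ₁ σ₂` and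
also a point with `x ≤ σ₀`.  NO condition on the teeth of `K` between `σ₀` and `σ₁`, `σ₂`
(the top-bottom continuum may cross `K`, only the left-right one has to stay off it), no condition
on the behaviour of `B` near the corners `(σ₀, c)`, `(σ₀, b)` (choose `η` after the path in `B`).
-/

set_option autoImplicit false

open Set Filter Topology Metric

namespace Crest.Agent.R105.Crs_286

open Crest.Agent.R193.Planar

private lemma hseg (a b y : ℝ) : IsCompact (Icc a b ×ˢ {y} : Set (ℝ × ℝ)) ∧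
    IsPreconnected (Icc a b ×ˢ {y} : Set (ℝ × ℝ)) :=
  ⟨isCompact_Icc.prod isCompact_singleton, isPreconnected_Icc.prod isPreconnected_singleton⟩

private lemma vseg (x a b : ℝ) : IsCompact ({x} ×ˢ Icc a b : Set (ℝ × ℝ)) ∧
    IsPreconnected ({x} ×ˢ Icc a b : Set (ℝ × ℝ)) :=
  ⟨isCompact_singleton.prod isCompact_Icc, isPreconnected_singleton.prod isPreconnected_Icc⟩

private lemma vseg' (x a b : ℝ) : IsCompact ({x} ×ˢ uIcc a b : Set (ℝ × ℝ)) ∧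
    IsPreconnected ({x} ×ˢ uIcc a b : Set (ℝ × ℝ)) := by
  rw [uIcc]; exact vseg _ _ _

private lemma un {S T : Set (ℝ × ℝ)} (hS : IsCompact S ∧ IsPreconnected S)
    (hT : IsCompact T ∧ IsPreconnected T) (z : ℝ × ℝ) (h1 : z ∈ S) (h2 : z ∈ T) :
    IsCompact (S ∪ T) ∧ IsPreconnected (S ∪ T) :=
  ⟨hS.1.union hT.1, hS.2.union z h1 h2 hT.2⟩

private lemma dist_pos {C Q : Set (ℝ × ℝ)} (hC : IsCompact C) (hQ : IsClosed Q)
    (h : Disjoint C Q) : ∃ r : ℝ, 0 < r ∧ ∀ z ∈ C, ∀ q ∈ Q, r < dist z q := by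
  obtain ⟨r, hr, h⟩ := Metric.exists_pos_forall_lt_edist hC hQ h
  refine ⟨r, by exact_mod_cast hr, fun z hz q hq => ?_⟩
  have := h z hz q hq
  rw [edist_nndist] at this
  have h2 : r < nndist z q := by exact_mod_cast this
  exact_mod_cast h2

/-- a rectangle with vertical teeth -/
structure Comb (α β b c : ℝ) (K : Set (ℝ × ℝ)) : Prop where
  cpt : IsCompact K
  rect : Icc α β ×ˢ Icc b c ⊆ K
  sec : ∀ q ∈ K, q.1 ∈ Icc α β ∧ ∀ y ∈ uIcc ((b + c) / 2) q.2, (q.1, y) ∈ K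

/-- the core configuration -/
theorem cross_core {α β b c σ₀ σ₁ σ₂ d M : ℝ} {K C D : Set (ℝ × ℝ)} {p w₀ q : ℝ × ℝ} {δ η : ℝ}
    (hK : Comb α β b c K)
    (hb : b ≤ c) (h0 : α < σ₀) (h1 : σ₀ < σ₁) (h2 : σ₀ < σ₂) (h1' : σ₁ < β) (h2' : σ₂ < β)
    (hη : 0 < η) (hηd : η < d)
    (hC : IsCompact C ∧ IsPreconnected C) (hD : IsCompact D ∧ IsPreconnected D)
    (hCD : ∀ z ∈ C, z ∉ D) (hCx : ∀ z ∈ C, σ₀ < z.1) (hDx : ∀ z ∈ D, σ₀ ≤ z.1)
    (hCM : ∀ z ∈ C, |z.1| ≤ M ∧ |z.2| ≤ M) (hDM : ∀ z ∈ D, |z.1| ≤ M ∧ |z.2| ≤ M)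
    (hCQ : ∀ z ∈ C, ∀ q ∈ K, δ < dist z q) (hDQ : ∀ z ∈ D, ∀ q ∈ K, η < dist z q)
    (c1 : (σ₁, c + d) ∈ C) (c2 : (σ₂, b - d) ∈ C)
    (s1 : ∀ y ∈ Ioc c (c + d), (σ₁, y) ∉ D) (s2 : ∀ y ∈ Ico (b - d) b, (σ₂, y) ∉ D)
    (hpD : p ∈ D) (hwD : w₀ ∈ D) (hw : w₀.1 = σ₀) (hp1 : σ₁ < p.1) (hp2 : σ₂ < p.1)
    (hqK : q ∈ K) (hqM : |q.1| ≤ M ∧ |q.2| ≤ M) (hq1 : σ₁ < q.1) (hq2 : σ₂ < q.1)
    (hpq : dist p q < δ) : False := by
  have hMx := hDM p hpD
  have hM1 := hCM _ c1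
  have hM2 := hCM _ c2
  have hM0 := hDM _ hwD
  simp only [abs_le] at hMx hM1 hM2 hM0
  obtain ⟨⟨hMx1, hMx2⟩, hMx3, hMx4⟩ := hMx
  obtain ⟨⟨hM11, hM12⟩, hM13, hM14⟩ := hM1
  obtain ⟨⟨hM21, hM22⟩, hM23, hM24⟩ := hM2
  obtain ⟨⟨hM01, hM02⟩, hM03, hM04⟩ := hM0
  have hδ : 0 < δ := dist_nonneg.trans_lt hpq
  have hqM' := hqM
  simp only [abs_le] at hqM'
  obtain ⟨⟨hQ1, hQ2⟩, hQ3, hQ4⟩ := hqM'
  obtain ⟨⟨hqα, hqβ⟩, hqsec⟩ := hK.sec q hqK
  set m : ℝ := (b + c) / 2 with hm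
  have hm1 : b ≤ m := by rw [hm]; linarith
  have hm2 : m ≤ c := by rw [hm]; linarith
  set ρ : ℝ := max α (σ₀ - 1) with hρ
  have hρ0 : ρ < σ₀ := by rw [hρ]; exact max_lt h0 (by linarith)
  have hρ1 : σ₀ - 1 ≤ ρ := le_max_right _ _
  -- the height at `w₀`
  have hσβ : σ₀ ≤ β := by linarith
  have hw0 : c + η < w₀.2 ∨ w₀.2 < b - η := by
    by_contra hcon
    push Not at hcon
    have hk := hDQ w₀ hwD (σ₀, max b (min c w₀.2)) (hK.rect ⟨⟨h0.le, hσβ⟩, le_max_left _ _,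
      max_le hb (min_le_left _ _)⟩)
    rw [Prod.dist_eq, Real.dist_eq, Real.dist_eq, hw, sub_self, abs_zero] at hk
    have h3 : |w₀.2 - max b (min c w₀.2)| ≤ η := by
      rw [abs_le]
      constructor
      · have : max b (min c w₀.2) ≤ w₀.2 + η := max_le (by linarith) ((min_le_right _ _).trans (by linarith))
        linarith
      · rcases le_total c w₀.2 with h | h
        · rw [min_eq_left h, max_eq_right hb]; linarith
        · rw [min_eq_right h]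
          have := le_max_right b w₀.2
          linarith
    rw [lt_max_iff] at hk
    rcases hk with hk | hk
    · linarith
    · linarith
  -- the target height
  obtain ⟨Y, hY, hYu⟩ : ∃ Y : ℝ, |Y| = M + 1 ∧ ∀ y ∈ uIcc w₀.2 Y, c + η < y ∨ y < b - η := by
    have hM00 : 0 ≤ M := by linarith
    rcases hw0 with h | h
    · refine ⟨M + 1, abs_of_nonneg (by linarith), fun y hy => Or.inl ?_⟩
      rw [uIcc_of_le (by linarith)] at hy
      exact h.trans_le hy.1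
    · refine ⟨-(M + 1), by rw [abs_neg]; exact abs_of_nonneg (by linarith), fun y hy => Or.inr ?_⟩
      rw [uIcc_of_ge (by linarith)] at hy
      exact hy.2.trans_lt h
  have hY1 : Y ≤ M + 1 := hY ▸ le_abs_self Y
  have hY2 : -(M + 1) ≤ Y := by have := neg_abs_le Y; rw [hY] at this; exact this
  -- the left-right continuum
  have hseg1 : ∀ z ∈ segment ℝ q p, σ₁ < z.1 ∧ σ₂ < z.1 ∧ |z.2| ≤ M ∧ dist z q < δ := by
    intro z hz
    have k1 : z ∈ ball q δ := (convex_ball q δ).segment_subset (mem_ball_self hδ) hpq hz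
    have k2 : z.1 ∈ segment ℝ q.1 p.1 := by
      obtain ⟨a, b, ha, hb, hab, rfl⟩ := hz
      exact ⟨a, b, ha, hb, hab, rfl⟩
    have k3 : z.2 ∈ segment ℝ q.2 p.2 := by
      obtain ⟨a, b, ha, hb, hab, rfl⟩ := hz
      exact ⟨a, b, ha, hb, hab, rfl⟩
    have k4 : z.1 ∈ Ioi σ₁ := (convex_Ioi σ₁).segment_subset hq1 hp1 k2
    have k5 : z.1 ∈ Ioi σ₂ := (convex_Ioi σ₂).segment_subset hq2 hp2 k2
    have k6 : z.2 ∈ Icc (-M) M := (convex_Icc (-M) M).segment_subset ⟨hQ3, hQ4⟩ ⟨hMx3, hMx4⟩ k3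
    exact ⟨k4, k5, abs_le.2 k6, k1⟩
  set L : Set (ℝ × ℝ) := Icc (-(M + 2)) q.1 ×ˢ {m} ∪ {q.1} ×ˢ uIcc m q.2 ∪ segment ℝ q p ∪ D ∪
    {σ₀} ×ˢ uIcc w₀.2 Y ∪ Icc σ₀ (M + 2) ×ˢ {Y} with hL
  have hLc : IsCompact L ∧ IsPreconnected L := by
    have k1 := un (hseg (-(M + 2)) q.1 m) (vseg' q.1 m q.2) (q.1, m) ⟨⟨by linarith, le_rfl⟩, rfl⟩
      ⟨rfl, left_mem_uIcc⟩
    have ks : IsCompact (segment ℝ q p) ∧ IsPreconnected (segment ℝ q p) := by
      refine ⟨?_, (convex_segment q p).isPreconnected⟩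
      rw [segment_eq_image]
      exact isCompact_Icc.image (by fun_prop)
    have k2 := un k1 ks q (Or.inr ⟨rfl, right_mem_uIcc⟩) (left_mem_segment ℝ q p)
    have k3 := un k2 hD p (Or.inr (right_mem_segment ℝ q p)) hpD
    have k4 := un k3 (vseg' σ₀ w₀.2 Y) w₀ (Or.inr hwD) ⟨hw, left_mem_uIcc⟩
    exact un k4 (hseg σ₀ (M + 2) Y) (σ₀, Y) (Or.inr ⟨rfl, right_mem_uIcc⟩)
      ⟨⟨le_rfl, by linarith⟩, rfl⟩
  -- the top-bottom continuum
  set T : Set (ℝ × ℝ) := {ρ} ×ˢ Icc (c + η) (M + 2) ∪ Icc ρ σ₁ ×ˢ {c + η} ∪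
    {σ₁} ×ˢ Icc (c + η) (c + d) ∪ C ∪ {σ₂} ×ˢ Icc (b - d) (b - η) ∪ Icc ρ σ₂ ×ˢ {b - η} ∪
    {ρ} ×ˢ Icc (-(M + 2)) (b - η) with hT
  have hTc : IsCompact T ∧ IsPreconnected T := by
    have k1 := un (vseg ρ (c + η) (M + 2)) (hseg ρ σ₁ (c + η)) (ρ, c + η)
      ⟨rfl, ⟨le_rfl, by linarith⟩⟩ ⟨⟨le_rfl, by linarith⟩, rfl⟩
    have k2 := un k1 (vseg σ₁ (c + η) (c + d)) (σ₁, c + η) (Or.inr ⟨⟨by linarith, le_rfl⟩, rfl⟩)
      ⟨rfl, ⟨le_rfl, by linarith⟩⟩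
    have k3 := un k2 hC (σ₁, c + d) (Or.inr ⟨rfl, ⟨by linarith, le_rfl⟩⟩) c1
    have k4 := un k3 (vseg σ₂ (b - d) (b - η)) (σ₂, b - d) (Or.inr c2)
      ⟨rfl, ⟨le_rfl, by linarith⟩⟩
    have k5 := un k4 (hseg ρ σ₂ (b - η)) (σ₂, b - η) (Or.inr ⟨rfl, ⟨by linarith, le_rfl⟩⟩)
      ⟨⟨by linarith, le_rfl⟩, rfl⟩
    exact un k5 (vseg ρ (-(M + 2)) (b - η)) (ρ, b - η) (Or.inr ⟨⟨le_rfl, by linarith⟩, rfl⟩)
      ⟨rfl, ⟨by linarith, le_rfl⟩⟩
  have hpy : ∀ y ∈ uIcc m q.2, |y| ≤ M + 1 := by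
    intro y hy
    have hmM : |m| ≤ M := by
      rw [abs_le]; constructor <;> linarith
    rcases le_total m q.2 with h | h
    · rw [uIcc_of_le h] at hy
      rw [abs_le] at hmM ⊢; constructor <;> linarith [hy.1, hy.2]
    · rw [uIcc_of_ge h] at hy
      rw [abs_le] at hmM ⊢; constructor <;> linarith [hy.1, hy.2]
  have hwy : ∀ y ∈ uIcc w₀.2 Y, |y| ≤ M + 1 := by
    intro y hy
    rw [abs_le]
    rcases le_total w₀.2 Y with h | h
    · rw [uIcc_of_le h] at hy; constructor <;> linarith [hy.1, hy.2]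
    · rw [uIcc_of_ge h] at hy; constructor <;> linarith [hy.1, hy.2]
  -- bounds
  have hLy : ∀ z ∈ L, z.2 ∈ Icc (-(M + 2)) (M + 2) := by
    rintro ⟨x, y⟩ (((((h | h) | h) | h) | h) | h)
    · obtain rfl : y = m := h.2
      constructor <;> linarith
    · have := hpy y h.2
      rw [abs_le] at this; constructor <;> linarith
    · have := (hseg1 _ h).2.2.1
      dsimp only at this
      rw [abs_le] at this; constructor <;> linarith
    · have := (hDM _ h).2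
      rw [abs_le] at this; constructor <;> linarith
    · have := hwy y h.2
      rw [abs_le] at this; constructor <;> linarith
    · obtain rfl : y = Y := h.2
      constructor <;> linarith
  have hTx : ∀ z ∈ T, z.1 ∈ Icc (-(M + 2)) (M + 2) := by
    rintro ⟨x, y⟩ ((((((h | h) | h) | h) | h) | h) | h)
    · obtain rfl : x = ρ := h.1
      constructor <;> linarith
    · have := h.1; constructor <;> linarith [this.1, this.2]
    · obtain rfl : x = σ₁ := h.1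
      constructor <;> linarith
    · have := (hCM _ h).1
      rw [abs_le] at this; constructor <;> linarith
    · obtain rfl : x = σ₂ := h.1
      constructor <;> linarith
    · have := h.1; constructor <;> linarith [this.1, this.2]
    · obtain rfl : x = ρ := h.1
      constructor <;> linarith
  obtain ⟨z, hzL, hzT⟩ := continua_cross (a := -(M + 2)) (b := M + 2) (c := -(M + 2)) (d := M + 2)
    hLc.1 hTc.1 hLc.2 hTc.2 hLy hTx
    ⟨(-(M + 2), m), Or.inl (Or.inl (Or.inl (Or.inl (Or.inl ⟨⟨le_rfl, by linarith⟩, rfl⟩)))), le_rfl⟩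
    ⟨(M + 2, Y), Or.inr ⟨⟨by linarith, le_rfl⟩, rfl⟩, le_rfl⟩
    ⟨(ρ, -(M + 2)), Or.inr ⟨rfl, ⟨le_rfl, by linarith⟩⟩, le_rfl⟩
    ⟨(ρ, M + 2), Or.inl (Or.inl (Or.inl (Or.inl (Or.inl (Or.inl ⟨rfl, ⟨by linarith, le_rfl⟩⟩))))),
      le_rfl⟩
  obtain ⟨x, y⟩ := z
  -- now the table of disjointness
  have nC : ∀ z w : ℝ × ℝ, w ∈ K → dist z w < δ → z ∉ C := fun z w hw hlt hz =>
    lt_asymm hlt (hCQ z hz w hw)
  have nC3 : ∀ x, x ≤ q.1 → (x, m) ∉ C := by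
    intro x hx hmem
    rcases le_or_gt α x with h | h
    · exact nC (x, m) (x, m) (hK.rect ⟨⟨h, hx.trans hqβ⟩, hm1, hm2⟩) (by rw [dist_self]; exact hδ)
        hmem
    · have := hCx _ hmem
      dsimp only at this
      linarith
  have nD : ∀ x ∈ Icc σ₀ β, (x, c + η) ∉ D ∧ (x, b - η) ∉ D := by
    intro x hx
    constructor
    · intro hmem
      have := hDQ _ hmem (x, c) (hK.rect ⟨⟨by linarith [hx.1], hx.2⟩, hb, le_rfl⟩)
      rw [Prod.dist_eq, Real.dist_eq, Real.dist_eq, lt_max_iff] at this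
      simp only [sub_self, abs_zero, add_sub_cancel_left] at this
      rw [abs_of_pos hη] at this
      rcases this with h | h <;> linarith
    · intro hmem
      have := hDQ _ hmem (x, b) (hK.rect ⟨⟨by linarith [hx.1], hx.2⟩, le_rfl, hb⟩)
      rw [Prod.dist_eq, Real.dist_eq, Real.dist_eq, lt_max_iff] at this
      have e : b - η - b = -η := by ring
      simp only [sub_self, abs_zero, e, abs_neg] at this
      rw [abs_of_pos hη] at this
      rcases this with h | h <;> linarith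
  have hL' : ((((((-(M + 2) ≤ x ∧ x ≤ q.1) ∧ y = m) ∨ (x = q.1 ∧ y ∈ uIcc m q.2)) ∨
      (x, y) ∈ segment ℝ q p) ∨ (x, y) ∈ D) ∨ (x = σ₀ ∧ y ∈ uIcc w₀.2 Y)) ∨
      ((σ₀ ≤ x ∧ x ≤ M + 2) ∧ y = Y) := hzL
  have hT' : ((((((x = ρ ∧ c + η ≤ y ∧ y ≤ M + 2) ∨ ((ρ ≤ x ∧ x ≤ σ₁) ∧ y = c + η)) ∨
      (x = σ₁ ∧ c + η ≤ y ∧ y ≤ c + d)) ∨ (x, y) ∈ C) ∨ (x = σ₂ ∧ b - d ≤ y ∧ y ≤ b - η)) ∨
      ((ρ ≤ x ∧ x ≤ σ₂) ∧ y = b - η)) ∨ (x = ρ ∧ -(M + 2) ≤ y ∧ y ≤ b - η) := hzT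
  have hYM : Y = M + 1 ∨ Y = -(M + 1) := by
    rcases abs_cases Y with h | h
    · left; linarith [h.1]
    · right; linarith [h.1]
  rcases hL' with (((((h | h) | h) | h) | h) | h)
  · -- horizontal at height m
    obtain ⟨⟨l1, l2⟩, l3⟩ := h
    rcases hT' with ((((((t | t) | t) | t) | t) | t) | t)
    · linarith [t.2.1]
    · linarith [t.2]
    · linarith [t.2.1]
    · rw [l3] at t; exact nC3 x l2 t
    · linarith [t.2.2]
    · linarith [t.2]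
    · linarith [t.2.2]
  · obtain ⟨l1, l2⟩ := h
    rcases hT' with ((((((t | t) | t) | t) | t) | t) | t)
    · linarith [t.1]
    · linarith [t.1.2]
    · linarith [t.1]
    · rw [l1] at t; exact nC _ (q.1, y) (hqsec y l2) (by rw [dist_self]; exact hδ) t
    · linarith [t.1]
    · linarith [t.1.2]
    · linarith [t.1]
  · obtain ⟨l1, l2, l3, l4⟩ := hseg1 _ h
    dsimp only at l1 l2 l3
    rcases hT' with ((((((t | t) | t) | t) | t) | t) | t)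
    · linarith [t.1]
    · linarith [t.1.2]
    · linarith [t.1]
    · exact nC _ q hqK l4 t
    · linarith [t.1]
    · linarith [t.1.2]
    · linarith [t.1]
  · have lx := hDx _ h
    dsimp only at lx
    rcases hT' with ((((((t | t) | t) | t) | t) | t) | t)
    · linarith [t.1]
    · rw [t.2] at h; exact (nD x ⟨lx, by linarith [t.1.2]⟩).1 h
    · rw [t.1] at h; exact s1 y ⟨by linarith [t.2.1], t.2.2⟩ h
    · exact hCD _ t h
    · rw [t.1] at h; exact s2 y ⟨t.2.1, by linarith [t.2.2]⟩ h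
    · rw [t.2] at h; exact (nD x ⟨lx, by linarith [t.1.2]⟩).2 h
    · linarith [t.1]
  · obtain ⟨l1, l2⟩ := h
    have l3 := hYu y l2
    rcases hT' with ((((((t | t) | t) | t) | t) | t) | t)
    · linarith [t.1]
    · rcases l3 with l3 | l3 <;> linarith [t.2]
    · linarith [t.1]
    · have := hCx _ t; dsimp only at this; linarith
    · linarith [t.1]
    · rcases l3 with l3 | l3 <;> linarith [t.2]
    · linarith [t.1]
  · obtain ⟨⟨l1, l2⟩, l3⟩ := h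
    rcases hT' with ((((((t | t) | t) | t) | t) | t) | t)
    · linarith [t.1]
    · rcases hYM with e | e <;> linarith [t.2]
    · rcases hYM with e | e <;> linarith [t.2.1, t.2.2]
    · have := (hCM _ t).2
      rw [abs_le] at this
      dsimp only at this
      rcases hYM with e | e <;> linarith [this.1, this.2]
    · rcases hYM with e | e <;> linarith [t.2.1, t.2.2]
    · rcases hYM with e | e <;> linarith [t.2]
    · linarith [t.1]

/-- **CROSS** (499 #11166 (3)) -/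
theorem cross {α β b c σ₀ σ₁ σ₂ σ₃ d : ℝ} {A B K : Set (ℝ × ℝ)} (hK : Comb α β b c K)
    (hb : b ≤ c) (h0 : α < σ₀) (h1 : σ₀ < σ₁) (h2 : σ₀ < σ₂) (h1' : σ₁ < β) (h2' : σ₂ < β)
    (h13 : σ₁ < σ₃) (h23 : σ₂ < σ₃)
    (hd : 0 < d) (hA : IsOpen A) (hAc : IsPreconnected A) (hB : IsOpen B) (hBc : IsPreconnected B)
    (hAB : Disjoint A B) (hAQ : Disjoint A K) (hBQ : Disjoint B K) (hAx : ∀ z ∈ A, σ₀ < z.1)
    (hT : ∀ y ∈ Ioc c (c + d), (σ₁, y) ∈ A) (hBt : ∀ y ∈ Ico (b - d) b, (σ₂, y) ∈ A)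
    (hp : ∀ ε > 0, ∃ p ∈ B, σ₃ < p.1 ∧ ∃ q ∈ K, dist p q < ε)
    (hl : ∃ l ∈ B, l.1 ≤ σ₀) : False := by
  have hQc : IsClosed K := hK.cpt.isClosed
  -- the continuum `C`
  obtain ⟨h, hh, hm1, hp1, hhA⟩ := exists_path_Icc hA hAc
    (hT (c + d) ⟨by linarith, le_rfl⟩) (hBt (b - d) ⟨le_rfl, by linarith⟩)
  set C : Set (ℝ × ℝ) := h '' Icc (-1) 1 with hCdef
  have hC : IsCompact C ∧ IsPreconnected C :=
    ⟨isCompact_Icc.image_of_continuousOn hh, isPreconnected_Icc.image _ hh⟩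
  have hCA : C ⊆ A := by rintro _ ⟨t, ht, rfl⟩; exact hhA t ht
  obtain ⟨δ, hδ, hCQ⟩ := dist_pos hC.1 hQc (hAQ.mono_left hCA)
  obtain ⟨p, hpB, hpx3, q, hqK, hpq⟩ := hp (min δ (min (σ₃ - σ₁) (σ₃ - σ₂)))
    (lt_min hδ (lt_min (by linarith) (by linarith)))
  have hpq1 : dist p q < δ := hpq.trans_le (min_le_left _ _)
  have hpx1 : σ₁ < p.1 := by linarith
  have hpx2 : σ₂ < p.1 := by linarith
  have hpq2 : p.1 - q.1 < min (σ₃ - σ₁) (σ₃ - σ₂) := by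
    have k1 : dist p.1 q.1 ≤ dist p q := by rw [Prod.dist_eq]; exact le_max_left _ _
    rw [Real.dist_eq] at k1
    exact ((le_abs_self _).trans k1).trans_lt (hpq.trans_le (min_le_right _ _))
  have hqx1 : σ₁ < q.1 := by
    have := hpq2.trans_le (min_le_left _ _); linarith
  have hqx2 : σ₂ < q.1 := by
    have := hpq2.trans_le (min_le_right _ _); linarith
  obtain ⟨l, hlB, hlx⟩ := hl
  -- the path `D`
  obtain ⟨g, hg, gm1, gp1, hgB⟩ := exists_path_Icc hB hBc hpB hlB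
  have hg1 : ContinuousOn (fun t => (g t).1) (Icc (-1) 1) := continuous_fst.comp_continuousOn hg
  have hKτ : IsCompact {t | t ∈ Icc (-1 : ℝ) 1 ∧ (g t).1 = σ₀} := by
    have : IsClosed {t | t ∈ Icc (-1 : ℝ) 1 ∧ (g t).1 = σ₀} := by
      have := hg1.preimage_isClosed_of_isClosed isClosed_Icc (isClosed_singleton (x := σ₀))
      exact this
    exact isCompact_Icc.of_isClosed_subset this fun t ht => ht.1
  have hsub : ∀ t ∈ Icc (-1 : ℝ) 1, (g t).1 ≤ σ₀ → ∃ t' ∈ Icc (-1 : ℝ) t, (g t').1 = σ₀ := by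
    intro t ht hle
    have hcont : ContinuousOn (fun t => (g t).1) (Icc (-1) t) :=
      hg1.mono (Icc_subset_Icc_right ht.2)
    have := intermediate_value_Icc' ht.1 hcont
    have hmem : σ₀ ∈ Icc ((g t).1) ((g (-1)).1) := ⟨hle, by rw [gm1]; linarith⟩
    obtain ⟨t', ht', e⟩ := this hmem
    exact ⟨t', ht', e⟩
  have hne : {t | t ∈ Icc (-1 : ℝ) 1 ∧ (g t).1 = σ₀}.Nonempty := by
    obtain ⟨t', ht', e⟩ := hsub 1 ⟨by norm_num, le_rfl⟩ (by rw [gp1]; exact hlx)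
    exact ⟨t', ht', e⟩
  obtain ⟨τ, ⟨hτ, hτe⟩, hleast⟩ := hKτ.exists_isLeast hne
  set D : Set (ℝ × ℝ) := g '' Icc (-1) τ with hDdef
  have hsubτ : Icc (-1) τ ⊆ Icc (-1 : ℝ) 1 := Icc_subset_Icc_right hτ.2
  have hD : IsCompact D ∧ IsPreconnected D :=
    ⟨isCompact_Icc.image_of_continuousOn (hg.mono hsubτ), isPreconnected_Icc.image _ (hg.mono hsubτ)⟩
  have hDB : D ⊆ B := by rintro _ ⟨t, ht, rfl⟩; exact hgB t (hsubτ ht)
  have hDx : ∀ z ∈ D, σ₀ ≤ z.1 := by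
    rintro _ ⟨t, ht, rfl⟩
    by_contra hcon
    push Not at hcon
    obtain ⟨t', ht', e⟩ := hsub t (hsubτ ht) hcon.le
    have h3 := hleast ⟨⟨ht'.1, ht'.2.trans (hsubτ ht).2⟩, e⟩
    have h4 : t' = t := le_antisymm ht'.2 (ht.2.trans h3)
    rw [h4] at e
    linarith
  obtain ⟨η', hη', hDQ⟩ := dist_pos hD.1 hQc (hBQ.mono_left hDB)
  set η : ℝ := min η' (d / 2) with hηdef
  have hη : 0 < η := lt_min hη' (by linarith)
  have hηd : η < d := (min_le_right _ _).trans_lt (by linarith)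
  obtain ⟨R1, hR1⟩ := ((hC.1.union hD.1).union hK.cpt).isBounded.subset_closedBall (0 : ℝ × ℝ)
  have hM : ∀ z ∈ C ∪ D ∪ K, |z.1| ≤ R1 ∧ |z.2| ≤ R1 := by
    intro z hz
    have := hR1 hz
    rw [mem_closedBall, Prod.dist_eq, max_le_iff, Real.dist_eq, Real.dist_eq] at this
    simpa using this
  refine cross_core (δ := δ) (η := η) (M := R1) (C := C) (D := D) (p := p) (w₀ := g τ) (q := q) hK
    hb h0 h1 h2
    h1' h2' hη hηd hC hD (fun z hz hz' => ?_) (fun z hz => hAx z (hCA hz)) hDx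
    (fun z hz => hM z (Or.inl (Or.inl hz))) (fun z hz => hM z (Or.inl (Or.inr hz))) hCQ
    (fun z hz q hq => (min_le_left _ _).trans_lt (hDQ z hz q hq)) ⟨-1, ⟨le_rfl, by norm_num⟩, hm1⟩
    ⟨1, ⟨by norm_num, le_rfl⟩, hp1⟩ (fun y hy hmem => ?_) (fun y hy hmem => ?_)
    ⟨-1, ⟨le_rfl, hτ.1⟩, gm1⟩ ⟨τ, ⟨hτ.1, le_rfl⟩, rfl⟩ hτe hpx1 hpx2 hqK (hM q (Or.inr hqK))
    hqx1 hqx2 hpq1
  · exact disjoint_left.1 hAB (hCA hz) (hDB hz')
  · exact disjoint_left.1 hAB (hT y hy) (hDB hmem)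
  · exact disjoint_left.1 hAB (hBt y hy) (hDB hmem)

/-- the mirror image: `A` to the left of the line `x = σ₀` -/
theorem cross_left {α β b c σ₀ σ₁ σ₂ σ₃ d : ℝ} {A B K : Set (ℝ × ℝ)} (hK : Comb α β b c K)
    (hb : b ≤ c) (h0 : σ₀ < β) (h1 : σ₁ < σ₀) (h2 : σ₂ < σ₀) (h1' : α < σ₁) (h2' : α < σ₂)
    (h13 : σ₃ < σ₁) (h23 : σ₃ < σ₂)
    (hd : 0 < d) (hA : IsOpen A) (hAc : IsPreconnected A) (hB : IsOpen B) (hBc : IsPreconnected B)
    (hAB : Disjoint A B) (hAQ : Disjoint A K) (hBQ : Disjoint B K) (hAx : ∀ z ∈ A, z.1 < σ₀)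
    (hT : ∀ y ∈ Ioc c (c + d), (σ₁, y) ∈ A) (hBt : ∀ y ∈ Ico (b - d) b, (σ₂, y) ∈ A)
    (hp : ∀ ε > 0, ∃ p ∈ B, p.1 < σ₃ ∧ ∃ q ∈ K, dist p q < ε)
    (hl : ∃ l ∈ B, σ₀ ≤ l.1) : False := by
  set r : ℝ × ℝ → ℝ × ℝ := fun z => (-z.1, z.2) with hr
  have hrc : Continuous r := (continuous_fst.neg).prodMk continuous_snd
  have hrr : ∀ z, r (r z) = z := fun z => by simp [hr]
  have hpre : ∀ S : Set (ℝ × ℝ), r ⁻¹' S = r '' S := fun S => by
    ext z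
    constructor
    · intro hz; exact ⟨r z, hz, hrr z⟩
    · rintro ⟨w, hw, rfl⟩; show r (r w) ∈ S; rw [hrr]; exact hw
  have hdist : ∀ z w, dist (r z) (r w) = dist z w := by
    intro z w
    simp only [hr, Prod.dist_eq, Real.dist_eq]
    rw [show -z.1 - -w.1 = -(z.1 - w.1) by ring, abs_neg]
  have hK' : Comb (-β) (-α) b c (r ⁻¹' K) := by
    refine ⟨by rw [hpre]; exact hK.cpt.image hrc, ?_, ?_⟩
    · rintro z ⟨⟨q1, q2⟩, q3⟩
      exact hK.rect ⟨⟨by simp only [hr]; linarith, by simp only [hr]; linarith⟩, q3⟩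
    · intro q hq
      obtain ⟨⟨k1, k2⟩, k3⟩ := hK.sec _ hq
      simp only [hr] at k1 k2 k3
      exact ⟨⟨by linarith, by linarith⟩, fun y hy => k3 y hy⟩
  refine cross (α := -β) (β := -α) (b := b) (c := c) (σ₀ := -σ₀) (σ₁ := -σ₁) (σ₂ := -σ₂)
    (σ₃ := -σ₃) (d := d) (K := r ⁻¹' K)
    (A := r ⁻¹' A) (B := r ⁻¹' B) hK' hb (by linarith) (by linarith) (by linarith) (by linarith)
    (by linarith) (by linarith) (by linarith) hd (hA.preimage hrc)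
    (by rw [hpre]; exact hAc.image _ hrc.continuousOn)
    (hB.preimage hrc) (by rw [hpre]; exact hBc.image _ hrc.continuousOn)
    (hAB.preimage r) (hAQ.preimage r) (hBQ.preimage r) ?_ ?_ ?_ ?_ ?_
  · intro z hz
    have := hAx _ hz
    simp only [hr] at this
    linarith
  · intro y hy
    show r (-σ₁, y) ∈ A
    simpa [hr] using hT y hy
  · intro y hy
    show r (-σ₂, y) ∈ A
    simpa [hr] using hBt y hy
  · intro ε hε
    obtain ⟨p, hpB, h3, q, hq, hlt⟩ := hp ε hε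
    refine ⟨r p, ?_, ?_, r q, ?_, by rw [hdist]; exact hlt⟩
    · show r (r p) ∈ B
      rw [hrr]; exact hpB
    · simp only [hr]; linarith
    · show r (r q) ∈ K
      rw [hrr]; exact hq
  · obtain ⟨l, hlB, hlx⟩ := hl
    refine ⟨r l, ?_, by simp only [hr]; linarith⟩
    show r (r l) ∈ B
    rw [hrr]; exact hlB

/-- a rectangle with vertical teeth, in `ℂ` -/
structure CombC (α β b c : ℝ) (K : Set ℂ) : Prop where
  cpt : IsCompact K
  rect : ∀ w : ℂ, w.re ∈ Icc α β → w.im ∈ Icc b c → w ∈ K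
  sec : ∀ w ∈ K, w.re ∈ Icc α β ∧ ∀ y ∈ uIcc ((b + c) / 2) w.im, (⟨w.re, y⟩ : ℂ) ∈ K

theorem CombC.toComb {α β b c : ℝ} {K : Set ℂ} (hK : CombC α β b c K) :
    Comb α β b c (Complex.equivRealProdCLM.symm ⁻¹' K) := by
  have hi : Complex.equivRealProdCLM.symm ⁻¹' K = Complex.equivRealProdCLM '' K :=
    (Complex.equivRealProdCLM.image_eq_preimage_symm K).symm
  refine ⟨by rw [hi]; exact hK.cpt.image Complex.equivRealProdCLM.continuous, ?_, ?_⟩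
  · rintro ⟨x, y⟩ ⟨hx, hy⟩
    exact hK.rect _ hx hy
  · rintro ⟨x, y⟩ hq
    exact hK.sec _ hq

/-- **CROSS** in `ℂ` -/
theorem crossC {α β b c σ₀ σ₁ σ₂ σ₃ d : ℝ} {A B K : Set ℂ} (hK : CombC α β b c K)
    (hb : b ≤ c) (h0 : α < σ₀) (h1 : σ₀ < σ₁) (h2 : σ₀ < σ₂) (h1' : σ₁ < β) (h2' : σ₂ < β)
    (h13 : σ₁ < σ₃) (h23 : σ₂ < σ₃)
    (hd : 0 < d) (hA : IsOpen A) (hAc : IsPreconnected A) (hB : IsOpen B) (hBc : IsPreconnected B)
    (hAB : Disjoint A B) (hAQ : Disjoint A K) (hBQ : Disjoint B K) (hAx : ∀ z ∈ A, σ₀ < z.re)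
    (hT : ∀ y ∈ Ioc c (c + d), (⟨σ₁, y⟩ : ℂ) ∈ A) (hBt : ∀ y ∈ Ico (b - d) b, (⟨σ₂, y⟩ : ℂ) ∈ A)
    (hp : ∀ ε > 0, ∃ p ∈ B, σ₃ < p.re ∧ ∃ q ∈ K, dist p q < ε)
    (hl : ∃ l ∈ B, l.re ≤ σ₀) : False := by
  set r : (ℝ × ℝ) ≃L[ℝ] ℂ := Complex.equivRealProdCLM.symm with hr
  have hpre : ∀ S : Set ℂ, r ⁻¹' S = Complex.equivRealProdCLM '' S := fun S =>
    (Complex.equivRealProdCLM.image_eq_preimage_symm S).symm
  have hcont := Complex.equivRealProdCLM.continuous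
  refine cross (d := d) (σ₀ := σ₀) (σ₁ := σ₁) (σ₂ := σ₂) (σ₃ := σ₃) (A := r ⁻¹' A) (B := r ⁻¹' B)
    hK.toComb hb h0 h1 h2 h1' h2' h13 h23 hd
    (hA.preimage r.continuous) (by rw [hpre]; exact hAc.image _ hcont.continuousOn)
    (hB.preimage r.continuous) (by rw [hpre]; exact hBc.image _ hcont.continuousOn)
    (hAB.preimage r) (hAQ.preimage r) (hBQ.preimage r) (fun z hz => hAx _ hz) hT hBt ?_ ?_
  · intro ε hε
    obtain ⟨p, hpB, h3, q, hq, hlt⟩ := hp ε hε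
    refine ⟨Complex.equivRealProdCLM p, ?_, h3, Complex.equivRealProdCLM q, ?_, ?_⟩
    · show r (r.symm p) ∈ B
      rw [r.apply_symm_apply]; exact hpB
    · show r (r.symm q) ∈ K
      rw [r.apply_symm_apply]; exact hq
    · refine lt_of_le_of_lt ?_ hlt
      rw [Prod.dist_eq, Complex.dist_eq, max_le_iff, Real.dist_eq, Real.dist_eq]
      have k1 := Complex.abs_re_le_norm (p - q)
      have k2 := Complex.abs_im_le_norm (p - q)
      rw [Complex.sub_re] at k1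
      rw [Complex.sub_im] at k2
      exact ⟨k1, k2⟩
  · obtain ⟨l, hlB, hlx⟩ := hl
    exact ⟨Complex.equivRealProdCLM l, by
      show r (r.symm l) ∈ B
      rw [r.apply_symm_apply]; exact hlB, hlx⟩

/-- the mirror image in `ℂ` -/
theorem crossC_left {α β b c σ₀ σ₁ σ₂ σ₃ d : ℝ} {A B K : Set ℂ} (hK : CombC α β b c K)
    (hb : b ≤ c) (h0 : σ₀ < β) (h1 : σ₁ < σ₀) (h2 : σ₂ < σ₀) (h1' : α < σ₁) (h2' : α < σ₂)
    (h13 : σ₃ < σ₁) (h23 : σ₃ < σ₂)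
    (hd : 0 < d) (hA : IsOpen A) (hAc : IsPreconnected A) (hB : IsOpen B) (hBc : IsPreconnected B)
    (hAB : Disjoint A B) (hAQ : Disjoint A K) (hBQ : Disjoint B K) (hAx : ∀ z ∈ A, z.re < σ₀)
    (hT : ∀ y ∈ Ioc c (c + d), (⟨σ₁, y⟩ : ℂ) ∈ A) (hBt : ∀ y ∈ Ico (b - d) b, (⟨σ₂, y⟩ : ℂ) ∈ A)
    (hp : ∀ ε > 0, ∃ p ∈ B, p.re < σ₃ ∧ ∃ q ∈ K, dist p q < ε)
    (hl : ∃ l ∈ B, σ₀ ≤ l.re) : False := by
  set r : (ℝ × ℝ) ≃L[ℝ] ℂ := Complex.equivRealProdCLM.symm with hr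
  have hpre : ∀ S : Set ℂ, r ⁻¹' S = Complex.equivRealProdCLM '' S := fun S =>
    (Complex.equivRealProdCLM.image_eq_preimage_symm S).symm
  have hcont := Complex.equivRealProdCLM.continuous
  refine cross_left (d := d) (σ₀ := σ₀) (σ₁ := σ₁) (σ₂ := σ₂) (σ₃ := σ₃) (A := r ⁻¹' A)
    (B := r ⁻¹' B) hK.toComb hb h0 h1 h2 h1' h2' h13 h23 hd
    (hA.preimage r.continuous) (by rw [hpre]; exact hAc.image _ hcont.continuousOn)
    (hB.preimage r.continuous) (by rw [hpre]; exact hBc.image _ hcont.continuousOn)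
    (hAB.preimage r) (hAQ.preimage r) (hBQ.preimage r) (fun z hz => hAx _ hz) hT hBt ?_ ?_
  · intro ε hε
    obtain ⟨p, hpB, h3, q, hq, hlt⟩ := hp ε hε
    refine ⟨Complex.equivRealProdCLM p, ?_, h3, Complex.equivRealProdCLM q, ?_, ?_⟩
    · show r (r.symm p) ∈ B
      rw [r.apply_symm_apply]; exact hpB
    · show r (r.symm q) ∈ K
      rw [r.apply_symm_apply]; exact hq
    · refine lt_of_le_of_lt ?_ hlt
      rw [Prod.dist_eq, Complex.dist_eq, max_le_iff, Real.dist_eq, Real.dist_eq]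
      have k1 := Complex.abs_re_le_norm (p - q)
      have k2 := Complex.abs_im_le_norm (p - q)
      rw [Complex.sub_re] at k1
      rw [Complex.sub_im] at k2
      exact ⟨k1, k2⟩
  · obtain ⟨l, hlB, hlx⟩ := hl
    exact ⟨Complex.equivRealProdCLM l, by
      show r (r.symm l) ∈ B
      rw [r.apply_symm_apply]; exact hlB, hlx⟩

end Crest.Agent.R105.Crs_286
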