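import Crest.Agent.R105.Sep1_590

/-!
# Row 105, S0138, node E13: CROSS, connectors inside the square (helper404)

Pure plane.  `Q = [al, al+s] × [b, b+s] ⊆ K0`, `C` a continuum in `{sg0 < re}` off `K0` from a point
above the top edge (abscissa `sg'`) to a point below the bottom edge (abscissa `sg''`), `D` open and
connected, off `K0` and `C` and the two vertical closing segments.  If `D` has a point with
`re ≤ sg0` and points arbitrarily close to `K0 ∩ {ka ≤ re}`, `sg', sg'' < ka`: contradiction.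
-/

set_option autoImplicit false

open Set Filter Topology Metric

namespace Crest.Agent.R105.Crs_404

noncomputable section

/-- horizontal segment -/
def hs (y x0 x1 : ℝ) : Set ℂ := (fun t : ℝ => (⟨t, y⟩ : ℂ)) '' Icc x0 x1

/-- vertical segment -/
def vs (x y0 y1 : ℝ) : Set ℂ := (fun t : ℝ => (⟨x, t⟩ : ℂ)) '' Icc y0 y1

theorem cont_h (y : ℝ) : Continuous fun t : ℝ => (⟨t, y⟩ : ℂ) := by
  have : (fun t : ℝ => (⟨t, y⟩ : ℂ)) = fun t : ℝ => (t : ℂ) + (y : ℂ) * Complex.I := by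
    funext t; apply Complex.ext <;> simp
  rw [this]; fun_prop

theorem cont_v (x : ℝ) : Continuous fun t : ℝ => (⟨x, t⟩ : ℂ) := by
  have : (fun t : ℝ => (⟨x, t⟩ : ℂ)) = fun t : ℝ => (x : ℂ) + (t : ℂ) * Complex.I := by
    funext t; apply Complex.ext <;> simp
  rw [this]; fun_prop

theorem hs_cpt (y x0 x1 : ℝ) : IsCompact (hs y x0 x1) := isCompact_Icc.image (cont_h y)
theorem vs_cpt (x y0 y1 : ℝ) : IsCompact (vs x y0 y1) := isCompact_Icc.image (cont_v x)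
theorem hs_con (y x0 x1 : ℝ) : IsPreconnected (hs y x0 x1) :=
  isPreconnected_Icc.image _ (cont_h y).continuousOn
theorem vs_con (x y0 y1 : ℝ) : IsPreconnected (vs x y0 y1) :=
  isPreconnected_Icc.image _ (cont_v x).continuousOn

theorem mem_hs {y x0 x1 : ℝ} {p : ℂ} (h : p ∈ hs y x0 x1) : p.im = y ∧ x0 ≤ p.re ∧ p.re ≤ x1 := by
  obtain ⟨t, ht, rfl⟩ := h
  exact ⟨rfl, ht.1, ht.2⟩

theorem mem_vs {x y0 y1 : ℝ} {p : ℂ} (h : p ∈ vs x y0 y1) : p.re = x ∧ y0 ≤ p.im ∧ p.im ≤ y1 := by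
  obtain ⟨t, ht, rfl⟩ := h
  exact ⟨rfl, ht.1, ht.2⟩

theorem in_hs {y x0 x1 t : ℝ} (h0 : x0 ≤ t) (h1 : t ≤ x1) : (⟨t, y⟩ : ℂ) ∈ hs y x0 x1 :=
  ⟨t, ⟨h0, h1⟩, rfl⟩

theorem in_vs {x y0 y1 t : ℝ} (h0 : y0 ≤ t) (h1 : t ≤ y1) : (⟨x, t⟩ : ℂ) ∈ vs x y0 y1 :=
  ⟨t, ⟨h0, h1⟩, rfl⟩

/-- first exit of a path -/
theorem first_exit {D : Set ℂ} (hDo : IsOpen D) (hDc : IsPreconnected D) {p q : ℂ} (hp : p ∈ D)
    (hq : q ∈ D) {σ : ℝ} (hpσ : σ < p.re) (hqσ : q.re ≤ σ) :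
    ∃ d ⊆ D, IsCompact d ∧ IsPreconnected d ∧ p ∈ d ∧ (∀ z ∈ d, σ ≤ z.re) ∧
      ∃ q0 ∈ d, q0.re = σ := by
  have hpc : IsPathConnected D := hDo.isConnected_iff_isPathConnected.1 ⟨⟨p, hp⟩, hDc⟩
  obtain ⟨γ, hγ⟩ := hpc.joinedIn p hp q hq
  set f : ℝ → ℝ := fun t => (γ.extend t).re with hf
  have hfc : Continuous f := Complex.continuous_re.comp γ.continuous_extend
  have hf0 : f 0 = p.re := by simp [hf]
  have hf1 : f 1 = q.re := by simp [hf]
  set S : Set ℝ := Icc 0 1 ∩ f ⁻¹' Iic σ with hS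
  have hScl : IsClosed S := isClosed_Icc.inter (isClosed_Iic.preimage hfc)
  have hSne : S.Nonempty := ⟨1, ⟨by simp, by simp only [mem_preimage, mem_Iic, hf1]; exact hqσ⟩⟩
  have hSbd : BddBelow S := ⟨0, fun t ht => ht.1.1⟩
  set τ := sInf S with hτ
  have hτS : τ ∈ S := hScl.csInf_mem hSne hSbd
  have hτ0 : 0 ≤ τ := hτS.1.1
  have hτ1 : τ ≤ 1 := hτS.1.2
  have hlow : ∀ t ∈ Icc (0 : ℝ) τ, t < τ → σ < f t := by
    intro t ht htτ
    by_contra hc
    exact absurd (csInf_le hSbd (show t ∈ S from ⟨⟨ht.1, ht.2.trans hτ1⟩, not_lt.1 hc⟩)) (not_le.2 htτ)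
  have hfτ : f τ = σ := by
    have hiv : σ ∈ f '' Icc 0 τ := by
      have := intermediate_value_Icc' hτ0 hfc.continuousOn
      exact this ⟨hτS.2, by rw [hf0]; exact hpσ.le⟩
    obtain ⟨t, ht, hft⟩ := hiv
    rcases ht.2.lt_or_eq with h | h
    · exact absurd (hlow t ht h) (by rw [hft]; exact lt_irrefl _)
    · rw [← h]; exact hft
  refine ⟨γ.extend '' Icc 0 τ, ?_, isCompact_Icc.image γ.continuous_extend,
    isPreconnected_Icc.image _ γ.continuous_extend.continuousOn, ⟨0, ⟨le_rfl, hτ0⟩, by simp⟩, ?_,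
    ⟨γ.extend τ, ⟨τ, ⟨hτ0, le_rfl⟩, rfl⟩, hfτ⟩⟩
  · rintro _ ⟨t, ht, rfl⟩
    have ht' : t ∈ Icc (0 : ℝ) 1 := ⟨ht.1, ht.2.trans hτ1⟩
    rw [γ.extend_apply ht']
    exact hγ _
  · rintro _ ⟨t, ht, rfl⟩
    rcases ht.2.lt_or_eq with h | h
    · exact (hlow t ht h).le
    · show σ ≤ f t
      rw [h, hfτ]

/-- **CROSS**, core form -/
theorem cross_core {K0 C D : Set ℂ} {al b s sg0 ka sg1 sg2 yT yB : ℝ} (hK0 : IsCompact K0)
    (hQ : ∀ p : ℂ, p.re ∈ Icc al (al + s) → p.im ∈ Icc b (b + s) → p ∈ K0) (hs0 : 0 < s)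
    (h0 : al < sg0) (h1 : sg0 < sg1) (h2 : sg0 < sg2) (h1k : sg1 < ka) (h2k : sg2 < ka)
    (hk : ka ≤ al + s) (hKc : IsPreconnected (K0 ∩ {p : ℂ | ka ≤ p.re}))
    (hC : IsCompact C) (hCc : IsPreconnected C) (hCr : ∀ p ∈ C, sg0 < p.re) (hCK : Disjoint C K0)
    (hT : (⟨sg1, yT⟩ : ℂ) ∈ C) (hTb : b + s < yT) (hB : (⟨sg2, yB⟩ : ℂ) ∈ C) (hBb : yB < b)
    (hDo : IsOpen D) (hDc : IsPreconnected D) (hDK : Disjoint D K0) (hDC : Disjoint D C)
    (hDT : ∀ y ∈ Icc (b + s) yT, (⟨sg1, y⟩ : ℂ) ∉ D) (hDB : ∀ y ∈ Icc yB b, (⟨sg2, y⟩ : ℂ) ∉ D)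
    (hDl : ∃ p ∈ D, p.re ≤ sg0)
    (hDn : ∀ ε > 0, ∃ p ∈ D, ∃ k ∈ K0, ka ≤ k.re ∧ dist p k < ε) : False := by
  -- the distance
  set K' : Set ℂ := K0 ∩ {p : ℂ | ka ≤ p.re} with hK'
  have hK'c : IsCompact K' := hK0.inter_right (isClosed_le continuous_const Complex.continuous_re)
  obtain ⟨r, hr0, hr⟩ := exists_pos_forall_lt_edist hC hK'c.isClosed (hCK.mono_right inter_subset_left)
  obtain ⟨ε, hε, hεr, hε1, hε2⟩ : ∃ ε : ℝ, 0 < ε ∧ ε ≤ r ∧ ε ≤ ka - sg1 ∧ ε ≤ ka - sg2 := by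
    refine ⟨min (r : ℝ) (min (ka - sg1) (ka - sg2)), ?_, min_le_left _ _,
      (min_le_right _ _).trans (min_le_left _ _), (min_le_right _ _).trans (min_le_right _ _)⟩
    refine lt_min (by exact_mod_cast hr0) (lt_min ?_ ?_) <;> linarith
  obtain ⟨p0, hp0, k0, hk0, hk0r, hpk⟩ := hDn ε hε
  have hre : ∀ z : ℂ, |z.re| ≤ ‖z‖ := Complex.abs_re_le_norm
  have him : ∀ z : ℂ, |z.im| ≤ ‖z‖ := Complex.abs_im_le_norm
  -- the segment
  have hseg : ∀ z ∈ segment ℝ k0 p0, dist z k0 < ε := by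
    intro z hz
    have hc : Convex ℝ (ball k0 ε) := convex_ball _ _
    exact hc.segment_subset (mem_ball_self hε) (mem_ball.2 hpk) hz
  have hsegre : ∀ z ∈ segment ℝ k0 p0, ka - ε < z.re := by
    intro z hz
    have h3 := (hre (z - k0)).trans_lt (by rw [← dist_eq_norm]; exact hseg z hz)
    rw [Complex.sub_re] at h3
    have := (abs_lt.1 h3).1
    linarith
  have hsegC : ∀ z ∈ segment ℝ k0 p0, z ∉ C := by
    intro z hz hzC
    have h3 := hr z hzC k0 ⟨hk0, hk0r⟩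
    rw [edist_dist] at h3
    have h4 : (r : ℝ) < dist z k0 := by
      have := (ENNReal.lt_ofReal_iff_toReal_lt ENNReal.coe_ne_top).1 h3
      simpa using this
    exact absurd (hseg z hz) (not_lt.2 (hεr.trans h4.le))
  have hp0re : ka - ε < p0.re := hsegre p0 (right_mem_segment ℝ k0 p0)
  obtain ⟨q, hqD, hqr⟩ := hDl
  obtain ⟨d, hdD, hdc, hdcon, hp0d, hdr, q0, hq0, hq0r⟩ :=
    first_exit hDo hDc hp0 hqD (σ := sg0) (by linarith) hqr
  -- bound
  have hsegc : IsCompact (segment ℝ k0 p0) := by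
    rw [segment_eq_image]
    exact isCompact_Icc.image (by fun_prop)
  obtain ⟨R, hR⟩ := ((hK0.union hC).union (hdc.union hsegc)).isBounded.exists_norm_le
  obtain ⟨M, hM⟩ : ∃ M : ℝ, M = R + 1 := ⟨_, rfl⟩
  have hRK : ∀ z ∈ K0, ‖z‖ < M := fun z hz => by
    rw [hM]; exact (hR z (Or.inl (Or.inl hz))).trans_lt (lt_add_one _)
  have hRC : ∀ z ∈ C, ‖z‖ < M := fun z hz => by
    rw [hM]; exact (hR z (Or.inl (Or.inr hz))).trans_lt (lt_add_one _)
  have hRd : ∀ z ∈ d, ‖z‖ < M := fun z hz => by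
    rw [hM]; exact (hR z (Or.inr (Or.inl hz))).trans_lt (lt_add_one _)
  have hRs : ∀ z ∈ segment ℝ k0 p0, ‖z‖ < M := fun z hz => by
    rw [hM]; exact (hR z (Or.inr (Or.inr hz))).trans_lt (lt_add_one _)
  -- the numbers
  obtain ⟨x1, hx1⟩ : ∃ x : ℝ, x = (al + sg0) / 2 := ⟨_, rfl⟩
  obtain ⟨ys, hys⟩ : ∃ x : ℝ, x = b + s / 2 := ⟨_, rfl⟩
  obtain ⟨y1, hy1⟩ : ∃ x : ℝ, x = b + s / 4 := ⟨_, rfl⟩
  obtain ⟨y2, hy2⟩ : ∃ x : ℝ, x = b + 3 * s / 4 := ⟨_, rfl⟩
  have hQ' : ∀ x y : ℝ, al ≤ x → x ≤ ka → b ≤ y → y ≤ b + s → (⟨x, y⟩ : ℂ) ∈ K0 :=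
    fun x y a1 a2 a3 a4 => hQ _ ⟨a1, a2.trans hk⟩ ⟨a3, a4⟩
  have hbK : ∀ x y : ℝ, al ≤ x → x ≤ ka → b ≤ y → y ≤ b + s → |x| < M ∧ |y| < M :=
    fun x y a1 a2 a3 a4 => ⟨(hre ⟨x, y⟩).trans_lt (hRK _ (hQ' x y a1 a2 a3 a4)),
      (him ⟨x, y⟩).trans_lt (hRK _ (hQ' x y a1 a2 a3 a4))⟩
  have hq0K : q0 ∉ K0 := fun h => disjoint_left.1 hDK (hdD hq0) h
  have hq0im : b + s < q0.im ∨ q0.im < b := by
    by_contra hc
    push Not at hc
    refine hq0K ?_
    have := hQ' q0.re q0.im (by rw [hq0r]; linarith) (by rw [hq0r]; linarith) hc.2 hc.1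
    exact this
  have hyT : |yT| < M := (him ⟨sg1, yT⟩).trans_lt (hRC _ hT)
  have hyB : |yB| < M := (him ⟨sg2, yB⟩).trans_lt (hRC _ hB)
  have hb1 := hbK x1 y1 (by linarith) (by linarith) (by linarith) (by linarith)
  have hb2 := hbK sg0 y2 (by linarith) (by linarith) (by linarith) (by linarith)
  have hb3 := hbK ka ys (by linarith) (by linarith) (by linarith) (by linarith)
  have hq0M : |q0.im| < M := (him q0).trans_lt (hRd q0 hq0)
  have hMpos : 0 < M := (abs_nonneg _).trans_lt hq0M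
  rw [abs_lt] at hyT hyB hq0M
  obtain ⟨hb1a, hb1b⟩ := hb1
  obtain ⟨hb2a, hb2b⟩ := hb2
  obtain ⟨hb3a, hb3b⟩ := hb3
  rw [abs_lt] at hb1a hb1b hb2a hb2b hb3a hb3b
  have hb4 := hbK sg1 y1 (by linarith) (by linarith) (by linarith) (by linarith)
  have hb5 := hbK sg2 y1 (by linarith) (by linarith) (by linarith) (by linarith)
  have hb4a := abs_lt.1 hb4.1
  have hb5a := abs_lt.1 hb5.1
  -- the vertical continuum
  set V : Set ℂ := vs x1 (-M) y1 ∪ hs y1 x1 sg2 ∪ vs sg2 yB y1 ∪ C ∪ vs sg1 y2 yT ∪ hs y2 x1 sg1 ∪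
    vs x1 y2 M with hV
  have hVcpt : IsCompact V := (((((((vs_cpt _ _ _).union (hs_cpt _ _ _)).union (vs_cpt _ _ _)).union
    hC).union (vs_cpt _ _ _)).union (hs_cpt _ _ _)).union (vs_cpt _ _ _))
  have hVcon : IsPreconnected V := by
    have c1 : IsPreconnected (vs x1 (-M) y1 ∪ hs y1 x1 sg2) :=
      IsPreconnected.union ⟨x1, y1⟩ (in_vs (by linarith) le_rfl) (in_hs le_rfl (by linarith))
        (vs_con _ _ _) (hs_con _ _ _)
    have c2 : IsPreconnected (vs x1 (-M) y1 ∪ hs y1 x1 sg2 ∪ vs sg2 yB y1) :=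
      IsPreconnected.union ⟨sg2, y1⟩ (Or.inr (in_hs (by linarith) le_rfl))
        (in_vs (by linarith) le_rfl) c1 (vs_con _ _ _)
    have c3 : IsPreconnected (vs x1 (-M) y1 ∪ hs y1 x1 sg2 ∪ vs sg2 yB y1 ∪ C) :=
      IsPreconnected.union ⟨sg2, yB⟩ (Or.inr (in_vs le_rfl (by linarith))) hB c2 hCc
    have c4 : IsPreconnected (vs x1 (-M) y1 ∪ hs y1 x1 sg2 ∪ vs sg2 yB y1 ∪ C ∪ vs sg1 y2 yT) :=
      IsPreconnected.union ⟨sg1, yT⟩ (Or.inr hT) (in_vs (by linarith) le_rfl) c3 (vs_con _ _ _)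
    have c5 : IsPreconnected (vs x1 (-M) y1 ∪ hs y1 x1 sg2 ∪ vs sg2 yB y1 ∪ C ∪ vs sg1 y2 yT ∪
        hs y2 x1 sg1) :=
      IsPreconnected.union ⟨sg1, y2⟩ (Or.inr (in_vs le_rfl (by linarith)))
        (in_hs (by linarith) le_rfl) c4 (hs_con _ _ _)
    exact IsPreconnected.union ⟨x1, y2⟩ (Or.inr (in_hs le_rfl (by linarith)))
        (in_vs le_rfl (by linarith)) c5 (vs_con _ _ _)
  have hKD : ∀ z ∈ K0, z ∉ D := fun z hz hzD => disjoint_left.1 hDK hzD hz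
  -- points of V outside C
  have hVp : ∀ p ∈ V, p ∈ C ∨ (p.re = x1 ∧ (p.im ≤ y1 ∨ y2 ≤ p.im)) ∨
      (p ∈ K0 ∧ p.re ≤ ka - ε ∧ b < p.im ∧ p.im < b + s ∧ p.im ≠ ys) ∨
      (p ∉ D ∧ (p.re = sg1 ∨ p.re = sg2) ∧ p.im ≠ ys ∧ |p.im| < M) := by
    rintro p ((((((hp | hp) | hp) | hp) | hp) | hp) | hp)
    · obtain ⟨a1, a2, a3⟩ := mem_vs hp
      exact Or.inr (Or.inl ⟨a1, Or.inl a3⟩)
    · obtain ⟨a1, a2, a3⟩ := mem_hs hp
      exact Or.inr (Or.inr (Or.inl ⟨hQ' p.re p.im (by linarith) (by linarith) (by linarith)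
        (by linarith), by linarith, by linarith, by linarith, by rw [a1]; intro hc; linarith⟩))
    · obtain ⟨a1, a2, a3⟩ := mem_vs hp
      refine Or.inr (Or.inr (Or.inr ⟨?_, Or.inr a1, by intro hc; linarith, ?_⟩))
      · rcases le_or_gt p.im b with h | h
        · have := hDB p.im ⟨a2, h⟩
          rw [← a1] at this
          exact this
        · exact hKD _ (hQ' p.re p.im (by linarith) (by linarith) (by linarith) (by linarith))
      · rw [abs_lt]; constructor <;> linarith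
    · exact Or.inl hp
    · obtain ⟨a1, a2, a3⟩ := mem_vs hp
      refine Or.inr (Or.inr (Or.inr ⟨?_, Or.inl a1, by intro hc; linarith, ?_⟩))
      · rcases le_or_gt (b + s) p.im with h | h
        · have := hDT p.im ⟨h, a3⟩
          rw [← a1] at this
          exact this
        · exact hKD _ (hQ' p.re p.im (by linarith) (by linarith) (by linarith) (by linarith))
      · rw [abs_lt]; constructor <;> linarith
    · obtain ⟨a1, a2, a3⟩ := mem_hs hp
      exact Or.inr (Or.inr (Or.inl ⟨hQ' p.re p.im (by linarith) (by linarith) (by linarith)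
        (by linarith), by linarith, by linarith, by linarith, by rw [a1]; intro hc; linarith⟩))
    · obtain ⟨a1, a2, a3⟩ := mem_vs hp
      exact Or.inr (Or.inl ⟨a1, Or.inr a2⟩)
  have hVre : ∀ p ∈ V, |p.re| ≤ M := by
    rintro p ((((((hp | hp) | hp) | hp) | hp) | hp) | hp)
    · obtain ⟨a1, a2, a3⟩ := mem_vs hp
      rw [abs_le]; constructor <;> linarith
    · obtain ⟨a1, a2, a3⟩ := mem_hs hp
      rw [abs_le]; constructor <;> linarith
    · obtain ⟨a1, a2, a3⟩ := mem_vs hp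
      rw [abs_le]; constructor <;> linarith
    · exact ((hre p).trans_lt (hRC p hp)).le
    · obtain ⟨a1, a2, a3⟩ := mem_vs hp
      rw [abs_le]; constructor <;> linarith
    · obtain ⟨a1, a2, a3⟩ := mem_hs hp
      rw [abs_le]; constructor <;> linarith
    · obtain ⟨a1, a2, a3⟩ := mem_vs hp
      rw [abs_le]; constructor <;> linarith
  -- the horizontal continuum, for a given last part `T` (from `q0` to the far right)
  have key : ∀ T : Set ℂ, IsCompact T → IsPreconnected T → q0 ∈ T → (∃ p ∈ T, M ≤ p.re) →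
      (∀ p ∈ T, |p.im| ≤ M) → (∀ p ∈ T, p ∉ V) → False := by
    intro T hTc hTcon hqT hTM hTim hTV
    set H : Set ℂ := hs ys (-M) ka ∪ K' ∪ segment ℝ k0 p0 ∪ d ∪ T with hH
    have hHcpt : IsCompact H := ((((hs_cpt _ _ _).union hK'c).union hsegc).union hdc).union hTc
    have hHcon : IsPreconnected H := by
      have c1 : IsPreconnected (hs ys (-M) ka ∪ K') :=
        IsPreconnected.union ⟨ka, ys⟩ (in_hs (by linarith) le_rfl)
          ⟨hQ' ka ys (by linarith) le_rfl (by linarith) (by linarith), le_refl ka⟩ (hs_con _ _ _) hKc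
      have c2 : IsPreconnected (hs ys (-M) ka ∪ K' ∪ segment ℝ k0 p0) :=
        IsPreconnected.union k0 (Or.inr ⟨hk0, hk0r⟩) (left_mem_segment ℝ k0 p0) c1
          (convex_segment k0 p0).isPreconnected
      have c3 : IsPreconnected (hs ys (-M) ka ∪ K' ∪ segment ℝ k0 p0 ∪ d) :=
        IsPreconnected.union p0 (Or.inr (right_mem_segment ℝ k0 p0)) hp0d c2 hdcon
      exact IsPreconnected.union q0 (Or.inr hq0) hqT c3 hTcon
    have hHim : ∀ p ∈ H, |p.im| ≤ M := by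
      rintro p ((((hp | hp) | hp) | hp) | hp)
      · obtain ⟨a1, a2, a3⟩ := mem_hs hp
        rw [a1, abs_le]; constructor <;> linarith
      · exact ((him p).trans_lt (hRK p hp.1)).le
      · exact ((him p).trans_lt (hRs p hp)).le
      · exact ((him p).trans_lt (hRd p hp)).le
      · exact hTim p hp
    obtain ⟨p, hpH, hpV⟩ := Sep_590.cross hHcpt hVcpt hHcon hVcon hHim hVre
      ⟨⟨-M, ys⟩, Or.inl (Or.inl (Or.inl (Or.inl (in_hs le_rfl (by linarith))))), le_rfl⟩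
      (by obtain ⟨p, hp, h⟩ := hTM; exact ⟨p, Or.inr hp, h⟩)
      ⟨⟨x1, -M⟩, Or.inl (Or.inl (Or.inl (Or.inl (Or.inl (Or.inl (in_vs le_rfl (by linarith))))))),
        le_rfl⟩
      ⟨⟨x1, M⟩, Or.inr (in_vs (by linarith) le_rfl), le_rfl⟩
    have hcl := hVp p hpV
    rcases hpH with (((hp | hp) | hp) | hp) | hp
    · obtain ⟨a1, a2, a3⟩ := mem_hs hp
      rcases hcl with h | ⟨h, h' | h'⟩ | ⟨-, -, -, -, h⟩ | ⟨-, -, h, -⟩
      · have h4 := hCr p h
        exact disjoint_left.1 hCK h (hQ' p.re p.im (by linarith) a3 (by linarith) (by linarith))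
      · linarith
      · linarith
      · exact h a1
      · exact h a1
    · have hpk' : ka ≤ p.re := hp.2
      rcases hcl with h | ⟨h, -⟩ | ⟨-, h, -⟩ | ⟨-, h | h, -⟩
      · exact disjoint_left.1 hCK h hp.1
      · linarith
      · linarith
      · linarith
      · linarith
    · have hpk' := hsegre p hp
      rcases hcl with h | ⟨h, -⟩ | ⟨-, h, -⟩ | ⟨-, h | h, -⟩
      · exact hsegC p hp h
      · linarith
      · linarith
      · linarith
      · linarith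
    · have hpk' := hdr p hp
      rcases hcl with h | ⟨h, -⟩ | ⟨h, -⟩ | ⟨h, -⟩
      · exact disjoint_left.1 hDC (hdD hp) h
      · linarith
      · exact disjoint_left.1 hDK (hdD hp) h
      · exact h (hdD hp)
    · exact hTV p hp hpV
  -- the part of `T` over `re = sg0` and the far right part miss `V`
  have hray : ∀ p : ℂ, p.re = sg0 → (b + s < p.im ∨ p.im < b) → p ∉ V := by
    intro p hpr hpi hpV
    rcases hVp p hpV with h | ⟨h, -⟩ | ⟨-, -, h, h', -⟩ | ⟨-, h | h, -⟩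
    · linarith [hCr p h]
    · linarith
    · rcases hpi with h5 | h5 <;> linarith
    · linarith
    · linarith
  have hfar : ∀ p : ℂ, sg0 ≤ p.re → (p.im = M ∨ p.im = -M) → p ∉ V := by
    intro p hpr hpi hpV
    have habs : |p.im| = M := by
      rcases hpi with h | h
      · rw [h, abs_of_pos hMpos]
      · rw [h, abs_neg, abs_of_pos hMpos]
    rcases hVp p hpV with h | ⟨h, -⟩ | ⟨h, -⟩ | ⟨-, -, -, h⟩
    · exact absurd ((him p).trans_lt (hRC p h)) (by rw [habs]; exact lt_irrefl _)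
    · linarith
    · exact absurd ((him p).trans_lt (hRK p h)) (by rw [habs]; exact lt_irrefl _)
    · rw [habs] at h; exact lt_irrefl _ h
  have hq0e : q0 = ⟨sg0, q0.im⟩ := Complex.ext hq0r rfl
  rcases hq0im with hq | hq
  · refine key (vs sg0 q0.im M ∪ hs M sg0 M) ((vs_cpt _ _ _).union (hs_cpt _ _ _))
      (IsPreconnected.union ⟨sg0, M⟩ (in_vs (by linarith) le_rfl) (in_hs le_rfl (by linarith))
        (vs_con _ _ _) (hs_con _ _ _)) (Or.inl ?_) ⟨⟨M, M⟩, Or.inr (in_hs (by linarith) le_rfl), le_rfl⟩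
      ?_ ?_
    · rw [hq0e]; exact in_vs le_rfl (by linarith)
    · rintro p (hp | hp)
      · obtain ⟨a1, a2, a3⟩ := mem_vs hp
        rw [abs_le]; constructor <;> linarith
      · obtain ⟨a1, a2, a3⟩ := mem_hs hp
        rw [a1, abs_of_pos hMpos]
    · rintro p (hp | hp)
      · obtain ⟨a1, a2, a3⟩ := mem_vs hp
        exact hray p a1 (Or.inl (by linarith))
      · obtain ⟨a1, a2, a3⟩ := mem_hs hp
        exact hfar p a2 (Or.inl a1)
  · refine key (vs sg0 (-M) q0.im ∪ hs (-M) sg0 M) ((vs_cpt _ _ _).union (hs_cpt _ _ _))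
      (IsPreconnected.union ⟨sg0, -M⟩ (in_vs le_rfl (by linarith)) (in_hs le_rfl (by linarith))
        (vs_con _ _ _) (hs_con _ _ _)) (Or.inl ?_) ⟨⟨M, -M⟩, Or.inr (in_hs (by linarith) le_rfl), le_rfl⟩
      ?_ ?_
    · rw [hq0e]; exact in_vs (by linarith) le_rfl
    · rintro p (hp | hp)
      · obtain ⟨a1, a2, a3⟩ := mem_vs hp
        rw [abs_le]; constructor <;> linarith
      · obtain ⟨a1, a2, a3⟩ := mem_hs hp
        rw [a1, abs_neg, abs_of_pos hMpos]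
    · rintro p (hp | hp)
      · obtain ⟨a1, a2, a3⟩ := mem_vs hp
        exact hray p a1 (Or.inr (by linarith))
      · obtain ⟨a1, a2, a3⟩ := mem_hs hp
        exact hfar p a2 (Or.inr a1)

end

end Crest.Agent.R105.Crs_404
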