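import Crest.Agent.R193.Planar2

/-!
# Row 105, S0138, E13 (ATN): CROSS (helper33), step (3) of 499 #11166

`cross0`: two continua with interlaced end points on the boundary of a half plane meet:
`C ⊆ {σ ≤ x}` joins `(σ,y₋)` to `(σ,y₊)`; `P ∩ {σ ≤ x}` contains `(σ,m)`, `y₋ < m < y₊`; a path `D` off `C`
starts next to `P ∩ {σ ≤ x}` and reaches `{x ≤ σ}` without meeting `{σ} × [y₋,y₊]`: impossible.
-/

set_option autoImplicit false

open Set Filter Topology Metric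

namespace Crest.Agent.R105.Crx_33

/-- horizontal and vertical segments -/
lemma hseg_compact (a b y : ℝ) : IsCompact (Icc a b ×ˢ ({y} : Set ℝ)) :=
  isCompact_Icc.prod isCompact_singleton

lemma vseg_compact (x a b : ℝ) : IsCompact (({x} : Set ℝ) ×ˢ Icc a b) :=
  isCompact_singleton.prod isCompact_Icc

lemma hseg_conn (a b y : ℝ) : IsPreconnected (Icc a b ×ˢ ({y} : Set ℝ)) :=
  isPreconnected_Icc.prod isPreconnected_singleton

lemma vseg_conn (x a b : ℝ) : IsPreconnected (({x} : Set ℝ) ×ˢ Icc a b) :=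
  isPreconnected_singleton.prod isPreconnected_Icc

/-- the case in which the second continuum leaves above `y₊` -/
theorem cross_up {A C : Set (ℝ × ℝ)} {σ m y1 y2 y3 : ℝ} (hA : IsCompact A) (hC : IsCompact C)
    (hAc : IsPreconnected A) (hCc : IsPreconnected C) (hAx : ∀ p ∈ A, σ ≤ p.1)
    (hCx : ∀ p ∈ C, σ ≤ p.1) (hm : (σ, m) ∈ A) (h3 : (σ, y3) ∈ A)
    (hAl : ∀ p ∈ A, p.1 = σ → y1 < p.2 ∧ p.2 ≠ y2)
    (hC1 : (σ, y1) ∈ C) (hC2 : (σ, y2) ∈ C) (hCl : ∀ p ∈ C, p.1 = σ → p.2 ≤ y2)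
    (h1m : y1 < m) (hm2 : m < y2) (h23 : y2 < y3) (hdis : ∀ p ∈ A, p ∉ C) : False := by
  -- bounds
  obtain ⟨R1, hR1⟩ := hA.isBounded.exists_norm_le
  obtain ⟨R2, hR2⟩ := hC.isBounded.exists_norm_le
  set M : ℝ := max R1 R2 + |σ| + |m| + |y3| + 2 with hM
  have hbA : ∀ p ∈ A, |p.1| ≤ M - 2 ∧ |p.2| ≤ M - 2 := fun p hp => by
    have h := hR1 p hp
    rw [Prod.norm_def] at h
    have e1 := (le_max_left _ _).trans h
    have e2 := (le_max_right _ _).trans h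
    rw [Real.norm_eq_abs] at e1 e2
    have := le_max_left R1 R2
    have h5 := abs_nonneg σ; have h6 := abs_nonneg m; have h7 := abs_nonneg y3
    constructor <;> linarith
  have hbC : ∀ p ∈ C, |p.1| ≤ M - 2 ∧ |p.2| ≤ M - 2 := fun p hp => by
    have h := hR2 p hp
    rw [Prod.norm_def] at h
    have e1 := (le_max_left _ _).trans h
    have e2 := (le_max_right _ _).trans h
    rw [Real.norm_eq_abs] at e1 e2
    have := le_max_right R1 R2
    have h5 := abs_nonneg σ; have h6 := abs_nonneg m; have h7 := abs_nonneg y3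
    constructor <;> linarith
  have hσ := (hbA _ hm).1
  have hmM := (hbA _ hm).2
  have h3M := (hbA _ h3).2
  have h1M := (hbC _ hC1).2
  have h2M := (hbC _ hC2).2
  simp only at hσ hmM h3M h1M h2M
  rw [abs_le] at hσ hmM h3M h1M h2M
  -- the two continua
  set H : Set (ℝ × ℝ) := (Icc (-M) σ ×ˢ {m}) ∪ (A ∪ (({σ} ×ˢ Icc y3 M) ∪ (Icc σ M ×ˢ {M}))) with hH
  set V : Set (ℝ × ℝ) := ({σ} ×ˢ Icc (-M) y1) ∪ (C ∪ ((Icc (σ - 1) σ ×ˢ {y2}) ∪ ({σ - 1} ×ˢ Icc y2 M))) with hV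
  have hHcp : IsCompact H := (hseg_compact _ _ _).union (hA.union ((vseg_compact _ _ _).union (hseg_compact _ _ _)))
  have hVcp : IsCompact V := (vseg_compact _ _ _).union (hC.union ((hseg_compact _ _ _).union (vseg_compact _ _ _)))
  have hHcn : IsPreconnected H := by
    have e1 : IsPreconnected ((({σ} : Set ℝ) ×ˢ Icc y3 M) ∪ (Icc σ M ×ˢ ({M} : Set ℝ))) :=
      (vseg_conn _ _ _).union (σ, M) ⟨rfl, by constructor <;> linarith⟩ ⟨⟨le_rfl, by linarith⟩, rfl⟩ (hseg_conn _ _ _)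
    have e2 : IsPreconnected (A ∪ ((({σ} : Set ℝ) ×ˢ Icc y3 M) ∪ (Icc σ M ×ˢ ({M} : Set ℝ)))) :=
      hAc.union (σ, y3) h3 (Or.inl ⟨rfl, le_rfl, by linarith⟩) e1
    exact (hseg_conn _ _ _).union (σ, m) ⟨⟨by linarith, le_rfl⟩, rfl⟩ (Or.inl hm) e2
  have hVcn : IsPreconnected V := by
    have e1 : IsPreconnected ((Icc (σ - 1) σ ×ˢ ({y2} : Set ℝ)) ∪ (({σ - 1} : Set ℝ) ×ˢ Icc y2 M)) :=
      (hseg_conn _ _ _).union (σ - 1, y2) ⟨⟨le_rfl, by linarith⟩, rfl⟩ ⟨rfl, le_rfl, by linarith⟩ (vseg_conn _ _ _)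
    have e2 : IsPreconnected (C ∪ ((Icc (σ - 1) σ ×ˢ ({y2} : Set ℝ)) ∪ (({σ - 1} : Set ℝ) ×ˢ Icc y2 M))) :=
      hCc.union (σ, y2) hC2 (Or.inl ⟨⟨by linarith, le_rfl⟩, rfl⟩) e1
    exact (vseg_conn _ _ _).union (σ, y1) ⟨rfl, by linarith, le_rfl⟩ (Or.inl hC1) e2
  obtain ⟨p, hpH, hpV⟩ := R193.Planar.continua_cross (a := -M) (b := M) (c := -M) (d := M) hHcp hVcp hHcn hVcn
    (by
      rintro p (⟨_, hp⟩ | hp | ⟨_, hp⟩ | ⟨_, hp⟩)
      · rw [mem_singleton_iff] at hp; rw [hp]; constructor <;> linarith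
      · have := abs_le.1 (hbA p hp).2; constructor <;> linarith
      · exact ⟨by linarith [hp.1], hp.2⟩
      · rw [mem_singleton_iff] at hp; rw [hp]; constructor <;> linarith)
    (by
      rintro p (⟨hp, _⟩ | hp | ⟨hp, _⟩ | ⟨hp, _⟩)
      · rw [mem_singleton_iff] at hp; rw [hp]; constructor <;> linarith
      · have := abs_le.1 (hbC p hp).1; constructor <;> linarith
      · exact ⟨by linarith [hp.1], by linarith [hp.2]⟩
      · rw [mem_singleton_iff] at hp; rw [hp]; constructor <;> linarith)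
    ⟨(-M, m), Or.inl ⟨⟨le_rfl, by linarith⟩, rfl⟩, le_rfl⟩
    ⟨(M, M), Or.inr (Or.inr (Or.inr ⟨⟨by linarith, le_rfl⟩, rfl⟩)), le_rfl⟩
    ⟨(σ, -M), Or.inl ⟨rfl, le_rfl, by linarith⟩, le_rfl⟩
    ⟨(σ - 1, M), Or.inr (Or.inr (Or.inr ⟨rfl, by linarith, le_rfl⟩)), le_rfl⟩
  obtain ⟨x, y⟩ := p
  rcases hpH with ⟨⟨_, hx⟩, hy⟩ | hpA | ⟨hx, hy1, hy2⟩ | ⟨⟨hx1, hx2⟩, hy⟩
  · -- ray at height `m`
    simp only [mem_singleton_iff] at hy; subst hy
    rcases hpV with ⟨hx', hy1, hy2⟩ | hpC | ⟨_, hy'⟩ | ⟨_, hy1, hy2⟩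
    · simp only at hy2; linarith
    · have h4 := hCx _ hpC
      simp only at h4 hx
      have h5 : x = σ := le_antisymm hx h4
      subst h5
      exact hdis _ hm hpC
    · simp only [mem_singleton_iff] at hy'; linarith
    · simp only at hy1; linarith
  · have h0 := hAx _ hpA
    simp only at h0
    rcases hpV with ⟨hx', hy1, hy2⟩ | hpC | ⟨⟨_, hx'⟩, hy'⟩ | ⟨hx', _⟩
    · simp only [mem_singleton_iff] at hx' hy2
      have := (hAl _ hpA hx').1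
      simp only at this; linarith
    · exact hdis _ hpA hpC
    · simp only [mem_singleton_iff] at hx' hy'
      have h5 : x = σ := le_antisymm hx' h0
      exact (hAl _ hpA h5).2 hy'
    · simp only [mem_singleton_iff] at hx'; linarith
  · simp only [mem_singleton_iff] at hx hy1 hy2
    rcases hpV with ⟨_, hy1', hy2'⟩ | hpC | ⟨_, hy'⟩ | ⟨hx', _⟩
    · simp only at hy2'; linarith
    · have := hCl _ hpC hx
      simp only at this; linarith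
    · simp only [mem_singleton_iff] at hy'; linarith
    · simp only [mem_singleton_iff] at hx'; linarith
  · simp only [mem_singleton_iff] at hx1 hx2 hy
    rcases hpV with ⟨_, hy1', hy2'⟩ | hpC | ⟨_, hy'⟩ | ⟨hx', _⟩
    · simp only at hy2'; linarith
    · have := (abs_le.1 (hbC _ hpC).2).2
      simp only at this; linarith
    · simp only [mem_singleton_iff] at hy'; linarith
    · simp only [mem_singleton_iff] at hx'; linarith

/-- reflection `(x, y) ↦ (x, -y)` -/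
def rf (p : ℝ × ℝ) : ℝ × ℝ := (p.1, -p.2)

lemma continuous_rf : Continuous rf := continuous_fst.prodMk continuous_snd.neg

@[simp] lemma rf_rf (p : ℝ × ℝ) : rf (rf p) = p := by simp [rf]

lemma mem_rf {A : Set (ℝ × ℝ)} {p : ℝ × ℝ} : p ∈ rf '' A ↔ rf p ∈ A := by
  constructor
  · rintro ⟨q, hq, rfl⟩; simpa using hq
  · intro h; exact ⟨_, h, rf_rf p⟩

/-- the case in which the second continuum leaves below `y₋` -/
theorem cross_dn {A C : Set (ℝ × ℝ)} {σ m y0 y1 y2 : ℝ} (hA : IsCompact A) (hC : IsCompact C)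
    (hAc : IsPreconnected A) (hCc : IsPreconnected C) (hAx : ∀ p ∈ A, σ ≤ p.1)
    (hCx : ∀ p ∈ C, σ ≤ p.1) (hm : (σ, m) ∈ A) (h0 : (σ, y0) ∈ A)
    (hAl : ∀ p ∈ A, p.1 = σ → p.2 < y2 ∧ p.2 ≠ y1)
    (hC1 : (σ, y1) ∈ C) (hC2 : (σ, y2) ∈ C) (hCl : ∀ p ∈ C, p.1 = σ → y1 ≤ p.2)
    (h1m : y1 < m) (hm2 : m < y2) (h01 : y0 < y1) (hdis : ∀ p ∈ A, p ∉ C) : False := by
  refine cross_up (A := rf '' A) (C := rf '' C) (σ := σ) (m := -m) (y1 := -y2) (y2 := -y1) (y3 := -y0)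
    (hA.image continuous_rf) (hC.image continuous_rf) (hAc.image _ continuous_rf.continuousOn)
    (hCc.image _ continuous_rf.continuousOn) ?_ ?_ ?_ ?_ ?_ ?_ ?_ ?_ (by linarith) (by linarith) (by linarith) ?_
  · rintro _ ⟨p, hp, rfl⟩; exact hAx p hp
  · rintro _ ⟨p, hp, rfl⟩; exact hCx p hp
  · exact ⟨_, hm, rfl⟩
  · exact ⟨_, h0, rfl⟩
  · rintro _ ⟨p, hp, rfl⟩ h
    have := hAl p hp h
    exact ⟨by simp only [rf]; linarith [this.1], fun e => this.2 (by simpa [rf] using e)⟩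
  · exact ⟨_, hC2, rfl⟩
  · exact ⟨_, hC1, rfl⟩
  · rintro _ ⟨p, hp, rfl⟩ h
    have := hCl p hp h
    simp only [rf]; linarith
  · rintro _ ⟨p, hp, rfl⟩ h
    rw [mem_rf, rf_rf] at h
    exact hdis p hp h

/-- first exit of a path from `{σ < x}` -/
theorem first_exit {γ : ℝ → ℝ × ℝ} (hγ : ContinuousOn γ (Icc 0 1)) {σ : ℝ} (h0 : σ < (γ 0).1)
    (h1 : (γ 1).1 ≤ σ) : ∃ τ ∈ Icc (0 : ℝ) 1, (γ τ).1 = σ ∧ ∀ s ∈ Icc (0 : ℝ) τ, s ≠ τ → σ < (γ s).1 := by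
  set f : ℝ → ℝ := fun s => (γ s).1 with hf
  have hfc : ContinuousOn f (Icc 0 1) := continuous_fst.comp_continuousOn hγ
  set S : Set ℝ := Icc 0 1 ∩ f ⁻¹' Iic σ with hS
  have hSc : IsCompact S := isCompact_Icc.of_isClosed_subset
    (hfc.preimage_isClosed_of_isClosed isClosed_Icc isClosed_Iic) inter_subset_left
  obtain ⟨τ, hτ, hmin⟩ := hSc.exists_isLeast ⟨1, ⟨by norm_num, le_rfl⟩, h1⟩
  have hlt : ∀ s ∈ Icc (0 : ℝ) τ, s ≠ τ → σ < f s := fun s hs hne => by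
    by_contra hcon
    exact hne (le_antisymm hs.2 (hmin ⟨⟨hs.1, hs.2.trans hτ.1.2⟩, not_lt.1 hcon⟩))
  refine ⟨τ, hτ.1, le_antisymm hτ.2 ?_, hlt⟩
  have hτ0 : 0 < τ := by
    rcases eq_or_lt_of_le hτ.1.1 with h | h
    · exfalso; have h5 : f τ ≤ σ := hτ.2
      rw [← h] at h5; exact absurd h5 (not_le.2 h0)
    · exact h
  -- limit from the left
  have hmem : τ ∈ closure (Ico 0 τ) := by
    rw [closure_Ico hτ0.ne]; exact ⟨hτ0.le, le_rfl⟩
  have hcw : ContinuousWithinAt f (Ico 0 τ) τ :=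
    (hfc τ hτ.1).mono fun s hs => ⟨hs.1, hs.2.le.trans hτ.1.2⟩
  have : f τ ∈ closure (Ici σ) := hcw.mem_closure hmem fun s hs => (hlt s ⟨hs.1, hs.2.le⟩ hs.2.ne).le
  rwa [closure_Ici] at this

/-- **CROSS, continua form** -/
theorem cross0 {P C : Set (ℝ × ℝ)} {σ m y1 y2 : ℝ} (hP : IsCompact (P ∩ {q | σ ≤ q.1}))
    (hPc : IsPreconnected (P ∩ {q | σ ≤ q.1})) (hm : (σ, m) ∈ P)
    (hPl : ∀ p ∈ P, p.1 = σ → y1 < p.2 ∧ p.2 < y2)
    (hC : IsCompact C) (hCc : IsPreconnected C) (hCx : ∀ p ∈ C, σ ≤ p.1)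
    (hC1 : (σ, y1) ∈ C) (hC2 : (σ, y2) ∈ C) (hCl : ∀ p ∈ C, p.1 = σ → y1 ≤ p.2 ∧ p.2 ≤ y2)
    (hPC : ∀ p ∈ P, p ∉ C)
    {γ : ℝ → ℝ × ℝ} (hγ : ContinuousOn γ (Icc 0 1)) (h0 : σ < (γ 0).1) (h1 : (γ 1).1 ≤ σ)
    (hγC : ∀ s ∈ Icc (0 : ℝ) 1, γ s ∉ C)
    (hγl : ∀ s ∈ Icc (0 : ℝ) 1, (γ s).1 = σ → (γ s).2 < y1 ∨ y2 < (γ s).2)
    {p : ℝ × ℝ} (hp : p ∈ P) (hpx : σ ≤ p.1) (hseg : ∀ q ∈ segment ℝ p (γ 0), q ∉ C) : False := by
  have h1m : y1 < m := (hPl _ hm rfl).1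
  have hm2 : m < y2 := (hPl _ hm rfl).2
  obtain ⟨τ, hτ, hτσ, hlt⟩ := first_exit hγ h0 h1
  set D : Set (ℝ × ℝ) := γ '' Icc 0 τ with hD
  have hDcont : ContinuousOn γ (Icc 0 τ) := hγ.mono (Icc_subset_Icc le_rfl hτ.2)
  have hDc : IsCompact D := isCompact_Icc.image_of_continuousOn hDcont
  have hDn : IsPreconnected D := isPreconnected_Icc.image _ hDcont
  set S : Set (ℝ × ℝ) := segment ℝ p (γ 0) with hS
  have hSc : IsCompact S := by
    rw [hS, segment_eq_image_lineMap]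
    exact isCompact_Icc.image AffineMap.lineMap_continuous
  have hSn : IsPreconnected S := (convex_segment p (γ 0)).isPreconnected
  set A : Set (ℝ × ℝ) := (P ∩ {q | σ ≤ q.1}) ∪ (S ∪ D) with hA
  have hAc : IsCompact A := hP.union (hSc.union hDc)
  have hAn : IsPreconnected A := by
    have e1 : IsPreconnected (S ∪ D) := hSn.union (γ 0) (right_mem_segment _ _ _)
      ⟨0, ⟨le_rfl, hτ.1⟩, rfl⟩ hDn
    exact hPc.union p ⟨hp, hpx⟩ (Or.inl (left_mem_segment _ _ _)) e1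
  -- the segment stays in the half plane; its points on the line are `p`
  have hSx : ∀ q ∈ S, σ ≤ q.1 ∧ (q.1 = σ → q = p) := by
    rintro q ⟨a, b, ha, hb, hab, rfl⟩
    have e1 : (a • p + b • γ 0).1 = a * p.1 + b * (γ 0).1 := by simp
    have e2 : a * p.1 + b * (γ 0).1 - σ = a * (p.1 - σ) + b * ((γ 0).1 - σ) := by
      linear_combination σ * hab
    have e3 : 0 ≤ a * (p.1 - σ) := mul_nonneg ha (sub_nonneg.2 hpx)
    have e4 : 0 ≤ b * ((γ 0).1 - σ) := mul_nonneg hb (sub_pos.2 h0).le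
    rw [e1]
    refine ⟨by linarith, fun h => ?_⟩
    have hb0 : b = 0 := by
      by_contra hne
      have hb' : 0 < b := lt_of_le_of_ne hb (Ne.symm hne)
      have := mul_pos hb' (sub_pos.2 h0)
      linarith
    have ha1 : a = 1 := by linarith
    rw [hb0, ha1]; simp
  have hDx : ∀ q ∈ D, σ ≤ q.1 ∧ (q.1 = σ → q = γ τ) := by
    rintro q ⟨s, hs, rfl⟩
    by_cases hst : s = τ
    · subst hst; exact ⟨hτσ.ge, fun _ => rfl⟩
    · have := hlt s hs hst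
      exact ⟨this.le, fun h => absurd h this.ne'⟩
  have hAx : ∀ q ∈ A, σ ≤ q.1 := by
    rintro q (hq | hq | hq)
    · exact hq.2
    · exact (hSx q hq).1
    · exact (hDx q hq).1
  have hdis : ∀ q ∈ A, q ∉ C := by
    rintro q (hq | hq | ⟨s, hs, rfl⟩)
    · exact hPC q hq.1
    · exact hseg q hq
    · exact hγC s ⟨hs.1, hs.2.trans hτ.2⟩
  have hmA : (σ, m) ∈ A := Or.inl ⟨hm, le_refl σ⟩
  have hτA : γ τ ∈ A := Or.inr (Or.inr ⟨τ, ⟨hτ.1, le_rfl⟩, rfl⟩)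
  have hτe : γ τ = (σ, (γ τ).2) := Prod.ext hτσ rfl
  rcases hγl τ hτ hτσ with h | h
  · refine cross_dn (y0 := (γ τ).2) hAc hC hAn hCc hAx hCx hmA (hτe ▸ hτA) ?_ hC1 hC2
      (fun q hq hqx => (hCl q hq hqx).1) h1m hm2 h hdis
    rintro q (hq | hq | hq) hqx
    · exact ⟨(hPl q hq.1 hqx).2, (hPl q hq.1 hqx).1.ne'⟩
    · have e := (hSx q hq).2 hqx
      subst e
      exact ⟨(hPl q hp hqx).2, (hPl q hp hqx).1.ne'⟩
    · have e := (hDx q hq).2 hqx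
      rw [e]; exact ⟨by linarith, h.ne⟩
  · refine cross_up (y3 := (γ τ).2) hAc hC hAn hCc hAx hCx hmA (hτe ▸ hτA) ?_ hC1 hC2
      (fun q hq hqx => (hCl q hq hqx).2) h1m hm2 h hdis
    rintro q (hq | hq | hq) hqx
    · exact ⟨(hPl q hq.1 hqx).1, (hPl q hq.1 hqx).2.ne⟩
    · have e := (hSx q hq).2 hqx
      subst e
      exact ⟨(hPl q hp hqx).1, (hPl q hp hqx).2.ne⟩
    · have e := (hDx q hq).2 hqx
      rw [e]; exact ⟨by linarith, h.ne'⟩

end Crest.Agent.R105.Crx_33
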