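import Crest.Agent.R105.Sqr3_185
import Crest.Agent.R105.Top1_8

/-!
# R105 SQR (4): exact squares, and the integral of the test function (helper185)

`SqK K al b s` : the compact set `K` is the closed square `[al, al+s] x [b, b+s]` plus vertical
pieces over a null set of abscissae.
-/

set_option autoImplicit false

open Set Filter Topology MeasureTheory Metric
open scoped ContDiff

namespace Crest.Agent.R105.Sqr_185

/-- `K` = exact square + vertical pieces over a null set of `[al, al+s]` -/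
structure SqK (K : Set ℂ) (al b s : ℝ) : Prop where
  re_mem : ∀ p ∈ K, p.re ∈ Icc al (al + s)
  sub : ∀ p : ℂ, p.re ∈ Icc al (al + s) → p.im ∈ Icc b (b + s) → p ∈ K
  ae : ∀ᵐ t : ℝ, t ∈ Icc al (al + s) → sec K t = Icc b (b + s)

theorem sqK_of_ae {K : Set ℂ} (hK : IsClosed K) {al b s : ℝ} (hs : 0 < s)
    (hre : ∀ p ∈ K, p.re ∈ Icc al (al + s))
    (h : ∀ᵐ t ∂(volume.restrict (Ioo al (al + s))), sec K t = Icc b (b + s)) :
    SqK K al b s where
  re_mem := hre
  sub := fun p hp hq => by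
    have h1 := rect_subset hK (by linarith : al < al + s) (b := b) (c := b + s)
      (h.mono fun t ht => ht.ge) p.re hp hq
    exact h1
  ae := by
    rw [ae_restrict_iff' measurableSet_Ioo] at h
    have h2 : ∀ᵐ t : ℝ, t ∉ ({al, al + s} : Set ℝ) :=
      measure_eq_zero_iff_ae_notMem.1 ((Set.toFinite _).measure_zero _)
    filter_upwards [h, h2] with t h1 h2 ht
    refine h1 ⟨lt_of_le_of_ne ht.1 ?_, lt_of_le_of_ne ht.2 ?_⟩
    · rintro rfl; exact h2 (by simp)
    · rintro rfl; exact h2 (by simp)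

/-- a compact set whose sections over `(al, al+s)` are a.e. intervals `[b t, b t + s]`, with the
first variation identity, is an exact square with attached vertical pieces -/
theorem sqK_of_firstVariation {K : Set ℂ} (hK : IsCompact K) {al s M : ℝ} (hs : 0 < s)
    (hre : ∀ p ∈ K, p.re ∈ Icc al (al + s)) (hM : ∀ p ∈ K, p.im ≤ M) {b : ℝ → ℝ}
    (hb : ∀ᵐ t ∂(volume.restrict (Ioo al (al + s))), sec K t = Icc (b t) (b t + s))
    (hF : ∀ θ : ℝ → ℝ, ContDiff ℝ ∞ θ → HasCompactSupport θ → tsupport θ ⊆ Ioo al (al + s) →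
      ∫ t in Ioo al (al + s), deriv θ t * upLen K M t = 0) :
    ∃ b0 : ℝ, SqK K al b0 s := by
  obtain ⟨b0, h⟩ := b_const hK (by linarith : al < al + s) hs.le hM hb hF
  exact ⟨b0, sqK_of_ae hK.isClosed hs hre h⟩

namespace SqK

variable {K : Set ℂ} {al b s : ℝ}

/-- inside the strip of the square, `K` is the square -/
theorem inter_strip (h : SqK K al b s) :
    K ∩ {p : ℂ | p.im ∈ Icc b (b + s)} = {p : ℂ | p.re ∈ Icc al (al + s) ∧ p.im ∈ Icc b (b + s)} := by
  ext p
  exact ⟨fun ⟨h1, h2⟩ => ⟨h.re_mem p h1, h2⟩, fun ⟨h1, h2⟩ => ⟨h.sub p h1 h2, h2⟩⟩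

theorem sec_superset (h : SqK K al b s) {t : ℝ} (ht : t ∈ Icc al (al + s)) :
    Icc b (b + s) ⊆ sec K t := fun _ hy => h.sub ⟨t, _⟩ ht hy

/-- without attached pieces `K` is the closed square -/
theorem eq_Sq (h : SqK K al b s) (h' : ∀ p ∈ K, p.im ∈ Icc b (b + s)) :
    K = Top1_8.Sq ⟨al + s / 2, b + s / 2⟩ (s / 2) := by
  ext p
  simp only [Top1_8.Sq, mem_ofPred_eq, abs_le]
  constructor
  · intro hp
    have h1 := h.re_mem p hp
    have h2 := h' p hp
    refine ⟨⟨by linarith [h1.1], by linarith [h1.2]⟩, ⟨by linarith [h2.1], by linarith [h2.2]⟩⟩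
  · rintro ⟨⟨h1, h2⟩, h3, h4⟩
    exact h.sub p ⟨by linarith, by linarith⟩ ⟨by linarith, by linarith⟩

/-- the attached pieces live over a null set -/
theorem null_attached (h : SqK K al b s) : volume (Complex.re '' (K \ {p : ℂ | p.im ∈ Icc b (b + s)})) = 0 := by
  refine measure_mono_null ?_ (ae_iff.1 h.ae)
  rintro _ ⟨p, ⟨hp, hp'⟩, rfl⟩
  simp only [mem_ofPred_eq, Classical.not_imp]
  refine ⟨h.re_mem p hp, fun hc => hp' ?_⟩
  have : p.im ∈ sec K p.re := hp
  rw [hc] at this
  exact this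

end SqK

/-- the integral of the `x`-derivative of `θ(x) κ(y)` above `K` -/
theorem integral_up {E K : Set ℂ} (hE : IsCompact E) (hK : IsCompact K) (hKE : K ⊆ E)
    (hs : ∀ t, OrdConnected (sec K t)) {al be M R : ℝ}
    (hne : ∀ t ∈ Ioo al be, (sec K t).Nonempty) (hM : ∀ p ∈ E, p.im < M)
    (hR : ∀ p ∈ E, -R < p.im)
    {θ : ℝ → ℝ} (hθ : ContDiff ℝ ∞ θ) (hθc : HasCompactSupport θ) (hθs : tsupport θ ⊆ Ioo al be)
    {κ : ℝ → ℝ} (hκ : ContDiff ℝ ∞ κ) (hκc : HasCompactSupport κ)
    (hκ1 : ∀ y ∈ Icc (-R) M, κ y = 1) :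
    ∫ w in Eᶜ, fderiv ℝ (fun w => up K θ w * κ w.im) w 1
      = ∫ p in {p : ℂ | p ∉ E ∧ p ∈ above K ∧ p.re ∈ Ioo al be ∧ p.im < M}, deriv θ p.re := by
  have hθ'c : Continuous (deriv θ) := hθ.continuous_deriv (by simp)
  have hθ'cs : HasCompactSupport (deriv θ) := hθc.deriv
  have hθd : Differentiable ℝ θ := hθ.differentiable (by simp)
  have hκd : Differentiable ℝ κ := hκ.differentiable (by simp)
  have hθ0 : ∀ t, t ∉ Ioo al be → deriv θ t = 0 := fun t ht =>
    image_eq_zero_of_notMem_tsupport (fun hc => ht (hθs (tsupport_deriv_subset hc)))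
  -- pointwise derivative
  have hpt : ∀ w ∈ Eᶜ, fderiv ℝ (fun w => up K θ w * κ w.im) w 1
      = (above K ∩ Complex.re ⁻¹' (Ioo al be)).indicator (fun q => deriv θ q.re * κ q.im) w := by
    intro w hw
    have hwK : w ∉ K := fun h => hw (hKE h)
    have h1 : DifferentiableAt ℝ (up K θ) w :=
      (contDiffAt_up hK hs hne hθs hθ hwK).differentiableAt (by simp)
    have h2 : HasFDerivAt (fun w : ℂ => κ w.im) (deriv κ w.im • Complex.imCLM) w :=
      (hκd w.im).hasDerivAt.comp_hasFDerivAt w Complex.imCLM.hasFDerivAt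
    have h3 := (h1.hasFDerivAt.mul h2).fderiv
    have h3' : fderiv ℝ (fun w => up K θ w * κ w.im) w
        = up K θ w • deriv κ w.im • Complex.imCLM + κ w.im • fderiv ℝ (up K θ) w := h3
    rw [h3', fderiv_up hK hs hne hθs hθd hwK]
    simp only [_root_.add_apply, _root_.smul_apply, Complex.imCLM_apply,
      Complex.one_im, smul_eq_mul, mul_zero, zero_add]
    by_cases ha : w ∈ above K
    · by_cases hr : w.re ∈ Ioo al be
      · have hmem : w ∈ above K ∩ Complex.re ⁻¹' (Ioo al be) := ⟨ha, hr⟩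
        rw [indicator_of_mem ha, indicator_of_mem hmem]
        simp [mul_comm]
      · rw [indicator_of_mem ha, indicator_of_notMem (fun h => hr h.2), hθ0 _ hr]
        simp
    · rw [indicator_of_notMem ha, indicator_of_notMem (fun h => ha h.1)]
      simp
  have hEm : MeasurableSet Eᶜ := hE.isClosed.measurableSet.compl
  have hAm : MeasurableSet (above K ∩ Complex.re ⁻¹' (Ioo al be)) :=
    (isOpen_above hK).measurableSet.inter (Complex.measurable_re measurableSet_Ioo)
  rw [setIntegral_congr_fun hEm hpt, setIntegral_indicator hAm]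
  -- split at height `M`
  set S : Set ℂ := {p : ℂ | p ∉ E ∧ p ∈ above K ∧ p.re ∈ Ioo al be ∧ p.im < M} with hS
  set T : Set ℂ := {p : ℂ | p.re ∈ Ioo al be ∧ p.im ∈ Ici M} with hT
  have hTm : MeasurableSet T :=
    (Complex.measurable_re measurableSet_Ioo).inter (Complex.measurable_im measurableSet_Ici)
  have hSm : MeasurableSet S := by
    have h1 : S = Eᶜ ∩ (above K ∩ (Complex.re ⁻¹' (Ioo al be) ∩ Complex.im ⁻¹' (Iio M))) := by
      ext p; simp [hS]
    rw [h1]
    exact hE.isClosed.measurableSet.compl.inter ((isOpen_above hK).measurableSet.inter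
      ((Complex.measurable_re measurableSet_Ioo).inter (Complex.measurable_im measurableSet_Iio)))
  have hsplit : Eᶜ ∩ (above K ∩ Complex.re ⁻¹' (Ioo al be)) = S ∪ T := by
    ext p
    simp only [hS, hT, mem_inter_iff, mem_compl_iff, mem_preimage, mem_union, mem_ofPred_eq, mem_Ici]
    constructor
    · rintro ⟨h1, h2, h3⟩
      rcases lt_or_ge p.im M with h4 | h4
      · exact Or.inl ⟨h1, h2, h3, h4⟩
      · exact Or.inr ⟨h3, h4⟩
    · rintro (⟨h1, h2, h3, h4⟩ | ⟨h3, h4⟩)
      · exact ⟨h1, h2, h3⟩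
      · exact ⟨fun hc => absurd (hM p hc) (not_lt.2 h4),
          fun y hy => lt_of_lt_of_le (hM _ (hKE hy)) h4, h3⟩
  have hdisj : Disjoint S T := by
    rw [disjoint_left]
    rintro p ⟨-, -, -, h4⟩ ⟨-, h5⟩
    exact absurd h4 (not_lt.2 h5)
  -- integrability of `θ'(x) κ(y)` on the plane
  have hint : Integrable (fun q : ℂ => deriv θ q.re * κ q.im) := by
    have h1 : Integrable (fun q : ℝ × ℝ => deriv θ q.1 * κ q.2) := by
      rw [Measure.volume_eq_prod]
      exact (hθ'c.integrable_of_hasCompactSupport hθ'cs).mul_prod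
        (hκ.continuous.integrable_of_hasCompactSupport hκc)
    exact Complex.volume_preserving_equiv_real_prod.integrable_comp_of_integrable h1
  rw [hsplit, setIntegral_union hdisj hTm hint.integrableOn hint.integrableOn]
  have hT0 : ∫ q in T, deriv θ q.re * κ q.im = 0 := by
    have h1 := Complex.volume_preserving_equiv_real_prod.setIntegral_preimage_emb
      Complex.measurableEquivRealProd.measurableEmbedding
      (fun q : ℝ × ℝ => deriv θ q.1 * κ q.2) (Ioo al be ×ˢ Ici M)
    have h2 : Complex.measurableEquivRealProd ⁻¹' (Ioo al be ×ˢ Ici M) = T := by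
      ext p
      simp [hT, Complex.measurableEquivRealProd_apply]
    rw [h2] at h1
    have h3 : ∫ q in T, deriv θ q.re * κ q.im
        = ∫ x in T, (fun q : ℝ × ℝ => deriv θ q.1 * κ q.2) (Complex.measurableEquivRealProd x) := rfl
    rw [h3, h1, Measure.volume_eq_prod, setIntegral_prod_mul]
    have h4 : ∫ t in Ioo al be, deriv θ t = 0 := by
      have h5 : ∫ t in Ioo al be, deriv θ t = ∫ t, deriv θ t :=
        setIntegral_eq_integral_of_forall_compl_eq_zero hθ0
      rw [h5]
      exact integral_eq_zero_of_hasDerivAt_of_integrable (fun t => (hθd t).hasDerivAt)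
        (hθ'c.integrable_of_hasCompactSupport hθ'cs)
        (hθ.continuous.integrable_of_hasCompactSupport hθc)
    rw [h4, zero_mul]
  rw [hT0, add_zero]
  refine setIntegral_congr_fun hSm ?_
  rintro p ⟨h1, h2, h3, h4⟩
  simp only
  obtain ⟨y, hy⟩ := hne _ h3
  have h5 : -R < y := hR _ (hKE hy)
  have h6 : y < p.im := h2 y hy
  rw [hκ1 p.im ⟨by linarith, h4.le⟩, mul_one]

end Crest.Agent.R105.Sqr_185
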