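import Crest.Agent.R105.Crx1_33
import Crest.Agent.R105.Sqr4_185

/-!
# Row 105, S0138, E13 (ATN): CROSS at a solid (helper33), form of 619 #11298

A continuum `c` in `{sg0 < re}` off the solid `K0` (square `[al,al+s] x [b,b+s]` plus vertical pieces)
joins a point above the square to a point below it (over abscissae `x1, x2 < m`). Then a path connected
set `D` off `K0`, off `c` and off the two vertical tails, which reaches `{re ≤ sg0}`, cannot come close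
to `K0 ∩ {m ≤ re}` from `{m ≤ re}`.
-/

set_option autoImplicit false

open Set Filter Topology Metric

namespace Crest.Agent.R105.Crx_33

open Sqr_185

/-- coordinates -/
def pr (z : ℂ) : ℝ × ℝ := (z.re, z.im)

lemma continuous_pr : Continuous pr := Complex.continuous_re.prodMk Complex.continuous_im

lemma pr_inj : Function.Injective pr := fun z w h => by
  have h1 := congrArg Prod.fst h
  have h2 := congrArg Prod.snd h
  exact Complex.ext h1 h2

lemma mem_pr {c : Set ℂ} {x y : ℝ} : (x, y) ∈ pr '' c ↔ (⟨x, y⟩ : ℂ) ∈ c := by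
  constructor
  · rintro ⟨z, hz, h⟩
    have h1 := congrArg Prod.fst h
    have h2 := congrArg Prod.snd h
    simp only [pr] at h1 h2
    subst h1 h2
    exact hz
  · intro h; exact ⟨_, h, rfl⟩

/-- **CROSS at a solid** (right half plane) -/
theorem cross_sq {K0 : Set ℂ} {al b s sg0 x1 x2 y1 y2 m : ℝ} (hK : IsCompact K0)
    (hord : ∀ t, OrdConnected (sec K0 t)) (hQ : SqK K0 al b s) (h0 : al ≤ sg0)
    (h01 : sg0 < x1) (h02 : sg0 < x2) (h1m : x1 < m) (h2m : x2 < m)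
    {c : Set ℂ} (hc : IsCompact c) (hcp : IsPreconnected c) (hcK : ∀ z ∈ c, z ∉ K0)
    (hcr : ∀ z ∈ c, sg0 < z.re) (hT : (⟨x1, y1⟩ : ℂ) ∈ c) (hB : (⟨x2, y2⟩ : ℂ) ∈ c)
    (hy1 : b + s ≤ y1) (hy2 : y2 ≤ b)
    {D : Set ℂ} (hD : ∀ z ∈ D, ∀ w ∈ D, JoinedIn D z w) (hDK : ∀ z ∈ D, z ∉ K0)
    (hDc : ∀ z ∈ D, z ∉ c) (hDT : ∀ y ∈ Icc (b + s) y1, (⟨x1, y⟩ : ℂ) ∉ D)
    (hDB : ∀ y ∈ Icc y2 b, (⟨x2, y⟩ : ℂ) ∉ D)
    (hex : ∃ w ∈ D, w.re ≤ sg0)
    (hcl : ∀ δ > 0, ∃ z ∈ D, m ≤ z.re ∧ ∃ p ∈ K0, m ≤ p.re ∧ dist z p < δ) : False := by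
  -- distance of `c` to `K0`
  obtain ⟨δ, hδ, hdist⟩ : ∃ δ > 0, ∀ p ∈ K0, ∀ q ∈ c, δ ≤ dist q p := by
    have hdj : Disjoint K0 c := disjoint_left.2 fun z h1 h2 => hcK z h2 h1
    obtain ⟨r, hr, h⟩ := hK.exists_thickening_subset_open (t := cᶜ) hc.isClosed.isOpen_compl
      (fun z hz hzc => disjoint_left.1 hdj hz hzc)
    refine ⟨r, hr, fun p hp q hq => ?_⟩
    by_contra hcon
    exact h (mem_thickening_iff.2 ⟨p, hp, not_le.1 hcon⟩) hq
  obtain ⟨z, hzD, hzm, p, hpK, hpm, hzp⟩ := hcl δ hδ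
  obtain ⟨w, hwD, hw0⟩ := hex
  obtain ⟨γ0, hγ0⟩ := hD z hzD w hwD
  have hpre := hQ.re_mem p hpK
  have hs : 0 < s := by linarith [hpre.2]
  set γ : ℝ → ℝ × ℝ := fun t => pr (γ0.extend t) with hγ
  have hγc : Continuous γ := continuous_pr.comp γ0.continuous_extend
  have hγD : ∀ t, γ0.extend t ∈ D := fun t => by
    have h1 : γ0.extend t ∈ range γ0.extend := mem_range_self t
    rw [γ0.extend_range] at h1
    obtain ⟨u, hu⟩ := h1
    rw [← hu]; exact hγ0 u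
  have e0 : γ 0 = pr z := by simp [hγ]
  have e1 : γ 1 = pr w := by simp [hγ]
  obtain ⟨τ, hτ, hτσ, hlt⟩ := first_exit (σ := sg0) hγc.continuousOn
    (by rw [e0]; exact lt_of_lt_of_le (by linarith) hzm) (by rw [e1]; exact hw0)
  set ys : ℝ := (γ τ).2 with hys
  have hτe : γ τ = (sg0, ys) := Prod.ext hτσ rfl
  have hysD : (⟨sg0, ys⟩ : ℂ) ∈ D := by
    have h1 := hγD τ
    have h2 : γ0.extend τ = ⟨sg0, ys⟩ := pr_inj hτe
    rwa [h2] at h1
  have hsg : sg0 ∈ Icc al (al + s) := ⟨h0, by linarith [hpre.2]⟩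
  have hys' : ys < b ∨ b + s < ys := by
    by_contra hcon
    push Not at hcon
    exact hDK _ hysD (hQ.sub ⟨sg0, ys⟩ hsg hcon)
  -- the two continua
  set C : Set (ℝ × ℝ) := (Icc sg0 x1 ×ˢ {b + s}) ∪ (({x1} ×ˢ Icc (b + s) y1) ∪ (pr '' c ∪
    (({x2} ×ˢ Icc y2 b) ∪ (Icc sg0 x2 ×ˢ {b})))) with hC
  have hCc : IsCompact C := (hseg_compact _ _ _).union ((vseg_compact _ _ _).union
    ((hc.image continuous_pr).union ((vseg_compact _ _ _).union (hseg_compact _ _ _))))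
  have hCn : IsPreconnected C := by
    have i1 : IsPreconnected ((({x2} : Set ℝ) ×ˢ Icc y2 b) ∪ (Icc sg0 x2 ×ˢ ({b} : Set ℝ))) :=
      (vseg_conn _ _ _).union (x2, b) ⟨rfl, hy2, le_rfl⟩ ⟨⟨h02.le, le_rfl⟩, rfl⟩ (hseg_conn _ _ _)
    have i2 : IsPreconnected (pr '' c ∪ ((({x2} : Set ℝ) ×ˢ Icc y2 b) ∪ (Icc sg0 x2 ×ˢ ({b} : Set ℝ)))) :=
      (hcp.image _ continuous_pr.continuousOn).union (x2, y2) (mem_pr.2 hB)
        (Or.inl ⟨rfl, le_rfl, hy2⟩) i1
    have i3 : IsPreconnected ((({x1} : Set ℝ) ×ˢ Icc (b + s) y1) ∪ (pr '' c ∪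
        ((({x2} : Set ℝ) ×ˢ Icc y2 b) ∪ (Icc sg0 x2 ×ˢ ({b} : Set ℝ))))) :=
      (vseg_conn _ _ _).union (x1, y1) ⟨rfl, hy1, le_rfl⟩ (Or.inl (mem_pr.2 hT)) i2
    exact (hseg_conn _ _ _).union (x1, b + s) ⟨⟨h01.le, le_rfl⟩, rfl⟩ (Or.inl ⟨rfl, le_rfl, hy1⟩) i3
  have hCx : ∀ q ∈ C, sg0 ≤ q.1 := by
    rintro q (⟨hq, _⟩ | ⟨hq, _⟩ | ⟨v, hv, rfl⟩ | ⟨hq, _⟩ | ⟨hq, _⟩)
    · exact hq.1
    · rw [mem_singleton_iff] at hq; rw [hq]; exact h01.le
    · exact (hcr v hv).le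
    · rw [mem_singleton_iff] at hq; rw [hq]; exact h02.le
    · exact hq.1
  have hCl : ∀ q ∈ C, q.1 = sg0 → b ≤ q.2 ∧ q.2 ≤ b + s := by
    rintro q (⟨_, hq⟩ | ⟨hq, _⟩ | ⟨v, hv, rfl⟩ | ⟨hq, _⟩ | ⟨_, hq⟩) hqx
    · rw [mem_singleton_iff] at hq; rw [hq]; constructor <;> linarith
    · rw [mem_singleton_iff] at hq; linarith
    · exact absurd hqx (hcr v hv).ne'
    · rw [mem_singleton_iff] at hq; linarith
    · rw [mem_singleton_iff] at hq; rw [hq]; constructor <;> linarith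
  have hC1 : (sg0, b) ∈ C := Or.inr (Or.inr (Or.inr (Or.inr ⟨⟨le_rfl, h02.le⟩, rfl⟩)))
  have hC2 : (sg0, b + s) ∈ C := Or.inl ⟨⟨le_rfl, h01.le⟩, rfl⟩
  set S : Set (ℝ × ℝ) := segment ℝ (pr z) (pr p) with hS
  have hSc : IsCompact S := by
    rw [hS, segment_eq_image_lineMap]
    exact isCompact_Icc.image AffineMap.lineMap_continuous
  have hSn : IsPreconnected S := (convex_segment _ _).isPreconnected
  set G : Set (ℝ × ℝ) := γ '' Icc 0 τ with hG
  have hGc : IsCompact G := isCompact_Icc.image hγc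
  have hGn : IsPreconnected G := isPreconnected_Icc.image _ hγc.continuousOn
  set W : Set (ℝ × ℝ) := ({p.re} ×ˢ uIcc p.im (b + s / 2)) with hW
  have hWc : IsCompact W := isCompact_singleton.prod isCompact_uIcc
  have hWn : IsPreconnected W := isPreconnected_singleton.prod isPreconnected_uIcc
  set L : Set (ℝ × ℝ) := Icc sg0 p.re ×ˢ {b + s / 2} with hL
  set A : Set (ℝ × ℝ) := G ∪ (S ∪ (W ∪ L)) with hA
  have hsp : sg0 < p.re := by linarith
  have hAc : IsCompact A := hGc.union (hSc.union (hWc.union (hseg_compact _ _ _)))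
  have hAn : IsPreconnected A := by
    have i1 : IsPreconnected (W ∪ L) := hWn.union (p.re, b + s / 2) ⟨rfl, right_mem_uIcc⟩
      ⟨⟨hsp.le, le_rfl⟩, rfl⟩ (hseg_conn _ _ _)
    have i2 : IsPreconnected (S ∪ (W ∪ L)) := hSn.union (pr p) (right_mem_segment _ _ _)
      (Or.inl ⟨rfl, left_mem_uIcc⟩) i1
    exact hGn.union (γ 0) ⟨0, ⟨le_rfl, hτ.1⟩, rfl⟩ (Or.inl (by rw [e0]; exact left_mem_segment _ _ _)) i2
  -- the pieces of `A`
  have hGx : ∀ q ∈ G, sg0 ≤ q.1 ∧ (q.1 = sg0 → q = (sg0, ys)) := by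
    rintro q ⟨t, ht, rfl⟩
    by_cases htt : t = τ
    · subst htt; exact ⟨hτσ.ge, fun _ => hτe⟩
    · have := hlt t ht htt
      exact ⟨this.le, fun h => absurd h this.ne'⟩
  have hSm : ∀ q ∈ S, m ≤ q.1 := by
    rintro q ⟨a', b', ha, hb, hab, rfl⟩
    have i1 : (a' • pr z + b' • pr p).1 = a' * z.re + b' * p.re := by simp [pr]
    rw [i1]
    have i2 : a' * z.re + b' * p.re - m = a' * (z.re - m) + b' * (p.re - m) := by
      linear_combination m * hab
    have i3 := mul_nonneg ha (sub_nonneg.2 hzm)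
    have i4 := mul_nonneg hb (sub_nonneg.2 hpm)
    linarith
  have hWK : ∀ q ∈ W, (⟨q.1, q.2⟩ : ℂ) ∈ K0 ∧ q.1 = p.re := by
    rintro ⟨x, y⟩ ⟨hx, hy⟩
    simp only [mem_singleton_iff] at hx
    simp only at hy
    subst hx
    have i1 : p.im ∈ sec K0 p.re := hpK
    have i2 : b + s / 2 ∈ sec K0 p.re := hQ.sub ⟨p.re, b + s / 2⟩ hpre ⟨by simp only; linarith, by simp only; linarith⟩
    exact ⟨(hord p.re).uIcc_subset i1 i2 hy, rfl⟩
  have hLK : ∀ q ∈ L, (⟨q.1, q.2⟩ : ℂ) ∈ K0 ∧ sg0 ≤ q.1 ∧ q.2 = b + s / 2 := by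
    rintro ⟨x, y⟩ ⟨hx, hy⟩
    simp only [mem_singleton_iff] at hy
    simp only at hx
    subst hy
    exact ⟨hQ.sub _ ⟨by simp only; linarith [hx.1], by simp only; linarith [hx.2, hpre.2]⟩
      ⟨by simp only; linarith, by simp only; linarith⟩, hx.1, rfl⟩
  have hAx : ∀ q ∈ A, sg0 ≤ q.1 := by
    rintro q (hq | hq | hq | hq)
    · exact (hGx q hq).1
    · linarith [hSm q hq]
    · rw [(hWK q hq).2]; exact hsp.le
    · exact (hLK q hq).2.1
  have hAl : ∀ q ∈ A, q.1 = sg0 → q = (sg0, ys) ∨ q.2 = b + s / 2 := by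
    rintro q (hq | hq | hq | hq) hqx
    · exact Or.inl ((hGx q hq).2 hqx)
    · linarith [hSm q hq]
    · have := (hWK q hq).2; linarith
    · exact Or.inr (hLK q hq).2.2
  have hdis : ∀ q ∈ A, q ∉ C := by
    intro q hqA hqC
    -- points of `K0` are not in `c`
    have hKc : ∀ q : ℝ × ℝ, (⟨q.1, q.2⟩ : ℂ) ∈ K0 → q ∉ pr '' c := fun q h1 h2 =>
      hcK _ (mem_pr.1 h2) h1
    rcases hqA with hq | hq | hq | hq
    · obtain ⟨t, ht, rfl⟩ := hq
      have hD' := hγD t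
      have hne := hDK _ hD'
      rcases hqC with ⟨hx, hy⟩ | ⟨hx, hy⟩ | hq' | ⟨hx, hy⟩ | ⟨hx, hy⟩
      · simp only [hγ, pr, mem_singleton_iff] at hx hy
        exact hne (hQ.sub _ ⟨by linarith [hx.1], by linarith [hx.2, hpre.2]⟩ ⟨by linarith, by linarith⟩)
      · simp only [hγ, pr, mem_singleton_iff] at hx hy
        refine hDT _ hy ?_
        rw [← hx]; exact hD'
      · obtain ⟨v, hv, hv'⟩ := hq'
        have : v = γ0.extend t := pr_inj hv'
        rw [this] at hv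
        exact hDc _ hD' hv
      · simp only [hγ, pr, mem_singleton_iff] at hx hy
        refine hDB _ hy ?_
        rw [← hx]; exact hD'
      · simp only [hγ, pr, mem_singleton_iff] at hx hy
        exact hne (hQ.sub _ ⟨by linarith [hx.1], by linarith [hx.2, hpre.2]⟩ ⟨by linarith, by linarith⟩)
    · have hm' := hSm q hq
      rcases hqC with ⟨hx, hy⟩ | ⟨hx, hy⟩ | hq' | ⟨hx, hy⟩ | ⟨hx, hy⟩
      · linarith [hx.2]
      · rw [mem_singleton_iff] at hx; linarith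
      · obtain ⟨v, hv, rfl⟩ := hq'
        -- `v` is on the segment from `z` to `p`
        have hvs : v ∈ segment ℝ z p := by
          obtain ⟨a', b', ha, hb, hab, he⟩ := hq
          refine ⟨a', b', ha, hb, hab, pr_inj ?_⟩
          rw [← he]
          simp [pr]
        have h4 : dist v p ≤ dist z p := by
          have hball : v ∈ closedBall p (dist z p) :=
            (convex_closedBall p (dist z p)).segment_subset (mem_closedBall.2 le_rfl)
              (mem_closedBall_self dist_nonneg) hvs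
          exact hball
        linarith [hdist p hpK v hv]
      · rw [mem_singleton_iff] at hx; linarith
      · linarith [hx.2]
    · obtain ⟨hk, hx0⟩ := hWK q hq
      rcases hqC with ⟨hx, hy⟩ | ⟨hx, hy⟩ | hq' | ⟨hx, hy⟩ | ⟨hx, hy⟩
      · linarith [hx.2]
      · rw [mem_singleton_iff] at hx; linarith
      · exact hKc q hk hq'
      · rw [mem_singleton_iff] at hx; linarith
      · linarith [hx.2]
    · obtain ⟨hk, hx0, hy0⟩ := hLK q hq
      rcases hqC with ⟨hx, hy⟩ | ⟨hx, hy⟩ | hq' | ⟨hx, hy⟩ | ⟨hx, hy⟩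
      · rw [mem_singleton_iff] at hy; linarith
      · linarith [hy.1]
      · exact hKc q hk hq'
      · linarith [hy.2]
      · rw [mem_singleton_iff] at hy; linarith
  have hmA : (sg0, b + s / 2) ∈ A := Or.inr (Or.inr (Or.inr ⟨⟨le_rfl, hsp.le⟩, rfl⟩))
  have hτA : (sg0, ys) ∈ A := Or.inl (hτe ▸ ⟨τ, ⟨hτ.1, le_rfl⟩, rfl⟩)
  rcases hys' with h | h
  · refine cross_dn (y0 := ys) hAc hCc hAn hCn hAx hCx hmA hτA ?_ hC1 hC2
      (fun q hq hqx => (hCl q hq hqx).1) (by linarith) (by linarith) h hdis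
    intro q hq hqx
    rcases hAl q hq hqx with rfl | hq2
    · exact ⟨by simp only; linarith, h.ne⟩
    · rw [hq2]; exact ⟨by linarith, by linarith⟩
  · refine cross_up (y3 := ys) hAc hCc hAn hCn hAx hCx hmA hτA ?_ hC1 hC2
      (fun q hq hqx => (hCl q hq hqx).2) (by linarith) (by linarith) h hdis
    intro q hq hqx
    rcases hAl q hq hqx with rfl | hq2
    · exact ⟨by simp only; linarith, h.ne'⟩
    · rw [hq2]; exact ⟨by linarith, by linarith⟩

end Crest.Agent.R105.Crx_33
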