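import Mathlib
import Crest.Agent.R105.Sep1_590

/-!
# R105, S0138, node E13, 499 #11166 (3) CROSS: the pure plane core (helper142)

`hp_cross`: two plane continua in a closed half plane whose points on the boundary line are interlaced
meet.
-/

set_option linter.style.longLine false
set_option autoImplicit false

namespace Crest.Agent.R105.Hpc_142

open Set Topology Metric Filter

/-- a closed box with sides parallel to the axes -/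
def bx (a b c d : ℝ) : Set ℂ := Icc a b ×ℂ Icc c d

theorem mem_bx {a b c d : ℝ} {z : ℂ} : z ∈ bx a b c d ↔ (a ≤ z.re ∧ z.re ≤ b) ∧ c ≤ z.im ∧ z.im ≤ d := Iff.rfl

theorem bx_compact (a b c d : ℝ) : IsCompact (bx a b c d) := isCompact_Icc.reProdIm isCompact_Icc

theorem bx_conn (a b c d : ℝ) : IsPreconnected (bx a b c d) := by
  have h : Convex ℝ (bx a b c d) := by
    intro z hz w hw s t hs ht hst
    rw [mem_bx] at hz hw
    have hr := convex_Icc a b hz.1 hw.1 hs ht hst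
    have hi := convex_Icc c d hz.2 hw.2 hs ht hst
    refine mem_bx.2 ⟨?_, ?_⟩
    · simpa using hr
    · simpa using hi
  exact h.isPreconnected

/-- Four real numbers `y1 < y2 < y3 < y4` on the line `re = σ`; `C` joins the first to the third and
`D` the second to the fourth inside the half plane `σ ≤ re`. Then `C` and `D` meet. -/
theorem hp_cross {σ y1 y2 y3 y4 : ℝ} {C D : Set ℂ} (hC : IsCompact C) (hD : IsCompact D)
    (hCc : IsPreconnected C) (hDc : IsPreconnected D)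
    (hCσ : ∀ z ∈ C, σ ≤ z.re) (hDσ : ∀ z ∈ D, σ ≤ z.re)
    (h12 : y1 < y2) (h23 : y2 < y3) (h34 : y3 < y4)
    (h1 : (⟨σ, y1⟩ : ℂ) ∈ C) (h3 : (⟨σ, y3⟩ : ℂ) ∈ C)
    (h2 : (⟨σ, y2⟩ : ℂ) ∈ D) (h4 : (⟨σ, y4⟩ : ℂ) ∈ D) : (C ∩ D).Nonempty := by
  obtain ⟨R, hR⟩ := (hC.union hD).isBounded.exists_norm_le
  have hre : ∀ z ∈ C ∪ D, |z.re| ≤ R := fun z hz => (Complex.abs_re_le_norm z).trans (hR z hz)
  have him : ∀ z ∈ C ∪ D, |z.im| ≤ R := fun z hz => (Complex.abs_im_le_norm z).trans (hR z hz)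
  have hσ : |σ| ≤ R := hre _ (Or.inl h1)
  have hy1 : |y1| ≤ R := him _ (Or.inl h1)
  have hy2 : |y2| ≤ R := him _ (Or.inr h2)
  have hy3 : |y3| ≤ R := him _ (Or.inl h3)
  have hy4 : |y4| ≤ R := him _ (Or.inr h4)
  rw [abs_le] at hσ hy1 hy2 hy3 hy4
  -- the pieces
  have key := Sep_590.cross (L := R + 1) (M := R + 1)
    (H := D ∪ bx (-(R+1)) σ y2 y2 ∪ bx (σ-1/2) σ y4 y4 ∪ bx (σ-1/2) (σ-1/2) y4 (R+1/2) ∪ bx (σ-1/2) (R+1) (R+1/2) (R+1/2))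
    (V := C ∪ bx (σ-1/4) σ y1 y1 ∪ bx (σ-1/4) (σ-1/4) (-(R+1)) y1 ∪ bx (σ-3/4) σ y3 y3 ∪ bx (σ-3/4) (σ-3/4) y3 (R+1))
    ((((hD.union (bx_compact _ _ _ _)).union (bx_compact _ _ _ _)).union (bx_compact _ _ _ _)).union (bx_compact _ _ _ _))
    ((((hC.union (bx_compact _ _ _ _)).union (bx_compact _ _ _ _)).union (bx_compact _ _ _ _)).union (bx_compact _ _ _ _))
    ?_ ?_ ?_ ?_ ?_ ?_ ?_ ?_
  · obtain ⟨z, hzH, hzV⟩ := key
    rcases hzH with (((hz | hz) | hz) | hz) | hz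
    · -- z ∈ D
      rcases hzV with (((hw | hw) | hw) | hw) | hw
      · exact ⟨z, hw, hz⟩
      · rw [mem_bx] at hw
        have hzσ := hDσ z hz
        have : z = ⟨σ, y1⟩ := Complex.ext (le_antisymm hw.1.2 hzσ) (le_antisymm hw.2.2 hw.2.1)
        exact ⟨z, this ▸ h1, hz⟩
      · rw [mem_bx] at hw
        have hzσ := hDσ z hz
        linarith [hw.1.2]
      · rw [mem_bx] at hw
        have hzσ := hDσ z hz
        have : z = ⟨σ, y3⟩ := Complex.ext (le_antisymm hw.1.2 hzσ) (le_antisymm hw.2.2 hw.2.1)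
        exact ⟨z, this ▸ h3, hz⟩
      · rw [mem_bx] at hw
        have hzσ := hDσ z hz
        linarith [hw.1.2]
    · rw [mem_bx] at hz
      rcases hzV with (((hw | hw) | hw) | hw) | hw
      · have hzσ := hCσ z hw
        have : z = ⟨σ, y2⟩ := Complex.ext (le_antisymm hz.1.2 hzσ) (le_antisymm hz.2.2 hz.2.1)
        exact ⟨z, hw, this ▸ h2⟩
      all_goals rw [mem_bx] at hw; exfalso; linarith [hz.1.1, hz.1.2, hz.2.1, hz.2.2, hw.1.1, hw.1.2, hw.2.1, hw.2.2]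
    · rw [mem_bx] at hz
      rcases hzV with (((hw | hw) | hw) | hw) | hw
      · have hzσ := hCσ z hw
        have : z = ⟨σ, y4⟩ := Complex.ext (le_antisymm hz.1.2 hzσ) (le_antisymm hz.2.2 hz.2.1)
        exact ⟨z, hw, this ▸ h4⟩
      all_goals rw [mem_bx] at hw; exfalso; linarith [hz.1.1, hz.1.2, hz.2.1, hz.2.2, hw.1.1, hw.1.2, hw.2.1, hw.2.2]
    · rw [mem_bx] at hz
      rcases hzV with (((hw | hw) | hw) | hw) | hw
      · have hzσ := hCσ z hw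
        linarith [hz.1.2]
      all_goals rw [mem_bx] at hw; exfalso; linarith [hz.1.1, hz.1.2, hz.2.1, hz.2.2, hw.1.1, hw.1.2, hw.2.1, hw.2.2]
    · rw [mem_bx] at hz
      rcases hzV with (((hw | hw) | hw) | hw) | hw
      · have := (abs_le.1 (him z (Or.inl hw))).2
        linarith [hz.2.1]
      all_goals rw [mem_bx] at hw; exfalso; linarith [hz.1.1, hz.1.2, hz.2.1, hz.2.2, hw.1.1, hw.1.2, hw.2.1, hw.2.2]
  · -- H connected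
    refine IsPreconnected.union ⟨σ - 1/2, R + 1/2⟩ ?_ ?_ (IsPreconnected.union ⟨σ - 1/2, y4⟩ ?_ ?_
      (IsPreconnected.union ⟨σ, y4⟩ ?_ ?_ (IsPreconnected.union ⟨σ, y2⟩ ?_ ?_ hDc (bx_conn _ _ _ _)) (bx_conn _ _ _ _)) (bx_conn _ _ _ _)) (bx_conn _ _ _ _)
    · exact Or.inr (mem_bx.2 ⟨⟨le_rfl, le_rfl⟩, by show y4 ≤ R + 1/2; linarith, le_rfl⟩)
    · exact mem_bx.2 ⟨⟨le_rfl, by show σ - 1/2 ≤ R + 1; linarith⟩, le_rfl, le_rfl⟩
    · exact Or.inr (mem_bx.2 ⟨⟨le_rfl, by show σ - 1/2 ≤ σ; linarith⟩, le_rfl, le_rfl⟩)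
    · exact mem_bx.2 ⟨⟨le_rfl, le_rfl⟩, le_rfl, by show y4 ≤ R + 1/2; linarith⟩
    · exact Or.inl h4
    · exact mem_bx.2 ⟨⟨by show σ - 1/2 ≤ σ; linarith, le_rfl⟩, le_rfl, le_rfl⟩
    · exact h2
    · exact mem_bx.2 ⟨⟨by show -(R+1) ≤ σ; linarith, le_rfl⟩, le_rfl, le_rfl⟩
  · -- V connected
    refine IsPreconnected.union ⟨σ - 3/4, y3⟩ ?_ ?_ (IsPreconnected.union ⟨σ, y3⟩ ?_ ?_
      (IsPreconnected.union ⟨σ - 1/4, y1⟩ ?_ ?_ (IsPreconnected.union ⟨σ, y1⟩ ?_ ?_ hCc (bx_conn _ _ _ _)) (bx_conn _ _ _ _)) (bx_conn _ _ _ _)) (bx_conn _ _ _ _)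
    · exact Or.inr (mem_bx.2 ⟨⟨le_rfl, by show σ - 3/4 ≤ σ; linarith⟩, le_rfl, le_rfl⟩)
    · exact mem_bx.2 ⟨⟨le_rfl, le_rfl⟩, le_rfl, by show y3 ≤ R + 1; linarith⟩
    · exact Or.inl (Or.inl h3)
    · exact mem_bx.2 ⟨⟨by show σ - 3/4 ≤ σ; linarith, le_rfl⟩, le_rfl, le_rfl⟩
    · exact Or.inr (mem_bx.2 ⟨⟨le_rfl, by show σ - 1/4 ≤ σ; linarith⟩, le_rfl, le_rfl⟩)
    · exact mem_bx.2 ⟨⟨le_rfl, le_rfl⟩, by show -(R+1) ≤ y1; linarith, le_rfl⟩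
    · exact h1
    · exact mem_bx.2 ⟨⟨by show σ - 1/4 ≤ σ; linarith, le_rfl⟩, le_rfl, le_rfl⟩
  · -- H in the strip
    intro z hz
    rcases hz with (((hz | hz) | hz) | hz) | hz
    · exact (him z (Or.inr hz)).trans (by linarith)
    all_goals rw [mem_bx] at hz; rw [abs_le]; constructor <;> linarith [hz.2.1, hz.2.2]
  · intro z hz
    rcases hz with (((hz | hz) | hz) | hz) | hz
    · exact (hre z (Or.inl hz)).trans (by linarith)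
    all_goals rw [mem_bx] at hz; rw [abs_le]; constructor <;> linarith [hz.1.1, hz.1.2]
  · exact ⟨⟨-(R+1), y2⟩, Or.inl (Or.inl (Or.inl (Or.inr (mem_bx.2 ⟨⟨le_rfl, by show -(R+1) ≤ σ; linarith⟩, le_rfl, le_rfl⟩)))), le_rfl⟩
  · exact ⟨⟨R+1, R+1/2⟩, Or.inr (mem_bx.2 ⟨⟨by show σ - 1/2 ≤ R+1; linarith, le_rfl⟩, le_rfl, le_rfl⟩), le_rfl⟩
  · exact ⟨⟨σ-1/4, -(R+1)⟩, Or.inl (Or.inl (Or.inr (mem_bx.2 ⟨⟨le_rfl, le_rfl⟩, le_rfl, by show -(R+1) ≤ y1; linarith⟩))), le_rfl⟩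
  · exact ⟨⟨σ-3/4, R+1⟩, Or.inr (mem_bx.2 ⟨⟨le_rfl, le_rfl⟩, by show y3 ≤ R+1; linarith, le_rfl⟩), le_rfl⟩

/-- the same in the half plane `re ≤ σ` -/
theorem hp_cross' {σ y1 y2 y3 y4 : ℝ} {C D : Set ℂ} (hC : IsCompact C) (hD : IsCompact D)
    (hCc : IsPreconnected C) (hDc : IsPreconnected D)
    (hCσ : ∀ z ∈ C, z.re ≤ σ) (hDσ : ∀ z ∈ D, z.re ≤ σ)
    (h12 : y1 < y2) (h23 : y2 < y3) (h34 : y3 < y4)
    (h1 : (⟨σ, y1⟩ : ℂ) ∈ C) (h3 : (⟨σ, y3⟩ : ℂ) ∈ C)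
    (h2 : (⟨σ, y2⟩ : ℂ) ∈ D) (h4 : (⟨σ, y4⟩ : ℂ) ∈ D) : (C ∩ D).Nonempty := by
  have hn : Continuous fun z : ℂ => -z := continuous_neg
  have hm : ∀ y : ℝ, -(⟨σ, y⟩ : ℂ) = ⟨-σ, -y⟩ := fun y => Complex.ext rfl rfl
  obtain ⟨_, ⟨z, hz, rfl⟩, ⟨w, hw, hwz⟩⟩ := hp_cross (σ := -σ) (hD.image hn) (hC.image hn) (hDc.image _ hn.continuousOn) (hCc.image _ hn.continuousOn)
    (by rintro _ ⟨z, hz, rfl⟩; have := hDσ z hz; simpa using this)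
    (by rintro _ ⟨z, hz, rfl⟩; have := hCσ z hz; simpa using this)
    (neg_lt_neg h34) (neg_lt_neg h23) (neg_lt_neg h12)
    ⟨_, h4, hm y4⟩ ⟨_, h2, hm y2⟩ ⟨_, h3, hm y3⟩ ⟨_, h1, hm y1⟩
  have : w = z := neg_injective hwz
  exact ⟨z, this ▸ hw, hz⟩

end Crest.Agent.R105.Hpc_142
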