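import Mathlib
import Crest.Agent.R105.Hpc_142

/-!
# R105, S0138, node E13, 499 #11166 (3) CROSS in the form of 619 #11298 (helper142)

`cross_sq` (half plane `sg ≤ re`), `cross_sq'` (half plane `re ≤ sg`): a continuum `c` from above the
square to below the square, over abscissas `> sg`, separates the part of `K` over abscissas `≥ m` from
the half plane `re ≤ sg`.
-/

set_option linter.style.longLine false
set_option autoImplicit false

namespace Crest.Agent.R105.Csq_142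

open Set Topology Metric Filter
open Hpc_142

/-- the piece of a path up to the first time it reaches the half plane `re ≤ sg` -/
theorem first_piece {D : Set ℂ} (hD : IsPathConnected D) {z w : ℂ} (hz : z ∈ D) (hw : w ∈ D) {sg : ℝ}
    (hzs : sg < z.re) (hws : w.re ≤ sg) :
    ∃ G ⊆ D, IsCompact G ∧ IsPreconnected G ∧ z ∈ G ∧ (∀ q ∈ G, sg ≤ q.re) ∧ ∃ q ∈ G, q.re = sg := by
  obtain ⟨γ, hγ⟩ := hD.joinedIn z hz w hw
  set g : ℝ → ℂ := fun t => γ.extend t with hg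
  have hgc : Continuous g := γ.continuous_extend
  have hg0 : g 0 = z := by simp [hg]
  have hg1 : g 1 = w := by simp [hg]
  have hgD : ∀ t ∈ Icc (0:ℝ) 1, g t ∈ D := by
    intro t ht
    show γ.extend t ∈ D
    rw [γ.extend_apply ht]
    exact hγ _
  set S : Set ℝ := Icc (0:ℝ) 1 ∩ {t | (g t).re ≤ sg} with hS
  have hSc : IsCompact S := isCompact_Icc.inter_right (isClosed_le (Complex.continuous_re.comp hgc) continuous_const)
  have hSn : S.Nonempty := ⟨1, ⟨by norm_num, le_rfl⟩, by show (g 1).re ≤ sg; rw [hg1]; exact hws⟩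
  obtain ⟨τ, hτ, hmin⟩ := hSc.exists_isLeast hSn
  have hτ01 : τ ∈ Icc (0:ℝ) 1 := hτ.1
  have hbefore : ∀ t ∈ Ico (0:ℝ) τ, sg < (g t).re := by
    intro t ht
    by_contra hcon
    have : τ ≤ t := hmin ⟨⟨ht.1, ht.2.le.trans hτ01.2⟩, not_lt.1 hcon⟩
    exact absurd ht.2 (not_lt.2 this)
  have hτpos : 0 < τ := by
    rcases hτ01.1.lt_or_eq with h | h
    · exact h
    · exfalso
      have h2 : (g τ).re ≤ sg := hτ.2
      rw [← h, hg0] at h2
      linarith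
  have hτre : (g τ).re = sg := by
    refine le_antisymm hτ.2 ?_
    have h1 : τ ∈ closure (Ico (0:ℝ) τ) := by
      rw [closure_Ico hτpos.ne]
      exact ⟨hτpos.le, le_rfl⟩
    have h2 : IsClosed {t : ℝ | sg ≤ (g t).re} := isClosed_le continuous_const (Complex.continuous_re.comp hgc)
    exact h2.closure_subset_iff.2 (fun t ht => (hbefore t ht).le) h1
  refine ⟨g '' Icc 0 τ, ?_, isCompact_Icc.image hgc, isPreconnected_Icc.image _ hgc.continuousOn,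
    ⟨0, ⟨le_rfl, hτpos.le⟩, hg0⟩, ?_, g τ, ⟨τ, ⟨hτpos.le, le_rfl⟩, rfl⟩, hτre⟩
  · rintro _ ⟨t, ht, rfl⟩
    exact hgD t ⟨ht.1, ht.2.trans hτ01.2⟩
  · rintro _ ⟨t, ht, rfl⟩
    rcases ht.2.lt_or_eq with h | h
    · exact (hbefore t ⟨ht.1, h⟩).le
    · rw [h, hτre]

variable {K c D : Set ℂ} {al b s sg m x1 x2 y1 y2 : ℝ}

/-- **CROSS.** -/
theorem cross_sq (hK : IsCompact K) (hs : 0 < s) (hre : ∀ p ∈ K, p.re ≤ al + s)
    (hsub : ∀ p : ℂ, p.re ∈ Icc al (al + s) → p.im ∈ Icc b (b + s) → p ∈ K)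
    (hord : ∀ t : ℝ, OrdConnected {y : ℝ | (⟨t, y⟩ : ℂ) ∈ K})
    (h0 : al ≤ sg) (hx1 : sg < x1) (hx2 : sg < x2) (hm1 : x1 < m) (hm2 : x2 < m)
    (hc : IsCompact c) (hcp : IsPreconnected c) (hcK : Disjoint c K) (hcr : ∀ z ∈ c, sg ≤ z.re)
    (hT : (⟨x1, y1⟩ : ℂ) ∈ c) (hy1 : b + s < y1)
    (hB : (⟨x2, y2⟩ : ℂ) ∈ c) (hy2 : y2 < b)
    (hD : IsPathConnected D) (hDK : Disjoint D K) (hDc : Disjoint D c)
    (hDT : ∀ y ∈ Ioc (b + s) y1, (⟨x1, y⟩ : ℂ) ∉ D) (hDB : ∀ y ∈ Ico y2 b, (⟨x2, y⟩ : ℂ) ∉ D)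
    (hw : ∃ w ∈ D, w.re ≤ sg)
    (hz : ∀ δ > 0, ∃ z ∈ D, ∃ p ∈ K, m ≤ z.re ∧ m ≤ p.re ∧ dist z p < δ) : False := by
  -- the distance between `c` and `K`
  obtain ⟨δ, hδ, hδ'⟩ : ∃ δ > 0, ∀ q ∈ c, ∀ p ∈ K, δ ≤ dist q p := by
    obtain ⟨δ, hδ, h⟩ := hcK.exists_thickenings hc hK.isClosed
    refine ⟨δ, hδ, fun q hq p hp => ?_⟩
    by_contra hcon
    rw [not_le] at hcon
    exact (disjoint_left.1 h) (mem_thickening_iff.2 ⟨q, hq, by rw [dist_comm]; exact hcon⟩ : p ∈ thickening δ c) (self_subset_thickening hδ K hp)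
  obtain ⟨w, hwD, hws⟩ := hw
  obtain ⟨z, hzD, p, hpK, hzm, hpm, hzp⟩ := hz δ hδ
  obtain ⟨G, hGD, hG, hGc, hzG, hGs, q, hqG, hqs⟩ := first_piece hD hzD hwD (by linarith : sg < z.re) hws
  have hpa : p.re ≤ al + s := hre p hpK
  have hx1a : x1 ≤ al + s := by linarith
  have hx2a : x2 ≤ al + s := by linarith
  -- the segment
  have hseg : ∀ r ∈ segment ℝ z p, m ≤ r.re ∧ r ∉ c := by
    intro r hr
    have h1 : m ≤ r.re := by
      obtain ⟨u, v, hu, hv, huv, rfl⟩ := hr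
      have : (u • z + v • p).re = u * z.re + v * p.re := by simp
      rw [this]
      have h3 : m = u * m + v * m := by rw [← add_mul, huv, one_mul]
      rw [h3]
      exact add_le_add (mul_le_mul_of_nonneg_left hzm hu) (mul_le_mul_of_nonneg_left hpm hv)
    refine ⟨h1, fun hrc => ?_⟩
    have h2 : dist r p ≤ dist z p := by
      have := segment_subset_closedBall_right z p hr
      rw [mem_closedBall] at this
      rw [dist_comm z p] at *
      simpa [dist_comm] using this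
    exact absurd (hδ' r hrc p hpK) (not_le.2 (h2.trans_lt hzp))
  -- sides of the square
  have hside : ∀ x y : ℝ, al ≤ x → x ≤ al + s → b ≤ y → y ≤ b + s → (⟨x, y⟩ : ℂ) ∈ K :=
    fun x y h1 h2 h3 h4 => hsub ⟨x, y⟩ ⟨h1, h2⟩ ⟨h3, h4⟩
  have hpv : ∀ r ∈ bx p.re p.re (min p.im (b + s/2)) (max p.im (b + s/2)), r ∈ K := by
    intro r hr
    rw [mem_bx] at hr
    have hrr : r = ⟨p.re, r.im⟩ := Complex.ext (le_antisymm hr.1.2 hr.1.1) rfl
    have h1 : p.im ∈ {y : ℝ | (⟨p.re, y⟩ : ℂ) ∈ K} := hpK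
    have h2 : b + s/2 ∈ {y : ℝ | (⟨p.re, y⟩ : ℂ) ∈ K} := hside _ _ (by linarith) hpa (by linarith) (by linarith)
    have h3 := (hord p.re).uIcc_subset h1 h2
    have h4 : r.im ∈ uIcc p.im (b + s/2) := hr.2
    rw [hrr]
    exact h3 h4
  set C' : Set ℂ := c ∪ bx x1 x1 (b + s) y1 ∪ bx sg x1 (b + s) (b + s) ∪ bx x2 x2 y2 b ∪ bx sg x2 b b with hC'
  set D' : Set ℂ := G ∪ segment ℝ z p ∪ bx p.re p.re (min p.im (b + s/2)) (max p.im (b + s/2)) ∪ bx sg p.re (b + s/2) (b + s/2) with hD'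
  have hC'c : IsCompact C' := (((hc.union (bx_compact _ _ _ _)).union (bx_compact _ _ _ _)).union (bx_compact _ _ _ _)).union (bx_compact _ _ _ _)
  have hsegc : IsCompact (segment ℝ z p) := by
    rw [segment_eq_image_lineMap]
    exact isCompact_Icc.image (AffineMap.lineMap_continuous)
  have hD'c : IsCompact D' := ((hG.union hsegc).union (bx_compact _ _ _ _)).union (bx_compact _ _ _ _)
  have hC'p : IsPreconnected C' := by
    refine IsPreconnected.union ⟨x2, b⟩ ?_ ?_ (IsPreconnected.union ⟨x2, y2⟩ ?_ ?_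
      (IsPreconnected.union ⟨x1, b + s⟩ ?_ ?_ (IsPreconnected.union ⟨x1, y1⟩ ?_ ?_ hcp (bx_conn _ _ _ _)) (bx_conn _ _ _ _)) (bx_conn _ _ _ _)) (bx_conn _ _ _ _)
    · exact Or.inr (mem_bx.2 ⟨⟨le_rfl, le_rfl⟩, hy2.le, le_rfl⟩)
    · exact mem_bx.2 ⟨⟨hx2.le, le_rfl⟩, le_rfl, le_rfl⟩
    · exact Or.inl (Or.inl hB)
    · exact mem_bx.2 ⟨⟨le_rfl, le_rfl⟩, le_rfl, hy2.le⟩
    · exact Or.inr (mem_bx.2 ⟨⟨le_rfl, le_rfl⟩, le_rfl, hy1.le⟩)
    · exact mem_bx.2 ⟨⟨hx1.le, le_rfl⟩, le_rfl, le_rfl⟩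
    · exact hT
    · exact mem_bx.2 ⟨⟨le_rfl, le_rfl⟩, hy1.le, le_rfl⟩
  have hD'p : IsPreconnected D' := by
    refine IsPreconnected.union ⟨p.re, b + s/2⟩ ?_ ?_ (IsPreconnected.union p ?_ ?_
      (IsPreconnected.union z hzG (left_mem_segment ℝ z p) hGc (convex_segment z p).isPreconnected) (bx_conn _ _ _ _)) (bx_conn _ _ _ _)
    · exact Or.inr (mem_bx.2 ⟨⟨le_rfl, le_rfl⟩, min_le_right _ _, le_max_right _ _⟩)
    · exact mem_bx.2 ⟨⟨by show sg ≤ p.re; linarith, le_rfl⟩, le_rfl, le_rfl⟩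
    · exact Or.inr (right_mem_segment ℝ z p)
    · exact mem_bx.2 ⟨⟨le_rfl, le_rfl⟩, min_le_left _ _, le_max_left _ _⟩
  have hC's : ∀ r ∈ C', sg ≤ r.re := by
    intro r hr
    rcases hr with (((hr | hr) | hr) | hr) | hr
    · exact hcr r hr
    all_goals rw [mem_bx] at hr; linarith [hr.1.1]
  have hD's : ∀ r ∈ D', sg ≤ r.re := by
    intro r hr
    rcases hr with ((hr | hr) | hr) | hr
    · exact hGs r hr
    · linarith [(hseg r hr).1]
    · rw [mem_bx] at hr; linarith [hr.1.1]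
    · rw [mem_bx] at hr; linarith [hr.1.1]
  have hdis : ∀ r ∈ C', r ∉ D' := by
    intro r hr hr'
    rcases hr' with ((hr' | hr') | hr') | hr'
    · -- `r` in the path
      have hrD : r ∈ D := hGD hr'
      rcases hr with (((hr | hr) | hr) | hr) | hr
      · exact disjoint_left.1 hDc hrD hr
      · rw [mem_bx] at hr
        have hrr : r = ⟨x1, r.im⟩ := Complex.ext (le_antisymm hr.1.2 hr.1.1) rfl
        rcases hr.2.1.lt_or_eq with h | h
        · exact hDT r.im ⟨h, hr.2.2⟩ (hrr ▸ hrD)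
        · refine disjoint_left.1 hDK hrD ?_
          rw [hrr, ← h]
          exact hside _ _ (by linarith) hx1a (by linarith) le_rfl
      · rw [mem_bx] at hr
        refine disjoint_left.1 hDK hrD (hsub r ⟨by linarith [hr.1.1], by linarith [hr.1.2]⟩ ⟨by linarith [hr.2.1], hr.2.2⟩)
      · rw [mem_bx] at hr
        have hrr : r = ⟨x2, r.im⟩ := Complex.ext (le_antisymm hr.1.2 hr.1.1) rfl
        rcases hr.2.2.lt_or_eq with h | h
        · exact hDB r.im ⟨hr.2.1, h⟩ (hrr ▸ hrD)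
        · refine disjoint_left.1 hDK hrD ?_
          rw [hrr, h]
          exact hside _ _ (by linarith) hx2a le_rfl (by linarith)
      · rw [mem_bx] at hr
        refine disjoint_left.1 hDK hrD (hsub r ⟨by linarith [hr.1.1], by linarith [hr.1.2]⟩ ⟨hr.2.1, by linarith [hr.2.2]⟩)
    · -- `r` in the segment
      obtain ⟨h1, h2⟩ := hseg r hr'
      rcases hr with (((hr | hr) | hr) | hr) | hr
      · exact h2 hr
      all_goals rw [mem_bx] at hr; linarith [hr.1.2]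
    · -- `r` in the vertical part over `p`
      have hrK := hpv r hr'
      rw [mem_bx] at hr'
      rcases hr with (((hr | hr) | hr) | hr) | hr
      · exact disjoint_left.1 hcK hr hrK
      all_goals rw [mem_bx] at hr; linarith [hr.1.2, hr'.1.1]
    · -- `r` in the middle line
      rw [mem_bx] at hr'
      have hrK : r ∈ K := hsub r ⟨by linarith [hr'.1.1], by linarith [hr'.1.2]⟩ ⟨by linarith [hr'.2.1], by linarith [hr'.2.2]⟩
      rcases hr with (((hr | hr) | hr) | hr) | hr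
      · exact disjoint_left.1 hcK hr hrK
      all_goals rw [mem_bx] at hr; linarith [hr.2.1, hr.2.2, hr'.2.1, hr'.2.2]
  -- the four points on the line
  have hCt : (⟨sg, b + s⟩ : ℂ) ∈ C' := Or.inl (Or.inl (Or.inr (mem_bx.2 ⟨⟨le_rfl, hx1.le⟩, le_rfl, le_rfl⟩)))
  have hCb : (⟨sg, b⟩ : ℂ) ∈ C' := Or.inr (mem_bx.2 ⟨⟨le_rfl, hx2.le⟩, le_rfl, le_rfl⟩)
  have hDm : (⟨sg, b + s/2⟩ : ℂ) ∈ D' := Or.inr (mem_bx.2 ⟨⟨le_rfl, by show sg ≤ p.re; linarith⟩, le_rfl, le_rfl⟩)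
  have hqe : q = ⟨sg, q.im⟩ := Complex.ext hqs rfl
  have hDq : (⟨sg, q.im⟩ : ℂ) ∈ D' := hqe ▸ Or.inl (Or.inl (Or.inl hqG))
  have hqK : q ∉ K := disjoint_left.1 hDK (hGD hqG)
  have hq2 : ¬ (b ≤ q.im ∧ q.im ≤ b + s) := fun h => hqK (hsub q ⟨by rw [hqs]; exact h0, by rw [hqs]; linarith⟩ h)
  rcases lt_or_ge q.im b with h | h
  · obtain ⟨r, h1, h2⟩ := hp_cross hD'c hC'c hD'p hC'p hD's hC's h (by linarith : b < b + s/2) (by linarith : b + s/2 < b + s) hDq hDm hCb hCt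
    exact hdis r h2 h1
  · have h5 : b + s < q.im := by
      by_contra hcon
      exact hq2 ⟨h, not_lt.1 hcon⟩
    obtain ⟨r, h1, h2⟩ := hp_cross hC'c hD'c hC'p hD'p hC's hD's (by linarith : b < b + s/2) (by linarith : b + s/2 < b + s) h5 hCb hCt hDm hDq
    exact hdis r h1 h2

/-- **CROSS**, the mirror image (half plane `re ≤ sg`). -/
theorem cross_sq' (hK : IsCompact K) (hs : 0 < s) (hre : ∀ p ∈ K, al ≤ p.re)
    (hsub : ∀ p : ℂ, p.re ∈ Icc al (al + s) → p.im ∈ Icc b (b + s) → p ∈ K)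
    (hord : ∀ t : ℝ, OrdConnected {y : ℝ | (⟨t, y⟩ : ℂ) ∈ K})
    (h0 : sg ≤ al + s) (hx1 : x1 < sg) (hx2 : x2 < sg) (hm1 : m < x1) (hm2 : m < x2)
    (hc : IsCompact c) (hcp : IsPreconnected c) (hcK : Disjoint c K) (hcr : ∀ z ∈ c, z.re ≤ sg)
    (hT : (⟨x1, y1⟩ : ℂ) ∈ c) (hy1 : b + s < y1)
    (hB : (⟨x2, y2⟩ : ℂ) ∈ c) (hy2 : y2 < b)
    (hD : IsPathConnected D) (hDK : Disjoint D K) (hDc : Disjoint D c)
    (hDT : ∀ y ∈ Ioc (b + s) y1, (⟨x1, y⟩ : ℂ) ∉ D) (hDB : ∀ y ∈ Ico y2 b, (⟨x2, y⟩ : ℂ) ∉ D)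
    (hw : ∃ w ∈ D, sg ≤ w.re)
    (hz : ∀ δ > 0, ∃ z ∈ D, ∃ p ∈ K, z.re ≤ m ∧ p.re ≤ m ∧ dist z p < δ) : False := by
  have hn : Continuous fun z : ℂ => -z := continuous_neg
  have hm : ∀ x y : ℝ, (⟨-x, -y⟩ : ℂ) = -(⟨x, y⟩ : ℂ) := fun x y => Complex.ext rfl rfl
  have hmem : ∀ (S : Set ℂ) (q : ℂ), q ∈ (fun z : ℂ => -z) '' S ↔ -q ∈ S := by
    intro S q
    constructor
    · rintro ⟨z, hz, rfl⟩; simpa using hz
    · intro h; exact ⟨-q, h, by simp⟩
  have hmem' : ∀ (S : Set ℂ) (x y : ℝ), (⟨x, y⟩ : ℂ) ∈ (fun z : ℂ => -z) '' S ↔ (⟨-x, -y⟩ : ℂ) ∈ S := by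
    intro S x y
    rw [hmem, hm]
  have hdj : ∀ S T : Set ℂ, Disjoint S T → Disjoint ((fun z : ℂ => -z) '' S) ((fun z : ℂ => -z) '' T) := by
    intro S T h
    exact (Set.disjoint_image_iff neg_injective).2 h
  refine cross_sq (K := (fun z : ℂ => -z) '' K) (c := (fun z : ℂ => -z) '' c) (D := (fun z : ℂ => -z) '' D)
    (al := -(al + s)) (b := -(b + s)) (s := s) (sg := -sg) (m := -m) (x1 := -x2) (x2 := -x1) (y1 := -y2) (y2 := -y1)
    (hK.image hn) hs ?_ ?_ ?_ (by linarith) (by linarith) (by linarith) (by linarith) (by linarith)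
    (hc.image hn) (hcp.image _ hn.continuousOn) (hdj _ _ hcK) ?_ ?_ (by linarith) ?_ (by linarith)
    (hD.image hn) (hdj _ _ hDK) (hdj _ _ hDc) ?_ ?_ ?_ ?_
  · rintro _ ⟨p, hp, rfl⟩
    have := hre p hp
    simp only [Complex.neg_re]
    linarith
  · intro p hp1 hp2
    rw [hmem]
    refine hsub _ ?_ ?_
    · simp only [Complex.neg_re, mem_Icc] at *
      constructor <;> linarith [hp1.1, hp1.2]
    · simp only [Complex.neg_im, mem_Icc] at *
      constructor <;> linarith [hp2.1, hp2.2]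
  · intro t
    refine ⟨fun x hx y hy r hr => ?_⟩
    rw [mem_ofPred_eq, hmem'] at hx hy ⊢
    exact (hord (-t)).out hy hx ⟨neg_le_neg hr.2, neg_le_neg hr.1⟩
  · rintro _ ⟨z, hz, rfl⟩
    have := hcr z hz
    simp only [Complex.neg_re]
    linarith
  · rw [hmem']; simpa using hB
  · rw [hmem']; simpa using hT
  · intro y hy h
    rw [hmem'] at h
    exact hDB (-y) ⟨by linarith [hy.2], by linarith [hy.1]⟩ (by simpa using h)
  · intro y hy h
    rw [hmem'] at h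
    exact hDT (-y) ⟨by linarith [hy.2], by linarith [hy.1]⟩ (by simpa using h)
  · obtain ⟨w, hwD, hws⟩ := hw
    exact ⟨-w, ⟨w, hwD, rfl⟩, by simp only [Complex.neg_re]; linarith⟩
  · intro δ hδ
    obtain ⟨z, hzD, p, hpK, h1, h2, h3⟩ := hz δ hδ
    refine ⟨-z, ⟨z, hzD, rfl⟩, -p, ⟨p, hpK, rfl⟩, ?_, ?_, ?_⟩
    · simp only [Complex.neg_re]; linarith
    · simp only [Complex.neg_re]; linarith
    · rwa [dist_neg_neg]

end Crest.Agent.R105.Csq_142
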