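import Crest.Agent.R105.SkA1_8
import Crest.Agent.R105.C2c_86

/-!
# Row 105, S0138, first half, leaf `CUTP` of `SkA1_8` (helper156): cut-off at infinity (logarithmic
cut-off of 939, product estimate of 86) in the `T`-frame, and leaf `VALP`
-/

set_option autoImplicit false

open MeasureTheory Set Filter Topology Metric Bornology
open scoped NNReal ENNReal ContDiff

namespace Crest.Agent.R105.Ctp_156

open Crest.AnalysisR Bd_775 Tc_808 Ni_459 Grd_782 C2c_86
open Crest.Agent.R105.IfB_641 (J di lap X0)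

/-- **cut-off at infinity in the `T`-frame** -/
theorem cutoff_T {Y : Set ℂ} {x0 b : ℂ → ℝ} (hY : IsCompact Y) (hx : X0 Y x0) (hb : TT Y b)
    {ε : ℝ} (hε : 0 < ε) : ∃ b' : ℂ → ℝ, TT Y b' ∧ HasCompactSupport b' ∧
      (∀ᶠ z in 𝓝ˢ Y, b' z = b z) ∧ (∀ K : Cmp Y, osc Y b' K.1 = osc Y b K.1) ∧
      J Y x0 b' ≤ J Y x0 b + ε ∧ (∀ z, |b' z| ≤ |b z|) := by
  have hYc := hY.isClosed
  obtain ⟨M, hM⟩ := hb.q.bdd
  obtain ⟨R1, hR1⟩ := hx.lap_far
  obtain ⟨R2, hR2⟩ := hY.isBounded.subset_ball (0 : ℂ)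
  set E : ℝ := di Y b b with hE
  have hE0 : 0 ≤ E := di_self_nonneg b
  set s : ℝ := ε / (2 * (E + 1)) with hs
  have hs0 : 0 < s := by positivity
  set κ : ℝ := ε / (2 * ((1 + 1 / s) * (M ^ 2 + 1))) with hκ
  have hκ0 : 0 < κ := by positivity
  obtain ⟨χ, ⟨L, hK⟩, hχc, hχ1, hχR, hχi, hχe⟩ := Stk_939.exists_cut_inf (max R1 R2) hκ0
  have hlc : LC Y χ := by
    refine Bd_775.LC.of_lipschitz hK hχc fun z hz => ?_
    have hz2 : ‖z‖ < R2 := by simpa using hR2 hz
    have hev : ∀ᶠ w in 𝓝 z, ‖w‖ < R2 := continuous_norm.continuousAt.eventually (gt_mem_nhds hz2)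
    filter_upwards [hev] with w hw
    rw [hχR w (hw.le.trans (le_max_right _ _)), hχR z (hz2.le.trans (le_max_right _ _))]
  have hQ : Q Y (fun z => χ z * b z) := Bd_775.Q.mul hYc hlc.q hb.q
  have hnear : ∀ z ∈ ball (0 : ℂ) R2, χ z * b z = b z := by
    intro z hz
    have hz2 : ‖z‖ < R2 := by simpa using hz
    rw [hχR z (hz2.le.trans (le_max_right _ _)), one_mul]
  have hosc : ∀ K : Cmp Y, osc Y (fun z => χ z * b z) K.1 = osc Y b K.1 := by
    rintro ⟨K, z, hz, rfl⟩
    exact osc_congr isOpen_ball ((connectedComponentIn_subset _ _).trans hR2)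
      fun w hw _ => hnear w hw
  refine ⟨fun z => χ z * b z, ⟨hQ, ?_⟩, hχc.mul_right, ?_, hosc, ?_, ?_⟩
  · simpa only [hosc] using hb.sum
  · exact mem_nhdsSet_iff_exists.2 ⟨ball 0 R2, isOpen_ball, hR2, fun z hz => hnear z hz⟩
  · have h1 : (∫ z, (χ z * b z) * lap x0 z) = ∫ z, b z * lap x0 z := by
      congr 1
      funext z
      by_cases hz : R1 < ‖z‖
      · rw [hR1 z hz]; simp
      · rw [hχR z ((not_lt.1 hz).trans (le_max_left _ _)), one_mul]
    have h2 : di Y (fun z => χ z * b z) (fun z => χ z * b z) ≤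
        (1 + s) * E + (1 + 1 / s) * M ^ 2 * κ := by
      rw [di_self, hE, di_self]
      have hint : IntegrableOn (fun z => (1 + s) * en b z + (1 + 1 / s) * M ^ 2 * en χ z) Yᶜ :=
        (hb.q.fin.const_mul _).add (hχi.integrableOn.const_mul _)
      calc (∫ z in Yᶜ, en (fun z => χ z * b z) z)
          ≤ ∫ z in Yᶜ, ((1 + s) * en b z + (1 + 1 / s) * M ^ 2 * en χ z) := by
            refine integral_mono_ae hQ.fin hint ?_
            filter_upwards [hb.q.ae_diff hYc, hlc.q.ae_diff hYc] with z d1 d2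
            refine en_mul_le_t d2 d1 hs0 ?_ (hM z)
            rw [abs_le]
            exact ⟨by linarith [(hχ1 z).1], (hχ1 z).2⟩
        _ = (1 + s) * (∫ z in Yᶜ, en b z) + (1 + 1 / s) * M ^ 2 * ∫ z in Yᶜ, en χ z := by
            rw [integral_add (hb.q.fin.const_mul _) (hχi.integrableOn.const_mul _),
              integral_const_mul, integral_const_mul]
        _ ≤ (1 + s) * (∫ z in Yᶜ, en b z) + (1 + 1 / s) * M ^ 2 * κ := by
            have : (∫ z in Yᶜ, en χ z) ≤ ∫ z, en χ z :=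
              setIntegral_le_integral hχi (Eventually.of_forall fun z => en_nonneg χ z)
            have h4 : 0 ≤ (1 + 1 / s) * M ^ 2 := by positivity
            have := mul_le_mul_of_nonneg_left (this.trans hχe) h4
            linarith
    have h3 : s * E ≤ ε / 2 := by
      rw [hs, div_mul_eq_mul_div, div_le_div_iff₀ (by positivity) two_pos]
      nlinarith
    have h4 : (1 + 1 / s) * M ^ 2 * κ ≤ ε / 2 := by
      have h5 : 0 < 1 + 1 / s := by positivity
      rw [hκ, mul_div_assoc', div_le_div_iff₀ (by positivity) two_pos]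
      nlinarith [mul_pos h5 hε, sq_nonneg M]
    unfold J
    rw [h1]
    have : (1 + s) * E = E + s * E := by ring
    linarith
  · intro z
    rw [abs_mul]
    have : |χ z| ≤ 1 := by
      rw [abs_le]
      exact ⟨by linarith [(hχ1 z).1], (hχ1 z).2⟩
    calc |χ z| * |b z| ≤ 1 * |b z| := mul_le_mul_of_nonneg_right this (abs_nonneg _)
      _ = _ := one_mul _

/-- **CUTP** -/
theorem cutP : SkA_8.CUTP := by
  intro Y x0 hY hx b hb ε hε
  have hYc : IsCompact Y := cpt_of hY
  obtain ⟨b', h1, h2, h3, h4, h5, -⟩ := cutoff_T hYc hx hb hε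
  refine ⟨b', h1, h2, h3, ?_⟩
  unfold TJ
  simp only [h4]
  linarith

/-- **VALP** -/
theorem valP : SkA_8.VALP := by
  intro Y a b w hY ha hb hw hn S hS h
  have hcj : (Jmp Y b).Countable := by
    refine (hb.sum.countable_support).mono fun K hK => ?_
    have h1 : osc Y b K.1 ≠ 0 := hK
    exact Function.mem_support.2 (pow_ne_zero 2 h1)
  set V : Set ℝ := (fun K : Cmp Y => up Y w K.2.choose) '' Jmp Y b with hV
  have hVc : V.Countable := hcj.image _
  have hsub : NP Y a w ⊆ NP Y a b ∪ Prod.snd ⁻¹' (S ∪ V) := by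
    rintro p ⟨z, hz, h1, h2, h3, h4⟩
    rcases h z hz (h3.trans h4.symm) with ⟨h5, h6⟩ | h5 | h5
    · exact Or.inl ⟨z, hz, h1, h2, by rw [h5, h6, h4], by rw [h6, h4]⟩
    · exact Or.inr (Or.inl (by rwa [h4] at h5))
    · refine Or.inr (Or.inr ?_)
      set K : Cmp Y := ⟨connectedComponentIn Y z, z, hz, rfl⟩ with hK
      refine ⟨K, ?_, ?_⟩
      · show osc Y b (connectedComponentIn Y z) ≠ 0
        rw [Ni_459.osc_eq hY hb.q.bdd hz]
        exact fun hc => h5 (sub_eq_zero.1 hc).symm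
      · have h7 := K.2.choose_spec
        have h8 : z ∈ connectedComponentIn Y K.2.choose := by
          rw [← h7.2]; exact mem_connectedComponentIn hz
        show up Y w K.2.choose = p.2
        rw [← up_congr_cc h7.1 h8, h4]
  refine measure_mono_null hsub (measure_union_null hn ?_)
  have hc : (S ∪ V).Countable := hS.union hVc
  have : Prod.snd ⁻¹' (S ∪ V) = (univ : Set ℝ) ×ˢ (S ∪ V) := by ext p; simp
  rw [this, Measure.volume_eq_prod, Measure.prod_prod, hc.measure_zero, mul_zero]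

end Crest.Agent.R105.Ctp_156
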