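import Crest.Agent.R105.Stq2_188
import Crest.Agent.R105.Exs0_992

/-!
# Row 105 (S0138, solids): the contradiction ((E) of #10259)

`ELQ E 𝒬 𝓗` : the crude Euler-Lagrange inequality for the limit functions of `LimQ`.
`hairless`  : `PicS`, `LimQ`, `ELQ` ⟹ `𝓗 = ∅`;
`comps_sq`  : then every component of `E` is a point or an exact square.
-/

set_option autoImplicit false

namespace Crest.Agent.R105.Ctr_188

open Set Filter MeasureTheory Topology Metric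
open CF_363 Stp_722 Skst2_49 Cq_463 Exs_992 Stq_188
open Skp2_257 (Comps Reg)

/-- **crude E-L** for limits of cut functions: `T`-finite, oscillation zero at all components without
square. -/
def ELQ (E : Set (ℝ × ℝ)) (𝒬 : Set Sqr) (𝓗 : Set Hair) : Prop :=
  ∀ (S : ℕ → ℝ × ℝ → ℝ) (ψ : ℝ × ℝ → ℝ) (c o : Sqr → ℝ), LimOf E 𝓗 S ψ →
    (∀ Q, 0 ≤ c Q) → (Summable fun Q : 𝒬 => c Q.1 ^ 2) →
    (∀ m, ∀ Q ∈ 𝒬, ch E univ (S m) Q ≤ c Q) →
    (∀ Q, 0 ≤ o Q) → (Summable fun Q : 𝒬 => o Q.1 ^ 2) →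
    (∀ P ∈ Comps E, (∀ Q ∈ 𝒬, ¬ Q.car ⊆ P) → OscLe Eᶜ P ψ 0) →
    (∀ P ∈ Comps E, ∀ Q ∈ 𝒬, Q.car ⊆ P → OscLe Eᶜ P ψ (o Q)) →
    |∫ p in Eᶜ, gx ψ p| ≤ ∑' Q : 𝒬, Q.1.s * o Q.1

variable {E : Set (ℝ × ℝ)} {𝒬 : Set Sqr} {𝓗 : Set Hair}

theorem hair_preconn (K : Hair) : IsPreconnected K.car := by
  rw [K.car_eq]; exact isPreconnected_singleton.prod isPreconnected_Icc

/-- the square of a component with a hair lies over the abscissa of the hair -/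
theorem att_line (hP : PicS E 𝒬 𝓗) {K : Hair} (hK : K ∈ 𝓗) {Q : Sqr} (hQ : Q ∈ 𝒬)
    (h : (Q.car ∩ connectedComponentIn E (K.x, K.b)).Nonempty) :
    Q.x ≤ K.x ∧ K.x ≤ Q.x + Q.s := by
  have hbt := K.hbt
  have hs := Q.hs
  have hb : (K.x, K.b) ∈ K.car := ⟨rfl, le_rfl, hbt.le⟩
  have ht : (K.x, K.t) ∈ K.car := ⟨rfl, hbt.le, le_rfl⟩
  have hp0 : (K.x, K.b) ∈ E := hP.q.hsub K hK hb
  set P := connectedComponentIn E (K.x, K.b) with hPd
  have hPC : P ∈ Comps E := ⟨_, hp0, rfl⟩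
  have hKP : K.car ⊆ P := (hair_preconn K).subset_connectedComponentIn hb (hP.q.hsub K hK)
  have hQP : Q.car ⊆ P := by
    obtain ⟨q, hq, hqP⟩ := h
    have h1 := Q.convex_car.isPreconnected.subset_connectedComponentIn hq (hP.q.sub Q hQ)
    rwa [← connectedComponentIn_eq hqP] at h1
  rcases hP.comp P hPC with ⟨p, hp⟩ | ⟨K', hK', hp⟩ | ⟨Q', hQ', hQ'P, H⟩
  · have h1 : (K.x, K.b) = p := by have := hKP hb; rwa [hp] at this
    have h2 : (K.x, K.t) = p := by have := hKP ht; rwa [hp] at this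
    have h3 := congrArg Prod.snd (h1.trans h2.symm)
    exact absurd h3 hbt.ne
  · exfalso
    have h1 : ((Q.x, Q.y) : ℝ × ℝ) ∈ K'.car := by
      rw [← hp]; exact hQP (Sqr.mem_car.2 ⟨⟨le_rfl, by linarith⟩, ⟨le_rfl, by linarith⟩⟩)
    have h2 : ((Q.x + Q.s, Q.y) : ℝ × ℝ) ∈ K'.car := by
      rw [← hp]; exact hQP (Sqr.mem_car.2 ⟨⟨by linarith, le_rfl⟩, ⟨le_rfl, by linarith⟩⟩)
    have h3 : Q.x = K'.x := h1.1
    have h4 : Q.x + Q.s = K'.x := h2.1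
    linarith
  · have hQQ : Q = Q' := by
      refine hP.q.sep P (connectedComponentIn_subset _ _) isPreconnected_connectedComponentIn Q hQ
        Q' hQ' ?_ ?_
      · obtain ⟨q, hq⟩ := Q.nonempty; exact ⟨q, hQP hq, hq⟩
      · obtain ⟨q, hq⟩ := Q'.nonempty; exact ⟨q, hQ'P hq, hq⟩
    subst hQQ
    by_cases hc : (K.x, K.b) ∈ Q.car
    · exact (Sqr.mem_car.1 hc).1
    · obtain ⟨K'', hK'', -, hx, ⟨q, hq1, hq2⟩⟩ := H _ (hKP hb) hc
      have h1 : K.x = K''.x := hx.1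
      have h2 : q.1 = K''.x := hq1.1
      rw [h1, ← h2]
      exact (Sqr.mem_car.1 hq2).1

/-- the open hair is off the squares -/
theorem att_off (hatt : Att 𝒬 𝓗) {K : Hair} (hK : K ∈ 𝓗) {Q : Sqr} (hQ : Q ∈ 𝒬) :
    Disjoint Q.car {p | p.1 = K.x ∧ K.b < p.2 ∧ p.2 < K.t} := by
  rw [disjoint_left]
  rintro p hp ⟨h1, h2, h3⟩
  have h4 := (Sqr.mem_car.1 hp).2
  rcases hatt K hK Q hQ ⟨p, ⟨h1, h2.le, h3.le⟩, hp⟩ with h | h
  · linarith [h4.2]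
  · linarith [h4.1]

/-- **the contradiction** -/
theorem hairless (hP : PicS E 𝒬 𝓗) {C : ℝ} (hC : 0 ≤ C) (hlim : LimQ E 𝒬 𝓗 C)
    (hEL : ELQ E 𝒬 𝓗) : 𝓗 = ∅ := by
  classical
  rw [eq_empty_iff_forall_notMem]
  intro K hK
  have hE := hP.q
  have hI : 0 < ∫ y, tent K y := integral_tent_pos K
  set I := ∫ y, tent K y with hId
  set S2 : ℝ := ∑' Q : 𝒬, Q.1.s ^ 2 with hS2
  have hS20 : 0 ≤ S2 := tsum_nonneg fun _ => sq_nonneg _
  -- constants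
  set ε : ℝ := I / (4 * (C + 1)) with hε
  have hε0 : 0 < ε := by positivity
  set κ : ℝ := I / (4 * (C + 1) * (√S2 + 1)) with hκ
  have hsq0 : 0 ≤ √S2 := Real.sqrt_nonneg _
  have hκ0 : 0 < κ := by positivity
  obtain ⟨Φ, hcfj, hcpt, h01, -, hint, hcb, hsum, hle, -⟩ := Stq_188.start_sq hE hK
    (fun Q hQ => att_off hP.att hK hQ) (fun Q hQ h => att_line hP hK hQ h) isOpen_univ
    (subset_univ _) hε0
  obtain ⟨S, ψ, δ, hL, hδ0, hδs, hδle, hch, hosc0, hosc, -, hI2⟩ := hlim Φ hcfj hcpt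
    ⟨1, fun p => by rw [abs_of_nonneg (h01 p).1]; exact (h01 p).2⟩ κ hκ0
  have hM := Mt_nonneg K
  have hchs : Summable fun Q : 𝒬 => ch E univ Φ Q.1 ^ 2 := by
    refine Summable.of_nonneg_of_le (fun Q => sq_nonneg _) (fun Q => ?_)
      (hE.summable_sq.mul_left (Mt K ^ 2))
    rw [← mul_pow]
    exact pow_le_pow_left₀ (ch_nonneg _ _ _ _) (hcb Q.1 Q.2) 2
  have hcs : Summable fun Q : 𝒬 => (ch E univ Φ Q.1 + δ Q.1) ^ 2 := by
    refine Summable.of_nonneg_of_le (fun Q => sq_nonneg _) (fun Q => ?_)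
      ((hchs.mul_left 2).add (hδs.mul_left 2))
    nlinarith [sq_nonneg (ch E univ Φ Q.1 - δ Q.1)]
  have hos : Summable fun Q : 𝒬 => (C * (ch E univ Φ Q.1 + δ Q.1)) ^ 2 := by
    simp_rw [mul_pow]; exact hcs.mul_left _
  have hmain := hEL S ψ (fun Q => ch E univ Φ Q + δ Q)
    (fun Q => C * (ch E univ Φ Q + δ Q)) hL
    (fun Q => add_nonneg (ch_nonneg _ _ _ _) (hδ0 Q)) hcs hch
    (fun Q => mul_nonneg hC (add_nonneg (ch_nonneg _ _ _ _) (hδ0 Q))) hos hosc0 hosc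
  -- the sum on the right
  have hsδ : Summable fun Q : 𝒬 => Q.1.s * δ Q.1 := by
    refine Summable.of_nonneg_of_le (fun Q => mul_nonneg Q.1.hs.le (hδ0 _)) (fun Q => ?_)
      (hE.summable_sq.add hδs)
    nlinarith [sq_nonneg (Q.1.s - δ Q.1), sq_nonneg (Q.1.s), sq_nonneg (δ Q.1)]
  have hCS : ∑' Q : 𝒬, Q.1.s * δ Q.1 ≤ √S2 * κ := by
    have h1 := Real.inner_le_Lp_mul_Lq_tsum_of_nonneg (p := 2) (q := 2) Real.HolderConjugate.two_two
      (f := fun Q : 𝒬 => Q.1.s) (g := fun Q : 𝒬 => δ Q.1) (fun Q => Q.1.hs.le) (fun Q => hδ0 _)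
      (by simpa using hE.summable_sq) (by simpa using hδs)
    refine h1.trans ?_
    rw [← Real.sqrt_eq_rpow, ← Real.sqrt_eq_rpow]
    simp only [Real.rpow_ofNat]
    refine mul_le_mul_of_nonneg_left ?_ (Real.sqrt_nonneg _)
    rw [Real.sqrt_le_left hκ0.le]
    exact hδle
  have hrhs : ∑' Q : 𝒬, Q.1.s * (C * (ch E univ Φ Q.1 + δ Q.1)) ≤ C * (ε + √S2 * κ) := by
    have h1 : (fun Q : 𝒬 => Q.1.s * (C * (ch E univ Φ Q.1 + δ Q.1)))
        = fun Q : 𝒬 => C * (Q.1.s * ch E univ Φ Q.1 + Q.1.s * δ Q.1) := by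
      funext Q; ring
    rw [h1, tsum_mul_left, Summable.tsum_add hsum hsδ]
    exact mul_le_mul_of_nonneg_left (add_le_add hle hCS) hC
  have hfin : I - κ ≤ C * (ε + √S2 * κ) := by
    have h1 := hmain.trans hrhs
    rw [hint] at hI2
    have h2 := abs_le.1 hI2
    have h3 := abs_le.1 h1
    linarith [h2.1, h2.2, h3.1, h3.2]
  -- numbers
  have h1 : C * ε ≤ I / 4 := by
    have : C * ε = I / 4 * (C / (C + 1)) := by rw [hε]; field_simp
    rw [this]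
    exact mul_le_of_le_one_right (by positivity) (by rw [div_le_one (by positivity)]; linarith)
  have h2 : (C * √S2 + 1) * κ ≤ I / 4 := by
    have : (C * √S2 + 1) * κ = I / 4 * ((C * √S2 + 1) / ((C + 1) * (√S2 + 1))) := by
      rw [hκ]; field_simp
    rw [this]
    refine mul_le_of_le_one_right (by positivity) ?_
    rw [div_le_one (by positivity)]
    nlinarith
  nlinarith

/-- without hairs every component is a point or an exact square -/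
theorem comps_of_hairless (hP : PicS E 𝒬 𝓗) (h : 𝓗 = ∅) :
    ∀ P ∈ Comps E, (∃ p, P = {p}) ∨ ∃ Q ∈ 𝒬, P = Q.car := by
  intro P hPC
  rcases hP.comp P hPC with h1 | ⟨K, hK, -⟩ | ⟨Q, hQ, hQP, H⟩
  · exact Or.inl h1
  · rw [h] at hK; exact absurd hK (notMem_empty _)
  · refine Or.inr ⟨Q, hQ, subset_antisymm (fun p hp => ?_) hQP⟩
    by_contra hc
    obtain ⟨K, hK, -⟩ := H p hp hc
    rw [h] at hK; exact absurd hK (notMem_empty _)

/-- **PP with solids, assembly** -/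
theorem comps_sq (hP : PicS E 𝒬 𝓗) {C0 θ : ℝ} (hC0 : 0 ≤ C0) (hθ : 0 < θ)
    (hstep : StepQ E 𝒬 𝓗 C0 θ) (hlim : LIMQ) (hEL : ELQ E 𝒬 𝓗) :
    ∀ P ∈ Comps E, (∃ p, P = {p}) ∨ ∃ Q ∈ 𝒬, P = Q.car :=
  comps_of_hairless hP (hairless hP (C := C1 C0 θ) (by unfold C1; positivity)
    (hlim E 𝒬 𝓗 hP C0 θ hC0 hθ hstep) hEL)

end Crest.Agent.R105.Ctr_188
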