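import Crest.Agent.R105.SkA1_8
import Crest.Agent.R105.C2c_86

/-!
# Row 105, S0138: `CUTP` of `SkA1_8` (helper189): cutting off at infinity
-/

set_option autoImplicit false

open MeasureTheory Set Filter Topology Metric Bornology
open scoped ContDiff NNReal

namespace Crest.Agent.R105.Cup_189

open Crest.AnalysisR Crest.Agent.R105.Bd_775 Crest.Agent.R105.IfB_641 Crest.Agent.R105.Tc_808
open Crest.Agent.R105.Grd_782

theorem isCompact_of_ext {Y : Set ℂ} (h : IsExteriorDomain Yᶜ) : IsCompact Y := by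
  obtain ⟨hO, -, R, hR⟩ := h
  refine isCompact_of_isClosed_isBounded (isOpen_compl_iff.1 hO) ?_
  refine (isBounded_closedBall (x := (0 : ℂ)) (r := R)).subset fun z hz => ?_
  rw [mem_closedBall_zero_iff]
  by_contra hc
  exact hR z (not_le.1 hc) hz

/-- cutting off a `TT` function at infinity, with the pointwise form. -/
theorem cut_tt {Y : Set ℂ} {x0 b : ℂ → ℝ} (hY : IsCompact Y) (hx : X0 Y x0) (hb : TT Y b)
    {ε : ℝ} (hε : 0 < ε) : ∃ χ : ℂ → ℝ, LC Y χ ∧ (∀ z, 0 ≤ χ z ∧ χ z ≤ 1) ∧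
      HasCompactSupport χ ∧ (∃ O, IsOpen O ∧ Y ⊆ O ∧ ∀ z ∈ O, χ z = 1) ∧
      TT Y (fun z => χ z * b z) ∧ TJ Y x0 (fun z => χ z * b z) ≤ TJ Y x0 b + ε := by
  have hCc := hY.isClosed
  obtain ⟨M, hM⟩ := hb.q.bdd
  obtain ⟨R1, hR1⟩ := hx.lap_far
  obtain ⟨R2, hR2⟩ := hY.isBounded.subset_ball (0 : ℂ)
  set E : ℝ := di Y b b with hE
  have hE0 : 0 ≤ E := di_self_nonneg b
  set s : ℝ := ε / (2 * (E + 1)) with hs
  have hs0 : 0 < s := by positivity
  set κ : ℝ := ε / (2 * ((1 + 1 / s) * (M ^ 2 + 1))) with hκ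
  have hκ0 : 0 < κ := by positivity
  obtain ⟨χ, ⟨K, hK⟩, hχc, hχ1, hχR, hχi, hχe⟩ := Stk_939.exists_cut_inf (max R1 R2) hκ0
  have hlc : LC Y χ := by
    refine Bd_775.LC.of_lipschitz hK hχc fun z hz => ?_
    have hz2 : ‖z‖ < R2 := by simpa using hR2 hz
    have hev : ∀ᶠ w in 𝓝 z, ‖w‖ < R2 := continuous_norm.continuousAt.eventually (gt_mem_nhds hz2)
    filter_upwards [hev] with w hw
    rw [hχR w (hw.le.trans (le_max_right _ _)), hχR z (hz2.le.trans (le_max_right _ _))]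
  have hball : ∀ z ∈ ball (0 : ℂ) R2, χ z = 1 := by
    intro z hz
    have hz2 : ‖z‖ < R2 := by simpa using hz
    exact hχR z (hz2.le.trans (le_max_right _ _))
  have hTT : TT Y (fun z => χ z * b z) := TT.mul hCc (TT.lc hlc) hb
  refine ⟨χ, hlc, hχ1, hχc, ⟨ball 0 R2, isOpen_ball, hR2, hball⟩, hTT, ?_⟩
  have hosc : ∀ K : Cmp Y, osc Y (fun z => χ z * b z) K.1 = osc Y b K.1 := fun K =>
    osc_congr isOpen_ball (K.subset.trans hR2) fun z hz _ => by
      rw [hball z hz, one_mul]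
  have h1 : (∫ z, (χ z * b z) * lap x0 z) = ∫ z, b z * lap x0 z := by
    congr 1
    funext z
    by_cases hz : R1 < ‖z‖
    · rw [hR1 z hz]; simp
    · rw [hχR z ((not_lt.1 hz).trans (le_max_left _ _)), one_mul]
  have h2 : di Y (fun z => χ z * b z) (fun z => χ z * b z) ≤
      (1 + s) * E + (1 + 1 / s) * M ^ 2 * κ := by
    rw [di_self, hE, di_self]
    have hint : IntegrableOn (fun z => (1 + s) * en b z + (1 + 1 / s) * M ^ 2 * en χ z) Yᶜ :=
      (hb.q.fin.const_mul _).add (hχi.integrableOn.const_mul _)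
    calc (∫ z in Yᶜ, en (fun z => χ z * b z) z)
        ≤ ∫ z in Yᶜ, ((1 + s) * en b z + (1 + 1 / s) * M ^ 2 * en χ z) := by
          refine integral_mono_ae hTT.q.fin hint ?_
          filter_upwards [hb.q.ae_diff hCc, hlc.q.ae_diff hCc] with z d1 d2
          refine C2c_86.en_mul_le_t d2 d1 hs0 ?_ (hM z)
          rw [abs_le]
          exact ⟨by linarith [(hχ1 z).1], (hχ1 z).2⟩
      _ = (1 + s) * (∫ z in Yᶜ, en b z) + (1 + 1 / s) * M ^ 2 * ∫ z in Yᶜ, en χ z := by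
          rw [integral_add (hb.q.fin.const_mul _) (hχi.integrableOn.const_mul _),
            integral_const_mul, integral_const_mul]
      _ ≤ (1 + s) * (∫ z in Yᶜ, en b z) + (1 + 1 / s) * M ^ 2 * κ := by
          have : (∫ z in Yᶜ, en χ z) ≤ ∫ z, en χ z :=
            setIntegral_le_integral hχi (Eventually.of_forall fun z => en_nonneg χ z)
          have h4 : 0 ≤ (1 + 1 / s) * M ^ 2 := by positivity
          have := mul_le_mul_of_nonneg_left (this.trans hχe) h4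
          linarith
  have h3 : s * E ≤ ε / 2 := by
    rw [hs, div_mul_eq_mul_div, div_le_div_iff₀ (by positivity) two_pos]
    nlinarith
  have h4 : (1 + 1 / s) * M ^ 2 * κ ≤ ε / 2 := by
    have h5 : 0 < 1 + 1 / s := by positivity
    rw [hκ, mul_div_assoc', div_le_div_iff₀ (by positivity) two_pos]
    nlinarith [mul_pos h5 hε, sq_nonneg M]
  unfold TJ J
  simp only [hosc]
  rw [h1]
  have : (1 + s) * E = E + s * E := by ring
  linarith

theorem cutp : SkA_8.CUTP := by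
  intro Y x0 hU hx b hb ε hε
  have hY := isCompact_of_ext hU
  obtain ⟨χ, -, -, hχc, ⟨O, hO, hYO, hO1⟩, hTT, hTJ⟩ := cut_tt hY hx hb hε
  refine ⟨fun z => χ z * b z, hTT, hχc.mul_right, ?_, hTJ⟩
  filter_upwards [hO.mem_nhdsSet.2 hYO] with z hz
  rw [hO1 z hz, one_mul]

end Crest.Agent.R105.Cup_189
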