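import Crest.Agent.R105.SkA1_8
import Crest.Agent.R105.C2c_86

/-!
# Row 105, S0138, first half: leaf `CUTP` of `SkA1_8` (helper625)

Logarithmic cut-off at infinity in the class `TT` (pattern: `C2c_86.cutoff`): the cut-off function
is `1` on a large disc, so the function is unchanged near `Y`, hence all oscillations at the
components of `Y` are unchanged; only the Dirichlet part of `TJ` changes, by at most `ε`.
-/

set_option autoImplicit false

open MeasureTheory Set Filter Topology Metric Bornology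
open scoped ContDiff NNReal

namespace Crest.Agent.R105.Cup_625

open Crest.AnalysisR Bd_775 IfB_641 Tc_808 Ni_459 Grd_782

/-- **cut-off at infinity**, pointwise bound included -/
theorem cutT {Y : Set ℂ} {x0 b : ℂ → ℝ} (hY : IsCompact Y) (hx : X0 Y x0) (hb : TT Y b) {ε : ℝ}
    (hε : 0 < ε) : ∃ b' : ℂ → ℝ, TT Y b' ∧ HasCompactSupport b' ∧ (∀ᶠ z in 𝓝ˢ Y, b' z = b z) ∧
      (∀ K : Cmp Y, Tc_808.osc Y b' K.1 = Tc_808.osc Y b K.1) ∧ (∀ z, |b' z| ≤ |b z|) ∧
      TJ Y x0 b' ≤ TJ Y x0 b + ε := by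
  have hCc := hY.isClosed
  obtain ⟨M, hM⟩ := hb.q.bdd
  obtain ⟨R1, hR1⟩ := hx.lap_far
  obtain ⟨R2, hR2⟩ := hY.isBounded.subset_ball (0 : ℂ)
  set E : ℝ := di Y b b with hE
  have hE0 : 0 ≤ E := di_self_nonneg b
  set s : ℝ := ε / (2 * (E + 1)) with hs
  have hs0 : 0 < s := by positivity
  set κ : ℝ := ε / (2 * ((1 + 1 / s) * (M ^ 2 + 1))) with hκ
  have hκ0 : 0 < κ := by positivity
  obtain ⟨χ, ⟨K, hK⟩, hχc, hχ1, hχR, hχi, hχe⟩ := Stk_939.exists_cut_inf (max R1 R2) hκ0
  have hlc : LC Y χ := by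
    refine Bd_775.LC.of_lipschitz hK hχc fun z hz => ?_
    have hz2 : ‖z‖ < R2 := by simpa using hR2 hz
    have hev : ∀ᶠ w in 𝓝 z, ‖w‖ < R2 := continuous_norm.continuousAt.eventually (gt_mem_nhds hz2)
    filter_upwards [hev] with w hw
    rw [hχR w (hw.le.trans (le_max_right _ _)), hχR z (hz2.le.trans (le_max_right _ _))]
  have hT : TT Y (fun z => χ z * b z) := (TT.lc hlc).mul hCc hb
  have hnear : ∀ z ∈ ball (0 : ℂ) R2, χ z * b z = b z := by
    intro z hz
    have hz2 : ‖z‖ < R2 := by simpa using hz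
    rw [hχR z (hz2.le.trans (le_max_right _ _)), one_mul]
  have hosc : ∀ K : Cmp Y, Tc_808.osc Y (fun z => χ z * b z) K.1 = Tc_808.osc Y b K.1 :=
    fun K => osc_congr isOpen_ball (K.subset.trans hR2) fun z hz _ => hnear z hz
  refine ⟨fun z => χ z * b z, hT, hχc.mul_right, ?_, hosc, ?_, ?_⟩
  · exact (isOpen_ball.mem_nhdsSet.2 hR2 : ball (0 : ℂ) R2 ∈ 𝓝ˢ Y) |> fun h =>
      Filter.mem_of_superset h fun z hz => hnear z hz
  · intro z
    rw [abs_mul]
    have : |χ z| ≤ 1 := by
      rw [abs_le]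
      exact ⟨by linarith [(hχ1 z).1], (hχ1 z).2⟩
    calc |χ z| * |b z| ≤ 1 * |b z| := mul_le_mul_of_nonneg_right this (abs_nonneg _)
      _ = _ := one_mul _
  · have h1 : (∫ z, (χ z * b z) * lap x0 z) = ∫ z, b z * lap x0 z := by
      congr 1
      funext z
      by_cases hz : R1 < ‖z‖
      · rw [hR1 z hz]; simp
      · rw [hχR z ((not_lt.1 hz).trans (le_max_left _ _)), one_mul]
    have h2 : di Y (fun z => χ z * b z) (fun z => χ z * b z) ≤
        (1 + s) * E + (1 + 1 / s) * M ^ 2 * κ := by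
      rw [di_self, hE, di_self]
      have hint : IntegrableOn (fun z => (1 + s) * en b z + (1 + 1 / s) * M ^ 2 * en χ z) Yᶜ :=
        (hb.q.fin.const_mul _).add (hχi.integrableOn.const_mul _)
      calc (∫ z in Yᶜ, en (fun z => χ z * b z) z)
          ≤ ∫ z in Yᶜ, ((1 + s) * en b z + (1 + 1 / s) * M ^ 2 * en χ z) := by
            refine integral_mono_ae hT.q.fin hint ?_
            filter_upwards [hb.q.ae_diff hCc, hlc.q.ae_diff hCc] with z d1 d2
            refine C2c_86.en_mul_le_t d2 d1 hs0 ?_ (hM z)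
            rw [abs_le]
            exact ⟨by linarith [(hχ1 z).1], (hχ1 z).2⟩
        _ = (1 + s) * (∫ z in Yᶜ, en b z) + (1 + 1 / s) * M ^ 2 * ∫ z in Yᶜ, en χ z := by
            rw [integral_add (hb.q.fin.const_mul _) (hχi.integrableOn.const_mul _),
              integral_const_mul, integral_const_mul]
        _ ≤ (1 + s) * (∫ z in Yᶜ, en b z) + (1 + 1 / s) * M ^ 2 * κ := by
            have : (∫ z in Yᶜ, en χ z) ≤ ∫ z, en χ z :=
              setIntegral_le_integral hχi (Eventually.of_forall fun z => en_nonneg χ z)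
            have h4 : 0 ≤ (1 + 1 / s) * M ^ 2 := by positivity
            have := mul_le_mul_of_nonneg_left (this.trans hχe) h4
            linarith
    have h3 : s * E ≤ ε / 2 := by
      rw [hs, div_mul_eq_mul_div, div_le_div_iff₀ (by positivity) two_pos]
      nlinarith
    have h4 : (1 + 1 / s) * M ^ 2 * κ ≤ ε / 2 := by
      have h5 : 0 < 1 + 1 / s := by positivity
      rw [hκ, mul_div_assoc', div_le_div_iff₀ (by positivity) two_pos]
      nlinarith [mul_pos h5 hε, sq_nonneg M]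
    unfold TJ J
    rw [h1]
    have h6 : (∑' K : Cmp Y, Tc_808.osc Y (fun z => χ z * b z) K.1 ^ 2) =
        ∑' K : Cmp Y, Tc_808.osc Y b K.1 ^ 2 := by
      congr 1; funext K; rw [hosc K]
    rw [h6]
    have : (1 + s) * E = E + s * E := by ring
    linarith

/-- **`CUTP`** of `SkA1_8` -/
theorem cutp : SkA_8.CUTP := by
  intro Y x0 hU hx b hb ε hε
  have hY : IsCompact Y := by
    obtain ⟨hO, -, R, hR⟩ := hU
    refine (isCompact_closedBall (0 : ℂ) R).of_isClosed_subset (isOpen_compl_iff.1 hO) fun z hz => ?_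
    by_contra hzR
    exact hR z (by simpa using hzR) hz
  obtain ⟨b', h1, h2, h3, -, -, h4⟩ := cutT hY hx hb hε
  exact ⟨b', h1, h2, h3, h4⟩

end Crest.Agent.R105.Cup_625
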