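import Crest.Agent.R105.SkA1_8
import Crest.Agent.R105.Ata1_782

/-!
# Row 105, S0138: leaf `SkA_8.CUTP` (cut-off at infinity) from `Grd_782.cutoff_TT`
-/

set_option autoImplicit false

open MeasureTheory Set Filter Topology Metric

namespace Crest.Agent.R105.Grd_782

open Crest.AnalysisR Bd_775 IfB_641 Tc_808 Ni_459

theorem cutp : SkA_8.CUTP := by
  intro Y x0 hY hx b hb ε hε
  have hYc : IsCompact Y := cpt_of hY
  obtain ⟨χ, hlc, hχc, ⟨O, hO, hYO, h1⟩, hT, hJ, -, -⟩ := cutoff_TT hYc hx hb hε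
  refine ⟨fun z => χ z * b z, hT, hχc.mul_right, ?_, hJ⟩
  filter_upwards [hO.mem_nhdsSet.2 hYO] with z hz
  rw [h1 z hz, one_mul]

end Crest.Agent.R105.Grd_782
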