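import Crest.Agent.R105.SkA1_8
import Crest.Agent.R105.C2c_86

/-!
# Row 105, S0138, leaf `CUTP` of `SkA1_8` (helper770): cutting off at infinity
-/

set_option autoImplicit false

open MeasureTheory Set Filter Topology Metric Bornology
open scoped ContDiff NNReal ENNReal

namespace Crest.Agent.R105.Cutp_770

open Crest.AnalysisR Bd_775 IfB_641 Tc_808 Ni_459 Grd_782

/-- equal near `Y` gives equal oscillations -/
lemma osc_eq_of_near {Y : Set ℂ} {u v : ℂ → ℝ} (h : ∀ᶠ z in 𝓝ˢ Y, u z = v z) (K : Cmp Y) :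
    Tc_808.osc Y u K.1 = Tc_808.osc Y v K.1 := by
  obtain ⟨O, hO, hYO, h1⟩ := eventually_nhdsSet_iff_exists.1 h
  exact osc_congr hO (K.subset.trans hYO) fun z hz _ => h1 z hz

theorem cutp : SkA_8.CUTP := by
  intro Y x0 hY hx b hb ε hε
  have hYc : IsCompact Y := Ni_459.cpt_of hY
  have hCc := hYc.isClosed
  obtain ⟨M, hM⟩ := hb.q.bdd
  obtain ⟨R1, hR1⟩ := hx.lap_far
  obtain ⟨R2, hR2⟩ := hYc.isBounded.subset_ball (0 : ℂ)
  set E : ℝ := di Y b b with hE
  have hE0 : 0 ≤ E := di_self_nonneg b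
  set s : ℝ := ε / (2 * (E + 1)) with hs
  have hs0 : 0 < s := by positivity
  set κ : ℝ := ε / (2 * ((1 + 1 / s) * (M ^ 2 + 1))) with hκ
  have hκ0 : 0 < κ := by positivity
  obtain ⟨χ, ⟨K, hK⟩, hχc, hχ1, hχR, hχi, hχe⟩ := Stk_939.exists_cut_inf (max R1 R2) hκ0
  have hlc : LC Y χ := by
    refine Bd_775.LC.of_lipschitz hK hχc fun z hz => ?_
    have hz2 : ‖z‖ < R2 := by simpa using hR2 hz
    have hev : ∀ᶠ w in 𝓝 z, ‖w‖ < R2 := continuous_norm.continuousAt.eventually (gt_mem_nhds hz2)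
    filter_upwards [hev] with w hw
    rw [hχR w (hw.le.trans (le_max_right _ _)), hχR z (hz2.le.trans (le_max_right _ _))]
  have hT : TT Y (fun z => χ z * b z) := TT.mul hCc (TT.lc hlc) hb
  have hnear : ∀ᶠ z in 𝓝ˢ Y, χ z * b z = b z := by
    refine eventually_nhdsSet_iff_exists.2 ⟨ball 0 R2, isOpen_ball, hR2, fun z hz => ?_⟩
    have hz2 : ‖z‖ < R2 := by simpa using hz
    rw [hχR z (hz2.le.trans (le_max_right _ _)), one_mul]
  refine ⟨fun z => χ z * b z, hT, hχc.mul_right, hnear, ?_⟩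
  have h1 : (∫ z, (χ z * b z) * lap x0 z) = ∫ z, b z * lap x0 z := by
    congr 1
    funext z
    by_cases hz : R1 < ‖z‖
    · rw [hR1 z hz]; simp
    · rw [hχR z ((not_lt.1 hz).trans (le_max_left _ _)), one_mul]
  have h2 : di Y (fun z => χ z * b z) (fun z => χ z * b z) ≤
      (1 + s) * E + (1 + 1 / s) * M ^ 2 * κ := by
    rw [di_self, hE, di_self]
    have hint : IntegrableOn (fun z => (1 + s) * en b z + (1 + 1 / s) * M ^ 2 * en χ z) Yᶜ :=
      (hb.q.fin.const_mul _).add (hχi.integrableOn.const_mul _)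
    calc (∫ z in Yᶜ, en (fun z => χ z * b z) z)
        ≤ ∫ z in Yᶜ, ((1 + s) * en b z + (1 + 1 / s) * M ^ 2 * en χ z) := by
          refine integral_mono_ae hT.q.fin hint ?_
          filter_upwards [hb.q.ae_diff hCc, hlc.q.ae_diff hCc] with z d1 d2
          refine C2c_86.en_mul_le_t d2 d1 hs0 ?_ (hM z)
          rw [abs_le]
          exact ⟨by linarith [(hχ1 z).1], (hχ1 z).2⟩
      _ = (1 + s) * (∫ z in Yᶜ, en b z) + (1 + 1 / s) * M ^ 2 * ∫ z in Yᶜ, en χ z := by
          rw [integral_add (hb.q.fin.const_mul _) (hχi.integrableOn.const_mul _),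
            integral_const_mul, integral_const_mul]
      _ ≤ (1 + s) * (∫ z in Yᶜ, en b z) + (1 + 1 / s) * M ^ 2 * κ := by
          have : (∫ z in Yᶜ, en χ z) ≤ ∫ z, en χ z :=
            setIntegral_le_integral hχi (Eventually.of_forall fun z => en_nonneg χ z)
          have h4 : 0 ≤ (1 + 1 / s) * M ^ 2 := by positivity
          have := mul_le_mul_of_nonneg_left (this.trans hχe) h4
          linarith
  have h3 : s * E ≤ ε / 2 := by
    rw [hs, div_mul_eq_mul_div, div_le_div_iff₀ (by positivity) two_pos]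
    nlinarith
  have h4 : (1 + 1 / s) * M ^ 2 * κ ≤ ε / 2 := by
    have h5 : 0 < 1 + 1 / s := by positivity
    rw [hκ, mul_div_assoc', div_le_div_iff₀ (by positivity) two_pos]
    nlinarith [mul_pos h5 hε, sq_nonneg M]
  have h5 : ∀ K : Cmp Y, Tc_808.osc Y (fun z => χ z * b z) K.1 = Tc_808.osc Y b K.1 :=
    fun K => osc_eq_of_near hnear K
  unfold TJ J
  rw [h1]
  simp only [h5]
  have : (1 + s) * E = E + s * E := by ring
  linarith

end Crest.Agent.R105.Cutp_770
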