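import Crest.Agent.R105.SkA1_8
import Crest.Agent.R105.C2c_86

/-!
# Row 105, S0138, first half: leaf `SkA_8.CUTP` (helper83)

Cut-off at infinity of a `T`-finite function by the logarithmic cut-off (`Stk_939.exists_cut_inf`).
Also delivered: `|b'| ≤ |b|`, `b' = b` on any given ball.
-/

set_option autoImplicit false

open MeasureTheory Set Filter Topology Metric Bornology
open scoped ContDiff NNReal

namespace Crest.Agent.R105.Cutp_83

open Crest.AnalysisR Tc_808 Grd_782 SkA_8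
open Crest.Agent.R105.IfB_641 (Q LC J X0 lap di en)
open Crest.Agent.R105.Bd_775 (en_nonneg di_self di_self_nonneg)

variable {Y : Set ℂ} {x0 φ : ℂ → ℝ}

lemma compact_of_ext (hY : IsExteriorDomain Yᶜ) : IsCompact Y := by
  obtain ⟨ho, -, R, hR⟩ := hY
  refine Metric.isCompact_of_isClosed_isBounded ⟨ho⟩ ?_
  refine (isBounded_closedBall (x := (0 : ℂ)) (r := R)).subset fun z hz => ?_
  rw [mem_closedBall, dist_zero_right]
  by_contra h
  exact hR z (not_le.1 h) hz

/-- **cut-off at infinity**, with all the clauses -/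
theorem cut (hC : IsCompact Y) (hx : X0 Y x0) (hD : TT Y φ) (R : ℝ) {ε : ℝ}
    (hε : 0 < ε) : ∃ φ' : ℂ → ℝ, TT Y φ' ∧ HasCompactSupport φ' ∧
      (∀ᶠ z in 𝓝ˢ Y, φ' z = φ z) ∧ (∀ z, ‖z‖ ≤ R → φ' z = φ z) ∧
      (∀ K : Cmp Y, Tc_808.osc Y φ' K.1 = Tc_808.osc Y φ K.1) ∧
      TJ Y x0 φ' ≤ TJ Y x0 φ + ε ∧ (∀ z, |φ' z| ≤ |φ z|) := by
  have hCc := hC.isClosed
  obtain ⟨M, hM⟩ := hD.q.bdd
  obtain ⟨R1, hR1⟩ := hx.lap_far
  obtain ⟨R2, hR2⟩ := hC.isBounded.subset_ball (0 : ℂ)
  set E : ℝ := di Y φ φ with hE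
  have hE0 : 0 ≤ E := di_self_nonneg φ
  set s : ℝ := ε / (2 * (E + 1)) with hs
  have hs0 : 0 < s := by positivity
  set κ : ℝ := ε / (2 * ((1 + 1 / s) * (M ^ 2 + 1))) with hκ
  have hκ0 : 0 < κ := by positivity
  obtain ⟨χ, ⟨K, hK⟩, hχc, hχ1, hχR, hχi, hχe⟩ :=
    Stk_939.exists_cut_inf (max R (max R1 R2)) hκ0
  have hlc : LC Y χ := by
    refine Bd_775.LC.of_lipschitz hK hχc fun z hz => ?_
    have hz2 : ‖z‖ < R2 := by simpa using hR2 hz
    have hev : ∀ᶠ w in 𝓝 z, ‖w‖ < R2 := continuous_norm.continuousAt.eventually (gt_mem_nhds hz2)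
    filter_upwards [hev] with w hw
    rw [hχR w (hw.le.trans ((le_max_right _ _).trans (le_max_right _ _))),
      hχR z (hz2.le.trans ((le_max_right _ _).trans (le_max_right _ _)))]
  have hQ : Q Y (fun z => χ z * φ z) := Bd_775.Q.mul hCc hlc.q hD.q
  have heq : ∀ z ∈ ball (0 : ℂ) R2, χ z * φ z = φ z := fun z hz => by
    have hz2 : ‖z‖ < R2 := by simpa using hz
    rw [hχR z (hz2.le.trans ((le_max_right _ _).trans (le_max_right _ _))), one_mul]
  have hosc : ∀ K : Cmp Y, Tc_808.osc Y (fun z => χ z * φ z) K.1 = Tc_808.osc Y φ K.1 := by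
    rintro ⟨K, z, hz, rfl⟩
    exact osc_congr isOpen_ball ((connectedComponentIn_subset Y z).trans hR2)
      (fun w hw _ => heq w hw)
  have hTT : TT Y (fun z => χ z * φ z) := ⟨hQ, by simpa only [hosc] using hD.sum⟩
  refine ⟨fun z => χ z * φ z, hTT, hχc.mul_right, ?_, ?_, hosc, ?_, ?_⟩
  · exact (isOpen_ball.mem_nhdsSet.2 hR2 : ball (0 : ℂ) R2 ∈ 𝓝ˢ Y) |> fun h =>
      mem_of_superset h heq
  · intro z hz
    show χ z * φ z = φ z
    rw [hχR z (hz.trans (le_max_left _ _)), one_mul]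
  · have h1 : (∫ z, (χ z * φ z) * lap x0 z) = ∫ z, φ z * lap x0 z := by
      congr 1
      funext z
      by_cases hz : R1 < ‖z‖
      · rw [hR1 z hz]; simp
      · rw [hχR z ((not_lt.1 hz).trans ((le_max_left _ _).trans (le_max_right _ _))), one_mul]
    have h2 : di Y (fun z => χ z * φ z) (fun z => χ z * φ z) ≤
        (1 + s) * E + (1 + 1 / s) * M ^ 2 * κ := by
      rw [di_self_en, hE, di_self_en]
      have hint : IntegrableOn (fun z => (1 + s) * en φ z + (1 + 1 / s) * M ^ 2 * en χ z) Yᶜ :=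
        (hD.q.fin.const_mul _).add (hχi.integrableOn.const_mul _)
      calc (∫ z in Yᶜ, en (fun z => χ z * φ z) z)
          ≤ ∫ z in Yᶜ, ((1 + s) * en φ z + (1 + 1 / s) * M ^ 2 * en χ z) := by
            refine integral_mono_ae hQ.fin hint ?_
            filter_upwards [hD.q.ae_diff hCc, hlc.q.ae_diff hCc] with z d1 d2
            refine C2c_86.en_mul_le_t d2 d1 hs0 ?_ (hM z)
            rw [abs_le]
            exact ⟨by linarith [(hχ1 z).1], (hχ1 z).2⟩
        _ = (1 + s) * (∫ z in Yᶜ, en φ z) + (1 + 1 / s) * M ^ 2 * ∫ z in Yᶜ, en χ z := by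
            rw [integral_add (hD.q.fin.const_mul _) (hχi.integrableOn.const_mul _),
              integral_const_mul, integral_const_mul]
        _ ≤ (1 + s) * (∫ z in Yᶜ, en φ z) + (1 + 1 / s) * M ^ 2 * κ := by
            have : (∫ z in Yᶜ, en χ z) ≤ ∫ z, en χ z :=
              setIntegral_le_integral hχi (Eventually.of_forall fun z => en_nonneg χ z)
            have h4 : 0 ≤ (1 + 1 / s) * M ^ 2 := by positivity
            have := mul_le_mul_of_nonneg_left (this.trans hχe) h4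
            linarith
    have h3 : s * E ≤ ε / 2 := by
      rw [hs, div_mul_eq_mul_div, div_le_div_iff₀ (by positivity) two_pos]
      nlinarith
    have h4 : (1 + 1 / s) * M ^ 2 * κ ≤ ε / 2 := by
      have h5 : 0 < 1 + 1 / s := by positivity
      rw [hκ, mul_div_assoc', div_le_div_iff₀ (by positivity) two_pos]
      nlinarith [mul_pos h5 hε, sq_nonneg M]
    unfold TJ J
    simp only [hosc]
    rw [h1]
    have : (1 + s) * E = E + s * E := by ring
    linarith
  · intro z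
    rw [abs_mul]
    have : |χ z| ≤ 1 := by
      rw [abs_le]
      exact ⟨by linarith [(hχ1 z).1], (hχ1 z).2⟩
    calc |χ z| * |φ z| ≤ 1 * |φ z| := mul_le_mul_of_nonneg_right this (abs_nonneg _)
      _ = _ := one_mul _

/-- **CUTP** of helper8's `SkA1_8` -/
theorem cutp : CUTP := by
  intro Y x0 hY hx b hb ε hε
  obtain ⟨b', h1, h2, h3, -, -, h4, -⟩ := cut (compact_of_ext hY) hx hb 0 hε
  exact ⟨b', h1, h2, h3, h4⟩

end Crest.Agent.R105.Cutp_83
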