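import Crest.Agent.R105.SkA1_8
import Crest.Agent.R105.C2c_86

/-!
# Row 105, S0138, first half: leaf `CUTP` of 8's `SkA1_8` (helper508)

Cut-off at infinity in the `T`-frame (logarithmic cut-off of 939, the pattern of `C2c_86.cutoff`).
Also: `cutTT`, the same with the pointwise description `b' = χ * b`.
-/

set_option autoImplicit false

open MeasureTheory Set Filter Topology Metric Bornology
open scoped ContDiff NNReal ENNReal

namespace Crest.Agent.R105.Cutp_508

open Bd_775 IfB_641 Tc_808 Ni_459 Grd_782 Crest.AnalysisR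

variable {Y : Set ℂ} {x0 b : ℂ → ℝ}

/-- **cut-off at infinity**, detailed form -/
theorem cutTT (hYc : IsCompact Y) (hx : X0 Y x0) (hb : TT Y b) (R0 : ℝ) {ε : ℝ} (hε : 0 < ε) :
    ∃ χ : ℂ → ℝ, (∃ K, LipschitzWith K χ) ∧ HasCompactSupport χ ∧ (∀ z, 0 ≤ χ z ∧ χ z ≤ 1) ∧
      (∀ z, ‖z‖ ≤ R0 → χ z = 1) ∧ LC Y χ ∧ TT Y (fun z => χ z * b z) ∧
      HasCompactSupport (fun z => χ z * b z) ∧ (∀ᶠ z in 𝓝ˢ Y, χ z * b z = b z) ∧
      (∀ K : Cmp Y, Tc_808.osc Y (fun z => χ z * b z) K.1 = Tc_808.osc Y b K.1) ∧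
      J Y x0 (fun z => χ z * b z) ≤ J Y x0 b + ε ∧
      TJ Y x0 (fun z => χ z * b z) ≤ TJ Y x0 b + ε := by
  have hY := hYc.isClosed
  obtain ⟨M, hM⟩ := hb.q.bdd
  obtain ⟨R1, hR1⟩ := hx.lap_far
  obtain ⟨R2, hR2⟩ := hYc.isBounded.subset_ball (0 : ℂ)
  set E : ℝ := di Y b b with hE
  have hE0 : 0 ≤ E := di_self_nonneg b
  set s : ℝ := ε / (2 * (E + 1)) with hs
  have hs0 : 0 < s := by positivity
  set κ : ℝ := ε / (2 * ((1 + 1 / s) * (M ^ 2 + 1))) with hκ
  have hκ0 : 0 < κ := by positivity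
  obtain ⟨χ, ⟨K, hK⟩, hχc, hχ1, hχR, hχi, hχe⟩ :=
    Stk_939.exists_cut_inf (max R0 (max R1 R2)) hκ0
  have hlc : LC Y χ := by
    refine Bd_775.LC.of_lipschitz hK hχc fun z hz => ?_
    have hz2 : ‖z‖ < R2 := by simpa using hR2 hz
    have hev : ∀ᶠ w in 𝓝 z, ‖w‖ < R2 := continuous_norm.continuousAt.eventually (gt_mem_nhds hz2)
    filter_upwards [hev] with w hw
    rw [hχR w (hw.le.trans ((le_max_right _ _).trans (le_max_right _ _))),
      hχR z (hz2.le.trans ((le_max_right _ _).trans (le_max_right _ _)))]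
  have hTT : TT Y (fun z => χ z * b z) := TT.mul hY (TT.lc hlc) hb
  have hQ : Q Y (fun z => χ z * b z) := hTT.q
  have hnear : ∀ z ∈ ball (0 : ℂ) R2, χ z * b z = b z := by
    intro z hz
    have hz2 : ‖z‖ < R2 := by simpa using hz
    rw [hχR z (hz2.le.trans ((le_max_right _ _).trans (le_max_right _ _))), one_mul]
  have hosc : ∀ K : Cmp Y, Tc_808.osc Y (fun z => χ z * b z) K.1 = Tc_808.osc Y b K.1 := fun K =>
    Tc_808.osc_congr isOpen_ball (K.subset.trans hR2) fun z hz _ => hnear z hz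
  have hJ : J Y x0 (fun z => χ z * b z) ≤ J Y x0 b + ε := by
    have h1 : (∫ z, (χ z * b z) * lap x0 z) = ∫ z, b z * lap x0 z := by
      congr 1
      funext z
      by_cases hz : R1 < ‖z‖
      · rw [hR1 z hz]; simp
      · rw [hχR z ((not_lt.1 hz).trans ((le_max_left _ _).trans (le_max_right _ _))), one_mul]
    have h2 : di Y (fun z => χ z * b z) (fun z => χ z * b z) ≤
        (1 + s) * E + (1 + 1 / s) * M ^ 2 * κ := by
      rw [Bd_775.di_self, hE, Bd_775.di_self]
      have hint : IntegrableOn (fun z => (1 + s) * en b z + (1 + 1 / s) * M ^ 2 * en χ z) Yᶜ :=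
        (hb.q.fin.const_mul _).add (hχi.integrableOn.const_mul _)
      calc (∫ z in Yᶜ, en (fun z => χ z * b z) z)
          ≤ ∫ z in Yᶜ, ((1 + s) * en b z + (1 + 1 / s) * M ^ 2 * en χ z) := by
            refine integral_mono_ae hQ.fin hint ?_
            filter_upwards [hb.q.ae_diff hY, hlc.q.ae_diff hY] with z d1 d2
            refine C2c_86.en_mul_le_t d2 d1 hs0 ?_ (hM z)
            rw [abs_le]
            exact ⟨by linarith [(hχ1 z).1], (hχ1 z).2⟩
        _ = (1 + s) * (∫ z in Yᶜ, en b z) + (1 + 1 / s) * M ^ 2 * ∫ z in Yᶜ, en χ z := by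
            rw [integral_add (hb.q.fin.const_mul _) (hχi.integrableOn.const_mul _),
              integral_const_mul, integral_const_mul]
        _ ≤ (1 + s) * (∫ z in Yᶜ, en b z) + (1 + 1 / s) * M ^ 2 * κ := by
            have : (∫ z in Yᶜ, en χ z) ≤ ∫ z, en χ z :=
              setIntegral_le_integral hχi (Eventually.of_forall fun z => en_nonneg χ z)
            have h4 : 0 ≤ (1 + 1 / s) * M ^ 2 := by positivity
            have := mul_le_mul_of_nonneg_left (this.trans hχe) h4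
            linarith
    have h3 : s * E ≤ ε / 2 := by
      rw [hs, div_mul_eq_mul_div, div_le_div_iff₀ (by positivity) two_pos]
      nlinarith
    have h4 : (1 + 1 / s) * M ^ 2 * κ ≤ ε / 2 := by
      have h5 : 0 < 1 + 1 / s := by positivity
      rw [hκ, mul_div_assoc', div_le_div_iff₀ (by positivity) two_pos]
      nlinarith [mul_pos h5 hε, sq_nonneg M]
    unfold J
    rw [h1]
    have : (1 + s) * E = E + s * E := by ring
    linarith
  refine ⟨χ, ⟨K, hK⟩, hχc, hχ1, fun z hz => hχR z (hz.trans (le_max_left _ _)), hlc, hTT,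
    hχc.mul_right, ?_, hosc, hJ, ?_⟩
  · exact (isOpen_ball.mem_nhdsSet.2 hR2 : ball (0 : ℂ) R2 ∈ 𝓝ˢ Y) |> fun h =>
      mem_of_superset h hnear
  · unfold TJ
    simp only [hosc]
    linarith

/-- **leaf `CUTP`** -/
theorem cutp : SkA_8.CUTP := by
  intro Y x0 hYe hx b hb ε hε
  have hYc : IsCompact Y := by
    obtain ⟨hO, -, R, hR⟩ := hYe
    have hcl : IsClosed Y := by simpa using hO.isClosed_compl
    refine Metric.isCompact_of_isClosed_isBounded hcl ?_
    refine (Metric.isBounded_closedBall (x := (0 : ℂ)) (r := R)).subset fun z hz => ?_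
    rw [mem_closedBall_zero_iff]
    by_contra h
    exact hR z (not_le.1 h) hz
  obtain ⟨χ, -, -, -, -, -, h1, h2, h3, -, -, h4⟩ := cutTT hYc hx hb 0 hε
  exact ⟨fun z => χ z * b z, h1, h2, h3, h4⟩

end Crest.Agent.R105.Cutp_508
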