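import Crest.Agent.R165.Cl4_722

/-!
# Row 105, LIB-DIR 1: gradients, test functions, radial bumps, mean value (helper508)

* `gr u z` : the real gradient of `u : ℂ → ℝ` as a complex number
* `Tst U φ` : `φ` smooth, compactly supported in `ℂ`, locally constant near `Uᶜ`
* `rb ε` : radial bump, `∫ rb ε = 1`, `mean` : mean value property of holomorphic functions
* `exact_field` : a compactly supported divergence free field is `-I * gr φ`
-/

set_option autoImplicit false

open MeasureTheory Set Filter Topology Complex Metric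
open scoped ContDiff ComplexConjugate

namespace Crest.Agent.R105.Dir_508

noncomputable section

/-- real gradient as a complex number -/
def gr (u : ℂ → ℝ) (z : ℂ) : ℂ := (fderiv ℝ u z 1 : ℂ) + (fderiv ℝ u z I : ℂ) * I

/-- test functions: smooth, compactly supported in `ℂ`, locally constant near `Uᶜ` -/
structure Tst (U : Set ℂ) (φ : ℂ → ℝ) : Prop where
  sm : ContDiff ℝ ∞ φ
  cpt : HasCompactSupport φ
  sub : tsupport (fderiv ℝ φ) ⊆ U

/-! ### radial bump -/

/-- radial profile -/
def rb0 (z : ℂ) : ℝ := Real.smoothTransition (1 - ‖z‖ ^ 2)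

lemma contDiff_rb0 : ContDiff ℝ ∞ rb0 :=
  Real.smoothTransition.contDiff.comp (contDiff_const.sub (contDiff_norm_sq ℝ))

lemma rb0_nonneg (z : ℂ) : 0 ≤ rb0 z := Real.smoothTransition.nonneg _

lemma rb0_zero_of {z : ℂ} (h : 1 ≤ ‖z‖) : rb0 z = 0 := by
  refine Real.smoothTransition.zero_of_nonpos ?_
  nlinarith [norm_nonneg z]

/-- scaled bump, total mass `1` -/
def rb (ε : ℝ) (z : ℂ) : ℝ := (∫ w : ℂ, rb0 ((ε⁻¹ : ℝ) • w))⁻¹ * rb0 ((ε⁻¹ : ℝ) • z)

lemma rb_cs {ε : ℝ} (hε : 0 < ε) : ∀ w : ℂ, ε ≤ ‖w‖ → rb0 ((ε⁻¹ : ℝ) • w) = 0 := by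
  intro w hw
  refine rb0_zero_of ?_
  rw [norm_smul, norm_inv, Real.norm_of_nonneg hε.le]
  rw [inv_mul_eq_div, le_div_iff₀ hε]; linarith

lemma contDiff_rb0s (ε : ℝ) : ContDiff ℝ ∞ fun w : ℂ => rb0 ((ε⁻¹ : ℝ) • w) :=
  contDiff_rb0.comp (contDiff_const_smul _)

lemma cpt_rb0s {ε : ℝ} (hε : 0 < ε) : HasCompactSupport fun w : ℂ => rb0 ((ε⁻¹ : ℝ) • w) := by
  refine HasCompactSupport.intro (isCompact_closedBall (0 : ℂ) ε) fun w hw => rb_cs hε w ?_
  rw [mem_closedBall, dist_zero_right, not_le] at hw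
  exact hw.le

lemma int_pos {ε : ℝ} (hε : 0 < ε) : 0 < ∫ w : ℂ, rb0 ((ε⁻¹ : ℝ) • w) := by
  refine (contDiff_rb0s ε).continuous.integral_pos_of_hasCompactSupport_nonneg_nonzero
    (cpt_rb0s hε) (fun w => rb0_nonneg _) (x := 0) ?_
  simp only [smul_zero]
  unfold rb0
  rw [Real.smoothTransition.one_of_one_le (by simp)]
  exact one_ne_zero

lemma contDiff_rb (ε : ℝ) : ContDiff ℝ ∞ (rb ε) := contDiff_const.mul (contDiff_rb0s ε)

lemma rb_zero {ε : ℝ} (hε : 0 < ε) {w : ℂ} (hw : ε ≤ ‖w‖) : rb ε w = 0 := by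
  unfold rb; rw [rb_cs hε w hw, mul_zero]

lemma rb_nonneg {ε : ℝ} (hε : 0 < ε) (w : ℂ) : 0 ≤ rb ε w :=
  mul_nonneg (inv_nonneg.2 (int_pos hε).le) (rb0_nonneg _)

lemma cpt_rb {ε : ℝ} (hε : 0 < ε) : HasCompactSupport (rb ε) := (cpt_rb0s hε).mul_left

lemma tsupport_rb {ε : ℝ} (hε : 0 < ε) : tsupport (rb ε) ⊆ closedBall 0 ε := by
  refine closure_minimal ?_ isClosed_closedBall
  intro w hw
  rw [mem_closedBall, dist_zero_right]
  by_contra h
  exact hw (rb_zero hε (not_le.1 h).le)

lemma int_rb {ε : ℝ} (hε : 0 < ε) : ∫ w, rb ε w = 1 := by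
  unfold rb
  rw [integral_const_mul, inv_mul_cancel₀ (int_pos hε).ne']

lemma rb_radial (ε : ℝ) {z w : ℂ} (h : ‖z‖ = ‖w‖) : rb ε z = rb ε w := by
  unfold rb rb0
  rw [norm_smul, norm_smul, h]

lemma rb_neg (ε : ℝ) (w : ℂ) : rb ε (-w) = rb ε w := rb_radial ε (norm_neg w)

/-! ### polar coordinates -/

lemma polar_formula {g : ℂ → ℂ} (hg : Continuous g) {R : ℝ} (h0 : ∀ w, R ≤ ‖w‖ → g w = 0) :
    ∫ w, g w = ∫ r in Ioi (0 : ℝ), ∫ θ in Ioo (-Real.pi) Real.pi, (r : ℂ) *
      g (r * exp (θ * I)) := by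
  rw [← Complex.integral_comp_polarCoord_symm]
  have hset : polarCoord.target = Ioi (0 : ℝ) ×ˢ Ioo (-Real.pi) Real.pi := rfl
  set f : ℝ × ℝ → ℂ := fun p => (p.1 : ℂ) * g (p.1 * exp (p.2 * I)) with hf
  have hfc : Continuous f := by
    rw [hf]
    exact (continuous_ofReal.comp continuous_fst).mul (hg.comp
      ((continuous_ofReal.comp continuous_fst).mul (continuous_exp.comp
        ((continuous_ofReal.comp continuous_snd).mul continuous_const))))
  have hf0 : ∀ p : ℝ × ℝ, max R 0 < p.1 → f p = 0 := by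
    intro p hp
    rw [hf]
    simp only
    rw [h0, mul_zero]
    rw [norm_mul, Complex.norm_exp_ofReal_mul_I, mul_one, Complex.norm_real, Real.norm_of_nonneg
      ((le_max_right R 0).trans hp.le)]
    exact (le_max_left R 0).trans hp.le
  have hi := Crest.Agent.R165.Cl1x722.integrableOn_of_zero hfc (max R 0) hf0
  have h1 : ∀ p ∈ polarCoord.target, p.1 • g (Complex.polarCoord.symm p) = f p := by
    intro p _
    rw [hf, Complex.polarCoord_symm_apply]
    simp only [real_smul]
    congr 2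
    rw [Complex.exp_mul_I]
    push_cast
    ring_nf
  rw [setIntegral_congr_fun (polarCoord.open_target.measurableSet) h1, hset, Measure.volume_eq_prod,
    setIntegral_prod f hi]

/-- **mean value property against a radial bump** -/
theorem mean {F : ℂ → ℂ} {z : ℂ} {ε R : ℝ} (hε : 0 < ε) (hR : ε < R)
    (hF : DifferentiableOn ℂ F (ball z R)) : ∫ w, (rb ε w : ℂ) * F (z + w) = F z := by
  have hcont : ∀ {F : ℂ → ℂ}, DifferentiableOn ℂ F (ball z R) →
      Continuous fun w => (rb ε w : ℂ) * F (z + w) := by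
    intro F hF
    rw [continuous_iff_continuousAt]
    intro w
    by_cases hw : ‖w‖ < R
    · refine (continuous_ofReal.comp (contDiff_rb ε).continuous).continuousAt.mul ?_
      have h1 : ContinuousAt F (z + w) := (hF.continuousOn).continuousAt
        (isOpen_ball.mem_nhds (by rw [mem_ball, dist_eq_norm]; simpa using hw))
      exact ContinuousAt.comp (f := fun w => z + w) h1 (by fun_prop)
    · have h2 : (fun w => (rb ε w : ℂ) * F (z + w)) =ᶠ[𝓝 w] fun _ => 0 := by
        have h3 : {w : ℂ | ε < ‖w‖} ∈ 𝓝 w :=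
          (isOpen_lt continuous_const continuous_norm).mem_nhds (hR.trans_le (not_lt.1 hw))
        filter_upwards [h3] with v hv
        rw [rb_zero hε (le_of_lt hv)]; simp
      exact continuousAt_const.congr h2.symm
  have key : ∀ {F : ℂ → ℂ}, DifferentiableOn ℂ F (ball z R) → ∫ w, (rb ε w : ℂ) * F (z + w) =
      ∫ r in Ioi (0 : ℝ), (2 * Real.pi * r * rb ε r : ℝ) * F z := by
    intro F hF
    rw [polar_formula (hcont hF) (R := ε) (fun w hw => by rw [rb_zero hε hw]; simp)]
    refine setIntegral_congr_fun measurableSet_Ioi fun r hr => ?_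
    have hr0 : 0 < r := hr
    have h1 : ∀ θ : ℝ, (r : ℂ) * ((rb ε (r * exp (θ * I)) : ℂ) * F (z + r * exp (θ * I))) =
        ((r * rb ε r : ℝ) : ℂ) * F (circleMap z r θ) := by
      intro θ
      rw [rb_radial ε (z := r * exp (θ * I)) (w := (r : ℂ)) (by
        rw [norm_mul, Complex.norm_exp_ofReal_mul_I, mul_one])]
      unfold circleMap
      push_cast
      ring
    simp only [h1]
    by_cases hrε : r < ε
    · rw [integral_const_mul, ← integral_Ioc_eq_integral_Ioo,
        ← intervalIntegral.integral_of_le (by linarith [Real.pi_pos])]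
      have h2 : ∫ θ in (-Real.pi)..Real.pi, F (circleMap z r θ) =
          ∫ θ in (0 : ℝ)..(2 * Real.pi), F (circleMap z r θ) := by
        have h3 : Function.Periodic (fun θ => F (circleMap z r θ)) (2 * Real.pi) := by
          intro θ
          simp only [periodic_circleMap z r θ]
        have h4 := h3.intervalIntegral_add_eq (-Real.pi) 0
        rw [zero_add, show -Real.pi + 2 * Real.pi = Real.pi by ring] at h4
        exact h4
      rw [h2]
      have h5 : DiffContOnCl ℂ F (ball z |r|) := by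
        refine DifferentiableOn.diffContOnCl ?_
        refine hF.mono ?_
        refine closure_ball_subset_closedBall.trans ?_
        rw [abs_of_pos hr0]
        exact closedBall_subset_ball (by linarith)
      have h6 := h5.circleAverage
      unfold Real.circleAverage at h6
      rw [inv_smul_eq_iff₀ (by positivity)] at h6
      rw [h6]
      simp only [real_smul]
      push_cast
      ring
    · rw [rb_zero hε (by rw [Complex.norm_real, Real.norm_of_nonneg hr0.le]; exact not_lt.1 hrε)]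
      simp
  rw [key hF]
  have h1 := key (F := fun _ => (1 : ℂ)) (differentiableOn_const _)
  simp only [mul_one] at h1
  rw [integral_mul_const, ← h1, integral_complex_ofReal, int_rb hε]
  simp

/-! ### exact fields -/

/-- divergence of a field -/
def dv (β : ℂ → ℂ) (z : ℂ) : ℝ := (fderiv ℝ β z 1).re + (fderiv ℝ β z I).im

lemma isPreconnected_ext {R : ℝ} (hR : 0 ≤ R) : IsPreconnected {z : ℂ | R < ‖z‖} := by
  have h1 : {z : ℂ | R < ‖z‖} = (fun p : ℝ × ℝ => (p.1 : ℂ) * exp (p.2 * I)) ''
      (Ioi R ×ˢ univ) := by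
    ext z
    constructor
    · intro hz
      refine ⟨(‖z‖, arg z), ⟨hz, trivial⟩, ?_⟩
      exact norm_mul_exp_arg_mul_I z
    · rintro ⟨⟨r, θ⟩, ⟨hr, -⟩, rfl⟩
      have hr' : R < r := hr
      simp only [mem_ofPred_eq]
      rw [norm_mul, Complex.norm_exp_ofReal_mul_I, mul_one, Complex.norm_real,
        Real.norm_of_nonneg (hR.trans hr'.le)]
      exact hr'
  rw [h1]
  refine (isPreconnected_Ioi.prod isPreconnected_univ).image _ ?_
  exact Continuous.continuousOn (by fun_prop)

/-- **a compactly supported divergence free field is a rotated gradient** -/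
theorem exact_field {U : Set ℂ} {β : ℂ → ℂ} (h1 : ContDiff ℝ ∞ β) (h2 : HasCompactSupport β)
    (h3 : tsupport β ⊆ U) (h4 : ∀ z, dv β z = 0) : ∃ φ, Tst U φ ∧ ∀ z, gr φ z = I * β z := by
  -- the one-form
  set om : ℂ → (ℂ →L[ℝ] ℝ) := fun z =>
    (reCLM.comp (ContinuousLinearMap.mul ℝ ℂ (conj (I * β z)))) with hom
  have hom1 : ContDiff ℝ ∞ om := by
    rw [hom]
    refine contDiff_const.clm_comp ?_
    refine (ContinuousLinearMap.mul ℝ ℂ).contDiff.comp ?_
    exact (conjCLE.contDiff).comp (contDiff_const.mul h1)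
  have hd : ∀ z x y, fderiv ℝ om z x y = (conj (I * fderiv ℝ β z x) * y).re := by
    intro z x y
    have hb := (h1.differentiable (by simp) z).hasFDerivAt
    have e1 : HasFDerivAt (fun z => conj (I * β z))
        ((conjCLE : ℂ →L[ℝ] ℂ).comp (I • fderiv ℝ β z)) z := by
      have := (hb.const_mul I)
      exact (conjCLE : ℂ →L[ℝ] ℂ).hasFDerivAt.comp z this
    have e2 : HasFDerivAt (fun z => ContinuousLinearMap.mul ℝ ℂ (conj (I * β z)))
        ((ContinuousLinearMap.mul ℝ ℂ).comp ((conjCLE : ℂ →L[ℝ] ℂ).comp (I • fderiv ℝ β z))) z :=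
      (ContinuousLinearMap.mul ℝ ℂ).hasFDerivAt.comp z e1
    have e3 := (hasFDerivAt_const reCLM z).clm_comp e2
    have e4 : HasFDerivAt om _ z := e3
    rw [e4.fderiv]
    simp
  have hsym : ∀ z x y, fderiv ℝ om z x y = fderiv ℝ om z y x := by
    intro z x y
    rw [hd, hd]
    have h5 := h4 z
    unfold dv at h5
    have hx : fderiv ℝ β z x = x.re * fderiv ℝ β z 1 + x.im * fderiv ℝ β z I := by
      conv_lhs => rw [show x = x.re • (1 : ℂ) + x.im • I by simp [Complex.re_add_im]]
      rw [map_add, map_smul, map_smul, real_smul, real_smul]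
    have hy : fderiv ℝ β z y = y.re * fderiv ℝ β z 1 + y.im * fderiv ℝ β z I := by
      conv_lhs => rw [show y = y.re • (1 : ℂ) + y.im • I by simp [Complex.re_add_im]]
      rw [map_add, map_smul, map_smul, real_smul, real_smul]
    rw [hx, hy]
    simp
    linear_combination (x.re * y.im - x.im * y.re) * h5
  obtain ⟨φ0, hφ0⟩ := convex_univ.exists_forall_hasFDerivAt_of_fderiv_symmetric isOpen_univ
    (hom1.differentiable (by simp)).differentiableOn (fun z _ => hsym z)
  have hφd : ∀ z, HasFDerivAt φ0 (om z) z := fun z => hφ0 z (mem_univ z)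
  have hfd : fderiv ℝ φ0 = om := funext fun z => (hφd z).fderiv
  have hφs : ContDiff ℝ ∞ φ0 := by
    rw [contDiff_infty_iff_fderiv]
    exact ⟨fun z => (hφd z).differentiableAt, by rw [hfd]; exact hom1⟩
  -- constant near infinity
  obtain ⟨R, hR0, hR⟩ : ∃ R : ℝ, 0 ≤ R ∧ tsupport β ⊆ closedBall 0 R := by
    obtain ⟨R, hR⟩ := h2.isCompact.isBounded.subset_closedBall (0 : ℂ)
    exact ⟨max R 0, le_max_right _ _, hR.trans (closedBall_subset_closedBall (le_max_left _ _))⟩
  have hb0 : ∀ z, z ∉ tsupport β → om z = 0 := by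
    intro z hz
    rw [hom]
    simp only
    rw [image_eq_zero_of_notMem_tsupport hz]
    ext v
    simp
  set z1 : ℂ := ((R + 1 : ℝ) : ℂ) with hz1
  have hz1m : R < ‖z1‖ := by
    rw [hz1, Complex.norm_real, Real.norm_of_nonneg (by linarith)]; linarith
  have hconst : ∀ z : ℂ, R < ‖z‖ → φ0 z = φ0 z1 := by
    intro z hz
    have ho : IsOpen {z : ℂ | R < ‖z‖} := isOpen_lt continuous_const continuous_norm
    refine ho.is_const_of_fderiv_eq_zero (isPreconnected_ext hR0)
      (fun w _ => (hφd w).differentiableAt.differentiableWithinAt) ?_ hz hz1m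
    intro w hw
    rw [hfd]
    refine hb0 w fun h => ?_
    have := hR h
    rw [mem_closedBall, dist_zero_right] at this
    exact absurd hw (not_lt.2 this)
  refine ⟨fun z => φ0 z - φ0 z1, ⟨hφs.sub contDiff_const, ?_, ?_⟩, ?_⟩
  · refine HasCompactSupport.intro (isCompact_closedBall (0 : ℂ) R) fun z hz => ?_
    rw [mem_closedBall, dist_zero_right, not_le] at hz
    rw [hconst z hz, sub_self]
  · have e1 : fderiv ℝ (fun z => φ0 z - φ0 z1) = om := by
      funext z
      rw [fderiv_sub_const, hfd]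
    rw [e1]
    refine Subset.trans ?_ h3
    refine closure_minimal ?_ (isClosed_tsupport β)
    intro z hz
    by_contra h
    exact hz (hb0 z h)
  · intro z
    unfold gr
    have e1 : fderiv ℝ (fun z => φ0 z - φ0 z1) z = om z := by
      rw [fderiv_sub_const, hfd]
    rw [e1, hom]
    simp only [ContinuousLinearMap.comp_apply, ContinuousLinearMap.mul_apply', reCLM_apply]
    apply Complex.ext <;> simp

end

end Crest.Agent.R105.Dir_508
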