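import Crest.Agent.R105.Dir1_508

/-!
# Row 105, LIB-DIR 2: primitives on arbitrary open sets from test functions (helper508)

* `seg ε a b` : smooth field carried by the segment from `a` to `b`
* `exists_primitive` : `G` holomorphic on the open set `U` with `∫ G * gr φ = 0` for all test
  functions `φ` locally constant near `Uᶜ` has a holomorphic primitive on `U`
-/

set_option autoImplicit false

open MeasureTheory Set Filter Topology Complex Metric
open scoped ContDiff ComplexConjugate Convolution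

namespace Crest.Agent.R105.Dir_508

noncomputable section

/-- scalar density of the segment field -/
def sg (ε : ℝ) (a b w : ℂ) : ℝ := ∫ t in (0 : ℝ)..1, rb ε (w - (a + t * (b - a)))

/-- smooth field carried by the segment `[a, b]` -/
def seg (ε : ℝ) (a b w : ℂ) : ℂ := (b - a) * (sg ε a b w : ℂ)

/-- the measure on the segment -/
def smu (a b : ℂ) : Measure ℂ := (volume.restrict (Ioc (0 : ℝ) 1)).map (fun t : ℝ => a + t * (b - a))

lemma cont_par (a b : ℂ) : Continuous (fun t : ℝ => a + t * (b - a)) := by fun_prop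

instance (a b : ℂ) : IsFiniteMeasure (smu a b) := by
  unfold smu
  infer_instance

lemma sg_eq_conv (ε : ℝ) (a b : ℂ) :
    sg ε a b = ((fun _ : ℂ => (1 : ℝ)) ⋆[ContinuousLinearMap.mul ℝ ℝ, smu a b] (rb ε)) := by
  funext w
  unfold convolution sg smu
  rw [integral_map (cont_par a b).measurable.aemeasurable, intervalIntegral.integral_of_le
    zero_le_one]
  · simp
  · have h1 : Continuous fun x : ℂ => (ContinuousLinearMap.mul ℝ ℝ) (1 : ℝ) (rb ε (w - x)) := by
      simp only [ContinuousLinearMap.mul_apply', one_mul]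
      exact (contDiff_rb ε).continuous.comp (by fun_prop)
    exact h1.aestronglyMeasurable

lemma contDiff_sg {ε : ℝ} (hε : 0 < ε) (a b : ℂ) : ContDiff ℝ ∞ (sg ε a b) := by
  rw [sg_eq_conv]
  refine HasCompactSupport.contDiff_convolution_right _ (cpt_rb hε) ?_ (contDiff_rb ε)
  exact (integrable_const (1 : ℝ)).locallyIntegrable

lemma contDiff_seg {ε : ℝ} (hε : 0 < ε) (a b : ℂ) : ContDiff ℝ ∞ (seg ε a b) :=
  contDiff_const.mul (ofRealCLM.contDiff.comp (contDiff_sg hε a b))

lemma hasFDerivAt_sg {ε : ℝ} (hε : 0 < ε) (a b w : ℂ) (v : ℂ) :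
    fderiv ℝ (sg ε a b) w v = ∫ t in (0 : ℝ)..1, fderiv ℝ (rb ε) (w - (a + t * (b - a))) v := by
  have hcf : Continuous (fderiv ℝ (rb ε)) := (contDiff_rb ε).continuous_fderiv (by simp)
  obtain ⟨M, hM⟩ := hcf.bounded_above_of_compact_support ((cpt_rb hε).fderiv ℝ)
  have hc1 : ∀ x : ℂ, Continuous fun t : ℝ => rb ε (x - (a + t * (b - a))) := fun x =>
    (contDiff_rb ε).continuous.comp (by fun_prop)
  have hc2 : ∀ x : ℂ, Continuous fun t : ℝ => fderiv ℝ (rb ε) (x - (a + t * (b - a))) := fun x =>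
    hcf.comp (by fun_prop)
  have hci : ∀ {E : Type} [NormedAddCommGroup E] [NormedSpace ℝ E] {f : ℝ → E}, Continuous f →
      Integrable f (volume.restrict (Ioc (0 : ℝ) 1)) := fun hf =>
    (hf.integrableOn_Icc (a := 0) (b := 1)).mono_set Ioc_subset_Icc_self
  have h1 : HasFDerivAt (fun x : ℂ => ∫ t in Ioc (0 : ℝ) 1, rb ε (x - (a + t * (b - a))))
      (∫ t in Ioc (0 : ℝ) 1, fderiv ℝ (rb ε) (w - (a + t * (b - a)))) w := by
    refine hasFDerivAt_integral_of_dominated_of_fderiv_le (s := univ) (bound := fun _ => M)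
      (F := fun (x : ℂ) (t : ℝ) => rb ε (x - (a + t * (b - a))))
      (F' := fun (x : ℂ) (t : ℝ) => fderiv ℝ (rb ε) (x - (a + t * (b - a)))) univ_mem
      (Eventually.of_forall fun x => (hc1 x).aestronglyMeasurable) (hci (hc1 w))
      (hc2 w).aestronglyMeasurable (ae_of_all _ fun t x _ => hM _) (integrable_const _)
      (ae_of_all _ fun t x _ => ?_)
    have e1 : HasFDerivAt (rb ε) (fderiv ℝ (rb ε) (x - (a + t * (b - a))))
        (x - (a + t * (b - a))) := ((contDiff_rb ε).differentiable (by simp) _).hasFDerivAt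
    have e2 : HasFDerivAt (fun x : ℂ => x - (a + t * (b - a))) (ContinuousLinearMap.id ℝ ℂ) x :=
      (hasFDerivAt_id x).sub_const _
    exact e1.comp x e2
  have h2 : sg ε a b = fun x : ℂ => ∫ t in Ioc (0 : ℝ) 1, rb ε (x - (a + t * (b - a))) := by
    funext x
    unfold sg
    rw [intervalIntegral.integral_of_le zero_le_one]
  rw [h2, h1.fderiv, intervalIntegral.integral_of_le zero_le_one,
    ContinuousLinearMap.integral_apply (hci (hc2 w))]

lemma dv_seg {ε : ℝ} (hε : 0 < ε) (a b w : ℂ) :
    dv (seg ε a b) w = rb ε (w - a) - rb ε (w - b) := by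
  have hd : HasFDerivAt (sg ε a b) (fderiv ℝ (sg ε a b) w) w :=
    ((contDiff_sg hε a b).differentiable (by simp) w).hasFDerivAt
  have h1 : HasFDerivAt (seg ε a b)
      ((b - a) • (ofRealCLM.comp (fderiv ℝ (sg ε a b) w))) w :=
    (ofRealCLM.hasFDerivAt.comp w hd).const_mul (b - a)
  unfold dv
  rw [h1.fderiv]
  have h2 : ((b - a) • (ofRealCLM.comp (fderiv ℝ (sg ε a b) w))) 1 =
      (b - a) * (fderiv ℝ (sg ε a b) w 1 : ℂ) := by simp
  have h3 : ((b - a) • (ofRealCLM.comp (fderiv ℝ (sg ε a b) w))) I =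
      (b - a) * (fderiv ℝ (sg ε a b) w I : ℂ) := by simp
  rw [h2, h3, Complex.re_mul_ofReal, Complex.im_mul_ofReal]
  have h4 : (b - a).re * fderiv ℝ (sg ε a b) w 1 + (b - a).im * fderiv ℝ (sg ε a b) w I =
      fderiv ℝ (sg ε a b) w (b - a) := by
    conv_rhs => rw [show b - a = (b - a).re • (1 : ℂ) + (b - a).im • I by
      rw [real_smul, real_smul, mul_one]; exact (Complex.re_add_im _).symm]
    rw [map_add, map_smul, map_smul, smul_eq_mul, smul_eq_mul]
  rw [h4, hasFDerivAt_sg hε]
  have h5 : ∀ t ∈ uIcc (0 : ℝ) 1, HasDerivAt (fun t : ℝ => rb ε (w - (a + t * (b - a))))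
      (-(fderiv ℝ (rb ε) (w - (a + t * (b - a))) (b - a))) t := by
    intro t _
    have e1 : HasFDerivAt (rb ε) (fderiv ℝ (rb ε) (w - (a + t * (b - a))))
        (w - (a + t * (b - a))) :=
      ((contDiff_rb ε).differentiable (by simp) _).hasFDerivAt
    have e2 : HasDerivAt (fun t : ℝ => w - (a + (t : ℂ) * (b - a))) (-(b - a)) t := by
      have e3 : HasDerivAt (fun t : ℝ => (t : ℂ)) 1 t := Complex.ofRealCLM.hasDerivAt
      have e4 := ((e3.mul_const (b - a)).const_add a).const_sub w
      simpa using e4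
    have e5 := e1.comp_hasDerivAt t e2
    rw [map_neg] at e5
    exact e5
  have h6 := intervalIntegral.integral_eq_sub_of_hasDerivAt h5 (by
    refine Continuous.intervalIntegrable ?_ _ _
    refine Continuous.neg ?_
    have : Continuous fun t : ℝ => fderiv ℝ (rb ε) (w - (a + t * (b - a))) :=
      ((contDiff_rb ε).continuous_fderiv (by simp)).comp (by fun_prop)
    exact this.clm_apply continuous_const)
  rw [intervalIntegral.integral_neg] at h6
  have h7 : w - (a + ((1 : ℝ) : ℂ) * (b - a)) = w - b := by push_cast; ring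
  have h8 : w - (a + ((0 : ℝ) : ℂ) * (b - a)) = w - a := by push_cast; ring
  rw [h7, h8] at h6
  linarith

lemma seg_zero {ε : ℝ} (hε : 0 < ε) {a b q : ℂ} {r : ℝ} (ha : a ∈ closedBall q r)
    (hb : b ∈ closedBall q r) {w : ℂ} (hw : w ∉ closedBall q (r + ε)) : sg ε a b w = 0 := by
  unfold sg
  have h1 : ∀ t ∈ uIcc (0 : ℝ) 1, rb ε (w - (a + t * (b - a))) = 0 := by
    intro t ht
    rw [uIcc_of_le zero_le_one] at ht
    refine rb_zero hε ?_
    have h2 : a + t * (b - a) ∈ closedBall q r := by
      have := (convex_closedBall q r).add_smul_sub_mem ha hb ht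
      rwa [real_smul] at this
    rw [mem_closedBall, dist_eq_norm] at h2
    rw [mem_closedBall, dist_eq_norm, not_le] at hw
    have h3 : w - q = (w - (a + t * (b - a))) + ((a + t * (b - a)) - q) := by ring
    have h4 : ‖w - q‖ ≤ ‖w - (a + t * (b - a))‖ + ‖(a + t * (b - a)) - q‖ := by
      rw [h3]; exact norm_add_le _ _
    linarith
  rw [intervalIntegral.integral_congr h1]
  simp

lemma tsupport_seg {ε : ℝ} (hε : 0 < ε) {a b q : ℂ} {r : ℝ} (ha : a ∈ closedBall q r)
    (hb : b ∈ closedBall q r) : tsupport (seg ε a b) ⊆ closedBall q (r + ε) := by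
  refine closure_minimal ?_ isClosed_closedBall
  intro w hw
  by_contra h
  refine hw ?_
  simp only [seg]
  rw [seg_zero hε ha hb h]; simp

lemma cpt_seg {ε : ℝ} (hε : 0 < ε) (a b : ℂ) : HasCompactSupport (seg ε a b) := by
  have ha : a ∈ closedBall a (dist b a) := mem_closedBall_self dist_nonneg
  have hb : b ∈ closedBall a (dist b a) := by rw [mem_closedBall]
  exact (isCompact_closedBall _ _).of_isClosed_subset (isClosed_tsupport _)
    (tsupport_seg hε ha hb)

/-- the pairing of a holomorphic function with the segment field -/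
theorem int_seg {G P : ℂ → ℂ} {q : ℂ} {R r ε : ℝ} (hε : 0 < ε) (hR : r + ε < R)
    (hG : DifferentiableOn ℂ G (ball q R)) (hP : ∀ z ∈ ball q R, HasDerivAt P (G z) z)
    {a b : ℂ} (ha : a ∈ closedBall q r) (hb : b ∈ closedBall q r) :
    ∫ w, G w * seg ε a b w = P b - P a := by
  -- cut off
  set B := closedBall q (r + ε) with hB
  have hBR : B ⊆ ball q R := closedBall_subset_ball hR
  set G1 : ℂ → ℂ := B.indicator G with hG1
  have hGi : Integrable G1 := by
    rw [hG1, integrable_indicator_iff isClosed_closedBall.measurableSet]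
    exact (hG.continuousOn.mono hBR).integrableOn_compact (isCompact_closedBall _ _)
  have hpt : ∀ t ∈ Ioc (0 : ℝ) 1, a + t * (b - a) ∈ closedBall q r := by
    intro t ht
    have := (convex_closedBall q r).add_smul_sub_mem ha hb ⟨ht.1.le, ht.2⟩
    rwa [real_smul] at this
  have e1 : ∀ w, G w * seg ε a b w =
      ∫ t in Ioc (0 : ℝ) 1, (b - a) * (G1 w * (rb ε (w - (a + t * (b - a))) : ℂ)) := by
    intro w
    rw [integral_const_mul, integral_const_mul]
    unfold seg
    by_cases hw : w ∈ B
    · rw [hG1, indicator_of_mem hw]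
      unfold sg
      rw [intervalIntegral.integral_of_le zero_le_one, ← integral_complex_ofReal]
      ring
    · rw [seg_zero hε ha hb hw, hG1, indicator_of_notMem hw]
      simp
  simp only [e1]
  rw [integral_integral_swap]
  · have e2 : ∀ t ∈ Ioc (0 : ℝ) 1, ∫ w, (b - a) * (G1 w * (rb ε (w - (a + t * (b - a))) : ℂ)) =
        G (a + t * (b - a)) * (b - a) := by
      intro t ht
      have hc := hpt t ht
      set c := a + t * (b - a) with hcdef
      rw [integral_const_mul]
      have hcn : ‖c - q‖ ≤ r := by rwa [mem_closedBall, dist_eq_norm] at hc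
      have e3 : ∫ w, G1 w * (rb ε (w - c) : ℂ) = ∫ w, (rb ε w : ℂ) * G (c + w) := by
        rw [← integral_add_left_eq_self (fun w => G1 w * (rb ε (w - c) : ℂ)) c]
        refine integral_congr_ae (ae_of_all _ fun w => ?_)
        simp only [add_sub_cancel_left]
        by_cases hw : ‖w‖ ≤ ε
        · rw [hG1, indicator_of_mem]
          · ring
          · rw [hB, mem_closedBall, dist_eq_norm, show c + w - q = (c - q) + w by ring]
            exact (norm_add_le _ _).trans (by linarith)
        · rw [rb_zero hε (not_le.1 hw).le]; simp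
      have hsub : ball c (R - r) ⊆ ball q R := by
        intro z hz
        rw [mem_ball, dist_eq_norm] at hz ⊢
        have : z - q = (z - c) + (c - q) := by ring
        rw [this]
        exact (norm_add_le _ _).trans_lt (by linarith)
      rw [e3, mean hε (R := R - r) (by linarith) (hG.mono hsub)]
      ring
    rw [setIntegral_congr_fun measurableSet_Ioc e2, ← intervalIntegral.integral_of_le zero_le_one]
    have h5 : ∀ t ∈ uIcc (0 : ℝ) 1, HasDerivAt (fun t : ℝ => P (a + t * (b - a)))
        (G (a + t * (b - a)) * (b - a)) t := by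
      intro t ht
      rw [uIcc_of_le zero_le_one] at ht
      have hm : a + t * (b - a) ∈ ball q R := by
        refine hBR (closedBall_subset_closedBall (show r ≤ r + ε by linarith) ?_)
        have := (convex_closedBall q r).add_smul_sub_mem ha hb ht
        rwa [real_smul] at this
      have e4 : HasDerivAt (fun t : ℝ => a + (t : ℂ) * (b - a)) (b - a) t := by
        have e3 : HasDerivAt (fun t : ℝ => (t : ℂ)) 1 t := Complex.ofRealCLM.hasDerivAt
        simpa using (e3.mul_const (b - a)).const_add a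
      have := HasDerivAt.comp (𝕜 := ℝ) (𝕜' := ℂ) t (hP _ hm) e4
      exact this
    have hci : IntervalIntegrable (fun t : ℝ => G (a + t * (b - a)) * (b - a)) volume 0 1 := by
      refine ContinuousOn.intervalIntegrable ?_
      rw [uIcc_of_le zero_le_one]
      refine ContinuousOn.mul ?_ continuousOn_const
      refine hG.continuousOn.comp (cont_par a b).continuousOn ?_
      intro t ht
      refine hBR (closedBall_subset_closedBall (show r ≤ r + ε by linarith) ?_)
      have := (convex_closedBall q r).add_smul_sub_mem ha hb ht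
      rwa [real_smul] at this
    rw [intervalIntegral.integral_eq_sub_of_hasDerivAt h5 hci]
    congr 2
    · push_cast; ring
    · push_cast; ring
  · -- integrability
    have f1 : Integrable (fun p : ℂ × ℝ => G1 p.1) (volume.prod (volume.restrict (Ioc (0 : ℝ) 1))) :=
      hGi.comp_fst _
    have f2 : Continuous (fun p : ℂ × ℝ => (b - a) * (rb ε (p.1 - (a + p.2 * (b - a))) : ℂ)) := by
      refine continuous_const.mul (continuous_ofReal.comp ((contDiff_rb ε).continuous.comp ?_))
      fun_prop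
    obtain ⟨M, hM⟩ := (contDiff_rb ε).continuous.bounded_above_of_compact_support (cpt_rb hε)
    have f3 := f1.bdd_mul (c := ‖b - a‖ * M) f2.aestronglyMeasurable (ae_of_all _ fun p => by
      rw [norm_mul, Complex.norm_real]
      exact mul_le_mul_of_nonneg_left (hM _) (norm_nonneg _))
    refine f3.congr (ae_of_all _ fun p => ?_)
    simp only [Function.uncurry]
    ring

/-! ### chains -/

/-- there is a chain from `z0` to `z` with period `c` -/
def Rch (U : Set ℂ) (G : ℂ → ℂ) (z0 z c : ℂ) : Prop :=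
  ∃ ε0 > 0, ∀ ε, 0 < ε → ε < ε0 → ∃ β : ℂ → ℂ, ContDiff ℝ ∞ β ∧ HasCompactSupport β ∧
    tsupport β ⊆ U ∧ (∀ w, dv β w = rb ε (w - z0) - rb ε (w - z)) ∧ ∫ w, G w * β w = c

lemma integrable_mul {U : Set ℂ} (hU : IsOpen U) {G β : ℂ → ℂ} (hG : ContinuousOn G U)
    (h1 : Continuous β) (h2 : HasCompactSupport β) (h3 : tsupport β ⊆ U) :
    Integrable fun w => G w * β w := by
  have hc : Continuous fun w => G w * β w := by
    rw [continuous_iff_continuousAt]
    intro z
    by_cases hz : z ∈ U
    · exact (hG.continuousAt (hU.mem_nhds hz)).mul h1.continuousAt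
    · have h6 : (fun z => G z * β z) =ᶠ[𝓝 z] fun _ => 0 := by
        filter_upwards [(isClosed_tsupport β).isOpen_compl.mem_nhds (fun h => hz (h3 h))]
          with y hy
        rw [image_eq_zero_of_notMem_tsupport hy, mul_zero]
      exact continuousAt_const.congr h6.symm
  exact hc.integrable_of_hasCompactSupport h2.mul_left

lemma dv_add {β β' : ℂ → ℂ} (h : ContDiff ℝ ∞ β) (h' : ContDiff ℝ ∞ β') (w : ℂ) :
    dv (fun w => β w + β' w) w = dv β w + dv β' w := by
  unfold dv
  rw [fderiv_fun_add (h.differentiable (by simp) w) (h'.differentiable (by simp) w)]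
  simp only [_root_.add_apply, Complex.add_re, Complex.add_im]
  ring

lemma dv_sub {β β' : ℂ → ℂ} (h : ContDiff ℝ ∞ β) (h' : ContDiff ℝ ∞ β') (w : ℂ) :
    dv (fun w => β w - β' w) w = dv β w - dv β' w := by
  unfold dv
  rw [fderiv_fun_sub (h.differentiable (by simp) w) (h'.differentiable (by simp) w)]
  simp only [_root_.sub_apply, Complex.sub_re, Complex.sub_im]
  ring

lemma Rch.refl (U : Set ℂ) (G : ℂ → ℂ) (z0 : ℂ) : Rch U G z0 z0 0 := by
  refine ⟨1, one_pos, fun ε _ _ => ⟨fun _ => 0, contDiff_const, HasCompactSupport.zero, ?_, ?_, ?_⟩⟩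
  · simp [tsupport]
  · intro w
    simp [dv]
  · simp

lemma Rch.step {U : Set ℂ} (hU : IsOpen U) {G P : ℂ → ℂ} (hGU : ContinuousOn G U) {z0 a b c q : ℂ}
    {R : ℝ} (h : Rch U G z0 a c) (hB : ball q R ⊆ U) (hG : DifferentiableOn ℂ G (ball q R))
    (hP : ∀ z ∈ ball q R, HasDerivAt P (G z) z) (ha : a ∈ ball q R) (hb : b ∈ ball q R) :
    Rch U G z0 b (c + (P b - P a)) := by
  obtain ⟨ε0, hε0, H⟩ := h
  set r := max (dist a q) (dist b q) with hr
  have hr0 : 0 ≤ r := dist_nonneg.trans (le_max_left _ _)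
  have hrR : r < R := max_lt (mem_ball.1 ha) (mem_ball.1 hb)
  have ha' : a ∈ closedBall q r := by rw [mem_closedBall]; exact le_max_left _ _
  have hb' : b ∈ closedBall q r := by rw [mem_closedBall]; exact le_max_right _ _
  refine ⟨min ε0 (R - r), lt_min hε0 (by linarith), fun ε hε hεε => ?_⟩
  obtain ⟨β, b1, b2, b3, b4, b5⟩ := H ε hε (hεε.trans_le (min_le_left _ _))
  have hεR : r + ε < R := by
    have := hεε.trans_le (min_le_right _ _)
    linarith
  have s3 : tsupport (seg ε a b) ⊆ U :=
    (tsupport_seg hε ha' hb').trans ((closedBall_subset_ball hεR).trans hB)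
  refine ⟨fun w => β w + seg ε a b w, b1.add (contDiff_seg hε a b), b2.add (cpt_seg hε a b),
    ?_, ?_, ?_⟩
  · exact (tsupport_add β (seg ε a b)).trans (union_subset b3 s3)
  · intro w
    rw [dv_add b1 (contDiff_seg hε a b), b4, dv_seg hε]
    ring
  · have i1 := integrable_mul hU hGU b1.continuous b2 b3
    have i2 := integrable_mul hU hGU (contDiff_seg hε a b).continuous (cpt_seg hε a b) s3
    have : ∀ w, G w * (β w + seg ε a b w) = G w * β w + G w * seg ε a b w := fun w => by ring
    simp only [this]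
    rw [integral_add i1 i2, b5, int_seg hε hεR hG hP ha' hb']

lemma Rch.unique {U : Set ℂ} (hU : IsOpen U) {G : ℂ → ℂ} (hGU : ContinuousOn G U)
    (hT : ∀ φ, Tst U φ → ∫ z, G z * gr φ z = 0) {z0 z c c' : ℂ} (h : Rch U G z0 z c)
    (h' : Rch U G z0 z c') : c = c' := by
  obtain ⟨ε0, hε0, H⟩ := h
  obtain ⟨ε1, hε1, H'⟩ := h'
  set ε := min ε0 ε1 / 2 with hε
  have hm : 0 < min ε0 ε1 := lt_min hε0 hε1
  have he : 0 < ε := by rw [hε]; positivity
  have hl : ε < min ε0 ε1 := by rw [hε]; linarith
  obtain ⟨β, b1, b2, b3, b4, b5⟩ := H ε he (hl.trans_le (min_le_left _ _))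
  obtain ⟨β', d1, d2, d3, d4, d5⟩ := H' ε he (hl.trans_le (min_le_right _ _))
  obtain ⟨φ, hφ, hφ2⟩ := exact_field (U := U) (β := fun w => β w - β' w) (b1.sub d1) (by
    exact b2.sub d2) (by
    exact (tsupport_sub β β').trans (union_subset b3 d3)) (fun w => by
    rw [dv_sub b1 d1, b4, d4, sub_self])
  have h1 := hT φ hφ
  simp only [hφ2] at h1
  have i1 := integrable_mul hU hGU b1.continuous b2 b3
  have i2 := integrable_mul hU hGU d1.continuous d2 d3
  have : ∀ w, G w * (I * (β w - β' w)) = I * (G w * β w - G w * β' w) := fun w => by ring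
  simp only [this] at h1
  rw [integral_const_mul, integral_sub i1 i2, b5, d5] at h1
  have h2 : c - c' = 0 := by
    rcases mul_eq_zero.1 h1 with h | h
    · exact absurd h I_ne_zero
    · exact h
  exact sub_eq_zero.1 h2

/-- a holomorphic function on a ball has a primitive -/
lemma exists_primitive_ball {G : ℂ → ℂ} {q : ℂ} {R : ℝ} (hG : DifferentiableOn ℂ G (ball q R)) :
    ∃ P : ℂ → ℂ, ∀ z ∈ ball q R, HasDerivAt P (G z) z := by
  obtain ⟨P, hP⟩ := (convex_ball q R).exists_forall_hasDerivWithinAt hG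
  exact ⟨P, fun z hz => (hP z hz).hasDerivAt (isOpen_ball.mem_nhds hz)⟩

/-- **primitives from test functions**, connected case -/
theorem exists_primitive_conn {U : Set ℂ} (hU : IsOpen U) (hc : IsPreconnected U) {G : ℂ → ℂ}
    (hG : DifferentiableOn ℂ G U) (hT : ∀ φ, Tst U φ → ∫ z, G z * gr φ z = 0) :
    ∃ p : ℂ → ℂ, ∀ z ∈ U, HasDerivAt p (G z) z := by
  rcases U.eq_empty_or_nonempty with rfl | ⟨z0, hz0⟩
  · exact ⟨fun _ => 0, fun z hz => absurd hz (notMem_empty z)⟩
  have hGc := hG.continuousOn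
  -- existence
  have hex : ∀ z ∈ U, ∃ c, Rch U G z0 z c := by
    intro z hz
    have hind := hc.induction₂' (fun a b => (∃ c, Rch U G z0 a c) → ∃ c, Rch U G z0 b c) ?_ ?_
      hz0 hz
    · exact hind ⟨0, Rch.refl U G z0⟩
    · intro a ha
      obtain ⟨R, hR, hB⟩ := Metric.isOpen_iff.1 hU a ha
      obtain ⟨P, hP⟩ := exists_primitive_ball (hG.mono hB)
      have : ball a R ∈ 𝓝[U] a := mem_nhdsWithin_of_mem_nhds (ball_mem_nhds a hR)
      filter_upwards [this] with b hb
      constructor
      · rintro ⟨c, h⟩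
        exact ⟨_, h.step hU hGc hB (hG.mono hB) hP (mem_ball_self hR) hb⟩
      · rintro ⟨c, h⟩
        exact ⟨_, h.step hU hGc hB (hG.mono hB) hP hb (mem_ball_self hR)⟩
    · intro a b c _ _ _ h1 h2 h3
      exact h2 (h1 h3)
  choose! p hp using hex
  refine ⟨p, fun z hz => ?_⟩
  obtain ⟨R, hR, hB⟩ := Metric.isOpen_iff.1 hU z hz
  obtain ⟨P, hP⟩ := exists_primitive_ball (hG.mono hB)
  have h1 : p =ᶠ[𝓝 z] fun w => p z + (P w - P z) := by
    filter_upwards [ball_mem_nhds z hR] with w hw
    exact Rch.unique hU hGc hT (hp w (hB hw))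
      ((hp z hz).step hU hGc hB (hG.mono hB) hP (mem_ball_self hR) hw)
  have h2 : HasDerivAt (fun w => p z + (P w - P z)) (G z) z :=
    ((hP z (mem_ball_self hR)).sub_const _).const_add _
  exact h2.congr_of_eventuallyEq h1

lemma Tst.mono {U V : Set ℂ} (h : U ⊆ V) {φ : ℂ → ℝ} (hφ : Tst U φ) : Tst V φ :=
  ⟨hφ.sm, hφ.cpt, hφ.sub.trans h⟩

/-- **primitives from test functions** -/
theorem exists_primitive {U : Set ℂ} (hU : IsOpen U) {G : ℂ → ℂ}
    (hG : DifferentiableOn ℂ G U) (hT : ∀ φ, Tst U φ → ∫ z, G z * gr φ z = 0) :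
    ∃ p : ℂ → ℂ, ∀ z ∈ U, HasDerivAt p (G z) z := by
  have h1 : ∀ C : Set ℂ, ∃ p : ℂ → ℂ, (IsOpen C → IsPreconnected C → C ⊆ U →
      ∀ z ∈ C, HasDerivAt p (G z) z) := by
    intro C
    by_cases h : IsOpen C ∧ IsPreconnected C ∧ C ⊆ U
    · obtain ⟨p, hp⟩ := exists_primitive_conn h.1 h.2.1 (hG.mono h.2.2)
        (fun φ hφ => hT φ (hφ.mono h.2.2))
      exact ⟨p, fun _ _ _ => hp⟩
    · exact ⟨fun _ => 0, fun a b c => absurd ⟨a, b, c⟩ h⟩
  choose p hp using h1
  refine ⟨fun z => p (connectedComponentIn U z) z, fun z hz => ?_⟩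
  have ho : IsOpen (connectedComponentIn U z) := hU.connectedComponentIn
  have hm : z ∈ connectedComponentIn U z := mem_connectedComponentIn hz
  refine (hp _ ho isPreconnected_connectedComponentIn (connectedComponentIn_subset U z) z
    hm).congr_of_eventuallyEq ?_
  filter_upwards [ho.mem_nhds hm] with w hw
  rw [connectedComponentIn_eq hw]

end

end Crest.Agent.R105.Dir_508
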