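import Crest.Agent.R105.IfB0_641

/-!
# Row 105, [B]: the chapter Props (z-side) -- definitions only
-/

set_option autoImplicit false

open MeasureTheory Set Filter Topology Metric
open scoped ContDiff

namespace Crest.Agent.R105.IfB_641

/-- standing hypotheses on `C` -/
structure TD (C : Set ℂ) : Prop where
  cpt : IsCompact C
  td : IsTotallyDisconnected C

/-- output of selection + closing: an isotropic sequence of honest functions containing its own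
minimising sequence, minimal against honest and one-atom isotropic extensions -/
structure Sel (C : Set ℂ) (x0 : ℂ → ℝ) (b : ℕ → ℂ → ℝ) (m : ℝ) : Prop where
  mem : ∀ i, D C (b i)
  iso : Iso C (range b)
  lim : Tendsto (fun k => J C x0 (b k)) atTop (𝓝 m)
  min : ∀ ψ, T1 C ψ → Iso C (insert ψ (range b)) → m ≤ J C x0 ψ

/-- SELECTION + CLOSING LEMMA (658, 602, 775) -/
def SELP : Prop :=
  ∀ (C : Set ℂ) (x0 : ℂ → ℝ), TD C → X0 C x0 → ∀ v, D C v → ∀ η : ℝ, 0 < η →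
    ∃ (b : ℕ → ℂ → ℝ) (m : ℝ), Sel C x0 b m ∧ (∀ z, |b 0 z - v z| ≤ η) ∧
      di C (fun z => b 0 z - v z) (fun z => b 0 z - v z) ≤ η

/-- ATTAINMENT (61, 823) -/
def ATTP : Prop :=
  ∀ (C : Set ℂ) (x0 : ℂ → ℝ), TD C → X0 C x0 → ∀ (b : ℕ → ℂ → ℝ) (m : ℝ), Sel C x0 b m →
    ∃ φ, D C φ ∧ Iso C (insert φ (range b)) ∧ J C x0 φ = m

/-- the package after attainment -/
structure Pk (C : Set ℂ) (x0 : ℂ → ℝ) (b : ℕ → ℂ → ℝ) (φ : ℂ → ℝ) : Prop where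
  td : TD C
  hx0 : X0 C x0
  memb : ∀ i, D C (b i)
  memφ : D C φ
  iso : Iso C (insert φ (range b))
  el : ∀ ψ, T1 C ψ → Iso C (insert ψ (insert φ (range b))) → EL C x0 φ ψ

/-- the holomorphic completion `p` of `x0 + φ` -/
structure Cpl (C : Set ℂ) (x0 φ : ℂ → ℝ) (p : ℂ → ℂ) : Prop where
  hol : DifferentiableOn ℂ p Cᶜ
  re : ∀ z ∈ Cᶜ, (p z).re = x0 z + φ z
  inf : ∃ c : ℂ, Tendsto (fun z => p z - z) (cocompact ℂ) (𝓝 c)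

/-- DIRICHLET + PRIMITIVE (508 / 591; adapter 987) -/
def DIRP : Prop :=
  ∀ (C : Set ℂ) (x0 : ℂ → ℝ) (b : ℕ → ℂ → ℝ) (φ : ℂ → ℝ), Pk C x0 b φ → ∃ p, Cpl C x0 φ p

/-- UNIVALENCE (133 / 913) -/
def UNIVP : Prop :=
  ∀ (C : Set ℂ) (x0 : ℂ → ℝ) (b : ℕ → ℂ → ℝ) (φ : ℂ → ℝ) (p : ℂ → ℂ), Pk C x0 b φ → Cpl C x0 φ p →
    InjOn p Cᶜ

/-- NULL COMPLEMENT (442) -/
def NULLP : Prop :=
  ∀ (C : Set ℂ) (x0 : ℂ → ℝ) (b : ℕ → ℂ → ℝ) (φ : ℂ → ℝ) (p : ℂ → ℂ), Pk C x0 b φ → Cpl C x0 φ p →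
    InjOn p Cᶜ → volume (p '' Cᶜ)ᶜ = 0

/-- every `u` of the algebra is planar in the picture `p`: no singular part in either direction
(`w = u * χ ∘ p`, `x = x0 + φ`: `∫ ∂₁ (w ∘ p⁻¹) = 0 = ∫ ∂₂ (w ∘ p⁻¹)`) -/
def Planar (C : Set ℂ) (x0 φ : ℂ → ℝ) (p : ℂ → ℂ) (u : ℂ → ℝ) : Prop :=
  ∀ χ : ℂ → ℝ, ContDiff ℝ ∞ χ → HasCompactSupport χ →
    di C (fun z => x0 z + φ z) (fun z => u z * χ (p z)) = 0 ∧
    om C (fun z => x0 z + φ z) (fun z => u z * χ (p z)) = 0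

/-- PLANARITY (412 / 868) -/
def PLANP : Prop :=
  ∀ (C : Set ℂ) (x0 : ℂ → ℝ) (b : ℕ → ℂ → ℝ) (φ : ℂ → ℝ) (p : ℂ → ℂ), Pk C x0 b φ → Cpl C x0 φ p →
    InjOn p Cᶜ → volume (p '' Cᶜ)ᶜ = 0 → ∀ u, Gen C (insert φ (range b)) u → Planar C x0 φ p u

/-- NO HAIRS (PP half, joined by 257) -/
def PPP : Prop :=
  ∀ (C : Set ℂ) (x0 : ℂ → ℝ) (b : ℕ → ℂ → ℝ) (φ : ℂ → ℝ) (p : ℂ → ℂ), Pk C x0 b φ → Cpl C x0 φ p →
    InjOn p Cᶜ → volume (p '' Cᶜ)ᶜ = 0 →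
    (∀ u, Gen C (insert φ (range b)) u → Planar C x0 φ p u) →
    IsTotallyDisconnected (p '' Cᶜ)ᶜ

/-- EXTENSION (616, 897) -/
def EXTP : Prop :=
  ∀ (C : Set ℂ) (p : ℂ → ℂ), TD C → DifferentiableOn ℂ p Cᶜ → InjOn p Cᶜ →
    (∃ c : ℂ, Tendsto (fun z => p z - z) (cocompact ℂ) (𝓝 c)) →
    IsTotallyDisconnected (p '' Cᶜ)ᶜ → ∃ Φ : ℂ ≃ₜ ℂ, ∀ z ∈ Cᶜ, Φ z = p z

/-- [B], literally the form of 557 (#9527) -/
def BP : Prop :=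
  ∀ C : Set ℂ, IsCompact C → IsTotallyDisconnected C → Crest.AnalysisR.IsConformallyRemovable C →
    ∀ v : ℂ → ℝ, Continuous v → HasCompactSupport v →
    (∀ z ∉ C, ∃ K : NNReal, ∃ t ∈ 𝓝 z, LipschitzOnWith K v t) →
    IntegrableOn (fun z => ‖fderiv ℝ v z‖ ^ 2) Cᶜ → ∀ e : ℂ, ∫ z in Cᶜ, fderiv ℝ v z e = 0

end Crest.Agent.R105.IfB_641
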