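import Crest.Agent.R105.Dir3_508
import Crest.Agent.R105.IfB1_641

/-!
# Row 105, LIB-DIR 4: the holomorphic completion of a minimiser, `DIRP` (helper508)
-/

set_option autoImplicit false

open MeasureTheory Set Filter Topology Complex Metric
open scoped ContDiff ComplexConjugate ENNReal NNReal

namespace Crest.Agent.R105.Dir_508

open Crest.Agent.R105.Tra_937 Crest.Agent.R165.Cl1x722 Crest.Agent.R165.Cl3x722
  Crest.Agent.R165.Cl4x722

noncomputable section

/-! ### behaviour at infinity -/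

/-- a holomorphic function near infinity with bounded real part has a limit at infinity -/
theorem exists_limit_of_re_bdd {q : ℂ → ℂ} {R M : ℝ} (hR : 0 < R)
    (hq : DifferentiableOn ℂ q {z | R < ‖z‖}) (hM : ∀ z : ℂ, R < ‖z‖ → |(q z).re| ≤ M) :
    ∃ c, Tendsto q (cocompact ℂ) (𝓝 c) := by
  set h : ℂ → ℂ := fun ζ => q ζ⁻¹ + (M + 1 : ℝ) with hh
  set g : ℂ → ℂ := fun ζ => (h ζ)⁻¹ with hg
  have hmem : ∀ ζ ∈ ball (0 : ℂ) R⁻¹ \ {0}, R < ‖ζ⁻¹‖ := by
    rintro ζ ⟨h1, h2⟩
    rw [mem_ball, dist_zero_right] at h1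
    have h3 : 0 < ‖ζ‖ := norm_pos_iff.2 h2
    rw [norm_inv, lt_inv_comm₀ hR h3]
    exact h1
  have hre : ∀ ζ ∈ ball (0 : ℂ) R⁻¹ \ {0}, 1 ≤ (h ζ).re ∧ (h ζ).re ≤ 2 * M + 1 := by
    intro ζ hζ
    have h1 := hM _ (hmem ζ hζ)
    rw [abs_le] at h1
    simp only [hh, Complex.add_re, Complex.ofReal_re]
    constructor <;> linarith [h1.1, h1.2]
  have hne : ∀ ζ ∈ ball (0 : ℂ) R⁻¹ \ {0}, h ζ ≠ 0 := by
    intro ζ hζ h0
    have := (hre ζ hζ).1
    rw [h0] at this
    norm_num at this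
  have hd : DifferentiableOn ℂ h (ball (0 : ℂ) R⁻¹ \ {0}) := by
    refine DifferentiableOn.add_const _ ?_
    refine hq.comp ?_ hmem
    intro ζ hζ
    exact (differentiableAt_inv hζ.2).differentiableWithinAt
  have hgd : DifferentiableOn ℂ g (ball (0 : ℂ) R⁻¹ \ {0}) := hd.inv hne
  have hgb : ∀ ζ ∈ ball (0 : ℂ) R⁻¹ \ {0}, ‖g ζ‖ ≤ 1 := by
    intro ζ hζ
    rw [hg]
    simp only [norm_inv]
    refine inv_le_one_of_one_le₀ ?_
    exact (hre ζ hζ).1.trans ((le_abs_self _).trans (Complex.abs_re_le_norm _))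
  have hB : ball (0 : ℂ) R⁻¹ ∈ 𝓝 (0 : ℂ) := ball_mem_nhds _ (by positivity)
  set G := Function.update g 0 (limUnder (𝓝[≠] (0 : ℂ)) g) with hG
  have hGd : DifferentiableOn ℂ G (ball (0 : ℂ) R⁻¹) :=
    Complex.differentiableOn_update_limUnder_of_bddAbove hB hgd
      ⟨1, by rintro _ ⟨ζ, hζ, rfl⟩; exact hgb ζ hζ⟩
  have hGg : ∀ ζ : ℂ, ζ ≠ 0 → G ζ = g ζ := fun ζ hζ => Function.update_of_ne hζ _ _
  have hGa : AnalyticAt ℂ G 0 := hGd.analyticAt hB
  have hG0 : G 0 ≠ 0 := by
    intro h0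
    rcases hGa.eventually_constant_or_nhds_le_map_nhds with h1 | h1
    · have h2 : ∀ᶠ ζ in 𝓝[≠] (0 : ℂ), False := by
        filter_upwards [nhdsWithin_le_nhds h1, nhdsWithin_le_nhds hB, self_mem_nhdsWithin]
          with ζ h3 h4 h5
        rw [h0, hGg ζ h5] at h3
        exact hne ζ ⟨h4, h5⟩ (inv_eq_zero.1 h3)
      rw [eventually_false_iff_eq_bot] at h2
      exact (NeBot.ne (f := 𝓝[≠] (0 : ℂ)) inferInstance) h2
    · rw [h0] at h1
      have h2 : G '' (ball (0 : ℂ) R⁻¹) ∈ 𝓝 (0 : ℂ) := h1 (image_mem_map hB)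
      obtain ⟨ε, hε, h3⟩ := Metric.mem_nhds_iff.1 h2
      set t : ℝ := min (ε / 2) (1 / (2 * |M| + 2)) with ht
      have ht0 : 0 < t := lt_min (by positivity) (by positivity)
      have ht1 : ((t : ℝ) : ℂ) ∈ ball (0 : ℂ) ε := by
        rw [mem_ball, dist_zero_right, Complex.norm_real, Real.norm_of_nonneg ht0.le]
        exact (min_le_left _ _).trans_lt (by linarith)
      obtain ⟨ζ, hζ1, hζ2⟩ := h3 ht1
      have hζ0 : ζ ≠ 0 := by
        rintro rfl
        rw [h0] at hζ2
        exact ht0.ne' (Complex.ofReal_eq_zero.1 hζ2.symm)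
      rw [hGg ζ hζ0] at hζ2
      have h4 : h ζ = ((t⁻¹ : ℝ) : ℂ) := by
        rw [Complex.ofReal_inv, ← hζ2, hg]
        simp only [inv_inv]
      have h5 := (hre ζ ⟨hζ1, hζ0⟩).2
      rw [h4, Complex.ofReal_re] at h5
      have h6 : 2 * |M| + 2 ≤ t⁻¹ := by
        have h7 : t ≤ 1 / (2 * |M| + 2) := min_le_right _ _
        have h8 := one_div_le_one_div_of_le ht0 h7
        rw [one_div_one_div] at h8
        simpa using h8
      have := le_abs_self M
      linarith
  have hlim : Tendsto h (𝓝[≠] (0 : ℂ)) (𝓝 (G 0)⁻¹) := by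
    have h1 : Tendsto G (𝓝[≠] (0 : ℂ)) (𝓝 (G 0)) :=
      (hGa.continuousAt.tendsto).mono_left nhdsWithin_le_nhds
    refine (h1.inv₀ hG0).congr' ?_
    filter_upwards [self_mem_nhdsWithin] with ζ hζ
    rw [hGg ζ hζ, hg]
    simp only [inv_inv]
  refine ⟨(G 0)⁻¹ - (M + 1 : ℝ), ?_⟩
  have h1 : Tendsto (fun z : ℂ => z⁻¹) (cocompact ℂ) (𝓝[≠] (0 : ℂ)) := by
    rw [← Metric.cobounded_eq_cocompact]
    exact Filter.inv_cobounded₀ (α := ℂ) |>.le
  have h2 := (hlim.comp h1).sub_const ((M + 1 : ℝ) : ℂ)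
  refine h2.congr fun z => ?_
  simp only [hh, Function.comp_apply, inv_inv, add_sub_cancel_right]

/-! ### the literal carrier of [B] -/

lemma Tst.lc {C : Set ℂ} {ψ : ℂ → ℝ} (h : Tst Cᶜ ψ) : Bd_775.LC C ψ := by
  have h1 : ContDiff ℝ 1 ψ := h.sm.of_le (by exact_mod_cast le_top)
  obtain ⟨D, hD⟩ := h1.lipschitzWith_of_hasCompactSupport h.cpt one_ne_zero
  refine Bd_775.LC.of_lipschitz hD h.cpt ?_
  intro z hz
  have h2 : z ∈ (tsupport (fderiv ℝ ψ))ᶜ := fun h' => (h.sub h') hz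
  obtain ⟨r, hr, hB⟩ := Metric.isOpen_iff.1 (isClosed_tsupport _).isOpen_compl z h2
  filter_upwards [ball_mem_nhds z hr] with w hw
  exact isOpen_ball.is_const_of_fderiv_eq_zero (convex_ball z r).isPreconnected
    (h1.differentiable one_ne_zero).differentiableOn
    (fun v hv => image_eq_zero_of_notMem_tsupport (hB hv)) hw (mem_ball_self hr)

lemma measurable_gr (u : ℂ → ℝ) : Measurable (gr u) :=
  (measurable_ofReal.comp (measurable_fderiv_apply_const ℝ u 1)).add
    ((measurable_ofReal.comp (measurable_fderiv_apply_const ℝ u I)).mul_const I)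

lemma norm_gr_sq (u : ℂ → ℝ) (z : ℂ) : ‖gr u z‖ ^ 2 = Bd_775.en u z := by
  rw [← Complex.normSq_eq_norm_sq, Complex.normSq_apply, gr_re, gr_im]
  simp only [Bd_775.en, Bd_775.gx, Bd_775.gy, gx, gy]
  ring

lemma memLp_gr {C : Set ℂ} {u : ℂ → ℝ} (hfin : IntegrableOn (Bd_775.en u) Cᶜ) :
    MemLp (gr u) 2 (volume.restrict Cᶜ) := by
  rw [memLp_two_iff_integrable_sq_norm (measurable_gr u).aestronglyMeasurable]
  refine hfin.congr (ae_of_all _ fun z => ?_)
  exact (norm_gr_sq u z).symm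

lemma locInt_of_memLp {U : Set ℂ} (hU : IsOpen U) {Y : ℂ → ℂ}
    (h : MemLp Y 2 (volume.restrict U)) : LocallyIntegrableOn Y U := by
  intro z _
  obtain ⟨s, hs, hi⟩ := (h.locallyIntegrable (by norm_num)) z
  refine ⟨s ∩ U, inter_mem (mem_nhdsWithin_of_mem_nhds hs) self_mem_nhdsWithin, ?_⟩
  have h1 : Integrable Y ((volume.restrict U).restrict s) := hi
  rw [Measure.restrict_restrict' hU.measurableSet] at h1
  exact h1

lemma int_conj_gr {u ψ : ℂ → ℝ} (hi : Integrable fun z => conj (gr u z) * gr ψ z) :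
    ∫ z, conj (gr u z) * gr ψ z =
      ((∫ z, dot u ψ z : ℝ) : ℂ) + ((∫ z, wdg u ψ z : ℝ) : ℂ) * I := by
  have h1 : Integrable fun z => dot u ψ z := by
    refine hi.re.congr (ae_of_all _ fun z => ?_)
    simp only [conj_gr_mul]
    simp
  have h2 : Integrable fun z => wdg u ψ z := by
    refine hi.im.congr (ae_of_all _ fun z => ?_)
    simp only [conj_gr_mul]
    simp
  simp only [conj_gr_mul]
  have h3 : Integrable fun z => ((dot u ψ z : ℝ) : ℂ) := h1.ofReal
  have h4 : Integrable fun z => ((wdg u ψ z : ℝ) : ℂ) * I := (h2.ofReal).mul_const I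
  rw [integral_add h3 h4, integral_mul_const, integral_complex_ofReal, integral_complex_ofReal]

lemma dot_of_notMem {u ψ : ℂ → ℝ} {z : ℂ} (hz : z ∉ tsupport (fderiv ℝ ψ)) :
    dot u ψ z = 0 := by
  unfold dot gx gy
  rw [image_eq_zero_of_notMem_tsupport hz]
  simp

/-- Green for a smooth function against a test function -/
lemma int_dot_smooth {x ψ : ℂ → ℝ} (hx : ContDiff ℝ ∞ x) (h1 : ContDiff ℝ ∞ ψ)
    (h2 : HasCompactSupport ψ) : ∫ z, dot x ψ z = - ∫ z, ψ z * IfB_641.lap x z := by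
  have hs : ∀ {u : ℂ → ℝ}, ContDiff ℝ ∞ u → ∀ v : ℂ, ContDiff ℝ ∞ (fun z => fderiv ℝ u z v) :=
    fun hu v => (hu.fderiv_right (m := ∞) (by simp)).clm_apply contDiff_const
  have key : ∀ v : ℂ, ∫ z, fderiv ℝ x z v * fderiv ℝ ψ z v =
      - ∫ z, fderiv ℝ (fun z => fderiv ℝ x z v) z v * ψ z := by
    intro v
    refine integral_mul_fderiv_eq_neg_fderiv_mul_of_integrable ?_ ?_ ?_
      (fun z _ => (hs hx v).differentiable (by simp) z) (fun z _ => h1.differentiable (by simp) z)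
    · exact ((hs (hs hx v) v).continuous.mul h1.continuous).integrable_of_hasCompactSupport
        h2.mul_left
    · exact ((hs hx v).continuous.mul (hs h1 v).continuous).integrable_of_hasCompactSupport
        (h2.fderiv_apply ℝ v).mul_left
    · exact ((hs hx v).continuous.mul h1.continuous).integrable_of_hasCompactSupport h2.mul_left
  have i1 : ∀ v : ℂ, Integrable fun z => fderiv ℝ x z v * fderiv ℝ ψ z v := fun v =>
    ((hs hx v).continuous.mul (hs h1 v).continuous).integrable_of_hasCompactSupport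
      (h2.fderiv_apply ℝ v).mul_left
  have i2 : ∀ v : ℂ, Integrable fun z => fderiv ℝ (fun z => fderiv ℝ x z v) z v * ψ z := fun v =>
    ((hs (hs hx v) v).continuous.mul h1.continuous).integrable_of_hasCompactSupport h2.mul_left
  have e1 : ∫ z, dot x ψ z = (∫ z, fderiv ℝ x z 1 * fderiv ℝ ψ z 1) +
      ∫ z, fderiv ℝ x z I * fderiv ℝ ψ z I := integral_add (i1 1) (i1 I)
  have e2 : ∫ z, ψ z * IfB_641.lap x z =
      (∫ z, fderiv ℝ (fun z => fderiv ℝ x z 1) z 1 * ψ z) +
      ∫ z, fderiv ℝ (fun z => fderiv ℝ x z I) z I * ψ z := by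
    rw [← integral_add (i2 1) (i2 I)]
    refine integral_congr_ae (ae_of_all _ fun z => ?_)
    change ψ z * (fderiv ℝ (fun z => fderiv ℝ x z 1) z 1 +
      fderiv ℝ (fun z => fderiv ℝ x z I) z I) = _
    ring
  rw [e1, e2, key 1, key I]
  ring

open IfB_641 in
/-- the Euler-Lagrange equation holds against test functions -/
lemma pk_el {C : Set ℂ} {x0 φ : ℂ → ℝ} {b : ℕ → ℂ → ℝ} (h : IfB_641.Pk C x0 b φ) {ψ : ℂ → ℝ}
    (hψ : Bd_775.LC C ψ) : IfB_641.EL C x0 φ ψ := by
  refine h.el ψ (Or.inl hψ.d) ?_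
  refine IfB_641.Iso.trans (T := insert φ (range b)) ?_ h.iso
  intro s hs
  rcases mem_insert_iff.1 hs with rfl | hs
  · exact IfB_641.Gen.lc hψ
  · exact IfB_641.Gen.of hs

/-- gradient of the real part of a holomorphic function -/
lemma gr_re_hol {p : ℂ → ℂ} {z : ℂ} (hp : DifferentiableAt ℂ p z) :
    gr (fun w => (p w).re) z = conj (deriv p z) := by
  have h1 : HasFDerivAt (fun w => (p w).re)
      (reCLM.comp ((ContinuousLinearMap.toSpanSingleton ℂ (deriv p z)).restrictScalars ℝ)) z :=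
    reCLM.hasFDerivAt.comp z (hp.hasDerivAt.hasFDerivAt.restrictScalars ℝ)
  unfold gr
  rw [h1.fderiv]
  apply Complex.ext <;> simp

/-- a locally Lipschitz function with vanishing gradient is holomorphic -/
lemma hol_of_gr_zero {U : Set ℂ} (hU : IsOpen U) {w : ℂ → ℝ} (hw : LocallyLipschitzOn U w)
    (h0 : ∀ᵐ z, z ∈ U → fderiv ℝ w z = 0) : DifferentiableOn ℂ (fun z => (w z : ℂ)) U := by
  have hc : ContinuousOn (fun z => (w z : ℂ)) U :=
    continuous_ofReal.comp_continuousOn hw.continuousOn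
  have hloc : LocallyIntegrableOn (fun z => (w z : ℂ)) U :=
    hc.locallyIntegrableOn hU.measurableSet
  have hwd : Crest.Agent.R165.Cl3x722.WDbar U (fun z => (w z : ℂ)) 0 := by
    refine wdbar_of_tst hloc fun ψ h1 h2 h3 => ?_
    obtain ⟨χ, c1, c2, c3, c4, -⟩ := exists_cutoff h2.isCompact hU h3
    obtain ⟨K, hK⟩ := lipschitz_mul hw c1 c2 c3
    have e0 : ∀ v : ℂ, ∫ z, fderiv ℝ ψ z v * (χ z * w z) = 0 := by
      intro v
      have h4 := int_fderiv_mul hK h1 h2 v
      have h5 : ∫ z, fderiv ℝ (fun z => χ z * w z) z v * ψ z = 0 := by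
        refine integral_eq_zero_of_ae ?_
        filter_upwards [h0] with z hz
        by_cases hzs : z ∈ tsupport ψ
        · have h6 : (fun z => χ z * w z) =ᶠ[𝓝 z] w := by
            filter_upwards [(eventually_nhdsSet_iff_forall.1 c4) z hzs] with y hy
            rw [hy, one_mul]
          rw [h6.fderiv_eq, hz (h3 hzs)]
          simp
        · rw [image_eq_zero_of_notMem_tsupport hzs, mul_zero]
          rfl
      rw [h5] at h4
      linarith
    have e1 : ∀ v : ℂ, ∀ z, fderiv ℝ ψ z v * w z = fderiv ℝ ψ z v * (χ z * w z) := by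
      intro v z
      by_cases hzs : z ∈ tsupport ψ
      · rw [((eventually_nhdsSet_iff_forall.1 c4) z hzs).self_of_nhds, one_mul]
      · have h6 : z ∉ tsupport (fderiv ℝ ψ) := fun h' => hzs (tsupport_fderiv_subset ℝ h')
        rw [image_eq_zero_of_notMem_tsupport h6]
        simp
    have e2 : ∀ v : ℂ, ∫ z, fderiv ℝ ψ z v * w z = 0 := by
      intro v
      rw [← e0 v]
      exact integral_congr_ae (ae_of_all _ fun z => e1 v z)
    have i1 : ∀ v : ℂ, Integrable fun z => fderiv ℝ ψ z v * w z := by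
      intro v
      have h6 : Continuous fun z => fderiv ℝ ψ z v * (χ z * w z) :=
        ((h1.fderiv_right (m := ∞) (by simp)).clm_apply contDiff_const).continuous.mul
          hK.continuous
      refine (h6.integrable_of_hasCompactSupport (h2.fderiv_apply ℝ v).mul_right).congr
        (ae_of_all _ fun z => (e1 v z).symm)
    have e3 : ∀ z, (w z : ℂ) * gr ψ z = ((fderiv ℝ ψ z 1 * w z : ℝ) : ℂ) +
        ((fderiv ℝ ψ z I * w z : ℝ) : ℂ) * I := by
      intro z
      unfold gr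
      push_cast
      ring
    simp only [e3]
    have h7 : Integrable fun z => ((fderiv ℝ ψ z 1 * w z : ℝ) : ℂ) := (i1 1).ofReal
    have h8 : Integrable fun z => ((fderiv ℝ ψ z I * w z : ℝ) : ℂ) * I :=
      ((i1 I).ofReal).mul_const I
    rw [integral_add h7 h8, integral_mul_const, integral_complex_ofReal, integral_complex_ofReal, e2, e2]
    simp
  obtain ⟨v, hv, hvw⟩ := Crest.Agent.R165.Cl4x722.weyl hU hloc hwd
  have heq : EqOn (fun z => (w z : ℂ)) v U := by
    refine Measure.eqOn_open_of_ae_eq (μ := (volume : Measure ℂ)) ?_ hU hc hv.continuousOn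
    rw [Filter.EventuallyEq, ae_restrict_iff' hU.measurableSet]
    exact hvw
  exact hv.congr heq

/-- **DIRICHLET + PRIMITIVE** -/
theorem dirp : IfB_641.DIRP := by
  intro C x0 b φ hP
  have hC : IsOpen Cᶜ := hP.td.cpt.isClosed.isOpen_compl
  have hx := hP.hx0.sm
  set Y : ℂ → ℂ := fun z => conj (gr x0 z) + conj (gr φ z) with hY
  have hlx : LocallyIntegrableOn (fun z => conj (gr x0 z)) Cᶜ :=
    (continuous_conj.comp (continuous_gr (hx.of_le (by exact_mod_cast le_top)))).locallyIntegrable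
      |>.locallyIntegrableOn _
  have hlφ : LocallyIntegrableOn (fun z => conj (gr φ z)) Cᶜ := by
    refine locInt_of_memLp hC ?_
    have := memLp_gr hP.memφ.fin
    refine this.of_le_mul (c := 1) ?_ (ae_of_all _ fun z => ?_)
    · exact (continuous_conj.measurable.comp (measurable_gr φ)).aestronglyMeasurable
    · rw [one_mul, RCLike.norm_conj]
  have hYl : LocallyIntegrableOn Y Cᶜ := hlx.add hlφ
  have hYw : ∀ ψ, Tst Cᶜ ψ → ∫ z, Y z * gr ψ z = 0 := by
    intro ψ hψ
    have i1 := hψ.int_gr hlx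
    have i2 := hψ.int_gr hlφ
    have e1 : ∫ z, Y z * gr ψ z = (∫ z, conj (gr x0 z) * gr ψ z) +
        ∫ z, conj (gr φ z) * gr ψ z := by
      rw [← integral_add i1 i2]
      refine integral_congr_ae (ae_of_all _ fun z => ?_)
      simp only [hY]
      ring
    have e2 : ∫ z, dot φ ψ z = ∫ z, ψ z * IfB_641.lap x0 z := by
      rw [← pk_el hP hψ.lc]
      unfold IfB_641.di
      symm
      refine setIntegral_eq_integral_of_forall_compl_eq_zero fun z hz => ?_
      exact dot_of_notMem fun h' => hz (hψ.sub h')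
    rw [e1, int_conj_gr i1, int_conj_gr i2, int_dot_smooth hx hψ.sm hψ.cpt, e2,
      wdg_tst hC (hx.of_le (by exact_mod_cast le_top) : ContDiff ℝ 1 x0).locallyLipschitz.locallyLipschitzOn
        hψ, wdg_tst hC hP.memφ.loc hψ]
    push_cast
    ring
  obtain ⟨p0, hp0, hpY⟩ := exists_primitive_weak hC hYl hYw
  have hp0' : ∀ z ∈ Cᶜ, DifferentiableAt ℂ p0 z := fun z hz => (hp0 z hz).differentiableAt
    (hC.mem_nhds hz)
  set w : ℂ → ℝ := fun z => x0 z + φ z - (p0 z).re with hw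
  have hxl : LocallyLipschitzOn Cᶜ x0 :=
    (hx.of_le (by exact_mod_cast le_top) : ContDiff ℝ 1 x0).locallyLipschitz.locallyLipschitzOn
  have hpl : LocallyLipschitzOn Cᶜ fun z => (p0 z).re := by
    intro z hz
    have h1 : ContDiffAt ℂ 1 p0 z :=
      ((hp0.analyticAt (hC.mem_nhds hz)).contDiffAt).of_le (by exact_mod_cast le_top)
    obtain ⟨K, t, ht, hK⟩ := (h1.restrict_scalars ℝ).exists_lipschitzOnWith
    refine ⟨1 * K, t, mem_nhdsWithin_of_mem_nhds ht, ?_⟩
    have h2 : LipschitzWith 1 (fun z : ℂ => z.re) := by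
      refine LipschitzWith.of_dist_le_mul fun a b => ?_
      rw [Real.dist_eq, ← Complex.sub_re, NNReal.coe_one, one_mul, dist_eq_norm]
      exact Complex.abs_re_le_norm _
    exact h2.comp_lipschitzOnWith hK
  have hwl : LocallyLipschitzOn Cᶜ w := Bd_775.ll_sub (Bd_775.ll_add hxl hP.memφ.loc) hpl
  have hφd : ∀ᵐ z, z ∈ Cᶜ → DifferentiableAt ℝ φ z :=
    (ae_restrict_iff' hC.measurableSet).1 (Bd_775.ae_diff hC hP.memφ.loc)
  have hw0 : ∀ᵐ z, z ∈ Cᶜ → fderiv ℝ w z = 0 := by
    filter_upwards [hφd, hpY] with z h1 h2 hz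
    have d1 : DifferentiableAt ℝ x0 z := hx.differentiable (by simp) z
    have d2 := h1 hz
    have d3 : DifferentiableAt ℝ (fun z => (p0 z).re) z :=
      reCLM.differentiableAt.comp z ((hp0' z hz).restrictScalars ℝ)
    have e1 : fderiv ℝ w z = fderiv ℝ x0 z + fderiv ℝ φ z - fderiv ℝ (fun z => (p0 z).re) z := by
      rw [hw]
      rw [fderiv_fun_sub (d1.fun_add d2) d3, fderiv_fun_add d1 d2]
    have e2 : gr x0 z + gr φ z = gr (fun z => (p0 z).re) z := by
      rw [gr_re_hol (hp0' z hz), ← h2 hz, hY]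
      simp
    have e3 := congrArg Complex.re e2
    have e4 := congrArg Complex.im e2
    rw [Complex.add_re, gr_re, gr_re, gr_re] at e3
    rw [Complex.add_im, gr_im, gr_im, gr_im] at e4
    unfold gx at e3
    unfold gy at e4
    rw [e1]
    ext v
    have e5 : v = v.re • (1 : ℂ) + v.im • I := by
      apply Complex.ext <;> simp
    rw [e5]
    simp only [map_add, map_smul, _root_.add_apply, _root_.sub_apply, smul_eq_mul,
      _root_.zero_apply]
    rw [← e3, ← e4]
    ring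
  have hv := hol_of_gr_zero hC hwl hw0
  refine ⟨fun z => p0 z + (w z : ℂ), hp0.add hv, ?_, ?_⟩
  · intro z _
    simp only [hw, Complex.add_re, Complex.ofReal_re]
    ring
  · obtain ⟨M, hM⟩ := hP.memφ.bdd
    obtain ⟨R1, hR1⟩ := hP.hx0.far
    obtain ⟨R2, hR2⟩ := hP.td.cpt.isBounded.subset_closedBall (0 : ℂ)
    set R : ℝ := max (max R1 R2) 1 with hR
    have hR0 : 0 < R := lt_max_of_lt_right one_pos
    have hsub : {z : ℂ | R < ‖z‖} ⊆ Cᶜ := by
      intro z hz hzC
      have := hR2 hzC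
      rw [mem_closedBall, dist_zero_right] at this
      have h3 : R2 ≤ R := (le_max_right _ _).trans (le_max_left _ _)
      exact absurd (this.trans h3) (not_le.2 hz)
    refine exists_limit_of_re_bdd (R := R) (M := M) hR0 ?_ ?_
    · exact ((hp0.add hv).mono hsub).sub differentiableOn_id
    · intro z hz
      have h3 : R1 ≤ ‖z‖ := ((le_max_left _ _).trans (le_max_left _ _)).trans hz.le
      have h4 : (p0 z + (w z : ℂ) - z).re = φ z := by
        simp only [hw, Complex.add_re, Complex.sub_re, Complex.ofReal_re]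
        rw [hR1 z h3]
        ring
      rw [h4]
      exact hM z

end

end Crest.Agent.R105.Dir_508
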