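import Crest.Agent.R105.Cq7_463
import Crest.Agent.R105.Thin1_891
import Crest.Agent.R105.Skp2_257

/-!
# Row 105 (S0138, picture with solids), STEPQ by descent, part 1: the descent step

`φ = (D/16) f w`, `w = Σ η_i clamp (4 (c_i - u) / D)`: if `f` satisfies the separation property
`Far` for `u` (near every component two points of `Eᶜ` with values of `u` further apart than
`3D/4` have `f q + f q' ≥ 9/10`), then the oscillation `D` at all components drops to
`(121/128) D`.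
-/

set_option autoImplicit false

namespace Crest.Agent.R105.Dsc_423

open Set Filter MeasureTheory Topology Metric
open Crest.Agent.R105.CF_363 Crest.Agent.R105.Stp_722 Crest.Agent.R105.Cq_463
open Crest.Agent.R105.Skp2_257 (Comps)
open Crest.Agent.R105.Thin_891

/-- separation property of the cut-off `f` for the function `u` at the components in `F` -/
def Far (E F : Set (ℝ × ℝ)) (u : ℝ × ℝ → ℝ) (D : ℝ) (f : ℝ × ℝ → ℝ) : Prop :=
  ∀ P ∈ Comps E, P ⊆ F → ∃ O, IsOpen O ∧ P ⊆ O ∧ ∀ q ∈ O ∩ Eᶜ, ∀ q' ∈ O ∩ Eᶜ,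
    3 / 4 * D < u q - u q' → (9 / 10 : ℝ) ≤ f q + f q'

/-- the clamp function -/
noncomputable def cl (t : ℝ) : ℝ := max (-1) (min 1 t)

theorem abs_cl_le (t : ℝ) : |cl t| ≤ 1 := by
  unfold cl
  rw [abs_le]
  exact ⟨le_max_left _ _, max_le (by norm_num) (min_le_left _ _)⟩

theorem cl_lip (s t : ℝ) : |cl s - cl t| ≤ |s - t| := by
  unfold cl
  refine (abs_max_sub_max_le_max _ _ _ _).trans ?_
  refine max_le (by simp) ?_
  refine (abs_min_sub_min_le_max _ _ _ _).trans ?_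
  exact max_le (by simp) le_rfl

theorem cl_le {t e : ℝ} (he : 0 ≤ e) (h : t ≤ -1 + e) : cl t ≤ -1 + e := by
  unfold cl
  exact max_le (by linarith) ((min_le_right _ _).trans h)

theorem le_cl {t e : ℝ} (he : 0 ≤ e) (h : 1 - e ≤ t) : 1 - e ≤ cl t := by
  unfold cl
  exact le_max_of_le_right (le_min (by linarith) h)

/-- the arithmetic of the descent step -/
theorem desc_arith {D a b c fa fb η : ℝ} (hD : 0 < D) (ha : |a - c| ≤ D / 2 + D / 160)
    (hb : |b - c| ≤ D / 2 + D / 160) (hfa : 0 ≤ fa) (hfa1 : fa ≤ 1) (hfb : 0 ≤ fb)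
    (hfb1 : fb ≤ 1) (hfar : 3 / 4 * D < a - b → (9 / 10 : ℝ) ≤ fa + fb) (hη : 0 ≤ η)
    (hab : a - b ≤ D + η) :
    (a + D / 16 * (fa * cl (4 * (c - a) / D))) - (b + D / 16 * (fb * cl (4 * (c - b) / D))) ≤
      121 / 128 * D + η := by
  have h1 := abs_le.1 (abs_cl_le (4 * (c - a) / D))
  have h2 := abs_le.1 (abs_cl_le (4 * (c - b) / D))
  rw [abs_le] at ha hb
  by_cases hc : 3 / 4 * D < a - b
  · have h3 := hfar hc
    have h4 : cl (4 * (c - a) / D) ≤ -1 + 1 / 40 := by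
      refine cl_le (by norm_num) ?_
      rw [div_le_iff₀ hD]; nlinarith
    have h5 : 1 - 1 / 40 ≤ cl (4 * (c - b) / D) := by
      refine le_cl (by norm_num) ?_
      rw [le_div_iff₀ hD]; nlinarith
    have h6 : fa * cl (4 * (c - a) / D) ≤ fa * (-1 + 1 / 40) := mul_le_mul_of_nonneg_left h4 hfa
    have h7 : fb * (1 - 1 / 40) ≤ fb * cl (4 * (c - b) / D) := mul_le_mul_of_nonneg_left h5 hfb
    have h8 : fa * cl (4 * (c - a) / D) - fb * cl (4 * (c - b) / D) ≤ -(351 / 400) := by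
      nlinarith
    nlinarith
  · push Not at hc
    have h6 : fa * cl (4 * (c - a) / D) ≤ 1 := by nlinarith
    have h7 : -1 ≤ fb * cl (4 * (c - b) / D) := by nlinarith
    nlinarith

theorem exists_center {S : Set (ℝ × ℝ)} {u : ℝ × ℝ → ℝ} {δ : ℝ}
    (h : ∀ q ∈ S, ∀ q' ∈ S, |u q - u q'| ≤ δ) : ∃ c, ∀ q ∈ S, |u q - c| ≤ δ / 2 := by
  rcases S.eq_empty_or_nonempty with rfl | ⟨p0, hp0⟩
  · exact ⟨0, by simp⟩
  have hne : (u '' S).Nonempty := ⟨_, p0, hp0, rfl⟩
  have hba : BddAbove (u '' S) := by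
    refine ⟨u p0 + δ, ?_⟩
    rintro _ ⟨q, hq, rfl⟩
    have := abs_le.1 (h q hq p0 hp0)
    linarith
  have hbb : BddBelow (u '' S) := by
    refine ⟨u p0 - δ, ?_⟩
    rintro _ ⟨q, hq, rfl⟩
    have := abs_le.1 (h q hq p0 hp0)
    linarith
  have hd : sSup (u '' S) ≤ sInf (u '' S) + δ := by
    refine csSup_le hne ?_
    rintro _ ⟨q, hq, rfl⟩
    rw [← sub_le_iff_le_add]
    refine le_csInf hne ?_
    rintro _ ⟨q', hq', rfl⟩
    have := abs_le.1 (h q hq q' hq')
    linarith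
  refine ⟨(sSup (u '' S) + sInf (u '' S)) / 2, fun q hq => ?_⟩
  have h1 : u q ≤ sSup (u '' S) := le_csSup hba ⟨q, hq, rfl⟩
  have h2 : sInf (u '' S) ≤ u q := csInf_le hbb ⟨q, hq, rfl⟩
  rw [abs_le]
  constructor <;> linarith

/-- cut-off of a set -/
noncomputable def bump (r : ℝ) (K : Set (ℝ × ℝ)) (p : ℝ × ℝ) : ℝ :=
  max 0 (min 1 (2 - infDist p K / r))

theorem bump_nonneg (r : ℝ) (K : Set (ℝ × ℝ)) (p : ℝ × ℝ) : 0 ≤ bump r K p := le_max_left _ _

theorem bump_le_one (r : ℝ) (K : Set (ℝ × ℝ)) (p : ℝ × ℝ) : bump r K p ≤ 1 :=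
  max_le zero_le_one (min_le_left _ _)

theorem abs_bump_le (r : ℝ) (K : Set (ℝ × ℝ)) (p : ℝ × ℝ) : |bump r K p| ≤ 1 := by
  rw [abs_of_nonneg (bump_nonneg _ _ _)]; exact bump_le_one _ _ _

theorem bump_eq_one {r : ℝ} (hr : 0 < r) {K : Set (ℝ × ℝ)} {p : ℝ × ℝ} (h : infDist p K ≤ r) :
    bump r K p = 1 := by
  unfold bump
  have : infDist p K / r ≤ 1 := by rwa [div_le_one hr]
  rw [min_eq_left (by linarith), max_eq_right zero_le_one]

theorem bump_eq_zero {r : ℝ} (hr : 0 < r) {K : Set (ℝ × ℝ)} {p : ℝ × ℝ}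
    (h : 2 * r ≤ infDist p K) : bump r K p = 0 := by
  unfold bump
  have : 2 ≤ infDist p K / r := by rwa [le_div_iff₀ hr]
  exact max_eq_left ((min_le_right _ _).trans (by linarith))

theorem bump_lip {r : ℝ} (hr : 0 < r) (K : Set (ℝ × ℝ)) :
    LipschitzWith (1 / r).toNNReal (bump r K) := by
  refine LipschitzWith.of_dist_le_mul fun p q => ?_
  rw [Real.dist_eq, Real.coe_toNNReal _ (by positivity)]
  unfold bump
  refine (abs_max_sub_max_le_max _ _ _ _).trans (max_le (by simp; positivity) ?_)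
  refine (abs_min_sub_min_le_max _ _ _ _).trans (max_le (by simp; positivity) ?_)
  have h1 : |infDist p K - infDist q K| ≤ dist p q := by
    have := (lipschitz_infDist_pt K).dist_le_mul p q
    simpa [Real.dist_eq] using this
  rw [show 2 - infDist p K / r - (2 - infDist q K / r) =
    -((infDist p K - infDist q K) / r) by ring, abs_neg, abs_div, abs_of_pos hr,
    one_div, mul_comm, ← div_eq_mul_inv]
  exact div_le_div_of_nonneg_right h1 hr.le

theorem bump_cfj {r : ℝ} (hr : 0 < r) (K : Set (ℝ × ℝ)) {𝓗 : Set Hair} {W : Set (ℝ × ℝ)} :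
    CFJ 𝓗 W (bump r K) := CFJ_of_lipschitz (bump_lip hr K) (abs_bump_le r K)

theorem CFJ.fsum {𝓗 : Set Hair} {W : Set (ℝ × ℝ)} {ι : Type*} (s : Finset ι)
    {f : ι → ℝ × ℝ → ℝ} (h : ∀ i ∈ s, CFJ 𝓗 W (f i)) : CFJ 𝓗 W (fun p => ∑ i ∈ s, f i p) := by
  have := (CFin 𝓗 W).sum_mem (t := s) (f := f) h
  have e : (∑ i ∈ s, f i) = fun p => ∑ i ∈ s, f i p := by
    funext p; rw [Finset.sum_apply]
  rw [e] at this
  exact this

/-- thin disjoint neighbourhoods of finitely many disjoint compact sets -/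
theorem exists_radius {n : ℕ} {K : Fin n → Set (ℝ × ℝ)} {U : Fin n → Set (ℝ × ℝ)}
    (hK : ∀ i, IsCompact (K i)) (hne : ∀ i, (K i).Nonempty) (hU : ∀ i, IsOpen (U i))
    (hKU : ∀ i, K i ⊆ U i) (hd : Pairwise fun i j => Disjoint (K i) (K j)) :
    ∃ r : ℝ, 0 < r ∧ (∀ i p, infDist p (K i) ≤ 2 * r → p ∈ U i) ∧
      ∀ i j, i ≠ j → ∀ p, infDist p (K i) ≤ 2 * r → 2 * r < infDist p (K j) := by
  have h1 : ∀ i, ∀ᶠ r : ℝ in 𝓝[>] 0, ∀ p, infDist p (K i) ≤ 2 * r → p ∈ U i := by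
    intro i
    obtain ⟨δ, hδ, hsub⟩ := (hK i).exists_thickening_subset_open (hU i) (hKU i)
    have : ∀ᶠ r : ℝ in 𝓝[>] 0, r < δ / 2 := mem_nhdsWithin_of_mem_nhds
      (Iio_mem_nhds (by positivity))
    filter_upwards [this] with r hr p hp
    apply hsub
    rw [mem_thickening_iff_infEDist_lt]
    have h2 : infDist p (K i) < δ := by linarith
    rw [infDist, ← ENNReal.lt_ofReal_iff_toReal_lt (infEDist_ne_top (hne i))] at h2
    exact h2
  have h2 : ∀ i j, i ≠ j → ∀ᶠ r : ℝ in 𝓝[>] 0, ∀ p, infDist p (K i) ≤ 2 * r →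
      2 * r < infDist p (K j) := by
    intro i j hij
    obtain ⟨δ, hδ, hdis⟩ := (hd hij).exists_thickenings (hK i) (hK j).isClosed
    have : ∀ᶠ r : ℝ in 𝓝[>] 0, r < δ / 4 := mem_nhdsWithin_of_mem_nhds
      (Iio_mem_nhds (by positivity))
    filter_upwards [this, self_mem_nhdsWithin] with r hr hr0 p hp
    rw [mem_Ioi] at hr0
    by_contra hcon
    push Not at hcon
    have e1 : p ∈ thickening δ (K i) := by
      rw [mem_thickening_iff_infEDist_lt]
      have h2 : infDist p (K i) < δ := by linarith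
      rw [infDist, ← ENNReal.lt_ofReal_iff_toReal_lt (infEDist_ne_top (hne i))] at h2
      exact h2
    have e2 : p ∈ thickening δ (K j) := by
      rw [mem_thickening_iff_infEDist_lt]
      have h2 : infDist p (K j) < δ := by linarith
      rw [infDist, ← ENNReal.lt_ofReal_iff_toReal_lt (infEDist_ne_top (hne j))] at h2
      exact h2
    exact disjoint_left.1 hdis e1 e2
  have h3 : ∀ᶠ r : ℝ in 𝓝[>] 0, ∀ i p, infDist p (K i) ≤ 2 * r → p ∈ U i :=
    eventually_all.2 h1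
  have h4 : ∀ᶠ r : ℝ in 𝓝[>] 0, ∀ i j, i ≠ j → ∀ p, infDist p (K i) ≤ 2 * r →
      2 * r < infDist p (K j) := by
    refine eventually_all.2 fun i => eventually_all.2 fun j => ?_
    by_cases hij : i = j
    · exact Eventually.of_forall fun r h => absurd hij h
    · filter_upwards [h2 i j hij] with r hr _ using hr
  obtain ⟨r, ⟨hr1, hr2⟩, hr0⟩ := ((h3.and h4).and self_mem_nhdsWithin).exists
  exact ⟨r, hr0, hr1, hr2⟩

/-- **the weight `w`** of the descent step -/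
theorem exists_weight {E E' : Set (ℝ × ℝ)} (hE' : Piece E E') {𝓗 : Set Hair} {u : ℝ × ℝ → ℝ}
    (hu : CFJ 𝓗 univ u) {D : ℝ} (hD : 0 < D)
    (hosc : ∀ P ∈ Comps E, P ⊆ E' → OscLe Eᶜ P u D) {W : Set (ℝ × ℝ)} (hW : IsOpen W)
    (hEW : E' ⊆ W) :
    ∃ w : ℝ × ℝ → ℝ, CFJ 𝓗 univ w ∧ (∀ p, |w p| ≤ 1) ∧
      (∃ S, IsCompact S ∧ S ⊆ W ∧ ∀ p ∉ S, w p = 0) ∧
      ∀ f : ℝ × ℝ → ℝ, (∀ p, 0 ≤ f p ∧ f p ≤ 1) → Far E E' u D f → ∀ P ∈ Comps E, P ⊆ E' →
        OscLe Eᶜ P (fun p => u p + D / 16 * (f p * w p)) (121 / 128 * D) := by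
  classical
  have hE : IsCompact E := hE'.whole
  have hcmp : ∀ x ∈ E', OscLe Eᶜ (connectedComponentIn E x) u D := fun x hx =>
    hosc _ ⟨x, hE'.sub hx, rfl⟩ (hE'.component_subset hx)
  choose! O hO hPO H using fun x (hx : x ∈ E') => hcmp x hx (D / 80) (by positivity)
  obtain ⟨n, pt, F, hpt, hF, hFU, hFne, hFd, hcov⟩ := exists_pieces hE hE'.cpt hE'.sub
    (fun x => O x ∩ W) (fun x hx => (hO x hx).inter hW)
    (fun x hx => subset_inter (hPO x hx) ((hE'.component_subset hx).trans hEW))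
  set K : Fin n → Set (ℝ × ℝ) := fun i => F i ∩ E' with hK
  have hKp : ∀ i, Piece E (K i) := fun i => (hF i).inter hE'
  have hKne : ∀ i, (K i).Nonempty := fun i => hFne i
  have hKd : Pairwise fun i j => Disjoint (K i) (K j) := fun i j hij =>
    (hFd hij).mono inter_subset_left inter_subset_left
  obtain ⟨r, hr, hrU, hrd⟩ := exists_radius (K := K) (U := fun i => O (pt i) ∩ W)
    (fun i => (hKp i).cpt) hKne (fun i => (hO _ (hpt i)).inter hW)
    (fun i => inter_subset_left.trans (hFU i)) hKd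
  -- centres
  have hcen : ∀ i, ∃ c, ∀ q ∈ O (pt i) ∩ Eᶜ, |u q - c| ≤ D / 2 + D / 160 := by
    intro i
    obtain ⟨c, hc⟩ := exists_center (S := O (pt i) ∩ Eᶜ) (u := u) (δ := D + D / 80)
      (fun q hq q' hq' => H (pt i) (hpt i) q hq q' hq')
    exact ⟨c, fun q hq => (hc q hq).trans (by linarith)⟩
  choose c hc using hcen
  set w : ℝ × ℝ → ℝ := fun p => ∑ i, bump r (K i) p * cl (4 * (c i - u p) / D) with hw
  have hval : ∀ i p, infDist p (K i) ≤ 2 * r →
      w p = bump r (K i) p * cl (4 * (c i - u p) / D) := by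
    intro i p hp
    rw [hw]
    refine Finset.sum_eq_single i (fun j _ hj => ?_) (fun h => absurd (Finset.mem_univ i) h)
    rw [bump_eq_zero hr (hrd i j (Ne.symm hj) p hp).le, zero_mul]
  have hval0 : ∀ p, (∀ i, 2 * r < infDist p (K i)) → w p = 0 := by
    intro p hp
    rw [hw]
    refine Finset.sum_eq_zero fun i _ => ?_
    rw [bump_eq_zero hr (hp i).le, zero_mul]
  refine ⟨w, ?_, fun p => ?_, ?_, ?_⟩
  · refine CFJ.fsum _ fun i _ => (bump_cfj hr (K i)).mul ?_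
    refine hu.comp (M := 4 / D) (by positivity) (G := fun t => cl (4 * (c i - t) / D))
      fun s t => ?_
    refine (cl_lip _ _).trans (le_of_eq ?_)
    rw [show 4 * (c i - s) / D - 4 * (c i - t) / D = -((4 / D) * (s - t)) by ring, abs_neg,
      abs_mul, abs_of_nonneg (by positivity : (0 : ℝ) ≤ 4 / D)]
  · by_cases hp : ∃ i, infDist p (K i) ≤ 2 * r
    · obtain ⟨i, hi⟩ := hp
      rw [hval i p hi, abs_mul]
      exact mul_le_one₀ (abs_bump_le _ _ _) (abs_nonneg _) (abs_cl_le _)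
    · push Not at hp
      rw [hval0 p hp, abs_zero]
      exact zero_le_one
  · refine ⟨⋃ i, cthickening (2 * r) (K i), isCompact_iUnion fun i => (hKp i).cpt.cthickening,
      iUnion_subset fun i p hp => ?_, fun p hp => hval0 p fun i => ?_⟩
    · refine (hrU i p ?_).2
      rw [mem_cthickening_iff] at hp
      exact ENNReal.toReal_le_of_le_ofReal (by positivity) hp
    · by_contra hcon
      push Not at hcon
      apply hp
      refine mem_iUnion.2 ⟨i, ?_⟩
      rw [mem_cthickening_iff]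
      rw [infDist, ← ENNReal.le_ofReal_iff_toReal_le (infEDist_ne_top (hKne i))
        (by positivity)] at hcon
      exact hcon
  · intro f hf hfar P hP hPE' ε hε
    obtain ⟨x, hx, rfl⟩ := hP
    have hxE' : x ∈ E' := hPE' (mem_connectedComponentIn hx)
    obtain ⟨i, hi⟩ := mem_iUnion.1 (hcov hxE')
    have hPK : connectedComponentIn E x ⊆ K i := (hKp i).component_subset ⟨hi, hxE'⟩
    obtain ⟨O1, hO1, hPO1, H1⟩ := hosc _ ⟨x, hx, rfl⟩ hPE' ε hε
    obtain ⟨O2, hO2, hPO2, H2⟩ := hfar _ ⟨x, hx, rfl⟩ hPE'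
    have hopen : IsOpen {p : ℝ × ℝ | infDist p (K i) < r} :=
      isOpen_lt (continuous_infDist_pt _) continuous_const
    refine ⟨(O1 ∩ O2) ∩ {p | infDist p (K i) < r}, (hO1.inter hO2).inter hopen, ?_, ?_⟩
    · refine subset_inter (subset_inter hPO1 hPO2) fun p hp => ?_
      have : infDist p (K i) = 0 := infDist_zero_of_mem (hPK hp)
      rw [mem_ofPred_eq, this]; exact hr
    · have key : ∀ q ∈ (O1 ∩ O2) ∩ {p | infDist p (K i) < r} ∩ Eᶜ,
          ∀ q' ∈ (O1 ∩ O2) ∩ {p | infDist p (K i) < r} ∩ Eᶜ,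
          (u q + D / 16 * (f q * w q)) - (u q' + D / 16 * (f q' * w q')) ≤
            121 / 128 * D + ε := by
        rintro q ⟨⟨⟨hq1, hq2⟩, hq3⟩, hqE⟩ q' ⟨⟨⟨hq1', hq2'⟩, hq3'⟩, hqE'⟩
        simp only [mem_ofPred_eq] at hq3 hq3'
        have e1 : w q = cl (4 * (c i - u q) / D) := by
          rw [hval i q (by linarith), bump_eq_one hr hq3.le, one_mul]
        have e2 : w q' = cl (4 * (c i - u q') / D) := by
          rw [hval i q' (by linarith), bump_eq_one hr hq3'.le, one_mul]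
        rw [e1, e2]
        have hin : q ∈ O (pt i) ∩ Eᶜ := ⟨(hrU i q (by linarith)).1, hqE⟩
        have hin' : q' ∈ O (pt i) ∩ Eᶜ := ⟨(hrU i q' (by linarith)).1, hqE'⟩
        exact desc_arith hD (hc i q hin) (hc i q' hin') (hf q).1 (hf q).2 (hf q').1 (hf q').2
          (H2 q ⟨hq2, hqE⟩ q' ⟨hq2', hqE'⟩) hε.le
          ((le_abs_self _).trans (H1 q ⟨hq1, hqE⟩ q' ⟨hq1', hqE'⟩))
      intro q hq q' hq'
      rw [abs_le]
      constructor
      · have := key q' hq' q hq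
        linarith
      · exact key q hq q' hq'

end Crest.Agent.R105.Dsc_423
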