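import Crest.Agent.R105.Cq8_463
import Crest.Agent.R105.Dsc1_423

/-!
# Row 105 (S0138), STEPQ by descent, part 2: products with a fixed weight

`TQ (f w)` is small as soon as `TQ f` is small, for a FIXED weight `w` of class `CFJ`.
-/

set_option autoImplicit false

namespace Crest.Agent.R105.Dsc_423

open Set Filter MeasureTheory Topology Metric
open Crest.Agent.R105.CF_363 Crest.Agent.R105.Stp_722 Crest.Agent.R105.Cq_463
open scoped ENNReal

variable {E : Set (ℝ × ℝ)} {𝒬 : Set Sqr} {𝓗 : Set Hair}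

/-- energy of a product -/
theorem eEn_mul_le (hE : QPic E 𝒬 𝓗) {f w : ℝ × ℝ → ℝ} (hf : CFJ 𝓗 univ f)
    {J : Finset Hair} {L : ℝ} (hL : 0 ≤ L) (hw : SL (univ \ cut J) L w)
    (hw1 : ∀ p, |w p| ≤ 1) :
    eEn (univ \ E) (fun p => f p * w p) ≤
      2 * eEn (univ \ E) f + ENNReal.ofReal (4 * L ^ 2) * ∫⁻ p in univ \ E, ‖f p‖ₑ ^ 2 := by
  have hWE : IsOpen (univ \ E) := isOpen_univ.sdiff hE.cpt.isClosed
  have hf' : CFJ 𝓗 (univ \ E) f := hf.mono (Subset.refl _) sdiff_subset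
  unfold eEn
  rw [← lintegral_const_mul' _ _ ENNReal.ofReal_ne_top, ← lintegral_const_mul' _ _ (by norm_num),
    ← lintegral_add_left ((measurable_g2 f).ennreal_ofReal.const_mul _)]
  have hd : ∀ᵐ p ∂(volume.restrict (univ \ E)), DifferentiableAt ℝ w p ∧ g2 w p ≤ 2 * L ^ 2 := by
    have h1 := hw.ae_differentiableAt (μ := volume) (isOpen_diff_cut isOpen_univ J)
    have h2 : ∀ᵐ p : ℝ × ℝ, p ∉ cut J := measure_eq_zero_iff_ae_notMem.mp (volume_cut J)
    filter_upwards [ae_restrict_of_ae h1, ae_restrict_of_ae h2] with p h1 h2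
    exact ⟨h1 ⟨mem_univ p, h2⟩, hw.g2_le (isOpen_diff_cut isOpen_univ J) hL ⟨mem_univ p, h2⟩⟩
  refine lintegral_mono_ae ?_
  filter_upwards [hf'.ae_differentiableAt hWE, hd] with p h1 h2
  have h3 := g2_mul_le h1 h2.1
  have h4 := h2.2
  have h5 : w p ^ 2 ≤ 1 := by rw [← sq_abs]; exact pow_le_one₀ (abs_nonneg _) (hw1 p)
  have h6 : ‖f p‖ₑ ^ 2 = ENNReal.ofReal (f p ^ 2) := by
    rw [← ofReal_norm, ← ENNReal.ofReal_pow (norm_nonneg _), Real.norm_eq_abs, sq_abs]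
  have h7 : (2 : ℝ≥0∞) * ENNReal.ofReal (g2 f p) = ENNReal.ofReal (2 * g2 f p) := by
    rw [ENNReal.ofReal_mul (by norm_num)]; norm_num
  have hg := g2_nonneg f p
  rw [h6, h7, ← ENNReal.ofReal_mul (by positivity), ← ENNReal.ofReal_add (by positivity)
    (by positivity)]
  refine ENNReal.ofReal_le_ofReal (h3.trans ?_)
  have e1 : w p ^ 2 * g2 f p ≤ 1 * g2 f p := mul_le_mul_of_nonneg_right h5 hg
  have e2 : f p ^ 2 * g2 w p ≤ f p ^ 2 * (2 * L ^ 2) :=
    mul_le_mul_of_nonneg_left h4 (sq_nonneg _)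
  nlinarith [e1, e2]

/-- charge of a product at one square -/
theorem ch_mul_le_near {f w : ℝ × ℝ → ℝ} (hf1 : ∀ p, 0 ≤ f p ∧ f p ≤ 1)
    (hw1 : ∀ p, |w p| ≤ 1) {Q : Sqr} {B : ℝ} (hB : 0 ≤ B) {O : Set (ℝ × ℝ)} (hO : IsOpen O)
    (hQO : Q.car ∩ closure univ ⊆ O) (h : ∀ q ∈ O ∩ (Eᶜ ∩ univ), |f q| ≤ B) :
    ch E univ (fun p => f p * w p) Q ≤ ch E univ f Q + B * ch E univ w Q := by
  have h1 := chg_mul_near (V := Eᶜ ∩ univ) (P := Q.car ∩ closure univ) (f := w) (g := f)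
    zero_le_one hB hO hQO (fun p _ => hw1 p) h
    (fin_of_bdd (A := 1) fun p _ => hw1 p)
    (fin_of_bdd (A := 1) fun p _ => by rw [abs_of_nonneg (hf1 p).1]; exact (hf1 p).2)
  have e : (fun p => f p * w p) = fun p => w p * f p := by funext p; ring
  unfold ch
  rw [e]
  linarith

/-- **SMALL PRODUCTS** -/
theorem small_mul (hE : QPic E 𝒬 𝓗) {w : ℝ × ℝ → ℝ} (hw : CFJ 𝓗 univ w)
    (hw1 : ∀ p, |w p| ≤ 1) {S : Set (ℝ × ℝ)} (hS : IsCompact S) {ε : ℝ} (hε : 0 < ε) :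
    ∃ ε' > 0, ∀ f : ℝ × ℝ → ℝ, CFJ 𝓗 univ f → (∀ p, 0 ≤ f p ∧ f p ≤ 1) →
      (∀ p ∉ S, f p = 0) → TQ E univ 𝒬 f ≤ ε' → TQ E univ 𝒬 (fun p => f p * w p) ≤ ε := by
  classical
  obtain ⟨a, b, hab, hSab⟩ := exists_height (hE.cpt.union hS)
  obtain ⟨J, hJ, L, C, hL, hSL, hC⟩ := hw
  have hw' : CFJ 𝓗 univ w := ⟨J, hJ, L, C, hL, hSL, hC⟩
  have hsum := summable_ch (𝒬 := 𝒬) hE convex_univ hw'
  set T := Ch E univ 𝒬 w with hT
  have hT0 : 0 ≤ T := Ch_nonneg _ _ _ _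
  -- the big squares
  obtain ⟨F, hF⟩ : ∃ F : Finset 𝒬, T - ε / 16 < ∑ Q ∈ F, ch E univ w Q.1 ^ 2 := by
    have h1 := hsum.hasSum
    have h2 : ∀ᶠ F : Finset 𝒬 in atTop, T - ε / 16 < ∑ Q ∈ F, ch E univ w Q.1 ^ 2 :=
      h1.eventually (lt_mem_nhds (show T - ε / 16 < ∑' Q : 𝒬, ch E univ w Q.1 ^ 2 by
        rw [hT]; unfold Ch; linarith))
    exact h2.exists
  -- the bound for f near the big squares
  set m : ℝ := min 1 (√(ε / (16 * (T + 1)))) with hm
  have hm0 : 0 < m := lt_min one_pos (Real.sqrt_pos.2 (by positivity))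
  have hm1 : m ≤ 1 := min_le_left _ _
  have hm2 : m ^ 2 * T ≤ ε / 16 := by
    have h1 : m ^ 2 ≤ ε / (16 * (T + 1)) := by
      have := pow_le_pow_left₀ hm0.le (min_le_right 1 (√(ε / (16 * (T + 1))))) 2
      rwa [Real.sq_sqrt (by positivity)] at this
    calc m ^ 2 * T ≤ ε / (16 * (T + 1)) * (T + 1) := by gcongr; linarith
      _ = ε / 16 := by field_simp
  have hK : ∀ᶠ e : ℝ in 𝓝[>] 0, (∀ Q ∈ F, √(2 * (b - a) * e / Q.1.s) + √e + m / 2 ≤ m) ∧
      (2 * e + 8 * L ^ 2 * (b - a) ^ 2 * e ≤ ε / 4) ∧ 2 * e ≤ ε / 4 := by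
    have t0 : Tendsto (fun e : ℝ => e) (𝓝[>] 0) (𝓝 0) := tendsto_nhdsWithin_of_tendsto_nhds tendsto_id
    refine Filter.Eventually.and ?_ (Filter.Eventually.and ?_ ?_)
    · rw [Filter.eventually_all_finset]
      intro Q _
      have t1 : Tendsto (fun e : ℝ => √(2 * (b - a) * e / Q.1.s) + √e + m / 2) (𝓝[>] 0)
          (𝓝 (√(2 * (b - a) * 0 / Q.1.s) + √0 + m / 2)) :=
        (((t0.const_mul _).div_const _).sqrt.add t0.sqrt).add_const _
      have h1 : √(2 * (b - a) * 0 / Q.1.s) + √0 + m / 2 < m := by simp; linarith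
      exact (t1.eventually (gt_mem_nhds h1)).mono fun e he => he.le
    · have t1 : Tendsto (fun e : ℝ => 2 * e + 8 * L ^ 2 * (b - a) ^ 2 * e) (𝓝[>] 0)
          (𝓝 (2 * 0 + 8 * L ^ 2 * (b - a) ^ 2 * 0)) := (t0.const_mul _).add (t0.const_mul _)
      have h1 : 2 * (0 : ℝ) + 8 * L ^ 2 * (b - a) ^ 2 * 0 < ε / 4 := by simp; positivity
      exact (t1.eventually (gt_mem_nhds h1)).mono fun e he => he.le
    · have t1 : Tendsto (fun e : ℝ => 2 * e) (𝓝[>] 0) (𝓝 (2 * 0)) := t0.const_mul _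
      have h1 : 2 * (0 : ℝ) < ε / 4 := by simp; positivity
      exact (t1.eventually (gt_mem_nhds h1)).mono fun e he => he.le
  obtain ⟨e, ⟨he1, he2, he3⟩, he0⟩ := (hK.and self_mem_nhdsWithin).exists
  refine ⟨e, he0, fun f hf hf1 hf0 hTf => ?_⟩
  have hTf0 := TQ_nonneg E univ 𝒬 f
  have hfc : Cc 𝓗 univ f := ⟨hf, S, hS, fun p _ hp => hf0 p hp⟩
  have hfw : Cc 𝓗 univ (fun p => f p * w p) := hfc.mul hw'
  have hz : Van univ a b f := ⟨fun p _ hp => hf0 p fun hpS => by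
    have := hSab p (Or.inr hpS)
    rcases hp with h | h <;> linarith [this.1, this.2]⟩
  have habE : ∀ p ∈ E, a < p.2 ∧ p.2 < b := fun p hp => hSab p (Or.inl hp)
  -- energy
  have hEn : En (univ \ E) (fun p => f p * w p) ≤ ε / 4 := by
    have h1 := eEn_mul_le hE hf hL hSL hw1
    have h2 := poincare hE slab_univ hfc habE hab.le hz
    have h3 : ENNReal.ofReal (En (univ \ E) (fun p => f p * w p)) ≤
        ENNReal.ofReal (2 * e + 8 * L ^ 2 * (b - a) ^ 2 * e) := by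
      rw [← eEn_eq (integrableOn_of_Cc hE isOpen_univ hfw)]
      refine h1.trans ?_
      calc 2 * eEn (univ \ E) f + ENNReal.ofReal (4 * L ^ 2) * ∫⁻ p in univ \ E, ‖f p‖ₑ ^ 2
          ≤ 2 * ENNReal.ofReal e + ENNReal.ofReal (4 * L ^ 2) *
            ENNReal.ofReal (2 * (b - a) ^ 2 * e) := by
            gcongr
            · rw [eEn_eq (integrableOn_of_Cc hE isOpen_univ hfc)]
              exact ENNReal.ofReal_le_ofReal (En_le_TQ.trans hTf)
            · exact h2.trans (ENNReal.ofReal_le_ofReal (by gcongr))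
        _ = ENNReal.ofReal (2 * e + 8 * L ^ 2 * (b - a) ^ 2 * e) := by
            have e2 : (2 : ℝ≥0∞) * ENNReal.ofReal e = ENNReal.ofReal (2 * e) := by
              rw [ENNReal.ofReal_mul (by norm_num)]; norm_num
            rw [e2, ← ENNReal.ofReal_mul (by positivity), ← ENNReal.ofReal_add (by positivity)
              (by positivity)]
            congr 1; ring
    exact ((ENNReal.ofReal_le_ofReal_iff (by positivity)).1 h3).trans he2
  -- charges
  have hch : ∀ Q : 𝒬, ch E univ (fun p => f p * w p) Q.1 ^ 2 ≤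
      2 * ch E univ f Q.1 ^ 2 + 2 * (if Q ∈ F then m ^ 2 * ch E univ w Q.1 ^ 2 else
        ch E univ w Q.1 ^ 2) := by
    intro Q
    have c1 := ch_nonneg E univ f Q.1
    have c2 := ch_nonneg E univ w Q.1
    have c3 := ch_nonneg E univ (fun p => f p * w p) Q.1
    by_cases hQF : Q ∈ F
    · rw [if_pos hQF]
      obtain ⟨O, hO, hQO, hb⟩ := face_le hE slab_univ hfc habE hz Q.2
        (by rw [closure_univ, inter_univ]; exact Q.1.nonempty) (half_pos hm0)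
      have hb' : ∀ q ∈ O ∩ (Eᶜ ∩ univ), |f q| ≤ m := by
        intro q hq
        refine (hb q hq).trans (le_trans ?_ (he1 Q hQF))
        have hs := Q.1.hs
        have hab' : 0 ≤ b - a := by linarith
        gcongr
      have h1 := ch_mul_le_near hf1 hw1 hm0.le hO hQO hb'
      have h2 := pow_le_pow_left₀ c3 h1 2
      refine h2.trans ?_
      nlinarith [sq_nonneg (ch E univ f Q.1 - m * ch E univ w Q.1)]
    · rw [if_neg hQF]
      have h1 := ch_mul_le_near (E := E) (Q := Q.1) hf1 hw1 zero_le_one isOpen_univ (subset_univ _)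
        (fun q _ => by rw [abs_of_nonneg (hf1 q).1]; exact (hf1 q).2)
      have h2 := pow_le_pow_left₀ c3 h1 2
      refine h2.trans ?_
      nlinarith [sq_nonneg (ch E univ f Q.1 - 1 * ch E univ w Q.1)]
  have hs1 := summable_ch (𝒬 := 𝒬) hE convex_univ hf
  have hs3 : Summable fun Q : 𝒬 => (if Q ∈ F then m ^ 2 * ch E univ w Q.1 ^ 2 else
        ch E univ w Q.1 ^ 2) := by
    refine Summable.of_nonneg_of_le (fun Q => ?_) (fun Q => ?_) hsum
    · split_ifs <;> positivity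
    · split_ifs
      · have : m ^ 2 ≤ 1 := pow_le_one₀ hm0.le hm1
        nlinarith [sq_nonneg (ch E univ w Q.1)]
      · exact le_rfl
  have hs4 : ∑' Q : 𝒬, (if Q ∈ F then m ^ 2 * ch E univ w Q.1 ^ 2 else ch E univ w Q.1 ^ 2) ≤
      ε / 8 := by
    have e1 : ∀ Q : 𝒬, (if Q ∈ F then m ^ 2 * ch E univ w Q.1 ^ 2 else ch E univ w Q.1 ^ 2) =
        ch E univ w Q.1 ^ 2 - (if Q ∈ F then (1 - m ^ 2) * ch E univ w Q.1 ^ 2 else 0) := by
      intro Q; split_ifs <;> ring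
    have hfin : Summable fun Q : 𝒬 => (if Q ∈ F then (1 - m ^ 2) * ch E univ w Q.1 ^ 2 else 0) :=
      summable_of_ne_finset_zero (s := F) fun Q hQ => if_neg hQ
    rw [tsum_congr e1, hsum.tsum_sub hfin, tsum_eq_sum (s := F) (fun Q hQ => if_neg hQ),
      Finset.sum_congr rfl (fun Q hQ => if_pos hQ), ← Finset.mul_sum]
    have h1 : ∑' Q : 𝒬, ch E univ w Q.1 ^ 2 = T := rfl
    rw [h1]
    have h2 : m ^ 2 ≤ 1 := pow_le_one₀ hm0.le hm1
    nlinarith [mul_le_mul_of_nonneg_left hF.le (by linarith : (0 : ℝ) ≤ 1 - m ^ 2)]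
  have hCh : Ch E univ 𝒬 (fun p => f p * w p) ≤ ε / 2 := by
    have h1 : Ch E univ 𝒬 (fun p => f p * w p) ≤ ∑' Q : 𝒬, (2 * ch E univ f Q.1 ^ 2 +
        2 * (if Q ∈ F then m ^ 2 * ch E univ w Q.1 ^ 2 else ch E univ w Q.1 ^ 2)) :=
      Summable.tsum_le_tsum hch (summable_ch hE convex_univ hfw.1)
        ((hs1.mul_left 2).add (hs3.mul_left 2))
    rw [(hs1.mul_left 2).tsum_add (hs3.mul_left 2), tsum_mul_left, tsum_mul_left] at h1
    have h2 : ∑' Q : 𝒬, ch E univ f Q.1 ^ 2 ≤ e := Ch_le_TQ.trans hTf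
    linarith
  unfold TQ
  linarith

end Crest.Agent.R105.Dsc_423
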