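import Crest.Agent.R105.E13_499

/-!
# Row 105 (S0138), node E13, JOB 2: measurability of the end functions (helper116)

* `aem_gen` : limits along `𝓝[S t] (τ t)` of a measurable family are a.e. measurable in `t`
* `top_meas`, `bot_meas` : `t ↦ sSup (sec L t)`, `sInf (sec L t)` are measurable
* `ends_aem` : `EndsOf` functions are a.e. measurable on `(lo, hi)`
* `lim_ind` : the limit of a function cut by a predicate
-/

set_option autoImplicit false

open MeasureTheory Set Filter Topology Metric
open scoped NNReal ENNReal ContDiff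

namespace Crest.Agent.R105.Eam_116

open Tc_808 E13_499
open Sqr_185 (sec)

/-- limits along `𝓝[S t] (τ t)` -/
theorem aem_gen {I : Set ℝ} (hI : MeasurableSet I) {S : ℝ → Set ℝ} {τ : ℝ → ℝ} (hτ : Measurable τ)
    (hS : ∀ t, IsOpen (S t)) (hSm : ∀ v, MeasurableSet {t | v ∈ S t})
    (hn : ∀ t ∈ I, (𝓝[S t] (τ t)).NeBot) {W : ℝ → ℝ → ℝ} (hW : ∀ v, Measurable fun t => W t v)
    {g : ℝ → ℝ} (h : ∀ᵐ t : ℝ, t ∈ I → Tendsto (W t) (𝓝[S t] (τ t)) (𝓝 (g t))) :
    AEMeasurable g (volume.restrict I) := by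
  classical
  let q : ℕ → ℝ := TopologicalSpace.denseSeq ℝ
  have hq : DenseRange q := TopologicalSpace.denseRange_denseSeq ℝ
  let p : ℕ → ℕ → ℝ → Prop := fun m n t => t ∉ I ∨ (q n ∈ S t ∧ |q n - τ t| < 1 / ((m : ℝ) + 1))
  have hex : ∀ m t, ∃ n, p m n t := by
    intro m t
    by_cases ht : t ∈ I
    · have h1 := hn t ht
      have h2 : S t ∩ ball (τ t) (1 / ((m : ℝ) + 1)) ∈ 𝓝[S t] (τ t) :=
        inter_mem self_mem_nhdsWithin (mem_nhdsWithin_of_mem_nhds (ball_mem_nhds _ (by positivity)))
      have h3 : (S t ∩ ball (τ t) (1 / ((m : ℝ) + 1))).Nonempty := h1.nonempty_of_mem h2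
      obtain ⟨_, ⟨h4, h5⟩, n, rfl⟩ := hq.inter_open_nonempty _ ((hS t).inter isOpen_ball) h3
      exact ⟨n, Or.inr ⟨h4, by simpa [Real.dist_eq] using h5⟩⟩
    · exact ⟨0, Or.inl ht⟩
  have hpm : ∀ m n, MeasurableSet {t | p m n t} := by
    intro m n
    refine (hI.compl).union ((hSm (q n)).inter ?_)
    exact measurableSet_lt ((measurable_const.sub hτ).abs) measurable_const
  have hf : ∀ m, Measurable fun t => W t (q (Nat.find (hex m t))) := fun m =>
    Measurable.find (f := fun n t => W t (q n)) (fun n => hW (q n)) (hpm m) (hex m)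
  refine aemeasurable_of_tendsto_metrizable_ae' (f := fun m t => W t (q (Nat.find (hex m t))))
    (fun m => (hf m).aemeasurable) ?_
  rw [ae_restrict_iff' hI]
  filter_upwards [h] with t ht htI
  have h1 : ∀ m, q (Nat.find (hex m t)) ∈ S t ∧ |q (Nat.find (hex m t)) - τ t| < 1 / ((m : ℝ) + 1) :=
    fun m => (Nat.find_spec (hex m t)).resolve_left (not_not.2 htI)
  have h2 : Tendsto (fun m => q (Nat.find (hex m t))) atTop (𝓝[S t] (τ t)) := by
    refine tendsto_nhdsWithin_iff.2 ⟨?_, Eventually.of_forall fun m => (h1 m).1⟩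
    rw [tendsto_iff_norm_sub_tendsto_zero]
    refine squeeze_zero (fun _ => norm_nonneg _) (fun m => ?_) tendsto_one_div_add_atTop_nhds_zero_nat
    rw [Real.norm_eq_abs]
    exact (h1 m).2.le
  exact (ht htI).comp h2

theorem top_meas {L : Set ℂ} (hL : IsCompact L) : Measurable fun t => sSup (sec L t) := by
  refine measurable_of_Ici fun c => ?_
  have e : (fun t => sSup (sec L t)) ⁻¹' Ici c =
      (Complex.re '' (L ∩ {z | c ≤ z.im})) ∪ ((Complex.re '' L)ᶜ ∩ {_t | c ≤ 0}) := by
    ext t
    by_cases hne : (sec L t).Nonempty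
    · have hm := (Sqr_185.isCompact_sec hL t).sSup_mem hne
      have hr : t ∈ Complex.re '' L := ⟨_, hm, rfl⟩
      constructor
      · intro h
        exact Or.inl ⟨_, ⟨hm, h⟩, rfl⟩
      · rintro (⟨z, ⟨hz, hzc⟩, rfl⟩ | ⟨h1, -⟩)
        · have h1 : z.im ∈ sec L z.re := hz
          exact le_trans hzc (le_csSup (Sqr_185.isCompact_sec hL _).bddAbove h1)
        · exact absurd hr h1
    · have hr : t ∉ Complex.re '' L := by
        rintro ⟨z, hz, rfl⟩
        exact hne ⟨z.im, hz⟩
      rw [not_nonempty_iff_eq_empty] at hne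
      constructor
      · intro h
        refine Or.inr ⟨hr, ?_⟩
        simpa [hne] using h
      · rintro (⟨z, ⟨hz, hzc⟩, rfl⟩ | ⟨-, h2⟩)
        · exact absurd ⟨z, hz, rfl⟩ hr
        · simpa [hne] using h2
  rw [e]
  refine MeasurableSet.union ?_ ?_
  · exact ((hL.inter_right (isClosed_le continuous_const Complex.continuous_im)).image
      Complex.continuous_re).isClosed.measurableSet
  · exact (hL.image Complex.continuous_re).isClosed.measurableSet.compl.inter (MeasurableSet.const _)

theorem bot_meas {L : Set ℂ} (hL : IsCompact L) : Measurable fun t => sInf (sec L t) := by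
  refine measurable_of_Iic fun c => ?_
  have e : (fun t => sInf (sec L t)) ⁻¹' Iic c =
      (Complex.re '' (L ∩ {z | z.im ≤ c})) ∪ ((Complex.re '' L)ᶜ ∩ {_t | 0 ≤ c}) := by
    ext t
    by_cases hne : (sec L t).Nonempty
    · have hm := (Sqr_185.isCompact_sec hL t).sInf_mem hne
      have hr : t ∈ Complex.re '' L := ⟨_, hm, rfl⟩
      constructor
      · intro h
        exact Or.inl ⟨_, ⟨hm, h⟩, rfl⟩
      · rintro (⟨z, ⟨hz, hzc⟩, rfl⟩ | ⟨h1, -⟩)
        · have h1 : z.im ∈ sec L z.re := hz
          exact le_trans (csInf_le (Sqr_185.isCompact_sec hL _).bddBelow h1) hzc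
        · exact absurd hr h1
    · have hr : t ∉ Complex.re '' L := by
        rintro ⟨z, hz, rfl⟩
        exact hne ⟨z.im, hz⟩
      rw [not_nonempty_iff_eq_empty] at hne
      constructor
      · intro h
        refine Or.inr ⟨hr, ?_⟩
        simpa [hne] using h
      · rintro (⟨z, ⟨hz, hzc⟩, rfl⟩ | ⟨-, h2⟩)
        · exact absurd ⟨z, hz, rfl⟩ hr
        · simpa [hne] using h2
  rw [e]
  refine MeasurableSet.union ?_ ?_
  · exact ((hL.inter_right (isClosed_le Complex.continuous_im continuous_const)).image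
      Complex.continuous_re).isClosed.measurableSet
  · exact (hL.image Complex.continuous_re).isClosed.measurableSet.compl.inter (MeasurableSet.const _)

theorem continuous_mk_l (v : ℝ) : Continuous fun t : ℝ => (⟨t, v⟩ : ℂ) :=
  Sqr_185.continuous_mk.comp (continuous_id.prodMk continuous_const)

theorem continuous_mk_r (t : ℝ) : Continuous fun v : ℝ => (⟨t, v⟩ : ℂ) :=
  Sqr_185.continuous_mk.comp (continuous_const.prodMk continuous_id)

/-- **the end functions are a.e. measurable** -/
theorem ends_aem {E : Set ℂ} (hE : IsCompact E) (L : Cmp E)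
    (hn : ∀ t ∈ Ioo (Sqr_185.lo L.1) (Sqr_185.hi L.1), (TopF E L.1 t).NeBot ∧ (BotF E L.1 t).NeBot)
    {w : ℂ → ℝ} (hw : ContinuousOn w Eᶜ) {wT wB : ℝ → ℝ} (h : EndsOf E L w wT wB) :
    AEMeasurable wT (volume.restrict (Ioo (Sqr_185.lo L.1) (Sqr_185.hi L.1))) ∧
      AEMeasurable wB (volume.restrict (Ioo (Sqr_185.lo L.1) (Sqr_185.hi L.1))) := by
  classical
  have hLc := L.isCompact hE
  set W : ℂ → ℝ := Eᶜ.indicator w with hW
  have hWm : Measurable W := by
    rw [hW, ← piecewise_eq_indicator]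
    exact ContinuousOn.measurable_piecewise hw continuousOn_const hE.isClosed.measurableSet.compl
  have hWv : ∀ v, Measurable fun t : ℝ => W ⟨t, v⟩ := fun v =>
    hWm.comp (continuous_mk_l v).measurable
  constructor
  · refine aem_gen (S := fun t => {v | (⟨t, v⟩ : ℂ) ∉ E ∧ sSup (sec L.1 t) < v})
      (W := fun t v => W ⟨t, v⟩) measurableSet_Ioo (top_meas hLc) ?_ ?_ (fun t ht => (hn t ht).1)
      hWv ?_
    · intro t
      exact (hE.isClosed.isOpen_compl.preimage (continuous_mk_r t)).inter isOpen_Ioi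
    · intro v
      exact ((hE.isClosed.isOpen_compl.preimage (continuous_mk_l v)).measurableSet).inter
        (measurableSet_lt (top_meas hLc) measurable_const)
    · filter_upwards [h] with t ht hto
      refine (ht hto).1.congr' ?_
      filter_upwards [self_mem_nhdsWithin] with v hv
      rw [hW, indicator_of_mem hv.1]
  · refine aem_gen (S := fun t => {v | (⟨t, v⟩ : ℂ) ∉ E ∧ v < sInf (sec L.1 t)})
      (W := fun t v => W ⟨t, v⟩) measurableSet_Ioo (bot_meas hLc) ?_ ?_ (fun t ht => (hn t ht).2)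
      hWv ?_
    · intro t
      exact (hE.isClosed.isOpen_compl.preimage (continuous_mk_r t)).inter isOpen_Iio
    · intro v
      exact ((hE.isClosed.isOpen_compl.preimage (continuous_mk_l v)).measurableSet).inter
        (measurableSet_lt measurable_const (bot_meas hLc))
    · filter_upwards [h] with t ht hto
      refine (ht hto).2.congr' ?_
      filter_upwards [self_mem_nhdsWithin] with v hv
      rw [hW, indicator_of_mem hv.1]

open Classical in
/-- the limit of a function cut by a predicate -/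
theorem lim_ind {l : Filter ℝ} [l.NeBot] {p : ℝ → Prop} {m w : ℝ → ℝ} {c g : ℝ}
    (hm : Tendsto m l (𝓝 c)) (hw : Tendsto w l (𝓝 g))
    (h1 : ∀ᶠ v in l, p v → w v = m v) (h0 : ∀ᶠ v in l, ¬ p v → w v = 0) :
    g = if (∀ᶠ v in l, p v) then c else 0 := by
  split_ifs with h
  · refine tendsto_nhds_unique hw (hm.congr' ?_)
    filter_upwards [h, h1] with v h2 h3
    exact (h3 h2).symm
  · have h2 : ∃ᶠ v in l, w v ∈ ({0} : Set ℝ) := by
      have h' : ∃ᶠ v in l, ¬ p v := Filter.not_eventually.1 h
      exact (h'.and_eventually h0).mono fun v hv => hv.2 hv.1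
    have h3 := mem_closure_of_frequently_of_tendsto h2 hw
    simpa using h3

end Crest.Agent.R105.Eam_116
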