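import Mathlib

/-!
# Row 105, S0138 (T-frame): first variation of `T` (helper600)

Abstract calculus lemma.  `T (x + t φ) = T₀ + 2 t a + t² b + Σ o_K(t)²` with
`0 ≤ o_K(t) ≤ s_K + |t| c_K`, `Σ s_K² , Σ c_K² < ∞`.
* `el_plus` : if, for `s_K ≠ 0` and small `t > 0`, `o_K(t) ≤ s_K + t (q_K + ε)`, and `T` does not
  decrease for small `t > 0`, then `0 ≤ a + Σ s_K q_K`;
* `el_two` : two-sided form `|a + Σ s_K r_K| ≤ Σ s_K e_K`;
* `el_crude` : `|a| ≤ Σ s_K c_K`.
-/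

set_option autoImplicit false

open Filter Topology

namespace Crest.Agent.R105.Elf_600

variable {ι : Type*}

lemma summable_mul_of_sq {s c : ι → ℝ} (s2 : Summable fun K => s K ^ 2)
    (c2 : Summable fun K => c K ^ 2) : Summable fun K => s K * c K := by
  refine Summable.of_norm_bounded (s2.add c2) fun K => ?_
  rw [Real.norm_eq_abs, abs_mul]
  nlinarith [sq_nonneg (|s K| - |c K|), sq_abs (s K), sq_abs (c K)]

/-- FIRST VARIATION, one-sided: only small positive `t` -/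
theorem el_plus {a b : ℝ} {s c q : ι → ℝ} {o : ι → ℝ → ℝ}
    (hs : ∀ K, 0 ≤ s K) (hc : ∀ K, 0 ≤ c K)
    (s2 : Summable fun K => s K ^ 2) (c2 : Summable fun K => c K ^ 2)
    (hq : Summable fun K => s K * q K)
    (crude : ∀ᶠ t in 𝓝[>] (0 : ℝ), ∀ K, 0 ≤ o K t ∧ o K t ≤ s K + t * c K)
    (fine : ∀ K, s K ≠ 0 → ∀ ε > 0, ∀ᶠ t in 𝓝[>] (0 : ℝ), o K t ≤ s K + t * (q K + ε))
    (min : ∀ᶠ t in 𝓝[>] (0 : ℝ), ∑' K, s K ^ 2 ≤ 2 * t * a + t ^ 2 * b + ∑' K, o K t ^ 2) :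
    0 ≤ a + ∑' K, s K * q K := by
  classical
  have sc : Summable fun K => s K * c K := summable_mul_of_sq s2 c2
  have hq' : Summable fun K => |s K * q K| := hq.abs
  -- the comparison functions
  set V : ℝ → ι → ℝ := fun t K => max ((o K t ^ 2 - s K ^ 2) / t) (2 * (s K * q K)) with hV
  have hsmall : ∀ᶠ t in 𝓝[>] (0 : ℝ), 0 < t ∧ t < 1 := by
    filter_upwards [self_mem_nhdsWithin, mem_nhdsWithin_of_mem_nhds (Iio_mem_nhds one_pos)] with t h1 h2
    exact ⟨h1, h2⟩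
  have hlt : ∀ δ : ℝ, 0 < δ → ∀ᶠ t in 𝓝[>] (0 : ℝ), t < δ := fun δ hδ =>
    mem_nhdsWithin_of_mem_nhds (Iio_mem_nhds hδ)
  -- pointwise limits
  have hlim : ∀ K, Tendsto (fun t => V t K) (𝓝[>] (0 : ℝ)) (𝓝 (2 * (s K * q K))) := by
    intro K
    rcases eq_or_ne (s K) 0 with h0 | h0
    · -- `s K = 0`
      have h1 : Tendsto (fun t : ℝ => t * c K ^ 2) (𝓝[>] (0 : ℝ)) (𝓝 (2 * (s K * q K))) := by
        have : Tendsto (fun t : ℝ => t * c K ^ 2) (𝓝 (0 : ℝ)) (𝓝 (0 * c K ^ 2)) :=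
          tendsto_id.mul_const _
        rw [h0]
        simpa using this.mono_left nhdsWithin_le_nhds
      refine tendsto_of_tendsto_of_tendsto_of_le_of_le' tendsto_const_nhds h1 ?_ ?_
      · exact Eventually.of_forall fun t => le_max_right _ _
      · filter_upwards [crude, hsmall] with t h2 h4
        obtain ⟨h5, h6⟩ := h2 K
        rw [h0, zero_add] at h6
        refine max_le ?_ (by rw [h0]; nlinarith [sq_nonneg (c K), h4.1, mul_nonneg h4.1.le (sq_nonneg (c K))])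
        rw [div_le_iff₀ h4.1, h0]
        nlinarith [mul_self_le_mul_self h5 h6]
    · refine tendsto_order.2 ⟨fun y hy => Eventually.of_forall fun t => hy.trans_le (le_max_right _ _),
        fun y hy => ?_⟩
      have hs0 : 0 < s K := lt_of_le_of_ne (hs K) (Ne.symm h0)
      set η := y - 2 * (s K * q K) with hη
      have hη0 : 0 < η := sub_pos.2 hy
      set ε := η / (4 * s K) with hε
      have hε0 : 0 < ε := by positivity
      have h4 : s K * ε = η / 4 := by rw [hε]; field_simp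
      filter_upwards [fine K h0 ε hε0, crude, hsmall,
        hlt (η / (4 * ((q K + ε) ^ 2 + 1))) (by positivity)] with t h5 h6 h7 h8
      refine max_lt ?_ hy
      rw [div_lt_iff₀ h7.1]
      have h9 : t * (q K + ε) ^ 2 ≤ η / 4 := by
        rw [lt_div_iff₀ (by positivity)] at h8
        nlinarith [h7.1, sq_nonneg (q K + ε)]
      have h10 := mul_self_le_mul_self (h6 K).1 h5
      have h11 : o K t ^ 2 - s K ^ 2 ≤ (2 * (s K * q K) + 2 * (s K * ε) + t * (q K + ε) ^ 2) * t := by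
        nlinarith
      have h12 : 2 * (s K * q K) + 2 * (s K * ε) + t * (q K + ε) ^ 2 < y := by
        rw [h4]
        linarith
      exact h11.trans_lt (mul_lt_mul_of_pos_right h12 h7.1)
  -- domination
  have hbd : ∀ᶠ t in 𝓝[>] (0 : ℝ), ∀ K, ‖V t K‖ ≤ 2 * (s K * c K) + c K ^ 2 + 2 * |s K * q K| := by
    filter_upwards [crude, hsmall] with t h1 h2 K
    obtain ⟨h3, h4⟩ := h1 K
    have hsc : 0 ≤ s K * c K := mul_nonneg (hs K) (hc K)
    have hU : (o K t ^ 2 - s K ^ 2) / t ≤ 2 * (s K * c K) + c K ^ 2 := by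
      rw [div_le_iff₀ h2.1]
      nlinarith [mul_self_le_mul_self h3 h4, mul_nonneg (sq_nonneg (c K)) (sub_nonneg.2 h2.2.le),
        mul_nonneg (mul_nonneg (sq_nonneg (c K)) (sub_nonneg.2 h2.2.le)) h2.1.le]
    have hl := neg_abs_le (s K * q K)
    have hr := le_abs_self (s K * q K)
    have h0 := abs_nonneg (s K * q K)
    rw [Real.norm_eq_abs, abs_le]
    constructor
    · refine le_trans ?_ (le_max_right _ _)
      nlinarith [sq_nonneg (c K)]
    · refine max_le ?_ ?_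
      · linarith
      · nlinarith [sq_nonneg (c K)]
  have hdom : Summable fun K => 2 * (s K * c K) + c K ^ 2 + 2 * |s K * q K| :=
    ((sc.mul_left 2).add c2).add (hq'.mul_left 2)
  have hT : Tendsto (fun t => ∑' K, V t K) (𝓝[>] (0 : ℝ)) (𝓝 (∑' K, 2 * (s K * q K))) :=
    tendsto_tsum_of_dominated_convergence hdom hlim hbd
  have hT2 : Tendsto (fun t => 2 * a + t * b + ∑' K, V t K) (𝓝[>] (0 : ℝ))
      (𝓝 (2 * a + ∑' K, 2 * (s K * q K))) := by
    have h1 : Tendsto (fun t : ℝ => 2 * a + t * b) (𝓝[>] (0 : ℝ)) (𝓝 (2 * a)) := by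
      have : Tendsto (fun t : ℝ => 2 * a + t * b) (𝓝 (0 : ℝ)) (𝓝 (2 * a + 0 * b)) :=
        tendsto_const_nhds.add (tendsto_id.mul_const _)
      simpa using this.mono_left nhdsWithin_le_nhds
    exact h1.add hT
  have hpos : ∀ᶠ t in 𝓝[>] (0 : ℝ), 0 ≤ 2 * a + t * b + ∑' K, V t K := by
    filter_upwards [min, crude, hsmall, hbd] with t h1 h2 h3 h4
    have hVs : Summable fun K => V t K := Summable.of_norm_bounded hdom h4
    have hos : Summable fun K => o K t ^ 2 := by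
      refine Summable.of_nonneg_of_le (fun K => sq_nonneg _) (fun K => ?_)
        ((s2.mul_left 2).add (c2.mul_left 2))
      obtain ⟨h5, h6⟩ := h2 K
      have h7 : s K + t * c K ≤ s K + c K := by nlinarith [hc K, h3.1, h3.2]
      nlinarith [mul_self_le_mul_self h5 (h6.trans h7), sq_nonneg (s K - c K)]
    have hUs : Summable fun K => (o K t ^ 2 - s K ^ 2) / t := (hos.sub s2).div_const t
    have h5 : ∑' K, (o K t ^ 2 - s K ^ 2) / t ≤ ∑' K, V t K :=
      hUs.tsum_le_tsum (fun K => le_max_left _ _) hVs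
    have h6 : ∑' K, (o K t ^ 2 - s K ^ 2) / t = (∑' K, o K t ^ 2 - ∑' K, s K ^ 2) / t := by
      rw [tsum_div_const, hos.tsum_sub s2]
    have h7 : 0 ≤ (2 * t * a + t ^ 2 * b + (∑' K, o K t ^ 2 - ∑' K, s K ^ 2)) / t :=
      div_nonneg (by linarith) h3.1.le
    have h8 : (2 * t * a + t ^ 2 * b + (∑' K, o K t ^ 2 - ∑' K, s K ^ 2)) / t
        = 2 * a + t * b + (∑' K, o K t ^ 2 - ∑' K, s K ^ 2) / t := by
      have := h3.1.ne'
      field_simp
    rw [h8, ← h6] at h7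
    linarith
  have hfin : 0 ≤ 2 * a + ∑' K, 2 * (s K * q K) := ge_of_tendsto hT2 hpos
  rw [tsum_mul_left] at hfin
  linarith

/-- FIRST VARIATION, two-sided -/
theorem el_two {a b : ℝ} {s c r e : ι → ℝ} {o : ι → ℝ → ℝ}
    (hs : ∀ K, 0 ≤ s K) (hc : ∀ K, 0 ≤ c K)
    (s2 : Summable fun K => s K ^ 2) (c2 : Summable fun K => c K ^ 2)
    (hr : Summable fun K => s K * r K) (he : Summable fun K => s K * e K)
    (crude : ∀ᶠ t in 𝓝[≠] (0 : ℝ), ∀ K, 0 ≤ o K t ∧ o K t ≤ s K + |t| * c K)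
    (fine : ∀ K, s K ≠ 0 → ∀ ε > 0, ∀ᶠ t in 𝓝[≠] (0 : ℝ), o K t ≤ s K + t * r K + |t| * (e K + ε))
    (min : ∀ᶠ t in 𝓝[≠] (0 : ℝ), ∑' K, s K ^ 2 ≤ 2 * t * a + t ^ 2 * b + ∑' K, o K t ^ 2) :
    |a + ∑' K, s K * r K| ≤ ∑' K, s K * e K := by
  have hle : 𝓝[>] (0 : ℝ) ≤ 𝓝[≠] (0 : ℝ) := nhdsWithin_mono _ fun t ht => (ne_of_gt ht)
  have hpos : ∀ᶠ t in 𝓝[>] (0 : ℝ), 0 < t := self_mem_nhdsWithin
  have hneg : Tendsto (fun t : ℝ => -t) (𝓝[>] (0 : ℝ)) (𝓝[≠] (0 : ℝ)) := by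
    refine tendsto_nhdsWithin_iff.2 ⟨?_, ?_⟩
    · have : Tendsto (fun t : ℝ => -t) (𝓝 (0 : ℝ)) (𝓝 (-0)) := tendsto_id.neg
      simpa using this.mono_left nhdsWithin_le_nhds
    · filter_upwards [hpos] with t ht
      exact (neg_lt_zero.2 ht).ne
  have e1 : ∀ K, s K * (r K + e K) = s K * r K + s K * e K := fun K => by ring
  have e2 : ∀ K, s K * (-r K + e K) = -(s K * r K) + s K * e K := fun K => by ring
  have s1 : Summable fun K => s K * (r K + e K) := (hr.add he).congr fun K => (e1 K).symm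
  have s3 : Summable fun K => s K * (-r K + e K) := (hr.neg.add he).congr fun K => (e2 K).symm
  have h1 : 0 ≤ a + ∑' K, s K * (r K + e K) := by
    refine el_plus (b := b) (o := o) hs hc s2 c2 s1 ?_ ?_ (hle min)
    · filter_upwards [hle crude, hpos] with t h1 ht K
      exact ⟨(h1 K).1, by simpa [abs_of_pos ht] using (h1 K).2⟩
    · intro K h0 ε hε
      filter_upwards [hle (fine K h0 ε hε), hpos] with t h1 ht
      rw [abs_of_pos ht] at h1
      linarith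
  have h2 : 0 ≤ -a + ∑' K, s K * (-r K + e K) := by
    refine el_plus (b := b) (o := fun K t => o K (-t)) hs hc s2 c2 s3 ?_ ?_ ?_
    · filter_upwards [hneg.eventually crude, hpos] with t h1 ht K
      exact ⟨(h1 K).1, by simpa [abs_of_pos ht] using (h1 K).2⟩
    · intro K h0 ε hε
      filter_upwards [hneg.eventually (fine K h0 ε hε), hpos] with t h1 ht
      rw [abs_neg, abs_of_pos ht] at h1
      linarith
    · filter_upwards [hneg.eventually min] with t h1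
      linarith [neg_sq t]
  rw [tsum_congr e1, hr.tsum_add he] at h1
  rw [tsum_congr e2, hr.neg.tsum_add he, tsum_neg] at h2
  rw [abs_le]
  constructor <;> linarith

/-- exact form -/
theorem el_exact {a b : ℝ} {s c r : ι → ℝ} {o : ι → ℝ → ℝ}
    (hs : ∀ K, 0 ≤ s K) (hc : ∀ K, 0 ≤ c K)
    (s2 : Summable fun K => s K ^ 2) (c2 : Summable fun K => c K ^ 2)
    (hr : Summable fun K => s K * r K)
    (crude : ∀ᶠ t in 𝓝[≠] (0 : ℝ), ∀ K, 0 ≤ o K t ∧ o K t ≤ s K + |t| * c K)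
    (fine : ∀ K, s K ≠ 0 → ∀ ε > 0, ∀ᶠ t in 𝓝[≠] (0 : ℝ), o K t ≤ s K + t * r K + |t| * ε)
    (min : ∀ᶠ t in 𝓝[≠] (0 : ℝ), ∑' K, s K ^ 2 ≤ 2 * t * a + t ^ 2 * b + ∑' K, o K t ^ 2) :
    a + ∑' K, s K * r K = 0 := by
  have h := el_two (a := a) (b := b) (e := fun _ => (0 : ℝ)) hs hc s2 c2 hr (by simp [summable_zero])
    crude (fun K h0 ε hε => by simpa using fine K h0 ε hε) min
  have h' : |a + ∑' K, s K * r K| ≤ 0 := by simpa using h
  exact abs_nonpos_iff.1 h'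

/-- crude form -/
theorem el_crude {a b : ℝ} {s c : ι → ℝ} {o : ι → ℝ → ℝ}
    (hs : ∀ K, 0 ≤ s K) (hc : ∀ K, 0 ≤ c K)
    (s2 : Summable fun K => s K ^ 2) (c2 : Summable fun K => c K ^ 2)
    (crude : ∀ᶠ t in 𝓝[≠] (0 : ℝ), ∀ K, 0 ≤ o K t ∧ o K t ≤ s K + |t| * c K)
    (min : ∀ᶠ t in 𝓝[≠] (0 : ℝ), ∑' K, s K ^ 2 ≤ 2 * t * a + t ^ 2 * b + ∑' K, o K t ^ 2) :
    |a| ≤ ∑' K, s K * c K := by
  have h := el_two (a := a) (b := b) (r := fun _ => (0 : ℝ)) (e := c) hs hc s2 c2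
    (by simp [summable_zero]) (summable_mul_of_sq s2 c2) crude
    (fun K _ ε hε => by
      filter_upwards [crude] with t h1
      have := (h1 K).2
      nlinarith [abs_nonneg t]) min
  simpa using h

end Crest.Agent.R105.Elf_600
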