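import Crest.Agent.R105.Elf1_600
import Crest.Agent.R105.Tc1_808

/-!
# Row 105, S0138 (T-frame): first variation of `T` on the class `TT` of Tc1_808 (helper600)

* `Rng Y u K α β` : `[α, β]` is the cluster interval of `u` at `K`; `exists_rng`
* `osc_faces_plus`, `osc_faces` : `osc_K (u + t φ)` for small `t`, one-sided / two-sided
* `crude`, `plus`, `faces`, `exact` : the E-L relations at a `T`-minimiser
-/

set_option autoImplicit false

open MeasureTheory Set Filter Topology Metric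
open scoped NNReal ENNReal

namespace Crest.Agent.R105.Elf_600

open Bd_775 Tc_808

variable {Y K : Set ℂ} {u φ : ℂ → ℝ} {α β : ℝ}

lemma osc_le_of_bounds {f : ℂ → ℝ} {A B : ℝ} (hAB : A ≤ B)
    (h1 : ∀ η > 0, ∀ᶠ z in eK Y K, f z ≤ B + η) (h2 : ∀ η > 0, ∀ᶠ z in eK Y K, A - η ≤ f z) :
    osc Y f K ≤ B - A := by
  refine osc_le_of_forall (sub_nonneg.2 hAB) fun η hη => ?_
  obtain ⟨O, hO, hKO, h⟩ := mem_eK.1 ((h1 (η / 2) (by positivity)).and (h2 (η / 2) (by positivity)))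
  refine ⟨O, hO, hKO, fun z hz hzY w hw hwY => ?_⟩
  have h3 := h z hz hzY
  have h4 := h w hw hwY
  simp only [mem_ofPred_eq] at h3 h4
  rw [abs_le]; constructor <;> linarith [h3.1, h3.2, h4.1, h4.2]

/-- `[α, β]` is the cluster interval of `u` at `K` -/
structure Rng (Y : Set ℂ) (u : ℂ → ℝ) (K : Set ℂ) (α β : ℝ) : Prop where
  le : α ≤ β
  lo : ∀ ε > 0, ∀ᶠ z in eK Y K, α - ε < u z
  hi : ∀ ε > 0, ∀ᶠ z in eK Y K, u z < β + ε
  osc : β - α = osc Y u K

lemma exists_rng (hb : ∃ M, ∀ z, |u z| ≤ M) (K : Set ℂ) : ∃ α β, Rng Y u K α β := by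
  obtain ⟨M, hM⟩ := hb
  by_cases hne : (eK Y K).NeBot
  · have hbu : IsBoundedUnder (· ≤ ·) (eK Y K) u :=
      isBoundedUnder_of ⟨M, fun z => (abs_le.1 (hM z)).2⟩
    have hbl : IsBoundedUnder (· ≥ ·) (eK Y K) u :=
      isBoundedUnder_of ⟨-M, fun z => (abs_le.1 (hM z)).1⟩
    have hle : liminf u (eK Y K) ≤ limsup u (eK Y K) := liminf_le_limsup hbu hbl
    have lo : ∀ ε > 0, ∀ᶠ z in eK Y K, liminf u (eK Y K) - ε < u z := fun ε hε =>
      eventually_lt_of_lt_liminf (by linarith) hbl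
    have hi : ∀ ε > 0, ∀ᶠ z in eK Y K, u z < limsup u (eK Y K) + ε := fun ε hε =>
      eventually_lt_of_limsup_lt (by linarith) hbu
    refine ⟨liminf u (eK Y K), limsup u (eK Y K), hle, lo, hi, le_antisymm ?_ ?_⟩
    · refine le_of_forall_pos_le_add fun ε hε => ?_
      obtain ⟨O, hO, hKO, h⟩ := exists_of_osc_lt (Y := Y) (K := K) ⟨M, hM⟩
        (show Tc_808.osc Y u K < Tc_808.osc Y u K + ε by linarith)
      have hmem : ∀ᶠ w in eK Y K, w ∈ O ∧ w ∉ Y := mem_eK.2 ⟨O, hO, hKO, fun z hz hzY => ⟨hz, hzY⟩⟩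
      have h5 : ∀ᶠ w in eK Y K, limsup u (eK Y K) - (Tc_808.osc Y u K + ε) ≤ u w := by
        filter_upwards [hmem] with w hw
        have h6 : limsup u (eK Y K) ≤ u w + (Tc_808.osc Y u K + ε) := by
          refine limsup_le_of_le ⟨-M, ?_⟩ ?_
          · intro a ha
            obtain ⟨z, hz⟩ := (eventually_map.1 ha).exists
            exact (abs_le.1 (hM z)).1.trans hz
          · filter_upwards [hmem] with z hz
            have := (abs_lt.1 (h z hz.1 hz.2 w hw.1 hw.2)).2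
            linarith
        linarith
      have h7 : limsup u (eK Y K) - (Tc_808.osc Y u K + ε) ≤ liminf u (eK Y K) := by
        refine le_liminf_of_le ⟨M, ?_⟩ h5
        intro a ha
        obtain ⟨z, hz⟩ := (eventually_map.1 ha).exists
        exact le_trans hz (abs_le.1 (hM z)).2
      linarith
    · exact osc_le_of_bounds hle (fun η hη => (hi η hη).mono fun z hz => hz.le)
        (fun η hη => (lo η hη).mono fun z hz => hz.le)
  · rw [not_neBot] at hne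
    refine ⟨0, 0, le_rfl, fun ε hε => by rw [hne]; exact eventually_bot,
      fun ε hε => by rw [hne]; exact eventually_bot, ?_⟩
    rw [sub_zero]
    refine (le_antisymm ?_ (osc_nonneg _ _ _)).symm
    have := osc_le_of_bounds (Y := Y) (K := K) (f := u) (A := 0) (B := 0) le_rfl
      (fun η hη => by rw [hne]; exact eventually_bot) (fun η hη => by rw [hne]; exact eventually_bot)
    simpa using this

/-- `osc_K (u + t φ)` for small `t > 0`: only the values of `φ` near the two faces count -/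
lemma osc_faces_plus (h : Rng Y u K α β) (hs : α < β) {M : ℝ} (hφ : ∀ z, |φ z| ≤ M) {R L : ℝ}
    (hR : ∀ ε > 0, ∃ δ > 0, ∀ᶠ z in eK Y K, β - δ < u z → φ z ≤ R + ε)
    (hL : ∀ ε > 0, ∃ δ > 0, ∀ᶠ z in eK Y K, u z < α + δ → L - ε ≤ φ z) {ε : ℝ} (hε : 0 < ε) :
    ∀ᶠ t in 𝓝[>] (0 : ℝ), Tc_808.osc Y (fun z => u z + t * φ z) K ≤ (β - α) + t * (R - L + ε) := by
  have hM : 0 ≤ M := (abs_nonneg _).trans (hφ 0)
  obtain ⟨δ₁, hδ₁, h1⟩ := hR (ε / 2) (by positivity)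
  obtain ⟨δ₂, hδ₂, h2⟩ := hL (ε / 2) (by positivity)
  set B := M + |R| + |L| + ε + 1 with hB
  have hB0 : 0 < B := by positivity
  have hlt : ∀ δ : ℝ, 0 < δ → ∀ᶠ t in 𝓝[>] (0 : ℝ), t < δ := fun δ hδ =>
    mem_nhdsWithin_of_mem_nhds (Iio_mem_nhds hδ)
  filter_upwards [self_mem_nhdsWithin, hlt (δ₁ / B) (by positivity), hlt (δ₂ / B) (by positivity),
    hlt ((β - α) / (2 * B)) (by have := sub_pos.2 hs; positivity)] with t ht ht1 ht2 ht3
  have ht0 : (0 : ℝ) < t := ht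
  rw [lt_div_iff₀ hB0] at ht1 ht2
  rw [lt_div_iff₀ (by positivity)] at ht3
  have e1 : t * |R| ≤ t * B := mul_le_mul_of_nonneg_left (by rw [hB]; linarith [abs_nonneg L]) ht0.le
  have hR1 := le_abs_self R
  have hR2 := neg_abs_le R
  have hL1 := le_abs_self L
  have hL2 := neg_abs_le L
  have hRabs := abs_nonneg R
  have hLabs := abs_nonneg L
  have key : (β - α) + t * (R - L + ε) = (β + t * (R + ε / 2)) - (α + t * (L - ε / 2)) := by ring
  rw [key]
  refine osc_le_of_bounds ?_ (fun η hη => ?_) (fun η hη => ?_)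
  · have h3 : -(2 * B) ≤ R - L + ε := by rw [hB]; linarith
    have h4 : t * (-(2 * B)) ≤ t * (R - L + ε) := mul_le_mul_of_nonneg_left h3 ht0.le
    nlinarith
  · filter_upwards [h1, h.hi η hη] with z h3 h4
    rcases lt_or_ge (β - δ₁) (u z) with h5 | h5
    · have := mul_le_mul_of_nonneg_left (h3 h5) ht0.le
      linarith
    · have h6 : t * φ z ≤ t * M := mul_le_mul_of_nonneg_left ((le_abs_self _).trans (hφ z)) ht0.le
      have h7 : t * (-(|R|)) ≤ t * (R + ε / 2) :=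
        mul_le_mul_of_nonneg_left (by linarith) ht0.le
      have h8 : t * M + t * |R| ≤ t * B := by
        rw [← mul_add]; exact mul_le_mul_of_nonneg_left (by rw [hB]; linarith) ht0.le
      nlinarith
  · filter_upwards [h2, h.lo η hη] with z h3 h4
    rcases lt_or_ge (u z) (α + δ₂) with h5 | h5
    · have := mul_le_mul_of_nonneg_left (h3 h5) ht0.le
      linarith
    · have h6 : t * (-M) ≤ t * φ z := mul_le_mul_of_nonneg_left
        ((neg_le_neg (hφ z)).trans (neg_abs_le _)) ht0.le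
      have h7 : t * (L - ε / 2) ≤ t * |L| :=
        mul_le_mul_of_nonneg_left (by linarith) ht0.le
      have h8 : t * M + t * |L| ≤ t * B := by
        rw [← mul_add]; exact mul_le_mul_of_nonneg_left (by rw [hB]; linarith) ht0.le
      nlinarith

/-- two-sided form -/
lemma osc_faces (h : Rng Y u K α β) (hs : α < β) {M : ℝ} (hφ : ∀ z, |φ z| ≤ M) {R L e : ℝ}
    (hR : ∀ ε > 0, ∃ δ > 0, ∀ᶠ z in eK Y K, β - δ < u z → |φ z - R| ≤ e + ε)
    (hL : ∀ ε > 0, ∃ δ > 0, ∀ᶠ z in eK Y K, u z < α + δ → |φ z - L| ≤ e + ε) {ε : ℝ} (hε : 0 < ε) :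
    ∀ᶠ t in 𝓝[≠] (0 : ℝ), Tc_808.osc Y (fun z => u z + t * φ z) K ≤
      (β - α) + t * (R - L) + |t| * (2 * e + ε) := by
  rw [← nhdsLT_sup_nhdsGT, eventually_sup]
  constructor
  · have h1 := osc_faces_plus (φ := fun z => - φ z) h hs (M := M) (fun z => by simpa using hφ z)
      (R := -R + e) (L := -L - e)
      (fun ε hε => by
        obtain ⟨δ, hδ, h⟩ := hR ε hε
        exact ⟨δ, hδ, h.mono fun z hz h0 => by have := (abs_le.1 (hz h0)).1; linarith⟩)
      (fun ε hε => by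
        obtain ⟨δ, hδ, h⟩ := hL ε hε
        exact ⟨δ, hδ, h.mono fun z hz h0 => by have := (abs_le.1 (hz h0)).2; linarith⟩) hε
    have hneg : Tendsto (fun t : ℝ => -t) (𝓝[<] (0 : ℝ)) (𝓝[>] (0 : ℝ)) := by
      refine tendsto_nhdsWithin_iff.2 ⟨?_, ?_⟩
      · have : Tendsto (fun t : ℝ => -t) (𝓝 (0 : ℝ)) (𝓝 (-0)) := tendsto_id.neg
        simpa using this.mono_left nhdsWithin_le_nhds
      · filter_upwards [self_mem_nhdsWithin] with t ht
        have ht' : t < 0 := ht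
        exact neg_pos.2 ht'
    filter_upwards [hneg.eventually h1, self_mem_nhdsWithin] with t h2 ht
    have ht' : t < 0 := ht
    rw [abs_of_neg ht']
    have e1 : (fun z => u z + -t * -φ z) = fun z => u z + t * φ z := by funext z; ring
    rw [e1] at h2
    linarith
  · have h1 := osc_faces_plus h hs hφ (R := R + e) (L := L - e)
      (fun ε hε => by
        obtain ⟨δ, hδ, h⟩ := hR ε hε
        exact ⟨δ, hδ, h.mono fun z hz h0 => by have := (abs_le.1 (hz h0)).2; linarith⟩)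
      (fun ε hε => by
        obtain ⟨δ, hδ, h⟩ := hL ε hε
        exact ⟨δ, hδ, h.mono fun z hz h0 => by have := (abs_le.1 (hz h0)).1; linarith⟩) hε
    filter_upwards [h1, self_mem_nhdsWithin] with t h2 ht
    have ht' : 0 < t := ht
    rw [abs_of_pos ht']
    linarith

lemma osc_mul_const (hφ : ∃ M, ∀ z, |φ z| ≤ M) (t : ℝ) :
    Tc_808.osc Y (fun z => t * φ z) K ≤ |t| * Tc_808.osc Y φ K := by
  have h : LipschitzWith ‖t‖₊ fun y : ℝ => t * y := by
    refine LipschitzWith.of_dist_le_mul fun a b => ?_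
    rw [Real.dist_eq, Real.dist_eq, ← mul_sub, abs_mul, coe_nnnorm, Real.norm_eq_abs]
  simpa using osc_comp_le (Y := Y) (K := K) hφ h

lemma osc_crude (hu : ∃ M, ∀ z, |u z| ≤ M) (hφ : ∃ M, ∀ z, |φ z| ≤ M) (t : ℝ) :
    Tc_808.osc Y (fun z => u z + t * φ z) K ≤ Tc_808.osc Y u K + |t| * Tc_808.osc Y φ K := by
  have hφ' : ∃ M, ∀ z, |(fun z => t * φ z) z| ≤ M := by
    obtain ⟨M, hM⟩ := hφ
    exact ⟨|t| * M, fun z => by
      simp only [abs_mul]; exact mul_le_mul_of_nonneg_left (hM z) (abs_nonneg t)⟩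
  exact (osc_add_le hu hφ').trans (add_le_add le_rfl (osc_mul_const hφ t))

/-! ### the E-L relations -/

section EL
variable {a b : ℝ}

/-- `T (x + t φ) ≥ T x` : the quadratic part is `2 t a + t² b` -/
def MinAt (Y : Set ℂ) (u φ : ℂ → ℝ) (a b : ℝ) : Prop :=
  ∀ t : ℝ, ∑' K : Cmp Y, Tc_808.osc Y u K.1 ^ 2 ≤
    2 * t * a + t ^ 2 * b + ∑' K : Cmp Y, Tc_808.osc Y (fun z => u z + t * φ z) K.1 ^ 2

lemma crude_hyp (hu : TT Y u) (hφ : TT Y φ) (t : ℝ) (K : Cmp Y) :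
    0 ≤ Tc_808.osc Y (fun z => u z + t * φ z) K.1 ∧
      Tc_808.osc Y (fun z => u z + t * φ z) K.1 ≤
        Tc_808.osc Y u K.1 + |t| * Tc_808.osc Y φ K.1 :=
  ⟨osc_nonneg _ _ _, osc_crude hu.q.bdd hφ.q.bdd t⟩

/-- E-L, crude form -/
theorem crude (hu : TT Y u) (hφ : TT Y φ) (hm : MinAt Y u φ a b) :
    |a| ≤ ∑' K : Cmp Y, Tc_808.osc Y u K.1 * Tc_808.osc Y φ K.1 :=
  el_crude (b := b) (o := fun (K : Cmp Y) t => Tc_808.osc Y (fun z => u z + t * φ z) K.1)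
    (fun _ => osc_nonneg _ _ _) (fun _ => osc_nonneg _ _ _) hu.sum hφ.sum
    (Eventually.of_forall fun t K => crude_hyp hu hφ t K) (Eventually.of_forall hm)

/-- E-L, one-sided form with faces -/
theorem plus (hu : TT Y u) (hφ : TT Y φ) (hm : MinAt Y u φ a b) {α β R L : Cmp Y → ℝ}
    (hr : ∀ K, Tc_808.osc Y u K.1 ≠ 0 → Rng Y u K.1 (α K) (β K))
    (hR : ∀ K, Tc_808.osc Y u K.1 ≠ 0 → ∀ ε > 0, ∃ δ > 0, ∀ᶠ z in eK Y K.1,
      β K - δ < u z → φ z ≤ R K + ε)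
    (hL : ∀ K, Tc_808.osc Y u K.1 ≠ 0 → ∀ ε > 0, ∃ δ > 0, ∀ᶠ z in eK Y K.1,
      u z < α K + δ → L K - ε ≤ φ z)
    (hs : Summable fun K : Cmp Y => Tc_808.osc Y u K.1 * (R K - L K)) :
    0 ≤ a + ∑' K : Cmp Y, Tc_808.osc Y u K.1 * (R K - L K) := by
  obtain ⟨M, hM⟩ := hφ.q.bdd
  have hle : ∀ᶠ t in 𝓝[>] (0 : ℝ), (0 : ℝ) < t := self_mem_nhdsWithin
  refine el_plus (b := b) (c := fun K : Cmp Y => Tc_808.osc Y φ K.1)
    (o := fun (K : Cmp Y) t => Tc_808.osc Y (fun z => u z + t * φ z) K.1)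
    (fun _ => osc_nonneg _ _ _) (fun _ => osc_nonneg _ _ _) hu.sum hφ.sum hs ?_ ?_
    (Eventually.of_forall hm)
  · filter_upwards [hle] with t ht K
    have := crude_hyp hu hφ t K
    rw [abs_of_pos ht] at this
    exact this
  · intro K h0 ε hε
    have h1 := hr K h0
    have h2 : α K < β K := by
      have := lt_of_le_of_ne (osc_nonneg Y u K.1) (Ne.symm h0)
      linarith [h1.osc]
    have h3 := osc_faces_plus h1 h2 hM (hR K h0) (hL K h0) hε
    rwa [h1.osc] at h3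

/-- E-L, two-sided form with faces -/
theorem faces (hu : TT Y u) (hφ : TT Y φ) (hm : MinAt Y u φ a b) {α β R L e : Cmp Y → ℝ}
    (hr : ∀ K, Tc_808.osc Y u K.1 ≠ 0 → Rng Y u K.1 (α K) (β K))
    (hR : ∀ K, Tc_808.osc Y u K.1 ≠ 0 → ∀ ε > 0, ∃ δ > 0, ∀ᶠ z in eK Y K.1,
      β K - δ < u z → |φ z - R K| ≤ e K + ε)
    (hL : ∀ K, Tc_808.osc Y u K.1 ≠ 0 → ∀ ε > 0, ∃ δ > 0, ∀ᶠ z in eK Y K.1,
      u z < α K + δ → |φ z - L K| ≤ e K + ε)
    (hs : Summable fun K : Cmp Y => Tc_808.osc Y u K.1 * (R K - L K))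
    (hse : Summable fun K : Cmp Y => Tc_808.osc Y u K.1 * e K) :
    |a + ∑' K : Cmp Y, Tc_808.osc Y u K.1 * (R K - L K)| ≤
      2 * ∑' K : Cmp Y, Tc_808.osc Y u K.1 * e K := by
  obtain ⟨M, hM⟩ := hφ.q.bdd
  have hse' : Summable fun K : Cmp Y => Tc_808.osc Y u K.1 * (2 * e K) :=
    (hse.mul_left 2).congr fun K => by ring
  have h := el_two (a := a) (b := b) (c := fun K : Cmp Y => Tc_808.osc Y φ K.1)
    (r := fun K : Cmp Y => R K - L K) (e := fun K : Cmp Y => 2 * e K)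
    (o := fun (K : Cmp Y) t => Tc_808.osc Y (fun z => u z + t * φ z) K.1)
    (fun _ => osc_nonneg _ _ _) (fun _ => osc_nonneg _ _ _) hu.sum hφ.sum hs hse'
    (Eventually.of_forall fun t K => crude_hyp hu hφ t K) ?_
    (Eventually.of_forall hm)
  · refine h.trans (le_of_eq ?_)
    rw [← tsum_mul_left]
    exact tsum_congr fun K => by ring
  · intro K h0 ε hε
    have h1 := hr K h0
    have h2 : α K < β K := by
      have := lt_of_le_of_ne (osc_nonneg Y u K.1) (Ne.symm h0)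
      linarith [h1.osc]
    have h3 := osc_faces h1 h2 hM (hR K h0) (hL K h0) hε
    rwa [h1.osc] at h3

/-- E-L, exact form: test function `χ · G ∘ u` near `Y`, `χ` locally constant near `Y` -/
theorem exact (hu : TT Y u) (hφ : TT Y φ) (hm : MinAt Y u φ a b) {χ : ℂ → ℝ} (hχ : LC Y χ)
    {G : ℝ → ℝ} {Λ : ℝ≥0} (hG : LipschitzWith Λ G)
    (hφG : ∀ K : Cmp Y, ∀ᶠ z in eK Y K.1, φ z = χ z * G (u z))
    {α β c : Cmp Y → ℝ} (hr : ∀ K, Tc_808.osc Y u K.1 ≠ 0 → Rng Y u K.1 (α K) (β K))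
    (hc : ∀ K, ∀ z ∈ K.1, χ z = c K) :
    a + ∑' K : Cmp Y, Tc_808.osc Y u K.1 * (c K * (G (β K) - G (α K))) = 0 := by
  classical
  obtain ⟨M, hM⟩ := hχ.bdd
  have hM0 : 0 ≤ M := (abs_nonneg _).trans (hM 0)
  have hcM : ∀ K : Cmp Y, |c K| ≤ M := fun K => by
    obtain ⟨z, hz⟩ := K.nonempty
    rw [← hc K z hz]; exact hM z
  have hcev : ∀ K : Cmp Y, ∀ᶠ z in eK Y K.1, χ z = c K := by
    intro K
    obtain ⟨c', O, hO, hKO, h⟩ := LC.const_near hχ K.preconn K.subset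
    obtain ⟨z, hz⟩ := K.nonempty
    have : c' = c K := by rw [← hc K z hz, h z (hKO hz)]
    exact mem_eK.2 ⟨O, hO, hKO, fun w hw _ => by rw [← this]; exact h w hw⟩
  have hGL : ∀ p q, |G p - G q| ≤ Λ * |p - q| := fun p q => by
    simpa [Real.dist_eq] using hG.dist_le_mul p q
  have hΛ : (0 : ℝ) ≤ Λ := Λ.2
  -- near a face
  have near : ∀ K : Cmp Y, ∀ γ ε : ℝ, 0 < ε → ∃ δ > 0, ∀ᶠ z in eK Y K.1, |u z - γ| ≤ δ →
      |φ z - c K * G γ| ≤ 0 + ε := by
    intro K γ ε hε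
    refine ⟨ε / ((M + 1) * (Λ + 1)), by positivity, ?_⟩
    filter_upwards [hφG K, hcev K] with z h1 h2 h3
    rw [h1, h2, ← mul_sub, abs_mul, zero_add]
    have h4 : |c K| * |G (u z) - G γ| ≤ M * (Λ * (ε / ((M + 1) * (Λ + 1)))) :=
      mul_le_mul (hcM K) ((hGL _ _).trans (mul_le_mul_of_nonneg_left h3 hΛ)) (abs_nonneg _) hM0
    refine h4.trans ?_
    rw [← mul_assoc, mul_div_assoc', div_le_iff₀ (by positivity)]
    nlinarith [mul_nonneg hM0 hΛ]
  have hR : ∀ K, Tc_808.osc Y u K.1 ≠ 0 → ∀ ε > 0, ∃ δ > 0, ∀ᶠ z in eK Y K.1,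
      β K - δ < u z → |φ z - c K * G (β K)| ≤ 0 + ε := by
    intro K h0 ε hε
    obtain ⟨δ, hδ, h⟩ := near K (β K) ε hε
    refine ⟨δ, hδ, ?_⟩
    filter_upwards [h, (hr K h0).hi δ hδ] with z h1 h2 h3
    exact h1 (abs_le.2 ⟨by linarith, by linarith⟩)
  have hL : ∀ K, Tc_808.osc Y u K.1 ≠ 0 → ∀ ε > 0, ∃ δ > 0, ∀ᶠ z in eK Y K.1,
      u z < α K + δ → |φ z - c K * G (α K)| ≤ 0 + ε := by
    intro K h0 ε hε
    obtain ⟨δ, hδ, h⟩ := near K (α K) ε hε
    refine ⟨δ, hδ, ?_⟩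
    filter_upwards [h, (hr K h0).lo δ hδ] with z h1 h2 h3
    exact h1 (abs_le.2 ⟨by linarith, by linarith⟩)
  have hsum : Summable fun K : Cmp Y => Tc_808.osc Y u K.1 * (c K * G (β K) - c K * G (α K)) := by
    refine Summable.of_norm_bounded ((hu.sum.mul_left (M * Λ))) fun K => ?_
    rw [Real.norm_eq_abs, abs_mul, abs_of_nonneg (osc_nonneg Y u K.1)]
    by_cases h0 : Tc_808.osc Y u K.1 = 0
    · rw [h0]; simp
    · have h1 := hr K h0
      have h2 : |c K * G (β K) - c K * G (α K)| ≤ M * (Λ * Tc_808.osc Y u K.1) := by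
        rw [← mul_sub, abs_mul]
        refine mul_le_mul (hcM K) ((hGL _ _).trans (mul_le_mul_of_nonneg_left (le_of_eq ?_) hΛ))
          (abs_nonneg _) hM0
        rw [h1.osc, abs_of_nonneg (osc_nonneg Y u K.1)]
      calc Tc_808.osc Y u K.1 * |c K * G (β K) - c K * G (α K)|
          ≤ Tc_808.osc Y u K.1 * (M * (Λ * Tc_808.osc Y u K.1)) :=
            mul_le_mul_of_nonneg_left h2 (osc_nonneg _ _ _)
        _ = M * Λ * Tc_808.osc Y u K.1 ^ 2 := by ring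
  have h := faces (e := fun _ => (0 : ℝ)) hu hφ hm hr hR hL hsum (by simp [summable_zero])
  have h' : |a + ∑' K : Cmp Y, Tc_808.osc Y u K.1 * (c K * G (β K) - c K * G (α K))| ≤ 0 := by
    simpa using h
  have h'' := abs_nonpos_iff.1 h'
  rw [← h'']
  congr 1
  exact tsum_congr fun K => by ring

end EL

end Crest.Agent.R105.Elf_600
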