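import Crest.Agent.R105.Yv6_319

/-!
# Row 105, S0138, node E13 (ATN), piece (1) of 499 #11166: the E-L side (helper173)

`h : Pk Y x0 a φ F`, `K0 : Cmp Y`, `s = osc φ K0`, `y = Im F`.
* `els_upper`  : `ψ` `T`-finite, admissible: `|∫ wdg (χ ψ) y| ≤ osc φ K0 * osc ψ K0 + ε` for all
  cut-offs `χ` (`LC`, `0 ≤ χ ≤ 1`) with `tsupport χ` inside a small neighbourhood of `K0`
* `els_exact`  : `|∫ wdg (χ G(x)) y + s * (G(up) - G(lo))| ≤ ε`
* `els_final`  : `|E(χ q)| ≤ s + ε` and `|E(χ q) + s| ≤ s + ε` for `0 ≤ q ≤ G(x) ≤ 1`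
-/

set_option autoImplicit false

open MeasureTheory Set Filter Topology Metric
open scoped NNReal ENNReal ContDiff

namespace Crest.Agent.R105.Els_173

open Bd_775 Tc_808 Ends_897 Crest.AnalysisR
open IfB_641 (X0)
open SelT_871 (JT)
open Ni_459 (NI Swd LB cpt_of)
open SkA_8 (Pk)
open Elf_600 (pt pt_mem upK loK)

variable {Y : Set ℂ} {x0 φ χ ψ q : ℂ → ℝ} {a : ℕ → ℂ → ℝ} {F : ℂ → ℂ}

/-- the admissible cut-offs of a component -/
structure Ct (Y : Set ℂ) (O : Set ℂ) (χ : ℂ → ℝ) : Prop where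
  lc : LC Y χ
  cpt : HasCompactSupport χ
  rng : ∀ z, χ z ∈ Icc (0:ℝ) 1
  sub : tsupport χ ⊆ O

theorem Ct.mono {O O' : Set ℂ} (h : Ct Y O χ) (hO : O ⊆ O') : Ct Y O' χ :=
  ⟨h.lc, h.cpt, h.rng, h.sub.trans hO⟩

/-- cut-offs commute with everything -/
theorem ni_lc (h : Pk Y x0 a φ F) (hχ : LC Y χ) (hc : HasCompactSupport χ) (i : ℕ) :
    NI Y (a i) χ := by
  have h1 := N8_602.ni_test (h := fun _ => (1:ℝ)) h.hY h.hx h.tt hχ hc
    (LipschitzWith.const (1:ℝ)) (h.com i)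
  simpa only [mul_one] using h1

theorem ni_cut (h : Pk Y x0 a φ F) (hχ : LC Y χ) (hc : HasCompactSupport χ) (hψ : TT Y ψ) {i : ℕ}
    (hni : NI Y (a i) ψ) : NI Y (a i) (fun z => χ z * ψ z) :=
  Nip_31.ni_mul h.hY h.hx (h.tta i) (h.swd i) (TT.lc hχ) hψ (ni_lc h hχ hc i) hni

/-- minimality along admissible directions -/
theorem min_along (h : Pk Y x0 a φ F) (hψ : TT Y ψ) (hni : ∀ i, NI Y (a i) ψ) (t : ℝ) :
    JT Y x0 φ ≤ JT Y x0 (fun z => φ z + t * ψ z) := by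
  have hYc : IsClosed Y := (cpt_of h.hY).isClosed
  refine h.min _ (h.tt.add hYc ((TT.const t).mul hYc hψ)) fun i => ?_
  have h1 := Nip_31.linG h.hY h.hx (h.tta i) (h.swd i) h.tt hψ (h.com i) (hni i) 1 t
  simpa only [one_mul] using h1

/-- E-L, crude form, for `χ ψ` in terms of `y = Im F` -/
theorem crude_y (h : Pk Y x0 a φ F) (hψ : TT Y ψ) (hc : HasCompactSupport ψ)
    (hni : ∀ i, NI Y (a i) ψ) :
    |∫ z in Yᶜ, wdg ψ (fun w => (F w).im) z| ≤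
      ∑' K : Cmp Y, osc Y φ K.1 * osc Y ψ K.1 := by
  have hYc := cpt_of h.hY
  rw [setIntegral_congr_fun hYc.isClosed.isOpen_compl.measurableSet fun z hz =>
    Elf_600.wdg_eq_dot (x := fun w => x0 w + φ w) h.hol hYc.isClosed h.re _ hz]
  exact Elf_600.el_crude_x h.hY h.hx h.tt hψ hc (min_along h hψ hni)

/-- finitely many components can be avoided -/
theorem avoid (hY : IsCompact Y) (K0 : Cmp Y) (S : Finset (Cmp Y)) (hS : K0 ∉ S) :
    ∃ O : Set ℂ, IsOpen O ∧ K0.1 ⊆ O ∧ ∀ K ∈ S, Disjoint K.1 O := by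
  classical
  refine ⟨(⋃ K ∈ S, K.1)ᶜ, ?_, ?_, ?_⟩
  · exact (S.finite_toSet.isClosed_biUnion fun K _ => (K.isCompact hY).isClosed).isOpen_compl
  · intro z hz hz'
    simp only [mem_iUnion] at hz'
    obtain ⟨K, hK, hzK⟩ := hz'
    have : K = K0 := by rw [K.eq_of_mem hzK, K0.eq_of_mem hz]
    exact hS (this ▸ hK)
  · intro K hK
    rw [disjoint_left]
    intro z hz hz'
    exact hz' (mem_iUnion₂.2 ⟨K, hK, hz⟩)

/-- **the E-L side, upper bound** -/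
theorem els_upper (h : Pk Y x0 a φ F) (K0 : Cmp Y) (hψ : TT Y ψ) (hni : ∀ i, NI Y (a i) ψ)
    {ε : ℝ} (hε : 0 < ε) :
    ∃ O, IsOpen O ∧ K0.1 ⊆ O ∧ ∀ χ, Ct Y O χ →
      |∫ z in Yᶜ, wdg (fun z => χ z * ψ z) (fun w => (F w).im) z| ≤
        osc Y φ K0.1 * osc Y ψ K0.1 + ε := by
  classical
  have hYc := cpt_of h.hY
  have hs : Summable fun K : Cmp Y => osc Y φ K.1 * osc Y ψ K.1 :=
    Elf_600.summable_mul_of_sq h.tt.sum hψ.sum
  have h0 : ∀ K : Cmp Y, 0 ≤ osc Y φ K.1 * osc Y ψ K.1 := fun K =>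
    mul_nonneg (osc_nonneg _ _ _) (osc_nonneg _ _ _)
  obtain ⟨S, hS⟩ := (summable_iff_vanishing_norm.1 hs) ε hε
  obtain ⟨O, hO, hKO, hav⟩ := avoid hYc K0 (S.erase K0) (Finset.notMem_erase _ _)
  refine ⟨O, hO, hKO, fun χ hχ => ?_⟩
  have hT : TT Y (fun z => χ z * ψ z) := (TT.lc hχ.lc).mul hYc.isClosed hψ
  refine (crude_y h hT hχ.cpt.mul_right fun i => ni_cut h hχ.lc hχ.cpt hψ (hni i)).trans ?_
  -- termwise bound
  have hle : ∀ K : Cmp Y, osc Y φ K.1 * osc Y (fun z => χ z * ψ z) K.1 ≤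
      |χ (pt K)| * (osc Y φ K.1 * osc Y ψ K.1) := by
    intro K
    have h1 := Elf_600.osc_lc_mul hχ.lc hψ.q.bdd K
    calc _ ≤ osc Y φ K.1 * (|χ (pt K)| * osc Y ψ K.1) :=
          mul_le_mul_of_nonneg_left h1 (osc_nonneg _ _ _)
      _ = _ := by ring
  have hc1 : ∀ K : Cmp Y, |χ (pt K)| ≤ 1 := fun K => by
    rw [abs_of_nonneg (hχ.rng _).1]; exact (hχ.rng _).2
  have hs2 : Summable fun K : Cmp Y => |χ (pt K)| * (osc Y φ K.1 * osc Y ψ K.1) :=
    hs.of_nonneg_of_le (fun K => mul_nonneg (abs_nonneg _) (h0 K)) fun K =>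
      mul_le_of_le_one_left (h0 K) (hc1 K)
  have hs1 : Summable fun K : Cmp Y => osc Y φ K.1 * osc Y (fun z => χ z * ψ z) K.1 :=
    Elf_600.summable_mul_of_sq h.tt.sum hT.sum
  refine (hs1.tsum_le_tsum hle hs2).trans ?_
  -- split off the finite set
  set T : Finset (Cmp Y) := S ∪ {K0} with hTd
  have hzero : ∀ K ∈ S.erase K0, |χ (pt K)| * (osc Y φ K.1 * osc Y ψ K.1) = 0 := by
    intro K hK
    have h2 : pt K ∉ O := fun hm => disjoint_left.1 (hav K hK) (pt_mem K) hm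
    have h3 : χ (pt K) = 0 := image_eq_zero_of_notMem_tsupport fun hm => h2 (hχ.sub hm)
    rw [h3, abs_zero, zero_mul]
  -- pointwise comparison with the sum over the complement of `S`
  refine hs2.tsum_le_of_sum_le fun A => ?_
  have h4 : ∑ K ∈ A, |χ (pt K)| * (osc Y φ K.1 * osc Y ψ K.1) ≤
      osc Y φ K0.1 * osc Y ψ K0.1 +
        ∑ K ∈ A \ S, osc Y φ K.1 * osc Y ψ K.1 := by
    have h5 : ∑ K ∈ A, |χ (pt K)| * (osc Y φ K.1 * osc Y ψ K.1) ≤
        ∑ K ∈ A, ((if K = K0 then osc Y φ K0.1 * osc Y ψ K0.1 else 0) +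
          if K ∈ S then 0 else osc Y φ K.1 * osc Y ψ K.1) := by
      refine Finset.sum_le_sum fun K _ => ?_
      by_cases hK0 : K = K0
      · subst hK0
        rw [if_pos rfl]
        have : |χ (pt K)| * (osc Y φ K.1 * osc Y ψ K.1) ≤ osc Y φ K.1 * osc Y ψ K.1 :=
          mul_le_of_le_one_left (h0 K) (hc1 K)
        have h6 : 0 ≤ if K ∈ S then 0 else osc Y φ K.1 * osc Y ψ K.1 := by
          split_ifs
          · exact le_rfl
          · exact h0 K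
        linarith
      · rw [if_neg hK0, zero_add]
        split_ifs with hKS
        · exact (hzero K (Finset.mem_erase.2 ⟨hK0, hKS⟩)).le
        · exact mul_le_of_le_one_left (h0 K) (hc1 K)
    refine h5.trans ?_
    rw [Finset.sum_add_distrib]
    refine add_le_add ?_ ?_
    · rw [Finset.sum_ite_eq']
      split_ifs
      · exact le_rfl
      · exact h0 K0
    · rw [Finset.sum_ite, Finset.sum_const_zero, zero_add]
      refine le_of_eq (Finset.sum_congr ?_ fun _ _ => rfl)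
      ext K
      simp [Finset.mem_sdiff]
  have h7 := hS (A \ S) Finset.sdiff_disjoint
  rw [Real.norm_eq_abs] at h7
  have h8 := le_abs_self (∑ K ∈ A \ S, osc Y φ K.1 * osc Y ψ K.1)
  linarith

/-- **the E-L side, exact form for functions of `x`** -/
theorem els_exact (h : Pk Y x0 a φ F) (K0 : Cmp Y) {G : ℝ → ℝ} {Λ : ℝ≥0} (hG : LipschitzWith Λ G)
    {ε : ℝ} (hε : 0 < ε) :
    ∃ O, IsOpen O ∧ K0.1 ⊆ O ∧ ∀ χ, Ct Y O χ → (∀ z ∈ K0.1, χ z = 1) →
      |(∫ z in Yᶜ, wdg (fun z => χ z * G (x0 z + φ z)) (fun w => (F w).im) z) +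
        osc Y φ K0.1 * (G (upK Y φ K0) - G (loK Y φ K0))| ≤ ε := by
  classical
  have hYc := cpt_of h.hY
  have hs : Summable fun K : Cmp Y => (Λ : ℝ) * osc Y φ K.1 ^ 2 := h.tt.sum.mul_left _
  have h0 : ∀ K : Cmp Y, 0 ≤ (Λ : ℝ) * osc Y φ K.1 ^ 2 := fun K => by positivity
  obtain ⟨S, hS⟩ := (summable_iff_vanishing_norm.1 hs) ε hε
  obtain ⟨O, hO, hKO, hav⟩ := avoid hYc K0 (S.erase K0) (Finset.notMem_erase _ _)
  refine ⟨O, hO, hKO, fun χ hχ hχ1 => ?_⟩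
  have hmin : ∀ t : ℝ, JT Y x0 φ ≤
      JT Y x0 (fun z => φ z + t * (χ z * G (x0 z + φ z))) :=
    min_along h (Elf_600.test_chiG hYc h.hx h.tt hχ.lc hχ.cpt hG).1
      fun i => N8_602.ni_test h.hY h.hx h.tt hχ.lc hχ.cpt hG (h.com i)
  have hex := Elf_600.cut_exact h.hY h.hx h.tt h.hol h.re hχ.lc hχ.cpt hG hmin
  set T : Cmp Y → ℝ := fun K =>
    (upK Y φ K - loK Y φ K) * (χ (pt K) * (G (upK Y φ K) - G (loK Y φ K))) with hT
  have hoe : ∀ K : Cmp Y, osc Y φ K.1 = upK Y φ K - loK Y φ K := fun K =>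
    Elf_600.osc_eq h.hY h.tt.q.bdd K
  have hc1 : ∀ K : Cmp Y, |χ (pt K)| ≤ 1 := fun K => by
    rw [abs_of_nonneg (hχ.rng _).1]; exact (hχ.rng _).2
  have hTle : ∀ K, |T K| ≤ |χ (pt K)| * ((Λ : ℝ) * osc Y φ K.1 ^ 2) := by
    intro K
    have h1 : |G (upK Y φ K) - G (loK Y φ K)| ≤ Λ * osc Y φ K.1 := by
      have h2 := hG.dist_le_mul (upK Y φ K) (loK Y φ K)
      rw [Real.dist_eq, Real.dist_eq, ← hoe K, abs_of_nonneg (osc_nonneg _ _ _)] at h2
      exact h2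
    simp only [hT]
    rw [← hoe K, abs_mul, abs_mul, abs_of_nonneg (osc_nonneg Y φ K.1)]
    calc osc Y φ K.1 * (|χ (pt K)| * |G (upK Y φ K) - G (loK Y φ K)|)
        ≤ osc Y φ K.1 * (|χ (pt K)| * (Λ * osc Y φ K.1)) :=
          mul_le_mul_of_nonneg_left (mul_le_mul_of_nonneg_left h1 (abs_nonneg _))
            (osc_nonneg _ _ _)
      _ = _ := by ring
  have hsT : Summable T := by
    refine Summable.of_norm_bounded (g := fun K => (Λ : ℝ) * osc Y φ K.1 ^ 2) hs fun K => ?_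
    exact (hTle K).trans (mul_le_of_le_one_left (h0 K) (hc1 K))
  have hT0 : T K0 = osc Y φ K0.1 * (G (upK Y φ K0) - G (loK Y φ K0)) := by
    simp only [hT]
    rw [hχ1 _ (pt_mem K0), one_mul, ← hoe K0]
  have hsplit : ∑' K, T K = T K0 + ∑' K, (if K = K0 then 0 else T K) := hsT.tsum_eq_add_tsum_ite K0
  have e : (∫ z in Yᶜ, wdg (fun z => χ z * G (x0 z + φ z)) (fun w => (F w).im) z) +
      osc Y φ K0.1 * (G (upK Y φ K0) - G (loK Y φ K0)) =
      -∑' K, (if K = K0 then 0 else T K) := by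
    rw [← hT0]
    linarith [hex, hsplit]
  rw [e, abs_neg]
  have hzero : ∀ K ∈ S.erase K0, T K = 0 := by
    intro K hK
    have h2 : pt K ∉ O := fun hm => disjoint_left.1 (hav K hK) (pt_mem K) hm
    have h3 : χ (pt K) = 0 := image_eq_zero_of_notMem_tsupport fun hm => h2 (hχ.sub hm)
    simp only [hT, h3, zero_mul, mul_zero]
  have hsN : Summable fun K => ‖if K = K0 then 0 else T K‖ := by
    refine hs.of_nonneg_of_le (fun _ => norm_nonneg _) fun K => ?_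
    split_ifs
    · rw [norm_zero]; exact h0 K
    · exact (hTle K).trans (mul_le_of_le_one_left (h0 K) (hc1 K))
  rw [← Real.norm_eq_abs]
  refine (norm_tsum_le_tsum_norm hsN).trans ?_
  refine hsN.tsum_le_of_sum_le fun A => ?_
  have h5 : ∑ K ∈ A, ‖if K = K0 then 0 else T K‖ ≤
      ∑ K ∈ A, if K ∈ S then 0 else (Λ : ℝ) * osc Y φ K.1 ^ 2 := by
    refine Finset.sum_le_sum fun K _ => ?_
    by_cases hK0 : K = K0
    · rw [if_pos hK0, norm_zero]
      split_ifs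
      · exact le_rfl
      · exact h0 K
    · rw [if_neg hK0]
      split_ifs with hKS
      · rw [hzero K (Finset.mem_erase.2 ⟨hK0, hKS⟩), norm_zero]
      · exact (hTle K).trans (mul_le_of_le_one_left (h0 K) (hc1 K))
  refine h5.trans ?_
  rw [Finset.sum_ite, Finset.sum_const_zero, zero_add]
  have h6 : ∑ K ∈ A with K ∉ S, (Λ : ℝ) * osc Y φ K.1 ^ 2 =
      ∑ K ∈ A \ S, (Λ : ℝ) * osc Y φ K.1 ^ 2 := by
    refine Finset.sum_congr ?_ fun _ _ => rfl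
    ext K
    simp [Finset.mem_sdiff]
  rw [h6]
  have h7 := hS (A \ S) Finset.sdiff_disjoint
  rw [Real.norm_eq_abs] at h7
  exact (le_abs_self _).trans h7.le

/-- oscillation of a `[0,1]`-valued function -/
theorem osc_le_one {O : Set ℂ} (hO : IsOpen O) {K : Set ℂ} (hK : K ⊆ O)
    (h : ∀ z ∈ O, ψ z ∈ Icc (0:ℝ) 1) : osc Y ψ K ≤ 1 :=
  osc_le zero_le_one ⟨O, hO, hK, fun z hz _ w hw _ => by
    have h1 := h z hz
    have h2 := h w hw
    rw [abs_le]; constructor <;> linarith [h1.1, h1.2, h2.1, h2.2]⟩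

/-- **the E-L side, final form.** `0 ≤ q ≤ G(x) ≤ 1`, `G` increases from `0` to `1` over the range of
`x` on `K0`: `|E(χ q)| ≤ s + ε` and `|E(χ q) + s| ≤ s + ε` for every cut-off `χ` of `K0` with small
support, `s = osc φ K0`, `E(ψ) = ∫ dψ ∧ dy`. -/
theorem els_final (h : Pk Y x0 a φ F) (K0 : Cmp Y) {G : ℝ → ℝ} {Λ : ℝ≥0} (hG : LipschitzWith Λ G)
    (hG01 : ∀ t, G t ∈ Icc (0:ℝ) 1) (hG1 : G (upK Y φ K0) - G (loK Y φ K0) = 1) {χ0 q : ℂ → ℝ}
    (hχ0 : LC Y χ0) (hχ0c : HasCompactSupport χ0) {O1 : Set ℂ} (hO1 : IsOpen O1)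
    (hKO1 : K0.1 ⊆ O1) (h1 : ∀ z ∈ O1, χ0 z = 1) (q0 : ∀ z ∈ O1, 0 ≤ q z)
    (q1 : ∀ z ∈ O1, q z ≤ G (x0 z + φ z)) (hq : TT Y (fun z => χ0 z * q z))
    (hni : ∀ i, NI Y (a i) (fun z => χ0 z * q z)) {ε : ℝ} (hε : 0 < ε) :
    ∃ O, IsOpen O ∧ K0.1 ⊆ O ∧ ∀ χ, Ct Y O χ → (∀ z ∈ K0.1, χ z = 1) →
      |∫ z in Yᶜ, wdg (fun z => χ z * q z) (fun w => (F w).im) z| ≤ osc Y φ K0.1 + ε ∧
      |(∫ z in Yᶜ, wdg (fun z => χ z * q z) (fun w => (F w).im) z) + osc Y φ K0.1| ≤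
        osc Y φ K0.1 + ε := by
  have hYc := cpt_of h.hY
  have hYo : IsOpen Yᶜ := hYc.isClosed.isOpen_compl
  have hm : MeasurableSet Yᶜ := hYo.measurableSet
  set s := osc Y φ K0.1 with hs
  have hs0 : 0 ≤ s := osc_nonneg _ _ _
  obtain ⟨tG, -, -⟩ := Elf_600.test_chiG hYc h.hx h.tt hχ0 hχ0c hG
  have nG : ∀ i, NI Y (a i) (fun z => χ0 z * G (x0 z + φ z)) := fun i =>
    N8_602.ni_test h.hY h.hx h.tt hχ0 hχ0c hG (h.com i)
  set ψ1 : ℂ → ℝ := fun z => χ0 z * q z with hψ1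
  set ψ2 : ℂ → ℝ := fun z => χ0 z * G (x0 z + φ z) + (-1) * ψ1 z with hψ2
  have t2 : TT Y ψ2 := tG.add hYc.isClosed ((TT.const (-1)).mul hYc.isClosed hq)
  have n2 : ∀ i, NI Y (a i) ψ2 := fun i => by
    have h3 := Nip_31.linG h.hY h.hx (h.tta i) (h.swd i) tG hq (nG i) (hni i) 1 (-1)
    simpa only [one_mul] using h3
  obtain ⟨P1, hP1, hK1, b1⟩ := els_upper h K0 hq hni (half_pos hε)
  obtain ⟨P2, hP2, hK2, b2⟩ := els_upper h K0 t2 n2 (half_pos hε)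
  obtain ⟨P3, hP3, hK3, b3⟩ := els_exact h K0 hG (half_pos hε)
  have o1 : osc Y ψ1 K0.1 ≤ 1 := osc_le_one hO1 hKO1 fun z hz => by
    have e1 := hG01 (x0 z + φ z)
    simp only [hψ1, h1 z hz, one_mul]
    exact ⟨q0 z hz, (q1 z hz).trans e1.2⟩
  have o2 : osc Y ψ2 K0.1 ≤ 1 := osc_le_one hO1 hKO1 fun z hz => by
    have e1 := hG01 (x0 z + φ z)
    have e2 := q0 z hz
    have e3 := q1 z hz
    simp only [hψ2, hψ1, h1 z hz, one_mul]
    exact ⟨by linarith, by linarith [e1.2]⟩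
  refine ⟨O1 ∩ (P1 ∩ (P2 ∩ P3)), hO1.inter (hP1.inter (hP2.inter hP3)),
    subset_inter hKO1 (subset_inter hK1 (subset_inter hK2 hK3)), fun χ hχ hχ1 => ?_⟩
  have c1 := b1 χ (hχ.mono fun z hz => hz.2.1)
  have c2 := b2 χ (hχ.mono fun z hz => hz.2.2.1)
  have c3 := b3 χ (hχ.mono fun z hz => hz.2.2.2) hχ1
  rw [hG1, mul_one] at c3
  have m1 : s * osc Y ψ1 K0.1 ≤ s := mul_le_of_le_one_right hs0 o1
  have m2 : s * osc Y ψ2 K0.1 ≤ s := mul_le_of_le_one_right hs0 o2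
  -- replace `ψ1` by `q`
  have hχz : ∀ z, z ∉ O1 → χ z = 0 := fun z hz =>
    image_eq_zero_of_notMem_tsupport fun hm => hz (hχ.sub hm).1
  have e1 : (fun z => χ z * ψ1 z) = fun z => χ z * q z := by
    funext z
    by_cases hz : z ∈ O1
    · simp only [hψ1, h1 z hz, one_mul]
    · simp only [hχz z hz, zero_mul]
  rw [e1] at c1
  -- replace `ψ2`
  have e2 : (fun z => χ z * ψ2 z) = fun z => χ z * G (x0 z + φ z) + (-1) * (χ z * q z) := by
    funext z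
    by_cases hz : z ∈ O1
    · simp only [hψ2, hψ1, h1 z hz, one_mul]; ring
    · simp only [hχz z hz]; ring
  -- additivity of the integral
  obtain ⟨tχG, -, -⟩ := Elf_600.test_chiG hYc h.hx h.tt hχ.lc hχ.cpt hG
  have tχq : TT Y (fun z => χ z * q z) := by
    rw [← e1]; exact (TT.lc hχ.lc).mul hYc.isClosed hq
  have d1 := (Bd_775.Q.ae_diff tχG.q hYc.isClosed)
  have d2 := (Bd_775.Q.ae_diff tχq.q hYc.isClosed)
  have dy : ∀ {ψ : ℂ → ℝ}, TT Y ψ → HasCompactSupport ψ →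
      IntegrableOn (wdg ψ (fun w => (F w).im)) Yᶜ := by
    intro ψ hψ hψc
    have e3 : ∀ z ∈ Yᶜ, wdg ψ (fun w => (F w).im) z =
        dot (fun w => x0 w + φ w) ψ z := fun z hz =>
      Elf_600.wdg_eq_dot (x := fun w => x0 w + φ w) h.hol hYc.isClosed h.re _ hz
    refine IntegrableOn.congr_fun ?_ (fun z hz => (e3 z hz).symm) hm
    obtain ⟨i1, -⟩ := Mid_987.di_x0 hYc h.hx hψ.q hψc
    refine (i1.add (integrableOn_dot h.tt.q hψ.q)).congr ?_
    filter_upwards [h.tt.q.ae_diff hYc.isClosed] with z h4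
    have h5 : DifferentiableAt ℝ x0 z := h.hx.sm.differentiable (by simp) z
    simp only [Pi.add_apply]
    unfold dot
    rw [gx_add h5 h4, gy_add h5 h4]
    ring
  have iA := dy tχG hχ.cpt.mul_right
  have iB := dy tχq hχ.cpt.mul_right
  have e4 : ∫ z in Yᶜ, wdg (fun z => χ z * ψ2 z) (fun w => (F w).im) z =
      (∫ z in Yᶜ, wdg (fun z => χ z * G (x0 z + φ z)) (fun w => (F w).im) z) -
        ∫ z in Yᶜ, wdg (fun z => χ z * q z) (fun w => (F w).im) z := by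
    rw [e2, ← integral_sub iA iB]
    refine integral_congr_ae ?_
    filter_upwards [d1, d2] with z h4 h5
    unfold wdg
    rw [gx_add h4 (h5.const_mul (-1)), gy_add h4 (h5.const_mul (-1))]
    have g1 : gx (fun z => (-1) * (χ z * q z)) z = -gx (fun z => χ z * q z) z := by
      unfold gx
      rw [fderiv_const_mul h5]; simp
    have g2 : gy (fun z => (-1) * (χ z * q z)) z = -gy (fun z => χ z * q z) z := by
      unfold gy
      rw [fderiv_const_mul h5]; simp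
    rw [g1, g2]
    ring
  rw [e4] at c2
  refine ⟨by linarith, ?_⟩
  rw [abs_le] at c2 c3 ⊢
  constructor <;> linarith [c2.1, c2.2, c3.1, c3.2]

end Crest.Agent.R105.Els_173
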