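import Crest.Agent.R105.Red2_828
import Crest.Agent.R105.Pth2_988

/-!
# Row 105 (S0139), the end of RED (helper279)

`eq_id_of_flux` : area identity (change of variables against a bump function) + flux inequality ==> `f = z`
(#9406 (5), #9417 (5)).
-/

set_option autoImplicit false

open Set Filter Metric MeasureTheory Topology
open scoped Topology Real ContDiff
open Crest.AnalysisR

namespace Crest.Agent.R105.End139_279

/-- the exterior of a disc is connected -/
theorem isExteriorDomain_norm_gt (R : ℝ) : IsExteriorDomain {z : ℂ | R < ‖z‖} := by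
  refine ⟨isOpen_lt continuous_const continuous_norm, ?_, R, fun z hz => hz⟩
  have h1 : {z : ℂ | R < ‖z‖} =
      (fun p : ℝ × ℝ => (p.1 : ℂ) * Complex.exp (p.2 * Complex.I)) '' (Ioi R ×ˢ univ) := by
    ext z
    constructor
    · intro hz
      exact ⟨(‖z‖, z.arg), ⟨hz, mem_univ _⟩, Complex.norm_mul_exp_arg_mul_I z⟩
    · rintro ⟨⟨a, b⟩, ⟨ha, -⟩, rfl⟩
      have ha' : R < a := ha
      simp only [mem_ofPred_eq, norm_mul, Complex.norm_real, Complex.norm_exp_ofReal_mul_I, mul_one,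
        Real.norm_eq_abs]
      exact ha'.trans_le (le_abs_self a)
  rw [h1]
  refine (isConnected_Ioi.prod isConnected_univ).image _ ?_
  fun_prop

/-- decay of `f - z` and of its derivative at infinity -/
theorem decay {U : Set ℂ} (hU : IsExteriorDomain U) {f : ℂ → ℂ}
    (hf : DifferentiableOn ℂ f U) (hinj : InjOn f U)
    (hinf : Tendsto (fun z => f z - z) (cocompact ℂ) (𝓝 0)) :
    ∃ C R : ℝ, 1 ≤ R ∧ 0 ≤ C ∧ ∀ z : ℂ, R < ‖z‖ →
      z ∈ U ∧ ‖f z - z‖ ≤ C / ‖z‖ ∧ ‖deriv f z - 1‖ ≤ C / ‖z‖ ^ 2 := by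
  have hinf' := Red_828.tendsto_cocompact_of_tendsto_sub hinf
  obtain ⟨a, b, -, C, R, hR, hexp⟩ := Red_828.exists_expansion hU hf hinj hinf'
  have hC : 0 ≤ C := by
    have h1 := (hexp ((R + 1 : ℝ) : ℂ) (by
      rw [Complex.norm_real, Real.norm_eq_abs, abs_of_pos (by linarith)]; linarith)).2
    have h2 := (norm_nonneg _).trans h1
    rw [Complex.norm_real, Real.norm_eq_abs, abs_of_pos (by linarith : (0:ℝ) < R + 1)] at h2
    by_contra hC
    exact absurd h2 (not_le.2 (div_neg_of_neg_of_pos (not_le.1 hC) (by linarith)))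
  -- `h z = (a - 1) z + b → 0`
  have hh : Tendsto (fun z : ℂ => (a - 1) * z + b) (cocompact ℂ) (𝓝 0) := by
    have h2 : Tendsto (fun z : ℂ => f z - (a * z + b)) (cocompact ℂ) (𝓝 0) := by
      have h3 : Tendsto (fun z : ℂ => C / ‖z‖) (cocompact ℂ) (𝓝 0) :=
        (tendsto_norm_cocompact_atTop (E := ℂ)).const_div_atTop C
      refine squeeze_zero_norm' ?_ h3
      have h4 : ∀ᶠ z : ℂ in cocompact ℂ, R < ‖z‖ :=
        (tendsto_norm_cocompact_atTop (E := ℂ)).eventually_gt_atTop R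
      filter_upwards [h4] with z hz using (hexp z hz).2
    have h5 := hinf.sub h2
    rw [sub_zero] at h5
    refine h5.congr fun z => ?_
    ring
  have hshift : Tendsto (fun z : ℂ => z + 1) (cocompact ℂ) (cocompact ℂ) :=
    (Homeomorph.addRight (1 : ℂ)).isClosedEmbedding.tendsto_cocompact
  have ha : a = 1 := by
    have h6 := (hh.comp hshift).sub hh
    rw [sub_zero] at h6
    have h7 : Tendsto (fun _ : ℂ => a - 1) (cocompact ℂ) (𝓝 0) := by
      refine h6.congr fun z => ?_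
      simp only [Function.comp_apply]
      ring
    have h8 := tendsto_nhds_unique h7 tendsto_const_nhds
    exact (sub_eq_zero.1 h8.symm)
  have hb : b = 0 := by
    have h7 : Tendsto (fun _ : ℂ => b) (cocompact ℂ) (𝓝 0) := by
      refine hh.congr fun z => ?_
      rw [ha]; ring
    exact (tendsto_nhds_unique h7 tendsto_const_nhds).symm
  have key : ∀ z : ℂ, R < ‖z‖ → z ∈ U ∧ ‖f z - z‖ ≤ C / ‖z‖ := by
    intro z hz
    have h9 := hexp z hz
    rw [ha, hb, one_mul, add_zero] at h9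
    exact h9
  refine ⟨4 * C, 2 * R + 1, by linarith, by linarith, fun z hz => ?_⟩
  have hz0 : 0 < ‖z‖ := by linarith
  obtain ⟨h1, h2⟩ := key z (by linarith)
  refine ⟨h1, h2.trans ?_, ?_⟩
  · gcongr; linarith
  · have hball : ∀ w ∈ closedBall z (‖z‖ / 2), ‖z‖ / 2 ≤ ‖w‖ := by
      intro w hw
      rw [mem_closedBall, dist_eq_norm] at hw
      have := norm_sub_norm_le z w
      rw [norm_sub_rev] at this
      linarith
    have hballU : closedBall z (‖z‖ / 2) ⊆ U := fun w hw =>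
      (key w (by have := hball w hw; linarith)).1
    have hd : DifferentiableOn ℂ (fun w => f w - w) U := hf.sub differentiableOn_id
    have hdc : DiffContOnCl ℂ (fun w => f w - w) (ball z (‖z‖ / 2)) := by
      refine DifferentiableOn.diffContOnCl ?_
      rw [closure_ball z (by positivity)]
      exact hd.mono hballU
    have h3 := Complex.norm_deriv_le_of_forall_mem_sphere_norm_le (c := z) (R := ‖z‖ / 2)
      (C := C / (‖z‖ / 2)) (f := fun w => f w - w) (by positivity) hdc ?_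
    · have h4 : deriv (fun w => f w - w) z = deriv f z - 1 := by
        have h5 : DifferentiableAt ℂ f z := (hf z h1).differentiableAt (hU.1.mem_nhds h1)
        rw [show (fun w => f w - w) = f - id from rfl, deriv_sub h5 differentiableAt_id, deriv_id]
      rw [h4] at h3
      refine h3.trans (le_of_eq ?_)
      field_simp
      ring
    · intro w hw
      have hw' := hball w (sphere_subset_closedBall hw)
      refine (key w (by linarith)).2.trans ?_
      gcongr

/-- `f` is bounded on bounded parts of `U` -/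
theorem bdd_on {U : Set ℂ} (hU : IsExteriorDomain U) {f : ℂ → ℂ}
    (hf : DifferentiableOn ℂ f U) (hinj : InjOn f U)
    (hinf : Tendsto f (cocompact ℂ) (cocompact ℂ)) (ρ : ℝ) :
    ∃ M : ℝ, 0 ≤ M ∧ ∀ z ∈ U, ‖z‖ ≤ ρ → ‖f z‖ ≤ M := by
  obtain ⟨R, hR⟩ := hU.2.2
  set R1 : ℝ := max (max R ρ) 0 with hR1
  have hsub : {z : ℂ | R1 < ‖z‖} ⊆ U := fun z hz =>
    hR z (lt_of_le_of_lt ((le_max_left _ _).trans (le_max_left _ _)) hz)
  obtain ⟨M, hM⟩ := (Red_828.exteriorDomain_image (isExteriorDomain_norm_gt R1)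
    (hf.mono hsub) (hinj.mono hsub) hinf).2.2
  refine ⟨max M 0, le_max_right _ _, fun z hz hzρ => ?_⟩
  by_contra hcon
  push Not at hcon
  obtain ⟨w, hw, hwz⟩ := hM (f z) (lt_of_le_of_lt (le_max_left _ _) hcon)
  have : w = z := hinj (hsub hw) hz hwz
  rw [this] at hw
  have h1 : ρ ≤ R1 := (le_max_right R ρ).trans (le_max_left _ _)
  exact absurd hw (not_lt.2 (hzρ.trans h1))

theorem norm_sq_eq (a : ℂ) : ‖a‖ ^ 2 = 1 + 2 * (a - 1).re + ‖a - 1‖ ^ 2 := by
  rw [← Complex.normSq_eq_norm_sq, ← Complex.normSq_eq_norm_sq, Complex.normSq_apply,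
    Complex.normSq_apply]
  simp
  ring

/-- Taylor for a smooth compactly supported function -/
theorem taylor2 {b : ℂ → ℝ} (hb : ContDiff ℝ ∞ b) (hc : HasCompactSupport b) :
    ∃ K : ℝ, 0 ≤ K ∧ (∀ x, ‖fderiv ℝ b x‖ ≤ K) ∧
      ∀ x h : ℂ, |b (x + h) - b x - fderiv ℝ b x h| ≤ K * ‖h‖ ^ 2 := by
  have hd : ContDiff ℝ 1 (fderiv ℝ b) := hb.fderiv_right (by norm_cast)
  have hcd : HasCompactSupport (fderiv ℝ b) := hc.fderiv (𝕜 := ℝ)
  obtain ⟨K1, hK1⟩ := hcd.exists_bound_of_continuous hd.continuous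
  obtain ⟨K2, hK2⟩ := hd.lipschitzWith_of_hasCompactSupport hcd (by norm_num)
  refine ⟨max K1 K2, le_max_of_le_right K2.2, fun x => (hK1 x).trans (le_max_left _ _), ?_⟩
  intro x h
  have h1 := (convex_segment x (x + h)).norm_image_sub_le_of_norm_fderiv_le' (𝕜 := ℝ) (f := b)
    (φ := fderiv ℝ b x) (C := K2 * ‖h‖) (x := x) (y := x + h) ?_ ?_
    (left_mem_segment ℝ _ _) (right_mem_segment ℝ _ _)
  · rw [add_sub_cancel_left] at h1
    rw [← Real.norm_eq_abs]
    refine h1.trans ?_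
    calc (K2 : ℝ) * ‖h‖ * ‖h‖ = K2 * ‖h‖ ^ 2 := by ring
      _ ≤ max K1 K2 * ‖h‖ ^ 2 := by gcongr; exact le_max_right _ _
  · intro y _
    exact (hb.differentiable (by simp)) y
  · intro y hy
    have h2 := hK2.dist_le_mul y x
    rw [dist_eq_norm, dist_eq_norm] at h2
    refine h2.trans ?_
    gcongr
    rw [segment_eq_image'] at hy
    obtain ⟨t, ht, rfl⟩ := hy
    simp only [add_sub_cancel_left, norm_smul, Real.norm_eq_abs, abs_of_nonneg ht.1]
    exact mul_le_of_le_one_left (norm_nonneg _) ht.2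


/-- volume of the image side minus volume of the domain side, exactly -/
theorem area_exact {U : Set ℂ} (hU : IsOpen U) {φ : ℂ → ℝ}
    (hφ : Integrable φ) (h1 : ∀ z ∉ U, φ z = 1) :
    ∫ z in U, φ z = (∫ z, φ z) - (volume Uᶜ).toReal := by
  have h := integral_add_compl hU.measurableSet hφ
  have h2 : ∫ z in Uᶜ, φ z = (volume Uᶜ).toReal := by
    rw [setIntegral_congr_fun hU.measurableSet.compl (g := fun _ => (1 : ℝ)) (fun z hz => h1 z hz)]
    simp [Measure.real]
  linarith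

theorem isCompact_compl {U : Set ℂ} (hU : IsExteriorDomain U) : IsCompact Uᶜ := by
  obtain ⟨R, hR⟩ := hU.2.2
  refine Metric.isCompact_of_isClosed_isBounded hU.1.isClosed_compl
    ((isBounded_closedBall (x := (0 : ℂ)) (r := R)).subset fun z hz => ?_)
  rw [mem_closedBall_zero_iff]
  by_contra hcon
  exact hz (hR z (not_le.1 hcon))

/-- `f'` is square integrable on bounded parts of `U` -/
theorem integrable_deriv_sq {U : Set ℂ} (hU : IsExteriorDomain U) {f : ℂ → ℂ}
    (hf : DifferentiableOn ℂ f U) (hinj : InjOn f U)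
    (hinf : Tendsto f (cocompact ℂ) (cocompact ℂ)) (ρ : ℝ) :
    IntegrableOn (fun z => ‖deriv f z‖ ^ 2) (U ∩ ball 0 ρ) := by
  have hO : IsOpen (U ∩ ball (0 : ℂ) ρ) := hU.1.inter isOpen_ball
  have h := (Crest.Agent.R105.Pth_988.integrableOn_image hO (hf.mono inter_subset_left)
    (hinj.mono inter_subset_left) (fun _ => (1 : ℝ))).1 ?_
  · simpa using h
  · obtain ⟨M, -, hM⟩ := bdd_on hU hf hinj hinf ρ
    refine integrableOn_const (ne_of_lt ?_)
    refine (measure_mono (?_ : f '' (U ∩ ball (0 : ℂ) ρ) ⊆ closedBall 0 M)).trans_lt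
      measure_closedBall_lt_top
    rintro _ ⟨z, ⟨hz, hz'⟩, rfl⟩
    rw [mem_closedBall_zero_iff]
    exact hM z hz (mem_ball_zero_iff.1 hz').le


section Main

variable {U : Set ℂ} {f : ℂ → ℂ}

theorem integrableOn_of_bound (hU : IsExteriorDomain U)
    (hf : DifferentiableOn ℂ f U) (hinj : InjOn f U)
    (hinf : Tendsto f (cocompact ℂ) (cocompact ℂ)) {h : ℂ → ℝ} {ρ A : ℝ}
    (hm : ContinuousOn h U) (h0 : ∀ z ∈ U, z ∉ ball (0 : ℂ) ρ → h z = 0)
    (hb : ∀ z ∈ U, ‖z‖ < ρ → |h z| ≤ A * (‖deriv f z‖ ^ 2 + 1)) : IntegrableOn h U := by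
  have hO : IsOpen (U ∩ ball (0 : ℂ) ρ) := hU.1.inter isOpen_ball
  have h1 : IntegrableOn h (U ∩ ball 0 ρ) := by
    have hi : IntegrableOn (fun z => A * (‖deriv f z‖ ^ 2 + 1)) (U ∩ ball 0 ρ) := by
      refine Integrable.const_mul ?_ A
      refine (integrable_deriv_sq hU hf hinj hinf ρ).add ?_
      exact integrableOn_const (ne_of_lt ((measure_mono inter_subset_right).trans_lt
        measure_ball_lt_top))
    refine Integrable.mono' hi ((hm.mono inter_subset_left).aestronglyMeasurable hO.measurableSet) ?_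
    refine (ae_restrict_mem hO.measurableSet).mono fun z hz => ?_
    rw [Real.norm_eq_abs]
    exact hb z hz.1 (mem_ball_zero_iff.1 hz.2)
  refine h1.of_forall_sdiff_eq_zero hU.1.measurableSet fun z hz => ?_
  refine h0 z hz.1 fun hzb => hz.2 ⟨hz.1, hzb⟩

theorem norm_sub_one_sq_le (a : ℂ) : ‖a - 1‖ ^ 2 ≤ 2 * (‖a‖ ^ 2 + 1) := by
  have h := norm_sub_le a 1
  rw [norm_one] at h
  have h0 := norm_nonneg (a - 1)
  nlinarith [sq_nonneg (‖a‖ - 1), norm_nonneg a]

theorem abs_two_re_le (a : ℂ) : |2 * (a - 1).re| ≤ 3 * (‖a‖ ^ 2 + 1) := by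
  have h := Complex.abs_re_le_norm (a - 1)
  have h1 := norm_sub_le a 1
  rw [norm_one] at h1
  rw [abs_mul, abs_two]
  nlinarith [sq_nonneg (3 * ‖a‖ - 1), norm_nonneg a]

/-- the bump function at scale `R` -/
noncomputable def bmp (R : ℝ) (z : ℂ) : ℝ :=
  (⟨1, 2, by norm_num, by norm_num⟩ : ContDiffBump (0 : ℂ)) (R⁻¹ • z)

theorem bmp_contDiff (R : ℝ) : ContDiff ℝ ∞ (bmp R) :=
  (ContDiffBump.contDiff _).comp (contDiff_const_smul _)

theorem bmp_one {R : ℝ} (hR : 0 < R) {z : ℂ} (hz : ‖z‖ ≤ R) : bmp R z = 1 := by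
  refine ContDiffBump.one_of_mem_closedBall _ ?_
  rw [mem_closedBall_zero_iff, norm_smul, norm_inv, Real.norm_eq_abs, abs_of_pos hR,
    inv_mul_le_iff₀ hR]
  simpa using hz

theorem bmp_zero {R : ℝ} (hR : 0 < R) {z : ℂ} (hz : 2 * R ≤ ‖z‖) : bmp R z = 0 := by
  refine ContDiffBump.zero_of_le_dist _ ?_
  rw [dist_zero_right, norm_smul, norm_inv, Real.norm_eq_abs, abs_of_pos hR,
    le_inv_mul_iff₀ hR]
  linarith

theorem bmp_nonneg (R : ℝ) (z : ℂ) : 0 ≤ bmp R z := ContDiffBump.nonneg _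

theorem bmp_le_one (R : ℝ) (z : ℂ) : bmp R z ≤ 1 := ContDiffBump.le_one _

theorem bmp_compact {R : ℝ} (hR : 0 < R) : HasCompactSupport (bmp R) :=
  HasCompactSupport.intro (isCompact_closedBall (0 : ℂ) (2 * R)) fun z hz => by
    rw [mem_closedBall_zero_iff, not_le] at hz
    exact bmp_zero hR hz.le

theorem fderiv_bmp (R : ℝ) (z v : ℂ) : fderiv ℝ (bmp R) z v =
    fderiv ℝ (⟨1, 2, by norm_num, by norm_num⟩ : ContDiffBump (0 : ℂ)) (R⁻¹ • z) (R⁻¹ • v) := by
  have h1 : HasFDerivAt (bmp R)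
      ((fderiv ℝ (⟨1, 2, by norm_num, by norm_num⟩ : ContDiffBump (0 : ℂ)) (R⁻¹ • z)).comp
        (R⁻¹ • ContinuousLinearMap.id ℝ ℂ)) z := by
    refine HasFDerivAt.comp z (g := ((⟨1, 2, by norm_num, by norm_num⟩ : ContDiffBump (0 : ℂ)) :
      ℂ → ℝ)) ?_ ((hasFDerivAt_id z).const_smul R⁻¹)
    exact ((ContDiffBump.contDiff _ (n := 1)).differentiable (by norm_num) _).hasFDerivAt
  rw [h1.fderiv]
  rfl

theorem fderiv_bmp_zero_of_lt {R : ℝ} (hR : 0 < R) {z : ℂ} (hz : ‖z‖ < R) :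
    fderiv ℝ (bmp R) z = 0 := by
  have h : bmp R =ᶠ[𝓝 z] fun _ => 1 := by
    filter_upwards [(isOpen_lt continuous_norm continuous_const).mem_nhds hz] with w hw
    exact bmp_one hR (le_of_lt hw)
  rw [h.fderiv_eq]
  simp

theorem fderiv_bmp_zero_of_gt {R : ℝ} (hR : 0 < R) {z : ℂ} (hz : 2 * R < ‖z‖) :
    fderiv ℝ (bmp R) z = 0 := by
  have h : bmp R =ᶠ[𝓝 z] fun _ => 0 := by
    filter_upwards [(isOpen_lt continuous_const continuous_norm).mem_nhds hz] with w hw
    exact bmp_zero hR (le_of_lt hw)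
  rw [h.fderiv_eq]
  simp


theorem key (hU : IsExteriorDomain U)
    (hf : DifferentiableOn ℂ f U) (hinj : InjOn f U)
    (hinf : Tendsto (fun z => f z - z) (cocompact ℂ) (𝓝 0)) :
    ∃ K R0 : ℝ, 1 ≤ R0 ∧ ∀ R, R0 ≤ R →
      IntegrableOn (fun z => bmp R z * ‖deriv f z - 1‖ ^ 2) U ∧
      |(∫ z in U, bmp R z * ‖deriv f z - 1‖ ^ 2) +
        (∫ z in U, (bmp R z * (2 * (deriv f z - 1).re) + fderiv ℝ (bmp R) z (f z - z))) -
        ((volume Uᶜ).toReal - (volume (f '' U)ᶜ).toReal)| ≤ K / R ^ 2 := by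
  have hinf' := Red_828.tendsto_cocompact_of_tendsto_sub hinf
  obtain ⟨C, R1, hR1, hC, hdec⟩ := decay hU hf hinj hinf
  obtain ⟨M, hM0, hM⟩ := bdd_on hU hf hinj hinf' R1
  have hV := Red_828.exteriorDomain_image hU hf hinj hinf'
  obtain ⟨R2, hR2⟩ := hV.2.2
  obtain ⟨R3, hR3⟩ := hU.2.2
  obtain ⟨T, hT0, hT1, hT2⟩ := taylor2
    (b := (⟨1, 2, by norm_num, by norm_num⟩ : ContDiffBump (0 : ℂ)))
    (ContDiffBump.contDiff _) (ContDiffBump.hasCompactSupport _)
  refine ⟨360 * π * T * C ^ 2, 2 * R1 + 2 * C + M + |R2| + |R3| + 1, ?_, fun R hR => ?_⟩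
  · have := abs_nonneg R2
    have := abs_nonneg R3
    linarith
  have hRR2 : R2 ≤ R := by
    have := le_abs_self R2
    have := abs_nonneg R3
    linarith
  have hRR3 : R3 ≤ R := by
    have := le_abs_self R3
    have := abs_nonneg R2
    linarith
  have hb2 := abs_nonneg R2
  have hb3 := abs_nonneg R3
  have hR0 : 0 < R := by linarith
  have hU1 : ∀ z ∉ U, bmp R z = 1 := by
    intro z hz
    refine bmp_one hR0 ?_
    by_contra hcon
    exact hz (hR3 z (by linarith [not_le.1 hcon]))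
  have hV1 : ∀ z ∉ f '' U, bmp R z = 1 := by
    intro z hz
    refine bmp_one hR0 ?_
    by_contra hcon
    exact hz (hR2 z (by linarith [not_le.1 hcon]))
  have hφi : Integrable (bmp R) :=
    (bmp_contDiff R).continuous.integrable_of_hasCompactSupport (bmp_compact hR0)
  have hd1 : ContinuousOn (deriv f) U := (hf.deriv hU.1).continuousOn
  have hbc : Continuous (bmp R) := (bmp_contDiff R).continuous
  -- bound of `f` for `‖z‖ ≤ R / 2`
  have hsmall : ∀ z ∈ U, ‖z‖ ≤ R / 2 → ‖f z‖ ≤ R := by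
    intro z hz hz2
    rcases le_or_gt ‖z‖ R1 with h | h
    · exact (hM z hz h).trans (by linarith)
    · have h1 := (hdec z h).2.1
      have h2 : C / ‖z‖ ≤ C := div_le_self hC (by linarith)
      have h3 := norm_sub_norm_le (f z) z
      linarith
  -- the three integrable pieces
  have i1 : IntegrableOn (fun z => ‖deriv f z‖ ^ 2 * bmp R (f z)) U :=
    (Crest.Agent.R105.Pth_988.integrableOn_image hU.1 hf hinj (bmp R)).1 hφi.integrableOn
  have i2 : IntegrableOn (bmp R) U := hφi.integrableOn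
  have i3 : IntegrableOn (fun z => bmp R z * ‖deriv f z - 1‖ ^ 2) U := by
    refine integrableOn_of_bound hU hf hinj hinf' (ρ := 2 * R) (A := 2)
      (hbc.continuousOn.mul ((hd1.sub continuousOn_const).norm.pow 2)) ?_ ?_
    · intro z _ hz
      rw [mem_ball_zero_iff, not_lt] at hz
      rw [bmp_zero hR0 hz, zero_mul]
    · intro z _ _
      rw [abs_mul, abs_of_nonneg (bmp_nonneg R z), abs_of_nonneg (sq_nonneg _)]
      have h1 := norm_sub_one_sq_le (deriv f z)
      have h2 := bmp_le_one R z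
      have h3 := bmp_nonneg R z
      nlinarith [sq_nonneg ‖deriv f z - 1‖]
  have hbound : ∃ G : ℝ, 0 ≤ G ∧ ∀ z ∈ U, ‖z‖ < 3 * R → ‖f z - z‖ ≤ G := by
    refine ⟨M + R1 + C, by linarith, fun z hz hz2 => ?_⟩
    rcases le_or_gt ‖z‖ R1 with h | h
    · have := norm_sub_le (f z) z
      linarith [hM z hz h]
    · have h1 := (hdec z h).2.1
      have h2 : C / ‖z‖ ≤ C := div_le_self hC (by linarith)
      linarith
  obtain ⟨G, hG0, hG⟩ := hbound
  have hDb : ∀ z v : ℂ, |fderiv ℝ (bmp R) z v| ≤ T * (R⁻¹ * ‖v‖) := by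
    intro z v
    rw [fderiv_bmp, ← Real.norm_eq_abs]
    refine (ContinuousLinearMap.le_opNorm _ _).trans ?_
    rw [norm_smul, norm_inv, Real.norm_eq_abs, abs_of_pos hR0]
    gcongr
    exact hT1 _
  have hbcd : Continuous (fderiv ℝ (bmp R)) := (bmp_contDiff R).continuous_fderiv (by simp)
  have i4 : IntegrableOn
      (fun z => bmp R z * (2 * (deriv f z - 1).re) + fderiv ℝ (bmp R) z (f z - z)) U := by
    refine integrableOn_of_bound hU hf hinj hinf' (ρ := 3 * R) (A := 3 + T * (R⁻¹ * G))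
      ?_ ?_ ?_
    · refine (hbc.continuousOn.mul (continuousOn_const.mul ?_)).add ?_
      · exact Complex.continuous_re.comp_continuousOn (hd1.sub continuousOn_const)
      · exact hbcd.continuousOn.clm_apply (hf.continuousOn.sub continuousOn_id)
    · intro z _ hz
      rw [mem_ball_zero_iff, not_lt] at hz
      rw [bmp_zero hR0 (by linarith), zero_mul, fderiv_bmp_zero_of_gt hR0 (by linarith)]
      simp
    · intro z hz hz2
      refine (abs_add_le _ _).trans ?_
      have h1 := abs_two_re_le (deriv f z)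
      have h2 : |bmp R z * (2 * (deriv f z - 1).re)| ≤ 3 * (‖deriv f z‖ ^ 2 + 1) := by
        rw [abs_mul, abs_of_nonneg (bmp_nonneg R z)]
        have h3 := bmp_le_one R z
        have h4 := bmp_nonneg R z
        nlinarith [abs_nonneg (2 * (deriv f z - 1).re)]
      have h3 := hDb z (f z - z)
      have h4 : T * (R⁻¹ * ‖f z - z‖) ≤ T * (R⁻¹ * G) := by
        gcongr
        exact hG z hz hz2
      have h5 : 0 ≤ T * (R⁻¹ * G) := by positivity
      nlinarith [sq_nonneg ‖deriv f z‖]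
  refine ⟨i3, ?_⟩
  -- the error term
  set E : ℂ → ℝ := fun z => ‖deriv f z‖ ^ 2 * bmp R (f z) - bmp R z -
    (bmp R z * ‖deriv f z - 1‖ ^ 2 +
      (bmp R z * (2 * (deriv f z - 1).re) + fderiv ℝ (bmp R) z (f z - z))) with hE
  have hEeq : ∀ z, E z = ‖deriv f z‖ ^ 2 * (bmp R (f z) - bmp R z) -
      fderiv ℝ (bmp R) z (f z - z) := by
    intro z
    have h1 := norm_sq_eq (deriv f z)
    simp only [hE]
    have h2 : ‖deriv f z‖ ^ 2 * bmp R z =
      bmp R z + bmp R z * (2 * (deriv f z - 1).re) + bmp R z * ‖deriv f z - 1‖ ^ 2 := by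
      rw [h1]; ring
    linarith
  have hE1 : ∀ z ∈ U, ‖z‖ < R / 2 → E z = 0 := by
    intro z hz hz2
    rw [hEeq, bmp_one hR0 (hsmall z hz hz2.le), bmp_one hR0 (by linarith),
      fderiv_bmp_zero_of_lt hR0 (by linarith)]
    simp
  have hE2 : ∀ z ∈ U, 3 * R ≤ ‖z‖ → E z = 0 := by
    intro z hz hz2
    have h1 := (hdec z (by linarith)).2.1
    have h2 : C / ‖z‖ ≤ C := div_le_self hC (by linarith)
    have h3 := norm_sub_norm_le z (f z)
    rw [norm_sub_rev] at h3
    rw [hEeq, bmp_zero hR0 (by linarith), bmp_zero hR0 (by linarith),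
      fderiv_bmp_zero_of_gt hR0 (by linarith)]
    simp
  have hE3 : ∀ z ∈ U, R / 2 ≤ ‖z‖ → |E z| ≤ 40 * T * C ^ 2 / R ^ 4 := by
    intro z hz hz2
    have hz1 : R1 < ‖z‖ := by linarith
    obtain ⟨-, h1, h2⟩ := hdec z hz1
    have hzpos : 0 < ‖z‖ := by linarith
    set g : ℂ := f z - z with hg
    have h1' : ‖g‖ ≤ 2 * C / R := by
      refine h1.trans ?_
      rw [div_le_div_iff₀ hzpos hR0]
      nlinarith
    have h2' : ‖deriv f z - 1‖ ≤ 4 * C / R ^ 2 := by
      refine h2.trans ?_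
      rw [div_le_div_iff₀ (by positivity) (by positivity)]
      have h3 : R ^ 2 ≤ 4 * ‖z‖ ^ 2 := by nlinarith
      nlinarith
    have h3 : 4 * C / R ^ 2 ≤ 1 := by
      rw [div_le_one (by positivity)]
      nlinarith
    have h4 : ‖deriv f z‖ ≤ 2 := by
      have := norm_sub_norm_le (deriv f z) 1
      rw [norm_one] at this
      linarith
    have h5 : |‖deriv f z‖ - 1| ≤ 4 * C / R ^ 2 := by
      have := abs_norm_sub_norm_le (deriv f z) 1
      rw [norm_one] at this
      exact this.trans h2'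
    have h6 : |‖deriv f z‖ ^ 2 - 1| ≤ 12 * C / R ^ 2 := by
      have e : ‖deriv f z‖ ^ 2 - 1 = (‖deriv f z‖ - 1) * (‖deriv f z‖ + 1) := by ring
      rw [e, abs_mul, abs_of_nonneg (by positivity : 0 ≤ ‖deriv f z‖ + 1)]
      calc |‖deriv f z‖ - 1| * (‖deriv f z‖ + 1) ≤ (4 * C / R ^ 2) * 3 := by
            gcongr; linarith
        _ = 12 * C / R ^ 2 := by ring
    have hh : ‖R⁻¹ • g‖ ≤ 2 * C / R ^ 2 := by
      rw [norm_smul, norm_inv, Real.norm_eq_abs, abs_of_pos hR0]
      calc R⁻¹ * ‖g‖ ≤ R⁻¹ * (2 * C / R) := by gcongr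
        _ = 2 * C / R ^ 2 := by field_simp
    have h7 : |bmp R (f z) - bmp R z - fderiv ℝ (bmp R) z g| ≤ T * (2 * C / R ^ 2) ^ 2 := by
      have h8 := hT2 (R⁻¹ • z) (R⁻¹ • g)
      have e : R⁻¹ • z + R⁻¹ • g = R⁻¹ • f z := by rw [← smul_add, hg]; congr 1; ring
      rw [e] at h8
      rw [fderiv_bmp]
      refine h8.trans ?_
      gcongr
    have h9 : |fderiv ℝ (bmp R) z g| ≤ T * (2 * C / R ^ 2) := by
      refine (hDb z g).trans ?_
      rw [norm_smul, norm_inv, Real.norm_eq_abs, abs_of_pos hR0] at hh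
      gcongr
    have e : E z = ‖deriv f z‖ ^ 2 * (bmp R (f z) - bmp R z - fderiv ℝ (bmp R) z g) +
        (‖deriv f z‖ ^ 2 - 1) * fderiv ℝ (bmp R) z g := by
      rw [hEeq]; ring
    rw [e]
    refine (abs_add_le _ _).trans ?_
    rw [abs_mul, abs_mul, abs_of_nonneg (sq_nonneg ‖deriv f z‖)]
    have h10 : ‖deriv f z‖ ^ 2 ≤ 4 := by nlinarith [norm_nonneg (deriv f z)]
    calc ‖deriv f z‖ ^ 2 * |bmp R (f z) - bmp R z - fderiv ℝ (bmp R) z g| +
        |‖deriv f z‖ ^ 2 - 1| * |fderiv ℝ (bmp R) z g|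
        ≤ 4 * (T * (2 * C / R ^ 2) ^ 2) + (12 * C / R ^ 2) * (T * (2 * C / R ^ 2)) := by
          gcongr
      _ = 40 * T * C ^ 2 / R ^ 4 := by field_simp; ring
  have hEint : |∫ z in U, E z| ≤ 360 * π * T * C ^ 2 / R ^ 2 := by
    have h1 : ∫ z in U, E z = ∫ z in U ∩ ball 0 (3 * R), E z := by
      refine setIntegral_eq_of_subset_of_forall_sdiff_eq_zero hU.1.measurableSet inter_subset_left ?_
      rintro z ⟨hz, hz'⟩
      refine hE2 z hz ?_
      by_contra hcon
      exact hz' ⟨hz, mem_ball_zero_iff.2 (not_le.1 hcon)⟩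
    rw [h1, ← Real.norm_eq_abs]
    have hfin : volume (U ∩ ball (0 : ℂ) (3 * R)) < ⊤ :=
      (measure_mono inter_subset_right).trans_lt measure_ball_lt_top
    have h2 := norm_setIntegral_le_of_norm_le_const (μ := volume)
      (s := U ∩ ball (0 : ℂ) (3 * R)) (f := E) (C := 40 * T * C ^ 2 / R ^ 4) hfin (by
        intro z hz
        rw [Real.norm_eq_abs]
        rcases lt_or_ge ‖z‖ (R / 2) with h | h
        · rw [hE1 z hz.1 h, abs_zero]; positivity
        · exact hE3 z hz.1 h)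
    refine h2.trans ?_
    have h3 : volume.real (U ∩ ball (0 : ℂ) (3 * R)) ≤ 9 * π * R ^ 2 := by
      have h4 : volume.real (U ∩ ball (0 : ℂ) (3 * R)) ≤ volume.real (ball (0 : ℂ) (3 * R)) :=
        measureReal_mono inter_subset_right measure_ball_lt_top.ne
      refine h4.trans (le_of_eq ?_)
      rw [Measure.real, Complex.volume_ball, ENNReal.toReal_mul, ENNReal.toReal_pow,
        ENNReal.toReal_ofReal (by positivity)]
      simp
      ring
    calc 40 * T * C ^ 2 / R ^ 4 * volume.real (U ∩ ball (0 : ℂ) (3 * R))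
        ≤ 40 * T * C ^ 2 / R ^ 4 * (9 * π * R ^ 2) := by gcongr
      _ = 360 * π * T * C ^ 2 / R ^ 2 := by field_simp; ring
  have hsplit : ∫ z in U, E z = (∫ z in U, ‖deriv f z‖ ^ 2 * bmp R (f z)) - (∫ z in U, bmp R z) -
      ((∫ z in U, bmp R z * ‖deriv f z - 1‖ ^ 2) +
        ∫ z in U, (bmp R z * (2 * (deriv f z - 1).re) + fderiv ℝ (bmp R) z (f z - z))) := by
    have a1 := integral_add i3 i4
    have a2 := integral_sub i1 i2
    have a3 := integral_sub (i1.sub i2) (i3.add i4)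
    simp only [Pi.sub_apply, Pi.add_apply] at a3
    rw [← a1, ← a2, ← a3]
  have hV2 : ∫ z in U, ‖deriv f z‖ ^ 2 * bmp R (f z) =
      (∫ z, bmp R z) - (volume (f '' U)ᶜ).toReal := by
    rw [← Crest.Agent.R105.Pth_988.integral_image hU.1 hf hinj (bmp R)]
    exact area_exact hV.1 hφi hV1
  have hU2 : ∫ z in U, bmp R z = (∫ z, bmp R z) - (volume Uᶜ).toReal :=
    area_exact hU.1 hφi hU1
  rw [hsplit, hV2, hU2] at hEint
  rw [abs_sub_comm]
  refine le_trans (le_of_eq ?_) hEint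
  congr 1
  ring

/-- **End of S0139** ((5) of #9406 / #9417): area identity + flux inequality ==> `f = z`. -/
theorem eq_id_of_flux (hU : IsExteriorDomain U)
    (hf : DifferentiableOn ℂ f U) (hinj : InjOn f U)
    (hinf : Tendsto (fun z => f z - z) (cocompact ℂ) (𝓝 0)) {ι : Type*} (r r' : ι → ℝ)
    (hs : Summable fun i => r i ^ 2) (hs' : Summable fun i => r' i ^ 2)
    (hA : (volume Uᶜ).toReal ≤ π * ∑' i, r i ^ 2)
    (hA' : π * ∑' i, r' i ^ 2 ≤ (volume (f '' U)ᶜ).toReal)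
    (hflux : ∀ᶠ R : ℝ in atTop, ∀ φ : ℂ → ℝ, ContDiff ℝ ∞ φ → HasCompactSupport φ →
      (∀ z, ‖z‖ ≤ R → φ z = 1) → -(2 * π * ∑' i, r i * (r' i - r i)) ≤
        ∫ z in U, (φ z * (2 * (deriv f z - 1).re) + fderiv ℝ φ z (f z - z))) :
    ∀ z ∈ U, f z = z := by
  obtain ⟨K, R0, hR0, hK⟩ := key hU hf hinj hinf
  obtain ⟨R1, hR1⟩ := eventually_atTop.1 hflux
  have hrr : Summable fun i => r i * r' i := by
    refine Summable.of_norm_bounded (g := fun i => r i ^ 2 + r' i ^ 2) (hs.add hs') fun i => ?_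
    rw [Real.norm_eq_abs, abs_le]
    constructor <;> nlinarith [sq_nonneg (r i + r' i), sq_nonneg (r i - r' i)]
  have hrr2 : Summable fun i => r i * (r' i - r i) := by
    have : (fun i => r i * (r' i - r i)) = fun i => r i * r' i - r i ^ 2 := by
      ext i; ring
    rw [this]
    exact hrr.sub hs
  -- elementary: π Σ r² - π Σ r'² + 2 π Σ r (r' - r) ≤ 0
  have helem : (∑' i, r i ^ 2) - (∑' i, r' i ^ 2) + 2 * ∑' i, r i * (r' i - r i) ≤ 0 := by
    rw [← hs.tsum_sub hs', ← tsum_mul_left, ← (hs.sub hs').tsum_add (hrr2.mul_left 2)]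
    refine tsum_nonpos fun i => ?_
    nlinarith [sq_nonneg (r i - r' i)]
  have hle : ∀ R, max (max R0 R1) 1 ≤ R →
      ∫ z in U, bmp R z * ‖deriv f z - 1‖ ^ 2 ≤ K / R ^ 2 := by
    intro R hR
    have hRa : R0 ≤ R := ((le_max_left _ _).trans (le_max_left _ _)).trans hR
    have hRb : R1 ≤ R := ((le_max_right _ _).trans (le_max_left _ _)).trans hR
    have hRc : 1 ≤ R := (le_max_right _ _).trans hR
    obtain ⟨-, h1⟩ := hK R hRa
    have h2 := hR1 R hRb (bmp R) (bmp_contDiff R) (bmp_compact (by linarith))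
      (fun z hz => bmp_one (by linarith) hz)
    have h3 := (abs_le.1 h1).2
    have h4 : π * ((∑' i, r i ^ 2) - (∑' i, r' i ^ 2) + 2 * ∑' i, r i * (r' i - r i)) ≤ 0 :=
      mul_nonpos_of_nonneg_of_nonpos Real.pi_pos.le helem
    linarith
  have hd1 : ContinuousOn (deriv f) U := (hf.deriv hU.1).continuousOn
  have hzero : ∀ z ∈ U, deriv f z = 1 := by
    intro z0 hz0
    set ρ : ℝ := ‖z0‖ + 1 with hρ
    have hO : IsOpen (U ∩ ball (0 : ℂ) ρ) := hU.1.inter isOpen_ball
    have hz0' : z0 ∈ U ∩ ball (0 : ℂ) ρ := ⟨hz0, by rw [mem_ball_zero_iff]; linarith⟩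
    have hint : ∫ z in U ∩ ball 0 ρ, ‖deriv f z - 1‖ ^ 2 ≤ 0 := by
      have hev : ∀ R, max (max (max R0 R1) 1) ρ ≤ R →
          ∫ z in U ∩ ball 0 ρ, ‖deriv f z - 1‖ ^ 2 ≤ K / R ^ 2 := by
        intro R hR
        have hRa : max (max R0 R1) 1 ≤ R := (le_max_left _ _).trans hR
        have hRρ : ρ ≤ R := (le_max_right _ _).trans hR
        have hRc : 1 ≤ R := (le_max_right _ _).trans hRa
        refine le_trans ?_ (hle R hRa)
        have h5 : ∫ z in U ∩ ball 0 ρ, ‖deriv f z - 1‖ ^ 2 =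
            ∫ z in U ∩ ball 0 ρ, bmp R z * ‖deriv f z - 1‖ ^ 2 := by
          refine setIntegral_congr_fun hO.measurableSet fun z hz => ?_
          have : bmp R z = 1 := bmp_one (by linarith) ((mem_ball_zero_iff.1 hz.2).le.trans hRρ)
          simp only [this, one_mul]
        rw [h5]
        refine setIntegral_mono_set (hK R (((le_max_left _ _).trans (le_max_left _ _)).trans hRa)).1
          ?_ inter_subset_left.eventuallyLE
        exact Eventually.of_forall fun z => mul_nonneg (bmp_nonneg R z) (sq_nonneg _)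
      have ht : Tendsto (fun R : ℝ => K / R ^ 2) atTop (𝓝 0) :=
        (tendsto_pow_atTop (by norm_num)).const_div_atTop K
      exact ge_of_tendsto ht (eventually_atTop.2 ⟨_, hev⟩)
    have hi : IntegrableOn (fun z => ‖deriv f z - 1‖ ^ 2) (U ∩ ball 0 ρ) := by
      have h6 := (hK (max R0 ρ) (le_max_left _ _)).1.mono_set (inter_subset_left (t := ball 0 ρ))
      refine h6.congr_fun (fun z hz => ?_) hO.measurableSet
      have : bmp (max R0 ρ) z = 1 := bmp_one (by
        have := le_max_left R0 ρ; linarith) ((mem_ball_zero_iff.1 hz.2).le.trans (le_max_right _ _))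
      simp only [this, one_mul]
    have hae : (fun z => ‖deriv f z - 1‖ ^ 2) =ᵐ[volume.restrict (U ∩ ball 0 ρ)] 0 := by
      refine (integral_eq_zero_iff_of_nonneg (fun z => sq_nonneg _) hi).1 ?_
      exact le_antisymm hint (integral_nonneg fun z => sq_nonneg _)
    have hc : ContinuousOn (fun z => ‖deriv f z - 1‖ ^ 2) (U ∩ ball 0 ρ) :=
      ((hd1.sub continuousOn_const).norm.pow 2).mono inter_subset_left
    have h7 := Measure.eqOn_open_of_ae_eq hae hO hc continuousOn_const hz0'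
    have h8 : ‖deriv f z0 - 1‖ ^ 2 = 0 := h7
    exact sub_eq_zero.1 (norm_eq_zero.1 (pow_eq_zero_iff (by norm_num) |>.1 h8))
  -- so `f - z` is constant
  have hgd : DifferentiableOn ℂ (fun z => f z - z) U := hf.sub differentiableOn_id
  have hconst : ∀ z ∈ U, ∀ w ∈ U, f z - z = f w - w := by
    intro z hz w hw
    refine hU.1.is_const_of_deriv_eq_zero hU.2.1.isPreconnected hgd ?_ hz hw
    intro x hx
    have h5 : DifferentiableAt ℂ f x := (hf x hx).differentiableAt (hU.1.mem_nhds hx)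
    rw [show (fun w => f w - w) = f - id from rfl, deriv_sub h5 differentiableAt_id, deriv_id,
      hzero x hx]
    simp
  intro z hz
  have h9 : Tendsto (fun w => f w - w) (cocompact ℂ) (𝓝 (f z - z)) := by
    refine tendsto_const_nhds.congr' ?_
    obtain ⟨R, hR⟩ := hU.2.2
    have h4 : ∀ᶠ w : ℂ in cocompact ℂ, R < ‖w‖ :=
      (tendsto_norm_cocompact_atTop (E := ℂ)).eventually_gt_atTop R
    filter_upwards [h4] with w hw using hconst z hz w (hR w hw)
  exact sub_eq_zero.1 (tendsto_nhds_unique h9 hinf)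

end Main

end Crest.Agent.R105.End139_279
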