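import Mathlib
import Crest.Prelude.Def_CircleDomain

/-!
# Row 105 (S0139): RED, literal interfaces (helper557)

`BP` ([B] of helper775 #9469, as used) + `PlanP` (planarisation, helper449 #9406, helper897) ⟹
hypothesis of `Red_828.s0139_of`.
-/

set_option autoImplicit false

open Set Filter Metric Topology MeasureTheory
open Crest.AnalysisR

namespace Crest.Agent.R105.Rd_557

/-- `[B]`: a continuous, compactly supported function, locally Lipschitz with finite energy off a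
compact totally disconnected removable set, has zero mean gradient. -/
def BP : Prop := ∀ C : Set ℂ, IsCompact C → IsTotallyDisconnected C → IsConformallyRemovable C →
  ∀ v : ℂ → ℝ, Continuous v → HasCompactSupport v →
    (∀ z ∉ C, ∃ K : NNReal, ∃ t ∈ 𝓝 z, LipschitzOnWith K v t) →
    IntegrableOn (fun z => ‖fderiv ℝ v z‖ ^ 2) Cᶜ → ∀ e : ℂ, ∫ z in Cᶜ, fderiv ℝ v z e = 0

/-- A real function `v` on `ℂ` (the extension of a function on `U` by the "centre values" `m i` on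
the nondegenerate components, and by continuity on the dust). Components `closedBall (c i) (r i)`
with `0 < r i` (discs) or `0 < R i` (blown-up points); `R i` bounds the oscillation of `v`. -/
structure DatR (U : Set ℂ) (L : ℝ) {ι : Type} (c : ι → ℂ) (r : ι → ℝ) (m R : ι → ℝ)
    (v : ℂ → ℝ) : Prop where
  ext : IsExteriorDomain U
  hL : Uᶜ ⊆ closedBall 0 L
  cnt : Countable ι
  r0 : ∀ i, 0 ≤ r i
  R0 : ∀ i, 0 ≤ R i
  pos : ∀ i, 0 < r i ∨ 0 < R i
  comp : ∀ i, ∀ z ∈ closedBall (c i) (r i),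
    z ∉ U ∧ connectedComponentIn Uᶜ z = closedBall (c i) (r i)
  disj : Pairwise fun i j => Disjoint (closedBall (c i) (r i)) (closedBall (c j) (r j))
  dust : ∀ z ∉ U, (∀ i, z ∉ closedBall (c i) (r i)) →
    connectedComponentIn Uᶜ z = {z} ∧ ContinuousAt v z
  val : ∀ i, ∀ z ∈ closedBall (c i) (r i), v z = m i
  near : ∀ i, ∀ ε > 0, ∃ N : Set ℂ, IsOpen N ∧ closedBall (c i) (r i) ⊆ N ∧
    ∀ w ∈ N, |v w - m i| ≤ R i + ε
  diff : ContDiffOn ℝ 1 v U
  sr : Summable fun i => r i ^ 2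
  sR : Summable fun i => R i ^ 2

/-- the discs left untouched -/
def big {ι : Type} (c : ι → ℂ) (r : ι → ℝ) (s : Finset ι) : Set ℂ :=
  ⋃ i ∈ s, closedBall (c i) (r i)

/-- Output of the planarisation: `w z = Ψ z (v z)`. -/
structure PlanOut (U : Set ℂ) (L : ℝ) (v : ℂ → ℝ) (B : Set ℂ) (ε : ℝ) (C0 A : Set ℂ)
    (h : ℂ → ℝ) (Ψ : ℂ → ℝ → ℝ) : Prop where
  mono : ∀ z, Monotone (Ψ z)
  lip : ∀ z s t, s ≤ t → Ψ z t - Ψ z s ≤ t - s
  off : ∀ z ∉ A, ∀ s, Ψ z s = s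
  zero : ∀ z, Ψ z 0 = 0
  meas : ∀ s, Measurable fun z => Ψ z s
  cst : ∀ (s : ℝ) (η : ℂ → ℝ) (K : NNReal), LipschitzWith K η → HasCompactSupport η →
    ∀ e : ℂ, |∫ z, Ψ z s * fderiv ℝ η z e| ≤ ‖e‖ * ∫ z, |η z| * h z
  C0c : IsCompact (C0 ∪ B)
  C0B : Disjoint C0 B
  C0d : IsTotallyDisconnected C0
  C0f : C0 ⊆ frontier U
  cont : ContinuousOn (fun z => Ψ z (v z)) Bᶜ
  loc : ∀ z, z ∉ B → z ∉ C0 → ∃ K : NNReal, ∃ t ∈ 𝓝 z,
    LipschitzOnWith K (fun z => Ψ z (v z)) t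
  derU : ∀ᵐ z, z ∈ U → ‖fderiv ℝ (fun z => Ψ z (v z)) z - fderiv ℝ v z‖ ≤
    A.indicator (fun z => ‖fderiv ℝ v z‖) z + h z
  derC : ∀ᵐ z, z ∉ U → z ∉ B → ‖fderiv ℝ (fun z => Ψ z (v z)) z‖ ≤ h z
  Am : MeasurableSet A
  Av : volume A ≤ ENNReal.ofReal ε
  AL : A ⊆ closedBall 0 (3 * L + 1)
  hm : Measurable h
  h0 : ∀ z, 0 ≤ h z
  hA : ∀ z ∉ A, h z = 0
  h1 : ∫ z, h z ≤ ε
  h2 : Integrable (fun z => h z ^ 2)

/-- **PLAN** (helper897): for every finite set `s0` of components there is a finite `s ⊇ s0` of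
nondegenerate discs (all blown-up points are treated), and a planarisation with small data. -/
def PlanP : Prop := ∀ {U : Set ℂ} {L : ℝ} {ι : Type} {c : ι → ℂ} {r : ι → ℝ} {m R : ι → ℝ}
  {v : ℂ → ℝ}, DatR U L c r m R v → volume (frontier U) = 0 →
    ∀ ε > 0, ∃ s0 : Finset ι, (∀ i ∈ s0, 0 < r i) ∧ ∀ s : Finset ι, s0 ⊆ s → (∀ i ∈ s, 0 < r i) →
      ∃ (C0 A : Set ℂ) (h : ℂ → ℝ) (Ψ : ℂ → ℝ → ℝ), PlanOut U L v (big c r s) ε C0 A h Ψ

/-- The data of the conformal map `f : U → V` (normalised at infinity) on the components. `F` is the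
extension of `f` by the centres of the image components. -/
structure Dat (U : Set ℂ) (f : ℂ → ℂ) (L : ℝ) {ι : Type} (c : ι → ℂ) (r : ι → ℝ) (c' : ι → ℂ)
    (R : ι → ℝ) (F : ℂ → ℂ) : Prop where
  re : DatR U L c r (fun i => (c' i).re) R (fun z => (F z).re)
  im : DatR U L c r (fun i => (c' i).im) R (fun z => (F z).im)
  hf : DifferentiableOn ℂ f U
  inj : InjOn f U
  inf : Tendsto (fun z => f z - z) (cocompact ℂ) (𝓝 0)
  eq : ∀ z ∈ U, F z = f z
  nearC : ∀ i, ∀ ε > 0, ∃ N : Set ℂ, IsOpen N ∧ closedBall (c i) (r i) ⊆ N ∧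
    ∀ w ∈ N, ‖F w - c' i‖ ≤ R i + ε
  en : ∀ T : ℝ, IntegrableOn (fun z => ‖deriv f z‖ ^ 2) (U ∩ closedBall 0 T)
  nul : volume (frontier U) = 0
  vol : ∀ z ∉ U, (∀ i, z ∉ closedBall (c i) (r i)) → z ∈ frontier U
  disj' : Pairwise fun i j => Disjoint (closedBall (c' i) (R i)) (closedBall (c' j) (R j))
  img : ∀ i, closedBall (c' i) (R i) ⊆ (f '' U)ᶜ

/-- **CEN**: the data exist. -/
def CenP : Prop := ∀ U V : Set ℂ, IsCircleDomainFinitePart U → IsCircleDomainFinitePart V →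
  IsConformallyRemovable (frontier U) → ∀ f : ℂ → ℂ, DifferentiableOn ℂ f U → InjOn f U →
    f '' U = V → Tendsto (fun z => f z - z) (cocompact ℂ) (𝓝 0) →
    ∃ (L : ℝ) (ι : Type) (c : ι → ℂ) (r : ι → ℝ) (c' : ι → ℂ) (R : ι → ℝ) (F : ℂ → ℂ),
      Dat U f L c r c' R F

/-- **FLUX** inequality (conclusion of BP + PLAN, input of END) -/
def Flux (U : Set ℂ) (f : ℂ → ℂ) {ι : Type} (r R : ι → ℝ) : Prop :=
  ∀ᶠ T : ℝ in atTop, ∀ φ : ℂ → ℝ, ContDiff ℝ 1 φ → HasCompactSupport φ →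
    (∀ z, ‖z‖ ≤ T → φ z = 1) →
    - (2 * Real.pi * ∑' i, r i * (R i - r i)) ≤
      ∫ z in U, (φ z * (2 * (deriv f z - 1).re) + fderiv ℝ φ z (f z - z))

def FluxP : Prop := BP → PlanP → ∀ {U : Set ℂ} {f : ℂ → ℂ} {L : ℝ} {ι : Type} {c : ι → ℂ}
  {r : ι → ℝ} {c' : ι → ℂ} {R : ι → ℝ} {F : ℂ → ℂ}, IsConformallyRemovable (frontier U) →
    Dat U f L c r c' R F → Flux U f r R

/-- **END** (helper279 / 985): area identity + flux inequality ⟹ `f = z`. -/
def EndP : Prop := ∀ {U : Set ℂ} {f : ℂ → ℂ} {ι : Type} {r R : ι → ℝ}, IsExteriorDomain U →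
  DifferentiableOn ℂ f U → InjOn f U → Tendsto (fun z => f z - z) (cocompact ℂ) (𝓝 0) →
  (Summable fun i => r i ^ 2) → (Summable fun i => R i ^ 2) →
  (volume Uᶜ).toReal ≤ Real.pi * ∑' i, r i ^ 2 →
  Real.pi * ∑' i, R i ^ 2 ≤ (volume (f '' U)ᶜ).toReal →
  Flux U f r R → ∀ z ∈ U, f z = z

/-- volumes from the data -/
theorem vol_le {U : Set ℂ} {f : ℂ → ℂ} {L : ℝ} {ι : Type} {c : ι → ℂ} {r : ι → ℝ} {c' : ι → ℂ}
    {R : ι → ℝ} {F : ℂ → ℂ} (D : Dat U f L c r c' R F) :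
    (volume Uᶜ).toReal ≤ Real.pi * ∑' i, r i ^ 2 := by
  have := D.re.cnt
  have h1 : Uᶜ ⊆ frontier U ∪ ⋃ i, closedBall (c i) (r i) := by
    intro z hz
    by_cases h : ∀ i, z ∉ closedBall (c i) (r i)
    · exact Or.inl (D.vol z hz h)
    · push Not at h
      obtain ⟨i, hi⟩ := h
      exact Or.inr (mem_iUnion.2 ⟨i, hi⟩)
  have h3 : Summable fun i => Real.pi * r i ^ 2 := D.re.sr.mul_left _
  have h2 : volume Uᶜ ≤ ∑' i, ENNReal.ofReal (Real.pi * r i ^ 2) := by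
    refine (measure_mono h1).trans ((measure_union_le _ _).trans ?_)
    rw [D.nul, zero_add]
    refine (measure_iUnion_le _).trans (ENNReal.tsum_le_tsum fun i => ?_)
    rw [Complex.volume_closedBall, ENNReal.ofReal_mul Real.pi_pos.le, mul_comm,
      ENNReal.ofReal_pow (D.re.r0 i)]
    refine mul_le_mul_left ?_ _
    rw [← NNReal.coe_real_pi, ENNReal.ofReal_coe_nnreal]
  rw [← ENNReal.ofReal_tsum_of_nonneg (fun i => by positivity) h3, tsum_mul_left] at h2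
  exact ENNReal.toReal_le_of_le_ofReal (by positivity) h2

theorem vol_ge {U : Set ℂ} {f : ℂ → ℂ} {L : ℝ} {ι : Type} {c : ι → ℂ} {r : ι → ℝ} {c' : ι → ℂ}
    {R : ι → ℝ} {F : ℂ → ℂ} (D : Dat U f L c r c' R F) (hV : IsExteriorDomain (f '' U)) :
    Real.pi * ∑' i, R i ^ 2 ≤ (volume (f '' U)ᶜ).toReal := by
  have := D.re.cnt
  have h3 : Summable fun i => Real.pi * R i ^ 2 := D.re.sR.mul_left _
  have h4 : volume (⋃ i, closedBall (c' i) (R i)) = ∑' i, ENNReal.ofReal (Real.pi * R i ^ 2) := by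
    rw [measure_iUnion D.disj' fun i => measurableSet_closedBall]
    congr 1
    funext i
    rw [Complex.volume_closedBall, ENNReal.ofReal_mul Real.pi_pos.le, mul_comm,
      ENNReal.ofReal_pow (D.re.R0 i)]
    congr 1
    rw [← NNReal.coe_real_pi, ENNReal.ofReal_coe_nnreal]
  have h5 : volume (⋃ i, closedBall (c' i) (R i)) ≤ volume (f '' U)ᶜ :=
    measure_mono (iUnion_subset D.img)
  have h6 : volume (f '' U)ᶜ ≠ ⊤ := by
    obtain ⟨T, hT⟩ := hV.2.2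
    have : (f '' U)ᶜ ⊆ closedBall 0 T := by
      intro z hz
      rw [mem_closedBall_zero_iff]
      by_contra h
      exact hz (hT z (not_le.1 h))
    exact ((measure_mono this).trans_lt measure_closedBall_lt_top).ne
  rw [h4, ← ENNReal.ofReal_tsum_of_nonneg (fun i => by positivity) h3, tsum_mul_left] at h5
  exact (ENNReal.ofReal_le_iff_le_toReal h6).1 h5

/-- **RED, assembly** -/
theorem red (hB : BP) (hP : PlanP) (hC : CenP) (hF : FluxP) (hE : EndP) :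
    ∀ U V : Set ℂ, IsCircleDomainFinitePart U → IsCircleDomainFinitePart V →
      IsConformallyRemovable (frontier U) → ∀ f : ℂ → ℂ, DifferentiableOn ℂ f U → InjOn f U →
      f '' U = V → Tendsto (fun z => f z - z) (cocompact ℂ) (𝓝 0) → ∀ z ∈ U, f z = z := by
  intro U V hU hV hr f hf hi hUV hinf
  obtain ⟨L, ι, c, r, c', R, F, D⟩ := hC U V hU hV hr f hf hi hUV hinf
  exact hE hU.1 hf hi hinf D.re.sr D.re.sR (vol_le D) (vol_ge D (hUV ▸ hV.1)) (hF hB hP hr D)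

end Crest.Agent.R105.Rd_557
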