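import Crest.Agent.R105.End139a_279
import Crest.Agent.R105.Rd0_557

/-!
# Row 105 (S0139): `EndP` of helper557's interface (helper279)
-/

set_option autoImplicit false

open Set Filter Metric MeasureTheory Topology
open scoped ContDiff
open Crest.AnalysisR

namespace Crest.Agent.R105.End139_279

theorem endP : Crest.Agent.R105.Rd_557.EndP := by
  intro U f ι r R hU hf hinj hinf hs hs' hA hA' hfl
  refine eq_id_of_flux hU hf hinj hinf r R hs hs' hA hA' ?_
  filter_upwards [hfl] with T hT φ hφ hc h1
  exact hT φ (hφ.of_le (by norm_cast)) hc h1

end Crest.Agent.R105.End139_279
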