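import Crest.Agent.R105.Lin4_642
import Crest.Agent.R105.Bvl4_31

/-!
# Row 105, S0138, node E13: `E13_499.ENDS` (the ends are real ends, BVL gives end limits)
-/

set_option autoImplicit false

open MeasureTheory Set Filter Topology Metric
open scoped ENNReal NNReal

namespace Crest.Agent.R105.End_411

open Tc_808
open Sqr_185 (sec)

variable {E L : Set ℂ} {t : ℝ}

theorem topF_eq (hL : IsCompact L) (hne : (sec L t).Nonempty) :
    E13_499.TopF E L t = Lin_642.topF E L t := by
  rw [Lin_642.topF_eq hL hne]; rfl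

theorem botF_eq (hL : IsCompact L) (hne : (sec L t).Nonempty) :
    E13_499.BotF E L t = Lin_642.botF E L t := by
  rw [Lin_642.botF_eq hL hne]; rfl

/-- for the measurable form of BVL -/
theorem ends_of (hE : IsCompact E) (L : Cmp E) :
    (∀ t ∈ Icc (Sqr_185.lo L.1) (Sqr_185.hi L.1),
      (E13_499.TopF E L.1 t).NeBot ∧ (E13_499.BotF E L.1 t).NeBot) ∧
    ∀ w : ℂ → ℝ, Bvl_31.BVL E w → ∃ wT wB : ℝ → ℝ, E13_499.EndsOf E L w wT wB := by
  have hL := L.isCompact hE
  refine ⟨fun t ht => ?_, fun w hw => ?_⟩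
  · have hne := Sqr_185.sec_nonempty hL L.preconn L.nonempty ht
    rw [topF_eq hL hne, botF_eq hL hne]
    exact ⟨Lin_642.topF_neBot hE L ht, Lin_642.botF_neBot hE L ht⟩
  · refine ⟨Lin_642.tp E L.1 w, Lin_642.bt E L.1 w, ?_⟩
    filter_upwards [Lin_642.ends hE hw L] with t ht hI
    have hI' := Ioo_subset_Icc_self hI
    have hne := Sqr_185.sec_nonempty hL L.preconn L.nonempty hI'
    rw [topF_eq hL hne, botF_eq hL hne]
    exact ht hI'

end Crest.Agent.R105.End_411
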