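import Mathlib
import Crest.Prelude.Def_CircleDomain

/-!
# Row 105, END, part 1 (helper642): topology of images of exterior domains

* `isPreconnected_norm_gt`: `{w | M < ‖w‖}` is preconnected.
* `isExteriorDomain_image`: the image of an exterior domain under an injective holomorphic
  function which tends to infinity at infinity is an exterior domain.
* `isClosed_iUnion_disc`, `compl_image_eq`: semicontinuous families of discs.
* `exists_mem_closure_of_component`: every component of `Uᶜ` meets `closure U`.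
* `exists_clopen_split`: components of compact sets are separated by clopen splits.
-/

open Set Filter Topology Metric Complex
open Crest.AnalysisR

namespace Crest.Agent.R105.End1_642

theorem isPreconnected_norm_gt (M : ℝ) : IsPreconnected {w : ℂ | M < ‖w‖} := by
  rcases lt_or_ge M 0 with hM | hM
  · have : {w : ℂ | M < ‖w‖} = univ := by
      ext w; simp only [mem_ofPred_eq, mem_univ, iff_true]; exact lt_of_lt_of_le hM (norm_nonneg _)
    rw [this]; exact isPreconnected_univ
  · have : {w : ℂ | M < ‖w‖} = (fun p : ℝ × ℝ => (p.1 : ℂ) * exp (p.2 * I)) ''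
        (Ioi M ×ˢ (univ : Set ℝ)) := by
      ext w
      constructor
      · intro hw
        refine ⟨(‖w‖, arg w), ⟨hw, mem_univ _⟩, ?_⟩
        simp only
        exact norm_mul_exp_arg_mul_I w
      · rintro ⟨⟨a, b⟩, ⟨ha, -⟩, rfl⟩
        simp only [mem_ofPred_eq, norm_mul, norm_exp_ofReal_mul_I, mul_one, norm_real,
          Real.norm_eq_abs]
        exact lt_of_lt_of_le ha (le_abs_self _)
    rw [this]
    refine (isPreconnected_Ioi.prod isPreconnected_univ).image _ ?_
    fun_prop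

/-- in `ℂ`, sequences whose images stay bounded under a function tending to infinity are
bounded -/
lemma exists_bound_of_tendsto_cocompact {f : ℂ → ℂ} (hinf : Tendsto f (cocompact ℂ) (cocompact ℂ))
    (C : ℝ) : ∃ B : ℝ, ∀ z, ‖f z‖ ≤ C → ‖z‖ ≤ B := by
  have h1 : (closedBall (0 : ℂ) C)ᶜ ∈ cocompact ℂ := (isCompact_closedBall _ _).compl_mem_cocompact
  have h2 := hinf h1
  rw [mem_map, mem_cocompact] at h2
  obtain ⟨t, ht, h3⟩ := h2
  obtain ⟨B, hB⟩ := ht.isBounded.subset_closedBall (0 : ℂ)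
  refine ⟨B, fun z hz => ?_⟩
  by_contra hcon
  have hzt : z ∈ tᶜ := fun h => hcon (by simpa using hB h)
  have := h3 hzt
  simp only [mem_preimage, mem_compl_iff, mem_closedBall_zero_iff] at this
  exact this hz

theorem isOpen_image_of_injOn {U : Set ℂ} (hU : IsOpen U) {f : ℂ → ℂ}
    (hf : DifferentiableOn ℂ f U) (hc : IsPreconnected U) (hinj : InjOn f U) {s : Set ℂ}
    (hs : s ⊆ U) (hso : IsOpen s) : IsOpen (f '' s) := by
  have han : AnalyticOnNhd ℂ f U := hf.analyticOnNhd hU
  rcases han.is_constant_or_isOpen hc with ⟨w, hw⟩ | h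
  · rcases s.eq_empty_or_nonempty with rfl | ⟨z, hz⟩
    · simp
    · exfalso
      have hzU := hs hz
      obtain ⟨ε, hε, hball⟩ := Metric.isOpen_iff.mp hU z hzU
      have hz' : z + (ε / 2 : ℝ) ∈ U := by
        apply hball
        rw [mem_ball, dist_eq_norm, add_sub_cancel_left, norm_real, Real.norm_eq_abs,
          abs_of_pos (by positivity)]
        linarith
      have := hinj hz' hzU ((hw _ hz').trans (hw _ hzU).symm)
      have h2 : ((ε / 2 : ℝ) : ℂ) = 0 := by simpa using this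
      rw [ofReal_eq_zero] at h2
      linarith
  · exact h s hs hso

theorem isExteriorDomain_image {U : Set ℂ} (hU : IsExteriorDomain U) {f : ℂ → ℂ}
    (hf : DifferentiableOn ℂ f U) (hinj : InjOn f U)
    (hinf : Tendsto f (cocompact ℂ) (cocompact ℂ)) : IsExteriorDomain (f '' U) := by
  obtain ⟨hUo, hUc, R, hR⟩ := hU
  refine ⟨isOpen_image_of_injOn hUo hf hUc.isPreconnected hinj Subset.rfl hUo,
    hUc.image f hf.continuousOn, ?_⟩
  have hpos : (0 : ℝ) ≤ |R| + 1 := by positivity
  have hV : {z : ℂ | |R| + 1 < ‖z‖} ⊆ U := fun z hz => hR z (by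
    have : |R| + 1 < ‖z‖ := hz
    linarith [le_abs_self R])
  have hS : sphere (0 : ℂ) (|R| + 1) ⊆ U := fun z hz => hR z (by
    rw [mem_sphere_zero_iff_norm] at hz
    linarith [le_abs_self R])
  obtain ⟨M, hM⟩ := ((isCompact_sphere (0 : ℂ) (|R| + 1)).image_of_continuousOn
    (hf.continuousOn.mono hS)).isBounded.subset_closedBall (0 : ℂ)
  refine ⟨M, ?_⟩
  have hVo : IsOpen {z : ℂ | |R| + 1 < ‖z‖} := isOpen_lt continuous_const continuous_norm
  have hA : IsOpen (f '' {z : ℂ | |R| + 1 < ‖z‖}) :=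
    isOpen_image_of_injOn hUo hf hUc.isPreconnected hinj hV hVo
  -- the image is closed in `{M < ‖w‖}`
  have hcl : closure (f '' {z : ℂ | |R| + 1 < ‖z‖}) ∩ {w : ℂ | M < ‖w‖} ⊆
      f '' {z : ℂ | |R| + 1 < ‖z‖} := by
    rintro w ⟨hw, hwM⟩
    obtain ⟨x, hx, hxw⟩ := mem_closure_iff_seq_limit.mp hw
    choose z hz hzx using hx
    obtain ⟨B, hB⟩ := exists_bound_of_tendsto_cocompact hinf (‖w‖ + 1)
    have hbd : ∀ᶠ n in atTop, z n ∈ closedBall (0 : ℂ) B := by
      have : ∀ᶠ n in atTop, ‖x n‖ < ‖w‖ + 1 := (hxw.norm).eventually_lt_const (by linarith)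
      filter_upwards [this] with n hn
      rw [mem_closedBall_zero_iff]
      apply hB
      rw [hzx]; exact hn.le
    obtain ⟨a, -, φ, hφ, hlim⟩ := (isCompact_closedBall (0 : ℂ) B).tendsto_subseq' hbd.frequently
    have ha : |R| + 1 ≤ ‖a‖ := ge_of_tendsto' hlim.norm (fun n => (hz (φ n)).le)
    have haU : a ∈ U := hR a (by linarith [le_abs_self R])
    have hfa : f a = w := by
      have h1 : Tendsto (fun n => f (z (φ n))) atTop (𝓝 (f a)) :=
        ((hf.differentiableAt (hUo.mem_nhds haU)).continuousAt.tendsto).comp hlim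
      have h2 : Tendsto (fun n => f (z (φ n))) atTop (𝓝 w) := by
        have := hxw.comp hφ.tendsto_atTop
        refine this.congr fun n => ?_
        simp [hzx]
      exact tendsto_nhds_unique h1 h2
    rcases ha.lt_or_eq with h | h
    · exact ⟨a, h, hfa⟩
    · exfalso
      have : f a ∈ closedBall (0 : ℂ) M := hM ⟨a, by rw [mem_sphere_zero_iff_norm]; exact h.symm, rfl⟩
      rw [hfa, mem_closedBall_zero_iff] at this
      have hwM' : M < ‖w‖ := hwM
      linarith
  -- nonempty intersection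
  have hne : ({w : ℂ | M < ‖w‖} ∩ f '' {z : ℂ | |R| + 1 < ‖z‖}).Nonempty := by
    have h1 : (closedBall (0 : ℂ) M)ᶜ ∈ cocompact ℂ := (isCompact_closedBall _ _).compl_mem_cocompact
    have h2 : (closedBall (0 : ℂ) (|R| + 1))ᶜ ∈ cocompact ℂ :=
      (isCompact_closedBall _ _).compl_mem_cocompact
    obtain ⟨z, hz1, hz2⟩ := Filter.nonempty_of_mem (inter_mem (mem_map.mp (hinf h1)) h2)
    refine ⟨f z, ?_, z, ?_, rfl⟩
    · simpa using hz1
    · simpa using hz2
  have hsub : {w : ℂ | M < ‖w‖} ⊆ f '' {z : ℂ | |R| + 1 < ‖z‖} := by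
    refine (isPreconnected_norm_gt M).subset_of_closure_inter_subset hA hne ?_
    exact hcl
  intro w hw
  obtain ⟨z, hz, rfl⟩ := hsub hw
  exact ⟨z, hV hz, rfl⟩

/-- the union of an upper semicontinuous family of closed discs over a compact set is closed -/
theorem isClosed_iUnion_disc {Y : Set ℂ} (hY : IsCompact Y) {c : ℂ → ℂ} {r : ℂ → ℝ}
    (h : ∀ z ∈ Y, ∀ ε > 0, ∀ᶠ u in 𝓝 z, u ∈ Y → closedBall (c u) (r u) ⊆ ball (c z) (r z + ε)) :
    IsClosed (⋃ z ∈ Y, closedBall (c z) (r z)) := by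
  rw [← isSeqClosed_iff_isClosed]
  intro x w hx hxw
  simp only [mem_iUnion, exists_prop] at hx
  choose z hz hzx using hx
  obtain ⟨a, ha, φ, hφ, hlim⟩ := hY.tendsto_subseq hz
  simp only [mem_iUnion, exists_prop]
  refine ⟨a, ha, ?_⟩
  rw [mem_closedBall]
  refine le_of_forall_pos_lt_add fun ε hε => ?_
  have h1 : ∀ᶠ n in atTop, x (φ n) ∈ closedBall (c a) (r a + ε / 2) := by
    filter_upwards [hlim.eventually (h a ha (ε / 2) (by positivity))] with n hn
    exact ball_subset_closedBall (hn (hz _) (hzx _))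
  have h2 : w ∈ closedBall (c a) (r a + ε / 2) :=
    isClosed_closedBall.mem_of_tendsto (hxw.comp hφ.tendsto_atTop) h1
  rw [mem_closedBall] at h2
  linarith

theorem compl_image_eq {U : Set ℂ} (hU : IsExteriorDomain U) {f : ℂ → ℂ}
    (hf : ContinuousOn f U)
    (hinf : Tendsto f (cocompact ℂ) (cocompact ℂ)) {c : ℂ → ℂ} {r : ℂ → ℝ}
    (h1 : ∀ z ∈ Uᶜ, Disjoint (f '' U) (closedBall (c z) (r z)))
    (h2 : ∀ z ∈ Uᶜ, ∀ ε > 0, ∀ᶠ u in 𝓝 z, (u ∈ U → dist (f u) (c z) < r z + ε) ∧
      (u ∈ Uᶜ → closedBall (c u) (r u) ⊆ ball (c z) (r z + ε)))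
    (h3 : Dense (f '' U ∪ ⋃ z ∈ Uᶜ, closedBall (c z) (r z))) :
    (f '' U)ᶜ = ⋃ z ∈ Uᶜ, closedBall (c z) (r z) := by
  obtain ⟨hUo, hUc, R, hR⟩ := hU
  have hYc : IsCompact Uᶜ := by
    refine Metric.isCompact_of_isClosed_isBounded hUo.isClosed_compl ?_
    refine (Metric.isBounded_closedBall (x := (0 : ℂ)) (r := R)).subset fun z hz => ?_
    rw [mem_closedBall_zero_iff]
    by_contra hcon
    exact hz (hR z (not_le.mp hcon))
  have hclD : IsClosed (⋃ z ∈ Uᶜ, closedBall (c z) (r z)) :=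
    isClosed_iUnion_disc hYc fun z hz ε hε => (h2 z hz ε hε).mono fun u hu => hu.2
  have hclosed : IsClosed (f '' U ∪ ⋃ z ∈ Uᶜ, closedBall (c z) (r z)) := by
    refine isClosed_of_closure_subset ?_
    rw [closure_union, hclD.closure_eq]
    refine union_subset ?_ subset_union_right
    intro w hw
    obtain ⟨x, hx, hxw⟩ := mem_closure_iff_seq_limit.mp hw
    choose z hz hzx using hx
    obtain ⟨B, hB⟩ := exists_bound_of_tendsto_cocompact hinf (‖w‖ + 1)
    have hbd : ∀ᶠ n in atTop, z n ∈ closedBall (0 : ℂ) B := by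
      have : ∀ᶠ n in atTop, ‖x n‖ < ‖w‖ + 1 := (hxw.norm).eventually_lt_const (by linarith)
      filter_upwards [this] with n hn
      rw [mem_closedBall_zero_iff]
      apply hB
      rw [hzx]; exact hn.le
    obtain ⟨a, -, φ, hφ, hlim⟩ := (isCompact_closedBall (0 : ℂ) B).tendsto_subseq' hbd.frequently
    have hxw' : Tendsto (fun n => f (z (φ n))) atTop (𝓝 w) := by
      refine (hxw.comp hφ.tendsto_atTop).congr fun n => ?_
      simp [hzx]
    by_cases haU : a ∈ U
    · left
      refine ⟨a, haU, ?_⟩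
      have h1 : Tendsto (fun n => f (z (φ n))) atTop (𝓝 (f a)) :=
        ((hf.continuousAt (hUo.mem_nhds haU)).tendsto).comp hlim
      exact tendsto_nhds_unique h1 hxw'
    · right
      simp only [mem_iUnion, exists_prop]
      refine ⟨a, haU, ?_⟩
      rw [mem_closedBall]
      refine le_of_forall_pos_lt_add fun ε hε => ?_
      have h4 : ∀ᶠ n in atTop, f (z (φ n)) ∈ closedBall (c a) (r a + ε / 2) := by
        filter_upwards [hlim.eventually (h2 a haU (ε / 2) (by positivity))] with n hn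
        rw [mem_closedBall]
        exact (hn.1 (hz _)).le
      have h5 : w ∈ closedBall (c a) (r a + ε / 2) := isClosed_closedBall.mem_of_tendsto hxw' h4
      rw [mem_closedBall] at h5
      linarith
  have huniv : f '' U ∪ ⋃ z ∈ Uᶜ, closedBall (c z) (r z) = univ := by
    rw [← hclosed.closure_eq]; exact h3.closure_eq
  apply Subset.antisymm
  · intro w hw
    have : w ∈ f '' U ∪ ⋃ z ∈ Uᶜ, closedBall (c z) (r z) := by rw [huniv]; trivial
    exact this.resolve_left hw
  · intro w hw hwU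
    simp only [mem_iUnion, exists_prop] at hw
    obtain ⟨z, hz, hwz⟩ := hw
    exact (disjoint_left.mp (h1 z hz)) hwU hwz

/-- every component of the complement of a nonempty open set meets the closure of the set -/
theorem exists_mem_closure_of_component {U : Set ℂ} (hUo : IsOpen U) (hne : U.Nonempty)
    {z : ℂ} (hz : z ∈ Uᶜ) : ∃ a ∈ connectedComponentIn Uᶜ z, a ∈ closure U := by
  obtain ⟨u, hu⟩ := hne
  set γ : ℝ → ℂ := fun t => z + t * (u - z) with hγ
  have hγc : Continuous γ := by fun_prop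
  set T : Set ℝ := Icc 0 1 ∩ γ ⁻¹' closure U with hT
  have hTc : IsCompact T := isCompact_Icc.inter_right (isClosed_closure.preimage hγc)
  have hTne : T.Nonempty := ⟨1, ⟨zero_le_one, le_rfl⟩, subset_closure (by simp [hγ, hu])⟩
  obtain ⟨t, ht⟩ := hTc.exists_isLeast hTne
  have hlt : ∀ s, 0 ≤ s → s < t → γ s ∈ Uᶜ := by
    intro s hs0 hst hsU
    have : s ∈ T := ⟨⟨hs0, (hst.trans_le ht.1.1.2).le⟩, subset_closure hsU⟩
    exact absurd (ht.2 this) (not_le.mpr hst)
  have htY : γ t ∈ Uᶜ := by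
    rcases ht.1.1.1.lt_or_eq with h | h
    · have : γ t ∈ closure (γ '' Ico 0 t) := by
        have h1 : t ∈ closure (Ico 0 t) := by
          rw [closure_Ico h.ne]; exact ⟨h.le, le_rfl⟩
        exact image_closure_subset_closure_image hγc ⟨t, h1, rfl⟩
      refine hUo.isClosed_compl.closure_subset_iff.mpr ?_ this
      rintro _ ⟨s, hs, rfl⟩
      exact hlt s hs.1 hs.2
    · rw [← h]; simpa [hγ] using hz
  have hsub : γ '' Icc 0 t ⊆ Uᶜ := by
    rintro _ ⟨s, hs, rfl⟩
    rcases hs.2.lt_or_eq with h | h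
    · exact hlt s hs.1 h
    · rw [h]; exact htY
  have hpre : IsPreconnected (γ '' Icc 0 t) := isPreconnected_Icc.image _ hγc.continuousOn
  have h0 : z ∈ γ '' Icc 0 t := ⟨0, ⟨le_rfl, ht.1.1.1⟩, by simp [hγ]⟩
  exact ⟨γ t, hpre.subset_connectedComponentIn h0 hsub ⟨t, ⟨ht.1.1.1, le_rfl⟩, rfl⟩, ht.1.2⟩

/-- components of compact sets are separated by splits into two compact sets -/
theorem exists_clopen_split {Y : Set ℂ} (hY : IsCompact Y) {z z' : ℂ} (hz : z ∈ Y) (hz' : z' ∈ Y)
    (h : z' ∉ connectedComponentIn Y z) :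
    ∃ Y1 Y2 : Set ℂ, IsCompact Y1 ∧ IsCompact Y2 ∧ Disjoint Y1 Y2 ∧ Y1 ∪ Y2 = Y ∧ z ∈ Y1 ∧
      z' ∈ Y2 := by
  have : CompactSpace Y := isCompact_iff_compactSpace.mp hY
  have h1 : (⟨z', hz'⟩ : Y) ∉ connectedComponent (⟨z, hz⟩ : Y) := by
    intro hcon
    apply h
    rw [connectedComponentIn_eq_image hz]
    exact ⟨_, hcon, rfl⟩
  rw [connectedComponent_eq_iInter_isClopen] at h1
  simp only [mem_iInter, not_forall] at h1
  obtain ⟨⟨C, hC, hzC⟩, hC'⟩ := h1
  refine ⟨Subtype.val '' C, Subtype.val '' Cᶜ, hC.isClosed.isCompact.image continuous_subtype_val,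
    hC.compl.isClosed.isCompact.image continuous_subtype_val, ?_, ?_, ⟨_, hzC, rfl⟩, ⟨_, hC', rfl⟩⟩
  · rw [disjoint_image_iff Subtype.val_injective]
    exact disjoint_compl_right
  · rw [← image_union, union_compl_self, image_univ, Subtype.range_coe]

end Crest.Agent.R105.End1_642
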