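import Mathlib
import Crest.Agent.Lib.InjHolo
import Crest.Agent.R165.Cl4_722

/-!
# Row 105, END, part 2 (helper642): the argument principle with a cut-off function

`χ` is a test function on `ℂ`, `S = tsupport (fderiv ℝ χ)`, `f` is holomorphic and injective on the
exterior domain `U ⊇ S` and tends to `∞` at `∞`.

* `stokes_hol`: `∫ deriv k · dbar χ = 0` if `k` is holomorphic near `S`.
* `Q χ f w0 = ∫ deriv f z / (f z - w0) * dbar χ z` is locally constant off `f '' S`.
* `Q_comp`: `Q χ f (f u) = - π χ u` for `u ∈ U \ S`.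
-/

open Set Filter Topology Metric Complex MeasureTheory
open scoped ContDiff
open Crest.Agent.R165.Cl1x722 Crest.Agent.R165.Cl3x722 Crest.Agent.R165.Cl4x722

namespace Crest.Agent.R105.End2_642

/-- smooth cut-off, equal to one near a compact set -/
theorem exists_cutoff {K W : Set ℂ} (hK : IsCompact K) (hW : IsOpen W) (hKW : K ⊆ W) :
    ∃ χ : ℂ → ℝ, ContDiff ℝ ∞ χ ∧ HasCompactSupport χ ∧ tsupport χ ⊆ W ∧
      (∀ᶠ y in 𝓝ˢ K, χ y = 1) ∧ ∀ y, χ y ∈ Icc (0 : ℝ) 1 := by
  obtain ⟨V, hVo, hKV, hVΩ, hVc⟩ := exists_open_between_and_isCompact_closure hK hW hKW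
  obtain ⟨f, hf1, hf0, hf⟩ := exists_contMDiffMap_one_nhds_of_subset_interior
    (modelWithCornersSelf ℝ ℂ) (n := (⊤ : ℕ∞)) hK.isClosed (t := V)
    (hKV.trans (interior_eq_iff_isOpen.mpr hVo).ge)
  have hsm : ContDiff ℝ ∞ (f : ℂ → ℝ) := f.contMDiff.contDiff
  have hts : tsupport (f : ℂ → ℝ) ⊆ closure V := by
    apply closure_mono
    intro x hx
    by_contra h
    exact hx (hf0 x h)
  have hcs : HasCompactSupport (f : ℂ → ℝ) := hVc.of_isClosed_subset isClosed_closure hts
  exact ⟨f, hsm, hcs, hts.trans hVΩ, hf1, hf⟩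

/-- the integral of the Jacobian of `(χ, K)` vanishes -/
theorem stokes {χ K : ℂ → ℂ} (h1 : ContDiff ℝ 1 χ) (h2 : HasCompactSupport χ)
    (hK : ContDiff ℝ 2 K) :
    ∫ z, (fderiv ℝ χ z I * fderiv ℝ K z 1 - fderiv ℝ χ z 1 * fderiv ℝ K z I) = 0 := by
  have hχc : Continuous (fderiv ℝ χ) := h1.continuous_fderiv one_ne_zero
  have hχs : HasCompactSupport (fderiv ℝ χ) := h2.fderiv (𝕜 := ℝ)
  have hK1 : ContDiff ℝ 1 (fderiv ℝ K) := hK.fderiv_right (by norm_num)
  have hK1d : Differentiable ℝ (fderiv ℝ K) := hK1.differentiable one_ne_zero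
  have hKc : Continuous (fderiv ℝ K) := hK1.continuous
  have hK2c : Continuous (fderiv ℝ (fderiv ℝ K)) := hK1.continuous_fderiv one_ne_zero
  have hd : ∀ (a b : ℂ) (z : ℂ), fderiv ℝ (fun z => fderiv ℝ K z a) z b =
      fderiv ℝ (fderiv ℝ K) z b a := by
    intro a b z
    have h3 : HasFDerivAt (fun z => fderiv ℝ K z a)
        ((ContinuousLinearMap.apply ℝ ℂ a).comp (fderiv ℝ (fderiv ℝ K) z)) z :=
      (ContinuousLinearMap.apply ℝ ℂ a).hasFDerivAt.comp z (hK1d z).hasFDerivAt
    rw [h3.fderiv]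
    rfl
  have hsymm : ∀ z, fderiv ℝ (fderiv ℝ K) z I 1 = fderiv ℝ (fderiv ℝ K) z 1 I := fun z =>
    (hK.contDiffAt (x := z)).isSymmSndFDerivAt (by simp) I 1
  have hib : ∀ a b : ℂ, ∫ z, χ z * fderiv ℝ (fderiv ℝ K) z b a =
      -∫ z, fderiv ℝ χ z b * fderiv ℝ K z a := by
    intro a b
    have hca : Continuous (fun z => fderiv ℝ K z a) := hKc.clm_apply continuous_const
    have hcab : Continuous (fun z => fderiv ℝ (fderiv ℝ K) z b a) :=
      (hK2c.clm_apply continuous_const).clm_apply continuous_const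
    have hcb : Continuous (fun z => fderiv ℝ χ z b) := hχc.clm_apply continuous_const
    have hsb : HasCompactSupport (fun z => fderiv ℝ χ z b) := by
      refine hχs.mono' ?_
      intro z hz
      apply subset_tsupport
      intro h
      exact hz (by simp [h])
    have e := integral_mul_fderiv_eq_neg_fderiv_mul_of_integrable (μ := volume) (f := χ)
      (g := fun z => fderiv ℝ K z a) (v := b)
      ((hcb.mul hca).integrable_of_hasCompactSupport hsb.mul_right)
      (by
        simp only [hd]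
        exact (h1.continuous.mul hcab).integrable_of_hasCompactSupport h2.mul_right)
      ((h1.continuous.mul hca).integrable_of_hasCompactSupport h2.mul_right)
      (fun z _ => h1.differentiable one_ne_zero z)
      (fun z _ => (hK1d z).clm_apply (differentiableAt_const a))
    simpa only [hd] using e
  have hint : ∀ a b : ℂ, Integrable (fun z => fderiv ℝ χ z b * fderiv ℝ K z a) := by
    intro a b
    have hca : Continuous (fun z => fderiv ℝ K z a) := hKc.clm_apply continuous_const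
    have hcb : Continuous (fun z => fderiv ℝ χ z b) := hχc.clm_apply continuous_const
    have hsb : HasCompactSupport (fun z => fderiv ℝ χ z b) := by
      refine hχs.mono' ?_
      intro z hz
      apply subset_tsupport
      intro h
      exact hz (by simp [h])
    exact (hcb.mul hca).integrable_of_hasCompactSupport hsb.mul_right
  rw [integral_sub (hint 1 I) (hint I 1)]
  have e1 := hib 1 I
  have e2 := hib I 1
  have e3 : (∫ z, χ z * fderiv ℝ (fderiv ℝ K) z I 1) = ∫ z, χ z * fderiv ℝ (fderiv ℝ K) z 1 I := by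
    congr 1; funext z; rw [hsymm z]
  rw [e3, e2] at e1
  linear_combination e1

lemma tsupport_dbar_subset_fderiv (χ : ℂ → ℂ) : tsupport (dbar χ) ⊆ tsupport (fderiv ℝ χ) := by
  refine closure_mono ?_
  intro z hz h
  exact hz (by simp [dbar, h])

lemma dbar_zero_of_notMem_fderiv {χ : ℂ → ℂ} {z : ℂ} (hz : z ∉ tsupport (fderiv ℝ χ)) :
    dbar χ z = 0 := by
  have : fderiv ℝ χ z = 0 := by
    by_contra h; exact hz (subset_tsupport _ h)
  simp [dbar, this]

/-- integrability of (holomorphic near `S`) times `dbar χ` -/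
lemma integrable_mul_dbar {O : Set ℂ} (hO : IsOpen O) {h χ : ℂ → ℂ} (hh : ContinuousOn h O)
    (h1 : ContDiff ℝ 1 χ) (h2 : HasCompactSupport χ) (h3 : tsupport (fderiv ℝ χ) ⊆ O) :
    Integrable (fun z => h z * dbar χ z) :=
  integrable_mul_test (hh.locallyIntegrableOn hO.measurableSet) (continuous_dbar h1)
    (hasCompactSupport_dbar h2) ((tsupport_dbar_subset_fderiv χ).trans h3)

theorem stokes_hol {χ k : ℂ → ℂ} (h1 : ContDiff ℝ 1 χ) (h2 : HasCompactSupport χ)
    {O : Set ℂ} (hO : IsOpen O) (hk : DifferentiableOn ℂ k O) (h3 : tsupport (fderiv ℝ χ) ⊆ O) :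
    ∫ z, deriv k z * dbar χ z = 0 := by
  have hSc : IsCompact (tsupport (fderiv ℝ χ)) := h2.fderiv (𝕜 := ℝ)
  obtain ⟨ρ, hρ, hρc, hρO, hρ1, -⟩ := exists_cutoff hSc hO h3
  set K : ℂ → ℂ := fun z => (ρ z : ℂ) * k z with hK
  have hKc : ContDiff ℝ 2 K := by
    rw [contDiff_iff_contDiffAt]
    intro z
    by_cases hz : z ∈ O
    · have hk' : ContDiffAt ℝ 2 k z :=
        ((hk.contDiffOn hO).contDiffAt (hO.mem_nhds hz)).restrict_scalars ℝ
      have hρ' : ContDiffAt ℝ 2 (fun z => (ρ z : ℂ)) z :=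
        (ofRealCLM.contDiff.comp (hρ.of_le (WithTop.coe_le_coe.2 le_top))).contDiffAt
      exact hρ'.mul hk'
    · have hz' : z ∉ tsupport ρ := fun h => hz (hρO h)
      have : K =ᶠ[𝓝 z] fun _ => 0 := by
        have h4 : ∀ᶠ y in 𝓝 z, y ∉ tsupport ρ := (isClosed_tsupport ρ).isOpen_compl.mem_nhds hz'
        filter_upwards [h4] with y hy
        simp only [hK, image_eq_zero_of_notMem_tsupport hy, ofReal_zero, zero_mul]
      exact contDiffAt_const.congr_of_eventuallyEq this
  have hst := stokes h1 h2 hKc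
  have hkey : ∀ z, fderiv ℝ χ z I * fderiv ℝ K z 1 - fderiv ℝ χ z 1 * fderiv ℝ K z I =
      (-2 * I) * (deriv k z * dbar χ z) := by
    intro z
    by_cases hz : z ∈ tsupport (fderiv ℝ χ)
    · have h5 : K =ᶠ[𝓝 z] k := by
        have h6 : ∀ᶠ y in 𝓝 z, ρ y = 1 := (nhds_le_nhdsSet hz) hρ1
        filter_upwards [h6] with y hy
        simp [hK, hy]
      have h7 : HasFDerivAt k ((fderiv ℂ k z).restrictScalars ℝ) z :=
        ((hk.differentiableAt (hO.mem_nhds (h3 hz))).hasFDerivAt).restrictScalars ℝ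
      have h8 : fderiv ℝ K z = (fderiv ℂ k z).restrictScalars ℝ := by
        rw [h5.fderiv_eq, h7.fderiv]
      rw [h8]
      have h9 : ∀ e : ℂ, ((fderiv ℂ k z).restrictScalars ℝ) e = deriv k z * e := by
        intro e; simp [mul_comm]
      rw [h9, h9, dbar]
      linear_combination (deriv k z * fderiv ℝ χ z I) * I_mul_I
    · have h0 : fderiv ℝ χ z = 0 := by
        by_contra h; exact hz (subset_tsupport _ h)
      rw [dbar_zero_of_notMem_fderiv hz, h0]
      simp
  rw [integral_congr_ae (Eventually.of_forall hkey), integral_const_mul] at hst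
  have hI : (-2 * I : ℂ) ≠ 0 := by simp
  exact (mul_eq_zero.mp hst).resolve_left hI

/-- `∫ (h'/h) dbar χ = 0` if `h` is holomorphic and close to one near `S` -/
theorem log_const {χ h : ℂ → ℂ} (h1 : ContDiff ℝ 1 χ) (h2 : HasCompactSupport χ)
    {O : Set ℂ} (hO : IsOpen O) (hh : DifferentiableOn ℂ h O) (h3 : tsupport (fderiv ℝ χ) ⊆ O)
    (h4 : ∀ z ∈ O, ‖h z - 1‖ < 1) :
    ∫ z, (deriv h z / h z) * dbar χ z = 0 := by
  have hslit : ∀ z ∈ O, h z ∈ slitPlane := by
    intro z hz
    apply Complex.ball_one_subset_slitPlane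
    rw [mem_ball, dist_eq_norm]; exact h4 z hz
  have hk : DifferentiableOn ℂ (fun z => log (h z)) O := fun z hz =>
    (hh z hz).clog (hslit z hz)
  have := stokes_hol h1 h2 hO hk h3
  rw [← this]
  refine integral_congr_ae (Eventually.of_forall fun z => ?_)
  by_cases hz : z ∈ tsupport (fderiv ℝ χ)
  · have hzO := h3 hz
    have hd : HasDerivAt h (deriv h z) z := (hh.differentiableAt (hO.mem_nhds hzO)).hasDerivAt
    have : deriv (fun z => log (h z)) z = deriv h z / h z := (hd.clog (hslit z hzO)).deriv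
    simp only [this]
  · simp only [dbar_zero_of_notMem_fderiv hz, mul_zero]

/-- the logarithmic integral -/
noncomputable def Q (χ f : ℂ → ℂ) (w0 : ℂ) : ℂ := ∫ z, deriv f z / (f z - w0) * dbar χ z

theorem Q_locconst {χ f : ℂ → ℂ} (h1 : ContDiff ℝ 1 χ) (h2 : HasCompactSupport χ)
    {U : Set ℂ} (hU : IsOpen U) (hf : DifferentiableOn ℂ f U) (h3 : tsupport (fderiv ℝ χ) ⊆ U)
    {w0 : ℂ} (hw0 : w0 ∉ f '' tsupport (fderiv ℝ χ)) : ∀ᶠ w1 in 𝓝 w0, Q χ f w1 = Q χ f w0 := by
  have hSc : IsCompact (tsupport (fderiv ℝ χ)) := h2.fderiv (𝕜 := ℝ)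
  have hfS : IsClosed (f '' tsupport (fderiv ℝ χ)) :=
    (hSc.image_of_continuousOn (hf.continuousOn.mono h3)).isClosed
  obtain ⟨δ, hδ, hball⟩ := Metric.isOpen_iff.mp hfS.isOpen_compl w0 hw0
  filter_upwards [ball_mem_nhds w0 (half_pos hδ)] with w1 hw1
  rw [mem_ball, dist_eq_norm] at hw1
  set O : Set ℂ := U ∩ f ⁻¹' {w | δ / 2 < ‖w - w0‖} with hOdef
  have hO : IsOpen O := hf.continuousOn.isOpen_inter_preimage hU
    (isOpen_lt continuous_const (by fun_prop))
  have hSO : tsupport (fderiv ℝ χ) ⊆ O := by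
    intro z hz
    refine ⟨h3 hz, ?_⟩
    by_contra hcon
    simp only [mem_preimage, mem_ofPred_eq, not_lt] at hcon
    have : f z ∈ ball w0 δ := by rw [mem_ball, dist_eq_norm]; linarith
    exact hball this ⟨z, hz, rfl⟩
  have hne : ∀ z ∈ O, f z - w0 ≠ 0 := by
    intro z hz h0
    have := hz.2
    simp only [mem_preimage, mem_ofPred_eq, h0, norm_zero] at this
    linarith
  have hne' : ∀ z ∈ O, f z - w1 ≠ 0 := by
    intro z hz h0
    have := hz.2
    simp only [mem_preimage, mem_ofPred_eq] at this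
    have e : f z - w0 = w1 - w0 := by linear_combination h0
    rw [e] at this
    linarith
  have hfO : DifferentiableOn ℂ f O := hf.mono inter_subset_left
  have hfd : ContinuousOn (deriv f) O := ((hf.deriv hU).continuousOn).mono inter_subset_left
  set h : ℂ → ℂ := fun z => (f z - w1) / (f z - w0) with hh
  have hhd : DifferentiableOn ℂ h O :=
    (hfO.sub_const w1).div (hfO.sub_const w0) hne
  have hclose : ∀ z ∈ O, ‖h z - 1‖ < 1 := by
    intro z hz
    have e : h z - 1 = (w0 - w1) / (f z - w0) := by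
      simp only [hh]
      rw [div_sub_one (hne z hz)]
      congr 1; ring
    rw [e, norm_div, div_lt_one (norm_pos_iff.mpr (hne z hz)), norm_sub_rev]
    exact hw1.trans hz.2
  have hlog := log_const h1 h2 hO hhd hSO hclose
  have hi : ∀ w : ℂ, (∀ z ∈ O, f z - w ≠ 0) →
      Integrable (fun z => deriv f z / (f z - w) * dbar χ z) := fun w hw =>
    integrable_mul_dbar hO (hfd.div (hfO.continuousOn.sub continuousOn_const) hw) h1 h2 hSO
  rw [← sub_eq_zero, Q, Q, ← integral_sub (hi w1 hne') (hi w0 hne), ← hlog]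
  refine integral_congr_ae (Eventually.of_forall fun z => ?_)
  by_cases hz : z ∈ tsupport (fderiv ℝ χ)
  · have hzO := hSO hz
    have hd : HasDerivAt f (deriv f z) z := (hfO.differentiableAt (hO.mem_nhds hzO)).hasDerivAt
    have hd2 : HasDerivAt h ((deriv f z * (f z - w0) - (f z - w1) * deriv f z) / (f z - w0) ^ 2) z :=
      (hd.sub_const w1).div (hd.sub_const w0) (hne z hzO)
    simp only [hd2.deriv]
    have a1 := hne z hzO
    have a2 := hne' z hzO
    have : (deriv f z * (f z - w0) - (f z - w1) * deriv f z) / (f z - w0) ^ 2 / h z =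
        deriv f z / (f z - w1) - deriv f z / (f z - w0) := by
      simp only [hh]
      field_simp
    rw [this]; ring
  · simp only [dbar_zero_of_notMem_fderiv hz, mul_zero, sub_zero]

/-- joint continuity of the difference quotient -/
theorem continuousOn_dslope_prod {f : ℂ → ℂ} {U : Set ℂ} (hU : IsOpen U)
    (hf : DifferentiableOn ℂ f U) :
    ContinuousOn (fun p : ℂ × ℂ => dslope f p.1 p.2) (U ×ˢ U) := by
  rintro ⟨a, b⟩ ⟨ha, hb⟩
  refine ContinuousAt.continuousWithinAt ?_
  have hfa : ContinuousAt f a := (hf.differentiableAt (hU.mem_nhds ha)).continuousAt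
  have hfb : ContinuousAt f b := (hf.differentiableAt (hU.mem_nhds hb)).continuousAt
  by_cases hab : a = b
  · subst hab
    have han : AnalyticAt ℂ f a := hf.analyticAt (hU.mem_nhds ha)
    have hstrict : HasStrictDerivAt f (deriv f a) a := han.hasStrictDerivAt
    have hdc : ContinuousAt (deriv f) a := han.deriv.continuousAt
    rw [ContinuousAt, Metric.tendsto_nhds]
    intro ε hε
    have h1 := (hasStrictDerivAt_iff_hasStrictFDerivAt.mp hstrict).isLittleO.def (half_pos hε)
    have h2 : ∀ᶠ p : ℂ × ℂ in 𝓝 (a, a), dist (deriv f p.1) (deriv f a) < ε :=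
      (hdc.tendsto.comp (continuous_fst.tendsto (a, a))).eventually (ball_mem_nhds _ hε)
    filter_upwards [h1, h2] with p hp1 hp2
    simp only [dslope_same]
    by_cases h : p.2 = p.1
    · rw [h, dslope_same]; exact hp2
    · rw [dslope_of_ne _ h, slope_def_field, dist_eq_norm]
      have hne : p.2 - p.1 ≠ 0 := sub_ne_zero.mpr h
      have e : (f p.2 - f p.1) / (p.2 - p.1) - deriv f a =
          -(f p.1 - f p.2 - (ContinuousLinearMap.toSpanSingleton ℂ (deriv f a)) (p.1 - p.2)) /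
            (p.2 - p.1) := by
        rw [ContinuousLinearMap.toSpanSingleton_apply, smul_eq_mul]
        field_simp
        ring
      rw [e, norm_div, norm_neg, div_lt_iff₀ (norm_pos_iff.mpr hne)]
      have h3 : ‖p.1 - p.2‖ = ‖p.2 - p.1‖ := norm_sub_rev _ _
      rw [h3] at hp1
      refine lt_of_le_of_lt hp1 ?_
      have : 0 < ‖p.2 - p.1‖ := norm_pos_iff.mpr hne
      nlinarith
  · have h1 : (fun p : ℂ × ℂ => dslope f p.1 p.2) =ᶠ[𝓝 (a, b)]
        fun p => (f p.2 - f p.1) / (p.2 - p.1) := by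
      have : ∀ᶠ p : ℂ × ℂ in 𝓝 (a, b), p.1 ≠ p.2 :=
        (isClosed_eq continuous_fst continuous_snd).isOpen_compl.mem_nhds hab
      filter_upwards [this] with p hp
      rw [dslope_of_ne _ (Ne.symm hp), slope_def_field]
    refine ContinuousAt.congr ?_ h1.symm
    have h2 : ContinuousAt (fun p : ℂ × ℂ => f p.2 - f p.1) (a, b) :=
      (ContinuousAt.comp (f := fun p : ℂ × ℂ => p.2) hfb continuousAt_snd).sub
        (ContinuousAt.comp (f := fun p : ℂ × ℂ => p.1) hfa continuousAt_fst)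
    have h3 : ContinuousAt (fun p : ℂ × ℂ => p.2 - p.1) (a, b) := by fun_prop
    exact h2.div h3 (sub_ne_zero.mpr (Ne.symm hab))

lemma dslope_ne_zero {f : ℂ → ℂ} {U : Set ℂ} (hU : IsOpen U) (hf : DifferentiableOn ℂ f U)
    (hinj : InjOn f U) {u z : ℂ} (hu : u ∈ U) (hz : z ∈ U) : dslope f u z ≠ 0 := by
  by_cases h : z = u
  · subst h; rw [dslope_same]; exact Crest.Agent.Lib.deriv_ne_zero_of_injOn hU hf hinj hz
  · rw [dslope_of_ne _ h, slope_def_field]
    exact div_ne_zero (sub_ne_zero.mpr fun e => h (hinj hz hu e)) (sub_ne_zero.mpr h)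

/-- the regular part -/
noncomputable def J (χ f : ℂ → ℂ) (u : ℂ) : ℂ :=
  ∫ z, deriv (dslope f u) z / dslope f u z * dbar χ z

lemma integrable_J {χ f : ℂ → ℂ} (h1 : ContDiff ℝ 1 χ) (h2 : HasCompactSupport χ)
    {U : Set ℂ} (hU : IsOpen U) (hf : DifferentiableOn ℂ f U) (hinj : InjOn f U)
    (h3 : tsupport (fderiv ℝ χ) ⊆ U) {u : ℂ} (hu : u ∈ U) :
    Integrable (fun z => deriv (dslope f u) z / dslope f u z * dbar χ z) := by
  have hd : DifferentiableOn ℂ (dslope f u) U :=
    (Complex.differentiableOn_dslope (hU.mem_nhds hu)).mpr hf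
  exact integrable_mul_dbar hU ((hd.deriv hU).continuousOn.div hd.continuousOn
    fun z hz => dslope_ne_zero hU hf hinj hu hz) h1 h2 h3

theorem J_locconst {χ f : ℂ → ℂ} (h1 : ContDiff ℝ 1 χ) (h2 : HasCompactSupport χ)
    {U : Set ℂ} (hU : IsOpen U) (hf : DifferentiableOn ℂ f U) (hinj : InjOn f U)
    (h3 : tsupport (fderiv ℝ χ) ⊆ U) {u : ℂ} (hu : u ∈ U) :
    ∀ᶠ v in 𝓝 u, v ∈ U → J χ f v = J χ f u := by
  have hSc : IsCompact (tsupport (fderiv ℝ χ)) := h2.fderiv (𝕜 := ℝ)
  have hcont := continuousOn_dslope_prod hU hf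
  have hdu : DifferentiableOn ℂ (dslope f u) U :=
    (Complex.differentiableOn_dslope (hU.mem_nhds hu)).mpr hf
  set W : Set (ℂ × ℂ) := (U ×ˢ U) ∩
    (fun p : ℂ × ℂ => ‖dslope f u p.2‖ - ‖dslope f p.1 p.2 - dslope f u p.2‖) ⁻¹' Ioi 0 with hW
  have hWo : IsOpen W := by
    have hc2 : ContinuousOn (fun p : ℂ × ℂ => dslope f u p.2) (U ×ˢ U) :=
      hdu.continuousOn.comp continuousOn_snd fun p hp => hp.2
    exact (hc2.norm.sub (hcont.sub hc2).norm).isOpen_inter_preimage (hU.prod hU) isOpen_Ioi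
  have hsub : ({u} : Set ℂ) ×ˢ tsupport (fderiv ℝ χ) ⊆ W := by
    rintro ⟨a, z⟩ ⟨ha, hz⟩
    have ha' : a = u := ha
    subst ha'
    refine ⟨⟨hu, h3 hz⟩, ?_⟩
    simp only [mem_preimage, sub_self, norm_zero, sub_zero, mem_Ioi]
    exact norm_pos_iff.mpr (dslope_ne_zero hU hf hinj hu (h3 hz))
  obtain ⟨N, O, hN, hO, huN, hSO, hNO⟩ := generalized_tube_lemma isCompact_singleton hSc hWo hsub
  filter_upwards [hN.mem_nhds (huN rfl)] with v hv hvU
  have hOU : O ⊆ U := fun z hz => (hNO (mk_mem_prod hv hz)).1.2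
  have hdv : DifferentiableOn ℂ (dslope f v) U :=
    (Complex.differentiableOn_dslope (hU.mem_nhds hvU)).mpr hf
  have hneu : ∀ z ∈ O, dslope f u z ≠ 0 := fun z hz => dslope_ne_zero hU hf hinj hu (hOU hz)
  have hnev : ∀ z ∈ O, dslope f v z ≠ 0 := fun z hz => dslope_ne_zero hU hf hinj hvU (hOU hz)
  set h : ℂ → ℂ := fun z => dslope f v z / dslope f u z with hh
  have hhd : DifferentiableOn ℂ h O := (hdv.mono hOU).div (hdu.mono hOU) hneu
  have hclose : ∀ z ∈ O, ‖h z - 1‖ < 1 := by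
    intro z hz
    have h5 := (hNO (mk_mem_prod hv hz)).2
    simp only [mem_preimage, mem_Ioi, sub_pos] at h5
    have e : h z - 1 = (dslope f v z - dslope f u z) / dslope f u z := by
      simp only [hh]
      rw [div_sub_one (hneu z hz)]
    rw [e, norm_div, div_lt_one (norm_pos_iff.mpr (hneu z hz))]
    exact h5
  have hlog := log_const h1 h2 hO hhd hSO hclose
  rw [← sub_eq_zero, J, J, ← integral_sub (integrable_J h1 h2 hU hf hinj h3 hvU)
    (integrable_J h1 h2 hU hf hinj h3 hu), ← hlog]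
  refine integral_congr_ae (Eventually.of_forall fun z => ?_)
  by_cases hz : z ∈ tsupport (fderiv ℝ χ)
  · have hzO := hSO hz
    have hd1 : HasDerivAt (dslope f v) (deriv (dslope f v) z) z :=
      (hdv.differentiableAt (hU.mem_nhds (h3 hz))).hasDerivAt
    have hd0 : HasDerivAt (dslope f u) (deriv (dslope f u) z) z :=
      (hdu.differentiableAt (hU.mem_nhds (h3 hz))).hasDerivAt
    have hd2 := hd1.div hd0 (hneu z hzO)
    have hd3 : deriv h z = _ := hd2.deriv
    simp only [hd3]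
    have a1 := hneu z hzO
    have a2 := hnev z hzO
    rw [← sub_mul]
    congr 1
    simp only [hh]
    field_simp
  · simp only [dbar_zero_of_notMem_fderiv hz, mul_zero, sub_zero]

/-- **Cauchy-Pompeiu** at a general point -/
theorem cauchy_pompeiu' {χ : ℂ → ℂ} (h1 : ContDiff ℝ 1 χ) (h2 : HasCompactSupport χ) (c : ℂ) :
    ∫ z, (z - c)⁻¹ * dbar χ z = -(Real.pi : ℂ) * χ c := by
  have h3 : ContDiff ℝ 1 (fun z => χ (z + c)) := h1.comp (contDiff_id.add contDiff_const)
  have h4 : HasCompactSupport (fun z => χ (z + c)) :=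
    h2.comp_homeomorph (Homeomorph.addRight c)
  have h5 := cauchy_pompeiu_zero h3 h4
  simp only [zero_add] at h5
  rw [← h5, ← integral_add_right_eq_self (fun z => (z - c)⁻¹ * dbar χ z) c]
  refine integral_congr_ae (Eventually.of_forall fun z => ?_)
  simp only [add_sub_cancel_right]
  congr 1
  simp only [dbar]
  have : fderiv ℝ (fun z => χ (z + c)) z = fderiv ℝ χ (z + c) := fderiv_comp_add_right c
  rw [this]

theorem J_eq {χ f : ℂ → ℂ} (h1 : ContDiff ℝ 1 χ) (h2 : HasCompactSupport χ)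
    {U : Set ℂ} (hU : IsOpen U) (hf : DifferentiableOn ℂ f U) (hinj : InjOn f U)
    (h3 : tsupport (fderiv ℝ χ) ⊆ U) {u : ℂ} (hu : u ∈ U) (hu' : u ∉ tsupport (fderiv ℝ χ)) :
    J χ f u = Q χ f (f u) + (Real.pi : ℂ) * χ u := by
  have hcp := cauchy_pompeiu' h1 h2 u
  have hO : IsOpen (U \ {u}) := hU.sdiff isClosed_singleton
  have hSO : tsupport (fderiv ℝ χ) ⊆ U \ {u} := fun z hz =>
    ⟨h3 hz, fun e => hu' (by rw [← (show z = u from e)]; exact hz)⟩
  have hne : ∀ z ∈ U \ {u}, f z - f u ≠ 0 := fun z hz =>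
    sub_ne_zero.mpr fun e => hz.2 (hinj hz.1 hu e)
  have hi1 : Integrable (fun z => deriv f z / (f z - f u) * dbar χ z) :=
    integrable_mul_dbar hO ((((hf.deriv hU).continuousOn).mono sdiff_subset).div
      ((hf.continuousOn.mono sdiff_subset).sub continuousOn_const) hne) h1 h2 hSO
  have hi2 : Integrable (fun z => (z - u)⁻¹ * dbar χ z) := by
    refine integrable_mul_dbar hO ?_ h1 h2 hSO
    refine ContinuousOn.inv₀ (by fun_prop) ?_
    intro z hz
    exact sub_ne_zero.mpr hz.2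
  have : (Real.pi : ℂ) * χ u = -∫ z, (z - u)⁻¹ * dbar χ z := by rw [hcp]; ring
  rw [this, Q, J, ← sub_eq_add_neg, ← integral_sub hi1 hi2]
  refine integral_congr_ae (Eventually.of_forall fun z => ?_)
  by_cases hz : z ∈ tsupport (fderiv ℝ χ)
  · have hzO := hSO hz
    have hzu : z ≠ u := hzO.2
    have hzu' : z - u ≠ 0 := sub_ne_zero.mpr hzu
    have hd : HasDerivAt f (deriv f z) z := (hf.differentiableAt (hU.mem_nhds hzO.1)).hasDerivAt
    have hev : dslope f u =ᶠ[𝓝 z] fun y => (f y - f u) / (y - u) := by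
      filter_upwards [isOpen_ne.mem_nhds hzu] with y hy
      rw [dslope_of_ne _ hy, slope_def_field]
    have hd2 : HasDerivAt (fun y => (f y - f u) / (y - u))
        ((deriv f z * (z - u) - (f z - f u) * 1) / (z - u) ^ 2) z :=
      (hd.sub_const _).div ((hasDerivAt_id z).sub_const u) hzu'
    simp only
    rw [← sub_mul, hev.deriv_eq, hd2.deriv, hev.eq_of_nhds]
    congr 1
    have a1 := hne z hzO
    field_simp
  · simp only [dbar_zero_of_notMem_fderiv hz, mul_zero, sub_zero]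

/-- `Q` vanishes far away -/
theorem Q_far {χ f : ℂ → ℂ} (h1 : ContDiff ℝ 1 χ) (h2 : HasCompactSupport χ)
    {U : Set ℂ} (hU : IsOpen U) (hf : DifferentiableOn ℂ f U) (h3 : tsupport (fderiv ℝ χ) ⊆ U)
    {M : ℝ} (hM0 : 0 ≤ M) (hM : ∀ z ∈ tsupport (fderiv ℝ χ), ‖f z‖ ≤ M) {w0 : ℂ} (hw0 : M < ‖w0‖) :
    Q χ f w0 = 0 := by
  have hw00 : w0 ≠ 0 := norm_pos_iff.mp (hM0.trans_lt hw0)
  set O : Set ℂ := U ∩ f ⁻¹' {w | ‖w‖ < ‖w0‖} with hOdef
  have hO : IsOpen O := hf.continuousOn.isOpen_inter_preimage hU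
    (isOpen_lt continuous_norm continuous_const)
  have hSO : tsupport (fderiv ℝ χ) ⊆ O := fun z hz => ⟨h3 hz, (hM z hz).trans_lt hw0⟩
  have hfO : DifferentiableOn ℂ f O := hf.mono inter_subset_left
  set h : ℂ → ℂ := fun z => 1 - f z / w0 with hh
  have hhd : DifferentiableOn ℂ h O := (hfO.div_const w0).const_sub 1
  have hclose : ∀ z ∈ O, ‖h z - 1‖ < 1 := by
    intro z hz
    have e : h z - 1 = -(f z / w0) := by simp only [hh]; ring
    rw [e, norm_neg, norm_div, div_lt_one (norm_pos_iff.mpr hw00)]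
    exact hz.2
  have hlog := log_const h1 h2 hO hhd hSO hclose
  rw [Q, ← hlog]
  refine integral_congr_ae (Eventually.of_forall fun z => ?_)
  by_cases hz : z ∈ tsupport (fderiv ℝ χ)
  · have hzO := hSO hz
    have hd : HasDerivAt f (deriv f z) z := (hfO.differentiableAt (hO.mem_nhds hzO)).hasDerivAt
    have hd2 : HasDerivAt h (-(deriv f z / w0)) z := (hd.div_const w0).const_sub 1
    simp only
    rw [hd2.deriv]
    congr 1
    have hzw0 : f z - w0 ≠ 0 := by
      intro h0
      have : ‖f z‖ < ‖w0‖ := hzO.2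
      rw [sub_eq_zero.mp h0] at this
      exact lt_irrefl _ this
    have hh0 : 1 - f z / w0 ≠ 0 := by
      intro h0
      apply hzw0
      field_simp at h0
      linear_combination -h0
    simp only [hh]
    have hzw02 : w0 - f z ≠ 0 := fun h0 => hzw0 (by linear_combination -h0)
    rw [div_eq_div_iff hzw0 hh0]
    field_simp
    ring
  · simp only [dbar_zero_of_notMem_fderiv hz, mul_zero]

/-- **argument principle**: `Q χ f (f u) = -π χ u` -/
theorem Q_comp {χ f : ℂ → ℂ} (h1 : ContDiff ℝ 1 χ) (h2 : HasCompactSupport χ)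
    {U : Set ℂ} (hU : IsOpen U) (hUc : IsPreconnected U) {R : ℝ} (hR : ∀ z : ℂ, R < ‖z‖ → z ∈ U)
    (hf : DifferentiableOn ℂ f U) (hinj : InjOn f U)
    (hinf : Tendsto f (cocompact ℂ) (cocompact ℂ))
    (h3 : tsupport (fderiv ℝ χ) ⊆ U) {u : ℂ} (hu : u ∈ U) (hu' : u ∉ tsupport (fderiv ℝ χ)) :
    Q χ f (f u) = -((Real.pi : ℂ) * χ u) := by
  have hSc : IsCompact (tsupport (fderiv ℝ χ)) := h2.fderiv (𝕜 := ℝ)
  -- a far point
  obtain ⟨M, hM⟩ := (hSc.image_of_continuousOn (hf.continuousOn.mono h3)).isBounded.subset_closedBall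
    (0 : ℂ)
  have hM' : ∀ z ∈ tsupport (fderiv ℝ χ), ‖f z‖ ≤ |M| := fun z hz => by
    have := hM ⟨z, hz, rfl⟩
    rw [mem_closedBall_zero_iff] at this
    exact this.trans (le_abs_self M)
  have e1 : (closedBall (0 : ℂ) |M|)ᶜ ∈ cocompact ℂ := (isCompact_closedBall _ _).compl_mem_cocompact
  have e2 : (tsupport χ)ᶜ ∈ cocompact ℂ := h2.isCompact.compl_mem_cocompact
  have e3 : (closedBall (0 : ℂ) R)ᶜ ∈ cocompact ℂ := (isCompact_closedBall _ _).compl_mem_cocompact
  obtain ⟨v, ⟨hv1, hv2⟩, hv3⟩ := Filter.nonempty_of_mem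
    (inter_mem (inter_mem (mem_map.mp (hinf e1)) e2) e3)
  have hvU : v ∈ U := hR v (by simpa using hv3)
  have hvM : |M| < ‖f v‖ := by simpa using hv1
  have hvS : v ∉ tsupport (fderiv ℝ χ) := fun h => hv2 (tsupport_fderiv_subset ℝ h)
  have hJv : J χ f v = 0 := by
    rw [J_eq h1 h2 hU hf hinj h3 hvU hvS, Q_far h1 h2 hU hf h3 (abs_nonneg M) hM' hvM,
      image_eq_zero_of_notMem_tsupport hv2]
    simp
  -- connectedness
  have hPS : PreconnectedSpace U := isPreconnected_iff_preconnectedSpace.mp hUc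
  have hJ : J χ f u = J χ f v := by
    have hsym : Std.Symm (fun x y : U => J χ f x = J χ f y) := ⟨fun x y h => h.symm⟩
    have htr : IsTrans U (fun x y : U => J χ f x = J χ f y) := ⟨fun x y z h h' => h.trans h'⟩
    refine PreconnectedSpace.induction₂ (fun x y : U => J χ f x = J χ f y) ?_ htr
      (⟨u, hu⟩ : U) ⟨v, hvU⟩
    rintro ⟨x, hx⟩
    have := J_locconst h1 h2 hU hf hinj h3 hx
    have h4 := (continuous_subtype_val.tendsto (⟨x, hx⟩ : U)).eventually this
    filter_upwards [h4] with y hy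
    exact (hy y.2).symm
  rw [J_eq h1 h2 hU hf hinj h3 hu hu', hJv] at hJ
  linear_combination hJ

end Crest.Agent.R105.End2_642
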