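import Mathlib
import Crest.Agent.R105.End1_642
import Crest.Agent.R105.End2_642

/-!
# Row 105, END, part 3 (helper642): the circle-domain criterion END-CD

`U` exterior domain, `f` holomorphic and injective on `U`, tending to infinity at infinity;
`z ↦ closedBall (c z) (r z)`, `z ∈ Uᶜ`, a family of discs, constant on the components of `Uᶜ`,
disjoint from `f '' U`, such that `f u → closedBall (c z) (r z)` as `u → z` in `U`, upper
semicontinuous in `z`, and such that `f '' U` and the discs together are dense.  Then `f '' U` is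
a circle domain.
-/

open Set Filter Topology Metric Complex MeasureTheory
open scoped ContDiff
open Crest.AnalysisR

namespace Crest.Agent.R105.End3_642

open Crest.Agent.R105.End1_642 Crest.Agent.R105.End2_642

/-- **separation**: a clopen split of `Uᶜ` is seen by a function which is locally constant off
`f '' U`. -/
theorem exists_separator {U : Set ℂ} (hU : IsExteriorDomain U) {f : ℂ → ℂ}
    (hf : DifferentiableOn ℂ f U) (hinj : InjOn f U)
    (hinf : Tendsto f (cocompact ℂ) (cocompact ℂ)) {Y1 Y2 : Set ℂ} (hY1 : IsCompact Y1)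
    (hY2 : IsCompact Y2) (hd : Disjoint Y1 Y2) (hY : Y1 ∪ Y2 = Uᶜ) :
    ∃ q : ℂ → ℂ, (∀ w ∉ f '' U, ∀ᶠ w' in 𝓝 w, q w' = q w) ∧
      (∀ z ∈ Y1, ∀ᶠ u in 𝓝 z, u ∈ U → q (f u) = -(Real.pi : ℂ)) ∧
      (∀ z ∈ Y2, ∀ᶠ u in 𝓝 z, u ∈ U → q (f u) = 0) := by
  obtain ⟨hUo, hUc, R, hR⟩ := hU
  have hsub : Y1 ⊆ Y2ᶜ := fun z hz hz2 => disjoint_left.mp hd hz hz2
  obtain ⟨χ, hχ, hχc, hχW, hχ1, -⟩ := exists_cutoff hY1 hY2.isClosed.isOpen_compl hsub
  set X : ℂ → ℂ := fun z => (χ z : ℂ) with hX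
  have h1 : ContDiff ℝ 1 X := ofRealCLM.contDiff.comp (hχ.of_le (WithTop.coe_le_coe.2 le_top))
  have h2 : HasCompactSupport X := hχc.comp_left (g := fun x : ℝ => (x : ℂ)) (by simp)
  have hts : tsupport X ⊆ tsupport χ := closure_mono (fun z hz h => hz (by simp [hX, h]))
  -- near `Y1`, `X = 1`; near `Y2`, `X = 0`
  have hn1 : ∀ z ∈ Y1, X =ᶠ[𝓝 z] fun _ => 1 := by
    intro z hz
    have : ∀ᶠ y in 𝓝 z, χ y = 1 := (nhds_le_nhdsSet hz) hχ1
    filter_upwards [this] with y hy
    simp [hX, hy]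
  have hn2 : ∀ z ∈ Y2, X =ᶠ[𝓝 z] fun _ => 0 := by
    intro z hz
    have hz' : z ∉ tsupport χ := fun h => hχW h hz
    filter_upwards [(isClosed_tsupport χ).isOpen_compl.mem_nhds hz'] with y hy
    simp [hX, image_eq_zero_of_notMem_tsupport hy]
  have hS : ∀ z ∈ Uᶜ, z ∉ tsupport (fderiv ℝ X) := by
    intro z hz
    rw [← hY] at hz
    rw [notMem_tsupport_iff_eventuallyEq]
    rcases hz with hz | hz
    · have := (hn1 z hz).fderiv (𝕜 := ℝ)
      filter_upwards [this] with y hy
      rw [hy]; simp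
    · have := (hn2 z hz).fderiv (𝕜 := ℝ)
      filter_upwards [this] with y hy
      rw [hy]; simp
  have h3 : tsupport (fderiv ℝ X) ⊆ U := fun z hz => by
    by_contra h; exact hS z h hz
  refine ⟨Q X f, ?_, ?_, ?_⟩
  · intro w hw
    exact Q_locconst h1 h2 hUo hf h3 fun h => hw (image_mono h3 h)
  · intro z hz
    have hzY : z ∈ Uᶜ := hY ▸ Or.inl hz
    filter_upwards [hn1 z hz, (isClosed_tsupport (fderiv ℝ X)).isOpen_compl.mem_nhds (hS z hzY)]
      with u hu hu' huU
    rw [Q_comp h1 h2 hUo hUc.isPreconnected hR hf hinj hinf h3 huU hu', hu, mul_one]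
  · intro z hz
    have hzY : z ∈ Uᶜ := hY ▸ Or.inr hz
    filter_upwards [hn2 z hz, (isClosed_tsupport (fderiv ℝ X)).isOpen_compl.mem_nhds (hS z hzY)]
      with u hu hu' huU
    rw [Q_comp h1 h2 hUo hUc.isPreconnected hR hf hinj hinf h3 huU hu', hu, mul_zero, neg_zero]

/-- a function locally constant on a preconnected set is constant -/
lemma eq_of_locconst {s : Set ℂ} (hs : IsPreconnected s) {q : ℂ → ℂ}
    (h : ∀ w ∈ s, ∀ᶠ w' in 𝓝 w, q w' = q w) {a b : ℂ} (ha : a ∈ s) (hb : b ∈ s) : q a = q b := by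
  have hPS : PreconnectedSpace s := isPreconnected_iff_preconnectedSpace.mp hs
  have hsym : Std.Symm (fun x y : s => q x = q y) := ⟨fun x y h => h.symm⟩
  have htr : IsTrans s (fun x y : s => q x = q y) := ⟨fun x y z h h' => h.trans h'⟩
  refine PreconnectedSpace.induction₂ (fun x y : s => q x = q y) ?_ htr (⟨a, ha⟩ : s) ⟨b, hb⟩
  rintro ⟨x, hx⟩
  have h4 := (continuous_subtype_val.tendsto (⟨x, hx⟩ : s)).eventually (h x hx)
  filter_upwards [h4] with y hy
  exact hy.symm

/-- the value of a locally constant function on a disc is the limit along the end -/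
theorem value_on_disc {U : Set ℂ} {f : ℂ → ℂ} {q : ℂ → ℂ}
    (hq : ∀ w ∉ f '' U, ∀ᶠ w' in 𝓝 w, q w' = q w) {a c : ℂ} {r : ℝ} (ha : a ∈ closure U)
    (hdis : Disjoint (f '' U) (closedBall c r))
    (h2 : ∀ ε > 0, ∀ᶠ u in 𝓝 a, u ∈ U → dist (f u) c < r + ε) {v : ℂ}
    (hv : ∀ᶠ u in 𝓝 a, u ∈ U → q (f u) = v) {w : ℂ} (hw : w ∈ closedBall c r) : q w = v := by
  obtain ⟨x, hx, hxa⟩ := mem_closure_iff_seq_limit.mp ha
  have hbd : ∀ᶠ n in atTop, f (x n) ∈ closedBall c (r + 1) := by
    filter_upwards [hxa.eventually (h2 1 one_pos)] with n hn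
    exact (hn (hx n)).le
  obtain ⟨b, -, φ, hφ, hlim⟩ := (isCompact_closedBall c (r + 1)).tendsto_subseq' hbd.frequently
  have hb : b ∈ closedBall c r := by
    rw [mem_closedBall]
    refine le_of_forall_pos_lt_add fun ε hε => ?_
    have h4 : ∀ᶠ n in atTop, f (x (φ n)) ∈ closedBall c (r + ε / 2) := by
      filter_upwards [(hxa.comp hφ.tendsto_atTop).eventually (h2 (ε / 2) (by positivity))] with n hn
      exact (hn (hx _)).le
    have h5 : b ∈ closedBall c (r + ε / 2) := isClosed_closedBall.mem_of_tendsto hlim h4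
    rw [mem_closedBall] at h5
    linarith
  have hq' : ∀ w ∈ closedBall c r, ∀ᶠ w' in 𝓝 w, q w' = q w := fun w hw =>
    hq w fun h => disjoint_left.mp hdis h hw
  have e1 : q w = q b :=
    eq_of_locconst (convex_closedBall c r).isPreconnected hq' hw hb
  rw [e1]
  obtain ⟨n, hn1, hn2⟩ := ((hlim.eventually (hq' b hb)).and
    ((hxa.comp hφ.tendsto_atTop).eventually hv)).exists
  rw [← hn2 (hx _)]
  exact hn1.symm

/-- **END-CD**: the circle-domain criterion. -/
theorem end_cd {U : Set ℂ} (hU : IsExteriorDomain U) {f : ℂ → ℂ}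
    (hf : DifferentiableOn ℂ f U) (hinj : InjOn f U)
    (hinf : Tendsto f (cocompact ℂ) (cocompact ℂ)) {c : ℂ → ℂ} {r : ℂ → ℝ}
    (hr : ∀ z ∈ Uᶜ, 0 ≤ r z)
    (hconst : ∀ z ∈ Uᶜ, ∀ z' ∈ connectedComponentIn Uᶜ z, c z' = c z ∧ r z' = r z)
    (h1 : ∀ z ∈ Uᶜ, Disjoint (f '' U) (closedBall (c z) (r z)))
    (h2 : ∀ z ∈ Uᶜ, ∀ ε > 0, ∀ᶠ u in 𝓝 z, (u ∈ U → dist (f u) (c z) < r z + ε) ∧
      (u ∈ Uᶜ → closedBall (c u) (r u) ⊆ ball (c z) (r z + ε)))
    (h3 : Dense (f '' U ∪ ⋃ z ∈ Uᶜ, closedBall (c z) (r z))) :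
    IsCircleDomainFinitePart (f '' U) := by
  refine ⟨isExteriorDomain_image hU hf hinj hinf, ?_⟩
  have hcompl := compl_image_eq hU hf.continuousOn hinf h1 h2 h3
  have hU' := hU
  obtain ⟨hUo, hUc, R, hR⟩ := hU'
  have hYc : IsCompact Uᶜ := by
    refine Metric.isCompact_of_isClosed_isBounded hUo.isClosed_compl ?_
    refine (Metric.isBounded_closedBall (x := (0 : ℂ)) (r := R)).subset fun z hz => ?_
    rw [mem_closedBall_zero_iff]
    by_contra hcon
    exact hz (hR z (not_le.mp hcon))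
  intro w hw
  have hw' : w ∈ (f '' U)ᶜ := hw
  have hwD := hw'
  rw [hcompl] at hwD
  simp only [mem_iUnion, exists_prop] at hwD
  obtain ⟨z, hz, hwz⟩ := hwD
  refine ⟨c z, r z, hr z hz, ?_⟩
  apply Subset.antisymm
  · intro w' hww'
    have hw'c : w' ∈ (f '' U)ᶜ := connectedComponentIn_subset _ _ hww'
    have hw'D := hw'c
    rw [hcompl] at hw'D
    simp only [mem_iUnion, exists_prop] at hw'D
    obtain ⟨z', hz', hwz'⟩ := hw'D
    by_cases hcc : z' ∈ connectedComponentIn Uᶜ z
    · obtain ⟨e1, e2⟩ := hconst z hz z' hcc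
      rw [← e1, ← e2]; exact hwz'
    · exfalso
      obtain ⟨Y1, Y2, hY1, hY2, hd, hY, hzY1, hzY2⟩ := exists_clopen_split hYc hz hz' hcc
      obtain ⟨q, hq, hq1, hq2⟩ := exists_separator hU hf hinj hinf hY1 hY2 hd hY
      -- components of `z` and `z'` touch `U`
      obtain ⟨a, ha, haU⟩ := exists_mem_closure_of_component hUo hUc.nonempty hz
      obtain ⟨a', ha', haU'⟩ := exists_mem_closure_of_component hUo hUc.nonempty hz'
      -- `a ∈ Y1`, `a' ∈ Y2`
      have hside : ∀ {A B : Set ℂ}, IsCompact A → IsCompact B → Disjoint A B → A ∪ B = Uᶜ →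
          ∀ {x y : ℂ}, x ∈ A → y ∈ connectedComponentIn Uᶜ x → y ∈ A := by
        intro A B hA hB hAB hABY x y hx hy
        have hxY : x ∈ Uᶜ := hABY ▸ Or.inl hx
        have hpre : IsPreconnected (connectedComponentIn Uᶜ x) := isPreconnected_connectedComponentIn
        have hsub : connectedComponentIn Uᶜ x ⊆ A ∪ B := by
          rw [hABY]; exact connectedComponentIn_subset _ _
        have hdisj : connectedComponentIn Uᶜ x ∩ (A ∩ B) = ∅ := by
          rw [disjoint_iff_inter_eq_empty.mp hAB, inter_empty]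
        rcases isPreconnected_iff_subset_of_disjoint_closed.mp hpre A B hA.isClosed hB.isClosed hsub
          hdisj with h | h
        · exact h hy
        · exact absurd (h (mem_connectedComponentIn hxY)) (disjoint_left.mp hAB hx)
      have haY1 : a ∈ Y1 := hside hY1 hY2 hd hY hzY1 ha
      have haY2 : a' ∈ Y2 := hside hY2 hY1 hd.symm (by rw [union_comm]; exact hY) hzY2 ha'
      have haC : a ∈ Uᶜ := connectedComponentIn_subset _ _ ha
      have haC' : a' ∈ Uᶜ := connectedComponentIn_subset _ _ ha'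
      obtain ⟨e1, e2⟩ := hconst z hz a ha
      obtain ⟨e1', e2'⟩ := hconst z' hz' a' ha'
      have v1 : q w = -(Real.pi : ℂ) := by
        refine value_on_disc hq haU (h1 a haC) (fun ε hε => (h2 a haC ε hε).mono fun u hu => hu.1)
          (hq1 a haY1) ?_
        rw [e1, e2]; exact hwz
      have v2 : q w' = 0 := by
        refine value_on_disc hq haU' (h1 a' haC') (fun ε hε => (h2 a' haC' ε hε).mono fun u hu => hu.1)
          (hq2 a' haY2) ?_
        rw [e1', e2']; exact hwz'
      have v3 : q w = q w' := by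
        refine eq_of_locconst (isPreconnected_connectedComponentIn (F := (f '' U)ᶜ) (x := w))
          (fun y hy => hq y (connectedComponentIn_subset _ _ hy)) (mem_connectedComponentIn hw') hww'
      rw [v1, v2] at v3
      have : (Real.pi : ℂ) ≠ 0 := by exact_mod_cast Real.pi_ne_zero
      exact this (by linear_combination -v3)
  · refine (convex_closedBall (c z) (r z)).isPreconnected.subset_connectedComponentIn hwz ?_
    intro y hy hyU
    exact disjoint_left.mp (h1 z hz) hyU hy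

end Crest.Agent.R105.End3_642
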