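import Crest.Agent.R105.Ends1_897

/-! Row 105, LIB-ENDS (helper897), part 2: homeomorphisms between exterior domains (`EndMap`),
boundedness, inverse, the end correspondence. -/

set_option autoImplicit false

open Set Filter Topology Metric

namespace Crest.Agent.R105.Ends_897

open Crest.AnalysisR Crest.Agent.R193.Planar

/-! ### the far region -/

theorem isPreconnected_norm_gt {ρ : ℝ} (hρ : 0 ≤ ρ) : IsPreconnected {w : ℂ | ρ < ‖w‖} := by
  have h : {w : ℂ | ρ < ‖w‖} =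
      (fun p : ℝ × ℝ => (p.1 : ℂ) * Complex.exp (p.2 * Complex.I)) '' (Ioi ρ ×ˢ univ) := by
    ext w
    constructor
    · intro hw
      exact ⟨(‖w‖, Complex.arg w), ⟨hw, mem_univ _⟩, Complex.norm_mul_exp_arg_mul_I w⟩
    · rintro ⟨⟨r, θ⟩, ⟨hr, -⟩, rfl⟩
      have hr' : ρ < r := hr
      simp only [Set.mem_ofPred_eq, norm_mul, Complex.norm_exp_ofReal_mul_I, mul_one,
        Complex.norm_real, Real.norm_eq_abs]
      rwa [abs_of_pos (hρ.trans_lt hr')]
  rw [h]
  exact (isPreconnected_Ioi.prod isPreconnected_univ).image _ (by fun_prop)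

/-- the image of the far region contains a far region -/
theorem far {U : Set ℂ} {f : ℂ → ℂ} (hc : ContinuousOn f U)
    (hopn : ∀ W ⊆ U, IsOpen W → IsOpen (f '' W))
    (hinf : Tendsto f (cocompact ℂ) (cocompact ℂ)) {R : ℝ} (_hR0 : 0 ≤ R)
    (hR : ∀ z : ℂ, R ≤ ‖z‖ → z ∈ U) :
    ∃ ρ : ℝ, 0 ≤ ρ ∧ ∀ w : ℂ, ρ < ‖w‖ → ∃ z, R < ‖z‖ ∧ f z = w := by
  have hsc : IsCompact (f '' sphere (0 : ℂ) R) :=
    (isCompact_sphere 0 R).image_of_continuousOn (hc.mono fun z hz => hR z (by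
      rw [mem_sphere_zero_iff_norm.1 hz]))
  obtain ⟨ρ0, hρ0⟩ := hsc.isBounded.exists_norm_le
  refine ⟨max ρ0 0, le_max_right _ _, ?_⟩
  set O : Set ℂ := {w | max ρ0 0 < ‖w‖} with hO
  set A : Set ℂ := f '' {z | R < ‖z‖} with hA
  have hAo : IsOpen A := hopn _ (fun z hz => hR z (le_of_lt hz))
    (isOpen_lt continuous_const continuous_norm)
  have hOp : IsPreconnected O := isPreconnected_norm_gt (le_max_right _ _)
  have hne : (O ∩ A).Nonempty := by
    have h1 : ∀ᶠ z in cocompact ℂ, f z ∈ O := by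
      refine hinf.eventually ?_
      have := tendsto_norm_cocompact_atTop (E := ℂ)
      exact this.eventually (eventually_gt_atTop _)
    have h2 : ∀ᶠ z in cocompact ℂ, R < ‖z‖ :=
      (tendsto_norm_cocompact_atTop (E := ℂ)).eventually (eventually_gt_atTop _)
    obtain ⟨z, hz1, hz2⟩ := (h1.and h2).exists
    exact ⟨f z, hz1, z, hz2, rfl⟩
  have hcl : closure A ∩ O ⊆ A := by
    rintro w ⟨hwA, hwO⟩
    have h1 : ∀ᶠ z in cocompact ℂ, f z ∉ closedBall w 1 :=
      hinf.eventually ((isCompact_closedBall w 1).compl_mem_cocompact)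
    obtain ⟨T, hT, hTs⟩ := mem_cocompact.1 h1
    have hK : IsCompact ({z : ℂ | R ≤ ‖z‖} ∩ T) :=
      hT.inter_left (isClosed_le continuous_const continuous_norm)
    have hfK : IsClosed (f '' ({z : ℂ | R ≤ ‖z‖} ∩ T)) :=
      (hK.image_of_continuousOn (hc.mono fun z hz => hR z hz.1)).isClosed
    have h2 : w ∈ closure (f '' ({z : ℂ | R ≤ ‖z‖} ∩ T)) := by
      rw [mem_closure_iff_nhds] at hwA ⊢
      intro t ht
      obtain ⟨y, ⟨hyt, hyb⟩, z, hz, hzy⟩ := hwA (t ∩ closedBall w 1)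
        (inter_mem ht (closedBall_mem_nhds w one_pos))
      have hz' : R < ‖z‖ := hz
      have hz'' : z ∈ {z : ℂ | R ≤ ‖z‖} := hz'.le
      refine ⟨y, hyt, z, ⟨hz'', ?_⟩, hzy⟩
      by_contra hzT
      exact hTs hzT (by rw [hzy]; exact hyb)
    rw [hfK.closure_eq] at h2
    obtain ⟨z, ⟨hz1, -⟩, hz3⟩ := h2
    have hz1' : R ≤ ‖z‖ := hz1
    have hlt : R < ‖z‖ := by
     refine lt_of_le_of_ne hz1' fun h => ?_
     have h4 := hρ0 (f z) ⟨z, mem_sphere_zero_iff_norm.2 h.symm, rfl⟩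
     rw [hz3] at h4
     have h5 : max ρ0 0 < ‖w‖ := hwO
     exact absurd (h4.trans (le_max_left _ _)) (not_le.2 h5)
    exact ⟨z, hlt, hz3⟩
  have hsub : O ⊆ A := hOp.subset_of_closure_inter_subset hAo hne hcl
  intro w hw
  obtain ⟨z, hz1, hz2⟩ := hsub hw
  exact ⟨z, hz1, hz2⟩

/-! ### `EndMap` -/

/-- `f` is a homeomorphism of the exterior domain `U` onto the exterior domain `V` fixing
infinity -/
structure EndMap (U V : Set ℂ) (f : ℂ → ℂ) : Prop where
  hU : IsExteriorDomain U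
  hV : IsExteriorDomain V
  cont : ContinuousOn f U
  inj : InjOn f U
  img : f '' U = V
  opn : ∀ W ⊆ U, IsOpen W → IsOpen (f '' W)
  inf : Tendsto f (cocompact ℂ) (cocompact ℂ)

/-- constructor: the image of an exterior domain is an exterior domain -/
theorem EndMap.of_image {U : Set ℂ} {f : ℂ → ℂ} (hU : IsExteriorDomain U)
    (hc : ContinuousOn f U) (hi : InjOn f U) (hopn : ∀ W ⊆ U, IsOpen W → IsOpen (f '' W))
    (hinf : Tendsto f (cocompact ℂ) (cocompact ℂ)) : EndMap U (f '' U) f := by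
  refine ⟨hU, ⟨hopn U subset_rfl hU.1, hU.2.1.image f hc, ?_⟩, hc, hi, rfl, hopn, hinf⟩
  obtain ⟨R0, hR0⟩ := hU.2.2
  obtain ⟨ρ, -, hρ⟩ := far hc hopn hinf (R := max R0 0 + 1) (by positivity)
    (fun z hz => hR0 z (lt_of_lt_of_le (lt_of_le_of_lt (le_max_left R0 0) (lt_add_one _)) hz))
  refine ⟨ρ, fun w hw => ?_⟩
  obtain ⟨z, hz, rfl⟩ := hρ w hw
  exact ⟨z, hR0 z (lt_of_le_of_lt (le_max_left R0 0) ((lt_add_one _).trans hz)), rfl⟩

/-- constructor for injective holomorphic maps -/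
theorem EndMap.of_holo {U : Set ℂ} {f : ℂ → ℂ} (hU : IsExteriorDomain U)
    (hd : DifferentiableOn ℂ f U) (hi : InjOn f U)
    (hinf : Tendsto f (cocompact ℂ) (cocompact ℂ)) : EndMap U (f '' U) f := by
  refine EndMap.of_image hU hd.continuousOn hi (fun W hWU hW => ?_) hinf
  rw [isOpen_iff_mem_nhds]
  rintro _ ⟨z, hz, rfl⟩
  have hW' : W ∈ 𝓝 z := hW.mem_nhds hz
  have han : AnalyticAt ℂ f z := (hd.mono hWU).analyticAt hW'
  rcases han.eventually_constant_or_nhds_le_map_nhds with h | h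
  · exfalso
    have h2 : ∀ᶠ w in 𝓝[≠] z, f w = f z ∧ w ∈ W :=
      (h.and hW').filter_mono nhdsWithin_le_nhds
    obtain ⟨w, ⟨hw1, hw2⟩, hw3⟩ := (h2.and self_mem_nhdsWithin).exists
    exact hw3 (hi (hWU hw2) (hWU hz) hw1)
  · exact h (image_mem_map hW')

namespace EndMap

variable {U V : Set ℂ} {f : ℂ → ℂ}

theorem mapsTo (h : EndMap U V f) {z : ℂ} (hz : z ∈ U) : f z ∈ V := h.img ▸ mem_image_of_mem f hz

/-- **(E0)** bounded parts go to bounded parts -/
theorem bdd (h : EndMap U V f) (R : ℝ) : ∃ ρ : ℝ, ∀ z ∈ U, ‖z‖ ≤ R → ‖f z‖ ≤ ρ := by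
  obtain ⟨R0, hR0⟩ := h.hU.2.2
  have hlt : ∀ z : ℂ, max (max R0 0) R + 1 ≤ ‖z‖ → z ∈ U := fun z hz =>
    hR0 z (by
      have := (le_max_left R0 0).trans (le_max_left (max R0 0) R)
      linarith)
  obtain ⟨ρ, -, hρ⟩ := far h.cont h.opn h.inf (R := max (max R0 0) R + 1)
    (by have := (le_max_right R0 0).trans (le_max_left (max R0 0) R); linarith) hlt
  refine ⟨ρ, fun z hz hzR => ?_⟩
  by_contra hcon
  obtain ⟨z', hz', hf⟩ := hρ (f z) (not_le.1 hcon)
  have := h.inj (hlt z' hz'.le) hz hf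
  rw [this] at hz'
  have := le_max_right (max R0 0) R
  linarith

/-- the inverse -/
noncomputable def inv (_ : EndMap U V f) : ℂ → ℂ := Function.invFunOn f U

theorem inv_mem (h : EndMap U V f) {w : ℂ} (hw : w ∈ V) : h.inv w ∈ U :=
  Function.invFunOn_mem (by rwa [← h.img] at hw)

theorem inv_right (h : EndMap U V f) {w : ℂ} (hw : w ∈ V) : f (h.inv w) = w :=
  Function.invFunOn_eq (by rwa [← h.img] at hw)

theorem inv_left (h : EndMap U V f) {z : ℂ} (hz : z ∈ U) : h.inv (f z) = z :=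
  h.inj (h.inv_mem (h.mapsTo hz)) hz (h.inv_right (h.mapsTo hz))

theorem preimage_inv (h : EndMap U V f) (t : Set ℂ) : V ∩ h.inv ⁻¹' t = f '' (U ∩ t) := by
  ext w
  constructor
  · rintro ⟨hw, hwt⟩
    exact ⟨h.inv w, ⟨h.inv_mem hw, hwt⟩, h.inv_right hw⟩
  · rintro ⟨z, ⟨hz, hzt⟩, rfl⟩
    exact ⟨h.mapsTo hz, by rw [mem_preimage, h.inv_left hz]; exact hzt⟩

theorem image_inv (h : EndMap U V f) {W : Set ℂ} (hW : W ⊆ V) :
    h.inv '' W = U ∩ f ⁻¹' W := by
  ext z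
  constructor
  · rintro ⟨w, hw, rfl⟩
    exact ⟨h.inv_mem (hW hw), by rw [mem_preimage, h.inv_right (hW hw)]; exact hw⟩
  · rintro ⟨hz, hzW⟩
    exact ⟨f z, hzW, h.inv_left hz⟩

/-- **(E0)** the inverse is an `EndMap` -/
theorem symm (h : EndMap U V f) : EndMap V U h.inv where
  hU := h.hV
  hV := h.hU
  cont := by
    rw [continuousOn_open_iff h.hV.1]
    intro t ht
    rw [h.preimage_inv]
    exact h.opn _ inter_subset_left (h.hU.1.inter ht)
  inj := by
    intro w hw w' hw' he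
    rw [← h.inv_right hw, he, h.inv_right hw']
  img := by
    rw [h.image_inv subset_rfl]
    ext z
    exact ⟨fun hz => hz.1, fun hz => ⟨hz, h.mapsTo hz⟩⟩
  opn := by
    intro W hW hWo
    rw [h.image_inv hW]
    exact h.cont.isOpen_inter_preimage h.hU.1 hWo
  inf := by
    obtain ⟨RV, hRV⟩ := h.hV.2.2
    rw [← cobounded_eq_cocompact, ← tendsto_norm_atTop_iff_cobounded, Filter.tendsto_atTop]
    intro R
    obtain ⟨ρ, hρ⟩ := h.bdd R
    have h1 : ∀ᶠ w : ℂ in Bornology.cobounded ℂ, max ρ RV < ‖w‖ :=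
      tendsto_norm_cobounded_atTop.eventually (eventually_gt_atTop _)
    filter_upwards [h1] with w hw
    have hwV : w ∈ V := hRV w ((le_max_right _ _).trans_lt hw)
    by_contra hcon
    have h2 := hρ _ (h.inv_mem hwV) (not_le.1 hcon).le
    rw [h.inv_right hwV] at h2
    exact absurd (h2.trans (le_max_left _ _)) (not_le.2 hw)

/-- cluster values at a component lie in the complement of the image -/
theorem clusterPt_notMem (h : EndMap U V f) {z ζ : ℂ} (hζ : ClusterPt ζ (map f (eF U z))) :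
    ζ ∉ V := by
  intro hζV
  rw [← h.img] at hζV
  obtain ⟨z0, hz0, rfl⟩ := hζV
  have hK := isClosed_cc h.hU.1.isClosed_compl z
  obtain ⟨W, hWn, hWU, hWc⟩ := local_compact_nhds (h.hU.1.mem_nhds hz0)
  have h1 : f '' interior W ∈ 𝓝 (f z0) :=
    (h.opn _ (interior_subset.trans hWU) isOpen_interior).mem_nhds
      ⟨z0, mem_interior_iff_mem_nhds.2 hWn, rfl⟩
  have h2 : Wᶜ ∩ U ∈ eF U z := by
    refine inter_mem_inf (hWc.isClosed.isOpen_compl.mem_nhdsSet.2 ?_) (mem_principal_self U)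
    intro y hy hyW
    exact connectedComponentIn_subset _ _ hy (hWU hyW)
  have h3 : f '' (Wᶜ ∩ U) ∈ map f (eF U z) := image_mem_map h2
  obtain ⟨y, ⟨a, ha, rfl⟩, b, hb, hab⟩ := clusterPt_iff_nonempty.1 hζ h1 h3
  have := h.inj hb.2 (hWU (interior_subset ha)) hab
  rw [this] at hb
  exact hb.1 (interior_subset ha)

/-- **the main lemma**: `f` tends to one component of `Vᶜ` -/
theorem exists_tendsto (h : EndMap U V f) {z : ℂ} (hz : z ∉ U) :
    ∃ ζ, ζ ∉ V ∧ Tendsto f (eF U z) (eF V ζ) := by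
  have hKc := isCompact_cc (isCompact_compl h.hU) z
  have hF := eF_neBot h.hU hz
  -- the values are bounded
  obtain ⟨R, hR⟩ := hKc.isBounded.exists_norm_le
  obtain ⟨ρ, hρ⟩ := h.bdd (R + 1)
  have hnear : ∀ᶠ w in eF U z, w ∈ U ∧ ‖w‖ ≤ R + 1 := by
    have h1 : ball (0 : ℂ) (R + 1) ∈ 𝓝ˢ (connectedComponentIn Uᶜ z) :=
      isOpen_ball.mem_nhdsSet.2 fun w hw => by
        rw [mem_ball_zero_iff]; linarith [hR w hw]
    filter_upwards [inter_mem_inf h1 (mem_principal_self U)] with w hw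
    exact ⟨hw.2, (mem_ball_zero_iff.1 hw.1).le⟩
  have hbd : ∀ᶠ w in eF U z, f w ∈ closedBall (0 : ℂ) ρ := by
    filter_upwards [hnear] with w hw
    rw [mem_closedBall_zero_iff]; exact hρ w hw.1 hw.2
  obtain ⟨ζ, -, hζ⟩ := (isCompact_closedBall (0 : ℂ) ρ).exists_clusterPt
    (f := map f (eF U z)) (tendsto_principal.2 hbd : Tendsto f (eF U z) _)
  have hζV := h.clusterPt_notMem hζ
  refine ⟨ζ, hζV, ?_⟩
  have hU : Tendsto f (eF U z) (𝓟 V) := by
    rw [tendsto_principal]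
    filter_upwards [hnear] with w hw using h.mapsTo hw.1
  refine tendsto_inf.2 ⟨?_, hU⟩
  by_contra hnt
  -- a second cluster value off the component
  obtain ⟨s, hs, hns⟩ := not_tendsto_iff_exists_frequently_notMem.1 hnt
  obtain ⟨W, hWo, hMW, hWs⟩ := mem_nhdsSet_iff_exists.1 hs
  have hfr : (eF U z ⊓ 𝓟 (f ⁻¹' Wᶜ)).NeBot := by
    rw [← frequently_mem_iff_neBot]
    exact hns.mono fun w hw hwW => hw (hWs hwW)
  obtain ⟨ζ', -, hζ'⟩ := (isCompact_closedBall (0 : ℂ) ρ).exists_clusterPt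
    (f := map f (eF U z ⊓ 𝓟 (f ⁻¹' Wᶜ)))
    ((tendsto_principal.2 hbd : Tendsto f (eF U z) _).mono_left inf_le_left)
  have hζ'1 : ClusterPt ζ' (map f (eF U z)) := hζ'.mono (map_mono inf_le_left)
  have hζ'V := h.clusterPt_notMem hζ'1
  have hζ'W : ζ' ∈ Wᶜ := by
    have h1 : ClusterPt ζ' (𝓟 Wᶜ) := hζ'.mono (by
      have : Tendsto f (eF U z ⊓ 𝓟 (f ⁻¹' Wᶜ)) (𝓟 Wᶜ) := by
        rw [tendsto_principal]
        exact mem_of_superset (mem_inf_of_right (mem_principal_self _)) fun w hw => hw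
      exact this)
    have h2 := mem_closure_iff_clusterPt.2 h1
    rwa [hWo.isClosed_compl.closure_eq] at h2
  -- separate by a clopen piece
  have hζ'M : ζ' ∉ connectedComponentIn Vᶜ ζ := fun hm => hζ'W (hMW hm)
  obtain ⟨B, hBc, hBc', hBV, hMB, hBsub⟩ := exists_clopen (isCompact_compl h.hV)
    (show ζ ∈ Vᶜ from hζV) hWo hMW
  obtain ⟨N, hNo, hBN, hNc, hNd⟩ := exists_nhd hBc hBc'.isClosed disjoint_sdiff_right
  have hζB : ζ ∈ B := hMB (mem_connectedComponentIn hζV)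
  have hζ'B : ζ' ∉ B := fun hb => hζ'W (hBsub hb)
  have hζ'N : ζ' ∉ closure N := fun hm => disjoint_left.1 hNd hm ⟨hζ'V, hζ'B⟩
  have hQ'V : frontier N ⊆ V := by
    intro w hw
    by_contra hwV
    by_cases hwB : w ∈ B
    · rw [hNo.frontier_eq] at hw
      exact hw.2 (hBN hwB)
    · exact disjoint_left.1 hNd (frontier_subset_closure hw) ⟨hwV, hwB⟩
  have hQ'c : IsCompact (frontier N) := hNc.of_isClosed_subset isClosed_frontier
    frontier_subset_closure
  set Q : Set ℂ := h.inv '' frontier N with hQ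
  have hQc : IsCompact Q := hQ'c.image_of_continuousOn (h.symm.cont.mono hQ'V)
  have hQU : Q ⊆ U := by
    rintro _ ⟨w, hw, rfl⟩; exact h.inv_mem (hQ'V hw)
  set C := connectedComponentIn Qᶜ z with hC
  have hCo : IsOpen C := hQc.isClosed.isOpen_compl.connectedComponentIn
  have hKC : connectedComponentIn Uᶜ z ⊆ C := connectedComponentIn_mono _
    (compl_subset_compl.2 hQU)
  have hCU : IsPreconnected (C ∩ U) := preconn_inter h.hU.2.1.isPreconnected
    (isCompact_compl h.hU) hQc.isClosed hQU z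
  have hCF : C ∩ U ∈ eF U z := inter_mem_inf (hCo.mem_nhdsSet.2 hKC) (mem_principal_self U)
  have himg : IsPreconnected (f '' (C ∩ U)) := hCU.image f (h.cont.mono inter_subset_right)
  have hmiss : f '' (C ∩ U) ⊆ N ∪ (closure N)ᶜ := by
    rintro _ ⟨w, ⟨hwC, hwU⟩, rfl⟩
    by_cases h1 : f w ∈ closure N
    · left
      by_contra h2
      have h3 : f w ∈ frontier N := by rw [hNo.frontier_eq]; exact ⟨h1, h2⟩
      have h4 : w ∈ Q := ⟨f w, h3, h.inv_left hwU⟩
      exact connectedComponentIn_subset _ _ hwC h4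
    · exact Or.inr h1
  obtain ⟨a, ha, haN⟩ := clusterPt_iff_nonempty.1 hζ (hNo.mem_nhds (hBN hζB))
    (image_mem_map hCF)
  obtain ⟨b, hb, hbN⟩ := clusterPt_iff_nonempty.1 hζ'1
    (isClosed_closure.isOpen_compl.mem_nhds hζ'N) (image_mem_map hCF)
  obtain ⟨c, hc1, hc2, hc3⟩ := himg N (closure N)ᶜ hNo isClosed_closure.isOpen_compl hmiss
    ⟨a, haN, ha⟩ ⟨b, hbN, hb⟩
  exact hc3 (subset_closure hc2)

end EndMap

end Crest.Agent.R105.Ends_897
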