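import Crest.Agent.R105.Yv6_319

/-!
# R105 (S0138, HCi): ends of levels at a free hair, part 1 (helper179)

* `pair_le` : `|∫ G' Φ| ≤ ∫ |G'| W` for all `G ∈ C_c^∞(α, β)` gives `|Φ t0 - Φ t1| ≤ W t0 + W t1`
  for a.e. `t0, t1` in `(α, β)`.
-/

set_option autoImplicit false

open Set Filter MeasureTheory Metric
open scoped Topology NNReal ContDiff ENNReal Convolution

namespace Crest.Agent.R105.Eta_179

/-- the standard bumps -/
noncomputable def bp (n : ℕ) : ContDiffBump (0 : ℝ) :=
  ⟨1 / (2 * ((n:ℝ) + 1)), 1 / ((n:ℝ) + 1), by positivity, by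
    rw [div_lt_div_iff₀ (by positivity) (by positivity)]
    nlinarith [(Nat.cast_nonneg n : (0:ℝ) ≤ n)]⟩

theorem bp_tendsto : Tendsto (fun n => (bp n).rOut) atTop (𝓝 0) :=
  tendsto_one_div_add_atTop_nhds_zero_nat

/-- bump averages converge at a.e. point -/
theorem ae_bp {h : ℝ → ℝ} (hh : Integrable h) :
    ∀ᵐ x, Tendsto (fun n => ∫ s, (bp n).normed volume (x - s) * h s) atTop (𝓝 (h x)) := by
  have h2 : ∀ᶠ n in atTop, (bp n).rOut ≤ 2 * (bp n).rIn := by
    refine Eventually.of_forall fun n => ?_
    show (1:ℝ) / ((n:ℝ) + 1) ≤ 2 * (1 / (2 * ((n:ℝ) + 1)))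
    rw [← mul_div_assoc, mul_one, div_mul_eq_div_div, div_self two_ne_zero]
  filter_upwards [ContDiffBump.ae_convolution_tendsto_right_of_locallyIntegrable (μ := volume)
    bp_tendsto h2 hh.locallyIntegrable] with x hx
  refine hx.congr fun n => ?_
  rw [convolution_lsmul_swap]
  simp only [smul_eq_mul]

/-- a smooth function with total integral zero and support in `[l, r]` is the derivative of a
function with support in `[l, r]` -/
theorem exists_prim {g : ℝ → ℝ} (hg : ContDiff ℝ ∞ g) {l r : ℝ} (hlr : l ≤ r)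
    (h0 : ∀ s, s ∉ Icc l r → g s = 0) (hI : ∫ s, g s = 0) :
    ∃ G : ℝ → ℝ, ContDiff ℝ ∞ G ∧ HasCompactSupport G ∧ tsupport G ⊆ Icc l r ∧ deriv G = g := by
  obtain ⟨h1, h2⟩ := Sct_636.prim_smooth hg
  have hc : ∀ a b, IntervalIntegrable g volume a b := fun a b =>
    hg.continuous.intervalIntegrable a b
  set G : ℝ → ℝ := fun x => (∫ t in (0 : ℝ)..x, g t) - ∫ t in (0 : ℝ)..l, g t with hG
  have hGx : ∀ x, G x = ∫ t in l..x, g t := fun x => by
    simp only [hG]
    rw [intervalIntegral.integral_interval_sub_left (hc _ _) (hc _ _)]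
  have hz : ∀ x, x ∉ Icc l r → G x = 0 := by
    intro x hx
    rw [hGx]
    rw [mem_Icc, not_and_or, not_le, not_le] at hx
    rcases hx with hx | hx
    · refine intervalIntegral.integral_zero_ae (Eventually.of_forall fun s hs => ?_)
      rw [uIoc_of_ge hx.le] at hs
      rcases eq_or_lt_of_le hs.2 with h | h
      · -- s = l
        subst h
        by_contra hne
        have hcont : ContinuousAt g s := hg.continuous.continuousAt
        have h3 : ∀ᶠ y in 𝓝 s, g y ≠ 0 := hcont.eventually_ne hne
        obtain ⟨y, hy, hy'⟩ := (h3.filter_mono nhdsWithin_le_nhds).and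
          (self_mem_nhdsWithin : Iio s ∈ 𝓝[<] s) |>.exists
        exact hy (h0 y fun h => absurd h.1 (not_le.2 hy'))
      · exact h0 s fun h' => absurd h'.1 (not_le.2 h)
    · have h3 : ∫ t in l..x, g t = ∫ t, g t := by
        refine intervalIntegral.integral_eq_integral_of_support_subset (μ := volume) fun s hs => ?_
        have hsI : s ∈ Icc l r := by
          by_contra h; exact hs (h0 s h)
        refine ⟨lt_of_le_of_ne hsI.1 ?_, hsI.2.trans hx.le⟩
        rintro rfl
        apply hs
        by_contra hne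
        have hcont : ContinuousAt g l := hg.continuous.continuousAt
        have h3 : ∀ᶠ y in 𝓝 l, g y ≠ 0 := hcont.eventually_ne hne
        obtain ⟨y, hy, hy'⟩ := (h3.filter_mono nhdsWithin_le_nhds).and
          (self_mem_nhdsWithin : Iio l ∈ 𝓝[<] l) |>.exists
        exact hy (h0 y fun h => absurd h.1 (not_le.2 hy'))
      rw [h3, hI]
  have hs : tsupport G ⊆ Icc l r := by
    refine closure_minimal (fun x hx => ?_) isClosed_Icc
    by_contra h; exact hx (hz x h)
  refine ⟨G, h1.sub contDiff_const, HasCompactSupport.of_support_subset_isCompact isCompact_Icc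
    (subset_tsupport G |>.trans hs), hs, ?_⟩
  funext x
  have : deriv G x = deriv (fun x => ∫ t in (0 : ℝ)..x, g t) x := by
    simp only [hG]; rw [deriv_sub_const]
  rw [this, h2]

/-- **pairs of levels** -/
theorem pair_le {Φ W : ℝ → ℝ} (hΦ : Integrable Φ) (hW : Integrable W) {α β : ℝ}
    (h : ∀ G : ℝ → ℝ, ContDiff ℝ ∞ G → HasCompactSupport G → tsupport G ⊆ Ioo α β →
      |∫ t, deriv G t * Φ t| ≤ ∫ t, |deriv G t| * W t) (hW0 : ∀ t, 0 ≤ W t) {t0 t1 : ℝ}
    (m0 : t0 ∈ Ioo α β) (m1 : t1 ∈ Ioo α β)
    (a1 : Tendsto (fun n => ∫ s, (bp n).normed volume (t0 - s) * Φ s) atTop (𝓝 (Φ t0)))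
    (a2 : Tendsto (fun n => ∫ s, (bp n).normed volume (t0 - s) * W s) atTop (𝓝 (W t0)))
    (b1 : Tendsto (fun n => ∫ s, (bp n).normed volume (t1 - s) * Φ s) atTop (𝓝 (Φ t1)))
    (b2 : Tendsto (fun n => ∫ s, (bp n).normed volume (t1 - s) * W s) atTop (𝓝 (W t1))) :
    |Φ t0 - Φ t1| ≤ W t0 + W t1 := by
  have hlim : Tendsto (fun n => |(∫ s, (bp n).normed volume (t0 - s) * Φ s) -
      ∫ s, (bp n).normed volume (t1 - s) * Φ s|) atTop (𝓝 |Φ t0 - Φ t1|) := (a1.sub b1).abs
  have hlim' : Tendsto (fun n => (∫ s, (bp n).normed volume (t0 - s) * W s) +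
      ∫ s, (bp n).normed volume (t1 - s) * W s) atTop (𝓝 (W t0 + W t1)) := a2.add b2
  refine le_of_tendsto_of_tendsto hlim hlim' ?_
  set δ : ℝ := min (min (t0 - α) (β - t0)) (min (t1 - α) (β - t1)) / 2 with hδ
  have hδ0 : 0 < δ := by
    have h1 : 0 < t0 - α := by linarith [m0.1]
    have h2 : 0 < β - t0 := by linarith [m0.2]
    have h3 : 0 < t1 - α := by linarith [m1.1]
    have h4 : 0 < β - t1 := by linarith [m1.2]
    rw [hδ]; positivity
  have d1 : δ < t0 - α := by
    have := min_le_left (min (t0 - α) (β - t0)) (min (t1 - α) (β - t1))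
    have := min_le_left (t0 - α) (β - t0)
    linarith
  have d2 : δ < β - t0 := by
    have := min_le_left (min (t0 - α) (β - t0)) (min (t1 - α) (β - t1))
    have := min_le_right (t0 - α) (β - t0)
    linarith
  have d3 : δ < t1 - α := by
    have := min_le_right (min (t0 - α) (β - t0)) (min (t1 - α) (β - t1))
    have := min_le_left (t1 - α) (β - t1)
    linarith
  have d4 : δ < β - t1 := by
    have := min_le_right (min (t0 - α) (β - t0)) (min (t1 - α) (β - t1))
    have := min_le_right (t1 - α) (β - t1)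
    linarith
  filter_upwards [bp_tendsto.eventually (gt_mem_nhds hδ0)] with n hn
  set g : ℝ → ℝ := fun s => (bp n).normed volume (t0 - s) - (bp n).normed volume (t1 - s) with hg
  have c0 : ∀ x : ℝ, ContDiff ℝ ∞ fun s => (bp n).normed volume (x - s) := fun x =>
    (bp n).contDiff_normed.comp (contDiff_const.sub contDiff_id)
  have k0 : ∀ x : ℝ, HasCompactSupport fun s => (bp n).normed volume (x - s) := fun x =>
    (bp n).hasCompactSupport_normed.comp_homeomorph (Homeomorph.subLeft x)
  have i0 : ∀ x : ℝ, Integrable fun s => (bp n).normed volume (x - s) := fun x =>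
    (c0 x).continuous.integrable_of_hasCompactSupport (k0 x)
  have I0 : ∀ x : ℝ, ∫ s, (bp n).normed volume (x - s) = 1 := fun x => by
    rw [integral_sub_left_eq_self (fun s => (bp n).normed volume s) volume x]
    exact (bp n).integral_normed
  have z0 : ∀ x s : ℝ, δ ≤ |x - s| → (bp n).normed volume (x - s) = 0 := by
    intro x s hxs
    by_contra hne
    have h1 : x - s ∈ Function.support ((bp n).normed volume) := hne
    rw [(bp n).support_normed_eq, mem_ball, dist_zero_right, Real.norm_eq_abs] at h1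
    linarith
  have iΦ : ∀ {f : ℝ → ℝ}, Integrable f → ∀ x : ℝ,
      Integrable fun s => (bp n).normed volume (x - s) * f s := by
    intro f hf x
    obtain ⟨M, hM⟩ := (k0 x).exists_bound_of_continuous (c0 x).continuous
    exact hf.bdd_mul (c := M) (c0 x).continuous.aestronglyMeasurable (Eventually.of_forall hM)
  set l : ℝ := min t0 t1 - δ with hl
  set r : ℝ := max t0 t1 + δ with hr
  have hlr : l ≤ r := by
    have := min_le_max (a := t0) (b := t1); rw [hl, hr]; linarith
  have hout : ∀ s, s ∉ Icc l r → δ ≤ |t0 - s| ∧ δ ≤ |t1 - s| := by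
    intro s hs
    rw [mem_Icc, not_and_or, not_le, not_le] at hs
    have e1 := min_le_left t0 t1; have e2 := min_le_right t0 t1
    have e3 := le_max_left t0 t1; have e4 := le_max_right t0 t1
    rcases hs with hs | hs
    · constructor
      · exact le_trans (by linarith) (le_abs_self _)
      · exact le_trans (by linarith) (le_abs_self _)
    · constructor
      · rw [← abs_neg]; exact le_trans (by linarith) (le_abs_self _)
      · rw [← abs_neg]; exact le_trans (by linarith) (le_abs_self _)
  obtain ⟨G, G1, G2, G3, G4⟩ := exists_prim (g := g) ((c0 t0).sub (c0 t1)) hlr (fun s hs => by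
    obtain ⟨e1, e2⟩ := hout s hs
    simp only [hg]; rw [z0 t0 s e1, z0 t1 s e2, sub_zero]) (by
    simp only [hg]; rw [integral_sub (i0 t0) (i0 t1), I0, I0, sub_self])
  have hsub : Icc l r ⊆ Ioo α β := by
    intro s hs
    have e1 : min t0 t1 = t0 ∨ min t0 t1 = t1 := min_choice _ _
    have e2 : max t0 t1 = t0 ∨ max t0 t1 = t1 := max_choice _ _
    refine ⟨?_, ?_⟩
    · rcases e1 with e | e <;> rw [e] at hl <;> linarith [hs.1]
    · rcases e2 with e | e <;> rw [e] at hr <;> linarith [hs.2]
  have key := h G G1 G2 (G3.trans hsub)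
  rw [G4] at key
  have e1 : ∫ t, g t * Φ t = (∫ s, (bp n).normed volume (t0 - s) * Φ s) -
      ∫ s, (bp n).normed volume (t1 - s) * Φ s := by
    rw [← integral_sub (iΦ hΦ t0) (iΦ hΦ t1)]
    congr 1; ext s; simp only [hg]; ring
  have e2 : ∫ t, |g t| * W t ≤ (∫ s, (bp n).normed volume (t0 - s) * W s) +
      ∫ s, (bp n).normed volume (t1 - s) * W s := by
    rw [← integral_add (iΦ hW t0) (iΦ hW t1)]
    have hgc : Continuous fun s => |g s| := ((c0 t0).sub (c0 t1)).continuous.abs
    have hgi : Integrable fun t => |g t| * W t := by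
      have hk : HasCompactSupport g := (k0 t0).sub (k0 t1)
      obtain ⟨M, hM⟩ := hk.exists_bound_of_continuous ((c0 t0).sub (c0 t1)).continuous
      exact hW.bdd_mul (c := M) hgc.aestronglyMeasurable (Eventually.of_forall fun s => by
        rw [Real.norm_eq_abs, abs_abs]; exact hM s)
    refine integral_mono hgi ((iΦ hW t0).add (iΦ hW t1)) fun s => ?_
    have n0 := (bp n).nonneg_normed (μ := volume) (t0 - s)
    have n1 := (bp n).nonneg_normed (μ := volume) (t1 - s)
    have : |g s| ≤ (bp n).normed volume (t0 - s) + (bp n).normed volume (t1 - s) := by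
      simp only [hg]
      rw [abs_le]; constructor <;> linarith
    calc |g s| * W s ≤ ((bp n).normed volume (t0 - s) + (bp n).normed volume (t1 - s)) * W s :=
          mul_le_mul_of_nonneg_right this (hW0 s)
      _ = _ := by ring
  rw [e1] at key
  exact key.trans e2

end Crest.Agent.R105.Eta_179
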