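import Crest.Agent.R105.Uv3_913
import Crest.Agent.R105.IfB2_641

/-!
Row 105, UNIV, file 6 (helper913): Euler-Lagrange for the products `c · h(x)` in the package
`Pk` / `Cpl` of helper641.
-/

set_option autoImplicit false

namespace Crest.Agent.R105.Uv_913

open Complex Set Filter Topology Metric MeasureTheory
open scoped ContDiff NNReal
open Crest.Agent.R105.IfB_641 (Pk Cpl X0 TD di lap EL T1 contDiff_gx contDiff_gy Gen.of Gen.mul
  Gen.add Gen.comp Gen.lc Iso.trans Gen.q)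
open Crest.Agent.R105.Bd_775 (gx gy dot LC Q D)

variable {C : Set ℂ} {x0 φ : ℂ → ℝ} {b : ℕ → ℂ → ℝ} {p : ℂ → ℂ} {c : ℂ → ℝ} {h : ℝ → ℝ}

theorem lip_of_deriv (hh : ContDiff ℝ ∞ h) (hd : HasCompactSupport (deriv h)) :
    ∃ K : ℝ≥0, LipschitzWith K h := by
  obtain ⟨M, hM⟩ := hd.exists_bound_of_continuous (hh.continuous_deriv (by simp))
  refine ⟨M.toNNReal, lipschitzWith_of_nnnorm_deriv_le (hh.differentiable (by simp)) fun x => ?_⟩
  rw [← NNReal.coe_le_coe, coe_nnnorm]
  exact (hM x).trans (Real.le_coe_toNNReal _)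

theorem lc_of_Lc (hc : Lc Cᶜ c) : LC C c :=
  LC.of_compact (hc.1.of_le (by simp)).locallyLipschitz hc.2.1
    fun z hz => hc.2.2 z (fun h => h hz)

theorem smooth_cutoff {K : Set ℂ} (hK : IsCompact K) :
    ∃ χ : ℂ → ℝ, ContDiff ℝ ∞ χ ∧ HasCompactSupport χ ∧ ∀ z ∈ K, χ z = 1 := by
  obtain ⟨R, hR⟩ := hK.isBounded.subset_closedBall (0 : ℂ)
  set R' : ℝ := max R 1
  have hR1 : 0 < R' := lt_of_lt_of_le one_pos (le_max_right _ _)
  let f : ContDiffBump (0 : ℂ) := ⟨R', R' + 1, hR1, by linarith⟩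
  exact ⟨f, f.contDiff, f.hasCompactSupport, fun z hz =>
    f.one_of_mem_closedBall (closedBall_subset_closedBall (le_max_left _ _) (hR hz))⟩

/-- the test function is in the algebra -/
theorem gen_test (hx : X0 C x0) (hc : Lc Cᶜ c) {K : ℝ≥0}
    (hh : LipschitzWith K h) {S : Set (ℂ → ℝ)} (hS : φ ∈ S) :
    IfB_641.Gen C S (fun z => c z * h (x0 z + φ z)) := by
  obtain ⟨χ, h1, h2, h3⟩ := smooth_cutoff (K := tsupport c) hc.2.1
  have e : (fun z => c z * h (x0 z + φ z)) = fun z => c z * h (x0 z * χ z + φ z) := by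
    funext z
    by_cases hz : z ∈ tsupport c
    · rw [h3 z hz, mul_one]
    · rw [image_eq_zero_of_notMem_tsupport hz, zero_mul, zero_mul]
  rw [e]
  have hl : LC C (fun z => x0 z * χ z) := by
    refine LC.of_compact ((hx.sm.mul h1).of_le (by simp)).locallyLipschitz
      (h2.mul_left) fun z hz => ?_
    have h4 : x0 =ᶠ[𝓝 z] 0 := notMem_tsupport_iff_eventuallyEq.1 fun h => hx.zero h hz
    filter_upwards [h4] with w hw
    rw [hw, h4.self_of_nhds]; simp
  exact Gen.mul (Gen.lc (lc_of_Lc hc)) (Gen.comp hh (Gen.add (Gen.lc hl) (Gen.of hS)))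

theorem q_test (hC : IsClosed C) (hx : X0 C x0) (hφ : D C φ) (hc : Lc Cᶜ c) {K : ℝ≥0}
    (hh : LipschitzWith K h) : D C (fun z => c z * h (x0 z + φ z)) := by
  have h1 := gen_test (S := {φ}) hx hc hh (mem_singleton _)
  refine (h1.q hC ?_).d ?_
  · rintro s rfl; exact hφ.q
  · exact hc.1.continuous.mul (hh.continuous.comp (hx.sm.continuous.add hφ.cont))

/-- Euler-Lagrange for `c · h(x)` -/
theorem el_test (hP : Pk C x0 b φ) (hc : Lc Cᶜ c) {K : ℝ≥0} (hh : LipschitzWith K h) :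
    di C φ (fun z => c z * h (x0 z + φ z))
      = ∫ z, (c z * h (x0 z + φ z)) * lap x0 z := by
  have hC := hP.td.cpt.isClosed
  refine hP.el _ (Or.inl (q_test hC hP.hx0 hP.memφ hc hh)) (Iso.trans ?_ hP.iso)
  rintro s (rfl | hs)
  · exact gen_test hP.hx0 hc hh (mem_insert _ _)
  · exact Gen.of hs

/-- integration by parts against the smooth coordinate -/
theorem ibp_x0 (hx : X0 C x0) {ψ : ℂ → ℝ} (hψ : ∀ z ∈ Cᶜ, ContDiffAt ℝ ∞ ψ z)
    (hs : HasCompactSupport ψ) :
    IntegrableOn (dot x0 ψ) Cᶜ ∧ ∫ z in Cᶜ, dot x0 ψ z = - ∫ z, ψ z * lap x0 z := by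
  have hz0 : ∀ z ∈ C, x0 =ᶠ[𝓝 z] 0 := fun z hz =>
    notMem_tsupport_iff_eventuallyEq.1 fun h => hx.zero h hz
  have hsm : ∀ g : ℂ → ℝ, ContDiff ℝ ∞ g → (∀ z ∈ C, g =ᶠ[𝓝 z] 0) →
      ContDiff ℝ ∞ (fun z => ψ z * g z) := by
    intro g hg hg0
    rw [contDiff_iff_contDiffAt]
    intro z
    by_cases hz : z ∈ C
    · have : (fun z => ψ z * g z) =ᶠ[𝓝 z] fun _ => 0 := by
        filter_upwards [hg0 z hz] with w hw
        rw [hw]; simp
      exact (contDiffAt_const (c := (0 : ℝ))).congr_of_eventuallyEq this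
    · exact (hψ z hz).mul hg.contDiffAt
  have hgx0 : ∀ z ∈ C, gx x0 =ᶠ[𝓝 z] 0 := by
    intro z hz
    have := IfB_641.gx_of_eq (hz0 z hz)
    refine this.trans (Eventually.of_forall fun w => ?_)
    exact Bd_775.gx_const 0 w
  have hgy0 : ∀ z ∈ C, gy x0 =ᶠ[𝓝 z] 0 := by
    intro z hz
    have := IfB_641.gy_of_eq (hz0 z hz)
    refine this.trans (Eventually.of_forall fun w => ?_)
    exact Bd_775.gy_const 0 w
  have s1 := hsm (gx x0) (contDiff_gx hx.sm) hgx0
  have s2 := hsm (gy x0) (contDiff_gy hx.sm) hgy0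
  have c1 : HasCompactSupport (fun z => ψ z * gx x0 z) := hs.mul_right
  have c2 : HasCompactSupport (fun z => ψ z * gy x0 z) := hs.mul_right
  have i1 := integral_fderiv_zero s1 c1 1
  have i2 := integral_fderiv_zero s2 c2 I
  have k1 : Integrable (fun z => fderiv ℝ (fun z => ψ z * gx x0 z) z 1) :=
    (contDiff_gx s1).continuous.integrable_of_hasCompactSupport
      (c1.fderiv_apply (𝕜 := ℝ) 1)
  have k2 : Integrable (fun z => fderiv ℝ (fun z => ψ z * gy x0 z) z I) :=
    (contDiff_gy s2).continuous.integrable_of_hasCompactSupport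
      (c2.fderiv_apply (𝕜 := ℝ) I)
  have k3 : Integrable (fun z => ψ z * lap x0 z) := by
    have hl0 : ∀ z ∈ C, lap x0 =ᶠ[𝓝 z] 0 := by
      intro z hz
      have := IfB_641.lap_of_eq (hz0 z hz)
      rwa [IfB_641.lap_zero] at this
    exact (hsm (lap x0) ((contDiff_gx (contDiff_gx hx.sm)).add
      (contDiff_gy (contDiff_gy hx.sm))) hl0).continuous.integrable_of_hasCompactSupport
      hs.mul_right
  have key : ∀ z, dot x0 ψ z = fderiv ℝ (fun z => ψ z * gx x0 z) z 1
      + fderiv ℝ (fun z => ψ z * gy x0 z) z I - ψ z * lap x0 z := by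
    intro z
    by_cases hz : z ∈ C
    · have e1 : (fun z => ψ z * gx x0 z) =ᶠ[𝓝 z] fun _ => 0 := by
        filter_upwards [hgx0 z hz] with w hw
        rw [hw]; simp
      have e2 : (fun z => ψ z * gy x0 z) =ᶠ[𝓝 z] fun _ => 0 := by
        filter_upwards [hgy0 z hz] with w hw
        rw [hw]; simp
      have e3 : lap x0 z = 0 := by
        have := IfB_641.lap_of_eq (hz0 z hz)
        rw [IfB_641.lap_zero] at this
        exact this.self_of_nhds
      unfold Bd_775.dot
      rw [(hgx0 z hz).self_of_nhds, (hgy0 z hz).self_of_nhds, e1.fderiv_eq, e2.fderiv_eq, e3]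
      simp
    · have d1 : DifferentiableAt ℝ ψ z := (hψ z hz).differentiableAt (by simp)
      have d2 : DifferentiableAt ℝ (gx x0) z :=
        (contDiff_gx hx.sm).contDiffAt.differentiableAt (by simp)
      have d3 : DifferentiableAt ℝ (gy x0) z :=
        (contDiff_gy hx.sm).contDiffAt.differentiableAt (by simp)
      have e1 := Bd_775.gx_mul d1 d2
      have e2 := Bd_775.gy_mul d1 d3
      change fderiv ℝ (fun z => ψ z * gx x0 z) z 1 = _ at e1
      change fderiv ℝ (fun z => ψ z * gy x0 z) z I = _ at e2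
      rw [e1, e2]
      unfold IfB_641.lap Bd_775.dot
      ring
  have hzero : ∀ z, z ∉ Cᶜ → dot x0 ψ z = 0 := by
    intro z hz
    rw [notMem_compl_iff] at hz
    unfold Bd_775.dot
    rw [(hgx0 z hz).self_of_nhds, (hgy0 z hz).self_of_nhds]
    simp
  have hint : Integrable (dot x0 ψ) := by
    have : dot x0 ψ = fun z => fderiv ℝ (fun z => ψ z * gx x0 z) z 1
      + fderiv ℝ (fun z => ψ z * gy x0 z) z I - ψ z * lap x0 z := funext key
    rw [this]
    exact (k1.add k2).sub k3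
  refine ⟨hint.integrableOn, ?_⟩
  rw [setIntegral_eq_integral_of_forall_compl_eq_zero hzero]
  have : (fun z => dot x0 ψ z) = fun z => (fderiv ℝ (fun z => ψ z * gx x0 z) z 1
      + fderiv ℝ (fun z => ψ z * gy x0 z) z I) - ψ z * lap x0 z := funext key
  have k12 : Integrable (fun z => fderiv ℝ (fun z => ψ z * gx x0 z) z 1
      + fderiv ℝ (fun z => ψ z * gy x0 z) z I) := k1.add k2
  rw [this, integral_sub k12 k3, integral_add k1 k2, i1, i2]
  ring

theorem clm_eq (L : ℂ →L[ℝ] ℝ) (w : ℂ) : L w = w.re * L 1 + w.im * L I := by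
  have : w = w.re • (1 : ℂ) + w.im • I := by
    apply Complex.ext <;> simp
  conv_lhs => rw [this]
  rw [map_add, map_smul, map_smul, smul_eq_mul, smul_eq_mul]

theorem fderiv_re {z : ℂ} (hz : DifferentiableAt ℂ p z) (v : ℂ) :
    fderiv ℝ (fun w => (p w).re) z v = (deriv p z * v).re := by
  have h1 : HasFDerivAt p ((ContinuousLinearMap.toSpanSingleton ℂ (deriv p z)).restrictScalars ℝ)
      z := (hz.hasDerivAt.hasFDerivAt).restrictScalars ℝ
  have h2 : HasFDerivAt (fun w => (p w).re) (reCLM.comp _) z :=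
    (reCLM.hasFDerivAt (x := p z)).comp z h1
  rw [h2.fderiv]
  simp [mul_comm]

/-- pointwise form -/
theorem dot_test (hC : IsClosed C) (hx : X0 C x0) (hp : Cpl C x0 φ p) (hc : Lc Cᶜ c)
    (hh : ContDiff ℝ ∞ h) {z : ℂ} (hz : z ∈ Cᶜ) :
    dot φ (fun z => c z * h (x0 z + φ z)) z + dot x0 (fun z => c z * h (x0 z + φ z)) z
      = deriv h (p z).re * c z * ‖deriv p z‖ ^ 2
        + h (p z).re * fderiv ℝ c z ((starRingEnd ℂ) (deriv p z)) := by
  have hn : Cᶜ ∈ 𝓝 z := hC.isOpen_compl.mem_nhds hz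
  have hpd : DifferentiableAt ℂ p z := hp.hol.differentiableAt hn
  have e1 : φ =ᶠ[𝓝 z] fun w => (p w).re - x0 w := by
    filter_upwards [hn] with w hw
    rw [hp.re w hw]; ring
  have e2 : (fun z => c z * h (x0 z + φ z)) =ᶠ[𝓝 z] fun w => c w * h ((p w).re) := by
    filter_upwards [hn] with w hw
    rw [hp.re w hw]
  have dre : DifferentiableAt ℝ (fun w => (p w).re) z :=
    reCLM.differentiableAt.comp z (hpd.restrictScalars ℝ)
  have dx0 : DifferentiableAt ℝ x0 z := hx.sm.contDiffAt.differentiableAt (by simp)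
  have dc : DifferentiableAt ℝ c z := hc.1.contDiffAt.differentiableAt (by simp)
  have dh : HasDerivAt h (deriv h (p z).re) ((fun w => (p w).re) z) :=
    (hh.contDiffAt.differentiableAt (by simp)).hasDerivAt
  have dhc : HasFDerivAt (fun w => h ((p w).re)) (deriv h (p z).re • fderiv ℝ (fun w => (p w).re) z)
      z := dh.comp_hasFDerivAt z dre.hasFDerivAt
  have g1 : gx φ z = (deriv p z).re - gx x0 z := by
    rw [Bd_775.gx_eq_of_eventuallyEq e1, Bd_775.gx_sub dre dx0]
    congr 1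
    show fderiv ℝ (fun w => (p w).re) z 1 = _
    rw [fderiv_re hpd]; simp
  have g2 : gy φ z = -(deriv p z).im - gy x0 z := by
    rw [Bd_775.gy_eq_of_eventuallyEq e1, Bd_775.gy_sub dre dx0]
    congr 1
    show fderiv ℝ (fun w => (p w).re) z I = _
    rw [fderiv_re hpd]; simp
  have g3 : gx (fun z => c z * h (x0 z + φ z)) z
      = gx c z * h (p z).re + c z * (deriv h (p z).re * (deriv p z).re) := by
    rw [Bd_775.gx_eq_of_eventuallyEq e2, Bd_775.gx_mul dc dhc.differentiableAt]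
    have : gx (fun w => h ((p w).re)) z = deriv h (p z).re * (deriv p z).re := by
      show fderiv ℝ (fun w => h ((p w).re)) z 1 = _
      rw [dhc.fderiv, _root_.smul_apply, fderiv_re hpd]; simp
    rw [this]; ring
  have g4 : gy (fun z => c z * h (x0 z + φ z)) z
      = gy c z * h (p z).re - c z * (deriv h (p z).re * (deriv p z).im) := by
    rw [Bd_775.gy_eq_of_eventuallyEq e2, Bd_775.gy_mul dc dhc.differentiableAt]
    have : gy (fun w => h ((p w).re)) z = - (deriv h (p z).re * (deriv p z).im) := by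
      show fderiv ℝ (fun w => h ((p w).re)) z I = _
      rw [dhc.fderiv, _root_.smul_apply, fderiv_re hpd]; simp
    rw [this]; ring
  have g5 : fderiv ℝ c z ((starRingEnd ℂ) (deriv p z))
      = (deriv p z).re * gx c z - (deriv p z).im * gy c z := by
    rw [clm_eq]
    show _ * fderiv ℝ c z 1 + _ * fderiv ℝ c z I = _ * fderiv ℝ c z 1 - _ * fderiv ℝ c z I
    simp
    ring
  have g6 : ‖deriv p z‖ ^ 2 = (deriv p z).re ^ 2 + (deriv p z).im ^ 2 := by
    rw [Complex.sq_norm, Complex.normSq_apply]; ring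
  unfold Bd_775.dot
  rw [g1, g2, g3, g4, g5, g6]
  ring

/-- **Euler-Lagrange for `c · h(x)`** -/
theorem el_eq (hP : Pk C x0 b φ) (hp : Cpl C x0 φ p) (hc : Lc Cᶜ c) (hh : ContDiff ℝ ∞ h)
    (hd : HasCompactSupport (deriv h)) :
    IntegrableOn (fun z => deriv h (p z).re * c z * ‖deriv p z‖ ^ 2
        + h (p z).re * fderiv ℝ c z ((starRingEnd ℂ) (deriv p z))) Cᶜ ∧
    ∫ z in Cᶜ, (deriv h (p z).re * c z * ‖deriv p z‖ ^ 2
        + h (p z).re * fderiv ℝ c z ((starRingEnd ℂ) (deriv p z))) = 0 := by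
  have hC := hP.td.cpt.isClosed
  obtain ⟨K, hK⟩ := lip_of_deriv hh hd
  have h1 := el_test hP hc hK
  have hD := q_test hC hP.hx0 hP.memφ hc hK
  have hsm : ∀ z ∈ Cᶜ, ContDiffAt ℝ ∞ (fun z => c z * h (x0 z + φ z)) z := by
    intro z hz
    have hn : Cᶜ ∈ 𝓝 z := hC.isOpen_compl.mem_nhds hz
    have e2 : (fun z => c z * h (x0 z + φ z)) =ᶠ[𝓝 z] fun w => c w * h ((p w).re) := by
      filter_upwards [hn] with w hw
      rw [hp.re w hw]
    refine ContDiffAt.congr_of_eventuallyEq ?_ e2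
    have h3 : ContDiffAt ℝ ∞ (fun w => (p w).re) z :=
      reCLM.contDiff.contDiffAt.comp z (smooth_re hC.isOpen_compl hp.hol hz)
    exact hc.1.contDiffAt.mul (hh.contDiffAt.comp z h3)
  obtain ⟨h2, h3⟩ := ibp_x0 hP.hx0 hsm hc.2.1.mul_right
  have h4 := Bd_775.integrableOn_dot hP.memφ.q hD.q
  have h5 : IntegrableOn (fun z => dot φ (fun z => c z * h (x0 z + φ z)) z
      + dot x0 (fun z => c z * h (x0 z + φ z)) z) Cᶜ := h4.add h2
  have h6 : EqOn (fun z => dot φ (fun z => c z * h (x0 z + φ z)) z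
      + dot x0 (fun z => c z * h (x0 z + φ z)) z) (fun z => deriv h (p z).re * c z *
        ‖deriv p z‖ ^ 2 + h (p z).re * fderiv ℝ c z ((starRingEnd ℂ) (deriv p z))) Cᶜ :=
    fun z hz => dot_test hC hP.hx0 hp hc hh hz
  refine ⟨h5.congr_fun h6 hC.isOpen_compl.measurableSet, ?_⟩
  rw [← setIntegral_congr_fun hC.isOpen_compl.measurableSet h6, integral_add h4 h2, h3]
  unfold IfB_641.di at h1
  rw [h1]; ring

/-- local energy -/
theorem energy (hP : Pk C x0 b φ) (hp : Cpl C x0 φ p) (R : ℝ) :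
    IntegrableOn (fun z => ‖deriv p z‖ ^ 2) (Cᶜ ∩ ball 0 R) := by
  have hC := hP.td.cpt.isClosed
  have hm : MeasurableSet (Cᶜ ∩ ball (0 : ℂ) R) :=
    hC.isOpen_compl.measurableSet.inter measurableSet_ball
  have h1 : IntegrableOn (Bd_775.en φ) (Cᶜ ∩ ball 0 R) :=
    hP.memφ.fin.mono_set inter_subset_left
  have hcx : Continuous (Bd_775.en x0) :=
    ((contDiff_gx hP.hx0.sm).continuous.pow 2).add ((contDiff_gy hP.hx0.sm).continuous.pow 2)
  have h2 : IntegrableOn (Bd_775.en x0) (Cᶜ ∩ ball 0 R) :=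
    (hcx.continuousOn.integrableOn_compact (isCompact_closedBall (0 : ℂ) R)).mono_set
      (inter_subset_right.trans ball_subset_closedBall)
  refine Integrable.mono' ((h1.const_mul 2).add (h2.const_mul 2)) ?_ ?_
  · refine ContinuousOn.aestronglyMeasurable ?_ hm
    exact ((hp.hol.deriv hC.isOpen_compl).continuousOn.norm.pow 2).mono inter_subset_left
  · rw [ae_restrict_iff' hm]
    refine Eventually.of_forall fun z hz => ?_
    have hn : Cᶜ ∈ 𝓝 z := hC.isOpen_compl.mem_nhds hz.1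
    have hpd : DifferentiableAt ℂ p z := hp.hol.differentiableAt hn
    have dre : DifferentiableAt ℝ (fun w => (p w).re) z :=
      reCLM.differentiableAt.comp z (hpd.restrictScalars ℝ)
    have dx0 : DifferentiableAt ℝ x0 z := hP.hx0.sm.contDiffAt.differentiableAt (by simp)
    have e1 : φ =ᶠ[𝓝 z] fun w => (p w).re - x0 w := by
      filter_upwards [hn] with w hw
      rw [hp.re w hw]; ring
    have g1 : gx φ z = (deriv p z).re - gx x0 z := by
      rw [Bd_775.gx_eq_of_eventuallyEq e1, Bd_775.gx_sub dre dx0]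
      congr 1
      show fderiv ℝ (fun w => (p w).re) z 1 = _
      rw [fderiv_re hpd]; simp
    have g2 : gy φ z = -(deriv p z).im - gy x0 z := by
      rw [Bd_775.gy_eq_of_eventuallyEq e1, Bd_775.gy_sub dre dx0]
      congr 1
      show fderiv ℝ (fun w => (p w).re) z I = _
      rw [fderiv_re hpd]; simp
    have g6 : ‖deriv p z‖ ^ 2 = (deriv p z).re ^ 2 + (deriv p z).im ^ 2 := by
      rw [Complex.sq_norm, Complex.normSq_apply]; ring
    rw [Real.norm_of_nonneg (by positivity), g6]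
    show _ ≤ 2 * Bd_775.en φ z + 2 * Bd_775.en x0 z
    unfold Bd_775.en
    rw [g1, g2]
    nlinarith [sq_nonneg ((deriv p z).re - 2 * gx x0 z), sq_nonneg ((deriv p z).im + 2 * gy x0 z)]

theorem int_second (hP : Pk C x0 b φ) (hp : Cpl C x0 φ p) (hc : Lc Cᶜ c) (hh : ContDiff ℝ ∞ h) :
    IntegrableOn (fun z => h (p z).re * fderiv ℝ c z ((starRingEnd ℂ) (deriv p z))) Cᶜ := by
  have hC := hP.td.cpt.isClosed
  obtain ⟨R, hR⟩ := hc.2.1.isCompact.isBounded.subset_ball (0 : ℂ)
  have hcf : Continuous (fderiv ℝ c) := hc.1.continuous_fderiv (by simp)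
  have hcx : Continuous (fun z => h (x0 z + φ z)) :=
    hh.continuous.comp (hP.hx0.sm.continuous.add hP.memφ.cont)
  obtain ⟨M, hM⟩ := (isCompact_closedBall (0 : ℂ) R).exists_bound_of_continuousOn
    (f := fun z => h (x0 z + φ z) • fderiv ℝ c z) (hcx.smul hcf).continuousOn
  have hsub : Cᶜ = (Cᶜ ∩ ball 0 R) ∪ (Cᶜ \ ball 0 R) := (inter_union_sdiff _ _).symm
  have hz : ∀ z ∈ Cᶜ \ (Cᶜ ∩ ball (0 : ℂ) R),
      h (p z).re * fderiv ℝ c z ((starRingEnd ℂ) (deriv p z)) = 0 := by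
    intro z hz
    have : z ∉ tsupport c := fun h => hz.2 ⟨hz.1, hR h⟩
    have : fderiv ℝ c z = 0 := by
      have h1 : c =ᶠ[𝓝 z] 0 := notMem_tsupport_iff_eventuallyEq.1 this
      rw [h1.fderiv_eq]; simp
    rw [this]; simp
  have hm : MeasurableSet (Cᶜ ∩ ball (0 : ℂ) R) :=
    hC.isOpen_compl.measurableSet.inter measurableSet_ball
  refine IntegrableOn.of_forall_sdiff_eq_zero (s := Cᶜ ∩ ball 0 R) ?_
    hC.isOpen_compl.measurableSet hz
  have hfin : volume (Cᶜ ∩ ball (0 : ℂ) R) ≠ ⊤ :=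
    ne_top_of_le_ne_top measure_ball_lt_top.ne (measure_mono inter_subset_right)
  have hi : IntegrableOn (fun z => |M| * (1 + ‖deriv p z‖ ^ 2)) (Cᶜ ∩ ball 0 R) :=
    ((integrableOn_const hfin).add (energy hP hp R)).const_mul _
  refine Integrable.mono' hi ?_ ?_
  · refine ContinuousOn.aestronglyMeasurable ?_ hm
    have h1 : ContinuousOn (fun z => (p z).re) Cᶜ :=
      continuous_re.comp_continuousOn hp.hol.continuousOn
    have h2 : ContinuousOn (fun z => fderiv ℝ c z ((starRingEnd ℂ) (deriv p z))) Cᶜ :=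
      hcf.continuousOn.clm_apply
        (continuous_conj.comp_continuousOn (hp.hol.deriv hC.isOpen_compl).continuousOn)
    exact ((hh.continuous.comp_continuousOn h1).mul h2).mono inter_subset_left
  · rw [ae_restrict_iff' hm]
    refine Eventually.of_forall fun z hz => ?_
    have h1 := hM z (ball_subset_closedBall hz.2)
    rw [← hp.re z hz.1] at h1
    have h2 : ‖(h (p z).re • fderiv ℝ c z) ((starRingEnd ℂ) (deriv p z))‖
        ≤ ‖h (p z).re • fderiv ℝ c z‖ * ‖(starRingEnd ℂ) (deriv p z)‖ :=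
      ContinuousLinearMap.le_opNorm _ _
    rw [Complex.norm_conj] at h2
    have h3 : (h (p z).re • fderiv ℝ c z) ((starRingEnd ℂ) (deriv p z))
        = h (p z).re * fderiv ℝ c z ((starRingEnd ℂ) (deriv p z)) := rfl
    rw [h3] at h2
    refine h2.trans ?_
    have h4 : ‖h (p z).re • fderiv ℝ c z‖ ≤ |M| := h1.trans (le_abs_self M)
    refine mul_le_mul h4 ?_ (norm_nonneg _) (abs_nonneg _)
    nlinarith [sq_nonneg (‖deriv p z‖ - 1)]

/-- **the Euler-Lagrange input of the univalence theorem** -/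
theorem elineq (hP : Pk C x0 b φ) (hp : Cpl C x0 φ p) : ELIneq Cᶜ p := by
  intro c hc _ Φ hΦ _ hΦc
  obtain ⟨h1, h2⟩ := el_eq hP hp hc hΦ hΦc
  have h3 := int_second hP hp hc hΦ
  have h4 : IntegrableOn (fun z => deriv Φ (p z).re * c z * ‖deriv p z‖ ^ 2) Cᶜ := by
    refine (h1.sub h3).congr (Eventually.of_forall fun z => ?_)
    simp
  rw [integral_add h4 h3] at h2
  linarith

end Crest.Agent.R105.Uv_913
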