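import Crest.Agent.R105.Uv5_913

/-!
Row 105, S0138 (helper913): univalence for exterior domains, frame free.
`F z - z → c`, no bounded components of `{z ∈ U | t < σ Re F z}`, `ELIneq` ⟹ `InjOn F U`.
-/

set_option autoImplicit false

namespace Crest.Agent.R105.Uw_913

open Complex Set Filter Topology Metric MeasureTheory
open scoped ContDiff NNReal
open Crest.Agent.R105.Uv_913 (ELIneq Lc injOn_of_EL)

variable {U : Set ℂ} {F : ℂ → ℂ}

/-- behaviour at infinity -/
theorem far (hU : IsOpen U) (hUb : Bornology.IsBounded Uᶜ) (hF : DifferentiableOn ℂ F U)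
    (hinf : ∃ c : ℂ, Tendsto (fun z => F z - z) (cocompact ℂ) (𝓝 c)) :
    ∃ R M : ℝ, 0 < R ∧ 0 ≤ M ∧
    (∀ z, R ≤ ‖z‖ → z ∈ U ∧ |(F z).re - z.re| ≤ M ∧ ‖deriv (fun w => F w - w) z‖ ≤ 1 / 2) ∧
    ∀ z, R ≤ ‖z‖ → DifferentiableAt ℂ (fun w => F w - w) z := by
  obtain ⟨c0, hc0⟩ := hinf
  obtain ⟨R2, hR2⟩ := hUb.subset_closedBall (0 : ℂ)
  have h1 : ∀ᶠ z in cocompact ℂ, ‖F z - z - c0‖ ≤ 1 / 2 := by
    have : Tendsto (fun z => ‖F z - z - c0‖) (cocompact ℂ) (𝓝 ‖c0 - c0‖) :=
      (hc0.sub_const c0).norm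
    rw [sub_self, norm_zero] at this
    exact (this.eventually (gt_mem_nhds (by norm_num : (0 : ℝ) < 1 / 2))).mono
      fun z hz => le_of_lt hz
  obtain ⟨R3, hR3⟩ : ∃ R3 : ℝ, ∀ z : ℂ, R3 < ‖z‖ → ‖F z - z - c0‖ ≤ 1 / 2 := by
    rw [← Metric.cobounded_eq_cocompact] at h1
    obtain ⟨R3, -, h⟩ := (hasBasis_cobounded_norm.eventually_iff).1 h1
    exact ⟨R3, fun z hz => h (le_of_lt hz)⟩
  set R := max (max R2 R3) 0 with hR
  have hCc : ∀ z : ℂ, R < ‖z‖ → z ∈ U := by
    intro z hz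
    by_contra hzC
    have := mem_closedBall_zero_iff.1 (hR2 hzC)
    have : R2 ≤ R := (le_max_left _ _).trans (le_max_left _ _)
    linarith
  have hRpos : 0 ≤ R := le_max_right _ _
  have hR3' : R3 ≤ R := (le_max_right _ _).trans (le_max_left _ _)
  have hd : ∀ z : ℂ, R < ‖z‖ → DifferentiableAt ℂ (fun w => F w - w) z := by
    intro z hz
    exact (hF.differentiableAt (hU.mem_nhds (hCc z hz))).sub differentiableAt_id
  refine ⟨R + 2, ‖c0‖ + 1 / 2, by linarith, by positivity,
    fun z hz => ⟨hCc z (by linarith), ?_, ?_⟩, fun z hz => hd z (by linarith)⟩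
  · have h2 := hR3 z (by linarith)
    have h3 : ‖F z - z‖ ≤ ‖c0‖ + 1 / 2 := by
      have := norm_add_le (F z - z - c0) c0
      rw [sub_add_cancel] at this
      linarith
    have h4 := abs_re_le_norm (F z - z)
    rw [sub_re] at h4
    exact h4.trans h3
  · have hball : ∀ w ∈ closedBall z 1, R < ‖w‖ := by
      intro w hw
      rw [mem_closedBall, dist_eq_norm] at hw
      have : ‖z‖ ≤ ‖w‖ + ‖w - z‖ := by
        have := norm_sub_norm_le z w
        rw [norm_sub_rev] at this
        linarith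
      linarith
    have hdo : DifferentiableOn ℂ (fun w => F w - w - c0) {w : ℂ | R < ‖w‖} := by
      intro w hw
      exact ((hd w hw).sub_const c0).differentiableWithinAt
    have h2 := Complex.norm_deriv_le_of_forall_mem_sphere_norm_le (c := z) (R := 1) (C := 1 / 2)
      (f := fun w => F w - w - c0) one_pos (hdo.diffContOnCl_ball hball) (fun w hw => by
        refine hR3 w ?_
        have := hball w (sphere_subset_closedBall hw)
        linarith)
    rw [div_one] at h2
    have h3 : deriv (fun w => F w - w - c0) z = deriv (fun w => F w - w) z := by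
      rw [deriv_sub_const]
    rwa [h3] at h2

theorem exists_deriv_ne (hU : IsOpen U) (hUb : Bornology.IsBounded Uᶜ)
    (hF : DifferentiableOn ℂ F U)
    (hinf : ∃ c : ℂ, Tendsto (fun z => F z - z) (cocompact ℂ) (𝓝 c)) :
    ∃ z ∈ U, deriv F z ≠ 0 := by
  obtain ⟨R, M, hR, -, h, hd⟩ := far hU hUb hF hinf
  have hz : R ≤ ‖(R : ℂ)‖ := by rw [Complex.norm_real, Real.norm_of_nonneg hR.le]
  obtain ⟨h1, -, h3⟩ := h (R : ℂ) hz
  refine ⟨(R : ℂ), h1, fun h0 => ?_⟩
  have hpd : DifferentiableAt ℂ F (R : ℂ) := hF.differentiableAt (hU.mem_nhds h1)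
  have : deriv (fun w => F w - w) (R : ℂ) = deriv F (R : ℂ) - 1 := by
    rw [deriv_fun_sub hpd differentiableAt_fun_id]
    simp
  rw [this, h0] at h3
  norm_num at h3

/-- horizontal rays far from the real axis -/
theorem ray_mono {σ : ℝ} (hσ : σ = 1 ∨ σ = -1) {R : ℝ}
    (hR : ∀ z, R ≤ ‖z‖ → ‖deriv (fun w => F w - w) z‖ ≤ 1 / 2)
    (hd : ∀ z, R ≤ ‖z‖ → DifferentiableAt ℂ (fun w => F w - w) z) {a : ℂ} (ha : R < |a.im|)
    {s : ℝ} (hs : 0 ≤ s) :
    σ * (F a).re ≤ σ * (F (a + σ * s)).re := by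
  have hσ2 : σ * σ = 1 := by rcases hσ with rfl | rfl <;> norm_num
  have hσa : |σ| = 1 := by rcases hσ with rfl | rfl <;> norm_num
  set e : ℂ := a + σ * s with he
  have hae : e.im = a.im := by simp [he]
  have hnorm : ∀ z : ℂ, R < |z.im| → R ≤ ‖z‖ := fun z hz => hz.le.trans (abs_im_le_norm z)
  obtain ⟨S, hS, haS, heS, hSR⟩ : ∃ S : Set ℂ, Convex ℝ S ∧ a ∈ S ∧ e ∈ S ∧
      ∀ z ∈ S, R < |z.im| := by
    rcases lt_abs.1 ha with h | h
    · exact ⟨{z | R < z.im}, convex_halfSpace_im_gt R, h, by rw [mem_ofPred_eq, hae]; exact h,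
        fun z hz => lt_of_lt_of_le hz (le_abs_self _)⟩
    · exact ⟨{z | z.im < -R}, convex_halfSpace_im_lt (-R), by rw [mem_ofPred_eq]; linarith,
        by rw [mem_ofPred_eq, hae]; linarith, fun z hz => by
          have : z.im < -R := hz
          exact lt_of_lt_of_le (by linarith) (neg_le_abs _)⟩
  have h1 := hS.norm_image_sub_le_of_norm_deriv_le (f := fun w => F w - w) (C := 1 / 2)
    (fun z hz => hd z (hnorm z (hSR z hz))) (fun z hz => (hR z (hnorm z (hSR z hz)))) haS heS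
  have h2 : ‖e - a‖ = s := by
    rw [he, add_sub_cancel_left, norm_mul, Complex.norm_real, Complex.norm_real,
      Real.norm_eq_abs, Real.norm_eq_abs, hσa, abs_of_nonneg hs, one_mul]
  rw [h2] at h1
  have h3 := (abs_re_le_norm ((F e - e) - (F a - a))).trans h1
  have h4 : ((F e - e) - (F a - a)).re = (F e).re - (F a).re - σ * s := by
    simp [he]; ring
  rw [h4] at h3
  have h5 : |σ * ((F e).re - (F a).re - σ * s)| ≤ 1 / 2 * s := by
    rw [abs_mul, hσa, one_mul]; exact h3
  have h6 : σ * ((F e).re - (F a).re - σ * s) = σ * (F e).re - σ * (F a).re - s := by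
    have : σ * (σ * s) = s := by rw [← mul_assoc, hσ2, one_mul]
    rw [mul_sub, mul_sub, this]
  rw [h6, abs_le] at h5
  linarith [h5.1]

/-- **no bounded components ⟹ connected** -/
theorem preconn_of_unbounded (hU : IsOpen U) (hUb : Bornology.IsBounded Uᶜ)
    (hF : DifferentiableOn ℂ F U)
    (hinf : ∃ c : ℂ, Tendsto (fun z => F z - z) (cocompact ℂ) (𝓝 c))
    {σ : ℝ} (hσ : σ = 1 ∨ σ = -1) {t : ℝ}
    (hub : ∀ z, z ∈ U → t < σ * (F z).re →
      ¬ Bornology.IsBounded (connectedComponentIn {z | z ∈ U ∧ t < σ * (F z).re} z)) :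
    IsPreconnected {z | z ∈ U ∧ t < σ * (F z).re} := by
  have hσ2 : σ * σ = 1 := by rcases hσ with rfl | rfl <;> norm_num
  have hσa : ∀ u : ℝ, |σ * u| = |u| := by
    intro u
    rcases hσ with rfl | rfl
    · rw [one_mul]
    · rw [neg_one_mul, abs_neg]
  obtain ⟨R, M, hR, hM, hfar, hd⟩ := far hU hUb hF hinf
  set x : ℂ → ℝ := fun z => (F z).re with hx
  set W : Set ℂ := {z | z ∈ U ∧ t < σ * x z} with hW
  set T : ℝ := R + M + |t| with hT
  set P : Set ℂ := {z | T < σ * z.re} with hPd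
  have hPc : IsPreconnected P := by
    have : Convex ℝ P := by
      rcases hσ with rfl | rfl
      · have : P = {z : ℂ | T < z.re} := by ext z; simp [hPd]
        rw [this]; exact convex_halfSpace_re_gt T
      · have : P = {z : ℂ | z.re < -T} := by
          ext z
          simp only [hPd, mem_ofPred_eq]
          constructor <;> intro h <;> linarith
        rw [this]; exact convex_halfSpace_re_lt (-T)
    exact this.isPreconnected
  have hxre : ∀ z, R ≤ ‖z‖ → |σ * x z - σ * z.re| ≤ M := by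
    intro z hz
    rw [← mul_sub, hσa]
    exact (hfar z hz).2.1
  have hPW : P ⊆ W := by
    intro z hz
    have hz' : T < σ * z.re := hz
    have h1 : R ≤ ‖z‖ := by
      have h2 := abs_re_le_norm z
      have h3 : σ * z.re ≤ |z.re| := by rw [← hσa]; exact le_abs_self _
      have := abs_nonneg t
      linarith
    have h2 := (abs_le.1 (hxre z h1)).1
    have := le_abs_self t
    refine ⟨(hfar z h1).1, ?_⟩
    linarith
  have hmeet : ∀ z ∈ W, (connectedComponentIn W z ∩ P).Nonempty := by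
    intro z hz
    have hub' := hub z hz.1 hz.2
    set V : Set ℂ := connectedComponentIn W z with hV
    obtain ⟨z1, hz1, hz1n⟩ : ∃ z1 ∈ V, 2 * (T + R + M + 2) < ‖z1‖ := by
      by_contra hcon
      push Not at hcon
      refine hub' ((isBounded_closedBall (x := (0 : ℂ)) (r := 2 * (T + R + M + 2))).subset ?_)
      intro w hw
      rw [mem_closedBall_zero_iff]
      exact hcon w hw
    have hz1W : z1 ∈ W := connectedComponentIn_subset _ _ hz1
    have hTt : 0 ≤ |t| := abs_nonneg t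
    by_cases him : R < |z1.im|
    · -- the ray
      have hray : ∀ s : ℝ, 0 ≤ s → z1 + σ * s ∈ W := by
        intro s hs
        have := ray_mono hσ (R := R) (fun z hz => (hfar z hz).2.2) hd him hs
        refine ⟨(hfar _ ?_).1, lt_of_lt_of_le hz1W.2 this⟩
        refine le_trans ?_ (abs_im_le_norm _)
        have : (z1 + (σ : ℂ) * (s : ℂ)).im = z1.im := by simp
        rw [this]; exact him.le
      have hL : IsPreconnected ((fun s : ℝ => z1 + σ * s) '' Ici 0) :=
        isPreconnected_Ici.image _ (by fun_prop)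
      have hLV : (fun s : ℝ => z1 + σ * s) '' Ici 0 ⊆ V := by
        have h1 : z1 ∈ (fun s : ℝ => z1 + σ * s) '' Ici (0 : ℝ) := ⟨0, self_mem_Ici, by simp⟩
        have h2 := hL.subset_connectedComponentIn h1 (F := W) (by
          rintro _ ⟨s, hs, rfl⟩; exact hray s hs)
        rw [hV, connectedComponentIn_eq hz1]
        exact h2
      set s0 : ℝ := |z1.re| + |T| + 1 with hs0
      have hs00 : 0 ≤ s0 := by positivity
      refine ⟨z1 + σ * s0, hLV ⟨s0, hs00, rfl⟩, ?_⟩
      show T < σ * (z1 + σ * s0).re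
      have : (z1 + (σ : ℂ) * (s0 : ℂ)).re = z1.re + σ * s0 := by simp
      rw [this, mul_add, ← mul_assoc, hσ2, one_mul]
      have h3 : -|z1.re| ≤ σ * z1.re := by rw [← hσa]; exact neg_abs_le _
      have := le_abs_self T
      linarith
    · have him' := not_lt.1 him
      have h1 : ‖z1‖ ≤ |z1.re| + |z1.im| := norm_le_abs_re_add_abs_im z1
      have hz1R : R ≤ ‖z1‖ := by linarith
      have h2 := (abs_le.1 (hxre z1 hz1R)).2
      have h3 : t < σ * x z1 := hz1W.2
      have h4 := neg_abs_le t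
      have h5 : |σ * z1.re| = |z1.re| := hσa _
      refine ⟨z1, hz1, ?_⟩
      show T < σ * z1.re
      rcases abs_cases (σ * z1.re) with ⟨h6, _⟩ | ⟨h6, _⟩ <;> linarith
  obtain ⟨y0, hy0⟩ : P.Nonempty := by
    refine ⟨((σ * (T + 1) : ℝ) : ℂ), ?_⟩
    show T < σ * (((σ * (T + 1) : ℝ) : ℂ)).re
    rw [Complex.ofReal_re, ← mul_assoc, hσ2]
    linarith
  refine isPreconnected_of_forall y0 fun y hy => ?_
  refine ⟨P ∪ connectedComponentIn W y, union_subset hPW (connectedComponentIn_subset _ _),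
    Or.inl hy0, Or.inr (mem_connectedComponentIn hy), ?_⟩
  obtain ⟨q, hq1, hq2⟩ := hmeet y hy
  exact IsPreconnected.union q hq2 hq1 hPc isPreconnected_connectedComponentIn

/-- **univalence on exterior domains** -/
theorem injOn_T (hU : IsOpen U) (hUc : IsPreconnected U) (hUb : Bornology.IsBounded Uᶜ)
    (hF : DifferentiableOn ℂ F U)
    (hinf : ∃ c : ℂ, Tendsto (fun z => F z - z) (cocompact ℂ) (𝓝 c))
    (hE : ∀ R : ℝ, IntegrableOn (fun z => ‖deriv F z‖ ^ 2) (U ∩ ball 0 R))
    (hEL : ELIneq U F)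
    (hub : ∀ σ : ℝ, σ = 1 ∨ σ = -1 → ∀ a b : ℝ, a < b → ∃ t ∈ Ioo a b,
      ∀ z, z ∈ U → t < σ * (F z).re →
        ¬ Bornology.IsBounded (connectedComponentIn {z | z ∈ U ∧ t < σ * (F z).re} z)) :
    InjOn F U := by
  refine injOn_of_EL hU hUc hF hE hEL (exists_deriv_ne hU hUb hF hinf) ?_ ?_
  · intro a b hab
    obtain ⟨t, ht, h⟩ := hub 1 (Or.inl rfl) a b hab
    refine ⟨t, ht, ?_⟩
    have := preconn_of_unbounded hU hUb hF hinf (Or.inl rfl) h
    simpa only [one_mul] using this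
  · intro a b hab
    obtain ⟨t, ht, h⟩ := hub (-1) (Or.inr rfl) (-b) (-a) (by linarith)
    refine ⟨-t, ⟨by linarith [ht.2], by linarith [ht.1]⟩, ?_⟩
    have := preconn_of_unbounded hU hUb hF hinf (Or.inr rfl) h
    have e : {z | z ∈ U ∧ (F z).re < -t} = {z | z ∈ U ∧ t < -1 * (F z).re} := by
      ext z
      constructor
      · rintro ⟨h1, h2⟩; exact ⟨h1, by linarith⟩
      · rintro ⟨h1, h2⟩; exact ⟨h1, by linarith⟩
    rw [e]; exact this

end Crest.Agent.R105.Uw_913
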