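import Crest.Agent.R105.Tc1_808
import Crest.Agent.R105.Uw1_913
import Crest.Agent.R105.Uv6_913
import Crest.Agent.R105.Dir5_508

/-!
# Row 105, S0138 (T-frame), node NI-8: from the minimiser of the T-energy to the univalent
map (helper602)

* `JT Y x0 u` : renormalised T-energy of `x0 + u`
* `MinT Y x0 φ A` : `φ` minimises `JT` on `A`, `A` contains everything generated by `φ`
* `PkT Y x0 φ` : the Euler-Lagrange package (equality for locally constant tests, INEQUALITY for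
  `c · h(x0 + φ)`, `c ≥ 0`, `h` monotone), `pkT_of_min`
* `exists_cpl` : holomorphic completion (508's `completion`)
* `elineq`, `energy` : the input of 913's `injOn_T`
* `injOn_of_min`
-/

set_option autoImplicit false

namespace Crest.Agent.R105.N8_602

open Complex Set Filter Topology Metric MeasureTheory
open scoped ContDiff NNReal
open Crest.Agent.R105.IfB_641 (Cpl X0 di lap J contDiff_gx contDiff_gy)
open Crest.Agent.R105.Bd_775 (gx gy dot LC Q)
open Crest.Agent.R105.Tc_808 (Cmp osc TT ET)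
open Crest.Agent.R105.Uv_913 (Lc ELIneq)

variable {Y : Set ℂ} {x0 φ ψ : ℂ → ℝ} {p : ℂ → ℂ} {c : ℂ → ℝ} {h : ℝ → ℝ} {A : Set (ℂ → ℝ)}

/-- renormalised T-energy of `x0 + u` -/
noncomputable def JT (Y : Set ℂ) (x0 u : ℂ → ℝ) : ℝ := ET Y u - 2 * ∫ z, u z * lap x0 z

theorem JT_eq (Y : Set ℂ) (x0 u : ℂ → ℝ) :
    JT Y x0 u = J Y x0 u + ∑' K : Cmp Y, osc Y u K.1 ^ 2 := by
  have h1 : di Y u u = ∫ z in Yᶜ, Bd_775.en u z := by
    unfold di
    refine integral_congr_ae (Eventually.of_forall fun z => ?_)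
    show gx u z * gx u z + gy u z * gy u z = gx u z ^ 2 + gy u z ^ 2
    ring
  unfold JT J ET
  rw [h1]; ring

/-- minimiser of the T-energy -/
structure MinT (Y : Set ℂ) (x0 φ : ℂ → ℝ) (A : Set (ℂ → ℝ)) : Prop where
  cpt : IsCompact Y
  hx0 : X0 Y x0
  tt : TT Y φ
  gen : ∀ v, IfB_641.Gen Y {φ} v → v ∈ A
  min : ∀ v ∈ A, JT Y x0 φ ≤ JT Y x0 v

/-- the Euler-Lagrange package -/
structure PkT (Y : Set ℂ) (x0 φ : ℂ → ℝ) : Prop where
  cpt : IsCompact Y
  hx0 : X0 Y x0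
  q : Q Y φ
  el0 : ∀ c, Lc Yᶜ c → di Y φ c = ∫ z, c z * lap x0 z
  el : ∀ c, Lc Yᶜ c → (∀ z, 0 ≤ c z) → ∀ h : ℝ → ℝ, ContDiff ℝ ∞ h → Monotone h →
    HasCompactSupport (deriv h) → di Y φ (fun z => c z * h (x0 z + φ z)) ≤
      ∫ z, (c z * h (x0 z + φ z)) * lap x0 z

/-- one-sided first variation when no oscillation grows -/
theorem fv1 (hY : IsClosed Y) (hx : X0 Y x0) (hφ : TT Y φ) (hψ : Q Y ψ) {t0 : ℝ} (ht0 : 0 < t0)
    (hosc : ∀ t ∈ Ioc 0 t0, ∀ K : Cmp Y, osc Y (fun z => φ z + (-t) * ψ z) K.1 ≤ osc Y φ K.1)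
    (hmin : ∀ t ∈ Ioc 0 t0, JT Y x0 φ ≤ JT Y x0 (fun z => φ z + (-t) * ψ z)) :
    di Y φ ψ ≤ ∫ z, ψ z * lap x0 z := by
  by_contra hcon
  rw [not_le] at hcon
  set a := di Y φ ψ - ∫ z, ψ z * lap x0 z with ha
  have ha0 : 0 < a := by rw [ha]; linarith
  set B := di Y ψ ψ with hB
  have key : ∀ t ∈ Ioc 0 t0, 2 * a ≤ t * B := by
    intro t ht
    have h1 := hmin t ht
    rw [JT_eq, JT_eq, IfB_641.J_expand hY hx hφ.q hψ (-t)] at h1
    have h2 : ∑' K : Cmp Y, osc Y (fun z => φ z + (-t) * ψ z) K.1 ^ 2 ≤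
        ∑' K : Cmp Y, osc Y φ K.1 ^ 2 := by
      have h3 : ∀ K : Cmp Y, osc Y (fun z => φ z + (-t) * ψ z) K.1 ^ 2 ≤ osc Y φ K.1 ^ 2 :=
        fun K => pow_le_pow_left₀ (Tc_808.osc_nonneg _ _ _) (hosc t ht K) 2
      exact Summable.tsum_le_tsum h3
        (Summable.of_nonneg_of_le (fun K => sq_nonneg _) h3 hφ.sum) hφ.sum
    have h4 : 0 ≤ t * (t * B - 2 * a) := by
      rw [← ha, ← hB] at h1
      nlinarith
    have h5 := nonneg_of_mul_nonneg_right h4 ht.1
    linarith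
  have hB0 : 0 < B := by
    have h1 := key t0 ⟨ht0, le_rfl⟩
    by_contra hB'
    rw [not_lt] at hB'
    nlinarith
  set t := min t0 (a / B) with ht
  have htpos : 0 < t := lt_min ht0 (div_pos ha0 hB0)
  have h1 := key t ⟨htpos, min_le_left _ _⟩
  have h2 : t * B ≤ a := by
    have : t ≤ a / B := min_le_right _ _
    calc t * B ≤ a / B * B := mul_le_mul_of_nonneg_right this hB0.le
      _ = a := div_mul_cancel₀ _ hB0.ne'
  linarith

/-- near a component of `Y` a test function is constant and `x0` vanishes -/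
theorem near_cmp (hx : X0 Y x0) (hc : LC Y c) (K : Cmp Y) :
    ∃ k, ∃ O, IsOpen O ∧ K.1 ⊆ O ∧ ∀ z ∈ O, c z = k ∧ x0 z = 0 := by
  obtain ⟨k, O, hO, hKO, h⟩ := Tc_808.LC.const_near hc K.preconn K.subset
  refine ⟨k, O ∩ (tsupport x0)ᶜ, hO.inter (isClosed_tsupport _).isOpen_compl,
    fun z hz => ⟨hKO hz, fun h' => hx.zero h' (K.subset hz)⟩,
    fun z hz => ⟨h z hz.1, image_eq_zero_of_notMem_tsupport hz.2⟩⟩

/-- no oscillation grows under a small monotone change -/
theorem osc_test (hx : X0 Y x0) (hφ : Q Y φ) (hc : LC Y c) {L : ℝ} {M : ℝ}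
    (hM : ∀ z, |c z| ≤ M) (hc0 : ∀ z, 0 ≤ c z) (hh : Monotone h)
    (hhL : ∀ s s', s ≤ s' → h s' - h s ≤ L * (s' - s)) {t : ℝ} (ht : 0 ≤ t)
    (htL : t * (M * L) ≤ 1) (K : Cmp Y) :
    osc Y (fun z => φ z + (-t) * (c z * h (x0 z + φ z))) K.1 ≤ osc Y φ K.1 := by
  obtain ⟨k, O, hO, hKO, h1⟩ := near_cmp hx hc K
  obtain ⟨z0, hz0⟩ := K.nonempty
  have hk0 : 0 ≤ k := by rw [← (h1 z0 (hKO hz0)).1]; exact hc0 _
  have hkM : k ≤ M := by rw [← (h1 z0 (hKO hz0)).1]; exact (le_abs_self _).trans (hM _)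
  rw [Tc_808.osc_congr (v := fun z => (fun s => s - t * (k * h s)) (φ z)) hO hKO (by
    intro z hz _
    simp only []
    rw [(h1 z hz).1, (h1 z hz).2, zero_add]; ring)]
  have key : ∀ s s', s ≤ s' → |(s - t * (k * h s)) - (s' - t * (k * h s'))| ≤ |s - s'| := by
    intro s s' hs
    have e1 : 0 ≤ h s' - h s := sub_nonneg.2 (hh hs)
    have e2 := hhL s s' hs
    have e3 : t * (k * (h s' - h s)) ≤ s' - s := by
      calc t * (k * (h s' - h s)) ≤ t * (M * (L * (s' - s))) := by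
            refine mul_le_mul_of_nonneg_left ?_ ht
            exact mul_le_mul hkM e2 e1 (hk0.trans hkM)
        _ = t * (M * L) * (s' - s) := by ring
        _ ≤ 1 * (s' - s) := mul_le_mul_of_nonneg_right htL (sub_nonneg.2 hs)
        _ = s' - s := one_mul _
    have e4 : 0 ≤ t * (k * (h s' - h s)) := mul_nonneg ht (mul_nonneg hk0 e1)
    rw [abs_sub_comm s s', abs_of_nonneg (sub_nonneg.2 hs), abs_le]
    constructor <;> nlinarith
  have hlip : LipschitzWith 1 (fun s => s - t * (k * h s)) := by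
    refine LipschitzWith.of_dist_le_mul fun s s' => ?_
    rw [NNReal.coe_one, one_mul, Real.dist_eq, Real.dist_eq]
    rcases le_total s s' with h2 | h2
    · exact key s s' h2
    · rw [abs_sub_comm, abs_sub_comm s s']; exact key s' s h2
  have := Tc_808.osc_comp_le (Y := Y) (K := K.1) hφ.bdd hlip
  simpa using this

/-- adding a locally constant function does not change the oscillation -/
theorem osc_shift (hx : X0 Y x0) (hφ : Q Y φ) (hc : LC Y c) (t : ℝ) (K : Cmp Y) :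
    osc Y (fun z => φ z + (-t) * c z) K.1 ≤ osc Y φ K.1 := by
  obtain ⟨k, O, hO, hKO, h1⟩ := near_cmp hx hc K
  rw [Tc_808.osc_congr (v := fun z => (fun s => s + (-t) * k) (φ z)) hO hKO (by
    intro z hz _
    simp only []
    rw [(h1 z hz).1])]
  have hlip : LipschitzWith 1 (fun s : ℝ => s + (-t) * k) := by
    refine LipschitzWith.of_dist_le_mul fun s s' => ?_
    rw [NNReal.coe_one, one_mul, Real.dist_eq, Real.dist_eq]
    apply le_of_eq; congr 1; ring
  have := Tc_808.osc_comp_le (Y := Y) (K := K.1) hφ.bdd hlip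
  simpa using this

theorem q_test' (hY : IsClosed Y) (hx : X0 Y x0) (hφ : Q Y φ) (hc : Lc Yᶜ c) {K : ℝ≥0}
    (hh : LipschitzWith K h) : Q Y (fun z => c z * h (x0 z + φ z)) := by
  have h1 := Uv_913.gen_test (S := {φ}) hx hc hh (mem_singleton _)
  refine h1.q hY ?_
  rintro s rfl; exact hφ

theorem lipschitz_of (hh : ContDiff ℝ ∞ h) (hm : Monotone h) (hd : HasCompactSupport (deriv h)) :
    ∃ L : ℝ≥0, LipschitzWith L h ∧ ∀ s s', s ≤ s' → h s' - h s ≤ L * (s' - s) := by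
  obtain ⟨L, hL⟩ := Uv_913.lip_of_deriv hh hd
  refine ⟨L, hL, fun s s' hs => ?_⟩
  have := hL.dist_le_mul s' s
  rw [Real.dist_eq, Real.dist_eq, abs_of_nonneg (sub_nonneg.2 (hm hs)),
    abs_of_nonneg (sub_nonneg.2 hs)] at this
  exact this

/-- **first variation of the T-energy** -/
theorem pkT_of_min (hM : MinT Y x0 φ A) : PkT Y x0 φ := by
  have hY := hM.cpt.isClosed
  have hφ := hM.tt.q
  have gφ : IfB_641.Gen Y {φ} φ := IfB_641.Gen.of (mem_singleton _)
  refine ⟨hM.cpt, hM.hx0, hφ, ?_, ?_⟩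
  · have key : ∀ c, Lc Yᶜ c → di Y φ c ≤ ∫ z, c z * lap x0 z := by
      intro c hc
      have hlc : LC Y c := Uv_913.lc_of_Lc hc
      refine fv1 hY hM.hx0 hM.tt hlc.q one_pos (fun t _ K => osc_shift hM.hx0 hφ hlc t K)
        fun t _ => hM.min _ (hM.gen _ ?_)
      exact IfB_641.Gen.add gφ (IfB_641.Gen.smul _ (IfB_641.Gen.lc hlc))
    intro c hc
    refine le_antisymm (key c hc) ?_
    have hc' : Lc Yᶜ (fun z => - c z) :=
      ⟨hc.1.neg, hc.2.1.neg, fun z hz => (hc.2.2 z hz).mono fun w hw => by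
        simp only []; rw [hw]⟩
    have h1 := key _ hc'
    have e1 : di Y φ (fun z => - c z) = - di Y φ c := by
      unfold di
      rw [← integral_neg]
      refine integral_congr_ae (Eventually.of_forall fun z => ?_)
      show gx φ z * gx (fun z => - c z) z + gy φ z * gy (fun z => - c z) z =
        -(gx φ z * gx c z + gy φ z * gy c z)
      have e2 : gx (fun z => - c z) z = - gx c z := by
        unfold Bd_775.gx; rw [fderiv_fun_neg]; rfl
      have e3 : gy (fun z => - c z) z = - gy c z := by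
        unfold Bd_775.gy; rw [fderiv_fun_neg]; rfl
      rw [e2, e3]; ring
    have e2 : ∫ z, (- c z) * lap x0 z = - ∫ z, c z * lap x0 z := by
      rw [← integral_neg]
      refine integral_congr_ae (Eventually.of_forall fun z => ?_)
      simp only []; ring
    rw [e1, e2] at h1
    linarith
  · intro c hc hc0 h hh hm hd
    have hlc : LC Y c := Uv_913.lc_of_Lc hc
    obtain ⟨L, hL, hL'⟩ := lipschitz_of hh hm hd
    obtain ⟨M, hMb⟩ := hlc.bdd
    have hM0 : 0 ≤ M := (abs_nonneg _).trans (hMb 0)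
    have hpos : 0 < M * L + 1 := by positivity
    have g1 := Uv_913.gen_test (S := {φ}) hM.hx0 hc hL (mem_singleton _)
    refine fv1 hY hM.hx0 hM.tt (q_test' hY hM.hx0 hφ hc hL) (t0 := 1 / (M * L + 1))
      (by positivity) (fun t ht K => osc_test hM.hx0 hφ hlc hMb hc0 hm hL' ht.1.le ?_ K)
      fun t _ => hM.min _ (hM.gen _ ?_)
    · have h1 : t * (M * L + 1) ≤ 1 := by
        have := mul_le_mul_of_nonneg_right ht.2 hpos.le
        rwa [one_div, inv_mul_cancel₀ hpos.ne'] at this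
      have h2 : t * (M * L + 1) = t * (M * L) + t := by ring
      have h3 : 0 < t := ht.1
      linarith
    · exact IfB_641.Gen.add gφ (IfB_641.Gen.smul _ g1)

/-- **holomorphic completion** -/
theorem exists_cpl (hP : PkT Y x0 φ) : ∃ p, Cpl Y x0 φ p := by
  obtain ⟨M, hM⟩ := hP.q.bdd
  obtain ⟨F, c, h1, h2, h3⟩ := Dir_508.completion hP.cpt hP.hx0.sm hP.hx0.far
    ⟨M, 0, fun z _ => hM z⟩ hP.q.loc (fun ψ hψ => by
      have hlc := hψ.lc
      exact hP.el0 ψ ⟨hψ.sm, hψ.cpt, fun z hz => hlc.lc z (not_not.1 hz)⟩)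
  exact ⟨F, h1, h2, c, h3⟩

/-- **Euler-Lagrange inequality for `c · h(x)`** -/
theorem el_le (hP : PkT Y x0 φ) (hp : Cpl Y x0 φ p) (hc : Lc Yᶜ c) (hc0 : ∀ z, 0 ≤ c z)
    (hh : ContDiff ℝ ∞ h) (hm : Monotone h) (hd : HasCompactSupport (deriv h)) :
    IntegrableOn (fun z => deriv h (p z).re * c z * ‖deriv p z‖ ^ 2
        + h (p z).re * fderiv ℝ c z ((starRingEnd ℂ) (deriv p z))) Yᶜ ∧
    ∫ z in Yᶜ, (deriv h (p z).re * c z * ‖deriv p z‖ ^ 2
        + h (p z).re * fderiv ℝ c z ((starRingEnd ℂ) (deriv p z))) ≤ 0 := by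
  have hC := hP.cpt.isClosed
  obtain ⟨K, hK, -⟩ := lipschitz_of hh hm hd
  have h1 := hP.el c hc hc0 h hh hm hd
  have hD := q_test' hC hP.hx0 hP.q hc hK
  have hsm : ∀ z ∈ Yᶜ, ContDiffAt ℝ ∞ (fun z => c z * h (x0 z + φ z)) z := by
    intro z hz
    have hn : Yᶜ ∈ 𝓝 z := hC.isOpen_compl.mem_nhds hz
    have e2 : (fun z => c z * h (x0 z + φ z)) =ᶠ[𝓝 z] fun w => c w * h ((p w).re) := by
      filter_upwards [hn] with w hw
      rw [hp.re w hw]
    refine ContDiffAt.congr_of_eventuallyEq ?_ e2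
    have h3 : ContDiffAt ℝ ∞ (fun w => (p w).re) z :=
      reCLM.contDiff.contDiffAt.comp z (Uv_913.smooth_re hC.isOpen_compl hp.hol hz)
    exact hc.1.contDiffAt.mul (hh.contDiffAt.comp z h3)
  obtain ⟨h2, h3⟩ := Uv_913.ibp_x0 hP.hx0 hsm hc.2.1.mul_right
  have h4 := Bd_775.integrableOn_dot hP.q hD
  have h5 : IntegrableOn (fun z => dot φ (fun z => c z * h (x0 z + φ z)) z
      + dot x0 (fun z => c z * h (x0 z + φ z)) z) Yᶜ := h4.add h2
  have h6 : EqOn (fun z => dot φ (fun z => c z * h (x0 z + φ z)) z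
      + dot x0 (fun z => c z * h (x0 z + φ z)) z) (fun z => deriv h (p z).re * c z *
        ‖deriv p z‖ ^ 2 + h (p z).re * fderiv ℝ c z ((starRingEnd ℂ) (deriv p z))) Yᶜ :=
    fun z hz => Uv_913.dot_test hC hP.hx0 hp hc hh hz
  refine ⟨h5.congr_fun h6 hC.isOpen_compl.measurableSet, ?_⟩
  rw [← setIntegral_congr_fun hC.isOpen_compl.measurableSet h6, integral_add h4 h2, h3]
  unfold IfB_641.di at h1
  linarith

/-- local energy -/
theorem energy (hP : PkT Y x0 φ) (hp : Cpl Y x0 φ p) (R : ℝ) :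
    IntegrableOn (fun z => ‖deriv p z‖ ^ 2) (Yᶜ ∩ ball 0 R) := by
  have hC := hP.cpt.isClosed
  have hm : MeasurableSet (Yᶜ ∩ ball (0 : ℂ) R) :=
    hC.isOpen_compl.measurableSet.inter measurableSet_ball
  have h1 : IntegrableOn (Bd_775.en φ) (Yᶜ ∩ ball 0 R) :=
    hP.q.fin.mono_set inter_subset_left
  have hcx : Continuous (Bd_775.en x0) :=
    ((contDiff_gx hP.hx0.sm).continuous.pow 2).add ((contDiff_gy hP.hx0.sm).continuous.pow 2)
  have h2 : IntegrableOn (Bd_775.en x0) (Yᶜ ∩ ball 0 R) :=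
    (hcx.continuousOn.integrableOn_compact (isCompact_closedBall (0 : ℂ) R)).mono_set
      (inter_subset_right.trans ball_subset_closedBall)
  refine Integrable.mono' ((h1.const_mul 2).add (h2.const_mul 2)) ?_ ?_
  · refine ContinuousOn.aestronglyMeasurable ?_ hm
    exact ((hp.hol.deriv hC.isOpen_compl).continuousOn.norm.pow 2).mono inter_subset_left
  · rw [ae_restrict_iff' hm]
    refine Eventually.of_forall fun z hz => ?_
    have hn : Yᶜ ∈ 𝓝 z := hC.isOpen_compl.mem_nhds hz.1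
    have hpd : DifferentiableAt ℂ p z := hp.hol.differentiableAt hn
    have dre : DifferentiableAt ℝ (fun w => (p w).re) z :=
      reCLM.differentiableAt.comp z (hpd.restrictScalars ℝ)
    have dx0 : DifferentiableAt ℝ x0 z := hP.hx0.sm.contDiffAt.differentiableAt (by simp)
    have e1 : φ =ᶠ[𝓝 z] fun w => (p w).re - x0 w := by
      filter_upwards [hn] with w hw
      rw [hp.re w hw]; ring
    have g1 : gx φ z = (deriv p z).re - gx x0 z := by
      rw [Bd_775.gx_eq_of_eventuallyEq e1, Bd_775.gx_sub dre dx0]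
      congr 1
      show fderiv ℝ (fun w => (p w).re) z 1 = _
      rw [Uv_913.fderiv_re hpd]; simp
    have g2 : gy φ z = -(deriv p z).im - gy x0 z := by
      rw [Bd_775.gy_eq_of_eventuallyEq e1, Bd_775.gy_sub dre dx0]
      congr 1
      show fderiv ℝ (fun w => (p w).re) z I = _
      rw [Uv_913.fderiv_re hpd]; simp
    have g6 : ‖deriv p z‖ ^ 2 = (deriv p z).re ^ 2 + (deriv p z).im ^ 2 := by
      rw [Complex.sq_norm, Complex.normSq_apply]; ring
    rw [Real.norm_of_nonneg (by positivity), g6]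
    show _ ≤ 2 * Bd_775.en φ z + 2 * Bd_775.en x0 z
    unfold Bd_775.en
    rw [g1, g2]
    nlinarith [sq_nonneg ((deriv p z).re - 2 * gx x0 z), sq_nonneg ((deriv p z).im + 2 * gy x0 z)]

theorem int_second (hP : PkT Y x0 φ) (hp : Cpl Y x0 φ p) (hc : Lc Yᶜ c) (hh : ContDiff ℝ ∞ h) :
    IntegrableOn (fun z => h (p z).re * fderiv ℝ c z ((starRingEnd ℂ) (deriv p z))) Yᶜ := by
  have hC := hP.cpt.isClosed
  obtain ⟨R, hR⟩ := hc.2.1.isCompact.isBounded.subset_ball (0 : ℂ)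
  have hcf : Continuous (fderiv ℝ c) := hc.1.continuous_fderiv (by simp)
  obtain ⟨N, hN⟩ := hP.q.bdd
  obtain ⟨N0, hN0⟩ := (isCompact_closedBall (0 : ℂ) R).exists_bound_of_continuousOn
    (f := x0) hP.hx0.sm.continuous.continuousOn
  obtain ⟨M1, hM1⟩ := (isCompact_Icc (a := -(N0 + N)) (b := N0 + N)).exists_bound_of_continuousOn
    (f := h) hh.continuous.continuousOn
  obtain ⟨M2, hM2⟩ := (isCompact_closedBall (0 : ℂ) R).exists_bound_of_continuousOn
    (f := fderiv ℝ c) hcf.continuousOn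
  have hM : ∀ z ∈ Yᶜ ∩ ball (0 : ℂ) R, ‖h (p z).re • fderiv ℝ c z‖ ≤ |M1| * |M2| := by
    intro z hz
    rw [norm_smul]
    have hzb := ball_subset_closedBall hz.2
    have h1 : ‖h (p z).re‖ ≤ M1 := by
      refine hM1 _ ?_
      rw [hp.re z hz.1, mem_Icc, ← abs_le]
      have h2 := hN0 z hzb
      rw [Real.norm_eq_abs] at h2
      exact (abs_add_le _ _).trans (add_le_add h2 (hN z))
    exact mul_le_mul (h1.trans (le_abs_self _)) ((hM2 z hzb).trans (le_abs_self _))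
      (norm_nonneg _) (abs_nonneg _)
  have hz : ∀ z ∈ Yᶜ \ (Yᶜ ∩ ball (0 : ℂ) R),
      h (p z).re * fderiv ℝ c z ((starRingEnd ℂ) (deriv p z)) = 0 := by
    intro z hz
    have : z ∉ tsupport c := fun h => hz.2 ⟨hz.1, hR h⟩
    have : fderiv ℝ c z = 0 := by
      have h1 : c =ᶠ[𝓝 z] 0 := notMem_tsupport_iff_eventuallyEq.1 this
      rw [h1.fderiv_eq]; simp
    rw [this]; simp
  have hm : MeasurableSet (Yᶜ ∩ ball (0 : ℂ) R) :=
    hC.isOpen_compl.measurableSet.inter measurableSet_ball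
  refine IntegrableOn.of_forall_sdiff_eq_zero (s := Yᶜ ∩ ball 0 R) ?_
    hC.isOpen_compl.measurableSet hz
  have hfin : volume (Yᶜ ∩ ball (0 : ℂ) R) ≠ ⊤ :=
    ne_top_of_le_ne_top measure_ball_lt_top.ne (measure_mono inter_subset_right)
  have hi : IntegrableOn (fun z => (|M1| * |M2|) * (1 + ‖deriv p z‖ ^ 2)) (Yᶜ ∩ ball 0 R) :=
    ((integrableOn_const hfin).add (energy hP hp R)).const_mul _
  refine Integrable.mono' hi ?_ ?_
  · refine ContinuousOn.aestronglyMeasurable ?_ hm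
    have h1 : ContinuousOn (fun z => (p z).re) Yᶜ :=
      continuous_re.comp_continuousOn hp.hol.continuousOn
    have h2 : ContinuousOn (fun z => fderiv ℝ c z ((starRingEnd ℂ) (deriv p z))) Yᶜ :=
      hcf.continuousOn.clm_apply
        (continuous_conj.comp_continuousOn (hp.hol.deriv hC.isOpen_compl).continuousOn)
    exact ((hh.continuous.comp_continuousOn h1).mul h2).mono inter_subset_left
  · rw [ae_restrict_iff' hm]
    refine Eventually.of_forall fun z hz => ?_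
    have h1 := hM z hz
    have h2 : ‖(h (p z).re • fderiv ℝ c z) ((starRingEnd ℂ) (deriv p z))‖
        ≤ ‖h (p z).re • fderiv ℝ c z‖ * ‖(starRingEnd ℂ) (deriv p z)‖ :=
      ContinuousLinearMap.le_opNorm _ _
    rw [Complex.norm_conj] at h2
    have h3 : (h (p z).re • fderiv ℝ c z) ((starRingEnd ℂ) (deriv p z))
        = h (p z).re * fderiv ℝ c z ((starRingEnd ℂ) (deriv p z)) := rfl
    rw [h3] at h2
    refine h2.trans ?_
    refine mul_le_mul h1 ?_ (norm_nonneg _) (by positivity)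
    nlinarith [sq_nonneg (‖deriv p z‖ - 1)]

/-- **the Euler-Lagrange input of the univalence theorem** -/
theorem elineq (hP : PkT Y x0 φ) (hp : Cpl Y x0 φ p) : ELIneq Yᶜ p := by
  intro c hc hc0 Φ hΦ hm hΦc
  obtain ⟨h1, h2⟩ := el_le hP hp hc hc0 hΦ hm hΦc
  have h3 := int_second hP hp hc hΦ
  have h4 : IntegrableOn (fun z => deriv Φ (p z).re * c z * ‖deriv p z‖ ^ 2) Yᶜ := by
    refine (h1.sub h3).congr (Eventually.of_forall fun z => ?_)
    simp
  rw [integral_add h4 h3] at h2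
  linarith

/-- **univalence from the package**, given that the superlevel sets have no bounded component -/
theorem injOn_of_pkT (hP : PkT Y x0 φ) (hp : Cpl Y x0 φ p) (hconn : IsPreconnected Yᶜ)
    (hub : ∀ σ : ℝ, σ = 1 ∨ σ = -1 → ∀ a b : ℝ, a < b → ∃ t ∈ Ioo a b,
      ∀ z, z ∈ Yᶜ → t < σ * (p z).re →
        ¬ Bornology.IsBounded (connectedComponentIn {z | z ∈ Yᶜ ∧ t < σ * (p z).re} z)) :
    InjOn p Yᶜ :=
  Uw_913.injOn_T hP.cpt.isClosed.isOpen_compl hconn (by rw [compl_compl]; exact hP.cpt.isBounded)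
    hp.hol hp.inf (energy hP hp) (elineq hP hp) hub

/-- **from the minimiser to the univalent map** -/
theorem exists_map (hM : MinT Y x0 φ A) (hconn : IsPreconnected Yᶜ)
    (hub : ∀ p, Cpl Y x0 φ p → ∀ σ : ℝ, σ = 1 ∨ σ = -1 → ∀ a b : ℝ, a < b → ∃ t ∈ Ioo a b,
      ∀ z, z ∈ Yᶜ → t < σ * (p z).re →
        ¬ Bornology.IsBounded (connectedComponentIn {z | z ∈ Yᶜ ∧ t < σ * (p z).re} z)) :
    ∃ p, Cpl Y x0 φ p ∧ InjOn p Yᶜ := by
  have hP := pkT_of_min hM
  obtain ⟨p, hp⟩ := exists_cpl hP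
  exact ⟨p, hp, injOn_of_pkT hP hp hconn (hub p hp)⟩

end Crest.Agent.R105.N8_602
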