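import Crest.Agent.R105.SkA1_8
import Crest.Agent.R105.Ni2_459
import Crest.Agent.R105.N8a_602

/-!
# Row 105, S0138, first half: from the package `SkA_8.Pk` to univalence (helper157)

* `env_eq`, `env_comp` : envelopes at components without jump
* `valp : SkA_8.VALP`
* `gen_rule`, `gen_ni` : everything generated by `LC` and `φ` lies in the commutants
* `minT`, `pkT` : 602's packages; `elineq : Pk → ELIneq`
* `injOn : Pk → InjOn F Yᶜ`
-/

set_option autoImplicit false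

open MeasureTheory Set Filter Topology Metric
open scoped NNReal ENNReal ContDiff

namespace Crest.Agent.R105.Sk3_157

open Crest.AnalysisR Bd_775 IfB_641 Tc_808 Ni_459 Grd_782 SkA_8
open Crest.Agent.R105.Uw_913 (inc)

variable {Y : Set ℂ} {u v a b w : ℂ → ℝ} {z : ℂ} {c : ℝ}

/-- `u → c` at the component of `z` -/
lemma env_eq (hY : IsExteriorDomain Yᶜ) (hu : LB u)
    (h : ∀ ε > 0, ∃ O, Nb Y z O ∧ ∀ w ∈ O, w ∉ Y → |u w - c| ≤ ε) :
    up Y u z = c ∧ lo Y u z = c := by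
  have h1 : up Y u z ≤ c := by
    refine le_of_forall_pos_le_add fun ε hε => ?_
    obtain ⟨O, hO, h1⟩ := h ε hε
    exact up_le hY hu hO fun w hw hwY => by linarith [(abs_le.1 (h1 w hw hwY)).2]
  have h2 : c ≤ lo Y u z := by
    refine le_of_forall_pos_le_add fun ε hε => ?_
    obtain ⟨O, hO, h1⟩ := h ε hε
    have := le_lo (c := c - ε) hY hu hO fun w hw hwY => by
      linarith [(abs_le.1 (h1 w hw hwY)).1]
    linarith
  have h3 := lo_le_up hY hu z
  exact ⟨le_antisymm h1 (h2.trans h3), le_antisymm (h3.trans h1) h2⟩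

/-- the converse -/
lemma exists_near (hY : IsExteriorDomain Yᶜ) (hu : LB u) (h : lo Y u z = up Y u z) {ε : ℝ}
    (hε : 0 < ε) : ∃ O, Nb Y z O ∧ ∀ w ∈ O, w ∉ Y → |u w - lo Y u z| ≤ ε := by
  obtain ⟨O, hO, h1⟩ := exists_lt_of_up_lt (c := lo Y u z + ε) hY hu (by rw [h]; linarith)
  obtain ⟨P, hP, h2⟩ := exists_gt_of_lt_lo (c := lo Y u z - ε) hY hu (by linarith)
  refine ⟨O ∩ P, hO.inter hP, fun w hw hwY => abs_le.2 ⟨?_, ?_⟩⟩
  · linarith [h2 w hw.2 hwY]
  · linarith [h1 w hw.1 hwY]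

/-- composition at a component without jump -/
lemma env_comp (hY : IsExteriorDomain Yᶜ) (hu : LB u) (hv : LB v) (h : lo Y u z = up Y u z)
    {G : ℝ → ℝ} {L : ℝ≥0} (hG : LipschitzWith L G) {O : Set ℂ} (hO : Nb Y z O)
    (hGO : ∀ w ∈ O, w ∉ Y → v w = G (u w)) : up Y v z = G (lo Y u z) ∧ lo Y v z = G (lo Y u z) := by
  refine env_eq hY hv fun ε hε => ?_
  obtain ⟨P, hP, h1⟩ := exists_near hY hu h (ε := ε / (L + 1)) (by positivity)
  refine ⟨O ∩ P, hO.inter hP, fun w hw hwY => ?_⟩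
  rw [hGO w hw.1 hwY]
  have h2 := hG.dist_le_mul (u w) (lo Y u z)
  rw [Real.dist_eq, Real.dist_eq] at h2
  refine h2.trans ?_
  have h3 := h1 w hw.2 hwY
  calc (L : ℝ) * |u w - lo Y u z| ≤ (L + 1) * (ε / (L + 1)) :=
        mul_le_mul (by linarith) h3 (abs_nonneg _) (by positivity)
    _ = ε := mul_div_cancel₀ _ (by positivity)

lemma TT.lb (h : TT Y u) : LB u := LB.of_bdd h.q.bdd

/-- off the jump components the envelopes agree -/
lemma lo_eq_up (hY : IsExteriorDomain Yᶜ) (hu : TT Y u) (hz : z ∈ Y) (h : Cmp.of hz ∉ Jmp Y u) :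
    lo Y u z = up Y u z := by
  by_contra hcon
  refine h ?_
  show Tc_808.osc Y u (connectedComponentIn Y z) ≠ 0
  rw [osc_eq hY hu.q.bdd hz]
  intro h0
  exact hcon (by linarith)

/-- **VALP** -/
theorem valp : SkA_8.VALP := by
  intro Y a b w hY _ hb _ hab S hS h
  refine NI.of_rule (b := fun _ => b) (fun _ => hab) (G := fun _ => id)
    (fun _ => ⟨1, LipschitzWith.id⟩) hS (TT.countable hb) ?_
  intro z hz hJ _ hw
  rcases h z hz hw with ⟨h1, h2⟩ | h1 | h1
  · exact Or.inl ⟨0, 0, h1, by rw [hw, ← h2, id, h1]⟩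
  · exact Or.inr (by rw [hw]; exact h1)
  · exact absurd (lo_eq_up hY hb hz hJ) h1

/-- a locally constant function takes finitely many values -/
lemma finite_values (hY : IsCompact Y) {χ : ℂ → ℝ} (h : LC Y χ) : (χ '' Y).Finite := by
  refine hY.induction_on (p := fun s => (χ '' s).Finite) (by simp)
    (fun s t hst ht => ht.subset (image_mono hst))
    (fun s t hs ht => by rw [image_union]; exact hs.union ht) fun z hz => ?_
  refine ⟨{w | χ w = χ z}, mem_nhdsWithin_of_mem_nhds (h.lc z hz), ?_⟩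
  exact (finite_singleton (χ z)).subset (by rintro _ ⟨w, hw, rfl⟩; exact hw)

/-- a generated function is, near every component, one out of countably many Lipschitz functions
of `φ` -/
structure Rule (Y : Set ℂ) (φ v : ℂ → ℝ) (G : ℕ → ℝ → ℝ) : Prop where
  lip : ∀ m, ∃ L, LipschitzWith L (G m)
  bdd : ∀ m, ∃ B, ∀ s, |G m s| ≤ B
  loc : ∀ z ∈ Y, ∃ m O, Nb Y z O ∧ ∀ w ∈ O, w ∉ Y → v w = G m (φ w)

lemma gen_rule (hY : IsCompact Y) {φ : ℂ → ℝ} (hφ : ∃ M, ∀ z, |φ z| ≤ M)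
    (hv : IfB_641.Gen Y {φ} v) : ∃ G, Rule Y φ v G := by
  induction hv with
  | const c =>
    refine ⟨fun _ _ => c, fun _ => ⟨0, LipschitzWith.const c⟩, fun _ => ⟨|c|, fun _ => le_rfl⟩,
      fun z _ => ⟨0, univ, Nb.univ Y z, fun _ _ _ => rfl⟩⟩
  | @lc χ h =>
    obtain ⟨f, hf⟩ := countable_iff_exists_subset_range.1 (finite_values hY h).countable
    refine ⟨fun m _ => f m, fun _ => ⟨0, LipschitzWith.const _⟩,
      fun m => ⟨|f m|, fun _ => le_rfl⟩, fun z hz => ?_⟩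
    obtain ⟨k, O, hO, hKO, h1⟩ := Tc_808.LC.const_near h isPreconnected_connectedComponentIn
      (connectedComponentIn_subset Y z)
    have hzO : z ∈ O := hKO (mem_connectedComponentIn hz)
    obtain ⟨m, hm⟩ := hf ⟨z, hz, rfl⟩
    refine ⟨m, O, nb_of_mem hz hO hKO, fun w hw _ => ?_⟩
    rw [h1 w hw, ← h1 z hzO, hm]
  | of i =>
    obtain ⟨⟩ := i
    rename_i val property
    obtain ⟨M, hM⟩ := hφ
    have hval : val = φ := property
    subst hval
    refine ⟨fun _ s => max (-M) (min s M), fun _ => ⟨1, ?_⟩, fun _ => ⟨|M|, fun s => ?_⟩,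
      fun z _ => ⟨0, univ, Nb.univ Y z, fun w _ _ => ?_⟩⟩
    · exact (LipschitzWith.id.min_const M).const_max (-M)
    · have h0 : 0 ≤ M := (abs_nonneg _).trans (hM 0)
      rw [abs_of_nonneg h0]
      exact abs_le.2 ⟨le_max_left _ _, max_le (by linarith) (min_le_right _ _)⟩
    · have h1 := abs_le.1 (hM w)
      show val w = _
      rw [min_eq_left h1.2, max_eq_right h1.1]
  | add _ _ h1 h2 =>
    obtain ⟨G, hG⟩ := h1
    obtain ⟨H, hH⟩ := h2
    refine ⟨fun m s => G m.unpair.1 s + H m.unpair.2 s, fun m => ?_, fun m => ?_, fun z hz => ?_⟩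
    · obtain ⟨L, hL⟩ := hG.lip m.unpair.1
      obtain ⟨K, hK⟩ := hH.lip m.unpair.2
      exact ⟨L + K, hL.add hK⟩
    · obtain ⟨L, hL⟩ := hG.bdd m.unpair.1
      obtain ⟨K, hK⟩ := hH.bdd m.unpair.2
      exact ⟨L + K, fun s => (abs_add_le _ _).trans (add_le_add (hL s) (hK s))⟩
    · obtain ⟨m, O, hO, h1⟩ := hG.loc z hz
      obtain ⟨n, P, hP, h2⟩ := hH.loc z hz
      refine ⟨Nat.pair m n, O ∩ P, hO.inter hP, fun w hw hwY => ?_⟩
      rw [Nat.unpair_pair, h1 w hw.1 hwY, h2 w hw.2 hwY]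
  | mul _ _ h1 h2 =>
    obtain ⟨G, hG⟩ := h1
    obtain ⟨H, hH⟩ := h2
    refine ⟨fun m s => G m.unpair.1 s * H m.unpair.2 s, fun m => ?_, fun m => ?_, fun z hz => ?_⟩
    · obtain ⟨L, hL⟩ := hG.lip m.unpair.1
      obtain ⟨K, hK⟩ := hH.lip m.unpair.2
      obtain ⟨B, hB⟩ := hG.bdd m.unpair.1
      obtain ⟨D, hD⟩ := hH.bdd m.unpair.2
      have hB0 : 0 ≤ B := (abs_nonneg _).trans (hB 0)
      have hD0 : 0 ≤ D := (abs_nonneg _).trans (hD 0)
      refine ⟨(B * K + D * L).toNNReal, LipschitzWith.of_dist_le_mul fun s t => ?_⟩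
      rw [Real.coe_toNNReal _ (by positivity), Real.dist_eq, Real.dist_eq]
      have e1 := hL.dist_le_mul s t
      have e2 := hK.dist_le_mul s t
      rw [Real.dist_eq, Real.dist_eq] at e1 e2
      have e3 : G m.unpair.1 s * H m.unpair.2 s - G m.unpair.1 t * H m.unpair.2 t
          = G m.unpair.1 s * (H m.unpair.2 s - H m.unpair.2 t)
            + (G m.unpair.1 s - G m.unpair.1 t) * H m.unpair.2 t := by ring
      rw [e3]
      refine (abs_add_le _ _).trans ?_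
      rw [abs_mul, abs_mul]
      have e4 : |G m.unpair.1 s| * |H m.unpair.2 s - H m.unpair.2 t| ≤ B * (K * |s - t|) :=
        mul_le_mul (hB s) e2 (abs_nonneg _) hB0
      have e5 : |G m.unpair.1 s - G m.unpair.1 t| * |H m.unpair.2 t| ≤ (L * |s - t|) * D :=
        mul_le_mul e1 (hD t) (abs_nonneg _) (by positivity)
      nlinarith
    · obtain ⟨B, hB⟩ := hG.bdd m.unpair.1
      obtain ⟨D, hD⟩ := hH.bdd m.unpair.2
      refine ⟨B * D, fun s => ?_⟩
      rw [abs_mul]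
      exact mul_le_mul (hB s) (hD s) (abs_nonneg _) ((abs_nonneg _).trans (hB s))
    · obtain ⟨m, O, hO, h1⟩ := hG.loc z hz
      obtain ⟨n, P, hP, h2⟩ := hH.loc z hz
      refine ⟨Nat.pair m n, O ∩ P, hO.inter hP, fun w hw hwY => ?_⟩
      rw [Nat.unpair_pair, h1 w hw.1 hwY, h2 w hw.2 hwY]
  | @comp u h K hh _ h1 =>
    obtain ⟨G, hG⟩ := h1
    refine ⟨fun m s => h (G m s), fun m => ?_, fun m => ?_, fun z hz => ?_⟩
    · obtain ⟨L, hL⟩ := hG.lip m
      exact ⟨K * L, hh.comp hL⟩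
    · obtain ⟨B, hB⟩ := hG.bdd m
      refine ⟨|h 0| + K * B, fun s => ?_⟩
      have e1 := hh.dist_le_mul (G m s) 0
      rw [Real.dist_eq, Real.dist_eq, sub_zero] at e1
      have e2 : (K : ℝ) * |G m s| ≤ K * B := mul_le_mul_of_nonneg_left (hB s) K.2
      have e3 : |h (G m s)| ≤ |h (G m s) - h 0| + |h 0| := by
        have := abs_add_le (h (G m s) - h 0) (h 0)
        simpa using this
      linarith
    · obtain ⟨m, O, hO, h1⟩ := hG.loc z hz
      exact ⟨m, O, hO, fun w hw hwY => by rw [h1 w hw hwY]⟩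

/-- **the commutant of `a` contains everything generated by `LC` and a member `φ`** -/
theorem gen_ni (hY : IsExteriorDomain Yᶜ) {φ : ℂ → ℝ} (hφ : TT Y φ) (h : NI Y a φ)
    (hv : IfB_641.Gen Y {φ} v) : TT Y v ∧ NI Y a v := by
  have hYc : IsCompact Y := cpt_of hY
  have hT : TT Y v := by
    refine Tc_808.gen_tt hYc.isClosed (b := fun s : ({φ} : Set (ℂ → ℝ)) => (s : ℂ → ℝ)) ?_ hv
    rintro ⟨s, hs⟩
    rw [mem_singleton_iff] at hs
    subst hs
    exact hφ
  obtain ⟨G, hG⟩ := gen_rule hYc hφ.q.bdd hv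
  refine ⟨hT, NI.of_rule (b := fun _ => φ) (fun _ => h) hG.lip countable_empty
    (TT.countable hφ) ?_⟩
  intro z hz hJ _ _
  left
  have h1 := lo_eq_up hY hφ hz hJ
  obtain ⟨m, O, hO, h2⟩ := hG.loc z hz
  obtain ⟨L, hL⟩ := hG.lip m
  exact ⟨0, m, h1, (env_comp hY (TT.lb hφ) (TT.lb hT) h1 hL hO h2).2⟩

variable {x0 φ : ℂ → ℝ} {A : ℕ → ℂ → ℝ} {F : ℂ → ℂ}

/-- the admissible class of the package -/
def Adm (Y : Set ℂ) (A : ℕ → ℂ → ℝ) : Set (ℂ → ℝ) := {v | TT Y v ∧ ∀ i, NI Y (A i) v}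

theorem minT (h : Pk Y x0 A φ F) : N8_602.MinT Y x0 φ (Adm Y A) where
  cpt := cpt_of h.hY
  hx0 := h.hx
  tt := h.tt
  gen v hv := ⟨(gen_ni h.hY h.tt (h.com 0) hv).1, fun i => (gen_ni h.hY h.tt (h.com i) hv).2⟩
  min v hv := by
    rw [N8_602.JT_eq, N8_602.JT_eq]
    exact h.min v hv.1 hv.2

theorem pkT (h : Pk Y x0 A φ F) : N8_602.PkT Y x0 φ := N8_602.pkT_of_min (minT h)

theorem cpl (h : Pk Y x0 A φ F) : IfB_641.Cpl Y x0 φ F := ⟨h.hol, h.re, h.inf⟩

/-- **the Euler-Lagrange inequality** -/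
theorem elineq (h : Pk Y x0 A φ F) : Uv_913.ELIneq Yᶜ F := N8_602.elineq (pkT h) (cpl h)

/-- the truncated functions are admissible -/
theorem trunc_ni (h : Pk Y x0 A φ F) {V : Set ℂ} {s : ℝ}
    (hT : TT Y (fun z => φ z + (-1) * inc V F s z)) (i : ℕ) :
    NI Y (A i) (fun z => φ z + (-1) * inc V F s z) := by
  have hY := h.hY
  have hYc := cpt_of hY
  refine valp Y (A i) φ _ hY (h.tta i) h.tt hT (h.com i) {s} (countable_singleton s) ?_
  intro z hz hw
  have hx0 : Nb Y z (tsupport x0)ᶜ := nb_of_mem hz (isClosed_tsupport _).isOpen_compl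
    ((connectedComponentIn_subset _ _).trans fun w hw hw' => h.hx.zero hw' hw)
  by_cases hV : ∃ O, Nb Y z O ∧ ∀ w ∈ O, w ∉ Y → w ∉ V
  · obtain ⟨O, hO, h1⟩ := hV
    have e : ∀ w ∈ O, w ∉ Y → (fun z => φ z + (-1) * inc V F s z) w = φ w := by
      intro w hw hwY
      simp only [Uw_913.inc_of_notMem (h1 w hw hwY), mul_zero, add_zero]
    have e1 := up_congr hY (TT.lb hT) (TT.lb h.tt) hO e
    have e2 := lo_congr hY (TT.lb hT) (TT.lb h.tt) hO e
    left
    exact ⟨by rw [← e1, ← e2, hw], e1.symm⟩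
  · push Not at hV
    right; left
    rw [mem_singleton_iff]
    set g : ℂ → ℝ := fun z => φ z + (-1) * inc V F s z with hg
    have key : ∀ O, Nb Y z O → ∃ w ∈ O, w ∉ Y ∧ g w = s := by
      intro O hO
      obtain ⟨w, hw, hwY, hwV⟩ := hV _ (hO.inter hx0)
      refine ⟨w, hw.1, hwY, ?_⟩
      have h0 : x0 w = 0 := image_eq_zero_of_notMem_tsupport hw.2
      have h2 := h.re w hwY
      simp only [hg, Uw_913.inc_of_mem hwV]
      rw [h2, h0]; ring
    refine le_antisymm ?_ ?_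
    · by_contra hcon
      rw [not_le, ← hw] at hcon
      obtain ⟨O, hO, h1⟩ := exists_gt_of_lt_lo hY (TT.lb hT) hcon
      obtain ⟨w, hw1, hw2, hw3⟩ := key O hO
      exact absurd hw3 (h1 w hw1 hw2).ne'
    · by_contra hcon
      rw [not_le] at hcon
      obtain ⟨O, hO, h1⟩ := exists_lt_of_up_lt hY (TT.lb hT) hcon
      obtain ⟨w, hw1, hw2, hw3⟩ := key O hO
      exact absurd hw3 (h1 w hw1 hw2).ne

/-- **univalence** -/
theorem injOn (h : Pk Y x0 A φ F) : InjOn F Yᶜ := by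
  have hU := h.hY
  have hcc : Yᶜᶜ = Y := compl_compl Y
  have hre : ∀ z ∈ Yᶜ, (F z).re = x0 z + φ z := h.re
  have hx : X0 Yᶜᶜ x0 := by rw [hcc]; exact h.hx
  have htt : TT Yᶜᶜ φ := by rw [hcc]; exact h.tt
  refine Uw_913.injOn_of_T_min hU h.hol hx htt hre h.inf (elineq h) ?_
  intro σ hσ t z0 hz0 ht V hVdef hVb
  have hσ2 : σ * σ = 1 := by rcases hσ with rfl | rfl <;> norm_num
  have hfc : ContinuousOn (fun z => σ * (F z).re) Yᶜ :=
    continuousOn_const.mul (Complex.continuous_re.comp_continuousOn h.hol.continuousOn)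
  have hWo : IsOpen {z | z ∈ Yᶜ ∧ t < σ * (F z).re} := hfc.isOpen_inter_preimage hU.1 isOpen_Ioi
  have hV : IsOpen V := by rw [hVdef]; exact hWo.connectedComponentIn
  have hVW : V ⊆ {z | z ∈ Yᶜ ∧ t < σ * (F z).re} := by
    rw [hVdef]; exact connectedComponentIn_subset _ _
  have hVU : V ⊆ Yᶜ := fun z hz => (hVW hz).1
  have hfr : ∀ z ∈ Yᶜ, z ∈ frontier V → (F z).re = σ * t := by
    intro z hz hzf
    rw [hVdef] at hzf
    have h1 := Uw_913.frontier_cc hU.1 hfc z0 z hz hzf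
    rw [← h1, ← mul_assoc, hσ2, one_mul]
  have hsg : ∀ z ∈ V, 0 ≤ σ * ((F z).re - σ * t) := by
    intro z hz
    have h1 := (hVW hz).2
    rw [mul_sub, ← mul_assoc, hσ2, one_mul]
    linarith
  have hT := Uw_913.trunc_TT hU h.hol hx htt hre hV hVU hVb hfr hσ hsg
  rw [hcc] at hT
  have h2 := h.min _ hT (trunc_ni h hT)
  unfold TJ at h2
  rw [hcc]
  exact h2

end Crest.Agent.R105.Sk3_157
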