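import Crest.Agent.R105.Eta1_179
import Crest.Agent.R105.Sk3a_157

/-!
# R105 (S0138, HCi): ends of levels at a free hair, part 2 (helper179): the cut picture

`E` compact with interval sections, `L0` a component which contains the box `[c1,c2] x [b1,b2]`.
* `cutE`, `yc` : the strip without the middle of the box, `y` cut off to the strip
* `yd_cut`, `stokes_cut` : 319's data and Stokes formula there
* `ELZ` : E-L for test functions which are `c L * G (re)` near every component `L ≠ L0`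
* `cut_ineq` : `|∫ G' Φ_χ| ≤ ∫ |G'| W_χ` for `G` with support in the window
-/

set_option autoImplicit false

open Set Filter MeasureTheory Metric
open scoped Topology NNReal ContDiff ENNReal

namespace Crest.Agent.R105.Eta_179

open Tc_808 Bd_775 Sqr_185 Yv_319
open Sct_636 (LCE)
open Pct_185 (Sol pt pt_mem)

noncomputable section

variable {E : Set ℂ} {y χ : ℂ → ℝ} {c1 c2 b1 b2 d1 d2 : ℝ} {θ : ℝ → ℝ}

/-- the strip without the middle of the box -/
def cutE (E : Set ℂ) (c1 c2 b1 b2 : ℝ) : Set ℂ := {z | z ∈ E ∧ z.re ∈ Icc c1 c2 ∧ z.im ∉ Ioo b1 b2}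

/-- `y` cut off to the strip -/
def yc (E : Set ℂ) (θ : ℝ → ℝ) (y : ℂ → ℝ) (w : ℂ) : ℝ := θ w.re * Eᶜ.indicator y w

theorem cutE_sub : cutE E c1 c2 b1 b2 ⊆ E := fun _ h => h.1

theorem isCompact_cutE (hE : IsCompact E) : IsCompact (cutE E c1 c2 b1 b2) := by
  have h1 : IsClosed {z : ℂ | z.re ∈ Icc c1 c2} := isClosed_Icc.preimage Complex.continuous_re
  have h2 : IsClosed {z : ℂ | z.im ∉ Ioo b1 b2} :=
    (isOpen_Ioo.preimage Complex.continuous_im).isClosed_compl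
  have : cutE E c1 c2 b1 b2 = E ∩ ({z : ℂ | z.re ∈ Icc c1 c2} ∩ {z : ℂ | z.im ∉ Ioo b1 b2}) := by
    ext z; simp only [cutE, mem_inter_iff, mem_ofPred_eq]
  rw [this]
  exact hE.inter_right (h1.inter h2)

/-- the window function -/
structure Win (θ : ℝ → ℝ) (c1 c2 d1 d2 : ℝ) : Prop where
  sm : ContDiff ℝ ∞ θ
  mem : ∀ s, θ s ∈ Icc (0:ℝ) 1
  supp : tsupport θ ⊆ Ioo c1 c2
  one : ∀ s ∈ Ioo d1 d2, θ s = 1
  d1 : c1 ≤ d1
  d2 : d2 ≤ c2

theorem exists_win (h1 : c1 < d1) (h3 : d2 < c2) : ∃ θ, Win θ c1 c2 d1 d2 := by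
  obtain ⟨f, hf1, hf0, hf01⟩ := exists_contMDiffMap_zero_one_of_isClosed
    (modelWithCornersSelf ℝ ℝ) (n := ⊤) (s := (Ioo ((c1 + d1) / 2) ((d2 + c2) / 2))ᶜ)
    (t := Icc d1 d2) isOpen_Ioo.isClosed_compl isClosed_Icc (by
      rw [disjoint_left]
      intro x hx hx'
      exact hx ⟨by linarith [hx'.1], by linarith [hx'.2]⟩)
  refine ⟨f, f.contMDiff.contDiff, hf01, ?_, fun s hs => hf0 (Ioo_subset_Icc_self hs), h1.le, h3.le⟩
  have : tsupport f ⊆ Icc ((c1 + d1) / 2) ((d2 + c2) / 2) := by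
    refine closure_minimal (fun x hx => ?_) isClosed_Icc
    by_contra hn
    exact hx (hf1 fun h => hn (Ioo_subset_Icc_self h))
  exact this.trans fun x hx => ⟨by linarith [hx.1], by linarith [hx.2]⟩

/-- near a point of `E` off the cut picture `yc = 0` -/
theorem yc_zero (hθ : Win θ c1 c2 d1 d2)
    (hbox : ∀ z : ℂ, z.re ∈ Icc c1 c2 → z.im ∈ Icc b1 b2 → z ∈ E) {z : ℂ} (hz : z ∈ E)
    (hz' : z ∉ cutE E c1 c2 b1 b2) : ∀ᶠ w in 𝓝 z, yc E θ y w = 0 := by
  by_cases h : z.re ∈ tsupport θ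
  · have h1 : z.re ∈ Ioo c1 c2 := hθ.supp h
    have h2 : z.im ∈ Ioo b1 b2 := by
      by_contra hn
      exact hz' ⟨hz, Ioo_subset_Icc_self h1, hn⟩
    have e1 : ∀ᶠ w : ℂ in 𝓝 z, w.re ∈ Ioo c1 c2 :=
      Complex.continuous_re.continuousAt.eventually (isOpen_Ioo.mem_nhds h1)
    have e2 : ∀ᶠ w : ℂ in 𝓝 z, w.im ∈ Ioo b1 b2 :=
      Complex.continuous_im.continuousAt.eventually (isOpen_Ioo.mem_nhds h2)
    filter_upwards [e1, e2] with w h3 h4
    have h5 : w ∈ E := hbox w (Ioo_subset_Icc_self h3) (Ioo_subset_Icc_self h4)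
    unfold yc
    rw [indicator_of_notMem (show w ∉ Eᶜ from fun h => h h5), mul_zero]
  · have e1 : ∀ᶠ w : ℂ in 𝓝 z, w.re ∈ (tsupport θ)ᶜ :=
      Complex.continuous_re.continuousAt.eventually
        ((isClosed_tsupport θ).isOpen_compl.mem_nhds h)
    filter_upwards [e1] with w h3
    unfold yc
    rw [image_eq_zero_of_notMem_tsupport h3, zero_mul]

/-- off `E` the function is `θ(re) y` -/
theorem yc_eq (hE : IsClosed E) {z : ℂ} (hz : z ∉ E) :
    ∀ᶠ w in 𝓝 z, yc E θ y w = θ w.re * y w := by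
  filter_upwards [hE.isOpen_compl.mem_nhds hz] with w hw
  unfold yc; rw [indicator_of_mem hw]

/-- the truncation on a ball -/
theorem exists_trunc (hE : IsClosed E) (hy : YD E y) (hθ : Win θ c1 c2 d1 d2) (R : ℝ) :
    ∃ κ : ℂ → ℝ, (∀ w ∈ ball (0:ℂ) R, κ w = 1) ∧ Q E (fun w => (κ w * θ w.re) * y w) := by
  let κ : ContDiffBump (0 : ℂ) := ⟨|R| + 1, |R| + 2, by positivity, by linarith⟩
  refine ⟨κ, fun w hw => κ.one_of_mem_closedBall (ball_subset_closedBall
    (ball_subset_ball (by linarith [le_abs_self R]) hw)), ?_⟩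
  exact q_trunc hE hy (κ.contDiff.mul (hθ.sm.comp Complex.reCLM.contDiff))
    κ.hasCompactSupport.mul_right

/-- **data of the cut picture** -/
theorem yd_cut (hE : IsCompact E) (hy : YD E y) (hθ : Win θ c1 c2 d1 d2)
    (hbox : ∀ z : ℂ, z.re ∈ Icc c1 c2 → z.im ∈ Icc b1 b2 → z ∈ E) :
    YD (cutE E c1 c2 b1 b2) (yc E θ y) := by
  have hEc := hE.isClosed
  have hCc := (isCompact_cutE (c1 := c1) (c2 := c2) (b1 := b1) (b2 := b2) hE).isClosed
  refine ⟨?_, ?_, ?_⟩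
  · intro z hz
    rw [hCc.isOpen_compl.nhdsWithin_eq hz]
    by_cases hzE : z ∈ E
    · have h1 := yc_zero (y := y) hθ hbox hzE hz
      refine ⟨0, {w | yc E θ y w = 0}, h1, fun a ha b hb => ?_⟩
      have ha' : yc E θ y a = 0 := ha
      have hb' : yc E θ y b = 0 := hb
      simp only [ha', hb', edist_self, zero_le]
    · obtain ⟨κ, hκ, hQ⟩ := exists_trunc hEc hy hθ (‖z‖ + 1)
      obtain ⟨K, t, ht, hK⟩ := hQ.loc hzE
      rw [hEc.isOpen_compl.nhdsWithin_eq hzE] at ht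
      have hzb : z ∈ ball (0:ℂ) (‖z‖ + 1) := by rw [mem_ball_zero_iff]; linarith
      refine ⟨K, t ∩ (Eᶜ ∩ ball (0:ℂ) (‖z‖ + 1)), inter_mem ht
        (inter_mem (hEc.isOpen_compl.mem_nhds hzE) (isOpen_ball.mem_nhds hzb)), ?_⟩
      have heq : ∀ w ∈ Eᶜ ∩ ball (0:ℂ) (‖z‖ + 1), yc E θ y w = (κ w * θ w.re) * y w := by
        intro w hw
        unfold yc; rw [indicator_of_mem hw.1, hκ w hw.2, one_mul]
      intro a ha b hb
      rw [heq a ha.2, heq b hb.2]
      exact hK ha.1 hb.1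
  · intro R
    obtain ⟨M, hM⟩ := hy.bdd R
    refine ⟨max M 0, fun z hz => ?_⟩
    have h1 : |θ z.re| ≤ 1 := by
      rw [abs_of_nonneg (hθ.mem _).1]; exact (hθ.mem _).2
    have h2 : |Eᶜ.indicator y z| ≤ max M 0 := by
      by_cases hzE : z ∈ Eᶜ
      · rw [indicator_of_mem hzE]; exact (hM z hz).trans (le_max_left _ _)
      · rw [indicator_of_notMem hzE, abs_zero]; exact le_max_right _ _
    unfold yc
    rw [abs_mul]
    calc |θ z.re| * |Eᶜ.indicator y z| ≤ 1 * max M 0 :=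
          mul_le_mul h1 h2 (abs_nonneg _) zero_le_one
      _ = max M 0 := one_mul _
  · intro R
    obtain ⟨κ, hκ, hQ⟩ := exists_trunc hEc hy hθ (R + 1)
    have h1 : IntegrableOn (en (yc E θ y)) (Eᶜ ∩ ball 0 (R + 1)) := by
      refine IntegrableOn.congr_fun (hQ.fin.mono_set inter_subset_left) (fun z hz => ?_)
        (hEc.isOpen_compl.measurableSet.inter measurableSet_ball)
      refine (en_eq_of_eventuallyEq ?_).symm
      filter_upwards [hEc.isOpen_compl.mem_nhds hz.1, isOpen_ball.mem_nhds hz.2] with w h2 h3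
      unfold yc; rw [indicator_of_mem h2, hκ w h3, one_mul]
    refine IntegrableOn.of_forall_sdiff_eq_zero h1
      (hCc.isOpen_compl.measurableSet.inter isClosed_closedBall.measurableSet) ?_ |>.mono_set
      subset_rfl
    rintro z ⟨⟨hz1, hz2⟩, hz3⟩
    have hzE : z ∈ E := by
      by_contra h
      exact hz3 ⟨h, (closedBall_subset_ball (by linarith)) hz2⟩
    rw [en_eq_of_eventuallyEq (v := fun _ => (0:ℝ)) (yc_zero hθ hbox hzE hz1), en_const]

theorem wdg_zero_right {u v : ℂ → ℝ} {z : ℂ} (h : ∀ᶠ w in 𝓝 z, v w = 0) : wdg u v z = 0 := by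
  unfold wdg
  rw [gx_eq_of_eventuallyEq (u := v) (v := fun _ => (0:ℝ)) h,
    gy_eq_of_eventuallyEq (u := v) (v := fun _ => (0:ℝ)) h, gx_const, gy_const]; ring

theorem wdg_zero_left {u v : ℂ → ℝ} {z : ℂ} (h : ∀ᶠ w in 𝓝 z, u w = 0) : wdg u v z = 0 := by
  unfold wdg
  rw [gx_eq_of_eventuallyEq (u := u) (v := fun _ => (0:ℝ)) h,
    gy_eq_of_eventuallyEq (u := u) (v := fun _ => (0:ℝ)) h, gx_const, gy_const]; ring

/-- **Stokes in the cut picture** -/
theorem stokes_cut (hE : IsCompact E) (hy : YD E y) (hθ : Win θ c1 c2 d1 d2)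
    (hbox : ∀ z : ℂ, z.re ∈ Icc c1 c2 → z.im ∈ Icc b1 b2 → z ∈ E)
    (hχ : LCE (cutE E c1 c2 b1 b2) χ) {G : ℝ → ℝ}
    (hG : ContDiff ℝ ∞ G) (hG' : HasCompactSupport G) (hGs : tsupport G ⊆ Ioo d1 d2) :
    ∫ w in Eᶜ, wdg (fun w => G w.re * χ w) y w
      = ∫ w, deriv G w.re * SY (cutE E c1 c2 b1 b2) χ (yc E θ y) w := by
  have hEc := hE.isClosed
  have hCc := (isCompact_cutE (c1 := c1) (c2 := c2) (b1 := b1) (b2 := b2) hE).isClosed
  rw [← stokes (isCompact_cutE hE) hχ (yd_cut hE hy hθ hbox) hG hG'.deriv,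
    ← integral_indicator hEc.isOpen_compl.measurableSet,
    ← integral_indicator hCc.isOpen_compl.measurableSet]
  congr 1
  ext w
  by_cases hw : w ∈ E
  · rw [indicator_of_notMem (show w ∉ Eᶜ from fun h => h hw)]
    by_cases hw' : w ∈ cutE E c1 c2 b1 b2
    · rw [indicator_of_notMem (show w ∉ (cutE E c1 c2 b1 b2)ᶜ from fun h => h hw')]
    · rw [indicator_of_mem (show w ∈ (cutE E c1 c2 b1 b2)ᶜ from hw'),
        wdg_zero_right (yc_zero hθ hbox hw hw')]
  · rw [indicator_of_mem (show w ∈ Eᶜ from hw), indicator_of_mem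
      (show w ∈ (cutE E c1 c2 b1 b2)ᶜ from fun h => hw h.1)]
    by_cases hs : w.re ∈ tsupport G
    · have h1 : w.re ∈ Ioo d1 d2 := hGs hs
      have e1 : ∀ᶠ v : ℂ in 𝓝 w, v.re ∈ Ioo d1 d2 :=
        Complex.continuous_re.continuousAt.eventually (isOpen_Ioo.mem_nhds h1)
      have e2 : yc E θ y =ᶠ[𝓝 w] y := by
        filter_upwards [yc_eq (θ := θ) (y := y) hEc hw, e1] with v h2 h3
        rw [h2, hθ.one _ h3, one_mul]
      unfold wdg
      rw [gx_eq_of_eventuallyEq e2, gy_eq_of_eventuallyEq e2]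
    · have e1 : ∀ᶠ v : ℂ in 𝓝 w, v.re ∈ (tsupport G)ᶜ :=
        Complex.continuous_re.continuousAt.eventually
          ((isClosed_tsupport G).isOpen_compl.mem_nhds hs)
      have e2 : ∀ᶠ v : ℂ in 𝓝 w, G v.re * χ v = 0 := by
        filter_upwards [e1] with v hv
        rw [image_eq_zero_of_notMem_tsupport hv, zero_mul]
      rw [wdg_zero_left e2, wdg_zero_left e2]

/-! ### components in the strip -/

/-- the part of a component with interval sections in a vertical strip is connected -/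
theorem preconn_strip {K : Set ℂ} (hK : IsCompact K) (hKc : IsPreconnected K)
    (hord : ∀ t, OrdConnected (sec K t)) (a b : ℝ) :
    IsPreconnected (K ∩ {z : ℂ | z.re ∈ Icc a b}) := by
  set X : Set ℂ := K ∩ {z : ℂ | z.re ∈ Icc a b} with hX
  have hXc : IsCompact X := hK.inter_right (isClosed_Icc.preimage Complex.continuous_re)
  rw [isPreconnected_closed_iff]
  rintro A B hA hB hAB ⟨p, hpX, hpA⟩ ⟨q, hqX, hqB⟩
  by_contra hne
  rw [not_nonempty_iff_eq_empty] at hne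
  have hdis : ∀ z ∈ X, z ∈ A → z ∉ B := fun z h1 h2 h3 => by
    have : z ∈ X ∩ (A ∩ B) := ⟨h1, h2, h3⟩
    rw [hne] at this; exact this
  -- the projections
  have cA : IsCompact (Complex.re '' (X ∩ A)) := (hXc.inter_right hA).image Complex.continuous_re
  have cB : IsCompact (Complex.re '' (X ∩ B)) := (hXc.inter_right hB).image Complex.continuous_re
  have hdisj : ∀ t, t ∈ Complex.re '' (X ∩ A) → t ∉ Complex.re '' (X ∩ B) := by
    rintro t ⟨u, ⟨huX, huA⟩, rfl⟩ ⟨v, ⟨hvX, hvB⟩, hv⟩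
    have hsec : IsPreconnected ((fun s : ℝ => (⟨u.re, s⟩ : ℂ)) '' sec K u.re) :=
      (hord u.re).isPreconnected.image _ (Sqr_185.continuous_mk_right u.re).continuousOn
    have hsub : (fun s : ℝ => (⟨u.re, s⟩ : ℂ)) '' sec K u.re ⊆ X := by
      rintro _ ⟨s, hs, rfl⟩
      exact ⟨hs, huX.2⟩
    have mu : u ∈ (fun s : ℝ => (⟨u.re, s⟩ : ℂ)) '' sec K u.re :=
      ⟨u.im, mem_sec_re.2 huX.1, rfl⟩
    have mv : v ∈ (fun s : ℝ => (⟨u.re, s⟩ : ℂ)) '' sec K u.re := by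
      refine ⟨v.im, ?_, Complex.ext hv.symm rfl⟩
      rw [← hv]; exact mem_sec_re.2 hvX.1
    obtain ⟨z, hz, hzA, hzB⟩ := isPreconnected_closed_iff.1 hsec A B hA hB (hsub.trans hAB)
      ⟨u, mu, huA⟩ ⟨v, mv, hvB⟩
    exact hdis z (hsub hz) hzA hzB
  have hI : IsPreconnected (Complex.re '' X) := by
    have h1 : Complex.re '' X = Complex.re '' K ∩ Icc a b := by
      ext t
      constructor
      · rintro ⟨z, hz, rfl⟩; exact ⟨⟨z, hz.1, rfl⟩, hz.2⟩
      · rintro ⟨⟨z, hz, rfl⟩, h⟩; exact ⟨z, ⟨hz, h⟩, rfl⟩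
    rw [h1]
    exact ((hKc.image _ Complex.continuous_re.continuousOn).ordConnected.inter
      ordConnected_Icc).isPreconnected
  obtain ⟨t, ht, htA, htB⟩ := isPreconnected_closed_iff.1 hI _ _ cA.isClosed cB.isClosed (by
    rintro _ ⟨z, hz, rfl⟩
    rcases hAB hz with h | h
    · exact Or.inl ⟨z, ⟨hz, h⟩, rfl⟩
    · exact Or.inr ⟨z, ⟨hz, h⟩, rfl⟩) ⟨p.re, ⟨p, hpX, rfl⟩, ⟨p, ⟨hpX, hpA⟩, rfl⟩⟩
    ⟨q.re, ⟨q, hqX, rfl⟩, ⟨q, ⟨hqX, hqB⟩, rfl⟩⟩
  exact hdisj t htA htB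

/-- value of a cut-off on the strip part of a component -/
def cv (c1 c2 : ℝ) (L0 : Cmp E) (χ : ℂ → ℝ) (L : Cmp E) : ℝ :=
  open Classical in
  if L = L0 then 0 else
    if h : (L.1 ∩ {z : ℂ | z.re ∈ Icc c1 c2}).Nonempty then χ h.choose else 0

variable {L0 : Cmp E}

theorem strip_sub_cut (hbox0 : ∀ z : ℂ, z.re ∈ Icc c1 c2 → z.im ∈ Icc b1 b2 → z ∈ L0.1)
    {L : Cmp E} (hL : L ≠ L0) : L.1 ∩ {z : ℂ | z.re ∈ Icc c1 c2} ⊆ cutE E c1 c2 b1 b2 := by
  rintro z ⟨hz, hzr⟩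
  refine ⟨L.subset hz, hzr, fun h => hL ?_⟩
  have h1 : z ∈ L0.1 := hbox0 z hzr (Ioo_subset_Icc_self h)
  have e1 := L.eq_of_mem hz
  have e2 := L0.eq_of_mem h1
  exact e1.trans e2.symm

theorem cv_near (hE : IsCompact E) (hord : ∀ L : Cmp E, ∀ t, OrdConnected (sec L.1 t))
    (hbox0 : ∀ z : ℂ, z.re ∈ Icc c1 c2 → z.im ∈ Icc b1 b2 → z ∈ L0.1)
    (hχ : LCE (cutE E c1 c2 b1 b2) χ) {L : Cmp E} (hL : L ≠ L0) {p : ℂ} (hp : p ∈ L.1)
    (hpr : p.re ∈ Icc c1 c2) : ∀ᶠ w in 𝓝 p, χ w = cv c1 c2 L0 χ L := by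
  obtain ⟨c, O, hO, hLO, hc⟩ := Tc_808.LC.const_near (Pct_185.LCE.LC hχ)
    (preconn_strip (L.isCompact hE) L.preconn (hord L) c1 c2) (strip_sub_cut hbox0 hL)
  have hne : (L.1 ∩ {z : ℂ | z.re ∈ Icc c1 c2}).Nonempty := ⟨p, hp, hpr⟩
  have h1 : cv c1 c2 L0 χ L = c := by
    unfold cv
    rw [if_neg hL, dif_pos hne]
    exact hc _ (hLO hne.choose_spec)
  filter_upwards [hO.mem_nhds (hLO ⟨hp, hpr⟩)] with w hw
  rw [h1, hc w hw]

theorem cv_mem (hχ01 : ∀ z, χ z ∈ Icc (0:ℝ) 1) (L : Cmp E) : cv c1 c2 L0 χ L ∈ Icc (0:ℝ) 1 := by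
  unfold cv
  split_ifs
  · exact ⟨le_rfl, zero_le_one⟩
  · exact hχ01 _
  · exact ⟨le_rfl, zero_le_one⟩

theorem cv_finite (hE : IsCompact E)
    (hbox0 : ∀ z : ℂ, z.re ∈ Icc c1 c2 → z.im ∈ Icc b1 b2 → z ∈ L0.1)
    (hχ : LCE (cutE E c1 c2 b1 b2) χ) : (range (cv c1 c2 L0 χ)).Finite := by
  have h1 := Sk3_157.finite_values (isCompact_cutE (c1 := c1) (c2 := c2) (b1 := b1) (b2 := b2) hE)
    (Pct_185.LCE.LC hχ)
  refine (h1.insert 0).subset ?_
  rintro _ ⟨L, rfl⟩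
  unfold cv
  by_cases hL : L = L0
  · rw [if_pos hL]; exact mem_insert _ _
  · rw [if_neg hL]
    by_cases h : (L.1 ∩ {z : ℂ | z.re ∈ Icc c1 c2}).Nonempty
    · rw [dif_pos h]
      exact mem_insert_of_mem _ ⟨_, strip_sub_cut hbox0 hL h.choose_spec, rfl⟩
    · rw [dif_neg h]; exact mem_insert _ _

/-- the test function near a component -/
theorem test_near (hE : IsCompact E) (hord : ∀ L : Cmp E, ∀ t, OrdConnected (sec L.1 t))
    (hbox0 : ∀ z : ℂ, z.re ∈ Icc c1 c2 → z.im ∈ Icc b1 b2 → z ∈ L0.1)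
    (hχ : LCE (cutE E c1 c2 b1 b2) χ) {G : ℝ → ℝ} (hGs : tsupport G ⊆ Icc c1 c2)
    {L : Cmp E} (hL : L ≠ L0) {p : ℂ} (hp : p ∈ L.1) :
    ∀ᶠ w in 𝓝 p, G w.re * χ w = cv c1 c2 L0 χ L * G w.re := by
  by_cases hpr : p.re ∈ tsupport G
  · filter_upwards [cv_near hE hord hbox0 hχ hL hp (hGs hpr)] with w hw
    rw [hw]; ring
  · have e1 : ∀ᶠ v : ℂ in 𝓝 p, v.re ∈ (tsupport G)ᶜ :=
      Complex.continuous_re.continuousAt.eventually
        ((isClosed_tsupport G).isOpen_compl.mem_nhds hpr)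
    filter_upwards [e1] with v hv
    rw [image_eq_zero_of_notMem_tsupport hv]; ring

theorem osc_le_cont {g : ℂ → ℝ} (hg : Continuous g) {K : Set ℂ} {c : ℝ} (hc : 0 ≤ c)
    (h : ∀ p ∈ K, ∀ q ∈ K, |g p - g q| ≤ c) : osc E g K ≤ c := by
  refine osc_le_of_forall hc fun ε hε => ?_
  refine ⟨⋃ p ∈ K, {w | |g w - g p| < ε / 2}, ?_, fun p hp => ?_, ?_⟩
  · exact isOpen_biUnion fun p _ => isOpen_lt (hg.sub continuous_const).abs continuous_const
  · refine mem_iUnion₂.2 ⟨p, hp, ?_⟩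
    simp only [mem_ofPred_eq, sub_self, abs_zero]; positivity
  · intro z hz _ w hw _
    obtain ⟨p, hp, h1⟩ := mem_iUnion₂.1 hz
    obtain ⟨q, hq, h2⟩ := mem_iUnion₂.1 hw
    have h1' : |g z - g p| < ε / 2 := h1
    have h2' : |g w - g q| < ε / 2 := h2
    have h3 := h p hp q hq
    rw [abs_lt] at h1' h2'
    rw [abs_le] at h3 ⊢
    constructor <;> linarith [h1'.1, h1'.2, h2'.1, h2'.2, h3.1, h3.2]

/-- **E-L** for test functions which near every `L ≠ L0` are `c L * G (re)` -/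
def ELZ (E : Set ℂ) (L0 : Cmp E) (s : Cmp E → ℝ) (y : ℂ → ℝ) : Prop :=
  ∀ (f : ℂ → ℝ) (G : ℝ → ℝ) (c : Cmp E → ℝ), ContDiff ℝ ∞ f → HasCompactSupport f →
    ContDiff ℝ ∞ G → HasCompactSupport G → (range c).Finite →
    (∀ L, L ≠ L0 → ∀ p ∈ L.1, ∀ᶠ w in 𝓝 p, f w = c L * G w.re) →
    |∫ w in Eᶜ, wdg f y w| ≤ ∑' L : Cmp E, s L * osc E f L.1

/-- **the inequality on the vertical lines of the cut picture** -/
theorem cut_ineq (hE : IsCompact E) (hord : ∀ L : Cmp E, ∀ t, OrdConnected (sec L.1 t))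
    (hsum : Summable fun L : Cmp E => wd L.1 ^ 2)
    {s : Cmp E → ℝ} (hs0 : ∀ L, 0 ≤ s L) (hs : Summable fun L => s L ^ 2) (hsL : s L0 = 0)
    (hy : YD E y) (hEL : ELZ E L0 s y) (hθ : Win θ c1 c2 d1 d2)
    (hbox0 : ∀ z : ℂ, z.re ∈ Icc c1 c2 → z.im ∈ Icc b1 b2 → z ∈ L0.1)
    (hχ : LCE (cutE E c1 c2 b1 b2) χ) (hχ01 : ∀ z, χ z ∈ Icc (0:ℝ) 1)
    {G : ℝ → ℝ} (hG : ContDiff ℝ ∞ G) (hGc : HasCompactSupport G) (hGs : tsupport G ⊆ Ioo d1 d2) :
    |∫ t, deriv G t * ∫ v, SY (cutE E c1 c2 b1 b2) χ (yc E θ y) ⟨t, v⟩| ≤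
      ∫ t, |deriv G t| * ∑' L : Sol E, wt (fun L => s L * cv c1 c2 L0 χ L) (fun _ => 1) L t := by
  have hbox : ∀ z : ℂ, z.re ∈ Icc c1 c2 → z.im ∈ Icc b1 b2 → z ∈ E := fun z h1 h2 =>
    L0.subset (hbox0 z h1 h2)
  have hGs' : tsupport G ⊆ Icc c1 c2 := hGs.trans fun x hx =>
    ⟨hθ.d1.trans hx.1.le, hx.2.le.trans hθ.d2⟩
  have hSY := integrable_SY (isCompact_cutE (c1 := c1) (c2 := c2) (b1 := b1) (b2 := b2) hE).isClosed
    hχ (yd_cut hE hy hθ hbox)
  have hG'c : Continuous (deriv G) := hG.continuous_deriv (by simp)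
  obtain ⟨C, hC⟩ := hGc.deriv.exists_bound_of_continuous hG'c
  have hfsm : ContDiff ℝ ∞ fun w : ℂ => G w.re * χ w :=
    (hG.comp Complex.reCLM.contDiff).mul hχ.smooth
  have h1 := hEL (fun w => G w.re * χ w) G (cv c1 c2 L0 χ) hfsm hχ.supp.mul_left hG hGc
    (cv_finite hE hbox0 hχ) (fun L hL p hp => test_near hE hord hbox0 hχ hGs' hL hp)
  rw [stokes_cut hE hy hθ hbox hχ hG hGc hGs, fub_re hSY hG'c hC] at h1
  refine h1.trans ?_
  set s' : Cmp E → ℝ := fun L => s L * cv c1 c2 L0 χ L with hs'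
  have hs'0 : ∀ L, 0 ≤ s' L := fun L => mul_nonneg (hs0 L) (cv_mem hχ01 L).1
  have hs'le : ∀ L, s' L ≤ s L := fun L => mul_le_of_le_one_right (hs0 L) (cv_mem hχ01 L).2
  have hs's : Summable fun L => s' L ^ 2 :=
    Summable.of_nonneg_of_le (fun L => sq_nonneg _) (fun L => pow_le_pow_left₀ (hs'0 L) (hs'le L) 2) hs
  have hW := wt_facts hE hsum hs'0 hs's (χ := fun _ => 1) (fun _ => ⟨zero_le_one, le_rfl⟩)
    (g := fun t => |deriv G t|) hG'c.abs (fun t => abs_nonneg _) (C := C) hC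
  -- the oscillations
  have hI : ∀ L : Cmp E, 0 ≤ ∫ t in (lo L.1)..(hi L.1), |deriv G t| := fun L =>
    intervalIntegral.integral_nonneg (lo_le_hi (L.isCompact hE) L.nonempty) fun t _ => abs_nonneg _
  have hosc : ∀ L : Cmp E, s L * osc E (fun w => G w.re * χ w) L.1
      ≤ s' L * ∫ t in (lo L.1)..(hi L.1), |deriv G t| := by
    intro L
    by_cases hL : L = L0
    · rw [hL, hsL, zero_mul]
      exact mul_nonneg (hs'0 _) (hI _)
    · have hcv := cv_mem (c1 := c1) (c2 := c2) (L0 := L0) hχ01 L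
      have h2 : osc E (fun w => G w.re * χ w) L.1
          ≤ cv c1 c2 L0 χ L * ∫ t in (lo L.1)..(hi L.1), |deriv G t| := by
        refine osc_le_cont hfsm.continuous (mul_nonneg hcv.1 (hI L)) fun p hp q hq => ?_
        rw [(test_near hE hord hbox0 hχ hGs' hL hp).self_of_nhds,
          (test_near hE hord hbox0 hχ hGs' hL hq).self_of_nhds, ← mul_sub, abs_mul,
          abs_of_nonneg hcv.1]
        refine mul_le_mul_of_nonneg_left ?_ hcv.1
        have hK := L.isCompact hE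
        have key : ∀ a b : ℝ, a ≤ b → lo L.1 ≤ a → b ≤ hi L.1 →
            |G a - G b| ≤ ∫ t in (lo L.1)..(hi L.1), |deriv G t| := by
          intro a b hab ha hb
          have e1 : ∫ t in a..b, deriv G t = G b - G a :=
            intervalIntegral.integral_deriv_eq_sub (fun x _ => (hG.differentiable (by simp)) x)
              (hG'c.intervalIntegrable _ _)
          rw [abs_sub_comm, ← e1]
          calc |∫ t in a..b, deriv G t| ≤ ∫ t in a..b, |deriv G t| :=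
                intervalIntegral.abs_integral_le_integral_abs hab
            _ ≤ ∫ t in (lo L.1)..(hi L.1), |deriv G t| :=
                intervalIntegral.integral_mono_interval ha hab hb
                  (Eventually.of_forall fun t => abs_nonneg _) (hG'c.abs.intervalIntegrable _ _)
        rcases le_total p.re q.re with h | h
        · exact key _ _ h (lo_le hK hp) (le_hi hK hq)
        · rw [abs_sub_comm]; exact key _ _ h (lo_le hK hq) (le_hi hK hp)
      calc s L * osc E (fun w => G w.re * χ w) L.1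
          ≤ s L * (cv c1 c2 L0 χ L * ∫ t in (lo L.1)..(hi L.1), |deriv G t|) :=
            mul_le_mul_of_nonneg_left h2 (hs0 L)
        _ = s' L * ∫ t in (lo L.1)..(hi L.1), |deriv G t| := by simp only [hs']; ring
  have hsumR : Summable fun L : Cmp E => s' L * ∫ t in (lo L.1)..(hi L.1), |deriv G t| := by
    have h2 : Summable fun L : Cmp E => C * (s' L * wd L.1) :=
      (summable_swd hE hsum hs'0 hs's).mul_left C
    refine Summable.of_nonneg_of_le (fun L => mul_nonneg (hs'0 L) (hI L)) (fun L => ?_) h2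
    have hle := lo_le_hi (L.isCompact hE) L.nonempty
    have h3 := intervalIntegral.integral_mono_on (μ := volume) hle
      (hG'c.abs.intervalIntegrable _ _) (continuous_const.intervalIntegrable _ _)
      (g := fun _ => C) (fun t _ => hC t)
    rw [intervalIntegral.integral_const, smul_eq_mul] at h3
    calc s' L * ∫ t in (lo L.1)..(hi L.1), |deriv G t| ≤ s' L * ((hi L.1 - lo L.1) * C) :=
          mul_le_mul_of_nonneg_left h3 (hs'0 L)
      _ = C * (s' L * wd L.1) := by simp only [wd]; ring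
  have hsumL : Summable fun L : Cmp E => s L * osc E (fun w => G w.re * χ w) L.1 :=
    Summable.of_nonneg_of_le (fun L => mul_nonneg (hs0 L) (osc_nonneg _ _ _)) hosc hsumR
  refine (hsumL.tsum_le_tsum hosc hsumR).trans ?_
  have h3 : (fun L : Cmp E => s' L * ∫ t in (lo L.1)..(hi L.1), |deriv G t|).support
      ⊆ {L : Cmp E | 0 < wd L.1} := by
    intro L hL
    rcases (wd_nonneg hE L).lt_or_eq with h | h
    · exact h
    · exfalso
      apply hL
      simp only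
      have h3 : hi L.1 = lo L.1 := by simp only [wd] at h; linarith
      rw [h3, intervalIntegral.integral_same, mul_zero]
  rw [← tsum_subtype_eq_of_support_subset h3]
  refine le_of_eq ?_
  have h4 : ∫ t, |deriv G t| * ∑' L : Sol E, wt s' (fun _ => 1) L t
      = ∫ t, ∑' L : Sol E, |deriv G t| * wt s' (fun _ => 1) L t := by
    congr 1; ext t; rw [tsum_mul_left]
  rw [h4, hW.2.2]
  exact tsum_congr fun L => by rw [mul_one]

end

end Crest.Agent.R105.Eta_179
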