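import Crest.Agent.R105.Eta2_179

/-!
# R105 (S0138, HCi): ends of levels at a free hair, part 3 (helper179): lines

* `GoodL`, `goodL_ae`, `line_key` : 319's computation on one vertical line
* `tp` : top of the section of `L0`
* `sep_two` : separation on two lines
* `ends_pair` : `|y(t0,v0) - y(t1,v1)| → 0` when `v0, v1` go down to `L0`
* `exists_eta` : one limit for a.e. line
-/

set_option autoImplicit false

open Set Filter MeasureTheory Metric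
open scoped Topology NNReal ContDiff ENNReal

namespace Crest.Agent.R105.Eta_179

open Tc_808 Bd_775 Sqr_185 Yv_319
open Sct_636 (LCE continuous_mk)
open Pct_185 (Sol pt pt_mem)

noncomputable section

variable {C : Set ℂ} {Y χ : ℂ → ℝ}

/-! ### one line -/

/-- good vertical lines for a function `Y` off a compact set `C` -/
structure GoodL (C : Set ℂ) (Y : ℂ → ℝ) (X : TopologicalSpace.Clopens C → ℂ → ℝ) (t : ℝ) :
    Prop where
  int : ∀ u v, IntervalIntegrable (fun v => Cᶜ.indicator (gy Y) ⟨t, v⟩) volume u v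
  dif : ∀ᵐ v : ℝ, (⟨t, v⟩ : ℂ) ∈ Cᶜ → DifferentiableAt ℝ Y ⟨t, v⟩
  sy : ∀ i, Integrable fun v : ℝ => SY C (X i) Y ⟨t, v⟩

theorem goodL_ae (hC : IsCompact C) (hY : YD C Y) {X : TopologicalSpace.Clopens C → ℂ → ℝ}
    (hX : ∀ S, LCE C (X S)) : ∀ᵐ t : ℝ, GoodL C Y X t := by
  have hEcl : IsClosed C := hC.isClosed
  have hm : MeasurableSet (Cᶜ : Set ℂ) := hEcl.isOpen_compl.measurableSet
  have : CompactSpace C := isCompact_iff_compactSpace.1 hC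
  have : Countable (TopologicalSpace.Clopens C) := Pv_937.countable_clopens C
  have a0 : ∀ n : ℕ, ∀ᵐ t : ℝ, Integrable fun v : ℝ =>
      (Cᶜ ∩ closedBall (0:ℂ) n).indicator (gy Y) ⟨t, v⟩ := by
    intro n
    have h1 : Integrable ((Cᶜ ∩ closedBall (0:ℂ) n).indicator (gy Y)) := by
      rw [integrable_indicator_iff (hm.inter isClosed_closedBall.measurableSet)]
      exact integrableOn_gy' hY n
    exact (fub h1).1
  have a1 := ae_all_iff.2 a0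
  have b1 : ∀ᵐ t : ℝ, ∀ᵐ v : ℝ, (⟨t, v⟩ : ℂ) ∈ Cᶜ → DifferentiableAt ℝ Y ⟨t, v⟩ := by
    have h1 := (ae_restrict_iff' hm).1 (ae_diff hEcl.isOpen_compl hY.loc)
    have mp := Complex.volume_preserving_equiv_real_prod.symm
    have h2 : ∀ᵐ p : ℝ × ℝ, (⟨p.1, p.2⟩ : ℂ) ∈ Cᶜ → DifferentiableAt ℝ Y ⟨p.1, p.2⟩ :=
      mp.quasiMeasurePreserving.ae h1
    rw [Measure.volume_eq_prod] at h2
    exact Measure.ae_ae_of_ae_prod h2
  have d1 : ∀ᵐ t : ℝ, ∀ i, Integrable fun v : ℝ => SY C (X i) Y ⟨t, v⟩ :=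
    ae_all_iff.2 fun i => (fub (integrable_SY hEcl (hX i) hY)).1
  filter_upwards [a1, b1, d1] with t ha hb hd
  refine ⟨?_, hb, hd⟩
  intro u v
  obtain ⟨n, hn⟩ := exists_nat_ge (|t| + (|u| + |v|))
  have h1 := (ha n).intervalIntegrable (a := u) (b := v)
  refine h1.congr_ae ?_
  rw [Filter.EventuallyEq, ae_restrict_iff' measurableSet_uIoc]
  refine Eventually.of_forall fun w hwI => ?_
  have h3 : |w| ≤ |u| + |v| := by
    have h4 := uIoc_subset_uIcc hwI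
    rw [mem_uIcc] at h4
    rcases h4 with h4 | h4
    · rw [abs_le]; constructor
      · linarith [neg_abs_le u, abs_nonneg v]
      · linarith [le_abs_self v, abs_nonneg u]
    · rw [abs_le]; constructor
      · linarith [neg_abs_le v, abs_nonneg u]
      · linarith [le_abs_self u, abs_nonneg v]
  have h5 : (⟨t, w⟩ : ℂ) ∈ closedBall (0:ℂ) n := by
    rw [mem_closedBall, dist_zero_right]
    exact (norm_mk_le t w).trans (by linarith)
  by_cases hw : (⟨t, w⟩ : ℂ) ∈ Cᶜ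
  · rw [indicator_of_mem hw, indicator_of_mem (show (⟨t, w⟩ : ℂ) ∈ Cᶜ ∩ closedBall 0 n from
      ⟨hw, h5⟩)]
  · rw [indicator_of_notMem hw, indicator_of_notMem
      (show (⟨t, w⟩ : ℂ) ∉ Cᶜ ∩ closedBall 0 n from fun h => hw h.1)]

/-- the increment on a line in terms of the total -/
theorem line_key (hC : IsCompact C) (hY : YD C Y) {X : TopologicalSpace.Clopens C → ℂ → ℝ}
    (hX : ∀ S, LCE C (X S)) (hX1 : ∀ (S : TopologicalSpace.Clopens C) (q : C), q ∈ S → X S q = 1)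
    (hX0 : ∀ (S : TopologicalSpace.Clopens C) (q : C), q ∉ S → X S q = 0)
    {t : ℝ} (ht : GoodL C Y X t) {S : TopologicalSpace.Clopens C} {c d : ℝ} (hcd : c ≤ d)
    (hc : (⟨t, c⟩ : ℂ) ∉ C) (hd : (⟨t, d⟩ : ℂ) ∉ C)
    (hS : ∀ q : C, q.1.re = t → (q ∈ S ↔ q.1.im ∈ Icc c d)) :
    Y ⟨t, d⟩ - Y ⟨t, c⟩ - ∫ v in c..d, Cᶜ.indicator (gy Y) ⟨t, v⟩
      = -∫ v : ℝ, SY C (X S) Y ⟨t, v⟩ := by
  have hEcl : IsClosed C := hC.isClosed
  set K : Set ℝ := {v | (⟨t, v⟩ : ℂ) ∈ C} with hK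
  have hvc : Continuous (fun v : ℝ => (⟨t, v⟩ : ℂ)) := Sct_636.continuous_mk t
  have hKcl : IsClosed K := hEcl.preimage hvc
  have hα : LocallyLipschitzOn Kᶜ (fun v => Y ⟨t, v⟩) := by
    intro v hv
    obtain ⟨L, u, hu, hL⟩ := hY.loc (show (⟨t, v⟩ : ℂ) ∈ Cᶜ from hv)
    rw [hEcl.isOpen_compl.nhdsWithin_eq (show (⟨t, v⟩ : ℂ) ∈ Cᶜ from hv)] at hu
    refine ⟨L * 1, (fun v : ℝ => (⟨t, v⟩ : ℂ)) ⁻¹' u,
      mem_nhdsWithin_of_mem_nhds (hvc.continuousAt hu), ?_⟩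
    exact hL.comp (lipschitz_mk t).lipschitzOnWith (fun x hx => hx)
  have hder : ∀ᵐ v : ℝ, v ∉ K →
      HasDerivAt (fun v => Y ⟨t, v⟩) (Cᶜ.indicator (gy Y) ⟨t, v⟩) v := by
    filter_upwards [ht.dif] with v hv hvK
    rw [indicator_of_mem (show (⟨t, v⟩ : ℂ) ∈ Cᶜ from hvK)]
    exact hasDerivAt_line (hv hvK)
  obtain ⟨R0, hR0, hR0'⟩ := exists_ball (hX S).supp
  set R : ℝ := R0 + |c| + |d| + 1 with hR
  have hRpos : 0 < R := by positivity
  have hout : ∀ v : ℝ, R0 ≤ |v| → (⟨t, v⟩ : ℂ) ∉ tsupport (X S) := by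
    intro v hv hmem
    have h1 := hR0' hmem
    rw [mem_ball, dist_zero_right] at h1
    linarith [abs_le_norm_mk t v]
  have hRR0 : R0 ≤ R := by
    have := abs_nonneg c; have := abs_nonneg d; rw [hR]; linarith
  have hkey := key' (α := fun v => Y ⟨t, v⟩) (b := fun v => Cᶜ.indicator (gy Y) ⟨t, v⟩)
    (χ := fun v => X S ⟨t, v⟩) (χ' := fun v => gy (X S) ⟨t, v⟩) (K := K) (y1 := c) (y2 := d)
    (R := R) hKcl hα hder ht.int (fun u v => (ht.sy S).intervalIntegrable)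
    (fun v => hasDerivAt_line ((hX S).smooth.differentiable (by simp)).differentiableAt)
    ((continuous_gy' (hX S).smooth).comp hvc) hcd hc hd
    (by linarith [neg_abs_le c, abs_nonneg d]) (by linarith [le_abs_self d, abs_nonneg c])
    (by
      intro v hvK hv
      have h1 := hvc.continuousAt.eventually ((hX S).lc ⟨t, v⟩ hvK)
      filter_upwards [h1] with x hx
      rw [hx]; exact hX1 S ⟨⟨t, v⟩, hvK⟩ ((hS ⟨⟨t, v⟩, hvK⟩ rfl).2 hv))
    (by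
      intro v hvK hv
      have h1 := hvc.continuousAt.eventually ((hX S).lc ⟨t, v⟩ hvK)
      filter_upwards [h1] with x hx
      rw [hx]; exact hX0 S ⟨⟨t, v⟩, hvK⟩ (fun h => hv ((hS ⟨⟨t, v⟩, hvK⟩ rfl).1 h)))
    (image_eq_zero_of_notMem_tsupport (hout (-R) (by rw [abs_neg, abs_of_pos hRpos]; exact hRR0)))
    (image_eq_zero_of_notMem_tsupport (hout R (by rw [abs_of_pos hRpos]; exact hRR0)))
  rw [hkey]
  congr 1
  have h2 : Function.support (fun v : ℝ => SY C (X S) Y ⟨t, v⟩) ⊆ Ioc (-R) R := by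
    intro v hv
    by_contra hn
    apply hv
    have h3 : R0 ≤ |v| := by
      rw [mem_Ioc, not_and_or, not_lt, not_le] at hn
      rcases hn with hn | hn
      · have : R ≤ |v| := by rw [← abs_neg]; exact le_trans (by linarith) (le_abs_self (-v))
        linarith
      · linarith [le_abs_self v]
    have h4 := hout v h3
    have h5 := notMem_tsupport_iff_eventuallyEq.1 h4
    have h6 : gy (X S) ⟨t, v⟩ = 0 := by
      rw [gy_eq_of_eventuallyEq (v := fun _ => (0:ℝ)) h5, gy_const]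
    simp only [SY]
    rw [h6, image_eq_zero_of_notMem_tsupport h4]; ring
  exact intervalIntegral.integral_eq_integral_of_support_subset (μ := volume) h2

/-! ### the top of `L0` -/

variable {E : Set ℂ} {y : ℂ → ℝ} {c1 c2 b1 b2 d1 d2 : ℝ} {θ : ℝ → ℝ} {L0 : Cmp E}

/-- top of the section -/
def tp (K : Set ℂ) (t : ℝ) : ℝ := sSup (sec K t)

theorem isCompact_sec {K : Set ℂ} (hK : IsCompact K) (t : ℝ) : IsCompact (sec K t) := by
  have h1 : IsClosed (sec K t) := hK.isClosed.preimage (Sqr_185.continuous_mk_right t)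
  obtain ⟨R, hR⟩ := hK.isBounded.exists_norm_le
  refine (isCompact_Icc (a := -R) (b := R)).of_isClosed_subset h1 fun v hv => ?_
  have h2 := hR _ (mem_sec.1 hv)
  exact abs_le.1 ((abs_le_norm_mk t v).trans h2)

/-- geometry of the box -/
structure Bxx (E : Set ℂ) (L0 : Cmp E) (c1 c2 b1 b2 : ℝ) : Prop where
  cpt : IsCompact E
  ord : ∀ L : Cmp E, ∀ t, OrdConnected (sec L.1 t)
  box : ∀ z : ℂ, z.re ∈ Icc c1 c2 → z.im ∈ Icc b1 b2 → z ∈ L0.1
  b : b1 < b2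

namespace Bxx
variable (H : Bxx E L0 c1 c2 b1 b2)
include H

theorem sec_box {t v : ℝ} (ht : t ∈ Icc c1 c2) (hv : v ∈ Icc b1 b2) : (⟨t, v⟩ : ℂ) ∈ L0.1 :=
  H.box ⟨t, v⟩ ht hv

theorem tp_mem {t : ℝ} (ht : t ∈ Icc c1 c2) : (⟨t, tp L0.1 t⟩ : ℂ) ∈ L0.1 :=
  (isCompact_sec (L0.isCompact H.cpt) t).sSup_mem
    ⟨b2, H.sec_box ht ⟨H.b.le, le_rfl⟩⟩

theorem le_tp {t v : ℝ} (hv : (⟨t, v⟩ : ℂ) ∈ L0.1) : v ≤ tp L0.1 t :=
  le_csSup (isCompact_sec (L0.isCompact H.cpt) t).bddAbove hv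

theorem b2_le {t : ℝ} (ht : t ∈ Icc c1 c2) : b2 ≤ tp L0.1 t :=
  H.le_tp (H.sec_box ht ⟨H.b.le, le_rfl⟩)

theorem mem_L0 {t v : ℝ} (ht : t ∈ Icc c1 c2) (h1 : b1 ≤ v) (h2 : v ≤ tp L0.1 t) :
    (⟨t, v⟩ : ℂ) ∈ L0.1 :=
  (H.ord L0 t).out (H.sec_box ht ⟨le_rfl, H.b.le⟩) (H.tp_mem ht) ⟨h1, h2⟩

theorem eq_L0 {L : Cmp E} {z : ℂ} (h1 : z ∈ L.1) (h2 : z ∈ L0.1) : L = L0 :=
  (L.eq_of_mem h1).trans (L0.eq_of_mem h2).symm

/-- gap above `L0` for one other component -/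
theorem gap {L : Cmp E} (hL : L ≠ L0) {t : ℝ} (ht : t ∈ Icc c1 c2) :
    ∃ δ > 0, ∀ v, (⟨t, v⟩ : ℂ) ∈ L.1 → v ∉ Icc b1 (tp L0.1 t + δ) := by
  have h1 : (⟨t, tp L0.1 t⟩ : ℂ) ∉ L.1 := fun h => hL (H.eq_L0 h (H.tp_mem ht))
  have h2 : IsOpen {v : ℝ | (⟨t, v⟩ : ℂ) ∉ L.1} :=
    ((L.isCompact H.cpt).isClosed.preimage (Sqr_185.continuous_mk_right t)).isOpen_compl
  obtain ⟨δ, hδ, h3⟩ := Metric.isOpen_iff.1 h2 _ h1
  refine ⟨δ / 2, by positivity, fun v hv hvI => ?_⟩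
  by_cases h : v ≤ tp L0.1 t
  · exact hL (H.eq_L0 hv (H.mem_L0 ht hvI.1 h))
  · rw [not_le] at h
    have : v ∈ ball (tp L0.1 t) δ := by
      rw [mem_ball, Real.dist_eq, abs_of_pos (by linarith)]
      linarith [hvI.2]
    exact h3 this hv

/-- gap for finitely many components -/
theorem gap_fin {𝓛 : Set (Cmp E)} (h𝓛 : 𝓛.Finite) {t : ℝ} (ht : t ∈ Icc c1 c2) :
    ∃ δ > 0, ∀ L ∈ 𝓛, L ≠ L0 → ∀ v, (⟨t, v⟩ : ℂ) ∈ L.1 → v ∉ Icc b1 (tp L0.1 t + δ) := by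
  refine Set.Finite.induction_on (motive := fun s _ => ∃ δ > 0, ∀ L ∈ s, L ≠ L0 → ∀ v,
    (⟨t, v⟩ : ℂ) ∈ L.1 → v ∉ Icc b1 (tp L0.1 t + δ)) 𝓛 h𝓛 ⟨1, one_pos, fun L hL => hL.elim⟩ ?_
  rintro L s - - ⟨δ, hδ, h⟩
  by_cases hL : L = L0
  · refine ⟨δ, hδ, ?_⟩
    rintro L' (rfl | hL') hne
    · exact absurd hL hne
    · exact h L' hL' hne
  · obtain ⟨δ', hδ', h'⟩ := H.gap hL ht
    refine ⟨min δ δ', lt_min hδ hδ', ?_⟩
    rintro L' (rfl | hL') hne v hv hvI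
    · exact h' v hv ⟨hvI.1, hvI.2.trans (by linarith [min_le_right δ δ'])⟩
    · exact h L' hL' hne v hv ⟨hvI.1, hvI.2.trans (by linarith [min_le_left δ δ'])⟩

/-- free points above `L0` -/
theorem exists_free {t : ℝ} (ht : t ∈ Icc c1 c2) {δ : ℝ} (hδ : 0 < δ) :
    ∃ v ∈ Ioo (tp L0.1 t) (tp L0.1 t + δ), (⟨t, v⟩ : ℂ) ∉ E := by
  by_contra hcon
  push Not at hcon
  have h1 : ∀ v ∈ Icc (tp L0.1 t) (tp L0.1 t + δ / 2), (⟨t, v⟩ : ℂ) ∈ E := by
    intro v hv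
    rcases eq_or_lt_of_le hv.1 with h | h
    · rw [← h]; exact L0.subset (H.tp_mem ht)
    · exact hcon v ⟨h, by linarith [hv.2]⟩
  have hpre : IsPreconnected ((fun s : ℝ => (⟨t, s⟩ : ℂ)) '' Icc (tp L0.1 t) (tp L0.1 t + δ / 2)) :=
    isPreconnected_Icc.image _ (Sqr_185.continuous_mk_right t).continuousOn
  have hsub : (fun s : ℝ => (⟨t, s⟩ : ℂ)) '' Icc (tp L0.1 t) (tp L0.1 t + δ / 2) ⊆ E := by
    rintro _ ⟨s, hs, rfl⟩; exact h1 s hs
  have hm : (⟨t, tp L0.1 t⟩ : ℂ) ∈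
      (fun s : ℝ => (⟨t, s⟩ : ℂ)) '' Icc (tp L0.1 t) (tp L0.1 t + δ / 2) :=
    ⟨_, ⟨le_rfl, by linarith⟩, rfl⟩
  have h2 := hpre.subset_connectedComponentIn hm hsub
  rw [Ni_459.Cmp.cc_eq L0 (H.tp_mem ht)] at h2
  have h3 : (⟨t, tp L0.1 t + δ / 2⟩ : ℂ) ∈ L0.1 := h2 ⟨_, ⟨by linarith, le_rfl⟩, rfl⟩
  have := H.le_tp h3
  linarith

/-- **separation on two lines** -/
theorem sep_two {m : ℝ} (hm : m ∈ Ioo b1 b2) {t v : Fin 2 → ℝ} (ht : ∀ i, t i ∈ Icc c1 c2)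
    (hv : ∀ i, tp L0.1 (t i) < v i) (hvE : ∀ i, (⟨t i, v i⟩ : ℂ) ∉ E)
    (hF : ∀ L : Cmp E, L ≠ L0 → (sec L.1 (t 0)).Nonempty → (sec L.1 (t 1)).Nonempty →
      ∀ i, ∀ r, (⟨t i, r⟩ : ℂ) ∈ L.1 → r ∉ Icc m (v i)) :
    ∃ S : TopologicalSpace.Clopens (cutE E c1 c2 b1 b2), ∀ i, ∀ q : cutE E c1 c2 b1 b2,
      q.1.re = t i → (q ∈ S ↔ q.1.im ∈ Icc m (v i)) := by
  have hCc := isCompact_cutE (c1 := c1) (c2 := c2) (b1 := b1) (b2 := b2) H.cpt
  have : CompactSpace (cutE E c1 c2 b1 b2) := isCompact_iff_compactSpace.1 hCc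
  set Z1 : Set (cutE E c1 c2 b1 b2) := {q | ∃ i, q.1.re = t i ∧ q.1.im ∈ Icc m (v i)} with hZ1
  set Z2 : Set (cutE E c1 c2 b1 b2) := {q | ∃ i, q.1.re = t i ∧ q.1.im ∉ Ioo m (v i)} with hZ2
  have cx : Continuous (fun q : cutE E c1 c2 b1 b2 => q.1.re) :=
    Complex.continuous_re.comp continuous_subtype_val
  have cy : Continuous (fun q : cutE E c1 c2 b1 b2 => q.1.im) :=
    Complex.continuous_im.comp continuous_subtype_val
  have k1 : IsClosed Z1 := by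
    have : Z1 = ⋃ i, {q : cutE E c1 c2 b1 b2 | q.1.re = t i ∧ q.1.im ∈ Icc m (v i)} := by
      ext q; simp only [hZ1, mem_ofPred_eq, mem_iUnion]
    rw [this]
    exact isClosed_iUnion_of_finite fun i =>
      (isClosed_eq cx continuous_const).inter (isClosed_Icc.preimage cy)
  have k2 : IsClosed Z2 := by
    have : Z2 = ⋃ i, {q : cutE E c1 c2 b1 b2 | q.1.re = t i ∧ q.1.im ∉ Ioo m (v i)} := by
      ext q; simp only [hZ2, mem_ofPred_eq, mem_iUnion]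
    rw [this]
    exact isClosed_iUnion_of_finite fun i =>
      (isClosed_eq cx continuous_const).inter ((isOpen_Ioo.isClosed_compl).preimage cy)
  have hmv : ∀ i, m < v i := fun i => (hm.2.trans_le (H.b2_le (ht i))).trans (hv i)
  obtain ⟨S, hS, hS1, hS2⟩ := Pv_937.exists_clopen_sep k1 k2 (by
    rintro q ⟨i, hqx, hqy⟩ q' ⟨j, hqx', hqy'⟩ hmem
    have hmem' := mem_cc hmem
    set L : Cmp E := Cmp.of (cutE_sub q.2) with hL
    have hqL : q.1 ∈ L.1 := mem_connectedComponentIn (cutE_sub q.2)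
    have hDL : connectedComponentIn (cutE E c1 c2 b1 b2) q.1 ⊆ L.1 :=
      connectedComponentIn_mono _ cutE_sub
    have hq'L : q'.1 ∈ L.1 := hDL hmem'
    have e1 : ∀ {r : ℂ} {s : ℝ}, r.re = s → (⟨s, r.im⟩ : ℂ) = r := fun h => Complex.ext h.symm rfl
    have mq : (⟨t i, q.1.im⟩ : ℂ) ∈ L.1 := by rw [e1 hqx]; exact hqL
    have mq' : (⟨t j, q'.1.im⟩ : ℂ) ∈ L.1 := by rw [e1 hqx']; exact hq'L
    by_cases hLL : L = L0
    · -- inside `L0`
      have hpre : IsPreconnected (Complex.im '' connectedComponentIn (cutE E c1 c2 b1 b2) q.1) :=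
        isPreconnected_connectedComponentIn.image _ Complex.continuous_im.continuousOn
      have hq2 : b2 ≤ q.1.im := by
        by_contra h
        rw [not_le] at h
        exact q.2.2.2 ⟨hm.1.trans_le hqy.1, h⟩
      have hq'2 : b2 ≤ q'.1.im := by
        by_contra h
        rw [not_le] at h
        have hq'1 : q'.1.im ≤ b1 := by
          by_contra h'
          rw [not_le] at h'
          exact q'.2.2.2 ⟨h', h⟩
        have h5 : m ∈ Complex.im '' connectedComponentIn (cutE E c1 c2 b1 b2) q.1 :=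
          hpre.ordConnected.out ⟨_, hmem', rfl⟩ ⟨_, mem_connectedComponentIn q.2, rfl⟩
            ⟨hq'1.trans hm.1.le, hm.2.le.trans hq2⟩
        obtain ⟨z, hz, hzm⟩ := h5
        have := (connectedComponentIn_subset _ _ hz).2.2
        rw [hzm] at this
        exact this hm
      have hq'v : v j ≤ q'.1.im := by
        by_contra h
        rw [not_le] at h
        exact hqy' ⟨hm.2.trans_le hq'2, h⟩
      rw [hLL] at mq'
      have := H.le_tp mq'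
      linarith [hv j]
    · by_cases hij : i = j
      · subst hij
        rw [mem_Ioo, not_and_or, not_lt, not_lt] at hqy'
        rcases hqy' with h5 | h5
        · have h6 : (⟨t i, m⟩ : ℂ) ∈ L.1 := (H.ord L (t i)).out mq' mq ⟨h5, hqy.1⟩
          exact hLL (H.eq_L0 h6 (H.sec_box (ht i) ⟨hm.1.le, hm.2.le⟩))
        · have h6 : (⟨t i, v i⟩ : ℂ) ∈ L.1 := (H.ord L (t i)).out mq mq' ⟨hqy.2, h5⟩
          exact hvE i (L.subset h6)
      · have hne : (sec L.1 (t 0)).Nonempty ∧ (sec L.1 (t 1)).Nonempty := by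
          fin_cases i <;> fin_cases j <;> simp only [Fin.mk_one, Fin.zero_eta, Fin.isValue,
            not_true_eq_false] at hij mq mq' ⊢
          · exact ⟨⟨_, mq⟩, ⟨_, mq'⟩⟩
          · exact ⟨⟨_, mq'⟩, ⟨_, mq⟩⟩
        exact hF L hLL hne.1 hne.2 i _ mq hqy)
  refine ⟨⟨S, hS⟩, fun i q hq => ⟨fun h => ?_, fun h => hS1 ⟨i, hq, h⟩⟩⟩
  by_contra hn
  exact hS2 q ⟨i, hq, fun h' => hn (Ioo_subset_Icc_self h')⟩ h

end Bxx

end

end Crest.Agent.R105.Eta_179
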