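import Crest.Agent.R105.Eta3_179

/-!
# R105 (S0138, HCi): ends of levels at a free hair, part 4 (helper179): the picture theorem

* `ends_pair` : for good lines `t0 ≠ t1` of the window, `|y(t0,v0) - y(t1,v1)| ≤ ε` as soon as the
  free points `v0, v1` are close enough above `L0`
* `exists_eta` : `y` has one and the same limit at `L0` from above along a.e. line
-/

set_option autoImplicit false

open Set Filter MeasureTheory Metric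
open scoped Topology NNReal ContDiff ENNReal

namespace Crest.Agent.R105.Eta_179

open Tc_808 Bd_775 Sqr_185 Yv_319
open Sct_636 (LCE continuous_mk)
open Pct_185 (Sol pt pt_mem)

noncomputable section

variable {E : Set ℂ} {y : ℂ → ℝ} {c1 c2 b1 b2 d1 d2 : ℝ} {θ : ℝ → ℝ} {L0 : Cmp E}
  {s : Cmp E → ℝ} {X : TopologicalSpace.Clopens (cutE E c1 c2 b1 b2) → ℂ → ℝ}

/-- cut-offs of the clopen parts -/
structure Cuts (C : Set ℂ) (X : TopologicalSpace.Clopens C → ℂ → ℝ) : Prop where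
  lce : ∀ S, LCE C (X S)
  mem : ∀ S z, X S z ∈ Icc (0:ℝ) 1
  one : ∀ (S : TopologicalSpace.Clopens C) (q : C), q ∈ S → X S q = 1
  zero : ∀ (S : TopologicalSpace.Clopens C) (q : C), q ∉ S → X S q = 0

theorem exists_cuts {C : Set ℂ} (hC : IsCompact C) :
    ∃ X : TopologicalSpace.Clopens C → ℂ → ℝ, Cuts C X := by
  choose X h1 h2 h3 h4 using fun S : TopologicalSpace.Clopens C => exists_cutS hC S.isClopen
  exact ⟨X, h1, h2, h3, h4⟩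

/-- totals -/
def Ph (E : Set ℂ) (c1 c2 b1 b2 : ℝ) (θ : ℝ → ℝ) (y χ : ℂ → ℝ) (t : ℝ) : ℝ :=
  ∫ v : ℝ, SY (cutE E c1 c2 b1 b2) χ (yc E θ y) ⟨t, v⟩

/-- weights -/
def Wt (c1 c2 : ℝ) (L0 : Cmp E) (s : Cmp E → ℝ) (χ : ℂ → ℝ) (t : ℝ) : ℝ :=
  ∑' L : Sol E, wt (fun L => s L * cv c1 c2 L0 χ L) (fun _ => 1) L t

/-- good lines -/
structure GT (E : Set ℂ) (c1 c2 b1 b2 : ℝ) (θ : ℝ → ℝ) (y : ℂ → ℝ) (L0 : Cmp E) (s : Cmp E → ℝ)
    (X : TopologicalSpace.Clopens (cutE E c1 c2 b1 b2) → ℂ → ℝ) (t : ℝ) : Prop where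
  gl : GoodL (cutE E c1 c2 b1 b2) (yc E θ y) X t
  ph : ∀ S, Tendsto (fun n => ∫ r, (bp n).normed volume (t - r) * Ph E c1 c2 b1 b2 θ y (X S) r)
    atTop (𝓝 (Ph E c1 c2 b1 b2 θ y (X S) t))
  wt : ∀ S, Tendsto (fun n => ∫ r, (bp n).normed volume (t - r) * Wt c1 c2 L0 s (X S) r)
    atTop (𝓝 (Wt c1 c2 L0 s (X S) t))
  sm : Summable fun L : Sol E => (Icc (lo L.1.1) (hi L.1.1)).indicator (fun _ => s L.1) t

/-- the hypotheses -/
structure Hy (E : Set ℂ) (L0 : Cmp E) (c1 c2 b1 b2 d1 d2 : ℝ) (θ : ℝ → ℝ) (s : Cmp E → ℝ)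
    (y : ℂ → ℝ) : Prop where
  bx : Bxx E L0 c1 c2 b1 b2
  sum : Summable fun L : Cmp E => wd L.1 ^ 2
  s0 : ∀ L, 0 ≤ s L
  ss : Summable fun L => s L ^ 2
  sL : s L0 = 0
  yd : YD E y
  el : ELZ E L0 s y
  win : Win θ c1 c2 d1 d2

namespace Hy
variable (h : Hy E L0 c1 c2 b1 b2 d1 d2 θ s y)
include h

theorem box (z : ℂ) (h1 : z.re ∈ Icc c1 c2) (h2 : z.im ∈ Icc b1 b2) : z ∈ E :=
  L0.subset (h.bx.box z h1 h2)

theorem mem_c {t : ℝ} (ht : t ∈ Ioo d1 d2) : t ∈ Icc c1 c2 :=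
  ⟨h.win.d1.trans ht.1.le, ht.2.le.trans h.win.d2⟩

theorem s'_facts {χ : ℂ → ℝ} (hχ01 : ∀ z, χ z ∈ Icc (0:ℝ) 1) :
    (∀ L, 0 ≤ s L * cv c1 c2 L0 χ L) ∧ (∀ L, s L * cv c1 c2 L0 χ L ≤ s L) ∧
      Summable fun L => (s L * cv c1 c2 L0 χ L) ^ 2 := by
  have h1 : ∀ L, 0 ≤ s L * cv c1 c2 L0 χ L := fun L => mul_nonneg (h.s0 L) (cv_mem hχ01 L).1
  have h2 : ∀ L, s L * cv c1 c2 L0 χ L ≤ s L := fun L =>
    mul_le_of_le_one_right (h.s0 L) (cv_mem hχ01 L).2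
  exact ⟨h1, h2, Summable.of_nonneg_of_le (fun L => sq_nonneg _)
    (fun L => pow_le_pow_left₀ (h1 L) (h2 L) 2) h.ss⟩

theorem int_Wt {χ : ℂ → ℝ} (hχ01 : ∀ z, χ z ∈ Icc (0:ℝ) 1) : Integrable (Wt c1 c2 L0 s χ) := by
  obtain ⟨h1, -, h3⟩ := h.s'_facts hχ01
  have hW := wt_facts h.bx.cpt h.sum h1 h3 (χ := fun _ => 1) (fun _ => ⟨zero_le_one, le_rfl⟩)
    (g := fun _ => 1) continuous_const (fun _ => zero_le_one) (C := 1) (fun _ => le_rfl)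
  simp only [one_mul] at hW
  exact hW.1

theorem Wt_nonneg {χ : ℂ → ℝ} (hχ01 : ∀ z, χ z ∈ Icc (0:ℝ) 1) (t : ℝ) :
    0 ≤ Wt c1 c2 L0 s χ t := by
  obtain ⟨h1, -, -⟩ := h.s'_facts hχ01
  exact tsum_nonneg fun L => wt_nonneg h1 (fun _ => ⟨zero_le_one, le_rfl⟩) L t

theorem int_Ph {χ : ℂ → ℝ} (hχ : LCE (cutE E c1 c2 b1 b2) χ) :
    Integrable (Ph E c1 c2 b1 b2 θ y χ) := by
  have hSY := integrable_SY
    (isCompact_cutE (c1 := c1) (c2 := c2) (b1 := b1) (b2 := b2) h.bx.cpt).isClosed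
    hχ (yd_cut h.bx.cpt h.yd h.win h.box)
  exact (fub hSY).2.1

theorem gt_ae (hX : Cuts (cutE E c1 c2 b1 b2) X) : ∀ᵐ t, GT E c1 c2 b1 b2 θ y L0 s X t := by
  have hC := isCompact_cutE (c1 := c1) (c2 := c2) (b1 := b1) (b2 := b2) h.bx.cpt
  have : CompactSpace (cutE E c1 c2 b1 b2) := isCompact_iff_compactSpace.1 hC
  have : Countable (TopologicalSpace.Clopens (cutE E c1 c2 b1 b2)) := Pv_937.countable_clopens _
  have e1 : ∀ᵐ t : ℝ, Summable fun L : Sol E => Yv_319.wt s (fun _ => 1) L t := by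
    have := (wt_facts h.bx.cpt h.sum h.s0 h.ss (χ := fun _ => 1) (fun _ => ⟨zero_le_one, le_rfl⟩)
      (g := fun _ => 1) continuous_const (fun _ => zero_le_one) (C := 1) (fun _ => le_rfl)).2.1
    simpa only [one_mul] using this
  have a1 := ae_all_iff.2 fun S => ae_bp (h.int_Ph (hX.lce S))
  have a2 := ae_all_iff.2 fun S => ae_bp (h.int_Wt (hX.mem S))
  filter_upwards [goodL_ae hC (yd_cut h.bx.cpt h.yd h.win h.box) hX.lce, a1, a2, e1]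
    with t h1 h2 h3 h4
  refine ⟨h1, h2, h3, ?_⟩
  simpa only [Yv_319.wt, mul_one] using h4

theorem pair (hX : Cuts (cutE E c1 c2 b1 b2) X) {t0 t1 : ℝ}
    (g0 : GT E c1 c2 b1 b2 θ y L0 s X t0) (g1 : GT E c1 c2 b1 b2 θ y L0 s X t1)
    (m0 : t0 ∈ Ioo d1 d2) (m1 : t1 ∈ Ioo d1 d2)
    (S : TopologicalSpace.Clopens (cutE E c1 c2 b1 b2)) :
    |Ph E c1 c2 b1 b2 θ y (X S) t0 - Ph E c1 c2 b1 b2 θ y (X S) t1| ≤
      Wt c1 c2 L0 s (X S) t0 + Wt c1 c2 L0 s (X S) t1 := by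
  refine pair_le (h.int_Ph (hX.lce S)) (h.int_Wt (hX.mem S)) (fun G G1 G2 G3 => ?_)
    (h.Wt_nonneg (hX.mem S)) m0 m1 (g0.ph S) (g0.wt S) (g1.ph S) (g1.wt S)
  exact cut_ineq h.bx.cpt h.bx.ord h.sum h.s0 h.ss h.sL h.yd h.el h.win h.bx.box (hX.lce S)
    (hX.mem S) G1 G2 G3

/-- the weights are small for a clopen part which meets the line close to `L0` only -/
theorem Wt_small (hX : Cuts (cutE E c1 c2 b1 b2) X) {t : ℝ} (ht : t ∈ Icc c1 c2)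
    (hsm : Summable fun L : Sol E => (Icc (lo L.1.1) (hi L.1.1)).indicator (fun _ => s L.1) t)
    {m : ℝ} (hm : b1 ≤ m) {ε : ℝ} (hε : 0 < ε) :
    ∃ δ > 0, ∀ v, v ≤ tp L0.1 t + δ → ∀ S : TopologicalSpace.Clopens (cutE E c1 c2 b1 b2),
      (∀ q : cutE E c1 c2 b1 b2, q.1.re = t → (q ∈ S ↔ q.1.im ∈ Icc m v)) →
      Wt c1 c2 L0 s (X S) t ≤ ε := by
  set g : Sol E → ℝ := fun L => (Icc (lo L.1.1) (hi L.1.1)).indicator (fun _ => s L.1) t with hg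
  have hg0 : ∀ L, 0 ≤ g L := fun L => indicator_nonneg (fun _ _ => h.s0 _) t
  obtain ⟨Fs, hFs⟩ : ∃ Fs : Finset (Sol E), ∑' L : {L // L ∉ Fs}, g L ≤ ε := by
    have h1 := tendsto_tsum_compl_atTop_zero g
    have h2 := h1.eventually (gt_mem_nhds hε)
    obtain ⟨Fs, hFs⟩ := h2.exists
    exact ⟨Fs, hFs.le⟩
  obtain ⟨δ, hδ, hgap⟩ := h.bx.gap_fin (𝓛 := (fun L : Sol E => L.1) '' (Fs : Set (Sol E)))
    (Fs.finite_toSet.image _) ht
  refine ⟨δ, hδ, fun v hv S hS => ?_⟩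
  obtain ⟨k1, k2, -⟩ := h.s'_facts (hX.mem S)
  have key : ∀ L : Sol E, Yv_319.wt (fun L => s L * cv c1 c2 L0 (X S) L) (fun _ => 1) L t
      ≤ ((Fs : Set (Sol E))ᶜ).indicator g L := by
    intro L
    by_cases hL : L ∈ (Fs : Set (Sol E))
    · rw [indicator_of_notMem (show L ∉ ((Fs : Set (Sol E))ᶜ) from fun h => h hL)]
      refine le_of_eq ?_
      unfold Yv_319.wt
      by_cases hti : t ∈ Icc (lo L.1.1) (hi L.1.1)
      · rw [indicator_of_mem hti]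
        by_cases hL0 : L.1 = L0
        · have : cv c1 c2 L0 (X S) L.1 = 0 := by unfold cv; rw [if_pos hL0]
          show (s L.1 * cv c1 c2 L0 (X S) L.1) * 1 = 0
          rw [this]; ring
        · obtain ⟨r, hr⟩ := sec_nonempty (L.1.isCompact h.bx.cpt) L.1.preconn L.1.nonempty hti
          have hrL : (⟨t, r⟩ : ℂ) ∈ L.1.1 := hr
          have hcut : (⟨t, r⟩ : ℂ) ∈ cutE E c1 c2 b1 b2 :=
            strip_sub_cut h.bx.box hL0 ⟨hrL, ht⟩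
          have h1 : X S ⟨t, r⟩ = cv c1 c2 L0 (X S) L.1 :=
            (cv_near h.bx.cpt h.bx.ord h.bx.box (hX.lce S) hL0 hrL ht).self_of_nhds
          have h2 : X S ⟨t, r⟩ = 0 := by
            refine hX.zero S ⟨⟨t, r⟩, hcut⟩ fun hmem => ?_
            have h3 := (hS ⟨⟨t, r⟩, hcut⟩ rfl).1 hmem
            exact hgap L.1 ⟨L, hL, rfl⟩ hL0 r hrL ⟨hm.trans h3.1, h3.2.trans hv⟩
          show (s L.1 * cv c1 c2 L0 (X S) L.1) * 1 = 0
          rw [← h1, h2]; ring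
      · rw [indicator_of_notMem hti]
    · rw [indicator_of_mem (show L ∈ (Fs : Set (Sol E))ᶜ from hL)]
      unfold Yv_319.wt
      simp only [hg]
      by_cases hti : t ∈ Icc (lo L.1.1) (hi L.1.1)
      · rw [indicator_of_mem hti, indicator_of_mem hti, mul_one]; exact k2 _
      · rw [indicator_of_notMem hti, indicator_of_notMem hti]
  have hsi : Summable (((Fs : Set (Sol E))ᶜ).indicator g) := hsm.indicator _
  have h0 : ∀ L, 0 ≤ Yv_319.wt (fun L => s L * cv c1 c2 L0 (X S) L) (fun _ => 1) L t := fun L =>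
    wt_nonneg k1 (fun _ => ⟨zero_le_one, le_rfl⟩) L t
  calc Wt c1 c2 L0 s (X S) t
      ≤ ∑' L, ((Fs : Set (Sol E))ᶜ).indicator g L :=
        (Summable.of_nonneg_of_le h0 key hsi).tsum_le_tsum key hsi
    _ = ∑' L : {L // L ∉ Fs}, g L := by
        rw [← tsum_subtype ((Fs : Set (Sol E))ᶜ) g]
        rfl
    _ ≤ ε := hFs

/-- the integral of the derivative is small -/
theorem int_small {t : ℝ} (ht : t ∈ Ioo d1 d2)
    (gl : GoodL (cutE E c1 c2 b1 b2) (yc E θ y) X t) {m : ℝ} (hm : m ∈ Ioo b1 b2) {ε : ℝ}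
    (hε : 0 < ε) : ∃ δ > 0, ∀ v ∈ Ioo (tp L0.1 t) (tp L0.1 t + δ),
      |∫ r in m..v, (cutE E c1 c2 b1 b2)ᶜ.indicator (gy (yc E θ y)) ⟨t, r⟩| ≤ ε := by
  have htc := h.mem_c ht
  have hmt : m ≤ tp L0.1 t := hm.2.le.trans (h.bx.b2_le htc)
  set f : ℝ → ℝ := fun r => (cutE E c1 c2 b1 b2)ᶜ.indicator (gy (yc E θ y)) ⟨t, r⟩ with hf
  have hz : ∀ r ∈ Icc m (tp L0.1 t), f r = 0 := by
    intro r hr
    have hrL : (⟨t, r⟩ : ℂ) ∈ L0.1 := h.bx.mem_L0 htc (hm.1.le.trans hr.1) hr.2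
    by_cases hc : (⟨t, r⟩ : ℂ) ∈ cutE E c1 c2 b1 b2
    · simp only [hf]; rw [indicator_of_notMem (show (⟨t, r⟩ : ℂ) ∉ (cutE E c1 c2 b1 b2)ᶜ from fun h => h hc)]
    · simp only [hf]; rw [indicator_of_mem (show (⟨t, r⟩ : ℂ) ∈ (cutE E c1 c2 b1 b2)ᶜ from hc)]
      rw [gy_eq_of_eventuallyEq (v := fun _ => (0:ℝ)) (yc_zero h.win h.box (L0.subset hrL) hc),
        gy_const]
  have hcont : Continuous fun v => ∫ r in m..v, f r :=
    intervalIntegral.continuous_primitive gl.int m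
  have h0 : ∫ r in m..(tp L0.1 t), f r = 0 := by
    refine intervalIntegral.integral_zero_ae (Eventually.of_forall fun r hr => ?_)
    rw [uIoc_of_le hmt] at hr
    exact hz r ⟨hr.1.le, hr.2⟩
  have h1 := hcont.continuousAt (x := tp L0.1 t)
  rw [Metric.continuousAt_iff] at h1
  obtain ⟨δ, hδ, h2⟩ := h1 ε hε
  refine ⟨δ, hδ, fun v hv => ?_⟩
  have h3 := h2 (x := v) (by rw [Real.dist_eq, abs_of_pos (by linarith [hv.1])]; linarith [hv.2])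
  rw [Real.dist_eq, h0, sub_zero] at h3
  exact h3.le

/-- **two lines** -/
theorem ends_pair (hX : Cuts (cutE E c1 c2 b1 b2) X) {t0 t1 : ℝ} (hne : t0 ≠ t1)
    (g0 : GT E c1 c2 b1 b2 θ y L0 s X t0) (g1 : GT E c1 c2 b1 b2 θ y L0 s X t1)
    (m0 : t0 ∈ Ioo d1 d2) (m1 : t1 ∈ Ioo d1 d2) {ε : ℝ} (hε : 0 < ε) :
    ∃ δ > 0, ∀ v0 ∈ Ioo (tp L0.1 t0) (tp L0.1 t0 + δ), (⟨t0, v0⟩ : ℂ) ∉ E →
      ∀ v1 ∈ Ioo (tp L0.1 t1) (tp L0.1 t1 + δ), (⟨t1, v1⟩ : ℂ) ∉ E →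
      |y ⟨t0, v0⟩ - y ⟨t1, v1⟩| ≤ ε := by
  set m : ℝ := (b1 + b2) / 2 with hm
  have hb := h.bx.b
  have hmI : m ∈ Ioo b1 b2 := ⟨by rw [hm]; linarith, by rw [hm]; linarith⟩
  have hε4 : 0 < ε / 4 := by positivity
  obtain ⟨δ1, hδ1, i0⟩ := h.int_small m0 g0.gl hmI hε4
  obtain ⟨δ2, hδ2, i1⟩ := h.int_small m1 g1.gl hmI hε4
  obtain ⟨δ3, hδ3, w0⟩ := h.Wt_small hX (h.mem_c m0) g0.sm hmI.1.le hε4
  obtain ⟨δ4, hδ4, w1⟩ := h.Wt_small hX (h.mem_c m1) g1.sm hmI.1.le hε4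
  set 𝓛 : Set (Cmp E) := {L | |t0 - t1| ≤ wd L.1} with h𝓛
  have hpos : 0 < |t0 - t1| := abs_pos.2 (sub_ne_zero.2 hne)
  have hfin : 𝓛.Finite := by
    have h1 := h.sum.tendsto_cofinite_zero.eventually (gt_mem_nhds (show 0 < |t0 - t1| ^ 2 by
      positivity))
    rw [Filter.eventually_cofinite] at h1
    refine h1.subset fun L hL => ?_
    have hL' : |t0 - t1| ≤ wd L.1 := hL
    rw [mem_ofPred_eq, not_lt]
    exact pow_le_pow_left₀ (abs_nonneg _) hL' 2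
  obtain ⟨δ5, hδ5, p0⟩ := h.bx.gap_fin hfin (h.mem_c m0)
  obtain ⟨δ6, hδ6, p1⟩ := h.bx.gap_fin hfin (h.mem_c m1)
  set δ : ℝ := min (min (min δ1 δ2) (min δ3 δ4)) (min δ5 δ6) with hδd
  have e1 : δ ≤ δ1 := ((min_le_left _ _).trans (min_le_left _ _)).trans (min_le_left _ _)
  have e2 : δ ≤ δ2 := ((min_le_left _ _).trans (min_le_left _ _)).trans (min_le_right _ _)
  have e3 : δ ≤ δ3 := ((min_le_left _ _).trans (min_le_right _ _)).trans (min_le_left _ _)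
  have e4 : δ ≤ δ4 := ((min_le_left _ _).trans (min_le_right _ _)).trans (min_le_right _ _)
  have e5 : δ ≤ δ5 := (min_le_right _ _).trans (min_le_left _ _)
  have e6 : δ ≤ δ6 := (min_le_right _ _).trans (min_le_right _ _)
  refine ⟨δ, by rw [hδd]; positivity, fun v0 hv0 hE0 v1 hv1 hE1 => ?_⟩
  obtain ⟨S, hS⟩ := h.bx.sep_two hmI (t := ![t0, t1]) (v := ![v0, v1])
    (by intro i; fin_cases i; exacts [h.mem_c m0, h.mem_c m1])
    (by intro i; fin_cases i; exacts [hv0.1, hv1.1])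
    (by intro i; fin_cases i; exacts [hE0, hE1])
    (by
      rintro L hL ⟨r0, hr0⟩ ⟨r1, hr1⟩ i r hr hrI
      have hr0' : (⟨t0, r0⟩ : ℂ) ∈ L.1 := hr0
      have hr1' : (⟨t1, r1⟩ : ℂ) ∈ L.1 := hr1
      have hK := L.isCompact h.bx.cpt
      have hLm : L ∈ 𝓛 := by
        show |t0 - t1| ≤ wd L.1
        have q1 := lo_le hK hr0'; have q2 := le_hi hK hr0'
        have q3 := lo_le hK hr1'; have q4 := le_hi hK hr1'
        simp only at q1 q2 q3 q4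
        simp only [wd]
        rw [abs_le]; constructor <;> linarith
      fin_cases i
      · exact p0 L hLm hL r hr ⟨hmI.1.le.trans hrI.1, hrI.2.trans
          (show v0 ≤ _ by linarith [hv0.2])⟩
      · exact p1 L hLm hL r hr ⟨hmI.1.le.trans hrI.1, hrI.2.trans
          (show v1 ≤ _ by linarith [hv1.2])⟩)
  have hC := isCompact_cutE (c1 := c1) (c2 := c2) (b1 := b1) (b2 := b2) h.bx.cpt
  have hYD := yd_cut h.bx.cpt h.yd h.win h.box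
  have line : ∀ {t v : ℝ}, t ∈ Ioo d1 d2 → GT E c1 c2 b1 b2 θ y L0 s X t → m ≤ v →
      (⟨t, v⟩ : ℂ) ∉ E →
      (∀ q : cutE E c1 c2 b1 b2, q.1.re = t → (q ∈ S ↔ q.1.im ∈ Icc m v)) →
      y ⟨t, v⟩ = (∫ r in m..v, (cutE E c1 c2 b1 b2)ᶜ.indicator (gy (yc E θ y)) ⟨t, r⟩)
        - Ph E c1 c2 b1 b2 θ y (X S) t := by
    intro t v ht g hmv hvE hSt
    have hm1 : (⟨t, m⟩ : ℂ) ∉ cutE E c1 c2 b1 b2 := fun hh => hh.2.2 hmI
    have hm2 : (⟨t, m⟩ : ℂ) ∈ E := h.box _ (h.mem_c ht) ⟨hmI.1.le, hmI.2.le⟩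
    have k1 := line_key hC hYD hX.lce hX.one hX.zero g.gl hmv hm1 (fun hh => hvE hh.1) hSt
    have k2 : yc E θ y ⟨t, m⟩ = 0 := by
      unfold yc; rw [indicator_of_notMem (show (⟨t, m⟩ : ℂ) ∉ Eᶜ from fun hh => hh hm2), mul_zero]
    have k3 : yc E θ y ⟨t, v⟩ = y ⟨t, v⟩ := by
      unfold yc
      rw [indicator_of_mem (show (⟨t, v⟩ : ℂ) ∈ Eᶜ from hvE)]
      show θ t * _ = _
      rw [h.win.one t ht, one_mul]
    rw [k2, k3] at k1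
    unfold Ph
    linarith
  have hmv0 : m ≤ v0 := by
    have := h.bx.b2_le (h.mem_c m0); linarith [hv0.1, hmI.2]
  have hmv1 : m ≤ v1 := by
    have := h.bx.b2_le (h.mem_c m1); linarith [hv1.1, hmI.2]
  have S0 : ∀ q : cutE E c1 c2 b1 b2, q.1.re = t0 → (q ∈ S ↔ q.1.im ∈ Icc m v0) := hS 0
  have S1 : ∀ q : cutE E c1 c2 b1 b2, q.1.re = t1 → (q ∈ S ↔ q.1.im ∈ Icc m v1) := hS 1
  rw [line m0 g0 hmv0 hE0 S0, line m1 g1 hmv1 hE1 S1]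
  have a0 := i0 v0 ⟨hv0.1, by linarith [hv0.2]⟩
  have a1 := i1 v1 ⟨hv1.1, by linarith [hv1.2]⟩
  have a2 := w0 v0 (by linarith [hv0.2]) S S0
  have a3 := w1 v1 (by linarith [hv1.2]) S S1
  have a4 := h.pair hX g0 g1 m0 m1 S
  rw [abs_le] at a0 a1 a4 ⊢
  constructor <;> linarith [a0.1, a0.2, a1.1, a1.2, a4.1, a4.2]

/-- **one limit from above along a.e. line** -/
theorem exists_eta (hd : d1 < d2) : ∃ η : ℝ, ∀ᵐ t, t ∈ Ioo d1 d2 → ∀ ε > 0, ∃ δ > 0,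
    ∀ v ∈ Ioo (tp L0.1 t) (tp L0.1 t + δ), (⟨t, v⟩ : ℂ) ∉ E → |y ⟨t, v⟩ - η| ≤ ε := by
  obtain ⟨X, hX⟩ := exists_cuts
    (isCompact_cutE (c1 := c1) (c2 := c2) (b1 := b1) (b2 := b2) h.bx.cpt)
  have hae := h.gt_ae hX
  have hex : ∀ a b : ℝ, a < b → ∃ t ∈ Ioo a b, GT E c1 c2 b1 b2 θ y L0 s X t := by
    intro a b hab
    by_contra hcon
    push Not at hcon
    have h1 : volume (Ioo a b) = 0 := measure_mono_null (fun t ht => hcon t ht) (ae_iff.1 hae)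
    rw [Real.volume_Ioo, ENNReal.ofReal_eq_zero] at h1
    linarith
  obtain ⟨t1, ht1, g1⟩ := hex d1 ((d1 + d2) / 2) (by linarith)
  obtain ⟨t2, ht2, g2⟩ := hex ((d1 + d2) / 2) d2 (by linarith)
  have m1 : t1 ∈ Ioo d1 d2 := ⟨ht1.1, by linarith [ht1.2]⟩
  have m2 : t2 ∈ Ioo d1 d2 := ⟨by linarith [ht2.1], ht2.2⟩
  have h12 : t1 ≠ t2 := by
    intro he; rw [he] at ht1; linarith [ht1.2, ht2.1]
  have hu : ∀ n : ℕ, ∃ v ∈ Ioo (tp L0.1 t1) (tp L0.1 t1 + 1 / ((n : ℝ) + 1)),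
      (⟨t1, v⟩ : ℂ) ∉ E := fun n => h.bx.exists_free (h.mem_c m1) (by positivity)
  choose u hu1 hu2 using hu
  have hev : ∀ δ > 0, ∀ᶠ n in atTop, u n ∈ Ioo (tp L0.1 t1) (tp L0.1 t1 + δ) := by
    intro δ hδ
    filter_upwards [tendsto_one_div_add_atTop_nhds_zero_nat.eventually (gt_mem_nhds hδ)] with n hn
    exact ⟨(hu1 n).1, by linarith [(hu1 n).2]⟩
  have hcau : CauchySeq fun n => y ⟨t1, u n⟩ := by
    rw [Metric.cauchySeq_iff']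
    intro ε hε
    obtain ⟨δ, hδ, hp⟩ := h.ends_pair hX h12 g1 g2 m1 m2 (show 0 < ε / 3 by positivity)
    obtain ⟨w, hw, hwE⟩ := h.bx.exists_free (h.mem_c m2) hδ
    obtain ⟨N, hN⟩ := eventually_atTop.1 (hev δ hδ)
    refine ⟨N, fun n hn => ?_⟩
    have k1 := hp (u n) (hN n hn) (hu2 n) w hw hwE
    have k2 := hp (u N) (hN N le_rfl) (hu2 N) w hw hwE
    rw [Real.dist_eq]
    rw [abs_le] at k1 k2
    rw [abs_lt]
    constructor <;> linarith [k1.1, k1.2, k2.1, k2.2]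
  obtain ⟨η, hη⟩ := cauchySeq_tendsto_of_complete hcau
  refine ⟨η, ?_⟩
  have hne : ∀ᵐ t : ℝ, t ≠ t1 := by
    rw [ae_iff]
    have : {t : ℝ | ¬ t ≠ t1} = {t1} := by ext t; simp
    rw [this]; exact measure_singleton t1
  filter_upwards [hae, hne] with t g htne ht ε hε
  obtain ⟨δ, hδ, hp⟩ := h.ends_pair hX htne g g1 ht m1 hε
  refine ⟨δ, hδ, fun v hv hvE => ?_⟩
  have h1 : Tendsto (fun n => |y ⟨t, v⟩ - y ⟨t1, u n⟩|) atTop (𝓝 |y ⟨t, v⟩ - η|) :=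
    (tendsto_const_nhds.sub hη).abs
  refine le_of_tendsto h1 ?_
  filter_upwards [hev δ hδ] with n hn
  exact hp v hv hvE (u n) hn (hu2 n)

end Hy

end

end Crest.Agent.R105.Eta_179
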