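import Mathlib

/-!
# R105, leaf T1 (helper12): discrete Poincare lemma on a filled polyomino

Cells are indexed by `ℤ × ℤ`.  `h p` is the jump between the cells `p` and `p + e1`,
`v p` the jump between `p` and `p + e2`.  If `S` is a finite set of cells whose complement is
connected for king moves, and the jumps are consistent around every 2x2 block inside `S`, then
the jumps come from a potential.  Proof: the jumps on pairs not inside `S` are free; they form
a connected graph on the lattice vertices outside the interior, so a flow can be routed outside.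
-/

namespace Crest.Agent.R105.Exact_12

open Set

/-- one king move inside `T` -/
def KStep (T : Set (ℤ × ℤ)) (p q : ℤ × ℤ) : Prop :=
  p ∈ T ∧ q ∈ T ∧ |p.1 - q.1| ≤ 1 ∧ |p.2 - q.2| ≤ 1

/-- king-connected sets of cells -/
def KConn (T : Set (ℤ × ℤ)) : Prop :=
  ∀ p ∈ T, ∀ q ∈ T, Relation.ReflTransGen (KStep T) p q

section alg

variable {A : Type*} [AddCommGroup A]

abbrev e1 : ℤ × ℤ := (1, 0)
abbrev e2 : ℤ × ℤ := (0, 1)

/-- circulation of the jumps around the block with lower left cell `p` -/
def circ (h v : ℤ × ℤ → A) (p : ℤ × ℤ) : A :=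
  h p + v (p + e1) - v p - h (p + e2)

theorem circ_add (h v h' v' : ℤ × ℤ → A) :
    circ (h + h') (v + v') = circ h v + circ h' v' := by
  funext p
  simp only [circ, Pi.add_apply]
  abel

theorem circ_neg (h v : ℤ × ℤ → A) : circ (-h) (-v) = - circ h v := by
  funext p
  simp only [circ, Pi.neg_apply]
  abel

theorem circ_zero : circ (0 : ℤ × ℤ → A) 0 = 0 := by
  funext p
  simp [circ]

/-- total circulation vanishes -/
theorem finsum_circ {h v : ℤ × ℤ → A} (hh : (Function.support h).Finite)
    (hv : (Function.support v).Finite) : ∑ᶠ p, circ h v p = 0 := by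
  have key : ∀ (f : ℤ × ℤ → A) (e : ℤ × ℤ), (Function.support f).Finite →
      (Function.support (fun p => f (p + e))).Finite ∧ ∑ᶠ p, f (p + e) = ∑ᶠ p, f p := by
    intro f e hf
    refine ⟨?_, ?_⟩
    · have : Function.support (fun p => f (p + e)) = (Equiv.addRight e) ⁻¹' Function.support f := by
        ext p; simp [Function.mem_support]
      rw [this]
      exact hf.preimage (Equiv.injective _).injOn
    · exact finsum_comp_equiv (Equiv.addRight e) (f := f)
  have h1 := key v e1 hv
  have h2 := key h e2 hh
  have : (fun p => circ h v p) = fun p => (h p + v (p + e1)) - (v p + h (p + e2)) := by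
    funext p; simp only [circ]; abel
  rw [this, finsum_sub_distrib, finsum_add_distrib hh h1.1, finsum_add_distrib hv h2.1, h1.2, h2.2]
  · abel
  · exact (hh.union h1.1).subset (Function.support_add _ _)
  · exact (hv.union h2.1).subset (Function.support_add _ _)

/-- discrete Poincare lemma on the whole lattice, finitely supported data. -/
theorem poincare_finite {h v : ℤ × ℤ → A} (hh : (Function.support h).Finite)
    (hv : (Function.support v).Finite) (hc : ∀ p, circ h v p = 0) :
    ∃ a : ℤ × ℤ → A, (∀ p, h p = a (p + e1) - a p) ∧ (∀ p, v p = a (p + e2) - a p) := by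
  -- a bound for the supports
  obtain ⟨M, hM⟩ : ∃ M : ℤ, ∀ p : ℤ × ℤ, p.1 ≤ M → h p = 0 ∧ v p = 0 := by
    obtain ⟨M, hM⟩ := ((hh.union hv).image Prod.fst).bddBelow
    refine ⟨M - 1, fun p hp => ?_⟩
    have : p ∉ Function.support h ∪ Function.support v := by
      intro hmem
      have := hM (mem_image_of_mem Prod.fst hmem)
      omega
    simpa [Function.mem_support, not_or] using this
  -- telescoping
  have tel : ∀ (F : ℤ → A), (∀ k ≤ M, F k = 0) → ∀ i : ℤ,
      ∑ k ∈ Finset.Ico M i, (F (k + 1) - F k) = F i := by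
    intro F hF i
    rcases le_or_gt i M with hi | hi
    · rw [Finset.Ico_eq_empty (by omega)]; simp [hF i hi]
    · induction i, hi.le using Int.le_induction with
      | base => exact absurd hi (lt_irrefl _)
      | succ n hn ih =>
        have : Finset.Ico M (n + 1) = insert n (Finset.Ico M n) := by
          ext k; simp only [Finset.mem_Ico, Finset.mem_insert]; omega
        rw [this, Finset.sum_insert (by simp)]
        rcases eq_or_lt_of_le hn with h0 | h0
        · subst h0
          simp [hF M le_rfl]
        · rw [ih h0]; abel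
  have step : ∀ (G : ℤ → A), (∀ k ≤ M, G k = 0) → ∀ i : ℤ,
      ∑ k ∈ Finset.Ico M (i + 1), G k = ∑ k ∈ Finset.Ico M i, G k + G i := by
    intro G hG i
    rcases lt_or_ge i M with hi | hi
    · rw [Finset.Ico_eq_empty (by omega), Finset.Ico_eq_empty (by omega)]
      simp [hG i hi.le]
    · have : Finset.Ico M (i + 1) = insert i (Finset.Ico M i) := by
        ext k; simp only [Finset.mem_Ico, Finset.mem_insert]; omega
      rw [this, Finset.sum_insert (by simp), add_comm]
  refine ⟨fun p => ∑ k ∈ Finset.Ico M p.1, h (k, p.2), ?_, ?_⟩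
  · rintro ⟨i, j⟩
    simp only [e1, Prod.mk_add_mk, add_zero]
    rw [step (fun k => h (k, j)) (fun k hk => (hM (k, j) hk).1) i]
    abel
  · rintro ⟨i, j⟩
    simp only [e2, Prod.mk_add_mk, add_zero]
    rw [← Finset.sum_sub_distrib, ← tel (fun k => v (k, j)) (fun k hk => (hM (k, j) hk).2) i]
    refine Finset.sum_congr rfl fun k _ => ?_
    have := hc (k, j)
    simp only [circ, e1, e2, Prod.mk_add_mk, add_zero] at this
    have h2 : v (k + 1, j) - v (k, j) = h (k, j + 1) - h (k, j) := by
      rw [sub_eq_zero] at this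
      rw [← this]; abel
    exact h2

variable (S : Set (ℤ × ℤ))

/-- `h p` is free if not both cells are in `S`. -/
def FreeH (p : ℤ × ℤ) : Prop := ¬ (p ∈ S ∧ p + e1 ∈ S)
def FreeV (p : ℤ × ℤ) : Prop := ¬ (p ∈ S ∧ p + e2 ∈ S)

/-- a flow from block `b'` to block `b` along free edges, of any strength -/
def FlowTo (A : Type*) [AddCommGroup A] (b b' : ℤ × ℤ) : Prop :=
  ∀ x : A, ∃ dh dv : ℤ × ℤ → A, (Function.support dh).Finite ∧ (Function.support dv).Finite ∧
    (∀ p, dh p ≠ 0 → FreeH S p) ∧ (∀ p, dv p ≠ 0 → FreeV S p) ∧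
    circ dh dv = Pi.single b x - Pi.single b' x

variable {S}

theorem FlowTo.refl (b : ℤ × ℤ) : FlowTo S A b b := by
  intro x
  refine ⟨0, 0, by simp, by simp, by simp, by simp, ?_⟩
  rw [circ_zero, sub_self]

theorem FlowTo.symm {b b' : ℤ × ℤ} (H : FlowTo S A b b') : FlowTo S A b' b := by
  intro x
  obtain ⟨dh, dv, h1, h2, h3, h4, h5⟩ := H x
  refine ⟨-dh, -dv, ?_, ?_, ?_, ?_, ?_⟩
  · rwa [Function.support_neg]
  · rwa [Function.support_neg]
  · intro p hp; exact h3 p (by simpa using hp)
  · intro p hp; exact h4 p (by simpa using hp)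
  · rw [circ_neg, h5]; abel

theorem FlowTo.trans {b b' b'' : ℤ × ℤ} (H : FlowTo S A b b') (H' : FlowTo S A b' b'') :
    FlowTo S A b b'' := by
  intro x
  obtain ⟨dh, dv, h1, h2, h3, h4, h5⟩ := H x
  obtain ⟨dh', dv', h1', h2', h3', h4', h5'⟩ := H' x
  refine ⟨dh + dh', dv + dv', ?_, ?_, ?_, ?_, ?_⟩
  · exact (h1.union h1').subset (Function.support_add _ _)
  · exact (h2.union h2').subset (Function.support_add _ _)
  · intro p hp
    by_cases h : dh p = 0
    · refine h3' p ?_
      intro h'
      simp [h, h'] at hp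
    · exact h3 p h
  · intro p hp
    by_cases h : dv p = 0
    · refine h4' p ?_
      intro h'
      simp [h, h'] at hp
    · exact h4 p h
  · rw [circ_add, h5, h5']; abel

/-- a free `h`-edge at `p` connects the blocks `p` and `p - e2`. -/
theorem flow_h {p : ℤ × ℤ} (hp : FreeH S p) : FlowTo S A p (p - e2) := by
  intro x
  refine ⟨Pi.single p x, 0, ?_, by simp, ?_, by simp, ?_⟩
  · exact (Set.finite_singleton p).subset Pi.support_single_subset
  · intro q hq
    have : q = p := by
      by_contra hne
      exact hq (Pi.single_eq_of_ne hne _)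
    rwa [this]
  · funext c
    simp only [circ, Pi.zero_apply, Pi.sub_apply, add_zero, sub_zero]
    congr 1
    by_cases h : c = p - e2
    · subst h
      simp
    · rw [Pi.single_eq_of_ne h, Pi.single_eq_of_ne]
      intro h'
      exact h (by rw [← h']; simp)

/-- a free `v`-edge at `p` connects the blocks `p` and `p - e1`. -/
theorem flow_v {p : ℤ × ℤ} (hp : FreeV S p) : FlowTo S A (p - e1) p := by
  intro x
  refine ⟨0, Pi.single p x, by simp, ?_, by simp, ?_, ?_⟩
  · exact (Set.finite_singleton p).subset Pi.support_single_subset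
  · intro q hq
    have : q = p := by
      by_contra hne
      exact hq (Pi.single_eq_of_ne hne _)
    rwa [this]
  · funext c
    simp only [circ, Pi.zero_apply, Pi.sub_apply, zero_add, sub_zero]
    congr 1
    by_cases h : c = p - e1
    · subst h
      simp
    · rw [Pi.single_eq_of_ne h, Pi.single_eq_of_ne]
      intro h'
      exact h (by rw [← h']; simp)

/-- `b` is one of the four blocks containing the cell `q`. -/
def InBlk (b q : ℤ × ℤ) : Prop :=
  (b.1 = q.1 ∨ b.1 = q.1 - 1) ∧ (b.2 = q.2 ∨ b.2 = q.2 - 1)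

/-- the four blocks containing a cell off `S` are connected by free edges. -/
theorem flow_blk {q : ℤ × ℤ} (hq : q ∉ S) {b : ℤ × ℤ} (hb : InBlk b q) : FlowTo S A b q := by
  have f1 : FlowTo S A q (q - e2) := flow_h (fun h => hq h.1)
  have f2 : FlowTo S A (q - e1) q := flow_v (fun h => hq h.1)
  have f3 : FlowTo S A (q - e1) (q - e1 - e2) := flow_h (fun h => hq (by simpa using h.2))
  obtain ⟨b1, b2⟩ := b
  obtain ⟨q1, q2⟩ := q
  obtain ⟨h1, h2⟩ := hb
  simp only at h1 h2
  rcases h1 with rfl | rfl <;> rcases h2 with rfl | rfl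
  · exact FlowTo.refl _
  · have : ((b1, q2 - 1) : ℤ × ℤ) = (b1, q2) - e2 := by ext <;> simp
    rw [this]; exact f1.symm
  · have : ((q1 - 1, b2) : ℤ × ℤ) = (q1, b2) - e1 := by ext <;> simp
    rw [this]; exact f2
  · have : ((q1 - 1, q2 - 1) : ℤ × ℤ) = (q1, q2) - e1 - e2 := by ext <;> simp
    rw [this]; exact f3.symm.trans f2

theorem exists_common_blk {q q' : ℤ × ℤ} (h1 : |q.1 - q'.1| ≤ 1) (h2 : |q.2 - q'.2| ≤ 1) :
    ∃ b, InBlk b q ∧ InBlk b q' := by
  refine ⟨(min q.1 q'.1, min q.2 q'.2), ?_, ?_⟩ <;>
  · rw [abs_le] at h1 h2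
    refine ⟨?_, ?_⟩ <;> simp only <;> omega

/-- all blocks meeting the complement of `S` are connected by free edges. -/
theorem flow_conn (hS : KConn Sᶜ) {q q' : ℤ × ℤ} (hq : q ∉ S) (hq' : q' ∉ S) :
    FlowTo S A q q' := by
  have h := hS q hq q' hq'
  induction h with
  | refl => exact FlowTo.refl _
  | @tail r r' _ hs ih =>
    have ih' := ih hs.1
    obtain ⟨b, hb, hb'⟩ := exists_common_blk hs.2.2.1 hs.2.2.2
    exact ih'.trans ((flow_blk hs.1 hb).symm.trans (flow_blk hs.2.1 hb'))

/-- **Discrete Poincare lemma on a filled polyomino.** -/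
theorem discrete_poincare (hfin : S.Finite) (hS : KConn Sᶜ) {h v : ℤ × ℤ → A}
    (hc : ∀ p, p ∈ S → p + e1 ∈ S → p + e2 ∈ S → p + e1 + e2 ∈ S →
      h p + v (p + e1) = v p + h (p + e2)) :
    ∃ a : ℤ × ℤ → A, (∀ p, p ∈ S → p + e1 ∈ S → h p = a (p + e1) - a p) ∧
      (∀ p, p ∈ S → p + e2 ∈ S → v p = a (p + e2) - a p) := by
  classical
  obtain ⟨q0, hq0⟩ : ∃ q0, q0 ∉ S := by
    obtain ⟨q0, hq0⟩ := hfin.infinite_compl.nonempty
    exact ⟨q0, hq0⟩
  -- truncated data
  set h0 : ℤ × ℤ → A := fun p => if p ∈ S ∧ p + e1 ∈ S then h p else 0 with hh0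
  set v0 : ℤ × ℤ → A := fun p => if p ∈ S ∧ p + e2 ∈ S then v p else 0 with hv0
  have fh0 : (Function.support h0).Finite := by
    refine hfin.subset fun p hp => ?_
    by_contra hpS
    exact hp (by simp only [hh0]; rw [if_neg (fun h => hpS h.1)])
  have fv0 : (Function.support v0).Finite := by
    refine hfin.subset fun p hp => ?_
    by_contra hpS
    exact hp (by simp only [hv0]; rw [if_neg (fun h => hpS h.1)])
  set d := circ h0 v0 with hd
  have fd : (Function.support d).Finite := by
    have : d = fun p => (h0 p + v0 (p + e1)) - (v0 p + h0 (p + e2)) := by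
      funext p; simp only [hd, circ]; abel
    rw [this]
    have k1 : (Function.support (fun p => v0 (p + e1))).Finite := by
      have : Function.support (fun p => v0 (p + e1)) =
          (Equiv.addRight e1) ⁻¹' Function.support v0 := by
        ext p; simp [Function.mem_support]
      rw [this]
      exact fv0.preimage (Equiv.injective _).injOn
    have k2 : (Function.support (fun p => h0 (p + e2))).Finite := by
      have : Function.support (fun p => h0 (p + e2)) =
          (Equiv.addRight e2) ⁻¹' Function.support h0 := by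
        ext p; simp [Function.mem_support]
      rw [this]
      exact fh0.preimage (Equiv.injective _).injOn
    refine (((fh0.union k1).subset (Function.support_add _ _)).union
      ((fv0.union k2).subset (Function.support_add _ _))).subset ?_
    exact Function.support_sub _ _
  -- every block in the support of `d` meets the complement of `S`
  have hout : ∀ b, d b ≠ 0 → FlowTo S A b q0 := by
    intro b hb
    have : ∃ q, q ∉ S ∧ InBlk b q := by
      by_contra hcon
      push Not at hcon
      have m1 : b ∈ S := by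
        by_contra hh
        exact hcon b hh ⟨Or.inl rfl, Or.inl rfl⟩
      have m2 : b + e1 ∈ S := by
        by_contra hh
        refine hcon _ hh ⟨Or.inr ?_, Or.inl ?_⟩ <;> simp
      have m3 : b + e2 ∈ S := by
        by_contra hh
        refine hcon _ hh ⟨Or.inl ?_, Or.inr ?_⟩ <;> simp
      have m4 : b + e1 + e2 ∈ S := by
        by_contra hh
        refine hcon _ hh ⟨Or.inr ?_, Or.inr ?_⟩ <;> simp
      have m4' : b + e2 + e1 ∈ S := by
        have : b + e2 + e1 = b + e1 + e2 := by abel
        rwa [this]
      apply hb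
      simp only [hd, circ, hh0, hv0]
      rw [if_pos ⟨m1, m2⟩, if_pos ⟨m2, m4⟩, if_pos ⟨m1, m3⟩, if_pos ⟨m3, m4'⟩,
        hc b m1 m2 m3 m4]
      abel
    obtain ⟨q, hq, hbq⟩ := this
    exact (flow_blk hq hbq).trans (flow_conn hS hq hq0)
  -- routing
  have route : ∀ F : Finset (ℤ × ℤ), (∀ b ∈ F, d b ≠ 0) →
      ∃ Dh Dv : ℤ × ℤ → A, (Function.support Dh).Finite ∧ (Function.support Dv).Finite ∧
        (∀ p, Dh p ≠ 0 → FreeH S p) ∧ (∀ p, Dv p ≠ 0 → FreeV S p) ∧
        circ Dh Dv = ∑ b ∈ F, (Pi.single b (-d b) - Pi.single q0 (-d b)) := by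
    intro F
    induction F using Finset.induction_on with
    | empty =>
      intro _
      refine ⟨0, 0, by simp, by simp, by simp, by simp, ?_⟩
      rw [circ_zero]; simp
    | @insert b F hbF ih =>
      intro hF
      obtain ⟨dh, dv, h1, h2, h3, h4, h5⟩ := ih (fun c hc => hF c (Finset.mem_insert_of_mem hc))
      obtain ⟨dh', dv', h1', h2', h3', h4', h5'⟩ :=
        hout b (hF b (Finset.mem_insert_self _ _)) (-d b)
      refine ⟨dh + dh', dv + dv', ?_, ?_, ?_, ?_, ?_⟩
      · exact (h1.union h1').subset (Function.support_add _ _)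
      · exact (h2.union h2').subset (Function.support_add _ _)
      · intro p hp
        by_cases h : dh p = 0
        · refine h3' p ?_
          intro h'
          simp [h, h'] at hp
        · exact h3 p h
      · intro p hp
        by_cases h : dv p = 0
        · refine h4' p ?_
          intro h'
          simp [h, h'] at hp
        · exact h4 p h
      · rw [circ_add, h5, h5', Finset.sum_insert hbF]; abel
  obtain ⟨Dh, Dv, D1, D2, D3, D4, D5⟩ := route fd.toFinset (by
    intro b hb
    simpa [Function.mem_support] using hb)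
  have fh' : (Function.support (h0 + Dh)).Finite :=
    (fh0.union D1).subset (Function.support_add _ _)
  have fv' : (Function.support (v0 + Dv)).Finite :=
    (fv0.union D2).subset (Function.support_add _ _)
  -- total circulation
  have hcirc : circ (h0 + Dh) (v0 + Dv) = Pi.single q0 (∑ b ∈ fd.toFinset, d b) := by
    rw [circ_add, D5, ← hd, Finset.sum_sub_distrib]
    have e1' : ∑ b ∈ fd.toFinset, (Pi.single b (-d b) : ℤ × ℤ → A) = -d := by
      funext c
      rw [Finset.sum_apply]
      by_cases hc : d c = 0
      · rw [Finset.sum_eq_zero]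
        · simp [hc]
        · intro b hb
          have hb' : d b ≠ 0 := by simpa [Function.mem_support] using hb
          have hne : c ≠ b := by rintro rfl; exact hb' hc
          rw [Pi.single_eq_of_ne hne]
      · rw [Finset.sum_eq_single c]
        · simp
        · intro b _ hbc
          rw [Pi.single_eq_of_ne (Ne.symm hbc)]
        · intro hc'
          exact absurd (by simpa [Function.mem_support] using hc) hc'
    have e2' : ∑ b ∈ fd.toFinset, (Pi.single q0 (-d b) : ℤ × ℤ → A) =
        - Pi.single q0 (∑ b ∈ fd.toFinset, d b) := by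
      funext c
      rw [Finset.sum_apply, Pi.neg_apply]
      by_cases hc : c = q0
      · subst hc
        simp
      · simp [Pi.single_eq_of_ne hc]
    rw [e1', e2']; abel
  have hzero : ∑ b ∈ fd.toFinset, d b = 0 := by
    have := finsum_circ fh' fv'
    rw [hcirc] at this
    rw [finsum_eq_single _ q0] at this
    · simpa using this
    · intro c hc
      rw [Pi.single_eq_of_ne hc]
  obtain ⟨a, ha1, ha2⟩ := poincare_finite fh' fv' (by
    intro p
    rw [hcirc, hzero]
    simp)
  refine ⟨a, ?_, ?_⟩
  · intro p hp hp1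
    rw [← ha1 p, Pi.add_apply]
    have : Dh p = 0 := by
      by_contra hne
      exact D3 p hne ⟨hp, hp1⟩
    rw [this, add_zero]
    simp only [hh0]
    rw [if_pos ⟨hp, hp1⟩]
  · intro p hp hp1
    rw [← ha2 p, Pi.add_apply]
    have : Dv p = 0 := by
      by_contra hne
      exact D4 p hne ⟨hp, hp1⟩
    rw [this, add_zero]
    simp only [hv0]
    rw [if_pos ⟨hp, hp1⟩]

end alg

end Crest.Agent.R105.Exact_12
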