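import Crest.Agent.R105.Thin1_891
import Crest.Agent.R105.Thin1_12

/-!
# Row 105 (S0138): shells around a compact union of components

`exists_shells`: `E \ U` is the disjoint union of clopen pieces `D n` of `E`, with pairwise disjoint
open neighbourhoods `W n`, locally finite off `U`.
-/

set_option autoImplicit false

namespace Crest.Agent.R105.Exs1_992

open Set Filter Topology Metric
open Crest.Agent.R105.Thin_891

theorem exists_seq_of {α : Type*} (Inv : ℕ → α → Prop) (R : ℕ → α → α → Prop) (x0 : α)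
    (h0 : Inv 0 x0) (hs : ∀ n x, Inv n x → ∃ y, Inv (n + 1) y ∧ R n x y) :
    ∃ u : ℕ → α, u 0 = x0 ∧ ∀ n, Inv n (u n) ∧ R n (u n) (u (n + 1)) := by
  classical
  let v : ∀ n, {x // Inv n x} := fun n => Nat.rec (motive := fun n => {x // Inv n x})
    ⟨x0, h0⟩ (fun n x => ⟨(hs n x.1 x.2).choose, (hs n x.1 x.2).choose_spec.1⟩) n
  refine ⟨fun n => (v n).1, rfl, fun n => ⟨(v n).2, ?_⟩⟩
  exact (hs n (v n).1 (v n).2).choose_spec.2

variable {X : Type*} [MetricSpace X] {E U : Set X}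

/-- `U` has arbitrarily small clopen neighbourhoods in `E`. -/
def Sat (E U : Set X) : Prop :=
  ∀ O, IsOpen O → U ⊆ O → ∃ A, Piece E A ∧ U ⊆ A ∧ A ⊆ O

theorem sat_of_finite (hE : IsCompact E) {s : Set (Set X)} (hs : s.Finite)
    (hc : ∀ P ∈ s, ∃ p ∈ E, P = connectedComponentIn E p) : Sat E (⋃₀ s) := by
  intro O hO hsO
  induction s, hs using Set.Finite.induction_on with
  | empty => exact ⟨∅, Piece.empty hE, by simp, empty_subset _⟩
  | @insert P s hPs hfin ih =>
    obtain ⟨A, hA, hsA, hAO⟩ := ih (fun P hP => hc P (mem_insert_of_mem _ hP))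
      (fun p hp => hsO (by
        obtain ⟨Q, hQ, hp⟩ := hp
        exact ⟨Q, mem_insert_of_mem _ hQ, hp⟩))
    obtain ⟨p, hp, rfl⟩ := hc P (mem_insert _ _)
    obtain ⟨F, hF, hpF, hFO⟩ := exists_piece hE hp hO
      (fun q hq => hsO ⟨_, mem_insert _ _, hq⟩)
    refine ⟨F ∪ A, hF.union hA, ?_, union_subset hFO hAO⟩
    rw [sUnion_insert]
    exact union_subset_union hpF hsA

theorem isCompact_sUnion_comps (hE : IsCompact E) {s : Set (Set X)} (hs : s.Finite)
    (hc : ∀ P ∈ s, ∃ p ∈ E, P = connectedComponentIn E p) : IsCompact (⋃₀ s) := by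
  refine hs.isCompact_sUnion fun P hP => ?_
  obtain ⟨p, hp, rfl⟩ := hc P hP
  exact Crest.Agent.R105.Thin_12.isCompact_cc hE p

/-- the shells -/
structure Shells (E U : Set X) (ρ : ℝ) (D W : ℕ → Set X) : Prop where
  pc : ∀ n, Piece E (D n)
  dU : ∀ n, Disjoint (D n) U
  op : ∀ n, IsOpen (W n)
  sub : ∀ n, D n ⊆ W n
  near : ∀ n, W n ⊆ thickening ρ E
  dis : Pairwise fun m n => Disjoint (W m) (W n)
  cov : E \ U ⊆ ⋃ n, D n
  lf : ∀ p ∉ U, ∃ r > 0, ∃ N, ∀ n ≥ N, Disjoint (ball p r) (W n)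
  offU : ∀ n, ∃ O, IsOpen O ∧ U ⊆ O ∧ Disjoint O (W n)

theorem exists_shells (hE : IsCompact E) (hUE : U ⊆ E) (hUc : IsClosed U) (hU : Sat E U)
    {ρ : ℝ} (hρ : 0 < ρ) : ∃ D W, Shells E U ρ D W := by
  classical
  -- separating radius
  have hsep : ∀ A, Piece E A → ∃ r > 0, Disjoint (thickening r A) (thickening r (E \ A)) := by
    intro A hA
    have h0 : Disjoint A (E \ A) := disjoint_sdiff_self_right
    obtain ⟨r, hr, h⟩ := h0.exists_thickenings hA.cpt hA.cpt'.isClosed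
    exact ⟨r, hr, h⟩
  have hpos : ∀ n : ℕ, (0 : ℝ) < 1 / ((n : ℝ) + 1) := fun n => by positivity
  have key : ∀ (n : ℕ) (B : Set X) (t : ℝ), Piece E B → U ⊆ B → 0 < t →
      ∃ A r, Piece E A ∧ U ⊆ A ∧ A ⊆ B ∧ A ⊆ thickening (1 / ((n : ℝ) + 1)) U ∧ 0 < r ∧
        r ≤ t ∧ r ≤ 1 / ((n : ℝ) + 1) ∧ Disjoint (thickening r A) (thickening r (E \ A)) := by
    intro n B t hB hUB ht
    obtain ⟨A, hA, hUA, hAO⟩ := hU _ (isOpen_thickening (δ := 1 / ((n : ℝ) + 1)) (E := U))
      (self_subset_thickening (hpos n) U)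
    obtain ⟨r, hr, hd⟩ := hsep (A ∩ B) (hA.inter hB)
    refine ⟨A ∩ B, min r (min t (1 / ((n : ℝ) + 1))), hA.inter hB, subset_inter hUA hUB,
      inter_subset_right, inter_subset_left.trans hAO, lt_min hr (lt_min ht (hpos n)),
      (min_le_right _ _).trans (min_le_left _ _), (min_le_right _ _).trans (min_le_right _ _),
      ?_⟩
    exact hd.mono (thickening_mono (min_le_left _ _) _) (thickening_mono (min_le_left _ _) _)
  obtain ⟨A0, r0, a1, a2, a3, a4, a5, a6, a7, a8⟩ := key 0 E ρ (Piece.self hE) hUE hρ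
  obtain ⟨u, -, hu⟩ := exists_seq_of
    (fun (n : ℕ) (x : Set X × ℝ) => Piece E x.1 ∧ U ⊆ x.1 ∧
      x.1 ⊆ thickening (1 / ((n : ℝ) + 1)) U ∧ 0 < x.2 ∧ x.2 ≤ ρ ∧ x.2 ≤ 1 / ((n : ℝ) + 1) ∧
      Disjoint (thickening x.2 x.1) (thickening x.2 (E \ x.1)))
    (fun _ x y => y.1 ⊆ x.1 ∧ y.2 ≤ x.2) (A0, r0) ⟨a1, a2, a4, a5, a6, a7, a8⟩
    (by
      rintro n ⟨B, t⟩ ⟨b1, b2, b3, b4, b5, b6, b7⟩
      obtain ⟨A, r, c1, c2, c3, c4, c5, c6, c7, c8⟩ := key (n + 1) B t b1 b2 b4
      exact ⟨(A, r), ⟨c1, c2, c4, c5, c6.trans b5, c7, c8⟩, c3, c6⟩)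
  set A : ℕ → Set X := fun n => (u n).1 with hAdef
  set r : ℕ → ℝ := fun n => (u n).2 with hrdef
  have hA : ∀ n, Piece E (A n) := fun n => (hu n).1.1
  have hUA : ∀ n, U ⊆ A n := fun n => (hu n).1.2.1
  have hAt : ∀ n, A n ⊆ thickening (1 / ((n : ℝ) + 1)) U := fun n => (hu n).1.2.2.1
  have hr : ∀ n, 0 < r n := fun n => (hu n).1.2.2.2.1
  have hrρ : ∀ n, r n ≤ ρ := fun n => (hu n).1.2.2.2.2.1
  have hr1 : ∀ n, r n ≤ 1 / ((n : ℝ) + 1) := fun n => (hu n).1.2.2.2.2.2.1
  have hd : ∀ n, Disjoint (thickening (r n) (A n)) (thickening (r n) (E \ A n)) :=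
    fun n => (hu n).1.2.2.2.2.2.2
  have hAanti : Antitone A := antitone_nat_of_succ_le fun n => (hu n).2.1
  have hranti : Antitone r := antitone_nat_of_succ_le fun n => (hu n).2.2
  set B : ℕ → Set X := fun n => Nat.casesOn n E A with hB
  have hB0 : B 0 = E := rfl
  have hBs : ∀ n, B (n + 1) = A n := fun n => rfl
  have hBp : ∀ n, Piece E (B n) := by
    intro n
    cases n with
    | zero => exact Piece.self hE
    | succ n => exact hA n
  have hAB : ∀ n, A n ⊆ B n := by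
    intro n
    cases n with
    | zero => exact (hA 0).sub
    | succ n => exact hAanti (Nat.le_succ n)
  have hBA : ∀ m n, m < n → B n ⊆ A m := by
    intro m n hmn
    obtain ⟨k, rfl⟩ := Nat.exists_eq_add_of_lt hmn
    exact hAanti (Nat.le_add_right m k)
  refine ⟨fun n => B n \ A n, fun n => thickening (r n) (B n \ A n), ?_⟩
  have hdlt : ∀ m n, m < n →
      Disjoint (thickening (r m) (B m \ A m)) (thickening (r n) (B n \ A n)) := by
    intro m n hmn
    refine ((hd m).mono ?_ ?_).symm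
    · refine (thickening_mono (hranti hmn.le) _).trans ?_
      exact thickening_subset_of_subset _ (sdiff_subset.trans (hBA m n hmn))
    · exact thickening_subset_of_subset _ (sdiff_subset_sdiff_left (hBp m).sub)
  refine ⟨fun n => (hBp n).diff (hA n), fun n => ?_, fun n => isOpen_thickening,
    fun n => self_subset_thickening (hr n) _, fun n => ?_, ?_, ?_, ?_, fun n => ?_⟩
  · exact disjoint_sdiff_self_left.mono_right (hUA n)
  · refine (thickening_mono (hrρ n) _).trans ?_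
    exact thickening_subset_of_subset _ (sdiff_subset.trans (hBp n).sub)
  · intro m n hmn
    rcases lt_or_gt_of_ne hmn with h | h
    · exact hdlt m n h
    · exact (hdlt n m h).symm
  · rintro p ⟨hpE, hpU⟩
    have : ∃ n, p ∉ A n := by
      by_contra hc
      push Not at hc
      apply hpU
      rw [← hUc.closure_eq, closure_eq_iInter_thickening]
      refine mem_iInter₂.2 fun δ hδ => ?_
      obtain ⟨n, hn⟩ := exists_nat_one_div_lt hδ
      exact thickening_mono hn.le _ (hAt n (hc n))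
    obtain ⟨hn, hmin⟩ := And.intro (Nat.find_spec this) (fun m => Nat.find_min this (m := m))
    refine mem_iUnion.2 ⟨Nat.find this, ?_, hn⟩
    cases h : Nat.find this with
    | zero => exact hpE
    | succ k =>
      have := hmin k (by omega)
      push Not at this
      exact this
  · intro p hp
    obtain ⟨δ, hδ, hδU⟩ := Metric.isOpen_iff.1 hUc.isOpen_compl p hp
    obtain ⟨N, hN⟩ := exists_nat_one_div_lt (show (0 : ℝ) < δ / 4 by positivity)
    refine ⟨δ / 4, by positivity, N + 1, fun n hn => ?_⟩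
    obtain ⟨k, rfl⟩ : ∃ k, n = k + 1 := ⟨n - 1, by omega⟩
    have hk : N ≤ k := by omega
    have e1 : (1 : ℝ) / ((k : ℝ) + 1) ≤ 1 / ((N : ℝ) + 1) := by
      apply one_div_le_one_div_of_le (by positivity)
      have : (N : ℝ) ≤ k := by exact_mod_cast hk
      linarith
    rw [disjoint_left]
    intro q hq hqW
    obtain ⟨z, hz, hqz⟩ := mem_thickening_iff.1 hqW
    obtain ⟨w, hw, hzw⟩ := mem_thickening_iff.1 (hAt k hz.1)
    refine hδU (mem_ball.2 ?_) hw
    have h1 := mem_ball.1 hq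
    have h2 : r (k + 1) ≤ 1 / ((k : ℝ) + 1) :=
      (hranti (Nat.le_succ k)).trans (hr1 k)
    have h3 := dist_triangle4 w z q p
    rw [dist_comm w z, dist_comm z q] at h3
    linarith
  · refine ⟨thickening (r n) (A n), isOpen_thickening, (hUA n).trans
      (self_subset_thickening (hr n) _), ?_⟩
    refine (hd n).mono_right ?_
    exact thickening_subset_of_subset _ (sdiff_subset_sdiff_left (hBp n).sub)

namespace Shells

variable {ρ : ℝ} {D W : ℕ → Set X}

/-- a compact set off `U` has a neighbourhood which meets only finitely many `W n`. -/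
theorem lf_compact (h : Shells E U ρ D W) {A : Set X} (hA : IsCompact A) (hAU : Disjoint A U) :
    ∃ O, IsOpen O ∧ A ⊆ O ∧ ∃ N, ∀ n ≥ N, Disjoint O (W n) := by
  choose! r hr N hN using h.lf
  obtain ⟨t, ht, hcov⟩ := hA.elim_nhds_subcover (fun p => ball p (r p)) fun p hp =>
    ball_mem_nhds p (hr p (disjoint_left.1 hAU hp))
  refine ⟨⋃ p ∈ t, ball p (r p), isOpen_biUnion fun p _ => isOpen_ball, hcov,
    t.sup N, fun n hn => ?_⟩
  rw [disjoint_iUnion₂_left]
  intro p hp
  exact hN p (disjoint_left.1 hAU (ht p hp)) n ((Finset.le_sup (f := N) hp).trans hn)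

/-- connected subsets of `E` off `U` lie in one shell -/
theorem conn (h : Shells E U ρ D W) {S : Set X} (hS : IsPreconnected S) (hSE : S ⊆ E)
    (hne : S.Nonempty) (hSU : Disjoint S U) : ∃ n, S ⊆ D n := by
  obtain ⟨p, hp⟩ := hne
  obtain ⟨n, hn⟩ := mem_iUnion.1 (h.cov ⟨hSE hp, disjoint_left.1 hSU hp⟩)
  exact ⟨n, (h.pc n).subset_of_isPreconnected hS hSE ⟨p, hp, hn⟩⟩

end Shells

end Crest.Agent.R105.Exs1_992
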