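import Crest.Agent.R105.Exs0_992
import Crest.Agent.R105.SkLim2_363

/-!
# Row 105 (S0138): the limit of a sequence of cut functions (generic form of 363's SkLim2)
-/

set_option autoImplicit false

namespace Crest.Agent.R105.Exs2_992

open Set Filter MeasureTheory Topology Metric
open Crest.Agent.R105.CF_363 Crest.Agent.R105.Stp_722 Crest.Agent.R105.Cq_463
open Crest.Agent.R105.Skp2_257 (Comps Reg)
open Crest.Agent.R105.Exs_992
open Crest.Agent.R105.SkLim2_363 (g2_eq_zero_of_notMem g2_neg g2_congr g2_add_le g2_tel)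
open scoped ENNReal NNReal

variable {E : Set (ℝ × ℝ)} {𝓗 : Set Hair}

theorem cut_sub {J : Finset Hair} (hH : ∀ K ∈ 𝓗, K.car ⊆ E) (h : ∀ K ∈ J, K ∈ 𝓗) :
    cut J ⊆ E := by
  rintro p ⟨K, hK, hp⟩
  exact hH K (h K hK) hp

theorem cfj_lip (hE : IsCompact E) (hH : ∀ K ∈ 𝓗, K.car ⊆ E) {f : ℝ × ℝ → ℝ}
    (hf : CFJ 𝓗 univ f) : ∃ L : ℝ≥0, ∀ p ∉ E, ∃ r > 0, LipschitzOnWith L f (Metric.ball p r) := by
  obtain ⟨J, hJ, L, C, hL, h1, -⟩ := hf
  refine ⟨L.toNNReal, fun p hp => ?_⟩
  obtain ⟨r, hr, hrE⟩ := Metric.isOpen_iff.mp hE.isClosed.isOpen_compl p hp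
  refine ⟨r, hr, h1.lipschitzOnWith (convex_ball p r) fun q hq => ⟨mem_univ q, fun hc => ?_⟩⟩
  exact hrE hq (cut_sub hH hJ hc)

theorem cfj_ae_diff {f : ℝ × ℝ → ℝ}
    (hf : CFJ 𝓗 univ f) : ∀ᵐ p : ℝ × ℝ, DifferentiableAt ℝ f p := by
  obtain ⟨J, hJ, L, C, hL, h1, -⟩ := hf
  have h2 := h1.ae_differentiableAt (μ := volume) (isOpen_diff_cut isOpen_univ J)
  have h3 : ∀ᵐ p : ℝ × ℝ, p ∉ cut J := measure_eq_zero_iff_ae_notMem.mp (volume_cut J)
  filter_upwards [h2, h3] with p hp hp' using hp ⟨mem_univ p, hp'⟩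

theorem cfj_integrable {f : ℝ × ℝ → ℝ}
    (hf : CFJ 𝓗 univ f) {S : Set (ℝ × ℝ)} (hS : IsCompact S) (h0 : ∀ q ∉ S, f q = 0) :
    Integrable (g2 f) := by
  obtain ⟨J, hJ, L, C, hL, h1, -⟩ := hf
  have h3 : ∀ᵐ p : ℝ × ℝ, p ∉ cut J := measure_eq_zero_iff_ae_notMem.mp (volume_cut J)
  have hon : IntegrableOn (g2 f) S := by
    refine Measure.integrableOn_of_bounded (M := 2 * L ^ 2) hS.measure_lt_top.ne
      (measurable_g2 f).aestronglyMeasurable ?_
    filter_upwards [ae_restrict_of_ae h3] with p hp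
    rw [Real.norm_of_nonneg (g2_nonneg f p)]
    exact h1.g2_le (isOpen_diff_cut isOpen_univ J) hL ⟨mem_univ p, hp⟩
  refine hon.integrable_of_forall_notMem_eq_zero fun p hp => ?_
  obtain ⟨a, b⟩ := g2_eq_zero_of_notMem hS.isClosed h0 hp
  simp [g2, a, b]

/-- the limit of cut functions which are eventually constant on compact subsets of `Eᶜ`. -/
theorem lim_gen (hE : IsCompact E) (hH : ∀ K ∈ 𝓗, K.car ⊆ E) {φ : ℕ → ℝ × ℝ → ℝ}
    {ψ : ℝ × ℝ → ℝ} {S : Set (ℝ × ℝ)} (hScpt : IsCompact S) {C δ : ℝ} (hδ : 0 ≤ δ)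
    (hcf : ∀ n, CFJ 𝓗 univ (φ n)) (hz : ∀ n, ∀ q ∉ S, φ n q = 0) (hψ0 : ∀ q ∉ S, ψ q = 0)
    (hb : ∀ n p, |φ n p| ≤ C) (hψb : ∀ p, |ψ p| ≤ C)
    (hev : ∀ A, IsCompact A → A ⊆ Eᶜ → ∃ N, ∀ n ≥ N, ∀ p ∈ A, φ n p = ψ p)
    (hen : ∀ n, (∫ p in Eᶜ, g2 (fun q => φ (n + 1) q - φ n q) p) ≤ δ / 4 ^ n) :
    LimOf E 𝓗 φ ψ ∧ (∫ p in Eᶜ, g2 (fun q => φ 0 q - ψ q) p) ≤ 4 * δ ∧
      ∀ t > 0, |(∫ p in Eᶜ, gx ψ p) - ∫ p in Eᶜ, gx (φ 0) p| ≤
        t * (4 * δ) + (1 / (2 * t)) * volume.real S := by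
  have hloc : ∀ p ∉ E, ∃ N, ∀ n ≥ N, φ n =ᶠ[𝓝 p] ψ := by
    intro p hp
    obtain ⟨r, hr, hrE⟩ := Metric.isOpen_iff.mp hE.isClosed.isOpen_compl p hp
    obtain ⟨N, hN⟩ := hev (Metric.closedBall p (r / 2)) (isCompact_closedBall _ _)
      ((Metric.closedBall_subset_ball (by linarith)).trans hrE)
    refine ⟨N, fun n hn => ?_⟩
    filter_upwards [Metric.closedBall_mem_nhds p (by positivity : 0 < r / 2)] with q hq
    exact hN n hn q hq
  -- differentiability
  have hdiff : ∀ᵐ p : ℝ × ℝ, ∀ n, DifferentiableAt ℝ (φ n) p :=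
    ae_all_iff.mpr fun n => cfj_ae_diff (hcf n)
  have hEm : MeasurableSet Eᶜ := hE.isClosed.isOpen_compl.measurableSet
  have hpos2 : ∀ n p, 0 ≤ g2 (fun q => φ (n + 1) q - φ n q) p := fun n p => g2_nonneg _ _
  have hint1 : ∀ n, Integrable (g2 fun q => φ (n + 1) q - φ n q) := fun n =>
    cfj_integrable ((hcf (n + 1)).sub (hcf n)) hScpt fun q hq => by
      rw [hz (n + 1) q hq, hz n q hq, sub_zero]
  have hlin : ∀ n, ∫⁻ p in Eᶜ, ENNReal.ofReal (g2 (fun q => φ (n + 1) q - φ n q) p) ≤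
      ENNReal.ofReal (δ / 4 ^ n) := by
    intro n
    rw [← ofReal_integral_eq_lintegral_ofReal (hint1 n).integrableOn
      (Eventually.of_forall fun p => hpos2 n p)]
    exact ENNReal.ofReal_le_ofReal (hen n)
  have hdistE : ∀ n, ∫⁻ p in Eᶜ, ENNReal.ofReal (g2 (fun q => φ n q - ψ q) p) ≤
      ENNReal.ofReal (4 * δ / 4 ^ n) := by
    intro n
    calc ∫⁻ p in Eᶜ, ENNReal.ofReal (g2 (fun q => φ n q - ψ q) p)
        ≤ ∫⁻ p in Eᶜ, ∑' i : ℕ, ENNReal.ofReal
            (2 ^ (i + 1) * g2 (fun q => φ (n + i + 1) q - φ (n + i) q) p) := by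
          refine lintegral_mono_ae ?_
          filter_upwards [ae_restrict_of_ae hdiff, ae_restrict_mem hEm] with p hp hpE
          obtain ⟨N, hN⟩ := hloc p hpE
          have h1 : (fun q => φ n q - ψ q) =ᶠ[𝓝 p] fun q => φ n q - φ (n + N) q := by
            filter_upwards [hN (n + N) (by omega)] with q hq
            rw [hq]
          rw [g2_congr h1]
          refine (ENNReal.ofReal_le_ofReal (g2_tel hp N n)).trans ?_
          rw [ENNReal.ofReal_sum_of_nonneg fun i _ => mul_nonneg (by positivity) (g2_nonneg _ _)]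
          exact ENNReal.sum_le_tsum _
      _ = ∑' i : ℕ, ∫⁻ p in Eᶜ, ENNReal.ofReal
            (2 ^ (i + 1) * g2 (fun q => φ (n + i + 1) q - φ (n + i) q) p) := by
          refine lintegral_tsum fun i => ?_
          exact ((measurable_g2 _).const_mul _).ennreal_ofReal.aemeasurable
      _ ≤ ∑' i : ℕ, ENNReal.ofReal (2 * δ / 4 ^ n * (1 / 2) ^ i) := by
          refine ENNReal.tsum_le_tsum fun i => ?_
          have h1 : ∀ p, ENNReal.ofReal
              (2 ^ (i + 1) * g2 (fun q => φ (n + i + 1) q - φ (n + i) q) p) =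
              ENNReal.ofReal (2 ^ (i + 1)) *
                ENNReal.ofReal (g2 (fun q => φ (n + i + 1) q - φ (n + i) q) p) := fun p =>
            ENNReal.ofReal_mul (by positivity)
          simp_rw [h1]
          rw [lintegral_const_mul _ (measurable_g2 _).ennreal_ofReal]
          refine (mul_le_mul_right (hlin (n + i)) _).trans ?_
          rw [← ENNReal.ofReal_mul (by positivity)]
          refine ENNReal.ofReal_le_ofReal (le_of_eq ?_)
          have h4 : (4 : ℝ) ^ (n + i) = 4 ^ n * (2 ^ i * 2 ^ i) := by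
            rw [pow_add, ← mul_pow]; norm_num
          rw [h4, pow_succ, one_div, inv_pow]
          field_simp
      _ = ENNReal.ofReal (4 * δ / 4 ^ n) := by
          rw [← ENNReal.ofReal_tsum_of_nonneg (fun i => by positivity)
            (summable_geometric_two.mul_left _), tsum_mul_left, tsum_geometric_two]
          congr 1; ring
  -- integrability of the limit
  have hintd : ∀ n, IntegrableOn (g2 fun q => φ n q - ψ q) Eᶜ := by
    intro n
    refine ⟨(measurable_g2 _).aestronglyMeasurable, ?_⟩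
    rw [hasFiniteIntegral_iff_ofReal (Eventually.of_forall fun p => g2_nonneg _ _)]
    exact (hdistE n).trans_lt ENNReal.ofReal_lt_top
  have hdistR : ∀ n, ∫ p in Eᶜ, g2 (fun q => φ n q - ψ q) p ≤ 4 * δ / 4 ^ n := by
    intro n
    have h1 := hdistE n
    rw [← ofReal_integral_eq_lintegral_ofReal (hintd n)
      (Eventually.of_forall fun p => g2_nonneg _ _)] at h1
    rwa [ENNReal.ofReal_le_ofReal_iff (by positivity)] at h1
  have hdψ : ∀ᵐ p : ℝ × ℝ, p ∉ E → DifferentiableAt ℝ ψ p := by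
    filter_upwards [hdiff] with p hp hpE
    obtain ⟨N, hN⟩ := hloc p hpE
    exact (hp N).congr_of_eventuallyEq (hN N le_rfl).symm
  have hintψ : IntegrableOn (g2 ψ) Eᶜ := by
    refine Integrable.mono' (((cfj_integrable (hcf 0) hScpt (hz 0)).integrableOn.const_mul 2).add
      ((hintd 0).const_mul 2)) (measurable_g2 ψ).aestronglyMeasurable ?_
    filter_upwards [ae_restrict_of_ae hdiff, ae_restrict_of_ae hdψ, ae_restrict_mem hEm]
      with p hp hp' hpE
    rw [Real.norm_of_nonneg (g2_nonneg _ _)]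
    have h1 : ψ = fun q => φ 0 q + (-(φ 0 q - ψ q)) := by funext q; ring
    have h2 : DifferentiableAt ℝ (fun q => -(φ 0 q - ψ q)) p := ((hp 0).sub (hp' hpE)).neg
    calc g2 ψ p = g2 (fun q => φ 0 q + (-(φ 0 q - ψ q))) p := by rw [← h1]
      _ ≤ 2 * g2 (φ 0) p + 2 * g2 (fun q => -(φ 0 q - ψ q)) p := g2_add_le (hp 0) h2
      _ = _ := by rw [g2_neg (fun q => φ 0 q - ψ q) p]; rfl
  have hReg : Reg E ψ := by
    refine ⟨?_, HasCompactSupport.intro hScpt hψ0, ⟨C, hψb⟩, hintψ⟩
    intro p hp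
    obtain ⟨N, hN⟩ := hloc p hp
    obtain ⟨L, hL⟩ := cfj_lip hE hH (hcf N)
    obtain ⟨r, hr, hl⟩ := hL p hp
    obtain ⟨s, hs, hs'⟩ := Metric.eventually_nhds_iff_ball.mp (hN N le_rfl)
    refine ⟨L, Metric.ball p (min r s) ∩ Eᶜ, ?_, ?_⟩
    · exact inter_mem (mem_nhdsWithin_of_mem_nhds (Metric.ball_mem_nhds p (lt_min hr hs)))
        self_mem_nhdsWithin
    · intro x hx y hy
      rw [← hs' x (Metric.ball_subset_ball (min_le_right _ _) hx.1),
        ← hs' y (Metric.ball_subset_ball (min_le_right _ _) hy.1)]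
      exact hl (Metric.ball_subset_ball (min_le_left _ _) hx.1)
        (Metric.ball_subset_ball (min_le_left _ _) hy.1)
  have hd0 := hdistR 0
  rw [pow_zero, div_one] at hd0
  refine ⟨⟨hcf, ⟨C, hb⟩, ⟨S, hScpt, hz⟩, ?_, ?_, hReg⟩, hd0, ?_⟩
  · intro A hA hAE
    obtain ⟨N, hN⟩ := hev A hA hAE
    filter_upwards [eventually_ge_atTop N] with n hn using hN n hn
  · refine squeeze_zero (fun n => integral_nonneg fun p => g2_nonneg _ _) hdistR ?_
    have := (tendsto_pow_atTop_nhds_zero_of_lt_one (r := (1 / 4 : ℝ)) (by norm_num)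
      (by norm_num)).const_mul (4 * δ)
    rw [mul_zero] at this
    refine this.congr fun n => ?_
    rw [one_div, inv_pow]; rfl
  · -- the linear functional
    intro t htpos
    have hi0 := hintd 0
    have hgx : ∀ f : ℝ × ℝ → ℝ, (∀ q ∉ S, f q = 0) → IntegrableOn (g2 f) Eᶜ →
        IntegrableOn (gx f) Eᶜ := by
      intro f hf0 hfi
      have hind : Integrable (S.indicator (fun _ => (1 : ℝ))) (volume.restrict Eᶜ) :=
        (integrable_indicator_iff hScpt.measurableSet).mpr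
          ((integrableOn_const_iff).mpr (Or.inr (by
            exact (Measure.restrict_apply_le _ _).trans_lt hScpt.measure_lt_top)))
      refine Integrable.mono' (hind.add hfi) (measurable_gx f).aestronglyMeasurable
        (Eventually.of_forall fun p => ?_)
      rw [Real.norm_eq_abs]
      by_cases hp : p ∈ S
      · simp only [Pi.add_apply, indicator_of_mem hp, g2]
        nlinarith [sq_nonneg (|gx f p| - 1), sq_abs (gx f p), sq_nonneg (gy f p),
          abs_nonneg (gx f p)]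
      · obtain ⟨h1, h2⟩ := g2_eq_zero_of_notMem hScpt.isClosed hf0 hp
        simp [h1, g2, h2, indicator_of_notMem hp]
    have hiΦ : IntegrableOn (g2 (φ 0)) Eᶜ := (cfj_integrable (hcf 0) hScpt (hz 0)).integrableOn
    have hdif0 : ∀ q ∉ S, (fun q => φ 0 q - ψ q) q = 0 := fun q hq => by
      simp [hz 0 q hq, hψ0 q hq]
    have i1 := hgx ψ hψ0 hintψ
    have i2 := hgx (φ 0) (hz 0) hiΦ
    have i3 := hgx (fun q => φ 0 q - ψ q) hdif0 hi0
    have heq : (∫ p in Eᶜ, gx ψ p) - ∫ p in Eᶜ, gx (φ 0) p =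
        - ∫ p in Eᶜ, gx (fun q => φ 0 q - ψ q) p := by
      rw [← integral_sub i1 i2, ← integral_neg]
      apply integral_congr_ae
      filter_upwards [ae_restrict_of_ae hdiff, ae_restrict_of_ae hdψ, ae_restrict_mem hEm]
        with p hp hp' hpE
      rw [gx_sub (hp 0) (hp' hpE)]; ring
    rw [heq, abs_neg]
    have hind : Integrable (S.indicator (fun _ => (1 : ℝ))) (volume.restrict Eᶜ) :=
      (integrable_indicator_iff hScpt.measurableSet).mpr
        ((integrableOn_const_iff).mpr (Or.inr (by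
          exact (Measure.restrict_apply_le _ _).trans_lt hScpt.measure_lt_top)))
    calc |∫ p in Eᶜ, gx (fun q => φ 0 q - ψ q) p|
        ≤ ∫ p in Eᶜ, |gx (fun q => φ 0 q - ψ q) p| := abs_integral_le_integral_abs
      _ ≤ ∫ p in Eᶜ, (t * g2 (fun q => φ 0 q - ψ q) p +
            (1 / (2 * t)) * S.indicator (fun _ => 1) p) := by
          refine integral_mono_ae i3.abs ((hi0.const_mul t).add (hind.const_mul _))
            (Eventually.of_forall fun p => ?_)
          by_cases hp : p ∈ S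
          · simp only [indicator_of_mem hp, g2, mul_one]
            set x := |gx (fun q => φ 0 q - ψ q) p| with hx
            have hx2 : gx (fun q => φ 0 q - ψ q) p ^ 2 = x ^ 2 := by rw [hx, sq_abs]
            rw [hx2]
            have h1 : 0 ≤ t * gy (fun q => φ 0 q - ψ q) p ^ 2 := by positivity
            have h2 : x ≤ t * x ^ 2 + 1 / (2 * t) := by
              have h3 : 0 ≤ (2 * t * x - 1) ^ 2 := sq_nonneg _
              have h4 : 1 / (2 * t) = (1 / (4 * t)) * 2 := by field_simp; norm_num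
              have h5 : t * x ^ 2 + 1 / (4 * t) - x = (2 * t * x - 1) ^ 2 / (4 * t) := by
                field_simp; ring
              have h6 : 0 ≤ (2 * t * x - 1) ^ 2 / (4 * t) := by positivity
              have h7 : 0 < 1 / (4 * t) := by positivity
              linarith
            nlinarith
          · obtain ⟨h1, h2⟩ := g2_eq_zero_of_notMem hScpt.isClosed hdif0 hp
            simp [h1, g2, h2, indicator_of_notMem hp]
      _ = t * (∫ p in Eᶜ, g2 (fun q => φ 0 q - ψ q) p) +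
            (1 / (2 * t)) * ∫ p in Eᶜ, S.indicator (fun _ => 1) p := by
          rw [integral_add (hi0.const_mul t) (hind.const_mul _), integral_const_mul,
            integral_const_mul]
      _ ≤ t * (4 * δ) + (1 / (2 * t)) * volume.real S := by
          have h1 : ∫ p in Eᶜ, S.indicator (fun _ => (1 : ℝ)) p ≤ volume.real S := by
            rw [integral_indicator hScpt.measurableSet, setIntegral_const, smul_eq_mul, mul_one,
              measureReal_restrict_apply hScpt.measurableSet]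
            exact measureReal_mono inter_subset_left hScpt.measure_lt_top.ne
          gcongr

end Crest.Agent.R105.Exs2_992
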