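import Mathlib

/-!
# Row 105 (S0138): square summable bookkeeping
-/

set_option autoImplicit false

namespace Crest.Agent.R105.Exs3_992

open Set Filter Topology
open scoped ENNReal

variable {α : Type*}

theorem summable_of_ennreal {f : α → ℝ} (hf : ∀ x, 0 ≤ f x) {K : ℝ} (hK : 0 ≤ K)
    (h : ∑' x, ENNReal.ofReal (f x) ≤ ENNReal.ofReal K) : Summable f ∧ ∑' x, f x ≤ K := by
  have hne : ∑' x, ENNReal.ofReal (f x) ≠ ∞ := ne_top_of_le_ne_top ENNReal.ofReal_ne_top h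
  have hs : Summable f := by
    have h1 : Summable fun x => (ENNReal.ofReal (f x)).toReal := ENNReal.summable_toReal hne
    simpa only [ENNReal.toReal_ofReal (hf _)] using h1
  refine ⟨hs, ?_⟩
  rw [← ENNReal.ofReal_tsum_of_nonneg hf hs] at h
  exact (ENNReal.ofReal_le_ofReal_iff hK).1 h

/-- merging countably many square summable families -/
theorem l2_merge (a : ℕ → α → ℝ) (k : ℕ → ℝ) (hk : Summable k)
    (hs : ∀ n, Summable fun x => a n x ^ 2) (hle : ∀ n, ∑' x, a n x ^ 2 ≤ k n) :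
    ∃ A : α → ℝ, (∀ x, 0 ≤ A x) ∧ (∀ x N, ∑ n ∈ Finset.range N, a n x ^ 2 ≤ A x ^ 2) ∧
      (Summable fun x => A x ^ 2) ∧ ∑' x, A x ^ 2 ≤ ∑' n, k n := by
  have hk0 : ∀ n, 0 ≤ k n := fun n => (tsum_nonneg fun x => sq_nonneg _).trans (hle n)
  have hkt : 0 ≤ ∑' n, k n := tsum_nonneg hk0
  have key : ∑' x, ∑' n, ENNReal.ofReal (a n x ^ 2) ≤ ENNReal.ofReal (∑' n, k n) := by
    rw [ENNReal.tsum_comm, ENNReal.ofReal_tsum_of_nonneg hk0 hk]
    refine ENNReal.tsum_le_tsum fun n => ?_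
    rw [← ENNReal.ofReal_tsum_of_nonneg (fun x => sq_nonneg _) (hs n)]
    exact ENNReal.ofReal_le_ofReal (hle n)
  have hx : ∀ x, ∑' n, ENNReal.ofReal (a n x ^ 2) ≠ ∞ := fun x =>
    ne_top_of_le_ne_top (ne_top_of_le_ne_top ENNReal.ofReal_ne_top key) (ENNReal.le_tsum x)
  refine ⟨fun x => √((∑' n, ENNReal.ofReal (a n x ^ 2)).toReal), fun x => Real.sqrt_nonneg _,
    fun x N => ?_, ?_⟩
  · rw [Real.sq_sqrt ENNReal.toReal_nonneg]
    have h1 : ENNReal.ofReal (∑ n ∈ Finset.range N, a n x ^ 2) ≤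
        ∑' n, ENNReal.ofReal (a n x ^ 2) := by
      rw [ENNReal.ofReal_sum_of_nonneg fun i _ => sq_nonneg _]
      exact ENNReal.sum_le_tsum _
    exact (ENNReal.ofReal_le_iff_le_toReal (hx x)).1 h1
  · have e : ∀ x, ENNReal.ofReal (√((∑' n, ENNReal.ofReal (a n x ^ 2)).toReal) ^ 2) =
        ∑' n, ENNReal.ofReal (a n x ^ 2) := fun x => by
      rw [Real.sq_sqrt ENNReal.toReal_nonneg, ENNReal.ofReal_toReal (hx x)]
    refine summable_of_ennreal (fun x => sq_nonneg _) hkt ?_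
    simp only [e]
    exact key

theorem geo_eq (N : ℕ) :
    ∑ n ∈ Finset.range N, (1 / 2 : ℝ) ^ (n + 1) = 1 - (1 / 2) ^ N := by
  induction N with
  | zero => simp
  | succ N ih => rw [Finset.sum_range_succ, ih]; ring

/-- summing countably many square summable families with geometric weights -/
theorem l2_sum (a : ℕ → α → ℝ) (κ : ℝ)
    (hs : ∀ n, Summable fun x => a n x ^ 2)
    (hle : ∀ n, ∑' x, a n x ^ 2 ≤ κ ^ 2 / 4 ^ (n + 1)) :
    ∃ A : α → ℝ, (∀ x, 0 ≤ A x) ∧ (∀ x N, ∑ n ∈ Finset.range N, a n x ≤ A x) ∧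
      (Summable fun x => A x ^ 2) ∧ ∑' x, A x ^ 2 ≤ κ ^ 2 := by
  have hsq : ∀ n x, (√(2 ^ (n + 1)) * a n x) ^ 2 = 2 ^ (n + 1) * a n x ^ 2 := fun n x => by
    rw [mul_pow, Real.sq_sqrt (by positivity)]
  have hgeo : Summable fun n : ℕ => κ ^ 2 / 2 * (1 / 2 : ℝ) ^ n :=
    summable_geometric_two.mul_left _
  obtain ⟨A, hA0, hA1, hA2, hA3⟩ := l2_merge (fun n x => √(2 ^ (n + 1)) * a n x)
    (fun n => κ ^ 2 / 2 * (1 / 2 : ℝ) ^ n) hgeo
    (fun n => by simp only [hsq]; exact (hs n).mul_left _)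
    (fun n => by
      simp only [hsq]
      rw [tsum_mul_left]
      calc (2 : ℝ) ^ (n + 1) * ∑' x, a n x ^ 2 ≤ 2 ^ (n + 1) * (κ ^ 2 / 4 ^ (n + 1)) := by
            gcongr; exact hle n
        _ = κ ^ 2 / 2 * (1 / 2 : ℝ) ^ n := by
            have h4 : (4 : ℝ) ^ (n + 1) = 2 ^ (n + 1) * (2 ^ n * 2) := by
              rw [← pow_succ, ← mul_pow]; norm_num
            rw [h4, one_div, inv_pow]
            field_simp)
  refine ⟨A, hA0, fun x N => ?_, hA2, hA3.trans (le_of_eq ?_)⟩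
  · refine abs_le_of_sq_le_sq' ?_ (hA0 x) |>.2
    refine le_trans ?_ (hA1 x N)
    simp only [hsq]
    -- Cauchy-Schwarz
    have h1 := Finset.sum_mul_sq_le_sq_mul_sq (Finset.range N)
      (fun n => √(1 / 2 ^ (n + 1))) (fun n => √(2 ^ (n + 1)) * a n x)
    have h2 : ∀ n : ℕ, √(1 / 2 ^ (n + 1)) * (√(2 ^ (n + 1)) * a n x) = a n x := fun n => by
      rw [← mul_assoc, ← Real.sqrt_mul (by positivity), one_div,
        inv_mul_cancel₀ (by positivity), Real.sqrt_one, one_mul]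
    have h3 : ∀ n : ℕ, √(1 / 2 ^ (n + 1)) ^ 2 = (1 / 2 : ℝ) ^ (n + 1) := fun n => by
      rw [Real.sq_sqrt (by positivity), one_div, one_div, inv_pow]
    simp only [h2, h3, hsq] at h1
    refine h1.trans ?_
    have h4 : ∑ n ∈ Finset.range N, (1 / 2 : ℝ) ^ (n + 1) ≤ 1 := by
      rw [geo_eq]
      linarith [show (0 : ℝ) ≤ (1 / 2) ^ N by positivity]
    have h5 : 0 ≤ ∑ n ∈ Finset.range N, 2 ^ (n + 1) * a n x ^ 2 :=
      Finset.sum_nonneg fun n _ => by positivity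
    nlinarith
  · rw [tsum_mul_left, tsum_geometric_two]; ring

end Crest.Agent.R105.Exs3_992
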