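import Crest.Agent.R105.Exs0_992
import Crest.Agent.R105.Exs1_992
import Crest.Agent.R105.Exs3_992

/-!
# Row 105 (S0138): one stage of the iteration with exempt solids (423 #10259 (C))
-/

set_option autoImplicit false

namespace Crest.Agent.R105.Exs4_992

open Set Filter MeasureTheory Topology Metric
open Crest.Agent.R105.CF_363 Crest.Agent.R105.Stp_722 Crest.Agent.R105.Cq_463
open Crest.Agent.R105.Skp2_257 (Comps Reg)
open Crest.Agent.R105.Exs_992 Crest.Agent.R105.Exs1_992 Crest.Agent.R105.Exs3_992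
open Crest.Agent.R105.Thin_891

variable {E : Set (ℝ × ℝ)} {𝒬 : Set Sqr} {𝓗 : Set Hair} {ι : Type} {P : ι → Set (ℝ × ℝ)}
  {jm : (ℝ × ℝ → ℝ) → ι → ℝ}

/-- near compact sets off `U`, `r` is a cut function -/
def Loc (𝓗 : Set Hair) (U : Set (ℝ × ℝ)) (r : ℝ × ℝ → ℝ) : Prop :=
  ∀ A, IsCompact A → Disjoint A U → ∃ g : ℝ × ℝ → ℝ, CFJ 𝓗 univ g ∧ HasCompactSupport g ∧
    (∃ C : ℝ, ∀ p, |g p| ≤ C) ∧ ∃ O, IsOpen O ∧ A ⊆ O ∧ ∀ p ∈ O, r p = g p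

/-- the state of the iteration: `U` = union of the exempt solids -/
structure Inv (E : Set (ℝ × ℝ)) (𝒬 : Set Sqr) (𝓗 : Set Hair) (P : ι → Set (ℝ × ℝ))
    (jm : (ℝ × ℝ → ℝ) → ι → ℝ) (S0 : Set (ℝ × ℝ)) (d : ℝ) (r : ℝ × ℝ → ℝ) (U : Set (ℝ × ℝ))
    (b : Sqr → ℝ) (c : ι → ℝ) : Prop where
  loc : Loc 𝓗 U r
  fin : ∃ s : Set (Set (ℝ × ℝ)), s.Finite ∧ (∀ L ∈ s, L ∈ Comps E ∧ ∃ Q ∈ 𝒬, Q.car ⊆ L) ∧ U = ⋃₀ s
  osc : ∀ L ∈ Comps E, Disjoint L U → OscLe Eᶜ L r (2 * d)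
  bdd : ∃ C : ℝ, ∀ p, |r p| ≤ C
  supp : ∀ p ∉ S0, r p = 0
  sq : ∀ Q ∈ 𝒬, Disjoint Q.car U → chg Eᶜ Q.car r ≤ b Q
  bs : Summable fun Q : 𝒬 => b Q ^ 2
  jc : ∀ i, Disjoint (P i) U → jm r i ≤ c i

/-- one stage: from `(r, U, b, c)` to `(r', U', b', c')` by the modifications `f n`. -/
structure Stg (E : Set (ℝ × ℝ)) (𝒬 : Set Sqr) (𝓗 : Set Hair) (C0 θ d ρ κ : ℝ)
    (r : ℝ × ℝ → ℝ) (U : Set (ℝ × ℝ)) (b : Sqr → ℝ) (c : ι → ℝ)
    (r' : ℝ × ℝ → ℝ) (U' : Set (ℝ × ℝ)) (b' : Sqr → ℝ) (c' : ι → ℝ)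
    (f : ℕ → ℝ × ℝ → ℝ) (W : ℕ → Set (ℝ × ℝ)) : Prop where
  cfj : ∀ n, CFJ 𝓗 univ (f n)
  supp : ∀ n, ∃ S, IsCompact S ∧ S ⊆ W n ∧ ∀ p ∉ S, f n p = 0
  op : ∀ n, IsOpen (W n)
  dis : Pairwise fun m n => Disjoint (W m) (W n)
  near : ∀ n, W n ⊆ thickening ρ E
  bd : ∀ n p, |f n p| ≤ C0 * d
  en : ∀ n, (∫ p in Eᶜ, g2 (f n) p) ≤ κ ^ 2 / 4 ^ (n + 1)
  sum : ∀ p n, (∀ m, m ≠ n → p ∉ W m) → r' p = r p + f n p
  mono : U ⊆ U'
  lf : ∀ A, IsCompact A → Disjoint A U' →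
    ∃ O, IsOpen O ∧ A ⊆ O ∧ ∃ N, ∀ n ≥ N, Disjoint O (W n)
  offU : ∀ n, ∃ O, IsOpen O ∧ U' ⊆ O ∧ Disjoint O (W n)
  conn : ∀ S ⊆ E, IsPreconnected S → S.Nonempty → Disjoint S U' → ∃ n, S ⊆ W n
  dich : ∀ S ⊆ E, IsPreconnected S → S ⊆ U' ∨ Disjoint S U'
  ex : ∀ Q ∈ 𝒬, ¬ Disjoint Q.car U' → ¬ Disjoint Q.car U ∨ θ * d ≤ chg Eᶜ Q.car r
  ba : ∃ a : Sqr → ℝ, (∀ Q, 0 ≤ a Q) ∧ (Summable fun Q : 𝒬 => a Q.1 ^ 2) ∧
    ∑' Q : 𝒬, a Q.1 ^ 2 ≤ κ ^ 2 ∧ ∀ Q, b' Q = b Q + a Q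
  ca : ∃ a : ι → ℝ, (∀ i, 0 ≤ a i) ∧ (Summable fun i => a i ^ 2) ∧
    ∑' i, a i ^ 2 ≤ κ ^ 2 ∧ ∀ i, c' i = c i + a i

theorem ch_univ (f : ℝ × ℝ → ℝ) (Q : Sqr) : ch E univ f Q = chg Eᶜ Q.car f := by
  simp [ch]

theorem cfj_sum {f : ℕ → ℝ × ℝ → ℝ} (h : ∀ n, CFJ 𝓗 univ (f n)) (N : ℕ) :
    CFJ 𝓗 univ fun p => ∑ n ∈ Finset.range N, f n p := by
  induction N with
  | zero => simpa using CFJ_const (𝓗 := 𝓗) (W := univ) 0
  | succ N ih =>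
    simp only [Finset.sum_range_succ]
    exact ih.add (h N)

/-- the component of the square -/
theorem car_sub_cc (hE : QPic E 𝒬 𝓗) {Q : Sqr} (hQ : Q ∈ 𝒬) :
    Q.car ⊆ connectedComponentIn E (Q.x, Q.y) :=
  Q.convex_car.isPreconnected.subset_connectedComponentIn
    ⟨⟨le_rfl, by linarith [Q.hs]⟩, ⟨le_rfl, by linarith [Q.hs]⟩⟩ (hE.sub Q hQ)

theorem corner_mem (Q : Sqr) : (Q.x, Q.y) ∈ Q.car :=
  ⟨⟨le_rfl, by linarith [Q.hs]⟩, ⟨le_rfl, by linarith [Q.hs]⟩⟩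

theorem dich_of {s : Set (Set (ℝ × ℝ))} (hs : ∀ L ∈ s, L ∈ Comps E) :
    ∀ S ⊆ E, IsPreconnected S → S ⊆ ⋃₀ s ∨ Disjoint S (⋃₀ s) := by
  intro S hSE hS
  by_cases hd : Disjoint S (⋃₀ s)
  · exact Or.inr hd
  · left
    obtain ⟨p, hpS, L, hL, hpL⟩ := not_disjoint_iff.1 hd
    obtain ⟨q, hq, rfl⟩ := hs L hL
    refine fun z hz => ⟨_, hL, ?_⟩
    rw [connectedComponentIn_eq hpL]
    exact hS.subset_connectedComponentIn hpS hSE hz

theorem stage (hE : QPic E 𝒬 𝓗) (hJ : LocFun E P jm) {C0 θ : ℝ} (hC0 : 0 ≤ C0) (hθ : 0 < θ)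
    (hstep : StepJ E 𝒬 𝓗 jm C0 θ) {S0 : Set (ℝ × ℝ)} (hS0 : IsCompact S0) {d ρ κ : ℝ}
    (hd : 0 < d) (hρ : 0 < ρ) (hρS : thickening ρ E ⊆ S0) (hκ : 0 < κ)
    {r : ℝ × ℝ → ℝ} {U : Set (ℝ × ℝ)} {b : Sqr → ℝ} {c : ι → ℝ}
    (h : Inv E 𝒬 𝓗 P jm S0 d r U b c) :
    ∃ r' U' b' c' f W, Inv E 𝒬 𝓗 P jm S0 (d / 2) r' U' b' c' ∧
      Stg E 𝒬 𝓗 C0 θ d ρ κ r U b c r' U' b' c' f W := by
  classical
  obtain ⟨s, hsf, hs, rfl⟩ := h.fin
  obtain ⟨C, hC⟩ := h.bdd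
  -- the new exempt solids
  set T : Set Sqr := {Q | Q ∈ 𝒬 ∧ Disjoint Q.car (⋃₀ s) ∧ θ * d ≤ chg Eᶜ Q.car r} with hT
  have hTf : T.Finite := by
    have h1 : ∀ᶠ Q : 𝒬 in cofinite, b Q ^ 2 < (θ * d) ^ 2 :=
      h.bs.tendsto_cofinite_zero.eventually (gt_mem_nhds (by positivity))
    have h2 : {Q : 𝒬 | ¬ b Q ^ 2 < (θ * d) ^ 2}.Finite := h1
    refine (h2.image Subtype.val).subset fun Q hQ => ?_
    obtain ⟨hQ1, hQ2, hQ3⟩ := hQ
    refine ⟨⟨Q, hQ1⟩, ?_, rfl⟩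
    rw [Set.mem_ofPred_eq, not_lt]
    exact pow_le_pow_left₀ (by positivity) (hQ3.trans (h.sq Q hQ1 hQ2)) 2
  set s' : Set (Set (ℝ × ℝ)) := s ∪ (fun Q : Sqr => connectedComponentIn E (Q.x, Q.y)) '' T
    with hs'
  have hs'f : s'.Finite := hsf.union (hTf.image _)
  have hs'c : ∀ L ∈ s', L ∈ Comps E ∧ ∃ Q ∈ 𝒬, Q.car ⊆ L := by
    rintro L (hL | ⟨Q, hQ, rfl⟩)
    · exact hs L hL
    · exact ⟨⟨_, hE.sub Q hQ.1 (corner_mem Q), rfl⟩, Q, hQ.1, car_sub_cc hE hQ.1⟩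
  set U' : Set (ℝ × ℝ) := ⋃₀ s' with hU'
  have hUU' : ⋃₀ s ⊆ U' := sUnion_subset_sUnion subset_union_left
  have hcomp : ∀ L ∈ s', ∃ p ∈ E, L = connectedComponentIn E p := fun L hL => (hs'c L hL).1
  have hU'c : IsCompact U' := isCompact_sUnion_comps hE.cpt hs'f hcomp
  have hU'E : U' ⊆ E := by
    rintro p ⟨L, hL, hp⟩
    obtain ⟨q, hq, rfl⟩ := hcomp L hL
    exact connectedComponentIn_subset _ _ hp
  obtain ⟨D, W, hDW⟩ := exists_shells hE.cpt hU'E hU'c.isClosed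
    (sat_of_finite hE.cpt hs'f hcomp) hρ
  have hDU : ∀ n, Disjoint (D n) (⋃₀ s) := fun n => (hDW.dU n).mono_right hUU'
  choose g hg1 hg2 hg3 O hO hDO hgO using fun n => h.loc (D n) (hDW.pc n).cpt (hDU n)
  -- the step on the shells
  have hst : ∀ n, ∃ φ : ℝ × ℝ → ℝ, CFJ 𝓗 univ φ ∧
      (∃ S, IsCompact S ∧ S ⊆ W n ∩ O n ∧ ∀ p ∉ S, φ p = 0) ∧
      (∀ p, |φ p| ≤ C0 * d) ∧ (∫ p in Eᶜ, g2 φ p) ≤ (κ / 2 ^ (n + 1)) ^ 2 ∧
      (∃ a : Sqr → ℝ, (∀ Q, 0 ≤ a Q) ∧ (Summable fun Q : 𝒬 => a Q.1 ^ 2) ∧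
        ∑' Q : 𝒬, a Q.1 ^ 2 ≤ (κ / 2 ^ (n + 1)) ^ 2 ∧
        ∀ Q ∈ 𝒬, ch E univ (fun p => g n p + φ p) Q ≤ ch E univ (g n) Q + a Q) ∧
      (∃ b : ι → ℝ, (∀ i, 0 ≤ b i) ∧ (Summable fun i => b i ^ 2) ∧
        ∑' i, b i ^ 2 ≤ (κ / 2 ^ (n + 1)) ^ 2 ∧
        ∀ i, jm (fun p => g n p + φ p) i ≤ jm (g n) i + b i) ∧
      ∀ L ∈ Comps E, L ⊆ D n → OscLe Eᶜ L (fun p => g n p + φ p) d := by
    intro n
    refine hstep (g n) (hg1 n) (hg2 n) (hg3 n) (D n) (hDW.pc n).cpt (hDW.pc n).sub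
      (hDW.pc n).cpt' d hd (fun L hL hLD => ?_) (fun Q hQ hQD => ?_) (W n ∩ O n)
      ((hDW.op n).inter (hO n)) (subset_inter (hDW.sub n) (hDO n)) (κ / 2 ^ (n + 1))
      (by positivity)
    · exact (h.osc L hL ((hDU n).mono_left hLD)).congr (hO n) (hLD.trans (hDO n))
        fun q hq => (hgO n q hq.1).symm
    · have h1 : Disjoint Q.car (⋃₀ s) := (hDU n).mono_left hQD
      have h2 : chg Eᶜ Q.car r ≤ θ * d := by
        by_contra hc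
        push Not at hc
        have hQT : Q ∈ T := ⟨hQ, h1, hc.le⟩
        have h3 : (Q.x, Q.y) ∈ U' := ⟨_, Or.inr ⟨Q, hQT, rfl⟩,
          car_sub_cc hE hQ (corner_mem Q)⟩
        exact disjoint_left.1 (hDW.dU n) (hQD (corner_mem Q)) h3
      have h4 : Fin Eᶜ Q.car r := fin_of_bdd (A := C) fun p _ => hC p
      exact (h4.oscLe.mono h2).congr (hO n) (hQD.trans (hDO n))
        fun q hq => (hgO n q hq.1).symm
  choose f hf1 hf2 hf3 hf4 hf5 hf6 hf7 using hst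
  choose a ha0 has hale hach using hf5
  choose β hβ0 hβs hβle hβj using hf6
  have hpw : ∀ n : ℕ, (κ / 2 ^ (n + 1)) ^ 2 = κ ^ 2 / 4 ^ (n + 1) := fun n => by
    rw [div_pow, ← pow_mul, mul_comm, pow_mul]; norm_num
  have hksum : Summable fun n : ℕ => κ ^ 2 / 4 * (1 / 4 : ℝ) ^ n :=
    (summable_geometric_of_lt_one (by norm_num) (by norm_num)).mul_left _
  have hkeq : ∀ n : ℕ, κ ^ 2 / 4 ^ (n + 1) = κ ^ 2 / 4 * (1 / 4 : ℝ) ^ n := fun n => by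
    rw [one_div, inv_pow]; field_simp; ring
  have hktot : ∑' n : ℕ, κ ^ 2 / 4 * (1 / 4 : ℝ) ^ n ≤ κ ^ 2 := by
    rw [tsum_mul_left, tsum_geometric_of_lt_one (by norm_num) (by norm_num)]
    nlinarith [sq_nonneg κ]
  obtain ⟨A, hA0, hA1, hA2, hA3⟩ := l2_merge (fun n (Q : 𝒬) => a n Q.1)
    (fun n => κ ^ 2 / 4 * (1 / 4 : ℝ) ^ n) hksum has
    (fun n => by rw [← hkeq, ← hpw]; exact hale n)
  obtain ⟨B, hB0, hB1, hB2, hB3⟩ := l2_merge β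
    (fun n => κ ^ 2 / 4 * (1 / 4 : ℝ) ^ n) hksum hβs
    (fun n => by rw [← hkeq, ← hpw]; exact hβle n)
  have haA : ∀ n (Q : 𝒬), a n Q.1 ≤ A Q := fun n Q => by
    refine (abs_le_of_sq_le_sq' ?_ (hA0 Q)).2
    refine le_trans ?_ (hA1 Q (n + 1))
    exact Finset.single_le_sum (f := fun n => a n Q.1 ^ 2) (fun i _ => sq_nonneg _)
      (Finset.self_mem_range_succ n)
  have hβB : ∀ n i, β n i ≤ B i := fun n i => by
    refine (abs_le_of_sq_le_sq' ?_ (hB0 i)).2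
    refine le_trans ?_ (hB1 i (n + 1))
    exact Finset.single_le_sum (f := fun n => β n i ^ 2) (fun i _ => sq_nonneg _)
      (Finset.self_mem_range_succ n)
  -- supports
  have hfW : ∀ n p, p ∉ W n → f n p = 0 := by
    intro n p hp
    obtain ⟨S, -, hS1, hS2⟩ := hf2 n
    exact hS2 p fun hc => hp (hS1 hc).1
  -- the new function
  set F : ℝ × ℝ → ℝ := fun p => if hp : ∃ n, p ∈ W n then f hp.choose p else 0 with hF
  have hFn : ∀ p n, (∀ m, m ≠ n → p ∉ W m) → F p = f n p := by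
    intro p n hn
    by_cases hp : ∃ n, p ∈ W n
    · have h1 : hp.choose = n := by
        by_contra hc
        exact hn _ hc hp.choose_spec
      simp only [hF, dif_pos hp, h1]
    · simp only [hF, dif_neg hp]
      exact (hfW n p fun hc => hp ⟨n, hc⟩).symm
  have hWn : ∀ n, ∀ p ∈ W n, ∀ m, m ≠ n → p ∉ W m := fun n p hp m hm hpm =>
    disjoint_left.1 (hDW.dis hm) hpm hp
  have hFb : ∀ p, |F p| ≤ C0 * d := by
    intro p
    by_cases hp : ∃ n, p ∈ W n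
    · obtain ⟨n, hn⟩ := hp
      rw [hFn p n (hWn n p hn)]; exact hf3 n p
    · simp only [hF, dif_neg hp, abs_zero]; positivity
  have hloc : ∀ n, ∀ p ∈ W n ∩ O n, r p + F p = g n p + f n p := by
    rintro n p ⟨hpW, hpO⟩
    rw [hFn p n (hWn n p hpW), hgO n p hpO]
  have hWO : ∀ n, IsOpen (W n ∩ O n) := fun n => (hDW.op n).inter (hO n)
  have hDWO : ∀ n, D n ⊆ W n ∩ O n := fun n => subset_inter (hDW.sub n) (hDO n)
  set a' : Sqr → ℝ := fun Q => if hQ : Q ∈ 𝒬 then A ⟨Q, hQ⟩ else 0 with ha'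
  have ha'v : ∀ Q : 𝒬, a' Q.1 = A Q := fun Q => by simp only [ha', dif_pos Q.2]
  refine ⟨fun p => r p + F p, U', fun Q => b Q + a' Q, fun i => c i + B i, f, W, ?_, ?_⟩
  · refine ⟨?_, ⟨s', hs'f, hs'c, rfl⟩, ?_, ⟨C + C0 * d, fun p => ?_⟩, fun p hp => ?_, ?_, ?_,
      ?_⟩
    · -- Loc
      intro K hK hKU
      obtain ⟨g₀, k1, k2, ⟨Cg, k3⟩, Og, k4, k5, k6⟩ := h.loc K hK (hKU.mono_right hUU')
      obtain ⟨O1, hO1, hKO1, N, hN⟩ := hDW.lf_compact hK hKU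
      refine ⟨fun p => g₀ p + ∑ n ∈ Finset.range N, f n p, k1.add (cfj_sum hf1 N), ?_,
        ⟨Cg + ∑ n ∈ Finset.range N, C0 * d, fun p => ?_⟩, Og ∩ O1, k4.inter hO1,
        subset_inter k5 hKO1, ?_⟩
      · refine HasCompactSupport.intro (K := tsupport g₀ ∪ S0) (k2.union hS0) fun p hp => ?_
        rw [image_eq_zero_of_notMem_tsupport fun hc => hp (Or.inl hc), zero_add]
        refine Finset.sum_eq_zero fun n _ => hfW n p fun hc => hp (Or.inr ?_)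
        exact hρS (hDW.near n hc)
      · refine (abs_add_le _ _).trans (add_le_add (k3 p) ?_)
        exact (Finset.abs_sum_le_sum_abs _ _).trans (Finset.sum_le_sum fun n _ => hf3 n p)
      · rintro p ⟨hpg, hp1⟩
        beta_reduce
        rw [k6 p hpg]
        congr 1
        by_cases hp : ∃ n, p ∈ W n
        · obtain ⟨n, hn⟩ := hp
          have hnN : n < N := by
            by_contra hc
            exact disjoint_left.1 (hN n (not_lt.1 hc)) hp1 hn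
          rw [hFn p n (hWn n p hn), Finset.sum_eq_single_of_mem n (Finset.mem_range.2 hnN)
            fun m _ hm => hfW m p (hWn n p hn m hm)]
        · simp only [hF, dif_neg hp]
          exact (Finset.sum_eq_zero fun n _ => hfW n p fun hc => hp ⟨n, hc⟩).symm
    · -- oscillations
      intro L hL hLU
      obtain ⟨q, hq, hLq⟩ := hL
      have hLE : L ⊆ E := by rw [hLq]; exact connectedComponentIn_subset _ _
      have hLc : IsPreconnected L := by rw [hLq]; exact isPreconnected_connectedComponentIn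
      have hLn : L.Nonempty := ⟨q, by rw [hLq]; exact mem_connectedComponentIn hq⟩
      obtain ⟨n, hn⟩ := hDW.conn hLc hLE hLn hLU
      have h1 := (hf7 n L ⟨q, hq, hLq⟩ hn).congr (g := fun p => r p + F p) (hWO n)
        (hn.trans (hDWO n)) fun q hq => hloc n q hq.1
      rwa [show 2 * (d / 2) = d by ring]
    · exact (abs_add_le _ _).trans (add_le_add (hC p) (hFb p))
    · -- support
      beta_reduce
      rw [h.supp p hp, zero_add]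
      have : ¬ ∃ n, p ∈ W n := by
        rintro ⟨n, hn⟩
        exact hp (hρS (hDW.near n hn))
      simp only [hF, dif_neg this]
    · -- squares
      intro Q hQ hQU
      obtain ⟨n, hn⟩ := hDW.conn Q.convex_car.isPreconnected (hE.sub Q hQ) Q.nonempty hQU
      have h1 : chg Eᶜ Q.car (fun p => r p + F p) = chg Eᶜ Q.car (fun p => g n p + f n p) :=
        chg_congr (hWO n) (hn.trans (hDWO n)) fun q hq => hloc n q hq.1
      have h2 : chg Eᶜ Q.car (g n) = chg Eᶜ Q.car r :=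
        chg_congr (hO n) (hn.trans (hDO n)) fun q hq => (hgO n q hq.1).symm
      have h3 := hach n Q hQ
      rw [ch_univ, ch_univ, h2] at h3
      have h4 : a n Q ≤ a' Q := by
        have := haA n ⟨Q, hQ⟩
        rwa [← ha'v] at this
      rw [h1]
      have h5 := h.sq Q hQ (hQU.mono_right hUU')
      linarith
    · -- summability
      have h1 : Summable fun Q : 𝒬 => 2 * b Q ^ 2 + 2 * A Q ^ 2 :=
        (h.bs.mul_left 2).add (hA2.mul_left 2)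
      refine Summable.of_nonneg_of_le (fun Q => sq_nonneg _) (fun Q => ?_) h1
      beta_reduce
      rw [ha'v]
      nlinarith [sq_nonneg (b Q - A Q)]
    · -- functionals
      intro i hi
      obtain ⟨n, hn⟩ := hDW.conn (hJ.con i) (hJ.sub i) (hJ.ne i) hi
      have h1 : jm (fun p => r p + F p) i = jm (fun p => g n p + f n p) i :=
        hJ.loc i _ _ _ (hWO n) (hn.trans (hDWO n)) fun q hq => hloc n q hq
      have h2 : jm (g n) i = jm r i :=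
        hJ.loc i _ _ _ (hO n) (hn.trans (hDO n)) fun q hq => (hgO n q hq).symm
      have h3 := hβj n i
      have h5 := h.jc i (hi.mono_right hUU')
      have h6 := hβB n i
      rw [h1]; linarith
  · refine ⟨hf1, fun n => ?_, hDW.op, hDW.dis, hDW.near, hf3, fun n => ?_, fun p n hn => ?_,
      hUU', fun K hK hKU => hDW.lf_compact hK hKU, hDW.offU, ?_,
      dich_of fun L hL => (hs'c L hL).1, ?_, ⟨a', fun Q => ?_, ?_, ?_, fun Q => rfl⟩,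
      ⟨B, hB0, hB2, hB3.trans hktot, fun i => rfl⟩⟩
    · obtain ⟨S, h1, h2, h3⟩ := hf2 n
      exact ⟨S, h1, fun p hp => (h2 hp).1, h3⟩
    · rw [← hpw]; exact hf4 n
    · beta_reduce; rw [hFn p n hn]
    · intro S hSE hS hSn hSU
      obtain ⟨n, hn⟩ := hDW.conn hS hSE hSn hSU
      exact ⟨n, hn.trans (hDW.sub n)⟩
    · intro Q hQ hQU
      obtain ⟨p, hpQ, L, hL, hpL⟩ := not_disjoint_iff.1 hQU
      rcases hL with hL | ⟨Q', hQ', rfl⟩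
      · exact Or.inl (not_disjoint_iff.2 ⟨p, hpQ, L, hL, hpL⟩)
      · right
        have : Q = Q' := hE.sep _ (connectedComponentIn_subset _ _)
          isPreconnected_connectedComponentIn Q hQ Q' hQ'.1 ⟨p, hpL, hpQ⟩
          ⟨_, car_sub_cc hE hQ'.1 (corner_mem Q'), corner_mem Q'⟩
        rw [this]; exact hQ'.2.2
    · by_cases hQ : Q ∈ 𝒬
      · rw [show a' Q = A ⟨Q, hQ⟩ from ha'v ⟨Q, hQ⟩]; exact hA0 _
      · simp only [ha', dif_neg hQ, le_refl]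
    · simp only [ha'v]; exact hA2
    · simp only [ha'v]; exact hA3.trans hktot

end Crest.Agent.R105.Exs4_992
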