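import Crest.Agent.R105.Exs2_992
import Crest.Agent.R105.Exs4_992

/-!
# Row 105 (S0138): consistent truncations of the stage functions
-/

set_option autoImplicit false

namespace Crest.Agent.R105.Exs5_992

open Set Filter MeasureTheory Topology Metric
open Crest.Agent.R105.CF_363 Crest.Agent.R105.Stp_722 Crest.Agent.R105.Cq_463
open Crest.Agent.R105.Skp2_257 (Comps Reg)
open Crest.Agent.R105.Exs_992 Crest.Agent.R105.Exs1_992 Crest.Agent.R105.Exs3_992
open Crest.Agent.R105.Exs4_992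
open Crest.Agent.R105.Exs2_992 (cfj_ae_diff cfj_integrable)
open Crest.Agent.R105.SkLim2_363 (g2_eq_zero_of_notMem g2_neg g2_congr g2_add_le)
open scoped ENNReal

variable {E : Set (ℝ × ℝ)} {𝒬 : Set Sqr} {𝓗 : Set Hair} {ι : Type} {P : ι → Set (ℝ × ℝ)}
  {jm : (ℝ × ℝ → ℝ) → ι → ℝ}

/-- energy off `E` as a lower integral -/
noncomputable def len (E : Set (ℝ × ℝ)) (f : ℝ × ℝ → ℝ) : ℝ≥0∞ :=
  ∫⁻ p in Eᶜ, ENNReal.ofReal (g2 f p)

theorem len_add_le (hE : IsCompact E) {f g : ℝ × ℝ → ℝ}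
    (hf : ∀ᵐ p : ℝ × ℝ, p ∉ E → DifferentiableAt ℝ f p)
    (hg : ∀ᵐ p : ℝ × ℝ, p ∉ E → DifferentiableAt ℝ g p) :
    len E (fun p => f p + g p) ≤ 2 * len E f + 2 * len E g := by
  have hm : MeasurableSet Eᶜ := hE.isClosed.isOpen_compl.measurableSet
  unfold len
  rw [← lintegral_const_mul _ (measurable_g2 f).ennreal_ofReal,
    ← lintegral_const_mul _ (measurable_g2 g).ennreal_ofReal,
    ← lintegral_add_left ((measurable_g2 f).ennreal_ofReal.const_mul _)]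
  refine lintegral_mono_ae ?_
  filter_upwards [ae_restrict_of_ae hf, ae_restrict_of_ae hg, ae_restrict_mem hm]
    with p h1 h2 hp
  have h3 := g2_add_le (h1 hp) (h2 hp)
  have e : ∀ x : ℝ, 0 ≤ x → 2 * ENNReal.ofReal x = ENNReal.ofReal (2 * x) := fun x hx => by
    rw [ENNReal.ofReal_mul zero_le_two]; simp
  rw [e _ (g2_nonneg _ _), e _ (g2_nonneg _ _),
    ← ENNReal.ofReal_add (by have := g2_nonneg f p; positivity)
      (by have := g2_nonneg g p; positivity)]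
  exact ENNReal.ofReal_le_ofReal h3

theorem len_neg (f : ℝ × ℝ → ℝ) : len E (fun p => - f p) = len E f := by
  unfold len; simp only [g2_neg]

theorem len_congr {f g : ℝ × ℝ → ℝ} (h : ∀ p ∉ E, f =ᶠ[𝓝 p] g) (hE : IsCompact E) :
    len E f = len E g := by
  unfold len
  refine setLIntegral_congr_fun hE.isClosed.isOpen_compl.measurableSet fun p hp => ?_
  rw [g2_congr (h p hp)]

theorem len_eq {f : ℝ × ℝ → ℝ} (hf : CFJ 𝓗 univ f) {S : Set (ℝ × ℝ)} (hS : IsCompact S)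
    (h0 : ∀ p ∉ S, f p = 0) : len E f = ENNReal.ofReal (∫ p in Eᶜ, g2 f p) :=
  (ofReal_integral_eq_lintegral_ofReal (cfj_integrable hf hS h0).integrableOn
    (Eventually.of_forall fun p => g2_nonneg _ _)).symm

section one

variable {C0 θ d ρ κ : ℝ} {r r' : ℝ × ℝ → ℝ} {U U' : Set (ℝ × ℝ)} {b b' : Sqr → ℝ}
  {c c' : ι → ℝ} {f : ℕ → ℝ × ℝ → ℝ} {W : ℕ → Set (ℝ × ℝ)}

theorem f_off (h : Stg E 𝒬 𝓗 C0 θ d ρ κ r U b c r' U' b' c' f W) {n : ℕ} {p : ℝ × ℝ}
    (hp : p ∉ W n) : f n p = 0 := by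
  obtain ⟨S, -, hS1, hS2⟩ := h.supp n
  exact hS2 p fun hc => hp (hS1 hc)

theorem in_W (h : Stg E 𝒬 𝓗 C0 θ d ρ κ r U b c r' U' b' c' f W) {n : ℕ} {p : ℝ × ℝ}
    (hp : p ∈ W n) : r' p = r p + f n p :=
  h.sum p n fun _ hm hpm => disjoint_left.1 (h.dis hm) hpm hp

theorem other (h : Stg E 𝒬 𝓗 C0 θ d ρ κ r U b c r' U' b' c' f W) {m n : ℕ} (hmn : m ≠ n)
    {p : ℝ × ℝ} (hp : p ∈ W n) : f m p = 0 :=
  f_off h fun hpm => disjoint_left.1 (h.dis hmn) hpm hp

theorem off_all (h : Stg E 𝒬 𝓗 C0 θ d ρ κ r U b c r' U' b' c' f W) {p : ℝ × ℝ}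
    (hp : ∀ n, p ∉ W n) : r' p = r p := by
  rw [h.sum p 0 fun m _ => hp m, f_off h (hp 0), add_zero]

theorem sum_in (h : Stg E 𝒬 𝓗 C0 θ d ρ κ r U b c r' U' b' c' f W) {n N : ℕ} (hn : n < N)
    {p : ℝ × ℝ} (hp : p ∈ W n) : ∑ m ∈ Finset.range N, f m p = f n p :=
  Finset.sum_eq_single_of_mem n (Finset.mem_range.2 hn) fun _ _ hm => other h hm hp

theorem sum_in' (h : Stg E 𝒬 𝓗 C0 θ d ρ κ r U b c r' U' b' c' f W) {n N : ℕ} (hn : N ≤ n)
    {p : ℝ × ℝ} (hp : p ∈ W n) : ∑ m ∈ Finset.range N, f m p = 0 :=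
  Finset.sum_eq_zero fun m hm => other h (by
    have := Finset.mem_range.1 hm
    omega) hp

theorem sum_off (h : Stg E 𝒬 𝓗 C0 θ d ρ κ r U b c r' U' b' c' f W) (N : ℕ)
    {p : ℝ × ℝ} (hp : ∀ n < N, p ∉ W n) : ∑ m ∈ Finset.range N, f m p = 0 :=
  Finset.sum_eq_zero fun m hm => f_off h (hp m (Finset.mem_range.1 hm))

/-- near every point off `U'` the change is one of the modifications -/
theorem germ (h : Stg E 𝒬 𝓗 C0 θ d ρ κ r U b c r' U' b' c' f W) {p : ℝ × ℝ} (hp : p ∉ U')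
    (N : ℕ) :
    (∃ m, (fun q => r' q - r q) =ᶠ[𝓝 p] f m ∧
      (fun q => ∑ n ∈ Finset.range N, f n q) =ᶠ[𝓝 p] if m < N then f m else fun _ => 0) := by
  classical
  by_cases hW : ∃ n, p ∈ W n
  · obtain ⟨n, hn⟩ := hW
    refine ⟨n, ?_, ?_⟩
    · filter_upwards [(h.op n).mem_nhds hn] with q hq
      rw [in_W h hq]; ring
    · filter_upwards [(h.op n).mem_nhds hn] with q hq
      split_ifs with hnN
      · exact sum_in h hnN hq
      · exact sum_in' h (not_lt.1 hnN) hq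
  · push Not at hW
    obtain ⟨O, hO, hpO, N', hN'⟩ := h.lf {p} isCompact_singleton (disjoint_singleton_left.2 hp)
    choose S hS hSW hSf using h.supp
    have hev : ∀ n, ∀ᶠ q in 𝓝 p, f n q = 0 := fun n => by
      filter_upwards [(hS n).isClosed.isOpen_compl.mem_nhds fun hc => hW n (hSW n hc)] with q hq
      exact hSf n q hq
    have hall : ∀ᶠ q in 𝓝 p, ∀ n, f n q = 0 := by
      have h1 : ∀ᶠ q in 𝓝 p, ∀ n ∈ Finset.range N', f n q = 0 :=
        (Finset.eventually_all _).2 fun n _ => hev n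
      filter_upwards [h1, hO.mem_nhds (hpO rfl)] with q hq1 hq2 n
      by_cases hn : n < N'
      · exact hq1 n (Finset.mem_range.2 hn)
      · exact f_off h fun hc => disjoint_left.1 (hN' n (not_lt.1 hn)) hq2 hc
    refine ⟨0, ?_, ?_⟩
    · filter_upwards [hall] with q hq
      rw [hq 0]
      by_cases hqW : ∃ n, q ∈ W n
      · obtain ⟨n, hn⟩ := hqW
        rw [in_W h hn, hq n]; ring
      · push Not at hqW
        rw [off_all h hqW]; ring
    · filter_upwards [hall] with q hq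
      rw [Finset.sum_eq_zero fun n _ => hq n]
      split_ifs
      · exact (hq 0).symm
      · rfl

theorem f_supp (h : Stg E 𝒬 𝓗 C0 θ d ρ κ r U b c r' U' b' c' f W) (n : ℕ) :
    ∃ S, IsCompact S ∧ ∀ p ∉ S, f n p = 0 := by
  obtain ⟨S, h1, -, h2⟩ := h.supp n
  exact ⟨S, h1, h2⟩

/-- the energy of the tail of one stage -/
theorem len_tail (hE : IsCompact E) (hU : U' ⊆ E)
    (h : Stg E 𝒬 𝓗 C0 θ d ρ κ r U b c r' U' b' c' f W) (N : ℕ) :
    len E (fun p => (r' p - r p) - ∑ n ∈ Finset.range N, f n p) ≤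
      ENNReal.ofReal (κ ^ 2 / 4 ^ N) := by
  classical
  have hm : MeasurableSet Eᶜ := hE.isClosed.isOpen_compl.measurableSet
  calc len E (fun p => (r' p - r p) - ∑ n ∈ Finset.range N, f n p)
      ≤ ∫⁻ p in Eᶜ, ∑' n : ℕ, ENNReal.ofReal (g2 (f (N + n)) p) := by
        refine lintegral_mono_ae ?_
        filter_upwards [ae_restrict_mem hm] with p hp
        obtain ⟨m, h1, h2⟩ := germ h (fun hc => hp (hU hc)) N
        by_cases hmN : m < N
        · rw [if_pos hmN] at h2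
          have h3 : (fun p => (r' p - r p) - ∑ n ∈ Finset.range N, f n p) =ᶠ[𝓝 p]
              fun _ => 0 := by
            filter_upwards [h1, h2] with q hq1 hq2
            rw [hq1, hq2, sub_self]
          rw [g2_congr h3]
          simp [g2]
        · rw [if_neg hmN] at h2
          have h3 : (fun p => (r' p - r p) - ∑ n ∈ Finset.range N, f n p) =ᶠ[𝓝 p] f m := by
            filter_upwards [h1, h2] with q hq1 hq2
            rw [hq1, hq2, sub_zero]
          rw [g2_congr h3]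
          obtain ⟨j, rfl⟩ := Nat.exists_eq_add_of_le (not_lt.1 hmN)
          exact ENNReal.le_tsum (f := fun n => ENNReal.ofReal (g2 (f (N + n)) p)) j
    _ = ∑' n : ℕ, ∫⁻ p in Eᶜ, ENNReal.ofReal (g2 (f (N + n)) p) :=
        lintegral_tsum fun n => (measurable_g2 _).ennreal_ofReal.aemeasurable
    _ ≤ ∑' n : ℕ, ENNReal.ofReal (κ ^ 2 / 4 ^ (N + n + 1)) := by
        refine ENNReal.tsum_le_tsum fun n => ?_
        obtain ⟨S, hS1, hS2⟩ := f_supp h (N + n)
        have := len_eq (E := E) (h.cfj (N + n)) hS1 hS2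
        rw [len] at this
        rw [this]
        exact ENNReal.ofReal_le_ofReal (h.en _)
    _ ≤ ENNReal.ofReal (κ ^ 2 / 4 ^ N) := by
        have e : ∀ n : ℕ, κ ^ 2 / 4 ^ (N + n + 1) = κ ^ 2 / 4 ^ N / 4 * (1 / 4 : ℝ) ^ n :=
          fun n => by
            rw [one_div, inv_pow]; field_simp; ring
        have hs : Summable fun n : ℕ => κ ^ 2 / 4 ^ N / 4 * (1 / 4 : ℝ) ^ n :=
          (summable_geometric_of_lt_one (by norm_num) (by norm_num)).mul_left _
        simp_rw [e]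
        rw [← ENNReal.ofReal_tsum_of_nonneg (fun n => by positivity) hs, tsum_mul_left,
          tsum_geometric_of_lt_one (by norm_num) (by norm_num)]
        refine ENNReal.ofReal_le_ofReal ?_
        have : 0 ≤ κ ^ 2 / 4 ^ N := by positivity
        norm_num
        linarith

end one

/-- the whole run of the iteration -/
structure Run (E : Set (ℝ × ℝ)) (𝒬 : Set Sqr) (𝓗 : Set Hair) (P : ι → Set (ℝ × ℝ))
    (jm : (ℝ × ℝ → ℝ) → ι → ℝ) (S0 : Set (ℝ × ℝ)) (C0 θ : ℝ) (d ρ κ : ℕ → ℝ)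
    (r : ℕ → ℝ × ℝ → ℝ) (U : ℕ → Set (ℝ × ℝ)) (b : ℕ → Sqr → ℝ) (c : ℕ → ι → ℝ)
    (f : ℕ → ℕ → ℝ × ℝ → ℝ) (W : ℕ → ℕ → Set (ℝ × ℝ)) : Prop where
  inv : ∀ k, Inv E 𝒬 𝓗 P jm S0 (d k) (r k) (U k) (b k) (c k)
  stg : ∀ k, Stg E 𝒬 𝓗 C0 θ (d k) (ρ k) (κ k) (r k) (U k) (b k) (c k)
    (r (k + 1)) (U (k + 1)) (b (k + 1)) (c (k + 1)) (f k) (W k)
  cptE : IsCompact E
  cpt : IsCompact S0
  rho : ∀ k, thickening (ρ k) E ⊆ S0
  dd : ∀ k, d (k + 1) ≤ d k
  d0 : ∀ k, 0 ≤ d k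
  C00 : 0 ≤ C0
  U0 : U 0 = ∅
  r0 : CFJ 𝓗 univ (r 0)

namespace Run

variable {S0 : Set (ℝ × ℝ)} {C0 θ : ℝ} {d ρ κ : ℕ → ℝ}
  {r : ℕ → ℝ × ℝ → ℝ} {U : ℕ → Set (ℝ × ℝ)} {b : ℕ → Sqr → ℝ} {c : ℕ → ι → ℝ}
  {f : ℕ → ℕ → ℝ × ℝ → ℝ} {W : ℕ → ℕ → Set (ℝ × ℝ)}

theorem UE (h : Run E 𝒬 𝓗 P jm S0 C0 θ d ρ κ r U b c f W) (k : ℕ) : U k ⊆ E := by
  obtain ⟨s, -, hs, hU⟩ := (h.inv k).fin
  rw [hU]
  rintro p ⟨L, hL, hp⟩
  obtain ⟨⟨q, hq, rfl⟩, -⟩ := hs L hL
  exact connectedComponentIn_subset _ _ hp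

theorem Ucpt (h : Run E 𝒬 𝓗 P jm S0 C0 θ d ρ κ r U b c f W) (k : ℕ) : IsCompact (U k) := by
  obtain ⟨s, hsf, hs, hU⟩ := (h.inv k).fin
  rw [hU]
  exact isCompact_sUnion_comps h.cptE hsf fun L hL => (hs L hL).1

theorem Umono (h : Run E 𝒬 𝓗 P jm S0 C0 θ d ρ κ r U b c f W) : Monotone U :=
  monotone_nat_of_le_succ fun k => (h.stg k).mono

theorem danti (h : Run E 𝒬 𝓗 P jm S0 C0 θ d ρ κ r U b c f W) : Antitone d :=
  antitone_nat_of_succ_le h.dd

theorem bmono (h : Run E 𝒬 𝓗 P jm S0 C0 θ d ρ κ r U b c f W) (k : ℕ) (Q : Sqr) :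
    b k Q ≤ b (k + 1) Q := by
  obtain ⟨a, h1, -, -, h2⟩ := (h.stg k).ba
  rw [h2]; linarith [h1 Q]

theorem cmono (h : Run E 𝒬 𝓗 P jm S0 C0 θ d ρ κ r U b c f W) (k : ℕ) (i : ι) :
    c k i ≤ c (k + 1) i := by
  obtain ⟨a, h1, -, -, h2⟩ := (h.stg k).ca
  rw [h2]; linarith [h1 i]

theorem diff (h : Run E 𝒬 𝓗 P jm S0 C0 θ d ρ κ r U b c f W) :
    ∀ᵐ p : ℝ × ℝ, p ∉ E → ∀ k, DifferentiableAt ℝ (r k) p := by
  have h1 : ∀ᵐ p : ℝ × ℝ, ∀ k n, DifferentiableAt ℝ (f k n) p :=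
    ae_all_iff.2 fun k => ae_all_iff.2 fun n => cfj_ae_diff ((h.stg k).cfj n)
  filter_upwards [h1, cfj_ae_diff h.r0] with p hp hp0 hpE k
  induction k with
  | zero => exact hp0
  | succ k ih =>
    obtain ⟨m, hm, -⟩ := germ (h.stg k) (p := p) (fun hc => hpE (h.UE _ hc)) 0
    have e : r (k + 1) =ᶠ[𝓝 p] fun q => r k q + f k m q := by
      filter_upwards [hm] with q hq
      rw [← hq]; ring
    exact (ih.add (hp k m)).congr_of_eventuallyEq e

/-- near every connected part of `E` the truncation is either the old truncation or the new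
stage function. -/
theorem germ_conn (h : Run E 𝒬 𝓗 P jm S0 C0 θ d ρ κ r U b c f W) {k N : ℕ} {S : ℝ × ℝ → ℝ}
    {O : Set (ℝ × ℝ)} (hWO : ∀ n < N, W k n ⊆ O) (hS : ∀ p ∈ O, S p = r k p)
    {L : Set (ℝ × ℝ)} (hLE : L ⊆ E) (hL : IsPreconnected L) (hLn : L.Nonempty) :
    (∃ O', IsOpen O' ∧ L ⊆ O' ∧ ∀ p ∈ O', S p + ∑ n ∈ Finset.range N, f k n p = S p) ∨
      (Disjoint L (U (k + 1)) ∧ ∃ O', IsOpen O' ∧ L ⊆ O' ∧
        ∀ p ∈ O', S p + ∑ n ∈ Finset.range N, f k n p = r (k + 1) p) := by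
  have hst := h.stg k
  rcases hst.dich L hLE hL with hLU | hLU
  · left
    choose V hV hUV hVW using hst.offU
    refine ⟨⋂ n ∈ Finset.range N, V n, isOpen_biInter_finset fun n _ => hV n,
      fun p hp => mem_iInter₂.2 fun n _ => hUV n (hLU hp), fun p hp => ?_⟩
    rw [sum_off hst N fun n hn hpW => disjoint_left.1 (hVW n)
      (mem_iInter₂.1 hp n (Finset.mem_range.2 hn)) hpW, add_zero]
  · obtain ⟨n, hn⟩ := hst.conn L hLE hL hLn hLU
    by_cases hnN : n < N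
    · right
      refine ⟨hLU, W k n, hst.op n, hn, fun p hp => ?_⟩
      rw [sum_in hst hnN hp, hS p (hWO n hnN hp), in_W hst hp]
    · left
      refine ⟨W k n, hst.op n, hn, fun p hp => ?_⟩
      rw [sum_in' hst (not_lt.1 hnN) hp, add_zero]

/-- the properties of a truncation `S` of the stage function `r k` -/
structure App (E : Set (ℝ × ℝ)) (𝒬 : Set Sqr) (𝓗 : Set Hair)
    (jm : (ℝ × ℝ → ℝ) → ι → ℝ) (S0 : Set (ℝ × ℝ)) (d : ℕ → ℝ) (r : ℕ → ℝ × ℝ → ℝ)
    (b : ℕ → Sqr → ℝ) (c : ℕ → ι → ℝ) (k : ℕ) (A : ℕ → Set (ℝ × ℝ)) (ε M : ℝ)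
    (S : ℝ × ℝ → ℝ) : Prop where
  cfj : CFJ 𝓗 univ S
  supp : ∀ p ∉ S0, S p = 0
  bdd : ∀ p, |S p| ≤ M
  en : len E (fun p => S p - r k p) ≤ ENNReal.ofReal ε
  jc : ∀ i, jm S i ≤ c k i
  sq : ∀ Q ∈ 𝒬, chg Eᶜ Q.car S ≤ b k Q
  eq : ∃ O, IsOpen O ∧ A k ⊆ O ∧ ∀ p ∈ O, S p = r k p
  osc : ∀ j ≤ k, ∀ L ∈ Comps E, L ⊆ A j → OscLe Eᶜ L S (2 * d j)

theorem app_zero (h : Run E 𝒬 𝓗 P jm S0 C0 θ d ρ κ r U b c f W) {M0 : ℝ}
    (hM0 : ∀ p, |r 0 p| ≤ M0) (A : ℕ → Set (ℝ × ℝ)) {ε : ℝ} :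
    App E 𝒬 𝓗 jm S0 d r b c 0 A ε (M0 + ∑ j ∈ Finset.range 0, C0 * d j) (r 0) := by
  have hI := h.inv 0
  refine ⟨h.r0, hI.supp, fun p => by simpa using hM0 p, ?_, fun i => hI.jc i ?_,
    fun Q hQ' => hI.sq Q hQ' ?_, ⟨univ, isOpen_univ, subset_univ _, fun _ _ => rfl⟩, ?_⟩
  · simp [len, g2]
  · rw [h.U0]; exact disjoint_empty _
  · rw [h.U0]; exact disjoint_empty _
  · intro j hj L hL _
    obtain rfl : j = 0 := by omega
    exact hI.osc L hL (by rw [h.U0]; exact disjoint_empty _)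

theorem app (h : Run E 𝒬 𝓗 P jm S0 C0 θ d ρ κ r U b c f W) (hJ : LocFun E P jm)
    (hQ : QPic E 𝒬 𝓗) {M0 : ℝ} (hM0 : ∀ p, |r 0 p| ≤ M0) (k : ℕ) :
    ∀ A : ℕ → Set (ℝ × ℝ), (∀ j ≤ k, IsCompact (A j) ∧ Disjoint (A j) (U j)) → ∀ ε > 0,
      ∃ S, App E 𝒬 𝓗 jm S0 d r b c k A ε (M0 + ∑ j ∈ Finset.range k, C0 * d j) S := by
  induction k with
  | zero =>
    exact fun A _ ε _ => ⟨r 0, h.app_zero hM0 A⟩
  | succ k ih =>
    intro A hA ε hε
    have hst := h.stg k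
    have hI := h.inv (k + 1)
    obtain ⟨hAc, hAU⟩ := hA (k + 1) le_rfl
    obtain ⟨O1, hO1, hAO1, N1, hN1⟩ := hst.lf _ hAc hAU
    obtain ⟨N2, hN2⟩ : ∃ N2 : ℕ, κ k ^ 2 / 4 ^ N2 ≤ ε / 4 := by
      have h1 : Tendsto (fun n : ℕ => κ k ^ 2 * (1 / 4 : ℝ) ^ n) atTop (𝓝 (κ k ^ 2 * 0)) :=
        (tendsto_pow_atTop_nhds_zero_of_lt_one (by norm_num) (by norm_num)).const_mul _
      rw [mul_zero] at h1
      obtain ⟨n, hn⟩ := (h1.eventually (gt_mem_nhds (show (0 : ℝ) < ε / 4 by positivity))).exists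
      refine ⟨n, ?_⟩
      rw [one_div, inv_pow, ← div_eq_mul_inv] at hn
      exact hn.le
    set N := max N1 N2 with hN
    have hclos : ∀ n, IsCompact (closure (W k n)) := fun n =>
      (h.cptE.cthickening (r := ρ k)).of_isClosed_subset isClosed_closure
        (closure_minimal ((hst.near n).trans (thickening_subset_cthickening _ _))
          isClosed_cthickening)
    have hclosU : ∀ n, Disjoint (closure (W k n)) (U (k + 1)) := fun n => by
      obtain ⟨V, hV, hUV, hd⟩ := hst.offU n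
      exact ((hd.closure_right hV).mono_left hUV).symm
    set A' : ℕ → Set (ℝ × ℝ) := fun j =>
      if j = k then A k ∪ A (k + 1) ∪ ⋃ n ∈ Finset.range N, closure (W k n) else A j with hA'
    have hA'k : A' k = A k ∪ A (k + 1) ∪ ⋃ n ∈ Finset.range N, closure (W k n) := by
      simp only [hA', if_true]
    obtain ⟨S, hS⟩ := ih A' (fun j hj => by
      by_cases hjk : j = k
      · subst hjk
        rw [hA'k]
        refine ⟨((hA j (by omega)).1.union hAc).union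
          ((Finset.range N).isCompact_biUnion fun n _ => hclos n), ?_⟩
        rw [disjoint_union_left, disjoint_union_left]
        refine ⟨⟨(hA j (by omega)).2, hAU.mono_right hst.mono⟩, ?_⟩
        rw [disjoint_iUnion₂_left]
        exact fun n _ => (hclosU n).mono_right hst.mono
      · simp only [hA', if_neg hjk]
        exact hA j (by omega)) (ε / 4) (by positivity)
    obtain ⟨OS, hOS, hA'O, hSr⟩ := hS.eq
    rw [hA'k] at hA'O
    have hWO : ∀ n < N, W k n ⊆ OS := fun n hn p hp =>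
      hA'O (Or.inr (mem_iUnion₂.2 ⟨n, Finset.mem_range.2 hn, subset_closure hp⟩))
    have hsub : ∀ j ≤ k, A j ⊆ A' j := by
      intro j hj
      by_cases hjk : j = k
      · subst hjk
        rw [hA'k]
        exact fun p hp => Or.inl (Or.inl hp)
      · simp only [hA', if_neg hjk]; exact subset_rfl
    have hnear : ∀ p ∈ OS ∩ O1, S p + ∑ n ∈ Finset.range N, f k n p = r (k + 1) p := by
      rintro p ⟨hpS, hp1⟩
      by_cases hW : ∃ n, p ∈ W k n
      · obtain ⟨n, hn⟩ := hW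
        have hnN : n < N := by
          by_contra hc
          exact disjoint_left.1 (hN1 n ((le_max_left _ _).trans (not_lt.1 hc))) hp1 hn
        rw [sum_in hst hnN hn, hSr p hpS, in_W hst hn]
      · push Not at hW
        rw [sum_off hst N fun n _ => hW n, hSr p hpS, off_all hst hW, add_zero]
    refine ⟨fun p => S p + ∑ n ∈ Finset.range N, f k n p, ?_, fun p hp => ?_, fun p => ?_, ?_,
      fun i => ?_, fun Q hQ' => ?_, ⟨OS ∩ O1, hOS.inter hO1, ?_, hnear⟩, ?_⟩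
    · exact hS.cfj.add (cfj_sum hst.cfj N)
    · rw [hS.supp p hp, sum_off hst N fun n _ hc => hp (h.rho k (hst.near n hc)), add_zero]
    · rw [Finset.sum_range_succ, ← add_assoc]
      refine (abs_add_le _ _).trans (add_le_add (hS.bdd p) ?_)
      by_cases hW : ∃ n, p ∈ W k n
      · obtain ⟨n, hn⟩ := hW
        by_cases hnN : n < N
        · rw [sum_in hst hnN hn]; exact hst.bd n p
        · rw [sum_in' hst (not_lt.1 hnN) hn, abs_zero]
          exact mul_nonneg h.C00 (h.d0 k)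
      · push Not at hW
        rw [sum_off hst N fun n _ => hW n, abs_zero]
        exact mul_nonneg h.C00 (h.d0 k)
    · -- energy
      have e : (fun p => S p + ∑ n ∈ Finset.range N, f k n p - r (k + 1) p) =
          fun p => (S p - r k p) + (-((r (k + 1) p - r k p) -
            ∑ n ∈ Finset.range N, f k n p)) := by
        funext p; ring
      rw [e]
      have hd1 : ∀ᵐ p : ℝ × ℝ, p ∉ E → DifferentiableAt ℝ (fun p => S p - r k p) p := by
        filter_upwards [cfj_ae_diff hS.cfj, h.diff] with p h1 h2 hpE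
        exact h1.sub (h2 hpE k)
      have hd2 : ∀ᵐ p : ℝ × ℝ, p ∉ E → DifferentiableAt ℝ (fun p => -((r (k + 1) p - r k p) -
            ∑ n ∈ Finset.range N, f k n p)) p := by
        filter_upwards [cfj_ae_diff (cfj_sum hst.cfj N), h.diff] with p h1 h2 hpE
        exact (((h2 hpE (k + 1)).sub (h2 hpE k)).sub h1).neg
      refine (len_add_le h.cptE hd1 hd2).trans ?_
      rw [len_neg (fun p => (r (k + 1) p - r k p) - ∑ n ∈ Finset.range N, f k n p)]
      have h3 : len E (fun p => (r (k + 1) p - r k p) - ∑ n ∈ Finset.range N, f k n p) ≤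
          ENNReal.ofReal (ε / 4) := by
        refine (len_tail h.cptE (h.UE (k + 1)) hst N).trans (ENNReal.ofReal_le_ofReal ?_)
        refine le_trans ?_ hN2
        have : (4 : ℝ) ^ N2 ≤ 4 ^ N := pow_le_pow_right₀ (by norm_num) (le_max_right _ _)
        gcongr
      calc 2 * len E (fun p => S p - r k p) + 2 * len E (fun p => (r (k + 1) p - r k p) -
            ∑ n ∈ Finset.range N, f k n p)
          ≤ 2 * ENNReal.ofReal (ε / 4) + 2 * ENNReal.ofReal (ε / 4) := by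
            gcongr
            exact hS.en
        _ = ENNReal.ofReal ε := by
            rw [← two_mul, ← mul_assoc, show (2 : ℝ≥0∞) * 2 = ENNReal.ofReal 4 by norm_num,
              ← ENNReal.ofReal_mul (by norm_num)]
            congr 1; ring
    · rcases h.germ_conn hWO hSr (hJ.sub i) (hJ.con i) (hJ.ne i) with
        ⟨O', h1, h2, h3⟩ | ⟨hd, O', h1, h2, h3⟩
      · rw [hJ.loc i _ S O' h1 h2 h3]
        exact (hS.jc i).trans (h.cmono k i)
      · rw [hJ.loc i _ _ O' h1 h2 h3]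
        exact hI.jc i hd
    · rcases h.germ_conn hWO hSr (hQ.sub Q hQ') Q.convex_car.isPreconnected Q.nonempty with
        ⟨O', h1, h2, h3⟩ | ⟨hd, O', h1, h2, h3⟩
      · rw [chg_congr h1 h2 fun q hq => h3 q hq.1]
        exact (hS.sq Q hQ').trans (h.bmono k Q)
      · rw [chg_congr h1 h2 fun q hq => h3 q hq.1]
        exact hI.sq Q hQ' hd
    · exact fun p hp => ⟨hA'O (Or.inl (Or.inr hp)), hAO1 hp⟩
    · intro j hj L hL hLA
      by_cases hjk : j = k + 1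
      · subst hjk
        exact (hI.osc L hL (hAU.mono_left hLA)).congr (hOS.inter hO1)
          (fun p hp => ⟨hA'O (Or.inl (Or.inr (hLA hp))), hAO1 (hLA hp)⟩)
          fun q hq => hnear q hq.1
      · have hjk' : j ≤ k := by omega
        obtain ⟨q, hq, hLq⟩ := id hL
        have hLE : L ⊆ E := by rw [hLq]; exact connectedComponentIn_subset _ _
        have hLc : IsPreconnected L := by rw [hLq]; exact isPreconnected_connectedComponentIn
        have hLn : L.Nonempty := ⟨q, by rw [hLq]; exact mem_connectedComponentIn hq⟩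
        rcases h.germ_conn hWO hSr hLE hLc hLn with
          ⟨O', h1, h2, h3⟩ | ⟨hd, O', h1, h2, h3⟩
        · exact (hS.osc j hjk' L hL (hLA.trans (hsub j hjk'))).congr h1 h2 fun q hq => h3 q hq.1
        · refine ((hI.osc L hL hd).congr h1 h2 fun q hq => h3 q hq.1).mono ?_
          have := h.danti hj
          linarith

end Run

end Crest.Agent.R105.Exs5_992
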