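import Crest.Agent.R105.Exs5_992

/-!
# Row 105 (S0138): the limit of the iteration with exempt solids, assembly
-/

set_option autoImplicit false

namespace Crest.Agent.R105.Exs6_992

open Set Filter MeasureTheory Topology Metric
open Crest.Agent.R105.CF_363 Crest.Agent.R105.Stp_722 Crest.Agent.R105.Cq_463
open Crest.Agent.R105.Skp2_257 (Comps Reg)
open Crest.Agent.R105.Exs_992 Crest.Agent.R105.Exs1_992 Crest.Agent.R105.Exs3_992
open Crest.Agent.R105.Exs4_992 Crest.Agent.R105.Exs5_992 Crest.Agent.R105.Exs2_992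
open scoped ENNReal

variable {E : Set (ℝ × ℝ)} {𝒬 : Set Sqr} {𝓗 : Set Hair} {ι : Type} {P : ι → Set (ℝ × ℝ)}
  {jm : (ℝ × ℝ → ℝ) → ι → ℝ}
  {S0 : Set (ℝ × ℝ)} {C0 θ : ℝ} {d ρ κ : ℕ → ℝ}
  {r : ℕ → ℝ × ℝ → ℝ} {U : ℕ → Set (ℝ × ℝ)} {b : ℕ → Sqr → ℝ} {c : ℕ → ι → ℝ}
  {f : ℕ → ℕ → ℝ × ℝ → ℝ} {W : ℕ → ℕ → Set (ℝ × ℝ)}

theorem step_le (h : Run E 𝒬 𝓗 P jm S0 C0 θ d ρ κ r U b c f W) (k : ℕ) (p : ℝ × ℝ) :
    |r (k + 1) p - r k p| ≤ C0 * d k := by
  have hst := h.stg k
  by_cases hW : ∃ n, p ∈ W k n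
  · obtain ⟨n, hn⟩ := hW
    rw [in_W hst hn, add_sub_cancel_left]
    exact hst.bd n p
  · push Not at hW
    rw [off_all hst hW, sub_self, abs_zero]
    exact mul_nonneg h.C00 (h.d0 k)

theorem step_eq (h : Run E 𝒬 𝓗 P jm S0 C0 θ d ρ κ r U b c f W) {k : ℕ} {p : ℝ × ℝ}
    (hp : p ∉ thickening (ρ k) E) : r (k + 1) p = r k p :=
  off_all (h.stg k) fun n hn => hp ((h.stg k).near n hn)

/-- the components of `E` which contain no square are never exempt -/
theorem never (h : Run E 𝒬 𝓗 P jm S0 C0 θ d ρ κ r U b c f W) {L : Set (ℝ × ℝ)}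
    (hL : L ∈ Comps E) (hLQ : ∀ Q ∈ 𝒬, ¬ Q.car ⊆ L) (k : ℕ) : Disjoint L (U k) := by
  obtain ⟨s, -, hs, hU⟩ := (h.inv k).fin
  rw [hU]
  by_contra hc
  obtain ⟨p, hpL, L', hL', hpL'⟩ := not_disjoint_iff.1 hc
  obtain ⟨⟨q', hq', hLq'⟩, Q, hQ, hQL⟩ := hs L' hL'
  obtain ⟨q, hq, hLq⟩ := hL
  have h1 : L = connectedComponentIn E p := by
    rw [hLq] at hpL ⊢
    exact connectedComponentIn_eq hpL
  have h2 : L' = connectedComponentIn E p := by
    rw [hLq'] at hpL' ⊢
    exact connectedComponentIn_eq hpL'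
  exact hLQ Q hQ (by rw [h1, ← h2]; exact hQL)

theorem osc_lim (h : Run E 𝒬 𝓗 P jm S0 C0 θ d ρ κ r U b c f W) {ψ : ℝ × ℝ → ℝ}
    (hψ : ∀ k p, |ψ p - r k p| ≤ 2 * (C0 * d k)) {L : Set (ℝ × ℝ)} (hL : L ∈ Comps E) {k : ℕ}
    (hd : Disjoint L (U k)) : OscLe Eᶜ L ψ ((2 + 4 * C0) * d k) := by
  have h1 := ((h.inv k).osc L hL hd).of_near (g := ψ) isOpen_univ (subset_univ _)
    (fun q _ => hψ k q)
  refine h1.mono (le_of_eq ?_)
  ring

theorem oscLe_of_forall {V L : Set (ℝ × ℝ)} {g : ℝ × ℝ → ℝ} {x : ℝ}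
    (h : ∀ η > 0, OscLe V L g (x + η)) : OscLe V L g x := by
  intro ε hε
  obtain ⟨O, hO, hLO, H⟩ := h (ε / 2) (by linarith) (ε / 2) (by linarith)
  exact ⟨O, hO, hLO, fun q hq q' hq' => (H q hq q' hq').trans (by linarith)⟩

/-- the compact sets on which the truncations are exact -/
def ex (E S0 : Set (ℝ × ℝ)) (U : ℕ → Set (ℝ × ℝ)) (m j : ℕ) : Set (ℝ × ℝ) :=
  (E \ thickening (1 / ((m : ℝ) + 1)) (U j)) ∪ (S0 \ thickening (1 / ((m : ℝ) + 1)) E)

theorem ex_ok (h : Run E 𝒬 𝓗 P jm S0 C0 θ d ρ κ r U b c f W) (m j : ℕ) :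
    IsCompact (ex E S0 U m j) ∧ Disjoint (ex E S0 U m j) (U j) := by
  have hpos : (0 : ℝ) < 1 / ((m : ℝ) + 1) := by positivity
  refine ⟨(h.cptE.diff isOpen_thickening).union (h.cpt.diff isOpen_thickening), ?_⟩
  rw [ex, disjoint_union_left]
  refine ⟨disjoint_left.2 fun p hp hpU => hp.2 (self_subset_thickening hpos _ hpU),
    disjoint_left.2 fun p hp hpU => hp.2 (self_subset_thickening hpos _ (h.UE j hpU))⟩

/-- a component off `U j` is finally contained in the exact sets -/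
theorem ev_ex (h : Run E 𝒬 𝓗 P jm S0 C0 θ d ρ κ r U b c f W) {L : Set (ℝ × ℝ)}
    (hL : L ∈ Comps E) {j : ℕ} (hd : Disjoint L (U j)) :
    ∀ᶠ m in atTop, L ⊆ ex E S0 U m j := by
  obtain ⟨q, hq, hLq⟩ := hL
  have hLE : L ⊆ E := by rw [hLq]; exact connectedComponentIn_subset _ _
  have hLc : IsCompact L := by
    rw [hLq]; exact Crest.Agent.R105.Thin_12.isCompact_cc h.cptE q
  obtain ⟨δ, hδ, hδ'⟩ := hd.exists_thickenings hLc (h.Ucpt j).isClosed
  obtain ⟨N, hN⟩ := exists_nat_one_div_lt hδ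
  filter_upwards [eventually_ge_atTop N] with m hm p hp
  refine Or.inl ⟨hLE hp, fun hc => ?_⟩
  have h1 : (1 : ℝ) / ((m : ℝ) + 1) ≤ 1 / ((N : ℝ) + 1) := by
    apply one_div_le_one_div_of_le (by positivity)
    have : (N : ℝ) ≤ m := by exact_mod_cast hm
    linarith
  exact disjoint_left.1 hδ' (self_subset_thickening hδ _ hp)
    (thickening_mono (h1.trans hN.le) _ hc)

theorem limJ (hQ : QPic E 𝒬 𝓗) (hJ : LocFun E P jm) {C0 θ : ℝ} (hC0 : 0 ≤ C0) (hθ : 0 < θ)
    (hstep : StepJ E 𝒬 𝓗 jm C0 θ) : LimJ E 𝒬 𝓗 jm (C1 C0 θ) := by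
  classical
  intro Φ hΦ hΦc hΦb K hK
  obtain ⟨M0, hM0⟩ := hΦb
  have hE := hQ.cpt
  have hM0' : 0 ≤ M0 := (abs_nonneg _).trans (hM0 0)
  -- constants
  set S0 : Set (ℝ × ℝ) := tsupport Φ ∪ cthickening 1 E with hS0
  have hS0c : IsCompact S0 := IsCompact.union hΦc hE.cthickening
  set vS : ℝ := volume.real S0 with hvS
  have hvS0 : 0 ≤ vS := measureReal_nonneg
  set t : ℝ := (vS + 1) / K with ht
  have htpos : 0 < t := by positivity
  set δ0 : ℝ := min (K ^ 2 / 4) (K / (8 * t)) with hδ0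
  have hδpos : 0 < δ0 := lt_min (by positivity) (by positivity)
  set κ1 : ℝ := min (√(δ0 / 12)) (K / 2) with hκ1
  have hκ1pos : 0 < κ1 := lt_min (Real.sqrt_pos.2 (by positivity)) (by positivity)
  have hκ1a : κ1 ^ 2 ≤ δ0 / 12 := by
    calc κ1 ^ 2 ≤ √(δ0 / 12) ^ 2 := pow_le_pow_left₀ hκ1pos.le (min_le_left _ _) 2
      _ = δ0 / 12 := Real.sq_sqrt (by positivity)
  have hκ1b : κ1 ^ 2 ≤ K ^ 2 / 4 := by
    calc κ1 ^ 2 ≤ (K / 2) ^ 2 := pow_le_pow_left₀ hκ1pos.le (min_le_right _ _) 2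
      _ = K ^ 2 / 4 := by ring
  set κ : ℕ → ℝ := fun n => κ1 / 2 ^ n with hκ
  have hκpos : ∀ n, 0 < κ n := fun n => by simp only [hκ]; positivity
  have hκsq : ∀ n, κ n ^ 2 = κ1 ^ 2 / 4 ^ n := fun n => by
    simp only [hκ, div_pow, ← pow_mul, mul_comm n 2]; rw [pow_mul]; norm_num
  have hκK : ∀ n, κ n ^ 2 ≤ K ^ 2 / 4 ^ (n + 1) := fun n => by
    rw [hκsq]
    calc κ1 ^ 2 / 4 ^ n ≤ (K ^ 2 / 4) / 4 ^ n := by gcongr
      _ = K ^ 2 / 4 ^ (n + 1) := by rw [pow_succ (4 : ℝ) n]; field_simp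
  set d : ℕ → ℝ := fun n => (M0 + 1) / 2 ^ n with hd
  have hdpos : ∀ n, 0 < d n := fun n => by simp only [hd]; positivity
  have hd2 : ∀ n, d (n + 1) = d n / 2 := fun n => by
    simp only [hd]; rw [pow_succ]; field_simp
  have hdtend : Tendsto d atTop (𝓝 0) := by
    have := (tendsto_pow_atTop_nhds_zero_of_lt_one (r := (1 / 2 : ℝ)) (by norm_num)
      (by norm_num)).const_mul (M0 + 1)
    rw [mul_zero] at this
    refine this.congr fun n => ?_
    simp only [hd, one_div, inv_pow]; rfl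
  set ρ : ℕ → ℝ := fun n => 1 / ((n : ℝ) + 1) with hρ
  have hρpos : ∀ n, 0 < ρ n := fun n => by simp only [hρ]; positivity
  have hρS : ∀ n, thickening (ρ n) E ⊆ S0 := fun n => by
    refine Subset.trans ?_ subset_union_right
    refine (thickening_subset_cthickening _ _).trans (cthickening_mono ?_ E)
    simp only [hρ]
    rw [div_le_one (by positivity)]
    linarith [Nat.cast_nonneg (α := ℝ) n]
  -- the run
  obtain ⟨u, hu0, hu⟩ := exists_seq_of
    (fun (n : ℕ) (x : (ℝ × ℝ → ℝ) × Set (ℝ × ℝ) × (Sqr → ℝ) × (ι → ℝ)) =>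
      Inv E 𝒬 𝓗 P jm S0 (d n) x.1 x.2.1 x.2.2.1 x.2.2.2)
    (fun n x y => ∃ (f : ℕ → ℝ × ℝ → ℝ) (W : ℕ → Set (ℝ × ℝ)),
      Stg E 𝒬 𝓗 C0 θ (d n) (ρ n) (κ n) x.1 x.2.1 x.2.2.1 x.2.2.2 y.1 y.2.1 y.2.2.1 y.2.2.2 f W)
    (Φ, ∅, fun Q => ch E univ Φ Q, fun i => jm Φ i)
    (by
      refine ⟨fun A _ _ => ⟨Φ, hΦ, hΦc, ⟨M0, hM0⟩, univ, isOpen_univ, subset_univ _,
        fun _ _ => rfl⟩, ⟨∅, finite_empty, by simp, by simp⟩, fun L _ _ => ?_, ⟨M0, hM0⟩,
        fun p hp => image_eq_zero_of_notMem_tsupport fun hc => hp (Or.inl hc), fun Q _ _ => ?_,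
        summable_ch hQ convex_univ hΦ, fun i _ => le_rfl⟩
      · refine (oscLe_of_bdd' (A := d 0) fun p _ => ?_)
        simp only [hd, pow_zero, div_one]
        linarith [hM0 p]
      · exact (ch_univ Φ Q).ge)
    (by
      rintro n ⟨r, U, b, c⟩ hI
      obtain ⟨r', U', b', c', f, W, h1, h2⟩ := stage hQ hJ hC0 hθ hstep hS0c (hdpos n)
        (hρpos n) (hρS n) (hκpos n) hI
      refine ⟨(r', U', b', c'), ?_, f, W, h2⟩
      rw [hd2]; exact h1)
  choose f W hfW using fun n => (hu n).2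
  set r : ℕ → ℝ × ℝ → ℝ := fun n => (u n).1 with hr
  set U : ℕ → Set (ℝ × ℝ) := fun n => (u n).2.1 with hU
  set b : ℕ → Sqr → ℝ := fun n => (u n).2.2.1 with hb
  set c : ℕ → ι → ℝ := fun n => (u n).2.2.2 with hc
  have hr0 : r 0 = Φ := by simp only [hr, hu0]
  have hb0 : b 0 = fun Q => ch E univ Φ Q := by simp only [hb, hu0]
  have hc0 : c 0 = fun i => jm Φ i := by simp only [hc, hu0]
  have hU0 : U 0 = ∅ := by simp only [hU, hu0]
  have hrun : Run E 𝒬 𝓗 P jm S0 C0 θ d ρ κ r U b c f W :=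
    ⟨fun n => (hu n).1, hfW, hE, hS0c, hρS, fun n => by rw [hd2]; linarith [hdpos n],
      fun n => (hdpos n).le, hC0, hU0, by rw [hr0]; exact hΦ⟩
  -- the limit function
  have hsup : ∀ p n j, |r (n + j) p - r n p| ≤ 2 * (C0 * d n) - 2 * (C0 * d (n + j)) := by
    intro p n j
    induction j with
    | zero => simp
    | succ j ih =>
      have h1 := step_le hrun (n + j) p
      have h2 : |r (n + (j + 1)) p - r n p| ≤
          |r (n + j + 1) p - r (n + j) p| + |r (n + j) p - r n p| := by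
        have := abs_add_le (r (n + j + 1) p - r (n + j) p) (r (n + j) p - r n p)
        simpa [add_assoc] using this
      have h3 : d (n + (j + 1)) = d (n + j) / 2 := hd2 (n + j)
      rw [h3]; linarith
  have hCd : ∀ n, 0 ≤ C0 * d n := fun n => mul_nonneg hC0 (hdpos n).le
  have hcauchy : ∀ p, CauchySeq fun n => r n p := by
    intro p
    refine cauchySeq_of_le_tendsto_0 (fun n => 4 * (C0 * d n)) (fun n m N hn hm => ?_) ?_
    · obtain ⟨i, rfl⟩ := Nat.exists_eq_add_of_le hn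
      obtain ⟨j, rfl⟩ := Nat.exists_eq_add_of_le hm
      rw [Real.dist_eq]
      have h1 := hsup p N i
      have h2 := hsup p N j
      have h3 := hCd (N + i)
      have h4 := hCd (N + j)
      have h5 : |r (N + i) p - r (N + j) p| ≤ |r (N + i) p - r N p| + |r (N + j) p - r N p| := by
        have := abs_sub (r (N + i) p - r N p) (r (N + j) p - r N p)
        simpa using this
      linarith
    · simpa using (hdtend.const_mul C0).const_mul 4
  choose ψ hψ using fun p => cauchySeq_tendsto_of_complete (hcauchy p)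
  have hψn : ∀ n p, |ψ p - r n p| ≤ 2 * (C0 * d n) := by
    intro n p
    have h1 : Tendsto (fun j => |r (n + j) p - r n p|) atTop (𝓝 |ψ p - r n p|) := by
      have : Tendsto (fun j => r (n + j) p) atTop (𝓝 (ψ p)) := by
        have := (tendsto_add_atTop_iff_nat n).mpr (hψ p)
        refine this.congr fun j => by rw [add_comm]
      exact (this.sub_const _).abs
    refine le_of_tendsto' h1 fun j => ?_
    have := hsup p n j
    linarith [hCd (n + j)]
  have hψ0 : ∀ q ∉ S0, ψ q = 0 := by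
    intro q hq
    refine tendsto_nhds_unique (hψ q) ?_
    refine tendsto_const_nhds.congr fun n => ((hrun.inv n).supp q hq).symm
  -- eventual constancy of the stage functions
  have hevr : ∀ A, IsCompact A → A ⊆ Eᶜ → ∃ N : ℕ, ∀ n : ℕ, N ≤ n → ∀ p ∈ A,
      p ∉ thickening (1 / ((n : ℝ) + 1)) E ∧ r n p = ψ p := by
    intro A hA hAE
    have hdis : Disjoint A E := disjoint_left.mpr fun p hp => hAE hp
    obtain ⟨s, hs, hs'⟩ := hdis.symm.exists_thickenings hE hA.isClosed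
    obtain ⟨N, hN⟩ := exists_nat_one_div_lt hs
    have hAW : ∀ n : ℕ, N ≤ n → ∀ p ∈ A, p ∉ thickening (1 / ((n : ℝ) + 1)) E := by
      intro n hn p hp hpW
      have h1 : (1 : ℝ) / ((n : ℝ) + 1) ≤ 1 / ((N : ℝ) + 1) := by
        apply one_div_le_one_div_of_le (by positivity)
        have : (N : ℝ) ≤ n := by exact_mod_cast hn
        linarith
      have h2 : p ∈ thickening s E := thickening_mono (h1.trans hN.le) E hpW
      exact disjoint_left.mp hs' h2 (self_subset_thickening hs A hp)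
    have hconst : ∀ j, ∀ p ∈ A, r (N + j) p = r N p := by
      intro j p hp
      induction j with
      | zero => rfl
      | succ j ih => rw [← ih]; exact step_eq hrun (hAW (N + j) (by omega) p hp)
    refine ⟨N, fun n hn p hp => ⟨hAW n hn p hp, ?_⟩⟩
    have h1 : ψ p = r N p := by
      refine tendsto_nhds_unique (hψ p) ?_
      refine tendsto_const_nhds.congr' ?_
      filter_upwards [eventually_ge_atTop N] with m hm
      obtain ⟨j, rfl⟩ := Nat.exists_eq_add_of_le hm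
      exact (hconst j p hp).symm
    obtain ⟨j, rfl⟩ := Nat.exists_eq_add_of_le hn
    rw [hconst j p hp, h1]
  -- the truncations
  have hS : ∀ m : ℕ, ∃ S, Run.App E 𝒬 𝓗 jm S0 d r b c m (ex E S0 U m) (δ0 / 12 / 4 ^ m)
      (M0 + ∑ j ∈ Finset.range m, C0 * d j) S ∧ (m = 0 → S = Φ) := by
    intro m
    by_cases hm : m = 0
    · subst hm
      exact ⟨r 0, hrun.app_zero (by rw [hr0]; exact hM0) _, fun _ => hr0⟩
    · obtain ⟨S, h1⟩ := hrun.app hJ hQ (M0 := M0) (by rw [hr0]; exact hM0) m (ex E S0 U m)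
        (fun j _ => ex_ok hrun m j) (δ0 / 12 / 4 ^ m) (by positivity)
      exact ⟨S, h1, fun h => absurd h hm⟩
  choose S hS hSz using hS
  have hS0' : S 0 = Φ := hSz 0 rfl
  have hsumd : ∀ m, ∑ j ∈ Finset.range m, C0 * d j = 2 * (C0 * d 0) - 2 * (C0 * d m) := by
    intro m
    induction m with
    | zero => simp
    | succ m ih => rw [Finset.sum_range_succ, ih, hd2]; ring
  have hSb : ∀ m p, |S m p| ≤ M0 + 2 * (C0 * d 0) := by
    intro m p
    refine ((hS m).bdd p).trans ?_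
    rw [hsumd]
    linarith [hCd m]
  have hψb : ∀ p, |ψ p| ≤ M0 + 2 * (C0 * d 0) := by
    intro p
    have h1 := hψn 0 p
    rw [hr0] at h1
    have h2 := hM0 p
    have h3 : |ψ p| ≤ |ψ p - Φ p| + |Φ p| := by
      have := abs_add_le (ψ p - Φ p) (Φ p); simpa using this
    linarith
  have hevS : ∀ A, IsCompact A → A ⊆ Eᶜ → ∃ N, ∀ n ≥ N, ∀ p ∈ A, S n p = ψ p := by
    intro A hA hAE
    obtain ⟨N, hN⟩ := hevr A hA hAE
    refine ⟨N, fun n hn p hp => ?_⟩
    obtain ⟨h1, h2⟩ := hN n hn p hp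
    by_cases hpS : p ∈ S0
    · obtain ⟨O, -, hO2, hO3⟩ := (hS n).eq
      rw [hO3 p (hO2 (Or.inr ⟨hpS, h1⟩)), h2]
    · rw [(hS n).supp p hpS, hψ0 p hpS]
  -- energies
  have hen : ∀ n, (∫ p in Eᶜ, g2 (fun q => S (n + 1) q - S n q) p) ≤ δ0 / 4 ^ n := by
    intro n
    have hcf : CFJ 𝓗 univ fun q => S (n + 1) q - S n q := (hS (n + 1)).cfj.sub (hS n).cfj
    have h0 : ∀ q ∉ S0, (fun q => S (n + 1) q - S n q) q = 0 := fun q hq => by
      simp [(hS (n + 1)).supp q hq, (hS n).supp q hq]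
    rw [← ENNReal.ofReal_le_ofReal_iff (by positivity), ← len_eq hcf hS0c h0]
    have e : (fun q => S (n + 1) q - S n q) = fun q =>
        ((S (n + 1) q - r (n + 1) q) + (r (n + 1) q - r n q)) + (-(S n q - r n q)) := by
      funext q; ring
    have hdif : ∀ m, ∀ᵐ p : ℝ × ℝ, p ∉ E → DifferentiableAt ℝ (fun q => S m q - r m q) p := by
      intro m
      filter_upwards [cfj_ae_diff (hS m).cfj, hrun.diff] with p h1 h2 hpE
      exact h1.sub (h2 hpE m)
    have hdif2 : ∀ᵐ p : ℝ × ℝ, p ∉ E →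
        DifferentiableAt ℝ (fun q => r (n + 1) q - r n q) p := by
      filter_upwards [hrun.diff] with p h2 hpE
      exact (h2 hpE (n + 1)).sub (h2 hpE n)
    have hdif3 : ∀ᵐ p : ℝ × ℝ, p ∉ E → DifferentiableAt ℝ
        (fun q => (S (n + 1) q - r (n + 1) q) + (r (n + 1) q - r n q)) p := by
      filter_upwards [hdif (n + 1), hdif2] with p h1 h2 hpE
      exact (h1 hpE).add (h2 hpE)
    have hdif4 : ∀ᵐ p : ℝ × ℝ, p ∉ E → DifferentiableAt ℝ (fun q => -(S n q - r n q)) p := by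
      filter_upwards [hdif n] with p h1 hpE
      exact (h1 hpE).neg
    have hB : len E (fun q => r (n + 1) q - r n q) ≤ ENNReal.ofReal (δ0 / 12 / 4 ^ n) := by
      have h1 := len_tail hE (hrun.UE (n + 1)) (hrun.stg n) 0
      simp only [Finset.range_zero, Finset.sum_empty, sub_zero, pow_zero, div_one] at h1
      refine h1.trans (ENNReal.ofReal_le_ofReal ?_)
      rw [hκsq]
      gcongr
    rw [e]
    calc len E (fun q => ((S (n + 1) q - r (n + 1) q) + (r (n + 1) q - r n q)) +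
          (-(S n q - r n q)))
        ≤ 2 * len E (fun q => (S (n + 1) q - r (n + 1) q) + (r (n + 1) q - r n q)) +
            2 * len E (fun q => -(S n q - r n q)) := len_add_le hE hdif3 hdif4
      _ ≤ 2 * (2 * len E (fun q => S (n + 1) q - r (n + 1) q) +
            2 * len E (fun q => r (n + 1) q - r n q)) +
            2 * len E (fun q => S n q - r n q) := by
          rw [len_neg (fun q => S n q - r n q)]
          gcongr
          exact len_add_le hE (hdif (n + 1)) hdif2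
      _ ≤ 2 * (2 * ENNReal.ofReal (δ0 / 12 / 4 ^ n) + 2 * ENNReal.ofReal (δ0 / 12 / 4 ^ n)) +
            2 * ENNReal.ofReal (δ0 / 12 / 4 ^ n) := by
          gcongr
          · refine (hS (n + 1)).en.trans (ENNReal.ofReal_le_ofReal ?_)
            have : (4 : ℝ) ^ n ≤ 4 ^ (n + 1) := pow_le_pow_right₀ (by norm_num) (Nat.le_succ n)
            gcongr
          · exact (hS n).en
      _ ≤ ENNReal.ofReal (δ0 / 4 ^ n) := by
          have e2 : ∀ x : ℝ, 0 ≤ x → 2 * (2 * ENNReal.ofReal x + 2 * ENNReal.ofReal x) +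
              2 * ENNReal.ofReal x = ENNReal.ofReal (10 * x) := fun x hx => by
            rw [ENNReal.ofReal_mul (by norm_num : (0 : ℝ) ≤ 10),
              show ENNReal.ofReal 10 = 10 by norm_num]
            ring
          rw [e2 _ (by positivity)]
          refine ENNReal.ofReal_le_ofReal ?_
          have : 0 ≤ δ0 / 4 ^ n := by positivity
          have e3 : 10 * (δ0 / 12 / 4 ^ n) = (10 / 12) * (δ0 / 4 ^ n) := by ring
          rw [e3]; linarith
  obtain ⟨hlim, hl1, hl2⟩ := lim_gen hE hQ.hsub hS0c (C := M0 + 2 * (C0 * d 0)) hδpos.le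
    (fun m => (hS m).cfj) (fun m => (hS m).supp) hψ0 hSb hψb hevS hen
  -- charges
  choose a ha0 has hale hab using fun n => (hrun.stg n).ba
  choose a' ha0' has' hale' hab' using fun n => (hrun.stg n).ca
  obtain ⟨δ, hδ0', hδ1, hδ2, hδ3⟩ := l2_sum (fun n (Q : 𝒬) => a n Q.1) K has (fun n => by
    exact (hale n).trans (hκK n))
  obtain ⟨β, hβ0, hβ1, hβ2, hβ3⟩ := l2_sum a' K has' (fun n => by
    exact (hale' n).trans (hκK n))
  set δ' : Sqr → ℝ := fun Q => if hQ : Q ∈ 𝒬 then δ ⟨Q, hQ⟩ else 0 with hδ'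
  have hδ'v : ∀ Q : 𝒬, δ' Q.1 = δ Q := fun Q => by simp only [hδ', dif_pos Q.2]
  have hbm : ∀ m Q, b m Q = ch E univ Φ Q + ∑ n ∈ Finset.range m, a n Q := by
    intro m Q
    induction m with
    | zero => simp [hb0]
    | succ m ih => rw [Finset.sum_range_succ, hab m Q, ih]; ring
  have hcm : ∀ m i, c m i = jm Φ i + ∑ n ∈ Finset.range m, a' n i := by
    intro m i
    induction m with
    | zero => simp [hc0]
    | succ m ih => rw [Finset.sum_range_succ, hab' m i, ih]; ring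
  have hbδ : ∀ m, ∀ Q ∈ 𝒬, b m Q ≤ ch E univ Φ Q + δ' Q := by
    intro m Q hQ'
    rw [hbm]
    have := hδ1 ⟨Q, hQ'⟩ m
    rw [← hδ'v] at this
    exact add_le_add_right this _
  have hnn : ∀ Q ∈ 𝒬, 0 ≤ ch E univ Φ Q + δ' Q := fun Q hQ' => by
    have h1 := hδ0' ⟨Q, hQ'⟩
    rw [← hδ'v] at h1
    exact add_nonneg (ch_nonneg _ _ _ _) h1
  -- oscillations of components which are never exempt
  have hfree : ∀ L ∈ Comps E, (∀ k, Disjoint L (U k)) → OscLe Eᶜ L ψ 0 ∧
      ∀ η > 0, ∀ᶠ m in atTop, OscLe Eᶜ L (S m) η := by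
    intro L hL hLU
    refine ⟨oscLe_of_forall fun η hη => ?_, fun η hη => ?_⟩
    · have h1 : Tendsto (fun k => (2 + 4 * C0) * d k) atTop (𝓝 ((2 + 4 * C0) * 0)) :=
        hdtend.const_mul _
      rw [mul_zero] at h1
      obtain ⟨k, hk⟩ := (h1.eventually (gt_mem_nhds hη)).exists
      exact (osc_lim hrun hψn hL (hLU k)).mono (by linarith)
    · have h1 : Tendsto (fun k => 2 * d k) atTop (𝓝 (2 * 0)) := hdtend.const_mul _
      rw [mul_zero] at h1
      obtain ⟨k, hk⟩ := (h1.eventually (gt_mem_nhds hη)).exists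
      filter_upwards [ev_ex hrun hL (hLU k), eventually_ge_atTop k] with m hm hkm
      exact ((hS m).osc k hkm L hL hm).mono hk.le
  refine ⟨S, ψ, δ', β, hlim, hS0', fun Q => ?_, ?_, ?_, fun m Q hQ' => ?_, hβ0, hβ2, hβ3,
    fun m i => ?_, fun L hL hLQ => hfree L hL (never hrun hL hLQ), fun L hL Q hQ' hQL => ?_,
    ?_, ?_⟩
  · by_cases hQ' : Q ∈ 𝒬
    · rw [show δ' Q = δ ⟨Q, hQ'⟩ from hδ'v ⟨Q, hQ'⟩]; exact hδ0' _
    · simp only [hδ', dif_neg hQ', le_refl]
  · simp only [hδ'v]; exact hδ2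
  · simp only [hδ'v]; exact hδ3
  · rw [ch_univ]
    exact ((hS m).sq Q hQ').trans (hbδ m Q hQ')
  · refine ((hS m).jc i).trans ?_
    rw [hcm]
    exact add_le_add_right (hβ1 i m) _
  · -- solids
    have hC1 : 0 ≤ C1 C0 θ := by unfold C1; positivity
    have hX := hnn Q hQ'
    by_cases hall : ∀ k, Disjoint L (U k)
    · obtain ⟨h1, h2⟩ := hfree L hL hall
      refine ⟨h1.mono (mul_nonneg hC1 hX), fun η hη => ?_⟩
      filter_upwards [h2 η hη] with m hm
      exact hm.mono (by linarith [mul_nonneg hC1 hX])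
    · push Not at hall
      classical
      set k0 := Nat.find hall with hk0
      have hk0s : ¬ Disjoint L (U k0) := Nat.find_spec hall
      have hk0p : k0 ≠ 0 := by
        intro h0
        rw [h0, hU0] at hk0s
        exact hk0s (disjoint_empty _)
      obtain ⟨k, hk⟩ := Nat.exists_eq_succ_of_ne_zero hk0p
      have hdk : Disjoint L (U k) := by
        by_contra hc
        exact Nat.find_min hall (m := k) (by omega) hc
      obtain ⟨q, hq, hLq⟩ := id hL
      have hLE : L ⊆ E := by rw [hLq]; exact connectedComponentIn_subset _ _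
      have hLc : IsPreconnected L := by rw [hLq]; exact isPreconnected_connectedComponentIn
      have hLU : L ⊆ U (k + 1) := by
        rcases (hrun.stg k).dich L hLE hLc with h1 | h1
        · exact h1
        · exact absurd h1 (by rw [← Nat.succ_eq_add_one, ← hk]; exact hk0s)
      have hQU : ¬ Disjoint Q.car (U (k + 1)) := by
        obtain ⟨p, hp⟩ := Q.nonempty
        exact not_disjoint_iff.2 ⟨p, hp, hLU (hQL hp)⟩
      have hQd : Disjoint Q.car (U k) := hdk.mono_left hQL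
      have hθd : θ * d k ≤ ch E univ Φ Q + δ' Q := by
        rcases (hrun.stg k).ex Q hQ' hQU with h1 | h1
        · exact absurd hQd h1
        · exact (h1.trans ((hrun.inv k).sq Q hQ' hQd)).trans (hbδ k Q hQ')
      set X := ch E univ Φ Q + δ' Q with hXdef
      have hdX : d k ≤ X / θ := by
        rw [le_div_iff₀ hθ]; linarith
      have hXθ : 0 ≤ X / θ := by positivity
      have hC1X : C1 C0 θ * X = X + 4 * (X / θ) + 4 * C0 * (X / θ) := by
        unfold C1; ring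
      have hC0X : C0 * d k ≤ C0 * (X / θ) := mul_le_mul_of_nonneg_left hdX hC0
      have hC0X' : 0 ≤ C0 * (X / θ) := by positivity
      refine ⟨(osc_lim hrun hψn hL hdk).mono ?_, fun η hη => ?_⟩
      · rw [hC1X]; linarith
      · filter_upwards [ev_ex hrun hL hdk, eventually_ge_atTop k] with m hm hkm
        refine ((hS m).osc k hkm L hL hm).mono ?_
        rw [hC1X]; linarith
  · rw [← hS0']
    refine hl1.trans ?_
    have : δ0 ≤ K ^ 2 / 4 := min_le_left _ _
    linarith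
  · rw [← hS0']
    refine (hl2 t htpos).trans ?_
    have h1 : t * (4 * δ0) ≤ K / 2 := by
      have h2 : δ0 ≤ K / (8 * t) := min_le_right _ _
      calc t * (4 * δ0) ≤ t * (4 * (K / (8 * t))) := by gcongr
        _ = K / 2 := by field_simp; ring
    have h2 : (1 / (2 * t)) * vS ≤ K / 2 := by
      rw [ht]
      have : 1 / (2 * ((vS + 1) / K)) * vS = (K / 2) * (vS / (vS + 1)) := by field_simp
      rw [this]
      have h3 : vS / (vS + 1) ≤ 1 := by rw [div_le_one (by positivity)]; linarith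
      nlinarith [hK]
    linarith

/-- **LIMJ** -/
theorem limj : LIMJ := fun _ _ _ hQ _ _ _ hJ _ _ hC0 hθ hstep => limJ hQ hJ hC0 hθ hstep

end Crest.Agent.R105.Exs6_992
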