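import Crest.Agent.R105.Exs6_992

/-!
# Row 105 (S0138): `LIMQ` (F10), corollary of `LIMJ` without functionals
-/

set_option autoImplicit false

namespace Crest.Agent.R105.Exs7_992

open Set Filter MeasureTheory Topology Metric
open Crest.Agent.R105.CF_363 Crest.Agent.R105.Stp_722 Crest.Agent.R105.Cq_463
open Crest.Agent.R105.Skp2_257 (Comps Reg)
open Crest.Agent.R105.Exs_992

variable {E : Set (ℝ × ℝ)} {𝒬 : Set Sqr} {𝓗 : Set Hair} {ι : Type} {P : ι → Set (ℝ × ℝ)}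
  {jm : (ℝ × ℝ → ℝ) → ι → ℝ}

/-- `StepQ` gives `StepJ` when every functional `jm` increases by at most a small `ℓ²` sequence;
here without any functional. -/
theorem stepJ_of_stepQ (hQ : QPic E 𝒬 𝓗) {C0 θ : ℝ} (h : StepQ E 𝒬 𝓗 C0 θ)
    (jm : (ℝ × ℝ → ℝ) → Empty → ℝ) : StepJ E 𝒬 𝓗 jm C0 θ := by
  intro r hr hrc hrb E' hE' hEE hEd d hd hP hQ' W hW hEW κ hκ
  obtain ⟨φ, h1, h2, h3, h4, h5⟩ := h r hr hrc hrb E' hE' hEE hEd d hd hP hQ' W hW hEW κ hκ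
  have hsum := summable_ch hQ convex_univ h1
  refine ⟨φ, h1, h2, h3, ?_, ⟨fun Q => ch E univ φ Q, fun Q => ch_nonneg _ _ _ _, hsum, ?_,
    fun Q _ => ?_⟩, ⟨fun _ => 0, fun _ => le_rfl, by simp, ?_,
    fun i => i.elim⟩, h5⟩
  · have h6 : En (univ \ E) φ ≤ TQ E univ 𝒬 φ := En_le_TQ
    rw [← compl_eq_univ_sdiff] at h6
    exact h6.trans h4
  · exact (Ch_le_TQ (E := E) (W := univ) (𝒬 := 𝒬) (f := φ)).trans h4
  · exact chg_add (CFJ.fin hQ hr _) (CFJ.fin hQ h1 _)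
  · simp only [tsum_empty]; positivity

/-- `LimJ` contains `LimQ` -/
theorem limQ_of_limJ {C1 : ℝ} (h : LimJ E 𝒬 𝓗 jm C1) : LimQ E 𝒬 𝓗 C1 := by
  intro Φ h1 h2 h3 κ hκ
  obtain ⟨S, ψ, δ, β, hL, -, e1, e2, e3, e4, -, -, -, -, e5, e6, e7, e8⟩ := h Φ h1 h2 h3 κ hκ
  exact ⟨S, ψ, δ, hL, e1, e2, e3, e4, fun P hP hPQ => (e5 P hP hPQ).1,
    fun P hP Q hQ hQP => (e6 P hP Q hQ hQP).1, e7, e8⟩

/-- **LIMQ for every `QPic`** -/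
theorem limQ (hQ : QPic E 𝒬 𝓗) {C0 θ : ℝ} (hC0 : 0 ≤ C0) (hθ : 0 < θ)
    (h : StepQ E 𝒬 𝓗 C0 θ) : LimQ E 𝒬 𝓗 (C1 C0 θ) :=
  limQ_of_limJ (Exs6_992.limJ (P := fun i : Empty => i.elim) (jm := fun _ i => i.elim) hQ
    ⟨fun i => i.elim, fun i => i.elim, fun i => i.elim, fun i => i.elim⟩ hC0 hθ
    (stepJ_of_stepQ hQ h _))

/-- **LIMQ** (F10, T5) -/
theorem limq : LIMQ := fun _ _ _ hS _ _ hC0 hθ h => limQ hS.q hC0 hθ h

end Crest.Agent.R105.Exs7_992
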