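import Crest.Agent.R105.Famq1_306
import Crest.Agent.R105.Cq7_463

/-!
# Row 105 (S0138, PP with solids), FAMQ in ONE BOX ((B2) (B3) of 247 #10156); helper306

Tests of small energy in ONE fixed open set `N₀` (a box) are enough: 463's `TQ_cut_le` localises
them to every neighbourhood (`nullNQ_of_box`, `nullLo_of_box`, `nullUp_of_box`).  `fam_null_box`:
every solid of `g` null at one end and, for every compact subfamily `g'`, the bound
`m(g') ≤ K · (area of the squares CONTAINED in ⋃ g')` (tests in `N₀`), give `NullNQ g`.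
-/

set_option autoImplicit false

namespace Crest.Agent.R105.Famq_306

open Set Filter MeasureTheory Topology Metric
open CF_363 Stp_722 Cq_463 Thin_891 Nal_649
open Skp2_257 (Comps Lo Up)
open scoped NNReal

variable {E W N N' N₀ : Set (ℝ × ℝ)} {𝒬 : Set Sqr} {𝓗 : Set Hair} {g g' : Set (Set (ℝ × ℝ))}
  {Bm Bp ε ε' a b B : ℝ} {z z' zm zp : ℝ × ℝ → ℝ} {P : Set (ℝ × ℝ)}

/-- Lipschitz cut-off functions -/
theorem exists_chi {G N : Set (ℝ × ℝ)} (hG : IsCompact G) (hN : IsOpen N) (hGN : G ⊆ N) :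
    ∃ (χ : ℝ × ℝ → ℝ) (ℓ : ℝ≥0), LipschitzWith ℓ χ ∧ (∀ p, 0 ≤ χ p ∧ χ p ≤ 1) ∧
      (∃ O, IsOpen O ∧ G ⊆ O ∧ ∀ p ∈ O, χ p = 1) ∧ IsCompact (tsupport χ) ∧ tsupport χ ⊆ N := by
  rcases G.eq_empty_or_nonempty with rfl | hne
  · have h0 : tsupport (fun _ : ℝ × ℝ => (0 : ℝ)) = ∅ := by
      rw [tsupport_eq_empty_iff]; rfl
    refine ⟨fun _ => 0, 0, LipschitzWith.const _, fun p => ⟨le_rfl, zero_le_one⟩,
      ⟨∅, isOpen_empty, le_rfl, fun p hp => absurd hp (notMem_empty p)⟩, ?_, ?_⟩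
    · rw [h0]; exact isCompact_empty
    · rw [h0]; exact empty_subset _
  obtain ⟨δ, hδ, hδN⟩ := hG.exists_cthickening_subset_open hN hGN
  set r := δ / 2 with hr
  have hr0 : 0 < r := by positivity
  have hsupp : tsupport (fun p => max 0 (min 1 (2 - Metric.infDist p G / r))) ⊆
      Metric.cthickening δ G := by
    refine closure_minimal ?_ Metric.isClosed_cthickening
    intro p hp
    by_contra hcon
    apply hp
    have hcon2 : δ ≤ Metric.infDist p G := by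
      by_contra hlt
      exact hcon (Metric.thickening_subset_cthickening _ _
        ((Metric.mem_thickening_iff_infDist_lt hne).mpr (not_le.mp hlt)))
    have h1 : 2 ≤ Metric.infDist p G / r := by
      rw [le_div_iff₀ hr0]; linarith
    have h2 : min 1 (2 - Metric.infDist p G / r) ≤ 0 := (min_le_right _ _).trans (by linarith)
    exact max_eq_left h2
  refine ⟨fun p => max 0 (min 1 (2 - Metric.infDist p G / r)), (1 / r).toNNReal, ?_, fun p =>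
    ⟨le_max_left _ _, max_le zero_le_one (min_le_left _ _)⟩, ?_, ?_, ?_⟩
  · refine LipschitzWith.const_max (LipschitzWith.const_min ?_ 1) 0
    refine LipschitzWith.of_dist_le_mul fun p q => ?_
    have h1 := (Metric.lipschitz_infDist_pt G).dist_le_mul p q
    rw [NNReal.coe_one, one_mul] at h1
    rw [Real.coe_toNNReal _ (by positivity), Real.dist_eq]
    have h2 : 2 - Metric.infDist p G / r - (2 - Metric.infDist q G / r) =
        (1 / r) * (Metric.infDist q G - Metric.infDist p G) := by ring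
    rw [h2, abs_mul, abs_of_pos (by positivity : 0 < 1 / r), abs_sub_comm, ← Real.dist_eq]
    exact mul_le_mul_of_nonneg_left h1 (by positivity)
  · refine ⟨Metric.thickening r G, Metric.isOpen_thickening,
      Metric.self_subset_thickening hr0 G, fun p hp => ?_⟩
    rw [Metric.mem_thickening_iff_infDist_lt hne] at hp
    have h1 : Metric.infDist p G / r ≤ 1 := by rw [div_le_one hr0]; exact hp.le
    simp only
    rw [min_eq_left (by linarith), max_eq_right zero_le_one]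
  · exact hG.cthickening.of_isClosed_subset (isClosed_tsupport _) hsupp
  · exact hsupp.trans hδN

/-- the picture and the box `N₀` lie in the strip `a < y < b` -/
structure BoxN (E N₀ : Set (ℝ × ℝ)) (a b : ℝ) : Prop where
  ab : a ≤ b
  e : ∀ p ∈ E, a < p.2 ∧ p.2 < b
  n : ∀ p ∈ N₀, a < p.2 ∧ p.2 < b

/-- **LOC**: one half is multiplied by a Lipschitz cut-off. -/
theorem half_loc (hE : QPic E 𝒬 𝓗) (hB : BoxN E N₀ a b) (hW : Slab W)
    (h : HalfQ E 𝒬 𝓗 W N₀ ε z) {χ : ℝ × ℝ → ℝ} {ℓ : ℝ≥0} (hχ : LipschitzWith ℓ χ)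
    (hχ1 : ∀ p, 0 ≤ χ p ∧ χ p ≤ 1) (hχc : IsCompact (tsupport χ)) (hχN : tsupport χ ⊆ N) :
    HalfQ E 𝒬 𝓗 W N (cutC ℓ (b - a) * ε) (fun p => χ p * z p) where
  cf := (Cc.mul' (CFJ_of_lipschitz hχ fun p => abs_le.2 ⟨by linarith [(hχ1 p).1], (hχ1 p).2⟩)
    (half_cc h)).cfj
  rg := fun p => ⟨mul_nonneg (hχ1 p).1 (h.rg p).1,
    mul_le_one₀ (hχ1 p).2 (h.rg p).1 (h.rg p).2⟩
  sp := ⟨tsupport χ, hχc, hχN, fun p _ hp => by rw [image_eq_zero_of_notMem_tsupport hp, zero_mul]⟩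
  en := by
    obtain ⟨S, hS, hSN, h0⟩ := h.sp
    have hV : Van W a b z := ⟨fun p hp hpab => h0 p hp fun hpS => by
      have := hB.n p (hSN hpS)
      rcases hpab with h | h <;> linarith⟩
    refine (TQ_cut_le hE hW (half_cc h) hB.e hB.ab hV hχ
      fun p => abs_le.2 ⟨by linarith [(hχ1 p).1], (hχ1 p).2⟩).trans ?_
    refine mul_le_mul_of_nonneg_left h.en ?_
    unfold cutC; positivity

/-- tests in one box are enough: pairs -/
theorem nullNQ_of_box (hE : QPic E 𝒬 𝓗) (hB : BoxN E N₀ a b) (hg : FamQ E g Bm Bp)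
    (h : ∀ ε > 0, ∃ zm zp, PairQ E 𝒬 𝓗 g Bm Bp N₀ ε zm zp) : NullNQ E 𝒬 𝓗 g Bm Bp := by
  intro N hN hgN ε hε
  obtain ⟨χ, ℓ, hχ, hχ1, ⟨O, hO, hgO, hO1⟩, hχc, hχN⟩ := exists_chi hg.cpt hN hgN
  have hC : 0 < cutC ℓ (b - a) := by unfold cutC; positivity
  obtain ⟨zm, zp, hz⟩ := h (ε / cutC ℓ (b - a)) (by positivity)
  have h1 := half_loc hE hB (slab_lo Bm) hz.m hχ hχ1 hχc hχN
  have h2 := half_loc hE hB (slab_up Bp) hz.p hχ hχ1 hχc hχN
  rw [mul_div_cancel₀ _ hC.ne'] at h1 h2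
  refine ⟨_, _, h1, h2, fun P hP => ?_⟩
  obtain ⟨O', hO', hPO', hk⟩ := hz.key P hP
  refine ⟨O' ∩ O, hO'.inter hO, subset_inter hPO' ((subset_sUnion_of_mem hP).trans hgO),
    fun p hp hpl q hq hqu => ?_⟩
  rw [hO1 p hp.1.2, hO1 q hq.1.2, one_mul, one_mul]
  exact hk p ⟨hp.1.1, hp.2⟩ hpl q ⟨hq.1.1, hq.2⟩ hqu

/-- one end of one component is null in the box -/
def BoxLo (E : Set (ℝ × ℝ)) (𝒬 : Set Sqr) (𝓗 : Set Hair) (N₀ P : Set (ℝ × ℝ)) (B : ℝ) : Prop :=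
  ∀ ε > 0, ∃ z, HalfQ E 𝒬 𝓗 (Lo B) N₀ ε z ∧ OneNear E (Lo B) (P ∩ {p | p.2 ≤ B}) z

/-- one end of one component is null in the box -/
def BoxUp (E : Set (ℝ × ℝ)) (𝒬 : Set Sqr) (𝓗 : Set Hair) (N₀ P : Set (ℝ × ℝ)) (B : ℝ) : Prop :=
  ∀ ε > 0, ∃ z, HalfQ E 𝒬 𝓗 (Up B) N₀ ε z ∧ OneNear E (Up B) (P ∩ {p | B ≤ p.2}) z

theorem nullLo_of_box (hE : QPic E 𝒬 𝓗) (hB : BoxN E N₀ a b) (hP : IsCompact P)
    (h : BoxLo E 𝒬 𝓗 N₀ P B) : NullLo E 𝒬 𝓗 P B := by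
  intro N hN hPN ε hε
  obtain ⟨χ, ℓ, hχ, hχ1, ⟨O, hO, hPO, hO1⟩, hχc, hχN⟩ := exists_chi hP hN hPN
  have hC : 0 < cutC ℓ (b - a) := by unfold cutC; positivity
  obtain ⟨z, hz, O', hO', hPO', hz1⟩ := h (ε / cutC ℓ (b - a)) (by positivity)
  have h1 := half_loc hE hB (slab_lo B) hz hχ hχ1 hχc hχN
  rw [mul_div_cancel₀ _ hC.ne'] at h1
  refine ⟨_, h1, O' ∩ O, hO'.inter hO, subset_inter hPO' (inter_subset_left.trans hPO),
    fun p hp hpW => ?_⟩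
  simp only
  rw [hO1 p hp.1.2, hz1 p ⟨hp.1.1, hp.2⟩ hpW, one_mul]

theorem nullUp_of_box (hE : QPic E 𝒬 𝓗) (hB : BoxN E N₀ a b) (hP : IsCompact P)
    (h : BoxUp E 𝒬 𝓗 N₀ P B) : NullUp E 𝒬 𝓗 P B := by
  intro N hN hPN ε hε
  obtain ⟨χ, ℓ, hχ, hχ1, ⟨O, hO, hPO, hO1⟩, hχc, hχN⟩ := exists_chi hP hN hPN
  have hC : 0 < cutC ℓ (b - a) := by unfold cutC; positivity
  obtain ⟨z, hz, O', hO', hPO', hz1⟩ := h (ε / cutC ℓ (b - a)) (by positivity)
  have h1 := half_loc hE hB (slab_up B) hz hχ hχ1 hχc hχN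
  rw [mul_div_cancel₀ _ hC.ne'] at h1
  refine ⟨_, h1, O' ∩ O, hO'.inter hO, subset_inter hPO' (inter_subset_left.trans hPO),
    fun p hp hpW => ?_⟩
  simp only
  rw [hO1 p hp.1.2, hz1 p ⟨hp.1.1, hp.2⟩ hpW, one_mul]

/-- components of the picture are compact -/
theorem isCompact_comp (hE : QPic E 𝒬 𝓗) (hP : P ∈ Comps E) : IsCompact P := by
  obtain ⟨x, hx, rfl⟩ := hP
  rw [connectedComponentIn_eq_image hx]
  have : CompactSpace E := isCompact_iff_compactSpace.1 hE.cpt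
  exact (isClosed_connectedComponent.isCompact).image continuous_subtype_val

/-- `c` bounds the area of the squares which are CONTAINED in `G` -/
def SqSub (𝒬 : Set Sqr) (G : Set (ℝ × ℝ)) (c : ℝ) : Prop :=
  ∀ F : Finset Sqr, (∀ Q ∈ F, Q ∈ 𝒬 ∧ Q.car ⊆ G) → ∑ Q ∈ F, Q.s ^ 2 ≤ c

/-- **FAMQ in one box** ((B3) of 247): every solid of `g` is null at one end, and the conductance in
the box of every compact subfamily is at most `K ·` (area of the squares of its members). -/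
theorem fam_null_box (hE : QPic E 𝒬 𝓗) (hB : BoxN E N₀ a b) (hN₀ : IsOpen N₀)
    (hg : FamQ E g Bm Bp) (hgN : ⋃₀ g ⊆ N₀)
    (hnull : ∀ P ∈ g, ∀ Q ∈ 𝒬, Q.car ⊆ P → BoxLo E 𝒬 𝓗 N₀ P Bm ∨ BoxUp E 𝒬 𝓗 N₀ P Bp)
    {K : ℝ} (hK : 0 ≤ K)
    (hbd : ∀ g' ⊆ g, IsCompact (⋃₀ g') → ∀ c, SqSub 𝒬 (⋃₀ g') c → ∀ η > 0,
      ∃ zm zp, PairQ E 𝒬 𝓗 g' Bm Bp N₀ (K * c + η) zm zp) :
    NullNQ E 𝒬 𝓗 g Bm Bp := by
  classical
  refine nullNQ_of_box hE hB hg fun ε hε => ?_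
  set δ : ℝ := ε / (4 * (K + 1)) with hδ
  have hδ0 : 0 < δ := by positivity
  -- the biggest squares
  obtain ⟨T₀, hT₀⟩ := (summable_iff_vanishing_norm.1 hE.summable_sq) δ hδ0
  set T : Finset Sqr := T₀.map (Function.Embedding.subtype _) with hT
  have hTQ : ∀ Q ∈ T, Q ∈ 𝒬 := by
    intro Q hQ
    obtain ⟨Q', -, rfl⟩ := Finset.mem_map.1 hQ
    exact Q'.2
  obtain ⟨g', hg', hc', hT', hpair⟩ := remove (Bm := Bm) (Bp := Bp) hE T g hg
    (fun P hP Q hQ h => by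
      have hPc := isCompact_comp hE (hg.sub hP)
      rcases hnull P hP Q (hTQ Q hQ) h with h | h
      · exact Or.inl (nullLo_of_box hE hB hPc h)
      · exact Or.inr (nullUp_of_box hE hB hPc h))
    N₀ hN₀ hgN (ε / 4) (by positivity)
  have hsq : SqSub 𝒬 (⋃₀ g') δ := by
    intro F hF
    have h1 : ∀ Q ∈ F, Q ∈ 𝒬 := fun Q hQ => (hF Q hQ).1
    set F₀ : Finset 𝒬 := F.subtype (· ∈ 𝒬) with hF₀
    have hdis : Disjoint F₀ T₀ := by
      rw [Finset.disjoint_left]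
      intro Q hQ hQT
      have h2 : Q.1 ∈ F := (Finset.mem_subtype.1 hQ)
      obtain ⟨p, hp⟩ := Q.1.nonempty
      obtain ⟨P, hP, hpP⟩ := (hF Q.1 h2).2 hp
      exact hT' P hP Q.1 (Finset.mem_map.2 ⟨Q, hQT, rfl⟩)
        (sq_in_comp hE Q.2 (hg.sub (hg' hP)) ⟨p, hp, hpP⟩)
    have h2 := hT₀ F₀ hdis
    have h3 : ∑ Q ∈ F, Q.s ^ 2 = ∑ Q ∈ F₀, Q.1.s ^ 2 := by
      rw [hF₀, Finset.sum_subtype_of_mem (fun Q : Sqr => Q.s ^ 2) h1]
    rw [h3]
    rw [Real.norm_eq_abs] at h2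
    exact (le_abs_self _).trans h2.le
  obtain ⟨zm, zp, hz⟩ := hbd g' hg' hc' δ hsq (ε / 4) (by positivity)
  have hz' : PairQ E 𝒬 𝓗 g' Bm Bp N₀ (ε / 2) zm zp := by
    refine pair_mono hz Subset.rfl ?_
    have : K * δ ≤ ε / 4 := by
      rw [hδ, mul_div_assoc', div_le_div_iff₀ (by positivity) (by norm_num)]
      nlinarith
    linarith
  obtain ⟨zm', zp', h'⟩ := hpair _ zm zp hz'
  exact ⟨zm', zp', pair_mono h' Subset.rfl (by linarith)⟩

end Crest.Agent.R105.Famq_306
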