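import Crest.Agent.R105.Famq2_306

/-!
# Row 105 (S0138, PP with solids): from Lemma A ((P1) SOLO, (P2) BNDQ of 425 #10579) to the null
families; helper306

`Solo` = single solids are null above and below their square, `BndQ` = the conductance in the box of
a compact family whose solids are null at one end is at most `K / (Bp - Bm)²` times the area of its
squares.  `nullNQ_of_win` : then every family without a solid with both levels in its window is null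
(`Win` of Nal0_649).
-/

set_option autoImplicit false

namespace Crest.Agent.R105.Famq_306

open Set Filter MeasureTheory Topology Metric
open CF_363 Stp_722 Cq_463 Thin_891 Nal_649
open Skp2_257 (Comps Lo Up)

/-- **(P1)**: a solid is null above and below its square. -/
def Solo (E : Set (ℝ × ℝ)) (𝒬 : Set Sqr) (𝓗 : Set Hair) : Prop :=
  ∀ P ∈ Comps E, ∀ Q ∈ 𝒬, Q.car ⊆ P →
    (∀ B, Q.y + Q.s < B → NullUp E 𝒬 𝓗 P B) ∧ ∀ B < Q.y, NullLo E 𝒬 𝓗 P B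

/-- (P1) in one box `N₀` -/
def SoloB (E : Set (ℝ × ℝ)) (𝒬 : Set Sqr) (𝓗 : Set Hair) (N₀ : Set (ℝ × ℝ)) : Prop :=
  ∀ P ∈ Comps E, ∀ Q ∈ 𝒬, Q.car ⊆ P →
    (∀ B, Q.y + Q.s < B → BoxUp E 𝒬 𝓗 N₀ P B) ∧ ∀ B < Q.y, BoxLo E 𝒬 𝓗 N₀ P B

/-- every solid of `g` is null at one end -/
def OneEnd (E : Set (ℝ × ℝ)) (𝒬 : Set Sqr) (𝓗 : Set Hair) (g : Set (Set (ℝ × ℝ)))
    (Bm Bp : ℝ) : Prop :=
  ∀ P ∈ g, ∀ Q ∈ 𝒬, Q.car ⊆ P → NullLo E 𝒬 𝓗 P Bm ∨ NullUp E 𝒬 𝓗 P Bp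

/-- **(P2)**: the bound of the conductance in the box `N₀`. -/
def BndQ (E : Set (ℝ × ℝ)) (𝒬 : Set Sqr) (𝓗 : Set Hair) (N₀ : Set (ℝ × ℝ)) (K : ℝ) : Prop :=
  ∀ g Bm Bp, FamQ E g Bm Bp → OneEnd E 𝒬 𝓗 g Bm Bp → ∀ c, SqSub 𝒬 (⋃₀ g) c → ∀ η > 0,
    ∃ zm zp, PairQ E 𝒬 𝓗 g Bm Bp N₀ (K / (Bp - Bm) ^ 2 * c + η) zm zp

variable {E W N N' N₀ : Set (ℝ × ℝ)} {𝒬 : Set Sqr} {𝓗 : Set Hair} {g g' : Set (Set (ℝ × ℝ))}
  {Bm Bp ε ε' a b B K : ℝ} {z z' zm zp : ℝ × ℝ → ℝ} {P : Set (ℝ × ℝ)}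

theorem solo_of_box (hE : QPic E 𝒬 𝓗) (hB : BoxN E N₀ a b) (h : SoloB E 𝒬 𝓗 N₀) :
    Solo E 𝒬 𝓗 := fun P hP Q hQ hQP =>
  ⟨fun B hBQ => nullUp_of_box hE hB (isCompact_comp hE hP) ((h P hP Q hQ hQP).1 B hBQ),
    fun B hBQ => nullLo_of_box hE hB (isCompact_comp hE hP) ((h P hP Q hQ hQP).2 B hBQ)⟩

/-- one end is null as soon as both levels are not in the window of a solid -/
theorem oneEnd_of_win (hg : g ⊆ Comps E) (hS : Solo E 𝒬 𝓗) (hw : Win 𝒬 g Bm Bp) :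
    OneEnd E 𝒬 𝓗 g Bm Bp := by
  intro P hP Q hQ hQP
  rcases hw P hP Q hQ hQP with h | h
  · exact Or.inl ((hS P (hg hP) Q hQ hQP).2 _ h)
  · exact Or.inr ((hS P (hg hP) Q hQ hQP).1 _ h)

/-- families whose solids are null at one end are null -/
theorem nullNQ_of_oneEnd (hE : QPic E 𝒬 𝓗) (hB : BoxN E N₀ a b) (hN₀ : IsOpen N₀)
    (hEN : E ⊆ N₀) (hK : 0 ≤ K) (hb : BndQ E 𝒬 𝓗 N₀ K) (hg : FamQ E g Bm Bp)
    (h1 : OneEnd E 𝒬 𝓗 g Bm Bp) : NullNQ E 𝒬 𝓗 g Bm Bp := by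
  classical
  have hgN : ⋃₀ g ⊆ N₀ := by
    refine (sUnion_subset fun P hP => ?_).trans hEN
    obtain ⟨x, -, rfl⟩ := hg.sub hP
    exact connectedComponentIn_subset _ _
  refine nullNQ_of_box hE hB hg fun ε hε => ?_
  have hd : 0 < (Bp - Bm) ^ 2 := by have := hg.lt; have : 0 < Bp - Bm := by linarith
                                    positivity
  set K' : ℝ := K / (Bp - Bm) ^ 2 with hK'
  have hK'0 : 0 ≤ K' := by positivity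
  set δ : ℝ := ε / (4 * (K' + 1)) with hδ
  have hδ0 : 0 < δ := by positivity
  obtain ⟨T₀, hT₀⟩ := (summable_iff_vanishing_norm.1 hE.summable_sq) δ hδ0
  set T : Finset Sqr := T₀.map (Function.Embedding.subtype _) with hT
  have hTQ : ∀ Q ∈ T, Q ∈ 𝒬 := by
    intro Q hQ
    obtain ⟨Q', -, rfl⟩ := Finset.mem_map.1 hQ
    exact Q'.2
  obtain ⟨g', hg', hc', hT', hpair⟩ := remove (Bm := Bm) (Bp := Bp) hE T g hg
    (fun P hP Q hQ h => h1 P hP Q (hTQ Q hQ) h) N₀ hN₀ hgN (ε / 4) (by positivity)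
  have hsq : SqSub 𝒬 (⋃₀ g') δ := by
    intro F hF
    have h1 : ∀ Q ∈ F, Q ∈ 𝒬 := fun Q hQ => (hF Q hQ).1
    set F₀ : Finset 𝒬 := F.subtype (· ∈ 𝒬) with hF₀
    have hdis : Disjoint F₀ T₀ := by
      rw [Finset.disjoint_left]
      intro Q hQ hQT
      have h2 : Q.1 ∈ F := (Finset.mem_subtype.1 hQ)
      obtain ⟨p, hp⟩ := Q.1.nonempty
      obtain ⟨P, hP, hpP⟩ := (hF Q.1 h2).2 hp
      exact hT' P hP Q.1 (Finset.mem_map.2 ⟨Q, hQT, rfl⟩)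
        (sq_in_comp hE Q.2 (hg.sub (hg' hP)) ⟨p, hp, hpP⟩)
    have h2 := hT₀ F₀ hdis
    have h3 : ∑ Q ∈ F, Q.s ^ 2 = ∑ Q ∈ F₀, Q.1.s ^ 2 := by
      rw [hF₀, Finset.sum_subtype_of_mem (fun Q : Sqr => Q.s ^ 2) h1]
    rw [h3]
    rw [Real.norm_eq_abs] at h2
    exact (le_abs_self _).trans h2.le
  have hfam' : FamQ E g' Bm Bp := ⟨hg.lt, hg'.trans hg.sub, hc', fun P hP => hg.crs P (hg' hP)⟩
  obtain ⟨zm, zp, hz⟩ := hb g' Bm Bp hfam' (fun P hP => h1 P (hg' hP)) δ hsq (ε / 4)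
    (by positivity)
  have hz' : PairQ E 𝒬 𝓗 g' Bm Bp N₀ (ε / 2) zm zp := by
    refine pair_mono hz Subset.rfl ?_
    have : K' * δ ≤ ε / 4 := by
      rw [hδ, mul_div_assoc', div_le_div_iff₀ (by positivity) (by norm_num)]
      nlinarith
    linarith
  obtain ⟨zm', zp', h'⟩ := hpair _ zm zp hz'
  exact ⟨zm', zp', pair_mono h' Subset.rfl (by linarith)⟩

/-- **(P1) + (P2) ⟹ all families without a solid with both levels in its window are null.** -/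
theorem nullNQ_of_win (hE : QPic E 𝒬 𝓗) (hB : BoxN E N₀ a b) (hN₀ : IsOpen N₀)
    (hEN : E ⊆ N₀) (hK : 0 ≤ K) (hS : Solo E 𝒬 𝓗) (hb : BndQ E 𝒬 𝓗 N₀ K)
    (hg : FamQ E g Bm Bp) (hw : Win 𝒬 g Bm Bp) : NullNQ E 𝒬 𝓗 g Bm Bp :=
  nullNQ_of_oneEnd hE hB hN₀ hEN hK hb hg (oneEnd_of_win hg.sub hS hw)

/-- families without solids -/
theorem nullNQ_of_hairs (hE : QPic E 𝒬 𝓗) (hB : BoxN E N₀ a b) (hN₀ : IsOpen N₀)
    (hEN : E ⊆ N₀) (hK : 0 ≤ K) (hb : BndQ E 𝒬 𝓗 N₀ K)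
    (hg : FamQ E g Bm Bp) (hw : ∀ P ∈ g, ∀ Q ∈ 𝒬, ¬ Q.car ⊆ P) : NullNQ E 𝒬 𝓗 g Bm Bp :=
  nullNQ_of_oneEnd hE hB hN₀ hEN hK hb hg fun P hP Q hQ hQP => absurd hQP (hw P hP Q hQ)

end Crest.Agent.R105.Famq_306
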