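import Crest.Agent.R105.SkT1_137
import Crest.Agent.R105.Famq3_306

/-!
# Row 105 (S0138, PP with solids), leaf (L1) of 425 #10857: `LEMAQ` from one box and generic levels;
helper306

`Gen` = the level is not the height of a face of a square.  `SoloG`, `BndG` = (P1), (P2) in ONE box
and at GENERIC levels only, for families with `Win`.  `lemaq_of : (∀ pictures, BoxOut) → LEMAQ Str`.
The tests at a generic level are restricted to the smaller half plane (`half_restrict`); a family with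
`Win` at `Bm < Bp` has `Win` at generic levels `Bm < Bm' < Bp' < Bp` (only finitely many squares are
big), and `SolNull` gives `Win` by the capacity of the faces (463's `one_near_capacity`).
-/

set_option autoImplicit false

namespace Crest.Agent.R105.Famq_306

open Set Filter MeasureTheory Topology Metric
open CF_363 Stp_722 Cq_463 Thin_891 Nal_649 Exs_992 SkT1_137
open Skp2_257 (Comps Lo Up)

variable {E W W' N N' N₀ : Set (ℝ × ℝ)} {𝒬 : Set Sqr} {𝓗 : Set Hair} {g g' : Set (Set (ℝ × ℝ))}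
  {Bm Bp Bm' Bp' ε ε' a b B B' K : ℝ} {f z z' zm zp : ℝ × ℝ → ℝ} {P P' : Set (ℝ × ℝ)}

/-- the level is not the height of a face -/
def Gen (𝒬 : Set Sqr) (B : ℝ) : Prop := ∀ Q ∈ 𝒬, Q.y ≠ B ∧ Q.y + Q.s ≠ B

/-- **(P1)** in the box `N₀`, generic levels -/
def SoloG (E : Set (ℝ × ℝ)) (𝒬 : Set Sqr) (𝓗 : Set Hair) (N₀ : Set (ℝ × ℝ)) : Prop :=
  ∀ Q ∈ 𝒬, (∀ B, Gen 𝒬 B → Q.y + Q.s < B → BoxUp E 𝒬 𝓗 N₀ (comp E Q) B) ∧
    ∀ B, Gen 𝒬 B → B < Q.y → BoxLo E 𝒬 𝓗 N₀ (comp E Q) B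

/-- **(P2)** in the box `N₀`, generic levels, families with `Win` -/
def BndG (E : Set (ℝ × ℝ)) (𝒬 : Set Sqr) (𝓗 : Set Hair) (N₀ : Set (ℝ × ℝ)) : Prop :=
  ∃ K, 0 ≤ K ∧ ∀ g Bm Bp, Gen 𝒬 Bm → Gen 𝒬 Bp → FamQ E g Bm Bp → Win 𝒬 g Bm Bp →
    ∀ c, SqSub 𝒬 (⋃₀ g) c → ∀ η > 0,
      ∃ zm zp, PairQ E 𝒬 𝓗 g Bm Bp N₀ (K / (Bp - Bm) ^ 2 * c + η) zm zp

/-- what the box problem gives for one picture -/
def BoxOut (E : Set (ℝ × ℝ)) (𝒬 : Set Sqr) (𝓗 : Set Hair) : Prop :=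
  ∃ N₀ a b, BoxN E N₀ a b ∧ IsOpen N₀ ∧ E ⊆ N₀ ∧ SoloG E 𝒬 𝓗 N₀ ∧ BndG E 𝒬 𝓗 N₀

/-! ### generic levels -/

theorem exists_gen (hE : QPic E 𝒬 𝓗) {s t : ℝ} (h : s < t) : ∃ B, Gen 𝒬 B ∧ s < B ∧ B < t := by
  have hc : ((fun Q : Sqr => Q.y) '' 𝒬 ∪ (fun Q : Sqr => Q.y + Q.s) '' 𝒬).Countable :=
    (hE.countable.image _).union (hE.countable.image _)
  obtain ⟨B, hB, h1, h2⟩ := (hc.dense_compl ℝ).exists_between h
  exact ⟨B, fun Q hQ => ⟨fun he => hB (Or.inl ⟨Q, hQ, he⟩), fun he => hB (Or.inr ⟨Q, hQ, he⟩)⟩,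
    h1, h2⟩

/-! ### restriction to the smaller half plane -/

theorem ch_restrict (hE : QPic E 𝒬 𝓗) (hf : CFJ 𝓗 W' f) (h : W ⊆ W') (Q : Sqr) :
    ch E W f Q ≤ ch E W' f Q := by
  unfold ch
  have h1 : chg (Eᶜ ∩ W) (Q.car ∩ closure W) f ≤ chg (Eᶜ ∩ W') (Q.car ∩ closure W) f :=
    chg_mono_V (CFJ.fin hE hf _) (inter_subset_inter_right _ h)
  exact h1.trans (chg_mono_set (CFJ.fin hE hf _) (inter_subset_inter_right _ (closure_mono h)))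

theorem TQ_restrict (hE : QPic E 𝒬 𝓗) (hW' : IsOpen W') (hWc : Convex ℝ W)
    (hWc' : Convex ℝ W') (hf : Cc 𝓗 W' f) (h : W ⊆ W') : TQ E W 𝒬 f ≤ TQ E W' 𝒬 f := by
  refine add_le_add ?_ ?_
  · unfold En
    exact setIntegral_mono_set (integrableOn_of_Cc hE hW' hf)
      (Eventually.of_forall fun p => g2_nonneg f p) (sdiff_subset_sdiff_left h).eventuallyLE
  · unfold Ch
    exact Summable.tsum_le_tsum
      (fun Q => pow_le_pow_left₀ (ch_nonneg _ _ _ _) (ch_restrict hE hf.cfj h Q.1) 2)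
      (summable_ch hE hWc (hf.cfj.mono Subset.rfl h)) (summable_ch hE hWc' hf.cfj)

theorem half_restrict (hE : QPic E 𝒬 𝓗) (hW' : IsOpen W') (hWc : Convex ℝ W)
    (hWc' : Convex ℝ W') (h : HalfQ E 𝒬 𝓗 W' N ε z) (hW : W ⊆ W') : HalfQ E 𝒬 𝓗 W N ε z where
  cf := h.cf.mono Subset.rfl hW
  rg := h.rg
  sp := by
    obtain ⟨S, hS, hSN, h0⟩ := h.sp
    exact ⟨S, hS, hSN, fun p hp => h0 p (hW hp)⟩
  en := (TQ_restrict hE hW' hWc hWc' (half_cc h) hW).trans h.en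

theorem Lo_mono (h : B ≤ B') : Lo B ⊆ Lo B' := fun p hp => lt_of_lt_of_le (show p.2 < B from hp) h

theorem Up_anti (h : B ≤ B') : Up B' ⊆ Up B := fun p hp => lt_of_le_of_lt h (show B' < p.2 from hp)

theorem oneNear_restrict (h : OneNear E W' P' z) (hW : W ⊆ W') (hP : P ⊆ P') : OneNear E W P z := by
  obtain ⟨O, hO, hPO, h1⟩ := h
  exact ⟨O, hO, hP.trans hPO, fun p hp hpW => h1 p hp (hW hpW)⟩

theorem nullLo_restrict (hE : QPic E 𝒬 𝓗) (h : NullLo E 𝒬 𝓗 P B') (hB : B ≤ B') :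
    NullLo E 𝒬 𝓗 P B := by
  intro N hN hPN ε hε
  obtain ⟨z, hz, h1⟩ := h N hN hPN ε hε
  exact ⟨z, half_restrict hE (isOpen_Lo _) (convex_Lo _) (convex_Lo _) hz (Lo_mono hB),
    oneNear_restrict h1 (Lo_mono hB) fun p hp => ⟨hp.1, le_trans (show p.2 ≤ B from hp.2) hB⟩⟩

theorem nullUp_restrict (hE : QPic E 𝒬 𝓗) (h : NullUp E 𝒬 𝓗 P B) (hB : B ≤ B') :
    NullUp E 𝒬 𝓗 P B' := by
  intro N hN hPN ε hε
  obtain ⟨z, hz, h1⟩ := h N hN hPN ε hε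
  exact ⟨z, half_restrict hE (isOpen_Up _) (convex_Up _) (convex_Up _) hz (Up_anti hB),
    oneNear_restrict h1 (Up_anti hB) fun p hp => ⟨hp.1, le_trans hB (show B' ≤ p.2 from hp.2)⟩⟩

theorem nullNQ_restrict (hE : QPic E 𝒬 𝓗) (h : NullNQ E 𝒬 𝓗 g Bm' Bp') (hm : Bm ≤ Bm')
    (hp : Bp' ≤ Bp) : NullNQ E 𝒬 𝓗 g Bm Bp := by
  intro N hN hgN ε hε
  obtain ⟨zm, zp, h1⟩ := h N hN hgN ε hε
  refine ⟨zm, zp,
    half_restrict hE (isOpen_Lo _) (convex_Lo _) (convex_Lo _) h1.m (Lo_mono hm),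
    half_restrict hE (isOpen_Up _) (convex_Up _) (convex_Up _) h1.p (Up_anti hp), fun P hP => ?_⟩
  obtain ⟨O, hO, hPO, hk⟩ := h1.key P hP
  exact ⟨O, hO, hPO, fun p hp' hpl q hq hqu => hk p hp' (Lo_mono hm hpl) q hq (Up_anti hp hqu)⟩

/-! ### SOLO -/

theorem solo_of_gen (hE : QPic E 𝒬 𝓗) (hB : BoxN E N₀ a b) (h : SoloG E 𝒬 𝓗 N₀) :
    SOLO E 𝒬 𝓗 := by
  intro Q hQ
  have hc := isCompact_comp hE (comp_mem hE hQ)
  constructor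
  · intro B hQB
    obtain ⟨B', hg, h1, h2⟩ := exists_gen hE hQB
    exact nullUp_restrict hE (nullUp_of_box hE hB hc ((h Q hQ).1 B' hg h1)) h2.le
  · intro B hQB
    obtain ⟨B', hg, h1, h2⟩ := exists_gen hE hQB
    exact nullLo_restrict hE (nullLo_of_box hE hB hc ((h Q hQ).2 B' hg h2)) h1.le

/-! ### families -/

theorem finite_big (hE : QPic E 𝒬 𝓗) {s : ℝ} (hs : 0 < s) : {Q | Q ∈ 𝒬 ∧ s ≤ Q.s}.Finite := by
  have h1 : {Q : 𝒬 | s ^ 2 ≤ Q.1.s ^ 2}.Finite := by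
    have h2 := hE.summable_sq.tendsto_cofinite_zero
    have h3 : ∀ᶠ Q : 𝒬 in cofinite, Q.1.s ^ 2 < s ^ 2 :=
      h2.eventually (gt_mem_nhds (by positivity))
    refine (Filter.eventually_cofinite.1 h3).subset fun Q hQ => ?_
    exact not_lt.2 hQ
  refine (h1.image Subtype.val).subset ?_
  rintro Q ⟨hQ, hsQ⟩
  exact ⟨⟨Q, hQ⟩, pow_le_pow_left₀ hs.le hsQ 2, rfl⟩

/-- `Win` holds at generic levels inside -/
theorem win_gen (hE : QPic E 𝒬 𝓗) (hlt : Bm < Bp) (hw : Win 𝒬 g Bm Bp) :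
    ∃ Bm' Bp', Gen 𝒬 Bm' ∧ Gen 𝒬 Bp' ∧ Bm < Bm' ∧ Bm' < Bp' ∧ Bp' < Bp ∧ Win 𝒬 g Bm' Bp' := by
  have hd0 : 0 < (Bp - Bm) / 4 := by linarith
  have hfin := finite_big hE (s := (Bp - Bm) / 2) (by linarith)
  have hev : ∀ᶠ d : ℝ in 𝓝[>] 0, (0 < d ∧ d < (Bp - Bm) / 4) ∧
      ∀ Q ∈ {Q | Q ∈ 𝒬 ∧ (Bp - Bm) / 2 ≤ Q.s},
        (Bm < Q.y → Bm + d < Q.y) ∧ (Q.y + Q.s < Bp → Q.y + Q.s < Bp - d) := by
    refine Eventually.and ?_ ((eventually_all_finite hfin).2 fun Q _ => ?_)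
    · exact Ioo_mem_nhdsGT hd0
    · refine Eventually.and ?_ ?_
      · by_cases h : Bm < Q.y
        · filter_upwards [Ioo_mem_nhdsGT (show (0 : ℝ) < Q.y - Bm by linarith)] with d hd _
          linarith [hd.2]
        · exact Eventually.of_forall fun _ h' => absurd h' h
      · by_cases h : Q.y + Q.s < Bp
        · filter_upwards [Ioo_mem_nhdsGT (show (0 : ℝ) < Bp - (Q.y + Q.s) by linarith)]
            with d hd _
          linarith [hd.2]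
        · exact Eventually.of_forall fun _ h' => absurd h' h
  obtain ⟨d, ⟨hd, hd4⟩, hQd⟩ := hev.exists
  obtain ⟨Bm', hgm, hm1, hm2⟩ := exists_gen hE (show Bm < Bm + d by linarith)
  obtain ⟨Bp', hgp, hp1, hp2⟩ := exists_gen hE (show Bp - d < Bp by linarith)
  refine ⟨Bm', Bp', hgm, hgp, hm1, by linarith, hp2, fun P hP Q hQ hQP => ?_⟩
  by_cases hbig : (Bp - Bm) / 2 ≤ Q.s
  · rcases hw P hP Q hQ hQP with h | h
    · exact Or.inl (hm2.trans ((hQd Q ⟨hQ, hbig⟩).1 h))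
    · exact Or.inr (((hQd Q ⟨hQ, hbig⟩).2 h).trans hp1)
  · push Not at hbig
    by_cases h : Bm' < Q.y
    · exact Or.inl h
    · exact Or.inr (by push Not at h; linarith)

/-- **families with `Win` are null** (generic boxes) -/
theorem famq_of_gen (hE : QPic E 𝒬 𝓗) (hB : BoxN E N₀ a b) (hN₀ : IsOpen N₀) (hEN : E ⊆ N₀)
    (hS : SoloG E 𝒬 𝓗 N₀) (hb : BndG E 𝒬 𝓗 N₀) : FAMQ E 𝒬 𝓗 := by
  intro g Bm Bp hg hw
  obtain ⟨Bm', Bp', hgm, hgp, hm, hlt, hp, hw'⟩ := win_gen hE hg.lt hw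
  obtain ⟨K, hK, hbd⟩ := hb
  have hg' : FamQ E g Bm' Bp' := ⟨hlt, hg.sub, hg.cpt, fun P hP => by
    obtain ⟨⟨p, hpP, hp1⟩, q, hqP, hq1⟩ := hg.crs P hP
    exact ⟨⟨p, hpP, hp1.trans hm.le⟩, q, hqP, hp.le.trans hq1⟩⟩
  have hgN : ⋃₀ g ⊆ N₀ := by
    refine (sUnion_subset fun P hP => ?_).trans hEN
    obtain ⟨x, -, rfl⟩ := hg.sub hP
    exact connectedComponentIn_subset _ _
  refine nullNQ_restrict hE (fam_null_box hE hB hN₀ hg' hgN ?_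
    (K := K / (Bp' - Bm') ^ 2) (by positivity) ?_) hm.le hp.le
  · intro P hP Q hQ hQP
    rw [eq_comp hE hQ (hg.sub hP) hQP]
    rcases hw' P hP Q hQ hQP with h | h
    · exact Or.inl ((hS Q hQ).2 Bm' hgm h)
    · exact Or.inr ((hS Q hQ).1 Bp' hgp h)
  · intro g' hgg' hc' c hc η hη
    exact hbd g' Bm' Bp' hgm hgp ⟨hlt, hgg'.trans hg.sub, hc', fun P hP => hg'.crs P (hgg' hP)⟩
      (fun P hP => hw' P (hgg' hP)) c hc η hη

/-! ### a solid which is null at one end has its window off the level -/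

theorem mem_closure_Lo {p : ℝ × ℝ} (h : p.2 ≤ B) : p ∈ closure (Lo B) := by
  have : Lo B = univ ×ˢ Iio B := by ext q; simp [Skp2_257.Lo]
  rw [this, closure_prod_eq, closure_Iio, closure_univ]
  exact ⟨mem_univ _, h⟩

theorem mem_closure_Up {p : ℝ × ℝ} (h : B ≤ p.2) : p ∈ closure (Up B) := by
  have : Up B = univ ×ˢ Ioi B := by ext q; simp [Skp2_257.Up]
  rw [this, closure_prod_eq, closure_Ioi, closure_univ]
  exact ⟨mem_univ _, h⟩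

/-- core: no cheap test which is `1` near a portion of a square -/
theorem not_null (hE : QPic E 𝒬 𝓗) (hW : Slab W) {Q : Sqr} (hQ : Q ∈ 𝒬)
    (hne : (Q.car ∩ closure W).Nonempty)
    (h : ∀ N, IsOpen N → E ⊆ N → ∀ ε > 0, ∃ z, HalfQ E 𝒬 𝓗 W N ε z ∧
      OneNear E W (Q.car ∩ closure W) z) : False := by
  obtain ⟨a, b, hab, hEs⟩ := exists_height hE.cpt
  set C : ℝ := 4 * (b - a) / Q.s + 2 with hC
  have hC0 : 0 < C := by
    have h1 : 0 ≤ b - a := by linarith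
    have h2 := Q.hs
    positivity
  obtain ⟨z, hz, h1⟩ := h {p | a < p.2 ∧ p.2 < b}
    ((isOpen_lt continuous_const continuous_snd).inter (isOpen_lt continuous_snd continuous_const))
    (fun p hp => hEs p hp) (1 / (2 * C)) (by positivity)
  have hcc := half_cc hz
  have hch : ch E W z Q = 0 := by
    obtain ⟨O, hO, hPO, hone⟩ := h1
    exact chg_eq_zero hO hPO (a := 1) fun q hq => hone q ⟨hq.1, hq.2.1⟩ hq.2.2
  have h2 := one_near_capacity (𝒬 := 𝒬) hE hW hcc hEs ⟨fun p hp hpab => by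
    obtain ⟨S, -, hSN, h0⟩ := hz.sp
    exact h0 p hp fun hpS => by
      have := hSN hpS
      rcases hpab with h | h
      · linarith [this.1]
      · linarith [this.2]⟩ hQ hne h1
  rw [TQ_drop hch] at h2
  have h3 := mul_le_mul_of_nonneg_left hz.en hC0.le
  have h4 : C * (1 / (2 * C)) = 1 / 2 := by field_simp
  rw [h4] at h3
  linarith [h2.trans h3]

theorem lt_of_nullLo (hE : QPic E 𝒬 𝓗) {Q : Sqr} (hQ : Q ∈ 𝒬) (hPE : P ⊆ E) (hQP : Q.car ⊆ P)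
    (h : NullLo E 𝒬 𝓗 P B) : B < Q.y := by
  by_contra hcon
  push Not at hcon
  have hs := Q.hs
  refine not_null hE (slab_lo B) hQ ⟨(Q.x, Q.y), ⟨⟨le_rfl, by simp only; linarith⟩, le_rfl,
    by simp only; linarith⟩, mem_closure_Lo hcon⟩ fun N hN hEN ε hε => ?_
  obtain ⟨z, hz, h1⟩ := h N hN (hPE.trans hEN) ε hε
  exact ⟨z, hz, oneNear_restrict h1 Subset.rfl
    fun p hp => ⟨hQP hp.1, closure_Lo_subset B hp.2⟩⟩

theorem lt_of_nullUp (hE : QPic E 𝒬 𝓗) {Q : Sqr} (hQ : Q ∈ 𝒬) (hPE : P ⊆ E) (hQP : Q.car ⊆ P)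
    (h : NullUp E 𝒬 𝓗 P B) : Q.y + Q.s < B := by
  by_contra hcon
  push Not at hcon
  have hs := Q.hs
  refine not_null hE (slab_up B) hQ ⟨(Q.x, Q.y + Q.s), ⟨⟨le_rfl, by simp only; linarith⟩,
    by simp only; linarith, le_rfl⟩, mem_closure_Up hcon⟩ fun N hN hEN ε hε => ?_
  obtain ⟨z, hz, h1⟩ := h N hN (hPE.trans hEN) ε hε
  exact ⟨z, hz, oneNear_restrict h1 Subset.rfl
    fun p hp => ⟨hQP hp.1, closure_Up_subset B hp.2⟩⟩

/-- `SolNull` gives `Win` -/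
theorem win_of_solNull (hE : QPic E 𝒬 𝓗) (hg : g ⊆ Comps E) (h : SolNull E 𝒬 𝓗 g Bm Bp) :
    Win 𝒬 g Bm Bp := by
  intro P hP Q hQ hQP
  have hPE : P ⊆ E := by
    obtain ⟨x, -, rfl⟩ := hg hP
    exact connectedComponentIn_subset _ _
  rcases h P hP Q hQ hQP with h | h
  · exact Or.inl (lt_of_nullLo hE hQ hPE hQP h)
  · exact Or.inr (lt_of_nullUp hE hQ hPE hQP h)

/-! ### the leaf -/

theorem bndq_of_famq (hE : QPic E 𝒬 𝓗) (hF : FAMQ E 𝒬 𝓗) : BNDQ E 𝒬 𝓗 := by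
  intro g Bm Bp hg hn
  have hw := win_of_solNull hE hg.sub hn
  refine ⟨0, le_rfl, fun g' hgg' hc' N hN hgN c _ η hη => ?_⟩
  obtain ⟨zm, zp, h⟩ := hF g' Bm Bp ⟨hg.lt, hgg'.trans hg.sub, hc', fun P hP => hg.crs P (hgg' hP)⟩
    (fun P hP => hw P (hgg' hP)) N hN hgN η hη
  exact ⟨zm, zp, pair_mono h Subset.rfl (by linarith)⟩

theorem solo_bndq_of (hE : QPic E 𝒬 𝓗) (h : BoxOut E 𝒬 𝓗) : SOLO E 𝒬 𝓗 ∧ BNDQ E 𝒬 𝓗 := by
  obtain ⟨N₀, a, b, hB, hN₀, hEN, hS, hb⟩ := h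
  exact ⟨solo_of_gen hE hB hS, bndq_of_famq hE (famq_of_gen hE hB hN₀ hEN hS hb)⟩

/-- **(L1)**: `LEMAQ` from the output of the box problem at generic levels. -/
theorem lemaq_of {Str : StrT} (h : ∀ E 𝒬 𝓗, PicS E 𝒬 𝓗 → ELS Str E 𝒬 𝓗 → BoxOut E 𝒬 𝓗) :
    LEMAQ Str :=
  fun E 𝒬 𝓗 hP hels => solo_bndq_of hP.q (h E 𝒬 𝓗 hP hels)

/-- the same under an additional hypothesis `D` on the picture (disjoint hairs) -/
theorem lemaq_of' {Str : StrT} {D : Set (ℝ × ℝ) → Set Sqr → Set Hair → Prop}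
    (h : ∀ E 𝒬 𝓗, PicS E 𝒬 𝓗 → D E 𝒬 𝓗 → ELS Str E 𝒬 𝓗 → BoxOut E 𝒬 𝓗) :
    ∀ E 𝒬 𝓗, PicS E 𝒬 𝓗 → D E 𝒬 𝓗 → ELS Str E 𝒬 𝓗 → SOLO E 𝒬 𝓗 ∧ BNDQ E 𝒬 𝓗 :=
  fun E 𝒬 𝓗 hP hD hels => solo_bndq_of hP.q (h E 𝒬 𝓗 hP hD hels)

end Crest.Agent.R105.Famq_306
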