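import Crest.Agent.R105.Skp2_257

/-!
# Row 105 (S0139, PP): the leaf `ISOLIM` of `Skp2_257` (helper157)

Isotropy passes to the limit.  An element of the class generated by `ψ` and the planar functions is
`e.eval ψ` for a formal expression `e`; `e.eval (φ n)` agrees with it locally for large `n`, and
its gradient is dominated by the gradients of the planar functions occurring in `e` and of `φ n`.
-/

set_option autoImplicit false

namespace Crest.Agent.R105.Isl_157

open Set Filter MeasureTheory Topology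
open CF_363 Stp_722 Skp2_257

/-- Rademacher for locally Lipschitz functions on an open set -/
theorem ae_diff {O : Set (ℝ × ℝ)} (hO : IsOpen O) {u : ℝ × ℝ → ℝ}
    (hu : LocallyLipschitzOn O u) : ∀ᵐ z ∂(volume.restrict O), DifferentiableAt ℝ u z := by
  rw [ae_restrict_iff' hO.measurableSet]
  have : volume {z | ¬ (z ∈ O → DifferentiableAt ℝ u z)} = 0 := by
    apply measure_null_of_locally_null
    intro x hx
    have hxO : x ∈ O := by
      by_contra h
      exact hx fun h' => absurd h' h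
    obtain ⟨K, t, ht, hL⟩ := hu hxO
    rw [hO.nhdsWithin_eq hxO] at ht
    obtain ⟨V, hVt, hV, hxV⟩ := _root_.mem_nhds_iff.1 ht
    refine ⟨V ∩ {z | ¬ (z ∈ O → DifferentiableAt ℝ u z)}, ?_, ?_⟩
    · exact inter_mem (mem_nhdsWithin_of_mem_nhds (hV.mem_nhds hxV)) self_mem_nhdsWithin
    · have h1 := (hL.mono hVt).ae_differentiableWithinAt_of_mem (μ := volume)
      refine measure_mono_null ?_ (ae_iff.1 h1)
      rintro z ⟨hzV, hz⟩
      simp only [mem_ofPred_eq, Classical.not_imp] at hz ⊢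
      exact ⟨hzV, fun h => hz.2 (h.differentiableAt (hV.mem_nhds hzV))⟩
  exact this

/-! ### pointwise Lipschitz constants -/

/-- `u` is pointwise `L`-Lipschitz at `p`. -/
def PW (u : ℝ × ℝ → ℝ) (p : ℝ × ℝ) (L : ℝ) : Prop := ∀ᶠ q in 𝓝 p, |u q - u p| ≤ L * dist q p

/-- `|u_x| + |u_y|` -/
noncomputable def s1 (u : ℝ × ℝ → ℝ) (p : ℝ × ℝ) : ℝ := |gx u p| + |gy u p|

theorem s1_nonneg (u : ℝ × ℝ → ℝ) (p : ℝ × ℝ) : 0 ≤ s1 u p := by unfold s1; positivity

theorem measurable_s1 (u : ℝ × ℝ → ℝ) : Measurable (s1 u) :=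
  ((measurable_gx u).abs).add ((measurable_gy u).abs)

theorem s1_sq_le (u : ℝ × ℝ → ℝ) (p : ℝ × ℝ) : s1 u p ^ 2 ≤ 2 * g2 u p := by
  unfold s1 g2
  nlinarith [sq_nonneg (|gx u p| - |gy u p|), sq_abs (gx u p), sq_abs (gy u p)]

theorem PW.mono {u : ℝ × ℝ → ℝ} {p : ℝ × ℝ} {L M : ℝ} (h : PW u p L) (hLM : L ≤ M) : PW u p M := by
  filter_upwards [h] with q hq
  exact hq.trans (mul_le_mul_of_nonneg_right hLM dist_nonneg)

theorem PW.s1_le {u : ℝ × ℝ → ℝ} {p : ℝ × ℝ} {L : ℝ} (hL : 0 ≤ L) (h : PW u p L) :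
    s1 u p ≤ 2 * L := by
  have h0 : ‖fderiv ℝ u p‖ ≤ L := by
    refine norm_fderiv_le_of_lip' ℝ hL ?_
    filter_upwards [h] with q hq
    rwa [Real.norm_eq_abs, ← dist_eq_norm]
  have h1 : |gx u p| ≤ L := by
    unfold gx
    have := (fderiv ℝ u p).le_opNorm ((1 : ℝ), (0 : ℝ))
    have e : ‖((1 : ℝ), (0 : ℝ))‖ = 1 := by simp [Prod.norm_def]
    rw [e, mul_one, Real.norm_eq_abs] at this
    exact this.trans h0
  have h2 : |gy u p| ≤ L := by
    unfold gy
    have := (fderiv ℝ u p).le_opNorm ((0 : ℝ), (1 : ℝ))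
    have e : ‖((0 : ℝ), (1 : ℝ))‖ = 1 := by simp [Prod.norm_def]
    rw [e, mul_one, Real.norm_eq_abs] at this
    exact this.trans h0
  unfold s1
  linarith

theorem pw_of_diff {u : ℝ × ℝ → ℝ} {p : ℝ × ℝ} (h : DifferentiableAt ℝ u p) {ε : ℝ}
    (hε : 0 < ε) : PW u p (s1 u p + ε) := by
  have h1 := h.hasFDerivAt.isLittleO.def hε
  filter_upwards [h1] with q hq
  have e1 : fderiv ℝ u p (q - p) = (q.1 - p.1) * gx u p + (q.2 - p.2) * gy u p := by
    have : q - p = (q.1 - p.1) • ((1 : ℝ), (0 : ℝ)) + (q.2 - p.2) • ((0 : ℝ), (1 : ℝ)) := by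
      ext <;> simp
    rw [this, map_add, map_smul, map_smul]
    rfl
  have d1 : |q.1 - p.1| ≤ dist q p := by
    rw [← Real.dist_eq, Prod.dist_eq]; exact le_max_left _ _
  have d2 : |q.2 - p.2| ≤ dist q p := by
    rw [← Real.dist_eq, Prod.dist_eq]; exact le_max_right _ _
  rw [Real.norm_eq_abs, ← dist_eq_norm, e1] at hq
  have h3 : |(q.1 - p.1) * gx u p + (q.2 - p.2) * gy u p| ≤ s1 u p * dist q p := by
    refine (abs_add_le _ _).trans ?_
    rw [abs_mul, abs_mul]
    unfold s1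
    have := mul_le_mul_of_nonneg_right d1 (abs_nonneg (gx u p))
    have := mul_le_mul_of_nonneg_right d2 (abs_nonneg (gy u p))
    nlinarith
  have h4 : u q - u p = (u q - u p - ((q.1 - p.1) * gx u p + (q.2 - p.2) * gy u p)) +
      ((q.1 - p.1) * gx u p + (q.2 - p.2) * gy u p) := by ring
  rw [h4]
  refine (abs_add_le _ _).trans ?_
  rw [add_mul]
  linarith

theorem PW.add {u v : ℝ × ℝ → ℝ} {p : ℝ × ℝ} {L M : ℝ} (h : PW u p L) (k : PW v p M) :
    PW (fun q => u q + v q) p (L + M) := by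
  filter_upwards [h, k] with q hq kq
  calc |(u q + v q) - (u p + v p)| = |(u q - u p) + (v q - v p)| := by congr 1; ring
    _ ≤ |u q - u p| + |v q - v p| := abs_add_le _ _
    _ ≤ _ := by rw [add_mul]; exact add_le_add hq kq

theorem PW.mul {u v : ℝ × ℝ → ℝ} {p : ℝ × ℝ} {L M A B : ℝ} (h : PW u p L) (k : PW v p M)
    (hA : ∀ q, |u q| ≤ A) (hB : ∀ q, |v q| ≤ B) :
    PW (fun q => u q * v q) p (A * M + B * L) := by
  filter_upwards [h, k] with q hq kq
  have hA0 : 0 ≤ A := (abs_nonneg _).trans (hA p)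
  have hB0 : 0 ≤ B := (abs_nonneg _).trans (hB p)
  calc |u q * v q - u p * v p| = |u q * (v q - v p) + v p * (u q - u p)| := by congr 1; ring
    _ ≤ |u q| * |v q - v p| + |v p| * |u q - u p| := by
        rw [← abs_mul, ← abs_mul]; exact abs_add_le _ _
    _ ≤ A * (M * dist q p) + B * (L * dist q p) := by
        exact add_le_add (mul_le_mul (hA q) kq (abs_nonneg _) hA0)
          (mul_le_mul (hB p) hq (abs_nonneg _) hB0)
    _ = _ := by ring

theorem PW.comp {u : ℝ × ℝ → ℝ} {p : ℝ × ℝ} {L : ℝ} (h : PW u p L) {G : ℝ → ℝ} {K : NNReal}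
    (hG : LipschitzWith K G) : PW (fun q => G (u q)) p (K * L) := by
  filter_upwards [h] with q hq
  have h1 := hG.dist_le_mul (u q) (u p)
  rw [Real.dist_eq, Real.dist_eq] at h1
  calc |G (u q) - G (u p)| ≤ K * |u q - u p| := h1
    _ ≤ K * (L * dist q p) := mul_le_mul_of_nonneg_left hq K.2
    _ = _ := by ring

/-! ### formal expressions -/

/-- expressions in one variable function and the planar functions -/
inductive Ex (E : Set (ℝ × ℝ)) : Type
  | const (c : ℝ) : Ex E
  | psi : Ex E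
  | of (b : ℝ × ℝ → ℝ) (hb : Pl E b) : Ex E
  | add (e f : Ex E) : Ex E
  | mul (e f : Ex E) : Ex E
  | comp (h : ℝ → ℝ) (K : NNReal) (hh : LipschitzWith K h) (e : Ex E) : Ex E

variable {E : Set (ℝ × ℝ)}

/-- value -/
def Ex.eval (θ : ℝ × ℝ → ℝ) : Ex E → ℝ × ℝ → ℝ
  | .const c => fun _ => c
  | .psi => θ
  | .of b _ => b
  | .add e f => fun p => e.eval θ p + f.eval θ p
  | .mul e f => fun p => e.eval θ p * f.eval θ p
  | .comp h _ _ e => fun p => h (e.eval θ p)

theorem Ex.gen (θ : ℝ × ℝ → ℝ) (e : Ex E) : Gen (insert θ {b | Pl E b}) (e.eval θ) := by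
  induction e with
  | const c => exact Gen.const c
  | psi => exact Gen.of _ (mem_insert _ _)
  | of b hb => exact Gen.of _ (mem_insert_of_mem _ hb)
  | add e f he hf => exact Gen.add _ _ he hf
  | mul e f he hf => exact Gen.mul _ _ he hf
  | comp h K hh e he => exact Gen.comp _ _ ⟨K, hh⟩ he

theorem exists_ex {θ u : ℝ × ℝ → ℝ} (h : Gen (insert θ {b | Pl E b}) u) :
    ∃ e : Ex E, e.eval θ = u := by
  induction h with
  | const c => exact ⟨.const c, rfl⟩
  | of u hu =>
      rcases hu with hu | hu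
      · exact ⟨.psi, hu.symm⟩
      · exact ⟨.of u hu, rfl⟩
  | add u v _ _ hu hv =>
      obtain ⟨e, rfl⟩ := hu
      obtain ⟨f, rfl⟩ := hv
      exact ⟨.add e f, rfl⟩
  | mul u v _ _ hu hv =>
      obtain ⟨e, rfl⟩ := hu
      obtain ⟨f, rfl⟩ := hv
      exact ⟨.mul e f, rfl⟩
  | comp h u hh _ hu =>
      obtain ⟨e, rfl⟩ := hu
      obtain ⟨K, hK⟩ := hh
      exact ⟨.comp h K hK e, rfl⟩

theorem Ex.eval_congr {θ θ' : ℝ × ℝ → ℝ} {p : ℝ × ℝ} (h : θ p = θ' p) (e : Ex E) :
    e.eval θ p = e.eval θ' p := by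
  induction e with
  | const c => rfl
  | psi => exact h
  | of b hb => rfl
  | add e f he hf => simp only [Ex.eval, he, hf]
  | mul e f he hf => simp only [Ex.eval, he, hf]
  | comp g K hh e he => simp only [Ex.eval, he]

/-- size of the gradients of the planar functions which occur -/
noncomputable def Ex.sz : Ex E → ℝ × ℝ → ℝ
  | .const _ => fun _ => 0
  | .psi => fun _ => 0
  | .of b _ => s1 b
  | .add e f => fun p => e.sz p + f.sz p
  | .mul e f => fun p => e.sz p + f.sz p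
  | .comp _ _ _ e => e.sz

/-- the planar functions which occur are differentiable -/
def Ex.dif : Ex E → ℝ × ℝ → Prop
  | .const _ => fun _ => True
  | .psi => fun _ => True
  | .of b _ => fun p => DifferentiableAt ℝ b p
  | .add e f => fun p => e.dif p ∧ f.dif p
  | .mul e f => fun p => e.dif p ∧ f.dif p
  | .comp _ _ _ e => e.dif

theorem Ex.sz_nonneg (e : Ex E) (p : ℝ × ℝ) : 0 ≤ e.sz p := by
  induction e with
  | const c => exact le_rfl
  | psi => exact le_rfl
  | of b hb => exact s1_nonneg b p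
  | add e f he hf => exact add_nonneg he hf
  | mul e f he hf => exact add_nonneg he hf
  | comp g K hh e he => exact he

theorem Ex.measurable_sz (e : Ex E) : Measurable e.sz := by
  induction e with
  | const c => exact measurable_const
  | psi => exact measurable_const
  | of b hb => exact measurable_s1 b
  | add e f he hf => exact he.add hf
  | mul e f he hf => exact he.add hf
  | comp g K hh e he => exact he

theorem Ex.ae_dif (hE : IsClosed E) (e : Ex E) : ∀ᵐ p ∂(volume.restrict Eᶜ), e.dif p := by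
  induction e with
  | const c => exact Eventually.of_forall fun _ => trivial
  | psi => exact Eventually.of_forall fun _ => trivial
  | of b hb => exact ae_diff hE.isOpen_compl hb.1.lip
  | add e f he hf => exact he.and hf
  | mul e f he hf => exact he.and hf
  | comp g K hh e he => exact he

theorem Ex.int_sz (e : Ex E) : IntegrableOn (fun p => e.sz p ^ 2) Eᶜ := by
  have two : ∀ f g : ℝ × ℝ → ℝ, Measurable f → Measurable g →
      IntegrableOn (fun p => f p ^ 2) Eᶜ → IntegrableOn (fun p => g p ^ 2) Eᶜ →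
      IntegrableOn (fun p => (f p + g p) ^ 2) Eᶜ := by
    intro f g hf hg h1 h2
    refine Integrable.mono' ((h1.const_mul 2).add (h2.const_mul 2))
      (((hf.add hg).pow_const 2).aestronglyMeasurable) (Eventually.of_forall fun p => ?_)
    rw [Real.norm_of_nonneg (sq_nonneg _)]
    simp only [Pi.add_apply]
    nlinarith [sq_nonneg (f p - g p)]
  induction e with
  | const c => simp [Ex.sz]
  | psi => simp [Ex.sz]
  | of b hb =>
      refine Integrable.mono' (hb.1.fin.const_mul 2)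
        (((measurable_s1 b).pow_const 2).aestronglyMeasurable) (Eventually.of_forall fun p => ?_)
      rw [Real.norm_of_nonneg (sq_nonneg _)]
      exact s1_sq_le b p
  | add e f he hf => exact two _ _ e.measurable_sz f.measurable_sz he hf
  | mul e f he hf => exact two _ _ e.measurable_sz f.measurable_sz he hf
  | comp g K hh e he => exact he

/-- the uniform bounds -/
theorem Ex.bound (e : Ex E) (C : ℝ) : ∃ B M : ℝ, 0 ≤ M ∧ ∀ θ : ℝ × ℝ → ℝ, (∀ p, |θ p| ≤ C) →
    (∀ p, |e.eval θ p| ≤ B) ∧ ∀ p, DifferentiableAt ℝ θ p → e.dif p → ∀ ε > 0,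
      PW (e.eval θ) p (M * (e.sz p + s1 θ p + ε)) := by
  induction e with
  | const c =>
      refine ⟨|c|, 0, le_rfl, fun θ _ => ⟨fun p => le_rfl, fun p _ _ ε _ => ?_⟩⟩
      refine Eventually.of_forall fun q => ?_
      simp [Ex.eval]
  | psi =>
      refine ⟨C, 1, zero_le_one, fun θ hθ => ⟨hθ, fun p hp _ ε hε => ?_⟩⟩
      have := pw_of_diff hp hε
      refine this.mono ?_
      simp [Ex.sz]
  | of b hb =>
      obtain ⟨B, hB⟩ := hb.1.bdd
      refine ⟨B, 1, zero_le_one, fun θ hθ => ⟨hB, fun p hp hd ε hε => ?_⟩⟩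
      have := pw_of_diff (u := b) hd hε
      refine this.mono ?_
      have := s1_nonneg θ p
      simp only [Ex.sz]
      linarith
  | add e f he hf =>
      obtain ⟨B, M, hM, h⟩ := he
      obtain ⟨B', M', hM', h'⟩ := hf
      refine ⟨B + B', M + M', by positivity, fun θ hθ => ⟨fun p => ?_, fun p hp hd ε hε => ?_⟩⟩
      · exact (abs_add_le _ _).trans (add_le_add ((h θ hθ).1 p) ((h' θ hθ).1 p))
      · have h1 := (h θ hθ).2 p hp hd.1 ε hε
        have h2 := (h' θ hθ).2 p hp hd.2 ε hε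
        refine (h1.add h2).mono ?_
        have e1 := e.sz_nonneg p
        have e2 := f.sz_nonneg p
        simp only [Ex.sz]
        nlinarith [mul_nonneg hM e2, mul_nonneg hM' e1]
  | mul e f he hf =>
      obtain ⟨B, M, hM, h⟩ := he
      obtain ⟨B', M', hM', h'⟩ := hf
      refine ⟨|B| * |B'|, |B| * M' + |B'| * M, by positivity, fun θ hθ => ⟨fun p => ?_,
        fun p hp hd ε hε => ?_⟩⟩
      · simp only [Ex.eval]
        rw [abs_mul]
        exact mul_le_mul (((h θ hθ).1 p).trans (le_abs_self _))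
          (((h' θ hθ).1 p).trans (le_abs_self _)) (abs_nonneg _) (abs_nonneg _)
      · have h1 := (h θ hθ).2 p hp hd.1 ε hε
        have h2 := (h' θ hθ).2 p hp hd.2 ε hε
        refine (h1.mul h2 (fun q => ((h θ hθ).1 q).trans (le_abs_self B))
          (fun q => ((h' θ hθ).1 q).trans (le_abs_self B'))).mono ?_
        have e1 := e.sz_nonneg p
        have e2 := f.sz_nonneg p
        simp only [Ex.sz]
        have k1 := mul_nonneg (mul_nonneg (abs_nonneg B) hM') e1
        have k2 := mul_nonneg (mul_nonneg (abs_nonneg B') hM) e2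
        nlinarith
  | comp g K hh e he =>
      obtain ⟨B, M, hM, h⟩ := he
      refine ⟨|g 0| + K * |B|, K * M, by positivity, fun θ hθ => ⟨fun p => ?_,
        fun p hp hd ε hε => ?_⟩⟩
      · have h1 := hh.dist_le_mul (e.eval θ p) 0
        rw [Real.dist_eq, Real.dist_eq, sub_zero] at h1
        have h2 := ((h θ hθ).1 p).trans (le_abs_self _)
        have h3 : |g (e.eval θ p)| ≤ |g (e.eval θ p) - g 0| + |g 0| := by
          have := abs_add_le (g (e.eval θ p) - g 0) (g 0); simpa using this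
        have h4 : (K : ℝ) * |e.eval θ p| ≤ K * |B| := mul_le_mul_of_nonneg_left h2 K.2
        simp only [Ex.eval]
        linarith
      · have h1 := (h θ hθ).2 p hp hd ε hε
        have h2 := h1.comp hh
        refine h2.mono ?_
        simp only [Ex.sz]
        exact le_of_eq (by ring)

theorem Ex.s1_le (e : Ex E) (C : ℝ) : ∃ M : ℝ, 0 ≤ M ∧ ∀ θ : ℝ × ℝ → ℝ, (∀ p, |θ p| ≤ C) →
    ∀ p, DifferentiableAt ℝ θ p → e.dif p → s1 (e.eval θ) p ≤ M * (e.sz p + s1 θ p) := by
  obtain ⟨B, M, hM, h⟩ := e.bound C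
  refine ⟨2 * M, by positivity, fun θ hθ p hp hd => ?_⟩
  have h0 : 0 ≤ e.sz p + s1 θ p := add_nonneg (e.sz_nonneg p) (s1_nonneg θ p)
  have key : ∀ ε > 0, s1 (e.eval θ) p ≤ 2 * M * (e.sz p + s1 θ p) + 2 * M * ε := by
    intro ε hε
    have h1 := ((h θ hθ).2 p hp hd ε hε).s1_le (by positivity)
    nlinarith
  apply le_of_forall_pos_le_add
  intro δ hδ
  have h2 := key (δ / (2 * M + 1)) (by positivity)
  have h3 : 2 * M * (δ / (2 * M + 1)) ≤ δ := by
    rw [mul_div_assoc', div_le_iff₀ (by positivity)]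
    nlinarith
  linarith

/-! ### the limit -/

/-- the area form -/
noncomputable def wd (u v : ℝ × ℝ → ℝ) (p : ℝ × ℝ) : ℝ := gx u p * gy v p - gy u p * gx v p

theorem measurable_wd (u v : ℝ × ℝ → ℝ) : Measurable (wd u v) :=
  ((measurable_gx u).mul (measurable_gy v)).sub ((measurable_gy u).mul (measurable_gx v))

theorem abs_wd_le (u v : ℝ × ℝ → ℝ) (p : ℝ × ℝ) : |wd u v p| ≤ s1 u p * s1 v p := by
  unfold wd s1
  refine (abs_sub _ _).trans ?_
  rw [abs_mul, abs_mul]
  nlinarith [mul_nonneg (abs_nonneg (gx u p)) (abs_nonneg (gx v p)),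
    mul_nonneg (abs_nonneg (gy u p)) (abs_nonneg (gy v p))]

theorem wd_congr {u v u' v' : ℝ × ℝ → ℝ} {p : ℝ × ℝ} (h : u =ᶠ[𝓝 p] u') (k : v =ᶠ[𝓝 p] v') :
    wd u v p = wd u' v' p := by
  unfold wd
  rw [gx_congr h, gy_congr h, gx_congr k, gy_congr k]

/-- one uniform bound for the area form of two expressions -/
theorem wd_bound (e f : Ex E) (C : ℝ) : ∃ K : ℝ, 0 ≤ K ∧ ∀ θ : ℝ × ℝ → ℝ, (∀ p, |θ p| ≤ C) →
    ∀ p, DifferentiableAt ℝ θ p → e.dif p → f.dif p →
      |wd (e.eval θ) (f.eval θ) p| ≤ K * (e.sz p ^ 2 + f.sz p ^ 2 + g2 θ p) := by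
  obtain ⟨M, hM, h⟩ := e.s1_le C
  obtain ⟨M', hM', h'⟩ := f.s1_le C
  refine ⟨4 * M * M', by positivity, fun θ hθ p hp hd hd' => ?_⟩
  have h1 := h θ hθ p hp hd
  have h2 := h' θ hθ p hp hd'
  have e1 := e.sz_nonneg p
  have e2 := f.sz_nonneg p
  have e3 := s1_nonneg θ p
  have h3 : s1 (e.eval θ) p * s1 (f.eval θ) p ≤
      (M * (e.sz p + s1 θ p)) * (M' * (f.sz p + s1 θ p)) :=
    mul_le_mul h1 h2 (s1_nonneg _ _) (by positivity)
  have h4 := s1_sq_le θ p
  have h5 : (e.sz p + s1 θ p) * (f.sz p + s1 θ p) ≤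
      4 * (e.sz p ^ 2 + f.sz p ^ 2 + g2 θ p) := by
    nlinarith [sq_nonneg (e.sz p - f.sz p), sq_nonneg (e.sz p - s1 θ p),
      sq_nonneg (f.sz p - s1 θ p), g2_nonneg θ p]
  calc |wd (e.eval θ) (f.eval θ) p| ≤ s1 (e.eval θ) p * s1 (f.eval θ) p := abs_wd_le _ _ _
    _ ≤ (M * (e.sz p + s1 θ p)) * (M' * (f.sz p + s1 θ p)) := h3
    _ = M * M' * ((e.sz p + s1 θ p) * (f.sz p + s1 θ p)) := by ring
    _ ≤ M * M' * (4 * (e.sz p ^ 2 + f.sz p ^ 2 + g2 θ p)) :=
        mul_le_mul_of_nonneg_left h5 (by positivity)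
    _ = _ := by ring

theorem integrable_wd (hE : IsClosed E) (e f : Ex E) {C : ℝ} {θ : ℝ × ℝ → ℝ}
    (hb : ∀ p, |θ p| ≤ C) (hr : LocallyLipschitzOn Eᶜ θ) (hi : IntegrableOn (g2 θ) Eᶜ) :
    IntegrableOn (wd (e.eval θ) (f.eval θ)) Eᶜ := by
  obtain ⟨K, hK, h⟩ := wd_bound e f C
  refine Integrable.mono' (((e.int_sz.add f.int_sz).add hi).const_mul K)
    (measurable_wd _ _).aestronglyMeasurable ?_
  filter_upwards [ae_diff hE.isOpen_compl hr, e.ae_dif hE, f.ae_dif hE] with p h1 h2 h3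
  exact h θ hb p h1 h2 h3

/-- **ISOLIM** -/
theorem isolim : ISOLIM := by
  intro E hP φ ψ hφ hψ _ hbd hev hlim hiso u v hu hv
  obtain ⟨e, rfl⟩ := exists_ex hu
  obtain ⟨f, rfl⟩ := exists_ex hv
  have hE : IsClosed E := hP.cpt.isClosed
  have hO : IsOpen Eᶜ := hE.isOpen_compl
  obtain ⟨C0, hC0⟩ := hbd
  obtain ⟨C1, hC1⟩ := hψ.bdd
  set C := max C0 C1 with hC
  have hφC : ∀ n p, |φ n p| ≤ C := fun n p => (hC0 n p).trans (le_max_left _ _)
  have hψC : ∀ p, |ψ p| ≤ C := fun p => (hC1 p).trans (le_max_right _ _)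
  obtain ⟨K, hK, hKb⟩ := wd_bound e f C
  have I0 : IntegrableOn (wd (e.eval ψ) (f.eval ψ)) Eᶜ := integrable_wd hE e f hψC hψ.lip hψ.fin
  have In : ∀ n, IntegrableOn (wd (e.eval (φ n)) (f.eval (φ n))) Eᶜ := fun n =>
    integrable_wd hE e f (hφC n) (hφ n).lip (hφ n).fin
  have hzero : ∀ n, ∫ p in Eᶜ, wd (e.eval (φ n)) (f.eval (φ n)) p = 0 := fun n =>
    hiso n _ _ (e.gen (φ n)) (f.gen (φ n))
  -- the differences
  have hdd : ∀ n, IntegrableOn (g2 (fun q => φ n q - ψ q)) Eᶜ := by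
    intro n
    refine Integrable.mono' (((hφ n).fin.const_mul 2).add (hψ.fin.const_mul 2))
      (measurable_g2 _).aestronglyMeasurable ?_
    filter_upwards [ae_diff hO (hφ n).lip, ae_diff hO hψ.lip] with p h1 h2
    rw [Real.norm_of_nonneg (g2_nonneg _ _)]
    unfold g2
    rw [gx_sub h1 h2, gy_sub h1 h2]
    simp only [Pi.add_apply]
    nlinarith [sq_nonneg (gx (φ n) p + gx ψ p), sq_nonneg (gy (φ n) p + gy ψ p)]
  -- the good sets
  set good : ℕ → Set (ℝ × ℝ) := fun n => {p | ∀ᶠ q in 𝓝 p, φ n q = ψ q} with hgood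
  have hgo : ∀ n, IsOpen (good n) := by
    intro n
    rw [isOpen_iff_mem_nhds]
    intro p hp
    exact (eventually_eventually_nhds.2 hp)
  set D : ℝ × ℝ → ℝ := fun p => e.sz p ^ 2 + f.sz p ^ 2 + g2 ψ p with hD
  have hDi : IntegrableOn D Eᶜ := (e.int_sz.add f.int_sz).add hψ.fin
  have hD0 : ∀ p, 0 ≤ D p := fun p => by
    simp only [hD]
    have := g2_nonneg ψ p
    positivity
  have hDm : Measurable D :=
    ((e.measurable_sz.pow_const 2).add (f.measurable_sz.pow_const 2)).add (measurable_g2 ψ)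
  have hT : Tendsto (fun n => ∫ p in Eᶜ, (good n)ᶜ.indicator D p) atTop (𝓝 0) := by
    have h0 : ∫ p in Eᶜ, (0 : ℝ × ℝ → ℝ) p = 0 := by simp
    rw [← h0]
    refine tendsto_integral_of_dominated_convergence D
      (fun n => (hDm.indicator (hgo n).measurableSet.compl).aestronglyMeasurable) hDi
      (fun n => Eventually.of_forall fun p => ?_) ?_
    · rw [Real.norm_of_nonneg (indicator_nonneg (fun q _ => hD0 q) p)]
      exact indicator_le_self' (fun q _ => hD0 q) p
    · rw [ae_restrict_iff' hO.measurableSet]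
      refine Eventually.of_forall fun p hp => ?_
      obtain ⟨r, hr, hrO⟩ := Metric.nhds_basis_closedBall.mem_iff.1 (hO.mem_nhds hp)
      refine tendsto_const_nhds.congr' ?_
      filter_upwards [hev _ (isCompact_closedBall p r) hrO] with n hn
      have hpg : p ∈ good n := by
        filter_upwards [Metric.closedBall_mem_nhds p hr] with q hq
        exact hn q hq
      rw [indicator_of_notMem (show p ∉ (good n)ᶜ from fun h => h hpg)]
      rfl
  -- the estimate
  have hest : ∀ n, |∫ p in Eᶜ, wd (e.eval ψ) (f.eval ψ) p| ≤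
      (4 * K) * (∫ p in Eᶜ, (good n)ᶜ.indicator D p) +
        (2 * K) * ∫ p in Eᶜ, g2 (fun q => φ n q - ψ q) p := by
    intro n
    have h1 : ∫ p in Eᶜ, wd (e.eval ψ) (f.eval ψ) p =
        ∫ p in Eᶜ, (wd (e.eval ψ) (f.eval ψ) p - wd (e.eval (φ n)) (f.eval (φ n)) p) := by
      rw [integral_sub I0 (In n), hzero n, sub_zero]
    have hDin : IntegrableOn ((good n)ᶜ.indicator D) Eᶜ :=
      hDi.indicator (hgo n).measurableSet.compl
    rw [h1, ← integral_const_mul, ← integral_const_mul,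
      ← integral_add (hDin.const_mul _) ((hdd n).const_mul _), ← Real.norm_eq_abs]
    refine norm_integral_le_of_norm_le ((hDin.const_mul _).add ((hdd n).const_mul _)) ?_
    filter_upwards [ae_diff hO (hφ n).lip, ae_diff hO hψ.lip, e.ae_dif hE, f.ae_dif hE]
      with p h2 h3 h4 h5
    have hg0 := g2_nonneg (fun q => φ n q - ψ q) p
    by_cases hp : p ∈ good n
    · have e1 : e.eval ψ =ᶠ[𝓝 p] e.eval (φ n) := by
        filter_upwards [hp] with q hq
        exact (Ex.eval_congr hq e).symm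
      have e2 : f.eval ψ =ᶠ[𝓝 p] f.eval (φ n) := by
        filter_upwards [hp] with q hq
        exact (Ex.eval_congr hq f).symm
      rw [wd_congr e1 e2, sub_self, norm_zero]
      have := indicator_nonneg (s := (good n)ᶜ) (fun q _ => hD0 q) p
      positivity
    · rw [indicator_of_mem (show p ∈ (good n)ᶜ from hp)]
      have k1 := hKb ψ hψC p h3 h4 h5
      have k2 := hKb (φ n) (hφC n) p h2 h4 h5
      have k3 : g2 (φ n) p ≤ 2 * g2 (fun q => φ n q - ψ q) p + 2 * g2 ψ p := by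
        unfold g2
        rw [gx_sub h2 h3, gy_sub h2 h3]
        nlinarith [sq_nonneg (gx (φ n) p - 2 * gx ψ p), sq_nonneg (gy (φ n) p - 2 * gy ψ p)]
      rw [Real.norm_eq_abs]
      refine (abs_sub _ _).trans ?_
      have hs1 := sq_nonneg (e.sz p)
      have hs2 := sq_nonneg (f.sz p)
      have k4 : K * (e.sz p ^ 2 + f.sz p ^ 2 + g2 (φ n) p) ≤
          K * (e.sz p ^ 2 + f.sz p ^ 2 + (2 * g2 (fun q => φ n q - ψ q) p + 2 * g2 ψ p)) :=
        mul_le_mul_of_nonneg_left (by linarith) hK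
      simp only [hD]
      have k5 := g2_nonneg ψ p
      nlinarith [mul_nonneg hK hs1, mul_nonneg hK hs2, mul_nonneg hK k5, mul_nonneg hK hg0]
  have hlim2 : Tendsto (fun n => (4 * K) * (∫ p in Eᶜ, (good n)ᶜ.indicator D p) +
      (2 * K) * ∫ p in Eᶜ, g2 (fun q => φ n q - ψ q) p) atTop (𝓝 0) := by
    have := (hT.const_mul (4 * K)).add (hlim.const_mul (2 * K))
    simpa using this
  have hfin : |∫ p in Eᶜ, wd (e.eval ψ) (f.eval ψ) p| ≤ 0 :=
    ge_of_tendsto hlim2 (Eventually.of_forall hest)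
  exact abs_nonpos_iff.1 hfin

end Crest.Agent.R105.Isl_157
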