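import Mathlib
import Crest.Agent.R105.Bd1_775

/-!
# Row 105, ISO-PP, core (helper938), part 1: one variable

`line_ftc` : increments dominated by the integral of an integrable function and a derivative
almost everywhere give the fundamental theorem of calculus;
`inc_of_local` : the domination of increments is local; `ae_hor`, `ae_ver` : Fubini on `ℂ`.
-/

set_option autoImplicit false

open MeasureTheory Set Filter Topology Metric
open scoped NNReal ENNReal

namespace Crest.Agent.R105.Iso_938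

noncomputable section

/-! ### one variable -/

lemma ii_sub {m : ℝ → ℝ} {a b s t : ℝ} (hm : IntervalIntegrable m volume a b) (h1 : a ≤ s)
    (h2 : s ≤ t) (h3 : t ≤ b) : IntervalIntegrable m volume s t := by
  refine hm.mono_set ?_
  rw [uIcc_of_le h2, uIcc_of_le ((h1.trans h2).trans h3)]
  exact Icc_subset_Icc h1 h3

theorem ac_of_inc {f m : ℝ → ℝ} {a b : ℝ} (hab : a ≤ b) (hm : IntervalIntegrable m volume a b)
    (hf : ∀ s t, a ≤ s → s ≤ t → t ≤ b → |f t - f s| ≤ ∫ x in s..t, m x) :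
    AbsolutelyContinuousOnInterval f a b := by
  have hM : AbsolutelyContinuousOnInterval (fun x ↦ ∫ v in a..x, m v) a b :=
    hm.absolutelyContinuousOnInterval_intervalIntegral left_mem_uIcc
  have key : ∀ s ∈ uIcc a b, ∀ t ∈ uIcc a b,
      dist (f s) (f t) ≤ dist (∫ v in a..s, m v) (∫ v in a..t, m v) := by
    have k1 : ∀ s t, a ≤ s → s ≤ t → t ≤ b →
        dist (f s) (f t) ≤ dist (∫ v in a..s, m v) (∫ v in a..t, m v) := by
      intro s t h1 h2 h3
      have e := intervalIntegral.integral_interval_sub_left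
        (ii_sub hm le_rfl (h1.trans h2) h3) (ii_sub hm le_rfl h1 (h2.trans h3))
      rw [dist_comm, Real.dist_eq, dist_comm, Real.dist_eq, e]
      exact (hf s t h1 h2 h3).trans (le_abs_self _)
    intro s hs t ht
    rw [uIcc_of_le hab] at hs ht
    rcases le_total s t with h | h
    · exact k1 s t hs.1 h ht.2
    · rw [dist_comm, dist_comm (∫ v in a..s, m v)]
      exact k1 t s ht.1 h hs.2
  rw [absolutelyContinuousOnInterval_iff] at hM ⊢
  intro ε hε
  obtain ⟨δ, hδ, h⟩ := hM ε hε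
  refine ⟨δ, hδ, fun E hE hs => lt_of_le_of_lt ?_ (h E hE hs)⟩
  refine Finset.sum_le_sum fun i hi => ?_
  exact key _ (hE.1 i hi).1 _ (hE.1 i hi).2

theorem line_ftc {f g m : ℝ → ℝ} {a b : ℝ} (hab : a ≤ b) (hm : IntervalIntegrable m volume a b)
    (hf : ∀ s t, a ≤ s → s ≤ t → t ≤ b → |f t - f s| ≤ ∫ x in s..t, m x)
    (hd : ∀ᵐ x, x ∈ Icc a b → HasDerivAt f (g x) x) : f b - f a = ∫ x in a..b, g x := by
  have h1 := (ac_of_inc hab hm hf).integral_deriv_eq_sub
  rw [← h1]
  refine intervalIntegral.integral_congr_ae ?_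
  filter_upwards [hd] with x hx hxI
  rw [uIoc_of_le hab] at hxI
  exact (hx (Ioc_subset_Icc_self hxI)).deriv

/-- domination of increments is a local property -/
theorem inc_of_local {f m : ℝ → ℝ} {a b : ℝ} (hab : a ≤ b)
    (hm : IntervalIntegrable m volume a b)
    (h : ∀ x ∈ Icc a b, ∃ δ > 0, ∀ s t, a ≤ s → s ≤ t → t ≤ b → |s - x| < δ → |t - x| < δ →
      |f t - f s| ≤ ∫ x in s..t, m x) : |f b - f a| ≤ ∫ x in a..b, m x := by
  choose! δ hδ hl using h
  obtain ⟨t, h0, hmono, ⟨n, hn⟩, ht⟩ := exists_monotone_Icc_subset_open_cover_Icc hab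
    (c := fun x : Icc a b => {y : Icc a b | dist y x < δ x})
    (fun x => isOpen_lt (continuous_id.dist continuous_const) continuous_const)
    (fun x _ => mem_iUnion.2 ⟨x, by
      simp only [mem_ofPred_eq, dist_self]; exact hδ x x.2⟩)
  have key : ∀ k : ℕ, |f (t k) - f a| ≤ ∫ x in a..(t k), m x := by
    intro k
    induction k with
    | zero => rw [h0]; simp
    | succ k ih =>
      obtain ⟨x, hx⟩ := ht k
      have hk : t k ≤ t (k + 1) := hmono (Nat.le_succ k)
      have e1 : dist (t k) x < δ x := hx ⟨le_rfl, hk⟩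
      have e2 : dist (t (k + 1)) x < δ x := hx ⟨hk, le_rfl⟩
      rw [Subtype.dist_eq, Real.dist_eq] at e1 e2
      have e3 := hl x x.2 (t k) (t (k + 1)) (t k).2.1 hk (t (k + 1)).2.2 e1 e2
      have e4 : (∫ x in a..(t k), m x) + ∫ x in (t k : ℝ)..(t (k + 1)), m x
          = ∫ x in a..(t (k + 1)), m x :=
        intervalIntegral.integral_add_adjacent_intervals
          (ii_sub hm le_rfl (t k).2.1 (t k).2.2) (ii_sub hm (t k).2.1 hk (t (k + 1)).2.2)
      have e5 : f (t (k + 1)) - f a = (f (t k) - f a) + (f (t (k + 1)) - f (t k)) := by ring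
      rw [e5, ← e4]
      exact (abs_add_le _ _).trans (add_le_add ih e3)
  have := key n
  rw [hn n le_rfl] at this
  exact this

/-- locally Lipschitz functions of one variable -/
theorem inc_of_locLip {f g : ℝ → ℝ} {a b : ℝ} (hab : a ≤ b) (hf : LocallyLipschitz f)
    (hg : IntervalIntegrable g volume a b)
    (hd : ∀ᵐ x, x ∈ Icc a b → HasDerivAt f (g x) x) : |f b - f a| ≤ ∫ x in a..b, |g x| := by
  refine inc_of_local hab hg.abs fun x hx => ?_
  obtain ⟨K, u, hu, hL⟩ := hf x
  obtain ⟨δ, hδ, hs⟩ := Metric.mem_nhds_iff.1 hu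
  refine ⟨δ, hδ, fun s t h1 h2 h3 h4 h5 => ?_⟩
  have hsub : Icc s t ⊆ ball x δ := by
    intro r hr
    rw [mem_ball, Real.dist_eq]
    rw [abs_lt] at h4 h5 ⊢
    constructor <;> linarith [hr.1, hr.2]
  have hac : AbsolutelyContinuousOnInterval f s t := by
    apply LipschitzOnWith.absolutelyContinuousOnInterval (K := K)
    rw [uIcc_of_le h2]
    exact hL.mono (hsub.trans hs)
  have e1 := hac.integral_deriv_eq_sub
  have e2 : ∫ x in s..t, deriv f x = ∫ x in s..t, g x := by
    refine intervalIntegral.integral_congr_ae ?_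
    filter_upwards [hd] with y hy hyI
    rw [uIoc_of_le h2] at hyI
    exact (hy ⟨h1.trans hyI.1.le, hyI.2.trans h3⟩).deriv
  rw [← e1, e2]
  exact intervalIntegral.abs_integral_le_integral_abs h2

/-! ### Fubini on `ℂ` -/

lemma ae_ver {P : ℂ → Prop} (h : ∀ᵐ z : ℂ, P z) : ∀ᵐ x : ℝ, ∀ᵐ y : ℝ, P ⟨x, y⟩ := by
  have h1 : ∀ᵐ p : ℝ × ℝ, P (Complex.measurableEquivRealProd.symm p) :=
    Complex.volume_preserving_equiv_real_prod.symm.quasiMeasurePreserving.ae h
  exact Measure.ae_ae_of_ae_prod h1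

lemma ae_hor {P : ℂ → Prop} (h : ∀ᵐ z : ℂ, P z) : ∀ᵐ y : ℝ, ∀ᵐ x : ℝ, P ⟨x, y⟩ := by
  have h1 : ∀ᵐ p : ℝ × ℝ, P (Complex.measurableEquivRealProd.symm p) :=
    Complex.volume_preserving_equiv_real_prod.symm.quasiMeasurePreserving.ae h
  have h2 : ∀ᵐ p : ℝ × ℝ, P (Complex.measurableEquivRealProd.symm p.swap) :=
    (Measure.measurePreserving_swap (μ := (volume : Measure ℝ))
      (ν := (volume : Measure ℝ))).quasiMeasurePreserving.ae h1
  exact Measure.ae_ae_of_ae_prod h2

lemma integral_c (g : ℂ → ℝ) : ∫ z : ℂ, g z = ∫ p : ℝ × ℝ, g ⟨p.1, p.2⟩ := by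
  have := Complex.volume_preserving_equiv_real_prod.symm.integral_comp
    (Complex.measurableEquivRealProd.symm.measurableEmbedding) g
  rw [← this]
  rfl

lemma integrable_c {g : ℂ → ℝ} (h : Integrable g) :
    Integrable (fun p : ℝ × ℝ => g ⟨p.1, p.2⟩) := by
  have := (Complex.volume_preserving_equiv_real_prod.symm.integrable_comp_emb
    (Complex.measurableEquivRealProd.symm.measurableEmbedding) (g := g)).2 h
  exact this

/-- `∫ g = ∫ (∫ g(x,y) dx) dy` -/
lemma integral_hor {g : ℂ → ℝ} (h : Integrable g) : ∫ z : ℂ, g z = ∫ y : ℝ, ∫ x : ℝ, g ⟨x, y⟩ := by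
  rw [integral_c]
  exact integral_prod_symm _ (integrable_c h)

lemma integral_ver {g : ℂ → ℝ} (h : Integrable g) : ∫ z : ℂ, g z = ∫ x : ℝ, ∫ y : ℝ, g ⟨x, y⟩ := by
  rw [integral_c]
  exact integral_prod _ (integrable_c h)

lemma measurable_mk_left (y : ℝ) : Measurable fun x : ℝ => (⟨x, y⟩ : ℂ) :=
  Complex.measurableEquivRealProd.symm.measurable.comp (measurable_id.prodMk measurable_const)

lemma measurable_mk_right (x : ℝ) : Measurable fun y : ℝ => (⟨x, y⟩ : ℂ) :=
  Complex.measurableEquivRealProd.symm.measurable.comp (measurable_const.prodMk measurable_id)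

lemma sq_ii {m : ℝ → ℝ} (hm : Measurable m) (h : Integrable fun x => m x ^ 2) (a b : ℝ) :
    IntervalIntegrable m volume a b := by
  have h1 : MemLp m 2 volume := (memLp_two_iff_integrable_sq hm.aestronglyMeasurable).2 h
  have h2 : LocallyIntegrable m volume := h1.locallyIntegrable (by norm_num)
  exact (h2.integrableOn_isCompact isCompact_uIcc).intervalIntegrable

lemma ii_hor {m : ℂ → ℝ} (hm : Measurable m) (h : MemLp m 2) :
    ∀ᵐ y : ℝ, ∀ a b : ℝ, IntervalIntegrable (fun x => m ⟨x, y⟩) volume a b := by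
  have h1 := integrable_c ((memLp_two_iff_integrable_sq hm.aestronglyMeasurable).1 h)
  filter_upwards [h1.prod_left_ae] with y hy a b
  exact sq_ii (hm.comp (measurable_mk_left y)) hy a b

lemma ii_ver {m : ℂ → ℝ} (hm : Measurable m) (h : MemLp m 2) :
    ∀ᵐ x : ℝ, ∀ a b : ℝ, IntervalIntegrable (fun y => m ⟨x, y⟩) volume a b := by
  have h1 := integrable_c ((memLp_two_iff_integrable_sq hm.aestronglyMeasurable).1 h)
  filter_upwards [h1.prod_right_ae] with y hy a b
  exact sq_ii (hm.comp (measurable_mk_right y)) hy a b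

end

end Crest.Agent.R105.Iso_938
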