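import Mathlib
import Crest.Agent.R105.Iso1_938

/-!
# Row 105, ISO-PP, core (helper938), part 2: functions which are planar off `G`

`Dom G u m` : the increments of `u` along a.e. horizontal and a.e. vertical segment off `G` are
dominated by the integral of `m`, `m` in `L²`; `PL E G u` : `u` in the class `Q E` of helper775
and `∃ m, Dom G u m` ("planar off `G`").  Closure under the operations of `Gen`, cut-off,
fundamental theorem of calculus on a.e. line when `E` is null.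
-/

set_option autoImplicit false

open MeasureTheory Set Filter Topology Metric
open scoped NNReal ENNReal

namespace Crest.Agent.R105.Iso_938

open Crest.Agent.R105.Bd_775

noncomputable section

/-- increments of `u` along horizontal and vertical segments off `G` are dominated by `m` -/
structure Dom (G : Set ℂ) (u m : ℂ → ℝ) : Prop where
  nn : ∀ z, 0 ≤ m z
  meas : Measurable m
  mem : MemLp m 2
  hor : ∀ᵐ y : ℝ, ∀ a b : ℝ, a ≤ b → (∀ s ∈ Icc a b, (⟨s, y⟩ : ℂ) ∉ G) →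
    |u ⟨b, y⟩ - u ⟨a, y⟩| ≤ ∫ s in a..b, m ⟨s, y⟩
  ver : ∀ᵐ x : ℝ, ∀ a b : ℝ, a ≤ b → (∀ s ∈ Icc a b, (⟨x, s⟩ : ℂ) ∉ G) →
    |u ⟨x, b⟩ - u ⟨x, a⟩| ≤ ∫ s in a..b, m ⟨x, s⟩

/-- `u` is planar off `G` -/
structure PL (E G : Set ℂ) (u : ℂ → ℝ) : Prop extends Q E u where
  dom : ∃ m, Dom G u m

/-! ### operations on `Dom` -/

lemma Dom.mono {G G' : Set ℂ} {u m : ℂ → ℝ} (h : Dom G u m) (hG : G ⊆ G') : Dom G' u m where
  nn := h.nn
  meas := h.meas
  mem := h.mem
  hor := by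
    filter_upwards [h.hor] with y hy a b hab hs
    exact hy a b hab fun s hs' h' => hs s hs' (hG h')
  ver := by
    filter_upwards [h.ver] with y hy a b hab hs
    exact hy a b hab fun s hs' h' => hs s hs' (hG h')

lemma inc_add {u v m n : ℝ → ℝ} {a b : ℝ} (hm : IntervalIntegrable m volume a b)
    (hn : IntervalIntegrable n volume a b) (h1 : |u b - u a| ≤ ∫ s in a..b, m s)
    (h2 : |v b - v a| ≤ ∫ s in a..b, n s) :
    |(u b + v b) - (u a + v a)| ≤ ∫ s in a..b, (m s + n s) := by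
  rw [intervalIntegral.integral_add hm hn]
  have : (u b + v b) - (u a + v a) = (u b - u a) + (v b - v a) := by ring
  rw [this]
  exact (abs_add_le _ _).trans (add_le_add h1 h2)

lemma inc_mul {u v m n : ℝ → ℝ} {a b M : ℝ} (hm : IntervalIntegrable m volume a b)
    (hn : IntervalIntegrable n volume a b) (hu : ∀ s, |u s| ≤ M) (hv : ∀ s, |v s| ≤ M)
    (h1 : |u b - u a| ≤ ∫ s in a..b, m s) (h2 : |v b - v a| ≤ ∫ s in a..b, n s) :
    |u b * v b - u a * v a| ≤ ∫ s in a..b, M * (m s + n s) := by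
  rw [intervalIntegral.integral_const_mul, intervalIntegral.integral_add hm hn]
  have hM : 0 ≤ M := (abs_nonneg _).trans (hu a)
  have : u b * v b - u a * v a = v b * (u b - u a) + u a * (v b - v a) := by ring
  rw [this, mul_add]
  refine (abs_add_le _ _).trans ?_
  rw [abs_mul, abs_mul]
  exact add_le_add (mul_le_mul (hv b) h1 (abs_nonneg _) hM)
    (mul_le_mul (hu a) h2 (abs_nonneg _) hM)

lemma Dom.add {G : Set ℂ} {u v m n : ℂ → ℝ} (hu : Dom G u m) (hv : Dom G v n) :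
    Dom G (fun z => u z + v z) (fun z => m z + n z) where
  nn z := add_nonneg (hu.nn z) (hv.nn z)
  meas := hu.meas.add hv.meas
  mem := hu.mem.add hv.mem
  hor := by
    filter_upwards [hu.hor, hv.hor, ii_hor hu.meas hu.mem, ii_hor hv.meas hv.mem]
      with y h1 h2 h3 h4 a b hab hG
    exact inc_add (u := fun s => u ⟨s, y⟩) (v := fun s => v ⟨s, y⟩) (h3 a b) (h4 a b)
      (h1 a b hab hG) (h2 a b hab hG)
  ver := by
    filter_upwards [hu.ver, hv.ver, ii_ver hu.meas hu.mem, ii_ver hv.meas hv.mem]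
      with y h1 h2 h3 h4 a b hab hG
    exact inc_add (u := fun s => u ⟨y, s⟩) (v := fun s => v ⟨y, s⟩) (h3 a b) (h4 a b)
      (h1 a b hab hG) (h2 a b hab hG)

lemma Dom.mul {G : Set ℂ} {u v m n : ℂ → ℝ} {M : ℝ} (hu : Dom G u m) (hv : Dom G v n)
    (bu : ∀ z, |u z| ≤ M) (bv : ∀ z, |v z| ≤ M) :
    Dom G (fun z => u z * v z) (fun z => M * (m z + n z)) where
  nn z := mul_nonneg ((abs_nonneg _).trans (bu z)) (add_nonneg (hu.nn z) (hv.nn z))
  meas := (hu.meas.add hv.meas).const_mul M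
  mem := (hu.mem.add hv.mem).const_mul M
  hor := by
    filter_upwards [hu.hor, hv.hor, ii_hor hu.meas hu.mem, ii_hor hv.meas hv.mem]
      with y h1 h2 h3 h4 a b hab hG
    exact inc_mul (u := fun s => u ⟨s, y⟩) (v := fun s => v ⟨s, y⟩) (h3 a b) (h4 a b)
      (fun s => bu _) (fun s => bv _) (h1 a b hab hG) (h2 a b hab hG)
  ver := by
    filter_upwards [hu.ver, hv.ver, ii_ver hu.meas hu.mem, ii_ver hv.meas hv.mem]
      with y h1 h2 h3 h4 a b hab hG
    exact inc_mul (u := fun s => u ⟨y, s⟩) (v := fun s => v ⟨y, s⟩) (h3 a b) (h4 a b)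
      (fun s => bu _) (fun s => bv _) (h1 a b hab hG) (h2 a b hab hG)

lemma Dom.comp {G : Set ℂ} {u m : ℂ → ℝ} {h : ℝ → ℝ} {K : ℝ≥0} (hu : Dom G u m)
    (hh : LipschitzWith K h) : Dom G (fun z => h (u z)) (fun z => K * m z) where
  nn z := mul_nonneg K.2 (hu.nn z)
  meas := hu.meas.const_mul _
  mem := hu.mem.const_mul _
  hor := by
    filter_upwards [hu.hor] with y h1 a b hab hG
    rw [intervalIntegral.integral_const_mul]
    have := hh.dist_le_mul (u ⟨b, y⟩) (u ⟨a, y⟩)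
    rw [Real.dist_eq, Real.dist_eq] at this
    exact this.trans (mul_le_mul_of_nonneg_left (h1 a b hab hG) K.2)
  ver := by
    filter_upwards [hu.ver] with y h1 a b hab hG
    rw [intervalIntegral.integral_const_mul]
    have := hh.dist_le_mul (u ⟨y, b⟩) (u ⟨y, a⟩)
    rw [Real.dist_eq, Real.dist_eq] at this
    exact this.trans (mul_le_mul_of_nonneg_left (h1 a b hab hG) K.2)

lemma continuous_mk_left (y : ℝ) : Continuous fun x : ℝ => (⟨x, y⟩ : ℂ) := by
  have : (fun x : ℝ => (⟨x, y⟩ : ℂ)) = fun x : ℝ => (x : ℂ) + y * Complex.I := by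
    funext x; apply Complex.ext <;> simp
  rw [this]
  exact Complex.continuous_ofReal.add continuous_const

lemma continuous_mk_right (x : ℝ) : Continuous fun y : ℝ => (⟨x, y⟩ : ℂ) := by
  have : (fun y : ℝ => (⟨x, y⟩ : ℂ)) = fun y : ℝ => (x : ℂ) + y * Complex.I := by
    funext y; apply Complex.ext <;> simp
  rw [this]
  exact continuous_const.add (Complex.continuous_ofReal.mul continuous_const)

/-- local form of the cut-off on a line -/
lemma inc_cut {κ u k m : ℝ → ℝ} {a b M : ℝ} {A : Set ℝ} (hA : IsClosed A) (hab : a ≤ b)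
    (hk : ∀ a b, IntervalIntegrable k volume a b) (hm : ∀ a b, IntervalIntegrable m volume a b)
    (k0 : ∀ s, 0 ≤ k s) (m0 : ∀ s, 0 ≤ m s)
    (bk : ∀ s, |κ s| ≤ M) (bu : ∀ s, |u s| ≤ M)
    (h1 : ∀ a b, a ≤ b → |κ b - κ a| ≤ ∫ s in a..b, k s)
    (h2 : ∀ a b, a ≤ b → (∀ s ∈ Icc a b, s ∉ A) → |u b - u a| ≤ ∫ s in a..b, m s)
    (h3 : ∀ s ∈ A, ∀ᶠ t in 𝓝 s, κ t = 0) :
    |κ b * u b - κ a * u a| ≤ ∫ s in a..b, M * (k s + m s) := by
  have hM : 0 ≤ M := (abs_nonneg _).trans (bk a)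
  refine inc_of_local (f := fun s => κ s * u s) hab (((hk a b).add (hm a b)).const_mul M)
    fun x hx => ?_
  by_cases hxA : x ∈ A
  · obtain ⟨δ, hδ, hs⟩ := Metric.eventually_nhds_iff.1 (h3 x hxA)
    refine ⟨δ, hδ, fun s t _ h2 _ h4 h5 => ?_⟩
    have e1 : κ s = 0 := hs (by rwa [Real.dist_eq])
    have e2 : κ t = 0 := hs (by rwa [Real.dist_eq])
    simp only [e1, e2, zero_mul, sub_zero, abs_zero]
    exact intervalIntegral.integral_nonneg h2 fun r _ =>
      mul_nonneg hM (add_nonneg (k0 r) (m0 r))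
  · have : Aᶜ ∈ 𝓝 x := hA.isOpen_compl.mem_nhds hxA
    obtain ⟨δ, hδ, hs⟩ := Metric.mem_nhds_iff.1 this
    refine ⟨δ, hδ, fun s t g1 g2 g3 h4 h5 => ?_⟩
    refine inc_mul (hk s t) (hm s t) bk bu (h1 s t g2) (h2 s t g2 fun r hr => ?_)
    refine hs ?_
    rw [mem_ball, Real.dist_eq]
    rw [abs_lt] at h4 h5 ⊢
    constructor <;> linarith [hr.1, hr.2]

/-- cut-off: `κ = 0` near `G` -/
lemma Dom.cut {G : Set ℂ} {κ u k m : ℂ → ℝ} {M : ℝ} (hG : IsClosed G) (hκ : Dom ∅ κ k)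
    (hu : Dom G u m) (bk : ∀ z, |κ z| ≤ M) (bu : ∀ z, |u z| ≤ M)
    (h0 : ∀ z ∈ G, ∀ᶠ w in 𝓝 z, κ w = 0) :
    Dom ∅ (fun z => κ z * u z) (fun z => M * (k z + m z)) where
  nn z := mul_nonneg ((abs_nonneg _).trans (bu z)) (add_nonneg (hκ.nn z) (hu.nn z))
  meas := (hκ.meas.add hu.meas).const_mul M
  mem := (hκ.mem.add hu.mem).const_mul M
  hor := by
    filter_upwards [hκ.hor, hu.hor, ii_hor hκ.meas hκ.mem, ii_hor hu.meas hu.mem]
      with y h1 h2 h3 h4 a b hab _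
    refine inc_cut (κ := fun s => κ ⟨s, y⟩) (u := fun s => u ⟨s, y⟩)
      (A := (fun s : ℝ => (⟨s, y⟩ : ℂ)) ⁻¹' G) (hG.preimage (continuous_mk_left y)) hab h3 h4
      (fun s => hκ.nn _) (fun s => hu.nn _) (fun s => bk _) (fun s => bu _)
      (fun a b hab => h1 a b hab fun s _ h => h) (fun a b hab h => h2 a b hab h) ?_
    intro s hs
    exact (continuous_mk_left y).continuousAt.eventually (h0 _ hs)
  ver := by
    filter_upwards [hκ.ver, hu.ver, ii_ver hκ.meas hκ.mem, ii_ver hu.meas hu.mem]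
      with y h1 h2 h3 h4 a b hab _
    refine inc_cut (κ := fun s => κ ⟨y, s⟩) (u := fun s => u ⟨y, s⟩)
      (A := (fun s : ℝ => (⟨y, s⟩ : ℂ)) ⁻¹' G) (hG.preimage (continuous_mk_right y)) hab h3 h4
      (fun s => hκ.nn _) (fun s => hu.nn _) (fun s => bk _) (fun s => bu _)
      (fun a b hab => h1 a b hab fun s _ h => h) (fun a b hab h => h2 a b hab h) ?_
    intro s hs
    exact (continuous_mk_right y).continuousAt.eventually (h0 _ hs)

/-! ### derivatives along lines -/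

lemma hasDerivAt_hor {u : ℂ → ℝ} {x y : ℝ} (h : DifferentiableAt ℝ u ⟨x, y⟩) :
    HasDerivAt (fun s : ℝ => u ⟨s, y⟩) (gx u ⟨x, y⟩) x := by
  have e : (fun s : ℝ => (⟨s, y⟩ : ℂ)) = fun s : ℝ => (s : ℂ) + y * Complex.I := by
    funext s; apply Complex.ext <;> simp
  have h1 : HasDerivAt (fun s : ℝ => (⟨s, y⟩ : ℂ)) 1 x := by
    rw [e]
    exact (Complex.ofRealCLM.hasDerivAt (x := x)).add_const _ |>.congr_deriv (by simp)
  exact h.hasFDerivAt.comp_hasDerivAt x h1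

lemma hasDerivAt_ver {u : ℂ → ℝ} {x y : ℝ} (h : DifferentiableAt ℝ u ⟨x, y⟩) :
    HasDerivAt (fun s : ℝ => u ⟨x, s⟩) (gy u ⟨x, y⟩) y := by
  have e : (fun s : ℝ => (⟨x, s⟩ : ℂ)) = fun s : ℝ => (x : ℂ) + (s : ℂ) * Complex.I := by
    funext s; apply Complex.ext <;> simp
  have h1 : HasDerivAt (fun s : ℝ => (⟨x, s⟩ : ℂ)) Complex.I y := by
    rw [e]
    exact (((Complex.ofRealCLM.hasDerivAt (x := y)).mul_const Complex.I).const_add _)
      |>.congr_deriv (by simp)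
  exact h.hasFDerivAt.comp_hasDerivAt y h1

lemma lip_mk_left (y : ℝ) : LipschitzWith 1 fun x : ℝ => (⟨x, y⟩ : ℂ) := by
  refine LipschitzWith.of_dist_le_mul fun s t => ?_
  rw [Complex.dist_eq, Real.dist_eq]
  have : (⟨s, y⟩ - ⟨t, y⟩ : ℂ) = ((s - t : ℝ) : ℂ) := by apply Complex.ext <;> simp
  rw [this, Complex.norm_real]; simp

lemma lip_mk_right (x : ℝ) : LipschitzWith 1 fun y : ℝ => (⟨x, y⟩ : ℂ) := by
  refine LipschitzWith.of_dist_le_mul fun s t => ?_
  rw [Complex.dist_eq, Real.dist_eq]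
  have : (⟨x, s⟩ - ⟨x, t⟩ : ℂ) = ((s - t : ℝ) : ℂ) * Complex.I := by apply Complex.ext <;> simp
  rw [this, norm_mul, Complex.norm_real]; simp

lemma memLp_gx {u : ℂ → ℝ} (h : Integrable (en u)) : MemLp (gx u) 2 := by
  rw [memLp_two_iff_integrable_sq (measurable_gx u).aestronglyMeasurable]
  refine h.mono' ((measurable_gx u).pow_const 2).aestronglyMeasurable
    (Eventually.of_forall fun z => ?_)
  rw [Real.norm_of_nonneg (sq_nonneg _)]
  unfold en; nlinarith [sq_nonneg (gy u z)]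

lemma memLp_gy {u : ℂ → ℝ} (h : Integrable (en u)) : MemLp (gy u) 2 := by
  rw [memLp_two_iff_integrable_sq (measurable_gy u).aestronglyMeasurable]
  refine h.mono' ((measurable_gy u).pow_const 2).aestronglyMeasurable
    (Eventually.of_forall fun z => ?_)
  rw [Real.norm_of_nonneg (sq_nonneg _)]
  unfold en; nlinarith [sq_nonneg (gx u z)]

/-- locally Lipschitz functions of finite energy on the plane -/
lemma Dom.of_locLip {u : ℂ → ℝ} (hu : LocallyLipschitz u) (he : Integrable (en u)) :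
    Dom ∅ u (fun z => |gx u z| + |gy u z|) := by
  have hd : ∀ᵐ z : ℂ, DifferentiableAt ℝ u z := by
    have := ae_diff isOpen_univ (hu.locallyLipschitzOn (s := univ))
    rwa [Measure.restrict_univ] at this
  have mx := memLp_gx he
  have my := memLp_gy he
  exact
  { nn := fun z => add_nonneg (abs_nonneg _) (abs_nonneg _)
    meas := (measurable_gx u).norm.add (measurable_gy u).norm
    mem := mx.norm.add my.norm
    hor := by
      filter_upwards [ae_hor hd, ii_hor (measurable_gx u) mx, ii_hor (measurable_gy u) my]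
        with y h1 h2 h3 a b hab _
      have e1 := inc_of_locLip (f := fun s => u ⟨s, y⟩) (g := fun s => gx u ⟨s, y⟩) hab
        (hu.comp (lip_mk_left y).locallyLipschitz) (h2 a b) (by
          filter_upwards [h1] with s hs _
          exact hasDerivAt_hor hs)
      refine e1.trans (intervalIntegral.integral_mono_on hab (h2 a b).abs
        ((h2 a b).abs.add (h3 a b).abs) fun s _ => ?_)
      linarith [abs_nonneg (gy u ⟨s, y⟩)]
    ver := by
      filter_upwards [ae_ver hd, ii_ver (measurable_gx u) mx, ii_ver (measurable_gy u) my]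
        with y h1 h2 h3 a b hab _
      have e1 := inc_of_locLip (f := fun s => u ⟨y, s⟩) (g := fun s => gy u ⟨y, s⟩) hab
        (hu.comp (lip_mk_right y).locallyLipschitz) (h3 a b) (by
          filter_upwards [h1] with s hs _
          exact hasDerivAt_ver hs)
      refine e1.trans (intervalIntegral.integral_mono_on hab (h3 a b).abs
        ((h2 a b).abs.add (h3 a b).abs) fun s _ => ?_)
      linarith [abs_nonneg (gx u ⟨y, s⟩)] }

/-! ### the class `PL` -/

section PL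

variable {E G : Set ℂ} {u v : ℂ → ℝ}

lemma PL.mono {G' : Set ℂ} (h : PL E G u) (hG : G ⊆ G') : PL E G' u :=
  ⟨h.toQ, h.dom.imp fun _ hm => hm.mono hG⟩

lemma PL.of_locLip (hu : LocallyLipschitz u) (hb : ∃ M, ∀ z, |u z| ≤ M)
    (he : Integrable (en u)) : PL E G u :=
  ⟨⟨hb, hu.locallyLipschitzOn, he.integrableOn⟩,
    ⟨_, (Dom.of_locLip hu he).mono (empty_subset _)⟩⟩

lemma PL.lc (h : LC E u) : PL E G u := PL.of_locLip h.lip h.bdd h.fin

lemma PL.const (c : ℝ) : PL E G (fun _ => c) := PL.lc (LC.const E c)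

lemma PL.add (hE : IsClosed E) (hu : PL E G u) (hv : PL E G v) :
    PL E G (fun z => u z + v z) := by
  obtain ⟨m, hm⟩ := hu.dom
  obtain ⟨n, hn⟩ := hv.dom
  exact ⟨hu.toQ.add hE hv.toQ, ⟨_, hm.add hn⟩⟩

lemma exists_bound2 (hu : ∃ M, ∀ z, |u z| ≤ M) (hv : ∃ M, ∀ z, |v z| ≤ M) :
    ∃ M, (∀ z, |u z| ≤ M) ∧ ∀ z, |v z| ≤ M := by
  obtain ⟨M, hM⟩ := hu
  obtain ⟨N, hN⟩ := hv
  exact ⟨max M N, fun z => (hM z).trans (le_max_left _ _),
    fun z => (hN z).trans (le_max_right _ _)⟩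

lemma PL.mul (hE : IsClosed E) (hu : PL E G u) (hv : PL E G v) :
    PL E G (fun z => u z * v z) := by
  obtain ⟨m, hm⟩ := hu.dom
  obtain ⟨n, hn⟩ := hv.dom
  obtain ⟨M, h1, h2⟩ := exists_bound2 hu.bdd hv.bdd
  exact ⟨hu.toQ.mul hE hv.toQ, ⟨_, hm.mul hn h1 h2⟩⟩

lemma PL.comp (hE : IsClosed E) (hu : PL E G u) {h : ℝ → ℝ} {K : ℝ≥0}
    (hh : LipschitzWith K h) : PL E G (fun z => h (u z)) := by
  obtain ⟨m, hm⟩ := hu.dom
  exact ⟨hu.toQ.comp hE hh, ⟨_, hm.comp hh⟩⟩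

/-- everything generated by planar functions is planar -/
lemma PL.gen (hE : IsClosed E) {ι : Type*} {b : ι → ℂ → ℝ} (hb : ∀ i, PL E G (b i))
    (hu : Gen E b u) : PL E G u := by
  induction hu with
  | const c => exact PL.const c
  | lc h => exact PL.lc h
  | of i => exact hb i
  | add _ _ h1 h2 => exact h1.add hE h2
  | mul _ _ h1 h2 => exact h1.mul hE h2
  | comp hh _ h1 => exact h1.comp hE hh

/-- cut-off near `G` -/
lemma PL.cut {κ : ℂ → ℝ} (hE : IsClosed E) (hG : IsClosed G) (hκ : PL E ∅ κ) (hu : PL E G u)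
    (h0 : ∀ z ∈ G, ∀ᶠ w in 𝓝 z, κ w = 0) : PL E ∅ (fun z => κ z * u z) := by
  obtain ⟨k, hk⟩ := hκ.dom
  obtain ⟨m, hm⟩ := hu.dom
  obtain ⟨M, h1, h2⟩ := exists_bound2 hκ.bdd hu.bdd
  exact ⟨hκ.toQ.mul hE hu.toQ, ⟨_, Dom.cut hG hk hm h1 h2 h0⟩⟩

lemma Q.ae_diff' (h : Q E u) (hE : IsClosed E) (hE0 : volume E = 0) :
    ∀ᵐ z : ℂ, DifferentiableAt ℝ u z := by
  have h1 := h.ae_diff hE
  rw [ae_restrict_iff' hE.isOpen_compl.measurableSet] at h1
  have h2 : ∀ᵐ z : ℂ, z ∈ Eᶜ := compl_mem_ae_iff.2 hE0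
  filter_upwards [h1, h2] with z h3 h4
  exact h3 h4

lemma restrict_compl (hE0 : volume E = 0) : volume.restrict Eᶜ = volume :=
  Measure.restrict_eq_self_of_ae_mem (compl_mem_ae_iff.2 hE0)

lemma Q.fin' (h : Q E u) (hE0 : volume E = 0) : Integrable (en u) := by
  have := h.fin
  rwa [IntegrableOn, restrict_compl hE0] at this

/-- fundamental theorem of calculus on a.e. horizontal line -/
theorem PL.ftc_hor (hE : IsClosed E) (hE0 : volume E = 0) (h : PL E G u) :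
    ∀ᵐ y : ℝ, ∀ a b : ℝ, a ≤ b → (∀ s ∈ Icc a b, (⟨s, y⟩ : ℂ) ∉ G) →
      u ⟨b, y⟩ - u ⟨a, y⟩ = ∫ s in a..b, gx u ⟨s, y⟩ := by
  obtain ⟨m, hm⟩ := h.dom
  filter_upwards [ae_hor (Q.ae_diff' h.toQ hE hE0), hm.hor, ii_hor hm.meas hm.mem]
    with y h1 h2 h3 a b hab hG
  refine line_ftc (f := fun s => u ⟨s, y⟩) (m := fun s => m ⟨s, y⟩) hab (h3 a b) ?_ ?_
  · intro s t hs hst ht
    exact h2 s t hst fun r hr => hG r ⟨hs.trans hr.1, hr.2.trans ht⟩
  · filter_upwards [h1] with s hs _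
    exact hasDerivAt_hor hs

/-- fundamental theorem of calculus on a.e. vertical line -/
theorem PL.ftc_ver (hE : IsClosed E) (hE0 : volume E = 0) (h : PL E G u) :
    ∀ᵐ x : ℝ, ∀ a b : ℝ, a ≤ b → (∀ s ∈ Icc a b, (⟨x, s⟩ : ℂ) ∉ G) →
      u ⟨x, b⟩ - u ⟨x, a⟩ = ∫ s in a..b, gy u ⟨x, s⟩ := by
  obtain ⟨m, hm⟩ := h.dom
  filter_upwards [ae_ver (Q.ae_diff' h.toQ hE hE0), hm.ver, ii_ver hm.meas hm.mem]
    with x h1 h2 h3 a b hab hG
  refine line_ftc (f := fun s => u ⟨x, s⟩) (m := fun s => m ⟨x, s⟩) hab (h3 a b) ?_ ?_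
  · intro s t hs hst ht
    exact h2 s t hst fun r hr => hG r ⟨hs.trans hr.1, hr.2.trans ht⟩
  · filter_upwards [h1] with s hs _
    exact hasDerivAt_ver hs

end PL

end

end Crest.Agent.R105.Iso_938
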