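import Mathlib
import Crest.Agent.R335.HMollB
import Crest.Agent.R105.Iso2_938

/-!
# Row 105, ISO-PP, core (helper938), part 3: planar Stokes

`stokes` : `P`, `T` in `PL E ∅`, `E` closed and null ⟹ `∫ wdg P T = 0` (no condition at infinity).
-/

set_option autoImplicit false

open MeasureTheory Set Filter Topology Metric
open scoped NNReal ENNReal ContDiff

namespace Crest.Agent.R105.Iso_938

open Crest.Agent.R105.Bd_775
open Crest.Agent.R335 (mo mo_contDiff fderiv_mo fderiv_eta_sub contDiff_eta_sub compact_eta_sub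
  integrable_eta_smul tendsto_eLpNorm_mo mo_continuous)
open Crest.Agent.R080 (eta eta_contDiff eta_nonneg eta_compact)

noncomputable section

variable {E : Set ℂ} {P T : ℂ → ℝ}

/-! ### vanishing integrals of derivatives -/

lemma gx_zero_of_notMem {u : ℂ → ℝ} {z : ℂ} (h : z ∉ tsupport u) : gx u z = 0 := by
  have : u =ᶠ[𝓝 z] fun _ => (0 : ℝ) := by
    rw [notMem_tsupport_iff_eventuallyEq] at h; exact h
  rw [gx_eq_of_eventuallyEq this, gx_const]

lemma gy_zero_of_notMem {u : ℂ → ℝ} {z : ℂ} (h : z ∉ tsupport u) : gy u z = 0 := by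
  have : u =ᶠ[𝓝 z] fun _ => (0 : ℝ) := by
    rw [notMem_tsupport_iff_eventuallyEq] at h; exact h
  rw [gy_eq_of_eventuallyEq this, gy_const]

lemma exists_radius {u : ℂ → ℝ} (hc : HasCompactSupport u) :
    ∃ R : ℝ, 0 < R ∧ ∀ z : ℂ, R ≤ |z.re| ∨ R ≤ |z.im| → z ∉ tsupport u := by
  obtain ⟨R, hR⟩ := hc.isCompact.isBounded.subset_closedBall (0 : ℂ)
  refine ⟨|R| + 1, by positivity, fun z hz h => ?_⟩
  have h1 := hR h
  rw [mem_closedBall, dist_zero_right] at h1
  have h2 := le_abs_self R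
  rcases hz with h3 | h3
  · have := Complex.abs_re_le_norm z; linarith
  · have := Complex.abs_im_le_norm z; linarith

theorem int_gx {w : ℂ → ℝ} (hE : IsClosed E) (hE0 : volume E = 0) (hw : PL E ∅ w)
    (hc : HasCompactSupport w) : ∫ z, gx w z = 0 := by
  by_cases hi : Integrable (gx w)
  swap
  · exact integral_undef hi
  obtain ⟨R, hR, hz⟩ := exists_radius hc
  rw [integral_hor hi]
  refine integral_eq_zero_of_ae ?_
  filter_upwards [hw.ftc_hor hE hE0] with y hy
  have h1 := hy (-R) R (by linarith) (fun _ _ h => h)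
  have h2 : w ⟨R, y⟩ = 0 := image_eq_zero_of_notMem_tsupport (hz _ (Or.inl (le_abs_self R)))
  have h3 : w ⟨-R, y⟩ = 0 := by
    refine image_eq_zero_of_notMem_tsupport (hz _ (Or.inl ?_))
    simp only [abs_neg]; exact le_abs_self R
  rw [h2, h3, sub_zero] at h1
  have h4 : (Function.support fun x : ℝ => gx w ⟨x, y⟩) ⊆ Ioc (-R) R := by
    intro x hx
    by_contra h5
    refine hx (gx_zero_of_notMem (hz _ (Or.inl ?_)))
    rw [mem_Ioc, not_and_or, not_lt, not_le] at h5
    rcases h5 with h5 | h5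
    · rw [le_abs]; right; simp only; linarith
    · exact h5.le.trans (le_abs_self _)
  rw [← intervalIntegral.integral_eq_integral_of_support_subset h4]
  exact h1.symm

theorem int_gy {w : ℂ → ℝ} (hE : IsClosed E) (hE0 : volume E = 0) (hw : PL E ∅ w)
    (hc : HasCompactSupport w) : ∫ z, gy w z = 0 := by
  by_cases hi : Integrable (gy w)
  swap
  · exact integral_undef hi
  obtain ⟨R, hR, hz⟩ := exists_radius hc
  rw [integral_ver hi]
  refine integral_eq_zero_of_ae ?_
  filter_upwards [hw.ftc_ver hE hE0] with y hy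
  have h1 := hy (-R) R (by linarith) (fun _ _ h => h)
  have h2 : w ⟨y, R⟩ = 0 := image_eq_zero_of_notMem_tsupport (hz _ (Or.inr (le_abs_self R)))
  have h3 : w ⟨y, -R⟩ = 0 := by
    refine image_eq_zero_of_notMem_tsupport (hz _ (Or.inr ?_))
    simp only [abs_neg]; exact le_abs_self R
  rw [h2, h3, sub_zero] at h1
  have h4 : (Function.support fun x : ℝ => gy w ⟨y, x⟩) ⊆ Ioc (-R) R := by
    intro x hx
    by_contra h5
    refine hx (gy_zero_of_notMem (hz _ (Or.inr ?_)))
    rw [mem_Ioc, not_and_or, not_lt, not_le] at h5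
    rcases h5 with h5 | h5
    · rw [le_abs]; right; simp only; linarith
    · exact h5.le.trans (le_abs_self _)
  rw [← intervalIntegral.integral_eq_integral_of_support_subset h4]
  exact h1.symm

/-! ### smooth functions -/

lemma locLip_of_contDiff {u : ℂ → ℝ} (hu : ContDiff ℝ 1 u) : LocallyLipschitz u :=
  hu.locallyLipschitz

lemma PL.of_smooth {u : ℂ → ℝ} {G : Set ℂ} (hu : ContDiff ℝ 1 u) (hc : HasCompactSupport u) :
    PL E G u := by
  obtain ⟨M, hM⟩ := hc.exists_bound_of_continuous hu.continuous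
  obtain ⟨K, hK⟩ := lipschitz_of_compact hu.locallyLipschitz hc
  exact PL.of_locLip hu.locallyLipschitz ⟨M, fun z => by simpa using hM z⟩
    (integrable_en_of_lipschitz hK hc)

lemma contDiff_gx {u : ℂ → ℝ} {n : ℕ∞} (hu : ContDiff ℝ (n + 1) u) : ContDiff ℝ n (gx u) :=
  (hu.fderiv_right le_rfl).clm_apply contDiff_const

lemma contDiff_gy {u : ℂ → ℝ} {n : ℕ∞} (hu : ContDiff ℝ (n + 1) u) : ContDiff ℝ n (gy u) :=
  (hu.fderiv_right le_rfl).clm_apply contDiff_const

lemma gx_gy_comm {u : ℂ → ℝ} (hu : ContDiff ℝ 2 u) (z : ℂ) : gx (gy u) z = gy (gx u) z := by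
  have h1 : IsSymmSndFDerivAt ℝ u z :=
    (hu.contDiffAt (x := z)).isSymmSndFDerivAt (by simp)
  have h2 : DifferentiableAt ℝ (fderiv ℝ u) z :=
    ((hu.fderiv_right (m := 1) (by norm_num)).differentiable (by norm_num)) z
  have e1 : gx (gy u) z = fderiv ℝ (fderiv ℝ u) z 1 Complex.I := by
    unfold gx gy
    rw [show (fun w => (fderiv ℝ u w) Complex.I) = fun w => (fderiv ℝ u w) Complex.I from rfl]
    have := h2.hasFDerivAt.clm_apply (hasFDerivAt_const Complex.I z)
    rw [this.fderiv]; simp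
  have e2 : gy (gx u) z = fderiv ℝ (fderiv ℝ u) z Complex.I 1 := by
    unfold gx gy
    have := h2.hasFDerivAt.clm_apply (hasFDerivAt_const (1 : ℂ) z)
    rw [this.fderiv]; simp
  rw [e1, e2]
  exact h1 1 Complex.I

/-! ### mollification -/

lemma PL.aesm (hE : IsClosed E) (hE0 : volume E = 0) (h : Q E P) :
    AEStronglyMeasurable P volume := by
  have h1 : AEStronglyMeasurable P (volume.restrict Eᶜ) :=
    h.loc.continuousOn.aestronglyMeasurable hE.isOpen_compl.measurableSet
  rwa [restrict_compl hE0] at h1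

lemma PL.locInt (hE : IsClosed E) (hE0 : volume E = 0) (h : Q E P) :
    LocallyIntegrable P volume := by
  obtain ⟨M, hM⟩ := h.bdd
  have : MemLp P ⊤ volume := memLp_top_of_bound (PL.aesm hE hE0 h) M
    (Eventually.of_forall fun z => by simpa using hM z)
  exact this.locallyIntegrable le_top

theorem gx_mo (hE : IsClosed E) (hE0 : volume E = 0) (hQ : PL E ∅ T) {ε : ℝ} (hε : 0 < ε)
    (x : ℂ) : gx (mo ε T) x = mo ε (gx T) x := by
  have hl := PL.locInt hE hE0 hQ.toQ
  have hgl : LocallyIntegrable (gx T) volume :=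
    (memLp_gx (Q.fin' hQ.toQ hE0)).locallyIntegrable (by norm_num)
  have hs : ContDiff ℝ 1 (fun y : ℂ => eta ε (x - y)) :=
    (contDiff_eta_sub ε x).of_le (by norm_cast)
  have hw : PL E ∅ (fun y => eta ε (x - y) * T y) :=
    (PL.of_smooth hs (compact_eta_sub hε x)).mul hE hQ
  have hwc : HasCompactSupport (fun y => eta ε (x - y) * T y) := (compact_eta_sub hε x).mul_right
  have h0 := int_gx hE hE0 hw hwc
  have h1 : (fun y => gx (fun y => eta ε (x - y) * T y) y) =ᵐ[volume]
      fun y => eta ε (x - y) * gx T y - fderiv ℝ (eta ε : ℂ → ℝ) (x - y) 1 * T y := by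
    filter_upwards [Q.ae_diff' hQ.toQ hE hE0] with y hy
    rw [gx_mul ((hs.differentiable one_ne_zero) y) hy]
    have : gx (fun y : ℂ => eta ε (x - y)) y = - fderiv ℝ (eta ε : ℂ → ℝ) (x - y) 1 :=
      fderiv_eta_sub ε x y 1
    rw [this]; ring
  rw [integral_congr_ae h1] at h0
  have i1 : Integrable (fun y => eta ε (x - y) * gx T y) := integrable_eta_smul hε hgl x
  have i2 : Integrable (fun y => fderiv ℝ (eta ε : ℂ → ℝ) (x - y) 1 * T y) := by
    have hc : HasCompactSupport (fun y : ℂ => fderiv ℝ (eta ε : ℂ → ℝ) (x - y) 1) :=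
      (((eta_compact (E := ℂ) hε).fderiv ℝ).comp_homeomorph (Homeomorph.subLeft x)).comp_left
        (g := fun L : ℂ →L[ℝ] ℝ => L 1) (by simp)
    have hcont : Continuous (fun y : ℂ => fderiv ℝ (eta ε : ℂ → ℝ) (x - y) 1) :=
      ((((eta_contDiff (E := ℂ) ε).of_le (m := 1) (by norm_cast)).continuous_fderiv
        one_ne_zero).comp (continuous_const.sub continuous_id)).clm_apply continuous_const
    exact hl.integrable_smul_left_of_hasCompactSupport hcont hc
  rw [integral_sub i1 i2] at h0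
  have h2 : gx (mo ε T) x = ∫ y, fderiv ℝ (eta ε : ℂ → ℝ) (x - y) 1 * T y :=
    fderiv_mo hε hl x 1
  rw [h2]
  have h3 : mo ε (gx T) x = ∫ y, eta ε (x - y) * gx T y := rfl
  rw [h3]; linarith

theorem gy_mo (hE : IsClosed E) (hE0 : volume E = 0) (hQ : PL E ∅ T) {ε : ℝ} (hε : 0 < ε)
    (x : ℂ) : gy (mo ε T) x = mo ε (gy T) x := by
  have hl := PL.locInt hE hE0 hQ.toQ
  have hgl : LocallyIntegrable (gy T) volume :=
    (memLp_gy (Q.fin' hQ.toQ hE0)).locallyIntegrable (by norm_num)
  have hs : ContDiff ℝ 1 (fun y : ℂ => eta ε (x - y)) :=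
    (contDiff_eta_sub ε x).of_le (by norm_cast)
  have hw : PL E ∅ (fun y => eta ε (x - y) * T y) :=
    (PL.of_smooth hs (compact_eta_sub hε x)).mul hE hQ
  have hwc : HasCompactSupport (fun y => eta ε (x - y) * T y) := (compact_eta_sub hε x).mul_right
  have h0 := int_gy hE hE0 hw hwc
  have h1 : (fun y => gy (fun y => eta ε (x - y) * T y) y) =ᵐ[volume]
      fun y => eta ε (x - y) * gy T y - fderiv ℝ (eta ε : ℂ → ℝ) (x - y) Complex.I * T y := by
    filter_upwards [Q.ae_diff' hQ.toQ hE hE0] with y hy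
    rw [gy_mul ((hs.differentiable one_ne_zero) y) hy]
    have : gy (fun y : ℂ => eta ε (x - y)) y
        = - fderiv ℝ (eta ε : ℂ → ℝ) (x - y) Complex.I :=
      fderiv_eta_sub ε x y Complex.I
    rw [this]; ring
  rw [integral_congr_ae h1] at h0
  have i1 : Integrable (fun y => eta ε (x - y) * gy T y) := integrable_eta_smul hε hgl x
  have i2 : Integrable (fun y => fderiv ℝ (eta ε : ℂ → ℝ) (x - y) Complex.I * T y) := by
    have hc : HasCompactSupport (fun y : ℂ => fderiv ℝ (eta ε : ℂ → ℝ) (x - y) Complex.I) :=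
      (((eta_compact (E := ℂ) hε).fderiv ℝ).comp_homeomorph (Homeomorph.subLeft x)).comp_left
        (g := fun L : ℂ →L[ℝ] ℝ => L Complex.I) (by simp)
    have hcont : Continuous (fun y : ℂ => fderiv ℝ (eta ε : ℂ → ℝ) (x - y) Complex.I) :=
      ((((eta_contDiff (E := ℂ) ε).of_le (m := 1) (by norm_cast)).continuous_fderiv
        one_ne_zero).comp (continuous_const.sub continuous_id)).clm_apply continuous_const
    exact hl.integrable_smul_left_of_hasCompactSupport hcont hc
  rw [integral_sub i1 i2] at h0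
  have h2 : gy (mo ε T) x = ∫ y, fderiv ℝ (eta ε : ℂ → ℝ) (x - y) Complex.I * T y :=
    fderiv_mo hε hl x Complex.I
  rw [h2]
  have h3 : mo ε (gy T) x = ∫ y, eta ε (x - y) * gy T y := rfl
  rw [h3]; linarith

/-! ### Stokes, one function with compact support -/

lemma integrable_of_cpt {g : ℂ → ℝ} (hg : MemLp g 2) {K : Set ℂ} (hK : IsCompact K)
    (h : ∀ z, z ∉ K → g z = 0) : Integrable g := by
  have h1 : IntegrableOn g K := (hg.locallyIntegrable (by norm_num)).integrableOn_isCompact hK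
  rwa [integrableOn_iff_integrable_of_support_subset] at h1
  intro z hz
  by_contra h2
  exact hz (h z h2)

/-- one smooth function -/
theorem stokes_smooth (hE : IsClosed E) (hE0 : volume E = 0) (hP : PL E ∅ P)
    (hc : HasCompactSupport P) {S : ℂ → ℝ} (hS : ContDiff ℝ ∞ S) : ∫ z, wdg P S z = 0 := by
  obtain ⟨R, hR⟩ := hc.isCompact.isBounded.subset_ball (0 : ℂ)
  let f : ContDiffBump (0 : ℂ) := ⟨|R| + 1, |R| + 2, by positivity, by linarith⟩
  have hf1 : ∀ z ∈ tsupport P, (f : ℂ → ℝ) =ᶠ[𝓝 z] fun _ => 1 := by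
    intro z hz
    have h1 := hR hz
    rw [mem_ball, dist_zero_right] at h1
    refine Eventually.mono ((isOpen_ball (x := (0 : ℂ)) (ε := |R| + 1)).mem_nhds ?_) fun w hw => ?_
    · rw [mem_ball, dist_zero_right]
      have := le_abs_self R; linarith
    · exact f.one_of_mem_closedBall (ball_subset_closedBall hw)
  have hfs : ContDiff ℝ 1 (f : ℂ → ℝ) := f.contDiff.of_le (by norm_cast)
  have hS2 : ContDiff ℝ 2 S := hS.of_le (by norm_cast)
  have hgx : ContDiff ℝ 1 (gx S) := contDiff_gx (n := 1) (by exact_mod_cast hS2)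
  have hgy : ContDiff ℝ 1 (gy S) := contDiff_gy (n := 1) (by exact_mod_cast hS2)
  have pa : PL E ∅ (fun z => P z * (f z * gy S z)) :=
    hP.mul hE (PL.of_smooth (hfs.mul hgy) f.hasCompactSupport.mul_right)
  have pb : PL E ∅ (fun z => P z * (f z * gx S z)) :=
    hP.mul hE (PL.of_smooth (hfs.mul hgx) f.hasCompactSupport.mul_right)
  have ca : HasCompactSupport (fun z => P z * (f z * gy S z)) := hc.mul_right
  have cb : HasCompactSupport (fun z => P z * (f z * gx S z)) := hc.mul_right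
  have ia := int_gx hE hE0 pa ca
  have ib := int_gy hE hE0 pb cb
  have ja : Integrable (gx fun z => P z * (f z * gy S z)) :=
    integrable_of_cpt (memLp_gx (Q.fin' pa.toQ hE0)) ca.isCompact fun z hz => gx_zero_of_notMem hz
  have jb : Integrable (gy fun z => P z * (f z * gx S z)) :=
    integrable_of_cpt (memLp_gy (Q.fin' pb.toQ hE0)) cb.isCompact fun z hz => gy_zero_of_notMem hz
  have : ∫ z, wdg P S z
      = ∫ z, ((gx fun z => P z * (f z * gy S z)) z - (gy fun z => P z * (f z * gx S z)) z) := by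
    refine integral_congr_ae ?_
    filter_upwards [Q.ae_diff' hP.toQ hE hE0] with z hz
    have d1 : DifferentiableAt ℝ (fun z => f z * gy S z) z :=
      ((hfs.mul hgy).differentiable one_ne_zero) z
    have d2 : DifferentiableAt ℝ (fun z => f z * gx S z) z :=
      ((hfs.mul hgx).differentiable one_ne_zero) z
    rw [gx_mul hz d1, gy_mul hz d2]
    by_cases hzs : z ∈ tsupport P
    · have e1 : (fun z => f z * gy S z) =ᶠ[𝓝 z] gy S := by
        filter_upwards [hf1 z hzs] with w hw
        rw [hw, one_mul]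
      have e2 : (fun z => f z * gx S z) =ᶠ[𝓝 z] gx S := by
        filter_upwards [hf1 z hzs] with w hw
        rw [hw, one_mul]
      rw [gx_eq_of_eventuallyEq e1, gy_eq_of_eventuallyEq e2, gx_gy_comm hS2,
        (hf1 z hzs).eq_of_nhds]
      unfold wdg; ring
    · unfold wdg
      rw [gx_zero_of_notMem hzs, gy_zero_of_notMem hzs, image_eq_zero_of_notMem_tsupport hzs]
      ring
  rw [this, integral_sub ja jb, ia, ib, sub_zero]

lemma imul {f g : ℂ → ℝ} (hf : MemLp f 2) (hg : MemLp g 2) : Integrable (fun z => f z * g z) :=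
  hf.integrable_mul hg

lemma tendsto_int_mul {f g : ℂ → ℝ} (hf : MemLp f 2) (hg : MemLp g 2) {k : ℕ → ℂ → ℝ}
    (hk : ∀ n, MemLp (k n) 2)
    (h : Tendsto (fun n => eLpNorm (fun x => k n x - g x) 2 volume) atTop (𝓝 0)) :
    Tendsto (fun n => ∫ z, f z * k n z) atTop (𝓝 (∫ z, f z * g z)) := by
  refine tendsto_integral_of_L1' _ (imul hf hg).aestronglyMeasurable
    (Eventually.of_forall fun n => imul hf (hk n)) ?_
  have hfin : eLpNorm f 2 volume ≠ ⊤ := hf.eLpNorm_ne_top
  have h2 : Tendsto (fun n => eLpNorm f 2 volume * eLpNorm (fun x => k n x - g x) 2 volume)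
      atTop (𝓝 0) := by
    have := ENNReal.Tendsto.const_mul h (Or.inr hfin)
    rwa [mul_zero] at this
  refine tendsto_of_tendsto_of_tendsto_of_le_of_le tendsto_const_nhds h2
    (fun n => zero_le) fun n => ?_
  have e : (fun z => f z * k n z) - (fun z => f z * g z) = f • (fun x => k n x - g x) := by
    funext z; simp [mul_sub]
  rw [e]
  exact eLpNorm_smul_le_mul_eLpNorm ((hk n).sub hg).aestronglyMeasurable hf.aestronglyMeasurable

/-- **planar Stokes**, one function with compact support -/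
theorem stokes_cpt (hE : IsClosed E) (hE0 : volume E = 0) (hP : PL E ∅ P)
    (hc : HasCompactSupport P) (hQ : PL E ∅ T) : ∫ z, wdg P T z = 0 := by
  set e : ℕ → ℝ := fun n => 1 / ((n : ℝ) + 1) with he
  have hep : ∀ n, 0 < e n := fun n => Nat.one_div_pos_of_nat
  have he0 : Tendsto e atTop (𝓝 0) := tendsto_one_div_add_atTop_nhds_zero_nat
  have mPx := memLp_gx (Q.fin' hP.toQ hE0)
  have mPy := memLp_gy (Q.fin' hP.toQ hE0)
  have mQx := memLp_gx (Q.fin' hQ.toQ hE0)
  have mQy := memLp_gy (Q.fin' hQ.toQ hE0)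
  have mo2 : ∀ {g : ℂ → ℝ}, MemLp g 2 → ∀ n, MemLp (mo (e n) g) 2 := fun {g} hg n =>
    ⟨(mo_continuous (hep n) (hg.locallyIntegrable (by norm_num))).aestronglyMeasurable,
      (Crest.Agent.R335.eLpNorm_mo_le (hep n) hg.aestronglyMeasurable (Or.inr rfl)).trans_lt
        hg.eLpNorm_lt_top⟩
  have t1 := tendsto_int_mul mPx mQy (fun n => mo2 mQy n)
    (tendsto_eLpNorm_mo (Or.inr rfl) mQy hep he0)
  have t2 := tendsto_int_mul mPy mQx (fun n => mo2 mQx n)
    (tendsto_eLpNorm_mo (Or.inr rfl) mQx hep he0)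
  have t3 := t1.sub t2
  have h1 : ∀ n, (∫ z, gx P z * mo (e n) (gy T) z) - (∫ z, gy P z * mo (e n) (gx T) z) = 0 := by
    intro n
    rw [← integral_sub (imul mPx (mo2 mQy n)) (imul mPy (mo2 mQx n))]
    rw [← stokes_smooth hE hE0 hP hc (mo_contDiff (hep n) (PL.locInt hE hE0 hQ.toQ))]
    refine integral_congr_ae (Eventually.of_forall fun z => ?_)
    simp only [wdg, gx_mo hE hE0 hQ (hep n), gy_mo hE hE0 hQ (hep n)]
  simp only [h1] at t3
  have h2 := tendsto_nhds_unique tendsto_const_nhds t3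
  have h3 : ∫ z, wdg P T z = (∫ z, gx P z * gy T z) - ∫ z, gy P z * gx T z := by
    rw [← integral_sub (imul mPx mQy) (imul mPy mQx)]
    rfl
  rw [h3, ← h2]

end

end Crest.Agent.R105.Iso_938
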