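import Mathlib
import Crest.Agent.R105.Iso3_938

/-!
# Row 105, ISO-PP, core (helper938), part 4: cut-offs near infinity and Stokes without support

`exists_logcut` : smooth compactly supported cut-offs `= 1` on a large ball with small energy;
`stokes` : `P`, `T` in `PL E ∅`, `E` closed and null ⟹ `∫ wdg P T = 0`.
-/

set_option autoImplicit false

open MeasureTheory Set Filter Topology Metric
open scoped NNReal ENNReal ContDiff

namespace Crest.Agent.R105.Iso_938

open Crest.Agent.R105.Bd_775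

noncomputable section

/-! ### logarithmic cut-offs by averaging -/

/-- smooth bump, `1` on the unit ball, `0` off the ball of radius `2` -/
def bmp : ContDiffBump (0 : ℂ) := ⟨1, 2, one_pos, one_lt_two⟩

lemma bmp_fderiv_zero {z : ℂ} (h : ‖z‖ ≤ 1 ∨ 2 ≤ ‖z‖) : fderiv ℝ (bmp : ℂ → ℝ) z = 0 := by
  rcases h with h | h
  · have h1 : (bmp : ℂ → ℝ) z = 1 :=
      bmp.one_of_mem_closedBall (by rw [mem_closedBall, dist_zero_right]; exact h)
    have : IsLocalMax (bmp : ℂ → ℝ) z := Eventually.of_forall fun w => by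
      rw [h1]; exact bmp.le_one
    exact this.fderiv_eq_zero
  · have h1 : (bmp : ℂ → ℝ) z = 0 :=
      bmp.zero_of_le_dist (by rw [dist_zero_right]; exact h)
    have : IsLocalMin (bmp : ℂ → ℝ) z := Eventually.of_forall fun w => by
      rw [h1]; exact bmp.nonneg
    exact this.fderiv_eq_zero

/-- dilated bump -/
def bk (k : ℕ) (z : ℂ) : ℝ := bmp (((2 : ℝ) ^ k)⁻¹ • z)

lemma bk_contDiff (k : ℕ) : ContDiff ℝ ∞ (bk k) :=
  bmp.contDiff.comp (contDiff_const_smul _)

lemma norm_dil (k : ℕ) (z : ℂ) : ‖((2 : ℝ) ^ k)⁻¹ • z‖ = ‖z‖ / 2 ^ k := by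
  rw [norm_smul, norm_inv, norm_pow, Real.norm_ofNat, div_eq_inv_mul]

lemma bk_fderiv (k : ℕ) (z : ℂ) :
    fderiv ℝ (bk k) z = ((2 : ℝ) ^ k)⁻¹ • fderiv ℝ (bmp : ℂ → ℝ) (((2 : ℝ) ^ k)⁻¹ • z) := by
  unfold bk
  exact fderiv_comp_smul _

lemma bk_fderiv_zero {k : ℕ} {z : ℂ} (h : ‖z‖ ≤ 2 ^ k ∨ 2 ^ (k + 1) ≤ ‖z‖) :
    fderiv ℝ (bk k) z = 0 := by
  rw [bk_fderiv, bmp_fderiv_zero, smul_zero]
  rw [norm_dil]
  have h2 : (0 : ℝ) < 2 ^ k := by positivity
  rcases h with h | h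
  · left; rwa [div_le_one h2]
  · right; rw [le_div_iff₀ h2, ← pow_succ']; exact h

lemma en_bk (k : ℕ) (z : ℂ) :
    en (bk k) z = (((2 : ℝ) ^ k)⁻¹) ^ 2 * en bmp (((2 : ℝ) ^ k)⁻¹ • z) := by
  rw [en_eq, en_eq, bk_fderiv, norm_smul, mul_pow, Real.norm_eq_abs, sq_abs]

lemma integrable_en_bmp : Integrable (en bmp) := by
  have h1 : ContDiff ℝ 1 (bmp : ℂ → ℝ) := bmp.contDiff.of_le (by norm_cast)
  obtain ⟨K, hK⟩ := lipschitz_of_compact h1.locallyLipschitz bmp.hasCompactSupport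
  exact integrable_en_of_lipschitz hK bmp.hasCompactSupport

lemma integral_en_bk (k : ℕ) : ∫ z, en (bk k) z = ∫ z, en bmp z := by
  simp only [en_bk]
  rw [integral_const_mul, Measure.integral_comp_smul volume (fun z => en bmp z)]
  rw [Complex.finrank_real_complex, smul_eq_mul, ← mul_assoc]
  have h2 : (0 : ℝ) < 2 ^ k := by positivity
  have : ((2 : ℝ) ^ k)⁻¹ ^ 2 * |((((2 : ℝ) ^ k)⁻¹) ^ 2)⁻¹| = 1 := by
    rw [abs_of_pos (by positivity)]
    field_simp
  rw [this, one_mul]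

lemma integrable_en_bk (k : ℕ) : Integrable (en (bk k)) := by
  have h2 : ((2 : ℝ) ^ k)⁻¹ ≠ 0 := by positivity
  have h1 : Integrable (fun z => en bmp (((2 : ℝ) ^ k)⁻¹ • z)) :=
    (integrable_comp_smul_iff volume (en bmp) h2).2 integrable_en_bmp
  have : en (bk k) = fun z => (((2 : ℝ) ^ k)⁻¹) ^ 2 * en bmp (((2 : ℝ) ^ k)⁻¹ • z) :=
    funext (en_bk k)
  rw [this]
  exact h1.const_mul _

/-- at most one of the dilated bumps has a gradient at `z` -/
lemma bk_single (z : ℂ) : ∃ k₀ : ℕ, ∀ k, k ≠ k₀ → fderiv ℝ (bk k) z = 0 := by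
  by_cases h : ∃ k : ℕ, 2 ^ k < ‖z‖ ∧ ‖z‖ < 2 ^ (k + 1)
  · obtain ⟨k₀, h1, h2⟩ := h
    refine ⟨k₀, fun k hk => bk_fderiv_zero ?_⟩
    rcases lt_or_gt_of_ne hk with h3 | h3
    · right
      have : (2 : ℝ) ^ (k + 1) ≤ 2 ^ k₀ := pow_le_pow_right₀ (by norm_num) h3
      linarith
    · left
      have : (2 : ℝ) ^ (k₀ + 1) ≤ 2 ^ k := pow_le_pow_right₀ (by norm_num) h3
      linarith
  · push Not at h
    refine ⟨0, fun k _ => bk_fderiv_zero ?_⟩
    by_cases h1 : ‖z‖ ≤ 2 ^ k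
    · exact Or.inl h1
    · exact Or.inr (h k (not_le.1 h1))

/-- the average of `N` dilated bumps -/
def lg (a N : ℕ) (z : ℂ) : ℝ := (N : ℝ)⁻¹ * ∑ k ∈ Finset.range N, bk (a + k) z

lemma lg_contDiff (a N : ℕ) : ContDiff ℝ ∞ (lg a N) :=
  contDiff_const.mul (ContDiff.sum fun _ _ => bk_contDiff _)

lemma en_lg (a N : ℕ) (z : ℂ) :
    en (lg a N) z ≤ ((N : ℝ)⁻¹) ^ 2 * ∑ k ∈ Finset.range N, en (bk (a + k)) z := by
  have hd : ∀ k, DifferentiableAt ℝ (bk k) z := fun k =>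
    ((bk_contDiff k).differentiable (by simp)) z
  have e1 : fderiv ℝ (lg a N) z = (N : ℝ)⁻¹ • ∑ k ∈ Finset.range N, fderiv ℝ (bk (a + k)) z := by
    unfold lg
    rw [fderiv_const_mul (DifferentiableAt.fun_sum fun k _ => hd _),
      fderiv_fun_sum fun k _ => hd _]
  rw [en_eq, e1, norm_smul, mul_pow, Real.norm_eq_abs, sq_abs]
  refine mul_le_mul_of_nonneg_left ?_ (sq_nonneg _)
  obtain ⟨k₀, hk⟩ := bk_single z
  by_cases h0 : ∃ k ∈ Finset.range N, a + k = k₀
  · obtain ⟨k, hkN, hk0⟩ := h0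
    rw [Finset.sum_eq_single k (fun j _ hj => hk _ (by omega)) (fun h => absurd hkN h)]
    rw [← en_eq]
    exact Finset.single_le_sum (f := fun k => en (bk (a + k)) z)
      (fun j _ => en_nonneg _ _) hkN
  · push Not at h0
    rw [Finset.sum_eq_zero fun j hj => hk _ (h0 j hj)]
    simp only [norm_zero, ne_eq, OfNat.ofNat_ne_zero, not_false_eq_true, zero_pow]
    exact Finset.sum_nonneg fun j _ => en_nonneg _ _

lemma lg_support (a N : ℕ) : HasCompactSupport (lg a N) := by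
  refine HasCompactSupport.of_support_subset_isCompact
    (isCompact_closedBall (0 : ℂ) (2 ^ (a + N + 1))) fun z hz => ?_
  by_contra h
  rw [mem_closedBall, dist_zero_right, not_le] at h
  refine hz ?_
  unfold lg
  rw [Finset.sum_eq_zero, mul_zero]
  intro k hk
  refine bmp.zero_of_le_dist ?_
  rw [dist_zero_right, norm_dil]
  change (2 : ℝ) ≤ _
  rw [le_div_iff₀ (by positivity), ← pow_succ']
  have : (2 : ℝ) ^ (a + k + 1) ≤ 2 ^ (a + N + 1) :=
    pow_le_pow_right₀ (by norm_num) (by have := Finset.mem_range.1 hk; omega)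
  linarith

lemma lg_mem (a N : ℕ) (z : ℂ) : lg a N z ∈ Icc (0 : ℝ) 1 := by
  unfold lg
  constructor
  · exact mul_nonneg (by positivity) (Finset.sum_nonneg fun k _ => bmp.nonneg)
  · have h1 : ∑ k ∈ Finset.range N, bk (a + k) z ≤ ∑ k ∈ Finset.range N, (1 : ℝ) :=
      Finset.sum_le_sum fun k _ => bmp.le_one
    rw [Finset.sum_const, Finset.card_range, nsmul_eq_mul, mul_one] at h1
    rcases Nat.eq_zero_or_pos N with h | h
    · subst h; simp
    · have h2 : (0 : ℝ) < N := by exact_mod_cast h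
      rw [inv_mul_le_iff₀ h2, mul_one]; exact h1

lemma lg_one {a N : ℕ} (hN : 0 < N) {z : ℂ} (hz : ‖z‖ ≤ 2 ^ a) : lg a N z = 1 := by
  unfold lg
  have h1 : ∑ k ∈ Finset.range N, bk (a + k) z = ∑ k ∈ Finset.range N, (1 : ℝ) := by
    refine Finset.sum_congr rfl fun k _ => bmp.one_of_mem_closedBall ?_
    rw [mem_closedBall, dist_zero_right, norm_dil]
    change _ ≤ (1 : ℝ)
    rw [div_le_one (by positivity)]
    exact hz.trans (pow_le_pow_right₀ (by norm_num) (Nat.le_add_right _ _))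
  rw [h1, Finset.sum_const, Finset.card_range, nsmul_eq_mul, mul_one]
  exact inv_mul_cancel₀ (by exact_mod_cast hN.ne')

/-- cut-offs near infinity of small energy -/
theorem exists_logcut (R : ℝ) {δ : ℝ} (hδ : 0 < δ) :
    ∃ χ : ℂ → ℝ, ContDiff ℝ ∞ χ ∧ HasCompactSupport χ ∧ (∀ z, χ z ∈ Icc (0 : ℝ) 1) ∧
      (∀ z, ‖z‖ ≤ R → χ z = 1) ∧ Integrable (en χ) ∧ ∫ z, en χ z ≤ δ := by
  obtain ⟨a, ha⟩ := pow_unbounded_of_one_lt R (by norm_num : (1 : ℝ) < 2)
  set A := ∫ z, en bmp z with hA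
  obtain ⟨N, hN⟩ := exists_nat_gt (A / δ)
  have hA0 : 0 ≤ A := integral_nonneg fun z => en_nonneg _ _
  have hN0 : (0 : ℝ) < N := (div_nonneg hA0 hδ.le).trans_lt hN
  have hNn : 0 < N := by exact_mod_cast hN0
  have hint : Integrable (fun z => ((N : ℝ)⁻¹) ^ 2 * ∑ k ∈ Finset.range N, en (bk (a + k)) z) :=
    (integrable_finsetSum _ fun k _ => integrable_en_bk _).const_mul _
  have hen : Integrable (en (lg a N)) := by
    refine hint.mono' (measurable_en _).aestronglyMeasurable (Eventually.of_forall fun z => ?_)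
    rw [Real.norm_of_nonneg (en_nonneg _ _)]
    exact en_lg a N z
  refine ⟨lg a N, lg_contDiff a N, lg_support a N, lg_mem a N,
    fun z hz => lg_one hNn (hz.trans ha.le), hen, ?_⟩
  refine (integral_mono hen hint (en_lg a N)).trans ?_
  rw [integral_const_mul, integral_finsetSum _ fun k _ => integrable_en_bk _]
  simp only [integral_en_bk, Finset.sum_const, Finset.card_range, nsmul_eq_mul]
  rw [← hA]
  have h1 : A < N * δ := by rwa [div_lt_iff₀ hδ] at hN
  have h2 : ((N : ℝ)⁻¹) ^ 2 * (N * A) = A / N := by field_simp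
  rw [h2, div_le_iff₀ hN0]
  linarith

/-! ### Stokes -/

variable {E : Set ℂ} {P T : ℂ → ℝ}

lemma abs_wdg_le' (u v : ℂ → ℝ) (z : ℂ) {l : ℝ} (hl : 0 < l) :
    |wdg u v z| ≤ (l * en u z + l⁻¹ * en v z) / 2 := by
  have h1 : ∀ a b c d : ℝ, |a * d - b * c| ≤
      (l * (a ^ 2 + b ^ 2) + l⁻¹ * (c ^ 2 + d ^ 2)) / 2 := by
    intro a b c d
    have hl2 : l * l⁻¹ = 1 := mul_inv_cancel₀ hl.ne'
    have k1 : 0 ≤ l⁻¹ * (l * a - d) ^ 2 := by positivity
    have k2 : 0 ≤ l⁻¹ * (l * b + c) ^ 2 := by positivity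
    have k3 : 0 ≤ l⁻¹ * (l * a + d) ^ 2 := by positivity
    have k4 : 0 ≤ l⁻¹ * (l * b - c) ^ 2 := by positivity
    have e1 : l⁻¹ * (l * a - d) ^ 2 = l * a ^ 2 - 2 * (a * d) + l⁻¹ * d ^ 2 := by
      field_simp; ring
    have e2 : l⁻¹ * (l * b + c) ^ 2 = l * b ^ 2 + 2 * (b * c) + l⁻¹ * c ^ 2 := by
      field_simp; ring
    have e3 : l⁻¹ * (l * a + d) ^ 2 = l * a ^ 2 + 2 * (a * d) + l⁻¹ * d ^ 2 := by
      field_simp; ring
    have e4 : l⁻¹ * (l * b - c) ^ 2 = l * b ^ 2 - 2 * (b * c) + l⁻¹ * c ^ 2 := by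
      field_simp; ring
    rw [abs_le]; constructor <;> nlinarith
  unfold wdg en
  have := h1 (gx u z) (gy u z) (gx v z) (gy v z)
  linarith

/-- **planar Stokes** for bounded functions of finite energy -/
theorem stokes (hE : IsClosed E) (hE0 : volume E = 0) (hP : PL E ∅ P) (hT : PL E ∅ T) :
    ∫ z, wdg P T z = 0 := by
  have hex : ∀ n : ℕ, ∃ χ : ℂ → ℝ, ContDiff ℝ ∞ χ ∧ HasCompactSupport χ ∧
      (∀ z, χ z ∈ Icc (0 : ℝ) 1) ∧ (∀ z, ‖z‖ ≤ n → χ z = 1) ∧ Integrable (en χ) ∧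
      ∫ z, en χ z ≤ (1 / ((n : ℝ) + 1)) ^ 2 := fun n =>
    exists_logcut n (by positivity)
  choose χ hχs hχc hχm hχ1 hχi hχe using hex
  obtain ⟨M, hM⟩ := hP.bdd
  have hM0 : 0 ≤ M := (abs_nonneg _).trans (hM 0)
  have ePi := Q.fin' hP.toQ hE0
  have eTi := Q.fin' hT.toQ hE0
  have hwi : Integrable (wdg P T) := by
    refine ((ePi.add eTi).div_const 2).mono' (measurable_wdg _ _).aestronglyMeasurable
      (Eventually.of_forall fun z => abs_wdg_le P T z)
  -- Stokes with the cut-off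
  have h0 : ∀ n, ∫ z, (χ n z * wdg P T z + P z * wdg (χ n) T z) = 0 := by
    intro n
    have hs : ContDiff ℝ 1 (χ n) := (hχs n).of_le (by norm_cast)
    have hc : PL E ∅ (χ n) := PL.of_smooth hs (hχc n)
    rw [← stokes_cpt hE hE0 (hc.mul hE hP) (hχc n).mul_right hT]
    refine integral_congr_ae ?_
    filter_upwards [Q.ae_diff' hP.toQ hE hE0] with z hz
    have d := (hs.differentiable one_ne_zero) z
    unfold wdg
    rw [gx_mul d hz, gy_mul d hz]
    ring
  have i1 : ∀ n, Integrable (fun z => χ n z * wdg P T z) := by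
    intro n
    refine hwi.norm.mono' ((hχs n).continuous.aestronglyMeasurable.mul
      (measurable_wdg _ _).aestronglyMeasurable) (Eventually.of_forall fun z => ?_)
    rw [norm_mul]
    have : ‖χ n z‖ ≤ 1 := by
      rw [Real.norm_of_nonneg (hχm n z).1]; exact (hχm n z).2
    exact mul_le_of_le_one_left (norm_nonneg _) this
  have bd : ∀ (n : ℕ) z, |P z * wdg (χ n) T z|
      ≤ M * ((((n : ℝ) + 1) * en (χ n) z + ((n : ℝ) + 1)⁻¹ * en T z) / 2) := by
    intro n z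
    rw [abs_mul]
    exact mul_le_mul (hM z) (abs_wdg_le' _ _ _ (by positivity)) (abs_nonneg _) hM0
  have ibd : ∀ n : ℕ, Integrable (fun z =>
      M * ((((n : ℝ) + 1) * en (χ n) z + ((n : ℝ) + 1)⁻¹ * en T z) / 2)) := fun n =>
    ((((hχi n).const_mul _).add (eTi.const_mul _)).div_const 2).const_mul M
  have i2 : ∀ n, Integrable (fun z => P z * wdg (χ n) T z) := by
    intro n
    exact (ibd n).mono' ((PL.aesm hE hE0 hP.toQ).mul (measurable_wdg _ _).aestronglyMeasurable)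
      (Eventually.of_forall fun z => bd n z)
  have t1 : Tendsto (fun n => ∫ z, χ n z * wdg P T z) atTop (𝓝 (∫ z, wdg P T z)) := by
    refine tendsto_integral_of_dominated_convergence (fun z => ‖wdg P T z‖)
      (fun n => (i1 n).aestronglyMeasurable) hwi.norm (fun n => Eventually.of_forall fun z => ?_)
      (Eventually.of_forall fun z => ?_)
    · rw [norm_mul]
      have : ‖χ n z‖ ≤ 1 := by
        rw [Real.norm_of_nonneg (hχm n z).1]; exact (hχm n z).2
      exact mul_le_of_le_one_left (norm_nonneg _) this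
    · refine tendsto_const_nhds.congr' ?_
      obtain ⟨k, hk⟩ := exists_nat_ge ‖z‖
      filter_upwards [eventually_ge_atTop k] with n hn
      rw [hχ1 n z (hk.trans (by exact_mod_cast hn)), one_mul]
  have t2 : Tendsto (fun n => ∫ z, P z * wdg (χ n) T z) atTop (𝓝 0) := by
    have hle : ∀ n : ℕ, |∫ z, P z * wdg (χ n) T z|
        ≤ M * ((1 + ∫ z, en T z) / 2) * (1 / ((n : ℝ) + 1)) := by
      intro n
      have hp : (0 : ℝ) < (n : ℝ) + 1 := by positivity
      calc |∫ z, P z * wdg (χ n) T z| ≤ ∫ z, |P z * wdg (χ n) T z| :=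
            abs_integral_le_integral_abs
        _ ≤ ∫ z, M * ((((n : ℝ) + 1) * en (χ n) z + ((n : ℝ) + 1)⁻¹ * en T z) / 2) :=
            integral_mono (i2 n).abs (ibd n) (bd n)
        _ = M * ((((n : ℝ) + 1) * (∫ z, en (χ n) z) + ((n : ℝ) + 1)⁻¹ * ∫ z, en T z) / 2) := by
            rw [integral_const_mul, integral_div, integral_add ((hχi n).const_mul _)
              (eTi.const_mul _), integral_const_mul, integral_const_mul]
        _ ≤ M * ((((n : ℝ) + 1) * (1 / ((n : ℝ) + 1)) ^ 2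
              + ((n : ℝ) + 1)⁻¹ * ∫ z, en T z) / 2) := by
            have := hχe n
            gcongr
        _ = M * ((1 + ∫ z, en T z) / 2) * (1 / ((n : ℝ) + 1)) := by
            field_simp
    have h3 : Tendsto (fun n : ℕ => M * ((1 + ∫ z, en T z) / 2) * (1 / ((n : ℝ) + 1))) atTop
        (𝓝 0) := by
      have := (tendsto_one_div_add_atTop_nhds_zero_nat (𝕜 := ℝ)).const_mul
        (M * ((1 + ∫ z, en T z) / 2))
      rwa [mul_zero] at this
    exact squeeze_zero_norm (fun n => by rw [Real.norm_eq_abs]; exact hle n) h3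
  have t3 := t1.add t2
  have h1 : ∀ n, (∫ z, χ n z * wdg P T z) + ∫ z, P z * wdg (χ n) T z = 0 := by
    intro n
    rw [← integral_add (i1 n) (i2 n)]
    exact h0 n
  simp only [h1, add_zero] at t3
  exact (tendsto_nhds_unique tendsto_const_nhds t3).symm

end

end Crest.Agent.R105.Iso_938
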