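import Mathlib
import Crest.Agent.R105.Iso4_938

/-!
# Row 105, ISO-PP, core (helper938), part 5: isotropy when only one function varies near `G`

`NF G ψ a` : near every point of `G`, `a` is a bounded Lipschitz function of `ψ`, the function
depending only on a locally constant label.
`iso_core` : `E` closed null, `G ⊆ E` compact, `ψ` planar off `G`, all the other generators planar
and locally constant near `G` ⟹ the family is isotropic (`Iso` of helper775).
-/

set_option autoImplicit false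

open MeasureTheory Set Filter Topology Metric
open scoped NNReal ENNReal ContDiff

namespace Crest.Agent.R105.Iso_938

open Crest.Agent.R105.Bd_775

noncomputable section

/-! ### one variable: bounded Lipschitz functions -/

/-- bounded Lipschitz function of one variable -/
def BL (h : ℝ → ℝ) : Prop := (∃ K : ℝ≥0, LipschitzWith K h) ∧ ∃ M : ℝ, ∀ s, |h s| ≤ M

lemma BL.const (c : ℝ) : BL fun _ => c := ⟨⟨0, LipschitzWith.const c⟩, ⟨|c|, fun _ => le_rfl⟩⟩

lemma BL.add {f g : ℝ → ℝ} (hf : BL f) (hg : BL g) : BL fun s => f s + g s := by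
  obtain ⟨⟨K, hK⟩, M, hM⟩ := hf
  obtain ⟨⟨L, hL⟩, N, hN⟩ := hg
  exact ⟨⟨K + L, hK.add hL⟩, ⟨M + N, fun s => (abs_add_le _ _).trans (add_le_add (hM s) (hN s))⟩⟩

lemma BL.mul {f g : ℝ → ℝ} (hf : BL f) (hg : BL g) : BL fun s => f s * g s := by
  obtain ⟨⟨K, hK⟩, M, hM⟩ := hf
  obtain ⟨⟨L, hL⟩, N, hN⟩ := hg
  have hM0 : 0 ≤ M := (abs_nonneg _).trans (hM 0)
  have hN0 : 0 ≤ N := (abs_nonneg _).trans (hN 0)
  refine ⟨⟨M.toNNReal * L + N.toNNReal * K, LipschitzWith.of_dist_le_mul fun x y => ?_⟩,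
    ⟨M * N, fun s => ?_⟩⟩
  · rw [Real.dist_eq]
    have e1 := hK.dist_le_mul x y
    have e2 := hL.dist_le_mul x y
    rw [Real.dist_eq] at e1 e2
    have : f x * g x - f y * g y = f x * (g x - g y) + g y * (f x - f y) := by ring
    rw [this]
    refine (abs_add_le _ _).trans ?_
    rw [abs_mul, abs_mul]
    have e3 : |f x| * |g x - g y| ≤ M * (L * dist x y) := mul_le_mul (hM x) e2 (abs_nonneg _) hM0
    have e4 : |g y| * |f x - f y| ≤ N * (K * dist x y) := mul_le_mul (hN y) e1 (abs_nonneg _) hN0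
    push_cast
    rw [Real.coe_toNNReal M hM0, Real.coe_toNNReal N hN0]
    nlinarith
  · rw [abs_mul]; exact mul_le_mul (hM s) (hN s) (abs_nonneg _) hM0

lemma BL.comp {f h : ℝ → ℝ} {K : ℝ≥0} (hf : BL f) (hh : LipschitzWith K h) :
    BL fun s => h (f s) := by
  obtain ⟨⟨L, hL⟩, M, hM⟩ := hf
  refine ⟨⟨K * L, hh.comp hL⟩, ⟨|h 0| + K * M, fun s => ?_⟩⟩
  have := hh.dist_le_mul (f s) 0
  rw [Real.dist_eq, Real.dist_eq, sub_zero] at this
  have h2 : |h (f s)| ≤ |h 0| + |h (f s) - h 0| := by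
    have := abs_add_le (h 0) (h (f s) - h 0)
    rwa [add_sub_cancel] at this
  have h3 : (K : ℝ) * |f s| ≤ K * M := mul_le_mul_of_nonneg_left (hM s) K.2
  linarith

lemma BL.clamp (M : ℝ) : BL fun s => max (-M) (min M s) := by
  refine ⟨⟨1, ?_⟩, ⟨|M|, fun s => ?_⟩⟩
  · have h1 : LipschitzWith 1 fun s : ℝ => min M s := LipschitzWith.id.const_min M
    exact h1.const_max (-M)
  · rw [abs_le]
    constructor
    · refine (neg_le_neg (le_abs_self M)).trans (le_max_left _ _)
    · refine max_le ?_ ((min_le_left _ _).trans (le_abs_self M))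
      exact neg_le_abs M

/-! ### one function -/

lemma clm_mk (L : ℂ →L[ℝ] ℝ) (x y : ℝ) : L ⟨x, y⟩ = x * L 1 + y * L Complex.I := by
  have : (⟨x, y⟩ : ℂ) = x • (1 : ℂ) + y • Complex.I := by
    apply Complex.ext <;> simp
  rw [this, map_add, map_smul, map_smul, smul_eq_mul, smul_eq_mul]

/-- Lipschitz functions of the same function have parallel gradients -/
theorem wdg_one {ψ : ℂ → ℝ} {f g : ℝ → ℝ} {K L : ℝ≥0} (hf : LipschitzWith K f)
    (hg : LipschitzWith L g) {z : ℂ} (hψ : DifferentiableAt ℝ ψ z) :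
    wdg (fun w => f (ψ w)) (fun w => g (ψ w)) z = 0 := by
  have k1 := norm_fderiv_comp_le hf hψ ⟨-gy ψ z, gx ψ z⟩
  have k2 := norm_fderiv_comp_le hg hψ ⟨-gy ψ z, gx ψ z⟩
  rw [clm_mk (fderiv ℝ (fun w => f (ψ w)) z) (-gy ψ z) (gx ψ z),
    clm_mk (fderiv ℝ ψ z) (-gy ψ z) (gx ψ z)] at k1
  rw [clm_mk (fderiv ℝ (fun w => g (ψ w)) z) (-gy ψ z) (gx ψ z),
    clm_mk (fderiv ℝ ψ z) (-gy ψ z) (gx ψ z)] at k2
  have e0 : -gy ψ z * fderiv ℝ ψ z 1 + gx ψ z * fderiv ℝ ψ z Complex.I = 0 := by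
    change -gy ψ z * gx ψ z + gx ψ z * gy ψ z = 0
    ring
  rw [e0, abs_zero, mul_zero] at k1 k2
  have k1' : -gy ψ z * gx (fun w => f (ψ w)) z + gx ψ z * gy (fun w => f (ψ w)) z = 0 :=
    abs_eq_zero.1 (le_antisymm k1 (abs_nonneg _))
  have k2' : -gy ψ z * gx (fun w => g (ψ w)) z + gx ψ z * gy (fun w => g (ψ w)) z = 0 :=
    abs_eq_zero.1 (le_antisymm k2 (abs_nonneg _))
  have l1 : |gx (fun w => f (ψ w)) z| ≤ K * |gx ψ z| := norm_fderiv_comp_le hf hψ 1
  have l2 : |gy (fun w => f (ψ w)) z| ≤ K * |gy ψ z| := norm_fderiv_comp_le hf hψ Complex.I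
  unfold wdg
  set p := gx ψ z
  set q := gy ψ z
  set a := gx (fun w => f (ψ w)) z
  set b := gy (fun w => f (ψ w)) z
  set c := gx (fun w => g (ψ w)) z
  set d := gy (fun w => g (ψ w)) z
  by_cases hp : p = 0
  · by_cases hq : q = 0
    · rw [hp, abs_zero, mul_zero] at l1
      rw [hq, abs_zero, mul_zero] at l2
      have ha : a = 0 := abs_eq_zero.1 (le_antisymm l1 (abs_nonneg _))
      have hb : b = 0 := abs_eq_zero.1 (le_antisymm l2 (abs_nonneg _))
      rw [ha, hb]; ring
    · have e : q * (a * d - b * c) = 0 := by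
        rw [hp] at k1' k2'
        have h1 : q * a = 0 := by linarith
        have h2 : q * c = 0 := by linarith
        linear_combination d * h1 - b * h2
      exact (mul_eq_zero.1 e).resolve_left hq
  · have e : p * (a * d - b * c) = 0 := by linear_combination a * k2' - c * k1'
    exact (mul_eq_zero.1 e).resolve_left hp

/-- primitive of `f dg` -/
theorem exists_prim {f g : ℝ → ℝ} (hf : BL f) (hg : BL g) :
    ∃ (H : ℝ → ℝ) (K : ℝ≥0), LipschitzWith K H ∧ ∃ C : ℝ, ∀ r s,
      |H s - H r - f r * (g s - g r)| ≤ C * |s - r| ^ 2 := by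
  obtain ⟨⟨K, hK⟩, M, hM⟩ := hf
  obtain ⟨⟨L, hL⟩, -⟩ := hg
  have hM0 : 0 ≤ M := (abs_nonneg _).trans (hM 0)
  have hgm : Measurable (deriv g) := measurable_deriv g
  have hgb : ∀ s, |deriv g s| ≤ L := fun s => by
    have : ‖deriv g s‖ ≤ L := norm_deriv_le_of_lipschitz hL
    simpa using this
  have hgi : ∀ a b, IntervalIntegrable (deriv g) volume a b := fun a b => by
    refine (intervalIntegrable_const (c := (L : ℝ)) (a := a) (b := b)).mono_fun
      hgm.aestronglyMeasurable (Eventually.of_forall fun s => ?_)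
    simp only [Real.norm_eq_abs, NNReal.abs_eq]
    exact hgb s
  have hcf : Continuous f := hK.continuous
  have hi : ∀ a b, IntervalIntegrable (fun t => f t * deriv g t) volume a b := fun a b =>
    (hgi a b).continuousOn_mul hcf.continuousOn
  have hftc : ∀ a b, g b - g a = ∫ t in a..b, deriv g t := fun a b =>
    ((LipschitzOnWith.absolutelyContinuousOnInterval
      (hL.lipschitzOnWith (s := uIcc a b))).integral_deriv_eq_sub).symm
  refine ⟨fun s => ∫ t in (0 : ℝ)..s, f t * deriv g t, (M * L).toNNReal, ?_, K * L, ?_⟩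
  · refine LipschitzWith.of_dist_le_mul fun x y => ?_
    rw [dist_comm, Real.dist_eq, Real.dist_eq, intervalIntegral.integral_interval_sub_left
      (hi 0 y) (hi 0 x), abs_sub_comm x y, Real.coe_toNNReal _ (by positivity)]
    have h1 : ∀ t ∈ uIoc x y, ‖f t * deriv g t‖ ≤ M * L := fun t _ => by
      rw [norm_mul]
      exact mul_le_mul (hM t) (hgb t) (norm_nonneg _) hM0
    exact intervalIntegral.norm_integral_le_of_norm_le_const h1
  · intro r s
    simp only []
    rw [intervalIntegral.integral_interval_sub_left (hi 0 s) (hi 0 r), hftc r s,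
      ← intervalIntegral.integral_const_mul,
      ← intervalIntegral.integral_sub (hi r s) ((hgi r s).const_mul _)]
    have h1 : ∀ t ∈ uIoc r s, ‖f t * deriv g t - f r * deriv g t‖ ≤ K * |s - r| * L := by
      intro t ht
      rw [← sub_mul, norm_mul]
      have h2 : ‖f t - f r‖ ≤ K * |s - r| := by
        have := hK.dist_le_mul t r
        rw [dist_eq_norm, Real.dist_eq] at this
        refine this.trans (mul_le_mul_of_nonneg_left ?_ K.2)
        exact abs_sub_left_of_mem_uIcc (uIoc_subset_uIcc ht)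
      exact mul_le_mul h2 (hgb t) (norm_nonneg _) (by positivity)
    have h2 := intervalIntegral.norm_integral_le_of_norm_le_const h1
    rw [Real.norm_eq_abs] at h2
    refine h2.trans (le_of_eq ?_)
    rw [sq]; ring

/-- `f(ψ) d g(ψ) = d H(ψ)` -/
theorem fderiv_prim {ψ : ℂ → ℝ} {f g H : ℝ → ℝ} {C : ℝ}
    (hH : ∀ r s, |H s - H r - f r * (g s - g r)| ≤ C * |s - r| ^ 2) {z : ℂ}
    (hψ : DifferentiableAt ℝ ψ z) (hg : DifferentiableAt ℝ (fun w => g (ψ w)) z) (v : ℂ) :
    fderiv ℝ (fun w => H (ψ w)) z v = f (ψ z) * fderiv ℝ (fun w => g (ψ w)) z v := by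
  have h1 : HasFDerivAt (fun w => H (ψ w) - f (ψ z) * g (ψ w)) (0 : ℂ →L[ℝ] ℝ) z := by
    rw [hasFDerivAt_iff_isLittleO]
    have o1 : (fun w => ψ w - ψ z) =O[𝓝 z] fun w => w - z := hψ.hasFDerivAt.isBigO_sub
    have o2 : (fun w => C * |ψ w - ψ z| ^ 2) =O[𝓝 z] fun w => ‖w - z‖ ^ 2 := by
      refine Asymptotics.IsBigO.const_mul_left ?_ C
      exact (o1.norm_norm.pow 2).congr_left fun w => by rw [Real.norm_eq_abs]
    have o3 : (fun w => ‖w - z‖ ^ 2) =o[𝓝 z] fun w => w - z := by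
      have h := (Asymptotics.isLittleO_norm_pow_id (E' := ℂ) one_lt_two)
      refine h.comp_tendsto (k := fun w => w - z) ?_
      have : Tendsto (fun w : ℂ => w - z) (𝓝 z) (𝓝 (z - z)) :=
        (continuous_id.sub continuous_const).tendsto z
      rwa [sub_self] at this
    refine (Asymptotics.IsBigO.of_bound 1 (Eventually.of_forall fun w => ?_)).trans_isLittleO
      (o2.trans_isLittleO o3)
    have e := hH (ψ z) (ψ w)
    simp only [_root_.zero_apply, sub_zero, one_mul]
    have e2 : H (ψ w) - f (ψ z) * g (ψ w) - (H (ψ z) - f (ψ z) * g (ψ z))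
        = H (ψ w) - H (ψ z) - f (ψ z) * (g (ψ w) - g (ψ z)) := by ring
    rw [e2, Real.norm_eq_abs, Real.norm_eq_abs]
    exact e.trans (le_abs_self _)
  have h2 := (h1.add (hg.hasFDerivAt.const_mul (f (ψ z)))).fderiv
  have e : (fun w => H (ψ w) - f (ψ z) * g (ψ w)) + (fun w => f (ψ z) * g (ψ w))
      = fun w => H (ψ w) := by funext w; simp
  rw [e] at h2
  rw [h2]
  simp

end

end Crest.Agent.R105.Iso_938
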