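import Mathlib
import Crest.Agent.R105.Iso5_938

/-!
# Row 105, ISO-PP, core (helper938), part 6: isotropy when only one function varies near `G`

`NF G ψ a` : near every point of `G`, `a` is a bounded Lipschitz function of `ψ`, the function
depending only on a locally constant label.
`iso_core` : `E` closed null, `G ⊆ E` compact, `ψ` planar off `G`, all the other generators planar
and locally constant near `G` ⟹ the family is isotropic (`Iso` of helper775).
-/

set_option autoImplicit false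

open MeasureTheory Set Filter Topology Metric
open scoped NNReal ENNReal ContDiff

namespace Crest.Agent.R105.Iso_938

open Crest.Agent.R105.Bd_775

noncomputable section

/-- near `G`, `a` is a function of `ψ` and of a locally constant label -/
def NF (G : Set ℂ) (ψ a : ℂ → ℝ) : Prop :=
  ∃ (α : Type) (L : ℂ → α) (Φ : α → ℝ → ℝ), (∀ z ∈ G, ∀ᶠ w in 𝓝 z, L w = L z) ∧
    (∀ c, BL (Φ c)) ∧ (∀ z ∈ G, ∀ᶠ w in 𝓝 z, a w = Φ (L w) (ψ w))

section NF
variable {G : Set ℂ} {ψ a b : ℂ → ℝ}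

lemma NF.of_lc (h : ∀ z ∈ G, ∀ᶠ w in 𝓝 z, a w = a z) : NF G ψ a :=
  ⟨ℝ, a, fun c _ => c, h, fun c => BL.const c, fun _ _ => Eventually.of_forall fun _ => rfl⟩

lemma NF.self {M : ℝ} (h : ∀ z, |ψ z| ≤ M) : NF G ψ ψ := by
  refine ⟨Unit, fun _ => (), fun _ s => max (-M) (min M s),
    fun _ _ => Eventually.of_forall fun _ => rfl, fun _ => BL.clamp M,
    fun _ _ => Eventually.of_forall fun w => ?_⟩
  have := abs_le.1 (h w)
  change ψ w = max (-M) (min M (ψ w))
  rw [min_eq_right this.2, max_eq_right this.1]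

lemma NF.add (ha : NF G ψ a) (hb : NF G ψ b) : NF G ψ (fun z => a z + b z) := by
  obtain ⟨α, L, Φ, h1, h2, h3⟩ := ha
  obtain ⟨α', L', Φ', h1', h2', h3'⟩ := hb
  refine ⟨α × α', fun z => (L z, L' z), fun c s => Φ c.1 s + Φ' c.2 s, fun z hz => ?_,
    fun c => (h2 _).add (h2' _), fun z hz => ?_⟩
  · filter_upwards [h1 z hz, h1' z hz] with w e1 e2
    rw [e1, e2]
  · filter_upwards [h3 z hz, h3' z hz] with w e1 e2
    rw [e1, e2]

lemma NF.mul (ha : NF G ψ a) (hb : NF G ψ b) : NF G ψ (fun z => a z * b z) := by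
  obtain ⟨α, L, Φ, h1, h2, h3⟩ := ha
  obtain ⟨α', L', Φ', h1', h2', h3'⟩ := hb
  refine ⟨α × α', fun z => (L z, L' z), fun c s => Φ c.1 s * Φ' c.2 s, fun z hz => ?_,
    fun c => (h2 _).mul (h2' _), fun z hz => ?_⟩
  · filter_upwards [h1 z hz, h1' z hz] with w e1 e2
    rw [e1, e2]
  · filter_upwards [h3 z hz, h3' z hz] with w e1 e2
    rw [e1, e2]

lemma NF.comp (ha : NF G ψ a) {h : ℝ → ℝ} {K : ℝ≥0} (hh : LipschitzWith K h) :
    NF G ψ (fun z => h (a z)) := by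
  obtain ⟨α, L, Φ, h1, h2, h3⟩ := ha
  refine ⟨α, L, fun c s => h (Φ c s), h1, fun c => (h2 _).comp hh, fun z hz => ?_⟩
  filter_upwards [h3 z hz] with w e1
  rw [e1]

lemma NF.gen {E : Set ℂ} (hGE : G ⊆ E) {κ : Type*} {b : κ → ℂ → ℝ}
    (hb : ∀ k, NF G ψ (b k)) {u : ℂ → ℝ} (hu : Gen E b u) : NF G ψ u := by
  induction hu with
  | const c => exact NF.of_lc fun _ _ => Eventually.of_forall fun _ => rfl
  | lc h => exact NF.of_lc fun z hz => h.lc z (hGE hz)
  | of i => exact hb i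
  | add _ _ h1 h2 => exact h1.add h2
  | mul _ _ h1 h2 => exact h1.mul h2
  | comp hh _ h1 => exact h1.comp hh

end NF

/-! ### cut-offs -/

/-- smooth cut-offs -/
lemma exists_cut {K U : Set ℂ} (hK : IsCompact K) (hU : IsOpen U) (hKU : K ⊆ U) :
    ∃ χ : ℂ → ℝ, ContDiff ℝ ∞ χ ∧ HasCompactSupport χ ∧ tsupport χ ⊆ U ∧
      ∀ z ∈ K, ∀ᶠ w in 𝓝 z, χ w = 1 := by
  obtain ⟨K', hK', h1, h2⟩ := exists_compact_between hK hU hKU
  obtain ⟨f, hf1, hf2, -⟩ := exists_contMDiffMap_one_nhds_of_subset_interior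
    (I := modelWithCornersSelf ℝ ℂ) (n := ⊤) hK.isClosed h1
  have hsup : tsupport (f : ℂ → ℝ) ⊆ K' := by
    refine closure_minimal (fun z hz => ?_) hK'.isClosed
    by_contra h
    exact hz (hf2 z h)
  refine ⟨f, f.contMDiff.contDiff, HasCompactSupport.of_support_subset_isCompact hK'
    ((subset_tsupport _).trans hsup), hsup.trans h2, fun z hz => ?_⟩
  exact (eventually_nhdsSet_iff_forall.1 hf1) z hz

lemma gx_one_sub {u : ℂ → ℝ} {z : ℂ} (h : DifferentiableAt ℝ u z) :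
    gx (fun z => 1 + (-1) * u z) z = - gx u z := by
  unfold gx
  rw [((h.hasFDerivAt.const_mul (-1)).const_add 1).fderiv]; simp

lemma gy_one_sub {u : ℂ → ℝ} {z : ℂ} (h : DifferentiableAt ℝ u z) :
    gy (fun z => 1 + (-1) * u z) z = - gy u z := by
  unfold gy
  rw [((h.hasFDerivAt.const_mul (-1)).const_add 1).fderiv]; simp

/-! ### the core -/

section core
variable {E G : Set ℂ} {ψ a a' : ℂ → ℝ}

theorem core_pair (hE : IsClosed E) (hE0 : volume E = 0) (hG : IsCompact G)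
    (hψ : PL E G ψ) (ha : PL E G a) (ha' : PL E G a') (na : NF G ψ a) (na' : NF G ψ a') :
    ∫ z, wdg a a' z = 0 := by
  classical
  obtain ⟨α, L, Φ, h1, h2, h3⟩ := na
  obtain ⟨α', L', Φ', h1', h2', h3'⟩ := na'
  -- the open sets on which the label is constant
  set W : α × α' → Set ℂ := fun c =>
    {z | ∀ᶠ w in 𝓝 z, a w = Φ c.1 (ψ w) ∧ a' w = Φ' c.2 (ψ w) ∧ (L w, L' w) = c} with hW
  have hWo : ∀ c, IsOpen (W c) := fun c => isOpen_setOfPred_eventually_nhds
  have hWm : ∀ c z, z ∈ W c →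
      ∀ᶠ w in 𝓝 z, a w = Φ c.1 (ψ w) ∧ a' w = Φ' c.2 (ψ w) ∧ (L w, L' w) = c :=
    fun c z hz => hz
  have hWd : ∀ c c' z, z ∈ W c → z ∈ W c' → c = c' := by
    intro c c' z hz hz'
    rw [← (hWm c z hz).self_of_nhds.2.2, ← (hWm c' z hz').self_of_nhds.2.2]
  have hWG : G ⊆ ⋃ c, W c := by
    intro z hz
    refine mem_iUnion.2 ⟨(L z, L' z), ?_⟩
    change ∀ᶠ w in 𝓝 z, _
    filter_upwards [h1 z hz, h1' z hz, h3 z hz, h3' z hz] with w e1 e2 e3 e4
    exact ⟨by rw [e3, e1], by rw [e4, e2], by rw [e1, e2]⟩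
  obtain ⟨t, ht⟩ := hG.elim_finite_subcover W hWo hWG
  -- the pieces of `G`
  have hGc : ∀ c ∈ t, IsCompact (G ∩ W c) := by
    intro c hc
    have : G ∩ W c = G \ ⋃ c' ∈ t.erase c, W c' := by
      ext z
      simp only [mem_inter_iff, Set.mem_sdiff, mem_iUnion, Finset.mem_erase, not_exists]
      constructor
      · rintro ⟨hz, hzc⟩
        exact ⟨hz, fun c' hc' hzc' => hc'.1 (hWd _ _ z hzc' hzc)⟩
      · rintro ⟨hz, hn⟩
        refine ⟨hz, ?_⟩
        obtain ⟨c', hc', hzc'⟩ := mem_iUnion₂.1 (ht hz)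
        by_cases hcc : c' = c
        · rwa [hcc] at hzc'
        · exact absurd hzc' (hn c' ⟨hcc, hc'⟩)
    rw [this]
    exact hG.diff (isOpen_biUnion fun c' _ => hWo c')
  have hex : ∀ c : t, ∃ χ : ℂ → ℝ, ContDiff ℝ ∞ χ ∧ HasCompactSupport χ ∧
      tsupport χ ⊆ W c ∧ ∀ z ∈ G ∩ W c, ∀ᶠ w in 𝓝 z, χ w = 1 := fun c =>
    exists_cut (hGc c c.2) (hWo c) inter_subset_right
  choose θ hθs hθc hθW hθ1 using hex
  have hθs1 : ∀ c, ContDiff ℝ 1 (θ c) := fun c => (hθs c).of_le (by norm_cast)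
  have hθP : ∀ c, PL E ∅ (θ c) := fun c => PL.of_smooth (hθs1 c) (hθc c)
  have hθd : ∀ c z, DifferentiableAt ℝ (θ c) z := fun c z =>
    (hθs1 c).differentiable one_ne_zero z
  set Θ : ℂ → ℝ := fun z => ∑ c, θ c z with hΘ
  have hΘs : ContDiff ℝ 1 Θ := ContDiff.sum fun c _ => hθs1 c
  have hΘc : HasCompactSupport Θ := by
    refine HasCompactSupport.of_support_subset_isCompact
      (isCompact_iUnion fun c => (hθc c).isCompact) fun z hz => ?_
    by_contra h
    refine hz (Finset.sum_eq_zero fun c _ => ?_)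
    exact image_eq_zero_of_notMem_tsupport fun h' => h (mem_iUnion.2 ⟨c, h'⟩)
  have hΘP : PL E ∅ Θ := PL.of_smooth hΘs hΘc
  -- the neighbourhood of `G` on which all cut-offs are locally constant
  set N : Set ℂ := {z | ∀ᶠ w in 𝓝 z, Θ w = 1 ∧ ∀ c, gx (θ c) w = 0 ∧ gy (θ c) w = 0} with hN
  have hNo : IsOpen N := isOpen_setOfPred_eventually_nhds
  have hGN : G ⊆ N := by
    intro z hz
    obtain ⟨c, hc, hzc⟩ := mem_iUnion₂.1 (ht hz)
    have e1 : ∀ᶠ w in 𝓝 z, ∀ᶠ v in 𝓝 w, θ ⟨c, hc⟩ v = 1 := (hθ1 ⟨c, hc⟩ z ⟨hz, hzc⟩).eventually_nhds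
    have e2 : ∀ᶠ w in 𝓝 z, w ∈ W c := (hWo c).mem_nhds hzc
    have e3 : ∀ᶠ w in 𝓝 z, ∀ c' : t, c' ≠ ⟨c, hc⟩ → ∀ᶠ v in 𝓝 w, θ c' v = 0 := by
      filter_upwards [e2] with w hw c' hc'
      have : w ∉ tsupport (θ c') := fun h => by
        apply hc'
        exact Subtype.ext (hWd _ _ w (hθW c' h) hw)
      rw [notMem_tsupport_iff_eventuallyEq] at this
      exact this
    change ∀ᶠ w in 𝓝 z, _
    filter_upwards [e1, e3] with w h1 h3
    constructor
    · change ∑ c', θ c' w = 1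
      rw [Finset.sum_eq_single ⟨c, hc⟩ (fun c' _ hc' => (h3 c' hc').self_of_nhds)
        (fun h => absurd (Finset.mem_univ _) h)]
      exact h1.self_of_nhds
    · intro c'
      by_cases hc' : c' = ⟨c, hc⟩
      · have : θ c' =ᶠ[𝓝 w] fun _ => (1 : ℝ) := by rw [hc']; exact h1
        rw [gx_eq_of_eventuallyEq this, gy_eq_of_eventuallyEq this, gx_const, gy_const]
        exact ⟨rfl, rfl⟩
      · have : θ c' =ᶠ[𝓝 w] fun _ => (0 : ℝ) := h3 c' hc'
        rw [gx_eq_of_eventuallyEq this, gy_eq_of_eventuallyEq this, gx_const, gy_const]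
        exact ⟨rfl, rfl⟩
  obtain ⟨η, hηs, hηc, hηN, hη1⟩ := exists_cut hG hNo hGN
  set κ : ℂ → ℝ := fun z => 1 + (-1) * η z with hκ
  have hκP : PL E ∅ κ :=
    (PL.const 1).add hE ((PL.const (-1)).mul hE
      (PL.of_smooth (hηs.of_le (by norm_cast)) hηc))
  have hκ0 : ∀ z ∈ G, ∀ᶠ w in 𝓝 z, κ w = 0 := by
    intro z hz
    filter_upwards [hη1 z hz] with w hw
    simp only [hκ, hw]; ring
  have hκ1 : ∀ z, z ∉ N → ∀ᶠ w in 𝓝 z, κ w = 1 := by
    intro z hz
    have : z ∉ tsupport η := fun h => hz (hηN h)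
    rw [notMem_tsupport_iff_eventuallyEq] at this
    filter_upwards [this] with w hw
    simp only [hκ, hw, Pi.zero_apply]; ring
  have hNm : ∀ z ∈ N, ∀ᶠ w in 𝓝 z, Θ w = 1 ∧ ∀ c, gx (θ c) w = 0 ∧ gy (θ c) w = 0 :=
    fun z hz => hz
  have hNz : ∀ z ∈ N, Θ z = 1 ∧ ∀ c, gx (θ c) z = 0 ∧ gy (θ c) z = 0 := fun z hz =>
    (hNm z hz).self_of_nhds
  -- the functions cut off near `G`
  have hP : PL E ∅ (fun z => κ z * a z) := PL.cut hE hG.isClosed hκP ha hκ0
  have hP' : PL E ∅ (fun z => κ z * a' z) := PL.cut hE hG.isClosed hκP ha' hκ0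
  have hda := Q.ae_diff' ha.toQ hE hE0
  have hda' := Q.ae_diff' ha'.toQ hE hE0
  have hdψ := Q.ae_diff' hψ.toQ hE hE0
  have hdP := Q.ae_diff' hP.toQ hE hE0
  have hΘd : ∀ z, DifferentiableAt ℝ Θ z := fun z => hΘs.differentiable one_ne_zero z
  have hgxΘ : ∀ z, gx Θ z = ∑ c, gx (θ c) z := by
    intro z
    unfold gx
    rw [hΘ, fderiv_fun_sum fun c _ => hθd c z]; simp
  have hgyΘ : ∀ z, gy Θ z = ∑ c, gy (θ c) z := by
    intro z
    unfold gy
    rw [hΘ, fderiv_fun_sum fun c _ => hθd c z]; simp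
  -- (1) the form vanishes on the support of `θ c`
  have s1 : ∀ᵐ z, ∀ c, θ c z * wdg a a' z = 0 := by
    filter_upwards [hdψ] with z hz c
    by_cases hzc : z ∈ tsupport (θ c)
    · have hw := hWm c z (hθW c hzc)
      obtain ⟨K, hK⟩ := (h2 c.1.1).1
      obtain ⟨K', hK'⟩ := (h2' c.1.2).1
      have e1 : a =ᶠ[𝓝 z] fun w => Φ c.1.1 (ψ w) := hw.mono fun w h => h.1
      have e2 : a' =ᶠ[𝓝 z] fun w => Φ' c.1.2 (ψ w) := hw.mono fun w h => h.2.1
      rw [wdg_eq_of_eventuallyEq e1 e2, wdg_one hK hK' hz, mul_zero]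
    · rw [image_eq_zero_of_notMem_tsupport hzc, zero_mul]
  -- (2) Stokes off `G`
  have hS : PL E ∅ (fun z => (1 + (-1) * Θ z) * (κ z * a z)) :=
    ((PL.const 1).add hE ((PL.const (-1)).mul hE hΘP)).mul hE hP
  have s2 := stokes hE hE0 hS hP'
  have s3 : ∀ᵐ z, wdg (fun z => (1 + (-1) * Θ z) * (κ z * a z)) (fun z => κ z * a' z) z
      = wdg a a' z - ∑ c, a z * wdg (θ c) a' z := by
    filter_upwards [hda, hda', hdP, s1] with z d1 d2 d3 hs1
    have hd1 : DifferentiableAt ℝ (fun z => 1 + (-1) * Θ z) z :=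
      (differentiableAt_const _).add ((differentiableAt_const _).mul (hΘd z))
    have e0 : wdg (fun z => (1 + (-1) * Θ z) * (κ z * a z)) (fun z => κ z * a' z) z
        = (1 - Θ z) * wdg (fun z => κ z * a z) (fun z => κ z * a' z) z
          - κ z * a z * wdg Θ (fun z => κ z * a' z) z := by
      have gx1 : gx (fun z => 1 + (-1) * Θ z) z = - gx Θ z := gx_one_sub (hΘd z)
      have gy1 : gy (fun z => 1 + (-1) * Θ z) z = - gy Θ z := gy_one_sub (hΘd z)
      unfold wdg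
      rw [gx_mul hd1 d3, gy_mul hd1 d3, gx1, gy1]
      ring
    rw [e0]
    have hsum : Θ z * wdg a a' z = 0 := by
      change (∑ c, θ c z) * wdg a a' z = 0
      rw [Finset.sum_mul]
      exact Finset.sum_eq_zero fun c _ => hs1 c
    by_cases hzN : z ∈ N
    · obtain ⟨n1, n2⟩ := hNz z hzN
      have g1 : gx Θ z = 0 := by rw [hgxΘ]; exact Finset.sum_eq_zero fun c _ => (n2 c).1
      have g2 : gy Θ z = 0 := by rw [hgyΘ]; exact Finset.sum_eq_zero fun c _ => (n2 c).2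
      have g3 : ∀ c, wdg (θ c) a' z = 0 := fun c => by
        unfold wdg; rw [(n2 c).1, (n2 c).2]; ring
      have g4 : wdg a a' z = 0 := by rwa [n1, one_mul] at hsum
      rw [n1, g4, Finset.sum_eq_zero fun c _ => by rw [g3 c, mul_zero]]
      unfold wdg
      rw [g1, g2]; ring
    · have k1 : (fun z => κ z * a z) =ᶠ[𝓝 z] a := by
        filter_upwards [hκ1 z hzN] with w hw
        rw [hw, one_mul]
      have k2 : (fun z => κ z * a' z) =ᶠ[𝓝 z] a' := by
        filter_upwards [hκ1 z hzN] with w hw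
        rw [hw, one_mul]
      have k3 : κ z * a z = a z := k1.eq_of_nhds
      rw [wdg_eq_of_eventuallyEq k1 k2, wdg_eq_of_eventuallyEq (EventuallyEq.refl _ Θ) k2, k3]
      have k4 : a z * wdg Θ a' z = ∑ c, a z * wdg (θ c) a' z := by
        unfold wdg
        rw [hgxΘ, hgyΘ, ← Finset.mul_sum, Finset.sum_sub_distrib, Finset.sum_mul, Finset.sum_mul]
      rw [k4, sub_mul, one_mul, hsum, sub_zero]
  rw [integral_congr_ae s3] at s2
  -- (3) the boundary terms vanish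
  have s4 : ∀ c, ∫ z, a z * wdg (θ c) a' z = 0 := by
    intro c
    obtain ⟨H, K, hHK, C, hH⟩ := exists_prim (h2 c.1.1) (h2' c.1.2)
    have hHP : PL E ∅ (fun z => κ z * H (ψ z)) :=
      PL.cut hE hG.isClosed hκP (hψ.comp hE hHK) hκ0
    rw [← stokes hE hE0 (hθP c) hHP]
    refine integral_congr_ae ?_
    filter_upwards [hdψ, hda'] with z d1 d2
    by_cases hzN : z ∈ N
    · obtain ⟨n1, n2⟩ := hNz z hzN
      unfold wdg
      rw [(n2 c).1, (n2 c).2]; ring
    · by_cases hzc : z ∈ tsupport (θ c)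
      · have hw := hWm c z (hθW c hzc)
        have e1 : a z = Φ c.1.1 (ψ z) := hw.self_of_nhds.1
        have e2 : a' =ᶠ[𝓝 z] fun w => Φ' c.1.2 (ψ w) := hw.mono fun w h => h.2.1
        have d3 : DifferentiableAt ℝ (fun w => Φ' c.1.2 (ψ w)) z := d2.congr_of_eventuallyEq e2.symm
        have k1 : (fun z => κ z * H (ψ z)) =ᶠ[𝓝 z] fun z => H (ψ z) := by
          filter_upwards [hκ1 z hzN] with w hw
          rw [hw, one_mul]
        rw [wdg_eq_of_eventuallyEq (EventuallyEq.refl _ (θ c)) k1,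
          wdg_eq_of_eventuallyEq (EventuallyEq.refl _ (θ c)) e2]
        have f1 : gx (fun z => H (ψ z)) z = Φ c.1.1 (ψ z) * gx (fun w => Φ' c.1.2 (ψ w)) z :=
          fderiv_prim hH d1 d3 1
        have f2 : gy (fun z => H (ψ z)) z = Φ c.1.1 (ψ z) * gy (fun w => Φ' c.1.2 (ψ w)) z :=
          fderiv_prim hH d1 d3 Complex.I
        unfold wdg
        rw [f1, f2, e1]; ring
      · unfold wdg
        rw [gx_zero_of_notMem hzc, gy_zero_of_notMem hzc]; ring
  -- conclusion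
  have hi1 : Integrable (wdg a a') :=
    (((Q.fin' ha.toQ hE0).add (Q.fin' ha'.toQ hE0)).div_const 2).mono'
      (measurable_wdg _ _).aestronglyMeasurable (Eventually.of_forall fun z => abs_wdg_le a a' z)
  obtain ⟨M, hM⟩ := ha.bdd
  have hi2 : ∀ c, Integrable (fun z => a z * wdg (θ c) a' z) := by
    intro c
    have hw : Integrable (wdg (θ c) a') :=
      (((Q.fin' (hθP c).toQ hE0).add (Q.fin' ha'.toQ hE0)).div_const 2).mono'
        (measurable_wdg _ _).aestronglyMeasurable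
        (Eventually.of_forall fun z => abs_wdg_le (θ c) a' z)
    refine (hw.norm.const_mul M).mono' ((PL.aesm hE hE0 ha.toQ).mul
      (measurable_wdg _ _).aestronglyMeasurable) (Eventually.of_forall fun z => ?_)
    rw [norm_mul]
    exact mul_le_mul_of_nonneg_right (hM z) (norm_nonneg _)
  rw [integral_sub hi1 (integrable_finsetSum _ fun c _ => hi2 c),
    integral_finsetSum _ fun c _ => hi2 c, Finset.sum_eq_zero fun c _ => s4 c, sub_zero] at s2
  exact s2

/-- **core of ISO-PP** : `ψ` planar off `G`, the other generators planar and locally constant near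
`G` -/
theorem iso_core (hE : IsClosed E) (hE0 : volume E = 0) (hG : IsCompact G) (hGE : G ⊆ E)
    (hψ : PL E G ψ) {ι : Type*} {b : ι → ℂ → ℝ}
    (hb : ∀ i, b i = ψ ∨ (PL E ∅ (b i) ∧ ∀ z ∈ G, ∀ᶠ w in 𝓝 z, b i w = b i z)) : Iso E b := by
  obtain ⟨M, hM⟩ := hψ.bdd
  have h1 : ∀ i, PL E G (b i) := fun i => by
    rcases hb i with h | h
    · rw [h]; exact hψ
    · exact h.1.mono (empty_subset _)
  have h2 : ∀ i, NF G ψ (b i) := fun i => by
    rcases hb i with h | h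
    · rw [h]; exact NF.self hM
    · exact NF.of_lc h.2
  intro u v hu hv
  unfold om
  rw [restrict_compl hE0]
  exact core_pair hE hE0 hG hψ (PL.gen hE h1 hu) (PL.gen hE h1 hv) (NF.gen hGE h2 hu)
    (NF.gen hGE h2 hv)

end core

end

end Crest.Agent.R105.Iso_938
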