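import Crest.Agent.R105.Isx2_909
import Crest.Agent.R105.Skp2_257
import Crest.Agent.R105.Tra4_937
import Crest.Agent.R105.Iso2_938

/-!
# Row 105, PP: `ISOG` (helper909), adapter `ℝ × ℝ` → `ℂ` + closing

`isog_of_core` : the core of 938 (generators locally constant near `G`) ⟹ `Skp2_257.ISOG`.
-/

set_option autoImplicit false

open MeasureTheory Set Filter Topology Metric
open scoped NNReal ENNReal

namespace Crest.Agent.R105.Isx_909

open Tra_937 (toC setC integral_toC integrableOn_toC locLip_toC continuous_toC volume_setC)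

theorem gx_toC' (f : ℝ × ℝ → ℝ) (z : ℂ) :
    Bd_775.gx (toC f) z = CF_363.gx f (z.re, z.im) := by
  unfold Bd_775.gx CF_363.gx
  have e : toC f = f ∘ (Complex.equivRealProdCLM : ℂ ≃L[ℝ] ℝ × ℝ) := rfl
  rw [e, ContinuousLinearEquiv.comp_right_fderiv]
  simp

theorem gy_toC' (f : ℝ × ℝ → ℝ) (z : ℂ) :
    Bd_775.gy (toC f) z = CF_363.gy f (z.re, z.im) := by
  unfold Bd_775.gy CF_363.gy
  have e : toC f = f ∘ (Complex.equivRealProdCLM : ℂ ≃L[ℝ] ℝ × ℝ) := rfl
  rw [e, ContinuousLinearEquiv.comp_right_fderiv]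
  simp

theorem en_toC' (f : ℝ × ℝ → ℝ) : Bd_775.en (toC f) = toC (CF_363.g2 f) := by
  funext z
  unfold Bd_775.en CF_363.g2
  rw [gx_toC', gy_toC']
  rfl

theorem om_toC (E : Set (ℝ × ℝ)) (u v : ℝ × ℝ → ℝ) :
    Bd_775.om (setC E) (toC u) (toC v) =
      ∫ p in Eᶜ, (CF_363.gx u p * CF_363.gy v p - CF_363.gy u p * CF_363.gx v p) := by
  rw [← integral_toC]
  unfold Bd_775.om
  congr 1
  funext z
  unfold Bd_775.wdg
  rw [gx_toC', gy_toC', gx_toC', gy_toC']
  rfl

theorem isCompact_setC {E : Set (ℝ × ℝ)} (h : IsCompact E) : IsCompact (setC E) :=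
  (Complex.equivRealProdCLM.toHomeomorph.isCompact_preimage).2 h

theorem isClosed_setC {E : Set (ℝ × ℝ)} (h : IsClosed E) : IsClosed (setC E) :=
  h.preimage Complex.equivRealProdCLM.continuous

theorem q_toC {E : Set (ℝ × ℝ)} {u : ℝ × ℝ → ℝ} (hb : ∃ M : ℝ, ∀ p, |u p| ≤ M)
    (hl : LocallyLipschitzOn Eᶜ u) (hf : IntegrableOn (CF_363.g2 u) Eᶜ) :
    Bd_775.Q (setC E) (toC u) where
  bdd := hb.imp fun M hM z => hM _
  loc := locLip_toC.2 hl
  fin := by
    rw [en_toC']
    exact (integrableOn_toC Eᶜ _).2 hf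

/-- everything planar off `G` in the letters of 257 is planar off `G` in the letters of 938 -/
theorem pl_toC {E G : Set (ℝ × ℝ)} (hE0 : volume E = 0) {u : ℝ × ℝ → ℝ}
    (h : Skp2_257.PL E G u) : Iso_938.PL (setC E) (setC G) (toC u) := by
  have hq := q_toC h.bdd h.lip h.fin
  have hE0' : volume (setC E) = 0 := by rw [volume_setC]; exact hE0
  -- integrable on the whole plane
  have hint : Integrable (Bd_775.en (toC u)) := by
    have h1 : IntegrableOn (Bd_775.en (toC u)) (setC E) := by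
      rw [IntegrableOn, Measure.restrict_eq_zero.2 hE0']
      exact integrable_zero_measure
    have h2 := h1.union hq.fin
    rwa [union_compl_self, integrableOn_univ] at h2
  refine { hq with dom := ⟨fun z => |Bd_775.gx (toC u) z| + |Bd_775.gy (toC u) z|, ?_⟩ }
  have mx := Iso_938.memLp_gx hint
  have my := Iso_938.memLp_gy hint
  have hmeas : Measurable (fun z => |Bd_775.gx (toC u) z| + |Bd_775.gy (toC u) z|) :=
    (Bd_775.measurable_gx _).norm.add (Bd_775.measurable_gy _).norm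
  have hmem : MemLp (fun z => |Bd_775.gx (toC u) z| + |Bd_775.gy (toC u) z|) 2 :=
    mx.abs.add my.abs
  refine ⟨fun z => by positivity, hmeas, hmem, ?_, ?_⟩
  · filter_upwards [h.hor, Iso_938.ii_hor hmeas hmem] with y hy hii a b hab hG
    obtain ⟨i1, e1⟩ := hy a b hab fun x hx => hG x hx
    have e2 : toC u ⟨b, y⟩ - toC u ⟨a, y⟩ = ∫ s in a..b, CF_363.gx u (s, y) := e1
    rw [e2]
    refine (intervalIntegral.abs_integral_le_integral_abs hab).trans ?_
    refine intervalIntegral.integral_mono_on hab i1.abs (hii a b) fun s hs => ?_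
    rw [gx_toC']
    have := abs_nonneg (Bd_775.gy (toC u) ⟨s, y⟩)
    linarith
  · filter_upwards [h.ver, Iso_938.ii_ver hmeas hmem] with x hx hii a b hab hG
    obtain ⟨i1, e1⟩ := hx a b hab fun y hy => hG y hy
    have e2 : toC u ⟨x, b⟩ - toC u ⟨x, a⟩ = ∫ s in a..b, CF_363.gy u (x, s) := e1
    rw [e2]
    refine (intervalIntegral.abs_integral_le_integral_abs hab).trans ?_
    refine intervalIntegral.integral_mono_on hab i1.abs (hii a b) fun s hs => ?_
    rw [gy_toC']
    have := abs_nonneg (Bd_775.gx (toC u) ⟨x, s⟩)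
    linarith

/-- generators -/
theorem gen_toC {E : Set (ℝ × ℝ)} {ψ u : ℝ × ℝ → ℝ}
    (h : Skp2_257.Gen (insert ψ {b | Skp2_257.Pl E b}) u) :
    Bd_775.Gen (setC E) (Sum.elim (fun b : {b // Skp2_257.Pl E b} => toC b.1)
      (fun _ : Unit => toC ψ)) (toC u) := by
  induction h with
  | const c => exact Bd_775.Gen.const c
  | of u hu =>
    rcases hu with rfl | hu
    · exact Bd_775.Gen.of (b := Sum.elim (fun b : {b // Skp2_257.Pl E b} => toC b.1)
        (fun _ : Unit => toC u)) (Sum.inr ())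
    · exact Bd_775.Gen.of (b := Sum.elim (fun b : {b // Skp2_257.Pl E b} => toC b.1)
        (fun _ : Unit => toC ψ)) (Sum.inl ⟨u, hu⟩)
  | add u v _ _ h1 h2 => exact h1.add h2
  | mul u v _ _ h1 h2 => exact h1.mul h2
  | comp k u hk _ h1 =>
    obtain ⟨L, hL⟩ := hk
    exact Bd_775.Gen.comp hL h1

/-- the core (938, C3) -/
def Core : Prop := ∀ (E G : Set ℂ), IsCompact E → volume E = 0 → IsClosed G → G ⊆ E →
  ∀ (ι : Type) (b : ι → ℂ → ℝ), (∀ i, Iso_938.PL E ∅ (b i)) → (∀ i, Continuous (b i)) →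
  (∀ i, ∀ z ∈ G, ∀ᶠ w in 𝓝 z, b i w = b i z) → ∀ ψ : ℂ → ℝ, Iso_938.PL E G ψ →
  Bd_775.Iso E (Sum.elim b (fun _ : Unit => ψ))

/-- **ISOG** from the core -/
theorem isog_of_core (hcore : Core) : Skp2_257.ISOG := by
  intro E hE G hG hGE hnull ψ hψ hψG u v hu hv
  have hc := isCompact_setC hE.cpt
  have hE0 : volume (setC E) = 0 := by rw [volume_setC]; exact hE.null
  have hD : ∀ b : {b // Skp2_257.Pl E b}, Bd_775.D (setC E) (toC b.1) := by
    intro b
    have hb := b.2.1
    refine (q_toC hb.bdd hb.lip hb.fin).d ?_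
    rw [continuous_toC, ← continuousOn_univ]
    have := hb.cont
    rwa [compl_empty] at this
  have hiso : Bd_775.Iso (setC E) (Sum.elim (fun b : {b // Skp2_257.Pl E b} => toC b.1)
      (fun _ : Unit => toC ψ)) := by
    refine iso_of_flat hc hD (fun _ => q_toC hψ.bdd hψ.lip hψ.fin) (isCompact_setC hG)
      (fun z hz => hGE hz) ?_ ?_
    · intro b
      refine measure_mono_null ?_ (hnull b.1 b.2)
      rintro _ ⟨z, hz, rfl⟩
      exact ⟨(z.re, z.im), hz, rfl⟩
    · intro β hβD hβG hβl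
      refine hcore (setC E) (setC G) hc hE0 (isCompact_setC hG).isClosed (fun z hz => hGE hz) _ β
        (fun i => ?_) (fun i => (hβD i).cont) hβl (toC ψ) (pl_toC hE.null hψG)
      refine Iso_938.PL.gen hc.isClosed (fun _ => ?_) (hβG i)
      exact pl_toC hE.null i.2.1
  have := hiso _ _ (gen_toC hu) (gen_toC hv)
  rw [om_toC] at this
  exact this

end Crest.Agent.R105.Isx_909
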