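import Mathlib
import Crest.Agent.R105.Iso6_938
import Crest.Agent.R105.Isx5_909

/-!
# Row 105, ISO-PP (helper938), part 7: `Isx_909.Core` and `Skp2_257.ISOG`
-/

set_option autoImplicit false

open MeasureTheory Set Filter Topology Metric

namespace Crest.Agent.R105.Iso_938

/-- the core in the form of helper909 -/
theorem core : Crest.Agent.R105.Isx_909.Core := by
  intro E G hE hE0 hG hGE ι b hb _ hlc ψ hψ
  refine iso_core hE.isClosed hE0 (hE.of_isClosed_subset hG hGE) hGE hψ fun i => ?_
  rcases i with i | i
  · exact Or.inr ⟨hb i, hlc i⟩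
  · exact Or.inl rfl

/-- **ISOG** of the skeleton of helper257 -/
theorem isog : Crest.Agent.R105.Skp2_257.ISOG :=
  Crest.Agent.R105.Isx_909.isog_of_core core

end Crest.Agent.R105.Iso_938
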