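import Crest.Agent.R105.Isx1_909
import Crest.Agent.R105.Skp2_257

/-!
# Row 105, PP: `NULLIM` (helper909)
-/

set_option autoImplicit false

open MeasureTheory Set Filter Topology Metric
open scoped NNReal ENNReal

namespace Crest.Agent.R105.Isx_909

open CF_363 Skp2_257

/-- a.e. horizontal slice of a null set is null (`ℝ × ℝ`) -/
theorem ae_slice {E : Set (ℝ × ℝ)} (hE : volume E = 0) :
    ∀ᵐ y : ℝ, volume {x : ℝ | (x, y) ∈ E} = 0 := by
  have h1 : ∀ᵐ p : ℝ × ℝ, p ∉ E := by rw [ae_iff]; simpa using hE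
  filter_upwards [CF_363.ae_swap h1] with y hy
  rw [ae_iff] at hy
  simpa using hy

/-- **NULLIM** -/
theorem nullim : Skp2_257.NULLIM := by
  intro E hE g Bm Bp hg b hb
  have hlev : ∃ y ∈ Ioo Bm Bp, volume {x : ℝ | (x, y) ∈ E} = 0 ∧
      ∀ a c, a ≤ c → IntervalIntegrable (fun s => gx b (s, y)) volume a c ∧
        b (c, y) - b (a, y) = ∫ s in a..c, gx b (s, y) := by
    by_contra hcon
    push Not at hcon
    have h3 : ∀ᵐ y : ℝ, y ∉ Ioo Bm Bp := by
      filter_upwards [ae_slice hE.null, hb.1.hor] with y a1 a2 hmem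
      obtain ⟨a, c, hac, hne⟩ := hcon y hmem a1
      have := a2 a c hac (fun _ _ => notMem_empty _)
      exact hne this.1 this.2
    rw [ae_iff] at h3
    simp only [not_not] at h3
    have h4 : volume (Ioo Bm Bp) = 0 := h3
    rw [Real.volume_Ioo] at h4
    simp only [ENNReal.ofReal_eq_zero] at h4
    linarith [hg.lt]
  obtain ⟨y, hy, hnull, hline⟩ := hlev
  have hii : ∀ a c, IntervalIntegrable (fun s => gx b (s, y)) volume a c := by
    intro a c
    rcases le_total a c with h | h
    · exact (hline a c h).1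
    · exact (hline c a h).1.symm
  have hF : ∀ a c, b (c, y) - b (a, y) = ∫ s in a..c, gx b (s, y) := by
    intro a c
    rcases le_total a c with h | h
    · exact (hline a c h).2
    · rw [intervalIntegral.integral_symm, ← (hline c a h).2]; ring
  have h5 := lusinN (F := fun s => b (s, y)) (v := fun s => gx b (s, y)) hii hF hnull
  refine measure_mono_null ?_ h5
  rintro _ ⟨p, hp, rfl⟩
  simp only [un, mem_iUnion] at hp
  obtain ⟨K, hK, hpK⟩ := hp
  have hcr := hg.crs K hK
  have hmem : (K.x, y) ∈ K.car := Hair.mem_car.2 ⟨rfl, by linarith [hy.1], by linarith [hy.2]⟩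
  have hcomp : K.car ∈ Comps E := hg.sub hK
  have hE' : (K.x, y) ∈ E := by
    obtain ⟨q, _, hq⟩ := hcomp
    rw [hq] at hmem
    exact connectedComponentIn_subset _ _ hmem
  exact ⟨K.x, hE', (hb.2 K.car hcomp (K.x, y) hmem p hpK)⟩

end Crest.Agent.R105.Isx_909
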