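import Crest.Agent.R105.Pic1_442

/-! Row 105 (helper442): the complement of a compact totally disconnected plane set is an
exterior domain. -/

set_option autoImplicit false

open Set Filter Topology Metric

namespace Crest.Agent.R105.Pic_442

open Crest.AnalysisR Ends_897 Crest.Agent.R193.Planar

/-- `B` does not separate `a` and `b` -/
def NSep (a b : ℂ) (B : Set ℂ) : Prop := ∀ c : ℂ → ℝ, LCOff B c → c a = c b

theorem NSep.union {a b : ℂ} {B1 B2 : Set ℂ} (h1 : NSep a b B1) (h2 : NSep a b B2)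
    (hc1 : IsCompact B1) (hc2 : IsCompact B2) (hd : Disjoint B1 B2) (ha : a ∉ B1 ∪ B2)
    (hb : b ∉ B1 ∪ B2) : NSep a b (B1 ∪ B2) := by
  intro c hc
  obtain ⟨c1, c2, hc1', hc2', hs⟩ := split_C hc1 hc2.isClosed hd hc
  rw [hs a ha, hs b hb, h1 c1 hc1', h2 c2 hc2']

theorem nsep_of_ball {a b x : ℂ} {ε : ℝ} (hε : 0 ≤ ε) {B : Set ℂ} (hB : B ⊆ closedBall x ε)
    (ha : ε < dist a x) (hb : ε < dist b x) : NSep a b B := by
  intro c hc
  refine hc.eq_of_preconnected (isPreconnected_compl_closedBall x hε)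
    (disjoint_left.2 fun y h1 h2 => h1 (hB h2)) ?_ ?_
  · rw [mem_compl_iff, mem_closedBall, not_le]; exact ha
  · rw [mem_compl_iff, mem_closedBall, not_le]; exact hb

/-- a compact totally disconnected set does not separate -/
theorem nsep_of_td {C : Set ℂ} (hC : IsCompact C) (ht : IsTotallyDisconnected C) {a b : ℂ}
    (ha : a ∉ C) (hb : b ∉ C) : NSep a b C := by
  classical
  obtain ⟨ε1, hε1, h1⟩ := Metric.isOpen_iff.1 hC.isClosed.isOpen_compl a ha
  obtain ⟨ε2, hε2, h2⟩ := Metric.isOpen_iff.1 hC.isClosed.isOpen_compl b hb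
  set ε := min ε1 ε2 / 2 with hε
  have hε0 : 0 < ε := by positivity
  have hda : ∀ x ∈ C, ε < dist a x := by
    intro x hx
    by_contra hn
    have : x ∈ ball a ε1 := by
      rw [mem_ball, dist_comm]
      have := min_le_left ε1 ε2
      linarith [not_lt.1 hn]
    exact h1 this hx
  have hdb : ∀ x ∈ C, ε < dist b x := by
    intro x hx
    by_contra hn
    have : x ∈ ball b ε2 := by
      rw [mem_ball, dist_comm]
      have := min_le_right ε1 ε2
      linarith [not_lt.1 hn]
    exact h2 this hx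
  have hex : ∀ x : C, ∃ B : Set ℂ, Piece C B ∧ (x : ℂ) ∈ B ∧ B ⊆ ball (x : ℂ) ε := by
    intro x
    have hcc := cc_singleton ht x.2
    obtain ⟨B, hBc, hBc', hBC, hxB, hBb⟩ := exists_clopen hC x.2 (W := ball (x : ℂ) ε) isOpen_ball
      (by rw [hcc]; exact singleton_subset_iff.2 (mem_ball_self hε0))
    exact ⟨B, ⟨hBC, hBc, hBc'⟩, hxB (by rw [hcc]; rfl), hBb⟩
  choose B hB hxB hBb using hex
  obtain ⟨t, ht'⟩ := hC.elim_finite_subcover (fun x : C => (C \ B x)ᶜ)
    (fun x => (hB x).rest.isClosed.isOpen_compl)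
    (fun x hx => mem_iUnion.2 ⟨⟨x, hx⟩, fun h => h.2 (hxB ⟨x, hx⟩)⟩)
  have key : ∀ s : Finset C, IsCompact (⋃ i ∈ s, B i) ∧ IsCompact (C \ ⋃ i ∈ s, B i) ∧
      NSep a b (⋃ i ∈ s, B i) := by
    intro s
    induction s using Finset.induction_on with
    | empty =>
      refine ⟨by simp, by simpa using hC, ?_⟩
      intro c hc
      exact hc.eq_of_preconnected isPreconnected_univ (disjoint_left.2 fun y _ h => by simp at h)
        (mem_univ a) (mem_univ b)
    | insert i s _ ih =>
      obtain ⟨ih1, ih2, ih3⟩ := ih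
      have e : ⋃ j ∈ insert i s, B j = (⋃ j ∈ s, B j) ∪ (B i ∩ (C \ ⋃ j ∈ s, B j)) := by
        rw [Finset.set_biUnion_insert]
        ext w
        constructor
        · rintro (h | h)
          · by_cases hw : w ∈ ⋃ j ∈ s, B j
            · exact Or.inl hw
            · exact Or.inr ⟨h, (hB i).sub h, hw⟩
          · exact Or.inl h
        · rintro (h | h)
          · exact Or.inr h
          · exact Or.inl h.1
      have hcpt : IsCompact (B i ∩ (C \ ⋃ j ∈ s, B j)) := (hB i).cpt.inter ih2
      have hsub : (⋃ j ∈ s, B j) ⊆ C := iUnion₂_subset fun j _ => (hB j).sub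
      refine ⟨?_, ?_, ?_⟩
      · rw [e]; exact ih1.union hcpt
      · rw [Finset.set_biUnion_insert]
        have e2 : C \ (B i ∪ ⋃ j ∈ s, B j) = (C \ B i) ∩ (C \ ⋃ j ∈ s, B j) := by
          ext w; simp only [Set.mem_sdiff, Set.mem_union, Set.mem_inter_iff]; tauto
        rw [e2]; exact (hB i).rest.inter ih2
      · rw [e]
        refine ih3.union ?_ ih1 hcpt (disjoint_left.2 fun w h1 h2 => h2.2.2 h1) ?_ ?_
        · exact nsep_of_ball hε0.le (inter_subset_left.trans ((hBb i).trans ball_subset_closedBall))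
            (hda i i.2) (hdb i i.2)
        · rintro (h | h)
          · exact ha (hsub h)
          · exact ha h.2.1
        · rintro (h | h)
          · exact hb (hsub h)
          · exact hb h.2.1
  have hCt : C = ⋃ i ∈ t, B i := by
    refine Subset.antisymm (fun w hw => ?_) (iUnion₂_subset fun j _ => (hB j).sub)
    obtain ⟨i, hi, hwi⟩ := mem_iUnion₂.1 (ht' hw)
    exact mem_iUnion₂.2 ⟨i, hi, by by_contra h; exact hwi ⟨hw, h⟩⟩
  have := (key t).2.2
  rwa [← hCt] at this

/-- **the complement of a compact totally disconnected plane set is an exterior domain** -/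
theorem isExteriorDomain_compl {C : Set ℂ} (hC : IsCompact C) (ht : IsTotallyDisconnected C) :
    IsExteriorDomain Cᶜ := by
  classical
  obtain ⟨R, hR⟩ := hC.isBounded.exists_norm_le
  have hfar : ∀ z : ℂ, max R 0 < ‖z‖ → z ∈ Cᶜ := fun z hz hzC =>
    absurd (hR z hzC) (not_le.2 ((le_max_left _ _).trans_lt hz))
  refine ⟨hC.isClosed.isOpen_compl, ⟨⟨((max R 0 + 1 : ℝ) : ℂ), hfar _ ?_⟩, ?_⟩, _, hfar⟩
  · rw [Complex.norm_real, Real.norm_eq_abs, abs_of_pos (by positivity)]; linarith
  · rw [isPreconnected_iff_subset_of_disjoint]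
    intro u v hu hv huv hdis
    by_contra hcon
    rw [not_or, not_subset, not_subset] at hcon
    obtain ⟨⟨a, ha, hau⟩, ⟨b, hb, hbv⟩⟩ := hcon
    have hbu : b ∈ u := (huv hb).resolve_right hbv
    have h1 := nsep_of_td hC ht ha hb (fun y => if y ∈ u then 1 else 0) (by
      intro y hy
      by_cases hyu : y ∈ u
      · filter_upwards [hu.mem_nhds hyu] with w hw
        simp only [if_pos hyu, if_pos hw]
      · have hyv : y ∈ v := (huv hy).resolve_left hyu
        filter_upwards [hv.mem_nhds hyv, hC.isClosed.isOpen_compl.mem_nhds hy] with w hw hw'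
        have hwu : w ∉ u := fun h => by
          have : w ∈ Cᶜ ∩ (u ∩ v) := ⟨hw', h, hw⟩
          rw [hdis] at this; exact this
        simp only [if_neg hyu, if_neg hwu])
    simp only [if_neg hau, if_pos hbu] at h1
    norm_num at h1

end Crest.Agent.R105.Pic_442
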