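import Crest.Agent.R105.IfB2_641
import Crest.Agent.R105.Tdc1_442
import Crest.Agent.R105.Pic3_442
import Crest.Agent.R105.Red2_828

/-! Row 105, NULLP (helper442): the complement of the picture of `x0 + φ` is a null set, over the
carrier `IfB0_641` (version 2, over `Bd1_775`). -/

set_option autoImplicit false

open MeasureTheory Set Filter Topology Metric
open scoped ContDiff

namespace Crest.Agent.R105.Pic_442

open Crest.AnalysisR Ends_897 IfB_641

variable {C : Set ℂ}

/-! ### small facts on the carrier -/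

theorem continuous_gx {u : ℂ → ℝ} (h : ContDiff ℝ 1 u) : Continuous (gx u) :=
  (h.continuous_fderiv (by norm_num)).clm_apply continuous_const

theorem continuous_gy {u : ℂ → ℝ} (h : ContDiff ℝ 1 u) : Continuous (gy u) :=
  (h.continuous_fderiv (by norm_num)).clm_apply continuous_const

theorem gx_zero_of {u : ℂ → ℝ} {z : ℂ} {a : ℝ} (h : ∀ᶠ w in 𝓝 z, u w = a) : gx u z = 0 := by
  have h3 : u =ᶠ[𝓝 z] fun _ => a := h
  simp [Bd_775.gx, h3.fderiv_eq]

theorem gy_zero_of {u : ℂ → ℝ} {z : ℂ} {a : ℝ} (h : ∀ᶠ w in 𝓝 z, u w = a) : gy u z = 0 := by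
  have h3 : u =ᶠ[𝓝 z] fun _ => a := h
  simp [Bd_775.gy, h3.fderiv_eq]

theorem hasCompactSupport_gx {u : ℂ → ℝ} (h : HasCompactSupport u) : HasCompactSupport (gx u) := by
  refine (h.fderiv (𝕜 := ℝ)).mono fun x hx => ?_
  simp only [Function.mem_support] at hx ⊢
  intro h0; exact hx (by simp [Bd_775.gx, h0])

theorem hasCompactSupport_gy {u : ℂ → ℝ} (h : HasCompactSupport u) : HasCompactSupport (gy u) := by
  refine (h.fderiv (𝕜 := ℝ)).mono fun x hx => ?_
  simp only [Function.mem_support] at hx ⊢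
  intro h0; exact hx (by simp [Bd_775.gy, h0])

/-- smooth compactly supported functions, locally constant near `C`, are in `LC` -/
theorem LC.of_smooth {χ : ℂ → ℝ} (h1 : ContDiff ℝ 1 χ) (h2 : HasCompactSupport χ)
    (h3 : ∀ z ∈ C, ∀ᶠ w in 𝓝 z, χ w = χ z) : LC C χ :=
  Bd_775.LC.of_compact h1.locallyLipschitz h2 h3

/-- adding a generated function does not change the generated algebra -/
theorem iso_insert {S : Set (ℂ → ℝ)} {ψ : ℂ → ℝ} (hψ : Gen C S ψ) (hI : Iso C S) :
    Iso C (insert ψ S) :=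
  Iso.trans (by rintro s (rfl | hs) <;> [exact hψ; exact Gen.of hs]) hI

/-! ### the cut off coordinate -/

section Cut

variable {x0 φ χ : ℂ → ℝ}

theorem x0_near (hx0 : X0 C x0) {z : ℂ} (hz : z ∈ C) : ∀ᶠ w in 𝓝 z, x0 w = 0 := by
  have h1 : z ∉ tsupport x0 := fun h => hx0.zero h hz
  filter_upwards [(isClosed_tsupport x0).isOpen_compl.mem_nhds h1] with w hw
  exact image_eq_zero_of_notMem_tsupport hw

theorem LC_mul_x0 (hx0 : X0 C x0) (h1 : ContDiff ℝ 1 χ) (h2 : HasCompactSupport χ) :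
    LC C (fun z => χ z * x0 z) := by
  refine LC.of_smooth (h1.mul (hx0.sm.of_le (by simp))) h2.mul_right fun z hz => ?_
  have h3 := x0_near hx0 hz
  filter_upwards [h3] with w hw
  rw [hw, h3.self_of_nhds, mul_zero, mul_zero]

/-- `χ (x0 + φ)` is generated -/
theorem gen_cut (hx0 : X0 C x0) {S : Set (ℂ → ℝ)} (hφ : φ ∈ S) (h1 : ContDiff ℝ 1 χ)
    (h2 : HasCompactSupport χ) (h3 : ∀ z ∈ C, ∀ᶠ w in 𝓝 z, χ w = χ z) :
    Gen C S (fun z => χ z * (x0 z + φ z)) := by
  have h4 := Gen.add (Gen.lc (S := S) (LC_mul_x0 hx0 h1 h2))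
    (Gen.mul (Gen.lc (LC.of_smooth h1 h2 h3)) (Gen.of hφ))
  have e : (fun z => χ z * (x0 z + φ z)) = fun z => χ z * x0 z + χ z * φ z := by
    ext z; ring
  rw [e]; exact h4

end Cut

/-! ### the null lemma -/

/-- **NULLP**: the complement of the picture is a null set -/
theorem null_of (hC : IsCompact C) (ht : IsTotallyDisconnected C) {x0 φ : ℂ → ℝ} (hx0 : X0 C x0)
    (hφ : D C φ) {S : Set (ℂ → ℝ)} (hφS : φ ∈ S) (hI : Iso C S)
    (hEL : ∀ ψ, D C ψ → Iso C (insert ψ S) → EL C x0 φ ψ) {p : ℂ → ℂ} {c : ℂ}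
    (hp : DifferentiableOn ℂ p Cᶜ) (hre : ∀ z ∈ Cᶜ, (p z).re = x0 z + φ z)
    (hinf : Tendsto (fun z => p z - z) (cocompact ℂ) (𝓝 c)) (hinj : InjOn p Cᶜ) :
    volume (p '' Cᶜ)ᶜ = 0 := by
  have hU := isExteriorDomain_compl hC ht
  have hO : IsOpen Cᶜ := hC.isClosed.isOpen_compl
  have h := EndMap.of_holo hU hp hinj (Red_828.tendsto_cocompact_of_tendsto_sub hinf)
  refine volume_compl_zero h hp fun χ hχ hχc hχ1 => ?_
  have hχ1' : ∀ z ∈ C, ∀ᶠ w in 𝓝 z, χ w = 1 := by
    intro z hz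
    refine (eventually_nhdsSet_iff_forall.1 hχ1) z ?_
    rwa [compl_compl]
  have hχl : ∀ z ∈ C, ∀ᶠ w in 𝓝 z, χ w = χ z := by
    intro z hz
    have h1 := hχ1' z hz
    filter_upwards [h1] with w hw
    rw [hw, h1.self_of_nhds]
  have hχ' : ContDiff ℝ 1 χ := hχ.of_le (by simp)
  have hx0' : ContDiff ℝ 1 x0 := hx0.sm.of_le (by simp)
  -- smoothness on `Cᶜ`
  have sp : ∀ z ∈ Cᶜ, ContDiffAt ℝ ∞ (fun z => (p z).re) z := by
    intro z hz
    have h2 : ContDiffAt ℝ ∞ p z :=
      ((hp.analyticAt (hO.mem_nhds hz)).contDiffAt).restrict_scalars ℝ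
    exact Complex.reCLM.contDiff.contDiffAt.comp z h2
  have sφ : ∀ z ∈ Cᶜ, ContDiffAt ℝ ∞ φ z := by
    intro z hz
    refine ((sp z hz).sub hx0.sm.contDiffAt).congr_of_eventuallyEq ?_
    filter_upwards [hO.mem_nhds hz] with w hw
    rw [hre w hw]; ring
  have dφ : ∀ z ∈ Cᶜ, DifferentiableAt ℝ φ z := fun z hz =>
    (sφ z hz).differentiableAt (by simp)
  -- the test function
  set ψ : ℂ → ℝ := fun z => χ z * (x0 z + φ z) with hψ
  have hgen : Gen C S ψ := gen_cut hx0 hφS hχ' hχc hχl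
  have hψD : D C ψ := by
    have h1 : Gen C {φ} ψ := gen_cut hx0 (mem_singleton φ) hχ' hχc hχl
    refine (Gen.q hC.isClosed ?_ h1).d (hχ.continuous.mul (hx0.sm.continuous.add hφ.cont))
    rintro s rfl
    exact hφ.q
  have key := hEL ψ hψD (iso_insert hgen hI)
  -- `ψ` is smooth off `C`
  have sψ : ∀ z ∈ Cᶜ, ContDiffAt ℝ ∞ ψ z := fun z hz =>
    hχ.contDiffAt.mul (hx0.sm.contDiffAt.add (sφ z hz))
  have near0 : ∀ z ∈ C, ∀ᶠ w in 𝓝 z, x0 w = 0 := fun z hz => x0_near hx0 hz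
  have nx : ∀ z ∈ C, ∀ᶠ w in 𝓝 z, gx x0 w = 0 := fun z hz => by
    filter_upwards [(near0 z hz).eventually_nhds] with w hw using gx_zero_of hw
  have ny : ∀ z ∈ C, ∀ᶠ w in 𝓝 z, gy x0 w = 0 := fun z hz => by
    filter_upwards [(near0 z hz).eventually_nhds] with w hw using gy_zero_of hw
  have sgx : ContDiff ℝ 1 (gx x0) := (contDiff_gx hx0.sm).of_le (by simp)
  have sgy : ContDiff ℝ 1 (gy x0) := (contDiff_gy hx0.sm).of_le (by simp)
  have cψ : HasCompactSupport ψ := hχc.mul_right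
  have G1 : ContDiff ℝ 1 (fun z => ψ z * gx x0 z) := by
    refine contDiff_of_lc hO (fun z hz => (((sψ z hz).of_le (by simp)).mul
      sgx.contDiffAt).contDiffWithinAt) fun z hz => ?_
    have hz' : z ∈ C := not_not.1 hz
    filter_upwards [nx z hz'] with w hw
    rw [hw, (nx z hz').self_of_nhds, mul_zero, mul_zero]
  have G2 : ContDiff ℝ 1 (fun z => ψ z * gy x0 z) := by
    refine contDiff_of_lc hO (fun z hz => (((sψ z hz).of_le (by simp)).mul
      sgy.contDiffAt).contDiffWithinAt) fun z hz => ?_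
    have hz' : z ∈ C := not_not.1 hz
    filter_upwards [ny z hz'] with w hw
    rw [hw, (ny z hz').self_of_nhds, mul_zero, mul_zero]
  have I1 := Pth_988.integral_fderiv_eq_zero G1 cψ.mul_right 1
  have I2 := Pth_988.integral_fderiv_eq_zero G2 cψ.mul_right Complex.I
  -- pointwise product rule
  have pr : ∀ z ∈ Cᶜ, fderiv ℝ (fun z => ψ z * gx x0 z) z 1 +
      fderiv ℝ (fun z => ψ z * gy x0 z) z Complex.I =
      dot x0 ψ z + ψ z * lap x0 z := by
    intro z hz
    have d1 : DifferentiableAt ℝ ψ z := (sψ z hz).differentiableAt (by simp)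
    have d2 : DifferentiableAt ℝ (gx x0) z := (sgx.differentiable (by norm_num)) z
    have d3 : DifferentiableAt ℝ (gy x0) z := (sgy.differentiable (by norm_num)) z
    have k1 := Bd_775.gx_mul d1 d2
    have k2 := Bd_775.gy_mul d1 d3
    change gx (fun z => ψ z * gx x0 z) z + gy (fun z => ψ z * gy x0 z) z = _
    rw [k1, k2]
    simp only [lap, Bd_775.dot]
    ring
  have pr0 : ∀ z ∈ C, fderiv ℝ (fun z => ψ z * gx x0 z) z 1 +
      fderiv ℝ (fun z => ψ z * gy x0 z) z Complex.I = 0 ∧ ψ z * lap x0 z = 0 := by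
    intro z hz
    have a1 : gx (fun z => ψ z * gx x0 z) z = 0 := gx_zero_of (a := 0) (by
      filter_upwards [nx z hz] with w hw; rw [hw, mul_zero])
    have a2 : gy (fun z => ψ z * gy x0 z) z = 0 := gy_zero_of (a := 0) (by
      filter_upwards [ny z hz] with w hw; rw [hw, mul_zero])
    refine ⟨?_, ?_⟩
    · change gx (fun z => ψ z * gx x0 z) z + gy (fun z => ψ z * gy x0 z) z = _
      rw [a1, a2, add_zero]
    · rw [lap, gx_zero_of (nx z hz), gy_zero_of (ny z hz), add_zero, mul_zero]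
  have int1 : Integrable (fun z => fderiv ℝ (fun z => ψ z * gx x0 z) z 1) :=
    (continuous_gx G1).integrable_of_hasCompactSupport (hasCompactSupport_gx cψ.mul_right)
  have int2 : Integrable (fun z => fderiv ℝ (fun z => ψ z * gy x0 z) z Complex.I) :=
    (continuous_gy G2).integrable_of_hasCompactSupport (hasCompactSupport_gy cψ.mul_right)
  have int12 : Integrable (fun z => fderiv ℝ (fun z => ψ z * gx x0 z) z 1 +
      fderiv ℝ (fun z => ψ z * gy x0 z) z Complex.I) := int1.add int2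
  have int3 : Integrable (fun z => ψ z * lap x0 z) := int_mul_lap hC.isClosed hx0 hψD.q
  -- Green
  have green : ∫ z in Cᶜ, dot x0 ψ z = - ∫ z, ψ z * lap x0 z := by
    have e1 : ∫ z in Cᶜ, dot x0 ψ z =
        ∫ z in Cᶜ, ((fderiv ℝ (fun z => ψ z * gx x0 z) z 1 +
          fderiv ℝ (fun z => ψ z * gy x0 z) z Complex.I) - ψ z * lap x0 z) := by
      refine setIntegral_congr_fun hO.measurableSet fun z hz => ?_
      simp only [pr z hz]; ring
    rw [e1, setIntegral_eq_integral_of_forall_compl_eq_zero (fun z hz => by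
      obtain ⟨a, b⟩ := pr0 z (not_not.1 hz)
      rw [a, b, sub_zero]), integral_sub int12 int3, integral_add int1 int2, I1, I2]
    ring
  have intA : IntegrableOn (dot x0 ψ) Cᶜ := by
    have : IntegrableOn (fun z => ((fderiv ℝ (fun z => ψ z * gx x0 z) z 1 +
          fderiv ℝ (fun z => ψ z * gy x0 z) z Complex.I) - ψ z * lap x0 z)) Cᶜ :=
      (int12.sub int3).integrableOn
    refine this.congr_fun (fun z hz => ?_) hO.measurableSet
    simp only [pr z hz]; ring
  have intB : IntegrableOn (dot φ ψ) Cᶜ := Bd_775.integrableOn_dot hφ.q hψD.q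
  have fin : ∫ z in Cᶜ, (fderiv ℝ (fun z => (p z).re) z 1 *
      fderiv ℝ (fun z => χ z * (p z).re) z 1 +
      fderiv ℝ (fun z => (p z).re) z Complex.I *
        fderiv ℝ (fun z => χ z * (p z).re) z Complex.I) =
      ∫ z in Cᶜ, (dot x0 ψ z + dot φ ψ z) := by
    refine setIntegral_congr_fun hO.measurableSet fun z hz => ?_
    have e1 : (fun z => (p z).re) =ᶠ[𝓝 z] fun z => x0 z + φ z := by
      filter_upwards [hO.mem_nhds hz] with w hw using hre w hw
    have e2 : (fun z => χ z * (p z).re) =ᶠ[𝓝 z] ψ := by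
      filter_upwards [hO.mem_nhds hz] with w hw
      rw [hre w hw]
    have e3 : ∀ v : ℂ, fderiv ℝ (fun z => x0 z + φ z) z v = fderiv ℝ x0 z v + fderiv ℝ φ z v := by
      intro v
      rw [fderiv_fun_add ((hx0'.differentiable (by norm_num)) z) (dφ z hz)]; rfl
    simp only [e1.fderiv_eq, e2.fderiv_eq, e3, Bd_775.dot, Bd_775.gx, Bd_775.gy]
    ring
  rw [fin, integral_add intA intB, green]
  have key' : ∫ z in Cᶜ, dot φ ψ z = ∫ z, ψ z * lap x0 z := key
  rw [key']; ring

/-- **NULLP, literally** -/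
theorem nullp : NULLP := by
  intro C x0 b φ p hk hc hinj
  obtain ⟨c, hinf⟩ := hc.inf
  refine null_of hk.td.cpt hk.td.td hk.hx0 hk.memφ (mem_insert φ (range b)) hk.iso
    (fun ψ hψ hI => hk.el ψ (Or.inl hψ) hI) hc.hol hc.re hinf hinj

end Crest.Agent.R105.Pic_442
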