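import Mathlib
import Crest.Agent.R105.CF2_363

/-!
# Row 105, PLANP: the abstract picture algebra (definitions only)

`E` compact, null, with vertical components; `A` = the functions `u ∘ π`, `u ∈ Gen C (insert φ (range b))`
(`π` = collapsing map, `E = π ⁻¹' C`), written on `ℝ × ℝ`.
-/

namespace Crest.Agent.R105.Pln_868

open Set Filter MeasureTheory Topology
open CF_363

/-- Cut-offs of the picture plane: Lipschitz, compactly supported, locally constant near `E`. -/
structure Cut (E : Set (ℝ × ℝ)) (κ : ℝ × ℝ → ℝ) : Prop where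
  lip : ∃ L, LipschitzWith L κ
  cpt : HasCompactSupport κ
  lc : ∀ p ∈ E, ∀ᶠ q in 𝓝 p, κ q = κ p

/-- The algebra of honest functions in the picture plane. -/
structure PicAlg (E : Set (ℝ × ℝ)) (A : (ℝ × ℝ → ℝ) → Prop) : Prop where
  cpt : IsCompact E
  null : volume E = 0
  vert : ∀ p ∈ E, ∀ q ∈ connectedComponentIn E p, q.1 = p.1
  cont : ∀ a, A a → Continuous a
  loc : ∀ a, A a → LocallyLipschitzOn Eᶜ a
  fin : ∀ a, A a → IntegrableOn (g2 a) Eᶜ
  cst : ∀ a, A a → ∀ p ∈ E, ∀ q ∈ connectedComponentIn E p, a q = a p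
  const : ∀ c, A (fun _ => c)
  add : ∀ a b, A a → A b → A (fun p => a p + b p)
  mul : ∀ a b, A a → A b → A (fun p => a p * b p)
  comp : ∀ h : ℝ → ℝ, (∃ L, LipschitzWith L h) → ∀ a, A a → A (fun p => h (a p))
  cut : ∀ κ, Cut E κ → ∀ h : ℝ → ℝ, (∃ L, LipschitzWith L h) → A (fun p => κ p * h p.1)
  el : ∀ a, A a → HasCompactSupport a → ∫ p in Eᶜ, gx a p = 0
  iso : ∀ a, A a → HasCompactSupport a → ∫ p in Eᶜ, gy a p = 0

end Crest.Agent.R105.Pln_868
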