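import Crest.Agent.R105.Adp1_987
import Crest.Agent.R105.Pln0_868
import Crest.Agent.R105.Ext1_616

/-!
# Row 105, [B]: PADP = the algebra `Gen C (insert φ (range b))` seen in the picture (helper987)

* `exists_pi` : the collapsing map
* `padp` : `PicAlg (EP C p) (PA C π (insert φ (range b)))` (868's literal `Pln0_868`)
* `pln_of`, `planp_of` : PLN (Skp4_257) and PLANP (IfB1_641) from theorems on `PicAlg`
-/

set_option autoImplicit false

open MeasureTheory Set Filter Topology Metric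
open scoped NNReal ContDiff

namespace Crest.Agent.R105.Padp_987

open Crest.AnalysisR Crest.Agent.R105.Skp2_257 Crest.Agent.R105.Skp3_257
  Crest.Agent.R105.Skp4_257 Crest.Agent.R105.Tra_937 Crest.Agent.R105.Adp_987
open Crest.Agent.R105.Ends_897 (eF EndMap)
open Crest.Agent.R105.Pln_868 (PicAlg Cut)

/-- the collapsing map of the picture -/
structure IsPi (C : Set ℂ) (p π : ℂ → ℂ) : Prop where
  cont : Continuous π
  left : ∀ z ∈ Cᶜ, π (p z) = z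
  mem : ∀ ζ ∉ p '' Cᶜ, π ζ ∈ C
  val : ∀ z ∉ Cᶜ, ∀ ζ ∉ p '' Cᶜ, map p (eF Cᶜ z) = eF (p '' Cᶜ) ζ → π ζ = z
  cst : ∀ ζ ∉ p '' Cᶜ, ∀ ζ' ∈ connectedComponentIn (p '' Cᶜ)ᶜ ζ, π ζ' = π ζ
  fib : ∀ ζ ∉ p '' Cᶜ, ∀ ζ' ∉ p '' Cᶜ, π ζ = π ζ' →
    connectedComponentIn (p '' Cᶜ)ᶜ ζ = connectedComponentIn (p '' Cᶜ)ᶜ ζ'

section
variable {C : Set ℂ} {x0 φ : ℂ → ℝ} {b : ℕ → ℂ → ℝ} {p π : ℂ → ℂ}

theorem exists_pi (h : EndMap Cᶜ (p '' Cᶜ) p) (hC : IsTotallyDisconnected (Cᶜ)ᶜ) :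
    ∃ π, IsPi C p π := by
  obtain ⟨π, h1, h2, h3, h4⟩ := Ext_616.exists_transport h (v := fun z => z) continuous_id
    (fun z hz z' hz' => by
      rw [Pic_442.cc_singleton hC hz] at hz'
      exact hz')
  refine ⟨π, h1, h3, fun ζ hζ => ?_, fun z hz ζ hζ he => h4 z ζ hz hζ he, h2,
    fun ζ hζ ζ' hζ' he => ?_⟩
  · obtain ⟨z, hz, hze⟩ := h.exists_end' hζ
    rw [h4 z ζ hz hζ hze]
    exact not_not.1 hz
  · obtain ⟨z, hz, hze⟩ := h.exists_end' hζ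
    obtain ⟨z', hz', hze'⟩ := h.exists_end' hζ'
    have e1 := h4 z ζ hz hζ hze
    have e2 := h4 z' ζ' hz' hζ' hze'
    have e3 : z = z' := by rw [← e1, ← e2, he]
    subst e3
    exact Ends_897.eF_injective h.hV hζ (hze.symm.trans hze')

/-- `x (π w) = re w` -/
theorem IsPi.x (hπ : IsPi C p π) (h : IfB_641.Pk C x0 b φ) (hp : IfB_641.Cpl C x0 φ p)
    (hi : InjOn p Cᶜ) (w : ℂ) : x0 (π w) + φ (π w) = w.re := by
  have hE := Mid_987.Pk.endMap h hp hi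
  by_cases hw : w ∈ p '' Cᶜ
  · obtain ⟨z, hz, rfl⟩ := hw
    rw [hπ.left z hz]
    exact (hp.re z hz).symm
  · obtain ⟨z, hz, hze, hx, -⟩ := Pic_442.cc_vseg hE
      (x := fun z => x0 z + φ z) (fun z hz => xtend h hp hz) hw
    rw [hπ.val z hz w hw hze]
    exact hx

/-- members of the algebra seen in the picture -/
def PA (C : Set ℂ) (π : ℂ → ℂ) (S : Set (ℂ → ℝ)) (a : ℝ × ℝ → ℝ) : Prop :=
  ∃ u, IfB_641.Gen C S u ∧ ∀ q, a q = u (π (eC q))

theorem toC_eC (a : ℝ × ℝ → ℝ) (u : ℂ → ℝ) (h : ∀ q, a q = u (π (eC q))) (w : ℂ) :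
    toC a w = u (π w) := by
  unfold toC; rw [h, eC_mk]

theorem pa_on (hπ : IsPi C p π) {a : ℝ × ℝ → ℝ} {u : ℂ → ℝ} (h : ∀ q, a q = u (π (eC q)))
    {z : ℂ} (hz : z ∈ Cᶜ) : a ((p z).re, (p z).im) = u z := by
  rw [h, eC_mk, hπ.left z hz]

/-! ### general transport of locally Lipschitz functions -/

theorem ll_of_on (hF : Uni Cᶜ p) {u : ℂ → ℝ} {f : ℝ × ℝ → ℝ} (hu : LocallyLipschitzOn Cᶜ u)
    (hf : ∀ z ∈ Cᶜ, f ((p z).re, (p z).im) = u z) : LocallyLipschitzOn (EP C p)ᶜ f := by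
  have e1 : EqOn u (toC f ∘ p) Cᶜ := fun z hz => (hf z hz).symm
  exact ll_toC_iff.2 (hF.locLip_comp_iff.1 (locLip_congr e1 hu))

theorem fin_of_on (hF : Uni Cᶜ p) {u : ℂ → ℝ} {f : ℝ × ℝ → ℝ} (hu : IfB_641.Q C u)
    (hf : ∀ z ∈ Cᶜ, f ((p z).re, (p z).im) = u z) : IntegrableOn (CF_363.g2 f) (EP C p)ᶜ := by
  have e1 : EqOn u (toC f ∘ p) Cᶜ := fun z hz => (hf z hz).symm
  have hL : LocallyLipschitzOn (p '' Cᶜ) (toC f) := hF.locLip_comp_iff.1 (locLip_congr e1 hu.loc)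
  have h1 := (hF.integrableOn_en hF.op.measurableSet subset_rfl (fun _ => 1)
    (ae_diff_of_locLip hF.isOpen_image hL)).1
  simp only [one_mul] at h1
  have h2 : IntegrableOn (Tra_937.en (toC f)) (p '' Cᶜ) := h1
    (hu.fin.congr_fun (fun z hz => en_congr hF.op e1 hz) hF.op.measurableSet)
  rw [← integrableOn_toC, setC_EPc]
  refine h2.congr ?_
  filter_upwards [ae_diff_of_locLip hF.isOpen_image hL] with z hz
  have hd := diff_toC.1 hz
  unfold Tra_937.en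
  rw [gx_toC hd, gy_toC hd, dx_eq hd, dy_eq hd]
  rfl

/-- the Dirichlet form with `x` = horizontal derivative in the picture -/
theorem di_on (hF : Uni Cᶜ p) {x u : ℂ → ℝ} {f : ℝ × ℝ → ℝ}
    (hx : ∀ z ∈ Cᶜ, (p z).re = x z) (hu : LocallyLipschitzOn Cᶜ u)
    (hf : ∀ z ∈ Cᶜ, f ((p z).re, (p z).im) = u z) :
    IfB_641.di C x u = ∫ q in (EP C p)ᶜ, CF_363.gx f q := by
  have e1 : EqOn u (toC f ∘ p) Cᶜ := fun z hz => (hf z hz).symm
  have hL : LocallyLipschitzOn (p '' Cᶜ) (toC f) := hF.locLip_comp_iff.1 (locLip_congr e1 hu)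
  have h1 := hF.integral_dot_re hF.op.measurableSet subset_rfl (fun _ => 1)
    (ae_diff_of_locLip hF.isOpen_image hL)
  simp only [one_mul] at h1
  have h2 : IfB_641.di C x u =
      ∫ z in Cᶜ, Tra_937.dot (fun z => (p z).re) (toC f ∘ p) z :=
    setIntegral_congr_fun hF.op.measurableSet
      (dot_congr hF.op (fun z hz => (hx z hz).symm) e1)
  rw [h2, h1]
  have h3 := integral_toC (EP C p)ᶜ (fun q => CF_363.gx f q)
  rw [setC_EPc] at h3
  rw [← h3]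
  refine integral_congr_ae ?_
  filter_upwards [ae_diff_of_locLip hF.isOpen_image hL] with z hz
  have d1 := diff_toC.1 hz
  rw [gx_toC d1, dx_eq d1]
  rfl

/-- the area form with `x` = vertical derivative in the picture -/
theorem om_on (hF : Uni Cᶜ p) {x u : ℂ → ℝ} {f : ℝ × ℝ → ℝ}
    (hx : ∀ z ∈ Cᶜ, (p z).re = x z) (hu : LocallyLipschitzOn Cᶜ u)
    (hf : ∀ z ∈ Cᶜ, f ((p z).re, (p z).im) = u z) :
    IfB_641.om C x u = ∫ q in (EP C p)ᶜ, CF_363.gy f q := by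
  have e1 : EqOn u (toC f ∘ p) Cᶜ := fun z hz => (hf z hz).symm
  have hL : LocallyLipschitzOn (p '' Cᶜ) (toC f) := hF.locLip_comp_iff.1 (locLip_congr e1 hu)
  have h1 := hF.integral_wdg_re hF.op.measurableSet subset_rfl (fun _ => 1)
    (ae_diff_of_locLip hF.isOpen_image hL)
  simp only [one_mul] at h1
  have h2 : IfB_641.om C x u =
      ∫ z in Cᶜ, Tra_937.wdg (fun z => (p z).re) (toC f ∘ p) z :=
    setIntegral_congr_fun hF.op.measurableSet
      (wdg_congr hF.op (fun z hz => (hx z hz).symm) e1)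
  rw [h2, h1]
  have h3 := integral_toC (EP C p)ᶜ (fun q => CF_363.gy f q)
  rw [setC_EPc] at h3
  rw [← h3]
  refine integral_congr_ae ?_
  filter_upwards [ae_diff_of_locLip hF.isOpen_image hL] with z hz
  have d1 := diff_toC.1 hz
  rw [gy_toC d1, dy_eq d1]
  rfl

theorem cpt_of_on (hCc : IsCompact C) (hinf : Tendsto p (cocompact ℂ) (cocompact ℂ))
    {u : ℂ → ℝ} {f : ℝ × ℝ → ℝ} (hc : HasCompactSupport f)
    (hf : ∀ z ∈ Cᶜ, f ((p z).re, (p z).im) = u z) : HasCompactSupport u := by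
  have h1 : ∀ᶠ w in cocompact ℂ, toC f w = 0 := by
    have h2 : HasCompactSupport (toC f) := by
      rw [toC_eq]
      exact hc.comp_homeomorph Complex.equivRealProdCLM.toHomeomorph
    filter_upwards [h2.isCompact.compl_mem_cocompact] with w hw
    exact image_eq_zero_of_notMem_tsupport hw
  have h2 : ∀ᶠ z in cocompact ℂ, toC f (p z) = 0 := hinf.eventually h1
  have h3 : ∀ᶠ z in cocompact ℂ, z ∈ Cᶜ := hCc.compl_mem_cocompact
  obtain ⟨K, hK, hKs⟩ := mem_cocompact.1 (h2.and h3)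
  refine HasCompactSupport.intro hK fun z hz => ?_
  obtain ⟨e1, e2⟩ := hKs hz
  rw [← hf z e2]; exact e1

/-! ### cut-offs -/

/-- a cut-off of the picture is constant near every component -/
theorem cut_const {κ : ℝ × ℝ → ℝ} (hκ : Cut (EP C p) κ) {ζ : ℂ} (hζ : ζ ∉ p '' Cᶜ) :
    ∀ᶠ w in eF (p '' Cᶜ) ζ, toC κ w = toC κ ζ := by
  set K := connectedComponentIn (p '' Cᶜ)ᶜ ζ with hK
  have hlc : ∀ w ∈ K, ∀ᶠ y in 𝓝 w, toC κ y = toC κ w := by
    intro w hw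
    have hwE : (w.re, w.im) ∈ EP C p := by
      simp only [EP, mem_preimage, eC_mk]
      exact connectedComponentIn_subset _ _ hw
    have h1 := hκ.lc _ hwE
    have h2 : Tendsto (fun y : ℂ => (y.re, y.im)) (𝓝 w) (𝓝 (w.re, w.im)) :=
      (Complex.equivRealProdCLM.continuous.tendsto w)
    exact h2.eventually h1
  have hcont : Continuous (toC κ) := by
    obtain ⟨L, hL⟩ := hκ.lip
    exact continuous_toC.2 hL.continuous
  have hconst : ∀ w ∈ K, toC κ w = toC κ ζ := by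
    intro w hw
    by_contra hne
    have hpre : IsPreconnected K := isPreconnected_connectedComponentIn
    have hcov : K ⊆ interior {y | toC κ y = toC κ ζ} ∪ {y | toC κ y ≠ toC κ ζ} := by
      intro y hy
      by_cases h : toC κ y = toC κ ζ
      · left
        refine mem_interior_iff_mem_nhds.2 ?_
        filter_upwards [hlc y hy] with u hu
        exact hu.trans h
      · exact Or.inr h
    obtain ⟨y, -, hy1, hy2⟩ := hpre (interior {y | toC κ y = toC κ ζ}) {y | toC κ y ≠ toC κ ζ}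
      isOpen_interior (isOpen_ne_fun hcont continuous_const) hcov
      ⟨ζ, mem_connectedComponentIn hζ, mem_interior_iff_mem_nhds.2
        (hlc ζ (mem_connectedComponentIn hζ))⟩ ⟨w, hw, hne⟩
    exact hy2 (interior_subset (s := {y | toC κ y = toC κ ζ}) hy1)
  refine mem_inf_of_left (mem_nhdsSet_iff_forall.2 fun w hw => ?_)
  filter_upwards [hlc w hw] with y hy
  rw [hy, hconst w hw]

theorem cut_tendsto {κ : ℝ × ℝ → ℝ} (hκ : Cut (EP C p) κ) {ζ : ℂ} (hζ : ζ ∉ p '' Cᶜ) :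
    Tendsto (toC κ) (eF (p '' Cᶜ) ζ) (𝓝 (toC κ ζ)) :=
  tendsto_const_nhds.congr' ((cut_const hκ hζ).mono fun _ h => h.symm)

theorem cut_ll {κ : ℝ × ℝ → ℝ} (hκ : Cut (EP C p) κ) : LocallyLipschitzOn (EP C p)ᶜ κ := by
  obtain ⟨L, hL⟩ := hκ.lip
  exact fun z _ => ⟨L, univ, univ_mem, hL.lipschitzOnWith⟩

theorem cut_pi (h : EndMap Cᶜ (p '' Cᶜ) p) (hC : IsTotallyDisconnected (Cᶜ)ᶜ)
    (hπ : IsPi C p π) {κ : ℝ × ℝ → ℝ} (hκ : Cut (EP C p) κ) (w : ℂ) :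
    pb C p κ (π w) = toC κ w := by
  by_cases hw : w ∈ p '' Cᶜ
  · obtain ⟨z, hz, rfl⟩ := hw
    rw [hπ.left z hz, pb_eq h (cut_ll hκ) hz]; rfl
  · obtain ⟨z, hz, hze⟩ := h.exists_end' hw
    rw [hπ.val z hz w hw hze]
    exact pull_at hC hz hze (cut_tendsto hκ hw)

theorem cut_cont (h : EndMap Cᶜ (p '' Cᶜ) p) (hC : IsTotallyDisconnected (Cᶜ)ᶜ)
    {κ : ℝ × ℝ → ℝ} (hκ : Cut (EP C p) κ) : Continuous (pb C p κ) :=
  pull_continuous h hC (ll_toC (cut_ll hκ)).continuousOn fun _ hζ => ⟨_, cut_tendsto hκ hζ⟩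

theorem cut_lc (h : EndMap Cᶜ (p '' Cᶜ) p) (hC : IsTotallyDisconnected (Cᶜ)ᶜ)
    {κ : ℝ × ℝ → ℝ} (hκ : Cut (EP C p) κ) {z : ℂ} (hz : z ∈ C) :
    ∀ᶠ w in 𝓝 z, pb C p κ w = pb C p κ z := by
  have hz' : z ∉ Cᶜ := not_not.2 hz
  obtain ⟨ζ, hζ, he⟩ := h.exists_end hz'
  have h1 := cut_const hκ hζ
  have h2 : pb C p κ z = toC κ ζ := pull_at hC hz' he (cut_tendsto hκ hζ)
  rw [← he, eF_point hC hz', eventually_map] at h1
  obtain ⟨G, hG, hzG, hGs⟩ := mem_nhdsWithin.1 h1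
  filter_upwards [hG.mem_nhds hzG] with w hw
  rw [h2]
  have h3 : w ∈ closure (G ∩ Cᶜ) := by
    have hd : Dense Cᶜ := fun y => by rw [closure_univ hC]; exact mem_univ y
    exact hd.open_subset_closure_inter hG hw
  have h4 : IsClosed {y | pb C p κ y = toC κ ζ} := isClosed_eq (cut_cont h hC hκ) continuous_const
  refine (h4.closure_subset_iff.2 ?_) h3
  rintro y ⟨hy1, hy2⟩
  rw [mem_ofPred_eq, pb_eq h (cut_ll hκ) hy2]
  exact hGs ⟨hy1, hy2⟩

theorem cut_isLC (hF : Uni Cᶜ p) (h : EndMap Cᶜ (p '' Cᶜ) p) (hC : IsTotallyDisconnected (Cᶜ)ᶜ)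
    (hCc : IsCompact C) (hinf : Tendsto p (cocompact ℂ) (cocompact ℂ))
    {κ : ℝ × ℝ → ℝ} (hκ : Cut (EP C p) κ) :
    IfB_641.LC C (pb C p κ) ∧ HasCompactSupport (pb C p κ) := by
  have hc : HasCompactSupport (pb C p κ) := cpt_of_on hCc hinf hκ.cpt fun z hz =>
    (pb_eq h (cut_ll hκ) hz).symm
  refine ⟨Bd_775.LC.of_compact ?_ hc fun z hz => cut_lc h hC hκ hz, hc⟩
  intro z
  by_cases hz : z ∈ C
  · refine ⟨0, _, cut_lc h hC hκ hz, LipschitzOnWith.of_dist_le_mul fun a ha b hb => ?_⟩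
    rw [mem_ofPred_eq] at ha hb
    rw [ha, hb]; simp
  · obtain ⟨K, t, ht, h2⟩ := pb_loc hF h (cut_ll hκ) hz
    rw [hF.op.nhdsWithin_eq hz] at ht
    exact ⟨K, t, ht, h2⟩

/-! ### PADP -/

/-- **PADP** -/
theorem padp (h : IfB_641.Pk C x0 b φ) (hp : IfB_641.Cpl C x0 φ p) (hi : InjOn p Cᶜ)
    (hnull : volume (p '' Cᶜ)ᶜ = 0) (hπ : IsPi C p π) :
    PicAlg (EP C p) (PA C π (insert φ (range b))) := by
  have hE := Mid_987.Pk.endMap h hp hi
  have hF := uni h hp hi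
  have hC := td' h
  have hPic := picp C x0 b φ p h hp hi hnull
  obtain ⟨c, hc⟩ := hp.inf
  have hinf := Mid_987.tendsto_cocompact hc
  have hQ : ∀ u, IfB_641.Gen C (insert φ (range b)) u → IfB_641.Q C u := fun u hu =>
    IfB_641.Gen.q h.td.cpt.isClosed (Mid_987.Pk.q h) hu
  refine ⟨hPic.cpt, hPic.null, ?_, ?_, ?_, ?_, ?_, ?_, ?_, ?_, ?_, ?_, ?_, ?_⟩
  · intro q hq r hr
    have hq' : eC q ∉ p '' Cᶜ := hq
    obtain ⟨z, -, -, -, b', t, hbt, hcc⟩ := Pic_442.cc_vseg hE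
      (x := fun z => x0 z + φ z) (fun z hz => xtend h hp hz) hq'
    rw [cc_EP hq, hcc] at hr
    have := hr.1
    rwa [eC_re, eC_re] at this
  · rintro a ⟨u, hu, ha⟩
    have : a = fun q => u (π (eC q)) := funext ha
    rw [this]
    exact (Mid_987.Gen.cont (Mid_987.Pk.cont h) hu).comp (hπ.cont.comp eC.continuous)
  · rintro a ⟨u, hu, ha⟩
    exact ll_of_on hF (hQ u hu).loc fun z hz => pa_on hπ ha hz
  · rintro a ⟨u, hu, ha⟩
    exact fin_of_on hF (hQ u hu) fun z hz => pa_on hπ ha hz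
  · rintro a ⟨u, hu, ha⟩ q hq r hr
    rw [cc_EP hq] at hr
    rw [ha, ha, hπ.cst (eC q) hq (eC r) hr]
  · intro c
    exact ⟨fun _ => c, IfB_641.Gen.const c, fun _ => rfl⟩
  · rintro a a' ⟨u, hu, ha⟩ ⟨u', hu', ha'⟩
    exact ⟨_, IfB_641.Gen.add hu hu', fun q => by simp only [ha, ha']⟩
  · rintro a a' ⟨u, hu, ha⟩ ⟨u', hu', ha'⟩
    exact ⟨_, IfB_641.Gen.mul hu hu', fun q => by simp only [ha, ha']⟩
  · rintro f ⟨L, hL⟩ a ⟨u, hu, ha⟩
    exact ⟨_, IfB_641.Gen.comp hL hu, fun q => by simp only [ha]⟩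
  · rintro κ hκ f ⟨L, hL⟩
    obtain ⟨k1, k2⟩ := cut_isLC hF hE hC h.td.cpt hinf hκ
    refine ⟨_, Mid_987.Pk.gen_comp_mul h hL (IfB_641.Gen.lc k1) k2, fun q => ?_⟩
    rw [hπ.x h hp hi, cut_pi hE hC hπ hκ, eC_re, mul_comm]
    have : toC κ (eC q) = κ q := by unfold toC; rw [eC_re, eC_im]
    rw [this]
  · rintro a ⟨u, hu, ha⟩ hac
    have hon : ∀ z ∈ Cᶜ, a ((p z).re, (p z).im) = u z := fun z hz => pa_on hπ ha hz
    have huc := cpt_of_on h.td.cpt hinf hac hon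
    rw [← di_on hF (x := fun z => x0 z + φ z) (fun z hz => hp.re z hz) (hQ u hu).loc hon]
    exact (Mid_987.Pk.el_gen h hu huc).2
  · rintro a ⟨u, hu, ha⟩ hac
    have hon : ∀ z ∈ Cᶜ, a ((p z).re, (p z).im) = u z := fun z hz => pa_on hπ ha hz
    have huc := cpt_of_on h.td.cpt hinf hac hon
    rw [← om_on hF (x := fun z => x0 z + φ z) (fun z hz => hp.re z hz) (hQ u hu).loc hon]
    obtain ⟨κ, hκ, hκc, -, hκ1, -⟩ := Mid_987.exists_cut_in (huc.isCompact.union h.td.cpt)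
      isOpen_univ (subset_univ _)
    have h1 : ∀ z ∈ C, ∀ᶠ w in 𝓝 z, κ w = κ z := by
      intro z hz
      have h2 := hκ1 z (Or.inr hz)
      filter_upwards [h2] with w hw
      rw [hw, h2.self_of_nhds]
    rw [← h.iso _ _ (Mid_987.Pk.gen_mul h hκ hκc h1) hu]
    refine setIntegral_congr_fun hF.op.measurableSet fun z hz => ?_
    by_cases hzu : z ∈ tsupport u
    · refine Bd_775.wdg_eq_of_eventuallyEq ?_ EventuallyEq.rfl
      filter_upwards [hκ1 z (Or.inl hzu)] with w hw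
      rw [hw, one_mul]
    · have h3 : u =ᶠ[𝓝 z] fun _ => (0 : ℝ) := notMem_tsupport_iff_eventuallyEq.1 hzu
      simp only [Bd_775.wdg, Bd_775.gx_eq_of_eventuallyEq h3, Bd_775.gy_eq_of_eventuallyEq h3,
        Bd_775.gx_const, Bd_775.gy_const, mul_zero, sub_zero]

end

/-! ### PLN and PLANP from theorems on `PicAlg` -/

/-- strong planarity of a picture algebra -/
def ACP : Prop :=
  ∀ (E : Set (ℝ × ℝ)) (A : (ℝ × ℝ → ℝ) → Prop), PicAlg E A → ∀ a, A a →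
    (∀ᵐ y : ℝ, ∀ s t : ℝ, IntervalIntegrable (fun x => CF_363.gx a (x, y)) volume s t ∧
      a (t, y) - a (s, y) = ∫ x in s..t, CF_363.gx a (x, y)) ∧
    (∀ᵐ x : ℝ, ∀ s t : ℝ, IntervalIntegrable (fun y => CF_363.gy a (x, y)) volume s t ∧
      a (x, t) - a (x, s) = ∫ y in s..t, CF_363.gy a (x, y))

theorem pln_of (H : ACP) : PLN := by
  intro C x0 b φ p h hp hi hnull u hu
  have hE := Mid_987.Pk.endMap h hp hi
  obtain ⟨π, hπ⟩ := exists_pi hE (td' h)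
  have hP := padp h hp hi hnull hπ
  have hA : PA C π (insert φ (range b)) (fun q => u (π (eC q))) := ⟨u, hu, fun _ => rfl⟩
  obtain ⟨h1, h2⟩ := H _ _ hP _ hA
  obtain ⟨M, hM⟩ := (IfB_641.Gen.q h.td.cpt.isClosed (Mid_987.Pk.q h) hu).bdd
  refine ⟨_, ⟨⟨⟨M, fun q => hM _⟩, (hP.cont _ hA).continuousOn, hP.loc _ hA, hP.fin _ hA, ?_, ?_⟩,
    ?_⟩, fun z hz => pa_on hπ (fun _ => rfl) hz⟩
  · filter_upwards [h1] with y hy s t _ _
    exact hy s t
  · filter_upwards [h2] with x hx s t _ _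
    exact hx s t
  · rintro P ⟨q, hq, rfl⟩ r hr r' hr'
    exact (hP.cst _ hA q hq r hr).trans (hP.cst _ hA q hq r' hr').symm

/-- weak planarity of a picture algebra -/
def WKP : Prop :=
  ∀ (E : Set (ℝ × ℝ)) (A : (ℝ × ℝ → ℝ) → Prop), PicAlg E A → ∀ a, A a →
    ∀ χ : ℝ × ℝ → ℝ, ContDiff ℝ ∞ χ → HasCompactSupport χ →
      ∫ q in Eᶜ, CF_363.gx (fun r => a r * χ r) q = 0 ∧
      ∫ q in Eᶜ, CF_363.gy (fun r => a r * χ r) q = 0

theorem planp_of (H : WKP) : IfB_641.PLANP := by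
  intro C x0 b φ p h hp hi hnull u hu χ hχ hχc
  have hE := Mid_987.Pk.endMap h hp hi
  have hF := uni h hp hi
  obtain ⟨π, hπ⟩ := exists_pi hE (td' h)
  have hP := padp h hp hi hnull hπ
  have hA : PA C π (insert φ (range b)) (fun q => u (π (eC q))) := ⟨u, hu, fun _ => rfl⟩
  have heC : ContDiff ℝ ∞ (eC : ℝ × ℝ → ℂ) := Complex.equivRealProdCLM.symm.contDiff
  have hχ' : ContDiff ℝ ∞ (fun q : ℝ × ℝ => χ (eC q)) := hχ.comp heC
  have hχc' : HasCompactSupport (fun q : ℝ × ℝ => χ (eC q)) := hχc.comp_homeomorph eC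
  obtain ⟨h1, h2⟩ := H _ _ hP _ hA _ hχ' hχc'
  have hQ := IfB_641.Gen.q h.td.cpt.isClosed (Mid_987.Pk.q h) hu
  have hon : ∀ z ∈ Cᶜ, (fun q => u (π (eC q)) * χ (eC q)) ((p z).re, (p z).im) =
      u z * χ (p z) := by
    intro z hz
    simp only [eC_mk]
    rw [hπ.left z hz]
  have hll : LocallyLipschitzOn Cᶜ (fun z => u z * χ (p z)) := by
    obtain ⟨M, hM⟩ := hQ.bdd
    obtain ⟨N, hN⟩ := hχc.isCompact.exists_bound_of_continuousOn hχ.continuous.continuousOn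
    have hN' : ∀ z, |χ z| ≤ max N 0 := by
      intro z
      by_cases hz : z ∈ tsupport χ
      · exact (hN z hz).trans (le_max_left _ _)
      · rw [image_eq_zero_of_notMem_tsupport hz, abs_zero]; exact le_max_right _ _
    refine Bd_775.ll_mul (M := max M (max N 0)) hQ.loc ?_ (fun z => (hM z).trans (le_max_left _ _))
      (fun z => (hN' _).trans (le_max_right _ _))
    exact hF.locLip_comp (Mid_987.ll_on (Mid_987.ll_smooth hχ) _)
  constructor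
  · rw [di_on hF (x := fun z => x0 z + φ z) (f := fun q => u (π (eC q)) * χ (eC q))
      (fun z hz => hp.re z hz) hll hon]
    exact h1
  · rw [om_on hF (x := fun z => x0 z + φ z) (f := fun q => u (π (eC q)) * χ (eC q))
      (fun z hz => hp.re z hz) hll hon]
    exact h2

end Crest.Agent.R105.Padp_987
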