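import Crest.Agent.R105.Pv1_937

/-!
# Row 105: vertical half of `planar` on 868's `PicAlg` (helper937)
-/

set_option autoImplicit false

open Set Filter MeasureTheory Topology
open scoped ContDiff NNReal

namespace Crest.Agent.R105.Pv_937

noncomputable section

open CF_363 Pln_868

theorem gx_zero_of_ev {u : ℝ × ℝ → ℝ} {z : ℝ × ℝ} {c : ℝ} (h : ∀ᶠ w in 𝓝 z, u w = c) :
    gx u z = 0 := by
  rw [gx_congr (g := fun _ => c) h, gx_const]

theorem gy_zero_of_ev {u : ℝ × ℝ → ℝ} {z : ℝ × ℝ} {c : ℝ} (h : ∀ᶠ w in 𝓝 z, u w = c) :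
    gy u z = 0 := by
  rw [gy_congr (g := fun _ => c) h, gy_const]

theorem abs_gx_le (u : ℝ × ℝ → ℝ) (z : ℝ × ℝ) : |gx u z| ≤ 1 + g2 u z := by
  unfold g2
  rw [abs_le]; constructor <;> nlinarith [sq_nonneg (gx u z + 1), sq_nonneg (gx u z - 1),
    sq_nonneg (gy u z)]

theorem abs_gy_le (u : ℝ × ℝ → ℝ) (z : ℝ × ℝ) : |gy u z| ≤ 1 + g2 u z := by
  unfold g2
  rw [abs_le]; constructor <;> nlinarith [sq_nonneg (gy u z + 1), sq_nonneg (gy u z - 1),
    sq_nonneg (gx u z)]

theorem integrableOn_gx {V : Set (ℝ × ℝ)} {u : ℝ × ℝ → ℝ} (hu : IntegrableOn (g2 u) V)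
    {K : Set (ℝ × ℝ)} (hK : IsCompact K) : IntegrableOn (gx u) (V ∩ K) := by
  have h1 : IntegrableOn (fun z => 1 + g2 u z) (V ∩ K) := by
    refine Integrable.add ?_ (hu.mono_set inter_subset_left)
    exact (integrableOn_const hK.measure_lt_top.ne).mono_set inter_subset_right
  refine Integrable.mono' h1 (measurable_gx u).aestronglyMeasurable ?_
  exact Eventually.of_forall fun z => abs_gx_le u z

theorem integrableOn_gy {V : Set (ℝ × ℝ)} {u : ℝ × ℝ → ℝ} (hu : IntegrableOn (g2 u) V)
    {K : Set (ℝ × ℝ)} (hK : IsCompact K) : IntegrableOn (gy u) (V ∩ K) := by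
  have h1 : IntegrableOn (fun z => 1 + g2 u z) (V ∩ K) := by
    refine Integrable.add ?_ (hu.mono_set inter_subset_left)
    exact (integrableOn_const hK.measure_lt_top.ne).mono_set inter_subset_right
  refine Integrable.mono' h1 (measurable_gy u).aestronglyMeasurable ?_
  exact Eventually.of_forall fun z => abs_gy_le u z

/-- weight with compact support times a function integrable on compacts. -/
theorem integrableOn_mul {V : Set (ℝ × ℝ)} (hV : MeasurableSet V) {g f : ℝ × ℝ → ℝ}
    (hg : Continuous g) (hgc : HasCompactSupport g) (hf : IntegrableOn f (V ∩ tsupport g)) :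
    IntegrableOn (fun z => g z * f z) V := by
  obtain ⟨M, hM⟩ := hgc.exists_bound_of_continuous hg
  have h1 : IntegrableOn (fun z => g z * f z) (V ∩ tsupport g) :=
    Integrable.bdd_mul (c := M) hf hg.aestronglyMeasurable (Eventually.of_forall hM)
  refine h1.of_forall_sdiff_eq_zero hV ?_
  rintro z ⟨hz, hz'⟩
  have : z ∉ tsupport g := fun h => hz' ⟨hz, h⟩
  rw [image_eq_zero_of_notMem_tsupport this, zero_mul]

theorem restrict_compl {E : Set (ℝ × ℝ)} (hE0 : volume E = 0) :
    (volume.restrict Eᶜ : Measure (ℝ × ℝ)) = volume := by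
  rw [Measure.restrict_eq_self_of_ae_mem]
  rw [ae_iff]; simpa using hE0

/-- the integrand of the slices. -/
def Sl (a X : ℝ × ℝ → ℝ) (p : ℝ × ℝ) : ℝ := X p * gy a p + gy X p * a p

variable {E : Set (ℝ × ℝ)} {A : (ℝ × ℝ → ℝ) → Prop} {a X : ℝ × ℝ → ℝ}

theorem continuous_gy (hX : ContDiff ℝ ∞ X) : Continuous (gy X) :=
  (hX.continuous_fderiv (by simp)).clm_apply continuous_const

theorem compact_gy (hXc : HasCompactSupport X) : HasCompactSupport (gy X) := by
  refine HasCompactSupport.of_support_subset_isCompact hXc ?_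
  intro z hz
  by_contra hn
  exact hz (gy_zero_of_ev (notMem_tsupport_iff_eventuallyEq.1 hn))

theorem integrable_Sl (h : PicAlg E A) (ha : A a) (hX : ContDiff ℝ ∞ X)
    (hXc : HasCompactSupport X) : Integrable (Sl a X) := by
  have hV : MeasurableSet Eᶜ := h.cpt.isClosed.isOpen_compl.measurableSet
  have h1 : IntegrableOn (fun z => X z * gy a z) Eᶜ :=
    integrableOn_mul hV hX.continuous hXc (integrableOn_gy (h.fin a ha) hXc)
  rw [IntegrableOn, restrict_compl h.null] at h1
  have h2 : Integrable (fun z => gy X z * a z) :=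
    ((continuous_gy hX).mul (h.cont a ha)).integrable_of_hasCompactSupport
      (compact_gy hXc).mul_right
  exact h1.add h2

theorem slice (h : PicAlg E A) (ha : A a) (hX : ContDiff ℝ ∞ X)
    (hXc : HasCompactSupport X) (hXl : ∀ z ∈ E, ∀ᶠ w in 𝓝 z, X w = X z) :
    ∀ᵐ s : ℝ, ∫ y : ℝ, Sl a X (s, y) = 0 := by
  have hI := integrable_Sl h ha hX hXc
  have hI' : Integrable (Sl a X) ((volume : Measure ℝ).prod (volume : Measure ℝ)) := hI
  apply ae_eq_zero_of_integral_contDiff_smul_eq_zero hI'.integral_prod_left.locallyIntegrable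
  intro k hk hkc
  have hcut : Cut E X := ⟨exists_lip hX hXc, hXc, hXl⟩
  have h1 := h.iso _ (h.mul _ _ ha (h.cut X hcut k (exists_lip hk hkc)))
    ((hXc.mul_right (f' := fun p : ℝ × ℝ => k p.1)).mul_left)
  have hopen := h.cpt.isClosed.isOpen_compl
  have e : ∀ᵐ p ∂(volume.restrict Eᶜ), gy (fun p => a p * (X p * k p.1)) p
      = k p.1 * Sl a X p := by
    rw [ae_restrict_iff' hopen.measurableSet]
    filter_upwards [ae_diff hopen (h.loc a ha)] with p hp hpE
    have d1 := hp hpE
    have d2 : DifferentiableAt ℝ X p := (hX.differentiable (by simp)).differentiableAt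
    have d3 : DifferentiableAt ℝ (fun p : ℝ × ℝ => k p.1) p :=
      ((hk.differentiable (by simp)).comp differentiable_fst).differentiableAt
    have d4 : gy (fun p : ℝ × ℝ => k p.1) p = 0 := by
      unfold gy
      have h3 : HasFDerivAt (fun p : ℝ × ℝ => k p.1)
          ((fderiv ℝ k p.1).comp (ContinuousLinearMap.fst ℝ ℝ ℝ)) p :=
        ((hk.differentiable (by simp)).differentiableAt (x := p.1)).hasFDerivAt.comp p
          hasFDerivAt_fst
      rw [h3.fderiv]; simp
    have e1 := gy_mul (f := a) (g := fun p : ℝ × ℝ => X p * k p.1) d1 (d2.mul d3)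
    have e2 := gy_mul (f := X) (g := fun p : ℝ × ℝ => k p.1) d2 d3
    rw [e1, e2, d4]
    unfold Sl; ring
  rw [integral_congr_ae e, restrict_compl h.null] at h1
  have hI2 : Integrable (fun p : ℝ × ℝ => k p.1 * Sl a X p) := by
    obtain ⟨M, hM⟩ := hkc.exists_bound_of_continuous hk.continuous
    exact hI.bdd_mul (c := M) (hk.continuous.comp continuous_fst).aestronglyMeasurable
      (Eventually.of_forall fun z => hM z.1)
  rw [Measure.volume_eq_prod, integral_prod _ hI2] at h1
  rw [← h1]
  congr 1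
  ext s
  simp only [smul_eq_mul]
  rw [integral_const_mul]

theorem hasDerivAt_line {u : ℝ × ℝ → ℝ} {s y : ℝ} (h : DifferentiableAt ℝ u (s, y)) :
    HasDerivAt (fun y => u (s, y)) (gy u (s, y)) y := gy_eq_deriv h

/-- **the vertical half of planarity**. -/
theorem ver (h : PicAlg E A) (ha : A a) : ∀ᵐ x : ℝ, ∀ c d : ℝ,
    IntervalIntegrable (fun s => gy a (x, s)) volume c d ∧
      a (x, d) - a (x, c) = ∫ s in c..d, gy a (x, s) := by
  have hE := h.cpt
  have hEcl : IsClosed E := hE.isClosed
  have : CompactSpace E := isCompact_iff_compactSpace.1 hE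
  have : Countable (TopologicalSpace.Clopens E) := countable_clopens E
  choose X hX hXc hXl hX1 hX0 hX01 using fun S : TopologicalSpace.Clopens E =>
    exists_cutS hE S.isClopen
  -- (a)
  have a1 : ∀ᵐ s : ℝ, ∀ᵐ y : ℝ, (s, y) ∉ E := ae_unswap (measure_eq_zero_iff_ae_notMem.1 h.null)
  -- (b)
  have b1 := ae_unswap (ae_diff hEcl.isOpen_compl (h.loc a ha))
  -- (c)
  have c0 : ∀ n : ℕ, ∀ᵐ s : ℝ, Integrable (fun y : ℝ =>
      (Eᶜ ∩ Metric.closedBall (0:ℝ × ℝ) n).indicator (gy a) (s, y)) := by
    intro n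
    have h1 : Integrable ((Eᶜ ∩ Metric.closedBall (0:ℝ × ℝ) n).indicator (gy a)) := by
      rw [integrable_indicator_iff
        (hEcl.isOpen_compl.measurableSet.inter Metric.isClosed_closedBall.measurableSet)]
      exact integrableOn_gy (h.fin a ha) (isCompact_closedBall _ _)
    have h2 : Integrable ((Eᶜ ∩ Metric.closedBall (0:ℝ × ℝ) n).indicator (gy a))
      ((volume : Measure ℝ).prod (volume : Measure ℝ)) := h1
    exact h2.prod_right_ae
  have c1 := ae_all_iff.2 c0
  -- (d)
  have d1 : ∀ᵐ s : ℝ, ∀ i, ∫ y : ℝ, Sl a (X i) (s, y) = 0 :=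
    ae_all_iff.2 fun i => slice h ha (hX i) (hXc i) (hXl i)
  filter_upwards [a1, b1, c1, d1] with s ha' hb hc hd
  set K : Set ℝ := {y | (s, y) ∈ E} with hK
  have hvc : Continuous (fun y : ℝ => (s, y)) := by fun_prop
  have hvL : LipschitzWith 1 (fun y : ℝ => (s, y)) := LipschitzWith.prodMk_left s
  have hKcl : IsClosed K := hEcl.preimage hvc
  have hα : LocallyLipschitzOn Kᶜ (fun y => a (s, y)) := by
    intro y hy
    obtain ⟨L, t, ht, hL⟩ := (h.loc a ha) (show (s, y) ∈ Eᶜ from hy)
    rw [hEcl.isOpen_compl.nhdsWithin_eq (show (s, y) ∈ Eᶜ from hy)] at ht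
    refine ⟨L * 1, (fun y : ℝ => (s, y)) ⁻¹' t,
      mem_nhdsWithin_of_mem_nhds (hvc.continuousAt ht), ?_⟩
    exact hL.comp (hvL.lipschitzOnWith) (fun x hx => hx)
  have hαc : Continuous (fun y => a (s, y)) := (h.cont a ha).comp hvc
  have hder : ∀ᵐ y : ℝ, y ∉ K → HasDerivAt (fun y => a (s, y)) (gy a (s, y)) y := by
    filter_upwards [hb] with y hy hyK
    exact hasDerivAt_line (hy hyK)
  have hbI : ∀ u v, IntervalIntegrable (fun y => gy a (s, y)) volume u v := by
    intro u v
    obtain ⟨n, hn⟩ := exists_nat_ge (|s| + (|u| + |v|))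
    have h1 := (hc n).intervalIntegrable (a := u) (b := v)
    refine h1.congr_ae ?_
    rw [Filter.EventuallyEq, ae_restrict_iff' measurableSet_uIoc]
    filter_upwards [ha'] with y hy hyI
    have h2 : (s, y) ∈ Eᶜ ∩ Metric.closedBall (0:ℝ × ℝ) n := by
      refine ⟨hy, ?_⟩
      rw [Metric.mem_closedBall, dist_zero_right, Prod.norm_def]
      have h3 : |y| ≤ |u| + |v| := by
        have h4 := uIoc_subset_uIcc hyI
        rw [mem_uIcc] at h4
        rcases h4 with h4 | h4
        · rw [abs_le]; constructor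
          · linarith [neg_abs_le u, abs_nonneg v]
          · linarith [le_abs_self v, abs_nonneg u]
        · rw [abs_le]; constructor
          · linarith [neg_abs_le v, abs_nonneg u]
          · linarith [le_abs_self u, abs_nonneg v]
      refine max_le ?_ ?_
      · simp only [Real.norm_eq_abs]; linarith [abs_nonneg u, abs_nonneg v]
      · simp only [Real.norm_eq_abs]; linarith [abs_nonneg s]
    rw [indicator_of_mem h2]
  -- increments between points off `K`
  have hinc : ∀ y1 y2 : ℝ, y1 ≤ y2 → y1 ∉ K → y2 ∉ K →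
      a (s, y2) - a (s, y1) = ∫ y in y1..y2, gy a (s, y) := by
    intro y1 y2 h12 hy1 hy2
    obtain ⟨S, hS, hS1, hS0⟩ := sep_line hE h.vert (x := s) (y1 := y1) (y2 := y2) hy1 hy2
    set i : TopologicalSpace.Clopens E := ⟨S, hS⟩ with hi
    obtain ⟨R0, hR0⟩ := (hXc i).isBounded.exists_norm_le
    set R : ℝ := |R0| + |y1| + |y2| + 1 with hR
    have hout : ∀ y : ℝ, |R0| < |y| → (s, y) ∉ tsupport (X i) := by
      intro y hy hm
      have h1 := hR0 _ hm
      have h2 : |y| ≤ ‖((s, y) : ℝ × ℝ)‖ := by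
        rw [Prod.norm_def]; exact le_max_right _ _
      linarith [le_abs_self R0]
    have hRpos : 0 < R := by positivity
    have hRb : |R0| < R := by
      have := abs_nonneg y1; have := abs_nonneg y2; linarith
    refine Vac_937.key (χ := fun y => X i (s, y)) (χ' := fun y => gy (X i) (s, y)) (R := R) hKcl
      hα hαc hder hbI ?_ ?_ h12 hy1 hy2 ?_ ?_ ?_ ?_ ?_ ?_ ?_
    · intro y
      exact hasDerivAt_line ((hX i).differentiable (by simp)).differentiableAt
    · exact (continuous_gy (hX i)).comp hvc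
    · linarith [neg_abs_le y1, abs_nonneg R0, abs_nonneg y2]
    · linarith [le_abs_self y2, abs_nonneg R0, abs_nonneg y1]
    · intro y hyK hy
      have h1 := hvc.continuousAt.eventually (hXl i (s, y) hyK)
      filter_upwards [h1] with x hx
      rw [hx]; exact hX1 i ⟨(s, y), hyK⟩ (hS1 ⟨(s, y), hyK⟩ rfl hy)
    · intro y hyK hy
      have h1 := hvc.continuousAt.eventually (hXl i (s, y) hyK)
      filter_upwards [h1] with x hx
      rw [hx]; exact hX0 i ⟨(s, y), hyK⟩ (hS0 ⟨(s, y), hyK⟩ rfl hy)
    · exact image_eq_zero_of_notMem_tsupport (hout (-R) (by rw [abs_neg, abs_of_pos hRpos]; exact hRb))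
    · exact image_eq_zero_of_notMem_tsupport (hout R (by rw [abs_of_pos hRpos]; exact hRb))
    · have h1 := hd i
      have h2 : Function.support (fun y : ℝ => Sl a (X i) (s, y)) ⊆ Ioc (-R) R := by
        intro y hy
        by_contra hn
        apply hy
        have h3 : |R0| < |y| := by
          rw [mem_Ioc, not_and_or, not_lt, not_le] at hn
          rcases hn with hn | hn
          · have : R ≤ |y| := by rw [← abs_neg]; exact le_trans (by linarith) (le_abs_self (-y))
            linarith
          · linarith [le_abs_self y]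
        have h4 := hout y h3
        have h5 := notMem_tsupport_iff_eventuallyEq.1 h4
        simp only [Sl]
        rw [gy_zero_of_ev h5, image_eq_zero_of_notMem_tsupport h4]; ring
      have h3 := intervalIntegral.integral_eq_integral_of_support_subset (μ := volume) h2
      have h4 : ∫ y in (-R)..R, Sl a (X i) (s, y) = 0 := by rw [h3]; exact h1
      exact h4
  -- all points
  have hden : Dense Kᶜ := by
    apply Measure.dense_of_ae (μ := (volume : Measure ℝ))
    exact ha'
  obtain ⟨y0, hy0⟩ := hden.nonempty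
  have hD : (fun y => a (s, y) - a (s, y0)) = fun y => ∫ t in y0..y, gy a (s, t) := by
    refine Continuous.ext_on hden (hαc.sub continuous_const)
      (intervalIntegral.continuous_primitive (fun u v => hbI u v) y0) ?_
    intro y hy
    rcases le_total y0 y with h | h
    · exact hinc y0 y h hy0 hy
    · have := hinc y y0 h hy hy0
      simp only
      rw [intervalIntegral.integral_symm]
      linarith
  intro y1 y2
  refine ⟨hbI _ _, ?_⟩
  have e1 := congrFun hD y1
  have e2 := congrFun hD y2
  beta_reduce at e1 e2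
  have e3 := intervalIntegral.integral_interval_sub_left (hbI y0 y2) (hbI y0 y1)
  linarith

end

end Crest.Agent.R105.Pv_937
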