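import Crest.Agent.R105.Pln3_868
import Crest.Agent.R105.Pv2_937
import Crest.Agent.R105.Padp1_987

/-!
# Row 105: `ACP`, `WKP`, hence `Skp4_257.PLN` and `IfB_641.PLANP`
-/

namespace Crest.Agent.R105.Pln_868

open Set Filter MeasureTheory Topology
open CF_363
open scoped NNReal ContDiff

noncomputable section

/-- product of an absolutely continuous function and a smooth one, on a line -/
theorem line_zero {α β χ : ℝ → ℝ} (hd : ∀ᵐ x, HasDerivAt α (β x) x)
    (hi : ∀ s t : ℝ, IntervalIntegrable β volume s t ∧ α t - α s = ∫ x in s..t, β x)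
    (hχ : ContDiff ℝ 1 χ) {R : ℝ} (h0 : χ (-R) = 0) (h1 : χ R = 0) :
    ∫ x in (-R)..R, (β x * χ x + α x * deriv χ x) = 0 := by
  have hα : AbsolutelyContinuousOnInterval α (-R) R := by
    have h2 : α = fun t => α (-R) + ∫ x in (-R)..t, β x := by
      funext t
      rw [← (hi (-R) t).2]; ring
    rw [h2]
    have h3 : AbsolutelyContinuousOnInterval (fun t => ∫ x in (-R)..t, β x) (-R) R :=
      (hi (-R) R).1.absolutelyContinuousOnInterval_intervalIntegral left_mem_uIcc
    have h4 : AbsolutelyContinuousOnInterval (fun _ : ℝ => α (-R)) (-R) R :=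
      (LipschitzWith.const (α (-R))).lipschitzOnWith.absolutelyContinuousOnInterval
    exact h4.add h3
  have hχa : AbsolutelyContinuousOnInterval χ (-R) R := by
    obtain ⟨K, hK⟩ := (hχ.locallyLipschitz.locallyLipschitzOn
      (s := uIcc (-R) R)).exists_lipschitzOnWith_of_compact isCompact_uIcc
    exact hK.absolutelyContinuousOnInterval
  have h2 := hα.integral_deriv_mul_eq_sub hχa
  rw [h0, h1] at h2
  simp only [mul_zero, sub_zero] at h2
  rw [← h2]
  refine intervalIntegral.integral_congr_ae ?_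
  filter_upwards [hd] with x hx _
  rw [hx.deriv]

variable {E : Set (ℝ × ℝ)} {A : (ℝ × ℝ → ℝ) → Prop} {a χ : ℝ × ℝ → ℝ}

theorem exists_box (hχc : HasCompactSupport χ) :
    ∃ R : ℝ, 0 < R ∧ ∀ p ∈ tsupport χ, |p.1| < R ∧ |p.2| < R := by
  obtain ⟨R, hR⟩ := hχc.isCompact.isBounded.exists_norm_le
  refine ⟨|R| + 1, by positivity, fun p hp => ?_⟩
  have h1 := hR p hp
  have h2 := le_abs_self R
  exact ⟨by have := norm_fst_le p; rw [Real.norm_eq_abs] at this; linarith,
    by have := norm_snd_le p; rw [Real.norm_eq_abs] at this; linarith⟩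

theorem bdd_of_cpt (hc : Continuous χ) (hχc : HasCompactSupport χ) : ∃ M, ∀ p, ‖χ p‖ ≤ M :=
  hc.bounded_above_of_compact_support hχc

theorem gx_smooth (hχ : ContDiff ℝ ∞ χ) (hχc : HasCompactSupport χ) :
    Continuous (gx χ) ∧ HasCompactSupport (gx χ) ∧ Continuous (gy χ) ∧ HasCompactSupport (gy χ) := by
  have h1 : Continuous (fderiv ℝ χ) := hχ.continuous_fderiv (by simp)
  have h2 : HasCompactSupport (fderiv ℝ χ) := hχc.fderiv (𝕜 := ℝ)
  refine ⟨h1.clm_apply continuous_const, h2.mono fun x hx => ?_, h1.clm_apply continuous_const,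
    h2.mono fun x hx => ?_⟩
  · intro h0; exact hx (by simp [gx, h0])
  · intro h0; exact hx (by simp [gy, h0])

theorem wk (h : PicAlg E A) (ha : A a) (hχ : ContDiff ℝ ∞ χ) (hχc : HasCompactSupport χ) :
    ∫ q in Eᶜ, gx (fun r => a r * χ r) q = 0 ∧ ∫ q in Eᶜ, gy (fun r => a r * χ r) q = 0 := by
  obtain ⟨R, hR, hRχ⟩ := exists_box hχc
  obtain ⟨cx, sx, cy, sy⟩ := gx_smooth hχ hχc
  have hcont := h.cont a ha
  have hχd : ∀ p, DifferentiableAt ℝ χ p := fun p => (hχ.differentiable (by simp)).differentiableAt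
  have hz : ∀ p, p ∉ tsupport χ → χ p = 0 ∧ gx χ p = 0 ∧ gy χ p = 0 := fun p hp => by
    have h1 : χ =ᶠ[𝓝 p] fun _ => 0 := notMem_tsupport_iff_eventuallyEq.1 hp
    exact ⟨h1.self_of_nhds, by rw [gx_congr h1, gx_const], by rw [gy_congr h1, gy_const]⟩
  obtain ⟨M, hM⟩ := bdd_of_cpt hχ.continuous hχc
  have hvt : volume (tsupport χ) ≠ ⊤ := hχc.isCompact.measure_lt_top.ne
  rw [h.vol_eq]
  constructor
  · have e1 : ∀ᵐ p : ℝ × ℝ, gx (fun r => a r * χ r) p = gx a p * χ p + a p * gx χ p := by
      filter_upwards [h.aeDiff ha] with p hp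
      rw [gx_mul hp (hχd p)]; ring
    have i1 : Integrable (fun p => gx a p * χ p) := by
      have j1 : IntegrableOn (fun p => gx a p * χ p) (tsupport χ) :=
        (h.intOn_gx ha hvt).mul_bdd (c := M) hχ.continuous.aestronglyMeasurable
          (Eventually.of_forall hM)
      exact j1.integrable_of_forall_notMem_eq_zero fun p hp => by rw [(hz p hp).1, mul_zero]
    have i2 : Integrable (fun p => a p * gx χ p) :=
      (hcont.mul cx).integrable_of_hasCompactSupport sx.mul_left
    have i3 : Integrable (fun p : ℝ × ℝ => gx a p * χ p + a p * gx χ p) := i1.add i2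
    rw [integral_congr_ae e1, Measure.volume_eq_prod]
    rw [Measure.volume_eq_prod] at i3
    rw [integral_prod_symm _ i3]
    refine integral_eq_zero_of_ae ?_
    filter_upwards [h.hor ha, ae_swap (h.aeDiff ha)] with y hy hdy
    have k1 := line_zero (α := fun x => a (x, y)) (β := fun x => gx a (x, y))
      (χ := fun x => χ (x, y)) (R := R) (by
        filter_upwards [hdy] with x hx
        exact gx_eq_deriv hx) hy ((hχ.of_le (by simp)).comp (by fun_prop))
      (hz _ fun hp => by have := (hRχ _ hp).1; simp [abs_of_pos hR] at this).1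
      (hz _ fun hp => by have := (hRχ _ hp).1; simp [abs_of_pos hR] at this).1
    have k2 : ∀ x, deriv (fun x => χ (x, y)) x = gx χ (x, y) := fun x =>
      (gx_eq_deriv (hχd (x, y))).deriv
    simp only [k2] at k1
    rw [Pi.zero_apply, ← k1, intervalIntegral.integral_of_le (by linarith),
      setIntegral_eq_integral_of_forall_compl_eq_zero]
    intro x hx
    have : (x, y) ∉ tsupport χ := fun hp => hx (by
      have := (hRχ _ hp).1
      rw [abs_lt] at this
      exact ⟨this.1, this.2.le⟩)
    rw [(hz _ this).1, (hz _ this).2.1]; ring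
  · have e1 : ∀ᵐ p : ℝ × ℝ, gy (fun r => a r * χ r) p = gy a p * χ p + a p * gy χ p := by
      filter_upwards [h.aeDiff ha] with p hp
      rw [gy_mul hp (hχd p)]; ring
    have i1 : Integrable (fun p => gy a p * χ p) := by
      have j1 : IntegrableOn (fun p => gy a p * χ p) (tsupport χ) :=
        (h.intOn_gy ha hvt).mul_bdd (c := M) hχ.continuous.aestronglyMeasurable
          (Eventually.of_forall hM)
      exact j1.integrable_of_forall_notMem_eq_zero fun p hp => by rw [(hz p hp).1, mul_zero]
    have i2 : Integrable (fun p => a p * gy χ p) :=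
      (hcont.mul cy).integrable_of_hasCompactSupport sy.mul_left
    have i3 : Integrable (fun p : ℝ × ℝ => gy a p * χ p + a p * gy χ p) := i1.add i2
    rw [integral_congr_ae e1, Measure.volume_eq_prod]
    rw [Measure.volume_eq_prod] at i3
    rw [integral_prod _ i3]
    refine integral_eq_zero_of_ae ?_
    filter_upwards [Pv_937.ver h ha, ae_unswap (h.aeDiff ha)] with x hx hdx
    have k1 := line_zero (α := fun y => a (x, y)) (β := fun y => gy a (x, y))
      (χ := fun y => χ (x, y)) (R := R) (by
        filter_upwards [hdx] with y hy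
        exact gy_eq_deriv hy) hx ((hχ.of_le (by simp)).comp (by fun_prop))
      (hz _ fun hp => by have := (hRχ _ hp).2; simp [abs_of_pos hR] at this).1
      (hz _ fun hp => by have := (hRχ _ hp).2; simp [abs_of_pos hR] at this).1
    have k2 : ∀ y, deriv (fun y => χ (x, y)) y = gy χ (x, y) := fun y =>
      (gy_eq_deriv (hχd (x, y))).deriv
    simp only [k2] at k1
    rw [Pi.zero_apply, ← k1, intervalIntegral.integral_of_le (by linarith),
      setIntegral_eq_integral_of_forall_compl_eq_zero]
    intro y hy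
    have : (x, y) ∉ tsupport χ := fun hp => hy (by
      have := (hRχ _ hp).2
      rw [abs_lt] at this
      exact ⟨this.1, this.2.le⟩)
    rw [(hz _ this).1, (hz _ this).2.2]; ring

theorem wkp : Padp_987.WKP := fun _ _ h _ ha _ hχ hχc => wk h ha hχ hχc

theorem planp : IfB_641.PLANP := Padp_987.planp_of wkp

theorem acp : Padp_987.ACP := fun _ _ h _ ha => ⟨h.hor ha, Pv_937.ver h ha⟩

theorem pln : Skp4_257.PLN := Padp_987.pln_of acp

end

end Crest.Agent.R105.Pln_868
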