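import Crest.Agent.R105.Boj2_676

/-! Row 105, S0139, RED-PLAN (helper897), part 6: sums. -/

set_option autoImplicit false

open Set Filter Topology Metric MeasureTheory
open scoped ENNReal NNReal

namespace Crest.Agent.R105.Pln_897

/-- weighted Cauchy-Schwarz -/
theorem cs_nn {ι : Type*} (w x : ι → ℝ≥0) (hw : ∀ i, w i ≠ 0) :
    (∑' i, (x i : ℝ≥0∞)) ^ 2 ≤
      (∑' i, (w i : ℝ≥0∞)) * ∑' i, (((x i) ^ 2 / w i : ℝ≥0) : ℝ≥0∞) := by
  have ht : Tendsto (fun F : Finset ι => (∑ i ∈ F, (x i : ℝ≥0∞)) ^ 2) atTop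
      (𝓝 ((∑' i, (x i : ℝ≥0∞)) ^ 2)) :=
    ((ENNReal.continuous_pow 2).tendsto _).comp ENNReal.summable.hasSum
  refine le_of_tendsto' ht fun F => ?_
  have h1 : (∑ i ∈ F, x i) ^ 2 ≤ (∑ i ∈ F, w i) * ∑ i ∈ F, (x i) ^ 2 / w i :=
    Finset.sum_sq_le_sum_mul_sum_of_sq_le_mul F (fun _ _ => zero_le) (fun _ _ => zero_le)
      (fun i _ => by rw [mul_div_cancel₀ _ (hw i)])
  have h2 : (((∑ i ∈ F, x i) ^ 2 : ℝ≥0) : ℝ≥0∞) ≤
      (((∑ i ∈ F, w i) * ∑ i ∈ F, (x i) ^ 2 / w i : ℝ≥0) : ℝ≥0∞) := ENNReal.coe_le_coe.2 h1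
  rw [ENNReal.coe_pow, ENNReal.coe_mul, ENNReal.ofNNReal_finsetSum, ENNReal.ofNNReal_finsetSum,
    ENNReal.ofNNReal_finsetSum] at h2
  exact h2.trans (mul_le_mul' (ENNReal.sum_le_tsum F) (ENNReal.sum_le_tsum F))

theorem add_sq_le (x y : ℝ≥0∞) : (x + y) ^ 2 ≤ 2 * (x ^ 2 + y ^ 2) := by
  have := ENNReal.rpow_add_le_mul_rpow_add_rpow x y (p := 2) (by norm_num)
  norm_num at this
  exact_mod_cast this

section

variable {ι : Type} [Countable ι] {c : ι → ℂ} {r ℓ w : ι → ℝ} {g : ι → ℂ → ℝ}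

/-- the discs -/
theorem disc_sq (hd : Pairwise fun i j => Disjoint (closedBall (c i) (r i)) (closedBall (c j) (r j)))
    (hℓ0 : ∀ i, 0 ≤ ℓ i) (hℓ : Summable fun i => ℓ i ^ 2) :
    ∫⁻ z, (∑' i : {i | 0 < r i}, (closedBall (c i) (2 * r i)).indicator
      (fun _ => ENNReal.ofReal (ℓ i * (2 / r i))) z) ^ 2 ≠ ∞ := by
  obtain ⟨C, -, hC⟩ := Boj_676.boj_plane (K := 2) (by norm_num)
  have h1 := hC (ι := {i | 0 < r i}) (fun i => c i) (fun i => r i) (fun i => i.2)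
    (fun i j hij => hd fun h => hij (Subtype.ext h)) (fun i => ENNReal.ofReal (ℓ i * (2 / r i)))
  refine ne_top_of_le_ne_top ?_ h1
  refine ENNReal.mul_ne_top ENNReal.coe_ne_top ?_
  have h2 : ∀ i : {i | 0 < r i}, ENNReal.ofReal (ℓ i * (2 / r i)) ^ 2 *
      volume (closedBall (c i) (r i)) = ENNReal.ofReal (4 * Real.pi * ℓ i ^ 2) := by
    intro i
    have hi : 0 < r i := i.2
    have := hℓ0 i
    rw [Complex.volume_closedBall, ← ENNReal.ofReal_pow (by positivity),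
      ← ENNReal.ofReal_pow hi.le, ← ENNReal.ofReal_coe_nnreal, NNReal.coe_real_pi,
      ← ENNReal.ofReal_mul (by positivity), ← ENNReal.ofReal_mul (by positivity)]
    congr 1
    field_simp
    ring
  simp only [h2]
  have h3 : Summable fun i : {i | 0 < r i} => 4 * Real.pi * ℓ i ^ 2 :=
    (hℓ.comp_injective Subtype.val_injective).mul_left _
  exact h3.tsum_ofReal_ne_top

/-- the points -/
theorem pt_sq {s : Set ι} (hg : ∀ i, Measurable (g i)) (hℓ0 : ∀ i, 0 ≤ ℓ i)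
    (hg0 : ∀ i z, 0 ≤ g i z) (hw0 : ∀ i, 0 < w i) (hw : Summable w)
    (hi : ∀ i ∈ s, ∫⁻ z, ENNReal.ofReal ((ℓ i * g i z) ^ 2) ≤ ENNReal.ofReal (w i ^ 2)) :
    ∫⁻ z, (∑' i : s, ENNReal.ofReal (ℓ i * g i z)) ^ 2 ≠ ∞ := by
  have hwt : ∑' i : s, ENNReal.ofReal (w i) ≠ ∞ :=
    (hw.comp_injective Subtype.val_injective).tsum_ofReal_ne_top
  have h1 : ∀ z, (∑' i : s, ENNReal.ofReal (ℓ i * g i z)) ^ 2 ≤
      (∑' i : s, ENNReal.ofReal (w i)) * ∑' i : s, ENNReal.ofReal ((ℓ i * g i z) ^ 2 / w i) := by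
    intro z
    refine (cs_nn (fun i : s => Real.toNNReal (w i)) (fun i : s => Real.toNNReal (ℓ i * g i z))
      (fun i => (Real.toNNReal_pos.2 (hw0 i)).ne')).trans (mul_le_mul' le_rfl ?_)
    refine ENNReal.tsum_le_tsum fun i => ?_
    rw [← Real.toNNReal_pow (mul_nonneg (hℓ0 i) (hg0 i z)), ← Real.toNNReal_div (sq_nonneg _)]
    exact le_rfl
  refine ne_top_of_le_ne_top ?_ (lintegral_mono h1)
  have hm : ∀ i : s, Measurable fun z => ENNReal.ofReal ((ℓ i * g i z) ^ 2 / w i) := fun i =>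
    ((((hg i).const_mul _).pow_const 2).div_const _).ennreal_ofReal
  rw [lintegral_const_mul _ (Measurable.tsum hm), lintegral_tsum fun i => (hm i).aemeasurable]
  refine ENNReal.mul_ne_top hwt (ne_top_of_le_ne_top hwt ?_)
  refine ENNReal.tsum_le_tsum fun i => ?_
  have e1 : ∀ z, ENNReal.ofReal ((ℓ i * g i z) ^ 2 / w i) =
      ENNReal.ofReal ((ℓ i * g i z) ^ 2) * ENNReal.ofReal (1 / w i) := by
    intro z
    rw [← ENNReal.ofReal_mul (sq_nonneg _), mul_one_div]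
  simp only [e1]
  rw [lintegral_mul_const _ (((hg i).const_mul _).pow_const 2).ennreal_ofReal]
  calc _ ≤ ENNReal.ofReal (w i ^ 2) * ENNReal.ofReal (1 / w i) :=
        mul_le_mul' (hi i i.2) le_rfl
    _ = ENNReal.ofReal (w i) := by
      rw [← ENNReal.ofReal_mul (sq_nonneg _)]
      congr 1
      have := (hw0 i).ne'
      field_simp

/-- **the square of the weight is integrable** -/
theorem all_sq (hd : Pairwise fun i j => Disjoint (closedBall (c i) (r i)) (closedBall (c j) (r j)))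
    (hg : ∀ i, Measurable (g i)) (hℓ0 : ∀ i, 0 ≤ ℓ i) (hℓ : Summable fun i => ℓ i ^ 2)
    (hg0 : ∀ i z, 0 ≤ g i z) (hw0 : ∀ i, 0 < w i) (hw : Summable w)
    (hgd : ∀ i, 0 < r i → g i = (closedBall (c i) (2 * r i)).indicator fun _ => 2 / r i)
    (hgp : ∀ i, ¬ 0 < r i → ∫⁻ z, ENNReal.ofReal ((ℓ i * g i z) ^ 2) ≤ ENNReal.ofReal (w i ^ 2)) :
    ∫⁻ z, (∑' i, ENNReal.ofReal (ℓ i * g i z)) ^ 2 ≠ ∞ := by
  have h1 := disc_sq hd hℓ0 hℓ
  have h2 := pt_sq (s := {i | 0 < r i}ᶜ) hg hℓ0 hg0 hw0 hw hgp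
  have h3 : ∀ z, ∑' i, ENNReal.ofReal (ℓ i * g i z) =
      (∑' i : {i | 0 < r i}, (closedBall (c i) (2 * r i)).indicator
        (fun _ => ENNReal.ofReal (ℓ i * (2 / r i))) z) +
      ∑' i : ({i | 0 < r i}ᶜ : Set ι), ENNReal.ofReal (ℓ i * g i z) := by
    intro z
    have e1 : ∀ i : {i | 0 < r i}, (closedBall (c i) (2 * r i)).indicator
        (fun _ => ENNReal.ofReal (ℓ i * (2 / r i))) z = ENNReal.ofReal (ℓ i * g i z) := by
      intro i
      rw [hgd i i.2]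
      by_cases hz : z ∈ closedBall (c i) (2 * r i)
      · rw [indicator_of_mem hz, indicator_of_mem hz]
      · rw [indicator_of_notMem hz, indicator_of_notMem hz, mul_zero, ENNReal.ofReal_zero]
    simp only [e1]
    exact (ENNReal.summable.tsum_add_tsum_compl ENNReal.summable).symm
  have hm1 : Measurable fun z => (∑' i : {i | 0 < r i}, (closedBall (c i) (2 * r i)).indicator
      (fun _ => ENNReal.ofReal (ℓ i * (2 / r i))) z) ^ 2 :=
    (Measurable.tsum fun i => measurable_const.indicator measurableSet_closedBall).pow_const 2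
  have h4 : ∀ z, (∑' i, ENNReal.ofReal (ℓ i * g i z)) ^ 2 ≤
      2 * ((∑' i : {i | 0 < r i}, (closedBall (c i) (2 * r i)).indicator
        (fun _ => ENNReal.ofReal (ℓ i * (2 / r i))) z) ^ 2 +
      (∑' i : ({i | 0 < r i}ᶜ : Set ι), ENNReal.ofReal (ℓ i * g i z)) ^ 2) := by
    intro z
    rw [h3 z]
    exact add_sq_le _ _
  refine ne_top_of_le_ne_top ?_ (lintegral_mono h4)
  rw [lintegral_const_mul' _ _ (by norm_num), lintegral_add_left hm1]
  exact ENNReal.mul_ne_top (by norm_num) (ENNReal.add_ne_top.2 ⟨h1, h2⟩)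

/-- `L¹` norm of a disc term -/
theorem disc_one (c : ℂ) {r ℓ : ℝ} (hr : 0 < r) (hℓ : 0 ≤ ℓ) :
    ∫⁻ z, ENNReal.ofReal (ℓ * (closedBall c (2 * r)).indicator (fun _ => 2 / r) z) ≤
      ENNReal.ofReal (4 * Real.pi * (ℓ ^ 2 + r ^ 2)) := by
  have h1 : ∀ z, ENNReal.ofReal (ℓ * (closedBall c (2 * r)).indicator (fun _ => 2 / r) z) =
      (closedBall c (2 * r)).indicator (fun _ => ENNReal.ofReal (ℓ * (2 / r))) z := by
    intro z
    by_cases hz : z ∈ closedBall c (2 * r)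
    · rw [indicator_of_mem hz, indicator_of_mem hz]
    · rw [indicator_of_notMem hz, indicator_of_notMem hz, mul_zero, ENNReal.ofReal_zero]
  simp only [h1]
  rw [lintegral_indicator measurableSet_closedBall, setLIntegral_const, Complex.volume_closedBall,
    ← ENNReal.ofReal_pow (by positivity), ← ENNReal.ofReal_coe_nnreal, NNReal.coe_real_pi,
    ← ENNReal.ofReal_mul (by positivity), ← ENNReal.ofReal_mul (by positivity)]
  refine ENNReal.ofReal_le_ofReal ?_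
  have e : ℓ * (2 / r) * ((2 * r) ^ 2 * Real.pi) = 4 * Real.pi * (2 * ℓ * r) := by
    field_simp
    ring
  rw [e]
  have := Real.pi_pos
  exact mul_le_mul_of_nonneg_left (two_mul_le_add_sq ℓ r) (by positivity)

/-- `L¹` norm of a point term -/
theorem pt_one {c : ℂ} {ρ ℓ δ : ℝ} {g : ℂ → ℝ} (hρ0 : 0 ≤ ρ) (hρ : ρ ≤ δ) (hδ : δ ≤ 1)
    (hg : Measurable g) (hgT : ∀ z ∉ closedBall c ρ, g z = 0)
    (h2 : ∫⁻ z, ENNReal.ofReal (g z ^ 2) ≤ ENNReal.ofReal δ) :
    ∫⁻ z, ENNReal.ofReal (ℓ * g z) ≤ ENNReal.ofReal ((4 + ℓ ^ 2) * δ) := by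
  have hδ0 : 0 ≤ δ := hρ0.trans hρ
  have h1 : ∀ z, ENNReal.ofReal (ℓ * g z) ≤ (closedBall c ρ).indicator (fun _ => (1 : ℝ≥0∞)) z +
      ENNReal.ofReal (ℓ ^ 2) * ENNReal.ofReal (g z ^ 2) := by
    intro z
    by_cases hz : z ∈ closedBall c ρ
    · rw [indicator_of_mem hz, ← ENNReal.ofReal_mul (sq_nonneg _), ← ENNReal.ofReal_one,
        ← ENNReal.ofReal_add zero_le_one (by positivity)]
      refine ENNReal.ofReal_le_ofReal ?_
      nlinarith [sq_nonneg (ℓ * g z - 1), sq_nonneg (ℓ * g z)]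
    · rw [hgT z hz, mul_zero, ENNReal.ofReal_zero]
      exact zero_le
  calc ∫⁻ z, ENNReal.ofReal (ℓ * g z)
      ≤ ∫⁻ z, ((closedBall c ρ).indicator (fun _ => (1 : ℝ≥0∞)) z +
          ENNReal.ofReal (ℓ ^ 2) * ENNReal.ofReal (g z ^ 2)) := lintegral_mono h1
    _ = volume (closedBall c ρ) + ENNReal.ofReal (ℓ ^ 2) * ∫⁻ z, ENNReal.ofReal (g z ^ 2) := by
        rw [lintegral_add_left (measurable_const.indicator measurableSet_closedBall),
          lintegral_indicator measurableSet_closedBall, setLIntegral_const, one_mul,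
          lintegral_const_mul _ (hg.pow_const 2).ennreal_ofReal]
    _ ≤ ENNReal.ofReal (4 * δ) + ENNReal.ofReal (ℓ ^ 2) * ENNReal.ofReal δ := by
        gcongr
        rw [Complex.volume_closedBall, ← ENNReal.ofReal_pow hρ0, ← ENNReal.ofReal_coe_nnreal,
          NNReal.coe_real_pi, ← ENNReal.ofReal_mul (by positivity)]
        refine ENNReal.ofReal_le_ofReal ?_
        have h3 : ρ ^ 2 ≤ δ := by nlinarith
        have := Real.pi_pos
        have h4 := Real.pi_le_four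
        nlinarith
    _ = ENNReal.ofReal ((4 + ℓ ^ 2) * δ) := by
        rw [← ENNReal.ofReal_mul (sq_nonneg _), ← ENNReal.ofReal_add (by positivity)
          (by positivity)]
        congr 1
        ring

end

end Crest.Agent.R105.Pln_897
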