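import Crest.Agent.R105.Pln5_897
import Crest.Agent.R105.Pln6_897

/-! Row 105, S0139, RED-PLAN (helper897), part 7: `PlanP`. -/

set_option autoImplicit false

open Set Filter Topology Metric MeasureTheory
open scoped ENNReal NNReal

namespace Crest.Agent.R105.Pln_897

open Crest.Agent.R105 Crest.Agent.R105.Rd_557

section

variable {U : Set ℂ} {L : ℝ} {ι : Type} {c : ι → ℂ} {r : ι → ℝ} {m R : ι → ℝ} {v : ℂ → ℝ}

/-- `PlanOut` from the data and the numbers -/
theorem planOut (D : DatR U L c r m R v) (hnull : volume (frontier U) = 0) {ε : ℝ} (hε : 0 ≤ ε)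
    (s : Finset ι) {S : Set ι} {N : ι → Set ℂ} {χ g : ι → ℂ → ℝ} {a b ρ : ι → ℝ}
    (P : PData U (big c r s) v (fun i : S => N i) (fun i : S => closedBall (c i) (ρ i))
        (fun i : S => χ i) (fun i : S => g i) (fun i : S => a i) (fun i : S => b i))
    (hcov : ∀ i, i ∉ s → closedBall (c i) (r i) ⊆ ⋃ j : S, N j)
    (hAv : ∑' i : S, volume (closedBall (c i) (ρ i)) ≤ ENNReal.ofReal ε)
    (hAL : ∀ i, closedBall (c i) (ρ i) ⊆ closedBall 0 (3 * L + 1))
    (hL1 : ∑' i : S, ∫⁻ z, ENNReal.ofReal ((b i - a i) * g i z) ≤ ENNReal.ofReal ε)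
    (hL2 : ∫⁻ z, (hE (fun i : S => g i) (fun i : S => a i) (fun i : S => b i) z) ^ 2 ≠ ∞) :
    ∃ (C0 A : Set ℂ) (h : ℂ → ℝ) (Ψ : ℂ → ℝ → ℝ), PlanOut U L v (big c r s) ε C0 A h Ψ := by
  have := D.cnt
  have hVo : IsOpen (⋃ j : S, N j) := isOpen_iUnion fun j => P.No j
  obtain ⟨hC1, hC2, hC3, -⟩ := c0_props D s hVo hcov
  set χ' : S → ℂ → ℝ := fun i => χ i with hχ'
  set g' : S → ℂ → ℝ := fun i => g i with hg'
  set a' : S → ℝ := fun i => a i with ha'
  set b' : S → ℝ := fun i => b i with hb'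
  have hm := P.measurable_hE
  have h1 : ∫⁻ z, hE g' a' b' z ≤ ENNReal.ofReal ε := by
    refine le_trans (le_of_eq ?_) hL1
    exact lintegral_tsum fun i => (((P.gm i).const_mul _).ennreal_ofReal).aemeasurable
  have h1t : ∫⁻ z, hE g' a' b' z ≠ ∞ := ne_top_of_le_ne_top ENNReal.ofReal_ne_top h1
  have hfin : ∀ᵐ z, hE g' a' b' z ≠ ∞ := by
    filter_upwards [ae_lt_top hm h1t] with z hz using hz.ne
  have hint : Integrable (hh g' a' b') :=
    integrable_toReal_of_lintegral_ne_top hm.aemeasurable h1t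
  have hvL : ∀ z ∈ U, ∃ K : ℝ≥0, ∃ t ∈ 𝓝 z, LipschitzOnWith K v t := fun z hz =>
    (D.diff.contDiffAt (D.ext.1.mem_nhds hz)).exists_lipschitzOnWith
  have hvd : ∀ z ∈ U, DifferentiableAt ℝ v z := fun z hz =>
    (D.diff.contDiffAt (D.ext.1.mem_nhds hz)).differentiableAt one_ne_zero
  have hnot : ∀ z, z ∉ big c r s → z ∉ Uᶜ \ (big c r s ∪ ⋃ j : S, N j) →
      z ∈ U ∪ ⋃ j : S, N j := by
    intro z h2 h3
    by_contra h4
    rw [mem_union, not_or] at h4
    exact h3 ⟨h4.1, fun h5 => h5.elim h2 h4.2⟩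
  refine ⟨Uᶜ \ (big c r s ∪ ⋃ j : S, N j), ⋃ i : S, closedBall (c i) (ρ i), hh g' a' b',
    G χ' a' b', ?_⟩
  constructor
  · -- mono
    intro z s t hst
    have e1 := P.cut.G_sub z t s
    have e2 : 0 ≤ ∫ x in s..t, (1 - ph χ' a' b' z x) :=
      intervalIntegral.integral_nonneg hst fun x _ => sub_nonneg.2 (P.cut.ph_le_one z x)
    rw [← e1] at e2
    exact sub_nonneg.1 e2
  · -- lip
    intro z s t hst
    have := P.cut.G_lip z t s
    rw [abs_of_nonneg (sub_nonneg.2 hst)] at this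
    exact (le_abs_self _).trans this
  · -- off
    intro z hz s
    rw [mem_iUnion, not_exists] at hz
    have := P.cut.G_sub_self (F := ∅) (z := z) (fun i _ => P.supp i z (hz i)) s
    rw [Finset.sum_empty] at this
    exact sub_eq_zero.1 (abs_nonpos_iff.1 this)
  · exact fun z => intervalIntegral.integral_same
  · exact fun s => P.measurable_G s
  · exact fun s η K hη hc e => P.cst hfin hint s hη hc e
  · exact hC1
  · rw [disjoint_left]
    exact fun z hz hzB => hz.2 (Or.inl hzB)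
  · exact hC2
  · exact hC3
  · exact P.continuousOn hvL
  · exact fun z h2 h3 => P.lipschitz hvL (hnot z h2 h3)
  · exact Eventually.of_forall fun z hz => P.fderiv_U hz (hvd z hz)
  · have hae : ∀ᵐ z : ℂ, z ∉ frontier U := by
      rw [ae_iff]
      simpa using hnull
    filter_upwards [hae] with z hz hzU hzB
    have h2 := hnot z hzB fun h3 => hz (hC3 h3)
    rcases h2 with h2 | h2
    · exact absurd h2 hzU
    · rw [mem_iUnion] at h2
      obtain ⟨j, hj⟩ := h2
      exact P.fderiv_N hj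
  · exact MeasurableSet.iUnion fun i => measurableSet_closedBall
  · exact (measure_iUnion_le _).trans hAv
  · exact iUnion_subset fun i => hAL i
  · exact P.measurable_hh
  · exact fun z => ENNReal.toReal_nonneg
  · intro z hz
    rw [mem_iUnion, not_exists] at hz
    rw [hh, PData.hE_zero fun i => P.gT i z (hz i), ENNReal.toReal_zero]
  · show ∫ z, (hE g' a' b' z).toReal ≤ ε
    rw [integral_toReal hm.aemeasurable (ae_lt_top hm h1t)]
    exact ENNReal.toReal_le_of_le_ofReal hε h1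
  · refine ⟨(P.measurable_hh.pow_const 2).aestronglyMeasurable, ?_⟩
    refine lt_of_le_of_lt (lintegral_mono fun z => ?_) hL2.lt_top
    rw [Real.enorm_eq_ofReal (sq_nonneg _),
      ENNReal.ofReal_pow (show 0 ≤ hh g' a' b' z from ENNReal.toReal_nonneg)]
    exact pow_le_pow_left' ENNReal.ofReal_toReal_le 2

end

/-- finiteness of level sets of a summable function -/
theorem finite_ge {ι : Type} {F : ι → ℝ} (hF : Summable F) {τ : ℝ} (hτ : 0 < τ) :
    {i | τ ≤ F i}.Finite := by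
  have := hF.tendsto_cofinite_zero.eventually (gt_mem_nhds hτ)
  rw [eventually_cofinite] at this
  refine this.subset fun i hi => ?_
  simpa using hi

/-- **PLAN** -/
theorem planP : PlanP := by
  classical
  intro U L ι c r m R v D hnull ε hε
  have := D.cnt
  obtain ⟨e0, he0⟩ := exists_injective_nat ι
  -- weights
  set w : ι → ℝ := fun i => (1 / 2) ^ e0 i with hwdef
  have hw0 : ∀ i, 0 < w i := fun i => by positivity
  have hw1 : ∀ i, w i ≤ 1 := fun i => pow_le_one₀ (by norm_num) (by norm_num)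
  have hws : Summable w := summable_geometric_two.comp_injective he0
  have hw2 : ∀ i, w i ^ 2 ≤ w i := fun i => by nlinarith [hw0 i, hw1 i]
  set ℓ : ι → ℝ := fun i => 2 * (R i + w i) with hℓdef
  have hℓ0 : ∀ i, 0 ≤ ℓ i := fun i => by
    have := D.R0 i
    have := hw0 i
    positivity
  have hℓs : Summable fun i => ℓ i ^ 2 := by
    refine Summable.of_nonneg_of_le (fun i => sq_nonneg _) (fun i => ?_)
      ((D.sR.mul_left 8).add (hws.mul_left 8))
    show (2 * (R i + w i)) ^ 2 ≤ 8 * R i ^ 2 + 8 * w i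
    nlinarith [sq_nonneg (R i - w i), hw2 i]
  -- the small constant
  obtain ⟨κ, hκ0, hκ1, hκε⟩ : ∃ κ : ℝ, 0 < κ ∧ κ ≤ 1 ∧ ∑' i, κ * w i ≤ ε / 2 := by
    have hW : 0 ≤ ∑' i, w i := tsum_nonneg fun i => (hw0 i).le
    refine ⟨min 1 (ε / (2 * (1 + ∑' i, w i))), by positivity, min_le_left _ _, ?_⟩
    rw [tsum_mul_left]
    calc _ ≤ (ε / (2 * (1 + ∑' i, w i))) * ∑' i, w i :=
          mul_le_mul_of_nonneg_right (min_le_right _ _) hW
      _ ≤ _ := by
        rw [div_mul_eq_mul_div, div_le_iff₀ (by positivity)]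
        nlinarith
  set δ : ι → ℝ := fun i => κ * w i ^ 2 / (4 + ℓ i ^ 2) with hδdef
  have hδ0 : ∀ i, 0 < δ i := fun i => by
    have := hw0 i
    positivity
  have hδκ : ∀ i, (4 + ℓ i ^ 2) * δ i = κ * w i ^ 2 := fun i => by
    show (4 + ℓ i ^ 2) * (κ * w i ^ 2 / (4 + ℓ i ^ 2)) = _
    field_simp
  have hκw : ∀ i, κ * w i ^ 2 ≤ κ * w i := fun i => mul_le_mul_of_nonneg_left (hw2 i) hκ0.le
  have hκw1 : ∀ i, κ * w i ^ 2 ≤ w i ^ 2 := fun i => by nlinarith [sq_nonneg (w i)]
  have hδw : ∀ i, 4 * δ i ≤ κ * w i := fun i => by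
    nlinarith [hδκ i, hκw i, mul_nonneg (sq_nonneg (ℓ i)) (hδ0 i).le]
  have hδw' : ∀ i, δ i ≤ w i := fun i => by
    nlinarith [hδw i, hδ0 i, hw0 i, mul_le_mul_of_nonneg_right hκ1 (hw0 i).le]
  have hδ1 : ∀ i, δ i ≤ 1 := fun i => (hδw' i).trans (hw1 i)
  -- the cut-offs
  have hex : ∀ i, ∃ (p ρ : ℝ) (χ g : ℂ → ℝ), r i < p ∧ 0 ≤ ρ ∧ CutAt (c i) p ρ χ g ∧
      (0 < r i → ρ = 2 * r i ∧ g = (closedBall (c i) (2 * r i)).indicator fun _ => 2 / r i) ∧
      (¬ 0 < r i → ρ ≤ δ i ∧ ∫⁻ z, ENNReal.ofReal (g z ^ 2) ≤ ENNReal.ofReal (δ i)) := by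
    intro i
    by_cases hi : 0 < r i
    · obtain ⟨χ, hχ⟩ := exists_disc (c i) hi
      exact ⟨_, _, χ, _, by linarith, by linarith, hχ, fun _ => ⟨rfl, rfl⟩,
        fun h => absurd hi h⟩
    · obtain ⟨p, ρ, χ, g, hp, hρ, hρδ, hχ, hg⟩ := exists_pt (c i) (hδ0 i)
      exact ⟨p, ρ, χ, g, lt_of_le_of_lt (not_lt.1 hi) hp, hρ.le, hχ, fun h => absurd h hi,
        fun _ => ⟨hρδ, hg⟩⟩
  choose p ρ χ g hp hρ0 hcut hdisc hpt using hex
  -- sums over the discs
  set q : ι → ℝ := fun i => 4 * Real.pi * (ℓ i ^ 2 + r i ^ 2) with hqdef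
  have hq0 : ∀ i, 0 ≤ q i := fun i => by
    have := Real.pi_pos
    positivity
  have hqs : Summable q := (hℓs.add D.sr).mul_left _
  have htail := ENNReal.tendsto_tsum_compl_atTop_zero (f := fun i => ENNReal.ofReal (q i))
    hqs.tsum_ofReal_ne_top
  obtain ⟨s1, hs1⟩ := (htail.eventually_le_const
    (ENNReal.ofReal_pos.2 (half_pos hε))).exists
  refine ⟨s1.filter fun i => 0 < r i, fun i hi => (Finset.mem_filter.1 hi).2,
    fun s hs0 hs => ?_⟩
  -- the basic estimate
  have hbasic : ∀ (S : Set ι) (F : ι → ℝ≥0∞), (∀ i ∈ S, i ∉ s) →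
      (∀ i, 0 < r i → F i ≤ ENNReal.ofReal (q i)) →
      (∀ i, ¬ 0 < r i → F i ≤ ENNReal.ofReal (κ * w i)) →
      ∑' i : S, F i ≤ ENNReal.ofReal ε := by
    intro S F hS h1 h2
    have h3 : ∀ i : S, F i ≤ ENNReal.ofReal (κ * w i) +
        {i | i ∉ s1}.indicator (fun i => ENNReal.ofReal (q i)) (i : ι) := by
      intro i
      by_cases hi : 0 < r i
      · have hi1 : (i : ι) ∉ s1 := fun h => hS i i.2 (hs0 (Finset.mem_filter.2 ⟨h, hi⟩))
        rw [indicator_of_mem (show (i : ι) ∈ {i | i ∉ s1} from hi1)]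
        exact (h1 i hi).trans le_add_self
      · exact (h2 i hi).trans le_self_add
    calc ∑' i : S, F i ≤ ∑' i : S, (ENNReal.ofReal (κ * w i) +
          {i | i ∉ s1}.indicator (fun i => ENNReal.ofReal (q i)) (i : ι)) :=
          ENNReal.tsum_le_tsum h3
      _ ≤ ∑' i : ι, (ENNReal.ofReal (κ * w i) +
          {i | i ∉ s1}.indicator (fun i => ENNReal.ofReal (q i)) i) :=
          ENNReal.tsum_comp_le_tsum_of_injective Subtype.val_injective _
      _ = ∑' i : ι, ENNReal.ofReal (κ * w i) +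
          ∑' i : {i | i ∉ s1}, ENNReal.ofReal (q i) := by
          rw [ENNReal.tsum_add, tsum_subtype {i | i ∉ s1} fun i => ENNReal.ofReal (q i)]
      _ ≤ ENNReal.ofReal (ε / 2) + ENNReal.ofReal (ε / 2) := by
          refine add_le_add ?_ hs1
          rw [← ENNReal.ofReal_tsum_of_nonneg (fun i => by have := hw0 i; positivity)
            (hws.mul_left κ)]
          exact ENNReal.ofReal_le_ofReal hκε
      _ = ENNReal.ofReal ε := by
          rw [← ENNReal.ofReal_add (by positivity) (by positivity), add_halves]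
  -- finiteness
  have hfin : ∀ η > 0, {i | η ≤ ρ i ∨ η ≤ R i + w i}.Finite := by
    intro η hη
    have hsum : Summable fun i => r i ^ 2 + R i ^ 2 + w i := (D.sr.add D.sR).add hws
    refine (finite_ge hsum (τ := min (η ^ 2 / 4) (η / 2)) (by positivity)).subset ?_
    rintro i (hi | hi)
    · show min (η ^ 2 / 4) (η / 2) ≤ r i ^ 2 + R i ^ 2 + w i
      by_cases hr : 0 < r i
      · rw [(hdisc i hr).1] at hi
        refine (min_le_left _ _).trans ?_
        nlinarith [sq_nonneg (R i), hw0 i]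
      · have := (hpt i hr).1
        refine (min_le_right _ _).trans ?_
        nlinarith [sq_nonneg (R i), hw0 i, sq_nonneg (r i), hδw' i]
    · show min (η ^ 2 / 4) (η / 2) ≤ r i ^ 2 + R i ^ 2 + w i
      by_cases hR : η / 2 ≤ R i
      · refine (min_le_left _ _).trans ?_
        nlinarith [sq_nonneg (r i), hw0 i]
      · refine (min_le_right _ _).trans ?_
        nlinarith [sq_nonneg (R i), hw0 i, sq_nonneg (r i)]
  obtain ⟨S, N, hSs, P, hcov⟩ := exists_pdata D s hw0 hp hcut hfin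
  have hlen : ∀ i, (m i + R i + w i) - (m i - R i - w i) = ℓ i := fun i => by
    show _ = 2 * (R i + w i)
    ring
  refine planOut (a := fun i => m i - R i - w i) (b := fun i => m i + R i + w i) D hnull hε.le s
    P hcov ?_ ?_ ?_ ?_
  · -- volume
    refine hbasic S (fun i => volume (closedBall (c i) (ρ i))) hSs (fun i hi => ?_)
      fun i hi => ?_
    · show volume (closedBall (c i) (ρ i)) ≤ ENNReal.ofReal (4 * Real.pi * (ℓ i ^ 2 + r i ^ 2))
      rw [(hdisc i hi).1, Complex.volume_closedBall, ← ENNReal.ofReal_pow (by positivity),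
        ← ENNReal.ofReal_coe_nnreal, NNReal.coe_real_pi, ← ENNReal.ofReal_mul (by positivity)]
      refine ENNReal.ofReal_le_ofReal ?_
      have := mul_nonneg Real.pi_pos.le (sq_nonneg (ℓ i))
      nlinarith
    · show volume (closedBall (c i) (ρ i)) ≤ ENNReal.ofReal (κ * w i)
      rw [Complex.volume_closedBall, ← ENNReal.ofReal_pow (hρ0 i),
        ← ENNReal.ofReal_coe_nnreal, NNReal.coe_real_pi, ← ENNReal.ofReal_mul (by positivity)]
      refine ENNReal.ofReal_le_ofReal ?_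
      have h3 : ρ i ^ 2 ≤ δ i := by nlinarith [hρ0 i, (hpt i hi).1, hδ1 i]
      nlinarith [Real.pi_pos, Real.pi_le_four, hδw i, hδ0 i]
  · -- the ball
    intro i z hz
    rw [mem_closedBall_zero_iff]
    rw [mem_closedBall, dist_eq_norm] at hz
    have hcL : ∀ y ∈ closedBall (c i) (r i), ‖y‖ ≤ L := fun y hy => by
      have := D.hL (ball_sub D i hy)
      rwa [mem_closedBall_zero_iff] at this
    have hc := hcL _ (c_mem D i)
    have hzc : ‖z‖ ≤ ‖z - c i‖ + ‖c i‖ := by simpa using norm_add_le (z - c i) (c i)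
    have hL0 : 0 ≤ L := (norm_nonneg _).trans hc
    by_cases hr : 0 < r i
    · rw [(hdisc i hr).1] at hz
      have h1 := hcL (c i + (r i : ℂ)) (by
        rw [mem_closedBall, dist_eq_norm, add_sub_cancel_left, Complex.norm_real,
          Real.norm_eq_abs, abs_of_pos hr])
      have h2 := hcL (c i - (r i : ℂ)) (by
        rw [mem_closedBall, dist_eq_norm, sub_sub_cancel_left, norm_neg, Complex.norm_real,
          Real.norm_eq_abs, abs_of_pos hr])
      have h3 : ‖(c i + (r i : ℂ)) - (c i - (r i : ℂ))‖ = 2 * r i := by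
        rw [show (c i + (r i : ℂ)) - (c i - (r i : ℂ)) = ((2 * r i : ℝ) : ℂ) by push_cast; ring,
          Complex.norm_real, Real.norm_eq_abs, abs_of_pos (by positivity)]
      have h4 := norm_sub_le (c i + (r i : ℂ)) (c i - (r i : ℂ))
      linarith
    · have := (hpt i hr).1
      have := hδ1 i
      linarith
  · -- `L¹`
    simp only [hlen]
    refine hbasic S (fun i => ∫⁻ z, ENNReal.ofReal (ℓ i * g i z)) hSs (fun i hi => ?_)
      fun i hi => ?_
    · show ∫⁻ z, ENNReal.ofReal (ℓ i * g i z) ≤ _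
      rw [(hdisc i hi).2]
      exact disc_one (c i) hi (hℓ0 i)
    · refine (pt_one (hρ0 i) (hpt i hi).1 (hδ1 i) (hcut i).gm (hcut i).gT (hpt i hi).2).trans ?_
      rw [hδκ]
      exact ENNReal.ofReal_le_ofReal (hκw i)
  · -- `L²`
    have h1 := all_sq (c := c) (r := r) (ℓ := ℓ) (w := w) (g := g) D.disj
      (fun i => (hcut i).gm) hℓ0 hℓs (fun i => (hcut i).g0) hw0 hws (fun i hi => (hdisc i hi).2)
      (fun i hi => by
        have e1 : ∀ z, ENNReal.ofReal ((ℓ i * g i z) ^ 2) =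
            ENNReal.ofReal (ℓ i ^ 2) * ENNReal.ofReal (g i z ^ 2) := fun z => by
          rw [← ENNReal.ofReal_mul (sq_nonneg _), mul_pow]
        simp only [e1]
        rw [lintegral_const_mul _ ((hcut i).gm.pow_const 2).ennreal_ofReal]
        refine (mul_le_mul' le_rfl (hpt i hi).2).trans ?_
        rw [← ENNReal.ofReal_mul (sq_nonneg _)]
        refine ENNReal.ofReal_le_ofReal ?_
        nlinarith [hδκ i, hκw1 i, hδ0 i])
    refine ne_top_of_le_ne_top h1 (lintegral_mono fun z => ?_)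
    refine pow_le_pow_left' ?_ 2
    show ∑' i : S, ENNReal.ofReal (((m i + R i + w i) - (m i - R i - w i)) * g i z) ≤ _
    simp only [hlen]
    exact ENNReal.tsum_comp_le_tsum_of_injective Subtype.val_injective
      (fun i => ENNReal.ofReal (ℓ i * g i z))

end Crest.Agent.R105.Pln_897
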