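import Mathlib

/-!
Row 105, S0139, last step (RED-END), part 1: smooth radial cut-offs and the boundary term over a
thin shell, without line integrals.
-/

set_option autoImplicit false

open Set Filter MeasureTheory Metric
open scoped Topology ComplexConjugate

namespace Crest.Agent.R105.Rend_256

/-- radial smooth cut-off: `1` for `‖z - c‖ ≤ a`, `0` for `b ≤ ‖z - c‖` -/
noncomputable def bmp (c : ℂ) (a b : ℝ) (z : ℂ) : ℝ :=
  Real.smoothTransition ((b ^ 2 - ‖z - c‖ ^ 2) / (b ^ 2 - a ^ 2))

/-- the density of the gradient of `bmp` -/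
noncomputable def dns (c : ℂ) (a b : ℝ) (z : ℂ) : ℝ :=
  2 * deriv Real.smoothTransition ((b ^ 2 - ‖z - c‖ ^ 2) / (b ^ 2 - a ^ 2)) / (b ^ 2 - a ^ 2)

section

variable {c : ℂ} {a b : ℝ}

theorem bmp_nonneg (z : ℂ) : 0 ≤ bmp c a b z := Real.smoothTransition.nonneg _

theorem bmp_le_one (z : ℂ) : bmp c a b z ≤ 1 := Real.smoothTransition.le_one _

theorem sq_sub_pos (ha : 0 < a) (hab : a < b) : 0 < b ^ 2 - a ^ 2 := by nlinarith

theorem bmp_eq_one (ha : 0 < a) (hab : a < b) {z : ℂ} (hz : ‖z - c‖ ≤ a) : bmp c a b z = 1 := by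
  refine Real.smoothTransition.one_of_one_le ?_
  rw [one_le_div (sq_sub_pos ha hab)]
  have := norm_nonneg (z - c)
  nlinarith

theorem bmp_eq_zero (ha : 0 < a) (hab : a < b) {z : ℂ} (hz : b ≤ ‖z - c‖) : bmp c a b z = 0 := by
  refine Real.smoothTransition.zero_of_nonpos ?_
  have h1 : b ^ 2 - ‖z - c‖ ^ 2 ≤ 0 := by
    have := norm_nonneg (z - c)
    nlinarith
  exact div_nonpos_of_nonpos_of_nonneg h1 (sq_sub_pos ha hab).le

theorem contDiff_bmp {n : ℕ∞} : ContDiff ℝ n (bmp c a b) := by
  unfold bmp
  refine Real.smoothTransition.contDiff.comp ?_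
  refine ContDiff.div_const ?_ _
  refine contDiff_const.sub ?_
  exact (contDiff_id.sub contDiff_const).norm_sq ℝ

theorem hasCompactSupport_bmp (ha : 0 < a) (hab : a < b) : HasCompactSupport (bmp c a b) := by
  refine HasCompactSupport.of_support_subset_isCompact (isCompact_closedBall c b) ?_
  intro z hz
  rw [mem_closedBall, dist_eq_norm]
  by_contra h
  push Not at h
  exact hz (bmp_eq_zero ha hab h.le)

theorem hasFDerivAt_bmp (z : ℂ) :
    HasFDerivAt (bmp c a b) (-(dns c a b z) • (innerSL ℝ (z - c) : ℂ →L[ℝ] ℝ)) z := by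
  have h1 : HasFDerivAt (fun z : ℂ => ‖z - c‖ ^ 2) (2 • (innerSL ℝ (z - c) : ℂ →L[ℝ] ℝ)) z := by
    have := ((hasFDerivAt_id (𝕜 := ℝ) z).sub_const c).norm_sq
    simpa using this
  have h2 : HasFDerivAt (fun z : ℂ => (b ^ 2 - ‖z - c‖ ^ 2) / (b ^ 2 - a ^ 2))
      ((-(2 / (b ^ 2 - a ^ 2))) • (innerSL ℝ (z - c) : ℂ →L[ℝ] ℝ)) z := by
    have h3 := (h1.const_sub (b ^ 2)).mul_const ((b ^ 2 - a ^ 2)⁻¹)
    have h3' : (b ^ 2 - a ^ 2)⁻¹ • -(2 • (innerSL ℝ (z - c) : ℂ →L[ℝ] ℝ)) =
        (-(2 / (b ^ 2 - a ^ 2))) • (innerSL ℝ (z - c) : ℂ →L[ℝ] ℝ) := by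
      rw [← Nat.cast_smul_eq_nsmul ℝ, smul_neg, smul_smul, ← neg_smul]
      congr 1
      push_cast
      ring
    rw [← h3']
    simpa only [div_eq_mul_inv] using h3
  have h4 : HasDerivAt Real.smoothTransition
      (deriv Real.smoothTransition ((b ^ 2 - ‖z - c‖ ^ 2) / (b ^ 2 - a ^ 2)))
      ((b ^ 2 - ‖z - c‖ ^ 2) / (b ^ 2 - a ^ 2)) :=
    ((Real.smoothTransition.contDiff (n := 1)).differentiable (by norm_num) _).hasDerivAt
  have h5 := h4.comp_hasFDerivAt z h2
  rw [smul_smul] at h5
  have h6 : deriv Real.smoothTransition ((b ^ 2 - ‖z - c‖ ^ 2) / (b ^ 2 - a ^ 2)) *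
      -(2 / (b ^ 2 - a ^ 2)) = -(dns c a b z) := by
    unfold dns
    ring
  rw [h6] at h5
  exact h5

theorem fderiv_bmp_apply (z v : ℂ) :
    fderiv ℝ (bmp c a b) z v = -(dns c a b z) * inner ℝ (z - c) v := by
  rw [(hasFDerivAt_bmp z).fderiv]
  rfl

theorem dns_nonneg (ha : 0 < a) (hab : a < b) (z : ℂ) : 0 ≤ dns c a b z := by
  unfold dns
  have h1 := sq_sub_pos ha hab
  have h2 : 0 ≤ deriv Real.smoothTransition ((b ^ 2 - ‖z - c‖ ^ 2) / (b ^ 2 - a ^ 2)) :=
    Real.smoothTransition.monotone.deriv_nonneg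
  positivity

theorem dns_inner (ha : 0 < a) (hab : a < b) {z : ℂ} (hz : ‖z - c‖ < a ∨ b < ‖z - c‖) (v : ℂ) :
    dns c a b z * inner ℝ (z - c) v = 0 := by
  have h1 : fderiv ℝ (bmp c a b) z = 0 := by
    rcases hz with hz | hz
    · have : bmp c a b =ᶠ[𝓝 z] fun _ => (1 : ℝ) := by
        have ho : IsOpen {z : ℂ | ‖z - c‖ < a} := isOpen_lt (by fun_prop) continuous_const
        filter_upwards [ho.mem_nhds hz] with w hw
        exact bmp_eq_one ha hab (le_of_lt hw)
      rw [this.fderiv_eq]
      simp
    · have : bmp c a b =ᶠ[𝓝 z] fun _ => (0 : ℝ) := by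
        have ho : IsOpen {z : ℂ | b < ‖z - c‖} := isOpen_lt continuous_const (by fun_prop)
        filter_upwards [ho.mem_nhds hz] with w hw
        exact bmp_eq_zero ha hab (le_of_lt hw)
      rw [this.fderiv_eq]
      simp
  have h2 := fderiv_bmp_apply (c := c) (a := a) (b := b) z v
  rw [h1, _root_.zero_apply] at h2
  linarith

theorem dns_sq (ha : 0 < a) (hab : a < b) {z : ℂ} (hz : ‖z - c‖ < a ∨ b < ‖z - c‖) :
    dns c a b z * ‖z - c‖ ^ 2 = 0 := by
  have := dns_inner ha hab hz (z - c)
  rwa [real_inner_self_eq_norm_sq] at this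

end

/-- the integral of a directional derivative of a compactly supported function vanishes -/
theorem integral_fderiv_eq_zero {Ψ : ℂ → ℝ} (hΨ : ContDiff ℝ 1 Ψ) (hc : HasCompactSupport Ψ)
    (v : ℂ) : ∫ ζ, fderiv ℝ Ψ ζ v = 0 := by
  have hd : Continuous (fun ζ => fderiv ℝ Ψ ζ v) :=
    (hΨ.continuous_fderiv (by norm_num)).clm_apply continuous_const
  have hcd : HasCompactSupport (fun ζ => fderiv ℝ Ψ ζ v) := by
    refine (hc.fderiv (𝕜 := ℝ)).mono ?_
    intro x hx
    simp only [Function.mem_support] at hx ⊢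
    intro h0
    exact hx (by rw [h0]; simp)
  have h := integral_mul_fderiv_eq_neg_fderiv_mul_of_integrable (μ := (volume : Measure ℂ))
    (f := fun _ : ℂ => (1 : ℝ)) (g := Ψ) (v := v) ?_ ?_ ?_ ?_ ?_
  · simpa using h
  · simp
  · simpa using hd.integrable_of_hasCompactSupport hcd
  · simpa using hΨ.continuous.integrable_of_hasCompactSupport hc
  · intro x _
    fun_prop
  · intro x _
    exact (hΨ.differentiable (by norm_num)) x

section

variable {c : ℂ} {a b : ℝ}

theorem continuous_dns : Continuous (dns c a b) := by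
  unfold dns
  have h1 : Continuous (deriv Real.smoothTransition) :=
    (Real.smoothTransition.contDiff (n := 1)).continuous_deriv (by norm_num)
  have h2 : Continuous (fun z : ℂ => (b ^ 2 - ‖z - c‖ ^ 2) / (b ^ 2 - a ^ 2)) :=
    (continuous_const.sub ((continuous_id.sub continuous_const).norm.pow 2)).div_const _
  exact (continuous_const.mul (h1.comp h2)).div_const _

theorem integrable_bmp (ha : 0 < a) (hab : a < b) : Integrable (bmp c a b) :=
  (contDiff_bmp (n := 1)).continuous.integrable_of_hasCompactSupport (hasCompactSupport_bmp ha hab)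

theorem volume_real_closedBall {r : ℝ} (hr : 0 ≤ r) :
    volume.real (closedBall c r) = Real.pi * r ^ 2 := by
  rw [Measure.real, Complex.volume_closedBall]
  simp only [NNReal.pi, ENNReal.toReal_mul, ENNReal.toReal_pow, ENNReal.toReal_ofReal hr]
  exact mul_comm _ _

theorem le_integral_bmp (ha : 0 < a) (hab : a < b) : Real.pi * a ^ 2 ≤ ∫ z, bmp c a b z := by
  rw [← volume_real_closedBall (c := c) ha.le]
  have h1 : volume.real (closedBall c a) = ∫ z, (closedBall c a).indicator (fun _ => (1 : ℝ)) z := by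
    rw [integral_indicator measurableSet_closedBall]
    simp
  rw [h1]
  refine integral_mono ?_ (integrable_bmp ha hab) ?_
  · rw [integrable_indicator_iff measurableSet_closedBall]
    exact integrableOn_const (measure_closedBall_lt_top.ne)
  · intro z
    by_cases hz : z ∈ closedBall c a
    · simp only [indicator_of_mem hz]
      rw [bmp_eq_one ha hab (by rwa [← dist_eq_norm])]
    · simp only [indicator_of_notMem hz]
      exact bmp_nonneg z

theorem integral_bmp_le (ha : 0 < a) (hab : a < b) : ∫ z, bmp c a b z ≤ Real.pi * b ^ 2 := by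
  rw [← volume_real_closedBall (c := c) (ha.trans hab).le]
  have h1 : volume.real (closedBall c b) = ∫ z, (closedBall c b).indicator (fun _ => (1 : ℝ)) z := by
    rw [integral_indicator measurableSet_closedBall]
    simp
  rw [h1]
  refine integral_mono (integrable_bmp ha hab) ?_ ?_
  · rw [integrable_indicator_iff measurableSet_closedBall]
    exact integrableOn_const (measure_closedBall_lt_top.ne)
  · intro z
    by_cases hz : z ∈ closedBall c b
    · simp only [indicator_of_mem hz]
      exact bmp_le_one z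
    · simp only [indicator_of_notMem hz]
      rw [mem_closedBall, dist_eq_norm, not_le] at hz
      exact (bmp_eq_zero ha hab hz.le).le

theorem integrable_dns_mul (ha : 0 < a) (hab : a < b) : Integrable (dns c a b) := by
  refine continuous_dns.integrable_of_hasCompactSupport ?_
  refine HasCompactSupport.of_support_subset_isCompact (isCompact_closedBall c b) ?_
  intro z hz
  rw [mem_closedBall, dist_eq_norm]
  by_contra h
  push Not at h
  have h1 := dns_sq ha hab (Or.inr h)
  rcases mul_eq_zero.1 h1 with h2 | h2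
  · exact hz h2
  · have := ha.trans hab
    have h3 : 0 < ‖z - c‖ := this.trans h
    have h4 : 0 < ‖z - c‖ ^ 2 := by positivity
    linarith

theorem dns_eq_zero (ha : 0 < a) (hab : a < b) {z : ℂ} (hz : ‖z - c‖ < a ∨ b < ‖z - c‖) :
    dns c a b z * ‖z - c‖ = 0 := by
  have h1 := dns_sq ha hab hz
  rcases mul_eq_zero.1 h1 with h2 | h2
  · rw [h2, zero_mul]
  · rw [pow_eq_zero_iff (by norm_num)] at h2
    rw [h2, mul_zero]

theorem integrable_dns_sq (ha : 0 < a) (hab : a < b) :
    Integrable (fun z => dns c a b z * ‖z - c‖ ^ 2) := by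
  have h : Continuous (fun z => dns c a b z * ‖z - c‖ ^ 2) :=
    continuous_dns.mul ((continuous_id.sub continuous_const).norm.pow 2)
  refine h.integrable_of_hasCompactSupport ?_
  refine HasCompactSupport.of_support_subset_isCompact (isCompact_closedBall c b) ?_
  intro z hz
  rw [mem_closedBall, dist_eq_norm]
  by_contra h
  push Not at h
  exact hz (dns_sq ha hab (Or.inr h))

/-- `∫ m |z - c|² = 2 ∫ η` -/
theorem integral_dns_sq (ha : 0 < a) (hab : a < b) :
    ∫ z, dns c a b z * ‖z - c‖ ^ 2 = 2 * ∫ z, bmp c a b z := by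
  have hre : ContDiff ℝ 1 (fun z : ℂ => bmp c a b z * (z - c).re) :=
    (contDiff_bmp (n := 1)).mul (Complex.reCLM.contDiff.comp (contDiff_id.sub contDiff_const))
  have him : ContDiff ℝ 1 (fun z : ℂ => bmp c a b z * (z - c).im) :=
    (contDiff_bmp (n := 1)).mul (Complex.imCLM.contDiff.comp (contDiff_id.sub contDiff_const))
  have h1 := integral_fderiv_eq_zero hre ((hasCompactSupport_bmp ha hab).mul_right) 1
  have h2 := integral_fderiv_eq_zero him ((hasCompactSupport_bmp ha hab).mul_right) Complex.I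
  have d0 : ∀ z, HasFDerivAt (bmp c a b) (fderiv ℝ (bmp c a b) z) z := fun z =>
    ((contDiff_bmp (n := 1)).differentiable (by norm_num) z).hasFDerivAt
  have dre : ∀ z, HasFDerivAt (fun z : ℂ => (z - c).re) Complex.reCLM z := fun z => by
    have := Complex.reCLM.hasFDerivAt (x := z - c)
    exact this.comp z ((hasFDerivAt_id z).sub_const c)
  have dim : ∀ z, HasFDerivAt (fun z : ℂ => (z - c).im) Complex.imCLM z := fun z => by
    have := Complex.imCLM.hasFDerivAt (x := z - c)
    exact this.comp z ((hasFDerivAt_id z).sub_const c)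
  have e1 : ∀ z, fderiv ℝ (fun z : ℂ => bmp c a b z * (z - c).re) z 1 =
      bmp c a b z - dns c a b z * (z - c).re ^ 2 := by
    intro z
    have := ((d0 z).mul (dre z)).fderiv
    have e : fderiv ℝ (fun z : ℂ => bmp c a b z * (z - c).re) z =
      bmp c a b z • Complex.reCLM + (z - c).re • fderiv ℝ (bmp c a b) z := this
    rw [e]
    simp only [_root_.add_apply, _root_.smul_apply, smul_eq_mul, fderiv_bmp_apply]
    simp
    ring
  have e2 : ∀ z, fderiv ℝ (fun z : ℂ => bmp c a b z * (z - c).im) z Complex.I =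
      bmp c a b z - dns c a b z * (z - c).im ^ 2 := by
    intro z
    have := ((d0 z).mul (dim z)).fderiv
    have e : fderiv ℝ (fun z : ℂ => bmp c a b z * (z - c).im) z =
      bmp c a b z • Complex.imCLM + (z - c).im • fderiv ℝ (bmp c a b) z := this
    rw [e]
    simp only [_root_.add_apply, _root_.smul_apply, smul_eq_mul, fderiv_bmp_apply]
    simp
    ring
  simp only [e1] at h1
  simp only [e2] at h2
  have hb := integrable_bmp (c := c) ha hab
  have hs := integrable_dns_sq (c := c) ha hab
  have key : ∀ z, dns c a b z * ‖z - c‖ ^ 2 =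
      2 * bmp c a b z - ((bmp c a b z - dns c a b z * (z - c).re ^ 2) +
        (bmp c a b z - dns c a b z * (z - c).im ^ 2)) := by
    intro z
    rw [← Complex.normSq_eq_norm_sq, Complex.normSq_apply]
    ring
  have hi1 : Integrable (fun z => bmp c a b z - dns c a b z * (z - c).re ^ 2) := by
    refine hb.sub ?_
    refine hs.mono' ?_ ?_
    · have h : Continuous (fun z => dns c a b z * (z - c).re ^ 2) :=
        continuous_dns.mul ((Complex.continuous_re.comp (continuous_id.sub continuous_const)).pow 2)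
      exact h.aestronglyMeasurable
    · refine ae_of_all _ fun z => ?_
      have h0 := dns_nonneg (c := c) ha hab z
      rw [Real.norm_eq_abs, abs_of_nonneg (by positivity)]
      refine mul_le_mul_of_nonneg_left ?_ h0
      rw [← Complex.normSq_eq_norm_sq, Complex.normSq_apply]
      nlinarith [sq_nonneg (z - c).im]
  have hi2 : Integrable (fun z => bmp c a b z - dns c a b z * (z - c).im ^ 2) := by
    refine hb.sub ?_
    refine hs.mono' ?_ ?_
    · have h : Continuous (fun z => dns c a b z * (z - c).im ^ 2) :=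
        continuous_dns.mul ((Complex.continuous_im.comp (continuous_id.sub continuous_const)).pow 2)
      exact h.aestronglyMeasurable
    · refine ae_of_all _ fun z => ?_
      have h0 := dns_nonneg (c := c) ha hab z
      rw [Real.norm_eq_abs, abs_of_nonneg (by positivity)]
      refine mul_le_mul_of_nonneg_left ?_ h0
      rw [← Complex.normSq_eq_norm_sq, Complex.normSq_apply]
      nlinarith [sq_nonneg (z - c).re]
  simp only [key]
  have hi12 : Integrable (fun z => (bmp c a b z - dns c a b z * (z - c).re ^ 2) +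
    (bmp c a b z - dns c a b z * (z - c).im ^ 2)) := hi1.add hi2
  rw [integral_sub (hb.const_mul 2) hi12, integral_add hi1 hi2, h1, h2,
    integral_const_mul]
  ring

/-- **the boundary term over a thin shell** -/
theorem shell {c c' : ℂ} {a b ρ : ℝ} (ha : 0 < a) (hab : a < b) {F : ℂ → ℂ}
    (hm : AEStronglyMeasurable F volume)
    (hF : ∀ z, a ≤ ‖z - c‖ → ‖z - c‖ ≤ b → ‖F z - c'‖ ≤ ρ) :
    Integrable (fun z => fderiv ℝ (bmp c a b) z (F z - z)) ∧
    2 * Real.pi * a ^ 2 - 2 * Real.pi * b ^ 2 / a * ρ ≤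
      ∫ z, fderiv ℝ (bmp c a b) z (F z - z) := by
  have hρ : 0 ≤ ρ := by
    have h := hF (c + a) (by simp [abs_of_pos ha]) (by simp [abs_of_pos ha, hab.le])
    exact (norm_nonneg _).trans h
  have hs := integrable_dns_sq (c := c) ha hab
  have hconst : Integrable (fun z => dns c a b z * inner ℝ (z - c) (c' - c)) := by
    have h : Continuous (fun z => dns c a b z * inner ℝ (z - c) (c' - c)) :=
      continuous_dns.mul ((continuous_id.sub continuous_const).inner continuous_const)
    refine h.integrable_of_hasCompactSupport ?_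
    refine HasCompactSupport.of_support_subset_isCompact (isCompact_closedBall c b) ?_
    intro z hz
    rw [mem_closedBall, dist_eq_norm]
    by_contra h
    push Not at h
    exact hz (dns_inner ha hab (Or.inr h) _)
  have hc0 : ∫ z, dns c a b z * inner ℝ (z - c) (c' - c) = 0 := by
    have h := integral_fderiv_eq_zero (contDiff_bmp (n := 1) (c := c) (a := a) (b := b))
      (hasCompactSupport_bmp ha hab) (c' - c)
    simp only [fderiv_bmp_apply, neg_mul, integral_neg, neg_eq_zero] at h
    exact h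
  have hbd : ∀ z, |dns c a b z * inner ℝ (z - c) (F z - c')| ≤
      ρ / a * (dns c a b z * ‖z - c‖ ^ 2) := by
    intro z
    have h0 := dns_nonneg (c := c) ha hab z
    by_cases hz : ‖z - c‖ < a ∨ b < ‖z - c‖
    · rw [dns_inner ha hab hz, dns_sq ha hab hz]
      simp
    · push Not at hz
      have h1 := hF z hz.1 hz.2
      have h2 : |inner ℝ (z - c) (F z - c')| ≤ ‖z - c‖ * ‖F z - c'‖ := abs_real_inner_le_norm _ _
      rw [abs_mul, abs_of_nonneg h0]
      have h3 : ‖z - c‖ * ‖F z - c'‖ ≤ ρ / a * ‖z - c‖ ^ 2 := by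
        have h4 : ‖z - c‖ * ‖F z - c'‖ ≤ ‖z - c‖ * ρ :=
          mul_le_mul_of_nonneg_left h1 (norm_nonneg _)
        have h5 : ‖z - c‖ * ρ ≤ ρ / a * ‖z - c‖ ^ 2 := by
          rw [div_mul_eq_mul_div, le_div_iff₀ ha]
          have := norm_nonneg (z - c)
          nlinarith [mul_nonneg (mul_nonneg this hρ) (sub_nonneg.2 hz.1)]
        exact h4.trans h5
      calc dns c a b z * |inner ℝ (z - c) (F z - c')| ≤
          dns c a b z * (ρ / a * ‖z - c‖ ^ 2) :=
            mul_le_mul_of_nonneg_left (h2.trans h3) h0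
        _ = _ := by ring
  have hF' : Integrable (fun z => dns c a b z * inner ℝ (z - c) (F z - c')) := by
    refine (hs.const_mul (ρ / a)).mono' ?_ (ae_of_all _ fun z => by
      rw [Real.norm_eq_abs]; exact hbd z)
    refine continuous_dns.aestronglyMeasurable.mul ?_
    exact (continuous_id.sub continuous_const).aestronglyMeasurable.inner
      (hm.sub aestronglyMeasurable_const)
  have key : ∀ z, fderiv ℝ (bmp c a b) z (F z - z) =
      dns c a b z * ‖z - c‖ ^ 2 - dns c a b z * inner ℝ (z - c) (F z - c') -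
        dns c a b z * inner ℝ (z - c) (c' - c) := by
    intro z
    rw [fderiv_bmp_apply]
    have : F z - z = (F z - c') + (c' - c) - (z - c) := by ring
    rw [this, inner_sub_right, inner_add_right, real_inner_self_eq_norm_sq]
    ring
  have hint : Integrable (fun z => fderiv ℝ (bmp c a b) z (F z - z)) := by
    simp only [key]
    exact (hs.sub hF').sub hconst
  refine ⟨hint, ?_⟩
  simp only [key]
  have hsF : Integrable (fun z => dns c a b z * ‖z - c‖ ^ 2 -
    dns c a b z * inner ℝ (z - c) (F z - c')) := hs.sub hF'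
  rw [integral_sub hsF hconst, integral_sub hs hF', hc0, sub_zero, integral_dns_sq ha hab]
  have h1 : ∫ z, dns c a b z * inner ℝ (z - c) (F z - c') ≤
      ρ / a * (2 * ∫ z, bmp c a b z) := by
    rw [← integral_dns_sq ha hab, ← integral_const_mul]
    exact integral_mono hF' (hs.const_mul _) fun z => (le_abs_self _).trans (hbd z)
  have h2 := le_integral_bmp (c := c) ha hab
  have h3 := integral_bmp_le (c := c) ha hab
  have h4 : ρ / a * (2 * ∫ z, bmp c a b z) ≤ ρ / a * (2 * (Real.pi * b ^ 2)) := by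
    refine mul_le_mul_of_nonneg_left ?_ (by positivity)
    linarith
  have h5 : ρ / a * (2 * (Real.pi * b ^ 2)) = 2 * Real.pi * b ^ 2 / a * ρ := by ring
  linarith

end

end Crest.Agent.R105.Rend_256
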