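import Mathlib
import Crest.Agent.R105.Rend1_256
import Crest.Agent.R105.Rd0_557

/-!
Row 105, S0139, FLUX, part 2: integration by parts for `η * w` from `BP`.
-/

set_option autoImplicit false

open Set Filter MeasureTheory Metric
open scoped Topology NNReal

namespace Crest.Agent.R105.Rend_256

open Crest.AnalysisR

theorem removable_mono {C E : Set ℂ} (hE : IsConformallyRemovable E) (h : C ⊆ E) :
    IsConformallyRemovable C := fun φ hφ => hE φ (hφ.mono (compl_subset_compl.2 h))

/-- a.e. differentiability of a locally Lipschitz function on a set -/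
theorem ae_diff {w : ℂ → ℝ} {S : Set ℂ}
    (hloc : ∀ z ∈ S, ∃ K : ℝ≥0, ∃ t ∈ 𝓝 z, LipschitzOnWith K w t) :
    ∀ᵐ z, z ∈ S → DifferentiableAt ℝ w z := by
  rw [ae_iff]
  refine measure_null_of_locally_null _ fun z hz => ?_
  simp only [mem_ofPred_eq, Classical.not_imp] at hz
  obtain ⟨K, t, ht, hK⟩ := hloc z hz.1
  refine ⟨interior t ∩ {a | ¬(a ∈ S → DifferentiableAt ℝ w a)}, ?_, ?_⟩
  · refine inter_mem (mem_nhdsWithin_of_mem_nhds (interior_mem_nhds.2 ht)) self_mem_nhdsWithin
  · have h := (hK.mono interior_subset).ae_differentiableWithinAt_of_mem (μ := volume)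
    rw [ae_iff] at h
    refine measure_mono_null ?_ h
    rintro x ⟨hx1, hx2⟩
    simp only [mem_ofPred_eq, Classical.not_imp] at hx2 ⊢
    refine ⟨hx1, fun h3 => hx2.2 (h3.differentiableAt (isOpen_interior.mem_nhds hx1))⟩

theorem lipschitzOn_mul {η w : ℂ → ℝ} (hη : ContDiff ℝ 1 η) {z : ℂ} {K : ℝ≥0} {t : Set ℂ}
    (ht : t ∈ 𝓝 z) (hK : LipschitzOnWith K w t) :
    ∃ K' : ℝ≥0, ∃ t' ∈ 𝓝 z, LipschitzOnWith K' (fun z => η z * w z) t' := by
  obtain ⟨K1, t1, ht1, hK1⟩ := hη.contDiffAt.exists_lipschitzOnWith (x := z)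
  -- bounded neighbourhood
  have hwc : ContinuousAt w z := (hK.continuousOn).continuousAt ht
  have hηc : ContinuousAt η z := hη.continuous.continuousAt
  have hb1 : ∀ᶠ y in 𝓝 z, |w y| < |w z| + 1 :=
    (hwc.abs.eventually_lt continuousAt_const (by simp))
  have hb2 : ∀ᶠ y in 𝓝 z, |η y| < |η z| + 1 :=
    (hηc.abs.eventually_lt continuousAt_const (by simp))
  refine ⟨Real.toNNReal ((|η z| + 1) * K + (|w z| + 1) * K1), t ∩ t1 ∩
    ({y | |w y| < |w z| + 1} ∩ {y | |η y| < |η z| + 1}),
    inter_mem (inter_mem ht ht1) (inter_mem hb1 hb2), ?_⟩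
  refine LipschitzOnWith.of_dist_le_mul fun x hx y hy => ?_
  have e1 : dist (η x * w x) (η y * w y) ≤ |η x| * dist (w x) (w y) + |w y| * dist (η x) (η y) := by
    simp only [Real.dist_eq]
    rw [← abs_mul, ← abs_mul]
    have : η x * w x - η y * w y = η x * (w x - w y) + w y * (η x - η y) := by ring
    rw [this]
    exact abs_add_le _ _
  have e2 := hK.dist_le_mul x hx.1.1 y hy.1.1
  have e3 := hK1.dist_le_mul x hx.1.2 y hy.1.2
  have e4 : |η x| ≤ |η z| + 1 := le_of_lt hx.2.2
  have e5 : |w y| ≤ |w z| + 1 := le_of_lt hy.2.1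
  have hpos : 0 ≤ (|η z| + 1) * (K : ℝ) + (|w z| + 1) * K1 := by positivity
  rw [Real.coe_toNNReal _ hpos]
  calc dist (η x * w x) (η y * w y) ≤ _ := e1
    _ ≤ (|η z| + 1) * (K * dist x y) + (|w z| + 1) * (K1 * dist x y) := by
      refine add_le_add (mul_le_mul e4 e2 dist_nonneg (by positivity))
        (mul_le_mul e5 e3 dist_nonneg (by positivity))
    _ = _ := by ring

section

variable {B C0 : Set ℂ} {w η : ℂ → ℝ}

/-- `w * g` is continuous if `w` is continuous off `B` and `g` vanishes near `B` -/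
theorem continuous_mul_of_near {X : Type*} [NormedAddCommGroup X] [NormedSpace ℝ X] {g : ℂ → X}
    (hBc : IsClosed B) (hw : ContinuousOn w Bᶜ) (hg : Continuous g)
    (hN : ∀ z ∈ B, ∀ᶠ y in 𝓝 z, g y = 0) :
    Continuous fun z => w z • g z := by
  rw [continuous_iff_continuousAt]
  intro z
  by_cases hz : z ∈ B
  · have h : (fun z => w z • g z) =ᶠ[𝓝 z] fun _ => (0 : X) := by
      filter_upwards [hN z hz] with y hy
      rw [hy, smul_zero]
    exact h.continuousAt
  · exact (hw.continuousAt (hBc.isOpen_compl.mem_nhds hz)).smul hg.continuousAt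

theorem fderiv_zero_near (hN : ∀ z ∈ B, ∀ᶠ y in 𝓝 z, η y = 0) :
    ∀ z ∈ B, ∀ᶠ y in 𝓝 z, fderiv ℝ η y = 0 := by
  intro z hz
  filter_upwards [(hN z hz).eventually_nhds] with y hy
  have : η =ᶠ[𝓝 y] fun _ => (0 : ℝ) := hy
  rw [this.fderiv_eq]
  simp

/-- **integration by parts from `BP`** -/
theorem bp_apply (hB : Rd_557.BP) (hC0 : IsCompact (C0 ∪ B)) (hCd : IsTotallyDisconnected C0)
    (hCr : IsConformallyRemovable C0) (hCv : volume C0 = 0) (hBc : IsClosed B)
    (hw : ContinuousOn w Bᶜ)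
    (hloc : ∀ z, z ∉ B → z ∉ C0 → ∃ K : ℝ≥0, ∃ t ∈ 𝓝 z, LipschitzOnWith K w t)
    (hη : ContDiff ℝ 1 η) (hηc : HasCompactSupport η)
    (hN : ∀ z ∈ B, ∀ᶠ y in 𝓝 z, η y = 0)
    (hen : IntegrableOn (fun z => ‖fderiv ℝ w z‖ ^ 2) (tsupport η)) (e : ℂ) :
    Integrable (fun z => η z * fderiv ℝ w z e) ∧ Integrable (fun z => w z * fderiv ℝ η z e) ∧
      (∫ z, η z * fderiv ℝ w z e) + ∫ z, w z * fderiv ℝ η z e = 0 := by
  have hfη : Continuous (fderiv ℝ η) := hη.continuous_fderiv (by norm_num)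
  have hfN := fderiv_zero_near hN
  -- the second function
  have hc2 : Continuous fun z => w z • fderiv ℝ η z := continuous_mul_of_near hBc hw hfη hfN
  have hs2 : HasCompactSupport fun z => w z • fderiv ℝ η z := by
    refine (hηc.fderiv (𝕜 := ℝ)).mono ?_
    intro x hx h0
    refine hx ?_
    simp only at h0 ⊢
    rw [h0, smul_zero]
  have hi2 : Integrable (fun z => w z * fderiv ℝ η z e) := by
    have h : Continuous fun z => (w z • fderiv ℝ η z) e := hc2.clm_apply continuous_const
    refine h.integrable_of_hasCompactSupport (hs2.mono ?_)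
    intro x hx h0
    refine hx ?_
    simp only at h0 ⊢
    rw [h0]
    rfl
  -- bound of η
  obtain ⟨M, hM⟩ : ∃ M : ℝ, ∀ z, |η z| ≤ M := by
    obtain ⟨M, hM⟩ := hη.continuous.bounded_above_of_compact_support hηc
    exact ⟨M, hM⟩
  have hM0 : 0 ≤ M := (abs_nonneg _).trans (hM 0)
  have hmf : Measurable (fderiv ℝ w) := measurable_fderiv ℝ w
  have hK : IsCompact (tsupport η) := hηc
  have hi0 : Integrable ((tsupport η).indicator fun z => ‖fderiv ℝ w z‖ ^ 2) := by
    rwa [integrable_indicator_iff (isClosed_tsupport η).measurableSet]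
  have hione : Integrable ((tsupport η).indicator fun _ => (1 : ℝ)) := by
    rw [integrable_indicator_iff (isClosed_tsupport η).measurableSet]
    exact integrableOn_const hK.measure_lt_top.ne
  have hi1 : Integrable (fun z => η z * fderiv ℝ w z e) := by
    refine ((hi0.add hione).const_mul (M * ‖e‖)).mono' ?_ (ae_of_all _ fun z => ?_)
    · exact hη.continuous.aestronglyMeasurable.mul
        ((hmf.apply_continuousLinearMap e).aestronglyMeasurable)
    · by_cases hz : z ∈ tsupport η
      · simp only [Pi.add_apply, indicator_of_mem hz]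
        rw [norm_mul, Real.norm_eq_abs]
        have h1 := (fderiv ℝ w z).le_opNorm e
        have h2 : ‖fderiv ℝ w z‖ ≤ ‖fderiv ℝ w z‖ ^ 2 + 1 := by
          nlinarith [sq_nonneg (‖fderiv ℝ w z‖ - 1), norm_nonneg (fderiv ℝ w z)]
        calc |η z| * ‖fderiv ℝ w z e‖ ≤ M * (‖fderiv ℝ w z‖ * ‖e‖) :=
              mul_le_mul (hM z) h1 (norm_nonneg _) hM0
          _ ≤ M * ((‖fderiv ℝ w z‖ ^ 2 + 1) * ‖e‖) := by
              refine mul_le_mul_of_nonneg_left ?_ hM0
              exact mul_le_mul_of_nonneg_right h2 (norm_nonneg _)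
          _ = _ := by ring
      · have h0 : η z = 0 := image_eq_zero_of_notMem_tsupport hz
        rw [h0, zero_mul, norm_zero]
        simp only [Pi.add_apply, indicator_of_notMem hz]
        simp
  refine ⟨hi1, hi2, ?_⟩
  -- the product
  set v : ℂ → ℝ := fun z => η z * w z with hv
  have hvc : Continuous v := by
    have := continuous_mul_of_near hBc hw hη.continuous hN
    refine this.congr fun z => ?_
    simp only [hv, smul_eq_mul]
    ring
  have hvs : HasCompactSupport v := hηc.mul_right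
  have hdis : ∀ z ∈ tsupport η, z ∉ B := fun z hz hzB =>
    (notMem_tsupport_iff_eventuallyEq.2 (hN z hzB)) hz
  have hvl : ∀ z ∉ C0 ∩ tsupport η, ∃ K : ℝ≥0, ∃ t ∈ 𝓝 z, LipschitzOnWith K v t := by
    intro z hz
    by_cases hzt : z ∈ tsupport η
    · obtain ⟨K, t, ht, hK⟩ := hloc z (hdis z hzt) fun h => hz ⟨h, hzt⟩
      exact lipschitzOn_mul hη ht hK
    · have h0 : ∀ᶠ y in 𝓝 z, η y = 0 := notMem_tsupport_iff_eventuallyEq.1 hzt
      refine ⟨0, {y | η y = 0}, h0, ?_⟩
      refine LipschitzOnWith.of_dist_le_mul fun x hx y hy => ?_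
      simp only [mem_ofPred_eq] at hx hy
      simp [hv, hx, hy]
  have hCc : IsCompact (C0 ∩ tsupport η) := by
    have h1 : C0 ∩ tsupport η = (C0 ∪ B) ∩ tsupport η := by
      ext z
      constructor
      · rintro ⟨h1, h2⟩
        exact ⟨Or.inl h1, h2⟩
      · rintro ⟨h1 | h1, h2⟩
        · exact ⟨h1, h2⟩
        · exact absurd h1 (hdis z h2)
    rw [h1]
    exact hC0.inter_right (isClosed_tsupport η)
  have hae := ae_diff (w := w) (S := (B ∪ C0)ᶜ) fun z hz => by
    rw [mem_compl_iff, mem_union, not_or] at hz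
    exact hloc z hz.1 hz.2
  have hC0' : ∀ᵐ z, z ∉ C0 := by
    rw [ae_iff]
    simpa using hCv
  have hder : ∀ᵐ z, fderiv ℝ v z = η z • fderiv ℝ w z + w z • fderiv ℝ η z := by
    filter_upwards [hae, hC0'] with z h1 h2
    by_cases hzB : z ∈ B
    · have e1 : v =ᶠ[𝓝 z] fun _ => (0 : ℝ) := by
        filter_upwards [hN z hzB] with y hy
        simp [hv, hy]
      rw [e1.fderiv_eq, (hN z hzB).self_of_nhds, (hfN z hzB).self_of_nhds]
      simp
    · have hd := h1 (by rw [mem_compl_iff, mem_union, not_or]; exact ⟨hzB, h2⟩)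
      exact ((hη.differentiable (by norm_num) z).hasFDerivAt.mul hd.hasFDerivAt).fderiv
  have hsq2 : Integrable fun z => ‖w z • fderiv ℝ η z‖ ^ 2 := by
    have h : Continuous fun z => ‖w z • fderiv ℝ η z‖ ^ 2 := hc2.norm.pow 2
    refine h.integrable_of_hasCompactSupport (hs2.mono ?_)
    intro x hx h0
    refine hx ?_
    simp only at h0 ⊢
    rw [h0]
    simp
  have hven : Integrable fun z => ‖fderiv ℝ v z‖ ^ 2 := by
    refine ((hi0.const_mul (2 * M ^ 2)).add (hsq2.const_mul 2)).mono' ?_ ?_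
    · exact ((measurable_fderiv ℝ v).norm.pow_const 2).aestronglyMeasurable
    · filter_upwards [hder] with z hz
      rw [Real.norm_eq_abs, abs_of_nonneg (by positivity), hz]
      have h1 : ‖η z • fderiv ℝ w z + w z • fderiv ℝ η z‖ ^ 2 ≤
          2 * ‖η z • fderiv ℝ w z‖ ^ 2 + 2 * ‖w z • fderiv ℝ η z‖ ^ 2 := by
        have := norm_add_le (η z • fderiv ℝ w z) (w z • fderiv ℝ η z)
        nlinarith [norm_nonneg (η z • fderiv ℝ w z + w z • fderiv ℝ η z),
          sq_nonneg (‖η z • fderiv ℝ w z‖ - ‖w z • fderiv ℝ η z‖),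
          norm_nonneg (η z • fderiv ℝ w z), norm_nonneg (w z • fderiv ℝ η z)]
      refine h1.trans ?_
      simp only [Pi.add_apply]
      refine add_le_add ?_ le_rfl
      by_cases hzt : z ∈ tsupport η
      · rw [indicator_of_mem hzt, norm_smul, mul_pow, Real.norm_eq_abs]
        have h3 : |η z| ^ 2 ≤ M ^ 2 := pow_le_pow_left₀ (abs_nonneg _) (hM z) 2
        nlinarith [sq_nonneg ‖fderiv ℝ w z‖]
      · rw [indicator_of_notMem hzt, image_eq_zero_of_notMem_tsupport hzt]
        simp
  have h := hB (C0 ∩ tsupport η) hCc (fun t ht => hCd t (ht.trans inter_subset_left))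
    (removable_mono hCr inter_subset_left) v hvc hvs hvl hven.integrableOn e
  have hC1 : ∀ᵐ z, z ∈ (C0 ∩ tsupport η)ᶜ := by
    filter_upwards [hC0'] with z hz h
    exact hz h.1
  rw [Measure.restrict_eq_self_of_ae_mem hC1] at h
  rw [← integral_add hi1 hi2, ← h]
  refine integral_congr_ae ?_
  filter_upwards [hder] with z hz
  rw [hz]
  simp

end

/-- `∫ 2η + z·∇η = 0` -/
theorem ibp_id {η : ℂ → ℝ} (hη : ContDiff ℝ 1 η) (hηc : HasCompactSupport η) :
    Integrable (fun z => fderiv ℝ η z z) ∧ ∫ z, fderiv ℝ η z z = -(2 * ∫ z, η z) := by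
  have hre : ContDiff ℝ 1 (fun z : ℂ => η z * z.re) := hη.mul Complex.reCLM.contDiff
  have him : ContDiff ℝ 1 (fun z : ℂ => η z * z.im) := hη.mul Complex.imCLM.contDiff
  have h1 := integral_fderiv_eq_zero hre (hηc.mul_right) 1
  have h2 := integral_fderiv_eq_zero him (hηc.mul_right) Complex.I
  have e1 : ∀ z, fderiv ℝ (fun z : ℂ => η z * z.re) z 1 = η z + z.re * fderiv ℝ η z 1 := by
    intro z
    have d0 : HasFDerivAt η (fderiv ℝ η z) z := (hη.differentiable (by norm_num) z).hasFDerivAt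
    have e : fderiv ℝ (fun z : ℂ => η z * z.re) z = η z • Complex.reCLM + z.re • fderiv ℝ η z :=
      (d0.mul Complex.reCLM.hasFDerivAt).fderiv
    rw [e]
    simp
  have e2 : ∀ z, fderiv ℝ (fun z : ℂ => η z * z.im) z Complex.I =
      η z + z.im * fderiv ℝ η z Complex.I := by
    intro z
    have d0 : HasFDerivAt η (fderiv ℝ η z) z := (hη.differentiable (by norm_num) z).hasFDerivAt
    have e : fderiv ℝ (fun z : ℂ => η z * z.im) z = η z • Complex.imCLM + z.im • fderiv ℝ η z :=
      (d0.mul Complex.imCLM.hasFDerivAt).fderiv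
    rw [e]
    simp
  simp only [e1] at h1
  simp only [e2] at h2
  have hi : Integrable η := hη.continuous.integrable_of_hasCompactSupport hηc
  have hfc : Continuous (fderiv ℝ η) := hη.continuous_fderiv (by norm_num)
  have hfs : HasCompactSupport (fderiv ℝ η) := hηc.fderiv (𝕜 := ℝ)
  have hg1 : Integrable (fun z : ℂ => z.re * fderiv ℝ η z 1) := by
    have h : Continuous (fun z : ℂ => z.re * fderiv ℝ η z 1) :=
      Complex.continuous_re.mul (hfc.clm_apply continuous_const)
    refine h.integrable_of_hasCompactSupport (hfs.mono ?_)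
    intro x hx h0
    refine hx ?_
    simp only at h0 ⊢
    rw [h0]
    simp
  have hg2 : Integrable (fun z : ℂ => z.im * fderiv ℝ η z Complex.I) := by
    have h : Continuous (fun z : ℂ => z.im * fderiv ℝ η z Complex.I) :=
      Complex.continuous_im.mul (hfc.clm_apply continuous_const)
    refine h.integrable_of_hasCompactSupport (hfs.mono ?_)
    intro x hx h0
    refine hx ?_
    simp only at h0 ⊢
    rw [h0]
    simp
  rw [integral_add hi hg1] at h1
  rw [integral_add hi hg2] at h2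
  have key : ∀ z : ℂ, fderiv ℝ η z z = z.re * fderiv ℝ η z 1 + z.im * fderiv ℝ η z Complex.I := by
    intro z
    have : (z : ℂ) = z.re • (1 : ℂ) + z.im • Complex.I := by
      apply Complex.ext <;> simp
    conv_lhs => rw [this]
    rw [map_add, map_smul, map_smul, smul_eq_mul, smul_eq_mul]
    simp
  constructor
  · simp only [key]
    exact hg1.add hg2
  · simp only [key]
    rw [integral_add hg1 hg2]
    linarith

end Crest.Agent.R105.Rend_256
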