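import Mathlib
import Crest.Agent.R105.Rend2_256

/-!
Row 105, S0139, FLUX, part 3: estimates for one real component of the planarised map.
-/

set_option autoImplicit false

open Set Filter MeasureTheory Metric
open scoped Topology NNReal

namespace Crest.Agent.R105.Rend_256

open Crest.AnalysisR Rd_557

section

variable {U : Set ℂ} {L : ℝ} {v : ℂ → ℝ} {B : Set ℂ} {ε : ℝ} {C0 A : Set ℂ} {h : ℂ → ℝ}
  {Ψ : ℂ → ℝ → ℝ}

theorem integrable_h (P : PlanOut U L v B ε C0 A h Ψ) : Integrable h := by
  have hA : volume A ≠ ⊤ :=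
    ((measure_mono P.AL).trans_lt measure_closedBall_lt_top).ne
  have h1 : Integrable (A.indicator fun _ => (1 : ℝ)) := by
    rw [integrable_indicator_iff P.Am]
    exact integrableOn_const hA
  refine (h1.add P.h2).mono' P.hm.aestronglyMeasurable (ae_of_all _ fun z => ?_)
  rw [Real.norm_eq_abs, abs_of_nonneg (P.h0 z)]
  by_cases hz : z ∈ A
  · simp only [Pi.add_apply, indicator_of_mem hz]
    nlinarith [sq_nonneg (h z - 1)]
  · rw [P.hA z hz]
    simp only [Pi.add_apply, indicator_of_notMem hz]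
    simp [P.hA z hz]

theorem psi_sub (P : PlanOut U L v B ε C0 A h Ψ) (z : ℂ) (s t : ℝ) :
    |Ψ z s - Ψ z t| ≤ |s - t| := by
  rcases le_total s t with hst | hst
  · have h1 := P.mono z hst
    have h2 := P.lip z s t hst
    rw [abs_sub_comm, abs_of_nonneg (by linarith), abs_sub_comm, abs_of_nonneg (by linarith)]
    exact h2
  · have h1 := P.mono z hst
    have h2 := P.lip z t s hst
    rw [abs_of_nonneg (by linarith), abs_of_nonneg (by linarith)]
    exact h2

/-- squared gradient bound -/
theorem energy (P : PlanOut U L v B ε C0 A h Ψ) (hU : IsOpen U) {g : ℂ → ℝ} {S : Set ℂ}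
    (hS : MeasurableSet S) (hSB : Disjoint S B)
    (hg : ∀ z ∈ U, ‖fderiv ℝ v z‖ ≤ g z)
    (hgi : IntegrableOn (fun z => g z ^ 2) (U ∩ S)) :
    IntegrableOn (fun z => ‖fderiv ℝ (fun z => Ψ z (v z)) z‖ ^ 2) S := by
  have h1 : IntegrableOn (U.indicator fun z => 8 * g z ^ 2) S := by
    rw [IntegrableOn, integrable_indicator_iff hU.measurableSet, IntegrableOn,
      Measure.restrict_restrict hU.measurableSet]
    exact hgi.const_mul 8
  have h2 : IntegrableOn (fun z => 2 * h z ^ 2) S := (P.h2.const_mul 2).integrableOn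
  refine Integrable.mono' (h1.add h2) ?_ ?_
  · exact ((measurable_fderiv ℝ _).norm.pow_const 2).aestronglyMeasurable
  · rw [ae_restrict_iff' hS]
    filter_upwards [P.derU, P.derC] with z h3 h4 hz
    rw [Real.norm_eq_abs, abs_of_nonneg (by positivity)]
    have hzB : z ∉ B := fun hb => hSB.le_bot ⟨hz, hb⟩
    have h0 := P.h0 z
    by_cases hzU : z ∈ U
    · have h5 := h3 hzU
      have h6 : A.indicator (fun z => ‖fderiv ℝ v z‖) z ≤ g z := by
        by_cases hzA : z ∈ A
        · rw [indicator_of_mem hzA]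
          exact hg z hzU
        · rw [indicator_of_notMem hzA]
          exact (norm_nonneg _).trans (hg z hzU)
      have h7 : ‖fderiv ℝ (fun z => Ψ z (v z)) z‖ ≤ 2 * g z + h z := by
        have := norm_sub_norm_le (fderiv ℝ (fun z => Ψ z (v z)) z) (fderiv ℝ v z)
        have := hg z hzU
        linarith
      have h8 : 0 ≤ g z := (norm_nonneg _).trans (hg z hzU)
      simp only [Pi.add_apply, indicator_of_mem hzU]
      have := norm_nonneg (fderiv ℝ (fun z => Ψ z (v z)) z)
      nlinarith [sq_nonneg (2 * g z - h z)]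
    · have h5 := h4 hzU hzB
      simp only [Pi.add_apply, indicator_of_notMem hzU]
      have := norm_nonneg (fderiv ℝ (fun z => Ψ z (v z)) z)
      nlinarith

/-- bulk estimate -/
theorem bulk (P : PlanOut U L v B ε C0 A h Ψ) (hU : IsOpen U) {g d η : ℂ → ℝ} {e : ℂ}
    (he : ‖e‖ ≤ 1) (hg : ∀ z ∈ U, ‖fderiv ℝ v z‖ ≤ g z)
    (hd : ∀ z ∈ U, fderiv ℝ v z e = d z)
    (hηB : ∀ z ∈ B, η z = 0) {M : ℝ} (hM : ∀ z, |η z| ≤ M)
    (hgA : IntegrableOn g (A ∩ U))
    (hi : Integrable (fun z => η z * fderiv ℝ (fun z => Ψ z (v z)) z e))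
    (hid : IntegrableOn (fun z => η z * d z) U) :
    ∫ z, η z * fderiv ℝ (fun z => Ψ z (v z)) z e ≤
      (∫ z in U, η z * d z) + M * ((∫ z in A ∩ U, g z) + ∫ z, h z) := by
  have hM0 : 0 ≤ M := (abs_nonneg _).trans (hM 0)
  have h1 : Integrable (U.indicator fun z => η z * d z) := by
    rwa [integrable_indicator_iff hU.measurableSet]
  have h2 : Integrable ((A ∩ U).indicator g) := by
    rwa [integrable_indicator_iff (P.Am.inter hU.measurableSet)]
  have h3 := integrable_h P
  have h23 : Integrable (fun z => M * ((A ∩ U).indicator g z + h z)) := (h2.add h3).const_mul M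
  rw [← integral_indicator hU.measurableSet, ← integral_indicator (P.Am.inter hU.measurableSet),
    ← integral_add h2 h3, ← integral_const_mul, ← integral_add h1 h23]
  refine integral_mono_ae hi (h1.add h23) ?_
  filter_upwards [P.derU, P.derC] with z h4 h5
  have h0 := P.h0 z
  by_cases hzU : z ∈ U
  · rw [indicator_of_mem hzU]
    have h6 := h4 hzU
    have h7 : A.indicator (fun z => ‖fderiv ℝ v z‖) z ≤ (A ∩ U).indicator g z := by
      by_cases hzA : z ∈ A
      · rw [indicator_of_mem hzA, indicator_of_mem (show z ∈ A ∩ U from ⟨hzA, hzU⟩)]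
        exact hg z hzU
      · rw [indicator_of_notMem hzA, indicator_of_notMem (fun h => hzA h.1)]
    have h8 : |fderiv ℝ (fun z => Ψ z (v z)) z e - d z| ≤ (A ∩ U).indicator g z + h z := by
      rw [← hd z hzU]
      have h9 := (fderiv ℝ (fun z => Ψ z (v z)) z - fderiv ℝ v z).le_opNorm e
      rw [_root_.sub_apply, Real.norm_eq_abs] at h9
      have h10 : ‖fderiv ℝ (fun z => Ψ z (v z)) z - fderiv ℝ v z‖ * ‖e‖ ≤
          ‖fderiv ℝ (fun z => Ψ z (v z)) z - fderiv ℝ v z‖ * 1 :=
        mul_le_mul_of_nonneg_left he (norm_nonneg _)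
      linarith
    have h11 : η z * (fderiv ℝ (fun z => Ψ z (v z)) z e - d z) ≤
        M * ((A ∩ U).indicator g z + h z) := by
      refine (le_abs_self _).trans ?_
      rw [abs_mul]
      exact mul_le_mul (hM z) h8 (abs_nonneg _) hM0
    linarith
  · rw [indicator_of_notMem hzU]
    by_cases hzB : z ∈ B
    · rw [hηB z hzB, indicator_of_notMem (fun h => hzU h.2)]
      simp only [zero_mul, zero_add]
      positivity
    · have h6 := h5 hzU hzB
      have h9 := (fderiv ℝ (fun z => Ψ z (v z)) z).le_opNorm e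
      rw [Real.norm_eq_abs] at h9
      have h10 : ‖fderiv ℝ (fun z => Ψ z (v z)) z‖ * ‖e‖ ≤
          ‖fderiv ℝ (fun z => Ψ z (v z)) z‖ * 1 :=
        mul_le_mul_of_nonneg_left he (norm_nonneg _)
      rw [indicator_of_notMem (fun h => hzU h.2), zero_add, zero_add]
      refine (le_abs_self _).trans ?_
      rw [abs_mul]
      exact mul_le_mul (hM z) (by linarith) (abs_nonneg _) hM0

end

end Crest.Agent.R105.Rend_256
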