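import Mathlib
import Crest.Agent.R105.Rend3_256

/-!
Row 105, S0139, FLUX, part 4: the boundary term at one disc for the planarised map.
-/

set_option autoImplicit false

open Set Filter MeasureTheory Metric
open scoped Topology NNReal

namespace Crest.Agent.R105.Rend_256

open Crest.AnalysisR Rd_557

theorem fderiv_bmp_zero {c : ℂ} {a b : ℝ} (ha : 0 < a) (hab : a < b) {z : ℂ}
    (hz : ‖z - c‖ < a ∨ b < ‖z - c‖) : ∀ᶠ y in 𝓝 z, fderiv ℝ (bmp c a b) y = 0 := by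
  have hn : Continuous fun z : ℂ => ‖z - c‖ := by fun_prop
  have ho : IsOpen {z : ℂ | ‖z - c‖ < a ∨ b < ‖z - c‖} :=
    ((isOpen_lt hn continuous_const).union (isOpen_lt continuous_const hn) :)
  filter_upwards [ho.mem_nhds hz] with y hy
  ext v
  rw [fderiv_bmp_apply, neg_mul, dns_inner ha hab hy]
  simp

theorem apply_pair (l : ℂ →L[ℝ] ℝ) (x y : ℝ) :
    l (⟨x, y⟩ : ℂ) = x * l 1 + y * l Complex.I := by
  have : (⟨x, y⟩ : ℂ) = x • (1 : ℂ) + y • Complex.I := by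
    apply Complex.ext <;> simp
  rw [this, map_add, map_smul, map_smul, smul_eq_mul, smul_eq_mul]

theorem cst_bmp {U : Set ℂ} {L : ℝ} {v : ℂ → ℝ} {B : Set ℂ} {ε : ℝ} {C0 A : Set ℂ} {h : ℂ → ℝ}
    {Ψ : ℂ → ℝ → ℝ} (P : PlanOut U L v B ε C0 A h Ψ) {c : ℂ} {a b : ℝ} (ha : 0 < a) (hab : a < b)
    (m : ℝ) {e : ℂ} (he : ‖e‖ ≤ 1) :
    -(∫ z, bmp c a b z * h z) ≤ ∫ z, Ψ z m * fderiv ℝ (bmp c a b) z e := by
  obtain ⟨K, hK⟩ := (contDiff_bmp (n := 1) (c := c) (a := a) (b := b)).lipschitzWith_of_hasCompactSupport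
    (hasCompactSupport_bmp ha hab) (by norm_num)
  have h1 := P.cst m (bmp c a b) K hK (hasCompactSupport_bmp ha hab) e
  have h2 : ∫ z, |bmp c a b z| * h z = ∫ z, bmp c a b z * h z := by
    refine integral_congr_ae (ae_of_all _ fun z => ?_)
    simp only
    rw [abs_of_nonneg (bmp_nonneg z)]
  rw [h2] at h1
  have h3 : 0 ≤ ∫ z, bmp c a b z * h z :=
    integral_nonneg fun z => mul_nonneg (bmp_nonneg z) (P.h0 z)
  have h4 := (abs_le.1 h1).1
  nlinarith [mul_le_mul_of_nonneg_right he h3]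

/-- integrability of `w ∂β` -/
theorem integrable_w {B : Set ℂ} {w : ℂ → ℝ} (hBc : IsClosed B) (hw : ContinuousOn w Bᶜ)
    {c : ℂ} {a b : ℝ} (ha : 0 < a) (hab : a < b)
    (hB : ∀ z ∈ B, ‖z - c‖ < a ∨ b < ‖z - c‖) (e : ℂ) :
    Integrable fun z => w z * fderiv ℝ (bmp c a b) z e := by
  have hfη : Continuous (fderiv ℝ (bmp c a b)) := contDiff_bmp.continuous_fderiv (n := 1)
    (by norm_num)
  have hc2 : Continuous fun z => w z • fderiv ℝ (bmp c a b) z :=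
    continuous_mul_of_near hBc hw hfη fun z hz => fderiv_bmp_zero ha hab (hB z hz)
  have h : Continuous fun z => (w z • fderiv ℝ (bmp c a b) z) e := hc2.clm_apply continuous_const
  refine h.integrable_of_hasCompactSupport ?_
  refine ((hasCompactSupport_bmp (c := c) ha hab).fderiv (𝕜 := ℝ)).mono ?_
  intro x hx h0
  refine hx ?_
  simp only at h0 ⊢
  rw [h0]
  simp

/-- **the boundary term at one disc** -/
theorem shell_pair {U : Set ℂ} {L : ℝ} {v1 v2 : ℂ → ℝ} {B : Set ℂ} {ε : ℝ} {C1 C2 A1 A2 : Set ℂ}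
    {h1 h2 : ℂ → ℝ} {Ψ1 Ψ2 : ℂ → ℝ → ℝ} (P1 : PlanOut U L v1 B ε C1 A1 h1 Ψ1)
    (P2 : PlanOut U L v2 B ε C2 A2 h2 Ψ2) (hBc : IsClosed B)
    {c : ℂ} {a b : ℝ} (ha : 0 < a) (hab : a < b)
    (hB : ∀ z ∈ B, ‖z - c‖ < a ∨ b < ‖z - c‖) {m1 m2 ρ : ℝ} (hρ : 0 ≤ ρ)
    (hv : ∀ z, a ≤ ‖z - c‖ → ‖z - c‖ ≤ b → (v1 z - m1) ^ 2 + (v2 z - m2) ^ 2 ≤ ρ ^ 2) :
    2 * Real.pi * a ^ 2 - 2 * Real.pi * b ^ 2 / a * ρ - 2 * (∫ z, bmp c a b z) -
      ((∫ z, bmp c a b z * h1 z) + ∫ z, bmp c a b z * h2 z) ≤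
      (∫ z, Ψ1 z (v1 z) * fderiv ℝ (bmp c a b) z 1) +
        ∫ z, Ψ2 z (v2 z) * fderiv ℝ (bmp c a b) z Complex.I := by
  classical
  set β := bmp c a b with hβ
  have hi1 : Integrable fun z => Ψ1 z (v1 z) * fderiv ℝ β z 1 :=
    integrable_w hBc P1.cont ha hab hB 1
  have hi2 : Integrable fun z => Ψ2 z (v2 z) * fderiv ℝ β z Complex.I :=
    integrable_w hBc P2.cont ha hab hB Complex.I
  -- off the annulus the derivative vanishes
  have hoff : ∀ z, (‖z - c‖ < a ∨ b < ‖z - c‖) → fderiv ℝ β z = 0 := fun z hz =>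
    (fderiv_bmp_zero ha hab hz).self_of_nhds
  have hmβ : ∀ e : ℂ, Continuous fun z => fderiv ℝ β z e := fun e =>
    (contDiff_bmp.continuous_fderiv (n := 1) (by norm_num)).clm_apply continuous_const
  have hsβ : ∀ e : ℂ, HasCompactSupport fun z => fderiv ℝ β z e := by
    intro e
    refine ((hasCompactSupport_bmp (c := c) ha hab).fderiv (𝕜 := ℝ)).mono ?_
    intro x hx h0
    refine hx ?_
    simp only [hβ] at h0 ⊢
    rw [h0]
    simp
  have hmw : ∀ {Ψ : ℂ → ℝ → ℝ} {v : ℂ → ℝ}, ContinuousOn (fun z => Ψ z (v z)) Bᶜ →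
      (∀ s, Measurable fun z => Ψ z s) → ∀ m : ℝ,
      AEStronglyMeasurable (Bᶜ.indicator fun z => Ψ z (v z) - Ψ z m) volume := by
    intro Ψ v hc hm m
    rw [aestronglyMeasurable_indicator_iff hBc.measurableSet.compl]
    exact (hc.aestronglyMeasurable hBc.measurableSet.compl).sub
      (hm m).aestronglyMeasurable
  -- the difference functions
  set D1 : ℂ → ℝ := Bᶜ.indicator fun z => Ψ1 z (v1 z) - Ψ1 z m1 with hD1
  set D2 : ℂ → ℝ := Bᶜ.indicator fun z => Ψ2 z (v2 z) - Ψ2 z m2 with hD2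
  have hmD1 : AEStronglyMeasurable D1 volume := hmw P1.cont P1.meas m1
  have hmD2 : AEStronglyMeasurable D2 volume := hmw P2.cont P2.meas m2
  have hBz : ∀ z, ¬(‖z - c‖ < a ∨ b < ‖z - c‖) → z ∈ Bᶜ := fun z hz hzB => hz (hB z hzB)
  have hsq : ∀ z, ¬(‖z - c‖ < a ∨ b < ‖z - c‖) → D1 z ^ 2 + D2 z ^ 2 ≤ ρ ^ 2 := by
    intro z hz
    have hz' := hBz z hz
    push Not at hz
    simp only [hD1, hD2, indicator_of_mem hz']
    have e1 : (Ψ1 z (v1 z) - Ψ1 z m1) ^ 2 ≤ (v1 z - m1) ^ 2 := sq_le_sq.2 (psi_sub P1 z _ _)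
    have e2 : (Ψ2 z (v2 z) - Ψ2 z m2) ^ 2 ≤ (v2 z - m2) ^ 2 := sq_le_sq.2 (psi_sub P2 z _ _)
    linarith [hv z hz.1 hz.2]
  have hD1le : ∀ z, ¬(‖z - c‖ < a ∨ b < ‖z - c‖) → |D1 z| ≤ ρ := fun z hz =>
    abs_le_of_sq_le_sq (by nlinarith [hsq z hz, sq_nonneg (D2 z)]) hρ
  have hD2le : ∀ z, ¬(‖z - c‖ < a ∨ b < ‖z - c‖) → |D2 z| ≤ ρ := fun z hz =>
    abs_le_of_sq_le_sq (by nlinarith [hsq z hz, sq_nonneg (D1 z)]) hρ
  have hDi : ∀ (D : ℂ → ℝ), AEStronglyMeasurable D volume →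
      (∀ z, ¬(‖z - c‖ < a ∨ b < ‖z - c‖) → |D z| ≤ ρ) → ∀ e : ℂ,
      Integrable fun z => D z * fderiv ℝ β z e := by
    intro D hD hle e
    refine ((((hmβ e).norm).integrable_of_hasCompactSupport (hsβ e).norm).const_mul ρ).mono'
      (hD.mul (hmβ e).aestronglyMeasurable) (ae_of_all _ fun z => ?_)
    by_cases hz : ‖z - c‖ < a ∨ b < ‖z - c‖
    · rw [hoff z hz]
      simp
    · rw [norm_mul]
      exact mul_le_mul_of_nonneg_right (by rw [Real.norm_eq_abs]; exact hle z hz) (norm_nonneg _)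
  have hj1 := hDi D1 hmD1 hD1le 1
  have hj2 := hDi D2 hmD2 hD2le Complex.I
  -- the frozen part
  have eq1 : ∀ z, Ψ1 z m1 * fderiv ℝ β z 1 =
      Ψ1 z (v1 z) * fderiv ℝ β z 1 - D1 z * fderiv ℝ β z 1 := by
    intro z
    by_cases hz : ‖z - c‖ < a ∨ b < ‖z - c‖
    · rw [hoff z hz]; simp
    · simp only [hD1, indicator_of_mem (hBz z hz)]
      ring
  have eq2 : ∀ z, Ψ2 z m2 * fderiv ℝ β z Complex.I =
      Ψ2 z (v2 z) * fderiv ℝ β z Complex.I - D2 z * fderiv ℝ β z Complex.I := by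
    intro z
    by_cases hz : ‖z - c‖ < a ∨ b < ‖z - c‖
    · rw [hoff z hz]; simp
    · simp only [hD2, indicator_of_mem (hBz z hz)]
      ring
  have k1 := cst_bmp P1 (c := c) ha hab m1 (e := 1) (by simp)
  have k2 := cst_bmp P2 (c := c) ha hab m2 (e := Complex.I) (by simp)
  rw [← hβ] at k1 k2
  simp only [eq1] at k1
  simp only [eq2] at k2
  rw [integral_sub hi1 hj1] at k1
  rw [integral_sub hi2 hj2] at k2
  -- the oscillating part
  set F : ℂ → ℂ := fun z => c + (⟨D1 z, D2 z⟩ : ℂ) with hF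
  have hmF : AEStronglyMeasurable F volume := by
    refine aestronglyMeasurable_const.add ?_
    have : (fun z => (⟨D1 z, D2 z⟩ : ℂ)) = fun z => (D1 z : ℂ) + (D2 z : ℂ) * Complex.I := by
      funext z
      apply Complex.ext <;> simp
    rw [this]
    exact (Complex.continuous_ofReal.comp_aestronglyMeasurable hmD1).add
      ((Complex.continuous_ofReal.comp_aestronglyMeasurable hmD2).mul_const _)
  have hFle : ∀ z, a ≤ ‖z - c‖ → ‖z - c‖ ≤ b → ‖F z - c‖ ≤ ρ := by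
    intro z hz1 hz2
    have hz : ¬(‖z - c‖ < a ∨ b < ‖z - c‖) := by
      push Not
      exact ⟨hz1, hz2⟩
    have e1 := hsq z hz
    have e2 : ‖F z - c‖ ^ 2 ≤ ρ ^ 2 := by
      rw [← Complex.normSq_eq_norm_sq, Complex.normSq_apply]
      simp only [hF, add_sub_cancel_left]
      nlinarith
    exact (abs_le_of_sq_le_sq' e2 hρ).2
  obtain ⟨s1, s2⟩ := shell (c' := c) ha hab hmF hFle
  rw [← hβ] at s1 s2
  obtain ⟨t1, t2⟩ := ibp_id (contDiff_bmp (n := 1) (c := c) (a := a) (b := b))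
    (hasCompactSupport_bmp ha hab)
  rw [← hβ] at t1 t2
  have hcz : Integrable fun z => fderiv ℝ β z c := (hmβ c).integrable_of_hasCompactSupport (hsβ c)
  have hc0 : ∫ z, fderiv ℝ β z c = 0 := integral_fderiv_eq_zero
    (contDiff_bmp (n := 1) (c := c) (a := a) (b := b)) (hasCompactSupport_bmp ha hab) c
  have eq3 : ∀ z, fderiv ℝ β z (F z - z) = D1 z * fderiv ℝ β z 1 +
      D2 z * fderiv ℝ β z Complex.I + fderiv ℝ β z c - fderiv ℝ β z z := by
    intro z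
    rw [map_sub]
    simp only [hF]
    rw [map_add, apply_pair (fderiv ℝ β z) (D1 z) (D2 z)]
    ring
  simp only [eq3] at s2
  have hj12 : Integrable fun z => D1 z * fderiv ℝ β z 1 + D2 z * fderiv ℝ β z Complex.I :=
    hj1.add hj2
  have hj12c : Integrable fun z => D1 z * fderiv ℝ β z 1 + D2 z * fderiv ℝ β z Complex.I +
    fderiv ℝ β z c := hj12.add hcz
  rw [integral_sub hj12c t1, integral_add hj12 hcz, integral_add hj1 hj2, hc0, t2] at s2
  linarith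

end Crest.Agent.R105.Rend_256
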