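import Mathlib
import Crest.Agent.R105.Rend4_256

/-!
Row 105, S0139, FLUX, part 5: the cut-off `φ - Σ β_i` and the inequality at fixed `δ`.
-/

set_option autoImplicit false

open Set Filter MeasureTheory Metric
open scoped Topology NNReal

namespace Crest.Agent.R105.Rend_256

open Crest.AnalysisR Rd_557

/-- integrability of `w ∂φ` -/
theorem integrable_wD {B : Set ℂ} {w φ : ℂ → ℝ} (hBc : IsClosed B) (hw : ContinuousOn w Bᶜ)
    (hφ : ContDiff ℝ 1 φ) (hφc : HasCompactSupport φ)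
    (hB : ∀ z ∈ B, ∀ᶠ y in 𝓝 z, fderiv ℝ φ y = 0) (e : ℂ) :
    Integrable fun z => w z * fderiv ℝ φ z e := by
  have hfη : Continuous (fderiv ℝ φ) := hφ.continuous_fderiv (by norm_num)
  have hc2 : Continuous fun z => w z • fderiv ℝ φ z := continuous_mul_of_near hBc hw hfη hB
  have h : Continuous fun z => (w z • fderiv ℝ φ z) e := hc2.clm_apply continuous_const
  refine h.integrable_of_hasCompactSupport ?_
  refine (hφc.fderiv (𝕜 := ℝ)).mono ?_
  intro x hx h0
  refine hx ?_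
  simp only at h0 ⊢
  rw [h0]
  simp

section Sum

variable {ι : Type} {c : ι → ℂ} {r : ι → ℝ} {s : Finset ι} {δ : ℝ}

/-- the sum of the radial cut-offs -/
noncomputable def sg (c : ι → ℂ) (r : ι → ℝ) (s : Finset ι) (δ : ℝ) (z : ℂ) : ℝ :=
  ∑ i ∈ s, bmp (c i) (r i + δ) (r i + 2 * δ) z

/-- hypotheses on `δ` -/
structure Sep (c : ι → ℂ) (r : ι → ℝ) (s : Finset ι) (δ : ℝ) : Prop where
  pos : 0 < δ
  rpos : ∀ i ∈ s, 0 < r i
  disj : ∀ i ∈ s, ∀ j ∈ s, i ≠ j →
    Disjoint (closedBall (c i) (r i + 2 * δ)) (closedBall (c j) (r j + 2 * δ))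

theorem Sep.a (S : Sep c r s δ) {i : ι} (hi : i ∈ s) : 0 < r i + δ := add_pos (S.rpos i hi) S.pos

theorem Sep.ab (S : Sep c r s δ) (i : ι) : r i + δ < r i + 2 * δ := by
  have := S.pos
  linarith

theorem bmp_zero_of_notMem (S : Sep c r s δ) {i : ι} (hi : i ∈ s) {z : ℂ}
    (hz : z ∉ closedBall (c i) (r i + 2 * δ)) : bmp (c i) (r i + δ) (r i + 2 * δ) z = 0 := by
  rw [mem_closedBall, dist_eq_norm, not_le] at hz
  exact bmp_eq_zero (S.a hi) (S.ab i) hz.le

theorem sg_eq (S : Sep c r s δ) {i : ι} (hi : i ∈ s) {z : ℂ}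
    (hz : z ∈ closedBall (c i) (r i + 2 * δ)) :
    sg c r s δ z = bmp (c i) (r i + δ) (r i + 2 * δ) z := by
  unfold sg
  refine Finset.sum_eq_single_of_mem i hi fun j hj hji => ?_
  exact bmp_zero_of_notMem S hj fun h => (S.disj i hi j hj hji.symm).le_bot ⟨hz, h⟩

theorem sg_eq_zero (S : Sep c r s δ) {z : ℂ}
    (hz : ∀ i ∈ s, z ∉ closedBall (c i) (r i + 2 * δ)) : sg c r s δ z = 0 :=
  Finset.sum_eq_zero fun i hi => bmp_zero_of_notMem S hi (hz i hi)

theorem sg_nonneg (z : ℂ) : 0 ≤ sg c r s δ z := Finset.sum_nonneg fun _ _ => bmp_nonneg z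

theorem sg_le_one (S : Sep c r s δ) (z : ℂ) : sg c r s δ z ≤ 1 := by
  by_cases h : ∀ i ∈ s, z ∉ closedBall (c i) (r i + 2 * δ)
  · rw [sg_eq_zero S h]
    exact zero_le_one
  · push Not at h
    obtain ⟨i, hi, hz⟩ := h
    rw [sg_eq S hi hz]
    exact bmp_le_one z

theorem sg_near (S : Sep c r s δ) {z : ℂ} (hz : z ∈ big c r s) : ∀ᶠ y in 𝓝 z, sg c r s δ y = 1 := by
  simp only [big, mem_iUnion, exists_prop] at hz
  obtain ⟨i, hi, hz⟩ := hz
  have hp := S.pos
  have h1 : z ∈ ball (c i) (r i + δ) := by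
    rw [mem_ball]
    rw [mem_closedBall] at hz
    linarith
  filter_upwards [isOpen_ball.mem_nhds h1] with y hy
  rw [mem_ball] at hy
  rw [sg_eq S hi (by rw [mem_closedBall]; linarith)]
  exact bmp_eq_one (S.a hi) (S.ab i) (by rw [← dist_eq_norm]; exact hy.le)

theorem contDiff_sg : ContDiff ℝ 1 (sg c r s δ) := by
  unfold sg
  exact ContDiff.sum fun i _ => contDiff_bmp (n := 1)

theorem bmp_fderiv_near (S : Sep c r s δ) {i : ι} (hi : i ∈ s) {z : ℂ} (hz : z ∈ big c r s) :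
    ‖z - c i‖ < r i + δ ∨ r i + 2 * δ < ‖z - c i‖ := by
  simp only [big, mem_iUnion, exists_prop] at hz
  obtain ⟨j, hj, hz⟩ := hz
  have hp := S.pos
  by_cases hij : i = j
  · subst hij
    left
    rw [← dist_eq_norm]
    rw [mem_closedBall] at hz
    linarith
  · right
    rw [← dist_eq_norm]
    by_contra h
    push Not at h
    refine (S.disj i hi j hj hij).le_bot ⟨h, ?_⟩
    rw [mem_closedBall] at hz ⊢
    linarith

theorem isClosed_big : IsClosed (big c r s) := by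
  unfold big
  exact isClosed_biUnion_finset fun i _ => isClosed_closedBall

theorem fderiv_sg (z e : ℂ) : fderiv ℝ (sg c r s δ) z e =
    ∑ i ∈ s, fderiv ℝ (bmp (c i) (r i + δ) (r i + 2 * δ)) z e := by
  have h : HasFDerivAt (sg c r s δ)
      (∑ i ∈ s, fderiv ℝ (bmp (c i) (r i + δ) (r i + 2 * δ)) z) z := by
    unfold sg
    exact HasFDerivAt.fun_sum fun i _ =>
      ((contDiff_bmp (n := 1)).differentiable (by norm_num) z).hasFDerivAt
  rw [h.fderiv, _root_.sum_apply]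

end Sum

section Deriv

variable {U : Set ℂ} {f F : ℂ → ℂ}

theorem hasFDerivAt_F (hU : IsOpen U) (hf : DifferentiableOn ℂ f U) (hF : ∀ z ∈ U, F z = f z)
    {z : ℂ} (hz : z ∈ U) : HasFDerivAt F (deriv f z • (1 : ℂ →L[ℝ] ℂ)) z := by
  have h1 := (hf.differentiableAt (hU.mem_nhds hz)).hasDerivAt.complexToReal_fderiv
  refine h1.congr_of_eventuallyEq ?_
  filter_upwards [hU.mem_nhds hz] with y hy
  exact hF y hy

theorem fre (hU : IsOpen U) (hf : DifferentiableOn ℂ f U) (hF : ∀ z ∈ U, F z = f z)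
    {z : ℂ} (hz : z ∈ U) : fderiv ℝ (fun z => (F z).re) z 1 = (deriv f z).re ∧
      ‖fderiv ℝ (fun z => (F z).re) z‖ ≤ ‖deriv f z‖ := by
  have h2 : HasFDerivAt (fun z => (F z).re) (Complex.reCLM.comp (deriv f z • (1 : ℂ →L[ℝ] ℂ))) z :=
    Complex.reCLM.hasFDerivAt.comp z (hasFDerivAt_F hU hf hF hz)
  rw [h2.fderiv]
  refine ⟨by simp, ContinuousLinearMap.opNorm_le_bound _ (norm_nonneg _) fun w => ?_⟩
  simp only [ContinuousLinearMap.comp_apply, _root_.smul_apply, Complex.reCLM_apply,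
    one_apply_eq_self, smul_eq_mul]
  rw [← norm_mul, Real.norm_eq_abs]
  exact Complex.abs_re_le_norm _

theorem fim (hU : IsOpen U) (hf : DifferentiableOn ℂ f U) (hF : ∀ z ∈ U, F z = f z)
    {z : ℂ} (hz : z ∈ U) : fderiv ℝ (fun z => (F z).im) z Complex.I = (deriv f z).re ∧
      ‖fderiv ℝ (fun z => (F z).im) z‖ ≤ ‖deriv f z‖ := by
  have h2 : HasFDerivAt (fun z => (F z).im) (Complex.imCLM.comp (deriv f z • (1 : ℂ →L[ℝ] ℂ))) z :=
    Complex.imCLM.hasFDerivAt.comp z (hasFDerivAt_F hU hf hF hz)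
  rw [h2.fderiv]
  refine ⟨by simp, ContinuousLinearMap.opNorm_le_bound _ (norm_nonneg _) fun w => ?_⟩
  simp only [ContinuousLinearMap.comp_apply, _root_.smul_apply, Complex.imCLM_apply,
    one_apply_eq_self, smul_eq_mul]
  rw [← norm_mul, Real.norm_eq_abs]
  exact Complex.abs_im_le_norm _

/-- square integrable ⟹ integrable on bounded sets -/
theorem integrableOn_of_sq {g : ℂ → ℝ} {S : Set ℂ} (hm : Measurable g) (hg : ∀ z, 0 ≤ g z)
    (hS : volume S ≠ ⊤) (h : IntegrableOn (fun z => g z ^ 2) S) : IntegrableOn g S := by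
  have h1 : IntegrableOn (fun _ : ℂ => (1 : ℝ)) S := integrableOn_const hS
  refine Integrable.mono' (h1.add h) hm.aestronglyMeasurable (ae_of_all _ fun z => ?_)
  rw [Real.norm_eq_abs, abs_of_nonneg (hg z)]
  simp only [Pi.add_apply]
  nlinarith [sq_nonneg (g z - 1)]

end Deriv

end Crest.Agent.R105.Rend_256
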