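import Mathlib
import Crest.Agent.R105.Rend5_256

/-!
Row 105, S0139, FLUX, part 6: the inequality at fixed `s`, `δ`.
-/

set_option autoImplicit false

open Set Filter MeasureTheory Metric
open scoped Topology NNReal

namespace Crest.Agent.R105.Rend_256

open Crest.AnalysisR Rd_557

section

variable {U : Set ℂ} {f F : ℂ → ℂ} {L : ℝ} {ι : Type} {c : ι → ℂ} {r : ι → ℝ} {c' : ι → ℂ}
  {R : ι → ℝ}

set_option maxHeartbeats 1600000 in
theorem approx (hB : BP) (hr : IsConformallyRemovable (frontier U)) (D : Dat U f L c r c' R F)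
    {ε : ℝ} {s : Finset ι} {C1 A1 C2 A2 : Set ℂ} {h1 h2 : ℂ → ℝ} {Ψ1 Ψ2 : ℂ → ℝ → ℝ}
    (P1 : PlanOut U L (fun z => (F z).re) (big c r s) ε C1 A1 h1 Ψ1)
    (P2 : PlanOut U L (fun z => (F z).im) (big c r s) ε C2 A2 h2 Ψ2)
    {T : ℝ} (hT : 3 * |L| + 2 ≤ T) {φ : ℂ → ℝ} (hφ : ContDiff ℝ 1 φ) (hφc : HasCompactSupport φ)
    (hφ1 : ∀ z, ‖z‖ ≤ T → φ z = 1) {M : ℝ} (hM : ∀ z, |φ z| ≤ M) {δ : ℝ} (S : Sep c r s δ)
    (hδ : δ ≤ 1 / 2) {ρ : ι → ℝ} (hρ0 : ∀ i ∈ s, 0 ≤ ρ i)
    (hρ : ∀ i ∈ s, ∀ z, r i + δ ≤ ‖z - c i‖ → ‖z - c i‖ ≤ r i + 2 * δ → ‖F z - c' i‖ ≤ ρ i) :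
    (∑ i ∈ s, (2 * Real.pi * (r i + δ) ^ 2 -
        2 * Real.pi * (r i + 2 * δ) ^ 2 / (r i + δ) * ρ i)) -
      (M + 1) * (((∫ z in A1 ∩ U, ‖deriv f z‖) + ∫ z, h1 z) +
        ((∫ z in A2 ∩ U, ‖deriv f z‖) + ∫ z, h2 z)) -
      ((∫ z, h1 z) + ∫ z, h2 z) -
      (∫ z in U ∩ ⋃ i ∈ s, closedBall (c i) (r i + 2 * δ), 2 * (‖deriv f z‖ + 1)) ≤
    ∫ z in U, (φ z * (2 * (deriv f z - 1).re) + fderiv ℝ φ z (f z - z)) := by
  classical
  have hU : IsOpen U := D.re.ext.1
  have hUm : MeasurableSet U := hU.measurableSet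
  have habsL := abs_nonneg L
  have hLabs := le_abs_self L
  -- the discs are in the region where `φ = 1`
  have hin : ∀ i ∈ s, closedBall (c i) (r i + 2 * δ) ⊆ ball 0 T := by
    intro i hi z hz
    have h1 : closedBall (c i) (r i) ⊆ closedBall 0 L := fun w hw => D.re.hL (D.re.comp i w hw).1
    have h2 : ‖c i‖ + r i ≤ L := by
      by_cases hc : c i = 0
      · have h3 : ((r i : ℝ) : ℂ) ∈ closedBall (c i) (r i) := by
          rw [hc, mem_closedBall_zero_iff, Complex.norm_real, Real.norm_eq_abs,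
            abs_of_pos (S.rpos i hi)]
        have h4 := h1 h3
        rw [mem_closedBall_zero_iff, Complex.norm_real, Real.norm_eq_abs,
          abs_of_pos (S.rpos i hi)] at h4
        rw [hc, norm_zero]
        linarith
      · have hcn : 0 < ‖c i‖ := norm_pos_iff.2 hc
        set w : ℂ := c i + ((r i / ‖c i‖ : ℝ) : ℂ) * c i with hw
        have h3 : w ∈ closedBall (c i) (r i) := by
          rw [mem_closedBall, dist_eq_norm, hw, add_sub_cancel_left, norm_mul, Complex.norm_real,
            Real.norm_eq_abs, abs_of_pos (div_pos (S.rpos i hi) hcn)]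
          rw [div_mul_cancel₀ _ hcn.ne']
        have h4 := h1 h3
        have h5 : w = ((1 + r i / ‖c i‖ : ℝ) : ℂ) * c i := by
          rw [hw]
          push_cast
          ring
        rw [mem_closedBall_zero_iff, h5, norm_mul, Complex.norm_real, Real.norm_eq_abs,
          abs_of_pos (by have := div_pos (S.rpos i hi) hcn; linarith), add_mul, one_mul,
          div_mul_cancel₀ _ hcn.ne'] at h4
        exact h4
    rw [mem_closedBall, dist_eq_norm] at hz
    rw [mem_ball_zero_iff]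
    have h6 : ‖z‖ ≤ ‖z - c i‖ + ‖c i‖ := by
      have := norm_add_le (z - c i) (c i)
      simpa using this
    linarith
  have hφn : ∀ z, ‖z‖ < T → ∀ᶠ y in 𝓝 z, φ y = 1 := by
    intro z hz
    have ho : IsOpen {y : ℂ | ‖y‖ < T} := isOpen_lt continuous_norm continuous_const
    filter_upwards [ho.mem_nhds hz] with y hy
    exact hφ1 y (le_of_lt hy)
  have hφd : ∀ z, ‖z‖ < T → fderiv ℝ φ z = 0 := by
    intro z hz
    have : φ =ᶠ[𝓝 z] fun _ => (1 : ℝ) := hφn z hz
    rw [this.fderiv_eq]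
    simp
  have hUT : ∀ z, z ∉ U → ‖z‖ < T := by
    intro z hz
    have := D.re.hL hz
    rw [mem_closedBall_zero_iff] at this
    linarith
  have hBT : ∀ z ∈ big c r s, ‖z‖ < T := by
    intro z hz
    simp only [big, mem_iUnion, exists_prop] at hz
    obtain ⟨i, hi, hz⟩ := hz
    have h3 := hin i hi (closedBall_subset_closedBall (by linarith [S.pos]) hz)
    rwa [mem_ball_zero_iff] at h3
  -- the big radius
  obtain ⟨T', hT'⟩ : ∃ T' : ℝ, T ≤ T' ∧ ∀ z, T' < ‖z‖ → φ z = 0 := by
    obtain ⟨T1, hT1⟩ := hφc.isCompact.isBounded.subset_closedBall 0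
    refine ⟨max T T1, le_max_left _ _, fun z hz => ?_⟩
    by_contra h
    have := hT1 (subset_tsupport _ h)
    rw [mem_closedBall_zero_iff] at this
    exact absurd (le_max_right T T1) (not_le.2 (hz.trans_le this))
  set σ := sg c r s δ with hσ
  have hσc : ContDiff ℝ 1 σ := contDiff_sg
  have hσ0 : ∀ z, T ≤ ‖z‖ → σ z = 0 := fun z hz => sg_eq_zero S fun i hi h => by
    have := hin i hi h
    rw [mem_ball_zero_iff] at this
    linarith
  set η : ℂ → ℝ := fun z => φ z - σ z with hη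
  have hηc : ContDiff ℝ 1 η := hφ.sub hσc
  have hη0 : ∀ z, T' < ‖z‖ → η z = 0 := fun z hz => by
    simp only [hη]
    rw [hT'.2 z hz, hσ0 z (hT'.1.trans hz.le), sub_zero]
  have hηs : HasCompactSupport η := by
    refine HasCompactSupport.of_support_subset_isCompact (isCompact_closedBall 0 T') ?_
    intro z hz
    rw [mem_closedBall_zero_iff]
    by_contra h
    exact hz (hη0 z (not_le.1 h))
  have hηT : tsupport η ⊆ closedBall 0 T' := by
    refine closure_minimal ?_ isClosed_closedBall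
    intro z hz
    rw [mem_closedBall_zero_iff]
    by_contra h
    exact hz (hη0 z (not_le.1 h))
  have hηN : ∀ z ∈ big c r s, ∀ᶠ y in 𝓝 z, η y = 0 := by
    intro z hz
    filter_upwards [sg_near S hz, hφn z (hBT z hz)] with y hy1 hy2
    simp only [hη, hσ]
    rw [hy1, hy2, sub_self]
  have hηB : ∀ z ∈ big c r s, η z = 0 := fun z hz => (hηN z hz).self_of_nhds
  have hηM : ∀ z, |η z| ≤ M + 1 := by
    intro z
    have e1 : |η z| ≤ |φ z| + |σ z| := abs_sub _ _
    have e2 : |σ z| ≤ 1 := by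
      rw [abs_of_nonneg (sg_nonneg z)]
      exact sg_le_one S z
    linarith [hM z]
  have hdisj : Disjoint (tsupport η) (big c r s) := by
    rw [Set.disjoint_left]
    intro z hz hzB
    exact (notMem_tsupport_iff_eventuallyEq.2 (hηN z hzB)) hz
  have hBc : IsClosed (big c r s) := isClosed_big
  -- gradient data
  have hgm : Measurable fun z => ‖deriv f z‖ := (measurable_deriv f).norm
  have hre := fun z (hz : z ∈ U) => fre hU D.hf D.eq hz
  have him := fun z (hz : z ∈ U) => fim hU D.hf D.eq hz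
  have hgi : IntegrableOn (fun z => ‖deriv f z‖ ^ 2) (U ∩ tsupport η) :=
    (D.en T').mono_set (inter_subset_inter_right _ hηT)
  have hg1 : ∀ t : ℝ, IntegrableOn (fun z => ‖deriv f z‖) (U ∩ closedBall 0 t) := fun t =>
    integrableOn_of_sq hgm (fun _ => norm_nonneg _)
      ((measure_mono inter_subset_right).trans_lt measure_closedBall_lt_top).ne (D.en t)
  have hen1 := energy P1 hU (isClosed_tsupport η).measurableSet hdisj (fun z hz => (hre z hz).2) hgi
  have hen2 := energy P2 hU (isClosed_tsupport η).measurableSet hdisj (fun z hz => (him z hz).2) hgi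
  obtain ⟨a1, b1, i1⟩ := bp_apply hB P1.C0c P1.C0d (removable_mono hr P1.C0f)
    (measure_mono_null P1.C0f D.nul) hBc P1.cont P1.loc hηc hηs hηN hen1 1
  obtain ⟨a2, b2, i2⟩ := bp_apply hB P2.C0c P2.C0d (removable_mono hr P2.C0f)
    (measure_mono_null P2.C0f D.nul) hBc P2.cont P2.loc hηc hηs hηN hen2 Complex.I
  -- integrability on `U` against compactly supported continuous functions
  have hUi : ∀ χ : ℂ → ℝ, Continuous χ → (∀ z, T' < ‖z‖ → χ z = 0) →
      (∃ M', ∀ z, |χ z| ≤ M') →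
      IntegrableOn (fun z => χ z * (deriv f z).re) U ∧ IntegrableOn χ U ∧ Integrable χ := by
    rintro χ hχ hχ0 ⟨M', hM'⟩
    have hcs : HasCompactSupport χ := by
      refine HasCompactSupport.of_support_subset_isCompact (isCompact_closedBall 0 T') ?_
      intro z hz
      rw [mem_closedBall_zero_iff]
      by_contra h
      exact hz (hχ0 z (not_le.1 h))
    have hi := hχ.integrable_of_hasCompactSupport hcs (μ := (volume : Measure ℂ))
    refine ⟨?_, hi.integrableOn, hi⟩
    have h3 : IntegrableOn ((closedBall 0 T').indicator fun z => M' * ‖deriv f z‖) U := by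
      rw [IntegrableOn, integrable_indicator_iff measurableSet_closedBall, IntegrableOn,
        Measure.restrict_restrict measurableSet_closedBall, inter_comm]
      exact (hg1 T').const_mul M'
    refine Integrable.mono' h3 ?_ (ae_of_all _ fun z => ?_)
    · exact (hχ.measurable.mul (Complex.measurable_re.comp (measurable_deriv f))).aestronglyMeasurable
    · by_cases hz : z ∈ closedBall 0 T'
      · rw [indicator_of_mem hz, norm_mul, Real.norm_eq_abs]
        exact mul_le_mul (hM' z) (Complex.abs_re_le_norm _) (norm_nonneg _)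
          ((abs_nonneg _).trans (hM' z))
      · rw [indicator_of_notMem hz]
        rw [mem_closedBall_zero_iff, not_le] at hz
        rw [hχ0 z hz]
        simp
  obtain ⟨jη1, jη2, jη3⟩ := hUi η hηc.continuous hη0 ⟨M + 1, hηM⟩
  obtain ⟨jφ1, jφ2, jφ3⟩ := hUi φ hφ.continuous hT'.2 ⟨M, hM⟩
  obtain ⟨jσ1, jσ2, jσ3⟩ := hUi σ hσc.continuous
    (fun z hz => hσ0 z (hT'.1.trans hz.le)) ⟨1, fun z => by
      rw [abs_of_nonneg (sg_nonneg z)]
      exact sg_le_one S z⟩
  -- bulk
  have hAg : ∀ {A : Set ℂ}, A ⊆ closedBall 0 (3 * L + 1) →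
      IntegrableOn (fun z => ‖deriv f z‖) (A ∩ U) := fun hA =>
    (hg1 (3 * L + 1)).mono_set fun z hz => ⟨hz.2, hA hz.1⟩
  have k1 := bulk P1 hU (d := fun z => (deriv f z).re) (e := 1) (by simp)
    (fun z hz => (hre z hz).2) (fun z hz => (hre z hz).1) hηB hηM (hAg P1.AL) a1 jη1
  have k2 := bulk P2 hU (d := fun z => (deriv f z).re) (e := Complex.I) (by simp)
    (fun z hz => (him z hz).2) (fun z hz => (him z hz).1) hηB hηM (hAg P2.AL) a2 jη1
  -- boundary terms: expansion
  have hφB : ∀ z ∈ big c r s, ∀ᶠ y in 𝓝 z, fderiv ℝ φ y = 0 := by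
    intro z hz
    have ho : IsOpen {y : ℂ | ‖y‖ < T} := isOpen_lt continuous_norm continuous_const
    filter_upwards [ho.mem_nhds (hBT z hz)] with y hy
    exact hφd y hy
  have dη : ∀ z e, fderiv ℝ η z e = fderiv ℝ φ z e -
      ∑ i ∈ s, fderiv ℝ (bmp (c i) (r i + δ) (r i + 2 * δ)) z e := by
    intro z e
    rw [← fderiv_sg]
    have : HasFDerivAt η (fderiv ℝ φ z - fderiv ℝ σ z) z :=
      (hφ.differentiable (by norm_num) z).hasFDerivAt.sub
        (hσc.differentiable (by norm_num) z).hasFDerivAt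
    rw [this.fderiv]
    rfl
  have wφ1 := integrable_wD hBc P1.cont hφ hφc hφB 1
  have wφ2 := integrable_wD hBc P2.cont hφ hφc hφB Complex.I
  have wβ1 : ∀ i ∈ s, Integrable fun z => Ψ1 z (F z).re *
      fderiv ℝ (bmp (c i) (r i + δ) (r i + 2 * δ)) z 1 := fun i hi =>
    integrable_w hBc P1.cont (S.a hi) (S.ab i) (fun z hz => bmp_fderiv_near S hi hz) 1
  have wβ2 : ∀ i ∈ s, Integrable fun z => Ψ2 z (F z).im *
      fderiv ℝ (bmp (c i) (r i + δ) (r i + 2 * δ)) z Complex.I := fun i hi =>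
    integrable_w hBc P2.cont (S.a hi) (S.ab i) (fun z hz => bmp_fderiv_near S hi hz) Complex.I
  have x1 : ∫ z, Ψ1 z (F z).re * fderiv ℝ η z 1 = (∫ z, Ψ1 z (F z).re * fderiv ℝ φ z 1) -
      ∑ i ∈ s, ∫ z, Ψ1 z (F z).re * fderiv ℝ (bmp (c i) (r i + δ) (r i + 2 * δ)) z 1 := by
    rw [← integral_finsetSum s wβ1, ← integral_sub wφ1 (integrable_finsetSum s wβ1)]
    refine integral_congr_ae (ae_of_all _ fun z => ?_)
    simp only
    rw [dη, mul_sub, Finset.mul_sum]
  have x2 : ∫ z, Ψ2 z (F z).im * fderiv ℝ η z Complex.I =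
      (∫ z, Ψ2 z (F z).im * fderiv ℝ φ z Complex.I) -
      ∑ i ∈ s, ∫ z, Ψ2 z (F z).im *
        fderiv ℝ (bmp (c i) (r i + δ) (r i + 2 * δ)) z Complex.I := by
    rw [← integral_finsetSum s wβ2, ← integral_sub wφ2 (integrable_finsetSum s wβ2)]
    refine integral_congr_ae (ae_of_all _ fun z => ?_)
    simp only
    rw [dη, mul_sub, Finset.mul_sum]
  -- far part
  obtain ⟨y1, y2⟩ := ibp_id hφ hφc
  have far : ∀ z, Ψ1 z (F z).re * fderiv ℝ φ z 1 + Ψ2 z (F z).im * fderiv ℝ φ z Complex.I -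
      fderiv ℝ φ z z = U.indicator (fun z => fderiv ℝ φ z (f z - z)) z := by
    intro z
    by_cases hz : ‖z‖ < T
    · rw [hφd z hz]
      by_cases hzU : z ∈ U
      · rw [indicator_of_mem hzU, hφd z hz]; simp
      · rw [indicator_of_notMem hzU]; simp
    · have hzU : z ∈ U := by
        by_contra h
        exact hz (hUT z h)
      have hA : ∀ {A : Set ℂ}, A ⊆ closedBall 0 (3 * L + 1) → z ∉ A := by
        intro A hA h
        have := hA h
        rw [mem_closedBall_zero_iff] at this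
        exact hz (by linarith)
      rw [indicator_of_mem hzU, P1.off z (hA P1.AL), P2.off z (hA P2.AL), D.eq z hzU, map_sub,
        ← apply_pair]
  have wφ12 : Integrable fun z => Ψ1 z (F z).re * fderiv ℝ φ z 1 +
    Ψ2 z (F z).im * fderiv ℝ φ z Complex.I := wφ1.add wφ2
  have jf : Integrable (U.indicator fun z => fderiv ℝ φ z (f z - z)) := by
    refine (wφ12.sub y1).congr (ae_of_all _ fun z => ?_)
    exact far z
  have x3 : (∫ z, Ψ1 z (F z).re * fderiv ℝ φ z 1) +
      (∫ z, Ψ2 z (F z).im * fderiv ℝ φ z Complex.I) =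
      (∫ z in U, fderiv ℝ φ z (f z - z)) - 2 * ∫ z, φ z := by
    rw [← integral_indicator hUm, ← integral_add wφ1 wφ2]
    have : ∫ z, U.indicator (fun z => fderiv ℝ φ z (f z - z)) z =
        ∫ z, (Ψ1 z (F z).re * fderiv ℝ φ z 1 + Ψ2 z (F z).im * fderiv ℝ φ z Complex.I -
          fderiv ℝ φ z z) := integral_congr_ae (ae_of_all _ fun z => (far z).symm)
    rw [this, integral_sub wφ12 y1, y2]
    ring
  -- discs
  have hβi : ∀ i ∈ s, Integrable (bmp (c i) (r i + δ) (r i + 2 * δ)) := fun i hi =>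
    integrable_bmp (S.a hi) (S.ab i)
  have hβh : ∀ {h : ℂ → ℝ}, Integrable h → ∀ i ∈ s,
      Integrable fun z => bmp (c i) (r i + δ) (r i + 2 * δ) z * h z := by
    intro h hh i hi
    refine hh.norm.mono' ((contDiff_bmp (n := 1)).continuous.aestronglyMeasurable.mul
      hh.aestronglyMeasurable) (ae_of_all _ fun z => ?_)
    rw [norm_mul, Real.norm_eq_abs, abs_of_nonneg (bmp_nonneg z)]
    exact mul_le_of_le_one_left (norm_nonneg _) (bmp_le_one z)
  have x4 : ∀ i ∈ s, 2 * Real.pi * (r i + δ) ^ 2 -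
      2 * Real.pi * (r i + 2 * δ) ^ 2 / (r i + δ) * ρ i -
      2 * (∫ z, bmp (c i) (r i + δ) (r i + 2 * δ) z) -
      ((∫ z, bmp (c i) (r i + δ) (r i + 2 * δ) z * h1 z) +
        ∫ z, bmp (c i) (r i + δ) (r i + 2 * δ) z * h2 z) ≤
      (∫ z, Ψ1 z (F z).re * fderiv ℝ (bmp (c i) (r i + δ) (r i + 2 * δ)) z 1) +
        ∫ z, Ψ2 z (F z).im * fderiv ℝ (bmp (c i) (r i + δ) (r i + 2 * δ)) z Complex.I := by
    intro i hi
    refine shell_pair P1 P2 hBc (S.a hi) (S.ab i) (fun z hz => bmp_fderiv_near S hi hz)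
      (m1 := (c' i).re) (m2 := (c' i).im) (hρ0 i hi) fun z hz1 hz2 => ?_
    have h3 := hρ i hi z hz1 hz2
    have h4 : ‖F z - c' i‖ ^ 2 ≤ ρ i ^ 2 := pow_le_pow_left₀ (norm_nonneg _) h3 2
    rw [← Complex.normSq_eq_norm_sq, Complex.normSq_apply] at h4
    simp only [Complex.sub_re, Complex.sub_im] at h4
    nlinarith
  have x5 := Finset.sum_le_sum x4
  rw [Finset.sum_sub_distrib, Finset.sum_sub_distrib, Finset.sum_add_distrib,
    Finset.sum_add_distrib, ← Finset.mul_sum, ← integral_finsetSum s hβi,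
    ← integral_finsetSum s (hβh (integrable_h P1)),
    ← integral_finsetSum s (hβh (integrable_h P2))] at x5
  have hσh : ∀ {h : ℂ → ℝ}, Integrable h → (∀ z, 0 ≤ h z) →
      ∫ z, ∑ i ∈ s, bmp (c i) (r i + δ) (r i + 2 * δ) z * h z ≤ ∫ z, h z := by
    intro h hh h0
    refine integral_mono (integrable_finsetSum s (hβh hh)) hh fun z => ?_
    simp only
    rw [← Finset.sum_mul]
    exact mul_le_of_le_one_left (h0 z) (sg_le_one S z)
  have x6 := hσh (integrable_h P1) P1.h0
  have x7 := hσh (integrable_h P2) P2.h0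
  have x8 : ∫ z, ∑ i ∈ s, bmp (c i) (r i + δ) (r i + 2 * δ) z = ∫ z, σ z := rfl
  -- positivity on the complement
  have x9 : ∫ z in U, η z ≤ (∫ z, φ z) - ∫ z, σ z := by
    rw [← integral_sub jφ3 jσ3]
    have e1 : ∫ z, (φ z - σ z) = (∫ z in U, η z) + ∫ z in Uᶜ, η z :=
      (integral_add_compl hUm jη3).symm
    rw [e1]
    have : 0 ≤ ∫ z in Uᶜ, η z := by
      refine setIntegral_nonneg hUm.compl fun z hz => ?_
      simp only [hη]
      rw [hφ1 z (hUT z hz).le]
      linarith [sg_le_one S z]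
    linarith
  -- bulk on `U`
  set E : Set ℂ := ⋃ i ∈ s, closedBall (c i) (r i + 2 * δ) with hE
  have hEm : MeasurableSet E := by
    rw [hE]
    exact Finset.measurableSet_biUnion _ fun i _ => measurableSet_closedBall
  have hEs : E ⊆ closedBall 0 T := by
    rw [hE]
    exact iUnion₂_subset fun i hi => (hin i hi).trans ball_subset_closedBall
  have jE : IntegrableOn (fun z => 2 * (‖deriv f z‖ + 1)) (U ∩ E) := by
    have h3 : IntegrableOn (fun z => ‖deriv f z‖) (U ∩ E) :=
      (hg1 T).mono_set (inter_subset_inter_right _ hEs)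
    have h4 : IntegrableOn (fun _ : ℂ => (1 : ℝ)) (U ∩ E) := integrableOn_const
      ((measure_mono (inter_subset_right.trans hEs)).trans_lt measure_closedBall_lt_top).ne
    exact (h3.add h4).const_mul 2
  have x10 : -(∫ z in U ∩ E, 2 * (‖deriv f z‖ + 1)) ≤
      2 * (∫ z in U, σ z * (deriv f z).re) - 2 * ∫ z in U, σ z := by
    rw [← integral_const_mul, ← integral_const_mul,
      ← integral_sub (jσ1.const_mul 2) (jσ2.const_mul 2), ← integral_neg,
      ← integral_indicator (hUm.inter hEm), ← integral_indicator hUm]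
    refine integral_mono ?_ ?_ fun z => ?_
    · rw [integrable_indicator_iff (hUm.inter hEm)]
      exact jE.neg
    · rw [integrable_indicator_iff hUm]
      exact (jσ1.const_mul 2).sub (jσ2.const_mul 2)
    · simp only
      by_cases hzU : z ∈ U
      · rw [indicator_of_mem hzU]
        by_cases hzE : z ∈ E
        · rw [indicator_of_mem (show z ∈ U ∩ E from ⟨hzU, hzE⟩)]
          have e1 := sg_nonneg (c := c) (r := r) (s := s) (δ := δ) z
          have e2 := sg_le_one S z
          rw [← hσ] at e1 e2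
          have e3 := neg_le_of_abs_le (Complex.abs_re_le_norm (deriv f z))
          have e4 := norm_nonneg (deriv f z)
          nlinarith [mul_nonneg e1 (show 0 ≤ (deriv f z).re + ‖deriv f z‖ by linarith),
            mul_nonneg (show 0 ≤ 1 - σ z by linarith) e4]
        · rw [indicator_of_notMem (fun h => hzE h.2)]
          have e1 : σ z = 0 := by
            refine sg_eq_zero S fun i hi h => hzE ?_
            rw [hE]
            exact mem_iUnion₂.2 ⟨i, hi, h⟩
          rw [e1]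
          simp
      · rw [indicator_of_notMem (fun h => hzU h.1), indicator_of_notMem hzU]
  have x11 : (∫ z in U, η z * (deriv f z).re) =
      (∫ z in U, φ z * (deriv f z).re) - ∫ z in U, σ z * (deriv f z).re := by
    rw [← integral_sub jφ1 jσ1]
    refine integral_congr_ae (ae_of_all _ fun z => ?_)
    simp only [hη]
    ring
  have x12 : (∫ z in U, η z) = (∫ z in U, φ z) - ∫ z in U, σ z := by
    rw [← integral_sub jφ2 jσ2]
  have x13 : ∫ z in U, (φ z * (2 * (deriv f z - 1).re) + fderiv ℝ φ z (f z - z)) =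
      2 * (∫ z in U, φ z * (deriv f z).re) - 2 * (∫ z in U, φ z) +
        ∫ z in U, fderiv ℝ φ z (f z - z) := by
    have jf' : IntegrableOn (fun z => fderiv ℝ φ z (f z - z)) U :=
      (integrable_indicator_iff hUm).1 jf
    have j3 : IntegrableOn (fun z => 2 * (φ z * (deriv f z).re) - 2 * φ z) U :=
      (jφ1.const_mul 2).sub (jφ2.const_mul 2)
    rw [← integral_const_mul, ← integral_const_mul,
      ← integral_sub (jφ1.const_mul 2) (jφ2.const_mul 2), ← integral_add j3 jf']
    refine integral_congr_ae (ae_of_all _ fun z => ?_)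
    simp only [Complex.sub_re, Complex.one_re]
    ring
  rw [x13]
  rw [x1] at i1
  rw [x2] at i2
  rw [x8] at x5
  rw [mul_add (M + 1) ((∫ z in A1 ∩ U, ‖deriv f z‖) + ∫ z, h1 z)]
  linarith [x3, x5, x6, x7, x9, x10, x11, x12, k1, k2, i1, i2]

end

end Crest.Agent.R105.Rend_256
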