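import Mathlib
import Crest.Agent.R105.Rend6_256

/-!
Row 105, S0139, FLUX, part 7: limits `δ → 0`, `ε' → 0`, `s → all`. Main theorem `fluxP`.
-/

set_option autoImplicit false

open Set Filter MeasureTheory Metric
open scoped Topology NNReal

namespace Crest.Agent.R105.Rend_256

open Crest.AnalysisR Rd_557

section

variable {U : Set ℂ} {f F : ℂ → ℂ} {L : ℝ} {ι : Type} {c : ι → ℂ} {r : ι → ℝ} {c' : ι → ℂ}
  {R : ι → ℝ}

theorem eventually_sep (D : Dat U f L c r c' R F) {s : Finset ι} (hs : ∀ i ∈ s, 0 < r i) :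
    ∀ᶠ δ in 𝓝[>] (0 : ℝ), Sep c r s δ := by
  have h1 : ∀ i ∈ s, ∀ j ∈ s, i ≠ j → ∀ᶠ δ in 𝓝[>] (0 : ℝ),
      Disjoint (closedBall (c i) (r i + 2 * δ)) (closedBall (c j) (r j + 2 * δ)) := by
    intro i hi j hj hij
    have h2 : r i + r j < dist (c i) (c j) :=
      (disjoint_closedBall_closedBall_iff (hs i hi).le (hs j hj).le).1 (D.re.disj hij)
    have h3 : Tendsto (fun δ : ℝ => (r i + 2 * δ) + (r j + 2 * δ)) (𝓝[>] 0) (𝓝 (r i + r j)) := by
      have : Continuous fun δ : ℝ => (r i + 2 * δ) + (r j + 2 * δ) := by fun_prop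
      have h4 := this.tendsto 0
      simp only [mul_zero, add_zero] at h4
      exact h4.mono_left nhdsWithin_le_nhds
    filter_upwards [h3.eventually_lt_const h2] with δ hδ
    exact closedBall_disjoint_closedBall hδ
  have h5 : ∀ᶠ δ in 𝓝[>] (0 : ℝ), ∀ i ∈ s, ∀ j ∈ s, i ≠ j →
      Disjoint (closedBall (c i) (r i + 2 * δ)) (closedBall (c j) (r j + 2 * δ)) := by
    rw [eventually_all_finset]
    intro i hi
    rw [eventually_all_finset]
    intro j hj
    by_cases hij : i = j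
    · exact Eventually.of_forall fun _ h => absurd hij h
    · filter_upwards [h1 i hi j hj hij] with δ hδ _ using hδ
  filter_upwards [h5, self_mem_nhdsWithin] with δ h6 h7
  exact ⟨h7, hs, h6⟩

theorem eventually_near (D : Dat U f L c r c' R F) {s : Finset ι} (hs : ∀ i ∈ s, 0 < r i)
    {ε : ℝ} (hε : 0 < ε) :
    ∀ᶠ δ in 𝓝[>] (0 : ℝ), ∀ i ∈ s, ∀ z, ‖z - c i‖ ≤ r i + 2 * δ → ‖F z - c' i‖ ≤ R i + ε := by
  rw [eventually_all_finset]
  intro i hi
  obtain ⟨N, hN, hsub, hN2⟩ := D.nearC i ε hε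
  obtain ⟨d, hd, hdN⟩ := (isCompact_closedBall (c i) (r i)).exists_cthickening_subset_open hN hsub
  have h1 : ∀ᶠ δ in 𝓝[>] (0 : ℝ), 2 * δ < d := by
    have : Tendsto (fun δ : ℝ => 2 * δ) (𝓝[>] 0) (𝓝 0) := by
      have h2 : Continuous fun δ : ℝ => 2 * δ := by fun_prop
      have h4 := h2.tendsto 0
      simp only [mul_zero] at h4
      exact h4.mono_left nhdsWithin_le_nhds
    exact this.eventually_lt_const hd
  filter_upwards [h1, self_mem_nhdsWithin] with δ h2 h3 z hz
  refine hN2 z (hdN ?_)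
  rw [cthickening_closedBall hd.le (hs i hi).le, mem_closedBall, dist_eq_norm]
  linarith

theorem tendsto_tail (D : Dat U f L c r c' R F) {s : Finset ι} (T : ℝ)
    (hT : ∀ i ∈ s, closedBall (c i) (r i + 2) ⊆ closedBall 0 T) :
    Tendsto (fun n : ℕ => ∫ z in U ∩ ⋃ i ∈ s, closedBall (c i) (r i + 2 * (1 / ((n : ℝ) + 1))),
      2 * (‖deriv f z‖ + 1)) atTop (𝓝 0) := by
  have hUm : MeasurableSet U := D.re.ext.1.measurableSet
  have hEm : ∀ n : ℕ, MeasurableSet (⋃ i ∈ s, closedBall (c i) (r i + 2 * (1 / ((n : ℝ) + 1)))) :=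
    fun n => Finset.measurableSet_biUnion _ fun i _ => measurableSet_closedBall
  have hsub : ∀ n : ℕ, (⋃ i ∈ s, closedBall (c i) (r i + 2 * (1 / ((n : ℝ) + 1)))) ⊆
      closedBall 0 T := by
    intro n
    refine iUnion₂_subset fun i hi => Subset.trans (closedBall_subset_closedBall ?_) (hT i hi)
    have : 1 / ((n : ℝ) + 1) ≤ 1 := by
      rw [div_le_one (by positivity)]
      have := Nat.cast_nonneg (α := ℝ) n
      linarith
    linarith
  have hgm : Measurable fun z => 2 * (‖deriv f z‖ + 1) :=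
    (((measurable_deriv f).norm).add_const 1).const_mul 2
  have hint : IntegrableOn (fun z => 2 * (‖deriv f z‖ + 1)) (U ∩ closedBall 0 T) := by
    have h3 : IntegrableOn (fun z => ‖deriv f z‖) (U ∩ closedBall 0 T) :=
      integrableOn_of_sq (measurable_deriv f).norm (fun _ => norm_nonneg _)
      ((measure_mono inter_subset_right).trans_lt measure_closedBall_lt_top).ne (D.en T)
    have h4 : IntegrableOn (fun _ : ℂ => (1 : ℝ)) (U ∩ closedBall 0 T) := integrableOn_const
      ((measure_mono inter_subset_right).trans_lt measure_closedBall_lt_top).ne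
    exact (h3.add h4).const_mul 2
  have key : ∀ n : ℕ, ∫ z in U ∩ ⋃ i ∈ s, closedBall (c i) (r i + 2 * (1 / ((n : ℝ) + 1))),
      2 * (‖deriv f z‖ + 1) =
      ∫ z, (U ∩ ⋃ i ∈ s, closedBall (c i) (r i + 2 * (1 / ((n : ℝ) + 1)))).indicator
        (fun z => 2 * (‖deriv f z‖ + 1)) z := fun n =>
    (integral_indicator (hUm.inter (hEm n))).symm
  simp only [key]
  rw [← integral_zero ℂ ℝ (μ := (volume : Measure ℂ))]
  refine tendsto_integral_of_dominated_convergence
    ((U ∩ closedBall 0 T).indicator fun z => 2 * (‖deriv f z‖ + 1)) ?_ ?_ ?_ ?_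
  · intro n
    exact (hgm.indicator (hUm.inter (hEm n))).aestronglyMeasurable
  · rwa [integrable_indicator_iff (hUm.inter measurableSet_closedBall)]
  · intro n
    refine ae_of_all _ fun z => ?_
    by_cases hz : z ∈ U ∩ ⋃ i ∈ s, closedBall (c i) (r i + 2 * (1 / ((n : ℝ) + 1)))
    · rw [indicator_of_mem hz, indicator_of_mem (show z ∈ U ∩ closedBall 0 T from
        ⟨hz.1, hsub n hz.2⟩), Real.norm_eq_abs, abs_of_nonneg (by positivity)]
    · rw [indicator_of_notMem hz, norm_zero]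
      exact indicator_nonneg (fun _ _ => by positivity) _
  · refine ae_of_all _ fun z => ?_
    by_cases hzU : z ∈ U
    · have h1 : ∀ᶠ n : ℕ in atTop, ∀ i ∈ s,
          z ∉ closedBall (c i) (r i + 2 * (1 / ((n : ℝ) + 1))) := by
        rw [eventually_all_finset]
        intro i hi
        have h2 : r i < dist z (c i) := by
          by_contra h
          push Not at h
          exact (D.re.comp i z h).1 hzU
        have h3 : Tendsto (fun n : ℕ => r i + 2 * (1 / ((n : ℝ) + 1))) atTop (𝓝 (r i)) := by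
          have := (tendsto_one_div_add_atTop_nhds_zero_nat (𝕜 := ℝ)).const_mul 2 |>.const_add (r i)
          simpa using this
        filter_upwards [h3.eventually_lt_const h2] with n hn h
        rw [mem_closedBall] at h
        linarith
      refine tendsto_const_nhds.congr' ?_
      filter_upwards [h1] with n hn
      rw [indicator_of_notMem]
      rintro ⟨-, h⟩
      simp only [mem_iUnion, exists_prop] at h
      obtain ⟨i, hi, h⟩ := h
      exact hn i hi h
    · refine tendsto_const_nhds.congr fun n => ?_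
      rw [indicator_of_notMem fun h => hzU h.1]

/-- the inequality at fixed `s` after `δ → 0`, `ε' → 0` -/
theorem limit_delta (hB : BP) (hr : IsConformallyRemovable (frontier U))
    (D : Dat U f L c r c' R F)
    {ε : ℝ} {s : Finset ι} (hs : ∀ i ∈ s, 0 < r i)
    {C1 A1 C2 A2 : Set ℂ} {h1 h2 : ℂ → ℝ} {Ψ1 Ψ2 : ℂ → ℝ → ℝ}
    (P1 : PlanOut U L (fun z => (F z).re) (big c r s) ε C1 A1 h1 Ψ1)
    (P2 : PlanOut U L (fun z => (F z).im) (big c r s) ε C2 A2 h2 Ψ2)
    {T : ℝ} (hT : 3 * |L| + 2 ≤ T) {φ : ℂ → ℝ} (hφ : ContDiff ℝ 1 φ) (hφc : HasCompactSupport φ)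
    (hφ1 : ∀ z, ‖z‖ ≤ T → φ z = 1) {M : ℝ} (hM : ∀ z, |φ z| ≤ M) :
    (∑ i ∈ s, (2 * Real.pi * r i ^ 2 - 2 * Real.pi * r i * R i)) -
      (M + 1) * (((∫ z in A1 ∩ U, ‖deriv f z‖) + ∫ z, h1 z) +
        ((∫ z in A2 ∩ U, ‖deriv f z‖) + ∫ z, h2 z)) -
      ((∫ z, h1 z) + ∫ z, h2 z) ≤
    ∫ z in U, (φ z * (2 * (deriv f z - 1).re) + fderiv ℝ φ z (f z - z)) := by
  set I := ∫ z in U, (φ z * (2 * (deriv f z - 1).re) + fderiv ℝ φ z (f z - z)) with hI
  set K := (M + 1) * (((∫ z in A1 ∩ U, ‖deriv f z‖) + ∫ z, h1 z) +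
        ((∫ z in A2 ∩ U, ‖deriv f z‖) + ∫ z, h2 z)) with hK
  set K' := (∫ z, h1 z) + ∫ z, h2 z with hK'
  -- a large ball
  obtain ⟨T2, hT2⟩ : ∃ T2 : ℝ, ∀ i ∈ s, closedBall (c i) (r i + 2) ⊆ closedBall 0 T2 := by
    refine ⟨∑ i ∈ s, (‖c i‖ + (r i + 2)), fun i hi z hz => ?_⟩
    rw [mem_closedBall_zero_iff]
    rw [mem_closedBall, dist_eq_norm] at hz
    have h3 : ‖c i‖ + (r i + 2) ≤ ∑ i ∈ s, (‖c i‖ + (r i + 2)) :=
      Finset.single_le_sum (f := fun i => ‖c i‖ + (r i + 2))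
        (fun j hj => by have := hs j hj; positivity) hi
    have h4 : ‖z‖ ≤ ‖z - c i‖ + ‖c i‖ := by
      have := norm_add_le (z - c i) (c i)
      simpa using this
    linarith
  have hseq : Tendsto (fun n : ℕ => 1 / ((n : ℝ) + 1)) atTop (𝓝[>] 0) := by
    refine tendsto_nhdsWithin_iff.2 ⟨tendsto_one_div_add_atTop_nhds_zero_nat, ?_⟩
    exact Eventually.of_forall fun n => by
      simp only [mem_Ioi]
      positivity
  have step : ∀ ε' > 0, (∑ i ∈ s, (2 * Real.pi * r i ^ 2 - 2 * Real.pi * r i * (R i + ε'))) -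
      K - K' ≤ I := by
    intro ε' hε'
    have hev := hseq.eventually ((eventually_sep D hs).and ((eventually_near D hs hε').and
      (eventually_nhdsWithin_of_eventually_nhds (eventually_le_nhds
        (show (0 : ℝ) < 1 / 2 by norm_num)))))
    have hlim : Tendsto (fun n : ℕ => (∑ i ∈ s, (2 * Real.pi * (r i + 1 / ((n : ℝ) + 1)) ^ 2 -
        2 * Real.pi * (r i + 2 * (1 / ((n : ℝ) + 1))) ^ 2 / (r i + 1 / ((n : ℝ) + 1)) *
          (R i + ε'))) - K - K' -
        ∫ z in U ∩ ⋃ i ∈ s, closedBall (c i) (r i + 2 * (1 / ((n : ℝ) + 1))),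
          2 * (‖deriv f z‖ + 1)) atTop
        (𝓝 ((∑ i ∈ s, (2 * Real.pi * r i ^ 2 - 2 * Real.pi * r i * (R i + ε'))) - K - K' - 0)) := by
      refine Tendsto.sub ?_ (tendsto_tail D T2 hT2)
      refine Tendsto.sub_const (Tendsto.sub_const ?_ _) _
      refine tendsto_finsetSum _ fun i hi => ?_
      have hri := hs i hi
      have h0 : Tendsto (fun n : ℕ => 1 / ((n : ℝ) + 1)) atTop (𝓝 0) :=
        tendsto_one_div_add_atTop_nhds_zero_nat
      have h5 : ContinuousAt (fun x : ℝ => 2 * Real.pi * (r i + x) ^ 2 -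
          2 * Real.pi * (r i + 2 * x) ^ 2 / (r i + x) * (R i + ε')) 0 := by
        have : r i + 0 ≠ 0 := by simpa using hri.ne'
        fun_prop (disch := assumption)
      have h6 := h5.tendsto.comp h0
      have h7 : 2 * Real.pi * (r i + 0) ^ 2 -
          2 * Real.pi * (r i + 2 * 0) ^ 2 / (r i + 0) * (R i + ε') =
          2 * Real.pi * r i ^ 2 - 2 * Real.pi * r i * (R i + ε') := by
        simp only [add_zero, mul_zero]
        field_simp
      rw [h7] at h6
      exact h6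
    rw [sub_zero] at hlim
    refine le_of_tendsto hlim ?_
    filter_upwards [hev] with n hn
    obtain ⟨hS, hn2, hn3⟩ := hn
    exact approx hB hr D P1 P2 hT hφ hφc hφ1 hM hS hn3
      (ρ := fun i => R i + ε') (fun i _ => add_nonneg (D.re.R0 i) hε'.le)
      fun i hi z _ hz => hn2 i hi z hz
  have hcont : Continuous fun ε' : ℝ =>
      (∑ i ∈ s, (2 * Real.pi * r i ^ 2 - 2 * Real.pi * r i * (R i + ε'))) - K - K' := by
    fun_prop
  have hlim := (hcont.tendsto 0).mono_left (nhdsWithin_le_nhds (s := Ioi 0))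
  simp only [add_zero] at hlim
  exact le_of_tendsto hlim (eventually_nhdsWithin_of_forall fun ε' hε' => step ε' hε')

/-- bound of the error over the bad set `A` -/
theorem bad_le (D : Dat U f L c r c' R F) {A : Set ℂ}
    (hAL : A ⊆ closedBall 0 (3 * L + 1)) {t : ℝ} (ht : 0 < t)
    (hA : volume A ≤ ENNReal.ofReal (t ^ 2)) :
    ∫ z in A ∩ U, ‖deriv f z‖ ≤
      t * (1 + ∫ z in U ∩ closedBall 0 (3 * L + 1), ‖deriv f z‖ ^ 2) := by
  have hUm : MeasurableSet U := D.re.ext.1.measurableSet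
  have hfin : volume (A ∩ U) ≠ ⊤ :=
    ((measure_mono inter_subset_left).trans_lt (hA.trans_lt ENNReal.ofReal_lt_top)).ne
  have hsub : A ∩ U ⊆ U ∩ closedBall 0 (3 * L + 1) := fun z hz => ⟨hz.2, hAL hz.1⟩
  have h2 : IntegrableOn (fun z => ‖deriv f z‖ ^ 2) (A ∩ U) := (D.en _).mono_set hsub
  have h1 : IntegrableOn (fun z => ‖deriv f z‖) (A ∩ U) :=
    integrableOn_of_sq (measurable_deriv f).norm (fun _ => norm_nonneg _) hfin h2
  have h3 : IntegrableOn (fun z => 1 / t + t * ‖deriv f z‖ ^ 2) (A ∩ U) :=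
    (integrableOn_const hfin).add (h2.const_mul t)
  have h4 : ∫ z in A ∩ U, ‖deriv f z‖ ≤ ∫ z in A ∩ U, (1 / t + t * ‖deriv f z‖ ^ 2) := by
    refine setIntegral_mono h1 h3 fun z => ?_
    have e1 : 0 ≤ (t * ‖deriv f z‖ - 1) ^ 2 := sq_nonneg _
    have e2 : ‖deriv f z‖ ≤ (1 + t ^ 2 * ‖deriv f z‖ ^ 2) / t := by
      rw [le_div_iff₀ ht]
      nlinarith [norm_nonneg (deriv f z)]
    refine e2.trans (le_of_eq ?_)
    field_simp
  have h5 : ∫ z in A ∩ U, (1 / t + t * ‖deriv f z‖ ^ 2) =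
      volume.real (A ∩ U) * (1 / t) + t * ∫ z in A ∩ U, ‖deriv f z‖ ^ 2 := by
    have hc : Integrable (fun _ : ℂ => 1 / t) (volume.restrict (A ∩ U)) := integrableOn_const hfin
    rw [integral_add hc (h2.const_mul t), integral_const_mul,
      setIntegral_const, smul_eq_mul]
  have h6 : volume.real (A ∩ U) ≤ t ^ 2 := by
    refine ENNReal.toReal_le_of_le_ofReal (by positivity) ?_
    exact (measure_mono inter_subset_left).trans hA
  have h7 : ∫ z in A ∩ U, ‖deriv f z‖ ^ 2 ≤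
      ∫ z in U ∩ closedBall 0 (3 * L + 1), ‖deriv f z‖ ^ 2 :=
    setIntegral_mono_set (D.en _) (ae_of_all _ fun _ => by positivity) hsub.eventuallyLE
  have h8 : volume.real (A ∩ U) * (1 / t) ≤ t := by
    have : volume.real (A ∩ U) * (1 / t) ≤ t ^ 2 * (1 / t) :=
      mul_le_mul_of_nonneg_right h6 (by positivity)
    refine this.trans (le_of_eq ?_)
    field_simp
  rw [h5] at h4
  nlinarith [mul_le_mul_of_nonneg_left h7 ht.le]

/-- **FLUX** -/
theorem flux (hB : BP) (hP : PlanP) (hr : IsConformallyRemovable (frontier U))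
    (D : Dat U f L c r c' R F) : Flux U f r R := by
  classical
  unfold Flux
  filter_upwards [eventually_ge_atTop (3 * |L| + 2)] with T hT φ hφ hφc hφ1
  obtain ⟨M, hM⟩ : ∃ M : ℝ, ∀ z, |φ z| ≤ M := by
    obtain ⟨M, hM⟩ := hφ.continuous.bounded_above_of_compact_support hφc
    exact ⟨M, hM⟩
  have hM0 : 0 ≤ M := (abs_nonneg _).trans (hM 0)
  set I := ∫ z in U, (φ z * (2 * (deriv f z - 1).re) + fderiv ℝ φ z (f z - z)) with hI
  set M2 := ∫ z in U ∩ closedBall 0 (3 * L + 1), ‖deriv f z‖ ^ 2 with hM2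
  have hM20 : 0 ≤ M2 := integral_nonneg fun _ => by positivity
  -- summability
  have hsum : Summable fun i => r i * (R i - r i) := by
    refine Summable.of_norm_bounded (g := fun i => 2 * r i ^ 2 + R i ^ 2)
      ((D.re.sr.mul_left 2).add D.re.sR) fun i => ?_
    rw [Real.norm_eq_abs, abs_le]
    constructor <;> nlinarith [sq_nonneg (r i), sq_nonneg (R i), sq_nonneg (R i - r i),
      sq_nonneg (R i + r i), D.re.r0 i, D.re.R0 i]
  have step : ∀ t : ℝ, 0 < t → t ≤ 1 →
      -(2 * Real.pi * ∑' i, r i * (R i - r i)) -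
        t * (2 * Real.pi + (M + 1) * (2 * (1 + M2) + 2) + 2) ≤ I := by
    intro t ht ht1
    obtain ⟨s1, hs1, H1⟩ := hP D.re D.nul (t ^ 2) (by positivity)
    obtain ⟨s2, hs2, H2⟩ := hP D.im D.nul (t ^ 2) (by positivity)
    have hnhds : ∀ᶠ s : Finset ι in atTop,
        ∑ i ∈ s, r i * (R i - r i) < (∑' i, r i * (R i - r i)) + t :=
      hsum.hasSum.eventually_lt_const (by linarith)
    obtain ⟨s3, hs3⟩ := eventually_atTop.1 hnhds
    set s0 := s1 ∪ s2 ∪ s3 with hs0
    set s := s0.filter fun i => 0 < r i with hsd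
    have hpos : ∀ i ∈ s, 0 < r i := fun i hi => (Finset.mem_filter.1 hi).2
    have hss1 : s1 ⊆ s := fun i hi => Finset.mem_filter.2
      ⟨Finset.mem_union_left _ (Finset.mem_union_left _ hi), hs1 i hi⟩
    have hss2 : s2 ⊆ s := fun i hi => Finset.mem_filter.2
      ⟨Finset.mem_union_left _ (Finset.mem_union_right _ hi), hs2 i hi⟩
    have hsum0 : ∑ i ∈ s, r i * (R i - r i) = ∑ i ∈ s0, r i * (R i - r i) := by
      rw [hsd, Finset.sum_filter_of_ne]
      intro i _ hne
      rcases (D.re.r0 i).eq_or_lt with h | h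
      · exact absurd (by rw [← h]; ring) hne
      · exact h
    have hlt : ∑ i ∈ s, r i * (R i - r i) < (∑' i, r i * (R i - r i)) + t := by
      rw [hsum0]
      exact hs3 s0 Finset.subset_union_right
    obtain ⟨C1, A1, h1, Ψ1, P1⟩ := H1 s hss1 hpos
    obtain ⟨C2, A2, h2, Ψ2, P2⟩ := H2 s hss2 hpos
    have key := limit_delta hB hr D hpos P1 P2 hT hφ hφc hφ1 hM
    rw [← hI] at key
    have b1 := bad_le D P1.AL ht P1.Av
    have b2 := bad_le D P2.AL ht P2.Av
    rw [← hM2] at b1 b2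
    have b3 : ∫ z, h1 z ≤ t := P1.h1.trans (by nlinarith)
    have b4 : ∫ z, h2 z ≤ t := P2.h1.trans (by nlinarith)
    have b5 : ∑ i ∈ s, (2 * Real.pi * r i ^ 2 - 2 * Real.pi * r i * R i) =
        -(2 * Real.pi * ∑ i ∈ s, r i * (R i - r i)) := by
      rw [Finset.mul_sum, ← Finset.sum_neg_distrib]
      refine Finset.sum_congr rfl fun i _ => ?_
      ring
    rw [b5] at key
    have b6 : (M + 1) * (((∫ z in A1 ∩ U, ‖deriv f z‖) + ∫ z, h1 z) +
        ((∫ z in A2 ∩ U, ‖deriv f z‖) + ∫ z, h2 z)) ≤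
        (M + 1) * ((t * (1 + M2) + t) + (t * (1 + M2) + t)) := by
      refine mul_le_mul_of_nonneg_left ?_ (by linarith)
      linarith
    have hpi := Real.pi_pos
    have b7 : 2 * Real.pi * ∑ i ∈ s, r i * (R i - r i) ≤
        2 * Real.pi * ((∑' i, r i * (R i - r i)) + t) :=
      mul_le_mul_of_nonneg_left hlt.le (by positivity)
    nlinarith
  have hcont : Continuous fun t : ℝ => -(2 * Real.pi * ∑' i, r i * (R i - r i)) -
        t * (2 * Real.pi + (M + 1) * (2 * (1 + M2) + 2) + 2) := by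
    fun_prop
  have hlim := (hcont.tendsto 0).mono_left (nhdsWithin_le_nhds (s := Ioi 0))
  simp only [zero_mul, sub_zero] at hlim
  refine le_of_tendsto hlim ?_
  filter_upwards [self_mem_nhdsWithin, eventually_nhdsWithin_of_eventually_nhds
    (eventually_le_nhds (show (0 : ℝ) < 1 by norm_num))] with t h1 h2
  exact step t h1 h2

end

/-- **`FluxP`** (owner: helper256) -/
theorem fluxP : FluxP := fun hB hP _ _ _ _ _ _ _ _ _ hr D => flux hB hP hr D

end Crest.Agent.R105.Rend_256
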