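import Crest.Agent.R105.Top139_474
import Crest.Agent.R105.Pln7_897
import Crest.Agent.R105.Cen2_985
import Crest.Agent.R105.Rend7_256
import Crest.Agent.R105.End139b_279

/-! Row 105, S0139: RED closed; S0139 from `BP` ([B]) alone (helper557). -/

set_option autoImplicit false

open Set Filter Metric Topology MeasureTheory
open Crest.AnalysisR

namespace Crest.Agent.R105.RdTop_557

open Crest.Agent.R105.Rd_557

/-- hypothesis of `Red_828.s0139_of` from `[B]` -/
theorem red_of_bp (hB : BP) : ∀ U V : Set ℂ, IsCircleDomainFinitePart U →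
    IsCircleDomainFinitePart V → IsConformallyRemovable (frontier U) → ∀ f : ℂ → ℂ,
      DifferentiableOn ℂ f U → InjOn f U → f '' U = V →
      Tendsto (fun z => f z - z) (cocompact ℂ) (𝓝 0) → ∀ z ∈ U, f z = z :=
  red hB Pln_897.planP Cen_985.cenP Rend_256.fluxP End139_279.endP

/-- **S0139 from `BP`** -/
theorem s0139_of_bp (hB : BP)
    (U V : Set ℂ) (hU : Crest.AnalysisR.IsCircleDomainFinitePart U)
    (hV : Crest.AnalysisR.IsCircleDomainFinitePart V)
    (hE : Crest.AnalysisR.IsConformallyRemovable (frontier U)) (f : ℂ → ℂ)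
    (hf : DifferentiableOn ℂ f U) (hinj : Set.InjOn f U) (hsurj : f '' U = V)
    (hinf : Filter.Tendsto f (Filter.cocompact ℂ) (Filter.cocompact ℂ)) :
    ∃ a b : ℂ, a ≠ 0 ∧ ∀ z ∈ U, f z = a * z + b :=
  Top139_474.s0139 hB Pln_897.planP Cen_985.cenP Rend_256.fluxP End139_279.endP U V hU hV hE f hf
    hinj hsurj hinf

end Crest.Agent.R105.RdTop_557
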