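import Crest.Agent.R105.Selp_871
import Crest.Agent.R105.Bd5_775

/-! Row 105 (S0139): the literal Prop `SELP`. -/

set_option autoImplicit false

namespace Crest.Agent.R105.Clo_871

theorem jLow : JLow := fun _ _ hTD hx =>
  (Bd_775.J_bddBelow hTD.cpt hx).imp fun _ hL u hu => hL u hu.q

/-- **SELP** (IfB1_641) -/
theorem selp : IfB_641.SELP := selp_of jLow

end Crest.Agent.R105.Clo_871
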