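import Crest.Agent.R105.Sin2_925

/-!
# Row 105, leaf SINGLE (part 3): the basic cut-off, nested averaging, `single : Skp2_257.SINGLE`
-/

namespace Crest.Agent.R105.Sin_925

open Set Filter MeasureTheory Topology Metric
open CF_363 Stp_722 Skp2_257
open scoped ENNReal NNReal

theorem En_union_le {A B : Set (ℝ × ℝ)} (hA : MeasurableSet A) (hB : MeasurableSet B)
    {f : ℝ × ℝ → ℝ} (hf : IntegrableOn (g2 f) (A ∪ B)) : En (A ∪ B) f ≤ En A f + En B f := by
  unfold En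
  have h1 : IntegrableOn (g2 f) A := hf.mono_set subset_union_left
  have h2 : IntegrableOn (g2 f) B := hf.mono_set subset_union_right
  rw [← union_sdiff_self, setIntegral_union disjoint_sdiff_right (hB.diff hA) h1
    (h2.mono_set sdiff_subset)]
  have : ∫ p in B \ A, g2 f p ≤ ∫ p in B, g2 f p :=
    setIntegral_mono_set h2 (ae_of_all _ fun p => g2_nonneg f p) sdiff_subset.eventuallyLE
  linarith

/-- energy of `1 - (1 - lam) (1 - z)` -/
theorem En_pr_le {E W N : Set (ℝ × ℝ)} {ε ε' R : ℝ} {q : ℝ × ℝ} {z lam : ℝ × ℝ → ℝ} (hW : IsOpen W)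
    (h : Half E W N ε z) (hl : CF univ lam) (hl1 : ∀ p, 0 ≤ lam p ∧ lam p ≤ 1)
    (hl0 : ∀ p, R ≤ dist p q → lam p = 0) (hle : En univ lam ≤ ε') :
    En W (fun p => 1 - (1 - lam p) * (1 - z p)) ≤ 2 * ε + 2 * ε' := by
  obtain ⟨S, hS, hSN, hS0⟩ := h.sp
  have hcS : IsCompact (closedBall q R ∪ S) := (isCompact_closedBall q R).union hS
  obtain ⟨r, hr⟩ := hcS.isBounded.subset_ball 0
  have hl0' : ∀ p, p ∉ closedBall q R → lam p = 0 := fun p hp =>
    hl0 p (by rw [mem_closedBall, not_le] at hp; exact hp.le)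
  have h0 : ∀ p ∈ W, p ∉ closedBall q R ∪ S → 1 - (1 - lam p) * (1 - z p) = 0 := by
    intro p hp hpS
    rw [mem_union, not_or] at hpS
    rw [hl0' p hpS.1, hS0 p hp hpS.2]; ring
  have hWb : volume (W ∩ ball (0 : ℝ × ℝ) r) ≠ ∞ :=
    ((measure_mono inter_subset_right).trans_lt measure_ball_lt_top).ne
  have hWo : IsOpen (W ∩ ball (0 : ℝ × ℝ) r) := hW.inter isOpen_ball
  have hz : CFJ (hairs E) (W ∩ ball (0 : ℝ × ℝ) r) z := h.cf.mono subset_rfl inter_subset_left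
  have hlc : CFJ (hairs E) (W ∩ ball (0 : ℝ × ℝ) r) lam :=
    (hl.cfj (𝓗 := hairs E)).mono subset_rfl (subset_univ _)
  rw [En_restrict hW hcS.isClosed hr h0]
  have e1 : En (W ∩ ball (0 : ℝ × ℝ) r) (fun p => 1 - (1 - lam p) * (1 - z p)) =
      En (W ∩ ball (0 : ℝ × ℝ) r) (fun p => (1 - lam p) * (1 - z p)) :=
    En_congr_ae (ae_of_all _ fun p => g2_one_sub (fun p => (1 - lam p) * (1 - z p)) p)
  rw [e1]
  refine (((CFJ_const 1).sub hlc).En_mul_le hWo hWb ((CFJ_const 1).sub hz) (A := 1) (B := 1)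
    (fun p _ => ?_) (fun p _ => ?_)).trans ?_
  · rw [abs_le]; constructor <;> linarith [(hl1 p).1, (hl1 p).2]
  · rw [abs_le]; constructor <;> linarith [(h.rg p).1, (h.rg p).2]
  · have e2 : En (W ∩ ball (0 : ℝ × ℝ) r) (fun p => 1 - z p) = En (W ∩ ball (0 : ℝ × ℝ) r) z :=
      En_congr_ae (ae_of_all _ fun p => g2_one_sub z p)
    have e3 : En (W ∩ ball (0 : ℝ × ℝ) r) (fun p => 1 - lam p) = En (W ∩ ball (0 : ℝ × ℝ) r) lam :=
      En_congr_ae (ae_of_all _ fun p => g2_one_sub lam p)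
    rw [e2, e3]
    have h1 := En_mono hW h.cf hS hS0 (inter_subset_left : W ∩ ball (0 : ℝ × ℝ) r ⊆ W)
    have h2 := En_mono isOpen_univ (hl.cfj (𝓗 := hairs E)) (isCompact_closedBall q R)
      (fun p _ hp => hl0' p hp) (subset_univ (W ∩ ball (0 : ℝ × ℝ) r))
    have h3 := h.en
    linarith

/-- the basic cut-off, off `E` -/
theorem basic0 {E : Set (ℝ × ℝ)} {K : Hair} {β : ℝ} (hb : K.b ≤ β) (ht : β ≤ K.t)
    (h : ∀ d > 0, LowS E K β d ∧ UpS E K β d) {N : Set (ℝ × ℝ)} (hN : IsOpen N) (hKN : K.car ⊆ N)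
    {ε : ℝ} (hε : 0 < ε) :
    ∃ ζ, Half E univ N ε ζ ∧ ∃ O, IsOpen O ∧ K.car ⊆ O ∧ ∀ p ∈ O \ E, ζ p = 1 := by
  classical
  set q : ℝ × ℝ := (K.x, β) with hq
  have hqK : q ∈ K.car := ⟨rfl, hb, ht⟩
  obtain ⟨R, hR, hRN⟩ := nhds_basis_closedBall.mem_iff.1 (hN.mem_nhds (hKN hqK))
  obtain ⟨r, hr, lam, hl, hl01, hl1, hl0, hle⟩ := cap_point q hR (by positivity : 0 < ε / 9)
  set d := r / 4 with hd
  have hd0 : 0 < d := by positivity
  set N' := N ∩ thickening d K.car with hN'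
  have hN'o : IsOpen N' := hN.inter isOpen_thickening
  have hKN' : K.car ⊆ N' := subset_inter hKN (self_subset_thickening hd0 _)
  obtain ⟨Bm, hBm1, hBm2, zm, hzm, Om, hOm, hKOm, hm1⟩ := (h d hd0).1 N' hN'o hKN' (ε / 9)
    (by positivity)
  obtain ⟨Bp, hBp1, hBp2, zp, hzp, Op, hOp, hKOp, hp1⟩ := (h d hd0).2 N' hN'o hKN' (ε / 9)
    (by positivity)
  obtain ⟨Sm, hSm, hSmN, hSm0⟩ := hzm.sp
  obtain ⟨Sp, hSp, hSpN, hSp0⟩ := hzp.sp
  set ζ : ℝ × ℝ → ℝ := fun p => if p.2 < Bm then 1 - (1 - lam p) * (1 - zm p)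
    else if Bp < p.2 then 1 - (1 - lam p) * (1 - zp p) else lam p with hζ
  have near : ∀ p : ℝ × ℝ, |p.1 - K.x| < 2 * d → |p.2 - β| < 2 * d → lam p = 1 := by
    intro p h1 h2
    refine hl1 p ?_
    rw [hq, Prod.dist_eq, Real.dist_eq, Real.dist_eq]
    refine (max_lt h1 h2).le.trans ?_
    rw [hd]; linarith
  -- values on the three pieces
  have eqL : EqOn ζ (fun p => 1 - (1 - lam p) * (1 - zm p)) (Lo Bm) := fun p hp => by
    simp only [hζ]; exact if_pos hp
  have eqU : EqOn ζ (fun p => 1 - (1 - lam p) * (1 - zp p)) (Up Bp) := fun p hp => by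
    have hp' : Bp < p.2 := hp
    simp only [hζ]
    rw [if_neg (by linarith), if_pos hp']
  set U2 : Set (ℝ × ℝ) := Lo (β + 2 * d) ∩ Up (β - 2 * d) with hU2
  have hU2o : IsOpen U2 := (isOpen_Lo _).inter (isOpen_Up _)
  have eqM : EqOn ζ lam U2 := by
    intro p hp
    have hp1 : p.2 < β + 2 * d := hp.1
    have hp2 : β - 2 * d < p.2 := hp.2
    have hab : |p.2 - β| < 2 * d := by rw [abs_lt]; constructor <;> linarith
    simp only [hζ]
    split_ifs with hc1 hc2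
    · by_cases hpS : p ∈ Sm
      · rw [near p ((near_car (hSmN hpS).2).1.trans (by linarith)) hab]; ring
      · rw [hSm0 p hc1 hpS]; ring
    · by_cases hpS : p ∈ Sp
      · rw [near p ((near_car (hSpN hpS).2).1.trans (by linarith)) hab]; ring
      · rw [hSp0 p hc2 hpS]; ring
    · rfl
  have hcov : (univ : Set (ℝ × ℝ)) = (Lo Bm ∪ Up Bp) ∪ U2 := by
    refine (eq_univ_of_forall fun p => ?_).symm
    by_cases h1 : p.2 < Bm
    · exact Or.inl (Or.inl h1)
    · by_cases h2 : Bp < p.2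
      · exact Or.inl (Or.inr h2)
      · refine Or.inr ⟨?_, ?_⟩
        · show p.2 < β + 2 * d
          linarith
        · show β - 2 * d < p.2
          linarith
  -- regularity
  have hcf : CFJ (hairs E) univ ζ := by
    obtain ⟨J₁, hJ₁, k₁⟩ := hzm.cf
    obtain ⟨J₂, hJ₂, k₂⟩ := hzp.cf
    refine ⟨J₁ ∪ J₂, fun K' hK' => ?_, ?_⟩
    · rcases Finset.mem_union.mp hK' with h' | h'
      · exact hJ₁ K' h'
      · exact hJ₂ K' h'
    · have e : (univ : Set (ℝ × ℝ)) \ cut (J₁ ∪ J₂) = ((Lo Bm \ cut (J₁ ∪ J₂)) ∪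
          (Up Bp \ cut (J₁ ∪ J₂))) ∪ (U2 \ cut (J₁ ∪ J₂)) := by
        rw [← union_sdiff_distrib, ← union_sdiff_distrib, ← hcov]
      rw [e]
      refine CF.union ((isOpen_diff_cut (isOpen_Lo _) _).union (isOpen_diff_cut (isOpen_Up _) _))
        (isOpen_diff_cut hU2o _) (CF.union (isOpen_diff_cut (isOpen_Lo _) _)
        (isOpen_diff_cut (isOpen_Up _) _) ?_ ?_) ?_
      · have k : CF (Lo Bm \ cut (J₁ ∪ J₂)) zm :=
          k₁.mono (sdiff_subset_sdiff_right (cut_mono Finset.subset_union_left))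
        exact ((CF_const 1).sub (((CF_const 1).sub (hl.mono (subset_univ _))).mul
          ((CF_const 1).sub k))).congr (eqL.symm.mono sdiff_subset)
      · have k : CF (Up Bp \ cut (J₁ ∪ J₂)) zp :=
          k₂.mono (sdiff_subset_sdiff_right (cut_mono Finset.subset_union_right))
        exact ((CF_const 1).sub (((CF_const 1).sub (hl.mono (subset_univ _))).mul
          ((CF_const 1).sub k))).congr (eqU.symm.mono sdiff_subset)
      · exact (hl.mono (subset_univ _)).congr (eqM.symm.mono sdiff_subset)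
  -- support
  have hcS : IsCompact ((closedBall q R ∪ Sm) ∪ Sp) :=
    ((isCompact_closedBall q R).union hSm).union hSp
  have hS0 : ∀ p, p ∉ (closedBall q R ∪ Sm) ∪ Sp → ζ p = 0 := by
    intro p hp
    rw [mem_union, mem_union, not_or, not_or] at hp
    obtain ⟨⟨a1, a2⟩, a3⟩ := hp
    have hlp : lam p = 0 := hl0 p (by rw [mem_closedBall, not_le] at a1; exact a1.le)
    simp only [hζ]
    split_ifs with hc1 hc2
    · rw [hlp, hSm0 p hc1 a2]; ring
    · rw [hlp, hSp0 p hc2 a3]; ring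
    · exact hlp
  have hint : IntegrableOn (g2 ζ) univ := integrable_of_cpt isOpen_univ hcf hcS fun p _ hp => hS0 p hp
  refine ⟨ζ, ⟨hcf, fun p => ?_, ⟨_, hcS, ?_, fun p _ hp => hS0 p hp⟩, ?_⟩,
    (Om ∩ Op) ∩ thickening d K.car, (hOm.inter hOp).inter isOpen_thickening,
    subset_inter (subset_inter hKOm hKOp) (self_subset_thickening hd0 _), fun p hp => ?_⟩
  · obtain ⟨b1, b2⟩ := hl01 p
    obtain ⟨c1, c2⟩ := hzm.rg p
    obtain ⟨c3, c4⟩ := hzp.rg p
    have e1 : 0 ≤ (1 - lam p) * (1 - zm p) := mul_nonneg (by linarith) (by linarith)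
    have e2 : 0 ≤ (1 - lam p) * (1 - zp p) := mul_nonneg (by linarith) (by linarith)
    have e3 : (1 - lam p) * (1 - zm p) ≤ 1 := mul_le_one₀ (by linarith) (by linarith) (by linarith)
    have e4 : (1 - lam p) * (1 - zp p) ≤ 1 := mul_le_one₀ (by linarith) (by linarith) (by linarith)
    simp only [hζ]
    split_ifs
    · exact ⟨by linarith, by linarith⟩
    · exact ⟨by linarith, by linarith⟩
    · exact ⟨b1, b2⟩
  · exact union_subset (union_subset hRN fun p hp => (hSmN hp).1) fun p hp => (hSpN hp).1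
  · have h1 : En univ ζ ≤ En (Lo Bm ∪ Up Bp) ζ + En U2 ζ := by
      rw [hcov] at hint ⊢
      exact En_union_le ((isOpen_Lo _).union (isOpen_Up _)).measurableSet hU2o.measurableSet hint
    have h2 : En (Lo Bm ∪ Up Bp) ζ ≤ En (Lo Bm) ζ + En (Up Bp) ζ :=
      En_union_le (isOpen_Lo _).measurableSet (isOpen_Up _).measurableSet
        (hint.mono_set (subset_univ _))
    have h3 : En (Lo Bm) ζ ≤ 2 * (ε / 9) + 2 * (ε / 9) := by
      have e : En (Lo Bm) ζ = En (Lo Bm) (fun p => 1 - (1 - lam p) * (1 - zm p)) :=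
        setIntegral_congr_fun (isOpen_Lo _).measurableSet fun p hp =>
          g2_congr_of (isOpen_Lo _) eqL hp
      rw [e]
      exact En_pr_le (isOpen_Lo _) hzm hl hl01 hl0 hle
    have h4 : En (Up Bp) ζ ≤ 2 * (ε / 9) + 2 * (ε / 9) := by
      have e : En (Up Bp) ζ = En (Up Bp) (fun p => 1 - (1 - lam p) * (1 - zp p)) :=
        setIntegral_congr_fun (isOpen_Up _).measurableSet fun p hp =>
          g2_congr_of (isOpen_Up _) eqU hp
      rw [e]
      exact En_pr_le (isOpen_Up _) hzp hl hl01 hl0 hle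
    have h5 : En U2 ζ ≤ ε / 9 := by
      have e : En U2 ζ = En U2 lam :=
        setIntegral_congr_fun hU2o.measurableSet fun p hp => g2_congr_of hU2o eqM hp
      rw [e]
      exact (En_mono isOpen_univ (hl.cfj (𝓗 := hairs E)) (isCompact_closedBall q R)
        (fun p _ hp => hl0 p (by rw [mem_closedBall, not_le] at hp; exact hp.le))
        (subset_univ U2)).trans hle
    linarith
  · obtain ⟨⟨⟨hpm, hpp⟩, hpt⟩, hpE⟩ := hp
    rcases le_or_gt p.2 (β - d) with c1 | c1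
    · have hlt : p.2 < Bm := by linarith
      have hz := hm1 p ⟨hpm, hpE⟩ c1
      simp only [hζ]
      rw [if_pos hlt, hz]; ring
    · rcases le_or_gt (β + d) p.2 with c2 | c2
      · have hlt : Bp < p.2 := by linarith
        have hz := hp1 p ⟨hpp, hpE⟩ c2
        simp only [hζ]
        rw [if_neg (by linarith), if_pos hlt, hz]; ring
      · have hlp : lam p = 1 := near p ((near_car hpt).1.trans (by linarith))
          (by rw [abs_lt]; constructor <;> linarith)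
        have hpU : p ∈ U2 := ⟨by show p.2 < β + 2 * d; linarith, by show β - 2 * d < p.2; linarith⟩
        rw [eqM hpU, hlp]

/-- the cut-off can be changed on `E` -/
theorem patch {E : Set (ℝ × ℝ)} (hE : volume E = 0) {K : Hair} {N : Set (ℝ × ℝ)} (hN : IsOpen N)
    (hKN : K.car ⊆ N) {ε : ℝ} {ζ : ℝ × ℝ → ℝ} (h : Half E univ N ε ζ) {O : Set (ℝ × ℝ)}
    (hO : IsOpen O) (hKO : K.car ⊆ O) (h1 : ∀ p ∈ O \ E, ζ p = 1) :
    ∃ ζ', Half E univ N ε ζ' ∧ ∃ O', IsOpen O' ∧ K.car ⊆ O' ∧ ∀ p ∈ O', ζ' p = 1 := by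
  classical
  obtain ⟨δ, hδ, hδN⟩ := K.isCompact_car.exists_cthickening_subset_open hN hKN
  set O' := O ∩ thickening δ K.car with hO'
  have hO'o : IsOpen O' := hO.inter isOpen_thickening
  have hdense : Dense Eᶜ := by
    have := Measure.dense_of_ae (measure_eq_zero_iff_ae_notMem.mp hE)
    simpa [Set.compl_def] using this
  obtain ⟨J, hJ, hc⟩ := h.cf
  have hone : ∀ p ∈ O' \ cut J, ζ p = 1 := by
    intro p hp
    have hcl : p ∈ closure (O ∩ Eᶜ) := hdense.open_subset_closure_inter hO hp.1.1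
    have hcont : ContinuousAt ζ p :=
      hc.continuousAt (isOpen_diff_cut isOpen_univ J) ⟨mem_univ _, hp.2⟩
    have h2 : MapsTo ζ (O ∩ Eᶜ) {1} := fun y hy => h1 y hy
    have := hcont.continuousWithinAt.mem_closure hcl h2
    simpa using this
  set ζ' : ℝ × ℝ → ℝ := fun p => if p ∈ O' then 1 else ζ p with hζ'
  have heq : EqOn ζ ζ' (univ \ cut J) := by
    intro p hp
    simp only [hζ']
    split_ifs with hpO
    · exact hone p ⟨hpO, hp.2⟩
    · rfl
  obtain ⟨S, hS, hSN, hS0⟩ := h.sp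
  refine ⟨ζ', ⟨⟨J, hJ, hc.congr heq⟩, fun p => ?_, ⟨S ∪ cthickening δ K.car,
    hS.union K.isCompact_car.cthickening, union_subset hSN hδN, fun p _ hp => ?_⟩, ?_⟩, O', hO'o,
    subset_inter hKO (self_subset_thickening hδ _), fun p hp => if_pos hp⟩
  · simp only [hζ']
    split_ifs
    · exact ⟨zero_le_one, le_rfl⟩
    · exact h.rg p
  · rw [mem_union, not_or] at hp
    simp only [hζ']
    rw [if_neg fun hpO => hp.2 (thickening_subset_cthickening _ _ hpO.2)]
    exact hS0 p (mem_univ _) hp.1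
  · refine le_of_eq_of_le (En_congr_ae ?_) h.en
    have hs := measure_eq_zero_iff_ae_notMem.mp (volume_cut J)
    filter_upwards [ae_restrict_of_ae hs] with p hp
    exact (g2_congr_of (isOpen_diff_cut isOpen_univ J) heq ⟨mem_univ _, hp⟩).symm

/-- the basic cut-off -/
theorem basic {E : Set (ℝ × ℝ)} (hE : volume E = 0) {K : Hair} (hK : K ∈ hairs E)
    (h : ∀ Bm Bp, Fam E {K} Bm Bp → NullN E {K} Bm Bp) {N : Set (ℝ × ℝ)} (hN : IsOpen N)
    (hKN : K.car ⊆ N) {ε : ℝ} (hε : 0 < ε) :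
    ∃ ζ, Half E univ N ε ζ ∧ ∃ O, IsOpen O ∧ K.car ⊆ O ∧ ∀ p ∈ O, ζ p = 1 := by
  obtain ⟨β, hb, ht, hβ⟩ := exists_level hK h
  obtain ⟨ζ, hζ, O, hO, hKO, h1⟩ := basic0 hb ht hβ hN hKN hε
  exact patch hE hN hKN hζ hO hKO h1

/-- nested averaging -/
theorem nested {E : Set (ℝ × ℝ)} (hE : Pic E) {K : Hair} (hK : K ∈ hairs E)
    (h : ∀ Bm Bp, Fam E {K} Bm Bp → NullN E {K} Bm Bp) (M : ℕ) :
    ∀ N, IsOpen N → K.car ⊆ N → ∀ ε > 0, ∃ σ : ℝ × ℝ → ℝ, CFJ (hairs E) univ σ ∧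
      (∀ p, 0 ≤ σ p ∧ σ p ≤ M) ∧ (∃ S, IsCompact S ∧ S ⊆ N ∧ ∀ p, p ∉ S → σ p = 0) ∧
      En univ σ ≤ ε ∧ (∃ O, IsOpen O ∧ K.car ⊆ O ∧ ∀ p ∈ O, σ p = M) ∧
      ∀ P ∈ Comps E, OscLe Eᶜ P σ 1 := by
  induction M with
  | zero =>
    intro N hN hKN ε hε
    refine ⟨fun _ => 0, CFJ_const 0, fun p => by simp, ⟨∅, isCompact_empty, empty_subset _,
      fun _ _ => rfl⟩, by rw [En_const]; exact hε.le, ⟨univ, isOpen_univ, subset_univ _,
      fun p _ => by simp⟩, fun P _ δ hδ => ⟨univ, isOpen_univ, subset_univ _, fun q _ q' _ => ?_⟩⟩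
    simp only [sub_self, abs_zero]; linarith
  | succ M ih =>
    intro N hN hKN ε hε
    obtain ⟨ζ, hζ, O₁, hO₁, hKO₁, h1⟩ := basic hE.null hK h hN hKN
      (by positivity : 0 < ε / 4)
    obtain ⟨x, hx, hKx⟩ := hK
    obtain ⟨N₂, hN₂, hKN₂, hcl, hclc, hfr⟩ := Thin_12.thin_nhd hE.cpt hx (W := O₁ ∩ N)
      (hO₁.inter hN) (by rw [← hKx]; exact subset_inter hKO₁ hKN)
    rw [← hKx] at hKN₂
    obtain ⟨σ, hσ, hσM, ⟨S', hS', hSN', hS0'⟩, hσe, ⟨O₂, hO₂, hKO₂, h2⟩, hosc⟩ :=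
      ih N₂ hN₂ hKN₂ (ε / 4) (by positivity)
    obtain ⟨S, hS, hSN, hS0⟩ := hζ.sp
    have hN₂N : N₂ ⊆ N := fun p hp => (hcl (subset_closure hp)).2
    have hN₂O : N₂ ⊆ O₁ := fun p hp => (hcl (subset_closure hp)).1
    have hsum : CFJ (hairs E) univ (fun p => ζ p + σ p) := hζ.cf.add hσ
    have h0 : ∀ p, p ∉ S ∪ S' → ζ p + σ p = 0 := fun p hp => by
      rw [mem_union, not_or] at hp
      rw [hS0 p (mem_univ _) hp.1, hS0' p hp.2, add_zero]
    refine ⟨fun p => ζ p + σ p, hsum, fun p => ?_, ⟨S ∪ S', hS.union hS',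
      union_subset hSN (hSN'.trans hN₂N), h0⟩, ?_, ⟨O₁ ∩ O₂, hO₁.inter hO₂,
      subset_inter hKO₁ hKO₂, fun p hp => ?_⟩, ?_⟩
    · have a1 := hζ.rg p
      have a2 := hσM p
      push_cast
      exact ⟨by linarith, by linarith⟩
    · obtain ⟨r, hr⟩ := (hS.union hS').isBounded.subset_ball 0
      have hWb : volume (univ ∩ ball (0 : ℝ × ℝ) r) ≠ ∞ :=
        ((measure_mono inter_subset_right).trans_lt measure_ball_lt_top).ne
      have hWo : IsOpen (univ ∩ ball (0 : ℝ × ℝ) r) := isOpen_univ.inter isOpen_ball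
      rw [En_restrict isOpen_univ (hS.union hS').isClosed hr fun p _ hp => h0 p hp]
      have e1 := (hζ.cf.mono subset_rfl
        (inter_subset_left : univ ∩ ball (0 : ℝ × ℝ) r ⊆ univ)).En_add_le hWo hWb
        (hσ.mono subset_rfl (inter_subset_left : univ ∩ ball (0 : ℝ × ℝ) r ⊆ univ))
      rw [← En_restrict isOpen_univ hS.isClosed (subset_union_left.trans hr) hS0,
        ← En_restrict isOpen_univ hS'.isClosed (subset_union_right.trans hr)
          (fun p _ hp => hS0' p hp)] at e1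
      have := hζ.en
      linarith
    · beta_reduce
      rw [h1 p hp.1, h2 p hp.2]; push_cast; ring
    · intro P hP
      obtain ⟨y, hy, rfl⟩ := hP
      have hcases : connectedComponentIn E y ⊆ N₂ ∨
          connectedComponentIn E y ⊆ (closure N₂)ᶜ := by
        refine (isPreconnected_connectedComponentIn).subset_or_subset hN₂
          isClosed_closure.isOpen_compl ?_ ?_
        · rw [Set.disjoint_left]
          exact fun p hp hp' => hp' (subset_closure hp)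
        · intro p hp
          by_cases hpN : p ∈ N₂
          · exact Or.inl hpN
          · refine Or.inr fun hpc => Set.disjoint_left.1 hfr ?_ (connectedComponentIn_subset _ _ hp)
            rw [hN₂.frontier_eq]
            exact ⟨hpc, hpN⟩
      rcases hcases with hc | hc
      · intro δ hδ
        obtain ⟨O, hO, hPO, H⟩ := hosc _ ⟨y, hy, rfl⟩ δ hδ
        refine ⟨O ∩ N₂, hO.inter hN₂, subset_inter hPO hc, fun q hq q' hq' => ?_⟩
        beta_reduce
        rw [h1 q (hN₂O hq.1.2), h1 q' (hN₂O hq'.1.2), add_sub_add_left_eq_sub]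
        exact H q ⟨hq.1.1, hq.2⟩ q' ⟨hq'.1.1, hq'.2⟩
      · intro δ hδ
        refine ⟨(closure N₂)ᶜ, isClosed_closure.isOpen_compl, hc, fun q hq q' hq' => ?_⟩
        beta_reduce
        rw [hS0' q fun hqS => hq.1 (subset_closure (hSN' hqS)),
          hS0' q' fun hqS => hq'.1 (subset_closure (hSN' hqS)), add_zero, add_zero]
        have a1 := hζ.rg q
        have a2 := hζ.rg q'
        rw [abs_le]
        constructor <;> linarith

/-- **SINGLE** -/
theorem single : SINGLE := by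
  intro E hE K hK h N hN hKN M hM ε hε
  have hM0 : (0 : ℝ) < M := by exact_mod_cast hM
  obtain ⟨σ, hσ, hσM, ⟨S, hS, hSN, hS0⟩, hσe, ⟨O, hO, hKO, h1⟩, hosc⟩ :=
    nested hE hK h M N hN hKN (M ^ 2 * ε) (by positivity)
  refine ⟨fun p => (M : ℝ)⁻¹ * σ p, ⟨hσ.const_mul _, fun p => ⟨?_, ?_⟩, ⟨S, hS, hSN,
    fun p _ hp => ?_⟩, ?_⟩, ⟨O, hO, hKO, fun p hp => ?_⟩, fun P hP => ?_⟩
  · have := (hσM p).1; positivity
  · rw [inv_mul_le_iff₀ hM0, mul_one]; exact (hσM p).2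
  · beta_reduce
    rw [hS0 p hp, mul_zero]
  · rw [hσ.En_const_mul isOpen_univ]
    calc ((M : ℝ)⁻¹) ^ 2 * En univ σ ≤ ((M : ℝ)⁻¹) ^ 2 * (M ^ 2 * ε) :=
          mul_le_mul_of_nonneg_left hσe (by positivity)
      _ = ε := by field_simp
  · beta_reduce
    rw [h1 p hp]; exact inv_mul_cancel₀ hM0.ne'
  · intro δ hδ
    obtain ⟨O', hO', hPO', H⟩ := hosc P hP (M * δ) (by positivity)
    refine ⟨O', hO', hPO', fun q hq q' hq' => ?_⟩
    beta_reduce
    rw [← mul_sub, abs_mul, abs_of_pos (by positivity : (0 : ℝ) < (M : ℝ)⁻¹),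
      inv_mul_le_iff₀ hM0]
    refine (H q hq q' hq').trans (le_of_eq ?_)
    field_simp

end Crest.Agent.R105.Sin_925
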