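import Crest.Agent.R105.Skp2_257

/-!
# Row 105: leaf `START` of 257's skeleton of PP

The one-sided ramp at a hair violates the Euler-Lagrange condition.
-/

namespace Crest.Agent.R105.Skst2_49

open Set Filter MeasureTheory Topology
open CF_363 Stp_722 Skp2_257
open scoped ENNReal NNReal

/-- the one-sided ramp -/
noncomputable def rmp (K : Hair) (χ : ℝ → ℝ) (p : ℝ × ℝ) : ℝ :=
  if K.x < p.1 then χ p.2 * ramp 1 (p.1 - K.x) else 0

/-- the tent over `[b,t]` -/
noncomputable def tent (K : Hair) (y : ℝ) : ℝ := ramp ((K.t - K.b) / 2) (y - (K.b + K.t) / 2)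

theorem tent_zero (K : Hair) {y : ℝ} (hy : y ∉ Icc K.b K.t) : tent K y = 0 := by
  have hbt := K.hbt
  refine ramp_eq_zero (by linarith) ?_
  rw [mem_Icc, not_and_or, not_le, not_le] at hy
  rcases hy with h | h
  · rw [abs_of_neg (by linarith)]; linarith
  · rw [abs_of_pos (by linarith)]; linarith

theorem tent_lip (K : Hair) (s t : ℝ) :
    |tent K s - tent K t| ≤ ((K.t - K.b) / 2)⁻¹ * |s - t| := by
  have hbt := K.hbt
  have := ramp_lip (r := (K.t - K.b) / 2) (by linarith) (s - (K.b + K.t) / 2)
    (t - (K.b + K.t) / 2)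
  rwa [sub_sub_sub_cancel_right] at this

theorem tent_nonneg (K : Hair) (y : ℝ) : 0 ≤ tent K y := ramp_nonneg _ _

theorem tent_le_one (K : Hair) (y : ℝ) : tent K y ≤ 1 :=
  ramp_le_one (by have := K.hbt; linarith) _

theorem continuous_tent (K : Hair) : Continuous (tent K) := by
  unfold tent ramp; fun_prop

theorem tent_cpt (K : Hair) : HasCompactSupport (tent K) :=
  HasCompactSupport.intro isCompact_Icc fun _ hy => tent_zero K hy

theorem integral_tent_pos (K : Hair) : 0 < ∫ y, tent K y := by
  refine (continuous_tent K).integral_pos_of_hasCompactSupport_nonneg_nonzero (tent_cpt K)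
    (fun y => tent_nonneg K y) (x := (K.b + K.t) / 2) ?_
  simp [tent, ramp_zero]

/-- a.e. value of the horizontal derivative -/
theorem gx_rmp (K : Hair) : ∀ᵐ p : ℝ × ℝ, gx (rmp K (tent K)) p =
    (Ioo K.x (K.x + 1)).indicator (fun _ => (-1 : ℝ)) p.1 * tent K p.2 := by
  have hbt := K.hbt
  have hcf : CF K.carᶜ (rmp K (tent K)) := CF_ramp_right K (A := 1) (M := ((K.t - K.b) / 2)⁻¹)
    zero_le_one (inv_nonneg.2 (by linarith)) zero_lt_one (tent_lip K)
    (fun s => by rw [abs_of_nonneg (tent_nonneg K s)]; exact tent_le_one K s)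
    (fun y hy => tent_zero K hy)
  obtain ⟨L, C, hL, h1, h2⟩ := hcf
  have hd := h1.ae_differentiableAt (μ := volume) K.isClosed_car.isOpen_compl
  have hn1 : ∀ c : ℝ, ∀ᵐ p : ℝ × ℝ, p.1 ≠ c := by
    intro c
    have h3 : volume {p : ℝ × ℝ | p.1 = c} = 0 := by
      have : {p : ℝ × ℝ | p.1 = c} = {c} ×ˢ univ := by ext p; simp
      rw [this, Measure.volume_eq_prod, Measure.prod_prod]; simp
    have := measure_eq_zero_iff_ae_notMem.mp h3
    filter_upwards [this] with p hp using hp
  filter_upwards [hd, hn1 K.x, hn1 (K.x + 1)] with p hp hx hx1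
  by_cases hin : p.1 ∈ Ioo K.x (K.x + 1)
  · rw [indicator_of_mem hin]
    have hpK : p ∈ K.carᶜ := fun h => hx h.1
    have hder := gx_eq_deriv (f := rmp K (tent K)) (x := p.1) (y := p.2) (hp hpK)
    have hder2 : HasDerivAt (fun s => rmp K (tent K) (s, p.2)) (-1 * tent K p.2) p.1 := by
      have h4 : HasDerivAt (fun s : ℝ => tent K p.2 * (1 - (s - K.x))) (-1 * tent K p.2) p.1 := by
        have := (((hasDerivAt_id p.1).sub_const K.x).const_sub 1).const_mul (tent K p.2)
        have h5 : tent K p.2 * -1 = -1 * tent K p.2 := by ring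
        rw [← h5]
        exact this
      refine h4.congr_of_eventuallyEq ?_
      filter_upwards [Ioo_mem_nhds hin.1 hin.2] with s hs
      have h5 : ramp 1 (s - K.x) = 1 - (s - K.x) := by
        unfold ramp
        rw [abs_of_pos (by linarith [hs.1]), div_one, max_eq_right (by linarith [hs.2])]
      simp only [rmp, if_pos hs.1, h5]
    exact hder.unique hder2
  · rw [indicator_of_notMem hin, zero_mul]
    rw [mem_Ioo, not_and_or, not_lt, not_lt] at hin
    have h6 : rmp K (tent K) =ᶠ[𝓝 p] fun _ => (0 : ℝ) := by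
      rcases hin with h | h
      · have : ∀ᶠ q : ℝ × ℝ in 𝓝 p, q.1 < K.x :=
          (continuous_fst.tendsto p).eventually (Iio_mem_nhds (lt_of_le_of_ne h hx))
        filter_upwards [this] with q hq
        simp only [rmp, if_neg (not_lt.2 hq.le)]
      · have : ∀ᶠ q : ℝ × ℝ in 𝓝 p, K.x + 1 < q.1 :=
          (continuous_fst.tendsto p).eventually (Ioi_mem_nhds (lt_of_le_of_ne h (Ne.symm hx1)))
        filter_upwards [this] with q hq
        have h7 : ramp 1 (q.1 - K.x) = 0 := ramp_eq_zero zero_lt_one (by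
          rw [abs_of_pos (by linarith)]; linarith)
        simp [rmp, h7]
    rw [gx_congr h6, gx_const]

/-- **START** -/
theorem start : START := by
  intro E hE K hK
  have hbt := K.hbt
  refine ⟨rmp K (tent K), ?_, ?_, ⟨1, fun p => ?_⟩, ?_⟩
  · refine ⟨{K}, by simpa using hK, ?_⟩
    have h1 : (univ \ cut {K} : Set (ℝ × ℝ)) = K.carᶜ := by
      rw [cut_eq_biUnion]; simp [compl_eq_univ_sdiff]
    rw [h1]
    exact CF_ramp_right K (A := 1) (M := ((K.t - K.b) / 2)⁻¹)
      zero_le_one (inv_nonneg.2 (by linarith)) zero_lt_one (tent_lip K)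
      (fun s => by rw [abs_of_nonneg (tent_nonneg K s)]; exact tent_le_one K s)
      (fun y hy => tent_zero K hy)
  · refine HasCompactSupport.intro (K := Icc K.x (K.x + 1) ×ˢ Icc K.b K.t)
      (isCompact_Icc.prod isCompact_Icc) fun p hp => ?_
    rw [mem_prod, not_and_or] at hp
    rcases hp with h | h
    · rw [mem_Icc, not_and_or, not_le, not_le] at h
      rcases h with h | h
      · simp only [rmp, if_neg (not_lt.2 h.le)]
      · have h7 : ramp 1 (p.1 - K.x) = 0 := ramp_eq_zero zero_lt_one (by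
          rw [abs_of_pos (by linarith)]; linarith)
        simp [rmp, h7]
    · simp [rmp, tent_zero K h]
  · unfold rmp
    split_ifs
    · rw [abs_of_nonneg (mul_nonneg (tent_nonneg K _) (ramp_nonneg _ _))]
      exact mul_le_one₀ (tent_le_one K _) (ramp_nonneg _ _) (ramp_le_one zero_le_one _)
    · simp
  · have hres : (volume : Measure (ℝ × ℝ)).restrict Eᶜ = volume :=
      Measure.restrict_eq_self_of_ae_mem (measure_eq_zero_iff_ae_notMem.mp hE.null)
    rw [hres, integral_congr_ae (gx_rmp K), Measure.volume_eq_prod,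
      integral_prod_mul (fun x => (Ioo K.x (K.x + 1)).indicator (fun _ => (-1 : ℝ)) x)
        (fun y => tent K y)]
    have h8 : ∫ x, (Ioo K.x (K.x + 1)).indicator (fun _ => (-1 : ℝ)) x = -1 := by
      rw [integral_indicator measurableSet_Ioo, setIntegral_const]
      simp
    rw [h8]
    have := integral_tent_pos K
    rw [abs_pos]
    nlinarith

end Crest.Agent.R105.Skst2_49
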