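import Crest.Agent.R105.Lop3_744

/-!
# Row 105: `Stp_722.LayerOp` and `Stp_722.Setup` for a slit picture, from `LayOut` for all compact
families.
-/

set_option autoImplicit false

noncomputable section

namespace Crest.Agent.R105.Lop4_744

open Set Filter MeasureTheory Topology Metric
open CF_363 Stp_722 Skp2_257 Lop1_744 Lop2_744 Lop3_744
open scoped ENNReal NNReal

/-- the two operations act on disjoint half planes -/
theorem op2_sub {h z z' c c' χ : ℝ × ℝ → ℝ} {B B' τ : ℝ} (hBB : B < B') (hτ : 0 < τ) :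
    (fun q => op2 h B B' τ z z' c c' χ q - χ q) =
      fun q => (op h B τ z c χ q - χ q) + (op (fun x => - h x) (-B') τ z' c' χ q - χ q) := by
  funext q
  rcases le_or_gt (h q) B' with h1 | h1
  · have e1 : op2 h B B' τ z z' c c' χ q = op h B τ z c χ q := op2_upper hτ h1
    have e2 : op (fun x => - h x) (-B') τ z' c' χ q = χ q := op_eq_of_le hτ (by linarith)
    rw [e1, e2]; ring
  · have e1 : op h B τ z c χ q = χ q := op_eq_of_le hτ (by linarith)
    have e2 : op2 h B B' τ z z' c c' χ q = op (fun x => - h x) (-B') τ z' c' χ q := by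
      change op h B τ z c χ q + th (-B') τ (-h q) * z' q * (c' q - op h B τ z c χ q) =
        χ q + th (-B') τ (-h q) * z' q * (c' q - χ q)
      rw [e1]
    rw [e1, e2]; ring

variable {E : Set (ℝ × ℝ)}

theorem hair_cc {x : ℝ × ℝ} (hx : x ∈ un (hairs E)) :
    ∃ K ∈ hairs E, connectedComponentIn E x = K.car ∧ x ∈ K.car := by
  obtain ⟨K, hK, hxK⟩ := mem_un.1 hx
  exact ⟨K, hK, cc_of_mem hK hxK, hxK⟩

/-- the family of hairs contained in a saturated set -/
def famG (E G : Set (ℝ × ℝ)) : Set Hair := {K | K ∈ hairs E ∧ K.car ⊆ G}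

theorem un_famG {G : Set (ℝ × ℝ)} (hGH : G ⊆ un (hairs E))
    (hGs : ∀ x ∈ G, ∀ y ∈ connectedComponentIn E x, y ∈ G) : un (famG E G) = G := by
  ext x
  constructor
  · intro hx
    obtain ⟨K, hK, hxK⟩ := mem_un.1 hx
    exact hK.2 hxK
  · intro hx
    obtain ⟨K, hK, hcc, hxK⟩ := hair_cc (hGH hx)
    exact mem_un.2 ⟨K, ⟨hK, fun y hy => hGs x hx y (hcc ▸ hy)⟩, hxK⟩

theorem fam_famG {G : Set (ℝ × ℝ)} {B B' : ℝ} (hBB : B < B') (hG : IsCompact G)
    (hGH : G ⊆ un (hairs E)) (hGs : ∀ x ∈ G, ∀ y ∈ connectedComponentIn E x, y ∈ G)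
    (hcross : ∀ x ∈ G, (∃ y ∈ connectedComponentIn E x, y.2 ≤ B) ∧
      ∃ y ∈ connectedComponentIn E x, B' ≤ y.2) : Fam E (famG E G) B B' where
  lt := hBB
  sub := fun K hK => hK.1
  cpt := by rw [un_famG hGH hGs]; exact hG
  crs := by
    intro K hK
    have hb := hK.2 (bot_mem_car K)
    obtain ⟨⟨y, hy, hyB⟩, ⟨w, hw, hwB⟩⟩ := hcross _ hb
    rw [cc_of_mem hK.1 (bot_mem_car K)] at hy hw
    exact ⟨hy.2.1.trans hyB, hwB.trans hw.2.2⟩

/-- **LayerOp** for a slit picture. -/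
theorem layerOp (hE : Pic E) (hL : ∀ g Bm Bp, Fam E g Bm Bp → LayOut E g Bm Bp) :
    LayerOp Eᶜ E Prod.snd (un (hairs E)) (Cl E) (Ds E) := by
  classical
  intro B B' G W χ c c' R τ m ε hBB hG hGH hGs hW hGW hcross hχ hχR hcR hc'R hc hc' hτ hm hε
  have hun := un_famG hGH hGs
  have hFam : Fam E (famG E G) B B' := fam_famG hBB hG hGH hGs hcross
  obtain ⟨J, hJ, L, _, hL0, h1, _⟩ := hχ.1
  have hR0 : 0 ≤ R := (abs_nonneg _).trans (hχR (0, 0))
  set K0 : ℝ := 4 * L ^ 2 + 32 * R ^ 2 / τ ^ 2 with hK0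
  have hK00 : 0 ≤ K0 := by positivity
  set η : ℝ := ε ^ 2 / (8 * (K0 + 1)) with hη
  set ε' : ℝ := ε ^ 2 / (8 * (16 * R ^ 2 + 1)) with hε'
  have hη0 : 0 < η := by positivity
  have hε'0 : 0 < ε' := by positivity
  have hKη : K0 * η ≤ ε ^ 2 / 8 := by
    rw [hη, ← mul_div_assoc, div_le_div_iff₀ (by positivity) (by norm_num)]
    nlinarith [sq_nonneg ε]
  have hRε : 16 * R ^ 2 * ε' ≤ ε ^ 2 / 8 := by
    rw [hε', ← mul_div_assoc, div_le_div_iff₀ (by positivity) (by norm_num)]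
    nlinarith [sq_nonneg ε]
  have hGE : G ⊆ E := hGH.trans (un_sub subset_rfl)
  have hG0 : volume G = 0 := measure_mono_null hGE hE.null
  obtain ⟨O₁, hGO, hO₁, hvO⟩ := G.exists_isOpen_lt_of_lt (μ := volume) (ENNReal.ofReal η)
    (by rw [hG0]; exact ENNReal.ofReal_pos.2 hη0)
  have hNo : IsOpen (W ∩ O₁) := hW.inter hO₁
  have hGN : un (famG E G) ⊆ W ∩ O₁ := by rw [hun]; exact subset_inter hGW hGO
  have hNv : volume (W ∩ O₁) < ENNReal.ofReal η := (measure_mono inter_subset_right).trans_lt hvO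
  have hNv' : (volume (W ∩ O₁)).toReal ≤ η := ENNReal.toReal_le_of_le_ofReal hη0.le hNv.le
  have hNfin : volume (W ∩ O₁) ≠ ∞ := (hNv.trans ENNReal.ofReal_lt_top).ne
  obtain ⟨zm, zp, hzm, hzp, hom, hop, hone⟩ := hL _ B B' hFam (W ∩ O₁) hNo hGN (⌈1 / m⌉₊ + 1)
    (by omega) ε' hε'0
  have hMm : (1 : ℝ) / ((⌈1 / m⌉₊ + 1 : ℕ) : ℝ) ≤ m := by
    rw [div_le_iff₀ (by positivity)]
    have h2 : 1 / m ≤ ((⌈1 / m⌉₊ + 1 : ℕ) : ℝ) := by
      push_cast
      linarith [Nat.le_ceil (1 / m)]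
    rw [div_le_iff₀ hm] at h2
    linarith
  have hUp : Up B' = {x : ℝ × ℝ | - x.2 < -B'} := by
    ext x; simp [Up]
  have hz1 : One E Prod.snd B (W ∩ O₁) ε' ((Lo B).indicator zm) :=
    one_of_half hzm rfl (isOpen_Lo B)
  have hz2 : One E (fun x => - x.2) (-B') (W ∩ O₁) ε' ((Up B').indicator zp) :=
    one_of_half hzp hUp (isOpen_Up B')
  have hcl1 : Cl E (op Prod.snd B τ ((Lo B).indicator zm) c χ) :=
    hz1.op_spec lip_snd hτ inter_subset_left hχ hc hcR hχR
  have hcl2 : Cl E (op (fun x => - x.2) (-B') τ ((Up B').indicator zp) c' χ) :=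
    hz2.op_spec lip_neg_snd hτ inter_subset_left hχ hc' hc'R hχR
  have hcl : Cl E (op2 Prod.snd B B' τ ((Lo B).indicator zm) ((Up B').indicator zp) c c' χ) :=
    hz2.op_spec lip_neg_snd hτ inter_subset_left hcl1 hc' hc'R (op_abs_le hz1.z01 hcR hχR)
  obtain ⟨i1, en1⟩ := hz1.op_energy lip_snd hτ (volume_snd_eq B) inter_subset_left hNfin hL0 h1
    hc hcR hχR
  obtain ⟨i2, en2⟩ := hz2.op_energy lip_neg_snd hτ (volume_neg_snd_eq (-B')) inter_subset_left
    hNfin hL0 h1 hc' hc'R hχR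
  refine ⟨(Lo B).indicator zm, (Up B').indicator zp, ⟨hz1.z01, ?_, ?_⟩, ⟨hz2.z01, ?_, ?_⟩, ?_,
    hcl, hχ, hcl, hε.le, ?_, ?_⟩
  · obtain ⟨C, hC, hCN, h0⟩ := hz1.supp
    exact ⟨C, hC.isClosed, hCN.trans inter_subset_left, h0⟩
  · intro x hx
    refine ((hom _ ⟨x, hx, rfl⟩).mono hMm).congr isOpen_univ (subset_univ _) fun q hq => ?_
    exact indicator_of_mem hq.2.2 zm
  · obtain ⟨C, hC, hCN, h0⟩ := hz2.supp
    exact ⟨C, hC.isClosed, hCN.trans inter_subset_left, h0⟩
  · intro x hx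
    have h3 : OscLe (Eᶜ ∩ Up B') (connectedComponentIn E x ∩ {p | B' ≤ p.2})
        ((Up B').indicator zp) m :=
      ((hop _ ⟨x, hx, rfl⟩).mono hMm).congr isOpen_univ (subset_univ _) fun q hq =>
        indicator_of_mem hq.2.2 zp
    have e1 : {y : ℝ × ℝ | (fun x : ℝ × ℝ => - Prod.snd x) y < -B'} = Up B' := hUp.symm
    have e2 : {y : ℝ × ℝ | (fun x : ℝ × ℝ => - Prod.snd x) y ≤ -B'} = {p | B' ≤ p.2} := by
      ext y; simp
    rw [e1, e2]
    exact h3
  · intro x hx
    have hx' : x ∈ un (famG E G) := by rw [hun]; exact hx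
    obtain ⟨K, hK, hxK⟩ := mem_un.1 hx'
    have hcc := cc_of_mem hK.1 hxK
    rcases hone K hK with ⟨O, hO, hKO, hO1⟩ | ⟨O, hO, hKO, hO1⟩
    · left
      refine ⟨O, hO, by rw [hcc]; exact hKO, fun q hq hqB => ?_⟩
      rw [indicator_of_mem (show q ∈ Lo B from hqB)]
      exact hO1 q hq hqB
    · right
      refine ⟨O, hO, ?_, fun q hq hqB => ?_⟩
      · rw [hcc]
        rintro y ⟨hy, hyB⟩
        refine hKO ⟨hy, ?_⟩
        have h4 : - y.2 ≤ -B' := hyB
        change B' ≤ y.2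
        linarith
      · have h4 : - q.2 < -B' := hqB
        have h5 : q ∈ Up B' := by change B' < q.2; linarith
        rw [indicator_of_mem h5]
        exact hO1 q hq h5
  all_goals
    have hd : ∀ᵐ p : ℝ × ℝ,
        g2 (fun q => op2 Prod.snd B B' τ ((Lo B).indicator zm) ((Up B').indicator zp) c c' χ q
          - χ q) p ≤
        2 * g2 (fun q => op Prod.snd B τ ((Lo B).indicator zm) c χ q - χ q) p +
        2 * g2 (fun q => op (fun x => - x.2) (-B') τ ((Up B').indicator zp) c' χ q - χ q) p := by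
      rw [op2_sub hBB hτ]
      filter_upwards [hχ.ae_diff, hcl1.ae_diff, hcl2.ae_diff] with p a b d
      have := g2_add_weighted (b.sub a) (d.sub a) one_pos one_pos
      refine this.trans (le_of_eq ?_)
      have e2 : (1 + 1 / 1 : ℝ) = 2 := by norm_num
      rw [e2]; rfl
    have hI : Integrable (g2 (fun q =>
        op2 Prod.snd B B' τ ((Lo B).indicator zm) ((Up B').indicator zp) c c' χ q - χ q)) := by
      refine ((i1.const_mul 2).add (i2.const_mul 2)).mono'
        (measurable_g2 _).aestronglyMeasurable ?_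
      filter_upwards [hd] with p hp
      rw [Real.norm_of_nonneg (g2_nonneg _ p)]
      exact hp
  · exact hI
  · refine (integral_mono_ae hI ((i1.const_mul 2).add (i2.const_mul 2)) hd).trans ?_
    simp only [Pi.add_apply]
    rw [integral_add (i1.const_mul 2) (i2.const_mul 2), integral_const_mul, integral_const_mul]
    have k1 : K0 * (volume (W ∩ O₁)).toReal ≤ K0 * η := by gcongr
    nlinarith

theorem closure_compl_eq (hE : Pic E) : closure Eᶜ = univ := by
  rw [closure_compl, Measure.interior_eq_empty_of_null hE.null, compl_empty]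

/-- **the standing assumptions of the STEP** hold in a slit picture. -/
theorem setup (hE : Pic E) (hL : ∀ g Bm Bp, Fam E g Bm Bp → LayOut E g Bm Bp) :
    Setup Eᶜ E Prod.snd (un (hairs E)) (Cl E) (Ds E) where
  hE := hE.cpt
  hh := continuous_snd
  lev := fun x _ => Lev.of_preconnected continuous_snd isPreconnected_connectedComponentIn
    (by rw [closure_compl_eq hE]; exact subset_univ _)
  inj := by
    intro x hx p hp q hq hpq
    obtain ⟨K, hK, hcc, _⟩ := hair_cc hx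
    rw [hcc] at hp hq
    exact Prod.ext (hp.1.trans hq.1.symm) hpq
  vis := fun x _ => by rw [closure_compl_eq hE]; exact subset_univ _
  D0 := fun χ hχ => Ds.refl hχ
  Dadd := fun _ _ _ _ _ h1 h2 => h1.trans h2
  layer := layerOp hE hL

end Crest.Agent.R105.Lop4_744
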