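import Crest.Agent.R105.Stp11_722
import Crest.Agent.R105.Lop4_744

/-!
Row 105 (Koebe): **leaf STEP of 257's skeleton `Skp2_257`**.
-/

set_option autoImplicit false

open Set Filter Topology Metric MeasureTheory

namespace Crest.Agent.R105.Stp_722

open CF_363 Skp2_257 SkLim2_363

theorem DE_of_Ds {E : Set (ℝ × ℝ)} {χ χ' : ℝ × ℝ → ℝ} {ε : ℝ} (h : Lop3_744.Ds E χ χ' ε) :
    DE E χ χ' ε := by
  obtain ⟨h1, h2, h3, h4, h5⟩ := h
  exact ⟨h3, h1, h2, (setIntegral_le_integral h4 (Eventually.of_forall fun p =>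
    g2_nonneg _ p)).trans h5⟩

/-- **STEP** of `Skp2_257`. -/
theorem step : Skp2_257.STEP := by
  intro E hE hL hS
  refine stepOut_of hE ?_ hS
  intro B B' G W χ c c' R τ m ε h1 h2 h3 h4 h5 h6 h7 h8 h9 h10 h11 h12 h13 h14 h15 h16
  obtain ⟨z, z', hz, hz', ho, hcl, hd⟩ := (Lop4_744.setup hE hL).layer B B' G W χ c c' R τ m ε
    h1 h2 h3 h4 h5 h6 h7 h8 h9 h10 h11 h12 h13 h14 h15 h16
  exact ⟨z, z', hz, hz', ho, hcl, DE_of_Ds hd⟩

end Crest.Agent.R105.Stp_722
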