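import Mathlib
import Crest.Agent.R105.Pth2_988

/-!
# Row 105 (Koebe), univalence of `p = x + i y`, part 2 (helper133): the flux inequality
-/

set_option autoImplicit false

open Set Filter Topology Metric Complex MeasureTheory
open scoped ComplexConjugate ContDiff

namespace Crest.Agent.R105.Unv_133

/-- smooth cut-off, equal to one near a compact set -/
theorem exists_cutoff {K W : Set ℂ} (hK : IsCompact K) (hW : IsOpen W) (hKW : K ⊆ W) :
    ∃ χ : ℂ → ℝ, ContDiff ℝ ∞ χ ∧ HasCompactSupport χ ∧ tsupport χ ⊆ W ∧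
      (∀ᶠ y in 𝓝ˢ K, χ y = 1) ∧ ∀ y, χ y ∈ Icc (0 : ℝ) 1 := by
  obtain ⟨V, hVo, hKV, hVΩ, hVc⟩ := exists_open_between_and_isCompact_closure hK hW hKW
  obtain ⟨f, hf1, hf0, hf⟩ := exists_contMDiffMap_one_nhds_of_subset_interior
    (modelWithCornersSelf ℝ ℂ) (n := (⊤ : ℕ∞)) hK.isClosed (t := V)
    (hKV.trans (interior_eq_iff_isOpen.mpr hVo).ge)
  have hsm : ContDiff ℝ ∞ (f : ℂ → ℝ) := f.contMDiff.contDiff
  have hts : tsupport (f : ℂ → ℝ) ⊆ closure V := by
    apply closure_mono
    intro x hx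
    by_contra h
    exact hx (hf0 x h)
  have hcs : HasCompactSupport (f : ℂ → ℝ) := hVc.of_isClosed_subset isClosed_closure hts
  exact ⟨f, hsm, hcs, hts.trans hVΩ, hf1, hf⟩

/-- the integral of the Jacobian of `(χ, K)` vanishes (real functions) -/
theorem stokes {χ K : ℂ → ℝ} (h1 : ContDiff ℝ 1 χ) (h2 : HasCompactSupport χ)
    (hK : ContDiff ℝ 2 K) :
    ∫ z, (fderiv ℝ χ z I * fderiv ℝ K z 1 - fderiv ℝ χ z 1 * fderiv ℝ K z I) = 0 := by
  have hχc : Continuous (fderiv ℝ χ) := h1.continuous_fderiv one_ne_zero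
  have hχs : HasCompactSupport (fderiv ℝ χ) := h2.fderiv (𝕜 := ℝ)
  have hK1 : ContDiff ℝ 1 (fderiv ℝ K) := hK.fderiv_right (by norm_num)
  have hK1d : Differentiable ℝ (fderiv ℝ K) := hK1.differentiable one_ne_zero
  have hKc : Continuous (fderiv ℝ K) := hK1.continuous
  have hK2c : Continuous (fderiv ℝ (fderiv ℝ K)) := hK1.continuous_fderiv one_ne_zero
  have hd : ∀ (a b : ℂ) (z : ℂ), fderiv ℝ (fun z => fderiv ℝ K z a) z b =
      fderiv ℝ (fderiv ℝ K) z b a := by
    intro a b z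
    have h3 : HasFDerivAt (fun z => fderiv ℝ K z a)
        ((ContinuousLinearMap.apply ℝ ℝ a).comp (fderiv ℝ (fderiv ℝ K) z)) z :=
      (ContinuousLinearMap.apply ℝ ℝ a).hasFDerivAt.comp z (hK1d z).hasFDerivAt
    rw [h3.fderiv]
    rfl
  have hsymm : ∀ z, fderiv ℝ (fderiv ℝ K) z I 1 = fderiv ℝ (fderiv ℝ K) z 1 I := fun z =>
    (hK.contDiffAt (x := z)).isSymmSndFDerivAt (by simp) I 1
  have hib : ∀ a b : ℂ, ∫ z, χ z * fderiv ℝ (fderiv ℝ K) z b a =
      -∫ z, fderiv ℝ χ z b * fderiv ℝ K z a := by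
    intro a b
    have hca : Continuous (fun z => fderiv ℝ K z a) := hKc.clm_apply continuous_const
    have hcab : Continuous (fun z => fderiv ℝ (fderiv ℝ K) z b a) :=
      (hK2c.clm_apply continuous_const).clm_apply continuous_const
    have hcb : Continuous (fun z => fderiv ℝ χ z b) := hχc.clm_apply continuous_const
    have hsb : HasCompactSupport (fun z => fderiv ℝ χ z b) := by
      refine hχs.mono' ?_
      intro z hz
      apply subset_tsupport
      intro h
      exact hz (by simp [h])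
    have e := integral_mul_fderiv_eq_neg_fderiv_mul_of_integrable (μ := volume) (f := χ)
      (g := fun z => fderiv ℝ K z a) (v := b)
      ((hcb.mul hca).integrable_of_hasCompactSupport hsb.mul_right)
      (by
        simp only [hd]
        exact (h1.continuous.mul hcab).integrable_of_hasCompactSupport h2.mul_right)
      ((h1.continuous.mul hca).integrable_of_hasCompactSupport h2.mul_right)
      (fun z _ => h1.differentiable one_ne_zero z)
      (fun z _ => (hK1d z).clm_apply (differentiableAt_const a))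
    simpa only [hd] using e
  have hint : ∀ a b : ℂ, Integrable (fun z => fderiv ℝ χ z b * fderiv ℝ K z a) := by
    intro a b
    have hca : Continuous (fun z => fderiv ℝ K z a) := hKc.clm_apply continuous_const
    have hcb : Continuous (fun z => fderiv ℝ χ z b) := hχc.clm_apply continuous_const
    have hsb : HasCompactSupport (fun z => fderiv ℝ χ z b) := by
      refine hχs.mono' ?_
      intro z hz
      apply subset_tsupport
      intro h
      exact hz (by simp [h])
    exact (hcb.mul hca).integrable_of_hasCompactSupport hsb.mul_right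
  rw [integral_sub (hint 1 I) (hint I 1)]
  have e1 := hib 1 I
  have e2 := hib I 1
  have e3 : (∫ z, χ z * fderiv ℝ (fderiv ℝ K) z I 1) = ∫ z, χ z * fderiv ℝ (fderiv ℝ K) z 1 I := by
    congr 1; funext z; rw [hsymm z]
  rw [e3, e2] at e1
  linear_combination e1

/-- local version: `dχ` has support in `U`, `G` is `C²` on `U` -/
theorem stokes_on {U : Set ℂ} (hU : IsOpen U) {χ G : ℂ → ℝ} (h1 : ContDiff ℝ 1 χ)
    (h2 : HasCompactSupport χ) (h3 : tsupport (fderiv ℝ χ) ⊆ U) (hG : ContDiffOn ℝ 2 G U) :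
    ∫ z in U, (fderiv ℝ χ z I * fderiv ℝ G z 1 - fderiv ℝ χ z 1 * fderiv ℝ G z I) = 0 := by
  have hSc : IsCompact (tsupport (fderiv ℝ χ)) := h2.fderiv (𝕜 := ℝ)
  obtain ⟨ρ, hρ, hρc, hρU, hρ1, -⟩ := exists_cutoff hSc hU h3
  set K : ℂ → ℝ := fun z => ρ z * G z with hK
  have hKc : ContDiff ℝ 2 K := by
    rw [contDiff_iff_contDiffAt]
    intro z
    by_cases hz : z ∈ U
    · have hk' : ContDiffAt ℝ 2 G z := hG.contDiffAt (hU.mem_nhds hz)
      exact (hρ.of_le (WithTop.coe_le_coe.2 le_top)).contDiffAt.mul hk'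
    · have hz' : z ∉ tsupport ρ := fun h => hz (hρU h)
      have : K =ᶠ[𝓝 z] fun _ => 0 := by
        have h4 : ∀ᶠ y in 𝓝 z, y ∉ tsupport ρ := (isClosed_tsupport ρ).isOpen_compl.mem_nhds hz'
        filter_upwards [h4] with y hy
        simp only [hK, image_eq_zero_of_notMem_tsupport hy, zero_mul]
      exact contDiffAt_const.congr_of_eventuallyEq this
  have hst := stokes h1 h2 hKc
  have hkey : ∀ z, fderiv ℝ χ z I * fderiv ℝ K z 1 - fderiv ℝ χ z 1 * fderiv ℝ K z I =
      U.indicator (fun z => fderiv ℝ χ z I * fderiv ℝ G z 1 - fderiv ℝ χ z 1 * fderiv ℝ G z I) z := by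
    intro z
    by_cases hz : z ∈ tsupport (fderiv ℝ χ)
    · have h5 : K =ᶠ[𝓝 z] G := by
        have h6 : ∀ᶠ y in 𝓝 z, ρ y = 1 := (nhds_le_nhdsSet hz) hρ1
        filter_upwards [h6] with y hy
        simp [hK, hy]
      rw [indicator_of_mem (h3 hz), h5.fderiv_eq]
    · have h0 : fderiv ℝ χ z = 0 := by
        by_contra h; exact hz (subset_tsupport _ h)
      rw [h0]
      by_cases hzU : z ∈ U
      · rw [indicator_of_mem hzU, h0]; simp
      · rw [indicator_of_notMem hzU]; simp
  rw [integral_congr_ae (Eventually.of_forall hkey), integral_indicator hU.measurableSet] at hst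
  exact hst

open Crest.Agent.R105.Pth_988 (hasFDerivAt_real fderiv_re integral_image)

theorem fderiv_im {U : Set ℂ} (hU : IsOpen U) {p : ℂ → ℂ} (hp : DifferentiableOn ℂ p U)
    {z : ℂ} (hz : z ∈ U) (v : ℂ) :
    fderiv ℝ (fun z => (p z).im) z v = (deriv p z * v).im := by
  have h := (imCLM.hasFDerivAt.comp z (hasFDerivAt_real hU hp hz))
  have h' : HasFDerivAt (fun z => (p z).im) (imCLM.comp (deriv p z • (1 : ℂ →L[ℝ] ℂ))) z := h
  rw [h'.fderiv]
  simp

theorem clm_apply_eq (L : ℂ →L[ℝ] ℝ) (w : ℂ) : L w = w.re * L 1 + w.im * L I := by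
  have : w = w.re • (1 : ℂ) + w.im • I := by
    apply Complex.ext <;> simp
  conv_lhs => rw [this]
  rw [map_add, map_smul, map_smul, smul_eq_mul, smul_eq_mul]

theorem contDiffOn_real {U : Set ℂ} (hU : IsOpen U) {p : ℂ → ℂ} (hp : DifferentiableOn ℂ p U)
    (n : ℕ∞) : ContDiffOn ℝ n p U :=
  (hp.contDiffOn hU (n := n)).restrict_scalars ℝ

theorem contDiffOn_re {U : Set ℂ} (hU : IsOpen U) {p : ℂ → ℂ} (hp : DifferentiableOn ℂ p U)
    (n : ℕ∞) : ContDiffOn ℝ n (fun z => (p z).re) U :=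
  reCLM.contDiff.comp_contDiffOn (contDiffOn_real hU hp n)

theorem contDiffOn_im {U : Set ℂ} (hU : IsOpen U) {p : ℂ → ℂ} (hp : DifferentiableOn ℂ p U)
    (n : ℕ∞) : ContDiffOn ℝ n (fun z => (p z).im) U :=
  imCLM.contDiff.comp_contDiffOn (contDiffOn_real hU hp n)

/-- `∫_U dφ(i conj p') = 0` for `φ ∈ C_c^1(U)` -/
theorem flux_zero {U : Set ℂ} (hU : IsOpen U) {p : ℂ → ℂ} (hp : DifferentiableOn ℂ p U)
    {φ : ℂ → ℝ} (h1 : ContDiff ℝ 1 φ) (h2 : HasCompactSupport φ) (h3 : tsupport φ ⊆ U) :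
    ∫ z in U, fderiv ℝ φ z (I * conj (deriv p z)) = 0 := by
  have h4 := stokes_on hU h1 h2 ((tsupport_fderiv_subset ℝ).trans h3)
    (contDiffOn_re hU hp 2)
  rw [← h4]
  refine setIntegral_congr_fun hU.measurableSet ?_
  intro z hz
  simp only
  rw [fderiv_re hU hp hz, fderiv_re hU hp hz, clm_apply_eq (fderiv ℝ φ z)]
  simp
  ring

/-- the first Stokes formula -/
theorem flux_T {U : Set ℂ} (hU : IsOpen U) {p : ℂ → ℂ} (hp : DifferentiableOn ℂ p U)
    {c : ℂ → ℝ} (h1 : ContDiff ℝ 1 c) (h2 : HasCompactSupport c) (h3 : tsupport (fderiv ℝ c) ⊆ U)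
    {Ψ : ℝ → ℝ} (hΨ : ContDiff ℝ 2 Ψ) (y0 : ℝ) :
    ∫ z in U, Ψ (p z).re * fderiv ℝ c z (conj (deriv p z)) =
      ∫ z in U, deriv Ψ (p z).re * ((p z).im - y0) * fderiv ℝ c z (I * conj (deriv p z)) := by
  have hG : ContDiffOn ℝ 2 (fun z => Ψ (p z).re * ((p z).im - y0)) U :=
    (hΨ.comp_contDiffOn (contDiffOn_re hU hp 2)).mul ((contDiffOn_im hU hp 2).sub contDiffOn_const)
  have h4 := stokes_on hU h1 h2 h3 hG
  have hder : ∀ z ∈ U, ∀ v, fderiv ℝ (fun z => Ψ (p z).re * ((p z).im - y0)) z v =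
      deriv Ψ (p z).re * (deriv p z * v).re * ((p z).im - y0) + Ψ (p z).re * (deriv p z * v).im := by
    intro z hz v
    have hx : HasFDerivAt (fun z => (p z).re) (fderiv ℝ (fun z => (p z).re) z) z :=
      (((contDiffOn_re hU hp 1).contDiffAt (hU.mem_nhds hz)).differentiableAt (by simp)).hasFDerivAt
    have hy : HasFDerivAt (fun z => (p z).im) (fderiv ℝ (fun z => (p z).im) z) z :=
      (((contDiffOn_im hU hp 1).contDiffAt (hU.mem_nhds hz)).differentiableAt (by simp)).hasFDerivAt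
    have hΨd : HasDerivAt Ψ (deriv Ψ (p z).re) (p z).re :=
      (hΨ.differentiable (by norm_num) _).hasDerivAt
    have hA : HasFDerivAt (fun z => Ψ (p z).re) (deriv Ψ (p z).re • fderiv ℝ (fun z => (p z).re) z) z :=
      hΨd.comp_hasFDerivAt z hx
    have hB := (hA.mul (hy.sub_const y0))
    have hB' : HasFDerivAt (fun z => Ψ (p z).re * ((p z).im - y0)) _ z := hB
    rw [hB'.fderiv]
    simp only [add_apply, smul_apply, smul_eq_mul,
      fderiv_re hU hp hz, fderiv_im hU hp hz]
    ring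
  have hcc : Continuous (fderiv ℝ c) := h1.continuous_fderiv one_ne_zero
  have hcs : HasCompactSupport (fderiv ℝ c) := h2.fderiv (𝕜 := ℝ)
  -- integrability
  have hpd : ContinuousOn (deriv p) U := (hp.deriv hU).continuousOn
  have hint : ∀ (F : ℂ → ℝ) (w : ℂ → ℂ), ContinuousOn F U → ContinuousOn w U →
      IntegrableOn (fun z => F z * fderiv ℝ c z (w z)) U := by
    intro F w hF hw
    have hcont : ContinuousOn (fun z => F z * fderiv ℝ c z (w z)) U :=
      hF.mul (hcc.continuousOn.clm_apply hw)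
    have hK : IsCompact (tsupport (fderiv ℝ c)) := hcs
    have h5 : IntegrableOn (fun z => F z * fderiv ℝ c z (w z)) (tsupport (fderiv ℝ c)) :=
      (hcont.mono h3).integrableOn_compact hK
    refine (h5.of_forall_sdiff_eq_zero hU.measurableSet ?_)
    intro z hz
    have : fderiv ℝ c z = 0 := image_eq_zero_of_notMem_tsupport hz.2
    simp [this]
  have hx : ContinuousOn (fun z => (p z).re) U := (contDiffOn_re hU hp 0).continuousOn
  have hy : ContinuousOn (fun z => (p z).im) U := (contDiffOn_im hU hp 0).continuousOn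
  have hi1 := hint (fun z => Ψ (p z).re) (fun z => conj (deriv p z))
    (hΨ.continuous.comp_continuousOn hx) (continuous_conj.comp_continuousOn hpd)
  have hi2 := hint (fun z => deriv Ψ (p z).re * ((p z).im - y0)) (fun z => I * conj (deriv p z))
    (((hΨ.continuous_deriv (by norm_num)).comp_continuousOn hx).mul (hy.sub continuousOn_const))
    (continuousOn_const.mul (continuous_conj.comp_continuousOn hpd))
  rw [eq_comm, ← sub_eq_zero, ← integral_sub hi2 hi1, ← h4]
  refine setIntegral_congr_fun hU.measurableSet ?_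
  intro z hz
  simp only
  rw [hder z hz, hder z hz, clm_apply_eq (fderiv ℝ c z) (I * conj (deriv p z)),
    clm_apply_eq (fderiv ℝ c z) (conj (deriv p z))]
  simp
  ring

end Crest.Agent.R105.Unv_133
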