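import Mathlib
import Crest.Agent.R105.Uv2_913

/-!
Row 105, UNIV, file 3 (helper913): Stokes and the barrier contradiction.
-/

set_option autoImplicit false

namespace Crest.Agent.R105.Uv_913

open Complex Set Filter Topology Metric MeasureTheory
open scoped ContDiff Convolution NNReal

variable {U : Set ℂ} {F : ℂ → ℂ} {c : ℂ → ℝ}

theorem Lc.fderiv_eq (hc : Lc U c) {z : ℂ} (hz : z ∉ U) : fderiv ℝ c =ᶠ[𝓝 z] fun _ => 0 := by
  have h1 := (hc.2.2 z hz).eventually_nhds
  filter_upwards [h1] with w hw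
  have hcw : c w = c z := hw.self_of_nhds
  have : c =ᶠ[𝓝 w] fun _ => c z := hw
  rw [this.fderiv_eq]
  simp

theorem Lc.fderiv_zero (hc : Lc U c) {z : ℂ} (hz : z ∉ U) : fderiv ℝ c z = 0 :=
  (hc.fderiv_eq hz).self_of_nhds

/-- `h · ∂_v c` is smooth with compact support if `h` is smooth on `U`. -/
theorem contDiff_mul (hc : Lc U c) {h : ℂ → ℝ} (hh : ∀ z ∈ U, ContDiffAt ℝ ∞ h z) (v : ℂ) :
    ContDiff ℝ ∞ (fun z => h z * fderiv ℝ c z v) := by
  rw [contDiff_iff_contDiffAt]
  intro z
  by_cases hz : z ∈ U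
  · have h1 : ContDiffAt ℝ ∞ (fderiv ℝ c) z := by
      have : ContDiff ℝ ∞ (fderiv ℝ c) := hc.1.fderiv_right (by simp)
      exact this.contDiffAt
    exact (hh z hz).mul (h1.clm_apply contDiffAt_const)
  · have h1 : (fun z => h z * fderiv ℝ c z v) =ᶠ[𝓝 z] fun _ => 0 := by
      filter_upwards [hc.fderiv_eq hz] with w hw
      rw [hw]; simp
    exact (contDiffAt_const (c := (0 : ℝ))).congr_of_eventuallyEq h1

theorem hasCompactSupport_mul (hc : Lc U c) (h : ℂ → ℝ) (v : ℂ) :
    HasCompactSupport (fun z => h z * fderiv ℝ c z v) := by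
  have h1 : HasCompactSupport (fderiv ℝ c) := hc.2.1.fderiv (𝕜 := ℝ)
  refine h1.mono ?_
  intro z hz hz'
  apply hz
  have : fderiv ℝ c z = 0 := hz'
  simp [this]

theorem integral_fderiv_zero {P : ℂ → ℝ} (hP : ContDiff ℝ ∞ P) (hs : HasCompactSupport P)
    (v : ℂ) : ∫ z, fderiv ℝ P z v = 0 := by
  have h1 : Continuous fun z => fderiv ℝ P z v :=
    (hP.continuous_fderiv (by simp)).clm_apply continuous_const
  have h2 : HasCompactSupport fun z => fderiv ℝ P z v := by
    refine (hs.fderiv (𝕜 := ℝ)).mono ?_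
    intro z hz hz'
    apply hz
    have : fderiv ℝ P z = 0 := hz'
    simp [this]
  have hi : Integrable fun z => fderiv ℝ P z v := h1.integrable_of_hasCompactSupport h2
  have hi2 : Integrable P := hP.continuous.integrable_of_hasCompactSupport hs
  have := integral_mul_fderiv_eq_neg_fderiv_mul_of_integrable (𝕜 := ℝ) (μ := (volume : Measure ℂ))
    (f := fun _ => (1 : ℝ)) (g := P) (v := v) (by simp) (by simpa using hi) (by simpa using hi2)
    (fun x _ => (differentiable_const _).differentiableAt)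
    (fun x _ => (hP.differentiable (by simp)).differentiableAt)
  simpa using this

theorem smooth_re (hU : IsOpen U) (hF : DifferentiableOn ℂ F U) {z : ℂ} (hz : z ∈ U) :
    ContDiffAt ℝ ∞ F z := by
  have h1 : ContDiffAt ℂ ∞ F z := (hF.analyticAt (hU.mem_nhds hz)).contDiffAt
  exact h1.restrict_scalars ℝ

/-- Stokes: the term with `dc` can be moved to the strip and carries the factor `y - s`. -/
theorem stokes (hU : IsOpen U) (hF : DifferentiableOn ℂ F U) (hc : Lc U c) {Φ : ℝ → ℝ}
    (hΦ : ContDiff ℝ ∞ Φ) (s : ℝ) :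
    ∫ z in U, Φ (F z).re * (fderiv ℝ c z) ((starRingEnd ℂ) (deriv F z)) =
      ∫ z in U, deriv Φ (F z).re * ((F z).im - s) *
        (fderiv ℝ c z) (I * (starRingEnd ℂ) (deriv F z)) := by
  set h : ℂ → ℝ := fun z => Φ (F z).re * ((F z).im - s) with hh
  have hsm : ∀ z ∈ U, ContDiffAt ℝ ∞ h z := by
    intro z hz
    have h1 := smooth_re hU hF hz
    have hre : ContDiffAt ℝ ∞ (fun z => (F z).re) z := reCLM.contDiff.contDiffAt.comp z h1
    have him : ContDiffAt ℝ ∞ (fun z => (F z).im) z := imCLM.contDiff.contDiffAt.comp z h1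
    exact (hΦ.contDiffAt.comp z hre).mul (him.sub contDiffAt_const)
  have hder : ∀ z ∈ U, ∀ v : ℂ, fderiv ℝ h z v =
      deriv Φ (F z).re * (deriv F z * v).re * ((F z).im - s) +
        Φ (F z).re * (deriv F z * v).im := by
    intro z hz v
    have h1 : HasFDerivAt F ((ContinuousLinearMap.toSpanSingleton ℂ (deriv F z)).restrictScalars ℝ) z := by
      have := ((hF z hz).differentiableAt (hU.mem_nhds hz)).hasDerivAt
      exact this.hasFDerivAt.restrictScalars ℝ
    have hre : HasFDerivAt (fun z => (F z).re) (reCLM.comp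
        ((ContinuousLinearMap.toSpanSingleton ℂ (deriv F z)).restrictScalars ℝ)) z :=
      reCLM.hasFDerivAt.comp z h1
    have him : HasFDerivAt (fun z => (F z).im) (imCLM.comp
        ((ContinuousLinearMap.toSpanSingleton ℂ (deriv F z)).restrictScalars ℝ)) z :=
      imCLM.hasFDerivAt.comp z h1
    have hΦd : HasDerivAt Φ (deriv Φ (F z).re) (F z).re :=
      ((hΦ.differentiable (by simp)) _).hasDerivAt
    have h2 := (hΦd.comp_hasFDerivAt z hre).mul (him.sub_const s)
    have h3 : HasFDerivAt h _ z := h2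
    rw [h3.fderiv]
    simp
    ring
  set P : ℂ → ℝ := fun z => h z * fderiv ℝ c z 1 with hP
  set Q : ℂ → ℝ := fun z => h z * fderiv ℝ c z I with hQ
  have hPs : ContDiff ℝ ∞ P := contDiff_mul hc hsm 1
  have hQs : ContDiff ℝ ∞ Q := contDiff_mul hc hsm I
  have hPc : HasCompactSupport P := hasCompactSupport_mul hc h 1
  have hQc : HasCompactSupport Q := hasCompactSupport_mul hc h I
  have i1 := integral_fderiv_zero hPs hPc I
  have i2 := integral_fderiv_zero hQs hQc 1
  have hint : ∀ {R : ℂ → ℝ}, ContDiff ℝ ∞ R → HasCompactSupport R → ∀ v : ℂ,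
      Integrable fun z => fderiv ℝ R z v := by
    intro R hR hs v
    refine Continuous.integrable_of_hasCompactSupport
      ((hR.continuous_fderiv (by simp)).clm_apply continuous_const) ?_
    refine (hs.fderiv (𝕜 := ℝ)).mono ?_
    intro z hz hz'
    apply hz
    have : fderiv ℝ R z = 0 := hz'
    simp [this]
  have i3 : ∫ z, (fderiv ℝ P z I - fderiv ℝ Q z 1) = 0 := by
    rw [integral_sub (hint hPs hPc I) (hint hQs hQc 1), i1, i2, sub_zero]
  have hout : ∀ z, z ∉ U → fderiv ℝ P z I - fderiv ℝ Q z 1 = 0 := by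
    intro z hz
    have hp : P =ᶠ[𝓝 z] fun _ => 0 := by
      filter_upwards [hc.fderiv_eq hz] with w hw
      rw [hP]; simp only; rw [hw]; simp
    have hq : Q =ᶠ[𝓝 z] fun _ => 0 := by
      filter_upwards [hc.fderiv_eq hz] with w hw
      rw [hQ]; simp only; rw [hw]; simp
    rw [hp.fderiv_eq, hq.fderiv_eq]
    simp
  have i4 : ∫ z in U, (fderiv ℝ P z I - fderiv ℝ Q z 1) = 0 := by
    rw [setIntegral_eq_integral_of_forall_compl_eq_zero hout, i3]
  have hin : ∀ z ∈ U, fderiv ℝ P z I - fderiv ℝ Q z 1 =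
      Φ (F z).re * (fderiv ℝ c z) ((starRingEnd ℂ) (deriv F z)) -
      deriv Φ (F z).re * ((F z).im - s) * (fderiv ℝ c z) (I * (starRingEnd ℂ) (deriv F z)) := by
    intro z hz
    have hcs : ContDiffAt ℝ ∞ c z := hc.1.contDiffAt
    have hc2 : DifferentiableAt ℝ (fderiv ℝ c) z := by
      have : ContDiff ℝ ∞ (fderiv ℝ c) := hc.1.fderiv_right (by simp)
      exact (this.differentiable (by simp)).differentiableAt
    have hd : ∀ v w : ℂ, fderiv ℝ (fun z => fderiv ℝ c z v) z w = fderiv ℝ (fderiv ℝ c) z w v := by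
      intro v w
      have h1 : HasFDerivAt (fun z => fderiv ℝ c z v)
          ((ContinuousLinearMap.apply ℝ ℝ v).comp (fderiv ℝ (fderiv ℝ c) z)) z :=
        (ContinuousLinearMap.apply ℝ ℝ v).hasFDerivAt.comp z hc2.hasFDerivAt
      rw [h1.fderiv]; rfl
    have hsym : fderiv ℝ (fderiv ℝ c) z I 1 = fderiv ℝ (fderiv ℝ c) z 1 I := by
      have : IsSymmSndFDerivAt ℝ c z := by
        apply ContDiffAt.isSymmSndFDerivAt hcs
        simp only [minSmoothness_of_isRCLikeNormedField]
        exact WithTop.coe_le_coe.2 le_top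
      exact this _ _
    have hhd : DifferentiableAt ℝ h z := (hsm z hz).differentiableAt (by simp)
    have hdv : ∀ v : ℂ, DifferentiableAt ℝ (fun z => fderiv ℝ c z v) z := fun v =>
      (ContinuousLinearMap.apply ℝ ℝ v).differentiableAt.comp z hc2
    have e1 : fderiv ℝ P z I = h z * fderiv ℝ (fderiv ℝ c) z I 1 + fderiv ℝ h z I * fderiv ℝ c z 1 := by
      rw [hP, fderiv_fun_mul hhd (hdv 1)]
      simp [hd]
      ring
    have e2 : fderiv ℝ Q z 1 = h z * fderiv ℝ (fderiv ℝ c) z 1 I + fderiv ℝ h z 1 * fderiv ℝ c z I := by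
      rw [hQ, fderiv_fun_mul hhd (hdv I)]
      simp [hd]
      ring
    have hlin : ∀ w : ℂ, fderiv ℝ c z w = w.re * fderiv ℝ c z 1 + w.im * fderiv ℝ c z I := by
      intro w
      have : w = (w.re : ℝ) • (1 : ℂ) + (w.im : ℝ) • I := by
        apply Complex.ext <;> simp
      conv_lhs => rw [this]
      rw [map_add, map_smul, map_smul]
      simp
    rw [e1, e2, hsym, hder z hz, hder z hz, hlin ((starRingEnd ℂ) (deriv F z)),
      hlin (I * (starRingEnd ℂ) (deriv F z))]
    simp
    ring
  have hcont : ∀ {G : ℂ → ℝ} (v : ℂ → ℂ), (∀ z ∈ U, ContinuousAt G z) →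
      (∀ z ∈ U, ContinuousAt v z) → IntegrableOn (fun z => G z * fderiv ℝ c z (v z)) U := by
    intro G v hG hv
    have hK : HasCompactSupport (fderiv ℝ c) := hc.2.1.fderiv (𝕜 := ℝ)
    have hcon : Continuous fun z => G z * fderiv ℝ c z (v z) := by
      rw [continuous_iff_continuousAt]
      intro z
      by_cases hz : z ∈ U
      · have h1 : ContinuousAt (fderiv ℝ c) z := (hc.1.continuous_fderiv (by simp)).continuousAt
        exact (hG z hz).mul (h1.clm_apply (hv z hz))
      · have h1 : (fun z => G z * fderiv ℝ c z (v z)) =ᶠ[𝓝 z] fun _ => 0 := by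
          filter_upwards [hc.fderiv_eq hz] with w hw
          rw [hw]; simp
        exact (continuousAt_const (y := (0 : ℝ))).congr h1.symm
    refine (hcon.integrable_of_hasCompactSupport ?_).integrableOn
    refine hK.mono ?_
    intro z hz hz'
    apply hz
    have : fderiv ℝ c z = 0 := hz'
    simp [this]
  have hFc : ∀ z ∈ U, ContinuousAt F z := fun z hz => (smooth_re hU hF hz).continuousAt
  have hF'c : ∀ z ∈ U, ContinuousAt (deriv F) z := fun z hz =>
    ((hF.deriv hU).continuousOn.continuousAt (hU.mem_nhds hz))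
  have hΦ' : Continuous (deriv Φ) := hΦ.continuous_deriv (by simp)
  have j1 : IntegrableOn (fun z => Φ (F z).re * (fderiv ℝ c z) ((starRingEnd ℂ) (deriv F z))) U := by
    refine hcont _ (fun z hz => ?_) (fun z hz => ?_)
    · exact hΦ.continuous.continuousAt.comp (continuous_re.continuousAt.comp (hFc z hz))
    · exact continuous_conj.continuousAt.comp (hF'c z hz)
  have j2 : IntegrableOn (fun z => deriv Φ (F z).re * ((F z).im - s) *
      (fderiv ℝ c z) (I * (starRingEnd ℂ) (deriv F z))) U := by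
    refine hcont _ (fun z hz => ?_) (fun z hz => ?_)
    · refine ContinuousAt.mul ?_ ?_
      · exact hΦ'.continuousAt.comp (continuous_re.continuousAt.comp (hFc z hz))
      · exact (continuous_im.continuousAt.comp (hFc z hz)).sub continuousAt_const
    · exact continuousAt_const.mul (continuous_conj.continuousAt.comp (hF'c z hz))
  rw [setIntegral_congr_fun hU.measurableSet hin, integral_sub j1 j2, sub_eq_zero] at i4
  exact i4

end Crest.Agent.R105.Uv_913
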