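import Mathlib
import Crest.Agent.R105.Uv3_913

/-!
Row 105, UNIV, file 4 (helper913): the barrier contradiction.
-/

set_option autoImplicit false

namespace Crest.Agent.R105.Uv_913

open Complex Set Filter Topology Metric MeasureTheory
open scoped ContDiff Convolution NNReal

variable {U : Set ℂ} {F : ℂ → ℂ} {c : ℂ → ℝ}

/-- primitive of a bump function: smooth, monotone, derivative supported in the ball. -/
theorem exists_step (t : ℝ) {r : ℝ} (hr : 0 < r) :
    ∃ Φ : ℝ → ℝ, ContDiff ℝ ∞ Φ ∧ Monotone Φ ∧ HasCompactSupport (deriv Φ) ∧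
      (∀ u, 0 ≤ deriv Φ u) ∧ (∀ u, deriv Φ u ≤ 1) ∧ (∀ u, deriv Φ u ≠ 0 → |u - t| < r) ∧
      (∀ u, |u - t| < r → 0 < deriv Φ u) := by
  let φ : ContDiffBump t := ⟨r / 2, r, by positivity, by linarith⟩
  have hc : Continuous (φ : ℝ → ℝ) := φ.continuous
  set Φ : ℝ → ℝ := fun u => ∫ v in t..u, φ v with hΦ
  have hd : ∀ u, HasDerivAt Φ (φ u) u := fun u =>
    intervalIntegral.integral_hasDerivAt_right (hc.intervalIntegrable _ _)
      hc.aestronglyMeasurable.stronglyMeasurableAtFilter hc.continuousAt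
  have hdΦ : deriv Φ = φ := funext fun u => (hd u).deriv
  refine ⟨Φ, ?_, ?_, ?_, ?_, ?_, ?_, ?_⟩
  · rw [contDiff_infty_iff_deriv]
    refine ⟨fun u => (hd u).differentiableAt, ?_⟩
    rw [hdΦ]
    exact φ.contDiff
  · refine monotone_of_deriv_nonneg (fun u => (hd u).differentiableAt) fun u => ?_
    rw [hdΦ]
    exact φ.nonneg
  · rw [hdΦ]
    exact φ.hasCompactSupport
  · intro u
    rw [hdΦ]
    exact φ.nonneg
  · intro u
    rw [hdΦ]
    exact φ.le_one
  · intro u hu
    rw [hdΦ] at hu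
    have : u ∈ Function.support φ := hu
    rw [φ.support_eq] at this
    exact this
  · intro u hu
    rw [hdΦ]
    exact φ.pos_of_mem_ball (by rwa [mem_ball, Real.dist_eq])

/-- **Barrier contradiction.** -/
theorem no_barrier (hU : IsOpen U) (hF : DifferentiableOn ℂ F U)
    (hE : ∀ R : ℝ, IntegrableOn (fun z => ‖deriv F z‖ ^ 2) (U ∩ ball 0 R))
    (hEL : ELIneq U F) {Γ B : Set ℂ} (hΓ : IsCompact Γ) (hΓU : Γ ⊆ U) (hB : IsOpen B)
    (hBb : Bornology.IsBounded B) (hfr : frontier B ⊆ Γ) (hBΓ : Disjoint B Γ) {t s r η : ℝ}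
    (hr : 0 < r) (hη : 0 < η)
    (hstrip : ∀ z ∈ Γ, |(F z).re - t| ≤ r + η → (F z).im = s)
    (hnull : volume (Γ ∩ {z | |(F z).re - t| ≤ r + η}) = 0)
    {e : ℂ} (heB : e ∈ B) (heU : e ∈ U) (het : |(F e).re - t| < r) (hed : deriv F e ≠ 0) :
    False := by
  obtain ⟨Φ, hΦ1, hΦ2, hΦ3, hΦ4, hΦ5, hΦ6, hΦ7⟩ := exists_step t hr
  have hBn : B.Nonempty := ⟨e, heB⟩
  have hBu : B ≠ univ := by
    intro h
    rw [h] at hBb
    exact NormedSpace.unbounded_univ ℝ ℂ hBb
  have hΓn : Γ.Nonempty := (nonempty_frontier_iff.2 ⟨hBn, hBu⟩).mono hfr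
  have heΓ : e ∉ Γ := Set.disjoint_left.1 hBΓ heB
  have he0 : 0 < infDist e Γ := (hΓ.isClosed.notMem_iff_infDist_pos hΓn).1 heΓ
  -- compact neighbourhood of Γ
  obtain ⟨ρ, hρ, hρU⟩ := hΓ.exists_cthickening_subset_open hU hΓU
  have hN : IsCompact (cthickening ρ Γ) := hΓ.cthickening
  have hFc : ContinuousOn F U := hF.continuousOn
  have hF'c : ContinuousOn (deriv F) U := (hF.deriv hU).continuousOn
  obtain ⟨M, hM⟩ : ∃ M, ∀ z ∈ cthickening ρ Γ, ‖deriv F z‖ ≤ M :=
    hN.exists_bound_of_continuousOn (hF'c.mono hρU)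
  have hM0 : 0 ≤ M := by
    obtain ⟨z, hz⟩ := hΓn
    exact (norm_nonneg _).trans (hM z (self_subset_cthickening _ hz))
  have hLip : ∀ w ∈ Γ, ∀ z, dist z w ≤ ρ → ‖F z - F w‖ ≤ M * dist z w := by
    intro w hw z hz
    have hsub : closedBall w ρ ⊆ cthickening ρ Γ := closedBall_subset_cthickening hw ρ
    have := (convex_closedBall w ρ).norm_image_sub_le_of_norm_deriv_le (𝕜 := ℂ) (f := F)
      (C := M) (fun x hx => (hF x (hρU (hsub hx))).differentiableAt (hU.mem_nhds (hρU (hsub hx))))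
      (fun x hx => hM x (hsub hx)) (mem_closedBall_self hρ.le) (mem_closedBall.2 hz)
    rwa [dist_eq_norm]
  -- a small closed disc around e
  obtain ⟨d, hd0, hdB, hdU, hdt⟩ : ∃ d > 0, closedBall e d ⊆ B ∧ closedBall e d ⊆ U ∧
      ∀ z ∈ closedBall e d, |(F z).re - t| < r := by
    have h1 : ∀ᶠ z in 𝓝 e, z ∈ B := hB.mem_nhds heB
    have h2 : ∀ᶠ z in 𝓝 e, z ∈ U := hU.mem_nhds heU
    have h3 : ∀ᶠ z in 𝓝 e, |(F z).re - t| < r := by
      have hc : ContinuousAt (fun z => |(F z).re - t|) e := by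
        have := hFc.continuousAt (hU.mem_nhds heU)
        exact ((continuous_re.continuousAt.comp this).sub continuousAt_const).abs
      exact hc.eventually (gt_mem_nhds het)
    obtain ⟨d, hd, h⟩ := Metric.eventually_nhds_iff_ball.1 (h1.and (h2.and h3))
    refine ⟨d / 2, by positivity, ?_, ?_, ?_⟩
    · intro z hz
      exact (h z (mem_ball.2 (lt_of_le_of_lt (mem_closedBall.1 hz) (by linarith)))).1
    · intro z hz
      exact (h z (mem_ball.2 (lt_of_le_of_lt (mem_closedBall.1 hz) (by linarith)))).2.1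
    · intro z hz
      exact (h z (mem_ball.2 (lt_of_le_of_lt (mem_closedBall.1 hz) (by linarith)))).2.2
  set d' := min d (infDist e Γ / 2) with hd'
  have hd'0 : 0 < d' := lt_min hd0 (by positivity)
  set Z := closedBall e d' with hZ
  have hZU : Z ⊆ U := (closedBall_subset_closedBall (min_le_left _ _)).trans hdU
  have hZB : Z ⊆ B := (closedBall_subset_closedBall (min_le_left _ _)).trans hdB
  have hZΓ : ∀ z ∈ Z, infDist e Γ / 2 ≤ infDist z Γ := by
    intro z hz
    have h1 := infDist_le_infDist_add_dist (s := Γ) (x := e) (y := z)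
    have h2 : dist z e ≤ infDist e Γ / 2 := (mem_closedBall.1 hz).trans (min_le_right _ _)
    rw [dist_comm] at h2
    linarith
  set κ : ℝ := ∫ z in Z, deriv Φ (F z).re * ‖deriv F z‖ ^ 2 with hκ
  have hcontZ : ContinuousOn (fun z => deriv Φ (F z).re * ‖deriv F z‖ ^ 2) Z := by
    have h1 : Continuous (deriv Φ) := hΦ1.continuous_deriv (by simp)
    exact (h1.comp_continuousOn (continuous_re.comp_continuousOn (hFc.mono hZU))).mul
      ((hF'c.mono hZU).norm.pow 2)
  have hκ0 : 0 < κ := by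
    rw [hκ, setIntegral_pos_iff_support_of_nonneg_ae]
    · have hev : ∀ᶠ z in 𝓝 e, deriv F z ≠ 0 :=
        (hF'c.continuousAt (hU.mem_nhds heU)).eventually_ne hed
      have hev2 : ∀ᶠ z in 𝓝 e, z ∈ Z := closedBall_mem_nhds e hd'0
      have : (Function.support (fun z => deriv Φ (F z).re * ‖deriv F z‖ ^ 2) ∩ Z) ∈ 𝓝 e := by
        filter_upwards [hev, hev2] with z hz hzZ
        refine ⟨?_, hzZ⟩
        have h1 : 0 < deriv Φ (F z).re :=
          hΦ7 _ (hdt z (closedBall_subset_closedBall (min_le_left _ _) hzZ))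
        exact (mul_pos h1 (pow_pos (norm_pos_iff.2 hz) 2)).ne'
      exact MeasureTheory.Measure.measure_pos_of_mem_nhds _ this
    · exact ae_of_all _ fun z => mul_nonneg (hΦ4 _) (by positivity)
    · exact hcontZ.integrableOn_compact (isCompact_closedBall _ _)
  -- the thickening
  set Γ₁ := Γ ∩ {z | |(F z).re - t| ≤ r + η} with hΓ₁
  have hΓ₁c : IsCompact Γ₁ := by
    have : ContinuousOn (fun z => |(F z).re - t|) Γ :=
      ((continuous_re.comp_continuousOn (hFc.mono hΓU)).sub continuousOn_const).abs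
    have h1 : IsClosed (Γ ∩ (fun z => |(F z).re - t|) ⁻¹' Iic (r + η)) :=
      this.preimage_isClosed_of_isClosed hΓ.isClosed isClosed_Iic
    exact hΓ.of_isClosed_subset h1 inter_subset_left
  have hlim : Tendsto (fun δ => volume (cthickening δ Γ₁)) (𝓝 0) (𝓝 0) := by
    have := tendsto_measure_cthickening_of_isCompact (μ := (volume : Measure ℂ)) hΓ₁c
    rwa [hnull] at this
  -- choose δ
  set Cst : ℝ := 2 * M * M + 1 with hCst
  have hCst0 : 0 < Cst := by positivity
  obtain ⟨δ, hδ0, hδ1, hδ2, hδ3, hδ4⟩ : ∃ δ > 0, 3 * δ ≤ ρ ∧ 2 * δ * M ≤ η ∧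
      2 * δ < infDist e Γ / 2 ∧
      volume (cthickening (2 * δ) Γ₁) < ENNReal.ofReal (κ / Cst) := by
    have h1 : Tendsto (fun δ : ℝ => volume (cthickening (2 * δ) Γ₁)) (𝓝 0) (𝓝 0) := by
      refine hlim.comp ?_
      have : Tendsto (fun δ : ℝ => 2 * δ) (𝓝 0) (𝓝 (2 * 0)) := tendsto_id.const_mul 2
      simpa using this
    have h2 : ∀ᶠ δ in 𝓝[>] (0 : ℝ), volume (cthickening (2 * δ) Γ₁) <
        ENNReal.ofReal (κ / Cst) :=
      (h1.mono_left nhdsWithin_le_nhds).eventually
        (gt_mem_nhds (ENNReal.ofReal_pos.2 (by positivity)))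
    have h3 : ∀ᶠ δ in 𝓝[>] (0 : ℝ), 3 * δ ≤ ρ := by
      have : Tendsto (fun δ : ℝ => 3 * δ) (𝓝[>] 0) (𝓝 (3 * 0)) :=
        (tendsto_id.const_mul 3).mono_left nhdsWithin_le_nhds
      rw [mul_zero] at this
      exact (this.eventually (gt_mem_nhds hρ)).mono fun _ h => h.le
    have h4 : ∀ᶠ δ in 𝓝[>] (0 : ℝ), 2 * δ * M ≤ η := by
      have : Tendsto (fun δ : ℝ => 2 * δ * M) (𝓝[>] 0) (𝓝 (2 * 0 * M)) :=
        ((tendsto_id.const_mul 2).mul_const M).mono_left nhdsWithin_le_nhds
      rw [mul_zero, zero_mul] at this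
      exact (this.eventually (gt_mem_nhds hη)).mono fun _ h => h.le
    have h5 : ∀ᶠ δ in 𝓝[>] (0 : ℝ), 2 * δ < infDist e Γ / 2 := by
      have : Tendsto (fun δ : ℝ => 2 * δ) (𝓝[>] 0) (𝓝 (2 * 0)) :=
        (tendsto_id.const_mul 2).mono_left nhdsWithin_le_nhds
      rw [mul_zero] at this
      exact this.eventually (gt_mem_nhds (by positivity))
    obtain ⟨δ, h⟩ := (((h2.and h3).and (h4.and h5)).and self_mem_nhdsWithin).exists
    exact ⟨δ, h.2, h.1.1.2, h.1.2.1, h.1.2.2, h.1.1.1⟩
  have hδU : cthickening (3 * δ) Γ ⊆ U := (cthickening_mono hδ1 Γ).trans hρU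
  obtain ⟨c, hcL, hc0, hc1, hc2, hc3, hc4⟩ := exists_plateau hB hBb hBn hfr hδ0 hδU
  have hmain := hEL c hcL hc0 Φ hΦ1 hΦ2 hΦ3
  rw [stokes hU hF hcL hΦ1 s] at hmain
  -- lower bound
  obtain ⟨R, hR⟩ : ∃ R : ℝ, tsupport c ⊆ ball 0 R := by
    obtain ⟨R, hR⟩ := hcL.2.1.isBounded.subset_ball 0
    exact ⟨R, hR⟩
  have hintL : IntegrableOn (fun z => deriv Φ (F z).re * c z * ‖deriv F z‖ ^ 2) U := by
    have h1 : IntegrableOn (fun z => deriv Φ (F z).re * c z * ‖deriv F z‖ ^ 2) (U ∩ ball 0 R) := by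
      refine Integrable.bdd_mul (c := 1) (hE R) ?_ ?_
      · have : ContinuousOn (fun z => deriv Φ (F z).re * c z) (U ∩ ball 0 R) := by
          have h1 : Continuous (deriv Φ) := hΦ1.continuous_deriv (by simp)
          exact (h1.comp_continuousOn (continuous_re.comp_continuousOn
            (hFc.mono inter_subset_left))).mul hcL.1.continuous.continuousOn
        exact this.aestronglyMeasurable (hU.inter isOpen_ball).measurableSet
      · refine ae_of_all _ fun z => ?_
        rw [norm_mul, Real.norm_eq_abs, Real.norm_eq_abs, abs_of_nonneg (hΦ4 _),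
          abs_of_nonneg (hc0 z)]
        exact mul_le_one₀ (hΦ5 _) (hc0 z) (hc1 z)
    refine h1.of_forall_sdiff_eq_zero hU.measurableSet ?_
    intro z hz
    have hzc : z ∉ tsupport c := fun h => hz.2 ⟨hz.1, hR h⟩
    rw [image_eq_zero_of_notMem_tsupport hzc]
    simp
  have hlow : κ ≤ ∫ z in U, deriv Φ (F z).re * c z * ‖deriv F z‖ ^ 2 := by
    have h1 : κ = ∫ z in Z, deriv Φ (F z).re * c z * ‖deriv F z‖ ^ 2 := by
      rw [hκ]
      refine setIntegral_congr_fun (isClosed_closedBall.measurableSet) fun z hz => ?_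
      rw [hc3 z (hZB hz) (by have := hZΓ z hz; linarith), mul_one]
    rw [h1]
    refine setIntegral_mono_set hintL ?_ (hZU.eventuallyLE)
    exact ae_of_all _ fun z => mul_nonneg (mul_nonneg (hΦ4 _) (hc0 z)) (by positivity)
  -- upper bound
  have hup : - ∫ z in U, deriv Φ (F z).re * ((F z).im - s) *
      (fderiv ℝ c z) (I * (starRingEnd ℂ) (deriv F z)) ≤
      Cst * (volume (cthickening (2 * δ) Γ₁)).toReal := by
    have hfin : volume (cthickening (2 * δ) Γ₁) ≠ ⊤ := (hΓ₁c.cthickening).measure_lt_top.ne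
    have hpt : ∀ z ∈ U, ‖deriv Φ (F z).re * ((F z).im - s) *
        (fderiv ℝ c z) (I * (starRingEnd ℂ) (deriv F z))‖ ≤
        (cthickening (2 * δ) Γ₁).indicator (fun _ => Cst) z := by
      intro z hz
      by_cases hz0 : deriv Φ (F z).re = 0
      · rw [hz0]
        simp only [zero_mul, norm_zero]
        exact indicator_nonneg (fun _ _ => hCst0.le) z
      by_cases hzΓ : 2 * δ < infDist z Γ
      · rw [hc4 z hzΓ]
        simp only [zero_apply, mul_zero, norm_zero]
        exact indicator_nonneg (fun _ _ => hCst0.le) z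
      have hzt := hΦ6 _ hz0
      obtain ⟨w, hw, hwd⟩ := hΓ.exists_infDist_eq_dist hΓn z
      have hdw : dist z w ≤ 2 * δ := by rw [← hwd]; exact not_lt.1 hzΓ
      have hFw : ‖F z - F w‖ ≤ M * dist z w := hLip w hw z (by linarith)
      have hFw2 : ‖F z - F w‖ ≤ 2 * δ * M := by
        refine hFw.trans ?_
        rw [mul_comm]
        exact mul_le_mul_of_nonneg_right hdw hM0
      have hre : |(F z).re - (F w).re| ≤ ‖F z - F w‖ := by
        rw [← sub_re]; exact abs_re_le_norm _
      have him : |(F z).im - (F w).im| ≤ ‖F z - F w‖ := by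
        rw [← sub_im]; exact abs_im_le_norm _
      have hwt : |(F w).re - t| ≤ r + η := by
        have h1 : |(F w).re - t| ≤ |(F z).re - (F w).re| + |(F z).re - t| := by
          have := abs_sub_abs_le_abs_sub ((F w).re - t) ((F z).re - t)
          rw [show (F w).re - t - ((F z).re - t) = -((F z).re - (F w).re) by ring, abs_neg] at this
          linarith
        linarith
      have hws : (F w).im = s := hstrip w hw hwt
      have hzin : z ∈ cthickening (2 * δ) Γ₁ :=
        mem_cthickening_of_dist_le z w _ _ ⟨hw, hwt⟩ hdw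
      rw [indicator_of_mem hzin]
      have hzN : z ∈ cthickening ρ Γ := mem_cthickening_of_dist_le z w _ _ hw (by linarith)
      rw [norm_mul, norm_mul]
      have b1 : ‖deriv Φ (F z).re‖ ≤ 1 := by
        rw [Real.norm_eq_abs, abs_of_nonneg (hΦ4 _)]; exact hΦ5 _
      have b2 : ‖(F z).im - s‖ ≤ 2 * δ * M := by
        rw [Real.norm_eq_abs, ← hws]; exact him.trans hFw2
      have b3 : ‖(fderiv ℝ c z) (I * (starRingEnd ℂ) (deriv F z))‖ ≤ 1 / δ * M := by
        refine ((fderiv ℝ c z).le_opNorm _).trans ?_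
        rw [norm_mul, norm_I, one_mul, RCLike.norm_conj]
        exact mul_le_mul (hc2 z) (hM z hzN) (norm_nonneg _) (by positivity)
      calc ‖deriv Φ (F z).re‖ * ‖(F z).im - s‖ *
            ‖(fderiv ℝ c z) (I * (starRingEnd ℂ) (deriv F z))‖
          ≤ 1 * (2 * δ * M) * (1 / δ * M) := by
            refine mul_le_mul (mul_le_mul b1 b2 (norm_nonneg _) zero_le_one) b3
              (norm_nonneg _) (by positivity)
        _ = 2 * M * M := by field_simp
        _ ≤ Cst := by rw [hCst]; linarith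
    calc - ∫ z in U, deriv Φ (F z).re * ((F z).im - s) *
          (fderiv ℝ c z) (I * (starRingEnd ℂ) (deriv F z))
        ≤ ‖∫ z in U, deriv Φ (F z).re * ((F z).im - s) *
          (fderiv ℝ c z) (I * (starRingEnd ℂ) (deriv F z))‖ := neg_le_abs _
      _ ≤ ∫ z in U, (cthickening (2 * δ) Γ₁).indicator (fun _ => Cst) z := by
            refine norm_integral_le_of_norm_le ?_ ?_
            · refine ((integrable_indicator_iff isClosed_cthickening.measurableSet).2 ?_).integrableOn
              exact integrableOn_const hfin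
            · exact (ae_restrict_mem hU.measurableSet).mono hpt
      _ ≤ ∫ z, (cthickening (2 * δ) Γ₁).indicator (fun _ => Cst) z := by
            refine setIntegral_le_integral ?_ (ae_of_all _ fun z =>
              indicator_nonneg (fun _ _ => hCst0.le) z)
            refine (integrable_indicator_iff isClosed_cthickening.measurableSet).2 ?_
            exact integrableOn_const hfin
      _ = Cst * (volume (cthickening (2 * δ) Γ₁)).toReal := by
            rw [integral_indicator isClosed_cthickening.measurableSet, setIntegral_const,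
              smul_eq_mul, mul_comm]
            rfl
  have hfinal : Cst * (volume (cthickening (2 * δ) Γ₁)).toReal < κ := by
    have h1 : (volume (cthickening (2 * δ) Γ₁)).toReal < κ / Cst := by
      have := ENNReal.toReal_lt_of_lt_ofReal hδ4
      exact this
    calc Cst * (volume (cthickening (2 * δ) Γ₁)).toReal < Cst * (κ / Cst) :=
          mul_lt_mul_of_pos_left h1 hCst0
      _ = κ := by field_simp
  linarith

end Crest.Agent.R105.Uv_913
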