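import Crest.Agent.R105.Uv6_913
import Crest.Agent.R105.Uv4_913
import Crest.Agent.R105.Unv2_133
import Crest.Agent.R105.Tdc1_987

/-!
Row 105, UNIV, file 7 (helper913): `{x > t} \ C` and `{x < t} \ C` are connected
(component switch + `p z - z → c` at infinity), in the package `Pk` / `Cpl` of helper641.
-/

set_option autoImplicit false

namespace Crest.Agent.R105.Uv_913

open Complex Set Filter Topology Metric MeasureTheory
open scoped ContDiff NNReal
open Crest.Agent.R105.IfB_641 (Pk Cpl X0 TD)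
open Crest.Agent.R105.Bd_775 (D)

variable {C : Set ℂ} {x0 φ : ℂ → ℝ} {b : ℕ → ℂ → ℝ} {p : ℂ → ℂ}

theorem exists_switch (hC : IsCompact C) (td : IsTotallyDisconnected C) {K K' : Set ℂ}
    (hK : IsCompact K) (hK' : IsClosed K') (hd : Disjoint K K') :
    ∃ c : ℂ → ℝ, Lc Cᶜ c ∧ (∀ z, 0 ≤ c z) ∧ (∀ z ∈ K, ∀ᶠ w in 𝓝 z, c w = 1) ∧
      ∀ z ∈ K', ∀ᶠ w in 𝓝 z, c w = 0 := by
  have : CompactSpace C := isCompact_iff_compactSpace.1 hC
  have : TotallyDisconnectedSpace C := totallyDisconnectedSpace_subtype_iff.2 td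
  obtain ⟨A, hA, hZA, hAU⟩ := exists_clopen_of_closed_subset_open (X := C)
    (Z := Subtype.val ⁻¹' K) (U := (Subtype.val ⁻¹' K')ᶜ)
    (hK.isClosed.preimage continuous_subtype_val)
    (hK'.preimage continuous_subtype_val).isOpen_compl
    (fun z hz hz' => Set.disjoint_left.1 hd hz hz')
  have hC1 : IsCompact (Subtype.val '' A : Set ℂ) :=
    hA.isClosed.isCompact.image continuous_subtype_val
  have hC2 : IsCompact (Subtype.val '' Aᶜ : Set ℂ) :=
    hA.compl.isClosed.isCompact.image continuous_subtype_val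
  obtain ⟨χ, h1, h2, h3, h4, h5⟩ := Unv_133.exists_cutoff (K := K ∪ Subtype.val '' A)
    (W := (K' ∪ Subtype.val '' Aᶜ)ᶜ) (hK.union hC1) (hK'.union hC2.isClosed).isOpen_compl (by
      rintro z (hz | ⟨y, hy, rfl⟩) (hz' | ⟨y', hy', hyz⟩)
      · exact Set.disjoint_left.1 hd hz hz'
      · subst hyz; exact hy' (hZA hz)
      · exact hAU hy hz'
      · exact hy' (by rwa [Subtype.val_injective hyz]))
  rw [eventually_nhdsSet_iff_forall] at h4
  have hzero : ∀ z ∈ K' ∪ Subtype.val '' Aᶜ, ∀ᶠ w in 𝓝 z, χ w = 0 := by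
    intro z hz
    have : z ∉ tsupport χ := fun h => h3 h hz
    exact notMem_tsupport_iff_eventuallyEq.1 this
  refine ⟨χ, ⟨h1, h2, fun z hz => ?_⟩, fun z => (h5 z).1, fun z hz => h4 z (Or.inl hz),
    fun z hz => hzero z (Or.inl hz)⟩
  rw [notMem_compl_iff] at hz
  by_cases hzA : (⟨z, hz⟩ : C) ∈ A
  · have := h4 z (Or.inr ⟨_, hzA, rfl⟩)
    filter_upwards [this] with w hw
    rw [hw, this.self_of_nhds]
  · have := hzero z (Or.inr ⟨_, hzA, rfl⟩)
    filter_upwards [this] with w hw
    rw [hw, this.self_of_nhds]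

/-- behaviour at infinity -/
theorem far (hP : Pk C x0 b φ) (hp : Cpl C x0 φ p) : ∃ R M : ℝ, 0 < R ∧ 0 ≤ M ∧
    (∀ z, R ≤ ‖z‖ → z ∈ Cᶜ ∧ |(x0 z + φ z) - z.re| ≤ M ∧ ‖deriv (fun w => p w - w) z‖ ≤ 1 / 2) ∧
    ∀ z, R ≤ ‖z‖ → DifferentiableAt ℂ (fun w => p w - w) z := by
  obtain ⟨R1, hR1⟩ := hP.hx0.far
  obtain ⟨M, hM⟩ := hP.memφ.bdd
  obtain ⟨c0, hc0⟩ := hp.inf
  obtain ⟨R2, hR2⟩ := hP.td.cpt.isBounded.subset_closedBall (0 : ℂ)
  have h1 : ∀ᶠ z in cocompact ℂ, ‖p z - z - c0‖ ≤ 1 / 2 := by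
    have : Tendsto (fun z => ‖p z - z - c0‖) (cocompact ℂ) (𝓝 ‖c0 - c0‖) :=
      (hc0.sub_const c0).norm
    rw [sub_self, norm_zero] at this
    exact (this.eventually (gt_mem_nhds (by norm_num : (0 : ℝ) < 1 / 2))).mono
      fun z hz => le_of_lt hz
  obtain ⟨R3, hR3⟩ : ∃ R3 : ℝ, ∀ z : ℂ, R3 < ‖z‖ → ‖p z - z - c0‖ ≤ 1 / 2 := by
    rw [← Metric.cobounded_eq_cocompact] at h1
    obtain ⟨R3, -, h⟩ := (hasBasis_cobounded_norm.eventually_iff).1 h1
    exact ⟨R3, fun z hz => h (le_of_lt hz)⟩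
  set R := max (max R1 R2) (max R3 0) with hR
  have hCc : ∀ z : ℂ, R < ‖z‖ → z ∈ Cᶜ := by
    intro z hz hzC
    have := mem_closedBall_zero_iff.1 (hR2 hzC)
    have : R2 ≤ R := (le_max_right _ _).trans (le_max_left _ _)
    linarith
  have hRpos : 0 ≤ R := (le_max_right _ _).trans (le_max_right _ _)
  have hd : ∀ z : ℂ, R < ‖z‖ → DifferentiableAt ℂ (fun w => p w - w) z := by
    intro z hz
    exact (hp.hol.differentiableAt (hP.td.cpt.isClosed.isOpen_compl.mem_nhds (hCc z hz))).sub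
      differentiableAt_id
  refine ⟨R + 2, |M|, by linarith, abs_nonneg _, fun z hz => ⟨hCc z (by linarith), ?_, ?_⟩,
    fun z hz => hd z (by linarith)⟩
  · have : R1 ≤ ‖z‖ := by
      have : R1 ≤ R := (le_max_left _ _).trans (le_max_left _ _)
      linarith
    rw [hR1 z this, add_sub_cancel_left]
    exact (hM z).trans (le_abs_self M)
  · have hball : ∀ w ∈ closedBall z 1, R < ‖w‖ := by
      intro w hw
      rw [mem_closedBall, dist_eq_norm] at hw
      have : ‖z‖ ≤ ‖w‖ + ‖w - z‖ := by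
        have := norm_sub_norm_le z w
        rw [norm_sub_rev] at this
        linarith
      linarith
    have hdo : DifferentiableOn ℂ (fun w => p w - w - c0) {w : ℂ | R < ‖w‖} := by
      intro w hw
      exact ((hd w hw).sub_const c0).differentiableWithinAt
    have h2 := Complex.norm_deriv_le_of_forall_mem_sphere_norm_le (c := z) (R := 1) (C := 1 / 2)
      (f := fun w => p w - w - c0) one_pos (hdo.diffContOnCl_ball hball) (fun w hw => by
        refine hR3 w ?_
        have : R3 ≤ R := (le_max_left _ _).trans (le_max_right _ _)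
        have := hball w (sphere_subset_closedBall hw)
        linarith)
    rw [div_one] at h2
    have h3 : deriv (fun w => p w - w - c0) z = deriv (fun w => p w - w) z := by
      rw [deriv_sub_const]
    rwa [h3] at h2

theorem exists_deriv_ne (hP : Pk C x0 b φ) (hp : Cpl C x0 φ p) : ∃ z ∈ Cᶜ, deriv p z ≠ 0 := by
  obtain ⟨R, M, hR, -, h, hd⟩ := far hP hp
  have hz : R ≤ ‖(R : ℂ)‖ := by rw [Complex.norm_real, Real.norm_of_nonneg hR.le]
  obtain ⟨h1, -, h3⟩ := h (R : ℂ) hz
  refine ⟨(R : ℂ), h1, fun h0 => ?_⟩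
  have hpd : DifferentiableAt ℂ p (R : ℂ) :=
    hp.hol.differentiableAt (hP.td.cpt.isClosed.isOpen_compl.mem_nhds h1)
  have : deriv (fun w => p w - w) (R : ℂ) = deriv p (R : ℂ) - 1 := by
    rw [deriv_fun_sub hpd differentiableAt_fun_id]
    simp
  rw [this, h0] at h3
  norm_num at h3

/-- no bounded component of `{σ x > t}` -/
theorem unbounded_comp (hP : Pk C x0 b φ) (hp : Cpl C x0 φ p) {σ : ℝ} (hσ : σ = 1 ∨ σ = -1)
    {t : ℝ} {z0 : ℂ} (hz0 : t < σ * (x0 z0 + φ z0)) :
    ¬ Bornology.IsBounded (connectedComponentIn {z | t < σ * (x0 z + φ z)} z0) := by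
  intro hb
  have hC := hP.td.cpt.isClosed
  have hσ2 : σ * σ = 1 := by rcases hσ with rfl | rfl <;> norm_num
  have hσa : ∀ u : ℝ, |σ * u| = |u| := by
    intro u
    rcases hσ with rfl | rfl
    · rw [one_mul]
    · rw [neg_one_mul, abs_neg]
  set x : ℂ → ℝ := fun z => x0 z + φ z with hx
  have hxc : Continuous x := hP.hx0.sm.continuous.add hP.memφ.cont
  set W : Set ℂ := {z | t < σ * x z} with hW
  have hWo : IsOpen W := isOpen_lt continuous_const (continuous_const.mul hxc)
  set V : Set ℂ := connectedComponentIn W z0 with hV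
  have hVo : IsOpen V := hWo.connectedComponentIn
  have hz0W : z0 ∈ W := hz0
  have hz0V : z0 ∈ V := mem_connectedComponentIn hz0W
  have hVcl : ∀ z ∈ closure V, z ∈ W → z ∈ V := by
    intro z hz hzW
    have hoz : IsOpen (connectedComponentIn W z) := hWo.connectedComponentIn
    obtain ⟨q, hq1, hq2⟩ := mem_closure_iff.1 hz _ hoz (mem_connectedComponentIn hzW)
    have e1 := connectedComponentIn_eq hq1
    have e2 := connectedComponentIn_eq hq2
    rw [hV, e2, ← e1]
    exact mem_connectedComponentIn hzW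
  set δ : ℝ := (σ * x z0 - t) / 2 with hδ
  have hδ0 : 0 < δ := by rw [hδ]; linarith [show t < σ * x z0 from hz0]
  set a : ℝ := σ * x z0 - δ with ha
  have hta : t < a := by rw [ha, hδ]; linarith [show t < σ * x z0 from hz0]
  set K : Set ℂ := closure V ∩ {z | a ≤ σ * x z} with hK
  have hKV : K ⊆ V := fun z hz => hVcl z hz.1 (lt_of_lt_of_le hta hz.2)
  have hacl : IsClosed {z | a ≤ σ * x z} := isClosed_le continuous_const (continuous_const.mul hxc)
  have hKc : IsCompact K := by
    refine Metric.isCompact_of_isClosed_isBounded (isClosed_closure.inter hacl) ?_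
    exact hb.closure.subset inter_subset_left
  set K' : Set ℂ := Vᶜ ∩ {z | a ≤ σ * x z} with hK'
  have hK'c : IsClosed K' := hVo.isClosed_compl.inter hacl
  have hKK' : Disjoint K K' := Set.disjoint_left.2 fun z hz hz' => hz'.1 (hKV hz)
  obtain ⟨c, hc, hc0, hc1, hc2⟩ := exists_switch hP.td.cpt hP.td.td hKc hK'c hKK'
  obtain ⟨H, hH1, hH2, hH3, hH4, hH5, hH6, hH7⟩ := exists_step (σ * x z0) hδ0
  have hHa : ∀ u, u ≤ a → H u = H a := by
    intro u hu
    rcases hu.eq_or_lt with rfl | hlt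
    · rfl
    obtain ⟨ξ, hξ, he⟩ := exists_deriv_eq_slope H hlt hH1.continuous.continuousOn
      (hH1.differentiable (by simp)).differentiableOn
    have h0 : deriv H ξ = 0 := by
      by_contra hne
      have := hH6 ξ hne
      rw [abs_lt] at this
      have := hξ.2
      linarith
    rw [h0, eq_comm, div_eq_zero_iff] at he
    rcases he with he | he
    · linarith
    · linarith
  set h : ℝ → ℝ := fun s => H (σ * s) - H a with hh
  have hhd : ∀ s, deriv h s = σ * deriv H (σ * s) := by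
    intro s
    have h1 : HasDerivAt H (deriv H (σ * s)) (σ * s) :=
      ((hH1.differentiable (by simp)) _).hasDerivAt
    have h2 : HasDerivAt (fun s : ℝ => σ * s) σ s := by
      simpa using (hasDerivAt_id s).const_mul σ
    have h3 := (h1.comp s h2).sub_const (H a)
    rw [show deriv h s = deriv H (σ * s) * σ from h3.deriv]
    ring
  have hhs : ContDiff ℝ ∞ h := (hH1.comp (contDiff_const.mul contDiff_id)).sub contDiff_const
  have hhc : HasCompactSupport (deriv h) := by
    refine HasCompactSupport.intro (isCompact_closedBall (x z0) δ) fun s hs => ?_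
    rw [hhd s]
    have : deriv H (σ * s) = 0 := by
      by_contra hne
      have := hH6 _ hne
      rw [← mul_sub, hσa] at this
      apply hs
      rw [mem_closedBall, Real.dist_eq]
      exact this.le
    rw [this, mul_zero]
  obtain ⟨e1, e2⟩ := el_eq hP hp hc hhs hhc
  set f : ℂ → ℝ := fun z => deriv H (σ * (p z).re) * c z * ‖deriv p z‖ ^ 2 with hf
  have hfe : EqOn (fun z => deriv h (p z).re * c z * ‖deriv p z‖ ^ 2
        + h (p z).re * fderiv ℝ c z ((starRingEnd ℂ) (deriv p z))) (fun z => σ * f z) Cᶜ := by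
    intro z hz
    have hxz : (p z).re = x z := hp.re z hz
    have h0 : h (p z).re * fderiv ℝ c z ((starRingEnd ℂ) (deriv p z)) = 0 := by
      by_cases hza : a ≤ σ * x z
      · have : fderiv ℝ c z = 0 := by
          by_cases hzV : z ∈ V
          · have : c =ᶠ[𝓝 z] fun _ => 1 := hc1 z ⟨subset_closure hzV, hza⟩
            rw [this.fderiv_eq]; simp
          · have : c =ᶠ[𝓝 z] fun _ => 0 := hc2 z ⟨hzV, hza⟩
            rw [this.fderiv_eq]; simp
        rw [this]; simp
      · have : h (p z).re = 0 := by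
          rw [hxz]
          show H (σ * x z) - H a = 0
          rw [hHa _ (not_le.1 hza).le, sub_self]
        rw [this, zero_mul]
    simp only []
    rw [h0, hhd, add_zero, hf]
    ring
  have hmeas : MeasurableSet Cᶜ := hC.isOpen_compl.measurableSet
  rw [setIntegral_congr_fun hmeas hfe, integral_const_mul] at e2
  have hσ0 : σ ≠ 0 := by rcases hσ with rfl | rfl <;> norm_num
  have e3 : ∫ z in Cᶜ, f z = 0 := by
    rcases mul_eq_zero.1 e2 with h | h
    · exact absurd h hσ0
    · exact h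
  have hfi : IntegrableOn f Cᶜ := by
    have h1 : IntegrableOn (fun z => σ * f z) Cᶜ := e1.congr_fun hfe hmeas
    have h2 := h1.const_mul σ
    refine h2.congr (Eventually.of_forall fun z => ?_)
    show σ * (σ * f z) = f z
    rw [← mul_assoc, hσ2, one_mul]
  have hf0 : ∀ z, 0 ≤ f z := fun z => mul_nonneg (mul_nonneg (hH4 _) (hc0 _)) (sq_nonneg _)
  have hae := (setIntegral_eq_zero_iff_of_nonneg_ae (Eventually.of_forall hf0) hfi).1 e3
  have hfc : ContinuousOn f Cᶜ := by
    have h1 : ContinuousOn (fun z => (p z).re) Cᶜ :=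
      continuous_re.comp_continuousOn hp.hol.continuousOn
    have h2 : Continuous (deriv H) := hH1.continuous_deriv (by simp)
    exact ((h2.comp_continuousOn (continuousOn_const.mul h1)).mul
      hc.1.continuous.continuousOn).mul ((hp.hol.deriv hC.isOpen_compl).continuousOn.norm.pow 2)
  have hfz : EqOn f (fun _ => 0) Cᶜ :=
    MeasureTheory.Measure.eqOn_open_of_ae_eq hae hC.isOpen_compl hfc continuousOn_const
  -- an open set where `p' = 0`
  set O : Set ℂ := V ∩ {z | |x z - x z0| < δ} with hO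
  have hOo : IsOpen O := hVo.inter (isOpen_lt ((hxc.sub continuous_const).abs) continuous_const)
  have hOn : O.Nonempty := ⟨z0, hz0V, by show |x z0 - x z0| < δ; rw [sub_self, abs_zero]; exact hδ0⟩
  obtain ⟨z1, hz1, hz1C⟩ := Tdc_987.exists_mem_diff hP.td.td hOo hOn
  have hder : ∀ z ∈ O \ C, deriv p z = 0 := by
    intro z hz
    have h1 := hfz (show z ∈ Cᶜ from hz.2)
    have hxz : (p z).re = x z := hp.re z hz.2
    have h2 : 0 < deriv H (σ * x z) := hH7 _ (by rw [← mul_sub, hσa]; exact hz.1.2)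
    have hza : a ≤ σ * x z := by
      have := hz.1.2
      have h3 : |σ * (x z - x z0)| < δ := by rw [hσa]; exact this
      rw [mul_sub, abs_lt] at h3
      linarith [h3.1]
    have h3 : c z = 1 := (hc1 z ⟨subset_closure hz.1.1, hza⟩).self_of_nhds
    have h4 : deriv H (σ * (p z).re) * c z * ‖deriv p z‖ ^ 2 = 0 := h1
    rw [hxz, h3, mul_one] at h4
    rcases mul_eq_zero.1 h4 with h5 | h5
    · exact absurd h5 h2.ne'
    · exact norm_eq_zero.1 (pow_eq_zero_iff (two_ne_zero) |>.1 h5)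
  have hpre : IsPreconnected Cᶜ := Tdc_987.isPreconnected_compl hP.td.cpt hP.td.td
  have han : AnalyticOnNhd ℂ (deriv p) Cᶜ :=
    (hp.hol.analyticOnNhd hC.isOpen_compl).deriv
  have hev : deriv p =ᶠ[𝓝 z1] 0 := by
    have : O \ C ∈ 𝓝 z1 := (hOo.sdiff hC).mem_nhds ⟨hz1, hz1C⟩
    filter_upwards [this] with w hw
    exact hder w hw
  have hall := han.eqOn_zero_of_preconnected_of_eventuallyEq_zero hpre hz1C hev
  obtain ⟨z2, hz2, hne⟩ := exists_deriv_ne hP hp
  exact hne (hall hz2)

/-- horizontal rays far from the real axis -/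
theorem ray_mono (hp : Cpl C x0 φ p) {σ : ℝ} (hσ : σ = 1 ∨ σ = -1) {R : ℝ}
    (hR : ∀ z, R ≤ ‖z‖ → z ∈ Cᶜ ∧ ‖deriv (fun w => p w - w) z‖ ≤ 1 / 2)
    (hd : ∀ z, R ≤ ‖z‖ → DifferentiableAt ℂ (fun w => p w - w) z) {a : ℂ} (ha : R < |a.im|)
    {s : ℝ} (hs : 0 ≤ s) :
    σ * (x0 a + φ a) ≤ σ * (x0 (a + σ * s) + φ (a + σ * s)) := by
  have hσ2 : σ * σ = 1 := by rcases hσ with rfl | rfl <;> norm_num
  have hσa : |σ| = 1 := by rcases hσ with rfl | rfl <;> norm_num
  set e : ℂ := a + σ * s with he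
  have hae : e.im = a.im := by simp [he]
  have hnorm : ∀ z : ℂ, R < |z.im| → R ≤ ‖z‖ := fun z hz => hz.le.trans (abs_im_le_norm z)
  obtain ⟨S, hS, haS, heS, hSR⟩ : ∃ S : Set ℂ, Convex ℝ S ∧ a ∈ S ∧ e ∈ S ∧
      ∀ z ∈ S, R < |z.im| := by
    rcases lt_abs.1 ha with h | h
    · exact ⟨{z | R < z.im}, convex_halfSpace_im_gt R, h, by rw [mem_ofPred_eq, hae]; exact h,
        fun z hz => lt_of_lt_of_le hz (le_abs_self _)⟩
    · exact ⟨{z | z.im < -R}, convex_halfSpace_im_lt (-R), by rw [mem_ofPred_eq]; linarith,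
        by rw [mem_ofPred_eq, hae]; linarith, fun z hz => by
          have : z.im < -R := hz
          exact lt_of_lt_of_le (by linarith) (neg_le_abs _)⟩
  have h1 := hS.norm_image_sub_le_of_norm_deriv_le (f := fun w => p w - w) (C := 1 / 2)
    (fun z hz => hd z (hnorm z (hSR z hz))) (fun z hz => (hR z (hnorm z (hSR z hz))).2) haS heS
  have h2 : ‖e - a‖ = s := by
    rw [he, add_sub_cancel_left, norm_mul, Complex.norm_real, Complex.norm_real,
      Real.norm_eq_abs, Real.norm_eq_abs, hσa, abs_of_nonneg hs, one_mul]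
  rw [h2] at h1
  rw [← hp.re a (hR a (hnorm a ha)).1, ← hp.re e (hR e (hnorm e (by rw [hae]; exact ha))).1]
  have h3 := (abs_re_le_norm ((p e - e) - (p a - a))).trans h1
  have h4 : ((p e - e) - (p a - a)).re = (p e).re - (p a).re - σ * s := by
    simp [he]; ring
  rw [h4] at h3
  have h5 : |σ * ((p e).re - (p a).re - σ * s)| ≤ 1 / 2 * s := by
    rw [abs_mul, hσa, one_mul]; exact h3
  have h6 : σ * ((p e).re - (p a).re - σ * s) = σ * (p e).re - σ * (p a).re - s := by
    have : σ * (σ * s) = s := by rw [← mul_assoc, hσ2, one_mul]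
    rw [mul_sub, mul_sub, this]
  rw [h6, abs_le] at h5
  linarith [h5.1]

theorem preconn_W (hP : Pk C x0 b φ) (hp : Cpl C x0 φ p) {σ : ℝ} (hσ : σ = 1 ∨ σ = -1)
    (t : ℝ) : IsPreconnected {z | t < σ * (x0 z + φ z)} := by
  have hC := hP.td.cpt.isClosed
  have hσ2 : σ * σ = 1 := by rcases hσ with rfl | rfl <;> norm_num
  have hσa : ∀ u : ℝ, |σ * u| = |u| := by
    intro u
    rcases hσ with rfl | rfl
    · rw [one_mul]
    · rw [neg_one_mul, abs_neg]
  obtain ⟨R, M, hR, hM, hfar, hd⟩ := far hP hp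
  set x : ℂ → ℝ := fun z => x0 z + φ z with hx
  have hxc : Continuous x := hP.hx0.sm.continuous.add hP.memφ.cont
  set W : Set ℂ := {z | t < σ * x z} with hW
  set T : ℝ := R + M + |t| with hT
  set P : Set ℂ := {z | T < σ * z.re} with hPd
  have hPc : IsPreconnected P := by
    have : Convex ℝ P := by
      rcases hσ with rfl | rfl
      · have : P = {z : ℂ | T < z.re} := by ext z; simp [hPd]
        rw [this]; exact convex_halfSpace_re_gt T
      · have : P = {z : ℂ | z.re < -T} := by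
          ext z
          simp only [hPd, mem_ofPred_eq]
          constructor <;> intro h <;> linarith
        rw [this]; exact convex_halfSpace_re_lt (-T)
    exact this.isPreconnected
  have hxre : ∀ z, R ≤ ‖z‖ → |σ * x z - σ * z.re| ≤ M := by
    intro z hz
    rw [← mul_sub, hσa]
    exact (hfar z hz).2.1
  have hPW : P ⊆ W := by
    intro z hz
    have hz' : T < σ * z.re := hz
    have h1 : R ≤ ‖z‖ := by
      have h2 := abs_re_le_norm z
      have h3 : σ * z.re ≤ |z.re| := by rw [← hσa]; exact le_abs_self _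
      have := abs_nonneg t
      linarith
    have h2 := (abs_le.1 (hxre z h1)).1
    have := le_abs_self t
    show t < σ * x z
    linarith
  have hmeet : ∀ z ∈ W, (connectedComponentIn W z ∩ P).Nonempty := by
    intro z hz
    have hub := unbounded_comp hP hp hσ (t := t) (z0 := z) hz
    set V : Set ℂ := connectedComponentIn W z with hV
    obtain ⟨z1, hz1, hz1n⟩ : ∃ z1 ∈ V, 2 * (T + R + M + 2) < ‖z1‖ := by
      by_contra hcon
      push Not at hcon
      refine hub ((isBounded_closedBall (x := (0 : ℂ)) (r := 2 * (T + R + M + 2))).subset ?_)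
      intro w hw
      rw [mem_closedBall_zero_iff]
      exact hcon w hw
    have hz1W : z1 ∈ W := connectedComponentIn_subset _ _ hz1
    have hTt : 0 ≤ |t| := abs_nonneg t
    by_cases him : R < |z1.im|
    · -- the ray
      have hray : ∀ s : ℝ, 0 ≤ s → z1 + σ * s ∈ W := by
        intro s hs
        have := ray_mono hp hσ (R := R) (fun z hz => ⟨(hfar z hz).1, (hfar z hz).2.2⟩) hd him hs
        exact lt_of_lt_of_le (show t < σ * x z1 from hz1W) this
      have hL : IsPreconnected ((fun s : ℝ => z1 + σ * s) '' Ici 0) :=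
        isPreconnected_Ici.image _ (by fun_prop)
      have hLV : (fun s : ℝ => z1 + σ * s) '' Ici 0 ⊆ V := by
        have h1 : z1 ∈ (fun s : ℝ => z1 + σ * s) '' Ici (0 : ℝ) := ⟨0, self_mem_Ici, by simp⟩
        have h2 := hL.subset_connectedComponentIn h1 (F := W) (by
          rintro _ ⟨s, hs, rfl⟩; exact hray s hs)
        rw [hV, connectedComponentIn_eq hz1]
        exact h2
      set s0 : ℝ := |z1.re| + |T| + 1 with hs0
      have hs00 : 0 ≤ s0 := by positivity
      refine ⟨z1 + σ * s0, hLV ⟨s0, hs00, rfl⟩, ?_⟩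
      show T < σ * (z1 + σ * s0).re
      have : (z1 + (σ : ℂ) * (s0 : ℂ)).re = z1.re + σ * s0 := by simp
      rw [this, mul_add, ← mul_assoc, hσ2, one_mul]
      have h3 : -|z1.re| ≤ σ * z1.re := by rw [← hσa]; exact neg_abs_le _
      have := le_abs_self T
      linarith
    · have him' := not_lt.1 him
      have h1 : ‖z1‖ ≤ |z1.re| + |z1.im| := norm_le_abs_re_add_abs_im z1
      have hz1R : R ≤ ‖z1‖ := by linarith
      have h2 := (abs_le.1 (hxre z1 hz1R)).2
      have h3 : t < σ * x z1 := hz1W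
      have h4 := neg_abs_le t
      have h5 : |σ * z1.re| = |z1.re| := hσa _
      refine ⟨z1, hz1, ?_⟩
      show T < σ * z1.re
      rcases abs_cases (σ * z1.re) with ⟨h6, _⟩ | ⟨h6, _⟩ <;> linarith
  obtain ⟨y0, hy0⟩ : P.Nonempty := by
    refine ⟨((σ * (T + 1) : ℝ) : ℂ), ?_⟩
    show T < σ * (((σ * (T + 1) : ℝ) : ℂ)).re
    rw [Complex.ofReal_re, ← mul_assoc, hσ2]
    linarith
  refine isPreconnected_of_forall y0 fun y hy => ?_
  refine ⟨P ∪ connectedComponentIn W y, union_subset hPW (connectedComponentIn_subset _ _),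
    Or.inl hy0, Or.inr (mem_connectedComponentIn hy), ?_⟩
  obtain ⟨q, hq1, hq2⟩ := hmeet y hy
  exact IsPreconnected.union q hq2 hq1 hPc isPreconnected_connectedComponentIn

theorem conn_gt (hP : Pk C x0 b φ) (hp : Cpl C x0 φ p) (t : ℝ) :
    IsPreconnected {z | z ∈ Cᶜ ∧ t < (p z).re} := by
  have h1 := preconn_W hP hp (Or.inl rfl) t
  have hc : Continuous fun z => 1 * (x0 z + φ z) :=
    continuous_const.mul (hP.hx0.sm.continuous.add hP.memφ.cont)
  have h2 := Tdc_987.preconn_diff hP.td.cpt hP.td.td (isOpen_lt continuous_const hc) h1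
  have e : {z | z ∈ Cᶜ ∧ t < (p z).re} = {z | t < 1 * (x0 z + φ z)} \ C := by
    ext z
    constructor
    · rintro ⟨h3, h4⟩
      refine ⟨?_, h3⟩
      show t < 1 * (x0 z + φ z)
      rw [← hp.re z h3, one_mul]; exact h4
    · rintro ⟨h3, h4⟩
      have h3' : t < 1 * (x0 z + φ z) := h3
      refine ⟨h4, ?_⟩
      rw [← hp.re z h4, one_mul] at h3'; exact h3'
  rw [e]; exact h2

theorem conn_lt (hP : Pk C x0 b φ) (hp : Cpl C x0 φ p) (t : ℝ) :
    IsPreconnected {z | z ∈ Cᶜ ∧ (p z).re < t} := by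
  have h1 := preconn_W hP hp (Or.inr rfl) (-t)
  have hc : Continuous fun z => -1 * (x0 z + φ z) :=
    continuous_const.mul (hP.hx0.sm.continuous.add hP.memφ.cont)
  have h2 := Tdc_987.preconn_diff hP.td.cpt hP.td.td (isOpen_lt continuous_const hc) h1
  have e : {z | z ∈ Cᶜ ∧ (p z).re < t} = {z | -t < -1 * (x0 z + φ z)} \ C := by
    ext z
    constructor
    · rintro ⟨h3, h4⟩
      refine ⟨?_, h3⟩
      show -t < -1 * (x0 z + φ z)
      rw [← hp.re z h3]; linarith
    · rintro ⟨h3, h4⟩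
      have h3' : -t < -1 * (x0 z + φ z) := h3
      refine ⟨h4, ?_⟩
      rw [← hp.re z h4] at h3'; linarith
  rw [e]; exact h2

end Crest.Agent.R105.Uv_913
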