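import Crest.Agent.R105.Uv5_913
import Crest.Agent.R105.Uv7_913

/-!
Row 105, UNIV (helper913): `IfB_641.UNIVP`.
-/

set_option autoImplicit false

namespace Crest.Agent.R105.Uv_913

open Set

/-- **UNIVP** -/
theorem univp : Crest.Agent.R105.IfB_641.UNIVP := by
  intro C x0 b φ p hP hp
  refine injOn_of_EL hP.td.cpt.isClosed.isOpen_compl
    (Tdc_987.isPreconnected_compl hP.td.cpt hP.td.td) hp.hol (energy hP hp) (elineq hP hp)
    (exists_deriv_ne hP hp) (fun a b hab => ?_) (fun a b hab => ?_)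
  · exact ⟨(a + b) / 2, ⟨by linarith, by linarith⟩, conn_gt hP hp _⟩
  · exact ⟨(a + b) / 2, ⟨by linarith, by linarith⟩, conn_lt hP hp _⟩

end Crest.Agent.R105.Uv_913
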