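import Crest.Agent.R105.IfB3_641
import Crest.Agent.R105.Selp2_871
import Crest.Agent.R105.Dir4_508
import Crest.Agent.R105.Uv8_913
import Crest.Agent.R105.Null1_442
import Crest.Agent.R105.Pln4_868
import Crest.Agent.R105.Adp1_987
import Crest.Agent.R105.Isx4_909
import Crest.Agent.R105.Iso7_938
import Crest.Agent.R105.Isl1_157
import Crest.Agent.R105.Lop1_744
import Crest.Agent.R105.Sin3_925
import Crest.Agent.R105.Stp12_722
import Crest.Agent.R105.SkLim2_363
import Crest.Agent.R105.Skc2_49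
import Crest.Agent.R105.Skst2_49
import Crest.Agent.R105.RdTop_557

/-!
# Row 105, S0139: final assembly. The two remaining leaves are hypotheses: `ATTP` and `LEMA`.
-/

set_option autoImplicit false

open Set Filter Metric Topology MeasureTheory

namespace Crest.Agent.R105.Fin139_641

/-- PP (no hairs) from `LEMA` -/
theorem pp_of (hL : Skp2_257.LEMA) : Skp2_257.PP :=
  Skp2_257.pp_of_leaves hL Isx_909.nullim Iso_938.isog Isl_157.isolim
    (Skp2_257.stepall_of Lop1_744.lay Sin_925.single Stp_722.step)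
    SkLim2_363.lim Skc2_49.cfpl Skst2_49.start

/-- [B] from `ATTP` and `LEMA` -/
theorem bp_of (hA : IfB_641.ATTP) (hL : Skp2_257.LEMA) : Rd_557.BP :=
  IfB_641.BP_of_leaves Clo_871.selp hA Dir_508.dirp Uv_913.univp Pic_442.nullp Pln_868.planp
    (Skp4_257.ppp_of (pp_of hL) Pln_868.pln Adp_987.picp Adp_987.elp)

/-- **S0139 from `ATTP` and `LEMA`** -/
theorem s0139_of (hA : IfB_641.ATTP) (hL : Skp2_257.LEMA)
    (U V : Set ℂ) (hU : Crest.AnalysisR.IsCircleDomainFinitePart U)
    (hV : Crest.AnalysisR.IsCircleDomainFinitePart V)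
    (hE : Crest.AnalysisR.IsConformallyRemovable (frontier U)) (f : ℂ → ℂ)
    (hf : DifferentiableOn ℂ f U) (hinj : Set.InjOn f U) (hsurj : f '' U = V)
    (hinf : Filter.Tendsto f (Filter.cocompact ℂ) (Filter.cocompact ℂ)) :
    ∃ a b : ℂ, a ≠ 0 ∧ ∀ z ∈ U, f z = a * z + b :=
  RdTop_557.s0139_of_bp (bp_of hA hL) U V hU hV hE f hf hinj hsurj hinf

end Crest.Agent.R105.Fin139_641
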