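import Crest.Agent.R105.FKd_644

/-!
# R105, finite Koebe theorem (helper286), part 1: uniqueness of slit maps

* `zero_of_lines` : `h` holomorphic on a connected open set, `h → 0` at infinity, cluster values at
                    the boundary on finitely many horizontal lines ⟹ `h = 0`
* `rel_unique`    : `Rel p q → Rel p q' → q = q'`
-/

set_option autoImplicit false

open Set Filter Topology Complex Metric

namespace Crest.Agent.R105.Fk_286



theorem ev_cocompact {P : ℂ → Prop} :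
    (∀ᶠ z in cocompact ℂ, P z) ↔ ∃ R : ℝ, ∀ z, R < ‖z‖ → P z := by
  rw [← Metric.cobounded_eq_cocompact,
    (Metric.hasBasis_cobounded_compl_closedBall (0 : ℂ)).eventually_iff]
  constructor
  · rintro ⟨R, -, hR⟩
    exact ⟨R, fun z hz => hR (by simpa using hz)⟩
  · rintro ⟨R, hR⟩
    exact ⟨R, trivial, fun z hz => hR z (by simpa using hz)⟩

/-- the boundary values on finitely many horizontal lines -/
theorem closure_sub {n : ℕ} {U : Set ℂ} {K : Fin n → Set ℂ} (hK : Uᶜ = ⋃ i, K i) {h : ℂ → ℂ}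
    (hc : ContinuousOn h U) (h0 : Tendsto h (cocompact ℂ) (𝓝 0)) (c : Fin n → ℝ)
    (hb : ∀ i, ∀ ε > 0, ∀ᶠ z in 𝓝ˢ (K i) ⊓ 𝓟 U, |(h z).im - c i| < ε) {w : ℂ}
    (hw : w ∈ closure (h '' U)) (hw0 : w.im ≠ 0) (hwi : ∀ i, w.im ≠ c i) : w ∈ h '' U := by
  -- a uniform distance
  obtain ⟨ε, hε, hε0, hεi⟩ : ∃ ε > 0, 2 * ε < |w.im| ∧ ∀ i, 2 * ε < |w.im - c i| := by
    have h1 : ∀ᶠ ε in 𝓝[>] (0 : ℝ), 2 * ε < |w.im| := by
      have : Tendsto (fun ε : ℝ => 2 * ε) (𝓝[>] 0) (𝓝 (2 * 0)) :=
        ((continuous_const.mul continuous_id).tendsto 0).mono_left nhdsWithin_le_nhds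
      rw [mul_zero] at this
      exact this.eventually (gt_mem_nhds (abs_pos.2 hw0))
    have h2 : ∀ᶠ ε in 𝓝[>] (0 : ℝ), ∀ i, 2 * ε < |w.im - c i| := by
      rw [eventually_all]
      intro i
      have : Tendsto (fun ε : ℝ => 2 * ε) (𝓝[>] 0) (𝓝 (2 * 0)) :=
        ((continuous_const.mul continuous_id).tendsto 0).mono_left nhdsWithin_le_nhds
      rw [mul_zero] at this
      exact this.eventually (gt_mem_nhds (abs_pos.2 (sub_ne_zero.2 (hwi i))))
    obtain ⟨ε, h3, h4, h5⟩ := (h1.and (h2.and self_mem_nhdsWithin)).exists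
    exact ⟨ε, h5, h3, h4⟩
  -- neighbourhoods of the components
  have h1 : ∀ i, ∃ O : Set ℂ, IsOpen O ∧ K i ⊆ O ∧ ∀ z ∈ O ∩ U, |(h z).im - c i| < ε := by
    intro i
    have h2 := hb i ε hε
    rw [eventually_inf_principal] at h2
    obtain ⟨O, hO, hKO, hOU⟩ := mem_nhdsSet_iff_exists.1 h2
    exact ⟨O, hO, hKO, fun z hz => hOU hz.1 hz.2⟩
  choose O hO hKO hOU using h1
  -- near infinity
  have h2 : ∀ᶠ z in cocompact ℂ, ‖h z‖ < ε := by
    have := h0.norm
    rw [norm_zero] at this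
    exact this.eventually (gt_mem_nhds hε)
  obtain ⟨R, hR⟩ := ev_cocompact.1 h2
  set T : Set ℂ := closedBall 0 R \ ⋃ i, O i with hT
  have hTc : IsCompact T := (isCompact_closedBall 0 R).diff (isOpen_iUnion hO)
  have hTU : T ⊆ U := by
    intro z hz
    by_contra hzU
    have h3 : z ∈ ⋃ i, K i := by rw [← hK]; exact hzU
    obtain ⟨i, hi⟩ := mem_iUnion.1 h3
    exact hz.2 (mem_iUnion.2 ⟨i, hKO i hi⟩)
  have hfar : ∀ z ∈ U \ T, ε ≤ |(h z).im - w.im| := by
    rintro z ⟨hzU, hzT⟩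
    by_cases hzR : z ∈ closedBall (0 : ℂ) R
    · have h3 : z ∈ ⋃ i, O i := by
        by_contra h4
        exact hzT ⟨hzR, h4⟩
      obtain ⟨i, hi⟩ := mem_iUnion.1 h3
      have h4 := hOU i z ⟨hi, hzU⟩
      have h5 := hεi i
      have h6 : |w.im - c i| ≤ |(h z).im - w.im| + |(h z).im - c i| := by
        have := abs_sub_le w.im (h z).im (c i)
        rwa [abs_sub_comm w.im (h z).im] at this
      linarith
    · have h4 : ‖h z‖ < ε := hR z (by simpa using hzR)
      have h5 : |(h z).im| < ε := (abs_im_le_norm _).trans_lt h4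
      have h6 : |w.im| ≤ |(h z).im - w.im| + |(h z).im| := by
        have := abs_sub_le w.im (h z).im 0
        rw [sub_zero, sub_zero, abs_sub_comm w.im] at this
        exact this
      linarith
  have hcl : h '' U ⊆ h '' T ∪ {y | ε ≤ |y.im - w.im|} := by
    rintro _ ⟨z, hz, rfl⟩
    by_cases hzT : z ∈ T
    · exact Or.inl ⟨z, hzT, rfl⟩
    · exact Or.inr (hfar z ⟨hz, hzT⟩)
  have hclosed : IsClosed (h '' T ∪ {y : ℂ | ε ≤ |y.im - w.im|}) := by
    refine ((hTc.image_of_continuousOn (hc.mono hTU)).isClosed).union ?_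
    exact isClosed_le continuous_const ((Complex.continuous_im.sub continuous_const).abs)
  rcases closure_minimal hcl hclosed hw with h3 | h3
  · exact image_mono hTU h3
  · simp only [mem_setOf_eq, sub_self, abs_zero] at h3
    exact absurd h3 (not_le.2 hε)

/-- `h` holomorphic on a connected open set, `h → 0` at infinity, boundary values on finitely many
horizontal lines: `h = 0` -/
theorem zero_of_lines {n : ℕ} {U : Set ℂ} (hU : IsOpen U) (hUc : IsPreconnected U)
    {K : Fin n → Set ℂ} (hK : Uᶜ = ⋃ i, K i) (hU0 : ∀ᶠ z in cocompact ℂ, z ∈ U) {h : ℂ → ℂ}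
    (hd : DifferentiableOn ℂ h U) (h0 : Tendsto h (cocompact ℂ) (𝓝 0)) (c : Fin n → ℝ)
    (hb : ∀ i, ∀ ε > 0, ∀ᶠ z in 𝓝ˢ (K i) ⊓ 𝓟 U, |(h z).im - c i| < ε)
    (hbd : Bornology.IsBounded (h '' U)) : ∀ z ∈ U, h z = 0 := by
  have han : AnalyticOnNhd ℂ h U := hd.analyticOnNhd hU
  rcases han.is_constant_or_isOpen hUc with ⟨w, hw⟩ | hop
  · have h1 : w = 0 := by
      have h2 : Tendsto h (cocompact ℂ) (𝓝 w) :=
        tendsto_const_nhds.congr' (hU0.mono fun z hz => (hw z hz).symm)
      exact tendsto_nhds_unique h2 h0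
    intro z hz
    rw [hw z hz, h1]
  · exfalso
    set W : Set ℂ := h '' U with hW
    have hWo : IsOpen W := hop U Subset.rfl hU
    have hWn : W.Nonempty := by
      obtain ⟨z, hz⟩ := hU0.exists
      exact ⟨h z, z, hz, rfl⟩
    -- a point of `W` on a good horizontal line
    obtain ⟨w, hwW, hw0, hwi⟩ : ∃ w ∈ W, w.im ≠ 0 ∧ ∀ i, w.im ≠ c i := by
      obtain ⟨w0, hw0⟩ := hWn
      obtain ⟨δ, hδ, hball⟩ := Metric.isOpen_iff.1 hWo w0 hw0
      have hfin : (insert (0 : ℝ) (range c)).Finite := (finite_range c).insert 0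
      have hinf : (Ioo w0.im (w0.im + δ)).Infinite := Ioo_infinite (by linarith)
      obtain ⟨y, hy, hyn⟩ := (hinf.diff hfin).nonempty
      refine ⟨w0 + ((y - w0.im : ℝ) : ℂ) * I, hball ?_, ?_, ?_⟩
      · rw [mem_ball, dist_eq_norm, add_sub_cancel_left, norm_mul, norm_I, mul_one, norm_real,
          Real.norm_eq_abs, abs_of_pos (by linarith [hy.1])]
        linarith [hy.2]
      · intro h1
        apply hyn
        left
        simpa using h1
      · intro i h1
        apply hyn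
        right
        refine ⟨i, ?_⟩
        rw [← h1]
        simp
    set L : Set ℝ := {x | (x : ℂ) + (w.im : ℂ) * I ∈ W} with hL
    have hcont : Continuous fun x : ℝ => (x : ℂ) + (w.im : ℂ) * I := by fun_prop
    have hLo : IsOpen L := hWo.preimage hcont
    have hLn : w.re ∈ L := by
      show (w.re : ℂ) + (w.im : ℂ) * I ∈ W
      rwa [re_add_im]
    obtain ⟨B, hB⟩ := hbd.exists_norm_le
    have hLb : BddAbove L := by
      refine ⟨B, fun x hx => ?_⟩
      have h1 := hB _ hx
      have h2 := (re_le_norm ((x : ℂ) + (w.im : ℂ) * I)).trans h1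
      simpa using h2
    set s : ℝ := sSup L with hs
    have hsc : s ∈ closure L := csSup_mem_closure ⟨_, hLn⟩ hLb
    have hsn : s ∉ L := by
      intro h1
      obtain ⟨δ, hδ, hball⟩ := Metric.isOpen_iff.1 hLo s h1
      have h2 : s + δ / 2 ∈ L := hball (by
        rw [mem_ball, Real.dist_eq, add_sub_cancel_left, abs_of_pos (by linarith)]
        linarith)
      have h3 := le_csSup hLb h2
      linarith
    have h1 : (s : ℂ) + (w.im : ℂ) * I ∈ closure W := by
      have h2 : (fun x : ℝ => (x : ℂ) + (w.im : ℂ) * I) '' closure L ⊆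
          closure ((fun x : ℝ => (x : ℂ) + (w.im : ℂ) * I) '' L) :=
        image_closure_subset_closure_image hcont
      have h3 : (fun x : ℝ => (x : ℂ) + (w.im : ℂ) * I) '' L ⊆ W := by
        rintro _ ⟨x, hx, rfl⟩
        exact hx
      exact closure_mono h3 (h2 ⟨s, hsc, rfl⟩)
    have him : ((s : ℂ) + (w.im : ℂ) * I).im = w.im := by simp
    exact hsn (closure_sub hK hd.continuousOn h0 c hb h1 (by rw [him]; exact hw0)
      (fun i => by rw [him]; exact hwi i))

end Crest.Agent.R105.Fk_286
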