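import Crest.Agent.R105.Fk1_286

/-!
# R105, finite Koebe theorem (helper286), part 2: uniqueness of labelled slit maps

* `cpt_slits`, `cpt_discs`, `isOpen_dom`, `dom_cocompact`, `bdd_of_ends`, `sub_of_id`
* `uniqSlit_of : y, y' ∈ Y n, dom (slits y) preconnected, LMap (slits y) (slits y') f → y = y'`
* `uniqSlit (hF : ∀ n, ∀ y ∈ Y n, IsPreconnected (dom (slits y))) : UniqSlit`
-/

set_option autoImplicit false

open Set Filter Topology Complex Metric

namespace Crest.Agent.R105.Fk_286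

open Crest.Agent.R105.FK_644

section General
variable {n : ℕ}

theorem cpt_slits {ι : Type*} (y : ι → ℂ × ℝ) (i : ι) : IsCompact (slits y i) := by
  unfold slits
  rw [segment_eq_image]
  exact isCompact_Icc.image (by fun_prop)

theorem cpt_discs {ι : Type*} (x : ι → ℂ × ℝ) (i : ι) : IsCompact (discs x i) :=
  isCompact_closedBall _ _

theorem cpt_iUnion {K : Fin n → Set ℂ} (hK : ∀ i, IsCompact (K i)) : IsCompact (⋃ i, K i) :=
  isCompact_iUnion hK

theorem isOpen_dom {K : Fin n → Set ℂ} (hK : ∀ i, IsCompact (K i)) : IsOpen (dom K) :=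
  (cpt_iUnion hK).isClosed.isOpen_compl

theorem dom_cocompact {K : Fin n → Set ℂ} (hK : ∀ i, IsCompact (K i)) :
    ∀ᶠ z in cocompact ℂ, z ∈ dom K := (cpt_iUnion hK).compl_mem_cocompact

theorem compl_dom {K : Fin n → Set ℂ} : (dom K)ᶜ = ⋃ i, K i := compl_compl _

/-- boundedness from the behaviour at the ends -/
theorem bdd_of_ends {U : Set ℂ} {K : Fin n → Set ℂ} (hK : Uᶜ = ⋃ i, K i) {h : ℂ → ℂ}
    (hc : ContinuousOn h U) (h0 : Tendsto h (cocompact ℂ) (𝓝 0))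
    (hb : ∀ i, ∃ M : ℝ, ∀ᶠ z in 𝓝ˢ (K i) ⊓ 𝓟 U, ‖h z‖ ≤ M) :
    ∃ M : ℝ, ∀ z ∈ U, ‖h z‖ ≤ M := by
  choose M hM using hb
  have h1 : ∀ i, ∃ O : Set ℂ, IsOpen O ∧ K i ⊆ O ∧ ∀ z ∈ O ∩ U, ‖h z‖ ≤ M i := by
    intro i
    have h2 := hM i
    rw [eventually_inf_principal] at h2
    obtain ⟨O, hO, hKO, hOU⟩ := mem_nhdsSet_iff_exists.1 h2
    exact ⟨O, hO, hKO, fun z hz => hOU hz.1 hz.2⟩
  choose O hO hKO hOU using h1
  have h2 : ∀ᶠ z in cocompact ℂ, ‖h z‖ < 1 := by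
    have := h0.norm
    rw [norm_zero] at this
    exact this.eventually (gt_mem_nhds one_pos)
  obtain ⟨R, hR⟩ := ev_cocompact.1 h2
  set T : Set ℂ := closedBall 0 R \ ⋃ i, O i with hT
  have hTc : IsCompact T := (isCompact_closedBall 0 R).diff (isOpen_iUnion hO)
  have hTU : T ⊆ U := by
    intro z hz
    by_contra hzU
    have h3 : z ∈ ⋃ i, K i := by rw [← hK]; exact hzU
    obtain ⟨i, hi⟩ := mem_iUnion.1 h3
    exact hz.2 (mem_iUnion.2 ⟨i, hKO i hi⟩)
  obtain ⟨B, hB⟩ := (hTc.image_of_continuousOn (hc.mono hTU)).isBounded.exists_norm_le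
  obtain ⟨A, hA⟩ := (finite_range M).bddAbove
  refine ⟨max 1 (max A B), fun z hz => ?_⟩
  by_cases hzR : z ∈ closedBall (0 : ℂ) R
  · by_cases hzO : z ∈ ⋃ i, O i
    · obtain ⟨i, hi⟩ := mem_iUnion.1 hzO
      exact (hOU i z ⟨hi, hz⟩).trans ((hA (mem_range_self i)).trans
        ((le_max_left _ _).trans (le_max_right _ _)))
    · exact (hB _ ⟨z, ⟨hzR, hzO⟩, rfl⟩).trans ((le_max_right _ _).trans (le_max_right _ _))
  · exact (hR z (by simpa using hzR)).le.trans (le_max_left _ _)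

/-- near a compact set -/
theorem bdd_near {A : Set ℂ} (hA : IsCompact A) : ∃ M : ℝ, ∀ᶠ z in 𝓝ˢ A, ‖z‖ ≤ M := by
  obtain ⟨M, hM⟩ := hA.isBounded.exists_norm_le
  refine ⟨M + 1, ?_⟩
  have h1 : {z : ℂ | ‖z‖ < M + 1} ∈ 𝓝ˢ A :=
    (isOpen_lt continuous_norm continuous_const).mem_nhdsSet.2 fun z hz =>
      (hM z hz).trans_lt (lt_add_one M)
  exact mem_of_superset h1 fun z (hz : ‖z‖ < M + 1) => hz.le

/-- the difference `f - id` of a labelled map is bounded -/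
theorem LMap_bdd {K K' : Fin n → Set ℂ} {f : ℂ → ℂ} (hf : LMap K K' f)
    (hK : ∀ i, IsCompact (K i)) (hK' : ∀ i, IsCompact (K' i)) :
    ∃ M : ℝ, ∀ z ∈ dom K, ‖f z - z‖ ≤ M := by
  refine bdd_of_ends (K := K) compl_dom (hf.sig.hol.continuousOn.sub continuousOn_id)
    hf.sig.inf fun i => ?_
  obtain ⟨M1, h1⟩ := bdd_near (hK i)
  obtain ⟨M2, h2⟩ := bdd_near (hK' i)
  refine ⟨M2 + M1, ?_⟩
  filter_upwards [hf.lab i h2, (h1.filter_mono inf_le_left :
    ∀ᶠ z in 𝓝ˢ (K i) ⊓ 𝓟 (dom K), ‖z‖ ≤ M1)] with z hz1 hz2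
  exact (norm_sub_le _ _).trans (add_le_add hz1 hz2)

/-- if the identity is a labelled map, the boundary of `K i` lies in `K' i` -/
theorem sub_of_id {K K' : Fin n → Set ℂ} {f : ℂ → ℂ} (hf : LMap K K' f)
    (hK' : ∀ i, IsCompact (K' i)) (hid : ∀ z ∈ dom K, f z = z) (i : Fin n) {z : ℂ}
    (hz : z ∈ K i) (hzc : z ∈ closure (dom K)) : z ∈ K' i := by
  by_contra hn
  obtain ⟨O, O', hO, hO', hzO, hKO, hd⟩ :=
    SeparatedNhds.of_isCompact_isCompact (isCompact_singleton (x := z)) (hK' i)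
      (disjoint_singleton_left.2 hn)
  have h1 : ∀ᶠ w in 𝓝ˢ (K i) ⊓ 𝓟 (dom K), f w ∈ O' := hf.lab i (hO'.mem_nhdsSet.2 hKO)
  have h2 : 𝓝 z ⊓ 𝓟 (dom K) ≤ 𝓝ˢ (K i) ⊓ 𝓟 (dom K) :=
    inf_le_inf_right _ (nhds_le_nhdsSet hz)
  have h3 : ∀ᶠ w in 𝓝 z ⊓ 𝓟 (dom K), w ∈ O :=
    (hO.mem_nhds (hzO rfl) : O ∈ 𝓝 z) |> fun h => mem_inf_of_left h
  have h4 : ∀ᶠ w in 𝓝 z ⊓ 𝓟 (dom K), w ∈ dom K := mem_inf_of_right (mem_principal_self _)
  haveI : (𝓝 z ⊓ 𝓟 (dom K)).NeBot := mem_closure_iff_clusterPt.1 hzc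
  obtain ⟨w, hw1, hw2, hw3⟩ := ((h1.filter_mono h2).and (h3.and h4)).exists
  rw [hid w hw3] at hw1
  exact disjoint_left.1 hd hw2 hw1

end General

/-! ### slits -/

theorem slits_im {ι : Type*} {y : ι → ℂ × ℝ} {i : ι} {z : ℂ} (hz : z ∈ slits y i) :
    z.im = (y i).1.im := by
  unfold slits at hz
  rw [segment_eq_image'] at hz
  obtain ⟨t, -, rfl⟩ := hz
  simp

theorem slits_re {ι : Type*} {y : ι → ℂ × ℝ} (hy : ∀ i, 0 < (y i).2) {i : ι} {z : ℂ}
    (hz : z ∈ slits y i) : (y i).1.re ≤ z.re ∧ z.re ≤ (y i).1.re + (y i).2 := by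
  unfold slits at hz
  rw [segment_eq_image'] at hz
  obtain ⟨t, ht, rfl⟩ := hz
  have h1 : ((y i).1 + t • ((y i).1 + ((y i).2 : ℂ) - (y i).1)).re = (y i).1.re + t * (y i).2 := by
    simp
  simp only at h1 ⊢
  rw [h1]
  constructor
  · linarith [mul_nonneg ht.1 (hy i).le]
  · have := mul_le_mul_of_nonneg_right ht.2 (hy i).le
    linarith

theorem mem_slits {ι : Type*} {y : ι → ℂ × ℝ} (hy : ∀ i, 0 < (y i).2) {i : ι} {z : ℂ} :
    z ∈ slits y i ↔ z.im = (y i).1.im ∧ (y i).1.re ≤ z.re ∧ z.re ≤ (y i).1.re + (y i).2 := by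
  refine ⟨fun h => ⟨slits_im h, slits_re hy h⟩, ?_⟩
  rintro ⟨h1, h2, h3⟩
  unfold slits
  rw [segment_eq_image']
  have hp := hy i
  refine ⟨(z.re - (y i).1.re) / (y i).2, ⟨div_nonneg (by linarith) hp.le,
    (div_le_one hp).2 (by linarith)⟩, ?_⟩
  apply Complex.ext
  · simp only [add_sub_cancel_left, add_re, real_smul, mul_re, ofReal_re, ofReal_im, mul_zero,
      sub_zero]
    field_simp
    ring
  · simp [h1]

theorem slits_inj {ι : Type*} {y y' : ι → ℂ × ℝ} (hy : ∀ i, 0 < (y i).2)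
    (hy' : ∀ i, 0 < (y' i).2) {i : ι} (h : slits y i = slits y' i) : y i = y' i := by
  have h1 : (y i).1 ∈ slits y i := (mem_slits hy).2 ⟨rfl, le_rfl, by linarith [hy i]⟩
  have h2 : (y' i).1 ∈ slits y' i := (mem_slits hy').2 ⟨rfl, le_rfl, by linarith [hy' i]⟩
  have h3 : (y i).1 + ((y i).2 : ℂ) ∈ slits y i :=
    (mem_slits hy).2 ⟨by simp, by simp [(hy i).le], by simp⟩
  have h4 : (y' i).1 + ((y' i).2 : ℂ) ∈ slits y' i :=
    (mem_slits hy').2 ⟨by simp, by simp [(hy' i).le], by simp⟩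
  rw [h, mem_slits hy'] at h1 h3
  rw [← h, mem_slits hy] at h2 h4
  simp only [add_re, ofReal_re] at h3 h4
  have e1 : (y i).1 = (y' i).1 :=
    Complex.ext (le_antisymm h2.2.1 h1.2.1) h1.1
  have e2 : (y i).2 = (y' i).2 := by
    have := congrArg re e1
    linarith [h3.2.2, h4.2.2]
  exact Prod.ext e1 e2

/-- a slit has empty interior: it lies in the closure of the slit domain -/
theorem slits_sub_closure {n : ℕ} {y : Fin n → ℂ × ℝ} {i : Fin n} {z : ℂ} (_hz : z ∈ slits y i) :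
    z ∈ closure (dom (slits y)) := by
  rw [Metric.mem_closure_iff]
  intro ε hε
  have hfin : (range fun j => (y j).1.im).Finite := finite_range _
  have hinf : (Ioo z.im (z.im + ε)).Infinite := Ioo_infinite (by linarith)
  obtain ⟨t, ht, htn⟩ := (hinf.diff hfin).nonempty
  refine ⟨z + ((t - z.im : ℝ) : ℂ) * I, ?_, ?_⟩
  · intro hmem
    obtain ⟨j, hj⟩ := mem_iUnion.1 hmem
    apply htn
    refine ⟨j, ?_⟩
    have := slits_im hj
    simpa using this.symm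
  · rw [dist_eq_norm, sub_add_cancel_left, norm_neg, norm_mul, norm_I, mul_one, norm_real,
      Real.norm_eq_abs, abs_of_pos (by linarith [ht.1])]
    linarith [ht.2]

/-- near a slit, the imaginary part is near the height -/
theorem im_near {n : ℕ} (y : Fin n → ℂ × ℝ) (i : Fin n) {ε : ℝ} (hε : 0 < ε) :
    ∀ᶠ z in 𝓝ˢ (slits y i), |z.im - (y i).1.im| < ε :=
  (isOpen_lt (by fun_prop) continuous_const :
    IsOpen {z : ℂ | |z.im - (y i).1.im| < ε}).mem_nhdsSet.2 fun z hz => by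
      show |z.im - (y i).1.im| < ε
      rw [slits_im hz, sub_self, abs_zero]
      exact hε

theorem uniqSlit_of {n : ℕ} {y y' : Fin n → ℂ × ℝ} (hy : y ∈ Y n) (hy' : y' ∈ Y n)
    (hc : IsPreconnected (dom (slits y))) {f : ℂ → ℂ} (hf : LMap (slits y) (slits y') f) :
    y = y' := by
  have hcK := cpt_slits y
  have hcK' := cpt_slits y'
  have hU := isOpen_dom hcK
  obtain ⟨M, hM⟩ := LMap_bdd hf hcK hcK'
  have hz : ∀ z ∈ dom (slits y), f z - z = 0 := by
    refine zero_of_lines (K := slits y) hU hc compl_dom (dom_cocompact hcK)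
      (hf.sig.hol.sub differentiableOn_id) hf.sig.inf
      (fun i => (y' i).1.im - (y i).1.im) (fun i ε hε => ?_) ?_
    · filter_upwards [hf.lab i (im_near y' i (half_pos hε)),
        (im_near y i (half_pos hε)).filter_mono (inf_le_left :
          𝓝ˢ (slits y i) ⊓ 𝓟 (dom (slits y)) ≤ 𝓝ˢ (slits y i))] with z hz1 hz2
      have h1 : (f z - z).im - ((y' i).1.im - (y i).1.im) =
          ((f z).im - (y' i).1.im) - (z.im - (y i).1.im) := by
        rw [sub_im]; ring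
      rw [h1]
      calc |(f z).im - (y' i).1.im - (z.im - (y i).1.im)|
          ≤ |(f z).im - (y' i).1.im| + |z.im - (y i).1.im| := abs_sub _ _
        _ < ε / 2 + ε / 2 := add_lt_add hz1 hz2
        _ = ε := add_halves ε
    · rw [isBounded_iff_forall_norm_le]
      exact ⟨M, by rintro _ ⟨z, hz, rfl⟩; exact hM z hz⟩
  have hid : ∀ z ∈ dom (slits y), f z = z := fun z h => sub_eq_zero.1 (hz z h)
  have hsub : ∀ i, slits y i ⊆ slits y' i := fun i z h =>
    sub_of_id hf hcK' hid i h (slits_sub_closure h)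
  have hdom : dom (slits y) = dom (slits y') := by
    rw [← hf.img]
    ext z
    constructor
    · intro h; exact ⟨z, h, hid z h⟩
    · rintro ⟨w, hw, rfl⟩; rw [hid w hw]; exact hw
  have hun : ⋃ i, slits y i = ⋃ i, slits y' i := by
    have := congrArg compl hdom
    rwa [compl_dom, compl_dom] at this
  funext i
  refine slits_inj hy.1 hy'.1 (Subset.antisymm (hsub i) fun z h => ?_)
  have h1 : z ∈ ⋃ j, slits y j := by rw [hun]; exact mem_iUnion.2 ⟨i, h⟩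
  obtain ⟨j, hj⟩ := mem_iUnion.1 h1
  by_cases hij : i = j
  · rw [hij]; exact hj
  · exact absurd (hsub j hj) (disjoint_left.1 (hy'.2 i j hij) h)

/-- (F3a) -/
theorem uniqSlit (hF : ∀ (n : ℕ), ∀ y ∈ Y n, IsPreconnected (dom (slits y))) : UniqSlit :=
  fun n y y' hy hy' _ hf => uniqSlit_of hy hy' (hF n y hy) hf

end Crest.Agent.R105.Fk_286
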