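import Crest.Agent.R105.Fk2_286

/-!
# R105, finite Koebe theorem (helper286), part 3: integration by parts with radial cut-offs

* `dd K z = (∂_x K - i ∂_y K)/2`
* `ibp` : `∫ K H' = - ∫ (dd K) H` for `H` holomorphic near `tsupport K`
* `rad h c z = h (|z - c|²)`, `dd (rad h c) z = h' (|z - c|²) conj (z - c)`
* `bump A B` : the profile (`= 1` on `s ≤ A`, `= 0` on `B ≤ s`)
-/

set_option autoImplicit false

open Set Filter Topology Complex Metric MeasureTheory
open scoped ContDiff ComplexConjugate

namespace Crest.Agent.R105.Fk_286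

/-- `∂ = (∂_x - i ∂_y)/2` -/
noncomputable def dd (K : ℂ → ℂ) (z : ℂ) : ℂ := (fderiv ℝ K z 1 - I * fderiv ℝ K z I) / 2

theorem integrable_of_tsupport {K H : ℂ → ℂ} (hK : Continuous K) (hKc : HasCompactSupport K)
    {O : Set ℂ} (hO : IsOpen O) (hKO : tsupport K ⊆ O) (hH : ContinuousOn H O) :
    Continuous (fun z => K z * H z) ∧ Integrable (fun z => K z * H z) := by
  have hc : Continuous (fun z => K z * H z) := by
    refine continuous_of_tsupport fun z hz => ?_
    have hz' : z ∈ tsupport K := tsupport_mul_subset_left hz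
    exact hK.continuousAt.mul (hH.continuousAt (hO.mem_nhds (hKO hz')))
  exact ⟨hc, hc.integrable_of_hasCompactSupport hKc.mul_right⟩

theorem tsupport_fderiv_apply (K : ℂ → ℂ) (v : ℂ) :
    tsupport (fun z => fderiv ℝ K z v) ⊆ tsupport K := by
  refine (closure_mono ?_).trans (tsupport_fderiv_subset ℝ (f := K))
  intro z hz h
  exact hz (by simp [h])

theorem ibp_dir {K H : ℂ → ℂ} (hK : ContDiff ℝ 1 K) (hKc : HasCompactSupport K)
    {O : Set ℂ} (hO : IsOpen O) (hKO : tsupport K ⊆ O) (hH : DifferentiableOn ℂ H O) (v : ℂ) :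
    ∫ z, K z * (v * deriv H z) = -∫ z, fderiv ℝ K z v * H z := by
  have hHd : ∀ z ∈ O, DifferentiableAt ℂ H z := fun z hz => hH.differentiableAt (hO.mem_nhds hz)
  have hfd : ∀ z ∈ O, fderiv ℝ H z v = v * deriv H z := by
    intro z hz
    have h1 : HasFDerivAt H ((fderiv ℂ H z).restrictScalars ℝ) z :=
      (hHd z hz).hasFDerivAt.restrictScalars ℝ
    rw [h1.fderiv]
    show fderiv ℂ H z v = _
    have h2 : (v : ℂ) = v • (1 : ℂ) := by simp
    conv_lhs => rw [h2]
    rw [map_smul, fderiv_apply_one_eq_deriv, smul_eq_mul]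
  have hdc : ContinuousOn (deriv H) O := (hH.deriv hO).continuousOn
  have hHc : ContinuousOn H O := hH.continuousOn
  have h1 : (fun z => K z * (v * deriv H z)) = fun z => K z * fderiv ℝ H z v := by
    funext z
    by_cases hz : z ∈ tsupport K
    · rw [hfd z (hKO hz)]
    · simp [image_eq_zero_of_notMem_tsupport hz]
  have hi1 : Integrable (fun z => K z * (v * deriv H z)) :=
    (integrable_of_tsupport hK.continuous hKc hO hKO
      (continuousOn_const.mul hdc : ContinuousOn (fun z => v * deriv H z) O)).2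
  have hKv : Continuous (fun z => fderiv ℝ K z v) :=
    (hK.continuous_fderiv one_ne_zero).clm_apply continuous_const
  have hi2 := (integrable_of_tsupport hKv
    (hKc.of_isClosed_subset (isClosed_tsupport _) (tsupport_fderiv_apply K v)) hO
    ((tsupport_fderiv_apply K v).trans hKO) hHc).2
  have hi3 := (integrable_of_tsupport hK.continuous hKc hO hKO hHc).2
  rw [h1] at hi1 ⊢
  exact integral_mul_fderiv_eq_neg_fderiv_mul_of_integrable hi2 hi1 hi3
    (fun z _ => hK.differentiable one_ne_zero z)
    (fun z hz => (hHd z (hKO hz)).restrictScalars ℝ)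

theorem integrable_dd {K H : ℂ → ℂ} (hK : ContDiff ℝ 1 K) (hKc : HasCompactSupport K)
    {O : Set ℂ} (hO : IsOpen O) (hKO : tsupport K ⊆ O) (hH : ContinuousOn H O) :
    Integrable (fun z => dd K z * H z) := by
  have h1 : ∀ v, Integrable (fun z => fderiv ℝ K z v * H z) := fun v =>
    (integrable_of_tsupport ((hK.continuous_fderiv one_ne_zero).clm_apply continuous_const)
      (hKc.of_isClosed_subset (isClosed_tsupport _) (tsupport_fderiv_apply K v)) hO
      ((tsupport_fderiv_apply K v).trans hKO) hH).2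
  have h2 : (fun z => dd K z * H z) = fun z => (1 / 2 : ℂ) * (fderiv ℝ K z 1 * H z) -
      (I / 2) * (fderiv ℝ K z I * H z) := by
    funext z; simp only [dd]; ring
  rw [h2]
  exact ((h1 1).const_mul _).sub ((h1 I).const_mul _)

/-- **integration by parts** -/
theorem ibp {K H : ℂ → ℂ} (hK : ContDiff ℝ 1 K) (hKc : HasCompactSupport K)
    {O : Set ℂ} (hO : IsOpen O) (hKO : tsupport K ⊆ O) (hH : DifferentiableOn ℂ H O) :
    ∫ z, K z * deriv H z = -∫ z, dd K z * H z := by
  have h1 := ibp_dir hK hKc hO hKO hH 1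
  have h2 := ibp_dir hK hKc hO hKO hH I
  have h3 : ∫ z, K z * (I * deriv H z) = I * ∫ z, K z * deriv H z := by
    rw [← integral_const_mul]; congr 1; funext z; ring
  simp only [one_mul] at h1
  rw [h3] at h2
  have hi : ∀ v, Integrable (fun z => fderiv ℝ K z v * H z) := fun v =>
    (integrable_of_tsupport ((hK.continuous_fderiv one_ne_zero).clm_apply continuous_const)
      (hKc.of_isClosed_subset (isClosed_tsupport _) (tsupport_fderiv_apply K v)) hO
      ((tsupport_fderiv_apply K v).trans hKO) hH.continuousOn).2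
  have h4 : ∫ z, dd K z * H z = (1 / 2 : ℂ) * (∫ z, fderiv ℝ K z 1 * H z) -
      (I / 2) * ∫ z, fderiv ℝ K z I * H z := by
    rw [← integral_const_mul, ← integral_const_mul, ← integral_sub ((hi 1).const_mul _)
      ((hi I).const_mul _)]
    congr 1; funext z; simp only [dd]; ring
  rw [h4]
  have h5 : I * (I * ∫ z, K z * deriv H z) = -∫ z, K z * deriv H z := by
    rw [← mul_assoc, I_mul_I, neg_one_mul]
  rw [h2] at h5
  linear_combination (1 / 2 : ℂ) * h1 + (1 / 2 : ℂ) * h5

/-! ### radial functions -/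

/-- radial function `h (|z - c|²)` -/
noncomputable def rad (h : ℝ → ℝ) (c : ℂ) (z : ℂ) : ℂ := ((h (normSq (z - c)) : ℝ) : ℂ)

theorem contDiff_normSq_sub (c : ℂ) {m : WithTop ℕ∞} : ContDiff ℝ m (fun z : ℂ => normSq (z - c)) := by
  have h1 : (fun z : ℂ => normSq (z - c)) = fun z : ℂ => ‖z - c‖ ^ 2 := by
    funext z; rw [normSq_eq_norm_sq]
  rw [h1]
  exact (contDiff_id.sub contDiff_const).norm_sq ℝ

theorem contDiff_rad {h : ℝ → ℝ} {m : WithTop ℕ∞} (hh : ContDiff ℝ m h) (c : ℂ) :
    ContDiff ℝ m (rad h c) :=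
  ofRealCLM.contDiff.comp (hh.comp (contDiff_normSq_sub c))

theorem dd_rad {h : ℝ → ℝ} (hh : Differentiable ℝ h) (c z : ℂ) :
    dd (rad h c) z = ((deriv h (normSq (z - c)) : ℝ) : ℂ) * conj (z - c) := by
  have hd : HasFDerivAt (fun z : ℂ => normSq (z - c))
      ((2 * (z - c).re) • reCLM + (2 * (z - c).im) • imCLM) z := by
    have h1 : HasFDerivAt (fun z : ℂ => (z - c).re) reCLM z := by
      have := (reCLM.hasFDerivAt (x := z - c)).comp z ((hasFDerivAt_id z).sub_const c)
      exact this
    have h2 : HasFDerivAt (fun z : ℂ => (z - c).im) imCLM z := by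
      have := (imCLM.hasFDerivAt (x := z - c)).comp z ((hasFDerivAt_id z).sub_const c)
      exact this
    have h3 := (h1.mul h1).add (h2.mul h2)
    have h4 : (fun z : ℂ => normSq (z - c)) =
        fun z : ℂ => (z - c).re * (z - c).re + (z - c).im * (z - c).im := by
      funext w; rw [normSq_apply]
    rw [h4]
    refine h3.congr_fderiv ?_
    ext v
    simp
    ring
  have h5 : HasFDerivAt (rad h c) (ofRealCLM.comp ((ContinuousLinearMap.toSpanSingleton ℝ
      (deriv h (normSq (z - c)))).comp
      ((2 * (z - c).re) • reCLM + (2 * (z - c).im) • imCLM))) z := by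
    have h6 : HasFDerivAt h (ContinuousLinearMap.toSpanSingleton ℝ
      (deriv h (normSq (z - c)))) (normSq (z - c)) := (hh _).hasDerivAt.hasFDerivAt
    exact (ofRealCLM.hasFDerivAt.comp z (h6.comp z hd))
  rw [dd, h5.fderiv]
  apply Complex.ext
  · simp; ring
  · simp; ring

/-- the profile of the cut-off -/
noncomputable def bump (A B : ℝ) (s : ℝ) : ℝ := Real.smoothTransition ((B - s) / (B - A))

theorem contDiff_bump (A B : ℝ) : ContDiff ℝ ∞ (bump A B) :=
  Real.smoothTransition.contDiff.comp ((contDiff_const.sub contDiff_id).div_const _)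

theorem bump_one {A B s : ℝ} (hAB : A < B) (hs : s ≤ A) : bump A B s = 1 := by
  apply Real.smoothTransition.one_of_one_le
  rw [one_le_div (by linarith)]
  linarith

theorem bump_zero {A B s : ℝ} (hAB : A < B) (hs : B ≤ s) : bump A B s = 0 := by
  apply Real.smoothTransition.zero_of_nonpos
  exact div_nonpos_of_nonpos_of_nonneg (by linarith) (by linarith)

theorem bump_nonneg (A B s : ℝ) : 0 ≤ bump A B s := Real.smoothTransition.nonneg _

theorem bump_le_one (A B s : ℝ) : bump A B s ≤ 1 := Real.smoothTransition.le_one _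

theorem bump_anti {A B : ℝ} (hAB : A < B) : Antitone (bump A B) := by
  intro s t hst
  apply Real.smoothTransition.monotone
  exact div_le_div_of_nonneg_right (by linarith) (by linarith)

theorem deriv_bump_nonpos {A B : ℝ} (hAB : A < B) (s : ℝ) : deriv (bump A B) s ≤ 0 :=
  (bump_anti hAB).deriv_nonpos

theorem deriv_bump_zero {A B s : ℝ} (hAB : A < B) (hs : s < A ∨ B < s) :
    deriv (bump A B) s = 0 := by
  rcases hs with hs | hs
  · have : bump A B =ᶠ[𝓝 s] fun _ => 1 := by
      filter_upwards [gt_mem_nhds hs] with t ht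
      exact bump_one hAB ht.le
    rw [this.deriv_eq]; simp
  · have : bump A B =ᶠ[𝓝 s] fun _ => 0 := by
      filter_upwards [lt_mem_nhds hs] with t ht
      exact bump_zero hAB ht.le
    rw [this.deriv_eq]; simp

end Crest.Agent.R105.Fk_286
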