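import Crest.Agent.R105.Fk3_286
import Crest.Agent.Lib.Bieberbach

/-!
# R105, finite Koebe theorem (helper286), part 4: normalised maps near infinity

* `ext_exp`  : `g z = (R0 / z) k (R0 / z)`
* `ann_zero` : `∫_{ann ε r} w(|z|) Re Ψ(R0 / z) = 0` if `Ψ 0 = 0`
* `area_ext` : `|G (U ∩ B_R)| + |E| ≤ π R² + e R`, `e R → 0`, for `E` disjoint from `G '' U`
-/

set_option autoImplicit false

open Set Filter Topology Complex Metric MeasureTheory
open scoped ContDiff ComplexConjugate Real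

namespace Crest.Agent.R105.Fk_286

open Crest.Agent.R105.FK_644 Crest.Agent.Lib.Bieberbach

theorem tendsto_div_cocompact {R0 : ℝ} (hR0 : 0 < R0) :
    Tendsto (fun ζ : ℂ => (R0 : ℂ) / ζ) (𝓝[≠] 0) (cocompact ℂ) := by
  rw [Filter.tendsto_def]
  intro s hs
  obtain ⟨R, hR⟩ := ev_cocompact.1 (show ∀ᶠ z in cocompact ℂ, z ∈ s from hs)
  have h1 : ∀ᶠ ζ : ℂ in 𝓝[≠] 0, ‖ζ‖ < R0 / (|R| + 1) := by
    apply nhdsWithin_le_nhds
    have h2 : ball (0 : ℂ) (R0 / (|R| + 1)) ∈ 𝓝 (0 : ℂ) := ball_mem_nhds _ (by positivity)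
    filter_upwards [h2] with ζ hζ
    simpa using hζ
  filter_upwards [h1, self_mem_nhdsWithin] with ζ h2 h3
  apply hR
  have h4 : 0 < ‖ζ‖ := norm_pos_iff.2 h3
  rw [norm_div, norm_real, Real.norm_eq_abs, abs_of_pos hR0, lt_div_iff₀ h4]
  have h5 : 0 < |R| + 1 := by positivity
  rw [lt_div_iff₀ h5] at h2
  calc R * ‖ζ‖ ≤ (|R| + 1) * ‖ζ‖ :=
        mul_le_mul_of_nonneg_right (by linarith [le_abs_self R]) h4.le
    _ = ‖ζ‖ * (|R| + 1) := mul_comm _ _
    _ < R0 := h2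

theorem ext_exp {g : ℂ → ℂ} {R0 : ℝ} (hR0 : 0 < R0)
    (hd : DifferentiableOn ℂ g {z | R0 < ‖z‖}) (h0 : Tendsto g (cocompact ℂ) (𝓝 0)) :
    ∃ k : ℂ → ℂ, DifferentiableOn ℂ k (ball 0 1) ∧
      ∀ z, R0 < ‖z‖ → g z = ((R0 : ℂ) / z) * k ((R0 : ℂ) / z) := by
  have hopen : IsOpen {z : ℂ | R0 < ‖z‖} := isOpen_lt continuous_const continuous_norm
  set γ : ℂ → ℂ := fun ζ => if ζ = 0 then 0 else g ((R0 : ℂ) / ζ) with hγ
  have hγ0 : γ 0 = 0 := by simp [hγ]
  have hmem : ∀ ζ : ℂ, ζ ∈ ball (0 : ℂ) 1 → ζ ≠ 0 → R0 < ‖(R0 : ℂ) / ζ‖ := by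
    intro ζ hζ h1
    have h2 : 0 < ‖ζ‖ := norm_pos_iff.2 h1
    rw [norm_div, norm_real, Real.norm_eq_abs, abs_of_pos hR0, lt_div_iff₀ h2]
    have h3 : ‖ζ‖ < 1 := by simpa using hζ
    nlinarith
  have hdp : ∀ ζ ∈ ball (0 : ℂ) 1, ζ ≠ 0 → DifferentiableAt ℂ γ ζ := by
    intro ζ hζ h1
    have h2 : DifferentiableAt ℂ (fun ζ => g ((R0 : ℂ) / ζ)) ζ := by
      apply DifferentiableAt.comp (g := g) (f := fun ζ : ℂ => (R0 : ℂ) / ζ)
      · exact hd.differentiableAt (hopen.mem_nhds (hmem ζ hζ h1))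
      · exact (differentiableAt_const _).div differentiableAt_id h1
    refine h2.congr_of_eventuallyEq ?_
    filter_upwards [isOpen_ne.mem_nhds h1] with w hw
    simp only [hγ]
    rw [if_neg hw]
  have hc0 : ContinuousAt γ 0 := by
    rw [continuousAt_iff_punctured_nhds, hγ0]
    refine (h0.comp (tendsto_div_cocompact hR0)).congr' ?_
    filter_upwards [self_mem_nhdsWithin] with ζ hζ
    simp only [hγ, Function.comp_apply]
    rw [if_neg (show ζ ≠ 0 from hζ)]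
  have hγd : DifferentiableOn ℂ γ (ball 0 1) := by
    intro ζ hζ
    by_cases h1 : ζ = 0
    · subst h1
      have h2 : AnalyticAt ℂ γ 0 := by
        apply Complex.analyticAt_of_differentiable_on_punctured_nhds_of_continuousAt _ hc0
        filter_upwards [nhdsWithin_le_nhds (isOpen_ball.mem_nhds hζ), self_mem_nhdsWithin]
          with w hw hw0
        exact hdp w hw hw0
      exact h2.differentiableAt.differentiableWithinAt
    · exact (hdp ζ hζ h1).differentiableWithinAt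
  refine ⟨dslope γ 0, (Complex.differentiableOn_dslope (ball_mem_nhds 0 one_pos)).2 hγd, ?_⟩
  intro z hz
  have hz0 : z ≠ 0 := by
    rw [← norm_pos_iff]; exact hR0.trans hz
  have hR0c : (R0 : ℂ) ≠ 0 := by exact_mod_cast hR0.ne'
  have h1 := sub_smul_dslope γ 0 ((R0 : ℂ) / z)
  rw [sub_zero, hγ0, sub_zero, smul_eq_mul] at h1
  rw [h1]
  simp only [hγ]
  rw [if_neg (div_ne_zero hR0c hz0), div_div_cancel₀ hR0c]

theorem eu_ne (θ : ℝ) : eu θ ≠ 0 := by
  rw [← norm_pos_iff, norm_eu]; exact one_pos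

theorem eu_inv (θ : ℝ) : (eu θ)⁻¹ = eu (-θ) := by
  rw [eu_eq, eu_eq, ← Complex.exp_neg]; push_cast; ring_nf

theorem circ_zero {Ψ : ℂ → ℂ} (hΨ : DifferentiableOn ℂ Ψ (ball 0 1)) (h0 : Ψ 0 = 0) {R0 ρ : ℝ}
    (hR0 : 0 < R0) (hρ : R0 < ρ) :
    ∫ θ in (-π)..π, Ψ ((R0 : ℂ) / ((ρ : ℂ) * eu θ)) = 0 := by
  have hρ0 : 0 < ρ := hR0.trans hρ
  have h1 := mean_zero hΨ (div_pos hR0 hρ0) ((div_lt_one hρ0).2 hρ)
  rw [h0, smul_zero] at h1
  have h2 := intervalIntegral.integral_comp_neg (a := -π) (b := π)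
    (fun θ => Ψ (((R0 / ρ : ℝ) : ℂ) * eu θ))
  rw [neg_neg, h1] at h2
  rw [← h2]
  apply intervalIntegral.integral_congr
  intro θ _
  simp only
  congr 1
  rw [← eu_inv]
  have := eu_ne θ
  have h3 : (ρ : ℂ) ≠ 0 := by exact_mod_cast hρ0.ne'
  push_cast
  field_simp

/-- the weighted integral over an annulus vanishes -/
theorem ann_zero {Ψ : ℂ → ℂ} (hΨ : DifferentiableOn ℂ Ψ (ball 0 1)) (h0 : Ψ 0 = 0)
    {R0 ε r : ℝ} (hR0 : 0 < R0) (hε : R0 < ε) {w : ℝ → ℝ} (hw : Continuous w) :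
    IntegrableOn (fun z : ℂ => w ‖z‖ * (Ψ ((R0 : ℂ) / z)).re) (ann ε r) ∧
    ∫ z in ann ε r, w ‖z‖ * (Ψ ((R0 : ℂ) / z)).re = 0 := by
  have hε0 : 0 < ε := hR0.trans hε
  have hmem : ∀ z : ℂ, ε ≤ ‖z‖ → (R0 : ℂ) / z ∈ ball (0 : ℂ) 1 := by
    intro z hz
    have hz0 : 0 < ‖z‖ := hε0.trans_le hz
    rw [mem_ball_zero_iff, norm_div, norm_real, Real.norm_eq_abs, abs_of_pos hR0,
      div_lt_one hz0]
    exact hε.trans_le hz
  have hdiv : ContinuousOn (fun z : ℂ => (R0 : ℂ) / z) {z : ℂ | ε ≤ ‖z‖ ∧ ‖z‖ ≤ r} := by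
    apply continuousOn_const.div continuousOn_id
    intro z hz
    rw [id, ← norm_pos_iff]
    exact hε0.trans_le hz.1
  have hΨc : ContinuousOn (fun z : ℂ => Ψ ((R0 : ℂ) / z)) {z : ℂ | ε ≤ ‖z‖ ∧ ‖z‖ ≤ r} :=
    hΨ.continuousOn.comp hdiv fun z hz => hmem z hz.1
  have hF : ContinuousOn (fun z : ℂ => w ‖z‖ * (Ψ ((R0 : ℂ) / z)).re)
      {z : ℂ | ε ≤ ‖z‖ ∧ ‖z‖ ≤ r} :=
    (hw.comp continuous_norm).continuousOn.mul (Complex.continuous_re.comp_continuousOn hΨc)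
  obtain ⟨h1, -, h2⟩ := polar_ann hε0 hF
  refine ⟨h1, ?_⟩
  rw [h2]
  have h3 : ∀ ρ ∈ Ioo ε r, ∫ θ : ℝ in Ioo (-π) π,
      ρ * (w ‖(ρ : ℂ) * eu θ‖ * (Ψ ((R0 : ℂ) / ((ρ : ℂ) * eu θ))).re) = 0 := by
    intro ρ hρ
    have hρ0 : 0 < ρ := hε0.trans hρ.1
    simp only [norm_smul_eu hρ0.le, ← mul_assoc]
    rw [integral_const_mul]
    have h4 := circ_zero hΨ h0 hR0 (hε.trans hρ.1)
    have hcont : Continuous (fun θ : ℝ => Ψ ((R0 : ℂ) / ((ρ : ℂ) * eu θ))) := by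
      refine hΨc.comp_continuous (by fun_prop) fun θ => ?_
      simp only [mem_ofPred_eq, norm_smul_eu hρ0.le]
      exact ⟨hρ.1.le, hρ.2.le⟩
    have h5 : ∫ θ in (-π)..π, (Ψ ((R0 : ℂ) / ((ρ : ℂ) * eu θ))).re = 0 := by
      have := Complex.reCLM.intervalIntegral_comp_comm
        (hcont.intervalIntegrable (μ := volume) (-π) π)
      simp only [Complex.reCLM_apply] at this
      rw [this, h4]; simp
    rw [intervalIntegral.integral_of_le (by linarith [Real.pi_pos]),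
      integral_Ioc_eq_integral_Ioo] at h5
    rw [h5, mul_zero]
  rw [setIntegral_congr_fun measurableSet_Ioo h3]
  simp

theorem isPreconnected_gt (M : ℝ) : IsPreconnected {w : ℂ | M < ‖w‖} := by
  rcases lt_or_ge M 0 with hM | hM
  · have : {w : ℂ | M < ‖w‖} = univ := by
      ext w; simp only [mem_ofPred_eq, mem_univ, iff_true]; exact lt_of_lt_of_le hM (norm_nonneg _)
    rw [this]; exact isPreconnected_univ
  · have : {w : ℂ | M < ‖w‖} = (fun p : ℝ × ℝ => (p.1 : ℂ) * exp (p.2 * I)) ''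
        (Ioi M ×ˢ (univ : Set ℝ)) := by
      ext w
      constructor
      · intro hw
        refine ⟨(‖w‖, arg w), ⟨hw, mem_univ _⟩, ?_⟩
        simp only
        exact norm_mul_exp_arg_mul_I w
      · rintro ⟨⟨a, b⟩, ⟨ha, -⟩, rfl⟩
        simp only [mem_ofPred_eq, norm_mul, norm_exp_ofReal_mul_I, mul_one, norm_real,
          Real.norm_eq_abs]
        exact lt_of_lt_of_le ha (le_abs_self _)
    rw [this]
    refine (isPreconnected_Ioi.prod isPreconnected_univ).image _ ?_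
    fun_prop

theorem isPreconnected_compl_ell (c : ℂ) (hc : ‖c‖ < 1) (T : ℝ) :
    IsPreconnected (ell c T)ᶜ := by
  have hd : LinearMap.det (lmap c) ≠ 0 := by
    rw [det_lmap]
    nlinarith [norm_nonneg c]
  set e : ℂ ≃L[ℝ] ℂ := (LinearMap.equivOfDetNeZero (lmap c) hd).toContinuousLinearEquiv with he
  have h1 : (ell c T)ᶜ = e.symm '' {w : ℂ | T < ‖w‖} := by
    rw [ContinuousLinearEquiv.image_symm_eq_preimage]
    ext w
    simp only [ell, mem_compl_iff, mem_ofPred_eq, not_le, mem_preimage]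
    rfl
  rw [h1]
  exact (isPreconnected_gt T).image _ e.symm.continuous.continuousOn

theorem sig_cocompact {U : Set ℂ} {G : ℂ → ℂ} (hG : Sig U G) :
    Tendsto G (cocompact ℂ) (cocompact ℂ) := by
  rw [Filter.tendsto_def]
  intro s hs
  obtain ⟨R, hR⟩ := ev_cocompact.1 (show ∀ᶠ z in cocompact ℂ, z ∈ s from hs)
  have h1 : ∀ᶠ z in cocompact ℂ, ‖G z - z‖ < 1 := by
    have := hG.inf.norm
    rw [norm_zero] at this
    exact this.eventually (gt_mem_nhds one_pos)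
  have h2 : ∀ᶠ z : ℂ in cocompact ℂ, R + 1 < ‖z‖ := ev_cocompact.2 ⟨R + 1, fun z hz => hz⟩
  filter_upwards [h1, h2] with z hz1 hz2
  apply hR
  have h3 : ‖z‖ ≤ ‖G z‖ + ‖G z - z‖ := by
    have := norm_sub_le (G z) (G z - z)
    rwa [sub_sub_cancel] at this
  linarith

theorem image_far_closed {G : ℂ → ℂ} {A : Set ℂ} (hA : IsClosed A) (hc : ContinuousOn G A)
    (hinf : Tendsto G (cocompact ℂ) (cocompact ℂ)) : IsClosed (G '' A) := by
  apply isClosed_of_closure_subset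
  intro w hw
  have h1 : ∀ᶠ z in cocompact ℂ, G z ∉ closedBall w 1 :=
    hinf.eventually ((isCompact_closedBall w 1).compl_mem_cocompact)
  obtain ⟨R, hR⟩ := ev_cocompact.1 h1
  have h2 : IsCompact (G '' (A ∩ closedBall 0 R)) :=
    ((isCompact_closedBall (0 : ℂ) R).inter_left hA).image_of_continuousOn
      (hc.mono inter_subset_left)
  have h3 : w ∈ closure (G '' (A ∩ closedBall 0 R)) := by
    rw [Metric.mem_closure_iff] at hw ⊢
    intro ε hε
    obtain ⟨_, ⟨a, ha, rfl⟩, hd⟩ := hw (min ε 1) (lt_min hε one_pos)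
    refine ⟨G a, ⟨a, ⟨ha, ?_⟩, rfl⟩, hd.trans_le (min_le_left _ _)⟩
    rw [mem_closedBall_zero_iff]
    by_contra hn
    apply hR a (not_le.1 hn)
    rw [mem_closedBall, dist_comm]
    exact (hd.trans_le (min_le_right _ _)).le
  rw [h2.isClosed.closure_eq] at h3
  exact image_mono inter_subset_left h3

/-- everything off the ellipse is attained outside the disc -/
theorem cover_ell {U : Set ℂ} (hU : IsOpen U) {G : ℂ → ℂ} (hG : Sig U G) {R : ℝ}
    (hRU : ∀ z, R ≤ ‖z‖ → z ∈ U) {W : Set ℂ} (hW : IsPreconnected W)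
    (hW0 : ∀ᶠ w in cocompact ℂ, w ∈ W) (hWs : ∀ z, ‖z‖ = R → G z ∉ W) :
    W ⊆ G '' {z | R < ‖z‖} := by
  have hop : IsOpen {z : ℂ | R < ‖z‖} := isOpen_lt continuous_const continuous_norm
  have hcl : IsClosed {z : ℂ | R ≤ ‖z‖} := isClosed_le continuous_const continuous_norm
  have hs1 : {z : ℂ | R < ‖z‖} ⊆ U := fun z hz => hRU z (le_of_lt hz)
  have hs2 : {z : ℂ | R ≤ ‖z‖} ⊆ U := fun z hz => hRU z hz
  apply hW.subset_left_of_subset_union (u := G '' {z | R < ‖z‖}) (v := (G '' {z | R ≤ ‖z‖})ᶜ)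
  · exact Crest.Agent.Lib.isOpen_image_of_injOn hop (hG.hol.mono hs1) (hG.inj.mono hs1)
  · exact (image_far_closed hcl (hG.hol.continuousOn.mono hs2) (sig_cocompact hG)).isOpen_compl
  · apply disjoint_compl_right.mono_left
    exact image_mono fun z hz => (show R < ‖z‖ from hz).le
  · intro u hu
    by_cases h : u ∈ G '' {z | R ≤ ‖z‖}
    · left
      obtain ⟨z, hz, rfl⟩ := h
      rcases (show R ≤ ‖z‖ from hz).lt_or_eq with hz' | hz'
      · exact ⟨z, hz', rfl⟩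
      · exact absurd hu (hWs z hz'.symm)
    · right; exact h
  · have h1 : ∀ᶠ z in cocompact ℂ, G z ∈ W := (sig_cocompact hG).eventually hW0
    have h2 : ∀ᶠ z : ℂ in cocompact ℂ, R < ‖z‖ := ev_cocompact.2 ⟨R, fun z hz => hz⟩
    obtain ⟨z, hz1, hz2⟩ := (h1.and h2).exists
    exact ⟨G z, hz1, z, hz2, rfl⟩

/-- **area theorem at infinity** -/
theorem area_ext {U : Set ℂ} (hU : IsOpen U) {G : ℂ → ℂ} (hG : Sig U G) {R0 : ℝ} (hR0 : 0 < R0)
    (hR0U : ∀ z, R0 < ‖z‖ → z ∈ U) {E : Set ℂ} (hE : MeasurableSet E)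
    (hEG : Disjoint (G '' U) E) :
    ∃ e : ℝ → ℝ, Tendsto e atTop (𝓝 0) ∧ ∀ᶠ R in atTop, 0 ≤ π * R ^ 2 + e R ∧
      volume (G '' (U ∩ ball 0 R)) + volume E ≤ ENNReal.ofReal (π * R ^ 2 + e R) := by
  obtain ⟨k, hk, hgk⟩ := ext_exp (g := fun z => G z - z) hR0
    ((hG.hol.mono fun z hz => hR0U z hz).sub differentiableOn_id) hG.inf
  -- second order
  set a : ℂ := (R0 : ℂ) * k 0 with ha
  set k2 : ℂ → ℂ := dslope k 0 with hk2
  have hk2d : DifferentiableOn ℂ k2 (ball 0 1) :=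
    (Complex.differentiableOn_dslope (ball_mem_nhds 0 one_pos)).2 hk
  have hsub : closedBall (0:ℂ) (1/2) ⊆ ball 0 1 := closedBall_subset_ball (by norm_num)
  obtain ⟨C2', hC2'⟩ := (isCompact_closedBall (0:ℂ) (1/2)).exists_bound_of_continuousOn
    (hk2d.continuousOn.mono hsub)
  set C2 : ℝ := max C2' 0 with hC2
  have hC20 : 0 ≤ C2 := le_max_right _ _
  have hexp : ∀ z : ℂ, 2 * R0 ≤ ‖z‖ → ‖G z - z - a / z‖ ≤ R0 ^ 2 * C2 / ‖z‖ ^ 2 := by
    intro z hz
    have hz0 : 0 < ‖z‖ := by linarith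
    have hzne : z ≠ 0 := norm_pos_iff.1 hz0
    have hζ : (R0 : ℂ) / z ∈ closedBall (0 : ℂ) (1/2) := by
      rw [mem_closedBall_zero_iff, norm_div, norm_real, Real.norm_eq_abs, abs_of_pos hR0,
        div_le_iff₀ hz0]
      linarith
    have h1 := hgk z (by linarith)
    have h2 := sub_smul_dslope k 0 ((R0 : ℂ) / z)
    rw [sub_zero, smul_eq_mul] at h2
    have h3 : G z - z - a / z = ((R0 : ℂ) / z) ^ 2 * k2 ((R0 : ℂ) / z) := by
      rw [h1, ha]
      have h4 : k ((R0 : ℂ) / z) = k 0 + (R0 : ℂ) / z * k2 ((R0 : ℂ) / z) := by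
        rw [hk2, h2]; ring
      rw [h4]; ring
    rw [h3, norm_mul, norm_pow, norm_div, norm_real, Real.norm_eq_abs, abs_of_pos hR0, div_pow,
      div_mul_eq_mul_div]
    gcongr
    exact (hC2' _ hζ).trans (le_max_left _ _)
  set α : ℝ := ‖a‖ with hα
  have hα0 : 0 ≤ α := norm_nonneg _
  set C : ℝ := R0 ^ 2 * C2 + α * (α + R0 ^ 2 * C2) with hC
  have hC0 : 0 ≤ C := by positivity
  set e : ℝ → ℝ := fun R => π * ((2 * C * R⁻¹ + C ^ 2 * R⁻¹ ^ 4 + α ^ 2 * R⁻¹ ^ 2) /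
    (1 - α ^ 2 * R⁻¹ ^ 4)) with he
  refine ⟨e, ?_, ?_⟩
  · have h1 : Tendsto (fun u : ℝ => π * ((2 * C * u + C ^ 2 * u ^ 4 + α ^ 2 * u ^ 2) /
        (1 - α ^ 2 * u ^ 4))) (𝓝 0) (𝓝 (π * ((2 * C * 0 + C ^ 2 * 0 ^ 4 + α ^ 2 * 0 ^ 2) /
        (1 - α ^ 2 * 0 ^ 4)))) := by
      apply ContinuousAt.tendsto (f := fun u : ℝ => π * ((2 * C * u + C ^ 2 * u ^ 4 +
        α ^ 2 * u ^ 2) / (1 - α ^ 2 * u ^ 4)))
      apply ContinuousAt.mul continuousAt_const
      apply ContinuousAt.div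
      · fun_prop
      · fun_prop
      · simp
    have h2 := h1.comp tendsto_inv_atTop_zero
    have h3 : π * ((2 * C * 0 + C ^ 2 * 0 ^ 4 + α ^ 2 * 0 ^ 2) / (1 - α ^ 2 * 0 ^ 4)) = 0 := by
      simp
    rw [h3] at h2
    exact h2
  · have hq : ∀ᶠ R : ℝ in atTop, α ^ 2 * R⁻¹ ^ 4 < 1 := by
      have h1 : Tendsto (fun u : ℝ => α ^ 2 * u ^ 4) (𝓝 0) (𝓝 (α ^ 2 * 0 ^ 4)) := by
        apply Continuous.tendsto; fun_prop
      have h2 := h1.comp tendsto_inv_atTop_zero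
      exact h2.eventually (gt_mem_nhds (by simp))
    filter_upwards [hq, eventually_ge_atTop (2 * R0), eventually_ge_atTop (1 : ℝ)]
      with R hR1 hR2 hR3
    have hRp : 0 < R := by linarith
    set c : ℂ := a / (R : ℂ) ^ 2 with hc
    have hcn : ‖c‖ = α / R ^ 2 := by
      rw [hc, norm_div, norm_pow, norm_real, Real.norm_eq_abs, abs_of_pos hRp]
    have hc2 : ‖c‖ ^ 2 = α ^ 2 * R⁻¹ ^ 4 := by
      rw [hcn]; field_simp
    have hc1 : ‖c‖ < 1 := by
      rw [← hc2] at hR1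
      nlinarith [norm_nonneg c]
    set T : ℝ := R + C / R ^ 2 with hT
    have hT0 : 0 ≤ T := by positivity
    have hsph : ∀ z, ‖z‖ = R → G z ∉ (ell c T)ᶜ := by
      intro z hz
      rw [notMem_compl_iff]
      show ‖G z - c * conj (G z)‖ ≤ T
      have hzne : z ≠ 0 := by rw [← norm_pos_iff, hz]; exact hRp
      have hzz : z * conj z = (R : ℂ) ^ 2 := by
        rw [Complex.mul_conj, Complex.normSq_eq_norm_sq, hz]; push_cast; ring
      have hcz : conj z ≠ 0 := by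
        intro h; apply hzne; simpa using h
      set ε : ℂ := G z - z - a / z with hε
      have hεn : ‖ε‖ ≤ R0 ^ 2 * C2 / R ^ 2 := by
        have := hexp z (by rw [hz]; exact hR2)
        rwa [hz] at this
      have hGz : G z = z + a / z + ε := by rw [hε]; ring
      have e1 : G z - c * conj (G z) = z + ε - c * (conj (a / z) + conj ε) := by
        rw [hGz, map_add, map_add, hc, ← hzz]
        field_simp
        ring
      rw [e1]
      have hR12 : R0 ^ 2 * C2 / R ^ 2 ≤ R0 ^ 2 * C2 := by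
        apply div_le_self (by positivity)
        exact one_le_pow₀ hR3
      calc ‖z + ε - c * (conj (a / z) + conj ε)‖
          ≤ ‖z‖ + ‖ε‖ + ‖c * (conj (a / z) + conj ε)‖ :=
            (norm_sub_le _ _).trans (add_le_add_left (norm_add_le _ _) _)
        _ ≤ R + R0 ^ 2 * C2 / R ^ 2 + (α / R ^ 2) * (α + R0 ^ 2 * C2) := by
            gcongr
            · exact hz.le
            · rw [norm_mul, hcn]
              apply mul_le_mul_of_nonneg_left _ (by positivity)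
              refine (norm_add_le _ _).trans (add_le_add ?_ ?_)
              · rw [RCLike.norm_conj, norm_div, hz]
                exact div_le_self hα0 hR3
              · rw [RCLike.norm_conj]
                exact hεn.trans hR12
        _ = T := by rw [hT, hC]; field_simp; ring
    have hcov := cover_ell hU hG (R := R) (fun z hz => hR0U z (by linarith))
      (isPreconnected_compl_ell c hc1 T) (by
        apply ev_cocompact.2
        refine ⟨T / (1 - ‖c‖), fun w hw => ?_⟩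
        show ¬ ‖w - c * conj w‖ ≤ T
        rw [not_le]
        rw [div_lt_iff₀ (by linarith)] at hw
        have h1 : ‖w‖ - ‖c‖ * ‖w‖ ≤ ‖w - c * conj w‖ := by
          have := norm_sub_norm_le w (c * conj w)
          rwa [norm_mul, RCLike.norm_conj] at this
        nlinarith) hsph
    have hsub1 : G '' (U ∩ ball 0 R) ⊆ ell c T := by
      rintro _ ⟨z, ⟨hzU, hzR⟩, rfl⟩
      by_contra hn
      obtain ⟨y, hy, hyz⟩ := hcov hn
      have hyR : R < ‖y‖ := hy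
      have : y = z := hG.inj (hR0U y (by linarith)) hzU hyz
      rw [this] at hyR
      rw [mem_ball_zero_iff] at hzR
      exact lt_asymm hyR hzR
    have hsub2 : E ⊆ ell c T := by
      intro w hw
      by_contra hn
      obtain ⟨y, hy, hyz⟩ := hcov hn
      have hyR : R < ‖y‖ := hy
      exact disjoint_left.1 hEG ⟨y, hR0U y (by linarith), hyz⟩ hw
    have hp : 0 < 1 - ‖c‖ ^ 2 := by nlinarith [norm_nonneg c]
    have hval : π * T ^ 2 / (1 - ‖c‖ ^ 2) = π * R ^ 2 + e R := by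
      rw [hc2] at hp ⊢
      simp only [he]
      rw [eq_comm, ← sub_eq_zero]
      have h3 : T ^ 2 = R ^ 2 * (1 - α ^ 2 * R⁻¹ ^ 4) +
          (2 * C * R⁻¹ + C ^ 2 * R⁻¹ ^ 4 + α ^ 2 * R⁻¹ ^ 2) := by
        rw [hT]; field_simp; ring
      rw [h3]
      generalize 2 * C * R⁻¹ + C ^ 2 * R⁻¹ ^ 4 + α ^ 2 * R⁻¹ ^ 2 = N
      have hQ : 1 - α ^ 2 * R⁻¹ ^ 4 ≠ 0 := hp.ne'
      generalize 1 - α ^ 2 * R⁻¹ ^ 4 = Q at hQ ⊢
      field_simp
      ring
    constructor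
    · rw [← hval]; positivity
    · rw [← hval, ← vol_ell c hc1 hT0, ← measure_union (hEG.mono_left (image_mono
        inter_subset_left)) hE]
      exact measure_mono (union_subset hsub1 hsub2)

end Crest.Agent.R105.Fk_286
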