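import Crest.Agent.R105.Fk4_286

/-!
# R105, finite Koebe theorem (helper286), part 5: the cut-offs around the discs
-/

set_option autoImplicit false

open Set Filter Topology Complex Metric MeasureTheory
open scoped ContDiff ComplexConjugate Real

namespace Crest.Agent.R105.Fk_286

open Crest.Agent.R105.FK_644 Crest.Agent.Lib.Bieberbach

/-- complex radial cut-off -/
noncomputable def cb (c : ℂ) (α β : ℝ) : ℂ → ℂ := rad (bump (α ^ 2) (β ^ 2)) c

/-- real radial cut-off -/
noncomputable def bb (c : ℂ) (α β : ℝ) (z : ℂ) : ℝ := bump (α ^ 2) (β ^ 2) (normSq (z - c))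

theorem cb_eq (c : ℂ) (α β : ℝ) (z : ℂ) : cb c α β z = (bb c α β z : ℂ) := rfl

section
variable {c : ℂ} {α β : ℝ}

theorem sq_lt (hα : 0 < α) (hαβ : α < β) : α ^ 2 < β ^ 2 := by
  nlinarith

theorem bb_one (hα : 0 < α) (hαβ : α < β) {z : ℂ} (hz : ‖z - c‖ ≤ α) : bb c α β z = 1 := by
  apply bump_one (sq_lt hα hαβ)
  rw [normSq_eq_norm_sq]
  exact pow_le_pow_left₀ (norm_nonneg _) hz 2

theorem bb_zero (hα : 0 < α) (hαβ : α < β) {z : ℂ} (hz : β ≤ ‖z - c‖) : bb c α β z = 0 := by
  apply bump_zero (sq_lt hα hαβ)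
  rw [normSq_eq_norm_sq]
  exact pow_le_pow_left₀ (hα.trans hαβ).le hz 2

theorem bb_nonneg (z : ℂ) : 0 ≤ bb c α β z := bump_nonneg _ _ _

theorem bb_le_one (z : ℂ) : bb c α β z ≤ 1 := bump_le_one _ _ _

theorem contDiff_cb : ContDiff ℝ ∞ (cb c α β) := contDiff_rad (contDiff_bump _ _) c

theorem continuous_bb : Continuous (bb c α β) :=
  (contDiff_bump _ _).continuous.comp (contDiff_normSq_sub c (m := 0)).continuous

theorem cpt_bb (hα : 0 < α) (hαβ : α < β) : HasCompactSupport (bb c α β) := by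
  refine HasCompactSupport.of_support_subset_isCompact (isCompact_closedBall c β) ?_
  intro z hz
  rw [mem_closedBall, dist_eq_norm]
  by_contra hn
  exact hz (bb_zero hα hαβ (not_le.1 hn).le)

theorem cpt_cb (hα : 0 < α) (hαβ : α < β) : HasCompactSupport (cb c α β) := by
  refine HasCompactSupport.of_support_subset_isCompact (isCompact_closedBall c β) ?_
  intro z hz
  rw [mem_closedBall, dist_eq_norm]
  by_contra hn
  apply hz
  rw [cb_eq, bb_zero hα hαβ (not_le.1 hn).le]
  rfl

theorem dd_cb (z : ℂ) : dd (cb c α β) z =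
    ((deriv (bump (α ^ 2) (β ^ 2)) (normSq (z - c)) : ℝ) : ℂ) * conj (z - c) :=
  dd_rad ((contDiff_bump _ _).differentiable (by simp)) c z

theorem dd_cb_zero (hα : 0 < α) (hαβ : α < β) {z : ℂ} (hz : ‖z - c‖ < α ∨ β < ‖z - c‖) :
    dd (cb c α β) z = 0 := by
  rw [dd_cb, deriv_bump_zero (sq_lt hα hαβ), ofReal_zero, zero_mul]
  rw [normSq_eq_norm_sq]
  rcases hz with hz | hz
  · left; exact pow_lt_pow_left₀ hz (norm_nonneg _) two_ne_zero
  · right; exact pow_lt_pow_left₀ hz (hα.trans hαβ).le two_ne_zero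

theorem continuous_dd_cb : Continuous (dd (cb c α β)) := by
  have h1 : Continuous (fderiv ℝ (cb c α β)) := contDiff_cb.continuous_fderiv (by simp)
  have h2 : Continuous fun z => (fderiv ℝ (cb c α β) z 1 - I * fderiv ℝ (cb c α β) z I) / 2 :=
    ((h1.clm_apply continuous_const).sub (continuous_const.mul
      (h1.clm_apply continuous_const))).div_const 2
  exact h2

/-- the closed annulus -/
def cann (c : ℂ) (α β : ℝ) : Set ℂ := {z | α ≤ ‖z - c‖ ∧ ‖z - c‖ ≤ β}

theorem cpt_cann : IsCompact (cann c α β) := by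
  refine (isCompact_closedBall c β).of_isClosed_subset ?_ ?_
  · exact (isClosed_le continuous_const (by fun_prop : Continuous fun z : ℂ => ‖z - c‖)).inter
      (isClosed_le (by fun_prop : Continuous fun z : ℂ => ‖z - c‖) continuous_const)
  · intro z hz
    rw [mem_closedBall, dist_eq_norm]; exact hz.2

theorem tsupport_dd_cb (hα : 0 < α) (hαβ : α < β) : tsupport (dd (cb c α β)) ⊆ cann c α β := by
  apply closure_minimal _ cpt_cann.isClosed
  intro z hz
  by_contra hn
  apply hz
  apply dd_cb_zero hα hαβ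
  simp only [cann, mem_ofPred_eq, not_and_or, not_le] at hn
  exact hn

theorem cpt_dd_cb (hα : 0 < α) (hαβ : α < β) : HasCompactSupport (dd (cb c α β)) :=
  cpt_cann.of_isClosed_subset (isClosed_tsupport _) (tsupport_dd_cb hα hαβ)

theorem integrable_dd_cb (hα : 0 < α) (hαβ : α < β) {O : Set ℂ} (hO : IsOpen O)
    (hsub : cann c α β ⊆ O) {H : ℂ → ℂ} (hH : ContinuousOn H O) :
    Integrable (fun z => dd (cb c α β) z * H z) :=
  (integrable_of_tsupport continuous_dd_cb (cpt_dd_cb hα hαβ) hO
    ((tsupport_dd_cb hα hαβ).trans hsub) hH).2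

theorem integrable_bb (hα : 0 < α) (hαβ : α < β) : Integrable (bb c α β) :=
  continuous_bb.integrable_of_hasCompactSupport (cpt_bb hα hαβ)

theorem int_dd_sub (hα : 0 < α) (hαβ : α < β) (a : ℂ) :
    ∫ z, dd (cb c α β) z * (z - a) = -((∫ z, bb c α β z : ℝ) : ℂ) := by
  have h1 := ibp (K := cb c α β) (H := fun z => z - a) (contDiff_cb.of_le (by simp))
    (cpt_cb hα hαβ) isOpen_univ (subset_univ _) (by fun_prop)
  have h2 : ∀ z : ℂ, deriv (fun z => z - a) z = 1 := by
    intro z; simp
  simp only [h2, mul_one] at h1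
  have h3 : ∫ z, cb c α β z = ((∫ z, bb c α β z : ℝ) : ℂ) :=
    integral_ofReal (𝕜 := ℂ) (f := bb c α β)
  rw [h3] at h1
  rw [h1, neg_neg]

theorem int_norm_dd (hα : 0 < α) (hαβ : α < β) :
    ∫ z, ‖dd (cb c α β) z‖ ≤ (∫ z, bb c α β z) / α := by
  have h1 := int_dd_sub (c := c) hα hαβ c
  have hi : Integrable (fun z => dd (cb c α β) z * (z - c)) :=
    integrable_dd_cb hα hαβ isOpen_univ (subset_univ _) (by fun_prop)
  have h2 : ∫ z, (dd (cb c α β) z * (z - c)).re = -(∫ z, bb c α β z) := by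
    have := integral_re (𝕜 := ℂ) hi
    simp only [RCLike.re_to_complex] at this
    rw [this, h1]
    simp
  have h3 : ∀ z, α * ‖dd (cb c α β) z‖ ≤ -(dd (cb c α β) z * (z - c)).re := by
    intro z
    by_cases hz : ‖z - c‖ < α
    · rw [dd_cb_zero hα hαβ (Or.inl hz)]; simp
    · have h4 : (dd (cb c α β) z * (z - c)).re =
          deriv (bump (α ^ 2) (β ^ 2)) (normSq (z - c)) * ‖z - c‖ ^ 2 := by
        rw [dd_cb, mul_assoc, mul_comm (conj _), mul_conj, ← ofReal_mul, ofReal_re,
          normSq_eq_norm_sq]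
      have h5 : ‖dd (cb c α β) z‖ =
          -deriv (bump (α ^ 2) (β ^ 2)) (normSq (z - c)) * ‖z - c‖ := by
        rw [dd_cb, norm_mul, norm_real, RCLike.norm_conj, Real.norm_eq_abs,
          abs_of_nonpos (deriv_bump_nonpos (sq_lt hα hαβ) _)]
      rw [h4, h5]
      have h6 : 0 ≤ -deriv (bump (α ^ 2) (β ^ 2)) (normSq (z - c)) * ‖z - c‖ := by
        rw [← h5]; exact norm_nonneg _
      have h7 : α ≤ ‖z - c‖ := not_lt.1 hz
      nlinarith
  have hin : Integrable (fun z => ‖dd (cb c α β) z‖) :=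
    (continuous_dd_cb.integrable_of_hasCompactSupport (cpt_dd_cb hα hαβ)).norm
  rw [le_div_iff₀ hα, mul_comm, ← integral_const_mul, ← neg_neg (∫ z, bb c α β z), ← h2,
    ← integral_neg]
  exact integral_mono (hin.const_mul α) hi.re.neg h3

theorem int_bb_ge (hα : 0 < α) (hαβ : α < β) : π * α ^ 2 ≤ ∫ z, bb c α β z := by
  have h1 : ∫ z in closedBall c α, (1 : ℝ) = π * α ^ 2 := by
    rw [setIntegral_const, smul_eq_mul, mul_one, Measure.real, Complex.volume_closedBall]
    simp [hα.le, ENNReal.toReal_mul, mul_comm]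
  rw [← h1]
  calc ∫ z in closedBall c α, (1 : ℝ) = ∫ z in closedBall c α, bb c α β z := by
        apply setIntegral_congr_fun measurableSet_closedBall
        intro z hz
        rw [mem_closedBall, dist_eq_norm] at hz
        exact (bb_one hα hαβ hz).symm
    _ ≤ ∫ z, bb c α β z := setIntegral_le_integral (integrable_bb hα hαβ)
        (Eventually.of_forall fun z => bb_nonneg z)

theorem int_bb_le (hα : 0 < α) (hαβ : α < β) : ∫ z, bb c α β z ≤ π * β ^ 2 := by
  have hβ : 0 < β := hα.trans hαβ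
  have h1 : ∫ z in closedBall c β, (1 : ℝ) = π * β ^ 2 := by
    rw [setIntegral_const, smul_eq_mul, mul_one, Measure.real, Complex.volume_closedBall]
    simp [hβ.le, ENNReal.toReal_mul, mul_comm]
  rw [← h1, ← integral_indicator measurableSet_closedBall]
  apply integral_mono (integrable_bb hα hαβ)
  · exact (integrable_indicator_iff measurableSet_closedBall).2
      (continuousOn_const.integrableOn_compact (isCompact_closedBall c β))
  · intro z
    by_cases hz : z ∈ closedBall c β
    · rw [indicator_of_mem hz]; exact bb_le_one z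
    · rw [indicator_of_notMem hz]
      rw [mem_closedBall, dist_eq_norm, not_le] at hz
      exact (bb_zero hα hαβ hz.le).le

/-- the boundary term of one disc -/
theorem bd_term (hα : 0 < α) (hαβ : α < β) {O : Set ℂ} (hO : IsOpen O)
    (hsub : cann c α β ⊆ O) {G : ℂ → ℂ} (hG : ContinuousOn G O) {c' : ℂ} {M : ℝ}
    (hM : ∀ z ∈ cann c α β, ‖G z - c'‖ ≤ M) :
    (∫ z, bb c α β z) - M * (∫ z, bb c α β z) / α ≤
      (∫ z, dd (cb c α β) z * (G z - z)).re := by
  have h1 := int_dd_sub (c := c) hα hαβ c'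
  have hi1 : Integrable (fun z => dd (cb c α β) z * (G z - c')) :=
    integrable_dd_cb hα hαβ hO hsub (hG.sub continuousOn_const)
  have hi2 : Integrable (fun z => dd (cb c α β) z * (z - c')) :=
    integrable_dd_cb hα hαβ isOpen_univ (subset_univ _) (by fun_prop)
  have h2 : ∫ z, dd (cb c α β) z * (G z - z) =
      (∫ z, dd (cb c α β) z * (G z - c')) + ((∫ z, bb c α β z : ℝ) : ℂ) := by
    have h3 : (fun z => dd (cb c α β) z * (G z - z)) = fun z =>
        dd (cb c α β) z * (G z - c') - dd (cb c α β) z * (z - c') := by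
      funext z; ring
    rw [h3, integral_sub hi1 hi2, h1, sub_neg_eq_add]
  rw [h2, add_re, ofReal_re]
  have hM0 : 0 ≤ M := by
    have h4 : c + (α : ℂ) ∈ cann c α β := by
      simp only [cann, mem_ofPred_eq, add_sub_cancel_left, norm_real, Real.norm_eq_abs,
        abs_of_pos hα]
      exact ⟨le_rfl, hαβ.le⟩
    exact (norm_nonneg _).trans (hM _ h4)
  have h5 : ‖∫ z, dd (cb c α β) z * (G z - c')‖ ≤ M * (∫ z, bb c α β z) / α := by
    have hin : Integrable (fun z => ‖dd (cb c α β) z‖) :=
      (continuous_dd_cb.integrable_of_hasCompactSupport (cpt_dd_cb hα hαβ)).norm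
    calc ‖∫ z, dd (cb c α β) z * (G z - c')‖ ≤ ∫ z, ‖dd (cb c α β) z * (G z - c')‖ :=
          norm_integral_le_integral_norm _
      _ ≤ ∫ z, M * ‖dd (cb c α β) z‖ := by
          apply integral_mono hi1.norm (hin.const_mul M)
          intro z
          simp only [norm_mul]
          by_cases hz : z ∈ cann c α β
          · rw [mul_comm]
            exact mul_le_mul_of_nonneg_right (hM z hz) (norm_nonneg _)
          · have : dd (cb c α β) z = 0 := by
              apply dd_cb_zero hα hαβ
              simp only [cann, mem_ofPred_eq, not_and_or, not_le] at hz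
              exact hz
            simp [this]
      _ = M * ∫ z, ‖dd (cb c α β) z‖ := integral_const_mul _ _
      _ ≤ M * ((∫ z, bb c α β z) / α) :=
          mul_le_mul_of_nonneg_left (int_norm_dd hα hαβ) hM0
      _ = _ := by ring
  have h6 := (abs_le.1 ((abs_re_le_norm _).trans h5)).1
  linarith

end

end Crest.Agent.R105.Fk_286
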