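import Crest.Agent.R105.Fk5_286

/-!
# R105, finite Koebe theorem (helper286), part 6: the energy inequality for disc domains
-/

set_option autoImplicit false

open Set Filter Topology Complex Metric MeasureTheory
open scoped ContDiff ComplexConjugate Real

namespace Crest.Agent.R105.Fk_286

open Crest.Agent.R105.FK_644 Crest.Agent.Lib.Bieberbach

theorem dd_sub {A B : ℂ → ℂ} (hA : Differentiable ℝ A) (hB : Differentiable ℝ B) (z : ℂ) :
    dd (fun z => A z - B z) z = dd A z - dd B z := by
  have h : fderiv ℝ (fun z => A z - B z) z = fderiv ℝ A z - fderiv ℝ B z :=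
    fderiv_fun_sub (hA z) (hB z)
  simp only [dd, h, sub_apply]
  ring

theorem dd_sum {n : ℕ} {A : Fin n → ℂ → ℂ} (hA : ∀ i, Differentiable ℝ (A i)) (z : ℂ) :
    dd (fun z => ∑ i, A i z) z = ∑ i, dd (A i) z := by
  have h : fderiv ℝ (fun z => ∑ i, A i z) z = ∑ i, fderiv ℝ (A i) z :=
    fderiv_fun_sum fun i _ => hA i z
  simp only [dd, h, sum_apply, Finset.mul_sum, ← Finset.sum_sub_distrib,
    Finset.sum_div]

theorem continuous_mul_of {χ H : ℂ → ℝ} (hχ : Continuous χ) {O : Set ℂ} (hO : IsOpen O)
    (hsub : tsupport χ ⊆ O) (hH : ContinuousOn H O) : Continuous (fun z => χ z * H z) := by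
  refine continuous_of_tsupport fun z hz => ?_
  have hz' : z ∈ tsupport χ := tsupport_mul_subset_left hz
  exact hχ.continuousAt.mul (hH.continuousAt (hO.mem_nhds (hsub hz')))

theorem cont_int_ball {F : ℂ → ℝ} (hF : Continuous F) (R : ℝ) : IntegrableOn F (ball 0 R) :=
  (hF.continuousOn.integrableOn_compact (isCompact_closedBall 0 R)).mono_set
    ball_subset_closedBall

section
variable {n : ℕ} {x : Fin n → ℂ × ℝ} {α β M : Fin n → ℝ} {c' : Fin n → ℂ}

/-- the sum of the cut-offs -/
noncomputable def sb (x : Fin n → ℂ × ℝ) (α β : Fin n → ℝ) (z : ℂ) : ℝ :=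
  ∑ i, bb (x i).1 (α i) (β i) z

theorem continuous_sb : Continuous (sb x α β) :=
  continuous_finsetSum _ fun _ _ => continuous_bb

theorem sb_nonneg (z : ℂ) : 0 ≤ sb x α β z := Finset.sum_nonneg fun i _ => bb_nonneg z

theorem sb_single (hα0 : ∀ i, 0 < α i) (hαβ : ∀ i, α i < β i)
    (hdisj : ∀ i j, i ≠ j → Disjoint (closedBall (x i).1 (β i)) (closedBall (x j).1 (β j)))
    {i : Fin n} {z : ℂ} (hz : z ∈ closedBall (x i).1 (β i)) :
    sb x α β z = bb (x i).1 (α i) (β i) z := by
  unfold sb
  apply Finset.sum_eq_single i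
  · intro j _ hji
    apply bb_zero (hα0 j) (hαβ j)
    have := disjoint_left.1 (hdisj i j hji.symm) hz
    rw [mem_closedBall, dist_eq_norm, not_le] at this
    exact this.le
  · intro h; exact absurd (Finset.mem_univ i) h

theorem sb_zero (hα0 : ∀ i, 0 < α i) (hαβ : ∀ i, α i < β i) {z : ℂ}
    (hz : ∀ i, z ∉ closedBall (x i).1 (β i)) : sb x α β z = 0 := by
  unfold sb
  apply Finset.sum_eq_zero
  intro i _
  apply bb_zero (hα0 i) (hαβ i)
  have := hz i
  rw [mem_closedBall, dist_eq_norm, not_le] at this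
  exact this.le

theorem sb_le_one (hα0 : ∀ i, 0 < α i) (hαβ : ∀ i, α i < β i)
    (hdisj : ∀ i j, i ≠ j → Disjoint (closedBall (x i).1 (β i)) (closedBall (x j).1 (β j)))
    (z : ℂ) : sb x α β z ≤ 1 := by
  by_cases h : ∃ i, z ∈ closedBall (x i).1 (β i)
  · obtain ⟨i, hi⟩ := h
    rw [sb_single hα0 hαβ hdisj hi]
    exact bb_le_one z
  · push Not at h
    rw [sb_zero hα0 hαβ h]
    exact zero_le_one

theorem sb_one (hα0 : ∀ i, 0 < α i) (hαβ : ∀ i, α i < β i)
    (hdisj : ∀ i j, i ≠ j → Disjoint (closedBall (x i).1 (β i)) (closedBall (x j).1 (β j)))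
    {i : Fin n} {z : ℂ} (hz : ‖z - (x i).1‖ ≤ α i) : sb x α β z = 1 := by
  rw [sb_single hα0 hαβ hdisj (i := i), bb_one (hα0 i) (hαβ i) hz]
  rw [mem_closedBall, dist_eq_norm]
  exact hz.trans (hαβ i).le

/-- the closed set which contains the support of `1 - sb` -/
def far (x : Fin n → ℂ × ℝ) (α : Fin n → ℝ) : Set ℂ := {z | ∀ i, α i ≤ ‖z - (x i).1‖}

theorem isClosed_far : IsClosed (far x α) := by
  have : far x α = ⋂ i, {z | α i ≤ ‖z - (x i).1‖} := by
    ext z; simp [far]
  rw [this]
  exact isClosed_iInter fun i => isClosed_le continuous_const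
    (by fun_prop : Continuous fun z : ℂ => ‖z - (x i).1‖)

theorem far_sub (hα : ∀ i, (x i).2 < α i) : far x α ⊆ dom (discs x) := by
  intro z hz hmem
  obtain ⟨i, hi⟩ := mem_iUnion.1 hmem
  rw [discs, mem_closedBall, dist_eq_norm] at hi
  exact absurd (hz i) (not_le.2 (hi.trans_lt (hα i)))

theorem tsupport_one_sub (hα0 : ∀ i, 0 < α i) (hαβ : ∀ i, α i < β i)
    (hdisj : ∀ i j, i ≠ j → Disjoint (closedBall (x i).1 (β i)) (closedBall (x j).1 (β j))) :
    tsupport (fun z => 1 - sb x α β z) ⊆ far x α := by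
  apply closure_minimal _ isClosed_far
  intro z hz i
  by_contra hn
  apply hz
  simp only
  rw [sb_one hα0 hαβ hdisj (not_le.1 hn).le, sub_self]

/-- **the energy inequality** -/
theorem key_ineq (hr : ∀ i, 0 < (x i).2) (hα : ∀ i, (x i).2 < α i) (hαβ : ∀ i, α i < β i)
    (hdisj : ∀ i j, i ≠ j → Disjoint (closedBall (x i).1 (β i)) (closedBall (x j).1 (β j)))
    {G : ℂ → ℂ} (hG : Sig (dom (discs x)) G) {E : Set ℂ} (hE : MeasurableSet E)
    (hEG : Disjoint (G '' dom (discs x)) E)
    (hM : ∀ i, ∀ z ∈ cann (x i).1 (α i) (β i), ‖G z - c' i‖ ≤ M i)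
    {L : Set ℂ} (hL : IsCompact L) (hLd : ∀ i, Disjoint L (closedBall (x i).1 (β i))) :
    ∫ z in L, ‖deriv G z - 1‖ ^ 2 ≤
      (∑ i, π * (2 * β i ^ 2 * M i / α i - α i ^ 2)) - (volume E).toReal := by
  set U : Set ℂ := dom (discs x) with hUdef
  have hU : IsOpen U := isOpen_dom (cpt_discs x)
  have hα0 : ∀ i, 0 < α i := fun i => (hr i).trans (hα i)
  have hβ0 : ∀ i, 0 < β i := fun i => (hα0 i).trans (hαβ i)
  -- a big disc
  obtain ⟨R0, hR0, hR0b, hR0U⟩ : ∃ R0 : ℝ, 0 < R0 ∧
      (∀ i, ∀ z ∈ closedBall (x i).1 (β i), ‖z‖ < R0) ∧ ∀ z, R0 < ‖z‖ → z ∈ U := by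
    have hc : IsCompact (⋃ i, closedBall (x i).1 (β i)) :=
      isCompact_iUnion fun i => isCompact_closedBall _ _
    obtain ⟨B, hB⟩ := hc.isBounded.exists_norm_le
    refine ⟨max B 0 + 1, by positivity, fun i z hz => ?_, fun z hz => ?_⟩
    · have h1 := hB z (mem_iUnion.2 ⟨i, hz⟩)
      have := le_max_left B 0
      linarith
    · intro hmem
      obtain ⟨i, hi⟩ := mem_iUnion.1 hmem
      have h1 := hB z (mem_iUnion.2 ⟨i, closedBall_subset_closedBall
        ((hα i).trans (hαβ i)).le hi⟩)
      have := le_max_left B 0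
      linarith
  have hcU : ∀ i, cann (x i).1 (α i) (β i) ⊆ U := by
    intro i z hz hmem
    obtain ⟨j, hj⟩ := mem_iUnion.1 hmem
    rw [discs, mem_closedBall, dist_eq_norm] at hj
    by_cases hij : i = j
    · subst hij
      exact absurd hz.1 (not_le.2 (hj.trans_lt (hα i)))
    · have h1 : z ∈ closedBall (x i).1 (β i) := by
        rw [mem_closedBall, dist_eq_norm]; exact hz.2
      have h2 : z ∈ closedBall (x j).1 (β j) := by
        rw [mem_closedBall, dist_eq_norm]
        exact hj.trans ((hα j).trans (hαβ j)).le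
      exact disjoint_left.1 (hdisj i j hij) h1 h2
  -- the function `g`
  set g : ℂ → ℂ := fun z => G z - z with hg
  have hgd : DifferentiableOn ℂ g U := hG.hol.sub differentiableOn_id
  have hg' : ∀ z ∈ U, deriv g z = deriv G z - 1 := by
    intro z hz
    have h1 : DifferentiableAt ℂ G z := hG.hol.differentiableAt (hU.mem_nhds hz)
    have h2 : HasDerivAt g (deriv G z - 1) z := h1.hasDerivAt.sub (hasDerivAt_id z)
    exact h2.deriv
  have hdc : ContinuousOn (deriv g) U := (hgd.deriv hU).continuousOn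
  have hdcG : ContinuousOn (deriv G) U := (hG.hol.deriv hU).continuousOn
  obtain ⟨k, hk, hgk⟩ := ext_exp (g := g) hR0 (hgd.mono fun z hz => hR0U z hz) hG.inf
  have hkd : DifferentiableOn ℂ (deriv k) (ball 0 1) := hk.deriv isOpen_ball
  have hR0c : (R0 : ℂ) ≠ 0 := by exact_mod_cast hR0.ne'
  set ε0 : ℝ := R0 + 1 with hε0
  set R1 : ℝ := R0 + 2 with hR1
  set R2 : ℝ := R0 + 3 with hR2
  have hR1p : 0 < R1 := by positivity
  have hR12 : R1 < R2 := by linarith
  -- the cut-offs
  set χ : ℂ → ℝ := fun z => 1 - sb x α β z with hχ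
  set κ : ℂ → ℝ := bb 0 R1 R2 with hκ
  have hχc : Continuous χ := continuous_const.sub continuous_sb
  have hχs : tsupport χ ⊆ U :=
    (tsupport_one_sub hα0 hαβ hdisj).trans (far_sub hα)
  have hχ0 : ∀ z, 0 ≤ χ z := fun z => sub_nonneg.2 (sb_le_one hα0 hαβ hdisj z)
  have hχ1 : ∀ z, χ z ≤ 1 := fun z => by
    have := sb_nonneg (x := x) (α := α) (β := β) z
    simp only [hχ]; linarith
  have hχU : ∀ z, z ∉ U → χ z = 0 := fun z hz =>
    image_eq_zero_of_notMem_tsupport fun h => hz (hχs h)
  have hκ1 : ∀ z : ℂ, ‖z‖ ≤ R1 → κ z = 1 := fun z hz =>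
    bb_one hR1p hR12 (by rw [sub_zero]; exact hz)
  have hκ0 : ∀ z : ℂ, R2 ≤ ‖z‖ → κ z = 0 := fun z hz =>
    bb_zero hR1p hR12 (by rw [sub_zero]; exact hz)
  have hsb0 : ∀ z : ℂ, R0 ≤ ‖z‖ → sb x α β z = 0 := fun z hz =>
    sb_zero hα0 hαβ fun i hi => absurd (hR0b i z hi) (not_lt.2 hz)
  set K : ℂ → ℂ := fun z => cb 0 R1 R2 z - ∑ i, cb (x i).1 (α i) (β i) z with hK
  have hKeq : ∀ z, K z = ((κ z - sb x α β z : ℝ) : ℂ) := by
    intro z
    simp only [hK, cb_eq, sb, hκ]
    push_cast
    rfl
  have hKd : ContDiff ℝ 1 K := by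
    refine (contDiff_cb.of_le (by simp)).sub ?_
    exact ContDiff.sum fun i _ => contDiff_cb.of_le (by simp)
  have hKc : HasCompactSupport K := by
    refine HasCompactSupport.of_support_subset_isCompact (isCompact_closedBall 0 R2) ?_
    intro z hz
    rw [mem_closedBall_zero_iff]
    by_contra hn
    apply hz
    have h1 := (not_le.1 hn).le
    rw [hKeq, hκ0 z h1, hsb0 z (by linarith), sub_zero, ofReal_zero]
  have hKs : tsupport K ⊆ U := by
    refine (closure_minimal ?_ isClosed_far : tsupport K ⊆ far x α).trans (far_sub hα)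
    intro z hz i
    by_contra hn
    apply hz
    have h1 := (not_le.1 hn).le
    have h2 : ‖z‖ < R0 := hR0b i z (by
      rw [mem_closedBall, dist_eq_norm]; exact h1.trans (hαβ i).le)
    rw [hKeq, sb_one hα0 hαβ hdisj h1, hκ1 z (by linarith), sub_self, ofReal_zero]
  have hdiff : ∀ (c : ℂ) (a b : ℝ), Differentiable ℝ (cb c a b) := fun c a b =>
    contDiff_cb.differentiable (by simp)
  have hKdd : ∀ z, dd K z = dd (cb 0 R1 R2) z - ∑ i, dd (cb (x i).1 (α i) (β i)) z := by
    intro z
    rw [hK, dd_sub (hdiff _ _ _) (Differentiable.fun_sum fun i _ => hdiff _ _ _),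
      dd_sum fun i => hdiff _ _ _]
  -- the annulus for `κ`
  have hcann0 : cann 0 R1 R2 ⊆ U := by
    intro z hz
    apply hR0U
    have : R1 ≤ ‖z - 0‖ := hz.1
    rw [sub_zero] at this
    linarith
  have hi0 : Integrable (fun z => dd (cb 0 R1 R2) z * g z) :=
    integrable_dd_cb hR1p hR12 hU hcann0 hgd.continuousOn
  have hii : ∀ i, Integrable (fun z => dd (cb (x i).1 (α i) (β i)) z * g z) := fun i =>
    integrable_dd_cb (hα0 i) (hαβ i) hU (hcU i) hgd.continuousOn
  -- real part of the outer term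
  have hout : (∫ z, dd (cb 0 R1 R2) z * g z).re = 0 := by
    have h1 := integral_re (𝕜 := ℂ) hi0
    simp only [RCLike.re_to_complex] at h1
    rw [← h1]
    set w : ℝ → ℝ := fun t => deriv (bump (R1 ^ 2) (R2 ^ 2)) (t ^ 2) * t ^ 2 with hw
    have hwc : Continuous w := by
      have h2 : Continuous (deriv (bump (R1 ^ 2) (R2 ^ 2))) :=
        (contDiff_bump _ _).continuous_deriv (by simp)
      exact (h2.comp (continuous_pow 2)).mul (continuous_pow 2)
    have h3 := (ann_zero (Ψ := fun ζ => ζ ^ 2 * k ζ / R0) (R0 := R0) (ε := ε0) (r := R0 + 4)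
      (((differentiableOn_id.pow 2).mul hk).div_const _) (by simp) hR0 (by linarith) hwc).2
    rw [← h3]
    have h4 : ∀ z : ℂ, z ∉ ann ε0 (R0 + 4) → (dd (cb 0 R1 R2) z * g z).re = 0 := by
      intro z hz
      have : dd (cb 0 R1 R2) z = 0 := by
        apply dd_cb_zero hR1p hR12
        rw [sub_zero]
        simp only [ann, mem_ofPred_eq, not_and_or, not_lt] at hz
        rcases hz with hz | hz
        · left; linarith
        · right; linarith
      rw [this]; simp
    rw [← setIntegral_eq_integral_of_forall_compl_eq_zero (s := ann ε0 (R0 + 4)) h4]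
    apply setIntegral_congr_fun (isOpen_ann _ _).measurableSet
    intro z hz
    have hz1 : ε0 < ‖z‖ := hz.1
    have hz0 : z ≠ 0 := by rw [← norm_pos_iff]; linarith
    simp only
    rw [dd_cb, hgk z (by linarith), sub_zero, normSq_eq_norm_sq]
    have e1 : ((deriv (bump (R1 ^ 2) (R2 ^ 2)) (‖z‖ ^ 2) : ℝ) : ℂ) * conj z *
        ((R0 : ℂ) / z * k ((R0 : ℂ) / z)) = ((w ‖z‖ : ℝ) : ℂ) *
        (((R0 : ℂ) / z) ^ 2 * k ((R0 : ℂ) / z) / R0) := by
      have e2 : ((‖z‖ ^ 2 : ℝ) : ℂ) = z * conj z := by
        rw [mul_conj, normSq_eq_norm_sq]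
      simp only [hw]
      rw [ofReal_mul, e2]
      field_simp
    rw [e1, re_ofReal_mul]
  -- the main term
  have hmain : (∑ i, ((∫ z, bb (x i).1 (α i) (β i) z) -
      M i * (∫ z, bb (x i).1 (α i) (β i) z) / α i)) ≤ (∫ z, K z * deriv g z).re := by
    rw [ibp hKd hKc hU hKs hgd]
    have h1 : ∫ z, dd K z * g z = (∫ z, dd (cb 0 R1 R2) z * g z) -
        ∑ i, ∫ z, dd (cb (x i).1 (α i) (β i)) z * g z := by
      rw [← integral_finsetSum _ fun i _ => hii i, ← integral_sub hi0
        (integrable_finsetSum _ fun i _ => hii i)]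
      congr 1
      funext z
      rw [hKdd, sub_mul, Finset.sum_mul]
    rw [h1, neg_sub, sub_re, hout, sub_zero, re_sum]
    exact Finset.sum_le_sum fun i _ => bd_term (hα0 i) (hαβ i) hU (hcU i)
      hG.hol.continuousOn (hM i)
  -- the area at infinity
  obtain ⟨e, he0, heR⟩ := area_ext hU hG hR0 hR0U hE hEG
  -- everything at a fixed radius
  set m : Fin n → ℝ := fun i => ∫ z, bb (x i).1 (α i) (β i) z with hm
  have hfix : ∀ᶠ R in atTop, ∫ z in L, ‖deriv G z - 1‖ ^ 2 ≤
      e R - (volume E).toReal + ∑ i, (2 * M i * m i / α i - m i) := by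
    obtain ⟨BL, hBL⟩ := hL.isBounded.exists_norm_le
    filter_upwards [heR, eventually_gt_atTop (R0 + 4), eventually_gt_atTop BL,
      eventually_gt_atTop 0] with R hR hR4 hRL hRp
    obtain ⟨hR5, hR6⟩ := hR
    -- the four continuous functions
    have hF1 : Continuous fun z => χ z * ‖deriv g z‖ ^ 2 :=
      continuous_mul_of hχc hU hχs (hdc.norm.pow 2)
    have hF2 : Continuous fun z => χ z * (deriv g z).re :=
      continuous_mul_of hχc hU hχs (continuous_re.comp_continuousOn hdc)
    have hF3 : Continuous fun z => χ z * ‖deriv G z‖ ^ 2 :=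
      continuous_mul_of hχc hU hχs (hdcG.norm.pow 2)
    -- pointwise identity
    have hpt : ∀ z, χ z * ‖deriv g z‖ ^ 2 =
        χ z * ‖deriv G z‖ ^ 2 - 2 * (χ z * (deriv g z).re) - χ z := by
      intro z
      by_cases hz : z ∈ U
      · have h1 : deriv G z = deriv g z + 1 := by rw [hg' z hz]; ring
        rw [h1, ← normSq_eq_norm_sq, ← normSq_eq_norm_sq, normSq_add]
        simp only [map_one, mul_one]
        ring
      · rw [hχU z hz]; ring
    have hI : ∫ z in ball 0 R, χ z * ‖deriv g z‖ ^ 2 =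
        (∫ z in ball 0 R, χ z * ‖deriv G z‖ ^ 2) - 2 * (∫ z in ball 0 R, χ z * (deriv g z).re) -
        ∫ z in ball 0 R, χ z := by
      simp only [hpt]
      rw [integral_sub, integral_sub, integral_const_mul]
      · exact cont_int_ball hF3 R
      · exact (cont_int_ball hF2 R).const_mul 2
      · exact (cont_int_ball hF3 R).sub ((cont_int_ball hF2 R).const_mul 2)
      · exact cont_int_ball hχc R
    -- (L)
    have hLU : L ⊆ U := by
      intro z hz hmem
      obtain ⟨i, hi⟩ := mem_iUnion.1 hmem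
      exact disjoint_left.1 (hLd i) hz (closedBall_subset_closedBall
        ((hα i).trans (hαβ i)).le hi)
    have hL1 : ∫ z in L, ‖deriv G z - 1‖ ^ 2 ≤ ∫ z in ball 0 R, χ z * ‖deriv g z‖ ^ 2 := by
      have h1 : ∫ z in L, ‖deriv G z - 1‖ ^ 2 = ∫ z in L, χ z * ‖deriv g z‖ ^ 2 := by
        apply setIntegral_congr_fun hL.isClosed.measurableSet
        intro z hz
        simp only
        rw [hg' z (hLU hz), hχ]
        simp only
        rw [sb_zero hα0 hαβ fun i hi => disjoint_left.1 (hLd i) hz hi, sub_zero, one_mul]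
      rw [h1]
      apply setIntegral_mono_set (cont_int_ball hF1 R)
      · exact Eventually.of_forall fun z => mul_nonneg (hχ0 z) (by positivity)
      · apply LE.le.eventuallyLE
        intro z hz
        rw [mem_ball_zero_iff]
        exact (hBL z hz).trans_lt hRL
    -- (vol)
    have hV : ∫ z in ball 0 R, χ z * ‖deriv G z‖ ^ 2 ≤ π * R ^ 2 + e R - (volume E).toReal := by
      have hUR : IsOpen (U ∩ ball 0 R) := hU.inter isOpen_ball
      have hvol := vol_image (G := G) (G' := deriv G) (s := U ∩ ball 0 R) hUR.measurableSet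
        (fun z hz => (hG.hol.differentiableAt (hU.mem_nhds hz.1)).hasDerivAt)
        (hG.inj.mono inter_subset_left)
      have h1 : ∫ z in ball 0 R, χ z * ‖deriv G z‖ ^ 2 =
          ∫ z in U ∩ ball 0 R, χ z * ‖deriv G z‖ ^ 2 := by
        apply setIntegral_eq_of_subset_of_forall_sdiff_eq_zero measurableSet_ball
          inter_subset_right
        intro z hz
        have : z ∉ U := fun h => hz.2 ⟨h, hz.1⟩
        rw [hχU z this, zero_mul]
      have hfin : volume (G '' (U ∩ ball 0 R)) ≠ ⊤ := by
        intro h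
        rw [h, top_add] at hR6
        exact ENNReal.ofReal_ne_top (top_le_iff.1 hR6)
      have hfinE : volume E ≠ ⊤ := by
        intro h
        rw [h, add_top] at hR6
        exact ENNReal.ofReal_ne_top (top_le_iff.1 hR6)
      have hmeas : AEStronglyMeasurable (fun z => ‖deriv G z‖ ^ 2)
          (volume.restrict (U ∩ ball 0 R)) :=
        ((hdcG.mono inter_subset_left).norm.pow 2).aestronglyMeasurable hUR.measurableSet
      have hint : IntegrableOn (fun z => ‖deriv G z‖ ^ 2) (U ∩ ball 0 R) := by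
        refine ⟨hmeas, ?_⟩
        rw [hasFiniteIntegral_iff_ofReal (Eventually.of_forall fun z => by positivity), hvol]
        exact lt_top_iff_ne_top.2 hfin
      have h2 : ∫ z in U ∩ ball 0 R, χ z * ‖deriv G z‖ ^ 2 ≤
          ∫ z in U ∩ ball 0 R, ‖deriv G z‖ ^ 2 := by
        apply integral_mono_of_nonneg (Eventually.of_forall fun z =>
          mul_nonneg (hχ0 z) (by positivity)) hint
        apply Eventually.of_forall
        intro z
        simp only
        exact mul_le_of_le_one_left (by positivity) (hχ1 z)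
      have h3 : ∫ z in U ∩ ball 0 R, ‖deriv G z‖ ^ 2 =
          (volume (G '' (U ∩ ball 0 R))).toReal := by
        rw [integral_eq_lintegral_of_nonneg_ae (Eventually.of_forall fun z => by positivity)
          hmeas, hvol]
      have h4 : (volume (G '' (U ∩ ball 0 R))).toReal + (volume E).toReal ≤
          π * R ^ 2 + e R := by
        rw [← ENNReal.toReal_add hfin hfinE, ← ENNReal.toReal_ofReal hR5]
        exact ENNReal.toReal_mono ENNReal.ofReal_ne_top hR6
      rw [h1]
      linarith [h2, h3, h4]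
    -- (χ)
    have hX : ∫ z in ball 0 R, χ z = π * R ^ 2 - ∑ i, m i := by
      have hbi : ∀ i, ∫ z in ball 0 R, bb (x i).1 (α i) (β i) z = m i := by
        intro i
        apply setIntegral_eq_integral_of_forall_compl_eq_zero
        intro z hz
        apply bb_zero (hα0 i) (hαβ i)
        rw [mem_ball_zero_iff, not_lt] at hz
        by_contra hn
        have := hR0b i z (by rw [mem_closedBall, dist_eq_norm]; exact (not_le.1 hn).le)
        linarith
      have h1 : ∫ z in ball 0 R, sb x α β z = ∑ i, m i := by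
        unfold sb
        rw [integral_finsetSum _ fun i _ => (cont_int_ball continuous_bb R)]
        exact Finset.sum_congr rfl fun i _ => hbi i
      have h2 : ∫ z in ball (0 : ℂ) R, (1 : ℝ) = π * R ^ 2 := by
        rw [setIntegral_const, smul_eq_mul, mul_one, Measure.real, Complex.volume_ball]
        simp [hRp.le, ENNReal.toReal_mul, mul_comm]
      rw [← h1, ← h2, ← integral_sub (cont_int_ball continuous_const R)
        (cont_int_ball continuous_sb R)]
    -- (Re g')
    have hT : (∫ z, K z * deriv g z).re = ∫ z in ball 0 R, χ z * (deriv g z).re := by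
      have hiK : Integrable (fun z => K z * deriv g z) :=
        (integrable_of_tsupport hKd.continuous hKc hU hKs hdc).2
      have h1 := integral_re (𝕜 := ℂ) hiK
      simp only [RCLike.re_to_complex] at h1
      have h2 : ∀ z, (K z * deriv g z).re = (κ z - sb x α β z) * (deriv g z).re := by
        intro z; rw [hKeq, re_ofReal_mul]
      have h3 : ∫ z in ball 0 R, (K z * deriv g z).re = ∫ z, (K z * deriv g z).re := by
        apply setIntegral_eq_integral_of_forall_compl_eq_zero
        intro z hz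
        rw [mem_ball_zero_iff, not_lt] at hz
        rw [h2, hκ0 z (by linarith), hsb0 z (by linarith), sub_zero, zero_mul]
      have hF4 : Continuous fun z => (1 - κ z) * (deriv g z).re := by
        refine continuous_mul_of (continuous_const.sub continuous_bb) hU ?_
          (continuous_re.comp_continuousOn hdc)
        refine (closure_minimal ?_ (isClosed_le continuous_const continuous_norm :
          IsClosed {z : ℂ | R1 ≤ ‖z‖})).trans ?_
        · intro z hz
          by_contra hn
          apply hz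
          simp only
          have h5 := hκ1 z (not_le.1 hn).le
          rw [h5, sub_self]
        · intro z hz
          exact hR0U z (by have : R1 ≤ ‖z‖ := hz; linarith)
      have hF5 : Continuous fun z => (K z * deriv g z).re :=
        continuous_re.comp (integrable_of_tsupport hKd.continuous hKc hU hKs hdc).1
      have h4 : ∫ z in ball 0 R, (1 - κ z) * (deriv g z).re = 0 := by
        set w : ℝ → ℝ := fun t => 1 - bump (R1 ^ 2) (R2 ^ 2) (t ^ 2) with hw
        have hwc : Continuous w :=
          continuous_const.sub ((contDiff_bump _ _).continuous.comp (continuous_pow 2))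
        have h5 := (ann_zero (Ψ := fun ζ => -(ζ ^ 2 / R0) * (k ζ + ζ * deriv k ζ)) (R0 := R0)
          (ε := ε0) (r := R) (by
            apply DifferentiableOn.mul
            · exact ((differentiableOn_id.pow 2).div_const _).neg
            · exact hk.add (differentiableOn_id.mul hkd)) (by simp) hR0 (by linarith) hwc).2
        rw [← h5]
        have h6 : ∫ z in ann ε0 R, (1 - κ z) * (deriv g z).re =
            ∫ z in ball 0 R, (1 - κ z) * (deriv g z).re := by
          symm
          apply setIntegral_eq_of_subset_of_forall_sdiff_eq_zero measurableSet_ball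
          · intro z hz; rw [mem_ball_zero_iff]; exact hz.2
          · intro z hz
            rw [hκ1 z, sub_self, zero_mul]
            by_contra hn
            apply hz.2
            exact ⟨by linarith [not_le.1 hn], by simpa using hz.1⟩
        rw [← h6]
        apply setIntegral_congr_fun (isOpen_ann _ _).measurableSet
        intro z hz
        have hz1 : ε0 < ‖z‖ := hz.1
        have hz0 : z ≠ 0 := by rw [← norm_pos_iff]; linarith
        have hzR : R0 < ‖z‖ := by linarith
        have hζ : (R0 : ℂ) / z ∈ ball (0 : ℂ) 1 := by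
          rw [mem_ball_zero_iff, norm_div, norm_real, Real.norm_eq_abs, abs_of_pos hR0,
            div_lt_one (by linarith)]
          exact hzR
        have h7 : HasDerivAt (fun z : ℂ => (R0 : ℂ) / z) (-(R0 : ℂ) / z ^ 2) z := by
          have h := (hasDerivAt_const z (R0 : ℂ)).div (hasDerivAt_id z) hz0
          have e2 : (0 * id z - (R0 : ℂ) * 1) / id z ^ 2 = -(R0 : ℂ) / z ^ 2 := by simp
          rw [e2] at h
          exact h
        have h8 : HasDerivAt (fun z : ℂ => ((R0 : ℂ) / z) * k ((R0 : ℂ) / z))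
            ((-(R0 : ℂ) / z ^ 2) * k ((R0 : ℂ) / z) + ((R0 : ℂ) / z) *
              (deriv k ((R0 : ℂ) / z) * (-(R0 : ℂ) / z ^ 2))) z := by
          have h9 : HasDerivAt k (deriv k ((R0 : ℂ) / z)) ((R0 : ℂ) / z) :=
            (hk.differentiableAt (isOpen_ball.mem_nhds hζ)).hasDerivAt
          exact h7.mul (h9.comp z h7)
        have h10 : deriv g z = -(((R0 : ℂ) / z) ^ 2 / R0) *
            (k ((R0 : ℂ) / z) + ((R0 : ℂ) / z) * deriv k ((R0 : ℂ) / z)) := by
          have h11 : g =ᶠ[𝓝 z] fun z : ℂ => ((R0 : ℂ) / z) * k ((R0 : ℂ) / z) := by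
            have : {z : ℂ | R0 < ‖z‖} ∈ 𝓝 z :=
              (isOpen_lt continuous_const continuous_norm).mem_nhds hzR
            filter_upwards [this] with w hw
            exact hgk w hw
          rw [h11.deriv_eq, h8.deriv]
          field_simp
          ring
        simp only
        rw [h10]
        congr 1
        simp only [hw, hκ, bb, sub_zero, normSq_eq_norm_sq]
      rw [← h1, ← h3]
      have h5 : ∀ z, χ z * (deriv g z).re = (K z * deriv g z).re + (1 - κ z) * (deriv g z).re := by
        intro z; rw [h2]; simp only [hχ]; ring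
      simp only [h5]
      rw [integral_add (cont_int_ball hF5 R) (cont_int_ball hF4 R), h4, add_zero]
    rw [hT] at hmain
    have hsum : ∑ i, (m i - M i * m i / α i) = ∑ i, m i - ∑ i, M i * m i / α i :=
      Finset.sum_sub_distrib _ _
    have hsum2 : ∑ i, (2 * M i * m i / α i - m i) = 2 * ∑ i, M i * m i / α i - ∑ i, m i := by
      rw [Finset.sum_sub_distrib, Finset.mul_sum]
      congr 1
      exact Finset.sum_congr rfl fun i _ => by ring
    rw [hsum] at hmain
    rw [hsum2]
    rw [hX] at hI
    linarith [hL1, hI, hV, hmain]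
  have hlim : ∫ z in L, ‖deriv G z - 1‖ ^ 2 ≤
      0 - (volume E).toReal + ∑ i, (2 * M i * m i / α i - m i) :=
    ge_of_tendsto ((he0.sub_const _).add_const _) hfix
  refine hlim.trans ?_
  have hMn : ∀ i, 0 ≤ M i := by
    intro i
    have h4 : (x i).1 + (α i : ℂ) ∈ cann (x i).1 (α i) (β i) := by
      simp only [cann, mem_ofPred_eq, add_sub_cancel_left, norm_real, Real.norm_eq_abs,
        abs_of_pos (hα0 i)]
      exact ⟨le_rfl, (hαβ i).le⟩
    exact (norm_nonneg _).trans (hM i _ h4)
  have hfin : ∑ i, (2 * M i * m i / α i - m i) ≤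
      ∑ i, π * (2 * β i ^ 2 * M i / α i - α i ^ 2) := by
    apply Finset.sum_le_sum
    intro i _
    have h1 := int_bb_ge (c := (x i).1) (hα0 i) (hαβ i)
    have h2 := int_bb_le (c := (x i).1) (hα0 i) (hαβ i)
    have h3 : 2 * M i * m i / α i ≤ 2 * M i * (π * β i ^ 2) / α i := by
      apply div_le_div_of_nonneg_right _ (hα0 i).le
      apply mul_le_mul_of_nonneg_left h2
      linarith [hMn i]
    have h4 : π * (2 * β i ^ 2 * M i / α i - α i ^ 2) =
        2 * M i * (π * β i ^ 2) / α i - π * α i ^ 2 := by ring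
    rw [h4]
    exact sub_le_sub h3 h1
  linarith

end

end Crest.Agent.R105.Fk_286
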