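import Crest.Agent.R105.Ta1_937

/-!
# Row 105, S0138: adapter z-plane <-> picture plane with solids, part 2 (helper937)

Transport of the classes `Q`, `TT`, of sums over the components, of the `T`-energy, of the Dirichlet
form and of the area form.
-/

set_option autoImplicit false

open MeasureTheory Set Filter Topology Metric
open scoped NNReal ENNReal

namespace Crest.Agent.R105.Ta_937

open Ends_897 Tc_808 Bd_775

noncomputable section

variable {U : Set ℂ} {F : ℂ → ℂ} {φ ψ : ℂ → ℝ}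

/-- `F` univalent on the exterior domain `U`. -/
theorem uni (hU : IsOpen U) (hol : DifferentiableOn ℂ F U) (inj : InjOn F U) :
    Tra_937.Uni U F := ⟨hU, hol, inj⟩

theorem isOpen_V (h : EndMap U (F '' U) F) : IsOpen (F '' U) := h.hV.1

theorem ae_of_loc (h : EndMap U (F '' U) F) (hφ : LocallyLipschitzOn (F '' U) φ) :
    ∀ᵐ z ∂(volume.restrict (F '' U)), DifferentiableAt ℝ φ z :=
  Tra_937.ae_diff_of_locLip (isOpen_V h) hφ

/-- **(T3)** the class `Q`. -/
theorem q_comp (h : EndMap U (F '' U) F) (hF : Tra_937.Uni U F) (hφ : Q (F '' U)ᶜ φ) :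
    Q Uᶜ (φ ∘ F) := by
  have hl : LocallyLipschitzOn (F '' U) φ := by
    have := hφ.loc; rwa [compl_compl] at this
  have hi : IntegrableOn (en φ) (F '' U) := by
    have := hφ.fin; rwa [compl_compl] at this
  refine ⟨?_, ?_, ?_⟩
  · obtain ⟨M, hM⟩ := hφ.bdd
    exact ⟨M, fun z => hM _⟩
  · rw [compl_compl]; exact hF.locLip_comp hl
  · rw [compl_compl]
    have h1 := (hF.integrableOn_en hF.op.measurableSet subset_rfl (fun _ => 1)
      (ae_of_loc h hl)).2 (by simp only [one_mul]; exact hi)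
    simp only [one_mul] at h1
    exact h1

/-- **(T3)** the class `TT`. -/
theorem tt_comp (h : EndMap U (F '' U) F) (hF : Tra_937.Uni U F) (hφ : TT (F '' U)ᶜ φ) :
    TT Uᶜ (φ ∘ F) := by
  refine ⟨q_comp h hF hφ.q, ?_⟩
  have h1 : (fun K : Cmp Uᶜ => osc Uᶜ (φ ∘ F) K.1 ^ 2)
      = (fun L : Cmp (F '' U)ᶜ => osc (F '' U)ᶜ φ L.1 ^ 2) ∘ corE h := by
    funext K
    simp only [Function.comp_apply]
    rw [osc_comp h]
  rw [h1, Equiv.summable_iff]
  exact hφ.sum

/-- sums over the components. -/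
theorem tsum_corE (h : EndMap U (F '' U) F) (G : ℝ → ℝ) :
    ∑' K : Cmp Uᶜ, G (osc Uᶜ (φ ∘ F) K.1) = ∑' L : Cmp (F '' U)ᶜ, G (osc (F '' U)ᶜ φ L.1) := by
  rw [← (corE h).tsum_eq]
  refine tsum_congr fun K => ?_
  rw [osc_comp h]

theorem tsum_corE' (h : EndMap U (F '' U) F) (G : Cmp Uᶜ → ℝ → ℝ) :
    ∑' K : Cmp Uᶜ, G K (osc Uᶜ (φ ∘ F) K.1)
      = ∑' L : Cmp (F '' U)ᶜ, G ((corE h).symm L) (osc (F '' U)ᶜ φ L.1) := by
  rw [← (corE h).tsum_eq]
  refine tsum_congr fun K => ?_
  rw [osc_comp h, Equiv.symm_apply_apply]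

theorem summable_corE' (h : EndMap U (F '' U) F) (G : Cmp Uᶜ → ℝ → ℝ) :
    (Summable fun K : Cmp Uᶜ => G K (osc Uᶜ (φ ∘ F) K.1)) ↔
      Summable fun L : Cmp (F '' U)ᶜ => G ((corE h).symm L) (osc (F '' U)ᶜ φ L.1) := by
  rw [← (corE h).summable_iff]
  refine summable_congr fun K => ?_
  simp only [Function.comp_apply]
  rw [osc_comp h, Equiv.symm_apply_apply]

/-! ### integrals -/

theorem int_en (h : EndMap U (F '' U) F) (hF : Tra_937.Uni U F)
    (hφ : LocallyLipschitzOn (F '' U) φ) : ∫ z in U, en (φ ∘ F) z = ∫ w in F '' U, en φ w := by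
  have := hF.integral_en hF.op.measurableSet subset_rfl (fun _ => 1) (ae_of_loc h hφ)
  simp only [one_mul] at this
  exact this

theorem int_dot (h : EndMap U (F '' U) F) (hF : Tra_937.Uni U F)
    (hφ : LocallyLipschitzOn (F '' U) φ) (hψ : LocallyLipschitzOn (F '' U) ψ) :
    ∫ z in U, dot (φ ∘ F) (ψ ∘ F) z = ∫ w in F '' U, dot φ ψ w := by
  have := hF.integral_dot hF.op.measurableSet subset_rfl (fun _ => 1) (ae_of_loc h hφ)
    (ae_of_loc h hψ)
  simp only [one_mul] at this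
  exact this

theorem int_wdg (h : EndMap U (F '' U) F) (hF : Tra_937.Uni U F)
    (hφ : LocallyLipschitzOn (F '' U) φ) (hψ : LocallyLipschitzOn (F '' U) ψ) :
    ∫ z in U, wdg (φ ∘ F) (ψ ∘ F) z = ∫ w in F '' U, wdg φ ψ w := by
  have := hF.integral_wdg hF.op.measurableSet subset_rfl (fun _ => 1) (ae_of_loc h hφ)
    (ae_of_loc h hψ)
  simp only [one_mul] at this
  exact this

/-- E-L in the picture: `∫_U ∇x·∇(φ∘F) = ∫_V φ_x` for `x = Re F` on `U`. -/
theorem int_dot_re (h : EndMap U (F '' U) F) (hF : Tra_937.Uni U F) {x : ℂ → ℝ}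
    (hx : ∀ z ∈ U, x z = (F z).re) (hφ : LocallyLipschitzOn (F '' U) φ) :
    ∫ z in U, dot x (φ ∘ F) z = ∫ w in F '' U, gx φ w := by
  have h1 := hF.integral_dot_re hF.op.measurableSet subset_rfl (fun _ => 1) (ae_of_loc h hφ)
  simp only [one_mul] at h1
  refine Eq.trans ?_ h1
  refine setIntegral_congr_fun hF.op.measurableSet fun z hz => ?_
  have h2 : fderiv ℝ x z = fderiv ℝ (fun z => (F z).re) z :=
    Filter.EventuallyEq.fderiv_eq (by filter_upwards [hF.op.mem_nhds hz] with w hw using hx w hw)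
  show gx x z * _ + gy x z * _ = _
  unfold gx gy
  rw [h2]
  rfl

/-- the `T`-energy is invariant. -/
theorem et_comp (h : EndMap U (F '' U) F) (hF : Tra_937.Uni U F)
    (hφ : LocallyLipschitzOn (F '' U) φ) : ET Uᶜ (φ ∘ F) = ET (F '' U)ᶜ φ := by
  unfold ET
  rw [compl_compl, compl_compl, int_en h hF hφ, tsum_corE h fun t => t ^ 2]

/-! ### inverse direction -/

/-- a function on `V` from a function on `U`. -/
def push (h : EndMap U (F '' U) F) (u : ℂ → ℝ) : ℂ → ℝ := u ∘ h.inv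

theorem push_comp (h : EndMap U (F '' U) F) (u : ℂ → ℝ) {z : ℂ} (hz : z ∈ U) :
    push h u (F z) = u z := by
  unfold push
  rw [Function.comp_apply, h.inv_left hz]

theorem push_push (h : EndMap U (F '' U) F) (u : ℂ → ℝ) : EqOn (push h u ∘ F) u U :=
  fun _ hz => push_comp h u hz

theorem osc_push (h : EndMap U (F '' U) F) (u : ℂ → ℝ) (K : Cmp Uᶜ) :
    osc (F '' U)ᶜ (push h u) (corE h K).1 = osc Uᶜ u K.1 := by
  rw [← osc_comp h]
  refine osc_congr isOpen_univ (subset_univ _) fun z _ hz => ?_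
  exact push_comp h u (not_not.1 hz)

theorem loc_push (h : EndMap U (F '' U) F) (hF : Tra_937.Uni U F) {u : ℂ → ℝ}
    (hu : LocallyLipschitzOn U u) : LocallyLipschitzOn (F '' U) (push h u) := by
  rw [← hF.locLip_comp_iff]
  exact Tra_937.locLip_congr (push_push h u).symm hu

theorem q_push (h : EndMap U (F '' U) F) (hF : Tra_937.Uni U F) {u : ℂ → ℝ} (hu : Q Uᶜ u) :
    Q (F '' U)ᶜ (push h u) := by
  have hl : LocallyLipschitzOn U u := by have := hu.loc; rwa [compl_compl] at this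
  have hi : IntegrableOn (en u) U := by have := hu.fin; rwa [compl_compl] at this
  have hl' := loc_push h hF hl
  refine ⟨?_, ?_, ?_⟩
  · obtain ⟨M, hM⟩ := hu.bdd
    exact ⟨M, fun z => hM _⟩
  · rw [compl_compl]; exact hl'
  · rw [compl_compl]
    have h1 := (hF.integrableOn_en hF.op.measurableSet subset_rfl (fun _ => 1)
      (ae_of_loc h hl')).1 (by
        simp only [one_mul]
        refine hi.congr_fun (fun z hz => ?_) hF.op.measurableSet
        exact (Tra_937.en_congr hF.op (push_push h u) hz).symm)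
    simp only [one_mul] at h1
    exact h1

theorem tt_push (h : EndMap U (F '' U) F) (hF : Tra_937.Uni U F) {u : ℂ → ℝ} (hu : TT Uᶜ u) :
    TT (F '' U)ᶜ (push h u) := by
  refine ⟨q_push h hF hu.q, ?_⟩
  have h1 : (fun L : Cmp (F '' U)ᶜ => osc (F '' U)ᶜ (push h u) L.1 ^ 2)
      = (fun K : Cmp Uᶜ => osc Uᶜ u K.1 ^ 2) ∘ (corE h).symm := by
    funext L
    simp only [Function.comp_apply]
    rw [← osc_push h u, Equiv.apply_symm_apply]
  rw [h1, Equiv.summable_iff]
  exact hu.sum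

end

end Crest.Agent.R105.Ta_937
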