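import Crest.Agent.R105.LmS2_392
import Crest.Agent.R105.Ta2_937

/-!
# Row 105, S0138, E13, piece (1) of 499 #11166 : FORMULA and COUNT, part 1 (helper61)

* `stokes_cut` : `∫_U d(χ q) ∧ dy = ∫_U χ dq ∧ dy + ∫_U y dq ∧ dχ`
* `tendsto_chi` : `∫_U χ_n dq ∧ dy → 0` if `χ_n → 0` on `U`, supports in one ball
* `wdg_sq` : `d(g²) ∧ dχ = 2 g (θ(x) h'(u) du ∧ dχ + h(u) θ'(x) dx ∧ dχ)` for `g = h(u) θ(x) 1_O`
* `to_pic` : change of variables to a univalent picture
-/

set_option autoImplicit false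

open MeasureTheory Set Filter Topology Metric
open scoped ENNReal NNReal ContDiff

namespace Crest.Agent.R105.Fml_61

open Bd_775 LmS_392

noncomputable section

variable {U : Set ℂ} {χ q y g u x : ℂ → ℝ} {h th : ℝ → ℝ}

lemma wdg_mul_l {a b c : ℂ → ℝ} {z : ℂ} (ha : DifferentiableAt ℝ a z)
    (hb : DifferentiableAt ℝ b z) :
    wdg (fun w => a w * b w) c z = a z * wdg b c z + b z * wdg a c z := by
  unfold wdg; rw [gx_mul ha hb, gy_mul ha hb]; ring

lemma wdg_comm (a b : ℂ → ℝ) (z : ℂ) : wdg a b z = -wdg b a z := by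
  unfold wdg; ring

lemma wdg_const_l (c : ℝ) (b : ℂ → ℝ) (z : ℂ) : wdg (fun _ => c) b z = 0 := by
  unfold wdg; rw [gx_const, gy_const]; ring

lemma integrableOn_wdg_lc (hU : IsOpen U) (ha : LocallyLipschitzOn U q) (h1 : ContDiff ℝ 1 χ)
    (hc : HasCompactSupport χ) (hsub : tsupport (fderiv ℝ χ) ⊆ U) :
    IntegrableOn (wdg q χ) U :=
  ⟨(measurable_wdg _ _).aestronglyMeasurable, lt_top_iff_ne_top.2 (lint_wdg hU ha h1 hc hsub)⟩

/-- a weight which is continuous on `U` keeps the integrability against `dχ` -/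
lemma integrableOn_mul_wdg_lc (hU : IsOpen U) (ha : LocallyLipschitzOn U q)
    (hy : ContinuousOn y U) (h1 : ContDiff ℝ 1 χ)
    (hc : HasCompactSupport χ) (hsub : tsupport (fderiv ℝ χ) ⊆ U) :
    IntegrableOn (fun z => y z * wdg q χ z) U := by
  have hK := (hc.fderiv ℝ).isCompact
  obtain ⟨N, hN⟩ := hK.exists_bound_of_continuousOn (hy.mono hsub)
  have h2 : IntegrableOn (fun z => |N| * ‖wdg q χ z‖) U :=
    ((integrableOn_wdg_lc hU ha h1 hc hsub).norm).const_mul _
  refine Integrable.mono' h2 ((hy.aestronglyMeasurable hU.measurableSet).mul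
    (measurable_wdg _ _).aestronglyMeasurable) (Eventually.of_forall fun z => ?_)
  rw [norm_mul]
  by_cases hz : z ∈ tsupport (fderiv ℝ χ)
  · exact mul_le_mul_of_nonneg_right ((hN z hz).trans (le_abs_self N)) (norm_nonneg _)
  · have : wdg q χ z = 0 := by
      unfold wdg gx gy
      rw [image_eq_zero_of_notMem_tsupport hz]; simp
    rw [this]; simp

/-- **Stokes for the cut function** -/
theorem stokes_cut (hU : IsOpen U) (hq : LocallyLipschitzOn U q) (hy : LocallyLipschitzOn U y)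
    (hint : IntegrableOn (fun z => χ z * wdg q y z) U) (h1 : ContDiff ℝ 1 χ)
    (hc : HasCompactSupport χ) (hsub : tsupport (fderiv ℝ χ) ⊆ U) :
    ∫ z in U, wdg (fun w => χ w * q w) y z =
      (∫ z in U, χ z * wdg q y z) + ∫ z in U, y z * wdg q χ z := by
  have h2 := stokes hU (ll_mul' hq hy) h1 hc hsub
  have i1 := integrableOn_mul_wdg_lc hU hq hy.continuousOn h1 hc hsub
  have i2 := integrableOn_mul_wdg_lc hU hy hq.continuousOn h1 hc hsub
  have e1 : ∫ z in U, wdg (fun w => q w * y w) χ z =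
      (∫ z in U, q z * wdg y χ z) + ∫ z in U, y z * wdg q χ z := by
    rw [← integral_add i2 i1]
    refine integral_congr_ae ?_
    filter_upwards [Bd_775.ae_diff hU hq, Bd_775.ae_diff hU hy] with z h3 h4
    exact wdg_mul_l h3 h4
  have e2 : ∫ z in U, wdg (fun w => χ w * q w) y z =
      (∫ z in U, χ z * wdg q y z) - ∫ z in U, q z * wdg y χ z := by
    rw [← integral_sub hint i2]
    refine integral_congr_ae ?_
    filter_upwards [Bd_775.ae_diff hU hq] with z h3
    rw [wdg_mul_l (h1.differentiable one_ne_zero z) h3, wdg_comm χ y]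
    ring
  rw [e2]
  rw [e1] at h2
  linarith

/-- the interior term tends to zero -/
theorem tendsto_chi {X : ℕ → ℂ → ℝ} {R M : ℝ} (hU : IsOpen U)
    (hq : IntegrableOn (en q) (U ∩ ball 0 R)) (hy : IntegrableOn (en y) (U ∩ ball 0 R))
    (hXm : ∀ n, Continuous (X n)) (hX1 : ∀ n z, |X n z| ≤ M)
    (hXR : ∀ n z, z ∉ ball (0 : ℂ) R → X n z = 0)
    (hX0 : ∀ z ∈ U, Tendsto (fun n => X n z) atTop (𝓝 0)) :
    (∀ n, IntegrableOn (fun z => X n z * wdg q y z) U) ∧
    Tendsto (fun n => ∫ z in U, X n z * wdg q y z) atTop (𝓝 0) := by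
  have hS : MeasurableSet (U ∩ ball (0 : ℂ) R) := hU.measurableSet.inter measurableSet_ball
  set B : ℂ → ℝ := fun z => |M| * ((U ∩ ball (0 : ℂ) R).indicator (fun z => (en q z + en y z) / 2) z)
    with hB
  have iB : IntegrableOn B U := by
    refine Integrable.const_mul ?_ _
    have : Integrable ((U ∩ ball (0 : ℂ) R).indicator (fun z => (en q z + en y z) / 2)) := by
      rw [integrable_indicator_iff hS]
      exact (hq.add hy).div_const 2
    exact this.integrableOn
  have hle : ∀ n, ∀ᵐ z ∂(volume.restrict U), ‖X n z * wdg q y z‖ ≤ B z := by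
    intro n
    filter_upwards [ae_restrict_mem hU.measurableSet] with z hz
    rw [norm_mul, hB]
    beta_reduce
    by_cases hzR : z ∈ ball (0 : ℂ) R
    · have hm : z ∈ U ∩ ball (0 : ℂ) R := ⟨hz, hzR⟩
      rw [indicator_of_mem hm]
      exact mul_le_mul ((hX1 n z).trans (le_abs_self M)) (abs_wdg_le q y z) (norm_nonneg _)
        (abs_nonneg _)
    · rw [hXR n z hzR, norm_zero, zero_mul]
      refine mul_nonneg (abs_nonneg _) (indicator_nonneg (fun z _ => ?_) _)
      have h1 := en_nonneg q z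
      have h2 := en_nonneg y z
      positivity
  have hm : ∀ n, AEStronglyMeasurable (fun z => X n z * wdg q y z) (volume.restrict U) := fun n =>
    (hXm n).aestronglyMeasurable.mul (measurable_wdg _ _).aestronglyMeasurable
  refine ⟨fun n => Integrable.mono' iB (hm n) (hle n), ?_⟩
  have h3 := tendsto_integral_of_dominated_convergence (μ := volume.restrict U)
    (F := fun n z => X n z * wdg q y z) (f := fun _ => (0 : ℝ)) B hm iB hle ?_
  · simpa using h3
  · filter_upwards [ae_restrict_mem hU.measurableSet] with z hz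
    simpa using (hX0 z hz).mul_const (wdg q y z)

/-- a locally Lipschitz square has zero derivative at its zeros -/
lemma fderiv_sq_zero {z : ℂ} (hU : IsOpen U) (hg : LocallyLipschitzOn U g) (hz : z ∈ U)
    (h0 : g z = 0) : HasFDerivAt (fun w => g w ^ 2) (0 : ℂ →L[ℝ] ℝ) z := by
  obtain ⟨K, s, hs, hL⟩ := hg hz
  rw [hU.nhdsWithin_eq hz] at hs
  rw [hasFDerivAt_iff_isLittleO_nhds_zero]
  have h1 : ∀ᶠ v : ℂ in 𝓝 0, z + v ∈ s := by
    have : Tendsto (fun v : ℂ => z + v) (𝓝 0) (𝓝 z) := by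
      have h5 : Continuous fun v : ℂ => z + v := by fun_prop
      have h6 := h5.tendsto 0
      rwa [add_zero] at h6
    exact this hs
  have hO : (fun v : ℂ => g (z + v) ^ 2 - g z ^ 2 - (0 : ℂ →L[ℝ] ℝ) v) =O[𝓝 0]
      fun v : ℂ => ‖v‖ ^ 2 := by
    refine Asymptotics.IsBigO.of_bound ((K : ℝ) ^ 2) ?_
    filter_upwards [h1] with v hv
    have h2 := hL.dist_le_mul _ hv _ (mem_of_mem_nhds hs)
    rw [h0, Real.dist_eq, sub_zero, dist_eq_norm, add_sub_cancel_left] at h2
    rw [h0]
    simp only [ne_eq, OfNat.ofNat_ne_zero, not_false_eq_true, zero_pow, sub_zero,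
      _root_.zero_apply, norm_pow, Real.norm_eq_abs, abs_norm]
    calc |g (z + v)| ^ 2 ≤ (K * ‖v‖) ^ 2 := pow_le_pow_left₀ (abs_nonneg _) h2 2
      _ = _ := by ring
  refine hO.trans_isLittleO ?_
  have := Asymptotics.isLittleO_norm_pow_id (E' := ℂ) (n := 2) (by norm_num)
  exact this

/-- **the differential of `g²`**, `g = h(u) θ(x) 1_O` -/
theorem wdg_sq {z : ℂ} (hU : IsOpen U) (hg : LocallyLipschitzOn U g) (hz : z ∈ U)
    (hloc : g z ≠ 0 → ∀ᶠ w in 𝓝 z, g w = h (u w) * th (x w))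
    (hu : DifferentiableAt ℝ u z) (hx : DifferentiableAt ℝ x z)
    (hh : DifferentiableAt ℝ h (u z)) (hth : DifferentiableAt ℝ th (x z)) (χ : ℂ → ℝ) :
    wdg (fun w => g w ^ 2) χ z = deriv h (u z) * (2 * g z * th (x z)) * wdg u χ z +
      deriv th (x z) * (2 * g z * h (u z)) * wdg x χ z := by
  by_cases h0 : g z = 0
  · have h1 := (fderiv_sq_zero hU hg hz h0).fderiv
    have : wdg (fun w => g w ^ 2) χ z = 0 := by
      unfold wdg gx gy; rw [h1]; simp
    rw [this, h0]; ring
  · have h1 : (fun w => g w ^ 2) =ᶠ[𝓝 z] fun w => (h (u w) * th (x w)) * (h (u w) * th (x w)) := by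
      filter_upwards [hloc h0] with w hw
      rw [hw]; ring
    have hz1 : g z = h (u z) * th (x z) := (hloc h0).self_of_nhds
    have dhu : HasFDerivAt (fun w => h (u w)) (deriv h (u z) • fderiv ℝ u z) z :=
      hh.hasDerivAt.comp_hasFDerivAt z hu.hasFDerivAt
    have dtx : HasFDerivAt (fun w => th (x w)) (deriv th (x z) • fderiv ℝ x z) z :=
      hth.hasDerivAt.comp_hasFDerivAt z hx.hasFDerivAt
    have dp : DifferentiableAt ℝ (fun w => h (u w) * th (x w)) z :=
      dhu.differentiableAt.mul dtx.differentiableAt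
    rw [wdg_eq_of_eventuallyEq h1 (EventuallyEq.refl _ χ), wdg_mul_l dp dp,
      wdg_mul_l dhu.differentiableAt dtx.differentiableAt]
    have e1 : wdg (fun w => h (u w)) χ z = deriv h (u z) * wdg u χ z := by
      unfold wdg gx gy; rw [dhu.fderiv]
      simp only [FunLike.coe_smul, Pi.smul_apply, smul_eq_mul]; ring
    have e2 : wdg (fun w => th (x w)) χ z = deriv th (x z) * wdg x χ z := by
      unfold wdg gx gy; rw [dtx.fderiv]
      simp only [FunLike.coe_smul, Pi.smul_apply, smul_eq_mul]; ring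
    rw [e1, e2, hz1]; ring

/-- **change of variables to a univalent picture** -/
theorem to_pic {P : ℂ → ℂ} (hP : Tra_937.Uni U P) (G : ℝ → ℝ) (w : ℂ → ℝ)
    (hu : ∀ z ∈ U, u z = (P z).re) (hχ : LocallyLipschitzOn U χ) :
    ∫ z in U, G (u z) * w z * wdg u χ z =
      ∫ z in P '' U, G z.re * w (Tra_937.inv U P z) * gy (χ ∘ Tra_937.inv U P) z := by
  have hOp := hP.op
  have hl : LocallyLipschitzOn (P '' U) (χ ∘ Tra_937.inv U P) := by
    have := hP.symm.locLip_comp (u := χ) (by rw [hP.image_inv]; exact hχ)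
    exact this
  have h1 := hP.integral_wdg_re hOp.measurableSet subset_rfl
    (fun z => G z.re * w (Tra_937.inv U P z)) (w := χ ∘ Tra_937.inv U P)
    (Bd_775.ae_diff hP.isOpen_image hl)
  refine Eq.trans ?_ h1
  refine setIntegral_congr_fun hOp.measurableSet fun z hz => ?_
  have e1 : wdg u χ z = wdg (fun z => (P z).re) ((χ ∘ Tra_937.inv U P) ∘ P) z := by
    refine wdg_eq_of_eventuallyEq ?_ ?_
    · filter_upwards [hOp.mem_nhds hz] with v hv using hu v hv
    · filter_upwards [hOp.mem_nhds hz] with v hv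
      simp only [Function.comp_apply]
      rw [hP.inv_apply hv]
  rw [e1, hP.inv_apply hz, hu z hz]
  rfl

end

end Crest.Agent.R105.Fml_61
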