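import Crest.Agent.R105.Pct3_185
import Crest.Agent.R105.Elf3_600

/-!
# R105 PIC-T (4): from the minimality of `JT` on the z-plane to the picture with solids

`mint_of_JT`, `exists_LC_pull`, `picT_of_JT` (helper185).
-/

set_option autoImplicit false

open Set Filter MeasureTheory Metric
open scoped Topology NNReal ContDiff
open Crest.AnalysisR
open Crest.Agent.R105.Ends_897 (eF EndMap)

namespace Crest.Agent.R105.Pct_185

open Tc_808 Sqr_185
open Sct_636 (LCE ELId)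
open IfB_641 (X0)
open SelT_871 (JT)
open Tra_937 (Uni locLip_congr)

noncomputable section

variable {U : Set ℂ} {F : ℂ → ℂ} {x0 u : ℂ → ℝ}

/-- **minimality transported to the picture** -/
theorem mint_of_JT (h : EndMap U (F '' U) F) (hF : Uni U F) (hx0 : X0 Uᶜ x0) (hu : TT Uᶜ u)
    (hx : ∀ z ∈ U, x0 z + u z = (F z).re) {φ ψ : ℂ → ℝ}
    (hφ : LocallyLipschitzOn (F '' U) φ) (hψ : ∀ z ∈ U, ψ z = φ (F z)) (hψT : TT Uᶜ ψ)
    (hψc : HasCompactSupport ψ)
    (hmin : ∀ t : ℝ, JT Uᶜ x0 u ≤ JT Uᶜ x0 (fun z => u z + t * ψ z)) (τ : ℝ) :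
    MINT (F '' U)ᶜ (fun w => τ * φ w) := by
  have hUc : IsCompact Uᶜ := Ends_897.isCompact_compl h.hU
  have hYc : IsClosed Uᶜ := hUc.isClosed
  have hφτ : LocallyLipschitzOn (F '' U) (fun w => τ * φ w) := by
    intro z hz
    obtain ⟨K, t, ht, hK⟩ := hφ hz
    refine ⟨‖τ‖₊ * K, t, ht, LipschitzOnWith.of_dist_le_mul fun a ha b hb => ?_⟩
    have h1 := hK.dist_le_mul a ha b hb
    rw [Real.dist_eq, ← mul_sub, abs_mul]
    rw [Real.dist_eq] at h1
    calc |τ| * |φ a - φ b| ≤ |τ| * (K * dist a b) := mul_le_mul_of_nonneg_left h1 (abs_nonneg _)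
      _ = ((‖τ‖₊ * K : ℝ≥0) : ℝ) * dist a b := by
          rw [NNReal.coe_mul, coe_nnnorm, Real.norm_eq_abs]; ring
  rw [← minz_iff h hF (x := fun z => x0 z + u z) (ψ := fun z => τ * ψ z) hx hφτ
    (fun z hz => by rw [hψ z hz])]
  have h1 := Elf_600.minAt_JT hYc hx0 hu hψT hmin τ
  rw [Elf_600.a_eq hUc hx0 hu.q hψT.q hψc] at h1
  have hsumτ : TT Uᶜ (fun z => u z + τ * ψ z) := by
    have h2 : TT Uᶜ (fun z => τ * ψ z) := (TT.const τ).mul hYc hψT
    exact hu.add hYc h2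
  -- oscillations do not see `x0`
  have hosc : ∀ (v : ℂ → ℝ) (K : Cmp Uᶜ), osc Uᶜ (fun z => x0 z + v z) K.1 = osc Uᶜ v K.1 := by
    intro v K
    refine osc_congr (isClosed_tsupport x0).isOpen_compl (fun z hz hz' => hx0.zero hz' (K.subset hz))
      fun z hz _ => ?_
    have : x0 z = 0 := image_eq_zero_of_notMem_tsupport hz
    rw [this, zero_add]
  have e0 : ∀ K : Cmp Uᶜ, osc Uᶜ (fun z => (x0 z + u z) + τ * ψ z) K.1
      = osc Uᶜ (fun z => u z + τ * ψ z) K.1 := by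
    intro K
    rw [← hosc (fun z => u z + τ * ψ z) K]
    congr 1
    funext z
    ring
  have e1 : ∑' K : Cmp Uᶜ, (osc Uᶜ (fun z => (x0 z + u z) + τ * ψ z) K.1 ^ 2
      - osc Uᶜ (fun z => x0 z + u z) K.1 ^ 2)
      = ∑' K : Cmp Uᶜ, osc Uᶜ (fun z => u z + τ * ψ z) K.1 ^ 2
        - ∑' K : Cmp Uᶜ, osc Uᶜ u K.1 ^ 2 := by
    rw [← hsumτ.sum.tsum_sub hu.sum]
    exact tsum_congr fun K => by rw [e0 K, hosc u K]
  have e2 : ∫ z in U, Tra_937.dot (fun z => x0 z + u z) (fun z => τ * ψ z) z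
      = τ * ∫ z in Uᶜᶜ, Bd_775.dot (fun w => x0 w + u w) ψ z := by
    rw [compl_compl, ← integral_const_mul]
    congr 1
    funext z
    have h3 := congrFun (fderiv_const_smul_field (𝕜 := ℝ) (f := ψ) τ) z
    have h4 : fderiv ℝ (fun z => τ * ψ z) z = τ • fderiv ℝ ψ z := h3
    simp only [Tra_937.dot, Bd_775.dot, Tra_937.gx, Tra_937.gy, Bd_775.gx, Bd_775.gy]
    rw [h4]
    simp only [_root_.smul_apply, smul_eq_mul]
    ring
  have e3 : ∫ z in U, Tra_937.en (fun z => τ * ψ z) z = τ ^ 2 * IfB_641.di Uᶜ ψ ψ := by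
    unfold IfB_641.di
    rw [compl_compl, ← integral_const_mul]
    congr 1
    funext z
    have h3 := congrFun (fderiv_const_smul_field (𝕜 := ℝ) (f := ψ) τ) z
    have h4 : fderiv ℝ (fun z => τ * ψ z) z = τ • fderiv ℝ ψ z := h3
    simp only [Tra_937.en, Bd_775.dot, Tra_937.gx, Tra_937.gy, Bd_775.gx, Bd_775.gy]
    rw [h4]
    simp only [_root_.smul_apply, smul_eq_mul]
    ring
  unfold MINZ
  rw [e1, e2, e3]
  linarith

/-! ### pulling back locally constant functions -/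

/-- a locally constant cut-off of the picture pulls back to one of the z-plane -/
theorem exists_LC_pull (h : EndMap U (F '' U) F) (hF : Uni U F) {χ : ℂ → ℝ}
    (hχ : LCE (F '' U)ᶜ χ) :
    ∃ χ' : ℂ → ℝ, Bd_775.LC Uᶜ χ' ∧ HasCompactSupport χ' ∧ ∀ z ∈ U, χ' z = χ (F z) := by
  classical
  have hUc : IsCompact Uᶜ := Ends_897.isCompact_compl h.hU
  have hYE : IsExteriorDomain (Uᶜ)ᶜ := by rw [compl_compl]; exact h.hU
  set χ' : ℂ → ℝ := fun z => if hz : z ∈ Uᶜ then χ (pt (eqv h (Cmp.of hz))) else χ (F z) with hχ'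
  have hin : ∀ z ∈ U, χ' z = χ (F z) := fun z hz => dif_neg (not_not.2 hz)
  -- locally constant near `Uᶜ`
  have hlc : ∀ z ∈ Uᶜ, ∀ᶠ w in 𝓝 z, χ' w = χ' z := by
    intro z hz
    set K : Cmp Uᶜ := Cmp.of hz with hK
    obtain ⟨c, P, hP, hKP, hc⟩ := LCE.near hχ (eqv h K)
    have hzc : χ' z = c := by
      have h1 : χ' z = χ (pt (eqv h K)) := dif_pos hz
      rw [h1]
      exact hc _ (hKP (pt_mem _))
    obtain ⟨O, hO, hKO, hsub⟩ := exists_nhd_of h K hP hKP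
    have hnb : Ni_459.Nb Uᶜ z O :=
      Ni_459.nb_of_mem hz hO (by exact hKO)
    obtain ⟨O', hO'O, hnb', hall⟩ := hnb.shrink hUc
    filter_upwards [hnb'.op.mem_nhds hnb'.mem] with w hw
    rw [hzc]
    by_cases hwU : w ∈ U
    · rw [hin w hwU]
      exact hc _ (hsub w (hO'O hw) hwU)
    · -- `w` in another component inside `O`
      have hwY : w ∈ Uᶜ := hwU
      have h1 : χ' w = χ (pt (eqv h (Cmp.of hwY))) := dif_pos hwY
      rw [h1]
      set K' : Cmp Uᶜ := Cmp.of hwY with hK'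
      obtain ⟨c', P', hP', hKP', hc'⟩ := LCE.near hχ (eqv h K')
      obtain ⟨O₂, hO₂, hKO₂, hsub₂⟩ := exists_nhd_of h K' hP' hKP'
      have h2 : Ni_459.Nb Uᶜ w (O ∩ O₂) :=
        (hall w hw).inter (Ni_459.nb_of_mem hwY hO₂ (by exact hKO₂))
      obtain ⟨q, hq1, hq2⟩ := h2.nonempty hYE
      have hqU : q ∈ U := not_not.1 hq2
      have h3 : χ (F q) = c := hc _ (hsub q hq1.1 hqU)
      have h4 : χ (F q) = c' := hc' _ (hsub₂ q hq1.2 hqU)
      rw [hc' _ (hKP' (pt_mem _)), ← h4, h3]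
  -- locally Lipschitz
  have hlip : LocallyLipschitz χ' := by
    intro z
    by_cases hz : z ∈ U
    · have h1 : LocallyLipschitzOn (F '' U) χ :=
        ((hχ.smooth.of_le (by simp : (1 : WithTop ℕ∞) ≤
          ((⊤ : ℕ∞) : WithTop ℕ∞))).locallyLipschitz).locallyLipschitzOn
      obtain ⟨K, t, ht, hK⟩ := (locLip_congr (fun z hz => (hin z hz).symm) (hF.locLip_comp h1)) hz
      rw [hF.op.nhdsWithin_eq hz] at ht
      exact ⟨K, t, ht, hK⟩
    · have hzY : z ∈ Uᶜ := hz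
      refine ⟨0, {w | χ' w = χ' z}, hlc z hzY, ?_⟩
      intro a ha b hb
      have ha' : χ' a = χ' z := ha
      have hb' : χ' b = χ' z := hb
      rw [ha', hb', edist_self]
      exact zero_le
  -- compact support
  have hcs : HasCompactSupport χ' := by
    obtain ⟨R, hR⟩ := hχ.supp.isCompact.isBounded.subset_closedBall (0 : ℂ)
    have h1 : ∀ᶠ z in cocompact ℂ, F z ∈ (closedBall (0 : ℂ) R)ᶜ :=
      h.inf (isCompact_closedBall (0 : ℂ) R).compl_mem_cocompact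
    have h2 : ∀ᶠ z in cocompact ℂ, z ∈ U := by
      have := hUc.compl_mem_cocompact
      rwa [compl_compl] at this
    obtain ⟨T, hT, hTs⟩ := mem_cocompact.1 (h1.and h2)
    refine HasCompactSupport.of_support_subset_isCompact hT fun z hz => ?_
    by_contra hzT
    obtain ⟨h3, h4⟩ := hTs hzT
    apply hz
    rw [hin z h4]
    exact image_eq_zero_of_notMem_tsupport fun hc => h3 (hR hc)
  exact ⟨χ', Bd_775.LC.of_compact hlip hcs hlc, hcs, hin⟩

/-! ### connectivity -/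

lemma image_gt (t : ℝ) : (F '' U)ᶜᶜ ∩ {w : ℂ | t < w.re} = F '' {z | z ∈ U ∧ t < (F z).re} := by
  rw [compl_compl]
  ext w
  constructor
  · rintro ⟨⟨z, hz, rfl⟩, h2⟩
    exact ⟨z, ⟨hz, h2⟩, rfl⟩
  · rintro ⟨z, ⟨hz, h2⟩, rfl⟩
    exact ⟨mem_image_of_mem F hz, h2⟩

lemma image_lt (t : ℝ) : (F '' U)ᶜᶜ ∩ {w : ℂ | w.re < t} = F '' {z | z ∈ U ∧ (F z).re < t} := by
  rw [compl_compl]
  ext w
  constructor
  · rintro ⟨⟨z, hz, rfl⟩, h2⟩
    exact ⟨z, ⟨hz, h2⟩, rfl⟩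
  · rintro ⟨z, ⟨hz, h2⟩, rfl⟩
    exact ⟨mem_image_of_mem F hz, h2⟩

/-- connectivity for a dense set of levels gives all levels -/
lemma preconn_gt_of_dense (hC : ∀ a b : ℝ, a < b → ∃ t ∈ Ioo a b,
    IsPreconnected {z | z ∈ U ∧ t < (F z).re}) (t : ℝ) :
    IsPreconnected {z | z ∈ U ∧ t < (F z).re} := by
  have h1 : {z | z ∈ U ∧ t < (F z).re} = ⋃₀ {A : Set ℂ | ∃ s : ℝ, t < s ∧
      IsPreconnected {z | z ∈ U ∧ s < (F z).re} ∧ A = {z | z ∈ U ∧ s < (F z).re}} := by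
    ext z
    simp only [mem_ofPred_eq, mem_sUnion]
    constructor
    · rintro ⟨h1, h2⟩
      obtain ⟨s, hs, hp⟩ := hC t (F z).re h2
      exact ⟨_, ⟨s, hs.1, hp, rfl⟩, h1, hs.2⟩
    · rintro ⟨A, ⟨s, h1, -, rfl⟩, h2, h3⟩
      exact ⟨h2, h1.trans h3⟩
  rw [h1]
  refine IsPreconnected.sUnion_directed ?_ ?_
  · rintro A ⟨s, hs, hp, rfl⟩ B ⟨s', hs', hp', rfl⟩
    rcases le_total s s' with h | h
    · exact ⟨_, ⟨s, hs, hp, rfl⟩, subset_rfl, fun z hz => ⟨hz.1, h.trans_lt hz.2⟩⟩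
    · exact ⟨_, ⟨s', hs', hp', rfl⟩, fun z hz => ⟨hz.1, h.trans_lt hz.2⟩, subset_rfl⟩
  · rintro A ⟨s, hs, hp, rfl⟩
    exact hp

lemma preconn_lt_of_dense (hC : ∀ a b : ℝ, a < b → ∃ t ∈ Ioo a b,
    IsPreconnected {z | z ∈ U ∧ (F z).re < t}) (t : ℝ) :
    IsPreconnected {z | z ∈ U ∧ (F z).re < t} := by
  have h1 : {z | z ∈ U ∧ (F z).re < t} = ⋃₀ {A : Set ℂ | ∃ s : ℝ, s < t ∧
      IsPreconnected {z | z ∈ U ∧ (F z).re < s} ∧ A = {z | z ∈ U ∧ (F z).re < s}} := by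
    ext z
    simp only [mem_ofPred_eq, mem_sUnion]
    constructor
    · rintro ⟨h1, h2⟩
      obtain ⟨s, hs, hp⟩ := hC (F z).re t h2
      exact ⟨_, ⟨s, hs.2, hp, rfl⟩, h1, hs.1⟩
    · rintro ⟨A, ⟨s, h1, -, rfl⟩, h2, h3⟩
      exact ⟨h2, h3.trans h1⟩
  rw [h1]
  refine IsPreconnected.sUnion_directed ?_ ?_
  · rintro A ⟨s, hs, hp, rfl⟩ B ⟨s', hs', hp', rfl⟩
    rcases le_total s s' with h | h
    · exact ⟨_, ⟨s', hs', hp', rfl⟩, fun z hz => ⟨hz.1, hz.2.trans_le h⟩, subset_rfl⟩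
    · exact ⟨_, ⟨s, hs, hp, rfl⟩, subset_rfl, fun z hz => ⟨hz.1, hz.2.trans_le h⟩⟩
  · rintro A ⟨s, hs, hp, rfl⟩
    exact hp

/-! ### the theorem -/

/-- **the picture with solids, from the z-plane.** `x = x0 + u = re F` minimises
`JT = J + Σ osc²` along `u + t ψ` for all admissible `ψ`; admissible are `χ G(x)` and every
`T`-finite compactly supported `ψ` which near all components but one is `θ(x)` or `0`. -/
theorem picT_of_JT (h : EndMap U (F '' U) F) (hF : Uni U F) (hx0 : X0 Uᶜ x0) (hu : TT Uᶜ u)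
    (hx : ∀ z ∈ U, x0 z + u z = (F z).re)
    (hC1 : ∀ a b : ℝ, a < b → ∃ t ∈ Ioo a b, IsPreconnected {z | z ∈ U ∧ t < (F z).re})
    (hC2 : ∀ a b : ℝ, a < b → ∃ t ∈ Ioo a b, IsPreconnected {z | z ∈ U ∧ (F z).re < t})
    {adm : (ℂ → ℝ) → Prop}
    (hmin : ∀ ψ, adm ψ → TT Uᶜ ψ → HasCompactSupport ψ →
      ∀ t : ℝ, JT Uᶜ x0 u ≤ JT Uᶜ x0 (fun z => u z + t * ψ z))
    (hA : ∀ (χ : ℂ → ℝ) (G : ℝ → ℝ), Bd_775.LC Uᶜ χ → HasCompactSupport χ → ContDiff ℝ ∞ G →
      HasCompactSupport (deriv G) → adm (fun z => χ z * G (x0 z + u z)))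
    (hB : ∀ (ψ : ℂ → ℝ) (θ : ℝ → ℝ) (K₀ : Cmp Uᶜ), ContDiff ℝ ∞ θ → HasCompactSupport θ →
      TT Uᶜ ψ → HasCompactSupport ψ → (∀ L : Cmp Uᶜ, L ≠ K₀ →
        (∃ O, IsOpen O ∧ L.1 ⊆ O ∧ ∀ z ∈ O, z ∈ U → ψ z = θ (x0 z + u z)) ∨
        (∃ O, IsOpen O ∧ L.1 ⊆ O ∧ ∀ z ∈ O, z ∈ U → ψ z = 0)) → adm ψ) :
    PicT (F '' U)ᶜ := by
  classical
  have hUc : IsCompact Uᶜ := Ends_897.isCompact_compl h.hU
  have hE : IsCompact (F '' U)ᶜ := Ends_897.isCompact_compl h.hV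
  have hcont : ContinuousOn F U := h.cont
  have hsum : Summable fun L : Cmp (F '' U)ᶜ => wd L.1 ^ 2 := by
    refine summable_wd h hx ?_
    refine hu.sum.congr fun K => ?_
    congr 1
    refine osc_congr (isClosed_tsupport x0).isOpen_compl
      (fun z hz hz' => hx0.zero hz' (K.subset hz)) fun z hz _ => ?_
    have : x0 z = 0 := image_eq_zero_of_notMem_tsupport hz
    rw [this, zero_add]
  refine picT_of_min hE hsum
    (fun t => unbdd_right hE (by
      rw [image_gt]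
      exact (preconn_gt_of_dense hC1 t).image F (hcont.mono fun z hz => hz.1)))
    (fun t => unbdd_left hE (by
      rw [image_lt]
      exact (preconn_lt_of_dense hC2 t).image F (hcont.mono fun z hz => hz.1))) ?_ ?_
  · -- family A
    intro G χ hG hG' hχ
    obtain ⟨χ', h1, h2, h3⟩ := exists_LC_pull h hF hχ
    refine ⟨1, one_pos, fun τ _ => ?_⟩
    obtain ⟨Λ, hΛ⟩ := lip_of_deriv hG hG'
    obtain ⟨t1, t2, -⟩ := Elf_600.test_chiG hUc hx0 hu h1 h2 hΛ
    refine mint_of_JT h hF hx0 hu hx (φ := fun w => G w.re * χ w)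
      (ψ := fun z => χ' z * G (x0 z + u z)) ?_ ?_ t1 t2 (hmin _ (hA χ' G h1 h2 hG hG') t1 t2) τ
    · have := (TT_A hE hsum hG hG' hχ).q.loc
      rwa [compl_compl] at this
    · intro z hz
      rw [h3 z hz, hx z hz]
      ring
  · -- family B
    intro K hK0 hKs θ hθ hθc hθs κ hκ hκc hκE
    refine ⟨1, one_pos, fun τ _ => ?_⟩
    have hord : ∀ L : Cmp (F '' U)ᶜ, ∀ t, OrdConnected (sec L.1 t) := by
      intro L t
      have h5 := Sct_636.sec_ordConnected hE (t := t)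
        (unbdd_right hE (by
          rw [image_gt]
          exact (preconn_gt_of_dense hC1 t).image F (hcont.mono fun z hz => hz.1)))
        (unbdd_left hE (by
          rw [image_lt]
          exact (preconn_lt_of_dense hC2 t).image F (hcont.mono fun z hz => hz.1))) (pt L)
      rw [cc_pt] at h5
      exact h5
    set φ : ℂ → ℝ := fun z => up K.1 θ z * κ z.im with hφ
    have hTT : TT (F '' U)ᶜ φ := TT_B hE hord hsum hθ hθc hθs hκ hκc hκE
    set ψ : ℂ → ℝ := fun z => if z ∈ U then φ (F z) else 0 with hψ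
    have hψU : ∀ z ∈ U, ψ z = φ (F z) := fun z hz => if_pos hz
    have hψb : ∃ M, ∀ z, |ψ z| ≤ M := by
      obtain ⟨M, hM⟩ := hTT.q.bdd
      refine ⟨M, fun z => ?_⟩
      by_cases hz : z ∈ U
      · rw [hψU z hz]; exact hM _
      · simp only [hψ, if_neg hz, abs_zero]
        exact (abs_nonneg _).trans (hM 0)
    have hψT : TT Uᶜ ψ := TT_pull h hF hψU hψb hTT
    have hψc : HasCompactSupport ψ := by
      have hT : IsCompact ((fun q : ℝ × ℝ => (⟨q.1, q.2⟩ : ℂ)) '' (tsupport θ ×ˢ tsupport κ)) :=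
        (hθc.isCompact.prod hκc.isCompact).image continuous_mk
      have h1 : ∀ᶠ z in cocompact ℂ, F z ∈
          ((fun q : ℝ × ℝ => (⟨q.1, q.2⟩ : ℂ)) '' (tsupport θ ×ˢ tsupport κ))ᶜ :=
        h.inf hT.compl_mem_cocompact
      obtain ⟨T, hT', hTs⟩ := mem_cocompact.1 h1
      refine HasCompactSupport.of_support_subset_isCompact hT' fun z hz => ?_
      by_contra hzT
      have h3 := hTs hzT
      apply hz
      by_cases hzU : z ∈ U
      · rw [hψU z hzU]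
        simp only [hφ]
        by_cases h4 : (F z).im ∈ tsupport κ
        · have h5 : (F z).re ∉ tsupport θ := fun hc =>
            h3 ⟨((F z).re, (F z).im), ⟨hc, h4⟩, rfl⟩
          have h6 : up K.1 θ (F z) = 0 := by
            rcases up_mem (K := K.1) (θ := θ) (F z) with h7 | h7
            · rw [h7]; exact image_eq_zero_of_notMem_tsupport h5
            · exact h7
          rw [h6, zero_mul]
        · rw [image_eq_zero_of_notMem_tsupport h4, mul_zero]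
      · exact if_neg hzU
    have hadm : adm ψ := by
      refine hB ψ θ ((eqv h).symm K) hθ hθc hψT hψc fun L hL => ?_
      have hL' : eqv h L ≠ K := fun hc => hL (by rw [← hc, Equiv.symm_apply_apply])
      rcases near_B (K := K) (θ := θ) (κ := κ) hE hord hθs hκE hL' with h1 | h1
      · left
        have h2 : (eqv h L).1 ⊆ interior {z | up K.1 θ z * κ z.im = θ z.re} := fun p hp =>
          mem_interior_iff_mem_nhds.2 (h1 p hp)
        obtain ⟨O, hO, hLO, hsub⟩ := exists_nhd_of h L isOpen_interior h2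
        refine ⟨O, hO, hLO, fun z hz hzU => ?_⟩
        have h3 := interior_subset (hsub z hz hzU)
        have h4 : up K.1 θ (F z) * κ (F z).im = θ (F z).re := h3
        rw [hψU z hzU, hx z hzU]
        exact h4
      · right
        have h2 : (eqv h L).1 ⊆ interior {z | up K.1 θ z * κ z.im = 0} := fun p hp =>
          mem_interior_iff_mem_nhds.2 (h1 p hp)
        obtain ⟨O, hO, hLO, hsub⟩ := exists_nhd_of h L isOpen_interior h2
        refine ⟨O, hO, hLO, fun z hz hzU => ?_⟩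
        have h3 := interior_subset (hsub z hz hzU)
        have h4 : up K.1 θ (F z) * κ (F z).im = 0 := h3
        rw [hψU z hzU]
        exact h4
    refine mint_of_JT h hF hx0 hu hx (φ := φ) (ψ := ψ) ?_ hψU hψT hψc
      (hmin ψ hadm hψT hψc) τ
    have := hTT.q.loc
    rwa [compl_compl] at this

end

end Crest.Agent.R105.Pct_185
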