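import Crest.Agent.R105.Fml1_61
import Crest.Agent.R105.Pct4_185
import Crest.Agent.R105.Dir3_508

/-!
# Row 105, S0138, E13, piece (1) of 499 #11166, part 2 (helper61): cut-off sequences

`ChnE E K χ` : smooth cut-off functions, locally constant near `E`, `= 1` on the component `K`,
with supports shrinking to `K`.
* `exists_chn` : existence
* `chn_pull`, `chn_push` : transport by an `EndMap` (z-plane ↔ picture)
* `exists_chn3` : one sequence with its two pictures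
-/

set_option autoImplicit false

open MeasureTheory Set Filter Topology Metric
open scoped ENNReal NNReal ContDiff

namespace Crest.Agent.R105.Fml_61

open Bd_775 Tc_808 Ends_897 Crest.AnalysisR
open Sct_636 (LCE)
open Ta_937 (corE map_corE)
open Pct_185 (eqv exists_nhd_of map_eK eK_injective)

noncomputable section

variable {E U V K : Set ℂ} {F P : ℂ → ℂ} {χ : ℕ → ℂ → ℝ}

/-- cut-off sequences of the component `K` of `E` -/
structure ChnE (E K : Set ℂ) (χ : ℕ → ℂ → ℝ) : Prop where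
  lce : ∀ n, LCE E (χ n)
  c01 : ∀ n z, χ n z ∈ Icc (0 : ℝ) 1
  one : ∀ n, ∀ z ∈ K, χ n z = 1
  sh : ∀ N, IsOpen N → K ⊆ N → ∀ᶠ n in atTop, tsupport (χ n) ⊆ N

lemma ChnE.sm (h : ChnE E K χ) (n : ℕ) : ContDiff ℝ 1 (χ n) := (h.lce n).smooth.of_le (by simp)

lemma ChnE.lc (h : ChnE E K χ) (n : ℕ) : ∀ z ∈ E, ∀ᶠ x in 𝓝 z, χ n x = χ n z := (h.lce n).lc

/-- all supports lie in one ball -/
lemma ChnE.cs (h : ChnE E K χ) (hK : IsCompact K) :
    ∃ R, ∀ n, tsupport (χ n) ⊆ closedBall (0 : ℂ) R := by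
  obtain ⟨r, hr⟩ := hK.isBounded.exists_norm_le
  have h1 := h.sh (ball 0 (r + 1)) isOpen_ball fun z hz => by
    rw [mem_ball_zero_iff]; linarith [hr z hz]
  obtain ⟨n0, hn0⟩ := eventually_atTop.1 h1
  have hb : Bornology.IsBounded (⋃ n ∈ Finset.range n0, tsupport (χ n)) :=
    (Bornology.isBounded_biUnion_finset _).2 fun n _ => ((h.lce n).supp.isCompact).isBounded
  obtain ⟨r', hr'⟩ := hb.exists_norm_le
  refine ⟨max (r + 1) r', fun n z hz => ?_⟩
  rw [mem_closedBall_zero_iff]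
  rcases lt_or_ge n n0 with hn | hn
  · exact (hr' z (mem_biUnion (Finset.mem_coe.2 (Finset.mem_range.2 hn)) hz)).trans
      (le_max_right _ _)
  · have := hn0 n hn hz
    rw [mem_ball_zero_iff] at this
    exact this.le.trans (le_max_left _ _)

lemma ChnE.dsupp (h : ChnE E K χ) (n : ℕ) : tsupport (fderiv ℝ (χ n)) ⊆ Eᶜ := by
  have h1 : LmS_392.Lc1 E (χ n) := ⟨h.sm n, h.lc n⟩
  exact h1.tsupp

/-- off `K` the sequence tends to zero -/
lemma ChnE.tendsto_zero (h : ChnE E K χ) {z : ℂ} (hz : z ∉ K) :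
    ∀ᶠ n in atTop, χ n z = 0 := by
  filter_upwards [h.sh {z}ᶜ isOpen_compl_singleton fun w hw hwz => hz (hwz ▸ hw)] with n hn
  exact image_eq_zero_of_notMem_tsupport fun h1 => hn h1 rfl

/-- clopen neighbourhoods -/
lemma exists_sep (hE : IsCompact E) (K : Cmp E) {N : Set ℂ} (hN : IsOpen N) (hKN : K.1 ⊆ N) :
    ∃ B N1 : Set ℂ, IsCompact B ∧ IsCompact (E \ B) ∧ B ⊆ E ∧ K.1 ⊆ B ∧ IsOpen N1 ∧ B ⊆ N1 ∧
      closure N1 ⊆ N ∧ Disjoint (closure N1) (E \ B) := by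
  obtain ⟨K, z, hz, rfl⟩ := K
  obtain ⟨B, h1, h2, h3, h4, h5⟩ := exists_clopen hE hz hN hKN
  obtain ⟨N1, g1, g2, -, g4⟩ := exists_nhd h1 ((h2.isClosed).union hN.isClosed_compl)
    (disjoint_left.2 fun w hw hw' => by
      rcases hw' with hw' | hw'
      · exact hw'.2 hw
      · exact hw' (h5 hw))
  refine ⟨B, N1, h1, h2, h3, h4, g1, g2, fun w hw => ?_, disjoint_left.2 fun w hw hw' =>
    disjoint_left.1 g4 hw (Or.inl hw')⟩
  by_contra h6
  exact disjoint_left.1 g4 hw (Or.inr h6)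

theorem exists_chn (hE : IsCompact E) (K : Cmp E) : ∃ χ : ℕ → ℂ → ℝ, ChnE E K.1 χ := by
  have key : ∀ n : ℕ, ∃ f : ℂ → ℝ, LCE E f ∧ (∀ z, f z ∈ Icc (0 : ℝ) 1) ∧ (∀ z ∈ K.1, f z = 1) ∧
      tsupport f ⊆ thickening (1 / ((n : ℝ) + 1)) K.1 := by
    intro n
    obtain ⟨B, N1, h1, h2, h3, h4, g1, g2, g3, g4⟩ := exists_sep hE K
      (isOpen_thickening (δ := 1 / ((n : ℝ) + 1)) (E := K.1))
      (self_subset_thickening (by positivity) _)
    obtain ⟨f, f1, f2, f3, f4, f5⟩ := Dir_508.exists_cutoff h1 g1 g2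
    have e1 : ∀ z ∈ B, ∀ᶠ w in 𝓝 z, f w = 1 := eventually_nhdsSet_iff_forall.1 f4
    refine ⟨f, ⟨f1, f2, fun z hz => ?_⟩, f5, fun z hz => (e1 z (h4 hz)).self_of_nhds,
      f3.trans (subset_closure.trans g3)⟩
    by_cases hzB : z ∈ B
    · have h6 := e1 z hzB
      filter_upwards [h6] with w hw
      rw [hw, h6.self_of_nhds]
    · have h6 : z ∉ tsupport f := fun h7 => disjoint_left.1 g4 (subset_closure (f3 h7)) ⟨hz, hzB⟩
      have h7 := notMem_tsupport_iff_eventuallyEq.1 h6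
      filter_upwards [h7] with w hw
      rw [hw, h7.self_of_nhds]
      rfl
  choose f a1 a2 a3 a4 using key
  refine ⟨f, a1, a2, a3, fun N hN hKN => ?_⟩
  obtain ⟨δ, hδ, hsub⟩ := (K.isCompact hE).exists_thickening_subset_open hN hKN
  filter_upwards [tendsto_one_div_add_atTop_nhds_zero_nat.eventually (gt_mem_nhds hδ)] with n hn
  exact (a4 n).trans ((thickening_mono hn.le _).trans hsub)

lemma eqv_eq (h : EndMap U V F) (K : Cmp Uᶜ) : eqv h K = corE h K := by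
  apply eK_injective h.hV
  rw [← map_eK h K, ← map_corE h K]

/-- a cut-off of the picture pulls back to one of the z-plane -/
theorem exists_lce_pull (h : EndMap U V F) (hF : Tra_937.Uni U F) {f : ℂ → ℝ}
    (hf : LCE Vᶜ f) :
    ∃ f' : ℂ → ℝ, LCE Uᶜ f' ∧ (∀ z ∈ U, f' z = f (F z)) ∧
      ∀ K : Cmp Uᶜ, ∀ z ∈ K.1, ∀ w ∈ (corE h K).1, f' z = f w := by
  obtain rfl := h.img
  obtain ⟨f', h1, h2, h3⟩ := Pct_185.exists_LC_pull h hF hf
  have hUc : IsCompact Uᶜ := Ends_897.isCompact_compl h.hU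
  have hYE : IsExteriorDomain (Uᶜ)ᶜ := by rw [compl_compl]; exact h.hU
  refine ⟨f', ⟨?_, h2, h1.lc⟩, h3, fun K z hz w hw => ?_⟩
  · rw [contDiff_iff_contDiffAt]
    intro z
    by_cases hz : z ∈ U
    · have e1 : f' =ᶠ[𝓝 z] fun w => f (F w) := by
        filter_upwards [hF.op.mem_nhds hz] with w hw using h3 w hw
      refine ContDiffAt.congr_of_eventuallyEq ?_ e1
      have h4 : ContDiffAt ℂ ∞ F z := (hF.hol.contDiffOn hF.op).contDiffAt (hF.op.mem_nhds hz)
      exact hf.smooth.contDiffAt.comp z (h4.restrict_scalars ℝ)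
    · have e1 : f' =ᶠ[𝓝 z] fun _ => f' z := h1.lc z hz
      exact contDiffAt_const.congr_of_eventuallyEq e1
  · obtain ⟨c, O, hO, hKO, hc⟩ := Tc_808.LC.const_near h1 K.preconn K.subset
    obtain ⟨c', P, hP, hKP, hc'⟩ := Pct_185.LCE.near hf (corE h K)
    obtain ⟨O₂, hO₂, hKO₂, hsub₂⟩ := exists_nhd_of h K hP (by rw [eqv_eq]; exact hKP)
    have hzY : z ∈ Uᶜ := K.subset hz
    have hK : connectedComponentIn Uᶜ z = K.1 := by
      rw [K.eq_of_mem hz]; rfl
    have hnb : Ni_459.Nb Uᶜ z (O ∩ O₂) :=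
      Ni_459.nb_of_mem hzY (hO.inter hO₂) (by
        have : K.1 ⊆ O ∩ O₂ := subset_inter hKO hKO₂
        rw [← hK] at this
        exact this)
    obtain ⟨q, hq1, hq2⟩ := hnb.nonempty hYE
    have hqU : q ∈ U := not_not.1 hq2
    rw [hc z (hKO hz), hc' w (hKP hw), ← hc' _ (hsub₂ q hq1.2 hqU), ← h3 q hqU, hc q hq1.1]

theorem chn_pull (h : EndMap U V F) (hF : Tra_937.Uni U F) (K : Cmp Uᶜ)
    (hχ : ChnE Vᶜ (corE h K).1 χ) :
    ∃ χ' : ℕ → ℂ → ℝ, ChnE Uᶜ K.1 χ' ∧ ∀ n, ∀ z ∈ U, χ' n z = χ n (F z) := by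
  have hUc : IsCompact Uᶜ := Ends_897.isCompact_compl h.hU
  have hYE : IsExteriorDomain (Uᶜ)ᶜ := by rw [compl_compl]; exact h.hU
  choose f a1 a2 a3 using fun n => exists_lce_pull h hF (hχ.lce n)
  refine ⟨f, ⟨a1, fun n z => ?_, fun n z hz => ?_, fun N hN hKN => ?_⟩, a2⟩
  · by_cases hz : z ∈ U
    · rw [a2 n z hz]; exact hχ.c01 n _
    · obtain ⟨w, hw⟩ := (corE h (Cmp.of (Y := Uᶜ) hz)).nonempty
      rw [a3 n (Cmp.of (Y := Uᶜ) hz) z (mem_connectedComponentIn hz) w hw]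
      exact hχ.c01 n _
  · obtain ⟨w, hw⟩ := (corE h K).nonempty
    rw [a3 n K z hz w hw, hχ.one n w hw]
  · obtain ⟨B, N1, h1, h2, h3, h4, g1, g2, g3, g4⟩ := exists_sep hUc K hN hKN
    obtain ⟨P, hP, hKP, hPsub⟩ := exists_nhd_of h.symm (corE h K) g1 (by
      rw [eqv_eq]
      have : corE h.symm (corE h K) = K := (corE h).left_inv K
      rw [this]
      exact h4.trans g2)
    filter_upwards [hχ.sh P hP hKP] with n hn
    have e1 : ∀ z ∈ U, f n z ≠ 0 → z ∈ N1 := by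
      intro z hz h0
      rw [a2 n z hz] at h0
      have h5 : F z ∈ P := hn (subset_tsupport _ h0)
      have h6 := hPsub (F z) h5 (h.mapsTo hz)
      rwa [h.inv_left hz] at h6
    have e2 : Function.support (f n) ⊆ N1 := by
      intro z h0
      by_cases hz : z ∈ U
      · exact e1 z hz h0
      · have hzY : z ∈ Uᶜ := hz
        by_contra hzN
        have hzB : z ∉ B := fun h5 => hzN (g2 h5)
        obtain ⟨c, O, hO, hKO, hc⟩ := Tc_808.LC.const_near (Pct_185.LCE.LC (a1 n))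
          (Cmp.of hzY).preconn (Cmp.of hzY).subset
        have hcz : c = f n z := (hc z (hKO (mem_connectedComponentIn hzY))).symm
        -- the component of `z` does not meet `B`
        have hd : Disjoint (Cmp.of hzY).1 B := by
          rw [disjoint_left]
          intro w hw hwB
          have hpc : IsPreconnected (Cmp.of hzY).1 := (Cmp.of hzY).preconn
          obtain ⟨v, hv1, hv2, hv3⟩ := (isPreconnected_closed_iff.1 hpc) B (Uᶜ \ B) h1.isClosed
            h2.isClosed (fun v hv => by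
              by_cases hvB : v ∈ B
              · exact Or.inl hvB
              · exact Or.inr ⟨(Cmp.of hzY).subset hv, hvB⟩)
            ⟨w, hw, hwB⟩ ⟨z, mem_connectedComponentIn hzY, hzY, hzB⟩
          exact hv3.2 hv2
        have hnb : Ni_459.Nb Uᶜ z (O ∩ (closure N1)ᶜ) :=
          Ni_459.nb_of_mem hzY (hO.inter isClosed_closure.isOpen_compl) (by
            intro v hv
            exact ⟨hKO hv, fun hv' => disjoint_left.1 g4 hv'
              ⟨(Cmp.of hzY).subset hv, fun hvB => disjoint_left.1 hd hv hvB⟩⟩)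
        obtain ⟨q, hq1, hq2⟩ := hnb.nonempty hYE
        have hqU : q ∈ U := not_not.1 hq2
        refine hq1.2 (subset_closure (e1 q hqU ?_))
        rw [hc q hq1.1, hcz]
        exact h0
    exact (closure_mono e2).trans g3

theorem chn_push (h : EndMap U V F) (hF : Tra_937.Uni U F) (K : Cmp Uᶜ)
    (hχ : ChnE Uᶜ K.1 χ) :
    ∃ χ' : ℕ → ℂ → ℝ, ChnE Vᶜ (corE h K).1 χ' ∧ ∀ n, ∀ z ∈ U, χ' n (F z) = χ n z := by
  have h1 : corE h.symm (corE h K) = K := (corE h).left_inv K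
  have hu : Tra_937.Uni V h.inv := by
    obtain rfl := h.img
    exact hF.symm
  obtain ⟨χ', g1, g2⟩ := chn_pull (χ := χ) h.symm hu (corE h K) (by rw [h1]; exact hχ)
  refine ⟨χ', g1, fun n z hz => ?_⟩
  rw [g2 n (F z) (h.mapsTo hz), h.inv_left hz]

/-- **one sequence with its two pictures** -/
theorem exists_chn3 (h : EndMap U (F '' U) F) (hF : Tra_937.Uni U F)
    (h' : EndMap U (P '' U) P) (hP : Tra_937.Uni U P) (K : Cmp Uᶜ) :
    ∃ χ χF χP : ℕ → ℂ → ℝ, ChnE Uᶜ K.1 χ ∧ ChnE (F '' U)ᶜ (corE h K).1 χF ∧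
      ChnE (P '' U)ᶜ (corE h' K).1 χP ∧ (∀ n, ∀ z ∈ U, χF n (F z) = χ n z) ∧
      ∀ n, ∀ z ∈ U, χP n (P z) = χ n z := by
  obtain ⟨χ, hχ⟩ := exists_chn (Ends_897.isCompact_compl h.hU) K
  obtain ⟨χF, a1, a2⟩ := chn_push h hF K hχ
  obtain ⟨χP, b1, b2⟩ := chn_push h' hP K hχ
  exact ⟨χ, χF, χP, hχ, a1, b1, a2, b2⟩

end

end Crest.Agent.R105.Fml_61
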