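import Mathlib

/-!
# Row 105: the FINITE layer lemma (Lemma C of #8892 in the form 745 #9455 (I)), abstract

`X` the ambient space, `H` the family of all components (hairs, solids, points), `R` a half region,
`D ⊆ R` the part of it where functions live (off `E`).  A class `LCls H R D` is a class of
competitors with an energy which is *local*.  Input: in every neighbourhood of the family `𝒢` there
is a pair of cut-offs of energy `≤ A` (`A` independent of the neighbourhood), one of which is `1`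
near every `K ∈ 𝒢`.  Output: cut-offs of energy `≤ 2 A / M` with the same property, which vary by at
most `1 / M` near EVERY component.
-/

set_option autoImplicit false

namespace Crest.Agent.R105.Fnc_189

open Set Filter Topology

variable {X : Type*} [TopologicalSpace X]

/-- `f` is supported (on the region `R`) in a compact subset of `N`. -/
def Sup (R N : Set X) (f : X → ℝ) : Prop :=
  ∃ S, IsCompact S ∧ S ⊆ N ∧ ∀ p ∈ R, p ∉ S → f p = 0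

theorem Sup.mono {R N N' : Set X} {f : X → ℝ} (h : Sup R N f) (hN : N ⊆ N') : Sup R N' f := by
  obtain ⟨S, h1, h2, h3⟩ := h
  exact ⟨S, h1, h2.trans hN, h3⟩

/-- near every component and near every point of `D`, `z` is `1 + w` or `Z ⊔ w`. -/
def Loc (H : Set (Set X)) (D : Set X) (Z w z : X → ℝ) : Prop :=
  ∀ κ, (κ ∈ H ∨ ∃ x ∈ D, κ = {x}) → ∃ W, IsOpen W ∧ κ ⊆ W ∧
    ((∀ x ∈ W ∩ D, z x = 1 + w x) ∨ ∀ x ∈ W ∩ D, z x = max (Z x) (w x))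

/-- near every component `f` stays between consecutive integers. -/
def Var (H : Set (Set X)) (D : Set X) (f : X → ℝ) : Prop :=
  ∀ K ∈ H, ∃ c : ℕ, ∃ W, IsOpen W ∧ K ⊆ W ∧ ∀ x ∈ W ∩ D, (c : ℝ) ≤ f x ∧ f x ≤ c + 1

/-- a class of competitors with a local energy. -/
structure LCls (H : Set (Set X)) (R D : Set X) where
  P : (X → ℝ) → Prop
  E : (X → ℝ) → ℝ
  zero : P fun _ => 0
  E_zero : E (fun _ => 0) ≤ 0
  add : ∀ f g, P f → P g → P fun x => f x + g x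
  sup : ∀ f g, P f → P g → P fun x => max (f x) (g x)
  cut : ∀ f N₁ N₂, IsOpen N₁ → IsOpen N₂ → Disjoint N₁ N₂ → Sup R (N₁ ∪ N₂) f → P f →
    P (N₁.indicator f)
  cap : ∀ f, P f → (∀ x, 0 ≤ f x) → ∀ c : ℝ, 0 < c → P fun x => min (f x) c / c
  E_cap : ∀ f, P f → (∀ x, 0 ≤ f x) → ∀ c : ℝ, 0 < c →
    E (fun x => min (f x) c / c) ≤ E f / c ^ 2
  E_loc : ∀ Z w z, P Z → P w → P z → (∀ x, 0 ≤ Z x) → (∀ x, Z x ≤ 1) → (∀ x, 0 ≤ w x) →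
    Loc H D Z w z → E z ≤ E Z + E w

variable {H : Set (Set X)} {R D R' D' : Set X}

/-- one side of the induction step. -/
theorem push [T2Space X] (C : LCls H R D) (hDR : D ⊆ R) {Z w : X → ℝ} {N N₁ N₂ : Set X}
    (hN₁ : IsOpen N₁) (hN₂ : IsOpen N₂) (hd : Disjoint N₁ N₂) (h₁ : N₁ ⊆ N) (h₂ : N₂ ⊆ N)
    (hH : ∀ K ∈ H, K ⊆ N₁ ∨ K ⊆ N₂ ∨ Disjoint K (N₁ ∪ N₂))
    (hZ : C.P Z) (hZ0 : ∀ x, 0 ≤ Z x) (hZ1 : ∀ x, Z x ≤ 1) (hZs : Sup R N Z)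
    (hZ2 : ∀ x ∈ N₁ ∩ D, Z x = 1) (hw : C.P w) (hw0 : ∀ x, 0 ≤ w x)
    (hws : Sup R (N₁ ∪ N₂) w) (hwv : Var H D w) :
    ∃ z, C.P z ∧ (∀ x, 0 ≤ z x) ∧ Sup R N z ∧ C.E z ≤ C.E Z + C.E w ∧ Var H D z ∧
      (∀ x ∈ N₁ ∩ D, z x = 1 + w x) ∧ ∀ x ∈ N₂ ∩ D, w x ≤ z x := by
  classical
  have hws' : Sup R (N₂ ∪ N₁) w := by rwa [union_comm]
  set z : X → ℝ := fun x => max (Z x) (N₂.indicator w x) + N₁.indicator w x with hz
  have hPz : C.P z := C.add _ _ (C.sup _ _ hZ (C.cut w N₂ N₁ hN₂ hN₁ hd.symm hws' hw))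
    (C.cut w N₁ N₂ hN₁ hN₂ hd hws hw)
  have hz1 : ∀ x ∈ N₁ ∩ D, z x = 1 + w x := by
    intro x hx
    have h2 : x ∉ N₂ := fun h => Set.disjoint_left.1 hd hx.1 h
    simp only [hz, indicator_of_mem hx.1, indicator_of_notMem h2, hZ2 x hx,
      max_eq_left zero_le_one]
  have hz2 : ∀ x ∈ N₂, z x = max (Z x) (w x) := by
    intro x hx
    have h1 : x ∉ N₁ := fun h => Set.disjoint_left.1 hd h hx
    simp only [hz, indicator_of_mem hx, indicator_of_notMem h1, add_zero]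
  have hz3 : ∀ x, w x = 0 → z x = Z x := by
    intro x hx
    have e1 : N₁.indicator w x = 0 := by
      by_cases h : x ∈ N₁
      · rw [indicator_of_mem h, hx]
      · rw [indicator_of_notMem h]
    have e2 : N₂.indicator w x = 0 := by
      by_cases h : x ∈ N₂
      · rw [indicator_of_mem h, hx]
      · rw [indicator_of_notMem h]
    simp only [hz, e1, e2, max_eq_left (hZ0 x), add_zero]
  obtain ⟨S, hS, hSN, hS0⟩ := hws
  -- off `S`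
  have hz4 : ∀ x ∈ Sᶜ ∩ D, z x = max (Z x) (w x) ∧ w x = 0 := by
    intro x hx
    have h0 : w x = 0 := hS0 x (hDR hx.2) hx.1
    exact ⟨by rw [hz3 x h0, h0, max_eq_left (hZ0 x)], h0⟩
  have hcell : ∀ κ, (κ ∈ H ∨ ∃ x ∈ D, κ = {x}) → κ ⊆ N₁ ∨ κ ⊆ N₂ ∨ κ ⊆ Sᶜ := by
    rintro κ (h | ⟨x, _, rfl⟩)
    · rcases hH κ h with h | h | h
      · exact Or.inl h
      · exact Or.inr (Or.inl h)
      · exact Or.inr (Or.inr fun y hy hyS => Set.disjoint_left.1 h hy (hSN hyS))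
    · by_cases hx : x ∈ S
      · rcases hSN hx with h | h
        · exact Or.inl (singleton_subset_iff.2 h)
        · exact Or.inr (Or.inl (singleton_subset_iff.2 h))
      · exact Or.inr (Or.inr (singleton_subset_iff.2 hx))
  have hSo : IsOpen Sᶜ := hS.isClosed.isOpen_compl
  refine ⟨z, hPz, ?_, ?_, ?_, ?_, hz1, ?_⟩
  · intro x
    have e1 : 0 ≤ N₁.indicator w x := indicator_nonneg (fun y _ => hw0 y) x
    have e2 : 0 ≤ max (Z x) (N₂.indicator w x) := le_max_of_le_left (hZ0 x)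
    exact add_nonneg e2 e1
  · obtain ⟨T, hT, hTN, hT0⟩ := hZs
    refine ⟨T ∪ S, hT.union hS, union_subset hTN (hSN.trans (union_subset h₁ h₂)), ?_⟩
    intro p hp hpn
    rw [mem_union, not_or] at hpn
    rw [hz3 p (hS0 p hp hpn.2), hT0 p hp hpn.1]
  · refine C.E_loc Z w z hZ hw hPz hZ0 hZ1 hw0 ?_
    intro κ hκ
    rcases hcell κ hκ with h | h | h
    · exact ⟨N₁, hN₁, h, Or.inl hz1⟩
    · exact ⟨N₂, hN₂, h, Or.inr fun x hx => hz2 x hx.1⟩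
    · exact ⟨Sᶜ, hSo, h, Or.inr fun x hx => (hz4 x hx).1⟩
  · intro K hK
    obtain ⟨c, W, hW, hKW, hc⟩ := hwv K hK
    rcases hcell K (Or.inl hK) with h | h | h
    · refine ⟨c + 1, W ∩ N₁, hW.inter hN₁, subset_inter hKW h, ?_⟩
      rintro x ⟨⟨hxW, hxN⟩, hxD⟩
      rw [hz1 x ⟨hxN, hxD⟩]
      have := hc x ⟨hxW, hxD⟩
      push_cast
      constructor <;> linarith [this.1, this.2]
    · refine ⟨c, W ∩ N₂, hW.inter hN₂, subset_inter hKW h, ?_⟩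
      rintro x ⟨⟨hxW, hxN⟩, hxD⟩
      rw [hz2 x hxN]
      have := hc x ⟨hxW, hxD⟩
      refine ⟨le_max_of_le_right this.1, max_le ?_ this.2⟩
      have : (0 : ℝ) ≤ c := Nat.cast_nonneg c
      linarith [hZ1 x]
    · refine ⟨0, Sᶜ, hSo, h, ?_⟩
      intro x hx
      rw [hz3 x (hz4 x hx).2]
      push_cast
      exact ⟨hZ0 x, by linarith [hZ1 x]⟩
  · intro x hx
    rw [hz2 x hx.1]
    exact le_max_right _ _

/-- the splitting property of the family `𝒢` of components. -/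
def Split (H : Set (Set X)) (𝒢 : Set (Set X)) : Prop :=
  ∀ O₁ O₂ : Set X, IsOpen O₁ → IsOpen O₂ → (∀ K ∈ 𝒢, K ⊆ O₁ ∨ K ⊆ O₂) →
    ∃ N₁ N₂, IsOpen N₁ ∧ IsOpen N₂ ∧ Disjoint N₁ N₂ ∧ N₁ ⊆ O₁ ∧ N₂ ⊆ O₂ ∧
      (∀ K ∈ H, K ⊆ N₁ ∨ K ⊆ N₂ ∨ Disjoint K (N₁ ∪ N₂)) ∧ ∀ K ∈ 𝒢, K ⊆ N₁ ∨ K ⊆ N₂

/-- bounded conductance of the family `𝒢`. -/
def Bdd (C : LCls H R D) (C' : LCls H R' D') (𝒢 : Set (Set X)) (A : ℝ) : Prop :=
  ∀ N, IsOpen N → (∀ K ∈ 𝒢, K ⊆ N) → ∃ Z Z', C.P Z ∧ C'.P Z' ∧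
    (∀ x, 0 ≤ Z x ∧ Z x ≤ 1) ∧ (∀ x, 0 ≤ Z' x ∧ Z' x ≤ 1) ∧ Sup R N Z ∧ Sup R' N Z' ∧
    C.E Z ≤ A ∧ C'.E Z' ≤ A ∧ ∀ K ∈ 𝒢, ∃ O, IsOpen O ∧ K ⊆ O ∧
      ((∀ x ∈ O ∩ D, Z x = 1) ∨ ∀ x ∈ O ∩ D', Z' x = 1)

/-- the recursion: `L` stages. -/
theorem stages [T2Space X] (C : LCls H R D) (C' : LCls H R' D') (hDR : D ⊆ R) (hDR' : D' ⊆ R')
    {𝒢 : Set (Set X)} (hsplit : Split H 𝒢) {A : ℝ} (hpair : Bdd C C' 𝒢 A) (L : ℕ) :
    ∀ N, IsOpen N → (∀ K ∈ 𝒢, K ⊆ N) → ∃ w w', C.P w ∧ C'.P w' ∧ (∀ x, 0 ≤ w x) ∧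
      (∀ x, 0 ≤ w' x) ∧ Sup R N w ∧ Sup R' N w' ∧ C.E w ≤ L * A ∧ C'.E w' ≤ L * A ∧
      Var H D w ∧ Var H D' w' ∧ ∀ K ∈ 𝒢, ∃ a b : ℕ, a + b = L ∧ ∃ W, IsOpen W ∧ K ⊆ W ∧
        (∀ x ∈ W ∩ D, (a : ℝ) ≤ w x) ∧ ∀ x ∈ W ∩ D', (b : ℝ) ≤ w' x := by
  induction L with
  | zero =>
    intro N hN hGN
    refine ⟨fun _ => 0, fun _ => 0, C.zero, C'.zero, fun _ => le_rfl, fun _ => le_rfl,
      ⟨∅, isCompact_empty, empty_subset _, fun _ _ _ => rfl⟩,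
      ⟨∅, isCompact_empty, empty_subset _, fun _ _ _ => rfl⟩, ?_, ?_, ?_, ?_, ?_⟩
    · simpa using C.E_zero
    · simpa using C'.E_zero
    · intro K _
      exact ⟨0, univ, isOpen_univ, subset_univ _, fun x _ => by simp⟩
    · intro K _
      exact ⟨0, univ, isOpen_univ, subset_univ _, fun x _ => by simp⟩
    · intro K _
      exact ⟨0, 0, rfl, univ, isOpen_univ, subset_univ _, fun x _ => by simp, fun x _ => by simp⟩
  | succ L ih =>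
    intro N hN hGN
    obtain ⟨Z, Z', hZ, hZ', hZ01, hZ01', hZs, hZs', hEZ, hEZ', hkey⟩ := hpair N hN hGN
    let O₁ : Set X := ⋃₀ {O | IsOpen O ∧ ∀ x ∈ O ∩ D, Z x = 1}
    let O₂ : Set X := ⋃₀ {O | IsOpen O ∧ ∀ x ∈ O ∩ D', Z' x = 1}
    have hO₁ : IsOpen O₁ := isOpen_sUnion fun O hO => hO.1
    have hO₂ : IsOpen O₂ := isOpen_sUnion fun O hO => hO.1
    have hO₁1 : ∀ x ∈ O₁ ∩ D, Z x = 1 := by
      rintro x ⟨⟨O, hO, hx⟩, hxD⟩
      exact hO.2 x ⟨hx, hxD⟩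
    have hO₂1 : ∀ x ∈ O₂ ∩ D', Z' x = 1 := by
      rintro x ⟨⟨O, hO, hx⟩, hxD⟩
      exact hO.2 x ⟨hx, hxD⟩
    obtain ⟨N₁, N₂, hN₁, hN₂, hd, hN₁O, hN₂O, hH, hG⟩ := hsplit (O₁ ∩ N) (O₂ ∩ N)
      (hO₁.inter hN) (hO₂.inter hN) (by
        intro K hK
        obtain ⟨O, hO, hKO, h | h⟩ := hkey K hK
        · exact Or.inl (subset_inter (hKO.trans (subset_sUnion_of_mem ⟨hO, h⟩)) (hGN K hK))
        · exact Or.inr (subset_inter (hKO.trans (subset_sUnion_of_mem ⟨hO, h⟩)) (hGN K hK)))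
    have hH' : ∀ K ∈ H, K ⊆ N₂ ∨ K ⊆ N₁ ∨ Disjoint K (N₂ ∪ N₁) := by
      intro K hK
      rcases hH K hK with h | h | h
      · exact Or.inr (Or.inl h)
      · exact Or.inl h
      · exact Or.inr (Or.inr (by rwa [union_comm]))
    obtain ⟨w, w', hw, hw', hw0, hw0', hws, hws', hEw, hEw', hwv, hwv', hwG⟩ :=
      ih (N₁ ∪ N₂) (hN₁.union hN₂) (fun K hK => by
        rcases hG K hK with h | h
        · exact h.trans subset_union_left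
        · exact h.trans subset_union_right)
    obtain ⟨z, hz, hz0, hzs, hEz, hzv, hz1, hz2⟩ := push C hDR hN₁ hN₂ hd
      (hN₁O.trans inter_subset_right) (hN₂O.trans inter_subset_right) hH hZ
      (fun x => (hZ01 x).1) (fun x => (hZ01 x).2) hZs
      (fun x hx => hO₁1 x ⟨(hN₁O hx.1).1, hx.2⟩) hw hw0 hws hwv
    obtain ⟨z', hz', hz0', hzs', hEz', hzv', hz1', hz2'⟩ := push C' hDR' hN₂ hN₁ hd.symm
      (hN₂O.trans inter_subset_right) (hN₁O.trans inter_subset_right) hH' hZ'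
      (fun x => (hZ01' x).1) (fun x => (hZ01' x).2) hZs'
      (fun x hx => hO₂1 x ⟨(hN₂O hx.1).1, hx.2⟩) hw' hw0' (by rwa [union_comm]) hwv'
    refine ⟨z, z', hz, hz', hz0, hz0', hzs, hzs', ?_, ?_, hzv, hzv', ?_⟩
    · push_cast
      linarith
    · push_cast
      linarith
    · intro K hK
      obtain ⟨a, b, hab, W, hW, hKW, ha, hb⟩ := hwG K hK
      rcases hG K hK with h | h
      · refine ⟨a + 1, b, by omega, W ∩ N₁, hW.inter hN₁, subset_inter hKW h, ?_, ?_⟩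
        · rintro x ⟨⟨hxW, hxN⟩, hxD⟩
          rw [hz1 x ⟨hxN, hxD⟩]
          have := ha x ⟨hxW, hxD⟩
          push_cast
          linarith
        · rintro x ⟨⟨hxW, hxN⟩, hxD⟩
          exact (hb x ⟨hxW, hxD⟩).trans (hz2' x ⟨hxN, hxD⟩)
      · refine ⟨a, b + 1, by omega, W ∩ N₂, hW.inter hN₂, subset_inter hKW h, ?_, ?_⟩
        · rintro x ⟨⟨hxW, hxN⟩, hxD⟩
          exact (ha x ⟨hxW, hxD⟩).trans (hz2 x ⟨hxN, hxD⟩)
        · rintro x ⟨⟨hxW, hxN⟩, hxD⟩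
          rw [hz1' x ⟨hxN, hxD⟩]
          have := hb x ⟨hxW, hxD⟩
          push_cast
          linarith

/-- the last step: `min (w, M) / M`. -/
theorem Var.cap {w : X → ℝ} (h : Var H D w) {M : ℕ} (hM : 0 < M) :
    ∀ K ∈ H, ∃ c : ℝ, ∃ W, IsOpen W ∧ K ⊆ W ∧
      ∀ x ∈ W ∩ D, c ≤ min (w x) M / M ∧ min (w x) M / M ≤ c + 1 / M := by
  intro K hK
  obtain ⟨c, W, hW, hKW, hc⟩ := h K hK
  have hM' : (0 : ℝ) < M := Nat.cast_pos.2 hM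
  refine ⟨min (c : ℝ) M / M, W, hW, hKW, fun x hx => ?_⟩
  have h1 := hc x hx
  refine ⟨div_le_div_of_nonneg_right (min_le_min_right _ h1.1) hM'.le, ?_⟩
  rw [← add_div]
  refine div_le_div_of_nonneg_right ?_ hM'.le
  rcases le_total (c : ℝ) M with h2 | h2
  · rw [min_eq_left h2]
    exact (min_le_left _ _).trans h1.2
  · rw [min_eq_right h2]
    exact (min_le_right _ _).trans (by linarith)

/-- **FINITE LEMMA C (745 #9455 (I)), abstract form.** -/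
theorem layersF [T2Space X] (C : LCls H R D) (C' : LCls H R' D') (hDR : D ⊆ R) (hDR' : D' ⊆ R')
    {𝒢 : Set (Set X)} (hsplit : Split H 𝒢) {A : ℝ} (hA : 0 ≤ A) (hpair : Bdd C C' 𝒢 A)
    {M : ℕ} (hM : 1 ≤ M) {N : Set X} (hN : IsOpen N) (hGN : ∀ K ∈ 𝒢, K ⊆ N) :
    ∃ z z', C.P z ∧ C'.P z' ∧ (∀ x, 0 ≤ z x ∧ z x ≤ 1) ∧ (∀ x, 0 ≤ z' x ∧ z' x ≤ 1) ∧
      Sup R N z ∧ Sup R' N z' ∧ C.E z ≤ 2 * A / M ∧ C'.E z' ≤ 2 * A / M ∧
      (∀ K ∈ H, ∃ c : ℝ, ∃ W, IsOpen W ∧ K ⊆ W ∧ ∀ x ∈ W ∩ D, c ≤ z x ∧ z x ≤ c + 1 / M) ∧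
      (∀ K ∈ H, ∃ c : ℝ, ∃ W, IsOpen W ∧ K ⊆ W ∧ ∀ x ∈ W ∩ D', c ≤ z' x ∧ z' x ≤ c + 1 / M) ∧
      ∀ K ∈ 𝒢, ∃ O, IsOpen O ∧ K ⊆ O ∧ ((∀ x ∈ O ∩ D, z x = 1) ∨ ∀ x ∈ O ∩ D', z' x = 1) := by
  have hM' : (0 : ℝ) < M := Nat.cast_pos.2 hM
  obtain ⟨w, w', hw, hw', hw0, hw0', hws, hws', hEw, hEw', hwv, hwv', hwG⟩ :=
    stages C C' hDR hDR' hsplit hpair (2 * M - 1) N hN hGN
  have hcap : ∀ {f : X → ℝ}, (∀ x, 0 ≤ f x) → ∀ x, 0 ≤ min (f x) M / M ∧ min (f x) M / M ≤ 1 := by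
    intro f hf x
    refine ⟨div_nonneg (le_min (hf x) hM'.le) hM'.le, ?_⟩
    rw [div_le_one hM']
    exact min_le_right _ _
  have hsup : ∀ {f : X → ℝ} {Q : Set X}, Sup Q N f → Sup Q N fun x => min (f x) M / M := by
    rintro f Q ⟨S, h1, h2, h3⟩
    refine ⟨S, h1, h2, fun p hp hpS => ?_⟩
    simp only [h3 p hp hpS, min_eq_left hM'.le, zero_div]
  have hen : ∀ {e : ℝ}, e ≤ ((2 * M - 1 : ℕ) : ℝ) * A → e / (M : ℝ) ^ 2 ≤ 2 * A / M := by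
    intro e he
    have h1 : ((2 * M - 1 : ℕ) : ℝ) ≤ 2 * M := by
      have : ((2 * M - 1 : ℕ) : ℝ) ≤ ((2 * M : ℕ) : ℝ) := by exact_mod_cast Nat.sub_le _ _
      push_cast at this
      exact this
    have h2 : e ≤ 2 * M * A := he.trans (mul_le_mul_of_nonneg_right h1 hA)
    rw [div_le_div_iff₀ (by positivity) hM']
    nlinarith [mul_le_mul_of_nonneg_right h2 hM'.le]
  refine ⟨fun x => min (w x) M / M, fun x => min (w' x) M / M, C.cap _ hw hw0 _ hM',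
    C'.cap _ hw' hw0' _ hM', hcap hw0, hcap hw0', hsup hws, hsup hws',
    (C.E_cap _ hw hw0 _ hM').trans (hen hEw), (C'.E_cap _ hw' hw0' _ hM').trans (hen hEw'),
    hwv.cap hM, hwv'.cap hM, ?_⟩
  intro K hK
  obtain ⟨a, b, hab, W, hW, hKW, ha, hb⟩ := hwG K hK
  refine ⟨W, hW, hKW, ?_⟩
  rcases le_or_gt M a with h | h
  · left
    intro x hx
    have h1 : (M : ℝ) ≤ w x := (Nat.cast_le.2 h).trans (ha x hx)
    simp only [min_eq_right h1, div_self hM'.ne']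
  · right
    intro x hx
    have h2 : M ≤ b := by omega
    have h1 : (M : ℝ) ≤ w' x := (Nat.cast_le.2 h2).trans (hb x hx)
    simp only [min_eq_right h1, div_self hM'.ne']

end Crest.Agent.R105.Fnc_189
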