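import Crest.Agent.R105.Fnc1_189
import Crest.Agent.R105.Thin1_891

/-!
# Row 105: the splitting property `Split` of `Fnc1_189` for the components of a compact set
-/

set_option autoImplicit false

namespace Crest.Agent.R105.Fnc_189

open Set Filter Topology Thin_891

variable {X : Type*} [TopologicalSpace X]

/-- `Split` for a family of components of a compact set with compact union. -/
theorem split_of_compact [T2Space X] {E : Set X} (hE : IsCompact E) {H 𝒢 : Set (Set X)}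
    (hH : ∀ K ∈ H, ∃ p ∈ E, K = connectedComponentIn E p)
    (hG : ∀ K ∈ 𝒢, ∃ p ∈ E, K = connectedComponentIn E p) (hc : IsCompact (⋃₀ 𝒢)) :
    Split H 𝒢 := by
  classical
  intro O₁ O₂ hO₁ hO₂ hcov
  have hGE : ⋃₀ 𝒢 ⊆ E := by
    rintro x ⟨K, hK, hx⟩
    obtain ⟨p, hp, rfl⟩ := hG K hK
    exact connectedComponentIn_subset E p hx
  have hcc : ∀ x ∈ ⋃₀ 𝒢, connectedComponentIn E x ⊆ O₁ ∨ connectedComponentIn E x ⊆ O₂ := by
    rintro x ⟨K, hK, hx⟩
    obtain ⟨p, hp, hKp⟩ := hG K hK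
    have : connectedComponentIn E x = K := by
      rw [hKp] at hx ⊢
      exact (connectedComponentIn_eq hx).symm
    rw [this]
    exact hcov K hK
  obtain ⟨n, p, F, hp, hF, hFU, -, hFd, hFc⟩ := exists_pieces hE hc hGE
    (fun x => if connectedComponentIn E x ⊆ O₁ then O₁ else O₂)
    (fun x hx => by split_ifs <;> assumption)
    (fun x hx => by
      split_ifs with h
      · exact h
      · exact (hcc x hx).resolve_left h)
  have hun : ∀ s : Finset (Fin n), Piece E (⋃ j ∈ s, F j) := by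
    intro s
    induction s using Finset.induction_on with
    | empty => simpa using Piece.empty hE
    | insert a s ha ih => rw [Finset.set_biUnion_insert]; exact (hF _).union ih
  let s : Finset (Fin n) := Finset.univ.filter fun i => connectedComponentIn E (p i) ⊆ O₁
  let A : Set X := ⋃ j ∈ s, F j
  let B : Set X := ⋃ j ∈ sᶜ, F j
  have hA : Piece E A := hun s
  have hB : Piece E B := hun sᶜ
  have hAO : A ⊆ O₁ := by
    refine iUnion₂_subset fun i hi => ?_
    have h1 : connectedComponentIn E (p i) ⊆ O₁ := (Finset.mem_filter.1 hi).2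
    have h2 := hFU i
    simp only [if_pos h1] at h2
    exact h2
  have hBO : B ⊆ O₂ := by
    refine iUnion₂_subset fun i hi => ?_
    have h1 : ¬ connectedComponentIn E (p i) ⊆ O₁ := by
      intro h
      exact (Finset.mem_compl.1 hi) (Finset.mem_filter.2 ⟨Finset.mem_univ _, h⟩)
    have h2 := hFU i
    simp only [if_neg h1] at h2
    exact h2
  have hAB : Disjoint A B := by
    rw [Set.disjoint_left]
    intro x hxA hxB
    obtain ⟨i, hi, hxi⟩ := mem_iUnion₂.1 hxA
    obtain ⟨j, hj, hxj⟩ := mem_iUnion₂.1 hxB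
    have hij : i ≠ j := by
      rintro rfl
      exact (Finset.mem_compl.1 hj) hi
    exact Set.disjoint_left.1 (hFd hij) hxi hxj
  have hcovAB : ⋃₀ 𝒢 ⊆ A ∪ B := by
    intro x hx
    obtain ⟨i, hi⟩ := mem_iUnion.1 (hFc hx)
    by_cases h : i ∈ s
    · exact Or.inl (mem_iUnion₂.2 ⟨i, h, hi⟩)
    · exact Or.inr (mem_iUnion₂.2 ⟨i, Finset.mem_compl.2 h, hi⟩)
  obtain ⟨U₁, V₁, hU₁, hV₁, hAU, hAV, hUV₁⟩ :=
    SeparatedNhds.of_isCompact_isCompact hA.cpt hA.cpt' disjoint_sdiff_self_right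
  obtain ⟨U₂, V₂, hU₂, hV₂, hBU, hBV, hUV₂⟩ :=
    SeparatedNhds.of_isCompact_isCompact hB.cpt hB.cpt' disjoint_sdiff_self_right
  have hA2 : A ⊆ V₂ := fun x hx => hBV ⟨hA.sub hx, fun h => Set.disjoint_left.1 hAB hx h⟩
  have hB1 : B ⊆ V₁ := fun x hx => hAV ⟨hB.sub hx, fun h => Set.disjoint_left.1 hAB h hx⟩
  have key : ∀ K, (∃ p ∈ E, K = connectedComponentIn E p) →
      K ⊆ A ∨ K ⊆ B ∨ Disjoint K (A ∪ B) := by
    rintro K ⟨q, hq, rfl⟩
    by_cases h1 : (connectedComponentIn E q ∩ A).Nonempty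
    · exact Or.inl (hA.component_subset' h1)
    by_cases h2 : (connectedComponentIn E q ∩ B).Nonempty
    · exact Or.inr (Or.inl (hB.component_subset' h2))
    refine Or.inr (Or.inr ?_)
    rw [Set.disjoint_left]
    rintro x hx (h | h)
    · exact h1 ⟨x, hx, h⟩
    · exact h2 ⟨x, hx, h⟩
  refine ⟨U₁ ∩ V₂ ∩ O₁, U₂ ∩ V₁ ∩ O₂, (hU₁.inter hV₂).inter hO₁, (hU₂.inter hV₁).inter hO₂, ?_,
    inter_subset_right, inter_subset_right, ?_, ?_⟩
  · rw [Set.disjoint_left]
    rintro x ⟨⟨h1, _⟩, _⟩ ⟨⟨_, h2⟩, _⟩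
    exact Set.disjoint_left.1 hUV₁ h1 h2
  · intro K hK
    rcases key K (hH K hK) with h | h | h
    · exact Or.inl fun x hx => ⟨⟨hAU (h hx), hA2 (h hx)⟩, hAO (h hx)⟩
    · exact Or.inr (Or.inl fun x hx => ⟨⟨hBU (h hx), hB1 (h hx)⟩, hBO (h hx)⟩)
    · refine Or.inr (Or.inr ?_)
      rw [Set.disjoint_left]
      obtain ⟨q, hq, rfl⟩ := hH K hK
      rintro x hx (⟨⟨h1, _⟩, _⟩ | ⟨⟨h1, _⟩, _⟩)
      · have hxE : x ∈ E := connectedComponentIn_subset E q hx
        have : x ∈ A := by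
          by_contra hcon
          exact Set.disjoint_left.1 hUV₁ h1 (hAV ⟨hxE, hcon⟩)
        exact Set.disjoint_left.1 h hx (Or.inl this)
      · have hxE : x ∈ E := connectedComponentIn_subset E q hx
        have : x ∈ B := by
          by_contra hcon
          exact Set.disjoint_left.1 hUV₂ h1 (hBV ⟨hxE, hcon⟩)
        exact Set.disjoint_left.1 h hx (Or.inr this)
  · intro K hK
    rcases key K (hG K hK) with h | h | h
    · exact Or.inl fun x hx => ⟨⟨hAU (h hx), hA2 (h hx)⟩, hAO (h hx)⟩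
    · exact Or.inr fun x hx => ⟨⟨hBU (h hx), hB1 (h hx)⟩, hBO (h hx)⟩
    · exfalso
      obtain ⟨q, hq, rfl⟩ := hG K hK
      have hqK : q ∈ connectedComponentIn E q := mem_connectedComponentIn hq
      exact Set.disjoint_left.1 h hqK (hcovAB ⟨_, hK, hqK⟩)

end Crest.Agent.R105.Fnc_189
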