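import Crest.Agent.R105.Fnc3_189
import Crest.Agent.R105.Nal0_649

/-!
# Row 105 (S0138, PP with solids): LAY-Q in the literal of `Nal0_649`
-/

set_option autoImplicit false

namespace Crest.Agent.R105.Fnc_189

open Set Filter MeasureTheory Topology
open Crest.Agent.R105.CF_363 Crest.Agent.R105.Stp_722 Crest.Agent.R105.Cq_463
open Crest.Agent.R105.Skp2_257 (Comps Lo Up)
open Crest.Agent.R105.Nal_649 (FamQ NullNQ OneNear)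

variable {E : Set (ℝ × ℝ)} {𝒬 : Set Sqr} {𝓗 : Set Hair} {g : Set (Set (ℝ × ℝ))} {Bm Bp : ℝ}

theorem isOpen_Lo (B : ℝ) : IsOpen (Lo B) := isOpen_lt continuous_snd continuous_const

theorem isOpen_Up (B : ℝ) : IsOpen (Up B) := isOpen_lt continuous_const continuous_snd

theorem convex_Lo (B : ℝ) : Convex ℝ (Lo B) := by
  have h : Lo B = (Prod.snd : ℝ × ℝ → ℝ) ⁻¹' Iio B := rfl
  rw [h]
  exact (convex_Iio B).is_linear_preimage ⟨fun _ _ => rfl, fun _ _ => rfl⟩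

theorem convex_Up (B : ℝ) : Convex ℝ (Up B) := by
  have h : Up B = (Prod.snd : ℝ × ℝ → ℝ) ⁻¹' Ioi B := rfl
  rw [h]
  exact (convex_Ioi B).is_linear_preimage ⟨fun _ _ => rfl, fun _ _ => rfl⟩

/-- the output of the layer lemma with squares (Skp2's `LayOut` with `HalfQ`) -/
def LayOutQ (E : Set (ℝ × ℝ)) (𝒬 : Set Sqr) (𝓗 : Set Hair) (g : Set (Set (ℝ × ℝ)))
    (Bm Bp : ℝ) : Prop :=
  ∀ N, IsOpen N → ⋃₀ g ⊆ N → ∀ M : ℕ, 1 ≤ M → ∀ ε > 0, ∃ zm zp,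
    Nal_649.HalfQ E 𝒬 𝓗 (Lo Bm) N ε zm ∧ Nal_649.HalfQ E 𝒬 𝓗 (Up Bp) N ε zp ∧
    (∀ P ∈ Comps E, OscLe (Eᶜ ∩ Lo Bm) (P ∩ {p | p.2 ≤ Bm}) zm (1 / M)) ∧
    (∀ P ∈ Comps E, OscLe (Eᶜ ∩ Up Bp) (P ∩ {p | Bp ≤ p.2}) zp (1 / M)) ∧
    ∀ P ∈ g, OneNear E (Lo Bm) (P ∩ {p | p.2 ≤ Bm}) zm ∨
      OneNear E (Up Bp) (P ∩ {p | Bp ≤ p.2}) zp

/-- bounded conductance -/
def BddNQ (E : Set (ℝ × ℝ)) (𝒬 : Set Sqr) (𝓗 : Set Hair) (g : Set (Set (ℝ × ℝ)))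
    (Bm Bp : ℝ) : Prop :=
  ∃ A : ℝ, ∀ N, IsOpen N → ⋃₀ g ⊆ N → ∃ zm zp, Nal_649.PairQ E 𝒬 𝓗 g Bm Bp N A zm zp

theorem toPair {N : Set (ℝ × ℝ)} {A : ℝ} {zm zp : ℝ × ℝ → ℝ}
    (h : Nal_649.PairQ E 𝒬 𝓗 g Bm Bp N A zm zp) :
    PairQ E (Lo Bm) (Up Bp) 𝒬 𝓗 g N A zm zp :=
  ⟨⟨h.m.cf, h.m.rg, h.m.sp, h.m.en⟩, ⟨h.p.cf, h.p.rg, h.p.sp, h.p.en⟩, h.key⟩

/-- **LAY-Q from bounded conductance**: energy `18 A / M`, hence any `ε` (choose `M` larger). -/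
theorem layOutQ_of_bdd (hE : QPic E 𝒬 𝓗) (hsub : g ⊆ Comps E) (hcpt : IsCompact (⋃₀ g))
    (hb : BddNQ E 𝒬 𝓗 g Bm Bp) : LayOutQ E 𝒬 𝓗 g Bm Bp := by
  obtain ⟨A₀, hA₀⟩ := hb
  intro N hN hgN M hM ε hε
  set A : ℝ := max A₀ 0 with hAdef
  have hA : 0 ≤ A := le_max_right _ _
  obtain ⟨M', hM'⟩ := exists_nat_ge (18 * A / ε)
  have hM1 : 1 ≤ M + M' := le_add_right hM
  have hMM : (0 : ℝ) < ((M + M' : ℕ) : ℝ) := by exact_mod_cast hM1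
  have hMpos : (0 : ℝ) < (M : ℝ) := by exact_mod_cast hM
  have hen : 18 * A / ((M + M' : ℕ) : ℝ) ≤ ε := by
    rw [div_le_iff₀ hMM]
    rw [div_le_iff₀ hε] at hM'
    push_cast
    nlinarith
  have hosc : 1 / ((M + M' : ℕ) : ℝ) ≤ 1 / (M : ℝ) :=
    one_div_le_one_div_of_le hMpos (by push_cast; linarith [Nat.cast_nonneg (α := ℝ) M'])
  obtain ⟨zm, zp, h1, h2, h3, h4, h5⟩ := layQ hE (isOpen_Lo Bm) (convex_Lo Bm) (isOpen_Up Bp)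
    (convex_Up Bp) (𝒢 := g) hsub hcpt hA (fun N hN h => by
      obtain ⟨zm, zp, hp⟩ := hA₀ N hN h
      have hp' := toPair hp
      exact ⟨zm, zp, ⟨hp'.m.cf, hp'.m.rg, hp'.m.sp, hp'.m.en.trans (le_max_left _ _)⟩,
        ⟨hp'.p.cf, hp'.p.rg, hp'.p.sp, hp'.p.en.trans (le_max_left _ _)⟩, hp'.key⟩)
    hM1 hN hgN
  refine ⟨zm, zp, ⟨h1.cf, h1.rg, h1.sp, h1.en.trans hen⟩, ⟨h2.cf, h2.rg, h2.sp,
    h2.en.trans hen⟩, fun P hP => ?_, fun P hP => ?_, fun P hP => ?_⟩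
  · exact ((h3 P hP).mono_set inter_subset_left).mono hosc
  · exact ((h4 P hP).mono_set inter_subset_left).mono hosc
  · rcases h5 P hP with ⟨O, hO, hPO, H⟩ | ⟨O, hO, hPO, H⟩
    · exact Or.inl ⟨O, hO, inter_subset_left.trans hPO, H⟩
    · exact Or.inr ⟨O, hO, inter_subset_left.trans hPO, H⟩

/-- **LAY-Q**: Skp2's `LAY` with squares. -/
theorem layQ_nal (hE : QPic E 𝒬 𝓗) (hg : FamQ E g Bm Bp) (hn : NullNQ E 𝒬 𝓗 g Bm Bp) :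
    LayOutQ E 𝒬 𝓗 g Bm Bp :=
  layOutQ_of_bdd hE hg.sub hg.cpt ⟨1, fun N hN h => hn N hN h 1 one_pos⟩

end Crest.Agent.R105.Fnc_189
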