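/-
# Row 105, S0138 (T-frame), lemma A with exact squares, part 7: mutually singular charges, scaling;
helper247
-/
import Crest.Agent.R105.Knq6_247
import Mathlib.MeasureTheory.VectorMeasure.Decomposition.Hahn
import Mathlib.MeasureTheory.Measure.Sub

set_option autoImplicit false

open Set Filter MeasureTheory Topology
open scoped ENNReal NNReal InnerProductSpace

namespace Crest.Agent.R105.Knq_247

open CF_363 Kin_238 Kkt_238

/-- mutually singular parts of a difference of two finite measures -/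
theorem exists_jordan {Y : Type*} [MeasurableSpace Y] [MeasurableSingletonClass Y]
    (ν₁ ν₂ : Measure Y) [IsFiniteMeasure ν₁] [IsFiniteMeasure ν₂] :
    ∃ (π₁ π₂ : Measure Y) (s : Set Y), IsFiniteMeasure π₁ ∧ IsFiniteMeasure π₂ ∧ π₁ ≤ ν₁ ∧
      π₂ ≤ ν₂ ∧ MeasurableSet s ∧ π₁ sᶜ = 0 ∧ π₂ s = 0 ∧
      (∀ e : Y → ℝ, Integrable e ν₁ → Integrable e ν₂ →
        (∫ p, e p ∂π₁) - ∫ p, e p ∂π₂ = (∫ p, e p ∂ν₁) - ∫ p, e p ∂ν₂) ∧
      ∀ p, ν₁ {p} = ν₂ {p} → π₁ {p} = 0 ∧ π₂ {p} = 0 := by
  obtain ⟨s, hs, h1, h2⟩ := hahn_decomposition ν₁ ν₂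
  have l1 : ν₂.restrict s ≤ ν₁.restrict s := by
    refine Measure.le_iff.2 fun t ht => ?_
    rw [Measure.restrict_apply ht, Measure.restrict_apply ht]
    exact h1 _ (ht.inter hs) inter_subset_right
  have l2 : ν₁.restrict sᶜ ≤ ν₂.restrict sᶜ := by
    refine Measure.le_iff.2 fun t ht => ?_
    rw [Measure.restrict_apply ht, Measure.restrict_apply ht]
    exact h2 _ (ht.inter hs.compl) inter_subset_right
  have e1 : ν₁.restrict s - ν₂.restrict s + ν₂.restrict s = ν₁.restrict s :=
    Measure.sub_add_cancel_of_le l1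
  have e2 : ν₂.restrict sᶜ - ν₁.restrict sᶜ + ν₁.restrict sᶜ = ν₂.restrict sᶜ :=
    Measure.sub_add_cancel_of_le l2
  have k1 : ν₁.restrict s - ν₂.restrict s ≤ ν₁.restrict s := Measure.sub_le
  have k2 : ν₂.restrict sᶜ - ν₁.restrict sᶜ ≤ ν₂.restrict sᶜ := Measure.sub_le
  have f1 : IsFiniteMeasure (ν₁.restrict s - ν₂.restrict s) :=
    isFiniteMeasure_of_le _ k1
  have f2 : IsFiniteMeasure (ν₂.restrict sᶜ - ν₁.restrict sᶜ) :=
    isFiniteMeasure_of_le _ k2
  refine ⟨ν₁.restrict s - ν₂.restrict s, ν₂.restrict sᶜ - ν₁.restrict sᶜ, s, f1, f2,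
    k1.trans Measure.restrict_le_self, k2.trans Measure.restrict_le_self, hs, ?_, ?_,
    fun e i1 i2 => ?_, fun p hp => ?_⟩
  · refine le_antisymm ((k1 sᶜ).trans ?_) zero_le
    rw [Measure.restrict_apply hs.compl]; simp
  · refine le_antisymm ((k2 s).trans ?_) zero_le
    rw [Measure.restrict_apply hs]; simp
  · have a1 : ∫ p, e p ∂(ν₁.restrict s) =
        (∫ p, e p ∂(ν₁.restrict s - ν₂.restrict s)) + ∫ p, e p ∂(ν₂.restrict s) := by
      rw [← integral_add_measure ((i1.mono_measure Measure.restrict_le_self).mono_measure k1)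
        (i2.mono_measure Measure.restrict_le_self), e1]
    have a2 : ∫ p, e p ∂(ν₂.restrict sᶜ) =
        (∫ p, e p ∂(ν₂.restrict sᶜ - ν₁.restrict sᶜ)) + ∫ p, e p ∂(ν₁.restrict sᶜ) := by
      rw [← integral_add_measure ((i2.mono_measure Measure.restrict_le_self).mono_measure k2)
        (i1.mono_measure Measure.restrict_le_self), e2]
    have a3 : (∫ p in s, e p ∂ν₁) + ∫ p in sᶜ, e p ∂ν₁ = ∫ p, e p ∂ν₁ :=
      integral_add_compl hs i1
    have a4 : (∫ p in s, e p ∂ν₂) + ∫ p in sᶜ, e p ∂ν₂ = ∫ p, e p ∂ν₂ :=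
      integral_add_compl hs i2
    linarith
  · constructor
    · by_cases hps : p ∈ s
      · rw [Measure.sub_apply (measurableSet_singleton p) l1,
          Measure.restrict_apply (measurableSet_singleton p),
          Measure.restrict_apply (measurableSet_singleton p),
          inter_eq_left.2 (singleton_subset_iff.2 hps), hp, tsub_self]
      · refine le_antisymm ((k1 {p}).trans ?_) zero_le
        rw [Measure.restrict_apply (measurableSet_singleton p)]
        have : {p} ∩ s = (∅ : Set Y) := by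
          ext q; simp only [mem_inter_iff, mem_singleton_iff, mem_empty_iff_false, iff_false]
          rintro ⟨rfl, h⟩; exact hps h
        rw [this, measure_empty]
    · by_cases hps : p ∈ s
      · refine le_antisymm ((k2 {p}).trans ?_) zero_le
        rw [Measure.restrict_apply (measurableSet_singleton p)]
        have : {p} ∩ sᶜ = (∅ : Set Y) := by
          ext q; simp only [mem_inter_iff, mem_singleton_iff, mem_empty_iff_false, iff_false]
          rintro ⟨rfl, h⟩; exact h hps
        rw [this, measure_empty]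
      · rw [Measure.sub_apply (measurableSet_singleton p) l2,
          Measure.restrict_apply (measurableSet_singleton p),
          Measure.restrict_apply (measurableSet_singleton p),
          inter_eq_left.2 (singleton_subset_iff.2 (show p ∈ sᶜ from hps)), hp, tsub_self]

variable {ι : Type*} {a b c B : ℝ} {𝓗 : Set Hair} {Q : ι → Set (ℝ × ℝ)} {S C : Set (ℝ × ℝ)}
  {e e' : ℝ × ℝ → ℝ} {X1 X2 : ℝ × ℝ → ℝ} {f : ι → ℝ} {νp νm : ι → Measure (ℝ × ℝ)}
  {μ : Measure (ℝ × ℝ)}

/-- the test functions are integrable for the charge measures -/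
theorem HalfQ.integrable_charge (H : QQ 𝓗 a b c B Q) (he : e ∈ Vq 𝓗 a b c B Q) (i : ι)
    {ν : Measure (ℝ × ℝ)} [IsFiniteMeasure ν] (hc : ν (Q i ∩ Wl a b c B)ᶜ = 0) :
    Integrable e ν := by
  have hTm : MeasurableSet (Q i ∩ Wl a b c B) := (H.cpt i).isClosed.measurableSet
  obtain ⟨M, hM⟩ := H.bo he i
  have hae : ∀ᵐ p ∂ν, p ∈ Q i ∩ Wl a b c B := by rw [ae_iff]; exact hc
  have hres : ν.restrict (Q i ∩ Wl a b c B) = ν := Measure.restrict_eq_self_of_ae_mem hae
  have hmeas : AEStronglyMeasurable e ν := by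
    rw [← hres]; exact (he.2 i).aestronglyMeasurable hTm
  exact Integrable.of_bound hmeas M (by
    filter_upwards [hae] with p hp using by simpa using hM p hp)

/-- replacement of the charge measures by mutually singular ones, with the same masses -/
theorem HalfQ.jordan (H : QQ 𝓗 a b c B Q) (hS : MeasurableSet S)
    (h : HalfQ 𝓗 a b c B S Q C X1 X2 f νp νm μ) :
    ∃ νp' νm' : ι → Measure (ℝ × ℝ), HalfQ 𝓗 a b c B S Q C X1 X2 f νp' νm' μ ∧
      (∀ i, νp' i ≤ νp i) ∧ (∀ i, νm' i ≤ νm i) ∧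
      (∀ i, ∃ s, MeasurableSet s ∧ (νp' i) sᶜ = 0 ∧ (νm' i) s = 0) ∧
      (∀ i (e : ℝ × ℝ → ℝ), Integrable e (νp i) → Integrable e (νm i) →
        (∫ p, e p ∂(νp' i)) - ∫ p, e p ∂(νm' i) = (∫ p, e p ∂(νp i)) - ∫ p, e p ∂(νm i)) ∧
      ∀ i p, (νp i) {p} = (νm i) {p} → (νp' i) {p} = 0 ∧ (νm' i) {p} = 0 := by
  have hfin1 := h.pfin
  have hfin2 := h.mfin
  choose π₁ π₂ s g1 g2 g3 g4 g5 g6 g7 g8 g9 using fun i => exists_jordan (νp i) (νm i)
  have hc1 : ∀ i, π₁ i (Q i ∩ Wl a b c B)ᶜ = 0 := fun i =>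
    le_antisymm ((g3 i _).trans (h.pc i).le) zero_le
  have hc2 : ∀ i, π₂ i (Q i ∩ Wl a b c B)ᶜ = 0 := fun i =>
    le_antisymm ((g4 i _).trans (h.mc i).le) zero_le
  have hmass : ∀ i, (π₁ i).real univ = (π₂ i).real univ := by
    intro i
    have h1 := g8 i (fun _ => 1) (integrable_const _) (integrable_const _)
    simp only [integral_const, smul_eq_mul, mul_one] at h1
    rw [h.pm i, h.mm i, sub_self] at h1
    linarith
  have hmle : ∀ i, (π₁ i).real univ ≤ f i := by
    intro i
    rw [← h.pm i]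
    exact ENNReal.toReal_mono (measure_ne_top _ _) (g3 i univ)
  have hJ : ∀ i, ∀ e ∈ Vq 𝓗 a b c B Q, (∫ p, e p ∂(π₁ i)) - ∫ p, e p ∂(π₂ i) =
      (∫ p, e p ∂(νp i)) - ∫ p, e p ∂(νm i) := fun i e he =>
    g8 i e (HalfQ.integrable_charge H he i (h.pc i)) (HalfQ.integrable_charge H he i (h.mc i))
  have hbound : ∀ i, ∀ e ∈ Vq 𝓗 a b c B Q, |(∫ p, e p ∂(π₁ i)) - ∫ p, e p ∂(π₂ i)| ≤
      (π₁ i).real univ * osc (Q i ∩ Wl a b c B) e := by
    intro i e he
    set T := Q i ∩ Wl a b c B with hT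
    rcases T.eq_empty_or_nonempty with hE | ⟨q, hq⟩
    · have h1 : π₁ i = 0 := by
        rw [← Measure.measure_univ_eq_zero, ← compl_empty, ← hE]; exact hc1 i
      have h2 : π₂ i = 0 := by
        rw [← Measure.measure_univ_eq_zero, ← compl_empty, ← hE]; exact hc2 i
      rw [h1, h2]
      simp
    · have hbo := H.bo he i
      have i1 := HalfQ.integrable_charge H he i (hc1 i)
      have i2 := HalfQ.integrable_charge H he i (hc2 i)
      have a1 : (∫ p, e p ∂(π₁ i)) - ∫ p, e p ∂(π₂ i) =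
          (∫ p, (e p - e q) ∂(π₁ i)) - ∫ p, (e p - e q) ∂(π₂ i) := by
        rw [integral_sub i1 (integrable_const _), integral_sub i2 (integrable_const _)]
        simp only [integral_const, smul_eq_mul, hmass i]
        ring
      have main : ∀ ν : Measure (ℝ × ℝ), IsFiniteMeasure ν → ν Tᶜ = 0 → Integrable e ν →
          (sInf (e '' T)) * ν.real univ ≤ ∫ p, e p ∂ν ∧
            ∫ p, e p ∂ν ≤ (sSup (e '' T)) * ν.real univ := by
        intro ν hν hc hint
        obtain ⟨M, hM⟩ := hbo
        have hae : ∀ᵐ p ∂ν, p ∈ T := by rw [ae_iff]; exact hc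
        have hbb : BddBelow (e '' T) := ⟨-M, by
          rintro _ ⟨p, hp, rfl⟩; exact (abs_le.1 (hM p hp)).1⟩
        have hba : BddAbove (e '' T) := ⟨M, by
          rintro _ ⟨p, hp, rfl⟩; exact (abs_le.1 (hM p hp)).2⟩
        have hcst : ∀ r : ℝ, ∫ _, r ∂ν = r * ν.real univ := fun r => by
          rw [integral_const, smul_eq_mul, mul_comm]
        refine ⟨?_, ?_⟩
        · rw [← hcst]
          refine integral_mono_ae (integrable_const _) hint ?_
          filter_upwards [hae] with p hp using csInf_le hbb ⟨p, hp, rfl⟩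
        · rw [← hcst]
          refine integral_mono_ae hint (integrable_const _) ?_
          filter_upwards [hae] with p hp using le_csSup hba ⟨p, hp, rfl⟩
      obtain ⟨p1, p2⟩ := main (π₁ i) inferInstance (hc1 i) i1
      obtain ⟨q1, q2⟩ := main (π₂ i) inferInstance (hc2 i) i2
      rw [← hmass i] at q1 q2
      have hos : sSup (e '' T) - sInf (e '' T) ≤ osc T e := by
        have hne : (e '' T).Nonempty := ⟨_, q, hq, rfl⟩
        have h1 : ∀ s ∈ e '' T, s ≤ sInf (e '' T) + osc T e := by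
          rintro _ ⟨p, hp, rfl⟩
          have h2 : e p - osc T e ≤ sInf (e '' T) := by
            refine le_csInf hne ?_
            rintro _ ⟨p', hp', rfl⟩
            have := (abs_le.1 (le_osc hbo hp hp')).2
            linarith
          linarith
        have := csSup_le hne h1
        linarith
      have h4 := mul_le_mul_of_nonneg_left hos (measureReal_nonneg (μ := π₁ i) (s := univ))
      rw [abs_le]
      constructor <;> nlinarith
  have hms : Summable fun i => (π₁ i).real univ ^ 2 :=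
    Summable.of_nonneg_of_le (fun i => sq_nonneg _)
      (fun i => pow_le_pow_left₀ measureReal_nonneg (hmle i) 2) h.fs
  have hT := h.thomson H hS (X1' := X1) (X2' := X2) (h.L1.restrict _) (h.L2.restrict _)
    (f' := fun i => (π₁ i).real univ) (fun i => measureReal_nonneg) hms
    (fun i e => (∫ p, e p ∂(π₁ i)) - ∫ p, e p ∂(π₂ i)) hbound (fun e he => by
      congr 1
      exact tsum_congr fun i => hJ i e he)
  have hsm : Summable fun i => (π₁ i).real univ * f i :=
    Summable.of_nonneg_of_le (fun i => mul_nonneg measureReal_nonneg (h.f0 i))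
      (fun i => by
        have := mul_le_mul_of_nonneg_right (hmle i) (h.f0 i)
        rwa [← sq] at this) h.fs
  have hle : ∑' i, (f i ^ 2 - (π₁ i).real univ * f i) ≤ 0 := by
    rw [h.fs.tsum_sub hsm]
    linarith
  have hnn : ∀ i, 0 ≤ f i ^ 2 - (π₁ i).real univ * f i := fun i => by
    have := mul_le_mul_of_nonneg_right (hmle i) (h.f0 i)
    rw [← sq] at this
    linarith
  have hz : ∀ i, f i ^ 2 - (π₁ i).real univ * f i = 0 := by
    intro i
    refine le_antisymm ?_ (hnn i)
    exact ((h.fs.sub hsm).le_tsum i fun j _ => hnn j).trans hle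
  have hmf : ∀ i, (π₁ i).real univ = f i := by
    intro i
    rcases (h.f0 i).eq_or_lt with h0 | h0
    · rw [← h0]
      refine le_antisymm ?_ measureReal_nonneg
      rw [h0]; exact hmle i
    · have h1 := hz i
      have h2 : f i * (f i - (π₁ i).real univ) = 0 := by linarith
      rcases mul_eq_zero.1 h2 with h3 | h3
      · exact absurd h3 h0.ne'
      · linarith
  refine ⟨π₁, π₂, ?_, g3, g4, fun i => ⟨s i, g5 i, g6 i, g7 i⟩, g8, g9⟩
  obtain ⟨E, hE, hE1, hE2, hE3⟩ := h.cl
  refine ⟨h.m1, h.m2, h.L1, h.L2, h.z1, h.z2, h.fin, h.carried, h.f0, h.fs, g1, g2, hc1, hc2,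
    hmf, fun i => (hmass i).symm.trans (hmf i), fun e J he hCF hJ0 => ?_, E, hE, hE1, hE2,
    fun i => ?_⟩
  · rw [← h.F e J he hCF hJ0]
    congr 1
    exact tsum_congr fun i => hJ i e he
  · exact (hE3 i).congr fun n => (hJ i _ (hE n)).symm

/-- scaling -/
theorem HalfQ.smul (h : HalfQ 𝓗 a b c B S Q C X1 X2 f νp νm μ) {t : ℝ}
    (ht : 0 < t) :
    HalfQ 𝓗 a b c B S Q C (fun p => t * X1 p) (fun p => t * X2 p) (fun i => t * f i)
      (fun i => ENNReal.ofReal t • νp i) (fun i => ENNReal.ofReal t • νm i)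
      (ENNReal.ofReal t • μ) := by
  have hfin1 := h.pfin
  have hfin2 := h.mfin
  have hfin3 := h.fin
  have hne : ENNReal.ofReal t ≠ ⊤ := ENNReal.ofReal_ne_top
  have ht0 : ENNReal.ofReal t ≠ 0 := by simpa using ht
  have htr : (ENNReal.ofReal t).toReal = t := ENNReal.toReal_ofReal ht.le
  have hsm : ∀ (ν : Measure (ℝ × ℝ)), IsFiniteMeasure ν → IsFiniteMeasure (ENNReal.ofReal t • ν) :=
    fun ν hν => ⟨by
      rw [Measure.smul_apply, smul_eq_mul]
      exact ENNReal.mul_lt_top hne.lt_top (measure_lt_top _ _)⟩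
  have hmass : ∀ (ν : Measure (ℝ × ℝ)) (r : ℝ), ν.real univ = r →
      (ENNReal.ofReal t • ν).real univ = t * r := by
    intro ν r hr
    rw [measureReal_def, Measure.smul_apply, smul_eq_mul, ENNReal.toReal_mul, htr,
      ← measureReal_def, hr]
  have hint : ∀ (ν : Measure (ℝ × ℝ)) (e : ℝ × ℝ → ℝ),
      ∫ p, e p ∂(ENNReal.ofReal t • ν) = t * ∫ p, e p ∂ν := by
    intro ν e
    rw [integral_smul_measure, htr, smul_eq_mul]
  refine ⟨h.m1.const_mul t, h.m2.const_mul t, h.L1.const_mul t, h.L2.const_mul t,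
    fun p hp => by rw [h.z1 p hp, mul_zero], fun p hp => by rw [h.z2 p hp, mul_zero],
    hsm _ h.fin, ?_, fun i => mul_nonneg ht.le (h.f0 i), ?_, fun i => hsm _ (h.pfin i),
    fun i => hsm _ (h.mfin i), fun i => ?_, fun i => ?_, fun i => hmass _ _ (h.pm i),
    fun i => hmass _ _ (h.mm i), fun e J he hCF hJ0 => ?_, ?_⟩
  · rw [Measure.smul_apply, h.carried, smul_zero]
  · simp only [mul_pow]; exact h.fs.mul_left _
  · rw [Measure.smul_apply, h.pc i, smul_zero]
  · rw [Measure.smul_apply, h.mc i, smul_zero]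
  · have hJ1 : μ (cut J) = 0 := by
      rw [Measure.smul_apply, smul_eq_mul, mul_eq_zero] at hJ0
      exact hJ0.resolve_left ht0
    have h1 := h.F e J he hCF hJ1
    simp only [hint]
    rw [← h1, mul_add, ← integral_const_mul, ← tsum_mul_left]
    congr 1
    · refine integral_congr_ae (Eventually.of_forall fun p => ?_)
      show t * X1 p * gx e p + t * X2 p * gy e p = t * (X1 p * gx e p + X2 p * gy e p)
      ring
    · exact tsum_congr fun i => by ring
  · obtain ⟨E, hE, hE1, hE2, hE3⟩ := h.cl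
    refine ⟨fun n => t • E n, fun n => (Vq 𝓗 a b c B Q).smul_mem t (hE n), ?_, ?_, fun i => ?_⟩
    · have h1 := hE1.const_mul (t ^ 2)
      rw [mul_zero] at h1
      refine h1.congr fun n => ?_
      rw [← integral_const_mul]
      have h2 := G_smul (hE n).1.1 t
      refine integral_congr_ae ?_
      have h3 : ∀ᵐ p : ℝ × ℝ, p ∈ Wo a b c B → gx (t • E n) p = t * gx (E n) p ∧
          gy (t • E n) p = t * gy (E n) p := by
        filter_upwards [h2.1, h2.2] with p hp1 hp2 hpW
        unfold G1 at hp1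
        unfold G2 at hp2
        rw [indicator_of_mem hpW, indicator_of_mem hpW] at hp1 hp2
        exact ⟨hp1, hp2⟩
      have h4 : ∀ᵐ p ∂(volume.restrict (Wo a b c B \ S)), p ∈ Wo a b c B := by
        have h5 : ∀ᵐ p ∂(volume.restrict (Wo a b c B)), p ∈ Wo a b c B :=
          ae_restrict_mem measurableSet_Wo
        exact ae_mono (Measure.restrict_mono_set _ sdiff_subset) h5
      filter_upwards [ae_restrict_of_ae h3, h4] with p hp hpW
      rw [(hp hpW).1, (hp hpW).2]
      ring
    · have h1 := hE2.const_mul (t ^ 2)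
      rw [mul_zero] at h1
      refine h1.congr fun n => ?_
      rw [← tsum_mul_left]
      refine tsum_congr fun i => ?_
      rw [osc_smul, abs_of_pos ht]
      ring
    · have h1 := (hE3 i).const_mul (t ^ 2)
      rw [← mul_pow] at h1
      refine h1.congr fun n => ?_
      rw [hint, hint]
      have h2 : ∀ ν : Measure (ℝ × ℝ), ∫ p, (t • E n) p ∂ν = t * ∫ p, E n p ∂ν := by
        intro ν
        rw [← integral_const_mul]
        rfl
      rw [h2, h2]
      ring

end Crest.Agent.R105.Knq_247
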