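/-
# Row 105, S0138 (T-frame), lemma A with exact squares, part 8: the flows with `opt`; helper247

`exists_flow1_opt`, `exists_flow2_opt` : the mass of the flow is the conductance (test functions
with energy `< m + ε`).
-/
import Crest.Agent.R105.Knq6_247

set_option autoImplicit false

open Set Filter MeasureTheory Topology
open scoped ENNReal NNReal InnerProductSpace

namespace Crest.Agent.R105.Knq_247

open CF_363 Kin_238 Kkt_238
open Kks_247 (Lc)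

variable {ι ι' : Type*} {a b c B a' b' c' B' : ℝ} {𝓗 𝓗' : Set Hair} {Q : ι → Set (ℝ × ℝ)}
  {Q' : ι' → Set (ℝ × ℝ)} {S S' C : Set (ℝ × ℝ)} {R R0 : Set ((ℝ × ℝ) × (ℝ × ℝ))}
  {e e' : ℝ × ℝ → ℝ}

set_option maxHeartbeats 800000 in
/-- **one-sided flow**: if the conductance is positive there is a flow with charges -/
theorem exists_flow1_opt (H : QQ 𝓗 a b c B Q) (hS : IsClosed S) (hC : IsCompact C)
    (hCW : C ⊆ Wl a b c B) (hnot : ¬ Null1 𝓗 a b c B S Q C) :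
    ∃ (m : ℝ) (X1 X2 : ℝ × ℝ → ℝ) (f : ι → ℝ) (νp νm : ι → Measure (ℝ × ℝ))
      (μ : Measure (ℝ × ℝ)), 0 < m ∧ HalfQ 𝓗 a b c B S Q C X1 X2 f νp νm μ ∧
      μ.real univ = m ∧ ((∫ p, X1 p ^ 2) + ∫ p, X2 p ^ 2) + ∑' i, f i ^ 2 = m ∧
      ∀ ε > 0, ∃ e ∈ Vq 𝓗 a b c B Q, EQ a b c B S Q e < m + ε ∧
        ∀ p ∈ C, ∀ σ : Bool, 1 ≤ tr e σ p.1 p.2 := by
  classical
  have hSm := hS.measurableSet
  have hCne : C.Nonempty := by
    by_contra h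
    rw [not_nonempty_iff_eq_empty] at h
    apply hnot
    intro ε hε
    have h1 : EQ a b c B S Q 0 < ε := by rw [EQ_zero]; exact hε
    have h2 : ∀ p ∈ C, ∀ σ : Bool, 1 ≤ tr 0 σ p.1 p.2 := fun p hp => by
      rw [h] at hp; exact absurd hp (notMem_empty p)
    exact ⟨0, (Vq 𝓗 a b c B Q).zero_mem, h1, h2⟩
  set pt : C × Bool → ℝ × ℝ := fun q => q.1 with hpt
  set s : C × Bool → Bool := fun q => q.2 with hs
  have hptC : ∀ q, pt q ∈ C := fun q => q.1.2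
  have hptW : ∀ q, pt q ∈ Wl a b c B := fun q => hCW (hptC q)
  have hne : Nonempty (C × Bool) := by
    obtain ⟨p, hp⟩ := hCne
    exact ⟨⟨⟨p, hp⟩, true⟩⟩
  let A := trL 𝓗 a b c B Q pt s hptW
  let D : Vq 𝓗 a b c B Q →ₗ[ℝ] HF := grS 𝓗 a b c B hSm ∘ₗ inc 𝓗 a b c B Q
  have hs2 : ∀ v : Vq 𝓗 a b c B Q, Summable fun i => (lamQ H i v) ^ 2 := fun v => H.summable v.2
  have hEn : ∀ v : Vq 𝓗 a b c B Q, Kks_247.En D (lamQ H) v = EQ a b c B S Q v := by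
    intro v
    show ‖grS 𝓗 a b c B hSm (inc 𝓗 a b c B Q v)‖ ^ 2 + _ = _
    rw [norm_grS_sq]
    rfl
  have hfe : (Feas A).Nonempty := by
    obtain ⟨δ, hδ, hlow⟩ := exists_low hC hCW
    obtain ⟨e, he, h1⟩ := exists_bottomQ 𝓗 a b c B Q hδ
    have h2 : ∀ q : C × Bool, 1 ≤ tr e (s q) (pt q).1 (pt q).2 := fun q => by
      rw [h1 (s q) _ _ (hptW q).1 (hlow _ (hptC q)) (hptW q).2.2]
    exact ⟨⟨e, he⟩, h2⟩
  have hA : ∀ v, Bd (A v) := bd_trL pt s hptW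
  obtain ⟨X, k, hX⟩ := Kks_247.exists_min D (lamQ H) A hs2 hfe
  have hm : 0 < Kks_247.condS D (lamQ H) A := by
    have h00 : 0 ≤ Kks_247.condS D (lamQ H) A := Kks_247.condS_nonneg
    rcases h00.lt_or_eq with h0 | h0
    · exact h0
    exfalso
    apply hnot
    intro ε hε
    have h1 : sInf (Kks_247.En D (lamQ H) '' Feas A) < ε := by
      show Kks_247.condS D (lamQ H) A < ε
      rw [← h0]; exact hε
    obtain ⟨_, ⟨z, hz, rfl⟩, hlt⟩ := exists_lt_of_csInf_lt (hfe.image _) h1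
    rw [hEn] at hlt
    exact ⟨z, z.2, hlt, fun p hp σ => hz ⟨⟨p, hp⟩, σ⟩⟩
  obtain ⟨l, Lam, hF, hL1⟩ := hX.exists_flow hA
  obtain ⟨z, hz, hz1, hz2⟩ := hX.lim
  obtain ⟨hsl1, hsl2⟩ := hX.slack hA hF hL1 hz hz1 hz2
  obtain ⟨μ, hfin, hcar, hone, hint, hcl, -⟩ := push_to hF.pos hC pt hptC
  have hemp : ∀ i, Q i ∩ Wl a b c B = ∅ → k i = 0 := by
    intro i hi
    have h1 := tendsto_coord hz2 i
    have h2 : ∀ n, Lc (lamQ H) hs2 (z n) i = 0 := by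
      intro n
      show osc (Q i ∩ Wl a b c B) (z n) = 0
      rw [hi]
      exact le_antisymm (osc_le le_rfl fun p hp => absurd hp (notMem_empty p)) (osc_nonneg _ _)
    simp only [h2] at h1
    exact tendsto_nhds_unique h1 tendsto_const_nhds
  have q1 : ∀ i (e : Vq 𝓗 a b c B Q), |l i e| ≤ k i * osc (Q i ∩ Wl a b c B) e :=
    fun i e => hF.le i e
  have q2 : ∀ e : Vq 𝓗 a b c B Q, ⟪X, grS 𝓗 a b c B hSm (inc 𝓗 a b c B Q e)⟫_ℝ + ∑' i, l i e =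
      Lam (fun q => tr e (s q) (pt q).1 (pt q).2) := fun e => hF.eq e
  have q3 : Tendsto (fun n => grS 𝓗 a b c B hSm (inc 𝓗 a b c B Q (z n))) atTop (𝓝 X) := hz1
  have q4 : Tendsto (fun n => ∑' i, (osc (Q i ∩ Wl a b c B) (z n) - k i) ^ 2) atTop (𝓝 0) :=
    by simpa only [Kks_247.Lc_apply, lamQ_apply] using tendsto_sum_sq hz2
  have q5 := Kks_247.l2_summable_sq k
  have q6 := hX.nonneg
  obtain ⟨νp, νm, hH, -⟩ := exists_halfQ H (hS := hSm) hF.pos hCW pt s hptC hfin hcar hint hcl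
    (X := X) (k := fun i => k i) q6 q5 hemp l q1 q2 z q3 q4 hsl2
  have hcl1 : X ∈ closure (range (grS 𝓗 a b c B hSm)) :=
    mem_closure_of_tendsto q3 (Eventually.of_forall fun n => ⟨_, rfl⟩)
  have hen : ((∫ p, repS a b c B S X 0 p ^ 2) + ∫ p, repS a b c B S X 1 p ^ 2) + ∑' i, k i ^ 2 =
      Kks_247.condS D (lamQ H) A := by
    rw [norm_repS hcl1, ← Kks_247.l2_norm_sq, hX.norm_sq]
  have hmass : μ.real univ = Kks_247.condS D (lamQ H) A := by rw [hone, hL1]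
  exact ⟨Kks_247.condS D (lamQ H) A, repS a b c B S X 0, repS a b c B S X 1, fun i => k i, νp, νm,
    μ, hm, hH, hmass, hen, fun ε hε => by
      have h1 : sInf (Kks_247.En D (lamQ H) '' Feas A) < Kks_247.condS D (lamQ H) A + ε :=
        lt_add_of_pos_right _ hε
      obtain ⟨_, ⟨z, hz, rfl⟩, hlt⟩ := exists_lt_of_csInf_lt (hfe.image _) h1
      rw [hEn] at hlt
      exact ⟨z, z.2, hlt, fun p hp σ => hz ⟨⟨p, hp⟩, σ⟩⟩⟩

open Classical in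
set_option maxHeartbeats 1600000 in
/-- **pair flow**: if the two-sided conductance is positive there is a flow with charges -/
theorem exists_flow2_opt (H : QQ 𝓗 a b c B Q) (H' : QQ 𝓗' a' b' c' B' Q') (hS : IsClosed S)
    (hS' : IsClosed S') (hR : IsCompact R)
    (hRW : ∀ q ∈ R, q.1 ∈ Wl a b c B ∧ q.2 ∈ Wl a' b' c' B')
    (hnot : ¬ Null2 𝓗 a b c B S Q 𝓗' a' b' c' B' S' Q' R) :
    ∃ (m : ℝ) (X1 X2 : ℝ × ℝ → ℝ) (f : ι → ℝ) (νp νm : ι → Measure (ℝ × ℝ))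
      (Y1 Y2 : ℝ × ℝ → ℝ) (f' : ι' → ℝ) (νp' νm' : ι' → Measure (ℝ × ℝ))
      (Λ : Measure ((ℝ × ℝ) × (ℝ × ℝ))), 0 < m ∧
      FlowQ 𝓗 a b c B S Q 𝓗' a' b' c' B' S' Q' R m X1 X2 f νp νm Y1 Y2 f' νp' νm' Λ ∧
      ∀ ε > 0, ∃ e ∈ Vq 𝓗 a b c B Q, ∃ e' ∈ Vq 𝓗' a' b' c' B' Q',
        EQ a b c B S Q e + EQ a' b' c' B' S' Q' e' < m + ε ∧
        ∀ q ∈ R, ∀ σ σ' : Bool, 1 ≤ tr e σ q.1.1 q.1.2 + tr e' σ' q.2.1 q.2.2 := by
  have hSm := hS.measurableSet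
  have hSm' := hS'.measurableSet
  have hRne : R.Nonempty := by
    by_contra h
    rw [not_nonempty_iff_eq_empty] at h
    apply hnot
    intro ε hε
    have h1 : EQ a b c B S Q 0 + EQ a' b' c' B' S' Q' 0 < ε := by
      rw [EQ_zero, EQ_zero]; simpa using hε
    have h2 : ∀ q ∈ R, ∀ σ σ' : Bool, 1 ≤ tr 0 σ q.1.1 q.1.2 + tr 0 σ' q.2.1 q.2.2 :=
      fun q hq => by rw [h] at hq; exact absurd hq (notMem_empty q)
    exact ⟨0, (Vq 𝓗 a b c B Q).zero_mem, 0, (Vq 𝓗' a' b' c' B' Q').zero_mem, h1, h2⟩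
  have hne : Nonempty (R × Bool × Bool) := by
    obtain ⟨p, hp⟩ := hRne
    exact ⟨⟨⟨p, hp⟩, true, true⟩⟩
  obtain ⟨A, hAdef⟩ : ∃ A, A = A2 𝓗 a b c B Q 𝓗' a' b' c' B' Q' hRW := ⟨_, rfl⟩
  obtain ⟨D, hDdef⟩ : ∃ D, D = D2 𝓗 a b c B Q hSm 𝓗' a' b' c' B' Q' hSm' := ⟨_, rfl⟩
  have hA : ∀ v, Bd (A v) := by rw [hAdef]; exact bd_A2 hRW
  have hfe : (Feas A).Nonempty := by rw [hAdef]; exact feas2 hR hRW
  have hs2 := summable_lam2 H H'
  have hEn : ∀ v, Kks_247.En D (lam2 H H') v = EQ a b c B S Q v.1 + EQ a' b' c' B' S' Q' v.2 := by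
    intro v; rw [hDdef]; exact En2_eq H H' v
  obtain ⟨X, k, hX⟩ := Kks_247.exists_min D (lam2 H H') A hs2 hfe
  have hm : 0 < Kks_247.condS D (lam2 H H') A := by
    have h00 : 0 ≤ Kks_247.condS D (lam2 H H') A := Kks_247.condS_nonneg
    rcases h00.lt_or_eq with h0 | h0
    · exact h0
    exfalso
    apply hnot
    intro ε hε
    have h1 : sInf (Kks_247.En D (lam2 H H') '' Feas A) < ε := by
      show Kks_247.condS D (lam2 H H') A < ε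
      rw [← h0]; exact hε
    obtain ⟨_, ⟨z, hz, rfl⟩, hlt⟩ := exists_lt_of_csInf_lt (hfe.image _) h1
    rw [hEn] at hlt
    refine ⟨z.1, z.1.2, z.2, z.2.2, hlt, fun q hq σ σ' => ?_⟩
    have h2 := hz ⟨⟨q, hq⟩, σ, σ'⟩
    rw [hAdef, A2_apply] at h2
    exact h2
  obtain ⟨l, Lam, hF, hL1⟩ := hX.exists_flow hA
  obtain ⟨z, hz, hz1, hz2⟩ := hX.lim
  obtain ⟨hsl1, hsl2⟩ := hX.slack hA hF hL1 hz hz1 hz2
  obtain ⟨Λ, hfin, hcar, hone, hint, hcl, hop⟩ := push_to hF.pos hR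
    (fun q : R × Bool × Bool => (q.1 : (ℝ × ℝ) × (ℝ × ℝ))) (fun q => q.1.2)
  obtain ⟨c1, r1, i1⟩ := marg hR hcar continuous_fst hint
  obtain ⟨c2, r2, i2⟩ := marg hR hcar continuous_snd hint
  -- the functionals of the two halves
  have hzero1 : ∀ (i : ι') (e : Vq 𝓗 a b c B Q), l (Sum.inr i) (e, 0) = 0 := by
    intro i e
    have h1 := hF.le (Sum.inr i) (e, 0)
    have h2 : lam2 H H' (Sum.inr i) ((e, 0) : Vq 𝓗 a b c B Q × Vq 𝓗' a' b' c' B' Q') = 0 :=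
      map_zero (lamQ H' i)
    rw [h2, mul_zero] at h1
    exact abs_nonpos_iff.1 h1
  have hzero2 : ∀ (i : ι) (e : Vq 𝓗' a' b' c' B' Q'), l (Sum.inl i) (0, e) = 0 := by
    intro i e
    have h1 := hF.le (Sum.inl i) (0, e)
    have h2 : lam2 H H' (Sum.inl i) ((0, e) : Vq 𝓗 a b c B Q × Vq 𝓗' a' b' c' B' Q') = 0 :=
      map_zero (lamQ H i)
    rw [h2, mul_zero] at h1
    exact abs_nonpos_iff.1 h1
  have hsplit1 : ∀ (i : ι) (v : Vq 𝓗 a b c B Q × Vq 𝓗' a' b' c' B' Q'),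
      l (Sum.inl i) v = l (Sum.inl i) (v.1, 0) := by
    intro i v
    have h1 : v = (v.1, 0) + (0, v.2) := by simp
    conv_lhs => rw [h1]
    rw [map_add, hzero2, add_zero]
  have hsplit2 : ∀ (i : ι') (v : Vq 𝓗 a b c B Q × Vq 𝓗' a' b' c' B' Q'),
      l (Sum.inr i) v = l (Sum.inr i) (0, v.2) := by
    intro i v
    have h1 : v = (v.1, 0) + (0, v.2) := by simp
    conv_lhs => rw [h1]
    rw [map_add, hzero1, zero_add]
  have hk2 := Kks_247.l2_summable_sq k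
  have hsl : ∀ v, Summable fun j => l j v := fun v => hF.summable hs2 v
  have hkl : Summable fun i => (k (Sum.inl i)) ^ 2 := hk2.comp_injective Sum.inl_injective
  have hkr : Summable fun i => (k (Sum.inr i)) ^ 2 := hk2.comp_injective Sum.inr_injective
  -- lower half
  have q1 : ∀ i (e : Vq 𝓗 a b c B Q), |(l (Sum.inl i) ∘ₗ LinearMap.inl ℝ _ _) e| ≤
      k (Sum.inl i) * osc (Q i ∩ Wl a b c B) e := fun i e => hF.le (Sum.inl i) (e, 0)
  have q2 : ∀ e : Vq 𝓗 a b c B Q, ⟪X 0, grS 𝓗 a b c B hSm (inc 𝓗 a b c B Q e)⟫_ℝ +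
      ∑' i, (l (Sum.inl i) ∘ₗ LinearMap.inl ℝ _ _) e =
      Lam (fun q : R × Bool × Bool => tr e q.2.1 (q.1 : (ℝ × ℝ) × (ℝ × ℝ)).1.1
        (q.1 : (ℝ × ℝ) × (ℝ × ℝ)).1.2) := by
    intro e
    have h1 := hF.eq (e, 0)
    have h2 : ∑' j, l j ((e, 0) : Vq 𝓗 a b c B Q × Vq 𝓗' a' b' c' B' Q') =
        (∑' i, l (Sum.inl i) (e, 0)) + ∑' i, l (Sum.inr i) (e, 0) :=
      Summable.tsum_sum ((hsl (e, 0)).comp_injective Sum.inl_injective)
        ((hsl (e, 0)).comp_injective Sum.inr_injective)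
    simp only [hzero1, tsum_zero, add_zero] at h2
    rw [h2, hDdef, inner_D2] at h1
    have h3 : ⟪X 1, grS 𝓗' a' b' c' B' hSm' (inc 𝓗' a' b' c' B' Q' 0)⟫_ℝ = 0 := by
      rw [map_zero, map_zero, inner_zero_right]
    rw [h3, add_zero] at h1
    refine h1.trans ?_
    congr 1
    ext q
    rw [hAdef, A2_apply]
    have h4 : tr ((0 : Vq 𝓗' a' b' c' B' Q') : ℝ × ℝ → ℝ) q.2.2
      (q.1 : (ℝ × ℝ) × (ℝ × ℝ)).2.1 (q.1 : (ℝ × ℝ) × (ℝ × ℝ)).2.2 = 0 := tr_zero _ _ _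
    rw [h4, add_zero]
  have q3 : Tendsto (fun n => grS 𝓗 a b c B hSm (inc 𝓗 a b c B Q (z n).1)) atTop (𝓝 (X 0)) := by
    have hc : Continuous fun Y : HH => Y 0 := PiLp.continuous_apply 2 _ 0
    have h1 := (hc.tendsto X).comp hz1
    rw [hDdef] at h1
    exact h1
  have p3 : Tendsto (fun n => grS 𝓗' a' b' c' B' hSm' (inc 𝓗' a' b' c' B' Q' (z n).2)) atTop
      (𝓝 (X 1)) := by
    have hc : Continuous fun Y : HH => Y 1 := PiLp.continuous_apply 2 _ 1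
    have h1 := (hc.tendsto X).comp hz1
    rw [hDdef] at h1
    exact h1
  have hsum := tendsto_sum_sq hz2
  have hdsum : ∀ n, Summable fun j => (Lc (lam2 H H') hs2 (z n) j - k j) ^ 2 := fun n =>
    Kks_247.l2_summable_sq (Lc (lam2 H H') hs2 (z n) - k)
  have htot : ∀ n, ∑' j, (Lc (lam2 H H') hs2 (z n) j - k j) ^ 2 =
      (∑' i, (osc (Q i ∩ Wl a b c B) (z n).1 - k (Sum.inl i)) ^ 2) +
      ∑' i, (osc (Q' i ∩ Wl a' b' c' B') (z n).2 - k (Sum.inr i)) ^ 2 := fun n =>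
    Summable.tsum_sum ((hdsum n).comp_injective Sum.inl_injective)
      ((hdsum n).comp_injective Sum.inr_injective)
  simp only [htot] at hsum
  have q4 : Tendsto (fun n => ∑' i, (osc (Q i ∩ Wl a b c B) (z n).1 - k (Sum.inl i)) ^ 2) atTop
      (𝓝 0) :=
    squeeze_zero (fun n => tsum_nonneg fun i => sq_nonneg _)
      (fun n => le_add_of_nonneg_right (tsum_nonneg fun i => sq_nonneg _)) hsum
  have p4 : Tendsto (fun n => ∑' i, (osc (Q' i ∩ Wl a' b' c' B') (z n).2 - k (Sum.inr i)) ^ 2)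
      atTop (𝓝 0) :=
    squeeze_zero (fun n => tsum_nonneg fun i => sq_nonneg _)
      (fun n => le_add_of_nonneg_left (tsum_nonneg fun i => sq_nonneg _)) hsum
  have q5 : ∀ i, Tendsto (fun n => (l (Sum.inl i) ∘ₗ LinearMap.inl ℝ _ _) (z n).1) atTop
      (𝓝 ((k (Sum.inl i)) ^ 2)) := by
    intro i
    refine (hsl2 (Sum.inl i)).congr fun n => ?_
    exact hsplit1 i (z n)
  have p5 : ∀ i, Tendsto (fun n => (l (Sum.inr i) ∘ₗ LinearMap.inr ℝ _ _) (z n).2) atTop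
      (𝓝 ((k (Sum.inr i)) ^ 2)) := by
    intro i
    refine (hsl2 (Sum.inr i)).congr fun n => ?_
    exact hsplit2 i (z n)
  -- upper half
  have p1 : ∀ i (e : Vq 𝓗' a' b' c' B' Q'), |(l (Sum.inr i) ∘ₗ LinearMap.inr ℝ _ _) e| ≤
      k (Sum.inr i) * osc (Q' i ∩ Wl a' b' c' B') e := fun i e => hF.le (Sum.inr i) (0, e)
  have p2 : ∀ e : Vq 𝓗' a' b' c' B' Q', ⟪X 1, grS 𝓗' a' b' c' B' hSm' (inc 𝓗' a' b' c' B' Q' e)⟫_ℝ +
      ∑' i, (l (Sum.inr i) ∘ₗ LinearMap.inr ℝ _ _) e =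
      Lam (fun q : R × Bool × Bool => tr e q.2.2 (q.1 : (ℝ × ℝ) × (ℝ × ℝ)).2.1
        (q.1 : (ℝ × ℝ) × (ℝ × ℝ)).2.2) := by
    intro e
    have h1 := hF.eq (0, e)
    have h2 : ∑' j, l j ((0, e) : Vq 𝓗 a b c B Q × Vq 𝓗' a' b' c' B' Q') =
        (∑' i, l (Sum.inl i) (0, e)) + ∑' i, l (Sum.inr i) (0, e) :=
      Summable.tsum_sum ((hsl (0, e)).comp_injective Sum.inl_injective)
        ((hsl (0, e)).comp_injective Sum.inr_injective)
    simp only [hzero2, tsum_zero, zero_add] at h2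
    rw [h2, hDdef, inner_D2] at h1
    have h3 : ⟪X 0, grS 𝓗 a b c B hSm (inc 𝓗 a b c B Q 0)⟫_ℝ = 0 := by
      rw [map_zero, map_zero, inner_zero_right]
    rw [h3, zero_add] at h1
    refine h1.trans ?_
    congr 1
    ext q
    rw [hAdef, A2_apply]
    have h4 : tr ((0 : Vq 𝓗 a b c B Q) : ℝ × ℝ → ℝ) q.2.1
      (q.1 : (ℝ × ℝ) × (ℝ × ℝ)).1.1 (q.1 : (ℝ × ℝ) × (ℝ × ℝ)).1.2 = 0 := tr_zero _ _ _
    rw [h4, zero_add]
  have hemp : ∀ i, Q i ∩ Wl a b c B = ∅ → k (Sum.inl i) = 0 := by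
    intro i hi
    have h1 := tendsto_coord hz2 (Sum.inl i)
    have h2 : ∀ n, Lc (lam2 H H') hs2 (z n) (Sum.inl i) = 0 := by
      intro n
      rw [Kks_247.Lc_apply, lam2_inl, hi]
      exact le_antisymm (osc_le le_rfl fun p hp => absurd hp (notMem_empty p)) (osc_nonneg _ _)
    simp only [h2] at h1
    exact tendsto_nhds_unique h1 tendsto_const_nhds
  have hemp' : ∀ i, Q' i ∩ Wl a' b' c' B' = ∅ → k (Sum.inr i) = 0 := by
    intro i hi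
    have h1 := tendsto_coord hz2 (Sum.inr i)
    have h2 : ∀ n, Lc (lam2 H H') hs2 (z n) (Sum.inr i) = 0 := by
      intro n
      rw [Kks_247.Lc_apply, lam2_inr, hi]
      exact le_antisymm (osc_le le_rfl fun p hp => absurd hp (notMem_empty p)) (osc_nonneg _ _)
    simp only [h2] at h1
    exact tendsto_nhds_unique h1 tendsto_const_nhds
  have hclo : ∀ F : Set (ℝ × ℝ), IsClosed F →
      Lam (fun q : R × Bool × Bool => if (q.1 : (ℝ × ℝ) × (ℝ × ℝ)).1 ∈ F then 1 else 0) ≤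
        (Λ.map Prod.fst).real F := by
    intro F hF'
    rw [measureReal_def, Measure.map_apply measurable_fst hF'.measurableSet, ← measureReal_def]
    exact hcl (Prod.fst ⁻¹' F) (hF'.preimage continuous_fst)
  have hclo' : ∀ F : Set (ℝ × ℝ), IsClosed F →
      Lam (fun q : R × Bool × Bool => if (q.1 : (ℝ × ℝ) × (ℝ × ℝ)).2 ∈ F then 1 else 0) ≤
        (Λ.map Prod.snd).real F := by
    intro F hF'
    rw [measureReal_def, Measure.map_apply measurable_snd hF'.measurableSet, ← measureReal_def]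
    exact hcl (Prod.snd ⁻¹' F) (hF'.preimage continuous_snd)
  have hCW : Prod.fst '' R ⊆ Wl a b c B := by rintro _ ⟨q, hq, rfl⟩; exact (hRW q hq).1
  have hCW' : Prod.snd '' R ⊆ Wl a' b' c' B' := by rintro _ ⟨q, hq, rfl⟩; exact (hRW q hq).2
  obtain ⟨νp, νm, hlo, -⟩ := exists_halfQ H (hS := hSm) hF.pos hCW
    (fun q : R × Bool × Bool => (q.1 : (ℝ × ℝ) × (ℝ × ℝ)).1) (fun q => q.2.1)
    (fun q => ⟨_, q.1.2, rfl⟩) (μ := Λ.map Prod.fst) inferInstance c1 i1 hclo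
    (X := X 0) (k := fun i => k (Sum.inl i)) (fun i => hX.nonneg _) hkl hemp
    (fun i => l (Sum.inl i) ∘ₗ LinearMap.inl ℝ _ _) q1 q2 (fun n => (z n).1) q3 q4 q5
  obtain ⟨νp', νm', hup, -⟩ := exists_halfQ H' (hS := hSm') hF.pos hCW'
    (fun q : R × Bool × Bool => (q.1 : (ℝ × ℝ) × (ℝ × ℝ)).2) (fun q => q.2.2)
    (fun q => ⟨_, q.1.2, rfl⟩) (μ := Λ.map Prod.snd) inferInstance c2 i2 hclo'
    (X := X 1) (k := fun i => k (Sum.inr i)) (fun i => hX.nonneg _) hkr hemp'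
    (fun i => l (Sum.inr i) ∘ₗ LinearMap.inr ℝ _ _) p1 p2 (fun n => (z n).2) p3 p4 p5
  have hcl0 : X 0 ∈ closure (range (grS 𝓗 a b c B hSm)) :=
    mem_closure_of_tendsto q3 (Eventually.of_forall fun n => ⟨_, rfl⟩)
  have hcl1 : X 1 ∈ closure (range (grS 𝓗' a' b' c' B' hSm')) :=
    mem_closure_of_tendsto p3 (Eventually.of_forall fun n => ⟨_, rfl⟩)
  have hmass : Λ.real univ = Kks_247.condS D (lam2 H H') A := by rw [hone, hL1]
  have hkk : ∑' j, (k j) ^ 2 = (∑' i, (k (Sum.inl i)) ^ 2) + ∑' i, (k (Sum.inr i)) ^ 2 :=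
    Summable.tsum_sum hkl hkr
  have hen : (((∫ p, repS a b c B S (X 0) 0 p ^ 2) + ∫ p, repS a b c B S (X 0) 1 p ^ 2) +
      ∑' i, (k (Sum.inl i)) ^ 2) + (((∫ p, repS a' b' c' B' S' (X 1) 0 p ^ 2) +
      ∫ p, repS a' b' c' B' S' (X 1) 1 p ^ 2) + ∑' i, (k (Sum.inr i)) ^ 2) =
      Kks_247.condS D (lam2 H H') A := by
    rw [norm_repS hcl0, norm_repS hcl1, ← hX.norm_sq, Kks_247.l2_norm_sq, norm_HH_sq, hkk]
    ring
  refine ⟨Kks_247.condS D (lam2 H H') A, repS a b c B S (X 0) 0, repS a b c B S (X 0) 1,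
    fun i => k (Sum.inl i), νp, νm, repS a' b' c' B' S' (X 1) 0, repS a' b' c' B' S' (X 1) 1,
    fun i => k (Sum.inr i), νp', νm', Λ, hm, ⟨hlo, hup, hfin, hcar, hmass, hen, ?_⟩, ?_⟩
  rotate_left
  · intro ε hε
    have h1 : sInf (Kks_247.En D (lam2 H H') '' Feas A) < Kks_247.condS D (lam2 H H') A + ε :=
      lt_add_of_pos_right _ hε
    obtain ⟨_, ⟨z, hz, rfl⟩, hlt⟩ := exists_lt_of_csInf_lt (hfe.image _) h1
    rw [hEn] at hlt
    refine ⟨z.1, z.1.2, z.2, z.2.2, hlt, fun q hq σ σ' => ?_⟩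
    have h2 := hz ⟨⟨q, hq⟩, σ, σ'⟩
    rw [hAdef, A2_apply] at h2
    exact h2
  -- no atoms
  intro R0 hR0 hnull
  set m := Kks_247.condS D (lam2 H H') A with hmdef
  have key : ∀ ε > 0, Λ.real R0 ≤ ε := by
    intro ε hε
    have hδ0 : 0 < ε ^ 2 / (4 * m) := by positivity
    obtain ⟨e, he, e', he', hlt, hf⟩ := hnull _ hδ0
    have hem := Vq_max he
    have hem' := Vq_max he'
    obtain ⟨w, hw⟩ : ∃ w : Vq 𝓗 a b c B Q × Vq 𝓗' a' b' c' B' Q', w = (⟨_, hem⟩, ⟨_, hem'⟩) :=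
      ⟨_, rfl⟩
    have ht1 : ∀ q ∈ R, ∀ σ : Bool, tr (fun p => max (e p) 0) σ q.1.1 q.1.2 =
        max (tr e σ q.1.1 q.1.2) 0 := fun q hq σ =>
      tr_comp he.1.1 (G := fun t => max t 0) (by fun_prop) σ (hRW q hq).1.1 (hRW q hq).1.2.1
        (hRW q hq).1.2.2
    have ht2 : ∀ q ∈ R, ∀ σ : Bool, tr (fun p => max (e' p) 0) σ q.2.1 q.2.2 =
        max (tr e' σ q.2.1 q.2.2) 0 := fun q hq σ =>
      tr_comp he'.1.1 (G := fun t => max t 0) (by fun_prop) σ (hRW q hq).2.1 (hRW q hq).2.2.1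
        (hRW q hq).2.2.2
    obtain ⟨U, hU, hR0U, hUge⟩ := exists_open_near (R0 := R0) (fun q hq => hRW q (hR0 hq))
      hem.1.1 hem'.1.1 (fun q hq σ σ' => by
        rw [ht1 q (hR0 hq), ht2 q (hR0 hq)]
        have h1 := hf q hq σ σ'
        have h2 := le_max_left (tr e σ q.1.1 q.1.2) 0
        have h3 := le_max_left (tr e' σ' q.2.1 q.2.2) 0
        linarith)
    have h1 : Λ.real R0 ≤ Λ.real U := measureReal_mono hR0U
    have h2 := hop U hU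
    have h3 : Lam (fun q : R × Bool × Bool => if (q.1 : (ℝ × ℝ) × (ℝ × ℝ)) ∈ U then 1 else 0) ≤
        Lam ((2:ℝ) • A w) := by
      have hb1 : Bd (fun q : R × Bool × Bool =>
          if (q.1 : (ℝ × ℝ) × (ℝ × ℝ)) ∈ U then (1:ℝ) else 0) :=
        ⟨1, fun q => by beta_reduce; split_ifs <;> simp⟩
      refine hF.pos.mono hb1 ((hA w).smul 2) fun q => ?_
      have h4 : A w q = max (tr e q.2.1 (q.1 : (ℝ × ℝ) × (ℝ × ℝ)).1.1
          (q.1 : (ℝ × ℝ) × (ℝ × ℝ)).1.2) 0 + max (tr e' q.2.2 (q.1 : (ℝ × ℝ) × (ℝ × ℝ)).2.1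
          (q.1 : (ℝ × ℝ) × (ℝ × ℝ)).2.2) 0 := by
        rw [hAdef, A2_apply, hw]
        exact congrArg₂ (· + ·) (ht1 _ q.1.2 _) (ht2 _ q.1.2 _)
      show (if (q.1 : (ℝ × ℝ) × (ℝ × ℝ)) ∈ U then (1:ℝ) else 0) ≤ 2 * A w q
      by_cases hqU : (q.1 : (ℝ × ℝ) × (ℝ × ℝ)) ∈ U
      · rw [if_pos hqU, h4]
        have h5 := hUge _ hqU (hRW _ q.1.2).1 (hRW _ q.1.2).2 q.2.1 q.2.2
        rw [ht1 _ q.1.2, ht2 _ q.1.2] at h5
        linarith
      · rw [if_neg hqU, h4]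
        have h5 := le_max_right (tr e q.2.1 (q.1 : (ℝ × ℝ) × (ℝ × ℝ)).1.1
          (q.1 : (ℝ × ℝ) × (ℝ × ℝ)).1.2) 0
        have h6 := le_max_right (tr e' q.2.2 (q.1 : (ℝ × ℝ) × (ℝ × ℝ)).2.1
          (q.1 : (ℝ × ℝ) × (ℝ × ℝ)).2.2) 0
        linarith
    have h7 : (Lam (A w)) ^ 2 ≤ m * (ε ^ 2 / (4 * m)) := by
      have e1 := hF.eq w
      have e2 := (abs_le.1 (hF.sum_le hs2 w)).2
      have e3 := real_inner_le_norm X (D w)
      have e4 := real_inner_le_norm k (Lc (lam2 H H') hs2 w)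
      have e5 : 0 ≤ Lam (A w) := by
        refine hF.pos.nonneg _ (hA w) fun q => ?_
        rw [hAdef, A2_apply, hw]
        have g1 : 0 ≤ tr (fun p => max (e p) 0) q.2.1 (q.1 : (ℝ × ℝ) × (ℝ × ℝ)).1.1
            (q.1 : (ℝ × ℝ) × (ℝ × ℝ)).1.2 := by rw [ht1 _ q.1.2]; exact le_max_right _ _
        have g2 : 0 ≤ tr (fun p => max (e' p) 0) q.2.2 (q.1 : (ℝ × ℝ) × (ℝ × ℝ)).2.1
            (q.1 : (ℝ × ℝ) × (ℝ × ℝ)).2.2 := by rw [ht2 _ q.1.2]; exact le_max_right _ _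
        exact add_nonneg g1 g2
      have e6 : Lam (A w) ≤ ‖X‖ * ‖D w‖ + ‖k‖ * ‖Lc (lam2 H H') hs2 w‖ := by linarith
      have e7 : (‖X‖ * ‖D w‖ + ‖k‖ * ‖Lc (lam2 H H') hs2 w‖) ^ 2 ≤
          (‖X‖ ^ 2 + ‖k‖ ^ 2) * (‖D w‖ ^ 2 + ‖Lc (lam2 H H') hs2 w‖ ^ 2) := by
        nlinarith [sq_nonneg (‖X‖ * ‖Lc (lam2 H H') hs2 w‖ - ‖k‖ * ‖D w‖)]
      have e8 : ‖D w‖ ^ 2 + ‖Lc (lam2 H H') hs2 w‖ ^ 2 ≤ ε ^ 2 / (4 * m) := by
        rw [← Kks_247.En_eq hs2, hEn, hw]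
        have g1 := EQ_max_le H hS he
        have g2 := EQ_max_le H' hS' he'
        exact (add_le_add g1 g2).trans hlt.le
      rw [hX.norm_sq] at e7
      exact (pow_le_pow_left₀ e5 e6 2).trans (e7.trans (mul_le_mul_of_nonneg_left e8 hm.le))
    have h8 : m * (ε ^ 2 / (4 * m)) = (ε / 2) ^ 2 := by
      field_simp
      ring
    rw [h8] at h7
    have h9 : Lam (A w) ≤ ε / 2 := le_of_sq_le_sq h7 (by positivity)
    rw [map_smul, smul_eq_mul] at h3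
    linarith
  have h0 : Λ.real R0 = 0 :=
    le_antisymm (le_of_forall_pos_le_add fun ε hε => by simpa using key ε hε) measureReal_nonneg
  exact (measureReal_eq_zero_iff (measure_ne_top _ _)).1 h0

end Crest.Agent.R105.Knq_247
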