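/-
# Row 105, S0138, lemma A: the box problem of a picture `PicS E 𝒬 𝓗`, part 1; helper247

Reflection of pictures (`rfS`, `refl_pic`), maximal hairs (`H0`), the instance of `QQ`.
-/
import Crest.Agent.R105.Knq8_247
import Crest.Agent.R105.Knq7_247
import Crest.Agent.R105.SkT1_137
import Crest.Agent.R105.Famq2_306

set_option autoImplicit false

open Set Filter MeasureTheory Topology

namespace Crest.Agent.R105.Kbx_247

open Crest.Agent.R105.CF_363 Crest.Agent.R105.Stp_722 Crest.Agent.R105.Cq_463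
open Crest.Agent.R105.Nal_649 Crest.Agent.R105.Exs_992 Crest.Agent.R105.Famq_306
open Crest.Agent.R105.Skp2_257 (Comps Lo Up)
open Crest.Agent.R105.Kin_238 (Wl Wo)
open Crest.Agent.R105.Knq_247 (QQ)

variable {E : Set (ℝ × ℝ)} {𝒬 𝒬' : Set Sqr} {𝓗 : Set Hair} {a b c d B : ℝ}

/-! ### reflection -/

/-- the reflected square -/
def rfS (Q : Sqr) : Sqr := ⟨Q.x, -(Q.y + Q.s), Q.s, Q.hs⟩

@[simp] theorem rfS_x (Q : Sqr) : (rfS Q).x = Q.x := rfl
@[simp] theorem rfS_y (Q : Sqr) : (rfS Q).y = -(Q.y + Q.s) := rfl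
@[simp] theorem rfS_s (Q : Sqr) : (rfS Q).s = Q.s := rfl

@[simp] theorem rfS_rfS (Q : Sqr) : rfS (rfS Q) = Q := by
  ext <;> simp [rfS]

theorem rfS_injective : Function.Injective rfS := fun Q Q' h => by
  rw [← rfS_rfS Q, h, rfS_rfS]

theorem mem_car_rfS {Q : Sqr} {p : ℝ × ℝ} : p ∈ (rfS Q).car ↔ rf p ∈ Q.car := by
  simp only [Sqr.mem_car, rfS_x, rfS_y, rfS_s, rf_fst, rf_snd]
  constructor
  · rintro ⟨h1, h2, h3⟩; exact ⟨h1, by linarith, by linarith⟩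
  · rintro ⟨h1, h2, h3⟩; exact ⟨h1, by linarith, by linarith⟩

theorem car_rfS (Q : Sqr) : (rfS Q).car = rf ⁻¹' Q.car := by
  ext p; exact mem_car_rfS

theorem mem_rfS {Q : Sqr} : Q ∈ rfS '' 𝒬 ↔ rfS Q ∈ 𝒬 := by
  constructor
  · rintro ⟨Q', hQ', rfl⟩; simpa using hQ'
  · intro h; exact ⟨rfS Q, h, rfS_rfS Q⟩

@[simp] theorem rfS_image_image (𝒬 : Set Sqr) : rfS '' (rfS '' 𝒬) = 𝒬 := by
  ext Q; rw [mem_rfS, mem_rfS, rfS_rfS]

@[simp] theorem rf_pre_pre (E : Set (ℝ × ℝ)) : rf ⁻¹' (rf ⁻¹' E) = E := by ext p; simp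

theorem cc_rf (E : Set (ℝ × ℝ)) {p : ℝ × ℝ} (hp : p ∈ E) :
    connectedComponentIn (rf ⁻¹' E) (rf p) = rf ⁻¹' connectedComponentIn E p := by
  have h1 := (rfL.toHomeomorph).image_connectedComponentIn hp
  have h2 : (rfL.toHomeomorph : (ℝ × ℝ) → (ℝ × ℝ)) = rf := rfl
  rw [h2, rf_image_eq_preimage, rf_image_eq_preimage] at h1
  exact h1.symm

theorem comps_rf' {P : Set (ℝ × ℝ)} (h : P ∈ Comps E) : rf ⁻¹' P ∈ Comps (rf ⁻¹' E) := by
  obtain ⟨p, hp, rfl⟩ := h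
  exact ⟨rf p, by simpa using hp, (cc_rf E hp).symm⟩

theorem comps_rf {P : Set (ℝ × ℝ)} : P ∈ Comps (rf ⁻¹' E) ↔ rf ⁻¹' P ∈ Comps E := by
  constructor
  · intro h
    have := comps_rf' h
    rwa [rf_pre_pre] at this
  · intro h
    have := comps_rf' h
    rwa [rf_pre_pre] at this

theorem refl_qpic (h : QPic E 𝒬 𝓗) : QPic (rf ⁻¹' E) (rfS '' 𝒬) (reflH 𝓗) where
  cpt := by
    rw [← rf_image_eq_preimage]
    exact h.cpt.image continuous_rf
  sub := by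
    intro Q hQ
    rw [mem_rfS] at hQ
    have h1 := h.sub _ hQ
    rw [car_rfS] at h1
    intro p hp
    exact h1 (by simpa using hp)
  hsub := by
    intro K hK p hp
    have h1 : K.refl ∈ 𝓗 := hK
    refine h.hsub _ h1 ?_
    rw [Hair.mem_car_refl, rf_rf]
    exact hp
  sep := by
    intro P hPE hP Q hQ Q' hQ' hne hne'
    rw [mem_rfS] at hQ hQ'
    have h1 : rf ⁻¹' P ⊆ E := by
      intro p hp
      have := hPE hp
      simpa using this
    have h2 : IsPreconnected (rf ⁻¹' P) := by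
      rw [← rf_image_eq_preimage]
      exact hP.image _ continuous_rf.continuousOn
    have h3 : ∀ Q : Sqr, (P ∩ Q.car).Nonempty → (rf ⁻¹' P ∩ (rfS Q).car).Nonempty := by
      rintro Q ⟨p, hp, hpQ⟩
      exact ⟨rf p, by simpa using hp, by rw [mem_car_rfS, rf_rf]; exact hpQ⟩
    exact rfS_injective (h.sep _ h1 h2 _ hQ _ hQ' (h3 Q hne) (h3 Q' hne'))
  null := by
    have h1 : rf ⁻¹' E \ ⋃ Q ∈ rfS '' 𝒬, Q.car = rf ⁻¹' (E \ ⋃ Q ∈ 𝒬, Q.car) := by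
      ext p
      simp only [Set.mem_sdiff, mem_preimage, mem_iUnion, exists_prop, not_exists, not_and]
      refine and_congr_right fun _ => ⟨fun h2 Q hQ hp => ?_, fun h2 Q hQ hp => ?_⟩
      · exact h2 (rfS Q) ⟨Q, hQ, rfl⟩ (mem_car_rfS.2 hp)
      · rw [mem_rfS] at hQ
        exact h2 (rfS Q) hQ (by rw [mem_car_rfS, rf_rf]; exact hp)
    rw [h1, measurePreserving_rf.measure_preimage_emb measurableEmbedding_rf]
    exact h.null

/-- the reflected picture -/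
theorem refl_pic (h : PicS E 𝒬 𝓗) : PicS (rf ⁻¹' E) (rfS '' 𝒬) (reflH 𝓗) where
  q := refl_qpic h.q
  att := by
    intro K hK Q hQ hne
    rw [mem_rfS] at hQ
    have h1 : (K.refl.car ∩ (rfS Q).car).Nonempty := by
      obtain ⟨p, hp, hpQ⟩ := hne
      exact ⟨rf p, by rw [Hair.mem_car_refl, rf_rf]; exact hp, by
        rw [mem_car_rfS, rf_rf]; exact hpQ⟩
    rcases h.att _ hK _ hQ h1 with h2 | h2
    · right
      simp only [Hair.refl_b, rfS_y, rfS_s] at h2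
      linarith
    · left
      simp only [Hair.refl_t, rfS_y] at h2
      linarith
  comp := by
    intro P hP
    rw [comps_rf] at hP
    rcases h.comp _ hP with ⟨p, hp⟩ | ⟨K, hK, hP'⟩ | ⟨Q, hQ, hQP, hpt⟩
    · left
      refine ⟨rf p, ?_⟩
      ext q
      have : rf q ∈ rf ⁻¹' P ↔ rf q ∈ ({p} : Set (ℝ × ℝ)) := by rw [hp]
      rw [mem_preimage, rf_rf, mem_singleton_iff] at this
      rw [this, mem_singleton_iff]
      exact ⟨fun h => by rw [← h, rf_rf], fun h => by rw [h, rf_rf]⟩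
    · right; left
      refine ⟨K.refl, ?_, ?_⟩
      · show K.refl.refl ∈ 𝓗
        simpa using hK
      · rw [Hair.car_refl, ← hP', rf_pre_pre]
    · right; right
      refine ⟨rfS Q, ⟨Q, hQ, rfl⟩, ?_, ?_⟩
      · intro p hp
        have := hQP (mem_car_rfS.1 hp)
        simpa using this
      · intro p hp hpQ
        have h1 : rf p ∈ rf ⁻¹' P := by simpa using hp
        have h2 : rf p ∉ Q.car := fun h => hpQ (mem_car_rfS.2 h)
        obtain ⟨K, hK, hKP, hpK, q, hqK, hqQ⟩ := hpt _ h1 h2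
        refine ⟨K.refl, ?_, ?_, Hair.mem_car_refl.2 hpK, rf q, ?_, ?_⟩
        · show K.refl.refl ∈ 𝓗
          simpa using hK
        · intro z hz
          have := hKP (Hair.mem_car_refl.1 hz)
          simpa using this
        · rw [Hair.mem_car_refl, rf_rf]; exact hqK
        · rw [mem_car_rfS, rf_rf]; exact hqQ

theorem corner_mem (Q : Sqr) : (Q.x, Q.y) ∈ Q.car :=
  ⟨⟨le_rfl, by linarith [Q.hs]⟩, ⟨le_rfl, by linarith [Q.hs]⟩⟩

/-- the component of the reflected square -/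
theorem comp_rfS (h : QPic E 𝒬 𝓗) {Q : Sqr} (hQ : Q ∈ 𝒬) :
    comp (rf ⁻¹' E) (rfS Q) = rf ⁻¹' comp E Q := by
  have h1 : Q.car ⊆ comp E Q := SkT1_137.car_sub_comp h hQ
  have h2 : rf ⁻¹' comp E Q ∈ Comps (rf ⁻¹' E) := comps_rf' (SkT1_137.comp_mem h hQ)
  have h3 : (rfS Q).car ⊆ rf ⁻¹' comp E Q := by
    intro p hp
    exact h1 (mem_car_rfS.1 hp)
  exact (SkT1_137.eq_comp (refl_qpic h) ⟨Q, hQ, rfl⟩ h2 h3).symm

/-! ### maximal hairs -/

/-- the maximal hairs of `𝓗` -/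
def H0 (𝓗 : Set Hair) : Set Hair :=
  {K ∈ 𝓗 | ∀ K' ∈ 𝓗, (K.car ∩ K'.car).Nonempty → K'.car ⊆ K.car}

theorem H0_sub : H0 𝓗 ⊆ 𝓗 := fun _ h => h.1

theorem H0_disj {K K' : Hair} (hK : K ∈ H0 𝓗) (hK' : K' ∈ H0 𝓗) (hne : K ≠ K') :
    Disjoint K.car K'.car := by
  rw [Set.disjoint_iff_inter_eq_empty]
  by_contra h
  have h1 := nonempty_iff_ne_empty.2 h
  refine hne (Hair.car_injective (Subset.antisymm (hK'.2 K hK.1 ?_) (hK.2 K' hK'.1 h1)))
  rwa [inter_comm]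

theorem H0_refl (𝓗 : Set Hair) : H0 (reflH 𝓗) = reflH (H0 𝓗) := by
  have key : ∀ (𝓗 : Set Hair) (K : Hair), K ∈ H0 (reflH 𝓗) → K.refl ∈ H0 𝓗 := by
    rintro 𝓗 K ⟨hK, h⟩
    refine ⟨hK, fun K' hK' hne => ?_⟩
    have h1 : (K.car ∩ K'.refl.car).Nonempty := by
      obtain ⟨p, hp, hp'⟩ := hne
      exact ⟨rf p, Hair.mem_car_refl.1 hp, by rw [Hair.mem_car_refl, rf_rf]; exact hp'⟩
    have h2 := h K'.refl (show K'.refl.refl ∈ 𝓗 by simpa using hK') h1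
    intro p hp
    rw [Hair.mem_car_refl]
    exact h2 (by rw [Hair.mem_car_refl, rf_rf]; exact hp)
  ext K
  constructor
  · exact key 𝓗 K
  · intro hK
    have h1 : K.refl ∈ H0 (reflH (reflH 𝓗)) := by
      rw [reflH_reflH]; exact hK
    have := key _ _ h1
    rwa [Hair.refl_refl] at this

theorem bot_mem (K : Hair) : (K.x, K.b) ∈ K.car := ⟨rfl, le_rfl, K.hbt.le⟩

theorem top_mem (K : Hair) : (K.x, K.t) ∈ K.car := ⟨rfl, K.hbt.le, le_rfl⟩

theorem preconn_car (K : Hair) : IsPreconnected K.car := by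
  rw [Hair.car_eq]
  exact isPreconnected_singleton.prod isPreconnected_Icc

/-- a hair which meets a component is contained in it -/
theorem hair_sub (h : QPic E 𝒬 𝓗) {P : Set (ℝ × ℝ)} (hP : P ∈ Comps E) {K : Hair} (hK : K ∈ 𝓗)
    (hne : (P ∩ K.car).Nonempty) : K.car ⊆ P := by
  obtain ⟨p, hp, rfl⟩ := hP
  obtain ⟨q, hq, hqK⟩ := hne
  rw [connectedComponentIn_eq hq]
  exact (preconn_car K).subset_connectedComponentIn hqK (h.hsub K hK)

/-- a free hair is maximal -/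
theorem H0_of_comp (h : QPic E 𝒬 𝓗) {K : Hair} (hK : K ∈ 𝓗) (hP : K.car ∈ Comps E) :
    K ∈ H0 𝓗 := ⟨hK, fun _ hK' hne => hair_sub h hP hK' hne⟩

theorem exists_H0_up (hP : PicS E 𝒬 𝓗) {P : Set (ℝ × ℝ)} (hPc : P ∈ Comps E) {Q : Sqr}
    (hQ : Q ∈ 𝒬) (hQP : Q.car ⊆ P)
    (hpt : ∀ p ∈ P, p ∉ Q.car → ∃ K ∈ 𝓗, K.car ⊆ P ∧ p ∈ K.car ∧ (K.car ∩ Q.car).Nonempty)
    {K : Hair} (hK : K ∈ 𝓗) (hKP : K.car ⊆ P) (hKb : K.b = Q.y + Q.s)
    (hKQ : (K.car ∩ Q.car).Nonempty) : ∃ K' ∈ H0 𝓗, K.car ⊆ K'.car := by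
  have hPcpt : IsCompact P := isCompact_comp hP.q hPc
  have hs := Q.hs
  have hKx : Q.x ≤ K.x ∧ K.x ≤ Q.x + Q.s := by
    obtain ⟨p, hp, hpQ⟩ := hKQ
    rw [← hp.1]; exact hpQ.1
  -- the highest point of the column
  have hcol : IsCompact (P ∩ {p | p.1 = K.x}) :=
    hPcpt.inter_right (isClosed_eq continuous_fst continuous_const)
  obtain ⟨q, ⟨hqP, hqx⟩, hqmax⟩ := hcol.exists_isMaxOn ⟨(K.x, K.t), hKP (top_mem K), rfl⟩
    (continuous_snd.continuousOn (s := P ∩ {p | p.1 = K.x}))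
  have hqx' : q.1 = K.x := hqx
  have h1 : K.t ≤ q.2 := hqmax ⟨hKP (top_mem K), rfl⟩
  have h2 : q ∉ Q.car := fun h => by
    have := h.2.2
    have := K.hbt
    linarith
  obtain ⟨K', hK', hKP', hqK', hKQ'⟩ := hpt q hqP h2
  have hKb' : K'.b = Q.y + Q.s := by
    rcases hP.att K' hK' Q hQ hKQ' with h3 | h3
    · exact h3
    · have h4 := hqK'.2.2
      have := K.hbt
      linarith
  have hx' : K'.x = K.x := by rw [← hqK'.1, hqx']
  have ht' : K'.t = q.2 := le_antisymm (hqmax ⟨hKP' (top_mem K'), hx'⟩) hqK'.2.2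
  -- every hair of `P` in the column above the square
  have key : ∀ K1 ∈ 𝓗, (K'.car ∩ K1.car).Nonempty → K1.car ⊆ K'.car := by
    intro K1 hK1 hne
    have hP1 : K1.car ⊆ P := hair_sub hP.q hPc hK1 (hne.mono (inter_subset_inter_left _ hKP'))
    obtain ⟨z, hz', hz1⟩ := hne
    have hx1 : K1.x = K.x := by rw [← hz1.1, hz'.1, hx']
    have ht1 : K1.t ≤ K'.t := by rw [ht']; exact hqmax ⟨hP1 (top_mem K1), hx1⟩
    have hb1 : K'.b ≤ K1.b := by
      by_contra hlt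
      push Not at hlt
      have h5 : (K1.x, Q.y + Q.s) ∈ K1.car := ⟨rfl, by rw [hKb'] at hlt; exact hlt.le, by
        rw [← hKb']; exact hz'.2.1.trans hz1.2.2⟩
      have h6 : (K1.car ∩ Q.car).Nonempty := ⟨_, h5, by
        rw [hx1]; exact ⟨hKx, by show Q.y ≤ Q.y + Q.s; linarith, le_rfl⟩⟩
      rcases hP.att K1 hK1 Q hQ h6 with h7 | h7
      · rw [← hKb'] at h7; linarith
      · have h8 := h5.2.2
        simp only at h8
        linarith
    intro p hp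
    exact ⟨by rw [hp.1, hx1, hx'], hb1.trans hp.2.1, hp.2.2.trans ht1⟩
  refine ⟨K', ⟨hK', key⟩, fun p hp => ?_⟩
  exact ⟨by rw [hp.1, hx'], by rw [hKb', ← hKb]; exact hp.2.1, hp.2.2.trans (by rw [ht']; exact h1)⟩

/-- every hair is contained in a maximal hair -/
theorem exists_H0 (hP : PicS E 𝒬 𝓗) {K : Hair} (hK : K ∈ 𝓗) : ∃ K' ∈ H0 𝓗, K.car ⊆ K'.car := by
  have hE := hP.q
  -- the hair touches its square
  have touch : ∀ {E : Set (ℝ × ℝ)} {𝒬 : Set Sqr} {𝓗 : Set Hair}, PicS E 𝒬 𝓗 →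
      ∀ {P : Set (ℝ × ℝ)}, P ∈ Comps E → ∀ {Q : Sqr}, Q ∈ 𝒬 → Q.car ⊆ P →
      (∀ p ∈ P, p ∉ Q.car → ∃ K ∈ 𝓗, K.car ⊆ P ∧ p ∈ K.car ∧ (K.car ∩ Q.car).Nonempty) →
      ∀ K ∈ 𝓗, K.car ⊆ P → (K.car ∩ Q.car).Nonempty → ∃ K' ∈ H0 𝓗, K.car ⊆ K'.car := by
    intro E 𝒬 𝓗 hP P hPc Q hQ hQP hpt K hK hKP hKQ
    rcases hP.att K hK Q hQ hKQ with h1 | h1
    · exact exists_H0_up hP hPc hQ hQP hpt hK hKP h1 hKQ
    · have hP' := refl_pic hP
      have h2 : rf ⁻¹' P ∈ Comps (rf ⁻¹' E) := comps_rf' hPc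
      have h3 : (rfS Q).car ⊆ rf ⁻¹' P := fun p hp => hQP (mem_car_rfS.1 hp)
      have h4 : ∀ p ∈ rf ⁻¹' P, p ∉ (rfS Q).car → ∃ K ∈ reflH 𝓗, K.car ⊆ rf ⁻¹' P ∧ p ∈ K.car ∧
          (K.car ∩ (rfS Q).car).Nonempty := by
        intro p hp hpQ
        obtain ⟨K, hK, hKP, hpK, q, hqK, hqQ⟩ := hpt (rf p) hp fun h => hpQ (mem_car_rfS.2 h)
        refine ⟨K.refl, show K.refl.refl ∈ 𝓗 by simpa using hK, ?_, Hair.mem_car_refl.2 hpK, rf q,
          ?_, ?_⟩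
        · intro z hz
          exact hKP (Hair.mem_car_refl.1 hz)
        · rw [Hair.mem_car_refl, rf_rf]; exact hqK
        · rw [mem_car_rfS, rf_rf]; exact hqQ
      have h5 : K.refl ∈ reflH 𝓗 := show K.refl.refl ∈ 𝓗 by simpa using hK
      have h6 : K.refl.car ⊆ rf ⁻¹' P := fun z hz => hKP (Hair.mem_car_refl.1 hz)
      have h7 : K.refl.b = (rfS Q).y + (rfS Q).s := by
        simp only [Hair.refl_b, rfS_y, rfS_s]; linarith
      have h8 : (K.refl.car ∩ (rfS Q).car).Nonempty := by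
        obtain ⟨q, hqK, hqQ⟩ := hKQ
        exact ⟨rf q, by rw [Hair.mem_car_refl, rf_rf]; exact hqK, by
          rw [mem_car_rfS, rf_rf]; exact hqQ⟩
      obtain ⟨K', hK', hsub⟩ := exists_H0_up hP' h2 ⟨Q, hQ, rfl⟩ h3 h4 h5 h6 h7 h8
      rw [H0_refl] at hK'
      refine ⟨K'.refl, hK', fun p hp => ?_⟩
      rw [Hair.mem_car_refl]
      exact hsub (by rw [Hair.mem_car_refl, rf_rf]; exact hp)
  have hbE : (K.x, K.b) ∈ E := hE.hsub K hK (bot_mem K)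
  have hPc : connectedComponentIn E (K.x, K.b) ∈ Comps E := ⟨_, hbE, rfl⟩
  have hKP : K.car ⊆ connectedComponentIn E (K.x, K.b) :=
    (preconn_car K).subset_connectedComponentIn (bot_mem K) (hE.hsub K hK)
  rcases hP.comp _ hPc with ⟨p, hp⟩ | ⟨K', hK', hP'⟩ | ⟨Q, hQ, hQP, hpt⟩
  · exfalso
    have h1 := hKP (bot_mem K)
    have h2 := hKP (top_mem K)
    rw [hp, mem_singleton_iff] at h1 h2
    have h3 := K.hbt
    have h4 : K.b = K.t := congrArg Prod.snd (h1.trans h2.symm)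
    linarith
  · exact ⟨K', H0_of_comp hE hK' (hP' ▸ hPc), hP' ▸ hKP⟩
  · by_cases hKQ : (K.car ∩ Q.car).Nonempty
    · exact touch hP hPc hQ hQP hpt K hK hKP hKQ
    · have h1 : (K.x, K.b) ∉ Q.car := fun h => hKQ ⟨_, bot_mem K, h⟩
      obtain ⟨K1, hK1, hK1P, hp1, hK1Q⟩ := hpt _ (hKP (bot_mem K)) h1
      obtain ⟨K', hK', hsub⟩ := touch hP hPc hQ hQP hpt K1 hK1 hK1P hK1Q
      exact ⟨K', hK', hK'.2 K hK ⟨_, hsub hp1, bot_mem K⟩⟩

/-- the picture with the maximal hairs only -/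
theorem picS_H0 (hP : PicS E 𝒬 𝓗) : PicS E 𝒬 (H0 𝓗) where
  q := ⟨hP.q.cpt, hP.q.sub, fun K hK => hP.q.hsub K hK.1, hP.q.sep, hP.q.null⟩
  att := fun K hK => hP.att K hK.1
  comp := by
    intro P hPc
    rcases hP.comp P hPc with h | ⟨K, hK, h⟩ | ⟨Q, hQ, hQP, hpt⟩
    · exact Or.inl h
    · exact Or.inr (Or.inl ⟨K, H0_of_comp hP.q hK (h ▸ hPc), h⟩)
    · refine Or.inr (Or.inr ⟨Q, hQ, hQP, fun p hp hpQ => ?_⟩)
      obtain ⟨K, hK, hKP, hpK, hKQ⟩ := hpt p hp hpQ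
      obtain ⟨K', hK', hsub⟩ := exists_H0 hP hK
      exact ⟨K', hK', hair_sub hP.q hPc hK'.1 ⟨p, hp, hsub hpK⟩, hsub hpK,
        hKQ.mono (inter_subset_inter_left _ hsub)⟩

/-! ### the instance of `QQ` -/

/-- the charged squares -/
def QA (𝒬 : Set Sqr) : {Q : Sqr // Q ∈ 𝒬} → Set (ℝ × ℝ) := fun i => i.1.car

theorem car_inter_Wl (hE : QPic E 𝒬 𝓗) (hbox : E ⊆ Ioo a b ×ˢ Ioo c d) {Q : Sqr} (hQ : Q ∈ 𝒬) :
    Q.car ∩ Wl a b c B = Q.car ∩ {p | p.2 ≤ B} := by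
  ext p
  constructor
  · rintro ⟨h1, h2⟩; exact ⟨h1, h2.2.2⟩
  · rintro ⟨h1, h2⟩
    have h3 := hbox (hE.sub Q hQ h1)
    exact ⟨h1, h3.1, h3.2.1, h2⟩

/-- **the instance of `QQ`** -/
theorem qq (hE : QPic E 𝒬 𝓗) (hbox : E ⊆ Ioo a b ×ˢ Ioo c d) (hsub : 𝒬' ⊆ 𝒬) :
    QQ 𝓗 a b c B (QA 𝒬') where
  cpt := by
    intro i
    rw [QA, car_inter_Wl (c := c) (d := d) hE hbox (hsub i.2)]
    exact i.1.isCompact_car.inter_right (isClosed_le continuous_snd continuous_const)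
  conv := fun i => i.1.convex_car
  sum := by
    have h1 : Summable fun i : {Q : Sqr // Q ∈ 𝒬'} => i.1.s ^ 2 :=
      hE.summable_sq.comp_injective (i := fun i : {Q : Sqr // Q ∈ 𝒬'} => (⟨i.1, hsub i.2⟩ : 𝒬))
        fun i j h => Subtype.ext (congrArg (fun z : 𝒬 => z.1) h)
    refine Summable.of_nonneg_of_le (fun i => sq_nonneg _) (fun i => ?_) h1
    refine pow_le_pow_left₀ Metric.diam_nonneg ?_ 2
    exact (Metric.diam_mono inter_subset_left i.1.isCompact_car.isBounded).trans i.1.diam_le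
  fin := by
    intro K hK
    refine Set.Subsingleton.finite ?_
    intro i hi j hj
    refine Subtype.ext (hE.sep K.car (hE.hsub K hK) (preconn_car K) i.1 (hsub i.2) j.1 (hsub j.2)
      ?_ ?_)
    · rw [inter_comm]; exact hi
    · rw [inter_comm]; exact hj

end Crest.Agent.R105.Kbx_247
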