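import Crest.Agent.R105.Gl1_363
import Crest.Agent.R105.Kbx1_247

/-!
Row 105, S0138, Lemma A with squares (helper363, leaf (L5)): literal `TwoG` (both halves, over
helper87's `HalfG`), the glued function.
-/

set_option autoImplicit false

open MeasureTheory Set Filter Topology
open scoped NNReal ENNReal

namespace Crest.Agent.R105.Gl_363

open CF_363 Cq_463 Sq_87 Hq_363 Kbx_247
open Mp_87 (lam Rc)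

variable {ι ι' : Type}

/-- the closed rectangle -/
def clq (Q : Rects ι) (i : ι) : Set (ℝ × ℝ) :=
  Icc (Q.x i - Q.h1 i) (Q.x i + Q.h1 i) ×ˢ Icc (Q.y i - Q.h2 i) (Q.y i + Q.h2 i)

/-- one half: the continuous representative `g` of the stream function, `S` = exempt set -/
structure HalfG (E S : Set (ℝ × ℝ)) (𝓗 : Set Hair) (Q : Rects ι) (a b c B T : ℝ)
    (X1 X2 : ℝ × ℝ → ℝ) (μ : Measure (ℝ × ℝ)) (f : ι → ℝ) (ψ g : ℝ × ℝ → ℝ) : Prop where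
  cont : ContinuousOn g ((Ioo a b ×ˢ Ioo c T) \ (Q.un ∪ S))
  ae : ∀ᵐ w : ℝ × ℝ, w ∈ Ioo a b ×ˢ Ioo c T → w ∉ Q.un → w ∉ S → g w = ψ w
  strip : ∀ p ∈ Ioo a b ×ˢ Ioo c T, B < p.2 → p ∉ S → g p = -lam μ p.1
  hair : ∀ K ∈ 𝓗, Disjoint K.car S → ∀ p ∈ K.car, ∀ q ∈ K.car, p.2 < T → q.2 < T → g p = g q
  sq : ∀ i, ∀ p ∈ clq Q i, ∀ q ∈ clq Q i, p ∉ Q.un → q ∉ Q.un → |g p - g q| ≤ 4 * f i
  V : ∀ᵐ x : ℝ, ∀ y y', y ≤ y' → (∀ t ∈ Icc y y', (x, t) ∈ (Ioo a b ×ˢ Ioo c T) \ E) →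
    g (x, y') - g (x, y) = ∫ t in y..y', X1 (x, t)
  H : ∀ᵐ y : ℝ, y < B → ∀ x x', x ≤ x' → (∀ s ∈ Icc x x', (s, y) ∈ (Ioo a b ×ˢ Ioo c T) \ E) →
    g (x', y) - g (x, y) = -∫ s in x..x', X2 (s, y)

/-- the two halves (the upper half = lower half of the reflected picture); `M` = gluing level,
`Tl`, `Tu` = tops of the two halves (`Tu` in the reflected picture) -/
structure TwoG (E S : Set (ℝ × ℝ)) (𝒬 : Set Sqr) (𝓗 : Set Hair) (Q : Rects ι) (Q' : Rects ι')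
    (sq : ι → Sqr) (sq' : ι' → Sqr) (a b c d Bm Bp Tl Tu M : ℝ)
    (X1 X2 ψ Ψ Y1 Y2 ψ' Ψ' : ℝ × ℝ → ℝ) (μ ν : Measure (ℝ × ℝ)) (f : ι → ℝ) (f' : ι' → ℝ)
    (g g' : ℝ × ℝ → ℝ) : Prop where
  ab : a < b
  Bd : Bp < d
  BM : Bm < M
  MB : M < Bp
  Ml : M < Tl
  Mu : -Tu ≤ Bm
  box : E ⊆ Ioo a b ×ˢ Ioo c d
  G : GeoC E S 𝒬 𝓗 Q sq a b c Bm Tl
  G' : GeoC (rf ⁻¹' E) (rf ⁻¹' S) (rfS '' 𝒬) (reflH 𝓗) Q' sq' a b (-d) (-Bp) Tu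
  C : CarC E S 𝒬 Bm Tl μ
  C' : CarC (rf ⁻¹' E) (rf ⁻¹' S) (rfS '' 𝒬) (-Bp) Tu ν
  H : HalfG E S 𝓗 Q a b c Bm Tl X1 X2 μ f ψ g
  H' : HalfG (rf ⁻¹' E) (rf ⁻¹' S) (reflH 𝓗) Q' a b (-d) (-Bp) Tu Y1 Y2 ν f' ψ' g'
  D : HalfD Q ((E ∩ {p | p.2 < Bm}) \ Q.un) a b c Bm X1 X2 ψ Ψ μ f
  D' : HalfD Q' ((rf ⁻¹' E ∩ {p | p.2 < -Bp}) \ Q'.un) a b (-d) (-Bp) Y1 Y2 ψ' Ψ' ν f'
  mass : ν univ = μ univ
  marg : ∀ p ∈ Ioo a b ×ˢ Ioo Bm Bp, p.2 < Tl → p ∉ S → lam μ p.1 = lam ν p.1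
  B1 : ∀ p : ℝ × ℝ, Bm ≤ p.2 → X1 p = 0
  B1' : ∀ p : ℝ × ℝ, -Bp ≤ p.2 → Y1 p = 0
  sX : MemLp X1 2 (volume.restrict Eᶜ) ∧ MemLp X2 2 (volume.restrict Eᶜ)
  sY : MemLp Y1 2 (volume.restrict (rf ⁻¹' E)ᶜ) ∧ MemLp Y2 2 (volume.restrict (rf ⁻¹' E)ᶜ)

/-- the glued function -/
noncomputable def glF (M : ℝ) (g g' : ℝ × ℝ → ℝ) (p : ℝ × ℝ) : ℝ := if p.2 < M then g p else g' (rf p)

/-- the vertical derivative of the glued function -/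
def W2 (X1 Y1 : ℝ × ℝ → ℝ) (p : ℝ × ℝ) : ℝ := X1 p - Y1 (rf p)

end Crest.Agent.R105.Gl_363
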