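import Crest.Agent.R105.SqJa_361

/-! Row 105, S0138, exact squares: the field of the whole box = field on `V` + fills of the charged
rectangles; integrability and the flow identity. -/

open MeasureTheory Set Filter Topology Metric
open scoped NNReal ENNReal

namespace Crest.Agent.R105.SqJ_361

open Crest.Agent.R105.CF_363 Crest.Agent.R105.Sq_87

/-! ### gluing countably many functions on disjoint open rectangles -/

section Join

variable {ι : Type} (Q : Rects ι)

theorem op_eq (i : ι) : Q.op i = ro (Q.x i) (Q.y i) (Q.h1 i) (Q.h2 i) := rfl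

theorem gau_eq (i : ι) : Q.gau i = rg (Q.x i) (Q.y i) (Q.h1 i) (Q.h2 i) := rfl

/-- closed rectangle -/
def cl (i : ι) : Set (ℝ × ℝ) := rc (Q.x i) (Q.y i) (Q.h1 i) (Q.h2 i)

theorem closure_op (i : ι) : closure (Q.op i) = cl Q i := by
  have p1 := Q.p1 i
  have p2 := Q.p2 i
  unfold Rects.op cl rc
  rw [closure_prod_eq, closure_Ioo (by linarith), closure_Ioo (by linarith)]

theorem op_subset_cl (i : ι) : Q.op i ⊆ cl Q i := by
  rw [← closure_op]; exact subset_closure

theorem isCompact_cl (i : ι) : IsCompact (cl Q i) := isCompact_Icc.prod isCompact_Icc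

theorem measurableSet_cl (i : ι) : MeasurableSet (cl Q i) := (isCompact_cl Q i).measurableSet

theorem convex_op (i : ι) : Convex ℝ (Q.op i) := (convex_Ioo _ _).prod (convex_Ioo _ _)

theorem convex_cl (i : ι) : Convex ℝ (cl Q i) := (convex_Icc _ _).prod (convex_Icc _ _)

open Classical in
/-- `Y i` on the `i`-th open rectangle, `X` off the rectangles -/
noncomputable def join (X : ℝ × ℝ → ℝ) (Y : ι → ℝ × ℝ → ℝ) (p : ℝ × ℝ) : ℝ :=
  if h : ∃ i, p ∈ Q.op i then Y h.choose p else X p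

variable {Q}

theorem join_of_mem (dis : Pairwise (fun i j => Disjoint (Q.op i) (Q.op j))) {X : ℝ × ℝ → ℝ}
    {Y : ι → ℝ × ℝ → ℝ} {p : ℝ × ℝ} {i : ι} (hi : p ∈ Q.op i) : join Q X Y p = Y i p := by
  have h : ∃ i, p ∈ Q.op i := ⟨i, hi⟩
  unfold join
  rw [dif_pos h]
  have : h.choose = i := by
    by_contra hne
    exact (dis hne).le_bot ⟨h.choose_spec, hi⟩
  rw [this]

theorem join_of_not {X : ℝ × ℝ → ℝ} {Y : ι → ℝ × ℝ → ℝ} {p : ℝ × ℝ} (hp : p ∉ Q.un) :
    join Q X Y p = X p := by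
  unfold join
  rw [dif_neg]
  rintro ⟨i, hi⟩
  exact hp (mem_iUnion.mpr ⟨i, hi⟩)

variable [Countable ι]

theorem measurable_join (dis : Pairwise (fun i j => Disjoint (Q.op i) (Q.op j))) {X : ℝ × ℝ → ℝ}
    {Y : ι → ℝ × ℝ → ℝ} (hX : Measurable X) (hY : ∀ i, Measurable (Y i)) :
    Measurable (join Q X Y) := by
  intro s hs
  have : join Q X Y ⁻¹' s = (⋃ i, Q.op i ∩ Y i ⁻¹' s) ∪ (Q.unᶜ ∩ X ⁻¹' s) := by
    ext p
    constructor
    · intro hp
      by_cases h : p ∈ Q.un
      · obtain ⟨i, hi⟩ := mem_iUnion.mp h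
        rw [mem_preimage, join_of_mem dis hi] at hp
        exact Or.inl (mem_iUnion.mpr ⟨i, hi, hp⟩)
      · rw [mem_preimage, join_of_not h] at hp
        exact Or.inr ⟨h, hp⟩
    · rintro (hp | ⟨h, hp⟩)
      · obtain ⟨i, hi, hp⟩ := mem_iUnion.mp hp
        rw [mem_preimage, join_of_mem dis hi]; exact hp
      · rw [mem_preimage, join_of_not h]; exact hp
  rw [this]
  exact (MeasurableSet.iUnion fun i => (Q.measurableSet_op i).inter (hY i hs)).union
    (Q.measurableSet_un.compl.inter (hX hs))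

theorem integrable_join (dis : Pairwise (fun i j => Disjoint (Q.op i) (Q.op j)))
    {X : ℝ × ℝ → ℝ} {Y : ι → ℝ × ℝ → ℝ} (hX : IntegrableOn X Q.unᶜ)
    (hY : ∀ i, IntegrableOn (Y i) (Q.op i)) (hs : Summable fun i => ∫ p in Q.op i, |Y i p|) :
    Integrable (join Q X Y) volume := by
  have e1 : IntegrableOn (join Q X Y) Q.unᶜ := by
    refine hX.congr_fun (fun p hp => ?_) Q.measurableSet_un.compl
    exact (join_of_not hp).symm
  have e2 : IntegrableOn (join Q X Y) Q.un := by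
    refine integrableOn_iUnion_of_summable_integral_norm (fun i => ?_) ?_
    · refine (hY i).congr_fun (fun p hp => ?_) (Q.measurableSet_op i)
      exact (join_of_mem dis hp).symm
    · refine hs.congr fun i => ?_
      refine setIntegral_congr_fun (Q.measurableSet_op i) fun p hp => ?_
      rw [join_of_mem dis hp, Real.norm_eq_abs]
  have := e2.union e1
  rwa [union_compl_self, integrableOn_univ] at this

end Join

/-! ### one rectangle -/

section One

variable {x y h1 h2 : ℝ} {ν₁ ν₂ : Measure (ℝ × ℝ)} {X1 X2 : ℝ × ℝ → ℝ}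

/-- `L¹` bounds of the fill -/
theorem FillR.L1 (F : FillR x y h1 h2 ν₁ ν₂ X1 X2) (p1 : 0 < h1) (p2 : 0 < h2) :
    (∫ p in ro x y h1 h2, |X1 p| ≤ 2 * h1 * (ν₁ univ + ν₂ univ).toReal) ∧
      ∫ p in ro x y h1 h2, |X2 p| ≤ 2 * h2 * (ν₁ univ + ν₂ univ).toReal := by
  have h := F.F3 (x - h1) (x + h1) (y - h2) (y + h2) (by linarith) (by linarith) univ
    MeasurableSet.univ (fun _ _ _ _ _ => mem_univ _)
  refine ⟨h.1.trans (le_of_eq ?_), h.2.trans (le_of_eq ?_)⟩ <;> ring

/-- the flow identity on one rectangle for a function which is Lipschitz on the open and continuous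
on the closed rectangle -/
theorem FillR.flow (F : FillR x y h1 h2 ν₁ ν₂ X1 X2) (p1 : 0 < h1) (p2 : 0 < h2)
    (c1 : ν₁ (rc x y h1 h2)ᶜ = 0) (c2 : ν₂ (rc x y h1 h2)ᶜ = 0) {e : ℝ × ℝ → ℝ} {L : ℝ≥0}
    (he : LipschitzOnWith L e (ro x y h1 h2)) (hc : ContinuousOn e (rc x y h1 h2)) :
    ∫ p in ro x y h1 h2, (X1 p * gx e p + X2 p * gy e p) = (∫ p, e p ∂ν₁) - ∫ p, e p ∂ν₂ := by
  have hcl : closure (ro x y h1 h2) = rc x y h1 h2 := by
    unfold ro rc
    rw [closure_prod_eq, closure_Ioo (by linarith), closure_Ioo (by linarith)]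
  have hop : IsOpen (ro x y h1 h2) := isOpen_Ioo.prod isOpen_Ioo
  have he2 : LipschitzOnWith L e (rc x y h1 h2) := by
    rw [← hcl] at hc ⊢
    exact he.closure hc
  obtain ⟨g, hg, hge⟩ := he2.extend_real
  have h := F.F1 L g L.2 (fun p q => by
    have := hg.dist_le_mul p q
    rwa [Real.dist_eq] at this)
  have a1 : ∫ p, g p ∂ν₁ = ∫ p, e p ∂ν₁ := by
    refine integral_congr_ae ?_
    have : ∀ᵐ p ∂ν₁, p ∈ rc x y h1 h2 := by rw [ae_iff]; exact c1
    filter_upwards [this] with p hp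
    exact (hge hp).symm
  have a2 : ∫ p, g p ∂ν₂ = ∫ p, e p ∂ν₂ := by
    refine integral_congr_ae ?_
    have : ∀ᵐ p ∂ν₂, p ∈ rc x y h1 h2 := by rw [ae_iff]; exact c2
    filter_upwards [this] with p hp
    exact (hge hp).symm
  rw [a1, a2] at h
  rw [← h]
  refine setIntegral_congr_fun hop.measurableSet fun p hp => ?_
  have hev : e =ᶠ[𝓝 p] g := by
    filter_upwards [hop.mem_nhds hp] with q hq
    exact hge (hcl ▸ subset_closure hq)
  rw [gx_congr hev, gy_congr hev]

end One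

/-! ### the whole box -/

section Box

variable {ι : Type} {Q : Rects ι} {f : ι → ℝ} {np nm : ι → Measure (ℝ × ℝ)}
variable {X1 X2 : ℝ × ℝ → ℝ} {Y1 Y2 : ι → ℝ × ℝ → ℝ}

/-- the data: fills of the rectangles with total mass `2 f i` -/
structure Fills (Q : Rects ι) (f : ι → ℝ) (np nm : ι → Measure (ℝ × ℝ))
    (Y1 Y2 : ι → ℝ × ℝ → ℝ) : Prop where
  dis : Pairwise (fun i j => Disjoint (Q.op i) (Q.op j))
  F : ∀ i, FillR (Q.x i) (Q.y i) (Q.h1 i) (Q.h2 i) (np i) (nm i) (Y1 i) (Y2 i)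
  mass : ∀ i, (np i univ + nm i univ).toReal = 2 * f i
  cp : ∀ i, np i (cl Q i)ᶜ = 0
  cm : ∀ i, nm i (cl Q i)ᶜ = 0

/-- existence -/
theorem exists_fills (dis : Pairwise (fun i j => Disjoint (Q.op i) (Q.op j)))
    (fp : ∀ i, IsFiniteMeasure (np i)) (fm : ∀ i, IsFiniteMeasure (nm i))
    (cp : ∀ i, np i (cl Q i)ᶜ = 0) (cm : ∀ i, nm i (cl Q i)ᶜ = 0)
    (mp : ∀ i, (np i univ).toReal = f i) (mm : ∀ i, (nm i univ).toReal = f i) :
    ∃ Y1 Y2, Fills Q f np nm Y1 Y2 := by
  have h : ∀ i, ∃ Y1 Y2, FillR (Q.x i) (Q.y i) (Q.h1 i) (Q.h2 i) (np i) (nm i) Y1 Y2 := by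
    intro i
    have := fp i
    have := fm i
    refine fillR (Q.p1 i) (Q.p2 i) (np i) (nm i) (cp i) (cm i) ?_
    have e : (np i univ).toReal = (nm i univ).toReal := by rw [mp, mm]
    exact (ENNReal.toReal_eq_toReal_iff' (measure_ne_top _ _) (measure_ne_top _ _)).mp e
  choose Y1 Y2 hY using h
  refine ⟨Y1, Y2, dis, hY, fun i => ?_, cp, cm⟩
  have := fp i
  have := fm i
  rw [ENNReal.toReal_add (measure_ne_top _ _) (measure_ne_top _ _), mp, mm]
  ring

variable (F : Fills Q f np nm Y1 Y2)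
include F

theorem Fills.L1 (i : ι) : ∫ p in Q.op i, |Y1 i p| ≤ 4 * (Q.h1 i * f i) := by
  refine ((F.F i).L1 (Q.p1 i) (Q.p2 i)).1.trans (le_of_eq ?_)
  rw [F.mass]; ring

theorem Fills.L2 (i : ι) : ∫ p in Q.op i, |Y2 i p| ≤ 4 * (Q.h2 i * f i) := by
  refine ((F.F i).L1 (Q.p1 i) (Q.p2 i)).2.trans (le_of_eq ?_)
  rw [F.mass]; ring

variable [Countable ι]

theorem Fills.m1 (hX : Measurable X1) : Measurable (join Q X1 Y1) :=
  measurable_join F.dis hX fun i => (F.F i).m1

theorem Fills.m2 (hX : Measurable X2) : Measurable (join Q X2 Y2) :=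
  measurable_join F.dis hX fun i => (F.F i).m2

theorem Fills.i1 (hX : IntegrableOn X1 Q.unᶜ) (hs : Summable fun i => Q.h1 i * f i) :
    Integrable (join Q X1 Y1) volume :=
  integrable_join F.dis hX (fun i => (F.F i).i1.integrableOn)
    (Summable.of_nonneg_of_le (fun _ => integral_nonneg fun _ => abs_nonneg _)
      (fun i => F.L1 i) (hs.mul_left 4))

theorem Fills.i2 (hX : IntegrableOn X2 Q.unᶜ) (hs : Summable fun i => Q.h2 i * f i) :
    Integrable (join Q X2 Y2) volume :=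
  integrable_join F.dis hX (fun i => (F.F i).i2.integrableOn)
    (Summable.of_nonneg_of_le (fun _ => integral_nonneg fun _ => abs_nonneg _)
      (fun i => F.L2 i) (hs.mul_left 4))

omit [Countable ι] in
/-- the annular bound, literally `SqData.F2` -/
theorem Fills.F2 (i : ι) (ε : ℝ) (hε : 0 < ε) (hε4 : ε ≤ 1 / 4) :
    ε⁻¹ * ∫ p in Q.op i ∩ ann (Q.gau i) ε,
      |join Q X1 Y1 p * gx (Q.gau i) p + join Q X2 Y2 p * gy (Q.gau i) p| ≤ 2 * f i := by
  have h := (F.F i).F2 ε hε hε4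
  rw [F.mass] at h
  refine le_trans (le_of_eq ?_) h
  congr 1
  have hrg : Measurable (Q.gau i) := by unfold Rects.gau; fun_prop
  refine setIntegral_congr_fun ((Q.measurableSet_op i).inter (measurableSet_ann hrg ε))
    fun p hp => ?_
  rw [join_of_mem F.dis hp.1, join_of_mem F.dis hp.1]
  rfl

omit [Countable ι] in
/-- the integral over one rectangle -/
theorem Fills.one (i : ι) {e : ℝ × ℝ → ℝ} {L : ℝ≥0} (he : LipschitzOnWith L e (Q.op i))
    (hc : ContinuousOn e (cl Q i)) :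
    ∫ p in Q.op i, (join Q X1 Y1 p * gx e p + join Q X2 Y2 p * gy e p) =
      (∫ p, e p ∂np i) - ∫ p, e p ∂nm i := by
  rw [← (F.F i).flow (Q.p1 i) (Q.p2 i) (F.cp i) (F.cm i) he hc]
  refine setIntegral_congr_fun (Q.measurableSet_op i) fun p hp => ?_
  rw [join_of_mem F.dis hp, join_of_mem F.dis hp]

/-- **flow identity of the joined field**: `W` contains the open rectangles, `e` has bounded gradient
a.e. on `W`, is Lipschitz on the open and continuous on the closed rectangles -/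
theorem Fills.flow
    (hX1 : IntegrableOn X1 Q.unᶜ) (hX2 : IntegrableOn X2 Q.unᶜ)
    (hs1 : Summable fun i => Q.h1 i * f i) (hs2 : Summable fun i => Q.h2 i * f i)
    {W : Set (ℝ × ℝ)} (hW : MeasurableSet W) (hop : ∀ i, Q.op i ⊆ W) {e : ℝ × ℝ → ℝ} {L : ℝ≥0}
    (hb : ∀ᵐ p : ℝ × ℝ, p ∈ W → |gx e p| ≤ L ∧ |gy e p| ≤ L)
    (he : ∀ i, LipschitzOnWith L e (Q.op i)) (hc : ∀ i, ContinuousOn e (cl Q i)) :
    Summable (fun i => (∫ p, e p ∂np i) - ∫ p, e p ∂nm i) ∧
    ∫ p in W, (join Q X1 Y1 p * gx e p + join Q X2 Y2 p * gy e p) =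
      (∫ p in W \ Q.un, (X1 p * gx e p + X2 p * gy e p)) +
        ∑' i, ((∫ p, e p ∂np i) - ∫ p, e p ∂nm i) := by
  have I1 := F.i1 hX1 hs1
  have I2 := F.i2 hX2 hs2
  have hG : IntegrableOn (fun p => join Q X1 Y1 p * gx e p + join Q X2 Y2 p * gy e p) W := by
    have hb1 : ∀ᵐ p ∂(volume.restrict W), ‖gx e p‖ ≤ L := by
      rw [ae_restrict_iff' hW]
      filter_upwards [hb] with p hp hpW using (by rw [Real.norm_eq_abs]; exact (hp hpW).1)
    have hb2 : ∀ᵐ p ∂(volume.restrict W), ‖gy e p‖ ≤ L := by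
      rw [ae_restrict_iff' hW]
      filter_upwards [hb] with p hp hpW using (by rw [Real.norm_eq_abs]; exact (hp hpW).2)
    exact (I1.integrableOn.mul_bdd (c := L) (measurable_gx e).aestronglyMeasurable hb1).add
      (I2.integrableOn.mul_bdd (c := L) (measurable_gy e).aestronglyMeasurable hb2)
  have hun : Q.un ⊆ W := iUnion_subset hop
  have hsum := hasSum_integral_iUnion (f := fun p => join Q X1 Y1 p * gx e p + join Q X2 Y2 p * gy e p)
    (μ := volume) (fun i => Q.measurableSet_op i) F.dis (hG.mono_set hun)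
  have hone : (fun i => ∫ p in Q.op i, (join Q X1 Y1 p * gx e p + join Q X2 Y2 p * gy e p)) =
      fun i => (∫ p, e p ∂np i) - ∫ p, e p ∂nm i := by
    ext i; exact F.one i (he i) (hc i)
  rw [hone] at hsum
  refine ⟨hsum.summable, ?_⟩
  have hsplit : ∫ p in W, (join Q X1 Y1 p * gx e p + join Q X2 Y2 p * gy e p) =
      (∫ p in W \ Q.un, (join Q X1 Y1 p * gx e p + join Q X2 Y2 p * gy e p)) +
        ∫ p in Q.un, (join Q X1 Y1 p * gx e p + join Q X2 Y2 p * gy e p) := by
    rw [← setIntegral_union disjoint_sdiff_left Q.measurableSet_un (hG.mono_set sdiff_subset)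
      (hG.mono_set hun), sdiff_union_of_subset hun]
  rw [hsplit, hsum.tsum_eq]
  congr 1
  refine setIntegral_congr_fun (hW.diff Q.measurableSet_un) fun p hp => ?_
  rw [join_of_not hp.2, join_of_not hp.2]

end Box

end Crest.Agent.R105.SqJ_361
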