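import Crest.Agent.R105.Mq8_347
import Crest.Agent.R105.Gl2_363
import Crest.Agent.R105.SqJb_361

/-! Row 105, S0138, Lemma A with squares (helper347, leaf (L8)): the glued stream function satisfies the
hypotheses `GlueD` of the planar approximation. Part A: charges of one half, line formulas. -/

set_option autoImplicit false

open MeasureTheory Set Metric Filter Topology
open scoped ENNReal NNReal

namespace Crest.Agent.R105.Ge_347

open CF_363 Stp_722 Cq_463 Psq_425 Mq_347 Sq_87 Hq_363 Kbx_247 Gl_363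
open Mp_87 (lam)
open SqJ_361 (cl)

variable {ι : Type}

/-- the charges of one half -/
structure ChQ (Q : Rects ι) (X1 X2 : ℝ × ℝ → ℝ) (f : ι → ℝ) (np nm : ι → Measure (ℝ × ℝ)) :
    Prop where
  fp : ∀ i, IsFiniteMeasure (np i)
  fm : ∀ i, IsFiniteMeasure (nm i)
  cp : ∀ i, np i (cl Q i)ᶜ = 0
  cm : ∀ i, nm i (cl Q i)ᶜ = 0
  mp : ∀ i, (np i univ).toReal = f i
  mm : ∀ i, (nm i univ).toReal = f i
  f2 : Summable fun i => f i ^ 2
  one : ∀ i (L : ℝ) (e : ℝ × ℝ → ℝ), 0 ≤ L → (∀ p q, |e p - e q| ≤ L * dist p q) →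
    ∫ p in Q.op i, (X1 p * gx e p + X2 p * gy e p) = (∫ p, e p ∂(np i)) - ∫ p, e p ∂(nm i)

open Classical in
/-- the charge as a function of the square -/
noncomputable def cS (sq : ι → Sqr) (n : ι → Measure (ℝ × ℝ)) (Q₀ : Sqr) : Measure (ℝ × ℝ) :=
  if h : ∃ i, sq i = Q₀ then n h.choose else 0

variable {E S W : Set (ℝ × ℝ)} {𝒬 : Set Sqr} {𝓗 : Set Hair} {Q : Rects ι} {sq : ι → Sqr}
  {a b c d B T M : ℝ} {X1 X2 ψ Ψ : ℝ × ℝ → ℝ} {μ : Measure (ℝ × ℝ)} {f : ι → ℝ}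
  {np nm n : ι → Measure (ℝ × ℝ)}

theorem op_eq_sq (G : GeoC E S 𝒬 𝓗 Q sq a b c B T) (i : ι) : Q.op i =
    Ioo (sq i).x ((sq i).x + (sq i).s) ×ˢ Ioo (sq i).y (min ((sq i).y + (sq i).s) B) := by
  unfold Rects.op
  rw [G.x1, G.x2, G.y1, G.y2]

theorem cl_eq_sq (G : GeoC E S 𝒬 𝓗 Q sq a b c B T) (i : ι) : cl Q i =
    Icc (sq i).x ((sq i).x + (sq i).s) ×ˢ Icc (sq i).y (min ((sq i).y + (sq i).s) B) := by
  unfold cl SqJ_361.rc
  rw [G.x1, G.x2, G.y1, G.y2]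

theorem cl_sub (G : GeoC E S 𝒬 𝓗 Q sq a b c B T) (i : ι) : cl Q i ⊆ (sq i).car := by
  rw [cl_eq_sq G]
  rintro p ⟨h1, h2⟩
  exact Sqr.mem_car.2 ⟨h1, h2.1, h2.2.trans (min_le_left _ _)⟩

theorem op_nonempty (Q : Rects ι) (i : ι) : (Q.x i, Q.y i) ∈ Q.op i :=
  ⟨⟨by simp only; linarith [Q.p1 i], by simp only; linarith [Q.p1 i]⟩,
    by simp only; linarith [Q.p2 i], by simp only; linarith [Q.p2 i]⟩

theorem sq_inj (G : GeoC E S 𝒬 𝓗 Q sq a b c B T)
    (dis : Pairwise (fun i j => Disjoint (Q.op i) (Q.op j))) : Function.Injective sq := by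
  intro i j hij
  by_contra hne
  refine Set.disjoint_left.1 (dis hne) (op_nonempty Q i) ?_
  rw [op_eq_sq G j, ← hij, ← op_eq_sq G i]
  exact op_nonempty Q i

theorem cS_sq (hi : Function.Injective sq) (i : ι) : cS sq n (sq i) = n i := by
  have h : ∃ j, sq j = sq i := ⟨i, rfl⟩
  unfold cS
  rw [dif_pos h, hi h.choose_spec]

theorem cS_not {Q₀ : Sqr} (h : ¬ ∃ i, sq i = Q₀) : cS sq n Q₀ = 0 := by
  unfold cS
  rw [dif_neg h]

theorem cS_fin (h : ∀ i, IsFiniteMeasure (n i)) (Q₀ : Sqr) : IsFiniteMeasure (cS sq n Q₀) := by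
  unfold cS
  split_ifs with h1
  · exact h _
  · infer_instance

theorem cS_car (G : GeoC E S 𝒬 𝓗 Q sq a b c B T) (h : ∀ i, n i (cl Q i)ᶜ = 0) (Q₀ : Sqr) :
    cS sq n Q₀ Q₀.carᶜ = 0 := by
  unfold cS
  split_ifs with h1
  · refine measure_mono_null (compl_subset_compl.2 ?_) (h h1.choose)
    have := cl_sub G h1.choose
    rwa [h1.choose_spec] at this
  · simp

/-- total mass of the charges -/
theorem cS_mass (C : ChQ Q X1 X2 f np nm) (Q₀ : Sqr) : cS sq np Q₀ univ = cS sq nm Q₀ univ := by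
  unfold cS
  split_ifs with h1
  · have h2 := C.fp h1.choose
    have h3 := C.fm h1.choose
    have e : (np h1.choose univ).toReal = (nm h1.choose univ).toReal := by rw [C.mp, C.mm]
    exact (ENNReal.toReal_eq_toReal_iff' (measure_ne_top _ _) (measure_ne_top _ _)).mp e
  · rfl

theorem cS_sum (hi : Function.Injective sq) (hf : ∀ i, (n i univ).toReal = f i)
    (hs : Summable fun i => f i ^ 2) : Summable fun Q₀ : Sqr => (cS sq n Q₀ univ).toReal ^ 2 := by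
  rw [← hi.summable_iff]
  · refine hs.congr fun i => ?_
    simp only [Function.comp]
    rw [cS_sq hi, hf]
  · intro Q₀ hQ
    rw [cS_not hQ]; simp

/-- the flux identity in one square -/
theorem cS_F1 (G : GeoC E S 𝒬 𝓗 Q sq a b c B T)
    (dis : Pairwise (fun i j => Disjoint (Q.op i) (Q.op j))) (C : ChQ Q X1 X2 f np nm)
    (B1 : ∀ p : ℝ × ℝ, B ≤ p.2 → X1 p = 0) (B2 : ∀ p : ℝ × ℝ, B ≤ p.2 → X2 p = 0)
    {Q₀ : Sqr} (hQ : Q₀ ∈ 𝒬) (hS : Disjoint Q₀.car S) {L : ℝ} {e : ℝ × ℝ → ℝ} (hL : 0 ≤ L)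
    (he : ∀ p q, |e p - e q| ≤ L * dist p q) :
    ∫ p in ball (cen Q₀) (Q₀.s / 2), (X1 p * gx e p + X2 p * gy e p) =
      (∫ p, e p ∂(cS sq np Q₀)) - ∫ p, e p ∂(cS sq nm Q₀) := by
  have hb : ∀ p : ℝ × ℝ, p ∈ ball (cen Q₀) (Q₀.s / 2) ↔
      p.1 ∈ Ioo Q₀.x (Q₀.x + Q₀.s) ∧ p.2 ∈ Ioo Q₀.y (Q₀.y + Q₀.s) := by
    intro p
    rw [mem_ball_iff]
    simp only [cen]
    have e1 : Q₀.x + Q₀.s / 2 - Q₀.s / 2 = Q₀.x := by ring
    have e2 : Q₀.x + Q₀.s / 2 + Q₀.s / 2 = Q₀.x + Q₀.s := by ring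
    have e3 : Q₀.y + Q₀.s / 2 - Q₀.s / 2 = Q₀.y := by ring
    have e4 : Q₀.y + Q₀.s / 2 + Q₀.s / 2 = Q₀.y + Q₀.s := by ring
    rw [e1, e2, e3, e4]
  by_cases hy : Q₀.y < B
  · obtain ⟨i, hi⟩ := G.sqs Q₀ hQ hS hy
    have hinj := sq_inj G dis
    rw [← hi, cS_sq hinj, cS_sq hinj, ← C.one i L e hL he, hi]
    have hsub : Q.op i ⊆ ball (cen Q₀) (Q₀.s / 2) := by
      intro p hp
      rw [op_eq_sq G, hi] at hp
      rw [hb]
      exact ⟨hp.1, hp.2.1, hp.2.2.trans_le (min_le_left _ _)⟩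
    refine setIntegral_eq_of_subset_of_forall_sdiff_eq_zero isOpen_ball.measurableSet hsub ?_
    rintro p ⟨hp, hp2⟩
    have hpB : B ≤ p.2 := by
      by_contra hc
      push Not at hc
      refine hp2 ?_
      rw [hb] at hp
      rw [op_eq_sq G, hi]
      exact ⟨hp.1, hp.2.1, lt_min hp.2.2 hc⟩
    rw [B1 p hpB, B2 p hpB]; ring
  · push Not at hy
    have hno : ¬ ∃ i, sq i = Q₀ := by
      rintro ⟨i, hi⟩
      have := (G.sqm i).2.2
      rw [hi] at this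
      exact absurd this (not_lt.2 hy)
    rw [cS_not hno, cS_not hno]
    simp only [integral_zero_measure, sub_self]
    refine (setIntegral_congr_fun isOpen_ball.measurableSet (g := fun _ => 0) fun p hp => ?_).trans
      (by simp)
    have hpB : B ≤ p.2 := hy.trans ((hb p).1 hp).2.1.le
    simp only
    rw [B1 p hpB, B2 p hpB]; ring

/-! ### integrability of `ψ` up to the level `M` -/

theorem intψ_M [IsFiniteMeasure μ] (L : LinesI a b c B 1 X1 X2 μ ψ Ψ) :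
    IntegrableOn ψ (Ioo a b ×ˢ Ioc c M) := by
  have h1 : IntegrableOn ψ (Ioo a b ×ˢ Ioo c B) := L.intψ (by simp)
  have hfin : volume (Ioo a b ×ˢ Icc B M : Set (ℝ × ℝ)) ≠ ⊤ := by
    rw [Measure.volume_eq_prod, Measure.prod_prod]
    simp [Real.volume_Ioo, Real.volume_Icc, ENNReal.mul_eq_top]
  have h2 : IntegrableOn ψ (Ioo a b ×ˢ Icc B M) := by
    refine Measure.integrableOn_of_bounded (M := (μ univ).toReal) hfin
      L.mψ.aestronglyMeasurable ?_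
    rw [ae_restrict_iff' (measurableSet_Ioo.prod measurableSet_Icc)]
    refine Eventually.of_forall fun p hp => ?_
    rw [L.strip p hp.2.1, neg_one_mul, norm_neg, Real.norm_eq_abs]
    exact abs_lam_le μ _
  refine (h1.union h2).mono_set ?_
  rintro p ⟨hp1, hp2, hp3⟩
  rcases lt_or_ge p.2 B with h | h
  · exact Or.inl ⟨hp1, hp2, h⟩
  · exact Or.inr ⟨hp1, h, hp3⟩

end Crest.Agent.R105.Ge_347
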