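import Crest.Agent.R105.Ge1_347

/-! Row 105, S0138, Lemma A with squares (helper347, leaf (L8)): the glued stream function satisfies the
hypotheses `GlueD` of the planar approximation. Part B: the glued data. -/

set_option autoImplicit false

open MeasureTheory Set Metric Filter Topology
open scoped ENNReal NNReal

namespace Crest.Agent.R105.Ge_347

open CF_363 Stp_722 Cq_463 Psq_425 Mq_347 Sq_87 Hq_363 Kbx_247 Gl_363
open Mp_87 (lam)

variable {ι ι' : Type} {E S W : Set (ℝ × ℝ)} {𝒬 : Set Sqr} {𝓗 : Set Hair} {Q : Rects ι}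
  {Q' : Rects ι'} {sq : ι → Sqr} {sq' : ι' → Sqr} {a b c d Bm Bp Tl Tu M : ℝ}
  {X1 X2 ψ Ψ Y1 Y2 ψ' Ψ' g g' : ℝ × ℝ → ℝ} {μ ν : Measure (ℝ × ℝ)} {f : ι → ℝ} {f' : ι' → ℝ}
  {np nm : ι → Measure (ℝ × ℝ)} {np' nm' : ι' → Measure (ℝ × ℝ)}

theorem ae_neg' {P : ℝ → Prop} (h : ∀ᵐ y : ℝ, P y) : ∀ᵐ y : ℝ, P (-y) :=
  (Measure.measurePreserving_neg (volume : Measure ℝ)).quasiMeasurePreserving.ae h

theorem ae_rf {P : ℝ × ℝ → Prop} (h : ∀ᵐ p : ℝ × ℝ, P p) : ∀ᵐ p : ℝ × ℝ, P (rf p) :=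
  measurePreserving_rf.quasiMeasurePreserving.ae h

/-- vertical line formula of the glued function -/
theorem glue_V (T : TwoG E S 𝒬 𝓗 Q Q' sq sq' a b c d Bm Bp Tl Tu M X1 X2 ψ Ψ Y1 Y2 ψ' Ψ' μ ν f f'
      g g') (hWR : W ⊆ Ioo a b ×ˢ Ioo c d) (hWS : Disjoint W S) :
    ∀ᵐ x : ℝ, ∀ y y', y ≤ y' → (∀ t ∈ Icc y y', (x, t) ∈ W) →
      glF M ψ ψ' (x, y') - glF M ψ ψ' (x, y) = ∫ t in y..y', W2 X1 Y1 (x, t) := by
  have L := T.D.L
  have L' := T.D'.L
  have hBM := T.BM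
  have hMB := T.MB
  filter_upwards [L.V, L'.V, int_x L.L1, int_x L'.L1] with x h1 h2 h3 h4 y y' hyy hW
  have hx : x ∈ Ioo a b := (hWR (hW y ⟨le_rfl, hyy⟩)).1
  have hy : c < y := (hWR (hW y ⟨le_rfl, hyy⟩)).2.1
  have hy' : y' < d := (hWR (hW y' ⟨hyy, le_rfl⟩)).2.2
  have hint : ∀ u v, IntervalIntegrable (fun t => W2 X1 Y1 (x, t)) volume u v := by
    intro u v
    have e2 : Integrable fun t : ℝ => Y1 (x, -t) := h4.comp_neg
    exact (h3.sub e2).intervalIntegrable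
  have lo : ∀ u v, c < u → u ≤ v → v ≤ M → ψ (x, v) - ψ (x, u) = ∫ t in u..v, W2 X1 Y1 (x, t) := by
    intro u v hu huv hv
    rw [h1 hx u v hu huv]
    refine intervalIntegral.integral_congr fun t ht => ?_
    rw [uIcc_of_le huv] at ht
    show X1 (x, t) = X1 (x, t) - Y1 (x, -t)
    rw [T.B1' (x, -t) (by simp only; linarith [ht.2]), sub_zero]
  have up : ∀ u v, M ≤ u → u ≤ v → v < d →
      ψ' (x, -v) - ψ' (x, -u) = ∫ t in u..v, W2 X1 Y1 (x, t) := by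
    intro u v hu huv hv
    have e1 := h2 hx (-v) (-u) (by linarith) (by linarith)
    have e2 : ∫ t in u..v, W2 X1 Y1 (x, t) = ∫ t in u..v, -(Y1 (x, -t)) := by
      refine intervalIntegral.integral_congr fun t ht => ?_
      rw [uIcc_of_le huv] at ht
      show X1 (x, t) - Y1 (x, -t) = -(Y1 (x, -t))
      rw [T.B1 (x, t) (by simp only; linarith [ht.1]), zero_sub]
    rw [e2, intervalIntegral.integral_neg,
      intervalIntegral.integral_comp_neg (fun t => Y1 (x, t)), ← e1]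
    ring
  rcases lt_or_ge y' M with h | h
  · have e1 : glF M ψ ψ' (x, y') = ψ (x, y') := if_pos h
    have e2 : glF M ψ ψ' (x, y) = ψ (x, y) := if_pos (lt_of_le_of_lt hyy h)
    rw [e1, e2]
    exact lo y y' hy hyy h.le
  · have e1 : glF M ψ ψ' (x, y') = ψ' (x, -y') := if_neg (not_lt.2 h)
    rcases lt_or_ge y M with h' | h'
    · have e2 : glF M ψ ψ' (x, y) = ψ (x, y) := if_pos h'
      have e3 := lo y M hy h'.le le_rfl
      have e4 := up M y' le_rfl h hy'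
      have e5 : ψ (x, M) = -1 * lam μ x := L.strip (x, M) (by simp only; linarith)
      have e6 : ψ' (x, -M) = -1 * lam ν x := L'.strip (x, -M) (by simp only; linarith)
      have hMW : (x, M) ∈ W := hW M ⟨h'.le, h⟩
      have e7 : lam μ x = lam ν x := by
        have hMS : (x, M) ∉ S := fun hS => Set.disjoint_left.1 hWS hMW hS
        exact T.marg (x, M) ⟨hx, hBM, hMB⟩ T.Ml hMS
      rw [e1, e2, ← intervalIntegral.integral_add_adjacent_intervals (hint y M) (hint M y'), ← e3,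
        ← e4, e5, e6, e7]
      ring
    · have e2 : glF M ψ ψ' (x, y) = ψ' (x, -y) := if_neg (not_lt.2 h')
      rw [e1, e2]
      exact up y y' h' hyy hy'

/-- horizontal line formula of the glued function -/
theorem glue_H (T : TwoG E S 𝒬 𝓗 Q Q' sq sq' a b c d Bm Bp Tl Tu M X1 X2 ψ Ψ Y1 Y2 ψ' Ψ' μ ν f f'
      g g') (hWR : W ⊆ Ioo a b ×ˢ Ioo c d)
    (k1 : ∀ᵐ q ∂μ, ∀ y ∈ Ico q.2 Tl, (q.1, y) ∉ W)
    (k2 : ∀ᵐ q ∂ν, ∀ y ∈ Ico q.2 Tu, rf (q.1, y) ∉ W) :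
    ∀ᵐ y : ℝ, ∀ x x', x ≤ x' → (∀ s ∈ Icc x x', (s, y) ∈ W) →
      glF M Ψ Ψ' (x', y) - glF M Ψ Ψ' (x, y) = -∫ s in x..x', (X2 (s, y) + Y2 (rf (s, y))) := by
  have L := T.D.L
  have L' := T.D'.L
  have hBM := T.BM
  have hMB := T.MB
  filter_upwards [L.H, ae_neg' L'.H] with y h1 h2 x x' hxx hW
  have hx : x ∈ Ioo a b := (hWR (hW x ⟨le_rfl, hxx⟩)).1
  have hx' : x' ∈ Ioo a b := (hWR (hW x' ⟨hxx, le_rfl⟩)).1
  have hy : y ∈ Ioo c d := (hWR (hW x ⟨le_rfl, hxx⟩)).2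
  rcases lt_or_ge y M with h | h
  · have e1 : glF M Ψ Ψ' (x', y) = Ψ (x', y) := if_pos h
    have e2 : glF M Ψ Ψ' (x, y) = Ψ (x, y) := if_pos h
    have e3 : μ {q | q.1 ∈ Ico x x' ∧ q.2 < y} = 0 := by
      rw [measure_eq_zero_iff_ae_notMem]
      filter_upwards [k1] with q hq hq2
      exact hq y ⟨hq2.2.le, h.trans T.Ml⟩ (hW q.1 ⟨hq2.1.1, hq2.1.2.le⟩)
    rw [e1, e2, h1 hy.1 x hx x' hx' hxx, e3]
    simp only [ENNReal.toReal_zero, mul_zero, sub_zero]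
    congr 1
    refine intervalIntegral.integral_congr fun s hs => ?_
    show X2 (s, y) = X2 (s, y) + Y2 (s, -y)
    rw [T.D'.XB (s, -y) (by simp only; linarith), add_zero]
  · have e1 : glF M Ψ Ψ' (x', y) = Ψ' (x', -y) := if_neg (not_lt.2 h)
    have e2 : glF M Ψ Ψ' (x, y) = Ψ' (x, -y) := if_neg (not_lt.2 h)
    have hTu : -Tu < M := lt_of_le_of_lt T.Mu T.BM
    have e3 : ν {q | q.1 ∈ Ico x x' ∧ q.2 < -y} = 0 := by
      rw [measure_eq_zero_iff_ae_notMem]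
      filter_upwards [k2] with q hq hq2
      refine hq (-y) ⟨hq2.2.le, by linarith⟩ ?_
      have := hW q.1 ⟨hq2.1.1, hq2.1.2.le⟩
      simpa using this
    rw [e1, e2, h2 (by linarith [hy.2]) x hx x' hx' hxx, e3]
    simp only [ENNReal.toReal_zero, mul_zero, sub_zero]
    congr 1
    refine intervalIntegral.integral_congr fun s hs => ?_
    show Y2 (s, -y) = X2 (s, y) + Y2 (s, -y)
    rw [T.D.XB (s, y) (by simp only; linarith), zero_add]

/-- almost everywhere equality of the two versions -/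
theorem glue_E (T : TwoG E S 𝒬 𝓗 Q Q' sq sq' a b c d Bm Bp Tl Tu M X1 X2 ψ Ψ Y1 Y2 ψ' Ψ' μ ν f f'
      g g') (hWR : W ⊆ Ioo a b ×ˢ Ioo c d) :
    ∀ᵐ p : ℝ × ℝ, p ∈ W → glF M Ψ Ψ' p = glF M ψ ψ' p := by
  filter_upwards [T.D.L.E, ae_rf T.D'.L.E] with p h1 h2 hp
  have hpR := hWR hp
  unfold glF
  split_ifs with h
  · exact h1 hpR.1 hpR.2.1
  · exact h2 hpR.1 (by simp only [rf_snd]; linarith [hpR.2.2])

/-- local integrability -/
theorem glue_int (T : TwoG E S 𝒬 𝓗 Q Q' sq sq' a b c d Bm Bp Tl Tu M X1 X2 ψ Ψ Y1 Y2 ψ' Ψ' μ ν f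
      f' g g') [IsFiniteMeasure μ] [IsFiniteMeasure ν] (hWR : W ⊆ Ioo a b ×ˢ Ioo c d) {C : Set (ℝ × ℝ)}
    (hC : MeasurableSet C) (hCW : C ⊆ W) : IntegrableOn (glF M ψ ψ') C := by
  have i1 : IntegrableOn ψ (Ioo a b ×ˢ Ioc c M) := intψ_M T.D.L
  have i2 : IntegrableOn ψ' (Ioo a b ×ˢ Ioc (-d) (-M)) := intψ_M T.D'.L
  have i2' : IntegrableOn (fun p => ψ' (rf p)) (rf ⁻¹' (Ioo a b ×ˢ Ioc (-d) (-M))) :=
    integrableOn_rf.2 i2
  have hlt : MeasurableSet {p : ℝ × ℝ | p.2 < M} := measurableSet_lt measurable_snd measurable_const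
  have c1 : C ∩ {p | p.2 < M} ⊆ Ioo a b ×ˢ Ioc c M := by
    rintro p ⟨hp, hp2⟩
    exact ⟨(hWR (hCW hp)).1, (hWR (hCW hp)).2.1, le_of_lt hp2⟩
  have c2 : C \ {p | p.2 < M} ⊆ rf ⁻¹' (Ioo a b ×ˢ Ioc (-d) (-M)) := by
    rintro p ⟨hp, hp2⟩
    have h1 := hWR (hCW hp)
    have h2 : M ≤ p.2 := not_lt.1 hp2
    exact ⟨h1.1, by simp only [rf_snd]; linarith [h1.2.2], by simp only [rf_snd]; linarith⟩
  have j1 : IntegrableOn (glF M ψ ψ') (C ∩ {p | p.2 < M}) :=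
    (integrableOn_congr_fun (fun p hp => (if_pos hp.2 : glF M ψ ψ' p = ψ p)) (hC.inter hlt)).2
      (i1.mono_set c1)
  have j2 : IntegrableOn (glF M ψ ψ') (C \ {p | p.2 < M}) :=
    (integrableOn_congr_fun (fun p hp => (if_neg hp.2 : glF M ψ ψ' p = ψ' (rf p)))
      (hC.diff hlt)).2 (i2'.mono_set c2)
  have := j1.union j2
  rwa [inter_union_sdiff] at this

/-- continuity of the glued continuous representative -/
theorem glue_cont (T : TwoG E S 𝒬 𝓗 Q Q' sq sq' a b c d Bm Bp Tl Tu M X1 X2 ψ Ψ Y1 Y2 ψ' Ψ' μ ν f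
      f' g g') (hWR : W ⊆ Ioo a b ×ˢ Ioo c d) : ContinuousOn (glF M g g') (W \ E) := by
  have hBM := T.BM
  have hMB := T.MB
  have hMl := T.Ml
  have hMu : -Tu < M := lt_of_le_of_lt T.Mu T.BM
  have hunE : Q.un ⊆ E := by
    intro p hp
    obtain ⟨i, hi⟩ := mem_iUnion.1 hp
    refine T.G.pic.sub _ (T.G.sqm i).1 (cl_sub T.G i ?_)
    exact ⟨⟨hi.1.1.le, hi.1.2.le⟩, hi.2.1.le, hi.2.2.le⟩
  have hunE' : Q'.un ⊆ rf ⁻¹' E := by
    intro p hp
    obtain ⟨i, hi⟩ := mem_iUnion.1 hp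
    refine T.G'.pic.sub _ (T.G'.sqm i).1 (cl_sub T.G' i ?_)
    exact ⟨⟨hi.1.1.le, hi.1.2.le⟩, hi.2.1.le, hi.2.2.le⟩
  intro p hp
  have hpR := hWR hp.1
  -- lower part
  have k1 : p.2 < Tl → ContinuousWithinAt g (W \ E) p := by
    intro h
    have h1 : p ∈ (Ioo a b ×ˢ Ioo c Tl) \ (Q.un ∪ S) :=
      ⟨⟨hpR.1, hpR.2.1, h⟩, fun hh => hp.2 (hh.elim (fun h => hunE h) (fun h => T.G.SE h))⟩
    have h2 := T.H.cont p h1
    refine h2.mono_of_mem_nhdsWithin ?_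
    have h3 : {q : ℝ × ℝ | q.2 < Tl} ∈ 𝓝[W \ E] p :=
      mem_nhdsWithin_of_mem_nhds ((isOpen_lt continuous_snd continuous_const).mem_nhds h)
    filter_upwards [h3, self_mem_nhdsWithin] with q hq hq2
    have hqR := hWR hq2.1
    exact ⟨⟨hqR.1, hqR.2.1, hq⟩, fun hh => hq2.2 (hh.elim (fun h => hunE h) (fun h => T.G.SE h))⟩
  have k2 : -Tu < p.2 → ContinuousWithinAt (fun q => g' (rf q)) (W \ E) p := by
    intro h
    have h1 : rf p ∈ (Ioo a b ×ˢ Ioo (-d) Tu) \ (Q'.un ∪ rf ⁻¹' S) := by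
      refine ⟨⟨hpR.1, ?_, ?_⟩, fun hh => hp.2 ?_⟩
      · simp only [rf_snd]; linarith [hpR.2.2]
      · simp only [rf_snd]; linarith
      · rcases hh with hh | hh
        · have := hunE' hh
          simpa using this
        · have := T.G.SE hh
          simpa using this
    have h2 := T.H'.cont (rf p) h1
    refine ContinuousWithinAt.comp_of_mem_nhdsWithin_image (t := (Ioo a b ×ˢ Ioo (-d) Tu) \
      (Q'.un ∪ rf ⁻¹' S)) h2 continuous_rf.continuousWithinAt ?_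
    have h4 : {q : ℝ × ℝ | q.2 < Tu} ∈ 𝓝[rf '' (W \ E)] (rf p) :=
      mem_nhdsWithin_of_mem_nhds ((isOpen_lt continuous_snd continuous_const).mem_nhds
        (by simp only [mem_ofPred_eq, rf_snd]; linarith))
    filter_upwards [h4, self_mem_nhdsWithin] with q hq hq2
    obtain ⟨w, hw, rfl⟩ := hq2
    have hqR := hWR hw.1
    refine ⟨⟨hqR.1, ?_, hq⟩, fun hh => hw.2 ?_⟩
    · simp only [rf_snd]; linarith [hqR.2.2]
    · rcases hh with hh | hh
      · have := hunE' hh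
        simpa using this
      · have := T.G.SE hh
        simpa using this
  rcases lt_trichotomy p.2 M with h | h | h
  · refine (k1 (h.trans hMl)).congr_of_eventuallyEq ?_ (if_pos h)
    have h3 : {q : ℝ × ℝ | q.2 < M} ∈ 𝓝[W \ E] p :=
      mem_nhdsWithin_of_mem_nhds ((isOpen_lt continuous_snd continuous_const).mem_nhds h)
    filter_upwards [h3] with q hq
    exact if_pos hq
  · -- on the level
    have key : ∀ q ∈ W \ E, M ≤ q.2 → q.2 < Tl → q.2 < Bp → glF M g g' q = g q := by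
      intro q hq h1 h2 h3
      have hqR := hWR hq.1
      have hqS : q ∉ S := fun hh => hq.2 (T.G.SE hh)
      have e1 : glF M g g' q = g' (rf q) := if_neg (not_lt.2 h1)
      have e2 := T.H.strip q ⟨hqR.1, hqR.2.1, h2⟩ (by linarith) hqS
      have e3 := T.H'.strip (rf q) ⟨hqR.1, by simp only [rf_snd]; linarith [hqR.2.2],
        by simp only [rf_snd]; linarith⟩ (by simp only [rf_snd]; linarith) (by
          intro hh
          exact hqS (by simpa using hh))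
      have e4 := T.marg q ⟨hqR.1, by linarith, h3⟩ h2 hqS
      rw [e1, e3, e2, rf_fst, e4]
    have hpM : p.2 < Bp := by linarith
    refine (k1 (by linarith)).congr_of_eventuallyEq ?_ (key p hp h.ge (by linarith) hpM)
    have h3 : {q : ℝ × ℝ | q.2 < Tl} ∈ 𝓝[W \ E] p :=
      mem_nhdsWithin_of_mem_nhds ((isOpen_lt continuous_snd continuous_const).mem_nhds
        (show p.2 < Tl by linarith))
    have h4 : {q : ℝ × ℝ | q.2 < Bp} ∈ 𝓝[W \ E] p :=
      mem_nhdsWithin_of_mem_nhds ((isOpen_lt continuous_snd continuous_const).mem_nhds hpM)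
    filter_upwards [h3, h4, self_mem_nhdsWithin] with q hq hq2 hq3
    rcases lt_or_ge q.2 M with h5 | h5
    · exact if_pos h5
    · exact key q hq3 h5 hq hq2
  · refine (k2 (hMu.trans h)).congr_of_eventuallyEq ?_ (if_neg (not_lt.2 h.le))
    have h3 : {q : ℝ × ℝ | M < q.2} ∈ 𝓝[W \ E] p :=
      mem_nhdsWithin_of_mem_nhds ((isOpen_lt continuous_const continuous_snd).mem_nhds h)
    filter_upwards [h3] with q hq
    exact if_neg (not_lt.2 (le_of_lt hq))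

end Crest.Agent.R105.Ge_347
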