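import Crest.Agent.R105.Ge2_347

/-! Row 105, S0138, Lemma A with squares (helper347, leaf (L8)): the glued stream function satisfies the
hypotheses `GlueD` of the planar approximation. Part C: `TwoG ⟹ GlueD`. -/

set_option autoImplicit false

open MeasureTheory Set Metric Filter Topology
open scoped ENNReal NNReal

namespace Crest.Agent.R105.Ge_347

open CF_363 Stp_722 Cq_463 Psq_425 Mq_347 Sq_87 Hq_363 Kbx_247 Gl_363
open Mp_87 (lam)

variable {ι ι' : Type} {E S W : Set (ℝ × ℝ)} {𝒬 : Set Sqr} {𝓗 : Set Hair} {Q : Rects ι}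
  {Q' : Rects ι'} {sq : ι → Sqr} {sq' : ι' → Sqr} {a b c d Bm Bp Tl Tu M : ℝ}
  {X1 X2 ψ Ψ Y1 Y2 ψ' Ψ' g g' : ℝ × ℝ → ℝ} {μ ν : Measure (ℝ × ℝ)} {f : ι → ℝ} {f' : ι' → ℝ}
  {np nm : ι → Measure (ℝ × ℝ)} {np' nm' : ι' → Measure (ℝ × ℝ)}

/-- the charge of a square in the glued picture -/
noncomputable def nn (sq : ι → Sqr) (n : ι → Measure (ℝ × ℝ)) (sq' : ι' → Sqr)
    (n' : ι' → Measure (ℝ × ℝ)) (Q₀ : Sqr) : Measure (ℝ × ℝ) :=
  cS sq n Q₀ + (cS sq' n' (rfS Q₀)).map rf

theorem integral_nn {n : ι → Measure (ℝ × ℝ)} {n' : ι' → Measure (ℝ × ℝ)} (Q₀ : Sqr)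
    {e : ℝ × ℝ → ℝ} (i1 : Integrable e (cS sq n Q₀))
    (i2 : Integrable (fun p => e (rf p)) (cS sq' n' (rfS Q₀))) :
    ∫ p, e p ∂(nn sq n sq' n' Q₀) =
      (∫ p, e p ∂(cS sq n Q₀)) + ∫ p, e (rf p) ∂(cS sq' n' (rfS Q₀)) := by
  unfold nn
  rw [integral_add_measure i1 ((measurableEmbedding_rf.integrable_map_iff).2 i2),
    measurableEmbedding_rf.integral_map]

/-- a Lipschitz function is integrable against a measure carried by a square -/
theorem int_of_car {m : Measure (ℝ × ℝ)} [IsFiniteMeasure m] {K : Set (ℝ × ℝ)} (hK : IsCompact K)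
    (hm : m Kᶜ = 0) {e : ℝ × ℝ → ℝ} (he : Continuous e) : Integrable e m := by
  obtain ⟨C, hC⟩ := hK.exists_bound_of_continuousOn he.continuousOn
  refine Integrable.of_bound he.aestronglyMeasurable C ?_
  have h1 : ∀ᵐ p ∂m, p ∈ K := by
    rw [ae_iff]; exact hm
  filter_upwards [h1] with p hp using hC p hp

theorem continuous_of_lip {e : ℝ × ℝ → ℝ} {L : ℝ} (hL : 0 ≤ L)
    (he : ∀ p q, |e p - e q| ≤ L * dist p q) : Continuous e := by
  refine (LipschitzWith.of_dist_le_mul (K := ⟨L, hL⟩) fun p q => ?_).continuous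
  rw [Real.dist_eq]
  exact he p q

theorem gx_bd {e : ℝ × ℝ → ℝ} {L : ℝ} (hL : 0 ≤ L) (he : ∀ p q, |e p - e q| ≤ L * dist p q)
    (p : ℝ × ℝ) : ‖gx e p‖ ≤ L ∧ ‖gy e p‖ ≤ L := by
  have h1 : LipschitzWith ⟨L, hL⟩ e := LipschitzWith.of_dist_le_mul fun p q => by
    rw [Real.dist_eq]; exact he p q
  have h2 : ‖fderiv ℝ e p‖ ≤ L := norm_fderiv_le_of_lipschitz ℝ h1
  constructor
  · show ‖fderiv ℝ e p ((1 : ℝ), (0 : ℝ))‖ ≤ L
    refine ((fderiv ℝ e p).le_opNorm _).trans ?_
    have : ‖((1 : ℝ), (0 : ℝ))‖ = 1 := by simp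
    rw [this, mul_one]; exact h2
  · show ‖fderiv ℝ e p ((0 : ℝ), (1 : ℝ))‖ ≤ L
    refine ((fderiv ℝ e p).le_opNorm _).trans ?_
    have : ‖((0 : ℝ), (1 : ℝ))‖ = 1 := by simp
    rw [this, mul_one]; exact h2

theorem int_field {e : ℝ × ℝ → ℝ} {L : ℝ} (hL : 0 ≤ L) (he : ∀ p q, |e p - e q| ≤ L * dist p q)
    {A1 A2 : ℝ × ℝ → ℝ} (h1 : Integrable A1) (h2 : Integrable A2) :
    Integrable fun p => A1 p * gx e p + A2 p * gy e p := by
  refine (h1.mul_bdd (c := L) (measurable_gx e).aestronglyMeasurable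
    (Eventually.of_forall fun p => (gx_bd hL he p).1)).add
    (h2.mul_bdd (c := L) (measurable_gy e).aestronglyMeasurable
    (Eventually.of_forall fun p => (gx_bd hL he p).2))

theorem ball_cen_rf (Q₀ : Sqr) :
    ball (cen (rfS Q₀)) ((rfS Q₀).s / 2) = rf ⁻¹' ball (cen Q₀) (Q₀.s / 2) := by
  ext p
  have e : cen (rfS Q₀) = rf (cen Q₀) := by
    unfold cen
    rw [rf_mk]
    simp only [rfS_x, rfS_y, rfS_s]
    congr 1
    ring
  rw [mem_preimage, mem_ball, mem_ball, rfS_s, e, ← dist_rf p, rf_rf]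

/-- the fields are square integrable off `E` -/
theorem sq_off {E : Set (ℝ × ℝ)} {V : ℝ × ℝ → ℝ}
    (hV : MemLp V 2 (volume.restrict (rf ⁻¹' E)ᶜ)) :
    MemLp (fun p => V (rf p)) 2 (volume.restrict Eᶜ) := by
  have h1 : MeasurePreserving rf (volume.restrict Eᶜ) (volume.restrict (rf ⁻¹' E)ᶜ) := by
    have h2 := measurePreserving_rf.restrict_preimage_emb measurableEmbedding_rf (rf ⁻¹' E)ᶜ
    have h3 : rf ⁻¹' (rf ⁻¹' E)ᶜ = Eᶜ := by
      ext p; simp
    rwa [h3] at h2
  exact hV.comp_measurePreserving h1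

set_option maxHeartbeats 800000 in
/-- **the glued data** -/
theorem glueD_of (T : TwoG E S 𝒬 𝓗 Q Q' sq sq' a b c d Bm Bp Tl Tu M X1 X2 ψ Ψ Y1 Y2 ψ' Ψ' μ ν f f'
      g g') [IsFiniteMeasure μ] [IsFiniteMeasure ν] (C : ChQ Q X1 X2 f np nm)
    (C' : ChQ Q' Y1 Y2 f' np' nm') (hWo : IsOpen W)
    (hWR : W ⊆ Ioo a b ×ˢ Ioo c d) (hWS : Disjoint W S)
    (alt : ∀ Q₀ ∈ 𝒬, Q₀.car ⊆ W ∨ Disjoint Q₀.car W)
    (k1 : ∀ᵐ q ∂μ, ∀ y ∈ Ico q.2 Tl, (q.1, y) ∉ W)
    (k2 : ∀ᵐ q ∂ν, ∀ y ∈ Ico q.2 Tu, rf (q.1, y) ∉ W) :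
    GlueD E W 𝒬 (glF M g g') (glF M ψ ψ') (glF M Ψ Ψ') (Gl_363.W2 X1 Y1)
      (fun p => X2 p + Y2 (rf p)) (nn sq np sq' nm') (nn sq nm sq' np') := by
  have hEm : MeasurableSet E := T.G.pic.cpt.isClosed.measurableSet
  have hBM := T.BM
  have hMB := T.MB
  have hMl := T.Ml
  have hMu : -Tu < M := lt_of_le_of_lt T.Mu T.BM
  have L := T.D.L
  have L' := T.D'.L
  have hinj := sq_inj T.G T.D.dis
  have hinj' := sq_inj T.G' T.D'.dis
  have iY1 : Integrable fun p => Y1 (rf p) := by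
    have := (integrableOn_rf (F := Y1) (W := univ)).2 L'.L1.integrableOn
    simpa using this
  have iY2 : Integrable fun p => Y2 (rf p) := by
    have := (integrableOn_rf (F := Y2) (W := univ)).2 L'.L2.integrableOn
    simpa using this
  have hWE : W \ E ⊆ Eᶜ := fun p hp => hp.2
  have hcar : ∀ Q₀ : Sqr, MeasurableSet Q₀.car := fun Q₀ => by
    rw [car_eq]; exact measurableSet_closedBall
  exact
  { hW := hWo
    alt := alt
    m1 := L.m1.sub (L'.m1.comp measurable_rf)
    m2 := L.m2.add (L'.m2.comp measurable_rf)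
    i1 := L.L1.sub iY1
    i2 := L.L2.add iY2
    s1 := by
      have h1 := (T.sX.1.sub (sq_off T.sY.1)).integrable_sq
      exact IntegrableOn.mono_set h1 hWE
    s2 := by
      have h1 := (T.sX.2.add (sq_off T.sY.2)).integrable_sq
      exact IntegrableOn.mono_set h1 hWE
    V := glue_V T hWR hWS
    H := glue_H T hWR k1 k2
    ae_eq := glue_E T hWR
    int := fun z r hz => glue_int T hWR measurableSet_closedBall hz
    cont := glue_cont T hWR
    eq := by
      filter_upwards [T.H.ae, ae_rf T.H'.ae] with p h1 h2 hp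
      have hpR := hWR hp.1
      unfold glF
      split_ifs with h
      · refine (h1 ⟨hpR.1, hpR.2.1, h.trans hMl⟩ (fun hh => hp.2 ?_)
          fun hh => hp.2 (T.G.SE hh)).symm
        obtain ⟨i, hi⟩ := mem_iUnion.1 hh
        refine T.G.pic.sub _ (T.G.sqm i).1 (cl_sub T.G i ?_)
        exact ⟨⟨hi.1.1.le, hi.1.2.le⟩, hi.2.1.le, hi.2.2.le⟩
      · refine (h2 ⟨hpR.1, ?_, ?_⟩ (fun hh => hp.2 ?_) fun hh => hp.2 ?_).symm
        · simp only [rf_snd]; linarith [hpR.2.2]
        · simp only [rf_snd]; linarith [not_lt.1 h]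
        · obtain ⟨i, hi⟩ := mem_iUnion.1 hh
          have : rf p ∈ rf ⁻¹' E := by
            refine T.G'.pic.sub _ (T.G'.sqm i).1 (cl_sub T.G' i ?_)
            exact ⟨⟨hi.1.1.le, hi.1.2.le⟩, hi.2.1.le, hi.2.2.le⟩
          simpa using this
        · exact T.G.SE (by simpa using hh)
    fin1 := fun Q₀ _ _ => by
      have := cS_fin (sq := sq) C.fp Q₀
      have := cS_fin (sq := sq') C'.fm (rfS Q₀)
      unfold nn
      infer_instance
    fin2 := fun Q₀ _ _ => by
      have := cS_fin (sq := sq) C.fm Q₀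
      have := cS_fin (sq := sq') C'.fp (rfS Q₀)
      unfold nn
      infer_instance
    c1 := fun Q₀ _ _ => by
      unfold nn
      rw [Measure.add_apply, cS_car T.G C.cp, zero_add,
        Measure.map_apply measurable_rf (hcar Q₀).compl, preimage_compl, ← car_rfS]
      exact cS_car T.G' C'.cm (rfS Q₀)
    c2 := fun Q₀ _ _ => by
      unfold nn
      rw [Measure.add_apply, cS_car T.G C.cm, zero_add,
        Measure.map_apply measurable_rf (hcar Q₀).compl, preimage_compl, ← car_rfS]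
      exact cS_car T.G' C'.cp (rfS Q₀)
    mass := fun Q₀ _ _ => by
      unfold nn
      rw [Measure.add_apply, Measure.add_apply, Measure.map_apply measurable_rf MeasurableSet.univ,
        Measure.map_apply measurable_rf MeasurableSet.univ, preimage_univ, cS_mass C,
        cS_mass C' (rfS Q₀)]
    mass2 := by
      have s1 := cS_sum hinj C.mp C.f2
      have s2 := (cS_sum hinj' C'.mm C'.f2).comp_injective rfS_injective
      have s3 : Summable fun Q₀ : Sqr => (nn sq np sq' nm' Q₀ univ).toReal ^ 2 := by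
        refine Summable.of_nonneg_of_le (fun Q₀ => sq_nonneg _) (fun Q₀ => ?_)
          ((s1.mul_left 2).add (s2.mul_left 2))
        have := cS_fin (sq := sq) C.fp Q₀
        have := cS_fin (sq := sq') C'.fm (rfS Q₀)
        unfold nn
        rw [Measure.add_apply, Measure.map_apply measurable_rf MeasurableSet.univ, preimage_univ,
          ENNReal.toReal_add (measure_ne_top _ _) (measure_ne_top _ _)]
        simp only [Function.comp]
        nlinarith [sq_nonneg ((cS sq np Q₀ univ).toReal - (cS sq' nm' (rfS Q₀) univ).toReal)]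
      exact s3.comp_injective (i := fun i : SqIn 𝒬 W => i.1) Subtype.val_injective
    F1 := fun Q₀ hQ hQW Le e hL he => by
      have f1 := cS_fin (sq := sq) C.fp Q₀
      have f2 := cS_fin (sq := sq) C.fm Q₀
      have f3 := cS_fin (sq := sq') C'.fp (rfS Q₀)
      have f4 := cS_fin (sq := sq') C'.fm (rfS Q₀)
      have hS : Disjoint Q₀.car S := hWS.mono_left hQW
      have hS' : Disjoint (rfS Q₀).car (rf ⁻¹' S) := by
        rw [car_rfS]
        exact hS.preimage rf
      have hQ' : rfS Q₀ ∈ rfS '' 𝒬 := ⟨Q₀, hQ, rfl⟩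
      have hec := continuous_of_lip hL he
      have he' : ∀ p q, |e (rf p) - e (rf q)| ≤ Le * dist p q := fun p q => by
        rw [← dist_rf p q]; exact he _ _
      have hec' : Continuous fun p => e (rf p) := hec.comp continuous_rf
      have l1 := cS_F1 T.G T.D.dis C T.B1 T.D.XB hQ hS hL he
      have l2 := cS_F1 T.G' T.D'.dis C' T.B1' T.D'.XB hQ' hS' (e := fun p => e (rf p)) hL he'
      have hk : IsCompact Q₀.car := by rw [car_eq]; exact isCompact_closedBall _ _
      have hk' : IsCompact (rfS Q₀).car := by rw [car_eq]; exact isCompact_closedBall _ _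
      rw [integral_nn Q₀ (int_of_car hk (cS_car T.G C.cp Q₀) hec)
          (int_of_car hk' (cS_car T.G' C'.cm _) hec'),
        integral_nn Q₀ (int_of_car hk (cS_car T.G C.cm Q₀) hec)
          (int_of_car hk' (cS_car T.G' C'.cp _) hec')]
      have e1 : ∫ p in ball (cen Q₀) (Q₀.s / 2),
          (Gl_363.W2 X1 Y1 p * gx e p + (X2 p + Y2 (rf p)) * gy e p) =
          (∫ p in ball (cen Q₀) (Q₀.s / 2), (X1 p * gx e p + X2 p * gy e p)) -
          ∫ p in ball (cen Q₀) (Q₀.s / 2), (Y1 (rf p) * gx e p + -Y2 (rf p) * gy e p) := by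
        have i3 : Integrable fun p => Y1 (rf p) * gx e p + -Y2 (rf p) * gy e p :=
          int_field hL he iY1 iY2.neg
        rw [← integral_sub (int_field hL he L.L1 L.L2).integrableOn i3.integrableOn]
        congr 1
        funext p
        unfold Gl_363.W2
        ring
      have e2 : ∫ p in ball (cen Q₀) (Q₀.s / 2), (Y1 (rf p) * gx e p + -Y2 (rf p) * gy e p) =
          ∫ p in ball (cen (rfS Q₀)) ((rfS Q₀).s / 2),
            (Y1 p * gx (fun p => e (rf p)) p + Y2 p * gy (fun p => e (rf p)) p) := by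
        rw [ball_cen_rf, ← integral_rf]
        simp_rw [CF_363.gx_rf, gy_rf, rf_rf]
        congr 1
        funext p
        ring
      rw [e1, e2, l1, l2]
      ring }

end Crest.Agent.R105.Ge_347
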