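import Crest.Agent.R105.Knq6_247

/-!
# Row 105 (S0138), (L9) of 425: parts of the relation with a null end carry no mass

`FlowQ.noatom` of 247 with one-sided nullness `Null1` at one of the two ends.
-/

set_option autoImplicit false
set_option maxHeartbeats 400000

namespace Crest.Agent.R105.Nos_649

open Set Filter MeasureTheory Topology
open Crest.Agent.R105.CF_363 Crest.Agent.R105.Kin_238 Crest.Agent.R105.Knq_247

variable {ι ι' : Type*} {a b c B a' b' c' B' : ℝ} {𝓗 𝓗' : Set Hair} {Q : ι → Set (ℝ × ℝ)}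
  {Q' : ι' → Set (ℝ × ℝ)} {S S' C : Set (ℝ × ℝ)} {R R0 : Set ((ℝ × ℝ) × (ℝ × ℝ))}

theorem null2_of_lo (h : Null1 𝓗 a b c B S Q C) (hR : ∀ q ∈ R0, q.1 ∈ C) :
    Null2 𝓗 a b c B S Q 𝓗' a' b' c' B' S' Q' R0 := by
  intro ε hε
  obtain ⟨e, he, h1, h2⟩ := h ε hε
  refine ⟨e, he, 0, (Vq 𝓗' a' b' c' B' Q').zero_mem, ?_, fun q hq σ σ' => ?_⟩
  · rw [EQ_zero, add_zero]; exact h1
  · have h3 : tr (0 : ℝ × ℝ → ℝ) σ' q.2.1 q.2.2 = 0 := tr_zero _ _ _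
    rw [h3, add_zero]
    exact h2 _ (hR q hq) σ

theorem null2_of_up (h : Null1 𝓗' a' b' c' B' S' Q' C) (hR : ∀ q ∈ R0, q.2 ∈ C) :
    Null2 𝓗 a b c B S Q 𝓗' a' b' c' B' S' Q' R0 := by
  intro ε hε
  obtain ⟨e, he, h1, h2⟩ := h ε hε
  refine ⟨0, (Vq 𝓗 a b c B Q).zero_mem, e, he, ?_, fun q hq σ σ' => ?_⟩
  · rw [EQ_zero, zero_add]; exact h1
  · have h3 : tr (0 : ℝ × ℝ → ℝ) σ q.1.1 q.1.2 = 0 := tr_zero _ _ _
    rw [h3, zero_add]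
    exact h2 _ (hR q hq) σ'

variable {m : ℝ} {X1 X2 Y1 Y2 : ℝ × ℝ → ℝ} {f : ι → ℝ} {f' : ι' → ℝ}
  {νp νm : ι → Measure (ℝ × ℝ)} {νp' νm' : ι' → Measure (ℝ × ℝ)}
  {Λ : Measure ((ℝ × ℝ) × (ℝ × ℝ))}

/-- lower end null: no mass over `C` -/
theorem noatom_lo (hF : FlowQ 𝓗 a b c B S Q 𝓗' a' b' c' B' S' Q' R m X1 X2 f νp νm
    Y1 Y2 f' νp' νm' Λ) (h : Null1 𝓗 a b c B S Q C) : Λ {q | q.1 ∈ C} = 0 := by
  have h1 : Λ (R ∩ {q | q.1 ∈ C}) = 0 :=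
    hF.noatom _ inter_subset_left (null2_of_lo h fun q hq => hq.2)
  refine measure_mono_null (t := R ∩ {q | q.1 ∈ C} ∪ Rᶜ) (fun q hq => ?_)
    (measure_union_null h1 hF.carried)
  by_cases hqR : q ∈ R
  · exact Or.inl ⟨hqR, hq⟩
  · exact Or.inr hqR

/-- upper end null: no mass over `C` -/
theorem noatom_up (hF : FlowQ 𝓗 a b c B S Q 𝓗' a' b' c' B' S' Q' R m X1 X2 f νp νm
    Y1 Y2 f' νp' νm' Λ) (h : Null1 𝓗' a' b' c' B' S' Q' C) : Λ {q | q.2 ∈ C} = 0 := by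
  have h1 : Λ (R ∩ {q | q.2 ∈ C}) = 0 :=
    hF.noatom _ inter_subset_left (null2_of_up h fun q hq => hq.2)
  refine measure_mono_null (t := R ∩ {q | q.2 ∈ C} ∪ Rᶜ) (fun q hq => ?_)
    (measure_union_null h1 hF.carried)
  by_cases hqR : q ∈ R
  · exact Or.inl ⟨hqR, hq⟩
  · exact Or.inr hqR

/-- **(L9)** countably many sets, each null at one of the two ends, carry no mass: the relation
only joins points with `q.1 ∈ A i ↔ q.2 ∈ A' i` (same component). -/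
theorem nomass {κ : Type*} [Countable κ] (hF : FlowQ 𝓗 a b c B S Q 𝓗' a' b' c' B' S' Q' R m
    X1 X2 f νp νm Y1 Y2 f' νp' νm' Λ) (A A' : κ → Set (ℝ × ℝ))
    (hR : ∀ q ∈ R, ∀ k, q.1 ∈ A k ↔ q.2 ∈ A' k)
    (h : ∀ k, Null1 𝓗 a b c B S Q (A k) ∨ Null1 𝓗' a' b' c' B' S' Q' (A' k)) :
    (Λ {q | ∃ k, q.1 ∈ A k} = 0) ∧ Λ {q | ∃ k, q.2 ∈ A' k} = 0 := by
  have key : ∀ k, Λ {q | q.1 ∈ A k} = 0 ∧ Λ {q | q.2 ∈ A' k} = 0 := by
    intro k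
    have hsub : ∀ P : (ℝ × ℝ) × (ℝ × ℝ) → Prop, ∀ P' : (ℝ × ℝ) × (ℝ × ℝ) → Prop,
        (∀ q ∈ R, P q → P' q) → Λ {q | P' q} = 0 → Λ {q | P q} = 0 := by
      intro P P' hPP h0
      refine measure_mono_null (t := {q | P' q} ∪ Rᶜ) (fun q hq => ?_)
        (measure_union_null h0 hF.carried)
      by_cases hqR : q ∈ R
      · exact Or.inl (hPP q hqR hq)
      · exact Or.inr hqR
    rcases h k with h1 | h1
    · have h2 := noatom_lo hF h1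
      exact ⟨h2, hsub _ _ (fun q hq hk => (hR q hq k).2 hk) h2⟩
    · have h2 := noatom_up hF h1
      exact ⟨hsub _ _ (fun q hq hk => (hR q hq k).1 hk) h2, h2⟩
  constructor
  · have e : {q : (ℝ × ℝ) × (ℝ × ℝ) | ∃ k, q.1 ∈ A k} = ⋃ k, {q | q.1 ∈ A k} := by
      ext q; simp
    rw [e]
    exact measure_iUnion_null fun k => (key k).1
  · have e : {q : (ℝ × ℝ) × (ℝ × ℝ) | ∃ k, q.2 ∈ A' k} = ⋃ k, {q | q.2 ∈ A' k} := by
      ext q; simp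
    rw [e]
    exact measure_iUnion_null fun k => (key k).2

/-- the same for the two marginals -/
theorem nomass_map {κ : Type*} [Countable κ] (hF : FlowQ 𝓗 a b c B S Q 𝓗' a' b' c' B' S' Q' R m
    X1 X2 f νp νm Y1 Y2 f' νp' νm' Λ) (A A' : κ → Set (ℝ × ℝ))
    (hA : ∀ k, MeasurableSet (A k)) (hA' : ∀ k, MeasurableSet (A' k))
    (hR : ∀ q ∈ R, ∀ k, q.1 ∈ A k ↔ q.2 ∈ A' k)
    (h : ∀ k, Null1 𝓗 a b c B S Q (A k) ∨ Null1 𝓗' a' b' c' B' S' Q' (A' k)) :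
    (Λ.map Prod.fst) (⋃ k, A k) = 0 ∧ (Λ.map Prod.snd) (⋃ k, A' k) = 0 := by
  obtain ⟨h1, h2⟩ := nomass hF A A' hR h
  constructor
  · rw [Measure.map_apply measurable_fst (MeasurableSet.iUnion hA)]
    convert h1 using 2
    ext q; simp
  · rw [Measure.map_apply measurable_snd (MeasurableSet.iUnion hA')]
    convert h2 using 2
    ext q; simp

end Crest.Agent.R105.Nos_649
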