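/-
# Row 105, S0138, lemma A: the box problem of a picture `PicS E 𝒬 𝓗`, part 2; helper247

`Rg` : relation of the pair problem of a family `g` (compact); `FamF` : the flow of a family;
`exists_famF` : existence when the pair problem is not null.
-/
import Crest.Agent.R105.Kbx1_247
import Crest.Agent.R105.Nos1_649

set_option autoImplicit false

open Set Filter MeasureTheory Topology
open scoped ENNReal

namespace Crest.Agent.R105.Kbx_247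

open Crest.Agent.R105.CF_363 Crest.Agent.R105.Stp_722 Crest.Agent.R105.Cq_463
open Crest.Agent.R105.Nal_649 Crest.Agent.R105.Exs_992 Crest.Agent.R105.Famq_306
open Crest.Agent.R105.Skp2_257 (Comps Lo Up)
open Crest.Agent.R105.Kin_238 (Wl Wo tr)
open Crest.Agent.R105.Knq_247 (QQ Null1 Null2 HalfQ FlowQ Vq EQ exists_flow1_opt exists_flow2_opt)

variable {E : Set (ℝ × ℝ)} {𝒬 𝒬' : Set Sqr} {𝓗 : Set Hair} {a b c d B Bm Bp : ℝ}
  {g : Set (Set (ℝ × ℝ))}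

/-! ### the relation -/

/-- "same component" is a compact relation -/
theorem isCompact_ccRel (hE : IsCompact E) :
    IsCompact {q : (ℝ × ℝ) × (ℝ × ℝ) | q.1 ∈ E ∧ q.2 ∈ E ∧
      connectedComponentIn E q.1 = connectedComponentIn E q.2} := by
  have hcs : CompactSpace E := isCompact_iff_compactSpace.1 hE
  have h1 : IsClosed {x : E × E | (x.1 : ConnectedComponents E) = x.2} :=
    isClosed_eq (ConnectedComponents.continuous_coe.comp continuous_fst)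
      (ConnectedComponents.continuous_coe.comp continuous_snd)
  have h2 := h1.isCompact.image
    ((continuous_subtype_val (p := fun p => p ∈ E)).prodMap
      (continuous_subtype_val (p := fun p => p ∈ E)))
  convert h2 using 1
  ext q
  constructor
  · rintro ⟨h3, h4, h5⟩
    refine ⟨(⟨q.1, h3⟩, ⟨q.2, h4⟩), ?_, rfl⟩
    show ((⟨q.1, h3⟩ : E) : ConnectedComponents E) = (⟨q.2, h4⟩ : E)
    rw [ConnectedComponents.coe_eq_coe]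
    rw [connectedComponentIn_eq_image h3, connectedComponentIn_eq_image h4] at h5
    exact Subtype.val_injective.image_injective h5
  · rintro ⟨⟨x, y⟩, hxy, rfl⟩
    refine ⟨x.2, y.2, ?_⟩
    have h6 : (x : ConnectedComponents E) = y := hxy
    rw [ConnectedComponents.coe_eq_coe] at h6
    show connectedComponentIn E x.1 = connectedComponentIn E y.1
    rw [connectedComponentIn_eq_image x.2, connectedComponentIn_eq_image y.2, h6]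

/-- the relation of the pair problem: points of the same member of `g`, the second point in the
reflected picture -/
def Rg (g : Set (Set (ℝ × ℝ))) (Bm Bp : ℝ) : Set ((ℝ × ℝ) × (ℝ × ℝ)) :=
  {q | ∃ P ∈ g, q.1 ∈ P ∧ rf q.2 ∈ P ∧ q.1.2 ≤ Bm ∧ q.2.2 ≤ -Bp}

theorem cc_of_mem {P : Set (ℝ × ℝ)} (hP : P ∈ Comps E) {p : ℝ × ℝ} (hp : p ∈ P) :
    connectedComponentIn E p = P := by
  obtain ⟨q, hq, rfl⟩ := hP
  exact (connectedComponentIn_eq hp).symm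

theorem comps_sub {P : Set (ℝ × ℝ)} (hP : P ∈ Comps E) : P ⊆ E := by
  obtain ⟨q, hq, rfl⟩ := hP
  exact connectedComponentIn_subset _ _

theorem isCompact_Rg (hE : IsCompact E) (hg : FamQ E g Bm Bp) : IsCompact (Rg g Bm Bp) := by
  have h1 := isCompact_ccRel hE
  have h2 : IsClosed {q : (ℝ × ℝ) × (ℝ × ℝ) | q.1 ∈ ⋃₀ g ∧ q.1.2 ≤ Bm ∧ Bp ≤ q.2.2} := by
    have e1 : IsClosed {q : (ℝ × ℝ) × (ℝ × ℝ) | q.1 ∈ ⋃₀ g} :=
      hg.cpt.isClosed.preimage continuous_fst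
    have e2 : IsClosed {q : (ℝ × ℝ) × (ℝ × ℝ) | q.1.2 ≤ Bm} :=
      isClosed_le (by fun_prop) (by fun_prop)
    have e3 : IsClosed {q : (ℝ × ℝ) × (ℝ × ℝ) | Bp ≤ q.2.2} :=
      isClosed_le (by fun_prop) (by fun_prop)
    exact e1.inter (e2.inter e3)
  have h3 := (h1.inter_right h2).image (continuous_id.prodMap continuous_rf)
  convert h3 using 1
  ext q
  constructor
  · rintro ⟨P, hP, h4, h5, h6, h7⟩
    have hPc := hg.sub hP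
    refine ⟨(q.1, rf q.2), ⟨⟨comps_sub hPc h4, comps_sub hPc h5, ?_⟩, ⟨P, hP, h4⟩, h6, ?_⟩, ?_⟩
    · show connectedComponentIn E q.1 = connectedComponentIn E (rf q.2)
      rw [cc_of_mem hPc h4, cc_of_mem hPc h5]
    · show Bp ≤ -q.2.2
      linarith
    · show (q.1, rf (rf q.2)) = q
      rw [rf_rf]
  · rintro ⟨⟨x, y⟩, ⟨⟨hx, hy, hxy⟩, ⟨P, hP, hxP⟩, h6, h7⟩, rfl⟩
    have hPc := hg.sub hP
    refine ⟨P, hP, hxP, ?_, h6, ?_⟩
    · show rf (rf y) ∈ P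
      rw [rf_rf, ← cc_of_mem hPc hxP]
      simp only at hxy
      rw [hxy]
      exact mem_connectedComponentIn hy
    · show -y.2 ≤ -Bp
      simp only at h7
      linarith

theorem Rg_sub (hbox : E ⊆ Ioo a b ×ˢ Ioo c d) (hg : FamQ E g Bm Bp) :
    ∀ q ∈ Rg g Bm Bp, q.1 ∈ Wl a b c Bm ∧ q.2 ∈ Wl a b (-d) (-Bp) := by
  rintro q ⟨P, hP, h4, h5, h6, h7⟩
  have h1 := hbox (comps_sub (hg.sub hP) h4)
  have h2 := hbox (comps_sub (hg.sub hP) h5)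
  refine ⟨⟨h1.1, h1.2.1, h6⟩, ⟨h2.1, ?_, h7⟩⟩
  have h3 := h2.2.2
  rw [rf_snd] at h3
  linarith

theorem _root_.Crest.Agent.R105.Knq_247.HalfQ.mono_C {ι : Type*} {Q : ι → Set (ℝ × ℝ)}
    {S C C' : Set (ℝ × ℝ)} {X1 X2 : ℝ × ℝ → ℝ} {f : ι → ℝ} {νp νm : ι → Measure (ℝ × ℝ)}
    {μ : Measure (ℝ × ℝ)} (h : HalfQ 𝓗 a b c B S Q C X1 X2 f νp νm μ) (hC : C ⊆ C') :
    HalfQ 𝓗 a b c B S Q C' X1 X2 f νp νm μ :=
  { h with carried := measure_mono_null (compl_subset_compl.2 hC) h.carried }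

/-! ### the flow of a family -/

/-- the flow of the family `g` between the levels `Bm < Bp` in the box; the upper half is the lower
half of the reflected picture. All solids of `g` are without mass. -/
structure FamF (E : Set (ℝ × ℝ)) (𝒬 : Set Sqr) (𝓗 : Set Hair) (g : Set (Set (ℝ × ℝ)))
    (Bm Bp a b c d m : ℝ)
    (X1 X2 : ℝ × ℝ → ℝ) (f : {Q : Sqr // Q ∈ 𝒬} → ℝ)
    (νp νm : {Q : Sqr // Q ∈ 𝒬} → Measure (ℝ × ℝ)) (μ : Measure (ℝ × ℝ))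
    (Y1 Y2 : ℝ × ℝ → ℝ) (f' : {Q : Sqr // Q ∈ rfS '' 𝒬} → ℝ)
    (νp' νm' : {Q : Sqr // Q ∈ rfS '' 𝒬} → Measure (ℝ × ℝ)) (ν : Measure (ℝ × ℝ)) : Prop where
  pos : 0 < m
  lo : HalfQ 𝓗 a b c Bm E (QA 𝒬) (⋃₀ g ∩ {p | p.2 ≤ Bm}) X1 X2 f νp νm μ
  up : HalfQ (reflH 𝓗) a b (-d) (-Bp) (rf ⁻¹' E) (QA (rfS '' 𝒬))
    (rf ⁻¹' ⋃₀ g ∩ {p | p.2 ≤ -Bp}) Y1 Y2 f' νp' νm' ν
  m1 : μ univ = ENNReal.ofReal m
  m2 : ν univ = ENNReal.ofReal m
  energy : (((∫ p, X1 p ^ 2) + ∫ p, X2 p ^ 2) + ∑' i, f i ^ 2) +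
    (((∫ p, Y1 p ^ 2) + ∫ p, Y2 p ^ 2) + ∑' i, f' i ^ 2) = m
  /-- equal horizontal marginals -/
  marg : μ.map Prod.fst = ν.map Prod.fst
  /-- the carrier: hairs of `g` (which cross both levels) -/
  c1 : ∀ᵐ q ∂μ, ∃ K ∈ 𝓗, K.car ∈ g ∧ q ∈ K.car ∧ q.2 ≤ Bm ∧ K.b ≤ Bm ∧ Bp ≤ K.t
  c2 : ∀ᵐ q ∂ν, ∃ K ∈ 𝓗, K.car ∈ g ∧ rf q ∈ K.car ∧ q.2 ≤ -Bp ∧ K.b ≤ Bm ∧ Bp ≤ K.t
  /-- null hairs carry no mass -/
  noat : ∀ K ∈ 𝓗, K.car ∈ g → Null2 𝓗 a b c Bm E (QA 𝒬) (reflH 𝓗) a b (-d) (-Bp) (rf ⁻¹' E)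
    (QA (rfS '' 𝒬)) (Rg {K.car} Bm Bp) → μ {q | q.1 = K.x} = 0 ∧ ν {q | q.1 = K.x} = 0
  /-- the mass is the conductance -/
  opt : ∀ ε > 0, ∃ e ∈ Vq 𝓗 a b c Bm (QA 𝒬), ∃ e' ∈ Vq (reflH 𝓗) a b (-d) (-Bp) (QA (rfS '' 𝒬)),
    EQ a b c Bm E (QA 𝒬) e + EQ a b (-d) (-Bp) (rf ⁻¹' E) (QA (rfS '' 𝒬)) e' < m + ε ∧
    ∀ q ∈ Rg g Bm Bp, ∀ σ σ' : Bool, 1 ≤ tr e σ q.1.1 q.1.2 + tr e' σ' q.2.1 q.2.2

/-- the nullness of the solid of `Q` at one end, in the letter of the box problem -/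
def SolN (E : Set (ℝ × ℝ)) (𝒬 : Set Sqr) (𝓗 : Set Hair) (Bm Bp a b c d : ℝ) (Q : Sqr) : Prop :=
  Null1 𝓗 a b c Bm E (QA 𝒬) (comp E Q ∩ {p | p.2 ≤ Bm}) ∨
  Null1 (reflH 𝓗) a b (-d) (-Bp) (rf ⁻¹' E) (QA (rfS '' 𝒬)) (rf ⁻¹' comp E Q ∩ {p | p.2 ≤ -Bp})

/-- members of `g` : hairs or solids -/
theorem mem_cases (hP : PicS E 𝒬 𝓗) (hg : FamQ E g Bm Bp) {P : Set (ℝ × ℝ)} (hPg : P ∈ g) :
    (∃ K ∈ 𝓗, P = K.car ∧ K.b ≤ Bm ∧ Bp ≤ K.t) ∨ ∃ Q ∈ 𝒬, Q.car ⊆ P ∧ P = comp E Q := by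
  rcases hP.comp P (hg.sub hPg) with ⟨p, hp⟩ | ⟨K, hK, h⟩ | ⟨Q, hQ, hQP, -⟩
  · exfalso
    obtain ⟨⟨q, hq, hq2⟩, ⟨q', hq', hq2'⟩⟩ := hg.crs P hPg
    rw [hp, mem_singleton_iff] at hq hq'
    rw [hq] at hq2
    rw [hq'] at hq2'
    have := hg.lt
    linarith
  · left
    obtain ⟨⟨q, hq, hq2⟩, ⟨q', hq', hq2'⟩⟩ := hg.crs P hPg
    rw [h] at hq hq'
    exact ⟨K, hK, h, hq.2.1.trans hq2, hq2'.trans hq'.2.2⟩
  · exact Or.inr ⟨Q, hQ, hQP, SkT1_137.eq_comp hP.q hQ (hg.sub hPg) hQP⟩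

set_option maxHeartbeats 800000 in
/-- **the flow of a family** which is not null -/
theorem exists_famF (hP : PicS E 𝒬 𝓗) (hg : FamQ E g Bm Bp) (hbox : E ⊆ Ioo a b ×ˢ Ioo c d)
    (hsol : ∀ Q ∈ 𝒬, Q.car ⊆ ⋃₀ g → SolN E 𝒬 𝓗 Bm Bp a b c d Q)
    (hnot : ¬ Null2 𝓗 a b c Bm E (QA 𝒬) (reflH 𝓗) a b (-d) (-Bp) (rf ⁻¹' E) (QA (rfS '' 𝒬))
      (Rg g Bm Bp)) :
    ∃ m X1 X2 f νp νm μ Y1 Y2 f' νp' νm' ν,
      FamF E 𝒬 𝓗 g Bm Bp a b c d m X1 X2 f νp νm μ Y1 Y2 f' νp' νm' ν := by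
  have hE := hP.q
  have hE' := refl_qpic hE
  have hbox' : rf ⁻¹' E ⊆ Ioo a b ×ˢ Ioo (-d) (-c) := by
    intro p hp
    have h1 := hbox hp
    refine ⟨h1.1, ?_, ?_⟩
    · have := h1.2.2; rw [rf_snd] at this; linarith
    · have := h1.2.1; rw [rf_snd] at this; linarith
  obtain ⟨m, X1, X2, f, νp, νm, Y1, Y2, f', νp', νm', Λ, hm, hF, hopt⟩ :=
    exists_flow2_opt (S := E) (S' := rf ⁻¹' E) (qq hE hbox Subset.rfl)
      (qq (𝒬' := rfS '' 𝒬) hE' hbox' Subset.rfl)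
      hE.cpt.isClosed hE'.cpt.isClosed (isCompact_Rg hE.cpt hg) (Rg_sub hbox hg) hnot
  have hfin := hF.fin
  -- almost every pair lies over a hair of `g`
  have hcount : Countable {Q : Sqr // Q ∈ 𝒬} := hE.countable.to_subtype
  have hcar := hF.carried
  have hnosol : Λ {q | ∃ Q ∈ 𝒬, q.1 ∈ comp E Q} = 0 := by
    have h1 : ∀ i : {Q : Sqr // Q ∈ 𝒬}, Λ {q | q.1 ∈ comp E i.1} = 0 := by
      intro i
      by_cases hi : i.1.car ⊆ ⋃₀ g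
      · have hR : ∀ q ∈ Rg g Bm Bp, q.1 ∈ comp E i.1 →
            q.1 ∈ comp E i.1 ∩ {p | p.2 ≤ Bm} ∧ q.2 ∈ rf ⁻¹' comp E i.1 ∩ {p | p.2 ≤ -Bp} := by
          rintro q ⟨P, hPg, h4, h5, h6, h7⟩ hq
          have h8 : P = comp E i.1 :=
            comp_unique (hg.sub hPg) (SkT1_137.comp_mem hE i.2) ⟨q.1, h4, hq⟩
          rw [h8] at h5
          exact ⟨⟨hq, h6⟩, h5, h7⟩
        rcases hsol i.1 i.2 hi with h | h
        · refine measure_mono_null (fun q hq => ?_)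
            (measure_union_null (Nos_649.noatom_lo hF h) hcar)
          by_cases hqR : q ∈ Rg g Bm Bp
          · exact Or.inl (hR q hqR hq).1
          · exact Or.inr hqR
        · refine measure_mono_null (fun q hq => ?_)
            (measure_union_null (Nos_649.noatom_up hF h) hcar)
          by_cases hqR : q ∈ Rg g Bm Bp
          · exact Or.inl (hR q hqR hq).2
          · exact Or.inr hqR
      · refine measure_mono_null (fun q hq => ?_) hcar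
        rintro ⟨P, hPg, h4, -⟩
        have h8 : P = comp E i.1 :=
          comp_unique (hg.sub hPg) (SkT1_137.comp_mem hE i.2) ⟨q.1, h4, hq⟩
        exact hi ((SkT1_137.car_sub_comp hE i.2).trans (h8 ▸ subset_sUnion_of_mem hPg))
    have h2 : {q : (ℝ × ℝ) × (ℝ × ℝ) | ∃ Q ∈ 𝒬, q.1 ∈ comp E Q} =
        ⋃ i : {Q : Sqr // Q ∈ 𝒬}, {q | q.1 ∈ comp E i.1} := by
      ext q
      simp only [Set.mem_ofPred_eq, mem_iUnion, Subtype.exists, exists_prop]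
    rw [h2]
    exact measure_iUnion_null h1
  have hae : ∀ᵐ q ∂Λ, ∃ K ∈ 𝓗, K.car ∈ g ∧ q.1 ∈ K.car ∧ rf q.2 ∈ K.car ∧ q.1.2 ≤ Bm ∧
      q.2.2 ≤ -Bp ∧ K.b ≤ Bm ∧ Bp ≤ K.t := by
    rw [ae_iff]
    refine measure_mono_null (fun q hq => ?_) (measure_union_null hnosol hcar)
    by_cases hqR : q ∈ Rg g Bm Bp
    · left
      obtain ⟨P, hPg, h4, h5, h6, h7⟩ := hqR
      rcases mem_cases hP hg hPg with ⟨K, hK, hPK, h8, h9⟩ | ⟨Q, hQ, -, hPQ⟩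
      · exact absurd ⟨K, hK, hPK ▸ hPg, hPK ▸ h4, hPK ▸ h5, h6, h7, h8, h9⟩ hq
      · exact ⟨Q, hQ, hPQ ▸ h4⟩
    · exact Or.inr hqR
  have hm1 : (Λ.map Prod.fst) univ = ENNReal.ofReal m := by
    rw [Measure.map_apply measurable_fst MeasurableSet.univ, preimage_univ, ← hF.mass,
      ofReal_measureReal]
  have hm2 : (Λ.map Prod.snd) univ = ENNReal.ofReal m := by
    rw [Measure.map_apply measurable_snd MeasurableSet.univ, preimage_univ, ← hF.mass,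
      ofReal_measureReal]
  have haex : ∀ᵐ q ∂Λ, (q : (ℝ × ℝ) × (ℝ × ℝ)).1.1 = q.2.1 := by
    filter_upwards [hae] with q hq
    obtain ⟨K, hK, hKg, h4, h5, -⟩ := hq
    rw [h4.1, ← h5.1]
    rfl
  have hmarg : (Λ.map Prod.fst).map Prod.fst = (Λ.map Prod.snd).map Prod.fst := by
    rw [Measure.map_map measurable_fst measurable_fst, Measure.map_map measurable_fst measurable_snd]
    exact Measure.map_congr haex
  have hcC1 : ∀ᵐ q ∂Λ.map Prod.fst, ∃ K ∈ 𝓗, K.car ∈ g ∧ q ∈ K.car ∧ q.2 ≤ Bm ∧ K.b ≤ Bm ∧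
      Bp ≤ K.t := by
    -- the set of the hairs of `g` : `⋃₀ g` minus the solids
    have hM : MeasurableSet ((⋃₀ g ∩ {p : ℝ × ℝ | p.2 ≤ Bm}) \ ⋃ Q ∈ 𝒬, comp E Q) := by
      refine MeasurableSet.diff (hg.cpt.isClosed.measurableSet.inter
        (measurableSet_le measurable_snd measurable_const))
        (MeasurableSet.biUnion hE.countable fun Q hQ => ?_)
      exact (isCompact_comp hE (SkT1_137.comp_mem hE hQ)).isClosed.measurableSet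
    have h1 : ∀ᵐ q ∂Λ.map Prod.fst,
        q ∈ (⋃₀ g ∩ {p : ℝ × ℝ | p.2 ≤ Bm}) \ ⋃ Q ∈ 𝒬, comp E Q := by
      refine (ae_map_iff measurable_fst.aemeasurable (p := fun q : ℝ × ℝ =>
        q ∈ (⋃₀ g ∩ {p : ℝ × ℝ | p.2 ≤ Bm}) \ ⋃ Q ∈ 𝒬, comp E Q) hM).2 ?_
      have h2 : ∀ᵐ q ∂Λ, q ∈ Rg g Bm Bp := by rw [ae_iff]; exact hcar
      have h3 : ∀ᵐ q ∂Λ, ¬ ∃ Q ∈ 𝒬, q.1 ∈ comp E Q := by
        rw [ae_iff]; simpa using hnosol
      filter_upwards [h2, h3] with q hq hq'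
      obtain ⟨P, hPg, h4, h5, h6, h7⟩ := hq
      refine ⟨⟨⟨P, hPg, h4⟩, h6⟩, fun h => hq' ?_⟩
      simp only [mem_iUnion, exists_prop] at h
      exact h
    filter_upwards [h1] with q hq
    obtain ⟨⟨⟨P, hPg, h4⟩, h6⟩, h7⟩ := hq
    rcases mem_cases hP hg hPg with ⟨K, hK, hPK, h8, h9⟩ | ⟨Q, hQ, -, hPQ⟩
    · exact ⟨K, hK, hPK ▸ hPg, hPK ▸ h4, h6, h8, h9⟩
    · refine absurd ?_ h7
      simp only [mem_iUnion, exists_prop]
      exact ⟨Q, hQ, hPQ ▸ h4⟩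
  have hcC2 : ∀ᵐ q ∂Λ.map Prod.snd, ∃ K ∈ 𝓗, K.car ∈ g ∧ rf q ∈ K.car ∧ q.2 ≤ -Bp ∧ K.b ≤ Bm ∧
      Bp ≤ K.t := by
    have hM : MeasurableSet (rf ⁻¹' (⋃₀ g \ ⋃ Q ∈ 𝒬, comp E Q) ∩ {p : ℝ × ℝ | p.2 ≤ -Bp}) := by
      refine MeasurableSet.inter (measurable_rf ?_)
        (measurableSet_le measurable_snd measurable_const)
      refine MeasurableSet.diff hg.cpt.isClosed.measurableSet
        (MeasurableSet.biUnion hE.countable fun Q hQ => ?_)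
      exact (isCompact_comp hE (SkT1_137.comp_mem hE hQ)).isClosed.measurableSet
    have h1 : ∀ᵐ q ∂Λ.map Prod.snd,
        q ∈ rf ⁻¹' (⋃₀ g \ ⋃ Q ∈ 𝒬, comp E Q) ∩ {p : ℝ × ℝ | p.2 ≤ -Bp} := by
      refine (ae_map_iff measurable_snd.aemeasurable (p := fun q : ℝ × ℝ =>
        q ∈ rf ⁻¹' (⋃₀ g \ ⋃ Q ∈ 𝒬, comp E Q) ∩ {p : ℝ × ℝ | p.2 ≤ -Bp}) hM).2 ?_
      have h2 : ∀ᵐ q ∂Λ, q ∈ Rg g Bm Bp := by rw [ae_iff]; exact hcar
      have h3 : ∀ᵐ q ∂Λ, ¬ ∃ Q ∈ 𝒬, q.1 ∈ comp E Q := by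
        rw [ae_iff]; simpa using hnosol
      filter_upwards [h2, h3] with q hq hq'
      obtain ⟨P, hPg, h4, h5, h6, h7⟩ := hq
      refine ⟨⟨⟨P, hPg, h5⟩, fun h => hq' ?_⟩, h7⟩
      simp only [mem_iUnion, exists_prop] at h
      obtain ⟨Q, hQ, hq2⟩ := h
      have h8 : P = comp E Q := comp_unique (hg.sub hPg) (SkT1_137.comp_mem hE hQ) ⟨_, h5, hq2⟩
      exact ⟨Q, hQ, h8 ▸ h4⟩
    filter_upwards [h1] with q hq
    obtain ⟨⟨⟨P, hPg, h4⟩, h7⟩, h6⟩ := hq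
    rcases mem_cases hP hg hPg with ⟨K, hK, hPK, h8, h9⟩ | ⟨Q, hQ, -, hPQ⟩
    · exact ⟨K, hK, hPK ▸ hPg, hPK ▸ h4, h6, h8, h9⟩
    · refine absurd ?_ h7
      simp only [mem_iUnion, exists_prop]
      exact ⟨Q, hQ, hPQ ▸ h4⟩
  have hC1 : Prod.fst '' Rg g Bm Bp ⊆ ⋃₀ g ∩ {p | p.2 ≤ Bm} := by
    rintro _ ⟨q, ⟨P, hPg, h4, h5, h6, h7⟩, rfl⟩
    exact ⟨⟨P, hPg, h4⟩, h6⟩
  have hC2 : Prod.snd '' Rg g Bm Bp ⊆ rf ⁻¹' ⋃₀ g ∩ {p | p.2 ≤ -Bp} := by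
    rintro _ ⟨q, ⟨P, hPg, h4, h5, h6, h7⟩, rfl⟩
    exact ⟨⟨P, hPg, h5⟩, h7⟩
  refine ⟨m, X1, X2, f, νp, νm, Λ.map Prod.fst, Y1, Y2, f', νp', νm', Λ.map Prod.snd,
    { pos := hm
      lo := hF.lo.mono_C hC1
      up := hF.up.mono_C hC2
      m1 := hm1
      m2 := hm2
      energy := hF.energy
      marg := hmarg
      c1 := hcC1
      c2 := hcC2
      noat := ?_
      opt := hopt }⟩
  intro K hK hKg hnull
  have hsub : Rg {K.car} Bm Bp ⊆ Rg g Bm Bp := by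
    rintro q ⟨P, hPK, h⟩
    exact ⟨P, by rw [mem_singleton_iff.1 hPK]; exact hKg, h⟩
  have h0 := hF.noatom _ hsub hnull
  have hkey : Λ {q | q.1.1 = K.x} = 0 := by
    have h1 : Λ ({q | q.1.1 = K.x} \ Rg {K.car} Bm Bp) = 0 := by
      refine measure_mono_null (fun q hq => ?_) (ae_iff.1 hae)
      rintro ⟨K', hK', hKg', h4, h5, h6, h7, h8, h9⟩
      refine hq.2 ?_
      have hx : K'.x = K.x := by rw [← h4.1]; exact hq.1
      obtain ⟨⟨z, hz, hz2⟩, ⟨z', hz', hz2'⟩⟩ := hg.crs _ hKg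
      have h10 : K'.car = K.car := by
        refine comp_unique (hg.sub hKg') (hg.sub hKg) ⟨(K.x, Bm), ⟨hx.symm, h8, ?_⟩, rfl, ?_, ?_⟩
        · exact hg.lt.le.trans h9
        · exact hz.2.1.trans hz2
        · exact hg.lt.le.trans (hz2'.trans hz'.2.2)
      exact ⟨K.car, rfl, h10 ▸ h4, h10 ▸ h5, h6, h7⟩
    refine measure_mono_null (fun q hq => ?_) (measure_union_null h1 h0)
    by_cases hqR : q ∈ Rg {K.car} Bm Bp
    · exact Or.inr hqR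
    · exact Or.inl ⟨hq, hqR⟩
  have hms : MeasurableSet {q : ℝ × ℝ | q.1 = K.x} :=
    measurableSet_eq_fun measurable_fst measurable_const
  constructor
  · rw [Measure.map_apply measurable_fst hms]
    exact hkey
  · rw [Measure.map_apply measurable_snd hms]
    refine measure_mono_null (fun q hq => ?_) (measure_union_null hkey (ae_iff.1 haex))
    by_cases hq' : q.1.1 = q.2.1
    · left
      show q.1.1 = K.x
      rw [hq']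
      exact hq
    · exact Or.inr hq'

end Crest.Agent.R105.Kbx_247
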