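import Crest.Agent.R105.Mp6_87
import Crest.Agent.R105.CF6_363

/-! Row 105, lemma A: the maximum principle for the stream function of a limit of gradients of
functions cut along finitely many hairs. -/

open MeasureTheory Set Filter Topology

namespace Crest.Agent.R105.Mp_87

open Crest.Agent.R105.CF_363

variable {a b c B σ : ℝ} {X1 X2 ψ Ψ : ℝ × ℝ → ℝ} {μ : Measure (ℝ × ℝ)}

theorem ae_snd {Q : ℝ → Prop} (h : ∀ᵐ y : ℝ, Q y) : ∀ᵐ p : ℝ × ℝ, Q p.2 := by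
  rw [Measure.volume_eq_prod]
  exact Measure.quasiMeasurePreserving_snd.ae h

theorem ae_fst {Q : ℝ → Prop} (h : ∀ᵐ x : ℝ, Q x) : ∀ᵐ p : ℝ × ℝ, Q p.1 := by
  rw [Measure.volume_eq_prod]
  exact Measure.quasiMeasurePreserving_fst.ae h

/-- The data of the approximating sequence. -/
structure Appr (a b c B σ : ℝ) (X1 X2 : ℝ × ℝ → ℝ) (μ : Measure (ℝ × ℝ)) (Ψ : ℝ × ℝ → ℝ)
    (J : ℕ → Finset Hair) (z : ℕ → ℝ × ℝ → ℝ) (κ : Hair → ℝ) : Prop where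
  mX1 : Measurable X1
  mX2 : Measurable X2
  X1B : ∀ p : ℝ × ℝ, B ≤ p.2 → X1 p = 0
  X2B : ∀ p : ℝ × ℝ, B ≤ p.2 → X2 p = 0
  disj : ∀ n, ∀ K ∈ J n, ∀ K' ∈ J n, K ≠ K' → Disjoint K.car K'.car
  sl : ∀ n, ∃ L : ℝ, 0 ≤ L ∧ SL ((Ioo a b ×ˢ Ioo c B) \ cut (J n)) L (z n)
  c1 : Tendsto (fun n => ∫ p in Ioo a b ×ˢ Ioo c B, (gx (z n) p - X1 p) ^ 2) atTop (𝓝 0)
  c2 : Tendsto (fun n => ∫ p in Ioo a b ×ˢ Ioo c B, (gy (z n) p - X2 p) ^ 2) atTop (𝓝 0)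
  T : ∀ n, ∀ K ∈ J n, K.x ∈ Ioo a b → μ {q | q.1 = K.x ∧ q.2 < K.t} = 0 →
    (∀ᵐ y, c < y → y ∈ Ioo K.b K.t → Ψ (K.x, y) = κ K) ∧ (B ≤ K.t → κ K = -σ * lam μ K.x)

/-- property of the vertical sides -/
def PXh (J : ℕ → Finset Hair) (x : ℝ) : Prop := ∀ n, ∀ K ∈ J n, x ≠ K.x

/-- property of the horizontal sides -/
def PYh (a b : ℝ) (μ : Measure (ℝ × ℝ)) (Ψ : ℝ × ℝ → ℝ) (J : ℕ → Finset Hair) (κ : Hair → ℝ)
    (y : ℝ) : Prop :=
  ∀ n, ∀ K ∈ J n, y ≠ K.b ∧ y ≠ K.t ∧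
    (K.x ∈ Ioo a b → μ {q | q.1 = K.x ∧ q.2 < K.t} = 0 → y ∈ Ioo K.b K.t → Ψ (K.x, y) = κ K)

/-- the rectangle avoids the atomic hairs -/
def PRh (μ : Measure (ℝ × ℝ)) (J : ℕ → Finset Hair) (x0 x1 y0 y1 : ℝ) : Prop :=
  ∀ n, ∀ K ∈ J n, μ {q | q.1 = K.x ∧ q.2 < K.t} ≠ 0 → K.x ∈ Ioo x0 x1 → K.t ≤ y0 ∨ y1 ≤ K.b

theorem ae_PXh (J : ℕ → Finset Hair) : ∀ᵐ x, x ∈ Ioo a b → PXh J x := by
  have h : ∀ n, ∀ K ∈ J n, ∀ᵐ x : ℝ, x ≠ K.x := fun n K _ => by rw [ae_iff]; simp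
  have h2 : ∀ᵐ x : ℝ, ∀ n, ∀ K ∈ J n, x ≠ K.x := by
    rw [ae_all_iff]
    intro n
    exact (Finset.eventually_all (J n)).mpr (fun K hK => h n K hK)
  filter_upwards [h2] with x hx _ using hx

theorem ae_PYh {J : ℕ → Finset Hair} {z : ℕ → ℝ × ℝ → ℝ} {κ : Hair → ℝ}
    (A : Appr a b c B σ X1 X2 μ Ψ J z κ) : ∀ᵐ y, c < y → PYh a b μ Ψ J κ y := by
  have h2 : ∀ᵐ y : ℝ, ∀ n, ∀ K ∈ J n, c < y → y ≠ K.b ∧ y ≠ K.t ∧
    (K.x ∈ Ioo a b → μ {q | q.1 = K.x ∧ q.2 < K.t} = 0 → y ∈ Ioo K.b K.t → Ψ (K.x, y) = κ K) := by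
    rw [ae_all_iff]
    intro n
    refine (Finset.eventually_all (J n)).mpr (fun K hK => ?_)
    have h1 : ∀ᵐ y : ℝ, y ≠ K.b := by rw [ae_iff]; simp
    have h3 : ∀ᵐ y : ℝ, y ≠ K.t := by rw [ae_iff]; simp
    by_cases hx : K.x ∈ Ioo a b ∧ μ {q | q.1 = K.x ∧ q.2 < K.t} = 0
    · filter_upwards [h1, h3, (A.T n K hK hx.1 hx.2).1] with y e1 e2 e3 hc
      exact ⟨e1, e2, fun _ _ h => e3 hc h⟩
    · filter_upwards [h1, h3] with y e1 e2 hc
      exact ⟨e1, e2, fun h h' => absurd ⟨h, h'⟩ hx⟩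
  filter_upwards [h2] with y hy hc n K hK
  exact hy n K hK hc

theorem strip_le [IsFiniteMeasure μ] (L : Lines a b c B σ X1 X2 μ ψ Ψ) (hσ : σ = 1 ∨ σ = -1)
    {x0 x1 y0 y1 M : ℝ} (R : GoodR a b c σ X1 X2 μ ψ Ψ x0 x1 y0 y1)
    (hM : BdLe M ψ Ψ x0 x1 y0 y1) (hB : B < y1) :
    ∀ x ∈ Icc x0 x1, -σ * lam μ x ≤ M := by
  intro x hx
  set y := (max B y0 + y1) / 2 with hy
  have hm : max B y0 < y1 := max_lt hB R.hy
  have hyB : B ≤ y := by
    have := le_max_left B y0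
    rw [hy]; linarith
  have hyI : y ∈ Icc y0 y1 := by
    have := le_max_right B y0
    constructor <;> rw [hy] <;> linarith
  have h0 := hM.l y hyI
  have h1 := hM.r y hyI
  rw [L.strip (x0, y) hyB] at h0
  rw [L.strip (x1, y) hyB] at h1
  simp only at h0 h1
  have m0 := lam_mono μ hx.1
  have m1 := lam_mono μ hx.2
  rcases hσ with rfl | rfl <;> linarith

theorem mpat_of_appr [IsFiniteMeasure μ] (L : Lines a b c B σ X1 X2 μ ψ Ψ) (hσ : σ = 1 ∨ σ = -1)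
    {J : ℕ → Finset Hair} {z : ℕ → ℝ × ℝ → ℝ} {κ : Hair → ℝ}
    (A : Appr a b c B σ X1 X2 μ Ψ J z κ) :
    MPat a b c σ X1 X2 μ ψ Ψ (PXh J) (PYh a b μ Ψ J κ) (PRh μ J) := by
  intro x0 x1 y0 y1 M R px0 px1 py0 py1 pr hM
  rcases le_or_gt B y0 with hB0 | hB0
  · -- the rectangle lies in the strip
    rw [ae_restrict_iff' (measurableSet_Rc _ _ _ _)]
    filter_upwards with p hp
    rw [L.strip p (hB0.trans hp.2.1.le)]
    exact strip_le L hσ R hM (lt_of_le_of_lt hB0 R.hy) p.1 ⟨hp.1.1.le, hp.1.2.le⟩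
  set d := min y1 B with hd
  have hy0d : y0 < d := lt_min R.hy hB0
  have hdy1 : d ≤ y1 := min_le_left _ _
  have hdB : d ≤ B := min_le_right _ _
  have hsub : Ioo x0 x1 ×ˢ Ioo y0 d ⊆ Ioo a b ×ˢ Ioo c B := by
    intro p hp
    exact ⟨⟨R.ha.trans hp.1.1, hp.1.2.trans R.hb⟩, ⟨R.hc.trans hp.2.1, lt_of_lt_of_le hp.2.2 hdB⟩⟩
  have hcap : Rc x0 x1 y0 y1 ∩ {p | p.2 < B} = Ioo x0 x1 ×ˢ Ioo y0 d := by
    ext p
    simp only [Rc, mem_inter_iff, mem_prod, mem_Ioo, mem_ofPred_eq, hd, lt_min_iff]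
    tauto
  have hmB : MeasurableSet {p : ℝ × ℝ | p.2 < B} := measurableSet_lt measurable_snd measurable_const
  have hwxm : Measurable (wx M X2 Ψ) :=
    Measurable.ite (measurableSet_lt measurable_const L.mΨ) A.mX2.neg measurable_const
  have hwym : Measurable (wy M X1 ψ) :=
    Measurable.ite (measurableSet_lt measurable_const L.mψ) A.mX1 measurable_const
  have hfinR : volume (Ioo x0 x1 ×ˢ Ioo y0 d : Set (ℝ × ℝ)) ≠ ⊤ := by
    rw [Measure.volume_eq_prod, Measure.prod_prod, Real.volume_Ioo, Real.volume_Ioo]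
    exact ENNReal.mul_ne_top ENNReal.ofReal_ne_top ENNReal.ofReal_ne_top
  have hfinM : IsFiniteMeasure ((volume : Measure (ℝ × ℝ)).restrict (Ioo x0 x1 ×ˢ Ioo y0 d)) :=
    ⟨by rw [Measure.restrict_apply_univ]; exact lt_top_iff_ne_top.mpr hfinR⟩
  have hfinR2 : volume (Rc x0 x1 y0 y1) ≠ ⊤ := by
    rw [Rc, Measure.volume_eq_prod, Measure.prod_prod, Real.volume_Ioo, Real.volume_Ioo]
    exact ENNReal.mul_ne_top ENNReal.ofReal_ne_top ENNReal.ofReal_ne_top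
  have hfinM2 : IsFiniteMeasure ((volume : Measure (ℝ × ℝ)).restrict (Rc x0 x1 y0 y1)) :=
    ⟨by rw [Measure.restrict_apply_univ]; exact lt_top_iff_ne_top.mpr hfinR2⟩
  have hwx2 : MemLp (wx M X2 Ψ) 2 (volume : Measure (ℝ × ℝ)) := by
    have : wx M X2 Ψ = {p | M < Ψ p}.indicator (fun p => -X2 p) := by
      ext p; simp [wx, indicator]
    rw [this]; exact L.L2.neg.indicator (measurableSet_lt measurable_const L.mΨ)
  have hwy2 : MemLp (wy M X1 ψ) 2 (volume : Measure (ℝ × ℝ)) := by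
    have : wy M X1 ψ = {p | M < ψ p}.indicator X1 := by
      ext p; simp [wy, indicator]
    rw [this]; exact L.L1.indicator (measurableSet_lt measurable_const L.mψ)
  have hh := w_hlines L hσ R hM
  have hv := w_vlines L R hM
  -- boundary conditions
  have hb : ∀ᵐ y, y ∈ Ioo y0 d → ∫ s in x0..x1, wx M X2 Ψ (s, y) = 0 := by
    filter_upwards [hh] with y hy hyI
    obtain ⟨h1, h2, h3⟩ := hy ⟨hyI.1, lt_of_lt_of_le hyI.2 hdy1⟩
    rw [← h1 x1 ⟨R.hx.le, le_refl _⟩]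
    exact max_eq_right (by linarith)
  have hd0 : ∀ᵐ x, x ∈ Ioo x0 x1 → ∫ t in y0..d, wy M X1 ψ (x, t) = 0 := by
    filter_upwards [hv] with x hx hxI
    obtain ⟨h1, h2, h3⟩ := hx hxI
    rw [← h1 d ⟨hy0d.le, hdy1⟩]
    apply max_eq_right
    rcases le_or_gt y1 B with h4 | h4
    · have : d = y1 := min_eq_left h4
      rw [this]; linarith
    · have : d = B := min_eq_right h4.le
      rw [this, L.strip (x, B) (le_refl _)]
      have := strip_le L hσ R hM h4 x ⟨hxI.1.le, hxI.2.le⟩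
      simp only
      linarith
  have hUV : ∀ᵐ p : ℝ × ℝ, p ∈ Ioo x0 x1 ×ˢ Ioo y0 d →
      ∫ s in x0..p.1, wx M X2 Ψ (s, p.2) = ∫ t in y0..p.2, wy M X1 ψ (p.1, t) := by
    filter_upwards [ae_snd hh, ae_fst hv, L.E] with p h1 h2 h3 hp
    have g1 := (h1 ⟨hp.2.1, lt_of_lt_of_le hp.2.2 hdy1⟩).1 p.1 ⟨hp.1.1.le, hp.1.2.le⟩
    have g2 := (h2 hp.1).1 p.2 ⟨hp.2.1.le, (hp.2.2.le.trans hdy1)⟩
    rw [← g1, ← g2]
    have := h3 ⟨R.ha.trans hp.1.1, hp.1.2.trans R.hb⟩ (R.hc.trans hp.2.1)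
    rw [show ((p.1, p.2) : ℝ × ℝ) = p from rfl, this]
  -- the approximating fields
  set S : Set (ℝ × ℝ) := {p | p.2 < B} with hS
  set E1 : ℕ → ℝ × ℝ → ℝ := fun n => S.indicator (gx (z n)) with hE1
  set E2 : ℕ → ℝ × ℝ → ℝ := fun n => S.indicator (gy (z n)) with hE2
  have hslR : ∀ n, ∃ Ln : ℝ, 0 ≤ Ln ∧ SL ((Ioo x0 x1 ×ˢ Ioo y0 d) \ cut (J n)) Ln (z n) := by
    intro n
    obtain ⟨Ln, h1, h2⟩ := A.sl n
    exact ⟨Ln, h1, h2.mono (sdiff_subset_sdiff_left hsub)⟩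
  have hbd : ∀ n, ∃ Ln : ℝ, 0 ≤ Ln ∧ (∀ᵐ p ∂((volume : Measure (ℝ × ℝ)).restrict (Rc x0 x1 y0 y1)),
      ‖E1 n p‖ ≤ Ln) ∧ (∀ᵐ p ∂((volume : Measure (ℝ × ℝ)).restrict (Rc x0 x1 y0 y1)),
      ‖E2 n p‖ ≤ Ln) := by
    intro n
    obtain ⟨Ln, h1, h2⟩ := hslR n
    have hop : IsOpen ((Ioo x0 x1 ×ˢ Ioo y0 d) \ cut (J n)) :=
      isOpen_diff_cut (isOpen_Ioo.prod isOpen_Ioo) _
    have hnull : ∀ᵐ p : ℝ × ℝ, p ∉ cut (J n) := measure_eq_zero_iff_ae_notMem.mp (volume_cut (J n))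
    refine ⟨Ln, h1, ?_, ?_⟩
    · rw [ae_restrict_iff' (measurableSet_Rc _ _ _ _)]
      filter_upwards [hnull] with p hp hpR
      by_cases hpS : p ∈ S
      · have hpm : p ∈ (Ioo x0 x1 ×ˢ Ioo y0 d) \ cut (J n) := ⟨hcap ▸ ⟨hpR, hpS⟩, hp⟩
        simp only [hE1, indicator_of_mem hpS, Real.norm_eq_abs]
        exact h2.abs_gx_le hop h1 hpm
      · simp only [hE1, indicator_of_notMem hpS, norm_zero]; exact h1
    · rw [ae_restrict_iff' (measurableSet_Rc _ _ _ _)]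
      filter_upwards [hnull] with p hp hpR
      by_cases hpS : p ∈ S
      · have hpm : p ∈ (Ioo x0 x1 ×ˢ Ioo y0 d) \ cut (J n) := ⟨hcap ▸ ⟨hpR, hpS⟩, hp⟩
        simp only [hE2, indicator_of_mem hpS, Real.norm_eq_abs]
        exact h2.abs_gy_le hop h1 hpm
      · simp only [hE2, indicator_of_notMem hpS, norm_zero]; exact h1
  have hE1m : ∀ n, MemLp (E1 n) 2 ((volume : Measure (ℝ × ℝ)).restrict (Rc x0 x1 y0 y1)) := by
    intro n
    obtain ⟨Ln, h1, h2, h3⟩ := hbd n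
    exact MemLp.of_bound (((measurable_gx (z n)).indicator hmB).aestronglyMeasurable) Ln h2
  have hE2m : ∀ n, MemLp (E2 n) 2 ((volume : Measure (ℝ × ℝ)).restrict (Rc x0 x1 y0 y1)) := by
    intro n
    obtain ⟨Ln, h1, h2, h3⟩ := hbd n
    exact MemLp.of_bound (((measurable_gy (z n)).indicator hmB).aestronglyMeasurable) Ln h3
  -- bounds on the half domain, to compare integrals
  have hconv : ∀ (X : ℝ × ℝ → ℝ) (hX : MemLp X 2 (volume : Measure (ℝ × ℝ)))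
      (hXB : ∀ p : ℝ × ℝ, B ≤ p.2 → X p = 0) (g : ℕ → ℝ × ℝ → ℝ) (hgm : ∀ n, Measurable (g n))
      (hgb : ∀ n, ∃ Ln : ℝ, 0 ≤ Ln ∧ ∀ p ∈ (Ioo a b ×ˢ Ioo c B) \ cut (J n), |g n p| ≤ Ln)
      (hc : Tendsto (fun n => ∫ p in Ioo a b ×ˢ Ioo c B, (g n p - X p) ^ 2) atTop (𝓝 0)),
      Tendsto (fun n => ∫ p in Rc x0 x1 y0 y1, (S.indicator (g n) p - X p) ^ 2) atTop (𝓝 0) := by
    intro X hX hXB g hgm hgb hc
    refine squeeze_zero (fun n => integral_nonneg (fun p => sq_nonneg _)) (fun n => ?_) hc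
    have e1 : ∀ p, (S.indicator (g n) p - X p) ^ 2 = S.indicator (fun p => (g n p - X p) ^ 2) p := by
      intro p
      by_cases hpS : p ∈ S
      · simp [indicator_of_mem hpS]
      · rw [indicator_of_notMem hpS, indicator_of_notMem hpS, hXB p (not_lt.mp hpS)]; simp
    rw [setIntegral_congr_fun (measurableSet_Rc _ _ _ _) (fun p _ => e1 p),
      setIntegral_indicator hmB, hcap]
    -- monotonicity in the domain
    have hfinW : volume (Ioo a b ×ˢ Ioo c B : Set (ℝ × ℝ)) ≠ ⊤ := by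
      rw [Measure.volume_eq_prod, Measure.prod_prod, Real.volume_Ioo, Real.volume_Ioo]
      exact ENNReal.mul_ne_top ENNReal.ofReal_ne_top ENNReal.ofReal_ne_top
    have hfW : IsFiniteMeasure ((volume : Measure (ℝ × ℝ)).restrict (Ioo a b ×ˢ Ioo c B)) :=
      ⟨by rw [Measure.restrict_apply_univ]; exact lt_top_iff_ne_top.mpr hfinW⟩
    have hgL : MemLp (g n) 2 ((volume : Measure (ℝ × ℝ)).restrict (Ioo a b ×ˢ Ioo c B)) := by
      obtain ⟨Ln, h1, h2⟩ := hgb n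
      refine MemLp.of_bound (hgm n).aestronglyMeasurable Ln ?_
      rw [ae_restrict_iff' (measurableSet_Ioo.prod measurableSet_Ioo)]
      have hnull : ∀ᵐ p : ℝ × ℝ, p ∉ cut (J n) := measure_eq_zero_iff_ae_notMem.mp (volume_cut (J n))
      filter_upwards [hnull] with p hp hpR using h2 p ⟨hpR, hp⟩
    have hint : Integrable (fun p => (g n p - X p) ^ 2)
        ((volume : Measure (ℝ × ℝ)).restrict (Ioo a b ×ˢ Ioo c B)) :=
      (hgL.sub (hX.restrict _)).integrable_sq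
    exact setIntegral_mono_set hint (by filter_upwards with p using sq_nonneg _)
      (LE.le.eventuallyLE hsub)
  have hgbx : ∀ n, ∃ Ln : ℝ, 0 ≤ Ln ∧ ∀ p ∈ (Ioo a b ×ˢ Ioo c B) \ cut (J n), |gx (z n) p| ≤ Ln := by
    intro n
    obtain ⟨Ln, h1, h2⟩ := A.sl n
    exact ⟨Ln, h1, fun p hp => h2.abs_gx_le (isOpen_diff_cut (isOpen_Ioo.prod isOpen_Ioo) _) h1 hp⟩
  have hgby : ∀ n, ∃ Ln : ℝ, 0 ≤ Ln ∧ ∀ p ∈ (Ioo a b ×ˢ Ioo c B) \ cut (J n), |gy (z n) p| ≤ Ln := by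
    intro n
    obtain ⟨Ln, h1, h2⟩ := A.sl n
    exact ⟨Ln, h1, fun p hp => h2.abs_gy_le (isOpen_diff_cut (isOpen_Ioo.prod isOpen_Ioo) _) h1 hp⟩
  refine mp_rect L hσ R hM (E1 := E1) (E2 := E2) hE1m hE2m
    (hconv X1 L.L1 A.X1B _ (fun n => measurable_gx _) hgbx A.c1)
    (hconv X2 L.L2 A.X2B _ (fun n => measurable_gy _) hgby A.c2) (fun n => ?_)
  -- Green
  obtain ⟨Ln, hLn, hsl⟩ := hslR n
  have hw1i : IntegrableOn (wx M X2 Ψ) (Ioo x0 x1 ×ˢ Ioo y0 d) :=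
    (hwx2.restrict _).integrable (by norm_num)
  have hw2i : IntegrableOn (wy M X1 ψ) (Ioo x0 x1 ×ˢ Ioo y0 d) :=
    (hwy2.restrict _).integrable (by norm_num)
  have hκ : ∀ K ∈ J n, K.x ∈ Ioo x0 x1 → ∃ κ' : ℝ,
      (∀ᵐ y, y ∈ Ioo y0 d → y ∈ Ioo K.b K.t → ∫ s in x0..K.x, wx M X2 Ψ (s, y) = κ') ∧
      (κ' ≠ 0 → y0 < K.b ∧ K.t < d) := by
    intro K hK hKx
    by_cases hne : K.b < d ∧ y0 < K.t
    swap
    · refine ⟨0, ?_, fun h => absurd rfl h⟩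
      filter_upwards with y hy hyK
      exact absurd ⟨hyK.1.trans hy.2, hy.1.trans hyK.2⟩ hne
    by_cases hat : μ {q | q.1 = K.x ∧ q.2 < K.t} = 0
    swap
    · exfalso
      rcases pr n K hK hat hKx with h | h
      · exact absurd hne.2 (not_lt.mpr h)
      · exact absurd hne.1 (not_lt.mpr (hdy1.trans h))
    have hKab : K.x ∈ Ioo a b := ⟨R.ha.trans hKx.1, hKx.2.trans R.hb⟩
    have hKI : K.x ∈ Icc x0 x1 := ⟨hKx.1.le, hKx.2.le⟩
    obtain ⟨hT1, hT2⟩ := A.T n K hK hKab hat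
    refine ⟨max (κ K - M) 0, ?_, ?_⟩
    · filter_upwards [hT1, hh] with y h1 h2 hy hyK
      have h3 := (h2 ⟨hy.1, lt_of_lt_of_le hy.2 hdy1⟩).1 K.x hKI
      rw [← h3, h1 (R.hc.trans hy.1) hyK]
    · intro hk
      have hkM : M < κ K := by
        by_contra hcon
        exact hk (max_eq_right (by linarith))
      have hb0 : y0 < K.b := by
        by_contra hcon
        push Not at hcon
        have h1 := py0 n K hK
        have h2 := h1.2.2 hKab hat ⟨lt_of_le_of_ne hcon (fun h => h1.1 h.symm), hne.2⟩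
        have h3 := hM.d K.x hKI
        rw [h2] at h3
        exact absurd hkM (not_lt.mpr h3)
      refine ⟨hb0, ?_⟩
      by_contra hcon
      push Not at hcon
      rcases le_or_gt y1 B with h4 | h4
      · have hdy : d = y1 := min_eq_left h4
        have h1 := py1 n K hK
        have h2 := h1.2.2 hKab hat ⟨hdy ▸ hne.1, lt_of_le_of_ne (hdy ▸ hcon) h1.2.1⟩
        have h3 := hM.u K.x hKI
        rw [h2] at h3
        exact absurd hkM (not_lt.mpr h3)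
      · have hdB' : d = B := min_eq_right h4.le
        have h5 := hT2 (hdB' ▸ hcon)
        have h6 := strip_le L hσ R hM h4 K.x hKI
        rw [h5] at hkM
        exact absurd hkM (not_lt.mpr h6)
  have green := green_hairs R.hx.le hy0d.le hLn (A.disj n) hwxm hw1i hw2i hb hd0 hUV hsl hκ
  have e1 : ∀ p, wy M X1 ψ p * E1 n p - wx M X2 Ψ p * E2 n p =
      S.indicator (fun p => wy M X1 ψ p * gx (z n) p - wx M X2 Ψ p * gy (z n) p) p := by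
    intro p
    by_cases hpS : p ∈ S
    · simp [hE1, hE2, indicator_of_mem hpS]
    · simp [hE1, hE2, indicator_of_notMem hpS]
  rw [setIntegral_congr_fun (measurableSet_Rc _ _ _ _) (fun p _ => e1 p),
    setIntegral_indicator hmB, hcap]
  have hgx2 : MemLp (gx (z n)) 2 ((volume : Measure (ℝ × ℝ)).restrict (Ioo x0 x1 ×ˢ Ioo y0 d)) := by
    obtain ⟨Lm, h1, h2⟩ := hgbx n
    refine MemLp.of_bound (measurable_gx _).aestronglyMeasurable Lm ?_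
    rw [ae_restrict_iff' (measurableSet_Ioo.prod measurableSet_Ioo)]
    have hnull : ∀ᵐ p : ℝ × ℝ, p ∉ cut (J n) := measure_eq_zero_iff_ae_notMem.mp (volume_cut (J n))
    filter_upwards [hnull] with p hp hpR using h2 p ⟨hsub hpR, hp⟩
  have hgy2 : MemLp (gy (z n)) 2 ((volume : Measure (ℝ × ℝ)).restrict (Ioo x0 x1 ×ˢ Ioo y0 d)) := by
    obtain ⟨Lm, h1, h2⟩ := hgby n
    refine MemLp.of_bound (measurable_gy _).aestronglyMeasurable Lm ?_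
    rw [ae_restrict_iff' (measurableSet_Ioo.prod measurableSet_Ioo)]
    have hnull : ∀ᵐ p : ℝ × ℝ, p ∉ cut (J n) := measure_eq_zero_iff_ae_notMem.mp (volume_cut (J n))
    filter_upwards [hnull] with p hp hpR using h2 p ⟨hsub hpR, hp⟩
  have i1 : Integrable (fun p => wy M X1 ψ p * gx (z n) p)
      ((volume : Measure (ℝ × ℝ)).restrict (Ioo x0 x1 ×ˢ Ioo y0 d)) :=
    (hwy2.restrict _).integrable_mul hgx2
  have i2 : Integrable (fun p => wx M X2 Ψ p * gy (z n) p)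
      ((volume : Measure (ℝ × ℝ)).restrict (Ioo x0 x1 ×ˢ Ioo y0 d)) :=
    (hwx2.restrict _).integrable_mul hgy2
  rw [integral_sub i1 i2, green, sub_self]

end Crest.Agent.R105.Mp_87
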