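import Crest.Agent.R105.SqE_87
import Crest.Agent.R105.Mp7_87

/-! Row 105, S0138, exact squares: maximum principle for the stream function on `V`.
Part 1: Green's formula for `w = (ψ - M)⁺` and the approximating functions. -/

open MeasureTheory Set Filter Topology
open scoped NNReal

namespace Crest.Agent.R105.Sq_87

open Crest.Agent.R105.Mp_87 (lam lam_mono Rc measurableSet_Rc restrict_Rc hline vline wx wy ae_swap
  ae_x_of_ae ae_y_of_ae ii_mono tendsto_integral_mul PXh)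
open Crest.Agent.R105.CF_363 (gx gy SL cut Hair measurable_gx measurable_gy gx_congr gy_congr
  gx_eq_deriv gy_eq_deriv isOpen_diff_cut volume_cut green_hairs)

variable {ι : Type} {Q : Rects ι} {S : Set (ℝ × ℝ)}
variable {a b c B σ : ℝ} {X1 X2 ψ Ψ : ℝ × ℝ → ℝ} {μ : Measure (ℝ × ℝ)} {f : ι → ℝ}

/-- The data of the approximating sequence (lower problem, with squares). -/
structure ApprQ (Q : Rects ι) (S : Set (ℝ × ℝ)) (a b c B σ : ℝ) (X1 X2 : ℝ × ℝ → ℝ) (μ : Measure (ℝ × ℝ))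
    (Ψ : ℝ × ℝ → ℝ) (f : ι → ℝ) (J : ℕ → Finset Hair) (z : ℕ → ℝ × ℝ → ℝ) (κ : Hair → ℝ)
    (r : ℕ → ι → ℝ) : Prop where
  X1B : ∀ p : ℝ × ℝ, B ≤ p.2 → X1 p = 0
  X2B : ∀ p : ℝ × ℝ, B ≤ p.2 → X2 p = 0
  disj : ∀ n, ∀ K ∈ J n, ∀ K' ∈ J n, K ≠ K' → Disjoint K.car K'.car
  dq : ∀ n, ∀ i, Disjoint (cut (J n)) (Q.op i)
  sl : ∀ n, ∃ L : ℝ, 0 ≤ L ∧ SL ((Ioo a b ×ˢ Ioo c B) \ cut (J n)) L (z n)
  c1 : Tendsto (fun n => ∫ p in (Ioo a b ×ˢ Ioo c B) \ (Q.un ∪ S), (gx (z n) p - X1 p) ^ 2) atTop (𝓝 0)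
  c2 : Tendsto (fun n => ∫ p in (Ioo a b ×ˢ Ioo c B) \ (Q.un ∪ S), (gy (z n) p - X2 p) ^ 2) atTop (𝓝 0)
  osc : ∀ n i, ∃ k, ∀ p ∈ Q.op i, |z n p - k| ≤ r n i / 2
  r1 : ∀ i, Tendsto (fun n => r n i) atTop (𝓝 (f i))
  r2 : ∀ n, Summable (fun i => f i * r n i)
  r3 : Tendsto (fun n => ∑' i, (f i * r n i -
    ∫ p in Q.op i, (X1 p * gx (z n) p + X2 p * gy (z n) p))) atTop (𝓝 0)
  T : ∀ n, ∀ K ∈ J n, K.x ∈ Ioo a b → μ {q | q.1 = K.x ∧ q.2 < K.t} = 0 →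
    (∀ᵐ y, c < y → y ∈ Ioo K.b K.t → Ψ (K.x, y) = κ K) ∧ (B ≤ K.t → κ K = -σ * lam μ K.x)

/-- property of the horizontal sides -/
def PYq (a b : ℝ) (μ : Measure (ℝ × ℝ)) (Ψ : ℝ × ℝ → ℝ) (J : ℕ → Finset Hair) (κ : Hair → ℝ)
    (y : ℝ) : Prop :=
  ∀ n, ∀ K ∈ J n, y ≠ K.b ∧ y ≠ K.t ∧
    (K.x ∈ Ioo a b → μ {q | q.1 = K.x ∧ q.2 < K.t} = 0 → y ∈ Ioo K.b K.t → Ψ (K.x, y) = κ K)

/-- the rectangle avoids the atomic hairs -/
def PRq (μ : Measure (ℝ × ℝ)) (J : ℕ → Finset Hair) (x0 x1 y0 y1 : ℝ) : Prop :=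
  ∀ n, ∀ K ∈ J n, μ {q | q.1 = K.x ∧ q.2 < K.t} ≠ 0 → K.x ∈ Ioo x0 x1 → K.t ≤ y0 ∨ y1 ≤ K.b

theorem ae_PYq {J : ℕ → Finset Hair} {z : ℕ → ℝ × ℝ → ℝ} {κ : Hair → ℝ} {r : ℕ → ι → ℝ}
    (A : ApprQ Q S a b c B σ X1 X2 μ Ψ f J z κ r) : ∀ᵐ y, c < y → PYq a b μ Ψ J κ y := by
  have h2 : ∀ᵐ y : ℝ, ∀ n, ∀ K ∈ J n, c < y → y ≠ K.b ∧ y ≠ K.t ∧
    (K.x ∈ Ioo a b → μ {q | q.1 = K.x ∧ q.2 < K.t} = 0 → y ∈ Ioo K.b K.t →
      Ψ (K.x, y) = κ K) := by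
    rw [ae_all_iff]
    intro n
    refine (Finset.eventually_all (J n)).mpr (fun K hK => ?_)
    have h1 : ∀ᵐ y : ℝ, y ≠ K.b := by rw [ae_iff]; simp
    have h3 : ∀ᵐ y : ℝ, y ≠ K.t := by rw [ae_iff]; simp
    by_cases hx : K.x ∈ Ioo a b ∧ μ {q | q.1 = K.x ∧ q.2 < K.t} = 0
    · filter_upwards [h1, h3, (A.T n K hK hx.1 hx.2).1] with y e1 e2 e3 hc
      exact ⟨e1, e2, fun _ _ h => e3 hc h⟩
    · filter_upwards [h1, h3] with y e1 e2 hc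
      exact ⟨e1, e2, fun h h' => absurd ⟨h, h'⟩ hx⟩
  filter_upwards [h2] with y hy hc n K hK
  exact hy n K hK hc

theorem strip_leI [IsFiniteMeasure μ] (L : LinesI a b c B σ X1 X2 μ ψ Ψ) (hσ : σ = 1 ∨ σ = -1)
    {x0 x1 y0 y1 M : ℝ} (R : GoodR a b c σ X1 X2 μ ψ Ψ x0 x1 y0 y1)
    (hM : BdLe M ψ Ψ x0 x1 y0 y1) (hB : B < y1) :
    ∀ x ∈ Icc x0 x1, -σ * lam μ x ≤ M := by
  intro x hx
  set y := (max B y0 + y1) / 2 with hy
  have hm : max B y0 < y1 := max_lt hB R.hy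
  have hyB : B ≤ y := by
    have := le_max_left B y0
    rw [hy]; linarith
  have hyI : y ∈ Icc y0 y1 := by
    have := le_max_right B y0
    constructor <;> rw [hy] <;> linarith
  have h0 := hM.l y hyI
  have h1 := hM.r y hyI
  rw [L.strip (x0, y) hyB] at h0
  rw [L.strip (x1, y) hyB] at h1
  simp only at h0 h1
  have m0 := lam_mono μ hx.1
  have m1 := lam_mono μ hx.2
  rcases hσ with rfl | rfl <;> linarith

/-- Green's formula for `w` and the approximating functions -/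
theorem greenQ [IsFiniteMeasure μ] (L : LinesI a b c B σ X1 X2 μ ψ Ψ) (hσ : σ = 1 ∨ σ = -1)
    {J : ℕ → Finset Hair} {z : ℕ → ℝ × ℝ → ℝ} {κ : Hair → ℝ} {r : ℕ → ι → ℝ}
    (A : ApprQ Q S a b c B σ X1 X2 μ Ψ f J z κ r) {x0 x1 y0 y1 M : ℝ}
    (R : GoodR a b c σ X1 X2 μ ψ Ψ x0 x1 y0 y1)
    (py0 : PYq a b μ Ψ J κ y0) (py1 : PYq a b μ Ψ J κ y1) (pr : PRq μ J x0 x1 y0 y1)
    (hM : BdLe M ψ Ψ x0 x1 y0 y1) (hB0 : y0 < B) (n : ℕ) :
    ∫ p in Ioo a b ×ˢ Ioo c B, (W2 x0 x1 y0 y1 M X1 ψ p * gx (z n) p -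
      W1 x0 x1 y0 y1 M X2 Ψ p * gy (z n) p) = 0 := by
  set d := min y1 B with hd
  have hy0d : y0 < d := lt_min R.hy hB0
  have hdy1 : d ≤ y1 := min_le_left _ _
  have hdB : d ≤ B := min_le_right _ _
  have hsub : Ioo x0 x1 ×ˢ Ioo y0 d ⊆ Ioo a b ×ˢ Ioo c B := by
    intro p hp
    exact ⟨⟨R.ha.trans hp.1.1, hp.1.2.trans R.hb⟩, ⟨R.hc.trans hp.2.1, lt_of_lt_of_le hp.2.2 hdB⟩⟩
  have hcap : (Ioo a b ×ˢ Ioo c B) ∩ Rc x0 x1 y0 y1 = Ioo x0 x1 ×ˢ Ioo y0 d := by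
    ext p
    simp only [Rc, mem_inter_iff, mem_prod, mem_Ioo, hd, lt_min_iff]
    have h1 := R.ha
    have h2 := R.hb
    have h3 := R.hc
    constructor
    · rintro ⟨⟨⟨_, _⟩, _, _⟩, ⟨_, _⟩, _, _⟩
      exact ⟨⟨by assumption, by assumption⟩, by assumption, by assumption, by assumption⟩
    · rintro ⟨⟨_, _⟩, _, _, _⟩
      exact ⟨⟨⟨by linarith, by linarith⟩, by linarith, by linarith⟩,
        ⟨by assumption, by assumption⟩, by assumption, by assumption⟩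
  have hwxm : Measurable (wx M X2 Ψ) := measurable_wx M L.m2 L.mΨ
  have hh := w_hlines L hσ R hM
  have hv := w_vlines L R hM
  -- boundary conditions
  have hb : ∀ᵐ y, y ∈ Ioo y0 d → ∫ s in x0..x1, wx M X2 Ψ (s, y) = 0 := by
    filter_upwards [hh] with y hy hyI
    obtain ⟨h1, h2, h3⟩ := hy ⟨hyI.1, lt_of_lt_of_le hyI.2 hdy1⟩
    rw [← h1 x1 ⟨R.hx.le, le_refl _⟩]
    exact max_eq_right (by linarith)
  have hd0 : ∀ᵐ x, x ∈ Ioo x0 x1 → ∫ t in y0..d, wy M X1 ψ (x, t) = 0 := by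
    filter_upwards [hv] with x hx hxI
    obtain ⟨h1, h2, h3⟩ := hx hxI
    rw [← h1 d ⟨hy0d.le, hdy1⟩]
    apply max_eq_right
    rcases le_or_gt y1 B with h4 | h4
    · have : d = y1 := min_eq_left h4
      rw [this]; linarith
    · have : d = B := min_eq_right h4.le
      rw [this, L.strip (x, B) (le_refl _)]
      have := strip_leI L hσ R hM h4 x ⟨hxI.1.le, hxI.2.le⟩
      simp only
      linarith
  have hUV : ∀ᵐ p : ℝ × ℝ, p ∈ Ioo x0 x1 ×ˢ Ioo y0 d →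
      ∫ s in x0..p.1, wx M X2 Ψ (s, p.2) = ∫ t in y0..p.2, wy M X1 ψ (p.1, t) := by
    filter_upwards [ae_snd' hh, ae_fst' hv, L.E] with p h1 h2 h3 hp
    have g1 := (h1 ⟨hp.2.1, lt_of_lt_of_le hp.2.2 hdy1⟩).1 p.1 ⟨hp.1.1.le, hp.1.2.le⟩
    have g2 := (h2 hp.1).1 p.2 ⟨hp.2.1.le, (hp.2.2.le.trans hdy1)⟩
    rw [← g1, ← g2]
    have := h3 ⟨R.ha.trans hp.1.1, hp.1.2.trans R.hb⟩ (R.hc.trans hp.2.1)
    rw [show ((p.1, p.2) : ℝ × ℝ) = p from rfl, this]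
  obtain ⟨Ln, hLn, hsl0⟩ := A.sl n
  have hsl : SL ((Ioo x0 x1 ×ˢ Ioo y0 d) \ cut (J n)) Ln (z n) :=
    hsl0.mono (sdiff_subset_sdiff_left hsub)
  have hw1i : IntegrableOn (wx M X2 Ψ) (Ioo x0 x1 ×ˢ Ioo y0 d) :=
    (integrable_wx M L.L2 L.mΨ).integrableOn
  have hw2i : IntegrableOn (wy M X1 ψ) (Ioo x0 x1 ×ˢ Ioo y0 d) :=
    (integrable_wy M L.L1 L.mψ).integrableOn
  have hκ : ∀ K ∈ J n, K.x ∈ Ioo x0 x1 → ∃ κ' : ℝ,
      (∀ᵐ y, y ∈ Ioo y0 d → y ∈ Ioo K.b K.t → ∫ s in x0..K.x, wx M X2 Ψ (s, y) = κ') ∧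
      (κ' ≠ 0 → y0 < K.b ∧ K.t < d) := by
    intro K hK hKx
    by_cases hne : K.b < d ∧ y0 < K.t
    swap
    · refine ⟨0, ?_, fun h => absurd rfl h⟩
      filter_upwards with y hy hyK
      exact absurd ⟨hyK.1.trans hy.2, hy.1.trans hyK.2⟩ hne
    by_cases hat : μ {q | q.1 = K.x ∧ q.2 < K.t} = 0
    swap
    · exfalso
      rcases pr n K hK hat hKx with h | h
      · exact absurd hne.2 (not_lt.mpr h)
      · exact absurd hne.1 (not_lt.mpr (hdy1.trans h))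
    have hKab : K.x ∈ Ioo a b := ⟨R.ha.trans hKx.1, hKx.2.trans R.hb⟩
    have hKI : K.x ∈ Icc x0 x1 := ⟨hKx.1.le, hKx.2.le⟩
    obtain ⟨hT1, hT2⟩ := A.T n K hK hKab hat
    refine ⟨max (κ K - M) 0, ?_, ?_⟩
    · filter_upwards [hT1, hh] with y h1 h2 hy hyK
      have h3 := (h2 ⟨hy.1, lt_of_lt_of_le hy.2 hdy1⟩).1 K.x hKI
      rw [← h3, h1 (R.hc.trans hy.1) hyK]
    · intro hk
      have hkM : M < κ K := by
        by_contra hcon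
        exact hk (max_eq_right (by linarith))
      have hb0 : y0 < K.b := by
        by_contra hcon
        push Not at hcon
        have h1 := py0 n K hK
        have h2 := h1.2.2 hKab hat ⟨lt_of_le_of_ne hcon (fun h => h1.1 h.symm), hne.2⟩
        have h3 := hM.d K.x hKI
        rw [h2] at h3
        exact absurd hkM (not_lt.mpr h3)
      refine ⟨hb0, ?_⟩
      by_contra hcon
      push Not at hcon
      rcases le_or_gt y1 B with h4 | h4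
      · have hdy : d = y1 := min_eq_left h4
        have h1 := py1 n K hK
        have h2 := h1.2.2 hKab hat ⟨hdy ▸ hne.1, lt_of_le_of_ne (hdy ▸ hcon) h1.2.1⟩
        have h3 := hM.u K.x hKI
        rw [h2] at h3
        exact absurd hkM (not_lt.mpr h3)
      · have hdB' : d = B := min_eq_right h4.le
        have h5 := hT2 (hdB' ▸ hcon)
        have h6 := strip_leI L hσ R hM h4 K.x hKI
        rw [h5] at hkM
        exact absurd hkM (not_lt.mpr h6)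
  have green := green_hairs R.hx.le hy0d.le hLn (A.disj n) hwxm hw1i hw2i hb hd0 hUV hsl hκ
  -- restrict the indicator
  have e1 : ∀ p, W2 x0 x1 y0 y1 M X1 ψ p * gx (z n) p - W1 x0 x1 y0 y1 M X2 Ψ p * gy (z n) p =
      (Rc x0 x1 y0 y1).indicator
        (fun p => wy M X1 ψ p * gx (z n) p - wx M X2 Ψ p * gy (z n) p) p := by
    intro p
    unfold W1 W2
    by_cases hp : p ∈ Rc x0 x1 y0 y1
    · simp only [indicator_of_mem hp]
    · simp only [indicator_of_notMem hp]; ring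
  rw [setIntegral_congr_fun (measurableSet_Ioo.prod measurableSet_Ioo) (fun p _ => e1 p),
    setIntegral_indicator (measurableSet_Rc _ _ _ _), hcap]
  -- the two products are integrable
  have hbd : ∀ᵐ p ∂((volume : Measure (ℝ × ℝ)).restrict (Ioo x0 x1 ×ˢ Ioo y0 d)),
      ‖gx (z n) p‖ ≤ Ln ∧ ‖gy (z n) p‖ ≤ Ln := by
    rw [ae_restrict_iff' (measurableSet_Ioo.prod measurableSet_Ioo)]
    have hnull : ∀ᵐ p : ℝ × ℝ, p ∉ cut (J n) := measure_eq_zero_iff_ae_notMem.mp (volume_cut (J n))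
    have hop : IsOpen ((Ioo x0 x1 ×ˢ Ioo y0 d) \ cut (J n)) :=
      isOpen_diff_cut (isOpen_Ioo.prod isOpen_Ioo) _
    filter_upwards [hnull] with p hp hpR
    exact ⟨hsl.abs_gx_le hop hLn ⟨hpR, hp⟩, hsl.abs_gy_le hop hLn ⟨hpR, hp⟩⟩
  have i1 : IntegrableOn (fun p => wy M X1 ψ p * gx (z n) p) (Ioo x0 x1 ×ˢ Ioo y0 d) :=
    Integrable.mul_bdd (μ := (volume : Measure (ℝ × ℝ)).restrict (Ioo x0 x1 ×ˢ Ioo y0 d))
      (c := Ln) hw2i (measurable_gx _).aestronglyMeasurable (hbd.mono fun p h => h.1)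
  have i2 : IntegrableOn (fun p => wx M X2 Ψ p * gy (z n) p) (Ioo x0 x1 ×ˢ Ioo y0 d) :=
    Integrable.mul_bdd (μ := (volume : Measure (ℝ × ℝ)).restrict (Ioo x0 x1 ×ˢ Ioo y0 d))
      (c := Ln) hw1i (measurable_gy _).aestronglyMeasurable (hbd.mono fun p h => h.2)
  rw [integral_sub i1 i2, green, sub_self]

end Crest.Agent.R105.Sq_87
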