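import Crest.Agent.R105.SqJc_361
import Crest.Agent.R105.SqM_87

/-! Row 105, S0138, exact squares: `SqData` and `ApprQ` (helper87) for the joined field. -/

open MeasureTheory Set Filter Topology Metric
open scoped NNReal ENNReal

namespace Crest.Agent.R105.SqJ_361

open Crest.Agent.R105.CF_363 Crest.Agent.R105.Sq_87 Crest.Agent.R105.Kin_238
open Crest.Agent.R105.Mp_87 (lam)
open Crest.Agent.R105.Knq_247 (osc Bo QQ Vq HalfQ osc_nonneg le_osc memLp_x memLp_y)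

variable {ι : Type}
variable {𝓗 : Set Hair} {a b c B : ℝ} {Q : Rects ι} {S : Set (ℝ × ℝ)}
variable {X1 X2 : ℝ × ℝ → ℝ} {f : ι → ℝ} {np nm : ι → Measure (ℝ × ℝ)} {μ : Measure (ℝ × ℝ)}
variable {Y1 Y2 : ι → ℝ × ℝ → ℝ}

theorem HQ.f0 (H : HQ 𝓗 a b c B Q S X1 X2 f np nm μ) (i : ι) : 0 ≤ f i := by
  rw [← H.mp]; exact ENNReal.toReal_nonneg

theorem un_union (R : RG 𝓗 a b c B Q S) : Q.un ∪ (S \ Q.un) = S := by
  rw [union_sdiff_self, union_eq_self_of_subset_left R.sub]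

/-- the joined field is the field `X` off the open rectangles -/
theorem memLp_join {X : ℝ × ℝ → ℝ} {Y : ι → ℝ × ℝ → ℝ} (R : RG 𝓗 a b c B Q S)
    (hX : MemLp X 2 (volume : Measure (ℝ × ℝ))) :
    MemLp (join Q X Y) 2 (volume.restrict (Q.un ∪ (S \ Q.un))ᶜ) := by
  rw [un_union R]
  refine (hX.restrict Sᶜ).ae_eq ?_
  rw [EventuallyEq, ae_restrict_iff' R.mS.compl]
  refine Eventually.of_forall fun p hp => ?_
  exact (join_of_not fun h => hp (R.sub h)).symm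

/-- the nomass clause when almost every charged point lies on a hair which crosses the level -/
theorem nomass_of_hairs (R : RG 𝓗 a b c B Q S)
    (sat : ∀ᵐ q ∂μ, ∃ K ∈ 𝓗, K.x = q.1 ∧ K.b ≤ q.2 ∧ B ≤ K.t) (i : ι) :
    μ {q | q.1 ∈ Ioo (Q.x i - Q.h1 i) (Q.x i + Q.h1 i) ∧ q.2 < Q.y i + Q.h2 i} = 0 := by
  refine measure_mono_null ?_ (ae_iff.mp sat)
  rintro q ⟨hq1, hq2⟩ ⟨K, hK, hx, hb, ht⟩
  have p2 := Q.p2 i
  set t := (max q.2 (Q.y i - Q.h2 i) + (Q.y i + Q.h2 i)) / 2 with ht'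
  have m1 : max q.2 (Q.y i - Q.h2 i) < Q.y i + Q.h2 i := max_lt hq2 (by linarith)
  have m2 := le_max_left q.2 (Q.y i - Q.h2 i)
  have m3 := le_max_right q.2 (Q.y i - Q.h2 i)
  have hin : ((q.1, t) : ℝ × ℝ) ∈ Q.op i := ⟨hq1, ⟨by simp only [ht']; linarith, by simp only [ht']; linarith⟩⟩
  have hWo := R.op_Wo i hin
  have htB : t < B := hWo.2.2
  have hK' : ((q.1, t) : ℝ × ℝ) ∈ K.car := ⟨hx.symm, by simp only [ht']; linarith, by simp only; linarith⟩
  exact Set.disjoint_left.mp (R.hq K hK i) hK' hin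

/-- **`SqData` of the joined field** -/
theorem HQ.sqData (H : HQ 𝓗 a b c B Q S X1 X2 f np nm μ) (R : RG 𝓗 a b c B Q S)
    (F : Fills Q f np nm Y1 Y2)
    (nomass : ∀ i, μ {q | q.1 ∈ Ioo (Q.x i - Q.h1 i) (Q.x i + Q.h1 i) ∧ q.2 < Q.y i + Q.h2 i} = 0) :
    SqData Q (S \ Q.un) a b c B (join Q X1 Y1) (join Q X2 Y2) μ f where
  mS := R.mS.diff Q.measurableSet_un
  dis := R.disop
  box := fun i => by rw [← Wo_eq]; exact R.op_Wo i
  nomass := nomass
  V1 := memLp_join R H.L1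
  V2 := memLp_join R H.L2
  f0 := H.f0
  F2 := fun i ε hε hε4 => F.F2 i ε hε hε4

/-- a continuous function on a compact set is half its oscillation away from a constant -/
theorem exists_mid {C : Set (ℝ × ℝ)} (hC : IsCompact C) {e : ℝ × ℝ → ℝ} (he : ContinuousOn e C) :
    ∃ k, ∀ p ∈ C, |e p - k| ≤ osc C e / 2 := by
  rcases C.eq_empty_or_nonempty with rfl | hne
  · exact ⟨0, fun p hp => absurd hp (notMem_empty p)⟩
  obtain ⟨p1, hp1, h1⟩ := hC.exists_isMaxOn hne he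
  obtain ⟨p0, hp0, h0⟩ := hC.exists_isMinOn hne he
  have hb : Bo C e := Bo.of_cont hC he
  have h := le_osc hb hp1 hp0
  refine ⟨(e p1 + e p0) / 2, fun p hp => ?_⟩
  have a1 : e p ≤ e p1 := h1 hp
  have a0 : e p0 ≤ e p := h0 hp
  have := le_abs_self (e p1 - e p0)
  rw [abs_le]
  constructor <;> linarith

/-- **`ApprQ` of the joined field**; the trace condition `T` is an input -/
theorem HQ.apprQ (H : HQ 𝓗 a b c B Q S X1 X2 f np nm μ) (R : RG 𝓗 a b c B Q S)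
    (F : Fills Q f np nm Y1 Y2)
    (hdis : ∀ K ∈ 𝓗, ∀ K' ∈ 𝓗, K ≠ K' → Disjoint K.car K'.car) :
    ∃ (J : ℕ → Finset Hair) (z : ℕ → ℝ × ℝ → ℝ) (r : ℕ → ι → ℝ), (∀ n, ∀ K ∈ J n, K ∈ 𝓗) ∧
      ∀ (σ : ℝ) (Ψ : ℝ × ℝ → ℝ) (κ : Hair → ℝ),
        (∀ K ∈ 𝓗, K.x ∈ Ioo a b → μ {q | q.1 = K.x ∧ q.2 < K.t} = 0 →
          (∀ᵐ y, c < y → y ∈ Ioo K.b K.t → Ψ (K.x, y) = κ K) ∧ (B ≤ K.t → κ K = -σ * lam μ K.x)) →
        ApprQ Q (S \ Q.un) a b c B σ (join Q X1 Y1) (join Q X2 Y2) μ Ψ f J z κ r := by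
  obtain ⟨E, hV, hc, e1, e2, e3, e4⟩ := H.cl
  choose J hJ L C hL hS hC using fun n => (hV n).1
  have I1 := integrableOn_of_box H.L1 H.z1
  have I2 := integrableOn_of_box H.L2 H.z2
  have hz : ∀ (X : ℝ × ℝ → ℝ) (Y : ι → ℝ × ℝ → ℝ), (∀ p, p ∉ Wo a b c B \ S → X p = 0) →
      ∀ p : ℝ × ℝ, B ≤ p.2 → join Q X Y p = 0 := by
    intro X Y hX p hp
    have hpW : p ∉ Wo a b c B := fun h => absurd h.2.2 (not_lt.mpr hp)
    have hpu : p ∉ Q.un := by
      intro h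
      obtain ⟨i, hi⟩ := mem_iUnion.mp h
      exact hpW (R.op_Wo i hi)
    rw [join_of_not hpu]
    exact hX p fun h => hpW h.1
  have hset : (Ioo a b ×ˢ Ioo c B) \ (Q.un ∪ (S \ Q.un)) = Wo a b c B \ S := by
    rw [un_union R, Wo_eq]
  have hWS : MeasurableSet (Wo a b c B \ S) := (measurableSet_Wo' a b c B).diff R.mS
  have cf : ∀ n, CFJ 𝓗 (Wl a b c B) (E n) := fun n => (hV n).1
  have sqx : ∀ n, IntegrableOn (fun p => (gx (E n) p - X1 p) ^ 2) (Wo a b c B \ S) := by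
    intro n
    have h1 : MemLp (fun p => (Wo a b c B \ S).indicator (gx (E n)) p - X1 p) 2 volume :=
      (memLp_x R.mS (cf n)).sub H.L1
    have h2 := h1.integrable_sq.integrableOn (s := Wo a b c B \ S)
    refine h2.congr_fun (fun p hp => ?_) hWS
    simp only [indicator_of_mem hp]
  have sqy : ∀ n, IntegrableOn (fun p => (gy (E n) p - X2 p) ^ 2) (Wo a b c B \ S) := by
    intro n
    have h1 : MemLp (fun p => (Wo a b c B \ S).indicator (gy (E n)) p - X2 p) 2 volume :=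
      (memLp_y R.mS (cf n)).sub H.L2
    have h2 := h1.integrable_sq.integrableOn (s := Wo a b c B \ S)
    refine h2.congr_fun (fun p hp => ?_) hWS
    simp only [indicator_of_mem hp]
  -- the charges
  have hab : ∀ n i, |(∫ p, E n p ∂np i) - ∫ p, E n p ∂nm i| ≤ f i * osc (SqJ_361.cl Q i) (E n) :=
    fun n i => H.ab (E n) (hV n) (hc n) i
  have hsl := Knq_247.tendsto_tsum_slack H.f0 H.f2 e2 e3 hab e4
  have hfo : ∀ n, Summable fun i => f i * osc (SqJ_361.cl Q i) (E n) :=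
    fun n => summable_mul' H.f2 (e2 n)
  have hch : ∀ n, Summable fun i => (∫ p, E n p ∂np i) - ∫ p, E n p ∂nm i := fun n =>
    Summable.of_norm_bounded (hfo n) fun i => by rw [Real.norm_eq_abs]; exact hab n i
  have hd : ∀ n, Summable fun i => (osc (SqJ_361.cl Q i) (E n) - f i) ^ 2 := fun n => by
    refine Summable.of_nonneg_of_le (fun i => sq_nonneg _) (fun i => ?_)
      ((H.f2.add (e2 n)).mul_left 2)
    nlinarith [sq_nonneg (f i + osc (SqJ_361.cl Q i) (E n))]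
  have hosc : ∀ i, Tendsto (fun n => osc (SqJ_361.cl Q i) (E n)) atTop (𝓝 (f i)) := by
    intro i
    have h1 : ∀ n, |osc (SqJ_361.cl Q i) (E n) - f i| ≤
        Real.sqrt (∑' i, (osc (SqJ_361.cl Q i) (E n) - f i) ^ 2) := by
      intro n
      rw [← Real.sqrt_sq_eq_abs]
      exact Real.sqrt_le_sqrt ((hd n).le_tsum i fun j _ => sq_nonneg _)
    rw [tendsto_iff_norm_sub_tendsto_zero]
    have h2 : Tendsto (fun n => Real.sqrt (∑' i, (osc (SqJ_361.cl Q i) (E n) - f i) ^ 2))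
        atTop (𝓝 0) := by
      have := (Real.continuous_sqrt.tendsto 0).comp e3
      rwa [Real.sqrt_zero] at this
    exact squeeze_zero (fun n => norm_nonneg _) h1 h2
  have hff : Tendsto (fun n => ∑' i, f i * osc (SqJ_361.cl Q i) (E n)) atTop
      (𝓝 (∑' i, f i ^ 2)) :=
    Knq_247.tendsto_tsum_slack H.f0 H.f2 e2 e3
      (fun n i => by rw [abs_of_nonneg (mul_nonneg (H.f0 i) (osc_nonneg _ _))])
      (fun i => by
        have := (hosc i).const_mul (f i)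
        rwa [← sq] at this)
  refine ⟨J, E, fun n i => osc (SqJ_361.cl Q i) (E n), hJ, fun σ Ψ κ T => ?_⟩
  refine ⟨hz X1 Y1 H.z1, hz X2 Y2 H.z2, fun n K hK K' hK' => hdis K (hJ n K hK) K' (hJ n K' hK'),
    fun n i => R.op_cut (hJ n) i, fun n => ⟨L n, hL n, (hS n).mono fun p hp => ?_⟩, ?_, ?_, ?_, ?_,
    fun n => hfo n, ?_, fun n K hK => T K (hJ n K hK)⟩
  · rw [← Wo_eq] at hp
    exact ⟨Wo_subset_Wl _ _ _ _ hp.1, hp.2⟩
  · rw [hset]
    refine squeeze_zero (fun n => integral_nonneg fun p => sq_nonneg _) (fun n => ?_) e1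
    refine setIntegral_mono_on ((sqx n).congr_fun (fun p hp => ?_) hWS)
      ((sqx n).add (sqy n)) hWS fun p hp => ?_
    · rw [join_of_not fun h => hp.2 (R.sub h)]
    · rw [join_of_not fun h => hp.2 (R.sub h)]
      linarith [sq_nonneg (gy (E n) p - X2 p)]
  · rw [hset]
    refine squeeze_zero (fun n => integral_nonneg fun p => sq_nonneg _) (fun n => ?_) e1
    refine setIntegral_mono_on ((sqy n).congr_fun (fun p hp => ?_) hWS)
      ((sqx n).add (sqy n)) hWS fun p hp => ?_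
    · rw [join_of_not fun h => hp.2 (R.sub h)]
    · rw [join_of_not fun h => hp.2 (R.sub h)]
      linarith [sq_nonneg (gx (E n) p - X1 p)]
  · intro n i
    obtain ⟨k, hk⟩ := exists_mid (isCompact_cl Q i) (hc n i)
    exact ⟨k, fun p hp => hk p (op_subset_cl Q i hp)⟩
  · exact hosc
  · have hone : ∀ n i, ∫ p in Q.op i, (join Q X1 Y1 p * gx (E n) p + join Q X2 Y2 p * gy (E n) p) =
        (∫ p, E n p ∂np i) - ∫ p, E n p ∂nm i := by
      intro n i
      refine F.one i ((hS n).lipschitzOnWith (convex_op Q i) fun p hp => ?_) (hc n i)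
      exact ⟨Wo_subset_Wl _ _ _ _ (R.op_Wo i hp), fun h =>
        Set.disjoint_left.mp (R.op_cut (hJ n) i) h hp⟩
    simp_rw [hone]
    have h3 : ∀ n, ∑' i, (f i * osc (SqJ_361.cl Q i) (E n) - ((∫ p, E n p ∂np i) - ∫ p, E n p ∂nm i)) =
        (∑' i, f i * osc (SqJ_361.cl Q i) (E n)) - ∑' i, ((∫ p, E n p ∂np i) - ∫ p, E n p ∂nm i) :=
      fun n => (hfo n).tsum_sub (hch n)
    simp_rw [h3]
    have := hff.sub hsl
    rwa [sub_self] at this

end Crest.Agent.R105.SqJ_361
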