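import Crest.Agent.R105.Ge3_347
import Crest.Agent.R105.SqJd_361
import Crest.Agent.R105.Kbx2_247

/-! Row 105, S0138, Lemma A with squares (helper347, leaf (L8)): `TwoG ⟹ PlaLim` off a closed union `N` of
components which carries the rays of the flux; instances: `N = S` and `N = ⋃₀ g`. -/

set_option autoImplicit false

open MeasureTheory Set Metric Filter Topology
open scoped ENNReal NNReal

namespace Crest.Agent.R105.Ge_347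

open CF_363 Stp_722 Cq_463 Psq_425 Mq_347 Sq_87 Hq_363 Kbx_247 Gl_363 Famq_306
open Mp_87 (lam)
open Crest.Agent.R105.SqJ_361 (HQ Fills join RG)
open Crest.Agent.R105.Skp2_257 (Comps)

variable {ι ι' : Type} {E S W N : Set (ℝ × ℝ)} {𝒬 : Set Sqr} {𝓗 : Set Hair} {Q : Rects ι}
  {Q' : Rects ι'} {sq : ι → Sqr} {sq' : ι' → Sqr} {a b c d B Bm Bp Tl Tu M : ℝ}
  {X1 X2 ψ Ψ Y1 Y2 ψ' Ψ' g g' : ℝ × ℝ → ℝ} {μ ν : Measure (ℝ × ℝ)} {f : ι → ℝ} {f' : ι' → ℝ}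
  {np nm : ι → Measure (ℝ × ℝ)} {np' nm' : ι' → Measure (ℝ × ℝ)}

/-- the charges of the joined field -/
theorem ChQ.of_fills {𝓗 : Set Hair} {SS : Set (ℝ × ℝ)} {Z1 Z2 : ι → ℝ × ℝ → ℝ}
    (H : HQ 𝓗 a b c B Q SS X1 X2 f np nm μ) (F : Fills Q f np nm Z1 Z2) :
    ChQ Q (join Q X1 Z1) (join Q X2 Z2) f np nm where
  fp := H.fp
  fm := H.fm
  cp := H.cp
  cm := H.cm
  mp := H.mp
  mm := H.mm
  f2 := H.f2
  one := fun i L e hL he => by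
    refine F.one i (L := ⟨L, hL⟩) ?_ (continuous_of_lip hL he).continuousOn
    exact (LipschitzWith.of_dist_le_mul (K := ⟨L, hL⟩) fun p q => by
      rw [Real.dist_eq]; exact he p q).lipschitzOnWith

/-- **the glued data off a closed set `N` of components which contains the rays** -/
theorem glueD_N (T : TwoG E S 𝒬 𝓗 Q Q' sq sq' a b c d Bm Bp Tl Tu M X1 X2 ψ Ψ Y1 Y2 ψ' Ψ' μ ν f f'
      g g') [IsFiniteMeasure μ] [IsFiniteMeasure ν] (C : ChQ Q X1 X2 f np nm)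
    (C' : ChQ Q' Y1 Y2 f' np' nm') (hN : IsClosed N) (hSN : S ⊆ N)
    (hNQ : ∀ Q₀ ∈ 𝒬, (Q₀.car ∩ N).Nonempty → Q₀.car ⊆ N)
    (r1 : ∀ᵐ q ∂μ, ∀ y ∈ Ico q.2 Tl, (q.1, y) ∈ N)
    (r2 : ∀ᵐ q ∂ν, ∀ y ∈ Ico q.2 Tu, rf (q.1, y) ∈ N) :
    GlueD E ((Ioo a b ×ˢ Ioo c d) \ N) 𝒬 (glF M g g') (glF M ψ ψ') (glF M Ψ Ψ')
      (Gl_363.W2 X1 Y1) (fun p => X2 p + Y2 (rf p)) (nn sq np sq' nm') (nn sq nm sq' np') := by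
  refine glueD_of T C C' ((isOpen_Ioo.prod isOpen_Ioo).sdiff hN) sdiff_subset ?_ ?_ ?_ ?_
  · exact disjoint_sdiff_left.mono_right hSN
  · intro Q₀ hQ
    by_cases h : (Q₀.car ∩ N).Nonempty
    · exact Or.inr (disjoint_sdiff_right.mono_left (hNQ Q₀ hQ h))
    · refine Or.inl fun p hp => ⟨T.box (T.G.pic.sub Q₀ hQ hp), fun hpN => h ⟨p, hp, hpN⟩⟩
  · filter_upwards [r1] with q hq y hy hW
    exact hW.2 (hq y hy)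
  · filter_upwards [r2] with q hq y hy hW
    exact hW.2 (hq y hy)

/-- **PlaLim off `N`.** -/
theorem plaLim_N (T : TwoG E S 𝒬 𝓗 Q Q' sq sq' a b c d Bm Bp Tl Tu M X1 X2 ψ Ψ Y1 Y2 ψ' Ψ' μ ν f f'
      g g') [IsFiniteMeasure μ] [IsFiniteMeasure ν] (C : ChQ Q X1 X2 f np nm)
    (C' : ChQ Q' Y1 Y2 f' np' nm') (hN : IsClosed N) (hSN : S ⊆ N)
    (hNQ : ∀ Q₀ ∈ 𝒬, (Q₀.car ∩ N).Nonempty → Q₀.car ⊆ N)
    (r1 : ∀ᵐ q ∂μ, ∀ y ∈ Ico q.2 Tl, (q.1, y) ∈ N)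
    (r2 : ∀ᵐ q ∂ν, ∀ y ∈ Ico q.2 Tu, rf (q.1, y) ∈ N)
    {κ : ℝ × ℝ → ℝ} {t : ℝ → ℝ} {Lκ Lt : ℝ≥0} {K : ℝ} (hκ : LipschitzWith Lκ κ)
    (hκc : HasCompactSupport κ) (hκW : tsupport κ ⊆ (Ioo a b ×ˢ Ioo c d) \ N)
    (ht : LipschitzWith Lt t) (hK : ∀ s, |t s| ≤ K) :
    PlaLim E 𝒬 fun p => κ p * t (glF M g g' p) :=
  (glueD_N T C C' hN hSN hNQ r1 r2).plaLim T.G.pic hκ hκc hκW ht hK

/-- single component: `N = S` -/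
theorem plaLim_S (T : TwoG E S 𝒬 𝓗 Q Q' sq sq' a b c d Bm Bp Tl Tu M X1 X2 ψ Ψ Y1 Y2 ψ' Ψ' μ ν f f'
      g g') [IsFiniteMeasure μ] [IsFiniteMeasure ν] (C : ChQ Q X1 X2 f np nm)
    (C' : ChQ Q' Y1 Y2 f' np' nm') (hne : S.Nonempty)
    {κ : ℝ × ℝ → ℝ} {t : ℝ → ℝ} {Lκ Lt : ℝ≥0} {K : ℝ} (hκ : LipschitzWith Lκ κ)
    (hκc : HasCompactSupport κ) (hκW : tsupport κ ⊆ (Ioo a b ×ˢ Ioo c d) \ S)
    (ht : LipschitzWith Lt t) (hK : ∀ s, |t s| ≤ K) :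
    PlaLim E 𝒬 fun p => κ p * t (glF M g g' p) := by
  have r1 : ∀ᵐ q ∂μ, ∀ y ∈ Ico q.2 Tl, (q.1, y) ∈ S := by
    rcases T.C.sing with h | h
    · exact absurd h.1 hne.ne_empty
    · exact h
  have r2 : ∀ᵐ q ∂ν, ∀ y ∈ Ico q.2 Tu, rf (q.1, y) ∈ S := by
    rcases T.C'.sing with h | h
    · obtain ⟨p, hp⟩ := hne
      have h1 : rf p ∈ rf ⁻¹' S := by simpa using hp
      rw [h.1] at h1
      exact absurd h1 (notMem_empty _)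
    · exact h
  exact plaLim_N T C C' T.G.cS Subset.rfl T.G.qS r1 r2 hκ hκc hκW ht hK

/-- a square which meets the union of a family of components is inside -/
theorem sq_sub_fam (hE : QPic E 𝒬 𝓗) {F : Set (Set (ℝ × ℝ))} (hF : F ⊆ Comps E) {Q₀ : Sqr}
    (hQ : Q₀ ∈ 𝒬) (h : (Q₀.car ∩ ⋃₀ F).Nonempty) : Q₀.car ⊆ ⋃₀ F := by
  obtain ⟨p, hp, P, hP, hpP⟩ := h
  obtain ⟨q, hq, rfl⟩ := hF hP
  have hpre : IsPreconnected Q₀.car := by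
    rw [car_eq]; exact (convex_closedBall _ _).isPreconnected
  have h1 : Q₀.car ⊆ connectedComponentIn E p :=
    hpre.subset_connectedComponentIn hp (hE.sub Q₀ hQ)
  rw [← connectedComponentIn_eq hpP] at h1
  exact h1.trans (subset_sUnion_of_mem hP)

/-- family: `N = ⋃₀ F` -/
theorem plaLim_F (T : TwoG E S 𝒬 𝓗 Q Q' sq sq' a b c d Bm Bp Tl Tu M X1 X2 ψ Ψ Y1 Y2 ψ' Ψ' μ ν f f'
      g g') [IsFiniteMeasure μ] [IsFiniteMeasure ν] (C : ChQ Q X1 X2 f np nm)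
    (C' : ChQ Q' Y1 Y2 f' np' nm') {F : Set (Set (ℝ × ℝ))} (hF : F ⊆ Comps E)
    (hFc : IsCompact (⋃₀ F)) (hS : S ⊆ ⋃₀ F) (hTl : Tl ≤ Bp) (hTu : Tu ≤ -Bm)
    (c1 : ∀ᵐ q ∂μ, ∃ K ∈ 𝓗, K.car ∈ F ∧ q ∈ K.car ∧ q.2 ≤ Bm ∧ K.b ≤ Bm ∧ Bp ≤ K.t)
    (c2 : ∀ᵐ q ∂ν, ∃ K ∈ 𝓗, K.car ∈ F ∧ rf q ∈ K.car ∧ q.2 ≤ -Bp ∧ K.b ≤ Bm ∧ Bp ≤ K.t)
    {κ : ℝ × ℝ → ℝ} {t : ℝ → ℝ} {Lκ Lt : ℝ≥0} {K : ℝ} (hκ : LipschitzWith Lκ κ)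
    (hκc : HasCompactSupport κ) (hκW : tsupport κ ⊆ (Ioo a b ×ˢ Ioo c d) \ ⋃₀ F)
    (ht : LipschitzWith Lt t) (hK : ∀ s, |t s| ≤ K) :
    PlaLim E 𝒬 fun p => κ p * t (glF M g g' p) := by
  refine plaLim_N T C C' hFc.isClosed hS (fun Q₀ hQ h => sq_sub_fam T.G.pic hF hQ h) ?_ ?_
    hκ hκc hκW ht hK
  · filter_upwards [c1] with q hq y hy
    obtain ⟨K, -, hKF, hqK, -, -, hKt⟩ := hq
    refine ⟨K.car, hKF, Hair.mem_car.2 ⟨hqK.1, hqK.2.1.trans hy.1, ?_⟩⟩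
    exact (hy.2.le.trans hTl).trans hKt
  · filter_upwards [c2] with q hq y hy
    obtain ⟨K, -, hKF, hqK, -, hKb, -⟩ := hq
    have h1 : -q.2 ≤ K.t := hqK.2.2
    refine ⟨K.car, hKF, Hair.mem_car.2 ⟨hqK.1, ?_, ?_⟩⟩
    · show K.b ≤ -y
      linarith [hy.2]
    · show -y ≤ K.t
      linarith [hy.1]

end Crest.Agent.R105.Ge_347
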