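import Crest.Agent.R105.Psq0a_463

/-!
# Row 105 (S0138, T-frame), PSI-Q (helper463 for helper425): `smooth_on`

`smooth_on`: `χ f` (`χ` Lipschitz with compact support in the open set `R`, `f` on `R \ E`) is
smoothed on the complement of the closed set `E` (of any volume), with the exact value of `∫ gx`.
-/

set_option autoImplicit false

open MeasureTheory Set Filter Topology
open scoped NNReal ENNReal ContDiff

namespace Crest.Agent.R105.Psq_463

open Psi5_425 Psi6_425 Psi7_425 Psi8_425 CF_363 MsB_425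

local notation "AC" => AbsolutelyContinuousOnInterval

variable {V E R : Set (ℝ × ℝ)} {f U1 U2 χ φ w D1 D2 : ℝ × ℝ → ℝ} {ε : ℝ} {K : ℝ≥0}

/-- output of the smoothing of `χ f` -/
structure SmOn (E R : Set (ℝ × ℝ)) (f U1 U2 χ : ℝ × ℝ → ℝ) (ε : ℝ) (φ w D1 D2 : ℝ × ℝ → ℝ) :
    Prop where
  smooth : ContDiffOn ℝ ∞ φ Eᶜ
  cpt : HasCompactSupport φ
  eq : ∀ p, φ p = χ p * f p + w p
  wcpt : HasCompactSupport w
  wsub : tsupport w ⊆ R
  cor : Cor (R \ E) ε w D1 D2
  gx : ∀ p ∉ E, CF_363.gx φ p = (CF_363.gx χ p * f p + χ p * U1 p) + D1 p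
  gy : ∀ p ∉ E, CF_363.gy φ p = (CF_363.gy χ p * f p + χ p * U2 p) + D2 p
  fin : IntegrableOn (g2 φ) Eᶜ
  int : IntegrableOn (CF_363.gx φ) Eᶜ
  val : ∫ p in Eᶜ, CF_363.gx φ p = ∫ p in R \ E, (CF_363.gx χ p * f p + χ p * U1 p)

theorem ae_dx_lip (h : LipschitzWith K χ) :
    ∀ᵐ y : ℝ, ∀ᵐ s : ℝ, HasDerivAt (fun s => χ (s, y)) (gx χ (s, y)) s := by
  have h1 := CF_363.ae_swap (P := fun p => DifferentiableAt ℝ χ p) h.ae_differentiableAt
  filter_upwards [h1] with y hy
  filter_upwards [hy] with s hs using hasDerivAt_x hs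

theorem ae_dy_lip (h : LipschitzWith K χ) :
    ∀ᵐ x : ℝ, ∀ᵐ s : ℝ, HasDerivAt (fun s => χ (x, s)) (gy χ (x, s)) s := by
  have h1 := ae_x_of_ae (P := fun p => DifferentiableAt ℝ χ p) h.ae_differentiableAt
  filter_upwards [h1] with y hy
  filter_upwards [hy] with s hs using hasDerivAt_y hs

theorem memLp_mul_of_bdd {μ : Measure (ℝ × ℝ)} {g h : ℝ × ℝ → ℝ} {C : ℝ} (hg : MemLp g 2 μ)
    (hh : AEStronglyMeasurable h μ) (hb : ∀ p, |h p| ≤ C) : MemLp (fun p => h p * g p) 2 μ := by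
  refine MemLp.of_le_mul (c := C) hg (hh.mul hg.1) (Eventually.of_forall fun x => ?_)
  rw [norm_mul]
  exact mul_le_mul_of_nonneg_right (hb x) (norm_nonneg _)

/-- product with a Lipschitz function which is bounded -/
theorem StrV.mul (hV : IsOpen V) (h : StrV V f U1 U2) (hχ : LipschitzWith K χ) {C : ℝ}
    (hC : ∀ p, |χ p| ≤ C) :
    StrV V (fun p => χ p * f p) (fun p => gx χ p * f p + χ p * U1 p)
      (fun p => gy χ p * f p + χ p * U2 p) := by
  obtain ⟨h', hU1, hU2⟩ := h.ind hV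
  refine ⟨hχ.continuous.continuousOn.mul h.cont,
    memLp_mul_of_bdd h.L2 hχ.continuous.aestronglyMeasurable hC, ?_, ?_, ?_, ?_⟩
  · exact (memLp_mul_of_bdd h.L2 (measurable_gx χ).aestronglyMeasurable (abs_gx_le hχ)).add
      (memLp_mul_of_bdd h.V1 hχ.continuous.aestronglyMeasurable hC)
  · exact (memLp_mul_of_bdd h.L2 (measurable_gy χ).aestronglyMeasurable (abs_gy_le hχ)).add
      (memLp_mul_of_bdd h.V2 hχ.continuous.aestronglyMeasurable hC)
  · filter_upwards [h'.hor, Mp_87.ae_line_y hU1, ae_dx_lip hχ] with y h1 h2 h3 x x' hxx' hr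
    have hO : IsOpen {s : ℝ | (s, y) ∈ V} := hV.preimage (by fun_prop)
    have e1 := prod_line hO (f := fun s => f (s, y)) (g := fun s => V.indicator U1 (s, y))
      (χ := fun s => χ (s, y)) (c := fun s => gx χ (s, y)) (h2.locallyIntegrable (by norm_num))
      (fun s t hst hs => h1 s t hst hs) (fun a b _ => ac_of_lip (lip_x hχ y) a b) h3 x x' hxx' hr
    rw [e1]
    refine intervalIntegral.integral_congr fun s hs => ?_
    rw [uIcc_of_le hxx'] at hs
    show gx χ (s, y) * f (s, y) + χ (s, y) * V.indicator U1 (s, y) = _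
    rw [indicator_of_mem (hr s hs)]
  · filter_upwards [h'.ver, Mp_87.ae_line_x hU2, ae_dy_lip hχ] with x h1 h2 h3 y y' hyy' hr
    have hO : IsOpen {s : ℝ | (x, s) ∈ V} := hV.preimage (by fun_prop)
    have e1 := prod_line hO (f := fun s => f (x, s)) (g := fun s => V.indicator U2 (x, s))
      (χ := fun s => χ (x, s)) (c := fun s => gy χ (x, s)) (h2.locallyIntegrable (by norm_num))
      (fun s t hst hs => h1 s t hst hs) (fun a b _ => ac_of_lip (lip_y hχ x) a b) h3 y y' hyy' hr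
    rw [e1]
    refine intervalIntegral.integral_congr fun s hs => ?_
    rw [uIcc_of_le hyy'] at hs
    show gy χ (x, s) * f (x, s) + χ (x, s) * V.indicator U2 (x, s) = _
    rw [indicator_of_mem (hr s hs)]

/-- the integral of the line derivative of a correction with compact support vanishes -/
theorem Cor.integral_zero (h : Cor V ε w D1 D2) (hc : HasCompactSupport w)
    (hi : Integrable D1 (volume : Measure (ℝ × ℝ))) : ∫ p, D1 p = 0 := by
  rw [Measure.volume_eq_prod, integral_prod_symm _ (by rwa [← Measure.volume_eq_prod])]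
  have h1 : ∀ᵐ y : ℝ, ∫ s, D1 (s, y) = 0 := by
    filter_upwards [h.acx, h.dx] with y h2 h3
    obtain ⟨hc', -⟩ := line_x_support hc y
    obtain ⟨r, hr0, hr⟩ : ∃ r : ℝ, 0 < r ∧ ∀ x, x ∉ Ioo (-r) r →
        x ∉ tsupport (fun s => w (s, y)) := by
      obtain ⟨r, hr⟩ := hc'.isCompact.isBounded.subset_ball (0 : ℝ)
      refine ⟨max r 1, by positivity, fun x hx hxs => hx ?_⟩
      have := hr hxs
      rw [Metric.mem_ball, dist_zero_right, Real.norm_eq_abs, abs_lt] at this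
      have := le_max_left r 1
      exact ⟨by linarith, by linarith⟩
    obtain ⟨-, k2⟩ := integral_deriv_eq_zero (w := fun s => w (s, y)) h2 hr0 (fun x hx =>
      notMem_tsupport_iff_eventuallyEq.1 (hr x hx))
    rw [← k2]
    refine integral_congr_ae ?_
    filter_upwards [h3] with s hs using hs.deriv.symm
  rw [integral_congr_ae h1]
  simp

/-- **smoothing of `χ f`** on the complement of `E` -/
theorem smooth_on (hE : IsClosed E) (hR : IsOpen R) (h : StrV (R \ E) f U1 U2)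
    (hχ : LipschitzWith K χ) (hχc : HasCompactSupport χ) (hχs : tsupport χ ⊆ R) (hε : 0 < ε) :
    ∃ φ w D1 D2, SmOn E R f U1 U2 χ ε φ w D1 D2 := by
  set V : Set (ℝ × ℝ) := R \ E with hVd
  have hV : IsOpen V := hR.sdiff hE
  obtain ⟨C, hC⟩ := hχc.exists_bound_of_continuous hχ.continuous
  have hF := h.mul hV hχ (C := C) hC
  set F : ℝ × ℝ → ℝ := fun p => χ p * f p with hFd
  set P1 : ℝ × ℝ → ℝ := fun p => gx χ p * f p + χ p * U1 p with hP1
  set P2 : ℝ × ℝ → ℝ := fun p => gy χ p * f p + χ p * U2 p with hP2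
  -- a smooth cut-off `η = 1` near `tsupport χ`, supported in `R`
  obtain ⟨L, hL, hLs, hLR⟩ := exists_compact_between hχc.isCompact hR hχs
  obtain ⟨η, hη, hη1, hη0, hηb⟩ := cutoff hχc.isCompact.isClosed hLs
  have hηs : tsupport η ⊆ L := closure_minimal (fun p hp => by
    by_contra hcon
    exact hp (hη0 p hcon)) hL.isClosed
  have hηc : HasCompactSupport η :=
    HasCompactSupport.of_support_subset_isCompact hL ((subset_tsupport _).trans hηs)
  have hηC1 : ContDiff ℝ 1 η := hη.of_le (by norm_num)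
  have hηgx : Continuous (gx η) := continuous_gx hηC1
  have hηgy : Continuous (gy η) := continuous_gy hηC1
  obtain ⟨A1, hA1⟩ := (hηc.fderiv_apply (𝕜 := ℝ) ((1:ℝ), (0:ℝ))).exists_bound_of_continuous hηgx
  obtain ⟨A2, hA2⟩ := (hηc.fderiv_apply (𝕜 := ℝ) ((0:ℝ), (1:ℝ))).exists_bound_of_continuous hηgy
  have hηlip : ∃ Kη : ℝ≥0, LipschitzWith Kη η :=
    ContDiff.lipschitzWith_of_hasCompactSupport hηc hηC1 (by norm_num)
  obtain ⟨Kη, hηL⟩ := hηlip
  -- where `χ` lives `η` is constant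
  have hη1' : ∀ p ∈ tsupport χ, η =ᶠ[𝓝 p] fun _ => 1 := fun p hp =>
    (eventually_nhdsSet_iff_forall.1 hη1) p hp
  have hηF : ∀ p, η p * χ p = χ p := by
    intro p
    by_cases hp : p ∈ tsupport χ
    · rw [(hη1' p hp).self_of_nhds, one_mul]
    · rw [image_eq_zero_of_notMem_tsupport hp, mul_zero]
  have hgη0 : ∀ p ∈ tsupport χ, gx η p = 0 ∧ gy η p = 0 := fun p hp =>
    ⟨by rw [gx_congr (hη1' p hp)]; exact gx_const 1 p,
      by rw [gy_congr (hη1' p hp)]; exact gy_const 1 p⟩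
  have hχ0 : ∀ p ∉ tsupport χ, χ p = 0 ∧ gx χ p = 0 ∧ gy χ p = 0 := fun p hp =>
    ⟨image_eq_zero_of_notMem_tsupport hp,
      image_eq_zero_of_notMem_tsupport fun h' => hp (tsupport_gx h'),
      image_eq_zero_of_notMem_tsupport fun h' => hp (tsupport_gy h')⟩
  -- the size of the correction
  set vol : ℝ := (volume : Measure (ℝ × ℝ)).real L with hvol
  have hvol0 : 0 ≤ vol := measureReal_nonneg
  set B : ℝ := 2 * (A1 ^ 2 + A2 ^ 2) * vol + 3 with hB
  have hB0 : 0 < B := by positivity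
  obtain ⟨δ, hδ, hδε, hδB, hδ1⟩ : ∃ δ : ℝ, 0 < δ ∧ δ ≤ ε ∧ B * δ ≤ ε ∧ δ ≤ 1 := by
    refine ⟨min (min ε 1) (ε / B), by positivity, ?_, ?_, ?_⟩
    · exact (min_le_left _ _).trans (min_le_left _ _)
    · have := min_le_right (min ε 1) (ε / B)
      calc B * min (min ε 1) (ε / B) ≤ B * (ε / B) := by gcongr
        _ = ε := by field_simp
    · exact (min_le_left _ _).trans (min_le_right _ _)
  obtain ⟨w₁, D₁, D₂, hw, hvs, hg1, hg2⟩ := exists_cor hV hF hδ
  set v : ℝ × ℝ → ℝ := fun p => F p + w₁ p with hv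
  have hvs1 : ContDiffOn ℝ 1 v V := hvs.of_le (by norm_num)
  have hvdiff : ∀ p ∈ V, DifferentiableAt ℝ v p := fun p hp =>
    (hvs1.contDiffAt (hV.mem_nhds hp)).differentiableAt (by norm_num)
  have hηdiff : ∀ p, DifferentiableAt ℝ η p := fun p => hηC1.differentiable (by norm_num) p
  set w : ℝ × ℝ → ℝ := fun p => η p * w₁ p with hwd
  set D1 : ℝ × ℝ → ℝ := fun p => gx η p * w₁ p + η p * D₁ p with hD1
  set D2 : ℝ × ℝ → ℝ := fun p => gy η p * w₁ p + η p * D₂ p with hD2
  set φ : ℝ × ℝ → ℝ := fun p => η p * v p with hφ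
  have hφeq : ∀ p, φ p = χ p * f p + w p := by
    intro p
    show η p * (χ p * f p + w₁ p) = χ p * f p + η p * w₁ p
    rw [mul_add, ← mul_assoc, hηF]
  have hηb1 : ∀ p, |η p| ≤ 1 := fun p => by
    rw [abs_le]; exact ⟨by linarith [(hηb p).1], (hηb p).2⟩
  have hw1L : MemLp (fun p => gx η p * w₁ p) 2 (volume : Measure (ℝ × ℝ)) :=
    (hηgx.mul hw.cont).memLp_of_hasCompactSupport
      ((hηc.fderiv_apply (𝕜 := ℝ) ((1:ℝ), (0:ℝ))).mul_right)
  have hw2L : MemLp (fun p => gy η p * w₁ p) 2 (volume : Measure (ℝ × ℝ)) :=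
    (hηgy.mul hw.cont).memLp_of_hasCompactSupport
      ((hηc.fderiv_apply (𝕜 := ℝ) ((0:ℝ), (1:ℝ))).mul_right)
  have hD1L : MemLp D1 2 (volume : Measure (ℝ × ℝ)) :=
    hw1L.add (memLp_mul_of_bdd hw.L1 hη.continuous.aestronglyMeasurable hηb1)
  have hD2L : MemLp D2 2 (volume : Measure (ℝ × ℝ)) :=
    hw2L.add (memLp_mul_of_bdd hw.L2 hη.continuous.aestronglyMeasurable hηb1)
  have hgxφ : ∀ p ∈ V, gx φ p = P1 p + D1 p := by
    intro p hp
    rw [hφ, gx_mul (hηdiff p) (hvdiff p hp)]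
    have e1 := hg1 p hp
    show η p * gx v p + v p * gx η p = P1 p + (gx η p * w₁ p + η p * D₁ p)
    rw [e1]
    by_cases hpc : p ∈ tsupport χ
    · rw [(hgη0 p hpc).1, (hη1' p hpc).self_of_nhds]; ring
    · obtain ⟨a1, a2, -⟩ := hχ0 p hpc
      rw [hP1]; simp only
      rw [hv]; simp only
      rw [hFd]; simp only
      rw [a1, a2]; ring
  have hgyφ : ∀ p ∈ V, gy φ p = P2 p + D2 p := by
    intro p hp
    rw [hφ, gy_mul (hηdiff p) (hvdiff p hp)]
    have e1 := hg2 p hp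
    show η p * gy v p + v p * gy η p = P2 p + (gy η p * w₁ p + η p * D₂ p)
    rw [e1]
    by_cases hpc : p ∈ tsupport χ
    · rw [(hgη0 p hpc).2, (hη1' p hpc).self_of_nhds]; ring
    · obtain ⟨a1, -, a2⟩ := hχ0 p hpc
      rw [hP2]; simp only
      rw [hv]; simp only
      rw [hFd]; simp only
      rw [a1, a2]; ring
  have hη0' : ∀ p ∉ R, η =ᶠ[𝓝 p] 0 := fun p hp =>
    notMem_tsupport_iff_eventuallyEq.1 fun h' => hp (hLR (hηs h'))
  have hφ0 : ∀ p ∉ R, φ =ᶠ[𝓝 p] fun _ => 0 := by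
    intro p hp
    filter_upwards [hη0' p hp] with q hq
    show η q * v q = 0
    rw [hq]; simp
  have hgη0R : ∀ p ∉ R, η p = 0 ∧ gx η p = 0 ∧ gy η p = 0 := fun p hp =>
    ⟨(hη0' p hp).self_of_nhds, by rw [gx_congr (hη0' p hp)]; exact gx_const 0 p,
      by rw [gy_congr (hη0' p hp)]; exact gy_const 0 p⟩
  have hPR : ∀ p ∉ R, P1 p = 0 ∧ P2 p = 0 := by
    intro p hp
    obtain ⟨a1, a2, a3⟩ := hχ0 p fun h' => hp (hχs h')
    rw [hP1, hP2]; simp only
    rw [a1, a2, a3]; simp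
  have hDR : ∀ p ∉ V, D1 p = 0 ∧ D2 p = 0 := by
    intro p hp
    obtain ⟨a1, a2⟩ := hw.off p hp
    rw [hD1, hD2]; simp only
    rw [a1, a2, hw.zero p hp]; simp
  have hGX : ∀ p ∉ E, gx φ p = P1 p + D1 p := by
    intro p hp
    by_cases hpR : p ∈ R
    · exact hgxφ p ⟨hpR, hp⟩
    · rw [gx_congr (hφ0 p hpR), (hPR p hpR).1, (hDR p fun h' => hpR h'.1).1, gx_const]; simp
  have hGY : ∀ p ∉ E, gy φ p = P2 p + D2 p := by
    intro p hp
    by_cases hpR : p ∈ R
    · exact hgyφ p ⟨hpR, hp⟩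
    · rw [gy_congr (hφ0 p hpR), (hPR p hpR).2, (hDR p fun h' => hpR h'.1).2, gy_const]; simp
  have hEm : MeasurableSet Eᶜ := hE.isOpen_compl.measurableSet
  have hVE : V ⊆ Eᶜ := fun p hp => hp.2
  -- `P1`, `P2` in `L²(Eᶜ)`
  have hPL : ∀ {P : ℝ × ℝ → ℝ}, MemLp P 2 (volume.restrict V) → (∀ p ∉ R, P p = 0) →
      MemLp P 2 (volume.restrict Eᶜ) := by
    intro P hP h0
    have e1 : V.indicator P =ᵐ[volume.restrict Eᶜ] P := by
      rw [EventuallyEq, ae_restrict_iff' hEm]
      refine Eventually.of_forall fun p hp => ?_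
      by_cases hpR : p ∈ R
      · have hpV : p ∈ V := ⟨hpR, hp⟩
        exact indicator_of_mem hpV P
      · have hpV : p ∉ V := fun h' => hpR h'.1
        rw [indicator_of_notMem hpV P, h0 p hpR]
    exact ((memLp_indicator_iff_restrict hV.measurableSet).2 hP |>.restrict Eᶜ).ae_eq e1
  have hP1L := hPL hF.V1 fun p hp => (hPR p hp).1
  have hP2L := hPL hF.V2 fun p hp => (hPR p hp).2
  have hgxL : MemLp (gx φ) 2 (volume.restrict Eᶜ) := by
    refine (hP1L.add (hD1L.restrict Eᶜ)).ae_eq ?_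
    rw [EventuallyEq, ae_restrict_iff' hEm]
    exact Eventually.of_forall fun p hp => (hGX p hp).symm
  have hgyL : MemLp (gy φ) 2 (volume.restrict Eᶜ) := by
    refine (hP2L.add (hD2L.restrict Eᶜ)).ae_eq ?_
    rw [EventuallyEq, ae_restrict_iff' hEm]
    exact Eventually.of_forall fun p hp => (hGY p hp).symm
  have hwc : HasCompactSupport w := hηc.mul_right
  have hφc : HasCompactSupport φ := hηc.mul_right
  -- the correction
  have hlx : ∀ᵐ y : ℝ, ∀ x x', x ≤ x' → w (x', y) - w (x, y) = ∫ s in x..x', D1 (s, y) := by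
    filter_upwards [hw.hor, hw.li_x, ae_dx_lip hηL] with y h1 h2 h3 x x' hxx'
    exact prod_line isOpen_univ (f := fun s => w₁ (s, y)) (g := fun s => D₁ (s, y))
      (χ := fun s => η (s, y)) (c := fun s => gx η (s, y)) h2 (fun s t hst _ => h1 s t hst)
      (fun a b _ => ac_of_lip (lip_x hηL y) a b) h3 x x' hxx' fun _ _ => trivial
  have hly : ∀ᵐ x : ℝ, ∀ y y', y ≤ y' → w (x, y') - w (x, y) = ∫ t in y..y', D2 (x, t) := by
    filter_upwards [hw.ver, hw.li_y, ae_dy_lip hηL] with x h1 h2 h3 y y' hyy'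
    exact prod_line isOpen_univ (f := fun s => w₁ (x, s)) (g := fun s => D₂ (x, s))
      (χ := fun s => η (x, s)) (c := fun s => gy η (x, s)) h2 (fun s t hst _ => h1 s t hst)
      (fun a b _ => ac_of_lip (lip_y hηL x) a b) h3 y y' hyy' fun _ _ => trivial
  have hen : ∫ p, (D1 p ^ 2 + D2 p ^ 2) ≤ ε := by
    have i1 : Integrable (fun p => D₁ p ^ 2 + D₂ p ^ 2) (volume : Measure (ℝ × ℝ)) :=
      hw.L1.integrable_sq.add hw.L2.integrable_sq
    have i2 : Integrable (L.indicator fun _ : ℝ × ℝ => 2 * (A1 ^ 2 + A2 ^ 2) * δ ^ 2)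
        (volume : Measure (ℝ × ℝ)) := by
      rw [integrable_indicator_iff hL.isClosed.measurableSet]
      exact integrableOn_const hL.measure_lt_top.ne
    have h1 : ∫ p, (D1 p ^ 2 + D2 p ^ 2) ≤ ∫ p, (L.indicator (fun _ : ℝ × ℝ =>
        2 * (A1 ^ 2 + A2 ^ 2) * δ ^ 2) p + 2 * (D₁ p ^ 2 + D₂ p ^ 2)) := by
      refine integral_mono (hD1L.integrable_sq.add hD2L.integrable_sq) (i2.add (i1.const_mul 2))
        fun p => ?_
      show (gx η p * w₁ p + η p * D₁ p) ^ 2 + (gy η p * w₁ p + η p * D₂ p) ^ 2 ≤ _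
      have b1 : (η p) ^ 2 ≤ 1 := by rw [← sq_abs]; exact pow_le_one₀ (abs_nonneg _) (hηb1 p)
      have b2 : (w₁ p) ^ 2 ≤ δ ^ 2 := by
        rw [← sq_abs]; exact pow_le_pow_left₀ (abs_nonneg _) (hw.bdd p) 2
      have c1 : (η p * D₁ p) ^ 2 ≤ D₁ p ^ 2 := by
        rw [mul_pow]; exact mul_le_of_le_one_left (sq_nonneg _) b1
      have c2 : (η p * D₂ p) ^ 2 ≤ D₂ p ^ 2 := by
        rw [mul_pow]; exact mul_le_of_le_one_left (sq_nonneg _) b1
      have d1 : (gx η p * w₁ p) ^ 2 + (gy η p * w₁ p) ^ 2 ≤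
          L.indicator (fun _ : ℝ × ℝ => (A1 ^ 2 + A2 ^ 2) * δ ^ 2) p := by
        by_cases hpL : p ∈ L
        · rw [indicator_of_mem hpL]
          have a1 : (gx η p) ^ 2 ≤ A1 ^ 2 := by
            rw [← sq_abs]; exact pow_le_pow_left₀ (abs_nonneg _) (hA1 p) 2
          have a2 : (gy η p) ^ 2 ≤ A2 ^ 2 := by
            rw [← sq_abs]; exact pow_le_pow_left₀ (abs_nonneg _) (hA2 p) 2
          rw [mul_pow, mul_pow, add_mul]
          exact add_le_add (mul_le_mul a1 b2 (sq_nonneg _) (sq_nonneg _))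
            (mul_le_mul a2 b2 (sq_nonneg _) (sq_nonneg _))
        · rw [indicator_of_notMem hpL]
          have a1 : gx η p = 0 := image_eq_zero_of_notMem_tsupport fun h' =>
            hpL (hηs (tsupport_gx h'))
          have a2 : gy η p = 0 := image_eq_zero_of_notMem_tsupport fun h' =>
            hpL (hηs (tsupport_gy h'))
          rw [a1, a2]; simp
      have e1 : L.indicator (fun _ : ℝ × ℝ => 2 * (A1 ^ 2 + A2 ^ 2) * δ ^ 2) p =
          2 * L.indicator (fun _ : ℝ × ℝ => (A1 ^ 2 + A2 ^ 2) * δ ^ 2) p := by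
        by_cases hpL : p ∈ L
        · rw [indicator_of_mem hpL, indicator_of_mem hpL]; ring
        · rw [indicator_of_notMem hpL, indicator_of_notMem hpL]; ring
      rw [e1]
      nlinarith [sq_nonneg (gx η p * w₁ p - η p * D₁ p), sq_nonneg (gy η p * w₁ p - η p * D₂ p)]
    refine h1.trans ?_
    rw [integral_add i2 (i1.const_mul 2), integral_const_mul,
      integral_indicator hL.isClosed.measurableSet, setIntegral_const, smul_eq_mul]
    have h2 := hw.en
    have h3 : (volume : Measure (ℝ × ℝ)).real L * (2 * (A1 ^ 2 + A2 ^ 2) * δ ^ 2) ≤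
        2 * (A1 ^ 2 + A2 ^ 2) * vol * δ := by
      have : δ ^ 2 ≤ δ := by nlinarith
      calc vol * (2 * (A1 ^ 2 + A2 ^ 2) * δ ^ 2) ≤ vol * (2 * (A1 ^ 2 + A2 ^ 2) * δ) := by gcongr
        _ = _ := by ring
    calc _ ≤ 2 * (A1 ^ 2 + A2 ^ 2) * vol * δ + 2 * δ := by linarith
      _ ≤ B * δ := by rw [hB]; nlinarith
      _ ≤ ε := hδB
  have hcor : Cor V ε w D1 D2 := by
    refine ⟨hη.continuous.mul hw.cont, fun p hp => ?_, fun p => ?_, hD1L, hD2L, hDR, hen, hlx, hly⟩
    · show η p * w₁ p = 0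
      rw [hw.zero p hp, mul_zero]
    · show |η p * w₁ p| ≤ ε
      rw [abs_mul]
      calc |η p| * |w₁ p| ≤ 1 * δ :=
            mul_le_mul (hηb1 p) (hw.bdd p) (abs_nonneg _) zero_le_one
        _ ≤ ε := by linarith
  have hD0 : ∀ p ∉ L, D1 p = 0 := by
    intro p hp
    have a1 : gx η p = 0 := image_eq_zero_of_notMem_tsupport fun h' =>
      hp (hηs (tsupport_gx h'))
    rw [hD1]; simp only
    rw [a1, hη0 p hp]; simp
  have hD1i : Integrable D1 (volume : Measure (ℝ × ℝ)) := by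
    have e1 : L.indicator D1 = D1 := by
      rw [indicator_eq_self]
      intro p hp
      by_contra hcon
      exact hp (hD0 p hcon)
    rw [← e1, integrable_indicator_iff hL.isClosed.measurableSet]
    have hfin : IsFiniteMeasure ((volume : Measure (ℝ × ℝ)).restrict L) :=
      ⟨by rw [Measure.restrict_apply_univ]; exact hL.measure_lt_top⟩
    exact (hD1L.restrict L).integrable (by norm_num)
  have hD1zero := hcor.integral_zero hwc hD1i
  have hP1i : IntegrableOn P1 V := by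
    have e0 : ∀ p ∈ V, p ∉ L → P1 p = 0 := fun p _ hpL => by
      obtain ⟨a1, a2, -⟩ := hχ0 p fun h' => hpL (interior_subset (hLs h'))
      rw [hP1]; simp only
      rw [a1, a2]; simp
    have hfin : IsFiniteMeasure ((volume : Measure (ℝ × ℝ)).restrict (V ∩ L)) :=
      ⟨by rw [Measure.restrict_apply_univ]
          exact lt_of_le_of_lt (measure_mono inter_subset_right) hL.measure_lt_top⟩
    have h1 : IntegrableOn P1 (V ∩ L) := by
      have := hF.V1.restrict L
      rw [Measure.restrict_restrict hL.isClosed.measurableSet, inter_comm] at this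
      exact this.integrable (by norm_num)
    have h2 : IntegrableOn P1 (V \ L) :=
      (integrableOn_zero).congr_fun (fun p hp => (e0 p hp.1 hp.2).symm)
        (hV.measurableSet.diff hL.isClosed.measurableSet)
    have := h1.union h2
    rwa [inter_union_sdiff] at this
  have hP1E : IntegrableOn P1 Eᶜ := by
    have h2 : IntegrableOn P1 (Eᶜ \ V) :=
      (integrableOn_zero).congr_fun (fun p hp =>
        ((hPR p fun h' => hp.2 ⟨h', hp.1⟩).1).symm) (hEm.diff hV.measurableSet)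
    have := hP1i.union h2
    rwa [union_sdiff_cancel hVE] at this
  have hint : IntegrableOn (gx φ) Eᶜ :=
    (hP1E.add hD1i.integrableOn).congr_fun (fun p hp => (hGX p hp).symm) hEm
  refine ⟨φ, w, D1, D2, ⟨?_, hφc, hφeq, hwc, ?_, hcor, hGX, hGY,
    hgxL.integrable_sq.add hgyL.integrable_sq, hint, ?_⟩⟩
  · intro p hp
    refine ContDiffAt.contDiffWithinAt ?_
    by_cases hpR : p ∈ R
    · exact hη.contDiffAt.mul (hvs.contDiffAt (hV.mem_nhds ⟨hpR, hp⟩))
    · exact contDiffAt_const.congr_of_eventuallyEq (hφ0 p hpR)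
  · exact ((tsupport_mul_subset_left).trans hηs).trans hLR
  · rw [setIntegral_congr_fun hEm (fun p hp => hGX p hp), integral_add hP1E hD1i.integrableOn]
    have e1 : ∫ p in Eᶜ, D1 p = 0 := by
      rw [← hD1zero]
      refine setIntegral_eq_integral_of_forall_compl_eq_zero fun p hp => ?_
      exact (hDR p fun h' => hp h'.2).1
    have e2 : ∫ p in Eᶜ, P1 p = ∫ p in V, P1 p :=
      setIntegral_eq_of_subset_of_forall_sdiff_eq_zero hEm hVE
        fun p hp => (hPR p fun h' => hp.2 ⟨h', hp.1⟩).1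
    rw [e1, e2, add_zero]

end Crest.Agent.R105.Psq_463
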