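import Crest.Agent.R105.Hq3_363
import Crest.Agent.R105.Psq0_463

/-!
# Row 105 (S0138), helper425: the flux of a clamped function on a line

`flux_line_ge`: `F = (absolutely continuous) - (monotone)`, `T` of class `C^1`, `0 ≤ T' ≤ 1`, `φ ≥ 0`
of class `C^1` with compact support: `0 ≤ ∫ (φ' T(F) - φ T'(F) h)`.
-/

set_option autoImplicit false

open MeasureTheory Set Filter Topology
open scoped NNReal ENNReal ContDiff

namespace Crest.Agent.R105.Psq_425

open Psi5_425 Psi7_425 CF_363

local notation "AC" => AbsolutelyContinuousOnInterval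

/-- clamp: identity on `[-m, 0]`, nondecreasing, `1`-Lipschitz, bounded -/
structure Clamp (m M : ℝ) (T : ℝ → ℝ) : Prop where
  sm : ContDiff ℝ ∞ T
  nn : ∀ t, 0 ≤ deriv T t
  le : ∀ t, deriv T t ≤ 1
  id : ∀ t, -m ≤ t → t ≤ 0 → T t = t
  did : ∀ t, -m < t → t < 0 → deriv T t = 1
  lo : ∀ t, -m - M ≤ T t
  up : ∀ t, T t ≤ M

variable {T : ℝ → ℝ}

theorem lip_of_deriv (hT : ContDiff ℝ 1 T) (h0 : ∀ t, 0 ≤ deriv T t) (h1 : ∀ t, deriv T t ≤ 1) :
    LipschitzWith 1 T := by
  refine lipschitzWith_of_nnnorm_deriv_le (hT.differentiable (by norm_num)) fun t => ?_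
  rw [← NNReal.coe_le_coe, coe_nnnorm, Real.norm_eq_abs, abs_of_nonneg (h0 t)]
  exact h1 t

theorem flux_ac_ge {a b k : ℝ} (hab : a ≤ b) {φ h N : ℝ → ℝ} (hφ : ContDiff ℝ 1 φ)
    (ha0 : φ a = 0) (hb0 : φ b = 0) (hφn : ∀ x, 0 ≤ φ x) (hN : Monotone N) (hNa : AC N a b)
    (hh : IntervalIntegrable h volume a b)
    (hT : ContDiff ℝ 1 T) (hT0 : ∀ t, 0 ≤ deriv T t) (hT1 : ∀ t, deriv T t ≤ 1) :
    0 ≤ ∫ x in a..b, (deriv φ x * T (k - (∫ s in a..x, h s) - N x) -
      φ x * (deriv T (k - (∫ s in a..x, h s) - N x) * h x)) := by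
  have hd : Continuous (deriv φ) := hφ.continuous_deriv le_rfl
  have hdT : Continuous (deriv T) := hT.continuous_deriv le_rfl
  have hlip := lip_of_deriv hT hT0 hT1
  set A : ℝ → ℝ := fun x => ∫ s in a..x, h s with hA
  have hac : AC A a b := hh.absolutelyContinuousOnInterval_intervalIntegral (by simp)
  have hacφ : AC φ a b := (hφ.contDiffOn (s := uIcc a b)).absolutelyContinuousOnInterval
  set G : ℝ → ℝ := fun x => k - A x - N x with hG
  have hGa : AC G a b := ((ac_const a b k).sub hac).sub hNa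
  have hTG : AC (fun x => T (G x)) a b := ac_lip (h := T) (C := 1) hGa zero_le_one
    (fun s t => by simpa [Real.dist_eq] using hlip.dist_le_mul s t)
  -- derivative of `T ∘ G`
  have hder : ∀ᵐ x, x ∈ uIoc a b → ∃ r, 0 ≤ r ∧
      deriv (fun x => T (G x)) x = deriv T (G x) * (-h x - r) := by
    filter_upwards [hh.ae_hasDerivAt_integral, hNa.ae_differentiableAt] with x h1 h2 hx
    have hx' := uIoc_subset_uIcc hx
    have d1 : HasDerivAt A (h x) x := h1 hx' a left_mem_uIcc
    have d2 : HasDerivAt N (deriv N x) x := (h2 hx').hasDerivAt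
    have d3 : HasDerivAt G (0 - h x - deriv N x) x := ((hasDerivAt_const x k).sub d1).sub d2
    have d4 : HasDerivAt T (deriv T (G x)) (G x) :=
      (hT.differentiable (by norm_num) (G x)).hasDerivAt
    have d5 := d4.comp x d3
    refine ⟨deriv N x, hN.deriv_nonneg, ?_⟩
    have e : (fun x => T (G x)) = T ∘ G := rfl
    rw [e, d5.deriv]; ring
  have hibp := hTG.integral_mul_deriv_eq_deriv_mul hacφ
  rw [ha0, hb0] at hibp
  have hGc : ContinuousOn G (uIcc a b) := hGa.continuousOn
  have i1 : IntervalIntegrable (fun x => T (G x) * deriv φ x) volume a b :=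
    ((hT.continuous.comp_continuousOn hGc).mul hd.continuousOn).intervalIntegrable
  have i2 : IntervalIntegrable (fun x => φ x * (deriv T (G x) * h x)) volume a b := by
    refine IntervalIntegrable.continuousOn_mul ?_ hφ.continuous.continuousOn
    exact hh.continuousOn_mul (hdT.comp_continuousOn hGc)
  have i3 : IntervalIntegrable (fun x => deriv (fun x => T (G x)) x * φ x) volume a b :=
    hTG.intervalIntegrable_deriv.mul_continuousOn hφ.continuous.continuousOn
  have e1 : ∫ x in a..b, (deriv φ x * T (G x) - φ x * (deriv T (G x) * h x)) =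
      ∫ x in a..b, (-(deriv (fun x => T (G x)) x * φ x) - φ x * (deriv T (G x) * h x)) := by
    have i3' : IntervalIntegrable (fun x => -(deriv (fun x => T (G x)) x * φ x)) volume a b := i3.neg
    rw [intervalIntegral.integral_sub (by simpa [mul_comm] using i1) i2,
      intervalIntegral.integral_sub i3' i2, intervalIntegral.integral_neg]
    have e2 : ∫ x in a..b, deriv φ x * T (G x) = ∫ x in a..b, T (G x) * deriv φ x := by
      congr 1; funext x; ring
    rw [e2, hibp]
    ring
  show 0 ≤ ∫ x in a..b, (deriv φ x * T (G x) - φ x * (deriv T (G x) * h x))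
  rw [e1]
  refine intervalIntegral.integral_nonneg_of_ae_restrict hab ?_
  rw [EventuallyLE, ae_restrict_iff' measurableSet_Icc]
  have hne : ∀ᵐ x : ℝ, x ≠ a := by rw [ae_iff]; simp
  filter_upwards [hder, hne] with x hx hxa hxI
  have hx2 : x ∈ uIoc a b := by
    rw [uIoc_of_le hab]; exact ⟨lt_of_le_of_ne hxI.1 (Ne.symm hxa), hxI.2⟩
  obtain ⟨r, hr, e⟩ := hx hx2
  show 0 ≤ -(deriv (fun x => T (G x)) x * φ x) - φ x * (deriv T (G x) * h x)
  rw [e]
  have : -(deriv T (G x) * (-h x - r) * φ x) - φ x * (deriv T (G x) * h x) =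
      φ x * (deriv T (G x) * r) := by ring
  rw [this]
  exact mul_nonneg (hφn x) (mul_nonneg (hT0 _) hr)

/-- averages of a bounded monotone function -/
theorem avg_props {M : ℝ → ℝ} (hM : Monotone M) {C : ℝ} (h0 : ∀ x, 0 ≤ M x) (hC : ∀ x, M x ≤ C)
    {δ : ℝ} (hδ : 0 < δ) (a b : ℝ) :
    Monotone (fun x => δ⁻¹ * ∫ t in x..x + δ, M t) ∧
    AC (fun x => δ⁻¹ * ∫ t in x..x + δ, M t) a b ∧
    ∀ x, M x ≤ δ⁻¹ * (∫ t in x..x + δ, M t) ∧ δ⁻¹ * (∫ t in x..x + δ, M t) ≤ M (x + δ) := by
  have hI : ∀ s t, IntervalIntegrable M volume s t := fun s t => hM.intervalIntegrable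
  have hδi : 0 < δ⁻¹ := inv_pos.2 hδ
  have e : ∀ x, ∫ t in x..x + δ, M t = ∫ t in (0:ℝ)..δ, M (x + t) := by
    intro x
    rw [intervalIntegral.integral_comp_add_left (fun t => M t)]
    simp
  have hI' : ∀ x, IntervalIntegrable (fun t => M (x + t)) volume 0 δ := fun x =>
    (hM.comp (fun s t h => by linarith : Monotone fun t : ℝ => x + t)).intervalIntegrable
  refine ⟨?_, ?_, ?_⟩
  · intro x x' hxx'
    simp only
    rw [e x, e x']
    refine mul_le_mul_of_nonneg_left ?_ hδi.le
    exact intervalIntegral.integral_mono_on hδ.le (hI' x) (hI' x') fun t _ => hM (by linarith)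
  · -- Lipschitz
    have hCn : 0 ≤ C := (h0 0).trans (hC 0)
    have hlip : ∀ x x', |(δ⁻¹ * ∫ t in x..x + δ, M t) - δ⁻¹ * ∫ t in x'..x' + δ, M t| ≤
        δ⁻¹ * (2 * C) * |x - x'| := by
      intro x x'
      have e1 : (∫ t in x..x + δ, M t) - ∫ t in x'..x' + δ, M t =
          (∫ t in x' + δ..x + δ, M t) - ∫ t in x'..x, M t := by
        have h1 := intervalIntegral.integral_add_adjacent_intervals (hI x' x) (hI x (x + δ))
        have h2 := intervalIntegral.integral_add_adjacent_intervals (hI x' (x' + δ))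
          (hI (x' + δ) (x + δ))
        linarith
      have hb : ∀ s t, |∫ u in s..t, M u| ≤ C * |t - s| := fun s t => by
        have := intervalIntegral.norm_integral_le_of_norm_le_const (f := M) (a := s) (b := t) (C := C)
          (fun u _ => by rw [Real.norm_eq_abs, abs_of_nonneg (h0 u)]; exact hC u)
        rwa [Real.norm_eq_abs] at this
      rw [← mul_sub, abs_mul, abs_of_pos hδi, e1, mul_assoc]
      refine mul_le_mul_of_nonneg_left ?_ hδi.le
      have k1 := hb (x' + δ) (x + δ)
      have k2 := hb x' x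
      have e2 : x + δ - (x' + δ) = x - x' := by ring
      rw [e2] at k1
      have := abs_sub (∫ t in x' + δ..x + δ, M t) (∫ t in x'..x, M t)
      linarith
    have hL : LipschitzWith (δ⁻¹ * (2 * C)).toNNReal (fun x => δ⁻¹ * ∫ t in x..x + δ, M t) := by
      refine LipschitzWith.of_dist_le_mul fun x x' => ?_
      rw [Real.dist_eq, Real.dist_eq, Real.coe_toNNReal _ (by positivity)]
      exact hlip x x'
    exact Psq_463.ac_of_lip hL a b
  · intro x
    have c1 : ∫ _ in (0:ℝ)..δ, M x = δ * M x := by simp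
    have c2 : ∫ _ in (0:ℝ)..δ, M (x + δ) = δ * M (x + δ) := by simp
    have k1 : δ * M x ≤ ∫ t in (0:ℝ)..δ, M (x + t) := by
      rw [← c1]
      exact intervalIntegral.integral_mono_on hδ.le intervalIntegrable_const (hI' x)
        fun t ht => hM (by linarith [ht.1])
    have k2 : ∫ t in (0:ℝ)..δ, M (x + t) ≤ δ * M (x + δ) := by
      rw [← c2]
      exact intervalIntegral.integral_mono_on hδ.le (hI' x) intervalIntegrable_const
        fun t ht => hM (by linarith [ht.2])
    rw [e x]
    constructor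
    · rw [inv_mul_eq_div, le_div_iff₀ hδ]; linarith
    · rw [inv_mul_eq_div, div_le_iff₀ hδ]; linarith

/-- **Claim L** -/
theorem flux_line_ge {a b k : ℝ} (hab : a ≤ b) {φ h F : ℝ → ℝ} (hφ : ContDiff ℝ 1 φ)
    (ha0 : φ a = 0) (hb0 : φ b = 0) (hφn : ∀ x, 0 ≤ φ x) {ρ : Measure ℝ} [IsFiniteMeasure ρ]
    (hh : IntervalIntegrable h volume a b)
    (hF : ∀ x ∈ Icc a b, F x = k - (∫ s in a..x, h s) - (ρ (Ico a x)).toReal)
    (hT : ContDiff ℝ 1 T) (hT0 : ∀ t, 0 ≤ deriv T t) (hT1 : ∀ t, deriv T t ≤ 1) :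
    0 ≤ ∫ x in a..b, (deriv φ x * T (F x) - φ x * (deriv T (F x) * h x)) := by
  have hd : Continuous (deriv φ) := hφ.continuous_deriv le_rfl
  have hdT : Continuous (deriv T) := hT.continuous_deriv le_rfl
  have hlip := lip_of_deriv hT hT0 hT1
  set M : ℝ → ℝ := fun x => (ρ (Ico a x)).toReal with hMd
  have hM : Monotone M := fun x y hxy =>
    ENNReal.toReal_mono (measure_ne_top _ _) (measure_mono (Ico_subset_Ico_right hxy))
  set C : ℝ := (ρ univ).toReal with hCd
  have hM0 : ∀ x, 0 ≤ M x := fun x => ENNReal.toReal_nonneg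
  have hMC : ∀ x, M x ≤ C := fun x =>
    ENNReal.toReal_mono (measure_ne_top _ _) (measure_mono (subset_univ _))
  set A : ℝ → ℝ := fun x => ∫ s in a..x, h s with hA
  have hac : AC A a b := hh.absolutelyContinuousOnInterval_intervalIntegral (by simp)
  set δ : ℕ → ℝ := fun n => 1 / ((n : ℝ) + 1) with hδ
  have hδ0 : ∀ n, 0 < δ n := fun n => by rw [hδ]; positivity
  have hδt : Tendsto δ atTop (𝓝 0) := tendsto_one_div_add_atTop_nhds_zero_nat
  set N : ℕ → ℝ → ℝ := fun n x => (δ n)⁻¹ * ∫ t in x..x + δ n, M t with hN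
  have hNp := fun n => avg_props hM hM0 hMC (hδ0 n) a b
  have hNlim : ∀ᵐ x : ℝ, Tendsto (fun n => N n x) atTop (𝓝 (M x)) := by
    have hc : {x | ¬ ContinuousAt M x}.Countable := hM.countable_not_continuousAt
    have hae : ∀ᵐ x : ℝ, ContinuousAt M x := by
      rw [ae_iff]; exact hc.measure_zero _
    filter_upwards [hae] with x hx
    have h1 : Tendsto (fun n => M (x + δ n)) atTop (𝓝 (M x)) := by
      have h2 : Tendsto (fun n => x + δ n) atTop (𝓝 x) := by
        simpa using hδt.const_add x
      exact (hx.tendsto).comp h2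
    exact tendsto_of_tendsto_of_tendsto_of_le_of_le tendsto_const_nhds h1
      (fun n => ((hNp n).2.2 x).1) (fun n => ((hNp n).2.2 x).2)
  have hNb : ∀ n x, |N n x| ≤ C := by
    intro n x
    have h1 := ((hNp n).2.2 x)
    have h2 : 0 ≤ N n x := (hM0 x).trans h1.1
    rw [abs_of_nonneg h2]
    exact h1.2.trans (hMC _)
  set g : ℝ → ℝ := fun x => |deriv φ x| * (|T 0| + |k| + |A x| + C) + |φ x| * |h x| with hg
  have hgi : IntervalIntegrable g volume a b := by
    refine IntervalIntegrable.add ?_ ?_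
    · refine ContinuousOn.intervalIntegrable ?_
      refine hd.abs.continuousOn.mul ?_
      exact ((continuousOn_const.add hac.continuousOn.abs)).add continuousOn_const
    · exact hh.abs.continuousOn_mul hφ.continuous.abs.continuousOn
  have hmeasG : ∀ n, AEStronglyMeasurable (fun x => deriv φ x * T (k - A x - N n x) -
      φ x * (deriv T (k - A x - N n x) * h x)) (volume.restrict (uIoc a b)) := by
    intro n
    have hG : ContinuousOn (fun x => k - A x - N n x) (uIcc a b) :=
      (continuousOn_const.sub hac.continuousOn).sub (hNp n).2.1.continuousOn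
    have hGm : AEStronglyMeasurable (fun x => k - A x - N n x) (volume.restrict (uIoc a b)) :=
      (hG.mono uIoc_subset_uIcc).aestronglyMeasurable measurableSet_uIoc
    refine (hd.aestronglyMeasurable.mul (hT.continuous.comp_aestronglyMeasurable hGm)).sub ?_
    refine hφ.continuous.aestronglyMeasurable.mul ?_
    exact (hdT.comp_aestronglyMeasurable hGm).mul
      ((intervalIntegrable_iff.1 hh).aestronglyMeasurable)
  have hlim : Tendsto (fun n => ∫ x in a..b, (deriv φ x * T (k - A x - N n x) -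
      φ x * (deriv T (k - A x - N n x) * h x))) atTop
      (𝓝 (∫ x in a..b, (deriv φ x * T (k - A x - M x) -
        φ x * (deriv T (k - A x - M x) * h x)))) := by
    refine intervalIntegral.tendsto_integral_filter_of_dominated_convergence g
      (Eventually.of_forall hmeasG) (Eventually.of_forall fun n => ?_) hgi ?_
    · refine Eventually.of_forall fun x hx => ?_
      rw [Real.norm_eq_abs]
      refine (abs_sub _ _).trans (add_le_add ?_ ?_)
      · rw [abs_mul]
        refine mul_le_mul_of_nonneg_left ?_ (abs_nonneg _)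
        have h1 := hlip.dist_le_mul (k - A x - N n x) 0
        rw [Real.dist_eq, Real.dist_eq, NNReal.coe_one, one_mul, sub_zero] at h1
        have h2 := abs_sub_abs_le_abs_sub (T (k - A x - N n x)) (T 0)
        have h3 : |k - A x - N n x| ≤ |k| + |A x| + C := by
          refine (abs_sub _ _).trans (add_le_add (abs_sub _ _) (hNb n x))
        linarith
      · rw [abs_mul, abs_mul, abs_of_nonneg (hT0 _)]
        refine mul_le_mul_of_nonneg_left ?_ (abs_nonneg _)
        exact mul_le_of_le_one_left (abs_nonneg _) (hT1 _)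
    · filter_upwards [hNlim] with x hx _
      have h1 : Tendsto (fun n => k - A x - N n x) atTop (𝓝 (k - A x - M x)) :=
        tendsto_const_nhds.sub hx
      exact ((hT.continuous.tendsto _).comp h1).const_mul _ |>.sub
        ((((hdT.tendsto _).comp h1).mul_const _).const_mul _)
  have hge : 0 ≤ ∫ x in a..b, (deriv φ x * T (k - A x - M x) -
        φ x * (deriv T (k - A x - M x) * h x)) :=
    ge_of_tendsto' hlim fun n => flux_ac_ge hab hφ ha0 hb0 hφn (hNp n).1 (hNp n).2.1 hh hT hT0 hT1
  have e : ∫ x in a..b, (deriv φ x * T (F x) - φ x * (deriv T (F x) * h x)) =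
      ∫ x in a..b, (deriv φ x * T (k - A x - M x) - φ x * (deriv T (k - A x - M x) * h x)) := by
    refine intervalIntegral.integral_congr fun x hx => ?_
    rw [uIcc_of_le hab] at hx
    show deriv φ x * T (F x) - φ x * (deriv T (F x) * h x) = _
    rw [hF x hx]
  rw [e]
  exact hge

end Crest.Agent.R105.Psq_425
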