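import Crest.Agent.R105.Ge4_347
import Crest.Agent.R105.Psq1_425

/-! Row 105, S0138, Lemma A with squares (helper347, leaf (L8)): the field `Glue.pla` of Psq6_425. -/

set_option autoImplicit false

open MeasureTheory Set Metric Filter Topology
open scoped ENNReal NNReal ContDiff

namespace Crest.Agent.R105.Ge_347

open CF_363 Stp_722 Cq_463 Psq_425 Mq_347 Sq_87 Hq_363 Kbx_247 Gl_363 Famq_306 Exs_992 Nal_649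
open Mp_87 (lam)
open Crest.Agent.R105.Skp2_257 (Comps)

variable {ι ι' : Type} {E S W N : Set (ℝ × ℝ)} {𝒬 : Set Sqr} {𝓗 : Set Hair} {Q : Rects ι}
  {Q' : Rects ι'} {sq : ι → Sqr} {sq' : ι' → Sqr} {a b c d B Bm Bp Tl Tu M : ℝ}
  {X1 X2 ψ Ψ Y1 Y2 ψ' Ψ' g g' : ℝ × ℝ → ℝ} {μ ν : Measure (ℝ × ℝ)} {f : ι → ℝ} {f' : ι' → ℝ}
  {np nm : ι → Measure (ℝ × ℝ)} {np' nm' : ι' → Measure (ℝ × ℝ)}

theorem clamp_lip {m M₀ : ℝ} {t : ℝ → ℝ} (h : Psq_425.Clamp m M₀ t) : LipschitzWith 1 t := by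
  refine lipschitzWith_of_nnnorm_deriv_le (h.sm.differentiable (by norm_num)) fun s => ?_
  rw [← NNReal.coe_le_coe, coe_nnnorm, Real.norm_eq_abs, abs_of_nonneg (h.nn s)]
  exact h.le s

theorem clamp_bdd {m M₀ : ℝ} {t : ℝ → ℝ} (h : Psq_425.Clamp m M₀ t) (s : ℝ) :
    |t s| ≤ |m| + |M₀| := by
  rw [abs_le]
  have h1 := h.lo s
  have h2 := h.up s
  have h3 := neg_abs_le m
  have h4 := le_abs_self m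
  have h5 := le_abs_self M₀
  have h6 := abs_nonneg m
  constructor <;> linarith

theorem ts_off {κ : ℝ × ℝ → ℝ} {O : Set (ℝ × ℝ)} (hO : IsOpen O) (h0 : ∀ p ∈ O, κ p = 0)
    (hNO : N ⊆ O) : Disjoint (tsupport κ) N := by
  rw [Set.disjoint_left]
  intro p hp hpN
  refine notMem_tsupport_iff_eventuallyEq.2 ?_ hp
  filter_upwards [hO.mem_nhds (hNO hpN)] with q hq using h0 q hq

/-- **the field `pla`**, general form: `N` = union of the exempt components -/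
theorem pla_N (T : TwoG E S 𝒬 𝓗 Q Q' sq sq' a b c d Bm Bp Tl Tu M X1 X2 ψ Ψ Y1 Y2 ψ' Ψ' μ ν f f'
      g g') [IsFiniteMeasure μ] [IsFiniteMeasure ν] (C : ChQ Q X1 X2 f np nm)
    (C' : ChQ Q' Y1 Y2 f' np' nm') (hN : IsClosed N) (hSN : S ⊆ N)
    (hNQ : ∀ Q₀ ∈ 𝒬, (Q₀.car ∩ N).Nonempty → Q₀.car ⊆ N)
    (r1 : ∀ᵐ q ∂μ, ∀ y ∈ Ico q.2 Tl, (q.1, y) ∈ N)
    (r2 : ∀ᵐ q ∂ν, ∀ y ∈ Ico q.2 Tu, rf (q.1, y) ∈ N) {m : ℝ} :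
    ∀ (t : ℝ → ℝ) (M₀ : ℝ), Psq_425.Clamp m M₀ t → ∀ (κ : ℝ × ℝ → ℝ) (K : ℝ≥0),
      LipschitzWith K κ → HasCompactSupport κ → tsupport κ ⊆ Ioo a b ×ˢ Ioo c d →
      (∃ O, IsOpen O ∧ N ⊆ O ∧ ∀ p ∈ O, κ p = 0) →
      PlaLim E 𝒬 fun p => κ p * t (glF M g g' p) := by
  intro t M₀ ht κ K hκ hκc hκR hκO
  obtain ⟨O, hO, hNO, h0⟩ := hκO
  refine plaLim_N T C C' hN hSN hNQ r1 r2 hκ hκc (fun p hp => ⟨hκR hp, ?_⟩) (clamp_lip ht)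
    (clamp_bdd ht)
  exact fun hpN => Set.disjoint_left.1 (ts_off hO h0 hNO) hp hpN

/-- **the field `pla`**, single component `S` -/
theorem pla_S (T : TwoG E S 𝒬 𝓗 Q Q' sq sq' a b c d Bm Bp Tl Tu M X1 X2 ψ Ψ Y1 Y2 ψ' Ψ' μ ν f f'
      g g') [IsFiniteMeasure μ] [IsFiniteMeasure ν] (C : ChQ Q X1 X2 f np nm)
    (C' : ChQ Q' Y1 Y2 f' np' nm') (hne : S.Nonempty) {m : ℝ} :
    ∀ (t : ℝ → ℝ) (M₀ : ℝ), Psq_425.Clamp m M₀ t → ∀ (κ : ℝ × ℝ → ℝ) (K : ℝ≥0),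
      LipschitzWith K κ → HasCompactSupport κ → tsupport κ ⊆ Ioo a b ×ˢ Ioo c d →
      (∃ O, IsOpen O ∧ ⋃₀ {S} ⊆ O ∧ ∀ p ∈ O, κ p = 0) →
      PlaLim E 𝒬 fun p => κ p * t (glF M g g' p) := by
  intro t M₀ ht κ K hκ hκc hκR hκO
  obtain ⟨O, hO, hNO, h0⟩ := hκO
  rw [sUnion_singleton] at hNO
  refine plaLim_S T C C' hne hκ hκc (fun p hp => ⟨hκR hp, ?_⟩) (clamp_lip ht) (clamp_bdd ht)
  exact fun hpN => Set.disjoint_left.1 (ts_off hO h0 hNO) hp hpN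

/-- **the field `pla`**, family `F` -/
theorem pla_F (T : TwoG E S 𝒬 𝓗 Q Q' sq sq' a b c d Bm Bp Tl Tu M X1 X2 ψ Ψ Y1 Y2 ψ' Ψ' μ ν f f'
      g g') [IsFiniteMeasure μ] [IsFiniteMeasure ν] (C : ChQ Q X1 X2 f np nm)
    (C' : ChQ Q' Y1 Y2 f' np' nm') {F : Set (Set (ℝ × ℝ))} (hF : FamQ E F Bm Bp)
    (hS : S ⊆ ⋃₀ F) (hTl : Tl ≤ Bp) (hTu : Tu ≤ -Bm)
    (c1 : ∀ᵐ q ∂μ, ∃ K ∈ 𝓗, K.car ∈ F ∧ q ∈ K.car ∧ q.2 ≤ Bm ∧ K.b ≤ Bm ∧ Bp ≤ K.t)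
    (c2 : ∀ᵐ q ∂ν, ∃ K ∈ 𝓗, K.car ∈ F ∧ rf q ∈ K.car ∧ q.2 ≤ -Bp ∧ K.b ≤ Bm ∧ Bp ≤ K.t)
    {m : ℝ} :
    ∀ (t : ℝ → ℝ) (M₀ : ℝ), Psq_425.Clamp m M₀ t → ∀ (κ : ℝ × ℝ → ℝ) (K : ℝ≥0),
      LipschitzWith K κ → HasCompactSupport κ → tsupport κ ⊆ Ioo a b ×ˢ Ioo c d →
      (∃ O, IsOpen O ∧ ⋃₀ F ⊆ O ∧ ∀ p ∈ O, κ p = 0) →
      PlaLim E 𝒬 fun p => κ p * t (glF M g g' p) := by
  intro t M₀ ht κ K hκ hκc hκR hκO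
  obtain ⟨O, hO, hNO, h0⟩ := hκO
  refine plaLim_F T C C' hF.sub hF.cpt hS hTl hTu c1 c2 hκ hκc (fun p hp => ⟨hκR hp, ?_⟩)
    (clamp_lip ht) (clamp_bdd ht)
  exact fun hpN => Set.disjoint_left.1 (ts_off hO h0 hNO) hp hpN

end Crest.Agent.R105.Ge_347
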