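import Crest.Agent.R105.Psi10_425

/-!
Row 105 (helper425): one half of the stream function, final form `HF`.
-/

open MeasureTheory Set Filter Topology
open scoped NNReal ENNReal ContDiff

namespace Crest.Agent.R105.Psi11_425

open Psi5_425 Psi7_425 Psi_425 CF_363 Skp2_257 Mp_87 Psi10_425

variable {E S : Set (ℝ × ℝ)} {g : Set Hair} {a b c B T : ℝ} {X1 X2 ψ Ψ : ℝ × ℝ → ℝ}
  {μ : Measure (ℝ × ℝ)} {J : ℕ → Finset Hair} {z : ℕ → ℝ × ℝ → ℝ} {κ : Hair → ℝ}

/-- one half of the stream function, as a function `f` on `(a,b) × (c,T)` -/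
structure HF (E : Set (ℝ × ℝ)) (G S : Set (ℝ × ℝ)) (a b c B T : ℝ) (X1 X2 : ℝ × ℝ → ℝ)
    (μ : Measure (ℝ × ℝ)) (f : ℝ × ℝ → ℝ) : Prop where
  cont : ContinuousOn f ((Ioo a b ×ˢ Ioo c T) \ S)
  ver : ∀ᵐ x, x ∈ Ioo a b → ∀ y, c < y → y < T →
    f (x, y) = -lam μ x - ∫ t in y..B, X1 (x, t)
  hor : ∀ᵐ y, c < y → y < T → ∀ x ∈ Ioo a b, ∀ x' ∈ Ioo a b, x ≤ x' →
    (∀ s ∈ Icc x x', (s, y) ∉ G) → f (x', y) - f (x, y) = -∫ s in x..x', X2 (s, y)
  strip : ∀ x ∈ Ioo a b, ∀ y, B < y → y < T → (x, y) ∉ S → f (x, y) = -lam μ x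
  const : ∀ K ∈ hairs E, Disjoint K.car S → ∃ k : ℝ,
    (∀ y ∈ Icc K.b K.t, y < T → f (K.x, y) = k) ∧ (B < K.t → k = -lam μ K.x)
  flux : ∀ χ : ℝ × ℝ → ℝ, ContDiff ℝ 1 χ → HasCompactSupport χ → tsupport χ ⊆ Ioo a b ×ˢ univ →
    (∀ p ∈ G, χ p = 1) → ∀ᵐ y, c < y → y < T →
    ∫ x, (gx χ (x, y) * f (x, y) - χ (x, y) * X2 (x, y)) = (μ {q | q.2 < y}).toReal

theorem tendsto_col [IsFiniteMeasure μ] {u : ℝ} (hu : μ {q | q.1 = u} = 0) :
    Tendsto (fun r : ℝ => (μ {q | q.1 ∈ Icc (u - r) (u + r)}).toReal) (𝓝[>] 0) (𝓝 0) := by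
  have h1 : Tendsto (fun r : ℝ => μ {q | q.1 ∈ Icc (u - r) (u + r)})
      (𝓝[>] 0) (𝓝 (μ (⋂ r > (0:ℝ), {q | q.1 ∈ Icc (u - r) (u + r)}))) := by
    refine tendsto_measure_biInter_gt (fun r _ => ?_) (fun i j _ hij => ?_) ⟨1, one_pos,
      measure_ne_top _ _⟩
    · exact (measurable_fst measurableSet_Icc).nullMeasurableSet
    · intro q hq
      exact ⟨by linarith [hq.1], by linarith [hq.2]⟩
  have h2 : μ (⋂ r > (0:ℝ), {q : ℝ × ℝ | q.1 ∈ Icc (u - r) (u + r)}) = 0 := by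
    refine measure_mono_null ?_ hu
    intro q hq
    simp only [mem_iInter] at hq
    refine le_antisymm (le_of_forall_pos_le_add fun ε hε => ?_)
      (le_of_forall_pos_le_add fun ε hε => ?_)
    · have := (hq ε hε).2
      linarith
    · have := (hq ε hε).1
      linarith
  rw [h2] at h1
  have h3 := (ENNReal.tendsto_toReal ENNReal.zero_ne_top).comp h1
  rw [ENNReal.toReal_zero] at h3
  exact h3

theorem lam_sub [IsFiniteMeasure μ] {x x' : ℝ} (h : x ≤ x') :
    lam μ x' - lam μ x = (μ {q | q.1 ∈ Ico x x'}).toReal := by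
  unfold lam
  have h1 : {q : ℝ × ℝ | q.1 < x'} = {q | q.1 < x} ∪ {q | q.1 ∈ Ico x x'} := by
    ext q
    simp only [mem_ofPred_eq, mem_union, mem_Ico]
    constructor
    · intro h2
      rcases lt_or_ge q.1 x with h3 | h3
      · exact Or.inl h3
      · exact Or.inr ⟨h3, h2⟩
    · rintro (h2 | h2)
      · linarith
      · exact h2.2
  have h2 : Disjoint {q : ℝ × ℝ | q.1 < x} {q | q.1 ∈ Ico x x'} := by
    rw [Set.disjoint_left]
    intro q hq hq'
    exact absurd hq'.1 (not_le.2 hq)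
  rw [h1, measure_union h2 (measurable_fst measurableSet_Ico),
    ENNReal.toReal_add (measure_ne_top _ _) (measure_ne_top _ _)]
  ring

theorem lam_continuousAt [IsFiniteMeasure μ] {u : ℝ} (hu : μ {q | q.1 = u} = 0) :
    ContinuousAt (lam μ) u := by
  rw [Metric.continuousAt_iff']
  intro ε hε
  have h1 := (tendsto_col hu).eventually (gt_mem_nhds hε)
  obtain ⟨r, hr, hr0⟩ := (h1.and self_mem_nhdsWithin).exists
  have hr0' : (0 : ℝ) < r := hr0
  filter_upwards [Icc_mem_nhds (show u - r < u by linarith) (show u < u + r by linarith)] with x hx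
  rw [Real.dist_eq]
  refine lt_of_le_of_lt ?_ hr
  rcases le_total u x with h | h
  · rw [lam_sub h, abs_of_nonneg ENNReal.toReal_nonneg]
    refine ENNReal.toReal_mono (measure_ne_top _ _) (measure_mono fun q hq => ?_)
    exact ⟨by linarith [hq.1], by linarith [hq.2, hx.2]⟩
  · rw [abs_sub_comm, lam_sub h, abs_of_nonneg ENNReal.toReal_nonneg]
    refine ENNReal.toReal_mono (measure_ne_top _ _) (measure_mono fun q hq => ?_)
    exact ⟨by linarith [hq.1, hx.1], by linarith [hq.2]⟩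

/-- hypothesis (T) for all hairs -/
def TT (E : Set (ℝ × ℝ)) (c B : ℝ) (Ψ : ℝ × ℝ → ℝ) (μ : Measure (ℝ × ℝ)) : Prop :=
  ∀ K ∈ hairs E, μ {q | q.1 = K.x ∧ q.2 < K.t} = 0 → ∃ k : ℝ,
    (∀ᵐ y, c < y → y ∈ Ioo K.b K.t → Ψ (K.x, y) = k) ∧ (B ≤ K.t → k = -lam μ K.x)

theorem exists_hf [IsFiniteMeasure μ] (C : Ctx E g S a b c B T μ)
    (L : Lines a b c B 1 X1 X2 μ ψ Ψ) (A : Appr a b c B 1 X1 X2 μ Ψ J z κ)
    (hJ : ∀ n, ∀ K ∈ J n, K ∈ hairs E) (hT : TT E c B Ψ μ) :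
    ∃ f, HF E (un g) S a b c B T X1 X2 μ f := by
  have hσ : (1 : ℝ) = 1 ∨ (1 : ℝ) = -1 := Or.inl rfl
  have mp := mpat_of_appr L hσ A
  have mn0 := mpat_of_appr L.neg (by right; rfl) A.neg
  have mn : MPat a b c (-1) (fun p => -X1 p) (fun p => -X2 p) μ (fun p => -ψ p) (fun p => -Ψ p)
      (PXh J) (PYh a b μ Ψ J κ) (PRh μ J) := by
    intro x0 x1 y0 y1 M R px0 px1 py0 py1 pr hM
    exact mn0 x0 x1 y0 y1 M R px0 px1 (PYh_neg py0) (PYh_neg py1) pr hM
  obtain ⟨f, hfc, -, hfh, hfv⟩ := exists_cont L (by simp) (ae_PXh J) (ae_PYh A) mp mn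
  have hadm := C.adm hJ
  have hSc := C.closedS
  have hopen : IsOpen ((Ioo a b ×ˢ Ioo c T) \ S) := (isOpen_Ioo.prod isOpen_Ioo).sdiff hSc
  have hcont : ContinuousOn f ((Ioo a b ×ˢ Ioo c T) \ S) := hfc.mono hadm
  have hver : ∀ᵐ x, x ∈ Ioo a b → ∀ y, c < y → y < T →
      f (x, y) = -lam μ x - ∫ t in y..B, X1 (x, t) := by
    filter_upwards [hfv, C.ae_col, L.V] with x h1 h2 h3 hx y hy hyT
    rw [← h1 y (hadm ⟨⟨hx, hy, hyT⟩, h2 y⟩)]
    rcases le_total y B with hyB | hyB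
    · have h4 := h3 hx y B hy hyB
      rw [L.strip (x, B) le_rfl] at h4
      simp only at h4
      linarith
    · rw [L.strip (x, y) hyB]
      have h5 : ∫ t in y..B, X1 (x, t) = 0 := by
        rw [intervalIntegral.integral_symm]
        have : ∫ t in B..y, X1 (x, t) = ∫ t in B..y, (0 : ℝ) := by
          refine intervalIntegral.integral_congr fun t ht => ?_
          rw [uIcc_of_le hyB] at ht
          exact A.X1B (x, t) ht.1
        rw [this]; simp
      rw [h5]; ring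
  -- horizontal lines
  have hΨ : ∀ᵐ y, c < y → y < T → ∀ x ∈ Ioo a b, ∀ x' ∈ Ioo a b, x ≤ x' →
      (x, y) ∉ S → (x', y) ∉ S → f (x', y) - f (x, y) = -(∫ s in x..x', X2 (s, y))
        - (μ {q | q.1 ∈ Ico x x' ∧ q.2 < y}).toReal := by
    filter_upwards [hfh, L.H] with y h1 h2 hy hyT x hx x' hx' hxx' hS hS'
    rw [← h1 x (hadm ⟨⟨hx, hy, hyT⟩, hS⟩), ← h1 x' (hadm ⟨⟨hx', hy, hyT⟩, hS'⟩)]
    have := h2 hy x hx x' hx' hxx'
    rw [one_mul] at this
    exact this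
  have hhor : ∀ᵐ y, c < y → y < T → ∀ x ∈ Ioo a b, ∀ x' ∈ Ioo a b, x ≤ x' →
      (∀ s ∈ Icc x x', (s, y) ∉ un g) → f (x', y) - f (x, y) = -∫ s in x..x', X2 (s, y) := by
    filter_upwards [hΨ] with y h1 hy hyT x hx x' hx' hxx' hG
    rw [h1 hy hyT x hx x' hx' hxx' (fun h => hG x ⟨le_rfl, hxx'⟩ (C.SG h))
      (fun h => hG x' ⟨hxx', le_rfl⟩ (C.SG h)), C.noflux hyT.le hG]
    simp
  -- the strip
  have hstrip : ∀ x ∈ Ioo a b, ∀ y, B < y → y < T → (x, y) ∉ S → f (x, y) = -lam μ x := by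
    intro x hx y hy hyT hS
    have hcy : c < y := C.cB.trans hy
    have hO : IsOpen {x : ℝ | (x, y) ∈ (Ioo a b ×ˢ Ioo c T) \ S} := hopen.preimage (by fun_prop)
    refine eq_on_open (g := fun x => f (x, y)) (h := fun x => -lam μ x) hO
      (hcont.comp (by fun_prop) fun x hx => hx) (fun x hx => ?_) ?_ x ⟨⟨hx, hcy, hyT⟩, hS⟩
    · exact (lam_continuousAt (C.col hy.le hyT.le hx.2)).neg.continuousWithinAt
    · filter_upwards [hver] with x h1 hx
      rw [h1 hx.1.1 y hcy hyT]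
      have h5 : ∫ t in y..B, X1 (x, t) = 0 := by
        rw [intervalIntegral.integral_symm]
        have : ∫ t in B..y, X1 (x, t) = ∫ t in B..y, (0 : ℝ) := by
          refine intervalIntegral.integral_congr fun t ht => ?_
          rw [uIcc_of_le hy.le] at ht
          exact A.X1B (x, t) ht.1
        rw [this]; simp
      rw [h5]; ring
  refine ⟨f, hcont, hver, hhor, hstrip, ?_, ?_⟩
  · -- constant on hairs
    intro K hK hd
    have hbx := C.box _ (car_sub hK (bot_mem K))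
    simp only at hbx
    by_cases hKT : K.b < T
    swap
    · exact ⟨-lam μ K.x, fun y hy hyT => absurd (hy.1.trans_lt hyT) hKT, fun _ => rfl⟩
    obtain ⟨k, hk1, hk2⟩ := hT K hK (C.hair hKT hd)
    have hmem : ∀ y ∈ Icc K.b K.t, y < T → (K.x, y) ∈ (Ioo a b ×ˢ Ioo c T) \ S := fun y hy hyT =>
      ⟨⟨⟨hbx.1, hbx.2.1⟩, lt_of_lt_of_le hbx.2.2 hy.1, hyT⟩,
        fun h => (disjoint_left.1 hd) (Hair.mem_car.2 ⟨rfl, hy.1, hy.2⟩) h⟩
    have hseg : ∀ t, K.b < t → t ≤ K.t → t < T → ∀ y ∈ Icc K.b t, f (K.x, y) = k := by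
      intro t ht htK htT
      refine const_on_segment hfc hfh ht (fun y hy => hadm (hmem y ⟨hy.1, hy.2.trans htK⟩
        (hy.2.trans_lt htT))) ?_
      filter_upwards [hk1] with y h1 hy
      exact h1 (hbx.2.2.trans hy.1) ⟨hy.1, lt_of_lt_of_le hy.2 htK⟩
    refine ⟨k, fun y hy hyT => ?_, fun h => hk2 h.le⟩
    rcases eq_or_lt_of_le hy.1 with h1 | h1
    · -- the bottom point
      obtain ⟨t, ht1, ht2⟩ := exists_between (lt_min K.hbt hKT)
      have h3 := hseg t ht1 (ht2.le.trans (min_le_left _ _)) (lt_of_lt_of_le ht2 (min_le_right _ _))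
        K.b ⟨le_rfl, ht1.le⟩
      rw [← h1]; exact h3
    · exact hseg y h1 hy.2 hyT y ⟨h1.le, le_rfl⟩
  · -- flux
    intro χ hχ hχc hχs hχG
    have hX2 : ∀ᵐ y : ℝ, MemLp (fun s : ℝ => X2 (s, y)) 2 volume := ae_line_y L.L2
    filter_upwards [hΨ, hX2] with y h1 h2 hy hyT
    -- the cut-off on the line
    obtain ⟨hc', hs'⟩ := line_x_support hχc y
    set φ : ℝ → ℝ := fun x => χ (x, y) with hφ
    have hφ1 : ContDiff ℝ 1 φ := hχ.comp (by fun_prop)
    have hgx : ∀ x, gx χ (x, y) = deriv φ x := fun x =>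
      (Psi8_425.hasDerivAt_x (hχ.differentiable (by norm_num) (x, y))).deriv.symm
    have hsub : tsupport φ ⊆ Ioo a b := fun x hx => (hχs (hs' hx)).1
    -- a smaller interval
    obtain ⟨a1, b1, ha1, hab1, hb1, hab1s⟩ : ∃ a1 b1, a < a1 ∧ a1 ≤ b1 ∧ b1 < b ∧
        ∀ x, x ∉ Ioo a1 b1 → x ∉ tsupport φ := by
      obtain ⟨a2, ha2, h3⟩ := hc'.isCompact.exists_forall_le' (f := fun x : ℝ => x) (a := a)
        continuous_id.continuousOn (fun x hx => (hsub hx).1)
      obtain ⟨b2', hb2', h4'⟩ := hc'.isCompact.exists_forall_le' (f := fun x : ℝ => -x) (a := -b)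
        continuous_neg.continuousOn (fun x hx => neg_lt_neg (hsub hx).2)
      obtain ⟨b2, rfl⟩ : ∃ b2, b2' = -b2 := ⟨-b2', by ring⟩
      have hb2 : b2 < b := by linarith
      have h4 : ∀ x ∈ tsupport φ, x ≤ b2 := fun x hx => by
        have := h4' x hx
        linarith
      have hab := C.ab
      refine ⟨min ((a + a2) / 2) ((a + b) / 2), max ((b + b2) / 2) ((a + b) / 2),
        lt_min (by linarith) (by linarith), (min_le_right _ _).trans (le_max_right _ _),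
        max_lt (by linarith) (by linarith), fun x hx hxs => hx ⟨?_, ?_⟩⟩
      · have := h3 x hxs
        exact lt_of_le_of_lt (min_le_left _ _) (by linarith)
      · have := h4 x hxs
        exact lt_of_lt_of_le (by linarith) (le_max_left _ _)
    have hφ0 : ∀ x, x ∉ Ioo a1 b1 → φ x = 0 := fun x hx =>
      image_eq_zero_of_notMem_tsupport (hab1s x hx)
    have hφd0 : ∀ x, x ∉ Ioo a1 b1 → deriv φ x = 0 := fun x hx =>
      image_eq_zero_of_notMem_tsupport fun h =>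
        hab1s x hx ((tsupport_deriv_subset (𝕜 := ℝ) (f := φ)) h)
    have ha1S : (a1, y) ∉ S := by
      intro h
      have h3 := hχG _ (C.SG h)
      have h4 : φ a1 = 0 := hφ0 a1 fun h => lt_irrefl _ h.1
      rw [hφ] at h4
      simp only at h4
      rw [h4] at h3
      exact zero_ne_one h3
    set ρ : Measure ℝ := (μ.restrict {q | q.2 < y}).map Prod.fst with hρ
    have hmy : MeasurableSet {q : ℝ × ℝ | q.2 < y} := measurableSet_lt measurable_snd measurable_const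
    have hρI : ∀ x, ρ (Ico a1 x) = μ {q | q.1 ∈ Ico a1 x ∧ q.2 < y} := by
      intro x
      rw [hρ, Measure.map_apply measurable_fst measurableSet_Ico,
        Measure.restrict_apply (measurable_fst measurableSet_Ico)]
      rfl
    have hρu : ρ univ = μ {q | q.2 < y} := by
      rw [hρ, Measure.map_apply measurable_fst MeasurableSet.univ, preimage_univ,
        Measure.restrict_apply_univ]
    have hm1 : MeasurableSet {x : ℝ | φ x = 1} :=
      (isClosed_singleton.preimage hφ1.continuous).measurableSet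
    have hρ1 : ∀ᵐ q ∂ρ, φ q = 1 := by
      rw [hρ, ae_map_iff measurable_fst.aemeasurable hm1, ae_restrict_iff' hmy]
      filter_upwards [C.carried] with q hq hqy
      obtain ⟨K, hK, hqK, -⟩ := hq
      have h3 := Hair.mem_car.1 hqK
      have hqy' : q.2 < y := hqy
      refine hχG (q.1, y) ?_
      simp only [un, mem_iUnion]
      exact ⟨K, hK, Hair.mem_car.2 ⟨h3.1, by linarith [h3.2.1], by linarith [(C.crs K hK).2]⟩⟩
    have hint : IntervalIntegrable (fun s => X2 (s, y)) volume a1 b1 := ii_of_memLp h2 _ _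
    have key := flux_line (k := f (a1, y)) hab1 hφ1 hφ0 hρ1 hint
      (F := fun x => f (a1, y) - (∫ s in a1..x, X2 (s, y)) - (ρ (Ico a1 x)).toReal)
      (fun x _ => rfl)
    rw [hρu] at key
    rw [← key]
    have e1 : ∫ x, (gx χ (x, y) * f (x, y) - χ (x, y) * X2 (x, y)) =
        ∫ x in a1..b1, (gx χ (x, y) * f (x, y) - χ (x, y) * X2 (x, y)) := by
      rw [intervalIntegral.integral_of_le hab1, ← integral_indicator measurableSet_Ioc]
      congr 1
      funext x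
      by_cases hx : x ∈ Ioc a1 b1
      · rw [indicator_of_mem hx]
      · rw [indicator_of_notMem hx, hgx, hφd0 x fun h => hx ⟨h.1, h.2.le⟩]
        have : χ (x, y) = 0 := hφ0 x fun h => hx ⟨h.1, h.2.le⟩
        rw [this]; ring
    rw [e1]
    refine intervalIntegral.integral_congr_ae ?_
    filter_upwards [C.ae_col] with x hx hxI
    rw [uIoc_of_le hab1] at hxI
    have h5 := h1 hy hyT a1 ⟨ha1, lt_of_le_of_lt hab1 hb1⟩ x ⟨ha1.trans hxI.1, hxI.2.trans_lt hb1⟩
      hxI.1.le ha1S (hx y)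
    have h6 : f (x, y) = f (a1, y) - (∫ s in a1..x, X2 (s, y)) - (ρ (Ico a1 x)).toReal := by
      rw [hρI x]; linarith
    rw [hgx, h6]

end Crest.Agent.R105.Psi11_425
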