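import Crest.Agent.R105.Hq1_363
import Crest.Agent.R105.Psi11_425

/-!
Row 105, S0138, Lemma A with squares (helper363): the flux of one half together with its part of
the strip, and the two halves glued.
-/

open MeasureTheory Set Filter Topology
open scoped NNReal ENNReal ContDiff

namespace Crest.Agent.R105.Hq_363

open Sq_87 CF_363 Mp_87 Psi7_425

variable {ι : Type} {Q : Rects ι} {S : Set (ℝ × ℝ)}
variable {a b c B M : ℝ} {X1 X2 ψ Ψ χ : ℝ × ℝ → ℝ} {μ : Measure (ℝ × ℝ)} {f : ι → ℝ}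

/-- one half of the data (lower problem), everything the flux computation uses -/
structure HalfD (Q : Rects ι) (S : Set (ℝ × ℝ)) (a b c B : ℝ) (X1 X2 ψ Ψ : ℝ × ℝ → ℝ)
    (μ : Measure (ℝ × ℝ)) (f : ι → ℝ) : Prop where
  L : LinesI a b c B 1 X1 X2 μ ψ Ψ
  mS : MeasurableSet S
  XS : ∀ᵐ p : ℝ × ℝ, p ∈ S → X2 p = 0
  XB : ∀ p : ℝ × ℝ, B ≤ p.2 → X2 p = 0
  dis : Pairwise (fun i j => Disjoint (Q.op i) (Q.op j))
  box : ∀ i, Q.op i ⊆ Ioo a b ×ˢ Ioo c B
  ly : ∀ i, ∀ᵐ y, y ∈ Ioo (Q.y i - Q.h2 i) (Q.y i + Q.h2 i) →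
    |∫ s in Ioo (Q.x i - Q.h1 i) (Q.x i + Q.h1 i), X2 (s, y)| ≤ 2 * f i
  f0 : ∀ i, 0 ≤ f i
  sf : Summable fun i => Q.h2 i * f i
  car : ∀ᵐ q ∂μ, q.2 ≤ B

/-- the cut-off for one half: `M` = top of the part of the strip -/
structure CutD (Q : Rects ι) (S Z : Set (ℝ × ℝ)) (a b c M : ℝ) (μ : Measure (ℝ × ℝ))
    (χ : ℝ × ℝ → ℝ) : Prop where
  sm : ContDiff ℝ 1 χ
  cs : HasCompactSupport χ
  ts : tsupport χ ⊆ Ioo a b ×ˢ univ
  nn : ∀ p, 0 ≤ χ p
  le : ∀ p, χ p ≤ 1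
  gx : ∀ p ∈ Q.un ∪ S ∪ Z, gx χ p = 0
  ct : ∀ i, ∃ k, ∀ p ∈ Q.op i, χ p = k
  one : ∀ y, c < y → y < M → ∀ᵐ q ∂μ, q.2 < y → χ (q.1, y) = 1

theorem gx_zero_of_notMem {χ : ℝ × ℝ → ℝ} {p : ℝ × ℝ} (h : p ∉ tsupport χ) : gx χ p = 0 := by
  have : fderiv ℝ χ p = 0 := by
    have h1 := tsupport_fderiv_subset (𝕜 := ℝ) (f := χ)
    exact image_eq_zero_of_notMem_tsupport fun h' => h (h1 h')
  show fderiv ℝ χ p _ = 0
  rw [this]; rfl

theorem continuous_gx {χ : ℝ × ℝ → ℝ} (hχ : ContDiff ℝ 1 χ) : Continuous (gx χ) := by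
  unfold gx
  exact (hχ.continuous_fderiv (by norm_num)).clm_apply continuous_const

theorem bdd_gx {χ : ℝ × ℝ → ℝ} (hχ : ContDiff ℝ 1 χ) (hc : HasCompactSupport χ) :
    ∃ C, ∀ p, ‖gx χ p‖ ≤ C := by
  refine (continuous_gx hχ).bounded_above_of_compact_support (hc.mono' ?_)
  intro p hp
  by_contra hcon
  exact hp (gx_zero_of_notMem hcon)

theorem measurable_lam [IsFiniteMeasure μ] : Measurable (lam μ) :=
  (lam_mono μ).measurable

/-- the flux on a level of the strip -/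
theorem flux_strip [IsFiniteMeasure μ] (hab : a < b) (hχ : ContDiff ℝ 1 χ)
    (hχc : HasCompactSupport χ) (hχs : tsupport χ ⊆ Ioo a b ×ˢ univ) {y : ℝ}
    (h1 : ∀ᵐ q ∂μ, χ (q.1, y) = 1) :
    ∫ x, gx χ (x, y) * (-lam μ x) = (μ univ).toReal := by
  obtain ⟨hc', hs'⟩ := line_x_support hχc y
  set φ : ℝ → ℝ := fun x => χ (x, y) with hφ
  have hφ1 : ContDiff ℝ 1 φ := hχ.comp (by fun_prop)
  have hgx : ∀ x, gx χ (x, y) = deriv φ x := fun x =>
    (Psi8_425.hasDerivAt_x (hχ.differentiable (by norm_num) (x, y))).deriv.symm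
  have hsub : tsupport φ ⊆ Ioo a b := fun x hx => (hχs (hs' hx)).1
  obtain ⟨a1, b1, ha1, hab1, hb1, hab1s⟩ := exists_inner hab hc' hsub
  have hφ0 : ∀ x, x ∉ Ioo a1 b1 → φ x = 0 := fun x hx =>
    image_eq_zero_of_notMem_tsupport (hab1s x hx)
  have hφd0 : ∀ x, x ∉ Ioo a1 b1 → deriv φ x = 0 := fun x hx =>
    image_eq_zero_of_notMem_tsupport fun h =>
      hab1s x hx ((tsupport_deriv_subset (𝕜 := ℝ) (f := φ)) h)
  set ρ : Measure ℝ := μ.map Prod.fst with hρ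
  have hρI : ∀ x, ρ (Ico a1 x) = μ {q | q.1 ∈ Ico a1 x} := by
    intro x
    rw [hρ, Measure.map_apply measurable_fst measurableSet_Ico]
    rfl
  have hρu : ρ univ = μ univ := by
    rw [hρ, Measure.map_apply measurable_fst MeasurableSet.univ, preimage_univ]
  have hm1 : MeasurableSet {x : ℝ | φ x = 1} :=
    (isClosed_singleton.preimage hφ1.continuous).measurableSet
  have hρ1 : ∀ᵐ q ∂ρ, φ q = 1 := by
    rw [hρ, ae_map_iff measurable_fst.aemeasurable hm1]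
    exact h1
  have key := Psi10_425.flux_line (k := -lam μ a1) (h := fun _ => 0) hab1 hφ1 hφ0 hρ1
    intervalIntegrable_const
    (F := fun x => -lam μ a1 - (∫ _ in a1..x, (0:ℝ)) - (ρ (Ico a1 x)).toReal)
    (fun x _ => rfl)
  rw [hρu] at key
  rw [← key]
  have e1 : ∫ x, gx χ (x, y) * (-lam μ x) = ∫ x in a1..b1, gx χ (x, y) * (-lam μ x) := by
    rw [intervalIntegral.integral_of_le hab1, ← integral_indicator measurableSet_Ioc]
    congr 1
    funext x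
    by_cases hx : x ∈ Ioc a1 b1
    · rw [indicator_of_mem hx]
    · rw [indicator_of_notMem hx, hgx, hφd0 x fun h => hx ⟨h.1, h.2.le⟩]
      ring
  rw [e1]
  refine intervalIntegral.integral_congr fun x hx => ?_
  rw [uIcc_of_le hab1] at hx
  have h5 := Psi11_425.lam_sub (μ := μ) hx.1
  show gx χ (x, y) * (-lam μ x) = _
  rw [hgx, hρI x]
  simp only [intervalIntegral.integral_zero, sub_zero, mul_zero]
  rw [← h5]
  ring

/-- **one half with its part of the strip** -/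
theorem HalfD.flux [Countable ι] [IsFiniteMeasure μ] (H : HalfD Q S a b c B X1 X2 ψ Ψ μ f)
    (hab : a < b) (hcB : c < B) (hBM : B ≤ M) {Z : Set (ℝ × ℝ)} (hZ : MeasurableSet Z)
    (hZl : ∀ᵐ p : ℝ × ℝ, p ∈ Ioo a b ×ˢ Ioo c B → (p ∈ Z ↔ p ∈ Q.un ∪ S))
    (C : CutD Q S Z a b c M μ χ) :
    IntegrableOn (fun p => gx χ p * ψ p - χ p * X2 p) (Ioo a b ×ˢ Ioo c M) ∧
    (M - B) * (μ univ).toReal - ∑' i, (On Q χ).indicator (fun i => 4 * (Q.h2 i * f i)) i ≤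
      ∫ p in (Ioo a b ×ˢ Ioo c M) \ Z, (gx χ p * ψ p - χ p * X2 p) := by
  have L := H.L
  obtain ⟨C2, hC2⟩ := bdd_gx C.sm C.cs
  have hR1 : MeasurableSet (Ioo a b ×ˢ Ioo c B) := measurableSet_Ioo.prod measurableSet_Ioo
  have hR2 : MeasurableSet (Ioo a b ×ˢ Ico B M) := measurableSet_Ioo.prod measurableSet_Ico
  have hRR : Ioo a b ×ˢ Ioo c M = (Ioo a b ×ˢ Ioo c B) ∪ (Ioo a b ×ˢ Ico B M) := by
    rw [← prod_union]
    congr 1
    ext y
    simp only [mem_union, mem_Ioo, mem_Ico]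
    constructor
    · rintro ⟨h1, h2⟩
      rcases lt_or_ge y B with h | h
      · exact Or.inl ⟨h1, h⟩
      · exact Or.inr ⟨h, h2⟩
    · rintro (⟨h1, h2⟩ | ⟨h1, h2⟩)
      · exact ⟨h1, by linarith⟩
      · exact ⟨by linarith, h2⟩
  have hdis : Disjoint (Ioo a b ×ˢ Ioo c B) (Ioo a b ×ˢ Ico B M) := by
    rw [Set.disjoint_left]
    rintro p ⟨-, -, h⟩ ⟨-, h', -⟩
    exact absurd h' (not_le.2 h)
  set F : ℝ × ℝ → ℝ := fun p => gx χ p * ψ p - χ p * X2 p with hF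
  have hae : ∀ᵐ p : ℝ × ℝ, p ∈ Ioo a b ×ˢ Ioo c B → gx χ p * Ψ p - χ p * X2 p = F p := by
    filter_upwards [L.E] with p hp hpR
    rw [hp hpR.1 hpR.2.1]
  have i1 : IntegrableOn F (Ioo a b ×ˢ Ioo c B) := by
    refine (integrableOn_flux L C.sm C.cs).congr ?_
    rw [EventuallyEq, ae_restrict_iff' hR1]
    exact hae
  -- the strip
  have hFs : ∀ p ∈ Ioo a b ×ˢ Ico B M, F p = gx χ p * (-lam μ p.1) := by
    intro p hp
    show gx χ p * ψ p - χ p * X2 p = _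
    rw [L.strip p hp.2.1, H.XB p hp.2.1]; ring
  have hsm : Measurable fun p : ℝ × ℝ => -lam μ p.1 := (measurable_lam.comp measurable_fst).neg
  have hfin : volume (Ioo a b ×ˢ Ico B M : Set (ℝ × ℝ)) ≠ ⊤ := by
    rw [Measure.volume_eq_prod, Measure.prod_prod]
    simp [Real.volume_Ioo, Real.volume_Ico, ENNReal.mul_eq_top]
  have i2' : IntegrableOn (fun p : ℝ × ℝ => gx χ p * (-lam μ p.1)) (Ioo a b ×ˢ Ico B M) := by
    have h1 : IntegrableOn (fun p : ℝ × ℝ => -lam μ p.1) (Ioo a b ×ˢ Ico B M) := by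
      refine Measure.integrableOn_of_bounded (M := (μ univ).toReal) hfin
        hsm.aestronglyMeasurable (Eventually.of_forall fun p => ?_)
      rw [norm_neg, Real.norm_eq_abs]
      exact abs_lam_le μ _
    exact h1.bdd_mul (c := C2) (continuous_gx C.sm).aestronglyMeasurable
      (Eventually.of_forall hC2)
  have i2 : IntegrableOn F (Ioo a b ×ˢ Ico B M) := by
    refine i2'.congr ?_
    rw [EventuallyEq, ae_restrict_iff' hR2]
    exact Eventually.of_forall fun p hp => (hFs p hp).symm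
  have i12 : IntegrableOn F (Ioo a b ×ˢ Ioo c M) := by
    rw [hRR]; exact i1.union i2
  refine ⟨i12, ?_⟩
  have es : (Ioo a b ×ˢ Ioo c M) \ Z = ((Ioo a b ×ˢ Ioo c B) \ Z) ∪ ((Ioo a b ×ˢ Ico B M) \ Z) := by
    rw [hRR, union_sdiff_distrib]
  rw [es, setIntegral_union (hdis.mono sdiff_subset sdiff_subset) (hR2.diff hZ)
    (i1.mono_set sdiff_subset) (i2.mono_set sdiff_subset)]
  -- lower part
  have k1 := flux_half (χ := χ) L hab H.mS H.XS H.dis H.box H.ly H.f0 H.sf C.sm C.cs C.ts C.nn C.le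
    (fun p hp => C.gx p (Or.inl hp)) C.ct (fun y hy hyB => C.one y hy (lt_of_lt_of_le hyB hBM))
  have k2 : ∫ p in (Ioo a b ×ˢ Ioo c B) \ (Q.un ∪ S), (gx χ p * Ψ p - χ p * X2 p) =
      ∫ p in (Ioo a b ×ˢ Ioo c B) \ Z, F p := by
    have h1 : ((Ioo a b ×ˢ Ioo c B) \ (Q.un ∪ S) : Set (ℝ × ℝ)) =ᵐ[volume]
        ((Ioo a b ×ˢ Ioo c B) \ Z : Set (ℝ × ℝ)) := by
      rw [eventuallyEq_set]
      filter_upwards [hZl] with p hp
      simp only [Set.mem_sdiff]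
      constructor
      · rintro ⟨h1, h2⟩
        exact ⟨h1, fun h => h2 ((hp h1).1 h)⟩
      · rintro ⟨h1, h2⟩
        exact ⟨h1, fun h => h2 ((hp h1).2 h)⟩
    rw [setIntegral_congr_set h1]
    refine setIntegral_congr_ae (hR1.diff hZ) ?_
    filter_upwards [hae] with p hp hpm
    exact hp hpm.1
  rw [k2] at k1
  have k3 : 0 ≤ ∫ y in Ioo c B, (μ {q | q.2 < y}).toReal :=
    integral_nonneg fun y => ENNReal.toReal_nonneg
  -- strip part
  have k4 : ∫ p in (Ioo a b ×ˢ Ico B M) \ Z, F p = (M - B) * (μ univ).toReal := by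
    have h1 : ∫ p in (Ioo a b ×ˢ Ico B M) \ Z, F p =
        ∫ p in Ioo a b ×ˢ Ico B M, gx χ p * (-lam μ p.1) := by
      have h2 : ∫ p in (Ioo a b ×ˢ Ico B M) ∩ Z, F p = 0 := by
        rw [← integral_zero (ℝ × ℝ) ℝ (μ := volume.restrict ((Ioo a b ×ˢ Ico B M) ∩ Z))]
        refine setIntegral_congr_fun (hR2.inter hZ) fun p hp => ?_
        show F p = 0
        rw [hFs p hp.1, C.gx p (Or.inr hp.2)]; ring
      have h3 := integral_inter_add_sdiff (μ := (volume : Measure (ℝ × ℝ))) hZ i2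
      rw [h2, zero_add] at h3
      rw [h3]
      exact setIntegral_congr_fun hR2 hFs
    rw [h1]
    have h4 : IntegrableOn (fun p : ℝ × ℝ => gx χ p * (-lam μ p.1)) (Ioo a b ×ˢ Ioo B M) :=
      i2'.mono_set (prod_mono_right Ioo_subset_Ico_self)
    have h5 : (Ioo a b ×ˢ Ico B M : Set (ℝ × ℝ)) =ᵐ[volume] (Ioo a b ×ˢ Ioo B M : Set (ℝ × ℝ)) := by
      rw [Measure.volume_eq_prod]
      exact Measure.set_prod_ae_eq (ae_eq_refl _) Ioo_ae_eq_Ico.symm
    rw [setIntegral_congr_set h5, integral_rect_y h4]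
    have h6 : ∀ y ∈ Ioo B M, ∫ x in Ioo a b, gx χ (x, y) * (-lam μ x) = (μ univ).toReal := by
      intro y hy
      have e0 : ∀ x, x ∉ Ioo a b → gx χ (x, y) * (-lam μ x) = 0 := by
        intro x hx
        rw [gx_zero_of_notMem fun h => hx (C.ts h).1]; ring
      rw [setIntegral_eq_integral_of_forall_compl_eq_zero e0]
      refine flux_strip hab C.sm C.cs C.ts ?_
      filter_upwards [C.one y (hcB.trans hy.1) hy.2, H.car] with q h7 h8
      exact h7 (lt_of_le_of_lt h8 hy.1)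
    rw [setIntegral_congr_fun measurableSet_Ioo h6, setIntegral_const, smul_eq_mul,
      Measure.real, Real.volume_Ioo, ENNReal.toReal_ofReal (by linarith)]
  rw [k4]
  linarith

end Crest.Agent.R105.Hq_363
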