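import Crest.Agent.R105.SqV_87

/-! Row 105, S0138, exact squares: small oscillation of the stream function near every admissible
point which is not inside a charged square. -/

open MeasureTheory Set Filter Topology
open scoped NNReal ENNReal

namespace Crest.Agent.R105.Sq_87

open Crest.Agent.R105.Mp_87 (Rc measurableSet_Rc restrict_Rc cs_line)
open Crest.Agent.R105.CF_363 (Hair)

variable {ι : Type} {Q : Rects ι} {S : Set (ℝ × ℝ)}
variable {a b c B σ : ℝ} {X X1 X2 ψ Ψ : ℝ × ℝ → ℝ} {μ : Measure (ℝ × ℝ)} {f : ι → ℝ}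

/-- localised flux bound for the field on the square `i` near `p0`: only the part of the measure
`ν` (variation of the flux measure of the square) near the point counts -/
def LocF (Q : Rects ι) (i : ι) (X : ℝ × ℝ → ℝ) (ν : Measure (ℝ × ℝ)) : Prop :=
  ∀ u v r : ℝ, 0 < r → ∀ P : Set (ℝ × ℝ), MeasurableSet P →
    (∀ p q : ℝ × ℝ, q ∈ Rc (u - 2 * r) (u + 2 * r) (v - 2 * r) (v + 2 * r) →
      dist q p ≤ 3 * max (Q.h1 i) (Q.h2 i) * (1 - Q.gau i q) → p ∈ P) →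
    ∫ p in Q.op i ∩ Rc (u - 2 * r) (u + 2 * r) (v - 2 * r) (v + 2 * r), |X p| ≤
      4 * r * (ν P).toReal

theorem tendsto_closedBall {ν : Measure (ℝ × ℝ)} [IsFiniteMeasure ν] {p0 : ℝ × ℝ}
    (hν : ν {p0} = 0) {C : ℝ} (hC : 0 < C) :
    Tendsto (fun r : ℝ => (ν (Metric.closedBall p0 (C * r))).toReal) (𝓝[>] 0) (𝓝 0) := by
  have h1 : Tendsto (fun r : ℝ => ν (Metric.closedBall p0 (C * r)))
      (𝓝[>] 0) (𝓝 (ν (⋂ r > (0:ℝ), Metric.closedBall p0 (C * r)))) := by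
    refine tendsto_measure_biInter_gt (fun r _ => ?_) (fun i j _ hij => ?_) ⟨1, one_pos,
      measure_ne_top _ _⟩
    · exact Metric.isClosed_closedBall.measurableSet.nullMeasurableSet
    · exact Metric.closedBall_subset_closedBall (mul_le_mul_of_nonneg_left hij hC.le)
  have h2 : ν (⋂ r > (0:ℝ), Metric.closedBall p0 (C * r)) = 0 := by
    refine measure_mono_null ?_ hν
    intro q hq
    simp only [mem_iInter, Metric.mem_closedBall] at hq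
    rw [mem_singleton_iff, ← dist_le_zero]
    apply le_of_forall_pos_le_add
    intro ε hε
    have := hq (ε / C) (by positivity)
    rw [mul_div_cancel₀ _ hC.ne'] at this
    linarith
  rw [h2] at h1
  have h3 := (ENNReal.tendsto_toReal ENNReal.zero_ne_top).comp h1
  rw [ENNReal.toReal_zero] at h3
  exact h3

theorem loc_lim (i : ι) {ν : Measure (ℝ × ℝ)} [IsFiniteMeasure ν] (hF : LocF Q i X ν)
    {u v : ℝ} (hp0 : (u, v) ∉ Q.op i) (hν : ν {(u, v)} = 0) :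
    Tendsto (fun r : ℝ => r⁻¹ *
      ∫ p in Q.op i ∩ Rc (u - 2 * r) (u + 2 * r) (v - 2 * r) (v + 2 * r), |X p|) (𝓝[>] 0) (𝓝 0) := by
  set G := (Q.h1 i)⁻¹ + (Q.h2 i)⁻¹ with hG
  have hGn : 0 ≤ G := gau_const_nonneg Q i
  set m := max (Q.h1 i) (Q.h2 i) with hm
  have hm0 : 0 < m := lt_max_of_lt_left (Q.p1 i)
  set C := 3 * m * (G * 2) + 2 with hC
  have hC0 : 0 < C := by positivity
  have hlim := (tendsto_closedBall hν hC0).const_mul 4
  rw [mul_zero] at hlim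
  refine squeeze_zero' ?_ ?_ hlim
  · filter_upwards [self_mem_nhdsWithin] with r hr
    exact mul_nonneg (inv_pos.mpr hr).le (integral_nonneg fun _ => abs_nonneg _)
  · filter_upwards [self_mem_nhdsWithin] with r hr
    have hr' : 0 < r := hr
    have h1 := hF u v r hr' (Metric.closedBall (u, v) (C * r))
      Metric.isClosed_closedBall.measurableSet (by
        intro p q hq hd
        have hq0 : dist q (u, v) ≤ 2 * r := by
          rw [Prod.dist_eq, Real.dist_eq, Real.dist_eq]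
          apply max_le <;> rw [abs_le]
          · constructor <;> linarith [hq.1.1, hq.1.2]
          · constructor <;> linarith [hq.2.1, hq.2.2]
        have hg0 : 1 ≤ Q.gau i (u, v) := by
          by_contra hcon
          push Not at hcon
          exact hp0 ((Q.gau_lt i _).mp hcon)
        have hg1 := (abs_le.mp (Q.gau_lip i q (u, v))).1
        have hg2 : 1 - Q.gau i q ≤ G * (2 * r) := by
          have : G * dist q (u, v) ≤ G * (2 * r) := mul_le_mul_of_nonneg_left hq0 hGn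
          linarith
        have hd2 : dist q p ≤ 3 * m * (G * (2 * r)) :=
          hd.trans (mul_le_mul_of_nonneg_left hg2 (by positivity))
        rw [Metric.mem_closedBall]
        calc dist p (u, v) ≤ dist p q + dist q (u, v) := dist_triangle _ _ _
          _ ≤ 3 * m * (G * (2 * r)) + 2 * r := by
              rw [dist_comm p q]; exact add_le_add hd2 hq0
          _ = C * r := by rw [hC]; ring)
    calc r⁻¹ * ∫ p in Q.op i ∩ Rc (u - 2 * r) (u + 2 * r) (v - 2 * r) (v + 2 * r), |X p|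
        ≤ r⁻¹ * (4 * r * (ν (Metric.closedBall (u, v) (C * r))).toReal) :=
          mul_le_mul_of_nonneg_left h1 (inv_pos.mpr hr').le
      _ = 4 * (ν (Metric.closedBall (u, v) (C * r))).toReal := by
          field_simp

/-- all the data of the squares which are needed for continuity -/
structure SqFlux (Q : Rects ι) (X1 X2 : ℝ × ℝ → ℝ) (f : ι → ℝ) (s : ι → ℝ) (q : ι → ℝ × ℝ)
    (ν : ι → Measure (ℝ × ℝ)) : Prop where
  P : Pack Q s q
  F : Flux3 Q X1 X2 f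
  fs : Summable fun i => f i ^ 2
  fin : ∀ i, IsFiniteMeasure (ν i)
  na : ∀ i, ∀ p, ν i {p} = 0
  l1 : ∀ i, LocF Q i X1 (ν i)
  l2 : ∀ i, LocF Q i X2 (ν i)

/-- points at which the maximum principle can be used in all small squares -/
def AdmQ (a b c : ℝ) (S : Set (ℝ × ℝ)) (μ : Measure (ℝ × ℝ)) (J : ℕ → Finset Hair) :
    Set (ℝ × ℝ) :=
  {z | ∃ r > 0, a < z.1 - 2 * r ∧ z.1 + 2 * r < b ∧ c < z.2 - 2 * r ∧
    (∀ x ∈ Icc (z.1 - 2 * r) (z.1 + 2 * r), μ {q | q.1 = x ∧ q.2 < z.2 + 2 * r} = 0) ∧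
    (∀ n, ∀ K ∈ J n, μ {q | q.1 = K.x ∧ q.2 < K.t} ≠ 0 →
      K.x ∈ Ioo (z.1 - 2 * r) (z.1 + 2 * r) → K.t ≤ z.2 - 2 * r ∨ z.2 + 2 * r ≤ K.b) ∧
    volume (S ∩ Rc (z.1 - 2 * r) (z.1 + 2 * r) (z.2 - 2 * r) (z.2 + 2 * r)) = 0}

theorem admQ_shrink {J : ℕ → Finset Hair} {z z' : ℝ × ℝ} {r r' : ℝ}
    (h1 : a < z.1 - 2 * r) (h2 : z.1 + 2 * r < b) (h3 : c < z.2 - 2 * r)
    (h4 : ∀ x ∈ Icc (z.1 - 2 * r) (z.1 + 2 * r), μ {q | q.1 = x ∧ q.2 < z.2 + 2 * r} = 0)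
    (h5 : ∀ n, ∀ K ∈ J n, μ {q | q.1 = K.x ∧ q.2 < K.t} ≠ 0 →
      K.x ∈ Ioo (z.1 - 2 * r) (z.1 + 2 * r) → K.t ≤ z.2 - 2 * r ∨ z.2 + 2 * r ≤ K.b)
    (h6 : volume (S ∩ Rc (z.1 - 2 * r) (z.1 + 2 * r) (z.2 - 2 * r) (z.2 + 2 * r)) = 0)
    (hx1 : z.1 - 2 * r ≤ z'.1 - 2 * r') (hx2 : z'.1 + 2 * r' ≤ z.1 + 2 * r)
    (hy1 : z.2 - 2 * r ≤ z'.2 - 2 * r') (hy2 : z'.2 + 2 * r' ≤ z.2 + 2 * r) :
    a < z'.1 - 2 * r' ∧ z'.1 + 2 * r' < b ∧ c < z'.2 - 2 * r' ∧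
    (∀ x ∈ Icc (z'.1 - 2 * r') (z'.1 + 2 * r'), μ {q | q.1 = x ∧ q.2 < z'.2 + 2 * r'} = 0) ∧
    (∀ n, ∀ K ∈ J n, μ {q | q.1 = K.x ∧ q.2 < K.t} ≠ 0 →
      K.x ∈ Ioo (z'.1 - 2 * r') (z'.1 + 2 * r') → K.t ≤ z'.2 - 2 * r' ∨ z'.2 + 2 * r' ≤ K.b) ∧
    volume (S ∩ Rc (z'.1 - 2 * r') (z'.1 + 2 * r') (z'.2 - 2 * r') (z'.2 + 2 * r')) = 0 := by
  refine ⟨by linarith, by linarith, by linarith, fun x hx => ?_, fun n K hK hne hKx => ?_, ?_⟩
  · refine measure_mono_null ?_ (h4 x ⟨by linarith [hx.1], by linarith [hx.2]⟩)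
    rintro q ⟨q1, q2⟩
    exact ⟨q1, by linarith⟩
  · rcases h5 n K hK hne ⟨by linarith [hKx.1], by linarith [hKx.2]⟩ with h | h
    · left; linarith
    · right; linarith
  · refine measure_mono_null (inter_subset_inter_right _ ?_) h6
    rintro p ⟨hp1, hp2⟩
    exact ⟨⟨by linarith [hp1.1], by linarith [hp1.2]⟩, by linarith [hp2.1], by linarith [hp2.2]⟩

theorem isOpen_AdmQ {J : ℕ → Finset Hair} : IsOpen (AdmQ a b c S μ J) := by
  rw [isOpen_iff_mem_nhds]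
  rintro z ⟨r, hr, h1, h2, h3, h4, h5, h6⟩
  have hnh : Ioo (z.1 - r) (z.1 + r) ×ˢ Ioo (z.2 - r) (z.2 + r) ∈ 𝓝 z :=
    (isOpen_Ioo.prod isOpen_Ioo).mem_nhds ⟨⟨by linarith, by linarith⟩, by linarith, by linarith⟩
  refine mem_of_superset hnh ?_
  rintro z' ⟨hz1, hz2⟩
  exact ⟨r / 2, by positivity, admQ_shrink h1 h2 h3 h4 h5 h6 (by linarith [hz1.1])
    (by linarith [hz1.2]) (by linarith [hz2.1]) (by linarith [hz2.2])⟩

/-- **Small oscillation near every admissible point off the open squares.** -/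
theorem small_oscQ [IsFiniteMeasure μ] [Countable ι] (L : LinesI a b c B σ X1 X2 μ ψ Ψ)
    (hσ : σ = 1 ∨ σ = -1) (D : SqData Q S a b c B X1 X2 μ f)
    {J : ℕ → Finset Hair} {z : ℕ → ℝ × ℝ → ℝ} {κ : Hair → ℝ} {ρ : ℕ → ι → ℝ}
    (A : ApprQ Q S a b c B σ X1 X2 μ Ψ f J z κ ρ) {s : ι → ℝ} {q : ι → ℝ × ℝ}
    {ν : ι → Measure (ℝ × ℝ)} (F : SqFlux Q X1 X2 f s q ν) {p0 : ℝ × ℝ}
    (hp0 : p0 ∈ AdmQ a b c S μ J) (hpQ : p0 ∉ Q.un) {ε : ℝ} (hε : 0 < ε) :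
    ∀ᶠ r in 𝓝[>] (0 : ℝ), ∃ m0 : ℝ, ∀ᵐ p : ℝ × ℝ,
      p ∈ Rc (p0.1 - r) (p0.1 + r) (p0.2 - r) (p0.2 + r) → p ∉ Q.un → |ψ p - m0| ≤ ε := by
  obtain ⟨r0, hr0, h1, h2, h3, h4, h5, h6⟩ := hp0
  obtain ⟨u, v⟩ := p0
  simp only at h1 h2 h3 h4 h5 h6
  have hni : ∀ i, (u, v) ∉ Q.op i := fun i h => hpQ (mem_iUnion.mpr ⟨i, h⟩)
  have hfin := F.fin
  have av1 := avg_lim (X := X1) (S := S) F.P F.fs L.L1 D.V1 D.mS D.dis (u := u) (v := v)
    (fun i r hr => term_x F.F D.f0 F.P.w1 i L.L1 hr) ⟨r0, hr0, h6⟩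
    (fun i => loc_lim i (F.l1 i) (hni i) (F.na i _))
  have av2 := avg_lim (X := X2) (S := S) F.P F.fs L.L2 D.V2 D.mS D.dis (u := u) (v := v)
    (fun i r hr => term_y F.F D.f0 F.P.w2 i L.L2 hr) ⟨r0, hr0, h6⟩
    (fun i => loc_lim i (F.l2 i) (hni i) (F.na i _))
  have fl := Psi_425.tendsto_flux (μ := μ) (u := u) (t := v + 2 * r0)
    (h4 u ⟨by linarith, by linarith⟩)
  have e1 := (tendsto_order.1 av1).2 (ε / 3) (by positivity)
  have e2 := (tendsto_order.1 av2).2 (ε / 3) (by positivity)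
  have e3 := (tendsto_order.1 fl).2 (ε / 3) (by positivity)
  filter_upwards [e1, e2, e3, Ioo_mem_nhdsGT hr0] with r k1 k2 k3 hr
  have hshr := admQ_shrink (a := a) (b := b) (c := c) (S := S) (μ := μ) (J := J) (z := (u, v))
    (z' := (u, v)) (r := r0) (r' := r) h1 h2 h3 h4 h5 h6 (by simp only; linarith [hr.2])
    (by simp only; linarith [hr.2]) (by simp only; linarith [hr.2]) (by simp only; linarith [hr.2])
  obtain ⟨g1, g2, g3, g4, g5, g6⟩ := hshr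
  obtain ⟨m0, hm0⟩ := oscQ L hσ D A hr.1 g1 g2 g3 g4 g5 g6
  refine ⟨m0, ?_⟩
  filter_upwards [hm0] with p hp hpR hpu
  refine (hp hpR hpu).trans ?_
  have k4 : (μ {q | q.1 ∈ Ico (u - 2 * r) (u + 2 * r) ∧ q.2 < v + 2 * r}).toReal ≤
      (μ {q | q.1 ∈ Icc (u - 2 * r) (u + 2 * r) ∧ q.2 < v + 2 * r0}).toReal := by
    apply ENNReal.toReal_mono (measure_ne_top _ _)
    apply measure_mono
    rintro q ⟨q1, q2⟩
    exact ⟨⟨q1.1, q1.2.le⟩, by linarith [hr.2]⟩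
  linarith

end Crest.Agent.R105.Sq_87
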