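import Crest.Agent.R105.SqW_832
import Crest.Agent.R105.SqX_87

/-! Row 105, S0138, exact squares, leaf (W) of helper87 #10566 over `SqFlux` / `AdmQ` (helper832). -/

open MeasureTheory Set Filter Topology
open scoped NNReal

namespace Crest.Agent.R105.SqW_832

open Crest.Agent.R105.Sq_87
open Crest.Agent.R105.Mp_87 (Rc)
open Crest.Agent.R105.CF_363 (Hair)

variable {ι : Type} {Q : Rects ι} {S : Set (ℝ × ℝ)}
variable {a b c B σ : ℝ} {X1 X2 ψ Ψ : ℝ × ℝ → ℝ} {μ : Measure (ℝ × ℝ)} {f : ι → ℝ}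

theorem f3h_of_flux3 (F : Flux3 Q X1 X2 f) (f0 : ∀ i, 0 ≤ f i) : F3H Q X1 X2 f where
  F31 := by
    intro i a' b' c' d' h
    rcases le_or_gt c' d' with h1 | h1
    · exact F.x i a' b' c' d' h h1
    · rw [Ioo_eq_empty (not_lt.2 h1.le), prod_empty, inter_empty, setIntegral_empty]
      exact mul_nonneg (by linarith) (by linarith [f0 i])
  F32 := by
    intro i a' b' c' d' h
    rcases le_or_gt a' b' with h1 | h1
    · exact F.y i a' b' c' d' h1 h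
    · rw [Ioo_eq_empty (not_lt.2 h1.le), empty_prod, inter_empty, setIntegral_empty]
      exact mul_nonneg (by linarith) (by linarith [f0 i])

/-- a boundary point of a charged square is in no open charged square -/
theorem notMem_un (hdis : Pairwise (fun i j => Disjoint (Q.op i) (Q.op j))) {i : ι} {p : ℝ × ℝ}
    (hp : p ∈ frontier (Q.op i)) : p ∉ Q.un := by
  intro h
  obtain ⟨j, hj⟩ := mem_iUnion.1 h
  by_cases hij : i = j
  · subst hij
    rw [(Q.isOpen_op i).frontier_eq] at hp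
    exact hp.2 hj
  · have h1 : (Q.op j ∩ Q.op i).Nonempty :=
      mem_closure_iff.1 (frontier_subset_closure hp) _ (Q.isOpen_op j) hj
    obtain ⟨w, hw1, hw2⟩ := h1
    exact disjoint_left.1 (hdis hij) hw2 hw1

theorem locQ_of_adm [IsFiniteMeasure μ] [Countable ι] (L : LinesI a b c B σ X1 X2 μ ψ Ψ)
    (D : SqData Q S a b c B X1 X2 μ f) {J : ℕ → Finset Hair} {s : ι → ℝ} {q : ι → ℝ × ℝ}
    {ν : ι → Measure (ℝ × ℝ)} (F : SqFlux Q X1 X2 f s q ν) {p0 : ℝ × ℝ}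
    (hp0 : p0 ∈ AdmQ a b c S μ J) (hpQ : p0 ∉ Q.un) : LocQ S a b c X1 X2 μ J p0 := by
  obtain ⟨r0, hr0, h1, h2, h3, h4, h5, h6⟩ := hp0
  obtain ⟨u, v⟩ := p0
  simp only at h1 h2 h3 h4 h5 h6
  have hni : ∀ i, (u, v) ∉ Q.op i := fun i h => hpQ (mem_iUnion.mpr ⟨i, h⟩)
  have hfin := F.fin
  have av1 := avg_lim (X := X1) (S := S) F.P F.fs L.L1 D.V1 D.mS D.dis (u := u) (v := v)
    (fun i r hr => term_x F.F D.f0 F.P.w1 i L.L1 hr) ⟨r0, hr0, h6⟩
    (fun i => loc_lim i (F.l1 i) (hni i) (F.na i _))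
  have av2 := avg_lim (X := X2) (S := S) F.P F.fs L.L2 D.V2 D.mS D.dis (u := u) (v := v)
    (fun i r hr => term_y F.F D.f0 F.P.w2 i L.L2 hr) ⟨r0, hr0, h6⟩
    (fun i => loc_lim i (F.l2 i) (hni i) (F.na i _))
  exact locQ_of_tendsto hr0 ⟨h1, h2, h3, h4, h5, h6⟩
    (errQ_tendsto hr0 (h4 u ⟨by linarith, by linarith⟩) av1 av2)

/-- **(W)** over `AdmQ`: a representative `g` of `ψ`, continuous on the admissible set off the
open squares, oscillates by at most `4 f i` on the part of the boundary of the square in the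
admissible set; inside the square `ψ` is `4 f i`-close to these values a.e. -/
theorem sqosc_adm [IsFiniteMeasure μ] [Countable ι] (L : LinesI a b c B σ X1 X2 μ ψ Ψ)
    (hσ : σ = 1 ∨ σ = -1) (D : SqData Q S a b c B X1 X2 μ f)
    {J : ℕ → Finset Hair} {z : ℕ → ℝ × ℝ → ℝ} {κ : Hair → ℝ} {ρ : ℕ → ι → ℝ}
    (A : ApprQ Q S a b c B σ X1 X2 μ Ψ f J z κ ρ) {s : ι → ℝ} {q : ι → ℝ × ℝ}
    {ν : ι → Measure (ℝ × ℝ)} (F : SqFlux Q X1 X2 f s q ν) {g : ℝ × ℝ → ℝ}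
    (hc : ContinuousOn g (AdmQ a b c S μ J \ Q.un))
    (hg : ∀ᵐ w : ℝ × ℝ, w ∈ AdmQ a b c S μ J → w ∉ Q.un → g w = ψ w)
    (hd : ∀ p ∈ AdmQ a b c S μ J, p ∉ Q.un → DensQ Q p) (i : ι) :
    (∀ p ∈ frontier (Q.op i) ∩ AdmQ a b c S μ J, ∀ p' ∈ frontier (Q.op i) ∩ AdmQ a b c S μ J,
      |g p - g p'| ≤ 4 * f i) ∧
    (∀ p ∈ frontier (Q.op i) ∩ AdmQ a b c S μ J, ∀ᵐ w : ℝ × ℝ, w ∈ Q.op i → |ψ w - g p| ≤ 4 * f i) := by
  have hF := f3h_of_flux3 F.F D.f0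
  have hO : IsOpen (AdmQ a b c S μ J) := isOpen_AdmQ
  have hloc : ∀ p ∈ frontier (Q.op i) ∩ AdmQ a b c S μ J, ContinuousWithinAt g (Q.un)ᶜ p ∧
      LocQ S a b c X1 X2 μ J p ∧ DensQ Q p := by
    rintro p ⟨hp, hpA⟩
    have hpu := notMem_un D.dis hp
    refine ⟨?_, locQ_of_adm L D F hpA hpu, hd p hpA hpu⟩
    have h1 := hc p ⟨hpA, hpu⟩
    rw [sdiff_eq_compl_inter] at h1
    exact (continuousWithinAt_inter (hO.mem_nhds hpA)).1 h1
  refine ⟨sqosc_cont L hσ D hF A hO hg hloc, fun p hp => ?_⟩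
  obtain ⟨a1, a2, a3⟩ := hloc p hp
  exact sqosc_in L hσ D hF A (frontier_subset_closure hp.1) a2 a3
    (atQ_of_cont a1 (hO.mem_nhds hp.2) hg)

end Crest.Agent.R105.SqW_832
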