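import Crest.Agent.R105.SqJe_361
import Crest.Agent.R105.SqW2_832
import Crest.Agent.R105.Str8_421
import Crest.Agent.R105.Hq2_363
import Crest.Agent.R105.Kbx1_247

/-! Row 105, S0138, Lemma A with exact squares, (L4) (helper361): from the Kantorovich problem of
helper247 to everything the stream function needs (`LowOut`). -/

set_option autoImplicit false

open MeasureTheory Set Filter Topology Metric
open scoped NNReal ENNReal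

namespace Crest.Agent.R105.SqJ_361

open Crest.Agent.R105.CF_363 Crest.Agent.R105.Sq_87 Crest.Agent.R105.Kin_238
open Crest.Agent.R105.Cq_463 Crest.Agent.R105.Exs_992
open Crest.Agent.R105.Knq_247 (QQ HalfQ)
open Crest.Agent.R105.Kbx_247 (QA)
open Crest.Agent.R105.Mp_87 (lam)
open Crest.Agent.R105.Str_421 (FlowF)

variable {E C : Set (ℝ × ℝ)} {𝒬 𝒬' : Set Sqr} {𝓗 : Set Hair} {a b c d B : ℝ}
variable {X1 X2 : ℝ × ℝ → ℝ} {f : {Q : Sqr // Q ∈ 𝒬'} → ℝ}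
variable {νp νm : {Q : Sqr // Q ∈ 𝒬'} → Measure (ℝ × ℝ)} {μ : Measure (ℝ × ℝ)}

/-- the carrier of the multiplier: almost every point lies on a hair which crosses the level, or in
a square which is not charged and crosses the level -/
def Carr (𝒬 𝒬' : Set Sqr) (𝓗 : Set Hair) (B : ℝ) (μ : Measure (ℝ × ℝ)) : Prop :=
  ∀ᵐ q ∂μ, (∃ K ∈ 𝓗, K.x = q.1 ∧ K.b ≤ q.2 ∧ B ≤ K.t) ∨
    ∃ Q ∈ 𝒬, Q ∉ 𝒬' ∧ q ∈ Q.car ∧ B ≤ Q.y + Q.s

/-- **output of the lower half**: `U` = the field with the squares filled -/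
structure LowOut (E : Set (ℝ × ℝ)) (𝒬' : Set Sqr) (𝓗 : Set Hair) (a b c B : ℝ)
    (X1 X2 : ℝ × ℝ → ℝ) (f : {Q : Sqr // Q ∈ 𝒬'} → ℝ)
    (νp νm : {Q : Sqr // Q ∈ 𝒬'} → Measure (ℝ × ℝ)) (μ : Measure (ℝ × ℝ))
    (U1 U2 ψ Ψ : ℝ × ℝ → ℝ) (J : ℕ → Finset Hair) (z : ℕ → ℝ × ℝ → ℝ) (κ : Hair → ℝ)
    (r : ℕ → Ix 𝒬' B → ℝ) : Prop where
  fl : FlowF a b c B 𝓗 U1 U2 μ
  L : LinesI a b c B 1 U1 U2 μ ψ Ψ
  D : SqData (cutR 𝒬' B) (Sl E 𝒬' B) a b c B U1 U2 μ (fun i => f i.1)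
  A : ApprQ (cutR 𝒬' B) (Sl E 𝒬' B) a b c B 1 U1 U2 μ Ψ (fun i => f i.1) J z κ r
  F : SqFlux (cutR 𝒬' B) U1 U2 (fun i => f i.1) (fun i => i.1.1.s) (fun i => (i.1.1.x, i.1.1.y))
    (fun i => νp i.1 + νm i.1)
  H : Hq_363.HalfD (cutR 𝒬' B) (Sl E 𝒬' B) a b c B U1 U2 ψ Ψ μ (fun i => f i.1)
  hJ : ∀ n, ∀ K ∈ J n, K ∈ 𝓗
  T : ∀ K ∈ 𝓗, K.x ∈ Ioo a b → μ {q | q.1 = K.x ∧ q.2 < K.t} = 0 →
    (∀ᵐ y, c < y → y ∈ Ioo K.b K.t → Ψ (K.x, y) = κ K) ∧ (B ≤ K.t → κ K = -lam μ K.x)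
  one : ∀ (i : Ix 𝒬' B) (e : ℝ × ℝ → ℝ) (L : ℝ≥0), LipschitzOnWith L e ((cutR 𝒬' B).op i) →
    ContinuousOn e (cl (cutR 𝒬' B) i) →
    ∫ p in (cutR 𝒬' B).op i, (U1 p * gx e p + U2 p * gy e p) =
      (∫ p, e p ∂νp i.1) - ∫ p, e p ∂νm i.1
  off : ∀ p ∉ (cutR 𝒬' B).un, U1 p = X1 p ∧ U2 p = X2 p
  vanE : ∀ p ∈ E, p ∉ (cutR 𝒬' B).un → U1 p = 0 ∧ U2 p = 0
  z : ∀ p, p ∉ Wo a b c B → U1 p = 0 ∧ U2 p = 0
  na : ∀ i p, νp i {p} = 0 ∧ νm i {p} = 0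
  noat : ∀ p, μ {p} = 0
  la : ∀ i, ∫ p in (cutR 𝒬' B).op i, |U2 p| ≤ 4 * ((cutR 𝒬' B).h2 i * f i.1)
  fz : ∀ i : {Q : Sqr // Q ∈ 𝒬'}, B < i.1.y → f i = 0 ∧ νp i = 0 ∧ νm i = 0

theorem HQ_congr {ι : Type} {Q : Rects ι} {S S' : Set (ℝ × ℝ)} {f : ι → ℝ}
    {np nm : ι → Measure (ℝ × ℝ)}
    (h : HQ 𝓗 a b c B Q S X1 X2 f np nm μ) (hS : Wo a b c B \ S = Wo a b c B \ S') :
    HQ 𝓗 a b c B Q S' X1 X2 f np nm μ where
  m1 := h.m1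
  m2 := h.m2
  L1 := h.L1
  L2 := h.L2
  z1 := hS ▸ h.z1
  z2 := hS ▸ h.z2
  fin := h.fin
  carried := h.carried
  fp := h.fp
  fm := h.fm
  cp := h.cp
  cm := h.cm
  mp := h.mp
  mm := h.mm
  f2 := h.f2
  F := hS ▸ h.F
  cl := hS ▸ h.cl
  ab := h.ab

theorem Wo_sdiff (E : Set (ℝ × ℝ)) : Wo a b c B \ E = Wo a b c B \ (E ∩ {p | p.2 < B}) := by
  ext p
  constructor
  · rintro ⟨h1, h2⟩
    exact ⟨h1, fun h => h2 h.1⟩
  · rintro ⟨h1, h2⟩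
    exact ⟨h1, fun h => h2 ⟨h, h1.2.2⟩⟩

/-- **(L4)** -/
theorem exists_lowOut (hP : BoxP E 𝒬 𝓗 a b c d) (h𝒬 : 𝒬' ⊆ 𝒬) (hab : a < b) (hcB : c < B)
    (gen : ∀ Q ∈ 𝒬', Q.y ≠ B) (hC : C ⊆ Wl a b c B) (H : QQ 𝓗 a b c B (QA 𝒬'))
    (h : HalfQ 𝓗 a b c B E (QA 𝒬') C X1 X2 f νp νm μ)
    (car : Carr 𝒬 𝒬' 𝓗 B μ) (off : ∀ Q ∈ 𝒬', μ Q.car = 0) :
    ∃ U1 U2 ψ Ψ J z κ r,
      LowOut E 𝒬' 𝓗 a b c B X1 X2 f νp νm μ U1 U2 ψ Ψ J z κ r := by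
  have hc : Countable (Ix 𝒬' B) := hP.countable h𝒬
  have hfin := h.fin
  have R := hP.rg (B := B) h𝒬
  have Hq := HQ_congr (HQ.of_half (Q := cutR 𝒬' B) H h hC (φ := Subtype.val)
    Subtype.val_injective (fun i => hP.cl_eq h𝒬 i) (fun j hj => empty_of_notMem gen j hj))
    (Wo_sdiff E)
  obtain ⟨Y1, Y2, F⟩ := Hq.exists_fills R
  have hz1 := Hq.z1
  have hz2 := Hq.z2
  have hWl : ∀ᵐ q ∂μ, q ∈ Wl a b c B := by rw [ae_iff]; exact Hq.carried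
  have hunWo : (cutR 𝒬' B).un ⊆ Wo a b c B := iUnion_subset fun i => R.op_Wo i
  -- squares which are not charged miss the charged rectangles
  have hmiss : ∀ Q ∈ 𝒬, Q ∉ 𝒬' → ∀ p ∈ Q.car, p ∉ (cutR 𝒬' B).un := by
    intro Q hQ hQ' p hp hpu
    obtain ⟨i, hi⟩ := mem_iUnion.1 hpu
    have h1 : Q ≠ i.1.1 := fun h => hQ' (h ▸ i.1.2)
    exact Set.disjoint_left.1 (hP.pic.q.disjoint hQ (h𝒬 i.1.2) h1) hp (op_sub_car i hi)
  -- saturation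
  have sat : ∀ᵐ q ∂μ, (∃ K ∈ 𝓗, K.x = q.1 ∧ K.b ≤ q.2 ∧ B ≤ K.t) ∨
      (∃ α β b0 : ℝ, α < β ∧ α ≤ q.1 ∧ q.1 ≤ β ∧ b0 ≤ q.2 ∧
        ∀ᵐ p : ℝ × ℝ, p.1 ∈ Ioo α β → b0 < p.2 → join (cutR 𝒬' B) X1 Y1 p = 0) := by
    filter_upwards [car] with q hq
    rcases hq with hq | ⟨Q, hQ, hQ', hqQ, hB⟩
    · exact Or.inl hq
    · right
      have hs := Q.hs
      have hq2 := Sqr.mem_car.1 hqQ
      refine ⟨Q.x, Q.x + Q.s, Q.y, by linarith, hq2.1.1, hq2.1.2, hq2.2.1,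
        Eventually.of_forall fun p hp1 hp2 => ?_⟩
      by_cases hpB : p.2 < B
      · have hpQ : p ∈ Q.car := Sqr.mem_car.2 ⟨⟨hp1.1.le, hp1.2.le⟩, hp2.le, by linarith⟩
        rw [join_of_not (hmiss Q hQ hQ' p hpQ)]
        exact hz1 p fun h => h.2 ⟨hP.pic.q.sub Q hQ hpQ, hpB⟩
      · rw [join_of_not fun h => hpB (hunWo h).2.2]
        exact hz1 p fun h => hpB h.1.2.2
  have fl := Hq.flowF R F sat
  have L := Str_421.linesI hab hcB fl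
  -- no mass below the squares
  have nomass : ∀ i : Ix 𝒬' B, μ {q | q.1 ∈ Ioo ((cutR 𝒬' B).x i - (cutR 𝒬' B).h1 i)
      ((cutR 𝒬' B).x i + (cutR 𝒬' B).h1 i) ∧ q.2 < (cutR 𝒬' B).y i + (cutR 𝒬' B).h2 i} = 0 := by
    intro i
    refine measure_mono_null ?_ (ae_iff.1 car)
    rintro q ⟨hq1, hq2⟩ hcon
    have p2 := (cutR 𝒬' B).p2 i
    set m := max q.2 ((cutR 𝒬' B).y i - (cutR 𝒬' B).h2 i) with hm
    have m1 : m < (cutR 𝒬' B).y i + (cutR 𝒬' B).h2 i := max_lt hq2 (by linarith)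
    have m2 : q.2 ≤ m := le_max_left _ _
    have m3 : (cutR 𝒬' B).y i - (cutR 𝒬' B).h2 i ≤ m := le_max_right _ _
    set t := (m + ((cutR 𝒬' B).y i + (cutR 𝒬' B).h2 i)) / 2 with ht
    have hin : ((q.1, t) : ℝ × ℝ) ∈ (cutR 𝒬' B).op i :=
      ⟨hq1, ⟨by simp only [ht]; linarith, by simp only [ht]; linarith⟩⟩
    have htB : t < B := (R.op_Wo i hin).2.2
    have hqt : q.2 ≤ t := by simp only [ht]; linarith
    rcases hcon with ⟨K, hK, hx, hb, hKt⟩ | ⟨Q, hQ, hQ', hqQ, hB⟩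
    · exact Set.disjoint_left.1 (R.hq K hK i) (show ((q.1, t) : ℝ × ℝ) ∈ K.car from
        ⟨hx.symm, hb.trans hqt, htB.le.trans hKt⟩) hin
    · have hq3 := Sqr.mem_car.1 hqQ
      refine hmiss Q hQ hQ' (q.1, t) (Sqr.mem_car.2 ⟨hq3.1, hq3.2.1.trans hqt, ?_⟩)
        (mem_iUnion.2 ⟨i, hin⟩)
      simp only
      linarith
  have D := Hq.sqData R F nomass
  -- no atoms
  have noat : ∀ p, μ {p} = 0 := by
    intro p
    by_cases hp : ∀ i : {Q : Sqr // Q ∈ 𝒬'}, p ∉ QA 𝒬' i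
    · exact SqK_87.nopt H h hC (hP.sqG h𝒬) hp
    · push Not at hp
      obtain ⟨i, hi⟩ := hp
      exact measure_mono_null (singleton_subset_iff.2 hi) (off i.1 i.2)
  have na : ∀ (i : {Q : Sqr // Q ∈ 𝒬'}) p, νp i {p} = 0 ∧ νm i {p} = 0 := fun i p =>
    SqK_87.na H h (hP.sqG h𝒬) (fun _ p _ => noat p) i p
  -- hair values
  have hT : ∀ K : Hair, ∃ κ : ℝ, K ∈ 𝓗 → K.x ∈ Ioo a b → μ {q | q.1 = K.x ∧ q.2 < K.t} = 0 →
      (∀ᵐ y, c < y → y ∈ Ioo K.b K.t → Str_421.Psi a b (join (cutR 𝒬' B) X1 Y1)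
        (join (cutR 𝒬' B) X2 Y2) μ (K.x, y) = κ) ∧ (B ≤ K.t → κ = -lam μ K.x) := by
    intro K
    by_cases hK : K ∈ 𝓗 ∧ K.x ∈ Ioo a b ∧ μ {q | q.1 = K.x ∧ q.2 < K.t} = 0
    · obtain ⟨κ, hκ⟩ := Str_421.T_strict hab hcB fl hK.1 hK.2.1.1 hK.2.1.2 hK.2.2 (noat _)
      exact ⟨κ, fun _ _ _ => hκ⟩
    · exact ⟨0, fun h1 h2 h3 => absurd ⟨h1, h2, h3⟩ hK⟩
  choose κ hκ using hT
  obtain ⟨J, z, r, hJ, hA⟩ := Hq.apprQ R F hP.dis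
  have A := hA 1 (Str_421.Psi a b (join (cutR 𝒬' B) X1 Y1) (join (cutR 𝒬' B) X2 Y2) μ) κ
    (fun K hK hx hμ => by
      have h1 := hκ K hK hx hμ
      refine ⟨h1.1, fun hB => ?_⟩
      rw [h1.2 hB]; ring)
  have SF : SqFlux (cutR 𝒬' B) (join (cutR 𝒬' B) X1 Y1) (join (cutR 𝒬' B) X2 Y2)
      (fun i => f i.1) (fun i => i.1.1.s) (fun i => (i.1.1.x, i.1.1.y))
      (fun i => νp i.1 + νm i.1) :=
    sqFlux_of_fills F (hP.pack h𝒬) Hq.f2 Hq.fp Hq.fm (fun i p => (na i.1 p).1)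
      (fun i p => (na i.1 p).2)
  have hoff : ∀ p ∉ (cutR 𝒬' B).un,
      join (cutR 𝒬' B) X1 Y1 p = X1 p ∧ join (cutR 𝒬' B) X2 Y2 p = X2 p := fun p hp =>
    ⟨join_of_not hp, join_of_not hp⟩
  have hvan : ∀ p ∈ E, p ∉ (cutR 𝒬' B).un →
      join (cutR 𝒬' B) X1 Y1 p = 0 ∧ join (cutR 𝒬' B) X2 Y2 p = 0 := by
    intro p hpE hp
    rw [(hoff p hp).1, (hoff p hp).2]
    exact ⟨hz1 p fun h => h.2 ⟨hpE, h.1.2.2⟩, hz2 p fun h => h.2 ⟨hpE, h.1.2.2⟩⟩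
  have hzz : ∀ p, p ∉ Wo a b c B →
      join (cutR 𝒬' B) X1 Y1 p = 0 ∧ join (cutR 𝒬' B) X2 Y2 p = 0 := by
    intro p hp
    rw [(hoff p fun h => hp (hunWo h)).1, (hoff p fun h => hp (hunWo h)).2]
    exact ⟨hz1 p fun h => hp h.1, hz2 p fun h => hp h.1⟩
  refine ⟨_, _, _, _, J, z, κ, r,
    { fl := fl
      L := L
      D := D
      A := A
      F := SF
      H := ?_
      hJ := hJ
      T := hκ
      one := fun i e L he hc => F.one i he hc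
      off := hoff
      vanE := hvan
      z := hzz
      na := na
      noat := noat
      la := ?_
      fz := ?_ }⟩
  · exact
      { L := L
        mS := D.mS
        XS := Eventually.of_forall fun p hp => (hvan p hp.1.1 hp.2).2
        XB := fun p hp => (hzz p fun h => absurd h.2.2 (not_lt.2 hp)).2
        dis := D.dis
        box := D.box
        ly := by
          intro i
          filter_upwards [SqW_832.hflux L.L2 (SqW_832.f3h_of_flux3 SF.F D.f0) i] with y hy hyI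
          exact (abs_integral_le_integral_abs).trans (hy hyI)
        f0 := D.f0
        sf := summable_mul' R.s2 Hq.f2
        car := by filter_upwards [hWl] with q hq using hq.2.2 }
  · intro i
    have h1 := F.L2 i
    refine le_trans (le_of_eq ?_) h1
    refine setIntegral_congr_fun ((cutR 𝒬' B).measurableSet_op i) fun p hp => ?_
    rw [join_of_mem F.dis hp]
  · intro i hi
    have h0 : QA 𝒬' i ∩ Wl a b c B = ∅ := by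
      rw [eq_empty_iff_forall_notMem]
      rintro p ⟨h3, h4⟩
      have h5 := (Sqr.mem_car.1 h3).2.1
      have h6 := h4.2.2
      linarith
    have h1 : νp i = 0 := by
      have := h.pc i
      rw [h0, compl_empty] at this
      exact Measure.measure_univ_eq_zero.1 this
    have h2 : νm i = 0 := by
      have := h.mc i
      rw [h0, compl_empty] at this
      exact Measure.measure_univ_eq_zero.1 this
    refine ⟨?_, h1, h2⟩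
    rw [← h.pm i, h1]
    simp

end Crest.Agent.R105.SqJ_361
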