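import Crest.Agent.R105.Ge5_347
import Crest.Agent.R105.SqJf_361

/-! Row 105, S0138, Lemma A with squares (helper347, leaf (L8)): the charges `ChQ` of one half from 247's
`HalfQ` and 361's `LowOut`. -/

set_option autoImplicit false

open MeasureTheory Set Metric Filter Topology
open scoped ENNReal NNReal

namespace Crest.Agent.R105.Ge_347

open CF_363 Cq_463 Mq_347 Sq_87 Kbx_247
open Crest.Agent.R105.SqJ_361
open Crest.Agent.R105.Knq_247 (HalfQ)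
open Crest.Agent.R105.Kin_238 (Wl)

variable {E C : Set (ℝ × ℝ)} {𝒬 𝒬' : Set Sqr} {𝓗 : Set Hair} {a b c d B : ℝ}
variable {X1 X2 : ℝ × ℝ → ℝ} {f : {Q : Sqr // Q ∈ 𝒬'} → ℝ}
variable {νp νm : {Q : Sqr // Q ∈ 𝒬'} → Measure (ℝ × ℝ)} {μ : Measure (ℝ × ℝ)}
variable {U1 U2 ψ Ψ : ℝ × ℝ → ℝ} {J : ℕ → Finset Hair} {z : ℕ → ℝ × ℝ → ℝ} {κ : Hair → ℝ}
    {r : ℕ → Ix 𝒬' B → ℝ}

/-- **the charges of one half** -/
theorem ChQ.of_low (H : HalfQ 𝓗 a b c B E (QA 𝒬') C X1 X2 f νp νm μ)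
    (h : LowOut E 𝒬' 𝓗 a b c B X1 X2 f νp νm μ U1 U2 ψ Ψ J z κ r) :
    ChQ (cutR 𝒬' B) U1 U2 (fun i => f i.1) (fun i => νp i.1) (fun i => νm i.1) := by
  have hcl : ∀ i : Ix 𝒬' B, QA 𝒬' i.1 ∩ Wl a b c B ⊆ cl (cutR 𝒬' B) i := by
    rintro i p ⟨h1, h2⟩
    exact mem_cl.2 ⟨h1, h2.2.2⟩
  exact
  { fp := fun i => H.pfin i.1
    fm := fun i => H.mfin i.1
    cp := fun i => measure_mono_null (compl_subset_compl.2 (hcl i)) (H.pc i.1)
    cm := fun i => measure_mono_null (compl_subset_compl.2 (hcl i)) (H.mc i.1)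
    mp := fun i => H.pm i.1
    mm := fun i => H.mm i.1
    f2 := H.fs.comp_injective Subtype.val_injective
    one := fun i L e hL he => by
      refine h.one i e ⟨L, hL⟩ ?_ (continuous_of_lip hL he).continuousOn
      exact (LipschitzWith.of_dist_le_mul (K := ⟨L, hL⟩) fun p q => by
        rw [Real.dist_eq]; exact he p q).lipschitzOnWith }

end Crest.Agent.R105.Ge_347
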