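import Crest.Agent.R105.Hq2_363
import Crest.Agent.R105.CFr_363

/-!
Row 105, S0138, Lemma A with squares (helper363): the two halves of the stream function glued at the
level `M`, the total flux of `χ F`.
-/

open MeasureTheory Set Filter Topology
open scoped NNReal ENNReal ContDiff

namespace Crest.Agent.R105.Hq_363

open Sq_87 CF_363 Mp_87 Psi7_425

variable {ι ι' : Type} {Q : Rects ι} {Q' : Rects ι'} {S S' Z : Set (ℝ × ℝ)}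
variable {a b c d Bm Bp M : ℝ} {X1 X2 Y1 Y2 ψ Ψ ψ' Ψ' χ F : ℝ × ℝ → ℝ}
  {μ ν : Measure (ℝ × ℝ)} {f : ι → ℝ} {f' : ι' → ℝ}

theorem gx_rf {u : ℝ × ℝ → ℝ} (hu : Differentiable ℝ u) (p : ℝ × ℝ) :
    gx (fun q => u (rf q)) p = gx u (rf p) := by
  have h1 := Psi8_425.hasDerivAt_x (v := u) (s := p.1) (y := -p.2) (hu _)
  have h2 : Differentiable ℝ (fun q : ℝ × ℝ => u (rf q)) := by
    intro q
    exact (hu _).comp q rfL.differentiableAt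
  have h3 := Psi8_425.hasDerivAt_x (v := fun q => u (rf q)) (s := p.1) (y := p.2) (h2 _)
  exact h3.unique h1

theorem tsupport_rf' {χ : ℝ × ℝ → ℝ} (h : HasCompactSupport χ) :
    HasCompactSupport (fun p => χ (rf p)) ∧ tsupport (fun p => χ (rf p)) ⊆ rf ⁻¹' tsupport χ := by
  have h1 : tsupport (fun p => χ (rf p)) ⊆ rf ⁻¹' tsupport χ :=
    closure_minimal (fun p hp => subset_tsupport χ hp)
      ((isClosed_tsupport χ).preimage continuous_rf)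
  refine ⟨?_, h1⟩
  refine HasCompactSupport.of_support_subset_isCompact (K := rf '' tsupport χ)
    (h.isCompact.image continuous_rf) fun p hp => ⟨rf p, subset_tsupport χ hp, rf_rf p⟩

/-- the two halves: `M` = the level where they are glued -/
structure TwoQ (Q : Rects ι) (Q' : Rects ι') (S S' Z : Set (ℝ × ℝ)) (a b c d Bm Bp M : ℝ)
    (X1 X2 ψ Ψ Y1 Y2 ψ' Ψ' : ℝ × ℝ → ℝ) (μ ν : Measure (ℝ × ℝ)) (f : ι → ℝ) (f' : ι' → ℝ)
    (F : ℝ × ℝ → ℝ) : Prop where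
  ab : a < b
  cB : c < Bm
  BM : Bm ≤ M
  MB : M ≤ Bp
  Bd : Bp < d
  lo : HalfD Q S a b c Bm X1 X2 ψ Ψ μ f
  up : HalfD Q' S' a b (-d) (-Bp) Y1 Y2 ψ' Ψ' ν f'
  mass : ν univ = μ univ
  mZ : MeasurableSet Z
  Zl : ∀ᵐ p : ℝ × ℝ, p ∈ Ioo a b ×ˢ Ioo c Bm → (p ∈ Z ↔ p ∈ Q.un ∪ S)
  Zu : ∀ᵐ p : ℝ × ℝ, p ∈ Ioo a b ×ˢ Ioo (-d) (-Bp) → (rf p ∈ Z ↔ p ∈ Q'.un ∪ S')
  Fl : ∀ᵐ p : ℝ × ℝ, p ∈ Ioo a b ×ˢ Ioo c M → p ∉ Z → F p = ψ p
  Fu : ∀ᵐ p : ℝ × ℝ, p ∈ Ioo a b ×ˢ Ioo M d → p ∉ Z → F p = ψ' (rf p)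

/-- the cut-off for the two halves -/
structure CutT (Q : Rects ι) (Q' : Rects ι') (S S' Z : Set (ℝ × ℝ)) (a b c d M : ℝ)
    (μ ν : Measure (ℝ × ℝ)) (χ : ℝ × ℝ → ℝ) : Prop where
  sm : ContDiff ℝ 1 χ
  cs : HasCompactSupport χ
  ts : tsupport χ ⊆ Ioo a b ×ˢ univ
  nn : ∀ p, 0 ≤ χ p
  le : ∀ p, χ p ≤ 1
  gx : ∀ p ∈ Q.un ∪ S ∪ Z, gx χ p = 0
  gx' : ∀ p ∈ Q'.un ∪ S', CF_363.gx χ (rf p) = 0
  ct : ∀ i, ∃ k, ∀ p ∈ Q.op i, χ p = k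
  ct' : ∀ i, ∃ k, ∀ p ∈ Q'.op i, χ (rf p) = k
  one : ∀ y, c < y → y < M → ∀ᵐ q ∂μ, q.2 < y → χ (q.1, y) = 1
  one' : ∀ y, M < y → y < d → ∀ᵐ q ∂ν, q.2 < -y → χ (q.1, y) = 1

/-- the horizontal derivative of the glued function off the squares -/
def W1 (X2 Y2 : ℝ × ℝ → ℝ) (p : ℝ × ℝ) : ℝ := -X2 p - Y2 (rf p)

/-- **the flux of the glued function times the cut-off** -/
theorem TwoQ.flux [Countable ι] [Countable ι'] [IsFiniteMeasure μ] [IsFiniteMeasure ν]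
    (H : TwoQ Q Q' S S' Z a b c d Bm Bp M X1 X2 ψ Ψ Y1 Y2 ψ' Ψ' μ ν f f' F)
    (C : CutT Q Q' S S' Z a b c d M μ ν χ) :
    IntegrableOn (fun p => gx χ p * F p + χ p * W1 X2 Y2 p) ((Ioo a b ×ˢ Ioo c d) \ Z) ∧
    (Bp - Bm) * (μ univ).toReal - ∑' i, (On Q χ).indicator (fun i => 4 * (Q.h2 i * f i)) i
      - ∑' i, (On Q' (fun p => χ (rf p))).indicator (fun i => 4 * (Q'.h2 i * f' i)) i ≤
      ∫ p in (Ioo a b ×ˢ Ioo c d) \ Z, (gx χ p * F p + χ p * W1 X2 Y2 p) := by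
  have hcB := H.cB
  have hBM := H.BM
  have hMB := H.MB
  have hBd := H.Bd
  have hdiff : Differentiable ℝ χ := C.sm.differentiable (by norm_num)
  have hgrf : ∀ p, gx (fun q => χ (rf q)) p = gx χ (rf p) := gx_rf hdiff
  have hrfm : Measurable rf := continuous_rf.measurable
  have hZ' : MeasurableSet (rf ⁻¹' Z) := hrfm H.mZ
  -- lower half
  have Cl : CutD Q S Z a b c M μ χ :=
    ⟨C.sm, C.cs, C.ts, C.nn, C.le, C.gx, C.ct, C.one⟩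
  obtain ⟨i1, k1⟩ := H.lo.flux H.ab hcB hBM H.mZ H.Zl Cl
  -- upper half
  have hts := tsupport_rf' C.cs
  have Cu : CutD Q' S' (rf ⁻¹' Z) a b (-d) (-M) ν (fun p => χ (rf p)) := by
    refine ⟨C.sm.comp (by unfold rf; fun_prop), hts.1, ?_, fun p => C.nn _, fun p => C.le _, ?_,
      C.ct', ?_⟩
    · intro p hp
      have := C.ts (hts.2 hp)
      exact ⟨this.1, mem_univ _⟩
    · intro p hp
      rw [hgrf]
      rcases hp with hp | hp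
      · exact C.gx' p hp
      · exact C.gx (rf p) (Or.inr hp)
    · intro y hy hyM
      filter_upwards [C.one' (-y) (by linarith) (by linarith)] with q hq h
      exact hq (by rw [neg_neg]; exact h)
  obtain ⟨i2, k2⟩ := H.up.flux (M := -M) (Z := rf ⁻¹' Z) H.ab (by linarith) (by linarith) hZ' H.Zu Cu
  rw [H.mass] at k2
  set G : ℝ × ℝ → ℝ := fun p => gx χ p * F p + χ p * W1 X2 Y2 p with hG
  have hR1 : MeasurableSet (Ioo a b ×ˢ Ioo c M) := measurableSet_Ioo.prod measurableSet_Ioo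
  have hR2 : MeasurableSet (Ioo a b ×ˢ Ioo (-d) (-M)) := measurableSet_Ioo.prod measurableSet_Ioo
  have hR3 : MeasurableSet (Ioo a b ×ˢ Ioo M d) := measurableSet_Ioo.prod measurableSet_Ioo
  -- the lower integrand
  have e1 : ∀ᵐ p : ℝ × ℝ, p ∈ (Ioo a b ×ˢ Ioo c M) \ Z → gx χ p * ψ p - χ p * X2 p = G p := by
    filter_upwards [H.Fl] with p hp hpm
    show _ = gx χ p * F p + χ p * (-X2 p - Y2 (rf p))
    rw [hp hpm.1 hpm.2, H.up.XB (rf p) (by show -Bp ≤ -p.2; linarith [hpm.1.2.2])]; ring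
  have j1 : IntegrableOn G ((Ioo a b ×ˢ Ioo c M) \ Z) := by
    refine (i1.mono_set sdiff_subset).congr ?_
    rw [EventuallyEq, ae_restrict_iff' (hR1.diff H.mZ)]
    exact e1
  have l1 : ∫ p in (Ioo a b ×ˢ Ioo c M) \ Z, (gx χ p * ψ p - χ p * X2 p) =
      ∫ p in (Ioo a b ×ˢ Ioo c M) \ Z, G p := setIntegral_congr_ae (hR1.diff H.mZ) e1
  -- the upper integrand
  have hmp := measurePreserving_rf
  have e2' : ∀ᵐ p : ℝ × ℝ, rf p ∈ Ioo a b ×ˢ Ioo M d → rf p ∉ Z → F (rf p) = ψ' (rf (rf p)) :=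
    hmp.quasiMeasurePreserving.ae H.Fu
  have e2 : ∀ᵐ p : ℝ × ℝ, p ∈ (Ioo a b ×ˢ Ioo (-d) (-M)) \ (rf ⁻¹' Z) →
      gx (fun q => χ (rf q)) p * ψ' p - χ (rf p) * Y2 p = G (rf p) := by
    filter_upwards [e2'] with p hp hpm
    have h1 : rf p ∈ Ioo a b ×ˢ Ioo M d :=
      ⟨hpm.1.1, by show M < -p.2; linarith [hpm.1.2.2], by show -p.2 < d; linarith [hpm.1.2.1]⟩
    show _ = gx χ (rf p) * F (rf p) + χ (rf p) * (-X2 (rf p) - Y2 (rf (rf p)))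
    rw [hp h1 hpm.2, rf_rf, hgrf, H.lo.XB (rf p) (by show Bm ≤ -p.2; linarith [hpm.1.2.2])]; ring
  have hset : rf ⁻¹' ((Ioo a b ×ˢ Ioo M d) \ Z) = (Ioo a b ×ˢ Ioo (-d) (-M)) \ (rf ⁻¹' Z) := by
    ext p
    simp only [mem_preimage, Set.mem_sdiff, rf, mem_prod, mem_Ioo]
    constructor
    · rintro ⟨⟨h1, h2, h3⟩, h4⟩
      exact ⟨⟨h1, by linarith, by linarith⟩, h4⟩
    · rintro ⟨⟨h1, h2, h3⟩, h4⟩
      exact ⟨⟨h1, by linarith, by linarith⟩, h4⟩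
  have hemb : MeasurableEmbedding rf := measurableEmbedding_rf
  have l2 : ∫ p in (Ioo a b ×ˢ Ioo (-d) (-M)) \ (rf ⁻¹' Z),
      (gx (fun q => χ (rf q)) p * ψ' p - χ (rf p) * Y2 p) =
      ∫ p in (Ioo a b ×ˢ Ioo M d) \ Z, G p := by
    rw [setIntegral_congr_ae (hR2.diff hZ') e2, ← hset]
    exact hmp.setIntegral_preimage_emb hemb G _
  have j2 : IntegrableOn G ((Ioo a b ×ˢ Ioo M d) \ Z) := by
    refine (hmp.integrableOn_comp_preimage (f := G) (s := (Ioo a b ×ˢ Ioo M d) \ Z) hemb).1 ?_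
    rw [hset]
    refine (i2.mono_set sdiff_subset).congr ?_
    rw [EventuallyEq, ae_restrict_iff' (hR2.diff hZ')]
    exact e2
  -- join
  have hE : ((Ioo a b ×ˢ Ioo c d) \ Z : Set (ℝ × ℝ)) =ᵐ[volume]
      (((Ioo a b ×ˢ Ioo c M) \ Z) ∪ ((Ioo a b ×ˢ Ioo M d) \ Z) : Set (ℝ × ℝ)) := by
    rw [eventuallyEq_set]
    have h0 : ∀ᵐ p : ℝ × ℝ, p.2 ≠ M := by
      have h00 : ∀ᵐ t : ℝ, t ≠ M := by rw [ae_iff]; simp
      exact ae_snd' h00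
    filter_upwards [h0] with p hp
    simp only [mem_union, Set.mem_sdiff, mem_prod, mem_Ioo]
    constructor
    · rintro ⟨⟨h1, h2, h3⟩, h4⟩
      rcases lt_or_gt_of_ne hp with h | h
      · exact Or.inl ⟨⟨h1, h2, h⟩, h4⟩
      · exact Or.inr ⟨⟨h1, h, h3⟩, h4⟩
    · rintro (⟨⟨h1, h2, h3⟩, h4⟩ | ⟨⟨h1, h2, h3⟩, h4⟩)
      · exact ⟨⟨h1, h2, by linarith⟩, h4⟩
      · exact ⟨⟨h1, by linarith, h3⟩, h4⟩
  have hdis : Disjoint ((Ioo a b ×ˢ Ioo c M) \ Z) ((Ioo a b ×ˢ Ioo M d) \ Z) := by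
    rw [Set.disjoint_left]
    rintro p ⟨⟨-, -, h⟩, -⟩ ⟨⟨-, h', -⟩, -⟩
    exact lt_asymm h h'
  refine ⟨?_, ?_⟩
  · exact (j1.union j2).congr_set_ae hE
  · rw [setIntegral_congr_set hE, setIntegral_union hdis (hR3.diff H.mZ) j1 j2, ← l1, ← l2]
    have h1 : (Bp - Bm) * (μ univ).toReal = (M - Bm) * (μ univ).toReal +
        (-M - -Bp) * (μ univ).toReal := by ring
    linarith

end Crest.Agent.R105.Hq_363
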