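import Mathlib

/-! Row 105, PROD (helper412): the product lemma (100 #9473), part 1: preliminaries.
Product rule for primitives; a.e. vanishing of the derivative on the zero set;
the three variable measure. -/

open MeasureTheory Set Filter Topology

namespace Crest.Agent.R105.Prod_412

/-- product rule for two primitives -/
theorem prod_rule {f g f1 g1 : ℝ → ℝ} {a b : ℝ} (hab : a ≤ b)
    (hf1 : IntervalIntegrable f1 volume a b) (hg1 : IntervalIntegrable g1 volume a b)
    (hf : ∀ t ∈ Icc a b, f t = f a + ∫ s in a..t, f1 s)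
    (hg : ∀ t ∈ Icc a b, g t = g a + ∫ s in a..t, g1 s) :
    f b * g b - f a * g a = ∫ s in a..b, (f1 s * g s + f s * g1 s) := by
  set F : ℝ → ℝ := fun t => f a + ∫ s in a..t, f1 s with hF
  set G : ℝ → ℝ := fun t => g a + ∫ s in a..t, g1 s with hG
  have hc (c : ℝ) : AbsolutelyContinuousOnInterval (fun _ : ℝ => c) a b := by
    have := (LipschitzWith.const c (α := ℝ)).lipschitzOnWith (s := uIcc a b)
    exact this.absolutelyContinuousOnInterval
  have hFac : AbsolutelyContinuousOnInterval F a b :=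
    (hc (f a)).add (hf1.absolutelyContinuousOnInterval_intervalIntegral (c := a) (by simp))
  have hGac : AbsolutelyContinuousOnInterval G a b :=
    (hc (g a)).add (hg1.absolutelyContinuousOnInterval_intervalIntegral (c := a) (by simp))
  have hFb : F b = f b := (hf b ⟨hab, le_rfl⟩).symm
  have hGb : G b = g b := (hg b ⟨hab, le_rfl⟩).symm
  have hFa : F a = f a := by simp [hF]
  have hGa : G a = g a := by simp [hG]
  have h := hFac.integral_deriv_mul_eq_sub hGac
  rw [hFb, hGb, hFa, hGa] at h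
  rw [← h]
  apply intervalIntegral.integral_congr_ae
  filter_upwards [hf1.ae_hasDerivAt_integral, hg1.ae_hasDerivAt_integral] with x hx1 hx2 hx3
  have hx4 : x ∈ uIcc a b := uIoc_subset_uIcc hx3
  have hx5 : x ∈ Icc a b := by rwa [uIcc_of_le hab] at hx4
  have d1 : deriv F x = f1 x := ((hx1 hx4 a (by simp)).const_add (f a)).deriv
  have d2 : deriv G x = g1 x := ((hx2 hx4 a (by simp)).const_add (g a)).deriv
  rw [d1, d2, hf x hx5, hg x hx5]

/-- the derivative vanishes a.e. on the zero set (wherever it exists) -/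
theorem zero_deriv_ae (e d : ℝ → ℝ) :
    ∀ᵐ x ∂(volume : Measure ℝ), e x = 0 → HasDerivAt e (d x) x → d x = 0 := by
  have hc := countable_setOfPred_isolated_right_within (s := {x : ℝ | e x = 0})
  have hn := hc.measure_zero (volume : Measure ℝ)
  rw [measure_eq_zero_iff_ae_notMem] at hn
  filter_upwards [hn] with x hx h0 hd
  by_contra hne
  apply hx
  refine ⟨h0, ?_⟩
  have h1 := hd.eventually_ne (c := 0) hne
  have h2 : 𝓝[{x : ℝ | e x = 0} ∩ Ioi x] x ≤ 𝓝[≠] x :=
    nhdsWithin_mono _ (fun y hy => ne_of_gt hy.2)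
  have h3 : ∀ᶠ y in 𝓝[{x : ℝ | e x = 0} ∩ Ioi x] x, e y ≠ 0 := h2 h1
  have h4 : ∀ᶠ y in 𝓝[{x : ℝ | e x = 0} ∩ Ioi x] x, e y = 0 :=
    eventually_nhdsWithin_of_forall (fun y hy => hy.1)
  have h5 := h3.and h4
  rw [← Filter.empty_mem_iff_bot]
  filter_upwards [h5] with y hy
  exact (hy.1 hy.2).elim

section Three

variable (lam mu : Measure ℝ) [IsFiniteMeasure lam] [IsFiniteMeasure mu]

/-- the three variable measure -/
noncomputable abbrev bet : Measure (ℝ × (ℝ × ℝ)) := lam.prod (mu.prod mu)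

theorem qmp1 : Measure.QuasiMeasurePreserving (fun p : ℝ × (ℝ × ℝ) => (p.1, p.2.1))
    (bet lam mu) (lam.prod mu) := by
  have h : Measure.QuasiMeasurePreserving (Prod.map (id : ℝ → ℝ) (Prod.fst : ℝ × ℝ → ℝ))
      (bet lam mu) (lam.prod mu) :=
    MeasureTheory.QuasiMeasurePreserving.prodMap (Measure.QuasiMeasurePreserving.id lam) Measure.quasiMeasurePreserving_fst
  exact h

theorem qmp2 : Measure.QuasiMeasurePreserving (fun p : ℝ × (ℝ × ℝ) => (p.1, p.2.2))
    (bet lam mu) (lam.prod mu) := by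
  have h : Measure.QuasiMeasurePreserving (Prod.map (id : ℝ → ℝ) (Prod.snd : ℝ × ℝ → ℝ))
      (bet lam mu) (lam.prod mu) :=
    MeasureTheory.QuasiMeasurePreserving.prodMap (Measure.QuasiMeasurePreserving.id lam) Measure.quasiMeasurePreserving_snd
  exact h

theorem map1 : (bet lam mu).map (fun p : ℝ × (ℝ × ℝ) => (p.1, p.2.1)) =
    mu univ • lam.prod mu := by
  have h := Measure.map_prod_map lam (mu.prod mu) (f := (id : ℝ → ℝ))
    (g := (Prod.fst : ℝ × ℝ → ℝ)) measurable_id measurable_fst
  rw [Measure.map_id, Measure.map_fst_prod, Measure.prod_smul_right] at h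
  exact h.symm

theorem map2 : (bet lam mu).map (fun p : ℝ × (ℝ × ℝ) => (p.1, p.2.2)) =
    mu univ • lam.prod mu := by
  have h := Measure.map_prod_map lam (mu.prod mu) (f := (id : ℝ → ℝ))
    (g := (Prod.snd : ℝ × ℝ → ℝ)) measurable_id measurable_snd
  rw [Measure.map_id, Measure.map_snd_prod, Measure.prod_smul_right] at h
  exact h.symm

variable {lam mu}

theorem integrable1 {f : ℝ × ℝ → ℝ} (hf : Integrable f (lam.prod mu)) :
    Integrable (fun p : ℝ × (ℝ × ℝ) => f (p.1, p.2.1)) (bet lam mu) := by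
  have h : Integrable f ((bet lam mu).map (fun p : ℝ × (ℝ × ℝ) => (p.1, p.2.1))) := by
    rw [map1]
    exact hf.smul_measure (measure_ne_top _ _)
  exact h.comp_measurable (by fun_prop)

theorem integrable2 {f : ℝ × ℝ → ℝ} (hf : Integrable f (lam.prod mu)) :
    Integrable (fun p : ℝ × (ℝ × ℝ) => f (p.1, p.2.2)) (bet lam mu) := by
  have h : Integrable f ((bet lam mu).map (fun p : ℝ × (ℝ × ℝ) => (p.1, p.2.2))) := by
    rw [map2]
    exact hf.smul_measure (measure_ne_top _ _)
  exact h.comp_measurable (by fun_prop)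

end Three

end Crest.Agent.R105.Prod_412
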