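import Crest.Agent.R105.Psi8_425
import Crest.Agent.R105.Prod1_412

/-!
# Row 105 (S0138, T-frame), PSI-Q (helper463 for helper425): smoothing on `V`

No condition on the complement of `V` (it may have positive volume).
* `StrV V f U1 U2` : `f` continuous on the open set `V`, in `L²(V)`, with line formulas inside `V`
* `Cor V ε w D1 D2` : `w` continuous on the plane, zero off `V`, `|w| ≤ ε`, line formulas on ALL
  lines, `D1, D2 ∈ L²`, zero off `V`, `∫ D1² + D2² ≤ ε`
* `exists_cor` : there is a `Cor` with `f + w` smooth on `V` (Meyers-Serrin, 425's `ms_on`)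
-/

set_option autoImplicit false

open MeasureTheory Set Filter Topology
open scoped NNReal ENNReal ContDiff

namespace Crest.Agent.R105.Psq_463

open Psi5_425 Psi6_425 Psi7_425 Psi8_425 CF_363 MsB_425

local notation "AC" => AbsolutelyContinuousOnInterval

/-- `f` on the open set `V` with its line formulas -/
structure StrV (V : Set (ℝ × ℝ)) (f U1 U2 : ℝ × ℝ → ℝ) : Prop where
  cont : ContinuousOn f V
  L2 : MemLp f 2 (volume.restrict V)
  V1 : MemLp U1 2 (volume.restrict V)
  V2 : MemLp U2 2 (volume.restrict V)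
  hor : ∀ᵐ y : ℝ, ∀ x x', x ≤ x' → (∀ s ∈ Icc x x', (s, y) ∈ V) →
    f (x', y) - f (x, y) = ∫ s in x..x', U1 (s, y)
  ver : ∀ᵐ x : ℝ, ∀ y y', y ≤ y' → (∀ t ∈ Icc y y', (x, t) ∈ V) →
    f (x, y') - f (x, y) = ∫ t in y..y', U2 (x, t)

/-- the correction: continuous on the plane, zero off `V`, line formulas on all lines -/
structure Cor (V : Set (ℝ × ℝ)) (ε : ℝ) (w D1 D2 : ℝ × ℝ → ℝ) : Prop where
  cont : Continuous w
  zero : ∀ p ∉ V, w p = 0
  bdd : ∀ p, |w p| ≤ ε
  L1 : MemLp D1 2 (volume : Measure (ℝ × ℝ))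
  L2 : MemLp D2 2 (volume : Measure (ℝ × ℝ))
  off : ∀ p ∉ V, D1 p = 0 ∧ D2 p = 0
  en : ∫ p, (D1 p ^ 2 + D2 p ^ 2) ≤ ε
  hor : ∀ᵐ y : ℝ, ∀ x x', x ≤ x' → w (x', y) - w (x, y) = ∫ s in x..x', D1 (s, y)
  ver : ∀ᵐ x : ℝ, ∀ y y', y ≤ y' → w (x, y') - w (x, y) = ∫ t in y..y', D2 (x, t)

variable {V : Set (ℝ × ℝ)} {f U1 U2 w D1 D2 : ℝ × ℝ → ℝ} {ε : ℝ}

/-! ### lines -/

/-- the derivative vanishes a.e. on the zero set -/
theorem ae_deriv_zero (e : ℝ → ℝ) : ∀ᵐ x : ℝ, e x = 0 → deriv e x = 0 := by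
  filter_upwards [Prod_412.zero_deriv_ae e (deriv e)] with x hx h0
  by_cases hd : DifferentiableAt ℝ e x
  · exact hx h0 hd.hasDerivAt
  · exact deriv_zero_of_not_differentiableAt hd

/-- one line: AC, zero off `O`, derivative `D` a.e. on `O` -/
theorem line_formula {O : Set ℝ} {w D : ℝ → ℝ} (hac : ∀ a b, a ≤ b → AC w a b)
    (h0 : ∀ s ∉ O, w s = 0) (hD : ∀ᵐ s : ℝ, s ∈ O → HasDerivAt w (D s) s) (h0D : ∀ s ∉ O, D s = 0) :
    ∀ x x', x ≤ x' → w x' - w x = ∫ s in x..x', D s := by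
  intro x x' hx
  rw [← (hac x x' hx).integral_deriv_eq_sub]
  refine intervalIntegral.integral_congr_ae ?_
  filter_upwards [hD, ae_deriv_zero w] with s h1 h2 _
  by_cases hs : s ∈ O
  · exact (h1 hs).deriv
  · rw [h2 (h0 s hs), h0D s hs]

/-- product rule along segments inside `O` -/
theorem prod_line {O : Set ℝ} (hO : IsOpen O) {f g χ c : ℝ → ℝ} (hg : LocallyIntegrable g volume)
    (hf : ∀ s t, s ≤ t → (∀ r ∈ Icc s t, r ∈ O) → f t - f s = ∫ r in s..t, g r)
    (hχ : ∀ a b, a ≤ b → AC χ a b) (hc : ∀ᵐ s : ℝ, HasDerivAt χ (c s) s) :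
    ∀ s t, s ≤ t → (∀ r ∈ Icc s t, r ∈ O) →
      χ t * f t - χ s * f s = ∫ r in s..t, (c r * f r + χ r * g r) := by
  intro s t hst hr
  have hfac : AC f s t := ac_of_line hst (intervalIntegrable_of_li hg s t)
    fun x hx => hf s x hx.1 fun r hr' => hr r ⟨hr'.1, hr'.2.trans hx.2⟩
  have hprod : AC (fun r => χ r * f r) s t := (hχ s t hst).mul hfac
  rw [← hprod.integral_deriv_eq_sub]
  refine intervalIntegral.integral_congr_ae ?_
  filter_upwards [ae_hasDerivAt_of_line hO hg hf, hc] with r h1 h2 hrm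
  rw [uIoc_of_le hst] at hrm
  exact ((h2.mul (h1 (hr r ⟨hrm.1.le, hrm.2⟩)))).deriv

theorem ac_of_lip {K : ℝ≥0} {h : ℝ → ℝ} (hh : LipschitzWith K h) (a b : ℝ) : AC h a b :=
  (hh.lipschitzOnWith (s := uIcc a b)).absolutelyContinuousOnInterval

theorem lip_x {K : ℝ≥0} {χ : ℝ × ℝ → ℝ} (h : LipschitzWith K χ) (y : ℝ) :
    LipschitzWith K fun s => χ (s, y) := by
  have h1 : LipschitzWith 1 fun s : ℝ => (s, y) :=
    LipschitzWith.of_dist_le_mul fun s t => by simp [Prod.dist_eq]
  have h2 := h.comp h1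
  rwa [mul_one] at h2

theorem lip_y {K : ℝ≥0} {χ : ℝ × ℝ → ℝ} (h : LipschitzWith K χ) (x : ℝ) :
    LipschitzWith K fun s => χ (x, s) := by
  have h1 : LipschitzWith 1 fun s : ℝ => (x, s) :=
    LipschitzWith.of_dist_le_mul fun s t => by simp [Prod.dist_eq]
  have h2 := h.comp h1
  rwa [mul_one] at h2

theorem abs_gx_le {K : ℝ≥0} {χ : ℝ × ℝ → ℝ} (h : LipschitzWith K χ) (p : ℝ × ℝ) :
    |gx χ p| ≤ K := by
  have h1 := (fderiv ℝ χ p).le_opNorm ((1 : ℝ), (0 : ℝ))
  have h2 : ‖((1 : ℝ), (0 : ℝ))‖ = 1 := by simp [Prod.norm_def]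
  rw [h2, mul_one] at h1
  exact h1.trans (norm_fderiv_le_of_lipschitz ℝ h)

theorem abs_gy_le {K : ℝ≥0} {χ : ℝ × ℝ → ℝ} (h : LipschitzWith K χ) (p : ℝ × ℝ) :
    |gy χ p| ≤ K := by
  have h1 := (fderiv ℝ χ p).le_opNorm ((0 : ℝ), (1 : ℝ))
  have h2 : ‖((0 : ℝ), (1 : ℝ))‖ = 1 := by simp [Prod.norm_def]
  rw [h2, mul_one] at h1
  exact h1.trans (norm_fderiv_le_of_lipschitz ℝ h)

theorem ae_x_of_ae {P : ℝ × ℝ → Prop} (h : ∀ᵐ p : ℝ × ℝ, P p) :
    ∀ᵐ x : ℝ, ∀ᵐ y : ℝ, P (x, y) := by
  rw [Measure.volume_eq_prod] at h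
  exact Measure.ae_ae_of_ae_prod h

theorem Cor.li_x (h : Cor V ε w D1 D2) :
    ∀ᵐ y : ℝ, LocallyIntegrable (fun s => D1 (s, y)) volume := by
  filter_upwards [Mp_87.ae_line_y h.L1] with y h2 using h2.locallyIntegrable (by norm_num)

theorem Cor.li_y (h : Cor V ε w D1 D2) :
    ∀ᵐ x : ℝ, LocallyIntegrable (fun s => D2 (x, s)) volume := by
  filter_upwards [Mp_87.ae_line_x h.L2] with x h2 using h2.locallyIntegrable (by norm_num)

theorem Cor.acx (h : Cor V ε w D1 D2) : ∀ᵐ y : ℝ, ∀ a b, a ≤ b → AC (fun s => w (s, y)) a b := by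
  filter_upwards [h.hor, h.li_x] with y h1 h2 a b hab
  exact ac_of_line hab (intervalIntegrable_of_li h2 a b) fun x hx => h1 a x hx.1

theorem Cor.acy (h : Cor V ε w D1 D2) : ∀ᵐ x : ℝ, ∀ a b, a ≤ b → AC (fun s => w (x, s)) a b := by
  filter_upwards [h.ver, h.li_y] with x h1 h2 a b hab
  exact ac_of_line hab (intervalIntegrable_of_li h2 a b) fun y hy => h1 a y hy.1

theorem Cor.dx (h : Cor V ε w D1 D2) :
    ∀ᵐ y : ℝ, ∀ᵐ s : ℝ, HasDerivAt (fun s => w (s, y)) (D1 (s, y)) s := by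
  filter_upwards [h.hor, h.li_x] with y h1 h2
  filter_upwards [ae_hasDerivAt_of_line isOpen_univ h2
    (f := fun s => w (s, y)) (fun s t hst _ => h1 s t hst)] with s hs using hs trivial

theorem Cor.dy (h : Cor V ε w D1 D2) :
    ∀ᵐ x : ℝ, ∀ᵐ s : ℝ, HasDerivAt (fun s => w (x, s)) (D2 (x, s)) s := by
  filter_upwards [h.ver, h.li_y] with x h1 h2
  filter_upwards [ae_hasDerivAt_of_line isOpen_univ h2
    (f := fun s => w (x, s)) (fun s t hst _ => h1 s t hst)] with s hs using hs trivial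

/-! ### smoothing on `V` -/

/-- the `L²` functions of `StrV` extended by zero -/
theorem StrV.ind (hV : IsOpen V) (h : StrV V f U1 U2) :
    StrV V f (V.indicator U1) (V.indicator U2) ∧
      MemLp (V.indicator U1) 2 (volume : Measure (ℝ × ℝ)) ∧
      MemLp (V.indicator U2) 2 (volume : Measure (ℝ × ℝ)) := by
  have e1 : ∀ {U : ℝ × ℝ → ℝ}, MemLp U 2 (volume.restrict V) →
      MemLp (V.indicator U) 2 (volume : Measure (ℝ × ℝ)) := fun hU =>
    (memLp_indicator_iff_restrict hV.measurableSet).2 hU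
  refine ⟨⟨h.cont, h.L2, (e1 h.V1).restrict V, (e1 h.V2).restrict V, ?_, ?_⟩, e1 h.V1, e1 h.V2⟩
  · filter_upwards [h.hor] with y hy x x' hxx' hs
    rw [hy x x' hxx' hs]
    refine intervalIntegral.integral_congr fun s hs' => ?_
    rw [uIcc_of_le hxx'] at hs'
    exact (indicator_of_mem (hs s hs') _).symm
  · filter_upwards [h.ver] with x hx y y' hyy' hs
    rw [hx y y' hyy' hs]
    refine intervalIntegral.integral_congr fun s hs' => ?_
    rw [uIcc_of_le hyy'] at hs'
    exact (indicator_of_mem (hs s hs') _).symm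

/-- **smoothing with boundary control**, line formulas of the correction on all lines -/
theorem exists_cor (hV : IsOpen V) (h : StrV V f U1 U2) (hε : 0 < ε) :
    ∃ w D1 D2, Cor V ε w D1 D2 ∧ ContDiffOn ℝ ∞ (fun p => f p + w p) V ∧
      (∀ p ∈ V, D1 p = gx (fun p => f p + w p) p - U1 p) ∧
      (∀ p ∈ V, D2 p = gy (fun p => f p + w p) p - U2 p) := by
  obtain ⟨h', hU1, hU2⟩ := h.ind hV
  have hWG := wg_of_lines hV h'.cont hU1 hU2 h'.hor h'.ver
  have hGf : MemLp (Gf (V.indicator U1) (V.indicator U2)) 2 (volume.restrict V) :=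
    memLp_Gf h'.V1 h'.V2
  obtain ⟨δ, hδ, hδε, hδ2⟩ : ∃ δ : ℝ, 0 < δ ∧ δ ≤ ε ∧ 2 * δ ^ 2 ≤ ε := by
    refine ⟨min 1 (ε / 2), by positivity, (min_le_right _ _).trans (by linarith), ?_⟩
    have h1 : min 1 (ε / 2) ≤ 1 := min_le_left _ _
    have h2 : min 1 (ε / 2) ≤ ε / 2 := min_le_right _ _
    have h3 : 0 < min 1 (ε / 2) := by positivity
    nlinarith
  obtain ⟨v, hwc, hvs, hvf, hwb, hvL⟩ := ms_on hV h'.cont hGf hWG hδ
  have hfv : (fun p => f p + (v p - f p)) = v := by funext p; ring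
  have hvs1 : ContDiffOn ℝ 1 v V := hvs.of_le (by norm_num)
  have hw0 : ∀ p ∉ V, v p - f p = 0 := fun p hp => by rw [hvf p hp, sub_self]
  have hmem : MemLp (fun p => fderiv ℝ v p - Gf (V.indicator U1) (V.indicator U2) p) 2
      (volume.restrict V) := by
    refine ⟨?_, lt_of_le_of_lt hvL ENNReal.ofReal_lt_top⟩
    exact (measurable_fderiv ℝ v).aestronglyMeasurable.sub hGf.1
  have hD1 : MemLp (fun p => gx v p - V.indicator U1 p) 2 (volume.restrict V) := by
    refine MemLp.of_le_mul (c := 1) hmem ?_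
      (Eventually.of_forall fun p => norm_gx_sub_le v (V.indicator U1) (V.indicator U2) p)
    exact (measurable_gx v).aestronglyMeasurable.sub h'.V1.1
  have hD2 : MemLp (fun p => gy v p - V.indicator U2 p) 2 (volume.restrict V) := by
    refine MemLp.of_le_mul (c := 1) hmem ?_
      (Eventually.of_forall fun p => norm_gy_sub_le v (V.indicator U1) (V.indicator U2) p)
    exact (measurable_gy v).aestronglyMeasurable.sub h'.V2.1
  have hD1' : MemLp (V.indicator fun p => gx v p - V.indicator U1 p) 2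
      (volume : Measure (ℝ × ℝ)) :=
    (memLp_indicator_iff_restrict hV.measurableSet).2 hD1
  have hD2' : MemLp (V.indicator fun p => gy v p - V.indicator U2 p) 2
      (volume : Measure (ℝ × ℝ)) :=
    (memLp_indicator_iff_restrict hV.measurableSet).2 hD2
  refine ⟨fun p => v p - f p, V.indicator fun p => gx v p - V.indicator U1 p,
    V.indicator fun p => gy v p - V.indicator U2 p, ⟨hwc, hw0, fun p => (hwb p).trans hδε,
      hD1', hD2', fun p hp => ⟨indicator_of_notMem hp _, indicator_of_notMem hp _⟩,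
      ?_, ?_, ?_⟩, ?_, ?_, ?_⟩
  · -- the energy
    have e1 : ∀ p, (V.indicator (fun p => gx v p - V.indicator U1 p) p) ^ 2 +
        (V.indicator (fun p => gy v p - V.indicator U2 p) p) ^ 2 =
        V.indicator (fun p => (gx v p - V.indicator U1 p) ^ 2 +
          (gy v p - V.indicator U2 p) ^ 2) p := by
      intro p
      by_cases hp : p ∈ V
      · simp only [indicator_of_mem hp]
      · simp only [indicator_of_notMem hp]; norm_num
    simp only [e1]
    rw [integral_indicator hV.measurableSet]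
    have i1 := hmem.integrable_norm_pow (p := 2) (by norm_num)
    have h1 : ∫ p in V, ((gx v p - V.indicator U1 p) ^ 2 + (gy v p - V.indicator U2 p) ^ 2) ≤
        ∫ p in V, 2 * ‖fderiv ℝ v p - Gf (V.indicator U1) (V.indicator U2) p‖ ^ 2 := by
      refine integral_mono (hD1.integrable_sq.add hD2.integrable_sq) (i1.const_mul 2) fun p => ?_
      have a1 := norm_gx_sub_le v (V.indicator U1) (V.indicator U2) p
      have a2 := norm_gy_sub_le v (V.indicator U1) (V.indicator U2) p
      rw [one_mul, Real.norm_eq_abs] at a1 a2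
      have b1 := pow_le_pow_left₀ (abs_nonneg _) a1 2
      have b2 := pow_le_pow_left₀ (abs_nonneg _) a2 2
      rw [sq_abs] at b1 b2
      show (gx v p - V.indicator U1 p) ^ 2 + (gy v p - V.indicator U2 p) ^ 2 ≤ _
      linarith
    refine h1.trans ?_
    rw [integral_const_mul]
    have h2 : ∫ p in V, ‖fderiv ℝ v p - Gf (V.indicator U1) (V.indicator U2) p‖ ^ 2 ≤ δ ^ 2 := by
      have h3 := hmem.eLpNorm_eq_integral_rpow_norm (by norm_num) (by norm_num)
      rw [h3] at hvL
      have h4 := (ENNReal.ofReal_le_ofReal_iff hδ.le).1 hvL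
      simp only [ENNReal.toReal_ofNat, Real.rpow_ofNat] at h4
      have h5 : 0 ≤ ∫ p in V, ‖fderiv ℝ v p - Gf (V.indicator U1) (V.indicator U2) p‖ ^ 2 :=
        integral_nonneg fun p => sq_nonneg _
      rw [show ((2 : ℝ)⁻¹) = 1 / 2 by norm_num, ← Real.sqrt_eq_rpow] at h4
      exact (Real.sqrt_le_left hδ.le).1 h4
    linarith
  · filter_upwards [h'.hor, Mp_87.ae_line_y hD1', Mp_87.ae_line_y hU1] with y h1 h2 h3
    have hO : IsOpen {s : ℝ | (s, y) ∈ V} := hV.preimage (by fun_prop)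
    have hinc : ∀ s t, s ≤ t → (∀ r ∈ Icc s t, r ∈ {s : ℝ | (s, y) ∈ V}) →
        (v (t, y) - f (t, y)) - (v (s, y) - f (s, y)) =
          ∫ r in s..t, (gx v (r, y) - V.indicator U1 (r, y)) := by
      intro s t hst hr
      obtain ⟨i1, e1⟩ := ftc_x hV hvs1 hst hr
      have e2 := h1 s t hst hr
      have i2 := intervalIntegrable_of_li (h3.locallyIntegrable (by norm_num)) s t
      rw [intervalIntegral.integral_sub i1 i2, ← e1, ← e2]
      ring
    have hli : LocallyIntegrable ({s : ℝ | (s, y) ∈ V}.indicator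
        fun s => gx v (s, y) - V.indicator U1 (s, y)) volume :=
      h2.locallyIntegrable (by norm_num)
    have hac := line_w hO (D := fun s => gx v (s, y) - V.indicator U1 (s, y))
      (w := fun s => v (s, y) - f (s, y)) (hwc.comp (by fun_prop)) (fun s hs => hw0 _ hs) hli hinc
    have hder := ae_hasDerivAt_of_line hO (f := fun s => v (s, y) - f (s, y))
      (g := {s : ℝ | (s, y) ∈ V}.indicator fun s => gx v (s, y) - V.indicator U1 (s, y)) hli
      (fun s t hst hr => by
        rw [hinc s t hst hr]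
        refine intervalIntegral.integral_congr fun r hr' => ?_
        rw [uIcc_of_le hst] at hr'
        exact (indicator_of_mem (hr r hr') (fun s => gx v (s, y) - V.indicator U1 (s, y))).symm)
    exact line_formula hac (fun s hs => hw0 _ hs) hder fun s hs =>
      indicator_of_notMem (s := V) hs (fun p => gx v p - V.indicator U1 p)
  · filter_upwards [h'.ver, Mp_87.ae_line_x hD2', Mp_87.ae_line_x hU2] with x h1 h2 h3
    have hO : IsOpen {s : ℝ | (x, s) ∈ V} := hV.preimage (by fun_prop)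
    have hinc : ∀ s t, s ≤ t → (∀ r ∈ Icc s t, r ∈ {s : ℝ | (x, s) ∈ V}) →
        (v (x, t) - f (x, t)) - (v (x, s) - f (x, s)) =
          ∫ r in s..t, (gy v (x, r) - V.indicator U2 (x, r)) := by
      intro s t hst hr
      obtain ⟨i1, e1⟩ := ftc_y hV hvs1 hst hr
      have e2 := h1 s t hst hr
      have i2 := intervalIntegrable_of_li (h3.locallyIntegrable (by norm_num)) s t
      rw [intervalIntegral.integral_sub i1 i2, ← e1, ← e2]
      ring
    have hli : LocallyIntegrable ({s : ℝ | (x, s) ∈ V}.indicator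
        fun s => gy v (x, s) - V.indicator U2 (x, s)) volume :=
      h2.locallyIntegrable (by norm_num)
    have hac := line_w hO (D := fun s => gy v (x, s) - V.indicator U2 (x, s))
      (w := fun s => v (x, s) - f (x, s)) (hwc.comp (by fun_prop)) (fun s hs => hw0 _ hs) hli hinc
    have hder := ae_hasDerivAt_of_line hO (f := fun s => v (x, s) - f (x, s))
      (g := {s : ℝ | (x, s) ∈ V}.indicator fun s => gy v (x, s) - V.indicator U2 (x, s)) hli
      (fun s t hst hr => by
        rw [hinc s t hst hr]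
        refine intervalIntegral.integral_congr fun r hr' => ?_
        rw [uIcc_of_le hst] at hr'
        exact (indicator_of_mem (hr r hr') (fun s => gy v (x, s) - V.indicator U2 (x, s))).symm)
    exact line_formula hac (fun s hs => hw0 _ hs) hder fun s hs =>
      indicator_of_notMem (s := V) hs (fun p => gy v p - V.indicator U2 p)
  · rw [hfv]; exact hvs
  · intro p hp
    rw [hfv, indicator_of_mem hp, indicator_of_mem hp]
  · intro p hp
    rw [hfv, indicator_of_mem hp, indicator_of_mem hp]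

end Crest.Agent.R105.Psq_463
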