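import Crest.Agent.R105.SkT1_137

/-!
# Row 105 (S0138), helper425: the class of stream functions of Lemma A with solids (literals)

`StrQ` instantiates `SkT1_137.StrT`. `Lemaq := LEMAQ StrQ` is the output of KIN-Q / STREAM-Q / PSI-Q;
`Carr.str` for `StrQ` is what the null-image frame has to supply.
-/

set_option autoImplicit false

namespace Crest.Agent.R105.Psq_425

open Set Filter MeasureTheory Topology
open Crest.Agent.R105.CF_363 Crest.Agent.R105.Stp_722 Crest.Agent.R105.Cq_463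
open Crest.Agent.R105.Nal_649 Crest.Agent.R105.Exs_992 Crest.Agent.R105.SkT1_137
open Crest.Agent.R105.Skp2_257 (Comps Reg Lo Up)
open scoped NNReal

/-- `ψ` has the limit `k` at the component `P` -/
def LimAt (E P : Set (ℝ × ℝ)) (ψ : ℝ × ℝ → ℝ) (k : ℝ) : Prop :=
  ∀ ε > 0, ∃ O, IsOpen O ∧ P ⊆ O ∧ ∀ p ∈ O \ E, |ψ p - k| ≤ ε

/-- `f` is on `Eᶜ` the pointwise limit of planar Lipschitz functions with bounded `T_Q` (charges at
the squares only) -/
def PlaLim (E : Set (ℝ × ℝ)) (𝒬 : Set Sqr) (f : ℝ × ℝ → ℝ) : Prop :=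
  ∃ fn : ℕ → ℝ × ℝ → ℝ, (∀ n, ∃ L : ℝ≥0, LipschitzWith L (fn n)) ∧
    (∃ A, IsCompact A ∧ ∀ n, ∀ p ∉ A, fn n p = 0) ∧ (∃ C : ℝ, ∀ n p, |fn n p| ≤ C) ∧
    (∀ p ∉ E, Tendsto (fun n => fn n p) atTop (𝓝 (f p))) ∧ ∃ C : ℝ, ∀ n, TQ E univ 𝒬 (fn n) ≤ C

/-- **The stream functions of Lemma A** for the family `g` and the levels `Bm < Bp`.
`strip`: but for countably many members, the members of `g` are vertical segments and `ψ` has there
the limit `F x`, `F` monotone (distribution function of the flux).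
`off`: at every component `ψ - f` has the limit `0`, where `f` is bounded, continuous off `E`, and
`f` times any Lipschitz cut-off which vanishes near `⋃₀ g` is a planar limit.
`fin`: `ψ` is `T`-finite. -/
structure StrQs (E : Set (ℝ × ℝ)) (𝒬 : Set Sqr) (g : Set (Set (ℝ × ℝ))) (ψ : ℝ × ℝ → ℝ) :
    Prop where
  strip : ∃ C : Set (Set (ℝ × ℝ)), C.Countable ∧ ∃ F : ℝ → ℝ, Antitone F ∧
    ∀ P ∈ g, P ∉ C → ∃ K : Hair, P = K.car ∧ LimAt E P ψ (F K.x)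
  off : ∃ f : ℝ × ℝ → ℝ, ContinuousOn f Eᶜ ∧ (∃ C : ℝ, ∀ p, |f p| ≤ C) ∧
    (∀ P ∈ Comps E, LimAt E P (fun p => ψ p - f p) 0) ∧
    ∀ (κ : ℝ × ℝ → ℝ) (L : ℝ≥0), LipschitzWith L κ → HasCompactSupport κ →
      (∃ O, IsOpen O ∧ ⋃₀ g ⊆ O ∧ ∀ p ∈ O, κ p = 0) → PlaLim E 𝒬 fun p => κ p * f p
  fin : ∃ o, TFin E ψ o

/-- the instance of `SkT1_137.StrT` -/
def StrQ : StrT := fun E 𝒬 _ g _ _ ψ => StrQs E 𝒬 g ψ

/-- what 425 proves -/
def Lemaq : Prop := LEMAQ StrQ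

end Crest.Agent.R105.Psq_425
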