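import Crest.Agent.R105.Psq3_425
import Crest.Agent.R105.Psq0_425

/-!
# Row 105 (S0138), helper425: `T ∘ F` and its limits at the components
-/

set_option autoImplicit false

open MeasureTheory Set Filter Topology
open scoped NNReal ENNReal ContDiff

namespace Crest.Agent.R105.Psq_425

open Psi5_425 Psi6_425 Psi7_425 CF_363 Psq_463
open Crest.Agent.R105.Stp_722 Crest.Agent.R105.Cq_463
open Crest.Agent.R105.Skp2_257 (Comps Reg Lo Up)

local notation "AC" => AbsolutelyContinuousOnInterval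

variable {V E P : Set (ℝ × ℝ)} {F U1 U2 χ w φ : ℝ × ℝ → ℝ} {T : ℝ → ℝ} {m M k c : ℝ}

theorem Clamp.c1 (hT : Clamp m M T) : ContDiff ℝ 1 T := hT.sm.of_le (by norm_num)

theorem Clamp.lip (hT : Clamp m M T) : LipschitzWith 1 T := lip_of_deriv hT.c1 hT.nn hT.le

theorem Clamp.zero (hT : Clamp m M T) (hm : 0 ≤ m) : T 0 = 0 := hT.id 0 (by linarith) le_rfl

theorem Clamp.abs_le (hT : Clamp m M T) (hm : 0 ≤ m) (t : ℝ) : |T t| ≤ |t| := by
  have h := hT.lip.dist_le_mul t 0
  rwa [Real.dist_eq, Real.dist_eq, hT.zero hm, NNReal.coe_one, one_mul, sub_zero, sub_zero] at h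

theorem Clamp.bdd (hT : Clamp m M T) (hm : 0 ≤ m) (t : ℝ) : |T t| ≤ m + M := by
  rw [_root_.abs_le]
  exact ⟨by linarith [hT.lo t], by linarith [hT.up t]⟩

theorem Clamp.diff_le (hT : Clamp m M T) (s t : ℝ) : |T s - T t| ≤ m + 2 * M := by
  rw [_root_.abs_le]
  exact ⟨by linarith [hT.lo s, hT.up t], by linarith [hT.lo t, hT.up s]⟩

theorem Clamp.sub_le (hT : Clamp m M T) (s t : ℝ) : |T s - T t| ≤ |s - t| := by
  have h := hT.lip.dist_le_mul s t
  rwa [Real.dist_eq, Real.dist_eq, NNReal.coe_one, one_mul] at h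

/-- there are clamps -/
theorem exists_clamp {m M : ℝ} (hm : 0 ≤ m) (hM : 0 < M) : ∃ T, Clamp m M T := by
  -- a smooth bump function `θ`, `θ = 1` on `[-m, 0]`, `θ = 0` off `[-m-M, M]`
  have hr : 0 < m / 2 + M / 3 := by positivity
  let B : ContDiffBump (-m / 2 : ℝ) := ⟨m / 2 + M / 3, m / 2 + M / 2, hr, by linarith⟩
  set θ : ℝ → ℝ := fun t => B t with hθ
  have hθs : ContDiff ℝ ∞ θ := B.contDiff
  have hθ0 : ∀ t, 0 ≤ θ t := fun t => B.nonneg
  have hθ1 : ∀ t, θ t ≤ 1 := fun t => B.le_one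
  have hθone : ∀ t, -m - M / 3 ≤ t → t ≤ M / 3 → θ t = 1 := fun t h1 h2 => by
    refine B.one_of_mem_closedBall ?_
    rw [Metric.mem_closedBall, Real.dist_eq, _root_.abs_le]
    constructor <;> (show _ ≤ _; simp only [B]; linarith)
  have hθz : ∀ t, (t ≤ -m - M / 2 ∨ M / 2 ≤ t) → θ t = 0 := fun t h => by
    refine B.zero_of_le_dist ?_
    rw [Real.dist_eq]
    show m / 2 + M / 2 ≤ _
    rcases h with h | h
    · rw [abs_of_nonpos (by linarith)]; linarith
    · rw [abs_of_nonneg (by linarith)]; linarith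
  have hθc : Continuous θ := hθs.continuous
  have hI : ∀ s t, IntervalIntegrable θ volume s t := fun s t => hθc.intervalIntegrable s t
  set T : ℝ → ℝ := fun t => ∫ s in (0:ℝ)..t, θ s with hTd
  have hder : ∀ t, HasDerivAt T (θ t) t := fun t =>
    intervalIntegral.integral_hasDerivAt_right (hI 0 t)
      (hθc.stronglyMeasurableAtFilter _ _) hθc.continuousAt
  have hdT : deriv T = θ := funext fun t => (hder t).deriv
  have hsm : ContDiff ℝ ∞ T := by
    rw [contDiff_infty_iff_deriv]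
    exact ⟨fun t => (hder t).differentiableAt, by rw [hdT]; exact hθs⟩
  have hid : ∀ t, -m ≤ t → t ≤ 0 → T t = t := by
    intro t h1 h2
    have : ∫ s in (0:ℝ)..t, θ s = ∫ _ in (0:ℝ)..t, (1:ℝ) := by
      refine intervalIntegral.integral_congr fun s hs => ?_
      rw [uIcc_of_ge h2] at hs
      exact hθone s (by linarith [hs.1]) (by linarith [hs.2])
    show ∫ s in (0:ℝ)..t, θ s = t
    rw [this]; simp
  refine ⟨T, hsm, fun t => by rw [hdT]; exact hθ0 t, fun t => by rw [hdT]; exact hθ1 t, hid,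
    fun t h1 h2 => by rw [hdT]; exact hθone t (by linarith) (by linarith), ?_, ?_⟩
  · -- lower bound
    intro t
    have hmono : Monotone T := monotone_of_deriv_nonneg (fun t => (hder t).differentiableAt)
      fun t => by rw [hdT]; exact hθ0 t
    have hlow : ∀ t, t ≤ -m - M / 2 → T t = T (-m - M / 2) := by
      intro t ht
      have h1 : T (-m - M / 2) - T t = ∫ s in t..(-m - M / 2), θ s :=
        intervalIntegral.integral_interval_sub_left (hI _ _) (hI _ _)
      have h2 : ∫ s in t..(-m - M / 2), θ s = ∫ _ in t..(-m - M / 2), (0:ℝ) := by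
        refine intervalIntegral.integral_congr fun s hs => ?_
        rw [uIcc_of_le ht] at hs
        exact hθz s (Or.inl hs.2)
      rw [h2] at h1
      simp at h1
      linarith
    have hb : -m - M ≤ T (-m - M / 2) := by
      have h1 : T (-m) - T (-m - M / 2) = ∫ s in (-m - M / 2)..(-m), θ s :=
        intervalIntegral.integral_interval_sub_left (hI _ _) (hI _ _)
      have h2 : ∫ s in (-m - M / 2)..(-m), θ s ≤ ∫ _ in (-m - M / 2)..(-m), (1:ℝ) :=
        intervalIntegral.integral_mono_on (by linarith) (hI _ _) intervalIntegrable_const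
          fun s _ => hθ1 s
      have h3 : ∫ _ in (-m - M / 2)..(-m), (1:ℝ) = M / 2 := by simp
      have h4 := hid (-m) le_rfl (by linarith)
      linarith
    rcases le_total t (-m - M / 2) with h | h
    · rw [hlow t h]; exact hb
    · exact hb.trans (hmono h)
  · intro t
    have hmono : Monotone T := monotone_of_deriv_nonneg (fun t => (hder t).differentiableAt)
      fun t => by rw [hdT]; exact hθ0 t
    have hup : ∀ t, M / 2 ≤ t → T t = T (M / 2) := by
      intro t ht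
      have h1 : T t - T (M / 2) = ∫ s in (M / 2)..t, θ s :=
        intervalIntegral.integral_interval_sub_left (hI _ _) (hI _ _)
      have h2 : ∫ s in (M / 2)..t, θ s = ∫ _ in (M / 2)..t, (0:ℝ) := by
        refine intervalIntegral.integral_congr fun s hs => ?_
        rw [uIcc_of_le ht] at hs
        exact hθz s (Or.inr hs.1)
      rw [h2] at h1
      simp at h1
      linarith
    have hb : T (M / 2) ≤ M := by
      have h2 : ∫ s in (0:ℝ)..(M / 2), θ s ≤ ∫ _ in (0:ℝ)..(M / 2), (1:ℝ) :=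
        intervalIntegral.integral_mono_on (by linarith) (hI _ _) intervalIntegrable_const
          fun s _ => hθ1 s
      have h3 : ∫ _ in (0:ℝ)..(M / 2), (1:ℝ) = M / 2 := by simp
      show ∫ s in (0:ℝ)..(M / 2), θ s ≤ M
      linarith
    rcases le_total t (M / 2) with h | h
    · exact (hmono h).trans hb
    · rw [hup t h]; exact hb

/-- composition along the lines of an open set -/
theorem comp_line {O : Set ℝ} (hO : IsOpen O) {f g : ℝ → ℝ} (hg : LocallyIntegrable g volume)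
    (hf : ∀ s t, s ≤ t → (∀ r ∈ Icc s t, r ∈ O) → f t - f s = ∫ r in s..t, g r)
    (hT : Clamp m M T) :
    ∀ s t, s ≤ t → (∀ r ∈ Icc s t, r ∈ O) →
      T (f t) - T (f s) = ∫ r in s..t, deriv T (f r) * g r := by
  intro s t hst hr
  have hfac : AC f s t := ac_of_line hst (intervalIntegrable_of_li hg s t)
    fun x hx => hf s x hx.1 fun r hr' => hr r ⟨hr'.1, hr'.2.trans hx.2⟩
  have hTf : AC (fun r => T (f r)) s t := ac_lip (h := T) (C := 1) hfac zero_le_one
    (fun u v => by rw [one_mul]; exact hT.sub_le u v)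
  rw [← hTf.integral_deriv_eq_sub]
  refine intervalIntegral.integral_congr_ae ?_
  filter_upwards [ae_hasDerivAt_of_line hO hg hf] with r h1 hrm
  rw [uIoc_of_le hst] at hrm
  have d1 := h1 (hr r ⟨hrm.1.le, hrm.2⟩)
  have d2 : HasDerivAt T (deriv T (f r)) (f r) :=
    (hT.c1.differentiable (by norm_num) (f r)).hasDerivAt
  exact (d2.comp r d1).deriv

/-- a function with its derivatives on all lines (`StrV` without the square integrability of the
function) -/
structure LineV (V : Set (ℝ × ℝ)) (f U1 U2 : ℝ × ℝ → ℝ) : Prop where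
  cont : ContinuousOn f V
  V1 : MemLp U1 2 (volume.restrict V)
  V2 : MemLp U2 2 (volume.restrict V)
  hor : ∀ᵐ y : ℝ, ∀ x x', x ≤ x' → (∀ s ∈ Icc x x', (s, y) ∈ V) →
    f (x', y) - f (x, y) = ∫ s in x..x', U1 (s, y)
  ver : ∀ᵐ x : ℝ, ∀ y y', y ≤ y' → (∀ t ∈ Icc y y', (x, t) ∈ V) →
    f (x, y') - f (x, y) = ∫ t in y..y', U2 (x, t)

theorem LineV.ind (hV : IsOpen V) (h : LineV V F U1 U2) :
    LineV V F (V.indicator U1) (V.indicator U2) ∧
      MemLp (V.indicator U1) 2 (volume : Measure (ℝ × ℝ)) ∧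
      MemLp (V.indicator U2) 2 (volume : Measure (ℝ × ℝ)) := by
  have e1 : ∀ {U : ℝ × ℝ → ℝ}, MemLp U 2 (volume.restrict V) →
      MemLp (V.indicator U) 2 (volume : Measure (ℝ × ℝ)) := fun hU =>
    (memLp_indicator_iff_restrict hV.measurableSet).2 hU
  refine ⟨⟨h.cont, (e1 h.V1).restrict V, (e1 h.V2).restrict V, ?_, ?_⟩, e1 h.V1, e1 h.V2⟩
  · filter_upwards [h.hor] with y hy x x' hxx' hs
    rw [hy x x' hxx' hs]
    refine intervalIntegral.integral_congr fun s hs' => ?_
    rw [uIcc_of_le hxx'] at hs'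
    exact (indicator_of_mem (hs s hs') _).symm
  · filter_upwards [h.ver] with x hx y y' hyy' hs
    rw [hx y y' hyy' hs]
    refine intervalIntegral.integral_congr fun s hs' => ?_
    rw [uIcc_of_le hyy'] at hs'
    exact (indicator_of_mem (hs s hs') _).symm

/-- the clamped function -/
theorem LineV.clamp (hV : IsOpen V) (hVv : volume V ≠ ⊤) (h : LineV V F U1 U2)
    (hT : Clamp m M T) (hm : 0 ≤ m) :
    StrV V (fun p => T (F p)) (fun p => deriv T (F p) * U1 p) (fun p => deriv T (F p) * U2 p) := by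
  obtain ⟨h', hU1, hU2⟩ := h.ind hV
  have hdT : Continuous (deriv T) := hT.c1.continuous_deriv le_rfl
  have hmeas : AEStronglyMeasurable (fun p => deriv T (F p)) (volume.restrict V) :=
    (hdT.comp_continuousOn h.cont).aestronglyMeasurable hV.measurableSet
  have hmul : ∀ {U : ℝ × ℝ → ℝ}, MemLp U 2 (volume.restrict V) →
      MemLp (fun p => deriv T (F p) * U p) 2 (volume.restrict V) := fun hU =>
    memLp_mul_of_bdd (C := 1) hU hmeas fun p => by
      rw [abs_of_nonneg (hT.nn _)]; exact hT.le _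
  refine ⟨hT.c1.continuous.comp_continuousOn h.cont, ?_, hmul h.V1, hmul h.V2, ?_, ?_⟩
  · have : IsFiniteMeasure (volume.restrict V) :=
      ⟨by rw [Measure.restrict_apply_univ]; exact lt_top_iff_ne_top.2 hVv⟩
    refine MemLp.of_bound ((hT.c1.continuous.comp_continuousOn h.cont).aestronglyMeasurable
      hV.measurableSet) (m + M) (Eventually.of_forall fun p => ?_)
    rw [Real.norm_eq_abs]
    exact hT.bdd hm _
  · filter_upwards [h'.hor, Mp_87.ae_line_y hU1] with y h1 h2 x x' hxx' hr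
    have hO : IsOpen {s : ℝ | (s, y) ∈ V} := hV.preimage (by fun_prop)
    rw [comp_line hO (f := fun s => F (s, y)) (g := fun s => V.indicator U1 (s, y))
      (h2.locallyIntegrable (by norm_num)) (fun s t hst hs => h1 s t hst hs) hT x x' hxx' hr]
    refine intervalIntegral.integral_congr fun s hs => ?_
    rw [uIcc_of_le hxx'] at hs
    show deriv T (F (s, y)) * V.indicator U1 (s, y) = _
    rw [indicator_of_mem (hr s hs)]
  · filter_upwards [h'.ver, Mp_87.ae_line_x hU2] with x h1 h2 y y' hyy' hr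
    have hO : IsOpen {s : ℝ | (x, s) ∈ V} := hV.preimage (by fun_prop)
    rw [comp_line hO (f := fun s => F (x, s)) (g := fun s => V.indicator U2 (x, s))
      (h2.locallyIntegrable (by norm_num)) (fun s t hst hs => h1 s t hst hs) hT y y' hyy' hr]
    refine intervalIntegral.integral_congr fun s hs => ?_
    rw [uIcc_of_le hyy'] at hs
    show deriv T (F (x, s)) * V.indicator U2 (x, s) = _
    rw [indicator_of_mem (hr s hs)]

/-! ### limits at the components -/

theorem LimAt.oscLe (h : LimAt E P F k) : OscLe Eᶜ P F 0 := by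
  intro ε hε
  obtain ⟨O, hO, hPO, hb⟩ := h (ε / 2) (by positivity)
  refine ⟨O, hO, hPO, fun q hq q' hq' => ?_⟩
  have h1 := hb q hq
  have h2 := hb q' hq'
  have : F q - F q' = (F q - k) - (F q' - k) := by ring
  rw [this]
  refine (abs_sub _ _).trans ?_
  linarith

/-- the test function near a component on which the cut-off is the constant `c` -/
theorem limAt_phi (hT : Clamp m M T) (h : LimAt E P F k) (hc0 : 0 ≤ c) (hc1 : c ≤ 1)
    (hχ : ∃ O, IsOpen O ∧ P ⊆ O ∧ ∀ p ∈ O, χ p = c) (hw : LimAt E P w 0) :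
    LimAt E P (fun p => χ p * T (F p) + w p) (c * T k) := by
  intro ε hε
  obtain ⟨O, hO, hPO, hb⟩ := h (ε / 2) (by positivity)
  obtain ⟨O₁, hO₁, hPO₁, hb₁⟩ := hw (ε / 2) (by positivity)
  obtain ⟨O₂, hO₂, hPO₂, hb₂⟩ := hχ
  refine ⟨O ∩ O₁ ∩ O₂, (hO.inter hO₁).inter hO₂, subset_inter (subset_inter hPO hPO₁) hPO₂,
    fun p hp => ?_⟩
  have h1 := hb p ⟨hp.1.1.1, hp.2⟩
  have h2 := hb₁ p ⟨hp.1.1.2, hp.2⟩
  rw [sub_zero] at h2
  show |χ p * T (F p) + w p - c * T k| ≤ ε
  rw [hb₂ p hp.1.2]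
  have e : c * T (F p) + w p - c * T k = c * (T (F p) - T k) + w p := by ring
  rw [e]
  refine (abs_add_le _ _).trans ?_
  rw [abs_mul, abs_of_nonneg hc0]
  have h3 := hT.sub_le (F p) k
  have h4 : c * |T (F p) - T k| ≤ 1 * |T (F p) - T k| :=
    mul_le_mul_of_nonneg_right hc1 (abs_nonneg _)
  linarith

theorem oscLe_phi (hT : Clamp m M T) {o : ℝ} (h : OscLe Eᶜ P F o) (hc0 : 0 ≤ c) (hc1 : c ≤ 1)
    (hχ : ∃ O, IsOpen O ∧ P ⊆ O ∧ ∀ p ∈ O, χ p = c) (hw : LimAt E P w 0) :
    OscLe Eᶜ P (fun p => χ p * T (F p) + w p) o := by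
  intro ε hε
  obtain ⟨O, hO, hPO, hb⟩ := h (ε / 2) (by positivity)
  obtain ⟨O₁, hO₁, hPO₁, hb₁⟩ := hw (ε / 4) (by positivity)
  obtain ⟨O₂, hO₂, hPO₂, hb₂⟩ := hχ
  refine ⟨O ∩ O₁ ∩ O₂, (hO.inter hO₁).inter hO₂, subset_inter (subset_inter hPO hPO₁) hPO₂,
    fun p hp q hq => ?_⟩
  have h1 := hb p ⟨hp.1.1.1, hp.2⟩ q ⟨hq.1.1.1, hq.2⟩
  have h2 := hb₁ p ⟨hp.1.1.2, hp.2⟩
  have h2' := hb₁ q ⟨hq.1.1.2, hq.2⟩
  rw [sub_zero] at h2 h2'
  show |χ p * T (F p) + w p - (χ q * T (F q) + w q)| ≤ o + ε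
  rw [hb₂ p hp.1.2, hb₂ q hq.1.2]
  have e : c * T (F p) + w p - (c * T (F q) + w q) = c * (T (F p) - T (F q)) + (w p - w q) := by ring
  rw [e]
  refine (abs_add_le _ _).trans ?_
  rw [abs_mul, abs_of_nonneg hc0]
  have h3 := hT.sub_le (F p) (F q)
  have h4 : c * |T (F p) - T (F q)| ≤ 1 * |T (F p) - T (F q)| :=
    mul_le_mul_of_nonneg_right hc1 (abs_nonneg _)
  have h5 := abs_sub (w p) (w q)
  linarith

theorem oscLe_phi_clamp (hT : Clamp m M T) (hc0 : 0 ≤ c)
    (hχ : ∃ O, IsOpen O ∧ P ⊆ O ∧ ∀ p ∈ O, χ p = c) (hw : LimAt E P w 0) :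
    OscLe Eᶜ P (fun p => χ p * T (F p) + w p) (c * (m + 2 * M)) := by
  intro ε hε
  obtain ⟨O₁, hO₁, hPO₁, hb₁⟩ := hw (ε / 2) (by positivity)
  obtain ⟨O₂, hO₂, hPO₂, hb₂⟩ := hχ
  refine ⟨O₁ ∩ O₂, hO₁.inter hO₂, subset_inter hPO₁ hPO₂, fun p hp q hq => ?_⟩
  have h2 := hb₁ p ⟨hp.1.1, hp.2⟩
  have h2' := hb₁ q ⟨hq.1.1, hq.2⟩
  rw [sub_zero] at h2 h2'
  show |χ p * T (F p) + w p - (χ q * T (F q) + w q)| ≤ c * (m + 2 * M) + ε
  rw [hb₂ p hp.1.2, hb₂ q hq.1.2]
  have e : c * T (F p) + w p - (c * T (F q) + w q) = c * (T (F p) - T (F q)) + (w p - w q) := by ring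
  rw [e]
  refine (abs_add_le _ _).trans ?_
  rw [abs_mul, abs_of_nonneg hc0]
  have h3 := mul_le_mul_of_nonneg_left (hT.diff_le (F p) (F q)) hc0
  have h5 := abs_sub (w p) (w q)
  linarith

/-- a continuous function which vanishes on `E` has the limit `0` at the components -/
theorem limAt_zero (hw : Continuous w) (h0 : ∀ p ∈ P, w p = 0) : LimAt E P w 0 := by
  intro ε hε
  refine ⟨{p | |w p| < ε}, isOpen_lt hw.abs continuous_const, fun p hp => ?_, fun p hp => ?_⟩
  · show |w p| < ε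
    rw [h0 p hp, abs_zero]; exact hε
  · rw [sub_zero]; exact le_of_lt hp.1

end Crest.Agent.R105.Psq_425
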