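import Crest.Agent.R105.Exs0_992
import Crest.Agent.R105.Psq0a_463
import Crest.Agent.R105.Hq3_363
import Crest.Agent.R105.Psq4_425

/-!
Row 105, S0138, Lemma A with squares (helper363 for 425, leaf (L5)): literal `GlueF` = list of the
properties of the glued stream function `F` on the box `R = (a,b) × (c,d)`.

`S` : exempt closed set (`∅`, one free hair, or one solid); `A` : union of the open charged
rectangles of both halves (squares cut by the levels); `lm` : distribution function of the flux in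
the strip `Bm < y < Bp`; `ch Q` : bound of the oscillation over the closed square.
-/

set_option autoImplicit false

open MeasureTheory Set Filter Topology
open scoped NNReal ENNReal

namespace Crest.Agent.R105.Gl_363

open CF_363 Cq_463 Exs_992 Psq_463
open Psq_425 (LineV)

/-- the glued stream function -/
structure GlueF (E : Set (ℝ × ℝ)) (𝒬 : Set Sqr) (𝓗 : Set Hair) (S A : Set (ℝ × ℝ))
    (a b c d Bm Bp : ℝ) (lm : ℝ → ℝ) (ch : Sqr → ℝ) (F U1 U2 : ℝ × ℝ → ℝ) : Prop where
  box : E ⊆ Ioo a b ×ˢ Ioo c d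
  cS : IsClosed S
  SE : S ⊆ E
  oA : IsOpen A
  /-- `A` consists of inner points of charged squares -/
  Asq : ∀ p ∈ A, ∃ Q ∈ 𝒬, p ∈ interior Q.car
  cont : ContinuousOn F ((Ioo a b ×ˢ Ioo c d) \ (A ∪ S))
  str : LineV ((Ioo a b ×ˢ Ioo c d) \ E) F U1 U2
  strip : ∀ p ∈ Ioo a b ×ˢ Ioo c d, Bm < p.2 → p.2 < Bp → p ∉ S → F p = -lm p.1
  hair : ∀ K ∈ 𝓗, Disjoint K.car S → ∀ p ∈ K.car, ∀ q ∈ K.car, F p = F q
  sq : ∀ Q ∈ 𝒬, Disjoint Q.car S → ∀ p ∈ Q.car \ A, ∀ q ∈ Q.car \ A, |F p - F q| ≤ ch Q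

end Crest.Agent.R105.Gl_363
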