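import Crest.Agent.R105.Sqw4_693
import Crest.Agent.R105.Cq2_463

/-! Row 105, S0138, exact squares: the sides of a square of the picture `QPic` are accessible from
the complement of `E` along a.e. horizontal / vertical line. -/

open MeasureTheory Set Filter Topology

namespace Crest.Agent.R105.Sqw_693

open Crest.Agent.R105.Mp_87 (ae_x_of_ae ae_y_of_ae)
open Crest.Agent.R105.Cq_463
open Crest.Agent.R105.CF_363 (Hair)

variable {E : Set (ℝ × ℝ)} {𝒬 : Set Sqr} {𝓗 : Set Hair}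

/-- one step: no one-sided horizontal neighbourhood of a side point lies in `E` -/
theorem exists_notMem_x (hE : QPic E 𝒬 𝓗) {Q : Sqr} (hQ : Q ∈ 𝒬) {y : ℝ}
    (hy : y ∈ Icc Q.y (Q.y + Q.s))
    (h0 : ∀ᵐ x : ℝ, (x, y) ∉ E \ ⋃ Q ∈ 𝒬, Q.car) {u v : ℝ} (huv : u < v)
    (hside : (∃ s ∈ Icc u v, s ∈ Icc Q.x (Q.x + Q.s)) ∧ ∀ x ∈ Ioo u v, x ∉ Icc Q.x (Q.x + Q.s)) :
    ∃ x ∈ Icc u v, (x, y) ∉ E := by
  by_contra hcon
  push Not at hcon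
  set P : Set (ℝ × ℝ) := Icc u v ×ˢ {y} with hP
  have hPE : P ⊆ E := by
    rintro ⟨x, y'⟩ ⟨h1, h2⟩
    rw [mem_singleton_iff] at h2
    simp only at h1 h2
    subst h2
    exact hcon x h1
  have hPc : IsPreconnected P := (convex_Icc u v).isPreconnected.prod isPreconnected_singleton
  obtain ⟨s, hs1, hs2⟩ := hside.1
  have hPQ : (P ∩ Q.car).Nonempty := ⟨(s, y), ⟨hs1, mem_singleton _⟩, hs2, hy⟩
  have hbad : ∀ x ∈ Ioo u v, (x, y) ∈ E \ ⋃ Q ∈ 𝒬, Q.car := by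
    intro x hx
    refine ⟨hcon x ⟨hx.1.le, hx.2.le⟩, fun hx' => ?_⟩
    obtain ⟨Q', hQ', hxQ'⟩ := mem_iUnion₂.mp hx'
    have hQQ : Q = Q' := hE.sep P hPE hPc Q hQ Q' hQ' hPQ
      ⟨(x, y), ⟨⟨hx.1.le, hx.2.le⟩, mem_singleton _⟩, hxQ'⟩
    rw [← hQQ] at hxQ'
    exact hside.2 x hx hxQ'.1
  have hpos : 0 < volume (Ioo u v) := by rw [Real.volume_Ioo]; simpa using huv
  have hz : volume (Ioo u v) = 0 :=
    measure_mono_null (fun x hx (h : (x, y) ∉ E \ ⋃ Q ∈ 𝒬, Q.car) => h (hbad x hx))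
      (ae_iff.mp h0)
  exact hpos.ne' hz

/-- one step, vertical -/
theorem exists_notMem_y (hE : QPic E 𝒬 𝓗) {Q : Sqr} (hQ : Q ∈ 𝒬) {x : ℝ}
    (hx : x ∈ Icc Q.x (Q.x + Q.s))
    (h0 : ∀ᵐ y : ℝ, (x, y) ∉ E \ ⋃ Q ∈ 𝒬, Q.car) {u v : ℝ} (huv : u < v)
    (hside : (∃ s ∈ Icc u v, s ∈ Icc Q.y (Q.y + Q.s)) ∧ ∀ y ∈ Ioo u v, y ∉ Icc Q.y (Q.y + Q.s)) :
    ∃ y ∈ Icc u v, (x, y) ∉ E := by
  by_contra hcon
  push Not at hcon
  set P : Set (ℝ × ℝ) := {x} ×ˢ Icc u v with hP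
  have hPE : P ⊆ E := by
    rintro ⟨x', y⟩ ⟨h2, h1⟩
    rw [mem_singleton_iff] at h2
    simp only at h1 h2
    subst h2
    exact hcon y h1
  have hPc : IsPreconnected P := isPreconnected_singleton.prod (convex_Icc u v).isPreconnected
  obtain ⟨s, hs1, hs2⟩ := hside.1
  have hPQ : (P ∩ Q.car).Nonempty := ⟨(x, s), ⟨mem_singleton _, hs1⟩, hx, hs2⟩
  have hbad : ∀ y ∈ Ioo u v, (x, y) ∈ E \ ⋃ Q ∈ 𝒬, Q.car := by
    intro y hy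
    refine ⟨hcon y ⟨hy.1.le, hy.2.le⟩, fun hy' => ?_⟩
    obtain ⟨Q', hQ', hyQ'⟩ := mem_iUnion₂.mp hy'
    have hQQ : Q = Q' := hE.sep P hPE hPc Q hQ Q' hQ' hPQ
      ⟨(x, y), ⟨mem_singleton _, ⟨hy.1.le, hy.2.le⟩⟩, hyQ'⟩
    rw [← hQQ] at hyQ'
    exact hside.2 y hy hyQ'.2
  have hpos : 0 < volume (Ioo u v) := by rw [Real.volume_Ioo]; simpa using huv
  have hz : volume (Ioo u v) = 0 :=
    measure_mono_null (fun y hy (h : (x, y) ∉ E \ ⋃ Q ∈ 𝒬, Q.car) => h (hbad y hy))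
      (ae_iff.mp h0)
  exact hpos.ne' hz

/-- **the vertical sides of a square are accessible along a.e. horizontal line** -/
theorem acc_x (hE : QPic E 𝒬 𝓗) : ∀ᵐ y : ℝ, ∀ Q ∈ 𝒬, y ∈ Icc Q.y (Q.y + Q.s) →
    Q.x ∈ closure {x : ℝ | (x, y) ∈ Eᶜ} ∧ Q.x + Q.s ∈ closure {x : ℝ | (x, y) ∈ Eᶜ} := by
  have h1 : ∀ᵐ p : ℝ × ℝ, p ∉ E \ ⋃ Q ∈ 𝒬, Q.car := measure_eq_zero_iff_ae_notMem.mp hE.null
  filter_upwards [ae_y_of_ae h1] with y h0 Q hQ hy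
  have hs := Q.hs
  constructor
  · rw [Metric.mem_closure_iff]
    intro ε hε
    obtain ⟨x, hx, hx'⟩ := exists_notMem_x hE hQ hy h0 (u := Q.x - ε / 2) (v := Q.x)
      (by linarith) ⟨⟨Q.x, ⟨by linarith, le_rfl⟩, ⟨le_rfl, by linarith⟩⟩,
        fun x hx hx' => absurd hx'.1 (not_le.mpr hx.2)⟩
    refine ⟨x, hx', ?_⟩
    rw [Real.dist_eq, abs_lt]
    constructor <;> linarith [hx.1, hx.2]
  · rw [Metric.mem_closure_iff]
    intro ε hε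
    obtain ⟨x, hx, hx'⟩ := exists_notMem_x hE hQ hy h0 (u := Q.x + Q.s) (v := Q.x + Q.s + ε / 2)
      (by linarith) ⟨⟨Q.x + Q.s, ⟨le_rfl, by linarith⟩, ⟨by linarith, le_rfl⟩⟩,
        fun x hx hx' => absurd hx'.2 (not_le.mpr hx.1)⟩
    refine ⟨x, hx', ?_⟩
    rw [Real.dist_eq, abs_lt]
    constructor <;> linarith [hx.1, hx.2]

/-- **the horizontal sides of a square are accessible along a.e. vertical line** -/
theorem acc_y (hE : QPic E 𝒬 𝓗) : ∀ᵐ x : ℝ, ∀ Q ∈ 𝒬, x ∈ Icc Q.x (Q.x + Q.s) →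
    Q.y ∈ closure {y : ℝ | (x, y) ∈ Eᶜ} ∧ Q.y + Q.s ∈ closure {y : ℝ | (x, y) ∈ Eᶜ} := by
  have h1 : ∀ᵐ p : ℝ × ℝ, p ∉ E \ ⋃ Q ∈ 𝒬, Q.car := measure_eq_zero_iff_ae_notMem.mp hE.null
  filter_upwards [ae_x_of_ae h1] with x h0 Q hQ hx
  have hs := Q.hs
  constructor
  · rw [Metric.mem_closure_iff]
    intro ε hε
    obtain ⟨y, hy, hy'⟩ := exists_notMem_y hE hQ hx h0 (u := Q.y - ε / 2) (v := Q.y)
      (by linarith) ⟨⟨Q.y, ⟨by linarith, le_rfl⟩, ⟨le_rfl, by linarith⟩⟩,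
        fun y hy hy' => absurd hy'.1 (not_le.mpr hy.2)⟩
    refine ⟨y, hy', ?_⟩
    rw [Real.dist_eq, abs_lt]
    constructor <;> linarith [hy.1, hy.2]
  · rw [Metric.mem_closure_iff]
    intro ε hε
    obtain ⟨y, hy, hy'⟩ := exists_notMem_y hE hQ hx h0 (u := Q.y + Q.s) (v := Q.y + Q.s + ε / 2)
      (by linarith) ⟨⟨Q.y + Q.s, ⟨le_rfl, by linarith⟩, ⟨by linarith, le_rfl⟩⟩,
        fun y hy hy' => absurd hy'.2 (not_le.mpr hy.1)⟩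
    refine ⟨y, hy', ?_⟩
    rw [Real.dist_eq, abs_lt]
    constructor <;> linarith [hy.1, hy.2]

end Crest.Agent.R105.Sqw_693
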