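import Crest.Agent.R105.Gl0_363
import Crest.Agent.R105.SqX_87
import Crest.Agent.R105.Sqw5_693

/-!
Row 105, S0138, Lemma A with squares (helper363, leaf (L5)): one half of the stream function with
charged squares: the hypotheses `HalfC` (geometry + 87's data), admissibility of all points.
-/

set_option autoImplicit false

open MeasureTheory Set Filter Topology
open scoped NNReal ENNReal

namespace Crest.Agent.R105.Gl_363

open CF_363 Cq_463 Sq_87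
open Mp_87 (lam Rc)

variable {ι : Type}

/-- geometry of one half -/
structure GeoC (E S : Set (ℝ × ℝ)) (𝒬 : Set Sqr) (𝓗 : Set Hair) (Q : Rects ι) (sq : ι → Sqr)
    (a b c B T : ℝ) : Prop where
  pic : QPic E 𝒬 𝓗
  cS : IsClosed S
  SE : S ⊆ E
  hS : ∀ K ∈ 𝓗, (K.car ∩ S).Nonempty → K.car ⊆ S
  qS : ∀ Q₀ ∈ 𝒬, (Q₀.car ∩ S).Nonempty → Q₀.car ⊆ S
  att : ∀ K ∈ 𝓗, ∀ Q₀ ∈ 𝒬, Disjoint K.car (interior Q₀.car)
  box : E ⊆ Ioo a b ×ˢ Ioi c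
  cB : c < B
  BT : B < T
  sqm : ∀ i, sq i ∈ 𝒬 ∧ Disjoint (sq i).car S ∧ (sq i).y < B
  sqs : ∀ Q₀ ∈ 𝒬, Disjoint Q₀.car S → Q₀.y < B → ∃ i, sq i = Q₀
  x1 : ∀ i, Q.x i - Q.h1 i = (sq i).x
  x2 : ∀ i, Q.x i + Q.h1 i = (sq i).x + (sq i).s
  y1 : ∀ i, Q.y i - Q.h2 i = (sq i).y
  y2 : ∀ i, Q.y i + Q.h2 i = min ((sq i).y + (sq i).s) B

/-- the carrier of the flux -/
structure CarC (E S : Set (ℝ × ℝ)) (𝒬 : Set Sqr) (B T : ℝ) (μ : Measure (ℝ × ℝ)) : Prop where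
  lvl : ∀ᵐ q ∂μ, q.2 ≤ B
  ray : ∀ᵐ q ∂μ, ∀ y ∈ Ico q.2 T, (q.1, y) ∈ E
  off : ∀ᵐ q ∂μ, ∀ y ∈ Ico q.2 T, ∀ Q₀ ∈ 𝒬, Disjoint Q₀.car S → (q.1, y) ∉ Q₀.car
  sing : (S = ∅ ∧ ∀ x, μ {q | q.1 = x} = 0) ∨ ∀ᵐ q ∂μ, ∀ y ∈ Ico q.2 T, (q.1, y) ∈ S

section
variable {E S SS : Set (ℝ × ℝ)} {𝒬 : Set Sqr} {𝓗 : Set Hair} {Q : Rects ι} {sq : ι → Sqr}
  {a b c B T : ℝ} {μ : Measure (ℝ × ℝ)}

/-- the columns near a point off `S` carry no mass below the top of a small box -/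
theorem exists_box (G : GeoC E S 𝒬 𝓗 Q sq a b c B T) {p : ℝ × ℝ}
    (hp : p ∈ Ioo a b ×ˢ Ioo c T) (hpS : p ∉ S) : ∃ r > 0, a < p.1 - 2 * r ∧ p.1 + 2 * r < b ∧
      c < p.2 - 2 * r ∧ p.2 + 2 * r < T ∧
      ∀ x ∈ Icc (p.1 - 2 * r) (p.1 + 2 * r), ∀ y ∈ Icc (p.2 - 2 * r) (p.2 + 2 * r), (x, y) ∉ S := by
  have h1 : Sᶜ ∈ 𝓝 p := G.cS.isOpen_compl.mem_nhds hpS
  obtain ⟨ε, hε, hεS⟩ := Metric.mem_nhds_iff.1 h1
  obtain ⟨⟨ha, hb⟩, hc, hT⟩ := hp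
  set m := min (min ε (min (p.1 - a) (b - p.1))) (min (p.2 - c) (T - p.2)) with hm
  have hm0 : 0 < m := lt_min (lt_min hε (lt_min (by linarith) (by linarith)))
    (lt_min (by linarith) (by linarith))
  have e1 : m ≤ ε := (min_le_left _ _).trans (min_le_left _ _)
  have e2 : m ≤ p.1 - a := ((min_le_left _ _).trans (min_le_right _ _)).trans (min_le_left _ _)
  have e3 : m ≤ b - p.1 := ((min_le_left _ _).trans (min_le_right _ _)).trans (min_le_right _ _)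
  have e4 : m ≤ p.2 - c := (min_le_right _ _).trans (min_le_left _ _)
  have e5 : m ≤ T - p.2 := (min_le_right _ _).trans (min_le_right _ _)
  refine ⟨m / 3, by positivity, by linarith, by linarith, by linarith, by linarith, ?_⟩
  intro x hx y hy
  refine hεS ?_
  rw [Metric.mem_ball, Prod.dist_eq, Real.dist_eq, Real.dist_eq, max_lt_iff, abs_lt, abs_lt]
  exact ⟨⟨by linarith [hx.1], by linarith [hx.2]⟩, ⟨by linarith [hy.1], by linarith [hy.2]⟩⟩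

/-- no mass in the columns of a box off `S` -/
theorem box_null (C : CarC E S 𝒬 B T μ) {u1 u2 v1 v2 : ℝ} (hv : v1 ≤ v2) (hvT : v2 < T)
    (h : ∀ x ∈ Icc u1 u2, ∀ y ∈ Icc v1 v2, (x, y) ∉ S) {x : ℝ} (hx : x ∈ Icc u1 u2) :
    μ {q | q.1 = x ∧ q.2 ≤ v2} = 0 := by
  rcases C.sing with ⟨-, h1⟩ | h1
  · exact measure_mono_null (fun q hq => hq.1) (h1 x)
  · rw [measure_eq_zero_iff_ae_notMem]
    filter_upwards [h1] with q hq hq2
    obtain ⟨hq2, hq3⟩ := hq2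
    have h2 := hq (max q.2 v1) ⟨le_max_left _ _, max_lt (lt_of_le_of_lt hq3 hvT)
      (lt_of_le_of_lt hv hvT)⟩
    rw [hq2] at h2
    exact h x hx (max q.2 v1) ⟨le_max_right _ _, max_le hq3 hv⟩ h2

/-- **all points off `S` are admissible** -/
theorem admQ (G : GeoC E S 𝒬 𝓗 Q sq a b c B T) (C : CarC E S 𝒬 B T μ)
    (hSS : volume (SS \ S) = 0) {J : ℕ → Finset Hair} (hJ : ∀ n, ∀ K ∈ J n, K ∈ 𝓗) {p : ℝ × ℝ}
    (hp : p ∈ Ioo a b ×ˢ Ioo c T) (hpS : p ∉ S) : p ∈ AdmQ a b c SS μ J := by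
  obtain ⟨r, hr, h1, h2, h3, h4, h5⟩ := exists_box G hp hpS
  refine ⟨r, hr, h1, h2, h3, fun x hx => ?_, fun n K hK hne hKx => ?_, ?_⟩
  · refine measure_mono_null (fun q hq => ?_) (box_null C (by linarith) h4 h5 hx)
    exact ⟨hq.1, le_of_lt hq.2⟩
  · rcases C.sing with ⟨-, h6⟩ | h6
    · exact absurd (measure_mono_null (fun q hq => hq.1) (h6 K.x)) hne
    · by_contra hcon
      push Not at hcon
      obtain ⟨hc1, hc2⟩ := hcon
      apply hne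
      rw [measure_eq_zero_iff_ae_notMem]
      filter_upwards [h6, C.lvl] with q hq hqB hq2
      obtain ⟨hq2, hq3⟩ := hq2
      -- a point of the hair in the box
      have hy : ∃ y ∈ Icc (p.2 - 2 * r) (p.2 + 2 * r), (K.x, y) ∈ K.car := by
        refine ⟨max (p.2 - 2 * r) K.b, ⟨le_max_left _ _, max_le (by linarith) hc2.le⟩,
          Hair.mem_car.2 ⟨rfl, le_max_right _ _, max_le hc1.le K.hbt.le⟩⟩
      obtain ⟨y, hyI, hyK⟩ := hy
      have hyS : (K.x, y) ∉ S := h5 K.x ⟨hKx.1.le, hKx.2.le⟩ y hyI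
      by_cases hqb : q.2 ≤ y
      · have := hq y ⟨hqb, lt_of_le_of_lt hyI.2 h4⟩
        rw [hq2] at this
        exact hyS this
      · push Not at hqb
        -- the mass point lies on the hair
        rcases lt_or_ge q.2 T with hqT | hqT
        · have h7 := hq q.2 ⟨le_rfl, hqT⟩
          rw [hq2] at h7
          have h8 : (K.x, q.2) ∈ K.car := by
            have h9 := Hair.mem_car.1 hyK
            exact Hair.mem_car.2 ⟨rfl, h9.2.1.trans hqb.le, hq3.le⟩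
          exact hyS (G.hS K (hJ n K hK) ⟨_, h8, h7⟩ hyK)
        · exact absurd (hqB.trans_lt G.BT) (not_lt.2 hqT)
  · have h6 : SS ∩ Rc (p.1 - 2 * r) (p.1 + 2 * r) (p.2 - 2 * r) (p.2 + 2 * r) ⊆ SS \ S := by
      rintro w ⟨hw, hw2⟩
      exact ⟨hw, h5 w.1 ⟨hw2.1.1.le, hw2.1.2.le⟩ w.2 ⟨hw2.2.1.le, hw2.2.2.le⟩⟩
    exact measure_mono_null h6 hSS

end

end Crest.Agent.R105.Gl_363
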