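import Crest.Agent.R105.Grd3_782

/-!
# Row 105, S0138 (T-frame, NI): OUTER GREEDY over anchors with a property `X` (319 #10367 (GG))

* `HypL` : hypotheses of the greedy selection, switching only against finite lists of anchors and
  up to `ε`
* `greedyL`, `greedyTTL` : 782's `greedy`, `greedyTT` under `HypL`
* `SwitchLP`, `selTL` : 782's `selT` with anchors of the property `X`
-/

set_option autoImplicit false

open MeasureTheory Set Filter Topology Metric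
open scoped NNReal ENNReal

namespace Crest.Agent.R105.Gl_395

open Bd_775 Ends_897 Tc_808 Ni_459 Crest.AnalysisR Grd_782
open Crest.Agent.R105.IfB_641 (J di lap X0)

noncomputable section

section Greedy

variable {α : Type*} {N : α → α → Prop} {T : α → ℝ} {C S : Set α} {u0 : α}

/-- the hypotheses of the greedy selection: replacement against finite lists, up to `ε` -/
structure HypL (N : α → α → Prop) (T : α → ℝ) (C S : Set α) (u0 : α) : Prop where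
  mem : u0 ∈ C
  sw : u0 ∈ S
  symm : ∀ a ∈ C, ∀ b ∈ C, N a b → N b a
  refl : ∀ a ∈ C, N a a
  bdd : ∃ M, ∀ a ∈ C, M ≤ T a
  switch : ∀ l : List α, (∀ a ∈ l, a ∈ C ∧ a ∈ S) → (∀ a ∈ l, ∀ b ∈ l, N a b) →
    ∀ b ∈ C, (∀ a ∈ l, N a b) → ∀ ε > 0, ∃ b' ∈ C, b' ∈ S ∧ T b' ≤ T b + ε ∧ ∀ a ∈ l, N a b'

lemma exists_goodStepL (h : HypL N T C S u0) (l : List α) (hl : ∀ a ∈ l, a ∈ C ∧ a ∈ S)
    (hp : ∀ a ∈ l, ∀ b ∈ l, N a b) {b0 : α} (hb0 : b0 ∈ C) (hb0' : ∀ a ∈ l, N a b0) : ∃ b, GoodStep N T C S l b := by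
  classical
  set A : Set ℝ := {t | ∃ b ∈ C, (∀ a ∈ l, N a b) ∧ T b = t} with hA
  have hne : A.Nonempty := ⟨T b0, b0, hb0, hb0', rfl⟩
  obtain ⟨M, hM⟩ := h.bdd
  have hbd : BddBelow A := ⟨M, by rintro _ ⟨b, hb, -, rfl⟩; exact hM b hb⟩
  have hε : (0 : ℝ) < (1 / 2 : ℝ) ^ l.length := by positivity
  obtain ⟨_, ⟨b, hb, hbl, rfl⟩, hlt⟩ := exists_lt_of_csInf_lt hne
    (lt_add_of_pos_right (sInf A) (half_pos hε))
  obtain ⟨b', hb', hbS, hT, hN⟩ := h.switch l hl hp b hb hbl _ (half_pos hε)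
  refine ⟨b', hb', hbS, hN, fun c hc hcl => ?_⟩
  have h1 : sInf A ≤ T c := csInf_le hbd ⟨c, hc, hcl, rfl⟩
  linarith

lemma step_specL (h : HypL N T C S u0) (l : List α) (hl : ∀ a ∈ l, a ∈ C ∧ a ∈ S)
    (hp : ∀ a ∈ l, ∀ b ∈ l, N a b)
    {b0 : α} (hb0 : b0 ∈ C) (hb0' : ∀ a ∈ l, N a b0) : GoodStep N T C S l (step N T C S u0 l) := by
  have he := exists_goodStepL h l hl hp hb0 hb0'
  unfold step
  rw [dif_pos he]
  exact he.choose_spec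

lemma sq_specL (h : HypL N T C S u0) (n : ℕ) :
    (∀ k ≤ n, sq N T C S u0 k ∈ C ∧ sq N T C S u0 k ∈ S) ∧
    (∀ i ≤ n, ∀ j ≤ n, i ≤ j → N (sq N T C S u0 i) (sq N T C S u0 j)) ∧
    GoodStep N T C S (lst N T C S u0 n) (sq N T C S u0 (n + 1)) := by
  induction n with
  | zero =>
    have h0 : ∀ k ≤ 0, sq N T C S u0 k ∈ C ∧ sq N T C S u0 k ∈ S := by
      intro k hk; obtain rfl : k = 0 := Nat.le_zero.1 hk; exact ⟨h.mem, h.sw⟩
    refine ⟨h0, ?_, ?_⟩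
    · intro i hi j hj _
      obtain rfl : i = 0 := Nat.le_zero.1 hi
      obtain rfl : j = 0 := Nat.le_zero.1 hj
      exact h.refl _ h.mem
    · refine step_specL h _ ?_ ?_ h.mem ?_
      · intro a ha
        obtain ⟨k, hk, rfl⟩ := (mem_lst N T C S u0 0 a).1 ha
        exact h0 k hk
      · intro a ha b hb
        obtain ⟨k, hk, rfl⟩ := (mem_lst N T C S u0 0 a).1 ha
        obtain ⟨k', hk', rfl⟩ := (mem_lst N T C S u0 0 b).1 hb
        obtain rfl : k = 0 := Nat.le_zero.1 hk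
        obtain rfl : k' = 0 := Nat.le_zero.1 hk'
        exact h.refl _ h.mem
      · intro a ha
        obtain ⟨k, hk, rfl⟩ := (mem_lst N T C S u0 0 a).1 ha
        obtain rfl : k = 0 := Nat.le_zero.1 hk
        exact h.refl _ h.mem
  | succ n ih =>
    obtain ⟨h1, h2, h3⟩ := ih
    have h1' : ∀ k ≤ n + 1, sq N T C S u0 k ∈ C ∧ sq N T C S u0 k ∈ S := by
      intro k hk
      rcases Nat.lt_or_ge k (n + 1) with hlt | hge
      · exact h1 k (Nat.lt_succ_iff.1 hlt)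
      · obtain rfl : k = n + 1 := le_antisymm hk hge
        exact ⟨h3.1, h3.2.1⟩
    have h2' : ∀ i ≤ n + 1, ∀ j ≤ n + 1, i ≤ j → N (sq N T C S u0 i) (sq N T C S u0 j) := by
      intro i hi j hj hij
      rcases Nat.lt_or_ge j (n + 1) with hlt | hge
      · exact h2 i (hij.trans (Nat.lt_succ_iff.1 hlt)) j (Nat.lt_succ_iff.1 hlt) hij
      · obtain rfl : j = n + 1 := le_antisymm hj hge
        rcases Nat.lt_or_ge i (n + 1) with hlt | hge'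
        · exact h3.2.2.1 _ ((mem_lst N T C S u0 n _).2 ⟨i, Nat.lt_succ_iff.1 hlt, rfl⟩)
        · obtain rfl : i = n + 1 := le_antisymm hi hge'
          exact h.refl _ h3.1
    refine ⟨h1', h2', ?_⟩
    refine step_specL h _ ?_ ?_ (b0 := sq N T C S u0 (n + 1)) h3.1 ?_
    · intro a ha
      obtain ⟨k, hk, rfl⟩ := (mem_lst N T C S u0 (n + 1) a).1 ha
      exact h1' k hk
    · intro a ha b hb
      obtain ⟨k, hk, rfl⟩ := (mem_lst N T C S u0 (n + 1) a).1 ha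
      obtain ⟨k', hk', rfl⟩ := (mem_lst N T C S u0 (n + 1) b).1 hb
      rcases le_total k k' with hkk | hkk
      · exact h2' k hk k' hk' hkk
      · exact h.symm _ (h1' k' hk').1 _ (h1' k hk).1 (h2' k' hk' k hk hkk)
    · intro a ha
      obtain ⟨k, hk, rfl⟩ := (mem_lst N T C S u0 (n + 1) a).1 ha
      exact h2' k hk (n + 1) le_rfl hk

/-- **the greedy sequence, list version** -/
theorem greedyL (h : HypL N T C S u0) :
    ∃ (u : ℕ → α) (m : ℝ), u 0 = u0 ∧ (∀ n, u n ∈ C ∧ u n ∈ S) ∧ (∀ i j, N (u i) (u j)) ∧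
      Tendsto (fun n => T (u n)) atTop (𝓝 m) ∧ (∀ n, m ≤ T (u n)) ∧
      ∀ b ∈ C, (∀ i, N (u i) b) → m ≤ T b := by
  set u := sq N T C S u0 with hu
  have hmem : ∀ n, u n ∈ C ∧ u n ∈ S := fun n => (sq_specL h n).1 n le_rfl
  have hN : ∀ i j, N (u i) (u j) := by
    intro i j
    rcases le_total i j with hij | hij
    · exact (sq_specL h j).2.1 i hij j le_rfl hij
    · exact h.symm _ (hmem j).1 _ (hmem i).1 ((sq_specL h i).2.1 j hij i le_rfl hij)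
  set A : Set ℝ := {t | ∃ b ∈ C, (∀ i, N (u i) b) ∧ T b = t} with hA
  obtain ⟨M, hM⟩ := h.bdd
  have hbd : BddBelow A := ⟨M, by rintro _ ⟨b, hb, -, rfl⟩; exact hM b hb⟩
  have hle : ∀ b ∈ C, (∀ i, N (u i) b) → sInf A ≤ T b := fun b hb hb' => csInf_le hbd ⟨b, hb, hb', rfl⟩
  have hne : A.Nonempty := ⟨T (u 0), u 0, (hmem 0).1, fun i => hN i 0, rfl⟩
  have hupper : ∀ n, T (u (n + 1)) ≤ sInf A + (1 / 2 : ℝ) ^ (n + 1) := by
    intro n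
    have h1 : T (u (n + 1)) - (1 / 2 : ℝ) ^ (n + 1) ≤ sInf A := by
      refine le_csInf hne ?_
      rintro _ ⟨b, hb, hb', rfl⟩
      have h2 := (sq_specL h n).2.2.2.2.2 b hb (fun a ha => by
        obtain ⟨k, _, rfl⟩ := (mem_lst N T C S u0 n a).1 ha
        exact hb' k)
      rw [length_lst] at h2
      linarith
    linarith
  refine ⟨u, sInf A, rfl, hmem, hN, ?_, fun n => hle _ (hmem n).1 fun i => hN i n, hle⟩
  rw [← tendsto_add_atTop_iff_nat 1]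
  refine tendsto_of_tendsto_of_tendsto_of_le_of_le (tendsto_const_nhds (x := sInf A)) ?_
    (fun n => hle _ (hmem _).1 fun i => hN i _) hupper
  have h3 : Tendsto (fun n : ℕ => (1 / 2 : ℝ) ^ (n + 1)) atTop (𝓝 0) :=
    (tendsto_pow_atTop_nhds_zero_of_lt_one (by norm_num) (by norm_num)).comp (tendsto_add_atTop_nat 1)
  simpa using h3.const_add (sInf A)

end Greedy

variable {Y : Set ℂ} {x0 φ ψ a b : ℂ → ℝ}

/-- **greedy package in the class `TT`, list version** -/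
theorem greedyTTL (hY : IsClosed Y) {N : (ℂ → ℝ) → (ℂ → ℝ) → Prop} {C S : Set (ℂ → ℝ)}
    {ℓ : (ℂ → ℝ) → ℝ} {u0 : ℂ → ℝ} (hC : ∀ a ∈ C, TT Y a)
    (hℓ : ∀ a ∈ C, ∀ b ∈ C, ℓ (mid a b) = (ℓ a + ℓ b) / 2)
    (hmid : ∀ a ∈ C, ∀ b ∈ C, mid a b ∈ C)
    (hN : ∀ a ∈ C, a ∈ S → ∀ b ∈ C, ∀ b' ∈ C, N a b → N a b' → N a (mid b b'))
    (h : HypL N (fun a => ET Y a + ℓ a) C S u0) :
    ∃ (u : ℕ → ℂ → ℝ) (m : ℝ) (σ : Cmp Y → ℝ), u 0 = u0 ∧ (∀ n, u n ∈ C ∧ u n ∈ S) ∧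
      (∀ i j, N (u i) (u j)) ∧ Tendsto (fun n => ET Y (u n) + ℓ (u n)) atTop (𝓝 m) ∧
      (∀ b ∈ C, (∀ i, N (u i) b) → m ≤ ET Y b + ℓ b) ∧
      (∀ ε > 0, ∃ n₀, ∀ i ≥ n₀, ∀ j ≥ n₀, ∫ z in Yᶜ, en (fun w => u i w - u j w) z ≤ ε) ∧
      (Summable fun K => σ K ^ 2) ∧
      (∀ K, Tendsto (fun n => Tc_808.osc Y (u n) K.1) atTop (𝓝 (σ K))) ∧
      Tendsto (fun n => ∑' K : Cmp Y, (Tc_808.osc Y (u n) K.1 - σ K) ^ 2) atTop (𝓝 0) ∧
      (∀ ε > 0, ∃ (F : Finset (Cmp Y)) (n₀ : ℕ), ∀ n ≥ n₀, ∀ A : Set (Cmp Y),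
        Disjoint A (F : Set (Cmp Y)) → ∑' K : A, Tc_808.osc Y (u n) K.1.1 ^ 2 ≤ ε) := by
  obtain ⟨u, m, hu0, hmem, hNN, hlim, -, hmin⟩ := greedyL h
  set q : (ℂ → ℝ) → (ℂ → ℝ) → ℝ := fun a b =>
    (1 / 4) * (∫ z in Yᶜ, en (fun w => a w - b w) z) +
      (1 / 4) * ∑' K : Cmp Y, (Tc_808.osc Y a K.1 - Tc_808.osc Y b K.1) ^ 2 with hq
  have hC' : ∀ n, TT Y (u n) := fun n => hC _ (hmem n).1
  have hmidA : ∀ i j, m ≤ ET Y (mid (u i) (u j)) + ℓ (mid (u i) (u j)) := fun i j =>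
    hmin _ (hmid _ (hmem i).1 _ (hmem j).1) fun k =>
      hN _ (hmem k).1 (hmem k).2 _ (hmem i).1 _ (hmem j).1 (hNN k i) (hNN k j)
  have hpar : ∀ i j, (ET Y (mid (u i) (u j)) + ℓ (mid (u i) (u j))) + q (u i) (u j) ≤
      ((ET Y (u i) + ℓ (u i)) + (ET Y (u j) + ℓ (u j))) / 2 := by
    intro i j
    have h1 := ET_mid hY (hC' i) (hC' j)
    rw [hℓ _ (hmem i).1 _ (hmem j).1]
    simp only [hq]
    linarith
  have hcau := cauchy_of_parallelogram (T := fun a => ET Y a + ℓ a) (mid := mid) (q := q) hlim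
    hmidA hpar
  have hI0 : ∀ a b : ℂ → ℝ, 0 ≤ ∫ z in Yᶜ, en (fun w => a w - b w) z := fun a b =>
    integral_nonneg fun z => en_nonneg _ _
  have hS0 : ∀ a b : ℂ → ℝ,
      0 ≤ ∑' K : Cmp Y, (Tc_808.osc Y a K.1 - Tc_808.osc Y b K.1) ^ 2 := fun a b =>
    tsum_nonneg fun K => sq_nonneg _
  obtain ⟨σ, hσ, hσlim, hd, hσ0⟩ := l2_limit (s := fun n (K : Cmp Y) => Tc_808.osc Y (u n) K.1)
    (fun n => (hC' n).sum) (fun ε hε => by
      obtain ⟨n₀, hn₀⟩ := hcau (ε / 4) (by positivity)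
      refine ⟨n₀, fun i hi j hj => ?_⟩
      have h1 := hn₀ i hi j hj
      simp only [hq] at h1
      linarith [hI0 (u i) (u j)])
  refine ⟨u, m, σ, hu0, hmem, hNN, hlim, hmin, fun ε hε => ?_, hσ, hσlim, hσ0, fun ε hε => ?_⟩
  · obtain ⟨n₀, hn₀⟩ := hcau (ε / 4) (by positivity)
    refine ⟨n₀, fun i hi j hj => ?_⟩
    have h1 := hn₀ i hi j hj
    simp only [hq] at h1
    linarith [hS0 (u i) (u j)]
  · exact tail_small (fun n => (hC' n).sum) hσ hd hσ0 hε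

/-- replacement by an anchor of the property `X`, against finite lists, up to `ε` -/
def SwitchLP (Y : Set ℂ) (x0 : ℂ → ℝ) (P X : (ℂ → ℝ) → Prop) : Prop :=
  ∀ l : List (ℂ → ℝ), (∀ a ∈ l, TT Y a ∧ P a ∧ Swd Y (fun z => x0 z + a z) ∧ X a) →
    (∀ a ∈ l, ∀ b ∈ l, NI Y a b) → ∀ φ, TT Y φ → P φ → (∀ a ∈ l, NI Y a φ) → ∀ ε > 0,
      ∃ ψ, TT Y ψ ∧ P ψ ∧ Swd Y (fun z => x0 z + ψ z) ∧ X ψ ∧ TJ Y x0 ψ ≤ TJ Y x0 φ + ε ∧
        ∀ a ∈ l, NI Y a ψ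

/-- **SELECTION with anchors of the property `X`** -/
theorem selTL (hY : IsCompact Y) (hx : X0 Y x0) {P X : (ℂ → ℝ) → Prop} (hP : PLin P)
    (hsw : SwitchLP Y x0 P X) (hlin : CombP Y x0 P) {φ0 : ℂ → ℝ} (h0 : TT Y φ0) (hP0 : P φ0)
    (hs0 : Swd Y (fun z => x0 z + φ0 z)) (hX0 : X φ0) :
    ∃ (u : ℕ → ℂ → ℝ) (m : ℝ) (σ : Cmp Y → ℝ), u 0 = φ0 ∧ (∀ n, X (u n)) ∧
      SelT Y x0 P u m σ := by
  have hYc := hY.isClosed
  set C : Set (ℂ → ℝ) := {φ | TT Y φ ∧ P φ} with hC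
  set S : Set (ℂ → ℝ) := {φ | Swd Y (fun z => x0 z + φ z) ∧ X φ} with hS
  set ℓ : (ℂ → ℝ) → ℝ := fun φ => -2 * ∫ z, φ z * lap x0 z with hℓ
  have hT : ∀ φ, ET Y φ + ℓ φ = TJ Y x0 φ := fun φ => (TJ_eq Y x0 φ).symm
  have hmidC : ∀ a ∈ C, ∀ b ∈ C, mid a b ∈ C := by
    rintro a ⟨ha, ha'⟩ b ⟨hb, hb'⟩
    exact ⟨TT_mid hYc ha hb, by rw [mid_eq]; exact hP a b ha' hb' _ _⟩
  have hyp : HypL (NI Y) (fun a => ET Y a + ℓ a) C S φ0 := by
    refine ⟨⟨h0, hP0⟩, ⟨hs0, hX0⟩, fun a _ b _ h => NI_symm h, fun a _ => NI_self Y a, ?_, ?_⟩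
    · obtain ⟨M, hM⟩ := TJ_bdd hY hx
      exact ⟨M, fun a ha => by rw [hT]; exact hM a ha.1⟩
    · rintro l hl hp b ⟨hb, hb'⟩ hlb ε hε
      obtain ⟨ψ, h1, h2, h3, h4, h5, h6⟩ := hsw l
        (fun a ha => ⟨(hl a ha).1.1, (hl a ha).1.2, (hl a ha).2.1, (hl a ha).2.2⟩) hp b hb hb'
        hlb ε hε
      exact ⟨ψ, ⟨h1, h2⟩, ⟨h3, h4⟩, by rw [hT, hT]; exact h5, h6⟩
  obtain ⟨u, m, σ, e0, h1, h2, h3, h4, h5, h6, h7, h8, h9⟩ := greedyTTL hYc (fun a ha => ha.1)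
    (fun a ha b hb => ell_mid hYc hx ha.1 hb.1) hmidC
    (fun a ha hs b hb b' hb' h h' => by
      rw [mid_eq]; exact hlin a ha.1 ha.2 hs.1 b b' hb.1 hb.2 hb'.1 hb'.2 h h' _ _) hyp
  refine ⟨u, m, σ, e0, fun n => (h1 n).2.2, ?_⟩
  exact
    { tt := fun n => (h1 n).1.1
      p := fun n => (h1 n).1.2
      swd := fun n => (h1 n).2.1
      ni := h2
      lim := by simpa only [hT] using h3
      min := fun b hb hPb h => by rw [← hT]; exact h4 b ⟨hb, hPb⟩ h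
      cauchy := h5
      sum := h6
      oscl := h7
      l2 := h8
      tail := h9 }

end

end Crest.Agent.R105.Gl_395
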