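import Crest.Agent.R105.Gl2_363

/-!
Row 105, S0138, Lemma A with squares (helper363, leaf (L5)): the glued function, continuity, strip,
hairs, squares.
-/

set_option autoImplicit false

open MeasureTheory Set Filter Topology
open scoped NNReal ENNReal

namespace Crest.Agent.R105.Gl_363

open CF_363 Cq_463 Sq_87 Hq_363 Kbx_247
open Mp_87 (lam Rc)

variable {ι ι' : Type}

section Geo
variable {E S : Set (ℝ × ℝ)} {𝒬 : Set Sqr} {𝓗 : Set Hair} {Q : Rects ι} {sq : ι → Sqr}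
  {a b c B T : ℝ} {μ : Measure (ℝ × ℝ)}

theorem mem_op {i : ι} {p : ℝ × ℝ} : p ∈ Q.op i ↔
    (Q.x i - Q.h1 i < p.1 ∧ p.1 < Q.x i + Q.h1 i) ∧ Q.y i - Q.h2 i < p.2 ∧ p.2 < Q.y i + Q.h2 i :=
  Iff.rfl

theorem mem_clq {i : ι} {p : ℝ × ℝ} : p ∈ clq Q i ↔
    (Q.x i - Q.h1 i ≤ p.1 ∧ p.1 ≤ Q.x i + Q.h1 i) ∧ Q.y i - Q.h2 i ≤ p.2 ∧ p.2 ≤ Q.y i + Q.h2 i :=
  Iff.rfl

theorem mem_clq' (G : GeoC E S 𝒬 𝓗 Q sq a b c B T) {i : ι} {p : ℝ × ℝ} :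
    p ∈ clq Q i ↔ p ∈ (sq i).car ∧ p.2 ≤ B := by
  rw [mem_clq, G.x1, G.x2, G.y1, G.y2, Sqr.mem_car, le_min_iff]
  tauto

theorem interior_car (Q₀ : Sqr) :
    interior Q₀.car = Ioo Q₀.x (Q₀.x + Q₀.s) ×ˢ Ioo Q₀.y (Q₀.y + Q₀.s) := by
  rw [Sqr.car, interior_prod_eq, interior_Icc, interior_Icc]

theorem mem_op' (G : GeoC E S 𝒬 𝓗 Q sq a b c B T) {i : ι} {p : ℝ × ℝ} :
    p ∈ Q.op i ↔ p ∈ interior (sq i).car ∧ p.2 < B := by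
  rw [mem_op, G.x1, G.x2, G.y1, G.y2, interior_car, lt_min_iff]
  simp only [mem_prod, mem_Ioo]
  tauto

theorem un_lt (G : GeoC E S 𝒬 𝓗 Q sq a b c B T) {p : ℝ × ℝ} (hp : p ∈ Q.un) : p.2 < B := by
  obtain ⟨i, hi⟩ := mem_iUnion.1 hp
  exact ((mem_op' G).1 hi).2

theorem un_int (G : GeoC E S 𝒬 𝓗 Q sq a b c B T) {p : ℝ × ℝ} (hp : p ∈ Q.un) :
    ∃ Q₀ ∈ 𝒬, p ∈ interior Q₀.car := by
  obtain ⟨i, hi⟩ := mem_iUnion.1 hp
  exact ⟨sq i, (G.sqm i).1, ((mem_op' G).1 hi).1⟩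

theorem un_sub (G : GeoC E S 𝒬 𝓗 Q sq a b c B T) : Q.un ⊆ E := by
  intro p hp
  obtain ⟨Q₀, hQ₀, h⟩ := un_int G hp
  exact G.pic.sub Q₀ hQ₀ (interior_subset h)

theorem lam_eq_of_null [IsFiniteMeasure μ] {x x' : ℝ} (hx : x ≤ x')
    (h : ∀ᵐ q ∂μ, ¬ (x ≤ q.1 ∧ q.1 ≤ x')) : lam μ x' = lam μ x := by
  unfold Mp_87.lam
  congr 1
  refine measure_congr ?_
  filter_upwards [h] with q hq
  refine propext ⟨fun h1 => ?_, fun h1 => ?_⟩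
  · show q.1 < x
    have h1' : q.1 < x' := h1
    by_contra hcon
    push Not at hcon
    exact hq ⟨hcon, h1'.le⟩
  · show q.1 < x'
    have h1' : q.1 < x := h1
    exact lt_of_lt_of_le h1' hx

end Geo

section Two
variable {E S : Set (ℝ × ℝ)} {𝒬 : Set Sqr} {𝓗 : Set Hair} {Q : Rects ι} {Q' : Rects ι'}
  {sq : ι → Sqr} {sq' : ι' → Sqr} {a b c d Bm Bp Tl Tu M : ℝ}
  {X1 X2 ψ Ψ Y1 Y2 ψ' Ψ' : ℝ × ℝ → ℝ} {μ ν : Measure (ℝ × ℝ)} {f : ι → ℝ} {f' : ι' → ℝ}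
  {g g' : ℝ × ℝ → ℝ}

/-- both representatives agree on the overlap -/
theorem TwoG.agree (H : TwoG E S 𝒬 𝓗 Q Q' sq sq' a b c d Bm Bp Tl Tu M X1 X2 ψ Ψ Y1 Y2 ψ' Ψ' μ ν f f'
    g g') {p : ℝ × ℝ} (hp : p.1 ∈ Ioo a b) (h1 : Bm < p.2) (h2 : p.2 < Bp) (h3 : p.2 < Tl)
    (hS : p ∉ S) : g p = -lam ν p.1 ∧ g' (rf p) = -lam ν p.1 := by
  have e1 := H.H.strip p ⟨hp, H.G.cB.trans h1, h3⟩ h1 hS
  have e2 := H.H'.strip (rf p) ⟨hp, by show -d < -p.2; linarith [H.Bd], by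
    show -p.2 < Tu; linarith [H.Mu]⟩ (by show -Bp < -p.2; linarith) (by simpa using hS)
  rw [H.marg p ⟨hp, h1, h2⟩ h3 hS] at e1
  exact ⟨e1, e2⟩

theorem TwoG.F_lo (H : TwoG E S 𝒬 𝓗 Q Q' sq sq' a b c d Bm Bp Tl Tu M X1 X2 ψ Ψ Y1 Y2 ψ' Ψ' μ ν f f'
    g g') {p : ℝ × ℝ} (hp : p.1 ∈ Ioo a b) (h2 : p.2 < Bp) (h3 : p.2 < Tl)
    (hS : p ∉ S) : glF M g g' p = g p := by
  unfold glF
  split_ifs with h
  · rfl
  · have := H.agree hp (by linarith [H.BM]) h2 h3 hS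
    rw [this.1, this.2]

theorem TwoG.F_up (H : TwoG E S 𝒬 𝓗 Q Q' sq sq' a b c d Bm Bp Tl Tu M X1 X2 ψ Ψ Y1 Y2 ψ' Ψ' μ ν f f'
    g g') {p : ℝ × ℝ} (hp : p.1 ∈ Ioo a b) (h1 : Bm < p.2)
    (hS : p ∉ S) : glF M g g' p = g' (rf p) := by
  unfold glF
  split_ifs with h
  · have := H.agree hp h1 (by linarith [H.MB]) (by linarith [H.Ml]) hS
    rw [this.1, this.2]
  · rfl

/-- the strip formula, open strip -/
theorem TwoG.strip₀ (H : TwoG E S 𝒬 𝓗 Q Q' sq sq' a b c d Bm Bp Tl Tu M X1 X2 ψ Ψ Y1 Y2 ψ' Ψ' μ ν f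
    f' g g') {p : ℝ × ℝ} (hp : p.1 ∈ Ioo a b) (h1 : Bm < p.2) (h2 : p.2 < Bp)
    (hS : p ∉ S) : glF M g g' p = -lam ν p.1 := by
  rw [H.F_up hp h1 hS]
  exact H.H'.strip (rf p) ⟨hp, by show -d < -p.2; linarith [H.Bd], by
    show -p.2 < Tu; linarith [H.Mu]⟩ (by show -Bp < -p.2; linarith) (by simpa using hS)

theorem TwoG.cont (H : TwoG E S 𝒬 𝓗 Q Q' sq sq' a b c d Bm Bp Tl Tu M X1 X2 ψ Ψ Y1 Y2 ψ' Ψ' μ ν f
    f' g g') : ContinuousOn (glF M g g')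
      ((Ioo a b ×ˢ Ioo c d) \ ((Q.un ∪ rf ⁻¹' Q'.un) ∪ S)) := by
  refine continuousOn_of_locally_continuousOn fun p hp => ?_
  obtain ⟨⟨hp1, hp2, hp3⟩, hpn⟩ := hp
  rcases lt_or_ge p.2 M with hpM | hpM
  · refine ⟨{q | q.2 < min Bp Tl}, isOpen_Iio.preimage continuous_snd,
      lt_min (hpM.trans H.MB) (hpM.trans H.Ml), ?_⟩
    have h1 : ContinuousOn g (((Ioo a b ×ˢ Ioo c d) \ ((Q.un ∪ rf ⁻¹' Q'.un) ∪ S)) ∩
        {q | q.2 < min Bp Tl}) := by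
      refine H.H.cont.mono ?_
      rintro q ⟨⟨⟨q1, q2, q3⟩, q4⟩, q5⟩
      have q5' : q.2 < min Bp Tl := q5
      rw [lt_min_iff] at q5'
      exact ⟨⟨q1, q2, q5'.2⟩, fun h => q4 (h.elim (fun h => Or.inl (Or.inl h)) Or.inr)⟩
    refine h1.congr ?_
    rintro q ⟨⟨⟨q1, q2, q3⟩, q4⟩, q5⟩
    have q5' : q.2 < min Bp Tl := q5
    rw [lt_min_iff] at q5'
    exact H.F_lo q1 q5'.1 q5'.2 fun h => q4 (Or.inr h)
  · refine ⟨{q | Bm < q.2}, isOpen_Ioi.preimage continuous_snd,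
      H.BM.trans_le hpM, ?_⟩
    have h1 : ContinuousOn (fun q => g' (rf q))
        (((Ioo a b ×ˢ Ioo c d) \ ((Q.un ∪ rf ⁻¹' Q'.un) ∪ S)) ∩ {q | Bm < q.2}) := by
      refine H.H'.cont.comp continuous_rf.continuousOn ?_
      rintro q ⟨⟨⟨q1, q2, q3⟩, q4⟩, q5⟩
      have q5' : Bm < q.2 := q5
      refine ⟨⟨q1, by show -d < -q.2; linarith, by show -q.2 < Tu; linarith [H.Mu]⟩, fun h => q4 ?_⟩
      rcases h with h | h
      · exact Or.inl (Or.inr h)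
      · exact Or.inr (by simpa using h)
    refine h1.congr ?_
    rintro q ⟨⟨⟨q1, q2, q3⟩, q4⟩, q5⟩
    exact H.F_up q1 q5 fun h => q4 (Or.inr h)

/-- the strip formula, closed strip -/
theorem TwoG.strip (H : TwoG E S 𝒬 𝓗 Q Q' sq sq' a b c d Bm Bp Tl Tu M X1 X2 ψ Ψ Y1 Y2 ψ' Ψ' μ ν f
    f' g g') {p : ℝ × ℝ} (hp : p.1 ∈ Ioo a b) (h1 : Bm ≤ p.2) (h2 : p.2 ≤ Bp)
    (hS : p ∉ S) : glF M g g' p = -lam ν p.1 := by
  have hBM := H.BM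
  have hMB := H.MB
  have hcB := H.G.cB
  have hBd := H.Bd
  have hnA : ∀ q : ℝ × ℝ, Bm ≤ q.2 → q.2 ≤ Bp → q ∉ Q.un ∪ rf ⁻¹' Q'.un := by
    rintro q q1 q2 (h | h)
    · exact absurd (un_lt H.G h) (not_lt.2 q1)
    · have := un_lt H.G' h
      simp only [rf_snd] at this
      linarith
  have hpd : p ∈ (Ioo a b ×ˢ Ioo c d) \ ((Q.un ∪ rf ⁻¹' Q'.un) ∪ S) :=
    ⟨⟨hp, by linarith, by linarith⟩, fun h => h.elim (hnA p h1 h2) hS⟩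
  -- the approximating points
  set z : ℕ → ℝ × ℝ := fun n => (p.1, p.2 + (M - p.2) / ((n : ℝ) + 1)) with hz
  have hz0 : Tendsto z atTop (𝓝 p) := by
    have h3 : Tendsto (fun n : ℕ => p.2 + (M - p.2) / ((n : ℝ) + 1)) atTop (𝓝 p.2) := by
      have h4 := (tendsto_one_div_add_atTop_nhds_zero_nat (𝕜 := ℝ)).const_mul (M - p.2)
      rw [mul_zero] at h4
      have h5 := h4.const_add p.2
      rw [add_zero] at h5
      refine h5.congr fun n => ?_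
      ring
    exact (tendsto_const_nhds (x := p.1)).prodMk_nhds h3
  have hmem : ∀ n, Bm < (z n).2 ∧ (z n).2 < Bp := by
    intro n
    have hn : (0:ℝ) < (n : ℝ) + 1 := by positivity
    have hn1 : 1 / ((n : ℝ) + 1) ≤ 1 := by
      rw [div_le_one hn]; linarith [(Nat.cast_nonneg n : (0:ℝ) ≤ n)]
    have hn0 : 0 < 1 / ((n : ℝ) + 1) := by positivity
    have e : (z n).2 = p.2 * (1 - 1 / ((n : ℝ) + 1)) + M * (1 / ((n : ℝ) + 1)) := by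
      show p.2 + (M - p.2) / ((n : ℝ) + 1) = _
      ring
    rw [e]
    constructor <;> nlinarith
  have hSn : ∀ᶠ n in atTop, z n ∉ S := hz0 (H.G.cS.isOpen_compl.mem_nhds hS)
  have hev : ∀ᶠ n in atTop, z n ∈ (Ioo a b ×ˢ Ioo c d) \ ((Q.un ∪ rf ⁻¹' Q'.un) ∪ S) := by
    filter_upwards [hSn] with n hn
    exact ⟨⟨hp, by linarith [(hmem n).1], by linarith [(hmem n).2]⟩, fun h =>
      h.elim (hnA _ (hmem n).1.le (hmem n).2.le) hn⟩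
  have hlim : Tendsto (fun n => glF M g g' (z n)) atTop (𝓝 (glF M g g' p)) :=
    (H.cont p hpd).tendsto.comp (tendsto_nhdsWithin_iff.2 ⟨hz0, hev⟩)
  have hlim2 : Tendsto (fun n => glF M g g' (z n)) atTop (𝓝 (-lam ν p.1)) := by
    refine tendsto_const_nhds.congr' ?_
    filter_upwards [hSn] with n hn
    exact (H.strip₀ (p := z n) hp (hmem n).1 (hmem n).2 hn).symm
  exact tendsto_nhds_unique hlim hlim2

/-- points at level `≤ M` -/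
theorem TwoG.F_lo' (H : TwoG E S 𝒬 𝓗 Q Q' sq sq' a b c d Bm Bp Tl Tu M X1 X2 ψ Ψ Y1 Y2 ψ' Ψ' μ ν f f'
    g g') {p : ℝ × ℝ} (hp : p.1 ∈ Ioo a b) (h2 : p.2 ≤ M) (hS : p ∉ S) : glF M g g' p = g p :=
  H.F_lo hp (h2.trans_lt H.MB) (h2.trans_lt H.Ml) hS

/-- constancy on the hairs -/
theorem TwoG.hair (H : TwoG E S 𝒬 𝓗 Q Q' sq sq' a b c d Bm Bp Tl Tu M X1 X2 ψ Ψ Y1 Y2 ψ' Ψ' μ ν f
    f' g g') {K : Hair} (hK : K ∈ 𝓗) (hKS : Disjoint K.car S) :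
    ∀ p ∈ K.car, ∀ q ∈ K.car, glF M g g' p = glF M g g' q := by
  have hab : ∀ p ∈ K.car, p.1 ∈ Ioo a b := fun p hp => (H.box (H.G.pic.hsub K hK hp)).1
  have hnS : ∀ p ∈ K.car, p ∉ S := fun p hp => Set.disjoint_left.1 hKS hp
  have hKr : K.refl ∈ reflH 𝓗 := by
    show K.refl.refl ∈ 𝓗
    rw [Hair.refl_refl]; exact hK
  have hKr' : Disjoint K.refl.car (rf ⁻¹' S) := by
    rw [Hair.car_refl]
    exact hKS.preimage _
  have lo : ∀ p ∈ K.car, ∀ q ∈ K.car, p.2 ≤ M → q.2 ≤ M → glF M g g' p = glF M g g' q := by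
    intro p hp q hq h1 h2
    rw [H.F_lo' (hab p hp) h1 (hnS p hp), H.F_lo' (hab q hq) h2 (hnS q hq)]
    exact H.H.hair K hK hKS p hp q hq (h1.trans_lt H.Ml) (h2.trans_lt H.Ml)
  have up : ∀ p ∈ K.car, ∀ q ∈ K.car, M ≤ p.2 → M ≤ q.2 → glF M g g' p = glF M g g' q := by
    intro p hp q hq h1 h2
    rw [H.F_up (hab p hp) (H.BM.trans_le h1) (hnS p hp),
      H.F_up (hab q hq) (H.BM.trans_le h2) (hnS q hq)]
    have hMu := H.Mu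
    have hBM := H.BM
    exact H.H'.hair K.refl hKr hKr' (rf p) (by rw [Hair.car_refl]; simpa using hp) (rf q)
      (by rw [Hair.car_refl]; simpa using hq) (by show -p.2 < Tu; linarith)
      (by show -q.2 < Tu; linarith)
  have mid : ∀ p ∈ K.car, ∀ q ∈ K.car, p.2 ≤ M → M ≤ q.2 → glF M g g' p = glF M g g' q := by
    intro p hp q hq h1 h2
    have hm : (K.x, M) ∈ K.car := Hair.mem_car.2 ⟨rfl, (Hair.mem_car.1 hp).2.1.trans h1,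
      h2.trans (Hair.mem_car.1 hq).2.2⟩
    rw [lo p hp _ hm h1 le_rfl, up _ hm q hq le_rfl h2]
  intro p hp q hq
  rcases le_total p.2 M with h1 | h1 <;> rcases le_total q.2 M with h2 | h2
  · exact lo p hp q hq h1 h2
  · exact mid p hp q hq h1 h2
  · exact (mid q hq p hp h2 h1).symm
  · exact up p hp q hq h1 h2

end Two

end Crest.Agent.R105.Gl_363
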