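import Crest.Agent.R105.Gl2_395
import Crest.Agent.R105.Yv6_319

/-!
# Row 105, S0138 (T-frame, NI): **anchors may be taken extremal** (319 #10367 (GG); helper395)

* `pk_of_set`  : a minimiser over the commutant of a countable set of anchors, as 8's `Pk`
* `inner`      : below every member of the commutant of a finite list there is an extremal one,
  up to `ε`
* `attain_ext` : `∃ a φ F, Pk Y x0 a φ F ∧ ∀ i, ExtA Y x0 (a i)`
* `lemY`       : Lemma Y (319 `lemY_ext`, `acv_ext`) for the package of `attain_ext`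
-/

set_option autoImplicit false

open MeasureTheory Set Filter Topology Metric
open scoped NNReal ENNReal ContDiff

namespace Crest.Agent.R105.Gl_395

open Crest.AnalysisR Bd_775 IfB_641 Tc_808 Ni_459 Grd_782 SkA_8
open Yv_319 (ExtA)

variable {Y : Set ℂ} {x0 φ ψ a b : ℂ → ℝ} {𝒜 : Set (ℂ → ℝ)} {u : ℕ → ℂ → ℝ} {m : ℝ}
  {σ : Cmp Y → ℝ}

/-- a countable set of anchors as a sequence -/
theorem pk_of_set {F : ℂ → ℂ} (hY : IsExteriorDomain Yᶜ) (hx : X0 Y x0) {S : Set (ℂ → ℝ)}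
    (hS : S.Countable) (hne : S.Nonempty) (hA : Anc Y x0 S) (hp : ∀ a ∈ S, ∀ b ∈ S, NI Y a b)
    (hψ : TT Y ψ) (hc : ∀ a ∈ S, NI Y a ψ)
    (hmin : ∀ b, TT Y b → (∀ a ∈ S, NI Y a b) → TJ Y x0 ψ ≤ TJ Y x0 b)
    (hF : DifferentiableOn ℂ F Yᶜ) (hre : ∀ z ∈ Yᶜ, (F z).re = x0 z + ψ z)
    (hinf : ∃ c : ℂ, Tendsto (fun z => F z - z) (cocompact ℂ) (𝓝 c)) :
    ∃ b : ℕ → ℂ → ℝ, range b = S ∧ Pk Y x0 b ψ F := by
  obtain ⟨b, hb⟩ := hS.exists_eq_range hne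
  have hm : ∀ i, b i ∈ S := fun i => hb ▸ mem_range_self i
  refine ⟨b, hb.symm, hY, hx, fun i => (hA _ (hm i)).1, fun i => (hA _ (hm i)).2,
    fun i j => hp _ (hm i) _ (hm j), hψ, fun i => hc _ (hm i), fun c hcT hcb => ?_, hF, hre, hinf⟩
  refine hmin c hcT fun a ha => ?_
  rw [hb] at ha
  obtain ⟨i, rfl⟩ := ha
  exact hcb i

/-- cut off at infinity, then switch: any commutant, up to `ε` -/
theorem cut_switch (hY : IsExteriorDomain Yᶜ) (hx : X0 Y x0) (hφ : TT Y φ) {ε : ℝ} (hε : 0 < ε) :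
    ∃ ψ, TT Y ψ ∧ Swd Y (fun z => x0 z + ψ z) ∧ TJ Y x0 ψ ≤ TJ Y x0 φ + ε ∧
      ∀ a, NI Y a φ → NI Y a ψ := by
  obtain ⟨χ, -, hχc, ⟨O, hO, hYO, h1⟩, hT, hJ, -, -⟩ := cutoff_TT (cpt_of hY) hx hφ hε
  have hc : HasCompactSupport (fun z => χ z * φ z) := hχc.mul_right
  refine ⟨Sw_209.swf Y x0 fun z => χ z * φ z, Sw_209.swf_tt hY hx hT hc,
    Sw_209.swd_swf hY hx hT.q, ?_, fun a ha => Sw_209.ni_swf hY hx hT ?_⟩
  · refine le_trans ?_ hJ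
    unfold TJ
    exact add_le_add (Sw_209.J_swf_le hY hx hT.q hc) (Sw_209.sum_osc_swf_le hY hx hT hc)
  · exact NI_congr hO hYO (fun w hw => by rw [h1 w hw, one_mul]) ha

/-- **inner step**: an extremal anchor in the commutant of a finite list, up to `ε` -/
theorem inner (hY : IsExteriorDomain Yᶜ) (hx : X0 Y x0) (l : List (ℂ → ℝ))
    (hl : ∀ a ∈ l, TT Y a ∧ Swd Y (fun z => x0 z + a z)) (hp : ∀ a ∈ l, ∀ b ∈ l, NI Y a b)
    (hφ : TT Y φ) (hn : ∀ a ∈ l, NI Y a φ) {ε : ℝ} (hε : 0 < ε) :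
    ∃ X, TT Y X ∧ Swd Y (fun z => x0 z + X z) ∧ ExtA Y x0 X ∧ TJ Y x0 X ≤ TJ Y x0 φ + ε ∧
      ∀ a ∈ l, NI Y a X := by
  have hYc : IsCompact Y := cpt_of hY
  set 𝒜 : Set (ℂ → ℝ) := {a | a ∈ l} with h𝒜
  have hA : Anc Y x0 𝒜 := fun a ha => hl a ha
  obtain ⟨φ0, t0, s0, j0, n0⟩ := cut_switch hY hx hφ hε
  have p0 : PA Y 𝒜 φ0 := ⟨t0, fun a ha => n0 a (hn a ha)⟩
  have hsw : SwitchLP Y x0 (PA Y 𝒜) (fun _ => True) := by
    intro l' _ _ b hb hPb hnb δ hδ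
    obtain ⟨ψ, t1, s1, j1, n1⟩ := cut_switch hY hx hb hδ
    exact ⟨ψ, t1, ⟨t1, fun a ha => n1 a (hPb.2 a ha)⟩, s1, trivial, j1, fun a ha => n1 a (hnb a ha)⟩
  obtain ⟨u, m, σ, e0, -, h⟩ := selTL hYc hx (plin_PA hY hx hA) hsw (combG hY hx _) t0 p0 s0 trivial
  obtain ⟨ψ, F, hψ, hniu, hniA, hmin, hF, hre, hinf⟩ := attG hY hx hA h
  have hjψ : TJ Y x0 ψ ≤ TJ Y x0 φ0 := by
    have := hmin (u 0) (h.tt 0) (fun i => h.ni i 0) (h.p 0).2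
    rwa [e0] at this
  obtain ⟨b, -, hb⟩ := pk_of_set hY hx (S := 𝒜 ∪ range u) (ψ := ψ) (F := F)
    ((List.finite_toSet l).countable.union (countable_range u)) ⟨u 0, Or.inr (mem_range_self 0)⟩
    (by
      rintro a (ha | ⟨i, rfl⟩)
      · exact hl a ha
      · exact ⟨h.tt i, h.swd i⟩)
    (by
      rintro a (ha | ⟨i, rfl⟩) b (hb | ⟨j, rfl⟩)
      · exact hp a ha b hb
      · exact (h.p j).2 a ha
      · exact NI_symm ((h.p i).2 b hb)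
      · exact h.ni i j)
    hψ
    (by
      rintro a (ha | ⟨i, rfl⟩)
      · exact hniA a ha
      · exact hniu i)
    (fun b hb hn => hmin b hb (fun i => hn _ (Or.inr (mem_range_self i))) fun a ha =>
      hn a (Or.inl ha))
    hF hre hinf
  exact ⟨ψ, hψ, swd_of_pk hb, ⟨b, F, hb⟩, hjψ.trans j0, fun a ha => hniA a ha⟩

/-- **attainment with extremal anchors** -/
theorem attain_ext (hY : IsExteriorDomain Yᶜ) (hx : X0 Y x0) :
    ∃ (a : ℕ → ℂ → ℝ) (φ : ℂ → ℝ) (F : ℂ → ℂ), Pk Y x0 a φ F ∧ ∀ i, ExtA Y x0 (a i) := by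
  have hYc : IsCompact Y := cpt_of hY
  have hA : Anc Y x0 (∅ : Set (ℂ → ℝ)) := fun a ha => ha.elim
  obtain ⟨X, t0, s0, x0', -, -⟩ := inner hY hx [] (by simp) (by simp) (TT.const (Y := Y) 0)
    (by simp) one_pos
  have p0 : PA Y ∅ X := ⟨t0, fun a ha => ha.elim⟩
  have hsw : SwitchLP Y x0 (PA Y ∅) (ExtA Y x0) := by
    intro l hl hp b hb hPb hnb δ hδ
    obtain ⟨ψ, t1, s1, x1, j1, n1⟩ := inner hY hx l (fun a ha => ⟨(hl a ha).1, (hl a ha).2.2.1⟩) hp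
      hb hnb hδ
    exact ⟨ψ, t1, ⟨t1, fun a ha => ha.elim⟩, s1, x1, j1, n1⟩
  obtain ⟨u, m, σ, -, hX, h⟩ := selTL hYc hx (plin_PA hY hx hA) hsw (combG hY hx _) t0 p0 s0 x0'
  obtain ⟨ψ, F, hψ, hniu, -, hmin, hF, hre, hinf⟩ := attG hY hx hA h
  exact ⟨u, ψ, F, ⟨hY, hx, h.tt, h.swd, h.ni, hψ, hniu,
    fun b hb hn => hmin b hb hn fun a ha => ha.elim, hF, hre, hinf⟩, hX⟩

/-- **Lemma Y, no hypothesis left**: a package whose coordinates are absolutely continuous along a.e.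
level of every anchor -/
theorem attain_acv (hY : IsExteriorDomain Yᶜ) (hx : X0 Y x0) :
    ∃ (a : ℕ → ℂ → ℝ) (φ : ℂ → ℝ) (F : ℂ → ℂ), Pk Y x0 a φ F ∧ (∀ i, ExtA Y x0 (a i)) ∧
      ∀ i, ∀ᵐ t : ℝ, (∀ R, Nip_31.SlB Y (fun z => x0 z + a i z) (fun z => (F z).re) R t ∧
          Nip_31.SlB Y (fun z => x0 z + a i z) (fun z => (F z).im) R t) ∧
        Sl_732.ACV Y (Lv Y (fun z => x0 z + a i z) t) (fun z => (F z).re) ∧
        Sl_732.ACV Y (Lv Y (fun z => x0 z + a i z) t) (fun z => (F z).im) := by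
  obtain ⟨a, φ, F, h, hX⟩ := attain_ext hY hx
  refine ⟨a, φ, F, h, hX, fun i => ?_⟩
  filter_upwards [Yv_319.lemY_ext h hX i, Yv_319.acv_ext h hX i] with t h1 h2
  exact ⟨h1, h2⟩

end Crest.Agent.R105.Gl_395
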