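/-
# Row 105, lemma A: side traces of the class CF and the lower / upper classes; helper238

`Wl a b c B` : lower half rectangle, closed at the level `B`; `Vl 𝓗 a b c B` : functions of
class `CFJ 𝓗` on it, zero near the bottom; `tr e σ x y` : limit from the right (`σ = true`) or
from the left (`σ = false`) at `(x, y)`.
-/
import Crest.Agent.R105.CF3_363
import Mathlib.Topology.MetricSpace.Lipschitz
import Mathlib.Topology.MetricSpace.Kuratowski

open Set Filter MeasureTheory Topology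
open scoped ENNReal NNReal

namespace Crest.Agent.R105.Kin_238

open CF_363

/-- lower half of the rectangle, closed at the level `B` -/
def Wl (a b c B : ℝ) : Set (ℝ × ℝ) := {p | (a < p.1 ∧ p.1 < b) ∧ c < p.2 ∧ p.2 ≤ B}

/-- interior of `Wl` -/
def Wo (a b c B : ℝ) : Set (ℝ × ℝ) := {p | (a < p.1 ∧ p.1 < b) ∧ c < p.2 ∧ p.2 < B}

theorem Wl_eq (a b c B : ℝ) : Wl a b c B = Ioo a b ×ˢ Ioc c B := by
  ext p; simp [Wl]

theorem Wo_eq (a b c B : ℝ) : Wo a b c B = Ioo a b ×ˢ Ioo c B := by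
  ext p; simp [Wo]

theorem Wo_subset {a b c B : ℝ} : Wo a b c B ⊆ Wl a b c B := fun _ hp => ⟨hp.1, hp.2.1, hp.2.2.le⟩

theorem isOpen_Wo {a b c B : ℝ} : IsOpen (Wo a b c B) := by
  rw [Wo_eq]; exact isOpen_Ioo.prod isOpen_Ioo

theorem convex_Wl {a b c B : ℝ} : Convex ℝ (Wl a b c B) := by
  rw [Wl_eq]; exact (convex_Ioo a b).prod (convex_Ioc c B)

theorem measurableSet_Wl {a b c B : ℝ} : MeasurableSet (Wl a b c B) := by
  rw [Wl_eq]; exact measurableSet_Ioo.prod measurableSet_Ioc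

theorem measurableSet_Wo {a b c B : ℝ} : MeasurableSet (Wo a b c B) :=
  isOpen_Wo.measurableSet

theorem volume_Wo_lt {a b c B : ℝ} : volume (Wo a b c B) < ∞ := by
  rw [Wo_eq, Measure.volume_eq_prod, Measure.prod_prod]
  exact ENNReal.mul_lt_top (by simp) (by simp)

/-- one sided neighbourhoods: right for `true`, left for `false` -/
def side (σ : Bool) (x : ℝ) : Filter ℝ := if σ then 𝓝[>] x else 𝓝[<] x

instance (σ : Bool) (x : ℝ) : (side σ x).NeBot := by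
  unfold side
  split_ifs <;> infer_instance

theorem side_le (σ : Bool) (x : ℝ) : side σ x ≤ 𝓝 x := by
  unfold side
  split_ifs <;> exact nhdsWithin_le_nhds

/-- the open interval of length `r` on the side `σ` -/
def sInt (σ : Bool) (x r : ℝ) : Set ℝ := if σ then Ioo x (x + r) else Ioo (x - r) x

theorem sInt_mem {σ : Bool} {x r : ℝ} (hr : 0 < r) : sInt σ x r ∈ side σ x := by
  unfold sInt side
  split_ifs
  · exact Ioo_mem_nhdsGT (by linarith)
  · exact Ioo_mem_nhdsLT (by linarith)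

theorem convex_sInt {σ : Bool} {x r : ℝ} : Convex ℝ (sInt σ x r) := by
  unfold sInt
  split_ifs
  · exact convex_Ioo _ _
  · exact convex_Ioo _ _

theorem sInt_subset {σ : Bool} {x r : ℝ} {s : ℝ} (h : s ∈ sInt σ x r) : |s - x| < r ∧ s ≠ x := by
  unfold sInt at h
  split_ifs at h
  · exact ⟨abs_lt.2 ⟨by linarith [h.1, h.2], by linarith [h.2]⟩, h.1.ne'⟩
  · exact ⟨abs_lt.2 ⟨by linarith [h.1], by linarith [h.1, h.2]⟩, h.2.ne⟩

theorem sInt_between {σ : Bool} {x r : ℝ} {s : ℝ} (h : s ∈ sInt σ x r) : |s - x| < r :=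
  (sInt_subset h).1

/-- the side trace -/
noncomputable def tr (e : ℝ × ℝ → ℝ) (σ : Bool) (x y : ℝ) : ℝ := limUnder (side σ x) fun s => e (s, y)

theorem tr_eq_of_tendsto {e : ℝ × ℝ → ℝ} {σ : Bool} {x y l : ℝ}
    (h : Tendsto (fun s => e (s, y)) (side σ x) (𝓝 l)) : tr e σ x y = l :=
  h.limUnder_eq

/-- no abscissa of `J` near `x` except `x` itself -/
theorem exists_gap (J : Finset Hair) (x : ℝ) : ∃ r > 0, ∀ K ∈ J, |K.x - x| < r → K.x = x := by
  classical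
  have hfin : ({ξ : ℝ | (∃ K ∈ J, K.x = ξ) ∧ ξ ≠ x}).Finite := by
    refine (J.finite_toSet.image Hair.x).subset ?_
    rintro ξ ⟨⟨K, hK, rfl⟩, -⟩
    exact ⟨K, hK, rfl⟩
  have hx : ({ξ : ℝ | (∃ K ∈ J, K.x = ξ) ∧ ξ ≠ x})ᶜ ∈ 𝓝 x :=
    hfin.isClosed.isOpen_compl.mem_nhds fun h => h.2 rfl
  obtain ⟨r, hr, hr'⟩ := Metric.mem_nhds_iff.1 hx
  refine ⟨r, hr, fun K hK hKr => ?_⟩
  by_contra hne
  exact hr' (by rw [Metric.mem_ball, Real.dist_eq]; exact hKr) ⟨⟨K, hK, rfl⟩, hne⟩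

variable {a b c B : ℝ} {J : Finset Hair} {e : ℝ × ℝ → ℝ} {L : ℝ}

/-- on one side of `x` the function `e` is the restriction of a Lipschitz function -/
theorem exists_side (h : SL (Wl a b c B \ cut J) L e) (σ : Bool) {x : ℝ} (hx : a < x ∧ x < b) :
    ∃ r > 0, ∃ g : ℝ × ℝ → ℝ, LipschitzWith L.toNNReal g ∧
      ∀ s ∈ sInt σ x r, (a < s ∧ s < b) ∧ ∀ y, c < y → y ≤ B → (s, y) ∉ cut J ∧ e (s, y) = g (s, y) := by
  obtain ⟨r0, hr0, h0⟩ := exists_gap J x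
  set r := min r0 (min (x - a) (b - x)) with hr
  have hrpos : 0 < r := lt_min hr0 (lt_min (by linarith [hx.1]) (by linarith [hx.2]))
  have hsub : sInt σ x r ×ˢ Ioc c B ⊆ Wl a b c B \ cut J := by
    rintro ⟨s, y⟩ ⟨hs, hy⟩
    obtain ⟨h1, h2⟩ := sInt_subset hs
    have h3 : r ≤ r0 := min_le_left _ _
    have h4 : r ≤ x - a := (min_le_right _ _).trans (min_le_left _ _)
    have h5 : r ≤ b - x := (min_le_right _ _).trans (min_le_right _ _)
    rw [abs_lt] at h1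
    refine ⟨⟨⟨by show a < s; linarith, by show s < b; linarith⟩, hy.1, hy.2⟩, ?_⟩
    rintro ⟨K, hK, hKp⟩
    have h6 : s = K.x := hKp.1
    have h7 := h0 K hK (by rw [← h6, abs_lt]; constructor <;> linarith)
    exact h2 (h6.trans h7)
  have hlip := h.lipschitzOnWith (convex_sInt (σ := σ).prod (convex_Ioc c B)) hsub
  obtain ⟨g, hg, hge⟩ := hlip.extend_real
  refine ⟨r, hrpos, g, hg, fun s hs => ⟨?_, fun y hy hy' => ⟨?_, hge ⟨hs, hy, hy'⟩⟩⟩⟩
  · obtain ⟨h1, h2⟩ := sInt_subset hs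
    have h4 : r ≤ x - a := (min_le_right _ _).trans (min_le_left _ _)
    have h5 : r ≤ b - x := (min_le_right _ _).trans (min_le_right _ _)
    rw [abs_lt] at h1
    exact ⟨by linarith, by linarith⟩
  · exact (hsub ⟨hs, hy, hy'⟩).2

theorem tendsto_tr_aux {g : ℝ × ℝ → ℝ} {M : ℝ≥0} (hg : LipschitzWith M g) {σ : Bool} {x y r : ℝ}
    (hr : 0 < r) (he : ∀ s ∈ sInt σ x r, e (s, y) = g (s, y)) :
    Tendsto (fun s => e (s, y)) (side σ x) (𝓝 (g (x, y))) := by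
  have h1 : Tendsto (fun s => g (s, y)) (side σ x) (𝓝 (g (x, y))) := by
    have : Continuous fun s => g (s, y) := hg.continuous.comp (by fun_prop)
    exact (this.tendsto x).mono_left (side_le σ x)
  refine h1.congr' ?_
  filter_upwards [sInt_mem hr] with s hs using (he s hs).symm

/-- one Lipschitz function for all traces on the vertical line through `x` -/
theorem exists_tr (h : SL (Wl a b c B \ cut J) L e) (σ : Bool) {x : ℝ} (hx : a < x ∧ x < b) :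
    ∃ g : ℝ × ℝ → ℝ, LipschitzWith L.toNNReal g ∧ ∀ y, c < y → y ≤ B →
      tr e σ x y = g (x, y) ∧ Tendsto (fun s => e (s, y)) (side σ x) (𝓝 (g (x, y))) := by
  obtain ⟨r, hr, g, hg, hge⟩ := exists_side h σ hx
  refine ⟨g, hg, fun y hy hy' => ?_⟩
  have := tendsto_tr_aux (e := e) hg (σ := σ) (x := x) (y := y) hr
    (fun s hs => ((hge s hs).2 y hy hy').2)
  exact ⟨tr_eq_of_tendsto this, this⟩

theorem tendsto_tr {𝓗 : Set Hair} (h : CFJ 𝓗 (Wl a b c B) e) (σ : Bool) {x y : ℝ} (hx : a < x ∧ x < b)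
    (hy : c < y) (hy' : y ≤ B) : Tendsto (fun s => e (s, y)) (side σ x) (𝓝 (tr e σ x y)) := by
  obtain ⟨J, -, L, C, hL, hSL, hC⟩ := h
  obtain ⟨g, hg, hge⟩ := exists_tr hSL σ hx
  rw [(hge y hy hy').1]
  exact (hge y hy hy').2

theorem tr_lip (h : SL (Wl a b c B \ cut J) L e) (hL : 0 ≤ L) (σ : Bool) {x : ℝ}
    (hx : a < x ∧ x < b) {y y' : ℝ} (hy : c < y) (hyB : y ≤ B) (hy' : c < y') (hyB' : y' ≤ B) :
    |tr e σ x y - tr e σ x y'| ≤ L * |y - y'| := by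
  obtain ⟨g, hg, hge⟩ := exists_tr h σ hx
  rw [(hge y hy hyB).1, (hge y' hy' hyB').1, ← Real.dist_eq, ← Real.dist_eq]
  refine (hg.dist_le_mul _ _).trans ?_
  rw [Real.coe_toNNReal _ hL]
  refine mul_le_mul_of_nonneg_left ?_ hL
  rw [Prod.dist_eq]
  simp

theorem abs_tr_le (h : SL (Wl a b c B \ cut J) L e) {C : ℝ} (hC : ∀ p ∈ Wl a b c B \ cut J, |e p| ≤ C)
    (σ : Bool) {x y : ℝ} (hx : a < x ∧ x < b) (hy : c < y) (hyB : y ≤ B) :
    |tr e σ x y| ≤ C := by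
  obtain ⟨r, hr, g, hg, hge⟩ := exists_side h σ hx
  have h1 := tendsto_tr_aux (e := e) hg (σ := σ) (x := x) (y := y) hr
    (fun s hs => ((hge s hs).2 y hy hyB).2)
  rw [tr_eq_of_tendsto h1]
  refine le_of_tendsto h1.abs ?_
  filter_upwards [sInt_mem hr] with s hs
  exact hC _ ⟨⟨(hge s hs).1, hy, hyB⟩, ((hge s hs).2 y hy hyB).1⟩

/-- off the cut the traces are the values -/
theorem continuousWithinAt_of (h : SL (Wl a b c B \ cut J) L e) {p : ℝ × ℝ} (hp : p ∈ Wl a b c B)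
    (hpJ : p ∉ cut J) : ContinuousWithinAt e (Wl a b c B) p := by
  obtain ⟨r, hr, hrJ⟩ := Metric.isOpen_iff.1 (isCompact_cut J).isClosed.isOpen_compl p hpJ
  have hlip := h.lipschitzOnWith (convex_Wl.inter (convex_ball p r))
    (fun q hq => ⟨hq.1, hrJ hq.2⟩)
  have := hlip.continuousOn p ⟨hp, Metric.mem_ball_self hr⟩
  exact this.mono_of_mem_nhdsWithin
    (inter_mem self_mem_nhdsWithin (nhdsWithin_le_nhds (Metric.ball_mem_nhds p hr)))

theorem continuousOn_of (h : SL (Wl a b c B \ cut J) L e) :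
    ContinuousOn e (Wl a b c B \ cut J) :=
  fun _ hp => (continuousWithinAt_of h hp.1 hp.2).mono sdiff_subset

theorem tr_eq_self (h : SL (Wl a b c B \ cut J) L e) (σ : Bool) {x y : ℝ} (hx : a < x ∧ x < b)
    (hy : c < y) (hyB : y ≤ B) (hJ : (x, y) ∉ cut J) : tr e σ x y = e (x, y) := by
  apply tr_eq_of_tendsto
  have h1 := continuousWithinAt_of h (p := (x, y)) ⟨hx, hy, hyB⟩ hJ
  have h2 : Tendsto (fun s : ℝ => (s, y)) (side σ x) (𝓝[Wl a b c B] (x, y)) := by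
    refine tendsto_nhdsWithin_iff.2 ⟨?_, ?_⟩
    · have : Continuous fun s : ℝ => (s, y) := by fun_prop
      exact (this.tendsto x).mono_left (side_le σ x)
    · have h3 : ∀ᶠ s in side σ x, a < s ∧ s < b :=
        side_le σ x (Ioo_mem_nhds hx.1 hx.2)
      filter_upwards [h3] with s hs using ⟨hs, hy, hyB⟩
  exact h1.tendsto.comp h2

/-! ### the class `Vl` -/

/-- functions of class `CFJ 𝓗` on the lower half rectangle, zero near the bottom -/
def Vl (𝓗 : Set Hair) (a b c B : ℝ) : Submodule ℝ (ℝ × ℝ → ℝ) where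
  carrier := {e | CFJ 𝓗 (Wl a b c B) e ∧ ∃ δ > 0, ∀ p ∈ Wl a b c B, p.2 < c + δ → e p = 0}
  add_mem' := by
    rintro e e' ⟨h, δ, hδ, h0⟩ ⟨h', δ', hδ', h0'⟩
    refine ⟨h.add h', min δ δ', lt_min hδ hδ', fun p hp hpc => ?_⟩
    have h1 := h0 p hp (by linarith [min_le_left δ δ'])
    have h2 := h0' p hp (by linarith [min_le_right δ δ'])
    show e p + e' p = 0
    rw [h1, h2, add_zero]
  zero_mem' := ⟨CFJ_const 0, 1, one_pos, fun _ _ _ => rfl⟩
  smul_mem' := by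
    rintro t e ⟨h, δ, hδ, h0⟩
    refine ⟨h.const_mul t, δ, hδ, fun p hp hpc => ?_⟩
    show t * e p = 0
    rw [h0 p hp hpc, mul_zero]

theorem mem_Vl {𝓗 : Set Hair} : e ∈ Vl 𝓗 a b c B ↔
    CFJ 𝓗 (Wl a b c B) e ∧ ∃ δ > 0, ∀ p ∈ Wl a b c B, p.2 < c + δ → e p = 0 := Iff.rfl

theorem tr_add {𝓗 : Set Hair} {e e' : ℝ × ℝ → ℝ} (h : CFJ 𝓗 (Wl a b c B) e)
    (h' : CFJ 𝓗 (Wl a b c B) e') (σ : Bool)
    {x y : ℝ} (hx : a < x ∧ x < b) (hy : c < y) (hyB : y ≤ B) :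
    tr (e + e') σ x y = tr e σ x y + tr e' σ x y :=
  tr_eq_of_tendsto ((tendsto_tr h σ hx hy hyB).add (tendsto_tr h' σ hx hy hyB))

theorem tr_smul {𝓗 : Set Hair} {e : ℝ × ℝ → ℝ} (h : CFJ 𝓗 (Wl a b c B) e) (t : ℝ) (σ : Bool)
    {x y : ℝ} (hx : a < x ∧ x < b) (hy : c < y) (hyB : y ≤ B) :
    tr (t • e) σ x y = t * tr e σ x y :=
  tr_eq_of_tendsto ((tendsto_tr h σ hx hy hyB).const_mul t)

theorem tr_mono {𝓗 : Set Hair} {e e' : ℝ × ℝ → ℝ} (h : CFJ 𝓗 (Wl a b c B) e)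
    (h' : CFJ 𝓗 (Wl a b c B) e') (σ : Bool)
    {x y : ℝ} (hx : a < x ∧ x < b) (hy : c < y) (hyB : y ≤ B) (hle : ∀ p, e p ≤ e' p) :
    tr e σ x y ≤ tr e' σ x y :=
  le_of_tendsto_of_tendsto' (tendsto_tr h σ hx hy hyB) (tendsto_tr h' σ hx hy hyB)
    (fun s => hle (s, y))

/-- post-composition with a continuous function -/
theorem tr_comp {𝓗 : Set Hair} {e : ℝ × ℝ → ℝ} (h : CFJ 𝓗 (Wl a b c B) e) {G : ℝ → ℝ}
    (hG : Continuous G) (σ : Bool) {x y : ℝ} (hx : a < x ∧ x < b) (hy : c < y) (hyB : y ≤ B) :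
    tr (fun p => G (e p)) σ x y = G (tr e σ x y) :=
  tr_eq_of_tendsto ((hG.tendsto _).comp (tendsto_tr h σ hx hy hyB))

end Crest.Agent.R105.Kin_238
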