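/-
# Row 105, lemma A: gradients of the class `Vl` as vectors of `L²`; helper238
-/
import Crest.Agent.R105.Kin1_238
import Mathlib.MeasureTheory.Function.L2Space
import Mathlib.Analysis.InnerProductSpace.PiL2

open Set Filter MeasureTheory Topology
open scoped ENNReal NNReal InnerProductSpace

namespace Crest.Agent.R105.Kin_238

open CF_363

variable {a b c B : ℝ} {𝓗 : Set Hair} {e e' : ℝ × ℝ → ℝ}

/-- first component of the gradient, cut off -/
noncomputable def G1 (a b c B : ℝ) (e : ℝ × ℝ → ℝ) : ℝ × ℝ → ℝ := (Wo a b c B).indicator (gx e)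

/-- second component of the gradient, cut off -/
noncomputable def G2 (a b c B : ℝ) (e : ℝ × ℝ → ℝ) : ℝ × ℝ → ℝ := (Wo a b c B).indicator (gy e)

theorem measurable_G1 : Measurable (G1 a b c B e) := (measurable_gx e).indicator measurableSet_Wo

theorem measurable_G2 : Measurable (G2 a b c B e) := (measurable_gy e).indicator measurableSet_Wo

theorem isFiniteMeasure_Wo : IsFiniteMeasure ((volume : Measure (ℝ × ℝ)).restrict (Wo a b c B)) :=
  ⟨by rw [Measure.restrict_apply_univ]; exact volume_Wo_lt⟩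

theorem ae_bound (h : CFJ 𝓗 (Wl a b c B) e) : ∃ L : ℝ, 0 ≤ L ∧
    ∀ᵐ p ∂((volume : Measure (ℝ × ℝ)).restrict (Wo a b c B)),
      DifferentiableAt ℝ e p ∧ |gx e p| ≤ L ∧ |gy e p| ≤ L := by
  obtain ⟨J, -, L, C, hL, hSL, hC⟩ := h
  refine ⟨L, hL, ae_restrict_of_diff isOpen_Wo (volume_cut J) ?_⟩
  have h1 : SL (Wo a b c B \ cut J) L e := hSL.mono (sdiff_subset_sdiff_left Wo_subset)
  have hopen := isOpen_diff_cut (isOpen_Wo (a := a) (b := b) (c := c) (B := B)) J
  filter_upwards [h1.ae_differentiableAt (μ := volume) hopen] with p hp hpW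
  exact ⟨hp hpW, h1.abs_gx_le hopen hL hpW, h1.abs_gy_le hopen hL hpW⟩

theorem memLp_G1 (h : CFJ 𝓗 (Wl a b c B) e) : MemLp (G1 a b c B e) 2 volume := by
  obtain ⟨L, hL, hae⟩ := ae_bound h
  rw [G1, memLp_indicator_iff_restrict measurableSet_Wo]
  have := isFiniteMeasure_Wo (a := a) (b := b) (c := c) (B := B)
  refine MemLp.of_bound (measurable_gx e).aestronglyMeasurable L ?_
  filter_upwards [hae] with p hp using by simpa using hp.2.1

theorem memLp_G2 (h : CFJ 𝓗 (Wl a b c B) e) : MemLp (G2 a b c B e) 2 volume := by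
  obtain ⟨L, hL, hae⟩ := ae_bound h
  rw [G2, memLp_indicator_iff_restrict measurableSet_Wo]
  have := isFiniteMeasure_Wo (a := a) (b := b) (c := c) (B := B)
  refine MemLp.of_bound (measurable_gy e).aestronglyMeasurable L ?_
  filter_upwards [hae] with p hp using by simpa using hp.2.2

theorem ae_of_restrict {P : ℝ × ℝ → Prop}
    (h : ∀ᵐ p ∂((volume : Measure (ℝ × ℝ)).restrict (Wo a b c B)), P p) :
    ∀ᵐ p : ℝ × ℝ, p ∈ Wo a b c B → P p :=
  (ae_restrict_iff' measurableSet_Wo).1 h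

theorem G_add (h : CFJ 𝓗 (Wl a b c B) e) (h' : CFJ 𝓗 (Wl a b c B) e') :
    (∀ᵐ p : ℝ × ℝ, G1 a b c B (e + e') p = G1 a b c B e p + G1 a b c B e' p) ∧
    ∀ᵐ p : ℝ × ℝ, G2 a b c B (e + e') p = G2 a b c B e p + G2 a b c B e' p := by
  obtain ⟨L, hL, hae⟩ := ae_bound h
  obtain ⟨L', hL', hae'⟩ := ae_bound h'
  have key : ∀ᵐ p : ℝ × ℝ, G1 a b c B (e + e') p = G1 a b c B e p + G1 a b c B e' p ∧
      G2 a b c B (e + e') p = G2 a b c B e p + G2 a b c B e' p := by
    filter_upwards [ae_of_restrict hae, ae_of_restrict hae'] with p hp hp'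
    unfold G1 G2
    by_cases hW : p ∈ Wo a b c B
    · simp only [indicator_of_mem hW]
      exact ⟨gx_add (hp hW).1 (hp' hW).1, gy_add (hp hW).1 (hp' hW).1⟩
    · simp [indicator_of_notMem hW]
  exact ⟨key.mono fun p hp => hp.1, key.mono fun p hp => hp.2⟩

theorem G_smul (h : CFJ 𝓗 (Wl a b c B) e) (t : ℝ) :
    (∀ᵐ p : ℝ × ℝ, G1 a b c B (t • e) p = t * G1 a b c B e p) ∧
    ∀ᵐ p : ℝ × ℝ, G2 a b c B (t • e) p = t * G2 a b c B e p := by
  obtain ⟨L, hL, hae⟩ := ae_bound h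
  have key : ∀ᵐ p : ℝ × ℝ, G1 a b c B (t • e) p = t * G1 a b c B e p ∧
      G2 a b c B (t • e) p = t * G2 a b c B e p := by
    filter_upwards [ae_of_restrict hae] with p hp
    unfold G1 G2
    by_cases hW : p ∈ Wo a b c B
    · simp only [indicator_of_mem hW]
      exact ⟨gx_const_mul t (hp hW).1, gy_const_mul t (hp hW).1⟩
    · simp [indicator_of_notMem hW]
  exact ⟨key.mono fun p hp => hp.1, key.mono fun p hp => hp.2⟩

/-- the Hilbert space of pairs of vector fields -/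
abbrev HH : Type := PiLp 2 (fun _ : Fin 2 => PiLp 2 (fun _ : Fin 2 => Lp ℝ 2 (volume : Measure (ℝ × ℝ))))

/-- one vector field -/
abbrev HF : Type := PiLp 2 (fun _ : Fin 2 => Lp ℝ 2 (volume : Measure (ℝ × ℝ)))

/-- gradient as an element of `L² × L²` -/
noncomputable def grad (𝓗 : Set Hair) (a b c B : ℝ) : Vl 𝓗 a b c B →ₗ[ℝ] HF where
  toFun e := WithLp.toLp 2 ![(memLp_G1 e.2.1).toLp _, (memLp_G2 e.2.1).toLp _]
  map_add' := by
    intro e e'
    have h := G_add e.2.1 e'.2.1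
    ext i : 1
    fin_cases i
    · show (memLp_G1 (e + e').2.1).toLp _ = (memLp_G1 e.2.1).toLp _ + (memLp_G1 e'.2.1).toLp _
      rw [← MemLp.toLp_add, MemLp.toLp_eq_toLp_iff]
      exact h.1
    · show (memLp_G2 (e + e').2.1).toLp _ = (memLp_G2 e.2.1).toLp _ + (memLp_G2 e'.2.1).toLp _
      rw [← MemLp.toLp_add, MemLp.toLp_eq_toLp_iff]
      exact h.2
  map_smul' := by
    intro t e
    have h := G_smul e.2.1 t
    ext i : 1
    fin_cases i
    · show (memLp_G1 (t • e).2.1).toLp _ = t • (memLp_G1 e.2.1).toLp _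
      rw [← MemLp.toLp_const_smul, MemLp.toLp_eq_toLp_iff]
      exact h.1
    · show (memLp_G2 (t • e).2.1).toLp _ = t • (memLp_G2 e.2.1).toLp _
      rw [← MemLp.toLp_const_smul, MemLp.toLp_eq_toLp_iff]
      exact h.2

theorem inner_L2_eq (f g : Lp ℝ 2 (volume : Measure (ℝ × ℝ))) :
    ⟪f, g⟫_ℝ = ∫ p, f p * g p := by
  rw [L2.inner_def]
  refine integral_congr_ae (Eventually.of_forall fun p => ?_)
  simp [mul_comm]

theorem inner_grad (X : HF) (e : Vl 𝓗 a b c B) :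
    ⟪X, grad 𝓗 a b c B e⟫_ℝ =
      (∫ p, X 0 p * G1 a b c B e p) + ∫ p, X 1 p * G2 a b c B e p := by
  rw [PiLp.inner_apply, Fin.sum_univ_two, inner_L2_eq, inner_L2_eq]
  congr 1
  · refine integral_congr_ae ?_
    filter_upwards [(memLp_G1 e.2.1).coeFn_toLp] with p hp
    show X 0 p * ((memLp_G1 e.2.1).toLp _ : Lp ℝ 2 volume) p = _
    rw [hp]
  · refine integral_congr_ae ?_
    filter_upwards [(memLp_G2 e.2.1).coeFn_toLp] with p hp
    show X 1 p * ((memLp_G2 e.2.1).toLp _ : Lp ℝ 2 volume) p = _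
    rw [hp]

theorem norm_grad_sq (e : Vl 𝓗 a b c B) : ‖grad 𝓗 a b c B e‖ ^ 2 = En (Wo a b c B) e := by
  rw [← real_inner_self_eq_norm_sq, inner_grad, ← integral_add]
  · have h0 : ∀ᵐ p : ℝ × ℝ, (grad 𝓗 a b c B e) 0 p = G1 a b c B e p :=
      (memLp_G1 e.2.1).coeFn_toLp
    have h1 : ∀ᵐ p : ℝ × ℝ, (grad 𝓗 a b c B e) 1 p = G2 a b c B e p :=
      (memLp_G2 e.2.1).coeFn_toLp
    rw [En, ← integral_indicator measurableSet_Wo]
    refine integral_congr_ae ?_
    filter_upwards [h0, h1] with p hp0 hp1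
    rw [hp0, hp1]
    unfold G1 G2 g2
    by_cases hW : p ∈ Wo a b c B
    · simp only [indicator_of_mem hW]; ring
    · simp [indicator_of_notMem hW]
  · exact (Lp.memLp _).integrable_mul (memLp_G1 e.2.1)
  · exact (Lp.memLp _).integrable_mul (memLp_G2 e.2.1)

end Crest.Agent.R105.Kin_238
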