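/-
# Abstract KKT / Kantorovich duality for lemma A of row 105 (#8892 (1), 776 (L3)); helper238

`V` real vector space (test pairs `e = (e₋, e₊)`), `D : V →ₗ H` (gradients, Hilbert space),
`A : V →ₗ (P → ℝ)` (traces `(K, p, q) ↦ e₋(p) + e₊(q)`, bounded), some `A e₀ ≥ 1`.

* `exists_min` : the field `X = lim D z`, `‖X‖² = inf {‖D z‖² : A z ≥ 1}`,
  `⟪X, D e⟫ ≥ c ‖X‖²` whenever `A e ≥ c`;
* `exists_pos` : the positive functional `lam` on all functions of `P` (positive on bounded ones),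
  `lam 1 = ‖X‖²`, `⟪X, D e⟫ = lam (A e)`;
* `thomson`, `thomson_eq`, `thomson_cut`.
-/
import Mathlib.Analysis.Convex.Cone.Extension
import Mathlib.Analysis.InnerProductSpace.Projection.Minimal
import Mathlib.Analysis.InnerProductSpace.LinearMap
import Mathlib.Analysis.InnerProductSpace.Continuous
import Mathlib.LinearAlgebra.Dual.Lemmas
import Mathlib.Tactic

open Filter Topology Set

namespace Crest.Agent.R105.Kkt_238

/-! ## Positive functionals on bounded functions -/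

/-- bounded functions on `P` -/
def Bd {P : Type*} (f : P → ℝ) : Prop := ∃ C : ℝ, ∀ p, |f p| ≤ C

section bd
variable {P : Type*}

theorem Bd.add {f g : P → ℝ} (hf : Bd f) (hg : Bd g) : Bd (f + g) := by
  obtain ⟨C, hC⟩ := hf
  obtain ⟨C', hC'⟩ := hg
  exact ⟨C + C', fun p => (abs_add_le _ _).trans (add_le_add (hC p) (hC' p))⟩

theorem Bd.smul {f : P → ℝ} (hf : Bd f) (c : ℝ) : Bd (c • f) := by
  obtain ⟨C, hC⟩ := hf
  refine ⟨|c| * C, fun p => ?_⟩
  simp only [Pi.smul_apply, smul_eq_mul, abs_mul]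
  exact mul_le_mul_of_nonneg_left (hC p) (abs_nonneg _)

theorem Bd.neg {f : P → ℝ} (hf : Bd f) : Bd (-f) := by
  obtain ⟨C, hC⟩ := hf
  exact ⟨C, fun p => by simpa using hC p⟩

theorem Bd.sub {f g : P → ℝ} (hf : Bd f) (hg : Bd g) : Bd (f - g) := by
  rw [sub_eq_add_neg]; exact hf.add hg.neg

theorem Bd.const (c : ℝ) : Bd (fun _ : P => c) := ⟨|c|, fun _ => le_rfl⟩

theorem Bd.one : Bd (1 : P → ℝ) := ⟨1, fun _ => by simp⟩

theorem Bd.zero : Bd (0 : P → ℝ) := ⟨0, fun _ => by simp⟩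

theorem Bd.mul {f g : P → ℝ} (hf : Bd f) (hg : Bd g) : Bd (f * g) := by
  obtain ⟨C, hC⟩ := hf
  obtain ⟨C', hC'⟩ := hg
  refine ⟨C * C', fun p => ?_⟩
  simp only [Pi.mul_apply, abs_mul]
  exact mul_le_mul (hC p) (hC' p) (abs_nonneg _) ((abs_nonneg _).trans (hC p))

theorem Bd.abs {f : P → ℝ} (hf : Bd f) : Bd (fun p => |f p|) := by
  obtain ⟨C, hC⟩ := hf
  exact ⟨C, fun p => by simpa using hC p⟩

theorem Bd.of_mem {f : P → ℝ} {a b : ℝ} (h : ∀ p, a ≤ f p ∧ f p ≤ b) : Bd f :=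
  ⟨max |a| |b|, fun p => abs_le_max_abs_abs (h p).1 (h p).2⟩

end bd

/-- A linear functional on all functions of `P` which is nonnegative on the bounded nonnegative
ones (its values on unbounded functions are never used). -/
structure Pos {P : Type*} (lam : (P → ℝ) →ₗ[ℝ] ℝ) : Prop where
  nonneg : ∀ f : P → ℝ, Bd f → (∀ p, 0 ≤ f p) → 0 ≤ lam f

namespace Pos
variable {P : Type*} {lam : (P → ℝ) →ₗ[ℝ] ℝ}

theorem mono (h : Pos lam) {f g : P → ℝ} (hf : Bd f) (hg : Bd g) (hfg : ∀ p, f p ≤ g p) :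
    lam f ≤ lam g := by
  have := h.nonneg (g - f) (hg.sub hf) (fun p => by simpa using hfg p)
  rw [map_sub] at this
  linarith

theorem one_nonneg (h : Pos lam) : 0 ≤ lam 1 := h.nonneg 1 Bd.one (fun _ => by simp)

theorem const_eq (c : ℝ) : lam (fun _ => c) = c * lam 1 := by
  have : (fun _ : P => c) = c • (1 : P → ℝ) := by ext; simp
  rw [this, map_smul, smul_eq_mul]

theorem le_of_le (h : Pos lam) {f : P → ℝ} (hf : Bd f) {c : ℝ} (hc : ∀ p, f p ≤ c) :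
    lam f ≤ c * lam 1 := by
  rw [← const_eq (lam := lam) c]
  exact h.mono hf (Bd.const c) hc

theorem le_of_ge (h : Pos lam) {f : P → ℝ} (hf : Bd f) {c : ℝ} (hc : ∀ p, c ≤ f p) :
    c * lam 1 ≤ lam f := by
  rw [← const_eq (lam := lam) c]
  exact h.mono (Bd.const c) hf hc

theorem abs_le (h : Pos lam) {f : P → ℝ} {c : ℝ} (hc : ∀ p, |f p| ≤ c) :
    |lam f| ≤ c * lam 1 := by
  have hf : Bd f := ⟨c, hc⟩
  rw [_root_.abs_le]
  constructor
  · have := h.le_of_ge hf (c := -c) (fun p => (_root_.abs_le.1 (hc p)).1)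
    linarith
  · exact h.le_of_le hf (fun p => (_root_.abs_le.1 (hc p)).2)

/-- uniform limits -/
theorem tendsto {ι : Type*} {l : Filter ι} (h : Pos lam) {F : ι → P → ℝ} {f : P → ℝ}
    (hF : TendstoUniformly F f l) : Tendsto (fun i => lam (F i)) l (𝓝 (lam f)) := by
  rw [Metric.tendsto_nhds]
  intro ε hε
  have h1 := h.one_nonneg
  rw [Metric.tendstoUniformly_iff] at hF
  filter_upwards [hF (ε / (lam 1 + 1)) (by positivity)] with i hi
  have h2 : |lam (F i - f)| ≤ ε / (lam 1 + 1) * lam 1 := by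
    apply h.abs_le
    intro p
    have := hi p
    rw [Real.dist_eq, abs_sub_comm] at this
    exact this.le
  rw [map_sub] at h2
  rw [Real.dist_eq]
  refine lt_of_le_of_lt h2 ?_
  rw [div_mul_eq_mul_div, div_lt_iff₀ (by positivity)]
  nlinarith

end Pos

/-! ## Kantorovich extension -/

/-- A linear functional `φ` on `W` with `T w ≥ 0 ⟹ φ w ≥ 0` comes from a positive functional,
if the range of `T` (all of whose members are bounded) contains a function `≥ 1`. -/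
theorem exists_pos_of_le {W P : Type*} [AddCommGroup W] [Module ℝ W] (T : W →ₗ[ℝ] (P → ℝ))
    (hT : ∀ w, Bd (T w)) (φ : W →ₗ[ℝ] ℝ) (hφ : ∀ w, (∀ p, 0 ≤ T w p) → 0 ≤ φ w)
    (w₀ : W) (hw₀ : ∀ p, 1 ≤ T w₀ p) :
    ∃ lam : (P → ℝ) →ₗ[ℝ] ℝ, Pos lam ∧ ∀ w, lam (T w) = φ w := by
  classical
  -- the submodule of bounded functions
  let B : Submodule ℝ (P → ℝ) :=
    { carrier := {f | Bd f}
      add_mem' := fun hf hg => hf.add hg
      zero_mem' := Bd.zero
      smul_mem' := fun c f hf => hf.smul c }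
  let T' : W →ₗ[ℝ] B := T.codRestrict B hT
  have hker : LinearMap.ker T' ≤ LinearMap.ker φ := by
    intro w hw
    have hw' : T w = 0 := by
      have := congrArg Subtype.val (LinearMap.mem_ker.1 hw)
      simpa [T'] using this
    rw [LinearMap.mem_ker]
    apply le_antisymm
    · have := hφ (-w) (fun p => by simp [hw'])
      rw [map_neg] at this
      linarith
    · exact hφ w (fun p => by simp [hw'])
  obtain ⟨g₀, hg₀⟩ : ∃ g₀ : B →ₗ[ℝ] ℝ, g₀ ∘ₗ T' = φ := by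
    have h1 : φ ∈ (LinearMap.ker T').dualAnnihilator := by
      rw [Submodule.mem_dualAnnihilator]
      intro w hw
      exact hker hw
    rw [← LinearMap.range_dualMap_eq_dualAnnihilator_ker] at h1
    obtain ⟨g, hg⟩ := h1
    exact ⟨g, hg⟩
  let s : PointedCone ℝ B :=
    { carrier := {f | ∀ p, 0 ≤ (f : P → ℝ) p}
      add_mem' := fun {a b} ha hb p => add_nonneg (ha p) (hb p)
      zero_mem' := fun p => le_rfl
      smul_mem' := fun c f hf p => by
        have : (0 : ℝ) ≤ (c : ℝ) * (f : P → ℝ) p := mul_nonneg c.2 (hf p)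
        exact this }
  let f : B →ₗ.[ℝ] ℝ := ⟨LinearMap.range T', g₀.domRestrict (LinearMap.range T')⟩
  obtain ⟨g, hg, hgs⟩ := riesz_extension s f (by
      rintro ⟨x, ⟨w, rfl⟩⟩ hx
      have h1 : f ⟨T' w, ⟨w, rfl⟩⟩ = φ w := by
        rw [← hg₀]; rfl
      have h2 : 0 ≤ φ w := hφ w (fun p => hx p)
      rw [← h1] at h2
      exact h2) (by
      intro y
      obtain ⟨C, hC⟩ := y.2
      refine ⟨⟨T' (|C| • w₀), ⟨|C| • w₀, rfl⟩⟩, fun p => ?_⟩
      have h1 : ((T' (|C| • w₀) + y : B) : P → ℝ) p = |C| * T w₀ p + (y : P → ℝ) p := by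
        simp [T']
      show 0 ≤ ((T' (|C| • w₀) + y : B) : P → ℝ) p
      rw [h1]
      have h2 := (abs_le.1 (hC p)).1
      have h3 : |C| * 1 ≤ |C| * T w₀ p := mul_le_mul_of_nonneg_left (hw₀ p) (abs_nonneg _)
      have h4 := le_abs_self C
      linarith)
  obtain ⟨lam, hlam⟩ := LinearMap.exists_extend g
  have hl : ∀ b : B, lam (b : P → ℝ) = g b := fun b => by rw [← hlam]; rfl
  refine ⟨lam, ⟨fun f hf hf0 => ?_⟩, fun w => ?_⟩
  · have := hgs (⟨f, hf⟩ : B) hf0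
    rw [← hl] at this
    exact this
  · have h1 : lam (T w) = g (T' w) := hl (T' w)
    rw [h1]
    have h2 := hg ⟨T' w, ⟨w, rfl⟩⟩
    have h3 : f ⟨T' w, ⟨w, rfl⟩⟩ = φ w := by rw [← hg₀]; rfl
    rw [← h3]
    exact h2

/-! ## The minimisation problem -/

section main
variable {V H P : Type*} [AddCommGroup V] [Module ℝ V] [NormedAddCommGroup H]
  [InnerProductSpace ℝ H]

local notation "⟪" x ", " y "⟫" => inner ℝ x y

/-- the feasible set `{z : A z ≥ 1}` -/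
def Feas (A : V →ₗ[ℝ] (P → ℝ)) : Set V := {z | ∀ p, 1 ≤ A z p}

/-- the conductance `inf {‖D z‖² : A z ≥ 1}` -/
noncomputable def cond (D : V →ₗ[ℝ] H) (A : V →ₗ[ℝ] (P → ℝ)) : ℝ :=
  sInf ((fun z => ‖D z‖ ^ 2) '' Feas A)

/-- `X` is the minimising field. -/
structure IsMin (D : V →ₗ[ℝ] H) (A : V →ₗ[ℝ] (P → ℝ)) (X : H) : Prop where
  /-- limit of gradients of feasible test pairs -/
  lim : ∃ z : ℕ → V, (∀ n, z n ∈ Feas A) ∧ Tendsto (fun n => D (z n)) atTop (𝓝 X)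
  norm_sq : ‖X‖ ^ 2 = cond D A
  /-- variational inequality -/
  ge : ∀ z ∈ Feas A, ‖X‖ ^ 2 ≤ ⟪X, D z⟫

variable {D : V →ₗ[ℝ] H} {A : V →ₗ[ℝ] (P → ℝ)}

theorem convex_feas (A : V →ₗ[ℝ] (P → ℝ)) : Convex ℝ (Feas A) := by
  intro x hx y hy a b ha hb hab p
  have h1 := hx p
  have h2 := hy p
  simp only [map_add, map_smul, Pi.add_apply, Pi.smul_apply, smul_eq_mul]
  nlinarith

theorem cond_nonneg : 0 ≤ cond D A :=
  Real.sInf_nonneg (by rintro _ ⟨z, -, rfl⟩; positivity)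

theorem cond_le {z : V} (hz : z ∈ Feas A) : cond D A ≤ ‖D z‖ ^ 2 :=
  csInf_le ⟨0, by rintro _ ⟨z, -, rfl⟩; positivity⟩ ⟨z, hz, rfl⟩

theorem exists_min [CompleteSpace H] (D : V →ₗ[ℝ] H) (A : V →ₗ[ℝ] (P → ℝ))
    (hne : (Feas A).Nonempty) : ∃ X : H, IsMin D A X := by
  set K : Set H := closure (D '' Feas A) with hK
  have hKne : K.Nonempty := (hne.image D).closure
  have hKc : Convex ℝ K := ((convex_feas A).linear_image D).closure
  obtain ⟨X, hXK, hX⟩ := exists_norm_eq_iInf_of_complete_convex hKne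
    isClosed_closure.isComplete hKc (0 : H)
  have hvi := (norm_eq_iInf_iff_real_inner_le_zero hKc hXK).1 hX
  have hvi' : ∀ w ∈ K, ‖X‖ ^ 2 ≤ ⟪X, w⟫ := by
    intro w hw
    have := hvi w hw
    rw [zero_sub, inner_neg_left, inner_sub_right, real_inner_self_eq_norm_sq] at this
    linarith
  have hle : ∀ w ∈ K, ‖X‖ ≤ ‖w‖ := by
    intro w hw
    have h1 := hvi' w hw
    have h2 := real_inner_le_norm X w
    rcases (norm_nonneg X).eq_or_lt with h | h
    · rw [← h]; exact norm_nonneg _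
    · have h3 : ‖X‖ * ‖X‖ ≤ ‖X‖ * ‖w‖ := by nlinarith
      exact le_of_mul_le_mul_left h3 h
  obtain ⟨w, hw, hlim⟩ := mem_closure_iff_seq_limit.1 hXK
  choose z hz hzw using hw
  have hlim' : Tendsto (fun n => D (z n)) atTop (𝓝 X) := by
    simpa only [hzw] using hlim
  refine ⟨X, ⟨z, hz, hlim'⟩, ?_, fun z hz => hvi' _ (subset_closure ⟨z, hz, rfl⟩)⟩
  apply le_antisymm
  · apply le_csInf (hne.image _)
    rintro _ ⟨y, hy, rfl⟩
    have := hle (D y) (subset_closure ⟨y, hy, rfl⟩)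
    exact pow_le_pow_left₀ (norm_nonneg _) this 2
  · have h1 : Tendsto (fun n => ‖D (z n)‖ ^ 2) atTop (𝓝 (‖X‖ ^ 2)) := (hlim'.norm).pow 2
    exact ge_of_tendsto' h1 (fun n => cond_le (hz n))

namespace IsMin
variable {X : H}

theorem ge_const (h : IsMin D A X) {e : V} {c : ℝ} (hc : ∀ p, c ≤ A e p) :
    c * ‖X‖ ^ 2 ≤ ⟪X, D e⟫ := by
  obtain ⟨z, hz, hlim⟩ := h.lim
  have hI : Tendsto (fun n => ⟪X, D (z n)⟫) atTop (𝓝 (‖X‖ ^ 2)) := by
    have := Filter.Tendsto.inner (𝕜 := ℝ) (tendsto_const_nhds (x := X)) hlim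
    rwa [real_inner_self_eq_norm_sq] at this
  -- first: `A e ≥ 0 ⟹ ⟪X, D e⟫ ≥ 0`
  have h0 : ∀ e : V, (∀ p, 0 ≤ A e p) → 0 ≤ ⟪X, D e⟫ := by
    intro e he
    by_contra hneg
    push Not at hneg
    have h1 : ∀ t : ℝ, 0 ≤ t → ∀ n, ‖X‖ ^ 2 ≤ ⟪X, D (z n)⟫ + t * ⟪X, D e⟫ := by
      intro t ht n
      have hf : z n + t • e ∈ Feas A := by
        intro p
        simp only [map_add, map_smul, Pi.add_apply, Pi.smul_apply, smul_eq_mul]
        have := mul_nonneg ht (he p)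
        have := hz n p
        linarith
      have := h.ge _ hf
      simpa [inner_add_right, inner_smul_right] using this
    have h2 := h1 1 zero_le_one
    have h3 : Tendsto (fun n => ⟪X, D (z n)⟫ + 1 * ⟪X, D e⟫) atTop
        (𝓝 (‖X‖ ^ 2 + 1 * ⟪X, D e⟫)) := hI.add_const _
    have h4 := ge_of_tendsto' h3 h2
    linarith
  rcases lt_or_ge 0 c with hc0 | hc0
  · have hf : c⁻¹ • e ∈ Feas A := by
      intro p
      simp only [map_smul, Pi.smul_apply, smul_eq_mul]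
      rw [← inv_mul_cancel₀ hc0.ne']
      exact mul_le_mul_of_nonneg_left (hc p) (inv_nonneg.2 hc0.le)
    have := h.ge _ hf
    rw [map_smul, inner_smul_right] at this
    have h5 : c * ‖X‖ ^ 2 ≤ c * (c⁻¹ * ⟪X, D e⟫) := mul_le_mul_of_nonneg_left this hc0.le
    rwa [← mul_assoc, mul_inv_cancel₀ hc0.ne', one_mul] at h5
  · have h1 : ∀ n, c * ⟪X, D (z n)⟫ ≤ ⟪X, D e⟫ := by
      intro n
      have hf : ∀ p, 0 ≤ A (e + (-c) • z n) p := by
        intro p
        simp only [map_add, map_smul, Pi.add_apply, Pi.smul_apply, smul_eq_mul]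
        have h6 := hz n p
        have h7 := hc p
        nlinarith
      have := h0 _ hf
      simp only [map_add, map_smul, inner_add_right, inner_smul_right] at this
      linarith
    exact le_of_tendsto' (hI.const_mul c) h1

theorem nonneg (h : IsMin D A X) {e : V} (he : ∀ p, 0 ≤ A e p) : 0 ≤ ⟪X, D e⟫ := by
  simpa using h.ge_const (c := 0) he

/-- uniqueness of the minimising field -/
theorem unique (h : IsMin D A X) {X' : H} (h' : IsMin D A X') : X = X' := by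
  obtain ⟨z, hz, hlim⟩ := h.lim
  have hI : Tendsto (fun n => ⟪X', D (z n)⟫) atTop (𝓝 ⟪X', X⟫) :=
    Filter.Tendsto.inner (𝕜 := ℝ) (tendsto_const_nhds (x := X')) hlim
  have h1 : ‖X'‖ ^ 2 ≤ ⟪X', X⟫ := ge_of_tendsto' hI (fun n => h'.ge _ (hz n))
  have h2 : ‖X‖ ^ 2 = ‖X'‖ ^ 2 := by rw [h.norm_sq, h'.norm_sq]
  have h3 : ‖X - X'‖ ^ 2 = ‖X‖ ^ 2 - 2 * ⟪X, X'⟫ + ‖X'‖ ^ 2 := norm_sub_sq_real X X'
  rw [real_inner_comm] at h1
  have h4 : ‖X - X'‖ ^ 2 ≤ 0 := by rw [h3]; linarith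
  have h5 : ‖X - X'‖ = 0 := by
    have := sq_nonneg ‖X - X'‖
    exact pow_eq_zero_iff (two_ne_zero) |>.1 (le_antisymm h4 this)
  exact sub_eq_zero.1 (norm_eq_zero.1 h5)

/-- every minimising sequence of feasible pairs converges to `X` -/
theorem tendsto_of_norm (h : IsMin D A X) {z : ℕ → V} (hz : ∀ n, z n ∈ Feas A)
    (hn : Tendsto (fun n => ‖D (z n)‖ ^ 2) atTop (𝓝 (cond D A))) :
    Tendsto (fun n => D (z n)) atTop (𝓝 X) := by
  rw [tendsto_iff_norm_sub_tendsto_zero]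
  have h1 : ∀ n, ‖D (z n) - X‖ ^ 2 ≤ ‖D (z n)‖ ^ 2 - cond D A := by
    intro n
    have h2 := norm_sub_sq_real (D (z n)) X
    have h3 := h.ge _ (hz n)
    rw [real_inner_comm] at h3
    have h4 := h.norm_sq
    linarith
  have h5 : Tendsto (fun n => ‖D (z n)‖ ^ 2 - cond D A) atTop (𝓝 0) := by
    simpa using hn.sub_const (cond D A)
  have h6 : Tendsto (fun n => ‖D (z n) - X‖ ^ 2) atTop (𝓝 0) :=
    squeeze_zero (fun n => by positivity) h1 h5
  have h7 := h6.sqrt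
  simpa [Real.sqrt_sq] using h7

/-- **(K2)** the Kantorovich functional -/
theorem exists_pos (h : IsMin D A X) (hA : ∀ e, Bd (A e)) :
    ∃ lam : (P → ℝ) →ₗ[ℝ] ℝ, Pos lam ∧ lam 1 = ‖X‖ ^ 2 ∧ ∀ e, lam (A e) = ⟪X, D e⟫ := by
  obtain ⟨z, hz, -⟩ := h.lim
  -- `W = V × ℝ`, `T (e, c) = A e + c`, `φ (e, c) = ⟪X, D e⟫ + c ‖X‖²`
  let T : V × ℝ →ₗ[ℝ] (P → ℝ) :=
    A.coprod (LinearMap.toSpanSingleton ℝ (P → ℝ) 1)
  let φ : V × ℝ →ₗ[ℝ] ℝ :=
    ((innerSL ℝ X).toLinearMap ∘ₗ D).coprod (LinearMap.toSpanSingleton ℝ ℝ (‖X‖ ^ 2))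
  have hT : ∀ w, T w = A w.1 + w.2 • (1 : P → ℝ) := fun w => by
    simp [T, LinearMap.coprod_apply, LinearMap.toSpanSingleton_apply]
  have hφ : ∀ w, φ w = ⟪X, D w.1⟫ + w.2 * ‖X‖ ^ 2 := fun w => by
    simp [φ, LinearMap.coprod_apply, LinearMap.toSpanSingleton_apply]
  obtain ⟨lam, hpos, hlam⟩ := exists_pos_of_le T
    (fun w => by rw [hT]; exact (hA _).add (Bd.one.smul _)) φ
    (by
      intro w hw
      rw [hφ]
      have h1 : ∀ p, -w.2 ≤ A w.1 p := by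
        intro p
        have := hw p
        rw [hT] at this
        simp only [Pi.add_apply, Pi.smul_apply, Pi.one_apply, smul_eq_mul, mul_one] at this
        linarith
      have := h.ge_const h1
      linarith)
    (z 0, 0) (fun p => by
      rw [hT]
      simpa using hz 0 p)
  refine ⟨lam, hpos, ?_, fun e => ?_⟩
  · have := hlam (0, 1)
    rw [hT, hφ] at this
    simpa using this
  · have := hlam (e, 0)
    rw [hT, hφ] at this
    simpa using this

/-- **(K3) Thomson's principle** : any other pair `(X', lam')` -/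
theorem thomson_inner (h : IsMin D A X) (hA : ∀ e, Bd (A e)) {X' : H}
    {lam' : (P → ℝ) →ₗ[ℝ] ℝ} (hp : Pos lam') (he : ∀ e, lam' (A e) = ⟪X', D e⟫) :
    lam' 1 ≤ ⟪X', X⟫ := by
  obtain ⟨z, hz, hlim⟩ := h.lim
  have hI : Tendsto (fun n => ⟪X', D (z n)⟫) atTop (𝓝 ⟪X', X⟫) :=
    Filter.Tendsto.inner (𝕜 := ℝ) (tendsto_const_nhds (x := X')) hlim
  refine ge_of_tendsto' hI (fun n => ?_)
  rw [← he]
  exact hp.mono Bd.one (hA _) (fun p => by simpa using hz n p)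

theorem thomson (h : IsMin D A X) (hA : ∀ e, Bd (A e)) {X' : H}
    {lam' : (P → ℝ) →ₗ[ℝ] ℝ} (hp : Pos lam') (he : ∀ e, lam' (A e) = ⟪X', D e⟫) :
    (lam' 1) ^ 2 ≤ cond D A * ‖X'‖ ^ 2 := by
  have h1 := h.thomson_inner hA hp he
  have h2 := real_inner_le_norm X' X
  have h3 := hp.one_nonneg
  rw [← h.norm_sq]
  have h4 : lam' 1 ≤ ‖X'‖ * ‖X‖ := h1.trans h2
  calc (lam' 1) ^ 2 ≤ (‖X'‖ * ‖X‖) ^ 2 := pow_le_pow_left₀ h3 h4 2
    _ = ‖X‖ ^ 2 * ‖X'‖ ^ 2 := by ring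

/-- equality in Thomson's principle -/
theorem thomson_eq (h : IsMin D A X) (hA : ∀ e, Bd (A e)) {X' : H}
    {lam' : (P → ℝ) →ₗ[ℝ] ℝ} (hp : Pos lam') (he : ∀ e, lam' (A e) = ⟪X', D e⟫)
    (h1 : cond D A ≤ lam' 1) (h2 : ‖X'‖ ^ 2 ≤ cond D A) : X' = X := by
  have h3 := h.thomson_inner hA hp he
  have h4 := norm_sub_sq_real X' X
  have h5 := h.norm_sq
  have h6 : ‖X' - X‖ ^ 2 ≤ 0 := by rw [h4]; linarith
  have h7 : ‖X' - X‖ = 0 :=
    pow_eq_zero_iff (two_ne_zero) |>.1 (le_antisymm h6 (sq_nonneg _))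
  exact sub_eq_zero.1 (norm_eq_zero.1 h7)

/-- **Removing a piece**: if `X - X₁` is admissible with a functional `lam'` of total mass
`≥ m`, and `X₁ ⊥ X - X₁` (for instance `X₁ = X 1_Ω`), then `X₁ = 0`. -/
theorem thomson_cut (h : IsMin D A X) (hA : ∀ e, Bd (A e)) {X₁ : H}
    {lam' : (P → ℝ) →ₗ[ℝ] ℝ} (hp : Pos lam') (he : ∀ e, lam' (A e) = ⟪X - X₁, D e⟫)
    (h1 : cond D A ≤ lam' 1) (h2 : ⟪X - X₁, X₁⟫ = 0) : X₁ = 0 := by
  have h3 : ‖X‖ ^ 2 = ‖X - X₁‖ ^ 2 + ‖X₁‖ ^ 2 := by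
    have h4 : X = (X - X₁) + X₁ := by abel
    have h5 := norm_add_sq_real (X - X₁) X₁
    rw [← h4, h2] at h5
    linarith
  have h6 : ‖X - X₁‖ ^ 2 ≤ cond D A := by
    rw [← h.norm_sq, h3]
    have := sq_nonneg ‖X₁‖
    linarith
  have h7 := h.thomson_eq hA hp he h1 h6
  have h8 : X - X₁ = X - 0 := by rw [h7, sub_zero]
  exact sub_right_injective h8

/-- the same functional: `X₁` invisible for all test pairs and orthogonal to `X - X₁`
(for instance a closed flow loop `X₁ = X 1_Ω = rot grad w`) is zero -/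
theorem cut_eq_zero (h : IsMin D A X) (hA : ∀ e, Bd (A e)) {X₁ : H}
    (he : ∀ e, ⟪X₁, D e⟫ = 0) (h2 : ⟪X - X₁, X₁⟫ = 0) : X₁ = 0 := by
  obtain ⟨lam, hp, h1, hl⟩ := h.exists_pos hA
  refine h.thomson_cut hA hp (fun e => ?_) (by rw [h1, h.norm_sq]) h2
  rw [hl, inner_sub_left, he, sub_zero]

end IsMin

/-- **(K4)** if every feasible pair can be replaced by a feasible pair in `S` of no larger energy
(truncation to `[0,1]`), then `X` is the limit of feasible pairs in `S`. -/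
theorem IsMin.exists_seq_mem {X : H} (h : IsMin D A X) {S : Set V}
    (hS : ∀ z ∈ Feas A, ∃ z' ∈ Feas A ∩ S, ‖D z'‖ ≤ ‖D z‖) :
    ∃ z : ℕ → V, (∀ n, z n ∈ Feas A ∩ S) ∧ Tendsto (fun n => D (z n)) atTop (𝓝 X) := by
  obtain ⟨z, hz, hlim⟩ := h.lim
  choose z' hz' hle using fun n => hS (z n) (hz n)
  refine ⟨z', hz', h.tendsto_of_norm (fun n => (hz' n).1) ?_⟩
  have h1 : Tendsto (fun n => ‖D (z n)‖ ^ 2) atTop (𝓝 (cond D A)) := by
    rw [← h.norm_sq]; exact hlim.norm.pow 2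
  exact tendsto_of_tendsto_of_tendsto_of_le_of_le tendsto_const_nhds h1
    (fun n => cond_le (hz' n).1) (fun n => pow_le_pow_left₀ (norm_nonneg _) (hle n) 2)

/-- conductance and domain: more test pairs (or weaker constraint) ==> smaller conductance -/
theorem cond_mono {V' P' H' : Type*} [AddCommGroup V'] [Module ℝ V'] [NormedAddCommGroup H']
    [InnerProductSpace ℝ H'] {D' : V' →ₗ[ℝ] H'} {A' : V' →ₗ[ℝ] (P' → ℝ)}
    (hne : (Feas A').Nonempty)
    (hj : ∀ z ∈ Feas A', ∃ z' ∈ Feas A, ‖D z'‖ ≤ ‖D' z‖) : cond D A ≤ cond D' A' := by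
  apply le_csInf (hne.image _)
  rintro _ ⟨z, hz, rfl⟩
  obtain ⟨z', hz', hle⟩ := hj z hz
  exact (cond_le hz').trans (pow_le_pow_left₀ (norm_nonneg _) hle 2)

/-- conductance zero: feasible pairs of arbitrarily small energy -/
theorem exists_small_of_cond_eq_zero (hne : (Feas A).Nonempty) (h0 : cond D A = 0)
    {ε : ℝ} (hε : 0 < ε) : ∃ z ∈ Feas A, ‖D z‖ ^ 2 < ε := by
  have : cond D A < ε := by rw [h0]; exact hε
  obtain ⟨_, ⟨z, hz, rfl⟩, hlt⟩ := exists_lt_of_csInf_lt (hne.image _) this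
  exact ⟨z, hz, hlt⟩

end main

end Crest.Agent.R105.Kkt_238
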