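/-
# Radon measures from the Kantorovich functional (row 105, lemma A); helper238

* `exists_measure_of` : `f ↦ lam (B f)`, `B : C_c(Y, ℝ) → (P → ℝ)` positive, is a Radon measure;
* `exists_push` : the push forward of `lam` under any map `π : P → Y`, `Y` compact, with the
  comparison on closed / open sets.
-/
import Crest.Agent.R105.Kkt1_238
import Mathlib.MeasureTheory.Integral.RieszMarkovKakutani.Real

open Filter Topology Set MeasureTheory CompactlySupported

namespace Crest.Agent.R105.Kkt_238

variable {P Y : Type*} [TopologicalSpace Y] [T2Space Y] [MeasurableSpace Y] [BorelSpace Y]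
  {lam : (P → ℝ) →ₗ[ℝ] ℝ}

/-- `f ↦ lam (B f)` is integration against a Radon measure. -/
theorem exists_measure_of [LocallyCompactSpace Y] (hp : Pos lam)
    (B : C_c(Y, ℝ) →ₗ[ℝ] (P → ℝ)) (hB : ∀ f, Bd (B f))
    (hB0 : ∀ f : C_c(Y, ℝ), (∀ y, 0 ≤ f y) → ∀ p, 0 ≤ B f p) :
    ∃ μ : Measure Y, μ.Regular ∧ ∀ f : C_c(Y, ℝ), ∫ y, f y ∂μ = lam (B f) := by
  let Λ : C_c(Y, ℝ) →ₚ[ℝ] ℝ := PositiveLinearMap.mk₀ (lam ∘ₗ B) (fun f hf =>
    hp.nonneg _ (hB f) (hB0 f (fun y => hf y)))
  exact ⟨RealRMK.rieszMeasure Λ, inferInstance, fun f => RealRMK.integral_rieszMeasure Λ f⟩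

omit [T2Space Y] [MeasurableSpace Y] [BorelSpace Y] in
theorem bd_comp [CompactSpace Y] (f : C(Y, ℝ)) (π : P → Y) : Bd (fun p => f (π p)) :=
  ⟨‖f‖, fun p => by simpa using f.norm_coe_le_norm (π p)⟩

open Classical in
/-- the push forward under any map to a compact space -/
theorem exists_push [CompactSpace Y] (hp : Pos lam) (π : P → Y) :
    ∃ μ : Measure Y, μ.Regular ∧ IsFiniteMeasure μ ∧
      (∀ f : C(Y, ℝ), ∫ y, f y ∂μ = lam (fun p => f (π p))) ∧ μ.real univ = lam 1 ∧
      (∀ F : Set Y, IsClosed F → lam (fun p => if π p ∈ F then 1 else 0) ≤ μ.real F) ∧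
      (∀ U : Set Y, IsOpen U → μ.real U ≤ lam (fun p => if π p ∈ U then 1 else 0)) := by
  obtain ⟨μ, hμ, hint⟩ := exists_measure_of (lam := lam) hp
    (B := { toFun := fun f p => f (π p)
            map_add' := fun f g => by ext; simp
            map_smul' := fun c f => by ext; simp })
    (fun f => bd_comp f.toContinuousMap π) (fun f hf p => hf _)
  have hfin : IsFiniteMeasure μ := ⟨isCompact_univ.measure_lt_top⟩
  have hint' : ∀ f : C(Y, ℝ), ∫ y, f y ∂μ = lam (fun p => f (π p)) := by
    intro f
    exact hint ⟨f, HasCompactSupport.of_compactSpace _⟩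
  have hone : μ.real univ = lam 1 := by
    have := hint' 1
    simp only [ContinuousMap.one_apply, integral_const, smul_eq_mul, mul_one] at this
    rw [this]; rfl
  have hbi : ∀ S : Set Y, Bd (fun p => if π p ∈ S then (1 : ℝ) else 0) := fun S =>
    ⟨1, fun p => by beta_reduce; split_ifs <;> simp⟩
  -- Urysohn comparison
  have key : ∀ F U : Set Y, IsClosed F → IsOpen U → F ⊆ U →
      ∃ f : C(Y, ℝ), (∀ y ∈ F, f y = 1) ∧ (∀ y ∉ U, f y = 0) ∧ ∀ y, 0 ≤ f y ∧ f y ≤ 1 := by
    intro F U hF hU hFU
    obtain ⟨f, h1, h2, h3⟩ := exists_continuous_zero_one_of_isClosed hU.isClosed_compl hF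
      (Set.disjoint_left.2 fun y hy hy' => hy (hFU hy'))
    exact ⟨f, fun y hy => h2 hy, fun y hy => h1 hy, fun y => h3 y⟩
  refine ⟨μ, hμ, hfin, hint', hone, fun F hF => ?_, fun U hU => ?_⟩
  · -- outer regularity
    refine le_of_forall_pos_le_add fun ε hε => ?_
    obtain ⟨U, hFU, hU, hμU⟩ := F.exists_isOpen_lt_add (μ := μ) (measure_ne_top μ F)
      (ε := ENNReal.ofReal ε) (by simpa using hε)
    obtain ⟨f, h1, h2, h3⟩ := key F U hF hU hFU
    have e1 : lam (fun p => if π p ∈ F then (1 : ℝ) else 0) ≤ lam (fun p => f (π p)) :=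
      hp.mono (hbi F) (bd_comp f π) (fun p => by
        by_cases hpF : π p ∈ F
        · simp [hpF, h1 _ hpF]
        · simp [hpF, (h3 _).1])
    have e2 : ∫ y, f y ∂μ ≤ μ.real U := by
      calc ∫ y, f y ∂μ ≤ ∫ y, U.indicator 1 y ∂μ := by
            apply integral_mono
            · exact (f.continuous.integrable_of_hasCompactSupport
                (HasCompactSupport.of_compactSpace _))
            · exact (integrable_const (1 : ℝ)).indicator hU.measurableSet
            · intro y
              by_cases hy : y ∈ U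
              · simp [hy, (h3 y).2]
              · simp [hy, h2 y hy]
        _ = μ.real U := integral_indicator_one hU.measurableSet
    have e3 : μ.real U ≤ μ.real F + ε := by
      rw [measureReal_def, measureReal_def]
      have e4 := hμU.le
      calc (μ U).toReal ≤ (μ F + ENNReal.ofReal ε).toReal :=
            ENNReal.toReal_mono (by finiteness) e4
        _ = (μ F).toReal + ε := by
            rw [ENNReal.toReal_add (by finiteness) (by finiteness), ENNReal.toReal_ofReal hε.le]
    rw [← hint'] at e1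
    linarith
  · -- inner regularity
    refine le_of_forall_pos_le_add fun ε hε => ?_
    obtain ⟨K, hKU, hK, hμK⟩ := hU.measurableSet.exists_isCompact_lt_add (μ := μ)
      (measure_ne_top μ U) (ε := ENNReal.ofReal ε) (by simpa using hε)
    obtain ⟨f, h1, h2, h3⟩ := key K U hK.isClosed hU hKU
    have e1 : lam (fun p => f (π p)) ≤ lam (fun p => if π p ∈ U then (1 : ℝ) else 0) :=
      hp.mono (bd_comp f π) (hbi U) (fun p => by
        by_cases hpF : π p ∈ U
        · simp [hpF, (h3 _).2]
        · simp [hpF, h2 _ hpF])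
    have e2 : μ.real K ≤ ∫ y, f y ∂μ := by
      calc μ.real K = ∫ y, K.indicator 1 y ∂μ := (integral_indicator_one hK.measurableSet).symm
        _ ≤ ∫ y, f y ∂μ := by
            apply integral_mono
            · exact (integrable_const (1 : ℝ)).indicator hK.measurableSet
            · exact (f.continuous.integrable_of_hasCompactSupport
                (HasCompactSupport.of_compactSpace _))
            · intro y
              by_cases hy : y ∈ K
              · simp [hy, h1 y hy]
              · simp [hy, (h3 y).1]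
    have e3 : μ.real U ≤ μ.real K + ε := by
      rw [measureReal_def, measureReal_def]
      calc (μ U).toReal ≤ (μ K + ENNReal.ofReal ε).toReal :=
            ENNReal.toReal_mono (by finiteness) hμK.le
        _ = (μ K).toReal + ε := by
            rw [ENNReal.toReal_add (by finiteness) (by finiteness), ENNReal.toReal_ofReal hε.le]
    rw [← hint'] at e1
    linarith

/-- `P` itself compact, all `A e` continuous: a Radon measure on `P`. -/
theorem IsMin.exists_measure {V H : Type*} [AddCommGroup V] [Module ℝ V] [NormedAddCommGroup H]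
    [InnerProductSpace ℝ H] {D : V →ₗ[ℝ] H} {A : V →ₗ[ℝ] (Y → ℝ)} {X : H} [CompactSpace Y]
    (h : IsMin D A X) (hA : ∀ e, Continuous (A e)) :
    ∃ μ : Measure Y, μ.Regular ∧ IsFiniteMeasure μ ∧ μ.real univ = cond D A ∧
      ∀ e, ∫ y, A e y ∂μ = inner ℝ X (D e) := by
  have hBd : ∀ e, Bd (A e) := fun e => bd_comp (P := Y) ⟨A e, hA e⟩ id
  obtain ⟨lam, hp, h1, hl⟩ := h.exists_pos hBd
  obtain ⟨μ, hμ, hfin, hint, hone, -, -⟩ := exists_push hp (id : Y → Y)
  refine ⟨μ, hμ, hfin, by rw [hone, h1, h.norm_sq], fun e => ?_⟩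
  rw [← hl]
  exact hint ⟨A e, hA e⟩

end Crest.Agent.R105.Kkt_238
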