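/-
# Row 105, lemma A: the flow on one half (from the Kantorovich functional to a Borel measure);
helper238
-/
import Crest.Agent.R105.Kin2_238
import Crest.Agent.R105.Kkt2_238
import Mathlib.Topology.MetricSpace.Thickening
import Mathlib.MeasureTheory.Measure.HasOuterApproxClosed

open Set Filter MeasureTheory Topology
open scoped ENNReal NNReal InnerProductSpace

namespace Crest.Agent.R105.Kin_238

open CF_363 Kkt_238

variable {a b c B : ℝ} {𝓗 g : Set Hair} {e e' : ℝ × ℝ → ℝ}

/-- the part of the hairs of `g` below `B` -/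
def lowSet (g : Set Hair) (B : ℝ) : Set (ℝ × ℝ) := {q | ∃ K ∈ g, q ∈ K.car ∧ q.2 ≤ B}

/-- geometry of a half problem: the hairs of `g` end above the bottom `c` and reach `B` -/
structure GG (a b c B : ℝ) (g : Set Hair) : Prop where
  hx : ∀ K ∈ g, a < K.x ∧ K.x < b
  low : ∃ δ > 0, ∀ K ∈ g, c + δ ≤ K.b
  lowB : ∀ K ∈ g, K.b ≤ B
  topB : ∀ K ∈ g, B ≤ K.t
  closed : IsClosed {q : ℝ × ℝ | ∃ K ∈ g, q ∈ K.car}

theorem GG.lowSet_subset (G : GG a b c B g) : lowSet g B ⊆ Wl a b c B := by
  rintro q ⟨K, hK, hq, hqB⟩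
  obtain ⟨δ, hδ, h⟩ := G.low
  have h1 := h K hK
  have h2 := hq.2.1
  have h3 : q.1 = K.x := hq.1
  exact ⟨by rw [h3]; exact G.hx K hK, by linarith, hqB⟩

theorem GG.isCompact_lowSet (G : GG a b c B g) : IsCompact (lowSet g B) := by
  have h1 : lowSet g B = {q : ℝ × ℝ | ∃ K ∈ g, q ∈ K.car} ∩ {q | q.2 ≤ B} := by
    ext q
    constructor
    · rintro ⟨K, hK, hq, hqB⟩; exact ⟨⟨K, hK, hq⟩, hqB⟩
    · rintro ⟨⟨K, hK, hq⟩, hqB⟩; exact ⟨K, hK, hq, hqB⟩
  have h2 : IsClosed (lowSet g B) := by
    rw [h1]; exact G.closed.inter (isClosed_le continuous_snd continuous_const)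
  refine (isCompact_Icc.prod isCompact_Icc).of_isClosed_subset h2
    (s := Icc a b ×ˢ Icc c B) ?_
  intro q hq
  obtain ⟨h3, h4, h5⟩ := G.lowSet_subset hq
  exact ⟨⟨h3.1.le, h3.2.le⟩, h4.le, h5⟩

/-- the flow on one half -/
structure Half (𝓗 : Set Hair) (a b c B : ℝ) (g : Set Hair) (X1 X2 : ℝ × ℝ → ℝ)
    (μ : Measure (ℝ × ℝ)) : Prop where
  m1 : Measurable X1
  m2 : Measurable X2
  L1 : MemLp X1 2 (volume : Measure (ℝ × ℝ))
  L2 : MemLp X2 2 (volume : Measure (ℝ × ℝ))
  z1 : ∀ p, p ∉ Wo a b c B → X1 p = 0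
  z2 : ∀ p, p ∉ Wo a b c B → X2 p = 0
  fin : IsFiniteMeasure μ
  carried : μ (lowSet g B)ᶜ = 0
  /-- flow identity -/
  F : ∀ (e : ℝ × ℝ → ℝ) (J : Finset Hair), e ∈ Vl 𝓗 a b c B → CF (Wl a b c B \ cut J) e →
    μ (cut J) = 0 → ∫ p in Wo a b c B, (X1 p * gx e p + X2 p * gy e p) = ∫ p, e p ∂μ
  /-- `X` is a limit of gradients -/
  cl : ∃ E : ℕ → ℝ × ℝ → ℝ, (∀ n, E n ∈ Vl 𝓗 a b c B) ∧
    Tendsto (fun n => ∫ p in Wo a b c B, ((gx (E n) p - X1 p) ^ 2 + (gy (E n) p - X2 p) ^ 2))
      atTop (𝓝 0)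

/-! ### cut-offs near a closed null set -/

theorem exists_cutoff (μ : Measure (ℝ × ℝ)) [IsFiniteMeasure μ] {S : Set (ℝ × ℝ)} (hS : IsCompact S)
    (hμ : μ S = 0) {ε : ℝ} (hε : 0 < ε) :
    ∃ (u : ℝ × ℝ → ℝ) (O F : Set (ℝ × ℝ)), Continuous u ∧ (∀ p, 0 ≤ u p ∧ u p ≤ 1) ∧ IsOpen O ∧
      S ⊆ O ∧ (∀ p ∈ O, u p = 0) ∧ IsClosed F ∧ μ.real F < ε ∧ O ⊆ F ∧ ∀ p, p ∉ F → u p = 1 := by
  have h1 : Tendsto (fun r => μ (Metric.cthickening r S)) (𝓝 0) (𝓝 (μ S)) :=
    tendsto_measure_cthickening_of_isClosed ⟨1, one_pos, measure_ne_top _ _⟩ hS.isClosed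
  rw [hμ] at h1
  have h2 : ∀ᶠ r in 𝓝[>] (0 : ℝ), μ (Metric.cthickening r S) < ENNReal.ofReal ε :=
    (h1.mono_left nhdsWithin_le_nhds).eventually (gt_mem_nhds (by simpa using hε))
  obtain ⟨δ, hδ, hδpos⟩ := (h2.and self_mem_nhdsWithin).exists
  have hδ0 : 0 < δ := hδpos
  obtain ⟨u, hu0, hu1, hu2⟩ := exists_continuous_zero_one_of_isClosed
    (s := Metric.cthickening (δ / 2) S) (t := (Metric.thickening δ S)ᶜ)
    Metric.isClosed_cthickening Metric.isOpen_thickening.isClosed_compl
    (by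
      rw [Set.disjoint_compl_right_iff_subset]
      exact Metric.cthickening_subset_thickening' hδ0 (by linarith) S)
  refine ⟨u, Metric.thickening (δ / 2) S, Metric.cthickening δ S, u.continuous, fun p => hu2 p,
    Metric.isOpen_thickening, Metric.self_subset_thickening (by linarith) S,
    fun p hp => hu0 (Metric.thickening_subset_cthickening _ _ hp), Metric.isClosed_cthickening, ?_,
    ?_, fun p hp => hu1 fun h => hp (Metric.thickening_subset_cthickening _ _ h)⟩
  · rw [measureReal_def]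
    calc (μ (Metric.cthickening δ S)).toReal < (ENNReal.ofReal ε).toReal :=
          (ENNReal.toReal_lt_toReal (measure_ne_top _ _) ENNReal.ofReal_ne_top).2 hδ
      _ = ε := ENNReal.toReal_ofReal hε.le
  · exact (Metric.thickening_subset_cthickening _ _).trans
      (Metric.cthickening_mono (by linarith) S)

/-! ### the norm of `HF` -/

theorem norm_HF_sq (Y : HF) : ‖Y‖ ^ 2 = (∫ p, Y 0 p ^ 2) + ∫ p, Y 1 p ^ 2 := by
  rw [← real_inner_self_eq_norm_sq, PiLp.inner_apply, Fin.sum_univ_two, inner_L2_eq, inner_L2_eq]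
  simp only [sq]

/-! ### the flow -/

variable {P : Type*} {lam : (P → ℝ) →ₗ[ℝ] ℝ}

open Classical in
/-- identity (F) on the compact set `lowSet g B` -/
theorem flow_identity (hp : Pos lam) (G : GG a b c B g) (κ : P → Hair) (s : P → Bool) (y : P → ℝ)
    (hκ : ∀ q, κ q ∈ g) (hy : ∀ q, (κ q).b ≤ y q ∧ y q ≤ B)
    {μ : Measure (ℝ × ℝ)} [IsFiniteMeasure μ] (hcar : μ (lowSet g B)ᶜ = 0)
    (hint : ∀ f : ℝ × ℝ → ℝ, ContinuousOn f (Wl a b c B) →
      ∫ p, f p ∂μ = lam (fun q => f ((κ q).x, y q)))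
    (hcl : ∀ F : Set (ℝ × ℝ), IsClosed F →
      lam (fun q => if ((κ q).x, y q) ∈ F then 1 else 0) ≤ μ.real F)
    {J : Finset Hair} (he : CF (Wl a b c B \ cut J) e) (hJ : μ (cut J) = 0) :
    lam (fun q => tr e (s q) (κ q).x (y q)) = ∫ p, e p ∂μ := by
  obtain ⟨L, C, hL, hSL, hC⟩ := he
  -- `C` may be taken nonnegative
  wlog hC0 : 0 ≤ C generalizing C
  · exact this |C| (fun p hp => (hC p hp).trans (le_abs_self C)) (abs_nonneg C)
  have hpos : ∀ q, ((κ q).x, y q) ∈ Wl a b c B := fun q =>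
    G.lowSet_subset ⟨κ q, hκ q, ⟨rfl, (hy q).1, (hy q).2.trans (G.topB _ (hκ q))⟩, (hy q).2⟩
  have htr : ∀ q, |tr e (s q) (κ q).x (y q)| ≤ C := fun q =>
    abs_tr_le hSL hC (s q) (hpos q).1 (hpos q).2.1 (hpos q).2.2
  have hbd : ∀ᵐ p ∂μ, p ∈ Wl a b c B ∧ p ∉ cut J := by
    have h1 : ∀ᵐ p ∂μ, p ∈ lowSet g B := by
      rw [ae_iff]; exact hcar
    have h2 : ∀ᵐ p ∂μ, p ∉ cut J := measure_eq_zero_iff_ae_notMem.1 hJ
    filter_upwards [h1, h2] with p hp1 hp2 using ⟨G.lowSet_subset hp1, hp2⟩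
  have hmeas : AEStronglyMeasurable e μ := by
    have h1 : MeasurableSet (Wl a b c B \ cut J) :=
      measurableSet_Wl.diff (isClosed_cut J).measurableSet
    have h2 : μ.restrict (Wl a b c B \ cut J) = μ := by
      apply Measure.restrict_eq_self_of_ae_mem
      filter_upwards [hbd] with p hp using hp
    rw [← h2]
    exact (continuousOn_of hSL).aestronglyMeasurable h1
  have hie : Integrable e μ := by
    refine Integrable.of_bound hmeas C ?_
    filter_upwards [hbd] with p hp using by simpa using hC p hp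
  have key : ∀ ε : ℝ, 0 < ε →
      |lam (fun q => tr e (s q) (κ q).x (y q)) - ∫ p, e p ∂μ| ≤ 4 * C * ε := by
    intro ε hε
    obtain ⟨u, O, F, hu, hu01, hO, hSO, huO, hF, hμF, hOF, hu1⟩ :=
      exists_cutoff μ (isCompact_cut J) hJ hε
    set f : ℝ × ℝ → ℝ := fun p => u p * e p with hf
    have hfc : ContinuousOn f (Wl a b c B) := by
      intro p hp
      by_cases hpO : p ∈ O
      · have : f =ᶠ[𝓝[Wl a b c B] p] fun _ => 0 := by
          filter_upwards [nhdsWithin_le_nhds (hO.mem_nhds hpO)] with q hq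
          simp [hf, huO q hq]
        refine continuousWithinAt_const.congr_of_eventuallyEq this ?_
        simp [hf, huO p hpO]
      · exact hu.continuousWithinAt.mul (continuousWithinAt_of hSL hp fun h => hpO (hSO h))
    have hfe : ∀ p ∈ Wl a b c B, p ∉ cut J → |e p - f p| ≤ C * (if p ∈ F then 1 else 0) := by
      intro p hp hpJ
      by_cases hpF : p ∈ F
      · rw [if_pos hpF, mul_one]
        have h1 := hC p ⟨hp, hpJ⟩
        have h2 := hu01 p
        have h3 : e p - f p = (1 - u p) * e p := by simp only [hf]; ring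
        rw [h3, abs_mul, abs_of_nonneg (by linarith)]
        nlinarith [abs_nonneg (e p)]
      · rw [if_neg hpF, mul_zero]
        simp [hf, hu1 p hpF]
    -- comparison of the functionals
    have hA : |lam (fun q => tr e (s q) (κ q).x (y q)) - lam (fun q => f ((κ q).x, y q))|
        ≤ 2 * C * ε := by
      rw [← map_sub]
      have h1 : ∀ q, |((fun q => tr e (s q) (κ q).x (y q)) - fun q => f ((κ q).x, y q)) q| ≤
          2 * C * (if ((κ q).x, y q) ∈ F then 1 else 0) := by
        intro q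
        simp only [Pi.sub_apply]
        by_cases hqJ : ((κ q).x, y q) ∈ cut J
        · have h2 := hSO hqJ
          rw [if_pos (hOF h2), mul_one]
          have h3 : f ((κ q).x, y q) = 0 := by simp [hf, huO _ h2]
          rw [h3, sub_zero]
          have := htr q
          linarith
        · rw [tr_eq_self hSL (s q) (hpos q).1 (hpos q).2.1 (hpos q).2.2 hqJ]
          refine (hfe _ (hpos q) hqJ).trans ?_
          have : (0:ℝ) ≤ if ((κ q).x, y q) ∈ F then 1 else 0 := by split_ifs <;> norm_num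
          nlinarith
      have hb1 : Bd (fun q => (if ((κ q).x, y q) ∈ F then (1:ℝ) else 0)) :=
        ⟨1, fun q => by beta_reduce; split_ifs <;> simp⟩
      have hb2 : Bd ((fun q => tr e (s q) (κ q).x (y q)) - fun q => f ((κ q).x, y q)) := by
        refine ⟨2 * C, fun q => (h1 q).trans ?_⟩
        split_ifs <;> linarith
      have h2 : lam ((2 * C) • fun q => (if ((κ q).x, y q) ∈ F then (1:ℝ) else 0)) ≤ 2 * C * ε := by
        rw [map_smul, smul_eq_mul]
        exact mul_le_mul_of_nonneg_left ((hcl F hF).trans hμF.le) (by linarith)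
      rw [abs_le]
      constructor
      · have h3 := hp.mono ((hb1.smul (2 * C)).neg) hb2 (fun q => by
          have := (abs_le.1 (h1 q)).1
          simpa using this)
        rw [map_neg] at h3
        linarith
      · have h3 := hp.mono hb2 (hb1.smul (2 * C)) (fun q => by
          have := (abs_le.1 (h1 q)).2
          simpa using this)
        linarith
    -- comparison of the integrals
    have hBb : |(∫ p, e p ∂μ) - ∫ p, f p ∂μ| ≤ C * ε := by
      have hif : Integrable f μ := by
        refine Integrable.of_bound ?_ C ?_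
        · have h2 : μ.restrict (Wl a b c B) = μ := by
            apply Measure.restrict_eq_self_of_ae_mem
            filter_upwards [hbd] with p hp using hp.1
          rw [← h2]
          exact hfc.aestronglyMeasurable measurableSet_Wl
        · filter_upwards [hbd] with p hp
          have h1 := hC p hp
          have h2 := hu01 p
          rw [hf]
          simp only [Real.norm_eq_abs, abs_mul, abs_of_nonneg h2.1]
          nlinarith [abs_nonneg (e p)]
      rw [← integral_sub hie hif]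
      have h6 := norm_integral_le_integral_norm (μ := μ) (fun p => e p - f p)
      rw [Real.norm_eq_abs] at h6
      refine h6.trans ?_
      calc ∫ p, ‖e p - f p‖ ∂μ ≤ ∫ p, F.indicator (fun _ => C) p ∂μ := by
            refine integral_mono_ae (hie.sub hif).norm
              ((integrable_const C).indicator hF.measurableSet) ?_
            filter_upwards [hbd] with p hp
            have := hfe p hp.1 hp.2
            by_cases hpF : p ∈ F
            · simp only [Real.norm_eq_abs, indicator_of_mem hpF]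
              simpa [hpF] using this
            · simp only [Real.norm_eq_abs, indicator_of_notMem hpF]
              simpa [hpF] using this
        _ = C * μ.real F := by
            rw [integral_indicator hF.measurableSet, setIntegral_const, smul_eq_mul, mul_comm]
        _ ≤ C * ε := mul_le_mul_of_nonneg_left hμF.le hC0
    rw [hint f hfc] at hBb
    have h5 := abs_sub_le (lam (fun q => tr e (s q) (κ q).x (y q)))
      (lam (fun q => f ((κ q).x, y q))) (∫ p, e p ∂μ)
    rw [abs_sub_comm (lam (fun q => f ((κ q).x, y q)))] at h5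
    nlinarith
  have h0 : |lam (fun q => tr e (s q) (κ q).x (y q)) - ∫ p, e p ∂μ| ≤ 0 := by
    refine le_of_forall_pos_le_add fun ε hε => ?_
    have := key (ε / (4 * C + 1)) (by positivity)
    refine this.trans ?_
    rw [zero_add, mul_div_assoc', div_le_iff₀ (by positivity)]
    nlinarith
  exact sub_eq_zero.1 (abs_nonpos_iff.1 h0)

end Crest.Agent.R105.Kin_238
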