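/-
# Row 105, lemma A: existence of the flow on one half; helper238
-/
import Crest.Agent.R105.Kin3_238

open Set Filter MeasureTheory Topology
open scoped ENNReal NNReal InnerProductSpace

namespace Crest.Agent.R105.Kin_238

open CF_363 Kkt_238

variable {a b c B : ℝ} {𝓗 g : Set Hair} {e e' : ℝ × ℝ → ℝ}

/-! ### limits of gradients vanish off `Wo` -/

theorem grad0_eq (e : Vl 𝓗 a b c B) : ∀ᵐ p : ℝ × ℝ, (grad 𝓗 a b c B e) 0 p = G1 a b c B e p :=
  (memLp_G1 e.2.1).coeFn_toLp

theorem grad1_eq (e : Vl 𝓗 a b c B) : ∀ᵐ p : ℝ × ℝ, (grad 𝓗 a b c B e) 1 p = G2 a b c B e p :=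
  (memLp_G2 e.2.1).coeFn_toLp

/-- the vector fields which vanish a.e. off `Wo` -/
def suppSet (a b c B : ℝ) : Set HF :=
  {Y | (∀ᵐ p : ℝ × ℝ, p ∉ Wo a b c B → Y 0 p = 0) ∧ ∀ᵐ p : ℝ × ℝ, p ∉ Wo a b c B → Y 1 p = 0}

theorem isClosed_zero_off (W : Set (ℝ × ℝ)) (hW : MeasurableSet W) :
    IsClosed {f : Lp ℝ 2 (volume : Measure (ℝ × ℝ)) | ∀ᵐ p : ℝ × ℝ, p ∉ W → f p = 0} := by
  have h1 : {f : Lp ℝ 2 (volume : Measure (ℝ × ℝ)) | ∀ᵐ p : ℝ × ℝ, p ∉ W → f p = 0} =
      ⋂ φ : Lp ℝ 2 (volume : Measure (ℝ × ℝ)), {f | ⟪((Lp.memLp φ).indicator hW.compl).toLp _, f⟫_ℝ = 0} := by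
    ext f
    simp only [mem_ofPred_eq, mem_iInter]
    constructor
    · intro h φ
      rw [inner_L2_eq]
      rw [← integral_zero (ℝ × ℝ) ℝ (μ := volume)]
      refine integral_congr_ae ?_
      filter_upwards [h, ((Lp.memLp φ).indicator hW.compl).coeFn_toLp] with p hp hp2
      rw [hp2]
      by_cases hpW : p ∈ W
      · simp [hpW]
      · simp [hp hpW]
    · intro h
      have h2 := h f
      rw [inner_L2_eq] at h2
      have h3 : ∫ p, (Wᶜ).indicator (fun p => f p ^ 2) p = 0 := by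
        rw [← h2]
        refine integral_congr_ae ?_
        filter_upwards [((Lp.memLp f).indicator hW.compl).coeFn_toLp] with p hp2
        rw [hp2]
        by_cases hpW : p ∈ W
        · simp [hpW]
        · simp [hpW, sq]
      rw [integral_eq_zero_iff_of_nonneg] at h3
      · filter_upwards [h3] with p hp hpW
        have h4 : p ∈ Wᶜ := hpW
        rw [indicator_of_mem h4] at hp
        simpa using hp
      · intro p
        exact indicator_nonneg (fun q _ => sq_nonneg _) p
      · exact ((Lp.memLp f).integrable_sq).indicator hW.compl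
  rw [h1]
  refine isClosed_iInter fun φ => ?_
  exact isClosed_eq (by fun_prop) continuous_const

theorem isClosed_suppSet : IsClosed (suppSet a b c B) := by
  have h0 := isClosed_zero_off (Wo a b c B) measurableSet_Wo
  have c0 : Continuous fun Y : HF => Y 0 := PiLp.continuous_apply 2 _ 0
  have c1 : Continuous fun Y : HF => Y 1 := PiLp.continuous_apply 2 _ 1
  exact (h0.preimage c0).inter (h0.preimage c1)

theorem mem_suppSet_of_closure {X : HF} (hX : X ∈ closure (range (grad 𝓗 a b c B))) :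
    X ∈ suppSet a b c B := by
  refine closure_minimal ?_ isClosed_suppSet hX
  rintro _ ⟨e, rfl⟩
  constructor
  · filter_upwards [grad0_eq e] with p hp hpW
    rw [hp, G1, indicator_of_notMem hpW]
  · filter_upwards [grad1_eq e] with p hp hpW
    rw [hp, G2, indicator_of_notMem hpW]

/-- measurable representatives -/
noncomputable def rep (a b c B : ℝ) (X : HF) (i : Fin 2) : ℝ × ℝ → ℝ := (Wo a b c B).indicator (X i)

theorem measurable_rep (X : HF) (i : Fin 2) : Measurable (rep a b c B X i) :=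
  (Lp.stronglyMeasurable (X i)).measurable.indicator measurableSet_Wo

theorem memLp_rep (X : HF) (i : Fin 2) : MemLp (rep a b c B X i) 2 (volume : Measure (ℝ × ℝ)) :=
  (Lp.memLp (X i)).indicator measurableSet_Wo

theorem rep_ae {X : HF} (hX : X ∈ suppSet a b c B) (i : Fin 2) :
    ∀ᵐ p : ℝ × ℝ, rep a b c B X i p = X i p := by
  have h : ∀ᵐ p : ℝ × ℝ, p ∉ Wo a b c B → X i p = 0 := by
    fin_cases i
    · exact hX.1
    · exact hX.2
  filter_upwards [h] with p hp
  by_cases hpW : p ∈ Wo a b c B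
  · exact indicator_of_mem hpW _
  · rw [rep, indicator_of_notMem hpW, hp hpW]

theorem inner_grad_rep (X : HF) (e : Vl 𝓗 a b c B) :
    ⟪X, grad 𝓗 a b c B e⟫_ℝ =
      ∫ p in Wo a b c B, (rep a b c B X 0 p * gx e p + rep a b c B X 1 p * gy e p) := by
  rw [inner_grad, ← integral_indicator measurableSet_Wo, ← integral_add]
  · refine integral_congr_ae (Eventually.of_forall fun p => ?_)
    unfold G1 G2 rep
    by_cases hpW : p ∈ Wo a b c B
    · simp [hpW]
    · simp [hpW]
  · exact (Lp.memLp _).integrable_mul (memLp_G1 e.2.1)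
  · exact (Lp.memLp _).integrable_mul (memLp_G2 e.2.1)

theorem norm_rep {X : HF} (hX : X ∈ suppSet a b c B) :
    (∫ p, rep a b c B X 0 p ^ 2) + ∫ p, rep a b c B X 1 p ^ 2 = ‖X‖ ^ 2 := by
  rw [norm_HF_sq]
  congr 1
  · refine integral_congr_ae ?_
    filter_upwards [rep_ae hX 0] with p hp
    rw [hp]
  · refine integral_congr_ae ?_
    filter_upwards [rep_ae hX 1] with p hp
    rw [hp]

theorem norm_sub_rep (X : HF) (e : Vl 𝓗 a b c B) :
    ∫ p in Wo a b c B, ((gx e p - rep a b c B X 0 p) ^ 2 + (gy e p - rep a b c B X 1 p) ^ 2) ≤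
      ‖grad 𝓗 a b c B e - X‖ ^ 2 := by
  rw [norm_HF_sq]
  have h0 : ∀ᵐ p : ℝ × ℝ, (grad 𝓗 a b c B e - X) 0 p = G1 a b c B e p - X 0 p := by
    have := Lp.coeFn_sub ((grad 𝓗 a b c B e) 0) (X 0)
    filter_upwards [this, grad0_eq e] with p hp hp'
    rw [← hp']; exact hp
  have h1 : ∀ᵐ p : ℝ × ℝ, (grad 𝓗 a b c B e - X) 1 p = G2 a b c B e p - X 1 p := by
    have := Lp.coeFn_sub ((grad 𝓗 a b c B e) 1) (X 1)
    filter_upwards [this, grad1_eq e] with p hp hp'
    rw [← hp']; exact hp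
  have i0 : Integrable (fun p => (grad 𝓗 a b c B e - X) 0 p ^ 2) volume :=
    (Lp.memLp _).integrable_sq
  have i1 : Integrable (fun p => (grad 𝓗 a b c B e - X) 1 p ^ 2) volume :=
    (Lp.memLp _).integrable_sq
  rw [← integral_add i0 i1, ← integral_indicator measurableSet_Wo]
  refine integral_mono_of_nonneg ?_ (i0.add i1) ?_
  · refine Eventually.of_forall fun p => indicator_nonneg (fun q _ => ?_) p
    positivity
  · filter_upwards [h0, h1] with p hp0 hp1
    simp only [hp0, hp1]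
    by_cases hpW : p ∈ Wo a b c B
    · simp [G1, G2, rep, hpW]
    · rw [indicator_of_notMem hpW]; positivity

/-! ### existence -/

variable {P : Type*} {lam : (P → ℝ) →ₗ[ℝ] ℝ}

open Classical in
/-- From the Kantorovich functional to the measure on one half. -/
theorem exists_half (hp : Pos lam) (G : GG a b c B g) (κ : P → Hair) (s : P → Bool) (y : P → ℝ)
    (hκ : ∀ q, κ q ∈ g) (hy : ∀ q, (κ q).b ≤ y q ∧ y q ≤ B) {X : HF}
    (hX : ∀ e : Vl 𝓗 a b c B,
      lam (fun q => tr e (s q) (κ q).x (y q)) = ⟪X, grad 𝓗 a b c B e⟫_ℝ)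
    (hcl : X ∈ closure (range (grad 𝓗 a b c B))) :
    ∃ μ : Measure (ℝ × ℝ), Half 𝓗 a b c B g (rep a b c B X 0) (rep a b c B X 1) μ ∧
      μ.real univ = lam 1 ∧
      (∀ f : ℝ × ℝ → ℝ, ContinuousOn f (Wl a b c B) →
        ∫ p, f p ∂μ = lam (fun q => f ((κ q).x, y q))) ∧
      (∀ F : Set (ℝ × ℝ), IsClosed F →
        lam (fun q => if ((κ q).x, y q) ∈ F then 1 else 0) ≤ μ.real F) ∧
      (∀ U : Set (ℝ × ℝ), IsOpen U →
        μ.real U ≤ lam (fun q => if ((κ q).x, y q) ∈ U then 1 else 0)) := by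
  have hcomp := G.isCompact_lowSet
  have : CompactSpace (lowSet g B) := isCompact_iff_compactSpace.1 hcomp
  have hmem : ∀ q, ((κ q).x, y q) ∈ lowSet g B := fun q =>
    ⟨κ q, hκ q, ⟨rfl, (hy q).1, (hy q).2.trans (G.topB _ (hκ q))⟩, (hy q).2⟩
  obtain ⟨μ', hreg, hfin, hint, hone, hF, hU⟩ :=
    exists_push hp (Y := lowSet g B) (fun q => ⟨((κ q).x, y q), hmem q⟩)
  have hme : MeasurableEmbedding (Subtype.val : lowSet g B → ℝ × ℝ) :=
    MeasurableEmbedding.subtype_coe hcomp.isClosed.measurableSet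
  set μ : Measure (ℝ × ℝ) := μ'.map Subtype.val with hμ
  have : IsFiniteMeasure μ := by rw [hμ]; infer_instance
  have hcar : μ (lowSet g B)ᶜ = 0 := by
    rw [hμ, hme.map_apply]
    simp
  have hint' : ∀ f : ℝ × ℝ → ℝ, ContinuousOn f (Wl a b c B) →
      ∫ p, f p ∂μ = lam (fun q => f ((κ q).x, y q)) := by
    intro f hf
    rw [hμ, hme.integral_map]
    have hc : Continuous fun p : lowSet g B => f p :=
      (hf.mono G.lowSet_subset).domRestrict
    exact hint ⟨_, hc⟩
  have hF' : ∀ F : Set (ℝ × ℝ), IsClosed F →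
      lam (fun q => if ((κ q).x, y q) ∈ F then 1 else 0) ≤ μ.real F := by
    intro F hFc
    have h1 := hF (Subtype.val ⁻¹' F) (hFc.preimage continuous_subtype_val)
    have h2 : μ.real F = μ'.real (Subtype.val ⁻¹' F) := by
      rw [measureReal_def, measureReal_def, hμ, hme.map_apply]
    rw [h2]
    exact h1
  have hU' : ∀ U : Set (ℝ × ℝ), IsOpen U →
      μ.real U ≤ lam (fun q => if ((κ q).x, y q) ∈ U then 1 else 0) := by
    intro U hUo
    have h1 := hU (Subtype.val ⁻¹' U) (hUo.preimage continuous_subtype_val)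
    have h2 : μ.real U = μ'.real (Subtype.val ⁻¹' U) := by
      rw [measureReal_def, measureReal_def, hμ, hme.map_apply]
    rw [h2]
    exact h1
  have hsupp := mem_suppSet_of_closure hcl
  refine ⟨μ, ?_, ?_, hint', hF', hU'⟩
  · refine ⟨measurable_rep X 0, measurable_rep X 1, memLp_rep X 0, memLp_rep X 1,
      fun p hp => indicator_of_notMem hp _, fun p hp => indicator_of_notMem hp _, ‹_›, hcar,
      fun e J he hCF hJ => ?_, ?_⟩
    · rw [← inner_grad_rep X ⟨e, he⟩, ← hX ⟨e, he⟩]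
      exact flow_identity hp G κ s y hκ hy hcar hint' hF' hCF hJ
    · obtain ⟨Y, hY, hlim⟩ := mem_closure_iff_seq_limit.1 hcl
      choose E hE using hY
      refine ⟨fun n => E n, fun n => (E n).2, ?_⟩
      have h1 : Tendsto (fun n => ‖grad 𝓗 a b c B (E n) - X‖ ^ 2) atTop (𝓝 0) := by
        have h2 : Tendsto (fun n => ‖Y n - X‖) atTop (𝓝 0) :=
          tendsto_iff_norm_sub_tendsto_zero.1 hlim
        have h3 := h2.pow 2
        simp only [ne_eq, OfNat.ofNat_ne_zero, not_false_eq_true, zero_pow] at h3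
        refine h3.congr fun n => ?_
        rw [hE]
      refine squeeze_zero (fun n => ?_) (fun n => norm_sub_rep X (E n)) h1
      exact integral_nonneg fun p => by positivity
  · rw [← hone, measureReal_def, measureReal_def, hμ, hme.map_apply]
    simp

end Crest.Agent.R105.Kin_238
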