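/-
# Row 105, lemma A: the KKT instance, the flow of both halves, no atoms; helper238

The upper problem is written in reflected coordinates (`y ↦ -y`, `CFr_363`): `c' = -d`,
`B' = -B₊`, hairs `reflH g`.
-/
import Crest.Agent.R105.Kin4_238
import Crest.Agent.R105.CFr_363

open Set Filter MeasureTheory Topology
open scoped ENNReal NNReal InnerProductSpace

namespace Crest.Agent.R105.Kin_238

open CF_363 Kkt_238

variable {a b c B c' B' : ℝ} {𝓗 g : Set Hair} {e e' : ℝ × ℝ → ℝ}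

/-- pairs of points (with sides) of one hair, below `B` and above `-B'` -/
structure Pt (g : Set Hair) (B B' : ℝ) where
  K : Hair
  hK : K ∈ g
  σ : Bool
  p : ℝ
  hp : K.b ≤ p ∧ p ≤ B
  σ' : Bool
  q : ℝ
  hq : -K.t ≤ q ∧ q ≤ B'

/-- `m(g) = 0` -/
def Null (𝓗 : Set Hair) (a b c B c' B' : ℝ) (g : Set Hair) : Prop :=
  ∀ ε > 0, ∃ e ∈ Vl 𝓗 a b c B, ∃ e' ∈ Vl (reflH 𝓗) a b c' B',
    En (Wo a b c B) e + En (Wo a b c' B') e' < ε ∧
    ∀ K ∈ g, ∀ (σ σ' : Bool) (p q : ℝ), K.b ≤ p → p ≤ B → -K.t ≤ q → q ≤ B' →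
      1 ≤ tr e σ K.x p + tr e' σ' K.x q

theorem GG.mem (G : GG a b c B g) {K : Hair} (hK : K ∈ g) {p : ℝ} (hp : K.b ≤ p ∧ p ≤ B) :
    (K.x, p) ∈ Wl a b c B :=
  G.lowSet_subset ⟨K, hK, ⟨rfl, hp.1, hp.2.trans (G.topB _ hK)⟩, hp.2⟩

theorem refl_mem {K : Hair} (hK : K ∈ g) : K.refl ∈ reflH g := by
  show K.refl.refl ∈ g
  rwa [Hair.refl_refl]

/-- the traces -/
noncomputable def Am (𝓗 : Set Hair) (G : GG a b c B g) (G' : GG a b c' B' (reflH g)) :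
    (Vl 𝓗 a b c B × Vl (reflH 𝓗) a b c' B') →ₗ[ℝ] (Pt g B B' → ℝ) where
  toFun z := fun P => tr z.1 P.σ P.K.x P.p + tr z.2 P.σ' P.K.x P.q
  map_add' := by
    intro z w
    ext P
    have h1 := G.mem P.hK P.hp
    have h2 := G'.mem (refl_mem P.hK) P.hq
    have e1 := tr_add z.1.2.1 w.1.2.1 P.σ h1.1 h1.2.1 h1.2.2
    have e2 := tr_add z.2.2.1 w.2.2.1 P.σ' h2.1 h2.2.1 h2.2.2
    simp only [Hair.refl_x] at e1 e2
    show tr (↑z.1 + ↑w.1) P.σ P.K.x P.p + tr (↑z.2 + ↑w.2) P.σ' P.K.x P.q = _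
    rw [e1, e2]
    simp only [Pi.add_apply]
    ring
  map_smul' := by
    intro t z
    ext P
    have h1 := G.mem P.hK P.hp
    have h2 := G'.mem (refl_mem P.hK) P.hq
    have e1 := tr_smul z.1.2.1 t P.σ h1.1 h1.2.1 h1.2.2
    have e2 := tr_smul z.2.2.1 t P.σ' h2.1 h2.2.1 h2.2.2
    simp only [Hair.refl_x] at e1 e2
    show tr (t • ↑z.1) P.σ P.K.x P.p + tr (t • ↑z.2) P.σ' P.K.x P.q = _
    rw [e1, e2]
    simp only [RingHom.id_apply, Pi.smul_apply, smul_eq_mul]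
    ring

/-- the gradients -/
noncomputable def Dm (𝓗 : Set Hair) (a b c B c' B' : ℝ) :
    (Vl 𝓗 a b c B × Vl (reflH 𝓗) a b c' B') →ₗ[ℝ] HH where
  toFun z := WithLp.toLp 2 ![grad 𝓗 a b c B z.1, grad (reflH 𝓗) a b c' B' z.2]
  map_add' := by
    intro z w
    ext i : 1
    fin_cases i
    · exact map_add (grad 𝓗 a b c B) z.1 w.1
    · exact map_add (grad (reflH 𝓗) a b c' B') z.2 w.2
  map_smul' := by
    intro t z
    ext i : 1
    fin_cases i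
    · exact map_smul (grad 𝓗 a b c B) t z.1
    · exact map_smul (grad (reflH 𝓗) a b c' B') t z.2

theorem inner_Dm (X : HH) (z : Vl 𝓗 a b c B × Vl (reflH 𝓗) a b c' B') :
    ⟪X, Dm 𝓗 a b c B c' B' z⟫_ℝ =
      ⟪X 0, grad 𝓗 a b c B z.1⟫_ℝ + ⟪X 1, grad (reflH 𝓗) a b c' B' z.2⟫_ℝ := by
  rw [PiLp.inner_apply, Fin.sum_univ_two]
  rfl

theorem norm_HH_sq (X : HH) : ‖X‖ ^ 2 = ‖X 0‖ ^ 2 + ‖X 1‖ ^ 2 := by
  rw [← real_inner_self_eq_norm_sq, PiLp.inner_apply, Fin.sum_univ_two,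
    real_inner_self_eq_norm_sq, real_inner_self_eq_norm_sq]

theorem norm_Dm_sq (z : Vl 𝓗 a b c B × Vl (reflH 𝓗) a b c' B') :
    ‖Dm 𝓗 a b c B c' B' z‖ ^ 2 = En (Wo a b c B) z.1 + En (Wo a b c' B') z.2 := by
  rw [norm_HH_sq, ← norm_grad_sq, ← norm_grad_sq]
  rfl

/-- the function `min 1 (max 0 ((y - c - δ) / δ))` -/
theorem exists_bottom (𝓗 : Set Hair) (a b c B : ℝ) {δ : ℝ} (hδ : 0 < δ) :
    ∃ e ∈ Vl 𝓗 a b c B, ∀ (σ : Bool) (x y : ℝ), (a < x ∧ x < b) → c + 2 * δ ≤ y → y ≤ B →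
      tr e σ x y = 1 := by
  set G : ℝ → ℝ := fun t => min 1 (max 0 ((t - c - δ) / δ)) with hG
  have hGlip : ∀ s t, |G s - G t| ≤ δ⁻¹ * |s - t| := by
    intro s t
    have h1 : |max 0 ((s - c - δ) / δ) - max 0 ((t - c - δ) / δ)| ≤ δ⁻¹ * |s - t| := by
      refine (abs_max_sub_max_le_max _ _ _ _).trans (max_le (by simp; positivity) ?_)
      rw [← sub_div]
      rw [abs_div, abs_of_pos hδ, div_eq_inv_mul]
      apply le_of_eq
      congr 2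
      ring
    refine (abs_min_sub_min_le_max _ _ _ _).trans (max_le (by simp; positivity) h1)
  have hsnd : SL (univ : Set (ℝ × ℝ)) 1 (fun p : ℝ × ℝ => p.2) := by
    intro p q _
    rw [one_mul, ← Real.dist_eq, Prod.dist_eq]
    exact le_max_right _ _
  have hSL := hsnd.comp (inv_nonneg.2 hδ.le) hGlip
  have hb : ∀ t, |G t| ≤ 1 := by
    intro t
    have h1 : 0 ≤ G t := le_min zero_le_one (le_max_left _ _)
    rw [abs_of_nonneg h1]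
    exact min_le_left _ _
  have hCF : CF (Wl a b c B \ cut ∅) (fun p : ℝ × ℝ => G p.2) :=
    ⟨δ⁻¹ * 1, 1, by positivity, hSL.mono (subset_univ _), fun p _ => hb _⟩
  refine ⟨fun p => G p.2, ⟨⟨∅, by simp, hCF⟩, δ, hδ, fun p hp hpc => ?_⟩, fun σ x y hx hy hyB => ?_⟩
  · have h1 : (p.2 - c - δ) / δ ≤ 0 := div_nonpos_of_nonpos_of_nonneg (by linarith) hδ.le
    simp only [hG]
    rw [max_eq_left h1]
    simp
  · obtain ⟨L, C, hL, hS, hC⟩ := hCF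
    rw [tr_eq_self hS σ hx (by linarith) hyB (by simp)]
    have h1 : 1 ≤ (y - c - δ) / δ := by rw [le_div_iff₀ hδ]; linarith
    simp only [hG]
    rw [min_eq_left (h1.trans (le_max_right _ _))]

theorem feas_nonempty (G : GG a b c B g) (G' : GG a b c' B' (reflH g)) :
    (Feas (Am 𝓗 G G')).Nonempty := by
  obtain ⟨δ, hδ, hlow⟩ := G.low
  obtain ⟨e, he, h1⟩ := exists_bottom 𝓗 a b c B (δ := δ / 2) (by linarith)
  refine ⟨(⟨e, he⟩, 0), fun P => ?_⟩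
  show 1 ≤ tr e P.σ P.K.x P.p + tr (((0 : Vl (reflH 𝓗) a b c' B') : ℝ × ℝ → ℝ)) P.σ' P.K.x P.q
  have h2 := hlow P.K P.hK
  rw [h1 P.σ P.K.x P.p (G.hx _ P.hK) (by linarith [P.hp.1]) P.hp.2]
  have h3 : tr ((0 : Vl (reflH 𝓗) a b c' B') : ℝ × ℝ → ℝ) P.σ' P.K.x P.q = 0 :=
    tr_eq_of_tendsto tendsto_const_nhds
  rw [h3]
  norm_num

theorem bd_Am (G : GG a b c B g) (G' : GG a b c' B' (reflH g))
    (z : Vl 𝓗 a b c B × Vl (reflH 𝓗) a b c' B') : Bd (Am 𝓗 G G' z) := by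
  obtain ⟨J, -, L, C, hL, hS, hC⟩ := z.1.2.1
  obtain ⟨J', -, L', C', hL', hS', hC'⟩ := z.2.2.1
  refine ⟨C + C', fun P => ?_⟩
  have h1 := G.mem P.hK P.hp
  have h2 := G'.mem (refl_mem P.hK) P.hq
  have e1 := abs_tr_le hS hC P.σ h1.1 h1.2.1 h1.2.2
  have e2 := abs_tr_le hS' hC' P.σ' h2.1 h2.2.1 h2.2.2
  exact (abs_add_le _ _).trans (add_le_add e1 e2)

/-- the output of lemma A's duality -/
structure Flow (𝓗 : Set Hair) (a b c B c' B' : ℝ) (g : Set Hair) (m : ℝ)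
    (X1 X2 : ℝ × ℝ → ℝ) (μ : Measure (ℝ × ℝ)) (Y1 Y2 : ℝ × ℝ → ℝ) (ν : Measure (ℝ × ℝ)) :
    Prop where
  lo : Half 𝓗 a b c B g X1 X2 μ
  up : Half (reflH 𝓗) a b c' B' (reflH g) Y1 Y2 ν
  marg : ∀ S : Set ℝ, MeasurableSet S → μ {q | q.1 ∈ S} = ν {q | q.1 ∈ S}
  mass : μ.real univ = m
  mass' : ν.real univ = m
  energy : ((∫ p, X1 p ^ 2) + ∫ p, X2 p ^ 2) + ((∫ p, Y1 p ^ 2) + ∫ p, Y2 p ^ 2) = m
  /-- no atoms at the null hairs -/
  noatom : (∀ K ∈ g, ∀ K' ∈ g, K.x = K'.x → K = K') → ∀ K ∈ g, Null 𝓗 a b c B c' B' {K} →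
    μ {q | q.1 = K.x} = 0

/-- `z ↦ max z 0` stays in the class -/
theorem max_mem (he : e ∈ Vl 𝓗 a b c B) : (fun p => max (e p) 0) ∈ Vl 𝓗 a b c B := by
  obtain ⟨h1, δ, hδ, h2⟩ := he
  exact ⟨h1.max (CFJ_const 0), δ, hδ, fun p hp hpc => by simp [h2 p hp hpc]⟩

theorem En_max_zero_le (he : CFJ 𝓗 (Wl a b c B) e) :
    En (Wo a b c B) (fun p => max (e p) 0) ≤ En (Wo a b c B) e := by
  obtain ⟨J, -, L, C, hL, hS, hC⟩ := he
  exact En_max_const_le (hS.mono (sdiff_subset_sdiff_left Wo_subset)) 0 isOpen_Wo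
    (isClosed_cut J) (volume_cut J) volume_Wo_lt.ne

/-- hairs of `g` near `K₀` do not go far below `K₀` -/
theorem GG.usc (G : GG a b c B g) (hinj : ∀ K ∈ g, ∀ K' ∈ g, K.x = K'.x → K = K') {K₀ : Hair}
    (hK₀ : K₀ ∈ g) {η : ℝ} (hη : 0 < η) :
    ∃ r > 0, ∀ K ∈ g, |K.x - K₀.x| < r → K₀.b - η ≤ K.b := by
  have hnot : (K₀.x, K₀.b - η) ∉ {q : ℝ × ℝ | ∃ K ∈ g, q ∈ K.car} := by
    rintro ⟨K, hK, hq⟩
    have h1 : K₀.x = K.x := hq.1
    have h2 := hinj K₀ hK₀ K hK h1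
    have h3 : K.b ≤ K₀.b - η := hq.2.1
    rw [← h2] at h3
    linarith
  obtain ⟨r, hr, hball⟩ := Metric.isOpen_iff.1 G.closed.isOpen_compl _ hnot
  refine ⟨r, hr, fun K hK hKr => ?_⟩
  by_contra hlt
  push Not at hlt
  refine hball (a := (K.x, K₀.b - η)) ?_ ⟨K, hK, rfl, hlt.le, ?_⟩
  · rw [Metric.mem_ball, Prod.dist_eq]
    simpa [Real.dist_eq] using hKr
  · have h1 := G.lowB K₀ hK₀
    have h2 := G.topB K hK
    show K₀.b - η ≤ K.t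
    linarith

/-- traces on hairs near `K₀` are above those of `K₀`, up to `η` -/
theorem GG.tr_near (G : GG a b c B g) (hinj : ∀ K ∈ g, ∀ K' ∈ g, K.x = K'.x → K = K') {K₀ : Hair}
    (hK₀ : K₀ ∈ g) (he : CFJ 𝓗 (Wl a b c B) e) {η : ℝ} (hη : 0 < η) :
    ∃ r > 0, ∀ K ∈ g, |K.x - K₀.x| < r → ∀ (σ : Bool) (p : ℝ), K.b ≤ p → p ≤ B →
      ∃ (σ₀ : Bool) (p₀ : ℝ), K₀.b ≤ p₀ ∧ p₀ ≤ B ∧ tr e σ₀ K₀.x p₀ ≤ tr e σ K.x p + η := by
  obtain ⟨J, -, L, C, hL, hS, hC⟩ := he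
  have hη' : 0 < η / (2 * (L + 1)) := by positivity
  obtain ⟨r0, hr0, h0⟩ := G.usc hinj hK₀ hη'
  obtain ⟨r1, hr1, g1, hg1, h1⟩ := exists_side hS true (G.hx K₀ hK₀)
  obtain ⟨r2, hr2, g2, hg2, h2⟩ := exists_side hS false (G.hx K₀ hK₀)
  have hK₀c : c < K₀.b := (G.mem hK₀ ⟨le_rfl, G.lowB _ hK₀⟩).2.1
  have main : ∀ (σ₀ : Bool) (r' : ℝ) (g' : ℝ × ℝ → ℝ), 0 < r' → LipschitzWith L.toNNReal g' →
      (∀ s ∈ sInt σ₀ K₀.x r', (a < s ∧ s < b) ∧ ∀ y, c < y → y ≤ B →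
        (s, y) ∉ cut J ∧ e (s, y) = g' (s, y)) →
      ∀ K ∈ g, K.x ∈ sInt σ₀ K₀.x r' → |K.x - K₀.x| < min r0 (η / (2 * (L + 1))) →
      ∀ (σ : Bool) (p : ℝ), K.b ≤ p → p ≤ B →
      ∃ (σ₀ : Bool) (p₀ : ℝ), K₀.b ≤ p₀ ∧ p₀ ≤ B ∧ tr e σ₀ K₀.x p₀ ≤ tr e σ K.x p + η := by
    intro σ₀ r' g' hr' hg' hside K hK hKs hKr σ p hp hpB
    refine ⟨σ₀, max p K₀.b, le_max_right _ _, max_le hpB (G.lowB _ hK₀), ?_⟩
    have hcp : c < p := (G.mem hK ⟨hp, hpB⟩).2.1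
    have e1 : tr e σ K.x p = g' (K.x, p) := by
      rw [tr_eq_self hS σ (hside _ hKs).1 hcp hpB ((hside _ hKs).2 p hcp hpB).1,
        ((hside _ hKs).2 p hcp hpB).2]
    have e2 : tr e σ₀ K₀.x (max p K₀.b) = g' (K₀.x, max p K₀.b) :=
      tr_eq_of_tendsto (tendsto_tr_aux hg' hr' fun s hs =>
        ((hside s hs).2 _ (lt_max_of_lt_left hcp) (max_le hpB (G.lowB _ hK₀))).2)
    rw [e1, e2]
    have e3 := hg'.dist_le_mul (K₀.x, max p K₀.b) (K.x, p)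
    rw [Real.coe_toNNReal _ hL, Real.dist_eq] at e3
    have e4 : dist ((K₀.x, max p K₀.b) : ℝ × ℝ) (K.x, p) ≤ η / (2 * (L + 1)) := by
      rw [Prod.dist_eq]
      refine max_le ?_ ?_
      · show dist K₀.x K.x ≤ _
        rw [dist_comm, Real.dist_eq]
        exact hKr.le.trans (min_le_right _ _)
      · show dist (max p K₀.b) p ≤ _
        have e5 := h0 K hK (hKr.trans_le (min_le_left _ _))
        rw [Real.dist_eq, abs_of_nonneg (by linarith [le_max_left p K₀.b])]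
        rcases le_total p K₀.b with h | h
        · rw [max_eq_right h]; linarith
        · rw [max_eq_left h]; linarith
    have e6 : L * (η / (2 * (L + 1))) ≤ η := by
      rw [mul_div_assoc', div_le_iff₀ (by positivity)]
      nlinarith
    have e7 := mul_le_mul_of_nonneg_left e4 hL
    have e8 := (abs_le.1 e3).2
    linarith
  refine ⟨min (min r0 (η / (2 * (L + 1)))) (min r1 r2),
    lt_min (lt_min hr0 hη') (lt_min hr1 hr2), fun K hK hKr σ p hp hpB => ?_⟩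
  have hr : |K.x - K₀.x| < min r0 (η / (2 * (L + 1))) := hKr.trans_le (min_le_left _ _)
  have hr1' : |K.x - K₀.x| < r1 := hKr.trans_le ((min_le_right _ _).trans (min_le_left _ _))
  have hr2' : |K.x - K₀.x| < r2 := hKr.trans_le ((min_le_right _ _).trans (min_le_right _ _))
  rcases lt_trichotomy K.x K₀.x with h | h | h
  · refine main false r2 g2 hr2 hg2 h2 K hK ?_ hr σ p hp hpB
    rw [abs_lt] at hr2'
    simp only [sInt, Bool.false_eq_true, if_false]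
    exact ⟨by linarith [hr2'.1], h⟩
  · have := hinj K hK K₀ hK₀ h
    subst this
    exact ⟨σ, p, hp, hpB, by linarith⟩
  · refine main true r1 g1 hr1 hg1 h1 K hK ?_ hr σ p hp hpB
    rw [abs_lt] at hr1'
    simp only [sInt, if_true]
    exact ⟨h, by linarith [hr1'.2]⟩

end Crest.Agent.R105.Kin_238
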