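/-
# Row 105, lemma A: existence of the flow; helper238
-/
import Crest.Agent.R105.Kin5_238
import Mathlib.MeasureTheory.Measure.FiniteMeasure

open Set Filter MeasureTheory Topology
open scoped ENNReal NNReal InnerProductSpace

namespace Crest.Agent.R105.Kin_238

open CF_363 Kkt_238

variable {a b c B c' B' : ℝ} {𝓗 g : Set Hair} {e e' : ℝ × ℝ → ℝ}

theorem null_of_cond_eq_zero (G : GG a b c B g) (G' : GG a b c' B' (reflH g))
    (h0 : cond (Dm 𝓗 a b c B c' B') (Am 𝓗 G G') = 0) : Null 𝓗 a b c B c' B' g := by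
  intro ε hε
  obtain ⟨z, hz, hlt⟩ := exists_small_of_cond_eq_zero (feas_nonempty G G') h0 hε
  rw [norm_Dm_sq] at hlt
  exact ⟨z.1, z.1.2, z.2, z.2.2, hlt, fun K hK σ σ' p q h1 h2 h3 h4 =>
    hz ⟨K, hK, σ, p, ⟨h1, h2⟩, σ', q, ⟨h3, h4⟩⟩⟩

theorem cond_eq_zero_of_null (G : GG a b c B g) (G' : GG a b c' B' (reflH g))
    (h : Null 𝓗 a b c B c' B' g) : cond (Dm 𝓗 a b c B c' B') (Am 𝓗 G G') = 0 := by
  refine le_antisymm (le_of_forall_pos_le_add fun ε hε => ?_) cond_nonneg
  obtain ⟨e, he, e', he', hlt, hf⟩ := h ε hε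
  have hz : ((⟨e, he⟩, ⟨e', he'⟩) : Vl 𝓗 a b c B × Vl (reflH 𝓗) a b c' B') ∈ Feas (Am 𝓗 G G') :=
    fun P => hf P.K P.hK P.σ P.σ' P.p P.q P.hp.1 P.hp.2 P.hq.1 P.hq.2
  have := cond_le (D := Dm 𝓗 a b c B c' B') hz
  rw [norm_Dm_sq] at this
  simp only [zero_add]
  exact this.trans hlt.le

/-- **Lemma A, duality part**: if `m(g) > 0` there is a flow. -/
theorem exists_flow (𝓗 : Set Hair) (G : GG a b c B g) (G' : GG a b c' B' (reflH g))
    (hnot : ¬ Null 𝓗 a b c B c' B' g) :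
    ∃ (m : ℝ) (X1 X2 : ℝ × ℝ → ℝ) (μ : Measure (ℝ × ℝ)) (Y1 Y2 : ℝ × ℝ → ℝ)
      (ν : Measure (ℝ × ℝ)), 0 < m ∧ Flow 𝓗 a b c B c' B' g m X1 X2 μ Y1 Y2 ν := by
  classical
  set A := Am 𝓗 G G' with hA
  set D := Dm 𝓗 a b c B c' B' with hD
  have hne : (Feas A).Nonempty := feas_nonempty G G'
  obtain ⟨X, hX⟩ := exists_min D A hne
  have hbd : ∀ z, Bd (A z) := bd_Am G G'
  obtain ⟨lam, hp, hone, hlam⟩ := hX.exists_pos hbd
  have hm : 0 < cond D A := lt_of_le_of_ne cond_nonneg fun h =>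
    hnot (null_of_cond_eq_zero G G' h.symm)
  -- the two halves
  have hcl : X ∈ closure (range D) := by
    obtain ⟨z, -, hz⟩ := hX.lim
    exact mem_closure_of_tendsto hz (Eventually.of_forall fun n => ⟨z n, rfl⟩)
  have hcl0 : X 0 ∈ closure (range (grad 𝓗 a b c B)) := by
    have hc : Continuous fun Y : HH => Y 0 := PiLp.continuous_apply 2 _ 0
    refine closure_mono ?_ (image_closure_subset_closure_image hc ⟨X, hcl, rfl⟩)
    rintro _ ⟨_, ⟨z, rfl⟩, rfl⟩
    exact ⟨z.1, rfl⟩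
  have hcl1 : X 1 ∈ closure (range (grad (reflH 𝓗) a b c' B')) := by
    have hc : Continuous fun Y : HH => Y 1 := PiLp.continuous_apply 2 _ 1
    refine closure_mono ?_ (image_closure_subset_closure_image hc ⟨X, hcl, rfl⟩)
    rintro _ ⟨_, ⟨z, rfl⟩, rfl⟩
    exact ⟨z.2, rfl⟩
  have tr0 : ∀ (σ : Bool) (x y : ℝ), tr (0 : ℝ × ℝ → ℝ) σ x y = 0 := fun σ x y =>
    tr_eq_of_tendsto tendsto_const_nhds
  obtain ⟨μ, hμH, hμ1, hμint, hμF, hμU⟩ := exists_half (𝓗 := 𝓗) (P := Pt g B B') hp G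
    (fun P => P.K) (fun P => P.σ) (fun P => P.p) (fun P => P.hK) (fun P => P.hp) (X := X 0)
    (fun e => by
      have h1 := hlam (e, 0)
      rw [hD, inner_Dm, map_zero, inner_zero_right, add_zero] at h1
      rw [← h1]
      congr 1
      ext P
      show _ = tr e P.σ P.K.x P.p + tr (0 : ℝ × ℝ → ℝ) P.σ' P.K.x P.q
      rw [tr0, add_zero]) hcl0
  obtain ⟨ν, hνH, hν1, hνint, hνF, hνU⟩ := exists_half (𝓗 := reflH 𝓗) (P := Pt g B B') hp G'
    (fun P => P.K.refl) (fun P => P.σ') (fun P => P.q) (fun P => refl_mem P.hK) (fun P => P.hq)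
    (X := X 1)
    (fun e => by
      have h1 := hlam (0, e)
      rw [hD, inner_Dm, map_zero, inner_zero_right, zero_add] at h1
      rw [← h1]
      congr 1
      ext P
      show _ = tr (0 : ℝ × ℝ → ℝ) P.σ P.K.x P.p + tr e P.σ' P.K.x P.q
      rw [tr0, zero_add]
      rfl) hcl1
  have hμfin := hμH.fin
  have hνfin := hνH.fin
  refine ⟨cond D A, _, _, μ, _, _, ν, hm, hμH, hνH, ?_, ?_, ?_, ?_, ?_⟩
  · -- marginals
    have h1 : μ.map Prod.fst = ν.map Prod.fst := by
      refine ext_of_forall_integral_eq_of_IsFiniteMeasure fun f => ?_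
      rw [integral_map measurable_fst.aemeasurable f.continuous.aestronglyMeasurable,
        integral_map measurable_fst.aemeasurable f.continuous.aestronglyMeasurable]
      rw [hμint (fun p => f p.1) (by fun_prop), hνint (fun p => f p.1) (by fun_prop)]
      rfl
    intro S hS
    have h2 : μ.map Prod.fst S = ν.map Prod.fst S := by rw [h1]
    rw [Measure.map_apply measurable_fst hS, Measure.map_apply measurable_fst hS] at h2
    exact h2
  · rw [hμ1, hone, hX.norm_sq]
  · rw [hν1, hone, hX.norm_sq]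
  · rw [norm_rep (mem_suppSet_of_closure hcl0), norm_rep (mem_suppSet_of_closure hcl1),
      ← norm_HH_sq, hX.norm_sq]
  · -- no atoms
    intro hinj K₀ hK₀ hnull
    have hinj' : ∀ K ∈ reflH g, ∀ K' ∈ reflH g, K.x = K'.x → K = K' := by
      intro K hK K' hK' hx
      exact Hair.refl_injective (hinj _ hK _ hK' hx)
    have key : ∀ ε > 0, μ.real {q | q.1 = K₀.x} ≤ ε := by
      intro ε hε
      set N := ‖X‖ with hN
      set δ := (ε / (2 * (N + 1))) ^ 2 with hδ
      have hNn : 0 ≤ N := norm_nonneg X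
      have hεN : 0 < ε / (2 * (N + 1)) := by positivity
      have hδpos : 0 < δ := by positivity
      obtain ⟨e, he, e', he', hlt, hf⟩ := hnull δ hδpos
      have hem := max_mem he
      have hem' := max_mem he'
      obtain ⟨r, hr, hnear⟩ := G.tr_near hinj hK₀ hem.1 (η := 1 / 4) (by norm_num)
      obtain ⟨r', hr', hnear'⟩ := G'.tr_near hinj' (refl_mem hK₀) hem'.1 (η := 1 / 4) (by norm_num)
      set z : Vl 𝓗 a b c B × Vl (reflH 𝓗) a b c' B' := (⟨_, hem⟩, ⟨_, hem'⟩) with hz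
      set U : Set (ℝ × ℝ) := {q | |q.1 - K₀.x| < min r r'} with hU
      have hUo : IsOpen U := isOpen_lt (by fun_prop) continuous_const
      have hsub : {q : ℝ × ℝ | q.1 = K₀.x} ⊆ U := by
        intro q hq
        have hq' : q.1 = K₀.x := hq
        show |q.1 - K₀.x| < min r r'
        rw [hq', sub_self, abs_zero]
        exact lt_min hr hr'
      have h1 : μ.real {q | q.1 = K₀.x} ≤ μ.real U := measureReal_mono hsub
      have h2 := hμU U hUo
      -- comparison with `2 * A z`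
      have h3 : lam (fun P : Pt g B B' => if ((P.K).x, P.p) ∈ U then 1 else 0) ≤
          lam ((2:ℝ) • A z) := by
        have hb1 : Bd (fun P : Pt g B B' => if ((P.K).x, P.p) ∈ U then (1:ℝ) else 0) :=
          ⟨1, fun q => by beta_reduce; split_ifs <;> simp⟩
        refine hp.mono hb1 ((hbd z).smul 2) fun P => ?_
        have hP1 := G.mem P.hK P.hp
        have hP2 := G'.mem (refl_mem P.hK) P.hq
        have t1 : 0 ≤ tr (fun p => max (e p) 0) P.σ P.K.x P.p :=
          ge_of_tendsto' (tendsto_tr hem.1 P.σ hP1.1 hP1.2.1 hP1.2.2) fun s => le_max_right _ _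
        have t2 : 0 ≤ tr (fun p => max (e' p) 0) P.σ' P.K.x P.q :=
          ge_of_tendsto' (tendsto_tr hem'.1 P.σ' hP2.1 hP2.2.1 hP2.2.2) fun s => le_max_right _ _
        show (if ((P.K).x, P.p) ∈ U then (1:ℝ) else 0) ≤ 2 * (tr (fun p => max (e p) 0) P.σ P.K.x P.p
          + tr (fun p => max (e' p) 0) P.σ' P.K.x P.q)
        by_cases hPU : ((P.K).x, P.p) ∈ U
        · rw [if_pos hPU]
          have hd : |P.K.x - K₀.x| < min r r' := hPU
          obtain ⟨σ₀, p₀, hp₀, hp₀', hle⟩ :=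
            hnear P.K P.hK (hd.trans_le (min_le_left _ _)) P.σ P.p P.hp.1 P.hp.2
          obtain ⟨σ₁, q₀, hq₀, hq₀', hle'⟩ :=
            hnear' P.K.refl (refl_mem P.hK) (hd.trans_le (min_le_right _ _)) P.σ' P.q P.hq.1 P.hq.2
          have h4 := hf K₀ rfl σ₀ σ₁ p₀ q₀ hp₀ hp₀' hq₀ hq₀'
          have h5 : tr (fun p => max (e p) 0) σ₀ K₀.x p₀ = max (tr e σ₀ K₀.x p₀) 0 := by
            have hm := G.mem hK₀ ⟨hp₀, hp₀'⟩
            exact tr_comp he.1 (G := fun t => max t 0) (by fun_prop) σ₀ hm.1 hm.2.1 hm.2.2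
          have h6 : tr (fun p => max (e' p) 0) σ₁ K₀.x q₀ = max (tr e' σ₁ K₀.x q₀) 0 := by
            have hm := G'.mem (refl_mem hK₀) ⟨hq₀, hq₀'⟩
            exact tr_comp he'.1 (G := fun t => max t 0) (by fun_prop) σ₁ hm.1 hm.2.1 hm.2.2
          rw [h5] at hle
          simp only [Hair.refl_x] at hle'
          rw [h6] at hle'
          have h7 := le_max_left (tr e σ₀ K₀.x p₀) 0
          have h8 := le_max_left (tr e' σ₁ K₀.x q₀) 0
          linarith
        · rw [if_neg hPU]; positivity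
      have h4 : lam ((2:ℝ) • A z) ≤ ε := by
        rw [map_smul, smul_eq_mul, hlam]
        have h5 : ⟪X, D z⟫_ℝ ≤ N * (ε / (2 * (N + 1))) := by
          refine (real_inner_le_norm _ _).trans (mul_le_mul_of_nonneg_left ?_ hNn)
          have h6 : ‖D z‖ ^ 2 ≤ (ε / (2 * (N + 1))) ^ 2 := by
            rw [hD, norm_Dm_sq]
            have e1 := En_max_zero_le he.1
            have e2 := En_max_zero_le he'.1
            calc _ ≤ _ := add_le_add e1 e2
              _ ≤ δ := hlt.le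
          exact (pow_le_pow_iff_left₀ (norm_nonneg _) hεN.le two_ne_zero).1 h6
        have h7 : N * (ε / (2 * (N + 1))) ≤ ε / 2 := by
          rw [mul_div_assoc', div_le_div_iff₀ (by positivity) (by norm_num)]
          nlinarith
        linarith
      exact h1.trans (h2.trans (h3.trans h4))
    have h0 : μ.real {q | q.1 = K₀.x} = 0 :=
      le_antisymm (le_of_forall_pos_le_add fun ε hε => by simpa using key ε hε) measureReal_nonneg
    exact (measureReal_eq_zero_iff (measure_ne_top _ _)).1 h0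

end Crest.Agent.R105.Kin_238
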