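/-
# Row 105, lemma A: adapters from the slit picture (`Skp2_257.Pic`, `Fam`) to the flow, and from
the flow to the approximating sequence of 87; helper238
-/
import Crest.Agent.R105.Kin6_238
import Crest.Agent.R105.Skp2_257
import Mathlib.Topology.Order.Compact

open Set Filter MeasureTheory Topology
open scoped ENNReal NNReal InnerProductSpace

namespace Crest.Agent.R105.Kin_238

open CF_363 Kkt_238 Skp2_257

variable {a b c d B c' B' Bm Bp : ℝ} {𝓗 g : Set Hair} {E : Set (ℝ × ℝ)}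

/-! ### hairs of a compact set -/

theorem car_subset {K : Hair} (hK : K ∈ hairs E) : K.car ⊆ E := by
  obtain ⟨q, _, hP⟩ := hK
  rw [hP]
  exact connectedComponentIn_subset _ _

theorem eq_of_mem {K K' : Hair} (hK : K ∈ hairs E) (hK' : K' ∈ hairs E) {p : ℝ × ℝ}
    (hp : p ∈ K.car) (hp' : p ∈ K'.car) : K = K' := by
  obtain ⟨q, _, hP⟩ := hK
  obtain ⟨q', _, hP'⟩ := hK'
  rw [hP] at hp
  rw [hP'] at hp'
  apply Hair.car_injective
  rw [hP, hP', connectedComponentIn_eq hp, connectedComponentIn_eq hp']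

theorem hairs_disj {K K' : Hair} (hK : K ∈ hairs E) (hK' : K' ∈ hairs E) (hne : K ≠ K') :
    Disjoint K.car K'.car := by
  rw [Set.disjoint_left]
  exact fun p hp hp' => hne (eq_of_mem hK hK' hp hp')

theorem mem_un {g : Set Hair} {q : ℝ × ℝ} : q ∈ un g ↔ ∃ K ∈ g, q ∈ K.car := by
  simp [un]

theorem un_eq (g : Set Hair) : {q : ℝ × ℝ | ∃ K ∈ g, q ∈ K.car} = un g := by
  ext q; exact mem_un.symm

theorem un_reflH (g : Set Hair) : un (reflH g) = rf ⁻¹' un g := by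
  ext q
  rw [mem_preimage, mem_un, mem_un]
  constructor
  · rintro ⟨K, hK, hq⟩
    refine ⟨K.refl, hK, ?_⟩
    rw [← Hair.mem_car_refl, Hair.refl_refl]
    exact hq
  · rintro ⟨K, hK, hq⟩
    exact ⟨K.refl, refl_mem hK, Hair.mem_car_refl.2 hq⟩

/-- an open box around a compact set -/
theorem exists_box (hE : IsCompact E) (Bm Bp : ℝ) :
    ∃ a b c d : ℝ, a < b ∧ c < Bm ∧ Bp < d ∧ E ⊆ Ioo a b ×ˢ Ioo c d := by
  obtain ⟨R, hR⟩ := hE.isBounded.subset_closedBall (0 : ℝ × ℝ)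
  set S := max R 0 + |Bm| + |Bp| + 1 with hS
  have h0 : 0 ≤ max R 0 := le_max_right _ _
  have h1 := abs_nonneg Bm
  have h2 := abs_nonneg Bp
  refine ⟨-S, S, -S, S, by linarith, by linarith [neg_abs_le Bm], by linarith [le_abs_self Bp], ?_⟩
  intro p hp
  have h3 := hR hp
  rw [mem_closedBall_zero_iff, Prod.norm_def] at h3
  have h4 : |p.1| ≤ R := (le_max_left _ _).trans h3
  have h5 : |p.2| ≤ R := (le_max_right _ _).trans h3
  have h6 : R ≤ max R 0 := le_max_left _ _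
  rw [abs_le] at h4 h5
  exact ⟨⟨by linarith, by linarith⟩, ⟨by linarith, by linarith⟩⟩

theorem gg_lo (hE : IsCompact E) (hg : Fam E g Bm Bp) (hbox : E ⊆ Ioo a b ×ˢ Ioo c d) :
    GG a b c Bm g where
  hx := fun K hK => (hbox (car_subset (hg.sub hK) (⟨rfl, le_rfl, K.hbt.le⟩ : (K.x, K.b) ∈ K.car))).1
  low := by
    obtain ⟨c1, hc1, h1⟩ := hE.exists_forall_le' (f := fun p : ℝ × ℝ => p.2) (a := c)
      continuous_snd.continuousOn (fun p hp => (hbox hp).2.1)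
    refine ⟨c1 - c, by linarith, fun K hK => ?_⟩
    have := h1 (K.x, K.b) (car_subset (hg.sub hK) ⟨rfl, le_rfl, K.hbt.le⟩)
    simp only at this
    linarith
  lowB := fun K hK => (hg.crs K hK).1
  topB := fun K hK => hg.lt.le.trans (hg.crs K hK).2
  closed := by rw [un_eq]; exact hg.cpt.isClosed

theorem gg_up (hE : IsCompact E) (hg : Fam E g Bm Bp) (hbox : E ⊆ Ioo a b ×ˢ Ioo c d) :
    GG a b (-d) (-Bp) (reflH g) where
  hx := fun K hK => (hbox (car_subset (hg.sub hK)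
    (⟨rfl, le_rfl, K.refl.hbt.le⟩ : (K.refl.x, K.refl.b) ∈ K.refl.car))).1
  low := by
    obtain ⟨c1, hc1, h1⟩ := hE.exists_forall_le' (f := fun p : ℝ × ℝ => -p.2) (a := -d)
      continuous_snd.neg.continuousOn (fun p hp => neg_lt_neg (hbox hp).2.2)
    refine ⟨c1 + d, by linarith, fun K hK => ?_⟩
    have := h1 (K.refl.x, K.refl.t) (car_subset (hg.sub hK) ⟨rfl, K.refl.hbt.le, le_rfl⟩)
    simp only [Hair.refl_t, neg_neg] at this
    linarith
  lowB := fun K hK => by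
    have := (hg.crs K.refl hK).2
    simp only [Hair.refl_t] at this
    linarith
  topB := fun K hK => by
    have h1 := (hg.crs K.refl hK).1
    have h2 := hg.lt
    simp only [Hair.refl_b] at h1
    linarith
  closed := by
    rw [un_eq, un_reflH]
    exact hg.cpt.isClosed.preimage continuous_rf

theorem inj_of_fam (hg : Fam E g Bm Bp) : ∀ K ∈ g, ∀ K' ∈ g, K.x = K'.x → K = K' := by
  intro K hK K' hK' hx
  have h1 := hg.crs K hK
  have h2 := hg.crs K' hK'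
  have h3 := hg.lt
  exact eq_of_mem (hg.sub hK) (hg.sub hK') (p := (K.x, Bm)) ⟨rfl, h1.1, h3.le.trans h1.2⟩
    ⟨hx, h2.1, h3.le.trans h2.2⟩

theorem fam_singleton (hg : Fam E g Bm Bp) {K : Hair} (hK : K ∈ g) : Fam E {K} Bm Bp where
  lt := hg.lt
  sub := by rintro _ rfl; exact hg.sub hK
  cpt := by simpa [un] using K.isCompact_car
  crs := by rintro _ rfl; exact hg.crs _ hK

/-- **the flow of a family with `m(g) > 0`** -/
theorem exists_flow_fam (hE : IsCompact E) (hg : Fam E g Bm Bp) (hbox : E ⊆ Ioo a b ×ˢ Ioo c d)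
    (hnot : ¬ Null (hairs E) a b c Bm (-d) (-Bp) g) :
    ∃ (m : ℝ) (X1 X2 : ℝ × ℝ → ℝ) (μ : Measure (ℝ × ℝ)) (Y1 Y2 : ℝ × ℝ → ℝ)
      (ν : Measure (ℝ × ℝ)), 0 < m ∧
      Flow (hairs E) a b c Bm (-d) (-Bp) g m X1 X2 μ Y1 Y2 ν ∧
      ∀ K ∈ g, Null (hairs E) a b c Bm (-d) (-Bp) {K} → μ {q | q.1 = K.x} = 0 := by
  obtain ⟨m, X1, X2, μ, Y1, Y2, ν, hm, hF⟩ :=
    exists_flow (hairs E) (gg_lo hE hg hbox) (gg_up hE hg hbox) hnot
  exact ⟨m, X1, X2, μ, Y1, Y2, ν, hm, hF, hF.noatom (inj_of_fam hg)⟩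

/-- hairs of the reflected set -/
theorem hairs_rf (E : Set (ℝ × ℝ)) : hairs (rf ⁻¹' E) = reflH (hairs E) := by
  have key : ∀ (E : Set (ℝ × ℝ)) (K : Hair), K ∈ hairs E → K.refl ∈ hairs (rf ⁻¹' E) := by
    rintro E K ⟨p, hp, hP⟩
    refine ⟨rf p, by simpa using hp, ?_⟩
    have h1 := (rfL.toHomeomorph).image_connectedComponentIn hp
    have h2 : (rfL.toHomeomorph : (ℝ × ℝ) → (ℝ × ℝ)) = rf := rfl
    rw [h2, rf_image_eq_preimage, rf_image_eq_preimage] at h1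
    rw [← h1, ← hP, Hair.car_refl]
  ext K
  constructor
  · intro hK
    have := key _ K hK
    have h2 : rf ⁻¹' (rf ⁻¹' E) = E := by ext p; simp
    rw [h2] at this
    exact this
  · intro hK
    have := key E K.refl hK
    rwa [Hair.refl_refl] at this

/-! ### the approximating sequence -/

theorem integrable_sq_G1 {e X : ℝ × ℝ → ℝ} (he : CFJ 𝓗 (Wl a b c B) e)
    (hX : MemLp X 2 (volume : Measure (ℝ × ℝ))) :
    IntegrableOn (fun p => (gx e p - X p) ^ 2) (Wo a b c B) := by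
  have h1 : MemLp (gx e) 2 ((volume : Measure (ℝ × ℝ)).restrict (Wo a b c B)) := by
    have := memLp_G1 he
    rwa [G1, memLp_indicator_iff_restrict measurableSet_Wo] at this
  exact (h1.sub (hX.restrict _)).integrable_sq

theorem integrable_sq_G2 {e X : ℝ × ℝ → ℝ} (he : CFJ 𝓗 (Wl a b c B) e)
    (hX : MemLp X 2 (volume : Measure (ℝ × ℝ))) :
    IntegrableOn (fun p => (gy e p - X p) ^ 2) (Wo a b c B) := by
  have h1 : MemLp (gy e) 2 ((volume : Measure (ℝ × ℝ)).restrict (Wo a b c B)) := by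
    have := memLp_G2 he
    rwa [G2, memLp_indicator_iff_restrict measurableSet_Wo] at this
  exact (h1.sub (hX.restrict _)).integrable_sq

theorem Half.exists_seq {X1 X2 : ℝ × ℝ → ℝ} {μ : Measure (ℝ × ℝ)}
    (h : Half 𝓗 a b c B g X1 X2 μ) :
    ∃ (J : ℕ → Finset Hair) (z : ℕ → ℝ × ℝ → ℝ), (∀ n, z n ∈ Vl 𝓗 a b c B) ∧
      (∀ n, ∀ K ∈ J n, K ∈ 𝓗) ∧
      (∀ n, CF (Wl a b c B \ cut (J n)) (z n)) ∧
      (∀ n, ∃ L : ℝ, 0 ≤ L ∧ SL ((Ioo a b ×ˢ Ioo c B) \ cut (J n)) L (z n)) ∧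
      Tendsto (fun n => ∫ p in Ioo a b ×ˢ Ioo c B, (gx (z n) p - X1 p) ^ 2) atTop (𝓝 0) ∧
      Tendsto (fun n => ∫ p in Ioo a b ×ˢ Ioo c B, (gy (z n) p - X2 p) ^ 2) atTop (𝓝 0) := by
  obtain ⟨z, hz, hlim⟩ := h.cl
  choose J hJ hCF using fun n => (hz n).1
  refine ⟨J, z, hz, hJ, hCF, fun n => ?_, ?_, ?_⟩
  · obtain ⟨L, C, hL, hS, hC⟩ := hCF n
    rw [← Wo_eq]
    exact ⟨L, hL, hS.mono (sdiff_subset_sdiff_left Wo_subset)⟩
  · rw [← Wo_eq]
    refine squeeze_zero (fun n => integral_nonneg fun p => sq_nonneg _) (fun n => ?_) hlim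
    refine integral_mono (integrable_sq_G1 (hz n).1 h.L1)
      ((integrable_sq_G1 (hz n).1 h.L1).add (integrable_sq_G2 (hz n).1 h.L2)) fun p => ?_
    simp only
    nlinarith [sq_nonneg (gy (z n) p - X2 p)]
  · rw [← Wo_eq]
    refine squeeze_zero (fun n => integral_nonneg fun p => sq_nonneg _) (fun n => ?_) hlim
    refine integral_mono (integrable_sq_G2 (hz n).1 h.L2)
      ((integrable_sq_G1 (hz n).1 h.L1).add (integrable_sq_G2 (hz n).1 h.L2)) fun p => ?_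
    simp only
    nlinarith [sq_nonneg (gx (z n) p - X1 p)]

/-- points of the measure -/
theorem Half.ae_mem {X1 X2 : ℝ × ℝ → ℝ} {μ : Measure (ℝ × ℝ)}
    (h : Half 𝓗 a b c B g X1 X2 μ) : ∀ᵐ q ∂μ, q ∈ lowSet g B := by
  rw [ae_iff]; exact h.carried

end Crest.Agent.R105.Kin_238
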