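import Crest.Agent.R105.Psi11_425
import Crest.Agent.R105.Kin7_238

/-!
Row 105 (helper425): the two halves of the stream function glued along the strip.
-/

open MeasureTheory Set Filter Topology
open scoped NNReal ENNReal ContDiff

namespace Crest.Agent.R105.Psi12_425

open Psi5_425 Psi7_425 Psi8_425 Psi_425 CF_363 Skp2_257 Mp_87 Psi10_425 Psi11_425

variable {E S : Set (ℝ × ℝ)} {g : Set Hair} {a b c d Bm Bp : ℝ} {X1 X2 Y1 Y2 : ℝ × ℝ → ℝ}
  {μ ν : Measure (ℝ × ℝ)} {fl fu : ℝ × ℝ → ℝ}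

theorem ae_neg {P : ℝ → Prop} (h : ∀ᵐ y : ℝ, P y) : ∀ᵐ y : ℝ, P (-y) :=
  (Measure.measurePreserving_neg (volume : Measure ℝ)).quasiMeasurePreserving.ae h

/-- both halves -/
structure Two (E S : Set (ℝ × ℝ)) (g : Set Hair) (a b c d Bm Bp : ℝ) (X1 X2 Y1 Y2 : ℝ × ℝ → ℝ)
    (μ ν : Measure (ℝ × ℝ)) (fl fu : ℝ × ℝ → ℝ) : Prop where
  cE : IsCompact E
  null : volume E = 0
  box : E ⊆ Ioo a b ×ˢ Ioo c d
  ab : a < b
  cB : c < Bm
  lt : Bm < Bp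
  Bd : Bp < d
  SG : S ⊆ un g
  cS : IsClosed S
  sub : g ⊆ hairs E
  cG : IsClosed (un g)
  finμ : IsFiniteMeasure μ
  finν : IsFiniteMeasure ν
  L1 : MemLp X1 2 (volume : Measure (ℝ × ℝ))
  L2 : MemLp X2 2 (volume : Measure (ℝ × ℝ))
  M1 : MemLp Y1 2 (volume : Measure (ℝ × ℝ))
  M2 : MemLp Y2 2 (volume : Measure (ℝ × ℝ))
  zX1 : ∀ p : ℝ × ℝ, Bm ≤ p.2 → X1 p = 0
  zX2 : ∀ p : ℝ × ℝ, Bm ≤ p.2 → X2 p = 0
  zY1 : ∀ p : ℝ × ℝ, -Bp ≤ p.2 → Y1 p = 0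
  zY2 : ∀ p : ℝ × ℝ, -Bp ≤ p.2 → Y2 p = 0
  carμ : ∀ᵐ q ∂μ, q.2 ≤ Bm
  pos : 0 < (μ univ).toReal
  lo : HF E (un g) S a b c Bm Bp X1 X2 μ fl
  up : HF (rf ⁻¹' E) (un (reflH g)) (rf ⁻¹' S) a b (-d) (-Bp) (-Bm) Y1 Y2 ν fu
  marg : ∀ x, lam ν x = lam μ x

/-- the glued function -/
noncomputable def glue (Bm Bp : ℝ) (fl fu : ℝ × ℝ → ℝ) (p : ℝ × ℝ) : ℝ :=
  if p.2 < (Bm + Bp) / 2 then fl p else fu (rf p)

def V1 (X2 Y2 : ℝ × ℝ → ℝ) (p : ℝ × ℝ) : ℝ := -X2 p - Y2 (rf p)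
def V2 (X1 Y1 : ℝ × ℝ → ℝ) (p : ℝ × ℝ) : ℝ := X1 p - Y1 (rf p)

variable (H : Two E S g a b c d Bm Bp X1 X2 Y1 Y2 μ ν fl fu)
include H

theorem Two.agree {p : ℝ × ℝ} (hp : p.1 ∈ Ioo a b) (h1 : Bm < p.2) (h2 : p.2 < Bp)
    (hS : p ∉ S) : fl p = fu (rf p) := by
  have e1 := H.lo.strip p.1 hp p.2 h1 h2 hS
  have e2 := H.up.strip p.1 hp (-p.2) (by linarith) (by linarith) (by
    intro h; exact hS (by simpa [rf] using h))
  rw [H.marg] at e2
  have e3 : (p.1, -p.2) = rf p := rfl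
  rw [e3] at e2
  have e4 : (p.1, p.2) = p := rfl
  rw [e4] at e1
  rw [e1, e2]

theorem Two.glue_lo {p : ℝ × ℝ} (hp : p.1 ∈ Ioo a b) (h2 : p.2 < Bp) (hS : p ∉ S) :
    glue Bm Bp fl fu p = fl p := by
  have := H.lt
  unfold glue
  split_ifs with h
  · rfl
  · exact (H.agree hp (by linarith) h2 hS).symm

theorem Two.glue_up {p : ℝ × ℝ} (hp : p.1 ∈ Ioo a b) (h1 : Bm < p.2) (hS : p ∉ S) :
    glue Bm Bp fl fu p = fu (rf p) := by
  have := H.lt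
  unfold glue
  split_ifs with h
  · exact H.agree hp h1 (by linarith) hS
  · rfl

theorem Two.cont : ContinuousOn (glue Bm Bp fl fu) ((Ioo a b ×ˢ Ioo c d) \ S) := by
  have hlt := H.lt
  rintro p ⟨⟨hpx, hpy⟩, hS⟩
  refine ContinuousAt.continuousWithinAt ?_
  rcases lt_or_ge p.2 Bp with h | h
  · have hO : IsOpen ((Ioo a b ×ˢ Ioo c Bp) \ S) := (isOpen_Ioo.prod isOpen_Ioo).sdiff H.cS
    have hp : p ∈ (Ioo a b ×ˢ Ioo c Bp) \ S := ⟨⟨hpx, hpy.1, h⟩, hS⟩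
    refine (H.lo.cont.continuousAt (hO.mem_nhds hp)).congr ?_
    filter_upwards [hO.mem_nhds hp] with q hq
    exact (H.glue_lo hq.1.1 hq.1.2.2 hq.2).symm
  · have hO : IsOpen ((Ioo a b ×ˢ Ioo (-d) (-Bm)) \ (rf ⁻¹' S)) :=
      (isOpen_Ioo.prod isOpen_Ioo).sdiff (H.cS.preimage continuous_rf)
    have hp : rf p ∈ (Ioo a b ×ˢ Ioo (-d) (-Bm)) \ (rf ⁻¹' S) := by
      refine ⟨⟨hpx, ?_, ?_⟩, ?_⟩
      · show -d < -p.2; linarith [hpy.2]
      · show -p.2 < -Bm; linarith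
      · show rf (rf p) ∉ S; rwa [rf_rf]
    have h1 : ContinuousAt (fun q => fu (rf q)) p :=
      ContinuousAt.comp (f := rf) (g := fu) (H.up.cont.continuousAt (hO.mem_nhds hp))
        continuous_rf.continuousAt
    refine h1.congr ?_
    have hO2 : IsOpen ((Ioo a b ×ˢ Ioo Bm d) \ S) := (isOpen_Ioo.prod isOpen_Ioo).sdiff H.cS
    filter_upwards [hO2.mem_nhds (show p ∈ (Ioo a b ×ˢ Ioo Bm d) \ S from
      ⟨⟨hpx, by linarith, hpy.2⟩, hS⟩)] with q hq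
    exact (H.glue_up hq.1.1 hq.1.2.1 hq.2).symm

omit H in
theorem memLp_rf {u : ℝ × ℝ → ℝ} (h : MemLp u 2 (volume : Measure (ℝ × ℝ))) :
    MemLp (fun p => u (rf p)) 2 (volume : Measure (ℝ × ℝ)) :=
  h.comp_measurePreserving measurePreserving_rf

theorem Two.mV1 : MemLp (V1 X2 Y2) 2 (volume : Measure (ℝ × ℝ)) :=
  H.L2.neg.sub (memLp_rf H.M2)

theorem Two.mV2 : MemLp (V2 X1 Y1) 2 (volume : Measure (ℝ × ℝ)) :=
  H.L1.sub (memLp_rf H.M1)

theorem Two.ver' : ∀ᵐ x, x ∈ Ioo a b → ∀ y, c < y → y < d →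
    glue Bm Bp fl fu (x, y) = -lam μ x + ∫ t in (Bm + Bp) / 2..y, V2 X1 Y1 (x, t) := by
  have hlt := H.lt
  filter_upwards [H.lo.ver, H.up.ver, ae_line_x H.L1, ae_line_x H.M1] with x h1 h2 h3 h4 hx y hy hyd
  have i1 : ∀ s t, IntervalIntegrable (fun t => X1 (x, t)) volume s t := ii_of_memLp h3
  have i2 : ∀ s t, IntervalIntegrable (fun t => Y1 (x, t)) volume s t := ii_of_memLp h4
  by_cases hm : y < (Bm + Bp) / 2
  · have e1 : glue Bm Bp fl fu (x, y) = fl (x, y) := if_pos hm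
    rw [e1, h1 hx y hy (by linarith)]
    have e2 : ∫ t in y..(Bm + Bp) / 2, X1 (x, t) = ∫ t in y..Bm, X1 (x, t) := by
      rw [← intervalIntegral.integral_add_adjacent_intervals (i1 y Bm) (i1 Bm _)]
      have : ∫ t in Bm..(Bm + Bp) / 2, X1 (x, t) = ∫ t in Bm..(Bm + Bp) / 2, (0 : ℝ) := by
        refine intervalIntegral.integral_congr fun t ht => ?_
        rw [uIcc_of_le (by linarith)] at ht
        exact H.zX1 (x, t) ht.1
      rw [this]; simp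
    have e3 : ∫ t in y..(Bm + Bp) / 2, V2 X1 Y1 (x, t) =
        ∫ t in y..(Bm + Bp) / 2, X1 (x, t) := by
      refine intervalIntegral.integral_congr fun t ht => ?_
      rw [uIcc_of_le hm.le] at ht
      show X1 (x, t) - Y1 (rf (x, t)) = X1 (x, t)
      rw [H.zY1 (rf (x, t)) (by show -Bp ≤ -t; linarith [ht.2])]; ring
    rw [intervalIntegral.integral_symm y ((Bm + Bp) / 2), e3, e2]; ring
  · push Not at hm
    have e1 : glue Bm Bp fl fu (x, y) = fu (x, -y) := if_neg (not_lt.2 hm)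
    rw [e1, h2 hx (-y) (by linarith) (by linarith), H.marg]
    have e2 : ∫ t in -y..-Bp, Y1 (x, t) = ∫ t in -y..-((Bm + Bp) / 2), Y1 (x, t) := by
      rw [← intervalIntegral.integral_add_adjacent_intervals (i2 (-y) (-Bp))
        (i2 (-Bp) (-((Bm + Bp) / 2)))]
      have : ∫ t in -Bp..-((Bm + Bp) / 2), Y1 (x, t) =
          ∫ t in -Bp..-((Bm + Bp) / 2), (0 : ℝ) := by
        refine intervalIntegral.integral_congr fun t ht => ?_
        rw [uIcc_of_le (by linarith)] at ht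
        exact H.zY1 (x, t) ht.1
      rw [this]; simp
    have e3 : ∫ t in -y..-((Bm + Bp) / 2), Y1 (x, t) = ∫ t in (Bm + Bp) / 2..y, Y1 (x, -t) := by
      rw [intervalIntegral.integral_comp_neg (fun t => Y1 (x, t))]
    have e4 : ∫ t in (Bm + Bp) / 2..y, V2 X1 Y1 (x, t) = -∫ t in (Bm + Bp) / 2..y, Y1 (x, -t) := by
      rw [← intervalIntegral.integral_neg]
      refine intervalIntegral.integral_congr fun t ht => ?_
      rw [uIcc_of_le hm] at ht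
      show X1 (x, t) - Y1 (rf (x, t)) = -Y1 (x, -t)
      rw [H.zX1 (x, t) (by show Bm ≤ t; linarith [ht.1])]
      simp [rf]
    rw [e2, e3, e4]; ring

theorem Two.ver : ∀ᵐ x : ℝ, ∀ y y', y ≤ y' →
    (∀ t ∈ Icc y y', (x, t) ∈ (Ioo a b ×ˢ Ioo c d) \ un g) →
    glue Bm Bp fl fu (x, y') - glue Bm Bp fl fu (x, y) = ∫ t in y..y', V2 X1 Y1 (x, t) := by
  filter_upwards [H.ver', ae_line_x H.mV2] with x h1 h2 y y' hyy' hG
  have i1 : ∀ s t, IntervalIntegrable (fun t => V2 X1 Y1 (x, t)) volume s t := ii_of_memLp h2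
  have m1 := (hG y ⟨le_rfl, hyy'⟩).1
  have m2 := (hG y' ⟨hyy', le_rfl⟩).1
  rw [h1 m1.1 y m1.2.1 m1.2.2, h1 m1.1 y' m2.2.1 m2.2.2,
    ← intervalIntegral.integral_interval_sub_left (i1 ((Bm + Bp) / 2) y') (i1 ((Bm + Bp) / 2) y)]
  ring

theorem Two.hor : ∀ᵐ y : ℝ, ∀ x x', x ≤ x' →
    (∀ s ∈ Icc x x', (s, y) ∈ (Ioo a b ×ˢ Ioo c d) \ un g) →
    glue Bm Bp fl fu (x', y) - glue Bm Bp fl fu (x, y) = ∫ s in x..x', V1 X2 Y2 (s, y) := by
  have hlt := H.lt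
  filter_upwards [H.lo.hor, ae_neg H.up.hor] with y h1 h2 x x' hxx' hG
  have m1 := (hG x ⟨le_rfl, hxx'⟩).1
  have m2 := (hG x' ⟨hxx', le_rfl⟩).1
  by_cases hm : y < (Bm + Bp) / 2
  · have e1 : glue Bm Bp fl fu (x, y) = fl (x, y) := if_pos hm
    have e2 : glue Bm Bp fl fu (x', y) = fl (x', y) := if_pos hm
    rw [e1, e2, h1 m1.2.1 (by linarith) x m1.1 x' m2.1 hxx' (fun s hs => (hG s hs).2),
      ← intervalIntegral.integral_neg]
    refine intervalIntegral.integral_congr fun s _ => ?_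
    show -X2 (s, y) = -X2 (s, y) - Y2 (rf (s, y))
    rw [H.zY2 (rf (s, y)) (by show -Bp ≤ -y; linarith)]; ring
  · push Not at hm
    have e1 : glue Bm Bp fl fu (x, y) = fu (x, -y) := if_neg (not_lt.2 hm)
    have e2 : glue Bm Bp fl fu (x', y) = fu (x', -y) := if_neg (not_lt.2 hm)
    rw [e1, e2, h2 (by linarith [m1.2.2]) (by linarith) x m1.1 x' m2.1 hxx' (fun s hs h => by
      rw [Kin_238.un_reflH] at h
      exact (hG s hs).2 (by simpa [rf] using h)), ← intervalIntegral.integral_neg]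
    refine intervalIntegral.integral_congr fun s _ => ?_
    show -Y2 (s, -y) = -X2 (s, y) - Y2 (rf (s, y))
    rw [H.zX2 (s, y) (by show Bm ≤ y; linarith)]
    simp [rf]

/-- constant on the components -/
theorem Two.const (hE : Pic E) : ∀ P ∈ Comps E, Disjoint P S → ∀ p ∈ P, ∀ q ∈ P,
    glue Bm Bp fl fu p = glue Bm Bp fl fu q := by
  have hlt := H.lt
  intro P hP hd p hp q hq
  rcases hE.comp P hP with ⟨r, rfl⟩ | ⟨K, rfl⟩
  · rw [mem_singleton_iff] at hp hq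
    rw [hp, hq]
  · obtain ⟨k1, h1, h1'⟩ := H.lo.const K hP hd
    obtain ⟨k2, h2, h2'⟩ := H.up.const K.refl (by
      rw [Kin_238.hairs_rf]; show K.refl.refl ∈ hairs E; rw [Hair.refl_refl]; exact hP) (by
      rw [Hair.car_refl, Set.disjoint_left]
      intro z hz hz'
      exact (disjoint_left.1 hd) hz hz')
    rw [H.marg] at h2'
    simp only [Hair.refl_x, Hair.refl_b, Hair.refl_t] at h2 h2'
    have key : ∀ p ∈ K.car, (p.2 < (Bm + Bp) / 2 → glue Bm Bp fl fu p = k1) ∧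
        ((Bm + Bp) / 2 ≤ p.2 → glue Bm Bp fl fu p = k2) := by
      intro p hp
      have hp' := Hair.mem_car.1 hp
      refine ⟨fun h => ?_, fun h => ?_⟩
      · have e1 : glue Bm Bp fl fu p = fl p := if_pos h
        rw [e1]
        have := h1 p.2 ⟨hp'.2.1, hp'.2.2⟩ (by linarith)
        rw [← hp'.1] at this
        exact this
      · have e1 : glue Bm Bp fl fu p = fu (rf p) := if_neg (not_lt.2 h)
        rw [e1]
        have := h2 (-p.2) ⟨by linarith [hp'.2.2], by linarith [hp'.2.1]⟩ (by linarith)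
        rw [← hp'.1] at this
        exact this
    have hk : (∃ p ∈ K.car, p.2 < (Bm + Bp) / 2) → (∃ p ∈ K.car, (Bm + Bp) / 2 ≤ p.2) →
        k1 = k2 := by
      rintro ⟨p, hp, hpm⟩ ⟨q, hq, hqm⟩
      have hp' := Hair.mem_car.1 hp
      have hq' := Hair.mem_car.1 hq
      rw [h1' (by linarith [hq'.2.2]), h2' (by linarith [hp'.2.1])]
    rcases lt_or_ge p.2 ((Bm + Bp) / 2) with hpm | hpm <;>
    rcases lt_or_ge q.2 ((Bm + Bp) / 2) with hqm | hqm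
    · rw [(key p hp).1 hpm, (key q hq).1 hqm]
    · rw [(key p hp).1 hpm, (key q hq).2 hqm, hk ⟨p, hp, hpm⟩ ⟨q, hq, hqm⟩]
    · rw [(key p hp).2 hpm, (key q hq).1 hqm, hk ⟨q, hq, hqm⟩ ⟨p, hp, hpm⟩]
    · rw [(key p hp).2 hpm, (key q hq).2 hqm]

end Crest.Agent.R105.Psi12_425
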