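import Crest.Agent.R105.Gl3_363
import Crest.Agent.R105.Psi12_425

/-!
Row 105, S0138, Lemma A with squares (helper363, leaf (L5)): the glued function, line formulas.
-/

set_option autoImplicit false

open MeasureTheory Set Filter Topology
open scoped NNReal ENNReal

namespace Crest.Agent.R105.Gl_363

open CF_363 Cq_463 Sq_87 Hq_363 Kbx_247
open Mp_87 (lam Rc)

variable {ι ι' : Type}
variable {E S : Set (ℝ × ℝ)} {𝒬 : Set Sqr} {𝓗 : Set Hair} {Q : Rects ι} {Q' : Rects ι'}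
  {sq : ι → Sqr} {sq' : ι' → Sqr} {a b c d Bm Bp Tl Tu M : ℝ}
  {X1 X2 ψ Ψ Y1 Y2 ψ' Ψ' : ℝ × ℝ → ℝ} {μ ν : Measure (ℝ × ℝ)} {f : ι → ℝ} {f' : ι' → ℝ}
  {g g' : ℝ × ℝ → ℝ}

theorem memLp_rf_restrict {u : ℝ × ℝ → ℝ} {V : Set (ℝ × ℝ)}
    (h : MemLp u 2 (volume.restrict (rf ⁻¹' V))) :
    MemLp (fun p => u (rf p)) 2 (volume.restrict V) := by
  have h1 : MeasurePreserving rf (volume.restrict V) (volume.restrict (rf ⁻¹' V)) := by
    have h2 := measurePreserving_rf.restrict_preimage_emb measurableEmbedding_rf (rf ⁻¹' V)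
    rwa [rf_pre_pre] at h2
  exact h.comp_measurePreserving h1

theorem TwoG.mW1 (H : TwoG E S 𝒬 𝓗 Q Q' sq sq' a b c d Bm Bp Tl Tu M X1 X2 ψ Ψ Y1 Y2 ψ' Ψ' μ ν f
    f' g g') : MemLp (W1 X2 Y2) 2 (volume.restrict Eᶜ) := by
  have h1 := memLp_rf_restrict (V := Eᶜ) H.sY.2
  exact (H.sX.2.neg).sub h1

theorem TwoG.mW2 (H : TwoG E S 𝒬 𝓗 Q Q' sq sq' a b c d Bm Bp Tl Tu M X1 X2 ψ Ψ Y1 Y2 ψ' Ψ' μ ν f
    f' g g') : MemLp (W2 X1 Y1) 2 (volume.restrict Eᶜ) := by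
  have h1 := memLp_rf_restrict (V := Eᶜ) H.sY.1
  exact H.sX.1.sub h1

/-- vertical lines -/
theorem TwoG.ver (H : TwoG E S 𝒬 𝓗 Q Q' sq sq' a b c d Bm Bp Tl Tu M X1 X2 ψ Ψ Y1 Y2 ψ' Ψ' μ ν f
    f' g g') : ∀ᵐ x : ℝ, ∀ y y', y ≤ y' →
      (∀ t ∈ Icc y y', (x, t) ∈ (Ioo a b ×ˢ Ioo c d) \ E) →
      glF M g g' (x, y') - glF M g g' (x, y) = ∫ t in y..y', W2 X1 Y1 (x, t) := by
  have hBM := H.BM
  have hMB := H.MB
  have hMl := H.Ml
  have hMu := H.Mu
  filter_upwards [H.H.V, H.H'.V, Sq_87.ae_int_x H.D.L.L1, Sq_87.ae_int_x H.D'.L.L1]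
    with x h1 h2 h3 h4 y y' hyy hs
  have hr : ∀ t ∈ Icc y y', x ∈ Ioo a b ∧ c < t ∧ t < d ∧ (x, t) ∉ E := fun t ht =>
    ⟨(hs t ht).1.1, (hs t ht).1.2.1, (hs t ht).1.2.2, (hs t ht).2⟩
  have hnS : ∀ t ∈ Icc y y', (x, t) ∉ S := fun t ht h => (hs t ht).2 (H.G.SE h)
  -- integrability
  have i1 : ∀ u v, IntervalIntegrable (fun t => W2 X1 Y1 (x, t)) volume u v := by
    intro u v
    have e1 : IntervalIntegrable (fun t => X1 (x, t)) volume u v := h3.intervalIntegrable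
    have e2 : IntervalIntegrable (fun t => Y1 (x, -t)) volume u v := h4.comp_neg.intervalIntegrable
    exact e1.sub e2
  -- lower part
  have lo : ∀ u v, u ≤ v → y ≤ u → v ≤ y' → v ≤ M →
      glF M g g' (x, v) - glF M g g' (x, u) = ∫ t in u..v, W2 X1 Y1 (x, t) := by
    intro u v huv hyu hvy hvM
    have hmu := hr u ⟨hyu, huv.trans hvy⟩
    have hmv := hr v ⟨hyu.trans huv, hvy⟩
    rw [H.F_lo' (p := (x, v)) hmv.1 hvM (hnS v ⟨hyu.trans huv, hvy⟩),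
      H.F_lo' (p := (x, u)) hmu.1 (huv.trans hvM) (hnS u ⟨hyu, huv.trans hvy⟩),
      h1 u v huv (fun t ht => ?_)]
    · refine intervalIntegral.integral_congr fun t ht => ?_
      rw [uIcc_of_le huv] at ht
      show X1 (x, t) = X1 (x, t) - Y1 (rf (x, t))
      rw [H.B1' (rf (x, t)) (by show -Bp ≤ -t; linarith [ht.2]), sub_zero]
    · have := hr t ⟨hyu.trans ht.1, ht.2.trans hvy⟩
      exact ⟨⟨this.1, this.2.1, lt_of_le_of_lt (ht.2.trans hvM) hMl⟩, this.2.2.2⟩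
  -- upper part
  have up : ∀ u v, u ≤ v → y ≤ u → v ≤ y' → M ≤ u →
      glF M g g' (x, v) - glF M g g' (x, u) = ∫ t in u..v, W2 X1 Y1 (x, t) := by
    intro u v huv hyu hvy hMu'
    have hmu := hr u ⟨hyu, huv.trans hvy⟩
    have hmv := hr v ⟨hyu.trans huv, hvy⟩
    rw [H.F_up (p := (x, v)) hmv.1 (hBM.trans_le (hMu'.trans huv)) (hnS v ⟨hyu.trans huv, hvy⟩),
      H.F_up (p := (x, u)) hmu.1 (hBM.trans_le hMu') (hnS u ⟨hyu, huv.trans hvy⟩)]
    have e1 := h2 (-v) (-u) (neg_le_neg huv) (fun t ht => ?_)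
    · have e2 : g' (rf (x, v)) - g' (rf (x, u)) = -∫ t in (-v)..(-u), Y1 (x, t) := by
        simp only [rf_mk]
        linarith
      rw [e2, ← intervalIntegral.integral_comp_neg (fun t => Y1 (x, t)),
        ← intervalIntegral.integral_neg]
      refine intervalIntegral.integral_congr fun t ht => ?_
      rw [uIcc_of_le huv] at ht
      show -Y1 (x, -t) = X1 (x, t) - Y1 (rf (x, t))
      rw [H.B1 (x, t) (by show Bm ≤ t; linarith [ht.1]), zero_sub, rf_mk]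
    · have := hr (-t) ⟨by linarith [ht.2], by linarith [ht.1]⟩
      refine ⟨⟨this.1, by linarith [this.2.2.1], ?_⟩, ?_⟩
      · show t < Tu
        linarith [ht.2]
      · intro hmem
        exact this.2.2.2 (by simpa using hmem)
  rcases le_total y' M with h5 | h5
  · exact lo y y' hyy le_rfl le_rfl h5
  rcases le_total M y with h6 | h6
  · exact up y y' hyy le_rfl le_rfl h6
  · have e1 := lo y M h6 le_rfl h5 le_rfl
    have e2 := up M y' h5 h6 le_rfl le_rfl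
    rw [← intervalIntegral.integral_add_adjacent_intervals (i1 y M) (i1 M y')]
    linarith

/-- horizontal lines -/
theorem TwoG.hor [IsFiniteMeasure ν]
    (H : TwoG E S 𝒬 𝓗 Q Q' sq sq' a b c d Bm Bp Tl Tu M X1 X2 ψ Ψ Y1 Y2 ψ' Ψ' μ ν f
    f' g g') : ∀ᵐ y : ℝ, ∀ x x', x ≤ x' →
      (∀ s ∈ Icc x x', (s, y) ∈ (Ioo a b ×ˢ Ioo c d) \ E) →
      glF M g g' (x', y) - glF M g g' (x, y) = ∫ s in x..x', W1 X2 Y2 (s, y) := by
  have hBM := H.BM
  have hMB := H.MB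
  have hMl := H.Ml
  have hMu := H.Mu
  have n1 : ∀ᵐ y : ℝ, y ≠ Bm := by rw [ae_iff]; simp
  have n2 : ∀ᵐ y : ℝ, y ≠ Bp := by rw [ae_iff]; simp
  filter_upwards [H.H.H, Psi12_425.ae_neg H.H'.H, n1, n2] with y h1 h2 h3 h4 x x' hxx hs
  have hr : ∀ s ∈ Icc x x', s ∈ Ioo a b ∧ c < y ∧ y < d ∧ (s, y) ∉ E := fun t ht =>
    ⟨(hs t ht).1.1, (hs t ht).1.2.1, (hs t ht).1.2.2, (hs t ht).2⟩
  have hnS : ∀ t ∈ Icc x x', (t, y) ∉ S := fun t ht h => (hs t ht).2 (H.G.SE h)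
  have mx : x ∈ Icc x x' := ⟨le_rfl, hxx⟩
  have mx' : x' ∈ Icc x x' := ⟨hxx, le_rfl⟩
  have hx := hr x mx
  have hx' := hr x' mx'
  rcases lt_trichotomy y Bm with h5 | h5 | h5
  · -- below
    rw [H.F_lo' (p := (x', y)) hx'.1 (h5.le.trans hBM.le) (hnS x' mx'),
      H.F_lo' (p := (x, y)) hx.1 (h5.le.trans hBM.le) (hnS x mx),
      h1 h5 x x' hxx (fun t ht => ?_), ← intervalIntegral.integral_neg]
    · refine intervalIntegral.integral_congr fun t ht => ?_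
      show -X2 (t, y) = -X2 (t, y) - Y2 (rf (t, y))
      rw [H.D'.XB (rf (t, y)) (by show -Bp ≤ -y; linarith), sub_zero]
    · have := hr t ht
      exact ⟨⟨this.1, this.2.1, by show y < Tl; linarith⟩, this.2.2.2⟩
  · exact absurd h5 h3
  rcases lt_trichotomy y Bp with h6 | h6 | h6
  · -- strip
    rw [H.strip₀ (p := (x', y)) hx'.1 h5 h6 (hnS x' mx'),
      H.strip₀ (p := (x, y)) hx.1 h5 h6 (hnS x mx)]
    have h7 : lam ν x' = lam ν x := by
      refine lam_eq_of_null hxx ?_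
      filter_upwards [H.C'.ray, H.C'.lvl] with q hq hl hcon
      have h8 := hq (-y) ⟨by linarith, by linarith⟩
      exact (hr q.1 hcon).2.2.2 (by simpa using h8)
    show -lam ν x' - -lam ν x = _
    rw [h7, sub_self]
    symm
    have h9 : ∀ t, W1 X2 Y2 (t, y) = 0 := fun t => by
      show -X2 (t, y) - Y2 (rf (t, y)) = 0
      rw [H.D.XB (t, y) h5.le, H.D'.XB (rf (t, y)) (by show -Bp ≤ -y; linarith)]; ring
    simp only [h9, intervalIntegral.integral_zero]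
  · exact absurd h6 h4
  · -- above
    rw [H.F_up (p := (x', y)) hx'.1 h5 (hnS x' mx'), H.F_up (p := (x, y)) hx.1 h5 (hnS x mx)]
    have e1 := h2 (by linarith) x x' hxx (fun t ht => ?_)
    · simp only [rf_mk]
      rw [e1, ← intervalIntegral.integral_neg]
      refine intervalIntegral.integral_congr fun t ht => ?_
      show -Y2 (t, -y) = -X2 (t, y) - Y2 (rf (t, y))
      rw [H.D.XB (t, y) h5.le, rf_mk]; ring
    · have := hr t ht
      refine ⟨⟨this.1, by linarith [this.2.2.1], by linarith⟩, ?_⟩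
      intro hmem
      exact this.2.2.2 (by simpa using hmem)

end Crest.Agent.R105.Gl_363
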