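import Crest.Agent.R105.Gl4_363

/-!
Row 105, S0138, Lemma A with squares (helper363, leaf (L5)): the glued function: squares, `GlueF`,
`TwoQ`.
-/

set_option autoImplicit false

open MeasureTheory Set Filter Topology
open scoped NNReal ENNReal

namespace Crest.Agent.R105.Gl_363

open CF_363 Cq_463 Sq_87 Hq_363 Kbx_247
open Mp_87 (lam Rc)

variable {ι ι' : Type}
variable {E S : Set (ℝ × ℝ)} {𝒬 : Set Sqr} {𝓗 : Set Hair} {Q : Rects ι} {Q' : Rects ι'}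
  {sq : ι → Sqr} {sq' : ι' → Sqr} {a b c d Bm Bp Tl Tu M : ℝ}
  {X1 X2 ψ Ψ Y1 Y2 ψ' Ψ' : ℝ × ℝ → ℝ} {μ ν : Measure (ℝ × ℝ)} {f : ι → ℝ} {f' : ι' → ℝ}
  {g g' : ℝ × ℝ → ℝ}

open Classical in
/-- the charge of a square, seen from an indexed family of squares -/
noncomputable def chq (sq : ι → Sqr) (f : ι → ℝ) (Q₀ : Sqr) : ℝ :=
  if h : ∃ i, sq i = Q₀ then f h.choose else 0

theorem chq_nonneg {sq : ι → Sqr} {f : ι → ℝ} (hf : ∀ i, 0 ≤ f i) (Q₀ : Sqr) :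
    0 ≤ chq sq f Q₀ := by
  unfold chq
  split_ifs with h
  · exact hf _
  · exact le_rfl

/-- the index is unique because the open rectangles are disjoint -/
theorem sq_inj {B T : ℝ} (G : GeoC E S 𝒬 𝓗 Q sq a b c B T)
    (dis : Pairwise (fun i j => Disjoint (Q.op i) (Q.op j))) : Function.Injective sq := by
  intro i j hij
  by_contra hne
  have h1 : Disjoint (Q.op i) (Q.op j) := dis hne
  have e : Q.op i = Q.op j := by
    ext p
    rw [mem_op' G, mem_op' G, hij]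
  have hne' : (Q.op i).Nonempty := ⟨(Q.x i, Q.y i), by
    have := Q.p1 i
    have := Q.p2 i
    rw [mem_op]
    exact ⟨⟨by linarith, by linarith⟩, by linarith, by linarith⟩⟩
  rw [← e, disjoint_self] at h1
  exact hne'.ne_empty h1

theorem chq_sq {B T : ℝ} (G : GeoC E S 𝒬 𝓗 Q sq a b c B T)
    (dis : Pairwise (fun i j => Disjoint (Q.op i) (Q.op j))) (i : ι) : chq sq f (sq i) = f i := by
  have h : ∃ j, sq j = sq i := ⟨i, rfl⟩
  unfold chq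
  rw [dif_pos h]
  exact congrArg f (sq_inj G dis h.choose_spec)

/-- the lower part of a charged square -/
theorem half_sq {B T : ℝ} {ψ₀ g₀ : ℝ × ℝ → ℝ} {μ₀ : Measure (ℝ × ℝ)}
    (G : GeoC E S 𝒬 𝓗 Q sq a b c B T)
    (dis : Pairwise (fun i j => Disjoint (Q.op i) (Q.op j)))
    (H : HalfG E S 𝓗 Q a b c B T X1 X2 μ₀ f ψ₀ g₀) {Q₀ : Sqr} (hQ₀ : Q₀ ∈ 𝒬)
    (hd : Disjoint Q₀.car S) (hB : Q₀.y < B) {p q : ℝ × ℝ} (hp : p ∈ Q₀.car) (hq : q ∈ Q₀.car)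
    (hpB : p.2 ≤ B) (hqB : q.2 ≤ B) (hpu : p ∉ Q.un) (hqu : q ∉ Q.un) :
    |g₀ p - g₀ q| ≤ 4 * chq sq f Q₀ := by
  obtain ⟨i, rfl⟩ := G.sqs Q₀ hQ₀ hd hB
  rw [chq_sq G dis]
  exact H.sq i p ((mem_clq' G).2 ⟨hp, hpB⟩) q ((mem_clq' G).2 ⟨hq, hqB⟩) hpu hqu

theorem car_rfS_mem {Q₀ : Sqr} {p : ℝ × ℝ} (hp : p ∈ Q₀.car) : rf p ∈ (rfS Q₀).car := by
  rw [mem_car_rfS, rf_rf]; exact hp

/-- **the oscillation over the squares** -/
theorem TwoG.sqq [IsFiniteMeasure ν]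
    (H : TwoG E S 𝒬 𝓗 Q Q' sq sq' a b c d Bm Bp Tl Tu M X1 X2 ψ Ψ Y1 Y2 ψ' Ψ' μ ν f
    f' g g') {Q₀ : Sqr} (hQ₀ : Q₀ ∈ 𝒬) (hd : Disjoint Q₀.car S) :
    ∀ p ∈ Q₀.car \ (Q.un ∪ rf ⁻¹' Q'.un), ∀ q ∈ Q₀.car \ (Q.un ∪ rf ⁻¹' Q'.un),
      |glF M g g' p - glF M g g' q| ≤ 4 * chq sq f Q₀ + 4 * chq sq' f' (rfS Q₀) := by
  have hBM := H.BM
  have hMB := H.MB
  have hMl := H.Ml
  have hMu := H.Mu
  have hc0 := chq_nonneg (sq := sq) H.D.f0 Q₀
  have hc0' := chq_nonneg (sq := sq') H.D'.f0 (rfS Q₀)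
  have hab : ∀ p ∈ Q₀.car, p.1 ∈ Ioo a b := fun p hp => (H.box (H.G.pic.sub Q₀ hQ₀ hp)).1
  have hnS : ∀ p ∈ Q₀.car, p ∉ S := fun p hp => Set.disjoint_left.1 hd hp
  have hr𝒬 : rfS Q₀ ∈ rfS '' 𝒬 := ⟨Q₀, hQ₀, rfl⟩
  have hrd : Disjoint (rfS Q₀).car (rf ⁻¹' S) := by
    rw [car_rfS]; exact hd.preimage _
  have hun : ∀ p : ℝ × ℝ, Bm ≤ p.2 → p ∉ Q.un := fun p hp h => absurd (un_lt H.G h) (not_lt.2 hp)
  have hun' : ∀ p : ℝ × ℝ, p.2 ≤ Bp → rf p ∉ Q'.un := fun p hp h => by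
    have := un_lt H.G' h
    rw [rf_snd] at this
    linarith
  -- two points of the lower part
  have lo : ∀ p ∈ Q₀.car, ∀ q ∈ Q₀.car, Q₀.y < Bm → p.2 ≤ Bm → q.2 ≤ Bm → p ∉ Q.un → q ∉ Q.un →
      |glF M g g' p - glF M g g' q| ≤ 4 * chq sq f Q₀ := by
    intro p hp q hq h0 hpB hqB hpu hqu
    rw [H.F_lo' (hab p hp) (hpB.trans hBM.le) (hnS p hp),
      H.F_lo' (hab q hq) (hqB.trans hBM.le) (hnS q hq)]
    exact half_sq H.G H.D.dis H.H hQ₀ hd h0 hp hq hpB hqB hpu hqu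
  -- two points of the upper part
  have up : ∀ p ∈ Q₀.car, ∀ q ∈ Q₀.car, Bp < Q₀.y + Q₀.s → Bp ≤ p.2 → Bp ≤ q.2 →
      rf p ∉ Q'.un → rf q ∉ Q'.un →
      |glF M g g' p - glF M g g' q| ≤ 4 * chq sq' f' (rfS Q₀) := by
    intro p hp q hq h0 hpB hqB hpu hqu
    rw [H.F_up (hab p hp) (by linarith) (hnS p hp), H.F_up (hab q hq) (by linarith) (hnS q hq)]
    exact half_sq H.G' H.D'.dis H.H' hr𝒬 hrd (by rw [rfS_y]; linarith) (car_rfS_mem hp)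
      (car_rfS_mem hq) (by rw [rf_snd]; linarith) (by rw [rf_snd]; linarith) hpu hqu
  rintro p ⟨hp, hpn⟩ q ⟨hq, hqn⟩
  have hpu : p ∉ Q.un := fun h => hpn (Or.inl h)
  have hqu : q ∉ Q.un := fun h => hqn (Or.inl h)
  have hpu' : rf p ∉ Q'.un := fun h => hpn (Or.inr h)
  have hqu' : rf q ∉ Q'.un := fun h => hqn (Or.inr h)
  have hp' := Sqr.mem_car.1 hp
  have hq' := Sqr.mem_car.1 hq
  have hs := Q₀.hs
  rcases le_or_gt (Q₀.y + Q₀.s) Bm with h1 | h1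
  · have := lo p hp q hq (by linarith) (by linarith [hp'.2.2]) (by linarith [hq'.2.2]) hpu hqu
    linarith
  rcases le_or_gt Bp Q₀.y with h2 | h2
  · have := up p hp q hq (by linarith) (by linarith [hp'.2.1]) (by linarith [hq'.2.1]) hpu' hqu'
    linarith
  -- no mass in the columns of the square
  have hk : ∀ x ∈ Icc Q₀.x (Q₀.x + Q₀.s), lam ν x = lam ν Q₀.x := by
    intro x hx
    refine lam_eq_of_null hx.1 ?_
    filter_upwards [H.C'.off, H.C'.lvl] with w hw hl hcon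
    refine hw (max w.2 (-(Q₀.y + Q₀.s))) ⟨le_max_left _ _, max_lt (by linarith) (by linarith)⟩
      (rfS Q₀) hr𝒬 hrd ?_
    rw [Sqr.mem_car, rfS_x, rfS_y, rfS_s]
    refine ⟨⟨hcon.1, hcon.2.trans hx.2⟩, le_max_right _ _, max_le ?_ ?_⟩
    · have := hl
      linarith
    · linarith
  -- the distance to the value of the strip
  have key : ∀ p ∈ Q₀.car, p ∉ Q.un → rf p ∉ Q'.un →
      (p.2 < Bm → |glF M g g' p - -lam ν Q₀.x| ≤ 4 * chq sq f Q₀) ∧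
      (Bm ≤ p.2 → p.2 ≤ Bp → glF M g g' p = -lam ν Q₀.x) ∧
      (Bp < p.2 → |glF M g g' p - -lam ν Q₀.x| ≤ 4 * chq sq' f' (rfS Q₀)) := by
    intro p hp hpu hpu'
    have hp' := Sqr.mem_car.1 hp
    refine ⟨fun h => ?_, fun h3 h4 => ?_, fun h => ?_⟩
    · have ht : (p.1, Bm) ∈ Q₀.car := Sqr.mem_car.2 ⟨hp'.1, by show Q₀.y ≤ Bm; linarith [hp'.2.1],
        h1.le⟩
      have e1 := lo p hp _ ht (by linarith [hp'.2.1]) h.le le_rfl hpu (hun _ le_rfl)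
      have e2 := H.strip (p := (p.1, Bm)) (hab p hp) le_rfl (hBM.le.trans hMB.le) (hnS _ ht)
      rw [e2] at e1
      simp only at e1
      rwa [hk p.1 hp'.1] at e1
    · rw [H.strip (hab p hp) h3 h4 (hnS p hp), hk p.1 hp'.1]
    · have ht : (p.1, Bp) ∈ Q₀.car := Sqr.mem_car.2 ⟨hp'.1, h2.le, by
        show Bp ≤ Q₀.y + Q₀.s; linarith [hp'.2.2]⟩
      have e1 := up p hp _ ht (by linarith [hp'.2.2]) h.le le_rfl hpu' (hun' _ le_rfl)
      have e2 := H.strip (p := (p.1, Bp)) (hab p hp) (hBM.le.trans hMB.le) le_rfl (hnS _ ht)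
      rw [e2] at e1
      simp only at e1
      rwa [hk p.1 hp'.1] at e1
  obtain ⟨a1, a2, a3⟩ := key p hp hpu hpu'
  obtain ⟨b1, b2, b3⟩ := key q hq hqu hqu'
  have tri : |glF M g g' p - glF M g g' q| ≤
      |glF M g g' p - -lam ν Q₀.x| + |glF M g g' q - -lam ν Q₀.x| := by
    rw [abs_sub_comm (glF M g g' q)]
    exact abs_sub_le _ _ _
  rcases lt_or_ge p.2 Bm with c1 | c1 <;> rcases lt_or_ge q.2 Bm with d1 | d1
  · have := lo p hp q hq (by linarith [hp'.2.1]) c1.le d1.le hpu hqu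
    linarith
  · rcases le_or_gt q.2 Bp with d2 | d2
    · have e1 := a1 c1
      rw [← b2 d1 d2] at e1
      linarith
    · have e1 := a1 c1
      have e2 := b3 d2
      linarith
  · rcases le_or_gt p.2 Bp with c2 | c2
    · have e1 := b1 d1
      rw [← a2 c1 c2, abs_sub_comm] at e1
      linarith
    · have e1 := b1 d1
      have e2 := a3 c2
      linarith
  · rcases le_or_gt p.2 Bp with c2 | c2 <;> rcases le_or_gt q.2 Bp with d2 | d2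
    · rw [a2 c1 c2, b2 d1 d2, sub_self, abs_zero]; linarith
    · have e1 := b3 d2
      rw [← a2 c1 c2, abs_sub_comm] at e1
      linarith
    · have e1 := a3 c2
      rw [← b2 d1 d2] at e1
      linarith
    · have := up p hp q hq (by linarith [hp'.2.2]) c2.le d2.le hpu' hqu'
      linarith

/-- **the list `GlueF` of the glued function** -/
theorem TwoG.glueF [IsFiniteMeasure ν]
    (H : TwoG E S 𝒬 𝓗 Q Q' sq sq' a b c d Bm Bp Tl Tu M X1 X2 ψ Ψ Y1 Y2 ψ' Ψ' μ ν f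
    f' g g') : GlueF E 𝒬 𝓗 S (Q.un ∪ rf ⁻¹' Q'.un) a b c d Bm Bp (lam ν)
      (fun Q₀ => 4 * chq sq f Q₀ + 4 * chq sq' f' (rfS Q₀)) (glF M g g') (W1 X2 Y2)
      (W2 X1 Y1) where
  box := H.box
  cS := H.G.cS
  SE := H.G.SE
  oA := Q.isOpen_un.union (Q'.isOpen_un.preimage continuous_rf)
  Asq := by
    rintro p (hp | hp)
    · exact un_int H.G hp
    · obtain ⟨Q₁, hQ₁, h⟩ := un_int H.G' hp
      refine ⟨rfS Q₁, mem_rfS.1 hQ₁, ?_⟩
      rw [interior_car] at h ⊢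
      obtain ⟨⟨h1, h2⟩, h3, h4⟩ := h
      simp only [rf_fst, rf_snd] at h1 h2 h3 h4
      refine ⟨⟨h1, h2⟩, ?_, ?_⟩
      · show -(Q₁.y + Q₁.s) < p.2
        linarith
      · show p.2 < -(Q₁.y + Q₁.s) + Q₁.s
        linarith
  cont := H.cont
  str := by
    have hsub : (Ioo a b ×ˢ Ioo c d) \ E ⊆
        (Ioo a b ×ˢ Ioo c d) \ ((Q.un ∪ rf ⁻¹' Q'.un) ∪ S) := by
      rintro p ⟨h1, h2⟩
      refine ⟨h1, ?_⟩
      rintro ((h | h) | h)
      · exact h2 (un_sub H.G h)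
      · have := un_sub H.G' h
        exact h2 (by simpa using this)
      · exact h2 (H.G.SE h)
    have hsub2 : (Ioo a b ×ˢ Ioo c d) \ E ⊆ Eᶜ := fun p hp => hp.2
    exact ⟨H.cont.mono hsub, H.mW1.mono_measure (Measure.restrict_mono hsub2 le_rfl),
      H.mW2.mono_measure (Measure.restrict_mono hsub2 le_rfl), H.hor, H.ver⟩
  strip := fun p hp h1 h2 hS => H.strip₀ hp.1 h1 h2 hS
  hair := fun K hK hKS => H.hair hK hKS
  sq := fun Q₀ hQ₀ hd => H.sqq hQ₀ hd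

theorem ae_rf {P : ℝ × ℝ → Prop} (h : ∀ᵐ p : ℝ × ℝ, P p) : ∀ᵐ p : ℝ × ℝ, P (rf p) :=
  measurePreserving_rf.quasiMeasurePreserving.ae h

/-- **the data `TwoQ` of the flux formula**, `Z = E` -/
theorem TwoG.twoQ (H : TwoG E S 𝒬 𝓗 Q Q' sq sq' a b c d Bm Bp Tl Tu M X1 X2 ψ Ψ Y1 Y2 ψ' Ψ' μ ν f
    f' g g') : TwoQ Q Q' ((E ∩ {p | p.2 < Bm}) \ Q.un) ((rf ⁻¹' E ∩ {p | p.2 < -Bp}) \ Q'.un) E
      a b c d Bm Bp M X1 X2 ψ Ψ Y1 Y2 ψ' Ψ' μ ν f f' (glF M g g') where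
  ab := H.ab
  cB := H.G.cB
  BM := H.BM.le
  MB := H.MB.le
  Bd := H.Bd
  lo := H.D
  up := H.D'
  mass := H.mass
  mZ := H.G.pic.cpt.isClosed.measurableSet
  Zl := by
    refine Eventually.of_forall fun p hp => ⟨fun h => ?_, fun h => ?_⟩
    · by_cases hu : p ∈ Q.un
      · exact Or.inl hu
      · exact Or.inr ⟨⟨h, hp.2.2⟩, hu⟩
    · rcases h with h | h
      · exact un_sub H.G h
      · exact h.1.1
  Zu := by
    refine Eventually.of_forall fun p hp => ⟨fun h => ?_, fun h => ?_⟩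
    · by_cases hu : p ∈ Q'.un
      · exact Or.inl hu
      · exact Or.inr ⟨⟨h, hp.2.2⟩, hu⟩
    · rcases h with h | h
      · exact un_sub H.G' h
      · exact h.1.1
  Fl := by
    filter_upwards [H.H.ae] with p hp hpR hpE
    have h1 : p ∉ S := fun h => hpE (H.G.SE h)
    rw [H.F_lo' hpR.1 hpR.2.2.le h1]
    exact hp ⟨hpR.1, hpR.2.1, hpR.2.2.trans H.Ml⟩ (fun h => hpE (un_sub H.G h)) h1
  Fu := by
    filter_upwards [ae_rf H.H'.ae] with p hp hpR hpE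
    have h1 : p ∉ S := fun h => hpE (H.G.SE h)
    have hM := hpR.2.1
    rw [H.F_up hpR.1 (H.BM.trans hpR.2.1) h1]
    refine hp ⟨hpR.1, by show -d < -p.2; linarith [hpR.2.2], ?_⟩ (fun h => ?_) (by simpa using h1)
    · show -p.2 < Tu
      linarith [H.Mu, H.BM]
    · have := un_sub H.G' h
      exact hpE (by simpa using this)

end Crest.Agent.R105.Gl_363
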