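import Crest.Agent.R105.Gl5_363

/-!
Row 105, S0138, Lemma A with squares (helper363): the `ℓ²` sum of the oscillations.
-/

set_option autoImplicit false

open MeasureTheory Set Filter Topology
open scoped NNReal ENNReal

namespace Crest.Agent.R105.Gl_363

open CF_363 Cq_463 Sq_87 Hq_363 Kbx_247

variable {ι ι' : Type} {𝒬 : Set Sqr} {sq : ι → Sqr} {sq' : ι' → Sqr} {f : ι → ℝ} {f' : ι' → ℝ}

theorem chq_of_inj (hs : Function.Injective sq) (i : ι) : chq sq f (sq i) = f i := by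
  have h : ∃ j, sq j = sq i := ⟨i, rfl⟩
  unfold chq
  rw [dif_pos h]
  exact congrArg f (hs h.choose_spec)

theorem chq_of_not {Q₀ : Sqr} (h : ∀ i, sq i ≠ Q₀) : chq sq f Q₀ = 0 := by
  unfold chq
  rw [dif_neg]
  rintro ⟨i, hi⟩
  exact h i hi

/-- the sum over the squares = the sum over the indices -/
theorem hasSum_chq (hs : Function.Injective sq) (hm : ∀ i, sq i ∈ 𝒬) {A : ℝ}
    (h : HasSum (fun i => f i ^ 2) A) : HasSum (fun P : 𝒬 => chq sq f P.1 ^ 2) A := by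
  set φ : ι → 𝒬 := fun i => ⟨sq i, hm i⟩ with hφ
  have hφi : Function.Injective φ := fun i j hij => hs (congrArg Subtype.val hij)
  refine (hφi.hasSum_iff ?_).1 ?_
  · intro P hP
    have h1 : chq sq f P.1 = 0 := chq_of_not fun i hi => hP ⟨i, Subtype.ext hi⟩
    show chq sq f P.1 ^ 2 = 0
    rw [h1]; ring
  · have e : ((fun P : 𝒬 => chq sq f P.1 ^ 2) ∘ φ) = fun i => f i ^ 2 := by
      funext i
      show chq sq f (sq i) ^ 2 = _
      rw [chq_of_inj hs]
    rw [e]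
    exact h

/-- the reflected family -/
theorem hasSum_chq_rf (hs : Function.Injective sq') (hm : ∀ i, sq' i ∈ rfS '' 𝒬) {A : ℝ}
    (h : HasSum (fun i => f' i ^ 2) A) :
    HasSum (fun P : 𝒬 => chq sq' f' (rfS P.1) ^ 2) A := by
  have h1 : ∀ Q₀ : Sqr, chq sq' f' (rfS Q₀) = chq (fun i => rfS (sq' i)) f' Q₀ := by
    intro Q₀
    by_cases hex : ∃ i, sq' i = rfS Q₀
    · obtain ⟨i, hi⟩ := hex
      have e : Q₀ = rfS (sq' i) := by rw [hi, rfS_rfS]
      rw [e, rfS_rfS, chq_of_inj hs,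
        chq_of_inj (sq := fun i => rfS (sq' i)) (fun i j hij => hs (rfS_injective hij)) i]
    · rw [chq_of_not fun i hi => hex ⟨i, hi⟩, chq_of_not fun i hi => hex ⟨i, by
        rw [← hi, rfS_rfS]⟩]
  simp only [h1]
  exact hasSum_chq (fun i j hij => hs (rfS_injective hij)) (fun i => mem_rfS.1 (hm i)) h

/-- **the oscillations are square summable** -/
theorem sum_ch (hs : Function.Injective sq) (hm : ∀ i, sq i ∈ 𝒬)
    (hs' : Function.Injective sq') (hm' : ∀ i, sq' i ∈ rfS '' 𝒬)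
    (h : Summable fun i => f i ^ 2) (h' : Summable fun i => f' i ^ 2) :
    (Summable fun P : 𝒬 => (4 * chq sq f P.1 + 4 * chq sq' f' (rfS P.1)) ^ 2) ∧
      ∑' P : 𝒬, (4 * chq sq f P.1 + 4 * chq sq' f' (rfS P.1)) ^ 2 ≤
        32 * (∑' i, f i ^ 2 + ∑' i, f' i ^ 2) := by
  have h1 := hasSum_chq hs hm h.hasSum
  have h2 := hasSum_chq_rf hs' hm' h'.hasSum
  have h3 := (h1.add h2).mul_left 32
  have hle : ∀ P : 𝒬, (4 * chq sq f P.1 + 4 * chq sq' f' (rfS P.1)) ^ 2 ≤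
      32 * (chq sq f P.1 ^ 2 + chq sq' f' (rfS P.1) ^ 2) := fun P => by
    nlinarith [sq_nonneg (chq sq f P.1 - chq sq' f' (rfS P.1))]
  have h4 : Summable fun P : 𝒬 => (4 * chq sq f P.1 + 4 * chq sq' f' (rfS P.1)) ^ 2 :=
    Summable.of_nonneg_of_le (fun P => sq_nonneg _) hle h3.summable
  exact ⟨h4, (h4.tsum_le_tsum hle h3.summable).trans h3.tsum_eq.le⟩

end Crest.Agent.R105.Gl_363
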