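import Crest.Agent.R105.Psq7_425
import Crest.Agent.R105.Famq2_306

/-!
# Row 105 (S0138), helper425: the three consequences of the inequality (hair, solid, family)
-/

set_option autoImplicit false

open MeasureTheory Set Filter Topology
open scoped NNReal ENNReal ContDiff

namespace Crest.Agent.R105.Psq_425

open Psi5_425 Psi6_425 Psi7_425 CF_363 Psq_463 Sq_87 Mp_87 Hq_363
open Crest.Agent.R105.Stp_722 Crest.Agent.R105.Cq_463 Crest.Agent.R105.Famq_306
open Crest.Agent.R105.Nal_649 Crest.Agent.R105.Exs_992 Crest.Agent.R105.SkT1_137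
open Crest.Agent.R105.Skp2_257 (Comps Reg Lo Up)

variable {ι ι' : Type} {E : Set (ℝ × ℝ)} {𝒬 : Set Sqr} {𝓗 : Set Hair}
  {g S₀ : Set (Set (ℝ × ℝ))} {a b c d Bm Bp L m M : ℝ} {Q : Rects ι} {Q' : Rects ι'}
  {S S' : Set (ℝ × ℝ)} {X1 X2 ψ Ψ Y1 Y2 ψ' Ψ' : ℝ × ℝ → ℝ} {μ ν : Measure (ℝ × ℝ)}
  {f : ι → ℝ} {f' : ι' → ℝ} {F U2 χ : ℝ × ℝ → ℝ} {o : Sqr → ℝ} {sq : ι → Sqr} {sq' : ι' → Sqr}

/-- **hair**: no solid in the family -/
theorem Glue.hair [Countable ι] [Countable ι'] [IsFiniteMeasure μ] [IsFiniteMeasure ν]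
    (hP : PicS E 𝒬 𝓗) (hEL : ELS StrQ E 𝒬 𝓗) (hg : FamQ E g Bm Bp)
    (G : Glue E 𝒬 g S₀ a b c d Bm Bp L m Q Q' S S' X1 X2 ψ Ψ Y1 Y2 ψ' Ψ' μ ν f f' F U2 o sq sq')
    (hm : 0 < m) (hno : ∀ P ∈ 𝒬, comp E P ∉ g) : False := by
  have h := G.ineqM hP hEL hg one_pos
  have e1 : {P : 𝒬 | comp E P.1 ∈ g} = ∅ := by
    ext P; simpa using hno P.1 P.2
  have e2 : {i | comp E (sq i) ∈ g} = ∅ := by
    ext i; simpa using hno _ (G.sq i).1
  have e3 : {i | comp E (sq' i) ∈ g} = ∅ := by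
    ext i; simpa using hno _ (G.sq' i).1
  rw [e1, e2, e3] at h
  simp only [indicator_empty, tsum_zero, add_zero] at h
  have := hg.lt
  nlinarith [mul_pos (sub_pos.2 this) hm]

/-- **solid**: the family is one solid, which is exempt and not charged -/
theorem Glue.solid [Countable ι] [Countable ι'] [IsFiniteMeasure μ] [IsFiniteMeasure ν]
    (hP : PicS E 𝒬 𝓗) (hEL : ELS StrQ E 𝒬 𝓗) (hg : FamQ E g Bm Bp)
    (G : Glue E 𝒬 g S₀ a b c d Bm Bp L m Q Q' S S' X1 X2 ψ Ψ Y1 Y2 ψ' Ψ' μ ν f f' F U2 o sq sq')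
    (hm : 0 < m) {Q0 : Sqr} (hQ0 : Q0 ∈ 𝒬) (hgQ : g = {comp E Q0}) (hS : comp E Q0 ∈ S₀)
    (h1 : ∀ i, sq i ≠ Q0) (h2 : ∀ i, sq' i ≠ Q0) : Bp - Bm ≤ Q0.s := by
  classical
  have hE := hP.q
  have hcomp : ∀ P ∈ 𝒬, comp E P ∈ g ↔ P = Q0 := by
    intro P hPQ
    rw [hgQ, mem_singleton_iff]
    constructor
    · intro h; exact eq_of_comp_eq hE hPQ hQ0 h
    · rintro rfl; rfl
  have key : ∀ M > 0, (Bp - Bm) * m ≤ Q0.s * (m + 2 * M) := by
    intro M hM
    have h := G.ineqM hP hEL hg hM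
    have e2 : {i | comp E (sq i) ∈ g} = ∅ := by
      ext i
      simp only [mem_ofPred_eq, mem_empty_iff_false, iff_false]
      rw [hcomp _ (G.sq i).1]
      exact h1 i
    have e3 : {i | comp E (sq' i) ∈ g} = ∅ := by
      ext i
      simp only [mem_ofPred_eq, mem_empty_iff_false, iff_false]
      rw [hcomp _ (G.sq' i).1]
      exact h2 i
    rw [e2, e3] at h
    simp only [indicator_empty, tsum_zero, add_zero] at h
    refine h.trans (le_of_eq ?_)
    rw [tsum_eq_single (⟨Q0, hQ0⟩ : 𝒬)]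
    · rw [indicator_of_mem (show (⟨Q0, hQ0⟩ : 𝒬) ∈ {P : 𝒬 | comp E P.1 ∈ g} from
        (hcomp _ hQ0).2 rfl), if_pos hS]
    · intro P hne
      rw [indicator_of_notMem]
      intro h'
      exact hne (Subtype.ext ((hcomp _ P.2).1 h'))
  have h3 : (Bp - Bm) * m ≤ Q0.s * m := by
    refine le_of_forall_pos_le_add fun ε hε => ?_
    have hs := Q0.hs
    have h4 := key (ε / (2 * Q0.s)) (by positivity)
    refine h4.trans (le_of_eq ?_)
    field_simp
  exact le_of_mul_le_mul_right h3 hm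

theorem tsum_sqSub {κ : Type*} (hE : QPic E 𝒬 𝓗) {h : κ → Sqr} (hh : ∀ i, h i ∈ 𝒬)
    (hi : Function.Injective h) {C : ℝ} (hc : SqSub 𝒬 (⋃₀ g) C) :
    Summable ({i | comp E (h i) ∈ g}.indicator fun i => (h i).s ^ 2) ∧
    ∑' i, {i | comp E (h i) ∈ g}.indicator (fun i => (h i).s ^ 2) i ≤ C := by
  classical
  have h0 : ∀ i, 0 ≤ {i | comp E (h i) ∈ g}.indicator (fun i => (h i).s ^ 2) i := fun i =>
    indicator_nonneg (fun i _ => sq_nonneg _) i
  have h1 : ∀ t : Finset κ,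
      ∑ i ∈ t, {i | comp E (h i) ∈ g}.indicator (fun i => (h i).s ^ 2) i ≤ C := by
    intro t
    have h2 := hc ((t.filter fun i => comp E (h i) ∈ g).image h) (by
      intro P hP
      obtain ⟨i, hit, rfl⟩ := Finset.mem_image.1 hP
      refine ⟨hh i, ?_⟩
      exact (car_sub_comp hE (hh i)).trans (subset_sUnion_of_mem (Finset.mem_filter.1 hit).2))
    rw [Finset.sum_image (fun x _ y _ he => hi he)] at h2
    refine le_trans (le_of_eq ?_) h2
    rw [Finset.sum_filter]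
    refine Finset.sum_congr rfl fun i _ => ?_
    by_cases h3 : comp E (h i) ∈ g
    · rw [if_pos h3, indicator_of_mem (show i ∈ {i | comp E (h i) ∈ g} from h3)]
    · rw [if_neg h3, indicator_of_notMem (show i ∉ {i | comp E (h i) ∈ g} from h3)]
  exact ⟨summable_of_sum_le h0 h1, Real.tsum_le_of_sum_le h0 h1⟩

/-- weighted Cauchy-Schwarz over the squares of the family -/
theorem sum_bound {κ : Type*} {G : Set κ} {s u v : κ → ℝ} {C D t : ℝ} (ht : 0 < t)
    (hs : Summable (G.indicator fun i => s i ^ 2)) (hsC : ∑' i, G.indicator (fun i => s i ^ 2) i ≤ C)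
    (hu : Summable fun i => u i ^ 2) (huD : ∑' i, u i ^ 2 ≤ D) (hv0 : ∀ i, 0 ≤ v i)
    (hv : ∀ i, v i ≤ s i * u i) :
    ∑' i, G.indicator v i ≤ t / 2 * C + D / (2 * t) := by
  have hb : ∀ i, G.indicator v i ≤
      t / 2 * G.indicator (fun i => s i ^ 2) i + 1 / (2 * t) * u i ^ 2 := by
    intro i
    by_cases hi : i ∈ G
    · rw [indicator_of_mem hi, indicator_of_mem hi]
      refine (hv i).trans ?_
      have h1 : 0 ≤ (t * s i - u i) ^ 2 := sq_nonneg _
      have h2 : s i * u i ≤ (t ^ 2 * s i ^ 2 + u i ^ 2) / (2 * t) := by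
        rw [le_div_iff₀ (by positivity)]
        nlinarith
      refine h2.trans (le_of_eq ?_)
      field_simp
    · rw [indicator_of_notMem hi, indicator_of_notMem hi]
      have : 0 ≤ 1 / (2 * t) * u i ^ 2 := by positivity
      linarith
  have h1 := (hs.mul_left (t / 2)).add (hu.mul_left (1 / (2 * t)))
  have h2 : Summable (G.indicator v) :=
    Summable.of_nonneg_of_le (fun i => indicator_nonneg (fun i _ => hv0 i) i) hb h1
  calc ∑' i, G.indicator v i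
      ≤ ∑' i, (t / 2 * G.indicator (fun i => s i ^ 2) i + 1 / (2 * t) * u i ^ 2) :=
        h2.tsum_le_tsum hb h1
    _ = t / 2 * ∑' i, G.indicator (fun i => s i ^ 2) i + 1 / (2 * t) * ∑' i, u i ^ 2 := by
        rw [(hs.mul_left (t / 2)).tsum_add (hu.mul_left (1 / (2 * t))), tsum_mul_left,
          tsum_mul_left]
    _ ≤ t / 2 * C + 1 / (2 * t) * D := by gcongr
    _ = t / 2 * C + D / (2 * t) := by ring

/-- **family** -/
theorem Glue.family [Countable ι] [Countable ι'] [IsFiniteMeasure μ] [IsFiniteMeasure ν]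
    (hP : PicS E 𝒬 𝓗) (hEL : ELS StrQ E 𝒬 𝓗) (hg : FamQ E g Bm Bp)
    (G : Glue E 𝒬 g ∅ a b c d Bm Bp L m Q Q' S S' X1 X2 ψ Ψ Y1 Y2 ψ' Ψ' μ ν f f' F U2 o sq sq')
    {Co C : ℝ} (hCo : 0 ≤ Co) (hc : SqSub 𝒬 (⋃₀ g) C)
    (ho : ∑' P : 𝒬, o P.1 ^ 2 ≤ Co * m)
    (hf : Summable fun i => f i ^ 2) (hfm : ∑' i, f i ^ 2 ≤ m)
    (hf' : Summable fun i => f' i ^ 2) (hfm' : ∑' i, f' i ^ 2 ≤ m)
    (hi : Function.Injective sq) (hi' : Function.Injective sq')
    (hh : ∀ i, 2 * Q.h2 i ≤ (sq i).s) (hh' : ∀ i, 2 * Q'.h2 i ≤ (sq' i).s) :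
    (Bp - Bm) ^ 2 * m ≤ (5 * Co + 20) * C := by
  classical
  have hE := hP.q
  have hD : 0 < Bp - Bm := sub_pos.2 hg.lt
  have hm : 0 ≤ m := by rw [← G.mass]; exact ENNReal.toReal_nonneg
  have h := G.ineqM hP hEL hg one_pos
  simp only [mem_empty_iff_false, if_false] at h
  set t : ℝ := (Co + 4) / (Bp - Bm) with ht
  have ht0 : 0 < t := by positivity
  obtain ⟨s1, c1⟩ := tsum_sqSub (g := g) hE (h := fun P : 𝒬 => P.1) (fun P => P.2)
    Subtype.val_injective hc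
  obtain ⟨s2, c2⟩ := tsum_sqSub (g := g) hE (h := sq) (fun i => (G.sq i).1) hi hc
  obtain ⟨s3, c3⟩ := tsum_sqSub (g := g) hE (h := sq') (fun i => (G.sq' i).1) hi' hc
  have b1 := sum_bound (v := fun P : 𝒬 => P.1.s * o P.1) ht0 s1 c1 G.gf.sum ho
    (fun P => mul_nonneg P.1.hs.le (G.gf.o0 _)) (fun P => le_rfl)
  have b2 := sum_bound (s := fun i => (sq i).s) (v := fun i => 2 * (Q.h2 i * f i)) ht0 s2 c2 hf hfm
    (fun i => by have := Q.p2 i; have := G.two.lo.f0 i; positivity) (fun i => by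
      have := G.two.lo.f0 i
      nlinarith [mul_le_mul_of_nonneg_right (hh i) this])
  have b3 := sum_bound (s := fun i => (sq' i).s) (v := fun i => 2 * (Q'.h2 i * f' i)) ht0 s3 c3
    hf' hfm' (fun i => by have := Q'.p2 i; have := G.two.up.f0 i; positivity) (fun i => by
      have := G.two.up.f0 i
      nlinarith [mul_le_mul_of_nonneg_right (hh' i) this])
  have e2 : ∑' i, {i | comp E (sq i) ∈ g}.indicator (fun i => 4 * (Q.h2 i * f i)) i =
      2 * ∑' i, {i | comp E (sq i) ∈ g}.indicator (fun i => 2 * (Q.h2 i * f i)) i := by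
    rw [← tsum_mul_left]
    refine tsum_congr fun i => ?_
    by_cases hi : i ∈ {i | comp E (sq i) ∈ g}
    · rw [indicator_of_mem hi, indicator_of_mem hi]; ring
    · rw [indicator_of_notMem hi, indicator_of_notMem hi, mul_zero]
  have e3 : ∑' i, {i | comp E (sq' i) ∈ g}.indicator (fun i => 4 * (Q'.h2 i * f' i)) i =
      2 * ∑' i, {i | comp E (sq' i) ∈ g}.indicator (fun i => 2 * (Q'.h2 i * f' i)) i := by
    rw [← tsum_mul_left]
    refine tsum_congr fun i => ?_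
    by_cases hi : i ∈ {i | comp E (sq' i) ∈ g}
    · rw [indicator_of_mem hi, indicator_of_mem hi]; ring
    · rw [indicator_of_notMem hi, indicator_of_notMem hi, mul_zero]
  rw [e2, e3] at h
  -- `D m ≤ 5/2 t C + (Co/2 + 2) m / t`
  have h1 : (Bp - Bm) * m ≤ 5 / 2 * t * C + (Co * m + 4 * m) / (2 * t) := by
    have : (Co * m + 4 * m) / (2 * t) = Co * m / (2 * t) + 2 * (m / (2 * t)) + 2 * (m / (2 * t)) := by
      ring
    rw [this]
    linarith
  have h2 : (Co * m + 4 * m) / (2 * t) = (Bp - Bm) * m / 2 := by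
    rw [ht]
    have : Co + 4 ≠ 0 := by positivity
    field_simp
  rw [h2] at h1
  have h3 : (Bp - Bm) * m ≤ 5 * t * C := by linarith
  have h4 : (Bp - Bm) * ((Bp - Bm) * m) ≤ (Bp - Bm) * (5 * t * C) :=
    mul_le_mul_of_nonneg_left h3 hD.le
  have h5 : (Bp - Bm) * (5 * t * C) = (5 * Co + 20) * C := by
    rw [ht]; field_simp; ring
  rw [h5] at h4
  calc (Bp - Bm) ^ 2 * m = (Bp - Bm) * ((Bp - Bm) * m) := by ring
    _ ≤ _ := h4

end Crest.Agent.R105.Psq_425
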