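import Crest.Agent.R105.SqC2_832
import Crest.Agent.R105.Ge4_347
import Crest.Agent.R105.Gl4_363
import Crest.Agent.R105.Psq8_425

/-!
# Row 105 (S0138), LEMAQ StrQ (helper832, (J1) of 425 #11396)

`TwoG` + flux bounds + charges + carriers ⟹ `Psq_425.Glue`, in one generic form (`N = ⋃₀ gg`).
-/

set_option autoImplicit false

open MeasureTheory Set Filter Topology
open scoped NNReal ENNReal

namespace Crest.Agent.R105.Glu_832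

open Crest.Agent.R105.CF_363 Crest.Agent.R105.Cq_463 Crest.Agent.R105.Stp_722
open Crest.Agent.R105.Exs_992 Crest.Agent.R105.Nal_649 Crest.Agent.R105.Psq_463
open Crest.Agent.R105.Psq_425 Crest.Agent.R105.SqC_832 Sq_87 Hq_363 Kbx_247
open Crest.Agent.R105.Gl_363 (GlueF TwoG GeoC CarC HalfG glF clq)
open Crest.Agent.R105.Ge_347 (ChQ)
open Crest.Agent.R105.Skp2_257 (Comps)
open Mp_87 (lam)

variable {ι ι' : Type}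
variable {E S A : Set (ℝ × ℝ)} {𝒬 : Set Sqr} {𝓗 : Set Hair} {Q : Rects ι} {Q' : Rects ι'}
  {sq : ι → Sqr} {sq' : ι' → Sqr} {a b c d Bm Bp Tl Tu M : ℝ}
  {X1 X2 ψ Ψ Y1 Y2 ψ' Ψ' : ℝ × ℝ → ℝ} {μ ν : Measure (ℝ × ℝ)} {f : ι → ℝ} {f' : ι' → ℝ}
  {g g' : ℝ × ℝ → ℝ} {gg S₀ : Set (Set (ℝ × ℝ))} {ch : Sqr → ℝ}
  {np nm : ι → Measure (ℝ × ℝ)} {np' nm' : ι' → Measure (ℝ × ℝ)}

/-! ## `lam` -/

theorem lam_mono [IsFiniteMeasure ν] : Monotone (lam ν) := by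
  intro x y hxy
  unfold Mp_87.lam
  exact ENNReal.toReal_mono (measure_ne_top _ _) (measure_mono fun q hq => lt_of_lt_of_le hq hxy)

theorem lam_nonneg (x : ℝ) : 0 ≤ lam ν x := by unfold Mp_87.lam; exact ENNReal.toReal_nonneg

theorem lam_le_univ [IsFiniteMeasure ν] (x : ℝ) : lam ν x ≤ (ν univ).toReal := by
  unfold Mp_87.lam
  exact ENNReal.toReal_mono (measure_ne_top _ _) (measure_mono (subset_univ _))

/-! ## The rays are in the family -/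

/-- a vertical ray in `E` which starts in a component of the family stays in the family -/
theorem ray_fam (hg : gg ⊆ Comps E) {x y0 y : ℝ} (h0 : (x, y0) ∈ ⋃₀ gg) (hy : y0 ≤ y)
    (hr : ∀ t ∈ Icc y0 y, (x, t) ∈ E) : (x, y) ∈ ⋃₀ gg := by
  obtain ⟨P, hP, hx⟩ := h0
  have hc : IsPreconnected ((fun t : ℝ => (x, t)) '' Icc y0 y) :=
    isPreconnected_Icc.image _ (by fun_prop)
  have h1 : (fun t : ℝ => (x, t)) '' Icc y0 y ⊆ P := by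
    refine sub_of_meet (hg hP) ?_ hc ⟨_, hx, y0, ⟨le_rfl, hy⟩, rfl⟩
    rintro _ ⟨t, ht, rfl⟩
    exact hr t ht
  exact ⟨P, hP, h1 ⟨y, ⟨hy, le_rfl⟩, rfl⟩⟩

/-- the same for a ray which goes down -/
theorem ray_fam' (hg : gg ⊆ Comps E) {x y0 y : ℝ} (h0 : (x, y0) ∈ ⋃₀ gg) (hy : y ≤ y0)
    (hr : ∀ t ∈ Icc y y0, (x, t) ∈ E) : (x, y) ∈ ⋃₀ gg := by
  obtain ⟨P, hP, hx⟩ := h0
  have hc : IsPreconnected ((fun t : ℝ => (x, t)) '' Icc y y0) :=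
    isPreconnected_Icc.image _ (by fun_prop)
  have h1 : (fun t : ℝ => (x, t)) '' Icc y y0 ⊆ P := by
    refine sub_of_meet (hg hP) ?_ hc ⟨_, hx, y0, ⟨hy, le_rfl⟩, rfl⟩
    rintro _ ⟨t, ht, rfl⟩
    exact hr t ht
  exact ⟨P, hP, h1 ⟨y, ⟨le_rfl, hy⟩, rfl⟩⟩

theorem rays_lo (hg : gg ⊆ Comps E) (C : CarC E S 𝒬 Bm Tl μ) (h1 : ∀ᵐ q ∂μ, q ∈ ⋃₀ gg) :
    ∀ᵐ q ∂μ, ∀ y ∈ Ico q.2 Tl, (q.1, y) ∈ ⋃₀ gg := by
  filter_upwards [h1, C.ray] with q hq hr y hy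
  exact ray_fam hg (y0 := q.2) hq hy.1 fun t ht => hr t ⟨ht.1, ht.2.trans_lt hy.2⟩

theorem rays_up {B : ℝ} (hg : gg ⊆ Comps E)
    (C : CarC (rf ⁻¹' E) (rf ⁻¹' S) (rfS '' 𝒬) B Tu ν) (h1 : ∀ᵐ q ∂ν, rf q ∈ ⋃₀ gg) :
    ∀ᵐ q ∂ν, ∀ y ∈ Ico q.2 Tu, rf (q.1, y) ∈ ⋃₀ gg := by
  filter_upwards [h1, C.ray] with q hq hr y hy
  show (q.1, -y) ∈ ⋃₀ gg
  refine ray_fam' hg (y0 := -q.2) hq (by linarith [hy.1]) fun t ht => ?_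
  have := hr (-t) ⟨by linarith [ht.2], by linarith [ht.1, hy.2]⟩
  simpa using this

/-! ## Geometry -/

theorem op_sub (G : GeoC E S 𝒬 𝓗 Q sq a b c Bm Tl) (i : ι) : Q.op i ⊆ (sq i).car := by
  intro p hp
  exact interior_subset ((Gl_363.mem_op' G).1 hp).1

/-- **(J1)** -/
theorem glue_of [IsFiniteMeasure μ] [IsFiniteMeasure ν] (hP : PicS E 𝒬 𝓗) (hg : FamQ E gg Bm Bp)
    (T : TwoG E S 𝒬 𝓗 Q Q' sq sq' a b c d Bm Bp Tl Tu M X1 X2 ψ Ψ Y1 Y2 ψ' Ψ' μ ν f f' g g')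
    (two : TwoQ Q Q' ((E ∩ {p | p.2 < Bm}) \ Q.un) ((rf ⁻¹' E ∩ {p | p.2 < -Bp}) \ Q'.un) E
      a b c d Bm Bp M X1 X2 ψ Ψ Y1 Y2 ψ' Ψ' μ ν f f' (glF M g g'))
    (GF : GlueF E 𝒬 𝓗 S A a b c d Bm Bp (lam ν) ch (glF M g g') (W1 X2 Y2) (Gl_363.W2 X1 Y1))
    (hch : ∀ Q, 0 ≤ ch Q) (hsum : Summable fun Q : 𝒬 => ch Q.1 ^ 2)
    (C : ChQ Q X1 X2 f np nm) (C' : ChQ Q' Y1 Y2 f' np' nm')
    (la : ∀ i, ∫ p in Q.op i, |X2 p| ≤ 4 * (Q.h2 i * f i))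
    (la' : ∀ i, ∫ p in Q'.op i, |Y2 p| ≤ 4 * (Q'.h2 i * f' i))
    (c1 : ∀ᵐ q ∂μ, q ∈ ⋃₀ gg) (c2 : ∀ᵐ q ∂ν, rf q ∈ ⋃₀ gg) (hSg : S ⊆ ⋃₀ gg)
    (hSf : S₀.Finite) (hS : ∀ P ∈ Comps E, P ∉ S₀ → Disjoint P S) :
    Glue E 𝒬 gg S₀ a b c d Bm Bp M (μ univ).toReal Q Q' ((E ∩ {p | p.2 < Bm}) \ Q.un)
      ((rf ⁻¹' E ∩ {p | p.2 < -Bp}) \ Q'.un) X1 X2 ψ Ψ Y1 Y2 ψ' Ψ' μ ν f f' (glF M g g')
      (Gl_363.W2 X1 Y1) ch sq (fun i => rfS (sq' i)) := by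
  have r1 := rays_lo hg.sub T.C c1
  have r2 := rays_up hg.sub T.C' c2
  have hm0 : 0 ≤ (μ univ).toReal := ENNReal.toReal_nonneg
  refine ⟨two, la, la', ?_, ?_, rfl, ?_, ?_, ?_, ?_, ?_, ?_, ?_⟩
  · refine gFun hP GF hg hS hSf lam_mono lam_nonneg (fun x => ?_) hch hsum
      ⟨GF.str.cont, GF.str.V1, GF.str.V2, GF.str.hor, GF.str.ver⟩
    rw [← T.mass]
    exact lam_le_univ x
  · exact (sUnion_subset fun P hP' => comps_sub' (hg.sub hP')).trans T.box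
  · rintro p ⟨⟨h, -⟩, -⟩
    exact h
  · rintro p ⟨⟨h, -⟩, -⟩
    exact h
  · exact fun i => ⟨(T.G.sqm i).1, op_sub T.G i⟩
  · intro i
    refine ⟨mem_rfS.1 (T.G'.sqm i).1, fun p hp => ?_⟩
    rw [mem_car_rfS, rf_rf]
    exact op_sub T.G' i hp
  · filter_upwards [r1] with q hq y h1 h2
    exact hq y ⟨h1.le, h2.trans T.Ml⟩
  · filter_upwards [r2] with q hq y h1 h2
    have h3 := hq (-y) ⟨h2.le, by linarith [T.Mu, T.BM]⟩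
    simpa using h3
  · rintro t M₀ ht κ K hκ hκc hκR ⟨O, hO, hgO, hκ0⟩
    have hκW : tsupport κ ⊆ (Ioo a b ×ˢ Ioo c d) \ ⋃₀ gg := by
      intro p hp
      refine ⟨hκR hp, fun hpg => ?_⟩
      refine (notMem_tsupport_iff_eventuallyEq.2 ?_) hp
      filter_upwards [hO.mem_nhds (hgO hpg)] with q hq using hκ0 q hq
    exact Ge_347.plaLim_N T C C' hg.cpt.isClosed hSg
      (fun Q₀ hQ h => Ge_347.sq_sub_fam T.G.pic hg.sub hQ h) r1 r2 hκ hκc hκW ht.lip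
      (fun s => ht.bdd hm0 s)

end Crest.Agent.R105.Glu_832
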