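import Crest.Agent.R105.Glu1_832
import Crest.Agent.R105.Gl5_363

/-!
# Row 105 (S0138), LEMAQ StrQ (helper832, (J1) of 425 #11396): everything plugged

`chg2` = the charge bound of the glued function; `Σ chg2² ≤ 32 (Σ f² + Σ f'²)`;
`glue_of_twoG`: `TwoG` + charges + flux bounds + carriers ⟹ `Psq_425.Glue`.
-/

set_option autoImplicit false

open MeasureTheory Set Filter Topology
open scoped NNReal ENNReal

namespace Crest.Agent.R105.Glu_832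

open Crest.Agent.R105.CF_363 Crest.Agent.R105.Cq_463 Crest.Agent.R105.Stp_722
open Crest.Agent.R105.Exs_992 Crest.Agent.R105.Nal_649 Crest.Agent.R105.Psq_463
open Crest.Agent.R105.Psq_425 Crest.Agent.R105.SqC_832 Sq_87 Hq_363 Kbx_247
open Crest.Agent.R105.Gl_363 (GlueF TwoG GeoC CarC HalfG glF clq chq chq_nonneg)
open Crest.Agent.R105.Ge_347 (ChQ)
open Crest.Agent.R105.Skp2_257 (Comps)
open Mp_87 (lam)

variable {ι ι' : Type}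
variable {E S A : Set (ℝ × ℝ)} {𝒬 : Set Sqr} {𝓗 : Set Hair} {Q : Rects ι} {Q' : Rects ι'}
  {sq : ι → Sqr} {sq' : ι' → Sqr} {a b c d Bm Bp Tl Tu M : ℝ}
  {X1 X2 ψ Ψ Y1 Y2 ψ' Ψ' : ℝ × ℝ → ℝ} {μ ν : Measure (ℝ × ℝ)} {f : ι → ℝ} {f' : ι' → ℝ}
  {g g' : ℝ × ℝ → ℝ} {gg S₀ : Set (Set (ℝ × ℝ))} {ch : Sqr → ℝ}
  {np nm : ι → Measure (ℝ × ℝ)} {np' nm' : ι' → Measure (ℝ × ℝ)}

/-! ## Sums of `chq` -/

theorem chq_eq (hi : Function.Injective sq) (i : ι) : chq sq f (sq i) = f i := by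
  have h : ∃ j, sq j = sq i := ⟨i, rfl⟩
  unfold Gl_363.chq
  rw [dif_pos h]
  exact congrArg f (hi h.choose_spec)

theorem chq_not {Q₀ : Sqr} (h : ¬ ∃ i, sq i = Q₀) : chq sq f Q₀ = 0 := by
  unfold Gl_363.chq
  rw [dif_neg h]

theorem chq_hasSum (hi : Function.Injective sq) {s : ℝ} (hs : HasSum (fun i => f i ^ 2) s) :
    HasSum (fun Q₀ : Sqr => chq sq f Q₀ ^ 2) s := by
  rw [← hi.hasSum_iff (f := fun Q₀ : Sqr => chq sq f Q₀ ^ 2)]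
  · refine hs.congr_fun ?_ |> fun h => h
    · intro i
      simp only [Function.comp, chq_eq hi]
  · intro Q₀ hQ
    rw [chq_not (fun h => hQ h)]
    simp

/-- reflection of the squares -/
def rfE : Sqr ≃ Sqr := ⟨rfS, rfS, rfS_rfS, rfS_rfS⟩

theorem chq_hasSum' (hi : Function.Injective sq') {s : ℝ} (hs : HasSum (fun i => f' i ^ 2) s) :
    HasSum (fun Q₀ : Sqr => chq sq' f' (rfS Q₀) ^ 2) s :=
  (rfE.hasSum_iff (f := fun Q₀ : Sqr => chq sq' f' Q₀ ^ 2)).2 (chq_hasSum hi hs)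

/-- **the charges of the glued function** -/
noncomputable def chg2 (sq : ι → Sqr) (sq' : ι' → Sqr) (f : ι → ℝ) (f' : ι' → ℝ) (Q₀ : Sqr) : ℝ :=
  4 * chq sq f Q₀ + 4 * chq sq' f' (rfS Q₀)

theorem chg2_nonneg (hf : ∀ i, 0 ≤ f i) (hf' : ∀ i, 0 ≤ f' i) (Q₀ : Sqr) :
    0 ≤ chg2 sq sq' f f' Q₀ := by
  have h1 := chq_nonneg (sq := sq) hf Q₀
  have h2 := chq_nonneg (sq := sq') hf' (rfS Q₀)
  unfold chg2
  positivity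

theorem chg2_sq (Q₀ : Sqr) :
    chg2 sq sq' f f' Q₀ ^ 2 ≤ 32 * (chq sq f Q₀ ^ 2 + chq sq' f' (rfS Q₀) ^ 2) := by
  unfold chg2
  nlinarith [sq_nonneg (chq sq f Q₀ - chq sq' f' (rfS Q₀))]

theorem chg2_summable (hi : Function.Injective sq) (hi' : Function.Injective sq')
    (hs : Summable fun i => f i ^ 2) (hs' : Summable fun i => f' i ^ 2) :
    Summable fun Q₀ : 𝒬 => chg2 sq sq' f f' Q₀.1 ^ 2 := by
  have h1 := (((chq_hasSum hi hs.hasSum).summable.add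
    (chq_hasSum' hi' hs'.hasSum).summable).mul_left 32).subtype 𝒬
  exact Summable.of_nonneg_of_le (fun _ => sq_nonneg _) (fun Q₀ => chg2_sq Q₀.1) h1

/-- **`Σ chg2² ≤ 32 (Σ f² + Σ f'²)`** -/
theorem chg2_tsum (hi : Function.Injective sq) (hi' : Function.Injective sq')
    (hs : Summable fun i => f i ^ 2) (hs' : Summable fun i => f' i ^ 2) :
    ∑' Q₀ : 𝒬, chg2 sq sq' f f' Q₀.1 ^ 2 ≤ 32 * (∑' i, f i ^ 2 + ∑' i, f' i ^ 2) := by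
  set F : Sqr → ℝ := fun Q₀ => 32 * (chq sq f Q₀ ^ 2 + chq sq' f' (rfS Q₀) ^ 2) with hF
  have h1 : HasSum F (32 * (∑' i, f i ^ 2 + ∑' i, f' i ^ 2)) :=
    ((chq_hasSum hi hs.hasSum).add (chq_hasSum' hi' hs'.hasSum)).mul_left 32
  have hF0 : ∀ Q₀, 0 ≤ F Q₀ := fun Q₀ => by rw [hF]; positivity
  have h2 : Summable fun Q₀ : 𝒬 => F Q₀.1 := h1.summable.subtype 𝒬
  have h3 : ∑' Q₀ : 𝒬, chg2 sq sq' f f' Q₀.1 ^ 2 ≤ ∑' Q₀ : 𝒬, F Q₀.1 :=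
    Summable.tsum_le_tsum (fun Q₀ => chg2_sq Q₀.1) (chg2_summable hi hi' hs hs') h2
  have h4 : ∑' Q₀ : 𝒬, F Q₀.1 ≤ ∑' Q₀, F Q₀ :=
    h1.summable.tsum_subtype_le F 𝒬 hF0
  exact (h3.trans h4).trans h1.tsum_eq.le

/-! ## (J1) -/

/-- **(J1)**: everything plugged -/
theorem glue_of_twoG [IsFiniteMeasure μ] [IsFiniteMeasure ν] (hP : PicS E 𝒬 𝓗)
    (hg : FamQ E gg Bm Bp)
    (T : TwoG E S 𝒬 𝓗 Q Q' sq sq' a b c d Bm Bp Tl Tu M X1 X2 ψ Ψ Y1 Y2 ψ' Ψ' μ ν f f' g g')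
    (C : ChQ Q X1 X2 f np nm) (C' : ChQ Q' Y1 Y2 f' np' nm')
    (la : ∀ i, ∫ p in Q.op i, |X2 p| ≤ 4 * (Q.h2 i * f i))
    (la' : ∀ i, ∫ p in Q'.op i, |Y2 p| ≤ 4 * (Q'.h2 i * f' i))
    (c1 : ∀ᵐ q ∂μ, q ∈ ⋃₀ gg) (c2 : ∀ᵐ q ∂ν, rf q ∈ ⋃₀ gg) (hSg : S ⊆ ⋃₀ gg)
    (hSf : S₀.Finite) (hS : ∀ P ∈ Comps E, P ∉ S₀ → Disjoint P S) :
    Glue E 𝒬 gg S₀ a b c d Bm Bp M (μ univ).toReal Q Q' ((E ∩ {p | p.2 < Bm}) \ Q.un)
      ((rf ⁻¹' E ∩ {p | p.2 < -Bp}) \ Q'.un) X1 X2 ψ Ψ Y1 Y2 ψ' Ψ' μ ν f f' (glF M g g')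
      (Gl_363.W2 X1 Y1) (chg2 sq sq' f f') sq (fun i => rfS (sq' i)) :=
  glue_of hP hg T T.twoQ T.glueF (chg2_nonneg T.D.f0 T.D'.f0)
    (chg2_summable (Gl_363.sq_inj T.G T.D.dis) (Gl_363.sq_inj T.G' T.D'.dis) C.f2 C'.f2)
    C C' la la' c1 c2 hSg hSf hS

/-- the bound of the charges in the form of `Glue.family` -/
theorem charges_le
    (T : TwoG E S 𝒬 𝓗 Q Q' sq sq' a b c d Bm Bp Tl Tu M X1 X2 ψ Ψ Y1 Y2 ψ' Ψ' μ ν f f' g g')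
    (C : ChQ Q X1 X2 f np nm) (C' : ChQ Q' Y1 Y2 f' np' nm') :
    ∑' Q₀ : 𝒬, chg2 sq sq' f f' Q₀.1 ^ 2 ≤ 32 * (∑' i, f i ^ 2 + ∑' i, f' i ^ 2) :=
  chg2_tsum (Gl_363.sq_inj T.G T.D.dis) (Gl_363.sq_inj T.G' T.D'.dis) C.f2 C'.f2

/-- injectivity of the two index maps -/
theorem inj_of
    (T : TwoG E S 𝒬 𝓗 Q Q' sq sq' a b c d Bm Bp Tl Tu M X1 X2 ψ Ψ Y1 Y2 ψ' Ψ' μ ν f f' g g') :
    Function.Injective sq ∧ Function.Injective (fun i => rfS (sq' i)) :=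
  ⟨Gl_363.sq_inj T.G T.D.dis, rfS_injective.comp (Gl_363.sq_inj T.G' T.D'.dis)⟩

/-- heights of the rectangles -/
theorem height_le
    (T : TwoG E S 𝒬 𝓗 Q Q' sq sq' a b c d Bm Bp Tl Tu M X1 X2 ψ Ψ Y1 Y2 ψ' Ψ' μ ν f f' g g') :
    (∀ i, 2 * Q.h2 i ≤ (sq i).s) ∧ ∀ i, 2 * Q'.h2 i ≤ (rfS (sq' i)).s := by
  constructor
  · intro i
    have h1 := T.G.y1 i
    have h2 := T.G.y2 i
    have h3 := min_le_left ((sq i).y + (sq i).s) Bm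
    linarith
  · intro i
    have h1 := T.G'.y1 i
    have h2 := T.G'.y2 i
    have h3 := min_le_left ((sq' i).y + (sq' i).s) (-Bp)
    rw [rfS_s]
    linarith

end Crest.Agent.R105.Glu_832
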