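import Crest.Agent.R105.Elf3_600
import Crest.Agent.R105.Ni2_459

/-!
# Row 105, S0138, LmY2: leaf (G) of helper392 #10557 (helper6)

`Gt T s = ∫_0^s 1_T`;  `lipschitz_Gt` (G1), `osc_Gt_le` (G2): `osc_K G(a) ≤ |T ∩ [lo_K, up_K]|`,
`lintegral_tsum_Icc` (G3): interchange of the sum over the components and the integral over the levels,
`subset_Lv_iff`, `ae_summable` : a.e. level meets summably many components,
`tsum_osc_Gt_le` : `Σ_K c_K osc_K G_T(a) ≤ ∫_T Σ_{K ⊆ L_t} c_K dt`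
-/

set_option autoImplicit false

open MeasureTheory Set Filter Topology Metric
open scoped NNReal ENNReal

namespace Crest.Agent.R105.Gos_6

open Tc_808 Ends_897 Ni_459 Crest.AnalysisR
open Elf_600 (pt pt_mem pt_mem' cc_pt)

noncomputable section

/-- the primitive of the indicator of `T` -/
def Gt (T : Set ℝ) (s : ℝ) : ℝ := ∫ r in (0 : ℝ)..s, T.indicator 1 r

variable {T : Set ℝ} {Y : Set ℂ} {a : ℂ → ℝ}

lemma ii (hT : MeasurableSet T) (s t : ℝ) :
    IntervalIntegrable (T.indicator (1 : ℝ → ℝ)) volume s t := by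
  have h : IntervalIntegrable (1 : ℝ → ℝ) volume s t := intervalIntegrable_const
  rw [intervalIntegrable_iff] at h ⊢
  exact h.indicator hT

lemma Gt_sub (hT : MeasurableSet T) (s t : ℝ) :
    Gt T t - Gt T s = ∫ r in s..t, T.indicator (1 : ℝ → ℝ) r := by
  unfold Gt
  exact intervalIntegral.integral_interval_sub_left (ii hT _ _) (ii hT _ _)

lemma Gt_sub_of_le (hT : MeasurableSet T) {s t : ℝ} (h : s ≤ t) :
    Gt T t - Gt T s = (volume (T ∩ Ioc s t)).toReal := by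
  rw [Gt_sub hT, intervalIntegral.integral_of_le h, integral_indicator_one hT, Measure.real,
    Measure.restrict_apply hT]

lemma vol_ne_top (T : Set ℝ) (s t : ℝ) : volume (T ∩ Icc s t) ≠ ∞ :=
  ((measure_mono inter_subset_right).trans_lt (by simp)).ne

lemma abs_Gt_sub (hT : MeasurableSet T) {s t p q : ℝ} (hs : s ∈ Icc p q) (ht : t ∈ Icc p q) :
    |Gt T t - Gt T s| ≤ (volume (T ∩ Icc p q)).toReal := by
  rcases le_total s t with h | h
  · rw [Gt_sub_of_le hT h, abs_of_nonneg ENNReal.toReal_nonneg]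
    exact ENNReal.toReal_mono (vol_ne_top _ _ _)
      (measure_mono (inter_subset_inter_right _ fun x hx => ⟨hs.1.trans hx.1.le, hx.2.trans ht.2⟩))
  · rw [abs_sub_comm, Gt_sub_of_le hT h, abs_of_nonneg ENNReal.toReal_nonneg]
    exact ENNReal.toReal_mono (vol_ne_top _ _ _)
      (measure_mono (inter_subset_inter_right _ fun x hx => ⟨ht.1.trans hx.1.le, hx.2.trans hs.2⟩))

/-- (G1) -/
theorem lipschitz_Gt (hT : MeasurableSet T) : LipschitzWith 1 (Gt T) := by
  refine LipschitzWith.of_dist_le_mul fun s t => ?_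
  rw [Real.dist_eq, Real.dist_eq, NNReal.coe_one, one_mul]
  have key : ∀ {p q : ℝ}, p ≤ q → (volume (T ∩ Icc p q)).toReal ≤ q - p := fun {p q} h => by
    refine (ENNReal.toReal_mono (by simp) (measure_mono inter_subset_right)).trans ?_
    rw [Real.volume_Icc, ENNReal.toReal_ofReal (sub_nonneg.2 h)]
  rcases le_total s t with h | h
  · rw [abs_sub_comm s t, abs_of_nonneg (sub_nonneg.2 h)]
    exact (abs_Gt_sub hT (right_mem_Icc.2 h) (left_mem_Icc.2 h)).trans (key h)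
  · rw [abs_of_nonneg (sub_nonneg.2 h)]
    exact (abs_Gt_sub hT (left_mem_Icc.2 h) (right_mem_Icc.2 h)).trans (key h)

lemma monotone_Gt (hT : MeasurableSet T) : Monotone (Gt T) := fun s t h => by
  have := Gt_sub_of_le hT h
  have h2 : 0 ≤ (volume (T ∩ Ioc s t)).toReal := ENNReal.toReal_nonneg
  linarith

/-- (G2) -/
theorem osc_Gt_le (hY : IsExteriorDomain Yᶜ) (ha : LB a) (hT : MeasurableSet T) (K : Cmp Y) :
    osc Y (fun z => Gt T (a z)) K.1 ≤
      (volume (T ∩ Icc (lo Y a (pt K)) (up Y a (pt K)))).toReal := by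
  refine osc_le_of_forall ENNReal.toReal_nonneg fun ε hε => ?_
  have hlu := lo_le_up hY ha (pt K)
  obtain ⟨O, hO, h1⟩ := exists_lt_of_up_lt hY ha
    (show up Y a (pt K) < up Y a (pt K) + ε / 2 by linarith)
  obtain ⟨P, hP, h2⟩ := exists_gt_of_lt_lo hY ha
    (show lo Y a (pt K) - ε / 2 < lo Y a (pt K) by linarith)
  refine ⟨O ∩ P, hO.op.inter hP.op, ?_, fun z hz hzY w hw hwY => ?_⟩
  · rw [← cc_pt K]; exact subset_inter hO.sub hP.sub
  set p := lo Y a (pt K) with hp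
  set q := up Y a (pt K) with hq
  have h3 : |Gt T (a z) - Gt T (a w)| ≤ (volume (T ∩ Icc (p - ε / 2) (q + ε / 2))).toReal :=
    abs_Gt_sub hT ⟨(h2 w hw.2 hwY).le, (h1 w hw.1 hwY).le⟩ ⟨(h2 z hz.2 hzY).le, (h1 z hz.1 hzY).le⟩
  refine h3.trans ?_
  have h4 : T ∩ Icc (p - ε / 2) (q + ε / 2) ⊆
      (T ∩ Icc p q) ∪ (Ico (p - ε / 2) p ∪ Ioc q (q + ε / 2)) := by
    rintro x ⟨hx, hx1, hx2⟩
    by_cases h5 : x < p
    · exact Or.inr (Or.inl ⟨hx1, h5⟩)
    · by_cases h6 : q < x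
      · exact Or.inr (Or.inr ⟨h6, hx2⟩)
      · exact Or.inl ⟨hx, not_lt.1 h5, not_lt.1 h6⟩
  have h5 : volume (T ∩ Icc (p - ε / 2) (q + ε / 2)) ≤ volume (T ∩ Icc p q) + ENNReal.ofReal ε := by
    refine (measure_mono h4).trans ((measure_union_le _ _).trans (add_le_add le_rfl
      ((measure_union_le _ _).trans ?_)))
    rw [Real.volume_Ico, Real.volume_Ioc, ← ENNReal.ofReal_add (by linarith) (by linarith)]
    exact ENNReal.ofReal_le_ofReal (by linarith)
  calc (volume (T ∩ Icc (p - ε / 2) (q + ε / 2))).toReal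
      ≤ (volume (T ∩ Icc p q) + ENNReal.ofReal ε).toReal :=
        ENNReal.toReal_mono (ENNReal.add_ne_top.2 ⟨vol_ne_top _ _ _, ENNReal.ofReal_ne_top⟩) h5
    _ = (volume (T ∩ Icc p q)).toReal + ε := by
        rw [ENNReal.toReal_add (vol_ne_top _ _ _) ENNReal.ofReal_ne_top, ENNReal.toReal_ofReal hε.le]

/-- (G3), general form -/
theorem lintegral_tsum_Icc' {ι : Type*} {c : ι → ℝ≥0∞} (hc : {K | c K ≠ 0}.Countable) (l u : ι → ℝ)
    (T : Set ℝ) : ∫⁻ t in T, ∑' K, c K * (Icc (l K) (u K)).indicator 1 t =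
      ∑' K, c K * volume (T ∩ Icc (l K) (u K)) := by
  have : Countable {K | c K ≠ 0} := hc
  have h1 : ∀ t : ℝ, ∑' K, c K * (Icc (l K) (u K)).indicator (1 : ℝ → ℝ≥0∞) t =
      ∑' K : {K | c K ≠ 0}, c K * (Icc (l K) (u K)).indicator (1 : ℝ → ℝ≥0∞) t := fun t =>
    (tsum_subtype_eq_of_support_subset (f := fun K => c K * (Icc (l K) (u K)).indicator (1 : ℝ → ℝ≥0∞) t)
      (s := {K | c K ≠ 0}) fun K hK => left_ne_zero_of_mul hK).symm
  have h2 : ∑' K, c K * volume (T ∩ Icc (l K) (u K)) =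
      ∑' K : {K | c K ≠ 0}, c K * volume (T ∩ Icc (l K) (u K)) :=
    (tsum_subtype_eq_of_support_subset (f := fun K => c K * volume (T ∩ Icc (l K) (u K)))
      (s := {K | c K ≠ 0}) fun K hK => left_ne_zero_of_mul hK).symm
  simp only [h1]
  rw [h2, lintegral_tsum fun K =>
    ((measurable_one.indicator measurableSet_Icc).const_mul _).aemeasurable]
  refine tsum_congr fun K => ?_
  rw [lintegral_const_mul _ (measurable_one.indicator measurableSet_Icc),
    lintegral_indicator_one measurableSet_Icc, Measure.restrict_apply measurableSet_Icc, inter_comm]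

/-- (G3) -/
theorem lintegral_tsum_Icc {c : Cmp Y → ℝ} (hc : {K | c K ≠ 0}.Countable) (T : Set ℝ) :
    ∫⁻ t in T, ∑' K : Cmp Y, ENNReal.ofReal (c K) *
        (Icc (lo Y a (pt K)) (up Y a (pt K))).indicator 1 t =
      ∑' K, ENNReal.ofReal (c K) * volume (T ∩ Icc (lo Y a (pt K)) (up Y a (pt K))) :=
  lintegral_tsum_Icc' (hc.mono fun K hK (h : c K = 0) => hK (by simp [h])) _ _ _

lemma subset_Lv_iff (K : Cmp Y) (t : ℝ) :
    K.1 ⊆ Lv Y a t ↔ t ∈ Icc (lo Y a (pt K)) (up Y a (pt K)) := by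
  refine ⟨fun h => h (pt_mem K), fun h z hz => ?_⟩
  have h1 := Elf_600.loK_eq (u := a) K hz
  have h2 := Elf_600.upK_eq (u := a) K hz
  exact ⟨by rw [h1]; exact h.1, by rw [h2]; exact h.2⟩

lemma osc_pt (hY : IsExteriorDomain Yᶜ) (ha : LB a) (K : Cmp Y) :
    osc Y a K.1 = up Y a (pt K) - lo Y a (pt K) := by
  have := Ni_459.osc_eq' hY ha (pt_mem' K)
  rwa [cc_pt] at this

lemma volume_Icc_eq (hY : IsExteriorDomain Yᶜ) (ha : LB a) (K : Cmp Y) :
    volume (Icc (lo Y a (pt K)) (up Y a (pt K))) = ENNReal.ofReal (osc Y a K.1) := by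
  rw [Real.volume_Icc, osc_pt hY ha]

/-- the sum over the components which meet the level, in `[0, ∞]` -/
def fl (Y : Set ℂ) (a : ℂ → ℝ) (c : Cmp Y → ℝ) (t : ℝ) : ℝ≥0∞ :=
  ∑' K : Cmp Y, ENNReal.ofReal (c K) * (Icc (lo Y a (pt K)) (up Y a (pt K))).indicator 1 t

variable {c : Cmp Y → ℝ}

lemma fl_eq (c : Cmp Y → ℝ) (t : ℝ) :
    fl Y a c t = ∑' K : {K : Cmp Y // K.1 ⊆ Lv Y a t}, ENNReal.ofReal (c K) := by
  unfold fl
  have h := tsum_subtype {K : Cmp Y | K.1 ⊆ Lv Y a t} fun K => ENNReal.ofReal (c K)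
  refine (tsum_congr fun K => ?_).trans h.symm
  by_cases hK : K.1 ⊆ Lv Y a t
  · rw [indicator_of_mem ((subset_Lv_iff K t).1 hK),
      indicator_of_mem (show K ∈ {K : Cmp Y | K.1 ⊆ Lv Y a t} from hK), Pi.one_apply, mul_one]
  · rw [indicator_of_notMem fun h => hK ((subset_Lv_iff K t).2 h),
      indicator_of_notMem (show K ∉ {K : Cmp Y | K.1 ⊆ Lv Y a t} from hK), mul_zero]

lemma toReal_fl (h0 : ∀ K, 0 ≤ c K) (t : ℝ) :
    (fl Y a c t).toReal = ∑' K : {K : Cmp Y // K.1 ⊆ Lv Y a t}, c K := by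
  rw [fl_eq, ENNReal.tsum_toReal_eq fun K => ENNReal.ofReal_ne_top]
  exact tsum_congr fun K => ENNReal.toReal_ofReal (h0 _)

lemma measurable_fl (hc : {K | c K ≠ 0}.Countable) : Measurable (fl Y a c) := by
  have : Countable {K | c K ≠ 0} := hc
  have h1 : fl Y a c = fun t => ∑' K : {K | c K ≠ 0}, ENNReal.ofReal (c K) *
      (Icc (lo Y a (pt K.1)) (up Y a (pt K.1))).indicator (1 : ℝ → ℝ≥0∞) t := by
    funext t
    refine (tsum_subtype_eq_of_support_subset (f := fun K => ENNReal.ofReal (c K) *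
      (Icc (lo Y a (pt K)) (up Y a (pt K))).indicator (1 : ℝ → ℝ≥0∞) t)
      (s := {K | c K ≠ 0}) fun K hK (h : c K = 0) => left_ne_zero_of_mul hK (by simp [h])).symm
  rw [h1]
  exact Measurable.ennreal_tsum fun K => (measurable_one.indicator measurableSet_Icc).const_mul _

lemma lintegral_fl (hc : {K | c K ≠ 0}.Countable) (T : Set ℝ) :
    ∫⁻ t in T, fl Y a c t =
      ∑' K, ENNReal.ofReal (c K) * volume (T ∩ Icc (lo Y a (pt K)) (up Y a (pt K))) :=
  lintegral_tsum_Icc hc T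

lemma lintegral_fl_univ (hY : IsExteriorDomain Yᶜ) (ha : LB a) (hc : {K | c K ≠ 0}.Countable)
    (h0 : ∀ K, 0 ≤ c K) (hs : Summable fun K : Cmp Y => c K * osc Y a K.1) :
    ∫⁻ t, fl Y a c t = ENNReal.ofReal (∑' K : Cmp Y, c K * osc Y a K.1) := by
  rw [← setLIntegral_univ, lintegral_fl hc, ENNReal.ofReal_tsum_of_nonneg
    (fun K => mul_nonneg (h0 K) (osc_nonneg _ _ _)) hs]
  refine tsum_congr fun K => ?_
  rw [univ_inter, volume_Icc_eq hY ha, ENNReal.ofReal_mul (h0 K)]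

lemma ae_fl_lt_top (hY : IsExteriorDomain Yᶜ) (ha : LB a) (hc : {K | c K ≠ 0}.Countable)
    (h0 : ∀ K, 0 ≤ c K) (hs : Summable fun K : Cmp Y => c K * osc Y a K.1) :
    ∀ᵐ t, fl Y a c t < ∞ :=
  ae_lt_top (measurable_fl hc) (by rw [lintegral_fl_univ hY ha hc h0 hs]; exact ENNReal.ofReal_ne_top)

/-- a.e. level meets components with summable weights -/
theorem ae_summable (hY : IsExteriorDomain Yᶜ) (ha : LB a) (hc : {K | c K ≠ 0}.Countable)
    (h0 : ∀ K, 0 ≤ c K) (hs : Summable fun K : Cmp Y => c K * osc Y a K.1) :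
    ∀ᵐ t, Summable fun K : {K : Cmp Y // K.1 ⊆ Lv Y a t} => c K := by
  filter_upwards [ae_fl_lt_top hY ha hc h0 hs] with t ht
  rw [fl_eq] at ht
  refine (ENNReal.summable_toReal ht.ne).congr fun K => ENNReal.toReal_ofReal (h0 _)

theorem integrable_sum (hY : IsExteriorDomain Yᶜ) (ha : LB a) (hc : {K | c K ≠ 0}.Countable)
    (h0 : ∀ K, 0 ≤ c K) (hs : Summable fun K : Cmp Y => c K * osc Y a K.1) :
    Integrable fun t => ∑' K : {K : Cmp Y // K.1 ⊆ Lv Y a t}, c K := by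
  simp only [← toReal_fl h0]
  exact integrable_toReal_of_lintegral_ne_top (measurable_fl hc).aemeasurable
    (by rw [lintegral_fl_univ hY ha hc h0 hs]; exact ENNReal.ofReal_ne_top)

lemma vol_le_osc (hY : IsExteriorDomain Yᶜ) (ha : LB a) (T : Set ℝ) (K : Cmp Y) :
    (volume (T ∩ Icc (lo Y a (pt K)) (up Y a (pt K)))).toReal ≤ osc Y a K.1 := by
  refine (ENNReal.toReal_mono (by simp) (measure_mono inter_subset_right)).trans ?_
  rw [volume_Icc_eq hY ha, ENNReal.toReal_ofReal (osc_nonneg _ _ _)]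

lemma setIntegral_sum (hY : IsExteriorDomain Yᶜ) (ha : LB a) (hc : {K | c K ≠ 0}.Countable)
    (h0 : ∀ K, 0 ≤ c K) (hs : Summable fun K : Cmp Y => c K * osc Y a K.1) (T : Set ℝ) :
    ∫ t in T, ∑' K : {K : Cmp Y // K.1 ⊆ Lv Y a t}, c K =
      ∑' K, c K * (volume (T ∩ Icc (lo Y a (pt K)) (up Y a (pt K)))).toReal := by
  simp only [← toReal_fl h0]
  rw [integral_toReal (measurable_fl hc).aemeasurable.restrict
    (ae_restrict_of_ae (ae_fl_lt_top hY ha hc h0 hs)), lintegral_fl hc,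
    ENNReal.tsum_toReal_eq fun K => ENNReal.mul_ne_top ENNReal.ofReal_ne_top (vol_ne_top _ _ _)]
  refine tsum_congr fun K => ?_
  rw [ENNReal.toReal_mul, ENNReal.toReal_ofReal (h0 K)]

lemma summable_osc_Gt (hY : IsExteriorDomain Yᶜ) (ha : LB a)
    (h0 : ∀ K, 0 ≤ c K) (hs : Summable fun K : Cmp Y => c K * osc Y a K.1)
    (hT : MeasurableSet T) :
    Summable fun K : Cmp Y => c K * osc Y (fun z => Gt T (a z)) K.1 :=
  hs.of_nonneg_of_le (fun K => mul_nonneg (h0 K) (osc_nonneg _ _ _)) fun K =>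
    mul_le_mul_of_nonneg_left ((osc_Gt_le hY ha hT K).trans (vol_le_osc hY ha T K)) (h0 K)

/-- the charge of `G_T(a)` is at most the integral over `T` of the charges of the levels -/
theorem tsum_osc_Gt_le (hY : IsExteriorDomain Yᶜ) (ha : LB a) (hc : {K | c K ≠ 0}.Countable)
    (h0 : ∀ K, 0 ≤ c K) (hs : Summable fun K : Cmp Y => c K * osc Y a K.1)
    (hT : MeasurableSet T) :
    ∑' K, c K * osc Y (fun z => Gt T (a z)) K.1 ≤
      ∫ t in T, ∑' K : {K : Cmp Y // K.1 ⊆ Lv Y a t}, c K := by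
  rw [setIntegral_sum hY ha hc h0 hs]
  refine (summable_osc_Gt hY ha h0 hs hT).tsum_le_tsum
    (fun K => mul_le_mul_of_nonneg_left (osc_Gt_le hY ha hT K) (h0 K))
    (hs.of_nonneg_of_le (fun K => mul_nonneg (h0 K) ENNReal.toReal_nonneg) fun K =>
      mul_le_mul_of_nonneg_left (vol_le_osc hY ha T K) (h0 K))

/-- square summable weights with a square summable oscillation -/
lemma summable_mul_osc {s : Cmp Y → ℝ} (hs0 : ∀ K, 0 ≤ s K) (hs : Summable fun K => s K ^ 2)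
    (ha2 : Summable fun K : Cmp Y => osc Y a K.1 ^ 2) {χ : Cmp Y → ℝ} {M : ℝ}
    (hχ : ∀ K, |χ K| ≤ M) : Summable fun K : Cmp Y => |χ K| * s K * osc Y a K.1 := by
  have hM : 0 ≤ M ∨ IsEmpty (Cmp Y) := by
    by_cases h : Nonempty (Cmp Y)
    · exact Or.inl ((abs_nonneg _).trans (hχ h.some))
    · exact Or.inr (not_nonempty_iff.1 h)
  rcases hM with hM | hM
  · refine ((hs.add ha2).mul_left M).of_nonneg_of_le
      (fun K => mul_nonneg (mul_nonneg (abs_nonneg _) (hs0 K)) (osc_nonneg _ _ _)) fun K => ?_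
    have h1 : s K * osc Y a K.1 ≤ s K ^ 2 + osc Y a K.1 ^ 2 := by
      nlinarith [sq_nonneg (s K - osc Y a K.1), sq_nonneg (s K), sq_nonneg (osc Y a K.1)]
    have h2 : 0 ≤ s K * osc Y a K.1 := mul_nonneg (hs0 K) (osc_nonneg _ _ _)
    calc |χ K| * s K * osc Y a K.1 = |χ K| * (s K * osc Y a K.1) := by ring
      _ ≤ M * (s K * osc Y a K.1) := mul_le_mul_of_nonneg_right (hχ K) h2
      _ ≤ M * (s K ^ 2 + osc Y a K.1 ^ 2) := mul_le_mul_of_nonneg_left h1 hM
  · exact (hasSum_empty).summable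

lemma countable_of_sq {s : Cmp Y → ℝ} (hs : Summable fun K => s K ^ 2) :
    {K | s K ≠ 0}.Countable := by
  refine hs.countable_support.mono fun K hK => ?_
  exact pow_ne_zero 2 hK

end

end Crest.Agent.R105.Gos_6
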