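import Mathlib

/-!
# Row 105, S0138 (T-frame): abstract greedy sequence for a symmetric relation (helper901)

(S) of helper459's text (NULL IMAGE carrier): `R` a symmetric reflexive relation on the admissible
functions `X0`, `Sw` the switched ones, `T` the functional, bounded below.  We construct
`u : ℕ → X`, all switched, pairwise related, each `u n` minimises `T` up to `ε n` over the
commutant `A = {b ∈ X0 | ∀ n, R (u n) b}` (in which it lies).  With a midpoint and a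
parallelogram inequality the sequence is Cauchy with explicit rate.
-/

set_option autoImplicit false

open Set Filter Topology

namespace Crest.Agent.R105.Gr_901

variable {X : Type*}

/-- a finite list of switched admissible functions, pairwise related -/
structure Good (R : X → X → Prop) (Sw : Set X) (l : List X) : Prop where
  sw : ∀ x ∈ l, x ∈ Sw
  rel : ∀ x ∈ l, ∀ y ∈ l, R x y

/-- the commutant of a sequence inside `X0` -/
def Com (R : X → X → Prop) (X0 : Set X) (u : ℕ → X) : Set X := {b | b ∈ X0 ∧ ∀ n, R (u n) b}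

/-- **one step**: near minimiser over the commutant of a finite list, switched -/
lemma step {R : X → X → Prop} {X0 Sw : Set X} {T : X → ℝ} {m : ℝ}
    (hT : ∀ b ∈ X0, m ≤ T b) (hsw : Sw ⊆ X0) (hne : Sw.Nonempty)
    (hswitch : ∀ b ∈ X0, ∃ b' ∈ Sw, T b' ≤ T b ∧ ∀ a ∈ Sw, R a b → R a b')
    {l : List X} (hl : Good R Sw l) {e : ℝ} (he : 0 < e) :
    ∃ y ∈ Sw, (∀ x ∈ l, R x y) ∧ ∀ b ∈ X0, (∀ x ∈ l, R x b) → T y ≤ T b + e := by
  set A : Set X := {b | b ∈ X0 ∧ ∀ x ∈ l, R x b} with hA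
  have hAne : A.Nonempty := by
    rcases l with _ | ⟨x, l⟩
    · obtain ⟨x, hx⟩ := hne
      exact ⟨x, hsw hx, by simp⟩
    · exact ⟨x, hsw (hl.sw x (by simp)), fun z hz => hl.rel z hz x (by simp)⟩
  have hbdd : BddBelow (T '' A) := ⟨m, by rintro _ ⟨b, hb, rfl⟩; exact hT b hb.1⟩
  obtain ⟨_, ⟨b, hb, rfl⟩, hlt⟩ := exists_lt_of_csInf_lt (hAne.image T)
    (show sInf (T '' A) < sInf (T '' A) + e by linarith)
  obtain ⟨y, hy, hTy, hR⟩ := hswitch b hb.1
  refine ⟨y, hy, fun x hx => hR x (hl.sw x hx) (hb.2 x hx), fun c hc hc' => ?_⟩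
  have : sInf (T '' A) ≤ T c := csInf_le hbdd ⟨c, ⟨hc, hc'⟩, rfl⟩
  linarith

/-- **(S), greedy sequence.** -/
theorem exists_greedy {R : X → X → Prop} {X0 Sw : Set X} {T : X → ℝ} {m : ℝ}
    (hT : ∀ b ∈ X0, m ≤ T b) (hsw : Sw ⊆ X0) (hne : Sw.Nonempty)
    (hrefl : ∀ a ∈ Sw, R a a) (hsymm : ∀ a ∈ Sw, ∀ b ∈ Sw, R a b → R b a)
    (hswitch : ∀ b ∈ X0, ∃ b' ∈ Sw, T b' ≤ T b ∧ ∀ a ∈ Sw, R a b → R a b')
    {e : ℕ → ℝ} (he : ∀ n, 0 < e n) :
    ∃ u : ℕ → X, (∀ n, u n ∈ Sw) ∧ (∀ i j, R (u i) (u j)) ∧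
      ∀ n, ∀ b ∈ X0, (∀ i < n, R (u i) b) → T (u n) ≤ T b + e n := by
  classical
  have hex : ∀ l : List X, ∀ n : ℕ, ∃ y : X, Good R Sw l →
      y ∈ Sw ∧ (∀ x ∈ l, R x y) ∧ ∀ b ∈ X0, (∀ x ∈ l, R x b) → T y ≤ T b + e n := by
    intro l n
    by_cases hl : Good R Sw l
    · obtain ⟨y, h1, h2, h3⟩ := step hT hsw hne hswitch hl (he n)
      exact ⟨y, fun _ => ⟨h1, h2, h3⟩⟩
    · exact ⟨hne.some, fun h => absurd h hl⟩
  choose nxt hnxt using hex
  let L : ℕ → List X := fun n => Nat.rec [] (fun k l => nxt l k :: l) n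
  have hL0 : L 0 = [] := rfl
  have hLs : ∀ n, L (n + 1) = nxt (L n) n :: L n := fun n => rfl
  have hgood : ∀ n, Good R Sw (L n) := by
    intro n
    induction n with
    | zero => rw [hL0]; exact ⟨by simp, by simp⟩
    | succ n ih =>
      obtain ⟨h1, h2, -⟩ := hnxt (L n) n ih
      rw [hLs]
      constructor
      · intro x hx
        rcases List.mem_cons.1 hx with rfl | hx
        · exact h1
        · exact ih.sw x hx
      · intro x hx y hy
        rcases List.mem_cons.1 hx with rfl | hx <;> rcases List.mem_cons.1 hy with rfl | hy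
        · exact hrefl _ h1
        · exact hsymm _ (ih.sw y hy) _ h1 (h2 y hy)
        · exact h2 x hx
        · exact ih.rel x hx y hy
  have hmem : ∀ n, ∀ x, x ∈ L n ↔ ∃ i < n, nxt (L i) i = x := by
    intro n
    induction n with
    | zero => intro x; rw [hL0]; simp
    | succ n ih =>
      intro x
      rw [hLs, List.mem_cons, ih]
      constructor
      · rintro (rfl | ⟨i, hi, rfl⟩)
        · exact ⟨n, n.lt_succ_self, rfl⟩
        · exact ⟨i, hi.trans n.lt_succ_self, rfl⟩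
      · rintro ⟨i, hi, rfl⟩
        rcases Nat.lt_succ_iff_lt_or_eq.1 hi with h | rfl
        · exact Or.inr ⟨i, h, rfl⟩
        · exact Or.inl rfl
  refine ⟨fun n => nxt (L n) n, fun n => (hnxt (L n) n (hgood n)).1, fun i j => ?_,
    fun n b hb h => ?_⟩
  · have h1 : nxt (L i) i ∈ L (max i j + 1) := (hmem _ _).2 ⟨i, Nat.lt_succ_of_le (le_max_left i j), rfl⟩
    have h2 : nxt (L j) j ∈ L (max i j + 1) := (hmem _ _).2 ⟨j, Nat.lt_succ_of_le (le_max_right i j), rfl⟩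
    exact (hgood (max i j + 1)).rel _ h1 _ h2
  · refine (hnxt (L n) n (hgood n)).2.2 b hb fun x hx => ?_
    obtain ⟨i, hi, rfl⟩ := (hmem n x).1 hx
    exact h i hi

/-- the terms of the greedy sequence lie in its commutant and minimise there up to `e n` -/
lemma mem_com {R : X → X → Prop} {X0 Sw : Set X} {u : ℕ → X} (hsw : Sw ⊆ X0)
    (h1 : ∀ n, u n ∈ Sw) (h2 : ∀ i j, R (u i) (u j)) (n : ℕ) : u n ∈ Com R X0 u :=
  ⟨hsw (h1 n), fun i => h2 i n⟩

lemma le_of_mem_com {R : X → X → Prop} {X0 : Set X} {T : X → ℝ} {u : ℕ → X} {e : ℕ → ℝ}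
    (h3 : ∀ n, ∀ b ∈ X0, (∀ i < n, R (u i) b) → T (u n) ≤ T b + e n) {b : X}
    (hb : b ∈ Com R X0 u) (n : ℕ) : T (u n) ≤ T b + e n :=
  h3 n b hb.1 fun i _ => hb.2 i

/-- **Cauchy rate from the parallelogram inequality** (`d a b` = squared distance) -/
lemma dist_le {R : X → X → Prop} {X0 Sw : Set X} {T : X → ℝ} {u : ℕ → X} {e : ℕ → ℝ}
    {mid : X → X → X} {d : X → X → ℝ} (hsw : Sw ⊆ X0)
    (h1 : ∀ n, u n ∈ Sw) (h2 : ∀ i j, R (u i) (u j))
    (h3 : ∀ n, ∀ b ∈ X0, (∀ i < n, R (u i) b) → T (u n) ≤ T b + e n)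
    (hmid0 : ∀ a ∈ X0, ∀ b ∈ X0, mid a b ∈ X0)
    (hmid : ∀ a ∈ Sw, ∀ b ∈ X0, ∀ c ∈ X0, R a b → R a c → R a (mid b c))
    (hpar : ∀ a ∈ X0, ∀ b ∈ X0, T (mid a b) + d a b / 4 ≤ (T a + T b) / 2)
    (i j : ℕ) : d (u i) (u j) ≤ 4 * e i + 2 * e j := by
  have hi := hsw (h1 i)
  have hj := hsw (h1 j)
  have hm : mid (u i) (u j) ∈ Com R X0 u :=
    ⟨hmid0 _ hi _ hj, fun k => hmid _ (h1 k) _ hi _ hj (h2 k i) (h2 k j)⟩
  have h4 := le_of_mem_com h3 hm i
  have h5 := le_of_mem_com h3 (mem_com hsw h1 h2 i) j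
  have h6 := hpar _ hi _ hj
  linarith

/-- the values of `T` along the greedy sequence converge to the infimum over the commutant -/
lemma tendsto_T {R : X → X → Prop} {X0 Sw : Set X} {T : X → ℝ} {u : ℕ → X} {e : ℕ → ℝ} {m : ℝ}
    (hT : ∀ b ∈ X0, m ≤ T b) (hsw : Sw ⊆ X0)
    (h1 : ∀ n, u n ∈ Sw) (h2 : ∀ i j, R (u i) (u j))
    (h3 : ∀ n, ∀ b ∈ X0, (∀ i < n, R (u i) b) → T (u n) ≤ T b + e n)
    (he : Tendsto e atTop (𝓝 0)) :
    Tendsto (fun n => T (u n)) atTop (𝓝 (sInf (T '' Com R X0 u))) := by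
  have hbdd : BddBelow (T '' Com R X0 u) := ⟨m, by rintro _ ⟨b, hb, rfl⟩; exact hT b hb.1⟩
  have hne : (T '' Com R X0 u).Nonempty := ⟨_, _, mem_com hsw h1 h2 0, rfl⟩
  refine tendsto_of_tendsto_of_tendsto_of_le_of_le (tendsto_const_nhds)
    (by simpa using (tendsto_const_nhds (x := sInf (T '' Com R X0 u))).add he)
    (fun n => csInf_le hbdd ⟨_, mem_com hsw h1 h2 n, rfl⟩) fun n => ?_
  have : T (u n) - e n ≤ sInf (T '' Com R X0 u) :=
    le_csInf hne (by rintro _ ⟨b, hb, rfl⟩; linarith [le_of_mem_com h3 hb n])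
  show T (u n) ≤ sInf (T '' Com R X0 u) + e n
  linarith

/-- the parallelogram inequality for `x ↦ E x + Σ (o k x)²` with `E` a quadratic form part and
`o k` nonnegative, midpoint convex: the numerical lemma behind `hpar` -/
lemma sq_mid {a b c : ℝ} (ha : 0 ≤ c) (h : c ≤ (a + b) / 2) :
    c ^ 2 + (a - b) ^ 2 / 4 ≤ (a ^ 2 + b ^ 2) / 2 := by
  have : c ^ 2 ≤ ((a + b) / 2) ^ 2 := by gcongr
  nlinarith

end Crest.Agent.R105.Gr_901
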