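import Mathlib

/-!
# Row 105, S0138 (T-frame, 459 #9956 (S)): abstract greedy selection for a symmetric relation

* `greedy` : `N` a relation on `α`, symmetric and reflexive on the class `C`, `T` bounded below on
  `C`, `S` the switched elements, every `b ∈ C` can be replaced by `b' ∈ C ∩ S` with
  `T b' ≤ T b` and `N a b → N a b'` for `a ∈ C ∩ S`.  Then there is a sequence `u n ∈ C ∩ S`,
  pairwise related, with `T (u n) → m` and `m ≤ T b` for all `b ∈ C` related to all `u n`.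
* `cauchy_of_parallelogram` : if the commutant is midpoint convex and
  `T (mid a b) + q a b ≤ (T a + T b) / 2` then `q (u n) (u m) → 0`.
* `l2_limit` : an `ℓ²` Cauchy sequence of square summable families has an `ℓ²` limit, uniformly
  small tails.
-/

set_option autoImplicit false

open Filter Topology Set

namespace Crest.Agent.R105.Grd_782

noncomputable section

section Greedy

variable {α : Type*} (N : α → α → Prop) (T : α → ℝ) (C S : Set α) (u0 : α)

/-- one greedy step -/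
def GoodStep (l : List α) (b : α) : Prop :=
  b ∈ C ∧ b ∈ S ∧ (∀ a ∈ l, N a b) ∧
    ∀ b' ∈ C, (∀ a ∈ l, N a b') → T b ≤ T b' + (1 / 2 : ℝ) ^ l.length

open Classical in
/-- the chosen next element -/
def step (l : List α) : α :=
  if h : ∃ b, GoodStep N T C S l b then h.choose else u0

/-- the lists `[u n, …, u 0]` -/
def lst : ℕ → List α
  | 0 => [u0]
  | n + 1 => step N T C S u0 (lst n) :: lst n

/-- the greedy sequence -/
def sq : ℕ → α
  | 0 => u0
  | n + 1 => step N T C S u0 (lst N T C S u0 n)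

lemma length_lst (n : ℕ) : (lst N T C S u0 n).length = n + 1 := by
  induction n with
  | zero => rfl
  | succ n ih => simp [lst, ih]

lemma mem_lst (n : ℕ) (a : α) : a ∈ lst N T C S u0 n ↔ ∃ k ≤ n, a = sq N T C S u0 k := by
  induction n with
  | zero =>
    simp only [lst, List.mem_singleton, Nat.le_zero]
    constructor
    · rintro rfl; exact ⟨0, rfl, rfl⟩
    · rintro ⟨k, rfl, h⟩; exact h
  | succ n ih =>
    simp only [lst, List.mem_cons, ih]
    constructor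
    · rintro (h | ⟨k, hk, h⟩)
      · exact ⟨n + 1, le_rfl, h⟩
      · exact ⟨k, hk.trans (Nat.le_succ n), h⟩
    · rintro ⟨k, hk, h⟩
      rcases Nat.lt_or_ge k (n + 1) with h1 | h1
      · exact Or.inr ⟨k, Nat.lt_succ_iff.1 h1, h⟩
      · have : k = n + 1 := le_antisymm hk h1
        subst this
        exact Or.inl h

variable {N T C S u0}

/-- the hypotheses of the greedy selection -/
structure Hyp (N : α → α → Prop) (T : α → ℝ) (C S : Set α) (u0 : α) : Prop where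
  mem : u0 ∈ C
  sw : u0 ∈ S
  symm : ∀ a ∈ C, ∀ b ∈ C, N a b → N b a
  refl : ∀ a ∈ C, N a a
  bdd : ∃ M, ∀ a ∈ C, M ≤ T a
  switch : ∀ b ∈ C, ∃ b' ∈ C, b' ∈ S ∧ T b' ≤ T b ∧ ∀ a ∈ C, a ∈ S → N a b → N a b'

lemma exists_goodStep (h : Hyp N T C S u0) (l : List α) (hl : ∀ a ∈ l, a ∈ C ∧ a ∈ S)
    {b0 : α} (hb0 : b0 ∈ C) (hb0' : ∀ a ∈ l, N a b0) : ∃ b, GoodStep N T C S l b := by
  classical
  set A : Set ℝ := {t | ∃ b ∈ C, (∀ a ∈ l, N a b) ∧ T b = t} with hA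
  have hne : A.Nonempty := ⟨T b0, b0, hb0, hb0', rfl⟩
  obtain ⟨M, hM⟩ := h.bdd
  have hbd : BddBelow A := ⟨M, by rintro _ ⟨b, hb, -, rfl⟩; exact hM b hb⟩
  have hε : (0 : ℝ) < (1 / 2 : ℝ) ^ l.length := by positivity
  obtain ⟨_, ⟨b, hb, hbl, rfl⟩, hlt⟩ := exists_lt_of_csInf_lt hne (lt_add_of_pos_right (sInf A) hε)
  obtain ⟨b', hb', hbS, hT, hN⟩ := h.switch b hb
  refine ⟨b', hb', hbS, fun a ha => hN a (hl a ha).1 (hl a ha).2 (hbl a ha), fun c hc hcl => ?_⟩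
  have h1 : sInf A ≤ T c := csInf_le hbd ⟨c, hc, hcl, rfl⟩
  linarith

lemma step_spec (h : Hyp N T C S u0) (l : List α) (hl : ∀ a ∈ l, a ∈ C ∧ a ∈ S)
    {b0 : α} (hb0 : b0 ∈ C) (hb0' : ∀ a ∈ l, N a b0) : GoodStep N T C S l (step N T C S u0 l) := by
  have he := exists_goodStep h l hl hb0 hb0'
  unfold step
  rw [dif_pos he]
  exact he.choose_spec

lemma sq_spec (h : Hyp N T C S u0) (n : ℕ) :
    (∀ k ≤ n, sq N T C S u0 k ∈ C ∧ sq N T C S u0 k ∈ S) ∧
    (∀ i ≤ n, ∀ j ≤ n, i ≤ j → N (sq N T C S u0 i) (sq N T C S u0 j)) ∧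
    GoodStep N T C S (lst N T C S u0 n) (sq N T C S u0 (n + 1)) := by
  induction n with
  | zero =>
    have h0 : ∀ k ≤ 0, sq N T C S u0 k ∈ C ∧ sq N T C S u0 k ∈ S := by
      intro k hk; obtain rfl : k = 0 := Nat.le_zero.1 hk; exact ⟨h.mem, h.sw⟩
    refine ⟨h0, ?_, ?_⟩
    · intro i hi j hj _
      obtain rfl : i = 0 := Nat.le_zero.1 hi
      obtain rfl : j = 0 := Nat.le_zero.1 hj
      exact h.refl _ h.mem
    · refine step_spec h _ ?_ h.mem ?_
      · intro a ha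
        obtain ⟨k, hk, rfl⟩ := (mem_lst N T C S u0 0 a).1 ha
        exact h0 k hk
      · intro a ha
        obtain ⟨k, hk, rfl⟩ := (mem_lst N T C S u0 0 a).1 ha
        obtain rfl : k = 0 := Nat.le_zero.1 hk
        exact h.refl _ h.mem
  | succ n ih =>
    obtain ⟨h1, h2, h3⟩ := ih
    have h1' : ∀ k ≤ n + 1, sq N T C S u0 k ∈ C ∧ sq N T C S u0 k ∈ S := by
      intro k hk
      rcases Nat.lt_or_ge k (n + 1) with hlt | hge
      · exact h1 k (Nat.lt_succ_iff.1 hlt)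
      · obtain rfl : k = n + 1 := le_antisymm hk hge
        exact ⟨h3.1, h3.2.1⟩
    have h2' : ∀ i ≤ n + 1, ∀ j ≤ n + 1, i ≤ j → N (sq N T C S u0 i) (sq N T C S u0 j) := by
      intro i hi j hj hij
      rcases Nat.lt_or_ge j (n + 1) with hlt | hge
      · exact h2 i (hij.trans (Nat.lt_succ_iff.1 hlt)) j (Nat.lt_succ_iff.1 hlt) hij
      · obtain rfl : j = n + 1 := le_antisymm hj hge
        rcases Nat.lt_or_ge i (n + 1) with hlt | hge'
        · exact h3.2.2.1 _ ((mem_lst N T C S u0 n _).2 ⟨i, Nat.lt_succ_iff.1 hlt, rfl⟩)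
        · obtain rfl : i = n + 1 := le_antisymm hi hge'
          exact h.refl _ h3.1
    refine ⟨h1', h2', ?_⟩
    refine step_spec h _ ?_ (b0 := sq N T C S u0 (n + 1)) h3.1 ?_
    · intro a ha
      obtain ⟨k, hk, rfl⟩ := (mem_lst N T C S u0 (n + 1) a).1 ha
      exact h1' k hk
    · intro a ha
      obtain ⟨k, hk, rfl⟩ := (mem_lst N T C S u0 (n + 1) a).1 ha
      exact h2' k hk (n + 1) le_rfl hk

/-- **the greedy sequence** -/
theorem greedy (h : Hyp N T C S u0) :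
    ∃ (u : ℕ → α) (m : ℝ), u 0 = u0 ∧ (∀ n, u n ∈ C ∧ u n ∈ S) ∧ (∀ i j, N (u i) (u j)) ∧
      Tendsto (fun n => T (u n)) atTop (𝓝 m) ∧ (∀ n, m ≤ T (u n)) ∧
      ∀ b ∈ C, (∀ i, N (u i) b) → m ≤ T b := by
  set u := sq N T C S u0 with hu
  have hmem : ∀ n, u n ∈ C ∧ u n ∈ S := fun n => (sq_spec h n).1 n le_rfl
  have hN : ∀ i j, N (u i) (u j) := by
    intro i j
    rcases le_total i j with hij | hij
    · exact (sq_spec h j).2.1 i hij j le_rfl hij
    · exact h.symm _ (hmem j).1 _ (hmem i).1 ((sq_spec h i).2.1 j hij i le_rfl hij)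
  set A : Set ℝ := {t | ∃ b ∈ C, (∀ i, N (u i) b) ∧ T b = t} with hA
  obtain ⟨M, hM⟩ := h.bdd
  have hbd : BddBelow A := ⟨M, by rintro _ ⟨b, hb, -, rfl⟩; exact hM b hb⟩
  have hle : ∀ b ∈ C, (∀ i, N (u i) b) → sInf A ≤ T b := fun b hb hb' => csInf_le hbd ⟨b, hb, hb', rfl⟩
  have hne : A.Nonempty := ⟨T (u 0), u 0, (hmem 0).1, fun i => hN i 0, rfl⟩
  have hupper : ∀ n, T (u (n + 1)) ≤ sInf A + (1 / 2 : ℝ) ^ (n + 1) := by
    intro n
    have h1 : T (u (n + 1)) - (1 / 2 : ℝ) ^ (n + 1) ≤ sInf A := by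
      refine le_csInf hne ?_
      rintro _ ⟨b, hb, hb', rfl⟩
      have h2 := (sq_spec h n).2.2.2.2.2 b hb (fun a ha => by
        obtain ⟨k, _, rfl⟩ := (mem_lst N T C S u0 n a).1 ha
        exact hb' k)
      rw [length_lst] at h2
      linarith
    linarith
  refine ⟨u, sInf A, rfl, hmem, hN, ?_, fun n => hle _ (hmem n).1 fun i => hN i n, hle⟩
  rw [← tendsto_add_atTop_iff_nat 1]
  refine tendsto_of_tendsto_of_tendsto_of_le_of_le (tendsto_const_nhds (x := sInf A)) ?_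
    (fun n => hle _ (hmem _).1 fun i => hN i _) hupper
  have h3 : Tendsto (fun n : ℕ => (1 / 2 : ℝ) ^ (n + 1)) atTop (𝓝 0) :=
    (tendsto_pow_atTop_nhds_zero_of_lt_one (by norm_num) (by norm_num)).comp (tendsto_add_atTop_nat 1)
  simpa using h3.const_add (sInf A)

end Greedy

section Parallelogram

variable {α : Type*}

/-- near minimisers are Cauchy for every quantity controlled by the parallelogram inequality -/
theorem cauchy_of_parallelogram {T : α → ℝ} {m : ℝ} {u : ℕ → α} {mid : α → α → α} {q : α → α → ℝ}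
    (hT : Tendsto (fun n => T (u n)) atTop (𝓝 m)) (hm : ∀ i j, m ≤ T (mid (u i) (u j)))
    (hq : ∀ i j, T (mid (u i) (u j)) + q (u i) (u j) ≤ (T (u i) + T (u j)) / 2) :
    ∀ ε > 0, ∃ n₀, ∀ i ≥ n₀, ∀ j ≥ n₀, q (u i) (u j) ≤ ε := by
  intro ε hε
  obtain ⟨n₀, hn₀⟩ := (hT.eventually (gt_mem_nhds (lt_add_of_pos_right m hε))).exists_forall_of_atTop
  refine ⟨n₀, fun i hi j hj => ?_⟩
  have h1 := hn₀ i hi
  have h2 := hn₀ j hj
  have h3 := hm i j
  have h4 := hq i j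
  linarith

/-- `ℓ²` completeness for families -/
theorem l2_limit {ι : Type*} {s : ℕ → ι → ℝ} (hs : ∀ n, Summable fun k => s n k ^ 2)
    (hc : ∀ ε > 0, ∃ n₀, ∀ i ≥ n₀, ∀ j ≥ n₀, ∑' k, (s i k - s j k) ^ 2 ≤ ε) :
    ∃ σ : ι → ℝ, (Summable fun k => σ k ^ 2) ∧ (∀ k, Tendsto (fun n => s n k) atTop (𝓝 (σ k))) ∧
      (∀ n, Summable fun k => (s n k - σ k) ^ 2) ∧
      Tendsto (fun n => ∑' k, (s n k - σ k) ^ 2) atTop (𝓝 0) := by
  classical
  have hmem : ∀ n, Memℓp (s n) 2 := fun n => by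
    rw [memℓp_gen_iff (by norm_num)]
    simpa using hs n
  set f : ℕ → lp (fun _ : ι => ℝ) 2 := fun n => ⟨s n, hmem n⟩ with hf
  have hnorm : ∀ g : lp (fun _ : ι => ℝ) 2, ‖g‖ ^ 2 = ∑' k, (g k) ^ 2 := by
    intro g
    have := lp.norm_rpow_eq_tsum (p := 2) (by norm_num) g
    simpa using this
  have hcau : CauchySeq f := by
    rw [Metric.cauchySeq_iff']
    intro ε hε
    obtain ⟨n₀, hn₀⟩ := hc (ε ^ 2 / 2) (by positivity)
    refine ⟨n₀, fun n hn => ?_⟩
    rw [dist_eq_norm]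
    have h1 : ‖f n - f n₀‖ ^ 2 ≤ ε ^ 2 / 2 := by
      rw [hnorm]
      exact hn₀ n hn n₀ le_rfl
    have h2 : ‖f n - f n₀‖ ^ 2 < ε ^ 2 := lt_of_le_of_lt h1 (by nlinarith [sq_pos_of_pos hε])
    exact lt_of_pow_lt_pow_left₀ 2 hε.le h2
  obtain ⟨g, hg⟩ := cauchySeq_tendsto_of_complete hcau
  have hsumm : ∀ g : lp (fun _ : ι => ℝ) 2, Summable fun k => (g k) ^ 2 := by
    intro g
    have := (memℓp_gen_iff (by norm_num : (0 : ℝ) < (2 : ENNReal).toReal)).1 (lp.memℓp g)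
    simpa using this
  refine ⟨fun k => g k, hsumm g, fun k => ?_, fun n => hsumm (f n - g), ?_⟩
  · have h1 : Tendsto (fun n => ‖f n - g‖) atTop (𝓝 0) := tendsto_iff_norm_sub_tendsto_zero.1 hg
    rw [tendsto_iff_norm_sub_tendsto_zero]
    refine squeeze_zero (fun n => norm_nonneg _) (fun n => ?_) h1
    exact lp.norm_apply_le_norm (by norm_num) (f n - g) k
  · have h1 : Tendsto (fun n => ‖f n - g‖) atTop (𝓝 0) := tendsto_iff_norm_sub_tendsto_zero.1 hg
    have h2 := h1.pow 2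
    simp only [ne_eq, OfNat.ofNat_ne_zero, not_false_eq_true, zero_pow] at h2
    refine h2.congr fun n => ?_
    rw [hnorm]
    rfl

/-- uniform smallness of tails of `∑ s_n s_m` off a finite set -/
theorem tail_small {ι : Type*} {s : ℕ → ι → ℝ} {σ : ι → ℝ} (hs : ∀ n, Summable fun k => s n k ^ 2)
    (hσ : Summable fun k => σ k ^ 2) (hd : ∀ n, Summable fun k => (s n k - σ k) ^ 2)
    (h0 : Tendsto (fun n => ∑' k, (s n k - σ k) ^ 2) atTop (𝓝 0)) {ε : ℝ} (hε : 0 < ε) :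
    ∃ (F : Finset ι) (n₀ : ℕ), ∀ n ≥ n₀, ∀ A : Set ι, Disjoint A (F : Set ι) →
      ∑' k : A, s n k ^ 2 ≤ ε := by
  classical
  obtain ⟨F, hF⟩ := (hσ.tsum_vanishing (Metric.ball_mem_nhds (0 : ℝ) (show (0 : ℝ) < ε / 4 by positivity)))
  obtain ⟨n₀, hn₀⟩ := (h0.eventually (gt_mem_nhds (show (0 : ℝ) < ε / 4 by positivity))).exists_forall_of_atTop
  refine ⟨F, n₀, fun n hn A hA => ?_⟩
  have h1 : ∑' k : A, σ k ^ 2 < ε / 4 := by
    have := hF A hA
    rw [Metric.mem_ball, Real.dist_eq, sub_zero] at this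
    exact (le_abs_self _).trans_lt this
  have h2 : ∑' k : A, (s n k - σ k) ^ 2 ≤ ∑' k, (s n k - σ k) ^ 2 :=
    (hd n).tsum_subtype_le (fun k => (s n k - σ k) ^ 2) A (fun k => sq_nonneg _)
  have h3 := hn₀ n hn
  have h4 : ∑' k : A, s n k ^ 2 ≤ ∑' k : A, (2 * σ k ^ 2 + 2 * (s n k - σ k) ^ 2) := by
    refine Summable.tsum_le_tsum (fun k => ?_) ((hs n).subtype A)
      (((hσ.subtype A).mul_left 2).add (((hd n).subtype A).mul_left 2))
    nlinarith [sq_nonneg (s n k - 2 * σ k)]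
  have h5 : ∑' k : A, (2 * σ k ^ 2 + 2 * (s n k - σ k) ^ 2) =
      2 * ∑' k : A, σ k ^ 2 + 2 * ∑' k : A, (s n k - σ k) ^ 2 := by
    have e1 : Summable fun k : A => 2 * σ k ^ 2 := (hσ.subtype A).mul_left 2
    have e2 : Summable fun k : A => 2 * (s n k - σ k) ^ 2 := ((hd n).subtype A).mul_left 2
    rw [Summable.tsum_add e1 e2, tsum_mul_left, tsum_mul_left]
  linarith

end Parallelogram

end

end Crest.Agent.R105.Grd_782
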