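import Crest.Agent.R105.Grd1_782
import Crest.Agent.R105.Tc1_808

/-!
# Row 105, S0138 (T-frame, 459 #9956 (S)): parallelogram inequality for `ET`, greedy package

* `ET_mid` : `ET ((u+v)/2) + ¼ ∫ en (u-v) + ¼ Σ (osc u - osc v)² ≤ (ET u + ET v)/2`
* `greedyTT` : the greedy sequence of `Grd1_782.greedy` for `T = ET + ℓ` on a class of `TT`
  functions whose commutants are midpoint convex: energies of differences are Cauchy, the
  oscillations converge in `ℓ²` to some `σ`, with uniformly small tails.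
-/

set_option autoImplicit false

open MeasureTheory Set Filter Topology Metric
open scoped NNReal ENNReal

namespace Crest.Agent.R105.Grd_782

open Bd_775 Ends_897 Tc_808

noncomputable section

variable {Y : Set ℂ} {u v : ℂ → ℝ}

/-- the midpoint of two functions -/
def mid (u v : ℂ → ℝ) : ℂ → ℝ := fun z => (1 / 2 : ℝ) * (u z + v z)

lemma Q_smul (hY : IsClosed Y) (c : ℝ) (hu : Q Y u) : Q Y (fun z => c * u z) :=
  (Q.const Y c).mul hY hu

lemma TT_smul (hY : IsClosed Y) (c : ℝ) (hu : TT Y u) : TT Y (fun z => c * u z) :=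
  (TT.const c).mul hY hu

lemma TT_mid (hY : IsClosed Y) (hu : TT Y u) (hv : TT Y v) : TT Y (mid u v) :=
  TT_smul hY _ (hu.add hY hv)

lemma TT_sub (hY : IsClosed Y) (hu : TT Y u) (hv : TT Y v) : TT Y (fun z => u z - v z) := by
  have h := hu.add hY (TT_smul hY (-1) hv)
  have he : (fun z => u z - v z) = fun z => u z + -1 * v z := by funext z; ring
  rw [he]; exact h

lemma osc_smul_le (hb : ∃ M, ∀ z, |u z| ≤ M) {K : Set ℂ} (c : ℝ) :
    osc Y (fun z => c * u z) K ≤ |c| * osc Y u K := by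
  have hL : LipschitzWith (Real.toNNReal |c|) fun t : ℝ => c * t := by
    refine LipschitzWith.of_dist_le_mul fun x y => ?_
    rw [Real.dist_eq, Real.dist_eq, ← mul_sub, abs_mul, Real.coe_toNNReal _ (abs_nonneg c)]
  have h := osc_comp_le (Y := Y) (K := K) hb hL
  rwa [Real.coe_toNNReal _ (abs_nonneg c)] at h

lemma osc_mid_le (hu : ∃ M, ∀ z, |u z| ≤ M) (hv : ∃ M, ∀ z, |v z| ≤ M) {K : Set ℂ} :
    osc Y (mid u v) K ≤ (osc Y u K + osc Y v K) / 2 := by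
  have hs : ∃ M, ∀ z, |u z + v z| ≤ M := by
    obtain ⟨M, hM⟩ := hu
    obtain ⟨N, hN⟩ := hv
    exact ⟨M + N, fun z => (abs_add_le _ _).trans (add_le_add (hM z) (hN z))⟩
  have h1 := osc_smul_le (Y := Y) (K := K) hs (1 / 2)
  have h2 := osc_add_le (Y := Y) (K := K) hu hv
  rw [abs_of_pos (by norm_num : (0 : ℝ) < 1 / 2)] at h1
  unfold mid
  linarith

/-- pointwise parallelogram law -/
lemma en_mid {z : ℂ} (hu : DifferentiableAt ℝ u z) (hv : DifferentiableAt ℝ v z) :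
    en (mid u v) z + (1 / 4) * en (fun w => u w - v w) z = (en u z + en v z) / 2 := by
  have hs : DifferentiableAt ℝ (fun w => u w + v w) z := hu.add hv
  have hc : DifferentiableAt ℝ (fun _ : ℂ => (1 / 2 : ℝ)) z := differentiableAt_const _
  have h1 : gx (mid u v) z = (1 / 2) * (gx u z + gx v z) := by
    unfold mid
    rw [gx_mul hc hs, gx_const, gx_add hu hv]; ring
  have h2 : gy (mid u v) z = (1 / 2) * (gy u z + gy v z) := by
    unfold mid
    rw [gy_mul hc hs, gy_const, gy_add hu hv]; ring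
  unfold en
  rw [h1, h2, gx_sub hu hv, gy_sub hu hv]
  ring

lemma int_en_mid (hY : IsClosed Y) (hu : Q Y u) (hv : Q Y v) :
    (∫ z in Yᶜ, en (mid u v) z) + (1 / 4) * (∫ z in Yᶜ, en (fun w => u w - v w) z) =
      ((∫ z in Yᶜ, en u z) + ∫ z in Yᶜ, en v z) / 2 := by
  have hm : Q Y (mid u v) := Q_smul hY _ (hu.add hY hv)
  have hd : Q Y (fun w => u w - v w) := hu.sub hY hv
  rw [← integral_const_mul, ← integral_add hm.fin (hd.fin.const_mul _), ← integral_add hu.fin hv.fin,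
    ← integral_div]
  refine integral_congr_ae ?_
  filter_upwards [hu.ae_diff hY, hv.ae_diff hY] with z h1 h2
  exact en_mid h1 h2

lemma summable_sq_sub {ι : Type*} {a b : ι → ℝ} (ha : Summable fun k => a k ^ 2)
    (hb : Summable fun k => b k ^ 2) : Summable fun k => (a k - b k) ^ 2 := by
  refine Summable.of_nonneg_of_le (fun k => sq_nonneg _) (fun k => ?_)
    ((ha.mul_left 2).add (hb.mul_left 2))
  nlinarith [sq_nonneg (a k + b k)]

/-- **the parallelogram inequality for the `T`-energy** -/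
theorem ET_mid (hY : IsClosed Y) (hu : TT Y u) (hv : TT Y v) :
    ET Y (mid u v) + ((1 / 4) * (∫ z in Yᶜ, en (fun w => u w - v w) z) +
      (1 / 4) * ∑' K : Cmp Y, (osc Y u K.1 - osc Y v K.1) ^ 2) ≤ (ET Y u + ET Y v) / 2 := by
  have h1 := int_en_mid hY hu.q hv.q
  have hs := summable_sq_sub hu.sum hv.sum
  have h2 : (∑' K : Cmp Y, osc Y (mid u v) K.1 ^ 2) +
      (1 / 4) * (∑' K : Cmp Y, (osc Y u K.1 - osc Y v K.1) ^ 2) ≤
      ((∑' K : Cmp Y, osc Y u K.1 ^ 2) + ∑' K : Cmp Y, osc Y v K.1 ^ 2) / 2 := by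
    rw [← tsum_mul_left, ← Summable.tsum_add (TT_mid hY hu hv).sum (hs.mul_left _),
      ← Summable.tsum_add hu.sum hv.sum, ← tsum_div_const]
    refine Summable.tsum_le_tsum (fun K => ?_) ((TT_mid hY hu hv).sum.add (hs.mul_left _))
      ((hu.sum.add hv.sum).div_const 2)
    have h3 := osc_mid_le (Y := Y) (K := K.1) hu.q.bdd hv.q.bdd
    have h4 := osc_nonneg Y (mid u v) K.1
    nlinarith [osc_nonneg Y u K.1, osc_nonneg Y v K.1]
  unfold ET
  linarith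

/-- **greedy package in the class `TT`** -/
theorem greedyTT (hY : IsClosed Y) {N : (ℂ → ℝ) → (ℂ → ℝ) → Prop} {C S : Set (ℂ → ℝ)}
    {ℓ : (ℂ → ℝ) → ℝ} {u0 : ℂ → ℝ} (hC : ∀ a ∈ C, TT Y a)
    (hℓ : ∀ a ∈ C, ∀ b ∈ C, ℓ (mid a b) = (ℓ a + ℓ b) / 2)
    (hmid : ∀ a ∈ C, ∀ b ∈ C, mid a b ∈ C)
    (hN : ∀ a ∈ C, a ∈ S → ∀ b ∈ C, ∀ b' ∈ C, N a b → N a b' → N a (mid b b'))
    (h : Hyp N (fun a => ET Y a + ℓ a) C S u0) :
    ∃ (u : ℕ → ℂ → ℝ) (m : ℝ) (σ : Cmp Y → ℝ), u 0 = u0 ∧ (∀ n, u n ∈ C ∧ u n ∈ S) ∧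
      (∀ i j, N (u i) (u j)) ∧ Tendsto (fun n => ET Y (u n) + ℓ (u n)) atTop (𝓝 m) ∧
      (∀ b ∈ C, (∀ i, N (u i) b) → m ≤ ET Y b + ℓ b) ∧
      (∀ ε > 0, ∃ n₀, ∀ i ≥ n₀, ∀ j ≥ n₀, ∫ z in Yᶜ, en (fun w => u i w - u j w) z ≤ ε) ∧
      (Summable fun K => σ K ^ 2) ∧ (∀ K, Tendsto (fun n => osc Y (u n) K.1) atTop (𝓝 (σ K))) ∧
      Tendsto (fun n => ∑' K : Cmp Y, (osc Y (u n) K.1 - σ K) ^ 2) atTop (𝓝 0) ∧
      (∀ ε > 0, ∃ (F : Finset (Cmp Y)) (n₀ : ℕ), ∀ n ≥ n₀, ∀ A : Set (Cmp Y),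
        Disjoint A (F : Set (Cmp Y)) → ∑' K : A, osc Y (u n) K.1.1 ^ 2 ≤ ε) := by
  obtain ⟨u, m, hu0, hmem, hNN, hlim, -, hmin⟩ := greedy h
  set q : (ℂ → ℝ) → (ℂ → ℝ) → ℝ := fun a b =>
    (1 / 4) * (∫ z in Yᶜ, en (fun w => a w - b w) z) +
      (1 / 4) * ∑' K : Cmp Y, (osc Y a K.1 - osc Y b K.1) ^ 2 with hq
  have hC' : ∀ n, TT Y (u n) := fun n => hC _ (hmem n).1
  have hmidA : ∀ i j, m ≤ ET Y (mid (u i) (u j)) + ℓ (mid (u i) (u j)) := fun i j =>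
    hmin _ (hmid _ (hmem i).1 _ (hmem j).1) fun k =>
      hN _ (hmem k).1 (hmem k).2 _ (hmem i).1 _ (hmem j).1 (hNN k i) (hNN k j)
  have hpar : ∀ i j, (ET Y (mid (u i) (u j)) + ℓ (mid (u i) (u j))) + q (u i) (u j) ≤
      ((ET Y (u i) + ℓ (u i)) + (ET Y (u j) + ℓ (u j))) / 2 := by
    intro i j
    have h1 := ET_mid hY (hC' i) (hC' j)
    rw [hℓ _ (hmem i).1 _ (hmem j).1]
    simp only [hq]
    linarith
  have hcau := cauchy_of_parallelogram (T := fun a => ET Y a + ℓ a) (mid := mid) (q := q) hlim hmidA hpar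
  have hI0 : ∀ a b : ℂ → ℝ, 0 ≤ ∫ z in Yᶜ, en (fun w => a w - b w) z := fun a b =>
    integral_nonneg fun z => en_nonneg _ _
  have hS0 : ∀ a b : ℂ → ℝ, 0 ≤ ∑' K : Cmp Y, (osc Y a K.1 - osc Y b K.1) ^ 2 := fun a b =>
    tsum_nonneg fun K => sq_nonneg _
  obtain ⟨σ, hσ, hσlim, hd, hσ0⟩ := l2_limit (s := fun n (K : Cmp Y) => osc Y (u n) K.1)
    (fun n => (hC' n).sum) (fun ε hε => by
      obtain ⟨n₀, hn₀⟩ := hcau (ε / 4) (by positivity)
      refine ⟨n₀, fun i hi j hj => ?_⟩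
      have h1 := hn₀ i hi j hj
      simp only [hq] at h1
      linarith [hI0 (u i) (u j)])
  refine ⟨u, m, σ, hu0, hmem, hNN, hlim, hmin, fun ε hε => ?_, hσ, hσlim, hσ0, fun ε hε => ?_⟩
  · obtain ⟨n₀, hn₀⟩ := hcau (ε / 4) (by positivity)
    refine ⟨n₀, fun i hi j hj => ?_⟩
    have h1 := hn₀ i hi j hj
    simp only [hq] at h1
    linarith [hS0 (u i) (u j)]
  · exact tail_small (fun n => (hC' n).sum) hσ hd hσ0 hε

end

end Crest.Agent.R105.Grd_782
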