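import Mathlib

/-!
# Row 105 (S0138), helper660: the curve `x ↦ (l x, F x)`, `l` measurable, `F` monotone, is a null set

(for part (i) of `STRP StrQ`, 46 #10920)
-/

set_option autoImplicit false

open MeasureTheory Set Filter Topology

namespace Crest.Agent.R105.Grf_660

/-- graphs of measurable functions of the first coordinate are null -/
theorem graph_null' {g : ℝ → ℝ} (hg : Measurable g) :
    volume {p : ℝ × ℝ | p.2 = g p.1} = 0 := by
  have hm : MeasurableSet {p : ℝ × ℝ | p.2 = g p.1} :=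
    measurableSet_eq_fun measurable_snd (hg.comp measurable_fst)
  rw [Measure.volume_eq_prod, Measure.measure_prod_null hm]
  refine ae_of_all _ fun x => ?_
  have : Prod.mk x ⁻¹' {p : ℝ × ℝ | p.2 = g p.1} = {g x} := by
    ext y; simp
  show volume (Prod.mk x ⁻¹' {p : ℝ × ℝ | p.2 = g p.1}) = 0
  rw [this]
  simp

/-- graphs of measurable functions of the second coordinate are null -/
theorem graph_null {g : ℝ → ℝ} (hg : Measurable g) :
    volume {p : ℝ × ℝ | p.1 = g p.2} = 0 := by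
  have he : {p : ℝ × ℝ | p.1 = g p.2} =
      (MeasurableEquiv.prodComm : ℝ × ℝ ≃ᵐ ℝ × ℝ) ⁻¹' {p : ℝ × ℝ | p.2 = g p.1} := by
    ext p; rfl
  have hm : MeasurePreserving (MeasurableEquiv.prodComm : ℝ × ℝ ≃ᵐ ℝ × ℝ) volume volume :=
    Measure.measurePreserving_swap
  rw [he, hm.measure_preimage_equiv, graph_null' hg]

/-- horizontal lines over a countable set -/
theorem lines_null {S : Set ℝ} (hS : S.Countable) : volume {p : ℝ × ℝ | p.2 ∈ S} = 0 := by
  have : {p : ℝ × ℝ | p.2 ∈ S} = univ ×ˢ S := by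
    ext p; simp
  rw [this, Measure.volume_eq_prod, Measure.prod_prod, hS.measure_zero, mul_zero]

/-- the inverse of an antitone function on `[-n, n]` -/
noncomputable def inv (F : ℝ → ℝ) (n : ℝ) (s : ℝ) : ℝ :=
  sSup (insert (-n) {y | -n ≤ y ∧ y ≤ n ∧ s ≤ F y})

theorem bdd (F : ℝ → ℝ) {n : ℝ} (hn : 0 ≤ n) (s : ℝ) :
    BddAbove (insert (-n) {y | -n ≤ y ∧ y ≤ n ∧ s ≤ F y}) := by
  refine ⟨n, ?_⟩
  rintro y (rfl | hy)
  · linarith
  · exact hy.2.1

theorem inv_eq {F : ℝ → ℝ} (hF : Antitone F) {n x : ℝ} (h1 : -n ≤ x) (h2 : x ≤ n)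
    (hx : ∀ y, F y = F x → y = x) : inv F n (F x) = x := by
  have hn : 0 ≤ n := by linarith
  refine le_antisymm (csSup_le ⟨x, Or.inr ⟨h1, h2, le_rfl⟩⟩ ?_)
    (le_csSup (bdd F hn _) (Or.inr ⟨h1, h2, le_rfl⟩))
  rintro y (rfl | ⟨-, -, h3⟩)
  · exact h1
  · by_contra hcon
    push Not at hcon
    exact absurd (hx y (le_antisymm (hF hcon.le) h3)) hcon.ne'

theorem antitone_inv (F : ℝ → ℝ) {n : ℝ} (hn : 0 ≤ n) : Antitone (inv F n) := by
  intro s t hst
  refine csSup_le_csSup (bdd F hn _) ⟨-n, Or.inl rfl⟩ ?_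
  rintro y (rfl | ⟨h1, h2, h3⟩)
  · exact Or.inl rfl
  · exact Or.inr ⟨h1, h2, hst.trans h3⟩

/-- **the curve `x ↦ (l x, F x)` is null**, `l` measurable, `F` antitone (any set of parameters) -/
theorem curve_null {l F : ℝ → ℝ} (hl : Measurable l) (hF : Antitone F) :
    volume {p : ℝ × ℝ | ∃ x, l x = p.1 ∧ F x = p.2} = 0 := by
  set S : Set ℝ := range fun q : ℚ => F q with hS
  have hSc : S.Countable := countable_range _
  have hsub : {p : ℝ × ℝ | ∃ x, l x = p.1 ∧ F x = p.2} ⊆
      {p : ℝ × ℝ | p.2 ∈ S} ∪ ⋃ n : ℕ, {p : ℝ × ℝ | p.1 = (l ∘ inv F n) p.2} := by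
    rintro p ⟨x, h1, h2⟩
    by_cases hp : p.2 ∈ S
    · exact Or.inl hp
    · right
      obtain ⟨n, hn⟩ := exists_nat_ge |x|
      refine mem_iUnion.2 ⟨n, ?_⟩
      have hx : ∀ y, F y = F x → y = x := by
        intro y hy
        by_contra hne
        refine hp ?_
        rcases lt_or_gt_of_ne hne with h | h
        · obtain ⟨q, hq1, hq2⟩ := exists_rat_btwn h
          exact ⟨q, by rw [← h2]; exact le_antisymm ((hF hq1.le).trans hy.le) (hF hq2.le)⟩
        · obtain ⟨q, hq1, hq2⟩ := exists_rat_btwn h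
          exact ⟨q, by rw [← h2]; exact le_antisymm (hF hq1.le) (hy.ge.trans (hF hq2.le))⟩
      have h3 := inv_eq hF (neg_le_of_abs_le hn) ((le_abs_self x).trans hn) hx
      show p.1 = l (inv F n p.2)
      rw [← h2, h3, h1]
  refine measure_mono_null hsub (measure_union_null (lines_null hSc) (measure_iUnion_null fun n => ?_))
  exact graph_null (hl.comp (antitone_inv F (Nat.cast_nonneg n)).measurable)

/-- the same with a semicontinuous (measurable) function of the plane, read off on the level `B` -/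
theorem curve_null_level {a : ℝ × ℝ → ℝ} (ha : Measurable a) {F : ℝ → ℝ} (hF : Antitone F)
    (B : ℝ) : volume {p : ℝ × ℝ | ∃ x, a (x, B) = p.1 ∧ F x = p.2} = 0 :=
  curve_null (ha.comp (measurable_id.prodMk measurable_const)) hF

end Crest.Agent.R105.Grf_660
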