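import Crest.Agent.R105.Ni0_459

/-!
# R105 (helper41), S0138, node E13: germs of the vertical lines at a component

`E` compact, `Eᶜ` exterior domain, `K0` a component of `E`, `(t, e)` a point of `K0`.
* `near_end` : if `c' < f` on the points off `E` of the line over `t` near the height `e` on one
  side, then `c < lo f` on all components `≠ K0` which meet the line there (`c < c'`).
-/

set_option autoImplicit false

open MeasureTheory Set Filter Topology Metric
open scoped NNReal ENNReal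

namespace Crest.Agent.R105.Grm_41

open Ends_897 Tc_808 Ni_459 Crest.AnalysisR

noncomputable section

/-- finitely many components with large oscillation -/
def FinO (Y : Set ℂ) (f : ℂ → ℝ) : Prop :=
  ∀ ε > 0, {K : Cmp Y | ∃ z ∈ K.1, ε ≤ up Y f z - lo Y f z}.Finite

theorem eqm {E : Set ℂ} {K K' : Cmp E} {z : ℂ} (h : z ∈ K.1) (h' : z ∈ K'.1) : K = K' := by
  rw [K.eq_of_mem h, K'.eq_of_mem h']

/-- components off a line point: the line near an end of the section of `K0` -/
theorem near_end {E : Set ℂ} (hE : IsExteriorDomain Eᶜ) {f : ℂ → ℝ} (hf : LB f)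
    (hfin : FinO E f) {K0 : Cmp E} {t e s c c' : ℝ} (hs : s ≠ 0) (he : (⟨t, e⟩ : ℂ) ∈ K0.1)
    (hcc : c < c')
    (hev : ∃ δ > 0, ∀ v, 0 < s * (v - e) → |v - e| < δ → (⟨t, v⟩ : ℂ) ∉ E → c' < f ⟨t, v⟩) :
    ∃ δ > 0, ∀ v, 0 < s * (v - e) → |v - e| < δ →
      ((⟨t, v⟩ : ℂ) ∉ E → c' < f ⟨t, v⟩) ∧
      ∀ K : Cmp E, K ≠ K0 → (⟨t, v⟩ : ℂ) ∈ K.1 → ∀ z ∈ K.1, c < lo E f z := by
  have hEc : IsCompact E := cpt_of hE
  have hmk : Continuous fun v : ℝ => (⟨t, v⟩ : ℂ) := by
    have : (fun v : ℝ => (⟨t, v⟩ : ℂ)) = fun v : ℝ => (t : ℂ) + v * Complex.I := by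
      funext v
      apply Complex.ext <;> simp
    rw [this]; fun_prop
  obtain ⟨δ1, hδ1, h1⟩ := hev
  -- the large components stay away
  set Φ := {K : Cmp E | ∃ z ∈ K.1, c' - c ≤ up E f z - lo E f z} with hΦ
  have hΦf : Φ.Finite := hfin _ (sub_pos.2 hcc)
  obtain ⟨δ2, hδ2, h2⟩ : ∃ δ > 0, ∀ v, |v - e| < δ → ∀ K ∈ Φ, K ≠ K0 →
      (⟨t, v⟩ : ℂ) ∉ K.1 := by
    have hcl : IsClosed (⋃ K ∈ Φ \ {K0}, K.1) :=
      (hΦf.subset diff_subset).isClosed_biUnion fun K _ =>
        (K.isCompact hEc).isClosed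
    have hne : (⟨t, e⟩ : ℂ) ∉ ⋃ K ∈ Φ \ {K0}, K.1 := by
      simp only [mem_iUnion, not_exists]
      rintro K ⟨-, hK⟩ hmem
      exact hK (eqm hmem he)
    have hop : IsOpen {v : ℝ | (⟨t, v⟩ : ℂ) ∉ ⋃ K ∈ Φ \ {K0}, K.1} :=
      hcl.isOpen_compl.preimage hmk
    obtain ⟨δ, hδ, hsub⟩ := Metric.isOpen_iff.1 hop e hne
    refine ⟨δ, hδ, fun v hv K hK hKK hmem => ?_⟩
    have h3 : v ∈ ball e δ := by rw [mem_ball, Real.dist_eq]; exact hv
    exact hsub h3 (mem_biUnion (show K ∈ Φ \ {K0} from ⟨hK, hKK⟩) hmem)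
  refine ⟨min δ1 δ2, lt_min hδ1 hδ2, fun v hv hvd => ⟨h1 v hv (hvd.trans_le (min_le_left _ _)),
    fun K hKK hvK z hz => ?_⟩⟩
  have hKΦ : K ∉ Φ := fun hK => h2 v (hvd.trans_le (min_le_right _ _)) K hK hKK hvK
  -- the section of `K`
  set J : Set ℝ := {v : ℝ | (⟨t, v⟩ : ℂ) ∈ K.1} with hJ
  have hKc : IsCompact K.1 := K.isCompact hEc
  have hJcl : IsClosed J := hKc.isClosed.preimage hmk
  have heJ : e ∉ J := fun hc => hKK (eqm (z := ⟨t, e⟩) hc he)
  -- the point of `J` next to `e`
  obtain ⟨p, ⟨hpJ, hpI⟩, hpmin⟩ : ∃ p ∈ J ∩ uIcc e v, ∀ w ∈ J ∩ uIcc e v, |p - e| ≤ |w - e| := by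
    have hc : IsCompact (J ∩ uIcc e v) := isCompact_uIcc.inter_left hJcl
    have hcont : ContinuousOn (fun w : ℝ => |w - e|) (J ∩ uIcc e v) := by fun_prop
    obtain ⟨p, hp, hmin⟩ := hc.exists_isMinOn ⟨v, hvK, right_mem_uIcc⟩ hcont
    exact ⟨p, hp, fun w hw => hmin hw⟩
  have hpe : p ≠ e := fun hc => heJ (hc ▸ hpJ)
  have hup : c' ≤ up E f z := by
    by_contra hcon
    push Not at hcon
    obtain ⟨O', hO, h3⟩ := exists_lt_of_up_lt hE hf hcon
    have hLO' : K.1 ⊆ O' := by
      have : connectedComponentIn E z = K.1 := by rw [K.eq_of_mem hz]; rfl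
      rw [← this]; exact hO.sub
    have hO' := hO.op
    -- points between `e` and `p` near `p`
    have hop : IsOpen {w : ℝ | (⟨t, w⟩ : ℂ) ∈ O'} := hO'.preimage hmk
    obtain ⟨η, hη, hsub⟩ := Metric.isOpen_iff.1 hop p (hLO' hpJ)
    set d := p - e with hd
    have hd0 : d ≠ 0 := sub_ne_zero.2 hpe
    -- the direction towards `e`
    obtain ⟨r, hr0, hr1, hrη⟩ : ∃ r : ℝ, 0 < r ∧ r < 1 ∧ r * |d| < η := by
      refine ⟨min (1/2) (η / (2 * |d|)), lt_min (by norm_num) (by positivity),
        (min_le_left _ _).trans_lt (by norm_num), ?_⟩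
      have hdp : 0 < |d| := abs_pos.2 hd0
      calc min (1/2) (η / (2 * |d|)) * |d| ≤ η / (2 * |d|) * |d| :=
            mul_le_mul_of_nonneg_right (min_le_right _ _) hdp.le
        _ = η / 2 := by field_simp
        _ < η := by linarith
    -- a `V`-point on the open segment
    have hex : ∃ r' ∈ Ioo 0 r, (⟨t, p - r' * d⟩ : ℂ) ∉ E := by
      by_contra hno
      push Not at hno
      -- then the segment belongs to the component
      set S : Set ℂ := (fun r' : ℝ => (⟨t, p - r' * d⟩ : ℂ)) '' Ico 0 r with hS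
      have hSpc : IsPreconnected S := by
        refine isPreconnected_Ico.image _ ?_
        exact (hmk.comp (by fun_prop : Continuous fun r' : ℝ => p - r' * d)).continuousOn
      have hSV : S ⊆ E := by
        rintro _ ⟨r', hr', rfl⟩
        rcases eq_or_lt_of_le hr'.1 with h0 | h0
        · rw [← h0]
          simp only [zero_mul, sub_zero]
          exact K.subset hpJ
        · exact hno r' ⟨h0, hr'.2⟩
      have hpS : (⟨t, p⟩ : ℂ) ∈ S := ⟨0, ⟨le_rfl, hr0⟩, by simp⟩
      have hSK : S ⊆ K.1 := by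
        have e1 : connectedComponentIn E (⟨t, p⟩ : ℂ) = K.1 := by rw [K.eq_of_mem hpJ]; rfl
        rw [← e1]
        exact hSpc.subset_connectedComponentIn hpS hSV
      have hmid : p - r / 2 * d ∈ J := hSK ⟨r / 2, ⟨by linarith, by linarith⟩, rfl⟩
      have hmidI : p - r / 2 * d ∈ uIcc e v := by
        have hconv : Convex ℝ (uIcc e v) := convex_uIcc e v
        have e1 : p - r / 2 * d = (1 - r / 2) • p + (r / 2) • e := by
          simp only [smul_eq_mul, hd]; ring
        rw [e1]
        exact hconv hpI left_mem_uIcc (by linarith) (by linarith) (by ring)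
      have h5 := hpmin _ ⟨hmid, hmidI⟩
      have e2 : p - r / 2 * d - e = (1 - r / 2) * d := by rw [hd]; ring
      rw [e2, abs_mul, abs_of_pos (by linarith : (0:ℝ) < 1 - r / 2)] at h5
      have hdp : 0 < |d| := abs_pos.2 hd0
      nlinarith
    obtain ⟨r', hr', hrV⟩ := hex
    set w := p - r' * d with hw
    have hwe : w - e = (1 - r') * d := by rw [hw, hd]; ring
    have hr'1 : 0 < 1 - r' := by linarith [hr'.2]
    -- `p` is on the right side
    have hsp : 0 < s * (p - e) := by
      rcases lt_or_gt_of_ne hpe with hlt | hgt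
      · -- `p < e`
        have hve : v < e := by
          by_contra hcon
          push Not at hcon
          rw [uIcc_of_le hcon] at hpI
          exact absurd hpI.1 (not_le.2 hlt)
        have hs0 : s < 0 := by
          by_contra hcon
          push Not at hcon
          nlinarith
        nlinarith
      · have hve : e < v := by
          by_contra hcon
          push Not at hcon
          rw [uIcc_of_ge hcon] at hpI
          exact absurd hpI.2 (not_le.2 hgt)
        have hs0 : 0 < s := by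
          by_contra hcon
          push Not at hcon
          nlinarith
        nlinarith
    have hws : 0 < s * (w - e) := by
      rw [hwe]
      have : s * ((1 - r') * d) = (1 - r') * (s * d) := by ring
      rw [this]
      exact mul_pos hr'1 hsp
    have hpv : |p - e| ≤ |v - e| := hpmin v ⟨hvK, right_mem_uIcc⟩
    have hwd : |w - e| < δ1 := by
      rw [hwe, abs_mul, abs_of_pos hr'1]
      have h6 : (1 - r') * |d| ≤ 1 * |d| :=
        mul_le_mul_of_nonneg_right (by linarith [hr'.1]) (abs_nonneg _)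
      have h7 := hvd.trans_le (min_le_left δ1 δ2)
      linarith
    have h8 := h1 w hws hwd hrV
    have h9 : (⟨t, w⟩ : ℂ) ∈ O' := by
      have : w ∈ ball p η := by
        rw [mem_ball, Real.dist_eq]
        have : w - p = -(r' * d) := by rw [hw]; ring
        rw [this, abs_neg, abs_mul, abs_of_pos hr'.1]
        have : r' * |d| ≤ r * |d| := mul_le_mul_of_nonneg_right hr'.2.le (abs_nonneg _)
        linarith
      exact hsub this
    have h11 := h3 _ h9 hrV
    exact lt_asymm h8 h11
  have hsm : up E f z - lo E f z < c' - c := by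
    by_contra hcon
    push Not at hcon
    exact hKΦ ⟨z, hz, hcon⟩
  linarith

end

end Crest.Agent.R105.Grm_41
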