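import Mathlib

/-!
# R105 SQR (1): plane sets all of whose vertical sections are intervals (helper185)

`sec K t = {y | t + i y ∈ K}`.  For a closed set `K` all of whose vertical sections are
order connected, the part of the plane off `K` (over the projection) splits into the open
parts above and below `K`; any other compact connected set with interval sections is, over an
interval, entirely above or entirely below.
-/

set_option autoImplicit false

open Set Filter Topology MeasureTheory Metric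

namespace Crest.Agent.R105.Sqr_185

/-- vertical section -/
def sec (K : Set ℂ) (t : ℝ) : Set ℝ := {y | (⟨t, y⟩ : ℂ) ∈ K}

lemma mem_sec {K : Set ℂ} {t y : ℝ} : y ∈ sec K t ↔ (⟨t, y⟩ : ℂ) ∈ K := Iff.rfl

lemma mem_sec_re {K : Set ℂ} {p : ℂ} : p.im ∈ sec K p.re ↔ p ∈ K := Iff.rfl

lemma continuous_mk : Continuous fun q : ℝ × ℝ => (⟨q.1, q.2⟩ : ℂ) :=
  Complex.equivRealProdCLM.symm.continuous

lemma continuous_mk_right (t : ℝ) : Continuous fun y : ℝ => (⟨t, y⟩ : ℂ) :=
  continuous_mk.comp (by fun_prop : Continuous fun y : ℝ => (t, y))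

lemma isClosed_sec {K : Set ℂ} (hK : IsClosed K) (t : ℝ) : IsClosed (sec K t) :=
  hK.preimage (continuous_mk_right t)

lemma isCompact_sec {K : Set ℂ} (hK : IsCompact K) (t : ℝ) : IsCompact (sec K t) := by
  have h1 : sec K t ⊆ Complex.im '' K := fun y hy => ⟨⟨t, y⟩, hy, rfl⟩
  exact (hK.image Complex.continuous_im).of_isClosed_subset (isClosed_sec hK.isClosed t) h1

/-- the points strictly above `K` (no condition if the section is empty) -/
def above (K : Set ℂ) : Set ℂ := {p | ∀ y ∈ sec K p.re, y < p.im}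

/-- the points strictly below `K` -/
def below (K : Set ℂ) : Set ℂ := {p | ∀ y ∈ sec K p.re, p.im < y}

lemma isOpen_above {K : Set ℂ} (hK : IsCompact K) : IsOpen (above K) := by
  rw [← isClosed_compl_iff]
  -- the complement is closed: sequences
  rw [← isSeqClosed_iff_isClosed]
  intro p q hp hpq
  have h1 : ∀ n, ∃ y ∈ sec K (p n).re, (p n).im ≤ y := by
    intro n
    have := hp n
    simp only [above, mem_compl_iff, mem_ofPred_eq, not_forall, not_lt] at this
    obtain ⟨y, hy, h⟩ := this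
    exact ⟨y, hy, h⟩
  choose y hy hle using h1
  have hz : ∀ n, (⟨(p n).re, y n⟩ : ℂ) ∈ K := hy
  obtain ⟨z, hzK, φ, hφ, hlim⟩ := hK.tendsto_subseq hz
  have hlim' : Tendsto (fun n => (⟨(p (φ n)).re, y (φ n)⟩ : ℂ)) atTop (𝓝 z) := hlim
  have hre : z.re = q.re := by
    have a1 : Tendsto (fun n => (p (φ n)).re) atTop (𝓝 z.re) := by
      have h5 := (Complex.continuous_re.tendsto z).comp hlim'
      exact h5
    have a2 : Tendsto (fun n => (p (φ n)).re) atTop (𝓝 q.re) :=
      (Complex.continuous_re.tendsto q).comp (hpq.comp hφ.tendsto_atTop)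
    exact tendsto_nhds_unique a1 a2
  have him : q.im ≤ z.im := by
    have a1 : Tendsto (fun n => y (φ n)) atTop (𝓝 z.im) :=
      (Complex.continuous_im.tendsto z).comp hlim'
    have a2 : Tendsto (fun n => (p (φ n)).im) atTop (𝓝 q.im) :=
      (Complex.continuous_im.tendsto q).comp (hpq.comp hφ.tendsto_atTop)
    exact le_of_tendsto_of_tendsto' a2 a1 (fun n => hle (φ n))
  simp only [above, mem_compl_iff, mem_ofPred_eq, not_forall, not_lt]
  refine ⟨z.im, ?_, him⟩
  show (⟨q.re, z.im⟩ : ℂ) ∈ K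
  rw [← hre]
  exact hzK

lemma isOpen_below {K : Set ℂ} (hK : IsCompact K) : IsOpen (below K) := by
  rw [← isClosed_compl_iff]
  rw [← isSeqClosed_iff_isClosed]
  intro p q hp hpq
  have h1 : ∀ n, ∃ y ∈ sec K (p n).re, y ≤ (p n).im := by
    intro n
    have := hp n
    simp only [below, mem_compl_iff, mem_ofPred_eq, not_forall, not_lt] at this
    obtain ⟨y, hy, h⟩ := this
    exact ⟨y, hy, h⟩
  choose y hy hle using h1
  have hz : ∀ n, (⟨(p n).re, y n⟩ : ℂ) ∈ K := hy
  obtain ⟨z, hzK, φ, hφ, hlim⟩ := hK.tendsto_subseq hz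
  have hlim' : Tendsto (fun n => (⟨(p (φ n)).re, y (φ n)⟩ : ℂ)) atTop (𝓝 z) := hlim
  have hre : z.re = q.re := by
    have a1 : Tendsto (fun n => (p (φ n)).re) atTop (𝓝 z.re) := by
      have h5 := (Complex.continuous_re.tendsto z).comp hlim'
      exact h5
    have a2 : Tendsto (fun n => (p (φ n)).re) atTop (𝓝 q.re) :=
      (Complex.continuous_re.tendsto q).comp (hpq.comp hφ.tendsto_atTop)
    exact tendsto_nhds_unique a1 a2
  have him : z.im ≤ q.im := by
    have a1 : Tendsto (fun n => y (φ n)) atTop (𝓝 z.im) :=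
      (Complex.continuous_im.tendsto z).comp hlim'
    have a2 : Tendsto (fun n => (p (φ n)).im) atTop (𝓝 q.im) :=
      (Complex.continuous_im.tendsto q).comp (hpq.comp hφ.tendsto_atTop)
    exact le_of_tendsto_of_tendsto' a1 a2 (fun n => hle (φ n))
  simp only [below, mem_compl_iff, mem_ofPred_eq, not_forall, not_lt]
  refine ⟨z.im, ?_, him⟩
  show (⟨q.re, z.im⟩ : ℂ) ∈ K
  rw [← hre]
  exact hzK

/-- off `K` every point is above or below -/
lemma above_or_below {K : Set ℂ} (hK : ∀ t, OrdConnected (sec K t)) {p : ℂ} (hp : p ∉ K) :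
    p ∈ above K ∨ p ∈ below K := by
  by_contra hcon
  push Not at hcon
  obtain ⟨h1, h2⟩ := hcon
  simp only [above, below, mem_ofPred_eq, not_forall, not_lt] at h1 h2
  obtain ⟨y1, hy1, h1⟩ := h1
  obtain ⟨y2, hy2, h2⟩ := h2
  exact hp (mem_sec_re.1 ((hK p.re).out hy2 hy1 ⟨h2, h1⟩))

lemma above_disjoint_below {K : Set ℂ} {p : ℂ} (hne : (sec K p.re).Nonempty)
    (h1 : p ∈ above K) (h2 : p ∈ below K) : False := by
  obtain ⟨y, hy⟩ := hne
  exact absurd (h1 y hy) (not_lt.2 (h2 y hy).le)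

lemma not_mem_of_above {K : Set ℂ} {p : ℂ} (h1 : p ∈ above K) : p ∉ K := fun h =>
  lt_irrefl _ (h1 p.im (mem_sec_re.2 h))

lemma not_mem_of_below {K : Set ℂ} {p : ℂ} (h1 : p ∈ below K) : p ∉ K := fun h =>
  lt_irrefl _ (h1 p.im (mem_sec_re.2 h))

/-- projection to the real axis restricted to a compact set: connected fibres + connected
projection give a connected part over any interval. -/
theorem isPreconnected_strip {K : Set ℂ} (hK : IsCompact K) (hKc : IsPreconnected K)
    (hs : ∀ t, OrdConnected (sec K t)) {I : Set ℝ} (hI : OrdConnected I) :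
    IsPreconnected (K ∩ Complex.re ⁻¹' I) := by
  -- it suffices to treat compact intervals
  have key : ∀ a b : ℝ, IsPreconnected (K ∩ Complex.re ⁻¹' (Icc a b)) := by
    intro a b
    have hcpt : IsCompact (K ∩ Complex.re ⁻¹' (Icc a b)) :=
      hK.inter_right (isClosed_Icc.preimage Complex.continuous_re)
    rw [isPreconnected_closed_iff]
    intro A B hA hB hcov hneA hneB
    by_contra hcon
    rw [not_nonempty_iff_eq_empty] at hcon
    set S := K ∩ Complex.re ⁻¹' (Icc a b) with hS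
    -- fibres are on one side
    have hfib : ∀ t ∈ Icc a b, ∀ p ∈ S, ∀ q ∈ S, p.re = t → q.re = t → p ∈ A → q ∈ B → False := by
      intro t ht p hp q hq hpt hqt hpA hqB
      have hcon1 : IsPreconnected ((fun y : ℝ => (⟨t, y⟩ : ℂ)) '' (sec K t)) :=
        ((hs t).isPreconnected).image _ (continuous_mk_right t).continuousOn
      have hsub : ((fun y : ℝ => (⟨t, y⟩ : ℂ)) '' (sec K t)) ⊆ S := by
        rintro _ ⟨y, hy, rfl⟩
        exact ⟨hy, ht⟩
      have hpm : p ∈ ((fun y : ℝ => (⟨t, y⟩ : ℂ)) '' (sec K t)) :=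
        ⟨p.im, by show (⟨t, p.im⟩ : ℂ) ∈ K; rw [← hpt]; exact hp.1, by
          show (⟨t, p.im⟩ : ℂ) = p
          rw [← hpt]⟩
      have hqm : q ∈ ((fun y : ℝ => (⟨t, y⟩ : ℂ)) '' (sec K t)) :=
        ⟨q.im, by show (⟨t, q.im⟩ : ℂ) ∈ K; rw [← hqt]; exact hq.1, by
          show (⟨t, q.im⟩ : ℂ) = q
          rw [← hqt]⟩
      have h3 := isPreconnected_closed_iff.1 hcon1 A B hA hB (hsub.trans hcov) ⟨p, hpm, hpA⟩
        ⟨q, hqm, hqB⟩
      obtain ⟨z, hz, hzAB⟩ := h3
      have : z ∈ S ∩ (A ∩ B) := ⟨hsub hz, hzAB⟩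
      rw [hcon] at this
      exact this
    -- projection of the two parts
    have hPA : IsCompact (Complex.re '' (S ∩ A)) :=
      (hcpt.inter_right hA).image Complex.continuous_re
    have hPB : IsCompact (Complex.re '' (S ∩ B)) :=
      (hcpt.inter_right hB).image Complex.continuous_re
    have hproj : IsPreconnected (Complex.re '' S) := by
      have h1 : Complex.re '' S = (Complex.re '' K) ∩ Icc a b := by
        ext t
        constructor
        · rintro ⟨p, hp, rfl⟩
          exact ⟨⟨p, hp.1, rfl⟩, hp.2⟩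
        · rintro ⟨⟨p, hp, rfl⟩, ht⟩
          exact ⟨p, ⟨hp, ht⟩, rfl⟩
      rw [h1]
      have h2 : OrdConnected (Complex.re '' K) :=
        (hKc.image _ Complex.continuous_re.continuousOn).ordConnected
      exact (h2.inter ordConnected_Icc).isPreconnected
    have h4 := isPreconnected_closed_iff.1 hproj _ _ hPA.isClosed hPB.isClosed (by
      rintro t ⟨p, hp, rfl⟩
      rcases hcov hp with h | h
      · exact Or.inl ⟨p, ⟨hp, h⟩, rfl⟩
      · exact Or.inr ⟨p, ⟨hp, h⟩, rfl⟩) (by
      obtain ⟨p, hp, hpA⟩ := hneA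
      exact ⟨p.re, ⟨p, hp, rfl⟩, ⟨p, ⟨hp, hpA⟩, rfl⟩⟩) (by
      obtain ⟨p, hp, hpA⟩ := hneB
      exact ⟨p.re, ⟨p, hp, rfl⟩, ⟨p, ⟨hp, hpA⟩, rfl⟩⟩)
    obtain ⟨t, _, ⟨p, hp, hpt⟩, ⟨q, hq, hqt⟩⟩ := h4
    exact hfib t (by rw [← hpt]; exact hp.1.2) p hp.1 q hq.1 hpt hqt hp.2 hq.2
  rw [isPreconnected_iff_subset_of_disjoint_closed] at *
  intro A B hA hB hcov hdisj
  by_contra hcon
  push Not at hcon
  obtain ⟨h1, h2⟩ := hcon
  rw [not_subset] at h1 h2
  obtain ⟨p, hp, hpA⟩ := h1
  obtain ⟨q, hq, hqB⟩ := h2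
  have hpB : p ∈ B := (hcov hp).resolve_left hpA
  have hqA : q ∈ A := (hcov hq).resolve_right hqB
  have hsubI : Icc (min p.re q.re) (max p.re q.re) ⊆ I := by
    rcases le_total p.re q.re with h | h
    · rw [min_eq_left h, max_eq_right h]; exact hI.out hp.2 hq.2
    · rw [min_eq_right h, max_eq_left h]; exact hI.out hq.2 hp.2
  have hk := key (min p.re q.re) (max p.re q.re)
  rw [isPreconnected_closed_iff] at hk
  obtain ⟨z, hz, hzAB⟩ := hk A B hA hB
    (fun z hz => hcov ⟨hz.1, hsubI hz.2⟩)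
    ⟨q, ⟨hq.1, ⟨min_le_right _ _, le_max_right _ _⟩⟩, hqA⟩
    ⟨p, ⟨hp.1, ⟨min_le_left _ _, le_max_left _ _⟩⟩, hpB⟩
  have : z ∈ (K ∩ Complex.re ⁻¹' I) ∩ (A ∩ B) := ⟨⟨hz.1, hsubI hz.2⟩, hzAB⟩
  rw [hdisj] at this
  exact this

/-- another compact connected set with interval sections, disjoint from `K`, is over the
projection of `K` on one side of `K`. -/
theorem side_of_disjoint {K L : Set ℂ} (hK : IsCompact K) (hKs : ∀ t, OrdConnected (sec K t))
    (hL : IsCompact L) (hLc : IsPreconnected L) (hLs : ∀ t, OrdConnected (sec L t))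
    (hd : Disjoint K L) {I : Set ℝ} (hI : OrdConnected I) (hIK : ∀ t ∈ I, (sec K t).Nonempty) :
    (L ∩ Complex.re ⁻¹' I ⊆ above K) ∨ (L ∩ Complex.re ⁻¹' I ⊆ below K) := by
  have hpre := isPreconnected_strip hL hLc hLs hI
  have hcov : L ∩ Complex.re ⁻¹' I ⊆ above K ∪ below K := by
    intro p hp
    have hpK : p ∉ K := fun h => disjoint_left.1 hd h hp.1
    exact above_or_below hKs hpK
  refine (isPreconnected_iff_subset_of_disjoint.1 hpre) _ _ (isOpen_above hK)
    (isOpen_below hK) hcov ?_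
  rw [eq_empty_iff_forall_notMem]
  rintro p ⟨hp, h1, h2⟩
  exact above_disjoint_below (hIK p.re hp.2) h1 h2

/-- closure argument: sections containing `[b, c]` for a.e. `t` contain it for all `t`. -/
theorem rect_subset {K : Set ℂ} (hK : IsClosed K) {al be b c : ℝ} (hab : al < be)
    (h : ∀ᵐ t ∂(volume.restrict (Ioo al be)), Icc b c ⊆ sec K t) :
    ∀ t ∈ Icc al be, Icc b c ⊆ sec K t := by
  intro t ht y hy
  have hd : t ∈ closure {r | r ∈ Ioo al be ∧ Icc b c ⊆ sec K r} := by
    rw [mem_closure_iff_nhds]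
    intro U hU
    obtain ⟨V, hVU, hVo, htV⟩ := _root_.mem_nhds_iff.1 hU
    -- V ∩ Ioo al be is open nonempty
    have hne : (V ∩ Ioo al be).Nonempty := by
      have : t ∈ closure (Ioo al be) := by rwa [closure_Ioo hab.ne]
      exact mem_closure_iff.1 this V hVo htV
    have hpos : 0 < volume (V ∩ Ioo al be) :=
      (hVo.inter isOpen_Ioo).measure_pos volume hne
    rw [ae_restrict_iff' measurableSet_Ioo] at h
    by_contra hcon
    rw [not_nonempty_iff_eq_empty] at hcon
    have hz : volume (V ∩ Ioo al be) = 0 := by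
      refine measure_mono_null ?_ h
      intro r hr
      simp only [mem_compl_iff, mem_ofPred_eq, not_forall]
      refine ⟨hr.2, fun hc => ?_⟩
      have : r ∈ U ∩ {r | r ∈ Ioo al be ∧ Icc b c ⊆ sec K r} := ⟨hVU hr.1, hr.2, hc⟩
      rw [hcon] at this
      exact this
    exact hpos.ne' hz
  have hcl : IsClosed {r : ℝ | (⟨r, y⟩ : ℂ) ∈ K} :=
    hK.preimage (continuous_mk.comp (by fun_prop : Continuous fun r : ℝ => (r, y)))
  have hsub : {r | r ∈ Ioo al be ∧ Icc b c ⊆ sec K r} ⊆ {r : ℝ | (⟨r, y⟩ : ℂ) ∈ K} :=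
    fun r hr => hr.2 hy
  exact closure_minimal hsub hcl hd

end Crest.Agent.R105.Sqr_185
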