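import Crest.Agent.R105.Ni0_459
import Crest.Agent.R105.Sqr1_185

/-!
# Row 105, S0138, E13, join: GERM lemma (helper8)

`E` compact (complement of a picture), `X` continuous off `E`, only finitely many components of `E`
with jump `up - lo ≥ δ`.  Along a curve `γ` starting at a component `K0` and leaving it, if `X` has
the limit `x` at `K0` through the points off `E`, then the ENVELOPES of `X` (also at the components
met by `γ`) are close to `x` near `K0`.  So the near part of an end ray lies in one component of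
`{lo u > t1, lo x > sg}`.
-/

set_option autoImplicit false

open MeasureTheory Set Filter Topology Metric

namespace Crest.Agent.R105.Grm_8

open Crest.AnalysisR Tc_808 Ni_459

variable {E : Set ℂ} {X : ℂ → ℝ}

/-- on a curve through a component, just before the first point of the component there are points
off `E` -/
theorem exists_before {γ : ℝ → ℂ} (hγ : Continuous γ) (K : Cmp E) {r1 ε : ℝ} (hε : 0 < ε)
    (h1 : γ r1 ∈ K.1) (h2 : ∀ r ∈ Ioo (r1 - ε) r1, γ r ∉ K.1) :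
    ∃ r ∈ Ioo (r1 - ε) r1, γ r ∉ E := by
  by_contra hcon
  push Not at hcon
  have h3 : IsPreconnected (γ '' Ioc (r1 - ε) r1) :=
    isPreconnected_Ioc.image _ hγ.continuousOn
  have h4 : γ '' Ioc (r1 - ε) r1 ⊆ E := by
    rintro _ ⟨r, hr, rfl⟩
    rcases hr.2.lt_or_eq with h | h
    · exact hcon r ⟨hr.1, h⟩
    · rw [h]; exact K.subset h1
  have h5 : γ '' Ioc (r1 - ε) r1 ⊆ connectedComponentIn E (γ r1) :=
    h3.subset_connectedComponentIn ⟨r1, ⟨by linarith, le_rfl⟩, rfl⟩ h4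
  have h6 : connectedComponentIn E (γ r1) = K.1 := by
    have := K.eq_of_mem h1
    rw [this]; rfl
  have h7 : γ (r1 - ε / 2) ∈ K.1 := by
    rw [← h6]; exact h5 ⟨_, ⟨by linarith, by linarith⟩, rfl⟩
  exact h2 _ ⟨by linarith, by linarith⟩ h7

/-- **GERM LEMMA, lower envelope** -/
theorem germ_lo (hE : IsExteriorDomain Eᶜ) (hX : LB X) (hXc : ContinuousOn X Eᶜ)
    {J : Cmp E → ℝ} (hJ : ∀ K : Cmp E, ∀ z ∈ K.1, up E X z - lo E X z ≤ J K)
    (hfin : ∀ δ > 0, {K : Cmp E | δ ≤ J K}.Finite) (K0 : Cmp E) {γ : ℝ → ℂ} (hγ : Continuous γ)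
    (h0 : γ 0 ∈ K0.1) (hoff : ∀ r > 0, γ r ∉ K0.1) {x : ℝ}
    (hlim : Tendsto (fun r => X (γ r)) (𝓝[{r | γ r ∉ E} ∩ Ioi 0] 0) (𝓝 x)) {c : ℝ} (hcx : c < x) :
    ∃ η > 0, ∀ r ∈ Ioo 0 η, c < lo E X (γ r) := by
  have hEc : IsCompact E := cpt_of hE
  set δ := (x - c) / 3 with hδ
  have hδ0 : 0 < δ := by rw [hδ]; linarith
  -- the limit
  have h1 := hlim.eventually (lt_mem_nhds (show x - δ < x by linarith))
  rw [eventually_nhdsWithin_iff, Metric.eventually_nhds_iff] at h1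
  obtain ⟨η1, hη1, h1⟩ := h1
  -- the big components
  have hT : ({K : Cmp E | δ ≤ J K} \ {K0}).Finite := (hfin δ hδ0).subset diff_subset
  have hcl : IsClosed (⋃ K ∈ ({K : Cmp E | δ ≤ J K} \ {K0}), K.1) :=
    hT.isClosed_biUnion fun K _ => (K.isCompact hEc).isClosed
  have hn0 : γ 0 ∉ ⋃ K ∈ ({K : Cmp E | δ ≤ J K} \ {K0}), K.1 := by
    intro h
    obtain ⟨K, hK, hz⟩ := mem_iUnion₂.1 h
    exact hK.2 ((K.eq_of_mem hz).trans (K0.eq_of_mem h0).symm)
  have h2 : ∀ᶠ r in 𝓝 (0:ℝ), γ r ∉ ⋃ K ∈ ({K : Cmp E | δ ≤ J K} \ {K0}), K.1 :=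
    hγ.continuousAt.eventually (hcl.isOpen_compl.mem_nhds hn0)
  rw [Metric.eventually_nhds_iff] at h2
  obtain ⟨η2, hη2, h2⟩ := h2
  have hval : ∀ r ∈ Ioo 0 η1, γ r ∉ E → x - δ < X (γ r) := by
    intro r hr hrE
    exact h1 (y := r) (by rw [Real.dist_eq, sub_zero, abs_of_pos hr.1]; exact hr.2) ⟨hrE, hr.1⟩
  refine ⟨min η1 η2, lt_min hη1 hη2, fun r hr => ?_⟩
  have hr1 : r < η1 := hr.2.trans_le (min_le_left _ _)
  have hr2 : r < η2 := hr.2.trans_le (min_le_right _ _)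
  by_cases hrE : γ r ∈ E
  · -- on a component
    set K : Cmp E := Cmp.of hrE with hK
    have hrK : γ r ∈ K.1 := mem_connectedComponentIn hrE
    have hKc : IsCompact K.1 := K.isCompact hEc
    -- `K` is small
    have hKJ : J K < δ := by
      by_contra hcon
      push Not at hcon
      refine h2 (y := r) (by rw [Real.dist_eq, sub_zero, abs_of_pos hr.1]; exact hr2) ?_
      refine mem_iUnion₂.2 ⟨K, ⟨hcon, fun h => ?_⟩, hrK⟩
      exact hoff r hr.1 (h ▸ hrK)
    -- first point of `K`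
    have hne : K ≠ K0 := fun h => hoff r hr.1 (h ▸ hrK)
    have hcpt : IsCompact (Icc 0 r ∩ γ ⁻¹' K.1) :=
      isCompact_Icc.inter_right (hKc.isClosed.preimage hγ)
    have hnon : (Icc 0 r ∩ γ ⁻¹' K.1).Nonempty := ⟨r, ⟨hr.1.le, le_rfl⟩, hrK⟩
    obtain ⟨r1, ⟨hr1m, hr1K⟩, hmin⟩ := hcpt.exists_isLeast hnon
    have hr10 : 0 < r1 := by
      rcases hr1m.1.lt_or_eq with h | h
      · exact h
      · exfalso
        rw [← h] at hr1K
        exact (disjoint_left.1 (Cmp.disjoint hne)) hr1K h0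
    -- the envelope at the first point
    have hup : x - δ ≤ up E X (γ r1) := by
      by_contra hcon
      push Not at hcon
      obtain ⟨O, hO, hlt⟩ := exists_lt_of_up_lt hE hX hcon
      have h3 : ∀ᶠ s in 𝓝 r1, γ s ∈ O := hγ.continuousAt.eventually (hO.op.mem_nhds hO.mem)
      rw [Metric.eventually_nhds_iff] at h3
      obtain ⟨η3, hη3, h3⟩ := h3
      obtain ⟨s, hs, hsE⟩ := exists_before hγ K (lt_min hη3 hr10) hr1K (fun s hs hsK => by
        have h4 : 0 < s := by have := min_le_right η3 r1; linarith [hs.1]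
        have h5 := hmin ⟨⟨h4.le, hs.2.le.trans hr1m.2⟩, hsK⟩
        linarith [hs.2])
      have h4 : 0 < s := by have := min_le_right η3 r1; linarith [hs.1]
      have h5 : γ s ∈ O := h3 (by
        rw [Real.dist_eq, abs_lt]
        have := min_le_left η3 r1
        constructor <;> linarith [hs.1, hs.2])
      have h6 := hlt _ h5 hsE
      have h7 := hval s ⟨h4, by linarith [hs.2, hr1m.2]⟩ hsE
      linarith
    have hlo : x - δ - δ < lo E X (γ r1) := by
      have := hJ K _ hr1K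
      linarith
    have hcc : γ r1 ∈ connectedComponentIn E (γ r) := by
      rw [hK] at hr1K; exact hr1K
    rw [lo_congr_cc hrE hcc] at hlo
    have : c < x - δ - δ := by rw [hδ]; linarith
    exact this.trans hlo
  · have hct : ContinuousAt X (γ r) :=
      (hXc _ hrE).continuousAt (hEc.isClosed.isOpen_compl.mem_nhds hrE)
    rw [lo_of_notMem hE hX hrE hct]
    have := hval r ⟨hr.1, hr1⟩ hrE
    have : c < x - δ := by rw [hδ]; linarith
    linarith

/-- **GERM LEMMA, upper envelope** -/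
theorem germ_up (hE : IsExteriorDomain Eᶜ) (hX : LB X) (hXc : ContinuousOn X Eᶜ)
    {J : Cmp E → ℝ} (hJ : ∀ K : Cmp E, ∀ z ∈ K.1, up E X z - lo E X z ≤ J K)
    (hfin : ∀ δ > 0, {K : Cmp E | δ ≤ J K}.Finite) (K0 : Cmp E) {γ : ℝ → ℂ} (hγ : Continuous γ)
    (h0 : γ 0 ∈ K0.1) (hoff : ∀ r > 0, γ r ∉ K0.1) {x : ℝ}
    (hlim : Tendsto (fun r => X (γ r)) (𝓝[{r | γ r ∉ E} ∩ Ioi 0] 0) (𝓝 x)) {c : ℝ} (hcx : x < c) :
    ∃ η > 0, ∀ r ∈ Ioo 0 η, up E X (γ r) < c := by
  have e1 : ∀ z, up E (fun w => - X w) z = - lo E X z := fun z => by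
    unfold lo; rw [neg_neg]
  have e2 : ∀ z, lo E (fun w => - X w) z = - up E X z := fun z => by
    unfold lo; simp only [neg_neg]
  obtain ⟨η, hη, h⟩ := germ_lo (X := fun w => - X w) hE hX.neg hXc.neg (J := J)
    (fun K z hz => by rw [e1, e2]; linarith [hJ K z hz]) hfin K0 hγ h0 hoff hlim.neg
    (neg_lt_neg hcx)
  exact ⟨η, hη, fun r hr => by have := h r hr; rw [e2] at this; linarith⟩

/-- a small piece of the curve lies in one component of any set which contains the germ -/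
theorem germ_comp {W : Set ℂ} {γ : ℝ → ℂ} (hγ : Continuous γ) {η : ℝ}
    (h : ∀ r ∈ Ioo 0 η, γ r ∈ W) {r0 : ℝ} (hr0 : r0 ∈ Ioo 0 η) :
    ∀ r ∈ Ioo 0 η, γ r ∈ connectedComponentIn W (γ r0) := by
  have h3 : IsPreconnected (γ '' Ioo 0 η) := isPreconnected_Ioo.image _ hγ.continuousOn
  have h4 : γ '' Ioo 0 η ⊆ W := by rintro _ ⟨r, hr, rfl⟩; exact h r hr
  intro r hr
  exact h3.subset_connectedComponentIn ⟨r0, hr0, rfl⟩ h4 ⟨r, hr, rfl⟩

end Crest.Agent.R105.Grm_8
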