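import Crest.Agent.R105.Elf4_600
import Crest.Agent.R105.Ni2_459

/-!
# Row 105, S0138, LEMMA Y, leaf (G) of 392 #10557 (helper57)

`Gt T s = |T ∩ (0, s]|` (signed) : the primitive of the indicator of `T`.
* `lip`, `mono` : (G1)
* `osc_le_vol` : (G2) `osc_K (Gt T ∘ a) ≤ |T ∩ [lo_K a, up_K a]|`
* `lint` : (G3) Tonelli for `∑_K c_K 1_[lo_K, up_K]`
* `ae_summable`, `integrable_sl`, `sum_le` : the consumers' forms on `{K ⊆ Lv Y a t}`
-/

set_option autoImplicit false

open MeasureTheory Set Filter Topology Metric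
open scoped NNReal ENNReal

namespace Crest.Agent.R105.Gt_57

open Bd_775 Tc_808 Ends_897 Crest.AnalysisR
open Ni_459 (up lo LB Lv)
open Elf_600 (pt pt_mem pt_mem' cc_pt)

noncomputable section

/-- the primitive of the indicator of `T` -/
def Gt (T : Set ℝ) (s : ℝ) : ℝ := ∫ r in (0 : ℝ)..s, T.indicator (1 : ℝ → ℝ) r

section One
variable {T : Set ℝ} (hT : MeasurableSet T)
include hT

lemma ii (s t : ℝ) : IntervalIntegrable (T.indicator (1 : ℝ → ℝ)) volume s t := by
  rw [intervalIntegrable_iff]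
  refine Integrable.indicator ?_ hT
  exact integrableOn_const (by rw [uIoc]; exact measure_Ioc_lt_top.ne) (by simp)

lemma sub_eq {s t : ℝ} (h : s ≤ t) : Gt T t - Gt T s = (volume (T ∩ Ioc s t)).toReal := by
  unfold Gt
  rw [intervalIntegral.integral_interval_sub_left (ii hT _ _) (ii hT _ _),
    intervalIntegral.integral_of_le h, integral_indicator_one hT]
  rw [measureReal_restrict_apply hT]
  rfl

lemma mono : Monotone (Gt T) := fun s t h => by
  have := sub_eq hT h
  have h2 : 0 ≤ (volume (T ∩ Ioc s t)).toReal := ENNReal.toReal_nonneg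
  linarith

lemma sub_le {s t : ℝ} (h : s ≤ t) : Gt T t - Gt T s ≤ t - s := by
  rw [sub_eq hT h]
  calc (volume (T ∩ Ioc s t)).toReal ≤ (volume (Ioc s t)).toReal :=
        ENNReal.toReal_mono measure_Ioc_lt_top.ne (measure_mono inter_subset_right)
    _ = t - s := by rw [Real.volume_Ioc, ENNReal.toReal_ofReal (sub_nonneg.2 h)]

/-- **(G1)** -/
theorem lip : LipschitzWith 1 (Gt T) := by
  refine LipschitzWith.of_dist_le_mul fun s t => ?_
  rw [Real.dist_eq, Real.dist_eq, NNReal.coe_one, one_mul]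
  rcases le_total s t with h | h
  · rw [abs_sub_comm, abs_sub_comm s t, abs_of_nonneg (sub_nonneg.2 h),
      abs_of_nonneg (sub_nonneg.2 (mono hT h))]
    exact sub_le hT h
  · rw [abs_of_nonneg (sub_nonneg.2 h), abs_of_nonneg (sub_nonneg.2 (mono hT h))]
    exact sub_le hT h

/-- the increment between two points of `[α - ε, β + ε]` -/
lemma abs_sub_le {α β ε s t : ℝ} (hε : 0 ≤ ε) (hs : s ∈ Icc (α - ε) (β + ε))
    (ht : t ∈ Icc (α - ε) (β + ε)) :
    |Gt T s - Gt T t| ≤ (volume (T ∩ Icc α β)).toReal + 2 * ε := by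
  wlog h : t ≤ s generalizing s t
  · rw [abs_sub_comm]; exact this ht hs (le_of_lt (not_le.1 h))
  rw [abs_of_nonneg (sub_nonneg.2 (mono hT h)), sub_eq hT h]
  have hsub : T ∩ Ioc t s ⊆ (T ∩ Icc α β) ∪ (Icc (α - ε) α ∪ Icc β (β + ε)) := by
    rintro x ⟨hx, hx1, hx2⟩
    have h1 : α - ε ≤ x := ht.1.trans hx1.le
    have h2 : x ≤ β + ε := hx2.trans hs.2
    by_cases h3 : α ≤ x
    · by_cases h4 : x ≤ β
      · exact Or.inl ⟨hx, h3, h4⟩
      · exact Or.inr (Or.inr ⟨(not_le.1 h4).le, h2⟩)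
    · exact Or.inr (Or.inl ⟨h1, (not_le.1 h3).le⟩)
  have hfin : volume (T ∩ Icc α β) ≠ ⊤ :=
    ((measure_mono inter_subset_right).trans_lt measure_Icc_lt_top).ne
  have hle : volume (T ∩ Ioc t s) ≤ volume (T ∩ Icc α β) + ENNReal.ofReal (2 * ε) := by
    calc volume (T ∩ Ioc t s)
        ≤ volume (T ∩ Icc α β) + (volume (Icc (α - ε) α) + volume (Icc β (β + ε))) :=
          (measure_mono hsub).trans ((measure_union_le _ _).trans
            (add_le_add le_rfl (measure_union_le _ _)))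
      _ = volume (T ∩ Icc α β) + ENNReal.ofReal (2 * ε) := by
          rw [Real.volume_Icc, Real.volume_Icc, ← ENNReal.ofReal_add (by linarith) (by linarith)]
          congr 2; ring
  calc (volume (T ∩ Ioc t s)).toReal
      ≤ (volume (T ∩ Icc α β) + ENNReal.ofReal (2 * ε)).toReal :=
        ENNReal.toReal_mono (ENNReal.add_ne_top.2 ⟨hfin, ENNReal.ofReal_ne_top⟩) hle
    _ = _ := by
        rw [ENNReal.toReal_add hfin ENNReal.ofReal_ne_top, ENNReal.toReal_ofReal (by linarith)]

/-- **(G2)** -/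
theorem osc_le_vol {Y : Set ℂ} {a : ℂ → ℝ} (hY : IsExteriorDomain Yᶜ) (ha : LB a) (K : Cmp Y) :
    osc Y (fun z => Gt T (a z)) K.1 ≤
      (volume (T ∩ Icc (lo Y a (pt K)) (up Y a (pt K)))).toReal := by
  refine osc_le_of_forall ENNReal.toReal_nonneg fun ε hε => ?_
  obtain ⟨O, hO, h1⟩ := Ni_459.exists_lt_of_up_lt hY ha
    (show up Y a (pt K) < up Y a (pt K) + ε / 2 by linarith)
  obtain ⟨P, hP, h2⟩ := Ni_459.exists_gt_of_lt_lo hY ha
    (show lo Y a (pt K) - ε / 2 < lo Y a (pt K) by linarith)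
  refine ⟨O ∩ P, hO.op.inter hP.op, ?_, fun z hz hzY w hw hwY => ?_⟩
  · rw [← cc_pt K]; exact subset_inter hO.sub hP.sub
  · have := abs_sub_le hT (α := lo Y a (pt K)) (β := up Y a (pt K)) (ε := ε / 2) (by linarith)
      (s := a z) (t := a w) ⟨(h2 z hz.2 hzY).le, (h1 z hz.1 hzY).le⟩
      ⟨(h2 w hw.2 hwY).le, (h1 w hw.1 hwY).le⟩
    have e : 2 * (ε / 2) = ε := by ring
    rw [e] at this
    exact this

end One

section Sum
variable {Y : Set ℂ} {a : ℂ → ℝ} {T : Set ℝ} {c : Cmp Y → ℝ}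

/-- the sum over the components meeting the level `t` -/
def W (Y : Set ℂ) (a : ℂ → ℝ) (c : Cmp Y → ℝ) (t : ℝ) : ℝ≥0∞ :=
  ∑' K : Cmp Y, ENNReal.ofReal (c K) * (Icc (lo Y a (pt K)) (up Y a (pt K))).indicator 1 t

lemma W_eq (t : ℝ) : W Y a c t = ∑' K : Function.support c,
    ENNReal.ofReal (c K) * (Icc (lo Y a (pt K.1)) (up Y a (pt K.1))).indicator 1 t := by
  unfold W
  refine (tsum_subtype_eq_of_support_subset (f := fun K : Cmp Y => ENNReal.ofReal (c K) *
    (Icc (lo Y a (pt K)) (up Y a (pt K))).indicator (1 : ℝ → ℝ≥0∞) t) ?_).symm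
  intro K hK h0
  refine hK ?_
  simp only [h0, ENNReal.ofReal_zero, zero_mul]

lemma meas_one (K : Cmp Y) : Measurable fun t : ℝ =>
    ENNReal.ofReal (c K) * (Icc (lo Y a (pt K)) (up Y a (pt K))).indicator 1 t :=
  (measurable_one.indicator measurableSet_Icc).const_mul _

lemma W_meas (hc : (Function.support c).Countable) : Measurable (W Y a c) := by
  have := hc.to_subtype
  have h : W Y a c = fun t => ∑' K : Function.support c,
    ENNReal.ofReal (c K) * (Icc (lo Y a (pt K.1)) (up Y a (pt K.1))).indicator 1 t :=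
    funext fun t => W_eq t
  rw [h]
  exact Measurable.tsum fun K => meas_one K.1

/-- **(G3)**, Tonelli -/
theorem lint (_hT : MeasurableSet T) (hc : (Function.support c).Countable) :
    ∫⁻ t in T, W Y a c t =
      ∑' K, ENNReal.ofReal (c K) * volume (T ∩ Icc (lo Y a (pt K)) (up Y a (pt K))) := by
  have := hc.to_subtype
  have h1 : ∫⁻ t in T, W Y a c t = ∫⁻ t in T, ∑' K : Function.support c,
    ENNReal.ofReal (c K) * (Icc (lo Y a (pt K.1)) (up Y a (pt K.1))).indicator 1 t :=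
    lintegral_congr fun t => W_eq t
  have h2 := lintegral_tsum (μ := volume.restrict T) (f := fun (K : Function.support c) (t : ℝ) =>
    ENNReal.ofReal (c K) * (Icc (lo Y a (pt K.1)) (up Y a (pt K.1))).indicator (1 : ℝ → ℝ≥0∞) t)
    fun K => (meas_one K.1).aemeasurable
  rw [h1, h2]
  rw [← tsum_subtype_eq_of_support_subset (s := Function.support c)]
  · refine tsum_congr fun K => ?_
    rw [lintegral_const_mul _ (measurable_one.indicator measurableSet_Icc),
      lintegral_indicator_one measurableSet_Icc, Measure.restrict_apply measurableSet_Icc,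
      inter_comm]
  · intro K hK h0
    refine hK ?_
    simp only [h0, ENNReal.ofReal_zero, zero_mul]

/-- a component lies in the level set iff its range contains the level -/
lemma sub_Lv {t : ℝ} (K : Cmp Y) : K.1 ⊆ Lv Y a t ↔ t ∈ Icc (lo Y a (pt K)) (up Y a (pt K)) := by
  constructor
  · intro h; exact h (pt_mem K)
  · intro h z hz
    have h1 : lo Y a z = lo Y a (pt K) :=
      Ni_459.lo_congr_cc (pt_mem' K) (by rw [cc_pt]; exact hz)
    have h2 : up Y a z = up Y a (pt K) :=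
      Ni_459.up_congr_cc (pt_mem' K) (by rw [cc_pt]; exact hz)
    exact ⟨h1.le.trans h.1, h.2.trans h2.ge⟩

lemma W_toReal (h0 : ∀ K, 0 ≤ c K) (t : ℝ) :
    (W Y a c t).toReal = ∑' K : {K : Cmp Y // K.1 ⊆ Lv Y a t}, c K.1 := by
  unfold W
  rw [ENNReal.tsum_toReal_eq]
  · refine Eq.trans ?_ (tsum_subtype {K : Cmp Y | K.1 ⊆ Lv Y a t} c).symm
    refine tsum_congr fun K => ?_
    by_cases h : t ∈ Icc (lo Y a (pt K)) (up Y a (pt K))
    · rw [indicator_of_mem h, indicator_of_mem (show K ∈ {K : Cmp Y | K.1 ⊆ Lv Y a t} from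
        (sub_Lv K).2 h)]
      simp [ENNReal.toReal_ofReal (h0 K)]
    · rw [indicator_of_notMem h, indicator_of_notMem (show K ∉ {K : Cmp Y | K.1 ⊆ Lv Y a t} from
        fun h' => h ((sub_Lv K).1 h'))]
      simp
  · intro K
    refine ENNReal.mul_ne_top ENNReal.ofReal_ne_top ?_
    by_cases h : t ∈ Icc (lo Y a (pt K)) (up Y a (pt K))
    · rw [indicator_of_mem h]; simp
    · rw [indicator_of_notMem h]; simp

lemma summable_of_W (h0 : ∀ K, 0 ≤ c K) {t : ℝ} (h : W Y a c t ≠ ⊤) :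
    Summable fun K : {K : Cmp Y // K.1 ⊆ Lv Y a t} => c K.1 := by
  have h1 : Summable fun K : Cmp Y => (ENNReal.ofReal (c K) *
      (Icc (lo Y a (pt K)) (up Y a (pt K))).indicator (1 : ℝ → ℝ≥0∞) t).toReal :=
    ENNReal.summable_toReal h
  have h2 := h1.subtype {K : Cmp Y | K.1 ⊆ Lv Y a t}
  refine h2.congr fun K => ?_
  have hK : t ∈ Icc (lo Y a (pt K.1)) (up Y a (pt K.1)) := (sub_Lv K.1).1 K.2
  simp only [Function.comp_apply]
  rw [indicator_of_mem hK]
  simp [ENNReal.toReal_ofReal (h0 K.1)]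

variable (hY : IsExteriorDomain Yᶜ) (ha : LB a) (h0 : ∀ K, 0 ≤ c K)
  (hc : (Function.support c).Countable) (hs : Summable fun K : Cmp Y => c K * osc Y a K.1)
include hY ha

lemma vol_Icc (K : Cmp Y) :
    volume (Icc (lo Y a (pt K)) (up Y a (pt K))) = ENNReal.ofReal (osc Y a K.1) := by
  have h := Ni_459.osc_eq' hY ha (pt_mem' K)
  rw [cc_pt] at h
  rw [Real.volume_Icc, h]

include h0 hs

lemma vol_sum_ne_top (T : Set ℝ) :
    ∑' K, ENNReal.ofReal (c K) * volume (T ∩ Icc (lo Y a (pt K)) (up Y a (pt K))) ≠ ⊤ := by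
  have h1 : ∑' K, ENNReal.ofReal (c K) * volume (T ∩ Icc (lo Y a (pt K)) (up Y a (pt K))) ≤
      ∑' K : Cmp Y, ENNReal.ofReal (c K * osc Y a K.1) := by
    refine ENNReal.tsum_le_tsum fun K => ?_
    rw [ENNReal.ofReal_mul (h0 K), ← vol_Icc hY ha K]
    gcongr
    exact inter_subset_right
  exact (h1.trans_lt hs.tsum_ofReal_lt_top).ne

lemma summable_vol (T : Set ℝ) :
    Summable fun K => c K * (volume (T ∩ Icc (lo Y a (pt K)) (up Y a (pt K)))).toReal := by
  refine (ENNReal.summable_toReal (vol_sum_ne_top hY ha h0 hs T)).congr fun K => ?_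
  rw [ENNReal.toReal_mul, ENNReal.toReal_ofReal (h0 K)]

include hc

lemma lint_ne_top : ∫⁻ t, W Y a c t ≠ ⊤ := by
  have := lint (a := a) MeasurableSet.univ hc
  rw [Measure.restrict_univ] at this
  rw [this]
  exact vol_sum_ne_top hY ha h0 hs univ

/-- a.e. level meets a summable family of components -/
theorem ae_summable : ∀ᵐ t : ℝ, Summable fun K : {K : Cmp Y // K.1 ⊆ Lv Y a t} => c K.1 := by
  filter_upwards [ae_lt_top (W_meas hc) (lint_ne_top hY ha h0 hc hs)] with t ht
  exact summable_of_W h0 ht.ne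

/-- the sum along the levels is integrable -/
theorem integrable_sl : Integrable fun t : ℝ => ∑' K : {K : Cmp Y // K.1 ⊆ Lv Y a t}, c K.1 := by
  have h := integrable_toReal_of_lintegral_ne_top (W_meas hc).aemeasurable
    (lint_ne_top hY ha h0 hc hs)
  refine h.congr (ae_of_all _ fun t => ?_)
  exact W_toReal h0 t

/-- Tonelli, real form -/
theorem integral_sl (hT : MeasurableSet T) :
    ∫ t in T, ∑' K : {K : Cmp Y // K.1 ⊆ Lv Y a t}, c K.1 =
      ∑' K, c K * (volume (T ∩ Icc (lo Y a (pt K)) (up Y a (pt K)))).toReal := by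
  have h1 : ∫ t in T, ∑' K : {K : Cmp Y // K.1 ⊆ Lv Y a t}, c K.1 =
      ∫ t in T, (W Y a c t).toReal := by
    refine integral_congr_ae (ae_of_all _ fun t => (W_toReal h0 t).symm)
  rw [h1, integral_toReal (W_meas hc).aemeasurable
    (ae_restrict_of_ae (ae_lt_top (W_meas hc) (lint_ne_top hY ha h0 hc hs))), lint hT hc,
    ENNReal.tsum_toReal_eq]
  · refine tsum_congr fun K => ?_
    rw [ENNReal.toReal_mul, ENNReal.toReal_ofReal (h0 K)]
  · intro K
    exact ENNReal.mul_ne_top ENNReal.ofReal_ne_top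
      ((measure_mono inter_subset_right).trans_lt measure_Icc_lt_top).ne

/-- **(G2) + (G3) : the E-L defect of the cut `Gt T ∘ a` is the integral over the levels of `T`** -/
theorem sum_le (hT : MeasurableSet T) :
    ∑' K : Cmp Y, c K * osc Y (fun z => Gt T (a z)) K.1 ≤
      ∫ t in T, ∑' K : {K : Cmp Y // K.1 ⊆ Lv Y a t}, c K.1 := by
  rw [integral_sl hY ha h0 hc hs hT]
  have h1 := summable_vol hY ha h0 hs T
  have h2 : ∀ K : Cmp Y, c K * osc Y (fun z => Gt T (a z)) K.1 ≤
      c K * (volume (T ∩ Icc (lo Y a (pt K)) (up Y a (pt K)))).toReal := fun K =>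
    mul_le_mul_of_nonneg_left (osc_le_vol hT hY ha K) (h0 K)
  exact Summable.tsum_le_tsum h2 (h1.of_nonneg_of_le
    (fun K => mul_nonneg (h0 K) (osc_nonneg _ _ _)) h2) h1

end Sum

/-- summable squares have countable support -/
lemma countable_of_sq {ι : Type*} {s : ι → ℝ} (hs : Summable fun i => s i ^ 2) :
    (Function.support s).Countable :=
  (hs.countable_support).mono fun i hi => by
    simp only [Function.mem_support] at hi ⊢; positivity

end

end Crest.Agent.R105.Gt_57
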