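import Mathlib
import Crest.Agent.R105.Coa4_392

/-!
# Row 105, S0138, LmY2, leaf (H) (helper608): good points on continua in the levels

For `a` locally Lipschitz on the open set `U` and a disintegration `m` of `|∇a| dA` over the levels
of `a` (`Coa_392.Disint`): for almost every `t` every nondegenerate connected subset `C` of
`U ∩ {a = t}` contains a point `p` which is no atom of `m t`, with `a` differentiable at `p` and
`∇a(p) ≠ 0`.
-/

set_option autoImplicit false

open MeasureTheory Set Filter Topology Metric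
open scoped ENNReal NNReal

namespace Crest.Agent.R105.Hgp_608

open Coa_392

/-- a `μ`-null set has null projection if open sets satisfy the slice inequality -/
theorem null_of_open {μ : Measure ℂ} (hf : ∀ R : ℝ, μ (ball 0 R) < ⊤) {L : Set ℂ} {b : ℂ → ℝ}
    (ho : ∀ W : Set ℂ, IsOpen W → volume (b '' (W ∩ L)) ≤ μ W) {N : Set ℂ} (hN : μ N = 0) :
    volume (b '' (N ∩ L)) = 0 := by
  have key : ∀ n : ℕ, volume (b '' ((N ∩ ball 0 (n : ℝ)) ∩ L)) = 0 := by
    intro n
    set ν : Measure ℂ := μ.restrict (ball 0 (n : ℝ)) with hν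
    have : IsFiniteMeasure ν := ⟨by rw [hν, Measure.restrict_apply_univ]; exact hf _⟩
    have hνN : ν N = 0 := nonpos_iff_eq_zero.1 ((Measure.restrict_apply_le _ _).trans hN.le)
    refine le_antisymm (ENNReal.le_of_forall_pos_le_add fun ε hε _ => ?_) bot_le
    have hε' : (ε : ℝ≥0∞) ≠ 0 := by
      simpa using hε.ne'
    obtain ⟨W, hNW, hWo, hW⟩ := N.exists_isOpen_lt_add (μ := ν) (by rw [hνN]; simp) hε'
    rw [hνN, zero_add] at hW
    rw [zero_add]
    calc volume (b '' ((N ∩ ball 0 (n : ℝ)) ∩ L))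
        ≤ volume (b '' ((W ∩ ball 0 (n : ℝ)) ∩ L)) :=
          measure_mono (image_mono (inter_subset_inter_left _ (inter_subset_inter_left _ hNW)))
      _ ≤ μ (W ∩ ball 0 (n : ℝ)) := ho _ (hWo.inter isOpen_ball)
      _ = ν W := by rw [hν, Measure.restrict_apply hWo.measurableSet]
      _ ≤ ε := hW.le
  have hU : b '' (N ∩ L) = ⋃ n : ℕ, b '' ((N ∩ ball 0 (n : ℝ)) ∩ L) := by
    rw [← image_iUnion, ← iUnion_inter, ← inter_iUnion]
    congr 2
    refine (inter_eq_self_of_subset_left ?_).symm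
    intro z _
    obtain ⟨n, hn⟩ := exists_nat_gt (dist z 0)
    exact mem_iUnion.2 ⟨n, hn⟩
  rw [hU]
  exact measure_iUnion_null key

/-- a preconnected null set of reals is a subsingleton -/
theorem subsingleton_of_null {S : Set ℝ} (hS : IsPreconnected S) (h0 : volume S = 0) :
    S.Subsingleton := by
  intro x hx y hy
  by_contra hne
  rcases lt_or_gt_of_ne hne with h | h
  · have h1 : Icc x y ⊆ S := hS.ordConnected.out hx hy
    have h2 : volume (Icc x y) = 0 := measure_mono_null h1 h0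
    rw [Real.volume_Icc, ENNReal.ofReal_eq_zero] at h2
    linarith
  · have h1 : Icc y x ⊆ S := hS.ordConnected.out hy hx
    have h2 : volume (Icc y x) = 0 := measure_mono_null h1 h0
    rw [Real.volume_Icc, ENNReal.ofReal_eq_zero] at h2
    linarith

/-- the atoms of a σ-finite measure are countable -/
theorem countable_atoms (μ : Measure ℂ) [SigmaFinite μ] : {p : ℂ | μ {p} ≠ 0}.Countable := by
  have h := Measure.countable_meas_pos_of_disjoint_iUnion (μ := μ) (As := fun p : ℂ => {p})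
    (fun p => measurableSet_singleton p)
    (fun p q hpq => by simpa [Function.onFun] using hpq)
  refine h.mono fun p hp => ?_
  exact pos_iff_ne_zero.2 hp

theorem locLip_of {U : Set ℂ} (b : ℂ →L[ℝ] ℝ) : LocallyLipschitzOn U (b : ℂ → ℝ) :=
  b.lipschitz.locallyLipschitz.locallyLipschitzOn

/-- slice inequality for a linear function `b` with `‖b‖ ≤ 1` -/
theorem slice_lin {U : Set ℂ} (hU : IsOpen U) {a : ℂ → ℝ} {m : ℝ → Measure ℂ}
    (ha : LocallyLipschitzOn U a) (h : Disint U a m)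
    (hfin : ∀ R : ℝ, ∫⁻ z in U ∩ ball 0 R, ‖fderiv ℝ a z‖ₑ < ⊤) (b : ℂ →L[ℝ] ℝ) (hb : ‖b‖ = 1) :
    ∀ᵐ t, (∀ R : ℝ, m t (ball 0 R) < ⊤) ∧
      ∀ W, IsOpen W → volume (b '' (W ∩ (U ∩ a ⁻¹' {t}))) ≤ m t W := by
  have he : ∀ z, ‖fderiv ℝ (b : ℂ → ℝ) z‖ₑ = 1 := by
    intro z
    rw [b.fderiv, ← ofReal_norm, hb, ENNReal.ofReal_one]
  have h1 := slice_all hU ha h (locLip_of b) (by
    intro R
    simp only [he, mul_one]
    exact hfin R)
  filter_upwards [h1] with t ht
  refine ⟨fun R => ?_, fun W hW => ?_⟩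
  · have := ht.1 R
    simp only [he, lintegral_one, Measure.restrict_apply_univ] at this
    exact this
  · have := ht.2 W (Or.inl hW)
    simp only [he, lintegral_one, Measure.restrict_apply_univ] at this
    exact this

/-- the critical points are null for almost every slice -/
theorem ae_crit {U : Set ℂ} {a : ℂ → ℝ} {m : ℝ → Measure ℂ} (h : Disint U a m) :
    ∀ᵐ t, m t {z | fderiv ℝ a z = 0} = 0 := by
  have hB : MeasurableSet {z : ℂ | fderiv ℝ a z = 0} :=
    (measurable_fderiv ℝ a) (measurableSet_singleton 0)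
  have h3 := h.coarea ({z : ℂ | fderiv ℝ a z = 0}.indicator 1) (measurable_one.indicator hB)
  have h4 : ∫⁻ z in U, {z : ℂ | fderiv ℝ a z = 0}.indicator (1 : ℂ → ℝ≥0∞) z *
      ‖fderiv ℝ a z‖ₑ = 0 := by
    refine lintegral_eq_zero_of_ae_eq_zero (Eventually.of_forall fun z => ?_)
    by_cases hz : fderiv ℝ a z = 0
    · have h5 : ‖fderiv ℝ a z‖ₑ = 0 := by
        rw [← ofReal_norm, hz, norm_zero, ENNReal.ofReal_zero]
      simp only [h5, mul_zero, Pi.zero_apply]
    · have : z ∉ {z : ℂ | fderiv ℝ a z = 0} := hz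
      simp [indicator_of_notMem this]
  rw [h4] at h3
  have h6 : Measurable fun t => ∫⁻ z, {z : ℂ | fderiv ℝ a z = 0}.indicator (1 : ℂ → ℝ≥0∞) z ∂(m t) :=
    h.measf _ (measurable_one.indicator hB)
  have h7 := (lintegral_eq_zero_iff h6).1 h3
  filter_upwards [h7] with t ht
  simpa [lintegral_indicator_one hB] using ht

/-- **(H) of LmY2**: for almost every `t` every nondegenerate connected subset of
`U ∩ {a = t}` contains a point which is no atom of `m t`, where `a` is differentiable with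
non-vanishing derivative -/
theorem s5 {U : Set ℂ} (hU : IsOpen U) {a : ℂ → ℝ} {m : ℝ → Measure ℂ}
    (ha : LocallyLipschitzOn U a) (h : Disint U a m)
    (hfin : ∀ R : ℝ, ∫⁻ z in U ∩ ball 0 R, ‖fderiv ℝ a z‖ₑ < ⊤) :
    ∀ᵐ t, ∀ C ⊆ U ∩ a ⁻¹' {t}, IsPreconnected C → C.Nontrivial →
      ∃ p ∈ C, m t {p} = 0 ∧ DifferentiableAt ℝ a p ∧ fderiv ℝ a p ≠ 0 := by
  have hre := slice_lin hU ha h hfin Complex.reCLM Complex.reCLM_norm
  have him := slice_lin hU ha h hfin Complex.imCLM Complex.imCLM_norm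
  filter_upwards [hre, him, ae_crit h] with t hr hi hc
  intro C hCL hC hnt
  have := h.sfin t
  by_contra hcon
  have hcov : ∀ p ∈ C, p ∈ {z | fderiv ℝ a z = 0} ∪ {p | m t {p} ≠ 0} := by
    intro p hp
    by_cases h1 : m t {p} = 0
    · left
      by_contra h2
      have h2' : fderiv ℝ a p ≠ 0 := h2
      exact hcon ⟨p, hp, h1, by_contra fun h3 => h2' (fderiv_zero_of_not_differentiableAt h3), h2'⟩
    · exact Or.inr h1
  have hnull : ∀ b : ℂ → ℝ, (∀ W, IsOpen W → volume (b '' (W ∩ (U ∩ a ⁻¹' {t}))) ≤ m t W) →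
      volume (b '' C) = 0 := by
    intro b hb
    have h1 := null_of_open (μ := m t) hr.1 hb hc
    have h2 : volume (b '' {p | m t {p} ≠ 0}) = 0 := ((countable_atoms (m t)).image b).measure_zero _
    refine measure_mono_null ?_ (measure_union_null h1 h2)
    rintro _ ⟨p, hp, rfl⟩
    rcases hcov p hp with h3 | h3
    · exact Or.inl ⟨p, ⟨h3, hCL hp⟩, rfl⟩
    · exact Or.inr ⟨p, h3, rfl⟩
  have e1 := subsingleton_of_null (hC.image _ Complex.continuous_re.continuousOn)
    (hnull (fun z => z.re) hr.2)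
  have e2 := subsingleton_of_null (hC.image _ Complex.continuous_im.continuousOn)
    (hnull (fun z => z.im) hi.2)
  obtain ⟨p, hp, q, hq, hpq⟩ := hnt
  exact hpq (Complex.ext (e1 ⟨p, hp, rfl⟩ ⟨q, hq, rfl⟩) (e2 ⟨p, hp, rfl⟩ ⟨q, hq, rfl⟩))

end Crest.Agent.R105.Hgp_608
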