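import Crest.Agent.R105.Psq0_425

/-!
# Row 105 (S0138), helper361: maximal hairs

A picture `PicS E 𝒬 𝓗` may have nested hairs. The maximal hairs are pairwise disjoint, give the
same classes `CFJ` and again a picture, so Lemma A needs to be proved for pairwise disjoint hairs
only (`lemaq_of_disj`).
-/

set_option autoImplicit false

namespace Crest.Agent.R105.Hmx_361

open Set Filter MeasureTheory Topology
open Crest.Agent.R105.CF_363 Crest.Agent.R105.Stp_722 Crest.Agent.R105.Cq_463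
open Crest.Agent.R105.Nal_649 Crest.Agent.R105.Exs_992 Crest.Agent.R105.SkT1_137
open Crest.Agent.R105.Famq_306
open Crest.Agent.R105.Skp2_257 (Comps Reg Lo Up)

variable {E : Set (ℝ × ℝ)} {𝒬 : Set Sqr} {𝓗 𝓗' : Set Hair}

theorem car_sub_iff {K K' : Hair} : K.car ⊆ K'.car ↔ K.x = K'.x ∧ K'.b ≤ K.b ∧ K.t ≤ K'.t := by
  constructor
  · intro h
    have h1 := h (show (K.x, K.b) ∈ K.car from ⟨rfl, le_rfl, K.hbt.le⟩)
    have h2 := h (show (K.x, K.t) ∈ K.car from ⟨rfl, K.hbt.le, le_rfl⟩)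
    exact ⟨h1.1, h1.2.1, h2.2.2⟩
  · rintro ⟨h1, h2, h3⟩ p ⟨p1, p2, p3⟩
    exact ⟨p1.trans h1, h2.trans p2, p3.trans h3⟩

theorem preconn (K : Hair) : IsPreconnected K.car := by
  rw [K.car_eq]
  exact ((convex_singleton K.x).prod (convex_Icc K.b K.t)).isPreconnected

/-- the maximal hairs -/
def mx (𝓗 : Set Hair) : Set Hair := {K | K ∈ 𝓗 ∧ ∀ K' ∈ 𝓗, K.car ⊆ K'.car → K' = K}

theorem mx_sub : mx 𝓗 ⊆ 𝓗 := fun _ h => h.1

/-- a hair which meets a component is contained in it -/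
theorem sub_comp {P : Set (ℝ × ℝ)} (hP : P ∈ Comps E) {K : Hair} (hK : K.car ⊆ E)
    (h : (K.car ∩ P).Nonempty) : K.car ⊆ P := by
  obtain ⟨p, hp, rfl⟩ := hP
  obtain ⟨q, hq, hq'⟩ := h
  rw [connectedComponentIn_eq hq']
  exact (preconn K).subset_connectedComponentIn hq hK

theorem isClosed_comp (hE : IsCompact E) {P : Set (ℝ × ℝ)} (hP : P ∈ Comps E) : IsClosed P := by
  obtain ⟨p, hp, rfl⟩ := hP
  refine isClosed_of_closure_subset ?_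
  exact isPreconnected_connectedComponentIn.closure.subset_connectedComponentIn
    (subset_closure (mem_connectedComponentIn hp))
    (closure_minimal (connectedComponentIn_subset E p) hE.isClosed)

/-- the third case of `PicS.comp` -/
structure Sol (𝓗 : Set Hair) (P : Set (ℝ × ℝ)) (Q : Sqr) : Prop where
  sub : Q.car ⊆ P
  cov : ∀ p ∈ P, p ∉ Q.car → ∃ K ∈ 𝓗, K.car ⊆ P ∧ p ∈ K.car ∧ (K.car ∩ Q.car).Nonempty

theorem meet_top {K : Hair} {Q : Sqr} (h : (K.car ∩ Q.car).Nonempty) :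
    (K.x, Q.y + Q.s) ∈ Q.car := by
  obtain ⟨p, h1, h2⟩ := h
  have hs := Q.hs
  rw [Sqr.mem_car] at h2 ⊢
  obtain ⟨k1, k2, k3⟩ := h1
  refine ⟨⟨?_, ?_⟩, ⟨by simp only; linarith, le_rfl⟩⟩
  · simp only; rw [← k1]; exact h2.1.1
  · simp only; rw [← k1]; exact h2.1.2

/-- a hair in a solid is contained in an attached hair -/
theorem touch (ha : Att 𝒬 𝓗) {P : Set (ℝ × ℝ)} {Q : Sqr} (hQ : Q ∈ 𝒬) (S : Sol 𝓗 P Q) {K : Hair}
    (hK : K ∈ 𝓗) (hKP : K.car ⊆ P) : ∃ K1 ∈ 𝓗, K.car ⊆ K1.car ∧ (K1.car ∩ Q.car).Nonempty := by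
  by_cases hm : (K.car ∩ Q.car).Nonempty
  · exact ⟨K, hK, Subset.rfl, hm⟩
  have hno : ∀ p ∈ K.car, p ∉ Q.car := fun p hp hq => hm ⟨p, hp, hq⟩
  have hs := Q.hs
  have hbt := K.hbt
  have mt : (K.x, K.t) ∈ K.car := ⟨rfl, K.hbt.le, le_rfl⟩
  have mb : (K.x, K.b) ∈ K.car := ⟨rfl, le_rfl, K.hbt.le⟩
  obtain ⟨K1, h1, -, h3, h4⟩ := S.cov _ (hKP mt) (hno _ mt)
  obtain ⟨K2, g1, -, g3, g4⟩ := S.cov _ (hKP mb) (hno _ mb)
  have ex1 : K1.x = K.x := h3.1.symm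
  have ex2 : K2.x = K.x := g3.1.symm
  have i1 : K1.b ≤ K.t ∧ K.t ≤ K1.t := h3.2
  have i2 : K2.b ≤ K.b ∧ K.b ≤ K2.t := g3.2
  rcases ha K1 h1 Q hQ h4 with e | e
  · -- above the square
    refine ⟨K1, h1, car_sub_iff.2 ⟨ex1.symm, ?_, i1.2⟩, h4⟩
    by_contra hc
    push Not at hc
    have m := meet_top h4
    rw [ex1] at m
    exact hno _ ⟨rfl, by simp only; linarith, by simp only; linarith⟩ m
  · rcases ha K2 g1 Q hQ g4 with e' | e'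
    · exfalso
      linarith [i1.2, i2.1]
    · refine ⟨K2, g1, car_sub_iff.2 ⟨ex2.symm, i2.1, ?_⟩, g4⟩
      rw [e', ← e]
      exact i1.2

theorem exists_top (hE : IsCompact E) (ha : Att 𝒬 𝓗) (hs : ∀ K ∈ 𝓗, K.car ⊆ E) {P : Set (ℝ × ℝ)}
    (hP : P ∈ Comps E) {Q : Sqr} (hQ : Q ∈ 𝒬) (S : Sol 𝓗 P Q) {K : Hair} (hK : K ∈ 𝓗)
    (hm : (K.car ∩ Q.car).Nonempty) (e : K.b = Q.y + Q.s) :
    ∃ K1 ∈ mx 𝓗, K.car ⊆ K1.car := by
  have hQs := Q.hs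
  set A : Set ℝ := {t | ∃ K' ∈ 𝓗, K.car ⊆ K'.car ∧ t = K'.t} with hA
  have key : ∀ K' ∈ 𝓗, K.car ⊆ K'.car → K'.x = K.x ∧ K'.b = Q.y + Q.s ∧ K.t ≤ K'.t ∧ K'.car ⊆ P := by
    intro K' h1 h2
    have h3 := car_sub_iff.1 h2
    have h4 : (K'.car ∩ Q.car).Nonempty := hm.mono (inter_subset_inter_left _ h2)
    refine ⟨h3.1.symm, ?_, h3.2.2, ?_⟩
    · rcases ha K' h1 Q hQ h4 with h | h
      · exact h
      · exfalso
        have := K.hbt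
        linarith [h3.2.2]
    · refine sub_comp hP (hs K' h1) (h4.mono (inter_subset_inter_right _ S.sub))
  have hne : A.Nonempty := ⟨K.t, K, hK, Subset.rfl, rfl⟩
  have hbd : BddAbove A := by
    obtain ⟨R, hR⟩ := (hE.image continuous_snd).bddAbove
    refine ⟨R, ?_⟩
    rintro t ⟨K', h1, h2, rfl⟩
    exact hR ⟨(K'.x, K'.t), hs K' h1 ⟨rfl, K'.hbt.le, le_rfl⟩, rfl⟩
  have hT : (K.x, sSup A) ∈ P := by
    have h1 : sSup A ∈ closure A := csSup_mem_closure hne hbd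
    have h2 : IsClosed {t : ℝ | (K.x, t) ∈ P} :=
      (isClosed_comp hE hP).preimage (by fun_prop)
    refine closure_minimal ?_ h2 h1
    rintro t ⟨K', h1, h2, rfl⟩
    obtain ⟨k1, -, -, k4⟩ := key K' h1 h2
    exact k4 ⟨k1.symm, K'.hbt.le, le_rfl⟩
  have hT1 : K.t ≤ sSup A := le_csSup hbd ⟨K, hK, Subset.rfl, rfl⟩
  have hbt := K.hbt
  obtain ⟨K1, h1, h2, h3, h4⟩ := S.cov _ hT fun h => by
    have := (Sqr.mem_car.1 h).2.2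
    simp only at this
    linarith
  have h5 : K1.b ≤ sSup A ∧ sSup A ≤ K1.t := h3.2
  have e1 : K1.b = Q.y + Q.s := by
    rcases ha K1 h1 Q hQ h4 with h | h
    · exact h
    · exfalso
      linarith [h5.2]
  have s1 : K.car ⊆ K1.car := car_sub_iff.2 ⟨h3.1, by rw [e1, e], hT1.trans h5.2⟩
  refine ⟨K1, ⟨h1, fun K' h6 h7 => ?_⟩, s1⟩
  obtain ⟨k1, k2, k3, k4⟩ := key K' h6 (s1.trans h7)
  have h8 : K'.t ≤ sSup A := le_csSup hbd ⟨K', h6, s1.trans h7, rfl⟩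
  have h9 := (car_sub_iff.1 h7).2.2
  refine Hair.ext (car_sub_iff.1 h7).1.symm (by rw [k2, e1]) (le_antisymm (h8.trans h5.2) h9)

theorem exists_bot (hE : IsCompact E) (ha : Att 𝒬 𝓗) (hs : ∀ K ∈ 𝓗, K.car ⊆ E) {P : Set (ℝ × ℝ)}
    (hP : P ∈ Comps E) {Q : Sqr} (hQ : Q ∈ 𝒬) (S : Sol 𝓗 P Q) {K : Hair} (hK : K ∈ 𝓗)
    (hm : (K.car ∩ Q.car).Nonempty) (e : K.t = Q.y) :
    ∃ K1 ∈ mx 𝓗, K.car ⊆ K1.car := by
  have hQs := Q.hs
  set A : Set ℝ := {t | ∃ K' ∈ 𝓗, K.car ⊆ K'.car ∧ t = K'.b} with hA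
  have key : ∀ K' ∈ 𝓗, K.car ⊆ K'.car → K'.x = K.x ∧ K'.t = Q.y ∧ K'.b ≤ K.b ∧ K'.car ⊆ P := by
    intro K' h1 h2
    have h3 := car_sub_iff.1 h2
    have h4 : (K'.car ∩ Q.car).Nonempty := hm.mono (inter_subset_inter_left _ h2)
    refine ⟨h3.1.symm, ?_, h3.2.1, ?_⟩
    · rcases ha K' h1 Q hQ h4 with h | h
      · exfalso
        have := K.hbt
        linarith [h3.2.1]
      · exact h
    · refine sub_comp hP (hs K' h1) (h4.mono (inter_subset_inter_right _ S.sub))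
  have hne : A.Nonempty := ⟨K.b, K, hK, Subset.rfl, rfl⟩
  have hbd : BddBelow A := by
    obtain ⟨R, hR⟩ := (hE.image continuous_snd).bddBelow
    refine ⟨R, ?_⟩
    rintro t ⟨K', h1, h2, rfl⟩
    exact hR ⟨(K'.x, K'.b), hs K' h1 ⟨rfl, le_rfl, K'.hbt.le⟩, rfl⟩
  have hT : (K.x, sInf A) ∈ P := by
    have h1 : sInf A ∈ closure A := csInf_mem_closure hne hbd
    have h2 : IsClosed {t : ℝ | (K.x, t) ∈ P} :=
      (isClosed_comp hE hP).preimage (by fun_prop)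
    refine closure_minimal ?_ h2 h1
    rintro t ⟨K', h1, h2, rfl⟩
    obtain ⟨k1, -, -, k4⟩ := key K' h1 h2
    exact k4 ⟨k1.symm, le_rfl, K'.hbt.le⟩
  have hT1 : sInf A ≤ K.b := csInf_le hbd ⟨K, hK, Subset.rfl, rfl⟩
  have hbt := K.hbt
  obtain ⟨K1, h1, h2, h3, h4⟩ := S.cov _ hT fun h => by
    have := (Sqr.mem_car.1 h).2.1
    simp only at this
    linarith
  have h5 : K1.b ≤ sInf A ∧ sInf A ≤ K1.t := h3.2
  have e1 : K1.t = Q.y := by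
    rcases ha K1 h1 Q hQ h4 with h | h
    · exfalso
      linarith [h5.1]
    · exact h
  have s1 : K.car ⊆ K1.car := car_sub_iff.2 ⟨h3.1, h5.1.trans hT1, by rw [e1, e]⟩
  refine ⟨K1, ⟨h1, fun K' h6 h7 => ?_⟩, s1⟩
  obtain ⟨k1, k2, k3, k4⟩ := key K' h6 (s1.trans h7)
  have h8 : sInf A ≤ K'.b := csInf_le hbd ⟨K', h6, s1.trans h7, rfl⟩
  have h9 := (car_sub_iff.1 h7).2.1
  refine Hair.ext (car_sub_iff.1 h7).1.symm (le_antisymm h9 (h5.1.trans h8)) (by rw [k2, e1])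

/-- **every hair is contained in a maximal hair** -/
theorem exists_mx (hP : PicS E 𝒬 𝓗) {K : Hair} (hK : K ∈ 𝓗) : ∃ K1 ∈ mx 𝓗, K.car ⊆ K1.car := by
  have hm : (K.x, K.b) ∈ K.car := ⟨rfl, le_rfl, K.hbt.le⟩
  have hmE := hP.q.hsub K hK hm
  have hPc : connectedComponentIn E (K.x, K.b) ∈ Comps E := ⟨_, hmE, rfl⟩
  have hKP : K.car ⊆ connectedComponentIn E (K.x, K.b) :=
    sub_comp hPc (hP.q.hsub K hK) ⟨_, hm, mem_connectedComponentIn hmE⟩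
  rcases hP.comp _ hPc with ⟨p, h⟩ | ⟨K0, h0, h⟩ | ⟨Q, hQ, h1, h2⟩
  · exfalso
    rw [h] at hKP
    have e1 := hKP hm
    have e2 := hKP (show (K.x, K.t) ∈ K.car from ⟨rfl, K.hbt.le, le_rfl⟩)
    rw [mem_singleton_iff] at e1 e2
    have := congrArg Prod.snd (e1.trans e2.symm)
    simp only at this
    linarith [K.hbt]
  · refine ⟨K0, ⟨h0, fun K' h3 h4 => ?_⟩, h ▸ hKP⟩
    have h5 : K'.car ⊆ K0.car := by
      rw [← h]
      refine sub_comp hPc (hP.q.hsub K' h3) ?_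
      exact ⟨(K.x, K.b), h4 (h ▸ hKP hm), mem_connectedComponentIn hmE⟩
    exact Hair.car_injective (h5.antisymm h4)
  · have S : Sol 𝓗 (connectedComponentIn E (K.x, K.b)) Q := ⟨h1, h2⟩
    obtain ⟨K1, g1, g2, g3⟩ := touch hP.att hQ S hK hKP
    have g5 : ∃ K2 ∈ mx 𝓗, K1.car ⊆ K2.car := by
      rcases hP.att K1 g1 Q hQ g3 with e | e
      · exact exists_top hP.q.cpt hP.att hP.q.hsub hPc hQ S g1 g3 e
      · exact exists_bot hP.q.cpt hP.att hP.q.hsub hPc hQ S g1 g3 e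
    obtain ⟨K2, k1, k2⟩ := g5
    exact ⟨K2, k1, g2.trans k2⟩

theorem nested {K1 K2 : Hair} (h1 : K1 ∈ mx 𝓗) (h2 : K2 ∈ mx 𝓗) (hx : K1.x = K2.x)
    (h : K1.b = K2.b ∨ K1.t = K2.t) : K1 = K2 := by
  rcases h with h | h
  · rcases le_total K1.t K2.t with h3 | h3
    · exact (h1.2 K2 h2.1 (car_sub_iff.2 ⟨hx, h.ge, h3⟩)).symm
    · exact h2.2 K1 h1.1 (car_sub_iff.2 ⟨hx.symm, h.le, h3⟩)
  · rcases le_total K1.b K2.b with h3 | h3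
    · exact h2.2 K1 h1.1 (car_sub_iff.2 ⟨hx.symm, h3, h.ge⟩)
    · exact (h1.2 K2 h2.1 (car_sub_iff.2 ⟨hx, h3, h.le⟩)).symm

/-- **the maximal hairs are pairwise disjoint** -/
theorem mx_disjoint (hP : PicS E 𝒬 𝓗) : ∀ K ∈ mx 𝓗, ∀ K' ∈ mx 𝓗, K ≠ K' →
    Disjoint K.car K'.car := by
  intro K1 h1 K2 h2 hne
  rw [Set.disjoint_left]
  intro p hp1 hp2
  apply hne
  have hpE := hP.q.hsub K1 h1.1 hp1
  have hPc : connectedComponentIn E p ∈ Comps E := ⟨_, hpE, rfl⟩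
  have hs1 : K1.car ⊆ connectedComponentIn E p :=
    sub_comp hPc (hP.q.hsub K1 h1.1) ⟨p, hp1, mem_connectedComponentIn hpE⟩
  have hs2 : K2.car ⊆ connectedComponentIn E p :=
    sub_comp hPc (hP.q.hsub K2 h2.1) ⟨p, hp2, mem_connectedComponentIn hpE⟩
  have hx : K1.x = K2.x := hp1.1.symm.trans hp2.1
  rcases hP.comp _ hPc with ⟨q, h⟩ | ⟨K0, h0, h⟩ | ⟨Q, hQ, g1, g2⟩
  · exfalso
    rw [h] at hs1
    have e1 := hs1 (show (K1.x, K1.b) ∈ K1.car from ⟨rfl, le_rfl, K1.hbt.le⟩)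
    have e2 := hs1 (show (K1.x, K1.t) ∈ K1.car from ⟨rfl, K1.hbt.le, le_rfl⟩)
    rw [mem_singleton_iff] at e1 e2
    have := congrArg Prod.snd (e1.trans e2.symm)
    simp only at this
    linarith [K1.hbt]
  · rw [h] at hs1 hs2
    exact (h1.2 K0 h0 hs1).symm.trans (h2.2 K0 h0 hs2)
  · have S : Sol 𝓗 (connectedComponentIn E p) Q := ⟨g1, g2⟩
    obtain ⟨L1, a1, a2, a3⟩ := touch hP.att hQ S h1.1 hs1
    obtain ⟨L2, b1, b2, b3⟩ := touch hP.att hQ S h2.1 hs2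
    obtain rfl : L1 = K1 := h1.2 L1 a1 a2
    obtain rfl : L2 = K2 := h2.2 L2 b1 b2
    have hQs := Q.hs
    rcases hP.att L1 a1 Q hQ a3 with e1 | e1 <;> rcases hP.att L2 b1 Q hQ b3 with e2 | e2
    · exact nested h1 h2 hx (Or.inl (e1.trans e2.symm))
    · exfalso
      linarith [hp1.2.1, hp2.2.2]
    · exfalso
      linarith [hp2.2.1, hp1.2.2]
    · exact nested h1 h2 hx (Or.inr (e1.trans e2.symm))

/-- **the picture with the maximal hairs** -/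
theorem picS_mx (hP : PicS E 𝒬 𝓗) : PicS E 𝒬 (mx 𝓗) where
  q := { cpt := hP.q.cpt
         sub := hP.q.sub
         hsub := fun K hK => hP.q.hsub K hK.1
         sep := hP.q.sep
         null := hP.q.null }
  att := fun K hK => hP.att K hK.1
  comp := by
    intro P hPc
    rcases hP.comp _ hPc with h | ⟨K0, h0, h⟩ | ⟨Q, hQ, g1, g2⟩
    · exact Or.inl h
    · refine Or.inr (Or.inl ⟨K0, ⟨h0, fun K' h3 h4 => ?_⟩, h⟩)
      have h5 : K'.car ⊆ K0.car := by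
        rw [← h]
        refine sub_comp hPc (hP.q.hsub K' h3) ?_
        refine ⟨(K0.x, K0.b), h4 ⟨rfl, le_rfl, K0.hbt.le⟩, ?_⟩
        rw [h]
        exact ⟨rfl, le_rfl, K0.hbt.le⟩
      exact Hair.car_injective (h5.antisymm h4)
    · refine Or.inr (Or.inr ⟨Q, hQ, g1, fun p hp hpQ => ?_⟩)
      obtain ⟨K, k1, k2, k3, k4⟩ := g2 p hp hpQ
      obtain ⟨K1, l1, l2⟩ := exists_mx hP k1
      exact ⟨K1, l1, sub_comp hPc (hP.q.hsub K1 l1.1) ⟨p, l2 k3, hp⟩, l2 k3,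
        k4.mono (inter_subset_inter_left _ l2)⟩

theorem CFJ_mono (h : 𝓗 ⊆ 𝓗') {W : Set (ℝ × ℝ)} {f : ℝ × ℝ → ℝ} (hf : CFJ 𝓗 W f) :
    CFJ 𝓗' W f := by
  obtain ⟨J, hJ, hc⟩ := hf
  exact ⟨J, fun K hK => h (hJ K hK), hc⟩

theorem CFJ_mx (hP : PicS E 𝒬 𝓗) {W : Set (ℝ × ℝ)} {f : ℝ × ℝ → ℝ} :
    CFJ (mx 𝓗) W f ↔ CFJ 𝓗 W f := by
  classical
  refine ⟨CFJ_mono mx_sub, ?_⟩
  rintro ⟨J, hJ, hc⟩
  have hex : ∀ K : Hair, ∃ K1, K ∈ 𝓗 → K1 ∈ mx 𝓗 ∧ K.car ⊆ K1.car := by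
    intro K
    by_cases hK : K ∈ 𝓗
    · obtain ⟨K1, h1, h2⟩ := exists_mx hP hK
      exact ⟨K1, fun _ => ⟨h1, h2⟩⟩
    · exact ⟨K, fun h => absurd h hK⟩
  choose m hm using hex
  refine ⟨J.image m, ?_, hc.mono ?_⟩
  · intro K hK
    obtain ⟨K', h1, rfl⟩ := Finset.mem_image.1 hK
    exact (hm K' (hJ K' h1)).1
  · rintro p ⟨hp, hpc⟩
    refine ⟨hp, fun h => hpc ?_⟩
    obtain ⟨K, hK, hpK⟩ := h
    exact ⟨m K, Finset.mem_image_of_mem m hK, (hm K (hJ K hK)).2 hpK⟩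

theorem halfQ_congr (h : ∀ W f, CFJ 𝓗 W f ↔ CFJ 𝓗' W f) : HalfQ E 𝒬 𝓗 = HalfQ E 𝒬 𝓗' := by
  funext W N ε z
  exact propext ⟨fun k => ⟨(h _ _).1 k.cf, k.rg, k.sp, k.en⟩,
    fun k => ⟨(h _ _).2 k.cf, k.rg, k.sp, k.en⟩⟩

theorem pairQ_congr (h : ∀ W f, CFJ 𝓗 W f ↔ CFJ 𝓗' W f) : PairQ E 𝒬 𝓗 = PairQ E 𝒬 𝓗' := by
  funext g Bm Bp N ε zm zp
  have e := halfQ_congr (E := E) (𝒬 := 𝒬) h
  exact propext ⟨fun k => ⟨e ▸ k.m, e ▸ k.p, k.key⟩, fun k => ⟨e ▸ k.m, e ▸ k.p, k.key⟩⟩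

theorem solo_congr (h : ∀ W f, CFJ 𝓗 W f ↔ CFJ 𝓗' W f) : SOLO E 𝒬 𝓗 = SOLO E 𝒬 𝓗' := by
  unfold SOLO NullUp NullLo
  rw [halfQ_congr h]

theorem bndq_congr (h : ∀ W f, CFJ 𝓗 W f ↔ CFJ 𝓗' W f) : BNDQ E 𝒬 𝓗 = BNDQ E 𝒬 𝓗' := by
  unfold BNDQ SolNull BoundQ NullUp NullLo
  rw [halfQ_congr h, pairQ_congr h]

/-- **Lemma A for pairwise disjoint hairs is enough** -/
theorem lemaq_of_disj (h : ∀ E 𝒬 𝓗, PicS E 𝒬 𝓗 →
    (∀ K ∈ 𝓗, ∀ K' ∈ 𝓗, K ≠ K' → Disjoint K.car K'.car) →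
    ELS Psq_425.StrQ E 𝒬 𝓗 → SOLO E 𝒬 𝓗 ∧ BNDQ E 𝒬 𝓗) : LEMAQ Psq_425.StrQ := by
  intro E 𝒬 𝓗 hP hE
  have hc : ∀ W f, CFJ (mx 𝓗) W f ↔ CFJ 𝓗 W f := fun W f => CFJ_mx hP
  rw [← solo_congr hc, ← bndq_congr hc]
  exact h E 𝒬 (mx 𝓗) (picS_mx hP) (mx_disjoint hP) hE

end Crest.Agent.R105.Hmx_361
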