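import Crest.Agent.R105.Mp7_87

/-! Row 105, lemma A: oscillation estimate for the stream function, final form. -/

open MeasureTheory Set Filter Topology

namespace Crest.Agent.R105.Mp_87

open Crest.Agent.R105.CF_363

variable {a b c B σ : ℝ} {X1 X2 ψ Ψ : ℝ × ℝ → ℝ} {μ : Measure (ℝ × ℝ)}

theorem gx_negf (f : ℝ × ℝ → ℝ) (p : ℝ × ℝ) : gx (fun q => -f q) p = -gx f p := by
  unfold gx
  rw [show (fun q => -f q) = -f from rfl, fderiv_neg]; rfl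

theorem gy_negf (f : ℝ × ℝ → ℝ) (p : ℝ × ℝ) : gy (fun q => -f q) p = -gy f p := by
  unfold gy
  rw [show (fun q => -f q) = -f from rfl, fderiv_neg]; rfl

theorem Appr.neg {J : ℕ → Finset Hair} {z : ℕ → ℝ × ℝ → ℝ} {κ : Hair → ℝ}
    (A : Appr a b c B σ X1 X2 μ Ψ J z κ) :
    Appr a b c B (-σ) (fun p => -X1 p) (fun p => -X2 p) μ (fun p => -Ψ p) J
      (fun n p => -z n p) (fun K => -κ K) where
  mX1 := A.mX1.neg
  mX2 := A.mX2.neg
  X1B := by intro p hp; simp [A.X1B p hp]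
  X2B := by intro p hp; simp [A.X2B p hp]
  disj := A.disj
  sl := by
    intro n
    obtain ⟨L, h1, h2⟩ := A.sl n
    exact ⟨L, h1, h2.neg⟩
  c1 := by
    refine A.c1.congr (fun n => ?_)
    congr 1; ext p; rw [gx_negf]; ring
  c2 := by
    refine A.c2.congr (fun n => ?_)
    congr 1; ext p; rw [gy_negf]; ring
  T := by
    intro n K hK hx hat
    obtain ⟨h1, h2⟩ := A.T n K hK hx hat
    refine ⟨?_, fun h => by rw [h2 h]; ring⟩
    filter_upwards [h1] with y hy hc hyI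
    rw [hy hc hyI]

theorem PYh_neg {J : ℕ → Finset Hair} {κ : Hair → ℝ} {y : ℝ}
    (h : PYh a b μ Ψ J κ y) : PYh a b μ (fun p => -Ψ p) J (fun K => -κ K) y := by
  intro n K hK
  obtain ⟨h1, h2, h3⟩ := h n K hK
  exact ⟨h1, h2, fun a1 a2 a3 => by show -Ψ (K.x, y) = -κ K; rw [h3 a1 a2 a3]⟩

/-- **Oscillation estimate for the stream function of a limit of cut Lipschitz gradients.** -/
theorem osc_appr [IsFiniteMeasure μ] (L : Lines a b c B σ X1 X2 μ ψ Ψ) (hσ : σ = 1 ∨ σ = -1)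
    {J : ℕ → Finset Hair} {z : ℕ → ℝ × ℝ → ℝ} {κ : Hair → ℝ}
    (A : Appr a b c B σ X1 X2 μ Ψ J z κ)
    {u v r : ℝ} (hr : 0 < r) (ha : a < u - 2 * r) (hb : u + 2 * r < b) (hc : c < v - 2 * r)
    (hat : ∀ x ∈ Icc (u - 2 * r) (u + 2 * r), μ {q | q.1 = x ∧ q.2 < v + 2 * r} = 0)
    (hav : ∀ n, ∀ K ∈ J n, μ {q | q.1 = K.x ∧ q.2 < K.t} ≠ 0 → K.x ∈ Ioo (u - 2 * r) (u + 2 * r) →
      K.t ≤ v - 2 * r ∨ v + 2 * r ≤ K.b) :
    ∃ m0 : ℝ, ∀ᵐ p ∂((volume : Measure (ℝ × ℝ)).restrict (Rc (u - r) (u + r) (v - r) (v + r))),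
      |ψ p - m0| ≤ 4 * Real.sqrt (∫ p in Rc (u - 2 * r) (u + 2 * r) (v - 2 * r) (v + 2 * r), X1 p ^ 2)
        + 4 * Real.sqrt (∫ p in Rc (u - 2 * r) (u + 2 * r) (v - 2 * r) (v + 2 * r), X2 p ^ 2)
        + (μ {q | q.1 ∈ Ico (u - 2 * r) (u + 2 * r) ∧ q.2 < v + 2 * r}).toReal := by
  have mp := mpat_of_appr L hσ A
  have hσ' : -σ = 1 ∨ -σ = -1 := by
    rcases hσ with h | h
    · right; rw [h]
    · left; rw [h]; norm_num
  have mn := mpat_of_appr L.neg hσ' A.neg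
  have hσa : |σ| = 1 := by rcases hσ with h | h <;> rw [h] <;> simp
  refine osc L hσa (ae_PXh J) (ae_PYh A) mp ?_ hr ha hb hc hat (PR := PRh μ J) ?_
  · intro x0 x1 y0 y1 M R px0 px1 py0 py1 pr hM
    exact mn x0 x1 y0 y1 M R px0 px1 (PYh_neg py0) (PYh_neg py1) pr hM
  · intro x0 x1 y0 y1 h1 h2 h3 h4 h5 h6 n K hK hK1 hK2
    rcases hav n K hK hK1 ⟨h1.trans hK2.1, hK2.2.trans h3⟩ with h | h
    · left; linarith
    · right; linarith

end Crest.Agent.R105.Mp_87
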