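import Crest.Agent.R105.Psi7_425

/-!
Row 105 (helper425): smoothing of `χ f` for a function `f` with line formulas: the core of the
construction of the test function of lemma A.
-/

open MeasureTheory Set Filter Topology
open scoped NNReal ENNReal ContDiff

namespace Crest.Agent.R105.Psi8_425

open Psi5_425 Psi6_425 Psi7_425 CF_363 MsB_425

local notation "AC" => AbsolutelyContinuousOnInterval

/-- `f` on the rectangle `(a,b) × (c,d)`: continuous off `S`, square integrable, with line formulas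
on a.e. line off `G`. -/
structure Str (G S : Set (ℝ × ℝ)) (a b c d : ℝ) (f U1 U2 : ℝ × ℝ → ℝ) : Prop where
  cont : ContinuousOn f ((Ioo a b ×ˢ Ioo c d) \ S)
  L2 : MemLp f 2 (volume.restrict (Ioo a b ×ˢ Ioo c d))
  L2x : MemLp U1 2 (volume : Measure (ℝ × ℝ))
  L2y : MemLp U2 2 (volume : Measure (ℝ × ℝ))
  hor : ∀ᵐ y : ℝ, ∀ x x', x ≤ x' → (∀ s ∈ Icc x x', (s, y) ∈ (Ioo a b ×ˢ Ioo c d) \ G) →
    f (x', y) - f (x, y) = ∫ s in x..x', U1 (s, y)
  ver : ∀ᵐ x : ℝ, ∀ y y', y ≤ y' → (∀ t ∈ Icc y y', (x, t) ∈ (Ioo a b ×ˢ Ioo c d) \ G) →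
    f (x, y') - f (x, y) = ∫ t in y..y', U2 (x, t)

theorem memLp_mul_bdd {μ : Measure (ℝ × ℝ)} {g h : ℝ × ℝ → ℝ} (hg : MemLp g 2 μ)
    (hh : Continuous h) (hc : HasCompactSupport h) : MemLp (fun p => h p * g p) 2 μ := by
  obtain ⟨C, hC⟩ := hc.exists_bound_of_continuous hh
  refine MemLp.of_le_mul (c := C) hg (hh.aestronglyMeasurable.mul hg.1) ?_
  refine Eventually.of_forall fun x => ?_
  rw [norm_mul]
  exact mul_le_mul_of_nonneg_right (hC x) (norm_nonneg _)

theorem volume_rect (a b c d : ℝ) : volume (Ioo a b ×ˢ Ioo c d : Set (ℝ × ℝ)) ≠ ⊤ := by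
  rw [Measure.volume_eq_prod, Measure.prod_prod, Real.volume_Ioo, Real.volume_Ioo]
  exact ENNReal.mul_ne_top ENNReal.ofReal_ne_top ENNReal.ofReal_ne_top

theorem hasDerivAt_x {v : ℝ × ℝ → ℝ} {s y : ℝ} (h : DifferentiableAt ℝ v (s, y)) :
    HasDerivAt (fun s => v (s, y)) (gx v (s, y)) s := gx_eq_deriv h

theorem hasDerivAt_y {v : ℝ × ℝ → ℝ} {x t : ℝ} (h : DifferentiableAt ℝ v (x, t)) :
    HasDerivAt (fun t => v (x, t)) (gy v (x, t)) t := gy_eq_deriv h

theorem ftc_x {V : Set (ℝ × ℝ)} (hV : IsOpen V) {v : ℝ × ℝ → ℝ} (hv : ContDiffOn ℝ 1 v V)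
    {s t y : ℝ} (hst : s ≤ t) (h : ∀ r ∈ Icc s t, (r, y) ∈ V) :
    IntervalIntegrable (fun r => gx v (r, y)) volume s t ∧
      v (t, y) - v (s, y) = ∫ r in s..t, gx v (r, y) := by
  have h1 : ContinuousOn (gx v) V :=
    (hv.continuousOn_fderiv_of_isOpen hV le_rfl).clm_apply continuousOn_const
  have h2 : ContinuousOn (fun r => gx v (r, y)) (uIcc s t) := by
    rw [uIcc_of_le hst]
    exact h1.comp (by fun_prop) h
  have h3 := h2.intervalIntegrable (μ := volume)
  refine ⟨h3, ?_⟩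
  symm
  refine intervalIntegral.integral_eq_sub_of_hasDerivAt (f := fun r => v (r, y)) (fun r hr => ?_) h3
  rw [uIcc_of_le hst] at hr
  exact hasDerivAt_x ((hv.contDiffAt (hV.mem_nhds (h r hr))).differentiableAt (by norm_num))

theorem ftc_y {V : Set (ℝ × ℝ)} (hV : IsOpen V) {v : ℝ × ℝ → ℝ} (hv : ContDiffOn ℝ 1 v V)
    {s t x : ℝ} (hst : s ≤ t) (h : ∀ r ∈ Icc s t, (x, r) ∈ V) :
    IntervalIntegrable (fun r => gy v (x, r)) volume s t ∧
      v (x, t) - v (x, s) = ∫ r in s..t, gy v (x, r) := by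
  have h1 : ContinuousOn (gy v) V :=
    (hv.continuousOn_fderiv_of_isOpen hV le_rfl).clm_apply continuousOn_const
  have h2 : ContinuousOn (fun r => gy v (x, r)) (uIcc s t) := by
    rw [uIcc_of_le hst]
    exact h1.comp (by fun_prop) h
  have h3 := h2.intervalIntegrable (μ := volume)
  refine ⟨h3, ?_⟩
  symm
  refine intervalIntegral.integral_eq_sub_of_hasDerivAt (f := fun r => v (x, r)) (fun r hr => ?_) h3
  rw [uIcc_of_le hst] at hr
  exact hasDerivAt_y ((hv.contDiffAt (hV.mem_nhds (h r hr))).differentiableAt (by norm_num))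

theorem norm_gx_sub_le (v : ℝ × ℝ → ℝ) (U1 U2 : ℝ × ℝ → ℝ) (p : ℝ × ℝ) :
    ‖gx v p - U1 p‖ ≤ 1 * ‖fderiv ℝ v p - Gf U1 U2 p‖ := by
  have h := (fderiv ℝ v p - Gf U1 U2 p).le_opNorm ((1 : ℝ), (0 : ℝ))
  have h2 : ‖((1 : ℝ), (0 : ℝ))‖ = 1 := by simp [Prod.norm_def]
  rw [h2, mul_one] at h
  rw [one_mul]
  refine le_trans (le_of_eq ?_) h
  congr 1
  rw [_root_.sub_apply, Gf_apply]
  simp [gx]

theorem norm_gy_sub_le (v : ℝ × ℝ → ℝ) (U1 U2 : ℝ × ℝ → ℝ) (p : ℝ × ℝ) :
    ‖gy v p - U2 p‖ ≤ 1 * ‖fderiv ℝ v p - Gf U1 U2 p‖ := by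
  have h := (fderiv ℝ v p - Gf U1 U2 p).le_opNorm ((0 : ℝ), (1 : ℝ))
  have h2 : ‖((0 : ℝ), (1 : ℝ))‖ = 1 := by simp [Prod.norm_def]
  rw [h2, mul_one] at h
  rw [one_mul]
  refine le_trans (le_of_eq ?_) h
  congr 1
  rw [_root_.sub_apply, Gf_apply]
  simp [gy]

/-- the smoothed function -/
structure Smo (E G S : Set (ℝ × ℝ)) (a b c d : ℝ) (f U1 : ℝ × ℝ → ℝ) (χ ψ : ℝ × ℝ → ℝ) : Prop where
  smooth : ContDiffOn ℝ ∞ ψ Eᶜ
  cpt : HasCompactSupport ψ
  onE : ∀ p ∈ E, ψ p = χ p * f p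
  cont : ContinuousOn ψ Sᶜ
  fin : IntegrableOn (g2 ψ) Eᶜ
  int : IntegrableOn (gx ψ) Eᶜ
  hor : ∀ᵐ y : ℝ, ∀ a' b', a' ≤ b' → (∀ s ∈ Icc a' b', (s, y) ∉ G) →
    AC (fun s => ψ (s, y)) a' b'
  ver : ∀ᵐ x : ℝ, ∀ a' b', a' ≤ b' → (∀ s ∈ Icc a' b', (x, s) ∉ G) →
    AC (fun s => ψ (x, s)) a' b'
  val : ∫ p in Eᶜ, gx ψ p = ∫ p in Ioo a b ×ˢ Ioo c d, (gx χ p * f p + χ p * U1 p)

variable {E G S : Set (ℝ × ℝ)} {a b c d : ℝ} {f U1 U2 χ : ℝ × ℝ → ℝ}

theorem core (hE : IsClosed E) (hnull : volume E = 0) (hG : IsClosed G) (hS : IsClosed S)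
    (hSG : S ⊆ G) (hGE : G ⊆ E)
    (St : Str G S a b c d f U1 U2) (hχ : ContDiff ℝ ∞ χ) (hχc : HasCompactSupport χ)
    (hχs : tsupport χ ⊆ Ioo a b ×ˢ Ioo c d) : ∃ ψ, Smo E G S a b c d f U1 χ ψ := by
  set R : Set (ℝ × ℝ) := Ioo a b ×ˢ Ioo c d with hR
  have hRo : IsOpen R := isOpen_Ioo.prod isOpen_Ioo
  set V : Set (ℝ × ℝ) := R \ E with hVd
  have hV : IsOpen V := hRo.sdiff hE
  have hVR : V ⊆ R := sdiff_subset
  have hVE : V ⊆ Eᶜ := fun p hp => hp.2
  have hVG : ∀ p ∈ V, p ∈ R \ G := fun p hp => ⟨hp.1, fun h => hp.2 (hGE h)⟩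
  have hfV : ContinuousOn f V := St.cont.mono fun p hp => ⟨hp.1, fun h => hp.2 (hGE (hSG h))⟩
  have hχ1 : ContDiff ℝ 1 χ := hχ.of_le (by norm_num)
  have hvolR : volume R ≠ ⊤ := volume_rect a b c d
  have hfinV : IsFiniteMeasure ((volume : Measure (ℝ × ℝ)).restrict V) :=
    ⟨by rw [Measure.restrict_apply_univ]; exact lt_of_le_of_lt (measure_mono hVR)
          (lt_top_iff_ne_top.mpr hvolR)⟩
  have hfinR : IsFiniteMeasure ((volume : Measure (ℝ × ℝ)).restrict R) :=
    ⟨by rw [Measure.restrict_apply_univ]; exact lt_top_iff_ne_top.mpr hvolR⟩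
  have horV : ∀ᵐ y : ℝ, ∀ x x', x ≤ x' → (∀ s ∈ Icc x x', (s, y) ∈ V) →
      f (x', y) - f (x, y) = ∫ s in x..x', U1 (s, y) := by
    filter_upwards [St.hor] with y hy x x' hxx' h
    exact hy x x' hxx' fun s hs => hVG _ (h s hs)
  have verV : ∀ᵐ x : ℝ, ∀ y y', y ≤ y' → (∀ t ∈ Icc y y', (x, t) ∈ V) →
      f (x, y') - f (x, y) = ∫ t in y..y', U2 (x, t) := by
    filter_upwards [St.ver] with x hx y y' hyy' h
    exact hx y y' hyy' fun s hs => hVG _ (h s hs)
  have hWG := wg_of_lines hV hfV St.L2x St.L2y horV verV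
  have hGf : MemLp (Gf U1 U2) 2 (volume.restrict V) :=
    memLp_Gf (St.L2x.restrict V) (St.L2y.restrict V)
  obtain ⟨v, hwc, hvs, hvf, hwb, hvL⟩ := ms_on hV hfV hGf hWG one_pos
  set w : ℝ × ℝ → ℝ := fun p => v p - f p with hw
  have hw0 : ∀ p ∉ V, w p = 0 := fun p hp => by rw [hw]; simp only; rw [hvf p hp, sub_self]
  have hvs1 : ContDiffOn ℝ 1 v V := hvs.of_le (by norm_num)
  have hvw : ∀ p, v p = f p + w p := fun p => by rw [hw]; ring
  -- differences of gradients
  have hmem : MemLp (fun p => fderiv ℝ v p - Gf U1 U2 p) 2 (volume.restrict V) := by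
    refine ⟨?_, lt_of_le_of_lt hvL ENNReal.ofReal_lt_top⟩
    exact (measurable_fderiv ℝ v).aestronglyMeasurable.sub hGf.1
  have hD1 : MemLp (fun p => gx v p - U1 p) 2 (volume.restrict V) := by
    refine MemLp.of_le_mul (c := 1) hmem ?_ (Eventually.of_forall fun p => norm_gx_sub_le v U1 U2 p)
    exact (measurable_gx v).aestronglyMeasurable.sub (St.L2x.restrict V).1
  have hD2 : MemLp (fun p => gy v p - U2 p) 2 (volume.restrict V) := by
    refine MemLp.of_le_mul (c := 1) hmem ?_ (Eventually.of_forall fun p => norm_gy_sub_le v U1 U2 p)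
    exact (measurable_gy v).aestronglyMeasurable.sub (St.L2y.restrict V).1
  have hD1' : MemLp (V.indicator fun p => gx v p - U1 p) 2 (volume : Measure (ℝ × ℝ)) :=
    (memLp_indicator_iff_restrict hV.measurableSet).2 hD1
  have hD2' : MemLp (V.indicator fun p => gy v p - U2 p) 2 (volume : Measure (ℝ × ℝ)) :=
    (memLp_indicator_iff_restrict hV.measurableSet).2 hD2
  have hfR : MemLp (R.indicator f) 2 (volume : Measure (ℝ × ℝ)) :=
    (memLp_indicator_iff_restrict hRo.measurableSet).2 St.L2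
  -- lines of `w`
  have hwx : ∀ᵐ y : ℝ, ∀ a' b', a' ≤ b' → AC (fun s => w (s, y)) a' b' := by
    filter_upwards [horV, Mp_87.ae_line_y hD1', Mp_87.ae_line_y St.L2x] with y h1 h2 h3
    refine line_w (O := {s | (s, y) ∈ V}) (hV.preimage (by fun_prop))
      (D := fun s => gx v (s, y) - U1 (s, y)) (hwc.comp (by fun_prop)) (fun s hs => hw0 _ hs)
      (h2.locallyIntegrable (by norm_num)) ?_
    intro s t hst hr
    obtain ⟨i1, e1⟩ := ftc_x hV hvs1 hst hr
    have e2 := h1 s t hst hr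
    have i2 := intervalIntegrable_of_li (h3.locallyIntegrable (by norm_num)) s t
    rw [intervalIntegral.integral_sub i1 i2, ← e1, ← e2, hw]
    ring
  have hwy : ∀ᵐ x : ℝ, ∀ a' b', a' ≤ b' → AC (fun t => w (x, t)) a' b' := by
    filter_upwards [verV, Mp_87.ae_line_x hD2', Mp_87.ae_line_x St.L2y] with x h1 h2 h3
    refine line_w (O := {t | (x, t) ∈ V}) (hV.preimage (by fun_prop))
      (D := fun t => gy v (x, t) - U2 (x, t)) (hwc.comp (by fun_prop)) (fun s hs => hw0 _ hs)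
      (h2.locallyIntegrable (by norm_num)) ?_
    intro s t hst hr
    obtain ⟨i1, e1⟩ := ftc_y hV hvs1 hst hr
    have e2 := h1 s t hst hr
    have i2 := intervalIntegrable_of_li (h3.locallyIntegrable (by norm_num)) s t
    rw [intervalIntegral.integral_sub i1 i2, ← e1, ← e2, hw]
    ring
  -- lines of `χ f`
  have hfx : ∀ᵐ y : ℝ, ∀ a' b', a' ≤ b' → (∀ s ∈ Icc a' b', (s, y) ∉ G) →
      AC (fun s => χ (s, y) * f (s, y)) a' b' := by
    filter_upwards [St.hor, Mp_87.ae_line_y hfR, Mp_87.ae_line_y St.L2x] with y h1 h2 h3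
    exact line_cut (O := {s | (s, y) ∈ R}) (C := {s | (s, y) ∈ G}) (hRo.preimage (by fun_prop))
      (hG.preimage (by fun_prop)) (f := fun s => f (s, y)) (U := fun s => U1 (s, y))
      (χ := fun s => χ (s, y)) (h3.locallyIntegrable (by norm_num))
      (h2.locallyIntegrable (by norm_num)) h1 (hχ1.comp (by fun_prop))
      ((line_x_support hχc y).2.trans fun s hs => hχs hs)
  have hfy : ∀ᵐ x : ℝ, ∀ a' b', a' ≤ b' → (∀ s ∈ Icc a' b', (x, s) ∉ G) →
      AC (fun s => χ (x, s) * f (x, s)) a' b' := by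
    filter_upwards [St.ver, Mp_87.ae_line_x hfR, Mp_87.ae_line_x St.L2y] with x h1 h2 h3
    exact line_cut (O := {s | (x, s) ∈ R}) (C := {s | (x, s) ∈ G}) (hRo.preimage (by fun_prop))
      (hG.preimage (by fun_prop)) (f := fun s => f (x, s)) (U := fun s => U2 (x, s))
      (χ := fun s => χ (x, s)) (h3.locallyIntegrable (by norm_num))
      (h2.locallyIntegrable (by norm_num)) h1 (hχ1.comp (by fun_prop))
      ((line_y_support hχc x).2.trans fun s hs => hχs hs)
  -- the function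
  set ψ : ℝ × ℝ → ℝ := fun p => χ p * v p with hψ
  have hψ0 : ∀ p ∉ R, ψ =ᶠ[𝓝 p] 0 := by
    intro p hp
    have h1 : p ∉ tsupport χ := fun h' => hp (hχs h')
    filter_upwards [(notMem_tsupport_iff_eventuallyEq.1 h1)] with q hq
    rw [hψ]; show χ q * v q = 0; rw [hq]; simp
  have hvdiff : ∀ p ∈ V, DifferentiableAt ℝ v p := fun p hp =>
    (hvs1.contDiffAt (hV.mem_nhds hp)).differentiableAt (by norm_num)
  have hχdiff : ∀ p, DifferentiableAt ℝ χ p := fun p => hχ1.differentiable (by norm_num) p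
  have hgxψ : ∀ p ∈ V, gx ψ p = gx χ p * v p + χ p * gx v p := by
    intro p hp
    rw [hψ, gx_mul (hχdiff p) (hvdiff p hp)]
    ring
  have hgyψ : ∀ p ∈ V, gy ψ p = gy χ p * v p + χ p * gy v p := by
    intro p hp
    rw [hψ, gy_mul (hχdiff p) (hvdiff p hp)]
    ring
  have hgx0 : ∀ p ∉ R, gx ψ p = 0 := fun p hp => by
    rw [gx_congr (hψ0 p hp)]; exact gx_const 0 p
  have hgy0 : ∀ p ∉ R, gy ψ p = 0 := fun p hp => by
    rw [gy_congr (hψ0 p hp)]; exact gy_const 0 p
  -- integrability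
  have hvL2 : MemLp v 2 (volume.restrict V) := by
    have h1 : MemLp f 2 (volume.restrict V) := by
      have := St.L2.restrict V
      rwa [Measure.restrict_restrict_of_subset hVR] at this
    have h2 : MemLp w 2 (volume.restrict V) := by
      refine MemLp.of_bound hwc.aestronglyMeasurable 1 (Eventually.of_forall fun p => ?_)
      rw [Real.norm_eq_abs]; exact hwb p
    exact (h1.add h2).ae_eq (Eventually.of_forall fun p => (hvw p).symm)
  have hgxv : MemLp (gx v) 2 (volume.restrict V) :=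
    (hD1.add (St.L2x.restrict V)).ae_eq (Eventually.of_forall fun p => by
      show gx v p - U1 p + U1 p = gx v p; ring)
  have hgyv : MemLp (gy v) 2 (volume.restrict V) :=
    (hD2.add (St.L2y.restrict V)).ae_eq (Eventually.of_forall fun p => by
      show gy v p - U2 p + U2 p = gy v p; ring)
  have hχgx : Continuous (gx χ) := continuous_gx hχ1
  have hχgy : Continuous (gy χ) := continuous_gy hχ1
  have hχgxc : HasCompactSupport (gx χ) := hχc.fderiv_apply (𝕜 := ℝ) ((1:ℝ), (0:ℝ))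
  have hχgyc : HasCompactSupport (gy χ) := hχc.fderiv_apply (𝕜 := ℝ) ((0:ℝ), (1:ℝ))
  have hψx : MemLp (gx ψ) 2 (volume.restrict V) := by
    refine ((memLp_mul_bdd hvL2 hχgx hχgxc).add (memLp_mul_bdd hgxv hχ1.continuous hχc)).ae_eq ?_
    rw [EventuallyEq, ae_restrict_iff' hV.measurableSet]
    exact Eventually.of_forall fun p hp => (hgxψ p hp).symm
  have hψy : MemLp (gy ψ) 2 (volume.restrict V) := by
    refine ((memLp_mul_bdd hvL2 hχgy hχgyc).add (memLp_mul_bdd hgyv hχ1.continuous hχc)).ae_eq ?_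
    rw [EventuallyEq, ae_restrict_iff' hV.measurableSet]
    exact Eventually.of_forall fun p hp => (hgyψ p hp).symm
  have hnotR : ∀ p ∈ Eᶜ \ V, p ∉ R := fun p hp h => hp.2 ⟨h, hp.1⟩
  have hintx : IntegrableOn (gx ψ) Eᶜ := by
    have h1 : IntegrableOn (gx ψ) V := hψx.integrable (by norm_num)
    have h2 : IntegrableOn (gx ψ) (Eᶜ \ V) := by
      refine (integrableOn_zero).congr_fun (fun p hp => ?_)
        (hE.isOpen_compl.measurableSet.diff hV.measurableSet)
      exact (hgx0 p (hnotR p hp)).symm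
    have := h1.union h2
    rwa [union_sdiff_cancel hVE] at this
  have hint2 : IntegrableOn (g2 ψ) Eᶜ := by
    have h1 : IntegrableOn (g2 ψ) V := hψx.integrable_sq.add hψy.integrable_sq
    have h2 : IntegrableOn (g2 ψ) (Eᶜ \ V) := by
      refine (integrableOn_zero).congr_fun (fun p hp => ?_)
        (hE.isOpen_compl.measurableSet.diff hV.measurableSet)
      unfold g2
      rw [hgx0 p (hnotR p hp), hgy0 p (hnotR p hp)]; simp
    have := h1.union h2
    rwa [union_sdiff_cancel hVE] at this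
  -- the value
  have hI1 : IntegrableOn (fun p => gx χ p * f p + χ p * U1 p) R := by
    have h1 := (memLp_mul_bdd St.L2 hχgx hχgxc).integrable (by norm_num)
    have h2 := (memLp_mul_bdd (St.L2x.restrict R) hχ1.continuous hχc).integrable (by norm_num)
    exact h1.add h2
  have hval : ∫ p in Eᶜ, gx ψ p = ∫ p in R, (gx χ p * f p + χ p * U1 p) := by
    have s1 : ∫ p in Eᶜ, gx ψ p = ∫ p in V, gx ψ p :=
      setIntegral_eq_of_subset_of_forall_sdiff_eq_zero hE.isOpen_compl.measurableSet hVE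
        fun p hp => hgx0 p (hnotR p hp)
    rw [s1, ← integral_indicator hV.measurableSet, ← integral_indicator hRo.measurableSet]
    have j1 : Integrable (V.indicator (gx ψ)) ((volume : Measure ℝ).prod (volume : Measure ℝ)) := by
      rw [← Measure.volume_eq_prod, integrable_indicator_iff hV.measurableSet]
      exact hintx.mono_set hVE
    have j2 : Integrable (R.indicator fun p => gx χ p * f p + χ p * U1 p)
        ((volume : Measure ℝ).prod (volume : Measure ℝ)) := by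
      rw [← Measure.volume_eq_prod, integrable_indicator_iff hRo.measurableSet]
      exact hI1
    rw [Measure.volume_eq_prod, integral_prod_symm _ j1, integral_prod_symm _ j2]
    refine integral_congr_ae ?_
    have hnE : ∀ᵐ p : ℝ × ℝ, p ∉ E := measure_eq_zero_iff_ae_notMem.mp hnull
    filter_upwards [hwx, horV, Mp_87.ae_line_y St.L2x, CF_363.ae_swap hnE, j2.prod_left_ae] with
      y h1 h2 h3 h4 h5
    -- the derivative of `χ w`
    have hχy : ∀ a' b', a' ≤ b' → AC (fun s => χ (s, y)) a' b' := fun a' b' _ =>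
      ((hχ1.comp (by fun_prop : ContDiff ℝ 1 fun s : ℝ => (s, y))).contDiffOn
        (s := uIcc a' b')).absolutelyContinuousOnInterval
    have hχw : ∀ a' b', a' ≤ b' → AC (fun s => χ (s, y) * w (s, y)) a' b' := fun a' b' hab =>
      (hχy a' b' hab).mul (h1 a' b' hab)
    obtain ⟨hc', hs'⟩ := line_x_support hχc y
    obtain ⟨r, hr0, hr⟩ : ∃ r : ℝ, 0 < r ∧ ∀ x, x ∉ Ioo (-r) r →
        x ∉ tsupport (fun s => χ (s, y)) := by
      obtain ⟨r, hr⟩ := hc'.isCompact.isBounded.subset_ball (0 : ℝ)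
      refine ⟨max r 1, by positivity, fun x hx hxs => hx ?_⟩
      have := hr hxs
      rw [Metric.mem_ball, dist_zero_right, Real.norm_eq_abs, abs_lt] at this
      have := le_max_left r 1
      exact ⟨by linarith, by linarith⟩
    obtain ⟨k1, k2⟩ := integral_deriv_eq_zero hχw hr0 (fun x hx => by
      filter_upwards [(notMem_tsupport_iff_eventuallyEq.1 (hr x hx))] with z hz
      show χ (z, y) * w (z, y) = 0
      have : χ (z, y) = 0 := hz
      rw [this, zero_mul])
    have hVy : IsOpen {s : ℝ | (s, y) ∈ V} := hV.preimage (by fun_prop)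
    have e1 : ∀ᵐ s : ℝ, V.indicator (gx ψ) (s, y) =
        R.indicator (fun p => gx χ p * f p + χ p * U1 p) (s, y) +
          deriv (fun s => χ (s, y) * w (s, y)) s := by
      filter_upwards [h4, ae_hasDerivAt_of_line hVy (h3.locallyIntegrable (by norm_num))
        (fun s t hst hr => h2 s t hst hr)] with s hsE hsd
      by_cases hsR : (s, y) ∈ R
      · have hsV : (s, y) ∈ V := ⟨hsR, hsE⟩
        rw [indicator_of_mem hsV, indicator_of_mem hsR, hgxψ _ hsV]
        have d1 : HasDerivAt (fun s => χ (s, y)) (gx χ (s, y)) s := hasDerivAt_x (hχdiff _)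
        have d2 : HasDerivAt (fun s => v (s, y)) (gx v (s, y)) s := hasDerivAt_x (hvdiff _ hsV)
        have d3 : HasDerivAt (fun s => w (s, y)) (gx v (s, y) - U1 (s, y)) s := d2.sub (hsd hsV)
        have d4 : HasDerivAt (fun s => χ (s, y) * w (s, y))
            (gx χ (s, y) * w (s, y) + χ (s, y) * (gx v (s, y) - U1 (s, y))) s := d1.mul d3
        rw [d4.deriv, hvw]
        ring
      · have hsV : (s, y) ∉ V := fun h => hsR h.1
        rw [indicator_of_notMem hsV, indicator_of_notMem hsR]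
        have h6 : s ∉ tsupport (fun s => χ (s, y)) := fun h => hsR (hχs (hs' h))
        have h7 : (fun s => χ (s, y) * w (s, y)) =ᶠ[𝓝 s] fun _ => 0 := by
          filter_upwards [(notMem_tsupport_iff_eventuallyEq.1 h6)] with z hz
          have : χ (z, y) = 0 := hz
          rw [this, zero_mul]
        rw [h7.deriv_eq]; simp
    rw [integral_congr_ae e1, integral_add h5 k1, k2, add_zero]
  refine ⟨ψ, ?_, ?_, ?_, ?_, hint2, hintx, ?_, ?_, hval⟩
  · intro p hp
    refine ContDiffAt.contDiffWithinAt ?_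
    by_cases hpR : p ∈ R
    · exact hχ.contDiffAt.mul (hvs.contDiffAt (hV.mem_nhds ⟨hpR, hp⟩))
    · exact contDiffAt_const.congr_of_eventuallyEq (hψ0 p hpR)
  · exact hχc.mul_right
  · intro p hp
    rw [hψ]; simp only
    rw [hvf p fun h => h.2 hp]
  · intro p hp
    refine ContinuousAt.continuousWithinAt ?_
    by_cases hpR : p ∈ R
    · have h1 : ContinuousAt f p := St.cont.continuousAt ((hRo.sdiff hS).mem_nhds ⟨hpR, hp⟩)
      have h2 : ContinuousAt v p := by
        have := h1.add hwc.continuousAt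
        refine this.congr (Eventually.of_forall fun q => ?_)
        show f q + w q = v q
        rw [hvw q]
      exact hχ1.continuous.continuousAt.mul h2
    · exact (continuousAt_congr (hψ0 p hpR)).2 continuousAt_const
  · filter_upwards [hwx, hfx] with y h1 h2 a' b' hab hG'
    have h3 : AC (fun s => χ (s, y)) a' b' :=
      ((hχ1.comp (by fun_prop : ContDiff ℝ 1 fun s : ℝ => (s, y))).contDiffOn
        (s := uIcc a' b')).absolutelyContinuousOnInterval
    refine ac_congr ((h2 a' b' hab hG').add (h3.mul (h1 a' b' hab))) fun s _ => ?_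
    show χ (s, y) * v (s, y) = χ (s, y) * f (s, y) + χ (s, y) * w (s, y)
    rw [hvw]; ring
  · filter_upwards [hwy, hfy] with x h1 h2 a' b' hab hG'
    have h3 : AC (fun s => χ (x, s)) a' b' :=
      ((hχ1.comp (by fun_prop : ContDiff ℝ 1 fun s : ℝ => (x, s))).contDiffOn
        (s := uIcc a' b')).absolutelyContinuousOnInterval
    refine ac_congr ((h2 a' b' hab hG').add (h3.mul (h1 a' b' hab))) fun s _ => ?_
    show χ (x, s) * v (x, s) = χ (x, s) * f (x, s) + χ (x, s) * w (x, s)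
    rw [hvw]; ring

end Crest.Agent.R105.Psi8_425
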