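import Crest.Agent.R105.Psi4_425
import Crest.Agent.R105.Psi8_425
import Crest.Agent.R105.Mp8_87

/-!
Row 105 (helper425): one half (lower problem) of the stream function: continuous representative,
line formulas, constant on hairs, flux.
-/

open MeasureTheory Set Filter Topology
open scoped NNReal ENNReal ContDiff

namespace Crest.Agent.R105.Psi10_425

open Psi5_425 Psi7_425 Psi_425 CF_363 Skp2_257 Mp_87

local notation "AC" => AbsolutelyContinuousOnInterval

/-! ### the flux on a line -/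

theorem flux_measure {a b : ℝ} (hab : a ≤ b) {φ : ℝ → ℝ} (hφ : ContDiff ℝ 1 φ)
    (h0 : ∀ x, x ∉ Ioo a b → φ x = 0) {ρ : Measure ℝ} [IsFiniteMeasure ρ]
    (h1 : ∀ᵐ q ∂ρ, φ q = 1) :
    ∫ x in a..b, deriv φ x * (ρ (Ico a x)).toReal = -(ρ univ).toReal := by
  have hd : Continuous (deriv φ) := hφ.continuous_deriv le_rfl
  obtain ⟨C, hC⟩ := (isCompact_Icc (a := a) (b := b)).exists_bound_of_continuousOn hd.continuousOn
  have e0 : ∀ x, (ρ (Ico a x)).toReal = ∫ q, (Ico a x).indicator (fun _ => (1:ℝ)) q ∂ρ := by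
    intro x
    rw [integral_indicator measurableSet_Ico, setIntegral_const, smul_eq_mul, mul_one]
    rfl
  rw [intervalIntegral.integral_of_le hab]
  have e1 : ∀ x, deriv φ x * (ρ (Ico a x)).toReal =
      ∫ q, deriv φ x * (Ico a x).indicator (fun _ => (1:ℝ)) q ∂ρ := by
    intro x
    rw [e0, integral_const_mul]
  simp_rw [e1]
  have hmeas : Measurable (Function.uncurry fun (x q : ℝ) =>
      deriv φ x * (Ico a x).indicator (fun _ => (1:ℝ)) q) := by
    refine (hd.measurable.comp measurable_fst).mul ?_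
    have h2 : MeasurableSet {p : ℝ × ℝ | a ≤ p.2 ∧ p.2 < p.1} :=
      (measurableSet_le measurable_const measurable_snd).inter
        (measurableSet_lt measurable_snd measurable_fst)
    have h3 : (fun p : ℝ × ℝ => (Ico a p.1).indicator (fun _ => (1:ℝ)) p.2) =
        {p : ℝ × ℝ | a ≤ p.2 ∧ p.2 < p.1}.indicator fun _ => 1 := by
      funext p
      by_cases hp : a ≤ p.2 ∧ p.2 < p.1
      · rw [indicator_of_mem (show p.2 ∈ Ico a p.1 from hp),
          indicator_of_mem (show p ∈ {p : ℝ × ℝ | a ≤ p.2 ∧ p.2 < p.1} from hp)]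
      · rw [indicator_of_notMem (show p.2 ∉ Ico a p.1 from hp),
          indicator_of_notMem (show p ∉ {p : ℝ × ℝ | a ≤ p.2 ∧ p.2 < p.1} from hp)]
    show Measurable fun p : ℝ × ℝ => (Ico a p.1).indicator (fun _ => (1:ℝ)) p.2
    rw [h3]
    exact measurable_const.indicator h2
  have hint : Integrable (Function.uncurry fun (x q : ℝ) =>
      deriv φ x * (Ico a x).indicator (fun _ => (1:ℝ)) q)
      ((volume.restrict (Ioc a b)).prod ρ) := by
    refine Integrable.of_bound (C := C) hmeas.aestronglyMeasurable ?_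
    have h4 : ∀ᵐ p ∂((volume.restrict (Ioc a b)).prod ρ), p.1 ∈ Ioc a b :=
      Measure.quasiMeasurePreserving_fst.ae (ae_restrict_mem measurableSet_Ioc)
    filter_upwards [h4] with p hp
    have h5 := hC p.1 ⟨hp.1.le, hp.2⟩
    have h6 : 0 ≤ C := (norm_nonneg _).trans h5
    show ‖deriv φ p.1 * (Ico a p.1).indicator (fun _ => (1:ℝ)) p.2‖ ≤ C
    rw [norm_mul]
    by_cases hp2 : p.2 ∈ Ico a p.1
    · rw [indicator_of_mem hp2]; simpa using h5
    · rw [indicator_of_notMem hp2]; simpa using h6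
  rw [integral_integral_swap hint]
  have e2 : ∀ᵐ q ∂ρ, ∫ x in Ioc a b, deriv φ x * (Ico a x).indicator (fun _ => (1:ℝ)) q = -1 := by
    filter_upwards [h1] with q hq
    have hqab : q ∈ Ioo a b := by
      by_contra hcon
      rw [h0 q hcon] at hq
      exact zero_ne_one hq
    have e3 : ∫ x in Ioc a b, deriv φ x * (Ico a x).indicator (fun _ => (1:ℝ)) q =
        ∫ x in Ioc q b, deriv φ x := by
      rw [← integral_indicator measurableSet_Ioc, ← integral_indicator measurableSet_Ioc]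
      congr 1
      funext x
      by_cases hx : x ∈ Ioc q b
      · rw [indicator_of_mem hx, indicator_of_mem (show x ∈ Ioc a b from ⟨hqab.1.trans hx.1, hx.2⟩),
          indicator_of_mem (show q ∈ Ico a x from ⟨hqab.1.le, hx.1⟩), mul_one]
      · rw [indicator_of_notMem hx]
        by_cases hx2 : x ∈ Ioc a b
        · rw [indicator_of_mem hx2, indicator_of_notMem (show q ∉ Ico a x from
            fun h => hx ⟨h.2, hx2.2⟩), mul_zero]
        · rw [indicator_of_notMem hx2]
    rw [e3, ← intervalIntegral.integral_of_le hqab.2.le,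
      intervalIntegral.integral_deriv_eq_sub (fun x _ => hφ.differentiable (by norm_num) x)
        (hd.intervalIntegrable _ _), hq, h0 b fun h => lt_irrefl _ h.2]
    ring
  rw [integral_congr_ae e2]
  simp
  rfl

theorem flux_line {a b k : ℝ} (hab : a ≤ b) {φ h F : ℝ → ℝ} (hφ : ContDiff ℝ 1 φ)
    (h0 : ∀ x, x ∉ Ioo a b → φ x = 0) {ρ : Measure ℝ} [IsFiniteMeasure ρ]
    (h1 : ∀ᵐ q ∂ρ, φ q = 1) (hh : IntervalIntegrable h volume a b)
    (hF : ∀ x ∈ Icc a b, F x = k - (∫ s in a..x, h s) - (ρ (Ico a x)).toReal) :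
    ∫ x in a..b, (deriv φ x * F x - φ x * h x) = (ρ univ).toReal := by
  have hd : Continuous (deriv φ) := hφ.continuous_deriv le_rfl
  have hφc : Continuous φ := hφ.continuous
  have hac : AC (fun x => ∫ s in a..x, h s) a b :=
    hh.absolutelyContinuousOnInterval_intervalIntegral (by simp)
  have hacφ : AC φ a b := (hφ.contDiffOn (s := uIcc a b)).absolutelyContinuousOnInterval
  have ha0 : φ a = 0 := h0 a fun h => lt_irrefl _ h.1
  have hb0 : φ b = 0 := h0 b fun h => lt_irrefl _ h.2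
  have hmono : Monotone fun x => (ρ (Ico a x)).toReal := fun x y hxy =>
    ENNReal.toReal_mono (measure_ne_top _ _) (measure_mono (Ico_subset_Ico_right hxy))
  have i1 : IntervalIntegrable (fun x => deriv φ x * k) volume a b :=
    (hd.mul continuous_const).intervalIntegrable _ _
  have i2 : IntervalIntegrable (fun x => deriv φ x * ∫ s in a..x, h s) volume a b :=
    (hac.continuousOn.intervalIntegrable).continuousOn_mul hd.continuousOn
  have i3 : IntervalIntegrable (fun x => deriv φ x * (ρ (Ico a x)).toReal) volume a b :=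
    (hmono.intervalIntegrable).continuousOn_mul hd.continuousOn
  have i4 : IntervalIntegrable (fun x => φ x * h x) volume a b :=
    hh.continuousOn_mul hφc.continuousOn
  have e1 : ∫ x in a..b, (deriv φ x * F x - φ x * h x) =
      ∫ x in a..b, (deriv φ x * k - deriv φ x * (∫ s in a..x, h s) -
        deriv φ x * (ρ (Ico a x)).toReal - φ x * h x) := by
    refine intervalIntegral.integral_congr fun x hx => ?_
    rw [uIcc_of_le hab] at hx
    show deriv φ x * F x - φ x * h x = _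
    rw [hF x hx]; ring
  rw [e1, intervalIntegral.integral_sub ((i1.sub i2).sub i3) i4,
    intervalIntegral.integral_sub (i1.sub i2) i3, intervalIntegral.integral_sub i1 i2,
    flux_measure hab hφ h0 h1]
  have e2 : ∫ x in a..b, deriv φ x * k = 0 := by
    rw [intervalIntegral.integral_mul_const, intervalIntegral.integral_deriv_eq_sub
      (fun x _ => hφ.differentiable (by norm_num) x) (hd.intervalIntegrable _ _), ha0, hb0]
    ring
  have e3 : ∫ x in a..b, deriv φ x * (∫ s in a..x, h s) = -∫ x in a..b, φ x * h x := by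
    have h4 := hac.integral_mul_deriv_eq_deriv_mul hacφ
    have h5 : ∫ x in a..b, deriv φ x * (∫ s in a..x, h s) =
        ∫ x in a..b, (∫ s in a..x, h s) * deriv φ x := by
      congr 1; funext x; ring
    rw [h5, h4, ha0, hb0]
    have h6 : ∫ x in a..b, deriv (fun x => ∫ s in a..x, h s) x * φ x = ∫ x in a..b, φ x * h x := by
      refine intervalIntegral.integral_congr_ae ?_
      filter_upwards [hh.ae_hasDerivAt_integral] with x hx hx'
      rw [(hx (uIoc_subset_uIcc hx') a left_mem_uIcc).deriv]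
      ring
    rw [h6]; ring
  rw [e2, e3]
  ring

/-! ### context -/

/-- the geometric context of one half; either no atoms or a single hair -/
structure Ctx (E : Set (ℝ × ℝ)) (g : Set Hair) (S : Set (ℝ × ℝ)) (a b c B T : ℝ)
    (μ : Measure (ℝ × ℝ)) : Prop where
  cE : IsCompact E
  box : ∀ p ∈ E, a < p.1 ∧ p.1 < b ∧ c < p.2
  ab : a < b
  cB : c < B
  BT : B < T
  crs : ∀ K ∈ g, K.b ≤ B ∧ T ≤ K.t
  sub : g ⊆ hairs E
  carried : ∀ᵐ q ∂μ, ∃ K ∈ g, q ∈ K.car ∧ q.2 ≤ B
  sing : (S = ∅ ∧ ∀ x, μ {q | q.1 = x} = 0) ∨ (∃ K₀, g = {K₀} ∧ S = K₀.car)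

theorem bot_mem (K : Hair) : (K.x, K.b) ∈ K.car := Hair.mem_car.2 ⟨rfl, le_rfl, K.hbt.le⟩

theorem car_sub {E : Set (ℝ × ℝ)} {K : Hair} (hK : K ∈ hairs E) : K.car ⊆ E := by
  obtain ⟨q, _, hP⟩ := hK
  rw [hP]
  exact connectedComponentIn_subset _ _

theorem hairs_eq {E : Set (ℝ × ℝ)} {K K' : Hair} (hK : K ∈ hairs E) (hK' : K' ∈ hairs E)
    {p : ℝ × ℝ} (hp : p ∈ K.car) (hp' : p ∈ K'.car) : K = K' := by
  obtain ⟨q, _, hP⟩ := hK
  obtain ⟨q', _, hP'⟩ := hK'
  rw [hP] at hp
  rw [hP'] at hp'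
  apply Hair.car_injective
  rw [hP, hP', connectedComponentIn_eq hp, connectedComponentIn_eq hp']

variable {E S : Set (ℝ × ℝ)} {g : Set Hair} {a b c B T : ℝ} {X1 X2 ψ Ψ : ℝ × ℝ → ℝ}
  {μ : Measure (ℝ × ℝ)} {J : ℕ → Finset Hair} {z : ℕ → ℝ × ℝ → ℝ} {κ : Hair → ℝ}

theorem null_of_car {K₀ : Hair} (hc : ∀ᵐ q ∂μ, ∃ K ∈ ({K₀} : Set Hair), q ∈ K.car ∧ q.2 ≤ B)
    {A : Set (ℝ × ℝ)} (hA : ∀ q ∈ K₀.car, q ∉ A) : μ A = 0 := by
  rw [measure_eq_zero_iff_ae_notMem]
  filter_upwards [hc] with q hq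
  obtain ⟨K, hK, hqK, -⟩ := hq
  rw [mem_singleton_iff] at hK
  subst hK
  exact hA q hqK

theorem Ctx.closedS (C : Ctx E g S a b c B T μ) : IsClosed S := by
  rcases C.sing with ⟨h, -⟩ | ⟨K₀, -, h⟩
  · rw [h]; exact isClosed_empty
  · rw [h]; exact K₀.isClosed_car

theorem Ctx.SG (C : Ctx E g S a b c B T μ) : S ⊆ un g := by
  rcases C.sing with ⟨h, -⟩ | ⟨K₀, hg, h⟩
  · rw [h]; exact empty_subset _
  · rw [h, hg]
    intro p hp
    simp only [un, mem_singleton_iff, mem_iUnion]
    exact ⟨K₀, rfl, hp⟩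

/-- (s1) -/
theorem Ctx.adm (C : Ctx E g S a b c B T μ) (hJ : ∀ n, ∀ K ∈ J n, K ∈ hairs E) :
    (Ioo a b ×ˢ Ioo c T) \ S ⊆ Adm a b c μ (PRh μ J) := by
  rintro p ⟨⟨⟨ha, hb⟩, hc, hT⟩, hS⟩
  rcases C.sing with ⟨-, hno⟩ | ⟨K₀, hg, rfl⟩
  · refine ⟨min ((p.1 - a) / 3) (min ((b - p.1) / 3) ((p.2 - c) / 3)), ?_, ?_, ?_, ?_, ?_, ?_⟩
    · refine lt_min (by linarith) (lt_min (by linarith) (by linarith))
    · have := min_le_left ((p.1 - a) / 3) (min ((b - p.1) / 3) ((p.2 - c) / 3))
      linarith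
    · have h1 := min_le_right ((p.1 - a) / 3) (min ((b - p.1) / 3) ((p.2 - c) / 3))
      have h2 := min_le_left ((b - p.1) / 3) ((p.2 - c) / 3)
      linarith
    · have h1 := min_le_right ((p.1 - a) / 3) (min ((b - p.1) / 3) ((p.2 - c) / 3))
      have h2 := min_le_right ((b - p.1) / 3) ((p.2 - c) / 3)
      linarith
    · intro x _
      exact measure_mono_null (fun q hq => hq.1) (hno x)
    · intro x0 x1 y0 y1 _ _ _ _ _ _ n K _ hK
      exact absurd (measure_mono_null (fun q hq => hq.1) (hno K.x)) hK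
  · have hcar := C.carried
    rw [hg] at hcar
    have hK₀g : K₀ ∈ g := by rw [hg]; rfl
    have hK₀ := C.crs K₀ hK₀g
    have hK₀E : K₀ ∈ hairs E := C.sub hK₀g
    by_cases hx : p.1 = K₀.x
    · -- below the hair
      have hyb : p.2 < K₀.b := by
        by_contra hcon
        push Not at hcon
        exact hS (Hair.mem_car.2 ⟨hx, hcon, by linarith [hK₀.2]⟩)
      refine ⟨min (min ((p.1 - a) / 3) ((K₀.b - p.2) / 3)) (min ((b - p.1) / 3) ((p.2 - c) / 3)),
        ?_, ?_, ?_, ?_, ?_, ?_⟩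
      · exact lt_min (lt_min (by linarith) (by linarith)) (lt_min (by linarith) (by linarith))
      · have h1 := min_le_left (min ((p.1 - a) / 3) ((K₀.b - p.2) / 3))
          (min ((b - p.1) / 3) ((p.2 - c) / 3))
        have h2 := min_le_left ((p.1 - a) / 3) ((K₀.b - p.2) / 3)
        linarith
      · have h1 := min_le_right (min ((p.1 - a) / 3) ((K₀.b - p.2) / 3))
          (min ((b - p.1) / 3) ((p.2 - c) / 3))
        have h2 := min_le_left ((b - p.1) / 3) ((p.2 - c) / 3)
        linarith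
      · have h1 := min_le_right (min ((p.1 - a) / 3) ((K₀.b - p.2) / 3))
          (min ((b - p.1) / 3) ((p.2 - c) / 3))
        have h2 := min_le_right ((b - p.1) / 3) ((p.2 - c) / 3)
        linarith
      · have h1 := min_le_left (min ((p.1 - a) / 3) ((K₀.b - p.2) / 3))
          (min ((b - p.1) / 3) ((p.2 - c) / 3))
        have h2 := min_le_right ((p.1 - a) / 3) ((K₀.b - p.2) / 3)
        intro x _
        refine null_of_car hcar fun q hq hq2 => ?_
        have h3 := (Hair.mem_car.1 hq).2.1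
        have h4 := hq2.2
        linarith
      · have h1 := min_le_left (min ((p.1 - a) / 3) ((K₀.b - p.2) / 3))
          (min ((b - p.1) / 3) ((p.2 - c) / 3))
        have h2 := min_le_right ((p.1 - a) / 3) ((K₀.b - p.2) / 3)
        intro x0 x1 y0 y1 _ _ _ _ _ hy1 n K hK hμK _
        right
        have hKE := hJ n K hK
        -- `K` is not entirely below `K₀`
        have h3 : K.x = K₀.x ∧ K₀.b < K.t := by
          by_contra hcon
          apply hμK
          refine null_of_car hcar fun q hq hq2 => hcon ?_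
          have h4 := Hair.mem_car.1 hq
          exact ⟨hq2.1.symm.trans h4.1, lt_of_le_of_lt h4.2.1 hq2.2⟩
        by_contra hcon
        push Not at hcon
        have h5 : K = K₀ := by
          refine hairs_eq hKE hK₀E (p := (K₀.x, K₀.b)) (Hair.mem_car.2 ⟨h3.1.symm, ?_, h3.2.le⟩)
            (bot_mem K₀)
          show K.b ≤ K₀.b
          linarith
        rw [h5] at hcon
        linarith
    · have hd : 0 < |p.1 - K₀.x| := abs_pos.2 (sub_ne_zero.2 hx)
      have key : ∀ x, |x - p.1| < |p.1 - K₀.x| → μ {q | q.1 = x} = 0 := by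
        intro x hx'
        refine null_of_car hcar fun q hq hq2 => ?_
        have h4 := (Hair.mem_car.1 hq).1
        have hq3 : q.1 = x := hq2
        rw [← hq3, h4, abs_sub_comm] at hx'
        exact lt_irrefl _ hx'
      refine ⟨min (min ((p.1 - a) / 3) (|p.1 - K₀.x| / 3)) (min ((b - p.1) / 3) ((p.2 - c) / 3)),
        ?_, ?_, ?_, ?_, ?_, ?_⟩
      · exact lt_min (lt_min (by linarith) (by linarith)) (lt_min (by linarith) (by linarith))
      · have h1 := min_le_left (min ((p.1 - a) / 3) (|p.1 - K₀.x| / 3))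
          (min ((b - p.1) / 3) ((p.2 - c) / 3))
        have h2 := min_le_left ((p.1 - a) / 3) (|p.1 - K₀.x| / 3)
        linarith
      · have h1 := min_le_right (min ((p.1 - a) / 3) (|p.1 - K₀.x| / 3))
          (min ((b - p.1) / 3) ((p.2 - c) / 3))
        have h2 := min_le_left ((b - p.1) / 3) ((p.2 - c) / 3)
        linarith
      · have h1 := min_le_right (min ((p.1 - a) / 3) (|p.1 - K₀.x| / 3))
          (min ((b - p.1) / 3) ((p.2 - c) / 3))
        have h2 := min_le_right ((b - p.1) / 3) ((p.2 - c) / 3)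
        linarith
      · have h1 := min_le_left (min ((p.1 - a) / 3) (|p.1 - K₀.x| / 3))
          (min ((b - p.1) / 3) ((p.2 - c) / 3))
        have h2 := min_le_right ((p.1 - a) / 3) (|p.1 - K₀.x| / 3)
        intro x hx'
        refine measure_mono_null (fun q hq => hq.1) (key x ?_)
        rw [abs_lt]
        constructor <;> linarith [hx'.1, hx'.2]
      · have h1 := min_le_left (min ((p.1 - a) / 3) (|p.1 - K₀.x| / 3))
          (min ((b - p.1) / 3) ((p.2 - c) / 3))
        have h2 := min_le_right ((p.1 - a) / 3) (|p.1 - K₀.x| / 3)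
        intro x0 x1 y0 y1 e1 _ e2 _ _ _ n K _ hμK hKx
        exfalso
        apply hμK
        refine measure_mono_null (fun q hq => hq.1) (key K.x ?_)
        rw [abs_lt]
        constructor <;> linarith [hKx.1, hKx.2]

/-- (s2) -/
theorem Ctx.col (C : Ctx E g S a b c B T μ) {x y : ℝ} (hy : B ≤ y) (hyT : y ≤ T)
    (h : (x, y) ∉ S) : μ {q | q.1 = x} = 0 := by
  rcases C.sing with ⟨-, hno⟩ | ⟨K₀, hg, rfl⟩
  · exact hno x
  · have hcar := C.carried
    rw [hg] at hcar
    have hK₀ := C.crs K₀ (by rw [hg]; rfl)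
    refine null_of_car hcar fun q hq hq2 => h ?_
    have hq3 : q.1 = x := hq2
    exact Hair.mem_car.2 ⟨hq3.symm.trans (Hair.mem_car.1 hq).1, by linarith [hK₀.1],
      by linarith [hK₀.2]⟩

/-- (s3) -/
theorem Ctx.hair (C : Ctx E g S a b c B T μ) {K : Hair} (hKT : K.b < T)
    (hd : Disjoint K.car S) : μ {q | q.1 = K.x ∧ q.2 < K.t} = 0 := by
  rcases C.sing with ⟨-, hno⟩ | ⟨K₀, hg, rfl⟩
  · exact measure_mono_null (fun q hq => hq.1) (hno K.x)
  · have hcar := C.carried
    rw [hg] at hcar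
    have hK₀g : K₀ ∈ g := by rw [hg]; rfl
    have hK₀ := C.crs K₀ hK₀g
    refine null_of_car hcar fun q hq hq2 => ?_
    have h1 := Hair.mem_car.1 hq
    have h2 : K₀.x = K.x := h1.1.symm.trans hq2.1
    have h3 : K₀.b < K.t := lt_of_le_of_lt h1.2.1 hq2.2
    -- common point
    refine (disjoint_left.1 hd) (a := (K₀.x, max K.b K₀.b)) (Hair.mem_car.2 ⟨h2, le_max_left _ _,
      max_le K.hbt.le h3.le⟩) (Hair.mem_car.2 ⟨rfl, le_max_right _ _, max_le ?_ K₀.hbt.le⟩)
    linarith [hK₀.2]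

/-- (s4) -/
theorem Ctx.ae_col (C : Ctx E g S a b c B T μ) : ∀ᵐ x : ℝ, ∀ y, (x, y) ∉ S := by
  rcases C.sing with ⟨rfl, -⟩ | ⟨K₀, -, rfl⟩
  · exact Eventually.of_forall fun x y h => h
  · have : ∀ᵐ x : ℝ, x ≠ K₀.x := by rw [ae_iff]; simp
    filter_upwards [this] with x hx y h
    exact hx (Hair.mem_car.1 h).1

/-- (s5) no flux across a segment off `un g` -/
theorem Ctx.noflux (C : Ctx E g S a b c B T μ) {x x' y : ℝ} (hyT : y ≤ T)
    (h : ∀ s ∈ Icc x x', (s, y) ∉ un g) : μ {q | q.1 ∈ Ico x x' ∧ q.2 < y} = 0 := by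
  rw [measure_eq_zero_iff_ae_notMem]
  filter_upwards [C.carried] with q hq hq2
  obtain ⟨K, hK, hqK, -⟩ := hq
  have h1 := Hair.mem_car.1 hqK
  refine h q.1 ⟨hq2.1.1, hq2.1.2.le⟩ ?_
  simp only [un, mem_iUnion]
  exact ⟨K, hK, Hair.mem_car.2 ⟨h1.1, by linarith [h1.2.1, hq2.2], by linarith [(C.crs K hK).2]⟩⟩

end Crest.Agent.R105.Psi10_425
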