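import Crest.Agent.R105.SqC_87
import Crest.Agent.R105.Psi10_425

/-!
Row 105, S0138, Lemma A with squares (helper363): the flux of `χ ψ` for one half of the stream
function with squares (helper87's `LinesI`, `SqData`).
-/

open MeasureTheory Set Filter Topology
open scoped NNReal ENNReal ContDiff

namespace Crest.Agent.R105.Hq_363

open Sq_87 CF_363 Mp_87 Psi7_425

variable {ι : Type} {Q : Rects ι} {S : Set (ℝ × ℝ)}
variable {a b c B : ℝ} {X1 X2 ψ Ψ χ : ℝ × ℝ → ℝ} {μ : Measure (ℝ × ℝ)} {f : ι → ℝ}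

/-- a smooth function with compact support in `Ioo a b`: the support stays away from the ends -/
theorem exists_inner {a b : ℝ} (hab : a < b) {φ : ℝ → ℝ} (hc : HasCompactSupport φ)
    (hsub : tsupport φ ⊆ Ioo a b) : ∃ a1 b1, a < a1 ∧ a1 ≤ b1 ∧ b1 < b ∧
      ∀ x, x ∉ Ioo a1 b1 → x ∉ tsupport φ := by
  obtain ⟨a2, ha2, h3⟩ := hc.isCompact.exists_forall_le' (f := fun x : ℝ => x) (a := a)
    continuous_id.continuousOn (fun x hx => (hsub hx).1)
  obtain ⟨b2', hb2', h4'⟩ := hc.isCompact.exists_forall_le' (f := fun x : ℝ => -x) (a := -b)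
    continuous_neg.continuousOn (fun x hx => neg_lt_neg (hsub hx).2)
  obtain ⟨b2, rfl⟩ : ∃ b2, b2' = -b2 := ⟨-b2', by ring⟩
  have hb2 : b2 < b := by linarith
  have h4 : ∀ x ∈ tsupport φ, x ≤ b2 := fun x hx => by
    have := h4' x hx
    linarith
  refine ⟨min ((a + a2) / 2) ((a + b) / 2), max ((b + b2) / 2) ((a + b) / 2),
    lt_min (by linarith) (by linarith), (min_le_right _ _).trans (le_max_right _ _),
    max_lt (by linarith) (by linarith), fun x hx hxs => hx ⟨?_, ?_⟩⟩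
  · have := h3 x hxs
    exact lt_of_le_of_lt (min_le_left _ _) (by linarith)
  · have := h4 x hxs
    exact lt_of_lt_of_le (by linarith) (le_max_left _ _)

/-- the flux on a good level -/
theorem flux_level [IsFiniteMeasure μ] (hab : a < b) (hχ : ContDiff ℝ 1 χ)
    (hχc : HasCompactSupport χ) (hχs : tsupport χ ⊆ Ioo a b ×ˢ univ) {y : ℝ}
    (hI : ∀ x x', IntervalIntegrable (fun s => X2 (s, y)) volume x x')
    (hH : ∀ x ∈ Ioo a b, ∀ x' ∈ Ioo a b, x ≤ x' →
      Ψ (x', y) - Ψ (x, y) = -(∫ s in x..x', X2 (s, y)) -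
        (μ {q | q.1 ∈ Ico x x' ∧ q.2 < y}).toReal)
    (h1 : ∀ᵐ q ∂μ, q.2 < y → χ (q.1, y) = 1) :
    ∫ x, (gx χ (x, y) * Ψ (x, y) - χ (x, y) * X2 (x, y)) = (μ {q | q.2 < y}).toReal := by
  obtain ⟨hc', hs'⟩ := line_x_support hχc y
  set φ : ℝ → ℝ := fun x => χ (x, y) with hφ
  have hφ1 : ContDiff ℝ 1 φ := hχ.comp (by fun_prop)
  have hgx : ∀ x, gx χ (x, y) = deriv φ x := fun x =>
    (Psi8_425.hasDerivAt_x (hχ.differentiable (by norm_num) (x, y))).deriv.symm
  have hsub : tsupport φ ⊆ Ioo a b := fun x hx => (hχs (hs' hx)).1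
  obtain ⟨a1, b1, ha1, hab1, hb1, hab1s⟩ := exists_inner hab hc' hsub
  have hφ0 : ∀ x, x ∉ Ioo a1 b1 → φ x = 0 := fun x hx =>
    image_eq_zero_of_notMem_tsupport (hab1s x hx)
  have hφd0 : ∀ x, x ∉ Ioo a1 b1 → deriv φ x = 0 := fun x hx =>
    image_eq_zero_of_notMem_tsupport fun h =>
      hab1s x hx ((tsupport_deriv_subset (𝕜 := ℝ) (f := φ)) h)
  set ρ : Measure ℝ := (μ.restrict {q | q.2 < y}).map Prod.fst with hρ
  have hmy : MeasurableSet {q : ℝ × ℝ | q.2 < y} := measurableSet_lt measurable_snd measurable_const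
  have hρI : ∀ x, ρ (Ico a1 x) = μ {q | q.1 ∈ Ico a1 x ∧ q.2 < y} := by
    intro x
    rw [hρ, Measure.map_apply measurable_fst measurableSet_Ico,
      Measure.restrict_apply (measurable_fst measurableSet_Ico)]
    rfl
  have hρu : ρ univ = μ {q | q.2 < y} := by
    rw [hρ, Measure.map_apply measurable_fst MeasurableSet.univ, preimage_univ,
      Measure.restrict_apply_univ]
  have hm1 : MeasurableSet {x : ℝ | φ x = 1} :=
    (isClosed_singleton.preimage hφ1.continuous).measurableSet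
  have hρ1 : ∀ᵐ q ∂ρ, φ q = 1 := by
    rw [hρ, ae_map_iff measurable_fst.aemeasurable hm1, ae_restrict_iff' hmy]
    exact h1
  have key := Psi10_425.flux_line (k := Ψ (a1, y)) hab1 hφ1 hφ0 hρ1 (hI a1 b1)
    (F := fun x => Ψ (a1, y) - (∫ s in a1..x, X2 (s, y)) - (ρ (Ico a1 x)).toReal)
    (fun x _ => rfl)
  rw [hρu] at key
  rw [← key]
  have e1 : ∫ x, (gx χ (x, y) * Ψ (x, y) - χ (x, y) * X2 (x, y)) =
      ∫ x in a1..b1, (gx χ (x, y) * Ψ (x, y) - χ (x, y) * X2 (x, y)) := by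
    rw [intervalIntegral.integral_of_le hab1, ← integral_indicator measurableSet_Ioc]
    congr 1
    funext x
    by_cases hx : x ∈ Ioc a1 b1
    · rw [indicator_of_mem hx]
    · rw [indicator_of_notMem hx, hgx, hφd0 x fun h => hx ⟨h.1, h.2.le⟩]
      have : χ (x, y) = 0 := hφ0 x fun h => hx ⟨h.1, h.2.le⟩
      rw [this]; ring
  rw [e1]
  refine intervalIntegral.integral_congr fun x hx => ?_
  rw [uIcc_of_le hab1] at hx
  have h5 := hH a1 ⟨ha1, lt_of_le_of_lt hab1 hb1⟩ x ⟨lt_of_lt_of_le ha1 hx.1,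
    lt_of_le_of_lt hx.2 hb1⟩ hx.1
  have h6 : Ψ (x, y) = Ψ (a1, y) - (∫ s in a1..x, X2 (s, y)) - (ρ (Ico a1 x)).toReal := by
    rw [hρI x]; linarith
  show gx χ (x, y) * Ψ (x, y) - χ (x, y) * X2 (x, y) = _
  rw [hgx, h6]

/-- integrability of the integrand of the flux -/
theorem integrableOn_flux [IsFiniteMeasure μ] (L : LinesI a b c B 1 X1 X2 μ ψ Ψ)
    (hχ : ContDiff ℝ 1 χ) (hχc : HasCompactSupport χ) :
    IntegrableOn (fun p => gx χ p * Ψ p - χ p * X2 p) (Ioo a b ×ˢ Ioo c B) := by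
  have hR : MeasurableSet (Ioo a b ×ˢ Ioo c B) := measurableSet_Ioo.prod measurableSet_Ioo
  have hψ := L.intψ (by simp)
  have hΨ : IntegrableOn Ψ (Ioo a b ×ˢ Ioo c B) := by
    refine hψ.congr ?_
    rw [EventuallyEq, ae_restrict_iff' hR]
    filter_upwards [L.E] with p hp hpR
    exact (hp hpR.1 hpR.2.1).symm
  obtain ⟨C1, hC1⟩ := hχ.continuous.bounded_above_of_compact_support hχc
  have hgc : Continuous (gx χ) := by
    unfold gx
    exact (hχ.continuous_fderiv (by norm_num)).clm_apply continuous_const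
  have hgs : HasCompactSupport (gx χ) := by
    refine hχc.mono' ?_
    intro p hp
    by_contra hcon
    refine hp ?_
    have : fderiv ℝ χ p = 0 := by
      have h := tsupport_fderiv_subset (𝕜 := ℝ) (f := χ)
      exact image_eq_zero_of_notMem_tsupport fun h' => hcon (h h')
    show fderiv ℝ χ p _ = 0
    rw [this]; rfl
  obtain ⟨C2, hC2⟩ := hgc.bounded_above_of_compact_support hgs
  refine Integrable.sub ?_ ?_
  · exact hΨ.bdd_mul (c := C2) hgc.aestronglyMeasurable (Eventually.of_forall hC2)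
  · exact L.L2.integrableOn.bdd_mul (c := C1) hχ.continuous.aestronglyMeasurable
      (Eventually.of_forall hC1)

/-- Fubini on a rectangle, horizontal lines inside -/
theorem integral_rect_y {F : ℝ × ℝ → ℝ} (hF : IntegrableOn F (Ioo a b ×ˢ Ioo c B)) :
    ∫ p in Ioo a b ×ˢ Ioo c B, F p = ∫ y in Ioo c B, ∫ x in Ioo a b, F (x, y) := by
  unfold IntegrableOn at hF
  rw [volume_restrict_rect] at hF
  rw [volume_restrict_rect, integral_prod_symm _ hF]

/-- **the total flux of one half** (squares filled) -/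
theorem flux_total [IsFiniteMeasure μ] (L : LinesI a b c B 1 X1 X2 μ ψ Ψ) (hab : a < b)
    (hχ : ContDiff ℝ 1 χ) (hχc : HasCompactSupport χ) (hχs : tsupport χ ⊆ Ioo a b ×ˢ univ)
    (h1 : ∀ y, c < y → y < B → ∀ᵐ q ∂μ, q.2 < y → χ (q.1, y) = 1) :
    ∫ p in Ioo a b ×ˢ Ioo c B, (gx χ p * Ψ p - χ p * X2 p) =
      ∫ y in Ioo c B, (μ {q | q.2 < y}).toReal := by
  rw [integral_rect_y (integrableOn_flux L hχ hχc)]
  refine setIntegral_congr_ae measurableSet_Ioo ?_
  filter_upwards [L.H, ae_int_y L.L2] with y hH hI hy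
  have e0 : ∀ x, x ∉ Ioo a b → gx χ (x, y) * Ψ (x, y) - χ (x, y) * X2 (x, y) = 0 := by
    intro x hx
    have h3 : (x, y) ∉ tsupport χ := fun h => hx (hχs h).1
    have h4 : χ (x, y) = 0 := image_eq_zero_of_notMem_tsupport h3
    have h5 : gx χ (x, y) = 0 := by
      have : fderiv ℝ χ (x, y) = 0 := by
        have h := tsupport_fderiv_subset (𝕜 := ℝ) (f := χ)
        exact image_eq_zero_of_notMem_tsupport fun h' => h3 (h h')
      show fderiv ℝ χ (x, y) _ = 0
      rw [this]; rfl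
    rw [h4, h5]; ring
  rw [setIntegral_eq_integral_of_forall_compl_eq_zero e0]
  refine flux_level hab hχ hχc hχs (fun x x' => hI.intervalIntegrable) ?_ (h1 y hy.1 hy.2)
  intro x hx x' hx' hxx
  rw [hH hy.1 x hx x' hx' hxx]; ring

/-- the flux of `X2` through the levels of one rectangle -/
theorem abs_op_le (L2 : Integrable X2 (volume : Measure (ℝ × ℝ))) (i : ι) {F : ℝ}
    (ly : ∀ᵐ y, y ∈ Ioo (Q.y i - Q.h2 i) (Q.y i + Q.h2 i) →
      |∫ s in Ioo (Q.x i - Q.h1 i) (Q.x i + Q.h1 i), X2 (s, y)| ≤ F) :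
    |∫ p in Q.op i, X2 p| ≤ 2 * Q.h2 i * F := by
  have h2 := Q.p2 i
  unfold Rects.op
  rw [integral_rect_y L2.integrableOn]
  have hv : volume (Ioo (Q.y i - Q.h2 i) (Q.y i + Q.h2 i)) < ⊤ := by
    rw [Real.volume_Ioo]; exact ENNReal.ofReal_lt_top
  have h3 := norm_setIntegral_le_of_norm_le_const_ae' (μ := (volume : Measure ℝ))
    (s := Ioo (Q.y i - Q.h2 i) (Q.y i + Q.h2 i)) (C := F)
    (f := fun y => ∫ s in Ioo (Q.x i - Q.h1 i) (Q.x i + Q.h1 i), X2 (s, y)) hv
    (by filter_upwards [ly] with y hy hy'; exact hy hy')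
  rw [Real.norm_eq_abs] at h3
  refine h3.trans_eq ?_
  rw [Measure.real, Real.volume_Ioo, ENNReal.toReal_ofReal (by linarith)]
  ring

/-- the set of the rectangles on which `χ` is not zero -/
def On (Q : Rects ι) (χ : ℝ × ℝ → ℝ) : Set ι := {i | ∃ p ∈ Q.op i, χ p ≠ 0}

/-- **the flux of one half, outside the squares.** -/
theorem flux_half [Countable ι] [IsFiniteMeasure μ] (L : LinesI a b c B 1 X1 X2 μ ψ Ψ)
    (hab : a < b) (hS : MeasurableSet S) (hX : ∀ᵐ p : ℝ × ℝ, p ∈ S → X2 p = 0)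
    (dis : Pairwise (fun i j => Disjoint (Q.op i) (Q.op j)))
    (box : ∀ i, Q.op i ⊆ Ioo a b ×ˢ Ioo c B)
    (ly : ∀ i, ∀ᵐ y, y ∈ Ioo (Q.y i - Q.h2 i) (Q.y i + Q.h2 i) →
      |∫ s in Ioo (Q.x i - Q.h1 i) (Q.x i + Q.h1 i), X2 (s, y)| ≤ 2 * f i)
    (f0 : ∀ i, 0 ≤ f i) (sf : Summable fun i => Q.h2 i * f i)
    (hχ : ContDiff ℝ 1 χ) (hχc : HasCompactSupport χ) (hχs : tsupport χ ⊆ Ioo a b ×ˢ univ)
    (χ0 : ∀ p, 0 ≤ χ p) (χ1 : ∀ p, χ p ≤ 1) (gχ : ∀ p ∈ Q.un ∪ S, gx χ p = 0)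
    (cχ : ∀ i, ∃ k, ∀ p ∈ Q.op i, χ p = k)
    (h1 : ∀ y, c < y → y < B → ∀ᵐ q ∂μ, q.2 < y → χ (q.1, y) = 1) :
    (∫ y in Ioo c B, (μ {q | q.2 < y}).toReal) -
        ∑' i, (On Q χ).indicator (fun i => 4 * (Q.h2 i * f i)) i ≤
      ∫ p in (Ioo a b ×ˢ Ioo c B) \ (Q.un ∪ S), (gx χ p * Ψ p - χ p * X2 p) := by
  have hR : MeasurableSet (Ioo a b ×ˢ Ioo c B) := measurableSet_Ioo.prod measurableSet_Ioo
  have hU : MeasurableSet Q.un := Q.measurableSet_un
  have hF := integrableOn_flux L hχ hχc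
  set F : ℝ × ℝ → ℝ := fun p => gx χ p * Ψ p - χ p * X2 p with hFd
  set R := Ioo a b ×ˢ Ioo c B with hRd
  have hUR : Q.un ⊆ R := iUnion_subset box
  -- split
  have e1 : ∫ p in R, F p = (∫ p in R \ (Q.un ∪ S), F p) + ∫ p in R ∩ (Q.un ∪ S), F p := by
    rw [← integral_inter_add_sdiff (hU.union hS) hF]; ring
  have e2 : ∫ p in R ∩ (Q.un ∪ S), F p = ∫ p in Q.un, F p := by
    have h3 : R ∩ (Q.un ∪ S) = Q.un ∪ (R ∩ (S \ Q.un)) := by
      ext p
      simp only [mem_inter_iff, mem_union, Set.mem_sdiff]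
      constructor
      · rintro ⟨h, h' | h'⟩
        · exact Or.inl h'
        · by_cases h'' : p ∈ Q.un
          · exact Or.inl h''
          · exact Or.inr ⟨h, h', h''⟩
      · rintro (h | ⟨h, h', -⟩)
        · exact ⟨hUR h, Or.inl h⟩
        · exact ⟨h, Or.inr h'⟩
    have hm : MeasurableSet (R ∩ (S \ Q.un)) := hR.inter (hS.diff hU)
    rw [h3, setIntegral_union (by
      rw [Set.disjoint_left]; rintro p hp ⟨-, -, hp'⟩; exact hp' hp) hm
      (hF.mono_set hUR) (hF.mono_set inter_subset_left)]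
    have h4 : ∫ p in R ∩ (S \ Q.un), F p = 0 := by
      rw [← integral_zero (ℝ × ℝ) ℝ (μ := volume.restrict (R ∩ (S \ Q.un)))]
      refine setIntegral_congr_ae hm ?_
      filter_upwards [hX] with p hp hpm
      show gx χ p * Ψ p - χ p * X2 p = 0
      rw [gχ p (Or.inr hpm.2.1), hp hpm.2.1]; ring
    rw [h4, add_zero]
  have e3 : ∫ p in Q.un, F p = ∫ p in Q.un, -(χ p * X2 p) := by
    refine setIntegral_congr_fun hU fun p hp => ?_
    show gx χ p * Ψ p - χ p * X2 p = _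
    rw [gχ p (Or.inl hp)]; ring
  have hχX : Integrable (fun p => χ p * X2 p) (volume : Measure (ℝ × ℝ)) :=
    L.L2.bdd_mul (c := 1) hχ.continuous.aestronglyMeasurable
      (Eventually.of_forall fun p => by rw [Real.norm_eq_abs, abs_of_nonneg (χ0 p)]; exact χ1 p)
  have e4 : HasSum (fun i => ∫ p in Q.op i, -(χ p * X2 p)) (∫ p in Q.un, -(χ p * X2 p)) :=
    hasSum_integral_iUnion (fun i => Q.measurableSet_op i) dis hχX.neg.integrableOn
  have hs0 : ∀ i, 0 ≤ (On Q χ).indicator (fun i => 4 * (Q.h2 i * f i)) i := fun i => by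
    refine indicator_nonneg (fun i _ => ?_) i
    have := Q.p2 i
    have := f0 i
    positivity
  have hsum : Summable ((On Q χ).indicator (fun i => 4 * (Q.h2 i * f i))) :=
    (sf.mul_left 4).indicator _
  have hb : ∀ i, (∫ p in Q.op i, -(χ p * X2 p)) ≤
      (On Q χ).indicator (fun i => 4 * (Q.h2 i * f i)) i := by
    intro i
    obtain ⟨k, hk⟩ := cχ i
    have h5 : ∫ p in Q.op i, -(χ p * X2 p) = -(k * ∫ p in Q.op i, X2 p) := by
      rw [← integral_const_mul, ← integral_neg]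
      refine setIntegral_congr_fun (Q.measurableSet_op i) fun p hp => ?_
      show -(χ p * X2 p) = -(k * X2 p)
      rw [hk p hp]
    have hc : (Q.x i, Q.y i) ∈ Q.op i := by
      have := Q.p1 i
      have := Q.p2 i
      exact ⟨⟨by simp only; linarith, by simp only; linarith⟩,
        ⟨by simp only; linarith, by simp only; linarith⟩⟩
    by_cases hi : i ∈ On Q χ
    · rw [indicator_of_mem hi, h5]
      have h6 := abs_op_le L.L2 i (ly i)
      have hk0 : 0 ≤ k := by rw [← hk _ hc]; exact χ0 _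
      have hk1 : k ≤ 1 := by rw [← hk _ hc]; exact χ1 _
      calc -(k * ∫ p in Q.op i, X2 p) ≤ |k * ∫ p in Q.op i, X2 p| := neg_le_abs _
        _ = k * |∫ p in Q.op i, X2 p| := by rw [abs_mul, abs_of_nonneg hk0]
        _ ≤ 1 * (2 * Q.h2 i * (2 * f i)) := mul_le_mul hk1 h6 (abs_nonneg _) zero_le_one
        _ = 4 * (Q.h2 i * f i) := by ring
    · rw [indicator_of_notMem hi, h5]
      have hk0 : k = 0 := by
        rw [← hk _ hc]
        by_contra hcon
        exact hi ⟨_, hc, hcon⟩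
      rw [hk0]; simp
  have e5 : ∫ p in Q.un, -(χ p * X2 p) ≤
      ∑' i, (On Q χ).indicator (fun i => 4 * (Q.h2 i * f i)) i :=
    hasSum_le hb e4 hsum.hasSum
  have key := flux_total L hab hχ hχc hχs h1
  have e6 : ∫ p in R, F p = ∫ y in Ioo c B, (μ {q | q.2 < y}).toReal := key
  linarith

end Crest.Agent.R105.Hq_363
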