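import Crest.Agent.R105.Hq3_363

/-!
Row 105, S0138, Lemma A with squares (helper363): one-dimensional flux inequality with a monotone
clamp `T` (425's Claim L).
-/

open MeasureTheory Set Filter Topology
open scoped NNReal ENNReal ContDiff

namespace Crest.Agent.R105.Hq_363

open Sq_87 CF_363 Mp_87 Psi7_425

local notation "AC" => AbsolutelyContinuousOnInterval

/-- monotone clamp: `C¹`, `0 ≤ T' ≤ 1` -/
structure Clamp (T : ℝ → ℝ) : Prop where
  sm : ContDiff ℝ 1 T
  nn : ∀ t, 0 ≤ deriv T t
  le : ∀ t, deriv T t ≤ 1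

theorem Clamp.hasDerivAt {T : ℝ → ℝ} (h : Clamp T) (t : ℝ) : HasDerivAt T (deriv T t) t :=
  (h.sm.differentiable (by norm_num) t).hasDerivAt

theorem Clamp.cd {T : ℝ → ℝ} (h : Clamp T) : Continuous (deriv T) := h.sm.continuous_deriv le_rfl

theorem Clamp.lip {T : ℝ → ℝ} (h : Clamp T) : LipschitzWith 1 T := by
  refine lipschitzWith_of_nnnorm_deriv_le (h.sm.differentiable (by norm_num)) fun t => ?_
  rw [← NNReal.coe_le_coe, coe_nnnorm, Real.norm_eq_abs, abs_of_nonneg (h.nn t)]
  exact h.le t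

theorem Clamp.abs_sub_le {T : ℝ → ℝ} (h : Clamp T) (s t : ℝ) : |T s - T t| ≤ |s - t| := by
  have := h.lip.dist_le_mul s t
  rwa [Real.dist_eq, Real.dist_eq, NNReal.coe_one, one_mul] at this

/-- **the flux inequality on a line**, smooth measure -/
theorem flux_line_ac {a b : ℝ} (hab : a ≤ b) {φ A R r h T : ℝ → ℝ} (hφ : ContDiff ℝ 1 φ)
    (hφ0 : ∀ x, 0 ≤ φ x) (h0 : ∀ x, x ∉ Ioo a b → φ x = 0) (hT : Clamp T)
    (hh : IntervalIntegrable h volume a b)
    (hA : AC A a b) (hAd : ∀ᵐ x, x ∈ uIcc a b → HasDerivAt A (-h x) x)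
    (hR : AC R a b) (hRd : ∀ᵐ x, x ∈ uIcc a b → HasDerivAt R (r x) x)
    (hr : ∀ᵐ x, x ∈ uIcc a b → 0 ≤ r x) :
    0 ≤ ∫ x in a..b, (deriv φ x * T (A x - R x) - φ x * (deriv T (A x - R x) * h x)) := by
  have hd : Continuous (deriv φ) := hφ.continuous_deriv le_rfl
  have hφc : Continuous φ := hφ.continuous
  have ha0 : φ a = 0 := h0 a fun h => lt_irrefl _ h.1
  have hb0 : φ b = 0 := h0 b fun h => lt_irrefl _ h.2
  have hacφ : AC φ a b := (hφ.contDiffOn (s := uIcc a b)).absolutelyContinuousOnInterval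
  have hAR : AC (fun x => A x - R x) a b := hA.sub hR
  have hTAR : AC (fun x => T (A x - R x)) a b := Psi5_425.ac_lip hAR (C := 1) zero_le_one
    fun s t => by rw [one_mul]; exact hT.abs_sub_le s t
  have h4 := hTAR.integral_mul_deriv_eq_deriv_mul hacφ
  rw [ha0, hb0, mul_zero, mul_zero, sub_zero, zero_sub] at h4
  have i1 : IntervalIntegrable (fun x => deriv φ x * T (A x - R x)) volume a b :=
    (hTAR.continuousOn.intervalIntegrable).continuousOn_mul hd.continuousOn
  have hcT : ContinuousOn (fun x => deriv T (A x - R x)) (uIcc a b) :=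
    hT.cd.comp_continuousOn hAR.continuousOn
  have i2 : IntervalIntegrable (fun x => φ x * (deriv T (A x - R x) * h x)) volume a b :=
    (hh.continuousOn_mul hcT).continuousOn_mul hφc.continuousOn
  have i3 : IntervalIntegrable (fun x => deriv (fun x => T (A x - R x)) x * φ x) volume a b :=
    hTAR.intervalIntegrable_deriv.mul_continuousOn hφc.continuousOn
  rw [intervalIntegral.integral_sub i1 i2]
  have e1 : ∫ x in a..b, deriv φ x * T (A x - R x) = ∫ x in a..b, T (A x - R x) * deriv φ x := by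
    congr 1; funext x; ring
  have i3' : IntervalIntegrable (fun x => -(deriv (fun x => T (A x - R x)) x * φ x)) volume a b :=
    i3.neg
  rw [e1, h4, ← intervalIntegral.integral_neg, ← intervalIntegral.integral_sub i3' i2]
  refine intervalIntegral.integral_nonneg_of_ae_restrict hab ?_
  rw [EventuallyLE, ae_restrict_iff' measurableSet_Icc]
  filter_upwards [hAd, hRd, hr] with x h1 h2 h3 hx
  rw [uIcc_of_le hab] at h1 h2 h3
  have h5 : HasDerivAt (fun x => T (A x - R x)) (deriv T (A x - R x) * (-h x - r x)) x :=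
    (hT.hasDerivAt _).comp x ((h1 hx).sub (h2 hx))
  show 0 ≤ -(deriv (fun x => T (A x - R x)) x * φ x) - φ x * (deriv T (A x - R x) * h x)
  rw [h5.deriv]
  have h6 : -(deriv T (A x - R x) * (-h x - r x) * φ x) - φ x * (deriv T (A x - R x) * h x) =
      deriv T (A x - R x) * (r x * φ x) := by ring
  rw [h6]
  exact mul_nonneg (hT.nn _) (mul_nonneg (h3 hx) (hφ0 x))

/-- averages of a bounded monotone function -/
theorem exists_avg {R : ℝ → ℝ} (hR : Monotone R) {C : ℝ} (h0 : ∀ x, 0 ≤ R x) (hC : ∀ x, R x ≤ C)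
    (a b : ℝ) {ε : ℝ} (hε : 0 < ε) : ∃ S r : ℝ → ℝ, AC S a b ∧
      (∀ᵐ x, HasDerivAt S (r x) x) ∧ (∀ x, 0 ≤ r x) ∧ (∀ x, R (x - ε) ≤ S x) ∧ ∀ x, S x ≤ R x := by
  have hi : ∀ s t, IntervalIntegrable R volume s t := fun s t => hR.intervalIntegrable
  have hPd : ∀ᵐ x : ℝ, HasDerivAt (fun x => ∫ t in (0:ℝ)..x, R t) (R x) x := by
    have h1 : ∀ᵐ x : ℝ, ContinuousAt R x := by
      rw [ae_iff]
      exact (hR.countable_not_continuousAt).measure_zero _
    filter_upwards [h1] with x hx
    exact intervalIntegral.integral_hasDerivAt_right (hi 0 x)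
      (hR.measurable.stronglyMeasurable.stronglyMeasurableAtFilter) hx
  have hPd' : ∀ᵐ x : ℝ, HasDerivAt (fun x => ∫ t in (0:ℝ)..(x - ε), R t) (R (x - ε)) x := by
    have h1 : ∀ᵐ x : ℝ, HasDerivAt (fun x => ∫ t in (0:ℝ)..x, R t) (R (x - ε)) (x - ε) :=
      (measurePreserving_sub_right (volume : Measure ℝ) ε).quasiMeasurePreserving.ae hPd
    filter_upwards [h1] with x hx
    exact HasDerivAt.comp_sub_const x ε hx
  have hlip : ∀ x y, |(∫ t in (0:ℝ)..x, R t) - ∫ t in (0:ℝ)..y, R t| ≤ C * |x - y| := by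
    intro x y
    rw [intervalIntegral.integral_interval_sub_left (hi 0 x) (hi 0 y)]
    have h1 := intervalIntegral.norm_integral_le_of_norm_le_const (a := y) (b := x) (f := R)
      (C := C) fun t _ => by rw [Real.norm_eq_abs, abs_of_nonneg (h0 t)]; exact hC t
    rwa [Real.norm_eq_abs] at h1
  have hC0 : 0 ≤ C := (h0 0).trans (hC 0)
  refine ⟨fun x => ε⁻¹ * ((∫ t in (0:ℝ)..x, R t) - ∫ t in (0:ℝ)..(x - ε), R t),
    fun x => ε⁻¹ * (R x - R (x - ε)), ?_, ?_, ?_, ?_, ?_⟩
  · have hid : AC (fun x : ℝ => x) a b :=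
      (LipschitzWith.id.lipschitzOnWith (s := uIcc a b)).absolutelyContinuousOnInterval
    have hlip2 : ∀ x y, |(∫ t in (0:ℝ)..(x - ε), R t) - ∫ t in (0:ℝ)..(y - ε), R t| ≤
        C * |x - y| := by
      intro x y
      have h3 := hlip (x - ε) (y - ε)
      rwa [sub_sub_sub_cancel_right] at h3
    have h1 : AC (fun x => ∫ t in (0:ℝ)..x, R t) a b :=
      Psi5_425.ac_lip (f := fun x => x) (h := fun x => ∫ t in (0:ℝ)..x, R t) hid hC0 hlip
    have h2 : AC (fun x => ∫ t in (0:ℝ)..(x - ε), R t) a b :=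
      Psi5_425.ac_lip (f := fun x => x) (h := fun x => ∫ t in (0:ℝ)..(x - ε), R t) hid hC0 hlip2
    exact (h1.sub h2).const_mul _
  · filter_upwards [hPd, hPd'] with x h1 h2
    exact (h1.sub h2).const_mul _
  · intro x
    have := hR (show x - ε ≤ x by linarith)
    exact mul_nonneg (inv_nonneg.2 hε.le) (by linarith)
  · intro x
    show R (x - ε) ≤ ε⁻¹ * _
    rw [intervalIntegral.integral_interval_sub_left (hi 0 x) (hi 0 _)]
    have h1 : ∫ t in (x - ε)..x, R (x - ε) ≤ ∫ t in (x - ε)..x, R t :=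
      intervalIntegral.integral_mono_on (by linarith) intervalIntegrable_const (hi _ _)
        fun t ht => hR ht.1
    rw [intervalIntegral.integral_const, smul_eq_mul] at h1
    have h2 : x - (x - ε) = ε := by ring
    rw [h2] at h1
    rw [inv_mul_eq_div, le_div_iff₀ hε]
    linarith
  · intro x
    show ε⁻¹ * _ ≤ R x
    rw [intervalIntegral.integral_interval_sub_left (hi 0 x) (hi 0 _)]
    have h1 : ∫ t in (x - ε)..x, R t ≤ ∫ t in (x - ε)..x, R x :=
      intervalIntegral.integral_mono_on (by linarith) (hi _ _) intervalIntegrable_const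
        fun t ht => hR ht.2
    rw [intervalIntegral.integral_const, smul_eq_mul] at h1
    have h2 : x - (x - ε) = ε := by ring
    rw [h2] at h1
    rw [inv_mul_eq_div, div_le_iff₀ hε]
    linarith

/-- **the flux inequality on a line with a monotone clamp** -/
theorem flux_line_T {a b k : ℝ} (hab : a ≤ b) {φ h F T : ℝ → ℝ} (hφ : ContDiff ℝ 1 φ)
    (hφ0 : ∀ x, 0 ≤ φ x) (h0 : ∀ x, x ∉ Ioo a b → φ x = 0) (hT : Clamp T)
    {ρ : Measure ℝ} [IsFiniteMeasure ρ] (hh : IntervalIntegrable h volume a b)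
    (hF : ∀ x ∈ Icc a b, F x = k - (∫ s in a..x, h s) - (ρ (Ico a x)).toReal) :
    0 ≤ ∫ x in a..b, (deriv φ x * T (F x) - φ x * (deriv T (F x) * h x)) := by
  have hd : Continuous (deriv φ) := hφ.continuous_deriv le_rfl
  have hφc : Continuous φ := hφ.continuous
  set R : ℝ → ℝ := fun x => (ρ (Ico a x)).toReal with hRd
  have hRm : Monotone R := fun x y hxy =>
    ENNReal.toReal_mono (measure_ne_top _ _) (measure_mono (Ico_subset_Ico_right hxy))
  have hR0 : ∀ x, 0 ≤ R x := fun x => ENNReal.toReal_nonneg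
  set C : ℝ := (ρ univ).toReal with hCd
  have hRC : ∀ x, R x ≤ C := fun x =>
    ENNReal.toReal_mono (measure_ne_top _ _) (measure_mono (subset_univ _))
  set A : ℝ → ℝ := fun x => k - ∫ s in a..x, h s with hAd
  have hAc : AC A a b := by
    have h1 : AC (fun x => ∫ s in a..x, h s) a b :=
      hh.absolutelyContinuousOnInterval_intervalIntegral left_mem_uIcc
    exact (Psi5_425.ac_const a b k).sub h1
  have hAD : ∀ᵐ x, x ∈ uIcc a b → HasDerivAt A (-h x) x := by
    filter_upwards [hh.ae_hasDerivAt_integral] with x hx hx'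
    exact (hx hx' a left_mem_uIcc).const_sub k
  obtain ⟨CA, hCA⟩ := hAc.exists_bound
  have hε : ∀ n : ℕ, (0:ℝ) < 1 / ((n:ℝ) + 1) := fun n => by positivity
  choose S r hS1 hS2 hS3 hS4 hS5 using fun n : ℕ => exists_avg hRm hR0 hRC a b (hε n)
  have hSC : ∀ n x, S n x ≤ C := fun n x => (hS5 n x).trans (hRC x)
  have hS0 : ∀ n x, 0 ≤ S n x := fun n x => (hR0 _).trans (hS4 n x)
  have key : ∀ n, 0 ≤ ∫ x in a..b,
      (deriv φ x * T (A x - S n x) - φ x * (deriv T (A x - S n x) * h x)) := fun n =>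
    flux_line_ac hab hφ hφ0 h0 hT hh hAc hAD (hS1 n)
      (by filter_upwards [hS2 n] with x hx _; exact hx)
      (Eventually.of_forall fun x _ => hS3 n x)
  -- pointwise limit
  have hlim : ∀ᵐ x : ℝ, Tendsto (fun n => S n x) atTop (𝓝 (R x)) := by
    have h1 : ∀ᵐ x : ℝ, ContinuousAt R x := by
      rw [ae_iff]
      exact (hRm.countable_not_continuousAt).measure_zero _
    filter_upwards [h1] with x hx
    have h2 : Tendsto (fun n : ℕ => x - 1 / ((n:ℝ) + 1)) atTop (𝓝 x) := by
      have := tendsto_one_div_add_atTop_nhds_zero_nat (𝕜 := ℝ)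
      simpa using this.const_sub x
    exact tendsto_of_tendsto_of_tendsto_of_le_of_le (hx.tendsto.comp h2) tendsto_const_nhds
      (fun n => hS4 n x) (fun n => hS5 n x)
  obtain ⟨M1, hM1⟩ := (isCompact_Icc (a := a) (b := b)).exists_bound_of_continuousOn hd.continuousOn
  obtain ⟨M2, hM2⟩ := (isCompact_Icc (a := a) (b := b)).exists_bound_of_continuousOn hφc.continuousOn
  have hTb : ∀ x ∈ Icc a b, ∀ t, 0 ≤ t → t ≤ C → |T (A x - t)| ≤ |T 0| + CA + C := by
    intro x hx t ht htC
    have h1 := hT.abs_sub_le (A x - t) 0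
    have h2 := hCA x (by rw [uIcc_of_le hab]; exact hx)
    rw [Real.norm_eq_abs] at h2
    rw [sub_zero] at h1
    have h3 : |A x - t| ≤ |A x| + |t| := abs_sub _ _
    rw [abs_of_nonneg ht] at h3
    have h4 : |T (A x - t)| ≤ |T (A x - t) - T 0| + |T 0| := by
      have := abs_add_le (T (A x - t) - T 0) (T 0)
      rwa [sub_add_cancel] at this
    linarith
  have hconv : Tendsto (fun n => ∫ x in a..b,
      (deriv φ x * T (A x - S n x) - φ x * (deriv T (A x - S n x) * h x))) atTop
      (𝓝 (∫ x in a..b, (deriv φ x * T (A x - R x) - φ x * (deriv T (A x - R x) * h x)))) := by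
    refine intervalIntegral.tendsto_integral_filter_of_dominated_convergence
      (fun x => M1 * (|T 0| + CA + C) + M2 * |h x|) ?_ ?_ ?_ ?_
    · refine Eventually.of_forall fun n => ?_
      have c1 : ContinuousOn (fun x => A x - S n x) (uIcc a b) := (hAc.sub (hS1 n)).continuousOn
      have m1 : AEStronglyMeasurable (fun x => deriv φ x * T (A x - S n x))
          (volume.restrict (uIoc a b)) :=
        ((hd.continuousOn.mul (hT.sm.continuous.comp_continuousOn c1)).mono
          uIoc_subset_uIcc).aestronglyMeasurable measurableSet_uIoc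
      have m2 : AEStronglyMeasurable (fun x => φ x * (deriv T (A x - S n x) * h x))
          (volume.restrict (uIoc a b)) :=
        (hφc.aestronglyMeasurable).mul ((((hT.cd.comp_continuousOn c1).mono
          uIoc_subset_uIcc).aestronglyMeasurable measurableSet_uIoc).mul
          hh.aestronglyMeasurable_restrict_uIoc)
      exact m1.sub m2
    · refine Eventually.of_forall fun n => Eventually.of_forall fun x hx => ?_
      have hx' : x ∈ Icc a b := by
        rw [uIoc_of_le hab] at hx
        exact ⟨hx.1.le, hx.2⟩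
      rw [Real.norm_eq_abs]
      have g1 := hM1 x hx'
      have g2 := hM2 x hx'
      rw [Real.norm_eq_abs] at g1 g2
      have g3 := hTb x hx' (S n x) (hS0 n x) (hSC n x)
      have g4 : |deriv T (A x - S n x)| ≤ 1 := by
        rw [abs_of_nonneg (hT.nn _)]; exact hT.le _
      calc |deriv φ x * T (A x - S n x) - φ x * (deriv T (A x - S n x) * h x)|
          ≤ |deriv φ x * T (A x - S n x)| + |φ x * (deriv T (A x - S n x) * h x)| := abs_sub _ _
        _ = |deriv φ x| * |T (A x - S n x)| + |φ x| * (|deriv T (A x - S n x)| * |h x|) := by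
            rw [abs_mul, abs_mul, abs_mul]
        _ ≤ M1 * (|T 0| + CA + C) + M2 * (1 * |h x|) := by
            gcongr
            · exact (abs_nonneg _).trans g1
            · exact (abs_nonneg _).trans g2
        _ = _ := by ring
    · exact intervalIntegrable_const.add (hh.abs.const_mul _)
    · filter_upwards [hlim] with x hx _
      have h1 : Tendsto (fun n => A x - S n x) atTop (𝓝 (A x - R x)) := hx.const_sub _
      exact (((hT.sm.continuous.tendsto _).comp h1).const_mul _).sub
        ((((hT.cd.tendsto _).comp h1).mul_const _).const_mul _)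
  have h5 := ge_of_tendsto' hconv key
  refine h5.trans_eq (intervalIntegral.integral_congr fun x hx => ?_)
  rw [uIcc_of_le hab] at hx
  show _ = deriv φ x * T (F x) - φ x * (deriv T (F x) * h x)
  rw [hF x hx]

end Crest.Agent.R105.Hq_363
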