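import Crest.Agent.R105.IfB2_641
import Crest.Agent.R105.Ext2_616

/-!
# Row 105, [B]: the composition `BP_of_leaves`
-/

set_option autoImplicit false

open MeasureTheory Set Filter Topology Metric
open scoped ContDiff NNReal

namespace Crest.Agent.R105.IfB_641

variable {C : Set ℂ} {u v χ x0 φ : ℂ → ℝ}

theorem abs_fderiv_mul_le {z : ℂ} {ε M : ℝ} (hε : 0 < ε) (hu : DifferentiableAt ℝ u z)
    (hχ : DifferentiableAt ℝ χ z) (hb : |u z| ≤ M) (e : ℂ) :
    |fderiv ℝ (fun z => u z * χ z) z e|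
      ≤ ‖e‖ * (ε⁻¹ * en u z + ε * χ z ^ 2 + M * ‖fderiv ℝ χ z‖) := by
  have h1 : fderiv ℝ (fun z => u z * χ z) z = u z • fderiv ℝ χ z + χ z • fderiv ℝ u z :=
    fderiv_fun_mul hu hχ
  rw [h1]
  have h2 : |(u z • fderiv ℝ χ z + χ z • fderiv ℝ u z) e|
      ≤ |u z| * (‖fderiv ℝ χ z‖ * ‖e‖) + |χ z| * (‖fderiv ℝ u z‖ * ‖e‖) := by
    have h3 : (u z • fderiv ℝ χ z + χ z • fderiv ℝ u z) e
        = u z * fderiv ℝ χ z e + χ z * fderiv ℝ u z e := rfl
    rw [h3]
    refine (abs_add_le _ _).trans ?_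
    rw [abs_mul, abs_mul]
    have h4 := (fderiv ℝ χ z).le_opNorm e
    have h5 := (fderiv ℝ u z).le_opNorm e
    rw [Real.norm_eq_abs] at h4 h5
    exact add_le_add (mul_le_mul_of_nonneg_left h4 (abs_nonneg _))
      (mul_le_mul_of_nonneg_left h5 (abs_nonneg _))
  refine h2.trans ?_
  have h6 : |u z| * (‖fderiv ℝ χ z‖ * ‖e‖) ≤ M * ‖fderiv ℝ χ z‖ * ‖e‖ := by
    rw [mul_assoc]
    exact mul_le_mul_of_nonneg_right hb (by positivity)
  have h7 : |χ z| * ‖fderiv ℝ u z‖ ≤ ε⁻¹ * en u z + ε * χ z ^ 2 := by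
    rw [Bd_775.en_eq, ← sq_abs (χ z)]
    set n := ‖fderiv ℝ u z‖
    set a := |χ z|
    have h8 : ε⁻¹ * n ^ 2 + ε * a ^ 2 - a * n = ε⁻¹ * (n ^ 2 + (ε * a) ^ 2 - (ε * a) * n) := by
      field_simp
    have h9 : 0 ≤ n ^ 2 + (ε * a) ^ 2 - (ε * a) * n := by
      nlinarith [sq_nonneg (n - ε * a), sq_nonneg n, sq_nonneg (ε * a)]
    have h10 : 0 ≤ ε⁻¹ * (n ^ 2 + (ε * a) ^ 2 - (ε * a) * n) := mul_nonneg (by positivity) h9
    linarith
  have h11 := mul_le_mul_of_nonneg_right h7 (norm_nonneg e)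
  calc |u z| * (‖fderiv ℝ χ z‖ * ‖e‖) + |χ z| * (‖fderiv ℝ u z‖ * ‖e‖)
      ≤ M * ‖fderiv ℝ χ z‖ * ‖e‖ + (ε⁻¹ * en u z + ε * χ z ^ 2) * ‖e‖ := by
        refine add_le_add h6 ?_
        rw [← mul_assoc]; exact h11
    _ = ‖e‖ * (ε⁻¹ * en u z + ε * χ z ^ 2 + M * ‖fderiv ℝ χ z‖) := by ring

theorem int_sq (hχ : ContDiff ℝ ∞ χ) (hc : HasCompactSupport χ) :
    Integrable (fun z => χ z ^ 2) := by
  have h1 : HasCompactSupport (fun z => χ z ^ 2) := by
    have : (fun z => χ z ^ 2) = fun z => χ z * χ z := by funext z; ring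
    rw [this]
    exact hc.mul_left (f := χ)
  exact (hχ.continuous.pow 2).integrable_of_hasCompactSupport h1

theorem int_nf (hχ : ContDiff ℝ ∞ χ) (hc : HasCompactSupport χ) :
    Integrable (fun z => ‖fderiv ℝ χ z‖) :=
  (hχ.continuous_fderiv (by simp)).norm.integrable_of_hasCompactSupport
    (hc.fderiv (𝕜 := ℝ)).norm

theorem int_bound (hu : Q C u) (hχ : ContDiff ℝ ∞ χ) (hc : HasCompactSupport χ) (ε M : ℝ) (e : ℂ) :
    IntegrableOn (fun z => ‖e‖ * (ε⁻¹ * en u z + ε * χ z ^ 2 + M * ‖fderiv ℝ χ z‖)) Cᶜ :=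
  (((hu.fin.const_mul ε⁻¹).add ((int_sq hχ hc).integrableOn.const_mul ε)).add
    ((int_nf hχ hc).integrableOn.const_mul M)).const_mul ‖e‖

theorem int_fderiv_mul (hC : IsClosed C) (hu : Q C u) (hχ : ContDiff ℝ ∞ χ)
    (hc : HasCompactSupport χ) (e : ℂ) :
    IntegrableOn (fun z => fderiv ℝ (fun z => u z * χ z) z e) Cᶜ := by
  obtain ⟨M, hM⟩ := hu.bdd
  refine Integrable.mono' (int_bound hu hχ hc 1 M e)
    (measurable_fderiv_apply_const ℝ _ e).aestronglyMeasurable ?_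
  filter_upwards [hu.ae_diff hC] with z hz
  rw [Real.norm_eq_abs]
  exact abs_fderiv_mul_le one_pos hz (hχ.differentiable (by simp) z) (hM z) e

theorem abs_int_le (hC : IsClosed C) (hu : Q C u) (hχ : ContDiff ℝ ∞ χ)
    (hc : HasCompactSupport χ) {ε : ℝ} (hε : 0 < ε) (hb : ∀ z, |u z| ≤ ε)
    (hd : di C u u ≤ ε ^ 2) (e : ℂ) :
    |∫ z in Cᶜ, fderiv ℝ (fun z => u z * χ z) z e|
      ≤ ε * (‖e‖ * (1 + (∫ z in Cᶜ, χ z ^ 2) + ∫ z in Cᶜ, ‖fderiv ℝ χ z‖)) := by
  have h1 : |∫ z in Cᶜ, fderiv ℝ (fun z => u z * χ z) z e|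
      ≤ ∫ z in Cᶜ, ‖e‖ * (ε⁻¹ * en u z + ε * χ z ^ 2 + ε * ‖fderiv ℝ χ z‖) := by
    rw [← Real.norm_eq_abs]
    refine norm_integral_le_of_norm_le (int_bound hu hχ hc ε ε e) ?_
    filter_upwards [hu.ae_diff hC] with z hz
    rw [Real.norm_eq_abs]
    exact abs_fderiv_mul_le hε hz (hχ.differentiable (by simp) z) (hb z) e
  refine h1.trans ?_
  have i1 : IntegrableOn (fun z => ε⁻¹ * en u z) Cᶜ := hu.fin.const_mul ε⁻¹
  have i2 : IntegrableOn (fun z => ε * χ z ^ 2) Cᶜ := (int_sq hχ hc).integrableOn.const_mul ε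
  have i3 : IntegrableOn (fun z => ε * ‖fderiv ℝ χ z‖) Cᶜ :=
    (int_nf hχ hc).integrableOn.const_mul ε
  have i12 : IntegrableOn (fun z => ε⁻¹ * en u z + ε * χ z ^ 2) Cᶜ := i1.add i2
  rw [integral_const_mul, integral_add i12 i3, integral_add i1 i2, integral_const_mul,
    integral_const_mul, integral_const_mul]
  have h2 : ∫ z in Cᶜ, en u z = di C u u := by
    unfold di Bd_775.dot Bd_775.en
    refine integral_congr_ae (Eventually.of_forall fun z => ?_)
    simp only []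
    ring
  rw [h2]
  have h3 : ε⁻¹ * di C u u ≤ ε := by
    calc ε⁻¹ * di C u u ≤ ε⁻¹ * ε ^ 2 := mul_le_mul_of_nonneg_left hd (by positivity)
      _ = ε := by field_simp
  have he := norm_nonneg e
  have h4 : ‖e‖ * (ε⁻¹ * di C u u) ≤ ‖e‖ * ε := mul_le_mul_of_nonneg_left h3 he
  nlinarith

theorem fderiv_apply_eq (u : ℂ → ℝ) (z e : ℂ) :
    fderiv ℝ u z e = e.re * gx u z + e.im * gy u z := by
  have : e = e.re • (1 : ℂ) + e.im • Complex.I := by
    apply Complex.ext <;> simp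
  conv_lhs => rw [this]
  rw [map_add, map_smul, map_smul, smul_eq_mul, smul_eq_mul]
  rfl

/-- planarity in the trivial picture `p z = z + c` -/
theorem int_eq_zero_of_planar (hC : IsClosed C) {c : ℂ} {p : ℂ → ℂ}
    (hp : ∀ z ∈ Cᶜ, p z = z + c) (hre : ∀ z ∈ Cᶜ, (p z).re = x0 z + φ z)
    (hu : Q C u) (h : Planar C x0 φ p u) (hχ : ContDiff ℝ ∞ χ) (hc : HasCompactSupport χ)
    (e : ℂ) : ∫ z in Cᶜ, fderiv ℝ (fun z => u z * χ z) z e = 0 := by
  obtain ⟨h1, h2⟩ := h (fun w => χ (w - c)) (hχ.comp (contDiff_id.sub contDiff_const))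
    (by
      have := hc.comp_homeomorph (Homeomorph.subRight c)
      exact this)
  have hX : ∀ z ∈ Cᶜ, (fun z => x0 z + φ z) =ᶠ[𝓝 z] fun w => w.re + c.re := by
    intro z hz
    filter_upwards [hC.isOpen_compl.mem_nhds hz] with w hw
    rw [← hre w hw, hp w hw, Complex.add_re]
  have hX1 : ∀ z ∈ Cᶜ, gx (fun z => x0 z + φ z) z = 1 := by
    intro z hz
    rw [Bd_775.gx_eq_of_eventuallyEq (hX z hz)]
    have : gx (fun w : ℂ => w.re + c.re) z = gx (fun w : ℂ => w.re) z := by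
      unfold Bd_775.gx; rw [fderiv_add_const]
    rw [this, gx_re]
  have hX2 : ∀ z ∈ Cᶜ, gy (fun z => x0 z + φ z) z = 0 := by
    intro z hz
    rw [Bd_775.gy_eq_of_eventuallyEq (hX z hz)]
    have : gy (fun w : ℂ => w.re + c.re) z = gy (fun w : ℂ => w.re) z := by
      unfold Bd_775.gy; rw [fderiv_add_const]
    rw [this, gy_re]
  have hW : ∀ z ∈ Cᶜ, (fun z => u z * χ (p z - c)) =ᶠ[𝓝 z] fun z => u z * χ z := by
    intro z hz
    filter_upwards [hC.isOpen_compl.mem_nhds hz] with w hw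
    rw [hp w hw, add_sub_cancel_right]
  have e1 : ∫ z in Cᶜ, gx (fun z => u z * χ z) z = 0 := by
    rw [← h1]
    unfold di
    refine setIntegral_congr_fun hC.isOpen_compl.measurableSet fun z hz => ?_
    simp only [Bd_775.dot]
    rw [hX1 z hz, hX2 z hz, Bd_775.gx_eq_of_eventuallyEq (hW z hz)]
    ring
  have e2 : ∫ z in Cᶜ, gy (fun z => u z * χ z) z = 0 := by
    rw [← h2]
    unfold Bd_775.om
    refine setIntegral_congr_fun hC.isOpen_compl.measurableSet fun z hz => ?_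
    simp only [Bd_775.wdg]
    rw [hX1 z hz, hX2 z hz, Bd_775.gy_eq_of_eventuallyEq (hW z hz)]
    ring
  have e3 : ∀ z, fderiv ℝ (fun z => u z * χ z) z e
      = e.re * gx (fun z => u z * χ z) z + e.im * gy (fun z => u z * χ z) z :=
    fun z => fderiv_apply_eq _ z e
  have j1 : IntegrableOn (gx (fun z => u z * χ z)) Cᶜ := int_fderiv_mul hC hu hχ hc 1
  have j2 : IntegrableOn (gy (fun z => u z * χ z)) Cᶜ := int_fderiv_mul hC hu hχ hc Complex.I
  calc ∫ z in Cᶜ, fderiv ℝ (fun z => u z * χ z) z e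
      = ∫ z in Cᶜ, (e.re * gx (fun z => u z * χ z) z + e.im * gy (fun z => u z * χ z) z) :=
        integral_congr_ae (Eventually.of_forall e3)
    _ = 0 := by
      rw [integral_add (j1.const_mul _) (j2.const_mul _), integral_const_mul, integral_const_mul,
        e1, e2]
      ring

/-- EXTENSION, proved (616) -/
theorem extp : EXTP := by
  intro C p hC hd hi ⟨c, hc⟩ hV
  exact Crest.Agent.R105.Ext_616.extp' hC.cpt hC.td hd hi hc hV

/-- the hypotheses of `BP` give a member of `D C` -/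
theorem d_of_bp (hC : IsClosed C) (hv : Continuous v) (hvc : HasCompactSupport v)
    (hloc : ∀ z ∉ C, ∃ K : NNReal, ∃ t ∈ 𝓝 z, LipschitzOnWith K v t)
    (hfin : IntegrableOn (fun z => ‖fderiv ℝ v z‖ ^ 2) Cᶜ) : D C v where
  cont := hv
  bdd := by
    obtain ⟨M, hM⟩ := hv.bounded_above_of_compact_support hvc
    exact ⟨M, fun z => by rw [← Real.norm_eq_abs]; exact hM z⟩
  loc := by
    intro z hz
    obtain ⟨K, t, ht, h⟩ := hloc z hz
    exact ⟨K, t, mem_nhdsWithin_of_mem_nhds ht, h⟩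
  fin := by
    refine hfin.congr (Eventually.of_forall fun z => ?_)
    simp only [Bd_775.en_eq]

/-- **COMPOSITION of the chapters of [B]** -/
theorem BP_of_leaves (hS : SELP) (hA : ATTP) (hD : DIRP) (hU : UNIVP) (hN : NULLP) (hP : PLANP)
    (hPP : PPP) : BP := by
  intro C hC htd hrem v hv hvc hloc hfin e
  have hTD : TD C := ⟨hC, htd⟩
  have hcl : IsClosed C := hC.isClosed
  obtain ⟨x0, hx0⟩ := X0.exists hC
  have hDv : D C v := d_of_bp hcl hv hvc hloc hfin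
  -- cutoff
  obtain ⟨χ, hχ1, hχ, hχc⟩ : ∃ χ : ℂ → ℝ, (∀ z, v z * χ z = v z) ∧ ContDiff ℝ ∞ χ ∧
      HasCompactSupport χ := by
    obtain ⟨R, hR⟩ := hvc.isCompact.isBounded.subset_ball (0 : ℂ)
    set R' : ℝ := max R 1 with hR'
    have hR1 : 0 < R' := lt_of_lt_of_le one_pos (le_max_right _ _)
    let f : ContDiffBump (0 : ℂ) := ⟨R', R' + 1, hR1, by linarith⟩
    refine ⟨f, fun z => ?_, f.contDiff, f.hasCompactSupport⟩
    by_cases hz : z ∈ tsupport v
    · have : z ∈ closedBall (0 : ℂ) R' :=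
        ball_subset_closedBall (ball_subset_ball (le_max_left _ _) (hR hz))
      rw [f.one_of_mem_closedBall this, mul_one]
    · rw [image_eq_zero_of_notMem_tsupport hz, zero_mul]
  have hvχ : (fun z => v z * χ z) = v := funext hχ1
  set A : ℝ := ‖e‖ * (1 + (∫ z in Cᶜ, χ z ^ 2) + ∫ z in Cᶜ, ‖fderiv ℝ χ z‖) with hAdef
  -- the estimate for every `ε`
  have key : ∀ ε : ℝ, 0 < ε → ε ≤ 1 → |∫ z in Cᶜ, fderiv ℝ v z e| ≤ ε * A := by
    intro ε hε hε1
    obtain ⟨b, m, hs, hb1, hb2⟩ := hS C x0 hTD hx0 v hDv (ε ^ 2) (by positivity)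
    obtain ⟨φ, hφ, hiso, hJ⟩ := hA C x0 hTD hx0 b m hs
    have hpk : Pk C x0 b φ := pk_of_attained hTD hx0 hs hφ hiso hJ
    obtain ⟨p, hp⟩ := hD C x0 b φ hpk
    have hinj := hU C x0 b φ p hpk hp
    have hnull := hN C x0 b φ p hpk hp hinj
    have hplan := hP C x0 b φ p hpk hp hinj hnull
    have hV := hPP C x0 b φ p hpk hp hinj hnull hplan
    obtain ⟨c, hc⟩ := hp.inf
    have hpc : ∀ z ∈ Cᶜ, p z = z + c :=
      Crest.Agent.R105.Ext_616.eq_add_of_removable hC htd hp.hol hinj hc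
        (fun w hw => Crest.Agent.R105.Ext_616.cc_eq_singleton_of_td hV hw) hrem subset_rfl
    have hgen : Gen C (insert φ (range b)) (b 0) := Gen.of (mem_insert_of_mem _ (mem_range_self 0))
    have hb0 : Q C (b 0) := (hs.mem 0).q
    have h0 := int_eq_zero_of_planar hcl hpc hp.re hb0 (hplan _ hgen) hχ hχc e
    -- `w = b 0 - v`
    have hw : Q C (fun z => b 0 z - v z) := hb0.sub hcl hDv.q
    have hsm : ∀ z, |b 0 z - v z| ≤ ε := fun z => (hb1 z).trans (by nlinarith)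
    have h1 := abs_int_le hcl hw hχ hχc hε hsm hb2 e
    have h2 : ∫ z in Cᶜ, fderiv ℝ v z e
        = (∫ z in Cᶜ, fderiv ℝ (fun z => b 0 z * χ z) z e)
          - ∫ z in Cᶜ, fderiv ℝ (fun z => (b 0 z - v z) * χ z) z e := by
      rw [← integral_sub (int_fderiv_mul hcl hb0 hχ hχc e) (int_fderiv_mul hcl hw hχ hχc e)]
      refine integral_congr_ae ?_
      filter_upwards [hb0.ae_diff hcl, hDv.q.ae_diff hcl] with z hz1 hz2
      have hz3 : DifferentiableAt ℝ χ z := hχ.differentiable (by simp) z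
      have e1 : v = fun z => b 0 z * χ z - (b 0 z - v z) * χ z := by
        funext z
        have := hχ1 z
        linear_combination -this
      have d1 : DifferentiableAt ℝ (fun z => b 0 z * χ z) z := hz1.mul hz3
      have d2 : DifferentiableAt ℝ (fun z => (b 0 z - v z) * χ z) z := (hz1.sub hz2).mul hz3
      conv_lhs => rw [e1]
      rw [fderiv_fun_sub d1 d2]
      rfl
    rw [h2, h0, zero_sub, abs_neg]
    exact h1
  -- conclusion
  have hA0 : 0 ≤ A := by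
    have h1 := key 1 one_pos le_rfl
    have h2 := abs_nonneg (∫ z in Cᶜ, fderiv ℝ v z e)
    linarith
  by_contra hne
  set I := ∫ z in Cᶜ, fderiv ℝ v z e with hI
  have hpos : 0 < |I| := abs_pos.2 hne
  set ε := min 1 (|I| / (2 * (A + 1))) with hεdef
  have hA1 : 0 < 2 * (A + 1) := by linarith
  have hε0 : 0 < ε := lt_min one_pos (div_pos hpos hA1)
  have h1 := key ε hε0 (min_le_left _ _)
  have h2 : ε * A ≤ |I| / (2 * (A + 1)) * A :=
    mul_le_mul_of_nonneg_right (min_le_right _ _) hA0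
  have h3 : |I| / (2 * (A + 1)) * A ≤ |I| / 2 := by
    rw [div_mul_eq_mul_div, div_le_div_iff₀ hA1 two_pos]
    nlinarith
  linarith

end Crest.Agent.R105.IfB_641
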