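/-
# Row 105, S0138, lemma A: the box problem of a picture `PicS E 𝒬 𝓗`, part 3; helper247

`SolF` : the two one-sided unit flows of a single solid; `exists_solF`; the letter `SolK` (a solid
is null off its window) and its consequence `solN_of` for the solids of a family.
-/
import Crest.Agent.R105.Kbx2_247
import Crest.Agent.R105.Famq4_306

set_option autoImplicit false

open Set Filter MeasureTheory Topology
open scoped ENNReal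

namespace Crest.Agent.R105.Kbx_247

open Crest.Agent.R105.CF_363 Crest.Agent.R105.Stp_722 Crest.Agent.R105.Cq_463
open Crest.Agent.R105.Nal_649 Crest.Agent.R105.Exs_992 Crest.Agent.R105.Famq_306
open Crest.Agent.R105.Skp2_257 (Comps Lo Up)
open Crest.Agent.R105.Kin_238 (Wl Wo tr)
open Crest.Agent.R105.Knq_247 (QQ Null1 Null2 HalfQ FlowQ Vq EQ osc exists_flow1_opt
  exists_flow2_opt)

variable {E : Set (ℝ × ℝ)} {𝒬 𝒬' : Set Sqr} {𝓗 : Set Hair} {a b c d B Bm Bp : ℝ}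
  {g : Set (Set (ℝ × ℝ))} {Q0 : Sqr}

theorem refl_box (hbox : E ⊆ Ioo a b ×ˢ Ioo c d) : rf ⁻¹' E ⊆ Ioo a b ×ˢ Ioo (-d) (-c) := by
  intro p hp
  have h1 := hbox hp
  refine ⟨h1.1, ?_, ?_⟩
  · have := h1.2.2; rw [rf_snd] at this; linarith
  · have := h1.2.1; rw [rf_snd] at this; linarith

/-- the points of a solid above its square lie on hairs attached to its top side -/
theorem above_hair (hP : PicS E 𝒬 𝓗) (hQ : Q0 ∈ 𝒬) {p : ℝ × ℝ} (hp : p ∈ comp E Q0)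
    (hp2 : Q0.y + Q0.s < p.2) : ∃ K ∈ 𝓗, K.car ⊆ comp E Q0 ∧ K.b = Q0.y + Q0.s ∧ p ∈ K.car := by
  have hs := Q0.hs
  have hpQ : p ∉ Q0.car := fun h => by have := h.2.2; linarith
  rcases hP.comp _ (SkT1_137.comp_mem hP.q hQ) with ⟨z, hz⟩ | ⟨K, hK, h⟩ | ⟨Q, hQ', hQP, hpt⟩
  · exfalso
    have h1 := SkT1_137.car_sub_comp hP.q hQ (corner_mem Q0)
    rw [hz, mem_singleton_iff] at h1 hp
    rw [hp, ← h1] at hp2
    simp only at hp2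
    linarith
  · exfalso
    have h1 := SkT1_137.car_sub_comp hP.q hQ (corner_mem Q0)
    have h2 : (Q0.x + Q0.s, Q0.y) ∈ comp E Q0 := SkT1_137.car_sub_comp hP.q hQ
      ⟨⟨by show Q0.x ≤ Q0.x + Q0.s; linarith, le_rfl⟩, ⟨le_rfl, by show Q0.y ≤ Q0.y + Q0.s; linarith⟩⟩
    rw [h] at h1 h2
    have h3 := h1.1
    have h4 := h2.1
    simp only at h3 h4
    linarith
  · have hQQ : Q = Q0 := SkT1_137.eq_of_comp_eq hP.q hQ' hQ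
      (SkT1_137.eq_comp hP.q hQ' (SkT1_137.comp_mem hP.q hQ) hQP).symm
    subst hQQ
    obtain ⟨K, hK, hKP, hpK, hKQ⟩ := hpt p hp hpQ
    refine ⟨K, hK, hKP, ?_, hpK⟩
    rcases hP.att K hK Q hQ hKQ with h1 | h1
    · exact h1
    · have := hpK.2.2; linarith

/-- the two one-sided unit flows of the single solid of `Q0`: lower flow to the lower part of the
square (no teeth), upper flow (reflected picture) to the hairs of the solid above `Bp`. The square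
`Q0` is not charged. -/
structure SolF (E : Set (ℝ × ℝ)) (𝒬 : Set Sqr) (𝓗 : Set Hair) (Q0 : Sqr)
    (B Bp a b c d : ℝ)
    (X1 X2 : ℝ × ℝ → ℝ) (f : {Q : Sqr // Q ∈ 𝒬 \ {Q0}} → ℝ)
    (νp νm : {Q : Sqr // Q ∈ 𝒬 \ {Q0}} → Measure (ℝ × ℝ)) (μ : Measure (ℝ × ℝ))
    (Y1 Y2 : ℝ × ℝ → ℝ) (f' : {Q : Sqr // Q ∈ rfS '' (𝒬 \ {Q0})} → ℝ)
    (νp' νm' : {Q : Sqr // Q ∈ rfS '' (𝒬 \ {Q0})} → Measure (ℝ × ℝ)) (ν : Measure (ℝ × ℝ)) :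
    Prop where
  lo : HalfQ 𝓗 a b c B E (QA (𝒬 \ {Q0})) (Q0.car ∩ {p | p.2 ≤ B}) X1 X2 f νp νm μ
  up : HalfQ (reflH 𝓗) a b (-d) (-Bp) (rf ⁻¹' E) (QA (rfS '' (𝒬 \ {Q0})))
    (rf ⁻¹' comp E Q0 ∩ {p | p.2 ≤ -Bp}) Y1 Y2 f' νp' νm' ν
  m1 : μ univ = 1
  m2 : ν univ = 1
  c1 : ∀ᵐ q ∂μ, q ∈ Q0.car ∧ q.2 ≤ B
  c2 : ∀ᵐ q ∂ν, q.2 ≤ -Bp ∧
    ∃ K ∈ 𝓗, K.car ⊆ comp E Q0 ∧ K.b = Q0.y + Q0.s ∧ rf q ∈ K.car ∧ Bp ≤ K.t

theorem exists_unit {κ : Type*} {Q : κ → Set (ℝ × ℝ)} {S C : Set (ℝ × ℝ)} {𝓗 : Set Hair}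
    (H : QQ 𝓗 a b c B Q) (hS : IsClosed S) (hC : IsCompact C)
    (hCW : C ⊆ Wl a b c B) (hnot : ¬ Null1 𝓗 a b c B S Q C) :
    ∃ (X1 X2 : ℝ × ℝ → ℝ) (f : κ → ℝ) (νp νm : κ → Measure (ℝ × ℝ)) (μ : Measure (ℝ × ℝ)),
      HalfQ 𝓗 a b c B S Q C X1 X2 f νp νm μ ∧ μ univ = 1 := by
  obtain ⟨m, X1, X2, f, νp, νm, μ, hm, hH, hmu, -, -⟩ := exists_flow1_opt H hS hC hCW hnot
  have hfin := hH.fin
  refine ⟨_, _, _, _, _, _, hH.smul (inv_pos.2 hm), ?_⟩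
  have h1 : μ univ = ENNReal.ofReal m := by rw [← hmu, ofReal_measureReal]
  rw [Measure.smul_apply, h1, smul_eq_mul, ← ENNReal.ofReal_mul (inv_pos.2 hm).le,
    inv_mul_cancel₀ hm.ne', ENNReal.ofReal_one]

/-- **the two unit flows of a single solid** -/
theorem exists_solF (hP : PicS E 𝒬 𝓗) (hQ : Q0 ∈ 𝒬) (hbox : E ⊆ Ioo a b ×ˢ Ioo c d)
    (hBp : Q0.y + Q0.s < Bp)
    (hlo : ¬ Null1 𝓗 a b c B E (QA (𝒬 \ {Q0})) (Q0.car ∩ {p | p.2 ≤ B}))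
    (hup : ¬ Null1 (reflH 𝓗) a b (-d) (-Bp) (rf ⁻¹' E) (QA (rfS '' (𝒬 \ {Q0})))
      (rf ⁻¹' comp E Q0 ∩ {p | p.2 ≤ -Bp})) :
    ∃ X1 X2 f νp νm μ Y1 Y2 f' νp' νm' ν,
      SolF E 𝒬 𝓗 Q0 B Bp a b c d X1 X2 f νp νm μ Y1 Y2 f' νp' νm' ν := by
  have hE := hP.q
  have hE' := refl_qpic hE
  have hbox' := refl_box hbox
  have hcc := SkT1_137.comp_mem hE hQ
  have hC1 : IsCompact (Q0.car ∩ {p : ℝ × ℝ | p.2 ≤ B}) :=
    Q0.isCompact_car.inter_right (isClosed_le continuous_snd continuous_const)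
  have hC2 : IsCompact (rf ⁻¹' comp E Q0 ∩ {p : ℝ × ℝ | p.2 ≤ -Bp}) := by
    rw [← rf_image_eq_preimage]
    exact ((isCompact_comp hE hcc).image continuous_rf).inter_right
      (isClosed_le continuous_snd continuous_const)
  have hW1 : Q0.car ∩ {p : ℝ × ℝ | p.2 ≤ B} ⊆ Wl a b c B := by
    rintro p ⟨hp, hp2⟩
    have h1 := hbox (hE.sub _ hQ hp)
    exact ⟨h1.1, h1.2.1, hp2⟩
  have hW2 : rf ⁻¹' comp E Q0 ∩ {p : ℝ × ℝ | p.2 ≤ -Bp} ⊆ Wl a b (-d) (-Bp) := by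
    rintro p ⟨hp, hp2⟩
    have h1 := hbox' (show p ∈ rf ⁻¹' E from comps_sub hcc hp)
    exact ⟨h1.1, h1.2.1, hp2⟩
  obtain ⟨X1, X2, f, νp, νm, μ, h1, m1⟩ := exists_unit (S := E)
    (qq hE hbox (sdiff_subset : 𝒬 \ {Q0} ⊆ 𝒬)) hE.cpt.isClosed hC1 hW1 hlo
  obtain ⟨Y1, Y2, f', νp', νm', ν, h2, m2⟩ := exists_unit (S := rf ⁻¹' E)
    (qq hE' hbox' (image_mono (sdiff_subset : 𝒬 \ {Q0} ⊆ 𝒬))) hE'.cpt.isClosed hC2 hW2 hup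
  refine ⟨X1, X2, f, νp, νm, μ, Y1, Y2, f', νp', νm', ν, ⟨h1, h2, m1, m2, ?_, ?_⟩⟩
  · rw [ae_iff]
    exact h1.carried
  · have h3 : ∀ᵐ q ∂ν, q ∈ rf ⁻¹' comp E Q0 ∩ {p : ℝ × ℝ | p.2 ≤ -Bp} := by
      rw [ae_iff]; exact h2.carried
    filter_upwards [h3] with q hq
    obtain ⟨hq1, hq2⟩ := hq
    have hq3 : Bp ≤ (rf q).2 := by rw [rf_snd]; have : q.2 ≤ -Bp := hq2; linarith
    obtain ⟨K, hK, hKP, hKb, hqK⟩ := above_hair hP hQ hq1 (hBp.trans_le hq3)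
    exact ⟨hq2, K, hK, hKP, hKb, hqK, hq3.trans hqK.2.2⟩

/-! ### the letter of the single solid, and the solids of a family -/

/-- the single step in the letter of the box problem: the lower part of a solid below its square is
null (only one direction; the other one is the reflected picture) -/
def SolK (E : Set (ℝ × ℝ)) (𝒬 : Set Sqr) (𝓗 : Set Hair) (a b c : ℝ) : Prop :=
  ∀ Q ∈ 𝒬, ∀ B, Famq_306.Gen 𝒬 B → B < Q.y →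
    Null1 𝓗 a b c B E (QA (𝒬 \ {Q})) (comp E Q ∩ {p | p.2 ≤ B})

theorem osc_empty' {C : Set (ℝ × ℝ)} (hC : C = ∅) (e : ℝ × ℝ → ℝ) : osc C e = 0 := by
  rw [hC]
  exact le_antisymm (Knq_247.osc_le le_rfl fun p hp => absurd hp (notMem_empty p))
    (Knq_247.osc_nonneg _ _)

theorem vq_drop (h : Q0.car ∩ Wl a b c B = ∅) :
    Vq 𝓗 a b c B (QA (𝒬 \ {Q0})) = Vq 𝓗 a b c B (QA 𝒬) := by
  ext e
  rw [Knq_247.mem_Vq, Knq_247.mem_Vq]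
  refine and_congr_right fun _ => ⟨fun h1 i => ?_, fun h1 i => h1 ⟨i.1, i.2.1⟩⟩
  by_cases hi : i.1 = Q0
  · have h2 : QA 𝒬 i ∩ Wl a b c B = ∅ := by rw [QA, hi]; exact h
    rw [h2]
    exact continuousOn_empty e
  · exact h1 ⟨i.1, i.2, hi⟩

theorem EQ_drop {S : Set (ℝ × ℝ)} (h : Q0.car ∩ Wl a b c B = ∅) (e : ℝ × ℝ → ℝ) :
    EQ a b c B S (QA (𝒬 \ {Q0})) e = EQ a b c B S (QA 𝒬) e := by
  unfold Knq_247.EQ
  congr 1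
  have h1 : ∀ 𝒬 : Set Sqr, ∑' i, osc (QA 𝒬 i ∩ Wl a b c B) e ^ 2 =
      ∑' Q, 𝒬.indicator (fun Q => osc (Q.car ∩ Wl a b c B) e ^ 2) Q := fun 𝒬 =>
    tsum_subtype 𝒬 (fun Q => osc (Q.car ∩ Wl a b c B) e ^ 2)
  rw [h1, h1]
  refine tsum_congr fun Q => ?_
  by_cases hQ : Q = Q0
  · rw [hQ]
    have h2 : osc (Q0.car ∩ Wl a b c B) e ^ 2 = 0 := by rw [osc_empty' h]; norm_num
    rw [indicator_of_notMem fun h3 => h3.2 rfl]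
    by_cases h4 : Q0 ∈ 𝒬
    · rw [indicator_of_mem h4, h2]
    · rw [indicator_of_notMem h4]
  · by_cases h4 : Q ∈ 𝒬
    · rw [indicator_of_mem h4, indicator_of_mem (show Q ∈ 𝒬 \ {Q0} from ⟨h4, hQ⟩)]
    · rw [indicator_of_notMem h4, indicator_of_notMem fun h5 => h4 h5.1]

/-- the charge of a square above the level is free -/
theorem null1_drop {S C : Set (ℝ × ℝ)} (h : Q0.car ∩ Wl a b c B = ∅)
    (hn : Null1 𝓗 a b c B S (QA (𝒬 \ {Q0})) C) : Null1 𝓗 a b c B S (QA 𝒬) C := by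
  intro ε hε
  obtain ⟨e, he, h1, h2⟩ := hn ε hε
  rw [vq_drop h] at he
  rw [EQ_drop h] at h1
  exact ⟨e, he, h1, h2⟩

theorem car_Wl_empty {Q : Sqr} (h : B < Q.y) : Q.car ∩ Wl a b c B = ∅ := by
  rw [← not_nonempty_iff_eq_empty]
  rintro ⟨p, hp, hpW⟩
  have h1 := hp.2.1
  have h2 := hpW.2.2
  linarith

theorem gen_rf (h : Famq_306.Gen 𝒬 B) : Famq_306.Gen (rfS '' 𝒬) (-B) := by
  rintro _ ⟨Q, hQ, rfl⟩
  have h1 := h Q hQ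
  simp only [rfS_y, rfS_s]
  exact ⟨fun h2 => h1.2 (by linarith), fun h2 => h1.1 (by linarith)⟩

theorem solK_lo (h : SolK E 𝒬 𝓗 a b c) {Q : Sqr} (hQ : Q ∈ 𝒬) (hG : Famq_306.Gen 𝒬 B)
    (hB : B < Q.y) : Null1 𝓗 a b c B E (QA 𝒬) (comp E Q ∩ {p | p.2 ≤ B}) :=
  null1_drop (car_Wl_empty hB) (h Q hQ B hG hB)

theorem solK_up (hE : QPic E 𝒬 𝓗) (h : SolK (rf ⁻¹' E) (rfS '' 𝒬) (reflH 𝓗) a b (-d)) {Q : Sqr}
    (hQ : Q ∈ 𝒬) (hG : Famq_306.Gen 𝒬 B) (hB : Q.y + Q.s < B) :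
    Null1 (reflH 𝓗) a b (-d) (-B) (rf ⁻¹' E) (QA (rfS '' 𝒬))
      (rf ⁻¹' comp E Q ∩ {p | p.2 ≤ -B}) := by
  have h1 := solK_lo h (Q := rfS Q) ⟨Q, hQ, rfl⟩ (gen_rf hG) (by rw [rfS_y]; linarith)
  rwa [comp_rfS hE hQ] at h1

/-- **the solids of a family with `Win` are null at one end**, in the letter of the box problem -/
theorem solN_of (hE : QPic E 𝒬 𝓗) (hg : FamQ E g Bm Bp) (hG : Famq_306.Gen 𝒬 Bm)
    (hG' : Famq_306.Gen 𝒬 Bp) (hw : Win 𝒬 g Bm Bp) (h : SolK E 𝒬 𝓗 a b c)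
    (h' : SolK (rf ⁻¹' E) (rfS '' 𝒬) (reflH 𝓗) a b (-d)) :
    ∀ Q ∈ 𝒬, Q.car ⊆ ⋃₀ g → SolN E 𝒬 𝓗 Bm Bp a b c d Q := by
  intro Q hQ hQg
  obtain ⟨P, hPg, hp⟩ := hQg (corner_mem Q)
  have h1 : P = comp E Q := comp_unique (hg.sub hPg) (SkT1_137.comp_mem hE hQ)
    ⟨_, hp, SkT1_137.car_sub_comp hE hQ (corner_mem Q)⟩
  have h2 : Q.car ⊆ P := h1 ▸ SkT1_137.car_sub_comp hE hQ
  rcases hw P hPg Q hQ h2 with h3 | h3
  · exact Or.inl (solK_lo h hQ hG h3)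
  · exact Or.inr (solK_up hE h' hQ hG' h3)

theorem famQ_single (hE : QPic E 𝒬 𝓗) (hg : FamQ E g Bm Bp) {P : Set (ℝ × ℝ)} (hP : P ∈ g) :
    FamQ E {P} Bm Bp where
  lt := hg.lt
  sub := singleton_subset_iff.2 (hg.sub hP)
  cpt := by rw [sUnion_singleton]; exact isCompact_comp hE (hg.sub hP)
  crs := by rintro _ rfl; exact hg.crs _ hP

theorem not_sub_hair {Q : Sqr} {K : Hair} : ¬ Q.car ⊆ ⋃₀ {K.car} := by
  rw [sUnion_singleton]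
  intro h
  have hs := Q.hs
  have h1 := (h (corner_mem Q)).1
  have h2 := (h (show (Q.x + Q.s, Q.y) ∈ Q.car from
    ⟨⟨by show Q.x ≤ Q.x + Q.s; linarith, le_rfl⟩,
      ⟨le_rfl, by show Q.y ≤ Q.y + Q.s; linarith⟩⟩)).1
  simp only at h1 h2
  linarith

/-- the flow of a single free hair -/
theorem exists_famF_hair (hP : PicS E 𝒬 𝓗) (hg : FamQ E g Bm Bp)
    (hbox : E ⊆ Ioo a b ×ˢ Ioo c d) {K : Hair} (hK : K.car ∈ g)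
    (hnot : ¬ Null2 𝓗 a b c Bm E (QA 𝒬) (reflH 𝓗) a b (-d) (-Bp) (rf ⁻¹' E) (QA (rfS '' 𝒬))
      (Rg {K.car} Bm Bp)) :
    ∃ m X1 X2 f νp νm μ Y1 Y2 f' νp' νm' ν,
      FamF E 𝒬 𝓗 {K.car} Bm Bp a b c d m X1 X2 f νp νm μ Y1 Y2 f' νp' νm' ν :=
  exists_famF hP (famQ_single hP.q hg hK) hbox (fun _ _ h => absurd h not_sub_hair) hnot

end Crest.Agent.R105.Kbx_247
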