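import Crest.Agent.R105.Skp2_257
import Crest.Agent.R105.CFcls_363

/-!
Row 105, leaf SINGLE (task 2360), part 1: energy tools for compactly supported functions of class
`CFJ` on arbitrary open sets, and the logarithmic cut-off at a point.
-/

set_option autoImplicit false

open Set Filter MeasureTheory Topology Metric
open scoped ENNReal NNReal

namespace Crest.Agent.R105.Sin_891

open CF_363 Stp_722 Skp2_257

variable {𝓗 : Set Hair} {W N S : Set (ℝ × ℝ)} {f g : ℝ × ℝ → ℝ}

theorem g2_eq_zero {p : ℝ × ℝ} {c : ℝ} (h : f =ᶠ[𝓝 p] fun _ => c) : g2 f p = 0 := by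
  simp [g2, gx_congr h, gy_congr h]

theorem g2_congr {p : ℝ × ℝ} (h : f =ᶠ[𝓝 p] g) : g2 f p = g2 g p := by
  simp only [g2, gx_congr h, gy_congr h]

theorem g2_eq_zero_of_support (hW : IsOpen W) (hS : IsClosed S) (h0 : ∀ p ∈ W, p ∉ S → f p = 0)
    {p : ℝ × ℝ} (hp : p ∈ W) (hpS : p ∉ S) : g2 f p = 0 := by
  apply g2_eq_zero (c := 0)
  filter_upwards [(hW.inter hS.isOpen_compl).mem_nhds ⟨hp, hpS⟩] with q hq
  exact h0 q hq.1 hq.2

theorem volume_inter_ball_ne_top (W : Set (ℝ × ℝ)) (c : ℝ × ℝ) (R : ℝ) :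
    volume (W ∩ ball c R) ≠ ∞ :=
  (lt_of_le_of_lt (measure_mono inter_subset_right) measure_ball_lt_top).ne

/-- integrability of the energy density of a compactly supported function. -/
theorem integrableOn_g2 (hW : IsOpen W) (hf : CFJ 𝓗 W f) (hS : IsCompact S)
    (h0 : ∀ p ∈ W, p ∉ S → f p = 0) : IntegrableOn (g2 f) W := by
  obtain ⟨R, hR⟩ := hS.isBounded.subset_ball (0 : ℝ × ℝ)
  have h1 : IntegrableOn (g2 f) (W ∩ ball 0 R) :=
    (hf.mono subset_rfl inter_subset_left).integrableOn_g2 (hW.inter isOpen_ball)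
      (volume_inter_ball_ne_top W 0 R)
  have h2 : IntegrableOn (g2 f) (W \ ball 0 R) := by
    have : IntegrableOn (fun _ => (0 : ℝ)) (W \ ball (0 : ℝ × ℝ) R) := integrableOn_zero
    refine this.congr_fun (fun p hp => ?_) (hW.measurableSet.diff measurableSet_ball)
    exact (g2_eq_zero_of_support hW hS.isClosed h0 hp.1 fun h => hp.2 (hR h)).symm
  have h3 := h1.union h2
  rwa [inter_union_sdiff] at h3

/-- only the part in a ball matters. -/
theorem En_inter_ball (hW : IsOpen W) (hS : IsCompact S)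
    (h0 : ∀ p ∈ W, p ∉ S → f p = 0) {R : ℝ} (hR : S ⊆ ball 0 R) :
    En W f = En (W ∩ ball 0 R) f := by
  unfold En
  have h : W ∩ ball 0 R ⊆ W := inter_subset_left
  refine (setIntegral_eq_of_subset_of_forall_sdiff_eq_zero hW.measurableSet h ?_)
  rintro p ⟨hp, hp'⟩
  exact g2_eq_zero_of_support hW hS.isClosed h0 hp fun h => hp' ⟨hp, hR h⟩

theorem En_mono {W' : Set (ℝ × ℝ)} (hW : IsOpen W) (hWW : W' ⊆ W) (hf : CFJ 𝓗 W f)
    (hS : IsCompact S) (h0 : ∀ p ∈ W, p ∉ S → f p = 0) : En W' f ≤ En W f :=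
  setIntegral_mono_set (integrableOn_g2 hW hf hS h0)
    (ae_of_all _ fun p => g2_nonneg f p) (HasSubset.Subset.eventuallyLE hWW)

/-- truncated multiple of one half of a pair. -/
theorem half_scale {E W N : Set (ℝ × ℝ)} {ε : ℝ} {z : ℝ × ℝ → ℝ} (hW : IsOpen W)
    (hz : Half E W N ε z) {c : ℝ} (hc : 0 ≤ c) :
    Half E W N (c ^ 2 * ε) (fun p => min (c * z p) 1) := by
  obtain ⟨S, hS, hSN, h0⟩ := hz.sp
  obtain ⟨R, hR⟩ := hS.isBounded.subset_ball (0 : ℝ × ℝ)
  have h0' : ∀ p ∈ W, p ∉ S → min (c * z p) 1 = 0 := by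
    intro p hp hpS
    rw [h0 p hp hpS, mul_zero]
    exact min_eq_left zero_le_one
  refine ⟨(hz.cf.const_mul c).min (CFJ_const 1), fun p => ?_, ⟨S, hS, hSN, h0'⟩, ?_⟩
  · refine ⟨le_min (mul_nonneg hc (hz.rg p).1) zero_le_one, min_le_right _ _⟩
  · rw [En_inter_ball hW hS h0' hR]
    have hWb : IsOpen (W ∩ ball 0 R) := hW.inter isOpen_ball
    have hv := volume_inter_ball_ne_top W 0 R
    have hcf : CFJ (hairs E) (W ∩ ball 0 R) z := hz.cf.mono subset_rfl inter_subset_left
    have h1 := (hcf.const_mul c).En_min_le hWb hv (CFJ_const 1)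
    have h2 : En (W ∩ ball 0 R) (fun _ : ℝ × ℝ => (1 : ℝ)) = 0 := En_const _ _
    have h3 := hcf.En_const_mul hWb c
    have h4 : En (W ∩ ball 0 R) z ≤ ε := by
      rw [← En_inter_ball hW hS h0 hR]; exact hz.en
    have h5 : c ^ 2 * En (W ∩ ball 0 R) z ≤ c ^ 2 * ε :=
      mul_le_mul_of_nonneg_left h4 (sq_nonneg c)
    linarith

theorem Half.mono {E W W' N N' : Set (ℝ × ℝ)} {ε ε' : ℝ} {z : ℝ × ℝ → ℝ} (hW : IsOpen W)
    (hz : Half E W N ε z) (hWW : W' ⊆ W) (hN : N ⊆ N') (hε : ε ≤ ε') : Half E W' N' ε' z := by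
  obtain ⟨S, hS, hSN, h0⟩ := hz.sp
  refine ⟨hz.cf.mono subset_rfl hWW, hz.rg, ⟨S, hS, hSN.trans hN, fun p hp => h0 p (hWW hp)⟩, ?_⟩
  exact ((En_mono hW hWW hz.cf hS h0).trans hz.en).trans hε

theorem Half.integrableOn {E W N : Set (ℝ × ℝ)} {ε : ℝ} {z : ℝ × ℝ → ℝ} (hW : IsOpen W)
    (hz : Half E W N ε z) : IntegrableOn (g2 z) W := by
  obtain ⟨S, hS, hSN, h0⟩ := hz.sp
  exact integrableOn_g2 hW hz.cf hS h0

theorem isOpen_Lo (B : ℝ) : IsOpen (Lo B) := isOpen_lt continuous_snd continuous_const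
theorem isOpen_Up (B : ℝ) : IsOpen (Up B) := isOpen_lt continuous_const continuous_snd

/-! ### the cut-off at a point -/

/-- the basic bump -/
noncomputable def bmp (c : ℝ × ℝ) (r : ℝ) (p : ℝ × ℝ) : ℝ := max 0 (min 1 (2 - dist p c / r))

theorem bmp_nonneg (c : ℝ × ℝ) (r : ℝ) (p : ℝ × ℝ) : 0 ≤ bmp c r p := le_max_left _ _

theorem bmp_le_one (c : ℝ × ℝ) (r : ℝ) (p : ℝ × ℝ) : bmp c r p ≤ 1 :=
  max_le zero_le_one (min_le_left _ _)

theorem bmp_eq_one {c : ℝ × ℝ} {r : ℝ} (hr : 0 < r) {p : ℝ × ℝ} (h : dist p c ≤ r) :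
    bmp c r p = 1 := by
  have h1 : dist p c / r ≤ 1 := (div_le_one hr).2 h
  unfold bmp
  rw [min_eq_left (by linarith), max_eq_right zero_le_one]

theorem bmp_eq_zero {c : ℝ × ℝ} {r : ℝ} (hr : 0 < r) {p : ℝ × ℝ} (h : 2 * r ≤ dist p c) :
    bmp c r p = 0 := by
  have h1 : 2 ≤ dist p c / r := (le_div_iff₀ hr).2 h
  unfold bmp
  rw [max_eq_left]
  exact (min_le_right _ _).trans (by linarith)

theorem bmp_lip {c : ℝ × ℝ} {r : ℝ} (hr : 0 < r) (p q : ℝ × ℝ) :
    |bmp c r p - bmp c r q| ≤ r⁻¹ * dist p q := by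
  have h1 : |bmp c r p - bmp c r q| ≤ |dist p c / r - dist q c / r| := by
    unfold bmp
    refine (abs_max_sub_max_le_max _ _ _ _).trans ?_
    rw [sub_self, abs_zero]
    refine max_le (abs_nonneg _) ?_
    refine (abs_min_sub_min_le_max _ _ _ _).trans ?_
    rw [sub_self, abs_zero]
    refine max_le (abs_nonneg _) ?_
    rw [show (2 - dist p c / r) - (2 - dist q c / r) = -(dist p c / r - dist q c / r) by ring,
      abs_neg]
  refine h1.trans ?_
  rw [← sub_div, abs_div, abs_of_pos hr, div_eq_inv_mul]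
  exact mul_le_mul_of_nonneg_left (abs_dist_sub_le p q c) (inv_nonneg.2 hr.le)

theorem bmp_SL {c : ℝ × ℝ} {r : ℝ} (hr : 0 < r) (U : Set (ℝ × ℝ)) : SL U r⁻¹ (bmp c r) :=
  fun p q _ => bmp_lip hr p q

theorem volume_closedBall_plane (c : ℝ × ℝ) {r : ℝ} (hr : 0 ≤ r) :
    (volume (closedBall c r)).toReal = 4 * r ^ 2 := by
  rw [← closedBall_prod_same, Measure.volume_eq_prod, Measure.prod_prod, Real.volume_closedBall,
    Real.volume_closedBall, ENNReal.toReal_mul, ENNReal.toReal_ofReal (by linarith)]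
  ring

/-- **logarithmic cut-off at a point.** -/
theorem exists_point_cut (c : ℝ × ℝ) {ρ₀ : ℝ} (hρ₀ : 0 < ρ₀) {ε : ℝ} (hε : 0 < ε) :
    ∃ (l : ℝ × ℝ → ℝ) (ρ : ℝ), 0 < ρ ∧ ρ < ρ₀ ∧ CF univ l ∧ (∀ p, 0 ≤ l p ∧ l p ≤ 1) ∧
      (∀ p ∈ closedBall c ρ, l p = 1) ∧ (∀ p, ρ₀ ≤ dist p c → l p = 0) ∧ En univ l ≤ ε := by
  classical
  obtain ⟨n, hn⟩ := exists_nat_gt (32 / ε)
  have hn0 : 0 < (n : ℝ) := lt_trans (by positivity) hn
  have hn0' : 0 < n := by exact_mod_cast hn0
  -- radii
  let r : ℕ → ℝ := fun k => ρ₀ / 2 * (1 / 4) ^ k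
  have hr : ∀ k, 0 < r k := fun k => by positivity
  have hr4 : ∀ k l, k < l → r l ≤ r k / 4 := by
    intro k l hkl
    obtain ⟨d, rfl⟩ := Nat.exists_eq_add_of_lt hkl
    simp only [r]
    have h1 : ((1 : ℝ) / 4) ^ (k + d + 1) = (1 / 4) ^ k * ((1 / 4) ^ d * (1 / 4)) := by ring
    have h2 : ((1 : ℝ) / 4) ^ d ≤ 1 := pow_le_one₀ (by norm_num) (by norm_num)
    have h3 : (0 : ℝ) < (1 / 4) ^ k := by positivity
    rw [h1]
    have h4 : ρ₀ / 2 * ((1 / 4) ^ k * ((1 / 4) ^ d * (1 / 4))) =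
      (ρ₀ / 2 * (1 / 4) ^ k / 4) * (1 / 4) ^ d := by ring
    rw [h4]
    exact mul_le_of_le_one_right (by positivity) h2
  have hr0 : ∀ k, r k ≤ ρ₀ / 2 := by
    intro k
    simp only [r]
    exact mul_le_of_le_one_right (by positivity) (pow_le_one₀ (by norm_num) (by norm_num))
  let l : ℝ × ℝ → ℝ := fun p => (n : ℝ)⁻¹ * ∑ k ∈ Finset.range n, bmp c (r k) p
  have hlSL : SL univ (|(n : ℝ)⁻¹| * ∑ k ∈ Finset.range n, (r k)⁻¹) l :=
    (SL.sum _ fun k _ => bmp_SL (hr k) univ).const_mul _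
  have hl01 : ∀ p, 0 ≤ l p ∧ l p ≤ 1 := by
    intro p
    refine ⟨mul_nonneg (inv_nonneg.2 hn0.le) (Finset.sum_nonneg fun k _ => bmp_nonneg _ _ _), ?_⟩
    have h1 : ∑ k ∈ Finset.range n, bmp c (r k) p ≤ ∑ k ∈ Finset.range n, (1 : ℝ) :=
      Finset.sum_le_sum fun k _ => bmp_le_one _ _ _
    rw [Finset.sum_const, Finset.card_range, nsmul_eq_mul, mul_one] at h1
    change (n : ℝ)⁻¹ * ∑ k ∈ Finset.range n, bmp c (r k) p ≤ 1
    rw [inv_mul_le_iff₀ hn0, mul_one]
    exact h1
  refine ⟨l, r n, hr n, lt_of_le_of_lt (hr0 n) (by linarith), ?_, hl01, ?_, ?_, ?_⟩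
  · refine ⟨_, 1, by positivity, hlSL, fun p _ => ?_⟩
    rw [abs_of_nonneg (hl01 p).1]; exact (hl01 p).2
  · intro p hp
    rw [mem_closedBall] at hp
    have h1 : ∀ k ∈ Finset.range n, bmp c (r k) p = 1 := by
      intro k hk
      apply bmp_eq_one (hr k)
      have := hr4 k n (Finset.mem_range.1 hk)
      have := hr k
      linarith
    change (n : ℝ)⁻¹ * ∑ k ∈ Finset.range n, bmp c (r k) p = 1
    rw [Finset.sum_congr rfl h1, Finset.sum_const, Finset.card_range, nsmul_eq_mul, mul_one,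
      inv_mul_cancel₀ hn0.ne']
  · intro p hp
    have h1 : ∀ k ∈ Finset.range n, bmp c (r k) p = 0 := by
      intro k hk
      apply bmp_eq_zero (hr k)
      have := hr0 k
      linarith
    change (n : ℝ)⁻¹ * ∑ k ∈ Finset.range n, bmp c (r k) p = 0
    rw [Finset.sum_congr rfl h1, Finset.sum_const_zero, mul_zero]
  · -- the energy
    have hpt : ∀ p, g2 l p ≤ ∑ k ∈ Finset.range n,
        (closedBall c (2 * r k)).indicator (fun _ => 2 * ((n : ℝ)⁻¹ * (r k)⁻¹) ^ 2) p := by
      intro p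
      have hterm : ∀ k, 0 ≤ (closedBall c (2 * r k)).indicator
          (fun _ => 2 * ((n : ℝ)⁻¹ * (r k)⁻¹) ^ 2) p := fun k =>
        indicator_nonneg (fun _ _ => by positivity) _
      by_cases hex : ∃ k ∈ Finset.range n, r k ≤ dist p c ∧ dist p c ≤ 2 * r k
      · obtain ⟨k, hk, hk1, hk2⟩ := hex
        -- near `p` all the other bumps are constant
        let U : Set (ℝ × ℝ) := {q | r k * (3 / 4) < dist q c ∧ dist q c < r k * (5 / 2)}
        have hU : IsOpen U := (isOpen_lt continuous_const (continuous_id.dist continuous_const)).inter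
          (isOpen_lt (continuous_id.dist continuous_const) continuous_const)
        have hpU : p ∈ U := by
          have := hr k
          exact ⟨by change r k * (3 / 4) < dist p c; linarith,
            by change dist p c < r k * (5 / 2); linarith⟩
        have hc : ∀ j ∈ Finset.range n, j ≠ k → ∃ v, ∀ q ∈ U, bmp c (r j) q = v := by
          intro j hj hjk
          rcases lt_or_gt_of_ne hjk with h | h
          · refine ⟨1, fun q hq => bmp_eq_one (hr j) ?_⟩
            have := hr4 j k h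
            have := hq.2
            have := hr j
            linarith
          · refine ⟨0, fun q hq => bmp_eq_zero (hr j) ?_⟩
            have := hr4 k j h
            have := hq.1
            have := hr k
            linarith
        have hSL : SL U ((n : ℝ)⁻¹ * (r k)⁻¹) l := by
          intro q q' hqq
          have hq : q ∈ U := hqq (left_mem_segment ℝ q q')
          have hq' : q' ∈ U := hqq (right_mem_segment ℝ q q')
          have h1 : l q - l q' = (n : ℝ)⁻¹ * (bmp c (r k) q - bmp c (r k) q') := by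
            simp only [l]
            rw [← mul_sub, ← Finset.sum_sub_distrib]
            congr 1
            rw [Finset.sum_eq_single_of_mem k hk]
            intro j hj hjk
            obtain ⟨v, hv⟩ := hc j hj hjk
            rw [hv q hq, hv q' hq', sub_self]
          rw [h1, abs_mul, abs_of_pos (inv_pos.2 hn0), mul_assoc]
          exact mul_le_mul_of_nonneg_left (bmp_lip (hr k) q q') (inv_nonneg.2 hn0.le)
        have h2 : g2 l p ≤ 2 * ((n : ℝ)⁻¹ * (r k)⁻¹) ^ 2 :=
          hSL.g2_le hU (by have := hr k; positivity) hpU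
        refine h2.trans ?_
        have h3 : (closedBall c (2 * r k)).indicator
            (fun _ => 2 * ((n : ℝ)⁻¹ * (r k)⁻¹) ^ 2) p = 2 * ((n : ℝ)⁻¹ * (r k)⁻¹) ^ 2 :=
          indicator_of_mem (mem_closedBall.2 hk2) _
        rw [← h3]
        exact Finset.single_le_sum (f := fun k => (closedBall c (2 * r k)).indicator
            (fun _ => 2 * ((n : ℝ)⁻¹ * (r k)⁻¹) ^ 2) p) (fun j _ => hterm j) hk
      · push Not at hex
        -- locally constant
        have h1 : ∀ k ∈ Finset.range n, ∃ v, ∀ᶠ q in 𝓝 p, bmp c (r k) q = v := by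
          intro k hk
          rcases lt_or_ge (dist p c) (r k) with h | h
          · refine ⟨1, ?_⟩
            have : {q : ℝ × ℝ | dist q c < r k} ∈ 𝓝 p :=
              (isOpen_lt (continuous_id.dist continuous_const) continuous_const).mem_nhds h
            filter_upwards [this] with q hq
            exact bmp_eq_one (hr k) (le_of_lt hq)
          · refine ⟨0, ?_⟩
            have h' := hex k hk h
            have : {q : ℝ × ℝ | 2 * r k < dist q c} ∈ 𝓝 p :=
              (isOpen_lt continuous_const (continuous_id.dist continuous_const)).mem_nhds h'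
            filter_upwards [this] with q hq
            exact bmp_eq_zero (hr k) (le_of_lt hq)
        choose! v hv using h1
        have h2 : l =ᶠ[𝓝 p] fun _ => (n : ℝ)⁻¹ * ∑ k ∈ Finset.range n, v k := by
          have h3 : ∀ᶠ q in 𝓝 p, ∀ k ∈ Finset.range n, bmp c (r k) q = v k := by
            rw [Filter.eventually_all_finset]
            exact hv
          filter_upwards [h3] with q hq
          simp only [l]
          rw [Finset.sum_congr rfl hq]
        rw [g2_eq_zero h2]
        exact Finset.sum_nonneg fun k _ => hterm k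
    have hint : ∀ k ∈ Finset.range n, Integrable ((closedBall c (2 * r k)).indicator
        (fun _ => 2 * ((n : ℝ)⁻¹ * (r k)⁻¹) ^ 2)) volume := by
      intro k _
      rw [integrable_indicator_iff measurableSet_closedBall]
      exact integrableOn_const (measure_closedBall_lt_top.ne)
    have h0 : ∀ p ∈ (univ : Set (ℝ × ℝ)), p ∉ closedBall c ρ₀ → l p = 0 := by
      intro p _ hp
      rw [mem_closedBall, not_le] at hp
      have h1 : ∀ k ∈ Finset.range n, bmp c (r k) p = 0 := by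
        intro k hk
        apply bmp_eq_zero (hr k)
        have := hr0 k
        linarith
      change (n : ℝ)⁻¹ * ∑ k ∈ Finset.range n, bmp c (r k) p = 0
      rw [Finset.sum_congr rfl h1, Finset.sum_const_zero, mul_zero]
    have hCF : CFJ (∅ : Set Hair) univ l := by
      apply CF.cfj
      refine ⟨_, 1, by positivity, hlSL, fun p _ => ?_⟩
      rw [abs_of_nonneg (hl01 p).1]; exact (hl01 p).2
    have hgi := integrableOn_g2 isOpen_univ hCF (isCompact_closedBall c ρ₀) h0
    have h1 : En univ l ≤ ∫ p, ∑ k ∈ Finset.range n,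
        (closedBall c (2 * r k)).indicator (fun _ => 2 * ((n : ℝ)⁻¹ * (r k)⁻¹) ^ 2) p := by
      unfold En
      rw [setIntegral_univ]
      exact integral_mono (by simpa using hgi) (integrable_finsetSum _ hint) hpt
    refine h1.trans ?_
    rw [integral_finsetSum _ hint]
    have h2 : ∀ k ∈ Finset.range n, ∫ p, (closedBall c (2 * r k)).indicator
        (fun _ => 2 * ((n : ℝ)⁻¹ * (r k)⁻¹) ^ 2) p = 32 * (n : ℝ)⁻¹ ^ 2 := by
      intro k _
      have hk := hr k
      rw [integral_indicator measurableSet_closedBall, setIntegral_const, smul_eq_mul,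
        Measure.real, volume_closedBall_plane c (by positivity)]
      field_simp
      ring
    rw [Finset.sum_congr rfl h2, Finset.sum_const, Finset.card_range, nsmul_eq_mul]
    have h3 : (n : ℝ) * (32 * (n : ℝ)⁻¹ ^ 2) = 32 / n := by field_simp
    rw [h3, div_le_iff₀ hn0]
    rw [div_lt_iff₀ hε] at hn
    linarith

end Crest.Agent.R105.Sin_891
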