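import Crest.Agent.R105.Knq4_247
import Crest.Agent.R105.Cpq1_925
import Crest.Agent.R105.Sin1_891

/-! Row 105, S0138, exact squares: no atoms. For 247's `HalfQ` with disjoint closed squares:
`μ {p} = 0` off the charged squares, and the measures `νp i`, `νm i` of the charged squares have no
atoms (if `μ` has none on them). -/

set_option autoImplicit false

open Set Filter MeasureTheory Topology
open scoped ENNReal NNReal

namespace Crest.Agent.R105.SqK_87

open CF_363 Kin_238 Kkt_238 Knq_247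
open Sin_891 (bmp bmp_nonneg bmp_le_one bmp_eq_one bmp_eq_zero bmp_lip bmp_SL
  volume_closedBall_plane)
open Sin_925 (sqr mem_sqr isCompact_sqr dist_le_sqr sum_sqr_le)

/-- sequences bounded in `ℓ²` against a fixed `ℓ²` weight: termwise limits give the limit of the
sums -/
theorem weak0 {ι : Type*} {f : ι → ℝ} (fs : Summable fun i => f i ^ 2) {l g : ℕ → ι → ℝ} {M : ℝ}
    (hg : ∀ n (T : Finset ι), ∑ i ∈ T, g n i ^ 2 ≤ M) (hl : ∀ n i, |l n i| ≤ f i * g n i)
    {l0 : ι → ℝ} (hlim : ∀ i, Tendsto (fun n => l n i) atTop (𝓝 (l0 i))) :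
    Tendsto (fun n => ∑' i, l n i) atTop (𝓝 (∑' i, l0 i)) := by
  classical
  have hM : 0 ≤ M := by simpa using hg 0 ∅
  have key : ∀ δ > 0, ∀ n (T : Finset ι), ∑ i ∈ T, |l n i| ≤ δ⁻¹ * ∑ i ∈ T, f i ^ 2 + δ * M := by
    intro δ hδ n T
    have h1 : ∀ i ∈ T, |l n i| ≤ δ⁻¹ * f i ^ 2 + δ * g n i ^ 2 := by
      intro i _
      have h2 := hl n i
      have h3 : 0 ≤ f i * g n i := (abs_nonneg _).trans h2
      have e : δ⁻¹ * f i ^ 2 + δ * g n i ^ 2 =
          δ⁻¹ * (f i - δ * g n i) ^ 2 + 2 * (f i * g n i) := by field_simp; ring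
      have h4 : 0 ≤ δ⁻¹ * (f i - δ * g n i) ^ 2 := by positivity
      linarith
    refine (Finset.sum_le_sum h1).trans ?_
    rw [Finset.sum_add_distrib, ← Finset.mul_sum, ← Finset.mul_sum]
    have := mul_le_mul_of_nonneg_left (hg n T) hδ.le
    linarith
  have key0 : ∀ δ > 0, ∀ T : Finset ι, ∑ i ∈ T, |l0 i| ≤ δ⁻¹ * ∑ i ∈ T, f i ^ 2 + δ * M :=
    fun δ hδ T => le_of_tendsto' (tendsto_finsetSum _ fun i _ => (hlim i).abs)
      fun n => key δ hδ n T
  have hF : ∀ T : Finset ι, ∑ i ∈ T, f i ^ 2 ≤ ∑' i, f i ^ 2 := fun T =>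
    fs.sum_le_tsum T fun i _ => sq_nonneg _
  have hsum : ∀ u : ι → ℝ,
      (∀ δ > 0, ∀ T : Finset ι, ∑ i ∈ T, |u i| ≤ δ⁻¹ * ∑ i ∈ T, f i ^ 2 + δ * M) → Summable u := by
    intro u hu
    refine Summable.of_abs (summable_of_sum_le (c := ∑' i, f i ^ 2 + M) (fun i => abs_nonneg _)
      fun T => ?_)
    have h1 := hu 1 one_pos T
    have h2 := hF T
    rw [inv_one, one_mul, one_mul] at h1
    linarith
  have s1 : ∀ n, Summable (l n) := fun n => hsum _ fun δ hδ T => key δ hδ n T
  have s0 : Summable l0 := hsum _ key0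
  rw [Metric.tendsto_atTop]
  intro ε hε
  set δ := ε / (8 * (M + 1)) with hδ
  have hδ0 : 0 < δ := by positivity
  have hδM : δ * M ≤ ε / 8 := by
    rw [hδ, div_mul_eq_mul_div, div_le_div_iff₀ (by positivity) (by norm_num)]
    nlinarith
  obtain ⟨T, hT⟩ : ∃ T : Finset ι, ∑' i, f i ^ 2 - δ * (ε / 8) < ∑ i ∈ T, f i ^ 2 := by
    have h1 : ∀ᶠ T : Finset ι in atTop, ∑' i, f i ^ 2 - δ * (ε / 8) < ∑ i ∈ T, f i ^ 2 :=
      fs.hasSum.eventually (lt_mem_nhds (by have : 0 < δ * (ε / 8) := by positivity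
                                            linarith))
    exact h1.exists
  -- tails
  have tail : ∀ u : ι → ℝ, Summable u →
      (∀ δ > 0, ∀ T : Finset ι, ∑ i ∈ T, |u i| ≤ δ⁻¹ * ∑ i ∈ T, f i ^ 2 + δ * M) →
      |∑' i, u i - ∑ i ∈ T, u i| ≤ ε / 4 := by
    intro u hu1 hu2
    have h1 : ∑' i, u i = ∑ i ∈ T, u i + ∑' i, (if i ∈ T then 0 else u i) := by
      have h2 : ∀ i, u i = (if i ∈ T then u i else 0) + (if i ∈ T then 0 else u i) := by
        intro i; split_ifs <;> simp
      have h3 : Summable fun i => (if i ∈ T then u i else 0) :=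
        summable_of_ne_finset_zero (s := T) fun i hi => by simp [hi]
      have h4 : Summable fun i => (if i ∈ T then 0 else u i) := by
        have := hu1.sub h3
        refine this.congr fun i => ?_
        split_ifs <;> simp
      have h5 := h3.tsum_add h4
      rw [tsum_eq_sum (s := T) (f := fun i => (if i ∈ T then u i else 0))
        (fun i hi => by simp [hi])] at h5
      rw [tsum_congr h2, h5]
      congr 1
      exact Finset.sum_congr rfl fun i hi => by simp [hi]
    rw [h1, add_sub_cancel_left]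
    have h6 : ∀ T' : Finset ι, ∑ i ∈ T', |(if i ∈ T then 0 else u i)| ≤ ε / 4 := by
      intro T'
      have h7 : ∑ i ∈ T', |(if i ∈ T then 0 else u i)| = ∑ i ∈ T' \ T, |u i| := by
        have h70 : ∑ i ∈ T' \ T, |u i| = ∑ i ∈ T' \ T, |(if i ∈ T then 0 else u i)| :=
          Finset.sum_congr rfl fun i hi => by rw [if_neg (Finset.mem_sdiff.1 hi).2]
        rw [h70]
        refine (Finset.sum_subset Finset.sdiff_subset fun i hi hi' => ?_).symm
        have h71 : i ∈ T := by
          by_contra hcon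
          exact hi' (Finset.mem_sdiff.2 ⟨hi, hcon⟩)
        rw [if_pos h71, abs_zero]
      rw [h7]
      refine (hu2 δ hδ0 _).trans ?_
      have h8 : ∑ i ∈ T' \ T, f i ^ 2 + ∑ i ∈ T, f i ^ 2 ≤ ∑' i, f i ^ 2 := by
        rw [← Finset.sum_union Finset.sdiff_disjoint]
        exact hF _
      have h9 : ∑ i ∈ T' \ T, f i ^ 2 ≤ δ * (ε / 8) := by linarith
      have h10 : δ⁻¹ * ∑ i ∈ T' \ T, f i ^ 2 ≤ ε / 8 := by
        rw [inv_mul_le_iff₀ hδ0]; exact h9
      linarith
    have h11 : Summable fun i => |(if i ∈ T then 0 else u i)| :=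
      summable_of_sum_le (fun i => abs_nonneg _) h6
    refine le_trans ?_ (Real.tsum_le_of_sum_le (fun i => abs_nonneg _) h6)
    have h12 := norm_tsum_le_tsum_norm (f := fun i => (if i ∈ T then 0 else u i))
      (by simpa [Real.norm_eq_abs] using h11)
    simpa [Real.norm_eq_abs] using h12
  have hfin : Tendsto (fun n => ∑ i ∈ T, l n i) atTop (𝓝 (∑ i ∈ T, l0 i)) :=
    tendsto_finsetSum _ fun i _ => hlim i
  obtain ⟨N, hN⟩ := (Metric.tendsto_atTop.1 hfin) (ε / 4) (by positivity)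
  refine ⟨N, fun n hn => ?_⟩
  have h1 := hN n hn
  rw [Real.dist_eq] at h1 ⊢
  have h2 := abs_le.1 (tail (l n) (s1 n) fun δ hδ T => key δ hδ n T)
  have h3 := abs_le.1 (tail l0 s0 key0)
  have h4 := abs_lt.1 h1
  rw [abs_lt]
  constructor <;> linarith [h2.1, h2.2, h3.1, h3.2, h4.1, h4.2]

section bump

variable {p : ℝ × ℝ} {r : ℝ}

theorem bmp_cont (hr : 0 < r) : Continuous (bmp p r) := by
  have h : LipschitzWith ⟨r⁻¹, by positivity⟩ (bmp p r) :=
    LipschitzWith.of_dist_le_mul fun x y => by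
      rw [Real.dist_eq]; exact bmp_lip hr x y
  exact h.continuous

/-- integrals of shrinking bumps -/
theorem bmp_lim (ν : Measure (ℝ × ℝ)) [IsFiniteMeasure ν] {r : ℕ → ℝ} (hr : ∀ n, 0 < r n)
    (hr0 : Tendsto r atTop (𝓝 0)) (p : ℝ × ℝ) :
    Tendsto (fun n => ∫ z, bmp p (r n) z ∂ν) atTop (𝓝 (ν.real {p})) := by
  have h1 : ∫ z, ({p} : Set (ℝ × ℝ)).indicator (fun _ => (1:ℝ)) z ∂ν = ν.real {p} := by
    rw [integral_indicator (measurableSet_singleton p)]
    simp [Measure.real]
  rw [← h1]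
  refine tendsto_integral_of_dominated_convergence (fun _ => (1:ℝ))
    (fun n => (bmp_cont (hr n)).aestronglyMeasurable) (integrable_const _)
    (fun n => ae_of_all _ fun z => ?_) (ae_of_all _ fun z => ?_)
  · rw [Real.norm_of_nonneg (bmp_nonneg _ _ _)]; exact bmp_le_one _ _ _
  · by_cases hz : z = p
    · subst hz
      simp only [indicator_of_mem (mem_singleton z)]
      refine tendsto_const_nhds.congr fun n => ?_
      rw [bmp_eq_one (hr n) (by simpa using (hr n).le)]
    · rw [indicator_of_notMem (by simpa using hz)]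
      have hd : 0 < dist z p := dist_pos.2 hz
      have h2 : ∀ᶠ n in atTop, r n < dist z p / 2 := hr0.eventually (gt_mem_nhds (by positivity))
      refine tendsto_const_nhds.congr' ?_
      filter_upwards [h2] with n hn
      exact (bmp_eq_zero (hr n) (by linarith)).symm

end bump

variable {ι : Type*} {a b c B : ℝ} {𝓗 : Set Hair} {Q : ι → Set (ℝ × ℝ)} {S C : Set (ℝ × ℝ)}
  {X1 X2 : ℝ × ℝ → ℝ} {f : ι → ℝ} {νp νm : ι → Measure (ℝ × ℝ)} {μ : Measure (ℝ × ℝ)}
  {e : ℝ × ℝ → ℝ}

/-- the charged sets are pairwise disjoint closed squares -/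
structure SqG (Q : ι → Set (ℝ × ℝ)) (q : ι → ℝ × ℝ) (s : ι → ℝ) : Prop where
  eq : ∀ i, Q i = sqr (q i) (s i)
  s0 : ∀ i, 0 ≤ s i
  dis : Pairwise fun i j => Disjoint (sqr (q i) (s i)) (sqr (q j) (s j))

/-- a small bump is an admissible test function -/
theorem bmp_mem_Vq {p : ℝ × ℝ} {r : ℝ} (hr : 0 < r) (hp : c + 2 * r < p.2) :
    bmp p r ∈ Vq 𝓗 a b c B Q := by
  refine ⟨⟨⟨∅, by simp, ⟨r⁻¹, 1, by positivity, bmp_SL hr _, fun z _ => ?_⟩⟩,
    p.2 - c - 2 * r, by linarith, fun z _ hz => ?_⟩, fun i => (bmp_cont hr).continuousOn⟩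
  · rw [abs_of_nonneg (bmp_nonneg _ _ _)]; exact bmp_le_one _ _ _
  · refine bmp_eq_zero hr ?_
    rw [Prod.dist_eq]
    refine le_trans ?_ (le_max_right _ _)
    rw [Real.dist_eq, abs_sub_comm]
    exact le_trans (by linarith) (le_abs_self _)

theorem osc_bmp_le {p : ℝ × ℝ} {r : ℝ} (hr : 0 < r) {q : ℝ × ℝ} {s : ℝ} (hs : 0 ≤ s)
    {T : Set (ℝ × ℝ)} (hT : T ⊆ sqr q s) :
    osc T (bmp p r) ≤ min 1 (2 / (2 * r) * s) := by
  refine osc_le (le_min zero_le_one (by positivity)) fun z hz w hw => le_min ?_ ?_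
  · have := bmp_nonneg p r z
    have := bmp_le_one p r z
    have := bmp_nonneg p r w
    have := bmp_le_one p r w
    rw [abs_le]; constructor <;> linarith
  · refine (bmp_lip hr z w).trans ?_
    have h1 := dist_le_sqr (hT hz) (hT hw)
    have h2 : 2 / (2 * r) = r⁻¹ := by field_simp
    rw [h2]
    exact mul_le_mul_of_nonneg_left h1 (by positivity)

theorem osc_bmp_zero {p : ℝ × ℝ} {r : ℝ} (hr : 0 < r) {T : Set (ℝ × ℝ)}
    (hT : ∀ z ∈ T, 2 * r ≤ dist z p) : osc T (bmp p r) = 0 := by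
  refine le_antisymm (osc_le le_rfl fun z hz w hw => ?_) (osc_nonneg _ _)
  rw [bmp_eq_zero hr (hT z hz), bmp_eq_zero hr (hT w hw)]
  simp

/-- the bulk term tends to zero -/
theorem bulk_lim {W : Set (ℝ × ℝ)}
    (L1 : MemLp X1 2 (volume : Measure (ℝ × ℝ))) (L2 : MemLp X2 2 (volume : Measure (ℝ × ℝ)))
    {p : ℝ × ℝ} {r : ℕ → ℝ} (hr : ∀ n, 0 < r n) (hra : Antitone r)
    (hr0 : Tendsto r atTop (𝓝 0)) :
    Tendsto (fun n => ∫ z in W, (X1 z * gx (bmp p (r n)) z + X2 z * gy (bmp p (r n)) z))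
      atTop (𝓝 0) := by
  rw [tendsto_zero_iff_norm_tendsto_zero]
  have hsq : Integrable (fun z => X1 z ^ 2 + X2 z ^ 2) (volume : Measure (ℝ × ℝ)) :=
    L1.integrable_sq.add L2.integrable_sq
  set K : ℕ → Set (ℝ × ℝ) := fun n => Metric.closedBall p (2 * r n) with hK
  have hKm : ∀ n, MeasurableSet (K n) := fun n => measurableSet_closedBall
  have hv : Tendsto (fun n => ∫ z in K n, (X1 z ^ 2 + X2 z ^ 2)) atTop (𝓝 0) := by
    have h1 := tendsto_setIntegral_of_antitone (s := K) (f := fun z => X1 z ^ 2 + X2 z ^ 2)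
      (μ := (volume : Measure (ℝ × ℝ))) (fun n => hKm n)
      (fun i j hij => Metric.closedBall_subset_closedBall (by linarith [hra hij]))
      ⟨0, hsq.integrableOn⟩
    have h2 : (⋂ n, K n) = {p} := by
      ext z
      simp only [hK, mem_iInter, Metric.mem_closedBall, mem_singleton_iff]
      constructor
      · intro h
        rw [← dist_le_zero]
        have h3 : Tendsto (fun n => 2 * r n) atTop (𝓝 0) := by simpa using hr0.const_mul 2
        exact ge_of_tendsto' h3 h
      · rintro rfl n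
        have := hr n
        simpa using this.le
    rw [h2] at h1
    have h4 : (volume : Measure (ℝ × ℝ)).restrict {p} = 0 := by
      rw [Measure.restrict_eq_zero]; exact measure_singleton _
    rw [h4, integral_zero_measure] at h1
    exact h1
  refine tendsto_zero_of_le (A := 32) (fun n => norm_nonneg _) (by norm_num)
    (fun n δ hδ => ?_) hv
  have hpt : ∀ z, ‖X1 z * gx (bmp p (r n)) z + X2 z * gy (bmp p (r n)) z‖ ≤
      (K n).indicator (fun z => δ * (2 * (r n)⁻¹ ^ 2) + δ⁻¹ * (X1 z ^ 2 + X2 z ^ 2)) z := by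
    intro z
    by_cases hz : z ∈ K n
    · rw [indicator_of_mem hz, Real.norm_eq_abs]
      have h1 : g2 (bmp p (r n)) z ≤ 2 * (r n)⁻¹ ^ 2 :=
        (bmp_SL (hr n) univ).g2_le isOpen_univ (inv_nonneg.2 (hr n).le) (mem_univ z)
      unfold g2 at h1
      set u := gx (bmp p (r n)) z
      set v := gy (bmp p (r n)) z
      have h2 : δ * (u ^ 2 + v ^ 2) ≤ δ * (2 * (r n)⁻¹ ^ 2) := mul_le_mul_of_nonneg_left h1 hδ.le
      have e1 : δ⁻¹ * (X1 z ^ 2 + X2 z ^ 2) + δ * (u ^ 2 + v ^ 2) - 2 * (X1 z * u + X2 z * v) =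
          δ⁻¹ * ((X1 z - δ * u) ^ 2 + (X2 z - δ * v) ^ 2) := by field_simp; ring
      have e2 : δ⁻¹ * (X1 z ^ 2 + X2 z ^ 2) + δ * (u ^ 2 + v ^ 2) + 2 * (X1 z * u + X2 z * v) =
          δ⁻¹ * ((X1 z + δ * u) ^ 2 + (X2 z + δ * v) ^ 2) := by field_simp; ring
      have h3 : 0 ≤ δ⁻¹ * ((X1 z - δ * u) ^ 2 + (X2 z - δ * v) ^ 2) := by positivity
      have h4 : 0 ≤ δ⁻¹ * ((X1 z + δ * u) ^ 2 + (X2 z + δ * v) ^ 2) := by positivity
      have h5 : 0 ≤ δ⁻¹ * (X1 z ^ 2 + X2 z ^ 2) := by positivity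
      have h6 : 0 ≤ δ * (u ^ 2 + v ^ 2) := by positivity
      rw [abs_le]
      constructor <;> linarith
    · rw [indicator_of_notMem hz]
      have h0 : bmp p (r n) =ᶠ[𝓝 z] fun _ => (0:ℝ) := by
        filter_upwards [Metric.isClosed_closedBall.isOpen_compl.mem_nhds hz] with w hw
        rw [mem_compl_iff, Metric.mem_closedBall, not_le] at hw
        exact bmp_eq_zero (hr n) hw.le
      have h1 : gx (bmp p (r n)) z = 0 := by
        rw [gx_congr h0]; simp [gx]
      have h2 : gy (bmp p (r n)) z = 0 := by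
        rw [gy_congr h0]; simp [gy]
      rw [h1, h2]; simp
  have hKfin : (volume : Measure (ℝ × ℝ)) (K n) ≠ ∞ := measure_closedBall_lt_top.ne
  have hint : Integrable ((K n).indicator
      (fun z => δ * (2 * (r n)⁻¹ ^ 2) + δ⁻¹ * (X1 z ^ 2 + X2 z ^ 2)))
      (volume : Measure (ℝ × ℝ)) := by
    rw [integrable_indicator_iff (hKm n)]
    exact (integrableOn_const hKfin).add (hsq.integrableOn.const_mul _)
  calc ‖∫ z in W, (X1 z * gx (bmp p (r n)) z + X2 z * gy (bmp p (r n)) z)‖
      ≤ ∫ z in W, ‖X1 z * gx (bmp p (r n)) z + X2 z * gy (bmp p (r n)) z‖ :=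
        norm_integral_le_integral_norm _
    _ ≤ ∫ z in W, (K n).indicator
          (fun z => δ * (2 * (r n)⁻¹ ^ 2) + δ⁻¹ * (X1 z ^ 2 + X2 z ^ 2)) z :=
        integral_mono_of_nonneg (ae_of_all _ fun z => norm_nonneg _) hint.integrableOn
          (ae_of_all _ hpt)
    _ ≤ ∫ z, (K n).indicator
          (fun z => δ * (2 * (r n)⁻¹ ^ 2) + δ⁻¹ * (X1 z ^ 2 + X2 z ^ 2)) z :=
        setIntegral_le_integral hint (ae_of_all _ fun z =>
          (norm_nonneg _).trans (hpt z))
    _ = δ * 32 + δ⁻¹ * ∫ z in K n, (X1 z ^ 2 + X2 z ^ 2) := by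
        have hc1 : Integrable (fun _ : ℝ × ℝ => δ * (2 * (r n)⁻¹ ^ 2))
            ((volume : Measure (ℝ × ℝ)).restrict (K n)) := integrableOn_const hKfin
        have hc2 : Integrable (fun z => δ⁻¹ * (X1 z ^ 2 + X2 z ^ 2))
            ((volume : Measure (ℝ × ℝ)).restrict (K n)) := hsq.integrableOn.const_mul _
        rw [integral_indicator (hKm n), integral_add hc1 hc2, setIntegral_const,
          integral_const_mul, smul_eq_mul, Measure.real,
          volume_closedBall_plane p (by have := hr n; positivity)]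
        congr 1
        have := (hr n).ne'
        field_simp
        ring

section main

variable {q : ι → ℝ × ℝ} {s : ι → ℝ}

/-- **point test**: the net flux of the charged squares into the point `p` is `μ {p}` -/
theorem point (H : QQ 𝓗 a b c B Q) (h : HalfQ 𝓗 a b c B S Q C X1 X2 f νp νm μ)
    (G : SqG Q q s) {p : ℝ × ℝ} (hp : c < p.2) :
    ∑' i, ((νp i).real {p} - (νm i).real {p}) = μ.real {p} := by
  classical
  have := h.fin
  have := h.pfin
  have := h.mfin
  set R := (p.2 - c) / 4 with hR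
  have hR0 : 0 < R := by rw [hR]; linarith
  set r : ℕ → ℝ := fun n => R / (n + 1) with hr
  have hr1 : ∀ n, 0 < r n := fun n => by simp only [hr]; positivity
  have hrR : ∀ n, r n ≤ R := fun n => div_le_self hR0.le (by
    have : (0:ℝ) ≤ n := Nat.cast_nonneg n
    linarith)
  have hra : Antitone r := fun i j hij => by
    simp only [hr]
    refine div_le_div_of_nonneg_left hR0.le (by positivity) ?_
    have : (i:ℝ) ≤ j := by exact_mod_cast hij
    linarith
  have hr0 : Tendsto r atTop (𝓝 0) := by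
    simp only [hr]
    have h1 := tendsto_one_div_add_atTop_nhds_zero_nat.const_mul R
    rw [mul_zero] at h1
    refine h1.congr fun n => ?_
    ring
  have hV : ∀ n, bmp p (r n) ∈ Vq 𝓗 a b c B Q := fun n =>
    bmp_mem_Vq (hr1 n) (by have := hrR n; rw [hR] at this; linarith)
  have hCF : ∀ n, CF (Wl a b c B \ cut ∅) (bmp p (r n)) := fun n =>
    ⟨(r n)⁻¹, 1, by have := hr1 n; positivity, bmp_SL (hr1 n) _, fun z _ => by
      rw [abs_of_nonneg (bmp_nonneg _ _ _)]; exact bmp_le_one _ _ _⟩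
  have hcut : μ (cut ∅) = 0 := by
    have : cut ∅ = (∅ : Set (ℝ × ℝ)) := by simp [cut]
    rw [this, measure_empty]
  have hid := fun n => h.F (bmp p (r n)) ∅ (hV n) (hCF n) hcut
  have h1 := bulk_lim h.L1 h.L2 (p := p) hr1 hra hr0 (W := Wo a b c B \ S)
  have h2 := bmp_lim μ hr1 hr0 p
  have h3 : Tendsto (fun n => ∑' i, ((∫ z, bmp p (r n) z ∂(νp i)) - ∫ z, bmp p (r n) z ∂(νm i)))
      atTop (𝓝 (∑' i, ((νp i).real {p} - (νm i).real {p}))) := by
    refine weak0 h.fs (g := fun n i => osc (Q i ∩ Wl a b c B) (bmp p (r n))) (M := 64)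
      (fun n T => ?_) (fun n i => h.abs_charge_le H (hV n) i)
      (fun i => (bmp_lim (νp i) hr1 hr0 p).sub (bmp_lim (νm i) hr1 hr0 p))
    set T' := T.filter (fun i => ∃ z ∈ sqr (q i) (s i), dist z p ≤ 2 * r n) with hT'
    have h4 : ∑ i ∈ T, osc (Q i ∩ Wl a b c B) (bmp p (r n)) ^ 2 =
        ∑ i ∈ T', osc (Q i ∩ Wl a b c B) (bmp p (r n)) ^ 2 := by
      refine (Finset.sum_subset (Finset.filter_subset _ _) fun i hi hi' => ?_).symm
      have h5 : ∀ z ∈ Q i ∩ Wl a b c B, 2 * r n ≤ dist z p := by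
        intro z hz
        by_contra hcon
        rw [not_le] at hcon
        refine hi' (Finset.mem_filter.2 ⟨hi, z, ?_, hcon.le⟩)
        rw [← G.eq i]; exact hz.1
      rw [osc_bmp_zero (hr1 n) h5]
      norm_num
    rw [h4]
    refine le_trans (Finset.sum_le_sum fun i _ => ?_)
      (sum_sqr_le G.s0 G.dis p (δ := 2 * r n) (by have := hr1 n; positivity) T' fun i hi =>
        (Finset.mem_filter.1 hi).2)
    refine pow_le_pow_left₀ (osc_nonneg _ _) (osc_bmp_le (hr1 n) (q := q i) (G.s0 i) ?_) 2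
    rw [← G.eq i]; exact inter_subset_left
  have h6 := (h1.add h3).congr hid
  rw [zero_add] at h6
  exact tendsto_nhds_unique h6 h2

/-- `μ` has no point masses off the charged squares -/
theorem nopt (H : QQ 𝓗 a b c B Q) (h : HalfQ 𝓗 a b c B S Q C X1 X2 f νp νm μ)
    (hC : C ⊆ Wl a b c B) (G : SqG Q q s) {p : ℝ × ℝ}
    (hp : ∀ i, p ∉ Q i) : μ {p} = 0 := by
  have := h.fin
  by_cases hpC : p ∈ C
  · have h1 := point H h G (hC hpC).2.1
    have h2 : ∀ i, (νp i).real {p} - (νm i).real {p} = 0 := by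
      intro i
      have h3 : ({p} : Set (ℝ × ℝ)) ⊆ (Q i ∩ Wl a b c B)ᶜ := by
        rintro z rfl hz
        exact hp i hz.1
      rw [Measure.real, Measure.real, measure_mono_null h3 (h.pc i),
        measure_mono_null h3 (h.mc i)]
      simp
    simp only [h2, tsum_zero] at h1
    exact (measureReal_eq_zero_iff (by finiteness)).1 h1.symm
  · exact measure_mono_null (by rintro z rfl; exact hpC) h.carried

/-- no common atoms -/
theorem noboth (H : QQ 𝓗 a b c B Q) (h : HalfQ 𝓗 a b c B S Q C X1 X2 f νp νm μ) (i : ι)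
    {p : ℝ × ℝ} {α : ℝ} (hα : 0 < α) (h1 : α ≤ (νp i).real {p}) (h2 : α ≤ (νm i).real {p}) :
    False := by
  have := h.pfin i
  have := h.mfin i
  obtain ⟨E, hE, hg, ho, hl⟩ := h.cl
  set T := Q i ∩ Wl a b c B with hT
  have hpT : p ∈ T := by
    by_contra hcon
    have h3 : (νp i) {p} = 0 := measure_mono_null (by rintro z rfl; exact hcon) (h.pc i)
    rw [Measure.real, h3] at h1
    simp only [ENNReal.toReal_zero] at h1
    linarith
  have hTm : MeasurableSet T := (H.cpt i).isClosed.measurableSet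
  have hfα : α ≤ f i := h1.trans ((measureReal_mono (subset_univ _)).trans (h.pm i).le)
  -- one function
  have main : ∀ e ∈ Vq 𝓗 a b c B Q,
      (∫ z, e z ∂(νp i)) - ∫ z, e z ∂(νm i) ≤ (f i - α) * osc T e := by
    intro e he
    obtain ⟨z1, hz1, hmax⟩ := (H.cpt i).exists_isMaxOn ⟨p, hpT⟩ (he.2 i)
    obtain ⟨z2, hz2, hmin⟩ := (H.cpt i).exists_isMinOn ⟨p, hpT⟩ (he.2 i)
    obtain ⟨M, hM⟩ := H.bo he i
    have hone : ∀ ν : Measure (ℝ × ℝ), IsFiniteMeasure ν → ν Tᶜ = 0 → ν.real univ = f i →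
        α ≤ ν.real {p} → α * e p + (f i - α) * e z2 ≤ ∫ z, e z ∂ν ∧
          ∫ z, e z ∂ν ≤ α * e p + (f i - α) * e z1 := by
      intro ν hν hc hm hαν
      have hae : ∀ᵐ z ∂ν, z ∈ T := by rw [ae_iff]; exact hc
      have hres : ν.restrict T = ν := Measure.restrict_eq_self_of_ae_mem hae
      have hmeas : AEStronglyMeasurable e ν := by
        rw [← hres]; exact (he.2 i).aestronglyMeasurable hTm
      have hint : Integrable e ν := Integrable.of_bound hmeas M (by
        filter_upwards [hae] with z hz using by simpa using hM z hz)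
      have hsplit : ∫ z, e z ∂ν = e p * ν.real {p} + ∫ z in {p}ᶜ, e z ∂ν := by
        rw [← integral_add_compl (measurableSet_singleton p) hint]
        congr 1
        rw [integral_singleton, smul_eq_mul, mul_comm]
      have hmass : ν.real ({p}ᶜ : Set (ℝ × ℝ)) = f i - ν.real {p} := by
        rw [measureReal_compl (measurableSet_singleton p), hm]
      have hcst : ∀ k : ℝ, ∫ _ in ({p}ᶜ : Set (ℝ × ℝ)), k ∂ν = k * (f i - ν.real {p}) := fun k => by
        rw [setIntegral_const, hmass, smul_eq_mul, mul_comm]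
      have hup : ∫ z in {p}ᶜ, e z ∂ν ≤ e z1 * (f i - ν.real {p}) := by
        rw [← hcst]
        refine integral_mono_ae hint.integrableOn (integrable_const _) ?_
        filter_upwards [ae_restrict_of_ae hae] with z hz using hmax hz
      have hlo : e z2 * (f i - ν.real {p}) ≤ ∫ z in {p}ᶜ, e z ∂ν := by
        rw [← hcst]
        refine integral_mono_ae (integrable_const _) hint.integrableOn ?_
        filter_upwards [ae_restrict_of_ae hae] with z hz using hmin hz
      have hp1 : e p ≤ e z1 := hmax hpT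
      have hp2 : e z2 ≤ e p := hmin hpT
      rw [hsplit]
      constructor <;> nlinarith
    have hA := (hone (νp i) ‹_› (h.pc i) (h.pm i) h1).2
    have hB := (hone (νm i) ‹_› (h.mc i) (h.mm i) h2).1
    have hC := (abs_le.1 (le_osc (H.bo he i) hz1 hz2)).2
    have hD := mul_le_mul_of_nonneg_left hC (sub_nonneg.2 hfα)
    nlinarith
  -- the oscillation tends to `f i`
  have hosc : Tendsto (fun n => osc T (E n)) atTop (𝓝 (f i)) := by
    have h4 : Tendsto (fun n => (osc T (E n) - f i) ^ 2) atTop (𝓝 0) := by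
      refine squeeze_zero (fun n => sq_nonneg _) (fun n => ?_) ho
      have h5 : Summable fun j => (osc (Q j ∩ Wl a b c B) (E n) - f j) ^ 2 := by
        refine Summable.of_nonneg_of_le (fun j => sq_nonneg _) (fun j => ?_)
          (((H.summable (hE n)).add h.fs).mul_left 2)
        nlinarith [sq_nonneg (osc (Q j ∩ Wl a b c B) (E n) + f j)]
      exact h5.le_tsum i fun j _ => sq_nonneg _
    have h6 : Tendsto (fun n => |osc T (E n) - f i|) atTop (𝓝 0) := by
      have := h4.sqrt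
      simpa [Real.sqrt_sq_eq_abs] using this
    rw [tendsto_iff_norm_sub_tendsto_zero]
    simpa [Real.norm_eq_abs] using h6
  have h7 : f i ^ 2 ≤ (f i - α) * f i :=
    le_of_tendsto_of_tendsto' (hl i) (hosc.const_mul (f i - α)) fun n => main _ (hE n)
  nlinarith

/-- **no atoms on the charged squares** -/
theorem na (H : QQ 𝓗 a b c B Q) (h : HalfQ 𝓗 a b c B S Q C X1 X2 f νp νm μ)
    (G : SqG Q q s) (hμ : ∀ i, ∀ p ∈ Q i ∩ Wl a b c B, μ {p} = 0)
    (i : ι) (p : ℝ × ℝ) : νp i {p} = 0 ∧ νm i {p} = 0 := by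
  have := h.pfin
  have := h.mfin
  have hout : ∀ j, p ∉ Q j ∩ Wl a b c B → νp j {p} = 0 ∧ νm j {p} = 0 := fun j hj =>
    ⟨measure_mono_null (by rintro z rfl; exact hj) (h.pc j),
      measure_mono_null (by rintro z rfl; exact hj) (h.mc j)⟩
  by_cases hpi : p ∈ Q i ∩ Wl a b c B
  · have h1 := point H h G hpi.2.2.1
    rw [tsum_eq_single i] at h1
    · have h2 : (νp i).real {p} = (νm i).real {p} := by
        rw [measureReal_def μ, hμ i p hpi] at h1
        simp only [ENNReal.toReal_zero] at h1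
        linarith
      have h3 : (νp i).real {p} = 0 := by
        by_contra hne
        have h4 : 0 < (νp i).real {p} := lt_of_le_of_ne measureReal_nonneg (Ne.symm hne)
        exact noboth H h i h4 le_rfl h2.le
      refine ⟨(measureReal_eq_zero_iff (by finiteness)).1 h3, ?_⟩
      rw [h2] at h3
      exact (measureReal_eq_zero_iff (by finiteness)).1 h3
    · intro j hj
      have h5 : p ∉ Q j ∩ Wl a b c B := by
        intro hpj
        have h6 := Set.disjoint_left.1 (G.dis hj) (by rw [← G.eq j]; exact hpj.1)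
        exact h6 (by rw [← G.eq i]; exact hpi.1)
      obtain ⟨h7, h8⟩ := hout j h5
      rw [Measure.real, Measure.real, h7, h8]
      simp
  · exact hout i hpi

end main

end Crest.Agent.R105.SqK_87
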