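import Crest.Agent.R105.SqX_87
import Crest.Agent.R105.SqJb_361

/-! Row 105, S0138, exact squares: the joined field (361) satisfies `SqFlux`. -/

open MeasureTheory Set Filter Topology
open scoped NNReal ENNReal

namespace Crest.Agent.R105.Sq_87

open Crest.Agent.R105.Mp_87 (Rc measurableSet_Rc restrict_Rc cs_line)
open Crest.Agent.R105.SqJ_361 (join join_of_mem Fills rg rd ro rc FillR)

variable {ι : Type} {Q : Rects ι}
variable {X1 X2 : ℝ × ℝ → ℝ} {Y1 Y2 : ι → ℝ × ℝ → ℝ} {f : ι → ℝ} {np nm : ι → Measure (ℝ × ℝ)}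

theorem join_int_le (F : Fills Q f np nm Y1 Y2) (i : ι) (T : Set (ℝ × ℝ)) (hT : MeasurableSet T)
    (X : ℝ × ℝ → ℝ) (Y : ι → ℝ × ℝ → ℝ) (hY : Integrable (Y i) (volume : Measure (ℝ × ℝ))) :
    ∫ p in Q.op i ∩ T, |join Q X Y p| ≤ ∫ p in T, |Y i p| := by
  have e1 : ∫ p in Q.op i ∩ T, |join Q X Y p| = ∫ p in Q.op i ∩ T, |Y i p| := by
    apply setIntegral_congr_fun ((Q.measurableSet_op i).inter hT)
    intro p hp
    simp only
    rw [join_of_mem F.dis hp.1]
  rw [e1]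
  exact int_mono_set hY inter_subset_right

theorem flux3_of_fills (F : Fills Q f np nm Y1 Y2) :
    Flux3 Q (join Q X1 Y1) (join Q X2 Y2) f where
  x := by
    intro i a b c d hab hcd
    refine (join_int_le F i _ (measurableSet_Ioo.prod measurableSet_Ioo) X1 Y1 (F.F i).i1).trans ?_
    have h := ((F.F i).F3 a b c d hab hcd univ MeasurableSet.univ (fun _ _ _ _ _ => mem_univ _)).1
    rwa [F.mass i] at h
  y := by
    intro i a b c d hab hcd
    refine (join_int_le F i _ (measurableSet_Ioo.prod measurableSet_Ioo) X2 Y2 (F.F i).i2).trans ?_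
    have h := ((F.F i).F3 a b c d hab hcd univ MeasurableSet.univ (fun _ _ _ _ _ => mem_univ _)).2
    rwa [F.mass i] at h

theorem dist_le_rd {h1 h2 : ℝ} (p1 : 0 < h1) (p2 : 0 < h2) (u p : ℝ × ℝ) :
    dist u p ≤ max h1 h2 * rd h1 h2 u p := by
  have e1 : |u.1 - p.1| ≤ max h1 h2 * rd h1 h2 u p := by
    have k1 : |u.1 - p.1| / h1 ≤ rd h1 h2 u p := le_max_left _ _
    rw [div_le_iff₀ p1] at k1
    refine k1.trans ?_
    rw [mul_comm]
    exact mul_le_mul_of_nonneg_right (le_max_left _ _)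
      (le_trans (div_nonneg (abs_nonneg _) p1.le) (le_max_left _ _))
  have e2 : |u.2 - p.2| ≤ max h1 h2 * rd h1 h2 u p := by
    have k1 : |u.2 - p.2| / h2 ≤ rd h1 h2 u p := le_max_right _ _
    rw [div_le_iff₀ p2] at k1
    refine k1.trans ?_
    rw [mul_comm]
    exact mul_le_mul_of_nonneg_right (le_max_right _ _)
      (le_trans (div_nonneg (abs_nonneg _) p1.le) (le_max_left _ _))
  rw [Prod.dist_eq, Real.dist_eq, Real.dist_eq]
  exact max_le e1 e2

theorem locF_cond (i : ι) {u v r : ℝ} {P : Set (ℝ × ℝ)}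
    (hP : ∀ p q : ℝ × ℝ, q ∈ Rc (u - 2 * r) (u + 2 * r) (v - 2 * r) (v + 2 * r) →
      dist q p ≤ 3 * max (Q.h1 i) (Q.h2 i) * (1 - Q.gau i q) → p ∈ P) :
    ∀ p ∈ rc (Q.x i) (Q.y i) (Q.h1 i) (Q.h2 i),
      ∀ w ∈ Ioo (u - 2 * r) (u + 2 * r) ×ˢ Ioo (v - 2 * r) (v + 2 * r),
      rd (Q.h1 i) (Q.h2 i) w p ≤ 3 * (1 - rg (Q.x i) (Q.y i) (Q.h1 i) (Q.h2 i) w) → p ∈ P := by
  intro p _ w hw hrd
  apply hP p w hw
  have h1 := dist_le_rd (Q.p1 i) (Q.p2 i) w p
  have h2 : 0 ≤ max (Q.h1 i) (Q.h2 i) := le_max_of_le_left (Q.p1 i).le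
  calc dist w p ≤ max (Q.h1 i) (Q.h2 i) * rd (Q.h1 i) (Q.h2 i) w p := h1
    _ ≤ max (Q.h1 i) (Q.h2 i) * (3 * (1 - Q.gau i w)) := mul_le_mul_of_nonneg_left hrd h2
    _ = 3 * max (Q.h1 i) (Q.h2 i) * (1 - Q.gau i w) := by ring

theorem locF1_of_fills (F : Fills Q f np nm Y1 Y2) (i : ι) :
    LocF Q i (join Q X1 Y1) (np i + nm i) := by
  intro u v r hr P hmP hP
  refine (join_int_le F i _ (measurableSet_Rc _ _ _ _) X1 Y1 (F.F i).i1).trans ?_
  have h := ((F.F i).F3 (u - 2 * r) (u + 2 * r) (v - 2 * r) (v + 2 * r) (by linarith) (by linarith)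
    P hmP (locF_cond i hP)).1
  refine h.trans (le_of_eq ?_)
  rw [Measure.add_apply]; ring

theorem locF2_of_fills (F : Fills Q f np nm Y1 Y2) (i : ι) :
    LocF Q i (join Q X2 Y2) (np i + nm i) := by
  intro u v r hr P hmP hP
  refine (join_int_le F i _ (measurableSet_Rc _ _ _ _) X2 Y2 (F.F i).i2).trans ?_
  have h := ((F.F i).F3 (u - 2 * r) (u + 2 * r) (v - 2 * r) (v + 2 * r) (by linarith) (by linarith)
    P hmP (locF_cond i hP)).2
  refine h.trans (le_of_eq ?_)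
  rw [Measure.add_apply]; ring

/-- **The joined field satisfies all flux bounds.** -/
theorem sqFlux_of_fills (F : Fills Q f np nm Y1 Y2) {s : ι → ℝ} {q : ι → ℝ × ℝ} (P : Pack Q s q)
    (fs : Summable fun i => f i ^ 2) (fp : ∀ i, IsFiniteMeasure (np i))
    (fm : ∀ i, IsFiniteMeasure (nm i)) (ap : ∀ i p, np i {p} = 0) (am : ∀ i p, nm i {p} = 0) :
    SqFlux Q (join Q X1 Y1) (join Q X2 Y2) f s q (fun i => np i + nm i) where
  P := P
  F := flux3_of_fills F
  fs := fs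
  fin := by
    intro i
    have := fp i
    have := fm i
    infer_instance
  na := by
    intro i p
    rw [Measure.add_apply, ap i p, am i p, add_zero]
  l1 := fun i => locF1_of_fills F i
  l2 := fun i => locF2_of_fills F i

end Crest.Agent.R105.Sq_87
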