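import Crest.Agent.R105.SqJd_361
import Crest.Agent.R105.SqY_87
import Crest.Agent.R105.SqK_87
import Crest.Agent.R105.Hmx_361

/-! Row 105, S0138, Lemma A with exact squares: the box problem of a picture (helper361).
Geometry: the charged squares cut at the level `B`. -/

set_option autoImplicit false

open MeasureTheory Set Filter Topology Metric
open scoped NNReal ENNReal

namespace Crest.Agent.R105.SqJ_361

open Crest.Agent.R105.CF_363 Crest.Agent.R105.Sq_87 Crest.Agent.R105.Kin_238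
open Crest.Agent.R105.Cq_463 Crest.Agent.R105.Exs_992
open Crest.Agent.R105.Knq_247 (QQ)

variable {E : Set (ℝ × ℝ)} {𝒬 𝒬' : Set Sqr} {𝓗 : Set Hair} {a b c d B : ℝ}

/-- a picture in a box, the hairs are pairwise disjoint -/
structure BoxP (E : Set (ℝ × ℝ)) (𝒬 : Set Sqr) (𝓗 : Set Hair) (a b c d : ℝ) : Prop where
  pic : PicS E 𝒬 𝓗
  dis : ∀ K ∈ 𝓗, ∀ K' ∈ 𝓗, K ≠ K' → Disjoint K.car K'.car
  box : E ⊆ Ioo a b ×ˢ Ioo c d

/-- the squares of `𝒬'` which meet the lower half -/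
abbrev Ix (𝒬' : Set Sqr) (B : ℝ) : Type := {i : {Q : Sqr // Q ∈ 𝒬'} // i.1.y < B}

/-- the squares of `𝒬'` cut at the level `B` -/
noncomputable def cutR (𝒬' : Set Sqr) (B : ℝ) : Rects (Ix 𝒬' B) where
  x i := i.1.1.x + i.1.1.s / 2
  y i := (i.1.1.y + min (i.1.1.y + i.1.1.s) B) / 2
  h1 i := i.1.1.s / 2
  h2 i := (min (i.1.1.y + i.1.1.s) B - i.1.1.y) / 2
  p1 i := by
    have := i.1.1.hs
    linarith
  p2 i := by
    have h1 := i.1.1.hs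
    have h2 := i.2
    have : i.1.1.y < min (i.1.1.y + i.1.1.s) B := lt_min (by linarith) h2
    linarith

theorem cutR_op (i : Ix 𝒬' B) : (cutR 𝒬' B).op i =
    Ioo i.1.1.x (i.1.1.x + i.1.1.s) ×ˢ Ioo i.1.1.y (min (i.1.1.y + i.1.1.s) B) := by
  have e1 : (cutR 𝒬' B).x i - (cutR 𝒬' B).h1 i = i.1.1.x := by simp only [cutR]; ring
  have e2 : (cutR 𝒬' B).x i + (cutR 𝒬' B).h1 i = i.1.1.x + i.1.1.s := by simp only [cutR]; ring
  have e3 : (cutR 𝒬' B).y i - (cutR 𝒬' B).h2 i = i.1.1.y := by simp only [cutR]; ring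
  have e4 : (cutR 𝒬' B).y i + (cutR 𝒬' B).h2 i = min (i.1.1.y + i.1.1.s) B := by
    simp only [cutR]; ring
  rw [Rects.op, e1, e2, e3, e4]

theorem cutR_cl (i : Ix 𝒬' B) : cl (cutR 𝒬' B) i =
    Icc i.1.1.x (i.1.1.x + i.1.1.s) ×ˢ Icc i.1.1.y (min (i.1.1.y + i.1.1.s) B) := by
  have e1 : (cutR 𝒬' B).x i - (cutR 𝒬' B).h1 i = i.1.1.x := by simp only [cutR]; ring
  have e2 : (cutR 𝒬' B).x i + (cutR 𝒬' B).h1 i = i.1.1.x + i.1.1.s := by simp only [cutR]; ring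
  have e3 : (cutR 𝒬' B).y i - (cutR 𝒬' B).h2 i = i.1.1.y := by simp only [cutR]; ring
  have e4 : (cutR 𝒬' B).y i + (cutR 𝒬' B).h2 i = min (i.1.1.y + i.1.1.s) B := by
    simp only [cutR]; ring
  rw [cl, rc, e1, e2, e3, e4]

/-- the closed rectangle is the part of the square at or below the level -/
theorem mem_cl {i : Ix 𝒬' B} {p : ℝ × ℝ} :
    p ∈ cl (cutR 𝒬' B) i ↔ p ∈ i.1.1.car ∧ p.2 ≤ B := by
  rw [cutR_cl, Sqr.mem_car, mem_prod, mem_Icc, mem_Icc, le_min_iff]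
  tauto

theorem mem_op {i : Ix 𝒬' B} {p : ℝ × ℝ} : p ∈ (cutR 𝒬' B).op i ↔
    (i.1.1.x < p.1 ∧ p.1 < i.1.1.x + i.1.1.s) ∧ (i.1.1.y < p.2 ∧ p.2 < i.1.1.y + i.1.1.s) ∧
      p.2 < B := by
  rw [cutR_op, mem_prod, mem_Ioo, mem_Ioo, lt_min_iff]
  tauto

theorem cl_sub_car (i : Ix 𝒬' B) : cl (cutR 𝒬' B) i ⊆ i.1.1.car := fun _ hp => (mem_cl.1 hp).1

theorem op_sub_car (i : Ix 𝒬' B) : (cutR 𝒬' B).op i ⊆ i.1.1.car :=
  (op_subset_cl _ i).trans (cl_sub_car i)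

/-- the set where the field vanishes, without the open charged rectangles -/
def Sl (E : Set (ℝ × ℝ)) (𝒬' : Set Sqr) (B : ℝ) : Set (ℝ × ℝ) :=
  (E ∩ {p | p.2 < B}) \ (cutR 𝒬' B).un

theorem un_sub (hsub : ∀ Q ∈ 𝒬', Q.car ⊆ E) : (cutR 𝒬' B).un ⊆ E ∩ {p | p.2 < B} := by
  refine iUnion_subset fun i p hp => ⟨hsub _ i.1.2 (op_sub_car i hp), ?_⟩
  exact (mem_op.1 hp).2.2

theorem countable_Ix (hc : 𝒬'.Countable) : Countable (Ix 𝒬' B) := by
  have : Countable {Q : Sqr // Q ∈ 𝒬'} := hc.to_subtype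
  infer_instance

section

variable (hP : BoxP E 𝒬 𝓗 a b c d) (h𝒬 : 𝒬' ⊆ 𝒬)
include hP h𝒬

theorem BoxP.countable : Countable (Ix 𝒬' B) :=
  countable_Ix (hP.pic.q.countable.mono h𝒬)

theorem BoxP.dis_car {i j : {Q : Sqr // Q ∈ 𝒬'}} (hij : i ≠ j) : Disjoint i.1.car j.1.car :=
  hP.pic.q.disjoint (h𝒬 i.2) (h𝒬 j.2) fun h => hij (Subtype.ext h)

theorem BoxP.cl_eq (i : Ix 𝒬' B) : i.1.1.car ∩ Wl a b c B = cl (cutR 𝒬' B) i := by
  ext p
  rw [mem_cl]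
  constructor
  · rintro ⟨h1, h2⟩
    exact ⟨h1, h2.2.2⟩
  · rintro ⟨h1, h2⟩
    have h3 := hP.box (hP.pic.q.sub _ (h𝒬 i.1.2) h1)
    exact ⟨h1, h3.1, h3.2.1, h2⟩

omit hP h𝒬 in
theorem empty_of_notMem (gen : ∀ Q ∈ 𝒬', Q.y ≠ B) (j : {Q : Sqr // Q ∈ 𝒬'})
    (hj : j ∉ range (Subtype.val : Ix 𝒬' B → {Q : Sqr // Q ∈ 𝒬'})) :
    j.1.car ∩ Wl a b c B = ∅ := by
  have h1 : ¬ j.1.y < B := fun h => hj ⟨⟨j, h⟩, rfl⟩
  have h2 := gen j.1 j.2
  rw [eq_empty_iff_forall_notMem]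
  rintro p ⟨h3, h4⟩
  have h5 := (Sqr.mem_car.1 h3).2.1
  have h6 := h4.2.2
  exact h2 (le_antisymm (by linarith) (not_lt.1 h1))

theorem BoxP.summable_s : Summable fun i : Ix 𝒬' B => i.1.1.s ^ 2 :=
  hP.pic.q.summable_sq.comp_injective
    (i := fun i : Ix 𝒬' B => (⟨i.1.1, h𝒬 i.1.2⟩ : 𝒬)) fun i j h => by
      have h1 := Subtype.ext_iff.1 h
      exact Subtype.ext (Subtype.ext h1)

/-- **geometry of the box problem** -/
theorem BoxP.rg : RG 𝓗 a b c B (cutR 𝒬' B) (E ∩ {p | p.2 < B}) where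
  dis := by
    intro i j hij
    exact (hP.dis_car h𝒬 fun h => hij (Subtype.ext h)).mono (cl_sub_car i) (cl_sub_car j)
  box := fun i => by
    rw [← hP.cl_eq h𝒬]
    exact inter_subset_right
  hq := by
    intro K hK i
    rw [Set.disjoint_left]
    intro p hp hpi
    have h1 := mem_op.1 hpi
    have h2 := hP.pic.att K hK i.1.1 (h𝒬 i.1.2) ⟨p, hp, op_sub_car i hpi⟩
    rcases h2 with h | h
    · linarith [hp.2.1, h1.2.1.2]
    · linarith [hp.2.2, h1.2.1.1]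
  mS := hP.pic.q.cpt.isClosed.measurableSet.inter (measurableSet_lt measurable_snd measurable_const)
  sub := un_sub fun Q hQ => hP.pic.q.sub Q (h𝒬 hQ)
  s1 := by
    have h1 : Summable fun i : Ix 𝒬' B => i.1.1.s ^ 2 := hP.summable_s h𝒬
    refine Summable.of_nonneg_of_le (fun _ => sq_nonneg _) (fun i => ?_) h1
    simp only [cutR]
    nlinarith [sq_nonneg i.1.1.s]
  s2 := by
    have h1 : Summable fun i : Ix 𝒬' B => i.1.1.s ^ 2 := hP.summable_s h𝒬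
    refine Summable.of_nonneg_of_le (fun _ => sq_nonneg _) (fun i => ?_) h1
    have h2 := (cutR 𝒬' B).p2 i
    have h3 : (cutR 𝒬' B).h2 i ≤ i.1.1.s := by
      simp only [cutR]
      have := min_le_left (i.1.1.y + i.1.1.s) B
      have := i.1.1.hs
      linarith
    exact pow_le_pow_left₀ h2.le h3 2

theorem BoxP.pack : Pack (cutR 𝒬' B) (fun i => i.1.1.s) (fun i => (i.1.1.x, i.1.1.y)) where
  w1 := fun i => by simp only [cutR]; linarith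
  w2 := fun i => by
    simp only [cutR]
    have := min_le_left (i.1.1.y + i.1.1.s) B
    linarith
  sub := fun i => by
    rw [cutR_op]
    exact prod_mono Subset.rfl (Ioo_subset_Ioo_right (min_le_left _ _))
  dis := by
    intro i j hij
    refine (hP.dis_car h𝒬 fun h => hij (Subtype.ext h)).mono ?_ ?_ <;>
      exact prod_mono Ioo_subset_Icc_self Ioo_subset_Icc_self

theorem BoxP.sqG : SqK_87.SqG (fun i : {Q : Sqr // Q ∈ 𝒬'} => i.1.car)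
    (fun i => (i.1.x, i.1.y)) (fun i => i.1.s) where
  eq := fun i => rfl
  s0 := fun i => i.1.hs.le
  dis := fun i j hij => hP.dis_car h𝒬 hij

/-- the part of `S'` off the uncharged squares is null -/
theorem BoxP.null : volume (Sl E 𝒬' B \ ⋃ Q ∈ 𝒬 \ 𝒬', Q.car) = 0 := by
  have hc : Countable (Ix 𝒬' B) := hP.countable h𝒬
  have h1 : volume (⋃ i : Ix 𝒬' B, cl (cutR 𝒬' B) i \ (cutR 𝒬' B).op i) = 0 := by
    rw [measure_iUnion_null_iff]
    intro i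
    have : cl (cutR 𝒬' B) i \ (cutR 𝒬' B).op i ⊆ frontier ((cutR 𝒬' B).op i) := by
      rw [((cutR 𝒬' B).isOpen_op i).frontier_eq, closure_op]
    refine measure_mono_null this ?_
    exact (convex_op (cutR 𝒬' B) i).addHaar_frontier volume
  refine measure_mono_null ?_ (measure_union_null h1 hP.pic.q.null)
  rintro p ⟨⟨⟨hpE, hpB⟩, hpu⟩, hpn⟩
  by_cases hp : p ∈ ⋃ Q ∈ 𝒬, Q.car
  · left
    obtain ⟨Q, hQ, hpQ⟩ := mem_iUnion₂.1 hp
    have hQ' : Q ∈ 𝒬' := by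
      by_contra hcon
      exact hpn (mem_iUnion₂.2 ⟨Q, ⟨hQ, hcon⟩, hpQ⟩)
    have hyB : Q.y < B := lt_of_le_of_lt (Sqr.mem_car.1 hpQ).2.1 hpB
    refine mem_iUnion.2 ⟨⟨⟨Q, hQ'⟩, hyB⟩, mem_cl.2 ⟨hpQ, le_of_lt hpB⟩, fun h => ?_⟩
    exact hpu (mem_iUnion.2 ⟨_, h⟩)
  · exact Or.inr ⟨hpE, hp⟩

end

end Crest.Agent.R105.SqJ_361
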