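import Crest.Agent.R105.Gl2_363
import Crest.Agent.R105.Kbx3_247
import Crest.Agent.R105.SqJe_361

/-!
# Row 105 (S0138), LEMAQ, helper306: the instance (363 #11225): `GeoC`, `CarC` and the marginals of
247's box problem in the three cases: family without solid mass (`S = ∅`), one free hair
(`S = K₀.car`), one solid (`S = comp E Q₀`).
-/

set_option autoImplicit false

open MeasureTheory Set Filter Topology
open scoped NNReal ENNReal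

namespace Crest.Agent.R105.Ins_306

open CF_363 Cq_463 Exs_992 Sq_87 Nal_649 Famq_306 Kbx_247 Gl_363 SqJ_361
open Skp2_257 (Comps)
open Mp_87 (lam)

variable {E S : Set (ℝ × ℝ)} {𝒬 𝒬' : Set Sqr} {𝓗 : Set Hair} {g : Set (Set (ℝ × ℝ))}
  {a b c d B T Bm Bp : ℝ} {Q₀ : Sqr} {μ ν : Measure (ℝ × ℝ)}

/-- `S` is a closed union of components of `E` -/
structure SatC (E S : Set (ℝ × ℝ)) : Prop where
  cl : IsClosed S
  sub : S ⊆ E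
  sat : ∀ P ∈ Comps E, (P ∩ S).Nonempty → P ⊆ S

theorem satC_empty : SatC E ∅ :=
  ⟨isClosed_empty, empty_subset _, fun P _ h => by simp at h⟩

theorem satC_comp (hE : QPic E 𝒬 𝓗) {P : Set (ℝ × ℝ)} (hP : P ∈ Comps E) : SatC E P :=
  ⟨(isCompact_comp hE hP).isClosed, Kbx_247.comps_sub hP, fun P' hP' h => by
    rw [comp_unique hP' hP h]⟩

theorem SatC.rf (h : SatC E S) : SatC (rf ⁻¹' E) (rf ⁻¹' S) where
  cl := h.cl.preimage continuous_rf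
  sub := preimage_mono h.sub
  sat := by
    intro P hP hne
    rw [comps_rf] at hP
    obtain ⟨p, hp, hpS⟩ := hne
    have h1 : CF_363.rf ⁻¹' P ⊆ S := h.sat _ hP ⟨CF_363.rf p, by simpa using hp, hpS⟩
    intro q hq
    exact h1 (by simpa using hq)

/-- a connected part of `E` which meets `S` lies in `S` -/
theorem SatC.conn (h : SatC E S) {C : Set (ℝ × ℝ)} (hC : IsPreconnected C) (hCE : C ⊆ E)
    (hne : (C ∩ S).Nonempty) : C ⊆ S := by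
  obtain ⟨p, hp, hpS⟩ := hne
  have h1 := h.sat (connectedComponentIn E p) ⟨p, hCE hp, rfl⟩
    ⟨p, mem_connectedComponentIn (hCE hp), hpS⟩
  exact (hC.subset_connectedComponentIn hp hCE).trans h1

theorem interior_car (Q : Sqr) :
    interior Q.car = Ioo Q.x (Q.x + Q.s) ×ˢ Ioo Q.y (Q.y + Q.s) := by
  rw [Sqr.car, interior_prod_eq, interior_Icc, interior_Icc]

/-- **GeoC of the box problem** -/
theorem geoC_of (hP : PicS E 𝒬 𝓗) (hbox : E ⊆ Ioo a b ×ˢ Ioo c d) (hcB : c < B) (hBT : B < T)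
    (hS : SatC E S) (h𝒬 : ∀ Q, Q ∈ 𝒬' ↔ Q ∈ 𝒬 ∧ Disjoint Q.car S) :
    GeoC E S 𝒬 𝓗 (cutR 𝒬' B) (fun i => i.1.1) a b c B T where
  pic := hP.q
  cS := hS.cl
  SE := hS.sub
  hS := fun K hK hne => hS.conn (preconn_car K) (hP.q.hsub K hK) hne
  qS := fun Q hQ hne => hS.conn Q.convex_car.isPreconnected (hP.q.sub Q hQ) hne
  att := by
    intro K hK Q hQ
    rw [Set.disjoint_left]
    intro p hp hpQ
    rw [interior_car] at hpQ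
    obtain ⟨⟨h1, h2⟩, h3, h4⟩ := hpQ
    rcases hP.att K hK Q hQ ⟨p, hp, ⟨⟨h1.le, h2.le⟩, h3.le, h4.le⟩⟩ with h | h
    · have := hp.2.1; linarith
    · have := hp.2.2; linarith
  box := fun p hp => ⟨(hbox hp).1, (hbox hp).2.1⟩
  cB := hcB
  BT := hBT
  sqm := fun i => ⟨((h𝒬 _).1 i.1.2).1, ((h𝒬 _).1 i.1.2).2, i.2⟩
  sqs := fun Q hQ hd hy => ⟨⟨⟨Q, (h𝒬 Q).2 ⟨hQ, hd⟩⟩, hy⟩, rfl⟩
  x1 := fun i => by simp only [cutR]; ring
  x2 := fun i => by simp only [cutR]; ring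
  y1 := fun i => by simp only [cutR]; ring
  y2 := fun i => by simp only [cutR]; ring

theorem rfS_iff (h𝒬 : ∀ Q, Q ∈ 𝒬' ↔ Q ∈ 𝒬 ∧ Disjoint Q.car S) :
    ∀ Q, Q ∈ rfS '' 𝒬' ↔ Q ∈ rfS '' 𝒬 ∧ Disjoint Q.car (rf ⁻¹' S) := by
  intro Q
  rw [mem_rfS, mem_rfS, h𝒬]
  refine and_congr_right fun _ => ?_
  constructor
  · intro h
    rw [Set.disjoint_left] at h ⊢
    intro p hp hpS
    exact h (mem_car_rfS.2 (by simpa using hp)) hpS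
  · intro h
    rw [Set.disjoint_left] at h ⊢
    intro p hp hpS
    exact h (mem_car_rfS.1 hp) (by simpa using hpS)

/-- the same for the reflected picture -/
theorem geoC_up (hP : PicS E 𝒬 𝓗) (hbox : E ⊆ Ioo a b ×ˢ Ioo c d) (hBd : B < d) {T : ℝ}
    (hBT : -B < T) (hS : SatC E S) (h𝒬 : ∀ Q, Q ∈ 𝒬' ↔ Q ∈ 𝒬 ∧ Disjoint Q.car S) :
    GeoC (rf ⁻¹' E) (rf ⁻¹' S) (rfS '' 𝒬) (reflH 𝓗) (cutR (rfS '' 𝒬') (-B)) (fun i => i.1.1)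
      a b (-d) (-B) T :=
  geoC_of (refl_pic hP) (refl_box hbox) (by linarith) hBT hS.rf (rfS_iff h𝒬)

/-- no square in a hair -/
theorem not_car_sub_hair {Q : Sqr} {K : Hair} : ¬ Q.car ⊆ K.car := by
  intro h
  have := not_sub_hair (Q := Q) (K := K)
  rw [sUnion_singleton] at this
  exact this h

/-! ### families -/

/-- **CarC of a family** (lower half; the upper half is the lower half of the reflected picture) -/
theorem carC_fam (hE : QPic E 𝒬 𝓗) (hg : g ⊆ Comps E)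
    (c1 : ∀ᵐ q ∂μ, ∃ K ∈ 𝓗, K.car ∈ g ∧ q ∈ K.car ∧ q.2 ≤ B ∧ K.b ≤ B ∧ T ≤ K.t)
    (hs : (S = ∅ ∧ ∀ x, μ {q | q.1 = x} = 0) ∨ ⋃₀ g ⊆ S) : CarC E S 𝒬 B T μ where
  lvl := by filter_upwards [c1] with q hq; obtain ⟨K, -, -, -, h, -⟩ := hq; exact h
  ray := by
    filter_upwards [c1] with q hq y hy
    obtain ⟨K, hK, hKg, hqK, h1, h2, h3⟩ := hq
    exact hE.hsub K hK ⟨hqK.1, hqK.2.1.trans hy.1, hy.2.le.trans h3⟩
  off := by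
    filter_upwards [c1] with q hq y hy Q hQ _ hyQ
    obtain ⟨K, hK, hKg, hqK, h1, h2, h3⟩ := hq
    have h4 : (q.1, y) ∈ K.car := ⟨hqK.1, hqK.2.1.trans hy.1, hy.2.le.trans h3⟩
    exact not_car_sub_hair (sq_in_comp hE hQ (hg hKg) ⟨_, hyQ, h4⟩)
  sing := by
    rcases hs with h | h
    · exact Or.inl h
    · right
      filter_upwards [c1] with q hq y hy
      obtain ⟨K, hK, hKg, hqK, h1, h2, h3⟩ := hq
      exact h ⟨K.car, hKg, hqK.1, hqK.2.1.trans hy.1, hy.2.le.trans h3⟩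

/-- the upper carrier condition of 247's `FamF` in the form of `carC_fam` for the reflected picture -/
theorem c1_up (c2 : ∀ᵐ q ∂ν, ∃ K ∈ 𝓗, K.car ∈ g ∧ rf q ∈ K.car ∧ q.2 ≤ -Bp ∧ K.b ≤ Bm ∧
    Bp ≤ K.t) :
    ∀ᵐ q ∂ν, ∃ K ∈ reflH 𝓗, K.car ∈ (fun P => rf ⁻¹' P) '' g ∧ q ∈ K.car ∧ q.2 ≤ -Bp ∧
      K.b ≤ -Bp ∧ -Bm ≤ K.t := by
  filter_upwards [c2] with q hq
  obtain ⟨K, hK, hKg, hqK, h1, h2, h3⟩ := hq
  refine ⟨K.refl, show K.refl.refl ∈ 𝓗 by simpa using hK, ⟨K.car, hKg, (Hair.car_refl K).symm⟩,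
    Hair.mem_car_refl.2 hqK, h1, ?_, ?_⟩
  · simp only [Hair.refl_b]; linarith
  · simp only [Hair.refl_t]; linarith

theorem sUnion_rf : ⋃₀ ((fun P : Set (ℝ × ℝ) => rf ⁻¹' P) '' g) = rf ⁻¹' ⋃₀ g := by
  ext p
  simp only [sUnion_image, mem_iUnion, exists_prop, mem_preimage, mem_sUnion]

theorem rf_sub_comps (hg : g ⊆ Comps E) : (fun P => rf ⁻¹' P) '' g ⊆ Comps (rf ⁻¹' E) := by
  rintro _ ⟨P, hP, rfl⟩
  exact comps_rf' (hg hP)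

/-- equal marginals -/
theorem lam_congr (h : μ.map Prod.fst = ν.map Prod.fst) (x : ℝ) : lam μ x = lam ν x := by
  have h1 : ∀ ρ : Measure (ℝ × ℝ), ρ {q | q.1 < x} = (ρ.map Prod.fst) (Iio x) := fun ρ => by
    rw [Measure.map_apply measurable_fst measurableSet_Iio]; rfl
  rw [Mp_87.lam, Mp_87.lam, h1, h1, h]

section Fam

variable {m : ℝ} {X1 X2 : ℝ × ℝ → ℝ} {f : {Q : Sqr // Q ∈ 𝒬} → ℝ}
  {νp νm : {Q : Sqr // Q ∈ 𝒬} → Measure (ℝ × ℝ)}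
  {Y1 Y2 : ℝ × ℝ → ℝ} {f' : {Q : Sqr // Q ∈ rfS '' 𝒬} → ℝ}
  {νp' νm' : {Q : Sqr // Q ∈ rfS '' 𝒬} → Measure (ℝ × ℝ)}

/-- no mass on columns when all free hairs are null -/
theorem col_null
    (F : FamF E 𝒬 𝓗 g Bm Bp a b c d m X1 X2 f νp νm μ Y1 Y2 f' νp' νm' ν)
    (hn : ∀ K ∈ 𝓗, K.car ∈ g → Knq_247.Null2 𝓗 a b c Bm E (QA 𝒬) (reflH 𝓗) a b (-d) (-Bp)
      (rf ⁻¹' E) (QA (rfS '' 𝒬)) (Rg {K.car} Bm Bp)) (x : ℝ) :
    μ {q | q.1 = x} = 0 ∧ ν {q | q.1 = x} = 0 := by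
  by_cases hx : ∃ K ∈ 𝓗, K.car ∈ g ∧ K.x = x
  · obtain ⟨K, hK, hKg, rfl⟩ := hx
    exact F.noat K hK hKg (hn K hK hKg)
  · constructor
    · refine measure_mono_null (fun q hq => ?_) (ae_iff.1 F.c1)
      rintro ⟨K, hK, hKg, hqK, -⟩
      exact hx ⟨K, hK, hKg, by rw [← hqK.1]; exact hq⟩
    · refine measure_mono_null (fun q hq => ?_) (ae_iff.1 F.c2)
      rintro ⟨K, hK, hKg, hqK, -⟩
      refine hx ⟨K, hK, hKg, ?_⟩
      have h1 := hqK.1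
      rw [rf_fst] at h1
      rw [← h1]; exact hq

/-- (i) families: both carriers, `S = ∅`, `Tl = Bp`, `Tu = -Bm` -/
theorem carC_famF (hP : PicS E 𝒬 𝓗) (hg : g ⊆ Comps E)
    (F : FamF E 𝒬 𝓗 g Bm Bp a b c d m X1 X2 f νp νm μ Y1 Y2 f' νp' νm' ν)
    (hn : ∀ K ∈ 𝓗, K.car ∈ g → Knq_247.Null2 𝓗 a b c Bm E (QA 𝒬) (reflH 𝓗) a b (-d) (-Bp)
      (rf ⁻¹' E) (QA (rfS '' 𝒬)) (Rg {K.car} Bm Bp)) :
    CarC E ∅ 𝒬 Bm Bp μ ∧ CarC (rf ⁻¹' E) (rf ⁻¹' ∅) (rfS '' 𝒬) (-Bp) (-Bm) ν := by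
  have h0 := col_null F hn
  refine ⟨carC_fam hP.q hg F.c1 (Or.inl ⟨rfl, fun x => (h0 x).1⟩), ?_⟩
  exact carC_fam (refl_qpic hP.q) (rf_sub_comps hg) (c1_up F.c2)
    (Or.inl ⟨preimage_empty, fun x => (h0 x).2⟩)

/-- (ii) one free hair: both carriers, `S = K₀.car`, `Tl = Bp`, `Tu = -Bm` -/
theorem carC_hairF (hP : PicS E 𝒬 𝓗) {K₀ : Hair} (hK₀ : K₀.car ∈ Comps E)
    (F : FamF E 𝒬 𝓗 {K₀.car} Bm Bp a b c d m X1 X2 f νp νm μ Y1 Y2 f' νp' νm' ν) :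
    CarC E K₀.car 𝒬 Bm Bp μ ∧ CarC (rf ⁻¹' E) (rf ⁻¹' K₀.car) (rfS '' 𝒬) (-Bp) (-Bm) ν := by
  have hg : {K₀.car} ⊆ Comps E := singleton_subset_iff.2 hK₀
  refine ⟨carC_fam hP.q hg F.c1 (Or.inr (by rw [sUnion_singleton])), ?_⟩
  exact carC_fam (refl_qpic hP.q) (rf_sub_comps hg) (c1_up F.c2)
    (Or.inr (by rw [sUnion_rf, sUnion_singleton]))

end Fam

/-- the squares off a free hair: all of them -/
theorem hair_iff (hE : QPic E 𝒬 𝓗) {K₀ : Hair} (hK₀ : K₀.car ∈ Comps E) :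
    ∀ Q, Q ∈ 𝒬 ↔ Q ∈ 𝒬 ∧ Disjoint Q.car K₀.car := by
  refine fun Q => ⟨fun hQ => ⟨hQ, ?_⟩, fun h => h.1⟩
  rw [Set.disjoint_left]
  intro p hp hpK
  exact not_car_sub_hair (sq_in_comp hE hQ hK₀ ⟨p, hp, hpK⟩)

theorem empty_iff : ∀ Q : Sqr, Q ∈ 𝒬 ↔ Q ∈ 𝒬 ∧ Disjoint Q.car (∅ : Set (ℝ × ℝ)) := fun Q => by simp

/-! ### one solid -/

/-- the squares off the solid of `Q₀` -/
theorem sol_iff (hE : QPic E 𝒬 𝓗) (hQ₀ : Q₀ ∈ 𝒬) :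
    ∀ Q, Q ∈ 𝒬 \ {Q₀} ↔ Q ∈ 𝒬 ∧ Disjoint Q.car (comp E Q₀) := by
  intro Q
  have hcm := SkT1_137.comp_mem hE hQ₀
  constructor
  · rintro ⟨hQ, hne⟩
    refine ⟨hQ, ?_⟩
    rw [Set.disjoint_left]
    intro p hp hpK
    exact hne (SkT1_137.eq_of_comp_eq hE hQ hQ₀
      (SkT1_137.eq_comp hE hQ hcm (sq_in_comp hE hQ hcm ⟨p, hp, hpK⟩)).symm)
  · rintro ⟨hQ, hd⟩
    refine ⟨hQ, fun h => ?_⟩
    rw [mem_singleton_iff] at h
    subst h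
    obtain ⟨p, hp⟩ := Q.nonempty
    exact Set.disjoint_left.1 hd hp (SkT1_137.car_sub_comp hE hQ hp)

/-- (iii) lower half of the solid: `Tl` = top of the square -/
theorem carC_sol_lo (hE : QPic E 𝒬 𝓗) (hQ₀ : Q₀ ∈ 𝒬) (c1 : ∀ᵐ q ∂μ, q ∈ Q₀.car ∧ q.2 ≤ B) :
    CarC E (comp E Q₀) 𝒬 B (Q₀.y + Q₀.s) μ := by
  have hin : ∀ᵐ q ∂μ, ∀ y ∈ Ico q.2 (Q₀.y + Q₀.s), (q.1, y) ∈ comp E Q₀ := by
    filter_upwards [c1] with q hq y hy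
    exact SkT1_137.car_sub_comp hE hQ₀ ⟨hq.1.1, hq.1.2.1.trans hy.1, hy.2.le⟩
  refine ⟨by filter_upwards [c1] with q hq using hq.2, ?_, ?_, Or.inr hin⟩
  · filter_upwards [hin] with q hq y hy
    exact Kbx_247.comps_sub (SkT1_137.comp_mem hE hQ₀) (hq y hy)
  · filter_upwards [hin] with q hq y hy Q _ hd hyQ
    exact Set.disjoint_left.1 hd hyQ (hq y hy)

/-- the teeth above the square stand over the square -/
theorem tooth_x (hP : PicS E 𝒬 𝓗) (hQ₀ : Q₀ ∈ 𝒬) {K : Hair} (hKP : K.car ⊆ comp E Q₀)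
    (hKb : K.b = Q₀.y + Q₀.s) : Q₀.x ≤ K.x ∧ K.x ≤ Q₀.x + Q₀.s := by
  have hE := hP.q
  have hcm := SkT1_137.comp_mem hE hQ₀
  have htop : (K.x, K.t) ∈ comp E Q₀ := hKP (top_mem K)
  have hbt := K.hbt
  obtain ⟨K', hK', hKP', hb', hmem⟩ := above_hair hP hQ₀ htop (by simp only; linarith)
  have hnot : (K.x, K.t) ∉ Q₀.car := fun h => by have := h.2.2; simp only at this; linarith
  rcases hP.comp _ hcm with ⟨z, hz⟩ | ⟨K1, hK1, h⟩ | ⟨Q, hQ', hQP, hpt⟩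
  · exfalso
    have h1 := SkT1_137.car_sub_comp hE hQ₀ (corner_mem Q₀)
    rw [hz, mem_singleton_iff] at h1 htop
    have h2 := congrArg Prod.snd (htop.trans h1.symm)
    simp only at h2
    have := Q₀.hs
    linarith
  · exfalso
    exact not_car_sub_hair (h ▸ SkT1_137.car_sub_comp hE hQ₀)
  · have hQQ : Q = Q₀ := SkT1_137.eq_of_comp_eq hE hQ' hQ₀
      (SkT1_137.eq_comp hE hQ' hcm hQP).symm
    subst hQQ
    obtain ⟨K2, hK2, hKP2, hp2, z, hzK, hzQ⟩ := hpt _ htop hnot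
    have h1 : K.x = K2.x := hp2.1
    rw [h1, ← hzK.1]
    exact hzQ.1

/-- (iii) upper half of the solid (reflected picture): `Tu = -B` -/
theorem carC_sol_up (hP : PicS E 𝒬 𝓗) (hQ₀ : Q₀ ∈ 𝒬) (hB : Q₀.y ≤ B)
    (c2 : ∀ᵐ q ∂ν, q.2 ≤ -Bp ∧
      ∃ K ∈ 𝓗, K.car ⊆ comp E Q₀ ∧ K.b = Q₀.y + Q₀.s ∧ rf q ∈ K.car ∧ Bp ≤ K.t) :
    CarC (rf ⁻¹' E) (rf ⁻¹' comp E Q₀) (rfS '' 𝒬) (-Bp) (-B) ν := by
  have hE := hP.q
  have hin : ∀ᵐ q ∂ν, ∀ y ∈ Ico q.2 (-B), (q.1, y) ∈ rf ⁻¹' comp E Q₀ := by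
    filter_upwards [c2] with q hq y hy
    obtain ⟨hq1, K, hK, hKP, hKb, hqK, hKt⟩ := hq
    have hx := tooth_x hP hQ₀ hKP hKb
    have hqx : q.1 = K.x := hqK.1
    have hqt : -q.2 ≤ K.t := hqK.2.2
    show (q.1, -y) ∈ comp E Q₀
    have hy1 := hy.1
    have hy2 := hy.2
    by_cases h : Q₀.y + Q₀.s ≤ -y
    · exact hKP ⟨hqx, by rw [hKb]; exact h, by show -y ≤ K.t; linarith⟩
    · push Not at h
      exact SkT1_137.car_sub_comp hE hQ₀ ⟨by rw [show ((q.1, -y) : ℝ × ℝ).1 = K.x from hqx]; exact hx,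
        by show Q₀.y ≤ -y; linarith, h.le⟩
  refine ⟨by filter_upwards [c2] with q hq using hq.1, ?_, ?_, Or.inr hin⟩
  · filter_upwards [hin] with q hq y hy
    exact Kbx_247.comps_sub (SkT1_137.comp_mem hE hQ₀) (hq y hy)
  · filter_upwards [hin] with q hq y hy Q _ hd hyQ
    exact Set.disjoint_left.1 hd hyQ (hq y hy)

/-- (iii) the marginals off the solid in the strip of the square -/
theorem marg_sol (hP : PicS E 𝒬 𝓗) (hQ₀ : Q₀ ∈ 𝒬) (hB : Q₀.y ≤ B)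
    (m1 : μ univ = 1) (m2 : ν univ = 1) (c1 : ∀ᵐ q ∂μ, q ∈ Q₀.car ∧ q.2 ≤ B)
    (c2 : ∀ᵐ q ∂ν, q.2 ≤ -Bp ∧
      ∃ K ∈ 𝓗, K.car ⊆ comp E Q₀ ∧ K.b = Q₀.y + Q₀.s ∧ rf q ∈ K.car ∧ Bp ≤ K.t)
    {p : ℝ × ℝ} (h1 : B < p.2) (h2 : p.2 < Q₀.y + Q₀.s) (hp : p ∉ comp E Q₀) :
    lam μ p.1 = lam ν p.1 := by
  have hE := hP.q
  have hcol : ∀ᵐ q ∂ν, Q₀.x ≤ q.1 ∧ q.1 ≤ Q₀.x + Q₀.s := by
    filter_upwards [c2] with q hq
    obtain ⟨hq1, K, hK, hKP, hKb, hqK, hKt⟩ := hq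
    have hx := tooth_x hP hQ₀ hKP hKb
    have hqx : q.1 = K.x := hqK.1
    rw [hqx]; exact hx
  have hcol' : ∀ᵐ q ∂μ, Q₀.x ≤ q.1 ∧ q.1 ≤ Q₀.x + Q₀.s := by
    filter_upwards [c1] with q hq using hq.1.1
  have hside : p.1 < Q₀.x ∨ Q₀.x + Q₀.s < p.1 := by
    by_contra hcon
    push Not at hcon
    exact hp (SkT1_137.car_sub_comp hE hQ₀ ⟨⟨hcon.1, hcon.2⟩, by linarith, h2.le⟩)
  have key : ∀ ρ : Measure (ℝ × ℝ), ρ univ = 1 →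
      (∀ᵐ q ∂ρ, Q₀.x ≤ q.1 ∧ q.1 ≤ Q₀.x + Q₀.s) →
      lam ρ p.1 = if p.1 < Q₀.x then 0 else 1 := by
    intro ρ hρ1 hρ
    unfold Mp_87.lam
    rcases hside with h | h
    · rw [if_pos h]
      have h0 : ρ {q | q.1 < p.1} = 0 := by
        refine measure_mono_null (fun q hq => ?_) (ae_iff.1 hρ)
        rintro ⟨h3, -⟩
        have h4 : q.1 < p.1 := hq
        linarith
      rw [h0]; rfl
    · have hs := Q₀.hs
      rw [if_neg (by linarith)]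
      have h0 : ρ {q | q.1 < p.1} = ρ univ := by
        refine measure_congr ?_
        rw [eventuallyEq_set]
        filter_upwards [hρ] with q hq
        refine ⟨fun _ => trivial, fun _ => ?_⟩
        show q.1 < p.1
        linarith [hq.2]
      rw [h0, hρ1]; rfl
  rw [key μ m1 hcol', key ν m2 hcol]

end Crest.Agent.R105.Ins_306
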