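import Crest.Agent.R105.SqH_87
import Crest.Agent.R105.Gl2_363
import Crest.Agent.R105.Psi11_425

/-! Row 105, S0138, exact squares: 363's half list `HalfG`. -/

set_option autoImplicit false

open MeasureTheory Set Filter Topology
open scoped NNReal ENNReal

namespace Crest.Agent.R105.SqH_87

open CF_363 Cq_463 Sq_87 Gl_363
open Mp_87 (ae_x_of_ae ae_y_of_ae lam)
open SqJ_361 (cl closure_op)
open Psi11_425 (lam_continuousAt)

variable {ι : Type} {E S SS : Set (ℝ × ℝ)} {𝒬 : Set Sqr} {𝓗 : Set Hair} {Q : Rects ι}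
  {sq : ι → Sqr} {a b c B T : ℝ} {μ : Measure (ℝ × ℝ)} {X1 X2 ψ Ψ g : ℝ × ℝ → ℝ} {f : ι → ℝ}
  {J : ℕ → Finset Hair} {z : ℕ → ℝ × ℝ → ℝ} {κ : Hair → ℝ} {ρ : ℕ → ι → ℝ}
  {s : ι → ℝ} {q : ι → ℝ × ℝ} {ν : ι → Measure (ℝ × ℝ)}

/-- the open set of generic access: the domain and the strip -/
def acs (E S : Set (ℝ × ℝ)) (a b c B T : ℝ) : Set (ℝ × ℝ) :=
  ((Ioo a b ×ˢ Ioo c T) \ E) ∪ ((Ioo a b ×ˢ Ioo B T) \ S)

theorem isOpen_acs (G : GeoC E S 𝒬 𝓗 Q sq a b c B T) : IsOpen (acs E S a b c B T) :=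
  ((isOpen_Ioo.prod isOpen_Ioo).sdiff G.pic.cpt.isClosed).union
    ((isOpen_Ioo.prod isOpen_Ioo).sdiff G.cS)

theorem acs_sub (G : GeoC E S 𝒬 𝓗 Q sq a b c B T) (C : CarC E S 𝒬 B T μ)
    (hSS : volume (SS \ S) = 0) (hJ : ∀ n, ∀ K ∈ J n, K ∈ 𝓗) :
    acs E S a b c B T ⊆ AdmQ a b c SS μ J \ Q.un := by
  rintro p (⟨hp, hpE⟩ | ⟨⟨hp1, hp2⟩, hpS⟩)
  · exact ⟨admQ G C hSS hJ hp fun h => hpE (G.SE h), fun h => hpE (un_sub G h)⟩
  · exact ⟨admQ G C hSS hJ ⟨hp1, ⟨G.cB.trans hp2.1, hp2.2⟩⟩ hpS,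
      fun h => absurd (un_lt G h) (not_lt.2 hp2.1.le)⟩

/-- no mass on the column of a point off `S` -/
theorem col_null (C : CarC E S 𝒬 B T μ) {p : ℝ × ℝ}
    (hp : p ∈ Ioo a b ×ˢ Ioo c T) (hB : B ≤ p.2) (hpS : p ∉ S) : μ {q | q.1 = p.1} = 0 := by
  have h1 : μ {q | q.1 = p.1 ∧ q.2 ≤ p.2} = 0 :=
    box_null C (u1 := p.1) (u2 := p.1) (v1 := p.2) (v2 := p.2) le_rfl hp.2.2
      (fun x hx y hy => by
        have e1 : x = p.1 := le_antisymm hx.2 hx.1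
        have e2 : y = p.2 := le_antisymm hy.2 hy.1
        rw [e1, e2]; exact hpS) ⟨le_rfl, le_rfl⟩
  rw [measure_eq_zero_iff_ae_notMem] at h1 ⊢
  filter_upwards [h1, C.lvl] with w hw hwB hw1
  exact hw ⟨hw1, hwB.trans hB⟩

/-- the strip value -/
theorem strip_of (G : GeoC E S 𝒬 𝓗 Q sq a b c B T) (C : CarC E S 𝒬 B T μ) [IsFiniteMeasure μ]
    (L : LinesI a b c B 1 X1 X2 μ ψ Ψ)
    (cont : ContinuousOn g ((Ioo a b ×ˢ Ioo c T) \ (Q.un ∪ S)))
    (ae : ∀ᵐ w : ℝ × ℝ, w ∈ Ioo a b ×ˢ Ioo c T → w ∉ Q.un → w ∉ S → g w = ψ w) :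
    ∀ p ∈ Ioo a b ×ˢ Ioo c T, B < p.2 → p ∉ S → g p = -lam μ p.1 := by
  intro p hp hpB hpS
  set O : Set (ℝ × ℝ) := (Ioo a b ×ˢ Ioo B T) \ S with hO
  have hOo : IsOpen O := (isOpen_Ioo.prod isOpen_Ioo).sdiff G.cS
  have hsub : O ⊆ (Ioo a b ×ˢ Ioo c T) \ (Q.un ∪ S) := by
    rintro w ⟨⟨hw1, hw2⟩, hwS⟩
    refine ⟨⟨hw1, G.cB.trans hw2.1, hw2.2⟩, ?_⟩
    rintro (h | h)
    · exact absurd (un_lt G h) (not_lt.2 hw2.1.le)
    · exact hwS h
  have h1 : ContinuousOn (fun w : ℝ × ℝ => -lam μ w.1) O := by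
    intro w hw
    have hw' := hsub hw
    have h2 := lam_continuousAt (μ := μ) (col_null C hw'.1 hw.1.2.1.le hw.2)
    exact ((ContinuousAt.comp (x := w) (f := Prod.fst) h2 continuousAt_fst).neg).continuousWithinAt
  have h3 : g =ᵐ[volume.restrict O] fun w => -lam μ w.1 := by
    rw [Filter.EventuallyEq, ae_restrict_iff' hOo.measurableSet]
    filter_upwards [ae] with w hw hwO
    have hw' := hsub hwO
    rw [hw hw'.1 (fun h => hw'.2 (Or.inl h)) (fun h => hw'.2 (Or.inr h)),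
      L.strip w hwO.1.2.1.le]
    ring
  exact Measure.eqOn_open_of_ae_eq h3 hOo (cont.mono hsub) h1 ⟨⟨hp.1, hpB, hp.2.2⟩, hpS⟩

/-- **the half list** -/
theorem exists_halfG [Countable ι] [IsFiniteMeasure μ] (G : GeoC E S 𝒬 𝓗 Q sq a b c B T)
    (C : CarC E S 𝒬 B T μ)
    (hSS : volume (SS \ S) = 0) (hJ : ∀ n, ∀ K ∈ J n, K ∈ 𝓗)
    (L : LinesI a b c B 1 X1 X2 μ ψ Ψ) (D : SqData Q SS a b c B X1 X2 μ f)
    (A : ApprQ Q SS a b c B 1 X1 X2 μ Ψ f J z κ ρ) (F : SqFlux Q X1 X2 f s q ν)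
    (hT : ∀ K ∈ 𝓗, K.x ∈ Ioo a b → μ {q | q.1 = K.x ∧ q.2 < K.t} = 0 →
      ∃ k : ℝ, ∀ᵐ y, c < y → y ∈ Ioo K.b K.t → Ψ (K.x, y) = k) :
    ∃ g, HalfG E S 𝓗 Q a b c B T X1 X2 μ f ψ g := by
  obtain ⟨g, hg, hgae, -, hacc⟩ := exists_contQ L (Or.inl rfl) D A F
    (fun p _ hpu => densQ G hpu)
  obtain ⟨hgh, hgv⟩ := hacc (acs E S a b c B T) (isOpen_acs G) (acs_sub G C hSS hJ)
  have hdom : ((Ioo a b ×ˢ Ioo c T) \ (Q.un ∪ S)) ⊆ AdmQ a b c SS μ J \ Q.un := fun p hp =>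
    ⟨admQ G C hSS hJ hp.1 fun h => hp.2 (Or.inr h), fun h => hp.2 (Or.inl h)⟩
  have hcont : ContinuousOn g ((Ioo a b ×ˢ Ioo c T) \ (Q.un ∪ S)) := hg.mono hdom
  have hae : ∀ᵐ w : ℝ × ℝ, w ∈ Ioo a b ×ˢ Ioo c T → w ∉ Q.un → w ∉ S → g w = ψ w := by
    filter_upwards [hgae] with w hw h1 h2 h3
    exact hw (hdom ⟨h1, fun h => h.elim h2 h3⟩).1 h2
  have hstrip := strip_of G C L hcont hae
  -- access
  have haccH : ∀ᵐ y : ℝ, y ∈ Ioo c T → ∀ x ∈ Ioo a b, (∀ Q₀ ∈ 𝒬, (x, y) ∉ interior Q₀.car) →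
      x ∈ closure {x' | (x', y) ∈ acs E S a b c B T} := by
    filter_upwards [acc_h G.pic] with y hy hyI x hx hxQ
    have h1 := isOpen_Ioo.inter_closure ⟨hx, hy x hxQ⟩
    refine closure_mono ?_ h1
    rintro x' ⟨h2, h3⟩
    exact Or.inl ⟨⟨h2, hyI⟩, h3⟩
  have haccV : ∀ᵐ x : ℝ, x ∈ Ioo a b → ∀ y ∈ Ioo c T, (∀ Q₀ ∈ 𝒬, (x, y) ∉ interior Q₀.car) →
      y ∈ closure {y' | (x, y') ∈ acs E S a b c B T} := by
    filter_upwards [acc_v G.pic] with x hx hxI y hy hyQ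
    have h1 := isOpen_Ioo.inter_closure ⟨hy, hx y hyQ⟩
    refine closure_mono ?_ h1
    rintro y' ⟨h2, h3⟩
    exact Or.inl ⟨⟨hxI, h2⟩, h3⟩
  -- points of a charged rectangle
  have hcar : ∀ i, ∀ p ∈ cl Q i, p ∈ (sq i).car ∧ p.2 ≤ B := by
    rintro i p ⟨⟨h1, h2⟩, h3, h4⟩
    rw [G.x1 i] at h1
    rw [G.x2 i] at h2
    rw [G.y1 i] at h3
    rw [G.y2 i] at h4
    exact ⟨⟨⟨h1, h2⟩, h3, h4.trans (min_le_left _ _)⟩, h4.trans (min_le_right _ _)⟩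
  have hbx : ∀ i, (sq i).car ⊆ Ioo a b ×ˢ Ioi c := fun i => (G.pic.sub _ (G.sqm i).1).trans G.box
  have hcdom : ∀ i, ∀ p ∈ cl Q i, p ∉ Q.un → p ∈ (Ioo a b ×ˢ Ioo c T) \ (Q.un ∪ S) := by
    intro i p hp hpu
    obtain ⟨h1, h2⟩ := hcar i p hp
    have h3 := hbx i h1
    refine ⟨⟨h3.1, h3.2, h2.trans_lt G.BT⟩, ?_⟩
    rintro (h | h)
    · exact hpu h
    · exact disjoint_left.1 (G.sqm i).2.1 h1 h
  have hother : ∀ i, ∀ p ∈ (sq i).car, p ∉ interior (sq i).car → ∀ Q₀ ∈ 𝒬, p ∉ interior Q₀.car := by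
    intro i p hp hpi Q₀ hQ₀ hp0
    by_cases h : Q₀ = sq i
    · rw [h] at hp0; exact hpi hp0
    · exact disjoint_left.1 (G.pic.disjoint hQ₀ (G.sqm i).1 h) (interior_subset hp0) hp
  refine ⟨g, hcont, hae, hstrip, ?_, ?_, ?_, ?_⟩
  · -- hairs
    intro K hK hd
    have hbot : (K.x, K.b) ∈ K.car := Hair.mem_car.2 ⟨rfl, le_rfl, K.hbt.le⟩
    have hKx := G.box (G.pic.hsub K hK hbot)
    have hkey : ∃ k, ∀ y, y ∈ Icc K.b K.t → y < T → g (K.x, y) = k := by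
      by_cases hbT : K.b < T
      swap
      · exact ⟨0, fun y hy hyT => absurd (hy.1.trans_lt hyT) hbT⟩
      have hμ0 : μ {q | q.1 = K.x ∧ q.2 < K.t} = 0 := by
        rcases C.sing with ⟨-, h1⟩ | h1
        · exact measure_mono_null (fun q hq => hq.1) (h1 K.x)
        · rw [measure_eq_zero_iff_ae_notMem]
          filter_upwards [h1, C.lvl] with w hw hwB hw2
          obtain ⟨e1, e2⟩ := hw2
          have h2 := hw (max w.2 K.b) ⟨le_max_left _ _, max_lt (hwB.trans_lt G.BT) hbT⟩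
          rw [e1] at h2
          exact disjoint_left.1 hd (Hair.mem_car.2
            ⟨rfl, le_max_right _ _, max_le e2.le K.hbt.le⟩) h2
      obtain ⟨k, hk⟩ := hT K hK hKx.1 hμ0
      refine ⟨k, fun y hy hyT => ?_⟩
      have hmem : ∀ y ∈ Icc K.b K.t, y < T → (K.x, y) ∈ (Ioo a b ×ˢ Ioo c T) \ (Q.un ∪ S) := by
        intro y hy hyT
        have hyK : (K.x, y) ∈ K.car := Hair.mem_car.2 ⟨rfl, hy.1, hy.2⟩
        have h1 := G.box (G.pic.hsub K hK hyK)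
        refine ⟨⟨h1.1, h1.2, hyT⟩, ?_⟩
        rintro (h | h)
        · obtain ⟨i, hi⟩ := mem_iUnion.1 h
          exact disjoint_left.1 (G.att K hK _ (G.sqm i).1) hyK (op_sub_int G i hi)
        · exact disjoint_left.1 hd hyK h
      refine (line_closure (A := {y | y ∈ Icc K.b K.t ∧ y < T}) (O := Ioo K.b (min K.t T))
        isOpen_Ioo ?_ (u := fun _ => k) (g := fun y => g (K.x, y))
        (fun _ _ => continuousAt_const) (hcont.comp (by fun_prop) fun y hy => hmem y hy.1 hy.2)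
        ?_ ⟨hy, hyT⟩ ?_).symm
      · rintro y ⟨h1, h2⟩
        exact ⟨⟨h1.le, (h2.trans_le (min_le_left _ _)).le⟩, h2.trans_le (min_le_right _ _)⟩
      · filter_upwards [hk, hgh, haccH] with y h1 h2 h3 hyO
        have hyI : y ∈ Icc K.b K.t := ⟨hyO.1.le, (hyO.2.trans_le (min_le_left _ _)).le⟩
        have hyT' : y < T := hyO.2.trans_le (min_le_right _ _)
        have hcy : c < y := lt_of_lt_of_le hKx.2 hyI.1
        rw [← h1 hcy ⟨hyO.1, hyO.2.trans_le (min_le_left _ _)⟩]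
        exact h2 K.x (hdom (hmem y hyI hyT')) (h3 ⟨hcy, hyT'⟩ K.x hKx.1 fun Q₀ hQ₀ h =>
          disjoint_left.1 (G.att K hK Q₀ hQ₀) (Hair.mem_car.2 ⟨rfl, hyI.1, hyI.2⟩) h)
      · rw [closure_Ioo (lt_min K.hbt hbT).ne]
        exact ⟨hy.1, le_min hy.2 hyT.le⟩
    obtain ⟨k, hk⟩ := hkey
    rintro ⟨p1, p2⟩ hp ⟨q1, q2⟩ hq hpT hqT
    have hp' := Hair.mem_car.1 hp
    have hq' := Hair.mem_car.1 hq
    simp only at hp' hq' hpT hqT
    rw [hp'.1, hq'.1, hk p2 ⟨hp'.2.1, hp'.2.2⟩ hpT, hk q2 ⟨hq'.2.1, hq'.2.2⟩ hqT]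
  · -- squares
    intro i p hp0 r hr0 hpu hru
    have hp : p ∈ cl Q i := hp0
    have hr : r ∈ cl Q i := hr0
    have hfr : ∀ w ∈ cl Q i, w ∉ Q.un → w ∈ frontier (Q.op i) := by
      intro w hw hwu
      rw [(Q.isOpen_op i).frontier_eq, closure_op]
      exact ⟨hw, fun h => hwu (mem_iUnion.2 ⟨i, h⟩)⟩
    have hfd : ∀ w ∈ frontier (Q.op i), w ∈ cl Q i ∧ w ∉ Q.un := by
      intro w hw
      refine ⟨?_, Sqw_693.frontier_sub D.dis hw⟩
      rw [← closure_op]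
      exact frontier_subset_closure hw
    have hc0 : (Q.x i - Q.h1 i, Q.y i - Q.h2 i) ∈ (sq i).car := by
      have hs := (sq i).hs
      rw [G.x1 i, G.y1 i]
      exact ⟨⟨le_rfl, by simp only; linarith⟩, le_rfl, by simp only; linarith⟩
    have hc1 : (Q.x i + Q.h1 i, Q.y i - Q.h2 i) ∈ (sq i).car := by
      have hs := (sq i).hs
      rw [G.x2 i, G.y1 i]
      exact ⟨⟨by simp only; linarith, le_rfl⟩, le_rfl, by simp only; linarith⟩
    have hB : Sqw_693.Box Q i a b c μ := by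
      refine ⟨(hbx i hc0).1.1, (hbx i hc1).1.2, (hbx i hc0).2, ?_⟩
      rw [measure_eq_zero_iff_ae_notMem]
      filter_upwards [C.off, C.lvl] with w hw hwB hw2
      obtain ⟨⟨e1, e2⟩, e3⟩ := hw2
      rw [G.x1 i] at e1
      rw [G.x2 i] at e2
      rw [G.y2 i] at e3
      refine hw (max w.2 (sq i).y) ⟨le_max_left _ _, max_lt (hwB.trans_lt G.BT)
        ((G.sqm i).2.2.trans G.BT)⟩ (sq i) (G.sqm i).1 (G.sqm i).2.1 ?_
      exact ⟨⟨e1, e2⟩, le_max_right _ _, max_le (e3.trans_le (min_le_left _ _)).le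
        (by have := (sq i).hs; linarith)⟩
    have hF3 : Sqw_693.F3 Q i X1 X2 (2 * f i) := ⟨F.F.x i, F.F.y i⟩
    have main := Sqw_693.osc_frontier L hF3 hB (F := g)
      (hcont.mono fun w hw => hcdom i w (hfd w hw).1 (hfd w hw).2) ?_ ?_
    · have := main p (hfr p hp hpu) r (hfr r hr hru)
      linarith
    · intro s' hs'
      filter_upwards [hgh, haccH] with y h1 h2 hy
      have hpt : (s', y) ∈ cl Q i := ⟨hs'.mem, hy.1.le, hy.2.le⟩
      have hpu' : (s', y) ∉ Q.un := by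
        refine Sqw_693.frontier_sub D.dis (i := i) ?_
        rw [(Q.isOpen_op i).frontier_eq, closure_op]
        refine ⟨hpt, fun h => ?_⟩
        rcases hs' with h3 | h3
        · exact absurd h.1.1 (by rw [h3]; exact lt_irrefl _)
        · exact absurd h.1.2 (by rw [h3]; exact lt_irrefl _)
      have hd1 := hcdom i _ hpt hpu'
      refine (h1 s' (hdom hd1) (h2 hd1.1.2 s' hd1.1.1 (hother i _ (hcar i _ hpt).1 ?_))).symm
      rw [interior_car]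
      rintro ⟨h3, -⟩
      rcases hs' with h4 | h4
      · rw [h4, G.x1 i] at h3; exact lt_irrefl _ h3.1
      · rw [h4, G.x2 i] at h3; exact lt_irrefl _ h3.2
    · intro t ht
      filter_upwards [hgv, haccV] with x h1 h2 hx
      have hpt : (x, t) ∈ cl Q i := ⟨⟨hx.1.le, hx.2.le⟩, ht.mem⟩
      have hpu' : (x, t) ∉ Q.un := by
        refine Sqw_693.frontier_sub D.dis (i := i) ?_
        rw [(Q.isOpen_op i).frontier_eq, closure_op]
        refine ⟨hpt, fun h => ?_⟩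
        rcases ht with h3 | h3
        · exact absurd h.2.1 (by rw [h3]; exact lt_irrefl _)
        · exact absurd h.2.2 (by rw [h3]; exact lt_irrefl _)
      have hd1 := hcdom i _ hpt hpu'
      refine (h1 t (hdom hd1) ?_).symm
      rcases lt_or_ge t B with htB | htB
      · refine h2 hd1.1.1 t hd1.1.2 (hother i _ (hcar i _ hpt).1 ?_)
        rw [interior_car]
        rintro ⟨-, h3⟩
        rcases ht with h4 | h4
        · rw [h4, G.y1 i] at h3; exact lt_irrefl _ h3.1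
        · rw [h4, G.y2 i] at h3 htB
          have h5 : (sq i).y + (sq i).s ≤ B := by
            by_contra hcon
            rw [min_eq_right (not_le.1 hcon).le] at htB
            exact lt_irrefl _ htB
          rw [min_eq_left h5] at h3
          exact lt_irrefl _ h3.2
      · have htB' : t = B := le_antisymm (hcar i _ hpt).2 htB
        have hU : IsOpen {y' : ℝ | (x, y') ∉ S} := G.cS.isOpen_compl.preimage (by fun_prop)
        have h3 : t ∈ {y' : ℝ | (x, y') ∉ S} ∩ closure (Ioo B T) := by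
          refine ⟨fun h => hd1.2 (Or.inr h), ?_⟩
          rw [closure_Ioo G.BT.ne, htB']
          exact ⟨le_rfl, G.BT.le⟩
        refine closure_mono ?_ (hU.inter_closure h3)
        rintro y' ⟨h4, h5⟩
        exact Or.inr ⟨⟨hd1.1.1, h5⟩, h4⟩
  · -- vertical lines
    filter_upwards [hgv, L.V] with x h1 h2 y y' hyy hseg
    have e1 := hseg y ⟨le_rfl, hyy⟩
    have e2 := hseg y' ⟨hyy, le_rfl⟩
    have hval : ∀ t, (x, t) ∈ (Ioo a b ×ˢ Ioo c T) \ E → ψ (x, t) = g (x, t) := fun t ht =>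
      h1 t (acs_sub G C hSS hJ (Or.inl ht)) (subset_closure (Or.inl ht))
    rw [← hval y e1, ← hval y' e2]
    exact h2 e1.1.1 y y' e1.1.2.1 hyy
  · -- horizontal lines
    filter_upwards [hgh, L.H] with y h1 h2 hyB x x' hxx hseg
    have e1 := hseg x ⟨le_rfl, hxx⟩
    have e2 := hseg x' ⟨hxx, le_rfl⟩
    have hval : ∀ t, (t, y) ∈ (Ioo a b ×ˢ Ioo c T) \ E → Ψ (t, y) = g (t, y) := fun t ht =>
      h1 t (acs_sub G C hSS hJ (Or.inl ht)) (subset_closure (Or.inl ht))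
    have hfl : μ {q | q.1 ∈ Ico x x' ∧ q.2 < y} = 0 := by
      rw [measure_eq_zero_iff_ae_notMem]
      filter_upwards [C.ray] with w hw hw2
      exact (hseg w.1 ⟨hw2.1.1, hw2.1.2.le⟩).2 (hw y ⟨hw2.2.le, hyB.trans G.BT⟩)
    rw [← hval x e1, ← hval x' e2, h2 e1.1.2.1 x e1.1.1 x' e2.1.1 hxx, hfl]
    simp

end Crest.Agent.R105.SqH_87
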