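import Crest.Agent.R105.SqJg_361
import Crest.Agent.R105.SqG_87
import Crest.Agent.R105.Gl2_363

/-! Row 105, S0138, Lemma A with exact squares: the join `LowOut + LowOut + GeoC + CarC ⟹ TwoG`
(helper361). -/

set_option autoImplicit false

open MeasureTheory Set Filter Topology Metric
open scoped NNReal ENNReal

namespace Crest.Agent.R105.SqJ_361

open Crest.Agent.R105.CF_363 Crest.Agent.R105.Sq_87 Crest.Agent.R105.Kin_238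
open Crest.Agent.R105.Cq_463 Crest.Agent.R105.Exs_992 Crest.Agent.R105.Stp_722
open Crest.Agent.R105.Nal_649 Crest.Agent.R105.Famq_306
open Crest.Agent.R105.Knq_247 (QQ HalfQ)
open Crest.Agent.R105.Kbx_247
open Crest.Agent.R105.Gl_363
open Crest.Agent.R105.Mp_87 (lam)
open Crest.Agent.R105.Skp2_257 (Comps)

variable {E S : Set (ℝ × ℝ)} {𝒬 𝒬' 𝒬'' : Set Sqr} {𝓗 : Set Hair} {a b c d B Bm Bp T Tl Tu M : ℝ}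
variable {X1 X2 U1 U2 ψ Ψ : ℝ × ℝ → ℝ} {f : {Q : Sqr // Q ∈ 𝒬'} → ℝ}
  {νp νm : {Q : Sqr // Q ∈ 𝒬'} → Measure (ℝ × ℝ)} {μ : Measure (ℝ × ℝ)}
  {J : ℕ → Finset Hair} {z : ℕ → ℝ × ℝ → ℝ} {κ : Hair → ℝ} {r : ℕ → Ix 𝒬' B → ℝ}

/-- one half: the continuous representative -/
theorem LowOut.halfG (hP : BoxP E 𝒬 𝓗 a b c d) (h𝒬 : 𝒬' ⊆ 𝒬)
    (O : LowOut E 𝒬' 𝓗 a b c B X1 X2 f νp νm μ U1 U2 ψ Ψ J z κ r) [IsFiniteMeasure μ]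
    (hS : ∀ Q ∈ 𝒬, Q ∉ 𝒬' → Q.car ⊆ S)
    (G : GeoC E S 𝒬 𝓗 (cutR 𝒬' B) (fun i => i.1.1) a b c B T) (C : CarC E S 𝒬 B T μ) :
    ∃ g, HalfG E S 𝓗 (cutR 𝒬' B) a b c B T U1 U2 μ (fun i => f i.1) ψ g := by
  have hc : Countable (Ix 𝒬' B) := hP.countable h𝒬
  have hSS : volume (Sl E 𝒬' B \ S) = 0 := by
    refine measure_mono_null ?_ (hP.null (B := B) h𝒬)
    rintro p ⟨h1, h2⟩
    refine ⟨h1, fun h => h2 ?_⟩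
    obtain ⟨Q, hQ, hp⟩ := mem_iUnion₂.1 h
    exact hS Q hQ.1 hQ.2 hp
  exact SqH_87.exists_halfG G C hSS O.hJ O.L O.D O.A O.F fun K hK hx hμ =>
    ⟨κ K, (O.T K hK hx hμ).1⟩

theorem LowOut.sq (h𝒬 : ∀ Q ∈ 𝒬', Q.car ⊆ E)
    (O : LowOut E 𝒬' 𝓗 a b c B X1 X2 f νp νm μ U1 U2 ψ Ψ J z κ r) :
    MemLp U1 2 (volume.restrict Eᶜ) ∧ MemLp U2 2 (volume.restrict Eᶜ) := by
  have h1 : Eᶜ ⊆ ((cutR 𝒬' B).un ∪ Sl E 𝒬' B)ᶜ := by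
    rw [compl_subset_compl]
    refine union_subset (fun p hp => ?_) fun p hp => hp.1.1
    obtain ⟨i, hi⟩ := mem_iUnion.1 hp
    exact h𝒬 _ i.1.2 (op_sub_car i hi)
  exact ⟨O.D.V1.mono_measure (Measure.restrict_mono h1 le_rfl),
    O.D.V2.mono_measure (Measure.restrict_mono h1 le_rfl)⟩

variable {Y1 Y2 V1 V2 ψ' Ψ' : ℝ × ℝ → ℝ} {f' : {Q : Sqr // Q ∈ 𝒬''} → ℝ}
  {νp' νm' : {Q : Sqr // Q ∈ 𝒬''} → Measure (ℝ × ℝ)} {ν : Measure (ℝ × ℝ)}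
  {J' : ℕ → Finset Hair} {z' : ℕ → ℝ × ℝ → ℝ} {κ' : Hair → ℝ} {r' : ℕ → Ix 𝒬'' (-Bp) → ℝ}
  {r : ℕ → Ix 𝒬' Bm → ℝ}

/-- **the join** -/
theorem twoG_of (hP : BoxP E 𝒬 𝓗 a b c d) (h𝒬 : 𝒬' ⊆ 𝒬) (h𝒬' : 𝒬'' ⊆ rfS '' 𝒬)
    (O : LowOut E 𝒬' 𝓗 a b c Bm X1 X2 f νp νm μ U1 U2 ψ Ψ J z κ r)
    (O' : LowOut (rf ⁻¹' E) 𝒬'' (reflH 𝓗) a b (-d) (-Bp) Y1 Y2 f' νp' νm' ν V1 V2 ψ' Ψ' J' z' κ' r')
    [IsFiniteMeasure μ] [IsFiniteMeasure ν]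
    (hS : ∀ Q ∈ 𝒬, Q ∉ 𝒬' → Q.car ⊆ S) (hS' : ∀ Q ∈ rfS '' 𝒬, Q ∉ 𝒬'' → Q.car ⊆ rf ⁻¹' S)
    (G : GeoC E S 𝒬 𝓗 (cutR 𝒬' Bm) (fun i => i.1.1) a b c Bm Tl)
    (G' : GeoC (rf ⁻¹' E) (rf ⁻¹' S) (rfS '' 𝒬) (reflH 𝓗) (cutR 𝒬'' (-Bp)) (fun i => i.1.1)
      a b (-d) (-Bp) Tu)
    (C : CarC E S 𝒬 Bm Tl μ) (C' : CarC (rf ⁻¹' E) (rf ⁻¹' S) (rfS '' 𝒬) (-Bp) Tu ν)
    (hab : a < b) (hBd : Bp < d) (hBM : Bm < M) (hMB : M < Bp) (hMl : M < Tl) (hMu : -Tu ≤ Bm)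
    (mass : ν univ = μ univ)
    (marg : ∀ p ∈ Ioo a b ×ˢ Ioo Bm Bp, p.2 < Tl → p ∉ S → lam μ p.1 = lam ν p.1) :
    ∃ g g', TwoG E S 𝒬 𝓗 (cutR 𝒬' Bm) (cutR 𝒬'' (-Bp)) (fun i => i.1.1) (fun i => i.1.1)
      a b c d Bm Bp Tl Tu M U1 U2 ψ Ψ V1 V2 ψ' Ψ' μ ν (fun i => f i.1) (fun i => f' i.1) g g' := by
  obtain ⟨g, hg⟩ := O.halfG hP h𝒬 hS G C
  obtain ⟨g', hg'⟩ := O'.halfG hP.refl h𝒬' hS' G' C'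
  exact ⟨g, g',
    { ab := hab
      Bd := hBd
      BM := hBM
      MB := hMB
      Ml := hMl
      Mu := hMu
      box := hP.box
      G := G
      G' := G'
      C := C
      C' := C'
      H := hg
      H' := hg'
      D := O.H
      D' := O'.H
      mass := mass
      marg := marg
      B1 := O.A.X1B
      B1' := O'.A.X1B
      sX := O.sq fun Q hQ => hP.pic.q.sub Q (h𝒬 hQ)
      sY := O'.sq fun Q hQ => hP.refl.pic.q.sub Q (h𝒬' hQ) }⟩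

end Crest.Agent.R105.SqJ_361
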