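import Crest.Agent.R105.Ins1_306
import Crest.Agent.R105.SqT_361

/-!
# Row 105 (S0138), LEMAQ, helper306: (J2) of 425 #11396: `FamF ⟹ TwoG` (`S = ∅`),
`FamF {K₀.car} ⟹ TwoG` (`S = K₀.car`), `SolF ⟹ TwoG` (`S = comp E Q₀`), with both `LowOut`s.
-/

set_option autoImplicit false

open MeasureTheory Set Filter Topology
open scoped NNReal ENNReal

namespace Crest.Agent.R105.Ins_306

open CF_363 Cq_463 Exs_992 Sq_87 Nal_649 Famq_306 Kbx_247 Gl_363 SqJ_361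
open Skp2_257 (Comps)
open Mp_87 (lam)

variable {E S : Set (ℝ × ℝ)} {𝒬 𝒬' : Set Sqr} {𝓗 : Set Hair} {g : Set (Set (ℝ × ℝ))}
  {a b c d B T Bm Bp M m : ℝ} {Q₀ : Sqr} {K₀ : Hair} {μ ν : Measure (ℝ × ℝ)}

section Fam

variable {X1 X2 : ℝ × ℝ → ℝ} {f : {Q : Sqr // Q ∈ 𝒬} → ℝ}
  {νp νm : {Q : Sqr // Q ∈ 𝒬} → Measure (ℝ × ℝ)}
  {Y1 Y2 : ℝ × ℝ → ℝ} {f' : {Q : Sqr // Q ∈ rfS '' 𝒬} → ℝ}
  {νp' νm' : {Q : Sqr // Q ∈ rfS '' 𝒬} → Measure (ℝ × ℝ)}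

/-- the common part of the two family cases -/
theorem famF_twoG_aux (hP : BoxP E 𝒬 𝓗 a b c d) (hg : FamQ E g Bm Bp) (hab : a < b)
    (hc : c < Bm) (hd : Bp < d) (hGm : Gen 𝒬 Bm) (hGp : Gen 𝒬 Bp)
    (F : FamF E 𝒬 𝓗 g Bm Bp a b c d m X1 X2 f νp νm μ Y1 Y2 f' νp' νm' ν)
    (hS : SatC E S) (hiff : ∀ Q, Q ∈ 𝒬 ↔ Q ∈ 𝒬 ∧ Disjoint Q.car S)
    (C : CarC E S 𝒬 Bm Bp μ) (C' : CarC (rf ⁻¹' E) (rf ⁻¹' S) (rfS '' 𝒬) (-Bp) (-Bm) ν)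
    (hM : Bm < M) (hM' : M < Bp) :
    ∃ U1 U2 ψ Ψ J z κ r V1 V2 ψ' Ψ' J' z' κ' r' h h',
      LowOut E 𝒬 𝓗 a b c Bm X1 X2 f νp νm μ U1 U2 ψ Ψ J z κ r ∧
      LowOut (rf ⁻¹' E) (rfS '' 𝒬) (reflH 𝓗) a b (-d) (-Bp) Y1 Y2 f' νp' νm' ν
        V1 V2 ψ' Ψ' J' z' κ' r' ∧
      TwoG E S 𝒬 𝓗 (cutR 𝒬 Bm) (cutR (rfS '' 𝒬) (-Bp)) (fun i => i.1.1) (fun i => i.1.1)
        a b c d Bm Bp Bp (-Bm) M U1 U2 ψ Ψ V1 V2 ψ' Ψ' μ ν (fun i => f i.1) (fun i => f' i.1)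
        h h' := by
  have hlt := hg.lt
  obtain ⟨U1, U2, ψ, Ψ, J, z, κ, r, O⟩ := famF_low hP hg hab hc (fun Q hQ => (hGm Q hQ).1) F
  obtain ⟨V1, V2, ψ', Ψ', J', z', κ', r', O'⟩ :=
    famF_up hP hg hab hd (fun Q hQ => (hGp Q hQ).2) F
  have f1 : IsFiniteMeasure μ := F.lo.fin
  have f2 : IsFiniteMeasure ν := F.up.fin
  have hiff' := rfS_iff hiff
  obtain ⟨h, h', HG⟩ := twoG_of (M := M) (Tl := Bp) (Tu := -Bm) hP Subset.rfl Subset.rfl O O'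
    (fun Q hQ hQ' => absurd hQ hQ') (fun Q hQ hQ' => absurd hQ hQ')
    (geoC_of hP.pic hP.box hc hlt hS hiff)
    (geoC_up hP.pic hP.box hd (by linarith) hS hiff) C C' hab hd hM hM' hM' (by linarith)
    (by rw [F.m1, F.m2]) (fun p _ _ _ => lam_congr F.marg p.1)
  exact ⟨U1, U2, ψ, Ψ, J, z, κ, r, V1, V2, ψ', Ψ', J', z', κ', r', h, h', O, O', HG⟩

/-- **(i)** families without mass on columns: `S = ∅` -/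
theorem famF_twoG (hP : BoxP E 𝒬 𝓗 a b c d) (hg : FamQ E g Bm Bp) (hab : a < b)
    (hc : c < Bm) (hd : Bp < d) (hGm : Gen 𝒬 Bm) (hGp : Gen 𝒬 Bp)
    (F : FamF E 𝒬 𝓗 g Bm Bp a b c d m X1 X2 f νp νm μ Y1 Y2 f' νp' νm' ν)
    (h1 : ∀ x, μ {q | q.1 = x} = 0) (h2 : ∀ x, ν {q | q.1 = x} = 0)
    (hM : Bm < M) (hM' : M < Bp) :
    ∃ U1 U2 ψ Ψ J z κ r V1 V2 ψ' Ψ' J' z' κ' r' h h',
      LowOut E 𝒬 𝓗 a b c Bm X1 X2 f νp νm μ U1 U2 ψ Ψ J z κ r ∧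
      LowOut (rf ⁻¹' E) (rfS '' 𝒬) (reflH 𝓗) a b (-d) (-Bp) Y1 Y2 f' νp' νm' ν
        V1 V2 ψ' Ψ' J' z' κ' r' ∧
      TwoG E ∅ 𝒬 𝓗 (cutR 𝒬 Bm) (cutR (rfS '' 𝒬) (-Bp)) (fun i => i.1.1) (fun i => i.1.1)
        a b c d Bm Bp Bp (-Bm) M U1 U2 ψ Ψ V1 V2 ψ' Ψ' μ ν (fun i => f i.1) (fun i => f' i.1)
        h h' :=
  famF_twoG_aux hP hg hab hc hd hGm hGp F satC_empty empty_iff
    (carC_fam hP.pic.q hg.sub F.c1 (Or.inl ⟨rfl, h1⟩))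
    (carC_fam (refl_qpic hP.pic.q) (rf_sub_comps hg.sub) (c1_up F.c2)
      (Or.inl ⟨preimage_empty, h2⟩)) hM hM'

/-- **(ii)** one free hair: `S = K₀.car` -/
theorem hairF_twoG (hP : BoxP E 𝒬 𝓗 a b c d) (hg : FamQ E {K₀.car} Bm Bp) (hab : a < b)
    (hc : c < Bm) (hd : Bp < d) (hGm : Gen 𝒬 Bm) (hGp : Gen 𝒬 Bp)
    (F : FamF E 𝒬 𝓗 {K₀.car} Bm Bp a b c d m X1 X2 f νp νm μ Y1 Y2 f' νp' νm' ν)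
    (hM : Bm < M) (hM' : M < Bp) :
    ∃ U1 U2 ψ Ψ J z κ r V1 V2 ψ' Ψ' J' z' κ' r' h h',
      LowOut E 𝒬 𝓗 a b c Bm X1 X2 f νp νm μ U1 U2 ψ Ψ J z κ r ∧
      LowOut (rf ⁻¹' E) (rfS '' 𝒬) (reflH 𝓗) a b (-d) (-Bp) Y1 Y2 f' νp' νm' ν
        V1 V2 ψ' Ψ' J' z' κ' r' ∧
      TwoG E K₀.car 𝒬 𝓗 (cutR 𝒬 Bm) (cutR (rfS '' 𝒬) (-Bp)) (fun i => i.1.1) (fun i => i.1.1)
        a b c d Bm Bp Bp (-Bm) M U1 U2 ψ Ψ V1 V2 ψ' Ψ' μ ν (fun i => f i.1) (fun i => f' i.1)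
        h h' := by
  have hK : K₀.car ∈ Comps E := hg.sub rfl
  obtain ⟨C, C'⟩ := carC_hairF hP.pic hK F
  exact famF_twoG_aux hP hg hab hc hd hGm hGp F (satC_comp hP.pic.q hK) (hair_iff hP.pic.q hK)
    C C' hM hM'

end Fam

section Sol

variable {X1 X2 : ℝ × ℝ → ℝ} {f : {Q : Sqr // Q ∈ 𝒬 \ {Q₀}} → ℝ}
  {νp νm : {Q : Sqr // Q ∈ 𝒬 \ {Q₀}} → Measure (ℝ × ℝ)}
  {Y1 Y2 : ℝ × ℝ → ℝ} {f' : {Q : Sqr // Q ∈ rfS '' (𝒬 \ {Q₀})} → ℝ}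
  {νp' νm' : {Q : Sqr // Q ∈ rfS '' (𝒬 \ {Q₀})} → Measure (ℝ × ℝ)}

/-- **(iii)** one solid: `S = comp E Q₀`, levels `B < Bp`, `Tl` = top of the square, `Tu = -B` -/
theorem solF_twoG (hP : BoxP E 𝒬 𝓗 a b c d) (hQ₀ : Q₀ ∈ 𝒬) (hab : a < b) (hc : c < B)
    (hd : Bp < d) (hG : Gen 𝒬 B) (hGp : Gen 𝒬 Bp) (hB : Q₀.y < B) (hB' : B < Q₀.y + Q₀.s)
    (hBp : Q₀.y + Q₀.s < Bp)
    (F : SolF E 𝒬 𝓗 Q₀ B Bp a b c d X1 X2 f νp νm μ Y1 Y2 f' νp' νm' ν)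
    (hM : B < M) (hM' : M < Q₀.y + Q₀.s) :
    ∃ U1 U2 ψ Ψ J z κ r V1 V2 ψ' Ψ' J' z' κ' r' h h',
      LowOut E (𝒬 \ {Q₀}) 𝓗 a b c B X1 X2 f νp νm μ U1 U2 ψ Ψ J z κ r ∧
      LowOut (rf ⁻¹' E) (rfS '' (𝒬 \ {Q₀})) (reflH 𝓗) a b (-d) (-Bp) Y1 Y2 f' νp' νm' ν
        V1 V2 ψ' Ψ' J' z' κ' r' ∧
      TwoG E (comp E Q₀) 𝒬 𝓗 (cutR (𝒬 \ {Q₀}) B) (cutR (rfS '' (𝒬 \ {Q₀})) (-Bp))
        (fun i => i.1.1) (fun i => i.1.1) a b c d B Bp (Q₀.y + Q₀.s) (-B) M U1 U2 ψ Ψ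
        V1 V2 ψ' Ψ' μ ν (fun i => f i.1) (fun i => f' i.1) h h' := by
  have hE := hP.pic.q
  have hcm := SkT1_137.comp_mem hE hQ₀
  obtain ⟨U1, U2, ψ, Ψ, J, z, κ, r, O⟩ :=
    solF_low hP hQ₀ hab hc hB'.le (fun Q hQ => (hG Q hQ).1) F
  obtain ⟨V1, V2, ψ', Ψ', J', z', κ', r', O'⟩ :=
    solF_up hP hQ₀ hab hd hBp (fun Q hQ => (hGp Q hQ).2) F
  have f1 : IsFiniteMeasure μ := F.lo.fin
  have f2 : IsFiniteMeasure ν := F.up.fin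
  have hS := satC_comp hE hcm
  have hiff := sol_iff hE hQ₀
  have hiff' := rfS_iff hiff
  have hout : ∀ Q ∈ 𝒬, Q ∉ 𝒬 \ {Q₀} → Q.car ⊆ comp E Q₀ := by
    intro Q hQ hQ'
    have h1 : Q = Q₀ := by
      by_contra h
      exact hQ' ⟨hQ, h⟩
    rw [h1]
    exact SkT1_137.car_sub_comp hE hQ₀
  have hout' : ∀ Q ∈ rfS '' 𝒬, Q ∉ rfS '' (𝒬 \ {Q₀}) → Q.car ⊆ rf ⁻¹' comp E Q₀ := by
    intro Q hQ hQ'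
    rw [mem_rfS] at hQ hQ'
    have h1 := hout _ hQ hQ'
    intro p hp
    exact h1 (mem_car_rfS.2 (by simpa using hp))
  obtain ⟨h, h', HG⟩ := twoG_of (M := M) (Tl := Q₀.y + Q₀.s) (Tu := -B) hP sdiff_subset
    (image_mono sdiff_subset) O O' hout hout'
    (geoC_of hP.pic hP.box hc hB' hS hiff)
    (geoC_up hP.pic hP.box hd (by linarith) hS hiff)
    (carC_sol_lo hE hQ₀ F.c1) (carC_sol_up hP.pic hQ₀ hB.le F.c2) hab hd hM (by linarith) hM'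
    (by linarith) (by rw [F.m1, F.m2]) (fun p hp h2 h3 =>
      marg_sol hP.pic hQ₀ hB.le F.m1 F.m2 F.c1 F.c2 hp.2.1 h2 h3)
  exact ⟨U1, U2, ψ, Ψ, J, z, κ, r, V1, V2, ψ', Ψ', J', z', κ', r', h, h', O, O', HG⟩

end Sol

end Crest.Agent.R105.Ins_306
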