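import Crest.Agent.R105.Bd1_775

/-!
# Row 105, S0138 : absolute continuity of the image measures (helper252)

`a`, `b` locally Lipschitz on the open set `O` of the plane.
* `wdg_ae_zero` : `Z ⊆ ℝ × ℝ` null ⟹ `da ∧ db = 0` a.e. on `{(a,b) ∈ Z}`
* `grad_ae_zero` : `Z ⊆ ℝ` null ⟹ `∇a = 0` a.e. on `{a ∈ Z}`
-/

set_option autoImplicit false

open MeasureTheory Set Filter Topology Metric
open scoped NNReal ENNReal

namespace Crest.Agent.R105.IsoD_252

open Bd_775

noncomputable section

section General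
variable {E : Type*} [NormedAddCommGroup E] [NormedSpace ℝ E] [FiniteDimensional ℝ E]
  [MeasurableSpace E] [BorelSpace E] [Nontrivial E] (μ : Measure E) [μ.IsAddHaarMeasure]

include μ in
/-- general form: `f` differentiable with invertible derivative at every point of `s`, `f` maps `s`
into a null set ⟹ `s` is null -/
theorem null_of_invertible {s : Set E} {f : E → E}
    {f' : E → E →L[ℝ] E} (hs : MeasurableSet s)
    (hf' : ∀ x ∈ s, HasFDerivWithinAt f (f' x) s x) (hdet : ∀ x ∈ s, (f' x).det ≠ 0)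
    (h0 : μ (f '' s) = 0) : μ s = 0 := by
  classical
  set r : (E →L[ℝ] E) → ℝ≥0 := fun A =>
    if h : ∃ B : E ≃L[ℝ] E, (B : E →L[ℝ] E) = A then
      ‖((Classical.choose h).symm : E →L[ℝ] E)‖₊⁻¹ / 2 else 1 with hr
  have hpos : ∀ B : E ≃L[ℝ] E, 0 < ‖(B.symm : E →L[ℝ] E)‖₊⁻¹ := fun B => by
    have : (B.symm : E →L[ℝ] E) ≠ 0 := by
      intro h
      obtain ⟨x, hx⟩ := exists_ne (0 : E)
      have h1 : (B.symm : E →L[ℝ] E) (B x) = 0 := by rw [h]; rfl
      exact hx ((B.symm_apply_apply x).symm.trans h1)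
    rw [inv_pos, nnnorm_pos]; exact this
  have rpos : ∀ A, r A ≠ 0 := by
    intro A
    simp only [hr]
    split_ifs with h
    · exact (half_pos (hpos _)).ne'
    · exact one_ne_zero
  obtain ⟨t, A, -, ht, hst, happ, hA⟩ :=
    exists_partition_approximatesLinearOn_of_hasFDerivWithinAt f s f' hf' r rpos
  have key : ∀ n, μ (s ∩ t n) = 0 := by
    intro n
    rcases s.eq_empty_or_nonempty with h | hne
    · simp [h]
    obtain ⟨y, hy, hAy⟩ := hA hne n
    have hinv : ∃ B : E ≃L[ℝ] E, (B : E →L[ℝ] E) = A n := by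
      refine ⟨(A n).toContinuousLinearEquivOfDetNeZero ?_, ?_⟩
      · rw [hAy]; exact hdet y hy
      · exact ContinuousLinearMap.coe_toContinuousLinearEquivOfDetNeZero _ _
    obtain ⟨B, hB, hrB⟩ : ∃ B : E ≃L[ℝ] E, (B : E →L[ℝ] E) = A n ∧
        r (A n) = ‖(B.symm : E →L[ℝ] E)‖₊⁻¹ / 2 := by
      refine ⟨Classical.choose hinv, Classical.choose_spec hinv, ?_⟩
      simp only [hr]; rw [dif_pos hinv]
    have happn := happ n
    rw [hrB, ← hB] at happn
    have hinj : InjOn f (s ∩ t n) := by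
      refine happn.injOn (Or.inr ?_)
      exact half_lt_self (hpos _)
    have hm : MeasurableSet (s ∩ t n) := hs.inter (ht n)
    have h1 : ∫⁻ x in s ∩ t n, ENNReal.ofReal |(f' x).det| ∂μ = μ (f '' (s ∩ t n)) :=
      lintegral_abs_det_fderiv_eq_addHaar_image μ hm
        (fun x hx => (hf' x hx.1).mono inter_subset_left) hinj
    have h2 : μ (f '' (s ∩ t n)) = 0 := measure_mono_null (image_mono inter_subset_left) h0
    rw [h2] at h1
    have haem : AEMeasurable (fun x => ENNReal.ofReal |(f' x).det|) (μ.restrict (s ∩ t n)) :=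
      aemeasurable_ofReal_abs_det_fderivWithin μ hm
        (fun x hx => (hf' x hx.1).mono inter_subset_left)
    rw [lintegral_eq_zero_iff' haem, Filter.EventuallyEq, ae_restrict_iff' hm] at h1
    refine measure_mono_null (fun x hx => ?_) (ae_iff.1 h1)
    simp only [mem_ofPred_eq, Classical.not_imp]
    refine ⟨hx, ?_⟩
    simp only [Pi.zero_apply, ENNReal.ofReal_eq_zero, not_le, abs_pos]
    exact hdet x hx.1
  refine measure_mono_null (fun x hx => ?_) (measure_iUnion_null key)
  obtain ⟨n, hn⟩ := mem_iUnion.1 (hst hx)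
  exact mem_iUnion.2 ⟨n, hx, hn⟩

end General

/-- the pair as a map of the plane -/
def pr (a b : ℂ → ℝ) (z : ℂ) : ℂ := ⟨a z, b z⟩

lemma pr_eq (a b : ℂ → ℝ) (z : ℂ) : pr a b z = a z • (1 : ℂ) + b z • Complex.I := by
  apply Complex.ext <;> simp [pr]

/-- derivative of the pair -/
def dpr (a b : ℂ → ℝ) (z : ℂ) : ℂ →L[ℝ] ℂ :=
  (fderiv ℝ a z).smulRight (1 : ℂ) + (fderiv ℝ b z).smulRight Complex.I

lemma hasFDerivAt_pr {a b : ℂ → ℝ} {z : ℂ} (ha : DifferentiableAt ℝ a z)
    (hb : DifferentiableAt ℝ b z) : HasFDerivAt (pr a b) (dpr a b z) z := by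
  have h := (ha.hasFDerivAt.smul_const (1 : ℂ)).add (hb.hasFDerivAt.smul_const Complex.I)
  refine h.congr_of_eventuallyEq (Eventually.of_forall fun w => ?_)
  simp only [pr_eq, Pi.add_apply]

lemma det_dpr (a b : ℂ → ℝ) (z : ℂ) : (dpr a b z).det = wdg a b z := by
  have h : (dpr a b z).det = LinearMap.det ((dpr a b z : ℂ →L[ℝ] ℂ) : ℂ →ₗ[ℝ] ℂ) := rfl
  rw [h, ← LinearMap.det_toMatrix Complex.basisOneI, Matrix.det_fin_two]
  simp [LinearMap.toMatrix_apply, dpr, wdg, gx, gy]

lemma prod_null {Z : Set (ℝ × ℝ)} (hZ : volume Z = 0) :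
    volume {w : ℂ | (w.re, w.im) ∈ Z} = 0 := by
  have := Complex.volume_preserving_equiv_real_prod.measure_preimage_equiv Z
  rw [hZ] at this
  exact this

lemma measurable_ind {O : Set ℂ} (hO : IsOpen O) {a : ℂ → ℝ} (ha : ContinuousOn a O) :
    Measurable (O.indicator a) := by
  classical
  rw [← piecewise_eq_indicator]
  exact ha.measurable_piecewise continuousOn_const hO.measurableSet

/-- **(AC2)** -/
theorem wdg_ae_zero {O : Set ℂ} (hO : IsOpen O) {a b : ℂ → ℝ} (ha : LocallyLipschitzOn O a)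
    (hb : LocallyLipschitzOn O b) {Z : Set (ℝ × ℝ)} (hZ : volume Z = 0) :
    ∀ᵐ z ∂(volume.restrict O), (a z, b z) ∈ Z → wdg a b z = 0 := by
  classical
  set Z' := toMeasurable volume Z with hZ'
  have hZ'0 : volume Z' = 0 := by rw [hZ', measure_toMeasurable]; exact hZ
  have hZ'm : MeasurableSet Z' := measurableSet_toMeasurable _ _
  have ham : Measurable (O.indicator a) := by
    have h1 : ContinuousOn a O := ha.continuousOn
    exact measurable_ind hO h1
  have hbm : Measurable (O.indicator b) := by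
    have h1 : ContinuousOn b O := hb.continuousOn
    exact measurable_ind hO h1
  set s : Set ℂ := {z | z ∈ O ∧ DifferentiableAt ℝ a z ∧ DifferentiableAt ℝ b z ∧
    (O.indicator a z, O.indicator b z) ∈ Z' ∧ wdg a b z ≠ 0} with hs
  have hsm : MeasurableSet s := by
    refine hO.measurableSet.inter ((measurableSet_of_differentiableAt ℝ a).inter
      ((measurableSet_of_differentiableAt ℝ b).inter (MeasurableSet.inter ?_ ?_)))
    · exact (ham.prodMk hbm) hZ'm
    · exact (measurable_wdg a b) (measurableSet_singleton (0 : ℝ)).compl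
  have h0 : volume s = 0 := by
    refine null_of_invertible volume hsm (f := pr a b) (f' := dpr a b)
      (fun x hx => (hasFDerivAt_pr hx.2.1 hx.2.2.1).hasFDerivWithinAt)
      (fun x hx => by rw [det_dpr]; exact hx.2.2.2.2) ?_
    refine measure_mono_null ?_ (prod_null hZ'0)
    rintro _ ⟨z, hz, rfl⟩
    have h1 := hz.2.2.2.1
    rw [indicator_of_mem hz.1, indicator_of_mem hz.1] at h1
    exact h1
  have h1 : ∀ᵐ z ∂(volume.restrict O), z ∉ s :=
    ae_restrict_of_ae (measure_eq_zero_iff_ae_notMem.1 h0)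
  filter_upwards [h1, ae_diff hO ha, ae_diff hO hb, ae_restrict_mem hO.measurableSet]
    with z hz hda hdb hzO hzZ
  by_contra hw
  refine hz ⟨hzO, hda, hdb, ?_, hw⟩
  rw [indicator_of_mem hzO, indicator_of_mem hzO]
  exact subset_toMeasurable _ _ hzZ

/-- **(AC1)** -/
theorem grad_ae_zero {O : Set ℂ} (hO : IsOpen O) {a : ℂ → ℝ} (ha : LocallyLipschitzOn O a)
    {Z : Set ℝ} (hZ : volume Z = 0) :
    ∀ᵐ z ∂(volume.restrict O), a z ∈ Z → gx a z = 0 ∧ gy a z = 0 := by
  have hre : LocallyLipschitzOn O Complex.re :=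
    (Complex.reCLM.lipschitz.locallyLipschitz).locallyLipschitzOn
  have him : LocallyLipschitzOn O Complex.im :=
    (Complex.imCLM.lipschitz.locallyLipschitz).locallyLipschitzOn
  have hZ2 : volume (Z ×ˢ (univ : Set ℝ)) = 0 := by
    rw [Measure.volume_eq_prod, Measure.prod_prod, hZ, zero_mul]
  have hgre : ∀ z, gx Complex.re z = 1 ∧ gy Complex.re z = 0 := fun z => by
    have : fderiv ℝ Complex.re z = Complex.reCLM := Complex.reCLM.hasFDerivAt.fderiv
    unfold gx gy; rw [this]; simp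
  have hgim : ∀ z, gx Complex.im z = 0 ∧ gy Complex.im z = 1 := fun z => by
    have : fderiv ℝ Complex.im z = Complex.imCLM := Complex.imCLM.hasFDerivAt.fderiv
    unfold gx gy; rw [this]; simp
  filter_upwards [wdg_ae_zero hO ha hre hZ2, wdg_ae_zero hO ha him hZ2] with z h1 h2 hz
  have h3 := h1 ⟨hz, mem_univ _⟩
  have h4 := h2 ⟨hz, mem_univ _⟩
  unfold wdg at h3 h4
  rw [(hgre z).1, (hgre z).2] at h3
  rw [(hgim z).1, (hgim z).2] at h4
  constructor <;> linarith

end

end Crest.Agent.R105.IsoD_252
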