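import Mathlib

/-!
# Row 105, ISO (helper909), part 1: one-variable facts

* `lusinN` : the image of a null set under an indefinite integral is null
* `deriv_zero_of_null` : `u' = 0` a.e. on `u⁻¹(N)`, `N` null (no hypothesis on `u`)
* `fderiv_zero_of_null` : the same for functions of two variables (on `ℂ`)
* `exists_flat` : for a compact null set `N` of values: 1-Lipschitz monotone `h` with `h' = 0` near `N`,
  `|h s - s| ≤ ε`, `h' = 1` off a set of small measure
-/

set_option autoImplicit false

open MeasureTheory Set Filter Topology Metric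
open scoped NNReal ENNReal

namespace Crest.Agent.R105.Isx_909

/-- image of a null set under an absolutely continuous function is null -/
theorem lusinN {F v : ℝ → ℝ} (hv : ∀ a b, IntervalIntegrable v volume a b)
    (hF : ∀ a b, F b - F a = ∫ x in a..b, v x) {S : Set ℝ} (hS : volume S = 0) :
    volume (F '' S) = 0 := by
  have hva : ∀ a b, IntervalIntegrable (fun x => |v x|) volume a b := fun a b => (hv a b).abs
  let G : StieltjesFunction ℝ :=
    { toFun := fun x => ∫ t in (0:ℝ)..x, |v t|
      mono' := by
        intro a b hab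
        have h1 := intervalIntegral.integral_add_adjacent_intervals (hva 0 a) (hva a b)
        have h2 : 0 ≤ ∫ t in a..b, |v t| :=
          intervalIntegral.integral_nonneg hab fun x _ => abs_nonneg _
        simp only []
        linarith
      right_continuous' := by
        intro x
        have := intervalIntegral.continuous_primitive hva 0
        exact this.continuousAt.continuousWithinAt }
  have hG : ∀ a b, G b - G a = ∫ t in a..b, |v t| := fun a b => by
    have h1 := intervalIntegral.integral_add_adjacent_intervals (hva 0 a) (hva a b)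
    change (∫ t in (0:ℝ)..b, |v t|) - (∫ t in (0:ℝ)..a, |v t|) = _
    linarith
  -- comparison of outer measures
  have h1 : OuterMeasure.comap F (volume : Measure ℝ).toOuterMeasure ≤ G.outer := by
    unfold StieltjesFunction.outer
    rw [OuterMeasure.le_ofFunction]
    intro s
    rw [StieltjesFunction.length_eq]
    refine le_iInf fun a => le_iInf fun b => le_iInf fun h => ?_
    have hs : s ⊆ Ioc a b := by
      intro x hx
      apply h
      refine ⟨hx, ?_⟩
      intro hb
      exact absurd (hb (x - 1)) (by simp)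
    rw [OuterMeasure.comap_apply]
    change volume (F '' s) ≤ _
    refine (Real.volume_le_diam _).trans ?_
    refine Metric.ediam_le ?_
    rintro _ ⟨x, hx, rfl⟩ _ ⟨y, hy, rfl⟩
    rw [edist_dist, Real.dist_eq]
    apply ENNReal.ofReal_le_ofReal
    rw [hF y x, hG]
    have hx' := hs hx
    have hy' := hs hy
    rw [← Real.norm_eq_abs]
    refine (intervalIntegral.norm_integral_le_integral_norm_uIoc).trans ?_
    simp only [Real.norm_eq_abs]
    rw [intervalIntegral.integral_of_le (hx'.1.le.trans hx'.2)]
    refine setIntegral_mono_set ?_ ?_ ?_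
    · have := hva a b
      rw [intervalIntegrable_iff_integrableOn_Ioc_of_le (hx'.1.le.trans hx'.2)] at this
      exact this
    · exact Eventually.of_forall fun x => abs_nonneg _
    · apply LE.le.eventuallyLE
      intro t ht
      rw [uIoc, mem_Ioc] at ht
      exact ⟨lt_of_le_of_lt (le_min hy'.1.le hx'.1.le) ht.1, ht.2.trans (max_le hy'.2 hx'.2)⟩
  -- the Stieltjes measure is absolutely continuous
  have h2 : G.measure = (volume : Measure ℝ).withDensity fun x => ENNReal.ofReal |v x| := by
    refine Measure.ext_of_Ioc _ _ fun a b hab => ?_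
    rw [StieltjesFunction.measure_Ioc, hG, withDensity_apply _ measurableSet_Ioc,
      intervalIntegral.integral_of_le hab.le, ofReal_integral_eq_lintegral_ofReal]
    · have := hva a b
      rw [intervalIntegrable_iff_integrableOn_Ioc_of_le hab.le] at this
      exact this
    · exact Eventually.of_forall fun x => abs_nonneg _
  have h3 : G.measure S = 0 := by
    rw [h2]
    exact withDensity_absolutelyContinuous _ _ hS
  have h4 : G.outer S = 0 := by
    rw [← h3, StieltjesFunction.measure]
    rfl
  have h5 := h1 S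
  rw [h4, OuterMeasure.comap_apply] at h5
  exact le_antisymm h5 zero_le

/-- `u' = 0` a.e. on the preimage of a null set -/
theorem deriv_zero_of_null {u : ℝ → ℝ} {N : Set ℝ} (hN : volume N = 0) :
    ∀ᵐ x, DifferentiableAt ℝ u x → u x ∈ N → deriv u x = 0 := by
  set A : Set ℝ := {x | DifferentiableAt ℝ u x ∧ u x ∈ N ∧ deriv u x ≠ 0} with hA
  suffices h : volume A = 0 by
    have h' : ∀ᵐ x, x ∉ A := by
      rw [ae_iff]; simpa using h
    filter_upwards [h'] with x hx h1 h2
    by_contra h3
    exact hx ⟨h1, h2, h3⟩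
  classical
  obtain ⟨t, B, -, -, hst, happ, hB⟩ := exists_partition_approximatesLinearOn_of_hasFDerivWithinAt
    u A (fun x => fderiv ℝ u x) (fun x hx => hx.1.hasFDerivAt.hasFDerivWithinAt)
    (fun L => if L 1 = 0 then 1 else ‖L 1‖₊ / 2) (by
      intro L
      by_cases h : L 1 = 0
      · simp [h]
      · simp only [h, if_false]
        have : ‖L 1‖₊ ≠ 0 := by simpa using h
        positivity)
  have hpiece : ∀ n, volume (A ∩ t n) = 0 := by
    intro n
    rcases (A ∩ t n).eq_empty_or_nonempty with he | hne
    · rw [he]; simp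
    obtain ⟨y, hy, hBy⟩ := hB (hne.mono inter_subset_left) n
    have hB1 : B n 1 ≠ 0 := by
      rw [hBy, fderiv_apply_one_eq_deriv]
      exact hy.2.2
    have happ' := happ n
    simp only [hB1, if_false] at happ'
    set a := B n 1 with ha
    have hlow : ∀ x ∈ A ∩ t n, ∀ z ∈ A ∩ t n, |x - z| ≤ 2 / |a| * |u x - u z| := by
      intro x hx z hz
      have h1 := happ' x hx z hz
      have h2 : B n (x - z) = (x - z) * a := by
        have : x - z = (x - z) • (1 : ℝ) := by simp
        conv_lhs => rw [this]
        rw [map_smul, smul_eq_mul]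
      rw [h2, Real.norm_eq_abs, Real.norm_eq_abs] at h1
      have h3 : ((‖a‖₊ / 2 : ℝ≥0) : ℝ) = |a| / 2 := by simp
      rw [h3] at h1
      have ha0 : 0 < |a| := abs_pos.2 hB1
      have h4 : |x - z| * |a| ≤ |u x - u z| + |a| / 2 * |x - z| := by
        calc |x - z| * |a| = |(x - z) * a| := (abs_mul _ _).symm
          _ = |(u x - u z) - (u x - u z - (x - z) * a)| := by congr 1; ring
          _ ≤ |u x - u z| + |u x - u z - (x - z) * a| := abs_sub _ _
          _ ≤ _ := by gcongr
      have h5 : |a| / 2 * |x - z| ≤ |u x - u z| := by nlinarith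
      rw [div_mul_eq_mul_div, le_div_iff₀ ha0]
      nlinarith
    have hinj : InjOn u (A ∩ t n) := by
      intro x hx z hz hxz
      have := hlow x hx z hz
      rw [hxz, sub_self, abs_zero, mul_zero] at this
      exact sub_eq_zero.1 (abs_eq_zero.1 (le_antisymm this (abs_nonneg _)))
    set g := Function.invFunOn u (A ∩ t n) with hg
    have hgl : ∀ x ∈ A ∩ t n, g (u x) = x := fun x hx => hinj.leftInvOn_invFunOn hx
    have hLip : LipschitzOnWith (2 / ‖a‖₊) g (u '' (A ∩ t n)) := by
      refine LipschitzOnWith.of_dist_le_mul ?_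
      rintro _ ⟨x, hx, rfl⟩ _ ⟨z, hz, rfl⟩
      rw [hgl x hx, hgl z hz, Real.dist_eq, Real.dist_eq]
      have := hlow x hx z hz
      simpa using this
    have himg : g '' (u '' (A ∩ t n)) = A ∩ t n := by
      ext x
      constructor
      · rintro ⟨_, ⟨z, hz, rfl⟩, rfl⟩
        rw [hgl z hz]; exact hz
      · intro hx
        exact ⟨u x, ⟨x, hx, rfl⟩, hgl x hx⟩
    have h6 := hLip.hausdorffMeasure_image_le (d := 1) zero_le_one
    rw [himg, MeasureTheory.hausdorffMeasure_real] at h6
    have h7 : volume (u '' (A ∩ t n)) = 0 := by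
      refine measure_mono_null ?_ hN
      rintro _ ⟨x, hx, rfl⟩
      exact hx.1.2.1
    rw [h7, mul_zero] at h6
    exact le_antisymm h6 zero_le
  have : A ⊆ ⋃ n, A ∩ t n := by
    intro x hx
    obtain ⟨n, hn⟩ := mem_iUnion.1 (hst hx)
    exact mem_iUnion.2 ⟨n, hx, hn⟩
  exact measure_mono_null this (measure_iUnion_null hpiece)

/-- gradient version on `ℝ × ℝ` -/
theorem fderiv_zero_of_null' {u : ℝ × ℝ → ℝ} (hu : Measurable u) {N : Set ℝ}
    (hN : volume N = 0) : ∀ᵐ p, DifferentiableAt ℝ u p → u p ∈ N → fderiv ℝ u p = 0 := by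
  set N' := toMeasurable volume N with hN'
  have hN'm : MeasurableSet N' := measurableSet_toMeasurable _ _
  have hN'0 : volume N' = 0 := by rw [hN', measure_toMeasurable]; exact hN
  have hD : MeasurableSet {p | DifferentiableAt ℝ u p} := measurableSet_of_differentiableAt ℝ u
  have key : ∀ v : ℝ × ℝ, MeasurableSet {p | DifferentiableAt ℝ u p ∧ u p ∈ N' ∧
      fderiv ℝ u p v ≠ 0} := by
    intro v
    refine hD.inter ((hu hN'm).inter ?_)
    exact (measurable_fderiv_apply_const ℝ u v) (measurableSet_singleton (0 : ℝ)).compl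
  have h1 : ∀ᵐ p, p ∉ {p | DifferentiableAt ℝ u p ∧ u p ∈ N' ∧ fderiv ℝ u p (1, 0) ≠ 0} := by
    rw [ae_iff]
    simp only [not_not]
    change volume {p | DifferentiableAt ℝ u p ∧ u p ∈ N' ∧ fderiv ℝ u p (1, 0) ≠ 0} = 0
    rw [Measure.volume_eq_prod, Measure.prod_apply_symm (key _), lintegral_eq_zero_iff]
    · refine Eventually.of_forall fun y => ?_
      have := deriv_zero_of_null (u := fun x => u (x, y)) hN'0
      rw [ae_iff] at this
      refine measure_mono_null ?_ this
      rintro x ⟨hx1, hx2, hx3⟩ 
      simp only [mem_ofPred_eq, Classical.not_imp]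
      have hx4 : HasDerivAt (fun s => u (s, y)) (fderiv ℝ u (x, y) (1, 0)) x := by
        have h1 : HasDerivAt (fun s : ℝ => (s, y)) ((1 : ℝ), (0 : ℝ)) x :=
          (hasDerivAt_id x).prodMk (hasDerivAt_const x y)
        exact hx1.hasFDerivAt.comp_hasDerivAt x h1
      exact ⟨hx4.differentiableAt, hx2, by rw [hx4.deriv]; exact hx3⟩
    · exact measurable_measure_prodMk_right (key _)
  have h2 : ∀ᵐ p, p ∉ {p | DifferentiableAt ℝ u p ∧ u p ∈ N' ∧ fderiv ℝ u p (0, 1) ≠ 0} := by
    rw [ae_iff]
    simp only [not_not]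
    change volume {p | DifferentiableAt ℝ u p ∧ u p ∈ N' ∧ fderiv ℝ u p (0, 1) ≠ 0} = 0
    rw [Measure.volume_eq_prod, Measure.prod_apply (key _), lintegral_eq_zero_iff]
    · refine Eventually.of_forall fun x => ?_
      have := deriv_zero_of_null (u := fun y => u (x, y)) hN'0
      rw [ae_iff] at this
      refine measure_mono_null ?_ this
      rintro y ⟨hx1, hx2, hx3⟩
      simp only [mem_ofPred_eq, Classical.not_imp]
      have hx4 : HasDerivAt (fun s => u (x, s)) (fderiv ℝ u (x, y) (0, 1)) y := by
        have h1 : HasDerivAt (fun s : ℝ => (x, s)) ((0 : ℝ), (1 : ℝ)) y :=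
          (hasDerivAt_const y x).prodMk (hasDerivAt_id y)
        exact hx1.hasFDerivAt.comp_hasDerivAt y h1
      exact ⟨hx4.differentiableAt, hx2, by rw [hx4.deriv]; exact hx3⟩
    · exact measurable_measure_prodMk_left (key _)
  filter_upwards [h1, h2] with p hp1 hp2 hd hpN
  have hpN' : u p ∈ N' := subset_toMeasurable _ _ hpN
  ext
  · by_contra h
    exact hp1 ⟨hd, hpN', by simpa using h⟩
  · by_contra h
    exact hp2 ⟨hd, hpN', by simpa using h⟩

/-- gradient version on `ℂ` -/
theorem fderiv_zero_of_null {u : ℂ → ℝ} (hu : Measurable u) {N : Set ℝ}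
    (hN : volume N = 0) : ∀ᵐ z, DifferentiableAt ℝ u z → u z ∈ N → fderiv ℝ u z = 0 := by
  have h1 := fderiv_zero_of_null' (u := fun p => u (Complex.measurableEquivRealProd.symm p))
    (hu.comp Complex.measurableEquivRealProd.symm.measurable) hN
  have h2 := Complex.volume_preserving_equiv_real_prod.quasiMeasurePreserving.ae h1
  filter_upwards [h2] with z hz hd hN
  have e1 : (fun p : ℝ × ℝ => u (Complex.measurableEquivRealProd.symm p)) =
      u ∘ (Complex.equivRealProdCLM.symm : ℝ × ℝ → ℂ) := by
    funext p; rfl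
  have e2 : Complex.measurableEquivRealProd z = Complex.equivRealProdCLM z := rfl
  have e3 : u = (u ∘ (Complex.equivRealProdCLM.symm : ℝ × ℝ → ℂ)) ∘ Complex.equivRealProdCLM := by
    funext w
    simp only [Function.comp_apply, ContinuousLinearEquiv.symm_apply_apply]
  have hd' : DifferentiableAt ℝ (u ∘ (Complex.equivRealProdCLM.symm : ℝ × ℝ → ℂ))
      (Complex.equivRealProdCLM z) := by
    apply DifferentiableAt.comp
    · rw [Complex.equivRealProdCLM.symm_apply_apply]; exact hd
    · exact Complex.equivRealProdCLM.symm.differentiableAt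
  rw [e1, e2] at hz
  have h3 := hz hd' (by simpa using hN)
  rw [e3, fderiv_comp z hd' Complex.equivRealProdCLM.differentiableAt, h3]
  simp

/-! ### flattening functions -/

/-- `∫_0^s 1_O` -/
noncomputable def wO (O : Set ℝ) (s : ℝ) : ℝ := ∫ t in (0:ℝ)..s, O.indicator (fun _ => (1:ℝ)) t

/-- `h' = 0` on `O`, `h' = 1` off `O` -/
noncomputable def flat (O : Set ℝ) (s : ℝ) : ℝ := s - wO O s

theorem ii_ind {O : Set ℝ} (hO : MeasurableSet O) (a b : ℝ) :
    IntervalIntegrable (O.indicator (fun _ => (1:ℝ))) volume a b := by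
  rw [intervalIntegrable_iff]
  have : IntegrableOn (fun _ : ℝ => (1:ℝ)) (uIoc a b) volume :=
    integrableOn_const (by simp [uIoc])
  exact this.indicator hO

theorem wO_sub {O : Set ℝ} (hO : MeasurableSet O) (a b : ℝ) :
    wO O b - wO O a = ∫ t in a..b, O.indicator (fun _ => (1:ℝ)) t := by
  have := intervalIntegral.integral_add_adjacent_intervals (ii_ind hO 0 a) (ii_ind hO a b)
  unfold wO; linarith

theorem wO_bounds {O : Set ℝ} (hO : MeasurableSet O) {a b : ℝ} (hab : a ≤ b) :
    0 ≤ wO O b - wO O a ∧ wO O b - wO O a ≤ b - a := by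
  rw [wO_sub hO]
  constructor
  · exact intervalIntegral.integral_nonneg hab fun x _ => indicator_nonneg (fun _ _ => zero_le_one) _
  · calc ∫ t in a..b, O.indicator (fun _ => (1:ℝ)) t ≤ ∫ t in a..b, (1:ℝ) :=
        intervalIntegral.integral_mono_on hab (ii_ind hO a b) (by simp)
          fun x _ => indicator_le_self' (fun _ _ => zero_le_one) _
      _ = b - a := by simp

theorem lip_wO {O : Set ℝ} (hO : MeasurableSet O) : LipschitzWith 1 (wO O) := by
  refine LipschitzWith.of_dist_le_mul fun a b => ?_
  rw [Real.dist_eq, Real.dist_eq, NNReal.coe_one, one_mul]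
  rcases le_total a b with h | h
  · have := wO_bounds hO h
    rw [abs_sub_comm, abs_of_nonneg this.1, abs_sub_comm a b, abs_of_nonneg (by linarith)]
    exact this.2
  · have := wO_bounds hO h
    rw [abs_of_nonneg this.1, abs_of_nonneg (by linarith)]
    exact this.2

theorem lip_flat {O : Set ℝ} (hO : MeasurableSet O) : LipschitzWith 1 (flat O) := by
  refine LipschitzWith.of_dist_le_mul fun a b => ?_
  rw [Real.dist_eq, Real.dist_eq, NNReal.coe_one, one_mul]
  unfold flat
  rcases le_total a b with h | h
  · have := wO_bounds hO h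
    rw [abs_of_nonpos (by linarith), abs_of_nonpos (by linarith)]
    linarith
  · have := wO_bounds hO h
    rw [abs_of_nonneg (by linarith), abs_of_nonneg (by linarith)]
    linarith

theorem abs_wO_le {O : Set ℝ} (hO : MeasurableSet O) (hf : volume O ≠ ∞) (s : ℝ) :
    |wO O s| ≤ (volume O).toReal := by
  unfold wO
  rw [← Real.norm_eq_abs]
  refine (intervalIntegral.norm_integral_le_integral_norm_uIoc).trans ?_
  have h1 : ∀ t, ‖O.indicator (fun _ => (1:ℝ)) t‖ = O.indicator (fun _ => (1:ℝ)) t := fun t =>
    Real.norm_of_nonneg (indicator_nonneg (fun _ _ => zero_le_one) _)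
  simp only [h1]
  rw [integral_indicator hO, Measure.restrict_restrict hO, setIntegral_const, smul_eq_mul, mul_one,
    Measure.real]
  exact ENNReal.toReal_mono hf (measure_mono inter_subset_left)

theorem flat_locconst {O : Set ℝ} (hO : IsOpen O) {s : ℝ} (hs : s ∈ O) :
    ∀ᶠ t in 𝓝 s, flat O t = flat O s := by
  obtain ⟨r, hr, hrO⟩ := Metric.isOpen_iff.1 hO s hs
  filter_upwards [ball_mem_nhds s hr] with t ht
  unfold flat
  have h1 := wO_sub hO.measurableSet s t
  have h2 : ∫ x in s..t, O.indicator (fun _ => (1:ℝ)) x = ∫ x in s..t, (1:ℝ) := by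
    apply intervalIntegral.integral_congr
    intro x hx
    have : x ∈ O := by
      apply hrO
      rw [mem_ball, Real.dist_eq]
      rw [mem_ball, Real.dist_eq] at ht
      have := abs_sub_left_of_mem_uIcc hx
      exact lt_of_le_of_lt this ht
    simp [this]
  rw [h2] at h1
  simp only [intervalIntegral.integral_const, smul_eq_mul, mul_one] at h1
  linarith

theorem ae_hasDerivAt_wO {O : Set ℝ} (hO : MeasurableSet O) :
    ∀ᵐ s, s ∉ O → HasDerivAt (wO O) 0 s := by
  have h1 : LocallyIntegrable (O.indicator (fun _ => (1:ℝ))) volume :=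
    (locallyIntegrable_const (1:ℝ)).indicator hO
  have h2 := LocallyIntegrable.ae_hasDerivAt_integral h1
  filter_upwards [h2] with s hs hsO
  have := hs 0
  rw [indicator_of_notMem hsO] at this
  exact this

end Crest.Agent.R105.Isx_909
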