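import Crest.Agent.R105.Kna6_421
import Crest.Agent.R105.Psq8_425

/-!
Row 105, S0138, lemma A with squares (helper421). Part 7, leaf (J3) of 425: the statements (A), (B),
(C) of `lemaq_of_abc` from the glued functions (`Psq_425.Glue`).
-/

set_option autoImplicit false

open Set Filter MeasureTheory Topology
open scoped ENNReal NNReal

namespace Crest.Agent.R105.Kna_421

open CF_363 Stp_722 Cq_463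
open Hq_363 (TwoQ)
open Sq_87 (Rects)
open Skp2_257 (Lo Up Comps)
open Nal_649 (FamQ Win comp)
open Famq_306 (Gen SqSub isCompact_comp exists_gen)
open Kbx_247 (rfS QA SolF FamF)
open Exs_992 (PicS)
open SkT1_137 (ELS SOLO BNDQ LEMAQ)
open Psq_425 (Glue StrQ)

variable {E P C W N : Set (ℝ × ℝ)} {𝒬 𝒬' : Set Sqr} {𝓗 𝓗₀ : Set Hair}
  {a b c d B a1 b1 r ε Bm Bp m : ℝ} {e e' z : ℝ × ℝ → ℝ} {g S₀ : Set (Set (ℝ × ℝ))}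

/-- **(JA)** the glued function of a single solid -/
def JoinA (E : Set (ℝ × ℝ)) (𝒬 : Set Sqr) (a b c d B Bp : ℝ) (Q0 : Sqr) : Prop :=
  ∃ (ι ι' : Type) (_ : Countable ι) (_ : Countable ι') (L m : ℝ) (Q : Rects ι) (Q' : Rects ι')
    (S S' : Set (ℝ × ℝ)) (X1 X2 ψ Ψ Y1 Y2 ψ' Ψ' : ℝ × ℝ → ℝ) (μ ν : Measure (ℝ × ℝ))
    (_ : IsFiniteMeasure μ) (_ : IsFiniteMeasure ν) (f : ι → ℝ) (f' : ι' → ℝ)
    (F U2 : ℝ × ℝ → ℝ) (o : Sqr → ℝ) (sq : ι → Sqr) (sq' : ι' → Sqr),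
    Glue E 𝒬 {comp E Q0} {comp E Q0} a b c d B Bp L m Q Q' S S' X1 X2 ψ Ψ Y1 Y2 ψ' Ψ' μ ν f f' F
      U2 o sq sq' ∧ 0 < m ∧ (∀ i, sq i ≠ Q0) ∧ ∀ i, sq' i ≠ Q0

/-- **(JB)** the glued function of a single free hair -/
def JoinB (E : Set (ℝ × ℝ)) (𝒬 : Set Sqr) (a b c d Bm Bp : ℝ) (K : Hair) : Prop :=
  ∃ (ι ι' : Type) (_ : Countable ι) (_ : Countable ι') (S₀ : Set (Set (ℝ × ℝ))) (L m : ℝ)
    (Q : Rects ι) (Q' : Rects ι')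
    (S S' : Set (ℝ × ℝ)) (X1 X2 ψ Ψ Y1 Y2 ψ' Ψ' : ℝ × ℝ → ℝ) (μ ν : Measure (ℝ × ℝ))
    (_ : IsFiniteMeasure μ) (_ : IsFiniteMeasure ν) (f : ι → ℝ) (f' : ι' → ℝ)
    (F U2 : ℝ × ℝ → ℝ) (o : Sqr → ℝ) (sq : ι → Sqr) (sq' : ι' → Sqr),
    Glue E 𝒬 {K.car} S₀ a b c d Bm Bp L m Q Q' S S' X1 X2 ψ Ψ Y1 Y2 ψ' Ψ' μ ν f f' F U2 o sq sq' ∧
      0 < m

/-- **(JC)** the glued function of a family without atoms -/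
def JoinC (E : Set (ℝ × ℝ)) (𝒬 : Set Sqr) (a b c d Bm Bp m : ℝ) (g : Set (Set (ℝ × ℝ))) : Prop :=
  ∃ (ι ι' : Type) (_ : Countable ι) (_ : Countable ι') (L : ℝ) (Q : Rects ι) (Q' : Rects ι')
    (S S' : Set (ℝ × ℝ)) (X1 X2 ψ Ψ Y1 Y2 ψ' Ψ' : ℝ × ℝ → ℝ) (μ ν : Measure (ℝ × ℝ))
    (_ : IsFiniteMeasure μ) (_ : IsFiniteMeasure ν) (f : ι → ℝ) (f' : ι' → ℝ)
    (F U2 : ℝ × ℝ → ℝ) (o : Sqr → ℝ) (sq : ι → Sqr) (sq' : ι' → Sqr),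
    Glue E 𝒬 g ∅ a b c d Bm Bp L m Q Q' S S' X1 X2 ψ Ψ Y1 Y2 ψ' Ψ' μ ν f f' F U2 o sq sq' ∧
      ∑' P : 𝒬, o P.1 ^ 2 ≤ 32 * m ∧ (Summable fun i => f i ^ 2) ∧ ∑' i, f i ^ 2 ≤ m ∧
      (Summable fun i => f' i ^ 2) ∧ ∑' i, f' i ^ 2 ≤ m ∧ Function.Injective sq ∧
      Function.Injective sq' ∧ (∀ i, 2 * Q.h2 i ≤ (sq i).s) ∧ ∀ i, 2 * Q'.h2 i ≤ (sq' i).s

/-- **(A)** -/
theorem stepA_of (hP : PicS E 𝒬 𝓗) (hel : ELS StrQ E 𝒬 𝓗)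
    (h : ∀ Q0 ∈ 𝒬, ∀ B Bp, Gen 𝒬 B → Gen 𝒬 Bp → c < B → Q0.y < B → B < Q0.y + Q0.s →
      Q0.y + Q0.s < Bp → Bp < d → ∀ X1 X2 f νp νm μ Y1 Y2 f' νp' νm' ν,
      SolF E 𝒬 𝓗 Q0 B Bp a b c d X1 X2 f νp νm μ Y1 Y2 f' νp' νm' ν →
        JoinA E 𝒬 a b c d B Bp Q0)
    (hbox : E ⊆ Ioo a b ×ˢ Ioo c d) : StepA E 𝒬 𝓗 a b c d := by
  intro Q0 hQ Bp gp hBp hBd
  have hs := Q0.hs
  have hE := hP.q
  obtain ⟨B, gB, h1, h2⟩ := exists_gen hE (show Q0.y < min (Q0.y + Q0.s) (Bp - Q0.s) from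
    lt_min (by linarith) (by linarith))
  have h3 := h2.trans_le (min_le_left _ _)
  have h4 := h2.trans_le (min_le_right _ _)
  refine ⟨B, gB, h1, h3, fun X1 X2 f νp νm μ Y1 Y2 f' νp' νm' ν hF => ?_⟩
  have hcB : c < B := by
    have := (hbox (hE.sub Q0 hQ (Kbx_247.corner_mem Q0))).2.1
    simp only at this
    linarith
  have hcm := SkT1_137.comp_mem hE hQ
  have hcar := SkT1_137.car_sub_comp hE hQ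
  -- the family is one crossing solid
  have hg : FamQ E {comp E Q0} B Bp := by
    refine ⟨by linarith, singleton_subset_iff.2 hcm, ?_, ?_⟩
    · rw [sUnion_singleton]; exact isCompact_comp hE hcm
    · rintro _ rfl
      refine ⟨⟨_, hcar (Kbx_247.corner_mem Q0), h1.le⟩, ?_⟩
      have hne : (ae ν).NeBot := by
        rw [ae_neBot]
        intro h0
        have := hF.m2
        rw [h0] at this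
        simp at this
      obtain ⟨q, hq2, K, hK, hKP, -, hqK, -⟩ := hF.c2.exists
      refine ⟨rf q, hKP hqK, ?_⟩
      rw [rf_snd]; linarith
  obtain ⟨ι, ι', _, _, L, m, Q, Q', S, S', x1, x2, ψ, Ψ, y1, y2, ψ', Ψ', μ1, ν1, _, _, f1, f2, F,
    U2, o, sq, sq', G, hm, e1, e2⟩ := h Q0 hQ B Bp gB gp hcB h1 h3 hBp hBd _ _ _ _ _ _ _ _ _ _ _ _ hF
  have := G.solid hP hel hg hm hQ rfl (mem_singleton _) e1 e2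
  linarith

/-- **(B)** -/
theorem stepB_of (hP : PicS E 𝒬 𝓗) (hel : ELS StrQ E 𝒬 𝓗)
    (h : ∀ K ∈ 𝓗, ∀ Bm Bp, Gen 𝒬 Bm → Gen 𝒬 Bp → FamQ E {K.car} Bm Bp → c < Bm → Bp < d →
      ∀ m X1 X2 f νp νm μ Y1 Y2 f' νp' νm' ν,
      FamF E 𝒬 𝓗 {K.car} Bm Bp a b c d m X1 X2 f νp νm μ Y1 Y2 f' νp' νm' ν →
        JoinB E 𝒬 a b c d Bm Bp K) : StepB E 𝒬 𝓗 a b c d := by
  intro K hK Bm Bp gm gp hg hcm hpd m X1 X2 f νp νm μ Y1 Y2 f' νp' νm' ν hF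
  have hE := hP.q
  obtain ⟨ι, ι', _, _, S₀, L, m, Q, Q', S, S', x1, x2, ψ, Ψ, y1, y2, ψ', Ψ', μ1, ν1, _, _, f1, f2,
    F, U2, o, sq, sq', G, hm⟩ := h K hK Bm Bp gm gp hg hcm hpd _ _ _ _ _ _ _ _ _ _ _ _ _ hF
  refine G.hair hP hel hg hm fun Q hQ hc => ?_
  rw [mem_singleton_iff] at hc
  refine Kbx_247.not_sub_hair (Q := Q) (K := K) ?_
  rw [sUnion_singleton, ← hc]
  exact SkT1_137.car_sub_comp hE hQ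

/-- **(C)** -/
theorem stepC_of (hP : PicS E 𝒬 𝓗) (hel : ELS StrQ E 𝒬 𝓗)
    (h : ∀ g Bm Bp, Gen 𝒬 Bm → Gen 𝒬 Bp → FamQ E g Bm Bp → Win 𝒬 g Bm Bp →
      c < Bm → Bp < d → ∀ m X1 X2 f νp νm μ Y1 Y2 f' νp' νm' ν,
      FamF E 𝒬 𝓗 g Bm Bp a b c d m X1 X2 f νp νm μ Y1 Y2 f' νp' νm' ν →
        (∀ x, μ {q | q.1 = x} = 0) → (∀ x, ν {q | q.1 = x} = 0) →
          JoinC E 𝒬 a b c d Bm Bp m g) : StepC E 𝒬 𝓗 a b c d := by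
  refine ⟨5 * 32 + 20, by norm_num, ?_⟩
  intro g Bm Bp gm gp hg hw hcm hpd m X1 X2 f νp νm μ Y1 Y2 f' νp' νm' ν hF h1 h2 s hs
  obtain ⟨ι, ι', _, _, L, Q, Q', S, S', x1, x2, ψ, Ψ, y1, y2, ψ', Ψ', μ1, ν1, _, _, f1, f2,
    F, U2, o, sq, sq', G, a1, a2, a3, a4, a5, a6, a7, a8, a9⟩ :=
      h g Bm Bp gm gp hg hw hcm hpd _ _ _ _ _ _ _ _ _ _ _ _ _ hF h1 h2
  exact G.family hP hel hg (by norm_num) hs a1 a2 a3 a4 a5 a6 a7 a8 a9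

/-- the frame of the three joins -/
def Frame (T : Set (ℝ × ℝ) → Set Sqr → Set Hair → ℝ → ℝ → ℝ → ℝ → Prop) : Prop :=
  ∀ E 𝒬 𝓗, PicS E 𝒬 𝓗 → DisjH 𝓗 → ∀ a b c d, a < b → c < d → E ⊆ Ioo a b ×ˢ Ioo c d →
    T E 𝒬 𝓗 a b c d

/-- **`LEMAQ StrQ` from the three joins** -/
theorem lemaq_of_joins
    (hA : Frame fun E 𝒬 𝓗 a b c d => ∀ Q0 ∈ 𝒬, ∀ B Bp, Gen 𝒬 B → Gen 𝒬 Bp → c < B → Q0.y < B →
      B < Q0.y + Q0.s → Q0.y + Q0.s < Bp → Bp < d → ∀ X1 X2 f νp νm μ Y1 Y2 f' νp' νm' ν,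
      SolF E 𝒬 𝓗 Q0 B Bp a b c d X1 X2 f νp νm μ Y1 Y2 f' νp' νm' ν →
        JoinA E 𝒬 a b c d B Bp Q0)
    (hB : Frame fun E 𝒬 𝓗 a b c d => ∀ K ∈ 𝓗, ∀ Bm Bp, Gen 𝒬 Bm → Gen 𝒬 Bp →
      FamQ E {K.car} Bm Bp → c < Bm → Bp < d → ∀ m X1 X2 f νp νm μ Y1 Y2 f' νp' νm' ν,
      FamF E 𝒬 𝓗 {K.car} Bm Bp a b c d m X1 X2 f νp νm μ Y1 Y2 f' νp' νm' ν →
        JoinB E 𝒬 a b c d Bm Bp K)
    (hC : Frame fun E 𝒬 𝓗 a b c d => ∀ g Bm Bp, Gen 𝒬 Bm → Gen 𝒬 Bp → FamQ E g Bm Bp →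
      Win 𝒬 g Bm Bp → c < Bm → Bp < d → ∀ m X1 X2 f νp νm μ Y1 Y2 f' νp' νm' ν,
      FamF E 𝒬 𝓗 g Bm Bp a b c d m X1 X2 f νp νm μ Y1 Y2 f' νp' νm' ν →
        (∀ x, μ {q | q.1 = x} = 0) → (∀ x, ν {q | q.1 = x} = 0) →
          JoinC E 𝒬 a b c d Bm Bp m g) : LEMAQ StrQ :=
  lemaq_of_abc
    (fun E 𝒬 𝓗 hP hd hel a b c d hab hcd hbox =>
      stepA_of hP hel (hA E 𝒬 𝓗 hP hd a b c d hab hcd hbox) hbox)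
    (fun E 𝒬 𝓗 hP hd hel a b c d hab hcd hbox =>
      stepB_of hP hel (hB E 𝒬 𝓗 hP hd a b c d hab hcd hbox))
    (fun E 𝒬 𝓗 hP hd hel a b c d hab hcd hbox =>
      stepC_of hP hel (hC E 𝒬 𝓗 hP hd a b c d hab hcd hbox))

end Crest.Agent.R105.Kna_421
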