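import Crest.Agent.R105.Ins2_306
import Crest.Agent.R105.Glu1_832
import Crest.Agent.R105.Gl5_363
import Crest.Agent.R105.Ge6_347
import Crest.Agent.R105.Kna7_421

/-!
# Row 105 (S0138), LEMAQ, helper306: the last joins `JoinA`, `JoinB`, `JoinC` of 421's
`lemaq_of_joins`, hence `LEMAQ StrQ`.
-/

set_option autoImplicit false

open MeasureTheory Set Filter Topology
open scoped NNReal ENNReal

namespace Crest.Agent.R105.Ins_306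

open CF_363 Cq_463 Exs_992 Sq_87 Nal_649 Famq_306 Kbx_247 Gl_363 SqJ_361 Stp_722
open Hq_363 Psq_425 Kna_421
open Skp2_257 (Comps)
open Mp_87 (lam)

/-! ### sums -/

/-- extension by zero along an injective map -/
theorem tsum_emb {ι κ : Type*} {e : ι → κ} (he : Function.Injective e) {h : κ → ℝ}
    (h0 : ∀ k, k ∉ range e → h k = 0) (hs : Summable fun i => h (e i)) :
    Summable h ∧ ∑' k, h k = ∑' i, h (e i) := by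
  refine ⟨(he.summable_iff h0).1 hs, ?_⟩
  refine (he.tsum_eq ?_).symm
  intro k hk
  by_contra hn
  exact hk (h0 k hn)

section Sum

variable {ι ι' : Type} {𝒬 : Set Sqr} {sq : ι → Sqr} {sq' : ι' → Sqr} {f : ι → ℝ} {f' : ι' → ℝ}

theorem chq_of_eq (hi : Function.Injective sq) {i : ι} : chq sq f (sq i) = f i := by
  have h : ∃ j, sq j = sq i := ⟨i, rfl⟩
  unfold chq
  rw [dif_pos h]
  exact congrArg f (hi h.choose_spec)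

theorem chq_of_not {Q : Sqr} (h : ∀ i, sq i ≠ Q) : chq sq f Q = 0 := by
  unfold chq
  rw [dif_neg]
  rintro ⟨i, hi⟩
  exact h i hi

theorem chq_sum (hi : Function.Injective sq) (hm : ∀ i, sq i ∈ 𝒬)
    (hf : Summable fun i => f i ^ 2) :
    (Summable fun Q : 𝒬 => chq sq f Q.1 ^ 2) ∧ ∑' Q : 𝒬, chq sq f Q.1 ^ 2 = ∑' i, f i ^ 2 := by
  have he : Function.Injective fun i => (⟨sq i, hm i⟩ : 𝒬) := fun i j h =>
    hi (congrArg Subtype.val h)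
  have h1 := tsum_emb (h := fun Q : 𝒬 => chq sq f Q.1 ^ 2) he (fun Q hQ => by
    have : chq sq f Q.1 = 0 := chq_of_not fun i h => hQ ⟨i, Subtype.ext h⟩
    simp only [this]; norm_num) (by simpa only [chq_of_eq hi] using hf)
  refine ⟨h1.1, h1.2.trans ?_⟩
  simp only [chq_of_eq hi]

theorem chq_sum' (hi : Function.Injective sq') (hm : ∀ i, rfS (sq' i) ∈ 𝒬)
    (hf : Summable fun i => f' i ^ 2) :
    (Summable fun Q : 𝒬 => chq sq' f' (rfS Q.1) ^ 2) ∧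
      ∑' Q : 𝒬, chq sq' f' (rfS Q.1) ^ 2 = ∑' i, f' i ^ 2 := by
  have he : Function.Injective fun i => (⟨rfS (sq' i), hm i⟩ : 𝒬) := fun i j h =>
    hi (rfS_injective (congrArg Subtype.val h))
  have h1 := tsum_emb (h := fun Q : 𝒬 => chq sq' f' (rfS Q.1) ^ 2) he (fun Q hQ => by
    have : chq sq' f' (rfS Q.1) = 0 := chq_of_not fun i h => hQ ⟨i, Subtype.ext (by
      show rfS (sq' i) = Q.1
      rw [h, rfS_rfS])⟩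
    simp only [this]; norm_num) (by simpa only [rfS_rfS, chq_of_eq hi] using hf)
  refine ⟨h1.1, h1.2.trans ?_⟩
  simp only [rfS_rfS, chq_of_eq hi]

/-- the total charge of the glued function -/
theorem ch_sum (hi : Function.Injective sq) (hm : ∀ i, sq i ∈ 𝒬) (hf : Summable fun i => f i ^ 2)
    (hi' : Function.Injective sq') (hm' : ∀ i, rfS (sq' i) ∈ 𝒬)
    (hf' : Summable fun i => f' i ^ 2) :
    (Summable fun Q : 𝒬 => (4 * chq sq f Q.1 + 4 * chq sq' f' (rfS Q.1)) ^ 2) ∧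
      ∑' Q : 𝒬, (4 * chq sq f Q.1 + 4 * chq sq' f' (rfS Q.1)) ^ 2 ≤
        32 * (∑' i, f i ^ 2 + ∑' i, f' i ^ 2) := by
  obtain ⟨s1, e1⟩ := chq_sum (𝒬 := 𝒬) hi hm hf
  obtain ⟨s2, e2⟩ := chq_sum' (𝒬 := 𝒬) hi' hm' hf'
  have s3 : Summable fun Q : 𝒬 => 32 * chq sq f Q.1 ^ 2 + 32 * chq sq' f' (rfS Q.1) ^ 2 :=
    (s1.mul_left 32).add (s2.mul_left 32)
  have hle : ∀ Q : 𝒬, (4 * chq sq f Q.1 + 4 * chq sq' f' (rfS Q.1)) ^ 2 ≤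
      32 * chq sq f Q.1 ^ 2 + 32 * chq sq' f' (rfS Q.1) ^ 2 := fun Q => by
    nlinarith [sq_nonneg (chq sq f Q.1 - chq sq' f' (rfS Q.1))]
  have s4 : Summable fun Q : 𝒬 => (4 * chq sq f Q.1 + 4 * chq sq' f' (rfS Q.1)) ^ 2 :=
    Summable.of_nonneg_of_le (fun _ => sq_nonneg _) hle s3
  refine ⟨s4, (s4.tsum_le_tsum hle s3).trans (le_of_eq ?_)⟩
  rw [(s1.mul_left 32).tsum_add (s2.mul_left 32), tsum_mul_left, tsum_mul_left, e1, e2]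
  ring

end Sum

/-! ### the glued function -/

section Core

variable {ι ι' : Type} {E S : Set (ℝ × ℝ)} {𝒬 : Set Sqr} {𝓗 : Set Hair} {Q : Rects ι}
  {Q' : Rects ι'} {sq : ι → Sqr} {sq' : ι' → Sqr} {a b c d Bm Bp Tl Tu M : ℝ}
  {X1 X2 ψ Ψ Y1 Y2 ψ' Ψ' : ℝ × ℝ → ℝ} {μ ν : Measure (ℝ × ℝ)} {f : ι → ℝ} {f' : ι' → ℝ}
  {g g' : ℝ × ℝ → ℝ} {gg S₀ : Set (Set (ℝ × ℝ))}
  {np nm : ι → Measure (ℝ × ℝ)} {np' nm' : ι' → Measure (ℝ × ℝ)}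

theorem glue_core [IsFiniteMeasure μ] [IsFiniteMeasure ν] (hP : PicS E 𝒬 𝓗)
    (hg : FamQ E gg Bm Bp)
    (T : TwoG E S 𝒬 𝓗 Q Q' sq sq' a b c d Bm Bp Tl Tu M X1 X2 ψ Ψ Y1 Y2 ψ' Ψ' μ ν f f' g g')
    (C : Ge_347.ChQ Q X1 X2 f np nm) (C' : Ge_347.ChQ Q' Y1 Y2 f' np' nm')
    (la : ∀ i, ∫ p in Q.op i, |X2 p| ≤ 4 * (Q.h2 i * f i))
    (la' : ∀ i, ∫ p in Q'.op i, |Y2 p| ≤ 4 * (Q'.h2 i * f' i))
    (c1 : ∀ᵐ q ∂μ, q ∈ ⋃₀ gg) (c2 : ∀ᵐ q ∂ν, rf q ∈ ⋃₀ gg) (hSg : S ⊆ ⋃₀ gg)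
    (hSf : S₀.Finite) (hS : ∀ P ∈ Comps E, P ∉ S₀ → Disjoint P S) :
    Glue E 𝒬 gg S₀ a b c d Bm Bp M (μ univ).toReal Q Q' ((E ∩ {p | p.2 < Bm}) \ Q.un)
      ((rf ⁻¹' E ∩ {p | p.2 < -Bp}) \ Q'.un) X1 X2 ψ Ψ Y1 Y2 ψ' Ψ' μ ν f f' (glF M g g')
      (Gl_363.W2 X1 Y1) (fun Q₀ => 4 * chq sq f Q₀ + 4 * chq sq' f' (rfS Q₀)) sq
      (fun i => rfS (sq' i)) ∧
    ∑' P : 𝒬, (4 * chq sq f P.1 + 4 * chq sq' f' (rfS P.1)) ^ 2 ≤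
      32 * (∑' i, f i ^ 2 + ∑' i, f' i ^ 2) ∧
    Function.Injective sq ∧ Function.Injective fun i => rfS (sq' i) := by
  have i1 := sq_inj T.G T.D.dis
  have i2 := sq_inj T.G' T.D'.dis
  obtain ⟨hs, hle⟩ := ch_sum (𝒬 := 𝒬) i1 (fun i => (T.G.sqm i).1) C.f2 i2
    (fun i => mem_rfS.1 (T.G'.sqm i).1) C'.f2
  refine ⟨Glu_832.glue_of hP hg T T.twoQ T.glueF (fun Q₀ => ?_) hs C C' la la' c1 c2 hSg hSf hS,
    hle, i1, fun i j h => i2 (rfS_injective h)⟩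
  have h1 := chq_nonneg (sq := sq) T.D.f0 Q₀
  have h2 := chq_nonneg (sq := sq') T.D'.f0 (rfS Q₀)
  positivity

end Core

variable {E : Set (ℝ × ℝ)} {𝒬 𝒬' : Set Sqr} {𝓗 : Set Hair} {g : Set (Set (ℝ × ℝ))}
  {a b c d B Bm Bp m : ℝ} {Q₀ : Sqr} {K₀ : Hair} {μ ν : Measure (ℝ × ℝ)}

theorem two_h2_le {𝒬' : Set Sqr} {B : ℝ} (i : Ix 𝒬' B) : 2 * (cutR 𝒬' B).h2 i ≤ i.1.1.s := by
  simp only [cutR]
  have := min_le_left (i.1.1.y + i.1.1.s) B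
  linarith

section Fam

variable {X1 X2 : ℝ × ℝ → ℝ} {f : {Q : Sqr // Q ∈ 𝒬} → ℝ}
  {νp νm : {Q : Sqr // Q ∈ 𝒬} → Measure (ℝ × ℝ)}
  {Y1 Y2 : ℝ × ℝ → ℝ} {f' : {Q : Sqr // Q ∈ rfS '' 𝒬} → ℝ}
  {νp' νm' : {Q : Sqr // Q ∈ rfS '' 𝒬} → Measure (ℝ × ℝ)}

theorem sub_tsum {ι κ : Type*} {e : κ → ι} (he : Function.Injective e) {f : ι → ℝ}
    (hs : Summable fun i => f i ^ 2) :
    (Summable fun k => f (e k) ^ 2) ∧ ∑' k, f (e k) ^ 2 ≤ ∑' i, f i ^ 2 := by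
  have h1 : Summable fun k => f (e k) ^ 2 := hs.comp_injective he
  refine ⟨h1, ?_⟩
  exact h1.tsum_le_tsum_of_inj e he (fun _ _ => sq_nonneg _) (fun _ => le_rfl) hs

/-- the charges of a family -/
theorem famF_sums
    (F : FamF E 𝒬 𝓗 g Bm Bp a b c d m X1 X2 f νp νm μ Y1 Y2 f' νp' νm' ν) :
    (Summable fun i : Ix 𝒬 Bm => f i.1 ^ 2) ∧
    (Summable fun i : Ix (rfS '' 𝒬) (-Bp) => f' i.1 ^ 2) ∧
    ∑' i : Ix 𝒬 Bm, f i.1 ^ 2 + ∑' i : Ix (rfS '' 𝒬) (-Bp), f' i.1 ^ 2 ≤ m := by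
  obtain ⟨s1, l1⟩ := sub_tsum (e := (Subtype.val : Ix 𝒬 Bm → _)) Subtype.val_injective F.lo.fs
  obtain ⟨s2, l2⟩ := sub_tsum (e := (Subtype.val : Ix (rfS '' 𝒬) (-Bp) → _))
    Subtype.val_injective F.up.fs
  refine ⟨s1, s2, ?_⟩
  have h1 : 0 ≤ ∫ p, X1 p ^ 2 := integral_nonneg fun _ => sq_nonneg _
  have h2 : 0 ≤ ∫ p, X2 p ^ 2 := integral_nonneg fun _ => sq_nonneg _
  have h3 : 0 ≤ ∫ p, Y1 p ^ 2 := integral_nonneg fun _ => sq_nonneg _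
  have h4 : 0 ≤ ∫ p, Y2 p ^ 2 := integral_nonneg fun _ => sq_nonneg _
  have h5 := F.energy
  linarith

theorem fam_c1 (F : FamF E 𝒬 𝓗 g Bm Bp a b c d m X1 X2 f νp νm μ Y1 Y2 f' νp' νm' ν) :
    (∀ᵐ q ∂μ, q ∈ ⋃₀ g) ∧ ∀ᵐ q ∂ν, rf q ∈ ⋃₀ g := by
  constructor
  · filter_upwards [F.c1] with q hq
    obtain ⟨K, -, hKg, hqK, -⟩ := hq
    exact ⟨K.car, hKg, hqK⟩
  · filter_upwards [F.c2] with q hq
    obtain ⟨K, -, hKg, hqK, -⟩ := hq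
    exact ⟨K.car, hKg, hqK⟩

theorem fam_mass (F : FamF E 𝒬 𝓗 g Bm Bp a b c d m X1 X2 f νp νm μ Y1 Y2 f' νp' νm' ν) :
    (μ univ).toReal = m := by
  rw [F.m1, ENNReal.toReal_ofReal F.pos.le]

/-- **JoinC** -/
theorem joinC_of (hP : BoxP E 𝒬 𝓗 a b c d) (hg : FamQ E g Bm Bp) (hab : a < b)
    (hc : c < Bm) (hd : Bp < d) (hGm : Gen 𝒬 Bm) (hGp : Gen 𝒬 Bp)
    (F : FamF E 𝒬 𝓗 g Bm Bp a b c d m X1 X2 f νp νm μ Y1 Y2 f' νp' νm' ν)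
    (h1 : ∀ x, μ {q | q.1 = x} = 0) (h2 : ∀ x, ν {q | q.1 = x} = 0) :
    JoinC E 𝒬 a b c d Bm Bp m g := by
  have hlt := hg.lt
  have f1 : IsFiniteMeasure μ := F.lo.fin
  have f2 : IsFiniteMeasure ν := F.up.fin
  obtain ⟨U1, U2, ψ, Ψ, J, z, κ, r, V1, V2, ψ', Ψ', J', z', κ', r', h, h', O, O', T⟩ :=
    famF_twoG (M := (Bm + Bp) / 2) hP hg hab hc hd hGm hGp F h1 h2 (by linarith) (by linarith)
  obtain ⟨c1, c2⟩ := fam_c1 F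
  obtain ⟨s1, s2, hs⟩ := famF_sums F
  obtain ⟨G, hle, i1, i2⟩ := glue_core (S₀ := ∅) hP.pic hg T (Ge_347.ChQ.of_low F.lo O)
    (Ge_347.ChQ.of_low F.up O') O.la O'.la c1 c2 (empty_subset _) finite_empty
    SqC_832.exempt_empty
  rw [fam_mass F] at G
  have n1 : 0 ≤ ∑' i : Ix 𝒬 Bm, f i.1 ^ 2 := tsum_nonneg fun _ => sq_nonneg _
  have n2 : 0 ≤ ∑' i : Ix (rfS '' 𝒬) (-Bp), f' i.1 ^ 2 := tsum_nonneg fun _ => sq_nonneg _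
  have k1 : Countable (Ix 𝒬 Bm) := countable_Ix hP.pic.q.countable
  have k2 : Countable (Ix (rfS '' 𝒬) (-Bp)) := countable_Ix (hP.pic.q.countable.image _)
  exact ⟨Ix 𝒬 Bm, Ix (rfS '' 𝒬) (-Bp), k1, k2, (Bm + Bp) / 2, _, _, _, _, _, _, _, _, _, _, _, _,
    μ, ν, f1, f2, _, _, _, _, _, _, _, G, hle.trans (by linarith), s1, by linarith, s2,
    by linarith, i1, i2, fun i => two_h2_le i, fun i => two_h2_le i⟩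

/-- **JoinB** -/
theorem joinB_of (hP : BoxP E 𝒬 𝓗 a b c d) (hg : FamQ E {K₀.car} Bm Bp) (hab : a < b)
    (hc : c < Bm) (hd : Bp < d) (hGm : Gen 𝒬 Bm) (hGp : Gen 𝒬 Bp)
    (F : FamF E 𝒬 𝓗 {K₀.car} Bm Bp a b c d m X1 X2 f νp νm μ Y1 Y2 f' νp' νm' ν) :
    JoinB E 𝒬 a b c d Bm Bp K₀ := by
  have hlt := hg.lt
  have f1 : IsFiniteMeasure μ := F.lo.fin
  have f2 : IsFiniteMeasure ν := F.up.fin
  obtain ⟨U1, U2, ψ, Ψ, J, z, κ, r, V1, V2, ψ', Ψ', J', z', κ', r', h, h', O, O', T⟩ :=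
    hairF_twoG (M := (Bm + Bp) / 2) hP hg hab hc hd hGm hGp F (by linarith) (by linarith)
  obtain ⟨c1, c2⟩ := fam_c1 F
  obtain ⟨G, -, -, -⟩ := glue_core (S₀ := {K₀.car}) hP.pic hg T (Ge_347.ChQ.of_low F.lo O)
    (Ge_347.ChQ.of_low F.up O') O.la O'.la c1 c2 (by rw [sUnion_singleton])
    (finite_singleton _) (SqC_832.exempt_one (hg.sub rfl))
  have k1 : Countable (Ix 𝒬 Bm) := countable_Ix hP.pic.q.countable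
  have k2 : Countable (Ix (rfS '' 𝒬) (-Bp)) := countable_Ix (hP.pic.q.countable.image _)
  refine ⟨Ix 𝒬 Bm, Ix (rfS '' 𝒬) (-Bp), k1, k2, {K₀.car}, (Bm + Bp) / 2, _, _, _, _, _, _, _, _, _,
    _, _, _, _, μ, ν, f1, f2, _, _, _, _, _, _, _, G, ?_⟩
  rw [fam_mass F]
  exact F.pos

end Fam

section Sol

variable {X1 X2 : ℝ × ℝ → ℝ} {f : {Q : Sqr // Q ∈ 𝒬 \ {Q₀}} → ℝ}
  {νp νm : {Q : Sqr // Q ∈ 𝒬 \ {Q₀}} → Measure (ℝ × ℝ)}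
  {Y1 Y2 : ℝ × ℝ → ℝ} {f' : {Q : Sqr // Q ∈ rfS '' (𝒬 \ {Q₀})} → ℝ}
  {νp' νm' : {Q : Sqr // Q ∈ rfS '' (𝒬 \ {Q₀})} → Measure (ℝ × ℝ)}

/-- the solid crosses the levels -/
theorem famQ_sol (hE : QPic E 𝒬 𝓗) (hQ₀ : Q₀ ∈ 𝒬) (hB : Q₀.y < B) (hBBp : B < Bp)
    (F : SolF E 𝒬 𝓗 Q₀ B Bp a b c d X1 X2 f νp νm μ Y1 Y2 f' νp' νm' ν) :
    FamQ E {comp E Q₀} B Bp := by
  have hcm := SkT1_137.comp_mem hE hQ₀
  have hcar := SkT1_137.car_sub_comp hE hQ₀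
  refine ⟨hBBp, singleton_subset_iff.2 hcm, ?_, ?_⟩
  · rw [sUnion_singleton]; exact isCompact_comp hE hcm
  · rintro _ rfl
    refine ⟨⟨_, hcar (corner_mem Q₀), hB.le⟩, ?_⟩
    have hne : (ae ν).NeBot := by
      rw [ae_neBot]
      intro h0
      have := F.m2
      rw [h0] at this
      simp at this
    obtain ⟨q, hq2, K, hK, hKP, -, hqK, -⟩ := F.c2.exists
    refine ⟨rf q, hKP hqK, ?_⟩
    rw [rf_snd]; linarith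

/-- **JoinA** -/
theorem joinA_of (hP : BoxP E 𝒬 𝓗 a b c d) (hQ₀ : Q₀ ∈ 𝒬) (hab : a < b) (hc : c < B)
    (hd : Bp < d) (hG : Gen 𝒬 B) (hGp : Gen 𝒬 Bp) (hB : Q₀.y < B) (hB' : B < Q₀.y + Q₀.s)
    (hBp : Q₀.y + Q₀.s < Bp)
    (F : SolF E 𝒬 𝓗 Q₀ B Bp a b c d X1 X2 f νp νm μ Y1 Y2 f' νp' νm' ν) :
    JoinA E 𝒬 a b c d B Bp Q₀ := by
  have hE := hP.pic.q
  have hcm := SkT1_137.comp_mem hE hQ₀
  have f1 : IsFiniteMeasure μ := F.lo.fin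
  have f2 : IsFiniteMeasure ν := F.up.fin
  obtain ⟨U1, U2, ψ, Ψ, J, z, κ, r, V1, V2, ψ', Ψ', J', z', κ', r', h, h', O, O', T⟩ :=
    solF_twoG (M := (B + (Q₀.y + Q₀.s)) / 2) hP hQ₀ hab hc hd hG hGp hB hB' hBp F (by linarith)
      (by linarith)
  have hg := famQ_sol hE hQ₀ hB (by linarith) F
  have c1 : ∀ᵐ q ∂μ, q ∈ ⋃₀ {comp E Q₀} := by
    rw [sUnion_singleton]
    filter_upwards [F.c1] with q hq
    exact SkT1_137.car_sub_comp hE hQ₀ hq.1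
  have c2 : ∀ᵐ q ∂ν, rf q ∈ ⋃₀ {comp E Q₀} := by
    rw [sUnion_singleton]
    filter_upwards [F.c2] with q hq
    obtain ⟨-, K, -, hKP, -, hqK, -⟩ := hq
    exact hKP hqK
  obtain ⟨G, -, -, -⟩ := glue_core (S₀ := {comp E Q₀}) hP.pic hg T (Ge_347.ChQ.of_low F.lo O)
    (Ge_347.ChQ.of_low F.up O') O.la O'.la c1 c2 (by rw [sUnion_singleton])
    (finite_singleton _) (SqC_832.exempt_one hcm)
  have k1 : Countable (Ix (𝒬 \ {Q₀}) B) := countable_Ix (hE.countable.mono sdiff_subset)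
  have k2 : Countable (Ix (rfS '' (𝒬 \ {Q₀})) (-Bp)) :=
    countable_Ix ((hE.countable.mono sdiff_subset).image _)
  refine ⟨Ix (𝒬 \ {Q₀}) B, Ix (rfS '' (𝒬 \ {Q₀})) (-Bp), k1, k2, (B + (Q₀.y + Q₀.s)) / 2, _, _, _,
    _, _, _, _, _, _, _, _, _, _, μ, ν, f1, f2, _, _, _, _, _, _, _, G, ?_, fun i => i.1.2.2,
    fun i h => ?_⟩
  · rw [F.m1]; simp
  · exact (mem_rfS.1 i.1.2).2 h

end Sol

/-- **LEMAQ StrQ** -/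
theorem lemaq : SkT1_137.LEMAQ StrQ :=
  lemaq_of_joins
    (fun E 𝒬 𝓗 hP hdis a b c d hab _ hbox Q₀ hQ₀ B Bp hG hGp hcB hB hB' hBp hBd _ _ _ _ _ _ _ _ _ _
      _ _ F => joinA_of ⟨hP, hdis, hbox⟩ hQ₀ hab hcB hBd hG hGp hB hB' hBp F)
    (fun E 𝒬 𝓗 hP hdis a b c d hab _ hbox K₀ _ Bm Bp hGm hGp hg hc hd _ _ _ _ _ _ _ _ _ _ _ _ _ F =>
      joinB_of ⟨hP, hdis, hbox⟩ hg hab hc hd hGm hGp F)
    (fun E 𝒬 𝓗 hP hdis a b c d hab _ hbox g Bm Bp hGm hGp hg _ hc hd _ _ _ _ _ _ _ _ _ _ _ _ _ F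
      h1 h2 => joinC_of ⟨hP, hdis, hbox⟩ hg hab hc hd hGm hGp F h1 h2)

end Crest.Agent.R105.Ins_306
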