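import Crest.Agent.R105.Kna3_421
import Crest.Agent.R105.Kbx1_247
import Crest.Agent.R105.Famq4_306

/-!
Row 105, S0138, lemma A with squares (helper421): adapter from the box problem of `Knq_247` to the
test functions of `Nal_649`. Part 4: reflection, the upper half, pairs, `BoxOut` of `Famq_306` from
the box problem (`SoloK`, `BndK`).
-/

set_option autoImplicit false

open Set Filter MeasureTheory Topology
open scoped ENNReal NNReal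

namespace Crest.Agent.R105.Kna_421

open CF_363 Kin_238 Stp_722 Cq_463
open Knq_247 (osc QQ Vq EQ Bo Null1 EQ_nonneg)
open Skp2_257 (Lo Up Comps)
open Nal_649 (HalfQ OneNear PairQ FamQ Win comp)
open Famq_306 (BoxLo BoxUp BoxN Gen SoloG BndG BoxOut SqSub isCompact_comp)
open Kbx_247 (rfS rfS_injective car_rfS mem_rfS refl_pic refl_qpic comp_rfS QA)
open Exs_992 (PicS)

variable {E P C W N : Set (ℝ × ℝ)} {𝒬 𝒬' : Set Sqr} {𝓗 𝓗₀ : Set Hair}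
  {a b c d B a1 b1 r ε Bm Bp m : ℝ} {e e' z : ℝ × ℝ → ℝ} {g : Set (Set (ℝ × ℝ))}

/-! ### reflection of charges -/

theorem oscLe_rf {V : Set (ℝ × ℝ)} {f : ℝ × ℝ → ℝ} {k : ℝ} (h : OscLe V P f k) :
    OscLe (rf ⁻¹' V) (rf ⁻¹' P) (fun p => f (rf p)) k := by
  intro ε hε
  obtain ⟨O, hO, hPO, h1⟩ := h ε hε
  exact ⟨rf ⁻¹' O, hO.preimage continuous_rf, preimage_mono hPO,
    fun q hq q' hq' => h1 _ hq _ hq'⟩

theorem oscLe_rf_iff {V : Set (ℝ × ℝ)} {f : ℝ × ℝ → ℝ} {k : ℝ} :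
    OscLe (rf ⁻¹' V) (rf ⁻¹' P) (fun p => f (rf p)) k ↔ OscLe V P f k := by
  refine ⟨fun h => ?_, oscLe_rf⟩
  have := oscLe_rf h
  simpa [← preimage_comp, Function.comp_def] using this

theorem chg_rf (V P : Set (ℝ × ℝ)) (f : ℝ × ℝ → ℝ) :
    chg (rf ⁻¹' V) (rf ⁻¹' P) (fun p => f (rf p)) = chg V P f := by
  unfold chg
  simp only [oscLe_rf_iff]

theorem closure_rf (W : Set (ℝ × ℝ)) : closure (rf ⁻¹' W) = rf ⁻¹' closure W :=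
  ((rfL.toHomeomorph).preimage_closure W).symm

theorem ch_rf (E W : Set (ℝ × ℝ)) (f : ℝ × ℝ → ℝ) (Q : Sqr) :
    ch (rf ⁻¹' E) (rf ⁻¹' W) (fun p => f (rf p)) (rfS Q) = ch E W f Q := by
  unfold ch
  rw [closure_rf, car_rfS]
  exact chg_rf (Eᶜ ∩ W) (Q.car ∩ closure W) f

theorem Ch_rf (E W : Set (ℝ × ℝ)) (𝒬 : Set Sqr) (f : ℝ × ℝ → ℝ) :
    Ch (rf ⁻¹' E) (rf ⁻¹' W) (rfS '' 𝒬) (fun p => f (rf p)) = Ch E W 𝒬 f := by
  unfold Ch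
  rw [← (Equiv.Set.image rfS 𝒬 rfS_injective).tsum_eq]
  refine tsum_congr fun Q => ?_
  show ch (rf ⁻¹' E) (rf ⁻¹' W) (fun p => f (rf p)) (rfS Q.1) ^ 2 = _
  rw [ch_rf]

theorem TQ_rf (E W : Set (ℝ × ℝ)) (𝒬 : Set Sqr) (f : ℝ × ℝ → ℝ) :
    TQ (rf ⁻¹' E) (rf ⁻¹' W) (rfS '' 𝒬) (fun p => f (rf p)) = TQ E W 𝒬 f := by
  unfold TQ
  rw [Ch_rf, ← preimage_sdiff, En_rf]

theorem rf_Up (B : ℝ) : rf ⁻¹' Up B = Lo (-B) := by
  ext p
  show B < -p.2 ↔ p.2 < -B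
  constructor <;> intro h <;> linarith

theorem rf_Lo (B : ℝ) : rf ⁻¹' Lo B = Up (-B) := by
  ext p
  show -p.2 < B ↔ -B < p.2
  constructor <;> intro h <;> linarith

theorem rf_box (a b c d : ℝ) :
    rf ⁻¹' (Ioo a b ×ˢ Ioo c d) = Ioo a b ×ˢ Ioo (-d) (-c) := by
  ext p
  simp only [mem_preimage, mem_prod, rf_fst, rf_snd, mem_Ioo]
  constructor
  · rintro ⟨h1, h2, h3⟩; exact ⟨h1, by linarith, by linarith⟩
  · rintro ⟨h1, h2, h3⟩; exact ⟨h1, by linarith, by linarith⟩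

/-- a lower half of the reflected picture is an upper half -/
theorem half_rf (h : HalfQ (rf ⁻¹' E) (rfS '' 𝒬) (reflH 𝓗) (Lo (-B)) (rf ⁻¹' N) ε z) :
    HalfQ E 𝒬 𝓗 (Up B) N ε (fun p => z (rf p)) where
  cf := by
    rw [← CFJ_refl_iff, rf_Up]
    simpa using h.cf
  rg := fun p => h.rg _
  sp := by
    obtain ⟨S, hS, hSN, h0⟩ := h.sp
    refine ⟨rf ⁻¹' S, ?_, ?_, fun p hp hpS => h0 (rf p) ?_ hpS⟩
    · rw [← rf_image_eq_preimage]; exact hS.image continuous_rf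
    · intro p hp
      have := hSN hp
      simpa using this
    · have : p ∈ rf ⁻¹' (rf ⁻¹' Up B) := by simpa using hp
      rw [rf_Up] at this
      exact this
  en := by
    have h1 := TQ_rf E (Up B) 𝒬 (fun p => z (rf p))
    rw [← h1, rf_Up]
    simpa using h.en

theorem oneNear_rf (h : OneNear (rf ⁻¹' E) (Lo (-B)) (rf ⁻¹' P) z) :
    OneNear E (Up B) P (fun p => z (rf p)) := by
  obtain ⟨O, hO, hPO, h1⟩ := h
  refine ⟨rf ⁻¹' O, hO.preimage continuous_rf, fun p hp => hPO (by simpa using hp),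
    fun p hp hpB => h1 (rf p) ⟨hp.1, by simpa using hp.2⟩ ?_⟩
  show -p.2 < -B
  have : B < p.2 := hpB
  linarith

/-- squares below `B` carry no charge of the upper half -/
theorem ch_up_zero {Q : Sqr} (h : Q.y + Q.s < B) (z : ℝ × ℝ → ℝ) : ch E (Up B) z Q = 0 := by
  have h1 := ch_rf E (Up B) z Q
  rw [← h1, rf_Up]
  exact ch_lo_zero (by simp only [Kbx_247.rfS_y]; linarith) _

theorem half_up_full {z : ℝ × ℝ → ℝ} (hs : 𝒬' ⊆ 𝒬)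
    (h : ∀ Q ∈ 𝒬, Q ∉ 𝒬' → Q.y + Q.s < B) (hz : HalfQ E 𝒬' 𝓗 (Up B) N ε z) :
    HalfQ E 𝒬 𝓗 (Up B) N ε z where
  cf := hz.cf
  rg := hz.rg
  sp := hz.sp
  en := by
    have h1 := hz.en
    unfold TQ at h1 ⊢
    rwa [Ch_sdiff hs fun Q hQ hQ' => ch_up_zero (h Q hQ hQ') z]

theorem reflH_mono (h : 𝓗₀ ⊆ 𝓗) : reflH 𝓗₀ ⊆ reflH 𝓗 := fun _ hK => h hK

/-- the reflected part above `B` -/
theorem rf_part (P : Set (ℝ × ℝ)) (B : ℝ) :
    rf ⁻¹' P ∩ {p | p.2 ≤ -B} = rf ⁻¹' (P ∩ {p | B ≤ p.2}) := by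
  ext p
  simp only [mem_inter_iff, mem_preimage, mem_ofPred_eq, rf_snd]
  constructor
  · rintro ⟨h1, h2⟩; exact ⟨h1, by linarith⟩
  · rintro ⟨h1, h2⟩; exact ⟨h1, by linarith⟩

/-- **the upper half of a null obstacle** -/
theorem boxUp_of_null1 (hP : PicS E 𝒬 𝓗) (hs : 𝒬' ⊆ 𝒬) (h𝓗 : 𝓗₀ ⊆ 𝓗)
    (hbox : E ⊆ Ioo a b ×ˢ Ioo c d) (hab : a < b) (hcB : c < B) (gen : ∀ Q ∈ 𝒬', Q.y + Q.s ≠ B)
    (hPE : P ⊆ E) (h : Null1 (reflH 𝓗₀) a b (-d) (-B) (rf ⁻¹' E) (Qc (rfS '' 𝒬'))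
      (rf ⁻¹' P ∩ {p | p.2 ≤ -B})) :
    BoxUp E 𝒬' 𝓗 (Ioo a b ×ˢ Ioo c d) P B := by
  have hP' := refl_pic hP
  have h1 : BoxLo (rf ⁻¹' E) (rfS '' 𝒬') (reflH 𝓗) (Ioo a b ×ˢ Ioo (-d) (-c)) (rf ⁻¹' P) (-B) := by
    refine boxLo_of_null1 hP'.q hP'.att (image_mono hs) (reflH_mono h𝓗) ?_ hab (by linarith) ?_
      (preimage_mono hPE) h
    · rw [← rf_box]; exact preimage_mono hbox
    · rintro _ ⟨Q, hQ, rfl⟩
      simp only [Kbx_247.rfS_y]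
      have := gen Q hQ
      intro hc
      exact this (by linarith)
  intro ε hε
  obtain ⟨z, hz, hz1⟩ := h1 ε hε
  rw [rf_part] at hz1
  rw [← rf_box] at hz
  exact ⟨_, half_rf hz, oneNear_rf hz1⟩

/-! ### single solids -/

/-- **SOLO in the form of the box problem** (lower half; the upper half is the lower half of the
reflected picture): the part of a solid below its square is null, the own charge of its square is
not used. -/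
def SoloK (E : Set (ℝ × ℝ)) (𝒬 : Set Sqr) (𝓗₀ : Set Hair) (a b c : ℝ) : Prop :=
  ∀ Q ∈ 𝒬, ∀ B, Gen 𝒬 B → c < B → B < Q.y →
    Null1 𝓗₀ a b c B E (QA (𝒬 \ {Q})) (comp E Q ∩ {p | p.2 ≤ B})

theorem comp_sub (E : Set (ℝ × ℝ)) (Q : Sqr) : comp E Q ⊆ E := connectedComponentIn_subset _ _

theorem gen_rf (h : Gen 𝒬 B) : Gen (rfS '' 𝒬) (-B) := by
  rintro _ ⟨Q, hQ, rfl⟩
  simp only [Kbx_247.rfS_y, Kbx_247.rfS_s]
  exact ⟨fun hc => (h Q hQ).2 (by linarith), fun hc => (h Q hQ).1 (by linarith)⟩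

/-- nothing of the obstacle above `B` -/
theorem boxUp_triv (hPB : ∀ p ∈ P, p.2 < B) : BoxUp E 𝒬 𝓗 N P B := by
  intro ε hε
  have hemp : P ∩ {p | B ≤ p.2} = ∅ := by
    rw [eq_empty_iff_forall_notMem]
    rintro p ⟨h1, h2⟩
    have := hPB p h1
    have h3 : B ≤ p.2 := h2
    linarith
  refine ⟨0, ⟨CFJ_const 0, fun p => ⟨le_rfl, zero_le_one⟩, ⟨∅, isCompact_empty,
    empty_subset _, fun p _ _ => rfl⟩, ?_⟩, ∅, isOpen_empty, by rw [hemp], by simp⟩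
  unfold TQ Ch
  have h1 : En (Up B \ E) (0 : ℝ × ℝ → ℝ) = 0 := En_const _ 0
  have h2 : ∀ Q : 𝒬, ch E (Up B) (0 : ℝ × ℝ → ℝ) Q.1 ^ 2 = 0 := fun Q => by
    have : ch E (Up B) (0 : ℝ × ℝ → ℝ) Q.1 = 0 := chg_const 0
    rw [this]; norm_num
  rw [h1]
  simp only [h2, tsum_zero, add_zero]
  exact hε.le

/-- nothing of the obstacle below `B` -/
theorem boxLo_triv (hPB : ∀ p ∈ P, B < p.2) : BoxLo E 𝒬 𝓗 N P B := by
  intro ε hε
  have hemp : P ∩ {p | p.2 ≤ B} = ∅ := by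
    rw [eq_empty_iff_forall_notMem]
    rintro p ⟨h1, h2⟩
    have := hPB p h1
    have h3 : p.2 ≤ B := h2
    linarith
  refine ⟨0, ⟨CFJ_const 0, fun p => ⟨le_rfl, zero_le_one⟩, ⟨∅, isCompact_empty,
    empty_subset _, fun p _ _ => rfl⟩, ?_⟩, ∅, isOpen_empty, by rw [hemp], by simp⟩
  unfold TQ Ch
  have h1 : En (Lo B \ E) (0 : ℝ × ℝ → ℝ) = 0 := En_const _ 0
  have h2 : ∀ Q : 𝒬, ch E (Lo B) (0 : ℝ × ℝ → ℝ) Q.1 ^ 2 = 0 := fun Q => by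
    have : ch E (Lo B) (0 : ℝ × ℝ → ℝ) Q.1 = 0 := chg_const 0
    rw [this]; norm_num
  rw [h1]
  simp only [h2, tsum_zero, add_zero]
  exact hε.le

/-- **SOLO in the box problem gives `SoloG`** -/
theorem soloG_of (hP : PicS E 𝒬 𝓗) (h𝓗 : 𝓗₀ ⊆ 𝓗) (hbox : E ⊆ Ioo a b ×ˢ Ioo c d) (hab : a < b)
    (lo : SoloK E 𝒬 𝓗₀ a b c) (up : SoloK (rf ⁻¹' E) (rfS '' 𝒬) (reflH 𝓗₀) a b (-d)) :
    SoloG E 𝒬 𝓗 (Ioo a b ×ˢ Ioo c d) := by
  intro Q hQ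
  have hs := Q.hs
  have hQE : ∀ p ∈ Q.car, p ∈ Ioo a b ×ˢ Ioo c d := fun p hp => hbox (hP.q.sub Q hQ hp)
  refine ⟨fun B hB hBQ => ?_, fun B hB hBQ => ?_⟩
  · rcases le_or_gt d B with hd | hd
    · exact boxUp_triv fun p hp => ((hbox (comp_sub E Q hp)).2.2).trans_le hd
    · have h1 := up (rfS Q) ⟨Q, hQ, rfl⟩ (-B) (gen_rf hB) (by linarith)
        (by simp only [Kbx_247.rfS_y]; linarith)
      rw [comp_rfS hP.q hQ] at h1
      have h2 : rfS '' 𝒬 \ {rfS Q} = rfS '' (𝒬 \ {Q}) := by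
        rw [image_sdiff rfS_injective, image_singleton]
      rw [h2] at h1
      have h3 : c < B := by
        have h4 := hQE (Q.x, Q.y) ⟨⟨le_rfl, by simp only; linarith⟩, ⟨le_rfl, by simp only; linarith⟩⟩
        have : c < Q.y := h4.2.1
        linarith
      have h5 : BoxUp E (𝒬 \ {Q}) 𝓗 (Ioo a b ×ˢ Ioo c d) (comp E Q) B :=
        boxUp_of_null1 hP sdiff_subset h𝓗 hbox hab h3 (fun Q' hQ' => (hB Q' hQ'.1).2)
          (comp_sub E Q) h1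
      intro ε hε
      obtain ⟨z, hz, hz1⟩ := h5 ε hε
      refine ⟨z, half_up_full sdiff_subset (fun Q' hQ' hn => ?_) hz, hz1⟩
      have : Q' = Q := by
        by_contra hne
        exact hn ⟨hQ', hne⟩
      rw [this]; exact hBQ
  · rcases le_or_gt B c with hd | hd
    · exact boxLo_triv fun p hp => hd.trans_lt (hbox (comp_sub E Q hp)).2.1
    · have h1 := lo Q hQ B hB hd hBQ
      have h3 : B < d := by
        have h4 := hQE (Q.x, Q.y) ⟨⟨le_rfl, by simp only; linarith⟩, ⟨le_rfl, by simp only; linarith⟩⟩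
        have : Q.y < d := h4.2.2
        linarith
      have h5 : BoxLo E (𝒬 \ {Q}) 𝓗 (Ioo a b ×ˢ Ioo c d) (comp E Q) B :=
        boxLo_of_null1 hP.q hP.att sdiff_subset h𝓗 hbox hab h3 (fun Q' hQ' => (hB Q' hQ'.1).1)
          (comp_sub E Q) h1
      intro ε hε
      obtain ⟨z, hz, hz1⟩ := h5 ε hε
      refine ⟨z, half_lo_full sdiff_subset (fun Q' hQ' hn => ?_) hz, hz1⟩
      have : Q' = Q := by
        by_contra hne
        exact hn ⟨hQ', hne⟩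
      rw [this]; exact hBQ

/-! ### pairs -/

/-- the relation of the pair problem: points of the lower part and (reflected) points of the upper
part of the same member of the family -/
def Rg (E : Set (ℝ × ℝ)) (g : Set (Set (ℝ × ℝ))) (Bm Bp : ℝ) : Set ((ℝ × ℝ) × (ℝ × ℝ)) :=
  {q | q.1 ∈ ⋃₀ g ∧ rf q.2 ∈ ⋃₀ g ∧ q.1.2 ≤ Bm ∧ Bp ≤ (rf q.2).2 ∧
    connectedComponentIn E q.1 = connectedComponentIn E (rf q.2)}

theorem mem_Rg (hg : g ⊆ Comps E) (hPg : P ∈ g) {p q : ℝ × ℝ} (hp : p ∈ P) (hpB : p.2 ≤ Bm)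
    (hq : q ∈ P) (hqB : Bp ≤ q.2) : (p, rf q) ∈ Rg E g Bm Bp := by
  obtain ⟨x, hx, hxP⟩ := hg hPg
  refine ⟨⟨P, hPg, hp⟩, ⟨P, hPg, by simpa using hq⟩, hpB, by simpa using hqB, ?_⟩
  simp only [rf_rf]
  rw [hxP] at hp hq
  rw [← connectedComponentIn_eq hp, ← connectedComponentIn_eq hq]

theorem clamp_ge {s t k : ℝ} (hk : k ≤ 1) (h : k ≤ s + t) :
    k ≤ max (min s 1) 0 + max (min t 1) 0 := by
  have h1 : 0 ≤ max (min s 1) 0 := le_max_right _ _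
  have h2 : 0 ≤ max (min t 1) 0 := le_max_right _ _
  rcases le_or_gt 1 s with hs | hs
  · have : 1 ≤ max (min s 1) 0 := by rw [min_eq_right hs]; exact le_max_left _ _
    linarith
  · rcases le_or_gt 1 t with ht | ht
    · have : 1 ≤ max (min t 1) 0 := by rw [min_eq_right ht]; exact le_max_left _ _
      linarith
    · have h3 : s ≤ max (min s 1) 0 := by rw [min_eq_left hs.le]; exact le_max_left _ _
      have h4 : t ≤ max (min t 1) 0 := by rw [min_eq_left ht.le]; exact le_max_left _ _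
      linarith

/-- **pairs**: feasible pairs of the box problem give test pairs; one constant for the picture and
the box -/
theorem exists_pair (hP : PicS E 𝒬 𝓗) (h𝓗 : 𝓗₀ ⊆ 𝓗) (hbox : E ⊆ Ioo a b ×ˢ Ioo c d)
    (hab : a < b) : ∃ K, 0 < K ∧ ∀ g Bm Bp, FamQ E g Bm Bp → c < Bm → Bp < d → ∀ 𝒬' ⊆ 𝒬,
      (∀ Q ∈ 𝒬', Q.y ≠ Bm) → (∀ Q ∈ 𝒬', Q.y + Q.s ≠ Bp) →
      ∀ m, ∀ e ∈ Vq 𝓗₀ a b c Bm (QA 𝒬'),
      ∀ e' ∈ Vq (reflH 𝓗₀) a b (-d) (-Bp) (QA (rfS '' 𝒬')),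
      EQ a b c Bm E (QA 𝒬') e + EQ a b (-d) (-Bp) (rf ⁻¹' E) (QA (rfS '' 𝒬')) e' ≤ m →
      (∀ q ∈ Rg E g Bm Bp, ∀ σ σ' : Bool, 1 ≤ tr e σ q.1.1 q.1.2 + tr e' σ' q.2.1 q.2.2) →
      ∃ zm zp, PairQ E 𝒬' 𝓗 g Bm Bp (Ioo a b ×ˢ Ioo c d) (K * m) zm zp := by
  obtain ⟨a1, b1, r, hr, har, hab1, hbr, hbox1⟩ := exists_room hP.q.cpt hbox hab
  refine ⟨C0 r c (max c d), C0_pos _ _ _, ?_⟩
  intro g Bm Bp hg hcm hpd 𝒬' hs gen gen' m e he e' he' hen h1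
  have hlt := hg.lt
  have hcd : c < d := by linarith
  rw [max_eq_right hcd.le]
  have hP' := refl_pic hP
  have hEc : IsClosed E := hP.q.cpt.isClosed
  have hEc' : IsClosed (rf ⁻¹' E) := hP'.q.cpt.isClosed
  have hbox' : rf ⁻¹' E ⊆ Ioo a b ×ˢ Ioo (-d) (-c) := by
    rw [← rf_box]; exact preimage_mono hbox
  have hbox1' : rf ⁻¹' E ⊆ Ioo a1 b1 ×ˢ Ioo (-d) (-c) := by
    rw [← rf_box]; exact preimage_mono hbox1
  have hE0 : QPic E 𝒬 𝓗₀ :=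
    ⟨hP.q.cpt, hP.q.sub, fun K hK => hP.q.hsub K (h𝓗 hK), hP.q.sep, hP.q.null⟩
  have hE0' : QPic (rf ⁻¹' E) (rfS '' 𝒬) (reflH 𝓗₀) :=
    ⟨hP'.q.cpt, hP'.q.sub, fun K hK => hP'.q.hsub K (reflH_mono h𝓗 hK), hP'.q.sep, hP'.q.null⟩
  have H := qq (B := Bm) (a := a) (b := b) (c := c) hE0 hs
    (fun p hp => ⟨(hbox hp).1, (hbox hp).2.1⟩)
  have H' := qq (B := -Bp) (a := a) (b := b) (c := -d) hE0' (image_mono hs)
    (fun p hp => ⟨(hbox' hp).1, (hbox' hp).2.1⟩)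
  obtain ⟨hm, hle⟩ := Vq_clamp H hEc he
  obtain ⟨hm', hle'⟩ := Vq_clamp H' hEc' he'
  have hen0 : 0 ≤ EQ a b c Bm E (QA 𝒬') e := EQ_nonneg
  have hen0' : 0 ≤ EQ a b (-d) (-Bp) (rf ⁻¹' E) (QA (rfS '' 𝒬')) e' := EQ_nonneg
  obtain ⟨zm, hzm, hzmv⟩ := half_of hP.q hP.att hs h𝓗 hbox1 (by linarith) hab1 (by linarith) hcm
    (by linarith) gen hm (fun p => ⟨le_max_right _ _, max_le (min_le_right _ _) zero_le_one⟩)
    hr har hbr
  obtain ⟨zp, hzp, hzpv⟩ := half_of hP'.q hP'.att (image_mono hs) (reflH_mono h𝓗) hbox1'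
    (by linarith) hab1 (by linarith) (by linarith : -d < -Bp) (by linarith)
    (by
      rintro _ ⟨Q, hQ, rfl⟩
      simp only [Kbx_247.rfS_y]
      exact fun hc => gen' Q hQ (by linarith))
    hm' (fun p => ⟨le_max_right _ _, max_le (min_le_right _ _) zero_le_one⟩) hr har hbr
  -- the constant
  have c1 : C0 r c Bm ≤ C0 r c d := C0_mono hcm.le (by linarith)
  have c2 : C0 r (-d) (-Bp) ≤ C0 r c d := by
    have := C0_mono (r := r) (c := -d) (B := -Bp) (B' := -c) (by linarith) (by linarith)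
    refine this.trans (le_of_eq ?_)
    unfold C0; ring
  have em : C0 r c Bm * EQ a b c Bm E (Qc 𝒬') (fun p => max (min (e p) 1) 0) ≤ C0 r c d * m :=
    mul_le_mul c1 (hle.trans (by have : EQ a b c Bm E (Qc 𝒬') e = EQ a b c Bm E (QA 𝒬') e := rfl
                                 linarith)) EQ_nonneg (C0_pos _ _ _).le
  have ep : C0 r (-d) (-Bp) * EQ a b (-d) (-Bp) (rf ⁻¹' E) (Qc (rfS '' 𝒬'))
      (fun p => max (min (e' p) 1) 0) ≤ C0 r c d * m :=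
    mul_le_mul c2 (hle'.trans (by
      have : EQ a b (-d) (-Bp) (rf ⁻¹' E) (Qc (rfS '' 𝒬')) e' =
        EQ a b (-d) (-Bp) (rf ⁻¹' E) (QA (rfS '' 𝒬')) e' := rfl
      linarith)) EQ_nonneg (C0_pos _ _ _).le
  have hzm' : HalfQ E 𝒬' 𝓗 (Lo Bm) (Ioo a b ×ˢ Ioo c d) (C0 r c d * m) zm :=
    ⟨hzm.cf, hzm.rg, hzm.sp, hzm.en.trans em⟩
  have hzp' : HalfQ (rf ⁻¹' E) (rfS '' 𝒬') (reflH 𝓗) (Lo (-Bp)) (rf ⁻¹' (Ioo a b ×ˢ Ioo c d))
      (C0 r c d * m) zp := by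
    rw [rf_box]
    exact ⟨hzp.cf, hzp.rg, hzp.sp, hzp.en.trans ep⟩
  refine ⟨zm, _, hzm', half_rf hzp', fun P hPg => ?_⟩
  -- the key inequality near `P`
  have hPc : IsCompact P := isCompact_comp hP.q (hg.sub hPg)
  have hPE : P ⊆ E := by
    obtain ⟨x, -, rfl⟩ := hg.sub hPg
    exact connectedComponentIn_subset _ _
  have hPm : IsCompact (P ∩ {p | p.2 ≤ Bm}) :=
    hPc.inter_right (isClosed_le continuous_snd continuous_const)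
  have hPp : IsCompact (rf '' (P ∩ {p | Bp ≤ p.2})) :=
    (hPc.inter_right (isClosed_le continuous_const continuous_snd)).image continuous_rf
  have hR0 : (P ∩ {p | p.2 ≤ Bm}) ×ˢ (rf '' (P ∩ {p | Bp ≤ p.2})) ⊆ Rg E g Bm Bp := by
    rintro ⟨p, _⟩ ⟨⟨hp, hpB⟩, q, ⟨hq, hqB⟩, rfl⟩
    exact mem_Rg hg.sub hPg hp hpB hq hqB
  have hRW : ∀ q ∈ (P ∩ {p | p.2 ≤ Bm}) ×ˢ (rf '' (P ∩ {p | Bp ≤ p.2})),
      q.1 ∈ Wl a b c Bm ∧ q.2 ∈ Wl a b (-d) (-Bp) := by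
    rintro ⟨p, _⟩ ⟨⟨hp, hpB⟩, q, ⟨hq, hqB⟩, rfl⟩
    refine ⟨⟨(hbox (hPE hp)).1, (hbox (hPE hp)).2.1, hpB⟩, ?_⟩
    have h3 : Bp ≤ q.2 := hqB
    refine ⟨(hbox (hPE hq)).1, ?_, ?_⟩
    · have := (hbox (hPE hq)).2.2
      show -d < -q.2
      linarith
    · show -q.2 ≤ -Bp
      linarith
  obtain ⟨U, hU, hRU, hU1⟩ := near_val2 (η := 1 / 10) (fun K hK => hE0.hsub K hK)
    (fun K hK => hE0'.hsub K hK) hRW he.1.1 he'.1.1
    (fun q hq => h1 q (hR0 hq)) (by norm_num)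
  obtain ⟨u, v, hu, hv, hmu, hpv, huv⟩ := generalized_tube_lemma hPm hPp hU hRU
  refine ⟨(((u ∪ {p | Bm < p.2}) ∩ (rf ⁻¹' v ∪ {p | p.2 < Bp})) ∩ (Ioo a1 b1 ×ˢ Ioo c d)), ?_, ?_,
    ?_⟩
  · exact (((hu.union (isOpen_lt continuous_const continuous_snd))).inter
      ((hv.preimage continuous_rf).union (isOpen_lt continuous_snd continuous_const))).inter
      (isOpen_Ioo.prod isOpen_Ioo)
  · intro p hp
    refine ⟨⟨?_, ?_⟩, hbox1 (hPE hp)⟩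
    · rcases le_or_gt p.2 Bm with h | h
      · exact Or.inl (hmu ⟨hp, h⟩)
      · exact Or.inr h
    · rcases le_or_gt Bp p.2 with h | h
      · exact Or.inl (hpv ⟨p, ⟨hp, h⟩, rfl⟩)
      · exact Or.inr h
  · rintro p ⟨⟨⟨hp1, -⟩, hpb⟩, hpE⟩ hpB q ⟨⟨⟨-, hq1⟩, hqb⟩, hqE⟩ hqB
    have hpB' : p.2 < Bm := hpB
    have hqB' : Bp < q.2 := hqB
    have hpu : p ∈ u := by
      rcases hp1 with h | h
      · exact h
      · have : Bm < p.2 := h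
        linarith
    have hqv : rf q ∈ v := by
      rcases hq1 with h | h
      · exact h
      · have : q.2 < Bp := h
        linarith
    have hpW : p ∈ Wo a b c Bm :=
      ⟨⟨by linarith [hpb.1.1], by linarith [hpb.1.2]⟩, hpb.2.1, hpB'⟩
    have hqW : rf q ∈ Wo a b (-d) (-Bp) := by
      refine ⟨⟨by simp only [rf_fst]; linarith [hqb.1.1], by simp only [rf_fst]; linarith [hqb.1.2]⟩,
        ?_, ?_⟩
      · simp only [rf_snd]; linarith [hqb.2.2]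
      · simp only [rf_snd]; linarith
    have h3 := hU1 (p, rf q) (huv ⟨hpu, hqv⟩) (Wo_subset hpW) (Wo_subset hqW) hpE
      (by simpa using hqE)
    show 9 / 10 ≤ zm p + zp (rf q)
    rw [hzmv p hpW hpb.1.1 hpb.1.2, hzpv (rf q) hqW hqb.1.1 hqb.1.2]
    exact clamp_ge (by norm_num) (by simp only at h3; linarith)

/-! ### the conductance bound -/

/-- **the bound of the conductance in the form of the box problem** -/
def BndK (E : Set (ℝ × ℝ)) (𝒬 : Set Sqr) (𝓗₀ : Set Hair) (a b c d : ℝ) : Prop :=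
  ∃ K, 0 ≤ K ∧ ∀ g Bm Bp, g.Nonempty → Gen 𝒬 Bm → Gen 𝒬 Bp → FamQ E g Bm Bp → Win 𝒬 g Bm Bp →
    c < Bm → Bp < d → ∀ s, SqSub 𝒬 (⋃₀ g) s → ∀ η > 0,
      ∃ e ∈ Vq 𝓗₀ a b c Bm (QA 𝒬), ∃ e' ∈ Vq (reflH 𝓗₀) a b (-d) (-Bp) (QA (rfS '' 𝒬)),
        EQ a b c Bm E (QA 𝒬) e + EQ a b (-d) (-Bp) (rf ⁻¹' E) (QA (rfS '' 𝒬)) e' ≤
          K / (Bp - Bm) ^ 2 * s + η ∧
        ∀ q ∈ Rg E g Bm Bp, ∀ σ σ' : Bool, 1 ≤ tr e σ q.1.1 q.1.2 + tr e' σ' q.2.1 q.2.2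

theorem bndG_of (hP : PicS E 𝒬 𝓗) (h𝓗 : 𝓗₀ ⊆ 𝓗) (hbox : E ⊆ Ioo a b ×ˢ Ioo c d)
    (hab : a < b) (h : BndK E 𝒬 𝓗₀ a b c d) : BndG E 𝒬 𝓗 (Ioo a b ×ˢ Ioo c d) := by
  obtain ⟨K, hK, h⟩ := h
  obtain ⟨M, hM, hpair⟩ := exists_pair hP h𝓗 hbox hab
  refine ⟨M * K, by positivity, fun g Bm Bp gm gp hg hw s hsq η hη => ?_⟩
  rcases g.eq_empty_or_nonempty with hge | hgn
  · subst hge
    have h0 : 0 < M * K / (Bp - Bm) ^ 2 * s + η := by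
      have h1 : 0 ≤ s := by simpa using hsq ∅ (by simp)
      positivity
    have t1 := boxLo_triv (E := E) (𝒬 := 𝒬) (𝓗 := 𝓗) (N := Ioo a b ×ˢ Ioo c d) (P := ∅) (B := Bm)
      (by simp)
    have t2 := boxUp_triv (E := E) (𝒬 := 𝒬) (𝓗 := 𝓗) (N := Ioo a b ×ˢ Ioo c d) (P := ∅) (B := Bp)
      (by simp)
    obtain ⟨z1, hz1, -⟩ := t1 _ h0
    obtain ⟨z2, hz2, -⟩ := t2 _ h0
    exact ⟨z1, z2, hz1, hz2, fun P hP => absurd hP (notMem_empty P)⟩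
  · obtain ⟨P, hPg⟩ := hgn
    have hPE : P ⊆ E := by
      obtain ⟨x, -, rfl⟩ := hg.sub hPg
      exact connectedComponentIn_subset _ _
    obtain ⟨⟨p, hp, hpB⟩, q, hq, hqB⟩ := hg.crs P hPg
    have h1 := (hbox (hPE hp)).2.1
    have h2 := (hbox (hPE hq)).2.2
    have hcm : c < Bm := by linarith
    have hpd : Bp < d := by linarith
    obtain ⟨e, he, e', he', hen, htr⟩ := h g Bm Bp ⟨P, hPg⟩ gm gp hg hw hcm hpd s hsq (η / M)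
      (by positivity)
    have h3 := hpair g Bm Bp hg hcm hpd 𝒬 Subset.rfl (fun Q hQ => (gm Q hQ).1)
      (fun Q hQ => (gp Q hQ).2) _ e he e' he' hen htr
    have h4 : M * (K / (Bp - Bm) ^ 2 * s + η / M) = M * K / (Bp - Bm) ^ 2 * s + η := by
      rw [mul_add, mul_div_cancel₀ _ hM.ne']; ring
    rwa [h4] at h3

/-- **(L2)**: the box problem gives `BoxOut` -/
theorem boxOut_of (hP : PicS E 𝒬 𝓗) (h𝓗 : 𝓗₀ ⊆ 𝓗) (hbox : E ⊆ Ioo a b ×ˢ Ioo c d)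
    (hab : a < b) (hcd : c < d) (lo : SoloK E 𝒬 𝓗₀ a b c)
    (up : SoloK (rf ⁻¹' E) (rfS '' 𝒬) (reflH 𝓗₀) a b (-d)) (h : BndK E 𝒬 𝓗₀ a b c d) :
    BoxOut E 𝒬 𝓗 :=
  ⟨Ioo a b ×ˢ Ioo c d, c, d, ⟨hcd.le, fun _ hp => (hbox hp).2, fun _ hp => hp.2⟩,
    isOpen_Ioo.prod isOpen_Ioo, hbox, soloG_of hP h𝓗 hbox hab lo up, bndG_of hP h𝓗 hbox hab h⟩

end Crest.Agent.R105.Kna_421
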