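/-
# Row 105, S0138, lemma A: the box problem of a picture `PicS E 𝒬 𝓗`, part 4; helper247

Reflection of E-L for the stream functions (`els_refl`).
-/
import Crest.Agent.R105.Kna4_421
import Crest.Agent.R105.Psq0_425
import Crest.Agent.R105.Kbx3_247

set_option autoImplicit false

open Set Filter MeasureTheory Topology
open scoped ENNReal NNReal

namespace Crest.Agent.R105.Kbx_247

open Crest.Agent.R105.CF_363 Crest.Agent.R105.Stp_722 Crest.Agent.R105.Cq_463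
open Crest.Agent.R105.Nal_649 Crest.Agent.R105.Exs_992 Crest.Agent.R105.Famq_306
open Crest.Agent.R105.Skp2_257 (Comps Lo Up Reg)
open Crest.Agent.R105.Kin_238 (Wl Wo tr)
open Crest.Agent.R105.SkT1_137 (TFin ELf ELS)
open Crest.Agent.R105.Psq_425 (LimAt PlaLim StrQs StrQ)
open Crest.Agent.R105.Kna_421 (oscLe_rf TQ_rf)

variable {E P : Set (ℝ × ℝ)} {𝒬 𝒬' : Set Sqr} {𝓗 : Set Hair} {a b c d B Bm Bp : ℝ}
  {g : Set (Set (ℝ × ℝ))} {f ψ : ℝ × ℝ → ℝ} {o : Set (ℝ × ℝ) → ℝ}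

/-- the reflected family -/
def rfG (g : Set (Set (ℝ × ℝ))) : Set (Set (ℝ × ℝ)) := (fun P => rf ⁻¹' P) '' g

theorem mem_rfG : P ∈ rfG g ↔ rf ⁻¹' P ∈ g := by
  constructor
  · rintro ⟨P', hP', rfl⟩
    simpa using hP'
  · intro h
    exact ⟨_, h, rf_pre_pre P⟩

theorem rfG_rfG (g : Set (Set (ℝ × ℝ))) : rfG (rfG g) = g := by
  ext P; rw [mem_rfG, mem_rfG, rf_pre_pre]

theorem sUnion_rfG (g : Set (Set (ℝ × ℝ))) : ⋃₀ rfG g = rf ⁻¹' ⋃₀ g := by
  ext p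
  constructor
  · rintro ⟨P, hP, hp⟩
    exact ⟨_, mem_rfG.1 hP, by simpa using hp⟩
  · rintro ⟨P, hP, hp⟩
    exact ⟨rf ⁻¹' P, ⟨P, hP, rfl⟩, hp⟩

theorem famQ_refl (h : FamQ E g Bm Bp) : FamQ (rf ⁻¹' E) (rfG g) (-Bp) (-Bm) where
  lt := neg_lt_neg h.lt
  sub := by
    rintro _ ⟨P, hP, rfl⟩
    exact comps_rf' (h.sub hP)
  cpt := by
    rw [sUnion_rfG, ← rf_image_eq_preimage]
    exact h.cpt.image continuous_rf
  crs := by
    rintro _ ⟨P, hP, rfl⟩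
    obtain ⟨⟨p, hp, hp2⟩, ⟨q, hq, hq2⟩⟩ := h.crs P hP
    exact ⟨⟨rf q, by simpa using hq, by simpa using hq2⟩,
      ⟨rf p, by simpa using hp, by simpa using hp2⟩⟩

theorem limAt_refl {k : ℝ} (h : LimAt E P ψ k) :
    LimAt (rf ⁻¹' E) (rf ⁻¹' P) (fun p => ψ (rf p)) k := by
  intro ε hε
  obtain ⟨O, hO, hPO, h1⟩ := h ε hε
  exact ⟨rf ⁻¹' O, hO.preimage continuous_rf, preimage_mono hPO, fun p hp => h1 _ hp⟩

theorem lip_rf {L : ℝ≥0} (h : LipschitzWith L f) : LipschitzWith L fun p => f (rf p) := by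
  have h1 := h.comp isometry_rf.lipschitz
  rw [mul_one] at h1
  exact h1

theorem plaLim_refl (h : PlaLim E 𝒬 f) :
    PlaLim (rf ⁻¹' E) (rfS '' 𝒬) (fun p => f (rf p)) := by
  obtain ⟨fn, h1, ⟨A, hA, h2⟩, ⟨C, h3⟩, h4, ⟨C', h5⟩⟩ := h
  refine ⟨fun n p => fn n (rf p), fun n => ?_, ⟨rf ⁻¹' A, ?_, fun n p hp => h2 n _ hp⟩,
    ⟨C, fun n p => h3 n _⟩, fun p hp => h4 _ hp, ⟨C', fun n => ?_⟩⟩
  · obtain ⟨L, hL⟩ := h1 n
    exact ⟨L, lip_rf hL⟩
  · rw [← rf_image_eq_preimage]; exact hA.image continuous_rf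
  · have := TQ_rf E univ 𝒬 (fn n)
    rw [preimage_univ] at this
    rw [this]
    exact h5 n

theorem hasCompactSupport_rf (h : HasCompactSupport f) :
    HasCompactSupport fun p => f (rf p) :=
  h.comp_homeomorph rfL.toHomeomorph

theorem reg_refl (h : Reg E f) : Reg (rf ⁻¹' E) (fun p => f (rf p)) where
  lip := by
    intro p hp
    obtain ⟨K, t, ht, hK⟩ := h.lip (x := rf p) hp
    refine ⟨K, rf ⁻¹' t, ?_, ?_⟩
    · have h1 : Tendsto rf (𝓝[(rf ⁻¹' E)ᶜ] p) (𝓝[Eᶜ] (rf p)) :=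
        tendsto_nhdsWithin_of_tendsto_nhds_of_eventually_within _
          (continuous_rf.continuousAt.mono_left nhdsWithin_le_nhds)
          (by filter_upwards [self_mem_nhdsWithin] with q hq using hq)
      exact h1 ht
    · intro x hx y hy
      have h1 := hK hx hy
      rwa [isometry_rf.edist_eq] at h1
  cpt := hasCompactSupport_rf h.cpt
  bdd := by
    obtain ⟨C, hC⟩ := h.bdd
    exact ⟨C, fun p => hC _⟩
  fin := by
    have h1 : (rf ⁻¹' E)ᶜ = rf ⁻¹' Eᶜ := rfl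
    have h2 : g2 (fun p => f (rf p)) = fun p => g2 f (rf p) := by
      funext p; exact g2_rf f p
    rw [h1, h2]
    exact integrableOn_rf.2 h.fin

/-- the components of the reflected set -/
def cpE (E : Set (ℝ × ℝ)) : Comps (rf ⁻¹' E) ≃ Comps E where
  toFun P := ⟨rf ⁻¹' P.1, comps_rf.1 P.2⟩
  invFun P := ⟨rf ⁻¹' P.1, comps_rf' P.2⟩
  left_inv P := by ext1; simp
  right_inv P := by ext1; simp

theorem tFin_refl (h : TFin E ψ o) :
    TFin (rf ⁻¹' E) (fun p => ψ (rf p)) (fun P => o (rf ⁻¹' P)) where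
  reg := reg_refl h.reg
  nn := fun P hP => h.nn _ (comps_rf.1 hP)
  osc := by
    intro P hP
    have h1 := oscLe_rf (h.osc _ (comps_rf.1 hP))
    rw [rf_pre_pre] at h1
    exact h1
  sum := by
    have h1 : Summable ((fun P : Comps E => o P.1 ^ 2) ∘ cpE E) :=
      h.sum.comp_injective (cpE E).injective
    exact h1

theorem strQs_refl (h : StrQs E 𝒬 g ψ) :
    StrQs (rf ⁻¹' E) (rfS '' 𝒬) (rfG g) (fun p => ψ (rf p)) where
  strip := by
    obtain ⟨C, hC, F, hF, h1⟩ := h.strip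
    refine ⟨(fun P => rf ⁻¹' P) '' C, hC.image _, F, hF, ?_⟩
    intro P hP hPC
    have h2 : rf ⁻¹' P ∉ C := fun h3 => hPC ⟨_, h3, rf_pre_pre P⟩
    obtain ⟨K, hK, hlim⟩ := h1 _ (mem_rfG.1 hP) h2
    refine ⟨K.refl, ?_, ?_⟩
    · rw [Hair.car_refl, ← hK, rf_pre_pre]
    · have := limAt_refl hlim
      rwa [rf_pre_pre] at this
  off := by
    obtain ⟨f, hf, ⟨C, hC⟩, h1, h2⟩ := h.off
    refine ⟨fun p => f (rf p), ?_, ⟨C, fun p => hC _⟩, ?_, ?_⟩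
    · exact hf.comp continuous_rf.continuousOn fun p hp => hp
    · intro P hP
      have := limAt_refl (h1 _ (comps_rf.1 hP))
      rwa [rf_pre_pre] at this
    · intro κ L hκ hκc hO
      obtain ⟨O, hO, hgO, h3⟩ := hO
      have h4 := h2 (fun p => κ (rf p)) L (lip_rf hκ) (hasCompactSupport_rf hκc)
        ⟨rf ⁻¹' O, hO.preimage continuous_rf, ?_, fun p hp => h3 _ hp⟩
      · have h5 := plaLim_refl h4
        simpa using h5
      · intro p hp
        refine hgO ?_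
        rw [sUnion_rfG]
        simpa using hp
  fin := by
    obtain ⟨o, ho⟩ := h.fin
    exact ⟨_, tFin_refl ho⟩

theorem elf_refl (hE : QPic E 𝒬 𝓗) (h : ELf E 𝒬 ψ) :
    ELf (rf ⁻¹' E) (rfS '' 𝒬) (fun p => ψ (rf p)) := by
  intro o ho
  have h1 := tFin_refl ho
  rw [rf_pre_pre] at h1
  simp only [rf_rf] at h1
  have h2 := h _ h1
  have h3 : ∫ p in (rf ⁻¹' E)ᶜ, gx (fun p => ψ (rf p)) p = ∫ p in Eᶜ, gx ψ p := by
    have h4 : (fun p => gx (fun p => ψ (rf p)) p) = fun p => gx ψ (rf p) := by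
      funext p; exact CF_363.gx_rf ψ p
    rw [h4]
    exact integral_rf (gx ψ) Eᶜ
  rw [h3]
  refine h2.trans (le_of_eq ?_)
  rw [← (Equiv.Set.image rfS 𝒬 rfS_injective).tsum_eq]
  refine tsum_congr fun Q => ?_
  show Q.1.s * o (rf ⁻¹' comp E Q.1) = (rfS Q.1).s * o (comp (rf ⁻¹' E) (rfS Q.1))
  rw [comp_rfS hE Q.2, rfS_s]

/-- **E-L for the reflected picture** -/
theorem els_refl (hE : QPic E 𝒬 𝓗) (h : ELS StrQ E 𝒬 𝓗) :
    ELS StrQ (rf ⁻¹' E) (rfS '' 𝒬) (reflH 𝓗) := by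
  intro g Bm Bp hg ψ hψ
  have h1 := famQ_refl hg
  rw [rf_pre_pre] at h1
  have h2 : StrQs E 𝒬 (rfG g) (fun p => ψ (rf p)) := by
    have := strQs_refl (show StrQs (rf ⁻¹' E) (rfS '' 𝒬) g ψ from hψ)
    rwa [rf_pre_pre, rfS_image_image] at this
  have h3 := elf_refl hE (h _ _ _ h1 _ h2)
  simpa using h3

end Crest.Agent.R105.Kbx_247
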