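/-
# KKT / Kantorovich / Thomson for energies with seminorm costs (row 105, PP with solids); helper247

`V` real vector space, `D : V →ₗ H` (gradients, Hilbert space), `lam : ι → Seminorm ℝ V` (costs of
the solids: `osc_K`, circumradius, `T_lam` of 745 #9455), `(lam k v)²` summable for every `v`,
`A : V →ₗ (P → ℝ)` bounded.  Energy `En v = ‖D v‖² + ∑' k, (lam k v)²`.

* `exists_min` : the minimising pair `(X, c)`;
* `exists_flow` : linear functionals `l k`, `|l k e| ≤ c k * lam k e`, positive `Lam` with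
  `⟪X, D e⟫ + ∑' k, l k e = Lam (A e)`, `Lam 1 = m`;
* `thomson`, `thomson_eq`.
-/
import Mathlib.Analysis.InnerProductSpace.l2Space
import Mathlib.Analysis.InnerProductSpace.ProdL2
import Mathlib.Analysis.Seminorm
import Crest.Agent.R105.Kkt1_238

open Filter Topology Set

namespace Crest.Agent.R105.Kks_247

open Crest.Agent.R105.Kkt_238 (Bd Pos Feas)

variable {V H P ι : Type*} [AddCommGroup V] [Module ℝ V] [NormedAddCommGroup H]
  [InnerProductSpace ℝ H]

local notation "⟪" x ", " y "⟫" => inner ℝ x y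

/-! ## The cost map with values in `ℓ²` -/

/-- `ℓ²(ι)` -/
abbrev L2 (ι : Type*) := lp (fun _ : ι => ℝ) 2

theorem mem2 {f : ι → ℝ} (hf : Summable fun k => (f k) ^ 2) : Memℓp f 2 := by
  apply memℓp_gen
  simpa using hf

/-- the family of costs as an element of `ℓ²` -/
def Lc (lam : ι → Seminorm ℝ V) (hs : ∀ v, Summable fun k => (lam k v) ^ 2) (v : V) : L2 ι :=
  ⟨fun k => lam k v, mem2 (hs v)⟩

@[simp] theorem Lc_apply (lam : ι → Seminorm ℝ V) (hs : ∀ v, Summable fun k => (lam k v) ^ 2)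
    (v : V) (k : ι) : Lc lam hs v k = lam k v := rfl

theorem l2_norm_sq (c : L2 ι) : ‖c‖ ^ 2 = ∑' k, (c k) ^ 2 := by
  rw [← real_inner_self_eq_norm_sq, lp.inner_eq_tsum]
  exact tsum_congr (fun k => by simp [sq])

theorem l2_summable_sq (c : L2 ι) : Summable fun k => (c k) ^ 2 := by
  have := lp.summable_inner (𝕜 := ℝ) c c
  exact this.congr (fun k => by simp [sq])

theorem l2_summable_mul (c d : L2 ι) : Summable fun k => c k * d k := by
  have := lp.summable_inner (𝕜 := ℝ) d c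
  exact this.congr (fun k => by simp)

theorem l2_inner (c d : L2 ι) : ⟪c, d⟫ = ∑' k, c k * d k := by
  rw [lp.inner_eq_tsum]
  exact tsum_congr (fun k => by simp [mul_comm])

theorem inner_mono {c a b : L2 ι} (hc : ∀ k, 0 ≤ c k) (hab : ∀ k, a k ≤ b k) :
    ⟪c, a⟫ ≤ ⟪c, b⟫ := by
  rw [l2_inner, l2_inner]
  exact (l2_summable_mul c a).tsum_le_tsum
    (fun k => mul_le_mul_of_nonneg_left (hab k) (hc k)) (l2_summable_mul c b)

theorem norm_mono {a b : L2 ι} (ha : ∀ k, 0 ≤ a k) (hab : ∀ k, a k ≤ b k) : ‖a‖ ^ 2 ≤ ‖b‖ ^ 2 := by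
  rw [l2_norm_sq, l2_norm_sq]
  exact (l2_summable_sq a).tsum_le_tsum
    (fun k => pow_le_pow_left₀ (ha k) (hab k) 2) (l2_summable_sq b)

/-! ## The minimisation problem -/

/-- the energy -/
noncomputable def En (D : V →ₗ[ℝ] H) (lam : ι → Seminorm ℝ V) (v : V) : ℝ :=
  ‖D v‖ ^ 2 + ∑' k, (lam k v) ^ 2

/-- the conductance `inf {En z : A z ≥ 1}` -/
noncomputable def condS (D : V →ₗ[ℝ] H) (lam : ι → Seminorm ℝ V) (A : V →ₗ[ℝ] (P → ℝ)) : ℝ :=
  sInf (En D lam '' Feas A)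

theorem En_nonneg (D : V →ₗ[ℝ] H) (lam : ι → Seminorm ℝ V) (v : V) : 0 ≤ En D lam v :=
  add_nonneg (sq_nonneg _) (tsum_nonneg fun _ => sq_nonneg _)

section main
variable {D : V →ₗ[ℝ] H} {lam : ι → Seminorm ℝ V} {A : V →ₗ[ℝ] (P → ℝ)}
  {hs : ∀ v, Summable fun k => (lam k v) ^ 2}

theorem En_eq (hs : ∀ v, Summable fun k => (lam k v) ^ 2) (v : V) :
    En D lam v = ‖D v‖ ^ 2 + ‖Lc lam hs v‖ ^ 2 := by
  rw [l2_norm_sq]; rfl

theorem condS_nonneg : 0 ≤ condS D lam A :=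
  Real.sInf_nonneg (by rintro _ ⟨z, -, rfl⟩; exact En_nonneg _ _ _)

theorem condS_le {z : V} (hz : z ∈ Feas A) : condS D lam A ≤ En D lam z :=
  csInf_le ⟨0, by rintro _ ⟨z, -, rfl⟩; exact En_nonneg _ _ _⟩ ⟨z, hz, rfl⟩

/-- `(X, c)` is the minimising pair. -/
structure IsMin (D : V →ₗ[ℝ] H) (lam : ι → Seminorm ℝ V) (A : V →ₗ[ℝ] (P → ℝ))
    (hs : ∀ v, Summable fun k => (lam k v) ^ 2) (X : H) (c : L2 ι) : Prop where
  nonneg : ∀ k, 0 ≤ c k
  lim : ∃ z : ℕ → V, (∀ n, z n ∈ Feas A) ∧ Tendsto (fun n => D (z n)) atTop (𝓝 X) ∧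
    Tendsto (fun n => Lc lam hs (z n)) atTop (𝓝 c)
  norm_sq : ‖X‖ ^ 2 + ‖c‖ ^ 2 = condS D lam A
  ge : ∀ z ∈ Feas A, ‖X‖ ^ 2 + ‖c‖ ^ 2 ≤ ⟪X, D z⟫ + ⟪c, Lc lam hs z⟫

theorem exists_min [CompleteSpace H] (D : V →ₗ[ℝ] H) (lam : ι → Seminorm ℝ V)
    (A : V →ₗ[ℝ] (P → ℝ)) (hs : ∀ v, Summable fun k => (lam k v) ^ 2)
    (hne : (Feas A).Nonempty) : ∃ X c, IsMin D lam A hs X c := by
  -- the convex set of pairs `(D z, w)`, `w ≥ (lam k z)_k`
  let G : Set (WithLp 2 (H × L2 ι)) :=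
    {q | ∃ z ∈ Feas A, q.fst = D z ∧ ∀ k, lam k z ≤ q.snd k}
  have hGc : Convex ℝ G := by
    rintro q ⟨z, hz, h1, h2⟩ q' ⟨z', hz', h1', h2'⟩ a b ha hb hab
    refine ⟨a • z + b • z', Crest.Agent.R105.Kkt_238.convex_feas A hz hz' ha hb hab, ?_, ?_⟩
    · simp [h1, h1']
    · intro k
      have h3 : lam k (a • z + b • z') ≤ a * lam k z + b * lam k z' := by
        refine (map_add_le_add _ _ _).trans ?_
        rw [map_smul_eq_mul, map_smul_eq_mul, Real.norm_of_nonneg ha, Real.norm_of_nonneg hb]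
      have h4 := mul_le_mul_of_nonneg_left (h2 k) ha
      have h5 := mul_le_mul_of_nonneg_left (h2' k) hb
      simp only [WithLp.add_snd, WithLp.smul_snd, lp.coeFn_add, lp.coeFn_smul, Pi.add_apply,
        Pi.smul_apply, smul_eq_mul]
      linarith
  have hG : ∀ z ∈ Feas A, (WithLp.toLp 2 (D z, Lc lam hs z)) ∈ G :=
    fun z hz => ⟨z, hz, rfl, fun k => le_rfl⟩
  set K := closure G with hK
  have hKne : K.Nonempty := by
    obtain ⟨z, hz⟩ := hne
    exact ⟨_, subset_closure (hG z hz)⟩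
  have hKc : Convex ℝ K := hGc.closure
  obtain ⟨q, hqK, hq⟩ := exists_norm_eq_iInf_of_complete_convex hKne
    isClosed_closure.isComplete hKc (0 : WithLp 2 (H × L2 ι))
  have hvi := (norm_eq_iInf_iff_real_inner_le_zero hKc hqK).1 hq
  have hvi' : ∀ w ∈ K, ‖q‖ ^ 2 ≤ ⟪q, w⟫ := by
    intro w hw
    have := hvi w hw
    rw [zero_sub, inner_neg_left, inner_sub_right, real_inner_self_eq_norm_sq] at this
    linarith
  obtain ⟨w, hw, hlim⟩ := mem_closure_iff_seq_limit.1 hqK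
  choose z hz hzw hzl using hw
  have hlim1 : Tendsto (fun n => D (z n)) atTop (𝓝 q.fst) := by
    have := (WithLp.continuous_fst 2 H (L2 ι)).tendsto q |>.comp hlim
    refine this.congr (fun n => hzw n)
  have hlim2 : Tendsto (fun n => (w n).snd) atTop (𝓝 q.snd) :=
    (WithLp.continuous_snd 2 H (L2 ι)).tendsto q |>.comp hlim
  have hnq : ‖q‖ ^ 2 = ‖q.fst‖ ^ 2 + ‖q.snd‖ ^ 2 := WithLp.prod_norm_sq_eq_of_L2 q
  have hnn : ∀ n, ‖(WithLp.toLp 2 (D (z n), Lc lam hs (z n)) : WithLp 2 (H × L2 ι))‖ ^ 2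
      ≤ ‖w n‖ ^ 2 := by
    intro n
    rw [WithLp.prod_norm_sq_eq_of_L2, WithLp.prod_norm_sq_eq_of_L2, hzw n]
    have := norm_mono (a := Lc lam hs (z n)) (b := (w n).snd)
      (fun k => apply_nonneg _ _) (hzl n)
    simpa using this
  have hlimZ : Tendsto (fun n => (WithLp.toLp 2 (D (z n), Lc lam hs (z n)) :
      WithLp 2 (H × L2 ι))) atTop (𝓝 q) := by
    rw [tendsto_iff_norm_sub_tendsto_zero]
    have h1 : ∀ n, ‖(WithLp.toLp 2 (D (z n), Lc lam hs (z n)) : WithLp 2 (H × L2 ι)) - q‖ ^ 2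
        ≤ ‖w n‖ ^ 2 - ‖q‖ ^ 2 := by
      intro n
      have h2 := norm_sub_sq_real
        (WithLp.toLp 2 (D (z n), Lc lam hs (z n)) : WithLp 2 (H × L2 ι)) q
      have h3 := hvi' _ (subset_closure (hG _ (hz n)))
      rw [real_inner_comm] at h3
      have h4 := hnn n
      linarith
    have h5 : Tendsto (fun n => ‖w n‖ ^ 2 - ‖q‖ ^ 2) atTop (𝓝 0) := by
      have := ((hlim.norm).pow 2).sub_const (‖q‖ ^ 2)
      rwa [sub_self] at this
    have h6 := squeeze_zero (fun n => by positivity) h1 h5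
    have h7 := h6.sqrt
    simpa [Real.sqrt_sq] using h7
  have hlim3 : Tendsto (fun n => Lc lam hs (z n)) atTop (𝓝 q.snd) :=
    (WithLp.continuous_snd 2 H (L2 ι)).tendsto q |>.comp hlimZ
  have hge : ∀ y ∈ Feas A, ‖q.fst‖ ^ 2 + ‖q.snd‖ ^ 2 ≤ ⟪q.fst, D y⟫ + ⟪q.snd, Lc lam hs y⟫ := by
    intro y hy
    have := hvi' _ (subset_closure (hG y hy))
    rwa [hnq, WithLp.prod_inner_apply] at this
  have hmin : ∀ y ∈ Feas A, ‖q.fst‖ ^ 2 + ‖q.snd‖ ^ 2 ≤ En D lam y := by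
    intro y hy
    have h1 := hge y hy
    rw [En_eq hs]
    have h2 := norm_sub_sq_real q.fst (D y)
    have h3 := norm_sub_sq_real q.snd (Lc lam hs y)
    have h4 := sq_nonneg ‖q.fst - D y‖
    have h5 := sq_nonneg ‖q.snd - Lc lam hs y‖
    linarith
  refine ⟨q.fst, q.snd, fun k => ?_, ⟨z, hz, hlim1, hlim3⟩, ?_, hge⟩
  · have h1 : Tendsto (fun n => lam k (z n)) atTop (𝓝 (q.snd k)) := by
      have h2 : Continuous fun f : L2 ι => f k :=
        (lp.lipschitzWith_one_eval (p := 2) (E := fun _ : ι => ℝ) k).continuous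
      exact (h2.tendsto q.snd).comp hlim3
    exact ge_of_tendsto' h1 (fun n => apply_nonneg _ _)
  · apply le_antisymm
    · apply le_csInf (hne.image _)
      rintro _ ⟨y, hy, rfl⟩
      exact hmin y hy
    · have h1 : Tendsto (fun n => En D lam (z n)) atTop (𝓝 (‖q.fst‖ ^ 2 + ‖q.snd‖ ^ 2)) := by
        simp only [En_eq hs]
        exact ((hlim1.norm).pow 2).add ((hlim3.norm).pow 2)
      exact ge_of_tendsto' h1 (fun n => condS_le (hz n))

namespace IsMin
variable {X : H} {c : L2 ι}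

theorem Lc_add_le (hs : ∀ v, Summable fun k => (lam k v) ^ 2) (hc : ∀ k, 0 ≤ c k) (u v : V) :
    ⟪c, Lc lam hs (u + v)⟫ ≤ ⟪c, Lc lam hs u⟫ + ⟪c, Lc lam hs v⟫ := by
  rw [← inner_add_right]
  apply inner_mono hc
  intro k
  simpa using map_add_le_add (lam k) u v

theorem Lc_smul (hs : ∀ v, Summable fun k => (lam k v) ^ 2) (t : ℝ) (v : V) :
    ⟪c, Lc lam hs (t • v)⟫ = |t| * ⟪c, Lc lam hs v⟫ := by
  have : Lc lam hs (t • v) = |t| • Lc lam hs v := by
    ext k
    simp [map_smul_eq_mul]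
  rw [this, inner_smul_right]

theorem cost_nonneg (hs : ∀ v, Summable fun k => (lam k v) ^ 2) (hc : ∀ k, 0 ≤ c k) (v : V) :
    0 ≤ ⟪c, Lc lam hs v⟫ := by
  rw [l2_inner]
  exact tsum_nonneg fun k => mul_nonneg (hc k) (apply_nonneg _ _)

theorem tendsto_inner (h : IsMin D lam A hs X c) {z : ℕ → V}
    (h1 : Tendsto (fun n => D (z n)) atTop (𝓝 X))
    (h2 : Tendsto (fun n => Lc lam hs (z n)) atTop (𝓝 c)) :
    Tendsto (fun n => ⟪X, D (z n)⟫ + ⟪c, Lc lam hs (z n)⟫) atTop (𝓝 (condS D lam A)) := by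
  have h3 := Filter.Tendsto.inner (𝕜 := ℝ) (tendsto_const_nhds (x := X)) h1
  have h4 := Filter.Tendsto.inner (𝕜 := ℝ) (tendsto_const_nhds (x := c)) h2
  rw [real_inner_self_eq_norm_sq] at h3 h4
  rw [← h.norm_sq]
  exact h3.add h4

/-- the KKT inequality -/
theorem ge_const (h : IsMin D lam A hs X c) {e : V} {r : ℝ} (hr : ∀ p, r ≤ A e p) :
    r * condS D lam A ≤ ⟪X, D e⟫ + ⟪c, Lc lam hs e⟫ := by
  obtain ⟨z, hz, hl1, hl2⟩ := h.lim
  have hI := h.tendsto_inner hl1 hl2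
  have h0 : ∀ e : V, (∀ p, 0 ≤ A e p) → 0 ≤ ⟪X, D e⟫ + ⟪c, Lc lam hs e⟫ := by
    intro e he
    have h1 : ∀ n, condS D lam A ≤ (⟪X, D (z n)⟫ + ⟪c, Lc lam hs (z n)⟫)
        + (⟪X, D e⟫ + ⟪c, Lc lam hs e⟫) := by
      intro n
      have hf : z n + e ∈ Feas A := by
        intro p
        simp only [map_add, Pi.add_apply]
        have := he p
        have := hz n p
        linarith
      have h2 := h.ge _ hf
      have h3 := Lc_add_le hs h.nonneg (z n) e
      rw [h.norm_sq, map_add, inner_add_right] at h2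
      linarith
    have h4 := ge_of_tendsto' (hI.add_const _) h1
    linarith
  rcases lt_or_ge 0 r with hr0 | hr0
  · have hf : r⁻¹ • e ∈ Feas A := by
      intro p
      simp only [map_smul, Pi.smul_apply, smul_eq_mul]
      rw [← inv_mul_cancel₀ hr0.ne']
      exact mul_le_mul_of_nonneg_left (hr p) (inv_nonneg.2 hr0.le)
    have h2 := h.ge _ hf
    rw [h.norm_sq, map_smul, inner_smul_right, Lc_smul, abs_of_pos (inv_pos.2 hr0),
      ← mul_add] at h2
    have h5 := mul_le_mul_of_nonneg_left h2 hr0.le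
    rwa [← mul_assoc, mul_inv_cancel₀ hr0.ne', one_mul] at h5
  · have h1 : ∀ n, r * (⟪X, D (z n)⟫ + ⟪c, Lc lam hs (z n)⟫) ≤ ⟪X, D e⟫ + ⟪c, Lc lam hs e⟫ := by
      intro n
      have hf : ∀ p, 0 ≤ A (e + (-r) • z n) p := by
        intro p
        simp only [map_add, map_smul, Pi.add_apply, Pi.smul_apply, smul_eq_mul]
        have h6 := hz n p
        have h7 := hr p
        nlinarith
      have h2 := h0 _ hf
      have h3 := Lc_add_le hs h.nonneg e ((-r) • z n)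
      rw [Lc_smul, abs_of_nonneg (by linarith : 0 ≤ -r)] at h3
      simp only [map_add, map_smul, inner_add_right, inner_smul_right] at h2
      linarith
    exact le_of_tendsto' (hI.const_mul r) h1

/-- uniqueness of the minimising pair -/
theorem unique (h : IsMin D lam A hs X c) {X' : H} {c' : L2 ι} (h' : IsMin D lam A hs X' c') :
    X = X' ∧ c = c' := by
  obtain ⟨z, hz, hl1, hl2⟩ := h.lim
  have h3 := Filter.Tendsto.inner (𝕜 := ℝ) (tendsto_const_nhds (x := X')) hl1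
  have h4 := Filter.Tendsto.inner (𝕜 := ℝ) (tendsto_const_nhds (x := c')) hl2
  have h5 : ‖X'‖ ^ 2 + ‖c'‖ ^ 2 ≤ ⟪X', X⟫ + ⟪c', c⟫ :=
    ge_of_tendsto' (h3.add h4) (fun n => h'.ge _ (hz n))
  have h6 := norm_sub_sq_real X' X
  have h7 := norm_sub_sq_real c' c
  have h8 := h.norm_sq
  have h9 := h'.norm_sq
  have h10 := sq_nonneg ‖X' - X‖
  have h11 := sq_nonneg ‖c' - c‖
  have h12 : ‖X' - X‖ = 0 := by
    have : ‖X' - X‖ ^ 2 = 0 := by linarith
    exact pow_eq_zero_iff (two_ne_zero) |>.1 this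
  have h13 : ‖c' - c‖ = 0 := by
    have : ‖c' - c‖ ^ 2 = 0 := by linarith
    exact pow_eq_zero_iff (two_ne_zero) |>.1 this
  exact ⟨(sub_eq_zero.1 (norm_eq_zero.1 h12)).symm, (sub_eq_zero.1 (norm_eq_zero.1 h13)).symm⟩

/-- every minimising sequence converges to `(X, c)` -/
theorem tendsto_of_En (h : IsMin D lam A hs X c) {z : ℕ → V} (hz : ∀ n, z n ∈ Feas A)
    (hn : Tendsto (fun n => En D lam (z n)) atTop (𝓝 (condS D lam A))) :
    Tendsto (fun n => D (z n)) atTop (𝓝 X) ∧ Tendsto (fun n => Lc lam hs (z n)) atTop (𝓝 c) := by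
  have key : ∀ n, ‖D (z n) - X‖ ^ 2 + ‖Lc lam hs (z n) - c‖ ^ 2
      ≤ En D lam (z n) - condS D lam A := by
    intro n
    have h2 := norm_sub_sq_real (D (z n)) X
    have h3 := norm_sub_sq_real (Lc lam hs (z n)) c
    have h4 := h.ge _ (hz n)
    rw [real_inner_comm (D (z n)) X, real_inner_comm (Lc lam hs (z n)) c] at h4
    have h5 := h.norm_sq
    rw [En_eq hs]
    linarith
  have h5 : Tendsto (fun n => En D lam (z n) - condS D lam A) atTop (𝓝 0) := by
    have := hn.sub_const (condS D lam A)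
    rwa [sub_self] at this
  constructor
  · rw [tendsto_iff_norm_sub_tendsto_zero]
    have h6 : Tendsto (fun n => ‖D (z n) - X‖ ^ 2) atTop (𝓝 0) :=
      squeeze_zero (fun n => by positivity)
        (fun n => (le_add_of_nonneg_right (sq_nonneg _)).trans (key n)) h5
    have h7 := h6.sqrt
    simpa [Real.sqrt_sq] using h7
  · rw [tendsto_iff_norm_sub_tendsto_zero]
    have h6 : Tendsto (fun n => ‖Lc lam hs (z n) - c‖ ^ 2) atTop (𝓝 0) :=
      squeeze_zero (fun n => by positivity)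
        (fun n => (le_add_of_nonneg_left (sq_nonneg _)).trans (key n)) h5
    have h7 := h6.sqrt
    simpa [Real.sqrt_sq] using h7

end IsMin

end main

end Crest.Agent.R105.Kks_247
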