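/-
# KKT with seminorm costs, part 2: the flow (linear functionals on the solids + positive functional)
helper247, row 105.
-/
import Mathlib.Analysis.Normed.Module.HahnBanach
import Crest.Agent.R105.Kks1_247

open Filter Topology Set

namespace Crest.Agent.R105.Kks_247

open Crest.Agent.R105.Kkt_238 (Bd Pos Feas)

local notation "⟪" x ", " y "⟫" => inner ℝ x y

/-- Hahn–Banach for a functional `φ ≤ N ∘ G` -/
theorem hb_comp {V E : Type*} [AddCommGroup V] [Module ℝ V] [AddCommGroup E] [Module ℝ E]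
    (G : V →ₗ[ℝ] E) (φ : V →ₗ[ℝ] ℝ) (N : E → ℝ)
    (hN : ∀ a : ℝ, 0 < a → ∀ x, N (a • x) = a * N x) (hadd : ∀ x y, N (x + y) ≤ N x + N y)
    (h : ∀ v, φ v ≤ N (G v)) :
    ∃ g : E →ₗ[ℝ] ℝ, (∀ v, g (G v) = φ v) ∧ ∀ x, g x ≤ N x := by
  have hN0 : N 0 = 0 := by
    have := hN 2 two_pos 0
    rw [smul_zero] at this
    linarith
  have hker : LinearMap.ker G ≤ LinearMap.ker φ := by
    intro w hw
    rw [LinearMap.mem_ker] at hw ⊢
    have h1 := h w
    have h2 := h (-w)
    rw [hw, hN0] at h1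
    rw [map_neg, map_neg, hw, neg_zero, hN0] at h2
    linarith
  obtain ⟨g₀, hg₀⟩ : ∃ g₀ : E →ₗ[ℝ] ℝ, g₀ ∘ₗ G = φ := by
    have h1 : φ ∈ (LinearMap.ker G).dualAnnihilator := by
      rw [Submodule.mem_dualAnnihilator]
      intro w hw
      exact hker hw
    rw [← LinearMap.range_dualMap_eq_dualAnnihilator_ker] at h1
    obtain ⟨g, hg⟩ := h1
    exact ⟨g, hg⟩
  let f : E →ₗ.[ℝ] ℝ := ⟨LinearMap.range G, g₀.domRestrict (LinearMap.range G)⟩
  obtain ⟨g, hg, hgN⟩ := exists_extension_of_le_sublinear f N hN hadd (by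
    rintro ⟨x, ⟨v, rfl⟩⟩
    have h1 : f ⟨G v, ⟨v, rfl⟩⟩ = φ v := by rw [← hg₀]; rfl
    rw [h1]
    exact h v)
  refine ⟨g, fun v => ?_, hgN⟩
  have h1 := hg ⟨G v, ⟨v, rfl⟩⟩
  have h2 : f ⟨G v, ⟨v, rfl⟩⟩ = φ v := by rw [← hg₀]; rfl
  rw [← h2]
  exact h1

section fam
variable {V ι : Type*} [AddCommGroup V] [Module ℝ V]

/-- families `(e k)` with `∑ c k * lam k (e k) < ∞` -/
def Fam (lam : ι → Seminorm ℝ V) (c : ι → ℝ) (hc : ∀ k, 0 ≤ c k) : Submodule ℝ (ι → V) where
  carrier := {e | Summable fun k => c k * lam k (e k)}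
  add_mem' := by
    intro a b ha hb
    refine Summable.of_nonneg_of_le (fun k => mul_nonneg (hc k) (apply_nonneg _ _)) (fun k => ?_)
      (ha.add hb)
    rw [← mul_add]
    exact mul_le_mul_of_nonneg_left (map_add_le_add (lam k) (a k) (b k)) (hc k)
  zero_mem' := by
    have : (fun k => c k * lam k ((0 : ι → V) k)) = fun _ => 0 := by ext k; simp
    show Summable fun k => c k * lam k ((0 : ι → V) k)
    rw [this]
    exact summable_zero
  smul_mem' := by
    intro t a ha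
    have : (fun k => c k * lam k ((t • a) k)) = fun k => |t| * (c k * lam k (a k)) := by
      ext k
      simp only [Pi.smul_apply, map_smul_eq_mul, Real.norm_eq_abs]
      ring
    show Summable fun k => c k * lam k ((t • a) k)
    rw [this]
    exact Summable.mul_left _ ha

variable {P : Type*}

/-- bounded functions -/
def BdS (P : Type*) : Submodule ℝ (P → ℝ) where
  carrier := {f | Bd f}
  add_mem' := fun hf hg => hf.add hg
  zero_mem' := Bd.zero
  smul_mem' := fun c f hf => hf.smul c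

theorem bdd_of_Bd {f : P → ℝ} (hf : Bd f) : BddAbove (range f) := by
  obtain ⟨C, hC⟩ := hf
  exact ⟨C, by rintro _ ⟨p, rfl⟩; exact (abs_le.1 (hC p)).2⟩

theorem iSup_smul_pos (f : P → ℝ) {a : ℝ} (ha : 0 < a) : (⨆ p, a * f p) = a * ⨆ p, f p :=
  (Real.mul_iSup_of_nonneg ha.le _).symm

/-- the splitting lemma: `φ e ≤ m sup (A e) + ∑ c k lam k e` gives a positive functional and
functionals `l k` with `|l k| ≤ c k * lam k`. -/
theorem split {V ι P : Type*} [AddCommGroup V] [Module ℝ V] [Nonempty P]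
    (lam : ι → Seminorm ℝ V) (c : ι → ℝ) (hc : ∀ k, 0 ≤ c k)
    (hsum : ∀ v, Summable fun k => c k * lam k v) (A : V →ₗ[ℝ] (P → ℝ)) (hA : ∀ v, Bd (A v))
    (m : ℝ) (hm : 0 ≤ m) (φ : V →ₗ[ℝ] ℝ)
    (h : ∀ v r, (∀ p, A v p ≤ r) → φ v ≤ m * r + ∑' k, c k * lam k v) :
    ∃ (l : ι → V →ₗ[ℝ] ℝ) (Lam : (P → ℝ) →ₗ[ℝ] ℝ), (∀ k v, |l k v| ≤ c k * lam k v) ∧
      Pos Lam ∧ Lam 1 = m ∧ ∀ v, φ v + ∑' k, l k v = Lam (A v) := by
  classical
  let S := Fam lam c hc
  let G : V →ₗ[ℝ] (BdS P × S) :=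
    (A.codRestrict (BdS P) hA).prod
      ((LinearMap.pi fun _ => LinearMap.id).codRestrict S (fun v => hsum v))
  let N : (BdS P × S) → ℝ := fun q => m * (⨆ p, (q.1 : P → ℝ) p) + ∑' k, c k * lam k ((q.2 : ι → V) k)
  have hS : ∀ s : S, Summable fun k => c k * lam k ((s : ι → V) k) := fun s => s.2
  obtain ⟨g, hgG, hgN⟩ := hb_comp G φ N (by
      intro a ha x
      have h1 : (⨆ p, ((a • x).1 : P → ℝ) p) = a * ⨆ p, (x.1 : P → ℝ) p := by
        rw [← iSup_smul_pos _ ha]; rfl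
      have h2 : (∑' k, c k * lam k (((a • x).2 : ι → V) k)) = a * ∑' k, c k * lam k ((x.2 : ι → V) k) := by
        rw [← tsum_mul_left]
        apply tsum_congr
        intro k
        have : (((a • x).2 : ι → V) k) = a • ((x.2 : ι → V) k) := rfl
        rw [this, map_smul_eq_mul, Real.norm_of_nonneg ha.le]
        ring
      show m * (⨆ p, ((a • x).1 : P → ℝ) p) + (∑' k, c k * lam k (((a • x).2 : ι → V) k)) = _
      rw [h1, h2]
      show _ = a * (m * (⨆ p, (x.1 : P → ℝ) p) + ∑' k, c k * lam k ((x.2 : ι → V) k))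
      ring) (by
      intro x y
      have h1 : (⨆ p, ((x + y).1 : P → ℝ) p) ≤ (⨆ p, (x.1 : P → ℝ) p) + ⨆ p, (y.1 : P → ℝ) p := by
        apply ciSup_le
        intro p
        exact add_le_add (le_ciSup (bdd_of_Bd x.1.2) p) (le_ciSup (bdd_of_Bd y.1.2) p)
      have h2 : (∑' k, c k * lam k (((x + y).2 : ι → V) k)) ≤ (∑' k, c k * lam k ((x.2 : ι → V) k))
          + ∑' k, c k * lam k ((y.2 : ι → V) k) := by
        rw [← (hS x.2).tsum_add (hS y.2)]
        apply (hS (x + y).2).tsum_le_tsum _ ((hS x.2).add (hS y.2))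
        intro k
        rw [← mul_add]
        exact mul_le_mul_of_nonneg_left (map_add_le_add (lam k) _ _) (hc k)
      have h3 := mul_le_mul_of_nonneg_left h1 hm
      show m * (⨆ p, ((x + y).1 : P → ℝ) p) + (∑' k, c k * lam k (((x + y).2 : ι → V) k)) ≤
        (m * (⨆ p, (x.1 : P → ℝ) p) + ∑' k, c k * lam k ((x.2 : ι → V) k)) +
        (m * (⨆ p, (y.1 : P → ℝ) p) + ∑' k, c k * lam k ((y.2 : ι → V) k))
      linarith) (by
      intro v
      exact h v _ (fun p => le_ciSup (bdd_of_Bd (hA v)) p))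
  -- the positive functional
  let g1 : BdS P →ₗ[ℝ] ℝ := g ∘ₗ LinearMap.inl ℝ (BdS P) S
  obtain ⟨Lam, hLam⟩ := LinearMap.exists_extend g1
  have hL : ∀ b : BdS P, Lam (b : P → ℝ) = g (b, 0) := fun b =>
    LinearMap.congr_fun hLam b
  have hN1 : ∀ b : BdS P, N (b, 0) = m * ⨆ p, (b : P → ℝ) p := by
    intro b
    show m * (⨆ p, (b : P → ℝ) p) + (∑' k, c k * lam k (((0 : S) : ι → V) k)) = _
    simp
  have hsingle : ∀ k v, (Pi.single k v : ι → V) ∈ S := by
    intro k v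
    show Summable fun j => c j * lam j ((Pi.single k v : ι → V) j)
    apply summable_of_ne_finset_zero (s := {k})
    intro b hb
    rw [Finset.mem_singleton] at hb
    rw [Pi.single_eq_of_ne hb, map_zero, mul_zero]
  let sg : ι → V →ₗ[ℝ] S := fun k =>
    (LinearMap.single ℝ (fun _ : ι => V) k).codRestrict S (fun v => hsingle k v)
  have hN2 : ∀ k v, N (0, sg k v) = c k * lam k v := by
    intro k v
    have h1 : (⨆ p, ((0 : BdS P) : P → ℝ) p) = 0 := by simp
    show m * (⨆ p, ((0 : BdS P) : P → ℝ) p) + (∑' j, c j * lam j ((Pi.single k v : ι → V) j)) = _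
    rw [h1, tsum_eq_single k]
    · simp
    · intro b hb
      rw [Pi.single_eq_of_ne hb, map_zero, mul_zero]
  let l : ι → V →ₗ[ℝ] ℝ := fun k => -(g ∘ₗ LinearMap.inr ℝ (BdS P) S ∘ₗ sg k)
  have hl : ∀ k v, l k v = -g (0, sg k v) := fun k v => rfl
  have hlb : ∀ k v, |l k v| ≤ c k * lam k v := by
    intro k v
    rw [hl, abs_neg, abs_le]
    constructor
    · have h1 := hgN (0, sg k (-v))
      rw [hN2, map_neg_eq_map (lam k) v] at h1
      have h2 : ((0 : BdS P), sg k (-v)) = -((0 : BdS P), sg k v) := by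
        rw [LinearMap.map_neg]; simp
      rw [h2, LinearMap.map_neg g] at h1
      linarith
    · have h1 := hgN (0, sg k v)
      rwa [hN2] at h1
  have hm1 : g ((⟨1, Bd.one⟩ : BdS P), 0) = m := by
    apply le_antisymm
    · have h1 := hgN ((⟨1, Bd.one⟩ : BdS P), 0)
      rw [hN1] at h1
      simpa using h1
    · have h1 := hgN (-(⟨1, Bd.one⟩ : BdS P), 0)
      rw [hN1] at h1
      have h2 : (-(⟨1, Bd.one⟩ : BdS P), (0 : S)) = -((⟨1, Bd.one⟩ : BdS P), 0) := by simp
      rw [h2, map_neg] at h1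
      have h3 : (⨆ p, ((-(⟨1, Bd.one⟩ : BdS P) : BdS P) : P → ℝ) p) = -1 := by simp
      rw [h3] at h1
      linarith
  refine ⟨l, Lam, hlb, ⟨fun f hf hf0 => ?_⟩, ?_, fun v => ?_⟩
  · have h1 := hgN (-(⟨f, hf⟩ : BdS P), 0)
    rw [hN1] at h1
    have h2 : (-(⟨f, hf⟩ : BdS P), (0 : S)) = -((⟨f, hf⟩ : BdS P), 0) := by simp
    rw [h2, map_neg, ← hL] at h1
    have h3 : (⨆ p, ((-(⟨f, hf⟩ : BdS P) : BdS P) : P → ℝ) p) ≤ 0 := by
      apply ciSup_le
      intro p
      show -f p ≤ 0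
      linarith [hf0 p]
    have h4 := mul_le_mul_of_nonneg_left h3 hm
    show 0 ≤ Lam f
    have h5 : Lam ((⟨f, hf⟩ : BdS P) : P → ℝ) = Lam f := rfl
    rw [h5] at h1
    linarith
  · have := hL ⟨1, Bd.one⟩
    rw [hm1] at this
    exact this
  · -- countable additivity
    let cst : S := ⟨fun _ => v, hsum v⟩
    have hG : G v = ((⟨A v, hA v⟩ : BdS P), cst) := rfl
    have h1 : φ v = Lam (A v) + g (0, cst) := by
      rw [← hgG, hG]
      have h2 : (((⟨A v, hA v⟩ : BdS P), cst) : BdS P × S)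
          = ((⟨A v, hA v⟩ : BdS P), 0) + (0, cst) := by simp
      rw [h2, map_add, ← hL]
    have h3 : HasSum (fun k => g (0, sg k v)) (g (0, cst)) := by
      rw [HasSum]
      have ha : Tendsto (fun F : Finset ι => (∑' k, c k * lam k v) - ∑ k ∈ F, c k * lam k v)
          atTop (𝓝 0) := by
        have := ((hsum v).hasSum).const_sub (∑' k, c k * lam k v)
        rwa [sub_self] at this
      have hb : ∀ F : Finset ι, |∑ k ∈ F, g (0, sg k v) - g (0, cst)|
          ≤ (∑' k, c k * lam k v) - ∑ k ∈ F, c k * lam k v := by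
        intro F
        have hmem : (fun k => if k ∈ F then (0 : V) else v) ∈ S := by
          show Summable fun k => c k * lam k (if k ∈ F then (0 : V) else v)
          refine Summable.of_nonneg_of_le (fun k => mul_nonneg (hc k) (apply_nonneg _ _))
            (fun k => ?_) (hsum v)
          split_ifs
          · simpa using mul_nonneg (hc k) (apply_nonneg (lam k) v)
          · exact le_rfl
        have hdec : cst = (∑ k ∈ F, sg k v) + ⟨_, hmem⟩ := by
          ext j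
          have : ((∑ k ∈ F, sg k v : S) : ι → V) j = ∑ k ∈ F, (Pi.single k v : ι → V) j := by
            rw [Submodule.coe_sum, Finset.sum_apply]; rfl
          rw [Submodule.coe_add, Pi.add_apply, this]
          show v = _ + (if j ∈ F then (0 : V) else v)
          rw [Finset.sum_pi_single]
          split_ifs <;> simp
        have hval : N (0, ⟨_, hmem⟩) = (∑' k, c k * lam k v) - ∑ k ∈ F, c k * lam k v := by
          have h4 : (⨆ p, ((0 : BdS P) : P → ℝ) p) = 0 := by simp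
          show m * (⨆ p, ((0 : BdS P) : P → ℝ) p) +
            (∑' k, c k * lam k (if k ∈ F then (0 : V) else v)) = _
          rw [h4]
          have h5 : (∑' k, c k * lam k v) = (∑' k, c k * lam k (if k ∈ F then (0 : V) else v))
              + ∑' k, (if k ∈ F then c k * lam k v else 0) := by
            rw [← Summable.tsum_add hmem]
            · apply tsum_congr
              intro k
              by_cases hk : k ∈ F
              · simp [hk]
              · simp [hk]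
            · apply summable_of_ne_finset_zero (s := F)
              intro b hb
              simp [hb]
          have h6 : ∑' k, (if k ∈ F then c k * lam k v else 0) = ∑ b ∈ F, c b * lam b v := by
            rw [tsum_eq_sum (s := F) (fun b hb => by simp [hb])]
            exact Finset.sum_congr rfl (fun b hb => by simp [hb])
          rw [h5, h6]
          ring
        have hneg : N (0, -⟨_, hmem⟩) = (∑' k, c k * lam k v) - ∑ k ∈ F, c k * lam k v := by
          rw [← hval]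
          show m * (⨆ p, ((0 : BdS P) : P → ℝ) p) +
            (∑' k, c k * lam k (-(if k ∈ F then (0 : V) else v))) =
            m * (⨆ p, ((0 : BdS P) : P → ℝ) p) +
            (∑' k, c k * lam k (if k ∈ F then (0 : V) else v))
          congr 1
          apply tsum_congr
          intro k
          rw [map_neg_eq_map (lam k)]
        have hsplit : g (0, cst) = ∑ k ∈ F, g (0, sg k v) + g (0, ⟨_, hmem⟩) := by
          have h7 : ((0 : BdS P), cst) = (∑ k ∈ F, ((0 : BdS P), sg k v)) + (0, ⟨_, hmem⟩) := by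
            rw [hdec]
            ext1
            · simp [Prod.fst_sum]
            · simp [Prod.snd_sum]
          rw [h7, map_add, map_sum]
        rw [hsplit, abs_le]
        constructor
        · have h8 := hgN (0, ⟨_, hmem⟩)
          rw [hval] at h8
          linarith
        · have h8 := hgN (0, -⟨_, hmem⟩)
          rw [hneg] at h8
          have h9 : ((0 : BdS P), -(⟨_, hmem⟩ : S)) = -((0 : BdS P), (⟨_, hmem⟩ : S)) := by simp
          rw [h9, map_neg] at h8
          linarith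
      rw [tendsto_iff_norm_sub_tendsto_zero]
      exact squeeze_zero (fun F => norm_nonneg _) (fun F => by
        rw [Real.norm_eq_abs]; exact hb F) ha
    have h4 : ∑' k, l k v = -g (0, cst) := by
      rw [← h3.tsum_eq, ← tsum_neg]
      rfl
    rw [h4, h1]
    ring

end fam

/-- representation: `l e ≤ c sup (B e)` ⟹ `l e = ν (B e)`, `ν` positive of mass `c`
(`B e` = weighted differences over the ordered pairs of points of a solid). -/
theorem rep {V Q : Type*} [AddCommGroup V] [Module ℝ V] [Nonempty Q] (B : V →ₗ[ℝ] (Q → ℝ))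
    (hB : ∀ v, Bd (B v)) (c : ℝ) (hc : 0 ≤ c) (l : V →ₗ[ℝ] ℝ)
    (h : ∀ v r, (∀ q, B v q ≤ r) → l v ≤ c * r) :
    ∃ nu : (Q → ℝ) →ₗ[ℝ] ℝ, Pos nu ∧ nu 1 = c ∧ ∀ v, l v = nu (B v) := by
  obtain ⟨l', nu, -, hp, h1, h2⟩ := split (ι := Empty) (fun k => k.elim) (fun k => k.elim)
    (fun k => k.elim) (fun v => summable_empty) B hB c hc l (fun v r hr => by
      simpa using h v r hr)
  exact ⟨nu, hp, h1, fun v => by simpa using h2 v⟩

section main
variable {V H P ι : Type*} [AddCommGroup V] [Module ℝ V] [NormedAddCommGroup H]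
  [InnerProductSpace ℝ H]
variable {D : V →ₗ[ℝ] H} {lam : ι → Seminorm ℝ V} {A : V →ₗ[ℝ] (P → ℝ)}
  {hs : ∀ v, Summable fun k => (lam k v) ^ 2}

/-- **The flow** `(X, c, l, Lam)` : `|l k e| ≤ c k * lam k e`, `Lam ≥ 0`,
`⟪X, D e⟫ + ∑ l k e = Lam (A e)`. -/
structure Flow (D : V →ₗ[ℝ] H) (lam : ι → Seminorm ℝ V) (A : V →ₗ[ℝ] (P → ℝ)) (X : H) (c : L2 ι)
    (l : ι → V →ₗ[ℝ] ℝ) (Lam : (P → ℝ) →ₗ[ℝ] ℝ) : Prop where
  pos : Pos Lam
  le : ∀ k e, |l k e| ≤ c k * lam k e
  eq : ∀ e, ⟪X, D e⟫ + ∑' k, l k e = Lam (A e)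

theorem Flow.summable (hs : ∀ v, Summable fun k => (lam k v) ^ 2) {X : H} {c : L2 ι}
    {l : ι → V →ₗ[ℝ] ℝ} {Lam : (P → ℝ) →ₗ[ℝ] ℝ} (h : Flow D lam A X c l Lam) (e : V) :
    Summable fun k => l k e := by
  refine Summable.of_norm_bounded (l2_summable_mul c (Lc lam hs e)) (fun k => ?_)
  rw [Real.norm_eq_abs]
  exact h.le k e

theorem Flow.sum_le (hs : ∀ v, Summable fun k => (lam k v) ^ 2) {X : H} {c : L2 ι}
    {l : ι → V →ₗ[ℝ] ℝ} {Lam : (P → ℝ) →ₗ[ℝ] ℝ} (h : Flow D lam A X c l Lam) (e : V) :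
    |∑' k, l k e| ≤ ⟪c, Lc lam hs e⟫ := by
  rw [l2_inner]
  have h1 := norm_tsum_le_tsum_norm (f := fun k => l k e)
    (Summable.of_nonneg_of_le (fun k => norm_nonneg _)
      (fun k => by rw [Real.norm_eq_abs]; exact h.le k e) (l2_summable_mul c (Lc lam hs e)))
  rw [Real.norm_eq_abs] at h1
  refine h1.trans ?_
  refine Summable.tsum_le_tsum (fun k => ?_)
    (Summable.of_nonneg_of_le (fun k => norm_nonneg _)
      (fun k => by rw [Real.norm_eq_abs]; exact h.le k e) (l2_summable_mul c (Lc lam hs e)))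
    (l2_summable_mul c (Lc lam hs e))
  rw [Real.norm_eq_abs]; exact h.le k e

/-- **(S2)** existence of the optimal flow -/
theorem IsMin.exists_flow [Nonempty P] {X : H} {c : L2 ι} (h : IsMin D lam A hs X c)
    (hA : ∀ e, Bd (A e)) :
    ∃ (l : ι → V →ₗ[ℝ] ℝ) (Lam : (P → ℝ) →ₗ[ℝ] ℝ), Flow D lam A X c l Lam ∧
      Lam 1 = condS D lam A := by
  obtain ⟨l, Lam, h1, h2, h3, h4⟩ := split lam c h.nonneg
    (fun v => l2_summable_mul c (Lc lam hs v)) A hA (condS D lam A) condS_nonneg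
    ((innerSL ℝ X).toLinearMap ∘ₗ D) (fun v r hr => by
      have h5 := h.ge_const (e := -v) (r := -r) (fun p => by
        rw [map_neg, Pi.neg_apply]
        linarith [hr p])
      have h6 : ⟪c, Lc lam hs (-v)⟫ = ∑' k, c k * lam k v := by
        rw [l2_inner]
        exact tsum_congr fun k => by rw [Lc_apply, map_neg_eq_map]
      rw [h6, map_neg, inner_neg_right] at h5
      show ⟪X, D v⟫ ≤ _
      linarith)
  exact ⟨l, Lam, ⟨h2, h1, fun e => h4 e⟩, h3⟩

/-- **(S3) Thomson's principle** -/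
theorem IsMin.thomson_inner {X : H} {c : L2 ι} (h : IsMin D lam A hs X c) (hA : ∀ e, Bd (A e))
    {X' : H} {c' : L2 ι} {l' : ι → V →ₗ[ℝ] ℝ} {Lam' : (P → ℝ) →ₗ[ℝ] ℝ}
    (hf : Flow D lam A X' c' l' Lam') : Lam' 1 ≤ ⟪X', X⟫ + ⟪c', c⟫ := by
  obtain ⟨z, hz, hl1, hl2⟩ := h.lim
  have h3 := Filter.Tendsto.inner (𝕜 := ℝ) (tendsto_const_nhds (x := X')) hl1
  have h4 := Filter.Tendsto.inner (𝕜 := ℝ) (tendsto_const_nhds (x := c')) hl2
  refine ge_of_tendsto' (h3.add h4) (fun n => ?_)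
  have h5 : Lam' 1 ≤ Lam' (A (z n)) :=
    hf.pos.mono Bd.one (hA _) (fun p => by simpa using hz n p)
  rw [← hf.eq] at h5
  have h6 := (abs_le.1 (hf.sum_le hs (z n))).2
  linarith

theorem IsMin.thomson {X : H} {c : L2 ι} (h : IsMin D lam A hs X c) (hA : ∀ e, Bd (A e))
    {X' : H} {c' : L2 ι} {l' : ι → V →ₗ[ℝ] ℝ} {Lam' : (P → ℝ) →ₗ[ℝ] ℝ}
    (hf : Flow D lam A X' c' l' Lam') :
    (Lam' 1) ^ 2 ≤ condS D lam A * (‖X'‖ ^ 2 + ‖c'‖ ^ 2) := by
  have h1 := h.thomson_inner hA hf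
  have h2 := real_inner_le_norm X' X
  have h3 := real_inner_le_norm c' c
  have h4 : 0 ≤ Lam' 1 := hf.pos.one_nonneg
  have h5 : Lam' 1 ≤ ‖X'‖ * ‖X‖ + ‖c'‖ * ‖c‖ := by linarith
  have h6 : (‖X'‖ * ‖X‖ + ‖c'‖ * ‖c‖) ^ 2 ≤ (‖X‖ ^ 2 + ‖c‖ ^ 2) * (‖X'‖ ^ 2 + ‖c'‖ ^ 2) := by
    nlinarith [sq_nonneg (‖X'‖ * ‖c‖ - ‖c'‖ * ‖X‖)]
  rw [h.norm_sq] at h6
  exact (pow_le_pow_left₀ h4 h5 2).trans h6

/-- equality case of Thomson: a flow of the same strength and energy `≤ m` is the optimal one -/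
theorem IsMin.thomson_eq {X : H} {c : L2 ι} (h : IsMin D lam A hs X c) (hA : ∀ e, Bd (A e))
    {X' : H} {c' : L2 ι} {l' : ι → V →ₗ[ℝ] ℝ} {Lam' : (P → ℝ) →ₗ[ℝ] ℝ}
    (hf : Flow D lam A X' c' l' Lam') (h1 : condS D lam A ≤ Lam' 1)
    (hn : ‖X'‖ ^ 2 + ‖c'‖ ^ 2 ≤ condS D lam A) : X' = X ∧ c' = c := by
  have h2 := h.thomson_inner hA hf
  have h6 := norm_sub_sq_real X' X
  have h7 := norm_sub_sq_real c' c
  have h8 := h.norm_sq
  have h10 := sq_nonneg ‖X' - X‖
  have h11 := sq_nonneg ‖c' - c‖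
  have h12 : ‖X' - X‖ = 0 := by
    have : ‖X' - X‖ ^ 2 = 0 := by linarith
    exact pow_eq_zero_iff (two_ne_zero) |>.1 this
  have h13 : ‖c' - c‖ = 0 := by
    have : ‖c' - c‖ ^ 2 = 0 := by linarith
    exact pow_eq_zero_iff (two_ne_zero) |>.1 this
  exact ⟨sub_eq_zero.1 (norm_eq_zero.1 h12), sub_eq_zero.1 (norm_eq_zero.1 h13)⟩

/-- slackness along a minimising sequence -/
theorem IsMin.slack {X : H} {c : L2 ι} (h : IsMin D lam A hs X c) (hA : ∀ e, Bd (A e))
    {l : ι → V →ₗ[ℝ] ℝ} {Lam : (P → ℝ) →ₗ[ℝ] ℝ} (hf : Flow D lam A X c l Lam)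
    (h1 : Lam 1 = condS D lam A) {z : ℕ → V} (hz : ∀ n, z n ∈ Feas A)
    (hl1 : Tendsto (fun n => D (z n)) atTop (𝓝 X))
    (hl2 : Tendsto (fun n => Lc lam hs (z n)) atTop (𝓝 c)) :
    Tendsto (fun n => Lam (A (z n))) atTop (𝓝 (condS D lam A)) ∧
      ∀ k, Tendsto (fun n => l k (z n)) atTop (𝓝 ((c k) ^ 2)) := by
  have hI := h.tendsto_inner hl1 hl2
  have hge : ∀ n, condS D lam A ≤ Lam (A (z n)) := fun n => by
    rw [← h1]
    exact hf.pos.mono Bd.one (hA _) (fun p => by simpa using hz n p)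
  have hle : ∀ n, Lam (A (z n)) ≤ ⟪X, D (z n)⟫ + ⟪c, Lc lam hs (z n)⟫ := fun n => by
    rw [← hf.eq]
    have h6 := (abs_le.1 (hf.sum_le hs (z n))).2
    linarith
  refine ⟨tendsto_of_tendsto_of_tendsto_of_le_of_le tendsto_const_nhds hI hge hle, fun k => ?_⟩
  have hk : Tendsto (fun n => c k * lam k (z n)) atTop (𝓝 ((c k) ^ 2)) := by
    have h2 : Continuous fun f : L2 ι => f k :=
      (lp.lipschitzWith_one_eval (p := 2) (E := fun _ : ι => ℝ) k).continuous
    have h3 := ((h2.tendsto c).comp hl2).const_mul (c k)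
    rw [← sq] at h3
    exact h3
  have hd : ∀ n, c k * lam k (z n) - l k (z n)
      ≤ (⟪X, D (z n)⟫ + ⟪c, Lc lam hs (z n)⟫) - condS D lam A := by
    intro n
    have h2 := hge n
    rw [← hf.eq] at h2
    have h3 : c k * lam k (z n) - l k (z n)
        ≤ ∑' j, (c j * Lc lam hs (z n) j - l j (z n)) :=
      ((l2_summable_mul c (Lc lam hs (z n))).sub (hf.summable hs (z n))).le_tsum k
        (fun j _ => by
          have := (abs_le.1 (hf.le j (z n))).2
          rw [Lc_apply]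
          linarith)
    rw [(l2_summable_mul c (Lc lam hs (z n))).tsum_sub (hf.summable hs (z n)), ← l2_inner] at h3
    linarith
  have hd0 : ∀ n, 0 ≤ c k * lam k (z n) - l k (z n) := fun n => by
    have := (abs_le.1 (hf.le k (z n))).2
    linarith
  have h4 : Tendsto (fun n => (⟪X, D (z n)⟫ + ⟪c, Lc lam hs (z n)⟫) - condS D lam A) atTop
      (𝓝 0) := by
    have := hI.sub_const (condS D lam A)
    rwa [sub_self] at this
  have h5 := squeeze_zero hd0 hd h4
  have h6 := hk.sub h5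
  rw [sub_zero] at h6
  exact h6.congr (fun n => by ring)

end main

end Crest.Agent.R105.Kks_247
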