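import Crest.Agent.R105.Asm0_6

/-!
# Row 105, S0139, ATTP: leaf `C4aP` of `Asm0_6` (helper16)

The clamping operator `Kl r δ ψ` (`ψ` on the closed ball, clamped to `[-δ, δ]` outside).
-/

set_option autoImplicit false

open MeasureTheory Set Filter Topology Metric Bornology
open scoped ContDiff NNReal

namespace Crest.Agent.R105.Kla_16

open Crest.Agent.R105.IfB_641 Crest.Agent.R105.Asm_6

theorem cl_lip (δ : ℝ) : LipschitzWith 1 (cl δ) := by
  refine LipschitzWith.of_dist_le_mul fun x y => ?_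
  rw [Real.dist_eq, Real.dist_eq, NNReal.coe_one, one_mul]
  unfold cl
  refine (abs_max_sub_max_le_max _ _ _ _).trans ?_
  rw [sub_self, abs_zero]
  refine max_le (abs_nonneg _) ?_
  refine (abs_min_sub_min_le_max _ _ _ _).trans ?_
  rw [sub_self, abs_zero]
  exact max_le le_rfl (abs_nonneg _)

theorem cl_eq {δ s : ℝ} (h : |s| ≤ δ) : cl δ s = s := by
  unfold cl
  rw [min_eq_left (abs_le.1 h).2, max_eq_right (abs_le.1 h).1]

theorem abs_cl_le {δ s : ℝ} (hδ : 0 ≤ δ) : |cl δ s| ≤ δ := by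
  unfold cl
  rw [abs_le]
  exact ⟨le_max_left _ _, max_le (by linarith) (min_le_right _ _)⟩

theorem abs_cl_le' {δ s : ℝ} (hδ : 0 ≤ δ) : |cl δ s| ≤ |s| := by
  by_cases h : |s| ≤ δ
  · rw [cl_eq h]
  · exact (abs_cl_le hδ).trans (not_le.1 h).le

variable {C : Set ℂ} {r δ : ℝ} {ψ : ℂ → ℝ}

theorem kl_in {z : ℂ} (h : ‖z‖ ≤ r) : Kl r δ ψ z = ψ z := by
  unfold Kl; rw [if_pos h]

theorem kl_out (hs : ∀ z, ‖z‖ = r → |ψ z| ≤ δ) {z : ℂ} (h : r ≤ ‖z‖) :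
    Kl r δ ψ z = cl δ (ψ z) := by
  unfold Kl
  split_ifs with h1
  · exact (cl_eq (hs z (le_antisymm h1 h))).symm
  · rfl

theorem abs_kl_le (hδ : 0 ≤ δ) (z : ℂ) : |Kl r δ ψ z| ≤ |ψ z| := by
  unfold Kl
  split_ifs with h1
  · exact le_rfl
  · exact abs_cl_le' hδ

/-- the segment crosses the circle -/
theorem cross {p q : ℂ} (hp : ‖p‖ ≤ r) (hq : r ≤ ‖q‖) :
    ∃ m ∈ segment ℝ p q, ‖m‖ = r ∧ dist p m + dist m q = dist p q := by
  have hc : ContinuousOn (fun t : ℝ => ‖AffineMap.lineMap p q t‖) (Icc 0 1) := by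
    exact (AffineMap.lineMap_continuous.norm).continuousOn
  have h := intermediate_value_Icc (zero_le_one : (0 : ℝ) ≤ 1) hc
  obtain ⟨t, ht, hm⟩ := h ⟨by simpa using hp, by simpa using hq⟩
  refine ⟨AffineMap.lineMap p q t, ?_, hm, ?_⟩
  · rw [segment_eq_image_lineMap]
    exact ⟨t, ht, rfl⟩
  · rw [dist_left_lineMap, dist_lineMap_right, Real.norm_of_nonneg ht.1,
      Real.norm_of_nonneg (by linarith [ht.2])]
    ring

theorem kl_lip_mixed {L : ℝ≥0} {B : Set ℂ} (hB : Convex ℝ B) (h : LipschitzOnWith L ψ B)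
    (hs : ∀ z, ‖z‖ = r → |ψ z| ≤ δ) {p q : ℂ} (hp : p ∈ B) (hq : q ∈ B) (hp1 : ‖p‖ ≤ r)
    (hq1 : r ≤ ‖q‖) : dist (Kl r δ ψ p) (Kl r δ ψ q) ≤ L * dist p q := by
  obtain ⟨m, hm, hmr, hd⟩ := cross hp1 hq1
  have hmB : m ∈ B := hB.segment_subset hp hq hm
  have e1 : dist (Kl r δ ψ p) (Kl r δ ψ m) ≤ L * dist p m := by
    rw [kl_in hp1, kl_in hmr.le]
    exact h.dist_le_mul p hp m hmB
  have e2 : dist (Kl r δ ψ m) (Kl r δ ψ q) ≤ L * dist m q := by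
    rw [kl_out hs hmr.ge, kl_out hs hq1]
    have := (cl_lip δ).dist_le_mul (ψ m) (ψ q)
    rw [NNReal.coe_one, one_mul] at this
    exact this.trans (h.dist_le_mul m hmB q hq)
  calc dist (Kl r δ ψ p) (Kl r δ ψ q)
      ≤ dist (Kl r δ ψ p) (Kl r δ ψ m) + dist (Kl r δ ψ m) (Kl r δ ψ q) := dist_triangle _ _ _
    _ ≤ L * dist p m + L * dist m q := add_le_add e1 e2
    _ = L * dist p q := by rw [← mul_add, hd]

theorem kl_lip {L : ℝ≥0} {B : Set ℂ} (hB : Convex ℝ B) (h : LipschitzOnWith L ψ B)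
    (hs : ∀ z, ‖z‖ = r → |ψ z| ≤ δ) : LipschitzOnWith L (Kl r δ ψ) B := by
  refine LipschitzOnWith.of_dist_le_mul fun p hp q hq => ?_
  rcases le_total ‖p‖ r with h1 | h1 <;> rcases le_total ‖q‖ r with h2 | h2
  · rw [kl_in h1, kl_in h2]; exact h.dist_le_mul p hp q hq
  · exact kl_lip_mixed hB h hs hp hq h1 h2
  · rw [dist_comm, dist_comm p]
    exact kl_lip_mixed hB h hs hq hp h2 h1
  · rw [kl_out hs h1, kl_out hs h2]
    have := (cl_lip δ).dist_le_mul (ψ p) (ψ q)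
    rw [NNReal.coe_one, one_mul] at this
    exact this.trans (h.dist_le_mul p hp q hq)

theorem kl_cont (hψ : Continuous ψ) (hs : ∀ z, ‖z‖ = r → |ψ z| ≤ δ) :
    Continuous (Kl r δ ψ) := by
  unfold Kl
  refine Continuous.if_le hψ ((cl_lip δ).continuous.comp hψ) continuous_norm continuous_const ?_
  intro z hz
  exact (cl_eq (hs z hz)).symm

theorem kl_loc (hC : IsClosed C) (hψ : LocallyLipschitzOn Cᶜ ψ)
    (hs : ∀ z, ‖z‖ = r → |ψ z| ≤ δ) : LocallyLipschitzOn Cᶜ (Kl r δ ψ) := by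
  intro z hz
  obtain ⟨L, t, ht, h⟩ := hψ hz
  rw [hC.isOpen_compl.nhdsWithin_eq hz] at ht
  obtain ⟨ρ, hρ, hb⟩ := Metric.mem_nhds_iff.1 ht
  exact ⟨L, ball z ρ, mem_nhdsWithin_of_mem_nhds (ball_mem_nhds z hρ),
    kl_lip (convex_ball z ρ) (h.mono hb) hs⟩

/-- pointwise energy bound off the circle -/
theorem en_kl_le (hs : ∀ z, ‖z‖ = r → |ψ z| ≤ δ) {z : ℂ} (hz : ‖z‖ ≠ r)
    (hd : DifferentiableAt ℝ ψ z) : Bd_775.en (Kl r δ ψ) z ≤ Bd_775.en ψ z := by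
  rcases lt_or_gt_of_ne hz with h | h
  · have : Kl r δ ψ =ᶠ[𝓝 z] ψ := by
      filter_upwards [(isOpen_lt continuous_norm continuous_const).mem_nhds h] with w hw
      exact kl_in (le_of_lt hw)
    rw [Bd_775.en_eq_of_eventuallyEq this]
  · have : Kl r δ ψ =ᶠ[𝓝 z] fun w => cl δ (ψ w) := by
      filter_upwards [(isOpen_lt continuous_const continuous_norm).mem_nhds h] with w hw
      exact kl_out hs (le_of_lt hw)
    rw [Bd_775.en_eq_of_eventuallyEq this]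
    have := Bd_775.en_comp_le (cl_lip δ) hd
    simpa using this

theorem ae_ne (r : ℝ) : ∀ᵐ z : ℂ, ‖z‖ ≠ r := by
  have h := Measure.addHaar_sphere (volume : Measure ℂ) 0 r
  refine (ae_iff.2 ?_)
  refine measure_mono_null ?_ h
  intro z hz
  simp only [mem_ofPred_eq, not_not] at hz
  simpa using hz

theorem ae_en_kl_le (hC : IsClosed C) (hψ : LocallyLipschitzOn Cᶜ ψ)
    (hs : ∀ z, ‖z‖ = r → |ψ z| ≤ δ) :
    ∀ᵐ z ∂(volume.restrict Cᶜ), Bd_775.en (Kl r δ ψ) z ≤ Bd_775.en ψ z := by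
  filter_upwards [Bd_775.ae_diff hC.isOpen_compl hψ, ae_restrict_of_ae (ae_ne r)] with z h1 h2
  exact en_kl_le hs h2 h1

theorem kl_D (hC : IsClosed C) (hδ : 0 < δ) (hψ : D C ψ)
    (hs : ∀ z, ‖z‖ = r → |ψ z| ≤ δ) : D C (Kl r δ ψ) := by
  obtain ⟨M, hM⟩ := hψ.bdd
  refine ⟨kl_cont hψ.cont hs, ⟨M, fun z => (abs_kl_le hδ.le z).trans (hM z)⟩,
    kl_loc hC hψ.loc hs, ?_⟩
  refine Integrable.mono' hψ.fin (Bd_775.measurable_en _).aestronglyMeasurable ?_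
  filter_upwards [ae_en_kl_le hC hψ.loc hs] with z hz
  rw [Real.norm_of_nonneg (Bd_775.en_nonneg _ _)]
  exact hz

theorem dot_self (u : ℂ → ℝ) (z : ℂ) : dot u u z = Bd_775.en u z := by
  unfold Bd_775.dot Bd_775.en; ring

theorem kl_di (hC : IsClosed C) (hδ : 0 < δ) (hψ : D C ψ)
    (hs : ∀ z, ‖z‖ = r → |ψ z| ≤ δ) : di C (Kl r δ ψ) (Kl r δ ψ) ≤ di C ψ ψ := by
  unfold di
  simp only [dot_self]
  exact integral_mono_ae (kl_D hC hδ hψ hs).fin hψ.fin (ae_en_kl_le hC hψ.loc hs)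

theorem kl_near {z : ℂ} (hz : ‖z‖ < r) : ∀ᶠ w in 𝓝 z, Kl r δ ψ w - ψ w = 0 := by
  filter_upwards [(isOpen_lt continuous_norm continuous_const).mem_nhds hz] with w hw
  rw [kl_in (le_of_lt hw), sub_self]

theorem kl_LC (hC : IsClosed C) (hδ : 0 < δ) (hCr : C ⊆ ball 0 r) (hψ : D C ψ)
    (hs : ∀ z, ‖z‖ = r → |ψ z| ≤ δ) : LC C (fun z => Kl r δ ψ z - ψ z) := by
  have hCn : ∀ z ∈ C, ‖z‖ < r := fun z hz => by simpa using hCr hz
  have hK := kl_D hC hδ hψ hs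
  obtain ⟨M, hM⟩ := hψ.bdd
  refine ⟨?_, ⟨M + M, fun z => ?_⟩, ?_, ?_⟩
  · intro z
    by_cases hz : z ∈ C
    · refine ⟨0, {w | Kl r δ ψ w - ψ w = 0}, kl_near (hCn z hz), ?_⟩
      refine LipschitzOnWith.of_dist_le_mul fun p hp q hq => ?_
      simp only [mem_ofPred_eq] at hp hq
      rw [hp, hq, dist_self]; simp
    · obtain ⟨L, t, ht, h⟩ := Bd_775.ll_sub hK.loc hψ.loc (show z ∈ Cᶜ from hz)
      rw [hC.isOpen_compl.nhdsWithin_eq hz] at ht
      exact ⟨L, t, ht, h⟩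
  · have h1 := abs_kl_le (r := r) (ψ := ψ) hδ.le z
    have h2 := hM z
    exact (abs_sub _ _).trans (add_le_add (h1.trans h2) h2)
  · have h1 : IntegrableOn (Bd_775.en fun z => Kl r δ ψ z - ψ z) Cᶜ := by
      refine Integrable.mono' ((hK.fin.const_mul 2).add (hψ.fin.const_mul 2))
        (Bd_775.measurable_en _).aestronglyMeasurable ?_
      filter_upwards [Bd_775.ae_diff hC.isOpen_compl hψ.loc,
        Bd_775.ae_diff hC.isOpen_compl hK.loc] with z h1 h2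
      rw [Real.norm_of_nonneg (Bd_775.en_nonneg _ _)]
      exact Bd_775.en_sub_le h2 h1
    have h2 : IntegrableOn (Bd_775.en fun z => Kl r δ ψ z - ψ z) C := by
      refine integrableOn_zero.congr_fun (fun z hz => ?_) hC.measurableSet
      have : (fun w => Kl r δ ψ w - ψ w) =ᶠ[𝓝 z] fun _ => (0 : ℝ) := kl_near (hCn z hz)
      rw [Bd_775.en_eq_of_eventuallyEq this, Bd_775.en_const]
    have h3 := h2.union h1
    rwa [union_compl_self, integrableOn_univ] at h3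
  · intro z hz
    filter_upwards [kl_near (δ := δ) (ψ := ψ) (hCn z hz)] with w hw
    rw [hw, kl_in (hCn z hz).le, sub_self]

/-- **C4aP** -/
theorem c4a : C4aP := by
  intro C hC r δ hδ hCr ψ hψ hs
  refine ⟨kl_D hC.isClosed hδ hψ hs, kl_LC hC.isClosed hδ hCr hψ hs, ?_,
    kl_di hC.isClosed hδ hψ hs⟩
  intro z hz
  rw [kl_out hs hz]
  exact abs_cl_le hδ.le

end Crest.Agent.R105.Kla_16
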