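import Crest.Agent.R105.Kin7_238
import Crest.Agent.R105.Loc1_271

/-!
Row 105, lemma A (helper421): from the box to every neighbourhood.
Part 1: vertical Poincare inequality in 238's class `Vl`, energy of the cut-off function.
-/

open MeasureTheory Set Filter Topology
open scoped NNReal ENNReal

namespace Crest.Agent.R105.NulN_421

open CF_363 Kin_238

variable {a b c B : ℝ} {J : Finset Hair} {e : ℝ × ℝ → ℝ} {L : ℝ}

theorem enorm_sq (x : ℝ) : ‖x‖ₑ ^ 2 = ENNReal.ofReal (x ^ 2) := by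
  rw [Real.enorm_eq_ofReal_abs, ← ENNReal.ofReal_pow (abs_nonneg x), sq_abs]

theorem ae_Wo {P : ℝ × ℝ → Prop} (h : ∀ᵐ p : ℝ × ℝ, p ∈ Wo a b c B \ cut J → P p) :
    ∀ᵐ p ∂((volume : Measure (ℝ × ℝ)).restrict (Wo a b c B)), P p :=
  ae_restrict_of_diff isOpen_Wo (volume_cut J) h

theorem aesm (h : SL (Wl a b c B \ cut J) L e) :
    AEStronglyMeasurable e ((volume : Measure (ℝ × ℝ)).restrict (Wo a b c B)) := by
  have h1 : ContinuousOn e (Wo a b c B \ cut J) :=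
    (continuousOn_of h).mono (sdiff_subset_sdiff_left Wo_subset)
  have h2 := h1.aestronglyMeasurable (μ := volume)
    (isOpen_diff_cut isOpen_Wo J).measurableSet
  have h3 : (Wo a b c B \ cut J : Set (ℝ × ℝ)) =ᵐ[volume] Wo a b c B :=
    sdiff_null_ae_eq_self (volume_cut J)
  rwa [Measure.restrict_congr_set h3] at h2

theorem bound (hC : ∀ p ∈ Wl a b c B \ cut J, |e p| ≤ L) :
    ∀ᵐ p ∂((volume : Measure (ℝ × ℝ)).restrict (Wo a b c B)), |e p| ≤ L :=
  ae_Wo (J := J) (Eventually.of_forall fun p hp => hC p ⟨Wo_subset hp.1, hp.2⟩)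

theorem int_sq (h : SL (Wl a b c B \ cut J) L e) {C : ℝ}
    (hC : ∀ p ∈ Wl a b c B \ cut J, |e p| ≤ C) :
    IntegrableOn (fun p => e p ^ 2) (Wo a b c B) := by
  have := isFiniteMeasure_Wo (a := a) (b := b) (c := c) (B := B)
  refine Integrable.of_bound (C := C ^ 2) ((aesm h).pow 2) ?_
  filter_upwards [bound hC] with p hp
  rw [Real.norm_eq_abs, abs_pow]
  exact pow_le_pow_left₀ (abs_nonneg _) hp 2

theorem int_g2 (h : SL (Wl a b c B \ cut J) L e) : IntegrableOn (g2 e) (Wo a b c B) :=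
  (h.mono (sdiff_subset_sdiff_left Wo_subset)).integrableOn_g2 isOpen_Wo (isClosed_cut J)
    (volume_cut J) volume_Wo_lt.ne

/-- vertical Poincare inequality -/
theorem poinc (h : SL (Wl a b c B \ cut J) L e) {C : ℝ}
    (hC : ∀ p ∈ Wl a b c B \ cut J, |e p| ≤ C) (hcB : c < B) {δ : ℝ} (hδ : 0 < δ)
    (h0 : ∀ p ∈ Wl a b c B, p.2 < c + δ → e p = 0) :
    ∫ p in Wo a b c B, e p ^ 2 ≤ (B - c) ^ 2 * En (Wo a b c B) e := by
  set c0 := c + min δ (B - c) / 2 with hc0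
  have hm : 0 < min δ (B - c) := lt_min hδ (by linarith)
  have hc1 : c < c0 := by rw [hc0]; linarith
  have hc2 : c0 < c + δ := by
    have := min_le_left δ (B - c)
    rw [hc0]; linarith
  have hc3 : c0 < B := by
    have := min_le_right δ (B - c)
    rw [hc0]; linarith
  -- good vertical lines
  have hline : ∀ᵐ x : ℝ, ∀ K ∈ J, x ≠ K.x :=
    (Finset.eventually_all J).mpr fun K _ => by rw [ae_iff]; simp
  have hend : ∀ᵐ x : ℝ, x ≠ b := by rw [ae_iff]; simp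
  have hgood : ∀ᵐ x ∂(volume.restrict (Ioc a b)),
      AbsolutelyContinuousOnInterval (fun t => e (x, t)) c0 B ∧ e (x, c0) = 0 := by
    filter_upwards [ae_restrict_of_ae hline, ae_restrict_of_ae hend,
      ae_restrict_mem measurableSet_Ioc] with x hx hxb hxI
    have hxab : a < x ∧ x < b := ⟨hxI.1, lt_of_le_of_ne hxI.2 hxb⟩
    constructor
    · have hsub : ∀ y ∈ uIcc c0 B, (x, y) ∈ Wl a b c B \ cut J := by
        intro y hy
        rw [uIcc_of_le hc3.le] at hy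
        refine ⟨⟨hxab, lt_of_lt_of_le hc1 hy.1, hy.2⟩, ?_⟩
        rintro ⟨K, hK, hKp⟩
        exact hx K hK hKp.1
      exact (h.lip_y ordConnected_uIcc hsub).absolutelyContinuousOnInterval
    · exact h0 (x, c0) ⟨hxab, hc1, hc3.le⟩ hc2
  have hdy : ∀ᵐ p ∂(volume.restrict (Wo a b c B)), Loc_271.dy e p = gy e p := by
    have h1 : SL (Wo a b c B \ cut J) L e := h.mono (sdiff_subset_sdiff_left Wo_subset)
    refine ae_Wo (J := J) ?_
    filter_upwards [h1.ae_differentiableAt (μ := volume) (isOpen_diff_cut isOpen_Wo J)] with p hp hpW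
    exact (gy_eq_deriv (x := p.1) (y := p.2) (hp hpW)).deriv
  have hbox : (Ioc a b ×ˢ Ioc c0 B : Set (ℝ × ℝ)) ≤ᵐ[volume] Wo a b c B := by
    have hx : ∀ᵐ p : ℝ × ℝ, p.1 ≠ b := by
      have := Measure.quasiMeasurePreserving_fst (μ := (volume : Measure ℝ))
        (ν := (volume : Measure ℝ))
      rw [← Measure.volume_eq_prod] at this
      exact this.ae hend
    have hy : ∀ᵐ p : ℝ × ℝ, p.2 ≠ B := by
      have hB : ∀ᵐ x : ℝ, x ≠ B := by rw [ae_iff]; simp
      have := Measure.quasiMeasurePreserving_snd (μ := (volume : Measure ℝ))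
        (ν := (volume : Measure ℝ))
      rw [← Measure.volume_eq_prod] at this
      exact this.ae hB
    filter_upwards [hx, hy] with p hp1 hp2 hp
    exact ⟨⟨hp.1.1, lt_of_le_of_ne hp.1.2 hp1⟩, hc1.trans hp.2.1, lt_of_le_of_ne hp.2.2 hp2⟩
  have hdyb : ∀ᵐ p ∂(volume.restrict (Ioc a b ×ˢ Ioc c0 B)), Loc_271.dy e p = gy e p :=
    ae_mono (Measure.restrict_mono' hbox le_rfl) hdy
  have hmeas : AEMeasurable (Loc_271.dy e) (volume.restrict (Ioc a b ×ˢ Ioc c0 B)) :=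
    (measurable_gy e).aemeasurable.congr (hdyb.mono fun p hp => hp.symm)
  have hP := Loc_271.poincare_box (f := e) (c := a) (d := b) (a := c0) (b := B) hc3.le hgood hmeas
  -- left side
  have hleft : ∫⁻ p in Wo a b c B, ENNReal.ofReal (e p ^ 2) ≤
      ∫⁻ p in Ioc a b ×ˢ Ioc c0 B, ‖e p‖ₑ ^ 2 := by
    have hsub : Wo a b c B ⊆ (Wo a b c B ∩ {p | p.2 ≤ c0}) ∪ (Ioc a b ×ˢ Ioc c0 B) := by
      intro p hp
      rcases le_or_gt p.2 c0 with h1 | h1
      · exact Or.inl ⟨hp, h1⟩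
      · exact Or.inr ⟨⟨hp.1.1, hp.1.2.le⟩, h1, hp.2.2.le⟩
    have hz : ∫⁻ p in Wo a b c B ∩ {p | p.2 ≤ c0}, ENNReal.ofReal (e p ^ 2) = 0 := by
      have : ∫⁻ p in Wo a b c B ∩ {p | p.2 ≤ c0}, ENNReal.ofReal (e p ^ 2) =
          ∫⁻ _ in Wo a b c B ∩ {p | p.2 ≤ c0}, 0 := by
        refine setLIntegral_congr_fun
          (measurableSet_Wo.inter (measurableSet_le measurable_snd measurable_const)) ?_
        intro p hp
        simp only
        rw [h0 p (Wo_subset hp.1) (lt_of_le_of_lt hp.2 hc2)]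
        simp
      rw [this, lintegral_zero]
    calc ∫⁻ p in Wo a b c B, ENNReal.ofReal (e p ^ 2)
        ≤ ∫⁻ p in (Wo a b c B ∩ {p | p.2 ≤ c0}) ∪ (Ioc a b ×ˢ Ioc c0 B),
          ENNReal.ofReal (e p ^ 2) := lintegral_mono_set hsub
      _ ≤ (∫⁻ p in Wo a b c B ∩ {p | p.2 ≤ c0}, ENNReal.ofReal (e p ^ 2)) +
          ∫⁻ p in Ioc a b ×ˢ Ioc c0 B, ENNReal.ofReal (e p ^ 2) := lintegral_union_le _ _ _
      _ = ∫⁻ p in Ioc a b ×ˢ Ioc c0 B, ‖e p‖ₑ ^ 2 := by
        rw [hz, zero_add]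
        exact lintegral_congr fun p => (enorm_sq _).symm
  -- right side
  have hright : ∫⁻ p in Ioc a b ×ˢ Ioc c0 B, ‖Loc_271.dy e p‖ₑ ^ 2 ≤
      ∫⁻ p in Wo a b c B, ENNReal.ofReal (g2 e p) := by
    calc ∫⁻ p in Ioc a b ×ˢ Ioc c0 B, ‖Loc_271.dy e p‖ₑ ^ 2
        = ∫⁻ p in Ioc a b ×ˢ Ioc c0 B, ENNReal.ofReal (gy e p ^ 2) := by
          refine lintegral_congr_ae ?_
          filter_upwards [hdyb] with p hp
          rw [hp, enorm_sq]
      _ ≤ ∫⁻ p in Wo a b c B, ENNReal.ofReal (gy e p ^ 2) := lintegral_mono_set' hbox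
      _ ≤ ∫⁻ p in Wo a b c B, ENNReal.ofReal (g2 e p) := by
          refine lintegral_mono fun p => ENNReal.ofReal_le_ofReal ?_
          unfold g2
          linarith [sq_nonneg (gx e p)]
  have hfin : ENNReal.ofReal (∫ p in Wo a b c B, e p ^ 2) ≤
      ENNReal.ofReal ((B - c) ^ 2 * En (Wo a b c B) e) := by
    rw [ofReal_integral_eq_lintegral_ofReal (int_sq h hC) (Eventually.of_forall fun p => sq_nonneg _),
      ENNReal.ofReal_mul (sq_nonneg _)]
    unfold En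
    rw [ofReal_integral_eq_lintegral_ofReal (int_g2 h) (Eventually.of_forall fun p => g2_nonneg _ _)]
    refine hleft.trans (hP.trans ?_)
    rw [← ENNReal.ofReal_pow (by linarith)]
    refine mul_le_mul' (ENNReal.ofReal_le_ofReal ?_) hright
    exact pow_le_pow_left₀ (by linarith) (by linarith) 2
  rwa [ENNReal.ofReal_le_ofReal_iff (by have := En_nonneg (Wo a b c B) e; positivity)] at hfin

/-- energy of the product with a Lipschitz cut-off -/
theorem en_cut (h : SL (Wl a b c B \ cut J) L e) {C : ℝ}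
    (hC : ∀ p ∈ Wl a b c B \ cut J, |e p| ≤ C) (hcB : c < B) {δ : ℝ} (hδ : 0 < δ)
    (h0 : ∀ p ∈ Wl a b c B, p.2 < c + δ → e p = 0) {χ : ℝ × ℝ → ℝ} {ℓ : ℝ≥0}
    (hχ : LipschitzWith ℓ χ) (hχ1 : ∀ p, |χ p| ≤ 1) :
    En (Wo a b c B) (fun p => χ p * e p) ≤
      (2 + 4 * ℓ ^ 2 * (B - c) ^ 2) * En (Wo a b c B) e := by
  have hχS : SL univ (ℓ : ℝ) χ := SL_of_lipschitz hχ
  have hχd : ∀ᵐ p : ℝ × ℝ, DifferentiableAt ℝ χ p := by
    filter_upwards [hχS.ae_differentiableAt (μ := volume) isOpen_univ] with p hp using hp (mem_univ p)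
  have h1 : SL (Wo a b c B \ cut J) L e := h.mono (sdiff_subset_sdiff_left Wo_subset)
  have hpt : ∀ᵐ p ∂((volume : Measure (ℝ × ℝ)).restrict (Wo a b c B)),
      g2 (fun p => χ p * e p) p ≤ 2 * g2 e p + 4 * ℓ ^ 2 * e p ^ 2 := by
    filter_upwards [ae_Wo (h1.ae_differentiableAt (μ := volume) (isOpen_diff_cut isOpen_Wo J)),
      ae_restrict_of_ae hχd] with p hp hp2
    have k1 := g2_mul_le hp2 hp
    have k2 : g2 χ p ≤ 2 * (ℓ : ℝ) ^ 2 := hχS.g2_le isOpen_univ ℓ.2 (mem_univ p)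
    have k3 : χ p ^ 2 ≤ 1 := by rw [← sq_abs]; exact pow_le_one₀ (abs_nonneg _) (hχ1 p)
    have k4 : χ p ^ 2 * g2 e p ≤ g2 e p := mul_le_of_le_one_left (g2_nonneg _ _) k3
    have k5 : e p ^ 2 * g2 χ p ≤ e p ^ 2 * (2 * (ℓ : ℝ) ^ 2) :=
      mul_le_mul_of_nonneg_left k2 (sq_nonneg _)
    linarith
  have i1 := int_g2 h
  have i2 := int_sq h hC
  have hI : IntegrableOn (fun p => 2 * g2 e p + 4 * ℓ ^ 2 * e p ^ 2) (Wo a b c B) :=
    (i1.const_mul 2).add (i2.const_mul _)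
  have hm : AEStronglyMeasurable (g2 (fun p => χ p * e p))
      ((volume : Measure (ℝ × ℝ)).restrict (Wo a b c B)) :=
    (measurable_g2 _).aestronglyMeasurable
  have i3 : IntegrableOn (g2 (fun p => χ p * e p)) (Wo a b c B) := by
    refine Integrable.mono' hI hm ?_
    filter_upwards [hpt] with p hp
    rw [Real.norm_of_nonneg (g2_nonneg _ _)]; exact hp
  have k := poinc h hC hcB hδ h0
  calc En (Wo a b c B) (fun p => χ p * e p)
      ≤ ∫ p in Wo a b c B, (2 * g2 e p + 4 * ℓ ^ 2 * e p ^ 2) := integral_mono_ae i3 hI hpt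
    _ = 2 * En (Wo a b c B) e + 4 * ℓ ^ 2 * ∫ p in Wo a b c B, e p ^ 2 := by
        rw [integral_add (i1.const_mul 2) (i2.const_mul _), integral_const_mul, integral_const_mul]
        rfl
    _ ≤ _ := by
        have : (4 * (ℓ : ℝ) ^ 2) * ∫ p in Wo a b c B, e p ^ 2 ≤
            4 * ℓ ^ 2 * ((B - c) ^ 2 * En (Wo a b c B) e) :=
          mul_le_mul_of_nonneg_left k (by positivity)
        linarith

end Crest.Agent.R105.NulN_421
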