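import Crest.Agent.R105.Knq5_247
import Crest.Agent.R105.Cq9_463
import Crest.Agent.R105.Nal0_649
import Crest.Agent.R105.NulN1_421

/-!
Row 105, S0138, lemma A with squares (helper421): adapter from the box problem of `Knq_247` to the
test functions of `Nal_649`. Part 1: one half (geometry, composition, lateral cut-off, energy).
-/

set_option autoImplicit false

open Set Filter MeasureTheory Topology
open scoped ENNReal NNReal

namespace Crest.Agent.R105.Kna_421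

open CF_363 Kin_238 Stp_722 Cq_463
open Knq_247 (osc QQ Vq EQ Bo le_osc osc_nonneg osc_le osc_comp_le)
open Skp2_257 (Lo Up)

variable {E : Set (ℝ × ℝ)} {𝒬 𝒬' : Set Sqr} {𝓗 : Set Hair} {a b c d B : ℝ} {e : ℝ × ℝ → ℝ}

/-- the charged squares as sets -/
def Qc (𝒬 : Set Sqr) : 𝒬 → Set (ℝ × ℝ) := fun i => i.1.car

/-- the geometry of `Knq_247` -/
theorem qq (hE : QPic E 𝒬 𝓗) (hs : 𝒬' ⊆ 𝒬) (hbox : E ⊆ Ioo a b ×ˢ Ioi c) :
    QQ 𝓗 a b c B (Qc 𝒬') where
  cpt i := by
    have h1 : Qc 𝒬' i ∩ Wl a b c B = i.1.car ∩ {p | p.2 ≤ B} := by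
      ext p
      constructor
      · rintro ⟨h1, h2⟩; exact ⟨h1, h2.2.2⟩
      · rintro ⟨h1, h2⟩
        have h3 := hbox (hE.sub _ (hs i.2) h1)
        exact ⟨h1, h3.1, h3.2, h2⟩
    rw [h1]
    exact i.1.isCompact_car.inter_right (isClosed_le continuous_snd continuous_const)
  conv i := i.1.convex_car
  sum := by
    have h1 : Summable ((fun Q : 𝒬 => Q.1.s ^ 2) ∘ Set.inclusion hs) :=
      Summable.comp_injective hE.summable_sq (inclusion_injective hs)
    refine Summable.of_nonneg_of_le (fun _ => sq_nonneg _) (fun i => ?_) h1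
    refine pow_le_pow_left₀ Metric.diam_nonneg ?_ 2
    exact (Metric.diam_mono inter_subset_left i.1.isCompact_car.isBounded).trans i.1.diam_le
  fin K hK := by
    have hKc : IsPreconnected K.car := by
      rw [Hair.car_eq]
      exact isPreconnected_singleton.prod isPreconnected_Icc
    refine Set.Subsingleton.finite fun i hi j hj => Subtype.ext ?_
    exact hE.sep K.car (hE.hsub K hK) hKc _ (hs i.2) _ (hs j.2)
      (by rw [inter_comm]; exact hi) (by rw [inter_comm]; exact hj)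

section comp

variable {ι : Type*} {Q : ι → Set (ℝ × ℝ)} {S : Set (ℝ × ℝ)}

/-- clamping at `0` and `1` -/
theorem Vq_clamp (H : QQ 𝓗 a b c B Q) (hS : IsClosed S) (he : e ∈ Vq 𝓗 a b c B Q) :
    (fun p => max (min (e p) 1) 0) ∈ Vq 𝓗 a b c B Q ∧
      EQ a b c B S Q (fun p => max (min (e p) 1) 0) ≤ EQ a b c B S Q e := by
  have hm : (fun p => max (min (e p) 1) 0) ∈ Vq 𝓗 a b c B Q := by
    refine ⟨?_, fun i => ((he.2 i).inf continuousOn_const).sup continuousOn_const⟩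
    obtain ⟨⟨heJ, δ, hδ, he0⟩, -⟩ := he
    refine ⟨(heJ.min (CFJ_const 1)).max (CFJ_const 0), δ, hδ, fun p hp hpc => ?_⟩
    show max (min (e p) 1) 0 = 0
    rw [he0 p hp hpc]; simp
  refine ⟨hm, add_le_add ?_ ?_⟩
  · obtain ⟨J, -, L, C, hL, hSL, hC⟩ := he.1.1
    have hopen : IsOpen (Wo a b c B \ S) := isOpen_Wo.sdiff hS
    have h1 : SL ((Wo a b c B \ S) \ cut J) L e := hSL.mono (by
      rintro p ⟨⟨h1, -⟩, h2⟩
      exact ⟨Wo_subset h1, h2⟩)
    have hfin : volume (Wo a b c B \ S) ≠ ∞ :=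
      ((measure_mono sdiff_subset).trans_lt volume_Wo_lt).ne
    have h2 := h1.min (SL_const (1 : ℝ))
    exact (En_max_const_le h2 0 hopen (isClosed_cut J) (volume_cut J) hfin).trans
      (En_min_const_le h1 1 hopen (isClosed_cut J) (volume_cut J) hfin)
  · refine (H.summable hm).tsum_le_tsum (fun i => ?_) (H.summable he)
    refine pow_le_pow_left₀ (osc_nonneg _ _) ?_ 2
    refine osc_comp_le (G := fun t => max (min t 1) 0) (fun s t => ?_) (H.bo he i)
    have h1 := abs_max_sub_max_le_abs (min s 1) (min t 1) 0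
    have h2 := abs_min_sub_min_le_max s 1 t 1
    simp only [sub_self, abs_zero] at h2
    exact h1.trans (h2.trans (max_le le_rfl (abs_nonneg _)))

theorem EQ_two (hS : IsClosed S) (he : e ∈ Vq 𝓗 a b c B Q) :
    EQ a b c B S Q (fun p => 2 * e p) = 4 * EQ a b c B S Q e := by
  unfold EQ
  obtain ⟨J, -, L, C, hL, hSL, hC⟩ := he.1.1
  have hopen : IsOpen (Wo a b c B \ S) := isOpen_Wo.sdiff hS
  have h1 : SL ((Wo a b c B \ S) \ cut J) L e := hSL.mono (by
    rintro p ⟨⟨h1, -⟩, h2⟩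
    exact ⟨Wo_subset h1, h2⟩)
  have h2 := En_const_mul h1 2 hopen (isClosed_cut J) (volume_cut J)
  have h3 : ∀ i, osc (Q i ∩ Wl a b c B) (fun p => 2 * e p) ^ 2 =
      4 * osc (Q i ∩ Wl a b c B) e ^ 2 := fun i => by
    have h4 : osc (Q i ∩ Wl a b c B) ((2 : ℝ) • e) = |2| * osc (Q i ∩ Wl a b c B) e :=
      Knq_247.osc_smul 2
    have h5 : ((2 : ℝ) • e) = fun p => 2 * e p := rfl
    rw [h5] at h4
    rw [h4, abs_two]; ring
  rw [h2]
  simp only [h3]
  rw [tsum_mul_left]; ring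

end comp

/-! ### the lateral cut-off -/

/-- `1` on `[a1, b1]`, `0` off `[a1 - r, b1 + r]` -/
noncomputable def kx (a1 b1 r : ℝ) (x : ℝ) : ℝ := max 0 (1 - max (max (a1 - x) (x - b1)) 0 / r)

theorem kx_rg (a1 b1 : ℝ) {r : ℝ} (hr : 0 < r) (x : ℝ) : 0 ≤ kx a1 b1 r x ∧ kx a1 b1 r x ≤ 1 := by
  refine ⟨le_max_left _ _, max_le zero_le_one ?_⟩
  have : 0 ≤ max (max (a1 - x) (x - b1)) 0 / r := div_nonneg (le_max_right _ _) hr.le
  linarith

theorem kx_one {a1 b1 r x : ℝ} (h1 : a1 ≤ x) (h2 : x ≤ b1) : kx a1 b1 r x = 1 := by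
  unfold kx
  have : max (max (a1 - x) (x - b1)) 0 = 0 :=
    max_eq_right (max_le (by linarith) (by linarith))
  rw [this]; simp

theorem kx_zero {a1 b1 r x : ℝ} (hr : 0 < r) (h : x ≤ a1 - r ∨ b1 + r ≤ x) : kx a1 b1 r x = 0 := by
  unfold kx
  refine max_eq_left ?_
  have h1 : r ≤ max (max (a1 - x) (x - b1)) 0 := by
    rcases h with h | h
    · exact (show r ≤ a1 - x by linarith).trans ((le_max_left _ _).trans (le_max_left _ _))
    · exact (show r ≤ x - b1 by linarith).trans ((le_max_right _ _).trans (le_max_left _ _))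
  have h2 : 1 ≤ max (max (a1 - x) (x - b1)) 0 / r := (one_le_div hr).2 h1
  linarith

theorem kx_lip (a1 b1 : ℝ) {r : ℝ} (hr : 0 < r) (x x' : ℝ) :
    |kx a1 b1 r x - kx a1 b1 r x'| ≤ r⁻¹ * |x - x'| := by
  unfold kx
  have h1 := abs_max_sub_max_le_max 0 (1 - max (max (a1 - x) (x - b1)) 0 / r) 0
    (1 - max (max (a1 - x') (x' - b1)) 0 / r)
  have h2 := abs_max_sub_max_le_abs (max (a1 - x) (x - b1)) (max (a1 - x') (x' - b1)) 0
  have h3 := abs_max_sub_max_le_max (a1 - x) (x - b1) (a1 - x') (x' - b1)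
  have h4 : |a1 - x - (a1 - x')| = |x - x'| := by
    rw [show a1 - x - (a1 - x') = -(x - x') by ring, abs_neg]
  have h5 : |x - b1 - (x' - b1)| = |x - x'| := by congr 1; ring
  rw [h4, h5, max_self] at h3
  have h6 : |1 - max (max (a1 - x) (x - b1)) 0 / r - (1 - max (max (a1 - x') (x' - b1)) 0 / r)| =
      r⁻¹ * |max (max (a1 - x) (x - b1)) 0 - max (max (a1 - x') (x' - b1)) 0| := by
    rw [show 1 - max (max (a1 - x) (x - b1)) 0 / r - (1 - max (max (a1 - x') (x' - b1)) 0 / r) =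
      -(r⁻¹ * (max (max (a1 - x) (x - b1)) 0 - max (max (a1 - x') (x' - b1)) 0)) by
        field_simp; ring, abs_neg, abs_mul, abs_of_pos (inv_pos.2 hr)]
  rw [h6, sub_self, abs_zero] at h1
  refine h1.trans (max_le (by positivity) ?_)
  exact mul_le_mul_of_nonneg_left (h2.trans h3) (inv_pos.2 hr).le

/-- the cut-off in the plane -/
noncomputable def kk (a1 b1 r : ℝ) (p : ℝ × ℝ) : ℝ := kx a1 b1 r p.1

theorem kk_lip (a1 b1 : ℝ) {r : ℝ} (hr : 0 < r) : LipschitzWith (r⁻¹).toNNReal (kk a1 b1 r) := by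
  refine LipschitzWith.of_dist_le_mul fun p q => ?_
  rw [Real.coe_toNNReal _ (inv_pos.2 hr).le, Real.dist_eq]
  refine (kx_lip a1 b1 hr p.1 q.1).trans ?_
  refine mul_le_mul_of_nonneg_left ?_ (inv_pos.2 hr).le
  rw [Prod.dist_eq, ← Real.dist_eq]
  exact le_max_left _ _

/-- gradient of the cut-off -/
theorem g2_kk_le (a1 b1 : ℝ) {r : ℝ} (hr : 0 < r) (p : ℝ × ℝ) :
    g2 (kk a1 b1 r) p ≤ 2 * r⁻¹ ^ 2 := by
  have h := SL_of_lipschitz (kk_lip a1 b1 hr) (U := univ)
  have := h.g2_le isOpen_univ (NNReal.coe_nonneg _) (mem_univ p)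
  rwa [Real.coe_toNNReal _ (inv_pos.2 hr).le] at this

theorem g2_kk_zero {a1 b1 r : ℝ} {p : ℝ × ℝ} (h1 : a1 < p.1) (h2 : p.1 < b1) :
    g2 (kk a1 b1 r) p = 0 := by
  have h : kk a1 b1 r =ᶠ[𝓝 p] fun _ => 1 := by
    have ho : {q : ℝ × ℝ | a1 < q.1 ∧ q.1 < b1} ∈ 𝓝 p :=
      ((isOpen_lt continuous_const continuous_fst).inter
        (isOpen_lt continuous_fst continuous_const)).mem_nhds ⟨h1, h2⟩
    filter_upwards [ho] with q hq using kx_one hq.1.le hq.2.le
  unfold g2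
  rw [gx_congr h, gy_congr h]
  simp [gx, gy]

end Crest.Agent.R105.Kna_421
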