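import Crest.Agent.R105.Kna1_421

/-!
Row 105, S0138, lemma A with squares (helper421): adapter from the box problem of `Knq_247` to the
test functions of `Nal_649`. Part 2: one half.
-/

set_option autoImplicit false

open Set Filter MeasureTheory Topology
open scoped ENNReal NNReal

namespace Crest.Agent.R105.Kna_421

open CF_363 Kin_238 Stp_722 Cq_463
open Knq_247 (osc QQ Vq EQ Bo le_osc osc_nonneg osc_le osc_comp_le)
open Skp2_257 (Lo Up)
open Nal_649 (HalfQ OneNear)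

variable {E : Set (ℝ × ℝ)} {𝒬 𝒬' : Set Sqr} {𝓗 𝓗₀ : Set Hair} {a b c d B a1 b1 r : ℝ}
  {e : ℝ × ℝ → ℝ}

/-- energy of the laterally cut-off function -/
theorem en_lat {J : Finset Hair} {L C δ : ℝ} (h : SL (Wl a b c B \ cut J) L e)
    (hC : ∀ p ∈ Wl a b c B \ cut J, |e p| ≤ C) (hcB : c < B) (hδ : 0 < δ)
    (h0 : ∀ p ∈ Wl a b c B, p.2 < c + δ → e p = 0) (ha : a < a1) (hab : a1 < b1) (hb : b1 < b)
    (hEc : IsClosed E) (hE : ∀ p ∈ E, a1 < p.1 ∧ p.1 < b1) (hr : 0 < r) :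
    En (Wo a b c B \ E) (fun p => kk a1 b1 r p * e p) ≤
      (2 + 8 * r⁻¹ ^ 2 * (B - c) ^ 2) * En (Wo a b c B \ E) e := by
  set T1 := Wo a a1 c B with hT1
  set T2 := Wo b1 b c B with hT2
  have hT1W : T1 ⊆ Wo a b c B := fun p hp => ⟨⟨hp.1.1, by linarith [hp.1.2]⟩, hp.2⟩
  have hT2W : T2 ⊆ Wo a b c B := fun p hp => ⟨⟨by linarith [hp.1.1], hp.1.2⟩, hp.2⟩
  have hT1E : T1 ⊆ Wo a b c B \ E := fun p hp => ⟨hT1W hp, fun hpE => by
    have := (hE p hpE).1; linarith [hp.1.2]⟩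
  have hT2E : T2 ⊆ Wo a b c B \ E := fun p hp => ⟨hT2W hp, fun hpE => by
    have := (hE p hpE).2; linarith [hp.1.1]⟩
  have hopen : IsOpen (Wo a b c B \ E) := isOpen_Wo.sdiff hEc
  have hSLW : SL (Wo a b c B \ cut J) L e := h.mono (sdiff_subset_sdiff_left Wo_subset)
  have i1 : IntegrableOn (g2 e) (Wo a b c B \ E) := (NulN_421.int_g2 h).mono_set sdiff_subset
  have i2 : IntegrableOn (fun p => e p ^ 2) (Wo a b c B \ E) :=
    (NulN_421.int_sq h hC).mono_set sdiff_subset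
  set F : ℝ × ℝ → ℝ := fun p => 2 * g2 e p + (T1.indicator (fun q => 4 * r⁻¹ ^ 2 * e q ^ 2) p +
    T2.indicator (fun q => 4 * r⁻¹ ^ 2 * e q ^ 2) p) with hF
  have hline : ∀ ξ : ℝ, ∀ᵐ p : ℝ × ℝ, p.1 ≠ ξ := by
    intro ξ
    have hx : ∀ᵐ x : ℝ, x ≠ ξ := by rw [ae_iff]; simp
    have := Measure.quasiMeasurePreserving_fst (μ := (volume : Measure ℝ))
      (ν := (volume : Measure ℝ))
    rw [← Measure.volume_eq_prod] at this
    exact this.ae hx
  have hkS := SL_of_lipschitz (kk_lip a1 b1 hr) (U := univ)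
  have hpt : ∀ᵐ p ∂((volume : Measure (ℝ × ℝ)).restrict (Wo a b c B \ E)),
      g2 (fun p => kk a1 b1 r p * e p) p ≤ F p := by
    have q1 := hSLW.ae_differentiableAt (μ := volume) (isOpen_diff_cut isOpen_Wo J)
    have q2 := hkS.ae_differentiableAt (μ := volume) isOpen_univ
    have q3 : ∀ᵐ p : ℝ × ℝ, p ∉ cut J := by
      rw [ae_iff]; simpa using volume_cut J
    refine (ae_restrict_iff' hopen.measurableSet).2 ?_
    filter_upwards [q1, q2, q3, hline a1, hline b1] with p h1 h2 h3 h4 h5 hp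
    have hp1 := h1 ⟨hp.1, h3⟩
    have hp2 := h2 (mem_univ p)
    have k1 := g2_mul_le hp2 hp1
    have k3 : kk a1 b1 r p ^ 2 ≤ 1 := by
      have := kx_rg a1 b1 hr p.1
      exact pow_le_one₀ this.1 this.2
    have k4 : kk a1 b1 r p ^ 2 * g2 e p ≤ g2 e p := mul_le_of_le_one_left (g2_nonneg _ _) k3
    have n1 : 0 ≤ T1.indicator (fun q => 4 * r⁻¹ ^ 2 * e q ^ 2) p :=
      indicator_nonneg (fun q _ => by positivity) p
    have n2 : 0 ≤ T2.indicator (fun q => 4 * r⁻¹ ^ 2 * e q ^ 2) p :=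
      indicator_nonneg (fun q _ => by positivity) p
    have k5 : e p ^ 2 * g2 (kk a1 b1 r) p ≤ e p ^ 2 * (2 * r⁻¹ ^ 2) :=
      mul_le_mul_of_nonneg_left (g2_kk_le a1 b1 hr p) (sq_nonneg _)
    show _ ≤ 2 * g2 e p + (T1.indicator (fun q => 4 * r⁻¹ ^ 2 * e q ^ 2) p +
      T2.indicator (fun q => 4 * r⁻¹ ^ 2 * e q ^ 2) p)
    rcases lt_or_gt_of_ne h4 with g1 | g1
    · have hpT : p ∈ T1 := ⟨⟨hp.1.1.1, g1⟩, hp.1.2⟩
      rw [indicator_of_mem hpT] at n1 ⊢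
      linarith
    rcases lt_or_gt_of_ne h5 with g2' | g2'
    · rw [g2_kk_zero g1 g2', mul_zero, mul_zero, add_zero] at k1
      linarith
    · have hpT : p ∈ T2 := ⟨⟨g2', hp.1.1.2⟩, hp.1.2⟩
      rw [indicator_of_mem hpT] at n2 ⊢
      linarith
  have hm1 : MeasurableSet T1 := measurableSet_Wo
  have hm2 : MeasurableSet T2 := measurableSet_Wo
  have j1 : IntegrableOn (T1.indicator (fun q => 4 * r⁻¹ ^ 2 * e q ^ 2)) (Wo a b c B \ E) :=
    (i2.const_mul _).indicator hm1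
  have j2 : IntegrableOn (T2.indicator (fun q => 4 * r⁻¹ ^ 2 * e q ^ 2)) (Wo a b c B \ E) :=
    (i2.const_mul _).indicator hm2
  have hI : IntegrableOn F (Wo a b c B \ E) := (i1.const_mul 2).add (j1.add j2)
  have i3 : IntegrableOn (g2 (fun p => kk a1 b1 r p * e p)) (Wo a b c B \ E) := by
    refine Integrable.mono' hI (measurable_g2 _).aestronglyMeasurable ?_
    filter_upwards [hpt] with p hp
    rw [Real.norm_of_nonneg (g2_nonneg _ _)]; exact hp
  have strip : ∀ α β : ℝ, a ≤ α → β ≤ b → Wo α β c B ⊆ Wo a b c B \ E →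
      ∫ p in Wo α β c B, e p ^ 2 ≤ (B - c) ^ 2 * En (Wo a b c B \ E) e := by
    intro α β hα hβ hsub
    have hsl : Wl α β c B ⊆ Wl a b c B := fun p hp =>
      ⟨⟨by linarith [hp.1.1], by linarith [hp.1.2]⟩, hp.2⟩
    have hsl2 : Wl α β c B \ cut J ⊆ Wl a b c B \ cut J := sdiff_subset_sdiff_left hsl
    refine (NulN_421.poinc (h.mono hsl2) (fun p hp => hC p (hsl2 hp)) hcB hδ
      (fun p hp => h0 p (hsl hp))).trans ?_
    refine mul_le_mul_of_nonneg_left ?_ (sq_nonneg _)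
    exact setIntegral_mono_set i1 (Eventually.of_forall fun p => g2_nonneg _ _)
      (Eventually.of_forall hsub)
  have k1 : ∫ p in Wo a b c B \ E, T1.indicator (fun q => 4 * r⁻¹ ^ 2 * e q ^ 2) p ≤
      4 * r⁻¹ ^ 2 * ((B - c) ^ 2 * En (Wo a b c B \ E) e) := by
    rw [setIntegral_indicator hm1, inter_eq_self_of_subset_right hT1E, integral_const_mul]
    exact mul_le_mul_of_nonneg_left (strip a a1 le_rfl (by linarith) hT1E) (by positivity)
  have k2 : ∫ p in Wo a b c B \ E, T2.indicator (fun q => 4 * r⁻¹ ^ 2 * e q ^ 2) p ≤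
      4 * r⁻¹ ^ 2 * ((B - c) ^ 2 * En (Wo a b c B \ E) e) := by
    rw [setIntegral_indicator hm2, inter_eq_self_of_subset_right hT2E, integral_const_mul]
    exact mul_le_mul_of_nonneg_left (strip b1 b (by linarith) le_rfl hT2E) (by positivity)
  calc En (Wo a b c B \ E) (fun p => kk a1 b1 r p * e p)
      ≤ ∫ p in Wo a b c B \ E, F p := integral_mono_ae i3 hI hpt
    _ = 2 * En (Wo a b c B \ E) e +
        ((∫ p in Wo a b c B \ E, T1.indicator (fun q => 4 * r⁻¹ ^ 2 * e q ^ 2) p) +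
        ∫ p in Wo a b c B \ E, T2.indicator (fun q => 4 * r⁻¹ ^ 2 * e q ^ 2) p) := by
        have hj : IntegrableOn (fun p => T1.indicator (fun q => 4 * r⁻¹ ^ 2 * e q ^ 2) p +
          T2.indicator (fun q => 4 * r⁻¹ ^ 2 * e q ^ 2) p) (Wo a b c B \ E) := j1.add j2
        have hi : IntegrableOn (fun p => 2 * g2 e p) (Wo a b c B \ E) := i1.const_mul 2
        show ∫ p in Wo a b c B \ E, (2 * g2 e p +
          (T1.indicator (fun q => 4 * r⁻¹ ^ 2 * e q ^ 2) p +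
            T2.indicator (fun q => 4 * r⁻¹ ^ 2 * e q ^ 2) p)) = _
        rw [integral_add hi hj, integral_add j1 j2, integral_const_mul]
        rfl
    _ ≤ _ := by linarith

/-- **one half**: a function of the box problem gives a test function of `Nal_649` -/
theorem half_of (hE : QPic E 𝒬 𝓗) (hatt : Att 𝒬 𝓗) (hs : 𝒬' ⊆ 𝒬) (h𝓗 : 𝓗₀ ⊆ 𝓗)
    (hbox : E ⊆ Ioo a1 b1 ×ˢ Ioo c d) (ha : a < a1) (hab : a1 < b1) (hb : b1 < b) (hcB : c < B)
    (hBd : B < d) (gen : ∀ Q ∈ 𝒬', Q.y ≠ B) (he : e ∈ Vq 𝓗₀ a b c B (Qc 𝒬'))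
    (he01 : ∀ p, 0 ≤ e p ∧ e p ≤ 1) {r : ℝ} (hr : 0 < r) (hra : a < a1 - r) (hrb : b1 + r < b) :
    ∃ z, HalfQ E 𝒬' 𝓗 (Lo B) (Ioo a b ×ˢ Ioo c d)
        ((2 + 8 * r⁻¹ ^ 2 * (B - c) ^ 2) * EQ a b c B E (Qc 𝒬') e) z ∧
      ∀ p ∈ Wo a b c B, a1 < p.1 → p.1 < b1 → z p = e p := by
  have hE0 : QPic E 𝒬 𝓗₀ :=
    ⟨hE.cpt, hE.sub, fun K hK => hE.hsub K (h𝓗 hK), hE.sep, hE.null⟩
  have hboxc : E ⊆ Ioo a b ×ˢ Ioi c := fun p hp =>
    ⟨⟨ha.trans (hbox hp).1.1, (hbox hp).1.2.trans hb⟩, (hbox hp).2.1⟩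
  have H := qq (B := B) hE0 hs hboxc
  set N0 : Set (ℝ × ℝ) := Ioo a b ×ˢ Ioi c with hN0
  have hN0o : IsOpen N0 := isOpen_Ioo.prod isOpen_Ioi
  obtain ⟨heJ, δ, hδ, he0⟩ := he.1
  set A : Set (ℝ × ℝ) := ({p | p.1 < a1 - r} ∪ {p | b1 + r < p.1}) ∪ {p | p.2 < c + δ} with hA
  have hAo : IsOpen A := ((isOpen_lt continuous_fst continuous_const).union
    (isOpen_lt continuous_const continuous_fst)).union (isOpen_lt continuous_snd continuous_const)
  set z : ℝ × ℝ → ℝ := N0.indicator (fun p => kk a1 b1 r p * e p) with hz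
  have hLoo : IsOpen (Lo B) := isOpen_lt continuous_snd continuous_const
  have hWl : ∀ p ∈ Lo B, p ∈ N0 → p ∈ Wl a b c B := fun p hpB hpN =>
    ⟨hpN.1, hpN.2, (show p.2 < B from hpB).le⟩
  have hzA : ∀ p ∈ Lo B, p ∈ A → z p = 0 := by
    intro p hpB hpA
    by_cases hpN : p ∈ N0
    · rw [hz, indicator_of_mem hpN]
      rcases hpA with (h1 | h1) | h1
      · have : kk a1 b1 r p = 0 := kx_zero hr (Or.inl (le_of_lt h1))
        rw [this, zero_mul]
      · have : kk a1 b1 r p = 0 := kx_zero hr (Or.inr (le_of_lt h1))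
        rw [this, zero_mul]
      · rw [he0 p (hWl p hpB hpN) h1, mul_zero]
    · exact indicator_of_notMem hpN _
  have hcov : ∀ p, p ∉ N0 → p ∈ A := by
    intro p hp
    by_contra hpA
    apply hp
    simp only [hA, mem_union, mem_ofPred_eq, not_or, not_lt] at hpA
    obtain ⟨⟨h1, h2⟩, h3⟩ := hpA
    exact ⟨⟨by linarith, by linarith⟩, by show c < p.2; linarith⟩
  have hkrg : ∀ p, 0 ≤ kk a1 b1 r p ∧ kk a1 b1 r p ≤ 1 := fun p => kx_rg a1 b1 hr p.1
  have hkCF : CF (Wl a b c B) (kk a1 b1 r) :=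
    CF_of_lipschitz (kk_lip a1 b1 hr) (C := 1) fun p _ => by
      rw [abs_of_nonneg (hkrg p).1]; exact (hkrg p).2
  have hprod : CFJ 𝓗₀ (Wl a b c B) (fun p => kk a1 b1 r p * e p) := hkCF.cfj.mul heJ
  have hcf0 : CFJ 𝓗₀ (Lo B) z := by
    refine hprod.indicator hN0o hAo ?_ ?_ ?_
    · intro p _
      by_cases hpN : p ∈ N0
      · exact Or.inl hpN
      · exact Or.inr (hcov p hpN)
    · rintro p ⟨hpB, hpN⟩
      exact hWl p hpB hpN
    · rintro p ⟨⟨hpB, hpN⟩, hpA⟩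
      have := hzA p hpB hpA
      rwa [hz, indicator_of_mem hpN] at this
  have hcf : CFJ 𝓗 (Lo B) z := hcf0.mono h𝓗 Subset.rfl
  have hzval : ∀ p ∈ Wo a b c B, a1 < p.1 → p.1 < b1 → z p = e p := by
    intro p hp h1 h2
    have hpN : p ∈ N0 := ⟨hp.1, hp.2.1⟩
    rw [hz, indicator_of_mem hpN]
    have : kk a1 b1 r p = 1 := kx_one h1.le h2.le
    rw [this, one_mul]
  refine ⟨z, ⟨hcf, ?_, ?_, ?_⟩, hzval⟩
  · intro p
    by_cases hpN : p ∈ N0
    · rw [hz, indicator_of_mem hpN]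
      exact ⟨mul_nonneg (hkrg p).1 (he01 p).1, mul_le_one₀ (hkrg p).2 (he01 p).1 (he01 p).2⟩
    · rw [hz, indicator_of_notMem hpN]; exact ⟨le_rfl, zero_le_one⟩
  · refine ⟨Icc (a1 - r) (b1 + r) ×ˢ Icc (c + δ) B, isCompact_Icc.prod isCompact_Icc, ?_, ?_⟩
    · rintro p ⟨h1, h2⟩
      exact ⟨⟨by linarith [h1.1], by linarith [h1.2]⟩, by linarith [h2.1], by linarith [h2.2]⟩
    · intro p hpB hpS
      refine hzA p hpB ?_
      by_contra hpA
      apply hpS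
      simp only [hA, mem_union, mem_ofPred_eq, not_or, not_lt] at hpA
      exact ⟨⟨hpA.1.1, hpA.1.2⟩, hpA.2, (show p.2 < B from hpB).le⟩
  · -- energy
    have e1 : En (Lo B \ E) z ≤ (2 + 8 * r⁻¹ ^ 2 * (B - c) ^ 2) * En (Wo a b c B \ E) e := by
      obtain ⟨J, -, L, C, hL, hSL, hC⟩ := heJ
      refine le_trans (le_of_eq ?_) (en_lat hSL hC hcB hδ he0 ha hab hb hE.cpt.isClosed
        (fun p hp => (hbox hp).1) hr)
      unfold En
      have hmeas : MeasurableSet (Lo B \ E) :=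
        hLoo.measurableSet.diff hE.cpt.isClosed.measurableSet
      have hsub : Wo a b c B \ E ⊆ Lo B \ E := fun p hp => ⟨hp.1.2.2, hp.2⟩
      have k1 : ∫ p in Lo B \ E, g2 z p = ∫ p in Wo a b c B \ E, g2 z p := by
        refine setIntegral_eq_of_subset_of_forall_sdiff_eq_zero hmeas hsub ?_
        rintro p ⟨⟨hpB, hpE⟩, hpW⟩
        have hpN : p ∉ N0 := fun hpN => hpW ⟨⟨hpN.1, hpN.2, hpB⟩, hpE⟩
        have hpA := hcov p hpN
        have : z =ᶠ[𝓝 p] fun _ => 0 := by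
          filter_upwards [(hLoo.inter hAo).mem_nhds ⟨hpB, hpA⟩] with q hq using hzA q hq.1 hq.2
        unfold g2
        rw [gx_congr this, gy_congr this]
        simp
      rw [k1]
      refine setIntegral_congr_fun (measurableSet_Wo.diff hE.cpt.isClosed.measurableSet)
        fun p hp => ?_
      have : z =ᶠ[𝓝 p] fun p => kk a1 b1 r p * e p := by
        filter_upwards [isOpen_Wo.mem_nhds hp.1] with q hq
        rw [hz]
        exact indicator_of_mem (show q ∈ N0 from ⟨hq.1, hq.2.1⟩) _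
      simp only [g2]
      rw [gx_congr this, gy_congr this]
    have e2 : ∀ i : 𝒬', ch E (Lo B) z i.1 ≤ osc (Qc 𝒬' i ∩ Wl a b c B) e := by
      intro i
      rcases lt_or_gt_of_ne (gen i.1 i.2) with h1 | h1
      · obtain ⟨J, hJ, L, C, hL, hSL, hC⟩ := hcf
        have hs' := i.1.hs
        refine ch_le_osc (f := z) (W := Lo B) (slab_lo B) hE hatt hJ (hs i.2)
          (t0 := (i.1.y + min B (i.1.y + i.1.s)) / 2) ?_ ?_ hL hSL (osc_nonneg _ _) ?_
        · have g1 : i.1.y < min B (i.1.y + i.1.s) := lt_min h1 (by linarith)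
          have g2 := min_le_right B (i.1.y + i.1.s)
          exact ⟨by linarith, by linarith⟩
        · show (i.1.y + min B (i.1.y + i.1.s)) / 2 < B
          have g2 := min_le_left B (i.1.y + i.1.s)
          linarith
        · rintro p ⟨⟨hpQ, hpB⟩, -⟩ p' ⟨⟨hpQ', hpB'⟩, -⟩
          have q1 := hbox (hE.sub _ (hs i.2) hpQ)
          have q2 := hbox (hE.sub _ (hs i.2) hpQ')
          have w1 : p ∈ Wo a b c B := ⟨⟨by linarith [q1.1.1], by linarith [q1.1.2]⟩, q1.2.1, hpB⟩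
          have w2 : p' ∈ Wo a b c B := ⟨⟨by linarith [q2.1.1], by linarith [q2.1.2]⟩, q2.2.1, hpB'⟩
          rw [hzval p w1 q1.1.1 q1.1.2, hzval p' w2 q2.1.1 q2.1.2]
          exact le_osc (H.bo he i) ⟨hpQ, Wo_subset w1⟩ ⟨hpQ', Wo_subset w2⟩
      · have hemp : i.1.car ∩ closure (Lo B) = ∅ := by
          rw [eq_empty_iff_forall_notMem]
          rintro p ⟨h2, h3⟩
          have h4 : closure (Lo B) ⊆ {p : ℝ × ℝ | p.2 ≤ B} :=
            closure_minimal (fun q (hq : q.2 < B) => (show q.2 ≤ B from hq.le))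
              (isClosed_le continuous_snd continuous_const)
          have h5 : p.2 ≤ B := h4 h3
          have h6 := h2.2.1
          linarith
        unfold ch
        rw [hemp, chg_empty]
        exact osc_nonneg _ _
    have s2 : Summable fun i : 𝒬' => osc (Qc 𝒬' i ∩ Wl a b c B) e ^ 2 := H.summable he
    have e3 : Ch E (Lo B) 𝒬' z ≤ ∑' i : 𝒬', osc (Qc 𝒬' i ∩ Wl a b c B) e ^ 2 := by
      unfold Ch
      have h1 : ∀ i : 𝒬', ch E (Lo B) z i.1 ^ 2 ≤ osc (Qc 𝒬' i ∩ Wl a b c B) e ^ 2 := fun i =>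
        pow_le_pow_left₀ (ch_nonneg _ _ _ _) (e2 i) 2
      exact (Summable.of_nonneg_of_le (fun _ => sq_nonneg _) h1 s2).tsum_le_tsum h1 s2
    have s0 : 0 ≤ ∑' i : 𝒬', osc (Qc 𝒬' i ∩ Wl a b c B) e ^ 2 := tsum_nonneg fun _ => sq_nonneg _
    have c1 : 0 ≤ 8 * r⁻¹ ^ 2 * (B - c) ^ 2 := by positivity
    unfold TQ EQ
    nlinarith

end Crest.Agent.R105.Kna_421
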