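import Crest.Agent.R105.Kna2_421
import Crest.Agent.R105.Famq2_306

/-!
Row 105, S0138, lemma A with squares (helper421): adapter from the box problem of `Knq_247` to the
test functions of `Nal_649`. Part 3: values near the obstacle, the lower half.
-/

set_option autoImplicit false

open Set Filter MeasureTheory Topology
open scoped ENNReal NNReal

namespace Crest.Agent.R105.Kna_421

open CF_363 Kin_238 Stp_722 Cq_463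
open Knq_247 (osc QQ Vq EQ Bo Null1 EQ_nonneg)
open Skp2_257 (Lo Up Comps)
open Nal_649 (HalfQ OneNear PairQ FamQ)
open Famq_306 (BoxLo BoxUp)

variable {E P C : Set (ℝ × ℝ)} {𝒬 𝒬' : Set Sqr} {𝓗 𝓗₀ : Set Hair} {a b c d B a1 b1 r : ℝ}
  {e : ℝ × ℝ → ℝ}

/-! ### values near the obstacle -/

/-- traces `≥ 1` on `C` give values `≥ 1 - η` near `C` (off the hairs) -/
theorem near_val (h𝓗 : ∀ K ∈ 𝓗₀, K.car ⊆ E) (he : CFJ 𝓗₀ (Wl a b c B) e) (hCW : C ⊆ Wl a b c B)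
    (h1 : ∀ p ∈ C, ∀ σ : Bool, 1 ≤ tr e σ p.1 p.2) {η : ℝ} (hη : 0 < η) :
    ∃ O, IsOpen O ∧ C ⊆ O ∧ ∀ p ∈ O, p ∈ Wl a b c B → p ∉ E → 1 - η ≤ e p := by
  have key : ∀ p₀ : C, ∃ r > 0, ∀ p ∈ Wl a b c B, dist p (p₀ : ℝ × ℝ) < r → ∀ σ : Bool,
      1 - η ≤ tr e σ p.1 p.2 := by
    intro p₀
    obtain ⟨r, hr, h2⟩ := Knq_247.tr_near he (hCW p₀.2) hη
    refine ⟨r, hr, fun p hp hd σ => ?_⟩
    obtain ⟨σ₀, h3⟩ := h2 p hp hd σ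
    have h4 := h1 _ p₀.2 σ₀
    have h5 := (abs_le.1 h3).1
    linarith
  choose r hr hball using key
  obtain ⟨J, hJ, L, K, hL, hSL, hC⟩ := he
  refine ⟨⋃ p₀ : C, Metric.ball (p₀ : ℝ × ℝ) (r p₀), isOpen_iUnion fun _ => Metric.isOpen_ball,
    fun p hp => mem_iUnion.2 ⟨⟨p, hp⟩, Metric.mem_ball_self (hr _)⟩, fun p hpO hpW hpE => ?_⟩
  obtain ⟨p₀, hp₀⟩ := mem_iUnion.1 hpO
  have h2 := hball p₀ p hpW (Metric.mem_ball.1 hp₀) true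
  have h3 : ((p.1, p.2) : ℝ × ℝ) ∉ cut J := by
    intro hc
    obtain ⟨K, hK, hpK⟩ := mem_cut.1 hc
    exact hpE (h𝓗 K (hJ K hK) hpK)
  rwa [tr_eq_self hSL true hpW.1 hpW.2.1 hpW.2.2 h3] at h2

/-- the same for two functions on a relation -/
theorem near_val2 {E' : Set (ℝ × ℝ)} {𝓗₀' : Set Hair} {a' b' c' B' : ℝ} {e' : ℝ × ℝ → ℝ}
    {R0 : Set ((ℝ × ℝ) × (ℝ × ℝ))} (h𝓗 : ∀ K ∈ 𝓗₀, K.car ⊆ E) (h𝓗' : ∀ K ∈ 𝓗₀', K.car ⊆ E')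
    (hRW : ∀ q ∈ R0, q.1 ∈ Wl a b c B ∧ q.2 ∈ Wl a' b' c' B')
    (he : CFJ 𝓗₀ (Wl a b c B) e) (he' : CFJ 𝓗₀' (Wl a' b' c' B') e')
    (h1 : ∀ q ∈ R0, ∀ σ σ' : Bool, 1 ≤ tr e σ q.1.1 q.1.2 + tr e' σ' q.2.1 q.2.2) {η : ℝ}
    (hη : 0 < η) :
    ∃ U : Set ((ℝ × ℝ) × (ℝ × ℝ)), IsOpen U ∧ R0 ⊆ U ∧
      ∀ q ∈ U, q.1 ∈ Wl a b c B → q.2 ∈ Wl a' b' c' B' → q.1 ∉ E → q.2 ∉ E' →
        1 - η ≤ e q.1 + e' q.2 := by
  have key : ∀ q₀ : R0, ∃ r > 0, ∀ q ∈ Metric.ball (q₀ : (ℝ × ℝ) × (ℝ × ℝ)) r,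
      q.1 ∈ Wl a b c B → q.2 ∈ Wl a' b' c' B' → ∀ σ σ' : Bool,
        1 - η ≤ tr e σ q.1.1 q.1.2 + tr e' σ' q.2.1 q.2.2 := by
    intro q₀
    obtain ⟨r, hr, h2⟩ := Knq_247.tr_near he (hRW _ q₀.2).1 (half_pos hη)
    obtain ⟨r', hr', h3⟩ := Knq_247.tr_near he' (hRW _ q₀.2).2 (half_pos hη)
    refine ⟨min r r', lt_min hr hr', fun q hq hq1 hq2 σ σ' => ?_⟩
    rw [Metric.mem_ball, Prod.dist_eq] at hq
    have hd1 : dist q.1 (q₀ : (ℝ × ℝ) × (ℝ × ℝ)).1 < r :=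
      (le_max_left _ _).trans_lt (hq.trans_le (min_le_left _ _))
    have hd2 : dist q.2 (q₀ : (ℝ × ℝ) × (ℝ × ℝ)).2 < r' :=
      (le_max_right _ _).trans_lt (hq.trans_le (min_le_right _ _))
    obtain ⟨σ₀, h4⟩ := h2 _ hq1 hd1 σ
    obtain ⟨σ₁, h5⟩ := h3 _ hq2 hd2 σ'
    have h6 := h1 _ q₀.2 σ₀ σ₁
    have h7 := (abs_le.1 h4).1
    have h8 := (abs_le.1 h5).1
    linarith
  choose r hr hball using key
  obtain ⟨J, hJ, L, K, hL, hSL, hC⟩ := he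
  obtain ⟨J', hJ', L', K', hL', hSL', hC'⟩ := he'
  refine ⟨⋃ q₀ : R0, Metric.ball (q₀ : (ℝ × ℝ) × (ℝ × ℝ)) (r q₀),
    isOpen_iUnion fun q₀ => Metric.isOpen_ball, fun q hq => ?_, fun q hq hq1 hq2 hE hE' => ?_⟩
  · exact mem_iUnion.2 ⟨⟨q, hq⟩, Metric.mem_ball_self (hr _)⟩
  · obtain ⟨q₀, hq₀⟩ := mem_iUnion.1 hq
    have h2 := hball q₀ q hq₀ hq1 hq2 true true
    have h3 : ((q.1.1, q.1.2) : ℝ × ℝ) ∉ cut J := by
      intro hc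
      obtain ⟨K, hK, hpK⟩ := mem_cut.1 hc
      exact hE (h𝓗 K (hJ K hK) hpK)
    have h4 : ((q.2.1, q.2.2) : ℝ × ℝ) ∉ cut J' := by
      intro hc
      obtain ⟨K, hK, hpK⟩ := mem_cut.1 hc
      exact hE' (h𝓗' K (hJ' K hK) hpK)
    rwa [tr_eq_self hSL true hq1.1 hq1.2.1 hq1.2.2 h3,
      tr_eq_self hSL' true hq2.1 hq2.2.1 hq2.2.2 h4] at h2

/-! ### uncharged squares above the level -/

/-- squares above `B` carry no charge of the lower half -/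
theorem ch_lo_zero {Q : Sqr} (h : B < Q.y) (z : ℝ × ℝ → ℝ) : ch E (Lo B) z Q = 0 := by
  have hemp : Q.car ∩ closure (Lo B) = ∅ := by
    rw [eq_empty_iff_forall_notMem]
    rintro p ⟨h2, h3⟩
    have h4 : closure (Lo B) ⊆ {p : ℝ × ℝ | p.2 ≤ B} :=
      closure_minimal (fun q (hq : q.2 < B) => (show q.2 ≤ B from hq.le))
        (isClosed_le continuous_snd continuous_const)
    have h5 : p.2 ≤ B := h4 h3
    have h6 := h2.2.1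
    linarith
  unfold ch
  rw [hemp, chg_empty]

theorem Ch_sdiff {W : Set (ℝ × ℝ)} {z : ℝ × ℝ → ℝ} (hs : 𝒬' ⊆ 𝒬)
    (h : ∀ Q ∈ 𝒬, Q ∉ 𝒬' → ch E W z Q = 0) : Ch E W 𝒬 z = Ch E W 𝒬' z := by
  unfold Ch
  rw [tsum_subtype 𝒬 fun Q => ch E W z Q ^ 2, tsum_subtype 𝒬' fun Q => ch E W z Q ^ 2]
  refine tsum_congr fun Q => ?_
  by_cases h1 : Q ∈ 𝒬'
  · rw [indicator_of_mem h1, indicator_of_mem (hs h1)]
  · rw [indicator_of_notMem h1]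
    by_cases h2 : Q ∈ 𝒬
    · rw [indicator_of_mem h2, h Q h2 h1]; norm_num
    · rw [indicator_of_notMem h2]

theorem half_lo_full {N : Set (ℝ × ℝ)} {ε : ℝ} {z : ℝ × ℝ → ℝ} (hs : 𝒬' ⊆ 𝒬)
    (h : ∀ Q ∈ 𝒬, Q ∉ 𝒬' → B < Q.y) (hz : HalfQ E 𝒬' 𝓗 (Lo B) N ε z) :
    HalfQ E 𝒬 𝓗 (Lo B) N ε z where
  cf := hz.cf
  rg := hz.rg
  sp := hz.sp
  en := by
    have h1 := hz.en
    unfold TQ at h1 ⊢
    rwa [Ch_sdiff hs fun Q hQ hQ' => ch_lo_zero (h Q hQ hQ') z]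

/-! ### the lower half -/

/-- the energy constant -/
noncomputable def C0 (r c B : ℝ) : ℝ := 2 + 8 * r⁻¹ ^ 2 * (B - c) ^ 2

theorem C0_pos (r c B : ℝ) : 0 < C0 r c B := by unfold C0; positivity

theorem C0_mono {r c B B' : ℝ} (h1 : c ≤ B) (h2 : B ≤ B') : C0 r c B ≤ C0 r c B' := by
  unfold C0
  have : (B - c) ^ 2 ≤ (B' - c) ^ 2 := pow_le_pow_left₀ (by linarith) (by linarith) 2
  gcongr

/-- a box with lateral room around the compact set `E` -/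
theorem exists_room (hE : IsCompact E) (hbox : E ⊆ Ioo a b ×ˢ Ioo c d) (hab : a < b) :
    ∃ a1 b1 r, 0 < r ∧ a < a1 - r ∧ a1 < b1 ∧ b1 + r < b ∧ E ⊆ Ioo a1 b1 ×ˢ Ioo c d := by
  rcases E.eq_empty_or_nonempty with h | h
  · refine ⟨a + (b - a) / 3, b - (b - a) / 3, (b - a) / 6, by linarith, by linarith, by linarith,
      by linarith, by rw [h]; exact empty_subset _⟩
  · obtain ⟨p, hp, hpm⟩ := hE.exists_isMinOn h (continuous_fst.continuousOn (s := E))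
    obtain ⟨q, hq, hqm⟩ := hE.exists_isMaxOn h (continuous_fst.continuousOn (s := E))
    have h1 := (hbox hp).1.1
    have h2 := (hbox hq).1.2
    have h3 : p.1 ≤ q.1 := hpm hq
    have hr : 0 < min (p.1 - a) (b - q.1) := lt_min (by linarith) (by linarith)
    have hr1 := min_le_left (p.1 - a) (b - q.1)
    have hr2 := min_le_right (p.1 - a) (b - q.1)
    refine ⟨p.1 - min (p.1 - a) (b - q.1) / 3, q.1 + min (p.1 - a) (b - q.1) / 3,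
      min (p.1 - a) (b - q.1) / 3, by linarith, by linarith, by linarith, by linarith,
      fun z hz => ⟨⟨?_, ?_⟩, (hbox hz).2⟩⟩
    · have : p.1 ≤ z.1 := hpm hz
      linarith
    · have : z.1 ≤ q.1 := hqm hz
      linarith

/-- **the lower half of a null obstacle** -/
theorem boxLo_of_null1 (hE : QPic E 𝒬 𝓗) (hatt : Att 𝒬 𝓗) (hs : 𝒬' ⊆ 𝒬) (h𝓗 : 𝓗₀ ⊆ 𝓗)
    (hbox : E ⊆ Ioo a b ×ˢ Ioo c d) (hab : a < b) (hBd : B < d) (gen : ∀ Q ∈ 𝒬', Q.y ≠ B)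
    (hPE : P ⊆ E) (h : Null1 𝓗₀ a b c B E (Qc 𝒬') (P ∩ {p | p.2 ≤ B})) :
    BoxLo E 𝒬' 𝓗 (Ioo a b ×ˢ Ioo c d) P B := by
  intro ε hε
  have hEc : IsClosed E := hE.cpt.isClosed
  rcases le_or_gt B c with hcB | hcB
  · -- nothing below
    have hemp : P ∩ {p | p.2 ≤ B} = ∅ := by
      rw [eq_empty_iff_forall_notMem]
      rintro p ⟨h1, h2⟩
      have := (hbox (hPE h1)).2.1
      have h3 : p.2 ≤ B := h2
      linarith
    refine ⟨0, ⟨CFJ_const 0, fun p => ⟨le_rfl, zero_le_one⟩, ⟨∅, isCompact_empty,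
      empty_subset _, fun p _ _ => rfl⟩, ?_⟩, ∅, isOpen_empty, by rw [hemp], by simp⟩
    unfold TQ Ch
    have h1 : En (Lo B \ E) (0 : ℝ × ℝ → ℝ) = 0 := En_const _ 0
    have h2 : ∀ Q : 𝒬', ch E (Lo B) (0 : ℝ × ℝ → ℝ) Q.1 ^ 2 = 0 := fun Q => by
      have : ch E (Lo B) (0 : ℝ × ℝ → ℝ) Q.1 = 0 := chg_const 0
      rw [this]; norm_num
    rw [h1]
    simp only [h2, tsum_zero, add_zero]
    exact hε.le
  obtain ⟨a1, b1, r, hr, har, hab1, hbr, hbox1⟩ := exists_room hE.cpt hbox hab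
  have hbox0 : E ⊆ Ioo a b ×ˢ Ioi c := fun p hp => ⟨(hbox hp).1, (hbox hp).2.1⟩
  have hE0 : QPic E 𝒬 𝓗₀ :=
    ⟨hE.cpt, hE.sub, fun K hK => hE.hsub K (h𝓗 hK), hE.sep, hE.null⟩
  have H := qq (B := B) hE0 hs hbox0
  have hC0 := C0_pos r c B
  obtain ⟨e, he, hen, htr⟩ := h (ε / (4 * C0 r c B)) (by positivity)
  have he2 : (fun p => 2 * e p) ∈ Vq 𝓗₀ a b c B (Qc 𝒬') := by
    have := (Vq 𝓗₀ a b c B (Qc 𝒬')).smul_mem (2 : ℝ) he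
    exact this
  obtain ⟨hm, hle⟩ := Vq_clamp H hEc he2
  rw [EQ_two hEc he] at hle
  obtain ⟨z, hz, hzv⟩ := half_of hE hatt hs h𝓗 hbox1 (by linarith) hab1 (by linarith) hcB hBd gen
    hm (fun p => ⟨le_max_right _ _, max_le (min_le_right _ _) zero_le_one⟩) hr har hbr
  have hCW : P ∩ {p | p.2 ≤ B} ⊆ Wl a b c B := fun p hp =>
    ⟨(hbox (hPE hp.1)).1, (hbox (hPE hp.1)).2.1, hp.2⟩
  obtain ⟨O, hO, hCO, hO1⟩ := near_val (fun K hK => hE0.hsub K hK) he.1.1 hCW htr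
    (η := 1 / 4) (by norm_num)
  refine ⟨z, ⟨hz.cf, hz.rg, hz.sp, hz.en.trans ?_⟩, O ∩ (Ioo a1 b1 ×ˢ Ioo c d),
    hO.inter (isOpen_Ioo.prod isOpen_Ioo), fun p hp => ⟨hCO hp, hbox1 (hPE hp.1)⟩, ?_⟩
  · have h1 : C0 r c B * EQ a b c B E (Qc 𝒬') (fun p => max (min (2 * e p) 1) 0) ≤
        C0 r c B * (4 * (ε / (4 * C0 r c B))) := by
      refine mul_le_mul_of_nonneg_left ?_ hC0.le
      linarith
    have h2 : C0 r c B * (4 * (ε / (4 * C0 r c B))) = ε := by field_simp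
    rw [h2] at h1
    exact h1
  · rintro p ⟨⟨hpO, hpx, hpy⟩, hpE⟩ hpB
    have hpB' : p.2 < B := hpB
    have hpW : p ∈ Wo a b c B := ⟨⟨by linarith [hpx.1], by linarith [hpx.2]⟩, hpy.1, hpB'⟩
    rw [hzv p hpW hpx.1 hpx.2]
    have h1 := hO1 p hpO (Wo_subset hpW) hpE
    show max (min (2 * e p) 1) 0 = 1
    rw [min_eq_right (by linarith), max_eq_left zero_le_one]

end Crest.Agent.R105.Kna_421
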