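import Crest.Agent.R105.Kna4_421
import Crest.Agent.R105.Kbx3_247
import Crest.Agent.R105.Hmx_361
import Crest.Agent.R105.Cq10_463

/-!
Row 105, S0138, lemma A with squares (helper421). Part 5: joins in the letters of `Kbx_247`.
`not_null1_face` : the lower part of a square is not null (463's capacity of the faces);
`BndF` = bound of the mass of the flow of a family, `SolUp` = no pair of unit flows of a single
solid; `lemaq_of_steps` : `LEMAQ StrQ` from these two and the reflection of E-L.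
-/

set_option autoImplicit false

open Set Filter MeasureTheory Topology
open scoped ENNReal NNReal

namespace Crest.Agent.R105.Kna_421

open CF_363 Kin_238 Stp_722 Cq_463
open Knq_247 (osc QQ Vq EQ Bo Null1 Null2 EQ_nonneg)
open Skp2_257 (Lo Up Comps)
open Nal_649 (HalfQ OneNear PairQ FamQ Win comp)
open Famq_306 (BoxLo BoxUp BoxN Gen SoloG BndG BoxOut SqSub isCompact_comp exists_gen solo_bndq_of)
open Kbx_247 (rfS rfS_injective car_rfS mem_rfS refl_pic refl_qpic comp_rfS QA SolK SolF FamF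
  exists_solF exists_famF solN_of)
open Exs_992 (PicS)
open SkT1_137 (ELS SOLO BNDQ LEMAQ)

variable {E P C W N : Set (ℝ × ℝ)} {𝒬 𝒬' : Set Sqr} {𝓗 𝓗₀ : Set Hair}
  {a b c d B a1 b1 r ε Bm Bp m : ℝ} {e e' z : ℝ × ℝ → ℝ} {g : Set (Set (ℝ × ℝ))}

/-- the adapter with a general obstacle -/
theorem half_of_null1 (hE : QPic E 𝒬 𝓗) (hatt : Att 𝒬 𝓗) (hs : 𝒬' ⊆ 𝒬) (h𝓗 : 𝓗₀ ⊆ 𝓗)
    (hbox : E ⊆ Ioo a b ×ˢ Ioo c d) (hab : a < b) (hBd : B < d) (gen : ∀ Q ∈ 𝒬', Q.y ≠ B)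
    (hCE : C ⊆ E) (hCB : ∀ p ∈ C, p.2 ≤ B) (h : Null1 𝓗₀ a b c B E (QA 𝒬') C) :
    ∀ ε > 0, ∃ z, HalfQ E 𝒬' 𝓗 (Lo B) (Ioo a b ×ˢ Ioo c d) ε z ∧ OneNear E (Lo B) C z := by
  have h1 : C ∩ {p | p.2 ≤ B} = C := inter_eq_left.2 hCB
  have h2 := boxLo_of_null1 hE hatt hs h𝓗 hbox hab hBd gen hCE (by rw [h1]; exact h)
  intro ε hε
  obtain ⟨z, hz, hz1⟩ := h2 ε hε
  rw [h1] at hz1
  exact ⟨z, hz, hz1⟩

/-- **(F)**: the lower part of a square is not null in the box, its own charge is not used -/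
theorem not_null1_face (hE : QPic E 𝒬 𝓗) (hatt : Att 𝒬 𝓗) (h𝓗 : 𝓗₀ ⊆ 𝓗)
    (hbox : E ⊆ Ioo a b ×ˢ Ioo c d) (hab : a < b) {Q0 : Sqr} (hQ : Q0 ∈ 𝒬) (hQB : Q0.y < B)
    (hBd : B < d) (gen : ∀ Q ∈ 𝒬, Q.y ≠ B) :
    ¬ Null1 𝓗₀ a b c B E (QA (𝒬 \ {Q0})) (Q0.car ∩ {p | p.2 ≤ B}) := by
  intro h
  have h1 := half_of_null1 hE hatt (sdiff_subset : 𝒬 \ {Q0} ⊆ 𝒬) h𝓗 hbox hab hBd
    (fun Q hQ => gen Q hQ.1) (inter_subset_left.trans (hE.sub Q0 hQ)) (fun p hp => hp.2) h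
  obtain ⟨K, hK⟩ := face hE Q0 hQ (Icc a b ×ˢ Icc c d) (isCompact_Icc.prod isCompact_Icc)
  have hK1 : ∀ ε > 0, Q0.s ≤ K * √ε := by
    intro ε hε
    obtain ⟨z, hz, hz1⟩ := h1 ε hε
    obtain ⟨S, hS, hSN, h0⟩ := hz.sp
    have h2 := (hK z hz.rg).1 B hQB hz.cf (fun p hpB hp => h0 p hpB fun hpS => hp
      ⟨Ioo_subset_Icc_self (hSN hpS).1, Ioo_subset_Icc_self (hSN hpS).2⟩) hz1
    rcases le_or_gt 0 K with hk | hk
    · exact h2.trans (mul_le_mul_of_nonneg_left (Real.sqrt_le_sqrt hz.en) hk)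
    · have := mul_nonpos_of_nonpos_of_nonneg hk.le (Real.sqrt_nonneg (TQ E (Lo B) (𝒬 \ {Q0}) z))
      have := Q0.hs
      linarith
  have hs := Q0.hs
  have hK0 : 0 < K := by
    have := hK1 1 one_pos
    rw [Real.sqrt_one, mul_one] at this
    linarith
  have h3 := hK1 ((Q0.s / (2 * K)) ^ 2) (by positivity)
  rw [Real.sqrt_sq (by positivity)] at h3
  have h4 : K * (Q0.s / (2 * K)) = Q0.s / 2 := by field_simp
  rw [h4] at h3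
  linarith

theorem soloK_of_solK (h : SolK E 𝒬 𝓗₀ a b c) : SoloK E 𝒬 𝓗₀ a b c :=
  fun Q hQ B hB _ hBQ => h Q hQ B hB hBQ

/-! ### the bound -/

/-- the relation of `Kbx_247` is the relation `Rg` -/
theorem Rg_eq (hg : g ⊆ Comps E) : Rg E g Bm Bp = Kbx_247.Rg g Bm Bp := by
  ext q
  constructor
  · rintro ⟨⟨P, hP, hqP⟩, ⟨P', hP', hqP'⟩, h1, h2, h3⟩
    refine ⟨P, hP, hqP, ?_, h1, ?_⟩
    · obtain ⟨x, hx, hxP⟩ := hg hP
      obtain ⟨x', hx', hxP'⟩ := hg hP'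
      have e1 : connectedComponentIn E q.1 = P := by
        rw [hxP] at hqP
        rw [hxP, connectedComponentIn_eq hqP]
      have e2 : connectedComponentIn E (rf q.2) = P' := by
        rw [hxP'] at hqP'
        rw [hxP', connectedComponentIn_eq hqP']
      rw [← e1, h3, e2]
      exact hqP'
    · rw [rf_snd] at h2; linarith
  · rintro ⟨P, hP, h1, h2, h3, h4⟩
    have := mem_Rg (q := rf q.2) (Bm := Bm) (Bp := Bp) hg hP h1 h3 h2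
      (by rw [rf_snd]; linarith)
    simpa using this

/-- **the bound of the mass of the flow of a family** (from E-L) -/
def BndF (E : Set (ℝ × ℝ)) (𝒬 : Set Sqr) (𝓗 : Set Hair) (a b c d : ℝ) : Prop :=
  ∃ K, 0 ≤ K ∧ ∀ g Bm Bp, Gen 𝒬 Bm → Gen 𝒬 Bp → FamQ E g Bm Bp → Win 𝒬 g Bm Bp →
    c < Bm → Bp < d → ∀ s, SqSub 𝒬 (⋃₀ g) s → ∀ m X1 X2 f νp νm μ Y1 Y2 f' νp' νm' ν,
      FamF E 𝒬 𝓗 g Bm Bp a b c d m X1 X2 f νp νm μ Y1 Y2 f' νp' νm' ν →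
        m ≤ K / (Bp - Bm) ^ 2 * s

theorem bndK_of_bndF (hP : PicS E 𝒬 𝓗) (hbox : E ⊆ Ioo a b ×ˢ Ioo c d)
    (lo : SolK E 𝒬 𝓗 a b c) (up : SolK (rf ⁻¹' E) (rfS '' 𝒬) (reflH 𝓗) a b (-d))
    (h : BndF E 𝒬 𝓗 a b c d) : BndK E 𝒬 𝓗 a b c d := by
  obtain ⟨K, hK, h⟩ := h
  refine ⟨K, hK, fun g Bm Bp _ gm gp hg hw hcm hpd s hs η hη => ?_⟩
  have hs0 : 0 ≤ s := by simpa using hs ∅ (by simp)
  rw [Rg_eq hg.sub]
  by_cases hn : Null2 𝓗 a b c Bm E (QA 𝒬) (reflH 𝓗) a b (-d) (-Bp) (rf ⁻¹' E) (QA (rfS '' 𝒬))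
      (Kbx_247.Rg g Bm Bp)
  · obtain ⟨e, he, e', he', h1, h2⟩ := hn η hη
    refine ⟨e, he, e', he', ?_, h2⟩
    have : 0 ≤ K / (Bp - Bm) ^ 2 * s := by positivity
    linarith
  · obtain ⟨m, X1, X2, f, νp, νm, μ, Y1, Y2, f', νp', νm', ν, hF⟩ := exists_famF hP hg hbox
      (solN_of hP.q hg gm gp hw lo up) hn
    obtain ⟨e, he, e', he', h1, h2⟩ := hF.opt η hη
    have h3 := h g Bm Bp gm gp hg hw hcm hpd s hs _ _ _ _ _ _ _ _ _ _ _ _ _ hF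
    exact ⟨e, he, e', he', by linarith, h2⟩

/-! ### the single solid -/

/-- **there is no pair of unit flows of a single solid** (from E-L): lower flow to the lower part of
the square, upper flow to the hairs standing on the square -/
def SolUp (E : Set (ℝ × ℝ)) (𝒬 : Set Sqr) (𝓗 : Set Hair) (a b c d : ℝ) : Prop :=
  ∀ Q0 ∈ 𝒬, ∀ B Bp, Gen 𝒬 B → Gen 𝒬 Bp → c < B → Q0.y < B → B < Q0.y + Q0.s →
    Q0.y + Q0.s < Bp → Bp < d → ∀ X1 X2 f νp νm μ Y1 Y2 f' νp' νm' ν,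
      ¬ SolF E 𝒬 𝓗 Q0 B Bp a b c d X1 X2 f νp νm μ Y1 Y2 f' νp' νm' ν

theorem null1_empty {ι : Type*} {Q : ι → Set (ℝ × ℝ)} {S : Set (ℝ × ℝ)} :
    Null1 𝓗 a b c B S Q ∅ := fun ε hε =>
  ⟨0, (Vq 𝓗 a b c B Q).zero_mem, by rw [Knq_247.EQ_zero]; exact hε, fun p hp => absurd hp
    (notMem_empty p)⟩

theorem gen_rf' (h : Gen (rfS '' 𝒬) B) : Gen 𝒬 (-B) := by
  have := gen_rf h
  rwa [Kbx_247.rfS_image_image] at this

theorem solK_of_solUp (hP : PicS E 𝒬 𝓗) (hbox : E ⊆ Ioo a b ×ˢ Ioo c d) (hab : a < b)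
    (h : SolUp E 𝒬 𝓗 a b c d) : SolK (rf ⁻¹' E) (rfS '' 𝒬) (reflH 𝓗) a b (-d) := by
  rintro _ ⟨Q0, hQ, rfl⟩ B' hB' hBQ
  have hs := Q0.hs
  simp only [Kbx_247.rfS_y] at hBQ
  have hE := hP.q
  have hQE : ∀ p ∈ Q0.car, p ∈ Ioo a b ×ˢ Ioo c d := fun p hp => hbox (hE.sub Q0 hQ hp)
  rw [comp_rfS hE hQ]
  have e1 : rfS '' 𝒬 \ {rfS Q0} = rfS '' (𝒬 \ {Q0}) := by
    rw [image_sdiff rfS_injective, image_singleton]
  rw [e1]
  obtain ⟨Bp, rfl⟩ : ∃ Bp, B' = -Bp := ⟨-B', by ring⟩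
  have gp : Gen 𝒬 Bp := by simpa using gen_rf' hB'
  rcases le_or_gt d Bp with hd | hd
  · have hemp : rf ⁻¹' comp E Q0 ∩ {p | p.2 ≤ -Bp} = ∅ := by
      rw [eq_empty_iff_forall_notMem]
      rintro p ⟨h1, h2⟩
      have h3 := (hbox (comp_sub E Q0 h1)).2.2
      rw [rf_snd] at h3
      have h4 : p.2 ≤ -Bp := h2
      linarith
    rw [hemp]
    exact null1_empty
  · by_contra hup
    obtain ⟨B, gB, h1, h2⟩ := exists_gen hE (show Q0.y < Q0.y + Q0.s by linarith)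
    have h3 : c < B := by
      have := (hQE _ (Kbx_247.corner_mem Q0)).2.1
      simp only at this
      linarith
    have hlo := not_null1_face (𝓗₀ := 𝓗) hE hP.att Subset.rfl hbox hab hQ h1 (by linarith)
      (fun Q hQ => (gB Q hQ).1)
    obtain ⟨X1, X2, f, νp, νm, μ, Y1, Y2, f', νp', νm', ν, hF⟩ := exists_solF hP hQ hbox
      (by linarith : Q0.y + Q0.s < Bp) hlo hup
    exact h Q0 hQ B Bp gB gp h3 h1 h2 (by linarith) hd _ _ _ _ _ _ _ _ _ _ _ _ hF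

/-- **the box from the two steps** -/
theorem boxOut_of_steps (hP : PicS E 𝒬 𝓗) (hbox : E ⊆ Ioo a b ×ˢ Ioo c d) (hab : a < b)
    (hcd : c < d) (h1 : SolUp E 𝒬 𝓗 a b c d)
    (h2 : SolUp (rf ⁻¹' E) (rfS '' 𝒬) (reflH 𝓗) a b (-d) (-c)) (h3 : BndF E 𝒬 𝓗 a b c d) :
    BoxOut E 𝒬 𝓗 := by
  have up := solK_of_solUp hP hbox hab h1
  have lo : SolK E 𝒬 𝓗 a b c := by
    have h4 := solK_of_solUp (refl_pic hP) (Kbx_247.refl_box hbox) hab h2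
    rwa [Kbx_247.rf_pre_pre, Kbx_247.rfS_image_image, reflH_reflH, neg_neg] at h4
  exact boxOut_of hP Subset.rfl hbox hab hcd (soloK_of_solK lo) (soloK_of_solK up)
    (bndK_of_bndF hP hbox lo up h3)

/-- a box of a compact set -/
theorem exists_box (hE : IsCompact E) :
    ∃ a b c d : ℝ, a < b ∧ c < d ∧ E ⊆ Ioo a b ×ˢ Ioo c d := by
  obtain ⟨R, hR⟩ := hE.isBounded.subset_ball (0 : ℝ × ℝ)
  refine ⟨-(|R| + 1), |R| + 1, -(|R| + 1), |R| + 1, by linarith [abs_nonneg R],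
    by linarith [abs_nonneg R], fun p hp => ?_⟩
  have h1 := hR hp
  rw [Metric.mem_ball, dist_zero_right, Prod.norm_def] at h1
  have h2 : |p.1| < R := (le_max_left _ _).trans_lt h1
  have h3 : |p.2| < R := (le_max_right _ _).trans_lt h1
  have h4 := le_abs_self R
  have h5 := abs_lt.1 h2
  have h6 := abs_lt.1 h3
  exact ⟨⟨by linarith [h5.1], by linarith [h5.2]⟩, by linarith [h6.1], by linarith [h6.2]⟩

/-- pairwise disjoint hairs -/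
def DisjH (𝓗 : Set Hair) : Prop := ∀ K ∈ 𝓗, ∀ K' ∈ 𝓗, K ≠ K' → Disjoint K.car K'.car

theorem disjH_refl (h : DisjH 𝓗) : DisjH (reflH 𝓗) := by
  intro K hK K' hK' hne
  have h1 := h _ hK _ hK' fun h => hne (Hair.refl_injective h)
  rw [Hair.car_refl, Hair.car_refl] at h1
  rw [Set.disjoint_left] at h1 ⊢
  intro p hp hp'
  exact h1 (a := rf p) (by simpa using hp) (by simpa using hp')

/-- **`LEMAQ StrQ` from the two steps and the reflection of E-L** -/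
theorem lemaq_of_steps
    (hR : ∀ E 𝒬 𝓗, PicS E 𝒬 𝓗 → ELS Psq_425.StrQ E 𝒬 𝓗 →
      ELS Psq_425.StrQ (rf ⁻¹' E) (rfS '' 𝒬) (reflH 𝓗))
    (hS : ∀ E 𝒬 𝓗, PicS E 𝒬 𝓗 → DisjH 𝓗 → ELS Psq_425.StrQ E 𝒬 𝓗 →
      ∀ a b c d, a < b → c < d → E ⊆ Ioo a b ×ˢ Ioo c d → SolUp E 𝒬 𝓗 a b c d)
    (hB : ∀ E 𝒬 𝓗, PicS E 𝒬 𝓗 → DisjH 𝓗 → ELS Psq_425.StrQ E 𝒬 𝓗 →
      ∀ a b c d, a < b → c < d → E ⊆ Ioo a b ×ˢ Ioo c d → BndF E 𝒬 𝓗 a b c d) :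
    LEMAQ Psq_425.StrQ := by
  refine Hmx_361.lemaq_of_disj fun E 𝒬 𝓗 hP hd hel => ?_
  obtain ⟨a, b, c, d, hab, hcd, hbox⟩ := exists_box hP.q.cpt
  exact solo_bndq_of hP.q (boxOut_of_steps hP hbox hab hcd
    (hS E 𝒬 𝓗 hP hd hel a b c d hab hcd hbox)
    (hS _ _ _ (refl_pic hP) (disjH_refl hd) (hR E 𝒬 𝓗 hP hel) a b (-d) (-c) hab (by linarith)
      (Kbx_247.refl_box hbox))
    (hB E 𝒬 𝓗 hP hd hel a b c d hab hcd hbox))

end Crest.Agent.R105.Kna_421
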