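import Crest.Agent.R105.Kna5_421
import Crest.Agent.R105.Kbx4_247

/-!
Row 105, S0138, lemma A with squares (helper421). Part 6: `LEMAQ StrQ` from the three statements
(A) single solid, (B) single free hair, (C) family without atoms (247's letters, #11367).
-/

set_option autoImplicit false

open Set Filter MeasureTheory Topology
open scoped ENNReal NNReal

namespace Crest.Agent.R105.Kna_421

open CF_363 Kin_238 Stp_722 Cq_463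
open Knq_247 (osc QQ Vq EQ Bo Null1 Null2 EQ_nonneg)
open Skp2_257 (Lo Up Comps)
open Nal_649 (HalfQ OneNear PairQ FamQ Win comp)
open Famq_306 (BoxLo BoxUp BoxN Gen SoloG BndG BoxOut SqSub isCompact_comp exists_gen solo_bndq_of)
open Kbx_247 (rfS rfS_injective car_rfS mem_rfS refl_pic refl_qpic comp_rfS QA SolK SolF FamF
  exists_solF exists_famF exists_famF_hair solN_of)
open Exs_992 (PicS)
open SkT1_137 (ELS SOLO BNDQ LEMAQ)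

variable {E P C W N : Set (ℝ × ℝ)} {𝒬 𝒬' : Set Sqr} {𝓗 𝓗₀ : Set Hair}
  {a b c d B a1 b1 r ε Bm Bp m : ℝ} {e e' z : ℝ × ℝ → ℝ} {g : Set (Set (ℝ × ℝ))}

/-- **(A)** single solid: for every level above the square there is a level of the square without a
pair of unit flows -/
def StepA (E : Set (ℝ × ℝ)) (𝒬 : Set Sqr) (𝓗 : Set Hair) (a b c d : ℝ) : Prop :=
  ∀ Q0 ∈ 𝒬, ∀ Bp, Gen 𝒬 Bp → Q0.y + Q0.s < Bp → Bp < d →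
    ∃ B, Gen 𝒬 B ∧ Q0.y < B ∧ B < Q0.y + Q0.s ∧ ∀ X1 X2 f νp νm μ Y1 Y2 f' νp' νm' ν,
      SolF E 𝒬 𝓗 Q0 B Bp a b c d X1 X2 f νp νm μ Y1 Y2 f' νp' νm' ν → False

/-- **(B)** single free hair -/
def StepB (E : Set (ℝ × ℝ)) (𝒬 : Set Sqr) (𝓗 : Set Hair) (a b c d : ℝ) : Prop :=
  ∀ K ∈ 𝓗, ∀ Bm Bp, Gen 𝒬 Bm → Gen 𝒬 Bp → FamQ E {K.car} Bm Bp → c < Bm → Bp < d →
    ∀ m X1 X2 f νp νm μ Y1 Y2 f' νp' νm' ν,
      FamF E 𝒬 𝓗 {K.car} Bm Bp a b c d m X1 X2 f νp νm μ Y1 Y2 f' νp' νm' ν → False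

/-- **(C)** family without atoms -/
def StepC (E : Set (ℝ × ℝ)) (𝒬 : Set Sqr) (𝓗 : Set Hair) (a b c d : ℝ) : Prop :=
  ∃ K, 0 ≤ K ∧ ∀ g Bm Bp, Gen 𝒬 Bm → Gen 𝒬 Bp → FamQ E g Bm Bp → Win 𝒬 g Bm Bp →
    c < Bm → Bp < d → ∀ m X1 X2 f νp νm μ Y1 Y2 f' νp' νm' ν,
      FamF E 𝒬 𝓗 g Bm Bp a b c d m X1 X2 f νp νm μ Y1 Y2 f' νp' νm' ν →
        (∀ x, μ {q | q.1 = x} = 0) → (∀ x, ν {q | q.1 = x} = 0) →
          ∀ s, SqSub 𝒬 (⋃₀ g) s → (Bp - Bm) ^ 2 * m ≤ K * s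

theorem solK_of_stepA (hP : PicS E 𝒬 𝓗) (hbox : E ⊆ Ioo a b ×ˢ Ioo c d) (hab : a < b)
    (h : StepA E 𝒬 𝓗 a b c d) : SolK (rf ⁻¹' E) (rfS '' 𝒬) (reflH 𝓗) a b (-d) := by
  rintro _ ⟨Q0, hQ, rfl⟩ B' hB' hBQ
  have hs := Q0.hs
  simp only [Kbx_247.rfS_y] at hBQ
  have hE := hP.q
  have hQE : ∀ p ∈ Q0.car, p ∈ Ioo a b ×ˢ Ioo c d := fun p hp => hbox (hE.sub Q0 hQ hp)
  rw [comp_rfS hE hQ]
  have e1 : rfS '' 𝒬 \ {rfS Q0} = rfS '' (𝒬 \ {Q0}) := by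
    rw [image_sdiff rfS_injective, image_singleton]
  rw [e1]
  obtain ⟨Bp, rfl⟩ : ∃ Bp, B' = -Bp := ⟨-B', by ring⟩
  have gp : Gen 𝒬 Bp := by simpa using gen_rf' hB'
  rcases le_or_gt d Bp with hd | hd
  · have hemp : rf ⁻¹' comp E Q0 ∩ {p | p.2 ≤ -Bp} = ∅ := by
      rw [eq_empty_iff_forall_notMem]
      rintro p ⟨h1, h2⟩
      have h3 := (hbox (comp_sub E Q0 h1)).2.2
      rw [rf_snd] at h3
      have h4 : p.2 ≤ -Bp := h2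
      linarith
    rw [hemp]
    exact null1_empty
  · by_contra hup
    obtain ⟨B, gB, h1, h2, hno⟩ := h Q0 hQ Bp gp (by linarith) hd
    have hlo := not_null1_face (𝓗₀ := 𝓗) hE hP.att Subset.rfl hbox hab hQ h1 (by linarith)
      (fun Q hQ => (gB Q hQ).1)
    obtain ⟨X1, X2, f, νp, νm, μ, Y1, Y2, f', νp', νm', ν, hF⟩ := exists_solF hP hQ hbox
      (by linarith : Q0.y + Q0.s < Bp) hlo hup
    exact hno _ _ _ _ _ _ _ _ _ _ _ _ hF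

/-- **no atoms**: by (B) every hair of the family is null -/
theorem atoms_zero (hP : PicS E 𝒬 𝓗) (hbox : E ⊆ Ioo a b ×ˢ Ioo c d) (hB : StepB E 𝒬 𝓗 a b c d)
    (gm : Gen 𝒬 Bm) (gp : Gen 𝒬 Bp) (hg : FamQ E g Bm Bp) (hcm : c < Bm) (hpd : Bp < d)
    {X1 X2 : ℝ × ℝ → ℝ} {f : {Q : Sqr // Q ∈ 𝒬} → ℝ}
    {νp νm : {Q : Sqr // Q ∈ 𝒬} → Measure (ℝ × ℝ)} {μ : Measure (ℝ × ℝ)}
    {Y1 Y2 : ℝ × ℝ → ℝ} {f' : {Q : Sqr // Q ∈ rfS '' 𝒬} → ℝ}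
    {νp' νm' : {Q : Sqr // Q ∈ rfS '' 𝒬} → Measure (ℝ × ℝ)} {ν : Measure (ℝ × ℝ)}
    (F : FamF E 𝒬 𝓗 g Bm Bp a b c d m X1 X2 f νp νm μ Y1 Y2 f' νp' νm' ν) (x : ℝ) :
    μ {q | q.1 = x} = 0 ∧ ν {q | q.1 = x} = 0 := by
  by_cases hx : ∃ K ∈ 𝓗, K.car ∈ g ∧ K.x = x
  · obtain ⟨K, hK, hKg, rfl⟩ := hx
    refine F.noat K hK hKg ?_
    by_contra hn
    obtain ⟨m', X1', X2', f1, ν1, ν2, μ', Y1', Y2', f2, ν3, ν4, ν', hF⟩ :=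
      exists_famF_hair hP hg hbox hKg hn
    exact hB K hK Bm Bp gm gp (Kbx_247.famQ_single hP.q hg hKg) hcm hpd _ _ _ _ _ _ _ _ _ _ _ _ _
      hF
  · push Not at hx
    constructor
    · have h1 := F.c1
      rw [ae_iff] at h1
      refine measure_mono_null (fun q hq => ?_) h1
      rintro ⟨K, hK, hKg, hqK, -⟩
      exact hx K hK hKg (hqK.1.symm.trans hq)
    · have h1 := F.c2
      rw [ae_iff] at h1
      refine measure_mono_null (fun q hq => ?_) h1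
      rintro ⟨K, hK, hKg, hqK, -⟩
      exact hx K hK hKg (hqK.1.symm.trans hq)

theorem bndF_of_stepBC (hP : PicS E 𝒬 𝓗) (hbox : E ⊆ Ioo a b ×ˢ Ioo c d)
    (hB : StepB E 𝒬 𝓗 a b c d) (hC : StepC E 𝒬 𝓗 a b c d) : BndF E 𝒬 𝓗 a b c d := by
  obtain ⟨K, hK, h⟩ := hC
  refine ⟨K, hK, fun g Bm Bp gm gp hg hw hcm hpd s hs m X1 X2 f νp νm μ Y1 Y2 f' νp' νm' ν hF => ?_⟩
  have hat := atoms_zero hP hbox hB gm gp hg hcm hpd hF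
  have h1 := h g Bm Bp gm gp hg hw hcm hpd _ _ _ _ _ _ _ _ _ _ _ _ _ hF (fun x => (hat x).1)
    (fun x => (hat x).2) s hs
  have hd : 0 < (Bp - Bm) ^ 2 := by
    have := hg.lt
    have : 0 < Bp - Bm := by linarith
    positivity
  rw [div_mul_eq_mul_div, le_div_iff₀ hd]
  linarith

/-- **`LEMAQ StrQ` from (A), (B), (C)** -/
theorem lemaq_of_abc
    (hA : ∀ E 𝒬 𝓗, PicS E 𝒬 𝓗 → DisjH 𝓗 → ELS Psq_425.StrQ E 𝒬 𝓗 →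
      ∀ a b c d, a < b → c < d → E ⊆ Ioo a b ×ˢ Ioo c d → StepA E 𝒬 𝓗 a b c d)
    (hB : ∀ E 𝒬 𝓗, PicS E 𝒬 𝓗 → DisjH 𝓗 → ELS Psq_425.StrQ E 𝒬 𝓗 →
      ∀ a b c d, a < b → c < d → E ⊆ Ioo a b ×ˢ Ioo c d → StepB E 𝒬 𝓗 a b c d)
    (hC : ∀ E 𝒬 𝓗, PicS E 𝒬 𝓗 → DisjH 𝓗 → ELS Psq_425.StrQ E 𝒬 𝓗 →
      ∀ a b c d, a < b → c < d → E ⊆ Ioo a b ×ˢ Ioo c d → StepC E 𝒬 𝓗 a b c d) :
    LEMAQ Psq_425.StrQ := by
  refine Hmx_361.lemaq_of_disj fun E 𝒬 𝓗 hP hd hel => ?_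
  obtain ⟨a, b, c, d, hab, hcd, hbox⟩ := exists_box hP.q.cpt
  have hbox' := Kbx_247.refl_box hbox
  have hP' := refl_pic hP
  have up := solK_of_stepA hP hbox hab (hA E 𝒬 𝓗 hP hd hel a b c d hab hcd hbox)
  have lo : SolK E 𝒬 𝓗 a b c := by
    have h4 := solK_of_stepA hP' hbox' hab
      (hA _ _ _ hP' (disjH_refl hd) (Kbx_247.els_refl hP.q hel) a b (-d) (-c) hab (by linarith)
        hbox')
    rwa [Kbx_247.rf_pre_pre, Kbx_247.rfS_image_image, reflH_reflH, neg_neg] at h4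
  exact solo_bndq_of hP.q (boxOut_of hP Subset.rfl hbox hab hcd (soloK_of_solK lo)
    (soloK_of_solK up) (bndK_of_bndF hP hbox lo up (bndF_of_stepBC hP hbox
      (hB E 𝒬 𝓗 hP hd hel a b c d hab hcd hbox) (hC E 𝒬 𝓗 hP hd hel a b c d hab hcd hbox))))

end Crest.Agent.R105.Kna_421
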