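import Crest.Agent.R105.Kna7_421
import Crest.Agent.R105.Ins2_306
import Crest.Agent.R105.Glu1_832
import Crest.Agent.R105.Gl5_363

/-!
Row 105, S0138, lemma A with squares (helper421). Part 8: the three joins, and `LEMAQ StrQ`.
-/

set_option autoImplicit false

open Set Filter MeasureTheory Topology
open scoped ENNReal NNReal

namespace Crest.Agent.R105.Kna_421

open CF_363 Stp_722 Cq_463
open Hq_363 (TwoQ)
open Sq_87 (Rects)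
open Skp2_257 (Lo Up Comps)
open Nal_649 (FamQ Win comp)
open Famq_306 (Gen SqSub isCompact_comp exists_gen)
open Kbx_247 (rfS QA SolF FamF rfS_injective mem_rfS rfS_rfS)
open Exs_992 (PicS)
open SkT1_137 (ELS SOLO BNDQ LEMAQ)
open Psq_425 (Glue StrQ)
open SqJ_361 (BoxP Ix cutR LowOut cl)
open Gl_363 (TwoG GlueF chq glF)
open Ge_347 (ChQ)
open Kin_238 (Wl Wo)
open Mp_87 (lam)

variable {E : Set (ℝ × ℝ)} {𝒬 𝒬' 𝒬'' : Set Sqr} {𝓗 : Set Hair}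
  {a b c d B Bm Bp Tl Tu M m : ℝ} {g : Set (Set (ℝ × ℝ))} {Q0 : Sqr} {K : Hair}

/-! ### charges of one half -/

/-- 347's charges from 361's output -/
theorem chQ_of {X1 X2 U1 U2 ψ Ψ : ℝ × ℝ → ℝ} {f : {Q : Sqr // Q ∈ 𝒬'} → ℝ}
    {νp νm : {Q : Sqr // Q ∈ 𝒬'} → Measure (ℝ × ℝ)} {μ : Measure (ℝ × ℝ)} {C : Set (ℝ × ℝ)}
    {J : ℕ → Finset Hair} {z : ℕ → ℝ × ℝ → ℝ} {κ : Hair → ℝ} {r : ℕ → Ix 𝒬' B → ℝ}
    (hP : BoxP E 𝒬 𝓗 a b c d) (h𝒬 : 𝒬' ⊆ 𝒬)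
    (h : Knq_247.HalfQ 𝓗 a b c B E (QA 𝒬') C X1 X2 f νp νm μ)
    (O : LowOut E 𝒬' 𝓗 a b c B X1 X2 f νp νm μ U1 U2 ψ Ψ J z κ r) :
    ChQ (cutR 𝒬' B) U1 U2 (fun i => f i.1) (fun i => νp i.1) (fun i => νm i.1) where
  fp i := h.pfin i.1
  fm i := h.mfin i.1
  cp i := by
    have h1 := h.pc i.1
    rwa [show QA 𝒬' i.1 ∩ Wl a b c B = cl (cutR 𝒬' B) i from hP.cl_eq h𝒬 i] at h1
  cm i := by
    have h1 := h.mc i.1
    rwa [show QA 𝒬' i.1 ∩ Wl a b c B = cl (cutR 𝒬' B) i from hP.cl_eq h𝒬 i] at h1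
  mp i := h.pm i.1
  mm i := h.mm i.1
  f2 := h.fs.comp_injective Subtype.val_injective
  one i L e hL he := by
    have hl : LipschitzWith ⟨L, hL⟩ e := LipschitzWith.of_dist_le_mul fun p q => by
      rw [Real.dist_eq]; exact he p q
    exact O.one i e ⟨L, hL⟩ hl.lipschitzOnWith hl.continuous.continuousOn

theorem sq_injective : Function.Injective fun i : Ix 𝒬' B => i.1.1 := fun _ _ h =>
  Subtype.ext (Subtype.ext h)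

theorem two_h2_le (i : Ix 𝒬' B) : 2 * (cutR 𝒬' B).h2 i ≤ i.1.1.s := by
  simp only [cutR]
  have := min_le_left (i.1.1.y + i.1.1.s) B
  linarith

/-! ### sums of charges -/

theorem sum_over {ι : Type} {h : ι → Sqr} (hi : Function.Injective h) {φ : Sqr → ℝ} {u : ι → ℝ}
    (h0 : ∀ Q, 0 ≤ φ Q) (hφ : ∀ i, φ (h i) = u i) (hz : ∀ Q, Q ∉ range h → φ Q = 0)
    (hu : Summable u) : (Summable fun Q : 𝒬 => φ Q.1) ∧ ∑' Q : 𝒬, φ Q.1 ≤ ∑' i, u i := by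
  have h1 : Summable (φ ∘ h) := by
    have : φ ∘ h = u := funext hφ
    rw [this]; exact hu
  have h2 : Summable φ := (hi.summable_iff hz).1 h1
  have h3 : ∑' i, u i = ∑' Q, φ Q := by
    have h4 : ∑' i, φ (h i) = ∑' Q, φ Q := hi.tsum_eq (by
      intro Q hQ
      by_contra hn
      exact hQ (hz Q hn))
    rw [← h4]
    exact tsum_congr fun i => (hφ i).symm
  refine ⟨h2.subtype 𝒬, ?_⟩
  rw [h3, tsum_subtype 𝒬 φ]
  exact (h2.indicator 𝒬).tsum_le_tsum (fun Q => indicator_le_self' (fun _ _ => h0 Q) Q) h2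

theorem chq_not {ι : Type} {sq : ι → Sqr} {f : ι → ℝ} {Q : Sqr} (h : Q ∉ range sq) :
    chq sq f Q = 0 := by
  unfold Gl_363.chq
  rw [dif_neg (show ¬ ∃ i, sq i = Q from h)]

theorem chq_eq {ι : Type} {sq : ι → Sqr} (hi : Function.Injective sq) (f : ι → ℝ) (i : ι) :
    chq sq f (sq i) = f i := by
  have h : ∃ j, sq j = sq i := ⟨i, rfl⟩
  unfold Gl_363.chq
  rw [dif_pos h]
  exact congrArg f (hi h.choose_spec)

/-- the sum of the squares of the oscillations -/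
theorem sum_o {ι ι' : Type} {sq : ι → Sqr} {sq' : ι' → Sqr} {f : ι → ℝ} {f' : ι' → ℝ}
    (hi : Function.Injective sq) (hi' : Function.Injective sq')
    (hf : Summable fun i => f i ^ 2) (hf' : Summable fun i => f' i ^ 2) :
    (Summable fun Q : 𝒬 => (4 * chq sq f Q.1 + 4 * chq sq' f' (rfS Q.1)) ^ 2) ∧
    ∑' Q : 𝒬, (4 * chq sq f Q.1 + 4 * chq sq' f' (rfS Q.1)) ^ 2 ≤
      32 * (∑' i, f i ^ 2 + ∑' i, f' i ^ 2) := by
  obtain ⟨s1, c1⟩ := sum_over (𝒬 := 𝒬) hi (φ := fun Q => chq sq f Q ^ 2) (fun Q => sq_nonneg _)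
    (fun i => by simp only [chq_eq hi]) (fun Q hQ => by simp only [chq_not hQ]; norm_num) hf
  have hi2 : Function.Injective fun i => rfS (sq' i) := rfS_injective.comp hi'
  obtain ⟨s2, c2⟩ := sum_over (𝒬 := 𝒬) hi2 (φ := fun Q => chq sq' f' (rfS Q) ^ 2)
    (fun Q => sq_nonneg _) (fun i => by simp only [rfS_rfS, chq_eq hi'])
    (fun Q hQ => by
      have : rfS Q ∉ range sq' := by
        rintro ⟨i, hi⟩
        exact hQ ⟨i, by simp only [hi, rfS_rfS]⟩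
      simp only [chq_not this]; norm_num) hf'
  have hb : ∀ Q : 𝒬, (4 * chq sq f Q.1 + 4 * chq sq' f' (rfS Q.1)) ^ 2 ≤
      32 * (chq sq f Q.1 ^ 2 + chq sq' f' (rfS Q.1) ^ 2) := fun Q => by
    nlinarith [sq_nonneg (chq sq f Q.1 - chq sq' f' (rfS Q.1))]
  have hs : Summable fun Q : 𝒬 => 32 * (chq sq f Q.1 ^ 2 + chq sq' f' (rfS Q.1) ^ 2) :=
    (s1.add s2).mul_left 32
  have ho := Summable.of_nonneg_of_le (fun Q : 𝒬 => sq_nonneg _) hb hs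
  refine ⟨ho, (ho.tsum_le_tsum hb hs).trans ?_⟩
  rw [tsum_mul_left, s1.tsum_add s2]
  linarith

/-! ### the generic join -/

theorem glue_join {S : Set (ℝ × ℝ)} {gg S₀ : Set (Set (ℝ × ℝ))}
    {X1 X2 U1 U2 ψ Ψ Y1 Y2 V1 V2 ψ' Ψ' h h' : ℝ × ℝ → ℝ}
    {f : {Q : Sqr // Q ∈ 𝒬'} → ℝ} {νp νm : {Q : Sqr // Q ∈ 𝒬'} → Measure (ℝ × ℝ)}
    {f' : {Q : Sqr // Q ∈ 𝒬''} → ℝ} {νp' νm' : {Q : Sqr // Q ∈ 𝒬''} → Measure (ℝ × ℝ)}
    {μ ν : Measure (ℝ × ℝ)} {C C' : Set (ℝ × ℝ)}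
    {J J' : ℕ → Finset Hair} {z z' : ℕ → ℝ × ℝ → ℝ} {κ κ' : Hair → ℝ} {r : ℕ → Ix 𝒬' Bm → ℝ}
    {r' : ℕ → Ix 𝒬'' (-Bp) → ℝ}
    (hP : BoxP E 𝒬 𝓗 a b c d) (h𝒬 : 𝒬' ⊆ 𝒬) (h𝒬' : 𝒬'' ⊆ rfS '' 𝒬) (hg : FamQ E gg Bm Bp)
    (H : Knq_247.HalfQ 𝓗 a b c Bm E (QA 𝒬') C X1 X2 f νp νm μ)
    (H' : Knq_247.HalfQ (reflH 𝓗) a b (-d) (-Bp) (rf ⁻¹' E) (QA 𝒬'') C' Y1 Y2 f' νp' νm' ν)
    (O : LowOut E 𝒬' 𝓗 a b c Bm X1 X2 f νp νm μ U1 U2 ψ Ψ J z κ r)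
    (O' : LowOut (rf ⁻¹' E) 𝒬'' (reflH 𝓗) a b (-d) (-Bp) Y1 Y2 f' νp' νm' ν V1 V2 ψ' Ψ' J' z' κ' r')
    (T : TwoG E S 𝒬 𝓗 (cutR 𝒬' Bm) (cutR 𝒬'' (-Bp)) (fun i => i.1.1) (fun i => i.1.1)
        a b c d Bm Bp Tl Tu M U1 U2 ψ Ψ V1 V2 ψ' Ψ' μ ν (fun i => f i.1) (fun i => f' i.1) h h')
    (c1 : ∀ᵐ q ∂μ, q ∈ ⋃₀ gg) (c2 : ∀ᵐ q ∂ν, rf q ∈ ⋃₀ gg) (hSg : S ⊆ ⋃₀ gg)
    (hSf : S₀.Finite) (hS : ∀ P ∈ Comps E, P ∉ S₀ → Disjoint P S) :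
    Glue E 𝒬 gg S₀ a b c d Bm Bp M (μ univ).toReal (cutR 𝒬' Bm) (cutR 𝒬'' (-Bp))
      ((E ∩ {p | p.2 < Bm}) \ (cutR 𝒬' Bm).un)
      ((rf ⁻¹' E ∩ {p | p.2 < -Bp}) \ (cutR 𝒬'' (-Bp)).un) U1 U2 ψ Ψ V1 V2 ψ' Ψ' μ ν
      (fun i => f i.1) (fun i => f' i.1) (glF M h h') (Gl_363.W2 U1 V1)
      (fun Q₀ => 4 * chq (fun i : Ix 𝒬' Bm => i.1.1) (fun i => f i.1) Q₀ +
        4 * chq (fun i : Ix 𝒬'' (-Bp) => i.1.1) (fun i => f' i.1) (rfS Q₀))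
      (fun i => i.1.1) (fun i => rfS i.1.1) := by
  have f1 : IsFiniteMeasure μ := H.fin
  have f2 : IsFiniteMeasure ν := H'.fin
  have e1 : Summable fun i : Ix 𝒬' Bm => f i.1 ^ 2 := H.fs.comp_injective Subtype.val_injective
  have e2 : Summable fun i : Ix 𝒬'' (-Bp) => f' i.1 ^ 2 :=
    H'.fs.comp_injective Subtype.val_injective
  have hP' := hP.refl
  exact Glu_832.glue_of hP.pic hg T T.twoQ T.glueF
    (fun Q => by
      have n1 := Gl_363.chq_nonneg (sq := fun i : Ix 𝒬' Bm => i.1.1) (f := fun i => f i.1)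
        (fun i => H.f0 i.1) Q
      have n2 := Gl_363.chq_nonneg (sq := fun i : Ix 𝒬'' (-Bp) => i.1.1) (f := fun i => f' i.1)
        (fun i => H'.f0 i.1) (rfS Q)
      positivity)
    (sum_o (𝒬 := 𝒬) sq_injective sq_injective e1 e2).1
    (chQ_of hP h𝒬 H O) (chQ_of hP' h𝒬' H' O') O.la O'.la c1 c2 hSg hSf hS

/-! ### (A) -/

theorem famQ_sol (hE : QPic E 𝒬 𝓗) (hQ : Q0 ∈ 𝒬) (h1 : Q0.y < B) (hlt : B < Bp)
    {X1 X2 f νp νm μ Y1 Y2 f' νp' νm' ν}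
    (hF : SolF E 𝒬 𝓗 Q0 B Bp a b c d X1 X2 f νp νm μ Y1 Y2 f' νp' νm' ν) :
    FamQ E {comp E Q0} B Bp := by
  have hcm := SkT1_137.comp_mem hE hQ
  have hcar := SkT1_137.car_sub_comp hE hQ
  refine ⟨hlt, singleton_subset_iff.2 hcm, ?_, ?_⟩
  · rw [sUnion_singleton]; exact isCompact_comp hE hcm
  · rintro _ rfl
    refine ⟨⟨_, hcar (Kbx_247.corner_mem Q0), h1.le⟩, ?_⟩
    have hne : (ae ν).NeBot := by
      rw [ae_neBot]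
      intro h0
      have := hF.m2
      rw [h0] at this
      simp at this
    obtain ⟨q, hq2, K, hK, hKP, -, hqK, -⟩ := hF.c2.exists
    refine ⟨rf q, hKP hqK, ?_⟩
    rw [rf_snd]; linarith

theorem joinA (hP : BoxP E 𝒬 𝓗 a b c d) (hab : a < b) (hQ : Q0 ∈ 𝒬) (gB : Gen 𝒬 B)
    (gp : Gen 𝒬 Bp) (hcB : c < B) (h1 : Q0.y < B) (h2 : B < Q0.y + Q0.s) (h3 : Q0.y + Q0.s < Bp)
    (hBd : Bp < d) {X1 X2 f νp νm μ Y1 Y2 f' νp' νm' ν}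
    (F : SolF E 𝒬 𝓗 Q0 B Bp a b c d X1 X2 f νp νm μ Y1 Y2 f' νp' νm' ν) :
    JoinA E 𝒬 a b c d B Bp Q0 := by
  have hE := hP.pic.q
  have hcm := SkT1_137.comp_mem hE hQ
  have hcar := SkT1_137.car_sub_comp hE hQ
  have hg := famQ_sol hE hQ h1 (by linarith) F
  obtain ⟨M, hM1, hM2⟩ := exists_between h2
  obtain ⟨U1, U2, ψ, Ψ, J, z, κ, r, V1, V2, ψ', Ψ', J', z', κ', r', h, h', O, O', T⟩ :=
    Ins_306.solF_twoG hP hQ hab hcB hBd gB gp h1 h2 h3 F hM1 hM2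
  have G := glue_join hP sdiff_subset (image_mono sdiff_subset) hg F.lo F.up O O' T
    (by
      filter_upwards [F.c1] with q hq
      rw [sUnion_singleton]; exact hcar hq.1)
    (by
      filter_upwards [F.c2] with q hq
      obtain ⟨-, K, hK, hKP, -, hqK, -⟩ := hq
      rw [sUnion_singleton]; exact hKP hqK)
    (by rw [sUnion_singleton]) (finite_singleton _) (SqC_832.exempt_one hcm)
  have c1 : Countable (Ix (𝒬 \ {Q0}) B) := hP.countable sdiff_subset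
  have c2 : Countable (Ix (rfS '' (𝒬 \ {Q0})) (-Bp)) := hP.refl.countable (image_mono sdiff_subset)
  refine ⟨_, _, c1, c2, _, _, _, _, _, _, _, _, _, _, _, _, _, _, _, _, F.lo.fin, F.up.fin, _, _, _,
    _, _, _, _, G, ?_, fun i => ?_, fun i => ?_⟩
  · rw [F.m1]; norm_num
  · exact i.1.2.2
  · have := (mem_rfS.1 i.1.2).2
    exact this

/-! ### (B) -/

theorem joinB (hP : BoxP E 𝒬 𝓗 a b c d) (hab : a < b) (gm : Gen 𝒬 Bm) (gp : Gen 𝒬 Bp)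
    (hg : FamQ E {K.car} Bm Bp) (hcm : c < Bm) (hpd : Bp < d) {X1 X2 f νp νm μ Y1 Y2 f' νp' νm' ν}
    (F : FamF E 𝒬 𝓗 {K.car} Bm Bp a b c d m X1 X2 f νp νm μ Y1 Y2 f' νp' νm' ν) :
    JoinB E 𝒬 a b c d Bm Bp K := by
  obtain ⟨M, hM1, hM2⟩ := exists_between hg.lt
  obtain ⟨U1, U2, ψ, Ψ, J, z, κ, r, V1, V2, ψ', Ψ', J', z', κ', r', h, h', O, O', T⟩ :=
    Ins_306.hairF_twoG hP hg hab hcm hpd gm gp F hM1 hM2
  have G := glue_join hP Subset.rfl Subset.rfl hg F.lo F.up O O' T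
    (by
      filter_upwards [F.c1] with q hq
      obtain ⟨K', hK', hKg, hqK, -⟩ := hq
      exact ⟨_, hKg, hqK⟩)
    (by
      filter_upwards [F.c2] with q hq
      obtain ⟨K', hK', hKg, hqK, -⟩ := hq
      exact ⟨_, hKg, hqK⟩)
    (by rw [sUnion_singleton]) (finite_singleton _) (SqC_832.exempt_one (hg.sub rfl))
  have c1 : Countable (Ix 𝒬 Bm) := hP.countable Subset.rfl
  have c2 : Countable (Ix (rfS '' 𝒬) (-Bp)) := hP.refl.countable Subset.rfl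
  refine ⟨_, _, c1, c2, _, _, _, _, _, _, _, _, _, _, _, _, _, _, _, _, _, F.lo.fin, F.up.fin, _, _,
    _, _, _, _, _, G, ?_⟩
  rw [F.m1, ENNReal.toReal_ofReal F.pos.le]
  exact F.pos

/-! ### (C) -/

theorem joinC (hP : BoxP E 𝒬 𝓗 a b c d) (hab : a < b) (gm : Gen 𝒬 Bm) (gp : Gen 𝒬 Bp)
    (hg : FamQ E g Bm Bp) (hcm : c < Bm) (hpd : Bp < d) {X1 X2 f νp νm μ Y1 Y2 f' νp' νm' ν}
    (F : FamF E 𝒬 𝓗 g Bm Bp a b c d m X1 X2 f νp νm μ Y1 Y2 f' νp' νm' ν)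
    (n1 : ∀ x, μ {q | q.1 = x} = 0) (n2 : ∀ x, ν {q | q.1 = x} = 0) :
    JoinC E 𝒬 a b c d Bm Bp m g := by
  obtain ⟨M, hM1, hM2⟩ := exists_between hg.lt
  obtain ⟨U1, U2, ψ, Ψ, J, z, κ, r, V1, V2, ψ', Ψ', J', z', κ', r', h, h', O, O', T⟩ :=
    Ins_306.famF_twoG hP hg hab hcm hpd gm gp F n1 n2 hM1 hM2
  have G := glue_join hP Subset.rfl Subset.rfl hg F.lo F.up O O' T
    (by
      filter_upwards [F.c1] with q hq
      obtain ⟨K', hK', hKg, hqK, -⟩ := hq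
      exact ⟨_, hKg, hqK⟩)
    (by
      filter_upwards [F.c2] with q hq
      obtain ⟨K', hK', hKg, hqK, -⟩ := hq
      exact ⟨_, hKg, hqK⟩)
    (empty_subset _) finite_empty SqC_832.exempt_empty
  have hmass : (μ univ).toReal = m := by rw [F.m1, ENNReal.toReal_ofReal F.pos.le]
  rw [hmass] at G
  have c1 : Countable (Ix 𝒬 Bm) := hP.countable Subset.rfl
  have c2 : Countable (Ix (rfS '' 𝒬) (-Bp)) := hP.refl.countable Subset.rfl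
  have e1 : Summable fun i : Ix 𝒬 Bm => f i.1 ^ 2 := F.lo.fs.comp_injective Subtype.val_injective
  have e2 : Summable fun i : Ix (rfS '' 𝒬) (-Bp) => f' i.1 ^ 2 :=
    F.up.fs.comp_injective Subtype.val_injective
  have b1 : ∑' i : Ix 𝒬 Bm, f i.1 ^ 2 ≤ ∑' i, f i ^ 2 :=
    Summable.tsum_le_tsum_of_inj Subtype.val Subtype.val_injective (fun _ _ => sq_nonneg _)
      (fun _ => le_rfl) e1 F.lo.fs
  have b2 : ∑' i : Ix (rfS '' 𝒬) (-Bp), f' i.1 ^ 2 ≤ ∑' i, f' i ^ 2 :=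
    Summable.tsum_le_tsum_of_inj Subtype.val Subtype.val_injective (fun _ _ => sq_nonneg _)
      (fun _ => le_rfl) e2 F.up.fs
  have hen := F.energy
  have p1 : 0 ≤ ∫ p, X1 p ^ 2 := integral_nonneg fun _ => sq_nonneg _
  have p2 : 0 ≤ ∫ p, X2 p ^ 2 := integral_nonneg fun _ => sq_nonneg _
  have p3 : 0 ≤ ∫ p, Y1 p ^ 2 := integral_nonneg fun _ => sq_nonneg _
  have p4 : 0 ≤ ∫ p, Y2 p ^ 2 := integral_nonneg fun _ => sq_nonneg _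
  have p5 : 0 ≤ ∑' i, f i ^ 2 := tsum_nonneg fun _ => sq_nonneg _
  have p6 : 0 ≤ ∑' i, f' i ^ 2 := tsum_nonneg fun _ => sq_nonneg _
  have so := (sum_o (𝒬 := 𝒬) (sq_injective (𝒬' := 𝒬) (B := Bm))
    (sq_injective (𝒬' := rfS '' 𝒬) (B := -Bp)) e1 e2).2
  refine ⟨_, _, c1, c2, _, _, _, _, _, _, _, _, _, _, _, _, _, _, _, F.lo.fin, F.up.fin, _, _, _,
    _, _, _, _, G, so.trans ?_, e1, ?_, e2, ?_, sq_injective, rfS_injective.comp sq_injective,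
    two_h2_le, fun i => ?_⟩
  · linarith
  · linarith
  · linarith
  · exact two_h2_le i

/-- **LEMMA A WITH SOLIDS** -/
theorem lemaq : LEMAQ StrQ :=
  lemaq_of_joins
    (fun _ _ _ hP hd _ _ _ _ hab _ hbox _ hQ _ _ gB gp hcB h1 h2 h3 hBd _ _ _ _ _ _ _ _ _ _ _ _ F =>
      joinA ⟨hP, hd, hbox⟩ hab hQ gB gp hcB h1 h2 h3 hBd F)
    (fun _ _ _ hP hd _ _ _ _ hab _ hbox _ _ _ _ gm gp hg hcm hpd _ _ _ _ _ _ _ _ _ _ _ _ _ F =>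
      joinB ⟨hP, hd, hbox⟩ hab gm gp hg hcm hpd F)
    (fun _ _ _ hP hd _ _ _ _ hab _ hbox _ _ _ gm gp hg _ hcm hpd _ _ _ _ _ _ _ _ _ _ _ _ _ F n1 n2 =>
      joinC ⟨hP, hd, hbox⟩ hab gm gp hg hcm hpd F n1 n2)

end Crest.Agent.R105.Kna_421
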