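/-
# Row 105, S0138 (T-frame), lemma A with exact squares, part 1: charges and gradients; helper247

`osc C e` : oscillation of `e` over the set `C`; `QQ` : the charged (convex) sets; `Vq` : the class
`Vl` of `Kin_238` (Lipschitz off finitely many hairs, zero near the bottom), continuous on every
charged set; `lamQ` : the charges as seminorms; `grS` : the gradient off the closed set `S`.
-/
import Crest.Agent.R105.Kin6_238
import Crest.Agent.R105.Kks2_247

set_option autoImplicit false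

open Set Filter MeasureTheory Topology
open scoped ENNReal NNReal InnerProductSpace

namespace Crest.Agent.R105.Knq_247

open CF_363 Kin_238 Kkt_238

/-- oscillation over a set -/
noncomputable def osc (C : Set (ℝ × ℝ)) (e : ℝ × ℝ → ℝ) : ℝ := ⨆ q : C × C, |e q.1 - e q.2|

section osc
variable {C : Set (ℝ × ℝ)} {e e' : ℝ × ℝ → ℝ}

/-- boundedness on a set -/
def Bo (C : Set (ℝ × ℝ)) (e : ℝ × ℝ → ℝ) : Prop := ∃ M : ℝ, ∀ p ∈ C, |e p| ≤ M

theorem Bo.of_cont (hC : IsCompact C) (he : ContinuousOn e C) : Bo C e := by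
  obtain ⟨M, hM⟩ := hC.exists_bound_of_continuousOn he
  exact ⟨M, fun p hp => by simpa using hM p hp⟩

theorem Bo.bdd (h : Bo C e) : BddAbove (range fun q : C × C => |e q.1 - e q.2|) := by
  obtain ⟨M, hM⟩ := h
  refine ⟨2 * M, ?_⟩
  rintro _ ⟨q, rfl⟩
  have h1 := abs_le.1 (hM _ q.1.2)
  have h2 := abs_le.1 (hM _ q.2.2)
  exact abs_le.2 ⟨by linarith, by linarith⟩

theorem osc_nonneg (C : Set (ℝ × ℝ)) (e : ℝ × ℝ → ℝ) : 0 ≤ osc C e :=
  Real.iSup_nonneg fun _ => abs_nonneg _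

theorem le_osc (h : Bo C e) {p q : ℝ × ℝ} (hp : p ∈ C) (hq : q ∈ C) : |e p - e q| ≤ osc C e :=
  le_ciSup h.bdd (⟨⟨p, hp⟩, ⟨q, hq⟩⟩ : C × C)

theorem osc_le {r : ℝ} (hr : 0 ≤ r) (h : ∀ p ∈ C, ∀ q ∈ C, |e p - e q| ≤ r) : osc C e ≤ r :=
  Real.iSup_le (fun q => h _ q.1.2 _ q.2.2) hr

theorem osc_add_le (h : Bo C e) (h' : Bo C e') : osc C (e + e') ≤ osc C e + osc C e' := by
  refine osc_le (add_nonneg (osc_nonneg _ _) (osc_nonneg _ _)) fun p hp q hq => ?_
  have h1 := le_osc h hp hq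
  have h2 := le_osc h' hp hq
  have h3 : (e + e') p - (e + e') q = (e p - e q) + (e' p - e' q) := by
    simp only [Pi.add_apply]; ring
  rw [h3]
  exact (abs_add_le _ _).trans (add_le_add h1 h2)

theorem osc_smul (t : ℝ) : osc C (t • e) = |t| * osc C e := by
  unfold osc
  rw [Real.mul_iSup_of_nonneg (abs_nonneg t)]
  refine iSup_congr fun q => ?_
  rw [← abs_mul]
  congr 1
  simp only [Pi.smul_apply, smul_eq_mul]
  ring

theorem osc_congr {C : Set (ℝ × ℝ)} {e e' : ℝ × ℝ → ℝ} (h : EqOn e e' C) : osc C e = osc C e' := by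
  unfold osc
  refine iSup_congr fun q => ?_
  rw [h q.1.2, h q.2.2]

theorem osc_mono {C' : Set (ℝ × ℝ)} (h : Bo C' e) (hC : C ⊆ C') : osc C e ≤ osc C' e :=
  osc_le (osc_nonneg _ _) fun _ hp _ hq => le_osc h (hC hp) (hC hq)

theorem osc_comp_le {G : ℝ → ℝ} (hG : ∀ s t, |G s - G t| ≤ |s - t|) (h : Bo C e) :
    osc C (fun p => G (e p)) ≤ osc C e :=
  osc_le (osc_nonneg _ _) fun _ hp _ hq => (hG _ _).trans (le_osc h hp hq)

theorem osc_le_of_lip {L : ℝ≥0} (hC : Bornology.IsBounded C) (h : LipschitzOnWith L e C) :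
    osc C e ≤ L * Metric.diam C := by
  refine osc_le (by positivity) fun p hp q hq => ?_
  have h1 := h.dist_le_mul p hp q hq
  rw [Real.dist_eq] at h1
  exact h1.trans (mul_le_mul_of_nonneg_left (Metric.dist_le_diam_of_mem hC hp hq) L.2)

end osc

variable {ι : Type*} {a b c B : ℝ} {𝓗 : Set Hair} {Q : ι → Set (ℝ × ℝ)} {S : Set (ℝ × ℝ)}
  {e e' : ℝ × ℝ → ℝ}

/-- geometry of the charged sets -/
structure QQ (𝓗 : Set Hair) (a b c B : ℝ) (Q : ι → Set (ℝ × ℝ)) : Prop where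
  cpt : ∀ i, IsCompact (Q i ∩ Wl a b c B)
  conv : ∀ i, Convex ℝ (Q i)
  sum : Summable fun i => Metric.diam (Q i ∩ Wl a b c B) ^ 2
  fin : ∀ K ∈ 𝓗, {i | (Q i ∩ K.car).Nonempty}.Finite

/-- functions of class `Vl`, continuous on every charged set -/
def Vq (𝓗 : Set Hair) (a b c B : ℝ) (Q : ι → Set (ℝ × ℝ)) : Submodule ℝ (ℝ × ℝ → ℝ) where
  carrier := {e | e ∈ Vl 𝓗 a b c B ∧ ∀ i, ContinuousOn e (Q i ∩ Wl a b c B)}
  add_mem' := by
    rintro e e' ⟨h, h0⟩ ⟨h', h0'⟩
    exact ⟨add_mem h h', fun i => (h0 i).add (h0' i)⟩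
  zero_mem' := ⟨zero_mem _, fun i => continuousOn_const⟩
  smul_mem' := by
    rintro t e ⟨h, h0⟩
    exact ⟨(Vl 𝓗 a b c B).smul_mem t h, fun i => (h0 i).const_smul t⟩

theorem mem_Vq : e ∈ Vq 𝓗 a b c B Q ↔
    e ∈ Vl 𝓗 a b c B ∧ ∀ i, ContinuousOn e (Q i ∩ Wl a b c B) := Iff.rfl

theorem QQ.bo (H : QQ 𝓗 a b c B Q) (he : e ∈ Vq 𝓗 a b c B Q) (i : ι) : Bo (Q i ∩ Wl a b c B) e :=
  Bo.of_cont (H.cpt i) (he.2 i)

/-- the charges as seminorms -/
noncomputable def lamQ (H : QQ 𝓗 a b c B Q) (i : ι) : Seminorm ℝ (Vq 𝓗 a b c B Q) :=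
  Seminorm.of (fun e => osc (Q i ∩ Wl a b c B) e)
    (fun e e' => osc_add_le (H.bo e.2 i) (H.bo e'.2 i))
    (fun t e => osc_smul t)

@[simp] theorem lamQ_apply (H : QQ 𝓗 a b c B Q) (i : ι) (e : Vq 𝓗 a b c B Q) :
    lamQ H i e = osc (Q i ∩ Wl a b c B) e := rfl

theorem QQ.summable (H : QQ 𝓗 a b c B Q) (he : e ∈ Vq 𝓗 a b c B Q) :
    Summable fun i => osc (Q i ∩ Wl a b c B) e ^ 2 := by
  obtain ⟨J, hJ, L, C, hL, hS, hC⟩ := he.1.1
  have hfin : {i | (Q i ∩ cut J).Nonempty}.Finite := by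
    have h1 : {i | (Q i ∩ cut J).Nonempty} ⊆ ⋃ K ∈ J, {i | (Q i ∩ K.car).Nonempty} := by
      rintro i ⟨p, hp, K, hK, hpK⟩
      simp only [mem_iUnion]
      exact ⟨K, hK, ⟨p, hp, hpK⟩⟩
    exact (J.finite_toSet.biUnion fun K hK => H.fin K (hJ K hK)).subset h1
  refine Summable.of_norm_bounded_eventually (H.sum.mul_left (L ^ 2)) ?_
  filter_upwards [hfin.compl_mem_cofinite] with i hi
  have hi' : Disjoint (Q i) (cut J) := by
    rw [Set.disjoint_iff_inter_eq_empty]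
    exact not_nonempty_iff_eq_empty.1 hi
  have h1 : LipschitzOnWith L.toNNReal e (Q i ∩ Wl a b c B) :=
    hS.lipschitzOnWith ((H.conv i).inter convex_Wl) fun p hp =>
      ⟨hp.2, fun hpJ => Set.disjoint_left.1 hi' hp.1 hpJ⟩
  have h2 := osc_le_of_lip (H.cpt i).isBounded h1
  rw [Real.coe_toNNReal _ hL] at h2
  rw [Real.norm_of_nonneg (sq_nonneg _), ← mul_pow]
  exact pow_le_pow_left₀ (osc_nonneg _ _) h2 2

/-- the T-energy -/
noncomputable def EQ (a b c B : ℝ) (S : Set (ℝ × ℝ)) (Q : ι → Set (ℝ × ℝ)) (e : ℝ × ℝ → ℝ) : ℝ :=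
  En (Wo a b c B \ S) e + ∑' i, osc (Q i ∩ Wl a b c B) e ^ 2

theorem EQ_nonneg : 0 ≤ EQ a b c B S Q e :=
  add_nonneg (En_nonneg _ _) (tsum_nonneg fun _ => sq_nonneg _)

/-! ### the gradient off `S` -/

/-- gradient off `S` as an element of `L² × L²` -/
noncomputable def grS (𝓗 : Set Hair) (a b c B : ℝ) (hS : MeasurableSet S) :
    Vl 𝓗 a b c B →ₗ[ℝ] HF where
  toFun e := WithLp.toLp 2 ![((memLp_G1 e.2.1).indicator hS.compl).toLp _,
    ((memLp_G2 e.2.1).indicator hS.compl).toLp _]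
  map_add' := by
    intro e e'
    have h := G_add e.2.1 e'.2.1
    ext i : 1
    fin_cases i
    · show ((memLp_G1 (e + e').2.1).indicator hS.compl).toLp _ =
        ((memLp_G1 e.2.1).indicator hS.compl).toLp _ + ((memLp_G1 e'.2.1).indicator hS.compl).toLp _
      rw [← MemLp.toLp_add, MemLp.toLp_eq_toLp_iff]
      filter_upwards [h.1] with p hp
      by_cases hpS : p ∈ Sᶜ
      · simp only [Pi.add_apply, indicator_of_mem hpS]; exact hp
      · simp only [Pi.add_apply, indicator_of_notMem hpS, add_zero]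
    · show ((memLp_G2 (e + e').2.1).indicator hS.compl).toLp _ =
        ((memLp_G2 e.2.1).indicator hS.compl).toLp _ + ((memLp_G2 e'.2.1).indicator hS.compl).toLp _
      rw [← MemLp.toLp_add, MemLp.toLp_eq_toLp_iff]
      filter_upwards [h.2] with p hp
      by_cases hpS : p ∈ Sᶜ
      · simp only [Pi.add_apply, indicator_of_mem hpS]; exact hp
      · simp only [Pi.add_apply, indicator_of_notMem hpS, add_zero]
  map_smul' := by
    intro t e
    have h := G_smul e.2.1 t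
    ext i : 1
    fin_cases i
    · show ((memLp_G1 (t • e).2.1).indicator hS.compl).toLp _ =
        t • ((memLp_G1 e.2.1).indicator hS.compl).toLp _
      rw [← MemLp.toLp_const_smul, MemLp.toLp_eq_toLp_iff]
      filter_upwards [h.1] with p hp
      by_cases hpS : p ∈ Sᶜ
      · simp only [Pi.smul_apply, indicator_of_mem hpS]; exact hp
      · simp only [Pi.smul_apply, indicator_of_notMem hpS, smul_zero]
    · show ((memLp_G2 (t • e).2.1).indicator hS.compl).toLp _ =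
        t • ((memLp_G2 e.2.1).indicator hS.compl).toLp _
      rw [← MemLp.toLp_const_smul, MemLp.toLp_eq_toLp_iff]
      filter_upwards [h.2] with p hp
      by_cases hpS : p ∈ Sᶜ
      · simp only [Pi.smul_apply, indicator_of_mem hpS]; exact hp
      · simp only [Pi.smul_apply, indicator_of_notMem hpS, smul_zero]

variable {hS : MeasurableSet S}

theorem grS0_eq (e : Vl 𝓗 a b c B) :
    ∀ᵐ p : ℝ × ℝ, (grS 𝓗 a b c B hS e) 0 p = (Wo a b c B \ S).indicator (gx e) p := by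
  have h : ∀ᵐ p : ℝ × ℝ, (grS 𝓗 a b c B hS e) 0 p = Sᶜ.indicator (G1 a b c B e) p :=
    ((memLp_G1 e.2.1).indicator hS.compl).coeFn_toLp
  filter_upwards [h] with p hp
  rw [hp, G1, indicator_indicator, inter_comm]
  rfl

theorem grS1_eq (e : Vl 𝓗 a b c B) :
    ∀ᵐ p : ℝ × ℝ, (grS 𝓗 a b c B hS e) 1 p = (Wo a b c B \ S).indicator (gy e) p := by
  have h : ∀ᵐ p : ℝ × ℝ, (grS 𝓗 a b c B hS e) 1 p = Sᶜ.indicator (G2 a b c B e) p :=
    ((memLp_G2 e.2.1).indicator hS.compl).coeFn_toLp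
  filter_upwards [h] with p hp
  rw [hp, G2, indicator_indicator, inter_comm]
  rfl

theorem memLp_x (hS : MeasurableSet S) (h : CFJ 𝓗 (Wl a b c B) e) :
    MemLp ((Wo a b c B \ S).indicator (gx e)) 2 volume := by
  have h1 := (memLp_G1 h).indicator hS.compl
  have h2 : Sᶜ.indicator (G1 a b c B e) = (Wo a b c B \ S).indicator (gx e) := by
    rw [G1, indicator_indicator, inter_comm]; rfl
  rwa [h2] at h1

theorem memLp_y (hS : MeasurableSet S) (h : CFJ 𝓗 (Wl a b c B) e) :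
    MemLp ((Wo a b c B \ S).indicator (gy e)) 2 volume := by
  have h1 := (memLp_G2 h).indicator hS.compl
  have h2 : Sᶜ.indicator (G2 a b c B e) = (Wo a b c B \ S).indicator (gy e) := by
    rw [G2, indicator_indicator, inter_comm]; rfl
  rwa [h2] at h1

theorem measurableSet_WS (hS : MeasurableSet S) : MeasurableSet (Wo a b c B \ S) :=
  measurableSet_Wo.diff hS

theorem inner_grS (X : HF) (e : Vl 𝓗 a b c B) :
    ⟪X, grS 𝓗 a b c B hS e⟫_ℝ =
      ∫ p in Wo a b c B \ S, (X 0 p * gx e p + X 1 p * gy e p) := by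
  rw [PiLp.inner_apply, Fin.sum_univ_two, inner_L2_eq, inner_L2_eq,
    ← integral_indicator (measurableSet_WS hS)]
  have h0 : ∫ p, X 0 p * (grS 𝓗 a b c B hS e) 0 p =
      ∫ p, X 0 p * (Wo a b c B \ S).indicator (gx e) p := by
    refine integral_congr_ae ?_
    filter_upwards [grS0_eq (hS := hS) e] with p hp
    rw [hp]
  have h1 : ∫ p, X 1 p * (grS 𝓗 a b c B hS e) 1 p =
      ∫ p, X 1 p * (Wo a b c B \ S).indicator (gy e) p := by
    refine integral_congr_ae ?_
    filter_upwards [grS1_eq (hS := hS) e] with p hp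
    rw [hp]
  rw [h0, h1, ← integral_add]
  · refine integral_congr_ae (Eventually.of_forall fun p => ?_)
    by_cases hp : p ∈ Wo a b c B \ S
    · simp only [indicator_of_mem hp]
    · simp only [indicator_of_notMem hp, mul_zero, add_zero]
  · exact (Lp.memLp _).integrable_mul (memLp_x hS e.2.1)
  · exact (Lp.memLp _).integrable_mul (memLp_y hS e.2.1)

theorem norm_grS_sq (e : Vl 𝓗 a b c B) :
    ‖grS 𝓗 a b c B hS e‖ ^ 2 = En (Wo a b c B \ S) e := by
  rw [← real_inner_self_eq_norm_sq, inner_grS, En]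
  refine setIntegral_congr_ae (measurableSet_WS hS) ?_
  filter_upwards [grS0_eq (hS := hS) e, grS1_eq (hS := hS) e] with p hp0 hp1 hp
  rw [hp0, hp1, indicator_of_mem hp, indicator_of_mem hp]
  unfold g2; ring

/-- measurable representatives -/
noncomputable def repS (a b c B : ℝ) (S : Set (ℝ × ℝ)) (X : HF) (i : Fin 2) : ℝ × ℝ → ℝ :=
  (Wo a b c B \ S).indicator (X i)

theorem measurable_repS (hS : MeasurableSet S) (X : HF) (i : Fin 2) :
    Measurable (repS a b c B S X i) :=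
  (Lp.stronglyMeasurable (X i)).measurable.indicator (measurableSet_WS hS)

theorem memLp_repS (hS : MeasurableSet S) (X : HF) (i : Fin 2) :
    MemLp (repS a b c B S X i) 2 (volume : Measure (ℝ × ℝ)) :=
  (Lp.memLp (X i)).indicator (measurableSet_WS hS)

theorem inner_grS_rep (X : HF) (e : Vl 𝓗 a b c B) :
    ⟪X, grS 𝓗 a b c B hS e⟫_ℝ =
      ∫ p in Wo a b c B \ S, (repS a b c B S X 0 p * gx e p + repS a b c B S X 1 p * gy e p) := by
  rw [inner_grS]
  refine setIntegral_congr_fun (measurableSet_WS hS) fun p hp => ?_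
  simp only [repS, indicator_of_mem hp]

theorem zero_off_of_closure {X : HF} (hX : X ∈ closure (range (grS 𝓗 a b c B hS))) (i : Fin 2) :
    ∀ᵐ p : ℝ × ℝ, p ∉ Wo a b c B \ S → X i p = 0 := by
  have hcl := isClosed_zero_off (Wo a b c B \ S) (measurableSet_WS hS)
  have hc : Continuous fun Y : HF => Y i := PiLp.continuous_apply 2 _ i
  have h : X ∈ (fun Y : HF => Y i) ⁻¹' {f | ∀ᵐ p : ℝ × ℝ, p ∉ Wo a b c B \ S → f p = 0} := by
    refine closure_minimal ?_ (hcl.preimage hc) hX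
    rintro _ ⟨e, rfl⟩
    fin_cases i
    · show ∀ᵐ p : ℝ × ℝ, p ∉ Wo a b c B \ S → (grS 𝓗 a b c B hS e) 0 p = 0
      filter_upwards [grS0_eq (hS := hS) e] with p hp hpW
      rw [hp, indicator_of_notMem hpW]
    · show ∀ᵐ p : ℝ × ℝ, p ∉ Wo a b c B \ S → (grS 𝓗 a b c B hS e) 1 p = 0
      filter_upwards [grS1_eq (hS := hS) e] with p hp hpW
      rw [hp, indicator_of_notMem hpW]
  exact h

theorem repS_ae {X : HF} {i : Fin 2} (h : ∀ᵐ p : ℝ × ℝ, p ∉ Wo a b c B \ S → X i p = 0) :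
    ∀ᵐ p : ℝ × ℝ, repS a b c B S X i p = X i p := by
  filter_upwards [h] with p hp
  by_cases hpW : p ∈ Wo a b c B \ S
  · exact indicator_of_mem hpW _
  · rw [repS, indicator_of_notMem hpW, hp hpW]

theorem norm_repS {X : HF} (hX : X ∈ closure (range (grS 𝓗 a b c B hS))) :
    (∫ p, repS a b c B S X 0 p ^ 2) + ∫ p, repS a b c B S X 1 p ^ 2 = ‖X‖ ^ 2 := by
  rw [norm_HF_sq]
  congr 1
  · refine integral_congr_ae ?_
    filter_upwards [repS_ae (zero_off_of_closure hX 0)] with p hp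
    rw [hp]
  · refine integral_congr_ae ?_
    filter_upwards [repS_ae (zero_off_of_closure hX 1)] with p hp
    rw [hp]

theorem norm_sub_repS (X : HF) (e : Vl 𝓗 a b c B) :
    ∫ p in Wo a b c B \ S,
      ((gx e p - repS a b c B S X 0 p) ^ 2 + (gy e p - repS a b c B S X 1 p) ^ 2) ≤
      ‖grS 𝓗 a b c B hS e - X‖ ^ 2 := by
  rw [norm_HF_sq]
  have h0 : ∀ᵐ p : ℝ × ℝ, (grS 𝓗 a b c B hS e - X) 0 p =
      (Wo a b c B \ S).indicator (gx e) p - X 0 p := by
    have := Lp.coeFn_sub ((grS 𝓗 a b c B hS e) 0) (X 0)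
    filter_upwards [this, grS0_eq (hS := hS) e] with p hp hp'
    rw [← hp']; exact hp
  have h1 : ∀ᵐ p : ℝ × ℝ, (grS 𝓗 a b c B hS e - X) 1 p =
      (Wo a b c B \ S).indicator (gy e) p - X 1 p := by
    have := Lp.coeFn_sub ((grS 𝓗 a b c B hS e) 1) (X 1)
    filter_upwards [this, grS1_eq (hS := hS) e] with p hp hp'
    rw [← hp']; exact hp
  have i0 : Integrable (fun p => (grS 𝓗 a b c B hS e - X) 0 p ^ 2) volume :=
    (Lp.memLp _).integrable_sq
  have i1 : Integrable (fun p => (grS 𝓗 a b c B hS e - X) 1 p ^ 2) volume :=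
    (Lp.memLp _).integrable_sq
  rw [← integral_add i0 i1, ← integral_indicator (measurableSet_WS hS)]
  refine integral_mono_of_nonneg ?_ (i0.add i1) ?_
  · refine Eventually.of_forall fun p => indicator_nonneg (fun q _ => ?_) p
    positivity
  · filter_upwards [h0, h1] with p hp0 hp1
    simp only [hp0, hp1]
    by_cases hpW : p ∈ Wo a b c B \ S
    · simp [repS, hpW]
    · rw [indicator_of_notMem hpW]; positivity

end Crest.Agent.R105.Knq_247
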