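/-
# Row 105, S0138 (T-frame), lemma A with exact squares, part 2: from functionals to measures;
helper247

* `push_to` : push forward of a Kantorovich functional to a compact subset;
* `flow_id` : the functional of the side traces is the integral (238's `flow_identity` for points of
  an arbitrary compact set);
* `exists_charge` : the functional of one charged set as the difference of two measures;
* `HalfQ` : the flow on one half; `exists_halfQ`; `HalfQ.thomson`.
-/
import Crest.Agent.R105.Knq1_247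

set_option autoImplicit false

open Set Filter MeasureTheory Topology
open scoped ENNReal NNReal InnerProductSpace

namespace Crest.Agent.R105.Knq_247

open CF_363 Kin_238 Kkt_238

variable {P : Type*} {lam : (P → ℝ) →ₗ[ℝ] ℝ}

open Classical in
/-- push forward of a positive functional to a compact subset -/
theorem push_to {Y : Type*} [TopologicalSpace Y] [T2Space Y] [MeasurableSpace Y] [BorelSpace Y]
    (hp : Pos lam) {C : Set Y} (hC : IsCompact C) (π : P → Y) (hπ : ∀ q, π q ∈ C) :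
    ∃ μ : Measure Y, IsFiniteMeasure μ ∧ μ Cᶜ = 0 ∧ μ.real univ = lam 1 ∧
      (∀ f : Y → ℝ, ContinuousOn f C → ∫ p, f p ∂μ = lam (fun q => f (π q))) ∧
      (∀ F : Set Y, IsClosed F → lam (fun q => if π q ∈ F then 1 else 0) ≤ μ.real F) ∧
      (∀ U : Set Y, IsOpen U → μ.real U ≤ lam (fun q => if π q ∈ U then 1 else 0)) := by
  have : CompactSpace C := isCompact_iff_compactSpace.1 hC
  obtain ⟨μ', hreg, hfin, hint, hone, hF, hU⟩ :=
    exists_push hp (Y := C) (fun q => ⟨π q, hπ q⟩)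
  have hme : MeasurableEmbedding (Subtype.val : C → Y) :=
    MeasurableEmbedding.subtype_coe hC.isClosed.measurableSet
  refine ⟨μ'.map Subtype.val, inferInstance, ?_, ?_, fun f hf => ?_, fun F hFc => ?_,
    fun U hUo => ?_⟩
  · rw [hme.map_apply]; simp
  · rw [← hone, measureReal_def, measureReal_def, hme.map_apply]; simp
  · rw [hme.integral_map]
    exact hint ⟨_, hf.domRestrict⟩
  · have h1 := hF (Subtype.val ⁻¹' F) (hFc.preimage continuous_subtype_val)
    have h2 : (μ'.map Subtype.val).real F = μ'.real (Subtype.val ⁻¹' F) := by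
      rw [measureReal_def, measureReal_def, hme.map_apply]
    rw [h2]
    exact h1
  · have h1 := hU (Subtype.val ⁻¹' U) (hUo.preimage continuous_subtype_val)
    have h2 : (μ'.map Subtype.val).real U = μ'.real (Subtype.val ⁻¹' U) := by
      rw [measureReal_def, measureReal_def, hme.map_apply]
    rw [h2]
    exact h1

variable {ι : Type*} {a b c B : ℝ} {𝓗 : Set Hair} {Q : ι → Set (ℝ × ℝ)} {S C : Set (ℝ × ℝ)}
  {e e' : ℝ × ℝ → ℝ}

open Classical in
/-- the functional of the side traces is the integral -/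
theorem flow_id (hp : Pos lam) (hCW : C ⊆ Wl a b c B) (pt : P → ℝ × ℝ) (s : P → Bool)
    (hpt : ∀ q, pt q ∈ C)
    {μ : Measure (ℝ × ℝ)} [IsFiniteMeasure μ] (hcar : μ Cᶜ = 0)
    (hint : ∀ f : ℝ × ℝ → ℝ, ContinuousOn f C → ∫ p, f p ∂μ = lam (fun q => f (pt q)))
    (hcl : ∀ F : Set (ℝ × ℝ), IsClosed F →
      lam (fun q => if pt q ∈ F then 1 else 0) ≤ μ.real F)
    {J : Finset Hair} (he : CF (Wl a b c B \ cut J) e) (hJ : μ (cut J) = 0) :
    lam (fun q => tr e (s q) (pt q).1 (pt q).2) = ∫ p, e p ∂μ := by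
  obtain ⟨L, C', hL, hSL, hC⟩ := he
  wlog hC0 : 0 ≤ C' generalizing C'
  · exact this |C'| (fun p hp => (hC p hp).trans (le_abs_self C')) (abs_nonneg C')
  have hpos : ∀ q, pt q ∈ Wl a b c B := fun q => hCW (hpt q)
  have htr : ∀ q, |tr e (s q) (pt q).1 (pt q).2| ≤ C' := fun q =>
    abs_tr_le hSL hC (s q) (hpos q).1 (hpos q).2.1 (hpos q).2.2
  have hbd : ∀ᵐ p ∂μ, p ∈ Wl a b c B ∧ p ∉ cut J := by
    have h1 : ∀ᵐ p ∂μ, p ∈ C := by
      rw [ae_iff]; exact hcar
    have h2 : ∀ᵐ p ∂μ, p ∉ cut J := measure_eq_zero_iff_ae_notMem.1 hJ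
    filter_upwards [h1, h2] with p hp1 hp2 using ⟨hCW hp1, hp2⟩
  have hmeas : AEStronglyMeasurable e μ := by
    have h1 : MeasurableSet (Wl a b c B \ cut J) :=
      measurableSet_Wl.diff (isClosed_cut J).measurableSet
    have h2 : μ.restrict (Wl a b c B \ cut J) = μ := by
      apply Measure.restrict_eq_self_of_ae_mem
      filter_upwards [hbd] with p hp using hp
    rw [← h2]
    exact (continuousOn_of hSL).aestronglyMeasurable h1
  have hie : Integrable e μ := by
    refine Integrable.of_bound hmeas C' ?_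
    filter_upwards [hbd] with p hp using by simpa using hC p hp
  have key : ∀ ε : ℝ, 0 < ε →
      |lam (fun q => tr e (s q) (pt q).1 (pt q).2) - ∫ p, e p ∂μ| ≤ 4 * C' * ε := by
    intro ε hε
    obtain ⟨u, O, F, hu, hu01, hO, hSO, huO, hF, hμF, hOF, hu1⟩ :=
      exists_cutoff μ (isCompact_cut J) hJ hε
    set f : ℝ × ℝ → ℝ := fun p => u p * e p with hf
    have hfc : ContinuousOn f (Wl a b c B) := by
      intro p hp
      by_cases hpO : p ∈ O
      · have : f =ᶠ[𝓝[Wl a b c B] p] fun _ => 0 := by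
          filter_upwards [nhdsWithin_le_nhds (hO.mem_nhds hpO)] with q hq
          simp [hf, huO q hq]
        refine continuousWithinAt_const.congr_of_eventuallyEq this ?_
        simp [hf, huO p hpO]
      · exact hu.continuousWithinAt.mul (continuousWithinAt_of hSL hp fun h => hpO (hSO h))
    have hfe : ∀ p ∈ Wl a b c B, p ∉ cut J → |e p - f p| ≤ C' * (if p ∈ F then 1 else 0) := by
      intro p hp hpJ
      by_cases hpF : p ∈ F
      · rw [if_pos hpF, mul_one]
        have h1 := hC p ⟨hp, hpJ⟩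
        have h2 := hu01 p
        have h3 : e p - f p = (1 - u p) * e p := by simp only [hf]; ring
        rw [h3, abs_mul, abs_of_nonneg (by linarith)]
        nlinarith [abs_nonneg (e p)]
      · rw [if_neg hpF, mul_zero]
        simp [hf, hu1 p hpF]
    -- comparison of the functionals
    have hA : |lam (fun q => tr e (s q) (pt q).1 (pt q).2) - lam (fun q => f (pt q))|
        ≤ 2 * C' * ε := by
      rw [← map_sub]
      have h1 : ∀ q, |((fun q => tr e (s q) (pt q).1 (pt q).2) - fun q => f (pt q)) q| ≤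
          2 * C' * (if pt q ∈ F then 1 else 0) := by
        intro q
        simp only [Pi.sub_apply]
        by_cases hqJ : pt q ∈ cut J
        · have h2 := hSO hqJ
          rw [if_pos (hOF h2), mul_one]
          have h3 : f (pt q) = 0 := by simp [hf, huO _ h2]
          rw [h3, sub_zero]
          have := htr q
          linarith
        · have h4 : tr e (s q) (pt q).1 (pt q).2 = e (pt q) :=
            tr_eq_self hSL (s q) (hpos q).1 (hpos q).2.1 (hpos q).2.2 hqJ
          rw [h4]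
          refine (hfe _ (hpos q) hqJ).trans ?_
          have : (0:ℝ) ≤ if pt q ∈ F then 1 else 0 := by split_ifs <;> norm_num
          nlinarith
      have hb1 : Bd (fun q => (if pt q ∈ F then (1:ℝ) else 0)) :=
        ⟨1, fun q => by beta_reduce; split_ifs <;> simp⟩
      have hb2 : Bd ((fun q => tr e (s q) (pt q).1 (pt q).2) - fun q => f (pt q)) := by
        refine ⟨2 * C', fun q => (h1 q).trans ?_⟩
        split_ifs <;> linarith
      have h2 : lam ((2 * C') • fun q => (if pt q ∈ F then (1:ℝ) else 0)) ≤ 2 * C' * ε := by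
        rw [map_smul, smul_eq_mul]
        exact mul_le_mul_of_nonneg_left ((hcl F hF).trans hμF.le) (by linarith)
      rw [abs_le]
      constructor
      · have h3 := hp.mono ((hb1.smul (2 * C')).neg) hb2 (fun q => by
          have := (abs_le.1 (h1 q)).1
          simpa using this)
        rw [map_neg] at h3
        linarith
      · have h3 := hp.mono hb2 (hb1.smul (2 * C')) (fun q => by
          have := (abs_le.1 (h1 q)).2
          simpa using this)
        linarith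
    -- comparison of the integrals
    have hBb : |(∫ p, e p ∂μ) - ∫ p, f p ∂μ| ≤ C' * ε := by
      have hif : Integrable f μ := by
        refine Integrable.of_bound ?_ C' ?_
        · have h2 : μ.restrict (Wl a b c B) = μ := by
            apply Measure.restrict_eq_self_of_ae_mem
            filter_upwards [hbd] with p hp using hp.1
          rw [← h2]
          exact hfc.aestronglyMeasurable measurableSet_Wl
        · filter_upwards [hbd] with p hp
          have h1 := hC p hp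
          have h2 := hu01 p
          rw [hf]
          simp only [Real.norm_eq_abs, abs_mul, abs_of_nonneg h2.1]
          nlinarith [abs_nonneg (e p)]
      rw [← integral_sub hie hif]
      have h6 := norm_integral_le_integral_norm (μ := μ) (fun p => e p - f p)
      rw [Real.norm_eq_abs] at h6
      refine h6.trans ?_
      calc ∫ p, ‖e p - f p‖ ∂μ ≤ ∫ p, F.indicator (fun _ => C') p ∂μ := by
            refine integral_mono_ae (hie.sub hif).norm
              ((integrable_const C').indicator hF.measurableSet) ?_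
            filter_upwards [hbd] with p hp
            have := hfe p hp.1 hp.2
            by_cases hpF : p ∈ F
            · simp only [Real.norm_eq_abs, indicator_of_mem hpF]
              simpa [hpF] using this
            · simp only [Real.norm_eq_abs, indicator_of_notMem hpF]
              simpa [hpF] using this
        _ = C' * μ.real F := by
            rw [integral_indicator hF.measurableSet, setIntegral_const, smul_eq_mul, mul_comm]
        _ ≤ C' * ε := mul_le_mul_of_nonneg_left hμF.le hC0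
    rw [hint f (hfc.mono hCW)] at hBb
    have h5 := abs_sub_le (lam (fun q => tr e (s q) (pt q).1 (pt q).2))
      (lam (fun q => f (pt q))) (∫ p, e p ∂μ)
    rw [abs_sub_comm (lam (fun q => f (pt q)))] at h5
    nlinarith
  have h0 : |lam (fun q => tr e (s q) (pt q).1 (pt q).2) - ∫ p, e p ∂μ| ≤ 0 := by
    refine le_of_forall_pos_le_add fun ε hε => ?_
    have := key (ε / (4 * C' + 1)) (by positivity)
    refine this.trans ?_
    rw [zero_add, mul_div_assoc', div_le_iff₀ (by positivity)]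
    nlinarith
  exact sub_eq_zero.1 (abs_nonpos_iff.1 h0)

/-! ### the functional of one charged set -/

theorem exists_charge (H : QQ 𝓗 a b c B Q) (i : ι) {k : ℝ} (hk : 0 ≤ k)
    (hemp : Q i ∩ Wl a b c B = ∅ → k = 0) (l : Vq 𝓗 a b c B Q →ₗ[ℝ] ℝ)
    (hl : ∀ e : Vq 𝓗 a b c B Q, |l e| ≤ k * osc (Q i ∩ Wl a b c B) e) :
    ∃ νp νm : Measure (ℝ × ℝ), IsFiniteMeasure νp ∧ IsFiniteMeasure νm ∧
      νp (Q i ∩ Wl a b c B)ᶜ = 0 ∧ νm (Q i ∩ Wl a b c B)ᶜ = 0 ∧ νp.real univ = k ∧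
      νm.real univ = k ∧ ∀ e : Vq 𝓗 a b c B Q,
        l e = (∫ p, (e : ℝ × ℝ → ℝ) p ∂νp) - ∫ p, (e : ℝ × ℝ → ℝ) p ∂νm := by
  rcases (Q i ∩ Wl a b c B).eq_empty_or_nonempty with hE | hE
  · have hk0 := hemp hE
    refine ⟨0, 0, inferInstance, inferInstance, by simp, by simp, by simp [hk0], by simp [hk0],
      fun e => ?_⟩
    have := hl e
    rw [hk0, zero_mul] at this
    simpa using abs_nonpos_iff.1 this
  · set T := Q i ∩ Wl a b c B with hT
    have hne : Nonempty (T × T) := by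
      obtain ⟨p, hp⟩ := hE
      exact ⟨⟨⟨p, hp⟩, ⟨p, hp⟩⟩⟩
    let Bm : Vq 𝓗 a b c B Q →ₗ[ℝ] (T × T → ℝ) :=
      { toFun := fun e q => (e : ℝ × ℝ → ℝ) q.1 - (e : ℝ × ℝ → ℝ) q.2
        map_add' := fun e e' => by
          ext q
          show (e : ℝ × ℝ → ℝ) q.1 + (e' : ℝ × ℝ → ℝ) q.1 -
            ((e : ℝ × ℝ → ℝ) q.2 + (e' : ℝ × ℝ → ℝ) q.2) = _
          simp only [Pi.add_apply]; ring
        map_smul' := fun t e => by
          ext q
          show t * (e : ℝ × ℝ → ℝ) q.1 - t * (e : ℝ × ℝ → ℝ) q.2 = _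
          simp only [RingHom.id_apply, Pi.smul_apply, smul_eq_mul]; ring }
    have hBm : ∀ e, Bd (Bm e) := fun e =>
      ⟨osc T e, fun q => le_osc (H.bo e.2 i) q.1.2 q.2.2⟩
    obtain ⟨nu, hp, h1, h2⟩ := Kks_247.rep Bm hBm k hk l (fun v r hr => by
      have hr0 : 0 ≤ r := by
        obtain ⟨p, hp⟩ := hE
        have := hr ⟨⟨p, hp⟩, ⟨p, hp⟩⟩
        have h3 : Bm v ⟨⟨p, hp⟩, ⟨p, hp⟩⟩ = (v : ℝ × ℝ → ℝ) p - (v : ℝ × ℝ → ℝ) p := rfl
        rw [h3, sub_self] at this
        exact this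
      have h3 : osc T v ≤ r := osc_le hr0 fun p hp q hq => by
        rw [abs_le]
        have e1 : (v : ℝ × ℝ → ℝ) p - (v : ℝ × ℝ → ℝ) q ≤ r := hr ⟨⟨p, hp⟩, ⟨q, hq⟩⟩
        have e2 : (v : ℝ × ℝ → ℝ) q - (v : ℝ × ℝ → ℝ) p ≤ r := hr ⟨⟨q, hq⟩, ⟨p, hp⟩⟩
        exact ⟨by linarith, e1⟩
      exact (le_abs_self _).trans ((hl v).trans (mul_le_mul_of_nonneg_left h3 hk)))
    obtain ⟨μ1, f1, c1, m1, i1, -, -⟩ := push_to hp (H.cpt i) (fun q : T × T => (q.1 : ℝ × ℝ))
      (fun q => q.1.2)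
    obtain ⟨μ2, f2, c2, m2, i2, -, -⟩ := push_to hp (H.cpt i) (fun q : T × T => (q.2 : ℝ × ℝ))
      (fun q => q.2.2)
    refine ⟨μ1, μ2, f1, f2, c1, c2, by rw [m1, h1], by rw [m2, h1], fun e => ?_⟩
    rw [i1 _ (e.2.2 i), i2 _ (e.2.2 i), h2, ← map_sub]
    rfl

/-! ### the flow on one half -/

/-- the flow on one half, with charges -/
structure HalfQ (𝓗 : Set Hair) (a b c B : ℝ) (S : Set (ℝ × ℝ)) (Q : ι → Set (ℝ × ℝ))
    (C : Set (ℝ × ℝ)) (X1 X2 : ℝ × ℝ → ℝ) (f : ι → ℝ) (νp νm : ι → Measure (ℝ × ℝ))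
    (μ : Measure (ℝ × ℝ)) : Prop where
  m1 : Measurable X1
  m2 : Measurable X2
  L1 : MemLp X1 2 (volume : Measure (ℝ × ℝ))
  L2 : MemLp X2 2 (volume : Measure (ℝ × ℝ))
  z1 : ∀ p, p ∉ Wo a b c B \ S → X1 p = 0
  z2 : ∀ p, p ∉ Wo a b c B \ S → X2 p = 0
  fin : IsFiniteMeasure μ
  carried : μ Cᶜ = 0
  f0 : ∀ i, 0 ≤ f i
  fs : Summable fun i => f i ^ 2
  pfin : ∀ i, IsFiniteMeasure (νp i)
  mfin : ∀ i, IsFiniteMeasure (νm i)
  pc : ∀ i, νp i (Q i ∩ Wl a b c B)ᶜ = 0
  mc : ∀ i, νm i (Q i ∩ Wl a b c B)ᶜ = 0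
  pm : ∀ i, (νp i).real univ = f i
  mm : ∀ i, (νm i).real univ = f i
  /-- flow identity -/
  F : ∀ (e : ℝ × ℝ → ℝ) (J : Finset Hair), e ∈ Vq 𝓗 a b c B Q → CF (Wl a b c B \ cut J) e →
    μ (cut J) = 0 → (∫ p in Wo a b c B \ S, (X1 p * gx e p + X2 p * gy e p)) +
      ∑' i, ((∫ p, e p ∂(νp i)) - ∫ p, e p ∂(νm i)) = ∫ p, e p ∂μ
  /-- closure sequence -/
  cl : ∃ E : ℕ → ℝ × ℝ → ℝ, (∀ n, E n ∈ Vq 𝓗 a b c B Q) ∧
    Tendsto (fun n => ∫ p in Wo a b c B \ S,
      ((gx (E n) p - X1 p) ^ 2 + (gy (E n) p - X2 p) ^ 2)) atTop (𝓝 0) ∧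
    Tendsto (fun n => ∑' i, (osc (Q i ∩ Wl a b c B) (E n) - f i) ^ 2) atTop (𝓝 0) ∧
    ∀ i, Tendsto (fun n => (∫ p, E n p ∂(νp i)) - ∫ p, E n p ∂(νm i)) atTop (𝓝 (f i ^ 2))

/-- the inclusion -/
def inc (𝓗 : Set Hair) (a b c B : ℝ) (Q : ι → Set (ℝ × ℝ)) :
    Vq 𝓗 a b c B Q →ₗ[ℝ] Vl 𝓗 a b c B :=
  Submodule.inclusion fun _ he => he.1

@[simp] theorem inc_coe (e : Vq 𝓗 a b c B Q) :
    ((inc 𝓗 a b c B Q e : Vl 𝓗 a b c B) : ℝ × ℝ → ℝ) = e := rfl

open Classical in
theorem exists_halfQ (H : QQ 𝓗 a b c B Q) {hS : MeasurableSet S} (hp : Pos lam)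
    (hCW : C ⊆ Wl a b c B) (pt : P → ℝ × ℝ) (s : P → Bool) (hpt : ∀ q, pt q ∈ C)
    {μ : Measure (ℝ × ℝ)} (hfin : IsFiniteMeasure μ) (hcar : μ Cᶜ = 0)
    (hint : ∀ f : ℝ × ℝ → ℝ, ContinuousOn f C → ∫ p, f p ∂μ = lam (fun q => f (pt q)))
    (hcl : ∀ F : Set (ℝ × ℝ), IsClosed F →
      lam (fun q => if pt q ∈ F then 1 else 0) ≤ μ.real F)
    {X : HF} {k : ι → ℝ} (hk0 : ∀ i, 0 ≤ k i) (hks : Summable fun i => k i ^ 2)
    (hemp : ∀ i, Q i ∩ Wl a b c B = ∅ → k i = 0)
    (l : ι → Vq 𝓗 a b c B Q →ₗ[ℝ] ℝ)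
    (hl : ∀ i (e : Vq 𝓗 a b c B Q), |l i e| ≤ k i * osc (Q i ∩ Wl a b c B) e)
    (hX : ∀ e : Vq 𝓗 a b c B Q, ⟪X, grS 𝓗 a b c B hS (inc 𝓗 a b c B Q e)⟫_ℝ + ∑' i, l i e =
      lam (fun q => tr e (s q) (pt q).1 (pt q).2))
    (E : ℕ → Vq 𝓗 a b c B Q)
    (hE1 : Tendsto (fun n => grS 𝓗 a b c B hS (inc 𝓗 a b c B Q (E n))) atTop (𝓝 X))
    (hE2 : Tendsto (fun n => ∑' i, (osc (Q i ∩ Wl a b c B) (E n) - k i) ^ 2) atTop (𝓝 0))
    (hE3 : ∀ i, Tendsto (fun n => l i (E n)) atTop (𝓝 (k i ^ 2))) :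
    ∃ νp νm : ι → Measure (ℝ × ℝ),
      HalfQ 𝓗 a b c B S Q C (repS a b c B S X 0) (repS a b c B S X 1) k νp νm μ ∧
      ∀ i (e : Vq 𝓗 a b c B Q),
        l i e = (∫ p, (e : ℝ × ℝ → ℝ) p ∂(νp i)) - ∫ p, (e : ℝ × ℝ → ℝ) p ∂(νm i) := by
  choose νp νm p1 p2 p3 p4 p5 p6 p7 using
    fun i => exists_charge H i (hk0 i) (hemp i) (l i) (hl i)
  refine ⟨νp, νm, ?_, p7⟩
  refine ⟨measurable_repS hS X 0, measurable_repS hS X 1, memLp_repS hS X 0, memLp_repS hS X 1,
    fun p hp => indicator_of_notMem hp _, fun p hp => indicator_of_notMem hp _, hfin, hcar,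
    hk0, hks, p1, p2, p3, p4, p5, p6, fun e J he hCF hJ => ?_, fun n => E n, fun n => (E n).2,
    ?_, hE2, fun i => ?_⟩
  · have h1 := hX ⟨e, he⟩
    rw [inner_grS_rep] at h1
    have h2 := flow_id hp hCW pt s hpt hcar hint hcl hCF hJ
    rw [← h2, ← h1]
    congr 1
    exact tsum_congr fun i => (p7 i ⟨e, he⟩).symm
  · have h1 : Tendsto (fun n => ‖grS 𝓗 a b c B hS (inc 𝓗 a b c B Q (E n)) - X‖ ^ 2) atTop (𝓝 0) := by
      have h2 := (tendsto_iff_norm_sub_tendsto_zero.1 hE1).pow 2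
      simpa using h2
    exact squeeze_zero (fun n => integral_nonneg fun p => by positivity)
      (fun n => norm_sub_repS (hS := hS) X (inc 𝓗 a b c B Q (E n))) h1
  · refine (hE3 i).congr fun n => p7 i (E n)

end Crest.Agent.R105.Knq_247
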