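/-
# Row 105, S0138 (T-frame), lemma A with exact squares, part 3: existence of the one-sided flow,
Thomson; helper247
-/
import Crest.Agent.R105.Knq2_247

set_option autoImplicit false

open Set Filter MeasureTheory Topology
open scoped ENNReal NNReal InnerProductSpace

namespace Crest.Agent.R105.Knq_247

open CF_363 Kin_238 Kkt_238
open Kks_247 (Lc)

variable {ι : Type*} {a b c B : ℝ} {𝓗 : Set Hair} {Q : ι → Set (ℝ × ℝ)} {S C : Set (ℝ × ℝ)}
  {e e' : ℝ × ℝ → ℝ}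

/-! ### auxiliary facts -/

theorem tr_zero (σ : Bool) (x y : ℝ) : tr (0 : ℝ × ℝ → ℝ) σ x y = 0 :=
  tr_eq_of_tendsto tendsto_const_nhds

/-- the function `min 1 (max 0 ((y - c - δ) / δ))` -/
theorem exists_bottomQ (𝓗 : Set Hair) (a b c B : ℝ) (Q : ι → Set (ℝ × ℝ)) {δ : ℝ} (hδ : 0 < δ) :
    ∃ e ∈ Vq 𝓗 a b c B Q, ∀ (σ : Bool) (x y : ℝ), (a < x ∧ x < b) → c + 2 * δ ≤ y → y ≤ B →
      tr e σ x y = 1 := by
  set G : ℝ → ℝ := fun t => min 1 (max 0 ((t - c - δ) / δ)) with hG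
  have hGlip : ∀ s t, |G s - G t| ≤ δ⁻¹ * |s - t| := by
    intro s t
    have h1 : |max 0 ((s - c - δ) / δ) - max 0 ((t - c - δ) / δ)| ≤ δ⁻¹ * |s - t| := by
      refine (abs_max_sub_max_le_max _ _ _ _).trans (max_le (by simp; positivity) ?_)
      rw [← sub_div]
      rw [abs_div, abs_of_pos hδ, div_eq_inv_mul]
      apply le_of_eq
      congr 2
      ring
    refine (abs_min_sub_min_le_max _ _ _ _).trans (max_le (by simp; positivity) h1)
  have hsnd : SL (univ : Set (ℝ × ℝ)) 1 (fun p : ℝ × ℝ => p.2) := by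
    intro p q _
    rw [one_mul, ← Real.dist_eq, Prod.dist_eq]
    exact le_max_right _ _
  have hSL := hsnd.comp (inv_nonneg.2 hδ.le) hGlip
  have hb : ∀ t, |G t| ≤ 1 := by
    intro t
    have h1 : 0 ≤ G t := le_min zero_le_one (le_max_left _ _)
    rw [abs_of_nonneg h1]
    exact min_le_left _ _
  have hCF : CF (Wl a b c B \ cut ∅) (fun p : ℝ × ℝ => G p.2) :=
    ⟨δ⁻¹ * 1, 1, by positivity, hSL.mono (subset_univ _), fun p _ => hb _⟩
  have hcont : Continuous fun p : ℝ × ℝ => G p.2 := by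
    simp only [hG]; fun_prop
  refine ⟨fun p => G p.2, ⟨⟨⟨∅, by simp, hCF⟩, δ, hδ, fun p hp hpc => ?_⟩,
    fun i => hcont.continuousOn⟩, fun σ x y hx hy hyB => ?_⟩
  · have h1 : (p.2 - c - δ) / δ ≤ 0 := div_nonpos_of_nonpos_of_nonneg (by linarith) hδ.le
    simp only [hG]
    rw [max_eq_left h1]
    simp
  · obtain ⟨L, C, hL, hS, hC⟩ := hCF
    rw [tr_eq_self hS σ hx (by linarith) hyB (by simp)]
    have h1 : 1 ≤ (y - c - δ) / δ := by rw [le_div_iff₀ hδ]; linarith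
    simp only [hG]
    rw [min_eq_left (h1.trans (le_max_right _ _))]

/-- a compact subset of `Wl` stays away from the bottom -/
theorem exists_low (hC : IsCompact C) (hCW : C ⊆ Wl a b c B) :
    ∃ δ > 0, ∀ p ∈ C, c + 2 * δ ≤ p.2 := by
  rcases C.eq_empty_or_nonempty with rfl | hne
  · exact ⟨1, one_pos, by simp⟩
  · obtain ⟨q, hq, hmin⟩ := hC.exists_isMinOn hne (f := fun p : ℝ × ℝ => p.2)
      continuous_snd.continuousOn
    refine ⟨(q.2 - c) / 2, by linarith [(hCW hq).2.1], fun p hp => ?_⟩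
    have h1 : q.2 ≤ p.2 := hmin hp
    linarith

theorem Vq_max (he : e ∈ Vq 𝓗 a b c B Q) : (fun p => max (e p) 0) ∈ Vq 𝓗 a b c B Q :=
  ⟨max_mem he.1, fun i => (he.2 i).sup continuousOn_const⟩

theorem EQ_max_le (H : QQ 𝓗 a b c B Q) (hS : IsClosed S) (he : e ∈ Vq 𝓗 a b c B Q) :
    EQ a b c B S Q (fun p => max (e p) 0) ≤ EQ a b c B S Q e := by
  refine add_le_add ?_ ?_
  · obtain ⟨J, -, L, C, hL, hSL, hC⟩ := he.1.1
    have hopen : IsOpen (Wo a b c B \ S) := isOpen_Wo.sdiff hS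
    refine En_max_const_le (S := cut J) (L := L) (hSL.mono ?_) 0 hopen (isClosed_cut J)
      (volume_cut J) ?_
    · intro p hp
      exact ⟨Wo_subset hp.1.1, hp.2⟩
    · exact ((measure_mono sdiff_subset).trans_lt volume_Wo_lt).ne
  · refine (H.summable (Vq_max he)).tsum_le_tsum (fun i => ?_) (H.summable he)
    refine pow_le_pow_left₀ (osc_nonneg _ _) ?_ 2
    exact osc_comp_le (G := fun t => max t 0)
      (fun s t => by
        have := abs_max_sub_max_le_max s 0 t 0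
        simpa using this) (H.bo he i)

/-- traces near a point are close to one of the two traces at the point -/
theorem tr_near {𝓗 : Set Hair} (he : CFJ 𝓗 (Wl a b c B) e) {p₀ : ℝ × ℝ} (hp₀ : p₀ ∈ Wl a b c B)
    {η : ℝ} (hη : 0 < η) :
    ∃ r > 0, ∀ p ∈ Wl a b c B, dist p p₀ < r → ∀ σ : Bool, ∃ σ₀ : Bool,
      |tr e σ p.1 p.2 - tr e σ₀ p₀.1 p₀.2| ≤ η := by
  obtain ⟨J, -, L, C, hL, hS, hC⟩ := he
  obtain ⟨r1, hr1, g1, hg1, h1⟩ := exists_side hS true hp₀.1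
  obtain ⟨r2, hr2, g2, hg2, h2⟩ := exists_side hS false hp₀.1
  have hη' : 0 < η / (L + 1) := by positivity
  have main : ∀ (σ₀ : Bool) (r' : ℝ) (g' : ℝ × ℝ → ℝ), 0 < r' → LipschitzWith L.toNNReal g' →
      (∀ s ∈ sInt σ₀ p₀.1 r', (a < s ∧ s < b) ∧ ∀ y, c < y → y ≤ B →
        (s, y) ∉ cut J ∧ e (s, y) = g' (s, y)) →
      ∀ p ∈ Wl a b c B, dist p p₀ < η / (L + 1) → ∀ σ : Bool,
        (p.1 ∈ sInt σ₀ p₀.1 r' ∨ (p.1 = p₀.1 ∧ σ = σ₀)) →
        |tr e σ p.1 p.2 - tr e σ₀ p₀.1 p₀.2| ≤ η := by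
    intro σ₀ r' g' hr' hg' hside p hp hd σ hcase
    have e2 : tr e σ₀ p₀.1 p₀.2 = g' (p₀.1, p₀.2) :=
      tr_eq_of_tendsto (tendsto_tr_aux hg' hr' fun s hs =>
        ((hside s hs).2 _ hp₀.2.1 hp₀.2.2).2)
    have e1 : tr e σ p.1 p.2 = g' (p.1, p.2) := by
      rcases hcase with hs | ⟨hx, rfl⟩
      · rw [tr_eq_self hS σ (hside _ hs).1 hp.2.1 hp.2.2 ((hside _ hs).2 p.2 hp.2.1 hp.2.2).1,
          ((hside _ hs).2 p.2 hp.2.1 hp.2.2).2]
      · rw [hx]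
        exact tr_eq_of_tendsto (tendsto_tr_aux hg' hr' fun s hs =>
          ((hside s hs).2 _ hp.2.1 hp.2.2).2)
    rw [e1, e2, ← Real.dist_eq]
    refine (hg'.dist_le_mul _ _).trans ?_
    rw [Real.coe_toNNReal _ hL]
    have e4 : dist ((p.1, p.2) : ℝ × ℝ) (p₀.1, p₀.2) ≤ η / (L + 1) := hd.le
    refine (mul_le_mul_of_nonneg_left e4 hL).trans ?_
    rw [mul_div_assoc', div_le_iff₀ (by positivity)]
    nlinarith
  refine ⟨min (η / (L + 1)) (min r1 r2), lt_min hη' (lt_min hr1 hr2), fun p hp hd σ => ?_⟩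
  have hd1 : dist p p₀ < η / (L + 1) := hd.trans_le (min_le_left _ _)
  have hd2 : dist p p₀ < r1 := hd.trans_le ((min_le_right _ _).trans (min_le_left _ _))
  have hd3 : dist p p₀ < r2 := hd.trans_le ((min_le_right _ _).trans (min_le_right _ _))
  have hx : |p.1 - p₀.1| ≤ dist p p₀ := by
    rw [← Real.dist_eq, Prod.dist_eq]; exact le_max_left _ _
  rcases lt_trichotomy p.1 p₀.1 with h | h | h
  · refine ⟨false, main false r2 g2 hr2 hg2 h2 p hp hd1 σ (Or.inl ?_)⟩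
    simp only [sInt, Bool.false_eq_true, if_false]
    exact ⟨by linarith [(abs_le.1 hx).1], h⟩
  · cases σ
    · exact ⟨false, main false r2 g2 hr2 hg2 h2 p hp hd1 false (Or.inr ⟨h, rfl⟩)⟩
    · exact ⟨true, main true r1 g1 hr1 hg1 h1 p hp hd1 true (Or.inr ⟨h, rfl⟩)⟩
  · refine ⟨true, main true r1 g1 hr1 hg1 h1 p hp hd1 σ (Or.inl ?_)⟩
    simp only [sInt, if_true]
    exact ⟨h, by linarith [(abs_le.1 hx).2]⟩

/-- the traces on a set of points as a linear map -/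
noncomputable def trL (𝓗 : Set Hair) (a b c B : ℝ) (Q : ι → Set (ℝ × ℝ)) {P : Type*}
    (pt : P → ℝ × ℝ) (s : P → Bool) (hpt : ∀ q, pt q ∈ Wl a b c B) :
    Vq 𝓗 a b c B Q →ₗ[ℝ] (P → ℝ) where
  toFun e := fun q => tr e (s q) (pt q).1 (pt q).2
  map_add' := by
    intro e e'
    ext q
    exact tr_add e.2.1.1 e'.2.1.1 (s q) (hpt q).1 (hpt q).2.1 (hpt q).2.2
  map_smul' := by
    intro t e
    ext q
    exact tr_smul e.2.1.1 t (s q) (hpt q).1 (hpt q).2.1 (hpt q).2.2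

theorem trL_apply {P : Type*} (pt : P → ℝ × ℝ) (s : P → Bool) (hpt : ∀ q, pt q ∈ Wl a b c B)
    (e : Vq 𝓗 a b c B Q) (q : P) :
    trL 𝓗 a b c B Q pt s hpt e q = tr e (s q) (pt q).1 (pt q).2 := rfl

theorem bd_trL {P : Type*} (pt : P → ℝ × ℝ) (s : P → Bool) (hpt : ∀ q, pt q ∈ Wl a b c B)
    (e : Vq 𝓗 a b c B Q) : Bd (trL 𝓗 a b c B Q pt s hpt e) := by
  obtain ⟨J, -, L, C, hL, hS, hC⟩ := e.2.1.1
  exact ⟨C, fun q => abs_tr_le hS hC (s q) (hpt q).1 (hpt q).2.1 (hpt q).2.2⟩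

/-! ### coordinates in `ℓ²` -/

theorem tendsto_coord {κ : Type*} {z : ℕ → Kks_247.L2 κ} {k : Kks_247.L2 κ}
    (h : Tendsto z atTop (𝓝 k)) (i : κ) : Tendsto (fun n => z n i) atTop (𝓝 (k i)) := by
  have h2 : Continuous fun f : Kks_247.L2 κ => f i :=
    (lp.lipschitzWith_one_eval (p := 2) (E := fun _ : κ => ℝ) i).continuous
  exact (h2.tendsto k).comp h

theorem tendsto_sum_sq {κ : Type*} {z : ℕ → Kks_247.L2 κ} {k : Kks_247.L2 κ}
    (h : Tendsto z atTop (𝓝 k)) : Tendsto (fun n => ∑' i, (z n i - k i) ^ 2) atTop (𝓝 0) := by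
  have h2 := (tendsto_iff_norm_sub_tendsto_zero.1 h).pow 2
  simp only [ne_eq, OfNat.ofNat_ne_zero, not_false_eq_true, zero_pow] at h2
  refine h2.congr fun n => ?_
  rw [Kks_247.l2_norm_sq]
  rfl

/-! ### the one-sided problem -/

/-- one-sided nullness of the compact set `C` -/
def Null1 (𝓗 : Set Hair) (a b c B : ℝ) (S : Set (ℝ × ℝ)) (Q : ι → Set (ℝ × ℝ))
    (C : Set (ℝ × ℝ)) : Prop :=
  ∀ ε > 0, ∃ e ∈ Vq 𝓗 a b c B Q, EQ a b c B S Q e < ε ∧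
    ∀ p ∈ C, ∀ σ : Bool, 1 ≤ tr e σ p.1 p.2

theorem EQ_zero : EQ a b c B S Q 0 = 0 := by
  have h1 : En (Wo a b c B \ S) (0 : ℝ × ℝ → ℝ) = 0 := En_const _ 0
  have h2 : ∀ i, osc (Q i ∩ Wl a b c B) (0 : ℝ × ℝ → ℝ) = 0 := fun i =>
    le_antisymm (osc_le le_rfl fun p _ q _ => by simp) (osc_nonneg _ _)
  simp [EQ, h1, h2]

set_option maxHeartbeats 800000 in
/-- **one-sided flow**: if the conductance is positive there is a flow with charges -/
theorem exists_flow1 (H : QQ 𝓗 a b c B Q) (hS : IsClosed S) (hC : IsCompact C)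
    (hCW : C ⊆ Wl a b c B) (hnot : ¬ Null1 𝓗 a b c B S Q C) :
    ∃ (m : ℝ) (X1 X2 : ℝ × ℝ → ℝ) (f : ι → ℝ) (νp νm : ι → Measure (ℝ × ℝ))
      (μ : Measure (ℝ × ℝ)), 0 < m ∧ HalfQ 𝓗 a b c B S Q C X1 X2 f νp νm μ ∧
      μ.real univ = m ∧ ((∫ p, X1 p ^ 2) + ∫ p, X2 p ^ 2) + ∑' i, f i ^ 2 = m := by
  classical
  have hSm := hS.measurableSet
  have hCne : C.Nonempty := by
    by_contra h
    rw [not_nonempty_iff_eq_empty] at h
    apply hnot
    intro ε hε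
    have h1 : EQ a b c B S Q 0 < ε := by rw [EQ_zero]; exact hε
    have h2 : ∀ p ∈ C, ∀ σ : Bool, 1 ≤ tr 0 σ p.1 p.2 := fun p hp => by
      rw [h] at hp; exact absurd hp (notMem_empty p)
    exact ⟨0, (Vq 𝓗 a b c B Q).zero_mem, h1, h2⟩
  set pt : C × Bool → ℝ × ℝ := fun q => q.1 with hpt
  set s : C × Bool → Bool := fun q => q.2 with hs
  have hptC : ∀ q, pt q ∈ C := fun q => q.1.2
  have hptW : ∀ q, pt q ∈ Wl a b c B := fun q => hCW (hptC q)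
  have hne : Nonempty (C × Bool) := by
    obtain ⟨p, hp⟩ := hCne
    exact ⟨⟨⟨p, hp⟩, true⟩⟩
  let A := trL 𝓗 a b c B Q pt s hptW
  let D : Vq 𝓗 a b c B Q →ₗ[ℝ] HF := grS 𝓗 a b c B hSm ∘ₗ inc 𝓗 a b c B Q
  have hs2 : ∀ v : Vq 𝓗 a b c B Q, Summable fun i => (lamQ H i v) ^ 2 := fun v => H.summable v.2
  have hEn : ∀ v : Vq 𝓗 a b c B Q, Kks_247.En D (lamQ H) v = EQ a b c B S Q v := by
    intro v
    show ‖grS 𝓗 a b c B hSm (inc 𝓗 a b c B Q v)‖ ^ 2 + _ = _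
    rw [norm_grS_sq]
    rfl
  have hfe : (Feas A).Nonempty := by
    obtain ⟨δ, hδ, hlow⟩ := exists_low hC hCW
    obtain ⟨e, he, h1⟩ := exists_bottomQ 𝓗 a b c B Q hδ
    have h2 : ∀ q : C × Bool, 1 ≤ tr e (s q) (pt q).1 (pt q).2 := fun q => by
      rw [h1 (s q) _ _ (hptW q).1 (hlow _ (hptC q)) (hptW q).2.2]
    exact ⟨⟨e, he⟩, h2⟩
  have hA : ∀ v, Bd (A v) := bd_trL pt s hptW
  obtain ⟨X, k, hX⟩ := Kks_247.exists_min D (lamQ H) A hs2 hfe
  have hm : 0 < Kks_247.condS D (lamQ H) A := by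
    have h00 : 0 ≤ Kks_247.condS D (lamQ H) A := Kks_247.condS_nonneg
    rcases h00.lt_or_eq with h0 | h0
    · exact h0
    exfalso
    apply hnot
    intro ε hε
    have h1 : sInf (Kks_247.En D (lamQ H) '' Feas A) < ε := by
      show Kks_247.condS D (lamQ H) A < ε
      rw [← h0]; exact hε
    obtain ⟨_, ⟨z, hz, rfl⟩, hlt⟩ := exists_lt_of_csInf_lt (hfe.image _) h1
    rw [hEn] at hlt
    exact ⟨z, z.2, hlt, fun p hp σ => hz ⟨⟨p, hp⟩, σ⟩⟩
  obtain ⟨l, Lam, hF, hL1⟩ := hX.exists_flow hA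
  obtain ⟨z, hz, hz1, hz2⟩ := hX.lim
  obtain ⟨hsl1, hsl2⟩ := hX.slack hA hF hL1 hz hz1 hz2
  obtain ⟨μ, hfin, hcar, hone, hint, hcl, -⟩ := push_to hF.pos hC pt hptC
  have hemp : ∀ i, Q i ∩ Wl a b c B = ∅ → k i = 0 := by
    intro i hi
    have h1 := tendsto_coord hz2 i
    have h2 : ∀ n, Lc (lamQ H) hs2 (z n) i = 0 := by
      intro n
      show osc (Q i ∩ Wl a b c B) (z n) = 0
      rw [hi]
      exact le_antisymm (osc_le le_rfl fun p hp => absurd hp (notMem_empty p)) (osc_nonneg _ _)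
    simp only [h2] at h1
    exact tendsto_nhds_unique h1 tendsto_const_nhds
  have q1 : ∀ i (e : Vq 𝓗 a b c B Q), |l i e| ≤ k i * osc (Q i ∩ Wl a b c B) e :=
    fun i e => hF.le i e
  have q2 : ∀ e : Vq 𝓗 a b c B Q, ⟪X, grS 𝓗 a b c B hSm (inc 𝓗 a b c B Q e)⟫_ℝ + ∑' i, l i e =
      Lam (fun q => tr e (s q) (pt q).1 (pt q).2) := fun e => hF.eq e
  have q3 : Tendsto (fun n => grS 𝓗 a b c B hSm (inc 𝓗 a b c B Q (z n))) atTop (𝓝 X) := hz1
  have q4 : Tendsto (fun n => ∑' i, (osc (Q i ∩ Wl a b c B) (z n) - k i) ^ 2) atTop (𝓝 0) :=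
    by simpa only [Kks_247.Lc_apply, lamQ_apply] using tendsto_sum_sq hz2
  have q5 := Kks_247.l2_summable_sq k
  have q6 := hX.nonneg
  obtain ⟨νp, νm, hH, -⟩ := exists_halfQ H (hS := hSm) hF.pos hCW pt s hptC hfin hcar hint hcl
    (X := X) (k := fun i => k i) q6 q5 hemp l q1 q2 z q3 q4 hsl2
  have hcl1 : X ∈ closure (range (grS 𝓗 a b c B hSm)) :=
    mem_closure_of_tendsto q3 (Eventually.of_forall fun n => ⟨_, rfl⟩)
  have hen : ((∫ p, repS a b c B S X 0 p ^ 2) + ∫ p, repS a b c B S X 1 p ^ 2) + ∑' i, k i ^ 2 =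
      Kks_247.condS D (lamQ H) A := by
    rw [norm_repS hcl1, ← Kks_247.l2_norm_sq, hX.norm_sq]
  have hmass : μ.real univ = Kks_247.condS D (lamQ H) A := by rw [hone, hL1]
  exact ⟨Kks_247.condS D (lamQ H) A, repS a b c B S X 0, repS a b c B S X 1, fun i => k i, νp, νm,
    μ, hm, hH, hmass, hen⟩

end Crest.Agent.R105.Knq_247
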