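/-
# Row 105, S0138 (T-frame), lemma A with exact squares, part 4: Thomson's principle on one half
(87 #9800 (4)); helper247
-/
import Crest.Agent.R105.Knq3_247

set_option autoImplicit false

open Set Filter MeasureTheory Topology
open scoped ENNReal NNReal InnerProductSpace

namespace Crest.Agent.R105.Knq_247

open CF_363 Kin_238 Kkt_238

variable {ι : Type*} {a b c B : ℝ} {𝓗 : Set Hair} {Q : ι → Set (ℝ × ℝ)} {S C : Set (ℝ × ℝ)}
  {e e' : ℝ × ℝ → ℝ}

/-- squeeze with a parameter -/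
theorem tendsto_zero_of_le {u v : ℕ → ℝ} {A : ℝ} (hu : ∀ n, 0 ≤ u n) (hA : 0 ≤ A)
    (h : ∀ n, ∀ δ > 0, u n ≤ δ * A + δ⁻¹ * v n) (hv : Tendsto v atTop (𝓝 0)) :
    Tendsto u atTop (𝓝 0) := by
  rw [Metric.tendsto_atTop]
  intro ε hε
  set δ := ε / (2 * (A + 1)) with hδ
  have hδ0 : 0 < δ := by positivity
  have h1 : δ * A ≤ ε / 2 := by
    rw [hδ, div_mul_eq_mul_div, div_le_div_iff₀ (by positivity) (by norm_num)]
    nlinarith
  obtain ⟨N, hN⟩ := (hv.eventually (gt_mem_nhds (show 0 < δ * (ε / 2) by positivity))).exists_forall_of_atTop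
  refine ⟨N, fun n hn => ?_⟩
  rw [Real.dist_eq, sub_zero, abs_of_nonneg (hu n)]
  have h2 := h n δ hδ0
  have h3 : δ⁻¹ * v n < ε / 2 := by
    rw [inv_mul_lt_iff₀ hδ0]
    exact hN n hn
  linarith

/-- convergence of the sum of the charges -/
theorem tendsto_tsum_slack {f : ι → ℝ} (hf : ∀ i, 0 ≤ f i) (hfs : Summable fun i => f i ^ 2)
    {o : ℕ → ι → ℝ} (ho : ∀ n, Summable fun i => o n i ^ 2)
    (hlim : Tendsto (fun n => ∑' i, (o n i - f i) ^ 2) atTop (𝓝 0)) {l : ℕ → ι → ℝ}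
    (hl : ∀ n i, |l n i| ≤ f i * o n i) (hl' : ∀ i, Tendsto (fun n => l n i) atTop (𝓝 (f i ^ 2))) :
    Tendsto (fun n => ∑' i, l n i) atTop (𝓝 (∑' i, f i ^ 2)) := by
  classical
  have hfo : ∀ n, Summable fun i => f i * o n i := fun n => by
    refine Summable.of_norm_bounded ((hfs.add (ho n)).mul_left (1 / 2)) fun i => ?_
    rw [Real.norm_eq_abs, abs_le]
    constructor <;> nlinarith [sq_nonneg (f i - o n i), sq_nonneg (f i + o n i)]
  have hd : ∀ n, Summable fun i => (o n i - f i) ^ 2 := fun n => by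
    refine Summable.of_nonneg_of_le (fun i => sq_nonneg _) (fun i => ?_)
      ((hfs.add (ho n)).mul_left 2)
    nlinarith [sq_nonneg (f i + o n i)]
  have hls : ∀ n, Summable fun i => l n i := fun n =>
    Summable.of_norm_bounded (hfo n) fun i => by rw [Real.norm_eq_abs]; exact hl n i
  have hds : ∀ n, Summable fun i => |l n i - f i ^ 2| := fun n => ((hls n).sub hfs).abs
  have hpt : ∀ n i, ∀ δ > 0, |l n i - f i ^ 2| ≤
      2 * f i ^ 2 + (δ * f i ^ 2 + δ⁻¹ * (o n i - f i) ^ 2) := by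
    intro n i δ hδ
    have h1 := hl n i
    have h2 : |l n i - f i ^ 2| ≤ |l n i| + f i ^ 2 := by
      refine (abs_sub _ _).trans ?_
      rw [abs_of_nonneg (sq_nonneg (f i))]
    have h3 : f i * (o n i - f i) ≤ δ * f i ^ 2 + δ⁻¹ * (o n i - f i) ^ 2 := by
      have h4 : 0 ≤ δ⁻¹ * (δ * f i - (o n i - f i)) ^ 2 := by positivity
      have h5 : δ⁻¹ * (δ * f i - (o n i - f i)) ^ 2 =
          δ * f i ^ 2 - 2 * (f i * (o n i - f i)) + δ⁻¹ * (o n i - f i) ^ 2 := by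
        field_simp
        ring
      have h6 : 0 ≤ δ * f i ^ 2 + δ⁻¹ * (o n i - f i) ^ 2 := by positivity
      by_cases h7 : f i * (o n i - f i) ≤ 0
      · linarith
      · push Not at h7
        linarith
    nlinarith
  have key : ∀ ε > 0, ∃ F : Finset ι, ∀ n, ∀ δ > 0, |(∑' i, l n i) - ∑' i, f i ^ 2| ≤
      ε + ∑ i ∈ F, |l n i - f i ^ 2| + (δ * (∑' i, f i ^ 2) + δ⁻¹ * ∑' i, (o n i - f i) ^ 2) := by
    intro ε hε
    have h1 := tendsto_tsum_compl_atTop_zero (fun i => f i ^ 2)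
    obtain ⟨F, hF⟩ := (h1.eventually (gt_mem_nhds (half_pos hε))).exists
    refine ⟨F, fun n δ hδ => ?_⟩
    rw [← (hls n).tsum_sub hfs]
    have h2 := norm_tsum_le_tsum_norm (f := fun i => l n i - f i ^ 2)
      (by simpa [Real.norm_eq_abs] using hds n)
    simp only [Real.norm_eq_abs] at h2
    refine h2.trans ?_
    rw [← (hds n).sum_add_tsum_subtype_compl F]
    have hg : Summable fun i => 2 * f i ^ 2 + (δ * f i ^ 2 + δ⁻¹ * (o n i - f i) ^ 2) :=
      (hfs.mul_left 2).add ((hfs.mul_left δ).add ((hd n).mul_left δ⁻¹))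
    have h3 : ∑' i : {x // x ∉ F}, |l n i - f i ^ 2| ≤
        2 * (∑' i : {x // x ∉ F}, f i ^ 2) +
          (δ * (∑' i, f i ^ 2) + δ⁻¹ * ∑' i, (o n i - f i) ^ 2) := by
      refine ((hds n).subtype _).tsum_le_tsum (g := fun i : {x // x ∉ F} =>
        2 * f i ^ 2 + (δ * f i ^ 2 + δ⁻¹ * (o n i - f i) ^ 2)) (fun i => hpt n i δ hδ)
        (hg.subtype _) |>.trans ?_
      have e1 : Summable fun i : {x // x ∉ F} => f i ^ 2 := hfs.subtype _
      have e2 : Summable fun i : {x // x ∉ F} => (o n i - f i) ^ 2 := (hd n).subtype _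
      rw [(e1.mul_left 2).tsum_add ((e1.mul_left δ).add (e2.mul_left δ⁻¹)),
        (e1.mul_left δ).tsum_add (e2.mul_left δ⁻¹), tsum_mul_left, tsum_mul_left, tsum_mul_left]
      have e3 : ∑' i : {x // x ∉ F}, f i ^ 2 ≤ ∑' i, f i ^ 2 :=
        hfs.tsum_subtype_le _ _ (fun i => sq_nonneg _)
      have e4 : ∑' i : {x // x ∉ F}, (o n i - f i) ^ 2 ≤ ∑' i, (o n i - f i) ^ 2 :=
        (hd n).tsum_subtype_le _ _ (fun i => sq_nonneg _)
      have e5 := mul_le_mul_of_nonneg_left e3 hδ.le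
      have e6 := mul_le_mul_of_nonneg_left e4 (inv_nonneg.2 hδ.le)
      linarith
    have h4 : ∑' i : {x // x ∉ F}, f i ^ 2 < ε / 2 := hF
    linarith
  rw [Metric.tendsto_atTop]
  intro ε hε
  obtain ⟨F, hF⟩ := key (ε / 4) (by linarith)
  set A := ∑' i, f i ^ 2 with hA
  have hA0 : 0 ≤ A := tsum_nonneg fun i => sq_nonneg _
  set δ := ε / (4 * (A + 1)) with hδ
  have hδ0 : 0 < δ := by positivity
  have h1 : δ * A ≤ ε / 4 := by
    rw [hδ, div_mul_eq_mul_div, div_le_div_iff₀ (by positivity) (by norm_num)]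
    nlinarith
  have h2 : Tendsto (fun n => ∑ i ∈ F, |l n i - f i ^ 2|) atTop (𝓝 0) := by
    have : Tendsto (fun n => ∑ i ∈ F, |l n i - f i ^ 2|) atTop (𝓝 (∑ i ∈ F, |f i ^ 2 - f i ^ 2|)) :=
      tendsto_finsetSum _ fun i _ => ((hl' i).sub_const _).abs
    simpa using this
  have h3 : ∀ᶠ n in atTop, ∑' i, (o n i - f i) ^ 2 < δ * (ε / 4) :=
    hlim.eventually (gt_mem_nhds (by positivity))
  have h4 : ∀ᶠ n in atTop, ∑ i ∈ F, |l n i - f i ^ 2| < ε / 4 :=
    h2.eventually (gt_mem_nhds (by positivity))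
  obtain ⟨N, hN⟩ := (h3.and h4).exists_forall_of_atTop
  refine ⟨N, fun n hn => ?_⟩
  obtain ⟨h5, h6⟩ := hN n hn
  rw [Real.dist_eq]
  have h7 := hF n δ hδ0
  have h8 : δ⁻¹ * ∑' i, (o n i - f i) ^ 2 < ε / 4 := by
    rw [inv_mul_lt_iff₀ hδ0]; exact h5
  linarith

/-- convergence of the products of two vector fields -/
theorem tendsto_pair {W : Set (ℝ × ℝ)} {u1 u2 v1 v2 : ℝ × ℝ → ℝ} {g1 g2 : ℕ → ℝ × ℝ → ℝ}
    (hu1 : MemLp u1 2 (volume.restrict W)) (hu2 : MemLp u2 2 (volume.restrict W))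
    (hv1 : MemLp v1 2 (volume.restrict W)) (hv2 : MemLp v2 2 (volume.restrict W))
    (hg1 : ∀ n, MemLp (g1 n) 2 (volume.restrict W)) (hg2 : ∀ n, MemLp (g2 n) 2 (volume.restrict W))
    (h : Tendsto (fun n => ∫ p in W, ((g1 n p - v1 p) ^ 2 + (g2 n p - v2 p) ^ 2)) atTop (𝓝 0)) :
    Tendsto (fun n => ∫ p in W, (u1 p * g1 n p + u2 p * g2 n p)) atTop
      (𝓝 (∫ p in W, (u1 p * v1 p + u2 p * v2 p))) := by
  rw [tendsto_iff_norm_sub_tendsto_zero]
  refine tendsto_zero_of_le (A := ∫ p in W, (u1 p ^ 2 + u2 p ^ 2)) (fun n => norm_nonneg _)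
    (integral_nonneg fun p => by positivity) (fun n δ hδ => ?_) h
  have i1 : Integrable (fun p => u1 p * g1 n p + u2 p * g2 n p) (volume.restrict W) :=
    (hu1.integrable_mul (hg1 n)).add (hu2.integrable_mul (hg2 n))
  have i2 : Integrable (fun p => u1 p * v1 p + u2 p * v2 p) (volume.restrict W) :=
    (hu1.integrable_mul hv1).add (hu2.integrable_mul hv2)
  have i3 : Integrable (fun p => u1 p ^ 2 + u2 p ^ 2) (volume.restrict W) :=
    hu1.integrable_sq.add hu2.integrable_sq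
  have i4 : Integrable (fun p => (g1 n p - v1 p) ^ 2 + (g2 n p - v2 p) ^ 2) (volume.restrict W) :=
    ((hg1 n).sub hv1).integrable_sq.add ((hg2 n).sub hv2).integrable_sq
  rw [← integral_sub i1 i2]
  refine (norm_integral_le_integral_norm _).trans ?_
  rw [← integral_const_mul, ← integral_const_mul, ← integral_add (i3.const_mul δ) (i4.const_mul δ⁻¹)]
  refine integral_mono (i1.sub i2).norm ((i3.const_mul δ).add (i4.const_mul δ⁻¹)) fun p => ?_
  have hq : ∀ s t : ℝ, |s * t| ≤ δ * s ^ 2 + δ⁻¹ * t ^ 2 := by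
    intro s t
    have h1 : 0 ≤ δ⁻¹ * (δ * s - t) ^ 2 := by positivity
    have h2 : 0 ≤ δ⁻¹ * (δ * s + t) ^ 2 := by positivity
    have h3 : δ⁻¹ * (δ * s - t) ^ 2 = δ * s ^ 2 - 2 * (s * t) + δ⁻¹ * t ^ 2 := by
      field_simp
      ring
    have h4 : δ⁻¹ * (δ * s + t) ^ 2 = δ * s ^ 2 + 2 * (s * t) + δ⁻¹ * t ^ 2 := by
      field_simp
      ring
    have h5 : 0 ≤ δ * s ^ 2 + δ⁻¹ * t ^ 2 := by positivity
    rw [abs_le]
    constructor <;> linarith
  have e1 := hq (u1 p) (g1 n p - v1 p)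
  have e2 := hq (u2 p) (g2 n p - v2 p)
  have e3 : u1 p * g1 n p + u2 p * g2 n p - (u1 p * v1 p + u2 p * v2 p) =
      u1 p * (g1 n p - v1 p) + u2 p * (g2 n p - v2 p) := by ring
  show ‖u1 p * g1 n p + u2 p * g2 n p - (u1 p * v1 p + u2 p * v2 p)‖ ≤
    δ * (u1 p ^ 2 + u2 p ^ 2) + δ⁻¹ * ((g1 n p - v1 p) ^ 2 + (g2 n p - v2 p) ^ 2)
  rw [e3, Real.norm_eq_abs]
  refine (abs_add_le _ _).trans ?_
  linarith

variable {X1 X2 : ℝ × ℝ → ℝ} {f : ι → ℝ} {νp νm : ι → Measure (ℝ × ℝ)} {μ : Measure (ℝ × ℝ)}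

/-- the functional of one charged set is bounded by `f i * osc` -/
theorem HalfQ.abs_charge_le (H : QQ 𝓗 a b c B Q) (h : HalfQ 𝓗 a b c B S Q C X1 X2 f νp νm μ)
    (he : e ∈ Vq 𝓗 a b c B Q) (i : ι) :
    |(∫ p, e p ∂(νp i)) - ∫ p, e p ∂(νm i)| ≤ f i * osc (Q i ∩ Wl a b c B) e := by
  have := h.pfin i
  have := h.mfin i
  set T := Q i ∩ Wl a b c B with hT
  rcases T.eq_empty_or_nonempty with hE | ⟨q, hq⟩
  · have h1 : νp i = 0 := by
      rw [← Measure.measure_univ_eq_zero, ← compl_empty, ← hE]; exact h.pc i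
    have h2 : νm i = 0 := by
      rw [← Measure.measure_univ_eq_zero, ← compl_empty, ← hE]; exact h.mc i
    rw [h1, h2]
    simpa using mul_nonneg (h.f0 i) (osc_nonneg _ _)
  · have hTm : MeasurableSet T := (H.cpt i).isClosed.measurableSet
    obtain ⟨M, hM⟩ := H.bo he i
    have main : ∀ ν : Measure (ℝ × ℝ), IsFiniteMeasure ν → ν Tᶜ = 0 → ν.real univ = f i →
        Integrable e ν ∧ (sInf (e '' T)) * f i ≤ ∫ p, e p ∂ν ∧ ∫ p, e p ∂ν ≤ (sSup (e '' T)) * f i := by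
      intro ν hν hc hm
      have hae : ∀ᵐ p ∂ν, p ∈ T := by rw [ae_iff]; exact hc
      have hres : ν.restrict T = ν := Measure.restrict_eq_self_of_ae_mem hae
      have hmeas : AEStronglyMeasurable e ν := by
        rw [← hres]; exact (he.2 i).aestronglyMeasurable hTm
      have hint : Integrable e ν := Integrable.of_bound hmeas M (by
        filter_upwards [hae] with p hp using by simpa using hM p hp)
      have hbb : BddBelow (e '' T) := ⟨-M, by
        rintro _ ⟨p, hp, rfl⟩; exact (abs_le.1 (hM p hp)).1⟩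
      have hba : BddAbove (e '' T) := ⟨M, by
        rintro _ ⟨p, hp, rfl⟩; exact (abs_le.1 (hM p hp)).2⟩
      have hcst : ∀ r : ℝ, ∫ _, r ∂ν = r * f i := fun r => by
        rw [integral_const, hm, smul_eq_mul, mul_comm]
      refine ⟨hint, ?_, ?_⟩
      · rw [← hcst]
        refine integral_mono_ae (integrable_const _) hint ?_
        filter_upwards [hae] with p hp using csInf_le hbb ⟨p, hp, rfl⟩
      · rw [← hcst]
        refine integral_mono_ae hint (integrable_const _) ?_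
        filter_upwards [hae] with p hp using le_csSup hba ⟨p, hp, rfl⟩
    obtain ⟨-, p1, p2⟩ := main (νp i) ‹_› (h.pc i) (h.pm i)
    obtain ⟨-, q1, q2⟩ := main (νm i) ‹_› (h.mc i) (h.mm i)
    have hos : sSup (e '' T) - sInf (e '' T) ≤ osc T e := by
      have hne : (e '' T).Nonempty := ⟨_, q, hq, rfl⟩
      have h1 : ∀ s ∈ e '' T, s ≤ sInf (e '' T) + osc T e := by
        rintro _ ⟨p, hp, rfl⟩
        have h2 : e p - osc T e ≤ sInf (e '' T) := by
          refine le_csInf hne ?_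
          rintro _ ⟨p', hp', rfl⟩
          have := (abs_le.1 (le_osc (H.bo he i) hp hp')).2
          linarith
        linarith
      have := csSup_le hne h1
      linarith
    have h4 := mul_le_mul_of_nonneg_left hos (h.f0 i)
    rw [abs_le]
    constructor <;> nlinarith

theorem HalfQ.charge_summable (H : QQ 𝓗 a b c B Q) (h : HalfQ 𝓗 a b c B S Q C X1 X2 f νp νm μ)
    (he : e ∈ Vq 𝓗 a b c B Q) :
    Summable fun i => (∫ p, e p ∂(νp i)) - ∫ p, e p ∂(νm i) := by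
  refine Summable.of_norm_bounded ((h.fs.add (H.summable he)).mul_left (1 / 2)) fun i => ?_
  rw [Real.norm_eq_abs]
  refine (h.abs_charge_le H he i).trans ?_
  nlinarith [sq_nonneg (f i - osc (Q i ∩ Wl a b c B) e)]

/-- **Thomson's principle on one half**: a flow `(X', l')` with the same boundary functional,
`|l' i e| ≤ f' i * osc (Q i) e`, satisfies `⟨X', X⟩ + Σ f' f ≥ |X|² + Σ f²`. -/
theorem HalfQ.thomson (H : QQ 𝓗 a b c B Q) (hS : MeasurableSet S)
    (h : HalfQ 𝓗 a b c B S Q C X1 X2 f νp νm μ)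
    {X1' X2' : ℝ × ℝ → ℝ} (hX1 : MemLp X1' 2 (volume.restrict (Wo a b c B \ S)))
    (hX2 : MemLp X2' 2 (volume.restrict (Wo a b c B \ S)))
    {f' : ι → ℝ} (hf' : ∀ i, 0 ≤ f' i) (hfs' : Summable fun i => f' i ^ 2)
    (l' : ι → (ℝ × ℝ → ℝ) → ℝ)
    (hl' : ∀ i, ∀ e ∈ Vq 𝓗 a b c B Q, |l' i e| ≤ f' i * osc (Q i ∩ Wl a b c B) e)
    (hF : ∀ e ∈ Vq 𝓗 a b c B Q,
      (∫ p in Wo a b c B \ S, (X1' p * gx e p + X2' p * gy e p)) + ∑' i, l' i e =
      (∫ p in Wo a b c B \ S, (X1 p * gx e p + X2 p * gy e p)) +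
        ∑' i, ((∫ p, e p ∂(νp i)) - ∫ p, e p ∂(νm i))) :
    (∫ p in Wo a b c B \ S, (X1 p * X1 p + X2 p * X2 p)) + ∑' i, f i ^ 2 ≤
      (∫ p in Wo a b c B \ S, (X1' p * X1 p + X2' p * X2 p)) + ∑' i, f' i * f i := by
  obtain ⟨E, hE, hE1, hE2, hE3⟩ := h.cl
  have hg1 : ∀ n, MemLp (gx (E n)) 2 (volume.restrict (Wo a b c B \ S)) := fun n => by
    have := memLp_x hS (hE n).1.1
    rwa [memLp_indicator_iff_restrict (measurableSet_WS hS)] at this
  have hg2 : ∀ n, MemLp (gy (E n)) 2 (volume.restrict (Wo a b c B \ S)) := fun n => by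
    have := memLp_y hS (hE n).1.1
    rwa [memLp_indicator_iff_restrict (measurableSet_WS hS)] at this
  have hv1 := h.L1.restrict (Wo a b c B \ S)
  have hv2 := h.L2.restrict (Wo a b c B \ S)
  have t1 := tendsto_pair hX1 hX2 hv1 hv2 hg1 hg2 hE1
  have t2 := tendsto_pair hv1 hv2 hv1 hv2 hg1 hg2 hE1
  have t3 := tendsto_tsum_slack h.f0 h.fs (fun n => H.summable (hE n)) hE2
    (fun n i => h.abs_charge_le H (hE n) i) hE3
  have hfo : ∀ n, Summable fun i => f' i * osc (Q i ∩ Wl a b c B) (E n) := fun n => by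
    refine Summable.of_norm_bounded ((hfs'.add (H.summable (hE n))).mul_left (1 / 2)) fun i => ?_
    rw [Real.norm_eq_abs, abs_of_nonneg (mul_nonneg (hf' i) (osc_nonneg _ _))]
    nlinarith [sq_nonneg (f' i - osc (Q i ∩ Wl a b c B) (E n))]
  have hff : Summable fun i => f' i * f i := by
    refine Summable.of_norm_bounded ((hfs'.add h.fs).mul_left (1 / 2)) fun i => ?_
    rw [Real.norm_eq_abs, abs_of_nonneg (mul_nonneg (hf' i) (h.f0 i))]
    nlinarith [sq_nonneg (f' i - f i)]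
  have hd : ∀ n, Summable fun i => (osc (Q i ∩ Wl a b c B) (E n) - f i) ^ 2 := fun n => by
    refine Summable.of_nonneg_of_le (fun i => sq_nonneg _) (fun i => ?_)
      ((h.fs.add (H.summable (hE n))).mul_left 2)
    nlinarith [sq_nonneg (f i + osc (Q i ∩ Wl a b c B) (E n))]
  have t4 : Tendsto (fun n => ∑' i, f' i * osc (Q i ∩ Wl a b c B) (E n)) atTop
      (𝓝 (∑' i, f' i * f i)) := by
    rw [tendsto_iff_norm_sub_tendsto_zero]
    refine tendsto_zero_of_le (A := ∑' i, f' i ^ 2) (fun n => norm_nonneg _)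
      (tsum_nonneg fun i => sq_nonneg _) (fun n δ hδ => ?_) hE2
    rw [← (hfo n).tsum_sub hff]
    have hq : ∀ s t : ℝ, |s * t| ≤ δ * s ^ 2 + δ⁻¹ * t ^ 2 := by
      intro s t
      have h1 : 0 ≤ δ⁻¹ * (δ * s - t) ^ 2 := by positivity
      have h2 : 0 ≤ δ⁻¹ * (δ * s + t) ^ 2 := by positivity
      have h3 : δ⁻¹ * (δ * s - t) ^ 2 = δ * s ^ 2 - 2 * (s * t) + δ⁻¹ * t ^ 2 := by
        field_simp
        ring
      have h4 : δ⁻¹ * (δ * s + t) ^ 2 = δ * s ^ 2 + 2 * (s * t) + δ⁻¹ * t ^ 2 := by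
        field_simp
        ring
      have h5 : 0 ≤ δ * s ^ 2 + δ⁻¹ * t ^ 2 := by positivity
      rw [abs_le]
      constructor <;> linarith
    have h1 := norm_tsum_le_tsum_norm (f := fun i => f' i * osc (Q i ∩ Wl a b c B) (E n) - f' i * f i)
      (by simpa [Real.norm_eq_abs] using ((hfo n).sub hff).abs)
    refine h1.trans ?_
    rw [← tsum_mul_left, ← tsum_mul_left, ← (hfs'.mul_left δ).tsum_add ((hd n).mul_left δ⁻¹)]
    refine (((hfo n).sub hff).norm).tsum_le_tsum (fun i => ?_)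
      ((hfs'.mul_left δ).add ((hd n).mul_left δ⁻¹))
    rw [Real.norm_eq_abs, ← mul_sub]
    exact hq _ _
  refine le_of_tendsto_of_tendsto' (t2.add t3) (t1.add t4) fun n => ?_
  rw [← hF _ (hE n)]
  have h5 : ∑' i, l' i (E n) ≤ ∑' i, f' i * osc (Q i ∩ Wl a b c B) (E n) := by
    have hs : Summable fun i => l' i (E n) := Summable.of_norm_bounded (hfo n) fun i => by
      rw [Real.norm_eq_abs]; exact hl' i _ (hE n)
    exact hs.tsum_le_tsum (fun i => (le_abs_self _).trans (hl' i _ (hE n))) (hfo n)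
  linarith

end Crest.Agent.R105.Knq_247
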