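/-
# Row 105, S0138 (T-frame), lemma A with exact squares, part 5: the pair problem; helper247

Two halves with independent data; `R` = compact relation between points of the lower and of the
upper half (in applications the upper half is reflected and `R` = pairs in the same component).
-/
import Crest.Agent.R105.Knq4_247

set_option autoImplicit false

open Set Filter MeasureTheory Topology
open scoped ENNReal NNReal InnerProductSpace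

namespace Crest.Agent.R105.Knq_247

open CF_363 Kin_238 Kkt_238
open Kks_247 (Lc)

variable {ι ι' : Type*} {a b c B a' b' c' B' : ℝ} {𝓗 𝓗' : Set Hair} {Q : ι → Set (ℝ × ℝ)}
  {Q' : ι' → Set (ℝ × ℝ)} {S S' : Set (ℝ × ℝ)} {R R0 : Set ((ℝ × ℝ) × (ℝ × ℝ))}
  {e e' : ℝ × ℝ → ℝ}

/-- two-sided nullness of the relation `R` -/
def Null2 (𝓗 : Set Hair) (a b c B : ℝ) (S : Set (ℝ × ℝ)) (Q : ι → Set (ℝ × ℝ))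
    (𝓗' : Set Hair) (a' b' c' B' : ℝ) (S' : Set (ℝ × ℝ)) (Q' : ι' → Set (ℝ × ℝ))
    (R : Set ((ℝ × ℝ) × (ℝ × ℝ))) : Prop :=
  ∀ ε > 0, ∃ e ∈ Vq 𝓗 a b c B Q, ∃ e' ∈ Vq 𝓗' a' b' c' B' Q',
    EQ a b c B S Q e + EQ a' b' c' B' S' Q' e' < ε ∧
    ∀ q ∈ R, ∀ σ σ' : Bool, 1 ≤ tr e σ q.1.1 q.1.2 + tr e' σ' q.2.1 q.2.2

/-- the flow of the pair problem -/
structure FlowQ (𝓗 : Set Hair) (a b c B : ℝ) (S : Set (ℝ × ℝ)) (Q : ι → Set (ℝ × ℝ))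
    (𝓗' : Set Hair) (a' b' c' B' : ℝ) (S' : Set (ℝ × ℝ)) (Q' : ι' → Set (ℝ × ℝ))
    (R : Set ((ℝ × ℝ) × (ℝ × ℝ))) (m : ℝ)
    (X1 X2 : ℝ × ℝ → ℝ) (f : ι → ℝ) (νp νm : ι → Measure (ℝ × ℝ))
    (Y1 Y2 : ℝ × ℝ → ℝ) (f' : ι' → ℝ) (νp' νm' : ι' → Measure (ℝ × ℝ))
    (Λ : Measure ((ℝ × ℝ) × (ℝ × ℝ))) : Prop where
  lo : HalfQ 𝓗 a b c B S Q (Prod.fst '' R) X1 X2 f νp νm (Λ.map Prod.fst)
  up : HalfQ 𝓗' a' b' c' B' S' Q' (Prod.snd '' R) Y1 Y2 f' νp' νm' (Λ.map Prod.snd)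
  fin : IsFiniteMeasure Λ
  carried : Λ Rᶜ = 0
  mass : Λ.real univ = m
  energy : (((∫ p, X1 p ^ 2) + ∫ p, X2 p ^ 2) + ∑' i, f i ^ 2) +
    (((∫ p, Y1 p ^ 2) + ∫ p, Y2 p ^ 2) + ∑' i, f' i ^ 2) = m
  /-- null parts of the relation carry no mass -/
  noatom : ∀ R0 ⊆ R, Null2 𝓗 a b c B S Q 𝓗' a' b' c' B' S' Q' R0 → Λ R0 = 0

/-! ### the linear maps -/

/-- gradients of a pair -/
noncomputable def D2 (𝓗 : Set Hair) (a b c B : ℝ) (Q : ι → Set (ℝ × ℝ)) (hS : MeasurableSet S)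
    (𝓗' : Set Hair) (a' b' c' B' : ℝ) (Q' : ι' → Set (ℝ × ℝ)) (hS' : MeasurableSet S') :
    (Vq 𝓗 a b c B Q × Vq 𝓗' a' b' c' B' Q') →ₗ[ℝ] HH where
  toFun z := WithLp.toLp 2 ![grS 𝓗 a b c B hS (inc 𝓗 a b c B Q z.1),
    grS 𝓗' a' b' c' B' hS' (inc 𝓗' a' b' c' B' Q' z.2)]
  map_add' := by
    intro z w
    ext i : 1
    fin_cases i
    · exact map_add (grS 𝓗 a b c B hS ∘ₗ inc 𝓗 a b c B Q) z.1 w.1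
    · exact map_add (grS 𝓗' a' b' c' B' hS' ∘ₗ inc 𝓗' a' b' c' B' Q') z.2 w.2
  map_smul' := by
    intro t z
    ext i : 1
    fin_cases i
    · exact map_smul (grS 𝓗 a b c B hS ∘ₗ inc 𝓗 a b c B Q) t z.1
    · exact map_smul (grS 𝓗' a' b' c' B' hS' ∘ₗ inc 𝓗' a' b' c' B' Q') t z.2

variable {hS : MeasurableSet S} {hS' : MeasurableSet S'}

theorem inner_D2 (X : HH) (z : Vq 𝓗 a b c B Q × Vq 𝓗' a' b' c' B' Q') :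
    ⟪X, D2 𝓗 a b c B Q hS 𝓗' a' b' c' B' Q' hS' z⟫_ℝ =
      ⟪X 0, grS 𝓗 a b c B hS (inc 𝓗 a b c B Q z.1)⟫_ℝ +
      ⟪X 1, grS 𝓗' a' b' c' B' hS' (inc 𝓗' a' b' c' B' Q' z.2)⟫_ℝ := by
  rw [PiLp.inner_apply, Fin.sum_univ_two]
  rfl

theorem norm_D2_sq (z : Vq 𝓗 a b c B Q × Vq 𝓗' a' b' c' B' Q') :
    ‖D2 𝓗 a b c B Q hS 𝓗' a' b' c' B' Q' hS' z‖ ^ 2 =
      En (Wo a b c B \ S) z.1 + En (Wo a' b' c' B' \ S') z.2 := by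
  rw [norm_HH_sq, ← inc_coe z.1, ← inc_coe z.2, ← norm_grS_sq (hS := hS),
    ← norm_grS_sq (hS := hS')]
  rfl

/-- charges of a pair -/
noncomputable def lam2 (H : QQ 𝓗 a b c B Q) (H' : QQ 𝓗' a' b' c' B' Q') :
    ι ⊕ ι' → Seminorm ℝ (Vq 𝓗 a b c B Q × Vq 𝓗' a' b' c' B' Q') :=
  Sum.elim (fun i => (lamQ H i).comp (LinearMap.fst ℝ _ _))
    (fun i => (lamQ H' i).comp (LinearMap.snd ℝ _ _))

theorem lam2_inl (H : QQ 𝓗 a b c B Q) (H' : QQ 𝓗' a' b' c' B' Q') (i : ι)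
    (z : Vq 𝓗 a b c B Q × Vq 𝓗' a' b' c' B' Q') :
    lam2 H H' (Sum.inl i) z = osc (Q i ∩ Wl a b c B) z.1 := rfl

theorem lam2_inr (H : QQ 𝓗 a b c B Q) (H' : QQ 𝓗' a' b' c' B' Q') (i : ι')
    (z : Vq 𝓗 a b c B Q × Vq 𝓗' a' b' c' B' Q') :
    lam2 H H' (Sum.inr i) z = osc (Q' i ∩ Wl a' b' c' B') z.2 := rfl

theorem summable_lam2 (H : QQ 𝓗 a b c B Q) (H' : QQ 𝓗' a' b' c' B' Q')
    (z : Vq 𝓗 a b c B Q × Vq 𝓗' a' b' c' B' Q') : Summable fun k => (lam2 H H' k z) ^ 2 :=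
  Summable.sum _ (H.summable z.1.2) (H'.summable z.2.2)

theorem tsum_lam2 (H : QQ 𝓗 a b c B Q) (H' : QQ 𝓗' a' b' c' B' Q')
    (z : Vq 𝓗 a b c B Q × Vq 𝓗' a' b' c' B' Q') :
    ∑' k, (lam2 H H' k z) ^ 2 = ∑' i, osc (Q i ∩ Wl a b c B) z.1 ^ 2 +
      ∑' i, osc (Q' i ∩ Wl a' b' c' B') z.2 ^ 2 :=
  Summable.tsum_sum (f := fun k => (lam2 H H' k z) ^ 2) (H.summable z.1.2) (H'.summable z.2.2)

theorem En2_eq (H : QQ 𝓗 a b c B Q) (H' : QQ 𝓗' a' b' c' B' Q')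
    (z : Vq 𝓗 a b c B Q × Vq 𝓗' a' b' c' B' Q') :
    Kks_247.En (D2 𝓗 a b c B Q hS 𝓗' a' b' c' B' Q' hS') (lam2 H H') z =
      EQ a b c B S Q z.1 + EQ a' b' c' B' S' Q' z.2 := by
  unfold Kks_247.En
  rw [norm_D2_sq, tsum_lam2]
  unfold EQ
  ring

/-- traces of a pair -/
noncomputable def A2 (𝓗 : Set Hair) (a b c B : ℝ) (Q : ι → Set (ℝ × ℝ))
    (𝓗' : Set Hair) (a' b' c' B' : ℝ) (Q' : ι' → Set (ℝ × ℝ))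
    (hRW : ∀ q ∈ R, q.1 ∈ Wl a b c B ∧ q.2 ∈ Wl a' b' c' B') :
    (Vq 𝓗 a b c B Q × Vq 𝓗' a' b' c' B' Q') →ₗ[ℝ] (R × Bool × Bool → ℝ) :=
  (trL 𝓗 a b c B Q (fun q : R × Bool × Bool => (q.1 : (ℝ × ℝ) × (ℝ × ℝ)).1) (fun q => q.2.1)
      (fun q => (hRW _ q.1.2).1)) ∘ₗ LinearMap.fst ℝ _ _ +
    (trL 𝓗' a' b' c' B' Q' (fun q : R × Bool × Bool => (q.1 : (ℝ × ℝ) × (ℝ × ℝ)).2)
      (fun q => q.2.2) (fun q => (hRW _ q.1.2).2)) ∘ₗ LinearMap.snd ℝ _ _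

theorem A2_apply (hRW : ∀ q ∈ R, q.1 ∈ Wl a b c B ∧ q.2 ∈ Wl a' b' c' B')
    (z : Vq 𝓗 a b c B Q × Vq 𝓗' a' b' c' B' Q') (q : R × Bool × Bool) :
    A2 𝓗 a b c B Q 𝓗' a' b' c' B' Q' hRW z q =
      tr z.1 q.2.1 (q.1 : (ℝ × ℝ) × (ℝ × ℝ)).1.1 (q.1 : (ℝ × ℝ) × (ℝ × ℝ)).1.2 +
      tr z.2 q.2.2 (q.1 : (ℝ × ℝ) × (ℝ × ℝ)).2.1 (q.1 : (ℝ × ℝ) × (ℝ × ℝ)).2.2 := rfl

theorem bd_A2 (hRW : ∀ q ∈ R, q.1 ∈ Wl a b c B ∧ q.2 ∈ Wl a' b' c' B')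
    (z : Vq 𝓗 a b c B Q × Vq 𝓗' a' b' c' B' Q') :
    Bd (A2 𝓗 a b c B Q 𝓗' a' b' c' B' Q' hRW z) :=
  (bd_trL _ _ (fun q : R × Bool × Bool => (hRW _ q.1.2).1) z.1).add
    (bd_trL _ _ (fun q : R × Bool × Bool => (hRW _ q.1.2).2) z.2)

theorem feas2 (hR : IsCompact R) (hRW : ∀ q ∈ R, q.1 ∈ Wl a b c B ∧ q.2 ∈ Wl a' b' c' B') :
    (Feas (A2 𝓗 a b c B Q 𝓗' a' b' c' B' Q' hRW)).Nonempty := by
  obtain ⟨δ, hδ, hlow⟩ := exists_low (C := Prod.fst '' R) (a := a) (b := b) (c := c) (B := B)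
    (hR.image continuous_fst) (by rintro _ ⟨q, hq, rfl⟩; exact (hRW q hq).1)
  obtain ⟨e, he, h1⟩ := exists_bottomQ 𝓗 a b c B Q hδ
  refine ⟨(⟨e, he⟩, 0), fun q => ?_⟩
  rw [A2_apply]
  have hq := (hRW _ q.1.2).1
  have h2 : tr ((0 : Vq 𝓗' a' b' c' B' Q') : ℝ × ℝ → ℝ) q.2.2 (q.1 : (ℝ × ℝ) × (ℝ × ℝ)).2.1
      (q.1 : (ℝ × ℝ) × (ℝ × ℝ)).2.2 = 0 := tr_zero _ _ _
  rw [h2, add_zero]
  rw [h1 q.2.1 _ _ hq.1 (hlow _ ⟨_, q.1.2, rfl⟩) hq.2.2]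

/-! ### local comparison -/

theorem exists_open_near (hRW : ∀ q ∈ R0, q.1 ∈ Wl a b c B ∧ q.2 ∈ Wl a' b' c' B')
    (he : CFJ 𝓗 (Wl a b c B) e) (he' : CFJ 𝓗' (Wl a' b' c' B') e')
    (h1 : ∀ q ∈ R0, ∀ σ σ' : Bool, 1 ≤ tr e σ q.1.1 q.1.2 + tr e' σ' q.2.1 q.2.2) :
    ∃ U : Set ((ℝ × ℝ) × (ℝ × ℝ)), IsOpen U ∧ R0 ⊆ U ∧
      ∀ q ∈ U, q.1 ∈ Wl a b c B → q.2 ∈ Wl a' b' c' B' → ∀ σ σ' : Bool,
        1 / 2 ≤ tr e σ q.1.1 q.1.2 + tr e' σ' q.2.1 q.2.2 := by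
  have key : ∀ q₀ : R0, ∃ r > 0, ∀ q ∈ Metric.ball (q₀ : (ℝ × ℝ) × (ℝ × ℝ)) r,
      q.1 ∈ Wl a b c B → q.2 ∈ Wl a' b' c' B' → ∀ σ σ' : Bool,
        1 / 2 ≤ tr e σ q.1.1 q.1.2 + tr e' σ' q.2.1 q.2.2 := by
    intro q₀
    obtain ⟨r, hr, h2⟩ := tr_near he (hRW _ q₀.2).1 (η := 1 / 4) (by norm_num)
    obtain ⟨r', hr', h3⟩ := tr_near he' (hRW _ q₀.2).2 (η := 1 / 4) (by norm_num)
    refine ⟨min r r', lt_min hr hr', fun q hq hq1 hq2 σ σ' => ?_⟩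
    rw [Metric.mem_ball, Prod.dist_eq] at hq
    have hd1 : dist q.1 (q₀ : (ℝ × ℝ) × (ℝ × ℝ)).1 < r :=
      (le_max_left _ _).trans_lt (hq.trans_le (min_le_left _ _))
    have hd2 : dist q.2 (q₀ : (ℝ × ℝ) × (ℝ × ℝ)).2 < r' :=
      (le_max_right _ _).trans_lt (hq.trans_le (min_le_right _ _))
    obtain ⟨σ₀, h4⟩ := h2 _ hq1 hd1 σ
    obtain ⟨σ₁, h5⟩ := h3 _ hq2 hd2 σ'
    have h6 := h1 _ q₀.2 σ₀ σ₁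
    have h7 := (abs_le.1 h4).1
    have h8 := (abs_le.1 h5).1
    linarith
  choose r hr hball using key
  refine ⟨⋃ q₀ : R0, Metric.ball (q₀ : (ℝ × ℝ) × (ℝ × ℝ)) (r q₀),
    isOpen_iUnion fun q₀ => Metric.isOpen_ball, fun q hq => ?_, fun q hq => ?_⟩
  · exact mem_iUnion.2 ⟨⟨q, hq⟩, Metric.mem_ball_self (hr _)⟩
  · obtain ⟨q₀, hq₀⟩ := mem_iUnion.1 hq
    exact hball q₀ q hq₀

end Crest.Agent.R105.Knq_247
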