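import Crest.Agent.R105.Lay1_925
import Crest.Agent.R105.Thin5_891
import Crest.Agent.R105.Stp1_722

/-!
# Row 105 (S0138, picture half with solids): layers, class-free form

`K` is any compact set in a proper metric space (its components are hairs, points, solids, ...),
`G ⊆ K` compact and saturated.  `SCls K` is a class of competitors with an energy which is local
with respect to thin neighbourhoods of clopen pieces of `K`.
-/

set_option autoImplicit false
set_option linter.unusedSectionVars false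

noncomputable section

namespace Crest.Agent.R105.Laq1_744

open Set Filter Topology Metric
open Stp_722 Thin_891

/-! ### thin neighbourhoods -/

/-- a thin neighbourhood (of a clopen piece of `K`) -/
structure Nb {X : Type*} [TopologicalSpace X] (K N : Set X) : Prop where
  opn : IsOpen N
  cpt : IsCompact (closure N)
  sat : ∀ x ∈ K, x ∈ closure N → connectedComponentIn K x ⊆ N

theorem Nb.inter_closure {X : Type*} [TopologicalSpace X] {K N : Set X} (h : Nb K N) :
    K ∩ closure N = K ∩ N := by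
  ext x
  constructor
  · rintro ⟨hx, hxc⟩
    exact ⟨hx, h.sat x hx hxc (mem_connectedComponentIn hx)⟩
  · rintro ⟨hx, hxN⟩
    exact ⟨hx, subset_closure hxN⟩

theorem Nb.cases {X : Type*} [TopologicalSpace X] {K N : Set X} (h : Nb K N) (x : X) :
    connectedComponentIn K x ⊆ N ∨ Disjoint (connectedComponentIn K x) (closure N) := by
  by_cases hx : ∃ y ∈ connectedComponentIn K x, y ∈ closure N
  · left
    obtain ⟨y, hy, hyc⟩ := hx
    rw [connectedComponentIn_eq hy]
    exact h.sat y (connectedComponentIn_subset _ _ hy) hyc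
  · right
    push Not at hx
    exact disjoint_left.2 hx

theorem exists_pos_lt {n : ℕ} {t : Fin n → ℝ} (ht : ∀ i, 0 < t i) : ∃ τ, 0 < τ ∧ ∀ i, τ < t i := by
  have h1 : ∀ᶠ τ in 𝓝[>] (0:ℝ), ∀ i, τ < t i := eventually_all.2 fun i => by
    filter_upwards [Ioo_mem_nhdsGT (ht i)] with τ hτ using hτ.2
  have h2 : ∀ᶠ τ in 𝓝[>] (0:ℝ), 0 < τ := eventually_mem_nhdsWithin
  obtain ⟨τ, h3, h4⟩ := (h1.and h2).exists
  exact ⟨τ, h4, h3⟩

/-- **thin neighbourhoods of a compact saturated family** (no convexity). -/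
theorem exists_nbhds {X : Type*} [MetricSpace X] [ProperSpace X] {K G O : Set X}
    (hK : IsCompact K) (hG : IsCompact G) (hGK : G ⊆ K)
    (hGs : ∀ x ∈ G, connectedComponentIn K x ⊆ G) (hO : IsOpen O) (hGO : G ⊆ O)
    {ε : ℝ} (hε : 0 < ε) :
    ∃ (m : ℕ) (N : Fin m → Set X) (p : Fin m → X),
      (∀ j, p j ∈ G) ∧ (∀ j, Nb K (N j)) ∧
      (∀ j, closure (N j) ⊆ thickening ε (connectedComponentIn K (p j))) ∧
      (∀ j, closure (N j) ⊆ O) ∧
      Pairwise (fun j l => Disjoint (closure (N j)) (closure (N l))) ∧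
      G ⊆ ⋃ j, N j := by
  classical
  obtain ⟨m, p, F, hp, hF, hFU, -, hFd, hcov⟩ := exists_pieces hK hG hGK
    (fun x => thickening ε (connectedComponentIn K x) ∩ O)
    (fun x _ => isOpen_thickening.inter hO)
    (fun x hx => subset_inter (self_subset_thickening hε _) ((hGs x hx).trans hGO))
  have h1 : ∀ j, ∃ δ : ℝ, 0 < δ ∧
      cthickening δ (F j) ⊆ thickening ε (connectedComponentIn K (p j)) ∩ O ∧
      Disjoint (cthickening δ (F j)) (cthickening δ (K \ F j)) := by
    intro j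
    obtain ⟨δ, hδ, h2⟩ := (hF j).cpt.exists_cthickening_subset_open
      (isOpen_thickening.inter hO) (hFU j)
    have hdj : Disjoint (F j) (K \ F j) := disjoint_sdiff_self_right
    obtain ⟨δ', hδ', h3⟩ := hdj.exists_cthickenings (hF j).cpt (hF j).cpt'.isClosed
    refine ⟨min δ δ', lt_min hδ hδ', (cthickening_mono (min_le_left _ _) _).trans h2,
      h3.mono (cthickening_mono (min_le_right _ _) _) (cthickening_mono (min_le_right _ _) _)⟩
  choose δ hδ hsub hdis using h1
  obtain ⟨τ, hτ, hτδ⟩ := exists_pos_lt hδ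
  have hcl : ∀ j, closure (thickening τ (F j)) ⊆ cthickening (δ j) (F j) := fun j =>
    (closure_thickening_subset_cthickening _ _).trans (cthickening_mono (hτδ j).le _)
  refine ⟨m, fun j => thickening τ (F j), p, hp, fun j => ⟨isOpen_thickening, ?_, ?_⟩,
    fun j => ((hcl j).trans (hsub j)).trans inter_subset_left,
    fun j => ((hcl j).trans (hsub j)).trans inter_subset_right, ?_, ?_⟩
  · exact (hF j).cpt.cthickening.of_isClosed_subset isClosed_closure
      (closure_thickening_subset_cthickening _ _)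
  · intro x hx hxc
    have hxF : x ∈ F j := by
      by_contra hcon
      exact disjoint_left.1 (hdis j) (hcl j hxc) (self_subset_cthickening _ ⟨hx, hcon⟩)
    exact ((hF j).component_subset hxF).trans (self_subset_thickening hτ _)
  · intro j l hjl
    have h2 : F l ⊆ K \ F j := fun x hx =>
      ⟨(hF l).sub hx, fun hxj => disjoint_left.1 (hFd hjl) hxj hx⟩
    have h3 : closure (thickening τ (F l)) ⊆ cthickening (δ j) (K \ F j) :=
      (closure_thickening_subset_cthickening _ _).trans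
        ((cthickening_mono (hτδ j).le _).trans (cthickening_subset_of_subset _ h2))
    exact (hdis j).mono (hcl j) h3
  · exact hcov.trans (iUnion_mono fun j => self_subset_thickening hτ _)

/-! ### classes of competitors -/

/-- class of competitors on one side, with an energy which is local with respect to thin
neighbourhoods of `K`. -/
structure SCls {X : Type*} [TopologicalSpace X] (K : Set X) extends Lay_925.Cls X where
  nonneg : ∀ f, P f → 0 ≤ E f
  cut3 : ∀ f, P f → P (fun x => min (3 * f x) 1) ∧ E (fun x => min (3 * f x) 1) ≤ 9 * E f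
  loc : ∀ (m : ℕ) (N : Fin m → Set X) (f : X → ℝ) (S : Set X), P f → (∀ j, Nb K (N j)) →
    Pairwise (fun j l => Disjoint (closure (N j)) (closure (N l))) → IsCompact S →
    S ⊆ ⋃ j, N j → (∀ x ∉ S, f x = 0) →
    (∀ j, P ((N j).indicator f)) ∧ ∑ j, E ((N j).indicator f) ≤ E f

/-- one half of a test pair -/
structure SP {X : Type*} [TopologicalSpace X] {K : Set X} (C : SCls K) (N : Set X) (ε : ℝ)
    (z : X → ℝ) : Prop where
  P : C.P z
  rg : ∀ x, 0 ≤ z x ∧ z x ≤ 1
  sp : ∃ S, IsCompact S ∧ S ⊆ N ∧ ∀ x ∉ S, z x = 0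
  en : C.E z ≤ ε

/-! ### sums over finite sets of indices -/

theorem sum_le {m : ℕ → ℕ} {F : (Σ n, Fin (m n)) → ℝ} {e : ℕ → ℝ} (h0 : ∀ a, 0 ≤ F a)
    (h1 : ∀ n, ∑ j, F ⟨n, j⟩ ≤ e n) {c : ℝ} (he : ∀ s : Finset ℕ, ∑ n ∈ s, e n ≤ c)
    (T : Finset (Σ n, Fin (m n))) : ∑ a ∈ T, F a ≤ c := by
  classical
  calc ∑ a ∈ T, F a
      ≤ ∑ a ∈ (T.image Sigma.fst).sigma (fun n => (Finset.univ : Finset (Fin (m n)))), F a :=
        Finset.sum_le_sum_of_subset_of_nonneg (fun a ha => Finset.mem_sigma.2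
          ⟨Finset.mem_image_of_mem _ ha, Finset.mem_univ _⟩) (fun a _ _ => h0 a)
    _ = ∑ n ∈ T.image Sigma.fst, ∑ j, F ⟨n, j⟩ := Finset.sum_sigma _ _ _
    _ ≤ ∑ n ∈ T.image Sigma.fst, e n := Finset.sum_le_sum fun n _ => h1 n
    _ ≤ c := he _

theorem sum_geom (s : Finset ℕ) {c : ℝ} (hc : 0 ≤ c) : ∑ n ∈ s, c * (1 / 2 : ℝ) ^ (n + 1) ≤ c := by
  have h1 : ∑ n ∈ s, (1 / 2 : ℝ) ^ n ≤ 2 :=
    (summable_geometric_two.sum_le_tsum s fun n _ => by positivity).trans_eq tsum_geometric_two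
  have h2 : ∑ n ∈ s, c * (1 / 2 : ℝ) ^ (n + 1) = c * (1 / 2) * ∑ n ∈ s, (1 / 2 : ℝ) ^ n := by
    rw [Finset.mul_sum]
    refine Finset.sum_congr rfl fun n _ => ?_
    rw [pow_succ]; ring
  rw [h2]
  nlinarith

section one

variable {X : Type*} [MetricSpace X] {K : Set X}

/-- truncation -/
def tr (z : X → ℝ) (p : X) : ℝ := min (3 * z p) 1

theorem tr_rg {z : X → ℝ} (h : ∀ p, 0 ≤ z p) (p : X) : 0 ≤ tr z p ∧ tr z p ≤ 1 := by
  refine ⟨le_min ?_ zero_le_one, min_le_right _ _⟩
  have := h p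
  positivity

theorem tr_zero {z : X → ℝ} {p : X} (h : z p = 0) : tr z p = 0 := by
  simp [tr, h]

theorem tr_one {z : X → ℝ} {p : X} (h : 1 / 3 ≤ z p) : tr z p = 1 := by
  unfold tr; exact min_eq_right (by linarith)

/-- the open one-set of a piece -/
def Os (V N : Set X) (f : X → ℝ) : Set X := interior (N ∩ {x | x ∈ V → f x = 1})

theorem Os_sub {V N : Set X} {f : X → ℝ} : Os V N f ⊆ N :=
  interior_subset.trans inter_subset_left

theorem Os_one {V N : Set X} {f : X → ℝ} {x : X} (hx : x ∈ Os V N f ∩ V) :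
    N.indicator f x = 1 := by
  have h1 := interior_subset hx.1
  rw [indicator_of_mem h1.1]
  exact h1.2 hx.2

theorem subset_Os {V N O L : Set X} {f : X → ℝ} (hN : IsOpen N) (hO : IsOpen O)
    (hKO : L ⊆ O) (hKN : L ⊆ N) (h1 : ∀ x ∈ O, x ∈ V → f x = 1) : L ⊆ Os V N f := by
  refine (subset_inter hKO hKN).trans (interior_maximal ?_ (hO.inter hN))
  rintro x ⟨hxO, hxN⟩
  exact ⟨hxN, h1 x hxO⟩

theorem good_of_frequently (hK : IsCompact K) {p : X} (hp : p ∈ K)
    {m : ℕ → ℕ} {N : ∀ n, Fin (m n) → Set X} {q : ∀ n, Fin (m n) → X}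
    {δ : ℕ → ℝ} (hδ : Tendsto δ atTop (𝓝 0))
    (hcl : ∀ n j, closure (N n j) ⊆ thickening (δ n) (connectedComponentIn K (q n j)))
    {O : (Σ n, Fin (m n)) → Set X}
    (h : ∃ᶠ n in atTop, ∃ j, connectedComponentIn K p ⊆ O ⟨n, j⟩ ∧
      connectedComponentIn K p ⊆ N n j) :
    Lay_925.Good (fun a : Σ n, Fin (m n) => N a.1 a.2) O (connectedComponentIn K p) := by
  classical
  intro F W hW hKW
  obtain ⟨ε, hε, H⟩ := exists_radius hK hp hW hKW
  have h1 : ∀ᶠ n in atTop, δ n < ε := hδ.eventually (gt_mem_nhds hε)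
  have h2 : ∀ᶠ n in atTop, n ∉ F.image Sigma.fst := by
    rw [← Nat.cofinite_eq_atTop]
    exact (F.image Sigma.fst).eventually_cofinite_notMem
  obtain ⟨n, ⟨j, hj1, hj2⟩, hn1, hn2⟩ := (h.and_eventually (h1.and h2)).exists
  refine ⟨⟨n, j⟩, fun hF => hn2 (Finset.mem_image_of_mem _ hF), hj1, ?_⟩
  have hmem : p ∈ connectedComponentIn K p := mem_connectedComponentIn hp
  have h3 : closure (N n j) ⊆ cthickening ε (connectedComponentIn K (q n j)) :=
    (hcl n j).trans ((thickening_subset_cthickening _ _).trans (cthickening_mono hn1.le _))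
  exact h3.trans (H _ (connectedComponentIn_subset _ _) isPreconnected_connectedComponentIn
    ⟨p, h3 (subset_closure (hj2 hmem)), self_subset_cthickening _ hmem⟩)

variable {m : ℕ → ℕ} {N : ∀ n, Fin (m n) → Set X} {z : ℕ → X → ℝ} {ε : ℝ} {C : SCls K}

theorem SP.tr_zero {N' : Set X} {e : ℝ} {z : X → ℝ} (h : SP C N' e z) :
    ∃ S, IsCompact S ∧ S ⊆ N' ∧ ∀ x ∉ S, tr z x = 0 := by
  obtain ⟨S, hS, hSN, h0⟩ := h.sp
  exact ⟨S, hS, hSN, fun x hx => Laq1_744.tr_zero (h0 x hx)⟩

theorem side_P (hN : ∀ n j, Nb K (N n j))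
    (hd : ∀ n, Pairwise fun j l => Disjoint (closure (N n j)) (closure (N n l)))
    {e : ℕ → ℝ} (hH : ∀ n, SP C (⋃ j, N n j) (e n) (z n)) (n : ℕ) (j : Fin (m n)) :
    C.P ((N n j).indicator (tr (z n))) := by
  obtain ⟨S, hS, hSN, hS0⟩ := (hH n).tr_zero
  exact (C.loc _ (N n) _ S (C.cut3 _ (hH n).P).1 (hN n) (hd n) hS hSN hS0).1 j

theorem side_E (hN : ∀ n j, Nb K (N n j))
    (hd : ∀ n, Pairwise fun j l => Disjoint (closure (N n j)) (closure (N n l)))
    (hε : 0 ≤ ε) (hH : ∀ n, SP C (⋃ j, N n j) (ε / 9 * (1 / 2) ^ (n + 1)) (z n))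
    (T : Finset (Σ n, Fin (m n))) :
    ∑ a ∈ T, C.E ((N a.1 a.2).indicator (tr (z a.1))) ≤ ε := by
  refine sum_le (e := fun n => ε * (1 / 2) ^ (n + 1))
    (fun a => C.nonneg _ (side_P hN hd hH a.1 a.2)) (fun n => ?_) (fun s => sum_geom s hε) T
  obtain ⟨S, hS, hSN, hS0⟩ := (hH n).tr_zero
  have h0 := C.cut3 _ (hH n).P
  have h1 := (C.loc _ (N n) _ S h0.1 (hN n) (hd n) hS hSN hS0).2
  have h4 := (hH n).en
  refine h1.trans (h0.2.trans ?_)
  linarith

end one

theorem osc_of {X : Type*} [TopologicalSpace X] {V P : Set X} {z : X → ℝ} {M m : ℕ}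
    (hM : m + 1 = M) (h : ∃ c : ℝ, ∃ W, IsOpen W ∧ P ⊆ W ∧ ∀ x ∈ W ∩ V,
      c ≤ z x ∧ z x ≤ c + 1 / ((m + 1 : ℕ) : ℝ)) : OscLe V P z (1 / M) := by
  obtain ⟨c, W, hW, hPW, H⟩ := h
  rw [hM] at H
  intro η hη
  refine ⟨W, hW, hPW, fun q hq q' hq' => ?_⟩
  have h1 := H q hq
  have h2 := H q' hq'
  rw [abs_le]
  constructor <;> linarith [h1.1, h1.2, h2.1, h2.2]

/-! ### the layer theorem -/

/-- the family `G` is null: pairs of small energy in every neighbourhood -/
def Null {X : Type*} [MetricSpace X] {K : Set X} (C C' : SCls K) (V V' G : Set X) : Prop :=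
  ∀ N, IsOpen N → G ⊆ N → ∀ ε > 0, ∃ z z', SP C N ε z ∧ SP C' N ε z' ∧
    ∀ x ∈ G, ∃ O, IsOpen O ∧ connectedComponentIn K x ⊆ O ∧
      ∀ p ∈ O ∩ V, ∀ q ∈ O ∩ V', (9 / 10 : ℝ) ≤ z p + z' q

/-- **LAYERS, class-free form.** -/
theorem layers_abs {X : Type*} [MetricSpace X] [ProperSpace X] {K G V V' : Set X}
    (hK : IsCompact K) (hG : IsCompact G) (hGK : G ⊆ K)
    (hGs : ∀ x ∈ G, connectedComponentIn K x ⊆ G) {C C' : SCls K} (hnull : Null C C' V V' G) :
    ∀ N, IsOpen N → G ⊆ N → ∀ M : ℕ, 1 ≤ M → ∀ ε > 0, ∃ z z', SP C N ε z ∧ SP C' N ε z' ∧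
      (∀ x, OscLe V (connectedComponentIn K x) z (1 / M)) ∧
      (∀ x, OscLe V' (connectedComponentIn K x) z' (1 / M)) ∧
      ∀ x ∈ G, (∃ O, IsOpen O ∧ connectedComponentIn K x ⊆ O ∧ ∀ p ∈ O ∩ V, z p = 1) ∨
        (∃ O, IsOpen O ∧ connectedComponentIn K x ⊆ O ∧ ∀ p ∈ O ∩ V', z' p = 1) := by
  classical
  intro N hN hGN M hM ε hε
  obtain ⟨δ, hδ, hδN⟩ := hG.exists_cthickening_subset_open hN hGN
  have hS₀ : IsCompact (cthickening δ G) := hG.cthickening
  have fam := fun n : ℕ => exists_nbhds hK hG hGK hGs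
    (isOpen_thickening (δ := δ) (E := G)) (self_subset_thickening hδ _)
    (ε := 1 / ((n : ℝ) + 1)) (by positivity)
  choose m Nn q hq hNb hcl hO₀ hdisj hcov using fam
  have hNS : ∀ n j, closure (Nn n j) ⊆ cthickening δ G := fun n j =>
    (hO₀ n j).trans (thickening_subset_cthickening _ _)
  have hpair := fun n : ℕ => hnull (⋃ j, Nn n j) (isOpen_iUnion fun j => (hNb n j).opn) (hcov n)
    (ε / 9 * (1 / 2) ^ (n + 1)) (by positivity)
  choose zm zp hPm hPp hkey using hpair
  have : CompactSpace G := isCompact_iff_compactSpace.1 hG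
  have hopen : ∀ U, IsOpen U → IsOpen {k : G | connectedComponentIn K k.1 ⊆ U} := by
    intro U hU
    obtain ⟨O, hO, hOE⟩ := isOpen_component_subset hK hU
    have : {k : G | connectedComponentIn K k.1 ⊆ U} = Subtype.val ⁻¹' O := by
      ext k
      constructor
      · intro hk
        have : k.1 ∈ O ∩ K := hOE ▸ ⟨hGK k.2, hk⟩
        exact this.1
      · intro hk
        have : k.1 ∈ O ∩ K := ⟨hk, hGK k.2⟩
        rw [hOE] at this
        exact this.2
    rw [this]
    exact hO.preimage continuous_subtype_val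
  have hH : ∀ P ∈ range (connectedComponentIn K), ∀ a : (Σ n, Fin (m n)), P ⊆ Nn a.1 a.2 ∨
      Disjoint P (closure (Nn a.1 a.2)) := by
    rintro P ⟨p, rfl⟩ a
    exact (hNb a.1 a.2).cases p
  -- every component of `G` is good
  have hgood : ∀ k : G,
      Lay_925.Good (fun a : Σ n, Fin (m n) => Nn a.1 a.2)
        (fun a => Os V (Nn a.1 a.2) (tr (zm a.1))) (connectedComponentIn K k.1) ∨
      Lay_925.Good (fun a : Σ n, Fin (m n) => Nn a.1 a.2)
        (fun a => Os V' (Nn a.1 a.2) (tr (zp a.1))) (connectedComponentIn K k.1) := by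
    rintro ⟨p, hp⟩
    have hpE : p ∈ K := hGK hp
    have hδ0 : Tendsto (fun n : ℕ => 1 / ((n : ℝ) + 1)) atTop (𝓝 0) :=
      tendsto_one_div_add_atTop_nhds_zero_nat
    have hstage : ∀ n, (∃ j, connectedComponentIn K p ⊆
          Os V (Nn n j) (tr (zm n)) ∧ connectedComponentIn K p ⊆ Nn n j) ∨
        (∃ j, connectedComponentIn K p ⊆
          Os V' (Nn n j) (tr (zp n)) ∧ connectedComponentIn K p ⊆ Nn n j) := by
      intro n
      obtain ⟨j, hj⟩ := mem_iUnion.1 (hcov n hp)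
      have hKN : connectedComponentIn K p ⊆ Nn n j := (hNb n j).sat p hpE (subset_closure hj)
      obtain ⟨O, hO, hKO, hkey⟩ := hkey n p hp
      by_cases hlow : ∀ x ∈ O ∩ V, 1 / 3 ≤ zm n x
      · left
        refine ⟨j, subset_Os (hNb n j).opn hO hKO hKN ?_, hKN⟩
        intro x hxO hxV
        exact tr_one (hlow x ⟨hxO, hxV⟩)
      · right
        push Not at hlow
        obtain ⟨x, hx, hlt⟩ := hlow
        refine ⟨j, subset_Os (hNb n j).opn hO hKO hKN ?_, hKN⟩
        intro y hyO hyV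
        have := hkey x hx y ⟨hyO, hyV⟩
        exact tr_one (by linarith)
    have hfreq : (∃ᶠ n in atTop, ∃ j, connectedComponentIn K p ⊆
          Os V (Nn n j) (tr (zm n)) ∧ connectedComponentIn K p ⊆ Nn n j) ∨
        (∃ᶠ n in atTop, ∃ j, connectedComponentIn K p ⊆
          Os V' (Nn n j) (tr (zp n)) ∧ connectedComponentIn K p ⊆ Nn n j) := by
      rw [← frequently_or_distrib]
      exact Frequently.of_forall hstage
    rcases hfreq with h | h
    · left
      exact good_of_frequently hK hpE hδ0 hcl h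
    · right
      exact good_of_frequently hK hpE hδ0 hcl h
  obtain ⟨m₀, rfl⟩ : ∃ m₀, M = m₀ + 1 := ⟨M - 1, by omega⟩
  obtain ⟨z, z', W, W', hW, hW', hcov', hCz, hCz', hEz, hEz', hr, hr', h1, h1', hs, hs', ho, ho'⟩ :=
    Lay_925.layers (G := G) C.toCls C'.toCls
      (N := fun a : Σ n, Fin (m n) => Nn a.1 a.2)
      (O := fun a => Os V (Nn a.1 a.2) (tr (zm a.1)))
      (N' := fun a : Σ n, Fin (m n) => Nn a.1 a.2)
      (O' := fun a => Os V' (Nn a.1 a.2) (tr (zp a.1)))
      (fun a => isOpen_interior) (fun a => isOpen_interior)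
      (fun a => Os_sub) (fun a => Os_sub)
      (fun a => (hNb a.1 a.2).cpt) (fun a => (hNb a.1 a.2).cpt)
      (V := V) (V' := V')
      (Z := fun a => (Nn a.1 a.2).indicator (tr (zm a.1)))
      (Z' := fun a => (Nn a.1 a.2).indicator (tr (zp a.1)))
      (fun a => side_P hNb hdisj hPm a.1 a.2)
      (fun a => side_P hNb hdisj hPp a.1 a.2)
      (fun a x => by
        by_cases hx : x ∈ Nn a.1 a.2
        · rw [indicator_of_mem hx]; exact tr_rg (fun p => ((hPm a.1).rg p).1) x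
        · rw [indicator_of_notMem hx]; exact ⟨le_rfl, zero_le_one⟩)
      (fun a x => by
        by_cases hx : x ∈ Nn a.1 a.2
        · rw [indicator_of_mem hx]; exact tr_rg (fun p => ((hPp a.1).rg p).1) x
        · rw [indicator_of_notMem hx]; exact ⟨le_rfl, zero_le_one⟩)
      (fun a x hx => Os_one hx) (fun a x hx => Os_one hx)
      (fun a x hx => indicator_of_notMem hx _) (fun a x hx => indicator_of_notMem hx _)
      (H := range (connectedComponentIn K)) (H' := range (connectedComponentIn K)) hH hH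
      (Km := fun k => connectedComponentIn K k.1) (Kp := fun k => connectedComponentIn K k.1)
      hopen hopen hgood ∅ ∅ (e := ε) (e' := ε)
      (fun T _ => side_E hNb hdisj hε.le hPm T)
      (fun T _ => side_E hNb hdisj hε.le hPp T)
      m₀
  have hz0 : ∀ p, p ∉ cthickening δ G → z p = 0 := by
    intro p hp
    by_contra h
    obtain ⟨a, _, ha⟩ := hs p h
    exact hp (hNS a.1 a.2 (subset_closure ha))
  have hz0' : ∀ p, p ∉ cthickening δ G → z' p = 0 := by
    intro p hp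
    by_contra h
    obtain ⟨a, _, ha⟩ := hs' p h
    exact hp (hNS a.1 a.2 (subset_closure ha))
  refine ⟨z, z', ⟨hCz, hr, ⟨_, hS₀, hδN, hz0⟩, hEz⟩, ⟨hCz', hr', ⟨_, hS₀, hδN, hz0'⟩, hEz'⟩,
    fun x => osc_of rfl (ho _ ⟨x, rfl⟩), fun x => osc_of rfl (ho' _ ⟨x, rfl⟩), ?_⟩
  intro x hx
  rcases hcov' ⟨x, hx⟩ with h | h
  · exact Or.inl ⟨W, hW, h, h1⟩
  · exact Or.inr ⟨W', hW', h, h1'⟩

end Crest.Agent.R105.Laq1_744
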