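import Crest.Agent.R105.Fnc4_189
import Crest.Agent.R105.Cq8_463
import Crest.Agent.R105.Lop4_744

/-!
# Row 105 (S0138, picture with solids): charge of one operation of the STEP at a square
-/

set_option autoImplicit false

noncomputable section

namespace Crest.Agent.R105.Laq2_744

open Set Filter MeasureTheory Topology Metric
open CF_363 Stp_722 Cq_463 Lop2_744
open scoped ENNReal NNReal

/-- a function which is locally constant on `N` is constant near a connected subset of `N` -/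
theorem const_near {c : ℝ × ℝ → ℝ} {P N : Set (ℝ × ℝ)} (hc : ∀ x ∈ N, ∀ᶠ y in 𝓝 x, c y = c x)
    (hP : IsPreconnected P) (hPN : P ⊆ N) {x : ℝ × ℝ} (hx : x ∈ P) :
    ∃ O, IsOpen O ∧ P ⊆ O ∧ ∀ y ∈ O, c y = c x := by
  have hsub : ∀ y ∈ interior {y | c y = c x}, c y = c x := fun y hy =>
    (interior_subset (s := {y | c y = c x}) hy : y ∈ {y | c y = c x})
  refine ⟨interior {y | c y = c x}, isOpen_interior, ?_, hsub⟩
  refine hP.subset_left_of_subset_union (v := interior {y | c y ≠ c x}) isOpen_interior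
    isOpen_interior ?_ ?_ ⟨x, hx, mem_interior_iff_mem_nhds.2 (hc x (hPN hx))⟩
  · rw [Set.disjoint_left]
    intro y h1 h2
    exact (interior_subset (s := {y | c y ≠ c x}) h2 : y ∈ {y | c y ≠ c x}) (hsub y h1)
  · intro y hy
    by_cases h : c y = c x
    · refine Or.inl (mem_interior_iff_mem_nhds.2 ?_)
      filter_upwards [hc y (hPN hy)] with w hw
      exact hw.trans h
    · refine Or.inr (mem_interior_iff_mem_nhds.2 ?_)
      filter_upwards [hc y (hPN hy)] with w hw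
      rw [hw]; exact h

section charge

variable {E C : Set (ℝ × ℝ)} {h z c χ : ℝ × ℝ → ℝ} {B τ R : ℝ} {Q : Sqr}

theorem dl_eq (q : ℝ × ℝ) : op h B τ z c χ q - χ q = th B τ (h q) * z q * (c q - χ q) := by
  unfold op; ring

theorem dl_abs_le (hz01 : ∀ x, 0 ≤ z x ∧ z x ≤ 1) (hcR : ∀ x, |c x| ≤ R) (hχR : ∀ x, |χ x| ≤ R)
    (q : ℝ × ℝ) : |op h B τ z c χ q - χ q| ≤ 2 * R * (th B τ (h q) * z q) := by
  rw [dl_eq, abs_mul, abs_of_nonneg (mul_nonneg (th_nonneg _ _ _) (hz01 q).1), mul_comm]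
  exact mul_le_mul_of_nonneg_right (abs_sub_le_two (hcR q) (hχR q))
    (mul_nonneg (th_nonneg _ _ _) (hz01 q).1)

/-- squares off the support have no charge -/
theorem ch_far (hC : IsClosed C) (hz0 : ∀ x ∉ C, z x = 0) (hQ : Disjoint Q.car C) :
    ch E univ (fun q => op h B τ z c χ q - χ q) Q = 0 := by
  refine chg_eq_zero (O := Cᶜ) (a := 0) hC.isOpen_compl ?_ fun q hq => ?_
  · intro p hp hpC
    exact Set.disjoint_left.1 hQ hp.1 hpC
  · rw [dl_eq, hz0 q hq.1]; ring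

/-- a square near which the cut-off is at most `κ` -/
theorem ch_small (hτ : 0 < τ) (hz01 : ∀ x, 0 ≤ z x ∧ z x ≤ 1)
    (hcR : ∀ x, |c x| ≤ R) (hχR : ∀ x, |χ x| ≤ R) {κ : ℝ} (hκ : 0 ≤ κ)
    (hz : (Q.car ∩ closure {x | h x < B}).Nonempty →
      ∃ O, IsOpen O ∧ Q.car ∩ closure {x | h x < B} ⊆ O ∧
        ∀ q ∈ O ∩ (Eᶜ ∩ {x | h x < B}), |z q| ≤ κ) :
    ch E univ (fun q => op h B τ z c χ q - χ q) Q ≤ 4 * R * κ := by
  have hR0 : 0 ≤ R := (abs_nonneg _).trans (hχR (0, 0))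
  have key : ∃ O, IsOpen O ∧ Q.car ⊆ O ∧ ∀ q ∈ O ∩ (Eᶜ ∩ univ),
      |op h B τ z c χ q - χ q| ≤ 2 * R * κ := by
    by_cases hne : (Q.car ∩ closure {x | h x < B}).Nonempty
    · obtain ⟨O, hO, hQO, H⟩ := hz hne
      refine ⟨O ∪ (closure {x | h x < B})ᶜ, hO.union isClosed_closure.isOpen_compl, ?_, ?_⟩
      · intro p hp
        by_cases hpc : p ∈ closure {x | h x < B}
        · exact Or.inl (hQO ⟨hp, hpc⟩)
        · exact Or.inr hpc
      · rintro q ⟨hq, hqE, -⟩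
        refine (dl_abs_le hz01 hcR hχR q).trans ?_
        rcases lt_or_ge (h q) B with hB | hB
        · have hqO : q ∈ O := hq.resolve_right fun h1 => h1 (subset_closure hB)
          have h1 := H q ⟨hqO, hqE, hB⟩
          rw [abs_of_nonneg (hz01 q).1] at h1
          have h2 : th B τ (h q) * z q ≤ κ := by
            calc _ ≤ 1 * z q := mul_le_mul_of_nonneg_right (th_le_one _ _ _) (hz01 q).1
              _ ≤ κ := by rw [one_mul]; exact h1
          gcongr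
        · rw [th_eq_zero hτ hB, zero_mul, mul_zero]; positivity
    · rw [not_nonempty_iff_eq_empty] at hne
      refine ⟨(closure {x | h x < B})ᶜ, isClosed_closure.isOpen_compl, ?_, ?_⟩
      · intro p hp hpc
        have : p ∈ Q.car ∩ closure {x | h x < B} := ⟨hp, hpc⟩
        rw [hne] at this
        exact this
      · rintro q ⟨hq, -⟩
        have hB : B ≤ h q := not_lt.1 fun h1 => hq (subset_closure h1)
        refine (dl_abs_le hz01 hcR hχR q).trans ?_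
        rw [th_eq_zero hτ hB, zero_mul, mul_zero]; positivity
  obtain ⟨O, hO, hQO, H⟩ := key
  refine (chg_le (by positivity) (oscLe_of_bdd hO (inter_subset_left.trans hQO) H)).trans
    (le_of_eq ?_)
  ring

/-- the values of a 1-Lipschitz function near a square -/
theorem near_sq (hh : ∀ x y, |h x - h y| ≤ dist x y) {p q : ℝ × ℝ} (hp : p ∈ Q.car) {δ : ℝ}
    (hq : q ∈ thickening δ Q.car) : |h q - h p| ≤ Q.s + δ := by
  obtain ⟨w, hw, hqw⟩ := mem_thickening_iff.1 hq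
  have h1 := hh q p
  have h2 := dist_triangle q w p
  have h3 : dist w p ≤ Q.s :=
    (dist_le_diam_of_mem Q.isCompact_car.isBounded hw hp).trans Q.diam_le
  linarith

/-- a square which meets `B ≤ h` -/
theorem ch_cross (hh : ∀ x y, |h x - h y| ≤ dist x y) (hτ : 0 < τ)
    (hz01 : ∀ x, 0 ≤ z x ∧ z x ≤ 1) (hcR : ∀ x, |c x| ≤ R) (hχR : ∀ x, |χ x| ≤ R)
    {p : ℝ × ℝ} (hp : p ∈ Q.car) (hpB : B ≤ h p) :
    ch E univ (fun q => op h B τ z c χ q - χ q) Q ≤ 4 * R * (Q.s / τ) := by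
  have hR0 : 0 ≤ R := (abs_nonneg _).trans (hχR (0, 0))
  have hs := Q.hs
  refine chg_le (by positivity) ?_
  intro ε hε
  set δ : ℝ := ε * τ / (4 * (R + 1)) with hδ
  have hδ0 : 0 < δ := by positivity
  have hδ1 : 4 * R * (δ / τ) ≤ ε := by
    rw [hδ, show 4 * R * (ε * τ / (4 * (R + 1)) / τ) = R * ε / (R + 1) by field_simp,
      div_le_iff₀ (by positivity)]
    nlinarith
  refine ⟨thickening δ Q.car, isOpen_thickening, inter_subset_left.trans
    (self_subset_thickening hδ0 _), ?_⟩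
  have hb : ∀ q ∈ thickening δ Q.car, |op h B τ z c χ q - χ q| ≤ 2 * R * ((Q.s + δ) / τ) := by
    intro q hq
    refine (dl_abs_le hz01 hcR hχR q).trans ?_
    have h1 : th B τ (h q) ≤ (Q.s + δ) / τ := by
      rcases le_or_gt B (h q) with hB | hB
      · rw [th_eq_zero hτ hB]; positivity
      · refine (th_le hτ).trans ?_
        gcongr
        have h2 := (abs_le.1 (near_sq hh hp hq)).1
        rw [abs_of_pos (by linarith)]
        linarith
    have h2 : th B τ (h q) * z q ≤ (Q.s + δ) / τ :=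
      (mul_le_of_le_one_right (th_nonneg _ _ _) (hz01 q).2).trans h1
    gcongr
  intro q hq q' hq'
  have h1 := abs_le.1 (hb q hq.1)
  have h2 := abs_le.1 (hb q' hq'.1)
  have h3 : 2 * R * ((Q.s + δ) / τ) = 2 * R * (Q.s / τ) + 2 * R * (δ / τ) := by ring
  rw [abs_le]; constructor <;> linarith

/-- a square below the level, `c` constant near it -/
theorem ch_below (hh : ∀ x y, |h x - h y| ≤ dist x y) (hτ : 0 < τ)
    (hz01 : ∀ x, 0 ≤ z x ∧ z x ≤ 1) (hcR : ∀ x, |c x| ≤ R) (hχR : ∀ x, |χ x| ≤ R)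
    (hQ : Q.car ⊆ {x | h x < B}) {k : ℝ} {O : Set (ℝ × ℝ)} (hO : IsOpen O) (hQO : Q.car ⊆ O)
    (hk : ∀ y ∈ O, c y = k)
    (hfz : Fin (Eᶜ ∩ {x | h x < B}) (Q.car ∩ closure {x | h x < B}) z)
    (hfχ : Fin (Eᶜ ∩ univ) (Q.car ∩ closure univ) χ) :
    ch E univ (fun q => op h B τ z c χ q - χ q) Q ≤
      2 * R * ch E {x | h x < B} z Q + ch E univ χ Q + 2 * R * (Q.s / τ) := by
  have hR0 : 0 ≤ R := (abs_nonneg _).trans (hχR (0, 0))
  have hs := Q.hs
  have n1 := ch_nonneg E {x | h x < B} z Q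
  have n2 := ch_nonneg E univ χ Q
  have hcont := continuous_of_lip hh
  refine chg_le (by positivity) ?_
  intro ε hε
  set e1 : ℝ := ε / (6 * (R + 1)) with he1
  have he10 : 0 < e1 := by positivity
  have he11 : 2 * R * e1 ≤ ε / 3 := by
    rw [he1, show 2 * R * (ε / (6 * (R + 1))) = R * ε / (3 * (R + 1)) by field_simp; ring,
      div_le_div_iff₀ (by positivity) (by positivity)]
    nlinarith
  obtain ⟨O1, hO1, hPO1, H1⟩ := hfz.oscLe e1 he10
  obtain ⟨O2, hO2, hPO2, H2⟩ := hfχ.oscLe (ε / 3) (by positivity)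
  set δ : ℝ := ε * τ / (12 * (R + 1)) with hδ
  have hδ0 : 0 < δ := by positivity
  have hδ1 : 2 * R * (2 * δ / τ) ≤ ε / 3 := by
    rw [hδ, show 2 * R * (2 * (ε * τ / (12 * (R + 1))) / τ) = R * ε / (3 * (R + 1)) by
      field_simp; ring, div_le_div_iff₀ (by positivity) (by positivity)]
    nlinarith
  have hWo : IsOpen {x : ℝ × ℝ | h x < B} := isOpen_lt hcont continuous_const
  have hQ1 : Q.car ⊆ O1 := fun p hp => hPO1 ⟨hp, subset_closure (hQ hp)⟩
  have hQ2 : Q.car ⊆ O2 := fun p hp => hPO2 ⟨hp, subset_closure (mem_univ _)⟩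
  refine ⟨O1 ∩ O2 ∩ (O ∩ {x | h x < B}) ∩ thickening δ Q.car,
    (((hO1.inter hO2).inter (hO.inter hWo)).inter isOpen_thickening), ?_, ?_⟩
  · intro p hp
    exact ⟨⟨⟨hQ1 hp.1, hQ2 hp.1⟩, hQO hp.1, hQ hp.1⟩, self_subset_thickening hδ0 _ hp.1⟩
  rintro q ⟨⟨⟨⟨hq1, hq2⟩, hqO, hqB⟩, hqt⟩, hqV, -⟩ q' ⟨⟨⟨⟨hq1', hq2'⟩, hqO', hqB'⟩, hqt'⟩, hqV', -⟩
  have k1 : |z q - z q'| ≤ ch E {x | h x < B} z Q + e1 :=
    H1 q ⟨hq1, hqV, hqB⟩ q' ⟨hq1', hqV', hqB'⟩
  have k2 : |χ q - χ q'| ≤ ch E univ χ Q + ε / 3 :=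
    H2 q ⟨hq2, hqV, mem_univ _⟩ q' ⟨hq2', hqV', mem_univ _⟩
  have k3 : |th B τ (h q) - th B τ (h q')| ≤ (Q.s + 2 * δ) / τ := by
    refine (abs_th_sub_le hτ).trans ?_
    gcongr
    obtain ⟨w, hw, hqw⟩ := mem_thickening_iff.1 hqt
    have h1 := near_sq hh hw hqt'
    have h2 := hh q w
    have h3 := abs_sub_le (h q) (h w) (h q')
    rw [abs_sub_comm (h w) (h q')] at h3
    linarith
  change |op h B τ z c χ q - χ q - (op h B τ z c χ q' - χ q')| ≤ _
  rw [dl_eq, dl_eq, hk q hqO, hk q' hqO']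
  have hkR : |k| ≤ R := by rw [← hk q hqO]; exact hcR q
  have u1 : |k - χ q| ≤ 2 * R := abs_sub_le_two hkR (hχR q)
  have u2 : |k - χ q'| ≤ 2 * R := abs_sub_le_two hkR (hχR q')
  have e : th B τ (h q) * z q * (k - χ q) - th B τ (h q') * z q' * (k - χ q') =
      (th B τ (h q) - th B τ (h q')) * z q * (k - χ q) +
      th B τ (h q') * (z q - z q') * (k - χ q) -
      th B τ (h q') * z q' * (χ q - χ q') := by ring
  rw [e]
  have m1 : |(th B τ (h q) - th B τ (h q')) * z q * (k - χ q)| ≤ 2 * R * ((Q.s + 2 * δ) / τ) := by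
    rw [abs_mul, abs_mul, abs_of_nonneg (hz01 q).1]
    calc _ ≤ ((Q.s + 2 * δ) / τ) * 1 * (2 * R) :=
          mul_le_mul (mul_le_mul k3 (hz01 q).2 (hz01 q).1 (by positivity)) u1 (abs_nonneg _)
            (by positivity)
      _ = _ := by ring
  have m2 : |th B τ (h q') * (z q - z q') * (k - χ q)| ≤
      2 * R * (ch E {x | h x < B} z Q + e1) := by
    rw [abs_mul, abs_mul, abs_of_nonneg (th_nonneg _ _ _)]
    calc _ ≤ 1 * (ch E {x | h x < B} z Q + e1) * (2 * R) := by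
          gcongr
          exact th_le_one _ _ _
      _ = _ := by ring
  have m3 : |th B τ (h q') * z q' * (χ q - χ q')| ≤ ch E univ χ Q + ε / 3 := by
    rw [abs_mul, abs_of_nonneg (mul_nonneg (th_nonneg _ _ _) (hz01 q').1)]
    calc _ ≤ 1 * (ch E univ χ Q + ε / 3) := by
          gcongr
          exact mul_le_one₀ (th_le_one _ _ _) (hz01 q').1 (hz01 q').2
      _ = _ := by ring
  have m4 := abs_sub_le_of_abs_le m1 m2 m3
  refine m4.trans ?_
  have m5 : 2 * R * ((Q.s + 2 * δ) / τ) = 2 * R * (Q.s / τ) + 2 * R * (2 * δ / τ) := by ring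
  rw [m5, mul_add (2 * R)]
  linarith
where
  abs_sub_le_of_abs_le {a b c A B' C' : ℝ} (h1 : |a| ≤ A) (h2 : |b| ≤ B') (h3 : |c| ≤ C') :
      |a + b - c| ≤ A + B' + C' := by
    have e1 := abs_le.1 h1
    have e2 := abs_le.1 h2
    have e3 := abs_le.1 h3
    rw [abs_le]; constructor <;> linarith [e1.1, e1.2, e2.1, e2.2, e3.1, e3.2]

/-- general bound -/
theorem ch_all {𝒬 : Set Sqr} {𝓗 : Set Hair} {N : Set (ℝ × ℝ)} (hE : QPic E 𝒬 𝓗)
    (hh : ∀ x y, |h x - h y| ≤ dist x y) (hτ : 0 < τ)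
    (hχ : CFJ 𝓗 univ χ) (hz : CFJ 𝓗 {x | h x < B} z)
    (hz01 : ∀ x, 0 ≤ z x ∧ z x ≤ 1) (hC : IsClosed C) (hCN : C ⊆ N) (hz0 : ∀ x ∉ C, z x = 0)
    (hc : ∀ x ∈ N, ∀ᶠ y in 𝓝 x, c y = c x) (hcR : ∀ x, |c x| ≤ R) (hχR : ∀ x, |χ x| ≤ R)
    (hsat : (Q.car ∩ N).Nonempty → Q.car ⊆ N) :
    ch E univ (fun q => op h B τ z c χ q - χ q) Q ≤
      2 * R * ch E {x | h x < B} z Q + ch E univ χ Q + 4 * R * (Q.s / τ) := by
  have hR0 : 0 ≤ R := (abs_nonneg _).trans (hχR (0, 0))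
  have hs := Q.hs
  have n1 := ch_nonneg E {x | h x < B} z Q
  have n2 := ch_nonneg E univ χ Q
  by_cases hd : Disjoint Q.car C
  · rw [ch_far hC hz0 hd]; positivity
  have hQN : Q.car ⊆ N := by
    obtain ⟨p, hp, hpC⟩ := Set.not_disjoint_iff.1 hd
    exact hsat ⟨p, hp, hCN hpC⟩
  by_cases hb : Q.car ⊆ {x | h x < B}
  · obtain ⟨p, hp⟩ := Q.nonempty
    obtain ⟨O, hO, hQO, hk⟩ := const_near hc Q.convex_car.isPreconnected hQN hp
    refine (ch_below hh hτ hz01 hcR hχR hb hO hQO hk (CFJ.fin hE hz _)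
      (CFJ.fin hE hχ _)).trans ?_
    have : 0 ≤ R * (Q.s / τ) := by positivity
    linarith
  · obtain ⟨p, hp, hpB⟩ := Set.not_subset.1 hb
    refine (ch_cross hh hτ hz01 hcR hχR hp (not_lt.1 hpB)).trans ?_
    have : 0 ≤ 2 * R * ch E {x | h x < B} z Q := by positivity
    linarith

end charge

end Crest.Agent.R105.Laq2_744
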