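import Crest.Agent.R105.Laq2_744

/-!
# Row 105 (S0138, picture with solids): energy and charges of one operation of the STEP are small

`exists_cost`: for every function `χ` of the class there is `δ > 0` such that every operation with a
cut-off of energy `≤ δ`, supported in a set `N` with `volume (N \ E) ≤ δ`, costs at most `ε`.
No Lipschitz constant of `χ` is needed for the charges.
-/

set_option autoImplicit false

noncomputable section

namespace Crest.Agent.R105.Laq3_744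

open Set Filter MeasureTheory Topology Metric
open CF_363 Stp_722 Cq_463 Lop2_744 Laq2_744
open scoped ENNReal NNReal

/-- data of a one-sided cut-off on the plane, for the height `h` and the level `B` -/
structure OneQ (E : Set (ℝ × ℝ)) (𝒬 : Set Sqr) (𝓗 : Set Hair) (h : ℝ × ℝ → ℝ) (B : ℝ)
    (N : Set (ℝ × ℝ)) (ε : ℝ) (z : ℝ × ℝ → ℝ) : Prop where
  cf : CFJ 𝓗 {x | h x < B} z
  z01 : ∀ x, 0 ≤ z x ∧ z x ≤ 1
  supp : ∃ C, IsCompact C ∧ C ⊆ N ∧ ∀ x ∉ C, z x = 0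
  en : TQ E {x | h x < B} 𝒬 z ≤ ε

variable {E C N : Set (ℝ × ℝ)} {𝒬 : Set Sqr} {𝓗 : Set Hair} {h z c χ : ℝ × ℝ → ℝ} {B τ R : ℝ}

/-- energy of the change off `E` -/
theorem op_EnV (hh : ∀ x y, |h x - h y| ≤ dist x y) (hτ : 0 < τ)
    (hnull : volume {p | h p = B} = 0)
    {J : Finset Hair} {L M : ℝ} (hL : 0 ≤ L) (h1 : SL (univ \ cut J) L χ) (hM : 0 ≤ M)
    (h2 : SL ({x | h x < B} \ cut J) M z) (hz01 : ∀ x, 0 ≤ z x ∧ z x ≤ 1)
    (hC : IsCompact C) (hz0 : ∀ x ∉ C, z x = 0) (hc : ∀ x ∈ C, ∀ᶠ y in 𝓝 x, c y = c x)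
    (hcR : ∀ x, |c x| ≤ R) (hχR : ∀ x, |χ x| ≤ R) (hE : IsClosed E) :
    En (univ \ E) (fun q => op h B τ z c χ q - χ q) ≤
      (4 * L ^ 2 + 32 * R ^ 2 / τ ^ 2) * (volume (C \ E)).toReal +
        16 * R ^ 2 * En ({x | h x < B} \ E) z := by
  have hcont := continuous_of_lip hh
  have hWo : IsOpen {x : ℝ × ℝ | h x < B} := isOpen_lt hcont continuous_const
  set A : Set (ℝ × ℝ) := C ∩ {x | h x < B} with hA
  have hAm : MeasurableSet A := hC.measurableSet.inter hWo.measurableSet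
  have hfin : volume A ≠ ∞ :=
    ((measure_mono inter_subset_left).trans_lt hC.measure_lt_top).ne
  have hz := integrableOn_z hM hWo h2 hC hz0
  have hz' : IntegrableOn (g2 z) A := hz.mono_set inter_subset_right
  have hconst : IntegrableOn (fun _ : ℝ × ℝ => 4 * L ^ 2 + 32 * R ^ 2 / τ ^ 2) A :=
    integrableOn_const hfin
  have hI : IntegrableOn (fun p => (4 * L ^ 2 + 32 * R ^ 2 / τ ^ 2) + 16 * R ^ 2 * g2 z p) A :=
    hconst.add (hz'.const_mul _)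
  have hI' := hI.integrable_indicator hAm
  have hae := ae_g2_op hh hτ hnull hL h1 h2 hz01 hC.isClosed hz0 hc hcR hχR
  have hint : Integrable (g2 (fun q => op h B τ z c χ q - χ q)) := by
    refine hI'.mono' (measurable_g2 _).aestronglyMeasurable ?_
    filter_upwards [hae] with p hp
    rw [Real.norm_of_nonneg (g2_nonneg _ p)]
    exact hp
  unfold En
  refine (integral_mono_ae hint.integrableOn hI'.integrableOn (ae_restrict_of_ae hae)).trans ?_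
  have hEm : MeasurableSet (univ \ E : Set (ℝ × ℝ)) := MeasurableSet.univ.diff hE.measurableSet
  rw [integral_indicator hAm, Measure.restrict_restrict hAm]
  have hAE : A ∩ (univ \ E) ⊆ A := inter_subset_left
  rw [integral_add (hconst.mono_set hAE) ((hz'.mono_set hAE).const_mul _), integral_const_mul,
    setIntegral_const]
  have hvol : volume.real (A ∩ (univ \ E)) ≤ (volume (C \ E)).toReal := by
    refine ENNReal.toReal_mono ?_ (measure_mono ?_)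
    · exact ((measure_mono sdiff_subset).trans_lt hC.measure_lt_top).ne
    · rintro p ⟨⟨h1, -⟩, -, h2⟩
      exact ⟨h1, h2⟩
  have hen : ∫ p in A ∩ (univ \ E), g2 z p ≤ ∫ p in {x | h x < B} \ E, g2 z p :=
    setIntegral_mono_set (hz.mono_set sdiff_subset) (ae_of_all _ fun p => g2_nonneg z p)
      (Filter.Eventually.of_forall fun p hp => ⟨hp.1.2, hp.2.2⟩)
  rw [smul_eq_mul, mul_comm]
  gcongr

/-- changing finitely many terms of a series -/
theorem tail_trick {ι : Type*} [DecidableEq ι] {a b : ι → ℝ} (hb : Summable b) (F : Finset ι) :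
    Summable (fun i => if i ∈ F then a i else b i) ∧
      ∑' i, (if i ∈ F then a i else b i) = ∑' i, b i + (∑ i ∈ F, a i - ∑ i ∈ F, b i) := by
  have e : (fun i => if i ∈ F then a i else b i) =
      fun i => b i + (if i ∈ F then a i - b i else 0) := by
    funext i; split_ifs <;> ring
  have h0 : ∀ i ∉ F, (if i ∈ F then a i - b i else 0) = 0 := fun i hi => if_neg hi
  have h1 : Summable fun i => if i ∈ F then a i - b i else 0 := summable_of_ne_finset_zero h0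
  refine ⟨e ▸ hb.add h1, ?_⟩
  rw [e, hb.tsum_add h1, tsum_eq_sum h0, ← Finset.sum_sub_distrib]
  congr 1
  exact Finset.sum_congr rfl fun i hi => if_pos hi

theorem sq3 {x y w : ℝ} : (x + y + w) ^ 2 ≤ 3 * x ^ 2 + (3 * y ^ 2 + 3 * w ^ 2) := by
  nlinarith [sq_nonneg (x - y), sq_nonneg (x - w), sq_nonneg (y - w)]

/-- bound of the cut-off near a big square -/
def kap (a b δ s : ℝ) : ℝ := √(2 * (b - a) * δ / s) + √δ + δ

theorem kap_nonneg {a b δ s : ℝ} (hδ : 0 ≤ δ) : 0 ≤ kap a b δ s := by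
  unfold kap; positivity

/-- the total charge of the change -/
theorem Ch_op_le (hE : QPic E 𝒬 𝓗) (hh : ∀ x y, |h x - h y| ≤ dist x y) (hτ : 0 < τ)
    (hsl : Slab {x | h x < B}) (hχ : CFJ 𝓗 univ χ) (hχR : ∀ x, |χ x| ≤ R)
    {a b : ℝ} (hab : ∀ p ∈ E, a < p.2 ∧ p.2 < b) (hba : a ≤ b) {F : Finset 𝒬} {δ : ℝ} (hδ : 0 < δ)
    (hN : ∀ p ∈ N, a < p.2 ∧ p.2 < b) (hz : OneQ E 𝒬 𝓗 h B N δ z) (hcR : ∀ x, |c x| ≤ R)
    (hc : ∀ x ∈ N, ∀ᶠ y in 𝓝 x, c y = c x)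
    (hsat : ∀ Q ∈ 𝒬, (Q.car ∩ N).Nonempty → Q.car ⊆ N)
    (hop : CFJ 𝓗 univ (fun q => op h B τ z c χ q - χ q)) :
    Ch E univ 𝒬 (fun q => op h B τ z c χ q - χ q) ≤ 12 * R ^ 2 * δ +
      (∑' Q : 𝒬, (3 * ch E univ χ Q.1 ^ 2 + 48 * R ^ 2 / τ ^ 2 * Q.1.s ^ 2) -
        ∑ Q ∈ F, (3 * ch E univ χ Q.1 ^ 2 + 48 * R ^ 2 / τ ^ 2 * Q.1.s ^ 2)) +
      ∑ Q ∈ F, (4 * R * kap a b δ Q.1.s) ^ 2 := by
  classical
  have hR0 : 0 ≤ R := (abs_nonneg _).trans (hχR (0, 0))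
  obtain ⟨C, hC, hCN, h0⟩ := hz.supp
  have hCc : Cc 𝓗 {x | h x < B} z := ⟨hz.cf, C, hC, fun p _ hp => h0 p hp⟩
  have hvan : Van {x | h x < B} a b z := ⟨fun p _ hp => h0 p fun hpC => by
    have := hN p (hCN hpC)
    rcases hp with h | h <;> linarith [this.1, this.2]⟩
  have hTQ : TQ E {x | h x < B} 𝒬 z ≤ δ := hz.en
  have hTQ0 := TQ_nonneg E {x | h x < B} 𝒬 z
  have hb : Summable fun Q : 𝒬 => 3 * ch E univ χ Q.1 ^ 2 + 48 * R ^ 2 / τ ^ 2 * Q.1.s ^ 2 :=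
    ((summable_ch hE convex_univ hχ).mul_left 3).add (hE.summable_sq.mul_left _)
  obtain ⟨t1, t2⟩ := tail_trick (a := fun Q : 𝒬 => (4 * R * kap a b δ Q.1.s) ^ 2) hb F
  have hz2 := (summable_ch hE hsl.convex hz.cf).mul_left (12 * R ^ 2)
  have hpt : ∀ Q : 𝒬, ch E univ (fun q => op h B τ z c χ q - χ q) Q.1 ^ 2 ≤
      12 * R ^ 2 * ch E {x | h x < B} z Q.1 ^ 2 +
      (if Q ∈ F then (4 * R * kap a b δ Q.1.s) ^ 2 else
        3 * ch E univ χ Q.1 ^ 2 + 48 * R ^ 2 / τ ^ 2 * Q.1.s ^ 2) := by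
    intro Q
    have n0 := ch_nonneg E univ (fun q => op h B τ z c χ q - χ q) Q.1
    have n1 := ch_nonneg E {x | h x < B} z Q.1
    have n2 := ch_nonneg E univ χ Q.1
    have hs := Q.1.hs
    split_ifs with hF
    · have h1 : ch E univ (fun q => op h B τ z c χ q - χ q) Q.1 ≤ 4 * R * kap a b δ Q.1.s := by
        refine ch_small hτ hz.z01 hcR hχR (kap_nonneg hδ.le) fun hne => ?_
        obtain ⟨O, hO, hPO, H⟩ := face_le hE hsl hCc hab hvan Q.2 hne hδ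
        refine ⟨O, hO, hPO, fun q hq => (H q hq).trans ?_⟩
        unfold kap
        have : 0 ≤ b - a := by linarith
        gcongr
      have h2 := pow_le_pow_left₀ n0 h1 2
      have : 0 ≤ 12 * R ^ 2 * ch E {x | h x < B} z Q.1 ^ 2 := by positivity
      linarith
    · have h1 := ch_all hE hh hτ hχ hz.cf hz.z01 hC.isClosed hCN h0 hc hcR hχR (hsat Q.1 Q.2)
      have h2 := pow_le_pow_left₀ n0 h1 2
      refine h2.trans (sq3.trans (le_of_eq ?_))
      field_simp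
      ring
  have hsum := (hz2.add t1)
  have hChz : ∑' Q : 𝒬, ch E {x | h x < B} z Q.1 ^ 2 ≤ δ :=
    (Ch_le_TQ (E := E) (W := {x | h x < B}) (𝒬 := 𝒬) (f := z)).trans hTQ
  unfold Ch
  refine (Summable.tsum_le_tsum hpt (summable_ch hE convex_univ hop) hsum).trans ?_
  rw [hz2.tsum_add t1, t2, tsum_mul_left]
  have : 12 * R ^ 2 * ∑' Q : 𝒬, ch E {x | h x < B} z Q.1 ^ 2 ≤ 12 * R ^ 2 * δ := by gcongr
  linarith

/-- **the cost of one operation** -/
theorem exists_cost (hE : QPic E 𝒬 𝓗) (hh : ∀ x y, |h x - h y| ≤ dist x y) (hτ : 0 < τ)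
    (hnull : volume {p | h p = B} = 0) (hsl : Slab {x | h x < B}) (hχ : CFJ 𝓗 univ χ)
    (hχR : ∀ x, |χ x| ≤ R) {a b : ℝ} (hab : ∀ p ∈ E, a < p.2 ∧ p.2 < b) (hba : a ≤ b) {ε : ℝ}
    (hε : 0 < ε) :
    ∃ δ > 0, ∀ (N : Set (ℝ × ℝ)) (z c : ℝ × ℝ → ℝ), (∀ p ∈ N, a < p.2 ∧ p.2 < b) →
      volume (N \ E) ≤ ENNReal.ofReal δ → OneQ E 𝒬 𝓗 h B N δ z → (∀ x, |c x| ≤ R) →
      (∀ x ∈ N, ∀ᶠ y in 𝓝 x, c y = c x) →
      (∀ Q ∈ 𝒬, (Q.car ∩ N).Nonempty → Q.car ⊆ N) →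
      TQ E univ 𝒬 (fun q => op h B τ z c χ q - χ q) ≤ ε := by
  classical
  have hR0 : 0 ≤ R := (abs_nonneg _).trans (hχR (0, 0))
  obtain ⟨J, hJ, L, _, hL, h1, _⟩ := id hχ
  set K0 : ℝ := 4 * L ^ 2 + 32 * R ^ 2 / τ ^ 2 with hK0
  have hK00 : 0 ≤ K0 := by positivity
  have hb : Summable fun Q : 𝒬 => 3 * ch E univ χ Q.1 ^ 2 + 48 * R ^ 2 / τ ^ 2 * Q.1.s ^ 2 :=
    ((summable_ch hE convex_univ hχ).mul_left 3).add (hE.summable_sq.mul_left _)
  obtain ⟨F, hF⟩ := (hb.hasSum.eventually (Metric.ball_mem_nhds _ (half_pos hε))).exists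
  rw [Real.dist_eq] at hF
  simp only at hF
  set g : ℝ → ℝ := fun δ => K0 * δ + 16 * R ^ 2 * δ + 12 * R ^ 2 * δ +
    ∑ Q ∈ F, (4 * R * kap a b δ Q.1.s) ^ 2 with hg
  have hgc : Continuous g := by
    rw [hg]; unfold kap; fun_prop
  have hg0 : g 0 = 0 := by simp [hg, kap]
  have hev : ∀ᶠ δ in 𝓝[>] (0 : ℝ), g δ < ε / 2 := by
    have : Tendsto g (𝓝[>] 0) (𝓝 0) := by
      have h3 := hgc.tendsto 0
      rw [hg0] at h3
      exact h3.mono_left nhdsWithin_le_nhds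
    exact this.eventually (gt_mem_nhds (half_pos hε))
  obtain ⟨δ, hδg, hδ⟩ := (hev.and self_mem_nhdsWithin).exists
  refine ⟨δ, hδ, fun N z c hN hNv hz hcR hc hsat => ?_⟩
  obtain ⟨C, hC, hCN, h0⟩ := hz.supp
  have hcC : ∀ x ∈ C, ∀ᶠ y in 𝓝 x, c y = c x := fun x hx => hc x (hCN hx)
  have hopC : CFJ 𝓗 univ (op h B τ z c χ) :=
    op_cfj hh hτ hχ hz.cf hz.z01 hC.isClosed h0 hcC hcR hχR
  have hCh := Ch_op_le hE hh hτ hsl hχ hχR hab hba (F := F) hδ hN hz hcR hc hsat (hopC.sub hχ)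
  obtain ⟨J', hJ', M, _, hM, h2, _⟩ := hz.cf
  have hEn := op_EnV (E := E) (J := J ∪ J') (L := L) (M := M) (R := R) (c := c) (χ := χ) hh hτ
    hnull hL (h1.mono (sdiff_subset_sdiff_right (cut_mono Finset.subset_union_left))) hM
    (h2.mono (sdiff_subset_sdiff_right (cut_mono Finset.subset_union_right))) hz.z01 hC h0 hcC
    hcR hχR hE.cpt.isClosed
  have hvol : (volume (C \ E)).toReal ≤ δ :=
    ENNReal.toReal_le_of_le_ofReal hδ.le
      ((measure_mono (sdiff_subset_sdiff_left hCN)).trans hNv)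
  have hEnz : En ({x | h x < B} \ E) z ≤ δ := En_le_TQ.trans hz.en
  have k1 : K0 * (volume (C \ E)).toReal ≤ K0 * δ := by gcongr
  have k2 : 16 * R ^ 2 * En ({x | h x < B} \ E) z ≤ 16 * R ^ 2 * δ := by gcongr
  have k3 := (abs_lt.1 hF).1
  simp only [hg] at hδg
  unfold TQ
  linarith

end Crest.Agent.R105.Laq3_744
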