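import Mathlib
import Crest.Agent.R105.Tra1_937
import Crest.Agent.R105.FK1_644
import Crest.Agent.R105.Uni3_231

/-!
# Row 105, COFAT, S4U (D) (helper644): length-area in polar coordinates, uniform area bound

* `lintegral_polar`, `cs_window`
* `len U f p t` : length of the image of `sphere p t ∩ U` under `f`
* `len_window`  : `(∫ len dt/t)² ≤ 2π log (b/a) · area (f '' (U ∩ annulus))`
* `area_total`, `sum_area` : uniform area bound
-/

set_option autoImplicit false

open Set Filter Topology Metric MeasureTheory Real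
open scoped ENNReal

namespace Crest.Agent.R105.Len_644

open Crest.AnalysisR FK_644

/-- the open annulus -/
def ann (p : ℂ) (a b : ℝ) : Set ℂ := {z | a < dist z p ∧ dist z p < b}

theorem isOpen_ann (p : ℂ) (a b : ℝ) : IsOpen (ann p a b) := by
  have h : Continuous fun z : ℂ => dist z p := by fun_prop
  exact (isOpen_lt continuous_const h).inter (isOpen_lt h continuous_const)

theorem measurable_circleMap' (p : ℂ) :
    Measurable fun q : ℝ × ℝ => circleMap p q.1 q.2 := by
  unfold circleMap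
  fun_prop

theorem lintegral_polar (g : ℂ → ℝ≥0∞) (hg : Measurable g) (p : ℂ) {a b : ℝ} (ha : 0 ≤ a) :
    ∫⁻ t in Ioo a b, ∫⁻ θ in Ioo (-π) π, ENNReal.ofReal t * g (circleMap p t θ) =
      ∫⁻ z in ann p a b, g z := by
  have hA : MeasurableSet (ann p a b) := (isOpen_ann p a b).measurableSet
  rw [← lintegral_indicator hA, ← lintegral_add_left_eq_self _ p,
    ← Complex.lintegral_comp_polarCoord_symm, polarCoord_target]
  have e1 : (volume : Measure (ℝ × ℝ)).restrict (Ioi 0 ×ˢ Ioo (-π) π) =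
      (volume.restrict (Ioi (0:ℝ))).prod (volume.restrict (Ioo (-π) π)) := by
    rw [Measure.prod_restrict]
    rfl
  have hm : Measurable fun q : ℝ × ℝ => ENNReal.ofReal q.1 •
      (ann p a b).indicator g (p + Complex.polarCoord.symm q) := by
    have h1 : Measurable ((ann p a b).indicator g) := hg.indicator hA
    have h2 : Measurable fun q : ℝ × ℝ => p + Complex.polarCoord.symm q := by
      have : (fun q : ℝ × ℝ => p + Complex.polarCoord.symm q) =
          fun q : ℝ × ℝ => p + q.1 * (Real.cos q.2 + Real.sin q.2 * Complex.I) := by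
        funext q
        rw [Complex.polarCoord_symm_apply]
      rw [this]
      fun_prop
    exact (ENNReal.measurable_ofReal.comp measurable_fst).smul (h1.comp h2)
  rw [e1, lintegral_prod _ hm.aemeasurable]
  have e2 : ∀ t ∈ Ioi (0:ℝ), ∀ θ : ℝ, ENNReal.ofReal t •
      (ann p a b).indicator g (p + Complex.polarCoord.symm (t, θ)) =
      (Ioo a b).indicator (fun t => ENNReal.ofReal t * g (circleMap p t θ)) t := by
    intro t ht θ
    have ht' : 0 < t := ht
    have e3 : p + Complex.polarCoord.symm (t, θ) = circleMap p t θ := by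
      rw [Complex.polarCoord_symm_apply, circleMap, Complex.exp_mul_I, Complex.ofReal_cos,
        Complex.ofReal_sin]
    have e4 : dist (circleMap p t θ) p = t := by
      rw [dist_eq_norm, circleMap_sub_center, norm_circleMap_zero, abs_of_pos ht']
    rw [e3]
    by_cases h : t ∈ Ioo a b
    · have h' : circleMap p t θ ∈ ann p a b := by
        show a < dist _ p ∧ dist _ p < b
        rw [e4]
        exact h
      rw [indicator_of_mem h', indicator_of_mem h, smul_eq_mul]
    · have h' : circleMap p t θ ∉ ann p a b := by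
        show ¬ (a < dist _ p ∧ dist _ p < b)
        rw [e4]
        exact h
      rw [indicator_of_notMem h', indicator_of_notMem h, smul_zero]
  rw [setLIntegral_congr_fun measurableSet_Ioi (g := fun t => (Ioo a b).indicator
    (fun t => ∫⁻ θ in Ioo (-π) π, ENNReal.ofReal t * g (circleMap p t θ)) t)]
  · rw [lintegral_indicator measurableSet_Ioo, Measure.restrict_restrict measurableSet_Ioo]
    rw [inter_eq_left.2]
    intro t ht
    exact ha.trans_lt ht.1
  · intro t ht
    simp only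
    rw [lintegral_congr (e2 t ht)]
    by_cases h : t ∈ Ioo a b
    · simp only [indicator_of_mem h]
    · simp only [indicator_of_notMem h, lintegral_zero]

/-- Cauchy-Schwarz on a window -/
theorem cs_window (g : ℂ → ℝ≥0∞) (hg : Measurable g) (p : ℂ) {a b : ℝ} (ha : 0 < a)
    (hab : a ≤ b) :
    (∫⁻ t in Ioo a b, ∫⁻ θ in Ioo (-π) π, g (circleMap p t θ)) ^ 2 ≤
      ENNReal.ofReal (2 * π * Real.log (b / a)) * ∫⁻ z in ann p a b, g z ^ 2 := by
  set μ : Measure (ℝ × ℝ) :=
    (volume.restrict (Ioo a b)).prod (volume.restrict (Ioo (-π) π)) with hμ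
  have hgm : Measurable fun q : ℝ × ℝ => g (circleMap p q.1 q.2) :=
    hg.comp (measurable_circleMap' p)
  have h1 : ∫⁻ t in Ioo a b, ∫⁻ θ in Ioo (-π) π, g (circleMap p t θ) =
      ∫⁻ q, g (circleMap p q.1 q.2) ∂μ := (lintegral_prod _ hgm.aemeasurable).symm
  set F : ℝ × ℝ → ℝ≥0∞ := fun q => ENNReal.ofReal (√q.1) * g (circleMap p q.1 q.2) with hF
  set G : ℝ × ℝ → ℝ≥0∞ := fun q => ENNReal.ofReal (√q.1)⁻¹ with hG
  have hFm : Measurable F :=
    (ENNReal.measurable_ofReal.comp (Real.continuous_sqrt.measurable.comp measurable_fst)).mul hgm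
  have hGm : Measurable G :=
    ENNReal.measurable_ofReal.comp ((Real.continuous_sqrt.measurable.comp measurable_fst).inv)
  have hae : ∀ᵐ q ∂μ, q.1 ∈ Ioo a b := by
    have h2 : ∀ᵐ t ∂(volume.restrict (Ioo a b)), t ∈ Ioo a b := ae_restrict_mem measurableSet_Ioo
    exact Measure.quasiMeasurePreserving_fst.ae h2
  have h3 : ∫⁻ q, g (circleMap p q.1 q.2) ∂μ = ∫⁻ q, (F * G) q ∂μ := by
    refine lintegral_congr_ae ?_
    filter_upwards [hae] with q hq
    have hq0 : 0 < q.1 := ha.trans hq.1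
    have hs : 0 < √q.1 := Real.sqrt_pos.2 hq0
    simp only [hF, hG, Pi.mul_apply]
    rw [mul_right_comm, ← ENNReal.ofReal_mul hs.le, mul_inv_cancel₀ hs.ne', ENNReal.ofReal_one,
      one_mul]
  have h4 := ENNReal.lintegral_mul_le_Lp_mul_Lq μ Real.HolderConjugate.two_two
    hFm.aemeasurable hGm.aemeasurable
  have h5 : ∫⁻ q, F q ^ (2:ℝ) ∂μ = ∫⁻ z in ann p a b, g z ^ 2 := by
    rw [← lintegral_polar (fun z => g z ^ 2) (hg.pow_const 2) p ha.le]
    rw [lintegral_prod _ (hFm.pow_const _).aemeasurable]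
    refine setLIntegral_congr_fun measurableSet_Ioo fun t ht => ?_
    refine lintegral_congr fun θ => ?_
    have ht0 : 0 ≤ t := (ha.trans ht.1).le
    simp only [hF]
    rw [show (2:ℝ) = ((2:ℕ):ℝ) by norm_num, ENNReal.rpow_natCast, mul_pow,
      ← ENNReal.ofReal_pow (Real.sqrt_nonneg _), Real.sq_sqrt ht0]
  have h6 : ∫⁻ q, G q ^ (2:ℝ) ∂μ = ENNReal.ofReal (2 * π * Real.log (b / a)) := by
    have e1 : ∀ q : ℝ × ℝ, G q ^ (2:ℝ) = G q ^ 2 := fun q => by
      rw [show (2:ℝ) = ((2:ℕ):ℝ) by norm_num, ENNReal.rpow_natCast]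
    simp_rw [e1]
    rw [lintegral_prod _ (hGm.pow_const _).aemeasurable]
    have e2 : ∀ t ∈ Ioo a b, ∫⁻ θ in Ioo (-π) π, G (t, θ) ^ 2 =
        ENNReal.ofReal (2 * π * t⁻¹) := by
      intro t ht
      have ht0 : 0 < t := ha.trans ht.1
      simp only [hG]
      rw [lintegral_const, Measure.restrict_apply_univ, Real.volume_Ioo,
        ← ENNReal.ofReal_pow (by positivity), inv_pow, Real.sq_sqrt ht0.le,
        ← ENNReal.ofReal_mul (by positivity)]
      congr 1
      ring
    rw [setLIntegral_congr_fun measurableSet_Ioo e2]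
    have e3 : IntegrableOn (fun t : ℝ => 2 * π * t⁻¹) (Ioo a b) := by
      have hc : ContinuousOn (fun t : ℝ => 2 * π * t⁻¹) (Icc a b) := by
        apply ContinuousOn.mul continuousOn_const
        apply ContinuousOn.inv₀ continuousOn_id
        intro t ht
        exact (ha.trans_le ht.1).ne'
      exact hc.integrableOn_Icc.mono_set Ioo_subset_Icc_self
    rw [← ofReal_integral_eq_lintegral_ofReal e3]
    · congr 1
      rw [← integral_Ioc_eq_integral_Ioo, ← intervalIntegral.integral_of_le hab,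
        intervalIntegral.integral_const_mul, integral_inv_of_pos ha (ha.trans_le hab)]
    · refine (ae_restrict_iff' measurableSet_Ioo).2 (Eventually.of_forall fun t ht => ?_)
      have ht0 : 0 < t := ha.trans ht.1
      show (0:ℝ) ≤ 2 * π * t⁻¹
      positivity
  rw [h1, h3]
  calc (∫⁻ q, (F * G) q ∂μ) ^ 2
      ≤ ((∫⁻ q, F q ^ (2:ℝ) ∂μ) ^ (1 / (2:ℝ)) * (∫⁻ q, G q ^ (2:ℝ) ∂μ) ^ (1 / (2:ℝ))) ^ 2 := by
        gcongr
    _ = (∫⁻ q, F q ^ (2:ℝ) ∂μ) * ∫⁻ q, G q ^ (2:ℝ) ∂μ := by
        rw [mul_pow, ← ENNReal.rpow_natCast, ← ENNReal.rpow_mul, ← ENNReal.rpow_natCast,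
          ← ENNReal.rpow_mul]
        norm_num
    _ = _ := by rw [h5, h6, mul_comm]

/-- the length of the image of `sphere p t ∩ U` under `f` -/
noncomputable def len (U : Set ℂ) (f : ℂ → ℂ) (p : ℂ) (t : ℝ) : ℝ≥0∞ :=
  ∫⁻ θ in Ioo (-π) π, U.indicator (fun z => ‖deriv f z‖ₑ) (circleMap p t θ) * ENNReal.ofReal t

theorem measurable_ind {U : Set ℂ} (hU : IsOpen U) {f : ℂ → ℂ} :
    Measurable (U.indicator (fun z => ‖deriv f z‖ₑ)) :=
  (measurable_deriv f).enorm.indicator hU.measurableSet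

theorem measurable_len {U : Set ℂ} (hU : IsOpen U) (f : ℂ → ℂ) (p : ℂ) :
    Measurable (len U f p) := by
  have h : Measurable fun q : ℝ × ℝ =>
      U.indicator (fun z => ‖deriv f z‖ₑ) (circleMap p q.1 q.2) * ENNReal.ofReal q.1 :=
    ((measurable_ind hU).comp (measurable_circleMap' p)).mul
      (ENNReal.measurable_ofReal.comp measurable_fst)
  exact h.lintegral_prod_right'

/-- **length-area on a window** -/
theorem len_window {U : Set ℂ} (hU : IsOpen U) (f : ℂ → ℂ) (p : ℂ) {a b : ℝ} (ha : 0 < a)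
    (hab : a ≤ b) :
    (∫⁻ t in Ioo a b, len U f p t * ENNReal.ofReal t⁻¹) ^ 2 ≤
      ENNReal.ofReal (2 * π * Real.log (b / a)) * ∫⁻ z in U ∩ ann p a b, ‖deriv f z‖ₑ ^ 2 := by
  have h1 := cs_window _ (measurable_ind hU (f := f)) p ha hab
  have h2 : ∫⁻ t in Ioo a b, len U f p t * ENNReal.ofReal t⁻¹ =
      ∫⁻ t in Ioo a b, ∫⁻ θ in Ioo (-π) π,
        U.indicator (fun z => ‖deriv f z‖ₑ) (circleMap p t θ) := by
    refine setLIntegral_congr_fun measurableSet_Ioo fun t ht => ?_
    have ht0 : 0 < t := ha.trans ht.1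
    simp only [len]
    rw [← lintegral_mul_const']
    · refine lintegral_congr fun θ => ?_
      rw [mul_assoc, ← ENNReal.ofReal_mul ht0.le, mul_inv_cancel₀ ht0.ne', ENNReal.ofReal_one,
        mul_one]
    · exact ENNReal.ofReal_ne_top
  have h3 : ∫⁻ z in ann p a b, U.indicator (fun z => ‖deriv f z‖ₑ) z ^ 2 =
      ∫⁻ z in U ∩ ann p a b, ‖deriv f z‖ₑ ^ 2 := by
    have e1 : (fun z => U.indicator (fun z => ‖deriv f z‖ₑ) z ^ 2) =
        U.indicator (fun z => ‖deriv f z‖ₑ ^ 2) := by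
      funext z
      by_cases h : z ∈ U
      · rw [indicator_of_mem h, indicator_of_mem h]
      · rw [indicator_of_notMem h, indicator_of_notMem h]
        norm_num
    rw [e1, lintegral_indicator hU.measurableSet, Measure.restrict_restrict hU.measurableSet]
  rw [h2, ← h3]
  exact h1

/-- integral of the lengths -/
theorem lintegral_len {U : Set ℂ} (hU : IsOpen U) (f : ℂ → ℂ) (p : ℂ) {a b : ℝ} (ha : 0 ≤ a) :
    ∫⁻ t in Ioo a b, len U f p t = ∫⁻ z in U ∩ ann p a b, ‖deriv f z‖ₑ := by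
  have h1 := lintegral_polar _ (measurable_ind hU (f := f)) p (b := b) ha
  rw [lintegral_indicator hU.measurableSet, Measure.restrict_restrict hU.measurableSet] at h1
  rw [← h1]
  refine lintegral_congr fun t => ?_
  rw [len]
  exact lintegral_congr fun θ => mul_comm _ _

/-- area of the image of a measurable subset -/
theorem lintegral_deriv {U : Set ℂ} (hU : IsOpen U) {f : ℂ → ℂ} (hf : Sig U f) {S : Set ℂ}
    (hS : MeasurableSet S) (hSU : S ⊆ U) :
    ∫⁻ z in S, ‖deriv f z‖ₑ ^ 2 = volume (f '' S) := by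
  have h : Tra_937.Uni U f := ⟨hU, hf.hol, hf.inj⟩
  rw [h.volume_image hS hSU]
  refine lintegral_congr fun z => ?_
  rw [Complex.normSq_eq_norm_sq, ENNReal.ofReal_pow (norm_nonneg _), ofReal_norm]

/-- total area -/
theorem area_total {U : Set ℂ} (hU : IsOpen U) {f : ℂ → ℂ} (hf : Sig U f) {R : ℝ} (hR : 0 < R)
    (hRU : Uni231.Ext R ⊆ U) :
    (∫⁻ z in U ∩ closedBall 0 (2 * R), ‖deriv f z‖ₑ ^ 2) + volume (f '' U)ᶜ ≤
      volume (closedBall (0:ℂ) (4 * R)) := by
  have hV : IsOpen (f '' U) := hf.toU.isOpen_image hU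
  rw [lintegral_deriv hU hf (hU.measurableSet.inter isClosed_closedBall.measurableSet)
    inter_subset_left]
  have hd : Disjoint (f '' (U ∩ closedBall 0 (2 * R))) (f '' U)ᶜ :=
    disjoint_compl_right.mono_left (image_mono inter_subset_left)
  rw [← measure_union hd hV.measurableSet.compl]
  apply measure_mono
  apply union_subset
  · rintro _ ⟨z, ⟨hz, hz2⟩, rfl⟩
    rw [mem_closedBall_zero_iff] at hz2 ⊢
    have h1 := hf.toU.norm_le hR hRU (S := 2 * R) (by linarith) hz hz2
    linarith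
  · intro w hw
    rw [mem_closedBall_zero_iff]
    have h1 := hf.toU.norm_le_of_not_mem hR hRU hw
    linarith

/-- **uniform area bound**, disjoint parts -/
theorem sum_area {U : Set ℂ} (hU : IsOpen U) {f : ℂ → ℂ} (hf : Sig U f) {R : ℝ} (hR : 0 < R)
    (hRU : Uni231.Ext R ⊆ U) {κ : Type*} (s : Finset κ) {A : κ → Set ℂ}
    (hA : ∀ k ∈ s, MeasurableSet (A k)) (hAR : ∀ k ∈ s, A k ⊆ closedBall 0 (2 * R))
    (hd : (s : Set κ).PairwiseDisjoint A) :
    (∑ k ∈ s, ∫⁻ z in U ∩ A k, ‖deriv f z‖ₑ ^ 2) + volume (f '' U)ᶜ ≤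
      volume (closedBall (0:ℂ) (4 * R)) := by
  refine le_trans ?_ (area_total hU hf hR hRU)
  gcongr
  rw [← lintegral_biUnion_finset (μ := volume) (f := fun z => ‖deriv f z‖ₑ ^ 2)
    (t := fun k => U ∩ A k)
    (fun i hi j hj hij => (hd hi hj hij).mono inter_subset_right inter_subset_right)
    (fun k hk => hU.measurableSet.inter (hA k hk))]
  apply lintegral_mono_set
  refine iUnion₂_subset fun k hk => ?_
  exact inter_subset_inter_right U (hAR k hk)

/-- **uniform area bound** for a map onto the complement of disjoint discs -/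
theorem sum_area_discs {n : ℕ} {K : Fin n → Set ℂ} (hK : Fam K) {x : Fin n → ℂ × ℝ}
    (hx : x ∈ X n) {f : ℂ → ℂ} (hm : LMap K (discs x) f) {R : ℝ} (hR : 0 < R)
    (hRU : Uni231.Ext R ⊆ dom K) {κ : Type*} (s : Finset κ) {A : κ → Set ℂ}
    (hA : ∀ k ∈ s, MeasurableSet (A k)) (hAR : ∀ k ∈ s, A k ⊆ closedBall 0 (2 * R))
    (hd : (s : Set κ).PairwiseDisjoint A) :
    (∑ k ∈ s, ∫⁻ z in dom K ∩ A k, ‖deriv f z‖ₑ ^ 2) + ∑ i, ENNReal.ofReal (π * (x i).2 ^ 2) ≤
      ENNReal.ofReal (16 * π * R ^ 2) := by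
  have h1 := sum_area hK.exterior.1 hm.sig hR hRU s hA hAR hd
  have h2 : volume (f '' dom K)ᶜ = ∑ i, ENNReal.ofReal (π * (x i).2 ^ 2) := by
    rw [hm.img, compl_dom, measure_iUnion (fun i j hij => hx.2 i j hij)
      (fun i => (isCompact_discs x i).isClosed.measurableSet), tsum_fintype]
    refine Finset.sum_congr rfl fun i _ => ?_
    rw [discs, Complex.volume_closedBall, mul_comm, ENNReal.ofReal_mul pi_pos.le,
      ENNReal.ofReal_pow (hx.1 i).le]
    congr 1
    rw [ENNReal.ofReal, Real.toNNReal_of_nonneg pi_pos.le]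
    rfl
  have h3 : volume (closedBall (0:ℂ) (4 * R)) = ENNReal.ofReal (16 * π * R ^ 2) := by
    have h4 : (0:ℝ) ≤ 4 * R := by positivity
    have h5 : ENNReal.ofReal π = (NNReal.pi : ℝ≥0∞) := by
      rw [ENNReal.ofReal, Real.toNNReal_of_nonneg pi_pos.le]
      rfl
    rw [Complex.volume_closedBall, show 16 * π * R ^ 2 = (4 * R) ^ 2 * π by ring,
      ENNReal.ofReal_mul (pow_nonneg h4 2), ENNReal.ofReal_pow h4, h5]
  rw [h2, h3] at h1
  exact h1

end Crest.Agent.R105.Len_644
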