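import Mathlib

/-!
R105 / Sig2_731: a covering theorem (Koebe with constant 1/32) and growth in the class Sigma.
-/

set_option autoImplicit false

open Set Metric Filter Complex
open scoped Topology

namespace Crest.Agent.R105.Sig731

/-- Square roots of zero free holomorphic functions on balls. -/
theorem exists_sqrt {f : ℂ → ℂ} {c : ℂ} {r : ℝ} (hr : 0 < r)
    (hf : DifferentiableOn ℂ f (ball c r)) (hne : ∀ z ∈ ball c r, f z ≠ 0) {w : ℂ}
    (hw : w ^ 2 = f c) :
    ∃ F : ℂ → ℂ, DifferentiableOn ℂ F (ball c r) ∧ F c = w ∧ ∀ z ∈ ball c r, F z ^ 2 = f z := by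
  obtain ⟨L, hL⟩ := ((hf.deriv isOpen_ball).div hf hne).isExactOn_ball
  have hfd : ∀ z ∈ ball c r, HasDerivAt f (deriv f z) z := fun z hz =>
    ((hf z hz).differentiableAt (isOpen_ball.mem_nhds hz)).hasDerivAt
  have hhd : ∀ z ∈ ball c r, HasDerivAt (fun z => f z * exp (-(L z))) 0 z := by
    intro z hz
    have h1 := (hfd z hz).mul ((hL z hz).neg.cexp)
    have h2 := hne z hz
    have h3 : deriv f z * cexp ((-L) z) + f z * (cexp ((-L) z) * -(deriv f / f) z) = 0 := by
      have h4 : (deriv f / f) z = deriv f z / f z := rfl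
      rw [h4]
      field_simp
      ring
    rw [h3] at h1
    exact h1
  have hconst : ∀ z ∈ ball c r, f z * exp (-(L z)) = f c * exp (-(L c)) := by
    intro z hz
    exact IsOpen.is_const_of_deriv_eq_zero isOpen_ball (convex_ball c r).isPreconnected
      (fun y hy => (hhd y hy).differentiableAt.differentiableWithinAt)
      (fun y hy => (hhd y hy).deriv) hz (mem_ball_self hr)
  refine ⟨fun z => w * exp ((L z - L c) / 2), ?_, by simp, ?_⟩
  · intro z hz
    exact (((((hL z hz).sub_const (L c)).div_const 2).cexp).const_mul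
      w).differentiableAt.differentiableWithinAt
  · intro z hz
    have h1 := hconst z hz
    have h2 : (w * exp ((L z - L c) / 2)) ^ 2 = w ^ 2 * exp (L z - L c) := by
      rw [mul_pow, ← Complex.exp_nat_mul]
      congr 2
      push_cast
      ring
    rw [h2, hw, sub_eq_add_neg, Complex.exp_add]
    have h3 : exp (-(L z)) * exp (L z) = 1 := by rw [← Complex.exp_add]; simp
    calc f c * (exp (L z) * exp (-(L c))) = (f c * exp (-(L c))) * exp (L z) := by ring
      _ = (f z * exp (-(L z))) * exp (L z) := by rw [h1]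
      _ = f z * (exp (-(L z)) * exp (L z)) := by ring
      _ = f z := by rw [h3, mul_one]

/-- Koebe type covering theorem with constant `1/32`, normalised form. -/
theorem cover_one {f : ℂ → ℂ} (hf : DifferentiableOn ℂ f (ball 0 1)) (hinj : InjOn f (ball 0 1))
    (h0 : f 0 = 0) (h1 : deriv f 0 = 1) : ball (0 : ℂ) (1 / 32) ⊆ f '' ball 0 1 := by
  have hm0 : (0 : ℂ) ∈ ball (0 : ℂ) 1 := mem_ball_self one_pos
  -- images of open balls are open
  have hopen : ∀ {g : ℂ → ℂ}, DifferentiableOn ℂ g (ball 0 1) → InjOn g (ball 0 1) →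
      ∀ s ⊆ ball (0 : ℂ) 1, IsOpen s → IsOpen (g '' s) := by
    intro g hg hgi s hs hso
    rcases (hg.analyticOnNhd isOpen_ball).is_constant_or_isOpen
      (convex_ball (0 : ℂ) 1).isPreconnected with h | h
    · exfalso
      obtain ⟨w, hw⟩ := h
      have hh : (1 / 2 : ℂ) ∈ ball (0 : ℂ) 1 := by simp; norm_num
      have := hgi hm0 hh (by rw [hw _ hm0, hw _ hh])
      norm_num at this
    · exact h s hs hso
  by_contra hcon
  obtain ⟨w, hw, hw'⟩ := not_subset.1 hcon
  set O : Set ℂ := (f '' ball 0 1)ᶜ with hO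
  have hOcl : IsClosed O := (hopen hf hinj _ subset_rfl isOpen_ball).isClosed_compl
  have hOne : O.Nonempty := ⟨w, hw'⟩
  obtain ⟨w1, hw1, hw1d⟩ := hOcl.exists_infDist_eq_dist hOne 0
  have hr0 : ∀ v, ‖v‖ < ‖w1‖ → v ∈ f '' ball 0 1 := by
    intro v hv
    by_contra hv'
    have := infDist_le_dist_of_mem (x := (0 : ℂ)) (show v ∈ O from hv')
    rw [hw1d, dist_zero_left, dist_zero_left] at this
    linarith
  have hw1le : ‖w1‖ < 1 / 32 := by
    have := infDist_le_dist_of_mem (x := (0 : ℂ)) (show w ∈ O from hw')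
    rw [hw1d, dist_zero_left, dist_zero_left] at this
    have := mem_ball_zero_iff.1 hw
    linarith
  have hw1ne : w1 ≠ 0 := by
    rintro rfl
    exact hw1 ⟨0, hm0, h0⟩
  have hw1pos : 0 < ‖w1‖ := norm_pos_iff.2 hw1ne
  obtain ⟨F, hFd, hF0, hF2⟩ := exists_sqrt (f := fun z => 1 - f z / w1) (c := 0) (r := 1) one_pos
    ((differentiableOn_const _).sub (hf.div_const _)) (by
      intro z hz h
      apply hw1
      refine ⟨z, hz, ?_⟩
      have h2 : f z / w1 = 1 := by linear_combination -h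
      rwa [div_eq_one_iff_eq hw1ne] at h2) (w := 1) (by simp [h0])
  have hFf : ∀ a ∈ ball (0 : ℂ) 1, ∀ b ∈ ball (0 : ℂ) 1, F a ^ 2 = F b ^ 2 → a = b := by
    intro a ha b hb h
    rw [hF2 a ha, hF2 b hb] at h
    apply hinj ha hb
    have : f a / w1 = f b / w1 := by linear_combination -h
    field_simp at this
    exact this
  have hFinj : InjOn F (ball 0 1) := fun a ha b hb h => hFf a ha b hb (by rw [h])
  have hFne : ∀ a ∈ ball (0 : ℂ) 1, F a ≠ 0 := by
    intro a ha h
    have := hF2 a ha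
    rw [h] at this
    apply hw1
    refine ⟨a, ha, ?_⟩
    have h2 : f a / w1 = 1 := by linear_combination this
    rwa [div_eq_one_iff_eq hw1ne] at h2
  have hFneg : ∀ a ∈ ball (0 : ℂ) 1, ∀ b ∈ ball (0 : ℂ) 1, F a ≠ - F b := by
    intro a ha b hb h
    have hab := hFf a ha b hb (by rw [h]; ring)
    subst hab
    apply hFne a ha
    have : 2 * F a = 0 := by linear_combination h
    simpa using this
  -- the values near 1 are attained
  have hA : ball (1 : ℂ) (2 / 5) ⊆ F '' ball 0 1 := by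
    have hAo : IsOpen (F '' ball 0 1) := hopen hFd hFinj _ subset_rfl isOpen_ball
    have hBo : IsOpen ((fun z => - F z) '' ball 0 1) :=
      hopen hFd.neg (fun a ha b hb h => hFinj ha hb (neg_injective h)) _ subset_rfl isOpen_ball
    have hcov : ball (1 : ℂ) (2 / 5) ⊆ F '' ball 0 1 ∪ (fun z => - F z) '' ball 0 1 := by
      intro u hu
      have hu' : ‖u - 1‖ < 2 / 5 := by rwa [mem_ball, dist_eq_norm] at hu
      have h3 : ‖1 - u ^ 2‖ < 1 := by
        have e : 1 - u ^ 2 = -((u - 1) * ((u - 1) + 2)) := by ring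
        rw [e, norm_neg, norm_mul]
        have h4 : ‖(u - 1) + 2‖ ≤ ‖u - 1‖ + 2 := by
          refine (norm_add_le _ _).trans ?_
          simp
        have h5 : 0 ≤ ‖u - 1‖ := norm_nonneg _
        nlinarith
      obtain ⟨b, hb, hb'⟩ := hr0 (w1 * (1 - u ^ 2)) (by
        rw [norm_mul]
        nlinarith)
      have h6 : F b ^ 2 = u ^ 2 := by
        rw [hF2 b hb, hb']
        field_simp
        ring
      rcases sq_eq_sq_iff_eq_or_eq_neg.1 h6 with h | h
      · exact Or.inl ⟨b, hb, h⟩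
      · exact Or.inr ⟨b, hb, by simp [h]⟩
    have hpre := (convex_ball (1 : ℂ) (2 / 5)).isPreconnected
    refine hpre.subset_left_of_subset_union hAo hBo ?_ hcov ⟨1, mem_ball_self (by norm_num), 0, hm0,
      hF0⟩
    rw [Set.disjoint_left]
    rintro _ ⟨a, ha, rfl⟩ ⟨b, hb, hab⟩
    exact hFneg a ha b hb hab.symm
  have hfar : ∀ a ∈ ball (0 : ℂ) 1, 2 / 5 ≤ ‖F a + 1‖ := by
    intro a ha
    by_contra hlt
    push Not at hlt
    obtain ⟨b, hb, hb'⟩ := hA (show -F a ∈ ball (1 : ℂ) (2 / 5) by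
      rw [mem_ball, dist_eq_norm]
      have e : -F a - 1 = -(F a + 1) := by ring
      rw [e, norm_neg]
      exact hlt)
    exact hFneg b hb a ha hb'
  have hFa1 : ∀ a ∈ ball (0 : ℂ) 1, F a + 1 ≠ 0 := by
    intro a ha h
    have := hfar a ha
    rw [h, norm_zero] at this
    norm_num at this
  have hGd : DifferentiableOn ℂ (fun z => (F z + 1)⁻¹) (ball 0 1) :=
    (hFd.add_const 1).inv hFa1
  have hG0 : (F 0 + 1)⁻¹ = (1 / 2 : ℂ) := by rw [hF0]; norm_num
  have hmaps : MapsTo (fun z => (F z + 1)⁻¹) (ball (0 : ℂ) 1) (ball ((fun z => (F z + 1)⁻¹) 0) 4) := by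
    intro z hz
    simp only [hG0]
    rw [mem_ball, dist_eq_norm]
    have h3 : ‖(F z + 1)⁻¹‖ ≤ 5 / 2 := by
      rw [norm_inv]
      have := inv_anti₀ (by norm_num) (hfar z hz)
      norm_num at this ⊢
      exact this
    have h4 : ‖(F z + 1)⁻¹ - 1 / 2‖ ≤ ‖(F z + 1)⁻¹‖ + ‖(1 / 2 : ℂ)‖ := norm_sub_le _ _
    have h5 : ‖(1 / 2 : ℂ)‖ = 1 / 2 := by simp
    rw [h5] at h4
    linarith
  have hGder := Complex.norm_deriv_le_div_of_mapsTo_ball hGd
    (hmaps.mono_right ball_subset_closedBall) one_pos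
  have hFd0 : HasDerivAt F (deriv F 0) 0 :=
    ((hFd 0 hm0).differentiableAt (isOpen_ball.mem_nhds hm0)).hasDerivAt
  have hfd0 : HasDerivAt f 1 0 := by
    rw [← h1]
    exact ((hf 0 hm0).differentiableAt (isOpen_ball.mem_nhds hm0)).hasDerivAt
  have hGder' : HasDerivAt (fun z => (F z + 1)⁻¹) (-(deriv F 0) / (F 0 + 1) ^ 2) 0 :=
    (hFd0.add_const 1).inv (hFa1 0 hm0)
  rw [hGder'.deriv] at hGder
  have hsq : HasDerivAt (fun z => F z ^ 2) (2 * F 0 * deriv F 0) 0 := by
    have := hFd0.pow 2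
    have e : ((2 : ℕ) : ℂ) * F 0 ^ (2 - 1) * deriv F 0 = 2 * F 0 * deriv F 0 := by norm_num
    rw [e] at this
    exact this
  have hsq' : HasDerivAt (fun z => F z ^ 2) (-(1 / w1)) 0 := by
    have h3 : HasDerivAt (fun z => 1 - f z / w1) (-(1 / w1)) 0 := by
      simpa using (hfd0.div_const w1).const_sub 1
    apply h3.congr_of_eventuallyEq
    filter_upwards [isOpen_ball.mem_nhds hm0] with z hz
    exact hF2 z hz
  have heq := hsq.unique hsq'
  rw [hF0] at heq
  have hFd0n : ‖deriv F 0‖ = 1 / (2 * ‖w1‖) := by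
    have : deriv F 0 = -(1 / w1) / 2 := by linear_combination heq / 2
    rw [this, norm_div, norm_neg, norm_div]
    simp
    field_simp
  rw [hF0] at hGder
  have h4 : ‖-(deriv F 0) / (1 + 1) ^ 2‖ = 1 / (8 * ‖w1‖) := by
    rw [norm_div, norm_neg, hFd0n]
    norm_num
    field_simp
    norm_num
  rw [h4] at hGder
  have h5 : 1 / (8 * ‖w1‖) ≤ 4 := by simpa using hGder
  rw [div_le_iff₀ (by positivity)] at h5
  linarith

/-- Koebe type covering theorem with constant `1/32`. -/
theorem cover_ball {f : ℂ → ℂ} {c : ℂ} {ρ : ℝ} (hρ : 0 < ρ)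
    (hf : DifferentiableOn ℂ f (ball c ρ)) (hinj : InjOn f (ball c ρ)) :
    ball (f c) (ρ * ‖deriv f c‖ / 32) ⊆ f '' ball c ρ := by
  by_cases hd : deriv f c = 0
  · rw [hd]
    simp
  have hmc : c ∈ ball c ρ := mem_ball_self hρ
  have hd' : 0 < ‖deriv f c‖ := norm_pos_iff.2 hd
  have hρc : (ρ : ℂ) ≠ 0 := by exact_mod_cast hρ.ne'
  set a : ℂ := ρ * deriv f c with ha
  have ha0 : a ≠ 0 := mul_ne_zero hρc hd
  have hmap : ∀ z ∈ ball (0 : ℂ) 1, c + ρ * z ∈ ball c ρ := by
    intro z hz
    rw [mem_ball, dist_eq_norm]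
    rw [mem_ball_zero_iff] at hz
    simp only [add_sub_cancel_left, norm_mul, norm_real, Real.norm_eq_abs, abs_of_pos hρ]
    nlinarith
  have hfd0 : HasDerivAt f (deriv f c) c :=
    ((hf c hmc).differentiableAt (isOpen_ball.mem_nhds hmc)).hasDerivAt
  have hin : HasDerivAt (fun z : ℂ => c + ρ * z) (ρ : ℂ) 0 := by
    simpa using ((hasDerivAt_id (0 : ℂ)).const_mul (ρ : ℂ)).const_add c
  have hder : HasDerivAt (fun z => (f (c + ρ * z) - f c) / a) 1 0 := by
    have h2 : HasDerivAt f (deriv f c) (c + ρ * 0) := by simpa using hfd0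
    have := ((h2.comp (0 : ℂ) hin).sub_const (f c)).div_const a
    have e : deriv f c * (ρ : ℂ) / a = 1 := by
      rw [ha]
      field_simp
    rw [e] at this
    exact this
  have hone := cover_one (f := fun z => (f (c + ρ * z) - f c) / a)
    (by
      have h2 : DifferentiableOn ℂ (fun z : ℂ => c + ρ * z) (ball 0 1) :=
        (differentiableOn_const c).add ((differentiableOn_const _).mul differentiableOn_id)
      exact (((hf.comp h2 hmap).sub_const (f c)).div_const a))
    (by
      intro z hz z' hz' h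
      simp only at h
      have h3 : f (c + ρ * z) = f (c + ρ * z') := by
        field_simp at h
        linear_combination h
      have := hinj (hmap z hz) (hmap z' hz') h3
      have h4 : (ρ : ℂ) * z = ρ * z' := by linear_combination this
      exact mul_left_cancel₀ hρc h4)
    (by simp) hder.deriv
  intro w hw
  obtain ⟨z, hz, hz'⟩ := hone (show (w - f c) / a ∈ ball (0 : ℂ) (1 / 32) by
    rw [mem_ball_zero_iff, norm_div, div_lt_iff₀ (norm_pos_iff.2 ha0), ha, norm_mul, norm_real,
      Real.norm_eq_abs, abs_of_pos hρ]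
    rw [mem_ball, dist_eq_norm] at hw
    linarith)
  refine ⟨c + ρ * z, hmap z hz, ?_⟩
  simp only at hz'
  field_simp at hz'
  linear_combination hz'

end Crest.Agent.R105.Sig731
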