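import Crest.Agent.R105.Sig1_731
import Crest.Agent.R105.Sig2_731

/-!
R105 / Sig3_731: the class Sigma: growth, omitted values.
-/

set_option autoImplicit false

open Set Metric Filter Complex
open scoped Topology

namespace Crest.Agent.R105.Sig731

/-- The class `Sigma(U)`: univalent maps of `U` normalised by `f z = z + o(1)` at infinity. -/
def Sig (U : Set ℂ) (f : ℂ → ℂ) : Prop :=
  DifferentiableOn ℂ f U ∧ InjOn f U ∧ Tendsto (fun z => f z - z) (cocompact ℂ) (𝓝 0)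

theorem tendsto_inv_cocompact : Tendsto (fun ζ : ℂ => ζ⁻¹) (𝓝[≠] 0) (cocompact ℂ) := by
  rw [← Metric.cobounded_eq_cocompact]
  exact tendsto_inv₀_nhdsNE_zero

theorem isOpen_ext (R : ℝ) : IsOpen {z : ℂ | R < ‖z‖} := isOpen_lt continuous_const continuous_norm

theorem mem_ext_of_inv {R : ℝ} (hR : 0 < R) {ζ : ℂ} (hζ : ζ ∈ ball (0 : ℂ) R⁻¹) (h0 : ζ ≠ 0) :
    R < ‖ζ⁻¹‖ := by
  rw [mem_ball_zero_iff] at hζ
  rw [norm_inv]
  rw [lt_inv_comm₀ hR (norm_pos_iff.2 h0)]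
  exact hζ

/-- Removal of the singularity at infinity. -/
theorem ext_inf {R : ℝ} (hR : 0 < R) {φ : ℂ → ℂ} {L : ℂ}
    (hφ : DifferentiableOn ℂ φ {z | R < ‖z‖}) (hlim : Tendsto φ (cocompact ℂ) (𝓝 L)) :
    DifferentiableOn ℂ (fun ζ => if ζ = 0 then L else φ ζ⁻¹) (ball 0 R⁻¹) := by
  classical
  have hne : ∀ ζ ∈ ball (0 : ℂ) R⁻¹, ζ ≠ 0 →
      DifferentiableAt ℂ (fun ζ => if ζ = 0 then L else φ ζ⁻¹) ζ := by
    intro ζ hζ h0
    have h1 : DifferentiableAt ℂ (fun ζ => φ ζ⁻¹) ζ := by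
      have h2 := (hφ _ (mem_ext_of_inv hR hζ h0)).differentiableAt
        ((isOpen_ext R).mem_nhds (mem_ext_of_inv hR hζ h0))
      exact h2.comp ζ (differentiableAt_inv h0)
    apply h1.congr_of_eventuallyEq
    filter_upwards [isOpen_ne.mem_nhds h0] with z hz
    rw [if_neg hz]
  intro ζ hζ
  by_cases h0 : ζ = 0
  · subst h0
    apply DifferentiableAt.differentiableWithinAt
    apply AnalyticAt.differentiableAt
    apply Complex.analyticAt_of_differentiable_on_punctured_nhds_of_continuousAt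
    · rw [eventually_nhdsWithin_iff]
      filter_upwards [isOpen_ball.mem_nhds hζ] with z hz hz0
      exact hne z hz hz0
    · have : ContinuousAt (fun ζ : ℂ => if ζ = 0 then L else φ ζ⁻¹) 0 ↔
          Tendsto (fun ζ : ℂ => if ζ = 0 then L else φ ζ⁻¹) (𝓝[≠] 0) (𝓝 L) := by
        rw [continuousAt_iff_punctured_nhds]
        simp
      rw [this]
      have h1 : Tendsto (fun ζ : ℂ => φ ζ⁻¹) (𝓝[≠] 0) (𝓝 L) := hlim.comp tendsto_inv_cocompact
      apply h1.congr'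
      filter_upwards [self_mem_nhdsWithin] with z hz
      have hz' : z ≠ 0 := hz
      simp only [if_neg hz']
  · exact (hne ζ hζ h0).differentiableWithinAt

/-- The transformed map `1 / (g (1/ζ) - w₀)`. -/
noncomputable def hmap (g : ℂ → ℂ) (w₀ : ℂ) (ζ : ℂ) : ℂ := if ζ = 0 then 0 else (g ζ⁻¹ - w₀)⁻¹

theorem hmap_spec {r : ℝ} (hr : 0 < r) {g : ℂ → ℂ} {w₀ : ℂ}
    (hg : DifferentiableOn ℂ g {z | r < ‖z‖}) (hinj : InjOn g {z | r < ‖z‖})
    (hlim : Tendsto (fun z => g z - z) (cocompact ℂ) (𝓝 0))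
    (hw : ∀ z, r < ‖z‖ → g z ≠ w₀) :
    HasDerivAt (hmap g w₀) 1 0 ∧ DifferentiableOn ℂ (hmap g w₀) (ball 0 r⁻¹) ∧
      InjOn (hmap g w₀) (ball 0 r⁻¹) := by
  classical
  have h1 : HasDerivAt (hmap g w₀) 1 0 := by
    rw [hasDerivAt_iff_tendsto_slope_zero]
    have h2 : Tendsto (fun t : ℂ => (t * (g t⁻¹ - t⁻¹) + 1 - t * w₀)⁻¹) (𝓝[≠] 0) (𝓝 1) := by
      have h3 : Tendsto (fun t : ℂ => g t⁻¹ - t⁻¹) (𝓝[≠] 0) (𝓝 0) :=
        hlim.comp tendsto_inv_cocompact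
      have h4 : Tendsto (fun t : ℂ => t) (𝓝[≠] 0) (𝓝 0) := tendsto_id.mono_left nhdsWithin_le_nhds
      have h5 := (((h4.mul h3).add_const 1).sub (h4.mul_const w₀)).inv₀ (by simp)
      simpa using h5
    apply h2.congr'
    filter_upwards [self_mem_nhdsWithin] with t ht
    have ht' : t ≠ 0 := ht
    simp only [hmap, zero_add, if_neg ht', if_true, sub_zero, smul_eq_mul]
    rw [← mul_inv]
    congr 1
    field_simp
    ring
  refine ⟨h1, ?_, ?_⟩
  · intro ζ hζ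
    by_cases h0 : ζ = 0
    · subst h0
      exact h1.differentiableAt.differentiableWithinAt
    · apply DifferentiableAt.differentiableWithinAt
      have h2 := (hg _ (mem_ext_of_inv hr hζ h0)).differentiableAt
        ((isOpen_ext r).mem_nhds (mem_ext_of_inv hr hζ h0))
      have h3 : DifferentiableAt ℂ (fun ζ => (g ζ⁻¹ - w₀)⁻¹) ζ :=
        ((h2.comp ζ (differentiableAt_inv h0)).sub_const w₀).inv
          (sub_ne_zero.2 (hw _ (mem_ext_of_inv hr hζ h0)))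
      apply h3.congr_of_eventuallyEq
      filter_upwards [isOpen_ne.mem_nhds h0] with z hz
      simp only [hmap]
      rw [if_neg hz]
  · intro a ha b hb hab
    simp only [hmap] at hab
    by_cases ha0 : a = 0
    · by_cases hb0 : b = 0
      · rw [ha0, hb0]
      · rw [if_pos ha0, if_neg hb0] at hab
        exact absurd hab.symm (inv_ne_zero (sub_ne_zero.2 (hw _ (mem_ext_of_inv hr hb hb0))))
    · by_cases hb0 : b = 0
      · rw [if_pos hb0, if_neg ha0] at hab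
        exact absurd hab (inv_ne_zero (sub_ne_zero.2 (hw _ (mem_ext_of_inv hr ha ha0))))
      · rw [if_neg ha0, if_neg hb0] at hab
        have h2 := hinj (mem_ext_of_inv hr ha ha0) (mem_ext_of_inv hr hb hb0)
          (sub_left_injective (inv_injective hab))
        exact inv_injective h2

/-- Values far from an omitted value are attained. -/
theorem attained_of_far {r : ℝ} (hr : 0 < r) {g : ℂ → ℂ} {w₀ : ℂ}
    (hg : DifferentiableOn ℂ g {z | r < ‖z‖}) (hinj : InjOn g {z | r < ‖z‖})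
    (hlim : Tendsto (fun z => g z - z) (cocompact ℂ) (𝓝 0))
    (hw : ∀ z, r < ‖z‖ → g z ≠ w₀) {w : ℂ} (hfar : 32 * r < ‖w - w₀‖) :
    ∃ z, r < ‖z‖ ∧ g z = w := by
  classical
  obtain ⟨h1, h2, h3⟩ := hmap_spec hr hg hinj hlim hw
  have hr' : 0 < r⁻¹ := inv_pos.2 hr
  have hcov := cover_ball hr' h2 h3
  rw [h1.deriv] at hcov
  have hh0 : hmap g w₀ 0 = 0 := by simp [hmap]
  rw [hh0, norm_one, mul_one] at hcov
  have hpos : 0 < ‖w - w₀‖ := by
    have : 0 < 32 * r := by positivity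
    linarith
  have hmem : (w - w₀)⁻¹ ∈ ball (0 : ℂ) (r⁻¹ / 32) := by
    rw [mem_ball_zero_iff, norm_inv]
    have : r⁻¹ / 32 = (32 * r)⁻¹ := by
      rw [mul_inv]; ring
    rw [this]
    exact inv_strictAnti₀ (by positivity) hfar
  obtain ⟨ζ, hζ, hζ'⟩ := hcov hmem
  have hne : (w - w₀)⁻¹ ≠ 0 := inv_ne_zero (norm_pos_iff.1 hpos)
  have h0 : ζ ≠ 0 := by
    rintro rfl
    rw [hh0] at hζ'
    exact hne hζ'.symm
  refine ⟨ζ⁻¹, mem_ext_of_inv hr hζ h0, ?_⟩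
  simp only [hmap, if_neg h0] at hζ'
  exact sub_left_injective (inv_injective hζ')

/-- Linear growth with respect to an omitted value. -/
theorem growth_of_omitted {r : ℝ} (hr : 0 < r) {g : ℂ → ℂ} {w₀ : ℂ}
    (hg : DifferentiableOn ℂ g {z | r < ‖z‖}) (hinj : InjOn g {z | r < ‖z‖})
    (hlim : Tendsto (fun z => g z - z) (cocompact ℂ) (𝓝 0))
    (hw : ∀ z, r < ‖z‖ → g z ≠ w₀) {z : ℂ} (hz : r < ‖z‖) :
    ‖g z - w₀‖ ≤ 32 * ‖z‖ := by
  classical
  obtain ⟨h1, h2, h3⟩ := hmap_spec hr hg hinj hlim hw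
  by_contra hcon
  push Not at hcon
  have hz0 : 0 < ‖z‖ := hr.trans hz
  have hzr : ‖z‖⁻¹ < r⁻¹ := inv_strictAnti₀ hr hz
  have hsub : ball (0 : ℂ) ‖z‖⁻¹ ⊆ ball 0 r⁻¹ := ball_subset_ball hzr.le
  have hcov := cover_ball (inv_pos.2 hz0) (h2.mono hsub) (h3.mono hsub)
  rw [h1.deriv] at hcov
  have hh0 : hmap g w₀ 0 = 0 := by simp [hmap]
  rw [hh0, norm_one, mul_one] at hcov
  have hzne : z ≠ 0 := norm_pos_iff.1 hz0
  have hval : hmap g w₀ z⁻¹ = (g z - w₀)⁻¹ := by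
    simp only [hmap, if_neg (inv_ne_zero hzne), inv_inv]
  have hmem : hmap g w₀ z⁻¹ ∈ ball (0 : ℂ) (‖z‖⁻¹ / 32) := by
    rw [mem_ball_zero_iff, hval, norm_inv]
    have : ‖z‖⁻¹ / 32 = (32 * ‖z‖)⁻¹ := by
      rw [mul_inv]; ring
    rw [this]
    exact inv_strictAnti₀ (by positivity) hcon
  obtain ⟨ζ, hζ, hζ'⟩ := hcov hmem
  have hzm : z⁻¹ ∈ ball (0 : ℂ) r⁻¹ := by
    rw [mem_ball_zero_iff, norm_inv]; exact hzr
  have := h3 (hsub hζ) hzm hζ'
  rw [this, mem_ball_zero_iff, norm_inv] at hζ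
  exact lt_irrefl _ hζ

/-- `g` tends to infinity. -/
theorem eventually_norm_gt {g : ℂ → ℂ} (hlim : Tendsto (fun z => g z - z) (cocompact ℂ) (𝓝 0))
    (M : ℝ) : ∃ r > 0, ∀ z, r < ‖z‖ → M < ‖g z‖ := by
  have h1 := (Metric.tendsto_nhds.1 hlim) 1 one_pos
  rw [← Metric.cobounded_eq_cocompact] at h1
  obtain ⟨r, hr⟩ := (hasBasis_cobounded_norm (E := ℂ)).eventually_iff.1 h1
  refine ⟨max (max r 1) (M + 2), lt_of_lt_of_le one_pos ((le_max_right _ _).trans (le_max_left _ _)),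
    fun z hz => ?_⟩
  have hz1 : r ≤ ‖z‖ := ((le_max_left _ _).trans (le_max_left _ _)).trans hz.le
  have hz2 : M + 2 < ‖z‖ := lt_of_le_of_lt (le_max_right _ _) hz
  have h2 : dist (g z - z) 0 < 1 := hr.2 hz1
  rw [dist_zero_right] at h2
  have h3 : ‖z‖ ≤ ‖g z‖ + ‖g z - z‖ := by
    have : z = g z - (g z - z) := by ring
    calc ‖z‖ = ‖g z - (g z - z)‖ := by rw [← this]
      _ ≤ _ := norm_sub_le _ _
  linarith

/-- Univalent maps of the exterior of a disc omit a value. -/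
theorem exists_omitted {R : ℝ} (hR : 0 < R) {g : ℂ → ℂ}
    (hg : DifferentiableOn ℂ g {z | R < ‖z‖}) (hinj : InjOn g {z | R < ‖z‖})
    (hlim : Tendsto (fun z => g z - z) (cocompact ℂ) (𝓝 0)) :
    ∃ w₀, ∀ z, R < ‖z‖ → g z ≠ w₀ := by
  by_contra hcon
  push Not at hcon
  obtain ⟨r0, hr0, hr0'⟩ := eventually_norm_gt hlim 0
  set r1 := max r0 (R + 1) with hr1
  have hr1pos : 0 < r1 := lt_of_lt_of_le hr0 (le_max_left _ _)
  have hRr1 : R < r1 := lt_of_lt_of_le (by linarith) (le_max_right _ _)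
  have hsub1 : {z : ℂ | r1 < ‖z‖} ⊆ {z | R < ‖z‖} := fun z hz => hRr1.trans hz
  have hw : ∀ z, r1 < ‖z‖ → g z ≠ 0 := by
    intro z hz
    have := hr0' z (lt_of_le_of_lt (le_max_left _ _) hz)
    exact norm_pos_iff.1 this
  have hatt : ∀ w, 32 * r1 < ‖w‖ → ∃ z, r1 < ‖z‖ ∧ g z = w := by
    intro w hw'
    exact attained_of_far hr1pos (hg.mono hsub1) (hinj.mono hsub1) hlim hw (by simpa using hw')
  -- open mapping
  have hopen : ∀ s ⊆ {z : ℂ | R < ‖z‖}, IsOpen s → IsOpen (g '' s) := by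
    intro s hs hso
    rw [isOpen_iff_mem_nhds]
    rintro _ ⟨a, ha, rfl⟩
    have haR := hs ha
    have han : AnalyticAt ℂ g a := (hg.analyticOnNhd (isOpen_ext R)) a haR
    rcases han.eventually_constant_or_nhds_le_map_nhds with h | h
    · exfalso
      have h2 : ∀ᶠ z in 𝓝 a, R < ‖z‖ := (isOpen_ext R).mem_nhds haR
      obtain ⟨ε, hε, hε'⟩ := Metric.eventually_nhds_iff.1 (h.and h2)
      have h3 : dist (a + (ε / 2 : ℝ)) a < ε := by
        rw [dist_eq_norm]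
        simp only [add_sub_cancel_left, norm_real, Real.norm_eq_abs]
        rw [abs_of_pos (by positivity)]
        linarith
      have h4 := hε' h3
      have h5 := hinj h4.2 haR h4.1
      have : ((ε / 2 : ℝ) : ℂ) = 0 := by linear_combination h5
      rw [ofReal_eq_zero] at this
      linarith
    · exact h (image_mem_map (hso.mem_nhds ha))
  set K : Set ℂ := {z | R < ‖z‖ ∧ ‖z‖ ≤ r1} with hK
  have hgK : g '' K = (g '' {z : ℂ | r1 < ‖z‖})ᶜ := by
    ext w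
    constructor
    · rintro ⟨z, hz, rfl⟩ ⟨z', hz', h⟩
      have := hinj (hsub1 hz') hz.1 h
      subst this
      exact absurd hz.2 (not_le.2 hz')
    · intro hw'
      obtain ⟨z, hz, rfl⟩ := hcon w
      refine ⟨z, ⟨hz, ?_⟩, rfl⟩
      by_contra hlt
      exact hw' ⟨z, not_le.1 hlt, rfl⟩
  have hgKc : IsCompact (g '' K) := by
    apply (isCompact_closedBall (0 : ℂ) (32 * r1)).of_isClosed_subset
    · rw [hgK]
      exact (hopen _ hsub1 (isOpen_ext r1)).isClosed_compl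
    · intro w hw'
      rw [mem_closedBall_zero_iff]
      by_contra hlt
      rw [hgK] at hw'
      obtain ⟨z, hz, hz'⟩ := hatt w (not_le.1 hlt)
      exact hw' ⟨z, hz, hz'⟩
  let zn : ℕ → ℂ := fun n => ((R + (r1 - R) * (1 / ((n : ℝ) + 1)) : ℝ) : ℂ)
  have hznn : ∀ n, ‖zn n‖ = R + (r1 - R) * (1 / ((n : ℝ) + 1)) := by
    intro n
    simp only [zn, norm_real, Real.norm_eq_abs]
    rw [abs_of_pos]
    have : 0 < r1 - R := by linarith
    positivity
  have hznK : ∀ n, zn n ∈ K := by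
    intro n
    have h1 : 0 < r1 - R := by linarith
    have h2 : 0 < 1 / ((n : ℝ) + 1) := by positivity
    have h3 : 1 / ((n : ℝ) + 1) ≤ 1 := by
      rw [div_le_one (by positivity)]
      have : (0 : ℝ) ≤ n := Nat.cast_nonneg n
      linarith
    refine ⟨?_, ?_⟩
    · rw [hznn]
      have := mul_pos h1 h2
      linarith
    · rw [hznn]
      nlinarith
  obtain ⟨a, ⟨z', hz'K, hz'a⟩, φ, hφ, hφlim⟩ :=
    hgKc.tendsto_subseq (fun n => mem_image_of_mem g (hznK n))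
  have hz'R : R < ‖z'‖ := hz'K.1
  set ε := (‖z'‖ - R) / 2 with hε
  have hεpos : 0 < ε := by rw [hε]; linarith
  have hball : ball z' ε ⊆ {z : ℂ | R < ‖z‖} := by
    intro y hy
    have h1 := mem_ball.1 hy
    have h2 := norm_sub_norm_le z' y
    rw [← dist_eq_norm, dist_comm] at h2
    change R < ‖y‖
    have : ‖z'‖ - R = 2 * ε := by rw [hε]; ring
    linarith
  have hnb : g '' ball z' ε ∈ 𝓝 a := by
    rw [← hz'a]
    exact (hopen _ hball isOpen_ball).mem_nhds ⟨z', mem_ball_self hεpos, rfl⟩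
  have hev := hφlim.eventually_mem hnb
  have hlimz : Tendsto (fun n => ‖zn (φ n)‖) atTop (𝓝 R) := by
    have h1 : Tendsto (fun n : ℕ => R + (r1 - R) * (1 / ((n : ℝ) + 1))) atTop
        (𝓝 (R + (r1 - R) * 0)) :=
      (tendsto_one_div_add_atTop_nhds_zero_nat.const_mul _).const_add _
    rw [mul_zero, add_zero] at h1
    have h2 := h1.comp hφ.tendsto_atTop
    refine h2.congr fun n => ?_
    simp only [Function.comp]
    rw [hznn]
  have hev2 : ∀ᶠ n in atTop, ‖zn (φ n)‖ < R + ε :=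
    hlimz.eventually (gt_mem_nhds (by linarith))
  obtain ⟨n, hn1, hn2⟩ := (hev.and hev2).exists
  obtain ⟨y, hy, hy'⟩ := hn1
  have := hinj (hball hy) (hznK (φ n)).1 hy'
  rw [← this] at hn2
  have h1 := mem_ball.1 hy
  have h2 := norm_sub_norm_le z' y
  rw [← dist_eq_norm, dist_comm] at h2
  have : ‖z'‖ - R = 2 * ε := by rw [hε]; ring
  linarith

/-- Maximum principle at infinity. -/
theorem ext_max {R r : ℝ} (hR : 0 < R) (hRr : R < r) {φ : ℂ → ℂ} {L : ℂ} {M : ℝ}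
    (hφ : DifferentiableOn ℂ φ {z | R < ‖z‖}) (hlim : Tendsto φ (cocompact ℂ) (𝓝 L))
    (hM : ∀ z, ‖z‖ = r → ‖φ z‖ ≤ M) :
    ‖L‖ ≤ M ∧ ∀ z, r < ‖z‖ → ‖φ z‖ ≤ M := by
  classical
  have hr : 0 < r := hR.trans hRr
  have hd := ext_inf hR hφ hlim
  have hri : 0 < r⁻¹ := inv_pos.2 hr
  have hlt : r⁻¹ < R⁻¹ := inv_strictAnti₀ hR hRr
  have hdc : DiffContOnCl ℂ (fun ζ => if ζ = 0 then L else φ ζ⁻¹) (ball 0 r⁻¹) := by
    apply DifferentiableOn.diffContOnCl
    rw [closure_ball _ hri.ne']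
    exact hd.mono (closedBall_subset_ball hlt)
  have hb : ∀ ζ ∈ frontier (ball (0 : ℂ) r⁻¹), ‖(fun ζ => if ζ = 0 then L else φ ζ⁻¹) ζ‖ ≤ M := by
    intro ζ hζ
    rw [frontier_ball _ hri.ne', mem_sphere_zero_iff_norm] at hζ
    have h0 : ζ ≠ 0 := by
      rintro rfl
      rw [norm_zero] at hζ
      exact hri.ne hζ
    simp only [if_neg h0]
    apply hM
    rw [norm_inv, hζ, inv_inv]
  have key := fun ζ (hζ : ζ ∈ closure (ball (0 : ℂ) r⁻¹)) =>
    Complex.norm_le_of_forall_mem_frontier_norm_le isBounded_ball hdc hb hζ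
  refine ⟨?_, ?_⟩
  · have := key 0 (subset_closure (mem_ball_self hri))
    simpa using this
  · intro z hz
    have hz0 : z ≠ 0 := by
      rintro rfl
      rw [norm_zero] at hz
      exact absurd hz (not_lt.2 hr.le)
    have hm : z⁻¹ ∈ ball (0 : ℂ) r⁻¹ := by
      rw [mem_ball_zero_iff, norm_inv]
      exact inv_strictAnti₀ hr hz
    have := key z⁻¹ (subset_closure hm)
    simpa only [if_neg (inv_ne_zero hz0), inv_inv] using this

/-- Schwarz lemma at infinity. -/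
theorem ext_schwarz {R r : ℝ} (hR : 0 < R) (hRr : R < r) {φ : ℂ → ℂ} {M : ℝ} (hM0 : 0 < M)
    (hφ : DifferentiableOn ℂ φ {z | R < ‖z‖}) (hlim : Tendsto φ (cocompact ℂ) (𝓝 0))
    (hM : ∀ z, ‖z‖ = r → ‖φ z‖ ≤ M) :
    ∀ z, r < ‖z‖ → ‖φ z‖ ≤ M * r / ‖z‖ := by
  classical
  have hr : 0 < r := hR.trans hRr
  intro z hz
  have hz0 : z ≠ 0 := by
    rintro rfl
    rw [norm_zero] at hz
    exact absurd hz (not_lt.2 hr.le)
  have hri : 0 < r⁻¹ := inv_pos.2 hr
  have hlt : r⁻¹ < R⁻¹ := inv_strictAnti₀ hR hRr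
  have hd := (ext_inf hR hφ hlim).mono (ball_subset_ball hlt.le)
  have hm := (ext_max hR hRr hφ hlim hM).2
  have hmaps : MapsTo (fun ζ => if ζ = 0 then (0 : ℂ) else φ ζ⁻¹) (ball 0 r⁻¹)
      (closedBall ((fun ζ => if ζ = 0 then (0 : ℂ) else φ ζ⁻¹) 0) M) := by
    intro ζ hζ
    simp only [if_true, mem_closedBall_zero_iff]
    by_cases h0 : ζ = 0
    · simp [h0, hM0.le]
    · simp only [if_neg h0]
      exact hm _ (mem_ext_of_inv hr hζ h0)
  have hzm : z⁻¹ ∈ ball (0 : ℂ) r⁻¹ := by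
    rw [mem_ball_zero_iff, norm_inv]
    exact inv_strictAnti₀ hr hz
  have := Complex.dist_le_div_mul_dist_of_mapsTo_ball hd hmaps hzm
  simp only [if_neg (inv_ne_zero hz0), inv_inv, if_true, dist_zero_right, norm_inv] at this
  calc ‖φ z‖ ≤ M / r⁻¹ * ‖z‖⁻¹ := this
    _ = M * r / ‖z‖ := by rw [div_inv_eq_mul, div_eq_mul_inv]

/-- Growth in the exterior of a disc: every omitted value has modulus `≤ 33 R` and
`‖g z - z‖ ≤ 66 R² / ‖z‖`. -/
theorem growth {R : ℝ} (hR : 0 < R) {g : ℂ → ℂ}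
    (hg : DifferentiableOn ℂ g {z | R < ‖z‖}) (hinj : InjOn g {z | R < ‖z‖})
    (hlim : Tendsto (fun z => g z - z) (cocompact ℂ) (𝓝 0)) :
    (∀ w, (∀ z, R < ‖z‖ → g z ≠ w) → ‖w‖ ≤ 33 * R) ∧
      ∀ z, R < ‖z‖ → ‖g z - z‖ ≤ 66 * R ^ 2 / ‖z‖ := by
  have h1 : ∀ w, (∀ z, R < ‖z‖ → g z ≠ w) → ‖w‖ ≤ 33 * R := by
    intro w hw
    by_contra hcon
    push Not at hcon
    set r := (R + ‖w‖ / 33) / 2 with hr
    have hRr : R < r := by rw [hr]; linarith
    have hr2 : 33 * r < ‖w‖ := by rw [hr]; linarith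
    have h2 := (ext_max (φ := fun z => g z - z - w) (L := -w) (M := 33 * r) hR hRr
      ((hg.sub differentiableOn_id).sub_const w) (by simpa using hlim.sub_const w) (by
        intro z hz
        have h3 := growth_of_omitted hR hg hinj hlim hw (z := z) (by rw [hz]; exact hRr)
        have e : g z - z - w = (g z - w) - z := by ring
        rw [e]
        have h4 := norm_sub_le (g z - w) z
        rw [hz] at h3 h4
        linarith)).1
    rw [norm_neg] at h2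
    linarith
  refine ⟨h1, ?_⟩
  obtain ⟨w₀, hw₀⟩ := exists_omitted hR hg hinj hlim
  have hw₀n := h1 w₀ hw₀
  have h2 : ∀ r, R < r → ∀ z, r < ‖z‖ → ‖g z - z‖ ≤ 66 * r * r / ‖z‖ := by
    intro r hRr
    have hr : 0 < r := hR.trans hRr
    apply ext_schwarz (φ := fun z => g z - z) hR hRr (by positivity)
      (hg.sub differentiableOn_id) hlim
    intro z hz
    have h3 := growth_of_omitted hR hg hinj hlim hw₀ (z := z) (by rw [hz]; exact hRr)
    have e : g z - z = (g z - w₀) + w₀ - z := by ring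
    rw [e]
    have h4 := norm_sub_le ((g z - w₀) + w₀) z
    have h5 := norm_add_le (g z - w₀) w₀
    rw [hz] at h3 h4
    linarith
  intro z hz
  have hz0 : 0 < ‖z‖ := hR.trans hz
  have hcont : Tendsto (fun r : ℝ => 66 * r * r / ‖z‖) (𝓝[>] R) (𝓝 (66 * R * R / ‖z‖)) := by
    have : Continuous fun r : ℝ => 66 * r * r / ‖z‖ := by fun_prop
    exact (this.tendsto R).mono_left nhdsWithin_le_nhds
  have hev : ∀ᶠ r in 𝓝[>] R, ‖g z - z‖ ≤ 66 * r * r / ‖z‖ := by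
    have h5 : ∀ᶠ r in 𝓝[>] R, r < ‖z‖ := nhdsWithin_le_nhds (gt_mem_nhds hz)
    filter_upwards [self_mem_nhdsWithin, h5] with r hr hrz
    exact h2 r hr z hrz
  have := ge_of_tendsto hcont hev
  calc ‖g z - z‖ ≤ 66 * R * R / ‖z‖ := this
    _ = 66 * R ^ 2 / ‖z‖ := by ring

section Sig

variable {U : Set ℂ} {f : ℂ → ℂ} {R : ℝ}

theorem Sig.mono {V : Set ℂ} (hf : Sig U f) (h : V ⊆ U) : Sig V f :=
  ⟨hf.1.mono h, hf.2.1.mono h, hf.2.2⟩

theorem Sig.norm_sub_le (hR : 0 < R) (hU : ∀ z, R < ‖z‖ → z ∈ U) (hf : Sig U f) {z : ℂ}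
    (hz : R < ‖z‖) : ‖f z - z‖ ≤ 66 * R ^ 2 / ‖z‖ :=
  (growth hR (hf.1.mono hU) (hf.2.1.mono hU) hf.2.2).2 z hz

theorem Sig.norm_sub_le' (hR : 0 < R) (hU : ∀ z, R < ‖z‖ → z ∈ U) (hf : Sig U f) {z : ℂ}
    (hz : R < ‖z‖) : ‖f z - z‖ ≤ 66 * R := by
  refine (hf.norm_sub_le hR hU hz).trans ?_
  have hz0 : 0 < ‖z‖ := hR.trans hz
  rw [div_le_iff₀ hz0]
  nlinarith

theorem Sig.norm_omitted_le (hR : 0 < R) (hU : ∀ z, R < ‖z‖ → z ∈ U) (hf : Sig U f) {w : ℂ}
    (hw : ∀ z, R < ‖z‖ → f z ≠ w) : ‖w‖ ≤ 33 * R :=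
  (growth hR (hf.1.mono hU) (hf.2.1.mono hU) hf.2.2).1 w hw

/-- The complement of the image lies in a fixed ball. -/
theorem Sig.compl_subset (hR : 0 < R) (hU : ∀ z, R < ‖z‖ → z ∈ U) (hf : Sig U f) :
    (f '' U)ᶜ ⊆ closedBall 0 (33 * R) := by
  intro w hw
  rw [mem_closedBall_zero_iff]
  exact hf.norm_omitted_le hR hU fun z hz h => hw ⟨z, hU z hz, h⟩

/-- The bounded part of `U` is mapped into a fixed ball. -/
theorem Sig.norm_le_of_norm_le (hR : 0 < R) (hU : ∀ z, R < ‖z‖ → z ∈ U) (hf : Sig U f) {z : ℂ}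
    (hz : z ∈ U) {r : ℝ} (hr : R ≤ r) (hzr : ‖z‖ ≤ r) : ‖f z‖ ≤ 33 * r := by
  refine hf.norm_omitted_le (hR.trans_le hr) (fun w hw => hU w (lt_of_le_of_lt hr hw)) ?_
  intro z' hz' h
  have := hf.2.1 (hU z' (lt_of_le_of_lt hr hz')) hz h
  subst this
  exact absurd hzr (not_le.2 hz')

/-- Uniform local bound. -/
theorem Sig.norm_le (hR : 0 < R) (hU : ∀ z, R < ‖z‖ → z ∈ U) (hf : Sig U f) {z : ℂ}
    (hz : z ∈ U) : ‖f z‖ ≤ 33 * (R + ‖z‖) :=
  hf.norm_le_of_norm_le hR hU hz (by have := norm_nonneg z; linarith)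
    (by linarith)

/-- The first coefficient. -/
theorem Sig.exists_coeff (hR : 0 < R) (hU : ∀ z, R < ‖z‖ → z ∈ U) (hf : Sig U f) :
    ∃ a : ℂ, Tendsto (fun z => z * (f z - z)) (cocompact ℂ) (𝓝 a) ∧ ‖a‖ ≤ 66 * R ^ 2 := by
  classical
  have hd := ext_inf hR (φ := fun z => f z - z) (L := 0)
    ((hf.1.mono hU).sub differentiableOn_id) hf.2.2
  have h0 : HasDerivAt (fun ζ : ℂ => if ζ = 0 then (0 : ℂ) else f ζ⁻¹ - ζ⁻¹)
      (deriv (fun ζ : ℂ => if ζ = 0 then (0 : ℂ) else f ζ⁻¹ - ζ⁻¹) 0) 0 :=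
    ((hd 0 (mem_ball_self (inv_pos.2 hR))).differentiableAt
      (isOpen_ball.mem_nhds (mem_ball_self (inv_pos.2 hR)))).hasDerivAt
  rw [hasDerivAt_iff_tendsto_slope_zero] at h0
  set a := deriv (fun ζ : ℂ => if ζ = 0 then (0 : ℂ) else f ζ⁻¹ - ζ⁻¹) 0
  have h1 : Tendsto (fun z : ℂ => z⁻¹) (cocompact ℂ) (𝓝[≠] 0) := by
    rw [← Metric.cobounded_eq_cocompact]
    exact tendsto_inv₀_cobounded'
  have h2 := h0.comp h1
  have h3 : Tendsto (fun z => z * (f z - z)) (cocompact ℂ) (𝓝 a) := by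
    apply h2.congr'
    have h4 : ∀ᶠ z : ℂ in cocompact ℂ, z ≠ 0 := by
      have := (isCompact_singleton (x := (0 : ℂ))).compl_mem_cocompact
      filter_upwards [this] with z hz
      exact hz
    filter_upwards [h4] with z hz
    simp only [Function.comp, zero_add, if_neg (inv_ne_zero hz), inv_inv, if_true, sub_zero,
      smul_eq_mul]
  refine ⟨a, h3, ?_⟩
  apply le_of_tendsto h3.norm
  have h5 : ∀ᶠ z : ℂ in cocompact ℂ, R < ‖z‖ := by
    have := (isCompact_closedBall (0 : ℂ) R).compl_mem_cocompact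
    filter_upwards [this] with z hz
    simpa using hz
  filter_upwards [h5] with z hz
  have hz0 : 0 < ‖z‖ := hR.trans hz
  have := hf.norm_sub_le hR hU hz
  rw [le_div_iff₀ hz0] at this
  rw [norm_mul]
  linarith

end Sig

end Crest.Agent.R105.Sig731
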