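import Mathlib
import Crest.Agent.R105.FK1_644
import Crest.Agent.R105.Sig3_731
import Crest.Agent.Lib.RiemannMap

/-!
Row 105 (helper107), limits of normalised univalent maps on varying domains, along an ultrafilter.

* `Exh p U U'`   : every point of `U'` has a ball which is contained in `U n`, `p`-eventually
* `sig_limit`    : `F n ∈ Sig (U n)` converge locally uniformly on `U'` to some `f ∈ Sig U'`
* `hurwitz_loc`, `kernel`, `comp_limit`
-/

set_option autoImplicit false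

open Set Filter Topology Metric Complex

namespace Crest.Agent.R105.Lim_107

open Crest.AnalysisR Crest.Agent.R105.FK_644

/-- every point of `U'` has a ball which is eventually contained in `U n` -/
def Exh (p : Filter ℕ) (U : ℕ → Set ℂ) (U' : Set ℂ) : Prop :=
  ∀ z ∈ U', ∃ r > 0, ball z r ⊆ U' ∧ ∀ᶠ n in p, ball z r ⊆ U n

theorem lip_of_bound {f : ℂ → ℂ} {c : ℂ} {R M : ℝ} (hR : 0 < R) (hM : 0 < M)
    (hf : DifferentiableOn ℂ f (ball c R)) (hb : ∀ z ∈ ball c R, ‖f z‖ ≤ M)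
    {z w : ℂ} (hz : z ∈ ball c (R / 2)) (hw : w ∈ ball c (R / 2)) :
    ‖f z - f w‖ ≤ 2 * M / R * ‖z - w‖ := by
  have hMc : (M : ℂ) ≠ 0 := by exact_mod_cast hM.ne'
  have h1 := Crest.Agent.Lib.RiemannMap.norm_sub_le_of_ball (f := fun z => (M : ℂ)⁻¹ * f z) hR
    (hf.const_mul _) (fun z hz => by
      rw [norm_mul, norm_inv, Complex.norm_real, Real.norm_eq_abs, abs_of_pos hM,
        inv_mul_le_iff₀ hM, mul_one]
      exact hb z hz) hz hw
  rw [← mul_sub, norm_mul, norm_inv, Complex.norm_real, Real.norm_eq_abs, abs_of_pos hM,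
    inv_mul_le_iff₀ hM] at h1
  calc ‖f z - f w‖ ≤ M * (2 / R * ‖z - w‖) := h1
    _ = _ := by ring

/-- Montel along an ultrafilter, local form. -/
theorem montel_uf {p : Ultrafilter ℕ} {U' : Set ℂ} {F : ℕ → ℂ → ℂ}
    (h : ∀ z ∈ U', ∃ r > 0, ball z r ⊆ U' ∧ ∃ M > 0, ∀ᶠ n in (p : Filter ℕ),
      DifferentiableOn ℂ (F n) (ball z r) ∧ ∀ w ∈ ball z r, ‖F n w‖ ≤ M) :
    ∃ f : ℂ → ℂ, DifferentiableOn ℂ f U' ∧ TendstoLocallyUniformlyOn F f p U' := by
  have hlim_ex : ∀ z, ∃ y, z ∈ U' → Tendsto (fun n => F n z) p (𝓝 y) := by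
    intro z
    by_cases hz : z ∈ U'
    · obtain ⟨r, hr, -, M, hM, hev⟩ := h z hz
      have hcomp : IsCompact (closedBall (0 : ℂ) M) := isCompact_closedBall 0 M
      obtain ⟨y, -, hy⟩ := hcomp.ultrafilter_le_nhds (p.map fun n => F n z) (by
        rw [Ultrafilter.coe_map, le_principal_iff, mem_map]
        filter_upwards [hev] with n hn
        rw [mem_preimage, mem_closedBall_zero_iff]
        exact hn.2 z (mem_ball_self hr))
      exact ⟨y, fun _ => by rwa [Ultrafilter.coe_map] at hy⟩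
    · exact ⟨0, fun h => absurd h hz⟩
  choose f hf using hlim_ex
  have hloc : TendstoLocallyUniformlyOn F f p U' := by
    rw [Metric.tendstoLocallyUniformlyOn_iff]
    intro ε hε x hx
    obtain ⟨R, hR, hRU, M, hM, hev⟩ := h x hx
    obtain ⟨δ, hδdef⟩ : ∃ δ, δ = min (R / 2) (ε * R / (8 * M)) := ⟨_, rfl⟩
    have hδ : 0 < δ := by rw [hδdef]; positivity
    have hδ1 : δ ≤ R / 2 := by rw [hδdef]; exact min_le_left _ _
    have hδ2 : δ ≤ ε * R / (8 * M) := by rw [hδdef]; exact min_le_right _ _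
    refine ⟨ball x δ, mem_nhdsWithin_of_mem_nhds (ball_mem_nhds x hδ), ?_⟩
    have h1 : ∀ y ∈ ball x δ, ∀ᶠ n in (p : Filter ℕ), ‖F n y - F n x‖ ≤ ε / 4 := by
      intro y hy
      filter_upwards [hev] with n hn
      have h := lip_of_bound hR hM hn.1 hn.2
        (ball_subset_ball hδ1 hy) (mem_ball_self (by positivity : 0 < R / 2))
      refine h.trans ?_
      rw [mem_ball, dist_eq_norm] at hy
      calc 2 * M / R * ‖y - x‖ ≤ 2 * M / R * (ε * R / (8 * M)) := by gcongr; linarith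
        _ = ε / 4 := by field_simp; norm_num
    have h2 : ∀ y ∈ ball x δ, ‖f y - f x‖ ≤ ε / 4 := by
      intro y hy
      have hyU : y ∈ U' := hRU (ball_subset_ball (by linarith) hy)
      exact le_of_tendsto ((hf y hyU).sub (hf x hx)).norm (h1 y hy)
    filter_upwards [Metric.tendsto_nhds.1 (hf x hx) (ε / 4) (by positivity), hev] with n hn hn2 y hy
    have e1 := h2 y hy
    have e2 : ‖F n y - F n x‖ ≤ ε / 4 := by
      have h := lip_of_bound hR hM hn2.1 hn2.2
        (ball_subset_ball hδ1 hy) (mem_ball_self (by positivity : 0 < R / 2))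
      refine h.trans ?_
      rw [mem_ball, dist_eq_norm] at hy
      calc 2 * M / R * ‖y - x‖ ≤ 2 * M / R * (ε * R / (8 * M)) := by gcongr; linarith
        _ = ε / 4 := by field_simp; norm_num
    rw [← dist_eq_norm] at e1 e2
    rw [dist_comm] at hn e2
    calc dist (f y) (F n y) ≤ dist (f y) (f x) + dist (f x) (F n x) + dist (F n x) (F n y) :=
          dist_triangle4 _ _ _ _
      _ < ε := by linarith
  refine ⟨f, ?_, hloc⟩
  intro z hz
  obtain ⟨r, hr, hrU, M, hM, hev⟩ := h z hz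
  have h3 : DifferentiableOn ℂ f (ball z r) := by
    apply (hloc.mono hrU).differentiableOn _ isOpen_ball
    filter_upwards [hev] with n hn using hn.1
  exact (h3.differentiableAt (ball_mem_nhds z hr)).differentiableWithinAt

/-- a normalised function is not constant on a ball -/
theorem not_const {U' : Set ℂ} (hU' : IsExteriorDomain U') {f : ℂ → ℂ}
    (hd : DifferentiableOn ℂ f U') (hn : Tendsto (fun z => f z - z) (cocompact ℂ) (𝓝 0))
    {a : ℂ} {r : ℝ} (hr : 0 < r) (hb : ball a r ⊆ U') : ¬ ∀ z ∈ ball a r, f z = f a := by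
  intro hc
  have han : AnalyticOnNhd ℂ (fun z => f z - f a) U' :=
    (hd.sub_const _).analyticOnNhd hU'.1
  have h1 : (fun z => f z - f a) =ᶠ[𝓝 a] 0 := by
    filter_upwards [ball_mem_nhds a hr] with z hz
    simp [hc z hz]
  have h2 := han.eqOn_zero_of_preconnected_of_eventuallyEq_zero hU'.2.1.isPreconnected
    (hb (mem_ball_self hr)) h1
  obtain ⟨R, hR⟩ := hU'.2.2
  have h3 : Tendsto (fun z : ℂ => ‖f a - z‖) (cocompact ℂ) (𝓝 0) := by
    have h4 := hn.norm
    rw [norm_zero] at h4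
    refine h4.congr' ?_
    have h5 : ∀ᶠ z : ℂ in cocompact ℂ, R < ‖z‖ :=
      tendsto_norm_cocompact_atTop.eventually_gt_atTop R
    filter_upwards [h5] with z hz
    have := h2 (hR z hz)
    simp only [Pi.zero_apply] at this
    rw [sub_eq_zero.1 this]
  have h6 : Tendsto (fun z : ℂ => ‖f a - z‖) (cocompact ℂ) atTop := by
    have h7 : Tendsto (fun z : ℂ => ‖z‖ + (-‖f a‖)) (cocompact ℂ) atTop :=
      tendsto_atTop_add_const_right _ _ tendsto_norm_cocompact_atTop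
    refine tendsto_atTop_mono (fun z => ?_) h7
    have := norm_sub_norm_le z (f a)
    rw [norm_sub_rev] at this
    linarith
  exact not_tendsto_nhds_of_tendsto_atTop h6 0 h3

section

variable {p : Ultrafilter ℕ} {U : ℕ → Set ℂ} {U' : Set ℂ} {F : ℕ → ℂ → ℂ} {f : ℂ → ℂ}

theorem hurwitz_loc0 (hU' : IsExteriorDomain U') (hex : Exh p U U')
    (hF : ∀ n, DifferentiableOn ℂ (F n) (U n)) (hd : DifferentiableOn ℂ f U')
    (hn : Tendsto (fun z => f z - z) (cocompact ℂ) (𝓝 0))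
    (hlim : TendstoLocallyUniformlyOn F f p U') {a : ℂ} (ha : a ∈ U') {ρ : ℝ} (hρ : 0 < ρ) :
    ∃ r > 0, r ≤ ρ ∧ ball a r ⊆ U' ∧ (∀ᶠ n in (p : Filter ℕ), ball a r ⊆ U n) ∧
      ∃ η > 0, ∀ᶠ n in (p : Filter ℕ), ball (f a) η ⊆ F n '' (ball a r) := by
  obtain ⟨r0, hr0, hrU, hev⟩ := hex a ha
  set r := min r0 ρ with hr
  have hrpos : 0 < r := lt_min hr0 hρ
  have hsub : ball a r ⊆ ball a r0 := ball_subset_ball (min_le_left _ _)
  have hsub' : ball a r ⊆ U' := hsub.trans hrU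
  have hevr : ∀ᶠ n in (p : Filter ℕ), ball a r ⊆ U n := by
    filter_upwards [hev] with n h using hsub.trans h
  obtain ⟨η, hη, hη2⟩ := Sig731.hurwitz_value (F := F) (f := f) (l := (p : Filter ℕ))
    (U := ball a r) isOpen_ball (convex_ball a r).isPreconnected
    (by filter_upwards [hevr] with n h using (hF n).mono h) (hd.mono hsub') (hlim.mono hsub')
    (mem_ball_self hrpos) (not_const hU' hd hn hrpos hsub') hrpos
  refine ⟨r, hrpos, min_le_right _ _, hsub', hevr, η, hη, ?_⟩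
  filter_upwards [hη2] with n h w hw
  obtain ⟨z, hz, hzw⟩ := h w hw
  exact ⟨z, hz.1, hzw⟩

/-- limit of normalised univalent maps -/
theorem sig_limit (hU' : IsExteriorDomain U') {R : ℝ} (hR : 0 < R)
    (hUR : ∀ n z, R < ‖z‖ → z ∈ U n) (hUR' : ∀ z, R < ‖z‖ → z ∈ U')
    (hex : Exh p U U') (hF : ∀ n, Sig (U n) (F n)) :
    ∃ f : ℂ → ℂ, Sig U' f ∧ TendstoLocallyUniformlyOn F f p U' := by
  have hF' : ∀ n, Sig731.Sig (U n) (F n) := fun n => ⟨(hF n).hol, (hF n).inj, (hF n).inf⟩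
  obtain ⟨f, hfd, hfl⟩ := montel_uf (p := p) (U' := U') (F := F) (by
    intro z hz
    obtain ⟨r, hr, hrU, hev⟩ := hex z hz
    refine ⟨r, hr, hrU, 33 * (R + (‖z‖ + r)), by have := norm_nonneg z; positivity, ?_⟩
    filter_upwards [hev] with n hn
    refine ⟨(hF n).hol.mono hn, fun w hw => ?_⟩
    refine ((hF' n).norm_le hR (hUR n) (hn hw)).trans ?_
    rw [mem_ball, dist_eq_norm] at hw
    have := norm_sub_norm_le w z
    linarith)
  have hinf : Tendsto (fun z => f z - z) (cocompact ℂ) (𝓝 0) := by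
    have h1 : Tendsto (fun z : ℂ => 66 * R ^ 2 / ‖z‖) (cocompact ℂ) (𝓝 0) :=
      Filter.Tendsto.const_div_atTop tendsto_norm_cocompact_atTop _
    refine squeeze_zero_norm' ?_ h1
    have h5 : ∀ᶠ z : ℂ in cocompact ℂ, R < ‖z‖ :=
      tendsto_norm_cocompact_atTop.eventually_gt_atTop R
    filter_upwards [h5] with z hz
    have h2 : Tendsto (fun n => ‖F n z - z‖) p (𝓝 ‖f z - z‖) :=
      ((hfl.tendsto_at (hUR' z hz)).sub_const z).norm
    exact le_of_tendsto h2 (Eventually.of_forall fun n =>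
      (hF' n).norm_sub_le hR (hUR n) hz)
  refine ⟨f, ⟨hfd, ?_, hinf⟩, hfl⟩
  intro a ha b hb hab
  by_contra hne
  have hd0 : 0 < dist a b / 2 := by
    have := dist_pos.2 hne
    positivity
  obtain ⟨r, hr, hrρ, hrU, hrn, η, hη, hηn⟩ :=
    hurwitz_loc0 hU' hex (fun n => (hF n).hol) hfd hinf hfl ha hd0
  obtain ⟨s, hs, hsρ, hsU, hsn, θ, hθ, hθn⟩ :=
    hurwitz_loc0 hU' hex (fun n => (hF n).hol) hfd hinf hfl hb hd0
  obtain ⟨n, h1, h2, h3, h4⟩ := (hrn.and (hηn.and (hsn.and hθn))).exists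
  obtain ⟨z, hz, hz2⟩ := h2 (mem_ball_self hη)
  obtain ⟨w, hw, hw2⟩ := h4 (mem_ball_self hθ)
  have h5 : z = w := (hF n).inj (h1 hz) (h3 hw) (by rw [hz2, hw2, hab])
  rw [← h5] at hw
  rw [mem_ball] at hz hw
  have h6 := dist_triangle_left a b z
  linarith

theorem hurwitz_loc (hU' : IsExteriorDomain U') (hex : Exh p U U')
    (hF : ∀ n, Sig (U n) (F n)) (hf : Sig U' f)
    (hlim : TendstoLocallyUniformlyOn F f p U') {a : ℂ} (ha : a ∈ U') {ρ : ℝ} (hρ : 0 < ρ) :
    ∃ r > 0, r ≤ ρ ∧ ball a r ⊆ U' ∧ (∀ᶠ n in (p : Filter ℕ), ball a r ⊆ U n) ∧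
      ∃ η > 0, ∀ᶠ n in (p : Filter ℕ), ball (f a) η ⊆ F n '' (ball a r) :=
  hurwitz_loc0 hU' hex (fun n => (hF n).hol) hf.hol hf.inf hlim ha hρ

/-- limits of omitted values are omitted -/
theorem kernel (hU' : IsExteriorDomain U') (hex : Exh p U U')
    (hF : ∀ n, Sig (U n) (F n)) (hf : Sig U' f)
    (hlim : TendstoLocallyUniformlyOn F f p U') {w : ℕ → ℂ} {q : ℂ}
    (hw : ∀ᶠ n in (p : Filter ℕ), w n ∉ F n '' U n) (hwq : Tendsto w p (𝓝 q)) : q ∉ f '' U' := by
  rintro ⟨a, ha, rfl⟩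
  obtain ⟨r, hr, -, -, hrn, η, hη, hηn⟩ := hurwitz_loc hU' hex hF hf hlim ha one_pos
  have h1 : ∀ᶠ n in (p : Filter ℕ), w n ∈ ball (f a) η := hwq.eventually (ball_mem_nhds _ hη)
  obtain ⟨n, h2, h3, h4, h5⟩ := (hrn.and (hηn.and (hw.and h1))).exists
  obtain ⟨z, hz, hzw⟩ := h3 h5
  exact h4 ⟨z, h2 hz, hzw⟩

/-- composition of limits -/
theorem comp_limit {V' : Set ℂ} {H : ℕ → ℂ → ℂ} {h : ℂ → ℂ} (hV' : IsOpen V')
    (hhd : ContinuousOn h V') (hex : Exh p U U')
    (hlim : TendstoLocallyUniformlyOn F f p U') (hlimh : TendstoLocallyUniformlyOn H h p V')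
    (hinv : ∀ n, ∀ z ∈ U n, H n (F n z) = z) {a : ℂ} (ha : a ∈ U') (hfa : f a ∈ V') :
    h (f a) = a := by
  have h1 : Tendsto (fun n => F n a) p (𝓝 (f a)) := hlim.tendsto_at ha
  have h2 : Tendsto (fun n => H n (F n a)) p (𝓝 (h (f a))) := by
    apply hlimh.tendsto_comp (hhd _ hfa) hfa
    rw [hV'.nhdsWithin_eq hfa]
    exact h1
  have h3 : Tendsto (fun n => H n (F n a)) p (𝓝 a) := by
    obtain ⟨r, hr, -, hrn⟩ := hex a ha
    refine tendsto_const_nhds.congr' ?_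
    filter_upwards [hrn] with n hn
    exact (hinv n a (hn (mem_ball_self hr))).symm
  exact tendsto_nhds_unique h2 h3

end

end Crest.Agent.R105.Lim_107
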