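import Mathlib
import Crest.Agent.R105.FKd_644

/-!
Row 105 (helper107), (F5): the space `Y n` of disjoint horizontal slits is connected.
-/

set_option autoImplicit false

open Set Filter Metric Topology

namespace Crest.Agent.R105.Yn_107

open Crest.Agent.R105.FK_644

theorem mem_seg {a w : ℂ} {l : ℝ} (hl : 0 ≤ l) :
    w ∈ segment ℝ a (a + (l : ℂ)) ↔ w.im = a.im ∧ a.re ≤ w.re ∧ w.re ≤ a.re + l := by
  rw [segment_eq_image']
  simp only [add_sub_cancel_left, mem_image, mem_Icc]
  constructor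
  · rintro ⟨θ, ⟨h2, h3⟩, rfl⟩
    simp only [Complex.real_smul, Complex.add_re, Complex.mul_re, Complex.ofReal_re,
        Complex.ofReal_im, Complex.add_im, Complex.mul_im]
    refine ⟨by ring, ?_, ?_⟩
    · nlinarith
    · nlinarith
  · rintro ⟨h1, h2, h3⟩
    rcases hl.eq_or_lt with h0 | h0
    · refine ⟨0, ⟨le_rfl, zero_le_one⟩, ?_⟩
      rw [zero_smul, add_zero]
      exact Complex.ext (by linarith) h1.symm
    · refine ⟨(w.re - a.re) / l, ⟨div_nonneg (by linarith) h0.le,
        (div_le_one h0).2 (by linarith)⟩, ?_⟩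
      apply Complex.ext
      · simp only [Complex.real_smul, Complex.add_re, Complex.mul_re, Complex.ofReal_re,
          Complex.ofReal_im]
        field_simp
        ring
      · simp only [Complex.real_smul, Complex.add_im, Complex.mul_im, Complex.ofReal_re,
          Complex.ofReal_im, h1]
        ring

/-- shrinking the slits -/
theorem shrink {n : ℕ} {x : Fin n → ℂ × ℝ} (hx : x ∈ Y n) {δ : ℝ} (hδ : 0 < δ)
    (hδx : ∀ i, δ ≤ (x i).2) : segment ℝ x (fun i => ((x i).1, δ)) ⊆ Y n := by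
  intro y hy
  rw [segment_eq_image'] at hy
  obtain ⟨θ, ⟨h0, h1⟩, rfl⟩ := hy
  have h2 : ∀ i, ((x + θ • ((fun i => ((x i).1, δ)) - x)) i).1 = (x i).1 := by
    intro i; simp
  have h3 : ∀ i, ((x + θ • ((fun i => ((x i).1, δ)) - x)) i).2 = (x i).2 + θ * (δ - (x i).2) := by
    intro i; simp
  have h4 : ∀ i, 0 < (x i).2 + θ * (δ - (x i).2) := by
    intro i
    have := hδx i
    nlinarith
  have h5 : ∀ i, (x i).2 + θ * (δ - (x i).2) ≤ (x i).2 := by
    intro i
    have := hδx i
    nlinarith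
  refine ⟨fun i => by rw [h3]; exact h4 i, fun i j hij => ?_⟩
  have h6 : ∀ i, slits (x + θ • ((fun i => ((x i).1, δ)) - x)) i ⊆ slits x i := by
    intro i w hw
    unfold slits at hw ⊢
    rw [h2, h3, mem_seg (h4 i).le] at hw
    rw [mem_seg (hx.1 i).le]
    exact ⟨hw.1, hw.2.1, hw.2.2.trans (by linarith [h5 i])⟩
  exact (hx.2 i j hij).mono (h6 i) (h6 j)

theorem base_ne {n : ℕ} {x : Fin n → ℂ × ℝ} (hx : x ∈ Y n) {i j : Fin n} (hij : i ≠ j) :
    (x i).1 ≠ (x j).1 := by
  intro h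
  have h1 := hx.2 i j hij
  rw [Set.disjoint_left] at h1
  apply h1 (left_mem_segment ℝ (x i).1 _)
  unfold slits
  rw [h]
  exact left_mem_segment ℝ (x j).1 _

/-- short slits at distant points are disjoint -/
theorem mem_Y_of_far {n : ℕ} {a : Fin n → ℂ} {δ : ℝ} (hδ : 0 < δ)
    (h : ∀ i j, i ≠ j → δ < ‖a i - a j‖) : (fun i => (a i, δ)) ∈ Y n := by
  refine ⟨fun i => hδ, fun i j hij => ?_⟩
  rw [Set.disjoint_left]
  intro w hwi hwj
  unfold slits at hwi hwj
  rw [mem_seg hδ.le] at hwi hwj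
  simp only at hwi hwj
  have h1 := h i j hij
  have h2 : ‖a i - a j‖ ≤ |(a i - a j).re| + |(a i - a j).im| := Complex.norm_le_abs_re_add_abs_im _
  have h3 : (a i - a j).im = 0 := by
    rw [Complex.sub_im]; linarith [hwi.1, hwj.1]
  have h4 : |(a i - a j).re| ≤ δ := by
    rw [Complex.sub_re, abs_le]
    constructor
    · linarith [hwi.2.2, hwj.2.1]
    · linarith [hwj.2.2, hwi.2.1]
  rw [h3, abs_zero, add_zero] at h2
  linarith

/-- (F5) -/
theorem connY : ConnY := by
  intro n
  apply isPreconnected_of_forall_pair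
  intro x hx y hy
  set L : Fin n → ℂ → ℂ := fun i s => (x i).1 + s * ((y i).1 - (x i).1) with hL
  have hLc : ∀ i, Continuous (L i) := by
    intro i
    rw [hL]
    fun_prop
  -- bad parameters
  set S : Set ℂ := {s | ∃ i j, i ≠ j ∧ L i s = L j s} with hS
  have hSf : S.Countable := by
    have h1 : S ⊆ ⋃ i, ⋃ j, {s | i ≠ j ∧ L i s = L j s} := by
      rintro s ⟨i, j, h⟩
      rw [mem_iUnion₂]
      exact ⟨i, j, h⟩
    refine Set.Countable.mono h1 ?_
    refine countable_iUnion fun i => countable_iUnion fun j => ?_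
    apply Set.Subsingleton.countable
    rintro s ⟨hij, hs⟩ t ⟨-, ht⟩
    have hne := base_ne hx hij
    simp only [hL] at hs ht
    set A := (x i).1 - (x j).1 with hA
    set B := (y i).1 - (x i).1 - ((y j).1 - (x j).1) with hB
    have e1 : A + s * B = 0 := by rw [hA, hB]; linear_combination hs
    have e2 : A + t * B = 0 := by rw [hA, hB]; linear_combination ht
    have hA0 : A ≠ 0 := sub_ne_zero.2 hne
    have hB0 : B ≠ 0 := by
      intro h
      rw [h, mul_zero, add_zero] at e1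
      exact hA0 e1
    have e3 : (s - t) * B = 0 := by linear_combination e1 - e2
    rcases mul_eq_zero.1 e3 with h | h
    · exact sub_eq_zero.1 h
    · exact absurd h hB0
  have hpc : IsPathConnected Sᶜ := by
    apply hSf.isPathConnected_compl_of_one_lt_rank
    rw [Complex.rank_real_complex]
    norm_num
  have h0 : (0:ℂ) ∈ Sᶜ := by
    rintro ⟨i, j, hij, h⟩
    simp only [hL, zero_mul, add_zero] at h
    exact base_ne hx hij h
  have h1 : (1:ℂ) ∈ Sᶜ := by
    rintro ⟨i, j, hij, h⟩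
    simp only [hL, one_mul, add_sub_cancel] at h
    exact base_ne hy hij h
  obtain ⟨γ, hγ⟩ := hpc.joinedIn 0 h0 1 h1
  set P : Set ℂ := range γ with hP
  have hPc : IsCompact P := isCompact_range γ.continuous
  have hPp : IsPreconnected P := isPreconnected_range γ.continuous
  have hPS : ∀ s ∈ P, s ∉ S := by
    rintro _ ⟨t, rfl⟩
    exact hγ t
  have h0P : (0:ℂ) ∈ P := ⟨0, γ.source⟩
  have h1P : (1:ℂ) ∈ P := ⟨1, γ.target⟩
  -- the small length
  have hev : ∀ᶠ δ : ℝ in 𝓝[>] 0, (∀ i, δ ≤ (x i).2) ∧ (∀ i, δ ≤ (y i).2) ∧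
      ∀ i j, i ≠ j → ∀ s ∈ P, δ < ‖L i s - L j s‖ := by
    have hpos : ∀ r : ℝ, 0 < r → ∀ᶠ δ : ℝ in 𝓝[>] 0, δ < r := fun r hr =>
      nhdsWithin_le_nhds (gt_mem_nhds hr)
    refine (eventually_all.2 fun i => ?_).and ((eventually_all.2 fun i => ?_).and
      (eventually_all.2 fun i => eventually_all.2 fun j => ?_))
    · filter_upwards [hpos _ (hx.1 i)] with δ h using h.le
    · filter_upwards [hpos _ (hy.1 i)] with δ h using h.le
    · by_cases hij : i = j
      · filter_upwards with δ h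
        exact absurd hij h
      · have hcont : ContinuousOn (fun s => ‖L i s - L j s‖) P :=
          (((hLc i).sub (hLc j)).norm).continuousOn
        obtain ⟨s₀, hs₀, hmin⟩ := hPc.exists_isMinOn ⟨0, h0P⟩ hcont
        have hd : 0 < ‖L i s₀ - L j s₀‖ := by
          rw [norm_pos_iff, sub_ne_zero]
          intro h
          exact hPS s₀ hs₀ ⟨i, j, hij, h⟩
        filter_upwards [hpos _ hd] with δ h _ s hs
        exact h.trans_le (hmin hs)
  obtain ⟨δ, ⟨hδx, hδy, hδP⟩, hδ⟩ := (hev.and self_mem_nhdsWithin).exists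
  have hδ0 : 0 < δ := hδ
  set Φ : ℂ → Fin n → ℂ × ℝ := fun s i => (L i s, δ) with hΦ
  have hΦc : Continuous Φ := by
    rw [hΦ]
    apply continuous_pi
    intro i
    exact (hLc i).prodMk continuous_const
  have hT2 : Φ '' P ⊆ Y n := by
    rintro _ ⟨s, hs, rfl⟩
    exact mem_Y_of_far hδ0 (fun i j hij => hδP i j hij s hs)
  have e0 : Φ 0 = fun i => ((x i).1, δ) := by
    rw [hΦ]; funext i; simp [hL]
  have e1 : Φ 1 = fun i => ((y i).1, δ) := by
    rw [hΦ]; funext i; simp [hL]
  have hT1 := shrink hx hδ0 hδx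
  have hT3 := shrink hy hδ0 hδy
  have p1 : IsPreconnected (segment ℝ x (fun i => ((x i).1, δ))) :=
    (convex_segment _ _).isPreconnected
  have p3 : IsPreconnected (segment ℝ y (fun i => ((y i).1, δ))) :=
    (convex_segment _ _).isPreconnected
  have p2 : IsPreconnected (Φ '' P) := hPp.image _ hΦc.continuousOn
  have q1 : IsPreconnected (segment ℝ x (fun i => ((x i).1, δ)) ∪ Φ '' P) :=
    p1.union (fun i => ((x i).1, δ)) (right_mem_segment ℝ _ _) ⟨0, h0P, e0⟩ p2
  have q2 : IsPreconnected ((segment ℝ x (fun i => ((x i).1, δ)) ∪ Φ '' P) ∪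
      segment ℝ y (fun i => ((y i).1, δ))) :=
    q1.union (fun i => ((y i).1, δ)) (Or.inr ⟨1, h1P, e1⟩) (right_mem_segment ℝ _ _) p3
  exact ⟨_, union_subset (union_subset hT1 hT2) hT3, Or.inl (Or.inl (left_mem_segment ℝ _ _)),
    Or.inr (left_mem_segment ℝ _ _), q2⟩

end Crest.Agent.R105.Yn_107
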