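import Mathlib
import Crest.Agent.R105.Lim1_107
import Crest.Agent.R105.Yn1_107

/-!
Row 105 (helper107), limits of labelled maps, part 2: convex shapes (discs, slits), semicontinuity, labels.
-/

set_option autoImplicit false

open Set Filter Topology Metric Complex

namespace Crest.Agent.R105.Lim_107

open Crest.AnalysisR Crest.Agent.R105.FK_644

/-- convex shapes depending on a point and a size -/
structure Shape (S : ℂ × ℝ → Set ℂ) : Prop where
  cpt : ∀ q, IsCompact (S q)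
  cvx : ∀ q, Convex ℝ (S q)
  base : ∀ q, 0 ≤ q.2 → q.1 ∈ S q
  tip : ∀ q, 0 ≤ q.2 → q.1 + (q.2 : ℂ) ∈ S q
  closed : IsClosed {z : (ℂ × ℝ) × ℂ | 0 ≤ z.1.2 ∧ z.2 ∈ S z.1}
  lower : ∀ q, 0 ≤ q.2 → ∀ w ∈ S q, ∃ u : ℂ, q.1 + q.2 * u = w ∧
    ∀ q' : ℂ × ℝ, 0 ≤ q'.2 → q'.1 + q'.2 * u ∈ S q'

def discS (q : ℂ × ℝ) : Set ℂ := closedBall q.1 q.2

def slitS (q : ℂ × ℝ) : Set ℂ := segment ℝ q.1 (q.1 + (q.2 : ℂ))

theorem shape_disc : Shape discS where
  cpt q := isCompact_closedBall _ _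
  cvx q := convex_closedBall _ _
  base q hq := mem_closedBall_self hq
  tip q hq := by
    rw [discS, mem_closedBall, dist_eq_norm, add_sub_cancel_left, Complex.norm_real,
      Real.norm_eq_abs, abs_of_nonneg hq]
  closed := by
    have h1 : IsClosed {z : (ℂ × ℝ) × ℂ | 0 ≤ z.1.2} :=
      isClosed_le continuous_const (by fun_prop)
    have h2 : IsClosed {z : (ℂ × ℝ) × ℂ | dist z.2 z.1.1 ≤ z.1.2} :=
      isClosed_le (by fun_prop) (by fun_prop)
    exact h1.inter h2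
  lower q hq w hw := by
    rw [discS, mem_closedBall, dist_eq_norm] at hw
    rcases hq.eq_or_lt with h0 | h0
    · refine ⟨0, ?_, fun q' hq' => ?_⟩
      · rw [← h0, norm_le_zero_iff, sub_eq_zero] at hw
        rw [mul_zero, add_zero, hw]
      · rw [mul_zero, add_zero]; exact mem_closedBall_self hq'
    · have hc : (q.2 : ℂ) ≠ 0 := by exact_mod_cast h0.ne'
      refine ⟨(w - q.1) / q.2, by field_simp; ring, fun q' hq' => ?_⟩
      rw [discS, mem_closedBall, dist_eq_norm, add_sub_cancel_left, norm_mul, norm_div,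
        Complex.norm_real, Complex.norm_real, Real.norm_eq_abs, Real.norm_eq_abs,
        abs_of_nonneg hq', abs_of_pos h0]
      have : ‖w - q.1‖ / q.2 ≤ 1 := (div_le_one h0).2 hw
      nlinarith

theorem mem_slitS {q : ℂ × ℝ} (hq : 0 ≤ q.2) {w : ℂ} :
    w ∈ slitS q ↔ w.im = q.1.im ∧ q.1.re ≤ w.re ∧ w.re ≤ q.1.re + q.2 :=
  Crest.Agent.R105.Yn_107.mem_seg hq

theorem shape_slit : Shape slitS where
  cpt q := by
    unfold slitS
    rw [segment_eq_image']
    exact isCompact_Icc.image (by fun_prop)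
  cvx q := convex_segment _ _
  base q _ := left_mem_segment ℝ _ _
  tip q _ := right_mem_segment ℝ _ _
  closed := by
    have h1 : {z : (ℂ × ℝ) × ℂ | 0 ≤ z.1.2 ∧ z.2 ∈ slitS z.1} =
        {z : (ℂ × ℝ) × ℂ | 0 ≤ z.1.2} ∩ ({z | z.2.im = z.1.1.im} ∩
          ({z | z.1.1.re ≤ z.2.re} ∩ {z | z.2.re ≤ z.1.1.re + z.1.2})) := by
      ext z
      simp only [mem_ofPred_eq, mem_inter_iff]
      constructor
      · rintro ⟨h, h2⟩
        exact ⟨h, (mem_slitS h).1 h2⟩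
      · rintro ⟨h, h2⟩
        exact ⟨h, (mem_slitS h).2 h2⟩
    rw [h1]
    refine (isClosed_le continuous_const (by fun_prop)).inter (IsClosed.inter ?_ (IsClosed.inter ?_ ?_))
    · exact isClosed_eq (Complex.continuous_im.comp (by fun_prop))
        (Complex.continuous_im.comp (by fun_prop))
    · exact isClosed_le (Complex.continuous_re.comp (by fun_prop))
        (Complex.continuous_re.comp (by fun_prop))
    · exact isClosed_le (Complex.continuous_re.comp (by fun_prop))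
        ((Complex.continuous_re.comp (by fun_prop)).add (by fun_prop))
  lower q hq w hw := by
    unfold slitS at hw
    rw [segment_eq_image'] at hw
    obtain ⟨θ, hθ, rfl⟩ := hw
    refine ⟨(θ : ℂ), ?_, fun q' hq' => ?_⟩
    · simp only [add_sub_cancel_left, Complex.real_smul]
      ring
    · unfold slitS
      rw [segment_eq_image']
      refine ⟨θ, hθ, ?_⟩
      simp only [add_sub_cancel_left, Complex.real_smul]
      ring

theorem Shape.pos {S : ℂ × ℝ → Set ℂ} (hS : Shape S) {q : ℂ × ℝ} (hq : 0 ≤ q.2)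
    (hn : (S q).Nontrivial) : 0 < q.2 := by
  rcases hq.eq_or_lt with h0 | h0
  · exfalso
    obtain ⟨a, ha, b, hb, hab⟩ := hn
    obtain ⟨u, hu, -⟩ := hS.lower q hq a ha
    obtain ⟨v, hv, -⟩ := hS.lower q hq b hb
    rw [← h0, Complex.ofReal_zero, zero_mul, add_zero] at hu hv
    exact hab (hu.symm.trans hv)
  · exact h0

variable {S : ℂ × ℝ → Set ℂ} {p : Ultrafilter ℕ}

/-- upper semicontinuity -/
theorem Shape.usc (hS : Shape S) {q : ℕ → ℂ × ℝ} {q' : ℂ × ℝ} (hq0 : ∀ k, 0 ≤ (q k).2)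
    (hq : Tendsto q p (𝓝 q')) {N : Set ℂ} (hN : IsOpen N) (hSN : S q' ⊆ N) :
    ∀ᶠ k in (p : Filter ℕ), S (q k) ⊆ N := by
  classical
  by_contra hcon
  rw [← Ultrafilter.eventually_not] at hcon
  have hex : ∀ k, ∃ u : ℂ, ¬ S (q k) ⊆ N → u ∈ S (0, 1) ∧ (q k).1 + (q k).2 * u ∈ S (q k) ∧
      (q k).1 + (q k).2 * u ∉ N := by
    intro k
    by_cases h : S (q k) ⊆ N
    · exact ⟨0, fun h' => absurd h h'⟩
    · obtain ⟨w, hw, hwN⟩ := not_subset.1 h
      obtain ⟨u, hu, hu2⟩ := hS.lower (q k) (hq0 k) w hw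
      have h1 := hu2 (0, 1) zero_le_one
      simp only [zero_add, Complex.ofReal_one, one_mul] at h1
      exact ⟨u, fun _ => ⟨h1, hu2 _ (hq0 k), by rw [hu]; exact hwN⟩⟩
  choose u hu using hex
  have hev : ∀ᶠ k in (p : Filter ℕ), u k ∈ S (0, 1) := by
    filter_upwards [hcon] with k hk using (hu k hk).1
  obtain ⟨v, -, hv⟩ := (hS.cpt (0, 1)).ultrafilter_le_nhds (p.map u) (by
    rw [Ultrafilter.coe_map, le_principal_iff, mem_map]
    exact hev)
  rw [Ultrafilter.coe_map] at hv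
  have hv' : Tendsto u p (𝓝 v) := hv
  have h1 : Tendsto (fun k => (q k).1) p (𝓝 q'.1) := (continuous_fst.tendsto _).comp hq
  have h2 : Tendsto (fun k => (q k).2) p (𝓝 q'.2) := (continuous_snd.tendsto _).comp hq
  have h3 : Tendsto (fun k => (((q k).2 : ℝ) : ℂ)) p (𝓝 (q'.2 : ℂ)) :=
    (Complex.continuous_ofReal.tendsto _).comp h2
  have h4 : Tendsto (fun k => (q k).1 + (q k).2 * u k) p (𝓝 (q'.1 + q'.2 * v)) :=
    h1.add (h3.mul hv')
  have h5 : (q', q'.1 + q'.2 * v) ∈ {z : (ℂ × ℝ) × ℂ | 0 ≤ z.1.2 ∧ z.2 ∈ S z.1} := by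
    apply hS.closed.mem_of_tendsto (hq.prodMk_nhds h4)
    filter_upwards [hcon] with k hk
    exact ⟨hq0 k, (hu k hk).2.1⟩
  have h6 : q'.1 + q'.2 * v ∈ Nᶜ := by
    apply hN.isClosed_compl.mem_of_tendsto h4
    filter_upwards [hcon] with k hk
    exact (hu k hk).2.2
  exact h6 (hSN h5.2)

/-- lower semicontinuity -/
theorem Shape.lsc (hS : Shape S) {q : ℕ → ℂ × ℝ} {q' : ℂ × ℝ} (hq0 : ∀ k, 0 ≤ (q k).2)
    (hq0' : 0 ≤ q'.2) (hq : Tendsto q p (𝓝 q')) {w : ℂ} (hw : w ∈ S q') :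
    ∃ v : ℕ → ℂ, (∀ k, v k ∈ S (q k)) ∧ Tendsto v p (𝓝 w) := by
  obtain ⟨u, hu, hu2⟩ := hS.lower q' hq0' w hw
  refine ⟨fun k => (q k).1 + (q k).2 * u, fun k => hu2 _ (hq0 k), ?_⟩
  have h1 : Tendsto (fun k => (q k).1) p (𝓝 q'.1) := (continuous_fst.tendsto _).comp hq
  have h2 : Tendsto (fun k => (q k).2) p (𝓝 q'.2) := (continuous_snd.tendsto _).comp hq
  have h3 : Tendsto (fun k => (((q k).2 : ℝ) : ℂ)) p (𝓝 (q'.2 : ℂ)) :=
    (Complex.continuous_ofReal.tendsto _).comp h2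
  have h4 : Tendsto (fun k => (q k).1 + (q k).2 * u) p (𝓝 (q'.1 + q'.2 * u)) :=
    h1.add (h3.mul_const u)
  rwa [hu] at h4

/-- the complements of the shapes exhaust the complement of the limit shapes -/
theorem Shape.exh {n : ℕ} (hS : Shape S) {x : ℕ → Fin n → ℂ × ℝ} {x' : Fin n → ℂ × ℝ}
    (hx0 : ∀ k i, 0 ≤ (x k i).2) (hx : Tendsto x p (𝓝 x')) :
    Exh p (fun k => dom (fun i => S (x k i))) (dom fun i => S (x' i)) := by
  intro z hz
  have hz' : ∀ i, z ∉ S (x' i) := by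
    intro i hi
    exact hz (mem_iUnion.2 ⟨i, hi⟩)
  have h1 : ∀ i, ∀ᶠ kw : ℕ × ℂ in (p : Filter ℕ) ×ˢ 𝓝 z, kw.2 ∉ S (x kw.1 i) := by
    intro i
    have h2 : {z : (ℂ × ℝ) × ℂ | 0 ≤ z.1.2 ∧ z.2 ∈ S z.1}ᶜ ∈ 𝓝 (x' i, z) :=
      hS.closed.isOpen_compl.mem_nhds (fun h => hz' i h.2)
    have hxi : Tendsto (fun k => x k i) p (𝓝 (x' i)) := ((continuous_apply i).tendsto _).comp hx
    have h3 : Tendsto (fun kw : ℕ × ℂ => (x kw.1 i, kw.2)) ((p : Filter ℕ) ×ˢ 𝓝 z)
        (𝓝 (x' i, z)) := by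
      rw [nhds_prod_eq]
      exact hxi.prodMap tendsto_id
    filter_upwards [h3.eventually h2] with kw hkw hmem
    exact hkw ⟨hx0 _ _, hmem⟩
  have h4 := eventually_all.2 h1
  rw [eventually_prod_iff] at h4
  obtain ⟨pa, hpa, pb, hpb, hab⟩ := h4
  have hopen : IsOpen (dom fun i => S (x' i)) := by
    unfold dom
    exact (isClosed_iUnion_of_finite fun i => (hS.cpt _).isClosed).isOpen_compl
  obtain ⟨r, hr, hrb⟩ := Metric.eventually_nhds_iff_ball.1 (hpb.and (hopen.mem_nhds hz))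
  refine ⟨r, hr, fun w hw => (hrb w hw).2, ?_⟩
  filter_upwards [hpa] with k hk w hw hmem
  obtain ⟨i, hi⟩ := mem_iUnion.1 hmem
  exact hab hk (hrb w hw).1 i hi

theorem Exh.mono {U : ℕ → Set ℂ} {W W' : Set ℂ} (h : Exh p U W) (hW : W' ⊆ W)
    (hW' : IsOpen W') : Exh p U W' := by
  intro z hz
  obtain ⟨r, hr, hr2, hr3⟩ := h z (hW hz)
  obtain ⟨s, hs, hs2⟩ := Metric.isOpen_iff.1 hW' z hz
  refine ⟨min r s, lt_min hr hs, (ball_subset_ball (min_le_right _ _)).trans hs2, ?_⟩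
  filter_upwards [hr3] with k hk using (ball_subset_ball (min_le_left _ _)).trans hk

/-- images of neighbourhoods of some of the components are open, together with the corresponding
components -/
theorem isOpen_part {ι : Type*} [Finite ι] {K K' : ι → Set ℂ} {f : ℂ → ℂ} (hK : Fam K)
    (hK' : Fam K') (h : LMap K K' f) {G : Set ℂ} (hG : IsOpen G) {J : Set ι}
    (hJ : ∀ l ∈ J, K l ⊆ G) : IsOpen (f '' (dom K ∩ G) ∪ ⋃ l ∈ J, K' l) := by
  have hop : IsOpen (f '' (dom K ∩ G)) :=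
    Crest.Agent.Lib.isOpen_image_of_injOn (hK.exterior.1.inter hG)
      (h.sig.hol.mono inter_subset_left) (h.sig.inj.mono inter_subset_left)
  rw [isOpen_iff_mem_nhds]
  rintro q (hq | hq)
  · exact mem_of_superset (hop.mem_nhds hq) subset_union_left
  · rw [mem_iUnion₂] at hq
    obtain ⟨l, hl, hql⟩ := hq
    obtain ⟨g, hg, hgf, hfg⟩ := h.symm hK hK'
    have h1 : g ⁻¹' G ∈ 𝓝ˢ (K' l) ⊓ 𝓟 (dom K') := hg.lab l (hG.mem_nhdsSet.2 (hJ l hl))
    rw [mem_inf_principal] at h1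
    have h2 : {w | w ∈ dom K' → w ∈ g ⁻¹' G} ∈ 𝓝 q := nhds_le_nhdsSet hql h1
    have h3 : ∀ᶠ w in 𝓝 q, ∀ m, m ≠ l → w ∉ K' m := by
      rw [eventually_all]
      intro m
      by_cases hm : m = l
      · exact Eventually.of_forall fun w h => absurd hm h
      · have hqm : q ∉ K' m := fun h => (Set.disjoint_left.1 (hK'.disj m l hm)) h hql
        filter_upwards [(hK'.cpt m).isClosed.isOpen_compl.mem_nhds hqm] with w hw _ using hw
    filter_upwards [h2, h3] with w hw1 hw2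
    by_cases hwd : w ∈ dom K'
    · left
      have h4 := hw1 hwd
      refine ⟨g w, ⟨?_, h4⟩, hfg w hwd⟩
      exact hg.mapsTo hwd
    · right
      obtain ⟨m, hm⟩ := not_mem_dom hwd
      have : m = l := by
        by_contra hne
        exact hw2 m hne hm
      rw [this] at hm
      exact mem_iUnion₂.2 ⟨l, hl, hm⟩

end Crest.Agent.R105.Lim_107
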