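import Mathlib
import Crest.Agent.R105.Lim2_107

/-!
Row 105 (helper107), limits of labelled maps, part 3: labels are preserved in the limit.
-/

set_option autoImplicit false

open Set Filter Topology Metric Complex

namespace Crest.Agent.R105.Lim_107

open Crest.AnalysisR Crest.Agent.R105.FK_644

variable {S : ℂ × ℝ → Set ℂ} {p : Ultrafilter ℕ} {n : ℕ}

/-- labels are preserved in the limit: if `w k ∈ K'_k j` tend to a frontier point of `K'' i`
then `i = j`. -/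
theorem label_limit (hS : Shape S) {x : ℕ → Fin n → ℂ × ℝ} {x' : Fin n → ℂ × ℝ}
    (hx0 : ∀ k i, 0 ≤ (x k i).2) (hx : Tendsto x p (𝓝 x'))
    (hFx : ∀ k, Fam (fun i => S (x k i))) (hFx' : Fam (fun i => S (x' i)))
    {L : ℕ → Fin n → Set ℂ} (hL : ∀ k, Fam (L k)) {F : ℕ → ℂ → ℂ}
    (hF : ∀ k, LMap (fun i => S (x k i)) (L k) (F k)) {L' : Fin n → Set ℂ} (hL' : Fam L')
    {f : ℂ → ℂ} (hf : LMap (fun i => S (x' i)) L' f)
    (hlim : TendstoLocallyUniformlyOn F f p (dom fun i => S (x' i)))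
    {i j : Fin n} {w : ℕ → ℂ} {v : ℂ} (hw : ∀ k, w k ∈ L k j) (hwv : Tendsto w p (𝓝 v))
    (hv : v ∈ frontier (L' i)) : i = j := by
  classical
  by_contra hij
  have hvL : v ∈ L' i := (hL'.cpt i).isClosed.frontier_subset hv
  -- the neighbourhood `N` of `S (x' j)`
  have hYc : IsClosed (⋃ l ∈ {l : Fin n | l ≠ j}, S (x' l)) :=
    (toFinite {l : Fin n | l ≠ j}).isClosed_biUnion fun l _ => (hS.cpt _).isClosed
  have hdis : Disjoint (S (x' j)) (⋃ l ∈ {l : Fin n | l ≠ j}, S (x' l)) := by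
    rw [Set.disjoint_left]
    intro z hz hz2
    obtain ⟨l, hl, hzl⟩ := mem_iUnion₂.1 hz2
    exact Set.disjoint_left.1 (hFx'.disj l j hl) hzl hz
  obtain ⟨N, hNo, hNj, hNc, hNd⟩ := Ends_897.exists_nhd (hS.cpt (x' j)) hYc hdis
  have hNl : ∀ l, l ≠ j → S (x' l) ⊆ (closure N)ᶜ := by
    intro l hl z hz hzN
    exact Set.disjoint_left.1 hNd hzN (mem_iUnion₂.2 ⟨l, hl, hz⟩)
  have hNco : IsOpen (closure N)ᶜ := isClosed_closure.isOpen_compl
  have hxi : ∀ i, Tendsto (fun k => x k i) p (𝓝 (x' i)) := fun i =>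
    ((continuous_apply i).tendsto _).comp hx
  have hev1 : ∀ᶠ k in (p : Filter ℕ), S (x k j) ⊆ N :=
    hS.usc (fun k => hx0 k j) (hxi j) hNo hNj
  have hev2 : ∀ᶠ k in (p : Filter ℕ), ∀ l, l ≠ j → S (x k l) ⊆ (closure N)ᶜ := by
    rw [eventually_all]
    intro l
    by_cases hl : l = j
    · exact Eventually.of_forall fun k h => absurd hl h
    · filter_upwards [hS.usc (fun k => hx0 k l) (hxi l) hNco (hNl l hl)] with k hk _ using hk
  -- the boundary of `N`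
  set B : Set ℂ := frontier N with hB
  have hBc : IsCompact B := hNc.of_isClosed_subset isClosed_frontier frontier_subset_closure
  have hBdisj : ∀ z ∈ B, z ∉ N := by
    intro z hz hzN
    rw [hB, hNo.frontier_eq] at hz
    exact hz.2 hzN
  have hBcl : B ⊆ closure N := frontier_subset_closure
  have hBU : B ⊆ dom (fun i => S (x' i)) := by
    intro z hz hmem
    obtain ⟨l, hl⟩ := mem_iUnion.1 hmem
    by_cases hlj : l = j
    · subst hlj; exact hBdisj z hz (hNj hl)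
    · exact hNl l hlj hl (hBcl hz)
  have hBf : IsCompact (f '' B) := hBc.image_of_continuousOn (hf.sig.hol.continuousOn.mono hBU)
  have hvB : v ∉ f '' B := by
    rintro ⟨z, hz, hzv⟩
    have h1 : v ∈ dom L' := by rw [← hzv]; exact hf.mapsTo (hBU hz)
    exact h1 (mem_iUnion.2 ⟨i, hvL⟩)
  obtain ⟨ρ, hρ, hρB⟩ := Metric.isOpen_iff.1 hBf.isClosed.isOpen_compl v hvB
  have hunif : ∀ᶠ k in (p : Filter ℕ), ∀ z ∈ B, dist (f z) (F k z) < ρ / 2 := by
    have h1 := (tendstoLocallyUniformlyOn_iff_forall_isCompact hFx'.exterior.1).1 hlim B hBU hBc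
    exact Metric.tendstoUniformlyOn_iff.1 h1 (ρ / 2) (by positivity)
  -- a point `f a`, `a` outside of `N`, close to `v`
  obtain ⟨a, haU, haN, hav⟩ : ∃ a, a ∈ dom (fun i => S (x' i)) ∧ a ∈ (closure N)ᶜ ∧
      f a ∈ ball v (ρ / 2) := by
    have h1 : v ∈ frontier (connectedComponentIn (dom L')ᶜ v) := by
      rw [hL'.cc_eq hvL]; exact hv
    have h2 := Ends_897.clusterPt_eF_of_frontier hL'.exterior h1
    rw [hL'.eF_eq hvL, ← hf.lab_eq hFx' hL' i] at h2
    have h3 : (closure N)ᶜ ∩ dom (fun i => S (x' i)) ∈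
        𝓝ˢ (S (x' i)) ⊓ 𝓟 (dom fun i => S (x' i)) :=
      inter_mem_inf (hNco.mem_nhdsSet.2 (hNl i hij)) (mem_principal_self _)
    have h4 := clusterPt_iff_nonempty.1 h2 (ball_mem_nhds v (half_pos hρ)) (image_mem_map h3)
    obtain ⟨y, hy1, z, hz, hzy⟩ := h4
    exact ⟨z, hz.2, hz.1, by rw [hzy]; exact hy1⟩
  -- Hurwitz at `a`
  obtain ⟨s, hs, hsN⟩ := Metric.isOpen_iff.1 hNco a haN
  obtain ⟨r, hr, hrs, -, hrn, η, hη, hηn⟩ := hurwitz_loc hFx'.exterior
    (hS.exh hx0 hx) (fun k => (hF k).sig) hf.sig hlim haU hs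
  have hwv' : ∀ᶠ k in (p : Filter ℕ), w k ∈ ball v (ρ / 2) :=
    hwv.eventually (ball_mem_nhds v (half_pos hρ))
  obtain ⟨k, h1, h2, h3, h4, h5, h6⟩ :=
    (hev1.and (hev2.and (hunif.and (hrn.and (hηn.and hwv'))))).exists
  -- the two open pieces
  set A : Set ℂ := F k '' (dom (fun i => S (x k i)) ∩ N) ∪ ⋃ l ∈ ({j} : Set (Fin n)), L k l with hA
  set E : Set ℂ := F k '' (dom (fun i => S (x k i)) ∩ (closure N)ᶜ) ∪
    ⋃ l ∈ ({j}ᶜ : Set (Fin n)), L k l with hE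
  have hAo : IsOpen A := isOpen_part (hFx k) (hL k) (hF k) hNo (fun l hl => by
    rw [mem_singleton_iff] at hl; subst hl; exact h1)
  have hEo : IsOpen E := isOpen_part (hFx k) (hL k) (hF k) hNco (fun l hl => h2 l hl)
  have hAE : Disjoint A E := by
    rw [Set.disjoint_left]
    rintro y (⟨z, hz, rfl⟩ | hy) (⟨z', hz', hzz⟩ | hy')
    · have h7 := (hF k).sig.inj hz'.1 hz.1 hzz
      rw [h7] at hz'
      exact hz'.2 (subset_closure hz.2)
    · have h7 : F k z ∈ dom (L k) := (hF k).mapsTo hz.1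
      obtain ⟨l, -, hl⟩ := mem_iUnion₂.1 hy'
      exact h7 (mem_iUnion.2 ⟨l, hl⟩)
    · have h7 : F k z' ∈ dom (L k) := (hF k).mapsTo hz'.1
      obtain ⟨l, -, hl⟩ := mem_iUnion₂.1 hy
      rw [← hzz] at hl
      exact h7 (mem_iUnion.2 ⟨l, hl⟩)
    · obtain ⟨l, hl, hyl⟩ := mem_iUnion₂.1 hy
      obtain ⟨m, hm, hym⟩ := mem_iUnion₂.1 hy'
      rw [mem_singleton_iff] at hl
      subst hl
      exact Set.disjoint_left.1 ((hL k).disj m l hm) hym hyl
  have hball : ball v (ρ / 2) ⊆ A ∪ E := by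
    intro y hy
    by_cases hyd : y ∈ dom (L k)
    · rw [← (hF k).img] at hyd
      obtain ⟨z, hz, rfl⟩ := hyd
      by_cases hzN : z ∈ N
      · exact Or.inl (Or.inl ⟨z, ⟨hz, hzN⟩, rfl⟩)
      by_cases hzc : z ∈ closure N
      · exfalso
        have hzB : z ∈ B := by
          rw [hB, hNo.frontier_eq]; exact ⟨hzc, hzN⟩
        have h7 := h3 z hzB
        rw [mem_ball] at hy
        have h8 : dist (f z) v < ρ := by
          have := dist_triangle (f z) (F k z) v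
          linarith
        exact hρB h8 ⟨z, hzB, rfl⟩
      · exact Or.inr (Or.inl ⟨z, ⟨hz, hzc⟩, rfl⟩)
    · obtain ⟨l, hl⟩ := not_mem_dom hyd
      by_cases hlj : l = j
      · exact Or.inl (Or.inr (mem_iUnion₂.2 ⟨l, hlj, hl⟩))
      · exact Or.inr (Or.inr (mem_iUnion₂.2 ⟨l, hlj, hl⟩))
  have hsub : ball v (ρ / 2) ⊆ A :=
    (convex_ball v (ρ / 2)).isPreconnected.subset_left_of_subset_union hAo hEo hAE hball
      ⟨w k, h6, Or.inr (mem_iUnion₂.2 ⟨j, rfl, hw k⟩)⟩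
  have hfaE : f a ∈ E := by
    obtain ⟨z, hz, hza⟩ := h5 (mem_ball_self hη)
    left
    refine ⟨z, ⟨h4 hz, hsN ?_⟩, hza⟩
    exact ball_subset_ball hrs hz
  exact Set.disjoint_left.1 hAE (hsub hav) hfaE

end Crest.Agent.R105.Lim_107
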