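import Mathlib

/-!
# R105 (S0138, NI frame), E13: LINE LEMMA, part 1: one variable (helper642)

* `mono_int` : `f` monotone, `χ ∈ C¹`, `0 ≤ χ ≤ 1`, `χ b = 0`:
  `∫_a^b χ' f + χ(a) f(a) ∈ [-(f b - f a), 0]`
* `exists_mono` : on a set `S`, a function of bounded variation is a difference of two monotone
  functions on the line.
-/

set_option autoImplicit false

open Set Filter MeasureTheory intervalIntegral
open scoped Topology NNReal ENNReal

namespace Crest.Agent.R105.Lin_642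

section mono

variable {f χ χ' : ℝ → ℝ}

theorem mono_int (hf : Monotone f) (hχ : ∀ v, HasDerivAt χ (χ' v) v) (hc : Continuous χ')
    (h01 : ∀ v, χ v ∈ Icc (0 : ℝ) 1) {a b : ℝ} (hab : a ≤ b) (hb : χ b = 0) :
    (∫ v in a..b, χ' v * f v) + χ a * f a ∈ Icc (-(f b - f a)) 0 := by
  -- bound of the derivative
  obtain ⟨M, hM⟩ := isCompact_Icc.exists_bound_of_continuousOn (s := Icc a b) hc.continuousOn
  have hM0 : 0 ≤ M := (norm_nonneg _).trans (hM a ⟨le_rfl, hab⟩)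
  have hfi : ∀ u v, IntervalIntegrable (fun x => χ' x * f x) volume u v := fun u v =>
    (hf.monotoneOn _).intervalIntegrable.continuousOn_mul hc.continuousOn
  have hχi : ∀ u v, ∫ x in u..v, χ' x = χ v - χ u := fun u v =>
    integral_eq_sub_of_hasDerivAt (fun x _ => hχ x) (hc.intervalIntegrable _ _)
  -- one piece
  have piece : ∀ u v, a ≤ u → u ≤ v → v ≤ b →
      |(∫ x in u..v, χ' x * f x) - f u * (χ v - χ u)| ≤ M * (v - u) * (f v - f u) := by
    intro u v hau huv hvb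
    have e1 : (∫ x in u..v, χ' x * f x) - f u * (χ v - χ u) = ∫ x in u..v, χ' x * (f x - f u) := by
      rw [← hχi u v, ← intervalIntegral.integral_const_mul, ← intervalIntegral.integral_sub (hfi u v)
        ((hc.intervalIntegrable _ _).const_mul _)]
      congr 1
      ext x; ring
    rw [e1]
    have h1 := norm_integral_le_of_norm_le_const (a := u) (b := v)
      (f := fun x => χ' x * (f x - f u)) (C := M * (f v - f u)) (fun x hx => by
        rw [uIoc_of_le huv] at hx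
        rw [norm_mul]
        refine mul_le_mul (hM x ⟨by linarith [hx.1], by linarith [hx.2]⟩) ?_ (norm_nonneg _) hM0
        rw [Real.norm_eq_abs, abs_of_nonneg (sub_nonneg.2 (hf hx.1.le))]
        linarith [hf hx.2])
    rw [Real.norm_eq_abs, abs_of_nonneg (sub_nonneg.2 huv)] at h1
    calc _ ≤ M * (f v - f u) * (v - u) := h1
      _ = _ := by ring
  -- the sums
  have hsum : ∀ h : ℝ, 0 ≤ h → ∀ n : ℕ, a + n * h ≤ b →
      |(∫ x in a..(a + n * h), χ' x * f x) + χ a * f a - χ (a + n * h) * f (a + n * h)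
        + ∑ i ∈ Finset.range n, χ (a + (i + 1 : ℕ) * h) * (f (a + (i + 1 : ℕ) * h) - f (a + i * h))|
        ≤ M * h * (f (a + n * h) - f a) ∧
      (∑ i ∈ Finset.range n, χ (a + (i + 1 : ℕ) * h) * (f (a + (i + 1 : ℕ) * h) - f (a + i * h)))
        ∈ Icc 0 (f (a + n * h) - f a) := by
    intro h hh n
    induction n with
    | zero => intro _; simp
    | succ n ih =>
      intro hn
      have hle : a + n * h ≤ a + (n + 1 : ℕ) * h := by push_cast; nlinarith
      obtain ⟨i1, i2⟩ := ih (hle.trans hn)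
      have han : a ≤ a + n * h := by
        have : 0 ≤ (n:ℝ) * h := by positivity
        linarith
      have hp := piece _ _ han hle hn
      have hstep : a + (n + 1 : ℕ) * h - (a + n * h) = h := by push_cast; ring
      rw [hstep] at hp
      have hm := hf hle
      refine ⟨?_, ?_⟩
      · rw [Finset.sum_range_succ, ← integral_add_adjacent_intervals (hfi a (a + n * h))
          (hfi (a + n * h) _)]
        rw [abs_le] at i1 hp ⊢
        constructor <;> linarith [i1.1, i1.2, hp.1, hp.2]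
      · rw [Finset.sum_range_succ]
        have h1 := h01 (a + (n + 1 : ℕ) * h)
        have h2 : χ (a + (n + 1 : ℕ) * h) * (f (a + (n + 1 : ℕ) * h) - f (a + n * h))
            ≤ f (a + (n + 1 : ℕ) * h) - f (a + n * h) :=
          mul_le_of_le_one_left (sub_nonneg.2 hm) h1.2
        have h3 : 0 ≤ χ (a + (n + 1 : ℕ) * h) * (f (a + (n + 1 : ℕ) * h) - f (a + n * h)) :=
          mul_nonneg h1.1 (sub_nonneg.2 hm)
        exact ⟨by linarith [i2.1], by linarith [i2.2]⟩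
  have key : ∀ n : ℕ, 0 < n → (∫ v in a..b, χ' v * f v) + χ a * f a ∈
      Icc (-(f b - f a) - M * ((b - a) / n) * (f b - f a)) (M * ((b - a) / n) * (f b - f a)) := by
    intro n hn
    have hn' : (0:ℝ) < n := by exact_mod_cast hn
    have e : a + n * ((b - a) / n) = b := by field_simp; ring
    obtain ⟨h1, h2⟩ := hsum ((b - a) / n) (div_nonneg (sub_nonneg.2 hab) hn'.le) n e.le
    rw [e, hb] at h1
    rw [e] at h2
    rw [abs_le] at h1
    exact ⟨by linarith [h1.1, h2.1, h2.2], by linarith [h1.2, h2.1, h2.2]⟩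
  have hlim : Tendsto (fun n : ℕ => M * ((b - a) / n) * (f b - f a)) atTop (𝓝 0) := by
    have h1 : Tendsto (fun n : ℕ => (b - a) / (n:ℝ)) atTop (𝓝 0) :=
      tendsto_const_div_atTop_nhds_zero_nat _
    have h2 := (h1.const_mul M).mul_const (f b - f a)
    simpa using h2
  constructor
  · have h3 : Tendsto (fun n : ℕ => -(f b - f a) - M * ((b - a) / n) * (f b - f a)) atTop
        (𝓝 (-(f b - f a) - 0)) := tendsto_const_nhds.sub hlim
    rw [sub_zero] at h3
    exact le_of_tendsto h3 (eventually_atTop.2 ⟨1, fun n hn => (key n hn).1⟩)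
  · exact ge_of_tendsto hlim (eventually_atTop.2 ⟨1, fun n hn => (key n hn).2⟩)

end mono

/-! ### monotone decomposition -/

theorem exists_ext {g : ℝ → ℝ} {S : Set ℝ} (hg : MonotoneOn g S) {C : ℝ}
    (hC : ∀ v ∈ S, |g v| ≤ C) (hC0 : 0 ≤ C) :
    ∃ P : ℝ → ℝ, Monotone P ∧ (∀ v ∈ S, P v = g v) ∧ ∀ v, |P v| ≤ C := by
  obtain ⟨P, hP, hPe⟩ := hg.exists_monotone_extension
    ⟨-C, by rintro _ ⟨v, hv, rfl⟩; exact (abs_le.1 (hC v hv)).1⟩
    ⟨C, by rintro _ ⟨v, hv, rfl⟩; exact (abs_le.1 (hC v hv)).2⟩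
  refine ⟨fun v => max (-C) (min C (P v)), fun a b h =>
    max_le_max le_rfl (min_le_min le_rfl (hP h)), fun v hv => ?_, fun v => ?_⟩
  · have h1 := abs_le.1 (hC v hv)
    have h2 : g v = P v := hPe hv
    simp only
    rw [← h2, min_eq_right h1.2, max_eq_right h1.1]
  · rw [abs_le]
    exact ⟨le_max_left _ _, max_le (by linarith) (min_le_left _ _)⟩

theorem exists_mono {w : ℝ → ℝ} {S : Set ℝ} (hS : BoundedVariationOn w S) {B : ℝ}
    (hB : ∀ v ∈ S, |w v| ≤ B) (hB0 : 0 ≤ B) :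
    ∃ P Q : ℝ → ℝ, Monotone P ∧ Monotone Q ∧ (∀ v ∈ S, w v = P v - Q v) ∧
      (∀ v, |P v| ≤ (eVariationOn w S).toReal) ∧ ∀ v, |Q v| ≤ (eVariationOn w S).toReal + B := by
  rcases S.eq_empty_or_nonempty with rfl | ⟨c, hc⟩
  · refine ⟨fun _ => 0, fun _ => 0, monotone_const, monotone_const, fun v hv => hv.elim,
      fun v => ?_, fun v => ?_⟩ <;> simp [hB0]
  have hl := hS.locallyBoundedVariationOn
  have hV0 : 0 ≤ (eVariationOn w S).toReal := ENNReal.toReal_nonneg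
  have hp : ∀ v, |variationOnFromTo w S c v| ≤ (eVariationOn w S).toReal := fun v =>
    variationOnFromTo.abs_le_eVariationOn hS
  obtain ⟨P, hP, hPe, hPb⟩ := exists_ext (variationOnFromTo.monotoneOn hl hc)
    (fun v _ => hp v) hV0
  obtain ⟨Q, hQ, hQe, hQb⟩ := exists_ext (variationOnFromTo.sub_self_monotoneOn hl hc)
    (C := (eVariationOn w S).toReal + B) (fun v hv => by
      rw [Pi.sub_apply]
      have h1 := abs_sub (variationOnFromTo w S c v) (w v)
      linarith [hp v, hB v hv]) (by linarith)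
  refine ⟨P, Q, hP, hQ, fun v hv => ?_, hPb, hQb⟩
  rw [hPe v hv, hQe v hv, Pi.sub_apply]; ring

/-! ### one end -/

section oneend

variable {w χ χ' : ℝ → ℝ} {S : Set ℝ} {q : ℝ}

/-- the integral between two points, for a difference of monotone functions -/
theorem diff_int {P Q : ℝ → ℝ} (hP : Monotone P) (hQ : Monotone Q)
    (hχ : ∀ v, HasDerivAt χ (χ' v) v) (hc : Continuous χ') (h01 : ∀ v, χ v ∈ Icc (0 : ℝ) 1)
    {a b : ℝ} (hab : a ≤ b) (ha : χ a = 1) (hb : χ b = 0)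
    (hw : ∀ v ∈ Ioc a b, χ' v ≠ 0 → w v = P v - Q v) :
    (∫ v in a..b, w v * χ' v) ∈ Icc (-P b + Q a) (-P a + Q b) := by
  have e1 : ∫ v in a..b, w v * χ' v = (∫ v in a..b, χ' v * P v) - ∫ v in a..b, χ' v * Q v := by
    rw [← intervalIntegral.integral_sub
      ((hP.monotoneOn _).intervalIntegrable.continuousOn_mul hc.continuousOn)
      ((hQ.monotoneOn _).intervalIntegrable.continuousOn_mul hc.continuousOn)]
    refine intervalIntegral.integral_congr_ae (Eventually.of_forall fun v hv => ?_)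
    rw [uIoc_of_le hab] at hv
    by_cases h : χ' v = 0
    · simp [h]
    · rw [hw v hv h]; ring
  have h1 := mono_int hP hχ hc h01 hab hb
  have h2 := mono_int hQ hχ hc h01 hab hb
  rw [ha] at h1 h2
  rw [e1]
  exact ⟨by linarith [h1.1, h2.2], by linarith [h1.2, h2.1]⟩

/-- the integral over the ray above `q` -/
theorem ray_mem {P Q : ℝ → ℝ} (hP : Monotone P) (hQ : Monotone Q)
    (hχ : ∀ v, HasDerivAt χ (χ' v) v) (hc : Continuous χ') (h01 : ∀ v, χ v ∈ Icc (0 : ℝ) 1)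
    (hone : ∀ᶠ v in 𝓝[>] q, χ v = 1) {b : ℝ} (hb : q < b) (hzero : ∀ v, b ≤ v → χ v = 0)
    (hw : ∀ v ∈ Ioc q b, χ' v ≠ 0 → w v = P v - Q v) :
    ∀ᶠ a in 𝓝[>] q, (∫ v in Ioi q, w v * χ' v) ∈ Icc (-P b + Q a) (-P a + Q b) := by
  obtain ⟨c, hc1, hc2⟩ := mem_nhdsGT_iff_exists_Ioo_subset.1 hone
  have hqc : q < c := hc1
  filter_upwards [Ioo_mem_nhdsGT (lt_min hqc hb)] with a ha
  have haq : q < a := ha.1
  have hac : a < c := ha.2.trans_le (min_le_left _ _)
  have hab : a < b := ha.2.trans_le (min_le_right _ _)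
  have hχa : χ a = 1 := hc2 ⟨haq, hac⟩
  have hd0 : ∀ v, b < v → χ' v = 0 := by
    intro v hv
    have h1 : χ =ᶠ[𝓝 v] fun _ => 0 := by
      filter_upwards [Ioi_mem_nhds hv] with x hx using hzero x (le_of_lt hx)
    exact (hχ v).unique ((hasDerivAt_const v (0:ℝ)).congr_of_eventuallyEq h1)
  have hd1 : ∀ v, q < v → v ≤ a → χ' v = 0 := by
    intro v hv hv'
    have h1 : χ =ᶠ[𝓝 v] fun _ => 1 := by
      filter_upwards [Ioo_mem_nhds hv (hv'.trans_lt hac)] with x hx using hc2 hx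
    exact (hχ v).unique ((hasDerivAt_const v (1:ℝ)).congr_of_eventuallyEq h1)
  have e1 : ∫ v in Ioi q, w v * χ' v = ∫ v in a..b, w v * χ' v := by
    rw [intervalIntegral.integral_of_le hab.le]
    refine (setIntegral_eq_of_subset_of_forall_sdiff_eq_zero measurableSet_Ioi
      (fun v hv => haq.trans hv.1) ?_)
    intro v hv
    rcases le_or_gt v a with h | h
    · rw [hd1 v hv.1 h, mul_zero]
    · have : b < v := by
        by_contra hn
        exact hv.2 ⟨h, not_lt.1 hn⟩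
      rw [hd0 v this, mul_zero]
  rw [e1]
  exact diff_int hP hQ hχ hc h01 hab.le hχa (hzero b le_rfl)
    (fun v hv h => hw v ⟨haq.trans hv.1, hv.2⟩ h)

/-- bound of the integral over the ray -/
theorem ray_bound (hS : BoundedVariationOn w S) {B : ℝ} (hB : ∀ v ∈ S, |w v| ≤ B) (hB0 : 0 ≤ B)
    (hχ : ∀ v, HasDerivAt χ (χ' v) v) (hc : Continuous χ') (h01 : ∀ v, χ v ∈ Icc (0 : ℝ) 1)
    (hone : ∀ᶠ v in 𝓝[>] q, χ v = 1) {b : ℝ} (hb : q < b) (hzero : ∀ v, b ≤ v → χ v = 0)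
    (hw : ∀ v ∈ Ioc q b, χ' v ≠ 0 → v ∈ S) :
    |∫ v in Ioi q, w v * χ' v| ≤ 2 * (eVariationOn w S).toReal + B := by
  obtain ⟨P, Q, hP, hQ, hPQ, hPb, hQb⟩ := exists_mono hS hB hB0
  obtain ⟨a, ha⟩ := (ray_mem hP hQ hχ hc h01 hone hb hzero
    (fun v hv h => hPQ v (hw v hv h))).exists
  have h1 := abs_le.1 (hPb a)
  have h2 := abs_le.1 (hPb b)
  have h3 := abs_le.1 (hQb a)
  have h4 := abs_le.1 (hQb b)
  rw [abs_le]
  exact ⟨by linarith [ha.1, h2.2, h3.1], by linarith [ha.2, h1.1, h4.2]⟩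

/-- **the limit of the integrals over the ray** -/
theorem ray_lim {ι : Type*} {l : Filter ι} {χ χ' : ι → ℝ → ℝ} (hS : BoundedVariationOn w S) {B : ℝ}
    (hB : ∀ v ∈ S, |w v| ≤ B) {b₀ : ℝ} (hb₀ : q < b₀)
    (hne : (𝓝[S ∩ Ioi q] q).NeBot) {ℓ : ℝ} (hℓ : Tendsto w (𝓝[S ∩ Ioi q] q) (𝓝 ℓ))
    (hχ : ∀ i v, HasDerivAt (χ i) (χ' i v) v) (hc : ∀ i, Continuous (χ' i))
    (h01 : ∀ i v, χ i v ∈ Icc (0 : ℝ) 1) (hone : ∀ i, ∀ᶠ v in 𝓝[>] q, χ i v = 1)
    (hzero : ∀ b, q < b → ∀ᶠ i in l, ∀ v, b ≤ v → χ i v = 0)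
    (hw : ∀ i, ∀ v ∈ Ioc q b₀, χ' i v ≠ 0 → v ∈ S) :
    Tendsto (fun i => ∫ v in Ioi q, w v * χ' i v) l (𝓝 (-ℓ)) := by
  have hB0 : 0 ≤ B := by
    obtain ⟨v, hv⟩ := (Filter.nonempty_of_mem (self_mem_nhdsWithin : S ∩ Ioi q ∈ 𝓝[S ∩ Ioi q] q))
    exact (abs_nonneg _).trans (hB v hv.1)
  obtain ⟨P, Q, hP, hQ, hPQ, -, -⟩ := exists_mono hS hB hB0
  have tP := hP.tendsto_nhdsGT q
  have tQ := hQ.tendsto_nhdsGT q
  set p := sInf (P '' Ioi q) with hp
  set r := sInf (Q '' Ioi q) with hr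
  have hle : (𝓝[S ∩ Ioi q] q) ≤ 𝓝[>] q := nhdsWithin_mono _ inter_subset_right
  have hpr : p - r = ℓ := by
    refine tendsto_nhds_unique ((tP.mono_left hle).sub (tQ.mono_left hle)) (hℓ.congr' ?_)
    filter_upwards [self_mem_nhdsWithin] with v hv using hPQ v hv.1
  rw [← hpr, Metric.tendsto_nhds]
  intro ε hε
  have hPε : ∀ᶠ b in 𝓝[>] q, |P b - p| < ε := by
    have := Metric.tendsto_nhds.1 tP ε hε
    simpa only [Real.dist_eq] using this
  have hQε : ∀ᶠ b in 𝓝[>] q, |Q b - r| < ε := by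
    have := Metric.tendsto_nhds.1 tQ ε hε
    simpa only [Real.dist_eq] using this
  obtain ⟨b, ⟨hb1, hb2⟩, hb3⟩ := ((hPε.and hQε).and (Ioc_mem_nhdsGT hb₀)).exists
  have hPle : ∀ a, q < a → p ≤ P a := fun a ha => by
    refine le_of_tendsto tP ?_
    filter_upwards [Ioo_mem_nhdsGT ha] with x hx using hP hx.2.le
  have hQle : ∀ a, q < a → r ≤ Q a := fun a ha => by
    refine le_of_tendsto tQ ?_
    filter_upwards [Ioo_mem_nhdsGT ha] with x hx using hQ hx.2.le
  filter_upwards [hzero b hb3.1] with i hi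
  obtain ⟨a, ha, haq⟩ := ((ray_mem hP hQ (hχ i) (hc i) (h01 i) (hone i) hb3.1 hi
    (fun v hv h => hPQ v (hw i v ⟨hv.1, hv.2.trans hb3.2⟩ h))).and self_mem_nhdsWithin).exists
  have h1 := hPle a haq
  have h2 := hQle a haq
  have h3 := abs_lt.1 hb1
  have h4 := abs_lt.1 hb2
  rw [Real.dist_eq, abs_lt]
  constructor
  · linarith [ha.1]
  · linarith [ha.2]

end oneend

/-! ### the lower ray, by reflection -/

section lower

variable {w : ℝ → ℝ} {S : Set ℝ} {q : ℝ}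

theorem var_neg (w : ℝ → ℝ) (S : Set ℝ) :
    eVariationOn (fun v => w (-v)) {v | -v ∈ S} = eVariationOn w S := by
  have h1 : (fun v : ℝ => -v) '' {v | -v ∈ S} = S := by
    ext x
    constructor
    · rintro ⟨v, hv, rfl⟩; exact hv
    · intro hx; exact ⟨-x, by simpa using hx, neg_neg x⟩
  have h2 := eVariationOn.comp_eq_of_antitoneOn w (t := {v | -v ∈ S}) (fun v : ℝ => -v)
    (fun a _ b _ h => neg_le_neg h)
  rw [h1] at h2
  exact h2

theorem integral_Iio_neg (f : ℝ → ℝ) (q : ℝ) : ∫ v in Iio q, f v = ∫ v in Ioi (-q), f (-v) := by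
  rw [integral_comp_neg_Ioi, neg_neg, integral_Iic_eq_integral_Iio]

theorem map_neg_nhdsGT (S : Set ℝ) (q : ℝ) :
    map (fun v : ℝ => -v) (𝓝[{v | -v ∈ S} ∩ Ioi (-q)] (-q)) = 𝓝[S ∩ Iio q] q := by
  have h2 := (Homeomorph.neg ℝ).isEmbedding.map_nhdsWithin_eq ({v | -v ∈ S} ∩ Ioi (-q)) (-q)
  have h3 : (Homeomorph.neg ℝ) '' ({v | -v ∈ S} ∩ Ioi (-q)) = S ∩ Iio q := by
    ext x
    constructor
    · rintro ⟨v, ⟨hv, hv'⟩, rfl⟩
      exact ⟨hv, by simpa using neg_lt.1 (show -q < v from hv')⟩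
    · rintro ⟨hx, hx'⟩
      refine ⟨-x, ⟨by simpa using hx, ?_⟩, by simp⟩
      exact neg_lt_neg (show x < q from hx')
  rw [h3] at h2
  simpa using h2

theorem ray_bound' {χ χ' : ℝ → ℝ} (hS : BoundedVariationOn w S) {B : ℝ} (hB : ∀ v ∈ S, |w v| ≤ B)
    (hB0 : 0 ≤ B) (hχ : ∀ v, HasDerivAt χ (χ' v) v) (hc : Continuous χ')
    (h01 : ∀ v, χ v ∈ Icc (0 : ℝ) 1) (hone : ∀ᶠ v in 𝓝[<] q, χ v = 1) {b : ℝ} (hb : b < q)
    (hzero : ∀ v, v ≤ b → χ v = 0) (hw : ∀ v ∈ Ico b q, χ' v ≠ 0 → v ∈ S) :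
    |∫ v in Iio q, w v * χ' v| ≤ 2 * (eVariationOn w S).toReal + B := by
  have h1 := ray_bound (w := fun v => w (-v)) (S := {v | -v ∈ S}) (q := -q) (b := -b)
    (χ := fun v => χ (-v)) (χ' := fun v => -χ' (-v)) (B := B)
    (by rw [BoundedVariationOn, var_neg]; exact hS) (fun v hv => hB _ hv) hB0
    (fun v => by
      have := HasDerivAt.scomp v (hχ (-v)) (hasDerivAt_neg v)
      simpa only [Function.comp_def, neg_smul, one_smul, smul_eq_mul, neg_mul, one_mul] using this)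
    (hc.comp continuous_neg).neg (fun v => h01 _)
    (by
      have h2 : Tendsto (fun v : ℝ => -v) (𝓝[>] (-q)) (𝓝[<] q) := by
        simpa using tendsto_neg_nhdsGT (a := -q)
      exact h2.eventually hone)
    (neg_lt_neg hb) (fun v hv => hzero _ (by linarith))
    (fun v hv h => hw (-v) ⟨by linarith [hv.2], by linarith [hv.1]⟩ (by simpa using h))
  rw [var_neg] at h1
  rw [integral_Iio_neg]
  have h3 : ∫ v in Ioi (-q), w (-v) * -χ' (-v) = - ∫ v in Ioi (-q), w (-v) * χ' (-v) := by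
    rw [← MeasureTheory.integral_neg]; congr 1; ext v; ring
  rw [h3, abs_neg] at h1
  exact h1

theorem ray_lim' {ι : Type*} {l : Filter ι} {χ χ' : ι → ℝ → ℝ} (hS : BoundedVariationOn w S) {B : ℝ}
    (hB : ∀ v ∈ S, |w v| ≤ B) {b₀ : ℝ} (hb₀ : b₀ < q)
    (hne : (𝓝[S ∩ Iio q] q).NeBot) {ℓ : ℝ} (hℓ : Tendsto w (𝓝[S ∩ Iio q] q) (𝓝 ℓ))
    (hχ : ∀ i v, HasDerivAt (χ i) (χ' i v) v) (hc : ∀ i, Continuous (χ' i))
    (h01 : ∀ i v, χ i v ∈ Icc (0 : ℝ) 1) (hone : ∀ i, ∀ᶠ v in 𝓝[<] q, χ i v = 1)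
    (hzero : ∀ b, b < q → ∀ᶠ i in l, ∀ v, v ≤ b → χ i v = 0)
    (hw : ∀ i, ∀ v ∈ Ico b₀ q, χ' i v ≠ 0 → v ∈ S) :
    Tendsto (fun i => ∫ v in Iio q, w v * χ' i v) l (𝓝 ℓ) := by
  have hm := map_neg_nhdsGT S q
  have h1 := ray_lim (l := l) (w := fun v => w (-v)) (S := {v | -v ∈ S}) (q := -q) (b₀ := -b₀)
    (χ := fun i v => χ i (-v)) (χ' := fun i v => -χ' i (-v)) (B := B) (ℓ := ℓ)
    (by rw [BoundedVariationOn, var_neg]; exact hS) (fun v hv => hB _ hv) (neg_lt_neg hb₀)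
    (by rw [← hm] at hne; exact (Filter.map_neBot_iff _).1 hne)
    (by rw [← hm] at hℓ; exact tendsto_map'_iff.1 hℓ)
    (fun i v => by
      have := HasDerivAt.scomp v (hχ i (-v)) (hasDerivAt_neg v)
      simpa only [Function.comp_def, neg_smul, one_smul, smul_eq_mul, neg_mul, one_mul] using this)
    (fun i => ((hc i).comp continuous_neg).neg) (fun i v => h01 _ _)
    (fun i => by
      have h2 : Tendsto (fun v : ℝ => -v) (𝓝[>] (-q)) (𝓝[<] q) := by
        simpa using tendsto_neg_nhdsGT (a := -q)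
      exact h2.eventually (hone i))
    (fun b hb => by
      filter_upwards [hzero (-b) (by linarith)] with i hi v hv using hi _ (by linarith))
    (fun i v hv h => hw i (-v) ⟨by linarith [hv.2], by linarith [hv.1]⟩ (by simpa using h))
  have h3 : ∀ i, ∫ v in Iio q, w v * χ' i v = - ∫ v in Ioi (-q), w (-v) * -χ' i (-v) := by
    intro i
    rw [integral_Iio_neg, ← MeasureTheory.integral_neg]; congr 1; ext v; ring
  simp only [h3]
  simpa using h1.neg

/-- the whole line -/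
theorem line_bound {w χ χ' : ℝ → ℝ} {S : Set ℝ} (hS : BoundedVariationOn w S) {B : ℝ}
    (hB : ∀ v ∈ S, |w v| ≤ B) (hB0 : 0 ≤ B) (hχ : ∀ v, HasDerivAt χ (χ' v) v) (hc : Continuous χ')
    (h01 : ∀ v, χ v ∈ Icc (0 : ℝ) 1) {a b : ℝ} (hab : a ≤ b) (ha : ∀ v, v ≤ a → χ v = 0)
    (hb : ∀ v, b ≤ v → χ v = 0) (hw : ∀ v ∈ Ioc a b, χ' v ≠ 0 → v ∈ S) :
    |∫ v, w v * χ' v| ≤ 4 * (eVariationOn w S).toReal + 2 * B := by
  obtain ⟨P, Q, hP, hQ, hPQ, hPb, hQb⟩ := exists_mono hS hB hB0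
  have hd : ∀ v, v ∉ Ioc a b → χ' v = 0 ∨ v = a := by
    intro v hv
    rcases lt_trichotomy v a with h | h | h
    · left
      have h1 : χ =ᶠ[𝓝 v] fun _ => 0 := by
        filter_upwards [Iio_mem_nhds h] with x hx using ha x (le_of_lt hx)
      exact (hχ v).unique ((hasDerivAt_const v (0:ℝ)).congr_of_eventuallyEq h1)
    · exact Or.inr h
    · left
      have hbv : b < v := by
        by_contra hn
        exact hv ⟨h, not_lt.1 hn⟩
      have h1 : χ =ᶠ[𝓝 v] fun _ => 0 := by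
        filter_upwards [Ioi_mem_nhds hbv] with x hx using hb x (le_of_lt hx)
      exact (hχ v).unique ((hasDerivAt_const v (0:ℝ)).congr_of_eventuallyEq h1)
  have e1 : ∫ v, w v * χ' v = ∫ v in a..b, w v * χ' v := by
    rw [intervalIntegral.integral_of_le hab, ← MeasureTheory.integral_indicator measurableSet_Ioc]
    refine integral_congr_ae ?_
    have : ∀ᵐ v : ℝ, v ≠ a := by
      rw [ae_iff]; simp
    filter_upwards [this] with v hv
    by_cases h : v ∈ Ioc a b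
    · rw [indicator_of_mem h]
    · rw [indicator_of_notMem h, (hd v h).resolve_right hv, mul_zero]
  have e2 : ∫ v in a..b, w v * χ' v = (∫ v in a..b, χ' v * P v) - ∫ v in a..b, χ' v * Q v := by
    rw [← intervalIntegral.integral_sub
      ((hP.monotoneOn _).intervalIntegrable.continuousOn_mul hc.continuousOn)
      ((hQ.monotoneOn _).intervalIntegrable.continuousOn_mul hc.continuousOn)]
    refine intervalIntegral.integral_congr_ae (Eventually.of_forall fun v hv => ?_)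
    rw [uIoc_of_le hab] at hv
    by_cases h : χ' v = 0
    · simp [h]
    · rw [hPQ v (hw v hv h)]; ring
  have h1 := mono_int hP hχ hc h01 hab (hb b le_rfl)
  have h2 := mono_int hQ hχ hc h01 hab (hb b le_rfl)
  rw [ha a le_rfl, zero_mul, add_zero] at h1 h2
  rw [e1, e2, abs_le]
  have i1 := abs_le.1 (hPb a)
  have i2 := abs_le.1 (hPb b)
  have i3 := abs_le.1 (hQb a)
  have i4 := abs_le.1 (hQb b)
  constructor <;> linarith [h1.1, h1.2, h2.1, h2.2, i1.1, i1.2, i2.1, i2.2, i3.1, i3.2, i4.1, i4.2]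

end lower

end Crest.Agent.R105.Lin_642
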