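import Crest.Agent.R105.Yv3_319

/-!
# R105 (S0138, NI frame): LEMMA Y on vertical lines, part 4: the theorem (helper319)
-/

set_option autoImplicit false

open Set Filter MeasureTheory Metric
open scoped Topology NNReal ContDiff ENNReal

namespace Crest.Agent.R105.Yv_319

open Tc_808 Bd_775 Sqr_185
open Sct_636 (LCE continuous_mk)
open Pct_185 (Sol pt pt_mem)

noncomputable section

variable {E : Set ℂ} {y χ : ℂ → ℝ}

/-! ### clopen parts of `E` -/

theorem mem_cc {q q' : E} (h : q' ∈ connectedComponent q) :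
    (q' : ℂ) ∈ connectedComponentIn E q := by
  rw [connectedComponentIn_eq_image q.2]
  exact ⟨q', h, rfl⟩

/-- separation of the points of a vertical line -/
theorem sep_line (hE : IsCompact E) (hord : ∀ L : Cmp E, ∀ t, OrdConnected (sec L.1 t)) {t c d : ℝ}
    (h1 : (⟨t, c⟩ : ℂ) ∉ E) (h2 : (⟨t, d⟩ : ℂ) ∉ E) :
    ∃ S : Set E, IsClopen S ∧ (∀ q : E, q.1.re = t → q.1.im ∈ Icc c d → q ∈ S) ∧
      ∀ q : E, q.1.re = t → q.1.im ∉ Icc c d → q ∉ S := by
  have : CompactSpace E := isCompact_iff_compactSpace.1 hE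
  set Z1 : Set E := {q | q.1.re = t ∧ q.1.im ∈ Icc c d} with hZ1
  set Z2 : Set E := {q | q.1.re = t ∧ q.1.im ∉ Ioo c d} with hZ2
  have cx : Continuous (fun q : E => q.1.re) := Complex.continuous_re.comp continuous_subtype_val
  have cy : Continuous (fun q : E => q.1.im) := Complex.continuous_im.comp continuous_subtype_val
  have c1 : IsClosed Z1 := (isClosed_eq cx continuous_const).inter (isClosed_Icc.preimage cy)
  have c2 : IsClosed Z2 :=
    (isClosed_eq cx continuous_const).inter ((isOpen_Ioo.isClosed_compl).preimage cy)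
  obtain ⟨S, hS, hS1, hS2⟩ := Pv_937.exists_clopen_sep c1 c2 (by
    rintro q ⟨hqx, hqy⟩ q' ⟨hqx', hqy'⟩ hm
    have hm' := mem_cc hm
    have hoc := hord (Cmp.of q.2) t
    have e1 : ∀ {r : ℂ}, r.re = t → (⟨t, r.im⟩ : ℂ) = r := fun h => Complex.ext h.symm rfl
    have m1 : q.1.im ∈ sec (Cmp.of q.2).1 t := by
      rw [mem_sec, e1 hqx]
      exact mem_connectedComponentIn q.2
    have m2 : q'.1.im ∈ sec (Cmp.of q.2).1 t := by
      rw [mem_sec, e1 hqx']
      exact hm'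
    have key : ∀ v, v ∈ uIcc q.1.im q'.1.im → (⟨t, v⟩ : ℂ) ∈ E := by
      intro v hv
      exact connectedComponentIn_subset _ _ (hoc.uIcc_subset m1 m2 hv)
    rw [mem_Ioo, not_and_or, not_lt, not_lt] at hqy'
    rcases hqy' with h5 | h5
    · exact h1 (key c (mem_uIcc.2 (Or.inr ⟨h5, hqy.1⟩)))
    · exact h2 (key d (mem_uIcc.2 (Or.inl ⟨hqy.2, h5⟩))))
  exact ⟨S, hS, fun q hq hq' => hS1 ⟨hq, hq'⟩,
    fun q hq hq' => hS2 q ⟨hq, fun h => hq' (Ioo_subset_Icc_self h)⟩⟩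

/-- cut-off of a clopen part -/
theorem exists_cutS (hE : IsCompact E) {S : Set E} (hS : IsClopen S) :
    ∃ χ : ℂ → ℝ, LCE E χ ∧ (∀ w, χ w ∈ Icc (0 : ℝ) 1) ∧ (∀ q : E, q ∈ S → χ q = 1) ∧
      ∀ q : E, q ∉ S → χ q = 0 := by
  have : CompactSpace E := isCompact_iff_compactSpace.1 hE
  have k1 : IsCompact (Subtype.val '' (S : Set E)) :=
    (hS.isClosed.isCompact).image continuous_subtype_val
  have k2 : IsCompact (Subtype.val '' (S : Set E)ᶜ) :=
    (hS.compl.isClosed.isCompact).image continuous_subtype_val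
  have hd : Disjoint (Subtype.val '' (S : Set E)) (Subtype.val '' (S : Set E)ᶜ) := by
    rw [disjoint_left]
    rintro _ ⟨z, hz, rfl⟩ ⟨z', hz', he⟩
    rw [Subtype.ext he] at hz'
    exact hz' hz
  obtain ⟨δ, hδ, hdis⟩ := hd.exists_cthickenings k1 k2.isClosed
  obtain ⟨f, hf1, hf0, hf01⟩ := exists_contMDiffMap_one_nhds_of_subset_interior
    (I := modelWithCornersSelf ℝ ℂ) (n := ⊤) (M := ℂ) (s := Subtype.val '' (S : Set E))
    (t := Metric.cthickening δ (Subtype.val '' (S : Set E)))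
    k1.isClosed ((Metric.self_subset_thickening hδ _).trans
      (interior_maximal (Metric.thickening_subset_cthickening _ _) Metric.isOpen_thickening))
  have e1 : ∀ q : E, q ∈ S → ∀ᶠ w in 𝓝 (q : ℂ), f w = 1 := fun q hq =>
    eventually_nhdsSet_iff_forall.1 hf1 q ⟨q, hq, rfl⟩
  have e0 : ∀ q : E, q ∉ S → ∀ᶠ w in 𝓝 (q : ℂ), f w = 0 := by
    intro q hq
    have h3 : Metric.thickening δ (Subtype.val '' (S : Set E)ᶜ) ∈ 𝓝 (q : ℂ) :=
      Metric.isOpen_thickening.mem_nhds (Metric.self_subset_thickening hδ _ ⟨q, hq, rfl⟩)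
    filter_upwards [h3] with x hx
    exact hf0 x fun hx' =>
      disjoint_left.1 hdis hx' (Metric.thickening_subset_cthickening _ _ hx)
  refine ⟨f, ⟨f.contMDiff.contDiff, HasCompactSupport.intro (k1.cthickening (r := δ)) hf0, ?_⟩,
    hf01, fun q hq => (e1 q hq).self_of_nhds, fun q hq => (e0 q hq).self_of_nhds⟩
  intro z hz
  by_cases hs : (⟨z, hz⟩ : E) ∈ S
  · have h5 := e1 ⟨z, hz⟩ hs
    filter_upwards [h5] with w hw
    rw [hw, h5.self_of_nhds]
  · have h5 := e0 ⟨z, hz⟩ hs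
    filter_upwards [h5] with w hw
    rw [hw, h5.self_of_nhds]

/-! ### vertical lines -/

theorem hasDerivAt_mk (t v : ℝ) : HasDerivAt (fun v : ℝ => (⟨t, v⟩ : ℂ)) Complex.I v := by
  have h : (fun v : ℝ => (⟨t, v⟩ : ℂ)) = fun v : ℝ => (t : ℂ) + (v : ℂ) * Complex.I := by
    funext s; apply Complex.ext <;> simp
  rw [h]
  have h1 := (Complex.ofRealCLM.hasDerivAt (x := v)).mul_const Complex.I
  simpa using h1.const_add (t : ℂ)

theorem hasDerivAt_line {u : ℂ → ℝ} {t v : ℝ} (h : DifferentiableAt ℝ u ⟨t, v⟩) :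
    HasDerivAt (fun v : ℝ => u ⟨t, v⟩) (gy u ⟨t, v⟩) v :=
  h.hasFDerivAt.comp_hasDerivAt v (hasDerivAt_mk t v)

theorem lipschitz_mk (t : ℝ) : LipschitzWith 1 (fun v : ℝ => (⟨t, v⟩ : ℂ)) := by
  refine LipschitzWith.of_dist_le_mul fun a b => ?_
  rw [NNReal.coe_one, one_mul, Complex.dist_eq_re_im]
  simp only [sub_self]
  rw [Real.dist_eq, zero_pow two_ne_zero, zero_add, Real.sqrt_sq_eq_abs]

theorem abs_le_norm_mk (t v : ℝ) : |v| ≤ ‖(⟨t, v⟩ : ℂ)‖ := Complex.abs_im_le_norm (⟨t, v⟩ : ℂ)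

theorem norm_mk_le (t v : ℝ) : ‖(⟨t, v⟩ : ℂ)‖ ≤ |t| + |v| :=
  Complex.norm_le_abs_re_add_abs_im (⟨t, v⟩ : ℂ)

/-- crossing weight -/
def cross (s : Cmp E → ℝ) (t c d : ℝ) (L : Sol E) : ℝ :=
  open Classical in
  if t ∈ Icc (lo L.1.1) (hi L.1.1) ∧ (sec L.1.1 t ∩ Icc c d).Nonempty then s L.1 else 0

/-- **LEMMA Y** on the vertical lines of the picture of an extremal anchor -/
theorem lemmaY (hE : IsCompact E) (hord : ∀ L : Cmp E, ∀ t, OrdConnected (sec L.1 t))
    (hsum : Summable fun L : Cmp E => wd L.1 ^ 2)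
    {s : Cmp E → ℝ} (hs0 : ∀ L, 0 ≤ s L) (hs : Summable fun L => s L ^ 2) (hy : YD E y)
    (hEL : ELY E s y) :
    ∀ᵐ t : ℝ, (Summable fun L : Sol E =>
        (Icc (lo L.1.1) (hi L.1.1)).indicator (fun _ => s L.1) t) ∧
      ∀ c d : ℝ, c ≤ d → (⟨t, c⟩ : ℂ) ∉ E → (⟨t, d⟩ : ℂ) ∉ E →
        IntervalIntegrable (fun v => Eᶜ.indicator (gy y) ⟨t, v⟩) volume c d ∧
        |y ⟨t, d⟩ - y ⟨t, c⟩ - ∫ v in c..d, Eᶜ.indicator (gy y) ⟨t, v⟩|
          ≤ ∑' L : Sol E, cross s t c d L := by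
  have hEcl : IsClosed E := hE.isClosed
  have hm : MeasurableSet (Eᶜ : Set ℂ) := hEcl.isOpen_compl.measurableSet
  have : CompactSpace E := isCompact_iff_compactSpace.1 hE
  have : Countable (TopologicalSpace.Clopens E) := Pv_937.countable_clopens E
  choose X hX hX01 hX1 hX0 using fun S : TopologicalSpace.Clopens E => exists_cutS hE S.isClopen
  -- (a)
  have a0 : ∀ n : ℕ, ∀ᵐ t : ℝ, Integrable fun v : ℝ =>
      (Eᶜ ∩ closedBall (0:ℂ) n).indicator (gy y) ⟨t, v⟩ := by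
    intro n
    have h1 : Integrable ((Eᶜ ∩ closedBall (0:ℂ) n).indicator (gy y)) := by
      rw [integrable_indicator_iff (hm.inter isClosed_closedBall.measurableSet)]
      exact integrableOn_gy' hy n
    exact (fub h1).1
  have a1 := ae_all_iff.2 a0
  -- (b)
  have b1 : ∀ᵐ t : ℝ, ∀ᵐ v : ℝ, (⟨t, v⟩ : ℂ) ∈ Eᶜ → DifferentiableAt ℝ y ⟨t, v⟩ := by
    have h1 := (ae_restrict_iff' hm).1 (ae_diff hEcl.isOpen_compl hy.loc)
    have mp := Complex.volume_preserving_equiv_real_prod.symm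
    have h2 : ∀ᵐ p : ℝ × ℝ, (⟨p.1, p.2⟩ : ℂ) ∈ Eᶜ → DifferentiableAt ℝ y ⟨p.1, p.2⟩ :=
      mp.quasiMeasurePreserving.ae h1
    rw [Measure.volume_eq_prod] at h2
    exact Measure.ae_ae_of_ae_prod h2
  -- (c)
  have c1 : ∀ᵐ t : ℝ, ∀ i, |∫ v : ℝ, SY E (X i) y ⟨t, v⟩| ≤ ∑' L : Sol E, wt s (X i) L t :=
    ae_all_iff.2 fun i => slice_bound hE hsum hs0 hs hy hEL (hX i) (hX01 i)
  -- (d)
  have d1 : ∀ᵐ t : ℝ, ∀ i, Integrable fun v : ℝ => SY E (X i) y ⟨t, v⟩ :=
    ae_all_iff.2 fun i => (fub (integrable_SY hEcl (hX i) hy)).1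
  -- (e)
  have e1 : ∀ᵐ t : ℝ, Summable fun L : Sol E => wt s (fun _ => 1) L t := by
    have := (wt_facts hE hsum hs0 hs (χ := fun _ => 1) (fun _ => ⟨zero_le_one, le_rfl⟩)
      (g := fun _ => 1) continuous_const (fun _ => zero_le_one) (C := 1) (fun _ => le_rfl)).2.1
    simpa only [one_mul] using this
  filter_upwards [a1, b1, c1, d1, e1] with t ha hb hc hd he
  have he' : Summable fun L : Sol E =>
      (Icc (lo L.1.1) (hi L.1.1)).indicator (fun _ => s L.1) t := by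
    simpa only [wt, mul_one] using he
  refine ⟨he', fun c d hcd hcE hdE => ?_⟩
  set K : Set ℝ := {v | (⟨t, v⟩ : ℂ) ∈ E} with hK
  have hvc : Continuous (fun v : ℝ => (⟨t, v⟩ : ℂ)) := continuous_mk t
  have hKcl : IsClosed K := hEcl.preimage hvc
  have hα : LocallyLipschitzOn Kᶜ (fun v => y ⟨t, v⟩) := by
    intro v hv
    obtain ⟨L, u, hu, hL⟩ := hy.loc (show (⟨t, v⟩ : ℂ) ∈ Eᶜ from hv)
    rw [hEcl.isOpen_compl.nhdsWithin_eq (show (⟨t, v⟩ : ℂ) ∈ Eᶜ from hv)] at hu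
    refine ⟨L * 1, (fun v : ℝ => (⟨t, v⟩ : ℂ)) ⁻¹' u,
      mem_nhdsWithin_of_mem_nhds (hvc.continuousAt hu), ?_⟩
    exact hL.comp (lipschitz_mk t).lipschitzOnWith (fun x hx => hx)
  have hder : ∀ᵐ v : ℝ, v ∉ K →
      HasDerivAt (fun v => y ⟨t, v⟩) (Eᶜ.indicator (gy y) ⟨t, v⟩) v := by
    filter_upwards [hb] with v hv hvK
    rw [indicator_of_mem (show (⟨t, v⟩ : ℂ) ∈ Eᶜ from hvK)]
    exact hasDerivAt_line (hv hvK)
  have hbI : ∀ u v, IntervalIntegrable (fun v => Eᶜ.indicator (gy y) ⟨t, v⟩) volume u v := by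
    intro u v
    obtain ⟨n, hn⟩ := exists_nat_ge (|t| + (|u| + |v|))
    have h1 := (ha n).intervalIntegrable (a := u) (b := v)
    refine h1.congr_ae ?_
    rw [Filter.EventuallyEq, ae_restrict_iff' measurableSet_uIoc]
    refine Eventually.of_forall fun w hwI => ?_
    have h3 : |w| ≤ |u| + |v| := by
      have h4 := uIoc_subset_uIcc hwI
      rw [mem_uIcc] at h4
      rcases h4 with h4 | h4
      · rw [abs_le]; constructor
        · linarith [neg_abs_le u, abs_nonneg v]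
        · linarith [le_abs_self v, abs_nonneg u]
      · rw [abs_le]; constructor
        · linarith [neg_abs_le v, abs_nonneg u]
        · linarith [le_abs_self u, abs_nonneg v]
    have h5 : (⟨t, w⟩ : ℂ) ∈ closedBall (0:ℂ) n := by
      rw [mem_closedBall, dist_zero_right]
      exact (norm_mk_le t w).trans (by linarith)
    by_cases hw : (⟨t, w⟩ : ℂ) ∈ Eᶜ
    · rw [indicator_of_mem hw, indicator_of_mem (show (⟨t, w⟩ : ℂ) ∈ Eᶜ ∩ closedBall 0 n from
        ⟨hw, h5⟩)]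
    · rw [indicator_of_notMem hw, indicator_of_notMem
        (show (⟨t, w⟩ : ℂ) ∉ Eᶜ ∩ closedBall 0 n from fun h => hw h.1)]
  refine ⟨hbI c d, ?_⟩
  obtain ⟨S, hS, hS1, hS0⟩ := sep_line hE hord (t := t) (c := c) (d := d) hcE hdE
  set i : TopologicalSpace.Clopens E := ⟨S, hS⟩ with hi'
  obtain ⟨R0, hR0, hR0'⟩ := exists_ball (hX i).supp
  set R : ℝ := R0 + |c| + |d| + 1 with hR
  have hRpos : 0 < R := by positivity
  have hout : ∀ v : ℝ, R0 ≤ |v| → (⟨t, v⟩ : ℂ) ∉ tsupport (X i) := by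
    intro v hv hmem
    have h1 := hR0' hmem
    rw [mem_ball, dist_zero_right] at h1
    linarith [abs_le_norm_mk t v]
  have hRR0 : R0 ≤ R := by
    have := abs_nonneg c; have := abs_nonneg d; rw [hR]; linarith
  have hkey := key' (α := fun v => y ⟨t, v⟩) (b := fun v => Eᶜ.indicator (gy y) ⟨t, v⟩)
    (χ := fun v => X i ⟨t, v⟩) (χ' := fun v => gy (X i) ⟨t, v⟩) (K := K) (y1 := c) (y2 := d)
    (R := R) hKcl hα hder hbI (fun u v => (hd i).intervalIntegrable)
    (fun v => hasDerivAt_line ((hX i).smooth.differentiable (by simp)).differentiableAt)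
    ((continuous_gy' (hX i).smooth).comp hvc) hcd hcE hdE
    (by linarith [neg_abs_le c, abs_nonneg d]) (by linarith [le_abs_self d, abs_nonneg c])
    (by
      intro v hvK hv
      have h1 := hvc.continuousAt.eventually ((hX i).lc ⟨t, v⟩ hvK)
      filter_upwards [h1] with x hx
      rw [hx]; exact hX1 i ⟨⟨t, v⟩, hvK⟩ (hS1 ⟨⟨t, v⟩, hvK⟩ rfl hv))
    (by
      intro v hvK hv
      have h1 := hvc.continuousAt.eventually ((hX i).lc ⟨t, v⟩ hvK)
      filter_upwards [h1] with x hx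
      rw [hx]; exact hX0 i ⟨⟨t, v⟩, hvK⟩ (hS0 ⟨⟨t, v⟩, hvK⟩ rfl hv))
    (image_eq_zero_of_notMem_tsupport (hout (-R) (by rw [abs_neg, abs_of_pos hRpos]; exact hRR0)))
    (image_eq_zero_of_notMem_tsupport (hout R (by rw [abs_of_pos hRpos]; exact hRR0)))
  have htot : ∫ v in (-R)..R, (X i ⟨t, v⟩ * Eᶜ.indicator (gy y) ⟨t, v⟩
      + gy (X i) ⟨t, v⟩ * y ⟨t, v⟩) = ∫ v : ℝ, SY E (X i) y ⟨t, v⟩ := by
    have h2 : Function.support (fun v : ℝ => SY E (X i) y ⟨t, v⟩) ⊆ Ioc (-R) R := by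
      intro v hv
      by_contra hn
      apply hv
      have h3 : R0 ≤ |v| := by
        rw [mem_Ioc, not_and_or, not_lt, not_le] at hn
        rcases hn with hn | hn
        · have : R ≤ |v| := by rw [← abs_neg]; exact le_trans (by linarith) (le_abs_self (-v))
          linarith
        · linarith [le_abs_self v]
      have h4 := hout v h3
      have h5 := notMem_tsupport_iff_eventuallyEq.1 h4
      have h6 : gy (X i) ⟨t, v⟩ = 0 := by
        rw [gy_eq_of_eventuallyEq (v := fun _ => (0:ℝ)) h5, gy_const]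
      simp only [SY]
      rw [h6, image_eq_zero_of_notMem_tsupport h4]; ring
    exact intervalIntegral.integral_eq_integral_of_support_subset (μ := volume) h2
  rw [hkey, htot, abs_neg]
  refine (hc i).trans ?_
  -- comparison of the weights
  have hcr : ∀ L : Sol E, wt s (X i) L t ≤ cross s t c d L := by
    intro L
    unfold wt cross
    by_cases ht : t ∈ Icc (lo L.1.1) (hi L.1.1)
    · rw [indicator_of_mem ht]
      by_cases hcrs : (sec L.1.1 t ∩ Icc c d).Nonempty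
      · rw [if_pos ⟨ht, hcrs⟩]
        exact mul_le_of_le_one_right (hs0 _) (hX01 i _).2
      · rw [if_neg fun h => hcrs h.2]
        obtain ⟨v, hv⟩ := sec_nonempty (L.1.isCompact hE) L.1.preconn L.1.nonempty ht
        have hvE : (⟨t, v⟩ : ℂ) ∈ E := L.1.subset hv
        have hvn : v ∉ Icc c d := fun h => hcrs ⟨v, hv, h⟩
        have h0 : X i ⟨t, v⟩ = 0 := hX0 i ⟨⟨t, v⟩, hvE⟩ (hS0 ⟨⟨t, v⟩, hvE⟩ rfl hvn)
        obtain ⟨k, O, hO, hLO, hk⟩ :=
          Tc_808.LC.const_near (Pct_185.LCE.LC (hX i)) L.1.preconn L.1.subset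
        have h2 : X i (pt L.1) = 0 := by
          rw [hk _ (hLO (pt_mem L.1)), ← hk _ (hLO hv), h0]
        rw [h2, mul_zero]
    · rw [indicator_of_notMem ht]
      split_ifs
      · exact hs0 _
      · exact le_rfl
  have hcr0 : ∀ L : Sol E, 0 ≤ cross s t c d L := by
    intro L
    unfold cross
    split_ifs
    · exact hs0 _
    · exact le_rfl
  have hcrs : Summable fun L : Sol E => cross s t c d L := by
    refine Summable.of_nonneg_of_le hcr0 (fun L => ?_) he'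
    unfold cross
    split_ifs with h
    · rw [indicator_of_mem h.1]
    · exact indicator_nonneg (fun _ _ => hs0 _) t
  exact (Summable.of_nonneg_of_le (wt_nonneg hs0 (hX01 i) · t) hcr hcrs).tsum_le_tsum hcr hcrs

end

end Crest.Agent.R105.Yv_319
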