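import Crest.Agent.R105.Lin1_642
import Crest.Agent.R105.Yv4_319
import Crest.Agent.R105.Bvl1_31

/-!
# R105 (S0138, NI frame), E13: LINE LEMMA, part 2: the vertical lines of a picture (helper642)

`E` compact, the vertical sections of its components are intervals, `L0` a component.
* `BVL E w` (31) : bounded variation on the vertical lines off `E`; `Bd E w` : locally bounded
* `topF`, `botF` : the ends of the line over / under `L0`; `tp`, `bt` the limits of `w` there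
* `ends` : the limits exist for a.e. `t`
-/

set_option autoImplicit false

open Set Filter MeasureTheory Metric
open scoped Topology NNReal ENNReal

namespace Crest.Agent.R105.Lin_642

open Tc_808 Bd_775 Sqr_185 Yv_319
open Sct_636 (LCE)
open Bvl_31 (BVL Bd)

noncomputable section

variable {E : Set ℂ} {w : ℂ → ℝ}

/-- the real form of `BVL` -/
theorem bvl_real (h : BVL E w) (R : ℝ) : ∃ M : ℝ → ℝ, Integrable M ∧ ∀ᵐ t : ℝ, |t| ≤ R →
    eVariationOn (fun v : ℝ => w ⟨t, v⟩) {v | (⟨t, v⟩ : ℂ) ∉ E ∧ |v| ≤ R}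
      ≤ ENNReal.ofReal (M t) := by
  obtain ⟨M, hm, hi, hM⟩ := h R
  have h1 : ∫⁻ t, (Icc (-R) R).indicator M t ≠ ∞ := by
    rw [lintegral_indicator measurableSet_Icc]
    exact hi
  have h2 := hm.indicator (measurableSet_Icc (a := -R) (b := R))
  refine ⟨fun t => ((Icc (-R) R).indicator M t).toReal,
    integrable_toReal_of_lintegral_ne_top h2.aemeasurable h1, ?_⟩
  filter_upwards [hM, ae_lt_top h2 h1] with t ht hlt htR
  rw [ENNReal.ofReal_toReal hlt.ne, indicator_of_mem (show t ∈ Icc (-R) R from abs_le.1 htR)]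
  exact ht

/-- the end of the line over `L` -/
def topF (E L : Set ℂ) (t : ℝ) : Filter ℝ :=
  𝓝[{v | (⟨t, v⟩ : ℂ) ∉ E ∧ (⟨t, v⟩ : ℂ) ∈ above L}] sSup (sec L t)

/-- the end of the line under `L` -/
def botF (E L : Set ℂ) (t : ℝ) : Filter ℝ :=
  𝓝[{v | (⟨t, v⟩ : ℂ) ∉ E ∧ (⟨t, v⟩ : ℂ) ∈ below L}] sInf (sec L t)

/-- the limit of `w` over `L` -/
def tp (E L : Set ℂ) (w : ℂ → ℝ) (t : ℝ) : ℝ := limUnder (topF E L t) fun v => w ⟨t, v⟩

/-- the limit of `w` under `L` -/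
def bt (E L : Set ℂ) (w : ℂ → ℝ) (t : ℝ) : ℝ := limUnder (botF E L t) fun v => w ⟨t, v⟩

/-- cut-offs of `L` -/
structure Cut (E L : Set ℂ) (χ : ℕ → ℂ → ℝ) : Prop where
  lce : ∀ n, LCE E (χ n)
  mem : ∀ n z, χ n z ∈ Icc (0:ℝ) 1
  one : ∀ n, ∀ z ∈ L, χ n z = 1
  shrink : ∀ O, IsOpen O → L ⊆ O → ∀ᶠ n in atTop, tsupport (χ n) ⊆ O

/-! ### the sections of `L0` -/

section secs

variable {L : Set ℂ} {t : ℝ}

theorem above_iff (hL : IsCompact L) (hne : (sec L t).Nonempty) {v : ℝ} :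
    (⟨t, v⟩ : ℂ) ∈ above L ↔ sSup (sec L t) < v := by
  have hc := isCompact_sec hL t
  constructor
  · intro h
    exact h _ (hc.sSup_mem hne)
  · intro h y hy
    exact (le_csSup hc.bddAbove hy).trans_lt h

theorem below_iff (hL : IsCompact L) (hne : (sec L t).Nonempty) {v : ℝ} :
    (⟨t, v⟩ : ℂ) ∈ below L ↔ v < sInf (sec L t) := by
  have hc := isCompact_sec hL t
  constructor
  · intro h
    exact h _ (hc.sInf_mem hne)
  · intro h y hy
    exact h.trans_le (csInf_le hc.bddBelow hy)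

theorem topF_eq (hL : IsCompact L) (hne : (sec L t).Nonempty) :
    topF E L t = 𝓝[{v | (⟨t, v⟩ : ℂ) ∉ E} ∩ Ioi (sSup (sec L t))] sSup (sec L t) := by
  unfold topF
  congr 1
  ext v
  exact and_congr_right fun _ => above_iff hL hne

theorem botF_eq (hL : IsCompact L) (hne : (sec L t).Nonempty) :
    botF E L t = 𝓝[{v | (⟨t, v⟩ : ℂ) ∉ E} ∩ Iio (sInf (sec L t))] sInf (sec L t) := by
  unfold botF
  congr 1
  ext v
  exact and_congr_right fun _ => below_iff hL hne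

end secs

/-- a vertical segment of `E` starting in a component stays in it -/
theorem seg_mem (L0 : Cmp E) {t c d : ℝ} (h : (⟨t, c⟩ : ℂ) ∈ L0.1)
    (hs : ∀ v ∈ uIcc c d, (⟨t, v⟩ : ℂ) ∈ E) : (⟨t, d⟩ : ℂ) ∈ L0.1 := by
  obtain ⟨z, hz, hL⟩ := L0.2
  have h1 : IsPreconnected ((fun v : ℝ => (⟨t, v⟩ : ℂ)) '' uIcc c d) :=
    isPreconnected_uIcc.image _ (continuous_mk_right t).continuousOn
  have h2 : (fun v : ℝ => (⟨t, v⟩ : ℂ)) '' uIcc c d ⊆ E := by
    rintro _ ⟨v, hv, rfl⟩; exact hs v hv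
  have h3 := h1.subset_connectedComponentIn (x := (⟨t, c⟩ : ℂ)) ⟨c, left_mem_uIcc, rfl⟩ h2
  rw [hL] at h ⊢
  rw [← connectedComponentIn_eq h] at h3
  exact h3 ⟨d, right_mem_uIcc, rfl⟩

theorem topF_neBot (hE : IsCompact E) (L0 : Cmp E) {t : ℝ}
    (ht : t ∈ Icc (lo L0.1) (hi L0.1)) : (topF E L0.1 t).NeBot := by
  have hL := L0.isCompact hE
  have hne := sec_nonempty hL L0.preconn L0.nonempty ht
  have hc := isCompact_sec hL t
  rw [topF_eq hL hne]
  set q := sSup (sec L0.1 t) with hq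
  have hqm : q ∈ sec L0.1 t := hc.sSup_mem hne
  rw [← mem_closure_iff_nhdsWithin_neBot, Metric.mem_closure_iff]
  intro ε hε
  by_contra! hcon
  have h1 : ∀ v ∈ uIcc q (q + ε / 2), (⟨t, v⟩ : ℂ) ∈ E := by
    intro v hv
    rw [uIcc_of_le (by linarith)] at hv
    by_contra hvE
    rcases hv.1.eq_or_lt with h | h
    · exact hvE (h ▸ L0.subset hqm)
    · have h2 := hcon v ⟨hvE, h⟩
      rw [Real.dist_eq, abs_sub_comm, abs_of_nonneg (by linarith [hv.1])] at h2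
      linarith [hv.2]
  have h2 : q + ε / 2 ∈ sec L0.1 t := seg_mem L0 hqm h1
  have h3 := le_csSup hc.bddAbove h2
  linarith

theorem botF_neBot (hE : IsCompact E) (L0 : Cmp E) {t : ℝ}
    (ht : t ∈ Icc (lo L0.1) (hi L0.1)) : (botF E L0.1 t).NeBot := by
  have hL := L0.isCompact hE
  have hne := sec_nonempty hL L0.preconn L0.nonempty ht
  have hc := isCompact_sec hL t
  rw [botF_eq hL hne]
  set q := sInf (sec L0.1 t) with hq
  have hqm : q ∈ sec L0.1 t := hc.sInf_mem hne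
  rw [← mem_closure_iff_nhdsWithin_neBot, Metric.mem_closure_iff]
  intro ε hε
  by_contra! hcon
  have h1 : ∀ v ∈ uIcc q (q - ε / 2), (⟨t, v⟩ : ℂ) ∈ E := by
    intro v hv
    rw [uIcc_of_ge (by linarith)] at hv
    by_contra hvE
    rcases hv.2.eq_or_lt with h | h
    · exact hvE (h ▸ L0.subset hqm)
    · have h2 := hcon v ⟨hvE, h⟩
      rw [Real.dist_eq, abs_of_nonneg (by linarith [hv.1])] at h2
      linarith [hv.1]
  have h2 : q - ε / 2 ∈ sec L0.1 t := seg_mem L0 hqm h1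
  have h3 := csInf_le hc.bddBelow h2
  linarith

/-! ### a large ball -/

theorem exists_R (hE : IsCompact E) : ∃ R : ℝ, 0 < R ∧ E ⊆ ball 0 R := by
  obtain ⟨R, hR⟩ := (isBounded_iff_subset_ball (0:ℂ)).1 hE.isBounded
  exact ⟨max R 1, by positivity, hR.trans (ball_subset_ball (le_max_left _ _))⟩

theorem abs_im_lt {R : ℝ} (hR : E ⊆ ball 0 R) {t v : ℝ} (h : (⟨t, v⟩ : ℂ) ∈ E) : |v| < R := by
  have := hR h
  rw [mem_ball, dist_zero_right] at this
  exact (abs_le_norm_mk t v).trans_lt this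

theorem abs_re_lt {R : ℝ} (hR : E ⊆ ball 0 R) {t v : ℝ} (h : (⟨t, v⟩ : ℂ) ∈ E) : |t| < R := by
  have := hR h
  rw [mem_ball, dist_zero_right] at this
  exact (Complex.abs_re_le_norm (⟨t, v⟩ : ℂ)).trans_lt this

theorem nhds_cut (t q R : ℝ) (hq : |q| < R) (T : Set ℝ) :
    𝓝[{v | (⟨t, v⟩ : ℂ) ∉ E ∧ |v| ≤ R} ∩ T] q = 𝓝[{v | (⟨t, v⟩ : ℂ) ∉ E} ∩ T] q := by
  refine nhdsWithin_eq_nhdsWithin (s := Ioo (-R) R) (abs_lt.1 hq) isOpen_Ioo ?_
  ext v
  constructor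
  · rintro ⟨⟨⟨h1, -⟩, h2⟩, h3⟩; exact ⟨⟨h1, h2⟩, h3⟩
  · rintro ⟨⟨h1, h2⟩, h3⟩; exact ⟨⟨⟨h1, abs_le.2 ⟨h3.1.le, h3.2.le⟩⟩, h2⟩, h3⟩

/-- **the limits at the ends exist for a.e. line** -/
theorem ends (hE : IsCompact E) (hv : BVL E w) (L0 : Cmp E) :
    ∀ᵐ t : ℝ, t ∈ Icc (lo L0.1) (hi L0.1) →
      Tendsto (fun v => w ⟨t, v⟩) (topF E L0.1 t) (𝓝 (tp E L0.1 w t)) ∧
      Tendsto (fun v => w ⟨t, v⟩) (botF E L0.1 t) (𝓝 (bt E L0.1 w t)) := by
  obtain ⟨R, hR0, hR⟩ := exists_R hE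
  obtain ⟨M, -, hM⟩ := bvl_real hv R
  have hL := L0.isCompact hE
  filter_upwards [hM] with t ht htI
  have hne := sec_nonempty hL L0.preconn L0.nonempty htI
  have hc := isCompact_sec hL t
  have hqm := hc.sSup_mem hne
  have hpm := hc.sInf_mem hne
  have hbv : BoundedVariationOn (fun v : ℝ => w ⟨t, v⟩) {v | (⟨t, v⟩ : ℂ) ∉ E ∧ |v| ≤ R} :=
    ((ht (abs_re_lt hR (L0.subset hqm)).le).trans_lt ENNReal.ofReal_lt_top).ne
  refine ⟨tendsto_nhds_limUnder ?_, tendsto_nhds_limUnder ?_⟩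
  · rw [topF_eq hL hne, ← nhds_cut t _ R (abs_im_lt hR (L0.subset hqm))]
    exact hbv.exists_tendsto_right _
  · rw [botF_eq hL hne, ← nhds_cut t _ R (abs_im_lt hR (L0.subset hpm))]
    exact hbv.exists_tendsto_left _

end

end Crest.Agent.R105.Lin_642
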