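import Crest.Agent.R105.Lin2_642

/-!
# R105 (S0138, NI frame), E13: LINE LEMMA, part 3: the integrals (helper642)

`χ n` cut-offs of the component `L0` (`Cut`), `w` continuous off `E`, locally bounded, `BVL`, `G`
bounded measurable:
* `line_top` : `∫_{above L0} G(re) w ∂_yχ_n → -∫ G w⁺`
* `line_bot` : `∫_{below L0} G(re) w ∂_yχ_n → ∫ G w⁻`
* `line_out` : `∫_{re ∉ [lo,hi]} G(re) w ∂_yχ_n → 0`
* `line_lemma` : `∫_{Eᶜ} G(re) w ∂_yχ_n → ∫ G (w⁻ - w⁺)`
-/

set_option autoImplicit false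

open Set Filter MeasureTheory Metric
open scoped Topology NNReal ENNReal ContDiff

namespace Crest.Agent.R105.Lin_642

open Tc_808 Bd_775 Sqr_185 Yv_319
open Sct_636 (LCE)
open Bvl_31 (BVL Bd)

noncomputable section

variable {E : Set ℂ} {w : ℂ → ℝ}

/-! ### integrability -/

theorem continuous_mulgy {χ : ℂ → ℝ} (hE : IsClosed E) (hχ : LCE E χ) (hw : ContinuousOn w Eᶜ) :
    Continuous fun z => w z * gy χ z := by
  rw [continuous_iff_continuousAt]
  intro z
  by_cases hz : z ∈ E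
  · have h1 : (fun x => w x * gy χ x) =ᶠ[𝓝 z] fun _ => (0:ℝ) := by
      filter_upwards [gy_zero_near hχ.lc hz] with x hx
      rw [hx, mul_zero]
    exact continuousAt_const.congr h1.symm
  · exact (hw.continuousAt (hE.isOpen_compl.mem_nhds hz)).mul
      (continuous_gy' hχ.smooth).continuousAt

theorem integrable_line {χ : ℂ → ℝ} (hE : IsClosed E) (hχ : LCE E χ) (hw : ContinuousOn w Eᶜ)
    {G : ℝ → ℝ} (hG : Measurable G) {C : ℝ} (hC : ∀ t, |G t| ≤ C) :
    Integrable fun z : ℂ => G z.re * (w z * gy χ z) := by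
  have h1 : Integrable fun z => w z * gy χ z :=
    (continuous_mulgy hE hχ hw).integrable_of_hasCompactSupport
      ((compact_gy' hχ.supp).mul_left (f := w))
  exact h1.bdd_mul (c := C) (hG.comp Complex.measurable_re).aestronglyMeasurable
    (Eventually.of_forall fun z => hC z.re)

/-! ### dominated convergence on the lines -/

theorem dct {f : ℕ → ℂ → ℝ} {A : Set ℂ} (hA : MeasurableSet A) (hf : ∀ n, Integrable (f n))
    {F bd : ℝ → ℝ} (hbd : Integrable bd)
    (h1 : ∀ᶠ n in atTop, ∀ᵐ t : ℝ, |∫ v : ℝ, A.indicator (f n) ⟨t, v⟩| ≤ bd t)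
    (h2 : ∀ᵐ t : ℝ, Tendsto (fun n => ∫ v : ℝ, A.indicator (f n) ⟨t, v⟩) atTop (𝓝 (F t))) :
    Tendsto (fun n => ∫ z in A, f n z) atTop (𝓝 (∫ t, F t)) := by
  have e : ∀ n, ∫ z in A, f n z = ∫ t : ℝ, ∫ v : ℝ, A.indicator (f n) ⟨t, v⟩ := fun n => by
    rw [← integral_indicator hA, (fub ((hf n).indicator hA)).2.2]
  simp only [e]
  exact tendsto_integral_filter_of_dominated_convergence bd
    (Eventually.of_forall fun n => (fub ((hf n).indicator hA)).2.1.aestronglyMeasurable) h1 hbd h2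

/-- integrable envelope of the variation on the lines -/
theorem toReal_le {x : ℝ≥0∞} {m : ℝ} (h : x ≤ ENNReal.ofReal m) : x.toReal ≤ |m| := by
  have h1 := ENNReal.toReal_mono ENNReal.ofReal_ne_top h
  rw [ENNReal.toReal_ofReal'] at h1
  exact h1.trans (max_le (le_abs_self m) (abs_nonneg m))

/-! ### the cut-offs on a line -/

theorem Cut.hasDeriv {L : Set ℂ} {χ : ℕ → ℂ → ℝ} (h : Cut E L χ) (n : ℕ) (t v : ℝ) :
    HasDerivAt (fun v : ℝ => χ n ⟨t, v⟩) (gy (χ n) ⟨t, v⟩) v :=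
  hasDerivAt_line ((h.lce n).smooth.differentiable (by simp)).differentiableAt

theorem Cut.cont {L : Set ℂ} {χ : ℕ → ℂ → ℝ} (h : Cut E L χ) (n : ℕ) (t : ℝ) :
    Continuous fun v : ℝ => gy (χ n) ⟨t, v⟩ :=
  (continuous_gy' (h.lce n).smooth).comp (continuous_mk_right t)

theorem Cut.one_near {L : Set ℂ} {χ : ℕ → ℂ → ℝ} (h : Cut E L χ) (hLE : L ⊆ E) (n : ℕ) {t q : ℝ}
    (hq : (⟨t, q⟩ : ℂ) ∈ L) : ∀ᶠ v in 𝓝 q, χ n ⟨t, v⟩ = 1 := by
  have h1 := (continuous_mk_right t).continuousAt.eventually ((h.lce n).lc _ (hLE hq))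
  filter_upwards [h1] with v hv
  rw [hv, h.one n _ hq]

theorem Cut.notMem {L : Set ℂ} {χ : ℕ → ℂ → ℝ} (h : Cut E L χ) {n : ℕ} {t v : ℝ}
    (hd : gy (χ n) ⟨t, v⟩ ≠ 0) : (⟨t, v⟩ : ℂ) ∉ E := fun hE =>
  hd (gy_zero_near (h.lce n).lc hE).self_of_nhds

/-- above a point over `L` the cut-offs vanish eventually -/
theorem Cut.zero_up {L : Set ℂ} {χ : ℕ → ℂ → ℝ} (h : Cut E L χ) {t b : ℝ}
    (hb : ∀ v ∈ sec L t, v < b) : ∀ᶠ n in atTop, ∀ v, b ≤ v → χ n ⟨t, v⟩ = 0 := by
  have hcl : IsClosed {z : ℂ | z.re = t ∧ b ≤ z.im} :=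
    (isClosed_eq Complex.continuous_re continuous_const).inter
      (isClosed_le continuous_const Complex.continuous_im)
  filter_upwards [h.shrink _ hcl.isOpen_compl (fun z hz hz' => by
    have h1 : z.im ∈ sec L t := by
      show (⟨t, z.im⟩ : ℂ) ∈ L
      rw [← hz'.1]; exact hz
    exact absurd hz'.2 (not_le.2 (hb _ h1)))] with n hn v hv
  exact image_eq_zero_of_notMem_tsupport fun hm => hn hm ⟨rfl, hv⟩

theorem Cut.zero_dn {L : Set ℂ} {χ : ℕ → ℂ → ℝ} (h : Cut E L χ) {t b : ℝ}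
    (hb : ∀ v ∈ sec L t, b < v) : ∀ᶠ n in atTop, ∀ v, v ≤ b → χ n ⟨t, v⟩ = 0 := by
  have hcl : IsClosed {z : ℂ | z.re = t ∧ z.im ≤ b} :=
    (isClosed_eq Complex.continuous_re continuous_const).inter
      (isClosed_le Complex.continuous_im continuous_const)
  filter_upwards [h.shrink _ hcl.isOpen_compl (fun z hz hz' => by
    have h1 : z.im ∈ sec L t := by
      show (⟨t, z.im⟩ : ℂ) ∈ L
      rw [← hz'.1]; exact hz
    exact absurd hz'.2 (not_le.2 (hb _ h1)))] with n hn v hv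
  exact image_eq_zero_of_notMem_tsupport fun hm => hn hm ⟨rfl, hv⟩

/-- off the shadow of `L` they vanish on the whole line -/
theorem Cut.zero_out {L : Set ℂ} {χ : ℕ → ℂ → ℝ} (h : Cut E L χ) {t : ℝ}
    (hb : ∀ z ∈ L, z.re ≠ t) : ∀ᶠ n in atTop, ∀ v, gy (χ n) ⟨t, v⟩ = 0 := by
  have hcl : IsClosed {z : ℂ | z.re = t} := isClosed_eq Complex.continuous_re continuous_const
  filter_upwards [h.shrink _ hcl.isOpen_compl fun z hz => hb z hz] with n hn v
  have h1 : (⟨t, v⟩ : ℂ) ∉ tsupport (χ n) := fun hm => hn hm rfl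
  have h5 := notMem_tsupport_iff_eventuallyEq.1 h1
  rw [gy_eq_of_eventuallyEq (v := fun _ => (0:ℝ)) h5, gy_const]

/-- outside a large ball they vanish -/
theorem Cut.zero_far {L : Set ℂ} {χ : ℕ → ℂ → ℝ} (h : Cut E L χ) {R : ℝ} (hR : L ⊆ ball 0 R) :
    ∀ᶠ n in atTop, ∀ t v : ℝ, R ≤ |t| ∨ R ≤ |v| → χ n ⟨t, v⟩ = 0 ∧ gy (χ n) ⟨t, v⟩ = 0 := by
  filter_upwards [h.shrink _ isOpen_ball hR] with n hn t v htv
  have h1 : (⟨t, v⟩ : ℂ) ∉ tsupport (χ n) := by
    intro hm
    have h2 := hn hm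
    rw [mem_ball, dist_zero_right] at h2
    rcases htv with h3 | h3
    · exact absurd (h3.trans (Complex.abs_re_le_norm (⟨t, v⟩ : ℂ))) (not_le.2 h2)
    · exact absurd (h3.trans (abs_le_norm_mk t v)) (not_le.2 h2)
  have h5 := notMem_tsupport_iff_eventuallyEq.1 h1
  exact ⟨image_eq_zero_of_notMem_tsupport h1,
    by rw [gy_eq_of_eventuallyEq (v := fun _ => (0:ℝ)) h5, gy_const]⟩

/-! ### the three parts -/

/-- the strip over `L`, above it -/
def topS (E L : Set ℂ) : Set ℂ := {z | z ∉ E ∧ z.re ∈ Icc (lo L) (hi L) ∧ z ∈ above L}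
/-- the strip over `L`, below it -/
def botS (E L : Set ℂ) : Set ℂ := {z | z ∉ E ∧ z.re ∈ Icc (lo L) (hi L) ∧ z ∈ below L}
/-- outside the strip -/
def outS (E L : Set ℂ) : Set ℂ := {z | z ∉ E ∧ z.re ∉ Icc (lo L) (hi L)}

theorem meas_topS (hE : IsClosed E) {L : Set ℂ} (hL : IsCompact L) : MeasurableSet (topS E L) :=
  hE.isOpen_compl.measurableSet.inter
    ((measurableSet_Icc.preimage Complex.measurable_re).inter (isOpen_above hL).measurableSet)

theorem meas_botS (hE : IsClosed E) {L : Set ℂ} (hL : IsCompact L) : MeasurableSet (botS E L) :=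
  hE.isOpen_compl.measurableSet.inter
    ((measurableSet_Icc.preimage Complex.measurable_re).inter (isOpen_below hL).measurableSet)

theorem meas_outS (hE : IsClosed E) {L : Set ℂ} : MeasurableSet (outS E L) :=
  hE.isOpen_compl.measurableSet.inter
    (measurableSet_Icc.compl.preimage Complex.measurable_re)

section main

variable {χ : ℕ → ℂ → ℝ} {G : ℝ → ℝ} {C : ℝ}

theorem line_top (hE : IsCompact E) (L0 : Cmp E) (hw : ContinuousOn w Eᶜ)
    (hb : Bd E w) (hv : BVL E w) (hχ : Cut E L0.1 χ)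
    (hG : Measurable G) (hC : ∀ t, |G t| ≤ C) :
    Tendsto (fun n => ∫ z in topS E L0.1, G z.re * (w z * gy (χ n) z)) atTop
      (𝓝 (-∫ t in (lo L0.1)..(hi L0.1), G t * tp E L0.1 w t)) := by
  obtain ⟨R, hR0, hR⟩ := exists_R hE
  obtain ⟨M, hMi, hM⟩ := bvl_real hv R
  obtain ⟨B, hB⟩ := hb (R + R)
  have hL := L0.isCompact hE
  have hC0 : 0 ≤ C := (abs_nonneg _).trans (hC 0)
  -- the bound
  set B' : ℝ := |B| with hB'
  have hle := lo_le_hi hL L0.nonempty
  have hbd : Integrable ((Icc (lo L0.1) (hi L0.1)).indicator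
      fun t => C * (2 * |M t| + B')) := by
    rw [integrable_indicator_iff measurableSet_Icc]
    refine Integrable.const_mul ?_ _
    exact ((hMi.abs.const_mul 2).integrableOn).add (by simp)
  -- one line
  have hin : ∀ n t, t ∈ Icc (lo L0.1) (hi L0.1) →
      ∫ v : ℝ, (topS E L0.1).indicator (fun z => G z.re * (w z * gy (χ n) z)) ⟨t, v⟩
        = G t * ∫ v in Ioi (sSup (sec L0.1 t)), w ⟨t, v⟩ * gy (χ n) ⟨t, v⟩ := by
    intro n t ht
    have hne := sec_nonempty hL L0.preconn L0.nonempty ht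
    rw [← integral_const_mul, ← integral_indicator measurableSet_Ioi]
    congr 1
    ext v
    by_cases hv : sSup (sec L0.1 t) < v
    · rw [indicator_of_mem (show v ∈ Ioi (sSup (sec L0.1 t)) from hv)]
      by_cases hvE : (⟨t, v⟩ : ℂ) ∈ E
      · rw [indicator_of_notMem (show (⟨t, v⟩ : ℂ) ∉ topS E L0.1 from fun h => h.1 hvE),
          (gy_zero_near (hχ.lce n).lc hvE).self_of_nhds]
        ring
      · rw [indicator_of_mem (show (⟨t, v⟩ : ℂ) ∈ topS E L0.1 from
          ⟨hvE, ht, (above_iff hL hne).2 hv⟩)]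
    · rw [indicator_of_notMem (show v ∉ Ioi (sSup (sec L0.1 t)) from hv),
        indicator_of_notMem (show (⟨t, v⟩ : ℂ) ∉ topS E L0.1 from fun h =>
          hv ((above_iff hL hne).1 h.2.2))]
  have hout : ∀ n t, t ∉ Icc (lo L0.1) (hi L0.1) →
      ∫ v : ℝ, (topS E L0.1).indicator (fun z => G z.re * (w z * gy (χ n) z)) ⟨t, v⟩ = 0 := by
    intro n t ht
    have : ∀ v : ℝ, (topS E L0.1).indicator (fun z => G z.re * (w z * gy (χ n) z)) ⟨t, v⟩ = 0 :=
      fun v => indicator_of_notMem (fun h => ht h.2.1) _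
    simp only [this, integral_zero]
  have hS : ∀ᵐ t : ℝ, |t| ≤ R →
      BoundedVariationOn (fun v : ℝ => w ⟨t, v⟩) {v | (⟨t, v⟩ : ℂ) ∉ E ∧ |v| ≤ R} ∧
      (eVariationOn (fun v : ℝ => w ⟨t, v⟩) {v | (⟨t, v⟩ : ℂ) ∉ E ∧ |v| ≤ R}).toReal ≤ |M t| := by
    filter_upwards [hM] with t ht h
    exact ⟨((ht h).trans_lt ENNReal.ofReal_lt_top).ne, toReal_le (ht h)⟩
  have hBt : ∀ t : ℝ, |t| ≤ R → ∀ v ∈ {v : ℝ | (⟨t, v⟩ : ℂ) ∉ E ∧ |v| ≤ R}, |w ⟨t, v⟩| ≤ B' := by
    intro t ht v hv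
    exact (hB _ hv.1 ((norm_mk_le t v).trans (add_le_add ht hv.2))).trans (le_abs_self B)
  have key := dct (f := fun n z => G z.re * (w z * gy (χ n) z)) (meas_topS hE.isClosed hL)
    (fun n => integrable_line hE.isClosed (hχ.lce n) hw hG hC)
    (F := (Icc (lo L0.1) (hi L0.1)).indicator fun t => -(G t * tp E L0.1 w t)) hbd ?_ ?_
  · rw [integral_indicator measurableSet_Icc, integral_neg, integral_Icc_eq_integral_Ioc,
      ← intervalIntegral.integral_of_le hle] at key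
    exact key
  · -- the bound
    filter_upwards [hχ.zero_far (L0.subset.trans hR)] with n hn
    filter_upwards [hS] with t hS
    by_cases ht : t ∈ Icc (lo L0.1) (hi L0.1)
    · rw [indicator_of_mem ht, hin n t ht, abs_mul]
      have hne := sec_nonempty hL L0.preconn L0.nonempty ht
      have hqm := (isCompact_sec hL t).sSup_mem hne
      have hqE : (⟨t, sSup (sec L0.1 t)⟩ : ℂ) ∈ E := L0.subset hqm
      have htR := (abs_re_lt hR hqE).le
      have hqR := abs_im_lt hR hqE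
      obtain ⟨hS1, hS2⟩ := hS htR
      refine mul_le_mul (hC t) ?_ (abs_nonneg _) hC0
      have h1 := ray_bound hS1 (hBt t htR) (abs_nonneg B) (hχ.hasDeriv n t) (hχ.cont n t)
        (fun v => hχ.mem n _) (nhdsWithin_le_nhds (hχ.one_near L0.subset n hqm))
        (q := sSup (sec L0.1 t)) (b := R) ((le_abs_self _).trans_lt hqR)
        (fun v hv => (hn t v (Or.inr (hv.trans (le_abs_self v)))).1)
        (fun v hv hd => ⟨hχ.notMem hd, abs_le.2 ⟨by linarith [hv.1, (abs_lt.1 hqR).1], hv.2⟩⟩)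
      linarith
    · rw [indicator_of_notMem ht, hout n t ht, abs_zero]
  · -- the limit
    filter_upwards [hS, ends hE hv L0] with t hS hends
    by_cases ht : t ∈ Icc (lo L0.1) (hi L0.1)
    · rw [indicator_of_mem ht]
      simp only [hin _ t ht]
      have hne := sec_nonempty hL L0.preconn L0.nonempty ht
      have hqm := (isCompact_sec hL t).sSup_mem hne
      have hqE : (⟨t, sSup (sec L0.1 t)⟩ : ℂ) ∈ E := L0.subset hqm
      have htR := (abs_re_lt hR hqE).le
      have hqR := abs_im_lt hR hqE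
      obtain ⟨hS1, hS2⟩ := hS htR
      have hnb := topF_neBot hE L0 ht
      have hte := (hends ht).1
      rw [topF_eq hL hne, ← nhds_cut t _ R hqR] at hnb hte
      have h1 := ray_lim (l := atTop) hS1 (hBt t htR) ((le_abs_self _).trans_lt hqR) hnb hte
        (fun n => hχ.hasDeriv n t) (fun n => hχ.cont n t) (fun n v => hχ.mem n _)
        (fun n => nhdsWithin_le_nhds (hχ.one_near L0.subset n hqm))
        (fun b hb => hχ.zero_up fun v hv => (le_csSup (isCompact_sec hL t).bddAbove hv).trans_lt hb)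
        (fun n v hv hd => ⟨hχ.notMem hd, abs_le.2 ⟨by linarith [hv.1, (abs_lt.1 hqR).1], hv.2⟩⟩)
      have h2 := h1.const_mul (G t)
      rw [mul_neg] at h2
      exact h2
    · rw [indicator_of_notMem ht]
      simp only [hout _ t ht]
      exact tendsto_const_nhds

theorem line_bot (hE : IsCompact E) (L0 : Cmp E) (hw : ContinuousOn w Eᶜ)
    (hb : Bd E w) (hv : BVL E w) (hχ : Cut E L0.1 χ)
    (hG : Measurable G) (hC : ∀ t, |G t| ≤ C) :
    Tendsto (fun n => ∫ z in botS E L0.1, G z.re * (w z * gy (χ n) z)) atTop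
      (𝓝 (∫ t in (lo L0.1)..(hi L0.1), G t * bt E L0.1 w t)) := by
  obtain ⟨R, hR0, hR⟩ := exists_R hE
  obtain ⟨M, hMi, hM⟩ := bvl_real hv R
  obtain ⟨B, hB⟩ := hb (R + R)
  have hL := L0.isCompact hE
  have hC0 : 0 ≤ C := (abs_nonneg _).trans (hC 0)
  -- the bound
  set B' : ℝ := |B| with hB'
  have hle := lo_le_hi hL L0.nonempty
  have hbd : Integrable ((Icc (lo L0.1) (hi L0.1)).indicator
      fun t => C * (2 * |M t| + B')) := by
    rw [integrable_indicator_iff measurableSet_Icc]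
    refine Integrable.const_mul ?_ _
    exact ((hMi.abs.const_mul 2).integrableOn).add (by simp)
  -- one line
  have hin : ∀ n t, t ∈ Icc (lo L0.1) (hi L0.1) →
      ∫ v : ℝ, (botS E L0.1).indicator (fun z => G z.re * (w z * gy (χ n) z)) ⟨t, v⟩
        = G t * ∫ v in Iio (sInf (sec L0.1 t)), w ⟨t, v⟩ * gy (χ n) ⟨t, v⟩ := by
    intro n t ht
    have hne := sec_nonempty hL L0.preconn L0.nonempty ht
    rw [← integral_const_mul, ← integral_indicator measurableSet_Iio]
    congr 1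
    ext v
    by_cases hv : v < sInf (sec L0.1 t)
    · rw [indicator_of_mem (show v ∈ Iio (sInf (sec L0.1 t)) from hv)]
      by_cases hvE : (⟨t, v⟩ : ℂ) ∈ E
      · rw [indicator_of_notMem (show (⟨t, v⟩ : ℂ) ∉ botS E L0.1 from fun h => h.1 hvE),
          (gy_zero_near (hχ.lce n).lc hvE).self_of_nhds]
        ring
      · rw [indicator_of_mem (show (⟨t, v⟩ : ℂ) ∈ botS E L0.1 from
          ⟨hvE, ht, (below_iff hL hne).2 hv⟩)]
    · rw [indicator_of_notMem (show v ∉ Iio (sInf (sec L0.1 t)) from hv),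
        indicator_of_notMem (show (⟨t, v⟩ : ℂ) ∉ botS E L0.1 from fun h =>
          hv ((below_iff hL hne).1 h.2.2))]
  have hout : ∀ n t, t ∉ Icc (lo L0.1) (hi L0.1) →
      ∫ v : ℝ, (botS E L0.1).indicator (fun z => G z.re * (w z * gy (χ n) z)) ⟨t, v⟩ = 0 := by
    intro n t ht
    have : ∀ v : ℝ, (botS E L0.1).indicator (fun z => G z.re * (w z * gy (χ n) z)) ⟨t, v⟩ = 0 :=
      fun v => indicator_of_notMem (fun h => ht h.2.1) _
    simp only [this, integral_zero]
  have hS : ∀ᵐ t : ℝ, |t| ≤ R →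
      BoundedVariationOn (fun v : ℝ => w ⟨t, v⟩) {v | (⟨t, v⟩ : ℂ) ∉ E ∧ |v| ≤ R} ∧
      (eVariationOn (fun v : ℝ => w ⟨t, v⟩) {v | (⟨t, v⟩ : ℂ) ∉ E ∧ |v| ≤ R}).toReal ≤ |M t| := by
    filter_upwards [hM] with t ht h
    exact ⟨((ht h).trans_lt ENNReal.ofReal_lt_top).ne, toReal_le (ht h)⟩
  have hBt : ∀ t : ℝ, |t| ≤ R → ∀ v ∈ {v : ℝ | (⟨t, v⟩ : ℂ) ∉ E ∧ |v| ≤ R}, |w ⟨t, v⟩| ≤ B' := by
    intro t ht v hv
    exact (hB _ hv.1 ((norm_mk_le t v).trans (add_le_add ht hv.2))).trans (le_abs_self B)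
  have key := dct (f := fun n z => G z.re * (w z * gy (χ n) z)) (meas_botS hE.isClosed hL)
    (fun n => integrable_line hE.isClosed (hχ.lce n) hw hG hC)
    (F := (Icc (lo L0.1) (hi L0.1)).indicator fun t => G t * bt E L0.1 w t) hbd ?_ ?_
  · rw [integral_indicator measurableSet_Icc, integral_Icc_eq_integral_Ioc,
      ← intervalIntegral.integral_of_le hle] at key
    exact key
  · -- the bound
    filter_upwards [hχ.zero_far (L0.subset.trans hR)] with n hn
    filter_upwards [hS] with t hS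
    by_cases ht : t ∈ Icc (lo L0.1) (hi L0.1)
    · rw [indicator_of_mem ht, hin n t ht, abs_mul]
      have hne := sec_nonempty hL L0.preconn L0.nonempty ht
      have hqm := (isCompact_sec hL t).sInf_mem hne
      have hqE : (⟨t, sInf (sec L0.1 t)⟩ : ℂ) ∈ E := L0.subset hqm
      have htR := (abs_re_lt hR hqE).le
      have hqR := abs_im_lt hR hqE
      obtain ⟨hS1, hS2⟩ := hS htR
      refine mul_le_mul (hC t) ?_ (abs_nonneg _) hC0
      have h1 := ray_bound' hS1 (hBt t htR) (abs_nonneg B) (hχ.hasDeriv n t) (hχ.cont n t)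
        (fun v => hχ.mem n _) (nhdsWithin_le_nhds (hχ.one_near L0.subset n hqm))
        (q := sInf (sec L0.1 t)) (b := -R) (abs_lt.1 hqR).1
        (fun v hv => (hn t v (Or.inr (by rw [← abs_neg]; exact (le_neg_of_le_neg hv).trans (le_abs_self _)))).1)
        (fun v hv hd => ⟨hχ.notMem hd, abs_le.2 ⟨hv.1, by linarith [hv.2, (abs_lt.1 hqR).2]⟩⟩)
      linarith
    · rw [indicator_of_notMem ht, hout n t ht, abs_zero]
  · -- the limit
    filter_upwards [hS, ends hE hv L0] with t hS hends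
    by_cases ht : t ∈ Icc (lo L0.1) (hi L0.1)
    · rw [indicator_of_mem ht]
      simp only [hin _ t ht]
      have hne := sec_nonempty hL L0.preconn L0.nonempty ht
      have hqm := (isCompact_sec hL t).sInf_mem hne
      have hqE : (⟨t, sInf (sec L0.1 t)⟩ : ℂ) ∈ E := L0.subset hqm
      have htR := (abs_re_lt hR hqE).le
      have hqR := abs_im_lt hR hqE
      obtain ⟨hS1, hS2⟩ := hS htR
      have hnb := botF_neBot hE L0 ht
      have hte := (hends ht).2
      rw [botF_eq hL hne, ← nhds_cut t _ R hqR] at hnb hte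
      have h1 := ray_lim' (l := atTop) hS1 (hBt t htR) (abs_lt.1 hqR).1 hnb hte
        (fun n => hχ.hasDeriv n t) (fun n => hχ.cont n t) (fun n v => hχ.mem n _)
        (fun n => nhdsWithin_le_nhds (hχ.one_near L0.subset n hqm))
        (fun b hb => hχ.zero_dn fun v hv => hb.trans_le (csInf_le (isCompact_sec hL t).bddBelow hv))
        (fun n v hv hd => ⟨hχ.notMem hd, abs_le.2 ⟨hv.1, by linarith [hv.2, (abs_lt.1 hqR).2]⟩⟩)
      have h2 := h1.const_mul (G t)
      exact h2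
    · rw [indicator_of_notMem ht]
      simp only [hout _ t ht]
      exact tendsto_const_nhds

/-- outside the strip nothing remains -/
theorem line_out (hE : IsCompact E) (L0 : Cmp E) (hw : ContinuousOn w Eᶜ)
    (hb : Bd E w) (hv : BVL E w) (hχ : Cut E L0.1 χ)
    (hG : Measurable G) (hC : ∀ t, |G t| ≤ C) :
    Tendsto (fun n => ∫ z in outS E L0.1, G z.re * (w z * gy (χ n) z)) atTop (𝓝 0) := by
  obtain ⟨R, hR0, hR⟩ := exists_R hE
  obtain ⟨M, hMi, hM⟩ := bvl_real hv R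
  obtain ⟨B, hB⟩ := hb (R + R)
  have hL := L0.isCompact hE
  have hC0 : 0 ≤ C := (abs_nonneg _).trans (hC 0)
  set B' : ℝ := |B| with hB'
  have hbd : Integrable ((Icc (-R) R).indicator fun t => C * (4 * |M t| + 2 * B')) := by
    rw [integrable_indicator_iff measurableSet_Icc]
    refine Integrable.const_mul ?_ _
    exact ((hMi.abs.const_mul 4).integrableOn).add continuous_const.integrableOn_Icc
  have hS : ∀ᵐ t : ℝ, |t| ≤ R →
      BoundedVariationOn (fun v : ℝ => w ⟨t, v⟩) {v | (⟨t, v⟩ : ℂ) ∉ E ∧ |v| ≤ R} ∧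
      (eVariationOn (fun v : ℝ => w ⟨t, v⟩) {v | (⟨t, v⟩ : ℂ) ∉ E ∧ |v| ≤ R}).toReal ≤ |M t| := by
    filter_upwards [hM] with t ht h
    exact ⟨((ht h).trans_lt ENNReal.ofReal_lt_top).ne, toReal_le (ht h)⟩
  have hBt : ∀ t : ℝ, |t| ≤ R → ∀ v ∈ {v : ℝ | (⟨t, v⟩ : ℂ) ∉ E ∧ |v| ≤ R}, |w ⟨t, v⟩| ≤ B' := by
    intro t ht v hv
    exact (hB _ hv.1 ((norm_mk_le t v).trans (add_le_add ht hv.2))).trans (le_abs_self B)
  have hin : ∀ n t, t ∉ Icc (lo L0.1) (hi L0.1) →
      ∫ v : ℝ, (outS E L0.1).indicator (fun z => G z.re * (w z * gy (χ n) z)) ⟨t, v⟩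
        = G t * ∫ v : ℝ, w ⟨t, v⟩ * gy (χ n) ⟨t, v⟩ := by
    intro n t ht
    rw [← integral_const_mul]
    congr 1
    ext v
    by_cases hvE : (⟨t, v⟩ : ℂ) ∈ E
    · rw [indicator_of_notMem (show (⟨t, v⟩ : ℂ) ∉ outS E L0.1 from fun h => h.1 hvE),
        (gy_zero_near (hχ.lce n).lc hvE).self_of_nhds]
      ring
    · rw [indicator_of_mem (show (⟨t, v⟩ : ℂ) ∈ outS E L0.1 from ⟨hvE, ht⟩)]
  have hout : ∀ n t, t ∈ Icc (lo L0.1) (hi L0.1) →
      ∫ v : ℝ, (outS E L0.1).indicator (fun z => G z.re * (w z * gy (χ n) z)) ⟨t, v⟩ = 0 := by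
    intro n t ht
    have : ∀ v : ℝ, (outS E L0.1).indicator (fun z => G z.re * (w z * gy (χ n) z)) ⟨t, v⟩ = 0 :=
      fun v => indicator_of_notMem (fun h => h.2 ht) _
    simp only [this, integral_zero]
  have key := dct (f := fun n z => G z.re * (w z * gy (χ n) z)) (meas_outS (L := L0.1) hE.isClosed)
    (fun n => integrable_line hE.isClosed (hχ.lce n) hw hG hC)
    (F := fun _ => (0:ℝ)) hbd ?_ ?_
  · rw [integral_zero] at key
    exact key
  · filter_upwards [hχ.zero_far (L0.subset.trans hR)] with n hn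
    filter_upwards [hS] with t hS
    by_cases ht : t ∈ Icc (lo L0.1) (hi L0.1)
    · rw [hout n t ht, abs_zero]
      refine indicator_nonneg (fun t _ => mul_nonneg hC0 ?_) t
      have := abs_nonneg (M t); have := abs_nonneg B
      rw [hB']; linarith
    · rw [hin n t ht, abs_mul]
      by_cases htR : |t| ≤ R
      · rw [indicator_of_mem (show t ∈ Icc (-R) R from abs_le.1 htR)]
        obtain ⟨hS1, hS2⟩ := hS htR
        refine mul_le_mul (hC t) ?_ (abs_nonneg _) hC0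
        have h1 := line_bound hS1 (hBt t htR) (abs_nonneg B) (hχ.hasDeriv n t) (hχ.cont n t)
          (fun v => hχ.mem n _) (a := -R) (b := R) (by linarith)
          (fun v hv => (hn t v (Or.inr (by
            rw [← abs_neg]; exact (le_neg_of_le_neg hv).trans (le_abs_self _)))).1)
          (fun v hv => (hn t v (Or.inr (hv.trans (le_abs_self v)))).1)
          (fun v hv hd => ⟨hχ.notMem hd, abs_le.2 ⟨hv.1.le, hv.2⟩⟩)
        linarith
      · rw [indicator_of_notMem (show t ∉ Icc (-R) R from fun h => htR (abs_le.2 h))]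
        have : ∀ v : ℝ, w ⟨t, v⟩ * gy (χ n) ⟨t, v⟩ = 0 := fun v => by
          rw [(hn t v (Or.inl (not_le.1 htR).le)).2, mul_zero]
        simp only [this, integral_zero, abs_zero, mul_zero, le_refl]
  · refine Eventually.of_forall fun t => ?_
    by_cases ht : t ∈ Icc (lo L0.1) (hi L0.1)
    · simp only [hout _ t ht]
      exact tendsto_const_nhds
    · refine tendsto_const_nhds.congr' ?_
      filter_upwards [hχ.zero_out (t := t) fun z hz h => ht (by
        rw [← h]; exact ⟨lo_le hL hz, le_hi hL hz⟩)] with n hn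
      rw [hin n t ht]
      simp only [hn, mul_zero, integral_zero]

/-- **LINE LEMMA** -/
theorem line_lemma (hE : IsCompact E) (hord : ∀ L : Cmp E, ∀ t, OrdConnected (sec L.1 t))
    (L0 : Cmp E) (hw : ContinuousOn w Eᶜ)
    (hb : Bd E w) (hv : BVL E w) (hχ : Cut E L0.1 χ)
    (hG : Measurable G) (hC : ∀ t, |G t| ≤ C) :
    Tendsto (fun n => ∫ z in Eᶜ, G z.re * (w z * gy (χ n) z)) atTop
      (𝓝 ((∫ t in (lo L0.1)..(hi L0.1), G t * bt E L0.1 w t)
        - ∫ t in (lo L0.1)..(hi L0.1), G t * tp E L0.1 w t)) := by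
  have hL := L0.isCompact hE
  have hu : Eᶜ = (topS E L0.1 ∪ botS E L0.1) ∪ outS E L0.1 := by
    ext z
    constructor
    · intro hz
      by_cases ht : z.re ∈ Icc (lo L0.1) (hi L0.1)
      · left
        rcases above_or_below (hord L0) (p := z) (fun h => hz (L0.subset h)) with h | h
        · exact Or.inl ⟨hz, ht, h⟩
        · exact Or.inr ⟨hz, ht, h⟩
      · exact Or.inr ⟨hz, ht⟩
    · rintro ((h | h) | h) <;> exact h.1
  have d1 : Disjoint (topS E L0.1) (botS E L0.1) := by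
    rw [disjoint_left]
    rintro z ⟨-, ht, h1⟩ ⟨-, -, h2⟩
    exact above_disjoint_below (sec_nonempty hL L0.preconn L0.nonempty ht) h1 h2
  have d2 : Disjoint (topS E L0.1 ∪ botS E L0.1) (outS E L0.1) := by
    rw [disjoint_left]
    rintro z (⟨-, ht, -⟩ | ⟨-, ht, -⟩) ⟨-, h2⟩ <;> exact h2 ht
  have h1 := line_top hE L0 hw hb hv hχ hG hC
  have h2 := line_bot hE L0 hw hb hv hχ hG hC
  have h3 := line_out hE L0 hw hb hv hχ hG hC
  have h4 := (h1.add h2).add h3
  have e : (-(∫ t in (lo L0.1)..(hi L0.1), G t * tp E L0.1 w t)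
      + ∫ t in (lo L0.1)..(hi L0.1), G t * bt E L0.1 w t) + 0
      = (∫ t in (lo L0.1)..(hi L0.1), G t * bt E L0.1 w t)
        - ∫ t in (lo L0.1)..(hi L0.1), G t * tp E L0.1 w t := by ring
  rw [e] at h4
  refine h4.congr fun n => ?_
  have hi := integrable_line hE.isClosed (hχ.lce n) hw hG hC
  rw [hu, setIntegral_union d2 (meas_outS hE.isClosed) hi.integrableOn hi.integrableOn,
    setIntegral_union d1 (meas_botS hE.isClosed hL) hi.integrableOn hi.integrableOn]

end main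

end

end Crest.Agent.R105.Lin_642
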