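import Crest.Agent.R105.Lin3_642

/-!
# R105 (S0138, NI frame), E13: LINE LEMMA, part 4: complements (helper642)

* `exists_cut_seq` : cut-offs (`Cut`) of a component exist
* `tp_eq`, `tp_congr`, `tp_mem`, `ends_comb` ... : calculus of the limits `tp`, `bt`
* `aesm_tp`, `aesm_bt` : a.e.-measurability on `[lo,hi]`
* `intervalIntegrable_tp`, `_bt`
-/

set_option autoImplicit false

open Set Filter MeasureTheory Metric
open scoped Topology NNReal ContDiff

namespace Crest.Agent.R105.Lin_642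

open Tc_808 Bd_775 Sqr_185 Yv_319
open Sct_636 (LCE)
open Bvl_31 (BVL Bd)

noncomputable section

variable {E : Set ℂ} {w w' : ℂ → ℝ}

/-! ### existence of cut-offs -/

theorem exists_cut_seq (hE : IsCompact E) (L0 : Cmp E) : ∃ χ : ℕ → ℂ → ℝ, Cut E L0.1 χ := by
  obtain ⟨p, hp, hL0⟩ := L0.2
  have hK := L0.isCompact hE
  have hstep : ∀ n : ℕ, ∃ χ : ℂ → ℝ, LCE E χ ∧ (∀ w, χ w ∈ Icc (0 : ℝ) 1) ∧
      (∀ w ∈ L0.1, χ w = 1) ∧ tsupport χ ⊆ Metric.thickening (1 / ((n : ℝ) + 1)) L0.1 := by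
    intro n
    have hpos : (0 : ℝ) < 1 / ((n : ℝ) + 1) := by positivity
    obtain ⟨S, hSc, hTc, hSE, hKS, hSW⟩ := Thin_12.exists_clopen hE hp
      (W := Metric.thickening (1 / ((n : ℝ) + 1)) L0.1) Metric.isOpen_thickening
      (by rw [← hL0]; exact Metric.self_subset_thickening hpos _)
    obtain ⟨δ₁, hδ₁, hdis⟩ := (disjoint_sdiff_right : Disjoint S (E \ S)).exists_cthickenings hSc
      hTc.isClosed
    obtain ⟨δ₂, hδ₂, hsub⟩ := hSc.exists_cthickening_subset_open Metric.isOpen_thickening hSW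
    set δ := min δ₁ δ₂ with hδd
    have hδ : 0 < δ := lt_min hδ₁ hδ₂
    obtain ⟨f, hf1, hf0, hf01⟩ := exists_contMDiffMap_one_nhds_of_subset_interior
      (I := modelWithCornersSelf ℝ ℂ) (n := ⊤) (M := ℂ) (s := S) (t := Metric.cthickening δ S)
      hSc.isClosed ((Metric.self_subset_thickening hδ S).trans
        (interior_maximal (Metric.thickening_subset_cthickening _ _) Metric.isOpen_thickening))
    refine ⟨f, ⟨f.contMDiff.contDiff, ?_, ?_⟩, hf01, ?_, ?_⟩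
    · exact HasCompactSupport.intro (hSc.cthickening (r := δ)) hf0
    · intro w hw
      by_cases hwS : w ∈ S
      · have h1 : ∀ᶠ x in 𝓝 w, f x = 1 := eventually_nhdsSet_iff_forall.1 hf1 w hwS
        have h2 := h1.self_of_nhds
        filter_upwards [h1] with x hx
        rw [hx, h2]
      · have h3 : Metric.thickening δ (E \ S) ∈ 𝓝 w :=
          Metric.isOpen_thickening.mem_nhds (Metric.self_subset_thickening hδ _ ⟨hw, hwS⟩)
        have h4 : ∀ x ∈ Metric.thickening δ (E \ S), f x = 0 := fun x hx => hf0 x fun hx' =>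
          disjoint_left.1 hdis (Metric.cthickening_mono (min_le_left _ _) _ hx')
            (Metric.thickening_subset_cthickening _ _
              (Metric.thickening_mono (min_le_left _ _) _ hx))
        have h5 := h4 w (mem_of_mem_nhds h3)
        filter_upwards [h3] with x hx
        rw [h4 x hx, h5]
    · intro w hw
      rw [hL0] at hw
      exact (eventually_nhdsSet_iff_forall.1 hf1 w (hKS hw)).self_of_nhds
    · have h1 : tsupport f ⊆ Metric.cthickening δ S := by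
        refine closure_minimal (fun x hx => ?_) Metric.isClosed_cthickening
        by_contra hn
        exact hx (hf0 x hn)
      exact h1.trans ((Metric.cthickening_mono (min_le_right _ _) _).trans hsub)
  choose χ h1 h2 h3 h4 using hstep
  refine ⟨χ, h1, h2, h3, fun O hO hLO => ?_⟩
  obtain ⟨ε, hε, hsub⟩ := hK.exists_thickening_subset_open hO hLO
  have htend : Tendsto (fun n : ℕ => 1 / ((n : ℝ) + 1)) atTop (𝓝 0) :=
    tendsto_one_div_add_atTop_nhds_zero_nat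
  filter_upwards [htend.eventually_lt_const hε] with n hn
  exact (h4 n).trans ((Metric.thickening_mono hn.le _).trans hsub)

/-! ### calculus of the limits -/

section limits

variable {L0 : Cmp E} {t : ℝ}

theorem tp_eq (hE : IsCompact E) (ht : t ∈ Icc (lo L0.1) (hi L0.1)) {c : ℝ}
    (h : Tendsto (fun v => w ⟨t, v⟩) (topF E L0.1 t) (𝓝 c)) : tp E L0.1 w t = c :=
  have := topF_neBot hE L0 ht
  h.limUnder_eq

theorem bt_eq (hE : IsCompact E) (ht : t ∈ Icc (lo L0.1) (hi L0.1)) {c : ℝ}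
    (h : Tendsto (fun v => w ⟨t, v⟩) (botF E L0.1 t) (𝓝 c)) : bt E L0.1 w t = c :=
  have := botF_neBot hE L0 ht
  h.limUnder_eq

theorem tp_congr {L : Set ℂ} (h : ∀ᶠ v in topF E L t, w ⟨t, v⟩ = w' ⟨t, v⟩) :
    tp E L w t = tp E L w' t := by
  unfold tp limUnder
  rw [Filter.map_congr h]

theorem bt_congr {L : Set ℂ} (h : ∀ᶠ v in botF E L t, w ⟨t, v⟩ = w' ⟨t, v⟩) :
    bt E L w t = bt E L w' t := by
  unfold bt limUnder
  rw [Filter.map_congr h]

theorem topF_notMem {L : Set ℂ} :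
    ∀ᶠ v in topF E L t, (⟨t, v⟩ : ℂ) ∉ E ∧ (⟨t, v⟩ : ℂ) ∈ above L := self_mem_nhdsWithin

theorem botF_notMem {L : Set ℂ} :
    ∀ᶠ v in botF E L t, (⟨t, v⟩ : ℂ) ∉ E ∧ (⟨t, v⟩ : ℂ) ∈ below L := self_mem_nhdsWithin

/-- along the upper end one comes close to `L0` -/
theorem topF_near (hE : IsCompact E) (ht : t ∈ Icc (lo L0.1) (hi L0.1)) {O : Set ℂ}
    (hO : IsOpen O) (hLO : L0.1 ⊆ O) : ∀ᶠ v in topF E L0.1 t, (⟨t, v⟩ : ℂ) ∈ O := by
  have hL := L0.isCompact hE
  have hne := sec_nonempty hL L0.preconn L0.nonempty ht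
  have hqm := (isCompact_sec hL t).sSup_mem hne
  exact nhdsWithin_le_nhds ((continuous_mk_right t).continuousAt.eventually
    (hO.mem_nhds (hLO hqm)))

theorem botF_near (hE : IsCompact E) (ht : t ∈ Icc (lo L0.1) (hi L0.1)) {O : Set ℂ}
    (hO : IsOpen O) (hLO : L0.1 ⊆ O) : ∀ᶠ v in botF E L0.1 t, (⟨t, v⟩ : ℂ) ∈ O := by
  have hL := L0.isCompact hE
  have hne := sec_nonempty hL L0.preconn L0.nonempty ht
  have hqm := (isCompact_sec hL t).sInf_mem hne
  exact nhdsWithin_le_nhds ((continuous_mk_right t).continuousAt.eventually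
    (hO.mem_nhds (hLO hqm)))

/-- the limits stay in a closed set containing the values near the end -/
theorem tp_mem (hE : IsCompact E) (ht : t ∈ Icc (lo L0.1) (hi L0.1))
    (hl : Tendsto (fun v => w ⟨t, v⟩) (topF E L0.1 t) (𝓝 (tp E L0.1 w t))) {s : Set ℝ}
    (hs : IsClosed s) (h : ∀ᶠ v in topF E L0.1 t, w ⟨t, v⟩ ∈ s) : tp E L0.1 w t ∈ s :=
  have := topF_neBot hE L0 ht
  hs.mem_of_tendsto hl h

theorem bt_mem (hE : IsCompact E) (ht : t ∈ Icc (lo L0.1) (hi L0.1))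
    (hl : Tendsto (fun v => w ⟨t, v⟩) (botF E L0.1 t) (𝓝 (bt E L0.1 w t))) {s : Set ℝ}
    (hs : IsClosed s) (h : ∀ᶠ v in botF E L0.1 t, w ⟨t, v⟩ ∈ s) : bt E L0.1 w t ∈ s :=
  have := botF_neBot hE L0 ht
  hs.mem_of_tendsto hl h

end limits

/-- products -/
theorem ae_mul (hE : IsCompact E) (L0 : Cmp E) (hv : BVL E w) (hv' : BVL E w') :
    ∀ᵐ t : ℝ, t ∈ Icc (lo L0.1) (hi L0.1) →
      tp E L0.1 (fun z => w z * w' z) t = tp E L0.1 w t * tp E L0.1 w' t ∧
      bt E L0.1 (fun z => w z * w' z) t = bt E L0.1 w t * bt E L0.1 w' t := by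
  filter_upwards [ends hE hv L0, ends hE hv' L0] with t h1 h2 ht
  exact ⟨tp_eq hE ht ((h1 ht).1.mul (h2 ht).1), bt_eq hE ht ((h1 ht).2.mul (h2 ht).2)⟩

/-- sums -/
theorem ae_add (hE : IsCompact E) (L0 : Cmp E) (hv : BVL E w) (hv' : BVL E w') :
    ∀ᵐ t : ℝ, t ∈ Icc (lo L0.1) (hi L0.1) →
      tp E L0.1 (fun z => w z + w' z) t = tp E L0.1 w t + tp E L0.1 w' t ∧
      bt E L0.1 (fun z => w z + w' z) t = bt E L0.1 w t + bt E L0.1 w' t := by
  filter_upwards [ends hE hv L0, ends hE hv' L0] with t h1 h2 ht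
  exact ⟨tp_eq hE ht ((h1 ht).1.add (h2 ht).1), bt_eq hE ht ((h1 ht).2.add (h2 ht).2)⟩

/-- continuous functions -/
theorem ae_comp (hE : IsCompact E) (L0 : Cmp E) (hv : BVL E w) {T : ℝ → ℝ} (hT : Continuous T) :
    ∀ᵐ t : ℝ, t ∈ Icc (lo L0.1) (hi L0.1) →
      tp E L0.1 (fun z => T (w z)) t = T (tp E L0.1 w t) ∧
      bt E L0.1 (fun z => T (w z)) t = T (bt E L0.1 w t) := by
  filter_upwards [ends hE hv L0] with t h1 ht
  exact ⟨tp_eq hE ht ((hT.tendsto _).comp (h1 ht).1), bt_eq hE ht ((hT.tendsto _).comp (h1 ht).2)⟩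

/-- functions of the abscissa -/
theorem tp_re (hE : IsCompact E) (L0 : Cmp E) {t : ℝ} (ht : t ∈ Icc (lo L0.1) (hi L0.1))
    (h : ℝ → ℝ) : tp E L0.1 (fun z => h z.re) t = h t ∧ bt E L0.1 (fun z => h z.re) t = h t :=
  ⟨tp_eq hE ht tendsto_const_nhds, bt_eq hE ht tendsto_const_nhds⟩

/-! ### measurability -/

/-- bounds of the limits -/
theorem ae_bound (hE : IsCompact E) (L0 : Cmp E) (hb : Bd E w) (hv : BVL E w) :
    ∃ B : ℝ, 0 ≤ B ∧ ∀ᵐ t : ℝ, t ∈ Icc (lo L0.1) (hi L0.1) →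
      |tp E L0.1 w t| ≤ B ∧ |bt E L0.1 w t| ≤ B := by
  obtain ⟨R, hR0, hR⟩ := exists_R hE
  obtain ⟨B, hB⟩ := hb R
  refine ⟨|B|, abs_nonneg B, ?_⟩
  filter_upwards [ends hE hv L0] with t h1 ht
  have key : ∀ z, z ∉ E → z ∈ ball (0:ℂ) R → w z ∈ {x : ℝ | |x| ≤ |B|} := fun z hz hzR =>
    (hB z hz (by rw [mem_ball, dist_zero_right] at hzR; exact hzR.le)).trans (le_abs_self B)
  have hs : IsClosed {x : ℝ | |x| ≤ |B|} := isClosed_le continuous_abs continuous_const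
  constructor
  · refine tp_mem hE ht (h1 ht).1 hs ?_
    filter_upwards [topF_notMem, topF_near hE ht isOpen_ball (L0.subset.trans hR)] with v h2 h3
    exact key _ h2.1 h3
  · refine bt_mem hE ht (h1 ht).2 hs ?_
    filter_upwards [botF_notMem, botF_near hE ht isOpen_ball (L0.subset.trans hR)] with v h2 h3
    exact key _ h2.1 h3

/-- the one-line integrals converge: top -/
theorem pt_top {χ : ℕ → ℂ → ℝ} (hE : IsCompact E) (L0 : Cmp E) (hb : Bd E w) (hv : BVL E w)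
    (hχ : Cut E L0.1 χ) : ∀ᵐ t : ℝ, t ∈ Icc (lo L0.1) (hi L0.1) →
      Tendsto (fun n => ∫ v : ℝ, (topS E L0.1).indicator (fun z => w z * gy (χ n) z) ⟨t, v⟩) atTop
        (𝓝 (-tp E L0.1 w t)) := by
  obtain ⟨R, hR0, hR⟩ := exists_R hE
  obtain ⟨M, hMi, hM⟩ := bvl_real hv R
  obtain ⟨B, hB⟩ := hb (R + R)
  have hL := L0.isCompact hE
  filter_upwards [hM, ends hE hv L0] with t hM hends ht
  have hne := sec_nonempty hL L0.preconn L0.nonempty ht
  have hqm := (isCompact_sec hL t).sSup_mem hne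
  have hqE : (⟨t, sSup (sec L0.1 t)⟩ : ℂ) ∈ E := L0.subset hqm
  have htR := (abs_re_lt hR hqE).le
  have hqR := abs_im_lt hR hqE
  have hS1 : BoundedVariationOn (fun v : ℝ => w ⟨t, v⟩) {v | (⟨t, v⟩ : ℂ) ∉ E ∧ |v| ≤ R} :=
    ((hM htR).trans_lt ENNReal.ofReal_lt_top).ne
  have hBt : ∀ v ∈ {v : ℝ | (⟨t, v⟩ : ℂ) ∉ E ∧ |v| ≤ R}, |w ⟨t, v⟩| ≤ |B| := fun v hv =>
    (hB _ hv.1 ((norm_mk_le t v).trans (add_le_add htR hv.2))).trans (le_abs_self B)
  have hnb := topF_neBot hE L0 ht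
  have hte := (hends ht).1
  rw [topF_eq hL hne, ← nhds_cut t _ R hqR] at hnb hte
  have h1 := ray_lim (l := atTop) hS1 hBt ((le_abs_self _).trans_lt hqR) hnb hte
    (fun n => hχ.hasDeriv n t) (fun n => hχ.cont n t) (fun n v => hχ.mem n _)
    (fun n => nhdsWithin_le_nhds (hχ.one_near L0.subset n hqm))
    (fun b hb => hχ.zero_up fun v hv => (le_csSup (isCompact_sec hL t).bddAbove hv).trans_lt hb)
    (fun n v hv hd => ⟨hχ.notMem hd, abs_le.2 ⟨by linarith [hv.1, (abs_lt.1 hqR).1], hv.2⟩⟩)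
  refine h1.congr fun n => ?_
  rw [← integral_indicator measurableSet_Ioi]
  congr 1
  ext v
  by_cases hv : sSup (sec L0.1 t) < v
  · rw [indicator_of_mem (show v ∈ Ioi (sSup (sec L0.1 t)) from hv)]
    by_cases hvE : (⟨t, v⟩ : ℂ) ∈ E
    · rw [indicator_of_notMem (show (⟨t, v⟩ : ℂ) ∉ topS E L0.1 from fun h => h.1 hvE),
        (gy_zero_near (hχ.lce n).lc hvE).self_of_nhds]
      ring
    · rw [indicator_of_mem (show (⟨t, v⟩ : ℂ) ∈ topS E L0.1 from
        ⟨hvE, ht, (above_iff hL hne).2 hv⟩)]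
  · rw [indicator_of_notMem (show v ∉ Ioi (sSup (sec L0.1 t)) from hv),
      indicator_of_notMem (show (⟨t, v⟩ : ℂ) ∉ topS E L0.1 from fun h =>
        hv ((above_iff hL hne).1 h.2.2))]

/-- the one-line integrals converge: bottom -/
theorem pt_bot {χ : ℕ → ℂ → ℝ} (hE : IsCompact E) (L0 : Cmp E) (hb : Bd E w) (hv : BVL E w)
    (hχ : Cut E L0.1 χ) : ∀ᵐ t : ℝ, t ∈ Icc (lo L0.1) (hi L0.1) →
      Tendsto (fun n => ∫ v : ℝ, (botS E L0.1).indicator (fun z => w z * gy (χ n) z) ⟨t, v⟩) atTop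
        (𝓝 (bt E L0.1 w t)) := by
  obtain ⟨R, hR0, hR⟩ := exists_R hE
  obtain ⟨M, hMi, hM⟩ := bvl_real hv R
  obtain ⟨B, hB⟩ := hb (R + R)
  have hL := L0.isCompact hE
  filter_upwards [hM, ends hE hv L0] with t hM hends ht
  have hne := sec_nonempty hL L0.preconn L0.nonempty ht
  have hqm := (isCompact_sec hL t).sInf_mem hne
  have hqE : (⟨t, sInf (sec L0.1 t)⟩ : ℂ) ∈ E := L0.subset hqm
  have htR := (abs_re_lt hR hqE).le
  have hqR := abs_im_lt hR hqE
  have hS1 : BoundedVariationOn (fun v : ℝ => w ⟨t, v⟩) {v | (⟨t, v⟩ : ℂ) ∉ E ∧ |v| ≤ R} :=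
    ((hM htR).trans_lt ENNReal.ofReal_lt_top).ne
  have hBt : ∀ v ∈ {v : ℝ | (⟨t, v⟩ : ℂ) ∉ E ∧ |v| ≤ R}, |w ⟨t, v⟩| ≤ |B| := fun v hv =>
    (hB _ hv.1 ((norm_mk_le t v).trans (add_le_add htR hv.2))).trans (le_abs_self B)
  have hnb := botF_neBot hE L0 ht
  have hte := (hends ht).2
  rw [botF_eq hL hne, ← nhds_cut t _ R hqR] at hnb hte
  have h1 := ray_lim' (l := atTop) hS1 hBt (abs_lt.1 hqR).1 hnb hte
    (fun n => hχ.hasDeriv n t) (fun n => hχ.cont n t) (fun n v => hχ.mem n _)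
    (fun n => nhdsWithin_le_nhds (hχ.one_near L0.subset n hqm))
    (fun b hb => hχ.zero_dn fun v hv => hb.trans_le (csInf_le (isCompact_sec hL t).bddBelow hv))
    (fun n v hv hd => ⟨hχ.notMem hd, abs_le.2 ⟨hv.1, by linarith [hv.2, (abs_lt.1 hqR).2]⟩⟩)
  refine h1.congr fun n => ?_
  rw [← integral_indicator measurableSet_Iio]
  congr 1
  ext v
  by_cases hv : v < sInf (sec L0.1 t)
  · rw [indicator_of_mem (show v ∈ Iio (sInf (sec L0.1 t)) from hv)]
    by_cases hvE : (⟨t, v⟩ : ℂ) ∈ E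
    · rw [indicator_of_notMem (show (⟨t, v⟩ : ℂ) ∉ botS E L0.1 from fun h => h.1 hvE),
        (gy_zero_near (hχ.lce n).lc hvE).self_of_nhds]
      ring
    · rw [indicator_of_mem (show (⟨t, v⟩ : ℂ) ∈ botS E L0.1 from
        ⟨hvE, ht, (below_iff hL hne).2 hv⟩)]
  · rw [indicator_of_notMem (show v ∉ Iio (sInf (sec L0.1 t)) from hv),
      indicator_of_notMem (show (⟨t, v⟩ : ℂ) ∉ botS E L0.1 from fun h =>
        hv ((below_iff hL hne).1 h.2.2))]

theorem aesm_tp (hE : IsCompact E) (L0 : Cmp E) (hw : ContinuousOn w Eᶜ) (hb : Bd E w)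
    (hv : BVL E w) :
    AEStronglyMeasurable (tp E L0.1 w) (volume.restrict (Icc (lo L0.1) (hi L0.1))) := by
  obtain ⟨χ, hχ⟩ := exists_cut_seq hE L0
  have hL := L0.isCompact hE
  have h1 : ∀ n, Integrable ((topS E L0.1).indicator fun z => w z * gy (χ n) z) := fun n =>
    ((continuous_mulgy hE.isClosed (hχ.lce n) hw).integrable_of_hasCompactSupport
      ((compact_gy' (hχ.lce n).supp).mul_left (f := w))).indicator (meas_topS hE.isClosed hL)
  have h2 : AEStronglyMeasurable (fun t => -tp E L0.1 w t)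
      (volume.restrict (Icc (lo L0.1) (hi L0.1))) := by
    refine aestronglyMeasurable_of_tendsto_ae atTop
      (fun n => ((fub (h1 n)).2.1.aestronglyMeasurable).restrict) ?_
    rw [ae_restrict_iff' measurableSet_Icc]
    exact pt_top hE L0 hb hv hχ
  exact h2.neg.congr (Eventually.of_forall fun t => by simp)

theorem aesm_bt (hE : IsCompact E) (L0 : Cmp E) (hw : ContinuousOn w Eᶜ) (hb : Bd E w)
    (hv : BVL E w) :
    AEStronglyMeasurable (bt E L0.1 w) (volume.restrict (Icc (lo L0.1) (hi L0.1))) := by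
  obtain ⟨χ, hχ⟩ := exists_cut_seq hE L0
  have hL := L0.isCompact hE
  have h1 : ∀ n, Integrable ((botS E L0.1).indicator fun z => w z * gy (χ n) z) := fun n =>
    ((continuous_mulgy hE.isClosed (hχ.lce n) hw).integrable_of_hasCompactSupport
      ((compact_gy' (hχ.lce n).supp).mul_left (f := w))).indicator (meas_botS hE.isClosed hL)
  refine aestronglyMeasurable_of_tendsto_ae atTop
    (fun n => ((fub (h1 n)).2.1.aestronglyMeasurable).restrict) ?_
  rw [ae_restrict_iff' measurableSet_Icc]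
  exact pt_bot hE L0 hb hv hχ

theorem integrableOn_tp (hE : IsCompact E) (L0 : Cmp E) (hw : ContinuousOn w Eᶜ) (hb : Bd E w)
    (hv : BVL E w) : IntegrableOn (tp E L0.1 w) (Icc (lo L0.1) (hi L0.1)) := by
  obtain ⟨B, -, hB⟩ := ae_bound hE L0 hb hv
  refine Integrable.mono' (g := fun _ => B) continuous_const.integrableOn_Icc
    (aesm_tp hE L0 hw hb hv) ?_
  rw [ae_restrict_iff' measurableSet_Icc]
  filter_upwards [hB] with t h ht using (h ht).1

theorem integrableOn_bt (hE : IsCompact E) (L0 : Cmp E) (hw : ContinuousOn w Eᶜ) (hb : Bd E w)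
    (hv : BVL E w) : IntegrableOn (bt E L0.1 w) (Icc (lo L0.1) (hi L0.1)) := by
  obtain ⟨B, -, hB⟩ := ae_bound hE L0 hb hv
  refine Integrable.mono' (g := fun _ => B) continuous_const.integrableOn_Icc
    (aesm_bt hE L0 hw hb hv) ?_
  rw [ae_restrict_iff' measurableSet_Icc]
  filter_upwards [hB] with t h ht using (h ht).2

end

end Crest.Agent.R105.Lin_642
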