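import Crest.Agent.R105.Lin4_642
import Crest.Agent.R105.Fml2_61
import Crest.Agent.R105.E13_499

/-!
# R105 (S0138, NI frame), E13: LINE LEMMA, part 5: in the letters of `E13_499` (helper642)

* `cut_of_chn` : 61's `ChnE` is `Cut`
* `nebot`, `exists_ends` : the two halves of `ENDS` (for `Bvl_31.BVL`)
* `line_chn` : LINE for the cut-offs `ChnE`
-/

set_option autoImplicit false

open Set Filter MeasureTheory Metric
open scoped Topology NNReal ENNReal

namespace Crest.Agent.R105.Lin_642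

open Tc_808 Bd_775 Sqr_185 Yv_319
open Sct_636 (LCE)
open Bvl_31 (Bd)
open Pct_185 (PicT)
open E13_499 (TopF BotF EndsOf)

noncomputable section

variable {E : Set ℂ} {w : ℂ → ℝ}

theorem cut_of_chn {K : Set ℂ} {χ : ℕ → ℂ → ℝ} (h : Fml_61.ChnE E K χ) : Cut E K χ :=
  ⟨h.lce, h.c01, h.one, h.sh⟩

theorem chn_of_cut {K : Set ℂ} {χ : ℕ → ℂ → ℝ} (h : Cut E K χ) : Fml_61.ChnE E K χ :=
  ⟨h.lce, h.mem, h.one, h.shrink⟩

theorem TopF_eq (hE : IsCompact E) (L : Cmp E) {t : ℝ} (ht : t ∈ Icc (lo L.1) (hi L.1)) :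
    TopF E L.1 t = topF E L.1 t := by
  have hL := L.isCompact hE
  have hne := sec_nonempty hL L.preconn L.nonempty ht
  rw [topF_eq hL hne]
  rfl

theorem BotF_eq (hE : IsCompact E) (L : Cmp E) {t : ℝ} (ht : t ∈ Icc (lo L.1) (hi L.1)) :
    BotF E L.1 t = botF E L.1 t := by
  have hL := L.isCompact hE
  have hne := sec_nonempty hL L.preconn L.nonempty ht
  rw [botF_eq hL hne]
  rfl

/-- the ends are real ends -/
theorem nebot (hE : IsCompact E) (L : Cmp E) {t : ℝ} (ht : t ∈ Icc (lo L.1) (hi L.1)) :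
    (TopF E L.1 t).NeBot ∧ (BotF E L.1 t).NeBot := by
  rw [TopF_eq hE L ht, BotF_eq hE L ht]
  exact ⟨topF_neBot hE L ht, botF_neBot hE L ht⟩

/-- BVL gives end limits -/
theorem endsOf (hE : IsCompact E) (L : Cmp E) (hv : Bvl_31.BVL E w) :
    EndsOf E L w (tp E L.1 w) (bt E L.1 w) := by
  filter_upwards [ends hE hv L] with t h ht
  have ht' := Ioo_subset_Icc_self ht
  rw [TopF_eq hE L ht', BotF_eq hE L ht']
  exact h ht'

theorem exists_ends (hE : IsCompact E) (L : Cmp E) (hv : Bvl_31.BVL E w) :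
    ∃ wT wB : ℝ → ℝ, EndsOf E L w wT wB := ⟨_, _, endsOf hE L hv⟩

/-- end limits are unique -/
theorem ends_unique (hE : IsCompact E) (L : Cmp E) {wT wB wT' wB' : ℝ → ℝ}
    (h : EndsOf E L w wT wB) (h' : EndsOf E L w wT' wB') :
    ∀ᵐ t : ℝ, t ∈ Ioo (lo L.1) (hi L.1) → wT t = wT' t ∧ wB t = wB' t := by
  filter_upwards [h, h'] with t h1 h2 ht
  obtain ⟨n1, n2⟩ := nebot hE L (Ioo_subset_Icc_self ht)
  exact ⟨tendsto_nhds_unique (h1 ht).1 (h2 ht).1, tendsto_nhds_unique (h1 ht).2 (h2 ht).2⟩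

/-- the integrals over `Ioo` and `Icc` -/
theorem ae_Icc {L : Set ℂ} {p : ℝ → Prop} (h : ∀ᵐ t : ℝ, t ∈ Ioo (lo L) (hi L) → p t) :
    ∀ᵐ t : ℝ, t ∈ Icc (lo L) (hi L) → p t := by
  have h1 : ∀ᵐ t : ℝ, t ≠ lo L := by rw [ae_iff]; simp
  have h2 : ∀ᵐ t : ℝ, t ≠ hi L := by rw [ae_iff]; simp
  filter_upwards [h, h1, h2] with t h h1 h2 ht
  exact h ⟨lt_of_le_of_ne ht.1 (Ne.symm h1), lt_of_le_of_ne ht.2 h2⟩

/-- **LINE** for the cut-offs `ChnE` (smooth, locally constant near `E`) -/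
theorem line_chn (hP : PicT E) (L : Cmp E) {χ : ℕ → ℂ → ℝ} {G wT wB : ℝ → ℝ} {C : ℝ}
    (hw : ContinuousOn w Eᶜ) (hb : ∀ R : ℝ, ∃ M : ℝ, ∀ z, z ∉ E → ‖z‖ ≤ R → |w z| ≤ M)
    (hv : Bvl_31.BVL E w) (hG : Measurable G) (hC : ∀ t, |G t| ≤ C)
    (hχ : Fml_61.ChnE E L.1 χ) (he : EndsOf E L w wT wB) :
    Tendsto (fun n => ∫ z in Eᶜ, G z.re * w z * gy (χ n) z) atTop
      (𝓝 (∫ t in Icc (lo L.1) (hi L.1), G t * (wB t - wT t))) := by
  have hE := hP.cpt
  have hle := lo_le_hi (L.isCompact hE) L.nonempty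
  have h1 := line_lemma hE hP.ord L hw hb hv (cut_of_chn hχ) hG hC
  have hmul : ∀ {f : ℝ → ℝ}, IntegrableOn f (Icc (lo L.1) (hi L.1)) →
      IntegrableOn (fun t => G t * f t) (Icc (lo L.1) (hi L.1)) := fun hf =>
    Integrable.bdd_mul (c := C) hf hG.aestronglyMeasurable (Eventually.of_forall hC)
  have e : (∫ t in (lo L.1)..(hi L.1), G t * bt E L.1 w t)
      - ∫ t in (lo L.1)..(hi L.1), G t * tp E L.1 w t
      = ∫ t in Icc (lo L.1) (hi L.1), G t * (wB t - wT t) := by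
    rw [intervalIntegral.integral_of_le hle, intervalIntegral.integral_of_le hle,
      ← integral_Icc_eq_integral_Ioc, ← integral_Icc_eq_integral_Ioc,
      ← integral_sub (hmul (integrableOn_bt hE L hw hb hv)) (hmul (integrableOn_tp hE L hw hb hv))]
    refine setIntegral_congr_ae measurableSet_Icc ?_
    filter_upwards [ae_Icc (ends_unique hE L (endsOf hE L hv) he)] with t ht hm
    obtain ⟨h2, h3⟩ := ht hm
    rw [h2, h3]; ring
  rw [e] at h1
  refine h1.congr fun n => ?_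
  congr 1
  ext z
  ring

/-- `wT`, `wB` are a.e.-measurable and bounded -/
theorem endsOf_integrable (hP : PicT E) (L : Cmp E) {wT wB : ℝ → ℝ}
    (hw : ContinuousOn w Eᶜ) (hb : Bd E w) (hv : Bvl_31.BVL E w) (he : EndsOf E L w wT wB) :
    IntegrableOn wT (Icc (lo L.1) (hi L.1)) ∧ IntegrableOn wB (Icc (lo L.1) (hi L.1)) := by
  have hE := hP.cpt
  have h1 := ae_Icc (ends_unique hE L (endsOf hE L hv) he)
  rw [← ae_restrict_iff' measurableSet_Icc] at h1
  exact ⟨(integrableOn_tp hE L hw hb hv).congr (h1.mono fun t h => h.1),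
    (integrableOn_bt hE L hw hb hv).congr (h1.mono fun t h => h.2)⟩

end

end Crest.Agent.R105.Lin_642
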