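import Crest.Agent.R105.Elf4_600

/-!
# Row 105, S0138, LEMMA Y, leaf (G) of 392 #10557 (helper405): level transform

`GT T s = ∫_0^s 1_T`.
* (G1) `GT_lip : LipschitzWith 1 (GT T)`, `GT_sub : GT T t - GT T s = vol (T ∩ [s,t])`
* (G2) `osc_GT : osc Y (GT T ∘ a) K ≤ vol (T ∩ [lo K, up K])`
* (G3) `lint_levels : ∫⁻_T Σ_K c_K 1_[lo K, up K] = Σ_K c_K vol (T ∩ [lo K, up K])` if `c` has countable
  support (needed: `Cmp Y` is uncountable).
-/

set_option autoImplicit false
set_option linter.unusedSectionVars false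

open MeasureTheory Set Filter Topology Metric
open scoped NNReal ENNReal

namespace Crest.Agent.R105.LmG_405

open Bd_775 Ends_897 Tc_808 Ni_459 Elf_600 Crest.AnalysisR

noncomputable section

/-- level transform -/
def GT (T : Set ℝ) (s : ℝ) : ℝ := ∫ r in (0:ℝ)..s, T.indicator 1 r

section G1
variable {T : Set ℝ}

lemma norm_ind_le (T : Set ℝ) (r : ℝ) : ‖T.indicator (1 : ℝ → ℝ) r‖ ≤ 1 := by
  by_cases h : r ∈ T
  · rw [indicator_of_mem h]; simp
  · rw [indicator_of_notMem h]; simp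

lemma int_ind (hT : MeasurableSet T) (s t : ℝ) :
    IntervalIntegrable (T.indicator (1 : ℝ → ℝ)) volume s t := by
  refine IntervalIntegrable.mono_fun' (g := fun _ => (1:ℝ)) intervalIntegrable_const
    ((measurable_one.indicator hT).aestronglyMeasurable) ?_
  exact Eventually.of_forall fun r => norm_ind_le T r

lemma GT_sub' (hT : MeasurableSet T) (s t : ℝ) :
    GT T t - GT T s = ∫ r in s..t, T.indicator 1 r :=
  intervalIntegral.integral_interval_sub_left (int_ind hT _ _) (int_ind hT _ _)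

/-- (G1) -/
theorem GT_lip (hT : MeasurableSet T) : LipschitzWith 1 (GT T) := by
  refine LipschitzWith.of_dist_le_mul fun s t => ?_
  rw [Real.dist_eq, Real.dist_eq, GT_sub' hT]
  have := intervalIntegral.norm_integral_le_of_norm_le_const (a := t) (b := s)
    (f := T.indicator (1 : ℝ → ℝ)) (C := 1) fun r _ => norm_ind_le T r
  simpa using this

/-- increments of `GT` are volumes -/
theorem GT_sub (hT : MeasurableSet T) {s t : ℝ} (h : s ≤ t) :
    GT T t - GT T s = (volume (T ∩ Icc s t)).toReal := by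
  rw [GT_sub' hT, intervalIntegral.integral_of_le h, integral_indicator_one hT,
    measureReal_restrict_apply hT]
  unfold Measure.real
  congr 1
  refine measure_congr ?_
  exact (Filter.EventuallyEq.refl _ _).inter Ioc_ae_eq_Icc

lemma GT_mono (hT : MeasurableSet T) : Monotone (GT T) := by
  intro s t h
  have := GT_sub hT h
  have h2 : (0:ℝ) ≤ (volume (T ∩ Icc s t)).toReal := ENNReal.toReal_nonneg
  linarith

lemma vol_ne_top (T : Set ℝ) (s t : ℝ) : volume (T ∩ Icc s t) ≠ ∞ :=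
  ne_top_of_le_ne_top (by simp) (measure_mono (inter_subset_right (s := T) (t := Icc s t)))

lemma GT_abs_le (hT : MeasurableSet T) {l u s t ε : ℝ} (hlu : l ≤ u) (hs : l - ε ≤ s)
    (hs' : s ≤ u + ε) (ht : l - ε ≤ t) (ht' : t ≤ u + ε) (hε : 0 ≤ ε) :
    |GT T s - GT T t| ≤ (volume (T ∩ Icc l u)).toReal + 2 * ε := by
  have h1 : GT T (l - ε) ≤ GT T s := GT_mono hT hs
  have h2 : GT T s ≤ GT T (u + ε) := GT_mono hT hs'
  have h3 : GT T (l - ε) ≤ GT T t := GT_mono hT ht
  have h4 : GT T t ≤ GT T (u + ε) := GT_mono hT ht'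
  have h5 := GT_sub hT hlu
  have h6 : GT T l - GT T (l - ε) ≤ ε := by
    have := (GT_lip hT).dist_le_mul l (l - ε)
    rw [Real.dist_eq, Real.dist_eq] at this
    have h7 := le_abs_self (GT T l - GT T (l - ε))
    have h8 : |l - (l - ε)| = ε := by rw [sub_sub_cancel, abs_of_nonneg hε]
    rw [h8] at this
    simpa using h7.trans this
  have h7 : GT T (u + ε) - GT T u ≤ ε := by
    have := (GT_lip hT).dist_le_mul (u + ε) u
    rw [Real.dist_eq, Real.dist_eq] at this
    have h7 := le_abs_self (GT T (u + ε) - GT T u)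
    have h8 : |u + ε - u| = ε := by rw [add_sub_cancel_left, abs_of_nonneg hε]
    rw [h8] at this
    simpa using h7.trans this
  rw [abs_le]; constructor <;> linarith

end G1

section G2
variable {Y : Set ℂ} {a : ℂ → ℝ} {T : Set ℝ}

/-- (G2) -/
theorem osc_GT (hY : IsExteriorDomain Yᶜ) (ha : LB a) (hT : MeasurableSet T) (K : Cmp Y) :
    osc Y (fun z => GT T (a z)) K.1 ≤
      (volume (T ∩ Icc (lo Y a (pt K)) (up Y a (pt K)))).toReal := by
  refine osc_le_of_forall ENNReal.toReal_nonneg fun ε hε => ?_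
  have h1 := lo_le_up hY ha (pt K)
  obtain ⟨O, hO, hO1⟩ := exists_lt_of_up_lt hY ha
    (show up Y a (pt K) < up Y a (pt K) + ε / 2 by linarith)
  obtain ⟨P, hP, hP1⟩ := exists_gt_of_lt_lo hY ha
    (show lo Y a (pt K) - ε / 2 < lo Y a (pt K) by linarith)
  refine ⟨O ∩ P, hO.op.inter hP.op, ?_, fun z hz hzY w hw hwY => ?_⟩
  · rw [← cc_pt K]; exact subset_inter hO.sub hP.sub
  · have := GT_abs_le hT h1 (hP1 z hz.2 hzY).le (hO1 z hz.1 hzY).le (hP1 w hw.2 hwY).le
      (hO1 w hw.1 hwY).le (by positivity)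
    linarith

/-- the same for a component given by a point -/
theorem osc_GT_cc (hY : IsExteriorDomain Yᶜ) (ha : LB a) (hT : MeasurableSet T) {z : ℂ} (hz : z ∈ Y) :
    osc Y (fun z => GT T (a z)) (connectedComponentIn Y z) ≤
      (volume (T ∩ Icc (lo Y a z) (up Y a z))).toReal := by
  have h := osc_GT hY ha hT (Cmp.of hz)
  have e1 : lo Y a (pt (Cmp.of hz)) = lo Y a z := lo_congr_cc hz (pt_mem (Cmp.of hz))
  have e2 : up Y a (pt (Cmp.of hz)) = up Y a z := up_congr_cc hz (pt_mem (Cmp.of hz))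
  rw [e1, e2] at h
  exact h

end G2

section G3
variable {κ : Type*}

/-- (G3), abstract: any index type, countable support -/
theorem lint_levels_abs (c : κ → ℝ≥0∞) (hc : {k | c k ≠ 0}.Countable) (l u : κ → ℝ)
    (T : Set ℝ) :
    ∫⁻ t in T, ∑' k, c k * (Icc (l k) (u k)).indicator 1 t =
      ∑' k, c k * volume (T ∩ Icc (l k) (u k)) := by
  have h1 : ∀ t : ℝ, ∑' k, c k * (Icc (l k) (u k)).indicator (1 : ℝ → ℝ≥0∞) t =
      ∑' k : {k | c k ≠ 0}, c k * (Icc (l k) (u k)).indicator (1 : ℝ → ℝ≥0∞) t := by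
    intro t
    refine (tsum_subtype_eq_of_support_subset fun k hk => ?_).symm
    intro h0
    exact hk (by simp only [h0, zero_mul])
  have h2 : ∑' k, c k * volume (T ∩ Icc (l k) (u k)) =
      ∑' k : {k | c k ≠ 0}, c k * volume (T ∩ Icc (l k) (u k)) := by
    refine (tsum_subtype_eq_of_support_subset fun k hk => ?_).symm
    intro h0
    exact hk (by simp only [h0, zero_mul])
  have : Countable {k | c k ≠ 0} := hc.to_subtype
  rw [h2, lintegral_congr h1, lintegral_tsum]
  · refine tsum_congr fun k => ?_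
    rw [lintegral_const_mul _ (measurable_one.indicator measurableSet_Icc),
      lintegral_indicator_one measurableSet_Icc, Measure.restrict_apply measurableSet_Icc, inter_comm]
  · exact fun k => ((measurable_one.indicator measurableSet_Icc).const_mul _).aemeasurable

/-- a square summable family has countable support -/
lemma countable_of_sq {s : κ → ℝ} (h : Summable fun k => s k ^ 2) : {k | s k ≠ 0}.Countable := by
  refine h.countable_support.mono fun k hk => ?_
  simpa using hk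

variable {Y : Set ℂ} {a : ℂ → ℝ}

/-- (G3) -/
theorem lint_levels {c : Cmp Y → ℝ} (hc : {K | c K ≠ 0}.Countable) (a : ℂ → ℝ) (T : Set ℝ) :
    ∫⁻ t in T, ∑' K : Cmp Y, ENNReal.ofReal (c K) *
        (Icc (lo Y a (pt K)) (up Y a (pt K))).indicator 1 t =
      ∑' K : Cmp Y, ENNReal.ofReal (c K) * volume (T ∩ Icc (lo Y a (pt K)) (up Y a (pt K))) := by
  refine lint_levels_abs _ (hc.mono fun K hK => ?_) _ _ T
  rintro h0
  exact hK (by rw [h0, ENNReal.ofReal_zero])

/-- the set of the components at the level `t`, as an indicator -/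
lemma ind_eq {t : ℝ} (K : Cmp Y) :
    (Icc (lo Y a (pt K)) (up Y a (pt K))).indicator (1 : ℝ → ℝ≥0∞) t =
      {K : Cmp Y | K.1 ⊆ Lv Y a t}.indicator (fun _ => 1) K := by
  have h : t ∈ Icc (lo Y a (pt K)) (up Y a (pt K)) ↔ K.1 ⊆ Lv Y a t := by
    constructor
    · intro h z hz
      have e1 := loK_eq (u := a) K hz
      have e2 := upK_eq (u := a) K hz
      exact ⟨by rw [e1]; exact h.1, by rw [e2]; exact h.2⟩
    · intro h; exact h (pt_mem K)
  by_cases ht : t ∈ Icc (lo Y a (pt K)) (up Y a (pt K))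
  · rw [indicator_of_mem ht, indicator_of_mem (show K ∈ {K : Cmp Y | K.1 ⊆ Lv Y a t} from h.1 ht)]
    rfl
  · rw [indicator_of_notMem ht,
      indicator_of_notMem (show K ∉ {K : Cmp Y | K.1 ⊆ Lv Y a t} from fun h' => ht (h.2 h'))]

/-- (G3), with the components contained in the level set -/
theorem lint_levels_Lv {c : Cmp Y → ℝ} (hc : {K | c K ≠ 0}.Countable) (a : ℂ → ℝ) (T : Set ℝ) :
    ∫⁻ t in T, ∑' K : {K : Cmp Y // K.1 ⊆ Lv Y a t}, ENNReal.ofReal (c K.1) =
      ∑' K : Cmp Y, ENNReal.ofReal (c K) * volume (T ∩ Icc (lo Y a (pt K)) (up Y a (pt K))) := by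
  rw [← lint_levels hc a T]
  refine lintegral_congr fun t => ?_
  have h1 := tsum_subtype {K : Cmp Y | K.1 ⊆ Lv Y a t} (fun K => ENNReal.ofReal (c K))
  refine h1.trans (tsum_congr fun K => ?_)
  rw [ind_eq]
  by_cases hK : K ∈ {K : Cmp Y | K.1 ⊆ Lv Y a t}
  · rw [indicator_of_mem hK, indicator_of_mem hK, mul_one]
  · rw [indicator_of_notMem hK, indicator_of_notMem hK, mul_zero]

/-- finite on bounded sets of levels: `Σ c_K osc_K a < ∞` -/
theorem lint_levels_lt_top (hY : IsExteriorDomain Yᶜ) (ha : LB a) {c : Cmp Y → ℝ}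
    (h0 : ∀ K, 0 ≤ c K) (hs : Summable fun K => c K * (up Y a (pt K) - lo Y a (pt K))) (T : Set ℝ) :
    ∑' K : Cmp Y, ENNReal.ofReal (c K) * volume (T ∩ Icc (lo Y a (pt K)) (up Y a (pt K))) < ∞ := by
  have h1 : ∀ K : Cmp Y, ENNReal.ofReal (c K) * volume (T ∩ Icc (lo Y a (pt K)) (up Y a (pt K))) ≤
      ENNReal.ofReal (c K * (up Y a (pt K) - lo Y a (pt K))) := by
    intro K
    rw [ENNReal.ofReal_mul (h0 K)]
    refine mul_le_mul_right ?_ _
    refine (measure_mono inter_subset_right).trans ?_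
    rw [Real.volume_Icc]
  refine (ENNReal.tsum_le_tsum h1).trans_lt ?_
  rw [← ENNReal.ofReal_tsum_of_nonneg (fun K => mul_nonneg (h0 K)
    (sub_nonneg.2 (lo_le_up hY ha (pt K)))) hs]
  exact ENNReal.ofReal_lt_top

end G3

section Osc
variable {Y : Set ℂ} {a b : ℂ → ℝ}

lemma up_le_of_eq (hY : IsExteriorDomain Yᶜ) (ha : LB a) (hb : LB b) {z : ℂ} {O : Set ℂ}
    (hO : Nb Y z O) (h : ∀ w ∈ O, w ∉ Y → a w = b w) : up Y a z ≤ up Y b z := by
  refine le_of_forall_gt_imp_ge_of_dense fun c hc => ?_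
  obtain ⟨P, hP, h1⟩ := exists_lt_of_up_lt hY hb hc
  exact up_le hY ha (hO.inter hP) fun w hw hwY => by rw [h w hw.1 hwY]; exact (h1 w hw.2 hwY).le

lemma up_eq_of_eq (hY : IsExteriorDomain Yᶜ) (ha : LB a) (hb : LB b) {z : ℂ} {O : Set ℂ}
    (hO : Nb Y z O) (h : ∀ w ∈ O, w ∉ Y → a w = b w) : up Y a z = up Y b z :=
  le_antisymm (up_le_of_eq hY ha hb hO h)
    (up_le_of_eq hY hb ha hO fun w hw hwY => (h w hw hwY).symm)

lemma lo_eq_of_eq (hY : IsExteriorDomain Yᶜ) (ha : LB a) (hb : LB b) {z : ℂ} {O : Set ℂ}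
    (hO : Nb Y z O) (h : ∀ w ∈ O, w ∉ Y → a w = b w) : lo Y a z = lo Y b z := by
  unfold lo
  rw [up_eq_of_eq hY ha.neg hb.neg hO fun w hw hwY => by rw [h w hw hwY]]

/-- `osc = up - lo` for functions bounded on bounded sets -/
theorem osc_eq_LB (hY : IsExteriorDomain Yᶜ) (ha : LB a) (K : Cmp Y) :
    osc Y a K.1 = up Y a (pt K) - lo Y a (pt K) := by
  obtain ⟨R, hR⟩ := exists_nb_ball (cpt_of hY) (pt K)
  obtain ⟨M, hM⟩ := ha R
  have hM0 : 0 ≤ M ∨ M < 0 := le_or_gt 0 M
  set b : ℂ → ℝ := fun z => max (min (a z) M) (-M) with hb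
  have hbb : ∃ M', ∀ z, |b z| ≤ M' := by
    refine ⟨|M|, fun z => ?_⟩
    rw [abs_le]
    constructor
    · exact (neg_le_neg (le_abs_self M)).trans (le_max_right _ _)
    · exact max_le ((min_le_right _ _).trans (le_abs_self M)) (neg_le_abs M)
  have hab : ∀ w ∈ ball (0:ℂ) R, w ∉ Y → a w = b w := by
    intro w hw _
    have h1 := abs_le.1 (hM w (mem_ball_zero_iff.1 hw).le)
    rw [hb]
    simp only
    rw [min_eq_left h1.2, max_eq_left h1.1]
  have hbl : LB b := LB.of_bdd hbb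
  rw [osc_congr (K := K.1) hR.op (by rw [← cc_pt K]; exact hR.sub) hab,
    up_eq_of_eq hY ha hbl hR hab, lo_eq_of_eq hY ha hbl hR hab]
  exact Elf_600.osc_eq hY hbb K

/-- (G2), bound by the oscillation of `a` -/
theorem osc_GT_le (hY : IsExteriorDomain Yᶜ) (ha : LB a) {T : Set ℝ} (hT : MeasurableSet T)
    (K : Cmp Y) : osc Y (fun z => GT T (a z)) K.1 ≤ osc Y a K.1 := by
  refine (osc_GT hY ha hT K).trans ?_
  rw [osc_eq_LB hY ha K]
  calc (volume (T ∩ Icc (lo Y a (pt K)) (up Y a (pt K)))).toReal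
      ≤ (volume (Icc (lo Y a (pt K)) (up Y a (pt K)))).toReal :=
        ENNReal.toReal_mono (by simp) (measure_mono inter_subset_right)
    _ = up Y a (pt K) - lo Y a (pt K) := by
        rw [Real.volume_Icc, ENNReal.toReal_ofReal (sub_nonneg.2 (lo_le_up hY ha _))]

/-- (G3), all hypotheses in terms of `osc`: support countable + summable products -/
theorem lint_levels_fin (hY : IsExteriorDomain Yᶜ) (ha : LB a) {c : Cmp Y → ℝ}
    (h0 : ∀ K, 0 ≤ c K) (hc : {K | c K ≠ 0}.Countable)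
    (hs : Summable fun K : Cmp Y => c K * osc Y a K.1) (T : Set ℝ) :
    (∫⁻ t in T, ∑' K : {K : Cmp Y // K.1 ⊆ Lv Y a t}, ENNReal.ofReal (c K.1) =
      ∑' K : Cmp Y, ENNReal.ofReal (c K) * volume (T ∩ Icc (lo Y a (pt K)) (up Y a (pt K)))) ∧
    ∑' K : Cmp Y, ENNReal.ofReal (c K) * volume (T ∩ Icc (lo Y a (pt K)) (up Y a (pt K))) < ∞ :=
  ⟨lint_levels_Lv hc a T, lint_levels_lt_top hY ha h0
    (by refine hs.congr fun K => ?_; rw [osc_eq_LB hY ha K]) T⟩

/-- real form of (G3): the sum over `K` of `c_K vol (T ∩ [lo, up])` in `ℝ` -/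
theorem lint_levels_real (hY : IsExteriorDomain Yᶜ) (ha : LB a) {c : Cmp Y → ℝ}
    (h0 : ∀ K, 0 ≤ c K) (hc : {K | c K ≠ 0}.Countable)
    (hs : Summable fun K : Cmp Y => c K * osc Y a K.1) (T : Set ℝ) :
    ENNReal.ofReal (∑' K : Cmp Y, c K * (volume (T ∩ Icc (lo Y a (pt K)) (up Y a (pt K)))).toReal) =
      ∫⁻ t in T, ∑' K : {K : Cmp Y // K.1 ⊆ Lv Y a t}, ENNReal.ofReal (c K.1) := by
  rw [lint_levels_Lv hc a T, ENNReal.ofReal_tsum_of_nonneg]
  · refine tsum_congr fun K => ?_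
    rw [ENNReal.ofReal_mul (h0 K), ENNReal.ofReal_toReal (vol_ne_top _ _ _)]
  · exact fun K => mul_nonneg (h0 K) ENNReal.toReal_nonneg
  · refine Summable.of_nonneg_of_le (fun K => mul_nonneg (h0 K) ENNReal.toReal_nonneg)
      (fun K => ?_) hs
    refine mul_le_mul_of_nonneg_left ?_ (h0 K)
    rw [osc_eq_LB hY ha K]
    calc (volume (T ∩ Icc (lo Y a (pt K)) (up Y a (pt K)))).toReal
        ≤ (volume (Icc (lo Y a (pt K)) (up Y a (pt K)))).toReal :=
          ENNReal.toReal_mono (by simp) (measure_mono inter_subset_right)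
      _ = up Y a (pt K) - lo Y a (pt K) := by
          rw [Real.volume_Icc, ENNReal.toReal_ofReal (sub_nonneg.2 (lo_le_up hY ha _))]

/-- for a.e. `t` the coefficients of the components at the level `t` are summable -/
theorem ae_summable (hY : IsExteriorDomain Yᶜ) (ha : LB a) {c : Cmp Y → ℝ}
    (h0 : ∀ K, 0 ≤ c K) (hc : {K | c K ≠ 0}.Countable)
    (hs : Summable fun K : Cmp Y => c K * osc Y a K.1) :
    ∀ᵐ t : ℝ, Summable fun K : {K : Cmp Y // K.1 ⊆ Lv Y a t} => c K.1 := by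
  have h := lint_levels_fin hY ha h0 hc hs univ
  rw [← h.1, Measure.restrict_univ] at h
  have hm : AEMeasurable (fun t : ℝ => ∑' K : {K : Cmp Y // K.1 ⊆ Lv Y a t}, ENNReal.ofReal (c K.1))
      volume := by
    have e : (fun t : ℝ => ∑' K : {K : Cmp Y // K.1 ⊆ Lv Y a t}, ENNReal.ofReal (c K.1)) =
        fun t => ∑' K : {K : Cmp Y | c K ≠ 0}, ENNReal.ofReal (c K.1) *
          (Icc (lo Y a (pt K.1)) (up Y a (pt K.1))).indicator (1 : ℝ → ℝ≥0∞) t := by
      funext t
      have h1 := tsum_subtype {K : Cmp Y | K.1 ⊆ Lv Y a t} (fun K => ENNReal.ofReal (c K))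
      refine h1.trans ?_
      have h2 : ∑' K : Cmp Y, ENNReal.ofReal (c K) *
          (Icc (lo Y a (pt K)) (up Y a (pt K))).indicator (1 : ℝ → ℝ≥0∞) t =
          ∑' K : {K : Cmp Y | c K ≠ 0}, ENNReal.ofReal (c K.1) *
          (Icc (lo Y a (pt K.1)) (up Y a (pt K.1))).indicator (1 : ℝ → ℝ≥0∞) t := by
        refine (tsum_subtype_eq_of_support_subset (s := {K : Cmp Y | c K ≠ 0})
          (f := fun K : Cmp Y => ENNReal.ofReal (c K) *
          (Icc (lo Y a (pt K)) (up Y a (pt K))).indicator (1 : ℝ → ℝ≥0∞) t) fun k hk => ?_).symm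
        intro h0
        exact hk (by simp only [h0, ENNReal.ofReal_zero, zero_mul])
      rw [← h2]
      refine tsum_congr fun K => ?_
      rw [ind_eq]
      by_cases hK : K ∈ {K : Cmp Y | K.1 ⊆ Lv Y a t}
      · rw [indicator_of_mem hK, indicator_of_mem hK, mul_one]
      · rw [indicator_of_notMem hK, indicator_of_notMem hK, mul_zero]
    rw [e]
    have : Countable {K : Cmp Y | c K ≠ 0} := hc.to_subtype
    exact AEMeasurable.ennreal_tsum fun K =>
      ((measurable_one.indicator measurableSet_Icc).const_mul _).aemeasurable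
  filter_upwards [ae_lt_top' hm h.2.ne] with t ht
  have h3 := ENNReal.summable_toReal ht.ne
  refine h3.congr fun K => ?_
  exact ENNReal.toReal_ofReal (h0 K.1)

end Osc

end

end Crest.Agent.R105.LmG_405
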