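import Mathlib

/-!
# Row 105, S0138, LEMMA Y (helper405): `C¹` separability

`exists_dense_C1` : every class `P` of compactly supported `C¹` functions on `ℂ` has a countable
subset `D` which is dense in the `C¹` norm, with control of the supports.
`le_of_dense` : a functional which is Lipschitz in the `C¹` norm (constant depending on the support)
and `≤ 0` on `D` is `≤ 0` on `P`.
-/

set_option autoImplicit false

open MeasureTheory Set Filter Topology Metric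
open scoped ENNReal NNReal

namespace Crest.Agent.R105.LmG_405

noncomputable section

/-- `C¹` distance at most `ε` -/
def C1le (g d : ℂ → ℝ) (ε : ℝ) : Prop :=
  ∀ z, |g z - d z| ≤ ε ∧ ‖fderiv ℝ g z - fderiv ℝ d z‖ ≤ ε

lemma C1le.symm {g d : ℂ → ℝ} {ε : ℝ} (h : C1le g d ε) : C1le d g ε := fun z =>
  ⟨by rw [abs_sub_comm]; exact (h z).1, by rw [norm_sub_rev]; exact (h z).2⟩

/-- one ball -/
theorem exists_dense_ball (P : (ℂ → ℝ) → Prop) (hP : ∀ g, P g → ContDiff ℝ 1 g) (R : ℝ) :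
    ∃ D : Set (ℂ → ℝ), D.Countable ∧ (∀ d ∈ D, P d ∧ tsupport d ⊆ closedBall 0 R) ∧
      ∀ g, P g → tsupport g ⊆ closedBall 0 R → ∀ ε > 0, ∃ d ∈ D, C1le g d ε := by
  classical
  set K : Set ℂ := closedBall 0 R with hK
  have : CompactSpace K := isCompact_iff_compactSpace.1 (isCompact_closedBall 0 R)
  have : ProperSpace (ℂ →L[ℝ] ℝ) := FiniteDimensional.proper ℝ _
  have : SecondCountableTopology (ℂ →L[ℝ] ℝ) := inferInstance
  let S : Set (ℂ → ℝ) := {g | P g ∧ tsupport g ⊆ K}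
  let Φ : S → C(K, ℝ × (ℂ →L[ℝ] ℝ)) := fun g =>
    ⟨fun z => (g.1 z, fderiv ℝ g.1 z), by
      have h := hP g.1 g.2.1
      exact (h.continuous.comp continuous_subtype_val).prodMk
        ((h.continuous_fderiv one_ne_zero).comp continuous_subtype_val)⟩
  obtain ⟨E, hEc, hEd⟩ := TopologicalSpace.exists_countable_dense (range Φ)
  -- choose representatives
  have hch : ∀ e : range Φ, ∃ g : S, Φ g = e.1 := fun e => e.2
  choose r hr using hch
  refine ⟨(fun e => (r e).1) '' E, hEc.image _, ?_, ?_⟩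
  · rintro _ ⟨e, -, rfl⟩
    exact (r e).2
  · intro g hg hgs ε hε
    obtain ⟨e, he, hed⟩ := hEd.exists_dist_lt (⟨Φ ⟨g, hg, hgs⟩, mem_range_self _⟩ : range Φ) hε
    refine ⟨(r e).1, mem_image_of_mem _ he, ?_⟩
    have h1 : dist (Φ ⟨g, hg, hgs⟩) (Φ (r e)) < ε := by
      rw [hr e]; exact hed
    have h2 := (ContinuousMap.dist_lt_iff hε).1 h1
    intro z
    by_cases hz : z ∈ K
    · have h3 := h2 ⟨z, hz⟩
      have h4 : max (dist (g z) ((r e).1 z)) (dist (fderiv ℝ g z) (fderiv ℝ (r e).1 z)) < ε := h3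
      constructor
      · rw [← Real.dist_eq]; exact ((le_max_left _ _).trans_lt h4).le
      · rw [← dist_eq_norm]; exact ((le_max_right _ _).trans_lt h4).le
    · have h5 : ∀ f : ℂ → ℝ, tsupport f ⊆ K → f z = 0 ∧ fderiv ℝ f z = 0 := by
        intro f hf
        have h6 : z ∉ tsupport f := fun h => hz (hf h)
        refine ⟨image_eq_zero_of_notMem_tsupport h6, ?_⟩
        have h7 : f =ᶠ[𝓝 z] fun _ => 0 := notMem_tsupport_iff_eventuallyEq.1 h6
        rw [h7.fderiv_eq]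
        simp
      obtain ⟨a1, a2⟩ := h5 g hgs
      obtain ⟨b1, b2⟩ := h5 _ (r e).2.2
      rw [a1, a2, b1, b2]
      simp [hε.le]

/-- **`C¹` separability** of a class of compactly supported functions -/
theorem exists_dense_C1 (P : (ℂ → ℝ) → Prop) (hP : ∀ g, P g → ContDiff ℝ 1 g)
    (hPc : ∀ g, P g → HasCompactSupport g) :
    ∃ D : Set (ℂ → ℝ), D.Countable ∧ (∀ d ∈ D, P d) ∧
      ∀ g, P g → ∃ R : ℝ, tsupport g ⊆ closedBall 0 R ∧
        ∀ ε > 0, ∃ d ∈ D, tsupport d ⊆ closedBall 0 R ∧ C1le g d ε := by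
  choose D hDc hDP hD using fun n : ℕ => exists_dense_ball P hP n
  refine ⟨⋃ n, D n, countable_iUnion hDc, ?_, ?_⟩
  · intro d hd
    obtain ⟨n, hn⟩ := mem_iUnion.1 hd
    exact (hDP n d hn).1
  · intro g hg
    obtain ⟨r, hr⟩ := (hPc g hg).isCompact.isBounded.subset_closedBall 0
    obtain ⟨n, hn⟩ := exists_nat_ge r
    have hs : tsupport g ⊆ closedBall 0 (n : ℝ) := hr.trans (closedBall_subset_closedBall hn)
    refine ⟨n, hs, fun ε hε => ?_⟩
    obtain ⟨d, hd, h⟩ := hD n g hg hs ε hε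
    exact ⟨d, mem_iUnion.2 ⟨n, hd⟩, (hDP n d hd).2, h⟩

/-- functionals which are continuous in the `C¹` norm on functions with support in a ball -/
def C1cont (P : (ℂ → ℝ) → Prop) (F : (ℂ → ℝ) → ℝ) : Prop :=
  ∀ R : ℝ, ∀ g, P g → tsupport g ⊆ closedBall 0 R → ∀ δ > 0, ∃ ε > 0, ∀ d, P d →
    tsupport d ⊆ closedBall 0 R → C1le g d ε → |F g - F d| ≤ δ

lemma C1cont.sub {P : (ℂ → ℝ) → Prop} {F G : (ℂ → ℝ) → ℝ} (hF : C1cont P F) (hG : C1cont P G) :
    C1cont P fun g => F g - G g := by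
  intro R g hg hgs δ hδ
  obtain ⟨ε, hε, h⟩ := hF R g hg hgs (δ / 2) (by positivity)
  obtain ⟨ε', hε', h'⟩ := hG R g hg hgs (δ / 2) (by positivity)
  refine ⟨min ε ε', lt_min hε hε', fun d hd hds hgd => ?_⟩
  have h1 := h d hd hds fun z => ⟨(hgd z).1.trans (min_le_left _ _), (hgd z).2.trans (min_le_left _ _)⟩
  have h2 := h' d hd hds fun z =>
    ⟨(hgd z).1.trans (min_le_right _ _), (hgd z).2.trans (min_le_right _ _)⟩
  rw [abs_le] at h1 h2 ⊢
  constructor <;> linarith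

lemma C1cont.abs {P : (ℂ → ℝ) → Prop} {F : (ℂ → ℝ) → ℝ} (hF : C1cont P F) :
    C1cont P fun g => |F g| := by
  intro R g hg hgs δ hδ
  obtain ⟨ε, hε, h⟩ := hF R g hg hgs δ hδ
  exact ⟨ε, hε, fun d hd hds hgd => (abs_abs_sub_abs_le _ _).trans (h d hd hds hgd)⟩

lemma C1cont.neg {P : (ℂ → ℝ) → Prop} {F : (ℂ → ℝ) → ℝ} (hF : C1cont P F) :
    C1cont P fun g => - F g := by
  intro R g hg hgs δ hδ
  obtain ⟨ε, hε, h⟩ := hF R g hg hgs δ hδ
  refine ⟨ε, hε, fun d hd hds hgd => ?_⟩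
  rw [← abs_neg, neg_sub, neg_sub_neg] at *
  exact h d hd hds hgd

/-- a linear bound gives continuity -/
lemma C1cont.of_lip {P : (ℂ → ℝ) → Prop} {F : (ℂ → ℝ) → ℝ} (hF : ∀ R : ℝ, ∃ C : ℝ, ∀ g d, P g → P d →
    tsupport g ⊆ closedBall 0 R → tsupport d ⊆ closedBall 0 R → ∀ ε, 0 < ε → C1le g d ε →
      |F g - F d| ≤ C * ε) : C1cont P F := by
  intro R g hg hgs δ hδ
  obtain ⟨C, hC⟩ := hF R
  refine ⟨δ / (|C| + 1), by positivity, fun d hd hds hgd => ?_⟩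
  refine (hC g d hg hd hgs hds _ (by positivity) hgd).trans ?_
  calc C * (δ / (|C| + 1)) ≤ (|C| + 1) * (δ / (|C| + 1)) := by
        refine mul_le_mul_of_nonneg_right ?_ (by positivity)
        linarith [le_abs_self C]
    _ = δ := by field_simp

/-- **passage from the countable dense set to all functions** -/
theorem le_of_dense {P : (ℂ → ℝ) → Prop} {D : Set (ℂ → ℝ)} (hDP : ∀ d ∈ D, P d)
    (hD : ∀ g, P g → ∃ R : ℝ, tsupport g ⊆ closedBall 0 R ∧
        ∀ ε > 0, ∃ d ∈ D, tsupport d ⊆ closedBall 0 R ∧ C1le g d ε)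
    {F : (ℂ → ℝ) → ℝ} (hF : C1cont P F) (h : ∀ d ∈ D, F d ≤ 0) : ∀ g, P g → F g ≤ 0 := by
  intro g hg
  obtain ⟨R, hgs, hd⟩ := hD g hg
  refine le_of_forall_pos_le_add fun δ hδ => ?_
  obtain ⟨ε, hε, h1⟩ := hF R g hg hgs δ hδ
  obtain ⟨d, hdD, hds, hgd⟩ := hd ε hε
  have h2 := (abs_le.1 (h1 d (hDP d hdD) hds hgd)).2
  have h3 := h d hdD
  linarith

theorem eq_of_dense {P : (ℂ → ℝ) → Prop} {D : Set (ℂ → ℝ)} (hDP : ∀ d ∈ D, P d)
    (hD : ∀ g, P g → ∃ R : ℝ, tsupport g ⊆ closedBall 0 R ∧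
        ∀ ε > 0, ∃ d ∈ D, tsupport d ⊆ closedBall 0 R ∧ C1le g d ε)
    {F : (ℂ → ℝ) → ℝ} (hF : C1cont P F) (h : ∀ d ∈ D, F d = 0) : ∀ g, P g → F g = 0 := by
  intro g hg
  refine le_antisymm (le_of_dense hDP hD hF (fun d hd => (h d hd).le) g hg) ?_
  have := le_of_dense hDP hD hF.neg (fun d hd => by rw [h d hd, neg_zero]) g hg
  linarith

/-- **almost everywhere form**: a property for each fixed function a.e. holds a.e. for all functions -/
theorem ae_forall_le {P : (ℂ → ℝ) → Prop} (hP : ∀ g, P g → ContDiff ℝ 1 g)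
    (hPc : ∀ g, P g → HasCompactSupport g) {α : Type*} [MeasurableSpace α] {μ : Measure α}
    {F : α → (ℂ → ℝ) → ℝ} (hF : ∀ᵐ t ∂μ, C1cont P (F t)) (h : ∀ g, P g → ∀ᵐ t ∂μ, F t g ≤ 0) :
    ∀ᵐ t ∂μ, ∀ g, P g → F t g ≤ 0 := by
  obtain ⟨D, hDc, hDP, hD⟩ := exists_dense_C1 P hP hPc
  have h1 : ∀ᵐ t ∂μ, ∀ d ∈ D, F t d ≤ 0 := (ae_ball_iff hDc).2 fun d hd => h d (hDP d hd)
  filter_upwards [hF, h1] with t ht ht1
  exact le_of_dense hDP hD ht ht1

theorem ae_forall_eq {P : (ℂ → ℝ) → Prop} (hP : ∀ g, P g → ContDiff ℝ 1 g)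
    (hPc : ∀ g, P g → HasCompactSupport g) {α : Type*} [MeasurableSpace α] {μ : Measure α}
    {F : α → (ℂ → ℝ) → ℝ} (hF : ∀ᵐ t ∂μ, C1cont P (F t)) (h : ∀ g, P g → ∀ᵐ t ∂μ, F t g = 0) :
    ∀ᵐ t ∂μ, ∀ g, P g → F t g = 0 := by
  obtain ⟨D, hDc, hDP, hD⟩ := exists_dense_C1 P hP hPc
  have h1 : ∀ᵐ t ∂μ, ∀ d ∈ D, F t d = 0 := (ae_ball_iff hDc).2 fun d hd => h d (hDP d hd)
  filter_upwards [hF, h1] with t ht ht1
  exact eq_of_dense hDP hD ht ht1

/-- integrals of `l z g` with `|l z g - l z d| ≤ w z (|g - d| + ‖Dg - Dd‖)` and `w` integrable on balls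
are continuous -/
theorem C1cont_integral {P : (ℂ → ℝ) → Prop} {m : Measure ℂ} {l : ℂ → (ℂ → ℝ) → ℝ} {w : ℂ → ℝ}
    (hw : ∀ R, IntegrableOn w (closedBall 0 R) m) (hw0 : ∀ z, 0 ≤ w z)
    (hl : ∀ g d, P g → P d → ∀ z, |l z g - l z d| ≤ w z * (|g z - d z| + ‖fderiv ℝ g z - fderiv ℝ d z‖))
    (hi : ∀ g, P g → Integrable (fun z => l z g) m) :
    C1cont P fun g => ∫ z, l z g ∂m := by
  refine C1cont.of_lip fun R => ⟨2 * ∫ z in closedBall 0 R, w z ∂m, ?_⟩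
  intro g d hg hd hgs hds ε hε hgd
  rw [← integral_sub (hi g hg) (hi d hd)]
  have h0 : ∀ z, z ∉ closedBall (0:ℂ) R → l z g - l z d = 0 := by
    intro z hz
    have h5 : ∀ f : ℂ → ℝ, tsupport f ⊆ closedBall 0 R → f z = 0 ∧ fderiv ℝ f z = 0 := by
      intro f hf
      have h6 : z ∉ tsupport f := fun h => hz (hf h)
      refine ⟨image_eq_zero_of_notMem_tsupport h6, ?_⟩
      have h7 : f =ᶠ[𝓝 z] fun _ => 0 := notMem_tsupport_iff_eventuallyEq.1 h6
      rw [h7.fderiv_eq]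
      simp
    have h6 := hl g d hg hd z
    rw [(h5 g hgs).1, (h5 g hgs).2, (h5 d hds).1, (h5 d hds).2] at h6
    simp only [sub_self, abs_zero, norm_zero, add_zero, mul_zero] at h6
    exact abs_eq_zero.1 (le_antisymm h6 (abs_nonneg _))
  rw [← setIntegral_eq_integral_of_forall_compl_eq_zero (s := closedBall (0:ℂ) R) h0]
  have h1 : ‖∫ z in closedBall 0 R, (l z g - l z d) ∂m‖ ≤ ∫ z in closedBall 0 R, w z * (2 * ε) ∂m := by
    refine norm_integral_le_of_norm_le ((hw R).mul_const _) (Eventually.of_forall fun z => ?_)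
    refine (hl g d hg hd z).trans ?_
    refine mul_le_mul_of_nonneg_left ?_ (hw0 z)
    linarith [(hgd z).1, (hgd z).2]
  rw [Real.norm_eq_abs] at h1
  refine h1.trans (le_of_eq ?_)
  rw [integral_mul_const]; ring

end

end Crest.Agent.R105.LmG_405
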