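import Mathlib
import Crest.Agent.R105.Coa5_392
import Crest.Agent.R105.Stk1_939
import Crest.Agent.R105.Dir3_508

/-!
# Row 105, S0138, LEMMA Y (338 #10444), slices, part 1 (helper392)

`tau a g` tangential derivative along the levels of `a`, test class `Lc1`, Stokes, chain rule for
`G(a)` with `G' = 1_T`, Bochner form of the coarea formula.
-/

set_option autoImplicit false

open MeasureTheory Set Filter Topology Metric
open scoped ENNReal NNReal ContDiff

namespace Crest.Agent.R105.LmS_392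

open Bd_775 Coa_392

noncomputable section

/-- tangential derivative of `g` along the levels of `a` -/
def tau (a g : ℂ → ℝ) (z : ℂ) : ℝ := wdg a g z / ‖fderiv ℝ a z‖

lemma measurable_tau (a g : ℂ → ℝ) : Measurable (tau a g) :=
  (measurable_wdg a g).div (measurable_fderiv ℝ a).norm

lemma wdg_zero_of {a g : ℂ → ℝ} {z : ℂ} (h : fderiv ℝ a z = 0) : wdg a g z = 0 := by
  simp [wdg, gx, gy, h]

lemma tau_mul (a g : ℂ → ℝ) (z : ℂ) : tau a g z * ‖fderiv ℝ a z‖ = wdg a g z := by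
  unfold tau
  by_cases h : fderiv ℝ a z = 0
  · simp [h, wdg_zero_of h]
  · exact div_mul_cancel₀ _ (norm_ne_zero_iff.2 h)

lemma tau_le (a g : ℂ → ℝ) (z : ℂ) : |tau a g z| ≤ ‖fderiv ℝ g z‖ := by
  unfold tau
  by_cases h : fderiv ℝ a z = 0
  · simp [h]
  · have h1 : 0 < ‖fderiv ℝ a z‖ := norm_pos_iff.2 h
    rw [abs_div, abs_of_pos h1, div_le_iff₀ h1, mul_comm]
    exact wdg_le a g z

lemma enorm_tau_le (a g : ℂ → ℝ) (z : ℂ) : ‖tau a g z‖ₑ ≤ ‖fderiv ℝ g z‖ₑ := by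
  rw [← ofReal_norm, ← ofReal_norm]
  exact ENNReal.ofReal_le_ofReal (by simpa using tau_le a g z)

/-- product rule -/
lemma tau_mul' {a g h : ℂ → ℝ} {z : ℂ} (hg : DifferentiableAt ℝ g z)
    (hh : DifferentiableAt ℝ h z) :
    tau a (fun w => g w * h w) z = g z * tau a h z + h z * tau a g z := by
  unfold tau wdg
  rw [gx_mul hg hh, gy_mul hg hh]; ring

lemma tau_add {a g h : ℂ → ℝ} {z : ℂ} (hg : DifferentiableAt ℝ g z)
    (hh : DifferentiableAt ℝ h z) :
    tau a (fun w => g w + h w) z = tau a g z + tau a h z := by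
  unfold tau wdg
  rw [gx_add hg hh, gy_add hg hh]; ring

lemma tau_sub {a g h : ℂ → ℝ} {z : ℂ} (hg : DifferentiableAt ℝ g z)
    (hh : DifferentiableAt ℝ h z) :
    tau a (fun w => g w - h w) z = tau a g z - tau a h z := by
  unfold tau wdg
  rw [gx_sub hg hh, gy_sub hg hh]; ring

lemma tau_congr {a g h : ℂ → ℝ} {z : ℂ} (hgh : g =ᶠ[𝓝 z] h) : tau a g z = tau a h z := by
  unfold tau
  rw [wdg_eq_of_eventuallyEq (EventuallyEq.refl _ _) hgh]

lemma tau_zero {a g : ℂ → ℝ} {z : ℂ} (h : fderiv ℝ g z = 0) : tau a g z = 0 := by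
  unfold tau wdg gx gy; simp [h]

/-- test functions: `C¹`, locally constant near `Y` -/
structure Lc1 (Y : Set ℂ) (χ : ℂ → ℝ) : Prop where
  sm : ContDiff ℝ 1 χ
  lc : ∀ z ∈ Y, ∀ᶠ w in 𝓝 z, χ w = χ z

lemma Lc1.tsupp {Y : Set ℂ} {χ : ℂ → ℝ} (h : Lc1 Y χ) : tsupport (fderiv ℝ χ) ⊆ Yᶜ := by
  intro z hz hzY
  refine absurd hz (notMem_tsupport_iff_eventuallyEq.2 ?_)
  filter_upwards [(h.lc z hzY).eventually_nhds] with w hw
  have : χ =ᶠ[𝓝 w] fun _ => χ z := hw
  rw [this.fderiv_eq]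
  simp

lemma Lc1.diff {Y : Set ℂ} {χ : ℂ → ℝ} (h : Lc1 Y χ) (z : ℂ) : DifferentiableAt ℝ χ z :=
  (h.sm.differentiable one_ne_zero) z

lemma lip_of_c1 {χ : ℂ → ℝ} (h : ContDiff ℝ 1 χ) (hc : HasCompactSupport χ) :
    ∃ C, LipschitzWith C χ := h.lipschitzWith_of_hasCompactSupport hc one_ne_zero

/-- **Stokes**: `∫_U dF ∧ dχ = 0`, `F` locally Lipschitz on `U`, `dχ` compactly supported in `U` -/
theorem stokes {U : Set ℂ} (hU : IsOpen U) {F χ : ℂ → ℝ} (hF : LocallyLipschitzOn U F)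
    (h1 : ContDiff ℝ 1 χ) (hc : HasCompactSupport χ) (hsub : tsupport (fderiv ℝ χ) ⊆ U) :
    ∫ z in U, wdg F χ z = 0 := by
  obtain ⟨κ, c1, c2, c3, c4, -⟩ := Dir_508.exists_cutoff ((hc.fderiv ℝ).isCompact) hU hsub
  obtain ⟨C, hC⟩ := Dir_508.lipschitz_mul hF c1 c2 c3
  obtain ⟨D, hD⟩ := lip_of_c1 h1 hc
  set f : ℂ → ℝ := fun z => κ z * F z with hf
  have e1 : ∀ z, wdg F χ z = fderiv ℝ f z 1 * fderiv ℝ χ z Complex.I -
      fderiv ℝ f z Complex.I * fderiv ℝ χ z 1 := by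
    intro z
    by_cases hz : z ∈ tsupport (fderiv ℝ χ)
    · have h5 : f =ᶠ[𝓝 z] F := by
        filter_upwards [(eventually_nhdsSet_iff_forall.1 c4) z hz] with w hw
        rw [hf]; simp only [hw, one_mul]
      unfold wdg gx gy
      rw [h5.fderiv_eq]
    · unfold wdg gx gy
      rw [image_eq_zero_of_notMem_tsupport hz]
      simp
  have e2 : ∫ z in U, wdg F χ z = ∫ z, wdg F χ z := by
    refine setIntegral_eq_integral_of_forall_compl_eq_zero fun z hz => ?_
    rw [e1, image_eq_zero_of_notMem_tsupport fun h => hz (hsub h)]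
    simp
  rw [e2]
  simp only [e1]
  exact Stk_939.stokes_cpt hC c2.mul_right hD hc

/-! ### the primitive of `1_T` -/

/-- the primitive of `1_T` -/
def GT (T : Set ℝ) (s : ℝ) : ℝ := ∫ r in (0 : ℝ)..s, T.indicator (1 : ℝ → ℝ) r

lemma intervalIntegrable_ind {T : Set ℝ} (hT : MeasurableSet T) (s t : ℝ) :
    IntervalIntegrable (T.indicator (1 : ℝ → ℝ)) volume s t := by
  refine (intervalIntegrable_const (c := (1 : ℝ))).mono_fun
    ((measurable_one.indicator hT).aestronglyMeasurable) (ae_of_all _ fun r => ?_)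
  by_cases hr : r ∈ T
  · simp [hr]
  · simp [hr]

lemma GT_sub {T : Set ℝ} (hT : MeasurableSet T) (s t : ℝ) :
    GT T t - GT T s = ∫ r in s..t, T.indicator (1 : ℝ → ℝ) r := by
  unfold GT
  rw [intervalIntegral.integral_interval_sub_left (intervalIntegrable_ind hT _ _)
    (intervalIntegrable_ind hT _ _)]

lemma GT_sub_eq {T : Set ℝ} (hT : MeasurableSet T) {s t : ℝ} (hst : s ≤ t) :
    GT T t - GT T s = (volume (T ∩ Ioc s t)).toReal := by
  rw [GT_sub hT, intervalIntegral.integral_of_le hst, integral_indicator_one hT,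
    measureReal_def, Measure.restrict_apply hT]

lemma GT_lip {T : Set ℝ} (hT : MeasurableSet T) : LipschitzWith 1 (GT T) := by
  refine LipschitzWith.of_dist_le_mul fun s t => ?_
  have key : ∀ s t : ℝ, s ≤ t → |GT T t - GT T s| ≤ |t - s| := by
    intro s t hst
    rw [GT_sub_eq hT hst, abs_of_nonneg ENNReal.toReal_nonneg, abs_of_nonneg (sub_nonneg.2 hst)]
    calc (volume (T ∩ Ioc s t)).toReal ≤ (volume (Ioc s t)).toReal :=
          ENNReal.toReal_mono (by simp) (measure_mono inter_subset_right)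
      _ = t - s := by rw [Real.volume_Ioc, ENNReal.toReal_ofReal (sub_nonneg.2 hst)]
  rw [Real.dist_eq, Real.dist_eq]
  simp only [NNReal.coe_one, one_mul]
  rcases le_total s t with h | h
  · rw [abs_sub_comm, abs_sub_comm s t]; exact key s t h
  · exact key t s h

lemma GT_deriv {T : Set ℝ} (hT : MeasurableSet T) :
    ∀ᵐ s : ℝ, HasDerivAt (GT T) (T.indicator (1 : ℝ → ℝ) s) s := by
  have h1 : LocallyIntegrable (T.indicator (1 : ℝ → ℝ)) volume := by
    refine (locallyIntegrable_const (1 : ℝ)).mono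
      ((measurable_one.indicator hT).aestronglyMeasurable) (ae_of_all _ fun r => ?_)
    by_cases hr : r ∈ T
    · simp [hr]
    · simp [hr]
  filter_upwards [LocallyIntegrable.ae_hasDerivAt_integral h1] with s hs
  exact hs 0

/-- chain rule for `G(a)`, `G' = 1_T` -/
theorem chain {U : Set ℂ} (hU : IsOpen U) {a : ℂ → ℝ} (ha : LocallyLipschitzOn U a) {T : Set ℝ}
    (hT : MeasurableSet T) : ∀ᵐ z : ℂ, z ∈ U →
      HasFDerivAt (fun w => GT T (a w)) (T.indicator (1 : ℝ → ℝ) (a z) • fderiv ℝ a z) z := by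
  have h1 := GT_deriv hT
  filter_upwards [Coa_392.ae_diff hU ha, grad_zero hU ha (ae_iff.1 h1)] with z h2 h3 hz
  have hd := (h2 hz).hasFDerivAt
  by_cases h4 : HasDerivAt (GT T) (T.indicator (1 : ℝ → ℝ) (a z)) (a z)
  · exact h4.comp_hasFDerivAt z hd
  · have h5 := h3 hz h4
    rw [h5] at hd ⊢
    rw [smul_zero, hasFDerivAt_iff_isLittleO] at *
    refine Asymptotics.IsBigO.trans_isLittleO (g := fun w => a w - a z - (0 : ℂ →L[ℝ] ℝ) (w - z))
      (Asymptotics.IsBigO.of_bound 1 (Eventually.of_forall fun w => ?_)) hd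
    simp only [zero_apply, sub_zero, one_mul]
    have := (GT_lip hT).dist_le_mul (a w) (a z)
    simpa [dist_eq_norm] using this

/-! ### Bochner form of the coarea formula -/

theorem bochner {U : Set ℂ} (hU : IsOpen U) {a : ℂ → ℝ} (ha : ContinuousOn a U)
    {m : ℝ → Measure ℂ} (h : Disint U a m) {f : ℂ → ℝ} (hf : Measurable f)
    (hint : ∫⁻ z in U, ‖f z‖ₑ * ‖fderiv ℝ a z‖ₑ ≠ ⊤) :
    (∀ᵐ t, Integrable f (m t)) ∧ Integrable (fun t => ∫ z, f z ∂(m t)) ∧
      ∀ T : Set ℝ, MeasurableSet T → ∫ t in T, ∫ z, f z ∂(m t) =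
        ∫ z in U ∩ a ⁻¹' T, f z * ‖fderiv ℝ a z‖ := by
  have hfe : Measurable fun z => ‖f z‖ₑ := hf.enorm
  have hA : ∀ᵐ t, Integrable f (m t) := by
    have h1 := h.coarea _ hfe
    have h2 : ∫⁻ t, ∫⁻ z, ‖f z‖ₑ ∂(m t) ≠ ⊤ := by rw [h1]; exact hint
    filter_upwards [ae_lt_top (h.measf _ hfe) h2] with t ht
    exact ⟨hf.aestronglyMeasurable, ht⟩
  -- positive and negative parts
  set P : (ℂ → ℝ) → ℝ → ℝ≥0∞ := fun g t => ∫⁻ z, ENNReal.ofReal (g z) ∂(m t) with hP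
  have hPm : ∀ g : ℂ → ℝ, Measurable g → Measurable (P g) := fun g hg =>
    h.measf _ hg.ennreal_ofReal
  have hle : ∀ r : ℝ, ENNReal.ofReal r ≤ ‖r‖ₑ := fun r => by
    rw [← ofReal_norm]; exact ENNReal.ofReal_le_ofReal (le_abs_self r)
  have hPint : ∀ g : ℂ → ℝ, Measurable g → (∀ z, ‖g z‖ₑ = ‖f z‖ₑ) → ∀ T : Set ℝ, MeasurableSet T →
      ∫⁻ t in T, P g t = ∫⁻ z in U ∩ a ⁻¹' T, ENNReal.ofReal (g z * ‖fderiv ℝ a z‖) := by
    intro g hg _ T hT
    have h2 := h.coarea_slab hU ha hT MeasurableSet.univ hg.ennreal_ofReal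
    simp only [Measure.restrict_univ, univ_inter] at h2
    rw [hP]; simp only
    rw [h2]
    refine lintegral_congr fun z => ?_
    rw [ENNReal.ofReal_mul' (norm_nonneg _), ofReal_norm]
  have hfin : ∀ g : ℂ → ℝ, Measurable g → (∀ z, ‖g z‖ₑ = ‖f z‖ₑ) → ∀ S ⊆ U,
      ∫⁻ z in S, ENNReal.ofReal (g z * ‖fderiv ℝ a z‖) ≠ ⊤ := by
    intro g hg hgf S hS
    refine ne_top_of_le_ne_top hint ((lintegral_mono_set hS).trans (lintegral_mono fun z => ?_))
    rw [ENNReal.ofReal_mul' (norm_nonneg _), ofReal_norm]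
    gcongr
    rw [← hgf]
    exact hle _
  have hPfin : ∀ g : ℂ → ℝ, Measurable g → (∀ z, ‖g z‖ₑ = ‖f z‖ₑ) → ∫⁻ t, P g t ≠ ⊤ := by
    intro g hg hgf
    have := hPint g hg hgf univ MeasurableSet.univ
    rw [Measure.restrict_univ] at this
    rw [this]
    exact hfin g hg hgf _ inter_subset_left
  have hn : Measurable fun z => - f z := hf.neg
  have hne : ∀ z, ‖(fun z => - f z) z‖ₑ = ‖f z‖ₑ := fun z => enorm_neg (f z)
  have hI1 := integrable_toReal_of_lintegral_ne_top (hPm f hf).aemeasurable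
    (hPfin f hf fun _ => rfl)
  have hI2 := integrable_toReal_of_lintegral_ne_top (hPm _ hn).aemeasurable (hPfin _ hn hne)
  have hEq : (fun t => ∫ z, f z ∂(m t)) =ᵐ[volume]
      fun t => (P f t).toReal - (P (fun z => - f z) t).toReal := by
    filter_upwards [hA] with t ht
    exact integral_eq_lintegral_pos_part_sub_lintegral_neg_part ht
  refine ⟨hA, (hI1.sub hI2).congr hEq.symm, fun T hT => ?_⟩
  rw [integral_congr_ae (ae_restrict_of_ae hEq), integral_sub hI1.integrableOn hI2.integrableOn]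
  have h3 : ∀ g : ℂ → ℝ, Measurable g → (∀ z, ‖g z‖ₑ = ‖f z‖ₑ) →
      ∫ t in T, (P g t).toReal =
        (∫⁻ z in U ∩ a ⁻¹' T, ENNReal.ofReal (g z * ‖fderiv ℝ a z‖)).toReal := by
    intro g hg hgf
    rw [integral_toReal (hPm g hg).aemeasurable.restrict, hPint g hg hgf T hT]
    exact ae_restrict_of_ae (ae_lt_top (hPm g hg) (hPfin g hg hgf))
  rw [h3 f hf fun _ => rfl, h3 _ hn hne]
  have h4 : Integrable (fun z => f z * ‖fderiv ℝ a z‖) (volume.restrict (U ∩ a ⁻¹' T)) := by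
    refine ⟨(hf.mul (measurable_fderiv ℝ a).norm).aestronglyMeasurable, ?_⟩
    have h5 : ∫⁻ z in U ∩ a ⁻¹' T, ‖f z * ‖fderiv ℝ a z‖‖ₑ ≤
        ∫⁻ z in U, ‖f z‖ₑ * ‖fderiv ℝ a z‖ₑ := by
      refine (lintegral_mono_set inter_subset_left).trans (lintegral_mono fun z => ?_)
      rw [enorm_mul, enorm_norm]
    exact lt_of_le_of_lt h5 (lt_top_iff_ne_top.2 hint)
  rw [integral_eq_lintegral_pos_part_sub_lintegral_neg_part h4]
  simp only [neg_mul]

end

end Crest.Agent.R105.LmS_392
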