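import Mathlib
import Crest.Agent.R105.LmS1_392

/-!
# Row 105, S0138, LEMMA Y (338 #10444), slices, part 2 (helper392): one test function
-/

set_option autoImplicit false

open MeasureTheory Set Filter Topology Metric
open scoped ENNReal NNReal ContDiff

namespace Crest.Agent.R105.LmS_392

open Bd_775 Coa_392

noncomputable section

variable {U : Set ℂ} {a y g χ : ℂ → ℝ} {m : ℝ → Measure ℂ}

lemma bound_fderiv (hU : IsOpen U) (ha : LocallyLipschitzOn U a) {K : Set ℂ} (hK : IsCompact K)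
    (hKU : K ⊆ U) : ∃ C : ℝ, 0 ≤ C ∧ ∀ z ∈ K, ‖fderiv ℝ a z‖ ≤ C := by
  obtain ⟨κ, c1, c2, c3, c4, -⟩ := Dir_508.exists_cutoff hK hU hKU
  obtain ⟨C, hC⟩ := Dir_508.lipschitz_mul ha c1 c2 c3
  refine ⟨C, C.2, fun z hz => ?_⟩
  have h5 : (fun w => κ w * a w) =ᶠ[𝓝 z] a := by
    filter_upwards [(eventually_nhdsSet_iff_forall.1 c4) z hz] with w hw
    simp only [hw, one_mul]
  rw [← h5.fderiv_eq]
  exact norm_fderiv_le_of_lipschitz ℝ hC

/-- `|du ∧ dχ|` is integrable if `dχ` is compactly supported in `U` -/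
lemma lint_wdg (hU : IsOpen U) (ha : LocallyLipschitzOn U a) (h1 : ContDiff ℝ 1 χ)
    (hc : HasCompactSupport χ) (hsub : tsupport (fderiv ℝ χ) ⊆ U) :
    ∫⁻ z in U, ‖wdg a χ z‖ₑ ≠ ⊤ := by
  obtain ⟨D, hD⟩ := lip_of_c1 h1 hc
  have hK := (hc.fderiv ℝ).isCompact
  obtain ⟨C, hC0, hC⟩ := bound_fderiv hU ha hK hsub
  have h2 : ∫⁻ z in U, ‖wdg a χ z‖ₑ ≤
      ∫⁻ z, (tsupport (fderiv ℝ χ)).indicator (fun _ => ENNReal.ofReal (C * D)) z := by
    refine (setLIntegral_le_lintegral U _).trans (lintegral_mono fun z => ?_)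
    by_cases hz : z ∈ tsupport (fderiv ℝ χ)
    · rw [indicator_of_mem hz, ← ofReal_norm]
      refine ENNReal.ofReal_le_ofReal ?_
      rw [Real.norm_eq_abs]
      exact (wdg_le a χ z).trans (mul_le_mul (hC z hz) (norm_fderiv_le_of_lipschitz ℝ hD)
        (norm_nonneg _) hC0)
    · rw [indicator_of_notMem hz]
      have : wdg a χ z = 0 := by
        unfold wdg gx gy
        rw [image_eq_zero_of_notMem_tsupport hz]; simp
      rw [this]; simp
  refine ne_top_of_le_ne_top ?_ h2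
  rw [lintegral_indicator hK.measurableSet, setLIntegral_const]
  exact ENNReal.mul_ne_top ENNReal.ofReal_ne_top hK.measure_lt_top.ne

lemma enorm_tau_mul (a g : ℂ → ℝ) (z : ℂ) :
    ‖tau a g z‖ₑ * ‖fderiv ℝ a z‖ₑ = ‖wdg a g z‖ₑ := by
  rw [← tau_mul a g z, enorm_mul, enorm_norm]

lemma int_cut (hU : IsOpen U) (ha : ContinuousOn a U) {T : Set ℝ} (hT : MeasurableSet T)
    (F : ℂ → ℝ) :
    ∫ z in U ∩ a ⁻¹' T, F z = ∫ z in U, T.indicator (1 : ℝ → ℝ) (a z) * F z := by
  classical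
  set B : Set ℂ := (U.indicator a) ⁻¹' T with hB
  have hBm : MeasurableSet B := measurable_indicator hU ha hT
  have h1 : U ∩ a ⁻¹' T = U ∩ B := by
    ext z
    simp only [mem_inter_iff, mem_preimage, hB, and_congr_right_iff]
    intro hz
    rw [indicator_of_mem hz]
  rw [h1, ← setIntegral_indicator hBm]
  refine setIntegral_congr_fun hU.measurableSet fun z hz => ?_
  by_cases hzT : a z ∈ T
  · have : z ∈ B := by rw [hB, mem_preimage, indicator_of_mem hz]; exact hzT
    simp [this, hzT]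
  · have : z ∉ B := by rw [hB, mem_preimage, indicator_of_mem hz]; exact hzT
    simp [this, hzT]

lemma wdg_smul_left {F : ℂ → ℝ} {z : ℂ} {c : ℝ} (h : HasFDerivAt F (c • fderiv ℝ a z) z)
    (g : ℂ → ℝ) : wdg F g z = c * wdg a g z := by
  unfold wdg gx gy
  rw [h.fderiv]
  simp only [FunLike.coe_smul, Pi.smul_apply, smul_eq_mul]
  ring

/-- the key identity of (S1): `∫_T ∫ τ_g dm_t dt = 0` -/
theorem s1_set (hU : IsOpen U) (ha : LocallyLipschitzOn U a) (h : Disint U a m)
    (h1 : ContDiff ℝ 1 g) (hc : HasCompactSupport g) (hsub : tsupport (fderiv ℝ g) ⊆ U)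
    {T : Set ℝ} (hT : MeasurableSet T) : ∫ t in T, ∫ z, tau a g z ∂(m t) = 0 := by
  have hint : ∫⁻ z in U, ‖tau a g z‖ₑ * ‖fderiv ℝ a z‖ₑ ≠ ⊤ := by
    simp only [enorm_tau_mul]
    exact lint_wdg hU ha h1 hc hsub
  obtain ⟨-, -, h3⟩ := bochner hU ha.continuousOn h (measurable_tau a g) hint
  rw [h3 T hT, int_cut hU ha.continuousOn hT]
  have h4 : LocallyLipschitzOn U fun z => GT T (a z) := Bd_775.ll_comp (GT_lip hT) ha
  rw [← stokes hU h4 h1 hc hsub]
  refine setIntegral_congr_ae hU.measurableSet ?_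
  filter_upwards [chain hU ha hT] with z h5 hz
  rw [tau_mul, wdg_smul_left (h5 hz)]

/-- (S1) for one function -/
theorem s1_one (hU : IsOpen U) (ha : LocallyLipschitzOn U a) (h : Disint U a m)
    (h1 : ContDiff ℝ 1 g) (hc : HasCompactSupport g) (hsub : tsupport (fderiv ℝ g) ⊆ U) :
    ∀ᵐ t, ∫ z, tau a g z ∂(m t) = 0 := by
  have hint : ∫⁻ z in U, ‖tau a g z‖ₑ * ‖fderiv ℝ a z‖ₑ ≠ ⊤ := by
    simp only [enorm_tau_mul]
    exact lint_wdg hU ha h1 hc hsub
  obtain ⟨-, h2, -⟩ := bochner hU ha.continuousOn h (measurable_tau a g) hint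
  exact h2.ae_eq_zero_of_forall_setIntegral_eq_zero fun T hT _ =>
    s1_set hU ha h h1 hc hsub hT

/-- the pointwise identity behind (S3) -/
lemma id3 {T : Set ℝ} {z : ℂ} (hχ : DifferentiableAt ℝ χ z) (hy : DifferentiableAt ℝ y z)
    (ha : HasFDerivAt (fun w => GT T (a w)) (T.indicator (1 : ℝ → ℝ) (a z) • fderiv ℝ a z) z) :
    T.indicator (1 : ℝ → ℝ) (a z) * wdg a (fun w => χ w * y w) z =
      wdg (fun w => χ w * GT T (a w)) y z + wdg (fun w => GT T (a w) * y w) χ z := by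
  set c := T.indicator (1 : ℝ → ℝ) (a z) with hc
  have e1 : gx (fun w => GT T (a w)) z = c * gx a z := by
    unfold gx; rw [ha.fderiv]; simp
  have e2 : gy (fun w => GT T (a w)) z = c * gy a z := by
    unfold gy; rw [ha.fderiv]; simp
  unfold wdg
  rw [gx_mul hχ hy, gy_mul hχ hy, gx_mul hχ ha.differentiableAt, gy_mul hχ ha.differentiableAt,
    gx_mul ha.differentiableAt hy, gy_mul ha.differentiableAt hy, e1, e2]
  ring

/-- local energy bounds give the integrability of `da ∧ d(χ y)` -/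
lemma lint_wdg' (hU : IsOpen U) (ha : LocallyLipschitzOn U a) (hy : LocallyLipschitzOn U y)
    (hae : ∀ R : ℝ, IntegrableOn (en a) (U ∩ ball 0 R))
    (hye : ∀ R : ℝ, IntegrableOn (en y) (U ∩ ball 0 R)) (h1 : ContDiff ℝ 1 χ)
    (hc : HasCompactSupport χ) (hsub : tsupport (fderiv ℝ χ) ⊆ U) :
    ∫⁻ z in U, ‖wdg a (fun w => χ w * y w) z‖ₑ ≠ ⊤ := by
  -- bounds
  obtain ⟨R, hR⟩ := hc.isCompact.isBounded.exists_norm_le
  obtain ⟨M, hM⟩ := hc.isCompact.exists_bound_of_continuousOn h1.continuous.continuousOn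
  have hK := (hc.fderiv ℝ).isCompact
  obtain ⟨N, hN⟩ := hK.exists_bound_of_continuousOn (hy.continuousOn.mono hsub)
  have hχ0 : ∀ z, |χ z| ≤ |M| := fun z => by
    by_cases hz : z ∈ tsupport χ
    · have := hM z hz
      rw [Real.norm_eq_abs] at this
      exact this.trans (le_abs_self M)
    · rw [image_eq_zero_of_notMem_tsupport hz]; simp
  have hS : ∀ z, z ∉ ball (0 : ℂ) (R + 1) → z ∉ tsupport χ := fun z hz hz' => by
    have := hR z hz'
    rw [mem_ball_zero_iff, not_lt] at hz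
    linarith
  set S := U ∩ ball (0 : ℂ) (R + 1) with hSdef
  have hSm : MeasurableSet S := hU.measurableSet.inter measurableSet_ball
  have i1 : IntegrableOn (fun z => |M| * ((en a z + en y z) / 2)) S :=
    (((hae (R + 1)).add (hye (R + 1))).div_const 2).const_mul _
  have h2 := lint_wdg hU ha h1 hc hsub
  have h3 : ∫⁻ z in U, ‖wdg a (fun w => χ w * y w) z‖ₑ ≤
      (∫⁻ z in U, S.indicator (fun z => ‖|M| * ((en a z + en y z) / 2)‖ₑ) z) +
        ∫⁻ z in U, ENNReal.ofReal |N| * ‖wdg a χ z‖ₑ := by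
    rw [← lintegral_add_right _ ((measurable_wdg a χ).enorm.const_mul _)]
    refine lintegral_mono_ae ?_
    filter_upwards [(ae_restrict_iff' hU.measurableSet).2 (Coa_392.ae_diff hU hy),
      ae_restrict_mem hU.measurableSet] with z hz hzU
    have e1 : wdg a (fun w => χ w * y w) z = χ z * wdg a y z + y z * wdg a χ z := by
      unfold wdg
      rw [gx_mul (h1.differentiable one_ne_zero z) hz, gy_mul (h1.differentiable one_ne_zero z) hz]
      ring
    rw [e1]
    refine (enorm_add_le _ _).trans (add_le_add ?_ ?_)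
    · by_cases hzs : z ∈ S
      · rw [indicator_of_mem hzs, ← ofReal_norm, ← ofReal_norm]
        refine ENNReal.ofReal_le_ofReal ?_
        rw [Real.norm_eq_abs, Real.norm_eq_abs, abs_mul, abs_mul, abs_abs]
        have h5 : |wdg a y z| ≤ |(en a z + en y z) / 2| :=
          (abs_wdg_le a y z).trans (le_abs_self _)
        exact mul_le_mul (hχ0 z) h5 (abs_nonneg _) (abs_nonneg _)
      · have : χ z = 0 := image_eq_zero_of_notMem_tsupport
          (hS z fun h => hzs ⟨hzU, h⟩)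
        rw [this]; simp
    · by_cases hzK : z ∈ tsupport (fderiv ℝ χ)
      · rw [enorm_mul]
        gcongr
        rw [← ofReal_norm]
        exact ENNReal.ofReal_le_ofReal ((hN z hzK).trans (le_abs_self N))
      · have : wdg a χ z = 0 := by
          unfold wdg gx gy
          rw [image_eq_zero_of_notMem_tsupport hzK]; simp
        rw [this]; simp
  refine ne_top_of_le_ne_top (ENNReal.add_ne_top.2 ⟨?_, ?_⟩) h3
  · refine ne_top_of_le_ne_top ?_ (setLIntegral_le_lintegral U _)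
    rw [lintegral_indicator hSm]
    exact i1.2.ne
  · rw [lintegral_const_mul _ (measurable_wdg a χ).enorm]
    exact ENNReal.mul_ne_top ENNReal.ofReal_ne_top h2

lemma ll_mul' {O : Set ℂ} {u v : ℂ → ℝ} (hu : LocallyLipschitzOn O u)
    (hv : LocallyLipschitzOn O v) : LocallyLipschitzOn O fun z => u z * v z := by
  intro z hz
  obtain ⟨K, s, hs, h1⟩ := hu hz
  obtain ⟨L, t, ht, h2⟩ := hv hz
  have c1 : ∀ᶠ w in 𝓝[O] z, |u w| < |u z| + 1 :=
    (hu.continuousOn z hz).abs.eventually (gt_mem_nhds (by linarith))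
  have c2 : ∀ᶠ w in 𝓝[O] z, |v w| < |v z| + 1 :=
    (hv.continuousOn z hz).abs.eventually (gt_mem_nhds (by linarith))
  set A : ℝ := |u z| + 1 with hA
  set B : ℝ := |v z| + 1 with hB
  have hA0 : 0 ≤ A := by positivity
  have hB0 : 0 ≤ B := by positivity
  refine ⟨Real.toNNReal (A * L + B * K), (s ∩ t) ∩ {w | |u w| < A ∧ |v w| < B},
    inter_mem (inter_mem hs ht) (c1.and c2), LipschitzOnWith.of_dist_le_mul fun p hp q hq => ?_⟩
  have h3 := h1.dist_le_mul p hp.1.1 q hq.1.1
  have h4 := h2.dist_le_mul p hp.1.2 q hq.1.2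
  rw [Real.dist_eq] at *
  have e : u p * v p - u q * v q = u p * (v p - v q) + v q * (u p - u q) := by ring
  rw [e, Real.coe_toNNReal _ (by positivity)]
  refine (abs_add_le _ _).trans ?_
  rw [abs_mul, abs_mul]
  have h5 : |u p| * |v p - v q| ≤ A * (L * dist p q) :=
    mul_le_mul hp.2.1.le h4 (abs_nonneg _) hA0
  have h6 : |v q| * |u p - u q| ≤ B * (K * dist p q) :=
    mul_le_mul hq.2.2.le h3 (abs_nonneg _) hB0
  linarith

/-- the key identity of (S3): `∫_T ∫ τ_(χ y) dm_t dt = ∫ d(χ G(a)) ∧ dy` -/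
theorem s3_set (hU : IsOpen U) (ha : LocallyLipschitzOn U a) (hy : LocallyLipschitzOn U y)
    (hae : ∀ R : ℝ, IntegrableOn (en a) (U ∩ ball 0 R))
    (hye : ∀ R : ℝ, IntegrableOn (en y) (U ∩ ball 0 R)) (h : Disint U a m)
    (h1 : ContDiff ℝ 1 χ) (hc : HasCompactSupport χ) (hsub : tsupport (fderiv ℝ χ) ⊆ U) :
    (∀ᵐ t, Integrable (tau a fun w => χ w * y w) (m t)) ∧
    Integrable (fun t => ∫ z, tau a (fun w => χ w * y w) z ∂(m t)) ∧
    ∀ T : Set ℝ, MeasurableSet T → ∫ t in T, ∫ z, tau a (fun w => χ w * y w) z ∂(m t) =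
      ∫ z in U, wdg (fun w => χ w * GT T (a w)) y z := by
  have h2 := lint_wdg' hU ha hy hae hye h1 hc hsub
  have hint : ∫⁻ z in U, ‖tau a (fun w => χ w * y w) z‖ₑ * ‖fderiv ℝ a z‖ₑ ≠ ⊤ := by
    simp only [enorm_tau_mul]
    exact h2
  obtain ⟨k1, k2, k3⟩ := bochner hU ha.continuousOn h (measurable_tau a _) hint
  refine ⟨k1, k2, fun T hT => ?_⟩
  rw [k3 T hT, int_cut hU ha.continuousOn hT]
  have h4 : LocallyLipschitzOn U fun z => GT T (a z) * y z :=
    ll_mul' (Bd_775.ll_comp (GT_lip hT) ha) hy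
  have h5 := stokes hU h4 h1 hc hsub
  have h6 : ∀ᵐ z ∂(volume.restrict U), T.indicator (1 : ℝ → ℝ) (a z) *
      (tau a (fun w => χ w * y w) z * ‖fderiv ℝ a z‖) =
      wdg (fun w => χ w * GT T (a w)) y z + wdg (fun w => GT T (a w) * y w) χ z := by
    rw [ae_restrict_iff' hU.measurableSet]
    filter_upwards [chain hU ha hT, Coa_392.ae_diff hU hy] with z h7 h8 hz
    rw [tau_mul, id3 (h1.differentiable one_ne_zero z) (h8 hz) (h7 hz)]
  have i1 : IntegrableOn (wdg (fun w => GT T (a w) * y w) χ) U :=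
    ⟨(measurable_wdg _ _).aestronglyMeasurable, lt_top_iff_ne_top.2 (lint_wdg hU h4 h1 hc hsub)⟩
  have i2 : IntegrableOn (fun z => T.indicator (1 : ℝ → ℝ) (a z) *
      (tau a (fun w => χ w * y w) z * ‖fderiv ℝ a z‖)) U := by
    have i3 : IntegrableOn (fun z => wdg a (fun w => χ w * y w) z) U :=
      ⟨(measurable_wdg _ _).aestronglyMeasurable, lt_top_iff_ne_top.2 h2⟩
    refine Integrable.mono i3 ?_ ?_
    · -- measurability
      have hm : AEStronglyMeasurable (fun z => T.indicator (1 : ℝ → ℝ) (U.indicator a z) *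
          (tau a (fun w => χ w * y w) z * ‖fderiv ℝ a z‖)) (volume.restrict U) := by
        refine (Measurable.mul ?_ ((measurable_tau a _).mul
          (measurable_fderiv ℝ a).norm)).aestronglyMeasurable
        exact (measurable_one.indicator hT).comp (measurable_indicator hU ha.continuousOn)
      refine hm.congr ?_
      filter_upwards [ae_restrict_mem hU.measurableSet] with z hz
      rw [indicator_of_mem hz]
    · refine ae_of_all _ fun z => ?_
      rw [tau_mul, norm_mul]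
      refine mul_le_of_le_one_left (norm_nonneg _) ?_
      by_cases hzT : a z ∈ T
      · simp [hzT]
      · simp [hzT]
  have e1 : ∫ z in U, wdg (fun w => χ w * GT T (a w)) y z =
      ∫ z in U, (T.indicator (1 : ℝ → ℝ) (a z) *
      (tau a (fun w => χ w * y w) z * ‖fderiv ℝ a z‖) - wdg (fun w => GT T (a w) * y w) χ z) := by
    refine integral_congr_ae ?_
    filter_upwards [h6] with z hz
    rw [hz]; ring
  rw [e1, integral_sub i2 i1, h5, sub_zero]

end

end Crest.Agent.R105.LmS_392
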