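import Mathlib
import Crest.Agent.R105.LmS2_392
import Crest.Agent.R105.Ni2_459

/-!
# Row 105, S0138, LEMMA Y, slices: (S2) for 392's LmS (helper57)

* `s2_star` : a.e. level of `a` (`= Re` far away) has total variation `1` of the smooth height
* `s2_of` : deterministic transfer to every test function with the end values `1`, `0`
-/

set_option autoImplicit false

open MeasureTheory Set Filter Topology Metric
open scoped ENNReal NNReal ContDiff

namespace Crest.Agent.R105.S2_57

open Bd_775 Coa_392 LmS_392 Crest.AnalysisR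
open Ni_459 (up lo LB Lv)

noncomputable section

/-- the smooth height -/
abbrev st (c : ℝ) (w : ℂ) : ℝ := Real.smoothTransition (w.im - c)

lemma st_smooth (c : ℝ) : ContDiff ℝ 1 (st c) :=
  (Real.smoothTransition.contDiff (n := 1)).comp (Complex.imCLM.contDiff.sub contDiff_const)

lemma dst_eq_zero {x : ℝ} (hx : x ≤ 0 ∨ 1 ≤ x) : deriv Real.smoothTransition x = 0 := by
  rcases hx with hx | hx
  · refine IsLocalMin.deriv_eq_zero (Eventually.of_forall fun y => ?_)
    rw [Real.smoothTransition.zero_of_nonpos hx]; exact Real.smoothTransition.nonneg y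
  · refine IsLocalMax.deriv_eq_zero (Eventually.of_forall fun y => ?_)
    rw [Real.smoothTransition.one_of_one_le hx]; exact Real.smoothTransition.le_one y

lemma dst_nonneg (x : ℝ) : 0 ≤ deriv Real.smoothTransition x :=
  Real.smoothTransition.monotone.deriv_nonneg

lemma dst_cont : Continuous (deriv Real.smoothTransition) :=
  (Real.smoothTransition.contDiff (n := 1)).continuous_deriv le_rfl

/-- `∫ s' = 1` -/
lemma lint_dst (c : ℝ) : ∫⁻ y : ℝ, ENNReal.ofReal (deriv Real.smoothTransition (y - c)) = 1 := by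
  rw [lintegral_sub_right_eq_self (μ := volume)
    (fun y : ℝ => ENNReal.ofReal (deriv Real.smoothTransition y)) c]
  have h1 : ∫⁻ y : ℝ, ENNReal.ofReal (deriv Real.smoothTransition y) =
      ∫⁻ y in Ioc (0 : ℝ) 1, ENNReal.ofReal (deriv Real.smoothTransition y) := by
    rw [← lintegral_indicator measurableSet_Ioc]
    refine lintegral_congr fun y => ?_
    by_cases hy : y ∈ Ioc (0 : ℝ) 1
    · rw [indicator_of_mem hy]
    · rw [indicator_of_notMem hy, dst_eq_zero, ENNReal.ofReal_zero]
      by_cases h : y ≤ 0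
      · exact Or.inl h
      · right
        by_contra hcon
        exact hy ⟨not_le.1 h, (not_le.1 hcon).le⟩
  have h2 : ∫ y in Ioc (0 : ℝ) 1, deriv Real.smoothTransition y = 1 := by
    rw [← intervalIntegral.integral_of_le zero_le_one]
    rw [intervalIntegral.integral_deriv_eq_sub
      (fun x _ => (Real.smoothTransition.contDiff (n := 1)).differentiable one_ne_zero x)
      (dst_cont.intervalIntegrable _ _)]
    rw [Real.smoothTransition.one, Real.smoothTransition.zero, sub_zero]
  rw [h1, ← ofReal_integral_eq_lintegral_ofReal, h2, ENNReal.ofReal_one]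
  · exact (dst_cont.integrableOn_Icc).mono_set Ioc_subset_Icc_self
  · exact ae_of_all _ fun y => dst_nonneg y

lemma st_fderiv (c : ℝ) (z : ℂ) : HasFDerivAt (st c)
    (deriv Real.smoothTransition (z.im - c) • Complex.imCLM) z := by
  have h1 : HasDerivAt Real.smoothTransition (deriv Real.smoothTransition (z.im - c)) (z.im - c) :=
    ((Real.smoothTransition.contDiff (n := 1)).differentiable one_ne_zero _).hasDerivAt
  have h2 : HasFDerivAt (fun w : ℂ => w.im - c) (Complex.imCLM) z :=
    (Complex.imCLM.hasFDerivAt (x := z)).sub_const c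
  exact h1.comp_hasFDerivAt z h2

/-- `τ_a χ* = s'(im - c)` if `a = Re` above `c` -/
lemma tau_st {a : ℂ → ℝ} {R0 : ℝ} (hfar : ∀ z, R0 ≤ ‖z‖ → a z = z.re) (z : ℂ) :
    tau a (st (R0 + 1)) z = deriv Real.smoothTransition (z.im - (R0 + 1)) := by
  by_cases hz : R0 < z.im
  · have hev : a =ᶠ[𝓝 z] fun w => w.re := by
      have : ∀ᶠ w in 𝓝 z, R0 < w.im := Complex.continuous_im.continuousAt.eventually (lt_mem_nhds hz)
      filter_upwards [this] with w hw
      exact hfar w ((hw.le.trans (le_abs_self _)).trans (Complex.abs_im_le_norm w))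
    have hd : fderiv ℝ a z = Complex.reCLM := by
      rw [hev.fderiv_eq]; exact Complex.reCLM.hasFDerivAt.fderiv
    unfold tau wdg gx gy
    rw [hd, (st_fderiv (R0 + 1) z).fderiv, Complex.reCLM_norm]
    simp
  · have h0 : deriv Real.smoothTransition (z.im - (R0 + 1)) = 0 :=
      dst_eq_zero (Or.inl (by linarith [not_lt.1 hz]))
    rw [h0]
    refine tau_zero ?_
    rw [(st_fderiv (R0 + 1) z).fderiv, h0, zero_smul]

/-- the coarea side -/
lemma slab_st {U : Set ℂ} {a : ℂ → ℝ} {m : ℝ → Measure ℂ} (hU : IsOpen U)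
    (ha : LocallyLipschitzOn U a) (h : Disint U a m) {R0 : ℝ}
    (hfar : ∀ z, R0 ≤ ‖z‖ → a z = z.re) (hUc : ∀ z, R0 ≤ ‖z‖ → z ∈ U) {T : Set ℝ}
    (hT : MeasurableSet T) :
    ∫⁻ t in T, ∫⁻ z, ENNReal.ofReal (deriv Real.smoothTransition (z.im - (R0 + 1))) ∂(m t) =
      volume T := by
  have hk : Measurable fun z : ℂ =>
      ENNReal.ofReal (deriv Real.smoothTransition (z.im - (R0 + 1))) :=
    (dst_cont.measurable.comp (Complex.measurable_im.sub_const _)).ennreal_ofReal
  have h1 := h.coarea_slab hU ha.continuousOn hT MeasurableSet.univ hk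
  simp only [Measure.restrict_univ, univ_inter] at h1
  rw [h1]
  classical
  have hBm : MeasurableSet (U ∩ a ⁻¹' T) := by
    have h2 : U ∩ a ⁻¹' T = U ∩ (U.indicator a) ⁻¹' T := by
      ext z
      simp only [mem_inter_iff, mem_preimage, and_congr_right_iff]
      intro hz
      rw [indicator_of_mem hz]
    rw [h2]
    exact hU.measurableSet.inter (measurable_indicator hU ha.continuousOn hT)
  rw [← lintegral_indicator hBm]
  have h3 : ∀ z : ℂ, (U ∩ a ⁻¹' T).indicator (fun z : ℂ =>
      ENNReal.ofReal (deriv Real.smoothTransition (z.im - (R0 + 1))) * ‖fderiv ℝ a z‖ₑ) z =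
      T.indicator 1 z.re * ENNReal.ofReal (deriv Real.smoothTransition (z.im - (R0 + 1))) := by
    intro z
    by_cases hz : R0 < z.im
    · have hzn : R0 ≤ ‖z‖ := (hz.le.trans (le_abs_self _)).trans (Complex.abs_im_le_norm z)
      have hev : a =ᶠ[𝓝 z] fun w => w.re := by
        have : ∀ᶠ w in 𝓝 z, R0 < w.im :=
          Complex.continuous_im.continuousAt.eventually (lt_mem_nhds hz)
        filter_upwards [this] with w hw
        exact hfar w ((hw.le.trans (le_abs_self _)).trans (Complex.abs_im_le_norm w))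
      have hd : fderiv ℝ a z = Complex.reCLM := by
        rw [hev.fderiv_eq]; exact Complex.reCLM.hasFDerivAt.fderiv
      have hde : ‖fderiv ℝ a z‖ₑ = 1 := by
        rw [hd, ← ofReal_norm, Complex.reCLM_norm, ENNReal.ofReal_one]
      by_cases hzT : z.re ∈ T
      · rw [indicator_of_mem (show z ∈ U ∩ a ⁻¹' T from
          ⟨hUc z hzn, by rw [mem_preimage, hfar z hzn]; exact hzT⟩), indicator_of_mem hzT, hde]
        simp
      · rw [indicator_of_notMem (show z ∉ U ∩ a ⁻¹' T from fun h' => hzT (by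
          have := h'.2
          rw [mem_preimage, hfar z hzn] at this; exact this)), indicator_of_notMem hzT]
        simp
    · have h0 : deriv Real.smoothTransition (z.im - (R0 + 1)) = 0 :=
        dst_eq_zero (Or.inl (by linarith [not_lt.1 hz]))
      rw [h0, ENNReal.ofReal_zero, mul_zero]
      by_cases hzB : z ∈ U ∩ a ⁻¹' T
      · rw [indicator_of_mem hzB, h0, ENNReal.ofReal_zero, zero_mul]
      · rw [indicator_of_notMem hzB]
  simp only [h3]
  have h4 : ∫⁻ z : ℂ, T.indicator 1 z.re *
      ENNReal.ofReal (deriv Real.smoothTransition (z.im - (R0 + 1))) =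
      ∫⁻ p : ℝ × ℝ, T.indicator (1 : ℝ → ℝ≥0∞) p.1 *
        ENNReal.ofReal (deriv Real.smoothTransition (p.2 - (R0 + 1))) := by
    have e := Complex.volume_preserving_equiv_real_prod.lintegral_comp
      (f := fun p : ℝ × ℝ => T.indicator (1 : ℝ → ℝ≥0∞) p.1 *
        ENNReal.ofReal (deriv Real.smoothTransition (p.2 - (R0 + 1)))) ?_
    · rw [← e]
      rfl
    · exact ((measurable_one.indicator hT).comp measurable_fst).mul
        ((dst_cont.measurable.comp (measurable_snd.sub_const _)).ennreal_ofReal)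
  have h6 : Measurable fun y : ℝ =>
      ENNReal.ofReal (deriv Real.smoothTransition (y - (R0 + 1))) :=
    (dst_cont.measurable.comp (measurable_id.sub_const (R0 + 1))).ennreal_ofReal
  rw [h4, Measure.volume_eq_prod, lintegral_prod_mul (f := T.indicator (1 : ℝ → ℝ≥0∞))
    (g := fun y : ℝ => ENNReal.ofReal (deriv Real.smoothTransition (y - (R0 + 1))))
    ((measurable_one.indicator hT).aemeasurable) h6.aemeasurable, lint_dst (R0 + 1), mul_one,
    lintegral_indicator_one hT]

/-- **(S2*)** -/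
theorem s2_star {U : Set ℂ} {a : ℂ → ℝ} {m : ℝ → Measure ℂ} (hU : IsOpen U)
    (ha : LocallyLipschitzOn U a) (h : Disint U a m) {R0 : ℝ}
    (hfar : ∀ z, R0 ≤ ‖z‖ → a z = z.re) (hUc : ∀ z, R0 ≤ ‖z‖ → z ∈ U) :
    ∀ᵐ t, ∫ z, tau a (fun w => Real.smoothTransition (w.im - (R0 + 1))) z ∂(m t) = 1 := by
  have hk : Measurable fun z : ℂ =>
      ENNReal.ofReal (deriv Real.smoothTransition (z.im - (R0 + 1))) :=
    (dst_cont.measurable.comp (Complex.measurable_im.sub_const _)).ennreal_ofReal
  have hA := h.measf _ hk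
  have h1 : (fun t => ∫⁻ z, ENNReal.ofReal
      (deriv Real.smoothTransition (z.im - (R0 + 1))) ∂(m t)) =ᵐ[volume] fun _ => 1 := by
    refine ae_eq_of_forall_setLIntegral_eq_of_sigmaFinite hA measurable_const fun T hT _ => ?_
    rw [slab_st hU ha h hfar hUc hT, setLIntegral_const, one_mul]
  filter_upwards [h1] with t ht
  have h2 : ∫ z, tau a (fun w => Real.smoothTransition (w.im - (R0 + 1))) z ∂(m t) =
      ∫ z : ℂ, deriv Real.smoothTransition (z.im - (R0 + 1)) ∂(m t) :=
    integral_congr_ae (ae_of_all _ fun z => tau_st hfar z)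
  rw [h2, integral_eq_lintegral_of_nonneg_ae (ae_of_all _ fun z => dst_nonneg _)
    (dst_cont.measurable.comp (Complex.measurable_im.sub_const _)).aestronglyMeasurable, ht]
  simp

/-- off `Y` the points of `{a = t}` are in the saturated level set -/
lemma mem_Lv {Y : Set ℂ} {a : ℂ → ℝ} (hY : IsExteriorDomain Yᶜ) (hLB : LB a)
    (ha : LocallyLipschitzOn Yᶜ a) {z : ℂ} (hz : z ∉ Y) : z ∈ Lv Y a (a z) := by
  have hYo : IsOpen Yᶜ := hY.1
  have hc : ContinuousAt a z := (ha.continuousOn).continuousAt (hYo.mem_nhds hz)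
  exact ⟨(Ni_459.lo_of_notMem hY hLB hz hc).le, (Ni_459.up_of_notMem hY hLB hz hc).ge⟩

/-- **(S2)** from (S1) and (S2*), one level -/
theorem s2_of {Y : Set ℂ} {a : ℂ → ℝ} {R0 : ℝ} (hY : IsExteriorDomain Yᶜ) (hLB : LB a)
    (ha : LocallyLipschitzOn Yᶜ a) (hfar : ∀ z, R0 ≤ ‖z‖ → a z = z.re)
    (hYR : ∀ z, R0 ≤ ‖z‖ → z ∉ Y) {t : ℝ} {μ : Measure ℂ}
    (conc : μ {z | ¬ (z ∉ Y ∧ a z = t)} = 0) (fin : ∀ R, μ (closedBall 0 R) < ⊤)
    (S1 : ∀ g, Lc1 Y g → HasCompactSupport g → ∫ z, tau a g z ∂μ = 0)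
    (star : ∫ z, tau a (fun w => Real.smoothTransition (w.im - (R0 + 1))) z ∂μ = 1) :
    ∀ χ R, Lc1 Y χ → (∀ z ∈ Lv Y a t, R ≤ z.im → ∀ᶠ w in 𝓝 z, χ w = 1) →
      (∀ z ∈ Lv Y a t, z.im ≤ -R → ∀ᶠ w in 𝓝 z, χ w = 0) → ∫ z, tau a χ z ∂μ = 1 := by
  intro χ R hχ hup hdn
  have hYc : IsCompact Y := Ni_459.cpt_of hY
  set s : ℂ → ℝ := st (R0 + 1) with hs
  have hs1 : ContDiff ℝ 1 s := st_smooth _
  have hsd : ∀ z, DifferentiableAt ℝ s z := fun z => hs1.differentiable one_ne_zero z
  have hsY : ∀ z ∈ Y, ∀ᶠ w in 𝓝 z, s w = 0 := by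
    intro z hz
    have h1 : ‖z‖ < R0 := by
      by_contra hcon
      exact hYR z (not_lt.1 hcon) hz
    have h2 : z.im < R0 + 1 := ((le_abs_self _).trans (Complex.abs_im_le_norm z)).trans_lt
      (by linarith)
    filter_upwards [Complex.continuous_im.continuousAt.eventually (gt_mem_nhds h2)] with w hw
    exact Real.smoothTransition.zero_of_nonpos (by linarith)
  -- a big ball
  set ρ : ℝ := |t| + |R| + |R0| + 3 with hρ
  have hρ0 : 0 ≤ ρ := by positivity
  obtain ⟨κ, k1, k2, -, k4, -⟩ := Dir_508.exists_cutoff (isCompact_closedBall (0 : ℂ) ρ) isOpen_univ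
    (subset_univ _)
  have k1' : ContDiff ℝ 1 κ := k1.of_le (by exact_mod_cast le_top)
  have hκd : ∀ z, DifferentiableAt ℝ κ z := fun z => k1'.differentiable one_ne_zero z
  have hκ : ∀ z ∈ closedBall (0 : ℂ) ρ, ∀ᶠ w in 𝓝 z, κ w = 1 := fun z hz =>
    (eventually_nhdsSet_iff_forall.1 k4) z hz
  set g : ℂ → ℝ := fun w => κ w * (χ w - s w) with hg
  have hgL : Lc1 Y g := by
    refine ⟨k1'.mul (hχ.sm.sub hs1), fun z hz => ?_⟩
    have hzR : ‖z‖ < R0 := by
      by_contra hcon
      exact hYR z (not_lt.1 hcon) hz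
    have hzρ : z ∈ closedBall (0 : ℂ) ρ := by
      rw [mem_closedBall_zero_iff]
      have := le_abs_self R0
      have := abs_nonneg t
      have := abs_nonneg R
      linarith
    filter_upwards [hκ z hzρ, hχ.lc z hz, hsY z hz] with w h1 h2 h3
    rw [hg]; simp only [h1, h2, h3, (hκ z hzρ).self_of_nhds, (hsY z hz).self_of_nhds]
  have hgc : HasCompactSupport g := k2.mul_right
  -- the a.e. facts
  have hae : ∀ᵐ z ∂μ, z ∉ Y ∧ a z = t := by rw [ae_iff]; exact conc
  have hsup : ∀ z, z ∉ Y → a z = t → ρ < ‖z‖ → (∀ᶠ w in 𝓝 z, χ w = s w) ∧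
      tau a χ z = 0 ∧ tau a s z = 0 := by
    intro z hzY hzt hz
    have hzL : z ∈ Lv Y a t := by have := mem_Lv hY hLB ha hzY; rwa [hzt] at this
    have hzR : R0 ≤ ‖z‖ := by
      have := le_abs_self R0
      have := abs_nonneg t
      have := abs_nonneg R
      linarith
    have hre : z.re = t := by rw [← hfar z hzR]; exact hzt
    have him : |R| + |R0| + 3 < |z.im| := by
      have := Complex.norm_le_abs_re_add_abs_im z
      rw [hre] at this
      linarith
    rcases le_or_gt 0 z.im with hs0 | hs0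
    · rw [abs_of_nonneg hs0] at him
      have e1 : ∀ᶠ w in 𝓝 z, χ w = 1 := hup z hzL (by
        have := le_abs_self R
        have := abs_nonneg R0
        linarith)
      have e2 : ∀ᶠ w in 𝓝 z, s w = 1 := by
        have h2 : R0 + 2 < z.im := by
          have := le_abs_self R0
          have := abs_nonneg R
          linarith
        filter_upwards [Complex.continuous_im.continuousAt.eventually (lt_mem_nhds h2)] with w hw
        exact Real.smoothTransition.one_of_one_le (by linarith)
      refine ⟨by filter_upwards [e1, e2] with w h1 h2; rw [h1, h2], ?_, ?_⟩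
      · refine tau_zero ?_
        have : χ =ᶠ[𝓝 z] fun _ => 1 := e1
        rw [this.fderiv_eq]; simp
      · refine tau_zero ?_
        have : s =ᶠ[𝓝 z] fun _ => 1 := e2
        rw [this.fderiv_eq]; simp
    · rw [abs_of_neg hs0] at him
      have e1 : ∀ᶠ w in 𝓝 z, χ w = 0 := hdn z hzL (by
        have := le_abs_self R
        have := abs_nonneg R0
        linarith)
      have e2 : ∀ᶠ w in 𝓝 z, s w = 0 := by
        have h2 : z.im < R0 + 1 := by
          have := neg_abs_le R0
          have := abs_nonneg R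
          linarith
        filter_upwards [Complex.continuous_im.continuousAt.eventually (gt_mem_nhds h2)] with w hw
        exact Real.smoothTransition.zero_of_nonpos (by linarith)
      refine ⟨by filter_upwards [e1, e2] with w h1 h2; rw [h1, h2], ?_, ?_⟩
      · refine tau_zero ?_
        have : χ =ᶠ[𝓝 z] fun _ => 0 := e1
        rw [this.fderiv_eq]; simp
      · refine tau_zero ?_
        have : s =ᶠ[𝓝 z] fun _ => 0 := e2
        rw [this.fderiv_eq]; simp
  have htau : ∀ᵐ z ∂μ, tau a g z = tau a χ z - tau a s z := by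
    filter_upwards [hae] with z hz
    by_cases hzρ : z ∈ closedBall (0 : ℂ) ρ
    · have e : g =ᶠ[𝓝 z] fun w => χ w - s w := by
        filter_upwards [hκ z hzρ] with w hw
        rw [hg]; simp only [hw, one_mul]
      rw [tau_congr e, tau_sub (hχ.diff z) (hsd z)]
    · have hz' : ρ < ‖z‖ := by
        rw [mem_closedBall_zero_iff, not_le] at hzρ; exact hzρ
      obtain ⟨e1, e2, e3⟩ := hsup z hz.1 hz.2 hz'
      have e : g =ᶠ[𝓝 z] fun _ => 0 := by
        filter_upwards [e1] with w hw
        rw [hg]; simp only [hw, sub_self, mul_zero]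
      have e4 : tau a g z = 0 := by
        refine tau_zero ?_
        rw [e.fderiv_eq]; simp
      rw [e4, e2, e3, sub_zero]
  -- integrability
  have hint : ∀ f : ℂ → ℝ, ContDiff ℝ 1 f → (∀ z, z ∉ Y → a z = t → ρ < ‖z‖ → tau a f z = 0) →
      Integrable (tau a f) μ := by
    intro f hf hf0
    obtain ⟨M, hM⟩ := (isCompact_closedBall (0 : ℂ) ρ).exists_bound_of_continuousOn
      (hf.continuous_fderiv one_ne_zero).continuousOn
    have hI : Integrable ((closedBall (0 : ℂ) ρ).indicator fun _ => (|M| : ℝ)) μ := by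
      rw [integrable_indicator_iff measurableSet_closedBall]
      exact integrableOn_const (fin ρ).ne (by simp)
    refine hI.mono (measurable_tau a f).aestronglyMeasurable ?_
    filter_upwards [hae] with z hz
    by_cases hzρ : z ∈ closedBall (0 : ℂ) ρ
    · rw [indicator_of_mem hzρ, Real.norm_eq_abs, Real.norm_eq_abs, abs_abs]
      exact (tau_le a f z).trans ((hM z hzρ).trans (le_abs_self M))
    · have hz' : ρ < ‖z‖ := by
        rw [mem_closedBall_zero_iff, not_le] at hzρ; exact hzρ
      rw [hf0 z hz.1 hz.2 hz']; simp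
  have i1 := hint χ hχ.sm fun z h1 h2 h3 => (hsup z h1 h2 h3).2.1
  have i2 := hint s hs1 fun z h1 h2 h3 => (hsup z h1 h2 h3).2.2
  have h0 := S1 g hgL hgc
  rw [integral_congr_ae htau, integral_sub i1 i2] at h0
  have h3 : ∫ z, tau a s z ∂μ = 1 := star
  rw [h3] at h0
  linarith

end

end Crest.Agent.R105.S2_57
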