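import Mathlib
import Crest.Agent.R105.LmS2_392
import Crest.Agent.R105.Gt1_57

/-!
# Row 105, S0138, LEMMA Y (338 #10444), slices, part 3 (helper392): good levels, one test function
of (S3), a countable dense family of test functions
-/

set_option autoImplicit false

open MeasureTheory Set Filter Topology Metric
open scoped ENNReal NNReal ContDiff

namespace Crest.Agent.R105.LmS_392

open Bd_775 Coa_392 Tc_808 Ni_459 Crest.AnalysisR
open Elf_600 (pt)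

noncomputable section

variable {Y : Set ℂ} {a y g χ : ℂ → ℝ} {m : ℝ → Measure ℂ} {s : Cmp Y → ℝ} {t : ℝ}
  {μ : Measure ℂ}

/-- E-L for the test functions `χ G(a)`, crude form -/
def ELc (Y : Set ℂ) (a y : ℂ → ℝ) (s : Cmp Y → ℝ) : Prop :=
  ∀ χ, Lc1 Y χ → HasCompactSupport χ → ∀ G : ℝ → ℝ, LipschitzWith 1 G →
    |∫ z in Yᶜ, wdg (fun z => χ z * G (a z)) y z| ≤
      ∑' K : Cmp Y, s K * (|χ (pt K)| * osc Y (fun z => G (a z)) K.1)

/-- (S3) for one function -/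
theorem s3_one (hY : IsExteriorDomain Yᶜ) (hLB : LB a) (ha : LocallyLipschitzOn Yᶜ a)
    (hy : LocallyLipschitzOn Yᶜ y) (hae : ∀ R : ℝ, IntegrableOn (en a) (Yᶜ ∩ ball 0 R))
    (hye : ∀ R : ℝ, IntegrableOn (en y) (Yᶜ ∩ ball 0 R)) (h : Disint Yᶜ a m)
    (hs0 : ∀ K, 0 ≤ s K) (hs : Summable fun K => s K ^ 2)
    (hso : Summable fun K : Cmp Y => s K * osc Y a K.1) (hEL : ELc Y a y s)
    (hχ : Lc1 Y χ) (hc : HasCompactSupport χ) :
    ∀ᵐ t, |∫ z, tau a (fun w => χ w * y w) z ∂(m t)| ≤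
      ∑' K : {K : Cmp Y // K.1 ⊆ Lv Y a t}, |χ (pt K.1)| * s K.1 := by
  have hU : IsOpen Yᶜ := (cpt_of hY).isClosed.isOpen_compl
  obtain ⟨-, k2, k3⟩ := s3_set hU ha hy hae hye h hχ.sm hc hχ.tsupp
  set c : Cmp Y → ℝ := fun K => |χ (pt K)| * s K with hcdef
  have hc0 : ∀ K, 0 ≤ c K := fun K => mul_nonneg (abs_nonneg _) (hs0 K)
  obtain ⟨M, hM⟩ := hc.isCompact.exists_bound_of_continuousOn hχ.sm.continuous.continuousOn
  have hχ0 : ∀ z, |χ z| ≤ |M| := fun z => by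
    by_cases hz : z ∈ tsupport χ
    · have := hM z hz
      rw [Real.norm_eq_abs] at this
      exact this.trans (le_abs_self M)
    · rw [image_eq_zero_of_notMem_tsupport hz]; simp
  have hcc : (Function.support c).Countable := by
    refine (Gt_57.countable_of_sq hs).mono fun K hK => ?_
    rw [Function.mem_support] at hK ⊢
    intro h0
    exact hK (by simp only [hcdef, h0, mul_zero])
  have hcs : Summable fun K : Cmp Y => c K * osc Y a K.1 := by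
    refine (hso.mul_left |M|).of_nonneg_of_le
      (fun K => mul_nonneg (hc0 K) (osc_nonneg _ _ _)) fun K => ?_
    rw [hcdef]; simp only
    rw [mul_assoc]
    exact mul_le_mul_of_nonneg_right (hχ0 _) (mul_nonneg (hs0 K) (osc_nonneg _ _ _))
  have hB := Gt_57.integrable_sl hY hLB hc0 hcc hcs
  have key : ∀ T : Set ℝ, MeasurableSet T →
      |∫ t in T, ∫ z, tau a (fun w => χ w * y w) z ∂(m t)| ≤
        ∫ t in T, ∑' K : {K : Cmp Y // K.1 ⊆ Lv Y a t}, c K.1 := by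
    intro T hT
    rw [k3 T hT]
    refine (hEL χ hχ hc (GT T) (GT_lip hT)).trans ?_
    have h5 := Gt_57.sum_le hY hLB hc0 hcc hcs hT
    refine le_trans (le_of_eq ?_) h5
    refine tsum_congr fun K => ?_
    show s K * (|χ (pt K)| * osc Y (fun z => GT T (a z)) K.1) =
      |χ (pt K)| * s K * osc Y (fun z => GT T (a z)) K.1
    ring
  have h1 : ∀ᵐ t, ∫ z, tau a (fun w => χ w * y w) z ∂(m t) ≤
      ∑' K : {K : Cmp Y // K.1 ⊆ Lv Y a t}, c K.1 :=
    ae_le_of_forall_setIntegral_le k2 hB fun T hT _ => (abs_le.1 (key T hT)).2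
  have h2 : ∀ᵐ t, -∑' K : {K : Cmp Y // K.1 ⊆ Lv Y a t}, c K.1 ≤
      ∫ z, tau a (fun w => χ w * y w) z ∂(m t) := by
    refine ae_le_of_forall_setIntegral_le (f := fun t =>
      -∑' K : {K : Cmp Y // K.1 ⊆ Lv Y a t}, c K.1) hB.neg k2 fun T hT _ => ?_
    rw [integral_neg]
    exact (abs_le.1 (key T hT)).1
  filter_upwards [h1, h2] with t h3 h4
  exact abs_le.2 ⟨h4, h3⟩

/-! ### good levels -/

/-- the analytic part of a good level -/
structure Sl0 (Y : Set ℂ) (a y : ℂ → ℝ) (t : ℝ) (μ : Measure ℂ) : Prop where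
  conc : μ {z | ¬ (z ∉ Y ∧ a z = t)} = 0
  fin : ∀ R : ℝ, μ (closedBall 0 R) < ⊤
  finy : ∀ R : ℝ, ∫⁻ z in closedBall 0 R, ‖fderiv ℝ y z‖ₑ ∂μ < ⊤
  diff : ∀ᵐ z ∂μ, DifferentiableAt ℝ a z ∧ DifferentiableAt ℝ y z ∧ fderiv ℝ a z ≠ 0

lemma enorm_mul_le (u v : ℂ → ℝ) (z : ℂ) :
    ‖fderiv ℝ u z‖ₑ * ‖fderiv ℝ v z‖ₑ ≤ ENNReal.ofReal (en u z + en v z) := by
  rw [← ofReal_norm, ← ofReal_norm, ← ENNReal.ofReal_mul (norm_nonneg _)]
  refine ENNReal.ofReal_le_ofReal ?_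
  rw [en_eq, en_eq]
  nlinarith [sq_nonneg (‖fderiv ℝ u z‖ - ‖fderiv ℝ v z‖), sq_nonneg ‖fderiv ℝ u z‖,
    sq_nonneg ‖fderiv ℝ v z‖]

lemma lint_energy {S : Set ℂ} (hae : IntegrableOn (en a) S) (hye : IntegrableOn (en y) S) :
    ∫⁻ z in S, ‖fderiv ℝ y z‖ₑ * ‖fderiv ℝ a z‖ₑ < ⊤ := by
  have h1 : IntegrableOn (fun z => en y z + en a z) S := hye.add hae
  refine lt_of_le_of_lt (lintegral_mono fun z => enorm_mul_le y a z) ?_
  have h2 := h1.2
  refine lt_of_le_of_lt (lintegral_mono fun z => ?_) h2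
  rw [← ofReal_norm]
  exact ENNReal.ofReal_le_ofReal (le_abs_self _)

lemma lint_grad {S : Set ℂ} (hS : volume S < ⊤) (hae : IntegrableOn (en a) S) :
    ∫⁻ z in S, ‖fderiv ℝ a z‖ₑ < ⊤ := by
  have h1 : IntegrableOn (fun z => 1 + en a z) S := (integrableOn_const hS.ne).add hae
  refine lt_of_le_of_lt (lintegral_mono fun z => ?_) h1.2
  rw [← ofReal_norm, ← ofReal_norm]
  refine ENNReal.ofReal_le_ofReal ?_
  simp only
  rw [Real.norm_eq_abs, abs_of_nonneg (by have := en_nonneg a z; linarith), en_eq]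
  nlinarith [sq_nonneg (‖fderiv ℝ a z‖ - 1)]

theorem sl0_ae {U : Set ℂ} (hU : IsOpen U) (hUY : U = Yᶜ) (ha : LocallyLipschitzOn U a)
    (hy : LocallyLipschitzOn U y) (hae : ∀ R : ℝ, IntegrableOn (en a) (U ∩ ball 0 R))
    (hye : ∀ R : ℝ, IntegrableOn (en y) (U ∩ ball 0 R)) (h : Disint U a m) :
    ∀ᵐ t, Sl0 Y a y t (m t) := by
  -- finiteness on balls
  have key : ∀ f : ℂ → ℝ≥0∞, Measurable f → ∀ n : ℕ,
      ∫⁻ z in U ∩ ball 0 (n : ℝ), f z * ‖fderiv ℝ a z‖ₑ < ⊤ →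
      ∀ᵐ t, ∫⁻ z in ball (0 : ℂ) (n : ℝ), f z ∂(m t) < ⊤ := by
    intro f hf n hfin
    have h1 := h.coarea_slab hU ha.continuousOn MeasurableSet.univ
      (measurableSet_ball (x := (0 : ℂ)) (ε := (n : ℝ))) hf
    rw [Measure.restrict_univ, preimage_univ, inter_univ, inter_comm] at h1
    have h2 : Measurable fun t => ∫⁻ z in ball (0 : ℂ) (n : ℝ), f z ∂(m t) := by
      have := h.measf _ (hf.indicator (measurableSet_ball (x := (0 : ℂ)) (ε := (n : ℝ))))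
      simpa only [lintegral_indicator measurableSet_ball] using this
    exact ae_lt_top h2 (by rw [h1]; exact hfin.ne)
  have k1 : ∀ᵐ t, ∀ n : ℕ, ∫⁻ z in ball (0 : ℂ) (n : ℝ), (1 : ℂ → ℝ≥0∞) z ∂(m t) < ⊤ := by
    refine ae_all_iff.2 fun n => key _ measurable_one n ?_
    simp only [Pi.one_apply, one_mul]
    exact lint_grad ((measure_mono inter_subset_right).trans_lt measure_ball_lt_top) (hae n)
  have k2 : ∀ᵐ t, ∀ n : ℕ, ∫⁻ z in ball (0 : ℂ) (n : ℝ), ‖fderiv ℝ y z‖ₑ ∂(m t) < ⊤ :=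
    ae_all_iff.2 fun n => key _ (measurable_fderiv ℝ y).enorm n (lint_energy (hae n) (hye n))
  have k3 : ∀ᵐ t, ∀ᵐ z ∂(m t), DifferentiableAt ℝ a z := h.ae_slice (Coa_392.ae_diff hU ha)
  have k4 : ∀ᵐ t, ∀ᵐ z ∂(m t), DifferentiableAt ℝ y z := h.ae_slice (Coa_392.ae_diff hU hy)
  have k5 : ∀ᵐ t, ∀ᵐ z ∂(m t), fderiv ℝ a z ≠ 0 := by
    have hZ : MeasurableSet {z : ℂ | fderiv ℝ a z = 0} :=
      measurableSet_eq_fun (measurable_fderiv ℝ a) measurable_const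
    have h1 := h.coarea _ (measurable_one.indicator hZ)
    have h2 : ∫⁻ z in U, {z : ℂ | fderiv ℝ a z = 0}.indicator (1 : ℂ → ℝ≥0∞) z *
        ‖fderiv ℝ a z‖ₑ = 0 := by
      rw [show (fun z => {z : ℂ | fderiv ℝ a z = 0}.indicator (1 : ℂ → ℝ≥0∞) z *
        ‖fderiv ℝ a z‖ₑ) = fun _ => 0 from ?_]
      · simp
      · funext z
        by_cases hz : fderiv ℝ a z = 0
        · have h0 : ‖fderiv ℝ a z‖ₑ = 0 := by
            rw [← ofReal_norm, hz, norm_zero, ENNReal.ofReal_zero]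
          rw [h0, mul_zero]
        · rw [indicator_of_notMem (by exact hz), zero_mul]
    rw [h2, lintegral_eq_zero_iff (h.measf _ (measurable_one.indicator hZ))] at h1
    filter_upwards [h1] with t ht
    rw [lintegral_indicator_one hZ] at ht
    exact measure_eq_zero_iff_ae_notMem.1 ht
  filter_upwards [k1, k2, k3, k4, k5] with t h1 h2 h3 h4 h5
  have hsub : ∀ R : ℝ, closedBall (0 : ℂ) R ⊆ ball 0 ((⌈R⌉₊ + 1 : ℕ) : ℝ) := fun R =>
    closedBall_subset_ball (by push_cast; linarith [Nat.le_ceil R])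
  refine ⟨?_, fun R => ?_, fun R => ?_, ?_⟩
  · have := h.conc t
    rw [hUY] at this
    exact this
  · have h6 := h1 (⌈R⌉₊ + 1)
    simp only [Pi.one_apply, lintegral_one, Measure.restrict_apply_univ] at h6
    exact (measure_mono (hsub R)).trans_lt h6
  · exact (lintegral_mono_set (hsub R)).trans_lt (h2 (⌈R⌉₊ + 1))
  · filter_upwards [h3, h4, h5] with z e1 e2 e3
    exact ⟨e1, e2, e3⟩

/-! ### a countable dense family -/

lemma exists_countable_of_map {X M : Type*} [PseudoMetricSpace M] [SecondCountableTopology M]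
    (Θ : X → M) : ∃ D : Set X, D.Countable ∧ ∀ x, ∀ ε > 0, ∃ d ∈ D, dist (Θ x) (Θ d) < ε := by
  let _ : PseudoMetricSpace X := PseudoMetricSpace.induced Θ inferInstance
  have hi : IsInducing Θ := ⟨rfl⟩
  have : SecondCountableTopology X := hi.secondCountableTopology
  obtain ⟨D, hD, hd⟩ := TopologicalSpace.exists_countable_dense X
  refine ⟨D, hD, fun x ε hε => ?_⟩
  obtain ⟨d, hd1, hd2⟩ := Metric.dense_iff.1 hd x ε hε
  refine ⟨d, hd2, ?_⟩
  rw [mem_ball, dist_comm] at hd1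
  exact hd1

/-- the `n`-th compact set -/
def Kn (Y : Set ℂ) (n : ℕ) : Set ℂ := closedBall 0 (n : ℝ) \ thickening (1 / ((n : ℝ) + 1)) Y

lemma isCompact_Kn (Y : Set ℂ) (n : ℕ) : IsCompact (Kn Y n) :=
  (isCompact_closedBall 0 (n : ℝ)).diff isOpen_thickening

lemma Kn_sub (Y : Set ℂ) (n : ℕ) : Kn Y n ⊆ Yᶜ := fun _ hz hzY =>
  hz.2 (self_subset_thickening (by positivity) _ hzY)

lemma Kn_sub_ball (Y : Set ℂ) (n : ℕ) : Kn Y n ⊆ closedBall 0 (n : ℝ) := sdiff_subset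

lemma exists_Kn (hY : IsClosed Y) {K : Set ℂ} (hK : IsCompact K) (hKY : K ⊆ Yᶜ) {S : Set ℂ}
    (hS : IsCompact S) : ∃ n : ℕ, K ⊆ Kn Y n ∧ S ⊆ closedBall 0 (n : ℝ) := by
  obtain ⟨δ, hδ, h1⟩ := hK.exists_thickening_subset_open hY.isOpen_compl hKY
  obtain ⟨R, hR⟩ := hK.isBounded.exists_norm_le
  obtain ⟨R', hR'⟩ := hS.isBounded.exists_norm_le
  obtain ⟨n, hn⟩ := exists_nat_ge (max (max R R') (1 / δ))
  have hn1 : R ≤ n := (le_max_left _ _).trans ((le_max_left _ _).trans hn)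
  have hn2 : R' ≤ n := (le_max_right _ _).trans ((le_max_left _ _).trans hn)
  have hn3 : 1 / δ ≤ n := (le_max_right _ _).trans hn
  refine ⟨n, fun z hz => ⟨?_, fun hz' => ?_⟩, fun z hz => ?_⟩
  · rw [mem_closedBall_zero_iff]; exact (hR z hz).trans hn1
  · obtain ⟨w, hw, hd⟩ := mem_thickening_iff.1 hz'
    have h2 : w ∈ thickening δ K := by
      refine mem_thickening_iff.2 ⟨z, hz, ?_⟩
      rw [dist_comm]
      refine hd.trans_le ?_
      rw [div_le_iff₀ hδ] at hn3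
      rw [div_le_iff₀ (by positivity)]
      nlinarith
    exact h1 h2 hw
  · rw [mem_closedBall_zero_iff]; exact (hR' z hz).trans hn2

/-- test functions of size `n` -/
def Xn (Y : Set ℂ) (n : ℕ) : Set (ℂ → ℝ) :=
  {χ | Lc1 Y χ ∧ tsupport χ ⊆ closedBall 0 (n : ℝ) ∧ tsupport (fderiv ℝ χ) ⊆ Kn Y n}

lemma Xn_cpt {n : ℕ} (h : χ ∈ Xn Y n) : HasCompactSupport χ :=
  (isCompact_closedBall 0 (n : ℝ)).of_isClosed_subset (isClosed_tsupport _) h.2.1

lemma exists_Xn (hY : IsClosed Y) (h : Lc1 Y χ) (hc : HasCompactSupport χ) :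
    ∃ n, χ ∈ Xn Y n := by
  obtain ⟨n, h1, h2⟩ := exists_Kn hY (hc.fderiv ℝ).isCompact h.tsupp hc.isCompact
  exact ⟨n, h, h2, h1⟩

theorem dense_family (Y : Set ℂ) (n : ℕ) : ∃ D : Set (ℂ → ℝ), D.Countable ∧ D ⊆ Xn Y n ∧
    ∀ χ ∈ Xn Y n, ∀ ε > 0, ∃ d ∈ D, (∀ z, |χ z - d z| ≤ ε) ∧
      ∀ z, ‖fderiv ℝ χ z - fderiv ℝ d z‖ ≤ ε := by
  set B : Set ℂ := closedBall 0 (n : ℝ) with hB
  have hBc : CompactSpace B := isCompact_iff_compactSpace.1 (isCompact_closedBall 0 (n : ℝ))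
  set Θ : Xn Y n → C(B, ℝ × (ℂ →L[ℝ] ℝ)) := fun χ =>
    ⟨fun z => (χ.1 z, fderiv ℝ χ.1 z), by
      have h1 := χ.2.1.sm
      exact ((h1.continuous.comp continuous_subtype_val).prodMk
        ((h1.continuous_fderiv one_ne_zero).comp continuous_subtype_val))⟩ with hΘ
  obtain ⟨D, hD, hd⟩ := exists_countable_of_map Θ
  refine ⟨Subtype.val '' D, hD.image _, ?_, fun χ hχ ε hε => ?_⟩
  · rintro _ ⟨x, -, rfl⟩; exact x.2
  · obtain ⟨d, hdD, hdd⟩ := hd ⟨χ, hχ⟩ ε hε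
    refine ⟨d.1, ⟨d, hdD, rfl⟩, fun z => ?_, fun z => ?_⟩
    · by_cases hz : z ∈ B
      · have h1 := (ContinuousMap.dist_apply_le_dist (f := Θ ⟨χ, hχ⟩) (g := Θ d) ⟨z, hz⟩)
        have h2 : dist (χ z) (d.1 z) ≤ dist (Θ ⟨χ, hχ⟩ ⟨z, hz⟩) (Θ d ⟨z, hz⟩) := by
          rw [Prod.dist_eq]; exact le_max_left _ _
        rw [Real.dist_eq] at h2
        exact (h2.trans h1).trans hdd.le
      · rw [image_eq_zero_of_notMem_tsupport fun h => hz (hχ.2.1 h),
          image_eq_zero_of_notMem_tsupport fun h => hz (d.2.2.1 h)]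
        simpa using hε.le
    · by_cases hz : z ∈ B
      · have h1 := (ContinuousMap.dist_apply_le_dist (f := Θ ⟨χ, hχ⟩) (g := Θ d) ⟨z, hz⟩)
        have h2 : dist (fderiv ℝ χ z) (fderiv ℝ d.1 z) ≤
            dist (Θ ⟨χ, hχ⟩ ⟨z, hz⟩) (Θ d ⟨z, hz⟩) := by
          rw [Prod.dist_eq]; exact le_max_right _ _
        rw [dist_eq_norm] at h2
        exact (h2.trans h1).trans hdd.le
      · rw [image_eq_zero_of_notMem_tsupport (f := fderiv ℝ χ) fun h =>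
            hz (Kn_sub_ball Y n (hχ.2.2 h)),
          image_eq_zero_of_notMem_tsupport (f := fderiv ℝ d.1) fun h =>
            hz (Kn_sub_ball Y n (d.2.2.2 h))]
        simpa using hε.le

end

end Crest.Agent.R105.LmS_392
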