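import Mathlib
import Crest.Agent.R105.LmS3_392

/-!
# Row 105, S0138, LEMMA Y (338 #10444), slices, part 4 (helper392): (S1) and (S3) for all test
functions at once
-/

set_option autoImplicit false

open MeasureTheory Set Filter Topology Metric
open scoped ENNReal NNReal ContDiff

namespace Crest.Agent.R105.LmS_392

open Bd_775 Coa_392 Tc_808 Ni_459 Crest.AnalysisR
open Elf_600 (pt)

noncomputable section

variable {Y : Set ℂ} {a y g χ : ℂ → ℝ} {m : ℝ → Measure ℂ} {s : Cmp Y → ℝ} {t : ℝ}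
  {μ : Measure ℂ}

lemma lint_tau_le {K : Set ℂ} (hK : MeasurableSet K) {ε : ℝ}
    (hb : ∀ z ∈ K, ‖fderiv ℝ g z‖ ≤ ε) (h0 : ∀ z ∉ K, fderiv ℝ g z = 0) :
    ∫⁻ z, ‖tau a g z‖ₑ ∂μ ≤ ENNReal.ofReal ε * μ K := by
  have h1 : ∫⁻ z, ‖tau a g z‖ₑ ∂μ ≤ ∫⁻ z, K.indicator (fun _ => ENNReal.ofReal ε) z ∂μ := by
    refine lintegral_mono fun z => ?_
    by_cases hz : z ∈ K
    · rw [indicator_of_mem hz, ← ofReal_norm]
      exact ENNReal.ofReal_le_ofReal ((tau_le a g z).trans (hb z hz))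
    · rw [indicator_of_notMem hz, tau_zero (h0 z hz)]; simp
  rwa [lintegral_indicator hK, setLIntegral_const] at h1

lemma lint_tau_mul_le (h : Sl0 Y a y t μ) (hχ : Lc1 Y χ) {K : Set ℂ} (hK : MeasurableSet K)
    {N ε ε' R : ℝ} (hN : ∀ z ∈ K, |y z| ≤ N) (h1 : ∀ z, |χ z| ≤ ε)
    (h2 : ∀ z ∉ closedBall (0 : ℂ) R, χ z = 0) (hb : ∀ z ∈ K, ‖fderiv ℝ χ z‖ ≤ ε')
    (h0 : ∀ z ∉ K, fderiv ℝ χ z = 0) :
    ∫⁻ z, ‖tau a (fun w => χ w * y w) z‖ₑ ∂μ ≤
      ENNReal.ofReal ε * (∫⁻ z in closedBall (0 : ℂ) R, ‖fderiv ℝ y z‖ₑ ∂μ) +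
        ENNReal.ofReal (N * ε') * μ K := by
  have e1 : ∫⁻ z, ‖tau a (fun w => χ w * y w) z‖ₑ ∂μ ≤
      ∫⁻ z, ((closedBall (0 : ℂ) R).indicator (fun z => ENNReal.ofReal ε * ‖fderiv ℝ y z‖ₑ) z +
        K.indicator (fun _ => ENNReal.ofReal (N * ε')) z) ∂μ := by
    refine lintegral_mono_ae ?_
    filter_upwards [h.diff] with z hz
    rw [tau_mul' (hχ.diff z) hz.2.1]
    refine (enorm_add_le _ _).trans (add_le_add ?_ ?_)
    · by_cases hzR : z ∈ closedBall (0 : ℂ) R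
      · rw [indicator_of_mem hzR, enorm_mul]
        gcongr
        · rw [← ofReal_norm]
          exact ENNReal.ofReal_le_ofReal (h1 z)
        · exact enorm_tau_le a y z
      · rw [h2 z hzR]; simp
    · by_cases hzK : z ∈ K
      · rw [indicator_of_mem hzK, ← ofReal_norm]
        refine ENNReal.ofReal_le_ofReal ?_
        rw [Real.norm_eq_abs, abs_mul]
        exact mul_le_mul (hN z hzK) ((tau_le a χ z).trans (hb z hzK)) (abs_nonneg _)
          ((abs_nonneg _).trans (hN z hzK))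
      · rw [tau_zero (h0 z hzK)]; simp
  refine e1.trans (le_of_eq ?_)
  rw [lintegral_add_right _ (measurable_const.indicator hK), lintegral_indicator hK,
    setLIntegral_const, lintegral_indicator measurableSet_closedBall,
    lintegral_const_mul _ (measurable_fderiv ℝ y).enorm]

lemma toReal_bound {f : ℂ → ℝ} {C : ℝ≥0∞} (h : ∫⁻ z, ‖f z‖ₑ ∂μ ≤ C) (hC : C ≠ ⊤) :
    |∫ z, f z ∂μ| ≤ C.toReal := by
  have h1 : ‖∫ z, f z ∂μ‖ₑ ≤ C := (enorm_integral_le_lintegral_enorm _).trans h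
  have h2 := ENNReal.toReal_mono hC h1
  rwa [toReal_enorm, Real.norm_eq_abs] at h2

lemma integrable_tau (h : Sl0 Y a y t μ) (hg : Lc1 Y g) (hc : HasCompactSupport g) :
    Integrable (tau a g) μ := by
  obtain ⟨R, hR⟩ := hc.isCompact.isBounded.exists_norm_le
  obtain ⟨D, hD⟩ := lip_of_c1 hg.sm hc
  refine ⟨(measurable_tau a g).aestronglyMeasurable, ?_⟩
  refine (lint_tau_le (K := closedBall 0 R) (ε := D) measurableSet_closedBall
    (fun z _ => norm_fderiv_le_of_lipschitz ℝ hD) fun z hz => ?_).trans_lt ?_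
  · have h1 : z ∉ tsupport g := fun h' => hz (mem_closedBall_zero_iff.2 (hR z h'))
    exact Stk_939.fderiv_zero_of_notMem h1
  · exact ENNReal.mul_lt_top ENNReal.ofReal_lt_top (h.fin R)

lemma integrable_tau_mul (h : Sl0 Y a y t μ) (hy : ContinuousOn y Yᶜ)
    (hχ : Lc1 Y χ) (hc : HasCompactSupport χ) : Integrable (tau a fun w => χ w * y w) μ := by
  obtain ⟨R, hR⟩ := hc.isCompact.isBounded.exists_norm_le
  obtain ⟨D, hD⟩ := lip_of_c1 hχ.sm hc
  obtain ⟨M, hM⟩ := hc.isCompact.exists_bound_of_continuousOn hχ.sm.continuous.continuousOn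
  have hK := (hc.fderiv ℝ).isCompact
  obtain ⟨N, hN⟩ := hK.exists_bound_of_continuousOn (hy.mono hχ.tsupp)
  refine ⟨(measurable_tau a _).aestronglyMeasurable, ?_⟩
  refine (lint_tau_mul_le h hχ (K := tsupport (fderiv ℝ χ)) hK.measurableSet (N := N) (ε := |M|)
    (ε' := D) (R := R) hN (fun z => ?_) (fun z hz => ?_)
    (fun z _ => norm_fderiv_le_of_lipschitz ℝ hD)
    fun z hz => image_eq_zero_of_notMem_tsupport hz).trans_lt ?_
  · by_cases hz : z ∈ tsupport χ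
    · have := hM z hz
      rw [Real.norm_eq_abs] at this
      exact this.trans (le_abs_self M)
    · rw [image_eq_zero_of_notMem_tsupport hz]; simp
  · exact image_eq_zero_of_notMem_tsupport fun h' => hz (mem_closedBall_zero_iff.2 (hR z h'))
  · have h3 : μ (tsupport (fderiv ℝ χ)) < ⊤ := by
      obtain ⟨R', hR'⟩ := hK.isBounded.exists_norm_le
      exact (measure_mono fun z hz => mem_closedBall_zero_iff.2 (hR' z hz)).trans_lt (h.fin R')
    exact ENNReal.add_lt_top.2 ⟨ENNReal.mul_lt_top ENNReal.ofReal_lt_top (h.finy R),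
      ENNReal.mul_lt_top ENNReal.ofReal_lt_top h3⟩

lemma Lc1.sub {d : ℂ → ℝ} (hχ : Lc1 Y χ) (hd : Lc1 Y d) : Lc1 Y fun z => χ z - d z := by
  refine ⟨hχ.sm.sub hd.sm, fun z hz => ?_⟩
  filter_upwards [hχ.lc z hz, hd.lc z hz] with w h1 h2
  rw [h1, h2]

lemma eq_zero_of_small {x c : ℝ} (hc : 0 ≤ c) (h : ∀ ε > 0, |x| ≤ ε * c) : x = 0 := by
  by_contra hx
  have h1 : 0 < |x| := abs_pos.2 hx
  have h2 := h (|x| / (2 * (c + 1))) (by positivity)
  have h3 : |x| / (2 * (c + 1)) * c ≤ |x| / 2 := by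
    rw [div_mul_eq_mul_div, div_le_div_iff₀ (by positivity) two_pos]
    nlinarith
  linarith

lemma le_of_small {x b c : ℝ} (hc : 0 ≤ c) (h : ∀ ε > 0, x ≤ b + ε * c) : x ≤ b := by
  refine le_of_forall_pos_le_add fun ε hε => ?_
  have h2 := h (ε / (c + 1)) (by positivity)
  have h3 : ε / (c + 1) * c ≤ ε := by
    rw [div_mul_eq_mul_div, div_le_iff₀ (by positivity)]
    nlinarith
  linarith

/-- the dense family -/
def DF (Y : Set ℂ) (n : ℕ) : Set (ℂ → ℝ) := (dense_family Y n).choose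

lemma DF_countable (Y : Set ℂ) (n : ℕ) : (DF Y n).Countable := (dense_family Y n).choose_spec.1
lemma DF_sub (Y : Set ℂ) (n : ℕ) : DF Y n ⊆ Xn Y n := (dense_family Y n).choose_spec.2.1
lemma DF_dense {Y : Set ℂ} {n : ℕ} (hχ : χ ∈ Xn Y n) {ε : ℝ} (hε : 0 < ε) :
    ∃ d ∈ DF Y n, (∀ z, |χ z - d z| ≤ ε) ∧ ∀ z, ‖fderiv ℝ χ z - fderiv ℝ d z‖ ≤ ε :=
  (dense_family Y n).choose_spec.2.2 χ hχ ε hε

/-- (S1) for all test functions -/
theorem s1_all (hY : IsClosed Y) (h : Sl0 Y a y t μ)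
    (hD : ∀ n, ∀ d ∈ DF Y n, ∫ z, tau a d z ∂μ = 0) :
    ∀ g, Lc1 Y g → HasCompactSupport g → ∫ z, tau a g z ∂μ = 0 := by
  intro g hg hc
  obtain ⟨n, hn⟩ := exists_Xn hY hg hc
  refine eq_zero_of_small (c := (μ (closedBall 0 (n : ℝ))).toReal) ENNReal.toReal_nonneg
    fun ε hε => ?_
  obtain ⟨d, hd, h1, h2⟩ := DF_dense hn hε
  have hdX := DF_sub Y n hd
  have hdc := Xn_cpt hdX
  have e1 : ∫ z, tau a g z ∂μ = ∫ z, tau a (fun w => g w - d w) z ∂μ := by
    have e2 : (fun z => tau a (fun w => g w - d w) z) = fun z => tau a g z - tau a d z := by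
      funext z; exact tau_sub (hg.diff z) (hdX.1.diff z)
    rw [e2, integral_sub (integrable_tau h hg hc) (integrable_tau h hdX.1 hdc), hD n d hd,
      sub_zero]
  rw [e1]
  have e3 : ∀ z, fderiv ℝ (fun w => g w - d w) z = fderiv ℝ g z - fderiv ℝ d z := fun z =>
    ((hg.diff z).hasFDerivAt.sub (hdX.1.diff z).hasFDerivAt).fderiv
  have h3 := lint_tau_le (a := a) (μ := μ) (g := fun w => g w - d w) (K := closedBall 0 (n : ℝ))
    (ε := ε) measurableSet_closedBall (fun z _ => by rw [e3]; exact h2 z) fun z hz => by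
      rw [e3, image_eq_zero_of_notMem_tsupport (f := fderiv ℝ g) fun h' =>
          hz (Kn_sub_ball Y n (hn.2.2 h')),
        image_eq_zero_of_notMem_tsupport (f := fderiv ℝ d) fun h' =>
          hz (Kn_sub_ball Y n (hdX.2.2 h')), sub_zero]
  have h4 := toReal_bound h3 (ENNReal.mul_lt_top ENNReal.ofReal_lt_top (h.fin n)).ne
  rwa [ENNReal.toReal_mul, ENNReal.toReal_ofReal hε.le] at h4

/-- (S3) for all test functions -/
theorem s3_all (hY : IsClosed Y) (h : Sl0 Y a y t μ) (hy : ContinuousOn y Yᶜ)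
    (hs0 : ∀ K, 0 ≤ s K) (hsum : Summable fun K : {K : Cmp Y // K.1 ⊆ Lv Y a t} => s K.1)
    (hD : ∀ n, ∀ d ∈ DF Y n, |∫ z, tau a (fun w => d w * y w) z ∂μ| ≤
      ∑' K : {K : Cmp Y // K.1 ⊆ Lv Y a t}, |d (pt K.1)| * s K.1) :
    ∀ χ, Lc1 Y χ → HasCompactSupport χ → |∫ z, tau a (fun w => χ w * y w) z ∂μ| ≤
      ∑' K : {K : Cmp Y // K.1 ⊆ Lv Y a t}, |χ (pt K.1)| * s K.1 := by
  intro χ hχ hc
  obtain ⟨n, hn⟩ := exists_Xn hY hχ hc
  obtain ⟨N, hN⟩ := (isCompact_Kn Y n).exists_bound_of_continuousOn (hy.mono (Kn_sub Y n))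
  set S := ∑' K : {K : Cmp Y // K.1 ⊆ Lv Y a t}, s K.1 with hS
  have hS0 : 0 ≤ S := tsum_nonneg fun K => hs0 _
  set c1 := (∫⁻ z in closedBall (0 : ℂ) (n : ℝ), ‖fderiv ℝ y z‖ₑ ∂μ).toReal with hc1
  set c2 := (μ (Kn Y n)).toReal with hc2
  have hKn : μ (Kn Y n) ≠ ⊤ := ((measure_mono (Kn_sub_ball Y n)).trans_lt (h.fin n)).ne
  have hbd : ∀ d ∈ Xn Y n, ∃ M : ℝ, ∀ z, |d z| ≤ M := by
    intro d hd
    obtain ⟨M, hM⟩ := (Xn_cpt hd).isCompact.exists_bound_of_continuousOn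
      hd.1.sm.continuous.continuousOn
    refine ⟨|M|, fun z => ?_⟩
    by_cases hz : z ∈ tsupport d
    · have := hM z hz
      rw [Real.norm_eq_abs] at this
      exact this.trans (le_abs_self M)
    · rw [image_eq_zero_of_notMem_tsupport hz]; simp
  have hsm : ∀ d ∈ Xn Y n, Summable fun K : {K : Cmp Y // K.1 ⊆ Lv Y a t} =>
      |d (pt K.1)| * s K.1 := by
    intro d hd
    obtain ⟨M, hM⟩ := hbd d hd
    refine (hsum.mul_left M).of_nonneg_of_le (fun K => mul_nonneg (abs_nonneg _) (hs0 _))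
      fun K => mul_le_mul_of_nonneg_right (hM _) (hs0 _)
  refine le_of_small (c := S + c1 + |N| * c2) (by positivity) fun ε hε => ?_
  obtain ⟨d, hd, h1, h2⟩ := DF_dense hn hε
  have hdX := DF_sub Y n hd
  have hdc := Xn_cpt hdX
  have e1 : ∫ z, tau a (fun w => χ w * y w) z ∂μ = (∫ z, tau a (fun w => d w * y w) z ∂μ) +
      ∫ z, tau a (fun w => (χ w - d w) * y w) z ∂μ := by
    have e2 : (fun z => tau a (fun w => (χ w - d w) * y w) z) =ᵐ[μ]
        fun z => tau a (fun w => χ w * y w) z - tau a (fun w => d w * y w) z := by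
      filter_upwards [h.diff] with z hz
      have e3 : (fun w => (χ w - d w) * y w) = fun w => χ w * y w - d w * y w := by
        funext w; ring
      rw [e3]
      exact tau_sub ((hχ.diff z).mul hz.2.1) ((hdX.1.diff z).mul hz.2.1)
    rw [integral_congr_ae e2, integral_sub (integrable_tau_mul h hy hχ hc)
      (integrable_tau_mul h hy hdX.1 hdc)]
    ring
  have e3 : ∀ z, fderiv ℝ (fun w => χ w - d w) z = fderiv ℝ χ z - fderiv ℝ d z := fun z =>
    ((hχ.diff z).hasFDerivAt.sub (hdX.1.diff z).hasFDerivAt).fderiv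
  have h3 := lint_tau_mul_le (χ := fun w => χ w - d w) h (hχ.sub hdX.1) (K := Kn Y n)
    (isCompact_Kn Y n).measurableSet (N := |N|) (ε := ε) (ε' := ε) (R := n)
    (fun z hz => by
      have := hN z hz
      rw [Real.norm_eq_abs] at this
      exact this.trans (le_abs_self N)) h1
    (fun z hz => by
      rw [image_eq_zero_of_notMem_tsupport fun h' => hz (hn.2.1 h'),
        image_eq_zero_of_notMem_tsupport fun h' => hz (hdX.2.1 h'), sub_zero])
    (fun z _ => by rw [e3]; exact h2 z)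
    (fun z hz => by
      rw [e3, image_eq_zero_of_notMem_tsupport (f := fderiv ℝ χ) fun h' => hz (hn.2.2 h'),
        image_eq_zero_of_notMem_tsupport (f := fderiv ℝ d) fun h' => hz (hdX.2.2 h'), sub_zero])
  have hfin1 : ENNReal.ofReal ε *
      (∫⁻ z in closedBall (0 : ℂ) (n : ℝ), ‖fderiv ℝ y z‖ₑ ∂μ) ≠ ⊤ :=
    (ENNReal.mul_lt_top ENNReal.ofReal_lt_top (h.finy n)).ne
  have hfin2 : ENNReal.ofReal (|N| * ε) * μ (Kn Y n) ≠ ⊤ :=
    ENNReal.mul_ne_top ENNReal.ofReal_ne_top hKn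
  have h4 := toReal_bound h3 (ENNReal.add_ne_top.2 ⟨hfin1, hfin2⟩)
  rw [ENNReal.toReal_add hfin1 hfin2, ENNReal.toReal_mul, ENNReal.toReal_mul,
    ENNReal.toReal_ofReal hε.le, ENNReal.toReal_ofReal (by positivity)] at h4
  have h5 : ∑' K : {K : Cmp Y // K.1 ⊆ Lv Y a t}, |d (pt K.1)| * s K.1 ≤
      (∑' K : {K : Cmp Y // K.1 ⊆ Lv Y a t}, |χ (pt K.1)| * s K.1) + ε * S := by
    rw [hS, ← tsum_mul_left, ← (hsm χ hn).tsum_add (hsum.mul_left ε)]
    refine Summable.tsum_le_tsum (fun K => ?_) (hsm d hdX) ((hsm χ hn).add (hsum.mul_left ε))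
    rw [← add_mul]
    refine mul_le_mul_of_nonneg_right ?_ (hs0 _)
    have := h1 (pt K.1)
    have h6 : |d (pt K.1)| ≤ |χ (pt K.1)| + |χ (pt K.1) - d (pt K.1)| := by
      have := abs_sub_abs_le_abs_sub (d (pt K.1)) (χ (pt K.1))
      rw [abs_sub_comm] at this
      linarith
    linarith
  rw [e1]
  have h7 := hD n d hd
  refine (abs_add_le _ _).trans ?_
  have h8 : ε * (S + c1 + |N| * c2) = ε * S + (ε * c1 + |N| * ε * c2) := by ring
  rw [h8]
  linarith

end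

end Crest.Agent.R105.LmS_392
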