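import Mathlib
import Crest.Agent.R105.LmS4_392
import Crest.Agent.R105.Hgp1_608
import Crest.Agent.R105.LmS2b_57

/-!
# Row 105, S0138, LEMMA Y (338 #10444), slices, part 5 (helper392): `Sl`, literal of #10557
-/

set_option autoImplicit false

open MeasureTheory Set Filter Topology Metric
open scoped ENNReal NNReal ContDiff

namespace Crest.Agent.R105.LmS_392

open Bd_775 Coa_392 Tc_808 Ni_459 Crest.AnalysisR
open Elf_600 (pt)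

noncomputable section

variable {Y : Set ℂ} {a y : ℂ → ℝ} {m : ℝ → Measure ℂ} {s : Cmp Y → ℝ}

/-- the good level `t` of `a` with slice measure `m` -/
structure Sl (Y : Set ℂ) (a y : ℂ → ℝ) (s : Cmp Y → ℝ) (t : ℝ) (m : Measure ℂ) : Prop where
  conc : m {z | ¬ (z ∉ Y ∧ a z = t)} = 0
  fin : ∀ R : ℝ, m (closedBall 0 R) < ⊤
  finy : ∀ R : ℝ, ∫⁻ z in closedBall 0 R, ‖fderiv ℝ y z‖ₑ ∂m < ⊤
  diff : ∀ᵐ z ∂m, DifferentiableAt ℝ a z ∧ DifferentiableAt ℝ y z ∧ fderiv ℝ a z ≠ 0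
  sums : Summable fun K : {K : Cmp Y // K.1 ⊆ Lv Y a t} => s K.1
  S1 : ∀ g, Lc1 Y g → HasCompactSupport g → ∫ z, tau a g z ∂m = 0
  S2 : ∀ (χ : ℂ → ℝ) (R : ℝ), Lc1 Y χ → (∀ z ∈ Lv Y a t, R ≤ z.im → ∀ᶠ w in 𝓝 z, χ w = 1) →
    (∀ z ∈ Lv Y a t, z.im ≤ -R → ∀ᶠ w in 𝓝 z, χ w = 0) → ∫ z, tau a χ z ∂m = 1
  S3 : ∀ χ, Lc1 Y χ → HasCompactSupport χ → |∫ z, tau a (fun w => χ w * y w) z ∂m| ≤
    ∑' K : {K : Cmp Y // K.1 ⊆ Lv Y a t}, |χ (pt K.1)| * s K.1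
  S5 : ∀ C ⊆ Yᶜ ∩ a ⁻¹' {t}, IsPreconnected C → C.Nontrivial →
    ∃ p ∈ C, m {p} = 0 ∧ DifferentiableAt ℝ a p ∧ fderiv ℝ a p ≠ 0

/-- all but (S2) -/
structure Sl1 (Y : Set ℂ) (a y : ℂ → ℝ) (s : Cmp Y → ℝ) (t : ℝ) (m : Measure ℂ) : Prop where
  conc : m {z | ¬ (z ∉ Y ∧ a z = t)} = 0
  fin : ∀ R : ℝ, m (closedBall 0 R) < ⊤
  finy : ∀ R : ℝ, ∫⁻ z in closedBall 0 R, ‖fderiv ℝ y z‖ₑ ∂m < ⊤
  diff : ∀ᵐ z ∂m, DifferentiableAt ℝ a z ∧ DifferentiableAt ℝ y z ∧ fderiv ℝ a z ≠ 0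
  sums : Summable fun K : {K : Cmp Y // K.1 ⊆ Lv Y a t} => s K.1
  S1 : ∀ g, Lc1 Y g → HasCompactSupport g → ∫ z, tau a g z ∂m = 0
  S3 : ∀ χ, Lc1 Y χ → HasCompactSupport χ → |∫ z, tau a (fun w => χ w * y w) z ∂m| ≤
    ∑' K : {K : Cmp Y // K.1 ⊆ Lv Y a t}, |χ (pt K.1)| * s K.1
  S5 : ∀ C ⊆ Yᶜ ∩ a ⁻¹' {t}, IsPreconnected C → C.Nontrivial →
    ∃ p ∈ C, m {p} = 0 ∧ DifferentiableAt ℝ a p ∧ fderiv ℝ a p ≠ 0

theorem slices1 (hY : IsExteriorDomain Yᶜ) (ha : LocallyLipschitzOn Yᶜ a) (hLB : LB a)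
    (hy : LocallyLipschitzOn Yᶜ y) (hae : ∀ R : ℝ, IntegrableOn (en a) (Yᶜ ∩ ball 0 R))
    (hye : ∀ R : ℝ, IntegrableOn (en y) (Yᶜ ∩ ball 0 R)) (h : Disint Yᶜ a m)
    (hs0 : ∀ K, 0 ≤ s K) (hs : Summable fun K => s K ^ 2)
    (hso : Summable fun K : Cmp Y => s K * osc Y a K.1) (hEL : ELc Y a y s) :
    ∀ᵐ t, Sl1 Y a y s t (m t) := by
  have hYc := (cpt_of hY).isClosed
  have hU : IsOpen Yᶜ := hYc.isOpen_compl
  have k0 := sl0_ae hU rfl ha hy hae hye h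
  have k1 : ∀ᵐ t, ∀ n : ℕ, ∀ d ∈ DF Y n, ∫ z, tau a d z ∂(m t) = 0 := by
    refine ae_all_iff.2 fun n => (ae_ball_iff (DF_countable Y n)).2 fun d hd => ?_
    have hX := DF_sub Y n hd
    exact s1_one hU ha h hX.1.sm (Xn_cpt hX) hX.1.tsupp
  have k2 : ∀ᵐ t, ∀ n : ℕ, ∀ d ∈ DF Y n, |∫ z, tau a (fun w => d w * y w) z ∂(m t)| ≤
      ∑' K : {K : Cmp Y // K.1 ⊆ Lv Y a t}, |d (pt K.1)| * s K.1 := by
    refine ae_all_iff.2 fun n => (ae_ball_iff (DF_countable Y n)).2 fun d hd => ?_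
    have hX := DF_sub Y n hd
    exact s3_one hY hLB ha hy hae hye h hs0 hs hso hEL hX.1 (Xn_cpt hX)
  have k3 := Gt_57.ae_summable hY hLB hs0 (Gt_57.countable_of_sq hs) hso
  have k4 := Hgp_608.s5 hU ha h fun R => lint_grad
    ((measure_mono inter_subset_right).trans_lt measure_ball_lt_top) (hae R)
  filter_upwards [k0, k1, k2, k3, k4] with t h0 h1 h2 h3 h4
  exact ⟨h0.conc, h0.fin, h0.finy, h0.diff, h3, s1_all hYc h0 h1,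
    s3_all hYc h0 hy.continuousOn hs0 h3 h2, h4⟩

/-- **SLICES** (LmY2 of 338 #10444): almost every level of `a` is good -/
theorem slices_of (hY : IsExteriorDomain Yᶜ) (ha : LocallyLipschitzOn Yᶜ a) (hLB : LB a)
    (hfar : ∃ R : ℝ, ∀ z, R ≤ ‖z‖ → a z = z.re)
    (hy : LocallyLipschitzOn Yᶜ y) (hae : ∀ R : ℝ, IntegrableOn (en a) (Yᶜ ∩ ball 0 R))
    (hye : ∀ R : ℝ, IntegrableOn (en y) (Yᶜ ∩ ball 0 R)) (h : Disint Yᶜ a m)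
    (hs0 : ∀ K, 0 ≤ s K) (hs : Summable fun K => s K ^ 2)
    (hso : Summable fun K : Cmp Y => s K * osc Y a K.1) (hEL : ELc Y a y s) :
    ∀ᵐ t, Sl Y a y s t (m t) := by
  have hU : IsOpen Yᶜ := (cpt_of hY).isClosed.isOpen_compl
  obtain ⟨R1, hR1⟩ := hfar
  obtain ⟨R2, hR2⟩ := (cpt_of hY).isBounded.exists_norm_le
  have hfar' : ∀ z, max R1 (R2 + 1) ≤ ‖z‖ → a z = z.re := fun z hz =>
    hR1 z ((le_max_left _ _).trans hz)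
  have hYR : ∀ z, max R1 (R2 + 1) ≤ ‖z‖ → z ∉ Y := fun z hz hzY => by
    have := hR2 z hzY
    have := (le_max_right R1 (R2 + 1)).trans hz
    linarith
  filter_upwards [slices1 hY ha hLB hy hae hye h hs0 hs hso hEL,
    S2_57.s2_star hU ha h hfar' hYR] with t h1 h2
  exact ⟨h1.conc, h1.fin, h1.finy, h1.diff, h1.sums, h1.S1,
    S2_57.s2_of hY hLB ha hfar' hYR h1.conc h1.fin h1.S1 h2, h1.S3, h1.S5⟩

theorem slices (hY : IsExteriorDomain Yᶜ) (ha : LocallyLipschitzOn Yᶜ a) (hLB : LB a)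
    (hfar : ∃ R : ℝ, ∀ z, R ≤ ‖z‖ → a z = z.re)
    (hy : LocallyLipschitzOn Yᶜ y) (hae : ∀ R : ℝ, IntegrableOn (en a) (Yᶜ ∩ ball 0 R))
    (hye : ∀ R : ℝ, IntegrableOn (en y) (Yᶜ ∩ ball 0 R))
    (hs0 : ∀ K, 0 ≤ s K) (hs : Summable fun K => s K ^ 2)
    (hso : Summable fun K : Cmp Y => s K * osc Y a K.1) (hEL : ELc Y a y s) :
    ∃ m : ℝ → Measure ℂ, Disint Yᶜ a m ∧ ∀ᵐ t, Sl Y a y s t (m t) := by
  have hU : IsOpen Yᶜ := (cpt_of hY).isClosed.isOpen_compl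
  obtain ⟨m, hm⟩ := exists_disint hU ha
  exact ⟨m, hm, slices_of hY ha hLB hfar hy hae hye hm hs0 hs hso hEL⟩

end

end Crest.Agent.R105.LmS_392
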