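import Mathlib
import Crest.Agent.R105.LmS3_392
import Crest.Agent.R105.Nip8_31

/-!
# Row 105, S0138, LEMMA Y, slices (helper392 #10753): the instance `a = x0 + v`, `y = Im p`,
`s K = osc_K u` (helper405)

* `el` : `ELc Y a y s` from `Elf_600.cut_crude`
* `ll_a`, `ll_y`, `lb_a`, `en_a`, `en_y` : regularity and local energies
* `s_nonneg`, `s_sq`, `s_osc` : the sums
* `far` : `a = re` far away
-/

set_option autoImplicit false

open MeasureTheory Set Filter Topology Metric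
open scoped ENNReal NNReal ContDiff

namespace Crest.Agent.R105.LmS6_405

open Bd_775 Tc_808 Ni_459 Crest.AnalysisR LmS_392
open IfB_641 (X0)
open SelT_871 (JT)
open Elf_600 (pt pt_mem grad_re_im cut_crude summable_mul_of_sq)

noncomputable section

variable {Y : Set ℂ} {x0 u v : ℂ → ℝ} {p : ℂ → ℂ}

/-- `LC` from `Lc1` with compact support -/
lemma lc_of {χ : ℂ → ℝ} (h : Lc1 Y χ) (hc : HasCompactSupport χ) : LC Y χ :=
  LC.of_compact h.sm.locallyLipschitz hc h.lc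

/-- **(i)** the crude Euler-Lagrange inequality -/
theorem el (hY : IsExteriorDomain Yᶜ) (hx : X0 Y x0) (hu : TT Y u) (hv : TT Y v)
    (hp : DifferentiableOn ℂ p Yᶜ) (hre : ∀ z ∈ Yᶜ, (p z).re = x0 z + u z)
    (hmin : ∀ χ, LC Y χ → HasCompactSupport χ → ∀ G : ℝ → ℝ, LipschitzWith 1 G → ∀ t : ℝ,
      JT Y x0 u ≤ JT Y x0 (fun z => u z + t * (χ z * G (x0 z + v z)))) :
    ELc Y (fun z => x0 z + v z) (fun z => (p z).im) (fun K => Tc_808.osc Y u K.1) := by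
  intro χ hχ hc G hG
  refine (cut_crude hY hx hu hv hp hre (lc_of hχ hc) hc hG (hmin χ (lc_of hχ hc) hc G hG)).trans
    (le_of_eq (tsum_congr fun K => ?_))
  rw [Elf_600.osc_x0 hx G K]

/-- **(ii)** -/
theorem ll_a (hx : X0 Y x0) (hv : TT Y v) : LocallyLipschitzOn Yᶜ fun z => x0 z + v z :=
  Nip_31.ll_x0 hx hv

theorem ll_y (hY : IsClosed Y) (hp : DifferentiableOn ℂ p Yᶜ) :
    LocallyLipschitzOn Yᶜ fun z => (p z).im := by
  intro z hz
  have h1 : ContDiffAt ℂ 1 p z := (hp.analyticAt (hY.isOpen_compl.mem_nhds hz)).contDiffAt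
  have h2 : ContDiffAt ℝ 1 p z := h1.restrict_scalars ℝ
  have h3 : ContDiffAt ℝ 1 (fun z => (p z).im) z := Complex.imCLM.contDiff.contDiffAt.comp z h2
  obtain ⟨K, t, ht, h⟩ := h3.exists_lipschitzOnWith
  exact ⟨K, t, mem_nhdsWithin_of_mem_nhds ht, h⟩

/-- **(iii)** -/
theorem lb_a (hx : X0 Y x0) (hv : TT Y v) : LB fun z => x0 z + v z := Nip_31.lb_x0 hx hv

/-- **(iv)** -/
theorem en_a (hY : IsExteriorDomain Yᶜ) (hx : X0 Y x0) (hv : TT Y v) (R : ℝ) :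
    IntegrableOn (en fun z => x0 z + v z) (Yᶜ ∩ ball 0 R) := by
  refine ⟨(measurable_en _).aestronglyMeasurable, ?_⟩
  have h1 := Nip_31.en_x0_fin hY hx hv R
  have e : ball (0 : ℂ) R \ Y = Yᶜ ∩ ball 0 R := by rw [sdiff_eq, inter_comm]
  rw [e] at h1
  refine lt_of_le_of_lt (lintegral_mono fun z => ?_) (lt_top_iff_ne_top.2 h1)
  rw [← ofReal_norm, Real.norm_of_nonneg (en_nonneg _ _)]

lemma en_im (hY : IsClosed Y) (hp : DifferentiableOn ℂ p Yᶜ)
    (hre : ∀ z ∈ Yᶜ, (p z).re = x0 z + u z) {z : ℂ} (hz : z ∈ Yᶜ) :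
    en (fun z => (p z).im) z = en (fun z => x0 z + u z) z := by
  have hn : Yᶜ ∈ 𝓝 z := hY.isOpen_compl.mem_nhds hz
  obtain ⟨h1, h2, h3, h4⟩ := grad_re_im (hp.differentiableAt hn)
  have he : (fun w => (p w).re) =ᶠ[𝓝 z] fun w => x0 w + u w := by
    filter_upwards [hn] with w hw using hre w hw
  rw [← en_eq_of_eventuallyEq he]
  unfold en
  rw [h1, h2, h3, h4]; ring

theorem en_y (hY : IsExteriorDomain Yᶜ) (hx : X0 Y x0) (hu : TT Y u)
    (hp : DifferentiableOn ℂ p Yᶜ) (hre : ∀ z ∈ Yᶜ, (p z).re = x0 z + u z) (R : ℝ) :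
    IntegrableOn (en fun z => (p z).im) (Yᶜ ∩ ball 0 R) := by
  have hYc := (cpt_of hY).isClosed
  refine (en_a hY hx hu R).congr_fun (fun z hz => ?_)
    (hYc.isOpen_compl.measurableSet.inter measurableSet_ball)
  exact (en_im hYc hp hre hz.1).symm

/-- **(v)** -/
theorem s_nonneg (K : Cmp Y) : 0 ≤ Tc_808.osc Y u K.1 := osc_nonneg _ _ _

theorem s_sq (hu : TT Y u) : Summable fun K : Cmp Y => Tc_808.osc Y u K.1 ^ 2 := hu.sum

theorem osc_a (hx : X0 Y x0) (K : Cmp Y) :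
    Tc_808.osc Y (fun z => x0 z + v z) K.1 = Tc_808.osc Y v K.1 := by
  simpa using Elf_600.osc_x0 (v := v) hx (fun t => t) K

theorem s_osc (hx : X0 Y x0) (hu : TT Y u) (hv : TT Y v) :
    Summable fun K : Cmp Y => Tc_808.osc Y u K.1 * Tc_808.osc Y (fun z => x0 z + v z) K.1 := by
  simp only [osc_a hx]
  exact summable_mul_of_sq hu.sum hv.sum

theorem osc_a_sq (hx : X0 Y x0) (hv : TT Y v) :
    Summable fun K : Cmp Y => Tc_808.osc Y (fun z => x0 z + v z) K.1 ^ 2 := by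
  simp only [osc_a hx]
  exact hv.sum

/-- **(vi)** -/
theorem far (hY : IsExteriorDomain Yᶜ) (hx : X0 Y x0) (hv0 : ∃ R : ℝ, ∀ z, R ≤ ‖z‖ → v z = 0) :
    ∃ R0 : ℝ, 0 ≤ R0 ∧ ∀ z : ℂ, R0 ≤ ‖z‖ → z ∉ Y ∧ x0 z + v z = z.re := by
  obtain ⟨R, hR⟩ := hv0
  obtain ⟨R', hR'⟩ := hx.far
  obtain ⟨C, hC⟩ := (cpt_of hY).isBounded.exists_norm_le
  refine ⟨max 0 (max (C + 1) (max R R')), le_max_left _ _, fun z hz => ⟨fun hzY => ?_, ?_⟩⟩
  · have h1 := hC z hzY
    have h2 : C + 1 ≤ ‖z‖ := (le_max_left _ _).trans ((le_max_right _ _).trans hz)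
    linarith
  · have h1 : R ≤ ‖z‖ := (le_max_left _ _).trans ((le_max_right _ _).trans
      ((le_max_right _ _).trans hz))
    have h2 : R' ≤ ‖z‖ := (le_max_right _ _).trans ((le_max_right _ _).trans
      ((le_max_right _ _).trans hz))
    rw [hR z h1, hR' z h2, add_zero]

end

end Crest.Agent.R105.LmS6_405
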