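import Mathlib
import Crest.Agent.R105.Sep1_590
import Crest.Agent.R105.LmY0_338

/-!
# Row 105, S0138, Lemma Y (helper338), part 1: cut functions along a level set

`L` = level set `L_t` (closed, saturated for the compact `Y`, inside the strip `|re| + 1 ≤ X`).
* `Good L X p` : `p ∈ H`, `H` compact connected, `H ∩ L ⊆ {p}`, `H` joins `re ≤ -X` to `X ≤ re`
* `cut` : for a good `p` there is a smooth `χ`, locally constant near `Y`, near `L \ ball p r` and
  near a given compact `Z`, `= 1` near the upper end of `L`, `= 0` near the lower end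
* `const_on`, `bump_in` : elementary topology
-/

set_option autoImplicit false

namespace Crest.Agent.R105.LmY_338

open Set Topology Metric Filter
open scoped ContDiff Manifold

/-- locally constant functions are constant on preconnected sets -/
theorem const_on {X : Type*} [TopologicalSpace X] {D : Set X} (hD : IsPreconnected D) {f : X → ℝ}
    (h : ∀ z ∈ D, ∀ᶠ w in 𝓝 z, f w = f z) {x y : X} (hx : x ∈ D) (hy : y ∈ D) : f x = f y := by
  by_contra hne
  obtain ⟨z, hzD, hz1, hz2⟩ := hD {w | ∀ᶠ v in 𝓝 w, f v = f x} {w | ∀ᶠ v in 𝓝 w, f v ≠ f x}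
    isOpen_setOfPred_eventually_nhds isOpen_setOfPred_eventually_nhds
    (fun w hw => by
      by_cases he : f w = f x
      · left
        filter_upwards [h w hw] with v hv
        rw [hv, he]
      · right
        filter_upwards [h w hw] with v hv
        rw [hv]; exact he)
    ⟨x, hx, h x hx⟩ ⟨y, hy, by
      filter_upwards [h y hy] with v hv
      rw [hv]; exact fun h' => hne h'.symm⟩
  obtain ⟨v, hv1, hv2⟩ := ((show ∀ᶠ v in 𝓝 z, f v = f x from hz1).and
    (show ∀ᶠ v in 𝓝 z, f v ≠ f x from hz2)).exists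
  exact hv2 hv1

/-- boundary bumping in a compact connected set, small continua at a point -/
theorem bump_in {C : Set ℂ} (hC : IsCompact C) (hCc : IsPreconnected C) {p q : ℂ} (hp : p ∈ C)
    (hq : q ∈ C) {δ : ℝ} (hδ : 0 < δ) (hpq : δ < dist q p) :
    ∃ M ⊆ C ∩ closedBall p δ, IsCompact M ∧ IsPreconnected M ∧ p ∈ M ∧ ∃ x ∈ M, dist x p = δ := by
  have hK : IsCompact (C ∩ closedBall p δ) := hC.inter_right isClosed_closedBall
  have hpK : p ∈ C ∩ closedBall p δ := ⟨hp, mem_closedBall_self hδ.le⟩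
  refine ⟨connectedComponentIn (C ∩ closedBall p δ) p, connectedComponentIn_subset _ _,
    Thin_12.isCompact_cc hK p, isPreconnected_connectedComponentIn,
    mem_connectedComponentIn hpK, ?_⟩
  by_contra hcon
  push Not at hcon
  obtain ⟨K₁, h1, h2, h3, h4, h5⟩ := Sep_590.exists_split hK (M := {p}) (N := sphere p δ)
    isCompact_singleton (singleton_subset_iff.2 hpK) isClosed_sphere (by
      rintro z rfl
      rw [disjoint_left]
      intro x hx hx'
      exact hcon x hx (mem_sphere.1 hx'))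
  -- `C = K₁ ∪ (C \ K₁)`
  have hcl : IsClosed (C ∩ ((K₁)ᶜ ∩ closedBall p δ) ∪ C ∩ (ball p δ)ᶜ) := by
    have e1 : C ∩ ((K₁)ᶜ ∩ closedBall p δ) = (C ∩ closedBall p δ) \ K₁ := by
      ext x; simp only [mem_inter_iff, mem_compl_iff, Set.mem_sdiff]; tauto
    rw [e1]
    exact h2.isClosed.union (hC.isClosed.inter isOpen_ball.isClosed_compl)
  have h6 := (isPreconnected_iff_subset_of_disjoint_closed.1 hCc) K₁
    (C ∩ ((K₁)ᶜ ∩ closedBall p δ) ∪ C ∩ (ball p δ)ᶜ) h1.isClosed hcl
    (fun x hx => by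
      by_cases hxK : x ∈ K₁
      · exact Or.inl hxK
      · by_cases hxb : x ∈ closedBall p δ
        · exact Or.inr (Or.inl ⟨hx, hxK, hxb⟩)
        · exact Or.inr (Or.inr ⟨hx, fun h => hxb (ball_subset_closedBall h)⟩))
    (by
      rw [eq_empty_iff_forall_notMem]
      rintro x ⟨hx, hxK, h | h⟩
      · exact h.2.1 hxK
      have hxb : x ∈ closedBall p δ := (h3 hxK).2
      have : x ∈ sphere p δ := by
        rw [mem_sphere]
        refine le_antisymm (mem_closedBall.1 hxb) ?_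
        by_contra h'
        exact h.2 (mem_ball.2 (not_le.1 h'))
      exact disjoint_left.1 h5 hxK this)
  rcases h6 with h6 | h6
  · have := (h3 (h6 hq)).2
    rw [mem_closedBall] at this
    linarith
  · rcases h6 hp with h | h
    · exact h.2.1 (h4 rfl)
    · exact h.2 (mem_ball_self hδ)

theorem cut {Y L H Z : Set ℂ} {p : ℂ} {r R X : ℝ} (hL : Lev Y L X) (hR : 0 < R)
    (hpY : Disjoint (ball p r) Y) (hZ : IsCompact Z) (hZY : Disjoint Z Y) (hHc : IsCompact H)
    (hHp : IsPreconnected H) (hHL : H ∩ L ⊆ ball p r) (hHZ : Disjoint H Z)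
    (hHim : ∀ q ∈ H, |q.im| ≤ R) (hYim : ∀ q ∈ Y, |q.im| < R) (_hZim : ∀ q ∈ Z, |q.im| < R)
    (hpim : ∀ q ∈ ball p r, |q.im| < R)
    (hZre : ∀ q ∈ Z, |q.re| ≤ X) (hH1 : ∃ q ∈ H, q.re ≤ -X) (hH2 : ∃ q ∈ H, X ≤ q.re) :
    ∃ f : ℂ → ℝ, Cut Y L R p r f ∧ ∀ z ∈ Z, ∀ᶠ w in 𝓝 z, f w = f z := by
  set K₀ : Set ℂ := (L \ ball p r) ∩ {q | |q.im| ≤ R} with hK₀
  have hcim : IsClosed {q : ℂ | |q.im| ≤ R} :=
    isClosed_le (continuous_abs.comp Complex.continuous_im) continuous_const
  have hK₀cl : IsClosed K₀ := (hL.cL.sdiff isOpen_ball).inter hcim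
  have hK₀c : IsCompact K₀ := by
    refine Metric.isCompact_of_isClosed_isBounded hK₀cl ?_
    refine (isBounded_iff_forall_norm_le.2 ⟨X + R, fun q hq => ?_⟩)
    have h1 := hL.bdd q hq.1.1
    have h2 : |q.im| ≤ R := hq.2
    have := Complex.norm_le_abs_re_add_abs_im q
    linarith
  set K : Set ℂ := K₀ ∪ Z with hK
  have hKc : IsCompact K := hK₀c.union hZ
  have hHK : Disjoint H K := by
    rw [hK, disjoint_union_right]
    refine ⟨disjoint_left.2 fun x hx hx' => hx'.1.2 (hHL ⟨hx, hx'.1.1⟩), hHZ⟩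
  have hKre : ∀ q ∈ K, |q.re| ≤ X := by
    rintro q (hq | hq)
    · linarith [hL.bdd q hq.1.1]
    · exact hZre q hq
  obtain ⟨K₁, h1, h2, h3, h4, h5⟩ := Sep_590.exists_split hKc (M := K ∩ {q | R ≤ q.im})
    (N := {q | q.im ≤ -R})
    (hKc.inter_right (isClosed_le continuous_const Complex.continuous_im)) inter_subset_left
    (isClosed_le Complex.continuous_im continuous_const) (by
      intro z hz
      rw [disjoint_left]
      intro y hy hyB
      obtain ⟨x, hx1, hx2⟩ := Sep_590.cross (L := X) (M := R) hHc (Thin_12.isCompact_cc hKc z) hHp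
        isPreconnected_connectedComponentIn hHim
        (fun q hq => hKre q (connectedComponentIn_subset _ _ hq)) hH1 hH2
        ⟨y, hy, hyB⟩ ⟨z, mem_connectedComponentIn hz.1, hz.2⟩
      exact disjoint_left.1 hHK hx1 (connectedComponentIn_subset _ _ hx2))
  -- the two closed sets
  set T₀ : Set ℂ := K₁ ∪ L ∩ {q | R ≤ q.im} with hT₀
  set B₀ : Set ℂ := K \ K₁ ∪ L ∩ {q | q.im ≤ -R} with hB₀
  have hT₀c : IsClosed T₀ := h1.isClosed.union
    (hL.cL.inter (isClosed_le continuous_const Complex.continuous_im))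
  have hB₀c : IsClosed B₀ := h2.isClosed.union
    (hL.cL.inter (isClosed_le Complex.continuous_im continuous_const))
  have hballim : ∀ q ∈ L, R ≤ |q.im| → q ∉ ball p r := fun q _ h' hb => absurd h' (not_le.2 (hpim q hb))
  have hdTB : Disjoint T₀ B₀ := by
    rw [disjoint_left]
    rintro x (hx | hx) (hx' | hx')
    · exact hx'.2 hx
    · exact disjoint_left.1 h5 hx hx'.2
    · -- `x ∈ K`, `R ≤ im x`
      exact hx'.2 (h4 ⟨hx'.1, hx.2⟩)
    · have e1 : R ≤ x.im := hx.2
      have e2 : x.im ≤ -R := hx'.2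
      linarith
  -- splitting `Y`
  have hYno : ∀ z ∈ Y ∩ T₀, Disjoint (connectedComponentIn Y z) B₀ := by
    rintro z ⟨hzY, hzT⟩
    rw [disjoint_left]
    intro y hy hyB
    have hyY : y ∈ Y := connectedComponentIn_subset _ _ hy
    have hzK : z ∈ K₁ := by
      rcases hzT with h | h
      · exact h
      · have h' : R ≤ z.im := h.2
        have := hYim z hzY
        rw [abs_lt] at this
        linarith [this.2]
    have hzL : z ∈ L := by
      rcases h3 hzK with h | h
      · exact h.1.1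
      · exact absurd hzY (disjoint_left.1 hZY h)
    have hccL : connectedComponentIn Y z ⊆ L := hL.sat z hzL
    have hccK : connectedComponentIn Y z ⊆ K := fun x hx => by
      have hxY := connectedComponentIn_subset _ _ hx
      exact Or.inl ⟨⟨hccL hx, fun hb => disjoint_left.1 hpY hb hxY⟩, (hYim x hxY).le⟩
    have hyK : y ∈ K \ K₁ := by
      rcases hyB with h | h
      · exact h
      · have h' : y.im ≤ -R := h.2
        have := hYim y hyY
        rw [abs_lt] at this
        linarith [this.1]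
    rcases (isPreconnected_iff_subset_of_disjoint_closed.1
      (isPreconnected_connectedComponentIn (F := Y) (x := z))) K₁ (K \ K₁) h1.isClosed h2.isClosed
      (fun x hx => by
        by_cases hxK : x ∈ K₁
        · exact Or.inl hxK
        · exact Or.inr ⟨hccK hx, hxK⟩) (by
        ext x; simp only [mem_inter_iff, Set.mem_sdiff, mem_empty_iff_false, iff_false]; tauto) with h | h
    · exact hyK.2 (h hy)
    · exact (h (mem_connectedComponentIn hzY)).2 hzK
  obtain ⟨Y₁, g1, g2, g3, g4, g5⟩ := Sep_590.exists_split hL.cY (M := Y ∩ T₀) (N := B₀)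
    (hL.cY.inter_right hT₀c) inter_subset_left hB₀c hYno
  obtain ⟨θ, hθ, hθ01, hθ1, hθ0⟩ := Sep_590.exists_smooth (T := T₀ ∪ Y₁) (B := B₀ ∪ (Y \ Y₁))
    (hT₀c.union g1.isClosed) (hB₀c.union g2.isClosed) (by
      refine disjoint_union_left.2 ⟨disjoint_union_right.2 ⟨hdTB, ?_⟩,
        disjoint_union_right.2 ⟨g5, disjoint_sdiff_right⟩⟩
      rw [disjoint_left]
      exact fun x hx hx' => hx'.2 (g4 ⟨hx'.1, hx⟩))
  have key1 : ∀ z ∈ T₀ ∪ Y₁, ∀ᶠ w in 𝓝 z, θ w = θ z := fun z hz => by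
    filter_upwards [hθ1 z hz] with w hw
    rw [hw, (hθ1 z hz).self_of_nhds]
  have key0 : ∀ z ∈ B₀ ∪ (Y \ Y₁), ∀ᶠ w in 𝓝 z, θ w = θ z := fun z hz => by
    filter_upwards [hθ0 z hz] with w hw
    rw [hw, (hθ0 z hz).self_of_nhds]
  have hKTB : ∀ z ∈ K, z ∈ T₀ ∨ z ∈ B₀ := fun z hz => by
    by_cases hz1 : z ∈ K₁
    · exact Or.inl (Or.inl hz1)
    · exact Or.inr (Or.inl ⟨hz, hz1⟩)
  refine ⟨θ, ⟨⟨hθ, ?_, ?_, ?_⟩, hθ01, ?_⟩, ?_⟩
  · intro z hz
    by_cases hz1 : z ∈ Y₁
    · exact key1 z (Or.inr hz1)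
    · exact key0 z (Or.inr ⟨hz, hz1⟩)
  · intro z hz hzR
    exact hθ1 z (Or.inl (Or.inr ⟨hz, hzR⟩))
  · intro z hz hzR
    exact hθ0 z (Or.inl (Or.inr ⟨hz, hzR⟩))
  · intro z hz hzb
    by_cases h6 : |z.im| ≤ R
    · rcases hKTB z (Or.inl ⟨⟨hz, hzb⟩, h6⟩) with h | h
      · exact key1 z (Or.inl h)
      · exact key0 z (Or.inl h)
    · rcases lt_abs.1 (not_le.1 h6) with h | h
      · exact key1 z (Or.inl (Or.inr ⟨hz, h.le⟩))
      · exact key0 z (Or.inl (Or.inr ⟨hz, by simp only [mem_ofPred_eq]; linarith⟩))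
  · intro z hz
    rcases hKTB z (Or.inr hz) with h | h
    · exact key1 z (Or.inl h)
    · exact key0 z (Or.inl h)

end Crest.Agent.R105.LmY_338
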