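import Mathlib
import Crest.Agent.R105.LmY1_338

/-!
# Row 105, S0138, Lemma Y (helper338), part 2: end values, antisymmetry of the order
-/

set_option autoImplicit false

namespace Crest.Agent.R105.LmY_338

open Set Topology Metric Filter MeasureTheory
open scoped ContDiff Manifold

lemma fd_zero {f : ℂ → ℝ} {z : ℂ} (h : ∀ᶠ w in 𝓝 z, f w = f z) : fderiv ℝ f z = 0 := by
  have : f =ᶠ[𝓝 z] fun _ => f z := h
  rw [this.fderiv_eq, fderiv_fun_const]; rfl

lemma En.mono {Y L : Set ℂ} {R R' : ℝ} {f : ℂ → ℝ} (h : En Y L R f) (hR : R ≤ R') : En Y L R' f :=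
  ⟨h.sm, h.lc, fun z hz h' => h.top z hz (hR.trans h'), fun z hz h' => h.bot z hz (by linarith)⟩

lemma Cut.mono {Y L : Set ℂ} {R R' : ℝ} {p : ℂ} {r : ℝ} {f : ℂ → ℝ} (h : Cut Y L R p r f)
    (hR : R ≤ R') : Cut Y L R' p r f := ⟨h.toEn.mono hR, h.c01, h.cst⟩

lemma En.cst_out {Y L : Set ℂ} {R : ℝ} {f : ℂ → ℝ} (h : En Y L R f) {z : ℂ} (hz : z ∈ L)
    (hR : R ≤ |z.im|) : ∀ᶠ w in 𝓝 z, f w = f z := by
  rcases le_abs.1 hR with h' | h'
  · have := h.top z hz h'
    filter_upwards [this] with w hw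
    rw [hw, this.self_of_nhds]
  · have := h.bot z hz (by linarith)
    filter_upwards [this] with w hw
    rw [hw, this.self_of_nhds]

/-- outside a ball the level set is above or below `R` -/
lemma Lev.im_of_norm {Y L : Set ℂ} {X R S : ℝ} (hL : Lev Y L X) (hS : X + R ≤ S) {z : ℂ}
    (hz : z ∈ L) (h : S < ‖z‖) : R ≤ |z.im| := by
  have h1 := hL.bdd z hz
  have h2 := Complex.norm_le_abs_re_add_abs_im z
  linarith

/-- cut-off functions -/
lemma exists_cutoff (S : ℝ) : ∃ κ : ℂ → ℝ, ContDiff ℝ ∞ κ ∧ HasCompactSupport κ ∧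
    (∀ z, 0 ≤ κ z ∧ κ z ≤ 1) ∧ (∀ z, ‖z‖ ≤ S → ∀ᶠ w in 𝓝 z, κ w = 1) := by
  obtain ⟨κ, h1, h2, h3, h4⟩ := Sep_590.exists_smooth (T := closedBall (0 : ℂ) S)
    (B := (ball (0 : ℂ) (S + 1))ᶜ) isClosed_closedBall isOpen_ball.isClosed_compl (by
      rw [disjoint_compl_right_iff_subset]
      exact closedBall_subset_ball (by linarith))
  refine ⟨κ, h1, HasCompactSupport.intro (isCompact_closedBall (0 : ℂ) (S + 1)) fun z hz => ?_, h2,
    fun z hz => h3 z (by simpa using hz)⟩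
  exact (h4 z fun hb => hz (ball_subset_closedBall hb)).self_of_nhds

section Int

variable {Y L : Set ℂ} {X : ℝ} {m σ : Measure ℂ} {e : ℂ → ℂ} {y : ℂ → ℝ}

lemma Slc.ae_mem (hS : Slc Y L X m σ e y) : ∀ᵐ z ∂m, z ∈ L \ Y := by
  rw [ae_iff]; exact hS.mL

lemma tau_eq (g : ℂ → ℝ) (e : ℂ → ℂ) (z : ℂ) :
    fderiv ℝ g z (e z) = fderiv ℝ g z 1 * (e z).re + fderiv ℝ g z Complex.I * (e z).im := by
  have h : e z = (e z).re • (1 : ℂ) + (e z).im • Complex.I := by
    simp
  conv_lhs => rw [h]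
  rw [map_add, map_smul, map_smul, smul_eq_mul, smul_eq_mul]; ring

lemma Slc.tau_le (hS : Slc Y L X m σ e y) (g : ℂ → ℝ) (z : ℂ) :
    |fderiv ℝ g z (e z)| ≤ ‖fderiv ℝ g z‖ := by
  have h1 := (fderiv ℝ g z).le_opNorm (e z)
  rw [Real.norm_eq_abs] at h1
  calc _ ≤ ‖fderiv ℝ g z‖ * ‖e z‖ := h1
    _ ≤ ‖fderiv ℝ g z‖ * 1 := mul_le_mul_of_nonneg_left (hS.e1 z) (norm_nonneg _)
    _ = _ := mul_one _

lemma Slc.tau_meas (hS : Slc Y L X m σ e y) {g : ℂ → ℝ} (hg : ContDiff ℝ ∞ g) :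
    Measurable fun z => fderiv ℝ g z (e z) := by
  have h1 : Continuous (fderiv ℝ g) := hg.continuous_fderiv (by simp)
  have h2 : Measurable fun z => fderiv ℝ g z 1 :=
    ((ContinuousLinearMap.apply ℝ ℝ (1 : ℂ)).continuous.comp h1).measurable
  have h3 : Measurable fun z => fderiv ℝ g z Complex.I :=
    ((ContinuousLinearMap.apply ℝ ℝ Complex.I).continuous.comp h1).measurable
  simp_rw [tau_eq]
  exact (h2.mul (Complex.measurable_re.comp hS.em)).add (h3.mul (Complex.measurable_im.comp hS.em))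

lemma Slc.finball (hS : Slc Y L X m σ e y) (R : ℝ) : IsFiniteMeasure (m.restrict (closedBall 0 R)) :=
  ⟨by rw [Measure.restrict_apply_univ]; exact hS.mfin R⟩

/-- bounded functions, supported (on `L \ Y`) in a ball, are integrable -/
lemma Slc.int_of_bdd (hS : Slc Y L X m σ e y) {F : ℂ → ℝ} (hF : AEStronglyMeasurable F m) {B R : ℝ}
    (hB : ∀ᵐ z ∂m, ‖z‖ ≤ R → |F z| ≤ B) (h0 : ∀ᵐ z ∂m, R < ‖z‖ → F z = 0) : Integrable F m := by
  have := hS.finball R
  have h1 : IntegrableOn (fun _ => B) (closedBall (0 : ℂ) R) m := integrable_const B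
  have h2 : Integrable ((closedBall (0 : ℂ) R).indicator fun _ => B) m :=
    h1.integrable_indicator isClosed_closedBall.measurableSet
  refine h2.mono' hF ?_
  filter_upwards [hB, h0] with z h3 h4
  by_cases hz : ‖z‖ ≤ R
  · rw [indicator_of_mem (by simpa using hz)]
    exact h3 hz
  · rw [indicator_of_notMem (by simpa using hz), h4 (not_le.1 hz)]
    simp

lemma Slc.int_tau (hS : Slc Y L X m σ e y) {g : ℂ → ℝ} (hg : ContDiff ℝ ∞ g) {R : ℝ}
    (h0 : ∀ z ∈ L \ Y, R < ‖z‖ → fderiv ℝ g z = 0) :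
    Integrable (fun z => fderiv ℝ g z (e z)) m := by
  have h1 : Continuous (fderiv ℝ g) := hg.continuous_fderiv (by simp)
  obtain ⟨B, hB⟩ := (isCompact_closedBall (0 : ℂ) R).exists_bound_of_continuousOn h1.continuousOn
  refine hS.int_of_bdd (hS.tau_meas hg).aestronglyMeasurable (B := B) (R := R)
    (ae_of_all _ fun z hz => (hS.tau_le g z).trans (hB z (by simpa using hz))) ?_
  filter_upwards [hS.ae_mem] with z hz hR
  rw [h0 z hz hR]; rfl

lemma Slc.int_en (hL : Lev Y L X) (hS : Slc Y L X m σ e y) {f : ℂ → ℝ} {R : ℝ} (hf : En Y L R f) :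
    Integrable (fun z => fderiv ℝ f z (e z)) m :=
  hS.int_tau hf.sm (R := X + R) fun _ hz hzR => fd_zero (hf.cst_out hz.1 (hL.im_of_norm le_rfl hz.1 hzR))

/-- **end values**: the total variation of an end function along `L` is one -/
theorem Slc.en_int (hL : Lev Y L X) (hS : Slc Y L X m σ e y) {f : ℂ → ℝ} {R : ℝ}
    (hf : En Y L R f) : ∫ z, fderiv ℝ f z (e z) ∂m = 1 := by
  obtain ⟨R₀, f₀, h1, h2⟩ := hS.s2
  set R' := max R R₀ with hR'
  have hf' : En Y L R' f := hf.mono (le_max_left _ _)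
  have hf₀ : En Y L R' f₀ := h1 R' (le_max_right _ _)
  obtain ⟨B, hB⟩ := hL.cY.isBounded.exists_norm_le
  set S := max (X + R') B with hSd
  obtain ⟨κ, g1, g2, g3, g4⟩ := exists_cutoff S
  set g : ℂ → ℝ := fun z => κ z * (f z - f₀ z) with hg
  have hgs : ContDiff ℝ ∞ g := g1.mul (hf'.sm.sub hf₀.sm)
  have hgL : LCc Y g := by
    refine ⟨hgs, g2.mul_right, fun z hz => ?_⟩
    filter_upwards [g4 z ((hB z hz).trans (le_max_right _ _)), hf'.lc z hz, hf₀.lc z hz] with w w1 w2 w3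
    simp only [hg]
    rw [w1, w2, w3, (g4 z ((hB z hz).trans (le_max_right _ _))).self_of_nhds]
  have key : ∀ z ∈ L \ Y, fderiv ℝ g z = fderiv ℝ f z - fderiv ℝ f₀ z := by
    rintro z ⟨hzL, hzY⟩
    have hd1 : DifferentiableAt ℝ f z := hf'.sm.differentiable (by simp) z
    have hd2 : DifferentiableAt ℝ f₀ z := hf₀.sm.differentiable (by simp) z
    by_cases hz : ‖z‖ ≤ S
    · have : g =ᶠ[𝓝 z] fun w => f w - f₀ w := by
        filter_upwards [g4 z hz] with w hw
        simp only [hg]; rw [hw, one_mul]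
      rw [this.fderiv_eq, fderiv_fun_sub hd1 hd2]
    · have him : R' ≤ |z.im| := hL.im_of_norm (le_max_left _ _) hzL (not_le.1 hz)
      have e1 : ∀ᶠ w in 𝓝 z, f w = f₀ w := by
        rcases le_abs.1 him with h' | h'
        · filter_upwards [hf'.top z hzL h', hf₀.top z hzL h'] with w w1 w2
          rw [w1, w2]
        · filter_upwards [hf'.bot z hzL (by linarith), hf₀.bot z hzL (by linarith)] with w w1 w2
          rw [w1, w2]
      have : g =ᶠ[𝓝 z] fun _ => 0 := by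
        filter_upwards [e1] with w hw
        simp only [hg]; rw [hw, sub_self, mul_zero]
      rw [this.fderiv_eq, fd_zero (hf'.cst_out hzL him), fd_zero (hf₀.cst_out hzL him), sub_zero,
        fderiv_fun_const]; rfl
  have h3 := hS.s1 g hgL
  have h4 : ∫ z, fderiv ℝ g z (e z) ∂m = ∫ z, (fderiv ℝ f z (e z) - fderiv ℝ f₀ z (e z)) ∂m := by
    refine integral_congr_ae ?_
    filter_upwards [hS.ae_mem] with z hz
    rw [key z hz]; rfl
  rw [h4, integral_sub (hS.int_en hL hf') (hS.int_en hL hf₀), h2] at h3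
  linarith

lemma En.mul {R : ℝ} {f g : ℂ → ℝ} (hf : En Y L R f) (hg : En Y L R g) :
    En Y L R (fun z => f z * g z) := by
  refine ⟨hf.sm.mul hg.sm, fun z hz => ?_, fun z hz h => ?_, fun z hz h => ?_⟩
  · filter_upwards [hf.lc z hz, hg.lc z hz] with w w1 w2
    rw [w1, w2]
  · filter_upwards [hf.top z hz h, hg.top z hz h] with w w1 w2
    rw [w1, w2, one_mul]
  · filter_upwards [hf.bot z hz h, hg.bot z hz h] with w w1 w2
    rw [w1, w2, zero_mul]

/-- **antisymmetry of the order along `L`** -/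
theorem order (hL : Lev Y L X) (hS : Slc Y L X m σ e y) {R r s c c' : ℝ} {p z : ℂ} {f g : ℂ → ℝ}
    (hf : Cut Y L R p r f) (hg : Cut Y L R z s g) (hc : ∀ w ∈ ball z s, f w = c)
    (hc' : ∀ w ∈ ball p r, g w = c') : c + c' = 1 := by
  have h1 := hS.en_int hL (hf.toEn.mul hg.toEn)
  have h2 : ∫ w, fderiv ℝ (fun z => f z * g z) w (e w) ∂m =
      ∫ w, (c * fderiv ℝ g w (e w) + c' * fderiv ℝ f w (e w)) ∂m := by
    refine integral_congr_ae ?_
    filter_upwards [hS.ae_mem] with w hw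
    rw [fderiv_fun_mul (hf.sm.differentiable (by simp) w) (hg.sm.differentiable (by simp) w)]
    simp only [_root_.add_apply, _root_.smul_apply, smul_eq_mul]
    congr 1
    · by_cases hwb : w ∈ ball z s
      · rw [hc w hwb]
      · rw [fd_zero (hg.cst w hw.1 hwb)]; simp
    · by_cases hwb : w ∈ ball p r
      · rw [hc' w hwb]
      · rw [fd_zero (hf.cst w hw.1 hwb)]; simp
  rw [h2, integral_add ((hS.int_en hL hg.toEn).const_mul c) ((hS.int_en hL hf.toEn).const_mul c'),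
    integral_const_mul, integral_const_mul, hS.en_int hL hg.toEn, hS.en_int hL hf.toEn] at h1
  linarith

end Int

end Crest.Agent.R105.LmY_338
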