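import Mathlib
import Crest.Agent.R105.LmY2_338

/-!
# Row 105, S0138, Lemma Y (helper338), part 3: cuts at two points of a continuum agree off it
-/

set_option autoImplicit false

namespace Crest.Agent.R105.LmY_338

open Set Topology Metric Filter MeasureTheory
open scoped ContDiff Manifold

lemma exists_im_bound {K : Set ℂ} (hK : IsCompact K) : ∃ B, ∀ z ∈ K, |z.im| < B := by
  obtain ⟨B, hB⟩ := hK.isBounded.exists_norm_le
  exact ⟨B + 1, fun z hz => by linarith [hB z hz, Complex.abs_im_le_norm z]⟩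

section

variable {Y L : Set ℂ} {X : ℝ} {m σ : Measure ℂ} {e : ℂ → ℂ} {y : ℂ → ℝ}

/-- good points in small continua inside a continuum -/
lemma Slc.exists_good (hS : Slc Y L X m σ e y) (hY : IsClosed Y) {C : Set ℂ} (hCL : C ⊆ L)
    (hC : IsCompact C) (hCc : IsPreconnected C) {p v : ℂ} (hp : p ∈ C) (hpY : p ∉ Y) (hv : v ∈ C)
    (hvp : v ≠ p) {δ : ℝ} (hδ : 0 < δ) : ∃ p' ∈ C, p' ∉ Y ∧ dist p' p ≤ δ ∧ Good L X p' ∧ m {p'} = 0 := by
  obtain ⟨ε, hε, hεY⟩ := Metric.isOpen_iff.1 hY.isOpen_compl p hpY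
  set δ' := min δ (min (ε / 2) (dist v p / 2)) with hδ'
  have hvp' : 0 < dist v p := dist_pos.2 hvp
  have hδ'0 : 0 < δ' := by rw [hδ']; positivity
  have h1 : δ' ≤ δ := min_le_left _ _
  have h2 : δ' ≤ ε / 2 := (min_le_right _ _).trans (min_le_left _ _)
  have h3 : δ' ≤ dist v p / 2 := (min_le_right _ _).trans (min_le_right _ _)
  obtain ⟨M, hMC, hM, hMc, hpM, x, hxM, hx⟩ := bump_in hC hCc hp hv hδ'0 (by linarith)
  have hMY : M ⊆ L \ Y := fun w hw => ⟨hCL (hMC hw).1, by
    have : w ∈ ball p ε := by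
      have := (hMC hw).2
      rw [mem_closedBall] at this
      rw [mem_ball]; linarith
    exact hεY this⟩
  obtain ⟨p', hp'M, hg, hm⟩ := hS.s5 M hMY hM hMc ⟨p, hpM, x, hxM, fun h => by
    rw [← h, dist_self] at hx; exact hδ'0.ne hx⟩
  exact ⟨p', (hMC hp'M).1, (hMY hp'M).2, (mem_closedBall.1 (hMC hp'M).2).trans h1, hg, hm⟩

theorem claim (hL : Lev Y L X) (hS : Slc Y L X m σ e y) (hB : BumpL Y L) {C : Set ℂ}
    (hCL : C ⊆ L) (hC : IsCompact C) (hCc : IsPreconnected C)
    (hCs : ∀ z ∈ C, connectedComponentIn Y z ⊆ C) {p q : ℂ} (hp : p ∈ C) (hq : q ∈ C)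
    (hpY : p ∉ Y) (hqY : q ∉ Y) {z : ℂ} (hz : z ∈ L) (hzC : z ∉ C) :
    ∃ δ > 0, ∀ r, 0 < r → r ≤ δ → ∀ R f g, Cut Y L R p r f → Cut Y L R q r g → f z = g z := by
  -- a bounded neighbourhood of the component of `z`, off `C`
  have hKc : IsCompact (connectedComponentIn Y z ∪ {z}) :=
    (Thin_12.isCompact_cc hL.cY z).union isCompact_singleton
  have hKC : connectedComponentIn Y z ∪ {z} ⊆ Cᶜ := by
    rintro w (hw | hw) hwC
    · have h1 := hCs w hwC
      rw [← connectedComponentIn_eq hw] at h1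
      by_cases hzY : z ∈ Y
      · exact hzC (h1 (mem_connectedComponentIn hzY))
      · rw [connectedComponentIn_eq_empty hzY] at hw; exact hw
    · rw [mem_singleton_iff.1 hw] at hwC; exact hzC hwC
  obtain ⟨δ₀, hδ₀, hthick⟩ := hKc.exists_cthickening_subset_open hC.isClosed.isOpen_compl hKC
  have hsub : connectedComponentIn Y z ∪ {z} ⊆ thickening δ₀ (connectedComponentIn Y z ∪ {z}) :=
    self_subset_thickening hδ₀ _
  have hN : IsOpen (thickening δ₀ (connectedComponentIn Y z ∪ {z})) := isOpen_thickening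
  obtain ⟨D, hDs, hD, hDc, hzD, x, hxD, hxf⟩ := hB z hz _ hN
    hKc.isBounded.thickening (hsub (Or.inr rfl)) (subset_union_left.trans hsub)
  have hDL : D ⊆ L := fun w hw => (hDs hw).1
  have hDC : ∀ w ∈ D, w ∉ C := fun w hw =>
    hthick (closure_thickening_subset_cthickening _ _ (hDs hw).2)
  have hxN : x ∉ thickening δ₀ (connectedComponentIn Y z ∪ {z}) := by
    rw [hN.frontier_eq] at hxf; exact hxf.2
  -- a point of `D` off `Y`
  obtain ⟨w, hwD, hwY⟩ : ∃ w ∈ D, w ∉ Y := by
    by_contra hcon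
    push Not at hcon
    have h1 : D ⊆ connectedComponentIn Y z := hDc.subset_connectedComponentIn hzD hcon
    exact hxN (hsub (Or.inl (h1 hxD)))
  obtain ⟨v, hvD, hvw⟩ : ∃ v ∈ D, v ≠ w := by
    by_cases h : z = w
    · refine ⟨x, hxD, fun h' => hxN ?_⟩
      rw [h', ← h]; exact hsub (Or.inr rfl)
    · exact ⟨z, hzD, h⟩
  obtain ⟨z', hz'D, hz'Y, -, ⟨H, hH, hHc, hHL, hH1, hH2⟩, -⟩ :=
    hS.exists_good hL.cY.isClosed hDL hD hDc hwD hwY hvD hvw one_pos
  have hz'C : z' ∉ C := hDC z' hz'D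
  have hz'L : z' ∈ L := hDL hz'D
  have hnot : ∀ a ∈ C, a ∉ Y → a ∉ H ∪ D ∪ Y := by
    rintro a haC haY ((h | h) | h)
    · have := hHL ⟨h, hCL haC⟩
      rw [mem_singleton_iff] at this
      exact hz'C (this ▸ haC)
    · exact hDC a h haC
    · exact haY h
  have hcl : IsClosed (H ∪ D ∪ Y) := (hH.union hD |>.union hL.cY).isClosed
  obtain ⟨ε₁, hε₁, hb₁⟩ := Metric.isOpen_iff.1 hcl.isOpen_compl p (hnot p hp hpY)
  obtain ⟨ε₂, hε₂, hb₂⟩ := Metric.isOpen_iff.1 hcl.isOpen_compl q (hnot q hq hqY)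
  refine ⟨min 1 (min (ε₁ / 2) (ε₂ / 2)), by positivity, fun r hr hrδ R f g hf hg => ?_⟩
  have hr1 : r ≤ 1 := hrδ.trans (min_le_left _ _)
  have hr2 : r ≤ ε₁ / 2 := hrδ.trans ((min_le_right _ _).trans (min_le_left _ _))
  have hr3 : r ≤ ε₂ / 2 := hrδ.trans ((min_le_right _ _).trans (min_le_right _ _))
  have hpb : ∀ w ∈ closedBall p r, w ∉ H ∪ D ∪ Y := fun w hw => by
    refine hb₁ ?_
    rw [mem_closedBall] at hw; rw [mem_ball]; linarith
  have hqb : ∀ w ∈ closedBall q r, w ∉ H ∪ D ∪ Y := fun w hw => by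
    refine hb₂ ?_
    rw [mem_closedBall] at hw; rw [mem_ball]; linarith
  have hfD : f z = f z' := const_on hDc (fun w hw => hf.cst w (hDL hw) fun h =>
    hpb w (ball_subset_closedBall h) (Or.inl (Or.inr hw))) hzD hz'D
  have hgD : g z = g z' := const_on hDc (fun w hw => hg.cst w (hDL hw) fun h =>
    hqb w (ball_subset_closedBall h) (Or.inl (Or.inr hw))) hzD hz'D
  rw [hfD, hgD]
  -- the ball at `z'`
  have hev : ∀ᶠ w in 𝓝 z', f w = f z' ∧ g w = g z' ∧ w ∉ C ∧ w ∉ Y := by
    filter_upwards [hf.cst z' hz'L fun h => hpb z' (ball_subset_closedBall h) (Or.inl (Or.inr hz'D)),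
      hg.cst z' hz'L fun h => hqb z' (ball_subset_closedBall h) (Or.inl (Or.inr hz'D)),
      hC.isClosed.isOpen_compl.mem_nhds hz'C, hL.cY.isClosed.isOpen_compl.mem_nhds hz'Y]
      with w w1 w2 w3 w4
    exact ⟨w1, w2, w3, w4⟩
  obtain ⟨s, hs, hsb⟩ := Metric.eventually_nhds_iff_ball.1 hev
  obtain ⟨B, hBd⟩ := exists_im_bound (hH.union (hL.cY.union ((isCompact_closedBall p 1).union
    ((isCompact_closedBall q 1).union (isCompact_closedBall z' (max s 1))))))
  set R' := max R (max B 1) with hR'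
  have hRR' : R ≤ R' := le_max_left _ _
  have hBR' : B ≤ R' := (le_max_left _ _).trans (le_max_right _ _)
  have hR'0 : 0 < R' := lt_of_lt_of_le one_pos ((le_max_right _ _).trans (le_max_right _ _))
  obtain ⟨h, hh, hhZ⟩ := cut (Y := Y) (L := L) (H := H) (Z := closedBall p r ∪ closedBall q r)
    (p := z') (r := s) (R := R') (X := X) hL hR'0
    (disjoint_left.2 fun w hw => (hsb w hw).2.2.2)
    ((isCompact_closedBall p r).union (isCompact_closedBall q r))
    (disjoint_left.2 fun w hw hwY => by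
      rcases hw with hw | hw
      · exact hpb w hw (Or.inr hwY)
      · exact hqb w hw (Or.inr hwY))
    hH hHc (hHL.trans (singleton_subset_iff.2 (mem_ball_self hs)))
    (disjoint_left.2 fun w hwH hw => by
      rcases hw with hw | hw
      · exact hpb w hw (Or.inl (Or.inl hwH))
      · exact hqb w hw (Or.inl (Or.inl hwH)))
    (fun w hw => (hBd w (Or.inl hw)).le.trans hBR')
    (fun w hw => (hBd w (Or.inr (Or.inl hw))).trans_le hBR')
    (fun w hw => by
      rcases hw with hw | hw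
      · exact (hBd w (Or.inr (Or.inr (Or.inl (closedBall_subset_closedBall hr1 hw))))).trans_le hBR'
      · exact (hBd w (Or.inr (Or.inr (Or.inr (Or.inl (closedBall_subset_closedBall hr1 hw)))))).trans_le hBR')
    (fun w hw => (hBd w (Or.inr (Or.inr (Or.inr (Or.inr
      (closedBall_subset_closedBall (le_max_left _ _) (ball_subset_closedBall hw))))))).trans_le hBR')
    (fun w hw => by
      have key : ∀ a ∈ L, w ∈ closedBall a r → |w.re| ≤ X := fun a ha hwa => by
        have h1 := hL.bdd a ha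
        have h2 : |w.re - a.re| ≤ r := by
          rw [← Complex.sub_re]
          exact (Complex.abs_re_le_norm _).trans (by rw [mem_closedBall, dist_eq_norm] at hwa; exact hwa)
        have h3 : |w.re| ≤ |w.re - a.re| + |a.re| := by
          have := abs_add_le (w.re - a.re) a.re
          rwa [sub_add_cancel] at this
        linarith
      rcases hw with hw | hw
      · exact key p (hCL hp) hw
      · exact key q (hCL hq) hw)
    hH1 hH2
  have hhC : h p = h q := const_on hCc (fun w hw => hh.cst w (hCL hw) fun hb =>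
    (hsb w hb).2.2.1 hw) hp hq
  have hhp : ∀ w ∈ ball p r, h w = h p := fun w hw =>
    const_on (convex_closedBall p r).isPreconnected (fun v hv => hhZ v (Or.inl hv))
      (ball_subset_closedBall hw) (mem_closedBall_self hr.le)
  have hhq : ∀ w ∈ ball q r, h w = h q := fun w hw =>
    const_on (convex_closedBall q r).isPreconnected (fun v hv => hhZ v (Or.inr hv))
      (ball_subset_closedBall hw) (mem_closedBall_self hr.le)
  have o1 := order hL hS (hf.mono hRR') hh (fun w hw => (hsb w hw).1) hhp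
  have o2 := order hL hS (hg.mono hRR') hh (fun w hw => (hsb w hw).2.1) hhq
  rw [hhC] at o1
  linarith

end

end Crest.Agent.R105.LmY_338
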