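import Mathlib
import Crest.Agent.R105.LmY3_338

/-!
# Row 105, S0138, Lemma Y (helper338), part 4: the value of `y` at a cut
-/

set_option autoImplicit false

namespace Crest.Agent.R105.LmY_338

open Set Topology Metric Filter MeasureTheory
open scoped ContDiff Manifold

section

variable {Y L : Set ℂ} {X : ℝ} {m σ : Measure ℂ} {e : ℂ → ℂ} {y : ℂ → ℝ}

/-- a fixed bump function and its gradient bound -/
lemma exists_eta : ∃ (η : ℂ → ℝ) (A : ℝ), ContDiff ℝ ∞ η ∧ (∀ z, 0 ≤ η z ∧ η z ≤ 1) ∧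
    (∀ z, ‖z‖ ≤ 1 → ∀ᶠ w in 𝓝 z, η w = 1) ∧ (∀ z, 2 ≤ ‖z‖ → ∀ᶠ w in 𝓝 z, η w = 0) ∧ 0 ≤ A ∧
    ∀ z, ‖fderiv ℝ η z‖ ≤ A := by
  obtain ⟨η, h1, h2, h3, h4⟩ := Sep_590.exists_smooth (T := closedBall (0 : ℂ) 1)
    (B := (ball (0 : ℂ) 2)ᶜ) isClosed_closedBall isOpen_ball.isClosed_compl (by
      rw [disjoint_compl_right_iff_subset]
      exact closedBall_subset_ball (by norm_num))
  obtain ⟨A, hA⟩ := (isCompact_closedBall (0 : ℂ) 2).exists_bound_of_continuousOn
    (h1.continuous_fderiv (by simp)).continuousOn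
  refine ⟨η, max A 0, h1, h2, fun z hz => h3 z (by simpa using hz),
    fun z hz => h4 z (by simpa using hz), le_max_right _ _, fun z => ?_⟩
  by_cases hz : z ∈ closedBall (0 : ℂ) 2
  · exact (hA z hz).trans (le_max_left _ _)
  · have : η =ᶠ[𝓝 z] fun _ => 0 := h4 z fun h => hz (ball_subset_closedBall h)
    rw [this.fderiv_eq, fderiv_fun_const]
    simp

/-- **the value of `y` at a cut** -/
theorem Slc.val (hL : Lev Y L X) (hS : Slc Y L X m σ e y) {p : ℂ} {δ : ℝ} (hδ : 0 < δ)
    (hb : closedBall p (3 * δ) ⊆ Yᶜ) : ∃ B, 0 ≤ B ∧ ∀ r, 0 < r → r ≤ δ → ∀ R f, Cut Y L R p r f →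
      Integrable (fun z => y z * fderiv ℝ f z (e z)) m ∧
      |∫ z, y z * fderiv ℝ f z (e z) ∂m - y p| ≤ B * (m (closedBall p (2 * r))).toReal := by
  obtain ⟨η, A, h1, h2, h3, h4, hA, h5⟩ := exists_eta
  have hYo : IsOpen Yᶜ := hL.cY.isClosed.isOpen_compl
  have hfy : ContinuousOn (fderiv ℝ y) (closedBall p (3 * δ)) :=
    (hS.ys.continuousOn_fderiv_of_isOpen hYo (by simp)).mono hb
  obtain ⟨K, hK⟩ := (isCompact_closedBall p (3 * δ)).exists_bound_of_continuousOn hfy
  have hK0 : 0 ≤ K := (norm_nonneg _).trans (hK p (mem_closedBall_self (by positivity)))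
  have hlip : ∀ z ∈ closedBall p (3 * δ), |y z - y p| ≤ K * ‖z - p‖ := fun z hz => by
    have := (convex_closedBall p (3 * δ)).norm_image_sub_le_of_norm_fderiv_le (𝕜 := ℝ) (f := y)
      (fun x hx => ((hS.ys x (hb hx)).contDiffAt (hYo.mem_nhds (hb hx))).differentiableAt (by simp))
      hK (mem_closedBall_self (by positivity)) hz
    rwa [Real.norm_eq_abs] at this
  refine ⟨K * (2 * A + 1), by positivity, fun r hr hrδ R f hf => ?_⟩
  set F : ℂ → ℝ := fun z => (y z - y p) * η (r⁻¹ • (z - p)) with hF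
  have hn : ∀ z : ℂ, ‖r⁻¹ • (z - p)‖ = dist z p / r := fun z => by
    rw [norm_smul, Real.norm_eq_abs, abs_of_pos (inv_pos.2 hr), dist_eq_norm, inv_mul_eq_div]
  have hsc : Continuous fun w : ℂ => r⁻¹ • (w - p) := by fun_prop
  have hηs : ContDiff ℝ ∞ fun z : ℂ => η (r⁻¹ • (z - p)) := h1.comp (by fun_prop)
  -- `F` vanishes off the ball of radius `2r`
  have hF0 : ∀ z, 2 * r ≤ dist z p → ∀ᶠ w in 𝓝 z, F w = 0 := fun z hz => by
    have := hsc.continuousAt.eventually (h4 (r⁻¹ • (z - p)) (by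
      rw [hn, le_div_iff₀ hr]; exact hz))
    filter_upwards [this] with w hw
    simp only [hF]; rw [hw, mul_zero]
  have hysm : ∀ z, z ∉ Y → ContDiffAt ℝ ∞ y z := fun z hz =>
    (hS.ys z hz).contDiffAt (hYo.mem_nhds hz)
  have hFs : ContDiff ℝ ∞ F := by
    rw [contDiff_iff_contDiffAt]
    intro z
    by_cases hz : dist z p < 2 * r
    · have hzY : z ∉ Y := hb (by rw [mem_closedBall]; linarith)
      exact ((hysm z hzY).sub contDiffAt_const).mul hηs.contDiffAt
    · exact contDiffAt_const.congr_of_eventuallyEq (hF0 z (not_lt.1 hz))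
  have hFb : ∀ z, ‖fderiv ℝ F z‖ ≤ K * (2 * A + 1) := by
    intro z
    by_cases hz : dist z p < 2 * r
    · have hz3 : z ∈ closedBall p (3 * δ) := by rw [mem_closedBall]; linarith
      have hzY : z ∉ Y := hb hz3
      have d1 : DifferentiableAt ℝ (fun w => y w - y p) z :=
        ((hysm z hzY).differentiableAt (by simp)).sub_const _
      have d2 : DifferentiableAt ℝ (fun w : ℂ => η (r⁻¹ • (w - p))) z := hηs.differentiable (by simp) z
      have e2 : ‖fderiv ℝ (fun w : ℂ => η (r⁻¹ • (w - p))) z‖ ≤ A * r⁻¹ := by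
        have hd : HasFDerivAt (fun w : ℂ => r⁻¹ • (w - p)) (r⁻¹ • ContinuousLinearMap.id ℝ ℂ) z :=
          ((hasFDerivAt_id z).sub_const p).const_smul r⁻¹
        have hη : HasFDerivAt η (fderiv ℝ η (r⁻¹ • (z - p))) (r⁻¹ • (z - p)) :=
          (h1.differentiable (by simp) _).hasFDerivAt
        have hc : HasFDerivAt (fun w : ℂ => η (r⁻¹ • (w - p)))
          ((fderiv ℝ η (r⁻¹ • (z - p))).comp (r⁻¹ • ContinuousLinearMap.id ℝ ℂ)) z := hη.comp z hd
        rw [hc.fderiv]
        refine (ContinuousLinearMap.opNorm_comp_le _ _).trans ?_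
        refine mul_le_mul (h5 _) ?_ (norm_nonneg _) hA
        rw [norm_smul, Real.norm_eq_abs, abs_of_pos (inv_pos.2 hr)]
        exact mul_le_of_le_one_right (inv_pos.2 hr).le ContinuousLinearMap.norm_id_le
      have e1 : |y z - y p| ≤ K * (2 * r) := by
        refine (hlip z hz3).trans (mul_le_mul_of_nonneg_left ?_ hK0)
        rw [← dist_eq_norm]; exact hz.le
      have e3 : ‖fderiv ℝ (fun w => y w - y p) z‖ ≤ K := by
        rw [fderiv_sub_const]; exact hK z hz3
      rw [hF, fderiv_fun_mul d1 d2]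
      refine (norm_add_le _ _).trans ?_
      rw [norm_smul, norm_smul, Real.norm_eq_abs, Real.norm_eq_abs, abs_of_nonneg (h2 _).1]
      have e4 : |y z - y p| * ‖fderiv ℝ (fun w : ℂ => η (r⁻¹ • (w - p))) z‖ ≤ K * (2 * r) * (A * r⁻¹) :=
        mul_le_mul e1 e2 (norm_nonneg _) (by positivity)
      have e5 : K * (2 * r) * (A * r⁻¹) = K * (2 * A) := by field_simp
      have e6 : η (r⁻¹ • (z - p)) * ‖fderiv ℝ (fun w => y w - y p) z‖ ≤ 1 * K :=
        mul_le_mul (h2 _).2 e3 (norm_nonneg _) zero_le_one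
      nlinarith [e4, e5, e6]
    · have : F =ᶠ[𝓝 z] fun _ => 0 := hF0 z (not_lt.1 hz)
      rw [this.fderiv_eq, fderiv_fun_const]
      simp only [Pi.zero_apply, norm_zero]
      positivity
  -- `F f` is admissible in `s1`
  have hFc : HasCompactSupport F := HasCompactSupport.intro (isCompact_closedBall p (2 * r))
    fun z hz => (hF0 z (by rw [mem_closedBall] at hz; linarith)).self_of_nhds
  have hFY : ∀ z ∈ Y, ∀ᶠ w in 𝓝 z, F w = 0 := fun z hz => hF0 z (by
    by_contra hcon
    exact hb (show z ∈ closedBall p (3 * δ) by rw [mem_closedBall]; linarith) hz)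
  have hs1 := hS.s1 (fun z => F z * f z) ⟨hFs.mul hf.sm, hFc.mul_right, fun z hz => by
    filter_upwards [hFY z hz] with w hw
    rw [hw, (hFY z hz).self_of_nhds, zero_mul, zero_mul]⟩
  have hfi := hS.int_en hL hf.toEn
  have hfm := hS.tau_meas hf.sm
  -- integrability
  have i1 : Integrable (fun z => F z * fderiv ℝ f z (e z)) m := by
    obtain ⟨M, hM⟩ := hFc.exists_bound_of_continuous hFs.continuous
    exact hfi.bdd_mul hFs.continuous.aestronglyMeasurable (ae_of_all _ hM)
  have i2 : Integrable (fun z => f z * fderiv ℝ F z (e z)) m := by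
    have hFi : Integrable (fun z => fderiv ℝ F z (e z)) m := by
      obtain ⟨B, hB⟩ := hFc.isBounded.exists_norm_le
      refine hS.int_tau hFs (R := B) fun z _ hz => ?_
      have : z ∉ tsupport F := fun h => absurd (hB z h) (not_le.2 hz)
      have h0 : F =ᶠ[𝓝 z] fun _ => 0 := notMem_tsupport_iff_eventuallyEq.1 this
      rw [h0.fderiv_eq, fderiv_fun_const]; rfl
    exact hFi.bdd_mul hf.sm.continuous.aestronglyMeasurable (c := 1)
      (ae_of_all _ fun z => by rw [Real.norm_eq_abs, abs_of_nonneg (hf.c01 z).1]; exact (hf.c01 z).2)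
  have hsum : ∫ z, F z * fderiv ℝ f z (e z) ∂m = - ∫ z, f z * fderiv ℝ F z (e z) ∂m := by
    have : ∫ z, fderiv ℝ (fun z => F z * f z) z (e z) ∂m =
        ∫ z, (F z * fderiv ℝ f z (e z) + f z * fderiv ℝ F z (e z)) ∂m := by
      refine integral_congr_ae (ae_of_all _ fun z => ?_)
      simp only
      rw [fderiv_fun_mul (hFs.differentiable (by simp) z) (hf.sm.differentiable (by simp) z)]
      simp only [_root_.add_apply, _root_.smul_apply, smul_eq_mul]
    rw [this, integral_add i1 i2] at hs1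
    linarith
  -- `y` replaced by `F + y p`
  have hyF : ∀ᵐ z ∂m, y z * fderiv ℝ f z (e z) = F z * fderiv ℝ f z (e z) + y p * fderiv ℝ f z (e z) := by
    filter_upwards [hS.ae_mem] with z hz
    by_cases hzb : z ∈ ball p r
    · have : η (r⁻¹ • (z - p)) = 1 := (h3 _ (by
        rw [hn, div_le_one hr]; exact (mem_ball.1 hzb).le)).self_of_nhds
      simp only [hF]; rw [this]; ring
    · rw [fd_zero (hf.cst z hz.1 hzb)]; simp
  have i3 : Integrable (fun z => y z * fderiv ℝ f z (e z)) m :=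
    (i1.add (hfi.const_mul (y p))).congr (hyF.mono fun z hz => hz.symm)
  refine ⟨i3, ?_⟩
  rw [integral_congr_ae hyF, integral_add i1 (hfi.const_mul (y p)), integral_const_mul,
    hS.en_int hL hf.toEn, mul_one, add_sub_cancel_right, hsum, abs_neg]
  -- the error
  have i4 : IntegrableOn (fun _ : ℂ => K * (2 * A + 1)) (closedBall p (2 * r)) m := by
    refine integrableOn_const ?_
    refine ne_of_lt (lt_of_le_of_lt (measure_mono ?_) (hS.mfin (‖p‖ + 2 * r)))
    intro z hz
    rw [mem_closedBall, dist_zero_right]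
    rw [mem_closedBall, dist_eq_norm] at hz
    calc ‖z‖ = ‖p + (z - p)‖ := by rw [add_sub_cancel]
      _ ≤ ‖p‖ + ‖z - p‖ := norm_add_le _ _
      _ ≤ _ := by linarith
  calc |∫ z, f z * fderiv ℝ F z (e z) ∂m| ≤ ∫ z, |f z * fderiv ℝ F z (e z)| ∂m :=
        abs_integral_le_integral_abs
    _ ≤ ∫ z, (closedBall p (2 * r)).indicator (fun _ => K * (2 * A + 1)) z ∂m := by
        refine integral_mono_of_nonneg (ae_of_all _ fun z => abs_nonneg _)
          (i4.integrable_indicator isClosed_closedBall.measurableSet) (ae_of_all _ fun z => ?_)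
        simp only
        by_cases hz : z ∈ closedBall p (2 * r)
        · rw [indicator_of_mem hz, abs_mul, abs_of_nonneg (hf.c01 z).1]
          calc _ ≤ 1 * ‖fderiv ℝ F z‖ := mul_le_mul (hf.c01 z).2 (hS.tau_le F z) (abs_nonneg _) zero_le_one
            _ ≤ _ := by rw [one_mul]; exact hFb z
        · rw [indicator_of_notMem hz]
          have : F =ᶠ[𝓝 z] fun _ => 0 := hF0 z (by rw [mem_closedBall] at hz; linarith)
          rw [this.fderiv_eq, fderiv_fun_const]
          simp
    _ = K * (2 * A + 1) * (m (closedBall p (2 * r))).toReal := by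
        rw [integral_indicator isClosed_closedBall.measurableSet, setIntegral_const, smul_eq_mul,
          mul_comm]
        rfl

end

end Crest.Agent.R105.LmY_338
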