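import Mathlib
import Crest.Agent.R105.LmY4_338

/-!
# Row 105, S0138, **LEMMA Y** (helper338), part 5: `y` along the continua of a level set

`lemY` : `|y p - y q| ≤ ∫_C ‖∇y‖ dm + σ C` for `p, q ∈ C \ Y`, `C` a saturated continuum of `L`.
-/

set_option autoImplicit false

namespace Crest.Agent.R105.LmY_338

open Set Topology Metric Filter MeasureTheory
open scoped ContDiff Manifold

section

variable {Y L : Set ℂ} {X : ℝ} {m σ : Measure ℂ} {e : ℂ → ℂ} {y : ℂ → ℝ}

lemma abs_re_le_of_closedBall {L : Set ℂ} {X : ℝ} (hb : ∀ q ∈ L, |q.re| + 1 ≤ X) {a w : ℂ}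
    {r : ℝ} (hr : r ≤ 1) (ha : a ∈ L) (hw : w ∈ closedBall a r) : |w.re| ≤ X := by
  have h1 := hb a ha
  have h2 : |w.re - a.re| ≤ r := by
    rw [← Complex.sub_re]
    exact (Complex.abs_re_le_norm _).trans (by rw [mem_closedBall, dist_eq_norm] at hw; exact hw)
  have h3 : |w.re| ≤ |w.re - a.re| + |a.re| := by
    have := abs_add_le (w.re - a.re) a.re
    rwa [sub_add_cancel] at this
  linarith

/-- shrinking balls around a point without mass -/
lemma Slc.tendsto_ball (hS : Slc Y L X m σ e y) {p : ℂ} (hp : m {p} = 0) {r : ℕ → ℝ}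
    (hr : Tendsto r atTop (𝓝 0)) : Tendsto (fun n => (m (closedBall p (2 * r n))).toReal) atTop (𝓝 0) := by
  have h1 : Tendsto (fun n : ℕ => m (closedBall p (1 / (n + 1)))) atTop
      (𝓝 (m (⋂ n : ℕ, closedBall p (1 / ((n : ℝ) + 1))))) := by
    refine tendsto_measure_iInter_atTop (fun n => isClosed_closedBall.measurableSet.nullMeasurableSet)
      (fun a b hab => closedBall_subset_closedBall ?_) ⟨0, ?_⟩
    · exact one_div_le_one_div_of_le (by positivity) (by exact_mod_cast Nat.add_le_add_right hab 1)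
    · refine ne_of_lt (lt_of_le_of_lt (measure_mono ?_) (hS.mfin (‖p‖ + 1)))
      intro z hz
      rw [mem_closedBall, dist_zero_right]
      rw [mem_closedBall, dist_eq_norm] at hz
      norm_num at hz
      calc ‖z‖ = ‖p + (z - p)‖ := by rw [add_sub_cancel]
        _ ≤ ‖p‖ + ‖z - p‖ := norm_add_le _ _
        _ ≤ _ := by linarith
  have h2 : ⋂ n : ℕ, closedBall p (1 / ((n : ℝ) + 1)) = {p} := by
    ext z
    simp only [mem_iInter, mem_closedBall, mem_singleton_iff]
    constructor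
    · intro h
      by_contra hne
      obtain ⟨n, hn⟩ := exists_nat_one_div_lt (dist_pos.2 hne)
      exact absurd (h n) (not_le.2 hn)
    · rintro rfl n
      rw [dist_self]; positivity
  rw [h2, hp] at h1
  have h3 : Tendsto (fun n : ℕ => (m (closedBall p (1 / ((n : ℝ) + 1)))).toReal) atTop (𝓝 0) := by
    have := (ENNReal.tendsto_toReal (a := 0) (by simp)).comp h1
    simpa [Function.comp_def] using this
  rw [Metric.tendsto_atTop] at h3 ⊢
  intro ε hε
  obtain ⟨N, hN⟩ := h3 ε hε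
  have h4 : ∀ᶠ n in atTop, 2 * r n < 1 / ((N : ℝ) + 1) := by
    have : Tendsto (fun n => 2 * r n) atTop (𝓝 0) := by simpa using hr.const_mul 2
    exact this.eventually (gt_mem_nhds (by positivity))
  obtain ⟨M, hM⟩ := eventually_atTop.1 h4
  refine ⟨M, fun n hn => ?_⟩
  have h5 := hN N le_rfl
  rw [Real.dist_0_eq_abs, abs_of_nonneg ENNReal.toReal_nonneg] at h5 ⊢
  refine lt_of_le_of_lt (ENNReal.toReal_mono ?_ (measure_mono
    (closedBall_subset_closedBall (hM n hn).le))) h5
  refine ne_of_lt (lt_of_le_of_lt (measure_mono ?_) (hS.mfin (‖p‖ + 1)))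
  intro z hz
  rw [mem_closedBall, dist_zero_right]
  rw [mem_closedBall, dist_eq_norm] at hz
  have h6 : (1 : ℝ) / ((N : ℝ) + 1) ≤ 1 := by
    rw [div_le_one (by positivity)]
    linarith [Nat.cast_nonneg (α := ℝ) N]
  calc ‖z‖ = ‖p + (z - p)‖ := by rw [add_sub_cancel]
    _ ≤ ‖p‖ + ‖z - p‖ := norm_add_le _ _
    _ ≤ _ := by linarith

/-- dominated convergence with a remaining set -/
lemma tendsto_off {μ : Measure ℂ} {C : Set ℂ} (hC : MeasurableSet C) {G : ℕ → ℂ → ℝ} {w : ℂ → ℝ}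
    (hw : Integrable w μ) (hw0 : ∀ z, 0 ≤ w z) (hG : ∀ n, AEStronglyMeasurable (G n) μ)
    (hG1 : ∀ n z, |G n z| ≤ 1) (h0 : ∀ᵐ z ∂μ, z ∉ C → ∀ᶠ n in atTop, G n z = 0) :
    ∃ a : ℕ → ℝ, Tendsto a atTop (𝓝 0) ∧ ∀ n, ∫ z, |G n z| * w z ∂μ ≤ ∫ z in C, w z ∂μ + a n := by
  have hGi : ∀ n, Integrable (fun z => |G n z| * w z) μ := fun n => by
    refine hw.mono' ((hG n).norm.mul hw.1) (ae_of_all _ fun z => ?_)
    rw [Real.norm_eq_abs, abs_mul, abs_abs, abs_of_nonneg (hw0 z)]
    exact mul_le_of_le_one_left (hw0 z) (hG1 n z)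
  refine ⟨fun n => ∫ z in Cᶜ, |G n z| * w z ∂μ, ?_, fun n => ?_⟩
  · have := tendsto_integral_of_dominated_convergence (μ := μ.restrict Cᶜ)
      (F := fun n z => |G n z| * w z) (f := fun _ => 0) w
      (fun n => (hGi n).1.mono_measure Measure.restrict_le_self) hw.integrableOn
      (fun n => ae_of_all _ fun z => by
        rw [Real.norm_eq_abs, abs_mul, abs_abs, abs_of_nonneg (hw0 z)]
        exact mul_le_of_le_one_left (hw0 z) (hG1 n z))
      (by
        rw [ae_restrict_iff' hC.compl]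
        filter_upwards [h0] with z hz hzC
        refine tendsto_const_nhds.congr' ?_
        filter_upwards [hz hzC] with n hn
        rw [hn]; simp)
    simpa using this
  · rw [← integral_add_compl hC (hGi n)]
    refine add_le_add (setIntegral_mono_on (hGi n).integrableOn hw.integrableOn hC
      fun z _ => ?_) le_rfl
    exact mul_le_of_le_one_left (hw0 z) (hG1 n z)

/-- Lemma Y at good points -/
theorem lemY_good (hL : Lev Y L X) (hS : Slc Y L X m σ e y) (hB : BumpL Y L) {C : Set ℂ}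
    (hCL : C ⊆ L) (hC : IsCompact C) (hCc : IsPreconnected C)
    (hCs : ∀ z ∈ C, connectedComponentIn Y z ⊆ C) {p q : ℂ} (hp : p ∈ C) (hq : q ∈ C)
    (hpY : p ∉ Y) (hqY : q ∉ Y) (gp : Good L X p) (gq : Good L X q) (mp : m {p} = 0)
    (mq : m {q} = 0) :
    |y p - y q| ≤ ∫ z in C, ‖fderiv ℝ y z‖ ∂m + (σ C).toReal := by
  have hYo : IsOpen Yᶜ := hL.cY.isClosed.isOpen_compl
  obtain ⟨Hp, hHp, hHpc, hHpL, hHp1, hHp2⟩ := gp
  obtain ⟨Hq, hHq, hHqc, hHqL, hHq1, hHq2⟩ := gq
  obtain ⟨ε₁, hε₁, hb₁⟩ := Metric.isOpen_iff.1 hYo p hpY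
  obtain ⟨ε₂, hε₂, hb₂⟩ := Metric.isOpen_iff.1 hYo q hqY
  set δ := min 1 (min (ε₁ / 4) (ε₂ / 4)) with hδd
  have hδ : 0 < δ := by positivity
  have hδ1 : δ ≤ 1 := min_le_left _ _
  have hbp : closedBall p (3 * δ) ⊆ Yᶜ := (closedBall_subset_ball (by
    have : δ ≤ ε₁ / 4 := (min_le_right _ _).trans (min_le_left _ _)
    linarith)).trans hb₁
  have hbq : closedBall q (3 * δ) ⊆ Yᶜ := (closedBall_subset_ball (by
    have : δ ≤ ε₂ / 4 := (min_le_right _ _).trans (min_le_right _ _)
    linarith)).trans hb₂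
  obtain ⟨B, hBd⟩ := exists_im_bound (hHp.union (hHq.union (hL.cY.union
    ((isCompact_closedBall p 1).union (isCompact_closedBall q 1)))))
  set R := max B 1 with hRd
  have hBR : B ≤ R := le_max_left _ _
  have hR0 : 0 < R := lt_of_lt_of_le one_pos (le_max_right _ _)
  set r : ℕ → ℝ := fun n => δ / ((n : ℝ) + 1) with hrd
  have hr0 : ∀ n, 0 < r n := fun n => by positivity
  have hrδ : ∀ n, r n ≤ δ := fun n => div_le_self hδ.le (by
    linarith [Nat.cast_nonneg (α := ℝ) n])
  have hrt : Tendsto r atTop (𝓝 0) := by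
    have := (tendsto_one_div_add_atTop_nhds_zero_nat (𝕜 := ℝ)).const_mul δ
    simpa [hrd, div_eq_mul_inv] using this
  have mk : ∀ {a : ℂ} {H : Set ℂ}, a ∈ L → closedBall a (3 * δ) ⊆ Yᶜ → IsCompact H →
      IsPreconnected H → H ∩ L ⊆ {a} → (∃ q ∈ H, q.re ≤ -X) → (∃ q ∈ H, X ≤ q.re) →
      (∀ w ∈ H, |w.im| < B) → (∀ w ∈ closedBall a 1, |w.im| < B) → ∀ n, ∃ f, Cut Y L R a (r n) f := by
    intro a H ha hab hH hHc hHL h1 h2 h3 h4 n
    obtain ⟨f, hf, -⟩ := cut (Y := Y) (L := L) (H := H) (Z := ∅) (p := a) (r := r n) (R := R)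
      (X := X) hL hR0
      (disjoint_left.2 fun w hw hwY => hab (ball_subset_closedBall
        (ball_subset_ball ((hrδ n).trans (by linarith)) hw)) hwY)
      isCompact_empty (disjoint_left.2 fun w hw => absurd hw (notMem_empty w)) hH hHc
      (hHL.trans (singleton_subset_iff.2 (mem_ball_self (hr0 n))))
      (disjoint_left.2 fun w _ hw => absurd hw (notMem_empty w))
      (fun w hw => (h3 w hw).le.trans hBR)
      (fun w hw => (hBd w (Or.inr (Or.inr (Or.inl hw)))).trans_le hBR)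
      (fun w hw => absurd hw (notMem_empty w))
      (fun w hw => (h4 w (ball_subset_closedBall (ball_subset_ball ((hrδ n).trans hδ1) hw))).trans_le hBR)
      (fun w hw => absurd hw (notMem_empty w)) h1 h2
    exact ⟨f, hf⟩
  choose f hf using mk (hCL hp) hbp hHp hHpc hHpL hHp1 hHp2 (fun w hw => hBd w (Or.inl hw))
    (fun w hw => hBd w (Or.inr (Or.inr (Or.inr (Or.inl hw)))))
  choose g hg using mk (hCL hq) hbq hHq hHqc hHqL hHq1 hHq2 (fun w hw => hBd w (Or.inr (Or.inl hw)))
    (fun w hw => hBd w (Or.inr (Or.inr (Or.inr (Or.inr hw)))))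
  -- the cut-off
  obtain ⟨D, hD⟩ := hL.cY.isBounded.exists_norm_le
  set S := max (X + R) D with hSd
  obtain ⟨κ, k1, k2, k3, k4⟩ := exists_cutoff S
  set G : ℕ → ℂ → ℝ := fun n z => κ z * (f n z - g n z) with hGd
  have hfg1 : ∀ n z, |f n z - g n z| ≤ 1 := fun n z => by
    rw [abs_le]
    constructor <;> linarith [((hf n).c01 z).1, ((hf n).c01 z).2, ((hg n).c01 z).1, ((hg n).c01 z).2]
  have hG1 : ∀ n z, |G n z| ≤ 1 := fun n z => by
    simp only [hGd]
    rw [abs_mul, abs_of_nonneg (k3 z).1]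
    exact mul_le_one₀ (k3 z).2 (abs_nonneg _) (hfg1 n z)
  have hGs : ∀ n, ContDiff ℝ ∞ (G n) := fun n => k1.mul ((hf n).sm.sub (hg n).sm)
  have hGL : ∀ n, LCc Y (G n) := fun n => by
    refine ⟨hGs n, k2.mul_right, fun z hz => ?_⟩
    have hzS : ‖z‖ ≤ S := (hD z hz).trans (le_max_right _ _)
    filter_upwards [k4 z hzS, (hf n).lc z hz, (hg n).lc z hz] with w w1 w2 w3
    simp only [hGd]
    rw [w1, w2, w3, (k4 z hzS).self_of_nhds]
  -- the pointwise form of the derivative along `L`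
  have hy0 : ∀ n, ∀ z ∈ L \ Y, fderiv ℝ (fun w => G n w * y w) z (e z) =
      (G n z * fderiv ℝ y z (e z)) + (y z * fderiv ℝ (f n) z (e z) - y z * fderiv ℝ (g n) z (e z)) := by
    rintro n z ⟨hzL, hzY⟩
    have dy : DifferentiableAt ℝ y z :=
      ((hS.ys z hzY).contDiffAt (hYo.mem_nhds hzY)).differentiableAt (by simp)
    have df : DifferentiableAt ℝ (f n) z := (hf n).sm.differentiable (by simp) z
    have dg : DifferentiableAt ℝ (g n) z := (hg n).sm.differentiable (by simp) z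
    rw [fderiv_fun_mul ((hGs n).differentiable (by simp) z) dy]
    simp only [_root_.add_apply, _root_.smul_apply, smul_eq_mul]
    congr 1
    rw [← mul_sub]
    congr 1
    by_cases hz : ‖z‖ ≤ S
    · have : G n =ᶠ[𝓝 z] fun w => f n w - g n w := by
        filter_upwards [k4 z hz] with w hw
        simp only [hGd]; rw [hw, one_mul]
      rw [this.fderiv_eq, fderiv_fun_sub df dg]; rfl
    · have him : R ≤ |z.im| := hL.im_of_norm (le_max_left _ _) hzL (not_le.1 hz)
      have e1 : ∀ᶠ w in 𝓝 z, f n w = g n w := by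
        rcases le_abs.1 him with h' | h'
        · filter_upwards [(hf n).top z hzL h', (hg n).top z hzL h'] with w w1 w2
          rw [w1, w2]
        · filter_upwards [(hf n).bot z hzL (by linarith), (hg n).bot z hzL (by linarith)] with w w1 w2
          rw [w1, w2]
      have : G n =ᶠ[𝓝 z] fun _ => 0 := by
        filter_upwards [e1] with w hw
        simp only [hGd]; rw [hw, sub_self, mul_zero]
      rw [this.fderiv_eq, fd_zero ((hf n).cst_out hzL him), fd_zero ((hg n).cst_out hzL him),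
        fderiv_fun_const]
      simp
  -- `∇y` on the relevant ball
  have hwi : Integrable ((closedBall (0 : ℂ) (S + 1)).indicator fun z => ‖fderiv ℝ y z‖) m :=
    (hS.yi (S + 1)).integrable_indicator isClosed_closedBall.measurableSet
  have hkS : ∀ z, z ∉ closedBall (0 : ℂ) (S + 1) → ∀ n, z ∈ L \ Y → G n z = 0 := by
    intro z hz n hzL
    have hz' : S < ‖z‖ := by
      rw [mem_closedBall, dist_zero_right, not_le] at hz; linarith
    have him : R ≤ |z.im| := hL.im_of_norm (le_max_left _ _) hzL.1 hz'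
    have e1 : f n z = g n z := by
      rcases le_abs.1 him with h' | h'
      · rw [((hf n).top z hzL.1 h').self_of_nhds, ((hg n).top z hzL.1 h').self_of_nhds]
      · rw [((hf n).bot z hzL.1 (by linarith)).self_of_nhds,
          ((hg n).bot z hzL.1 (by linarith)).self_of_nhds]
    simp only [hGd]; rw [e1, sub_self, mul_zero]
  -- off `C` the functions `G n` vanish eventually
  have h0 : ∀ z ∈ L, z ∉ C → ∀ᶠ n in atTop, G n z = 0 := by
    intro z hz hzC
    obtain ⟨δ', hδ', hcl⟩ := claim hL hS hB hCL hC hCc hCs hp hq hpY hqY hz hzC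
    filter_upwards [hrt.eventually (gt_mem_nhds hδ')] with n hn
    have := hcl (r n) (hr0 n) hn.le R (f n) (g n) (hf n) (hg n)
    simp only [hGd]; rw [this, sub_self, mul_zero]
  have : IsFiniteMeasure σ := ⟨hS.sf⟩
  obtain ⟨a, ha, ha'⟩ := tendsto_off (μ := σ) hC.measurableSet (G := G) (w := fun _ => 1)
    (integrable_const 1) (fun _ => zero_le_one) (fun n => (hGs n).continuous.aestronglyMeasurable)
    hG1 (by
      have hσ : ∀ᵐ z ∂σ, z ∈ L ∩ Y := by rw [ae_iff]; exact hS.sL
      filter_upwards [hσ] with z hz hzC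
      exact h0 z hz.1 hzC)
  obtain ⟨b, hb, hb'⟩ := tendsto_off (μ := m) hC.measurableSet (G := G) hwi
    (fun z => indicator_nonneg (fun _ _ => norm_nonneg _) z)
    (fun n => (hGs n).continuous.aestronglyMeasurable) hG1 (by
      filter_upwards [hS.ae_mem] with z hz hzC
      exact h0 z hz.1 hzC)
  obtain ⟨Bp, hBp0, hBp⟩ := hS.val hL hδ hbp
  obtain ⟨Bq, hBq0, hBq⟩ := hS.val hL hδ hbq
  have hmain : ∀ n, |y p - y q| ≤ (∫ z in C, ‖fderiv ℝ y z‖ ∂m + (σ C).toReal) +
      (a n + b n + Bp * (m (closedBall p (2 * r n))).toReal +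
        Bq * (m (closedBall q (2 * r n))).toReal) := by
    intro n
    obtain ⟨i1, v1⟩ := hBp (r n) (hr0 n) (hrδ n) R (f n) (hf n)
    obtain ⟨i2, v2⟩ := hBq (r n) (hr0 n) (hrδ n) R (g n) (hg n)
    have hGm : AEStronglyMeasurable (fun z => G n z * fderiv ℝ y z (e z)) m := by
      have h1 : AEStronglyMeasurable (fun z => fderiv ℝ y z (e z)) m := by
        have h2 : Measurable fun z => fderiv ℝ y z (e z) := by
          simp_rw [tau_eq]
          exact ((measurable_fderiv_apply_const ℝ y 1).mul (Complex.measurable_re.comp hS.em)).add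
            ((measurable_fderiv_apply_const ℝ y Complex.I).mul (Complex.measurable_im.comp hS.em))
        exact h2.aestronglyMeasurable
      exact (hGs n).continuous.aestronglyMeasurable.mul h1
    have hGle : ∀ᵐ z ∂m, |G n z * fderiv ℝ y z (e z)| ≤
        |G n z| * (closedBall (0 : ℂ) (S + 1)).indicator (fun z => ‖fderiv ℝ y z‖) z := by
      filter_upwards [hS.ae_mem] with z hz
      by_cases hzb : z ∈ closedBall (0 : ℂ) (S + 1)
      · rw [indicator_of_mem hzb, abs_mul]
        exact mul_le_mul_of_nonneg_left (hS.tau_le y z) (abs_nonneg _)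
      · rw [hkS z hzb n hz]; simp
    have i4 : Integrable (fun z => |G n z| *
        (closedBall (0 : ℂ) (S + 1)).indicator (fun z => ‖fderiv ℝ y z‖) z) m := by
      refine hwi.mono' ((hGs n).continuous.aestronglyMeasurable.norm.mul hwi.1) (ae_of_all _ fun z => ?_)
      rw [Real.norm_eq_abs, abs_mul, abs_abs, abs_of_nonneg
        (indicator_nonneg (fun _ _ => norm_nonneg _) z)]
      exact mul_le_of_le_one_left (indicator_nonneg (fun _ _ => norm_nonneg _) z) (hG1 n z)
    have i3 : Integrable (fun z => G n z * fderiv ℝ y z (e z)) m := i4.mono' hGm hGle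
    have h3 := hS.s3 (G n) (hGL n)
    have h4 : ∫ z, fderiv ℝ (fun w => G n w * y w) z (e z) ∂m =
        ∫ z, G n z * fderiv ℝ y z (e z) ∂m + (∫ z, y z * fderiv ℝ (f n) z (e z) ∂m -
          ∫ z, y z * fderiv ℝ (g n) z (e z) ∂m) := by
      rw [← integral_sub i1 i2, ← integral_add i3
        (show Integrable (fun z => y z * fderiv ℝ (f n) z (e z) -
          y z * fderiv ℝ (g n) z (e z)) m from i1.sub i2)]
      refine integral_congr_ae ?_
      filter_upwards [hS.ae_mem] with z hz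
      rw [hy0 n z hz]
    rw [h4] at h3
    have h5 : |∫ z, G n z * fderiv ℝ y z (e z) ∂m| ≤ ∫ z in C, ‖fderiv ℝ y z‖ ∂m + b n := by
      refine (abs_integral_le_integral_abs).trans ((integral_mono_ae i3.abs i4 hGle).trans
        ((hb' n).trans ?_))
      refine add_le_add (setIntegral_mono_on hwi.integrableOn ?_ hC.measurableSet
        fun z _ => ?_) le_rfl
      · obtain ⟨M, hM⟩ := hC.isBounded.exists_norm_le
        exact (hS.yi M).mono_set fun z hz => by simpa using hM z hz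
      · exact indicator_le_self' (fun _ _ => norm_nonneg _) z
    have h6 : ∫ z, |G n z| ∂σ ≤ (σ C).toReal + a n := by
      have := ha' n
      simp only [mul_one] at this
      refine this.trans (le_of_eq ?_)
      rw [setIntegral_const, smul_eq_mul, mul_one]; rfl
    have h7 := abs_le.1 h3
    have h8 := abs_le.1 h5
    have h9 := abs_le.1 v1
    have h10 := abs_le.1 v2
    rw [abs_le]
    constructor <;> linarith [h7.1, h7.2, h8.1, h8.2, h9.1, h9.2, h10.1, h10.2]
  have hlim : Tendsto (fun n => (∫ z in C, ‖fderiv ℝ y z‖ ∂m + (σ C).toReal) +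
      (a n + b n + Bp * (m (closedBall p (2 * r n))).toReal +
        Bq * (m (closedBall q (2 * r n))).toReal)) atTop
      (𝓝 ((∫ z in C, ‖fderiv ℝ y z‖ ∂m + (σ C).toReal) + (0 + 0 + Bp * 0 + Bq * 0))) :=
    tendsto_const_nhds.add (((ha.add hb).add ((hS.tendsto_ball mp hrt).const_mul Bp)).add
      ((hS.tendsto_ball mq hrt).const_mul Bq))
  have := ge_of_tendsto' hlim hmain
  simpa using this

/-- **LEMMA Y** -/
theorem lemY (hL : Lev Y L X) (hS : Slc Y L X m σ e y) (hB : BumpL Y L) :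
    ∀ C ⊆ L, IsCompact C → IsPreconnected C → (∀ z ∈ C, connectedComponentIn Y z ⊆ C) →
      ∀ p ∈ C \ Y, ∀ q ∈ C \ Y, |y p - y q| ≤ ∫ z in C, ‖fderiv ℝ y z‖ ∂m + (σ C).toReal := by
  rintro C hCL hC hCc hCs p ⟨hp, hpY⟩ q ⟨hq, hqY⟩
  have hYo : IsOpen Yᶜ := hL.cY.isClosed.isOpen_compl
  by_cases hpq : p = q
  · rw [hpq, sub_self, abs_zero]
    exact add_nonneg (integral_nonneg fun _ => norm_nonneg _) ENNReal.toReal_nonneg
  refine le_of_forall_pos_le_add fun ε hε => ?_
  have hyc : ∀ a, a ∉ Y → ContinuousAt y a := fun a ha =>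
    (hS.ys.continuousOn).continuousAt (hYo.mem_nhds ha)
  obtain ⟨δ₁, hδ₁, h1⟩ := Metric.continuousAt_iff.1 (hyc p hpY) (ε / 2) (by linarith)
  obtain ⟨δ₂, hδ₂, h2⟩ := Metric.continuousAt_iff.1 (hyc q hqY) (ε / 2) (by linarith)
  obtain ⟨p', hp', hp'Y, hp'd, gp, mp⟩ := hS.exists_good hL.cY.isClosed hCL hC hCc hp hpY hq
    (Ne.symm hpq) (half_pos hδ₁)
  obtain ⟨q', hq', hq'Y, hq'd, gq, mq⟩ := hS.exists_good hL.cY.isClosed hCL hC hCc hq hqY hp
    hpq (half_pos hδ₂)
  have h3 := lemY_good hL hS hB hCL hC hCc hCs hp' hq' hp'Y hq'Y gp gq mp mq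
  have h4 := h1 (x := p') (by linarith)
  have h5 := h2 (x := q') (by linarith)
  rw [Real.dist_eq] at h4 h5
  have h6 := abs_lt.1 h4
  have h7 := abs_lt.1 h5
  have h8 := abs_le.1 h3
  rw [abs_le]
  constructor <;> linarith [h6.1, h6.2, h7.1, h7.2, h8.1, h8.2]

end

end Crest.Agent.R105.LmY_338
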