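import Crest.Agent.R105.LmY5_338
import Crest.Agent.R105.Nip5_31

/-!
# Row 105, S0138, Lemma Y (helper338), part 6: the output in the form `SlB` of 31
-/

set_option autoImplicit false

namespace Crest.Agent.R105.LmY_338

open Set Topology Metric Filter MeasureTheory Ni_459 Bd_775 Tc_808
open scoped ContDiff ENNReal

variable {Y : Set ℂ} {a y : ℂ → ℝ} {X t : ℝ} {m σ : Measure ℂ} {e : ℂ → ℂ}

/-- Lemma Y in the form `SlB` -/
theorem slb (hL : Lev Y (Lv Y a t) X) (hS : Slc Y (Lv Y a t) X m σ e y)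
    (hB : BumpL Y (Lv Y a t)) {S : Set ℂ} (hSc : {K : Cmp Y | K.1 ⊆ S}.Countable)
    (hSs : ∀ K : Cmp Y, (K.1 ∩ S).Nonempty → K.1 ⊆ S) (hσ : σ (Y \ S) = 0) (R : ℝ) :
    Nip_31.SlB Y a y R t := by
  set ν₁ : Measure ℂ := (m.restrict (ball 0 R)).withDensity (fun z => ‖fderiv ℝ y z‖ₑ) with hν
  have hme : Measurable fun z => ‖fderiv ℝ y z‖ₑ := (measurable_fderiv ℝ y).enorm
  have h1 : ν₁ univ < ⊤ := by
    rw [hν, withDensity_apply _ MeasurableSet.univ, Measure.restrict_univ]
    refine lt_of_le_of_lt (lintegral_mono_set (ball_subset_closedBall)) ?_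
    have := (hS.yi R).2
    rw [hasFiniteIntegral_iff_enorm] at this
    simpa using this
  have h2 : ν₁ Y = 0 := by
    rw [hν]
    refine withDensity_absolutelyContinuous _ _ ?_
    refine le_antisymm ((Measure.restrict_apply_le _ _).trans ?_) zero_le
    exact (measure_mono (fun z hz h => h.2 hz)).trans hS.mL.le
  have hf1 : IsFiniteMeasure ν₁ := ⟨h1⟩
  have hf2 : IsFiniteMeasure σ := ⟨hS.sf⟩
  refine ⟨ν₁ + σ, S, inferInstance, hSc, hSs, ?_, ?_⟩
  · rw [Measure.add_apply, hσ, add_zero]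
    exact measure_mono_null sdiff_subset h2
  · intro C hC hCc hCp hCs p hp q hq
    have h3 := lemY hL hS hB C (fun z hz => (hC hz).1) hCc hCp hCs p hp q hq
    refine h3.trans (le_of_eq ?_)
    rw [Measure.add_apply, ENNReal.toReal_add (measure_ne_top _ _) (measure_ne_top _ _)]
    congr 1
    rw [hν, withDensity_apply _ hCc.measurableSet, Measure.restrict_restrict hCc.measurableSet,
      inter_eq_self_of_subset_left (fun z hz => (hC hz).2), integral_eq_lintegral_of_nonneg_ae
        (ae_of_all _ fun z => norm_nonneg _) (measurable_fderiv ℝ y).norm.aestronglyMeasurable]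
    simp only [ofReal_norm]

end Crest.Agent.R105.LmY_338
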