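import Crest.Agent.R105.LmY0_338
import Crest.Agent.R105.Cpt1_948

/-!
# Row 105, S0138, Lemma Y (helper338), part 7: the level sets of a switched function (`= re` far
away): `Lev`, `BumpL`, `Good`
-/

set_option autoImplicit false

namespace Crest.Agent.R105.LmY_338

open Set Topology Metric Filter MeasureTheory Ni_459 Bd_775 Tc_808
open Crest.AnalysisR (IsExteriorDomain)
open scoped ContDiff ENNReal

variable {Y : Set ℂ} {u : ℂ → ℝ}

theorem sat_nLv (t : ℝ) : ∀ z ∈ Lv Y u t, connectedComponentIn Y z ⊆ Lv Y u t := by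
  intro z hz w hw
  by_cases hzY : z ∈ Y
  · refine ⟨?_, ?_⟩
    · show lo Y u w ≤ t
      rw [lo_congr_cc hzY hw]; exact hz.1
    · show t ≤ up Y u w
      rw [up_congr_cc hzY hw]; exact hz.2
  · rw [connectedComponentIn_eq_empty hzY] at hw; exact absurd hw (notMem_empty w)

/-- boundary bumping in level sets -/
theorem bumpL (hY : IsExteriorDomain Yᶜ) (hl : LocallyLipschitzOn Yᶜ u) (hu : LB u)
    (hs : Swd Y u) (t : ℝ) : BumpL Y (Lv Y u t) := by
  intro z hz N hN hNb hzN _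
  obtain ⟨C, h1, h2, h3, h4, h5, -⟩ := Uni_659.bump hY hl hu hs t hN hNb ⟨hz, hzN⟩
  exact ⟨C, h1, h2, h3, h4, h5⟩

/-- level sets -/
theorem lev (hY : IsExteriorDomain Yᶜ) (hl : LocallyLipschitzOn Yᶜ u) (hu : LB u) {R₀ : ℝ}
    (hfar : ∀ z : ℂ, R₀ ≤ ‖z‖ → z ∉ Y ∧ u z = z.re) (t : ℝ) :
    Lev Y (Lv Y u t) (max R₀ |t| + 1) where
  cY := cpt_of hY
  cL := Uni_659.isClosed_nLv hY hu t
  sat := sat_nLv t
  bdd := by
    intro q hq
    rcases le_or_gt R₀ ‖q‖ with h | h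
    · obtain ⟨h1, h2⟩ := hfar q h
      rw [Sd_938.mem_Lv hY hu hl h1, h2] at hq
      rw [hq]; gcongr; exact le_max_right _ _
    · gcongr
      exact (Complex.abs_re_le_norm q).trans (h.le.trans (le_max_left _ _))

/-- regular points are good -/
theorem good (hY : IsExteriorDomain Yᶜ) (hl : LocallyLipschitzOn Yᶜ u) (hu : LB u)
    (hs : Swd Y u) (hfar : ∃ R : ℝ, ∀ z : ℂ, R ≤ ‖z‖ → u z = z.re) {t : ℝ} (X : ℝ) {p : ℂ}
    (hp : p ∉ Y) (hpt : u p = t) (hd : DifferentiableAt ℝ u p) (h0 : fderiv ℝ u p ≠ 0) :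
    Good (Lv Y u t) X p := by
  obtain ⟨e, he⟩ := Cpt_948.crs_of_fderiv hY hp hpt hd h0
  obtain ⟨Γ, H, hΓ, hpΓ, h1, h2, h3⟩ := Cpt_948.exists_gam hY hu hl hs hfar he
  obtain ⟨a, b, ha, hb, hab⟩ := h3 X
  refine ⟨range hab.somePath, isCompact_range hab.somePath.continuous,
    isPreconnected_range hab.somePath.continuous, ?_, ⟨a, ?_, ha⟩, ⟨b, ?_, hb⟩⟩
  · rintro z ⟨⟨s, rfl⟩, hz⟩
    exact h1 _ (hab.somePath_mem s) hz
  · exact ⟨0, hab.somePath.source⟩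
  · exact ⟨1, hab.somePath.target⟩

end Crest.Agent.R105.LmY_338
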