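import Crest.Agent.R105.LmY6_338
import Crest.Agent.R105.LmY7_338
import Crest.Agent.R105.LmS3_392

/-!
# Row 105, S0138, Lemma Y (helper338), part 8: from the slices of 392 to the slice data `Slc`
-/

set_option autoImplicit false

namespace Crest.Agent.R105.LmY_338

open Set Topology Metric Filter MeasureTheory Ni_459 Bd_775 Tc_808 LmS_392 Elf_600
open Crest.AnalysisR (IsExteriorDomain)
open scoped ContDiff ENNReal

variable {Y : Set ℂ} {a y : ℂ → ℝ} {s : Cmp Y → ℝ} {t : ℝ}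

/-- unit tangent of the levels of `a` -/
noncomputable def ee (a : ℂ → ℝ) (z : ℂ) : ℂ :=
  ⟨-(gy a z) / ‖fderiv ℝ a z‖, gx a z / ‖fderiv ℝ a z‖⟩

lemma fderiv_ee (a g : ℂ → ℝ) (z : ℂ) : fderiv ℝ g z (ee a z) = tau a g z := by
  rw [tau_eq]
  unfold ee tau wdg gx gy
  ring

lemma measurable_ee (a : ℂ → ℝ) : Measurable (ee a) := by
  have h1 : Measurable (gx a) := measurable_fderiv_apply_const ℝ a 1
  have h2 : Measurable (gy a) := measurable_fderiv_apply_const ℝ a Complex.I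
  have h3 : Measurable fun z => ‖fderiv ℝ a z‖ := (measurable_fderiv ℝ a).norm
  have h4 : ee a = fun z => ((-(gy a z) / ‖fderiv ℝ a z‖ : ℝ) : ℂ) +
      ((gx a z / ‖fderiv ℝ a z‖ : ℝ) : ℂ) * Complex.I := by
    funext z
    apply Complex.ext <;> simp [ee]
  rw [h4]
  exact (Complex.measurable_ofReal.comp (h2.neg.div h3)).add
    ((Complex.measurable_ofReal.comp (h1.div h3)).mul_const _)

lemma norm_ee_le (a : ℂ → ℝ) (z : ℂ) : ‖ee a z‖ ≤ 1 := by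
  rw [Complex.norm_def]
  refine Real.sqrt_le_one.2 ?_
  unfold ee
  rw [Complex.normSq_mk]
  have h1 : gx a z ^ 2 + gy a z ^ 2 = ‖fderiv ℝ a z‖ ^ 2 := en_eq a z
  by_cases h : ‖fderiv ℝ a z‖ = 0
  · simp [h]
  · have : -(gy a z) / ‖fderiv ℝ a z‖ * (-(gy a z) / ‖fderiv ℝ a z‖) +
        gx a z / ‖fderiv ℝ a z‖ * (gx a z / ‖fderiv ℝ a z‖) =
        (gx a z ^ 2 + gy a z ^ 2) / ‖fderiv ℝ a z‖ ^ 2 := by
      field_simp; ring
    rw [this, h1, div_self (by positivity)]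

/-- the jump measure of a level -/
noncomputable def sg (Y : Set ℂ) (a : ℂ → ℝ) (s : Cmp Y → ℝ) (t : ℝ) : Measure ℂ :=
  Measure.sum fun K : {K : Cmp Y // K.1 ⊆ Lv Y a t} =>
    ENNReal.ofReal (s K.1) • Measure.dirac (pt K.1)

lemma sg_apply {A : Set ℂ} (hA : MeasurableSet A) : sg Y a s t A =
    ∑' K : {K : Cmp Y // K.1 ⊆ Lv Y a t}, ENNReal.ofReal (s K.1) * A.indicator 1 (pt K.1) := by
  unfold sg
  rw [Measure.sum_apply _ hA]
  refine tsum_congr fun K => ?_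
  rw [Measure.smul_apply, smul_eq_mul, Measure.dirac_apply' _ hA]

lemma sg_univ (hsum : Summable fun K : {K : Cmp Y // K.1 ⊆ Lv Y a t} => s K.1) :
    sg Y a s t univ < ⊤ := by
  rw [sg_apply MeasurableSet.univ]
  simpa using hsum.tsum_ofReal_lt_top

lemma sg_zero {A : Set ℂ} (hA : MeasurableSet A)
    (h : ∀ K : Cmp Y, K.1 ⊆ Lv Y a t → 0 < s K → pt K ∉ A) : sg Y a s t A = 0 := by
  rw [sg_apply hA, ENNReal.tsum_eq_zero]
  intro K
  rcases le_or_gt (s K.1) 0 with h0 | h0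
  · rw [ENNReal.ofReal_of_nonpos h0, zero_mul]
  · rw [indicator_of_notMem (h K.1 K.2 h0), mul_zero]

lemma integral_sg (hs0 : ∀ K, 0 ≤ s K)
    (hsum : Summable fun K : {K : Cmp Y // K.1 ⊆ Lv Y a t} => s K.1) {χ : ℂ → ℝ}
    (hχ : Continuous χ) {M : ℝ} (hM : ∀ z, |χ z| ≤ M) :
    ∑' K : {K : Cmp Y // K.1 ⊆ Lv Y a t}, |χ (pt K.1)| * s K.1 = ∫ z, |χ z| ∂(sg Y a s t) := by
  have hfin : IsFiniteMeasure (sg Y a s t) := ⟨sg_univ hsum⟩
  have hi : Integrable (fun z => |χ z|) (sg Y a s t) := by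
    refine Integrable.of_bound hχ.abs.aestronglyMeasurable M (ae_of_all _ fun z => ?_)
    rw [Real.norm_eq_abs, abs_abs]; exact hM z
  have h1 := hasSum_integral_measure (μ := fun K : {K : Cmp Y // K.1 ⊆ Lv Y a t} =>
    ENNReal.ofReal (s K.1) • Measure.dirac (pt K.1)) (f := fun z => |χ z|) hi
  have h2 : (∫ z, |χ z| ∂(sg Y a s t)) = ∑' K : {K : Cmp Y // K.1 ⊆ Lv Y a t},
      ∫ z, |χ z| ∂(ENNReal.ofReal (s K.1) • Measure.dirac (pt K.1)) := h1.tsum_eq.symm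
  rw [h2]
  refine tsum_congr fun K => ?_
  rw [integral_smul_measure, integral_dirac, ENNReal.toReal_ofReal (hs0 _), smul_eq_mul, mul_comm]

/-- the carrier of the jump measure -/
def Sg (Y : Set ℂ) (a : ℂ → ℝ) (s : Cmp Y → ℝ) (t : ℝ) : Set ℂ :=
  ⋃ K : {K : Cmp Y // K.1 ⊆ Lv Y a t ∧ 0 < s K}, K.1.1

lemma Cmp.eq_of_mem {Y : Set ℂ} {K L : Cmp Y} {z : ℂ} (hK : z ∈ K.1) (hL : z ∈ L.1) : K = L := by
  obtain ⟨K', k, hk, rfl⟩ := K
  obtain ⟨L', l, hl, rfl⟩ := L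
  refine Subtype.ext ?_
  show connectedComponentIn Y k = connectedComponentIn Y l
  rw [connectedComponentIn_eq hK, connectedComponentIn_eq hL]

lemma Sg_countable (hsum : Summable fun K : {K : Cmp Y // K.1 ⊆ Lv Y a t} => s K.1) :
    {K : Cmp Y | K.1 ⊆ Lv Y a t ∧ 0 < s K}.Countable := by
  have h1 := hsum.countable_support
  refine (h1.image Subtype.val).mono ?_
  rintro K ⟨h2, h3⟩
  exact ⟨⟨K, h2⟩, h3.ne', rfl⟩

lemma Sg_sub (hsum : Summable fun K : {K : Cmp Y // K.1 ⊆ Lv Y a t} => s K.1) :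
    {K : Cmp Y | K.1 ⊆ Sg Y a s t}.Countable := by
  refine (Sg_countable hsum).mono fun K hK => ?_
  obtain ⟨z, hz⟩ := K.nonempty
  obtain ⟨L, hL⟩ := mem_iUnion.1 (hK hz)
  rw [Cmp.eq_of_mem hz hL]
  exact L.2

lemma Sg_sat (K : Cmp Y) (h : (K.1 ∩ Sg Y a s t).Nonempty) : K.1 ⊆ Sg Y a s t := by
  obtain ⟨z, hz, hz'⟩ := h
  obtain ⟨L, hL⟩ := mem_iUnion.1 hz'
  rw [Cmp.eq_of_mem hz hL]
  exact fun w hw => mem_iUnion.2 ⟨L, hw⟩

lemma Sg_meas (hY : IsExteriorDomain Yᶜ)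
    (hsum : Summable fun K : {K : Cmp Y // K.1 ⊆ Lv Y a t} => s K.1) :
    MeasurableSet (Sg Y a s t) := by
  have := (Sg_countable hsum).to_subtype
  have h : Sg Y a s t = ⋃ K : {K : Cmp Y | K.1 ⊆ Lv Y a t ∧ 0 < s K}, K.1.1 := rfl
  rw [h]
  refine MeasurableSet.iUnion fun K => ?_
  obtain ⟨z, -, hz⟩ := K.1.2
  rw [hz]
  exact (Thin_12.isCompact_cc (cpt_of hY) z).measurableSet

lemma sg_Sg (hY : IsExteriorDomain Yᶜ)
    (hsum : Summable fun K : {K : Cmp Y // K.1 ⊆ Lv Y a t} => s K.1) :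
    sg Y a s t (Y \ Sg Y a s t) = 0 := by
  refine sg_zero ((cpt_of hY).measurableSet.diff (Sg_meas hY hsum)) fun K hK h0 h => h.2 ?_
  exact mem_iUnion.2 ⟨⟨K, hK, h0⟩, pt_mem K⟩

/-- the step at height `R₀ + 1` -/
lemma en_st {L : Set ℂ} {R₀ : ℝ} (hfar : ∀ z : ℂ, R₀ ≤ ‖z‖ → z ∉ Y) {R : ℝ}
    (hR : |R₀| + 3 ≤ R) :
    En Y L R fun w : ℂ => Real.smoothTransition (w.im - (R₀ + 1)) := by
  have hst : ContDiff ℝ ∞ fun w : ℂ => Real.smoothTransition (w.im - (R₀ + 1)) :=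
    Real.smoothTransition.contDiff.comp (Complex.imCLM.contDiff.sub contDiff_const)
  refine ⟨hst, ?_, ?_, ?_⟩
  · intro z hz
    have h1 : z.im < R₀ := by
      by_contra hcon
      push Not at hcon
      exact hfar z (hcon.trans ((le_abs_self _).trans (Complex.abs_im_le_norm z))) hz
    have h2 : ∀ᶠ w : ℂ in 𝓝 z, w.im < R₀ :=
      Complex.continuous_im.continuousAt.eventually (gt_mem_nhds h1)
    filter_upwards [h2] with w hw
    rw [Real.smoothTransition.zero_of_nonpos (by linarith),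
      Real.smoothTransition.zero_of_nonpos (by linarith)]
  · intro z _ hz
    have h1 : R₀ + 2 < z.im := by linarith [le_abs_self R₀]
    have h2 : ∀ᶠ w : ℂ in 𝓝 z, R₀ + 2 < w.im :=
      Complex.continuous_im.continuousAt.eventually (lt_mem_nhds h1)
    filter_upwards [h2] with w hw
    exact Real.smoothTransition.one_of_one_le (by linarith)
  · intro z _ hz
    have h1 : z.im < R₀ + 1 := by linarith [neg_abs_le R₀, abs_nonneg R₀]
    have h2 : ∀ᶠ w : ℂ in 𝓝 z, w.im < R₀ + 1 :=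
      Complex.continuous_im.continuousAt.eventually (gt_mem_nhds h1)
    filter_upwards [h2] with w hw
    exact Real.smoothTransition.zero_of_nonpos (by linarith)

/-- **from the slices of 392 to the slice data of Lemma Y** -/
theorem slc_of {m : Measure ℂ} {R₀ : ℝ} (hY : IsExteriorDomain Yᶜ) (hl : LocallyLipschitzOn Yᶜ a)
    (hu : LB a) (hs : Swd Y a) (hfar : ∀ z : ℂ, R₀ ≤ ‖z‖ → z ∉ Y ∧ a z = z.re)
    (h0 : Sl0 Y a y t m) (hs0 : ∀ K, 0 ≤ s K)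
    (hsum : Summable fun K : {K : Cmp Y // K.1 ⊆ Lv Y a t} => s K.1)
    (S1 : ∀ g, Lc1 Y g → HasCompactSupport g → ∫ z, tau a g z ∂m = 0)
    (S2 : ∀ (χ : ℂ → ℝ) (R : ℝ), Lc1 Y χ →
      (∀ z ∈ Lv Y a t, R ≤ z.im → ∀ᶠ w in 𝓝 z, χ w = 1) →
      (∀ z ∈ Lv Y a t, z.im ≤ -R → ∀ᶠ w in 𝓝 z, χ w = 0) → ∫ z, tau a χ z ∂m = 1)
    (S3 : ∀ χ, Lc1 Y χ → HasCompactSupport χ → |∫ z, tau a (fun w => χ w * y w) z ∂m| ≤
      ∑' K : {K : Cmp Y // K.1 ⊆ Lv Y a t}, |χ (pt K.1)| * s K.1)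
    (S5 : ∀ C ⊆ Yᶜ ∩ a ⁻¹' {t}, IsPreconnected C → C.Nontrivial →
      ∃ p ∈ C, m {p} = 0 ∧ DifferentiableAt ℝ a p ∧ fderiv ℝ a p ≠ 0)
    (hy : ContDiffOn ℝ ∞ y Yᶜ) (hyb : ∀ R, ∃ M, ∀ z ∉ Y, ‖z‖ ≤ R → |y z| ≤ M) :
    Slc Y (Lv Y a t) (max R₀ |t| + 1) m (sg Y a s t) (ee a) y where
  mL := by
    have h1 : (Lv Y a t \ Y)ᶜ ⊆ {z | ¬ (z ∉ Y ∧ a z = t)} := fun z hz hz' =>
      hz ⟨(Sd_938.mem_Lv hY hu hl hz'.1).2 hz'.2, hz'.1⟩
    exact measure_mono_null h1 h0.conc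
  mfin := h0.fin
  em := measurable_ee a
  e1 := norm_ee_le a
  s1 := by
    intro g hg
    simp only [fderiv_ee]
    exact S1 g ⟨hg.sm.of_le (by exact_mod_cast le_top), hg.lc⟩ hg.cs
  s2 := by
    refine ⟨|R₀| + 3, _, fun R hR => en_st (fun z hz => (hfar z hz).1) hR, ?_⟩
    have h1 := en_st (L := Lv Y a t) (fun z hz => (hfar z hz).1) (le_refl (|R₀| + 3))
    simp only [fderiv_ee]
    exact S2 _ _ ⟨h1.sm.of_le (by exact_mod_cast le_top), h1.lc⟩ h1.top h1.bot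
  sf := sg_univ hsum
  sL := by
    refine sg_zero ((Uni_659.isClosed_nLv hY hu t).inter
      (cpt_of hY).isClosed).measurableSet.compl fun K hK _ h => h ⟨hK (pt_mem K), pt_mem' K⟩
  ys := hy
  yb := hyb
  yi := by
    intro R
    refine ⟨(measurable_fderiv ℝ y).norm.aestronglyMeasurable, ?_⟩
    rw [hasFiniteIntegral_iff_enorm]
    simpa using h0.finy R
  s3 := by
    intro χ hχ
    have h1 := S3 χ ⟨hχ.sm.of_le (by exact_mod_cast le_top), hχ.lc⟩ hχ.cs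
    simp only [fderiv_ee]
    obtain ⟨M, hM⟩ := hχ.cs.exists_bound_of_continuous hχ.sm.continuous
    rwa [integral_sg hs0 hsum hχ.sm.continuous (M := M) fun z => by simpa using hM z] at h1
  s5 := by
    intro M hM _ hMp hMn
    obtain ⟨p, hp, h1, h2, h3⟩ := S5 M (fun z hz => ⟨(hM hz).2,
      (Sd_938.mem_Lv hY hu hl (hM hz).2).1 (hM hz).1⟩) hMp hMn
    refine ⟨p, hp, ?_, h1⟩
    exact good hY hl hu hs ⟨R₀, fun z hz => (hfar z hz).2⟩ _ (hM hp).2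
      ((Sd_938.mem_Lv hY hu hl (hM hp).2).1 (hM hp).1) h2 h3

end Crest.Agent.R105.LmY_338
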