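import Crest.Agent.R105.LmY8_338
import Crest.Agent.R105.LmS5_392
import Crest.Agent.R105.LmS6_405
import Crest.Agent.R105.Sk3a_157
import Crest.Agent.R105.Pct5_185
import Crest.Agent.R105.Nip9_31
import Crest.Agent.R105.SkA2_8

/-!
# Row 105, S0138, Lemma Y (helper338), part 9: Lemma Y for the package `Pk`
-/

set_option autoImplicit false

namespace Crest.Agent.R105.LmY_338

open Set Topology Metric Filter MeasureTheory Ni_459 Bd_775 Tc_808 LmS_392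
open Crest.AnalysisR (IsExteriorDomain)
open IfB_641 (X0)
open SelT_871 (JT)
open SkA_8 (Pk)
open scoped NNReal ContDiff

variable {Y : Set ℂ} {x0 u v φ : ℂ → ℝ} {p F : ℂ → ℂ} {a : ℕ → ℂ → ℝ}

/-- a good level has the slice bound -/
theorem slb_sl {b y : ℂ → ℝ} {s : Cmp Y → ℝ} {t R₀ : ℝ} {m : Measure ℂ}
    (hY : IsExteriorDomain Yᶜ) (hl : LocallyLipschitzOn Yᶜ b) (hb : LB b) (hs : Swd Y b)
    (hfar : ∀ z : ℂ, R₀ ≤ ‖z‖ → z ∉ Y ∧ b z = z.re) (hs0 : ∀ K, 0 ≤ s K) (ht : Sl Y b y s t m)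
    (hy : ContDiffOn ℝ ∞ y Yᶜ) (hyb : ∀ R : ℝ, ∃ M, ∀ z ∉ Y, ‖z‖ ≤ R → |y z| ≤ M) (R : ℝ) :
    Nip_31.SlB Y b y R t := by
  have hS := slc_of hY hl hb hs hfar ⟨ht.conc, ht.fin, ht.finy, ht.diff⟩ hs0 ht.sums ht.S1 ht.S2
    ht.S3 ht.S5 hy hyb
  exact slb (lev hY hl hb hfar t) hS (bumpL hY hl hb hs t) (Sg_sub ht.sums) Sg_sat
    (sg_Sg hY ht.sums) R

/-- Lemma Y, general form -/
theorem slb_ae {b y : ℂ → ℝ} {s : Cmp Y → ℝ} {R₀ : ℝ}
    (hY : IsExteriorDomain Yᶜ) (hl : LocallyLipschitzOn Yᶜ b) (hb : LB b) (hs : Swd Y b)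
    (hfar : ∀ z : ℂ, R₀ ≤ ‖z‖ → z ∉ Y ∧ b z = z.re) (hyl : LocallyLipschitzOn Yᶜ y)
    (hbe : ∀ R : ℝ, IntegrableOn (en b) (Yᶜ ∩ ball 0 R))
    (hye : ∀ R : ℝ, IntegrableOn (en y) (Yᶜ ∩ ball 0 R))
    (hs0 : ∀ K, 0 ≤ s K) (hss : Summable fun K => s K ^ 2)
    (hso : Summable fun K : Cmp Y => s K * Tc_808.osc Y b K.1) (hEL : ELc Y b y s)
    (hy : ContDiffOn ℝ ∞ y Yᶜ) (hyb : ∀ R : ℝ, ∃ M, ∀ z ∉ Y, ‖z‖ ≤ R → |y z| ≤ M) :
    ∀ᵐ t, ∀ R, Nip_31.SlB Y b y R t := by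
  obtain ⟨m, -, hSl⟩ := slices hY hl hb ⟨R₀, fun z hz => (hfar z hz).2⟩ hyl hbe hye hs0 hss hso hEL
  filter_upwards [hSl] with t ht R
  exact slb_sl hY hl hb hs hfar hs0 ht hy hyb R

lemma cd_im (hYc : IsClosed Y) (hp : DifferentiableOn ℂ p Yᶜ) :
    ContDiffOn ℝ ∞ (fun z => (p z).im) Yᶜ := by
  intro z hz
  have h1 : ContDiffAt ℂ ∞ p z := (hp.analyticAt (hYc.isOpen_compl.mem_nhds hz)).contDiffAt
  have h2 : ContDiffAt ℝ ∞ p z := h1.restrict_scalars ℝ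
  exact (Complex.imCLM.contDiff.contDiffAt.comp z h2).contDiffWithinAt

/-- Lemma Y for one control function `x0 + v` -/
theorem slbR (hY : IsExteriorDomain Yᶜ) (hx : X0 Y x0) (hu : TT Y u) (hv : TT Y v)
    (hv0 : HasCompactSupport v) (hs : Swd Y fun z => x0 z + v z)
    (hp : DifferentiableOn ℂ p Yᶜ) (hre : ∀ z ∈ Yᶜ, (p z).re = x0 z + u z)
    (hmin : ∀ χ, LC Y χ → HasCompactSupport χ → ∀ G : ℝ → ℝ, LipschitzWith 1 G → ∀ t : ℝ,
      JT Y x0 u ≤ JT Y x0 (fun z => u z + t * (χ z * G (x0 z + v z))))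
    (hyb : ∀ R : ℝ, ∃ M, ∀ z ∉ Y, ‖z‖ ≤ R → |(p z).im| ≤ M) :
    ∀ᵐ t, ∀ R, Nip_31.SlB Y (fun z => x0 z + v z) (fun z => (p z).im) R t := by
  obtain ⟨R1, hR1⟩ := hv0.isCompact.isBounded.exists_norm_le
  have hv1 : ∃ R : ℝ, ∀ z, R ≤ ‖z‖ → v z = 0 := ⟨R1 + 1, fun z hz => by
    by_contra h
    have := hR1 z (subset_tsupport _ h)
    linarith⟩
  obtain ⟨R₀, h0, hfar⟩ := LmS6_405.far hY hx hv1
  have hYc := (cpt_of hY).isClosed
  exact slb_ae (b := fun z => x0 z + v z) (y := fun z => (p z).im)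
    (s := fun K => Tc_808.osc Y u K.1) (R₀ := R₀) hY (LmS6_405.ll_a hx hv) (LmS6_405.lb_a hx hv) hs
    hfar (LmS6_405.ll_y hYc hp) (LmS6_405.en_a hY hx hv) (LmS6_405.en_y hY hx hu hp hre)
    (fun K => LmS6_405.s_nonneg K) (LmS6_405.s_sq hu) (LmS6_405.s_osc hx hu hv)
    (LmS6_405.el hY hx hu hv hp hre hmin) (cd_im hYc hp) hyb

/-- the test functions `χ G(x0 + a_i)` are admissible -/
theorem ni_chiG (P : Pk Y x0 a φ F) (i j : ℕ) {χ : ℂ → ℝ} (hχ : LC Y χ)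
    (hc : HasCompactSupport χ) {G : ℝ → ℝ} {Λ : ℝ≥0} (hG : LipschitzWith Λ G) :
    NI Y (a j) (fun z => χ z * G (x0 z + a i z)) := by
  have hYc := cpt_of P.hY
  obtain ⟨h1, -, -⟩ := Elf_600.test_chiG hYc P.hx (P.tta i) hχ hc hG
  have hfin := Sk3_157.finite_values hYc hχ
  have : Countable (χ '' Y) := hfin.countable.to_subtype
  refine Pct_185.NI_germ P.hY (P.tta i) h1.q.bdd (ι := χ '' Y)
    (k := fun c s => (c : ℝ) * G s) (Λ := fun c => ‖(c : ℝ)‖₊ * Λ) (fun c => ?_)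
    (S := ∅) countable_empty (fun K _ => ?_) (P.ni j i)
  · exact LipschitzWith.of_dist_le_mul fun s t => by
      rw [Real.dist_eq, ← mul_sub, abs_mul, NNReal.coe_mul, coe_nnnorm, Real.norm_eq_abs, mul_assoc]
      exact mul_le_mul_of_nonneg_left (hG.dist_le_mul s t) (abs_nonneg _)
  · obtain ⟨c, O, hO, hKO, h⟩ := LC.const_near hχ K.preconn K.subset
    obtain ⟨z, hz⟩ := K.nonempty
    refine ⟨⟨c, z, K.subset hz, h z (hKO hz)⟩, O ∩ (tsupport x0)ᶜ,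
      hO.inter (isClosed_tsupport x0).isOpen_compl,
      fun w hw => ⟨hKO hw, fun h' => P.hx.zero h' (K.subset hw)⟩, fun w hw _ => ?_⟩
    rw [h w hw.1, image_eq_zero_of_notMem_tsupport hw.2, zero_add]

/-- the minimality needed in the Euler-Lagrange inequality -/
theorem pk_min (P : Pk Y x0 a φ F) (i : ℕ) {χ : ℂ → ℝ} (hχ : LC Y χ)
    (hc : HasCompactSupport χ) {G : ℝ → ℝ} {Λ : ℝ≥0} (hG : LipschitzWith Λ G) (t : ℝ) :
    JT Y x0 φ ≤ JT Y x0 (fun z => φ z + t * (χ z * G (x0 z + a i z))) := by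
  have hYc := cpt_of P.hY
  obtain ⟨h1, -, -⟩ := Elf_600.test_chiG hYc P.hx (P.tta i) hχ hc hG
  have h2 : TT Y (fun z => φ z + t * (χ z * G (x0 z + a i z))) :=
    P.tt.add hYc.isClosed ((TT.const t).mul hYc.isClosed h1)
  refine P.min _ h2 fun j => ?_
  have := Nip_31.linG P.hY P.hx (P.tta j) (P.swd j) P.tt h1 (P.com j) (ni_chiG P i j hχ hc hG) 1 t
  simpa only [one_mul] using this

/-- `F` is bounded on bounded sets -/
theorem pk_bdd (P : Pk Y x0 a φ F) (R : ℝ) : ∃ M, ∀ z ∉ Y, ‖z‖ ≤ R → ‖F z‖ ≤ M := by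
  have hinf : Tendsto F (cocompact ℂ) (cocompact ℂ) := by
    obtain ⟨c, hc⟩ := P.inf
    have h1 : Tendsto (fun z => ‖F z‖) (cocompact ℂ) atTop := by
      have h2 : ∀ᶠ z in cocompact ℂ, ‖F z - z‖ ≤ ‖c‖ + 1 := by
        filter_upwards [hc.norm.eventually (gt_mem_nhds (lt_add_one ‖c‖))] with z hz using hz.le
      refine tendsto_atTop_mono' _ ?_ (tendsto_atTop_add_const_right _ (-(‖c‖ + 1))
        tendsto_norm_cocompact_atTop)
      filter_upwards [h2] with z hz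
      have := norm_sub_norm_le z (F z)
      rw [norm_sub_rev] at this
      linarith
    exact tendsto_norm_atTop_iff_cobounded.1 h1 |>.mono_right (by rw [Metric.cobounded_eq_cocompact])
  have h := Ends_897.EndMap.of_holo P.hY P.hol (Sk3_157.injOn P) hinf
  obtain ⟨M, hM⟩ := h.bdd R
  exact ⟨M, fun z hz hzR => hM z hz hzR⟩

/-- **LEMMA Y for the package** (imaginary part) -/
theorem lemY_im (P : Pk Y x0 a φ F) (hcs : ∀ i, HasCompactSupport (a i)) (i : ℕ) :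
    ∀ᵐ t, ∀ R, Nip_31.SlB Y (fun z => x0 z + a i z) (fun z => (F z).im) R t :=
  slbR P.hY P.hx P.tt (P.tta i) (hcs i) (P.swd i) P.hol P.re
    (fun _ hχ hc _ hG t => pk_min P i hχ hc hG t) fun R => by
      obtain ⟨M, hM⟩ := pk_bdd P R
      exact ⟨M, fun z hz hzR => (Complex.abs_im_le_norm _).trans (hM z hz hzR)⟩

/-- the slice bound for the real part -/
theorem lemY_re (P : Pk Y x0 a φ F) (i : ℕ) :
    ∀ᵐ t, ∀ R, Nip_31.SlB Y (fun z => x0 z + a i z) (fun z => x0 z + φ z) R t := by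
  have h1 : ∀ n : ℕ, ∀ᵐ t, Nip_31.SlB Y (fun z => x0 z + a i z) (fun z => x0 z + φ z) n t := by
    intro n
    have hY := P.hY
    have hx := P.hx
    refine Nip_31.ni_slice hY (Nip_31.ll_x0 hx (P.tta i)) (Nip_31.lb_x0 hx (P.tta i))
      (Nip_31.ll_x0 hx P.tt) (Nip_31.lb_x0 hx P.tt) ((SkA_8.NI_x0 hx).2 (P.com i))
      (𝒥 := Nip_31.JJ Y (a i) ∪ Nip_31.JJ Y φ)
      ((Nip_31.jj_countable hY (P.tta i)).union (Nip_31.jj_countable hY P.tt)) ?_ ?_ ?_ ?_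
    · rw [Nip_31.jj_x0 hx]; exact subset_union_left
    · rw [Nip_31.jj_x0 hx]; exact subset_union_right
    · have h1 : ∫⁻ z in ball 0 (n : ℝ) \ Y, ENNReal.ofReal |wdg (fun w => x0 w + a i w)
          (fun w => x0 w + φ w) z| ≤
          ∫⁻ z in ball 0 (n : ℝ) \ Y, (ENNReal.ofReal (en (fun w => x0 w + a i w) z) +
            ENNReal.ofReal (en (fun w => x0 w + φ w) z)) := by
        refine lintegral_mono fun z => ?_
        rw [← ENNReal.ofReal_add (en_nonneg _ _) (en_nonneg _ _)]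
        refine ENNReal.ofReal_le_ofReal ((abs_wdg_le _ _ z).trans ?_)
        have := en_nonneg (fun w => x0 w + φ w) z
        have := en_nonneg (fun w => x0 w + a i w) z
        linarith
      refine ne_top_of_le_ne_top ?_ h1
      rw [lintegral_add_left (measurable_en _).ennreal_ofReal]
      exact ENNReal.add_ne_top.2 ⟨Nip_31.en_x0_fin hY hx (P.tta i) n,
        Nip_31.en_x0_fin hY hx P.tt n⟩
    · have h1 := Nip_31.tt_sum hY P.tt (P.tta i)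
      refine ne_top_of_le_ne_top h1 ?_
      simp_rw [Nip_31.osp_x0 hx]
      exact ENNReal.tsum_comp_le_tsum_of_injective Subtype.val_injective
        (fun K : Cmp Y => ENNReal.ofReal (Nip_31.osp Y φ (Nip_31.pt K)) *
          ENNReal.ofReal (Nip_31.osp Y (a i) (Nip_31.pt K)))
  filter_upwards [ae_all_iff.2 h1] with t ht R
  obtain ⟨n, hn⟩ := exists_nat_ge R
  obtain ⟨ν, S, h2, h3, h4, h5, h6⟩ := ht n
  exact ⟨ν, S, h2, h3, h4, h5, fun C hC => h6 C fun z hz =>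
    ⟨(hC hz).1, ball_subset_ball hn (hC hz).2⟩⟩

end Crest.Agent.R105.LmY_338
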