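import Crest.Agent.R105.Lmq1_305
import Crest.Agent.R105.Thin1_891

/-!
# Row 105 (S0138, solids): `LIMJ`, second proof by finite operations. Part 2: one operation.

State = (function of class `CFJ`, level function, open neighbourhood of `E` on which the level is
locally constant). One operation treats the part of level `j` off small clopen neighbourhoods of the
finitely many components whose square has charge `> θ d_j`; the level goes up to `j + 1` there.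
-/

namespace Crest.Agent.R105.Lmq_305

open Set Filter MeasureTheory Topology Metric
open CF_363 Stp_722 Cq_463 Exs_992 Thin_891
open Skp2_257 (Comps Reg)
open scoped ENNReal NNReal

variable {E : Set (ℝ × ℝ)} {𝒬 : Set Sqr} {𝓗 : Set Hair}

/-! ### Charges -/

theorem ch_univ (f : ℝ × ℝ → ℝ) (Q : Sqr) : ch E univ f Q = chg Eᶜ Q.car f := by
  unfold ch; rw [inter_univ, closure_univ, inter_univ]

theorem osc_ch (hE : QPic E 𝒬 𝓗) {f : ℝ × ℝ → ℝ} (hf : CFJ 𝓗 univ f) (Q : Sqr) :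
    OscLe Eᶜ Q.car f (ch E univ f Q) := by
  have h := CFJ.fin hE hf Q.car
  rw [inter_univ] at h
  rw [ch_univ]
  exact h.oscLe

theorem finite_big {c : Sqr → ℝ} (hc : Summable fun Q : 𝒬 => c Q.1 ^ 2) {t : ℝ} (ht : 0 < t) :
    {Q | Q ∈ 𝒬 ∧ t < c Q}.Finite := by
  have h1 := hc.tendsto_cofinite_zero
  have h2 : ∀ᶠ Q : 𝒬 in cofinite, c Q.1 ^ 2 < t ^ 2 := h1.eventually (gt_mem_nhds (by positivity))
  have h3 : {Q : 𝒬 | ¬ c Q.1 ^ 2 < t ^ 2}.Finite := h2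
  refine (h3.image Subtype.val).subset ?_
  rintro Q ⟨hQ, hlt⟩
  refine ⟨⟨Q, hQ⟩, ?_, rfl⟩
  simp only [mem_ofPred_eq, not_lt]
  exact pow_le_pow_left₀ ht.le hlt.le 2

/-! ### The state -/

/-- function, level, open set -/
structure St where
  r : ℝ × ℝ → ℝ
  l : ℝ × ℝ → ℕ
  W : Set (ℝ × ℝ)

/-- the component of a square -/
def cmp (E : Set (ℝ × ℝ)) (Q : Sqr) : Set (ℝ × ℝ) := connectedComponentIn E (Q.x, Q.y)

theorem corner_mem (Q : Sqr) : ((Q.x, Q.y) : ℝ × ℝ) ∈ Q.car :=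
  Sqr.mem_car.2 ⟨⟨le_rfl, by linarith [Q.hs]⟩, ⟨le_rfl, by linarith [Q.hs]⟩⟩

theorem car_sub_cmp (hE : QPic E 𝒬 𝓗) {Q : Sqr} (hQ : Q ∈ 𝒬) : Q.car ⊆ cmp E Q :=
  Q.convex_car.isPreconnected.subset_connectedComponentIn (corner_mem Q) (hE.sub Q hQ)

structure Inv (E : Set (ℝ × ℝ)) (𝓗 : Set Hair) (S : Set (ℝ × ℝ)) (C C0 : ℝ) (d : ℕ → ℝ)
    (x : St) : Prop where
  cfj : CFJ 𝓗 univ x.r
  supp : ∀ q ∉ S, x.r q = 0
  bdd : ∀ p, |x.r p| ≤ C + 2 * C0 * (d 0 - d (x.l p))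
  op : IsOpen x.W
  sub : E ⊆ x.W
  loc : ∀ p ∈ x.W, ∀ᶠ q in 𝓝 p, x.l q = x.l p
  osc : ∀ P ∈ Comps E, ∀ p ∈ P, OscLe Eᶜ P x.r (2 * d (x.l p))

structure Rel (E : Set (ℝ × ℝ)) (𝒬 : Set Sqr) {ι : Type} (jm : (ℝ × ℝ → ℝ) → ι → ℝ)
    (C0 θ : ℝ) (d : ℕ → ℝ) (κ : ℝ) (j : ℕ) (ρ : ℝ) (x y : St) : Prop where
  off : ∀ p ∉ thickening ρ E, y.r p = x.r p
  inc : ∀ p, |y.r p - x.r p| ≤ 2 * C0 * (d (x.l p) - d (y.l p))
  lev : ∀ p, y.l p = x.l p ∨ (x.l p = j ∧ y.l p = j + 1)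
  en : (∫ p in Eᶜ, g2 (fun q => y.r q - x.r q) p) ≤ κ ^ 2
  a : ∃ a : Sqr → ℝ, (∀ Q, 0 ≤ a Q) ∧ (Summable fun Q : 𝒬 => a Q.1 ^ 2) ∧
        ∑' Q : 𝒬, a Q.1 ^ 2 ≤ κ ^ 2 ∧ ∀ Q ∈ 𝒬, ch E univ y.r Q ≤ ch E univ x.r Q + a Q
  b : ∃ b : ι → ℝ, (∀ i, 0 ≤ b i) ∧ (Summable fun i => b i ^ 2) ∧ ∑' i, b i ^ 2 ≤ κ ^ 2 ∧
        ∀ i, jm y.r i ≤ jm x.r i + b i
  prom : ∀ p ∈ E, x.l p = j → y.l p = j + 1 ∨ ∃ Q ∈ 𝒬, θ * d j < ch E univ x.r Q ∧
    ∃ q ∈ cmp E Q, dist p q < ρ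

theorem piece_biUnion (hE : IsCompact E) {ι : Type*} {s : Set ι} (hs : s.Finite)
    {F : ι → Set (ℝ × ℝ)} (hF : ∀ i ∈ s, Piece E (F i)) : Piece E (⋃ i ∈ s, F i) := by
  induction s, hs using Set.Finite.induction_on with
  | empty => simpa using Piece.empty hE
  | insert _ _ ih =>
    rw [biUnion_insert]
    exact (hF _ (mem_insert _ _)).union (ih fun i hi => hF i (mem_insert_of_mem _ hi))

theorem lev_const {P W : Set (ℝ × ℝ)} {l : ℝ × ℝ → ℕ} (hP : IsPreconnected P) (hPW : P ⊆ W)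
    (hl : ∀ p ∈ W, ∀ᶠ q in 𝓝 p, l q = l p) {p q : ℝ × ℝ} (hp : p ∈ P) (hq : q ∈ P) :
    l p = l q := by
  refine hP.constant (f := l) (fun z hz => ContinuousAt.continuousWithinAt ?_) hp hq
  have h := hl z (hPW hz)
  exact (continuousAt_const (y := l z)).congr_of_eventuallyEq h

theorem isOpen_lev {W : Set (ℝ × ℝ)} {l : ℝ × ℝ → ℕ} (hW : IsOpen W)
    (hl : ∀ p ∈ W, ∀ᶠ q in 𝓝 p, l q = l p) (s : Set ℕ) : IsOpen {z | z ∈ W ∧ l z ∈ s} := by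
  rw [isOpen_iff_mem_nhds]
  rintro z ⟨hz, hzs⟩
  filter_upwards [hW.mem_nhds hz, hl z hz] with w hw hw'
  exact ⟨hw, by rw [hw']; exact hzs⟩

theorem piece_lev (hE : IsCompact E) {W : Set (ℝ × ℝ)} {l : ℝ × ℝ → ℕ} (hW : IsOpen W)
    (hEW : E ⊆ W) (hl : ∀ p ∈ W, ∀ᶠ q in 𝓝 p, l q = l p) (j : ℕ) :
    Piece E {p | p ∈ E ∧ l p = j} := by
  have key : ∀ s : Set ℕ, IsCompact {p | p ∈ E ∧ l p ∈ s} := by
    intro s
    have h1 := isOpen_lev hW hl sᶜ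
    have h2 : {p | p ∈ E ∧ l p ∈ s} = E \ {z | z ∈ W ∧ l z ∈ sᶜ} := by
      ext z
      constructor
      · rintro ⟨hz, hzs⟩; exact ⟨hz, fun h => h.2 hzs⟩
      · rintro ⟨hz, hzs⟩
        exact ⟨hz, by by_contra h; exact hzs ⟨hEW hz, h⟩⟩
    rw [h2]
    exact hE.diff h1
  refine ⟨fun p hp => hp.1, by simpa using key {j}, ?_⟩
  have h3 : E \ {p | p ∈ E ∧ l p = j} = {p | p ∈ E ∧ l p ∈ ({j} : Set ℕ)ᶜ} := by
    ext z
    constructor
    · rintro ⟨hz, hzs⟩; exact ⟨hz, fun h => hzs ⟨hz, h⟩⟩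
    · rintro ⟨hz, hzs⟩; exact ⟨hz, fun h => hzs h.2⟩
  rw [h3]
  exact key _

theorem comps_pre {P : Set (ℝ × ℝ)} (h : P ∈ Comps E) : IsPreconnected P ∧ P ⊆ E := by
  obtain ⟨q, hq, rfl⟩ := h
  exact ⟨isPreconnected_connectedComponentIn, connectedComponentIn_subset _ _⟩

/-- **one operation** -/
theorem exists_step (hP : QPic E 𝒬 𝓗) {ι : Type} {jm : (ℝ × ℝ → ℝ) → ι → ℝ} {C0 θ : ℝ}
    (hC0 : 0 ≤ C0) (hθ : 0 < θ) (hstep : StepJ E 𝒬 𝓗 jm C0 θ)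
    {S : Set (ℝ × ℝ)} (hScpt : IsCompact S) {C : ℝ} {d : ℕ → ℝ} (hd0 : ∀ n, 0 < d n)
    (hd : ∀ n, d (n + 1) = d n / 2) {κ : ℝ} (hκ : 0 < κ) (j : ℕ) {ρ : ℝ} (hρ : 0 < ρ)
    (hρS : thickening ρ E ⊆ S) {x : St} (hx : Inv E 𝓗 S C C0 d x) :
    ∃ y, Inv E 𝓗 S C C0 d y ∧ Rel E 𝒬 jm C0 θ d κ j ρ x y := by
  classical
  have hE := hP.cpt
  obtain ⟨hcfj, hsupp, hbdd, hop, hsub, hloc, hosc⟩ := hx
  -- monotone levels
  have hdle : ∀ n, d (n + 1) ≤ d n := fun n => by rw [hd]; linarith [hd0 n]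
  have hd0n : ∀ n, d n ≤ d 0 := fun n => by
    induction n with
    | zero => exact le_rfl
    | succ n ih => exact (hdle n).trans ih
  have hbdd' : ∃ C' : ℝ, ∀ p, |x.r p| ≤ C' := by
    refine ⟨C + 2 * C0 * d 0, fun p => (hbdd p).trans ?_⟩
    have h1 : 0 ≤ C0 * d (x.l p) := mul_nonneg hC0 (hd0 _).le
    nlinarith
  -- the bad squares
  have hch := summable_ch hP convex_univ hcfj
  have hB := finite_big hch (mul_pos hθ (hd0 j))
  set B : Set Sqr := {Q | Q ∈ 𝒬 ∧ θ * d j < ch E univ x.r Q} with hBd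
  have hF : ∀ Q ∈ B, ∃ F, Piece E F ∧ cmp E Q ⊆ F ∧ F ⊆ thickening ρ (cmp E Q) := fun Q hQ =>
    exists_piece hE (hP.sub Q hQ.1 (corner_mem Q)) isOpen_thickening
      (self_subset_thickening hρ _)
  choose! F hF1 hF2 hF3 using hF
  have hpU : Piece E (⋃ Q ∈ B, F Q) := piece_biUnion hE hB hF1
  have hpj := piece_lev hE hop hsub hloc j
  set E' : Set (ℝ × ℝ) := {p | p ∈ E ∧ x.l p = j} \ ⋃ Q ∈ B, F Q with hE'
  have hpE' : Piece E E' := hpj.diff hpU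
  obtain ⟨U1, U2, hU1, hU2, hEU1, hEU2, hUU⟩ :=
    SeparatedNhds.of_isCompact_isCompact hpE'.cpt hpE'.cpt' disjoint_sdiff_self_right
  set W1 : Set (ℝ × ℝ) := U1 ∩ {z | z ∈ x.W ∧ x.l z ∈ ({j} : Set ℕ)} ∩ thickening ρ E with hW1
  have hW1o : IsOpen W1 := (hU1.inter (isOpen_lev hop hloc _)).inter isOpen_thickening
  have hEW1 : E' ⊆ W1 := fun z hz =>
    ⟨⟨hEU1 hz, hsub (hpE'.sub hz), hz.1.2⟩, self_subset_thickening hρ _ (hpE'.sub hz)⟩
  set W2 : Set (ℝ × ℝ) := U2 ∩ x.W with hW2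
  have hW2o : IsOpen W2 := hU2.inter hop
  have hEW2 : E \ E' ⊆ W2 := fun z hz => ⟨hEU2 hz, hsub hz.1⟩
  have hWW : Disjoint W1 W2 := hUU.mono (fun z hz => hz.1.1) inter_subset_left
  have hW1l : ∀ z ∈ W1, x.l z = j := fun z hz => hz.1.2.2
  -- components are inside or outside `E'`
  have hdich : ∀ P ∈ Comps E, ∀ p ∈ P, p ∈ E' → P ⊆ E' := fun P hPc p hp hpE =>
    hpE'.subset_of_isPreconnected (comps_pre hPc).1 (comps_pre hPc).2 ⟨p, hp, hpE⟩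
  obtain ⟨φ, hφ, ⟨K, hK, hKW, hK0⟩, hφb, hφe, ha, hb, hφo⟩ := hstep x.r hcfj
    (HasCompactSupport.intro hScpt hsupp) hbdd' E' hpE'.cpt hpE'.sub hpE'.cpt' (d j) (hd0 j)
    (by
      intro P hPc hPE'
      rcases P.eq_empty_or_nonempty with rfl | ⟨p, hp⟩
      · exact fun ε hε => ⟨∅, isOpen_empty, subset_rfl, fun q hq => absurd hq.1 (notMem_empty _)⟩
      · have h1 := hosc P hPc p hp
        rwa [(hPE' hp).1.2] at h1)
    (by
      intro Q hQ hQE'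
      refine (osc_ch hP hcfj Q).mono ?_
      by_contra hcon
      push Not at hcon
      have h1 : (Q.x, Q.y) ∈ E' := hQE' (corner_mem Q)
      exact h1.2 (mem_iUnion₂.2 ⟨Q, ⟨hQ, hcon⟩, hF2 Q ⟨hQ, hcon⟩ (car_sub_cmp hP hQ (corner_mem Q))⟩))
    W1 hW1o hEW1 κ hκ
  have hφ0 : ∀ z ∉ W1, φ z = 0 := fun z hz => hK0 z fun h => hz (hKW h)
  refine ⟨⟨fun p => x.r p + φ p, fun p => if p ∈ W1 then x.l p + 1 else x.l p, W1 ∪ W2⟩, ?_, ?_⟩
  · refine ⟨hcfj.add hφ, fun q hq => ?_, fun p => ?_, hW1o.union hW2o, ?_, ?_, ?_⟩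
    · have h1 : q ∉ W1 := fun h => hq (hρS h.2)
      simp only [hsupp q hq, hφ0 q h1, add_zero]
    · by_cases hp : p ∈ W1
      · simp only [if_pos hp, hW1l p hp]
        have h1 := hbdd p
        rw [hW1l p hp] at h1
        have h2 := hφb p
        have h3 := abs_add_le (x.r p) (φ p)
        have h4 : C0 * d (j + 1) = C0 * d j / 2 := by rw [hd]; ring
        nlinarith
      · simp only [if_neg hp, hφ0 p hp, add_zero]
        exact hbdd p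
    · intro z hz
      by_cases hzE : z ∈ E'
      · exact Or.inl (hEW1 hzE)
      · exact Or.inr (hEW2 ⟨hz, hzE⟩)
    · rintro p (hp | hp)
      · filter_upwards [hW1o.mem_nhds hp] with q hq
        simp only [if_pos hp, if_pos hq, hW1l p hp, hW1l q hq]
      · have hp1 : p ∉ W1 := fun h => disjoint_left.1 hWW h hp
        filter_upwards [hW2o.mem_nhds hp, hloc p hp.2] with q hq hq'
        have hq1 : q ∉ W1 := fun h => disjoint_left.1 hWW h hq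
        simp only [if_neg hp1, if_neg hq1, hq']
    · intro P hPc p hp
      by_cases hpE : p ∈ E'
      · have hPE := hdich P hPc p hp hpE
        have h1 := hφo P hPc hPE
        simp only [if_pos (hEW1 hpE), hW1l p (hEW1 hpE)]
        refine h1.mono (le_of_eq ?_)
        rw [hd]; ring
      · have hPE : P ⊆ E \ E' := fun z hz => ⟨(comps_pre hPc).2 hz, fun h => hpE
          (hdich P hPc z hz h hp)⟩
        have hpW : p ∉ W1 := fun h => disjoint_left.1 hWW h (hEW2 (hPE hp))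
        simp only [if_neg hpW]
        refine (hosc P hPc p hp).congr hW2o (hPE.trans hEW2) fun q hq => ?_
        rw [hφ0 q fun h => disjoint_left.1 hWW h hq.1, add_zero]
  · refine ⟨fun p hp => ?_, fun p => ?_, fun p => ?_, ?_, ha, hb, fun p hp hpj => ?_⟩
    · simp only [hφ0 p fun h => hp h.2, add_zero]
    · by_cases hp : p ∈ W1
      · simp only [if_pos hp, hW1l p hp, add_sub_cancel_left]
        refine (hφb p).trans (le_of_eq ?_)
        rw [hd]; ring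
      · simp only [if_neg hp, hφ0 p hp, add_zero, sub_self, abs_zero, mul_zero, le_refl]
    · by_cases hp : p ∈ W1
      · right; exact ⟨hW1l p hp, by simp only [if_pos hp, hW1l p hp]⟩
      · left; simp only [if_neg hp]
    · simpa only [add_sub_cancel_left] using hφe
    · by_cases hpE : p ∈ E'
      · left; simp only [if_pos (hEW1 hpE), hpj]
      · right
        have h1 : p ∈ ⋃ Q ∈ B, F Q := by
          by_contra h; exact hpE ⟨⟨hp, hpj⟩, h⟩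
        obtain ⟨Q, hQ, hpQ⟩ := mem_iUnion₂.1 h1
        exact ⟨Q, hQ.1, hQ.2, mem_thickening_iff.1 (hF3 Q hQ hpQ)⟩

end Crest.Agent.R105.Lmq_305
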