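import Crest.Agent.R105.Lmq2_305
import Crest.Agent.R105.Exs3_992
import Crest.Agent.R105.Thin1_12

/-!
# Row 105 (S0138, solids): `LIMJ` and `LIMQ`, second proof by finite operations. Part 3: the limit.

The operation number `n = pair j M` treats the level `j`; the radii are `1 / (n + 1)` and the budgets
`κ' / 2 ^ (n + 1)`.
-/

namespace Crest.Agent.R105.Lmq_305

open Set Filter MeasureTheory Topology Metric
open CF_363 Stp_722 Cq_463 Exs_992 Thin_891
open Exs3_992 (l2_sum)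
open Skp2_257 (Comps Reg)
open scoped ENNReal NNReal

variable {E : Set (ℝ × ℝ)} {𝒬 : Set Sqr} {𝓗 : Set Hair}

theorem oscLe_zero {X : Type*} [TopologicalSpace X] {V P : Set X} {f : X → ℝ}
    (h : ∀ η > 0, OscLe V P f η) : OscLe V P f 0 := by
  intro ε hε
  obtain ⟨O, hO, hPO, H⟩ := h (ε / 2) (by linarith) (ε / 2) (by linarith)
  refine ⟨O, hO, hPO, fun q hq q' hq' => (H q hq q' hq').trans (by linarith)⟩

theorem isClosed_cmp (hE : IsCompact E) (Q : Sqr) : IsClosed (cmp E Q) :=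
  (Thin_12.isCompact_cc hE _).isClosed

theorem comps_eq_cmp {P : Set (ℝ × ℝ)} (hP : P ∈ Comps E) {p : ℝ × ℝ} (hp : p ∈ P) {Q : Sqr}
    (hq : p ∈ cmp E Q) : P = cmp E Q := by
  obtain ⟨z, hz, rfl⟩ := hP
  rw [connectedComponentIn_eq hp, cmp, connectedComponentIn_eq hq]

/-- the sequence -/
theorem exists_run (hP : QPic E 𝒬 𝓗) {ι : Type} {jm : (ℝ × ℝ → ℝ) → ι → ℝ} {C0 θ : ℝ}
    (hC0 : 0 ≤ C0) (hθ : 0 < θ) (hstep : StepJ E 𝒬 𝓗 jm C0 θ)
    {Φ : ℝ × ℝ → ℝ} (hΦ : CFJ 𝓗 univ Φ) {S : Set (ℝ × ℝ)} (hScpt : IsCompact S)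
    (hΦ0 : ∀ q ∉ S, Φ q = 0) {C : ℝ} (hC : ∀ p, |Φ p| ≤ C)
    (hSE : thickening 1 E ⊆ S) {d : ℕ → ℝ} (hd0 : ∀ n, 0 < d n)
    (hd : ∀ n, d (n + 1) = d n / 2) (hCd : C ≤ d 0) {κ : ℝ} (hκ : 0 < κ) :
    ∃ u : ℕ → St, (u 0).r = Φ ∧ (∀ n, Inv E 𝓗 S C C0 d (u n)) ∧
      ∀ n : ℕ, Rel E 𝒬 jm C0 θ d (κ / 2 ^ (n + 1)) (Nat.unpair n).1 (1 / ((n : ℝ) + 1))
        (u n) (u (n + 1)) := by
  have h0 : Inv E 𝓗 S C C0 d ⟨Φ, fun _ => 0, univ⟩ := by
    refine ⟨hΦ, hΦ0, fun p => ?_, isOpen_univ, subset_univ _, fun p _ => ?_, fun P _ p _ => ?_⟩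
    · simpa using hC p
    · exact Eventually.of_forall fun _ => rfl
    · intro ε hε
      refine ⟨univ, isOpen_univ, subset_univ _, fun q _ q' _ => ?_⟩
      have h1 := hC q
      have h2 := hC q'
      have h3 := abs_sub (Φ q) (Φ q')
      simp only
      linarith
  obtain ⟨u, hu0, hu⟩ := exists_seq_of (fun _ x => Inv E 𝓗 S C C0 d x)
    (fun n x y => Rel E 𝒬 jm C0 θ d (κ / 2 ^ (n + 1)) (Nat.unpair n).1 (1 / ((n : ℝ) + 1)) x y)
    ⟨Φ, fun _ => 0, univ⟩ h0 (fun n x hx => by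
      have hρ : (0 : ℝ) < 1 / ((n : ℝ) + 1) := by positivity
      have hρ1 : (1 : ℝ) / ((n : ℝ) + 1) ≤ 1 := by
        rw [div_le_one (by positivity)]
        have : (0 : ℝ) ≤ n := Nat.cast_nonneg n
        linarith
      exact exists_step hP hC0 hθ hstep hScpt hd0 hd (by positivity) _ hρ
        ((thickening_mono hρ1 E).trans hSE) hx)
  exact ⟨u, by rw [hu0], fun n => (hu n).1, fun n => (hu n).2⟩

theorem limj : LIMJ := by
  intro E 𝒬 𝓗 hP ι Pι jm _ C0 θ hC0 hθ hstep Φ hΦ hΦc hΦb κ hκ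
  classical
  obtain ⟨C, hC⟩ := hΦb
  have hE := hP.cpt
  have hCnn : 0 ≤ C := (abs_nonneg _).trans (hC (0, 0))
  -- scales
  set d : ℕ → ℝ := fun n => (C + 1) / 2 ^ n with hdd
  have hd0 : ∀ n, 0 < d n := fun n => by simp only [hdd]; positivity
  have hd : ∀ n, d (n + 1) = d n / 2 := fun n => by simp only [hdd, pow_succ]; field_simp
  have hdanti : Antitone d := antitone_nat_of_succ_le fun n => by rw [hd]; linarith [hd0 n]
  have hdlim : ∀ η > 0, ∃ i, d i < η := by
    intro η hη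
    obtain ⟨i, hi⟩ := exists_pow_lt_of_lt_one (show 0 < η / (C + 1) by positivity)
      (show (1 / 2 : ℝ) < 1 by norm_num)
    refine ⟨i, ?_⟩
    rw [lt_div_iff₀ (by positivity)] at hi
    simp only [hdd]
    rw [one_div, inv_pow, inv_mul_eq_div] at hi
    exact hi
  -- the support
  set S : Set (ℝ × ℝ) := tsupport Φ ∪ cthickening 1 E with hS
  have hScpt : IsCompact S := hΦc.isCompact.union hE.cthickening
  have hΦ0 : ∀ q ∉ S, Φ q = 0 := fun q hq => image_eq_zero_of_notMem_tsupport fun h => hq (Or.inl h)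
  have hSE : thickening 1 E ⊆ S := (thickening_subset_cthickening 1 E).trans subset_union_right
  set vS := volume.real S with hvS
  have hvS0 : 0 ≤ vS := measureReal_nonneg
  set t : ℝ := (vS + 1) / κ with ht
  have htpos : 0 < t := by positivity
  obtain ⟨κ', hκ'0, hκ'1, hκ'2⟩ : ∃ κ' > 0, κ' ≤ κ ∧ κ' ^ 2 ≤ κ / (2 * t) := by
    refine ⟨min κ (min 1 (κ / (2 * t))), lt_min hκ (lt_min one_pos (by positivity)),
      min_le_left _ _, ?_⟩
    set m := min κ (min 1 (κ / (2 * t))) with hm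
    have h0 : 0 < m := lt_min hκ (lt_min one_pos (by positivity))
    have h1 : m ≤ 1 := (min_le_right _ _).trans (min_le_left _ _)
    have h2 : m ≤ κ / (2 * t) := (min_le_right _ _).trans (min_le_right _ _)
    nlinarith
  obtain ⟨u, hu0, hinv, hrel⟩ := exists_run hP hC0 hθ hstep hΦ hScpt hΦ0 hC hSE hd0 hd
    (by simp [hdd]) hκ'0
  have hk2 : ∀ n : ℕ, (κ' / 2 ^ (n + 1)) ^ 2 = κ' ^ 2 / 4 ^ (n + 1) := fun n => by
    rw [div_pow, ← pow_mul, mul_comm (n + 1) 2, pow_mul]; norm_num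
  -- levels
  have hlev : ∀ p, Monotone fun n => (u n).l p := fun p => monotone_nat_of_le_succ fun n => by
    rcases (hrel n).lev p with h | ⟨h1, h2⟩
    · exact h.ge
    · rw [h1, h2]; exact Nat.le_succ _
  have hinc : ∀ m n, m ≤ n → ∀ p, |(u n).r p - (u m).r p| ≤
      2 * C0 * (d ((u m).l p) - d ((u n).l p)) := by
    intro m n hmn p
    induction n, hmn using Nat.le_induction with
    | base => simp
    | succ n hmn ih =>
      have h1 := (hrel n).inc p
      have h2 := abs_sub_le ((u (n + 1)).r p) ((u n).r p) ((u m).r p)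
      linarith
  have hinc' : ∀ m n, m ≤ n → ∀ p, |(u n).r p - (u m).r p| ≤ 2 * C0 * d ((u m).l p) := by
    intro m n hmn p
    refine (hinc m n hmn p).trans ?_
    have : 0 ≤ C0 * d ((u n).l p) := mul_nonneg hC0 (hd0 _).le
    nlinarith
  -- the limit
  have hb : ∀ n p, |(u n).r p| ≤ C + 2 * C0 * d 0 := fun n p => by
    refine ((hinv n).bdd p).trans ?_
    have : 0 ≤ C0 * d ((u n).l p) := mul_nonneg hC0 (hd0 _).le
    nlinarith
  obtain ⟨ψ, hlim, hlen, hlin, hconst⟩ := lim_core (𝓗 := 𝓗) (φ := fun n => (u n).r) hE hP.hsub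
    hScpt (C := C + 2 * C0 * d 0) (δ := κ' ^ 2 / 4) (by positivity)
    (by have := hd0 0; positivity) (fun n => (hinv n).cfj) (fun n => (hinv n).supp) hb
    (fun n => (hrel n).off) (fun n => by
      refine ((hrel n).en).trans (le_of_eq ?_)
      rw [hk2, pow_succ]; field_simp; ring)
  have hnear : ∀ m, ∀ z ∉ E, |ψ z - (u m).r z| ≤ 2 * C0 * d ((u m).l z) := by
    intro m z hz
    obtain ⟨N, hN⟩ := hconst z hz
    rw [← hN (max N m) (le_max_left _ _)]
    exact hinc' m _ (le_max_right _ _) z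
  -- charges
  choose a ha0 has hale hach using fun n => (hrel n).a
  choose b hb0 hbs hble hbch using fun n => (hrel n).b
  obtain ⟨A, hA0, hA1, hA2, hA3⟩ := l2_sum (fun n (Q : 𝒬) => a n Q.1) κ' has
    (fun n => (hale n).trans (hk2 n).le)
  obtain ⟨β, hβ0, hβ1, hβ2, hβ3⟩ := l2_sum b κ' hbs (fun n => (hble n).trans (hk2 n).le)
  set δ : Sqr → ℝ := fun Q => if h : Q ∈ 𝒬 then A ⟨Q, h⟩ else 0 with hδ
  have hδA : ∀ Q : 𝒬, δ Q.1 = A Q := fun Q => by simp only [hδ, dif_pos Q.2]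
  have hδ0 : ∀ Q, 0 ≤ δ Q := fun Q => by
    simp only [hδ]
    split_ifs
    · exact hA0 _
    · exact le_rfl
  have hδs : Summable fun Q : 𝒬 => δ Q.1 ^ 2 := by simpa only [hδA] using hA2
  have hδκ : ∑' Q : 𝒬, δ Q.1 ^ 2 ≤ κ ^ 2 := by
    simp only [hδA]
    exact hA3.trans (pow_le_pow_left₀ hκ'0.le hκ'1 2)
  have hchm : ∀ m, ∀ Q ∈ 𝒬, ch E univ (u m).r Q ≤ ch E univ Φ Q + δ Q := by
    intro m Q hQ
    have h1 : ∀ m, ch E univ (u m).r Q ≤ ch E univ Φ Q + ∑ n ∈ Finset.range m, a n Q := by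
      intro m
      induction m with
      | zero => simp [hu0]
      | succ m ih =>
        rw [Finset.sum_range_succ]
        have := hach m Q hQ
        linarith
    have h2 := hA1 ⟨Q, hQ⟩ m
    rw [← hδA] at h2
    exact (h1 m).trans (by linarith)
  have hjm : ∀ m i, jm (u m).r i ≤ jm Φ i + β i := by
    intro m i
    have h1 : ∀ m, jm (u m).r i ≤ jm Φ i + ∑ n ∈ Finset.range m, b n i := by
      intro m
      induction m with
      | zero => simp [hu0]
      | succ m ih =>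
        rw [Finset.sum_range_succ]
        have := hbch m i
        linarith
    exact (h1 m).trans (by linarith [hβ1 i m])
  -- oscillation at a component from the state `m`
  have hoscψ : ∀ P ∈ Comps E, ∀ p ∈ P, ∀ m, OscLe Eᶜ P ψ ((2 + 4 * C0) * d ((u m).l p)) := by
    intro P hPc p hp m
    have hpre := comps_pre hPc
    have hPW : P ⊆ (u m).W := hpre.2.trans (hinv m).sub
    have hO := isOpen_lev (hinv m).op (hinv m).loc {(u m).l p}
    refine (((hinv m).osc P hPc p hp).of_near (η := 2 * C0 * d ((u m).l p)) hO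
      (fun z hz => ⟨hPW hz, ?_⟩) fun q hq => ?_).mono (le_of_eq (by ring))
    · exact lev_const hpre.1 hPW (hinv m).loc hz hp
    · have h1 := hnear m q hq.2
      rwa [show (u m).l q = (u m).l p from hq.1.2] at h1
  have hoscr : ∀ P ∈ Comps E, ∀ p ∈ P, ∀ m n, m ≤ n → OscLe Eᶜ P (u n).r (2 * d ((u m).l p)) := by
    intro P hPc p hp m n hmn
    refine ((hinv n).osc P hPc p hp).mono ?_
    have := hdanti (hlev p hmn)
    simp only at this
    linarith
  -- the big squares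
  have hbig : ∀ s > 0, {Q | Q ∈ 𝒬 ∧ s < ch E univ Φ Q + δ Q}.Finite := by
    intro s hs
    refine finite_big (c := fun Q => ch E univ Φ Q + δ Q) ?_ hs
    refine Summable.of_nonneg_of_le (fun Q => sq_nonneg _) (fun Q => ?_)
      (((summable_ch hP convex_univ hΦ).mul_left 2).add (hδs.mul_left 2))
    nlinarith [sq_nonneg (ch E univ Φ Q.1 - δ Q.1)]
  -- dichotomy
  have hdich : ∀ P ∈ Comps E, (OscLe Eᶜ P ψ 0 ∧ ∀ η > 0, ∀ᶠ m in atTop, OscLe Eᶜ P (u m).r η) ∨
      ∃ Q ∈ 𝒬, Q.car ⊆ P ∧ ∃ D, θ * D < ch E univ Φ Q + δ Q ∧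
        OscLe Eᶜ P ψ ((2 + 4 * C0) * D) ∧ ∀ᶠ m in atTop, OscLe Eᶜ P (u m).r (2 * D) := by
    intro P hPc
    obtain ⟨p, hp⟩ : P.Nonempty := by
      obtain ⟨q, hq, rfl⟩ := hPc
      exact ⟨q, mem_connectedComponentIn hq⟩
    have hpE := (comps_pre hPc).2 hp
    by_cases hun : ∀ i, ∃ m, i ≤ (u m).l p
    · left
      constructor
      · refine oscLe_zero fun η hη => ?_
        obtain ⟨i, hi⟩ := hdlim (η / (2 + 4 * C0)) (by positivity)
        obtain ⟨m, hm⟩ := hun i
        refine (hoscψ P hPc p hp m).mono ?_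
        have h1 := hdanti hm
        rw [lt_div_iff₀ (by positivity)] at hi
        nlinarith
      · intro η hη
        obtain ⟨i, hi⟩ := hdlim (η / 2) (by positivity)
        obtain ⟨m, hm⟩ := hun i
        filter_upwards [eventually_ge_atTop m] with n hn
        refine (hoscr P hPc p hp m n hn).mono ?_
        have h1 := hdanti hm
        linarith
    · right
      push Not at hun
      obtain ⟨i, hi⟩ := hun
      -- stabilisation
      obtain ⟨N, hN⟩ : ∃ N, ∀ n ≥ N, (u n).l p = (u N).l p := by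
        by_contra hcon
        push Not at hcon
        have key : ∀ k, ∃ m, k ≤ (u m).l p := by
          intro k
          induction k with
          | zero => exact ⟨0, Nat.zero_le _⟩
          | succ k ih =>
            obtain ⟨m, hm⟩ := ih
            obtain ⟨n, hn, hne⟩ := hcon m
            have := hlev p hn
            simp only at this
            exact ⟨n, by omega⟩
        obtain ⟨m, hm⟩ := key i
        exact absurd (hi m) (by omega)
      set j := (u N).l p with hj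
      -- the squares which stop `p`
      have hfin := hbig (θ * d j) (mul_pos hθ (hd0 j))
      set F := {Q | Q ∈ 𝒬 ∧ θ * d j < ch E univ Φ Q + δ Q} with hF
      obtain ⟨Q, hQF, hQp⟩ : ∃ Q ∈ F, p ∈ cmp E Q := by
        by_contra hcon
        push Not at hcon
        have hcl : IsClosed (⋃ Q ∈ F, cmp E Q) := hfin.isClosed_biUnion fun Q _ =>
          isClosed_cmp hE Q
        have hpn : p ∈ (⋃ Q ∈ F, cmp E Q)ᶜ := by
          simp only [mem_compl_iff, mem_iUnion, not_exists]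
          exact fun Q hQ => hcon Q hQ
        obtain ⟨ε, hε, hball⟩ := Metric.isOpen_iff.1 hcl.isOpen_compl p hpn
        obtain ⟨M, hM⟩ := exists_nat_one_div_lt hε
        set n := Nat.pair j (max M N) with hn
        have hnM : max M N ≤ n := Nat.right_le_pair _ _
        have hnN : N ≤ n := (le_max_right _ _).trans hnM
        have hn1 : (Nat.unpair n).1 = j := by rw [hn, Nat.unpair_pair]
        have hpr := (hrel n).prom p hpE (by rw [hn1]; exact hN n hnN)
        rw [hn1] at hpr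
        rcases hpr with h | ⟨Q, hQ, hQc, q, hq, hpq⟩
        · have := hN (n + 1) (by omega)
          omega
        · have hQF : Q ∈ F := ⟨hQ, hQc.trans_le (hchm n Q hQ)⟩
          have h1 : q ∈ ball p ε := by
            rw [mem_ball, dist_comm]
            refine hpq.trans (lt_of_le_of_lt ?_ hM)
            apply one_div_le_one_div_of_le (by positivity)
            have : (M : ℝ) ≤ n := by exact_mod_cast (le_max_left _ _).trans hnM
            linarith
          exact hball h1 (mem_iUnion₂.2 ⟨Q, hQF, hq⟩)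
      have hPQ := comps_eq_cmp hPc hp hQp
      refine ⟨Q, hQF.1, ?_, d j, hQF.2, hoscψ P hPc p hp N, ?_⟩
      · rw [hPQ]; exact car_sub_cmp hP hQF.1
      · filter_upwards [eventually_ge_atTop N] with n hn using hoscr P hPc p hp N n hn
  have hκ2 : κ' ^ 2 ≤ κ ^ 2 := pow_le_pow_left₀ hκ'0.le hκ'1 2
  refine ⟨fun m => (u m).r, ψ, δ, β, hlim, hu0, hδ0, hδs, hδκ, hchm, hβ0, hβ2,
    hβ3.trans hκ2, hjm, ?_, ?_, ?_, ?_⟩
  · intro P hPc hns
    rcases hdich P hPc with h | ⟨Q, hQ, hQP, -⟩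
    · exact h
    · exact absurd hQP (hns Q hQ)
  · intro P hPc Q hQ hQP
    have hs0 : 0 ≤ C1 C0 θ * (ch E univ Φ Q + δ Q) := by
      have h1 := ch_nonneg E univ Φ Q
      have h2 := hδ0 Q
      unfold C1
      positivity
    rcases hdich P hPc with ⟨h1, h2⟩ | ⟨Q', hQ', hQP', D, hD, h1, h2⟩
    · refine ⟨h1.mono hs0, fun η hη => ?_⟩
      filter_upwards [h2 η hη] with m hm using hm.mono (by linarith)
    · have hQQ : Q = Q' := hP.sep P (comps_pre hPc).2 (comps_pre hPc).1 Q hQ Q' hQ'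
        ⟨_, hQP (corner_mem Q), corner_mem Q⟩ ⟨_, hQP' (corner_mem Q'), corner_mem Q'⟩
      subst hQQ
      have hkey : (2 + 4 * C0) * D ≤ C1 C0 θ * (ch E univ Φ Q + δ Q) ∧
          2 * D ≤ C1 C0 θ * (ch E univ Φ Q + δ Q) := by
        set c := ch E univ Φ Q + δ Q with hc
        have hc0 : 0 ≤ c := add_nonneg (ch_nonneg _ _ _ _) (hδ0 Q)
        have hDc : D ≤ c / θ := by rw [le_div_iff₀ hθ]; linarith
        have h3 : C1 C0 θ * c = c + (4 + 4 * C0) * (c / θ) := by unfold C1; ring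
        have h4 : 0 ≤ c / θ := by positivity
        have h5 : 0 ≤ C0 * (c / θ) := mul_nonneg hC0 h4
        rw [h3]
        constructor
        · nlinarith [mul_le_mul_of_nonneg_left hDc (show 0 ≤ 2 + 4 * C0 by linarith)]
        · nlinarith
      refine ⟨h1.mono hkey.1, fun η hη => ?_⟩
      filter_upwards [h2] with m hm using hm.mono (by linarith [hkey.2])
  · have h := hlen 0
    rw [pow_zero, div_one, hu0] at h
    refine h.trans (le_trans (le_of_eq (by ring)) hκ2)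
  · have h := hlin t htpos
    simp only [hu0] at h
    refine h.trans ?_
    have h1 : t * (4 * (κ' ^ 2 / 4)) ≤ κ / 2 := by
      have : t * κ' ^ 2 ≤ t * (κ / (2 * t)) := mul_le_mul_of_nonneg_left hκ'2 htpos.le
      have h2 : t * (κ / (2 * t)) = κ / 2 := by field_simp
      linarith
    have h2 : 1 / (2 * t) * vS ≤ κ / 2 := by
      have h3 : 1 / (2 * t) * (vS + 1) = κ / 2 := by rw [ht]; field_simp
      have h4 : 0 < 1 / (2 * t) := by positivity
      nlinarith
    linarith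

theorem stepJ_of_stepQ (hP : QPic E 𝒬 𝓗) {C0 θ : ℝ} (h : StepQ E 𝒬 𝓗 C0 θ) :
    StepJ (ι := Empty) E 𝒬 𝓗 (fun _ i => i.elim) C0 θ := by
  intro r hr hrc hrb E' hE' hE's hE'c d hd h1 h2 W hW hEW κ hκ
  obtain ⟨φ, hφ, hφK, hφb, hφT, hφo⟩ := h r hr hrc hrb E' hE' hE's hE'c d hd h1 h2 W hW hEW κ hκ
  have h3 : Ch E univ 𝒬 φ ≤ κ ^ 2 := Ch_le_TQ.trans hφT
  have h4 : En (univ \ E) φ ≤ κ ^ 2 := En_le_TQ.trans hφT
  refine ⟨φ, hφ, hφK, hφb, ?_, ⟨fun Q => ch E univ φ Q, fun Q => ch_nonneg _ _ _ _,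
    summable_ch hP convex_univ hφ, h3, fun Q _ => ?_⟩,
    ⟨fun i => i.elim, fun i => i.elim, summable_empty, by simp; positivity, fun i => i.elim⟩, hφo⟩
  · rwa [En, ← compl_eq_univ_sdiff] at h4
  · exact chg_add (CFJ.fin hP hr _) (CFJ.fin hP hφ _)

theorem limq : LIMQ := by
  intro E 𝒬 𝓗 hP C0 θ hC0 hθ hstep Φ hΦ hΦc hΦb κ hκ
  obtain ⟨S, ψ, δ, β, h1, h2, h3, h4, h5, h6, -, -, -, -, h7, h8, h9, h10⟩ :=
    limj E 𝒬 𝓗 hP.q Empty (fun i => i.elim) (fun _ i => i.elim)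
      ⟨fun i => i.elim, fun i => i.elim, fun i => i.elim, fun i => i.elim⟩ C0 θ hC0 hθ
      (stepJ_of_stepQ hP.q hstep) Φ hΦ hΦc hΦb κ hκ
  exact ⟨S, ψ, δ, h1, h3, h4, h5, h6, fun P hPc hn => (h7 P hPc hn).1,
    fun P hPc Q hQ hQP => (h8 P hPc Q hQ hQP).1, h9, h10⟩

end Crest.Agent.R105.Lmq_305
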