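import Mathlib

/-!
# Row 105, S0138, LEMMA Y, part (3): the linear order on a level set (helper701, post #10366)

`L` a preconnected set in the plane (level set `Lv Y a t` cut by two far horizontal lines), for
`p ∈ R` two disjoint open sets `S p`, `T p` covering `L` minus `p` (below / above `p`).
`ord`: for a saturated connected closed `C ⊆ L` and `p, q ∈ C ∩ R` with `q` above `p`:
`L ∩ S p ⊆ S q` and everything of `L` between `p` and `q` lies in `C`.
-/

set_option autoImplicit false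

open Set Topology

namespace Crest.Agent.R105.Lmy_701

/-- the clopen part of `L` minus a point, together with the point, is connected -/
theorem isPreconnected_part {X : Type*} [TopologicalSpace X] {L S T : Set X} {p : X}
    (hL : IsPreconnected L) (hpL : p ∈ L) (hS : IsOpen S) (hT : IsOpen T) (hd : Disjoint S T)
    (hcov : L ⊆ S ∪ T ∪ {p}) (hpS : p ∉ S) :
    IsPreconnected ((L ∩ S) ∪ {p}) := by
  rintro A B hA hB hAB ⟨x, hx, hxA⟩ ⟨y, hy, hyB⟩
  by_contra hcon
  -- wlog `p ∈ A`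
  have key : ∀ A B : Set X, IsOpen A → IsOpen B → (L ∩ S) ∪ {p} ⊆ A ∪ B → p ∈ A →
      (((L ∩ S) ∪ {p}) ∩ B).Nonempty → (((L ∩ S) ∪ {p}) ∩ (A ∩ B)).Nonempty := by
    intro A B hA hB hAB hpA ⟨y, hy, hyB⟩
    by_contra hne
    rw [not_nonempty_iff_eq_empty] at hne
    have hpB : p ∉ B := fun h => by
      have : p ∈ ((L ∩ S) ∪ {p}) ∩ (A ∩ B) := ⟨Or.inr rfl, hpA, h⟩
      rw [hne] at this; exact this
    have hyS : y ∈ L ∩ S := by
      rcases hy with hy | hy
      · exact hy
      · rw [mem_singleton_iff.1 hy] at hyB; exact absurd hyB hpB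
    obtain ⟨z, hzL, hz1, hz2⟩ := hL (T ∪ A) (B ∩ S) (hT.union hA) (hB.inter hS) (by
      intro z hz
      rcases hcov hz with (h | h) | h
      · rcases hAB (Or.inl ⟨hz, h⟩) with h' | h'
        · exact Or.inl (Or.inr h')
        · exact Or.inr ⟨h', h⟩
      · exact Or.inl (Or.inl h)
      · rw [mem_singleton_iff.1 h]; exact Or.inl (Or.inr hpA))
      ⟨p, hpL, Or.inr hpA⟩ ⟨y, hyS.1, hyB, hyS.2⟩
    rcases hz1 with h | h
    · exact disjoint_left.1 hd hz2.2 h
    · have : z ∈ ((L ∩ S) ∪ {p}) ∩ (A ∩ B) := ⟨Or.inl ⟨hzL, hz2.2⟩, h, hz2.1⟩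
      rw [hne] at this; exact this
  rcases hAB (Or.inr rfl : p ∈ (L ∩ S) ∪ {p}) with h | h
  · exact hcon (key A B hA hB hAB h ⟨y, hy, hyB⟩)
  · rw [inter_comm A B] at hcon
    exact hcon (key B A hB hA (by rwa [union_comm B A]) h ⟨x, hx, hxA⟩)

/-- a preconnected set covered by two disjoint open sets lies in the one it meets -/
theorem subset_of_meets {X : Type*} [TopologicalSpace X] {C S T : Set X} (hC : IsPreconnected C)
    (hS : IsOpen S) (hT : IsOpen T) (hd : Disjoint S T) (hcov : C ⊆ S ∪ T) {e : X} (he : e ∈ C)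
    (heS : e ∈ S) : C ⊆ S := by
  intro z hz
  rcases hcov hz with h | h
  · exact h
  · obtain ⟨w, -, hw1, hw2⟩ := hC S T hS hT hcov ⟨e, he, heS⟩ ⟨z, hz, h⟩
    exact absurd hw2 (disjoint_left.1 hd hw1)

/-- the cut data at a point -/
structure Cut {X : Type*} [TopologicalSpace X] (L : Set X) (e e' p : X) (S T : Set X) : Prop where
  oS : IsOpen S
  oT : IsOpen T
  dj : Disjoint S T
  cov : L ⊆ S ∪ T ∪ {p}
  pS : p ∉ S
  pT : p ∉ T
  lo : e ∈ S
  hi : e' ∈ T

section
variable {X : Type*} [TopologicalSpace X] {L S T S' T' : Set X} {e e' p q : X}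

theorem Cut.symm (h : Cut L e e' p S T) : Cut L e' e p T S where
  oS := h.oT
  oT := h.oS
  dj := h.dj.symm
  cov := by rw [union_comm T S]; exact h.cov
  pS := h.pT
  pT := h.pS
  lo := h.hi
  hi := h.lo

theorem Cut.cov_ne (h : Cut L e e' p S T) {z : X} (hz : z ∈ L) (hzp : z ≠ p) : z ∈ S ∪ T := by
  rcases h.cov hz with h' | h'
  · exact h'
  · exact absurd h' hzp

/-- `q` above `p`: everything below `p`, and `p`, lies below `q` -/
theorem Cut.below (hL : IsPreconnected L) (hp : p ∈ L) (he : e ∈ L) (h : Cut L e e' p S T)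
    (h' : Cut L e e' q S' T') (hq : q ∈ T) : (L ∩ S) ∪ {p} ⊆ S' := by
  have h1 := isPreconnected_part hL hp h.oS h.oT h.dj h.cov h.pS
  refine subset_of_meets h1 h'.oS h'.oT h'.dj ?_ (Or.inl ⟨he, h.lo⟩) h'.lo
  rintro z (hz | hz)
  · refine h'.cov_ne hz.1 ?_
    rintro rfl
    exact disjoint_left.1 h.dj hz.2 hq
  · rw [mem_singleton_iff.1 hz]
    refine h'.cov_ne hp ?_
    rintro rfl
    exact h.pT hq

end

/-- **ORDER LEMMA** -/
theorem ord {E L C R : Set ℂ} {e e' : ℂ} {S T : ℂ → Set ℂ} (hL : IsPreconnected L)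
    (he : e ∈ L) (he' : e' ∈ L) (hRL : R ⊆ L) (hRE : ∀ p ∈ R, p ∉ E)
    (cut : ∀ p ∈ R, Cut L e e' p (S p) (T p))
    (dens : ∀ z ∈ L, ∀ O, IsOpen O → z ∈ O → connectedComponentIn E z ⊆ O → (R ∩ O).Nonempty)
    (satL : ∀ z ∈ L, connectedComponentIn E z ⊆ L)
    (hCL : C ⊆ L) (hC : IsPreconnected C) (hCc : IsClosed C)
    (satC : ∀ z ∈ C, connectedComponentIn E z ⊆ C) {p q : ℂ} (hp : p ∈ C) (hpR : p ∈ R)
    (hq : q ∈ C) (hqR : q ∈ R) (hpq : q ∈ T p) :
    L ∩ S p ⊆ S q ∧ p ∈ S q ∧ L ∩ T q ⊆ T p ∧ L ∩ (S q ∩ T p) ⊆ C := by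
  have h1 := (cut p hpR).below hL (hRL hpR) he (cut q hqR) hpq
  have hpS : p ∈ S q := h1 (Or.inr rfl)
  have h2 := (cut q hqR).symm.below hL (hRL hqR) he' (cut p hpR).symm hpS
  refine ⟨fun z hz => h1 (Or.inl hz), hpS, fun z hz => h2 (Or.inl hz), ?_⟩
  -- points of `R` between
  have hR : ∀ k ∈ R, k ∈ S q → k ∈ T p → k ∈ C := by
    intro k hk hkq hkp
    by_contra hkC
    have a1 := (cut p hpR).below hL (hRL hpR) he (cut k hk) hkp
    have a2 := (cut q hqR).symm.below hL (hRL hqR) he' (cut k hk).symm hkq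
    have hpk : p ∈ S k := a1 (Or.inr rfl)
    have hqk : q ∈ T k := a2 (Or.inr rfl)
    have hcov : C ⊆ S k ∪ T k := fun z hz => (cut k hk).cov_ne (hCL hz) (by
      rintro rfl; exact hkC hz)
    have := subset_of_meets hC (cut k hk).oS (cut k hk).oT (cut k hk).dj hcov hp hpk hq
    exact disjoint_left.1 (cut k hk).dj this hqk
  rintro k ⟨hkL, hkq, hkp⟩
  by_contra hkC
  obtain ⟨k', hk'R, ⟨hk1, hk2⟩, hk3⟩ := dens k hkL ((S q ∩ T p) ∩ Cᶜ)
    (((cut q hqR).oS.inter (cut p hpR).oT).inter hCc.isOpen_compl) ⟨⟨hkq, hkp⟩, hkC⟩ (by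
      by_cases hkE : k ∈ E
      · have hK := isPreconnected_connectedComponentIn (x := k) (F := E)
        have hkK := mem_connectedComponentIn hkE
        have hKE := connectedComponentIn_subset E k
        have b1 : connectedComponentIn E k ⊆ S q :=
          subset_of_meets hK (cut q hqR).oS (cut q hqR).oT (cut q hqR).dj
            (fun z hz => (cut q hqR).cov_ne (satL k hkL hz) (by
              rintro rfl; exact hRE _ hqR (hKE hz))) hkK hkq
        have b2 : connectedComponentIn E k ⊆ T p :=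
          subset_of_meets hK (cut p hpR).symm.oS (cut p hpR).symm.oT (cut p hpR).symm.dj
            (fun z hz => (cut p hpR).symm.cov_ne (satL k hkL hz) (by
              rintro rfl; exact hRE _ hpR (hKE hz))) hkK hkp
        refine fun z hz => ⟨⟨b1 hz, b2 hz⟩, fun hzC => hkC ?_⟩
        have := satC z hzC
        rw [← connectedComponentIn_eq hz] at this
        exact this hkK
      · rw [connectedComponentIn_eq_empty hkE]; exact empty_subset _)
  exact hk3 (hR k' hk'R hk1 hk2)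

end Crest.Agent.R105.Lmy_701
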