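import Mathlib

/-!
# Row 105, S0138, LEMMA Y, part (1): parity of closed walks on a grid (helper701, post #10366)

`γ : ℕ → ℤ × ℤ` a walk on the grid; the parity function of a cell `c = (i,j)` (= `[i,i+1) × [j,j+1)`)
is the number mod 2 of horizontal steps of the walk above `c`. For a closed walk it changes exactly
across the edges which are traversed an odd number of times.
-/

set_option autoImplicit false

open Set Topology Finset

namespace Crest.Agent.R105.Lmy_701

/-- horizontal or vertical unit step -/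
def Adj (v w : ℤ × ℤ) : Prop :=
  (v.2 = w.2 ∧ (w.1 = v.1 + 1 ∨ v.1 = w.1 + 1)) ∨ (v.1 = w.1 ∧ (w.2 = v.2 + 1 ∨ v.2 = w.2 + 1))

/-- `A v c = 1` if the vertex `v` is not to the right of the cell `c` -/
def Ai (v c : ℤ × ℤ) : ZMod 2 := if v.1 ≤ c.1 then 1 else 0

/-- contribution of the step `v → w` to the cell `c` -/
def st (v w c : ℤ × ℤ) : ZMod 2 := if c.2 < v.2 then Ai v c + Ai w c else 0

/-- parity function of a walk with `n` steps -/
def par (γ : ℕ → ℤ × ℤ) (n : ℕ) (c : ℤ × ℤ) : ZMod 2 :=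
  ∑ k ∈ range n, st (γ k) (γ (k + 1)) c

/-- the step `v → w` is the horizontal edge from `(i,j)` to `(i+1,j)` -/
def isH (v w : ℤ × ℤ) (i j : ℤ) : Prop :=
  (v = (i, j) ∧ w = (i + 1, j)) ∨ (w = (i, j) ∧ v = (i + 1, j))

/-- the step `v → w` is the vertical edge from `(i,j)` to `(i,j+1)` -/
def isV (v w : ℤ × ℤ) (i j : ℤ) : Prop :=
  (v = (i, j) ∧ w = (i, j + 1)) ∨ (w = (i, j) ∧ v = (i, j + 1))

instance (v w : ℤ × ℤ) (i j : ℤ) : Decidable (isH v w i j) := by unfold isH; infer_instance
instance (v w : ℤ × ℤ) (i j : ℤ) : Decidable (isV v w i j) := by unfold isV; infer_instance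

theorem zmod2_add_self (x : ZMod 2) : x + x = 0 := by
  revert x; decide

theorem st_H {v w : ℤ × ℤ} (h : Adj v w) (i j : ℤ) :
    st v w (i, j - 1) + st v w (i, j) = if isH v w i j then 1 else 0 := by
  obtain ⟨a, b⟩ := v
  obtain ⟨c, d⟩ := w
  simp only [Adj, st, Ai, isH, Prod.mk.injEq] at h ⊢
  rcases h with ⟨h1, h2 | h2⟩ | ⟨h1, h2 | h2⟩
  · subst h1; subst h2
    by_cases hb : j - 1 < b
    · by_cases hb' : j < b
      · simp only [hb, hb', if_true]
        have hj : b ≠ j := by omega
        rw [zmod2_add_self, if_neg (by omega)]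
      · have hj : b = j := by omega
        subst hj
        simp only [hb, if_true, lt_irrefl, if_false, add_zero]
        by_cases h3 : a = i
        · subst h3; simp
        · rw [if_neg (by omega : ¬ ((a = i ∧ True) ∧ a + 1 = i + 1 ∧ True ∨ (a + 1 = i ∧ True) ∧ a = i + 1 ∧ True))]
          by_cases h5 : a ≤ i
          · rw [if_pos h5, if_pos (by omega)]; decide
          · rw [if_neg h5, if_neg (by omega)]; decide
    · rw [if_neg hb, if_neg (by omega), if_neg (by omega)]; decide
  · subst h1; subst h2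
    by_cases hb : j - 1 < b
    · by_cases hb' : j < b
      · simp only [hb, hb', if_true]
        have hj : b ≠ j := by omega
        rw [zmod2_add_self, if_neg (by omega)]
      · have hj : b = j := by omega
        subst hj
        simp only [hb, if_true, lt_irrefl, if_false, add_zero]
        by_cases h3 : c = i
        · subst h3; simp
        · rw [if_neg (by omega : ¬ ((c + 1 = i ∧ True) ∧ c = i + 1 ∧ True ∨ (c = i ∧ True) ∧ c + 1 = i + 1 ∧ True))]
          by_cases h5 : c ≤ i
          · rw [if_pos h5, if_pos (by omega)]; decide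
          · rw [if_neg h5, if_neg (by omega)]; decide
    · rw [if_neg hb, if_neg (by omega), if_neg (by omega)]; decide
  · subst h1; subst h2
    rw [zmod2_add_self]
    rw [if_neg (by omega : ¬ ((a = i ∧ b = j) ∧ a = i + 1 ∧ b + 1 = j ∨ (a = i ∧ b + 1 = j) ∧ a = i + 1 ∧ b = j))]
    simp
  · subst h1; subst h2
    rw [zmod2_add_self]
    rw [if_neg (by omega : ¬ ((a = i ∧ d + 1 = j) ∧ a = i + 1 ∧ d = j ∨ (a = i ∧ d = j) ∧ a = i + 1 ∧ d + 1 = j))]
    simp

/-- auxiliary function whose sum over a closed walk vanishes -/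
def Bi (v : ℤ × ℤ) (i j : ℤ) : ZMod 2 := if v.1 = i ∧ j < v.2 then 1 else 0

theorem st_V {v w : ℤ × ℤ} (h : Adj v w) (i j : ℤ) :
    st v w (i - 1, j) + st v w (i, j) + (Bi v i j + Bi w i j) = if isV v w i j then 1 else 0 := by
  obtain ⟨a, b⟩ := v
  obtain ⟨c, d⟩ := w
  simp only [Adj, st, Ai, Bi, isV, Prod.mk.injEq] at h ⊢
  rcases h with ⟨h1, h2 | h2⟩ | ⟨h1, h2 | h2⟩
  · subst h1; subst h2
    rw [if_neg (by omega : ¬ ((a = i ∧ b = j) ∧ a + 1 = i ∧ b = j + 1 ∨ (a + 1 = i ∧ b = j) ∧ a = i ∧ b = j + 1))]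
    by_cases hb : j < b
    · simp only [hb, if_true, and_true]
      by_cases e1 : a = i
      · subst e1; simp; decide
      · by_cases e2 : a + 1 = i
        · subst e2; simp [e1]; decide
        · rw [if_neg e1, if_neg e2]
          by_cases e3 : a ≤ i
          · simp only [show a ≤ i - 1 by omega, show a + 1 ≤ i - 1 by omega, e3,
              show a + 1 ≤ i by omega, if_true]
            decide
          · simp only [show ¬ a ≤ i - 1 by omega, show ¬ a + 1 ≤ i - 1 by omega, e3,
              show ¬ a + 1 ≤ i by omega, if_false]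
            decide
    · simp [hb]
  · subst h1; subst h2
    rw [if_neg (by omega : ¬ ((c + 1 = i ∧ b = j) ∧ c = i ∧ b = j + 1 ∨ (c = i ∧ b = j) ∧ c + 1 = i ∧ b = j + 1))]
    by_cases hb : j < b
    · simp only [hb, if_true, and_true]
      by_cases e1 : c = i
      · subst e1; simp; decide
      · by_cases e2 : c + 1 = i
        · subst e2; simp [e1]; decide
        · rw [if_neg e1, if_neg e2]
          by_cases e3 : c ≤ i
          · simp only [show c ≤ i - 1 by omega, show c + 1 ≤ i - 1 by omega, e3,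
              show c + 1 ≤ i by omega, if_true]
            decide
          · simp only [show ¬ c ≤ i - 1 by omega, show ¬ c + 1 ≤ i - 1 by omega, e3,
              show ¬ c + 1 ≤ i by omega, if_false]
            decide
    · simp [hb]
  · subst h1; subst h2
    rw [zmod2_add_self, zmod2_add_self]
    by_cases e1 : a = i
    · subst e1
      by_cases hb : j < b
      · rw [if_neg (by omega : ¬ ((a = a ∧ b = j) ∧ a = a ∧ b + 1 = j + 1 ∨ (a = a ∧ b + 1 = j) ∧ a = a ∧ b = j + 1))]
        simp [hb, show j < b + 1 by omega]; decide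
      · by_cases hb' : b = j
        · subst hb'; simp
        · rw [if_neg (by omega : ¬ ((a = a ∧ b = j) ∧ a = a ∧ b + 1 = j + 1 ∨ (a = a ∧ b + 1 = j) ∧ a = a ∧ b = j + 1))]
          simp [hb, show ¬ j < b + 1 by omega]
    · simp [e1]
  · subst h1; subst h2
    rw [zmod2_add_self, zmod2_add_self]
    by_cases e1 : a = i
    · subst e1
      by_cases hb : j < d
      · rw [if_neg (by omega : ¬ ((a = a ∧ d + 1 = j) ∧ a = a ∧ d = j + 1 ∨ (a = a ∧ d = j) ∧ a = a ∧ d + 1 = j + 1))]
        simp [hb, show j < d + 1 by omega]; decide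
      · by_cases hb' : d = j
        · subst hb'; simp
        · rw [if_neg (by omega : ¬ ((a = a ∧ d + 1 = j) ∧ a = a ∧ d = j + 1 ∨ (a = a ∧ d = j) ∧ a = a ∧ d + 1 = j + 1))]
          simp [hb, show ¬ j < d + 1 by omega]
    · simp [e1]

variable {γ : ℕ → ℤ × ℤ} {n : ℕ}

theorem par_H (h : ∀ k < n, Adj (γ k) (γ (k + 1))) (i j : ℤ) :
    par γ n (i, j - 1) + par γ n (i, j) =
      ∑ k ∈ range n, if isH (γ k) (γ (k + 1)) i j then (1 : ZMod 2) else 0 := by
  rw [par, par, ← sum_add_distrib]
  exact sum_congr rfl fun k hk => st_H (h k (mem_range.1 hk)) i j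

theorem par_V (h : ∀ k < n, Adj (γ k) (γ (k + 1))) (hc : γ n = γ 0) (i j : ℤ) :
    par γ n (i - 1, j) + par γ n (i, j) =
      ∑ k ∈ range n, if isV (γ k) (γ (k + 1)) i j then (1 : ZMod 2) else 0 := by
  have h1 : ∑ k ∈ range n, (Bi (γ k) i j + Bi (γ (k + 1)) i j) = 0 := by
    have h2 : ∀ k, Bi (γ k) i j + Bi (γ (k + 1)) i j = Bi (γ (k + 1)) i j - Bi (γ k) i j := by
      intro k
      generalize Bi (γ k) i j = x
      generalize Bi (γ (k + 1)) i j = y
      revert x y; decide
    simp_rw [h2]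
    rw [sum_range_sub (fun k => Bi (γ k) i j), hc, sub_self]
  have h3 : par γ n (i - 1, j) + par γ n (i, j) = (par γ n (i - 1, j) + par γ n (i, j)) +
      ∑ k ∈ range n, (Bi (γ k) i j + Bi (γ (k + 1)) i j) := by rw [h1, add_zero]
  rw [h3, par, par, ← sum_add_distrib, ← sum_add_distrib]
  exact sum_congr rfl fun k hk => st_V (h k (mem_range.1 hk)) i j

/-- above the walk the parity function vanishes -/
theorem par_above {c : ℤ × ℤ} (h : ∀ k < n, (γ k).2 ≤ c.2) : par γ n c = 0 :=
  sum_eq_zero fun k hk => by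
    rw [st, if_neg (not_lt.2 (h k (mem_range.1 hk)))]

/-- below the walk the parity function vanishes -/
theorem par_below (hc : γ n = γ 0) {c : ℤ × ℤ} (h : ∀ k < n, c.2 < (γ k).2) : par γ n c = 0 := by
  have h1 : par γ n c = ∑ k ∈ range n, (Ai (γ (k + 1)) c - Ai (γ k) c) := by
    refine sum_congr rfl fun k hk => ?_
    rw [st, if_pos (h k (mem_range.1 hk))]
    generalize Ai (γ k) c = x
    generalize Ai (γ (k + 1)) c = y
    revert x y; decide
  rw [h1, sum_range_sub (fun k => Ai (γ k) c), hc, sub_self]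

/-- right of the walk -/
theorem par_right {c : ℤ × ℤ} (h : ∀ k ≤ n, (γ k).1 ≤ c.1) : par γ n c = 0 :=
  sum_eq_zero fun k hk => by
    have hk' := mem_range.1 hk
    rw [st, Ai, Ai, if_pos (h k hk'.le), if_pos (h (k + 1) hk')]
    split_ifs
    · decide
    · rfl

/-- left of the walk -/
theorem par_left {c : ℤ × ℤ} (h : ∀ k ≤ n, c.1 < (γ k).1) : par γ n c = 0 :=
  sum_eq_zero fun k hk => by
    have hk' := mem_range.1 hk
    rw [st, Ai, Ai, if_neg (not_le.2 (h k hk'.le)), if_neg (not_le.2 (h (k + 1) hk'))]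
    split_ifs
    · decide
    · rfl

end Crest.Agent.R105.Lmy_701
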