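import Crest.Agent.R105.Lmy2_701

/-!
# Row 105, S0138, LEMMA Y, part (2a): grid walks in open connected sets (helper701, post #10366)
-/

set_option autoImplicit false

open Set Topology Relation

namespace Crest.Agent.R105.Lmy_701

/-- grid vertex -/
def gv (d : ℝ) (v : ℤ × ℤ) : ℂ := ⟨d * v.1, d * v.2⟩

/-- lower left vertex of the cell of `z` -/
noncomputable def fv (d : ℝ) (z : ℂ) : ℤ × ℤ := (⌊z.re / d⌋, ⌊z.im / d⌋)

/-- a step inside `G` -/
def Stp (d : ℝ) (G : Set ℂ) (v w : ℤ × ℤ) : Prop := Adj v w ∧ segment ℝ (gv d v) (gv d w) ⊆ G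

/-- grid walk inside `G` -/
def Rch (d : ℝ) (G : Set ℂ) : ℤ × ℤ → ℤ × ℤ → Prop := ReflTransGen (Stp d G)

theorem Adj.symm {v w : ℤ × ℤ} (h : Adj v w) : Adj w v := by
  rcases h with ⟨h1, h2⟩ | ⟨h1, h2⟩
  · exact Or.inl ⟨h1.symm, h2.symm⟩
  · exact Or.inr ⟨h1.symm, h2.symm⟩

theorem Stp.symm {d : ℝ} {G : Set ℂ} {v w : ℤ × ℤ} (h : Stp d G v w) : Stp d G w v :=
  ⟨h.1.symm, by rw [segment_symm]; exact h.2⟩

theorem Rch.symm {d : ℝ} {G : Set ℂ} {v w : ℤ × ℤ} (h : Rch d G v w) : Rch d G w v :=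
  haveI : Std.Symm (Stp d G) := ⟨fun _ _ h => Stp.symm h⟩
  (ReflTransGen.stdSymm (r := Stp d G)).symm _ _ h

theorem Rch.trans {d : ℝ} {G : Set ℂ} {u v w : ℤ × ℤ} (h : Rch d G u v) (h' : Rch d G v w) :
    Rch d G u w := ReflTransGen.trans h h'

/-- closed box -/
def Bx (x0 x1 y0 y1 : ℝ) : Set ℂ := {z | (x0 ≤ z.re ∧ z.re ≤ x1) ∧ y0 ≤ z.im ∧ z.im ≤ y1}

theorem convex_Bx (x0 x1 y0 y1 : ℝ) : Convex ℝ (Bx x0 x1 y0 y1) := by
  intro z hz w hw a b ha hb hab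
  simp only [Bx, mem_ofPred_eq, Complex.add_re, Complex.add_im, Complex.real_smul, Complex.mul_re,
    Complex.mul_im, Complex.ofReal_re, Complex.ofReal_im, zero_mul, sub_zero, add_zero] at hz hw ⊢
  obtain ⟨⟨z1, z2⟩, z3, z4⟩ := hz
  obtain ⟨⟨w1, w2⟩, w3, w4⟩ := hw
  refine ⟨⟨?_, ?_⟩, ?_, ?_⟩
  · calc x0 = a * x0 + b * x0 := by rw [← add_mul, hab, one_mul]
      _ ≤ _ := by gcongr
  · calc a * z.re + b * w.re ≤ a * x1 + b * x1 := by gcongr
      _ = x1 := by rw [← add_mul, hab, one_mul]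
  · calc y0 = a * y0 + b * y0 := by rw [← add_mul, hab, one_mul]
      _ ≤ _ := by gcongr
  · calc a * z.im + b * w.im ≤ a * y1 + b * y1 := by gcongr
      _ = y1 := by rw [← add_mul, hab, one_mul]

/-- horizontal walk -/
theorem rch_row {d : ℝ} (hd : 0 < d) {G : Set ℂ} (n : ℕ) : ∀ (i j : ℤ),
    Bx (d * i) (d * (i + n : ℤ)) (d * j) (d * j) ⊆ G → Rch d G (i, j) (i + n, j) := by
  induction n with
  | zero => intro i j _; simp; exact ReflTransGen.refl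
  | succ n ih =>
    intro i j h
    have h1 : Bx (d * i) (d * (i + n : ℤ)) (d * j) (d * j) ⊆ G := by
      intro z hz
      refine h ⟨⟨hz.1.1, hz.1.2.trans ?_⟩, hz.2⟩
      apply mul_le_mul_of_nonneg_left _ hd.le
      push_cast; linarith
    refine (ih i j h1).tail ⟨Or.inl ⟨rfl, Or.inl ?_⟩, ?_⟩
    · push_cast; ring
    · refine Subset.trans ((convex_Bx (d * i) (d * (i + (n + 1 : ℕ) : ℤ)) (d * j) (d * j)).segment_subset
        ?_ ?_) h
      · refine ⟨⟨?_, ?_⟩, le_rfl, le_rfl⟩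
        · apply mul_le_mul_of_nonneg_left _ hd.le
          push_cast; linarith [(Nat.cast_nonneg n : (0:ℝ) ≤ n)]
        · apply mul_le_mul_of_nonneg_left _ hd.le
          push_cast; linarith
      · refine ⟨⟨?_, ?_⟩, le_rfl, le_rfl⟩
        · apply mul_le_mul_of_nonneg_left _ hd.le
          push_cast; linarith [(Nat.cast_nonneg n : (0:ℝ) ≤ n)]
        · apply mul_le_mul_of_nonneg_left _ hd.le
          push_cast; linarith

/-- vertical walk -/
theorem rch_col {d : ℝ} (hd : 0 < d) {G : Set ℂ} (n : ℕ) : ∀ (i j : ℤ),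
    Bx (d * i) (d * i) (d * j) (d * (j + n : ℤ)) ⊆ G → Rch d G (i, j) (i, j + n) := by
  induction n with
  | zero => intro i j _; simp; exact ReflTransGen.refl
  | succ n ih =>
    intro i j h
    have h1 : Bx (d * i) (d * i) (d * j) (d * (j + n : ℤ)) ⊆ G := by
      intro z hz
      refine h ⟨hz.1, hz.2.1, hz.2.2.trans ?_⟩
      apply mul_le_mul_of_nonneg_left _ hd.le
      push_cast; linarith
    refine (ih i j h1).tail ⟨Or.inr ⟨rfl, Or.inl ?_⟩, ?_⟩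
    · push_cast; ring
    · refine Subset.trans ((convex_Bx (d * i) (d * i) (d * j) (d * (j + (n + 1 : ℕ) : ℤ))).segment_subset
        ?_ ?_) h
      · refine ⟨⟨le_rfl, le_rfl⟩, ?_, ?_⟩
        · apply mul_le_mul_of_nonneg_left _ hd.le
          push_cast; linarith [(Nat.cast_nonneg n : (0:ℝ) ≤ n)]
        · apply mul_le_mul_of_nonneg_left _ hd.le
          push_cast; linarith
      · refine ⟨⟨le_rfl, le_rfl⟩, ?_, ?_⟩
        · apply mul_le_mul_of_nonneg_left _ hd.le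
          push_cast; linarith [(Nat.cast_nonneg n : (0:ℝ) ≤ n)]
        · apply mul_le_mul_of_nonneg_left _ hd.le
          push_cast; linarith

/-- row walk between two columns, any order -/
theorem rch_row' {d : ℝ} (hd : 0 < d) {G : Set ℂ} {i i' j : ℤ} {x0 x1 : ℝ}
    (h : Bx x0 x1 (d * j) (d * j) ⊆ G) (h1 : x0 ≤ d * i) (h2 : d * i ≤ x1) (h3 : x0 ≤ d * i')
    (h4 : d * i' ≤ x1) : Rch d G (i, j) (i', j) := by
  have key : ∀ i i' : ℤ, x0 ≤ d * i → d * i' ≤ x1 → i ≤ i' → Rch d G (i, j) (i', j) := by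
    intro i i' h1 h4 hii
    obtain ⟨n, hn⟩ := Int.eq_ofNat_of_zero_le (sub_nonneg.2 hii)
    have hn' : i' = i + n := by omega
    rw [hn']
    refine rch_row hd n i j fun z hz => h ⟨⟨h1.trans hz.1.1, hz.1.2.trans ?_⟩, hz.2⟩
    rw [← hn']; exact h4
  rcases le_total i i' with h5 | h5
  · exact key i i' h1 h4 h5
  · exact (key i' i h3 h2 h5).symm

/-- column walk -/
theorem rch_col' {d : ℝ} (hd : 0 < d) {G : Set ℂ} {i j j' : ℤ} {y0 y1 : ℝ}
    (h : Bx (d * i) (d * i) y0 y1 ⊆ G) (h1 : y0 ≤ d * j) (h2 : d * j ≤ y1) (h3 : y0 ≤ d * j')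
    (h4 : d * j' ≤ y1) : Rch d G (i, j) (i, j') := by
  have key : ∀ j j' : ℤ, y0 ≤ d * j → d * j' ≤ y1 → j ≤ j' → Rch d G (i, j) (i, j') := by
    intro j j' h1 h4 hjj
    obtain ⟨n, hn⟩ := Int.eq_ofNat_of_zero_le (sub_nonneg.2 hjj)
    have hn' : j' = j + n := by omega
    rw [hn']
    refine rch_col hd n i j fun z hz => h ⟨hz.1, h1.trans hz.2.1, hz.2.2.trans ?_⟩
    rw [← hn']; exact h4
  rcases le_total j j' with h5 | h5
  · exact key j j' h1 h4 h5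
  · exact (key j' j h3 h2 h5).symm

/-- in a box all vertices are joined -/
theorem rch_box {d : ℝ} (hd : 0 < d) {G : Set ℂ} {x0 x1 y0 y1 : ℝ} (h : Bx x0 x1 y0 y1 ⊆ G)
    {v w : ℤ × ℤ} (hv : gv d v ∈ Bx x0 x1 y0 y1) (hw : gv d w ∈ Bx x0 x1 y0 y1) : Rch d G v w := by
  obtain ⟨i, j⟩ := v
  obtain ⟨i', j'⟩ := w
  obtain ⟨⟨v1, v2⟩, v3, v4⟩ := hv
  obtain ⟨⟨w1, w2⟩, w3, w4⟩ := hw
  simp only [gv] at v1 v2 v3 v4 w1 w2 w3 w4
  have a1 : Rch d G (i, j) (i', j) :=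
    rch_row' hd (fun z hz => h ⟨hz.1, v3.trans hz.2.1, hz.2.2.trans v4⟩) v1 v2 w1 w2
  have a2 : Rch d G (i', j) (i', j') :=
    rch_col' hd (fun z hz => h ⟨⟨w1.trans hz.1.1, hz.1.2.trans w2⟩, hz.2⟩) v3 v4 w3 w4
  exact a1.trans a2

theorem gv_fv_re {d : ℝ} (hd : 0 < d) (z : ℂ) : (gv d (fv d z)).re ≤ z.re ∧
    z.re < (gv d (fv d z)).re + d := by
  have h1 := Int.floor_le (z.re / d)
  have h2 := Int.lt_floor_add_one (z.re / d)
  rw [le_div_iff₀ hd] at h1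
  rw [div_lt_iff₀ hd] at h2
  simp only [gv, fv]
  constructor <;> nlinarith

theorem gv_fv_im {d : ℝ} (hd : 0 < d) (z : ℂ) : (gv d (fv d z)).im ≤ z.im ∧
    z.im < (gv d (fv d z)).im + d := by
  have h1 := Int.floor_le (z.im / d)
  have h2 := Int.lt_floor_add_one (z.im / d)
  rw [le_div_iff₀ hd] at h1
  rw [div_lt_iff₀ hd] at h2
  simp only [gv, fv]
  constructor <;> nlinarith

/-- every point of an open set has a box around it -/
theorem exists_box {G : Set ℂ} (hG : IsOpen G) {z : ℂ} (hz : z ∈ G) :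
    ∃ r > 0, Bx (z.re - r) (z.re + r) (z.im - r) (z.im + r) ⊆ G := by
  obtain ⟨r, hr, h⟩ := Metric.isOpen_iff.1 hG z hz
  refine ⟨r / 4, by positivity, fun w hw => h ?_⟩
  rw [Metric.mem_ball, dist_eq_norm]
  refine (Complex.norm_le_abs_re_add_abs_im _).trans_lt ?_
  have h1 : |(w - z).re| ≤ r / 4 := by
    rw [Complex.sub_re, abs_le]; constructor <;> linarith [hw.1.1, hw.1.2]
  have h2 : |(w - z).im| ≤ r / 4 := by
    rw [Complex.sub_im, abs_le]; constructor <;> linarith [hw.2.1, hw.2.2]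
  linarith

/-- **grid connectivity** -/
theorem rch_conn {G : Set ℂ} (hG : IsOpen G) (hc : IsPreconnected G) {z w : ℂ} (hz : z ∈ G)
    (hw : w ∈ G) : ∃ δ > 0, ∀ d, 0 < d → d < δ → Rch d G (fv d z) (fv d w) := by
  set P : ℂ → Prop := fun w => ∃ δ > 0, ∀ d, 0 < d → d < δ → Rch d G (fv d z) (fv d w) with hP
  -- local constancy
  have hloc : ∀ w ∈ G, ∃ V, IsOpen V ∧ w ∈ V ∧ ∀ u ∈ V, ∀ u' ∈ V, P u → P u' := by
    intro w hw
    obtain ⟨r, hr, hB⟩ := exists_box hG hw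
    refine ⟨{u | |u.re - w.re| < r / 2 ∧ |u.im - w.im| < r / 2}, ?_, by simp [hr], ?_⟩
    · have c1 : Continuous fun u : ℂ => |u.re - w.re| := by fun_prop
      have c2 : Continuous fun u : ℂ => |u.im - w.im| := by fun_prop
      exact (isOpen_lt c1 continuous_const).inter (isOpen_lt c2 continuous_const)
    · rintro u ⟨hu1, hu2⟩ u' ⟨hu3, hu4⟩ ⟨δ, hδ, h⟩
      refine ⟨min δ (r / 2), by positivity, fun d hd hd' => ?_⟩
      have hd1 := hd'.trans_le (min_le_left _ _)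
      have hd2 := hd'.trans_le (min_le_right _ _)
      refine (h d hd hd1).trans (rch_box hd hB ?_ ?_)
      · have a1 := gv_fv_re hd u
        have a2 := gv_fv_im hd u
        rw [abs_lt] at hu1 hu2
        exact ⟨⟨by linarith, by linarith⟩, by linarith, by linarith⟩
      · have a1 := gv_fv_re hd u'
        have a2 := gv_fv_im hd u'
        rw [abs_lt] at hu3 hu4
        exact ⟨⟨by linarith, by linarith⟩, by linarith, by linarith⟩
  have hPz : P z := ⟨1, one_pos, fun d _ _ => ReflTransGen.refl⟩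
  by_contra hne
  have hA : IsOpen {u | u ∈ G ∧ P u} := by
    rw [isOpen_iff_mem_nhds]
    rintro u ⟨hu, hPu⟩
    obtain ⟨V, hV, huV, h⟩ := hloc u hu
    filter_upwards [hV.mem_nhds huV, hG.mem_nhds hu] with x hx hxG
    exact ⟨hxG, h u huV x hx hPu⟩
  have hB : IsOpen {u | u ∈ G ∧ ¬ P u} := by
    rw [isOpen_iff_mem_nhds]
    rintro u ⟨hu, hPu⟩
    obtain ⟨V, hV, huV, h⟩ := hloc u hu
    filter_upwards [hV.mem_nhds huV, hG.mem_nhds hu] with x hx hxG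
    exact ⟨hxG, fun hPx => hPu (h x hx u huV hPx)⟩
  obtain ⟨x, -, hx1, hx2⟩ := hc _ _ hA hB (fun u hu => by
    by_cases h : P u
    · exact Or.inl ⟨hu, h⟩
    · exact Or.inr ⟨hu, h⟩) ⟨z, hz, hz, hPz⟩ ⟨w, hw, hw, hne⟩
  exact hx2.2 hx1.2

end Crest.Agent.R105.Lmy_701
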