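import Crest.Agent.R105.Lmy1_701
import Crest.Agent.R105.Lmy4_701

/-!
# Row 105, S0138, LEMMA Y, part (2c): boundary and sides of a grid region, gates (helper701, #10366)
-/

set_option autoImplicit false

open Set Topology Relation Filter

namespace Crest.Agent.R105.Lmy_701

/-! ### boundary of a region -/

/-- boundary of the union of the cells of `D` -/
def bd (d : ℝ) (D : Finset (ℤ × ℤ)) : Set ℂ :=
  {z | (∃ i j, ¬ ((i, j - 1) ∈ D ↔ (i, j) ∈ D) ∧ z ∈ segment ℝ (gv d (i, j)) (gv d (i + 1, j))) ∨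
    ∃ i j, ¬ ((i - 1, j) ∈ D ↔ (i, j) ∈ D) ∧ z ∈ segment ℝ (gv d (i, j)) (gv d (i, j + 1))}

theorem isClosed_seg (a b : ℂ) : IsClosed (segment ℝ a b) := by
  rw [segment_eq_image_lineMap]
  exact (isCompact_Icc.image (by fun_prop)).isClosed

theorem isClosed_bd (d : ℝ) (D : Finset (ℤ × ℤ)) : IsClosed (bd d D) := by
  classical
  set HS : Set (ℤ × ℤ) := {c | ¬ ((c.1, c.2 - 1) ∈ D ↔ (c.1, c.2) ∈ D)} with hHS
  set VS : Set (ℤ × ℤ) := {c | ¬ ((c.1 - 1, c.2) ∈ D ↔ (c.1, c.2) ∈ D)} with hVS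
  have hH : HS.Finite := by
    refine ((D.finite_toSet).union (D.finite_toSet.image fun c : ℤ × ℤ => (c.1, c.2 + 1))).subset ?_
    intro c hc
    by_cases h : (c.1, c.2) ∈ D
    · exact Or.inl h
    · refine Or.inr ⟨(c.1, c.2 - 1), ?_, by ext <;> simp⟩
      by_contra h'
      exact hc ⟨fun h'' => absurd h'' h', fun h'' => absurd h'' h⟩
  have hV : VS.Finite := by
    refine ((D.finite_toSet).union (D.finite_toSet.image fun c : ℤ × ℤ => (c.1 + 1, c.2))).subset ?_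
    intro c hc
    by_cases h : (c.1, c.2) ∈ D
    · exact Or.inl h
    · refine Or.inr ⟨(c.1 - 1, c.2), ?_, by ext <;> simp⟩
      by_contra h'
      exact hc ⟨fun h'' => absurd h'' h', fun h'' => absurd h'' h⟩
  have he : bd d D = (⋃ c ∈ HS, segment ℝ (gv d c) (gv d (c.1 + 1, c.2))) ∪
      ⋃ c ∈ VS, segment ℝ (gv d c) (gv d (c.1, c.2 + 1)) := by
    ext z
    simp only [bd, mem_ofPred_eq, mem_union, mem_iUnion, hHS, hVS, Prod.exists, exists_prop]
  rw [he]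
  exact (hH.isClosed_biUnion fun c _ => isClosed_seg _ _).union
    (hV.isClosed_biUnion fun c _ => isClosed_seg _ _)

theorem mem_hseg {d : ℝ} (hd : 0 < d) {i j : ℤ} {z : ℂ} (h1 : d * i ≤ z.re)
    (h2 : z.re ≤ d * (i + 1)) (h3 : z.im = d * j) :
    z ∈ segment ℝ (gv d (i, j)) (gv d (i + 1, j)) := by
  rw [segment_eq_image]
  refine ⟨(z.re - d * i) / d, ⟨div_nonneg (by linarith) hd.le, ?_⟩, ?_⟩
  · rw [div_le_one hd]; linarith
  · apply Complex.ext
    · simp only [gv, Complex.add_re, Complex.real_smul, Complex.mul_re, Complex.ofReal_re,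
        Complex.ofReal_im, zero_mul, sub_zero]
      push_cast
      field_simp
      ring
    · simp only [gv, Complex.add_im, Complex.real_smul, Complex.mul_im, Complex.ofReal_re,
        Complex.ofReal_im, zero_mul, add_zero]
      rw [h3]; ring

theorem mem_vseg {d : ℝ} (hd : 0 < d) {i j : ℤ} {z : ℂ} (h1 : d * j ≤ z.im)
    (h2 : z.im ≤ d * (j + 1)) (h3 : z.re = d * i) :
    z ∈ segment ℝ (gv d (i, j)) (gv d (i, j + 1)) := by
  rw [segment_eq_image]
  refine ⟨(z.im - d * j) / d, ⟨div_nonneg (by linarith) hd.le, ?_⟩, ?_⟩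
  · rw [div_le_one hd]; linarith
  · apply Complex.ext
    · simp only [gv, Complex.add_re, Complex.real_smul, Complex.mul_re, Complex.ofReal_re,
        Complex.ofReal_im, zero_mul, sub_zero]
      rw [h3]; ring
    · simp only [gv, Complex.add_im, Complex.real_smul, Complex.mul_im, Complex.ofReal_re,
        Complex.ofReal_im, zero_mul, add_zero]
      push_cast
      field_simp
      ring

theorem hseg_sub {d : ℝ} (hd : 0 < d) {i j : ℤ} {z : ℂ}
    (h : z ∈ segment ℝ (gv d (i, j)) (gv d (i + 1, j))) :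
    (d * i ≤ z.re ∧ z.re ≤ d * (i + 1)) ∧ z.im = d * j := by
  have h1 : z ∈ Bx (d * i) (d * (i + 1)) (d * j) (d * j) := by
    refine (convex_Bx _ _ _ _).segment_subset ?_ ?_ h
    · exact ⟨⟨le_rfl, by simp only [gv]; nlinarith⟩, le_rfl, le_rfl⟩
    · refine ⟨⟨?_, ?_⟩, le_rfl, le_rfl⟩
      · simp only [gv]; push_cast; nlinarith
      · simp only [gv]; push_cast; exact le_rfl
  exact ⟨h1.1, le_antisymm h1.2.2 h1.2.1⟩

theorem vseg_sub {d : ℝ} (hd : 0 < d) {i j : ℤ} {z : ℂ}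
    (h : z ∈ segment ℝ (gv d (i, j)) (gv d (i, j + 1))) :
    (d * j ≤ z.im ∧ z.im ≤ d * (j + 1)) ∧ z.re = d * i := by
  have h1 : z ∈ Bx (d * i) (d * i) (d * j) (d * (j + 1)) := by
    refine (convex_Bx _ _ _ _).segment_subset ?_ ?_ h
    · exact ⟨⟨le_rfl, le_rfl⟩, le_rfl, by simp only [gv]; nlinarith⟩
    · refine ⟨⟨le_rfl, le_rfl⟩, ?_, ?_⟩
      · simp only [gv]; push_cast; nlinarith
      · simp only [gv]; push_cast; exact le_rfl
  exact ⟨h1.2, le_antisymm h1.1.2 h1.1.1⟩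

theorem floor_near (x : ℝ) : ∀ᶠ y in 𝓝 x, ⌊y⌋ = ⌊x⌋ ∨ (⌊y⌋ = ⌊x⌋ - 1 ∧ x = ⌊x⌋) := by
  have h1 := Int.floor_le x
  have h2 := Int.lt_floor_add_one x
  rcases h1.lt_or_eq with h | h
  · filter_upwards [Ioo_mem_nhds h h2] with y hy
    left
    rw [Int.floor_eq_iff]
    exact ⟨hy.1.le, hy.2⟩
  · filter_upwards [Ioo_mem_nhds (show x - 1 < x by linarith) (show x < x + 1 by linarith)] with y hy
    rcases lt_or_ge y x with h3 | h3
    · right
      refine ⟨?_, h.symm⟩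
      rw [Int.floor_eq_iff]
      push_cast
      rw [h]
      exact ⟨hy.1.le, by linarith⟩
    · left
      rw [Int.floor_eq_iff, h]
      exact ⟨h3, hy.2⟩

/-- off the boundary the membership of the cell is locally constant -/
theorem fv_loc {d : ℝ} (hd : 0 < d) {D : Finset (ℤ × ℤ)} {z : ℂ} (hz : z ∉ bd d D) :
    ∀ᶠ w in 𝓝 z, (fv d w ∈ D ↔ fv d z ∈ D) := by
  have e1 : ∀ᶠ w : ℂ in 𝓝 z, ⌊w.re / d⌋ = ⌊z.re / d⌋ ∨
      (⌊w.re / d⌋ = ⌊z.re / d⌋ - 1 ∧ z.re / d = ⌊z.re / d⌋) :=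
    ((by fun_prop : Continuous fun w : ℂ => w.re / d).tendsto z).eventually (floor_near _)
  have e2 : ∀ᶠ w : ℂ in 𝓝 z, ⌊w.im / d⌋ = ⌊z.im / d⌋ ∨
      (⌊w.im / d⌋ = ⌊z.im / d⌋ - 1 ∧ z.im / d = ⌊z.im / d⌋) :=
    ((by fun_prop : Continuous fun w : ℂ => w.im / d).tendsto z).eventually (floor_near _)
  set i := ⌊z.re / d⌋ with hi
  set j := ⌊z.im / d⌋ with hj
  have a1 : d * i ≤ z.re := by
    have := Int.floor_le (z.re / d); rw [le_div_iff₀ hd] at this; rw [hi]; linarith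
  have a2 : z.re ≤ d * (i + 1) := by
    have := (Int.lt_floor_add_one (z.re / d)).le; rw [div_le_iff₀ hd] at this; rw [hi]; linarith
  have a3 : d * j ≤ z.im := by
    have := Int.floor_le (z.im / d); rw [le_div_iff₀ hd] at this; rw [hj]; linarith
  have a4 : z.im ≤ d * (j + 1) := by
    have := (Int.lt_floor_add_one (z.im / d)).le; rw [div_le_iff₀ hd] at this; rw [hj]; linarith
  -- vertical edge
  have hV : z.re / d = i → ((i - 1, j) ∈ D ↔ (i, j) ∈ D) := by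
    intro h
    by_contra hcon
    exact hz (Or.inr ⟨i, j, hcon, mem_vseg hd a3 a4 (by rw [← h]; field_simp)⟩)
  have hH : z.im / d = j → ((i, j - 1) ∈ D ↔ (i, j) ∈ D) := by
    intro h
    by_contra hcon
    exact hz (Or.inl ⟨i, j, hcon, mem_hseg hd a1 a2 (by rw [← h]; field_simp)⟩)
  have hHV : z.re / d = i → z.im / d = j → ((i - 1, j - 1) ∈ D ↔ (i - 1, j) ∈ D) := by
    intro h h'
    by_contra hcon
    have h1 : z.re = d * i := by rw [← h]; field_simp
    refine hz (Or.inl ⟨i - 1, j, hcon, mem_hseg hd ?_ ?_ (by rw [← h']; field_simp)⟩)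
    · push_cast; rw [h1]; nlinarith
    · push_cast; rw [h1]; nlinarith
  filter_upwards [e1, e2] with w h1 h2
  show ((⌊w.re / d⌋, ⌊w.im / d⌋) ∈ D ↔ (i, j) ∈ D)
  rcases h1 with h1 | ⟨h1, h1'⟩ <;> rcases h2 with h2 | ⟨h2, h2'⟩
  · rw [h1, h2]
  · rw [h1, h2]; exact hH h2'
  · rw [h1, h2]; exact hV h1'
  · rw [h1, h2]; exact (hHV h1' h2').trans (hV h1')

/-- inner side -/
def Si (d : ℝ) (D : Finset (ℤ × ℤ)) : Set ℂ := {z | z ∉ bd d D ∧ fv d z ∈ D}
/-- outer side -/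
def So (d : ℝ) (D : Finset (ℤ × ℤ)) : Set ℂ := {z | z ∉ bd d D ∧ fv d z ∉ D}

theorem isOpen_Si {d : ℝ} (hd : 0 < d) (D : Finset (ℤ × ℤ)) : IsOpen (Si d D) := by
  rw [isOpen_iff_mem_nhds]
  rintro z ⟨h1, h2⟩
  filter_upwards [fv_loc hd h1, (isClosed_bd d D).isOpen_compl.mem_nhds h1] with w h3 h4
  exact ⟨h4, h3.2 h2⟩

theorem isOpen_So {d : ℝ} (hd : 0 < d) (D : Finset (ℤ × ℤ)) : IsOpen (So d D) := by
  rw [isOpen_iff_mem_nhds]
  rintro z ⟨h1, h2⟩
  filter_upwards [fv_loc hd h1, (isClosed_bd d D).isOpen_compl.mem_nhds h1] with w h3 h4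
  exact ⟨h4, fun h => h2 (h3.1 h)⟩

theorem disj_SiSo (d : ℝ) (D : Finset (ℤ × ℤ)) : Disjoint (Si d D) (So d D) :=
  disjoint_left.2 fun _ h h' => h'.2 h.2

theorem cov_SiSo {d : ℝ} {D : Finset (ℤ × ℤ)} {z : ℂ} (hz : z ∉ bd d D) : z ∈ Si d D ∪ So d D := by
  by_cases h : fv d z ∈ D
  · exact Or.inl ⟨hz, h⟩
  · exact Or.inr ⟨hz, h⟩

/-! ### gates -/

/-- a cut edge through `p` at mesh `d`, joined to fixed points `zm`, `zp` on the two sides -/
structure Gate (d : ℝ) (Gp Gm : Set ℂ) (p : ℂ) (v v' : ℤ × ℤ) (zm zp : ℂ) : Prop where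
  adj : Adj v v'
  mem : p ∈ segment ℝ (gv d v) (gv d v')
  sub : segment ℝ (gv d v) (gv d v') ⊆ Gm ∪ Gp ∪ {p}
  em : gv d v ∈ Gm
  ep : gv d v' ∈ Gp
  rm : Rch d Gm v (fv d zm)
  rp : Rch d Gp v' (fv d zp)

theorem Gate.flip {d : ℝ} {Gp Gm : Set ℂ} {p : ℂ} {v v' : ℤ × ℤ} {zm zp : ℂ}
    (h : Gate d Gp Gm p v v' zm zp) : Gate d Gm Gp p v' v zp zm where
  adj := h.adj.symm
  mem := by rw [segment_symm]; exact h.mem
  sub := by rw [segment_symm, union_comm Gp Gm]; exact h.sub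
  em := h.ep
  ep := h.em
  rm := h.rp
  rp := h.rm

theorem hgate {d : ℝ} (hd : 0 < d) {Gr Gl : Set ℂ} {p : ℂ} {ρ : ℝ} (hρ : 0 < ρ) (hdρ : d < ρ / 2)
    (hR : ∀ s ∈ Ioc 0 ρ, p + (s : ℝ) ∈ Gr) (hL : ∀ s ∈ Ioc 0 ρ, p - (s : ℝ) ∈ Gl) {j : ℤ}
    (hj : p.im = d * j) (hi : ∀ i : ℤ, p.re ≠ d * i) :
    Gate d Gr Gl p (⌊p.re / d⌋, j) (⌊p.re / d⌋ + 1, j) (p - (ρ / 2 : ℝ)) (p + (ρ : ℝ)) := by
  set i := ⌊p.re / d⌋ with hidef
  have a1 : d * i < p.re := by
    have := Int.floor_le (p.re / d); rw [le_div_iff₀ hd] at this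
    exact lt_of_le_of_ne (by rw [hidef]; linarith) (hi i).symm
  have a2 : p.re < d * (i + 1) := by
    have := (Int.lt_floor_add_one (p.re / d)); rw [div_lt_iff₀ hd] at this; rw [hidef]; linarith
  have inR : ∀ z : ℂ, z.im = d * j → p.re < z.re → z.re ≤ p.re + ρ → z ∈ Gr := by
    intro z h1 h2 h3
    have := hR (z.re - p.re) ⟨by linarith, by linarith⟩
    convert this using 1
    apply Complex.ext <;> simp [h1, hj]
  have inL : ∀ z : ℂ, z.im = d * j → z.re < p.re → p.re - ρ ≤ z.re → z ∈ Gl := by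
    intro z h1 h2 h3
    have := hL (p.re - z.re) ⟨by linarith, by linarith⟩
    convert this using 1
    apply Complex.ext <;> simp [h1, hj]
  have hfl : ⌊p.im / d⌋ = j := by
    rw [hj, mul_div_cancel_left₀ _ hd.ne', Int.floor_intCast]
  refine ⟨Or.inl ⟨rfl, Or.inl rfl⟩, mem_hseg hd a1.le a2.le hj, ?_, ?_, ?_, ?_, ?_⟩
  · intro z hz
    obtain ⟨⟨h1, h2⟩, h3⟩ := hseg_sub hd hz
    rcases lt_trichotomy z.re p.re with h | h | h
    · exact Or.inl (Or.inl (inL z h3 h (by nlinarith)))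
    · right; exact Complex.ext h (by rw [h3, hj])
    · exact Or.inl (Or.inr (inR z h3 h (by nlinarith)))
  · exact inL _ rfl a1 (by simp only [gv]; nlinarith)
  · refine inR _ rfl ?_ ?_
    · simp only [gv]; push_cast; exact a2
    · simp only [gv]; push_cast; nlinarith
  · -- left walk
    have hfe : fv d (p - (ρ / 2 : ℝ)) = (⌊(p.re - ρ / 2) / d⌋, j) := by
      simp only [fv, Complex.sub_re, Complex.sub_im, Complex.ofReal_re, Complex.ofReal_im, sub_zero,
        hfl]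
    rw [hfe]
    have b1 := Int.floor_le ((p.re - ρ / 2) / d)
    have b2 := Int.lt_floor_add_one ((p.re - ρ / 2) / d)
    rw [le_div_iff₀ hd] at b1
    rw [div_lt_iff₀ hd] at b2
    have hle : ((⌊(p.re - ρ / 2) / d⌋ : ℤ) : ℝ) ≤ i := by
      have : ⌊(p.re - ρ / 2) / d⌋ ≤ i := by
        rw [hidef]; apply Int.floor_le_floor
        apply div_le_div_of_nonneg_right _ hd.le; linarith
      exact_mod_cast this
    refine rch_row' hd (x0 := p.re - ρ) (x1 := d * i) ?_ (by nlinarith) le_rfl (by nlinarith)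
      (by nlinarith)
    intro z hz
    exact inL z (le_antisymm hz.2.2 hz.2.1) (hz.1.2.trans_lt a1) hz.1.1
  · have hfe : fv d (p + (ρ : ℝ)) = (⌊(p.re + ρ) / d⌋, j) := by
      simp only [fv, Complex.add_re, Complex.add_im, Complex.ofReal_re, Complex.ofReal_im, add_zero,
        hfl]
    rw [hfe]
    have b1 := Int.floor_le ((p.re + ρ) / d)
    have b2 := Int.lt_floor_add_one ((p.re + ρ) / d)
    rw [le_div_iff₀ hd] at b1
    rw [div_lt_iff₀ hd] at b2
    have hle : ((i + 1 : ℤ) : ℝ) ≤ ⌊(p.re + ρ) / d⌋ := by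
      have : i + 1 ≤ ⌊(p.re + ρ) / d⌋ := by
        rw [Int.le_floor, hidef, le_div_iff₀ hd]
        push_cast
        rw [← hidef]
        nlinarith
      exact_mod_cast this
    push_cast at hle
    refine rch_row' hd (x0 := d * (i + 1)) (x1 := p.re + ρ) ?_ (by push_cast; exact le_rfl)
      (by push_cast; nlinarith) (by nlinarith) (by nlinarith)
    intro z hz
    exact inR z (le_antisymm hz.2.2 hz.2.1) (a2.trans_le hz.1.1) hz.1.2

theorem vgate {d : ℝ} (hd : 0 < d) {GT GB : Set ℂ} {p : ℂ} {ρ : ℝ} (hρ : 0 < ρ) (hdρ : d < ρ / 2)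
    (hT : ∀ s ∈ Ioc 0 ρ, p + (s : ℝ) * Complex.I ∈ GT)
    (hB : ∀ s ∈ Ioc 0 ρ, p - (s : ℝ) * Complex.I ∈ GB) {i : ℤ}
    (hi : p.re = d * i) (hj : ∀ j : ℤ, p.im ≠ d * j) :
    Gate d GT GB p (i, ⌊p.im / d⌋) (i, ⌊p.im / d⌋ + 1) (p - (ρ / 2 : ℝ) * Complex.I)
      (p + (ρ : ℝ) * Complex.I) := by
  set j := ⌊p.im / d⌋ with hjdef
  have a1 : d * j < p.im := by
    have := Int.floor_le (p.im / d); rw [le_div_iff₀ hd] at this
    exact lt_of_le_of_ne (by rw [hjdef]; linarith) (hj j).symm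
  have a2 : p.im < d * (j + 1) := by
    have := (Int.lt_floor_add_one (p.im / d)); rw [div_lt_iff₀ hd] at this; rw [hjdef]; linarith
  have inT : ∀ z : ℂ, z.re = d * i → p.im < z.im → z.im ≤ p.im + ρ → z ∈ GT := by
    intro z h1 h2 h3
    have := hT (z.im - p.im) ⟨by linarith, by linarith⟩
    convert this using 1
    apply Complex.ext <;> simp [h1, hi]
  have inB : ∀ z : ℂ, z.re = d * i → z.im < p.im → p.im - ρ ≤ z.im → z ∈ GB := by
    intro z h1 h2 h3
    have := hB (p.im - z.im) ⟨by linarith, by linarith⟩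
    convert this using 1
    apply Complex.ext <;> simp [h1, hi]
  have hfl : ⌊p.re / d⌋ = i := by
    rw [hi, mul_div_cancel_left₀ _ hd.ne', Int.floor_intCast]
  refine ⟨Or.inr ⟨rfl, Or.inl rfl⟩, mem_vseg hd a1.le a2.le hi, ?_, ?_, ?_, ?_, ?_⟩
  · intro z hz
    obtain ⟨⟨h1, h2⟩, h3⟩ := vseg_sub hd hz
    rcases lt_trichotomy z.im p.im with h | h | h
    · exact Or.inl (Or.inl (inB z h3 h (by nlinarith)))
    · right; exact Complex.ext (by rw [h3, hi]) h
    · exact Or.inl (Or.inr (inT z h3 h (by nlinarith)))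
  · exact inB _ rfl a1 (by simp only [gv]; nlinarith)
  · refine inT _ rfl ?_ ?_
    · simp only [gv]; push_cast; exact a2
    · simp only [gv]; push_cast; nlinarith
  · have hfe : fv d (p - (ρ / 2 : ℝ) * Complex.I) = (i, ⌊(p.im - ρ / 2) / d⌋) := by
      simp only [fv, Complex.sub_re, Complex.sub_im, Complex.mul_re, Complex.mul_im,
        Complex.ofReal_re, Complex.ofReal_im, Complex.I_re, Complex.I_im, mul_zero, mul_one,
        sub_self, sub_zero, zero_mul, add_zero, hfl]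
    rw [hfe]
    have b1 := Int.floor_le ((p.im - ρ / 2) / d)
    have b2 := Int.lt_floor_add_one ((p.im - ρ / 2) / d)
    rw [le_div_iff₀ hd] at b1
    rw [div_lt_iff₀ hd] at b2
    have hle : ((⌊(p.im - ρ / 2) / d⌋ : ℤ) : ℝ) ≤ j := by
      have : ⌊(p.im - ρ / 2) / d⌋ ≤ j := by
        rw [hjdef]; apply Int.floor_le_floor
        apply div_le_div_of_nonneg_right _ hd.le; linarith
      exact_mod_cast this
    refine rch_col' hd (y0 := p.im - ρ) (y1 := d * j) ?_ (by nlinarith) le_rfl (by nlinarith)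
      (by nlinarith)
    intro z hz
    exact inB z (le_antisymm hz.1.2 hz.1.1) (hz.2.2.trans_lt a1) hz.2.1
  · have hfe : fv d (p + (ρ : ℝ) * Complex.I) = (i, ⌊(p.im + ρ) / d⌋) := by
      simp only [fv, Complex.add_re, Complex.add_im, Complex.mul_re, Complex.mul_im,
        Complex.ofReal_re, Complex.ofReal_im, Complex.I_re, Complex.I_im, mul_zero, mul_one,
        sub_self, add_zero, zero_mul, hfl]
    rw [hfe]
    have b1 := Int.floor_le ((p.im + ρ) / d)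
    have b2 := Int.lt_floor_add_one ((p.im + ρ) / d)
    rw [le_div_iff₀ hd] at b1
    rw [div_lt_iff₀ hd] at b2
    have hle : ((j + 1 : ℤ) : ℝ) ≤ ⌊(p.im + ρ) / d⌋ := by
      have : j + 1 ≤ ⌊(p.im + ρ) / d⌋ := by
        rw [Int.le_floor, hjdef, le_div_iff₀ hd]
        push_cast
        rw [← hjdef]
        nlinarith
      exact_mod_cast this
    push_cast at hle
    refine rch_col' hd (y0 := d * (j + 1)) (y1 := p.im + ρ) ?_ (by push_cast; exact le_rfl)
      (by push_cast; nlinarith) (by nlinarith) (by nlinarith)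
    intro z hz
    exact inT z (le_antisymm hz.1.2 hz.1.1) (a2.trans_le hz.2.1) hz.2.2

end Crest.Agent.R105.Lmy_701
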