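import Crest.Agent.R105.Lmy5_701

/-!
# Row 105, S0138, LEMMA Y, part (2d): for every good point `p` a grid region whose boundary meets the
level set at `p` and at one far point only (helper701, post #10366)
-/

set_option autoImplicit false

open Set Topology Relation Filter

namespace Crest.Agent.R105.Lmy_701

/-- sign change at `p` along a rational horizontal / vertical line -/
def Sgn (Gp Gm : Set ℂ) (p : ℂ) : Prop :=
  ((∃ e : ℝ, (e = 1 ∨ e = -1) ∧ ∃ ρ > 0, ∀ s ∈ Ioc 0 ρ, p + ((e * s : ℝ) : ℂ) ∈ Gp ∧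
      p - ((e * s : ℝ) : ℂ) ∈ Gm) ∧ (∃ q : ℚ, p.im = q) ∧ ∀ q : ℚ, p.re ≠ q) ∨
  ((∃ e : ℝ, (e = 1 ∨ e = -1) ∧ ∃ ρ > 0, ∀ s ∈ Ioc 0 ρ, p + ((e * s : ℝ) : ℂ) * Complex.I ∈ Gp ∧
      p - ((e * s : ℝ) : ℂ) * Complex.I ∈ Gm) ∧ (∃ q : ℚ, p.re = q) ∧ ∀ q : ℚ, p.im ≠ q)

theorem mesh_eq {q : ℚ} {x : ℝ} (hq : x = q) {k : ℕ} (hk : 0 < k) :
    x = (1 / ((k : ℝ) * q.den)) * ((k * q.num : ℤ) : ℝ) := by
  have h1 : (k : ℝ) ≠ 0 := by exact_mod_cast hk.ne'
  have h2 : (q.den : ℝ) ≠ 0 := by exact_mod_cast q.den_nz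
  rw [hq]
  conv_lhs => rw [← Rat.num_div_den q]
  push_cast
  field_simp

theorem mesh_ne {x : ℝ} (hq : ∀ q : ℚ, x ≠ q) (k n : ℕ) (i : ℤ) :
    x ≠ (1 / ((k : ℝ) * n)) * i := by
  intro h
  apply hq ((1 / ((k : ℚ) * n)) * i)
  rw [h]; push_cast; ring

/-- meshes `1/(k N₀)` -/
theorem exists_gates {Gp Gm : Set ℂ} {p : ℂ} (hp : Sgn Gp Gm p) :
    ∃ zm ∈ Gm, ∃ zp ∈ Gp, ∃ N₀ : ℕ, 0 < N₀ ∧ ∃ δ > 0, ∀ k : ℕ, 0 < k →
      1 / ((k : ℝ) * N₀) < δ → ∃ v v', Gate (1 / ((k : ℝ) * N₀)) Gp Gm p v v' zm zp := by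
  rcases hp with ⟨⟨e, he, ρ, hρ, h⟩, ⟨q, hq⟩, hirr⟩ | ⟨⟨e, he, ρ, hρ, h⟩, ⟨q, hq⟩, hirr⟩
  · have hρ2 : 0 < ρ / 2 := by positivity
    rcases he with rfl | rfl
    · have hR : ∀ s ∈ Ioc 0 ρ, p + (s : ℝ) ∈ Gp := fun s hs => by simpa using (h s hs).1
      have hL : ∀ s ∈ Ioc 0 ρ, p - (s : ℝ) ∈ Gm := fun s hs => by simpa using (h s hs).2
      refine ⟨_, hL (ρ / 2) ⟨hρ2, by linarith⟩, _, hR ρ ⟨hρ, le_rfl⟩, q.den, q.den_pos, ρ / 2, hρ2,
        fun k hk hd => ?_⟩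
      have hd0 : (0 : ℝ) < 1 / ((k : ℝ) * q.den) := by
        have : (0 : ℝ) < q.den := by exact_mod_cast q.den_pos
        have : (0 : ℝ) < k := by exact_mod_cast hk
        positivity
      exact ⟨_, _, hgate hd0 hρ hd hR hL (mesh_eq hq hk) (mesh_ne hirr k q.den)⟩
    · have hR : ∀ s ∈ Ioc 0 ρ, p + (s : ℝ) ∈ Gm := fun s hs => by simpa using (h s hs).2
      have hL : ∀ s ∈ Ioc 0 ρ, p - (s : ℝ) ∈ Gp := fun s hs => by
        simpa [sub_eq_add_neg] using (h s hs).1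
      refine ⟨_, hR ρ ⟨hρ, le_rfl⟩, _, hL (ρ / 2) ⟨hρ2, by linarith⟩, q.den, q.den_pos, ρ / 2, hρ2,
        fun k hk hd => ?_⟩
      have hd0 : (0 : ℝ) < 1 / ((k : ℝ) * q.den) := by
        have : (0 : ℝ) < q.den := by exact_mod_cast q.den_pos
        have : (0 : ℝ) < k := by exact_mod_cast hk
        positivity
      exact ⟨_, _, (hgate hd0 hρ hd hR hL (mesh_eq hq hk) (mesh_ne hirr k q.den)).flip⟩
  · have hρ2 : 0 < ρ / 2 := by positivity
    rcases he with rfl | rfl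
    · have hR : ∀ s ∈ Ioc 0 ρ, p + (s : ℝ) * Complex.I ∈ Gp := fun s hs => by simpa using (h s hs).1
      have hL : ∀ s ∈ Ioc 0 ρ, p - (s : ℝ) * Complex.I ∈ Gm := fun s hs => by simpa using (h s hs).2
      refine ⟨_, hL (ρ / 2) ⟨hρ2, by linarith⟩, _, hR ρ ⟨hρ, le_rfl⟩, q.den, q.den_pos, ρ / 2, hρ2,
        fun k hk hd => ?_⟩
      have hd0 : (0 : ℝ) < 1 / ((k : ℝ) * q.den) := by
        have : (0 : ℝ) < q.den := by exact_mod_cast q.den_pos
        have : (0 : ℝ) < k := by exact_mod_cast hk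
        positivity
      exact ⟨_, _, vgate hd0 hρ hd hR hL (mesh_eq hq hk) (mesh_ne hirr k q.den)⟩
    · have hR : ∀ s ∈ Ioc 0 ρ, p + (s : ℝ) * Complex.I ∈ Gm := fun s hs => by simpa using (h s hs).2
      have hL : ∀ s ∈ Ioc 0 ρ, p - (s : ℝ) * Complex.I ∈ Gp := fun s hs => by
        simpa [sub_eq_add_neg] using (h s hs).1
      refine ⟨_, hR ρ ⟨hρ, le_rfl⟩, _, hL (ρ / 2) ⟨hρ2, by linarith⟩, q.den, q.den_pos, ρ / 2, hρ2,
        fun k hk hd => ?_⟩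
      have hd0 : (0 : ℝ) < 1 / ((k : ℝ) * q.den) := by
        have : (0 : ℝ) < q.den := by exact_mod_cast q.den_pos
        have : (0 : ℝ) < k := by exact_mod_cast hk
        positivity
      exact ⟨_, _, (vgate hd0 hρ hd hR hL (mesh_eq hq hk) (mesh_ne hirr k q.den)).flip⟩

theorem Adj.edge {v w : ℤ × ℤ} (h : Adj v w) : (∃ i j, isH v w i j) ∨ ∃ i j, isV v w i j := by
  obtain ⟨a, b⟩ := v
  obtain ⟨c, e⟩ := w
  simp only [Adj, isH, isV, Prod.mk.injEq] at h ⊢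
  rcases h with ⟨h1, h2 | h2⟩ | ⟨h1, h2 | h2⟩
  · exact Or.inl ⟨a, b, Or.inl ⟨⟨rfl, rfl⟩, h2, h1.symm⟩⟩
  · exact Or.inl ⟨c, b, Or.inr ⟨⟨rfl, h1.symm⟩, h2, rfl⟩⟩
  · exact Or.inr ⟨a, b, Or.inl ⟨⟨rfl, rfl⟩, h1.symm, h2⟩⟩
  · exact Or.inr ⟨a, e, Or.inr ⟨⟨h1.symm, rfl⟩, rfl, h2⟩⟩

theorem isH.segEq {v w : ℤ × ℤ} {i j : ℤ} (h : isH v w i j) (d : ℝ) :
    segment ℝ (gv d (i, j)) (gv d (i + 1, j)) = segment ℝ (gv d v) (gv d w) := by
  rcases h with ⟨rfl, rfl⟩ | ⟨rfl, rfl⟩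
  · rfl
  · rw [segment_symm]

theorem isV.segEq {v w : ℤ × ℤ} {i j : ℤ} (h : isV v w i j) (d : ℝ) :
    segment ℝ (gv d (i, j)) (gv d (i, j + 1)) = segment ℝ (gv d v) (gv d w) := by
  rcases h with ⟨rfl, rfl⟩ | ⟨rfl, rfl⟩
  · rfl
  · rw [segment_symm]

/-- the region of a good point: all data -/
structure Reg (d t h H : ℝ) (Gp Gm : Set ℂ) (p : ℂ) (D : Finset (ℤ × ℤ)) (v v' : ℤ × ℤ)
    (j : ℤ) : Prop where
  hd : 0 < d
  hj : -H = d * j
  loop : Loop d Gp Gm v v' (⌊t / d⌋, j) (⌊t / d⌋ + 1, j) D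
  adj : Adj v v'
  mem : p ∈ segment ℝ (gv d v) (gv d v')
  sub : segment ℝ (gv d v) (gv d v') ⊆ Gm ∪ Gp ∪ {p}
  em : gv d v ∈ Gm
  ep : gv d v' ∈ Gp
  above : (⌊t / d⌋, j) ∈ D
  below : (⌊t / d⌋, j - 1) ∉ D
  bdsub : bd d D ⊆ Gp ∪ Gm ∪ {p, ⟨t, -H⟩}
  pbd : p ∈ bd d D
  cut : ∀ L : Set ℂ, (∀ z ∈ L, z ∉ Gp ∧ z ∉ Gm) → (⟨t, -H⟩ : ℂ) ∉ L →
    Cut L ⟨t, -h⟩ ⟨t, h⟩ p (Si d D) (So d D)

theorem exists_reg {Gp Gm : Set ℂ} (oGp : IsOpen Gp) (cGp : IsPreconnected Gp) (oGm : IsOpen Gm)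
    (cGm : IsPreconnected Gm) {t h H : ℝ} (hh : 0 ≤ h) (hhH : h < H) (hH : ∃ q : ℚ, H = q)
    (ht : ∀ q : ℚ, t ≠ q) (far : ∀ z : ℂ, z.re = t → h ≤ |z.im| → z ∉ Gp ∧ z ∉ Gm)
    (farp : ∀ z : ℂ, t < z.re → z.im = -H → z ∈ Gp) (farm : ∀ z : ℂ, z.re < t → z.im = -H → z ∈ Gm)
    {p : ℂ} (hp : Sgn Gp Gm p) (pGp : p ∉ Gp) (pGm : p ∉ Gm) (pf : p.re = t → |p.im| < h) :
    ∃ N : ℕ, 0 < N ∧ ∃ D v v' j, Reg (1 / (N : ℝ)) t h H Gp Gm p D v v' j := by
  classical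
  set e : ℂ := ⟨t, -H⟩ with he
  have hH0 : 0 < H := hh.trans_lt hhH
  have eG := far e rfl (by rw [he]; simp only [abs_neg]; exact hhH.le.trans (le_abs_self H))
  obtain ⟨zm, hzm, zp, hzp, N₁, hN₁, δ₁, hδ₁, hg⟩ := exists_gates hp
  obtain ⟨qH, hqH⟩ := hH
  have heim : e.im = ((-qH : ℚ) : ℝ) := by rw [he, hqH]; push_cast; rfl
  -- the far gate
  have hR : ∀ s ∈ Ioc (0 : ℝ) 1, e + (s : ℝ) ∈ Gp := fun s hs =>
    farp _ (by simp [he, hs.1]) (by simp [he])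
  have hL : ∀ s ∈ Ioc (0 : ℝ) 1, e - (s : ℝ) ∈ Gm := fun s hs =>
    farm _ (by simp [he, hs.1]) (by simp [he])
  have hzem := hL (1 / 2) ⟨by norm_num, by norm_num⟩
  have hzep := hR 1 ⟨one_pos, le_rfl⟩
  obtain ⟨δ₂, hδ₂, hc1⟩ := rch_conn oGp cGp hzp hzep
  obtain ⟨δ₃, hδ₃, hc2⟩ := rch_conn oGm cGm hzm hzem
  -- choice of the mesh
  set N₂ : ℕ := (-qH).den with hN₂
  have hN₂pos : 0 < N₂ := (-qH).den_pos
  set δ : ℝ := min (min δ₁ δ₂) (min δ₃ (1 / 2)) with hδ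
  have hδ0 : 0 < δ := by positivity
  obtain ⟨k, hk⟩ := exists_nat_gt (1 / δ)
  have hk0 : 0 < k := by
    have : (0 : ℝ) < k := (by positivity : (0:ℝ) < 1 / δ).trans hk
    exact_mod_cast this
  set N : ℕ := k * N₁ * N₂ with hN
  have hNpos : 0 < N := by positivity
  have hNr : (0 : ℝ) < N := by exact_mod_cast hNpos
  have hkN : (k : ℝ) ≤ N := by
    have : k ≤ N := by
      rw [hN, mul_assoc]
      exact Nat.le_mul_of_pos_right _ (by positivity)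
    exact_mod_cast this
  set d : ℝ := 1 / (N : ℝ) with hd
  have hd0 : 0 < d := by positivity
  have hdδ : d < δ := by
    rw [hd, div_lt_iff₀ hNr]
    rw [div_lt_iff₀ hδ0] at hk
    nlinarith
  have hd1 : d < δ₁ := hdδ.trans_le ((min_le_left _ _).trans (min_le_left _ _))
  have hd2 : d < δ₂ := hdδ.trans_le ((min_le_left _ _).trans (min_le_right _ _))
  have hd3 : d < δ₃ := hdδ.trans_le ((min_le_right _ _).trans (min_le_left _ _))
  have hd4 : d < 1 / 2 := hdδ.trans_le ((min_le_right _ _).trans (min_le_right _ _))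
  have hdN1 : d = 1 / (((k * N₂ : ℕ) : ℝ) * N₁) := by
    rw [hd, hN]; push_cast; ring_nf
  have hdN2 : d = 1 / (((k * N₁ : ℕ) : ℝ) * N₂) := by
    rw [hd, hN]; push_cast; ring_nf
  obtain ⟨v, v', hgp⟩ := hg (k * N₂) (by positivity) (by rw [← hdN1]; exact hd1)
  rw [← hdN1] at hgp
  have hje := mesh_eq (q := -qH) heim (k := k * N₁) (by positivity)
  rw [← hN₂, ← hdN2] at hje
  set j : ℤ := ((k * N₁ : ℕ) : ℤ) * (-qH).num with hj
  have hge := hgate hd0 one_pos hd4 hR hL hje (fun i => by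
    have := mesh_ne ht (k * N₁) N₂ i
    rw [← hdN2] at this
    exact this)
  have hereq : e.re = t := rfl
  rw [hereq] at hge
  set i : ℤ := ⌊t / d⌋ with hi
  have hpe : p ≠ e := by
    intro hpe
    have := pf (by rw [hpe])
    rw [hpe, he] at this
    simp only [abs_neg] at this
    linarith [le_abs_self H]
  -- the loop
  have h1 : Rch d Gp v' (i + 1, j) := (hgp.rp.trans (hc1 d hd0 hd2)).trans hge.rp.symm
  have h2 : Rch d Gm v (i, j) := (hgp.rm.trans (hc2 d hd0 hd3)).trans hge.rm.symm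
  obtain ⟨D, hD⟩ := exists_loop h1 h2 hgp.adj hge.adj (fun h => pGp (h hgp.mem))
    (fun h => pGm (h hgp.mem)) (fun h => eG.1 (h hge.mem)) (fun h => eG.2 (h hge.mem)) (by
      rintro (⟨a, b⟩ | ⟨a, b⟩)
      · have := hge.sub (by rw [← a, ← b]; exact hgp.mem)
        rcases this with (h | h) | h
        · exact pGm h
        · exact pGp h
        · exact hpe h
      · have := hge.sub (by rw [segment_symm, ← a, ← b]; exact hgp.mem)
        rcases this with (h | h) | h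
        · exact pGm h
        · exact pGp h
        · exact hpe h)
  have hbd : bd d D ⊆ Gp ∪ Gm ∪ {p, e} := by
    rintro z (⟨i', j', hm, hz⟩ | ⟨i', j', hm, hz⟩)
    · rcases hD.H i' j' hm with h | h | h | h
      · exact Or.inl (Or.inl (h hz))
      · exact Or.inl (Or.inr (h hz))
      · rw [h.segEq d] at hz
        rcases hgp.sub hz with (h | h) | h
        · exact Or.inl (Or.inr h)
        · exact Or.inl (Or.inl h)
        · exact Or.inr (Or.inl h)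
      · rw [h.segEq d] at hz
        rcases hge.sub hz with (h | h) | h
        · exact Or.inl (Or.inr h)
        · exact Or.inl (Or.inl h)
        · exact Or.inr (Or.inr h)
    · rcases hD.V i' j' hm with h | h | h | h
      · exact Or.inl (Or.inl (h hz))
      · exact Or.inl (Or.inr (h hz))
      · rw [h.segEq d] at hz
        rcases hgp.sub hz with (h | h) | h
        · exact Or.inl (Or.inr h)
        · exact Or.inl (Or.inl h)
        · exact Or.inr (Or.inl h)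
      · rw [h.segEq d] at hz
        rcases hge.sub hz with (h | h) | h
        · exact Or.inl (Or.inr h)
        · exact Or.inl (Or.inl h)
        · exact Or.inr (Or.inr h)
  have hpbd : p ∈ bd d D := by
    rcases hgp.adj.edge with ⟨i', j', h⟩ | ⟨i', j', h⟩
    · exact Or.inl ⟨i', j', hD.Hv _ _ h, by rw [h.segEq d]; exact hgp.mem⟩
    · exact Or.inr ⟨i', j', hD.Vv _ _ h, by rw [h.segEq d]; exact hgp.mem⟩
  -- the vertical line through `e`, far away, off the boundary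
  have hoff : ∀ z : ℂ, z.re = t → h ≤ |z.im| → z.im ≠ -H → z ∉ bd d D := by
    intro z h1 h2 h3 hz
    rcases hbd hz with (h | h) | h
    · exact (far z h1 h2).1 h
    · exact (far z h1 h2).2 h
    · rcases h with h | h
      · have := pf (by rw [← h, h1])
        rw [← h] at this
        linarith
      · rw [mem_singleton_iff.1 h] at h3
        exact h3 rfl
  have hcol : ∀ y0 y1 : ℝ, (∀ y ∈ Icc y0 y1, h ≤ |y| ∧ y ≠ -H) → ∀ y ∈ Icc y0 y1, ∀ y' ∈ Icc y0 y1,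
      (⟨t, y⟩ : ℂ) ∈ Si d D → (⟨t, y'⟩ : ℂ) ∈ Si d D := by
    intro y0 y1 hy y hy1 y' hy2 hS
    refine subset_of_meets (convex_Bx t t y0 y1).isPreconnected (isOpen_Si hd0 D) (isOpen_So hd0 D)
      (disj_SiSo d D) ?_ (e := (⟨t, y⟩ : ℂ)) ⟨⟨le_rfl, le_rfl⟩, hy1.1, hy1.2⟩ hS
      ⟨⟨le_rfl, le_rfl⟩, hy2.1, hy2.2⟩
    intro z hz
    exact cov_SiSo (hoff z (le_antisymm hz.1.2 hz.1.1) (hy _ hz.2).1 (hy _ hz.2).2)
  obtain ⟨m0, hm0⟩ := (D.image Prod.snd).bddBelow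
  obtain ⟨m1, hm1⟩ := (D.image Prod.snd).bddAbove
  have hlow : ∀ c ∈ D, m0 ≤ c.2 := fun c hc => hm0 (by
    simp only [Finset.coe_image]; exact ⟨c, hc, rfl⟩)
  have hupp : ∀ c ∈ D, c.2 ≤ m1 := fun c hc => hm1 (by
    simp only [Finset.coe_image]; exact ⟨c, hc, rfl⟩)
  have hje' : -H = d * j := hje
  -- the cell below is not in `D`
  have hbelow : (i, j - 1) ∉ D := by
    intro hin
    set yb : ℝ := -H - d / 2 with hyb
    have hfvb : fv d ⟨t, yb⟩ = (i, j - 1) := by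
      have : ⌊yb / d⌋ = j - 1 := by
        rw [Int.floor_eq_iff]
        push_cast
        constructor
        · rw [le_div_iff₀ hd0, hyb]; nlinarith
        · rw [div_lt_iff₀ hd0, hyb]; nlinarith
      simp only [fv, this, hi]
    have hS : (⟨t, yb⟩ : ℂ) ∈ Si d D := by
      refine ⟨hoff _ rfl ?_ ?_, by rw [hfvb]; exact hin⟩
      · show h ≤ |yb|
        rw [hyb, abs_of_neg (by linarith)]; linarith
      · show yb ≠ -H
        rw [hyb]; intro h; linarith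
    set y0 : ℝ := min yb (d * (m0 - 1)) with hy0
    have := hcol y0 yb (fun y hy => ⟨by
      have h1 : y ≤ -H - d / 2 := hy.2
      rw [abs_of_neg (by linarith)]; linarith, by
      have h1 : y ≤ -H - d / 2 := hy.2
      intro h; linarith⟩) yb ⟨min_le_left _ _, le_rfl⟩ y0 ⟨le_rfl, min_le_left _ _⟩ hS
    have h3 := hlow _ this.2
    have h4 : ⌊y0 / d⌋ < m0 := by
      rw [Int.floor_lt, div_lt_iff₀ hd0]
      have : y0 ≤ d * (m0 - 1) := min_le_right _ _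
      nlinarith
    exact absurd h3 (not_le.2 h4)
  have habove : (i, j) ∈ D := by
    by_contra hcon
    exact hD.Hu i j (Or.inl ⟨rfl, rfl⟩) ⟨fun h => absurd h hbelow, fun h => absurd h hcon⟩
  refine ⟨N, hNpos, D, v, v', j, ⟨hd0, hje', hD, hgp.adj, hgp.mem, hgp.sub, hgp.em, hgp.ep, habove,
    hbelow, hbd, hpbd, ?_⟩⟩
  intro L hL1 hL2
  refine ⟨isOpen_Si hd0 D, isOpen_So hd0 D, disj_SiSo d D, ?_, fun h => h.1 hpbd,
    fun h => h.1 hpbd, ?_, ?_⟩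
  · intro z hz
    by_cases hzb : z ∈ bd d D
    · rcases hbd hzb with (h | h) | h
      · exact absurd h (hL1 z hz).1
      · exact absurd h (hL1 z hz).2
      · rcases h with h | h
        · exact Or.inr h
        · rw [mem_singleton_iff.1 h] at hz; exact absurd hz hL2
    · exact Or.inl (cov_SiSo hzb)
  · -- above `e`
    set η : ℝ := min (d / 2) (H - h) with hη
    have hη0 : 0 < η := lt_min (by positivity) (by linarith)
    have hη1 : η ≤ d / 2 := min_le_left _ _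
    have hη2 : η ≤ H - h := min_le_right _ _
    have hfva : fv d ⟨t, -H + η⟩ = (i, j) := by
      have : ⌊(-H + η) / d⌋ = j := by
        rw [Int.floor_eq_iff]
        constructor
        · rw [le_div_iff₀ hd0]; nlinarith
        · rw [div_lt_iff₀ hd0]; nlinarith
      simp only [fv, this, hi]
    have hS : (⟨t, -H + η⟩ : ℂ) ∈ Si d D := by
      refine ⟨hoff _ rfl ?_ ?_, by rw [hfva]; exact habove⟩
      · show h ≤ |-H + η|
        rw [abs_of_nonpos (by linarith)]; linarith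
      · show -H + η ≠ -H
        intro h; linarith
    exact hcol (-H + η) (-h) (fun y hy => ⟨by
      rw [abs_of_nonpos (by linarith [hy.2])]; linarith [hy.2], by
      intro h; linarith [hy.1]⟩) (-H + η) ⟨le_rfl, by linarith⟩ (-h) ⟨by linarith, le_rfl⟩ hS
  · -- far above
    by_contra hcon
    have hoff2 : (⟨t, h⟩ : ℂ) ∉ bd d D := hoff _ rfl (le_abs_self h) (by
      show h ≠ -H
      intro h'; linarith)
    have hS : (⟨t, h⟩ : ℂ) ∈ Si d D := by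
      rcases cov_SiSo hoff2 with h' | h'
      · exact h'
      · exact absurd h' hcon
    set y1 : ℝ := max h (d * (m1 + 1)) with hy1
    have := hcol h y1 (fun y hy => ⟨hy.1.trans (le_abs_self y), by
      intro h'; linarith [hy.1]⟩) h ⟨le_rfl, le_max_left _ _⟩ y1 ⟨le_max_left _ _, le_rfl⟩ hS
    have h3 := hupp _ this.2
    have h4 : m1 < ⌊y1 / d⌋ := by
      rw [← Int.add_one_le_iff, Int.le_floor, le_div_iff₀ hd0]
      have : d * (m1 + 1) ≤ y1 := le_max_right _ _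
      push_cast
      nlinarith
    exact absurd h3 (not_le.2 h4)

end Crest.Agent.R105.Lmy_701
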