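import Crest.Agent.R105.E13_499
import Crest.Agent.R105.Lin3_642
import Crest.Agent.R105.Fml2_61

/-!
# Row 105, S0138, node E13: the LINE LEMMA in the letters of E13_499 (helper395, over helper642)

* `line_cut` / `line_chn` : `∫_{Eᶜ} G(re) w gy(χ_n) → ∫_{Icc lo hi} G (wB - wT)`, smooth cut-offs
  (`Lin_642.Cut` / `Fml_61.ChnE`), end limits given by `E13_499.EndsOf`.
-/

set_option autoImplicit false

open Set Filter MeasureTheory Metric
open scoped Topology NNReal ENNReal

namespace Crest.Agent.R105.Lna_395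

open Tc_808 Bd_775 Sqr_185 Yv_319
open Sct_636 (LCE)
open Bvl_31 (BVL Bd)
open Lin_642
open E13_499 (TopF BotF EndsOf)

noncomputable section

variable {E : Set ℂ} {w : ℂ → ℝ} {χ : ℕ → ℂ → ℝ} {G wT wB : ℝ → ℝ} {C : ℝ}

theorem topF_499 {L : Set ℂ} {t : ℝ} (hL : IsCompact L) (hne : (sec L t).Nonempty) :
    TopF E L t = Lin_642.topF E L t := by
  rw [Lin_642.topF_eq hL hne]; rfl

theorem botF_499 {L : Set ℂ} {t : ℝ} (hL : IsCompact L) (hne : (sec L t).Nonempty) :
    BotF E L t = Lin_642.botF E L t := by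
  rw [Lin_642.botF_eq hL hne]; rfl

/-- the end filters are proper -/
theorem topF_neBot (hE : IsCompact E) (L0 : Cmp E) {t : ℝ} (ht : t ∈ Icc (lo L0.1) (hi L0.1)) :
    (TopF E L0.1 t).NeBot := by
  rw [topF_499 (L0.isCompact hE) (sec_nonempty (L0.isCompact hE) L0.preconn L0.nonempty ht)]
  exact Lin_642.topF_neBot hE L0 ht

theorem botF_neBot (hE : IsCompact E) (L0 : Cmp E) {t : ℝ} (ht : t ∈ Icc (lo L0.1) (hi L0.1)) :
    (BotF E L0.1 t).NeBot := by
  rw [botF_499 (L0.isCompact hE) (sec_nonempty (L0.isCompact hE) L0.preconn L0.nonempty ht)]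
  exact Lin_642.botF_neBot hE L0 ht

/-- `EndsOf` from bounded variation (31's `BVL`) -/
theorem endsOf_tp (hE : IsCompact E) (L0 : Cmp E) (hv : BVL E w) :
    EndsOf E L0 w (tp E L0.1 w) (bt E L0.1 w) := by
  filter_upwards [ends hE hv L0] with t ht h
  have hL := L0.isCompact hE
  have hne := sec_nonempty hL L0.preconn L0.nonempty (Ioo_subset_Icc_self h)
  rw [topF_499 hL hne, botF_499 hL hne]
  exact ht (Ioo_subset_Icc_self h)

/-- two choices of the end limits agree almost everywhere -/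
theorem endsOf_unique (hE : IsCompact E) (L0 : Cmp E) {wT' wB' : ℝ → ℝ}
    (h : EndsOf E L0 w wT wB) (h' : EndsOf E L0 w wT' wB') :
    ∀ᵐ t : ℝ, t ∈ Ioo (lo L0.1) (hi L0.1) → wT t = wT' t ∧ wB t = wB' t := by
  filter_upwards [h, h'] with t h1 h2 ht
  have n1 := topF_neBot hE L0 (Ioo_subset_Icc_self ht)
  have n2 := botF_neBot hE L0 (Ioo_subset_Icc_self ht)
  exact ⟨tendsto_nhds_unique (h1 ht).1 (h2 ht).1, tendsto_nhds_unique (h1 ht).2 (h2 ht).2⟩

/-- **LINE LEMMA**, given end limits, smooth cut-offs -/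
theorem line_cut (hE : IsCompact E) (hord : ∀ L : Cmp E, ∀ t, OrdConnected (sec L.1 t))
    (L0 : Cmp E) (hw : ContinuousOn w Eᶜ)
    (hb : Bd E w) (hv : BVL E w) (hχ : Lin_642.Cut E L0.1 χ)
    (hG : Measurable G) (hC : ∀ t, |G t| ≤ C) (he : EndsOf E L0 w wT wB) :
    Tendsto (fun n => ∫ z in Eᶜ, G z.re * w z * gy (χ n) z) atTop
      (𝓝 (∫ t in Icc (lo L0.1) (hi L0.1), G t * (wB t - wT t))) := by
  obtain ⟨R, hR0, hR⟩ := exists_R hE
  obtain ⟨M, hMi, hM⟩ := bvl_real hv R
  obtain ⟨B, hB⟩ := hb (R + R)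
  have hL := L0.isCompact hE
  have hC0 : 0 ≤ C := (abs_nonneg _).trans (hC 0)
  set B' : ℝ := |B| with hB'
  have hbd : Integrable ((Icc (-R) R).indicator fun t => C * (4 * |M t| + 2 * B')) := by
    rw [integrable_indicator_iff measurableSet_Icc]
    refine Integrable.const_mul ?_ _
    exact ((hMi.abs.const_mul 4).integrableOn).add continuous_const.integrableOn_Icc
  have hS : ∀ᵐ t : ℝ, |t| ≤ R →
      BoundedVariationOn (fun v : ℝ => w ⟨t, v⟩) {v | (⟨t, v⟩ : ℂ) ∉ E ∧ |v| ≤ R} ∧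
      (eVariationOn (fun v : ℝ => w ⟨t, v⟩) {v | (⟨t, v⟩ : ℂ) ∉ E ∧ |v| ≤ R}).toReal ≤ |M t| := by
    filter_upwards [hM] with t ht h
    exact ⟨((ht h).trans_lt ENNReal.ofReal_lt_top).ne, toReal_le (ht h)⟩
  have hBt : ∀ t : ℝ, |t| ≤ R → ∀ v ∈ {v : ℝ | (⟨t, v⟩ : ℂ) ∉ E ∧ |v| ≤ R}, |w ⟨t, v⟩| ≤ B' := by
    intro t ht v hv
    exact (hB _ hv.1 ((norm_mk_le t v).trans (add_le_add ht hv.2))).trans (le_abs_self B)
  -- the function on a line
  have hind : ∀ n t, ∫ v : ℝ, (Eᶜ).indicator (fun z => G z.re * (w z * gy (χ n) z)) ⟨t, v⟩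
        = G t * ∫ v : ℝ, w ⟨t, v⟩ * gy (χ n) ⟨t, v⟩ := by
    intro n t
    rw [← integral_const_mul]
    congr 1
    ext v
    by_cases hvE : (⟨t, v⟩ : ℂ) ∈ E
    · rw [indicator_of_notMem (show (⟨t, v⟩ : ℂ) ∉ Eᶜ from fun h => h hvE),
        (gy_zero_near (hχ.lce n).lc hvE).self_of_nhds]
      ring
    · rw [indicator_of_mem (show (⟨t, v⟩ : ℂ) ∈ Eᶜ from hvE)]
  have hint : ∀ n t, Integrable fun v : ℝ => w ⟨t, v⟩ * gy (χ n) ⟨t, v⟩ := by
    intro n t
    have h1 := continuous_mulgy hE.isClosed (hχ.lce n) hw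
    have h2 : HasCompactSupport fun z => w z * gy (χ n) z :=
      (compact_gy' (hχ.lce n).supp).mul_left (f := w)
    have hemb : Topology.IsClosedEmbedding fun v : ℝ => (⟨t, v⟩ : ℂ) := by
      refine Topology.IsClosedEmbedding.of_continuous_injective_isClosedMap
        (continuous_mk_right t) (fun a b h => by simpa using congrArg Complex.im h) ?_
      intro s hs
      have : (fun v : ℝ => (⟨t, v⟩ : ℂ)) '' s = {z : ℂ | z.re = t} ∩ Complex.im ⁻¹' s := by
        ext z
        constructor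
        · rintro ⟨v, hv, rfl⟩; exact ⟨rfl, hv⟩
        · rintro ⟨h1, h2⟩
          exact ⟨z.im, h2, by apply Complex.ext <;> simp [h1.symm]⟩
      rw [this]
      exact (isClosed_eq Complex.continuous_re continuous_const).inter
        (hs.preimage Complex.continuous_im)
    exact (h1.comp (continuous_mk_right t)).integrable_of_hasCompactSupport
      (h2.comp_isClosedEmbedding hemb)
  have hsplit : ∀ n t, t ∈ Icc (lo L0.1) (hi L0.1) →
      ∫ v : ℝ, w ⟨t, v⟩ * gy (χ n) ⟨t, v⟩ =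
        (∫ v in Iio (sInf (sec L0.1 t)), w ⟨t, v⟩ * gy (χ n) ⟨t, v⟩) +
          ∫ v in Ioi (sSup (sec L0.1 t)), w ⟨t, v⟩ * gy (χ n) ⟨t, v⟩ := by
    intro n t ht
    have hne := sec_nonempty hL L0.preconn L0.nonempty ht
    have hc := isCompact_sec hL t
    have hpq : sInf (sec L0.1 t) ≤ sSup (sec L0.1 t) := by
      obtain ⟨v, hv⟩ := hne
      exact (csInf_le hc.bddBelow hv).trans (le_csSup hc.bddAbove hv)
    rw [← intervalIntegral.integral_Iic_add_Ioi (b := sSup (sec L0.1 t))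
      (hint n t).integrableOn (hint n t).integrableOn]
    congr 1
    refine (setIntegral_eq_of_subset_of_forall_sdiff_eq_zero measurableSet_Iic
      (fun v hv => (le_of_lt hv).trans hpq) ?_)
    intro v hv
    have h1 : v ∈ sec L0.1 t := (hord L0 t).out (hc.sInf_mem hne) (hc.sSup_mem hne)
      ⟨not_lt.1 hv.2, hv.1⟩
    rw [(gy_zero_near (hχ.lce n).lc (L0.subset h1)).self_of_nhds, mul_zero]
  have e0 : ∀ n, ∫ z in Eᶜ, G z.re * w z * gy (χ n) z =
      ∫ z in Eᶜ, G z.re * (w z * gy (χ n) z) := fun n => by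
    congr 1; ext z; ring
  simp only [e0]
  have key := dct (f := fun n z => G z.re * (w z * gy (χ n) z))
    (hE.isClosed.isOpen_compl.measurableSet)
    (fun n => integrable_line hE.isClosed (hχ.lce n) hw hG hC)
    (F := (Icc (lo L0.1) (hi L0.1)).indicator fun t => G t * (wB t - wT t)) hbd ?_ ?_
  · rw [integral_indicator measurableSet_Icc] at key
    exact key
  · -- the bound
    filter_upwards [hχ.zero_far (L0.subset.trans hR)] with n hn
    filter_upwards [hS] with t hS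
    rw [hind n t, abs_mul]
    by_cases htR : |t| ≤ R
    · rw [indicator_of_mem (show t ∈ Icc (-R) R from abs_le.1 htR)]
      obtain ⟨hS1, hS2⟩ := hS htR
      refine mul_le_mul (hC t) ?_ (abs_nonneg _) hC0
      by_cases ht : t ∈ Icc (lo L0.1) (hi L0.1)
      · rw [hsplit n t ht]
        have hne := sec_nonempty hL L0.preconn L0.nonempty ht
        have hqm := (isCompact_sec hL t).sSup_mem hne
        have hpm := (isCompact_sec hL t).sInf_mem hne
        have hqR := abs_im_lt hR (L0.subset hqm)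
        have hpR := abs_im_lt hR (L0.subset hpm)
        have h1 := ray_bound hS1 (hBt t htR) (abs_nonneg B) (hχ.hasDeriv n t) (hχ.cont n t)
          (fun v => hχ.mem n _) (nhdsWithin_le_nhds (hχ.one_near L0.subset n hqm))
          (q := sSup (sec L0.1 t)) (b := R) ((le_abs_self _).trans_lt hqR)
          (fun v hv => (hn t v (Or.inr (hv.trans (le_abs_self v)))).1)
          (fun v hv hd => ⟨hχ.notMem hd, abs_le.2 ⟨by linarith [hv.1, (abs_lt.1 hqR).1], hv.2⟩⟩)
        have h2 := ray_bound' hS1 (hBt t htR) (abs_nonneg B) (hχ.hasDeriv n t) (hχ.cont n t)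
          (fun v => hχ.mem n _) (nhdsWithin_le_nhds (hχ.one_near L0.subset n hpm))
          (q := sInf (sec L0.1 t)) (b := -R) (abs_lt.1 hpR).1
          (fun v hv => (hn t v (Or.inr (by
            rw [← abs_neg]; exact (le_neg_of_le_neg hv).trans (le_abs_self _)))).1)
          (fun v hv hd => ⟨hχ.notMem hd, abs_le.2 ⟨hv.1, by linarith [hv.2, (abs_lt.1 hpR).2]⟩⟩)
        refine (abs_add_le _ _).trans ?_
        rw [hB']
        linarith
      · have h1 := line_bound hS1 (hBt t htR) (abs_nonneg B) (hχ.hasDeriv n t) (hχ.cont n t)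
          (fun v => hχ.mem n _) (a := -R) (b := R) (by linarith)
          (fun v hv => (hn t v (Or.inr (by
            rw [← abs_neg]; exact (le_neg_of_le_neg hv).trans (le_abs_self _)))).1)
          (fun v hv => (hn t v (Or.inr (hv.trans (le_abs_self v)))).1)
          (fun v hv hd => ⟨hχ.notMem hd, abs_le.2 ⟨hv.1.le, hv.2⟩⟩)
        linarith
    · rw [indicator_of_notMem (show t ∉ Icc (-R) R from fun h => htR (abs_le.2 h))]
      have : ∀ v : ℝ, w ⟨t, v⟩ * gy (χ n) ⟨t, v⟩ = 0 := fun v => by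
        rw [(hn t v (Or.inl (not_le.1 htR).le)).2, mul_zero]
      simp only [this, integral_zero, abs_zero, mul_zero, le_refl]
  · -- the limit
    have hlo : ∀ᵐ t : ℝ, t ≠ lo L0.1 := (measure_eq_zero_iff_ae_notMem.1
      (measure_singleton (μ := volume) (lo L0.1))).mono fun t h h' => h h'
    have hhi : ∀ᵐ t : ℝ, t ≠ hi L0.1 := (measure_eq_zero_iff_ae_notMem.1
      (measure_singleton (μ := volume) (hi L0.1))).mono fun t h h' => h h'
    filter_upwards [hS, he, hlo, hhi] with t hS hends hl hh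
    simp only [hind _ t]
    by_cases ht : t ∈ Icc (lo L0.1) (hi L0.1)
    · rw [indicator_of_mem ht]
      have hto : t ∈ Ioo (lo L0.1) (hi L0.1) :=
        ⟨lt_of_le_of_ne ht.1 (Ne.symm hl), lt_of_le_of_ne ht.2 hh⟩
      simp only [hsplit _ t ht]
      have hne := sec_nonempty hL L0.preconn L0.nonempty ht
      have hqm := (isCompact_sec hL t).sSup_mem hne
      have hpm := (isCompact_sec hL t).sInf_mem hne
      have htR := (abs_re_lt hR (L0.subset hqm)).le
      have hqR := abs_im_lt hR (L0.subset hqm)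
      have hpR := abs_im_lt hR (L0.subset hpm)
      obtain ⟨hS1, hS2⟩ := hS htR
      have hnb := Lin_642.topF_neBot hE L0 ht
      have hnb' := Lin_642.botF_neBot hE L0 ht
      have hte := (hends hto).1
      have hte' := (hends hto).2
      rw [topF_499 hL hne, topF_eq hL hne, ← nhds_cut t _ R hqR] at hte
      rw [botF_499 hL hne, botF_eq hL hne, ← nhds_cut t _ R hpR] at hte'
      rw [topF_eq hL hne, ← nhds_cut t _ R hqR] at hnb
      rw [botF_eq hL hne, ← nhds_cut t _ R hpR] at hnb'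
      have h1 := ray_lim (l := atTop) hS1 (hBt t htR) ((le_abs_self _).trans_lt hqR) hnb hte
        (fun n => hχ.hasDeriv n t) (fun n => hχ.cont n t) (fun n v => hχ.mem n _)
        (fun n => nhdsWithin_le_nhds (hχ.one_near L0.subset n hqm))
        (fun b hb => hχ.zero_up fun v hv => (le_csSup (isCompact_sec hL t).bddAbove hv).trans_lt hb)
        (fun n v hv hd => ⟨hχ.notMem hd, abs_le.2 ⟨by linarith [hv.1, (abs_lt.1 hqR).1], hv.2⟩⟩)
      have h2 := ray_lim' (l := atTop) hS1 (hBt t htR) (abs_lt.1 hpR).1 hnb' hte'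
        (fun n => hχ.hasDeriv n t) (fun n => hχ.cont n t) (fun n v => hχ.mem n _)
        (fun n => nhdsWithin_le_nhds (hχ.one_near L0.subset n hpm))
        (fun b hb => hχ.zero_dn fun v hv => hb.trans_le (csInf_le (isCompact_sec hL t).bddBelow hv))
        (fun n v hv hd => ⟨hχ.notMem hd, abs_le.2 ⟨hv.1, by linarith [hv.2, (abs_lt.1 hpR).2]⟩⟩)
      have h3 := (h2.add h1).const_mul (G t)
      rw [← sub_eq_add_neg] at h3
      exact h3
    · rw [indicator_of_notMem ht]
      refine tendsto_const_nhds.congr' ?_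
      filter_upwards [hχ.zero_out (t := t) fun z hz h => ht (by
        rw [← h]; exact ⟨lo_le hL hz, le_hi hL hz⟩)] with n hn
      simp only [hn, mul_zero, integral_zero]

/-- `Fml_61.ChnE` = `Lin_642.Cut` -/
theorem cut_of_chn {L : Set ℂ} (h : Fml_61.ChnE E L χ) : Lin_642.Cut E L χ :=
  ⟨h.lce, h.c01, h.one, h.sh⟩

/-- **LINE LEMMA in the letters of E13_499 / Fml2_61** -/
theorem line_chn (hP : Pct_185.PicT E) (L : Cmp E) (hw : ContinuousOn w Eᶜ)
    (hb : ∀ R : ℝ, ∃ M : ℝ, ∀ z, z ∉ E → ‖z‖ ≤ R → |w z| ≤ M) (hv : BVL E w)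
    (hG : Measurable G) (hC : ∀ t, |G t| ≤ C) (hχ : Fml_61.ChnE E L.1 χ)
    (he : EndsOf E L w wT wB) :
    Tendsto (fun n => ∫ z in Eᶜ, G z.re * w z * gy (χ n) z) atTop
      (𝓝 (∫ t in Icc (lo L.1) (hi L.1), G t * (wB t - wT t))) :=
  line_cut hP.cpt hP.ord L hw hb hv (cut_of_chn hχ) hG hC he

end

end Crest.Agent.R105.Lna_395
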