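import Mathlib

/-!
# Row 105, S0138, node E13, LINE LEMMA (2b) (helper411), part 1: one dimensional lemmas

* `mono_parts` : integration by parts, monotone function against a `C¹` function
* `bv_parts`, `bv_line` : the same for functions of bounded variation on a set `A`, the test function
  is locally constant off `A`
* `tail_var`, `tail_var'` : the variation near an end point tends to zero
* `exists_lim`, `exists_lim'` : end limits
-/

set_option autoImplicit false

open MeasureTheory Set Filter Topology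
open scoped NNReal ENNReal

namespace Crest.Agent.R105.Lnl_411

theorem chain {Ψ : ℝ → ℝ} {a b δ : ℝ} (hδ : 0 < δ)
    (h : ∀ u v, a ≤ u → u ≤ v → v ≤ b → v - u ≤ δ → Ψ u ≤ Ψ v) :
    ∀ u v, a ≤ u → u ≤ v → v ≤ b → Ψ u ≤ Ψ v := by
  have key : ∀ n : ℕ, ∀ u v, a ≤ u → u ≤ v → v ≤ b → v - u ≤ n * δ → Ψ u ≤ Ψ v := by
    intro n
    induction n with
    | zero =>
      intro u v h1 h2 h3 h4
      have : v = u := by
        simp only [Nat.cast_zero, zero_mul] at h4
        linarith
      rw [this]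
    | succ n ih =>
      intro u v h1 h2 h3 h4
      rcases le_total (v - u) δ with h5 | h5
      · exact h u v h1 h2 h3 h5
      · have h6 : Ψ u ≤ Ψ (v - δ) :=
          ih u (v - δ) h1 (by linarith) (by linarith) (by push_cast at h4; linarith)
        exact h6.trans (h (v - δ) v (by linarith) (by linarith) h3 (by linarith))
  intro u v h1 h2 h3
  obtain ⟨n, hn⟩ := exists_nat_gt ((v - u) / δ)
  exact key n u v h1 h2 h3 (by rw [div_lt_iff₀ hδ] at hn; linarith)

theorem mono_parts {P χ : ℝ → ℝ} {a b : ℝ} (hab : a ≤ b) (hP : Monotone P)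
    (hχ : ContDiff ℝ 1 χ) (h01 : ∀ v ∈ Icc a b, 0 ≤ χ v ∧ χ v ≤ 1) :
    0 ≤ P b * χ b - P a * χ a - (∫ v in a..b, P v * deriv χ v) ∧
    P b * χ b - P a * χ a - (∫ v in a..b, P v * deriv χ v) ≤ P b - P a := by
  have hcd : Continuous (deriv χ) := hχ.continuous_deriv le_rfl
  obtain ⟨C, hC⟩ := (isCompact_Icc (a := a) (b := b)).exists_bound_of_continuousOn hcd.continuousOn
  have hC0 : 0 ≤ C := (norm_nonneg _).trans (hC a (left_mem_Icc.2 hab))
  have hii : ∀ u v, IntervalIntegrable (fun x => P x * deriv χ x) volume u v := fun u v =>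
    (hP.intervalIntegrable).mul_continuousOn hcd.continuousOn
  set Φ : ℝ → ℝ := fun v => P v * χ v - ∫ x in a..v, P x * deriv χ x with hΦ
  have step : ∀ u v, a ≤ u → u ≤ v → v ≤ b →
      (P v - P u) * (χ v - C * (v - u)) ≤ Φ v - Φ u ∧
      Φ v - Φ u ≤ (P v - P u) * (χ v + C * (v - u)) := by
    intro u v h1 h2 h3
    have e1 : (∫ x in a..v, P x * deriv χ x) - (∫ x in a..u, P x * deriv χ x)
        = ∫ x in u..v, P x * deriv χ x := by
      rw [intervalIntegral.integral_interval_sub_left (hii a v) (hii a u)]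
    have e2 : ∫ x in u..v, deriv χ x = χ v - χ u :=
      intervalIntegral.integral_deriv_eq_sub (fun x _ => (hχ.differentiable one_ne_zero) x)
        (hcd.intervalIntegrable _ _)
    have e3 : (∫ x in u..v, P x * deriv χ x) = P u * (χ v - χ u) +
        ∫ x in u..v, (P x - P u) * deriv χ x := by
      rw [← e2, ← intervalIntegral.integral_const_mul, ← intervalIntegral.integral_add]
      · congr 1
        funext x
        ring
      · exact (hcd.intervalIntegrable _ _).const_mul _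
      · have := (hii u v).sub ((hcd.intervalIntegrable u v).const_mul (P u))
        refine this.congr (fun x _ => ?_)
        ring
    have e4 : |∫ x in u..v, (P x - P u) * deriv χ x| ≤ (P v - P u) * C * (v - u) := by
      have h4 := intervalIntegral.norm_integral_le_of_norm_le_const (a := u) (b := v)
        (f := fun x => (P x - P u) * deriv χ x) (C := (P v - P u) * C) (by
          intro x hx
          rw [uIoc_of_le h2] at hx
          rw [norm_mul]
          refine mul_le_mul ?_ (hC x ⟨h1.trans hx.1.le, hx.2.trans h3⟩) (norm_nonneg _)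
            (sub_nonneg.2 (hP h2))
          rw [Real.norm_eq_abs, abs_of_nonneg (sub_nonneg.2 (hP hx.1.le))]
          exact sub_le_sub_right (hP hx.2) _)
      rw [Real.norm_eq_abs, abs_of_nonneg (sub_nonneg.2 h2)] at h4
      exact h4
    have e5 : Φ v - Φ u = (P v - P u) * χ v - ∫ x in u..v, (P x - P u) * deriv χ x := by
      have : Φ v - Φ u = P v * χ v - P u * χ u -
          ((∫ x in a..v, P x * deriv χ x) - (∫ x in a..u, P x * deriv χ x)) := by
        simp only [hΦ]; ring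
      rw [this, e1, e3]
      ring
    rw [abs_le] at e4
    rw [e5]
    constructor
    · nlinarith [e4.1, e4.2]
    · nlinarith [e4.1, e4.2]
  have hW : 0 ≤ P b - P a := sub_nonneg.2 (hP hab)
  have main : ∀ ε > 0, -(ε * (P b - P a)) ≤ Φ b - Φ a ∧ Φ b - Φ a ≤ (1 + ε) * (P b - P a) := by
    intro ε hε
    have hδ : 0 < ε / (C + 1) := by positivity
    have hCδ : ∀ u v, u ≤ v → v - u ≤ ε / (C + 1) → C * (v - u) ≤ ε := by
      intro u v h1 h2
      have h3 : (v - u) * (C + 1) ≤ ε := by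
        rwa [le_div_iff₀ (by linarith)] at h2
      nlinarith
    constructor
    · have h := chain (Ψ := fun v => Φ v + ε * P v) (a := a) (b := b) hδ (by
        intro u v h1 h2 h3 h4
        have h5 := (step u v h1 h2 h3).1
        have h6 := hCδ u v h2 h4
        have h7 : 0 ≤ P v - P u := sub_nonneg.2 (hP h2)
        have h8 := (h01 v ⟨h1.trans h2, h3⟩).1
        nlinarith [mul_nonneg h7 h8, mul_nonneg h7 (sub_nonneg.2 h6)]) a b le_rfl hab le_rfl
      linarith
    · have h := chain (Ψ := fun v => (1 + ε) * P v - Φ v) (a := a) (b := b) hδ (by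
        intro u v h1 h2 h3 h4
        have h5 := (step u v h1 h2 h3).2
        have h6 := hCδ u v h2 h4
        have h7 : 0 ≤ P v - P u := sub_nonneg.2 (hP h2)
        have h8 := (h01 v ⟨h1.trans h2, h3⟩).2
        nlinarith [mul_nonneg h7 (sub_nonneg.2 h8), mul_nonneg h7 (sub_nonneg.2 h6)])
        a b le_rfl hab le_rfl
      linarith
  have eΦ : Φ b - Φ a = P b * χ b - P a * χ a - (∫ v in a..b, P v * deriv χ v) := by
    simp only [hΦ, intervalIntegral.integral_same, sub_zero]
    ring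
  rw [← eΦ]
  constructor
  · by_contra hcon
    push Not at hcon
    have h1 : 0 < -(Φ b - Φ a) / (2 * (P b - P a + 1)) := by
      apply div_pos <;> linarith
    have h2 := (main _ h1).1
    have h3 : -(Φ b - Φ a) / (2 * (P b - P a + 1)) * (P b - P a) ≤ -(Φ b - Φ a) / 2 := by
      rw [div_mul_eq_mul_div, div_le_div_iff₀ (by linarith) (by norm_num)]
      nlinarith
    linarith
  · by_contra hcon
    push Not at hcon
    set D := Φ b - Φ a - (P b - P a) with hD
    have hDp : 0 < D := by linarith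
    have h1 : 0 < D / (2 * (P b - P a + 1)) := by positivity
    have h2 := (main _ h1).2
    have h3 : D / (2 * (P b - P a + 1)) * (P b - P a) ≤ D / 2 := by
      rw [div_mul_eq_mul_div, div_le_div_iff₀ (by linarith) (by norm_num)]
      nlinarith
    linarith

theorem bv_parts {f χ : ℝ → ℝ} {A : Set ℝ} (hf : BoundedVariationOn f A) {a b : ℝ} (ha : a ∈ A)
    (hb : b ∈ A) (hab : a ≤ b) (hχ : ContDiff ℝ 1 χ) (h01 : ∀ v ∈ Icc a b, 0 ≤ χ v ∧ χ v ≤ 1)
    (h0 : ∀ v ∈ Icc a b, v ∉ A → deriv χ v = 0) :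
    |(∫ v in a..b, f v * deriv χ v) - (f b * χ b - f a * χ a)| ≤
      2 * (eVariationOn f A).toReal := by
  have hl := hf.locallyBoundedVariationOn
  have hcd : Continuous (deriv χ) := hχ.continuous_deriv le_rfl
  set A' := A ∩ Icc a b with hA'
  have ha' : a ∈ A' := ⟨ha, left_mem_Icc.2 hab⟩
  have hb' : b ∈ A' := ⟨hb, right_mem_Icc.2 hab⟩
  have m1 : MonotoneOn (variationOnFromTo f A a) A' :=
    (variationOnFromTo.monotoneOn hl ha).mono inter_subset_left
  have m2 : MonotoneOn (variationOnFromTo f A a - f) A' :=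
    (variationOnFromTo.sub_self_monotoneOn hl ha).mono inter_subset_left
  have ext : ∀ g : ℝ → ℝ, MonotoneOn g A' → ∃ G, Monotone G ∧ EqOn g G A' := by
    intro g hg
    refine hg.exists_monotone_extension ⟨g a, ?_⟩ ⟨g b, ?_⟩
    · rintro _ ⟨x, hx, rfl⟩
      exact hg ha' hx hx.2.1
    · rintro _ ⟨x, hx, rfl⟩
      exact hg hx hb' hx.2.2
  obtain ⟨P, hP, hP'⟩ := ext _ m1
  obtain ⟨Q, hQ, hQ'⟩ := ext _ m2
  have hPQ : ∀ v ∈ A', f v = P v - Q v := fun v hv => by
    rw [← hP' hv, ← hQ' hv]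
    simp
  have e1 : (∫ v in a..b, f v * deriv χ v) = (∫ v in a..b, P v * deriv χ v) -
      ∫ v in a..b, Q v * deriv χ v := by
    rw [← intervalIntegral.integral_sub
      ((hP.intervalIntegrable).mul_continuousOn hcd.continuousOn)
      ((hQ.intervalIntegrable).mul_continuousOn hcd.continuousOn)]
    refine intervalIntegral.integral_congr fun v hv => ?_
    rw [uIcc_of_le hab] at hv
    by_cases hvA : v ∈ A
    · rw [hPQ v ⟨hvA, hv⟩]; ring
    · rw [h0 v hv hvA]; ring
  have hV : variationOnFromTo f A a b ≤ (eVariationOn f A).toReal := by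
    rw [variationOnFromTo.eq_of_le f A hab]
    exact ENNReal.toReal_mono hf (eVariationOn.mono f inter_subset_left)
  have hPa : P a = 0 := by rw [← hP' ha', variationOnFromTo.self]
  have hPb : P b = variationOnFromTo f A a b := (hP' hb').symm
  have hQa : Q a = - f a := by
    rw [← hQ' ha']; simp [variationOnFromTo.self]
  have hQb : Q b = variationOnFromTo f A a b - f b := by
    rw [← hQ' hb']; simp
  have hfab : |f a - f b| ≤ (eVariationOn f A).toReal := by
    have := hf.dist_le ha hb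
    rwa [Real.dist_eq] at this
  obtain ⟨p1, p2⟩ := mono_parts hab hP hχ h01
  obtain ⟨q1, q2⟩ := mono_parts hab hQ hχ h01
  have hfa : f a = P a - Q a := hPQ a ha'
  have hfb : f b = P b - Q b := hPQ b hb'
  have h3 : P b - P a ≤ (eVariationOn f A).toReal := by rw [hPa, hPb]; linarith
  have h4 : Q b - Q a ≤ 2 * (eVariationOn f A).toReal := by
    rw [hQa, hQb]
    have := (abs_le.1 hfab).2
    linarith
  have hV0 : 0 ≤ (eVariationOn f A).toReal := ENNReal.toReal_nonneg
  rw [e1, abs_le, hfa, hfb]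
  constructor
  · nlinarith
  · nlinarith

/-- the derivative of the test function lives in `A` -/
theorem bv_line {f χ : ℝ → ℝ} {A : Set ℝ} (hf : BoundedVariationOn f A) {a b c : ℝ}
    (hab : a ≤ b) (hχ : ContDiff ℝ 1 χ) (h01 : ∀ v ∈ Icc a b, 0 ≤ χ v ∧ χ v ≤ 1)
    (h0 : ∀ v ∈ Icc a b, v ∉ A → ∀ᶠ x in 𝓝 v, χ x = χ v)
    (hc : ∀ v ∈ A, |f v - c| ≤ (eVariationOn f A).toReal) :
    |(∫ v in a..b, f v * deriv χ v) - c * (χ b - χ a)| ≤ 4 * (eVariationOn f A).toReal := by
  have hV0 : 0 ≤ (eVariationOn f A).toReal := ENNReal.toReal_nonneg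
  have hcd : Continuous (deriv χ) := hχ.continuous_deriv le_rfl
  have hdiff : Differentiable ℝ χ := hχ.differentiable one_ne_zero
  -- the derivative vanishes near the points off `A`
  have h0' : ∀ v ∈ Icc a b, v ∉ A → ∀ᶠ x in 𝓝 v, deriv χ x = 0 := by
    intro v hv hvA
    have := (h0 v hv hvA).eventually_nhds
    filter_upwards [this] with x hx
    have hxe : χ =ᶠ[𝓝 x] fun _ => χ v := hx
    rw [hxe.deriv_eq, deriv_const]
  set S : Set ℝ := closure {v | deriv χ v ≠ 0} ∩ Icc a b with hS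
  have hSc : IsCompact S := isCompact_Icc.inter_left isClosed_closure
  have hSA : S ⊆ A := by
    rintro v ⟨hv, hvI⟩
    by_contra hvA
    obtain ⟨x, hx1, hx2⟩ := mem_closure_iff_nhds.1 hv _ (h0' v hvI hvA)
    exact hx2 hx1
  have hoff : ∀ v ∈ Icc a b, v ∉ S → deriv χ v = 0 := by
    intro v hv hvS
    by_contra hne
    exact hvS ⟨subset_closure hne, hv⟩
  rcases S.eq_empty_or_nonempty with hSe | hSn
  · have e1 : (∫ v in a..b, f v * deriv χ v) = 0 := by
      rw [← intervalIntegral.integral_zero (a := a) (b := b) (μ := volume)]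
      refine intervalIntegral.integral_congr fun v hv => ?_
      rw [uIcc_of_le hab] at hv
      rw [hoff v hv (by rw [hSe]; exact notMem_empty _), mul_zero]
    have e2 : χ b - χ a = 0 := by
      rw [← intervalIntegral.integral_deriv_eq_sub (fun x _ => hdiff x)
        (hcd.intervalIntegrable _ _), ← intervalIntegral.integral_zero (a := a) (b := b)
        (μ := volume)]
      refine intervalIntegral.integral_congr fun v hv => ?_
      rw [uIcc_of_le hab] at hv
      exact hoff v hv (by rw [hSe]; exact notMem_empty _)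
    rw [e1, e2, mul_zero, sub_zero, abs_zero]
    positivity
  · obtain ⟨u, huS, hu⟩ := hSc.exists_isLeast hSn
    obtain ⟨w, hwS, hw⟩ := hSc.exists_isGreatest hSn
    have huw : u ≤ w := hu hwS
    have zl : ∀ v ∈ Icc a b, v < u → deriv χ v = 0 := fun v hv hvu =>
      hoff v hv fun h => absurd (hu h) (not_le.2 hvu)
    have zr : ∀ v ∈ Icc a b, w < v → deriv χ v = 0 := fun v hv hvw =>
      hoff v hv fun h => absurd (hw h) (not_le.2 hvw)
    have hau : a ≤ u := huS.2.1
    have hwb : w ≤ b := hwS.2.2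
    -- zero pieces
    have c1 : ∀ g : ℝ → ℝ, (∫ v in a..u, g v * deriv χ v) = 0 := by
      intro g
      refine intervalIntegral.integral_zero_ae ?_
      filter_upwards [(measure_eq_zero_iff_ae_notMem.1 (measure_singleton u) :
        ∀ᵐ x ∂(volume : Measure ℝ), x ∉ ({u} : Set ℝ))] with x hx hxI
      rw [uIoc_of_le hau] at hxI
      rw [zl x ⟨hxI.1.le, hxI.2.trans huS.2.2⟩ (lt_of_le_of_ne hxI.2 fun h => hx h), mul_zero]
    have c2 : ∀ g : ℝ → ℝ, (∫ v in w..b, g v * deriv χ v) = 0 := by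
      intro g
      refine intervalIntegral.integral_zero_ae ?_
      filter_upwards with x hxI
      rw [uIoc_of_le hwb] at hxI
      rw [zr x ⟨hwS.2.1.trans hxI.1.le, hxI.2⟩ hxI.1, mul_zero]
    have d1 : χ u = χ a := by
      have h := c1 fun _ => 1
      simp only [one_mul] at h
      rw [intervalIntegral.integral_deriv_eq_sub (fun x _ => hdiff x)
        (hcd.intervalIntegrable _ _)] at h
      linarith
    have d2 : χ b = χ w := by
      have h := c2 fun _ => 1
      simp only [one_mul] at h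
      rw [intervalIntegral.integral_deriv_eq_sub (fun x _ => hdiff x)
        (hcd.intervalIntegrable _ _)] at h
      linarith
    have hbig := bv_parts hf (hSA huS) (hSA hwS) huw hχ
      (fun v hv => h01 v ⟨hau.trans hv.1, hv.2.trans hwb⟩) (fun v hv hvA => by
        have := (h0' v ⟨hau.trans hv.1, hv.2.trans hwb⟩ hvA).self_of_nhds
        exact this)
    have e0 : (∫ v in a..b, f v * deriv χ v) = ∫ v in u..w, f v * deriv χ v := by
      rw [intervalIntegral.integral_of_le hab, intervalIntegral.integral_of_le huw]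
      refine setIntegral_eq_of_subset_of_ae_sdiff_eq_zero measurableSet_Ioc.nullMeasurableSet
        (Ioc_subset_Ioc hau hwb) ?_
      filter_upwards [(measure_eq_zero_iff_ae_notMem.1 (measure_singleton u) :
        ∀ᵐ x ∂(volume : Measure ℝ), x ∉ ({u} : Set ℝ))] with x hx hxI
      have hxab : x ∈ Icc a b := ⟨hxI.1.1.le, hxI.1.2⟩
      rcases lt_or_ge u x with h | h
      · have hwx : w < x := by
          by_contra hcon
          exact hxI.2 ⟨h, not_lt.1 hcon⟩
        rw [zr x hxab hwx, mul_zero]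
      · rw [zl x hxab (lt_of_le_of_ne h fun h' => hx h'), mul_zero]
    have h5 : |f w - c| ≤ (eVariationOn f A).toReal := hc w (hSA hwS)
    have h6 : |f u - c| ≤ (eVariationOn f A).toReal := hc u (hSA huS)
    have h7 := h01 w ⟨hau.trans huw, hwb⟩
    have h8 := h01 u ⟨hau, huw.trans hwb⟩
    rw [e0, d2, ← d1]
    have e9 : (∫ v in u..w, f v * deriv χ v) - c * (χ w - χ u) =
        ((∫ v in u..w, f v * deriv χ v) - (f w * χ w - f u * χ u)) +
          ((f w - c) * χ w - (f u - c) * χ u) := by ring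
    rw [e9]
    have h9 : |(f w - c) * χ w| ≤ (eVariationOn f A).toReal := by
      rw [abs_mul, abs_of_nonneg h7.1]
      exact (mul_le_of_le_one_right (abs_nonneg _) h7.2).trans h5
    have h10 : |(f u - c) * χ u| ≤ (eVariationOn f A).toReal := by
      rw [abs_mul, abs_of_nonneg h8.1]
      exact (mul_le_of_le_one_right (abs_nonneg _) h8.2).trans h6
    have h11 := abs_sub ((f w - c) * χ w) ((f u - c) * χ u)
    have h12 := abs_add_le ((∫ v in u..w, f v * deriv χ v) - (f w * χ w - f u * χ u))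
      ((f w - c) * χ w - (f u - c) * χ u)
    linarith

/-- the variation near a point tends to zero -/
theorem tail_var {f : ℝ → ℝ} {A : Set ℝ} (hf : BoundedVariationOn f A) (a : ℝ) {ε : ℝ≥0∞}
    (hε : ε ≠ 0) : ∃ δ > 0, eVariationOn f (A ∩ Ioo a (a + δ)) ≤ ε := by
  set B := A ∩ Ioi a with hB
  have hBA : eVariationOn f B ≤ eVariationOn f A := eVariationOn.mono f inter_subset_left
  have hBf : eVariationOn f B ≠ ∞ := ne_top_of_le_ne_top hf hBA
  rcases le_or_gt (eVariationOn f B) ε with h1 | h1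
  · have hsub : A ∩ Ioo a (a + 1) ⊆ B := fun x hx => ⟨hx.1, hx.2.1⟩
    exact ⟨1, one_pos, (eVariationOn.mono f hsub).trans h1⟩
  have h2 : eVariationOn f B - ε < eVariationOn f B :=
    ENNReal.sub_lt_self hBf (ne_bot_of_gt h1) hε
  obtain ⟨⟨n, u, hu, huB⟩, h3⟩ := lt_iSup_iff.1 h2
  have hu0 := huB 0
  refine ⟨u 0 - a, sub_pos.2 hu0.2, ?_⟩
  have e1 : A ∩ Ioo a (a + (u 0 - a)) = B ∩ Iio (u 0) := by
    ext x; simp only [hB, mem_inter_iff, mem_Ioo, mem_Ioi, mem_Iio, add_sub_cancel]; tauto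
  rw [e1]
  have h4 : eVariationOn f (B ∩ Iio (u 0)) + eVariationOn f (B ∩ Ici (u 0)) ≤
      eVariationOn f B :=
    (eVariationOn.add_le_union f fun x hx y hy => (le_of_lt hx.2).trans hy.2).trans
      (eVariationOn.mono f (union_subset inter_subset_left inter_subset_left))
  have h5 : ∑ i ∈ Finset.range n, edist (f (u (i + 1))) (f (u i)) ≤
      eVariationOn f (B ∩ Ici (u 0)) :=
    eVariationOn.sum_le hu fun i => ⟨huB i, hu (Nat.zero_le i)⟩
  have h6 : eVariationOn f B < eVariationOn f (B ∩ Ici (u 0)) + ε :=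
    (ENNReal.sub_lt_iff_lt_right (ne_top_of_lt h1) h1.le).1 (h3.trans_le h5)
  have hfin : eVariationOn f (B ∩ Ici (u 0)) ≠ ∞ :=
    ne_top_of_le_ne_top hBf (eVariationOn.mono f inter_subset_left)
  have h7 : eVariationOn f (B ∩ Ici (u 0)) + eVariationOn f (B ∩ Iio (u 0)) ≤
      eVariationOn f (B ∩ Ici (u 0)) + ε := by
    rw [add_comm]; exact h4.trans h6.le
  exact (ENNReal.add_le_add_iff_left hfin).1 h7

theorem tail_var' {f : ℝ → ℝ} {A : Set ℝ} (hf : BoundedVariationOn f A) (a : ℝ) {ε : ℝ≥0∞}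
    (hε : ε ≠ 0) : ∃ δ > 0, eVariationOn f (A ∩ Ioo (a - δ) a) ≤ ε := by
  set B := A ∩ Iio a with hB
  have hBA : eVariationOn f B ≤ eVariationOn f A := eVariationOn.mono f inter_subset_left
  have hBf : eVariationOn f B ≠ ∞ := ne_top_of_le_ne_top hf hBA
  rcases le_or_gt (eVariationOn f B) ε with h1 | h1
  · have hsub : A ∩ Ioo (a - 1) a ⊆ B := fun x hx => ⟨hx.1, hx.2.2⟩
    exact ⟨1, one_pos, (eVariationOn.mono f hsub).trans h1⟩
  have h2 : eVariationOn f B - ε < eVariationOn f B :=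
    ENNReal.sub_lt_self hBf (ne_bot_of_gt h1) hε
  obtain ⟨⟨n, u, hu, huB⟩, h3⟩ := lt_iSup_iff.1 h2
  have hu0 := huB n
  refine ⟨a - u n, sub_pos.2 hu0.2, ?_⟩
  have e1 : A ∩ Ioo (a - (a - u n)) a = B ∩ Ioi (u n) := by
    ext x; simp only [hB, mem_inter_iff, mem_Ioo, mem_Ioi, mem_Iio, sub_sub_cancel]; tauto
  rw [e1]
  have h4 : eVariationOn f (B ∩ Iic (u n)) + eVariationOn f (B ∩ Ioi (u n)) ≤
      eVariationOn f B :=
    (eVariationOn.add_le_union f fun x hx y hy => le_trans hx.2 (le_of_lt hy.2)).trans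
      (eVariationOn.mono f (union_subset inter_subset_left inter_subset_left))
  have h5 : ∑ i ∈ Finset.range n, edist (f (u (i + 1))) (f (u i)) ≤
      eVariationOn f (B ∩ Iic (u n)) :=
    eVariationOn.sum_le_of_monotoneOn_Iic (hu.monotoneOn _) fun i hi => ⟨huB i, hu hi⟩
  have h6 : eVariationOn f B < eVariationOn f (B ∩ Iic (u n)) + ε :=
    (ENNReal.sub_lt_iff_lt_right (ne_top_of_lt h1) h1.le).1 (h3.trans_le h5)
  have hfin : eVariationOn f (B ∩ Iic (u n)) ≠ ∞ :=
    ne_top_of_le_ne_top hBf (eVariationOn.mono f inter_subset_left)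
  exact (ENNReal.add_le_add_iff_left hfin).1 (h4.trans h6.le)

theorem tail_real {f : ℝ → ℝ} {A : Set ℝ} (hf : BoundedVariationOn f A) (a : ℝ) {ε : ℝ}
    (hε : 0 < ε) : ∃ δ > 0, (eVariationOn f (A ∩ Ioo a (a + δ))).toReal ≤ ε := by
  obtain ⟨δ, hδ, h⟩ := tail_var hf a (ε := ENNReal.ofReal ε) (by simpa using hε)
  exact ⟨δ, hδ, ENNReal.toReal_le_of_le_ofReal hε.le h⟩

theorem tail_real' {f : ℝ → ℝ} {A : Set ℝ} (hf : BoundedVariationOn f A) (a : ℝ) {ε : ℝ}
    (hε : 0 < ε) : ∃ δ > 0, (eVariationOn f (A ∩ Ioo (a - δ) a)).toReal ≤ ε := by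
  obtain ⟨δ, hδ, h⟩ := tail_var' hf a (ε := ENNReal.ofReal ε) (by simpa using hε)
  exact ⟨δ, hδ, ENNReal.toReal_le_of_le_ofReal hε.le h⟩

theorem abs_sub_le_var {f : ℝ → ℝ} {A : Set ℝ} (hf : BoundedVariationOn f A) {x y : ℝ}
    (hx : x ∈ A) (hy : y ∈ A) : |f x - f y| ≤ (eVariationOn f A).toReal := by
  have := hf.dist_le hx hy
  rwa [Real.dist_eq] at this

theorem exists_lim {f : ℝ → ℝ} {A : Set ℝ} (hf : BoundedVariationOn f A) {a : ℝ}
    (ha : (𝓝[A ∩ Ioi a] a).NeBot) : ∃ c, Tendsto f (𝓝[A ∩ Ioi a] a) (𝓝 c) := by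
  refine cauchy_map_iff_exists_tendsto.1 (Metric.cauchy_iff.2 ⟨ha.map f, fun ε hε => ?_⟩)
  obtain ⟨δ, hδ, h⟩ := tail_real hf a (half_pos hε)
  have hB : BoundedVariationOn f (A ∩ Ioo a (a + δ)) := hf.mono inter_subset_left
  refine ⟨f '' (A ∩ Ioo a (a + δ)), image_mem_map ?_, ?_⟩
  · rw [mem_nhdsWithin]
    exact ⟨Iio (a + δ), isOpen_Iio, by simpa using hδ, fun x hx => ⟨hx.2.1, hx.2.2, hx.1⟩⟩
  · rintro _ ⟨x, hx, rfl⟩ _ ⟨y, hy, rfl⟩
    rw [Real.dist_eq]
    linarith [abs_sub_le_var hB hx hy]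

theorem exists_lim' {f : ℝ → ℝ} {A : Set ℝ} (hf : BoundedVariationOn f A) {a : ℝ}
    (ha : (𝓝[A ∩ Iio a] a).NeBot) : ∃ c, Tendsto f (𝓝[A ∩ Iio a] a) (𝓝 c) := by
  refine cauchy_map_iff_exists_tendsto.1 (Metric.cauchy_iff.2 ⟨ha.map f, fun ε hε => ?_⟩)
  obtain ⟨δ, hδ, h⟩ := tail_real' hf a (half_pos hε)
  have hB : BoundedVariationOn f (A ∩ Ioo (a - δ) a) := hf.mono inter_subset_left
  refine ⟨f '' (A ∩ Ioo (a - δ) a), image_mem_map ?_, ?_⟩
  · rw [mem_nhdsWithin]
    exact ⟨Ioi (a - δ), isOpen_Ioi, by simpa using hδ, fun x hx => ⟨hx.2.1, hx.1, hx.2.2⟩⟩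
  · rintro _ ⟨x, hx, rfl⟩ _ ⟨y, hy, rfl⟩
    rw [Real.dist_eq]
    linarith [abs_sub_le_var hB hx hy]

/-- the limit is close to all values -/
theorem lim_close {f : ℝ → ℝ} {A : Set ℝ} (hf : BoundedVariationOn f A) {l : Filter ℝ} [l.NeBot]
    (hl : A ∈ l) {c : ℝ} (hc : Tendsto f l (𝓝 c)) {x : ℝ} (hx : x ∈ A) :
    |f x - c| ≤ (eVariationOn f A).toReal := by
  refine le_of_tendsto ((tendsto_const_nhds.sub hc).abs) ?_
  filter_upwards [hl] with y hy
  exact abs_sub_le_var hf hx hy

end Crest.Agent.R105.Lnl_411
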