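import Mathlib

/-! (2b) LINE LEMMA of 499 #11166, the one-dimensional core (helper776). -/

open MeasureTheory Set Filter Topology
open scoped ENNReal

namespace Crest.Agent.R105.Lnl_776

/-- the integral of `χ'` over an upper piece of `(q, b]` -/
theorem int_upper {χ : ℝ → ℝ} (hχ : ContDiff ℝ 1 χ) {q b C : ℝ} (hqb : q ≤ b)
    (hC : ∀ v ∈ Icc q b, |χ v| ≤ C) {S : Set ℝ} (hS : S ⊆ Ioc q b)
    (hup : ∀ v ∈ S, ∀ w ∈ Ioc q b, v ≤ w → w ∈ S) :
    |∫ v in S, deriv χ v| ≤ 2 * C := by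
  have hC0 : 0 ≤ C := (abs_nonneg _).trans (hC q ⟨le_rfl, hqb⟩)
  rcases S.eq_empty_or_nonempty with h0 | hne
  · subst h0; simp; linarith
  have hbd : BddBelow S := ⟨q, fun v hv => (hS hv).1.le⟩
  set c := sInf S with hc
  have hcq : q ≤ c := le_csInf hne fun v hv => (hS hv).1.le
  have hcb : c ≤ b := by
    obtain ⟨v, hv⟩ := hne
    exact (csInf_le hbd hv).trans (hS hv).2
  have h1 : Ioc c b ⊆ S := by
    intro w hw
    obtain ⟨v, hv, hvw⟩ := exists_lt_of_csInf_lt hne hw.1
    exact hup v hv w ⟨hcq.trans_lt hw.1, hw.2⟩ hvw.le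
  have h2 : S ⊆ Icc c b := fun v hv => ⟨csInf_le hbd hv, (hS hv).2⟩
  have h3 : S =ᵐ[volume] Ioc c b := by
    refine (LE.le.eventuallyLE h2).antisymm ?_ |>.trans ?_ |>.symm.symm
    all_goals first
      | exact (Ioc_ae_eq_Icc (μ := (volume : Measure ℝ)) (a := c) (b := b)).symm
      | exact (Ioc_ae_eq_Icc (μ := (volume : Measure ℝ)) (a := c) (b := b)).symm.le.trans
          (LE.le.eventuallyLE h1)
  rw [setIntegral_congr_set h3, ← intervalIntegral.integral_of_le hcb,
    intervalIntegral.integral_deriv_eq_sub (fun x _ => (hχ.differentiable (by norm_num)) x)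
      ((hχ.continuous_deriv le_rfl).intervalIntegrable _ _)]
  have e1 := hC c ⟨hcq, hcb⟩
  have e2 := hC b ⟨hcq.trans hcb, le_rfl⟩
  calc |χ b - χ c| ≤ |χ b| + |χ c| := abs_sub _ _
    _ ≤ 2 * C := by linarith

/-- second mean value theorem (weak constant) for a monotone weight -/
theorem mono_bound {χ : ℝ → ℝ} (hχ : ContDiff ℝ 1 χ) {q b C : ℝ} (hqb : q ≤ b)
    (hC : ∀ v ∈ Icc q b, |χ v| ≤ C) {H : ℝ → ℝ} (hH : Monotone H) {A : ℝ} (hA : 0 ≤ A)
    (h0 : ∀ v, 0 ≤ H v) (h1 : ∀ v, H v ≤ A) :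
    |∫ v in Ioc q b, H v * deriv χ v| ≤ 2 * C * A := by
  have hcd : Continuous (deriv χ) := hχ.continuous_deriv le_rfl
  obtain ⟨D, hD⟩ := isCompact_Icc.exists_bound_of_continuousOn (s := Icc q b) hcd.continuousOn
  set μ : Measure ℝ := volume.restrict (Ioc q b) with hμ
  set ν : Measure ℝ := volume.restrict (Ioc 0 A) with hν
  set k : ℝ × ℝ → ℝ := fun p => ({p : ℝ × ℝ | p.2 < H p.1}).indicator (fun p => deriv χ p.1) p
    with hk
  have hms : MeasurableSet {p : ℝ × ℝ | p.2 < H p.1} :=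
    measurableSet_lt measurable_snd (hH.measurable.comp measurable_fst)
  have hkm : Measurable k := (hcd.measurable.comp measurable_fst).indicator hms
  have hki : Integrable k (μ.prod ν) := by
    have hb : ∀ᵐ p ∂(μ.prod ν), ‖k p‖ ≤ D := by
      have hfst : ∀ᵐ p ∂(μ.prod ν), p.1 ∈ Ioc q b := by
        have : ∀ᵐ v ∂μ, v ∈ Ioc q b := ae_restrict_mem measurableSet_Ioc
        exact (Measure.quasiMeasurePreserving_fst (μ := μ) (ν := ν)).ae this
      filter_upwards [hfst] with p hp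
      have := hD p.1 ⟨hp.1.le, hp.2⟩
      by_cases hq : p ∈ {p : ℝ × ℝ | p.2 < H p.1}
      · simp only [hk, indicator_of_mem hq]; exact this
      · simp only [hk, indicator_of_notMem hq, norm_zero]; exact (norm_nonneg _).trans this
    exact Integrable.of_bound hkm.aestronglyMeasurable D hb
  have e1 : ∫ v in Ioc q b, H v * deriv χ v = ∫ v, ∫ l, k (v, l) ∂ν ∂μ := by
    refine integral_congr_ae (Eventually.of_forall fun v => ?_)
    have : (fun l => k (v, l)) = (Iio (H v)).indicator (fun _ => deriv χ v) := by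
      funext l
      by_cases hl : l < H v
      · simp [hk, hl]
      · simp [hk, hl]
    simp only [this]
    rw [integral_indicator measurableSet_Iio, integral_const]
    have h2 : (ν.restrict (Iio (H v))).real univ = H v := by
      rw [measureReal_def, Measure.restrict_apply_univ, hν,
        Measure.restrict_apply measurableSet_Iio]
      have h3 : Iio (H v) ∩ Ioc 0 A = Ioo 0 (H v) := by
        ext l
        simp only [mem_inter_iff, mem_Iio, mem_Ioc, mem_Ioo]
        constructor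
        · rintro ⟨a1, a2, a3⟩; exact ⟨a2, a1⟩
        · rintro ⟨a1, a2⟩; exact ⟨a2, a1, a2.le.trans (h1 v)⟩
      rw [h3, Real.volume_Ioo, sub_zero, ENNReal.toReal_ofReal (h0 v)]
    rw [h2, smul_eq_mul]
  have e2 : ∫ v, ∫ l, k (v, l) ∂ν ∂μ = ∫ l, ∫ v, k (v, l) ∂μ ∂ν :=
    integral_integral_swap hki
  have e3 : ∀ l, |∫ v, k (v, l) ∂μ| ≤ 2 * C := by
    intro l
    have : (fun v => k (v, l)) = ({v | l < H v}).indicator (deriv χ) := by
      funext v
      by_cases hl : l < H v
      · simp [hk, hl]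
      · simp [hk, hl]
    rw [this]
    have hm : MeasurableSet {v | l < H v} := measurableSet_lt measurable_const hH.measurable
    rw [integral_indicator hm, hμ, Measure.restrict_restrict hm]
    refine int_upper hχ hqb hC inter_subset_right ?_
    rintro v ⟨hv, _⟩ w hw hvw
    exact ⟨lt_of_lt_of_le hv (hH hvw), hw⟩
  rw [e1, e2]
  calc |∫ l, ∫ v, k (v, l) ∂μ ∂ν| ≤ ∫ l, |∫ v, k (v, l) ∂μ| ∂ν := abs_integral_le_integral_abs
    _ ≤ ∫ _, 2 * C ∂ν := by
        refine integral_mono_of_nonneg (Eventually.of_forall fun _ => abs_nonneg _)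
          (integrable_const _) (Eventually.of_forall fun l => e3 l)
    _ = 2 * C * A := by
        rw [integral_const, measureReal_def, hν, Measure.restrict_apply_univ, Real.volume_Ioc,
          sub_zero, ENNReal.toReal_ofReal hA, smul_eq_mul, mul_comm]

/-- same, bounds on `(q, b]` only, `|H| ≤ A` -/
theorem mono_bound' {χ : ℝ → ℝ} (hχ : ContDiff ℝ 1 χ) {q b C : ℝ} (hqb : q ≤ b)
    (hC : ∀ v ∈ Icc q b, |χ v| ≤ C) {H : ℝ → ℝ} (hH : Monotone H) {A : ℝ}
    (h1 : ∀ v, |H v| ≤ A) :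
    |∫ v in Ioc q b, H v * deriv χ v| ≤ 6 * C * A := by
  have hcd : Continuous (deriv χ) := hχ.continuous_deriv le_rfl
  have hA : 0 ≤ A := (abs_nonneg _).trans (h1 0)
  have h2 := mono_bound hχ hqb hC (H := fun v => H v + A) (fun v w h => by
    have := hH h; simp only; linarith) (A := 2 * A) (by linarith)
    (fun v => by have := (abs_le.1 (h1 v)).1; linarith)
    (fun v => by have := (abs_le.1 (h1 v)).2; linarith)
  have hi1 : IntegrableOn (fun v => deriv χ v) (Ioc q b) :=
    (hcd.integrableOn_Icc).mono_set Ioc_subset_Icc_self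
  have hi2 : IntegrableOn (fun v => H v * deriv χ v) (Ioc q b) := by
    refine Integrable.bdd_mul (c := A) hi1 hH.measurable.aestronglyMeasurable
      (Eventually.of_forall fun v => h1 v)
  have e : ∫ v in Ioc q b, (H v + A) * deriv χ v
      = (∫ v in Ioc q b, H v * deriv χ v) + A * ∫ v in Ioc q b, deriv χ v := by
    rw [← integral_const_mul, ← integral_add hi2 (hi1.const_mul A)]
    refine integral_congr_ae (Eventually.of_forall fun v => ?_)
    simp only; ring
  rw [e] at h2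
  have h3 : |∫ v in Ioc q b, deriv χ v| ≤ 2 * C :=
    int_upper hχ hqb hC subset_rfl fun v _ w hw _ => hw
  have h4 : |A * ∫ v in Ioc q b, deriv χ v| ≤ A * (2 * C) := by
    rw [abs_mul, abs_of_nonneg hA]; exact mul_le_mul_of_nonneg_left h3 hA
  have h5 := abs_le.1 h2
  have h6 := abs_le.1 h4
  rw [abs_le]
  constructor <;> nlinarith [h5.1, h5.2, h6.1, h6.2]

/-- **one-dimensional core**: `f` of bounded variation on `s ∩ (q, b]`, `χ' = 0` off `s` -/
theorem line_core {s : Set ℝ} (hs : MeasurableSet s) {f χ : ℝ → ℝ} {q b C L : ℝ} (hqb : q ≤ b)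
    (hχ : ContDiff ℝ 1 χ) (hC : ∀ v ∈ Icc q b, |χ v| ≤ C)
    (h0 : ∀ v ∈ Ioc q b, v ∉ s → deriv χ v = 0)
    (hf : BoundedVariationOn f (s ∩ Ioc q b))
    (hL : ∀ v ∈ s ∩ Ioc q b, |f v - L| ≤ (eVariationOn f (s ∩ Ioc q b)).toReal) :
    |(∫ v in s ∩ Ioc q b, f v * deriv χ v) + L * (χ q - χ b)|
      ≤ 14 * C * (eVariationOn f (s ∩ Ioc q b)).toReal := by
  have hcd : Continuous (deriv χ) := hχ.continuous_deriv le_rfl
  set T := s ∩ Ioc q b with hT
  set V := (eVariationOn f T).toReal with hV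
  have hV0 : 0 ≤ V := ENNReal.toReal_nonneg
  set H1 : ℝ → ℝ := fun v => (eVariationOn f (T ∩ Iic v)).toReal with hH1
  have hfin : ∀ v, eVariationOn f (T ∩ Iic v) ≠ ∞ := fun v =>
    ne_top_of_le_ne_top hf (eVariationOn.mono _ inter_subset_left)
  have m1 : Monotone H1 := fun v w hvw =>
    ENNReal.toReal_mono (hfin w) (eVariationOn.mono _ (inter_subset_inter_right _ (Iic_subset_Iic.2 hvw)))
  have b1 : ∀ v, |H1 v| ≤ V := fun v => by
    rw [abs_of_nonneg ENNReal.toReal_nonneg]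
    exact ENNReal.toReal_mono hf (eVariationOn.mono _ inter_subset_left)
  set H2 : ℝ → ℝ := fun v => H1 v - (f v - L) with hH2
  have m2 : MonotoneOn H2 T := by
    intro v hv w hw hvw
    have k1 : eVariationOn f (T ∩ Iic v) + eVariationOn f (T ∩ Icc v w)
        ≤ eVariationOn f (T ∩ Iic w) := by
      refine (eVariationOn.add_le_union f (s := T ∩ Iic v) (t := T ∩ Icc v w) ?_).trans
        (eVariationOn.mono _ ?_)
      · rintro x ⟨_, hx⟩ y ⟨_, hy⟩
        exact (mem_Iic.1 hx).trans hy.1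
      · rintro x (⟨hx, hx'⟩ | ⟨hx, hx'⟩)
        · exact ⟨hx, (mem_Iic.1 hx').trans hvw⟩
        · exact ⟨hx, hx'.2⟩
    have k2 : ENNReal.ofReal (f w - f v) ≤ eVariationOn f (T ∩ Icc v w) := by
      have := eVariationOn.edist_le f (s := T ∩ Icc v w) (x := w) (y := v) ⟨hw, hvw, le_rfl⟩
        ⟨hv, le_rfl, hvw⟩
      refine le_trans ?_ this
      rw [edist_dist, Real.dist_eq]
      exact ENNReal.ofReal_le_ofReal (le_abs_self _)
    have k3 : ENNReal.ofReal (H1 v) + ENNReal.ofReal (f w - f v) ≤ ENNReal.ofReal (H1 w) := by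
      rw [hH1]
      simp only
      rw [ENNReal.ofReal_toReal (hfin v), ENNReal.ofReal_toReal (hfin w)]
      exact (add_le_add_right k2 _).trans k1
    have k4 : f w - f v ≤ H1 w - H1 v := by
      rcases le_or_gt (f w - f v) 0 with h | h
      · have := m1 hvw; linarith
      · rw [← ENNReal.ofReal_add ENNReal.toReal_nonneg h.le,
          ENNReal.ofReal_le_ofReal_iff ENNReal.toReal_nonneg] at k3
        linarith
    simp only [hH2]; linarith
  have b2 : ∀ v ∈ T, |H2 v| ≤ 2 * V := fun v hv => by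
    have e1 := b1 v
    have e2 := hL v hv
    calc |H1 v - (f v - L)| ≤ |H1 v| + |f v - L| := abs_sub _ _
      _ ≤ 2 * V := by linarith
  obtain ⟨G, mG, hG⟩ := m2.exists_monotone_extension
    ⟨-(2 * V), by rintro _ ⟨v, hv, rfl⟩; exact (abs_le.1 (b2 v hv)).1⟩
    ⟨2 * V, by rintro _ ⟨v, hv, rfl⟩; exact (abs_le.1 (b2 v hv)).2⟩
  set G' : ℝ → ℝ := fun v => max (-(2 * V)) (min (2 * V) (G v)) with hG'
  have mG' : Monotone G' := fun v w hvw =>
    max_le_max le_rfl (min_le_min le_rfl (mG hvw))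
  have bG' : ∀ v, |G' v| ≤ 2 * V := fun v => by
    rw [abs_le]
    exact ⟨le_max_left _ _, max_le (by linarith) (min_le_left _ _)⟩
  have eG' : ∀ v ∈ T, G' v = H2 v := fun v hv => by
    have := abs_le.1 (b2 v hv)
    simp only [hG', ← hG hv] at *
    rw [hG hv] at *
    rw [min_eq_right this.2, max_eq_right this.1]
  have ef : ∀ v ∈ T, f v = H1 v - G' v + L := fun v hv => by
    rw [eG' v hv]; simp only [hH2]; ring
  have hTm : MeasurableSet T := hs.inter measurableSet_Ioc
  have i0 : IntegrableOn (fun v => deriv χ v) (Ioc q b) :=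
    (hcd.integrableOn_Icc).mono_set Ioc_subset_Icc_self
  have iH1 : IntegrableOn (fun v => H1 v * deriv χ v) (Ioc q b) :=
    Integrable.bdd_mul (c := V) i0 m1.measurable.aestronglyMeasurable
      (Eventually.of_forall fun v => b1 v)
  have iG : IntegrableOn (fun v => G' v * deriv χ v) (Ioc q b) :=
    Integrable.bdd_mul (c := 2 * V) i0 mG'.measurable.aestronglyMeasurable
      (Eventually.of_forall fun v => bG' v)
  have e1 : ∫ v in T, f v * deriv χ v
      = ∫ v in Ioc q b, (H1 v * deriv χ v - G' v * deriv χ v + L * deriv χ v) := by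
    rw [setIntegral_congr_fun hTm (g := fun v =>
      (H1 v * deriv χ v - G' v * deriv χ v + L * deriv χ v))
      (fun v hv => by simp only; rw [ef v hv]; ring)]
    refine (setIntegral_eq_of_subset_of_forall_sdiff_eq_zero measurableSet_Ioc
      inter_subset_right ?_).symm
    rintro v ⟨hv, hvT⟩
    have : deriv χ v = 0 := h0 v hv fun h => hvT ⟨h, hv⟩
    rw [this]; ring
  have e2 : ∫ v in Ioc q b, deriv χ v = χ b - χ q := by
    rw [← intervalIntegral.integral_of_le hqb]
    exact intervalIntegral.integral_deriv_eq_sub (fun x _ => (hχ.differentiable (by norm_num)) x)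
      (hcd.intervalIntegrable _ _)
  have e3 : ∫ v in T, f v * deriv χ v = (∫ v in Ioc q b, H1 v * deriv χ v)
      - (∫ v in Ioc q b, G' v * deriv χ v) + L * (χ b - χ q) := by
    have k1 : ∫ v in Ioc q b, (H1 v * deriv χ v - G' v * deriv χ v + L * deriv χ v)
        = (∫ v in Ioc q b, (H1 v * deriv χ v - G' v * deriv χ v))
          + ∫ v in Ioc q b, L * deriv χ v := integral_add (iH1.sub iG) (i0.const_mul L)
    rw [e1, k1, integral_sub iH1 iG, integral_const_mul, e2]
  have c1 := mono_bound hχ hqb hC m1 hV0 (fun v => ENNReal.toReal_nonneg)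
    (fun v => (le_abs_self _).trans (b1 v))
  have c2 := mono_bound' hχ hqb hC mG' bG'
  rw [e3]
  have : (∫ v in Ioc q b, H1 v * deriv χ v) - (∫ v in Ioc q b, G' v * deriv χ v)
      + L * (χ b - χ q) + L * (χ q - χ b)
      = (∫ v in Ioc q b, H1 v * deriv χ v) - (∫ v in Ioc q b, G' v * deriv χ v) := by ring
  rw [this]
  refine (abs_sub _ _).trans ?_
  linarith

/-- the value `L = lim_{v ↓ q}` satisfies the bound in `line_core` -/
theorem lim_bound {s : Set ℝ} {f : ℝ → ℝ} {q b L : ℝ} (hqb : q < b)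
    (hf : BoundedVariationOn f (s ∩ Ioc q b)) (hne : (𝓝[s ∩ Ioi q] q).NeBot)
    (hL : Tendsto f (𝓝[s ∩ Ioi q] q) (𝓝 L)) :
    ∀ v ∈ s ∩ Ioc q b, |f v - L| ≤ (eVariationOn f (s ∩ Ioc q b)).toReal := by
  intro v hv
  have h1 : Tendsto (fun w => |f v - f w|) (𝓝[s ∩ Ioi q] q) (𝓝 |f v - L|) :=
    (tendsto_const_nhds.sub hL).abs
  refine le_of_tendsto h1 ?_
  have h2 : ∀ᶠ w in 𝓝[s ∩ Ioi q] q, w ∈ s ∩ Ioi q := self_mem_nhdsWithin
  have h3 : ∀ᶠ w in 𝓝[s ∩ Ioi q] q, w < b := nhdsWithin_le_nhds (Iio_mem_nhds hqb)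
  filter_upwards [h2, h3] with w hw hw'
  have := hf.dist_le hv ⟨hw.1, hw.2, hw'.le⟩
  rwa [Real.dist_eq] at this

end Crest.Agent.R105.Lnl_776

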