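import Crest.Agent.R105.Sqr4_185
import Crest.Agent.R105.Tc1_808

/-!
# R105 SQR (5): oscillations of `re + τ f` at the components (helper185)

`lo K`, `hi K` : min / max of `re` on the component `K`; `osc E re K = hi K - lo K`; for
`f = 1_{above K} θ(x) κ(y)` the oscillation of `re + τ f` at `L` is exactly `s_L + τ Δ_L`.
-/

set_option autoImplicit false

open Set Filter Topology MeasureTheory Metric
open scoped ContDiff NNReal

namespace Crest.Agent.R105.Sqr_185

open Tc_808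

/-- left end of the projection -/
noncomputable def lo (K : Set ℂ) : ℝ := sInf (Complex.re '' K)
/-- right end of the projection -/
noncomputable def hi (K : Set ℂ) : ℝ := sSup (Complex.re '' K)

section lohi
variable {K : Set ℂ}

lemma exists_lo (hK : IsCompact K) (hne : K.Nonempty) : ∃ p ∈ K, p.re = lo K := by
  have h := (hK.image Complex.continuous_re).sInf_mem (hne.image _)
  obtain ⟨p, hp, h1⟩ := h
  exact ⟨p, hp, h1⟩

lemma exists_hi (hK : IsCompact K) (hne : K.Nonempty) : ∃ p ∈ K, p.re = hi K := by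
  have h := (hK.image Complex.continuous_re).sSup_mem (hne.image _)
  obtain ⟨p, hp, h1⟩ := h
  exact ⟨p, hp, h1⟩

lemma lo_le (hK : IsCompact K) {p : ℂ} (hp : p ∈ K) : lo K ≤ p.re :=
  csInf_le (hK.image Complex.continuous_re).bddBelow (mem_image_of_mem _ hp)

lemma le_hi (hK : IsCompact K) {p : ℂ} (hp : p ∈ K) : p.re ≤ hi K :=
  le_csSup (hK.image Complex.continuous_re).bddAbove (mem_image_of_mem _ hp)

lemma lo_le_hi (hK : IsCompact K) (hne : K.Nonempty) : lo K ≤ hi K := by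
  obtain ⟨p, hp⟩ := hne
  exact (lo_le hK hp).trans (le_hi hK hp)

lemma sec_nonempty (hK : IsCompact K) (hKc : IsPreconnected K) (hne : K.Nonempty) {t : ℝ}
    (ht : t ∈ Icc (lo K) (hi K)) : (sec K t).Nonempty := by
  obtain ⟨p, hp, h1⟩ := exists_lo hK hne
  obtain ⟨q, hq, h2⟩ := exists_hi hK hne
  have h3 := (hKc.image _ Complex.continuous_re.continuousOn).ordConnected
  have h4 : t ∈ Complex.re '' K := h3.out ⟨p, hp, h1⟩ ⟨q, hq, h2⟩ ht
  obtain ⟨r, hr, rfl⟩ := h4
  exact ⟨r.im, hr⟩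

end lohi

variable {E : Set ℂ}

/-- an extreme point of a component is a limit of points off `E` -/
lemma hi_mem_closure (K : Cmp E) {p : ℂ} (hp : p ∈ K.1) (h : ∀ q ∈ K.1, q.re ≤ p.re) :
    p ∈ closure Eᶜ := by
  rw [closure_compl]
  intro hint
  obtain ⟨r, hr, hb⟩ := Metric.mem_nhds_iff.1 (mem_interior_iff_mem_nhds.1 hint)
  have h1 : ball p r ⊆ K.1 := by
    rw [K.eq_of_mem hp]
    exact (convex_ball p r).isPreconnected.subset_connectedComponentIn (mem_ball_self hr) hb
  have h2 : p + ((r / 2 : ℝ) : ℂ) ∈ ball p r := by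
    rw [mem_ball, dist_eq_norm]
    simp only [add_sub_cancel_left, Complex.norm_real, Real.norm_eq_abs]
    rw [abs_of_pos (by linarith)]
    linarith
  have h3 := h _ (h1 h2)
  simp only [Complex.add_re, Complex.ofReal_re] at h3
  linarith

lemma lo_mem_closure (K : Cmp E) {p : ℂ} (hp : p ∈ K.1) (h : ∀ q ∈ K.1, p.re ≤ q.re) :
    p ∈ closure Eᶜ := by
  rw [closure_compl]
  intro hint
  obtain ⟨r, hr, hb⟩ := Metric.mem_nhds_iff.1 (mem_interior_iff_mem_nhds.1 hint)
  have h1 : ball p r ⊆ K.1 := by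
    rw [K.eq_of_mem hp]
    exact (convex_ball p r).isPreconnected.subset_connectedComponentIn (mem_ball_self hr) hb
  have h2 : p - ((r / 2 : ℝ) : ℂ) ∈ ball p r := by
    rw [mem_ball, dist_eq_norm]
    simp only [sub_sub_cancel_left, norm_neg, Complex.norm_real, Real.norm_eq_abs]
    rw [abs_of_pos (by linarith)]
    linarith
  have h3 := h _ (h1 h2)
  simp only [Complex.sub_re, Complex.ofReal_re] at h3
  linarith

/-- computation of an oscillation from two attained cluster values -/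
theorem osc_eq {g : ℂ → ℝ} {K : Set ℂ} {A B : ℝ} (hAB : A ≤ B) {p q : ℂ} (hp : p ∈ K) (hq : q ∈ K)
    (hpc : p ∈ closure Eᶜ) (hqc : q ∈ closure Eᶜ) (hgp : Tendsto g (𝓝[Eᶜ] p) (𝓝 A))
    (hgq : Tendsto g (𝓝[Eᶜ] q) (𝓝 B))
    (hub : ∀ ε > 0, ∃ O, IsOpen O ∧ K ⊆ O ∧ ∀ z ∈ O, z ∉ E → A - ε ≤ g z ∧ g z ≤ B + ε) :
    osc E g K = B - A := by
  apply le_antisymm
  · refine osc_le_of_forall (by linarith) fun ε hε => ?_
    obtain ⟨O, hO, hKO, h⟩ := hub (ε / 2) (by linarith)
    refine ⟨O, hO, hKO, fun z hz hzE w hw hwE => ?_⟩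
    have h1 := h z hz hzE
    have h2 := h w hw hwE
    rw [abs_le]
    constructor <;> linarith [h1.1, h1.2, h2.1, h2.2]
  · obtain ⟨O₁, hO₁, hKO₁, h₁⟩ := hub 1 one_pos
    -- replace `g` by a bounded function
    set g' : ℂ → ℝ := fun z => max (A - 1) (min (g z) (B + 1)) with hg'
    have hgg' : ∀ z ∈ O₁, z ∉ E → g z = g' z := by
      intro z hz hzE
      have h := h₁ z hz hzE
      simp only [hg']
      rw [min_eq_left h.2, max_eq_right h.1]
    have hb : ∃ M, ∀ z, |g' z| ≤ M := by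
      refine ⟨|A - 1| + |B + 1|, fun z => ?_⟩
      have h1 : A - 1 ≤ g' z := le_max_left _ _
      have h2 : g' z ≤ B + 1 := max_le (by linarith) (min_le_right _ _)
      have h3 := neg_abs_le (A - 1)
      have h4 := le_abs_self (B + 1)
      have h5 := abs_nonneg (A - 1)
      have h6 := abs_nonneg (B + 1)
      rw [abs_le]
      constructor <;> linarith
    rw [osc_congr hO₁ hKO₁ hgg']
    by_contra hcon
    push Not at hcon
    obtain ⟨c, hc1, hc2⟩ := exists_between hcon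
    obtain ⟨O, hO, hKO, h⟩ := exists_of_osc_lt hb hc1
    -- points near `p` and `q`
    have hd : 0 < (B - A - c) / 2 := by linarith
    have e1 : ∀ᶠ z in 𝓝[Eᶜ] p, z ∈ O ∧ z ∈ O₁ ∧ z ∉ E ∧ g z < A + (B - A - c) / 2 := by
      have i1 : ∀ᶠ z in 𝓝[Eᶜ] p, z ∈ O := mem_nhdsWithin_of_mem_nhds (hO.mem_nhds (hKO hp))
      have i2 : ∀ᶠ z in 𝓝[Eᶜ] p, z ∈ O₁ := mem_nhdsWithin_of_mem_nhds (hO₁.mem_nhds (hKO₁ hp))
      have i3 : ∀ᶠ z in 𝓝[Eᶜ] p, z ∈ Eᶜ := self_mem_nhdsWithin
      have i4 := hgp.eventually (gt_mem_nhds (show A < A + (B - A - c) / 2 by linarith))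
      filter_upwards [i1, i2, i3, i4] with z a1 a2 a3 a4 using ⟨a1, a2, a3, a4⟩
    have e2 : ∀ᶠ z in 𝓝[Eᶜ] q, z ∈ O ∧ z ∈ O₁ ∧ z ∉ E ∧ B - (B - A - c) / 2 < g z := by
      have i1 : ∀ᶠ z in 𝓝[Eᶜ] q, z ∈ O := mem_nhdsWithin_of_mem_nhds (hO.mem_nhds (hKO hq))
      have i2 : ∀ᶠ z in 𝓝[Eᶜ] q, z ∈ O₁ := mem_nhdsWithin_of_mem_nhds (hO₁.mem_nhds (hKO₁ hq))
      have i3 : ∀ᶠ z in 𝓝[Eᶜ] q, z ∈ Eᶜ := self_mem_nhdsWithin
      have i4 := hgq.eventually (lt_mem_nhds (show B - (B - A - c) / 2 < B by linarith))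
      filter_upwards [i1, i2, i3, i4] with z a1 a2 a3 a4 using ⟨a1, a2, a3, a4⟩
    have := mem_closure_iff_nhdsWithin_neBot.1 hpc
    have := mem_closure_iff_nhdsWithin_neBot.1 hqc
    obtain ⟨z, hz1, hz2, hz3, hz4⟩ := e1.exists
    obtain ⟨w, hw1, hw2, hw3, hw4⟩ := e2.exists
    have h5 := h w hw1 hw3 z hz1 hz3
    rw [← hgg' w hw2 hw3, ← hgg' z hz2 hz3] at h5
    have h6 := le_abs_self (g w - g z)
    linarith

/-- `osc` of a monotone function of `re` near the component -/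
theorem osc_mono_re (hE : IsCompact E) (K : Cmp E) {g : ℂ → ℝ} {h : ℝ → ℝ} (hm : Monotone h)
    (hc : Continuous h) (hg : ∀ p ∈ K.1, ∀ᶠ z in 𝓝 p, g z = h z.re) :
    osc E g K.1 = h (hi K.1) - h (lo K.1) := by
  have hK := K.isCompact hE
  obtain ⟨p, hp, h1⟩ := exists_lo hK K.nonempty
  obtain ⟨q, hq, h2⟩ := exists_hi hK K.nonempty
  have hcr : Continuous fun z : ℂ => h z.re := hc.comp Complex.continuous_re
  have ht : ∀ r ∈ K.1, Tendsto g (𝓝[Eᶜ] r) (𝓝 (h r.re)) := by
    intro r hr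
    have i1 : Tendsto (fun z : ℂ => h z.re) (𝓝 r) (𝓝 (h r.re)) := hcr.tendsto r
    have i2 : Tendsto g (𝓝 r) (𝓝 (h r.re)) :=
      i1.congr' ((hg r hr).mono fun z hz => hz.symm)
    exact i2.mono_left nhdsWithin_le_nhds
  refine osc_eq (hm (lo_le_hi hK K.nonempty)) hp hq
    (lo_mem_closure K hp fun r hr => by rw [h1]; exact lo_le hK hr)
    (hi_mem_closure K hq fun r hr => by rw [h2]; exact le_hi hK hr)
    (h1 ▸ ht p hp) (h2 ▸ ht q hq) fun ε hε => ?_
  refine ⟨interior {z | g z = h z.re} ∩ {z | h (lo K.1) - ε < h z.re ∧ h z.re < h (hi K.1) + ε},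
    isOpen_interior.inter ((isOpen_lt continuous_const hcr).inter (isOpen_lt hcr continuous_const)),
    fun z hz => ⟨mem_interior_iff_mem_nhds.2 (hg z hz), ?_, ?_⟩, fun z hz _ => ?_⟩
  · have := hm (lo_le hK hz)
    linarith
  · have := hm (le_hi hK hz)
    linarith
  · have h3 : g z = h z.re := by
      have := interior_subset hz.1
      exact this
    rw [h3]
    exact ⟨hz.2.1.le, hz.2.2.le⟩

/-- the width of the component is the oscillation of `re` -/
theorem osc_re (hE : IsCompact E) (K : Cmp E) :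
    osc E (fun z => z.re) K.1 = hi K.1 - lo K.1 :=
  osc_mono_re hE K (h := id) monotone_id continuous_id fun _ _ => Eventually.of_forall fun _ => rfl

/-- `t + τ θ(t)` is monotone for small `τ` -/
lemma monotone_shift {θ : ℝ → ℝ} (hθ : Differentiable ℝ θ) {C τ : ℝ} (hC : ∀ x, |deriv θ x| ≤ C)
    (hτ : |τ| * C ≤ 1) : Monotone fun t => t + τ * θ t := by
  refine monotone_of_deriv_nonneg (differentiable_id.add (hθ.const_mul τ)) fun x => ?_
  have h1 : HasDerivAt (fun t => t + τ * θ t) (1 + τ * deriv θ x) x :=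
    (hasDerivAt_id x).add ((hθ x).hasDerivAt.const_mul τ)
  rw [h1.deriv]
  have h2 : |τ * deriv θ x| ≤ 1 := by
    rw [abs_mul]
    exact (mul_le_mul_of_nonneg_left (hC x) (abs_nonneg τ)).trans hτ
  linarith [neg_abs_le (τ * deriv θ x)]

/-- `L` is above `K` over `(al, be)` (vacuous if `L` does not meet the strip) -/
def Up (K : Set ℂ) (al be : ℝ) (L : Set ℂ) : Prop :=
  L ∩ Complex.re ⁻¹' (Ioo al be) ⊆ above K

open Classical in
/-- the increment of the test function across `L` -/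
noncomputable def Del (K : Set ℂ) (al be : ℝ) (θ : ℝ → ℝ) (L : Set ℂ) : ℝ :=
  if Up K al be L then θ (hi L) - θ (lo L) else 0

lemma abs_Del_le {K : Set ℂ} {al be : ℝ} {θ : ℝ → ℝ} (hθ : Differentiable ℝ θ) {C : ℝ}
    (hC : ∀ x, |deriv θ x| ≤ C) {L : Set ℂ} (hL : lo L ≤ hi L) :
    |Del K al be θ L| ≤ C * (hi L - lo L) := by
  have hC0 : 0 ≤ C := (abs_nonneg _).trans (hC 0)
  unfold Del
  split_ifs
  · have h1 := (convex_univ (𝕜 := ℝ) (E := ℝ)).norm_image_sub_le_of_norm_deriv_le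
      (f := θ) (C := C) (x := lo L) (y := hi L) (fun x _ => hθ x) (fun x _ => hC x)
      (mem_univ _) (mem_univ _)
    rw [Real.norm_eq_abs, Real.norm_eq_abs, abs_of_nonneg (by linarith : 0 ≤ hi L - lo L)] at h1
    exact h1
  · rw [abs_zero]
    exact mul_nonneg hC0 (by linarith)

/-- the oscillation of `re + τ f` at the other components -/
theorem osc_other (hE : IsCompact E) {K : Set ℂ} (hK : IsCompact K)
    (hKs : ∀ t, OrdConnected (sec K t)) {al be : ℝ}
    (hne : ∀ t ∈ Ioo al be, (sec K t).Nonempty) {θ : ℝ → ℝ} (hθ : ContDiff ℝ ∞ θ)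
    (hθs : tsupport θ ⊆ Ioo al be) {C τ : ℝ} (hC : ∀ x, |deriv θ x| ≤ C) (hτ : |τ| * C ≤ 1)
    {κ : ℝ → ℝ} (hκ : ∀ p ∈ E, ∀ᶠ y in 𝓝 p.im, κ y = 1)
    (L : Cmp E) (hLs : ∀ t, OrdConnected (sec L.1 t)) (hd : Disjoint K L.1) :
    osc E (fun z => z.re + τ * (up K θ z * κ z.im)) L.1
      = (hi L.1 - lo L.1) + τ * Del K al be θ L.1 := by
  classical
  have hLc := L.isCompact hE
  have hκ' : ∀ p ∈ L.1, ∀ᶠ z in 𝓝 p, κ z.im = 1 := fun p hp =>
    (Complex.continuous_im.tendsto p).eventually (hκ p (L.subset hp))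
  rcases up_on_disjoint hK hKs hLc L.preconn hLs hd hne hθs with ⟨h1, h2⟩ | ⟨h1, h2⟩
  · have hup : Up K al be L.1 := h1
    rw [osc_mono_re hE L (monotone_shift (hθ.differentiable (by simp)) hC hτ)
      (continuous_id.add (continuous_const.mul hθ.continuous)) ?_]
    · rw [Del, if_pos hup]
      ring
    · intro p hp
      filter_upwards [h2 p hp, hκ' p hp] with z hz1 hz2
      rw [hz1, hz2]
      simp
  · have hD : Del K al be θ L.1 = 0 := by
      unfold Del
      split_ifs with hup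
      · have hem : ∀ p ∈ L.1, p.re ∉ Ioo al be := by
          intro p hp hpr
          exact above_disjoint_below (hne _ hpr) (hup ⟨hp, hpr⟩) (h1 ⟨hp, hpr⟩)
        obtain ⟨p, hp, h3⟩ := exists_lo hLc L.nonempty
        obtain ⟨q, hq, h4⟩ := exists_hi hLc L.nonempty
        rw [← h3, ← h4, image_eq_zero_of_notMem_tsupport (fun hc => hem p hp (hθs hc)),
          image_eq_zero_of_notMem_tsupport (fun hc => hem q hq (hθs hc)), sub_zero]
      · rfl
    rw [osc_mono_re hE L (h := id) monotone_id continuous_id ?_, hD]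
    · simp
    · intro p hp
      filter_upwards [h2 p hp] with z hz1
      rw [hz1]
      simp

/-- the oscillation of `re + τ f` at `K` itself does not change -/
theorem osc_self (hE : IsCompact E) (K : Cmp E) {al be : ℝ} (hal : lo K.1 ≤ al)
    (hbe : be ≤ hi K.1) {θ : ℝ → ℝ} (hθ : ContDiff ℝ ∞ θ)
    (hθs : tsupport θ ⊆ Ioo al be) {C τ : ℝ} (hC : ∀ x, |deriv θ x| ≤ C) (hτ : |τ| * C ≤ 1)
    {κ : ℝ → ℝ} (hκ : ∀ p ∈ E, ∀ᶠ y in 𝓝 p.im, κ y = 1) :
    osc E (fun z => z.re + τ * (up K.1 θ z * κ z.im)) K.1 = hi K.1 - lo K.1 := by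
  have hK := K.isCompact hE
  have hm := monotone_shift (hθ.differentiable (by simp)) hC hτ
  have hκ' : ∀ p ∈ K.1, ∀ᶠ z in 𝓝 p, κ z.im = 1 := fun p hp =>
    (Complex.continuous_im.tendsto p).eventually (hκ p (K.subset hp))
  have hz0 : ∀ t, t ∉ Ioo al be → ∀ᶠ r in 𝓝 t, θ r = 0 := by
    intro t ht
    have h1 : t ∉ tsupport θ := fun hc => ht (hθs hc)
    have := notMem_tsupport_iff_eventuallyEq.1 h1
    filter_upwards [this] with r hr using hr
  have hgt : ∀ p ∈ K.1, p.re ∉ Ioo al be →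
      Tendsto (fun z : ℂ => z.re + τ * (up K.1 θ z * κ z.im)) (𝓝[Eᶜ] p) (𝓝 p.re) := by
    intro p hp hpr
    have h1 : ∀ᶠ z : ℂ in 𝓝 p, z.re = z.re + τ * (up K.1 θ z * κ z.im) := by
      filter_upwards [(Complex.continuous_re.tendsto p).eventually (hz0 _ hpr)] with z hz
      have : up K.1 θ z = 0 := by
        rcases up_mem (K := K.1) (θ := θ) z with h | h
        · rw [h, hz]
        · exact h
      rw [this]; simp
    have h2 : Tendsto (fun z : ℂ => z.re) (𝓝 p) (𝓝 p.re) := Complex.continuous_re.tendsto p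
    exact (h2.congr' h1).mono_left nhdsWithin_le_nhds
  obtain ⟨p, hp, h1⟩ := exists_lo hK K.nonempty
  obtain ⟨q, hq, h2⟩ := exists_hi hK K.nonempty
  have hp' : p.re ∉ Ioo al be := fun h => by
    have := h.1
    linarith
  have hq' : q.re ∉ Ioo al be := fun h => by
    have := h.2
    linarith
  refine osc_eq (lo_le_hi hK K.nonempty) hp hq
    (lo_mem_closure K hp fun r hr => by rw [h1]; exact lo_le hK hr)
    (hi_mem_closure K hq fun r hr => by rw [h2]; exact le_hi hK hr)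
    (h1 ▸ hgt p hp hp') (h2 ▸ hgt q hq hq') fun ε hε => ?_
  have hθlo : θ (lo K.1) = 0 := by
    rw [← h1]; exact (hz0 _ hp').self_of_nhds
  have hθhi : θ (hi K.1) = 0 := by
    rw [← h2]; exact (hz0 _ hq').self_of_nhds
  refine ⟨interior {z | κ z.im = 1} ∩ {z | lo K.1 - ε < z.re ∧ z.re < hi K.1 + ε},
    isOpen_interior.inter ((isOpen_lt continuous_const Complex.continuous_re).inter
      (isOpen_lt Complex.continuous_re continuous_const)),
    fun z hz => ⟨mem_interior_iff_mem_nhds.2 (hκ' z hz), ?_, ?_⟩, fun z hz _ => ?_⟩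
  · have := lo_le hK hz
    linarith
  · have := le_hi hK hz
    linarith
  · have h3 : κ z.im = 1 := by
      have := interior_subset hz.1
      exact this
    rw [h3, mul_one]
    obtain ⟨-, h4, h5⟩ := hz
    rcases up_mem (K := K.1) (θ := θ) z with h | h
    · rw [h]
      constructor
      · rcases le_total z.re (lo K.1) with h6 | h6
        · have h7 : θ z.re = 0 := (hz0 _ (fun h => by have := h.1; linarith)).self_of_nhds
          rw [h7]; linarith
        · have h7 := hm h6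
          simp only [hθlo, mul_zero, add_zero] at h7
          linarith
      · rcases le_total z.re (hi K.1) with h6 | h6
        · have h7 := hm h6
          simp only [hθhi, mul_zero, add_zero] at h7
          linarith
        · have h7 : θ z.re = 0 := (hz0 _ (fun h => by have := h.2; linarith)).self_of_nhds
          rw [h7]; linarith
    · rw [h]
      constructor <;> linarith

end Crest.Agent.R105.Sqr_185
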