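import Crest.Agent.R105.Lnl1_411
import Crest.Agent.R105.Sqr5_185
import Crest.Agent.R105.Sct2_636
import Crest.Agent.R105.Bd1_775

/-!
# Row 105, S0138, node E13, LINE LEMMA (2b) (helper411), part 2: letters of 642 #11336

* `BVL`, `topS`, `botS`, `topF`, `botF`, `Cut`
* `top_slice`, `bot_slice`, `all_slice` : one vertical line
* `line_top`, `line_bot`, `line_out`, `line_lemma` : convergence of the area integrals
-/

set_option autoImplicit false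

open MeasureTheory Set Filter Topology Metric
open scoped NNReal ENNReal ContDiff

namespace Crest.Agent.R105.Lnl_411

open Sqr_185 Tc_808 Sct_636 Bd_775

noncomputable section

/-- bounded variation on the vertical lines off `E` -/
def BVL (E : Set ℂ) (w : ℂ → ℝ) : Prop := ∀ R : ℝ, ∃ M : ℝ → ℝ, Integrable M ∧ ∀ᵐ t : ℝ, |t| ≤ R →
  eVariationOn (fun v : ℝ => w ⟨t, v⟩) {v | (⟨t, v⟩ : ℂ) ∉ E ∧ |v| ≤ R} ≤ ENNReal.ofReal (M t)

def topS (E L : Set ℂ) (t : ℝ) : Set ℝ := {v | (⟨t, v⟩ : ℂ) ∉ E ∧ (⟨t, v⟩ : ℂ) ∈ above L}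
def botS (E L : Set ℂ) (t : ℝ) : Set ℝ := {v | (⟨t, v⟩ : ℂ) ∉ E ∧ (⟨t, v⟩ : ℂ) ∈ below L}

def topF (E L : Set ℂ) (t : ℝ) : Filter ℝ := 𝓝[topS E L t] sSup (sec L t)
def botF (E L : Set ℂ) (t : ℝ) : Filter ℝ := 𝓝[botS E L t] sInf (sec L t)

/-- cut-offs of `L` -/
structure Cut (E L : Set ℂ) (χ : ℕ → ℂ → ℝ) : Prop where
  lce : ∀ n, LCE E (χ n)
  mem : ∀ n z, χ n z ∈ Icc (0:ℝ) 1
  one : ∀ n, ∀ z ∈ L, χ n z = 1
  shrink : ∀ O, IsOpen O → L ⊆ O → ∀ᶠ n in atTop, tsupport (χ n) ⊆ O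

/-! ### Fubini -/

lemma fub {F : ℂ → ℝ} (hF : Integrable F) : ∫ z, F z = ∫ t, ∫ v, F ⟨t, v⟩ := by
  have hmp := Complex.volume_preserving_equiv_real_prod.symm
  have hI2 : Integrable (fun q : ℝ × ℝ => F (Complex.measurableEquivRealProd.symm q)) :=
    hmp.integrable_comp_of_integrable hF
  have h1 : ∫ z, F z = ∫ q : ℝ × ℝ, F (Complex.measurableEquivRealProd.symm q) :=
    (hmp.integral_comp Complex.measurableEquivRealProd.symm.measurableEmbedding _).symm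
  rw [h1, Measure.volume_eq_prod, integral_prod _ (by rwa [← Measure.volume_eq_prod])]
  rfl

lemma fub_int {F : ℂ → ℝ} (hF : Integrable F) : Integrable fun t : ℝ => ∫ v : ℝ, F ⟨t, v⟩ := by
  have hmp := Complex.volume_preserving_equiv_real_prod.symm
  have hI2 : Integrable (fun q : ℝ × ℝ => F (Complex.measurableEquivRealProd.symm q)) :=
    hmp.integrable_comp_of_integrable hF
  rw [Measure.volume_eq_prod] at hI2
  exact hI2.integral_prod_left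

/-! ### slices of the test function -/

section Slice
variable {E L : Set ℂ} {χ : ℂ → ℝ} {w : ℂ → ℝ} {t : ℝ}

lemma hasDerivAt_mk (t v : ℝ) : HasDerivAt (fun v : ℝ => (⟨t, v⟩ : ℂ)) Complex.I v := by
  have h1 : (fun v : ℝ => (⟨t, v⟩ : ℂ)) = fun v : ℝ => (t : ℂ) + (v : ℂ) * Complex.I := by
    funext v
    apply Complex.ext <;> simp
  rw [h1]
  have h2 : HasDerivAt (fun v : ℝ => (v : ℂ)) 1 v := Complex.ofRealCLM.hasDerivAt
  simpa using (h2.mul_const Complex.I).const_add (t : ℂ)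

lemma contDiff_mk (t : ℝ) : ContDiff ℝ 1 (fun v : ℝ => (⟨t, v⟩ : ℂ)) := by
  have h1 : (fun v : ℝ => (⟨t, v⟩ : ℂ)) = fun v : ℝ => (t : ℂ) + (v : ℂ) * Complex.I := by
    funext v
    apply Complex.ext <;> simp
  rw [h1]
  exact contDiff_const.add (Complex.ofRealCLM.contDiff.mul contDiff_const)

lemma slice_contDiff (hχ : LCE E χ) (t : ℝ) : ContDiff ℝ 1 (fun v : ℝ => χ ⟨t, v⟩) :=
  (hχ.smooth.of_le (by simp)).comp (contDiff_mk t)

lemma slice_deriv (hχ : LCE E χ) (t v : ℝ) : deriv (fun v : ℝ => χ ⟨t, v⟩) v = gy χ ⟨t, v⟩ := by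
  have h1 : HasFDerivAt χ (fderiv ℝ χ ⟨t, v⟩) ⟨t, v⟩ :=
    ((hχ.smooth.differentiable (by simp)) _).hasFDerivAt
  exact (h1.comp_hasDerivAt v (hasDerivAt_mk t v)).deriv

lemma slice_loc (hχ : LCE E χ) {v : ℝ} (h : (⟨t, v⟩ : ℂ) ∈ E) :
    ∀ᶠ x in 𝓝 v, χ ⟨t, x⟩ = χ ⟨t, v⟩ :=
  ((continuous_mk_right t).tendsto v).eventually (hχ.lc _ h)

lemma slice_off {v : ℝ} (h : (⟨t, v⟩ : ℂ) ∉ tsupport χ) :
    ∀ᶠ x in 𝓝 v, χ ⟨t, x⟩ = χ ⟨t, v⟩ := by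
  have h1 : ∀ᶠ z in 𝓝 (⟨t, v⟩ : ℂ), χ z = 0 :=
    notMem_tsupport_iff_eventuallyEq.1 h
  have h2 := ((continuous_mk_right t).tendsto v).eventually h1
  filter_upwards [h2] with x hx
  rw [hx, h1.self_of_nhds]

lemma gy_zero (hχ : LCE E χ) {v : ℝ} (h : ∀ᶠ x in 𝓝 v, χ ⟨t, x⟩ = χ ⟨t, v⟩) :
    gy χ ⟨t, v⟩ = 0 := by
  rw [← slice_deriv hχ]
  have h1 : (fun v : ℝ => χ ⟨t, v⟩) =ᶠ[𝓝 v] fun _ => χ ⟨t, v⟩ := h
  rw [h1.deriv_eq, deriv_const]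

lemma mem_topS_iff (hL : IsCompact L) (hne : (sec L t).Nonempty) {v : ℝ} :
    v ∈ topS E L t ↔ (⟨t, v⟩ : ℂ) ∉ E ∧ sSup (sec L t) < v := by
  have hc := isCompact_sec hL t
  constructor
  · rintro ⟨h1, h2⟩
    exact ⟨h1, h2 _ (hc.sSup_mem hne)⟩
  · rintro ⟨h1, h2⟩
    exact ⟨h1, fun y hy => (le_csSup hc.bddAbove hy).trans_lt h2⟩

lemma mem_botS_iff (hL : IsCompact L) (hne : (sec L t).Nonempty) {v : ℝ} :
    v ∈ botS E L t ↔ (⟨t, v⟩ : ℂ) ∉ E ∧ v < sInf (sec L t) := by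
  have hc := isCompact_sec hL t
  constructor
  · rintro ⟨h1, h2⟩
    exact ⟨h1, h2 _ (hc.sInf_mem hne)⟩
  · rintro ⟨h1, h2⟩
    exact ⟨h1, fun y hy => h2.trans_le (csInf_le hc.bddBelow hy)⟩

/-- one line, upper part -/
theorem top_slice (hχ : LCE E χ) (h01 : ∀ z, χ z ∈ Icc (0:ℝ) 1) (hL : IsCompact L) (hLE : L ⊆ E)
    (h1 : ∀ z ∈ L, χ z = 1) (hne : (sec L t).Nonempty) {b R c : ℝ} (hTb : sSup (sec L t) ≤ b)
    (hb : ∀ v, b ≤ v → (⟨t, v⟩ : ℂ) ∉ tsupport χ) (hR : tsupport χ ⊆ ball 0 R)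
    {A : Set ℝ} (hAdef : A = {v | (⟨t, v⟩ : ℂ) ∉ E ∧ |v| ≤ R} ∩ Ioo (sSup (sec L t)) b)
    (hA : BoundedVariationOn (fun v => w ⟨t, v⟩) A)
    (hc : ∀ v ∈ A, |w ⟨t, v⟩ - c| ≤ (eVariationOn (fun v => w ⟨t, v⟩) A).toReal) :
    |(∫ v, (topS E L t).indicator (fun v => w ⟨t, v⟩ * gy χ ⟨t, v⟩) v) + c| ≤
      4 * (eVariationOn (fun v => w ⟨t, v⟩) A).toReal := by
  set T := sSup (sec L t) with hT
  have hTm : (⟨t, T⟩ : ℂ) ∈ L := (isCompact_sec hL t).sSup_mem hne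
  have hoff : ∀ v ∈ Icc T b, v ∉ A → ∀ᶠ x in 𝓝 v, χ ⟨t, x⟩ = χ ⟨t, v⟩ := by
    intro v hv hvA
    by_cases hvE : (⟨t, v⟩ : ℂ) ∈ E
    · exact slice_loc hχ hvE
    refine slice_off fun hs => hvA ?_
    rw [hAdef]
    refine ⟨⟨hvE, ?_⟩, lt_of_le_of_ne hv.1 fun h => hvE (hLE (h ▸ hTm)),
      lt_of_not_ge fun h => hb v h hs⟩
    have h3 := hR hs
    rw [mem_ball_zero_iff] at h3
    exact (Complex.abs_im_le_norm (⟨t, v⟩ : ℂ)).trans h3.le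
  have key := bv_line (f := fun v => w ⟨t, v⟩) (χ := fun v => χ ⟨t, v⟩) (A := A) (c := c) hA hTb
    (slice_contDiff hχ t) (fun v _ => h01 _) hoff hc
  have e1 : χ ⟨t, T⟩ = 1 := h1 _ hTm
  have e2 : χ ⟨t, b⟩ = 0 := image_eq_zero_of_notMem_tsupport (hb b le_rfl)
  have e3 : (∫ v, (topS E L t).indicator (fun v => w ⟨t, v⟩ * gy χ ⟨t, v⟩) v) =
      ∫ v in T..b, w ⟨t, v⟩ * deriv (fun v => χ ⟨t, v⟩) v := by
    rw [intervalIntegral.integral_of_le hTb, ← integral_indicator measurableSet_Ioc]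
    congr 1
    funext v
    by_cases hv : v ∈ Ioc T b
    · rw [indicator_of_mem hv, slice_deriv hχ]
      by_cases hvE : (⟨t, v⟩ : ℂ) ∈ E
      · rw [indicator_of_notMem (fun h => h.1 hvE), gy_zero hχ (slice_loc hχ hvE), mul_zero]
      · rw [indicator_of_mem ((mem_topS_iff hL hne).2 ⟨hvE, hv.1⟩)]
    · rw [indicator_of_notMem hv]
      by_cases hvt : v ∈ topS E L t
      · have h4 : T < v := ((mem_topS_iff hL hne).1 hvt).2
        have h5 : b ≤ v := by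
          by_contra hcon
          exact hv ⟨h4, (not_le.1 hcon).le⟩
        rw [indicator_of_mem hvt, gy_zero hχ (slice_off (hb v h5)), mul_zero]
      · rw [indicator_of_notMem hvt]
  rw [e3]
  simp only [e1, e2] at key
  have e4 : (∫ v in T..b, w ⟨t, v⟩ * deriv (fun v => χ ⟨t, v⟩) v) + c =
      (∫ v in T..b, w ⟨t, v⟩ * deriv (fun v => χ ⟨t, v⟩) v) - c * (0 - 1) := by ring
  rw [e4]
  exact key

/-- one line, lower part -/
theorem bot_slice (hχ : LCE E χ) (h01 : ∀ z, χ z ∈ Icc (0:ℝ) 1) (hL : IsCompact L) (hLE : L ⊆ E)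
    (h1 : ∀ z ∈ L, χ z = 1) (hne : (sec L t).Nonempty) {b R c : ℝ} (hTb : b ≤ sInf (sec L t))
    (hb : ∀ v, v ≤ b → (⟨t, v⟩ : ℂ) ∉ tsupport χ) (hR : tsupport χ ⊆ ball 0 R)
    {A : Set ℝ} (hAdef : A = {v | (⟨t, v⟩ : ℂ) ∉ E ∧ |v| ≤ R} ∩ Ioo b (sInf (sec L t)))
    (hA : BoundedVariationOn (fun v => w ⟨t, v⟩) A)
    (hc : ∀ v ∈ A, |w ⟨t, v⟩ - c| ≤ (eVariationOn (fun v => w ⟨t, v⟩) A).toReal) :
    |(∫ v, (botS E L t).indicator (fun v => w ⟨t, v⟩ * gy χ ⟨t, v⟩) v) - c| ≤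
      4 * (eVariationOn (fun v => w ⟨t, v⟩) A).toReal := by
  set T := sInf (sec L t) with hT
  have hTm : (⟨t, T⟩ : ℂ) ∈ L := (isCompact_sec hL t).sInf_mem hne
  have hoff : ∀ v ∈ Icc b T, v ∉ A → ∀ᶠ x in 𝓝 v, χ ⟨t, x⟩ = χ ⟨t, v⟩ := by
    intro v hv hvA
    by_cases hvE : (⟨t, v⟩ : ℂ) ∈ E
    · exact slice_loc hχ hvE
    refine slice_off fun hs => hvA ?_
    rw [hAdef]
    refine ⟨⟨hvE, ?_⟩, lt_of_not_ge fun h => hb v h hs,
      lt_of_le_of_ne hv.2 fun h => hvE (hLE (h ▸ hTm))⟩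
    have h3 := hR hs
    rw [mem_ball_zero_iff] at h3
    exact (Complex.abs_im_le_norm (⟨t, v⟩ : ℂ)).trans h3.le
  have key := bv_line (f := fun v => w ⟨t, v⟩) (χ := fun v => χ ⟨t, v⟩) (A := A) (c := c) hA hTb
    (slice_contDiff hχ t) (fun v _ => h01 _) hoff hc
  have e1 : χ ⟨t, T⟩ = 1 := h1 _ hTm
  have e2 : χ ⟨t, b⟩ = 0 := image_eq_zero_of_notMem_tsupport (hb b le_rfl)
  have e3 : (∫ v, (botS E L t).indicator (fun v => w ⟨t, v⟩ * gy χ ⟨t, v⟩) v) =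
      ∫ v in b..T, w ⟨t, v⟩ * deriv (fun v => χ ⟨t, v⟩) v := by
    rw [intervalIntegral.integral_of_le hTb, ← integral_indicator measurableSet_Ioc]
    congr 1
    funext v
    by_cases hv : v ∈ Ioc b T
    · rw [indicator_of_mem hv, slice_deriv hχ]
      by_cases hvE : (⟨t, v⟩ : ℂ) ∈ E
      · rw [indicator_of_notMem (fun h => h.1 hvE), gy_zero hχ (slice_loc hχ hvE), mul_zero]
      · rw [indicator_of_mem ((mem_botS_iff hL hne).2
          ⟨hvE, lt_of_le_of_ne hv.2 fun h => hvE (hLE (h ▸ hTm))⟩)]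
    · rw [indicator_of_notMem hv]
      by_cases hvt : v ∈ botS E L t
      · have h4 : v < T := ((mem_botS_iff hL hne).1 hvt).2
        have h5 : v ≤ b := by
          by_contra hcon
          exact hv ⟨not_le.1 hcon, h4.le⟩
        rw [indicator_of_mem hvt, gy_zero hχ (slice_off (hb v h5)), mul_zero]
      · rw [indicator_of_notMem hvt]
  rw [e3]
  simp only [e1, e2] at key
  have e4 : (∫ v in b..T, w ⟨t, v⟩ * deriv (fun v => χ ⟨t, v⟩) v) - c =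
      (∫ v in b..T, w ⟨t, v⟩ * deriv (fun v => χ ⟨t, v⟩) v) - c * (1 - 0) := by ring
  rw [e4]
  exact key

/-- one line, everything -/
theorem all_slice (hχ : LCE E χ) (h01 : ∀ z, χ z ∈ Icc (0:ℝ) 1) {R : ℝ} (hR0 : 0 ≤ R)
    (hR : tsupport χ ⊆ ball 0 R)
    {A : Set ℝ} (hAdef : A = {v | (⟨t, v⟩ : ℂ) ∉ E ∧ |v| ≤ R})
    (hA : BoundedVariationOn (fun v => w ⟨t, v⟩) A) :
    |∫ v, {v | (⟨t, v⟩ : ℂ) ∉ E}.indicator (fun v => w ⟨t, v⟩ * gy χ ⟨t, v⟩) v| ≤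
      4 * (eVariationOn (fun v => w ⟨t, v⟩) A).toReal := by
  have hout : ∀ v : ℝ, R ≤ |v| → (⟨t, v⟩ : ℂ) ∉ tsupport χ := fun v hv hs => by
    have h3 := hR hs
    rw [mem_ball_zero_iff] at h3
    exact absurd ((Complex.abs_im_le_norm (⟨t, v⟩ : ℂ)).trans_lt h3) (not_lt.2 hv)
  have hoff : ∀ v ∈ Icc (-R) R, v ∉ A → ∀ᶠ x in 𝓝 v, χ ⟨t, x⟩ = χ ⟨t, v⟩ := by
    intro v hv hvA
    by_cases hvE : (⟨t, v⟩ : ℂ) ∈ E
    · exact slice_loc hχ hvE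
    · refine absurd ?_ hvA
      rw [hAdef]
      exact ⟨hvE, abs_le.2 hv⟩
  have hcc : ∃ c, ∀ v ∈ A, |w ⟨t, v⟩ - c| ≤ (eVariationOn (fun v => w ⟨t, v⟩) A).toReal := by
    rcases A.eq_empty_or_nonempty with h | ⟨v0, hv0⟩
    · exact ⟨0, fun v hv => by rw [h] at hv; exact absurd hv (notMem_empty _)⟩
    · exact ⟨w ⟨t, v0⟩, fun v hv => abs_sub_le_var (f := fun v => w ⟨t, v⟩) hA hv hv0⟩
  obtain ⟨c, hc⟩ := hcc
  have key := bv_line (f := fun v => w ⟨t, v⟩) (χ := fun v => χ ⟨t, v⟩) (A := A) (c := c) hA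
    (show -R ≤ R by linarith) (slice_contDiff hχ t) (fun v _ => h01 _) hoff hc
  have e1 : χ ⟨t, R⟩ = 0 := image_eq_zero_of_notMem_tsupport (hout R (le_abs_self R))
  have e2 : χ ⟨t, -R⟩ = 0 := image_eq_zero_of_notMem_tsupport (hout (-R) (by
    rw [abs_neg]; exact le_abs_self R))
  have e3 : (∫ v, {v | (⟨t, v⟩ : ℂ) ∉ E}.indicator (fun v => w ⟨t, v⟩ * gy χ ⟨t, v⟩) v) =
      ∫ v in (-R)..R, w ⟨t, v⟩ * deriv (fun v => χ ⟨t, v⟩) v := by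
    rw [intervalIntegral.integral_of_le (by linarith), ← integral_indicator measurableSet_Ioc]
    congr 1
    funext v
    by_cases hvE : (⟨t, v⟩ : ℂ) ∈ E
    · rw [indicator_of_notMem (by simpa using hvE)]
      by_cases hv : v ∈ Ioc (-R) R
      · rw [indicator_of_mem hv, slice_deriv hχ, gy_zero hχ (slice_loc hχ hvE), mul_zero]
      · rw [indicator_of_notMem hv]
    · rw [indicator_of_mem (by simpa using hvE)]
      by_cases hv : v ∈ Ioc (-R) R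
      · rw [indicator_of_mem hv, slice_deriv hχ]
      · rw [indicator_of_notMem hv, gy_zero hχ (slice_off (hout v ?_)), mul_zero]
        by_contra hcon
        rw [not_le, abs_lt] at hcon
        exact hv ⟨hcon.1, hcon.2.le⟩
  rw [e3]
  simp only [e1, e2, sub_self, mul_zero, sub_zero] at key
  exact key

end Slice

end

end Crest.Agent.R105.Lnl_411
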