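import Crest.Agent.R105.Lnl2_411

/-!
# Row 105, S0138, node E13, LINE LEMMA (2b) (helper411), part 3: convergence of the area integrals
-/

set_option autoImplicit false

open MeasureTheory Set Filter Topology Metric
open scoped NNReal ENNReal ContDiff

namespace Crest.Agent.R105.Lnl_411

open Sqr_185 Tc_808 Sct_636 Bd_775

noncomputable section

variable {E : Set ℂ} {w : ℂ → ℝ} {χ : ℕ → ℂ → ℝ} {G : ℝ → ℝ} {C : ℝ}

lemma isCompact_cmp (hE : IsCompact E) (L0 : Cmp E) : IsCompact L0.1 := by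
  obtain ⟨K, z, hz, rfl⟩ := L0
  exact Thin_12.isCompact_cc hE z

lemma cmp_ne (L0 : Cmp E) : L0.1.Nonempty := by
  obtain ⟨K, z, hz, rfl⟩ := L0
  exact ⟨z, mem_connectedComponentIn hz⟩

lemma cmp_pre (L0 : Cmp E) : IsPreconnected L0.1 := by
  obtain ⟨K, z, hz, rfl⟩ := L0
  exact isPreconnected_connectedComponentIn

lemma cmp_abs (L0 : Cmp E) {D : Set ℂ} (hD : IsPreconnected D) (hDE : D ⊆ E) {p : ℂ} (hp : p ∈ L0.1)
    (hpD : p ∈ D) : D ⊆ L0.1 := by
  obtain ⟨K, z, hz, rfl⟩ := L0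
  change D ⊆ connectedComponentIn E z
  have hp' : p ∈ connectedComponentIn E z := hp
  rw [connectedComponentIn_eq hp']
  exact hD.subset_connectedComponentIn hpD hDE

lemma sec_ne (hE : IsCompact E) (L0 : Cmp E) {t : ℝ} (ht : t ∈ Icc (lo L0.1) (hi L0.1)) :
    (sec L0.1 t).Nonempty :=
  sec_nonempty (isCompact_cmp hE L0) (cmp_pre L0) (cmp_ne L0) ht

lemma exists_top (hE : IsCompact E) (L0 : Cmp E) {t : ℝ} (ht : (sec L0.1 t).Nonempty) {δ : ℝ}
    (hδ : 0 < δ) : ∃ v ∈ topS E L0.1 t, v < sSup (sec L0.1 t) + δ := by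
  set T := sSup (sec L0.1 t) with hT
  have hc := isCompact_sec (isCompact_cmp hE L0) t
  have hTm : (⟨t, T⟩ : ℂ) ∈ L0.1 := hc.sSup_mem ht
  by_contra hcon
  push Not at hcon
  have h1 : (fun v : ℝ => (⟨t, v⟩ : ℂ)) '' Icc T (T + δ / 2) ⊆ E := by
    rintro _ ⟨v, hv, rfl⟩
    rcases eq_or_lt_of_le hv.1 with h | h
    · rw [← h]; exact L0.subset hTm
    · by_contra hvE
      have := hcon v ((mem_topS_iff (isCompact_cmp hE L0) ht).2 ⟨hvE, h⟩)
      linarith [hv.2]
  have h2 := cmp_abs L0 ((isPreconnected_Icc.image _ (continuous_mk_right t).continuousOn)) h1 hTm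
    ⟨T, ⟨le_rfl, by linarith⟩, rfl⟩
  have h3 : T + δ / 2 ∈ sec L0.1 t := h2 ⟨T + δ / 2, ⟨by linarith, le_rfl⟩, rfl⟩
  have := le_csSup hc.bddAbove h3
  linarith

lemma exists_bot (hE : IsCompact E) (L0 : Cmp E) {t : ℝ} (ht : (sec L0.1 t).Nonempty) {δ : ℝ}
    (hδ : 0 < δ) : ∃ v ∈ botS E L0.1 t, sInf (sec L0.1 t) - δ < v := by
  set T := sInf (sec L0.1 t) with hT
  have hc := isCompact_sec (isCompact_cmp hE L0) t
  have hTm : (⟨t, T⟩ : ℂ) ∈ L0.1 := hc.sInf_mem ht
  by_contra hcon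
  push Not at hcon
  have h1 : (fun v : ℝ => (⟨t, v⟩ : ℂ)) '' Icc (T - δ / 2) T ⊆ E := by
    rintro _ ⟨v, hv, rfl⟩
    rcases eq_or_lt_of_le hv.2 with h | h
    · rw [h]; exact L0.subset hTm
    · by_contra hvE
      have := hcon v ((mem_botS_iff (isCompact_cmp hE L0) ht).2 ⟨hvE, h⟩)
      linarith [hv.1]
  have h2 := cmp_abs L0 ((isPreconnected_Icc.image _ (continuous_mk_right t).continuousOn)) h1 hTm
    ⟨T, ⟨by linarith, le_rfl⟩, rfl⟩
  have h3 : T - δ / 2 ∈ sec L0.1 t := h2 ⟨T - δ / 2, ⟨le_rfl, by linarith⟩, rfl⟩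
  have := csInf_le hc.bddBelow h3
  linarith

theorem topF_neBot (hE : IsCompact E) (L0 : Cmp E) {t : ℝ} (ht : (sec L0.1 t).Nonempty) :
    (topF E L0.1 t).NeBot := by
  refine mem_closure_iff_nhdsWithin_neBot.1 (Metric.mem_closure_iff.2 fun δ hδ => ?_)
  obtain ⟨v, hv, h⟩ := exists_top hE L0 ht hδ
  refine ⟨v, hv, ?_⟩
  have h1 := ((mem_topS_iff (isCompact_cmp hE L0) ht).1 hv).2
  rw [Real.dist_eq, abs_of_nonpos (by linarith)]
  linarith

theorem botF_neBot (hE : IsCompact E) (L0 : Cmp E) {t : ℝ} (ht : (sec L0.1 t).Nonempty) :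
    (botF E L0.1 t).NeBot := by
  refine mem_closure_iff_nhdsWithin_neBot.1 (Metric.mem_closure_iff.2 fun δ hδ => ?_)
  obtain ⟨v, hv, h⟩ := exists_bot hE L0 ht hδ
  refine ⟨v, hv, ?_⟩
  have h1 := ((mem_botS_iff (isCompact_cmp hE L0) ht).1 hv).2
  rw [Real.dist_eq, abs_of_nonneg (by linarith)]
  linarith

/-- the end limits exist -/
theorem ends (hE : IsCompact E) (L0 : Cmp E) (hv : BVL E w) :
    ∀ᵐ t : ℝ, t ∈ Icc (lo L0.1) (hi L0.1) →
      (∃ c, Tendsto (fun v => w ⟨t, v⟩) (topF E L0.1 t) (𝓝 c)) ∧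
      ∃ c, Tendsto (fun v => w ⟨t, v⟩) (botF E L0.1 t) (𝓝 c) := by
  obtain ⟨R, hR⟩ : ∃ R, E ⊆ ball (0:ℂ) R := by
    obtain ⟨R, hR⟩ := hE.isBounded.subset_ball (0:ℂ)
    exact ⟨R, hR⟩
  obtain ⟨M, -, hM⟩ := hv R
  filter_upwards [hM] with t ht htI
  have hLc := isCompact_cmp hE L0
  have hne := sec_ne hE L0 htI
  have hc := isCompact_sec hLc t
  have hin : ∀ v ∈ sec L0.1 t, |t| ≤ R ∧ |v| < R := fun v hv => by
    have h1 := hR (L0.subset hv)
    rw [mem_ball_zero_iff] at h1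
    exact ⟨(Complex.abs_re_le_norm (⟨t, v⟩ : ℂ)).trans h1.le,
      (Complex.abs_im_le_norm (⟨t, v⟩ : ℂ)).trans_lt h1⟩
  set A := {v : ℝ | (⟨t, v⟩ : ℂ) ∉ E ∧ |v| ≤ R} with hA
  have hbv : BoundedVariationOn (fun v => w ⟨t, v⟩) A :=
    ne_top_of_le_ne_top ENNReal.ofReal_ne_top (ht (hin _ (hc.sSup_mem hne)).1)
  constructor
  · have e1 : topF E L0.1 t = 𝓝[A ∩ Ioi (sSup (sec L0.1 t))] sSup (sec L0.1 t) := by
      have hT := (hin _ (hc.sSup_mem hne)).2
      rw [topF, nhdsWithin_eq_nhdsWithin (mem_Ioo.2 (abs_lt.1 hT)) isOpen_Ioo]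
      ext v
      simp only [mem_inter_iff, mem_topS_iff hLc hne, hA, mem_ofPred_eq, mem_Ioi, mem_Ioo]
      constructor
      · rintro ⟨⟨h1, h2⟩, h3, h4⟩
        exact ⟨⟨⟨h1, abs_le.2 ⟨h3.le, h4.le⟩⟩, h2⟩, h3, h4⟩
      · rintro ⟨⟨⟨h1, _⟩, h2⟩, h3, h4⟩
        exact ⟨⟨h1, h2⟩, h3, h4⟩
    have hn := topF_neBot hE L0 hne
    rw [e1] at hn ⊢
    exact exists_lim hbv hn
  · have e1 : botF E L0.1 t = 𝓝[A ∩ Iio (sInf (sec L0.1 t))] sInf (sec L0.1 t) := by
      have hT := (hin _ (hc.sInf_mem hne)).2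
      rw [botF, nhdsWithin_eq_nhdsWithin (mem_Ioo.2 (abs_lt.1 hT)) isOpen_Ioo]
      ext v
      simp only [mem_inter_iff, mem_botS_iff hLc hne, hA, mem_ofPred_eq, mem_Iio, mem_Ioo]
      constructor
      · rintro ⟨⟨h1, h2⟩, h3, h4⟩
        exact ⟨⟨⟨h1, abs_le.2 ⟨h3.le, h4.le⟩⟩, h2⟩, h3, h4⟩
      · rintro ⟨⟨⟨h1, _⟩, h2⟩, h3, h4⟩
        exact ⟨⟨h1, h2⟩, h3, h4⟩
    have hn := botF_neBot hE L0 hne
    rw [e1] at hn ⊢
    exact exists_lim' hbv hn

/-! ### integrability -/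

lemma gy_cont {χ : ℂ → ℝ} (hχ : LCE E χ) : Continuous (gy χ) :=
  (hχ.smooth.continuous_fderiv (by simp)).clm_apply continuous_const

lemma gy_off {χ : ℂ → ℝ} {z : ℂ} (h : z ∉ tsupport χ) : gy χ z = 0 := by
  have h1 : χ =ᶠ[𝓝 z] 0 := notMem_tsupport_iff_eventuallyEq.1 h
  rw [gy, h1.fderiv_eq]
  simp

lemma integrable_ind (hE : IsCompact E) {S : Set ℂ} (hS : MeasurableSet S) (hSE : S ⊆ Eᶜ)
    (hw : ContinuousOn w Eᶜ) {R B : ℝ} (hB : ∀ z ∉ E, ‖z‖ ≤ R → |w z| ≤ B) {χ : ℂ → ℝ}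
    (hχ : LCE E χ) (hR : tsupport χ ⊆ ball 0 R) (hG : Measurable G) (hC : ∀ t, |G t| ≤ C) :
    Integrable (S.indicator fun z => G z.re * (w z * gy χ z)) := by
  have hC0 : 0 ≤ C := (abs_nonneg _).trans (hC 0)
  have hgs : HasCompactSupport (gy χ) := hχ.supp.fderiv_apply (𝕜 := ℝ) Complex.I
  have hgi : Integrable (gy χ) := (gy_cont hχ).integrable_of_hasCompactSupport hgs
  have hm : AEStronglyMeasurable (fun z => G z.re * (w z * gy χ z)) (volume.restrict S) := by
    refine AEStronglyMeasurable.mul ?_ (AEStronglyMeasurable.mul ?_ ?_)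
    · exact (hG.comp Complex.measurable_re).aestronglyMeasurable
    · exact (hw.aestronglyMeasurable hE.measurableSet.compl).mono_measure
        (Measure.restrict_mono hSE le_rfl)
    · exact (gy_cont hχ).aestronglyMeasurable
  rw [integrable_indicator_iff hS]
  refine Integrable.mono' ((hgi.norm.const_mul (C * |B|)).restrict (s := S)) hm ?_
  rw [ae_restrict_iff' hS]
  refine ae_of_all _ fun z hz => ?_
  by_cases hzs : z ∈ tsupport χ
  · have h1 : |w z| ≤ |B| := (hB z (hSE hz) (by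
      have := hR hzs
      rw [mem_ball_zero_iff] at this
      exact this.le)).trans (le_abs_self B)
    rw [Real.norm_eq_abs, Real.norm_eq_abs, abs_mul, abs_mul]
    calc |G z.re| * (|w z| * |gy χ z|) ≤ C * (|B| * |gy χ z|) := by
          refine mul_le_mul (hC _) ?_ (by positivity) hC0
          exact mul_le_mul_of_nonneg_right h1 (abs_nonneg _)
      _ = C * |B| * |gy χ z| := by ring
  · rw [gy_off hzs]
    simp

/-! ### the upper half -/

theorem line_top (hE : IsCompact E) (L0 : Cmp E) (hw : ContinuousOn w Eᶜ)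
    (hb : ∀ R, ∃ M, ∀ z ∉ E, ‖z‖ ≤ R → |w z| ≤ M) (hv : BVL E w) (hχ : Cut E L0.1 χ)
    (hG : Measurable G) (hC : ∀ t, |G t| ≤ C) {wp : ℝ → ℝ}
    (hp : ∀ᵐ t : ℝ, t ∈ Icc (lo L0.1) (hi L0.1) →
      Tendsto (fun v => w ⟨t, v⟩) (topF E L0.1 t) (𝓝 (wp t))) :
    Tendsto (fun n => ∫ z in {z | z ∉ E ∧ z.re ∈ Icc (lo L0.1) (hi L0.1) ∧ z ∈ above L0.1},
      G z.re * (w z * gy (χ n) z)) atTop
      (𝓝 (-∫ t in (lo L0.1)..(hi L0.1), G t * wp t)) := by
  have hLc := isCompact_cmp hE L0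
  have hLE : L0.1 ⊆ E := fun z hz => L0.subset hz
  have hC0 : 0 ≤ C := (abs_nonneg _).trans (hC 0)
  obtain ⟨R, hR⟩ : ∃ R, E ⊆ ball (0:ℂ) R := hE.isBounded.subset_ball (0:ℂ)
  have hR0 : 0 < R := by
    obtain ⟨z, hz⟩ := cmp_ne L0
    have := hR (hLE hz)
    rw [mem_ball_zero_iff] at this
    exact (norm_nonneg _).trans_lt this
  obtain ⟨B, hB⟩ := hb (2 * R)
  obtain ⟨M, hMi, hM⟩ := hv R
  set I := Icc (lo L0.1) (hi L0.1) with hI
  set S : Set ℂ := {z | z ∉ E ∧ z.re ∈ I ∧ z ∈ above L0.1} with hS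
  have hSm : MeasurableSet S := by
    refine hE.measurableSet.compl.inter (MeasurableSet.inter ?_ ?_)
    · exact Complex.measurable_re measurableSet_Icc
    · exact (isOpen_above hLc).measurableSet
  have hSE : S ⊆ Eᶜ := fun z hz => hz.1
  have hlohi : lo L0.1 ≤ hi L0.1 := lo_le_hi hLc (cmp_ne L0)
  have hev : ∀ᶠ n in atTop, tsupport (χ n) ⊆ ball 0 R :=
    hχ.shrink _ isOpen_ball (hLE.trans hR)
  -- geometry of a line
  have hin : ∀ t, ∀ v ∈ sec L0.1 t, |t| ≤ R ∧ |v| < R := fun t v hv => by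
    have h1 := hR (L0.subset hv)
    rw [mem_ball_zero_iff] at h1
    exact ⟨(Complex.abs_re_le_norm (⟨t, v⟩ : ℂ)).trans h1.le,
      (Complex.abs_im_le_norm (⟨t, v⟩ : ℂ)).trans_lt h1⟩
  -- inner integral
  have hinner : ∀ n t, ∫ v : ℝ, (S.indicator fun z => G z.re * (w z * gy (χ n) z)) ⟨t, v⟩ =
      I.indicator (fun t => G t *
        ∫ v, (topS E L0.1 t).indicator (fun v => w ⟨t, v⟩ * gy (χ n) ⟨t, v⟩) v) t := by
    intro n t
    by_cases ht : t ∈ I
    · rw [indicator_of_mem ht, ← integral_const_mul]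
      congr 1
      funext v
      by_cases hv : v ∈ topS E L0.1 t
      · have : (⟨t, v⟩ : ℂ) ∈ S := ⟨hv.1, ht, hv.2⟩
        rw [indicator_of_mem this, indicator_of_mem hv]
      · have : (⟨t, v⟩ : ℂ) ∉ S := fun h => hv ⟨h.1, h.2.2⟩
        rw [indicator_of_notMem this, indicator_of_notMem hv, mul_zero]
    · rw [indicator_of_notMem ht]
      rw [← integral_zero ℝ ℝ (μ := volume)]
      congr 1
      funext v
      have : (⟨t, v⟩ : ℂ) ∉ S := fun h => ht h.2.1
      rw [indicator_of_notMem this]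
  have hlim : (-∫ t in (lo L0.1)..(hi L0.1), G t * wp t) =
      ∫ t, I.indicator (fun t => G t * (-wp t)) t := by
    rw [integral_indicator measurableSet_Icc, intervalIntegral.integral_of_le hlohi,
      integral_Icc_eq_integral_Ioc, ← integral_neg]
    congr 1
    funext t
    ring
  rw [hlim]
  have hint : ∀ᶠ n in atTop, Integrable (S.indicator fun z => G z.re * (w z * gy (χ n) z)) := by
    filter_upwards [hev] with n hn
    exact integrable_ind hE hSm hSE hw (fun z hz h => hB z hz (by linarith)) (hχ.lce n) hn hG hC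
  have hcongr : (fun n => ∫ t, I.indicator (fun t => G t *
        ∫ v, (topS E L0.1 t).indicator (fun v => w ⟨t, v⟩ * gy (χ n) ⟨t, v⟩) v) t) =ᶠ[atTop]
      fun n => ∫ z in S, G z.re * (w z * gy (χ n) z) := by
    filter_upwards [hint] with n hn
    rw [← integral_indicator hSm, fub hn]
    exact integral_congr_ae (ae_of_all _ fun t => (hinner n t).symm)
  refine Tendsto.congr' hcongr ?_
  refine tendsto_integral_filter_of_dominated_convergence
    (I.indicator fun t => C * (|B| + 4 * |M t|)) ?_ ?_ ?_ ?_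
  · filter_upwards [hint] with n hn
    exact (fub_int hn).aestronglyMeasurable.congr (ae_of_all _ fun t => hinner n t)
  · filter_upwards [hev] with n hn
    filter_upwards [hM, hp] with t hMt hpt
    by_cases ht : t ∈ I
    · rw [indicator_of_mem ht, indicator_of_mem ht, Real.norm_eq_abs, abs_mul]
      have hne := sec_ne hE L0 ht
      have hc := isCompact_sec hLc t
      have hTm := hc.sSup_mem hne
      obtain ⟨htR, hTR⟩ := hin t _ hTm
      set A : Set ℝ := {v | (⟨t, v⟩ : ℂ) ∉ E ∧ |v| ≤ R} ∩ Ioo (sSup (sec L0.1 t)) R with hA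
      have hle : eVariationOn (fun v => w ⟨t, v⟩) A ≤ ENNReal.ofReal (M t) :=
        (eVariationOn.mono _ inter_subset_left).trans (hMt htR)
      have hbv : BoundedVariationOn (fun v => w ⟨t, v⟩) A :=
        ne_top_of_le_ne_top ENNReal.ofReal_ne_top hle
      have hAF : A ∈ topF E L0.1 t := by
        rw [topF, mem_nhdsWithin]
        refine ⟨Ioo (-R) R, isOpen_Ioo, abs_lt.1 hTR, fun v hv => ?_⟩
        have h5 := (mem_topS_iff hLc hne).1 hv.2
        exact ⟨⟨h5.1, abs_le.2 ⟨hv.1.1.le, hv.1.2.le⟩⟩, h5.2, hv.1.2⟩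
      have := topF_neBot hE L0 hne
      have hlc : ∀ v ∈ A, |w ⟨t, v⟩ - wp t| ≤ (eVariationOn (fun v => w ⟨t, v⟩) A).toReal :=
        fun v hv => lim_close hbv hAF (hpt ht) hv
      have h1 := top_slice (hχ.lce n) (hχ.mem n) hLc hLE (hχ.one n) hne (b := R) (R := R)
        (c := wp t) (abs_lt.1 hTR).2.le (fun v hv hs => by
          have h3 := hn hs
          rw [mem_ball_zero_iff] at h3
          have h4 := (Complex.abs_im_le_norm (⟨t, v⟩ : ℂ)).trans_lt h3
          exact absurd ((le_abs_self v).trans_lt h4) (not_lt.2 hv)) hn hA hbv hlc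
      have h2 : (eVariationOn (fun v => w ⟨t, v⟩) A).toReal ≤ |M t| :=
        ENNReal.toReal_le_of_le_ofReal (abs_nonneg _)
          (hle.trans (ENNReal.ofReal_le_ofReal (le_abs_self _)))
      have h3 : |wp t| ≤ |B| := by
        refine le_of_tendsto (hpt ht).abs ?_
        filter_upwards [hAF] with v hv
        refine (hB _ hv.1.1 ?_).trans (le_abs_self B)
        refine (Complex.norm_le_abs_re_add_abs_im _).trans ?_
        have h7 : |v| ≤ R := hv.1.2
        change |t| + |v| ≤ 2 * R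
        linarith
      have h4 := abs_le.1 h1
      have h5 : |∫ v, (topS E L0.1 t).indicator (fun v => w ⟨t, v⟩ * gy (χ n) ⟨t, v⟩) v| ≤
          |B| + 4 * |M t| := by
        have h6 := abs_le.1 h3
        rw [abs_le]
        constructor <;> linarith [h4.1, h4.2, h6.1, h6.2]
      exact mul_le_mul (hC t) h5 (abs_nonneg _) hC0
    · rw [indicator_of_notMem ht, indicator_of_notMem ht, norm_zero]
  · refine IntegrableOn.integrable_indicator ?_ measurableSet_Icc
    refine Integrable.const_mul ?_ _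
    exact (integrable_const _).add ((hMi.abs.const_mul 4).restrict)
  · filter_upwards [hM, hp] with t hMt hpt
    by_cases ht : t ∈ I
    · simp only [indicator_of_mem ht]
      refine Tendsto.const_mul _ ?_
      have hne := sec_ne hE L0 ht
      have hc := isCompact_sec hLc t
      have hTm := hc.sSup_mem hne
      obtain ⟨htR, hTR⟩ := hin t _ hTm
      have hbv0 : BoundedVariationOn (fun v => w ⟨t, v⟩) {v | (⟨t, v⟩ : ℂ) ∉ E ∧ |v| ≤ R} :=
        ne_top_of_le_ne_top ENNReal.ofReal_ne_top (hMt htR)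
      rw [Metric.tendsto_nhds]
      intro ε hε
      obtain ⟨δ, hδ, hδv⟩ := tail_real hbv0 (sSup (sec L0.1 t)) (show 0 < ε / 8 by positivity)
      set A : Set ℝ := {v | (⟨t, v⟩ : ℂ) ∉ E ∧ |v| ≤ R} ∩
        Ioo (sSup (sec L0.1 t)) (sSup (sec L0.1 t) + δ) with hA
      have hbv : BoundedVariationOn (fun v => w ⟨t, v⟩) A := hbv0.mono inter_subset_left
      have hAF : A ∈ topF E L0.1 t := by
        rw [topF, mem_nhdsWithin]
        refine ⟨Ioo (-R) R ∩ Iio (sSup (sec L0.1 t) + δ), isOpen_Ioo.inter isOpen_Iio,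
          ⟨abs_lt.1 hTR, by simpa using hδ⟩, fun v hv => ?_⟩
        have h5 := (mem_topS_iff hLc hne).1 hv.2
        exact ⟨⟨h5.1, abs_le.2 ⟨hv.1.1.1.le, hv.1.1.2.le⟩⟩, h5.2, hv.1.2⟩
      have := topF_neBot hE L0 hne
      have hlc : ∀ v ∈ A, |w ⟨t, v⟩ - wp t| ≤ (eVariationOn (fun v => w ⟨t, v⟩) A).toReal :=
        fun v hv => lim_close hbv hAF (hpt ht) hv
      -- supports avoid the upper ray
      have hN : ∀ᶠ n in atTop, tsupport (χ n) ⊆
          {z : ℂ | z.re = t ∧ sSup (sec L0.1 t) + δ ≤ z.im}ᶜ := by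
        refine hχ.shrink _ ?_ ?_
        · rw [isOpen_compl_iff]
          exact (isClosed_eq Complex.continuous_re continuous_const).inter
            (isClosed_le continuous_const Complex.continuous_im)
        · rintro z hz ⟨h1, h2⟩
          have h3 : z.im ∈ sec L0.1 t := by
            rw [← h1]; exact mem_sec_re.2 hz
          have := le_csSup hc.bddAbove h3
          linarith
      filter_upwards [hev, hN] with n hn hnN
      have h1 := top_slice (hχ.lce n) (hχ.mem n) hLc hLE (hχ.one n) hne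
        (b := sSup (sec L0.1 t) + δ) (R := R) (c := wp t) (by linarith) (fun v hv hs =>
          hnN hs ⟨rfl, hv⟩) hn hA hbv hlc
      rw [Real.dist_eq, sub_neg_eq_add]
      refine h1.trans_lt ?_
      linarith
    · simp only [indicator_of_notMem ht]
      exact tendsto_const_nhds

end

end Crest.Agent.R105.Lnl_411
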