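import Mathlib

/-!
# Row 105, S0138, node E13 (ATN), planar lemma (helper948, post 09:50Z)

* `logs_of_far`, `logs_of_conn` : if a preconnected unbounded set `C` misses the compact set `Z` and
  `p ∈ C` then `z - p` has a continuous logarithm on `Z`
* **`no_loop`** : a loop which passes above `p` and below `p` on the line `re = t` and otherwise
  consists of a part in `{t ≤ re}` and a part in `{re ≤ t}` separates `p` from infinity
-/

set_option autoImplicit false

open Set Filter Topology Metric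

namespace Crest.Agent.R105.Lop_948

/-- `z - p` has a continuous logarithm on `Z` -/
def HasLog (Z : Set ℂ) (p : ℂ) : Prop :=
  ∃ l : ℂ → ℂ, ContinuousOn l Z ∧ ∀ z ∈ Z, Complex.exp (l z) = z - p

theorem HasLog.move {Z : Set ℂ} {p q : ℂ} (h : HasLog Z p)
    (hpq : ∀ z ∈ Z, ‖q - p‖ < ‖z - p‖) : HasLog Z q := by
  obtain ⟨l, hl, he⟩ := h
  -- `(z - q) / (z - p) = 1 - (q - p) / (z - p)`
  have hs : ∀ z ∈ Z, (1 - (q - p) / (z - p)) ∈ Complex.slitPlane := by
    intro z hz
    have h1 : 0 < ‖z - p‖ := (norm_nonneg _).trans_lt (hpq z hz)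
    have h2 : ‖-((q - p) / (z - p))‖ < 1 := by
      rw [norm_neg, norm_div, div_lt_one h1]; exact hpq z hz
    rw [sub_eq_add_neg]
    exact Complex.mem_slitPlane_of_norm_lt_one h2
  refine ⟨fun z => l z + Complex.log (1 - (q - p) / (z - p)), ?_, ?_⟩
  · refine hl.add ?_
    intro z hz
    have h0 : z - p ≠ 0 := by
      have h1 : 0 < ‖z - p‖ := (norm_nonneg _).trans_lt (hpq z hz)
      exact norm_pos_iff.1 h1
    have hc : ContinuousAt (fun z => 1 - (q - p) / (z - p)) z := by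
      refine continuousAt_const.sub (continuousAt_const.div (by fun_prop) h0)
    exact (hc.clog (hs z hz)).continuousWithinAt
  · intro z hz
    have h1 : 0 < ‖z - p‖ := (norm_nonneg _).trans_lt (hpq z hz)
    have h0 : z - p ≠ 0 := norm_pos_iff.1 h1
    rw [Complex.exp_add, he z hz, Complex.exp_log (Complex.slitPlane_ne_zero (hs z hz))]
    field_simp
    ring

/-- far points -/
theorem hasLog_far {Z : Set ℂ} {R : ℝ} (hR : ∀ z ∈ Z, ‖z‖ ≤ R) {q : ℂ} (hq : R < ‖q‖) :
    HasLog Z q := by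
  rcases Z.eq_empty_or_nonempty with h | ⟨z₀, hz₀⟩
  · subst h
    exact ⟨fun _ => 0, continuousOn_empty _, fun z hz => hz.elim⟩
  have hq0 : q ≠ 0 := by
    rintro rfl
    have := hR z₀ hz₀
    rw [norm_zero] at hq
    linarith [norm_nonneg z₀]
  have hs : ∀ z ∈ Z, (1 - z / q) ∈ Complex.slitPlane := by
    intro z hz
    have h1 : 0 < ‖q‖ := norm_pos_iff.2 hq0
    have h2 : ‖-(z / q)‖ < 1 := by
      rw [norm_neg, norm_div, div_lt_one h1]; exact (hR z hz).trans_lt hq
    rw [sub_eq_add_neg]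
    exact Complex.mem_slitPlane_of_norm_lt_one h2
  refine ⟨fun z => Complex.log (-q) + Complex.log (1 - z / q), ?_, ?_⟩
  · refine continuousOn_const.add ?_
    intro z hz
    have hc : ContinuousAt (fun z => 1 - z / q) z := by fun_prop
    exact (hc.clog (hs z hz)).continuousWithinAt
  · intro z hz
    rw [Complex.exp_add, Complex.exp_log (neg_ne_zero.2 hq0),
      Complex.exp_log (Complex.slitPlane_ne_zero (hs z hz))]
    field_simp
    ring

/-- **logarithms along a connected set** -/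
theorem hasLog_of_conn {Z C : Set ℂ} (hZ : IsCompact Z) (hC : IsPreconnected C)
    (hd : Disjoint C Z) {p q : ℂ} (hp : p ∈ C) (hq : q ∈ C) (h : HasLog Z q) : HasLog Z p := by
  -- the two relatively open sets
  have key : ∀ w ∈ C, ∃ δ > 0, ∀ v, dist v w < δ → (HasLog Z v ↔ HasLog Z w) := by
    intro w hw
    have hwZ : w ∉ Z := disjoint_left.1 hd hw
    obtain ⟨δ, hδ, hb⟩ := Metric.isOpen_iff.1 hZ.isClosed.isOpen_compl w hwZ
    refine ⟨δ / 2, by positivity, fun v hv => ?_⟩
    have hzw : ∀ z ∈ Z, δ ≤ ‖z - w‖ := by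
      intro z hz
      by_contra hcon
      push Not at hcon
      exact hb (by rwa [mem_ball, dist_eq_norm]) hz
    have hvw : ‖v - w‖ < δ / 2 := by rwa [dist_eq_norm] at hv
    constructor
    · intro hl
      refine hl.move fun z hz => ?_
      have h1 := hzw z hz
      have h2 : ‖z - w‖ ≤ ‖z - v‖ + ‖v - w‖ := by
        have := norm_add_le (z - v) (v - w)
        simpa using this
      rw [norm_sub_rev w v]
      linarith
    · intro hl
      refine hl.move fun z hz => ?_
      have h1 := hzw z hz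
      linarith
  have ho1 : IsOpen {v : ℂ | ∃ w ∈ C, HasLog Z w ∧ ∃ δ > 0, dist v w < δ ∧
      ∀ v', dist v' w < δ → (HasLog Z v' ↔ HasLog Z w)} := by
    rw [isOpen_iff_mem_nhds]
    rintro v ⟨w, hw, hl, δ, hδ, hv, h'⟩
    filter_upwards [(isOpen_ball (x := w) (ε := δ)).mem_nhds hv] with v' hv'
    exact ⟨w, hw, hl, δ, hδ, hv', h'⟩
  have ho2 : IsOpen {v : ℂ | ∃ w ∈ C, ¬ HasLog Z w ∧ ∃ δ > 0, dist v w < δ ∧
      ∀ v', dist v' w < δ → (HasLog Z v' ↔ HasLog Z w)} := by
    rw [isOpen_iff_mem_nhds]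
    rintro v ⟨w, hw, hl, δ, hδ, hv, h'⟩
    filter_upwards [(isOpen_ball (x := w) (ε := δ)).mem_nhds hv] with v' hv'
    exact ⟨w, hw, hl, δ, hδ, hv', h'⟩
  by_contra hcon
  obtain ⟨v, -, ⟨w, hw, hl, δ, hδ, hv, h'⟩, w', hw', hl', δ', hδ', hv', h''⟩ := hC _ _ ho1 ho2
    (fun w hw => by
      obtain ⟨δ, hδ, h'⟩ := key w hw
      by_cases hl : HasLog Z w
      · exact Or.inl ⟨w, hw, hl, δ, hδ, by simpa using hδ, h'⟩
      · exact Or.inr ⟨w, hw, hl, δ, hδ, by simpa using hδ, h'⟩)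
    (by
      obtain ⟨δ, hδ, h'⟩ := key q hq
      exact ⟨q, hq, q, hq, h, δ, hδ, by simpa using hδ, h'⟩)
    (by
      obtain ⟨δ, hδ, h'⟩ := key p hp
      exact ⟨p, hp, p, hp, hcon, δ, hδ, by simpa using hδ, h'⟩)
  exact hl' ((h'' v hv').1 ((h' v hv).2 hl))

/-- two continuous logarithms on a preconnected set differ by a constant -/
theorem log_const {S : Set ℂ} (hS : IsPreconnected S) {l m : ℂ → ℂ} (hl : ContinuousOn l S)
    (hm : ContinuousOn m S) (he : ∀ z ∈ S, Complex.exp (l z) = Complex.exp (m z)) {a b : ℂ}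
    (ha : a ∈ S) (hb : b ∈ S) : l a - m a = l b - m b := by
  have hi : ∀ z ∈ S, ∃ n : ℤ, l z = m z + n * (2 * Real.pi * Complex.I) := fun z hz =>
    Complex.exp_eq_exp_iff_exists_int.1 (he z hz)
  have hc : ContinuousOn (fun z => (l z - m z).im) S :=
    Complex.continuous_im.comp_continuousOn (hl.sub hm)
  have him : ∀ z ∈ S, ∃ n : ℤ, (l z - m z).im = n * (2 * Real.pi) ∧
      l z - m z = n * (2 * Real.pi * Complex.I) := by
    intro z hz
    obtain ⟨n, hn⟩ := hi z hz
    refine ⟨n, ?_, by rw [hn]; ring⟩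
    rw [hn]
    simp
  obtain ⟨n, hn1, hn2⟩ := him a ha
  obtain ⟨k, hk1, hk2⟩ := him b hb
  by_cases hnk : n = k
  · rw [hn2, hk2, hnk]
  exfalso
  have hpi := Real.pi_pos
  -- intermediate value
  have key : ∀ a b : ℂ, a ∈ S → b ∈ S → ∀ n k : ℤ, n < k → (l a - m a).im = n * (2 * Real.pi) →
      (l b - m b).im = k * (2 * Real.pi) → False := by
    intro a b ha hb n k hnk h1 h2
    have hk : (n : ℝ) + 1 ≤ k := by exact_mod_cast hnk
    have hmem : ((n : ℝ) + 1 / 2) * (2 * Real.pi) ∈ Icc ((l a - m a).im) ((l b - m b).im) := by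
      rw [h1, h2]
      constructor
      · nlinarith
      · nlinarith
    obtain ⟨c, hc1, hc2⟩ := hS.intermediate_value ha hb hc hmem
    obtain ⟨j, hj, -⟩ := him c hc1
    simp only at hc2
    rw [hj] at hc2
    have h3 : (j : ℝ) = n + 1 / 2 := by
      have : (2 * Real.pi) ≠ 0 := by positivity
      exact mul_right_cancel₀ this hc2
    have h4 : (2 : ℝ) * j = 2 * n + 1 := by linarith
    have h5 : (2 : ℤ) * j = 2 * n + 1 := by exact_mod_cast h4
    omega
  rcases lt_or_gt_of_ne hnk with h | h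
  · exact key a b ha hb n k h hn1 hk1
  · exact key b a hb ha k n h hk1 hn1

/-- **no loop** -/
theorem no_loop {t e₀ e₁ e₂ : ℝ} (h20 : e₂ < e₀) (h01 : e₀ < e₁) {Zp Zm C : Set ℂ}
    (hZp : IsCompact Zp) (hZm : IsCompact Zm) (hpc : IsPreconnected Zp) (hmc : IsPreconnected Zm)
    (hpt : ∀ z ∈ Zp, t ≤ z.re) (hmt : ∀ z ∈ Zm, z.re ≤ t)
    (hp1 : (⟨t, e₁⟩ : ℂ) ∈ Zp) (hp2 : (⟨t, e₂⟩ : ℂ) ∈ Zp)
    (hm1 : (⟨t, e₁⟩ : ℂ) ∈ Zm) (hm2 : (⟨t, e₂⟩ : ℂ) ∈ Zm)
    (hC : IsPreconnected C) (hC0 : (⟨t, e₀⟩ : ℂ) ∈ C) (hCb : ¬ Bornology.IsBounded C)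
    (hdp : Disjoint C Zp) (hdm : Disjoint C Zm) : False := by
  set Z : Set ℂ := Zp ∪ Zm with hZ
  have hZc : IsCompact Z := hZp.union hZm
  have hd : Disjoint C Z := hdp.union_right hdm
  obtain ⟨R, hR⟩ := hZc.isBounded.exists_norm_le
  obtain ⟨q, hq, hqR⟩ : ∃ q ∈ C, R < ‖q‖ := by
    by_contra hcon
    push Not at hcon
    exact hCb (isBounded_iff_forall_norm_le.2 ⟨R, hcon⟩)
  set p : ℂ := ⟨t, e₀⟩ with hp
  obtain ⟨l, hl, he⟩ := hasLog_of_conn hZc hC hd hC0 hq (hasLog_far hR hqR)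
  have hne : ∀ z ∈ Z, z ≠ p := by
    rintro z hz rfl
    exact disjoint_left.1 hd hC0 hz
  -- right half plane
  have hsp : ∀ z ∈ Zp, z - p ∈ Complex.slitPlane := by
    intro z hz
    rw [Complex.mem_slitPlane_iff]
    have h1 : t ≤ z.re := hpt z hz
    by_cases h : z.re = t
    · right
      intro h2
      apply hne z (Or.inl hz)
      apply Complex.ext
      · rw [h]
      · simp only [Complex.sub_im, hp] at h2
        simp only [hp]; linarith
    · left
      have : t < z.re := lt_of_le_of_ne h1 (Ne.symm h)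
      simp only [Complex.sub_re, hp]; linarith
  have hsm : ∀ z ∈ Zm, -(z - p) ∈ Complex.slitPlane := by
    intro z hz
    rw [Complex.mem_slitPlane_iff]
    have h1 : z.re ≤ t := hmt z hz
    by_cases h : z.re = t
    · right
      intro h2
      apply hne z (Or.inr hz)
      apply Complex.ext
      · rw [h]
      · simp only [Complex.neg_im, Complex.sub_im, hp] at h2
        simp only [hp]; linarith
    · left
      have : z.re < t := lt_of_le_of_ne h1 h
      simp only [Complex.neg_re, Complex.sub_re, hp]; linarith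
  have e1 := log_const hpc (hl.mono subset_union_left)
    (m := fun z => Complex.log (z - p))
    (fun z hz => ((by fun_prop : ContinuousAt (fun z => z - p) z).clog
      (hsp z hz)).continuousWithinAt)
    (fun z hz => by rw [he z (Or.inl hz), Complex.exp_log (Complex.slitPlane_ne_zero (hsp z hz))])
    hp1 hp2
  have e2 := log_const hmc (hl.mono subset_union_right)
    (m := fun z => Complex.log (-(z - p)) + Real.pi * Complex.I)
    (fun z hz => (((by fun_prop : ContinuousAt (fun z => -(z - p)) z).clog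
      (hsm z hz)).add continuousAt_const).continuousWithinAt)
    (fun z hz => by
      rw [he z (Or.inr hz), Complex.exp_add, Complex.exp_pi_mul_I,
        Complex.exp_log (Complex.slitPlane_ne_zero (hsm z hz))]
      ring) hm1 hm2
  have a1 : (⟨t, e₁⟩ : ℂ) - p = ((e₁ - e₀ : ℝ) : ℂ) * Complex.I := by
    apply Complex.ext <;> simp [hp]
  have a2 : (⟨t, e₂⟩ : ℂ) - p = ((e₀ - e₂ : ℝ) : ℂ) * (-Complex.I) := by
    apply Complex.ext <;> simp [hp]
  have b1 : -((⟨t, e₁⟩ : ℂ) - p) = ((e₁ - e₀ : ℝ) : ℂ) * (-Complex.I) := by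
    rw [a1]; ring
  have b2 : -((⟨t, e₂⟩ : ℂ) - p) = ((e₀ - e₂ : ℝ) : ℂ) * Complex.I := by
    rw [a2]; ring
  have c1 : Complex.log (((e₁ - e₀ : ℝ) : ℂ) * Complex.I) =
      Real.log (e₁ - e₀) + Real.pi / 2 * Complex.I := by
    rw [Complex.log_ofReal_mul (by linarith) Complex.I_ne_zero, Complex.log_I]
  have c2 : Complex.log (((e₀ - e₂ : ℝ) : ℂ) * (-Complex.I)) =
      Real.log (e₀ - e₂) + -(Real.pi / 2) * Complex.I := by
    rw [Complex.log_ofReal_mul (by linarith) (neg_ne_zero.2 Complex.I_ne_zero), Complex.log_neg_I]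
  have c3 : Complex.log (((e₁ - e₀ : ℝ) : ℂ) * (-Complex.I)) =
      Real.log (e₁ - e₀) + -(Real.pi / 2) * Complex.I := by
    rw [Complex.log_ofReal_mul (by linarith) (neg_ne_zero.2 Complex.I_ne_zero), Complex.log_neg_I]
  have c4 : Complex.log (((e₀ - e₂ : ℝ) : ℂ) * Complex.I) =
      Real.log (e₀ - e₂) + Real.pi / 2 * Complex.I := by
    rw [Complex.log_ofReal_mul (by linarith) Complex.I_ne_zero, Complex.log_I]
  rw [a1, a2, c1, c2] at e1
  rw [b1, b2, c3, c4] at e2
  have e3 : (2 * Real.pi * Complex.I : ℂ) = 0 := by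
    linear_combination e2 - e1
  have h4 : (2 * Real.pi : ℝ) = 0 := by
    have := congrArg Complex.im e3
    simpa using this
  exact absurd h4 (by positivity)

end Crest.Agent.R105.Lop_948
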