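import Crest.Agent.R105.Stp2_722
import Crest.Agent.R105.CF2_363

/-!
Row 105 (Koebe), task 2230 (PP-STEP), part 3: the class (locally Lipschitz off a closed set),
the energy of the one-sided operation.
-/

set_option autoImplicit false

open Set Filter Topology Metric MeasureTheory
open scoped ENNReal NNReal

namespace Crest.Agent.R105.Stp_722

open Crest.Agent.R105.CF_363

section gen

variable {X : Type*} [NormedAddCommGroup X] [NormedSpace ℝ X]

/-- local Lipschitz constant at most `L` at every point of `U`. -/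
def LL (U : Set X) (L : ℝ) (f : X → ℝ) : Prop := ∀ x ∈ U, ∀ᶠ y in 𝓝 x, |f y - f x| ≤ L * dist y x

variable {U : Set X} {L : ℝ} {f : X → ℝ}

theorem LL.mono_set {U' : Set X} (h : LL U L f) (hU : U' ⊆ U) : LL U' L f :=
  fun x hx => h x (hU hx)

theorem LL.mono {L' : ℝ} (h : LL U L f) (hL : L ≤ L') : LL U L' f := by
  intro x hx
  filter_upwards [h x hx] with y hy
  exact hy.trans (by gcongr)

theorem _root_.Crest.Agent.R105.CF_363.SL.LL (h : SL U L f) (hU : IsOpen U) : LL U L f := by
  intro x hx
  obtain ⟨r, hr, hrU⟩ := Metric.isOpen_iff.1 hU x hx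
  filter_upwards [ball_mem_nhds x hr] with y hy
  exact h y x (((convex_ball x r).segment_subset hy (mem_ball_self hr)).trans hrU)

theorem LL.continuousAt (h : LL U L f) {x : X} (hx : x ∈ U) : ContinuousAt f x := by
  rw [ContinuousAt, tendsto_iff_dist_tendsto_zero]
  have h1 : Tendsto (fun y => L * dist y x) (𝓝 x) (𝓝 0) := by
    have : Tendsto (fun y => dist y x) (𝓝 x) (𝓝 0) := tendsto_iff_dist_tendsto_zero.1 tendsto_id
    simpa using this.const_mul L
  exact squeeze_zero' (Eventually.of_forall fun y => dist_nonneg) (h x hx) h1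

theorem LL.SL (h : LL U L f) (hL : 0 ≤ L) : SL U L f := by
  intro p q hpq
  set D := L * dist p q with hD
  have hD0 : 0 ≤ D := mul_nonneg hL dist_nonneg
  let γ : ℝ → X := fun t => AffineMap.lineMap p q t
  have hγc : Continuous γ := AffineMap.lineMap_continuous
  have hγU : ∀ t ∈ Icc (0:ℝ) 1, γ t ∈ U := by
    intro t ht
    apply hpq
    rw [segment_eq_image_lineMap]
    exact ⟨t, ht, rfl⟩
  have hdist : ∀ s t, dist (γ s) (γ t) = |s - t| * dist p q := by
    intro s t
    simp only [γ]
    rw [dist_lineMap_lineMap, Real.dist_eq]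
  set g : ℝ → ℝ := fun t => f (γ t) with hg
  have hloc : ∀ t ∈ Icc (0:ℝ) 1, ∀ᶠ s in 𝓝 t, |g s - g t| ≤ D * |s - t| := by
    intro t ht
    filter_upwards [hγc.continuousAt.eventually (h (γ t) (hγU t ht))] with s hs
    rw [hdist] at hs
    calc |g s - g t| ≤ _ := hs
      _ = D * |s - t| := by rw [hD]; ring
  have hcont : ContinuousOn g (Icc 0 1) := fun t ht =>
    ((h.continuousAt (hγU t ht)).comp hγc.continuousAt).continuousWithinAt
  let S : Set ℝ := {t | |g t - g 0| ≤ D * t}
  have hSc : IsClosed (S ∩ Icc 0 1) := by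
    have : S ∩ Icc 0 1 = Icc (0:ℝ) 1 ∩ (fun t => D * t - |g t - g 0|) ⁻¹' (Ici 0) := by
      ext t; simp only [S, mem_inter_iff, mem_ofPred_eq, mem_preimage, mem_Ici, sub_nonneg]
      tauto
    rw [this]
    apply ContinuousOn.preimage_isClosed_of_isClosed _ isClosed_Icc isClosed_Ici
    exact (continuousOn_const.mul continuousOn_id).sub (hcont.sub continuousOn_const).abs
  have h0S : (0:ℝ) ∈ S := by simp [S]
  have key := hSc.Icc_subset_of_forall_mem_nhdsWithin (a := 0) (b := 1) h0S (by
    rintro t ⟨htS, ht⟩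
    have h1 : ∀ᶠ s in 𝓝[>] t, |g s - g t| ≤ D * |s - t| :=
      (hloc t ⟨ht.1, ht.2.le⟩).filter_mono nhdsWithin_le_nhds
    filter_upwards [h1, self_mem_nhdsWithin] with s hs hst
    rw [mem_Ioi] at hst
    simp only [S, mem_ofPred_eq] at htS ⊢
    have h2 : |g s - g 0| ≤ |g s - g t| + |g t - g 0| := abs_sub_le _ _ _
    rw [abs_of_pos (by linarith : (0:ℝ) < s - t)] at hs
    nlinarith)
  have h1 := key (show (1:ℝ) ∈ Icc (0:ℝ) 1 by simp)
  simp only [S, mem_ofPred_eq, mul_one, hg] at h1
  have e1 : γ 1 = q := by simp [γ]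
  have e0 : γ 0 = p := by simp [γ]
  rw [e1, e0] at h1
  rw [abs_sub_comm]
  exact h1

/-- the operation preserves the class. -/
theorem LL.op {h : X → ℝ} {B τ Lz A H : ℝ} {z c χ : X → ℝ} {C : Set X} (hτ : 0 < τ)
    (hH : ∀ x y, |h x - h y| ≤ H * dist x y) (hχ : LL U L χ) (hLz0 : 0 ≤ Lz) (hH0 : 0 ≤ H)
    (hz : LL (U ∩ {x | h x < B}) Lz z) (hz01 : ∀ x, 0 ≤ z x ∧ z x ≤ 1) (hC : IsClosed C)
    (hz0 : ∀ x ∉ C, z x = 0) (hc : ∀ x ∈ C, ∀ᶠ y in 𝓝 x, c y = c x)
    (hA : ∀ x, |c x - χ x| ≤ A) :
    LL U (L + (H / τ + Lz) * A) (op h B τ z c χ) := by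
  have hcont : Continuous h := by
    rw [continuous_iff_continuousAt]
    intro x
    rw [ContinuousAt, tendsto_iff_dist_tendsto_zero]
    have h1 : Tendsto (fun y => H * dist y x) (𝓝 x) (𝓝 0) := by
      have : Tendsto (fun y => dist y x) (𝓝 x) (𝓝 0) := tendsto_iff_dist_tendsto_zero.1 tendsto_id
      simpa using this.const_mul H
    exact squeeze_zero (fun y => dist_nonneg) (fun y => hH y x) h1
  intro x hx
  have hA0 : 0 ≤ A := (abs_nonneg _).trans (hA x)
  have hK0 : 0 ≤ (H / τ + Lz) * A := by positivity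
  have hbase : ∀ᶠ y in 𝓝 x, |χ y - χ x| ≤ (L + (H / τ + Lz) * A) * dist y x := by
    filter_upwards [hχ x hx] with y hy
    have := mul_nonneg hK0 (dist_nonneg (x := y) (y := x))
    rw [add_mul]; linarith
  rcases lt_trichotomy (h x) B with hB | hB | hB
  · -- below the level
    have hB' : ∀ᶠ y in 𝓝 x, h y < B := (isOpen_lt hcont continuous_const).mem_nhds hB
    by_cases hxC : x ∈ C
    · filter_upwards [hχ x hx, hz x ⟨hx, hB⟩, hc x hxC] with y h1 h2 h3
      unfold Stp_722.op
      rw [h3]
      have hAx := hA x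
      rw [abs_sub_comm] at hAx
      have hw : |th B τ (h y) * z y - th B τ (h x) * z x| ≤ (H / τ + Lz) * dist y x := by
        have e : th B τ (h y) * z y - th B τ (h x) * z x =
            (th B τ (h y) - th B τ (h x)) * z y + th B τ (h x) * (z y - z x) := by ring
        rw [e]
        have t1 := abs_th_sub_le (B := B) (s := h y) (t := h x) hτ
        have t2 := hH y x
        have t3 : |h y - h x| / τ ≤ H * dist y x / τ := by gcongr
        calc _ ≤ |(th B τ (h y) - th B τ (h x)) * z y| + |th B τ (h x) * (z y - z x)| :=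
              abs_add_le _ _
          _ = |th B τ (h y) - th B τ (h x)| * z y + th B τ (h x) * |z y - z x| := by
              rw [abs_mul, abs_mul, abs_of_nonneg (hz01 y).1, abs_of_nonneg (th_nonneg _ _ _)]
          _ ≤ (H * dist y x / τ) * 1 + 1 * (Lz * dist y x) :=
              add_le_add (mul_le_mul (t1.trans t3) (hz01 y).2 (hz01 y).1 (by positivity))
                (mul_le_mul (th_le_one _ _ _) h2 (abs_nonneg _) zero_le_one)
          _ = (H / τ + Lz) * dist y x := by ring
      have := abs_combo_le (a := χ y) (b := χ x) (k := c x) (w_nonneg (h := h) (B := B) (τ := τ) hz01 y)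
        (w_le_one hz01 y) hw hAx
      refine this.trans ?_
      rw [add_mul]
      have : (H / τ + Lz) * dist y x * A = (H / τ + Lz) * A * dist y x := by ring
      linarith
    · have h1 : ∀ᶠ y in 𝓝 x, y ∉ C := hC.isOpen_compl.mem_nhds hxC
      filter_upwards [hbase, h1] with y h2 h3
      rw [op_eq_of_z (hz0 y h3), op_eq_of_z (hz0 x hxC)]
      exact h2
  · -- on the level
    filter_upwards [hχ x hx] with y h1
    rw [op_eq_of_le hτ hB.ge]
    have e : Stp_722.op h B τ z c χ y - χ x = (χ y - χ x) + th B τ (h y) * z y * (c y - χ y) := by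
      unfold Stp_722.op; ring
    rw [e]
    have h2 : |th B τ (h y) * z y * (c y - χ y)| ≤ H * dist y x / τ * A := by
      rw [abs_mul, abs_of_nonneg (w_nonneg hz01 y)]
      have t1 := th_le (B := B) (t := h y) hτ
      have t2 := hH y x
      rw [hB, abs_sub_comm] at t2
      have t3 : |B - h y| / τ ≤ H * dist y x / τ := by gcongr
      calc _ ≤ (H * dist y x / τ * 1) * A :=
            mul_le_mul (mul_le_mul (t1.trans t3) (hz01 y).2 (hz01 y).1 (by positivity)) (hA y)
              (abs_nonneg _) (by positivity)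
        _ = H * dist y x / τ * A := by ring
    calc _ ≤ |χ y - χ x| + |th B τ (h y) * z y * (c y - χ y)| := abs_add_le _ _
      _ ≤ L * dist y x + H * dist y x / τ * A := add_le_add h1 h2
      _ ≤ (L + (H / τ + Lz) * A) * dist y x := by
          have := mul_nonneg (mul_nonneg hLz0 hA0) (dist_nonneg (x := y) (y := x))
          have e : (L + (H / τ + Lz) * A) * dist y x = L * dist y x + H * dist y x / τ * A +
            Lz * A * dist y x := by ring
          linarith
  · -- above the level
    have hB' : ∀ᶠ y in 𝓝 x, B < h y := (isOpen_lt continuous_const hcont).mem_nhds hB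
    filter_upwards [hbase, hB'] with y h2 h3
    rw [op_eq_of_le hτ h3.le, op_eq_of_le hτ hB.le]
    exact h2

end gen

end Crest.Agent.R105.Stp_722
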