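import Crest.Agent.R105.Stp5_722

/-!
Row 105 (Koebe), task 2230 (PP-STEP), part 6: one level of the STEP (5)(b) of #8892, frame free.
-/

set_option autoImplicit false
set_option linter.unusedSectionVars false

open Set Filter Topology Metric

namespace Crest.Agent.R105.Stp_722

local notation "cc" => connectedComponentIn

variable {X : Type*} [TopologicalSpace X] [T2Space X] {V E : Set X} {h : X → ℝ}

/-- black box: cut-offs for a family `G` of components crossing both levels, with the effect of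
the two-sided operation on the class `Cl` and on the energy distance `D`. -/
def LayerOp (V E : Set X) (h : X → ℝ) (Hr : Set X) (Cl : (X → ℝ) → Prop)
    (D : (X → ℝ) → (X → ℝ) → ℝ → Prop) : Prop :=
  ∀ (B B' : ℝ) (G W : Set X) (χ c c' : X → ℝ) (R τ m ε : ℝ), B < B' → IsCompact G → G ⊆ Hr →
    (∀ x ∈ G, ∀ y ∈ cc E x, y ∈ G) → IsOpen W → G ⊆ W →
    (∀ x ∈ G, (∃ y ∈ cc E x, h y ≤ B) ∧ ∃ y ∈ cc E x, B' ≤ h y) →
    Cl χ → (∀ x, |χ x| ≤ R) → (∀ x, |c x| ≤ R) → (∀ x, |c' x| ≤ R) →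
    (∀ x ∈ W, ∀ᶠ y in 𝓝 x, c y = c x) → (∀ x ∈ W, ∀ᶠ y in 𝓝 x, c' y = c' x) →
    0 < τ → 0 < m → 0 < ε →
    ∃ z z' : X → ℝ, Cut V E h B W m z ∧ Cut V E (fun x => - h x) (-B') W m z' ∧
      (∀ x ∈ G, OneOn V h B (cc E x) z ∨ OneOn V (fun x => - h x) (-B') (cc E x) z') ∧
      Cl (op2 h B B' τ z z' c c' χ) ∧ D χ (op2 h B B' τ z z' c c' χ) ε

theorem choose_const {N V : Set X} {χ : X → ℝ} {B τ η lo hi R : ℝ} (hR0 : 0 ≤ R)
    (hR : ∀ x, |χ x| ≤ R) (hlh : ∀ q ∈ N ∩ V, χ q ∈ Icc lo hi)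
    (hp : ∀ q ∈ N ∩ V, ∀ q' ∈ N ∩ V, |h q - B| < 2 * τ → |h q' - B| < 2 * τ → |χ q - χ q'| ≤ η) :
    ∃ k, |k| ≤ R ∧ (∀ q ∈ N ∩ V, k ∈ Icc lo hi) ∧
      ∀ q ∈ N ∩ V, |h q - B| < 2 * τ → |χ q - k| ≤ η := by
  by_cases h1 : ∃ q ∈ N ∩ V, |h q - B| < 2 * τ
  · obtain ⟨q, hq, hqB⟩ := h1
    exact ⟨χ q, hR q, fun _ _ => hlh q hq, fun q' hq' h' => hp q' hq' q hq h' hqB⟩
  · push Not at h1
    by_cases h2 : (N ∩ V).Nonempty
    · obtain ⟨q, hq⟩ := h2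
      exact ⟨χ q, hR q, fun _ _ => hlh q hq, fun q' hq' h' => absurd h' (not_lt.2 (h1 q' hq'))⟩
    · rw [not_nonempty_iff_eq_empty] at h2
      refine ⟨0, by simpa using hR0, ?_, ?_⟩
      · intro q hq; rw [h2] at hq; exact absurd hq (notMem_empty _)
      · intro q hq; rw [h2] at hq; exact absurd hq (notMem_empty _)

theorem exists_pos_le {n : ℕ} {t : Fin n → ℝ} (ht : ∀ i, 0 < t i) {s : ℝ} (hs : 0 < s) :
    ∃ τ, 0 < τ ∧ τ ≤ s ∧ ∀ i, τ ≤ t i := by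
  have h1 : ∀ᶠ τ in 𝓝[>] (0:ℝ), ∀ i, τ < t i := eventually_all.2 fun i => by
    filter_upwards [Ioo_mem_nhdsGT (ht i)] with τ hτ using hτ.2
  have h2 : ∀ᶠ τ in 𝓝[>] (0:ℝ), τ ∈ Ioo 0 s := Ioo_mem_nhdsGT hs
  obtain ⟨τ, h3, h4⟩ := (h1.and h2).exists
  exact ⟨τ, h4.1, h4.2.le, fun i => (h3 i).le⟩

theorem fine_data (hE : IsCompact E) (hh : Continuous h) {G : Set X} (hG : IsCompact G)
    (hGE : G ⊆ E) {χ : X → ℝ} {B B' σ ε : ℝ} (hε : 0 < ε) (hBB : B < B')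
    (hs : ∀ x ∈ G, OscLe V (cc E x ∩ {y | h y = B}) χ σ)
    (hs' : ∀ x ∈ G, OscLe V (cc E x ∩ {y | h y = B'}) χ σ)
    (O : X → Set X) (hO : ∀ x ∈ G, IsOpen (O x)) (hKO : ∀ x ∈ G, cc E x ⊆ O x) :
    ∃ (n : ℕ) (p : Fin n → X) (N : Fin n → Set X) (τ : ℝ), Pieces E N ∧ G ⊆ ⋃ i, N i ∧
      (∀ i, p i ∈ G) ∧ (∀ i, N i ⊆ O (p i)) ∧ 0 < τ ∧ 2 * τ ≤ B' - B ∧
      (∀ i, ∀ q ∈ N i ∩ V, ∀ q' ∈ N i ∩ V, |h q - B| < 2 * τ → |h q' - B| < 2 * τ →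
        |χ q - χ q'| ≤ σ + ε) ∧
      (∀ i, ∀ q ∈ N i ∩ V, ∀ q' ∈ N i ∩ V, |h q - B'| < 2 * τ → |h q' - B'| < 2 * τ →
        |χ q - χ q'| ≤ σ + ε) := by
  classical
  choose! U hU hKU τ hτ H using fun x (hx : x ∈ G) =>
    exists_slice (isCompact_cc hE x) hh (hs x hx) hε
  choose! U' hU' hKU' τ' hτ' H' using fun x (hx : x ∈ G) =>
    exists_slice (isCompact_cc hE x) hh (hs' x hx) hε
  obtain ⟨n, p, N, hp, hNo, hNU, hd, hsat, hcov⟩ := exists_thick hE hG hGE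
    (fun x => O x ∩ (U x ∩ U' x)) (fun x hx => (hO x hx).inter ((hU x hx).inter (hU' x hx)))
    (fun x hx => subset_inter (hKO x hx) (subset_inter (hKU x hx) (hKU' x hx)))
  obtain ⟨t, ht, ht1, ht2⟩ := exists_pos_le (t := fun i => min (τ (p i)) (τ' (p i)))
    (fun i => lt_min (hτ _ (hp i)) (hτ' _ (hp i))) (s := (B' - B) / 2) (by linarith)
  refine ⟨n, p, N, t, ⟨hNo, hd, hsat⟩, hcov, hp, fun i => (hNU i).trans inter_subset_left, ht,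
    by linarith, ?_, ?_⟩
  · intro i q hq q' hq' h1 h2
    have h3 : t ≤ τ (p i) := (ht2 i).trans (min_le_left _ _)
    exact H (p i) (hp i) q ⟨(hNU i hq.1).2.1, hq.2⟩ q' ⟨(hNU i hq'.1).2.1, hq'.2⟩
      (by linarith) (by linarith)
  · intro i q hq q' hq' h1 h2
    have h3 : t ≤ τ' (p i) := (ht2 i).trans (min_le_right _ _)
    exact H' (p i) (hp i) q ⟨(hNU i hq.1).2.2, hq.2⟩ q' ⟨(hNU i hq'.1).2.2, hq'.2⟩
      (by linarith) (by linarith)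

/-- the slice of a hair at a level is at most one point. -/
theorem slice_osc {K : Set X} (hinj : InjOn h K) {χ : X → ℝ} {σ : ℝ}
    (hj : ∀ p ∈ K, OscLe V {p} χ σ) (B : ℝ) : OscLe V (K ∩ {y | h y = B}) χ σ := by
  rcases (K ∩ {y | h y = B}).eq_empty_or_nonempty with h0 | ⟨p, hp⟩
  · rw [h0]; exact oscLe_empty
  · refine (hj p hp.1).mono_set ?_
    intro y hy
    exact hinj hy.1 hp.1 (hy.2.trans hp.2.symm)

/-- standing assumptions of the STEP -/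
structure Setup (V E : Set X) (h : X → ℝ) (Hr : Set X) (Cl : (X → ℝ) → Prop)
    (D : (X → ℝ) → (X → ℝ) → ℝ → Prop) : Prop where
  hE : IsCompact E
  hh : Continuous h
  lev : ∀ x ∈ E, Lev V h (cc E x)
  inj : ∀ x ∈ Hr, InjOn h (cc E x)
  vis : ∀ x ∈ Hr, cc E x ⊆ closure V
  D0 : ∀ χ, Cl χ → D χ χ 0
  Dadd : ∀ χ₁ χ₂ χ₃ s t, D χ₁ χ₂ s → D χ₂ χ₃ t → D χ₁ χ₃ (s + t)
  layer : LayerOp V E h Hr Cl D

theorem Setup.lev_portion {Hr : Set X} {Cl : (X → ℝ) → Prop}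
    {D : (X → ℝ) → (X → ℝ) → ℝ → Prop} (S : Setup V E h Hr Cl D) {x : X} (hx : x ∈ Hr)
    {I : Set ℝ} (hI : I.OrdConnected) : Lev V h (cc E x ∩ h ⁻¹' I) :=
  Lev.of_preconnected S.hh (preconn_portion (isCompact_cc S.hE x)
    isPreconnected_connectedComponentIn (S.inj x hx) S.hh hI)
    (inter_subset_left.trans (S.vis x hx))

/-- constants of the STEP -/
structure Const (V : Set X) (R : ℝ) {l : ℕ} (N0 : Fin l → Set X) (lo hi : Fin l → ℝ)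
    (m : ℕ) (μ A σ0 σ1 ε1 : ℝ) : Prop where
  R0 : 0 ≤ R
  μ0 : 0 < μ
  A0 : 0 ≤ A
  ε0 : 0 < ε1
  lh : ∀ i, hi i - lo i ≤ A
  σ : ∀ i < m, σ0 + i * (2 * (μ * A)) ≤ σ1
  σ10 : 0 ≤ σ1

/-- invariants after the first `i` levels -/
structure Inv (V E : Set X) (h : X → ℝ) (Cl : (X → ℝ) → Prop)
    (D : (X → ℝ) → (X → ℝ) → ℝ → Prop) (φ : X → ℝ) (R : ℝ) {l : ℕ} (N0 : Fin l → Set X)
    (lo hi : Fin l → ℝ) (g : Set X) (μ A σ0 σ1 ε1 e1 : ℝ) (Bs : ℕ → ℝ) (i : ℕ) (χ : X → ℝ) :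
    Prop where
  cl : Cl χ
  bd : ∀ x, |χ x| ≤ R
  en : D φ χ (i * e1)
  hull : ∀ l, ∀ q ∈ N0 l ∩ V, χ q ∈ Icc (lo l) (hi l)
  off : ∀ x ∉ ⋃ l, N0 l, χ x = φ x
  jump : ∀ p ∈ E, OscLe V {p} χ (σ0 + i * (2 * (μ * A)))
  grow : ∀ x ∈ E, ∀ P ⊆ cc E x, Lev V h P → ∀ b, OscLe V P φ b →
    OscLe V P χ (b + i * (2 * (μ * A + 2 * (σ1 + ε1))))
  hist : ∀ j < i, ∀ x ∈ g,
    OscLe V (cc E x ∩ {y | h y ≤ Bs j}) χ
      (2 * (σ1 + ε1) + i * (2 * (μ * A + 2 * (σ1 + ε1)))) ∨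
    OscLe V (cc E x ∩ {y | Bs (j + 1) ≤ h y}) χ
      (2 * (σ1 + ε1) + i * (2 * (μ * A + 2 * (σ1 + ε1))))

theorem Inv.step {Hr : Set X} {Cl : (X → ℝ) → Prop}
    {D : (X → ℝ) → (X → ℝ) → ℝ → Prop} (S : Setup V E h Hr Cl D) {φ ψ : X → ℝ} {R b0 : ℝ} {l : ℕ}
    {N0 : Fin l → Set X} (hN0 : Pieces E N0) {lo hi : Fin l → ℝ}
    {m : ℕ} {μ A σ0 σ1 ε1 e1 : ℝ} (C : Const V R N0 lo hi m μ A σ0 σ1 ε1) (he1 : 0 < e1)
    (hgHr : gset V E ψ b0 ⊆ Hr) (hcov : gset V E ψ b0 ⊆ ⋃ l, N0 l)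
    {Bs : ℕ → ℝ} (hBs : ∀ i, Bs i < Bs (i + 1)) {i : ℕ} (him : i < m) {χ : X → ℝ}
    (I : Inv V E h Cl D φ R N0 lo hi (gset V E ψ b0) μ A σ0 σ1 ε1 e1 Bs i χ) :
    ∃ χ', Inv V E h Cl D φ R N0 lo hi (gset V E ψ b0) μ A σ0 σ1 ε1 e1 Bs (i + 1) χ' ∧
      ∀ x ∉ ⋃ l, N0 l, χ' x = χ x := by
  classical
  set g := gset V E ψ b0 with hg
  have hgE : g ⊆ E := gset_subset
  have hgsat : ∀ x ∈ g, ∀ y ∈ cc E x, y ∈ g := fun x hx y hy => gset_sat hx hy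
  set G := cross E h g (Bs i) (Bs (i + 1)) with hG
  have hGc : IsCompact G := isCompact_cross_gset S.hE S.hh b0 _ _
  have hGg : G ⊆ g := fun x hx => hx.1
  have hη0 : 0 ≤ σ1 + ε1 := by have := C.σ10; have := C.ε0; linarith
  have hμA : 0 ≤ μ * A := mul_nonneg C.μ0.le C.A0
  set gg := 2 * (μ * A + 2 * (σ1 + ε1)) with hgg
  have hgg0 : 0 ≤ gg := by rw [hgg]; linarith
  have hjump : ∀ x ∈ G, ∀ p ∈ cc E x, OscLe V {p} χ σ1 := fun x _ p hp =>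
    (I.jump p (connectedComponentIn_subset E x hp)).mono (C.σ i him)
  obtain ⟨n, p, N, τ, hN, hGN, hp, hNO, hτ, hτB, hsl, hsl'⟩ := fine_data (V := V) S.hE S.hh hGc
    (hGg.trans hgE) C.ε0 (hBs i)
    (fun x hx => slice_osc (S.inj x (hgHr (hGg hx))) (hjump x hx) (Bs i))
    (fun x hx => slice_osc (S.inj x (hgHr (hGg hx))) (hjump x hx) (Bs (i + 1)))
    (fun x => ⋃ j, ⋃ (_ : x ∈ N0 j), N0 j)
    (fun x _ => isOpen_iUnion fun j => isOpen_iUnion fun _ => hN0.opn j)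
    (fun x hx => by
      obtain ⟨j, hj⟩ := mem_iUnion.1 (hcov (hGg hx))
      refine subset_trans ?_ (subset_iUnion_of_subset j (subset_iUnion_of_subset hj Subset.rfl))
      exact hN0.sat _ x (hgE (hGg hx)) ⟨x, mem_connectedComponentIn (hgE (hGg hx)), hj⟩)
  have hl : ∀ j : Fin n, ∃ j0, p j ∈ N0 j0 := fun j => mem_iUnion.1 (hcov (hGg (hp j)))
  choose lx hlx using hl
  have hNN0 : ∀ j, N j ⊆ N0 (lx j) := by
    intro j y hy
    have h1 := hNO j hy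
    simp only [mem_iUnion] at h1
    obtain ⟨j0, hj0, hy0⟩ := h1
    have : lx j = j0 := by
      by_contra hne
      exact Set.disjoint_left.1 (hN0.disj _ _ hne) (hlx j) hj0
    rw [this]; exact hy0
  have hhull : ∀ j, ∀ q ∈ N j ∩ V, χ q ∈ Icc (lo (lx j)) (hi (lx j)) := fun j q hq =>
    I.hull _ q ⟨hNN0 j hq.1, hq.2⟩
  choose k hkR hkI hkη using fun j => choose_const (h := h) C.R0 I.bd (hhull j) (hsl j)
  choose k' hkR' hkI' hkη' using fun j => choose_const (h := h) C.R0 I.bd (hhull j) (hsl' j)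
  obtain ⟨z, z', hz, hz', hone, hcl, hen⟩ := S.layer (Bs i) (Bs (i + 1)) G (⋃ j, N j) χ (cst N k)
    (cst N k') R τ μ e1 (hBs i) hGc (hGg.trans hgHr) (fun x hx y hy => cross_sat hgsat hx hy)
    (isOpen_iUnion hN.opn) hGN (fun x hx => hx.2) I.cl I.bd (cst_abs_le C.R0 hkR)
    (cst_abs_le C.R0 hkR') (hN.cst_loc k) (hN.cst_loc k') hτ C.μ0 he1
  have Da : Data V E h N k k' (fun j => lo (lx j)) (fun j => hi (lx j)) (Bs i)
      (Bs (i + 1)) τ μ A (σ1 + ε1) z z' χ :=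
    { hh := S.hh, hN := hN, hBB := hBs i, hτ := hτ, hτB := hτB, hm0 := C.μ0.le, hA0 := C.A0,
      hη0 := hη0, hz := hz, hz' := hz', hlh := fun j => C.lh _, hχ := hhull, hk := hkI,
      hk' := hkI', hη := hkη, hη' := hkη' }
  have hNsub : (⋃ j, N j) ⊆ ⋃ l, N0 l := by
    refine iUnion_subset fun j => (hNN0 j).trans (subset_iUnion N0 _)
  have hoff : ∀ x ∉ ⋃ l, N0 l, op2 h (Bs i) (Bs (i + 1)) τ z z' (cst N k) (cst N k') χ x = χ x :=
    fun x hx => Da.off fun hx' => hx (hNsub hx')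
  have hcast : ((i + 1 : ℕ) : ℝ) = (i : ℝ) + 1 := by push_cast; ring
  refine ⟨op2 h (Bs i) (Bs (i + 1)) τ z z' (cst N k) (cst N k') χ, ?_, hoff⟩
  refine ⟨hcl, fun x => Da.bound I.bd hkR hkR' x, ?_, ?_, ?_, ?_, ?_, ?_⟩
  · have := S.Dadd _ _ _ _ _ I.en hen
    rw [hcast]
    convert this using 1
    ring
  · intro j q hq
    by_cases hqN : q ∈ ⋃ j, N j
    · obtain ⟨j', hj'⟩ := mem_iUnion.1 hqN
      have h1 := Da.hull2 j' q ⟨hj', hq.2⟩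
      have h2 : lx j' = j := by
        by_contra hne
        exact Set.disjoint_left.1 (hN0.disj _ _ hne) (hNN0 j' hj') hq.1
      simpa only [h2] using h1
    · rw [Da.off hqN]
      exact I.hull j q hq
  · intro x hx
    rw [hoff x hx]
    exact I.off x hx
  · intro q hq
    have := Da.point hq (I.jump q hq)
    rw [hcast]
    refine this.mono (le_of_eq ?_)
    ring
  · intro x hx P hP hPl b hb
    have := Da.growth hx hP hPl (I.grow x hx P hP hPl b hb)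
    rw [hcast]
    refine this.mono (le_of_eq ?_)
    ring
  · intro j hj x hx
    have hxE := hgE hx
    have hxHr := hgHr hx
    have hgrow : ∀ I' : Set ℝ, I'.OrdConnected → ∀ b, OscLe V (cc E x ∩ h ⁻¹' I') χ b →
        OscLe V (cc E x ∩ h ⁻¹' I')
          (op2 h (Bs i) (Bs (i + 1)) τ z z' (cst N k) (cst N k') χ) (b + gg) := by
      intro I' hI' b hb
      exact Da.growth hxE inter_subset_left (S.lev_portion hxHr hI') hb
    have e1' : 2 * (σ1 + ε1) + ((i + 1 : ℕ) : ℝ) * gg =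
        (2 * (σ1 + ε1) + (i : ℝ) * gg) + gg := by
      rw [hcast]; ring
    rcases Nat.lt_succ_iff_lt_or_eq.1 hj with hj | rfl
    · rcases I.hist j hj x hx with h1 | h1
      · left
        rw [e1']
        exact hgrow (Iic (Bs j)) ordConnected_Iic _ h1
      · right
        rw [e1']
        exact hgrow (Ici (Bs (j + 1))) ordConnected_Ici _ h1
    · have hbig : 2 * (σ1 + ε1) ≤ 2 * (σ1 + ε1) + ((j + 1 : ℕ) : ℝ) * gg := by
        have : 0 ≤ ((j + 1 : ℕ) : ℝ) * gg := by positivity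
        linarith
      by_cases hxG : x ∈ G
      · obtain ⟨j', hj'⟩ := mem_iUnion.1 (hGN hxG)
        have hKj : cc E x ⊆ N j' := hN.sat _ x hxE ⟨x, mem_connectedComponentIn hxE, hj'⟩
        rcases Da.flat hKj (hone x hxG) with h1 | h1
        · exact Or.inl (h1.mono hbig)
        · exact Or.inr (h1.mono hbig)
      · have hnot : ¬ ((∃ y ∈ cc E x, h y ≤ Bs j) ∧ ∃ y ∈ cc E x, Bs (j + 1) ≤ h y) := fun h' =>
          hxG ⟨hx, h'⟩
        rw [not_and_or] at hnot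
        rcases hnot with h1 | h1
        · left
          have : cc E x ∩ {y | h y ≤ Bs j} = ∅ := by
            rw [eq_empty_iff_forall_notMem]
            exact fun y hy => h1 ⟨y, hy.1, hy.2⟩
          rw [this]; exact oscLe_empty
        · right
          have : cc E x ∩ {y | Bs (j + 1) ≤ h y} = ∅ := by
            rw [eq_empty_iff_forall_notMem]
            exact fun y hy => h1 ⟨y, hy.1, hy.2⟩
          rw [this]; exact oscLe_empty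

end Crest.Agent.R105.Stp_722
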