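import Crest.Agent.R105.Lop1_744
import Crest.Agent.R105.Stp3_722
import Crest.Agent.R105.Stp6_722

/-!
# Row 105: the operation of 722 in the class `CFJ` (regularity and energy), Minkowski, and the
instance of `Stp_722.Setup` for a slit picture, from `LayOut` for all families.
-/

set_option autoImplicit false

noncomputable section

namespace Crest.Agent.R105.Lop2_744

open Set Filter MeasureTheory Topology Metric
open CF_363 Stp_722 Skp2_257 Lop1_744
open scoped ENNReal NNReal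

/-! ### the operation in the class `CFJ` -/

section op

variable {𝓗 : Set Hair} {h z c χ : ℝ × ℝ → ℝ} {B τ R : ℝ} {C : Set (ℝ × ℝ)}

theorem continuous_of_lip (hh : ∀ x y, |h x - h y| ≤ dist x y) : Continuous h := by
  refine (LipschitzWith.of_dist_le_mul (K := 1) fun x y => ?_).continuous
  rw [Real.dist_eq, NNReal.coe_one, one_mul]
  exact hh x y

theorem abs_sub_le_two {R a b : ℝ} (ha : |a| ≤ R) (hb : |b| ≤ R) : |a - b| ≤ 2 * R := by
  have := abs_sub a b
  linarith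

theorem op_abs_le (hz01 : ∀ x, 0 ≤ z x ∧ z x ≤ 1) (hcR : ∀ x, |c x| ≤ R) (hχR : ∀ x, |χ x| ≤ R)
    (x : ℝ × ℝ) : |op h B τ z c χ x| ≤ R :=
  abs_le.2 (op_mem_Icc hz01 (abs_le.1 (hχR x)) (abs_le.1 (hcR x)))

theorem cfj_congr {W : Set (ℝ × ℝ)} {f g : ℝ × ℝ → ℝ} (hf : CFJ 𝓗 W f) (h : EqOn f g W) :
    CFJ 𝓗 W g := by
  obtain ⟨J, hJ, hf⟩ := hf
  exact ⟨J, hJ, hf.congr fun p hp => h hp.1⟩

/-- common finite cut for a function on the plane and one on an open set -/
theorem two_cut {W : Set (ℝ × ℝ)} {f g : ℝ × ℝ → ℝ} (hf : CFJ 𝓗 univ f) (hg : CFJ 𝓗 W g) :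
    ∃ J : Finset Hair, (∀ K ∈ J, K ∈ 𝓗) ∧ ∃ L, 0 ≤ L ∧ SL (univ \ cut J) L f ∧
      ∃ M, 0 ≤ M ∧ SL (W \ cut J) M g := by
  classical
  obtain ⟨J, hJ, L, _, hL, h1, _⟩ := hf
  obtain ⟨J', hJ', M, _, hM, h2, _⟩ := hg
  refine ⟨J ∪ J', fun K hK => ?_, L, hL, h1.mono ?_, M, hM, h2.mono ?_⟩
  · rcases Finset.mem_union.mp hK with h | h
    · exact hJ K h
    · exact hJ' K h
  · exact sdiff_subset_sdiff_right (cut_mono Finset.subset_union_left)
  · exact sdiff_subset_sdiff_right (cut_mono Finset.subset_union_right)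

theorem op_cfj (hh : ∀ x y, |h x - h y| ≤ dist x y) (hτ : 0 < τ) (hχ : CFJ 𝓗 univ χ)
    (hz : CFJ 𝓗 {x | h x < B} z) (hz01 : ∀ x, 0 ≤ z x ∧ z x ≤ 1) (hC : IsClosed C)
    (hz0 : ∀ x ∉ C, z x = 0) (hc : ∀ x ∈ C, ∀ᶠ y in 𝓝 x, c y = c x) (hcR : ∀ x, |c x| ≤ R)
    (hχR : ∀ x, |χ x| ≤ R) : CFJ 𝓗 univ (op h B τ z c χ) := by
  obtain ⟨J, hJ, L, hL, h1, M, hM, h2⟩ := two_cut hχ hz
  have hcont := continuous_of_lip hh
  have hWo : IsOpen {x : ℝ × ℝ | h x < B} := isOpen_lt hcont continuous_const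
  have hU : IsOpen (univ \ cut J) := isOpen_diff_cut isOpen_univ J
  have hR0 : 0 ≤ R := (abs_nonneg _).trans (hχR (0, 0))
  have h3 : LL ((univ \ cut J) ∩ {x | h x < B}) M z := by
    refine (h2.LL (isOpen_diff_cut hWo J)).mono_set ?_
    rintro x ⟨⟨_, hx⟩, hx'⟩
    exact ⟨hx', hx⟩
  have h4 := LL.op (h := h) (B := B) (τ := τ) (Lz := M) (A := 2 * R) (H := 1) (z := z) (c := c)
    (χ := χ) (C := C) (U := univ \ cut J) (L := L) hτ (fun x y => by rw [one_mul]; exact hh x y)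
    (h1.LL hU) hM zero_le_one h3 hz01 hC hz0 hc (fun x => abs_sub_le_two (hcR x) (hχR x))
  refine ⟨J, hJ, L + (1 / τ + M) * (2 * R), R, by positivity, h4.SL (by positivity), ?_⟩
  exact fun p _ => op_abs_le hz01 hcR hχR p

/-- the ramp is Lipschitz -/
theorem th_SL (hh : ∀ x y, |h x - h y| ≤ dist x y) (hτ : 0 < τ) :
    SL univ (1 / τ) (fun q => th B τ (h q)) := by
  intro p q _
  refine (abs_th_sub_le hτ).trans ?_
  rw [div_mul_eq_mul_div, one_mul]
  gcongr
  exact hh p q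

/-- pointwise estimate of the energy density of the change -/
theorem ae_g2_op (hh : ∀ x y, |h x - h y| ≤ dist x y) (hτ : 0 < τ) (hnull : volume {p | h p = B} = 0)
    {J : Finset Hair} {L M : ℝ} (hL : 0 ≤ L) (h1 : SL (univ \ cut J) L χ)
    (h2 : SL ({x | h x < B} \ cut J) M z) (hz01 : ∀ x, 0 ≤ z x ∧ z x ≤ 1)
    (hC : IsClosed C) (hz0 : ∀ x ∉ C, z x = 0) (hc : ∀ x ∈ C, ∀ᶠ y in 𝓝 x, c y = c x)
    (hcR : ∀ x, |c x| ≤ R) (hχR : ∀ x, |χ x| ≤ R) :
    ∀ᵐ p : ℝ × ℝ, g2 (fun q => op h B τ z c χ q - χ q) p ≤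
      (C ∩ {x | h x < B}).indicator
        (fun p => (4 * L ^ 2 + 32 * R ^ 2 / τ ^ 2) + 16 * R ^ 2 * g2 z p) p := by
  have hcont := continuous_of_lip hh
  have hWo : IsOpen {x : ℝ × ℝ | h x < B} := isOpen_lt hcont continuous_const
  have hU : IsOpen (univ \ cut J) := isOpen_diff_cut isOpen_univ J
  have hR0 : 0 ≤ R := (abs_nonneg _).trans (hχR (0, 0))
  have a1 := h1.ae_differentiableAt (μ := volume) hU
  have a2 := h2.ae_differentiableAt (μ := volume) (isOpen_diff_cut hWo J)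
  have a3 := (th_SL (B := B) hh hτ).ae_differentiableAt (μ := volume) isOpen_univ
  have a4 : ∀ᵐ p : ℝ × ℝ, p ∉ cut J := measure_eq_zero_iff_ae_notMem.mp (volume_cut J)
  have a5 : ∀ᵐ p : ℝ × ℝ, p ∉ {p | h p = B} := measure_eq_zero_iff_ae_notMem.mp hnull
  have e0 : (fun q => op h B τ z c χ q - χ q) =
      fun q => th B τ (h q) * z q * (c q - χ q) := by
    funext q; unfold op; ring
  rw [e0]
  filter_upwards [a1, a2, a3, a4, a5] with p b1 b2 b3 b4 b5
  by_cases hp : p ∈ C ∩ {x | h x < B}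
  · rw [indicator_of_mem hp]
    have d1 : DifferentiableAt ℝ χ p := b1 ⟨mem_univ _, b4⟩
    have d2 : DifferentiableAt ℝ z p := b2 ⟨hp.2, b4⟩
    have d3 : DifferentiableAt ℝ (fun q => th B τ (h q)) p := b3 (mem_univ _)
    have e1 : (fun q => th B τ (h q) * z q * (c q - χ q)) =ᶠ[𝓝 p]
        fun q => (th B τ (h q) * z q) * (c p - χ q) := by
      filter_upwards [hc p hp.1] with q hq
      rw [hq]
    have e2 : g2 (fun q => th B τ (h q) * z q * (c q - χ q)) p =
        g2 (fun q => (th B τ (h q) * z q) * (c p - χ q)) p := by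
      simp only [g2, gx_congr e1, gy_congr e1]
    rw [e2]
    have d4 : DifferentiableAt ℝ (fun q => th B τ (h q) * z q) p := d3.mul d2
    have d5 : DifferentiableAt ℝ (fun q => c p - χ q) p := d1.const_sub _
    have g1 := g2_mul_le d4 d5
    have g2' := g2_mul_le d3 d2
    have g3 : g2 (fun q => c p - χ q) p = g2 χ p := by
      simp [g2, gx, gy, fderiv_const_sub]
    have g4 : g2 χ p ≤ 2 * L ^ 2 := h1.g2_le hU hL ⟨mem_univ _, b4⟩
    have g5 : g2 (fun q => th B τ (h q)) p ≤ 2 * (1 / τ) ^ 2 :=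
      (th_SL (B := B) hh hτ).g2_le isOpen_univ (by positivity) (mem_univ _)
    have t0 := th_nonneg B τ (h p)
    have t1 := th_le_one B τ (h p)
    obtain ⟨z0, z1⟩ := hz01 p
    have w1 : (th B τ (h p) * z p) ^ 2 ≤ 1 :=
      pow_le_one₀ (mul_nonneg t0 z0) (mul_le_one₀ t1 z0 z1)
    have w2 : (th B τ (h p)) ^ 2 ≤ 1 := pow_le_one₀ t0 t1
    have w3 : (z p) ^ 2 ≤ 1 := pow_le_one₀ z0 z1
    have w4 : (c p - χ p) ^ 2 ≤ 4 * R ^ 2 := by
      have := abs_sub_le_two (hcR p) (hχR p)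
      have h5 := sq_le_sq' (by linarith [(abs_le.1 this).1]) (abs_le.1 this).2
      calc _ ≤ _ := h5
        _ = 4 * R ^ 2 := by ring
    have n1 := g2_nonneg χ p
    have n2 := g2_nonneg z p
    have n3 := g2_nonneg (fun q => th B τ (h q)) p
    have n4 := g2_nonneg (fun q => th B τ (h q) * z q) p
    rw [g3] at g1
    have k1 : g2 (fun q => th B τ (h q) * z q) p ≤ 2 * g2 z p + 4 * (1 / τ) ^ 2 := by
      nlinarith [mul_le_mul_of_nonneg_right w2 n2, mul_le_mul_of_nonneg_right w3 n3]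
    have k2 : (th B τ (h p) * z p) ^ 2 * g2 χ p ≤ 2 * L ^ 2 :=
      (mul_le_mul_of_nonneg_right w1 n1).trans (by linarith)
    have k3 : (c p - χ p) ^ 2 * g2 (fun q => th B τ (h q) * z q) p ≤
        4 * R ^ 2 * (2 * g2 z p + 4 * (1 / τ) ^ 2) :=
      mul_le_mul w4 k1 n4 (by positivity)
    have k4 : 32 * R ^ 2 / τ ^ 2 = 32 * R ^ 2 * (1 / τ) ^ 2 := by field_simp
    rw [k4]
    calc _ ≤ _ := g1
      _ ≤ 2 * (2 * L ^ 2) + 2 * (4 * R ^ 2 * (2 * g2 z p + 4 * (1 / τ) ^ 2)) := by linarith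
      _ = _ := by ring
  · rw [indicator_of_notMem hp]
    refine (g2_eq_zero ?_).le
    by_cases hpC : p ∈ C
    · have hpB : B < h p := by
        rcases lt_trichotomy (h p) B with h6 | h6 | h6
        · exact absurd ⟨hpC, h6⟩ hp
        · exact absurd h6 b5
        · exact h6
      filter_upwards [(isOpen_lt continuous_const hcont).mem_nhds hpB] with q hq
      rw [th_eq_zero hτ (le_of_lt hq)]; ring
    · filter_upwards [hC.isOpen_compl.mem_nhds hpC] with q hq
      rw [hz0 q hq]; ring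

theorem integrableOn_z {J : Finset Hair} {W : Set (ℝ × ℝ)} {M : ℝ} (hM : 0 ≤ M) (hW : IsOpen W)
    (h2 : SL (W \ cut J) M z) (hC : IsCompact C) (hz0 : ∀ x ∉ C, z x = 0) :
    IntegrableOn (g2 z) W := by
  have a4 : ∀ᵐ p : ℝ × ℝ, p ∉ cut J := measure_eq_zero_iff_ae_notMem.mp (volume_cut J)
  have h3 : IntegrableOn (g2 z) (C ∩ W) := by
    refine Measure.integrableOn_of_bounded (M := 2 * M ^ 2)
      ((measure_mono inter_subset_left).trans_lt hC.measure_lt_top).ne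
      (measurable_g2 z).aestronglyMeasurable ?_
    filter_upwards [ae_restrict_of_ae a4, ae_restrict_mem (hC.measurableSet.inter hW.measurableSet)]
      with p hp hpW
    rw [Real.norm_of_nonneg (g2_nonneg z p)]
    exact h2.g2_le (isOpen_diff_cut hW J) hM ⟨hpW.2, hp⟩
  have h4 : IntegrableOn (g2 z) (Cᶜ ∩ W) := by
    have h6 : EqOn (fun _ => (0 : ℝ)) (g2 z) (Cᶜ ∩ W) := by
      intro p hp
      refine (g2_eq_zero ?_).symm
      filter_upwards [hC.isClosed.isOpen_compl.mem_nhds hp.1] with q hq using hz0 q hq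
    exact IntegrableOn.congr_fun (integrableOn_zero) h6
      (hC.measurableSet.compl.inter hW.measurableSet)
  have h5 := h3.union h4
  rwa [← union_inter_distrib_right, union_compl_self, univ_inter] at h5

/-- **energy of the change** -/
theorem op_En (hh : ∀ x y, |h x - h y| ≤ dist x y) (hτ : 0 < τ) (hnull : volume {p | h p = B} = 0)
    {J : Finset Hair} {L M : ℝ} (hL : 0 ≤ L) (h1 : SL (univ \ cut J) L χ) (hM : 0 ≤ M)
    (h2 : SL ({x | h x < B} \ cut J) M z) (hz01 : ∀ x, 0 ≤ z x ∧ z x ≤ 1)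
    (hC : IsCompact C) (hz0 : ∀ x ∉ C, z x = 0) (hc : ∀ x ∈ C, ∀ᶠ y in 𝓝 x, c y = c x)
    (hcR : ∀ x, |c x| ≤ R) (hχR : ∀ x, |χ x| ≤ R) :
    Integrable (g2 (fun q => op h B τ z c χ q - χ q)) ∧
    ∫ p, g2 (fun q => op h B τ z c χ q - χ q) p ≤
      (4 * L ^ 2 + 32 * R ^ 2 / τ ^ 2) * (volume C).toReal + 16 * R ^ 2 * En {x | h x < B} z := by
  have hcont := continuous_of_lip hh
  have hWo : IsOpen {x : ℝ × ℝ | h x < B} := isOpen_lt hcont continuous_const
  have hCW : MeasurableSet (C ∩ {x | h x < B}) := hC.measurableSet.inter hWo.measurableSet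
  have hfin : volume (C ∩ {x | h x < B}) ≠ ∞ :=
    ((measure_mono inter_subset_left).trans_lt hC.measure_lt_top).ne
  have hz := integrableOn_z hM hWo h2 hC hz0
  have hz' : IntegrableOn (g2 z) (C ∩ {x | h x < B}) := hz.mono_set inter_subset_right
  have hconst : IntegrableOn (fun _ : ℝ × ℝ => 4 * L ^ 2 + 32 * R ^ 2 / τ ^ 2)
      (C ∩ {x | h x < B}) := integrableOn_const hfin
  have hI : IntegrableOn (fun p => (4 * L ^ 2 + 32 * R ^ 2 / τ ^ 2) + 16 * R ^ 2 * g2 z p)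
      (C ∩ {x | h x < B}) := hconst.add (hz'.const_mul _)
  have hI' := hI.integrable_indicator hCW
  have hae := ae_g2_op hh hτ hnull hL h1 h2 hz01 hC.isClosed hz0 hc hcR hχR
  have hint : Integrable (g2 (fun q => op h B τ z c χ q - χ q)) := by
    refine hI'.mono' (measurable_g2 _).aestronglyMeasurable ?_
    filter_upwards [hae] with p hp
    rw [Real.norm_of_nonneg (g2_nonneg _ p)]
    exact hp
  refine ⟨hint, (integral_mono_ae hint hI' hae).trans ?_⟩
  rw [integral_indicator hCW, integral_add hconst (hz'.const_mul _), integral_const_mul,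
    setIntegral_const]
  have hvol : volume.real (C ∩ {x | h x < B}) ≤ (volume C).toReal :=
    ENNReal.toReal_mono hC.measure_lt_top.ne (measure_mono inter_subset_left)
  have hen : ∫ p in C ∩ {x | h x < B}, g2 z p ≤ En {x | h x < B} z :=
    setIntegral_mono_set hz (ae_of_all _ fun p => g2_nonneg z p)
      (Filter.Eventually.of_forall fun p hp => hp.2)
  rw [smul_eq_mul, mul_comm]
  gcongr

end op

end Crest.Agent.R105.Lop2_744
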