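import Crest.Agent.R105.Lop2_744

/-!
# Row 105: class and energy distance of the STEP for a slit picture, and the instance of
`Stp_722.Setup` from `LayOut` for all compact families.
-/

set_option autoImplicit false

noncomputable section

namespace Crest.Agent.R105.Lop3_744

open Set Filter MeasureTheory Topology Metric
open CF_363 Stp_722 Skp2_257 Lop1_744 Lop2_744
open scoped ENNReal NNReal

/-! ### the class and the distance -/

/-- the class of the STEP -/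
def Cl (E : Set (ℝ × ℝ)) (f : ℝ × ℝ → ℝ) : Prop :=
  CFJ (hairs E) univ f ∧ HasCompactSupport f ∧ ∃ C : ℝ, ∀ p, |f p| ≤ C

/-- the energy distance -/
def Ds (E : Set (ℝ × ℝ)) (f f' : ℝ × ℝ → ℝ) (ε : ℝ) : Prop :=
  Cl E f ∧ Cl E f' ∧ 0 ≤ ε ∧ Integrable (g2 (fun q => f' q - f q)) ∧
    ∫ p, g2 (fun q => f' q - f q) p ≤ ε ^ 2

variable {E : Set (ℝ × ℝ)} {f f' f'' : ℝ × ℝ → ℝ}

theorem Cl.ae_diff (h : Cl E f) : ∀ᵐ p : ℝ × ℝ, DifferentiableAt ℝ f p := by
  obtain ⟨⟨J, hJ, L, C, hL, h1, -⟩, -⟩ := h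
  have h2 := h1.ae_differentiableAt (μ := volume) (isOpen_diff_cut isOpen_univ J)
  have h3 : ∀ᵐ p : ℝ × ℝ, p ∉ cut J := measure_eq_zero_iff_ae_notMem.mp (volume_cut J)
  filter_upwards [h2, h3] with p hp hp' using hp ⟨mem_univ p, hp'⟩

theorem Ds.refl (h : Cl E f) : Ds E f f 0 := by
  have e : g2 (fun q => f q - f q) = fun _ => 0 := by
    funext p
    simp [g2]
  refine ⟨h, h, le_rfl, ?_, ?_⟩
  · rw [e]; exact integrable_zero _ _ _
  · rw [e]; simp

theorem g2_add_weighted {u v : ℝ × ℝ → ℝ} {p : ℝ × ℝ} (hu : DifferentiableAt ℝ u p)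
    (hv : DifferentiableAt ℝ v p) {s t : ℝ} (hs : 0 < s) (ht : 0 < t) :
    g2 (fun q => u q + v q) p ≤ (1 + t / s) * g2 u p + (1 + s / t) * g2 v p := by
  simp only [g2, gx_add hu hv, gy_add hu hv]
  have key : ∀ a b : ℝ, (a + b) ^ 2 ≤ (1 + t / s) * a ^ 2 + (1 + s / t) * b ^ 2 := by
    intro a b
    have e : (1 + t / s) * a ^ 2 + (1 + s / t) * b ^ 2 - (a + b) ^ 2 = (t * a - s * b) ^ 2 / (s * t) := by
      field_simp
      ring
    have : 0 ≤ (t * a - s * b) ^ 2 / (s * t) := by positivity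
    linarith
  have h1 := key (gx u p) (gx v p)
  have h2 := key (gy u p) (gy v p)
  calc _ ≤ _ := add_le_add h1 h2
    _ = _ := by ring

/-- Minkowski -/
theorem Ds.trans {s t : ℝ} (h1 : Ds E f f' s) (h2 : Ds E f' f'' t) : Ds E f f'' (s + t) := by
  obtain ⟨c1, c2, hs, i1, e1⟩ := h1
  obtain ⟨_, c3, ht, i2, e2⟩ := h2
  have hd : ∀ᵐ p : ℝ × ℝ, DifferentiableAt ℝ (fun q => f' q - f q) p ∧
      DifferentiableAt ℝ (fun q => f'' q - f' q) p := by
    filter_upwards [c1.ae_diff, c2.ae_diff, c3.ae_diff] with p a b c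
    exact ⟨b.sub a, c.sub b⟩
  have hsum : (fun q => f'' q - f q) = fun q => (f' q - f q) + (f'' q - f' q) := by
    funext q; ring
  have hbd : ∀ s' t' : ℝ, 0 < s' → 0 < t' → ∀ᵐ p : ℝ × ℝ, g2 (fun q => f'' q - f q) p ≤
      (1 + t' / s') * g2 (fun q => f' q - f q) p + (1 + s' / t') * g2 (fun q => f'' q - f' q) p := by
    intro s' t' hs' ht'
    rw [hsum]
    filter_upwards [hd] with p hp
    exact g2_add_weighted hp.1 hp.2 hs' ht'
  have hI : Integrable (g2 (fun q => f'' q - f q)) := by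
    refine ((i1.const_mul (1 + 1 / 1)).add (i2.const_mul (1 + 1 / 1))).mono'
      (measurable_g2 _).aestronglyMeasurable ?_
    filter_upwards [hbd 1 1 one_pos one_pos] with p hp
    rw [Real.norm_of_nonneg (g2_nonneg _ p)]
    exact hp
  have hle : ∀ η : ℝ, 0 < η → ∫ p, g2 (fun q => f'' q - f q) p ≤ (s + t + 2 * η) ^ 2 := by
    intro η hη
    have hs' : 0 < s + η := by linarith
    have ht' : 0 < t + η := by linarith
    have h3 := integral_mono_ae hI ((i1.const_mul (1 + (t + η) / (s + η))).add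
      (i2.const_mul (1 + (s + η) / (t + η)))) (hbd _ _ hs' ht')
    simp only [Pi.add_apply] at h3
    rw [integral_add (i1.const_mul _) (i2.const_mul _), integral_const_mul, integral_const_mul] at h3
    refine h3.trans ?_
    have k1 : ∫ p, g2 (fun q => f' q - f q) p ≤ (s + η) ^ 2 := e1.trans (by nlinarith)
    have k2 : ∫ p, g2 (fun q => f'' q - f' q) p ≤ (t + η) ^ 2 := e2.trans (by nlinarith)
    calc _ ≤ (1 + (t + η) / (s + η)) * (s + η) ^ 2 + (1 + (s + η) / (t + η)) * (t + η) ^ 2 := by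
          gcongr
      _ = (s + t + 2 * η) ^ 2 := by
          field_simp
          ring
  refine ⟨c1, c3, add_nonneg hs ht, hI, ?_⟩
  have hI0 : 0 ≤ ∫ p, g2 (fun q => f'' q - f q) p := integral_nonneg fun p => g2_nonneg _ p
  have h4 : √(∫ p, g2 (fun q => f'' q - f q) p) ≤ s + t := by
    refine le_of_forall_pos_le_add fun η hη => ?_
    have h5 := hle (η / 2) (by positivity)
    have h6 : s + t + 2 * (η / 2) = s + t + η := by ring
    rw [h6] at h5
    exact Real.sqrt_le_left (by linarith) |>.2 h5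
  calc _ = √(∫ p, g2 (fun q => f'' q - f q) p) ^ 2 := (Real.sq_sqrt hI0).symm
    _ ≤ (s + t) ^ 2 := by gcongr

/-! ### level lines are null -/

theorem volume_snd_eq (B : ℝ) : volume {p : ℝ × ℝ | p.2 = B} = 0 := by
  have : {p : ℝ × ℝ | p.2 = B} = univ ×ˢ {B} := by
    ext p; simp
  rw [this, Measure.volume_eq_prod, Measure.prod_prod]
  simp

theorem volume_neg_snd_eq (B : ℝ) : volume {p : ℝ × ℝ | -p.2 = B} = 0 := by
  have : {p : ℝ × ℝ | -p.2 = B} = {p : ℝ × ℝ | p.2 = -B} := by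
    ext p
    simp only [mem_ofPred_eq]
    constructor <;> intro h <;> linarith
  rw [this]
  exact volume_snd_eq _

theorem lip_snd (x y : ℝ × ℝ) : |x.2 - y.2| ≤ dist x y := by
  rw [Prod.dist_eq, Real.dist_eq, Real.dist_eq]
  exact le_max_right _ _

theorem lip_neg_snd (x y : ℝ × ℝ) : |(-x.2) - (-y.2)| ≤ dist x y := by
  have : (-x.2) - (-y.2) = -(x.2 - y.2) := by ring
  rw [this, abs_neg]
  exact lip_snd x y

/-! ### a half as a cut-off on the plane -/

/-- data of a one-sided cut-off on the plane, for the height `h` and the level `B` -/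
structure One (E : Set (ℝ × ℝ)) (h : ℝ × ℝ → ℝ) (B : ℝ) (N : Set (ℝ × ℝ)) (ε : ℝ)
    (z : ℝ × ℝ → ℝ) : Prop where
  cf : CFJ (hairs E) {x | h x < B} z
  z01 : ∀ x, 0 ≤ z x ∧ z x ≤ 1
  supp : ∃ C, IsCompact C ∧ C ⊆ N ∧ ∀ x ∉ C, z x = 0
  en : En {x | h x < B} z ≤ ε

theorem En_congr {W : Set (ℝ × ℝ)} (hW : IsOpen W) {u v : ℝ × ℝ → ℝ} (h : EqOn u v W) :
    En W u = En W v := by
  refine setIntegral_congr_fun hW.measurableSet fun p hp => ?_
  have : u =ᶠ[𝓝 p] v := by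
    filter_upwards [hW.mem_nhds hp] with q hq using h hq
  simp only [g2, gx_congr this, gy_congr this]

theorem one_of_half {W N : Set (ℝ × ℝ)} {h : ℝ × ℝ → ℝ} {B ε : ℝ} {z : ℝ × ℝ → ℝ}
    (hz : Half E W N ε z) (hW : W = {x | h x < B}) (hWo : IsOpen W) :
    One E h B N ε (W.indicator z) where
  cf := by
    rw [← hW]
    exact cfj_congr hz.cf fun p hp => (indicator_of_mem hp z).symm
  z01 := fun x => by
    by_cases hx : x ∈ W
    · rw [indicator_of_mem hx]; exact hz.rg x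
    · rw [indicator_of_notMem hx]; exact ⟨le_rfl, zero_le_one⟩
  supp := by
    obtain ⟨S, hS, hSN, h0⟩ := hz.sp
    refine ⟨S, hS, hSN, fun x hx => ?_⟩
    by_cases hxW : x ∈ W
    · rw [indicator_of_mem hxW]; exact h0 x hxW hx
    · rw [indicator_of_notMem hxW]
  en := by
    rw [← hW, En_congr hWo (v := z) fun p hp => indicator_of_mem hp z]
    exact hz.en

/-- one operation: class, support, energy -/
theorem One.op_spec {h : ℝ × ℝ → ℝ} {B τ R ε : ℝ} {N W : Set (ℝ × ℝ)} {z c χ : ℝ × ℝ → ℝ}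
    (hz : One E h B N ε z) (hh : ∀ x y, |h x - h y| ≤ dist x y) (hτ : 0 < τ)
    (hNW : N ⊆ W) (hχ : Cl E χ)
    (hc : ∀ x ∈ W, ∀ᶠ y in 𝓝 x, c y = c x) (hcR : ∀ x, |c x| ≤ R) (hχR : ∀ x, |χ x| ≤ R) :
    Cl E (op h B τ z c χ) := by
  obtain ⟨C, hC, hCN, h0⟩ := hz.supp
  refine ⟨op_cfj hh hτ hχ.1 hz.cf hz.z01 hC.isClosed h0 (fun x hx => hc x (hNW (hCN hx))) hcR hχR,
    ?_, R, op_abs_le hz.z01 hcR hχR⟩
  refine HasCompactSupport.intro (hC.union hχ.2.1) fun x hx => ?_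
  rw [mem_union, not_or] at hx
  rw [op_eq_of_z (h0 x hx.1)]
  exact image_eq_zero_of_notMem_tsupport hx.2

theorem One.op_energy {h : ℝ × ℝ → ℝ} {B τ R ε : ℝ} {N W : Set (ℝ × ℝ)} {z c χ : ℝ × ℝ → ℝ}
    (hz : One E h B N ε z) (hh : ∀ x y, |h x - h y| ≤ dist x y) (hτ : 0 < τ)
    (hnull : volume {p | h p = B} = 0) (hNW : N ⊆ W) (hNv : volume N ≠ ∞)
    {J : Finset Hair} {L : ℝ} (hL : 0 ≤ L) (h1 : SL (univ \ cut J) L χ)
    (hc : ∀ x ∈ W, ∀ᶠ y in 𝓝 x, c y = c x) (hcR : ∀ x, |c x| ≤ R) (hχR : ∀ x, |χ x| ≤ R) :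
    Integrable (g2 (fun q => op h B τ z c χ q - χ q)) ∧
    ∫ p, g2 (fun q => op h B τ z c χ q - χ q) p ≤
      (4 * L ^ 2 + 32 * R ^ 2 / τ ^ 2) * (volume N).toReal + 16 * R ^ 2 * ε := by
  classical
  obtain ⟨C, hC, hCN, h0⟩ := hz.supp
  obtain ⟨J', hJ', M, _, hM, h2, _⟩ := hz.cf
  have h3 := op_En (J := J ∪ J') (L := L) (M := M) (R := R) (c := c) (χ := χ) hh hτ hnull hL
    (h1.mono (sdiff_subset_sdiff_right (cut_mono Finset.subset_union_left))) hM
    (h2.mono (sdiff_subset_sdiff_right (cut_mono Finset.subset_union_right))) hz.z01 hC h0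
    (fun x hx => hc x (hNW (hCN hx))) hcR hχR
  refine ⟨h3.1, h3.2.trans ?_⟩
  have h4 : (volume C).toReal ≤ (volume N).toReal := ENNReal.toReal_mono hNv (measure_mono hCN)
  have h5 := hz.en
  gcongr

end Crest.Agent.R105.Lop3_744
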