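import Crest.Agent.R105.Vb3_818

/-!
# R105 (S0138, NI frame): slice bounds with an explicit set of charged components (helper319)

`SlP Y P a f R t` : 31's `SlB` with the exceptional components given (`P`);
* `slp_of_line` : from the line inequality (818's proof, the set of charged components is kept)
* `slp_pull`    : transport from the picture plane to the `z`-plane
* `slp_anchor`  : both, from `LY`; charged components = those with `s ≠ 0`
-/

set_option autoImplicit false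

open MeasureTheory Set Filter Topology Metric
open scoped NNReal ENNReal

namespace Crest.Agent.R105.Lyx_319

open Ends_897 Tc_808 Ni_459 Ta_937 Nip_31 Crest.AnalysisR Vb_818

noncomputable section

/-- slice bounds, the charged components are in `P` -/
def SlP (Y : Set ℂ) (P : Set (Cmp Y)) (a f : ℂ → ℝ) (R t : ℝ) : Prop :=
  ∃ ν : Measure ℂ, IsFiniteMeasure ν ∧ ν (Y \ ⋃ K ∈ P, K.1) = 0 ∧
    ∀ C ⊆ Lv Y a t ∩ ball 0 R, IsCompact C → IsPreconnected C →
      (∀ z ∈ C, connectedComponentIn Y z ⊆ C) →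
      ∀ p ∈ C \ Y, ∀ q ∈ C \ Y, |f p - f q| ≤ (ν C).toReal

/-- slice bounds from the line inequality, picture plane; the charged components are kept -/
theorem slp_of_line {Y : Set ℂ} (hY : IsExteriorDomain Yᶜ) (sec : Sec Y) {g : ℂ → ℝ} {t : ℝ}
    {m : ℝ → ℝ≥0∞} {w : Cmp Y → ℝ≥0∞} {P : Set (Cmp Y)} (hP : P.Countable)
    (hwP : ∀ K, w K ≠ 0 → K ∈ P) (h : LineBd Y g t m w) (R : ℝ) :
    SlP Y P (fun z => z.re) g R t := by
  classical
  have hYc := cpt_of hY
  have hYm : MeasurableSet Y := hYc.isClosed.measurableSet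
  set S : Set ℂ := ⋃ K ∈ P, K.1 with hS
  have hSm : MeasurableSet S := MeasurableSet.biUnion hP fun K _ =>
    (K.isCompact hYc).isClosed.measurableSet
  refine ⟨nuL Y t R m + nuA Y w, ?_, ?_, ?_⟩
  · refine ⟨?_⟩
    rw [Measure.add_apply, nuL_apply MeasurableSet.univ, nuA_apply MeasurableSet.univ]
    refine ENNReal.add_lt_top.2 ⟨?_, ?_⟩
    · refine lt_of_le_of_lt (lintegral_mono_set inter_subset_right) (lt_top_iff_ne_top.2 (h.fin R))
    · simp only [indicator_univ, Pi.one_apply, mul_one]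
      exact lt_top_iff_ne_top.2 h.sum
  · rw [Measure.add_apply, nuL_apply (hYm.diff hSm), nuA_apply (hYm.diff hSm)]
    have e1 : {y : ℝ | (⟨t, y⟩ : ℂ) ∈ Y \ S} ∩ (Ioo (-R) R ∩ {y : ℝ | (⟨t, y⟩ : ℂ) ∉ Y}) = ∅ := by
      rw [eq_empty_iff_forall_notMem]
      rintro y ⟨h1, -, h2⟩
      exact h2 h1.1
    rw [e1]
    simp only [Measure.restrict_empty, lintegral_zero_measure, zero_add]
    rw [ENNReal.tsum_eq_zero]
    intro K
    by_cases hK : w K = 0
    · rw [hK, zero_mul]
    · have : pt K ∉ Y \ S := fun hm => hm.2 (by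
        rw [hS]; exact mem_biUnion (hwP K hK) (pt_mem K))
      rw [indicator_of_notMem this, mul_zero]
  · intro C hC hCc hCp hCs
    have hCm : MeasurableSet C := hCc.isClosed.measurableSet
    have hL : C ⊆ St Y (Ln t) := fun z hz => Lv_re hY t (hC hz).1
    have line : ∀ z ∈ C, z ∉ Y → z.re = t := by
      intro z hz hzY
      rcases hL hz with h | ⟨x, hx, -⟩
      · exact h
      · rw [connectedComponentIn_eq_empty hzY] at hx; exact hx.elim
    have hfin : (nuL Y t R m + nuA Y w) C ≠ ∞ := by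
      rw [Measure.add_apply, nuL_apply hCm, nuA_apply hCm]
      refine ENNReal.add_ne_top.2 ⟨?_, ?_⟩
      · exact ne_top_of_le_ne_top (h.fin R) (lintegral_mono_set inter_subset_right)
      · refine ne_top_of_le_ne_top h.sum (ENNReal.tsum_le_tsum fun K => ?_)
        refine (mul_le_mul_right (indicator_le_self' (s := C) (f := (1 : ℂ → ℝ≥0∞))
          (fun _ _ => zero_le) (pt K)) (w K)).trans ?_
        simp
    -- ordered version
    have key : ∀ p ∈ C \ Y, ∀ q ∈ C \ Y, p.im < q.im →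
        |g q - g p| ≤ ((nuL Y t R m + nuA Y w) C).toReal := by
      rintro p ⟨hp, hpY⟩ q ⟨hq, hqY⟩ hpq
      have ep : (⟨t, p.im⟩ : ℂ) = p := Complex.ext (line p hp hpY).symm rfl
      have eq : (⟨t, q.im⟩ : ℂ) = q := Complex.ext (line q hq hqY).symm rfl
      have h1 := h.bd p.im q.im hpq (by rw [ep]; exact hpY) (by rw [eq]; exact hqY)
      rw [ep, eq] at h1
      have hseg : ∀ y ∈ Ioo p.im q.im, (⟨t, y⟩ : ℂ) ∈ C := fun y hy =>
        seg hYc sec hCp hCs hL hp hq hpY hqY (w := ⟨t, y⟩) hy.1.le hy.2.le rfl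
      rw [← ENNReal.toReal_ofReal (abs_nonneg (g q - g p))]
      refine ENNReal.toReal_mono hfin (h1.trans ?_)
      rw [Measure.add_apply, nuL_apply hCm, nuA_apply hCm]
      refine add_le_add ?_ ?_
      · refine lintegral_mono_set fun y hy => ⟨hseg y hy.1, ?_, hy.2⟩
        have h2 := (hC (hseg y hy.1)).2
        rw [mem_ball_zero_iff] at h2
        have h3 : |y| ≤ ‖(⟨t, y⟩ : ℂ)‖ := Complex.abs_im_le_norm ⟨t, y⟩
        exact abs_lt.1 (lt_of_le_of_lt h3 h2)
      · have h2 : ∀ K : {K : Cmp Y // ∃ y ∈ Ioo p.im q.im, (⟨t, y⟩ : ℂ) ∈ K.1},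
            w K.1 = w K.1 * C.indicator 1 (pt K.1) := by
          rintro ⟨K, y, hy, hyK⟩
          have h3 : K.1 ⊆ C := by
            rw [← cc_of_mem K hyK]
            exact hCs _ (hseg y hy)
          simp only
          rw [indicator_of_mem (h3 (pt_mem K)), Pi.one_apply, mul_one]
        rw [tsum_congr h2]
        exact ENNReal.tsum_comp_le_tsum_of_injective Subtype.val_injective
          (fun K => w K * C.indicator 1 (pt K))
    intro p hp q hq
    rcases lt_trichotomy p.im q.im with h1 | h1 | h1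
    · rw [abs_sub_comm]; exact key p hp q hq h1
    · have : p = q := Complex.ext ((line p hp.1 hp.2).trans (line q hq.1 hq.2).symm) h1
      rw [this, sub_self, abs_zero]; exact ENNReal.toReal_nonneg
    · exact key q hq p hp h1

variable {U V : Set ℂ} {F : ℂ → ℂ} {φ g u f : ℂ → ℝ}

/-- **transport of slice bounds**, charged components kept -/
theorem slp_pull (h : EndMap U V F) (he : ∀ z ∈ U, u z = φ (F z)) (hf : ∀ z ∈ U, f z = g (F z))
    {P : Set (Cmp Vᶜ)} (hPc : P.Countable)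
    {t : ℝ} (hs : ∀ R, SlP Vᶜ P φ g R t) (R : ℝ) : SlP Uᶜ (corE h ⁻¹' P) u f R t := by
  classical
  have hUo : IsOpen U := h.hU.1
  have hVo : IsOpen V := h.hV.1
  -- the radius
  obtain ⟨R', hR'⟩ : ∃ R', sat h (ball 0 R) ⊆ ball 0 R' := by
    have hb := isBounded_sat h (C := ball (0:ℂ) R) isBounded_ball
    obtain ⟨R', hR'⟩ := hb.subset_ball 0
    exact ⟨R', hR'⟩
  obtain ⟨ν, hν, hν0, hC⟩ := hs R'
  have hVm : MeasurableSet V := hVo.measurableSet
  have hUm : MeasurableSet U := hUo.measurableSet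
  have hVc : IsCompact Vᶜ := Ends_897.isCompact_compl h.hV
  have hcl : ∀ L : Cmp Vᶜ, IsClosed L.1 := fun L => (L.isCompact hVc).isClosed
  have hinv : AEMeasurable h.inv (ν.restrict V) := h.symm.cont.aemeasurable hVm
  set 𝒮 : Set (Cmp Uᶜ) := corE h ⁻¹' P with h𝒮
  have h𝒮c : 𝒮.Countable := hPc.preimage_of_injOn (corE h).injective.injOn
  have : Countable 𝒮 := h𝒮c.to_subtype
  set μ : Measure ℂ := (ν.restrict V).map h.inv +
    Measure.sum fun K : 𝒮 => ν (corE h K.1).1 • Measure.dirac (pt K.1) with hμ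
  set T : Set ℂ := ⋃ K ∈ 𝒮, K.1 with hT
  have hUc : IsCompact Uᶜ := Ends_897.isCompact_compl h.hU
  have hTm : MeasurableSet T := MeasurableSet.biUnion h𝒮c fun K _ =>
    (K.isCompact hUc).isClosed.measurableSet
  have hdisj : Pairwise (Function.onFun Disjoint fun K : 𝒮 => (corE h K.1).1) := by
    intro K K' hne
    refine Cmp.disjoint fun he => hne ?_
    exact Subtype.ext ((corE h).injective he)
  have hsumfin : ∑' K : 𝒮, ν (corE h K.1).1 ≠ ∞ := by
    rw [← measure_iUnion hdisj fun K => (hcl _).measurableSet]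
    exact measure_ne_top _ _
  have hμapp : ∀ A : Set ℂ, MeasurableSet A → μ A =
      ν.restrict V (h.inv ⁻¹' A) + ∑' K : 𝒮, ν (corE h K.1).1 * A.indicator 1 (pt K.1) := by
    intro A hA
    rw [hμ, Measure.add_apply, Measure.map_apply_of_aemeasurable hinv hA, Measure.sum_apply _ hA]
    congr 1
    refine tsum_congr fun K => ?_
    rw [Measure.smul_apply, smul_eq_mul, Measure.dirac_apply' _ hA]
  have hμfin : IsFiniteMeasure μ := by
    refine ⟨?_⟩
    rw [hμapp _ MeasurableSet.univ]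
    refine ENNReal.add_lt_top.2 ⟨measure_lt_top _ _, ?_⟩
    simp only [indicator_univ, Pi.one_apply, mul_one]
    exact lt_top_iff_ne_top.2 hsumfin
  refine ⟨μ, hμfin, ?_, ?_⟩
  · have hm : MeasurableSet (Uᶜ \ T) := hUm.compl.diff hTm
    rw [hμapp _ hm]
    have e1 : ν.restrict V (h.inv ⁻¹' (Uᶜ \ T)) = 0 := by
      rw [Measure.restrict_apply₀' hVm.nullMeasurableSet]
      have : h.inv ⁻¹' (Uᶜ \ T) ∩ V = ∅ := by
        rw [eq_empty_iff_forall_notMem]
        rintro w ⟨h1, h2⟩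
        exact h1.1 (h.inv_mem h2)
      rw [this, measure_empty]
    rw [e1, zero_add, ENNReal.tsum_eq_zero]
    intro K
    have : pt K.1 ∉ Uᶜ \ T := fun hm => hm.2 (by rw [hT]; exact mem_biUnion K.2 (pt_mem K.1))
    rw [indicator_of_notMem this, mul_zero]
  · intro C hCL hCc hCp hCs p hp q hq
    have hCS : Sa Uᶜ C := hCs
    obtain ⟨k1, k2, k3, k4⟩ := sat_continuum h hCS hCc hCp
    have hp' : F p ∈ sat h C \ Vᶜ := by rw [k4]; exact ⟨p, hp, rfl⟩
    have hq' : F q ∈ sat h C \ Vᶜ := by rw [k4]; exact ⟨q, hq, rfl⟩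
    have hpU : p ∈ U := not_not.1 hp.2
    have hqU : q ∈ U := not_not.1 hq.2
    have hsub : sat h C ⊆ Lv Vᶜ φ t ∩ ball 0 R' := by
      refine subset_inter ?_ ?_
      · rw [← sat_Lv h he t]
        exact sat_mono h fun z hz => (hCL hz).1
      · exact (sat_mono h fun z hz => (hCL hz).2).trans hR'
    have h1 := hC (sat h C) hsub k1 k2 k3 (F p) hp' (F q) hq'
    rw [← hf p hpU, ← hf q hqU] at h1
    refine h1.trans (ENNReal.toReal_mono (measure_ne_top μ C) ?_)
    have hCm : MeasurableSet C := hCc.isClosed.measurableSet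
    rw [hμapp C hCm]
    -- decomposition of `sat h C`
    have hcov : sat h C ⊆ (sat h C ∩ V) ∪ (Vᶜ \ ⋃ K ∈ P, K.1) ∪
        ⋃ K : 𝒮, (if K.1.1 ⊆ C then (corE h K.1).1 else ∅) := by
      intro ζ hζ
      by_cases hζV : ζ ∈ V
      · exact Or.inl (Or.inl ⟨hζ, hζV⟩)
      by_cases hζS : ζ ∈ ⋃ K ∈ P, K.1
      · right
        obtain ⟨K, hK⟩ := exists_K h hζV
        simp only [mem_iUnion] at hζS
        obtain ⟨L, hLP, hζL⟩ := hζS
        have hKL : corE h K = L := ((corE h K).eq_of_mem hK).trans (L.eq_of_mem hζL).symm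
        have hKS : K ∈ 𝒮 := by
          show corE h K ∈ P
          rw [hKL]; exact hLP
        have hKC : K.1 ⊆ C := (mem_sat_of_mem h K hK).1 hζ
        refine mem_iUnion.2 ⟨⟨K, hKS⟩, ?_⟩
        simp only
        rw [if_pos hKC]; exact hK
      · exact Or.inl (Or.inr ⟨hζV, hζS⟩)
    have h2 : ν (sat h C ∩ V) ≤ ν.restrict V (h.inv ⁻¹' C) := by
      rw [Measure.restrict_apply₀' hVm.nullMeasurableSet]
      refine measure_mono fun ζ hζ => ⟨?_, hζ.2⟩
      have h3 : F (h.inv ζ) = ζ := h.inv_right hζ.2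
      have h4 : F (h.inv ζ) ∈ sat h C := by rw [h3]; exact hζ.1
      exact (F_mem_sat h (h.inv_mem hζ.2)).1 h4
    have h3 : ν (⋃ K : 𝒮, (if K.1.1 ⊆ C then (corE h K.1).1 else ∅)) ≤
        ∑' K : 𝒮, ν (corE h K.1).1 * C.indicator 1 (pt K.1) := by
      refine (measure_iUnion_le _).trans (ENNReal.tsum_le_tsum fun K => ?_)
      by_cases hK : K.1.1 ⊆ C
      · rw [if_pos hK, indicator_of_mem (hK (pt_mem K.1)), Pi.one_apply, mul_one]
      · rw [if_neg hK, measure_empty]; exact zero_le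
    calc ν (sat h C) ≤ ν ((sat h C ∩ V) ∪ (Vᶜ \ ⋃ K ∈ P, K.1) ∪
          ⋃ K : 𝒮, (if K.1.1 ⊆ C then (corE h K.1).1 else ∅)) := measure_mono hcov
      _ ≤ (ν (sat h C ∩ V) + ν (Vᶜ \ ⋃ K ∈ P, K.1)) +
          ν (⋃ K : 𝒮, (if K.1.1 ⊆ C then (corE h K.1).1 else ∅)) :=
        (measure_union_le _ _).trans (add_le_add_left (measure_union_le _ _) _)
      _ ≤ ν.restrict V (h.inv ⁻¹' C) + ∑' K : 𝒮, ν (corE h K.1).1 * C.indicator 1 (pt K.1) := by
        rw [hν0, add_zero]; exact add_le_add h2 h3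

/-- slice bounds along the levels of an anchor with a picture, charged components kept -/
theorem slp_anchor {X : ℂ → ℝ} {s : Cmp Vᶜ → ℝ}
    (h : EndMap U V F) (hX : ∀ z ∈ U, X z = (F z).re) (hf : ∀ z ∈ U, f z = g (F z))
    (hord : ∀ L : Cmp Vᶜ, ∀ t, OrdConnected (Sqr_185.sec L.1 t)) (hs0 : ∀ L, 0 ≤ s L)
    (hsc : {L : Cmp Vᶜ | s L ≠ 0}.Countable)
    {t : ℝ} (hL : LY Vᶜ g s t) (R : ℝ) : SlP Uᶜ (corE h ⁻¹' {L | s L ≠ 0}) X f R t := by
  have hV : IsExteriorDomain (Vᶜ)ᶜ := by rw [compl_compl]; exact h.hV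
  have hVc : IsCompact Vᶜ := Ends_897.isCompact_compl h.hV
  have sec : Sec Vᶜ := fun z hz t => hord (Cmp.of hz) t
  refine slp_pull h (φ := fun w => w.re) hX hf hsc
    (fun R => slp_of_line hV sec hsc (fun K hK => ?_) (lineBd_of_ly hVc hs0 hL) R) R
  intro h0
  apply hK
  unfold wl
  split_ifs with hh
  · rw [h0, ENNReal.ofReal_zero]
  · rfl

end

end Crest.Agent.R105.Lyx_319
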