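import Crest.Agent.R105.Grd3_782
import Crest.Agent.R105.Ni2_459
import Crest.Agent.R105.Uni3_659
import Crest.Agent.R105.Att3_790
import Crest.Agent.R105.C2c_86

/-!
# Row 105, S0138 (T-frame, NI), NI-MIN part 1 (helper790): congruence and shift rules for
`up`, `lo`, `NI`, `Swd`; removal of the predicate at infinity by the logarithmic cut-off
-/

set_option autoImplicit false

open MeasureTheory Set Filter Topology Metric
open scoped NNReal ENNReal

namespace Crest.Agent.R105.Min_790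

open Bd_775 Ends_897 Tc_808 Ni_459 Grd_782 Crest.AnalysisR
open Crest.Agent.R105.IfB_641 (J di lap X0)

noncomputable section

variable {Y : Set ℂ} {x0 φ ψ a b f g u v : ℂ → ℝ} {z : ℂ}

/-! ### envelopes -/

lemma up_add_le (hY : IsExteriorDomain Yᶜ) (hu : LB u) (c : ℝ) :
    up Y (fun w => u w + c) z ≤ up Y u z + c := by
  have hc : LB fun w => u w + c := hu.add (LB.of_bdd ⟨|c|, fun _ => le_rfl⟩)
  refine le_of_forall_gt_imp_ge_of_dense fun d hd => ?_
  obtain ⟨O, hO, h⟩ := exists_lt_of_up_lt hY hu (show up Y u z < d - c by linarith)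
  exact up_le hY hc hO fun w hw hwY => by linarith [h w hw hwY]

lemma up_add (hY : IsExteriorDomain Yᶜ) (hu : LB u) (c : ℝ) :
    up Y (fun w => u w + c) z = up Y u z + c := by
  refine le_antisymm (up_add_le hY hu c) ?_
  have hc : LB fun w => u w + c := hu.add (LB.of_bdd ⟨|c|, fun _ => le_rfl⟩)
  have h := up_add_le (z := z) hY hc (-c)
  simp only [add_neg_cancel_right] at h
  linarith

lemma lo_add (hY : IsExteriorDomain Yᶜ) (hu : LB u) (c : ℝ) :
    lo Y (fun w => u w + c) z = lo Y u z + c := by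
  unfold lo
  have h := up_add (z := z) hY hu.neg (-c)
  have e : (fun w => -(u w + c)) = fun w => -u w + -c := by funext w; ring
  rw [e, h]; ring

/-- shifts of switched functions are switched -/
lemma Swd_add (hY : IsExteriorDomain Yᶜ) (hu : LB u) (h : Swd Y u) (c : ℝ) :
    Swd Y fun w => u w + c where
  gt t z hz := by
    simp only [lo_add hY hu c] at hz ⊢
    have e : {w | t < lo Y u w + c} = {w | t - c < lo Y u w} := by
      ext w; simp only [mem_ofPred_eq]; constructor <;> intro h <;> linarith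
    rw [e]
    exact h.gt (t - c) z (by linarith)
  lt t z hz := by
    simp only [up_add hY hu c] at hz ⊢
    have e : {w | up Y u w + c < t} = {w | up Y u w < t - c} := by
      ext w; simp only [mem_ofPred_eq]; constructor <;> intro h <;> linarith
    rw [e]
    exact h.lt (t - c) z (by linarith)

/-- `NI` only sees the germs at `Y` -/
lemma NI_congr (hY : IsExteriorDomain Yᶜ) (ha : LB a) (hf : LB f) (hb : LB b) (hg : LB g)
    {O : Set ℂ} (hO : IsOpen O) (hYO : Y ⊆ O) (h1 : ∀ z ∈ O, z ∉ Y → a z = f z)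
    (h2 : ∀ z ∈ O, z ∉ Y → b z = g z) (h : NI Y a b) : NI Y f g := by
  have hnb : ∀ z ∈ Y, Nb Y z O := fun z hz =>
    nb_of_mem hz hO ((connectedComponentIn_subset _ _).trans hYO)
  have he : NP Y f g = NP Y a b := by
    ext p
    constructor
    · rintro ⟨z, hz, e1, e2, e3, e4⟩
      refine ⟨z, hz, ?_, ?_, ?_, ?_⟩
      · rw [lo_congr hY ha hf (hnb z hz) h1]; exact e1
      · rw [up_congr hY ha hf (hnb z hz) h1]; exact e2
      · rw [lo_congr hY hb hg (hnb z hz) h2]; exact e3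
      · rw [up_congr hY hb hg (hnb z hz) h2]; exact e4
    · rintro ⟨z, hz, e1, e2, e3, e4⟩
      refine ⟨z, hz, ?_, ?_, ?_, ?_⟩
      · rw [← lo_congr hY ha hf (hnb z hz) h1]; exact e1
      · rw [← up_congr hY ha hf (hnb z hz) h1]; exact e2
      · rw [← lo_congr hY hb hg (hnb z hz) h2]; exact e3
      · rw [← up_congr hY hb hg (hnb z hz) h2]; exact e4
  unfold NI
  rw [he]; exact h

/-- `NI` is invariant under shifts -/
lemma NI_add (hY : IsExteriorDomain Yᶜ) (hb : LB b) (h : NI Y a b) (c : ℝ) :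
    NI Y a fun w => b w + c := by
  refine NI.of_rule (b := fun _ => b) (fun _ => h) (G := fun _ t => t + c)
    (fun _ => ⟨1, LipschitzWith.of_dist_le_mul fun x y => by simp⟩) countable_empty
    (J := ∅) countable_empty ?_
  intro z hz _ _ h2
  left
  refine ⟨0, 0, ?_, ?_⟩
  · simp only [lo_add hY hb c, up_add hY hb c] at h2
    linarith
  · exact lo_add hY hb c

/-- `x0` vanishes near `Y` -/
lemma x0_near (hx : X0 Y x0) : IsOpen (tsupport x0)ᶜ ∧ Y ⊆ (tsupport x0)ᶜ ∧
    ∀ z ∈ (tsupport x0)ᶜ, x0 z = 0 :=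
  ⟨(isClosed_tsupport x0).isOpen_compl, fun _ hz hz' => hx.zero hz' hz,
    fun _ hz => image_eq_zero_of_notMem_tsupport hz⟩

lemma LB_x0 (hx : X0 Y x0) : LB x0 := LB.of_cont hx.sm.continuous

lemma NI_x0 (hY : IsExteriorDomain Yᶜ) (hx : X0 Y x0) (ha : LB a) (hb : LB b) (h : NI Y a b) :
    NI Y (fun z => x0 z + a z) (fun z => x0 z + b z) := by
  obtain ⟨h1, h2, h3⟩ := x0_near hx
  exact NI_congr hY ha ((LB_x0 hx).add ha) hb ((LB_x0 hx).add hb) h1 h2
    (fun z hz _ => by rw [h3 z hz, zero_add]) (fun z hz _ => by rw [h3 z hz, zero_add]) h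

/-- jumps are countable -/
lemma jmp_countable {u : ℂ → ℝ} (h : Summable fun K : Cmp Y => osc Y u K.1 ^ 2) :
    (Jmp Y u).Countable := by
  refine h.countable_support.mono fun K hK => ?_
  simp only [Function.mem_support]
  exact pow_ne_zero 2 hK

/-! ### removal of the predicate at infinity -/

/-- vanishing near infinity -/
def PZ (φ : ℂ → ℝ) : Prop := ∃ R : ℝ, ∀ z, R < ‖z‖ → φ z = 0

lemma PLin_PZ : PLin PZ := by
  rintro b b' ⟨R, hR⟩ ⟨R', hR'⟩ s t
  refine ⟨max R R', fun z hz => ?_⟩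
  simp only []
  rw [hR z ((le_max_left _ _).trans_lt hz), hR' z ((le_max_right _ _).trans_lt hz)]
  ring

/-- **logarithmic cut-off at infinity in the `T`-frame** -/
theorem cutoffT (hY : IsCompact Y) (hx : X0 Y x0) (hφ : TT Y φ) (R : ℝ) {ε : ℝ} (hε : 0 < ε) :
    ∃ φ' : ℂ → ℝ, TT Y φ' ∧ PZ φ' ∧ TJ Y x0 φ' ≤ TJ Y x0 φ + ε ∧
      (∀ z, ‖z‖ ≤ R → φ' z = φ z) := by
  have hYc := hY.isClosed
  obtain ⟨M, hM⟩ := hφ.q.bdd
  obtain ⟨R1, hR1⟩ := hx.lap_far
  obtain ⟨R2, hR2⟩ := hY.isBounded.subset_ball (0 : ℂ)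
  set E : ℝ := di Y φ φ with hE
  have hE0 : 0 ≤ E := di_self_nonneg φ
  set s : ℝ := ε / (2 * (E + 1)) with hs
  have hs0 : 0 < s := by positivity
  set κ : ℝ := ε / (2 * ((1 + 1 / s) * (M ^ 2 + 1))) with hκ
  have hκ0 : 0 < κ := by positivity
  obtain ⟨χ, ⟨L, hL⟩, hχc, hχ1, hχR, hχi, hχe⟩ :=
    Stk_939.exists_cut_inf (max R (max R1 R2)) hκ0
  have hχR' : ∀ z, ‖z‖ ≤ R → χ z = 1 := fun z hz => hχR z (hz.trans (le_max_left _ _))
  have hχR1 : ∀ z, ‖z‖ ≤ R1 → χ z = 1 := fun z hz =>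
    hχR z (hz.trans ((le_max_left _ _).trans (le_max_right _ _)))
  have hχR2 : ∀ z, ‖z‖ ≤ R2 → χ z = 1 := fun z hz =>
    hχR z (hz.trans ((le_max_right _ _).trans (le_max_right _ _)))
  have hlc : LC Y χ := by
    refine Bd_775.LC.of_lipschitz hL hχc fun z hz => ?_
    have hz2 : ‖z‖ < R2 := by simpa using hR2 hz
    have hev : ∀ᶠ w in 𝓝 z, ‖w‖ < R2 := continuous_norm.continuousAt.eventually (gt_mem_nhds hz2)
    filter_upwards [hev] with w hw
    rw [hχR2 w hw.le, hχR2 z hz2.le]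
  have hT : TT Y (fun z => χ z * φ z) := (TT.lc hlc).mul hYc hφ
  have hosc : ∀ K : Cmp Y, Tc_808.osc Y (fun z => χ z * φ z) K.1 = Tc_808.osc Y φ K.1 := fun K =>
    osc_congr isOpen_ball (K.subset.trans hR2) fun z hz _ => by
      rw [hχR2 z (by simpa using (mem_ball_zero_iff.1 hz).le), one_mul]
  refine ⟨fun z => χ z * φ z, hT, ?_, ?_, fun z hz => by simp only [hχR' z hz, one_mul]⟩
  · obtain ⟨R3, hR3⟩ := hχc.isCompact.isBounded.subset_closedBall (0 : ℂ)
    refine ⟨R3, fun z hz => ?_⟩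
    have : χ z = 0 := image_eq_zero_of_notMem_tsupport fun h => by
      have := mem_closedBall_zero_iff.1 (hR3 h)
      linarith
    simp only [this, zero_mul]
  · have h1 : (∫ z, (χ z * φ z) * lap x0 z) = ∫ z, φ z * lap x0 z := by
      congr 1
      funext z
      by_cases hz : R1 < ‖z‖
      · rw [hR1 z hz]; simp
      · rw [hχR1 z (not_lt.1 hz), one_mul]
    have h2 : di Y (fun z => χ z * φ z) (fun z => χ z * φ z) ≤
        (1 + s) * E + (1 + 1 / s) * M ^ 2 * κ := by
      rw [di_self, hE, di_self]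
      have hint : IntegrableOn (fun z => (1 + s) * en φ z + (1 + 1 / s) * M ^ 2 * en χ z) Yᶜ :=
        (hφ.q.fin.const_mul _).add (hχi.integrableOn.const_mul _)
      calc (∫ z in Yᶜ, en (fun z => χ z * φ z) z)
          ≤ ∫ z in Yᶜ, ((1 + s) * en φ z + (1 + 1 / s) * M ^ 2 * en χ z) := by
            refine integral_mono_ae hT.q.fin hint ?_
            filter_upwards [hφ.q.ae_diff hYc, hlc.q.ae_diff hYc] with z d1 d2
            refine C2c_86.en_mul_le_t d2 d1 hs0 ?_ (hM z)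
            rw [abs_le]
            exact ⟨by linarith [(hχ1 z).1], (hχ1 z).2⟩
        _ = (1 + s) * (∫ z in Yᶜ, en φ z) + (1 + 1 / s) * M ^ 2 * ∫ z in Yᶜ, en χ z := by
            rw [integral_add (hφ.q.fin.const_mul _) (hχi.integrableOn.const_mul _),
              integral_const_mul, integral_const_mul]
        _ ≤ (1 + s) * (∫ z in Yᶜ, en φ z) + (1 + 1 / s) * M ^ 2 * κ := by
            have : (∫ z in Yᶜ, en χ z) ≤ ∫ z, en χ z :=
              setIntegral_le_integral hχi (Eventually.of_forall fun z => en_nonneg χ z)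
            have h4 : 0 ≤ (1 + 1 / s) * M ^ 2 := by positivity
            have := mul_le_mul_of_nonneg_left (this.trans hχe) h4
            linarith
    have h3 : s * E ≤ ε / 2 := by
      rw [hs, div_mul_eq_mul_div, div_le_div_iff₀ (by positivity) two_pos]
      nlinarith
    have h4 : (1 + 1 / s) * M ^ 2 * κ ≤ ε / 2 := by
      have h5 : 0 < 1 + 1 / s := by positivity
      rw [hκ, mul_div_assoc', div_le_div_iff₀ (by positivity) two_pos]
      nlinarith [mul_pos h5 hε, sq_nonneg M]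
    unfold TJ J
    simp only [hosc]
    rw [h1]
    have : (1 + s) * E = E + s * E := by ring
    linarith

/-- minimality without the predicate at infinity -/
theorem SelT_min' {P : (ℂ → ℝ) → Prop} (hPZ : ∀ φ, PZ φ → P φ) {u : ℕ → ℂ → ℝ} {m : ℝ}
    {σ : Cmp Y → ℝ} (hY : IsExteriorDomain Yᶜ) (hx : X0 Y x0) (h : SelT Y x0 P u m σ) {b : ℂ → ℝ}
    (hb : TT Y b) (hni : ∀ i, NI Y (u i) b) : m ≤ TJ Y x0 b := by
  have hYc : IsCompact Y := cpt_of hY
  obtain ⟨R, hR⟩ := hYc.isBounded.subset_ball (0 : ℂ)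
  refine le_of_forall_pos_le_add fun ε hε => ?_
  obtain ⟨b', h1, h2, h3, h4⟩ := cutoffT hYc hx hb R hε
  refine (h.min b' h1 (hPZ b' h2) fun i => ?_).trans h3
  have hu := LB.of_bdd (h.tt i).q.bdd
  exact NI_congr hY hu hu (LB.of_bdd hb.q.bdd) (LB.of_bdd h1.q.bdd) isOpen_ball hR
    (fun _ _ _ => rfl) (fun z hz _ => (h4 z (mem_ball_zero_iff.1 hz).le).symm) (hni i)

end

end Crest.Agent.R105.Min_790
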