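import Crest.Agent.R105.Min1_790
import Crest.Agent.R105.SelT2_871

/-!
# Row 105, S0138 (T-frame, NI), NI-MIN part 2 (helper790): the minimiser

* `Lim` : the conclusion of CONV (755) in the letters of `SelT`
* `psi Y x0 p` : the limit function (`re p - x0` off `Y`)
* `CloP` : closedness of commutants (T4)
* `MinT` : the package;  `minT : SelT → Lim → CloP → MinT`
-/

set_option autoImplicit false

open MeasureTheory Set Filter Topology Metric
open scoped NNReal ENNReal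

namespace Crest.Agent.R105.Min_790

open Bd_775 Ends_897 Tc_808 Ni_459 Grd_782 Crest.AnalysisR
open Crest.Agent.R105.IfB_641 (J di lap X0)

noncomputable section

variable {Y : Set ℂ} {x0 φ ψ a b f g : ℂ → ℝ} {z : ℂ} {P : (ℂ → ℝ) → Prop}
  {u : ℕ → ℂ → ℝ} {m : ℝ} {σ : Cmp Y → ℝ} {c : ℕ → ℝ} {p : ℂ → ℂ}

/-- the limit of a sequence `x0 + u n` (CONV) -/
structure Lim (Y : Set ℂ) (x0 : ℂ → ℝ) (u : ℕ → ℂ → ℝ) (c : ℕ → ℝ) (p : ℂ → ℂ) : Prop where
  hol : DifferentiableOn ℂ p Yᶜ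
  inf : ∃ c' : ℂ, Tendsto (fun z => p z - z) (cocompact ℂ) (𝓝 c')
  unif : TendstoLocallyUniformlyOn (fun n z => x0 z + u n z + c n) (fun z => (p z).re) atTop Yᶜ
  int : ∀ n, IntegrableOn (en fun w => x0 w + u n w - (p w).re) Yᶜ
  lim : Tendsto (fun n => ∫ z in Yᶜ, en (fun w => x0 w + u n w - (p w).re) z) atTop (𝓝 0)
  bdd : ∀ R : ℝ, ∃ M, ∀ n, ∀ z, ‖z‖ ≤ R → z ∉ Y → |x0 z + u n z + c n| ≤ M

/-- the limit function -/
def psi (Y : Set ℂ) (x0 : ℂ → ℝ) (p : ℂ → ℂ) : ℂ → ℝ := Yᶜ.indicator fun z => (p z).re - x0 z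

lemma psi_of (hz : z ∉ Y) : psi Y x0 p z = (p z).re - x0 z := indicator_of_mem hz _

lemma psi_re (hz : z ∉ Y) : (p z).re = x0 z + psi Y x0 p z := by rw [psi_of hz]; ring

/-- closedness of commutants -/
def CloP (Y : Set ℂ) (x0 : ℂ → ℝ) (P : (ℂ → ℝ) → Prop) : Prop :=
  ∀ a, TT Y a → P a → Swd Y (fun z => x0 z + a z) → ∀ (b : ℕ → ℂ → ℝ) (f : ℂ → ℝ),
    (∀ n, TT Y (b n)) → TT Y f → (∃ C, ∀ n, ET Y (b n) ≤ C) →
    (∀ z ∉ Y, Tendsto (fun n => b n z) atTop (𝓝 (f z))) → (∀ n, NI Y a (b n)) → NI Y a f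

/-- the package of the minimiser -/
structure MinT (Y : Set ℂ) (x0 : ℂ → ℝ) (u : ℕ → ℂ → ℝ) (m : ℝ) (σ : Cmp Y → ℝ) (c : ℕ → ℝ)
    (p : ℂ → ℂ) (ψ : ℂ → ℝ) : Prop where
  tt : TT Y ψ
  ni : ∀ i, NI Y (u i) ψ
  osc : ∀ K, Tc_808.osc Y ψ K.1 = σ K
  val : TJ Y x0 ψ = m
  min : ∀ φ, TT Y φ → (∀ i, NI Y (u i) φ) → TJ Y x0 ψ ≤ TJ Y x0 φ
  hol : DifferentiableOn ℂ p Yᶜ
  inf : ∃ c' : ℂ, Tendsto (fun z => p z - z) (cocompact ℂ) (𝓝 c')
  re : ∀ z ∉ Y, (p z).re = x0 z + ψ z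
  unif : TendstoLocallyUniformlyOn (fun n z => u n z + c n) ψ atTop Yᶜ
  int : ∀ n, IntegrableOn (en fun w => u n w - ψ w) Yᶜ
  lim : Tendsto (fun n => ∫ z in Yᶜ, en (fun w => u n w - ψ w) z) atTop (𝓝 0)

/-! ### small facts -/

lemma osc_add_const (hu : ∃ M, ∀ z, |a z| ≤ M) (K : Set ℂ) (c : ℝ) :
    osc Y (fun w => a w + c) K = osc Y a K := by
  have hc : ∃ M, ∀ z : ℂ, |(fun _ : ℂ => c) z| ≤ M := ⟨|c|, fun _ => le_rfl⟩
  have hc' : ∃ M, ∀ z : ℂ, |(fun _ : ℂ => -c) z| ≤ M := ⟨|-c|, fun _ => le_rfl⟩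
  have h1 := osc_add_le (Y := Y) (K := K) hu hc
  have hs : ∃ M, ∀ z, |(fun w => a w + c) z| ≤ M := by
    obtain ⟨M, hM⟩ := hu
    exact ⟨M + |c|, fun z => (abs_add_le _ _).trans (add_le_add (hM z) le_rfl)⟩
  have h2 := osc_add_le (Y := Y) (K := K) hs hc'
  simp only [osc_const, add_zero, add_neg_cancel_right] at h1 h2
  exact le_antisymm h1 h2

lemma gx_add_const (a : ℂ → ℝ) (c : ℝ) (z : ℂ) : gx (fun w => a w + c) z = gx a z := by
  unfold gx; rw [fderiv_add_const]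

lemma gy_add_const (a : ℂ → ℝ) (c : ℝ) (z : ℂ) : gy (fun w => a w + c) z = gy a z := by
  unfold gy; rw [fderiv_add_const]

lemma en_add_const (a : ℂ → ℝ) (c : ℝ) (z : ℂ) : en (fun w => a w + c) z = en a z := by
  unfold en; rw [gx_add_const, gy_add_const]

lemma en_young {t : ℝ} (ht : 0 < t) (ha : DifferentiableAt ℝ a z) (hb : DifferentiableAt ℝ b z) :
    en a z ≤ (1 + t) * en b z + (1 + 1 / t) * en (fun w => b w - a w) z := by
  unfold en
  rw [gx_sub hb ha, gy_sub hb ha]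
  have h1 := SelT_871.young t ht (gx a z) (gx b z)
  have h2 := SelT_871.young t ht (gy a z) (gy b z)
  have e1 : (gx a z - gx b z) ^ 2 = (gx b z - gx a z) ^ 2 := by ring
  have e2 : (gy a z - gy b z) ^ 2 = (gy b z - gy a z) ^ 2 := by ring
  rw [e1] at h1
  rw [e2] at h2
  linarith

/-- the linear functional is controlled by the energy -/
theorem tendsto_lap (hY : IsCompact Y) (hx : X0 Y x0) {w : ℕ → ℂ → ℝ} (hw : ∀ n, Q Y (w n))
    (h : Tendsto (fun n => ∫ z in Yᶜ, en (w n) z) atTop (𝓝 0)) :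
    Tendsto (fun n => ∫ z, w n z * lap x0 z) atTop (𝓝 0) := by
  obtain ⟨V₁, V₂, s1, s2, c1, c2, hV⟩ := int_lap hY hx
  have q1 : Integrable fun z => V₁ z ^ 2 := integrable_sq s1 c1
  have q2 : Integrable fun z => V₂ z ^ 2 := integrable_sq s2 c2
  have q3 : IntegrableOn (fun z => V₁ z ^ 2 + V₂ z ^ 2) Yᶜ := (q1.add q2).integrableOn
  set A := ∫ z in Yᶜ, (V₁ z ^ 2 + V₂ z ^ 2) with hA
  have key : ∀ n, |∫ z, w n z * lap x0 z| ≤ Real.sqrt (A * ∫ z in Yᶜ, en (w n) z) := by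
    intro n
    obtain ⟨hi, he⟩ := hV (w n) (hw n)
    rw [he, abs_neg]
    refine Real.abs_le_sqrt ?_
    set I := ∫ z in Yᶜ, (V₁ z * gx (w n) z + V₂ z * gy (w n) z) with hI
    have hq : ∀ t : ℝ, 0 ≤ (∫ z in Yᶜ, en (w n) z) * (t * t) + (2 * I) * t + A := by
      intro t
      have h1 : (∫ z in Yᶜ, en (w n) z) * (t * t) + (2 * I) * t + A =
          ∫ z in Yᶜ, ((V₁ z + t * gx (w n) z) ^ 2 + (V₂ z + t * gy (w n) z) ^ 2) := by
        have e : (fun z => (V₁ z + t * gx (w n) z) ^ 2 + (V₂ z + t * gy (w n) z) ^ 2) =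
            fun z => en (w n) z * (t * t) + (V₁ z * gx (w n) z + V₂ z * gy (w n) z) * (2 * t) +
              (V₁ z ^ 2 + V₂ z ^ 2) := by
          funext z; unfold en; ring
        have j1 : IntegrableOn (fun z => en (w n) z * (t * t)) Yᶜ := (hw n).fin.mul_const _
        have j2 : IntegrableOn (fun z => (V₁ z * gx (w n) z + V₂ z * gy (w n) z) * (2 * t)) Yᶜ :=
          hi.mul_const _
        have j3 : IntegrableOn (fun z => en (w n) z * (t * t) +
          (V₁ z * gx (w n) z + V₂ z * gy (w n) z) * (2 * t)) Yᶜ := j1.add j2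
        rw [e, integral_add j3 q3, integral_add j1 j2, integral_mul_const, integral_mul_const]
        ring
      rw [h1]
      exact integral_nonneg fun z => by positivity
    have h2 := discrim_le_zero hq
    unfold discrim at h2
    nlinarith
  refine squeeze_zero_norm (a := fun n => Real.sqrt (A * ∫ z in Yᶜ, en (w n) z))
    (fun n => key n) ?_
  have h1 := (h.const_mul A).sqrt
  rwa [mul_zero, Real.sqrt_zero] at h1

/-- commutants are linear, without the predicate at infinity -/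
theorem comb' (hPZ : ∀ φ, PZ φ → P φ) (hY : IsExteriorDomain Yᶜ) (hx : X0 Y x0)
    (hlin : CombP Y x0 P) (ha : TT Y a) (hPa : P a) (hs : Swd Y fun z => x0 z + a z)
    (hb : TT Y b) (hf : TT Y f) (h1 : NI Y a b) (h2 : NI Y a f) (s t : ℝ) :
    NI Y a fun z => s * b z + t * f z := by
  have hYc : IsCompact Y := cpt_of hY
  obtain ⟨R, hR⟩ := hYc.isBounded.subset_ball (0 : ℂ)
  obtain ⟨b', b1, b2, -, b4⟩ := cutoffT hYc hx hb R one_pos
  obtain ⟨f', f1, f2, -, f4⟩ := cutoffT hYc hx hf R one_pos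
  have la := LB.of_bdd ha.q.bdd
  have lb := LB.of_bdd hb.q.bdd
  have lf := LB.of_bdd hf.q.bdd
  have lb' := LB.of_bdd b1.q.bdd
  have lf' := LB.of_bdd f1.q.bdd
  have k1 : NI Y a b' := NI_congr hY la la lb lb' isOpen_ball hR (fun _ _ _ => rfl)
    (fun z hz _ => (b4 z (mem_ball_zero_iff.1 hz).le).symm) h1
  have k2 : NI Y a f' := NI_congr hY la la lf lf' isOpen_ball hR (fun _ _ _ => rfl)
    (fun z hz _ => (f4 z (mem_ball_zero_iff.1 hz).le).symm) h2
  have k3 := hlin a ha hPa hs b' f' b1 (hPZ _ b2) f1 (hPZ _ f2) k1 k2 s t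
  have t1 : TT Y fun z => s * b z + t * f z :=
    (TT_smul hYc.isClosed s hb).add hYc.isClosed (TT_smul hYc.isClosed t hf)
  have t2 : TT Y fun z => s * b' z + t * f' z :=
    (TT_smul hYc.isClosed s b1).add hYc.isClosed (TT_smul hYc.isClosed t f1)
  exact NI_congr hY la la (LB.of_bdd t2.q.bdd) (LB.of_bdd t1.q.bdd) isOpen_ball hR
    (fun _ _ _ => rfl) (fun z hz _ => by
      rw [b4 z (mem_ball_zero_iff.1 hz).le, f4 z (mem_ball_zero_iff.1 hz).le]) k3

lemma bdd_sub' (ha : ∃ M, ∀ z, |a z| ≤ M) (hb : ∃ M, ∀ z, |b z| ≤ M) :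
    ∃ M, ∀ z, |(fun w => a w - b w) z| ≤ M := by
  obtain ⟨M, hM⟩ := ha
  obtain ⟨N, hN⟩ := hb
  exact ⟨M + N, fun z => (abs_sub _ _).trans (add_le_add (hM z) (hN z))⟩

lemma le_of_sq_le_sq' {s t : ℝ} (h : s ^ 2 ≤ t ^ 2) (ht : 0 ≤ t) : s ≤ t := by
  by_contra hcon
  push Not at hcon
  nlinarith

/-! ### the limit function -/

section Limit

lemma hpl (hYo : IsOpen Yᶜ) (hol : DifferentiableOn ℂ p Yᶜ) :
    LocallyLipschitzOn Yᶜ fun z => (p z).re := by
  intro z hz
  have h1 : ContDiffAt ℂ 1 p z :=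
    ((hol.analyticAt (hYo.mem_nhds hz)).contDiffAt).of_le (by exact_mod_cast le_top)
  obtain ⟨K, t, ht, hK⟩ := (h1.restrict_scalars ℝ).exists_lipschitzOnWith
  refine ⟨1 * K, t, mem_nhdsWithin_of_mem_nhds ht, ?_⟩
  have h2 : LipschitzWith 1 (fun z : ℂ => z.re) := by
    refine LipschitzWith.of_dist_le_mul fun a b => ?_
    rw [Real.dist_eq, ← Complex.sub_re, NNReal.coe_one, one_mul, dist_eq_norm]
    exact Complex.abs_re_le_norm _
  exact h2.comp_lipschitzOnWith hK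

lemma x0_ll (hx : X0 Y x0) (O : Set ℂ) : LocallyLipschitzOn O x0 :=
  (hx.sm.of_le (by exact_mod_cast le_top) : ContDiff ℝ 1 x0).locallyLipschitz.locallyLipschitzOn

lemma ll_congr {O : Set ℂ} (ha : LocallyLipschitzOn O a) (h : ∀ z ∈ O, a z = b z) :
    LocallyLipschitzOn O b := by
  intro z hz
  obtain ⟨K, t, ht, hK⟩ := ha hz
  refine ⟨K, t ∩ O, inter_mem ht self_mem_nhdsWithin, ?_⟩
  intro x hx y hy
  rw [← h x hx.2, ← h y hy.2]
  exact hK hx.1 hy.1

lemma psi_ll (hYc : IsClosed Y) (hx : X0 Y x0) (hol : DifferentiableOn ℂ p Yᶜ) :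
    LocallyLipschitzOn Yᶜ (psi Y x0 p) :=
  ll_congr (ll_sub (hpl hYc.isOpen_compl hol) (x0_ll hx _))
    fun _ hz => (psi_of hz).symm

lemma Lim.tendsto (hl : Lim Y x0 u c p) (hz : z ∉ Y) :
    Tendsto (fun n => x0 z + u n z + c n) atTop (𝓝 (p z).re) :=
  hl.unif.tendsto_at hz

lemma Lim.en_eq (hYc : IsClosed Y) (n : ℕ) (hz : z ∉ Y) :
    en (fun w => u n w - psi Y x0 p w) z = en (fun w => x0 w + u n w - (p w).re) z := by
  refine en_eq_of_eventuallyEq ?_
  filter_upwards [hYc.isOpen_compl.mem_nhds hz] with w hw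
  rw [psi_of hw]; ring

lemma Lim.int' (hYc : IsClosed Y) (hl : Lim Y x0 u c p) (n : ℕ) :
    IntegrableOn (en fun w => u n w - psi Y x0 p w) Yᶜ :=
  (hl.int n).congr_fun (fun _ hz => (Lim.en_eq hYc n hz).symm) hYc.isOpen_compl.measurableSet

lemma Lim.lim' (hYc : IsClosed Y) (hl : Lim Y x0 u c p) :
    Tendsto (fun n => ∫ z in Yᶜ, en (fun w => u n w - psi Y x0 p w) z) atTop (𝓝 0) := by
  refine hl.lim.congr fun n => ?_
  exact setIntegral_congr_fun hYc.isOpen_compl.measurableSet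
    fun _ hz => (Lim.en_eq hYc n hz).symm

theorem Lim.q (hYc : IsCompact Y) (hx : X0 Y x0) (hu : ∀ n, TT Y (u n)) (hl : Lim Y x0 u c p) :
    Q Y (psi Y x0 p) := by
  have hcl := hYc.isClosed
  refine ⟨?_, psi_ll hcl hx hl.hol, ?_⟩
  · obtain ⟨c', hc'⟩ := hl.inf
    obtain ⟨R, hR⟩ := hx.far
    have h1 : ∀ᶠ z in cocompact ℂ, ‖p z - z - c'‖ < 1 := by
      have := hc'.eventually (Metric.ball_mem_nhds c' one_pos)
      filter_upwards [this] with z hz
      rw [← dist_eq_norm]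
      exact hz
    rw [← Metric.cobounded_eq_cocompact, ← comap_norm_atTop] at h1
    obtain ⟨R', hR'⟩ := (eventually_comap.1 h1).exists_forall_of_atTop
    obtain ⟨M, hM⟩ := hl.bdd (max R R')
    obtain ⟨N, hN⟩ := LB_x0 hx (max R R')
    refine ⟨|M| + |N| + ‖c'‖ + 1, fun z => ?_⟩
    by_cases hz : z ∈ Y
    · have hz' : z ∉ Yᶜ := not_not.2 hz
      rw [psi, indicator_of_notMem hz', abs_zero]; positivity
    · rw [psi_of hz]
      by_cases hzR : ‖z‖ ≤ max R R'
      · have h2 : |(p z).re| ≤ M :=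
          le_of_tendsto (hl.tendsto hz).abs (Eventually.of_forall fun n => hM n z hzR hz)
        have h3 := hN z hzR
        have h4 := abs_sub (p z).re (x0 z)
        have h5 := le_abs_self M
        have h6 := le_abs_self N
        have h7 := norm_nonneg c'
        linarith
      · rw [not_le] at hzR
        have h2 : ‖p z - z - c'‖ < 1 := hR' ‖z‖ ((le_max_right _ _).trans hzR.le) z rfl
        rw [hR z ((le_max_left _ _).trans hzR.le)]
        have h3 : (p z).re - z.re = (p z - z - c').re + c'.re := by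
          simp only [Complex.sub_re]; ring
        rw [h3]
        have h4 := (Complex.abs_re_le_norm (p z - z - c'))
        have h5 := Complex.abs_re_le_norm c'
        have h6 := abs_add_le (p z - z - c').re c'.re
        have h7 := abs_nonneg M
        have h8 := abs_nonneg N
        linarith
  · have hi := Lim.int' hcl hl 0
    have hd1 := ae_diff hcl.isOpen_compl (psi_ll hcl hx hl.hol)
    have hd2 := (hu 0).q.ae_diff hcl
    refine Integrable.mono' (((hu 0).q.fin.const_mul 2).add (hi.const_mul 2))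
      (measurable_en _).aestronglyMeasurable ?_
    filter_upwards [hd1, hd2] with z h1 h2
    rw [Real.norm_of_nonneg (en_nonneg _ _)]
    have h3 := en_young one_pos h1 h2
    norm_num at h3
    exact h3

/-- **the limit attains the minimum** -/
theorem minT (hY : IsExteriorDomain Yᶜ) (hx : X0 Y x0) (hPZ : ∀ φ, PZ φ → P φ)
    (hclo : CloP Y x0 P) (h : SelT Y x0 P u m σ) (hl : Lim Y x0 u c p) :
    MinT Y x0 u m σ c p (psi Y x0 p) := by
  have hYc : IsCompact Y := cpt_of hY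
  have hcl := hYc.isClosed
  have hYo : IsOpen Yᶜ := hcl.isOpen_compl
  set ψ := psi Y x0 p with hψ
  have hQ : Q Y ψ := hl.q hYc hx h.tt
  -- shifted sequence
  set v : ℕ → ℂ → ℝ := fun n z => u n z + c n with hv
  have hvT : ∀ n, TT Y (v n) := fun n => (h.tt n).add hcl (TT.const (c n))
  have hvo : ∀ n K, osc Y (v n) K = osc Y (u n) K := fun n K => osc_add_const (h.tt n).q.bdd K (c n)
  have hLu : ∀ n, LB (u n) := fun n => LB.of_bdd (h.tt n).q.bdd
  have hLv : ∀ n, LB (v n) := fun n => LB.of_bdd (hvT n).q.bdd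
  have hLx : ∀ n, LB (fun z => x0 z + v n z) := fun n => (LB_x0 hx).add (hLv n)
  have hni : ∀ i n, NI Y (u i) (v n) := fun i n => NI_add hY (hLu n) (h.ni i n) (c n)
  have hnv : ∀ i n, NI Y (v i) (v n) := fun i n =>
    (NI_add hY (hLu i) ((NI_symm (hni i n))) (c i) |> NI_symm)
  have hsw : ∀ n, Swd Y (fun z => x0 z + v n z) := by
    intro n
    have h1 := Swd_add hY ((LB_x0 hx).add (hLu n)) (h.swd n) (c n)
    have e : (fun z => x0 z + v n z) = fun z => x0 z + u n z + c n := by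
      funext z; simp only [hv]; ring
    rw [e]; exact h1
  have hll : ∀ n, LocallyLipschitzOn Yᶜ (fun z => x0 z + v n z) := fun n =>
    ll_add (x0_ll hx _) (hvT n).q.loc
  obtain ⟨hO1, hO2, hO3⟩ := x0_near hx
  have hoscx : ∀ n, ∀ K : Cmp Y, osc Y (fun z => x0 z + v n z) K.1 = osc Y (v n) K.1 := fun n K =>
    osc_congr hO1 (K.subset.trans hO2) fun z hz _ => by rw [hO3 z hz, zero_add]
  have hjc : ∀ n, (Jmp Y fun z => x0 z + v n z).Countable := fun n =>
    jmp_countable (by simp only [hoscx]; exact (hvT n).sum)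
  have hen : ∀ n z, z ∉ Y → en (fun w => v n w - ψ w) z = en (fun w => u n w - ψ w) z := by
    intro n z _
    have e : (fun w => v n w - ψ w) = fun w => (u n w - ψ w) + c n := by
      funext w; simp only [hv]; ring
    rw [e, en_add_const]
  have hi : ∀ n, IntegrableOn (en fun w => u n w - ψ w) Yᶜ := Lim.int' hcl hl
  have hlim := Lim.lim' hcl hl
  have hunif : TendstoLocallyUniformlyOn (fun n z => u n z + c n) ψ atTop Yᶜ := by
    intro V hV z hz
    obtain ⟨V', hV', hVs⟩ := Metric.mem_uniformity_dist.1 hV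
    obtain ⟨t, ht, h1⟩ := hl.unif _ (Metric.dist_mem_uniformity hV') z hz
    refine ⟨t ∩ Yᶜ, inter_mem ht self_mem_nhdsWithin, ?_⟩
    filter_upwards [h1] with n hn y hy
    refine hVs ?_
    have h2 : dist (p y).re (x0 y + u n y + c n) < V' := hn y hy.1
    rw [Real.dist_eq] at h2 ⊢
    rw [hψ, psi_of hy.2]
    convert h2 using 2
    ring
  -- (ATT)
  have hatt : ∀ K : Cmp Y, osc Y ψ K.1 ≤ σ K := by
    refine Att3_790.att hY hx.sm.continuous hx.zero hvT hsw ?_ ?_ hQ.loc hQ.fin ?_ ?_ ?_ h.sum ?_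
    · intro n t N hN hNb z hz
      obtain ⟨C, h1, h2, h3, h4, h5, -⟩ := Uni_659.bump hY (hll n) (hLx n) (hsw n) t hN hNb hz
      exact ⟨C, h1, h2, h3, h4, h5⟩
    · intro i n F hF
      exact area_ZF hY (hll i) (hll n) (hLx i) (hLx n) (hjc i) (hjc n)
        (NI_x0 hY hx (hLv i) (hLv n) (hnv i n)) hF.measurableSet
    · intro A hA hAY
      exact (tendstoLocallyUniformlyOn_iff_forall_isCompact hYo).1 hunif A hAY hA
    · refine hlim.congr fun n => ?_
      exact setIntegral_congr_fun hYo.measurableSet fun z hz => (hen n z hz).symm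
    · intro n
      exact (hi n).congr_fun (fun z hz => (hen n z hz).symm) hYo.measurableSet
    · refine h.l2.congr fun n => ?_
      refine tsum_congr fun K => ?_
      rw [hvo]
  have hsumψ : Summable fun K : Cmp Y => osc Y ψ K.1 ^ 2 :=
    Summable.of_nonneg_of_le (fun K => sq_nonneg _)
      (fun K => pow_le_pow_left₀ (osc_nonneg _ _ _) (hatt K) 2) h.sum
  have htt : TT Y ψ := ⟨hQ, hsumψ⟩
  have hsd : ∀ n, Summable fun K : Cmp Y => (osc Y (u n) K.1 - σ K) ^ 2 := fun n =>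
    summable_sq_sub (h.tt n).sum h.sum
  have hd1 := ae_diff hYo hQ.loc
  -- bounded energies
  have hET : ∃ C, ∀ n, ET Y (v n) ≤ C := by
    obtain ⟨C1, hC1⟩ := hlim.bddAbove_range
    obtain ⟨C2, hC2⟩ := h.l2.bddAbove_range
    refine ⟨(2 * (∫ z in Yᶜ, en ψ z) + 2 * C1) + (2 * (∑' K, σ K ^ 2) + 2 * C2), fun n => ?_⟩
    unfold ET
    refine add_le_add ?_ ?_
    · have h1 : (∫ z in Yᶜ, en (v n) z) ≤
          ∫ z in Yᶜ, (2 * en ψ z + 2 * en (fun w => u n w - ψ w) z) := by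
        refine integral_mono_ae (hvT n).q.fin ((hQ.fin.const_mul 2).add ((hi n).const_mul 2)) ?_
        filter_upwards [hd1, (h.tt n).q.ae_diff hcl] with z h1 h2
        simp only [hv]
        rw [en_add_const]
        have h3 := en_young one_pos h2 h1
        have e : en (fun w => ψ w - u n w) z = en (fun w => u n w - ψ w) z :=
          en_sub_comm _ _ z
        rw [e] at h3
        norm_num at h3
        exact h3
      rw [integral_add (hQ.fin.const_mul 2) ((hi n).const_mul 2), integral_const_mul,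
        integral_const_mul] at h1
      have h2 : (∫ z in Yᶜ, en (fun w => u n w - ψ w) z) ≤ C1 := hC1 (mem_range_self n)
      linarith
    · have h1 : (∑' K : Cmp Y, osc Y (v n) K.1 ^ 2) ≤
          ∑' K : Cmp Y, (2 * σ K ^ 2 + 2 * (osc Y (u n) K.1 - σ K) ^ 2) := by
        refine Summable.tsum_le_tsum (fun K => ?_) (hvT n).sum
          ((h.sum.mul_left 2).add ((hsd n).mul_left 2))
        rw [hvo]
        nlinarith [sq_nonneg (osc Y (u n) K.1 - 2 * σ K)]
      rw [Summable.tsum_add (h.sum.mul_left 2) ((hsd n).mul_left 2), tsum_mul_left,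
        tsum_mul_left] at h1
      have h2 : (∑' K : Cmp Y, (osc Y (u n) K.1 - σ K) ^ 2) ≤ C2 := hC2 (mem_range_self n)
      linarith
  -- the limit is in the commutant
  have hniψ : ∀ i, NI Y (u i) ψ := fun i =>
    hclo (u i) (h.tt i) (h.p i) (h.swd i) v ψ hvT htt hET (fun z hz => hunif.tendsto_at hz) (hni i)
  have hm1 : m ≤ TJ Y x0 ψ := SelT_min' hPZ hY hx h htt hniψ
  -- lower semicontinuity
  set L : ℝ := ∫ z, ψ z * lap x0 z with hL
  have hlap : Tendsto (fun n => ∫ z, u n z * lap x0 z) atTop (𝓝 L) := by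
    have h1 := tendsto_lap hYc hx (w := fun n w => u n w - ψ w)
      (fun n => ⟨bdd_sub' (h.tt n).q.bdd hQ.bdd, ll_sub (h.tt n).q.loc hQ.loc, hi n⟩) hlim
    have h2 : ∀ n, ∫ z, (u n z - ψ z) * lap x0 z = (∫ z, u n z * lap x0 z) - L := by
      intro n
      rw [hL, ← integral_sub (IfB_641.int_mul_lap hcl hx (h.tt n).q) (IfB_641.int_mul_lap hcl hx hQ)]
      congr 1; funext z; ring
    simp only [h2] at h1
    have h3 := h1.add_const L
    simpa using h3
  have key : ∀ t : ℝ, 0 < t → (∫ z in Yᶜ, en ψ z) + (∑' K, σ K ^ 2) ≤ (1 + t) * (m + 2 * L) := by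
    intro t ht
    have hn : ∀ n, (∫ z in Yᶜ, en ψ z) + (∑' K, σ K ^ 2) ≤
        (1 + t) * (TJ Y x0 (u n) + 2 * ∫ z, u n z * lap x0 z) +
          (1 + 1 / t) * ((∫ z in Yᶜ, en (fun w => u n w - ψ w) z) +
            ∑' K : Cmp Y, (osc Y (u n) K.1 - σ K) ^ 2) := by
      intro n
      have h1 : (∫ z in Yᶜ, en ψ z) ≤
          ∫ z in Yᶜ, ((1 + t) * en (u n) z + (1 + 1 / t) * en (fun w => u n w - ψ w) z) := by
        refine integral_mono_ae hQ.fin
          (((h.tt n).q.fin.const_mul _).add ((hi n).const_mul _)) ?_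
        filter_upwards [hd1, (h.tt n).q.ae_diff hcl] with z h1 h2
        exact en_young ht h1 h2
      rw [integral_add ((h.tt n).q.fin.const_mul _) ((hi n).const_mul _), integral_const_mul,
        integral_const_mul] at h1
      have h2 : (∑' K, σ K ^ 2) ≤
          ∑' K : Cmp Y, ((1 + t) * osc Y (u n) K.1 ^ 2 + (1 + 1 / t) * (osc Y (u n) K.1 - σ K) ^ 2) := by
        refine Summable.tsum_le_tsum (fun K => ?_) h.sum
          (((h.tt n).sum.mul_left _).add ((hsd n).mul_left _))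
        have h3 := SelT_871.young t ht (σ K) (osc Y (u n) K.1)
        have e : (σ K - osc Y (u n) K.1) ^ 2 = (osc Y (u n) K.1 - σ K) ^ 2 := by ring
        rw [e] at h3
        exact h3
      rw [Summable.tsum_add ((h.tt n).sum.mul_left _) ((hsd n).mul_left _), tsum_mul_left,
        tsum_mul_left] at h2
      have h3 : TJ Y x0 (u n) + 2 * ∫ z, u n z * lap x0 z =
          (∫ z in Yᶜ, en (u n) z) + ∑' K : Cmp Y, osc Y (u n) K.1 ^ 2 := by
        unfold TJ J; rw [di_self]; ring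
      rw [h3]
      linarith
    have h1 : Tendsto (fun n => (1 + t) * (TJ Y x0 (u n) + 2 * ∫ z, u n z * lap x0 z) +
          (1 + 1 / t) * ((∫ z in Yᶜ, en (fun w => u n w - ψ w) z) +
            ∑' K : Cmp Y, (osc Y (u n) K.1 - σ K) ^ 2)) atTop
        (𝓝 ((1 + t) * (m + 2 * L) + (1 + 1 / t) * (0 + 0))) :=
      ((h.lim.add (hlap.const_mul 2)).const_mul _).add ((hlim.add h.l2).const_mul _)
    rw [add_zero, mul_zero, add_zero] at h1
    exact ge_of_tendsto' h1 hn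
  have key0 : (∫ z in Yᶜ, en ψ z) + (∑' K, σ K ^ 2) ≤ m + 2 * L := by
    have h1 : Tendsto (fun t : ℝ => (1 + t) * (m + 2 * L)) (𝓝[>] 0) (𝓝 ((1 + 0) * (m + 2 * L))) :=
      ((tendsto_const_nhds.add tendsto_id).mul_const _).mono_left nhdsWithin_le_nhds
    rw [add_zero, one_mul] at h1
    refine ge_of_tendsto h1 ?_
    filter_upwards [self_mem_nhdsWithin] with t ht
    exact key t ht
  have hTJ : TJ Y x0 ψ = (∫ z in Yᶜ, en ψ z) - 2 * L + ∑' K : Cmp Y, osc Y ψ K.1 ^ 2 := by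
    unfold TJ J; rw [di_self]
  have hle : (∑' K : Cmp Y, osc Y ψ K.1 ^ 2) ≤ ∑' K, σ K ^ 2 :=
    Summable.tsum_le_tsum (fun K => pow_le_pow_left₀ (osc_nonneg _ _ _) (hatt K) 2) hsumψ h.sum
  have hval : TJ Y x0 ψ = m := le_antisymm (by rw [hTJ]; linarith) hm1
  have heqs : (∑' K : Cmp Y, osc Y ψ K.1 ^ 2) = ∑' K, σ K ^ 2 := by
    refine le_antisymm hle ?_
    rw [hTJ] at hval
    linarith
  have hosc : ∀ K : Cmp Y, osc Y ψ K.1 = σ K := by
    intro K
    refine le_antisymm (hatt K) ?_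
    have h1 : ∑' K : Cmp Y, (σ K ^ 2 - osc Y ψ K.1 ^ 2) = 0 := by
      rw [Summable.tsum_sub h.sum hsumψ, heqs, sub_self]
    have h0 : ∀ K : Cmp Y, 0 ≤ σ K ^ 2 - osc Y ψ K.1 ^ 2 := fun K =>
      sub_nonneg.2 (pow_le_pow_left₀ (osc_nonneg _ _ _) (hatt K) 2)
    have h2 : σ K ^ 2 - osc Y ψ K.1 ^ 2 ≤ 0 := by
      rw [← h1]
      exact (h.sum.sub hsumψ).le_tsum K fun K' _ => h0 K'
    have h3 : σ K ^ 2 ≤ osc Y ψ K.1 ^ 2 := by linarith
    exact le_of_sq_le_sq' h3 (osc_nonneg _ _ _)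
  exact
    { tt := htt
      ni := hniψ
      osc := hosc
      val := hval
      min := fun φ hφ hn => by rw [hval]; exact SelT_min' hPZ hY hx h hφ hn
      hol := hl.hol
      inf := hl.inf
      re := fun z hz => psi_re hz
      unif := hunif
      int := hi
      lim := hlim }

end Limit

end

end Crest.Agent.R105.Min_790
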