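import Crest.Agent.R105.Min2_790
import Crest.Agent.R105.Uw3_913

/-!
# Row 105, S0138 (T-frame, NI), NI-MIN part 3 (helper790): the minimiser is switched, univalence

* `NI_trunc` : one-level truncation stays in the commutant
* `MinT.min_trunc`, `MinT.swd : Swd Y (x0 + ψ)`, `MinT.injOn`
* `MinT.min_add : TJ ψ ≤ TJ (ψ + t φ)` for `φ` in the commutant
-/

set_option autoImplicit false

open MeasureTheory Set Filter Topology Metric
open scoped NNReal ENNReal

namespace Crest.Agent.R105.Min_790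

open Bd_775 Ends_897 Tc_808 Ni_459 Grd_782 Crest.AnalysisR
open Crest.Agent.R105.IfB_641 (J di lap X0)
open Crest.Agent.R105.Uw_913 (inc inc_of_mem inc_of_notMem)

noncomputable section

/-- truncation: `g` takes the value `s` on `V` near `Y`, and is `f` elsewhere -/
theorem NI_trunc {Y V : Set ℂ} {a f g : ℂ → ℝ} {s : ℝ} (hY : IsExteriorDomain Yᶜ) (hf : LB f)
    (hg : LB g) {O0 : Set ℂ} (hO0 : IsOpen O0) (hYO : Y ⊆ O0) (h1 : ∀ z ∈ O0, z ∉ Y → z ∈ V → g z = s)
    (h2 : ∀ z ∈ O0, z ∉ Y → z ∉ V → g z = f z) (h : NI Y a f) : NI Y a g := by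
  refine NI.of_rule (b := fun _ => f) (fun _ => h) (G := fun _ t => t)
    (fun _ => ⟨1, LipschitzWith.id⟩) (countable_singleton s) (J := ∅) countable_empty ?_
  intro z hz _ _ hlu
  have hnb : Nb Y z O0 := nb_of_mem hz hO0 ((connectedComponentIn_subset _ _).trans hYO)
  by_cases hcase : ∃ O, Nb Y z O ∧ ∀ w ∈ O, w ∉ Y → w ∉ V
  · obtain ⟨O, hO, hOV⟩ := hcase
    left
    have hN := hO.inter hnb
    have e : ∀ w ∈ O ∩ O0, w ∉ Y → g w = f w := fun w hw hwY => h2 w hw.2 hwY (hOV w hw.1 hwY)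
    have e1 := lo_congr hY hg hf hN e
    have e2 := up_congr hY hg hf hN e
    exact ⟨0, 0, by rw [← e1, ← e2]; exact hlu, e1⟩
  · right
    push Not at hcase
    have hlo : lo Y g z ≤ s := by
      by_contra hcon
      push Not at hcon
      obtain ⟨O, hO, hgt⟩ := exists_gt_of_lt_lo hY hg hcon
      obtain ⟨w, hw, hwY, hwV⟩ := hcase _ (hO.inter hnb)
      have := hgt w hw.1 hwY
      rw [h1 w hw.2 hwY hwV] at this
      exact lt_irrefl _ this
    have hup : s ≤ up Y g z := by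
      by_contra hcon
      push Not at hcon
      obtain ⟨O, hO, hlt⟩ := exists_lt_of_up_lt hY hg hcon
      obtain ⟨w, hw, hwY, hwV⟩ := hcase _ (hO.inter hnb)
      have := hlt w hw.1 hwY
      rw [h1 w hw.2 hwY hwV] at this
      exact lt_irrefl _ this
    rw [mem_singleton_iff]
    linarith

section U
variable {U : Set ℂ} {x0 ψ φ : ℂ → ℝ} {u : ℕ → ℂ → ℝ} {m : ℝ} {σ : Cmp Uᶜ → ℝ} {c : ℕ → ℝ}
  {p : ℂ → ℂ}

/-- the truncated minimiser is in the commutant and `T`-finite; minimality against it -/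
theorem min_trunc_aux (hU : IsExteriorDomain U) (hx : X0 Uᶜ x0) (h : MinT Uᶜ x0 u m σ c p ψ)
    (hu : ∀ n, TT Uᶜ (u n)) {e t : ℝ} (he : e = 1 ∨ e = -1) {z0 : ℂ} {V : Set ℂ}
    (hVdef : V = connectedComponentIn {z | z ∈ U ∧ t < e * (p z).re} z0)
    (hVb : Bornology.IsBounded V) :
    J Uᶜ x0 ψ + ∑' K : Cmp Uᶜ, osc Uᶜ ψ K.1 ^ 2
      ≤ J Uᶜ x0 (fun z => ψ z + (-1) * inc V p (e * t) z)
        + ∑' K : Cmp Uᶜ, osc Uᶜ (fun z => ψ z + (-1) * inc V p (e * t) z) K.1 ^ 2 := by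
  have hF : DifferentiableOn ℂ p U := by simpa using h.hol
  have hre : ∀ z ∈ U, (p z).re = x0 z + ψ z := fun z hz => h.re z (not_not.2 hz)
  have he2 : e * e = 1 := by rcases he with rfl | rfl <;> norm_num
  have hfc : ContinuousOn (fun z => e * (p z).re) U :=
    continuousOn_const.mul (Complex.continuous_re.comp_continuousOn hF.continuousOn)
  have hWo : IsOpen {z | z ∈ U ∧ t < e * (p z).re} := hfc.isOpen_inter_preimage hU.1 isOpen_Ioi
  have hV : IsOpen V := by rw [hVdef]; exact hWo.connectedComponentIn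
  have hVW : V ⊆ {z | z ∈ U ∧ t < e * (p z).re} := by
    rw [hVdef]; exact connectedComponentIn_subset _ _
  have hVU : V ⊆ U := fun z hz => (hVW hz).1
  have hfr : ∀ z ∈ U, z ∈ frontier V → (p z).re = e * t := by
    intro z hz hzf
    rw [hVdef] at hzf
    have h1 := Uw_913.frontier_cc hU.1 hfc z0 z hz hzf
    rw [← h1, ← mul_assoc, he2, one_mul]
  have hsg : ∀ z ∈ V, 0 ≤ e * ((p z).re - e * t) := by
    intro z hz
    have h1 := (hVW hz).2
    rw [mul_sub, ← mul_assoc, he2, one_mul]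
    linarith
  have hT := Uw_913.trunc_TT hU hF hx h.tt hre hV hVU hVb hfr he hsg
  have hY : IsExteriorDomain (Uᶜ)ᶜ := by simpa using hU
  obtain ⟨hO1, hO2, hO3⟩ := x0_near hx
  refine h.min _ hT fun i => ?_
  refine NI_trunc (V := V) (s := e * t) hY (LB.of_bdd h.tt.q.bdd) (LB.of_bdd hT.q.bdd) hO1 hO2 ?_ ?_
    (h.ni i)
  · intro z hz hzU hzV
    have hzU' : z ∈ U := not_not.1 hzU
    rw [inc_of_mem hzV, hre z hzU', hO3 z hz]; ring
  · intro z _ _ hzV
    rw [inc_of_notMem hzV]; ring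

/-- no bounded components of super- and sublevel sets in `U` -/
theorem no_bdd (hU : IsExteriorDomain U) (hx : X0 Uᶜ x0) (h : MinT Uᶜ x0 u m σ c p ψ)
    (hu : ∀ n, TT Uᶜ (u n)) {e t : ℝ} (he : e = 1 ∨ e = -1) {z0 : ℂ} (hz0 : z0 ∈ U)
    (ht : t < e * (p z0).re) :
    ¬ Bornology.IsBounded (connectedComponentIn {z | z ∈ U ∧ t < e * (p z).re} z0) := by
  intro hb
  have hF : DifferentiableOn ℂ p U := by simpa using h.hol
  have hre : ∀ z ∈ U, (p z).re = x0 z + ψ z := fun z hz => h.re z (not_not.2 hz)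
  exact Uw_913.no_bounded_comp hU hF hx h.tt hre h.inf he hz0 ht rfl
    (min_trunc_aux hU hx h hu he rfl hb) hb

theorem swd_aux (hU : IsExteriorDomain U) (hx : X0 Uᶜ x0) (h : MinT Uᶜ x0 u m σ c p ψ)
    (hu : ∀ n, TT Uᶜ (u n)) : Swd Uᶜ (fun z => x0 z + ψ z) := by
  have hY : IsExteriorDomain (Uᶜ)ᶜ := by simpa using hU
  have hYo : IsOpen (Uᶜ)ᶜ := hY.1
  set x : ℂ → ℝ := fun z => x0 z + ψ z with hxd
  have hLx : LB x := (LB_x0 hx).add (LB.of_bdd h.tt.q.bdd)
  have hcx : ∀ z, z ∉ Uᶜ → ContinuousAt x z := fun z hz =>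
    hx.sm.continuous.continuousAt.add (h.tt.q.loc.continuousOn.continuousAt (hYo.mem_nhds hz))
  have hre : ∀ z ∈ U, (p z).re = x z := fun z hz => h.re z (not_not.2 hz)
  refine ⟨fun t z hz hb => ?_, fun t z hz hb => ?_⟩
  · set W : Set ℂ := {w | t < lo Uᶜ x w} with hW
    have hWo : IsOpen W := isOpen_lt_lo hY hLx t
    have hzW : z ∈ W := hz
    have hnb : Nb Uᶜ z (connectedComponentIn W z) := by
      refine ⟨hWo.connectedComponentIn, mem_connectedComponentIn hzW, ?_⟩
      by_cases hzY : z ∈ Uᶜ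
      · refine isPreconnected_connectedComponentIn.subset_connectedComponentIn
          (mem_connectedComponentIn hzY) fun w hw => ?_
        show t < lo Uᶜ x w
        rw [lo_congr_cc hzY hw]; exact hz
      · rw [connectedComponentIn_eq_empty hzY]; exact empty_subset _
    obtain ⟨w, hw, hwY⟩ := hnb.nonempty hY
    have hwU : w ∈ U := not_not.1 hwY
    have hlo : ∀ v, v ∈ U → lo Uᶜ x v = (p v).re := fun v hv => by
      have hvY : v ∉ Uᶜ := not_not.2 hv
      rw [lo_of_notMem hY hLx hvY (hcx v hvY), hre v hv]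
    have hwt : t < 1 * (p w).re := by
      have h1 : t < lo Uᶜ x w := by
        have := connectedComponentIn_subset _ _ hw
        exact this
      rw [hlo w hwU] at h1
      linarith
    refine no_bdd hU hx h hu (Or.inl rfl) hwU hwt (hb.subset ?_)
    rw [connectedComponentIn_eq hw]
    refine isPreconnected_connectedComponentIn.subset_connectedComponentIn
      (mem_connectedComponentIn ⟨hwU, hwt⟩) fun v hv => ?_
    have hv' := connectedComponentIn_subset _ _ hv
    show t < lo Uᶜ x v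
    rw [hlo v hv'.1]
    have := hv'.2
    linarith
  · set W : Set ℂ := {w | up Uᶜ x w < t} with hW
    have hWo : IsOpen W := isOpen_up_lt hY hLx t
    have hzW : z ∈ W := hz
    have hnb : Nb Uᶜ z (connectedComponentIn W z) := by
      refine ⟨hWo.connectedComponentIn, mem_connectedComponentIn hzW, ?_⟩
      by_cases hzY : z ∈ Uᶜ
      · refine isPreconnected_connectedComponentIn.subset_connectedComponentIn
          (mem_connectedComponentIn hzY) fun w hw => ?_
        show up Uᶜ x w < t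
        rw [up_congr_cc hzY hw]; exact hz
      · rw [connectedComponentIn_eq_empty hzY]; exact empty_subset _
    obtain ⟨w, hw, hwY⟩ := hnb.nonempty hY
    have hwU : w ∈ U := not_not.1 hwY
    have hup : ∀ v, v ∈ U → up Uᶜ x v = (p v).re := fun v hv => by
      have hvY : v ∉ Uᶜ := not_not.2 hv
      rw [up_of_notMem hY hLx hvY (hcx v hvY), hre v hv]
    have hwt : -t < -1 * (p w).re := by
      have h1 : up Uᶜ x w < t := by
        have := connectedComponentIn_subset _ _ hw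
        exact this
      rw [hup w hwU] at h1
      linarith
    refine no_bdd hU hx h hu (Or.inr rfl) hwU hwt (hb.subset ?_)
    rw [connectedComponentIn_eq hw]
    refine isPreconnected_connectedComponentIn.subset_connectedComponentIn
      (mem_connectedComponentIn ⟨hwU, hwt⟩) fun v hv => ?_
    have hv' := connectedComponentIn_subset _ _ hv
    show up Uᶜ x v < t
    rw [hup v hv'.1]
    have := hv'.2
    linarith

/-- **univalence** from the Euler-Lagrange inequality of 913 -/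
theorem injOn_aux (hU : IsExteriorDomain U) (hx : X0 Uᶜ x0) (h : MinT Uᶜ x0 u m σ c p ψ)
    (hu : ∀ n, TT Uᶜ (u n)) (hEL : Uv_913.ELIneq U p) : InjOn p U := by
  have hF : DifferentiableOn ℂ p U := by simpa using h.hol
  have hre : ∀ z ∈ U, (p z).re = x0 z + ψ z := fun z hz => h.re z (not_not.2 hz)
  refine Uw_913.injOn_of_T_min hU hF hx h.tt hre h.inf hEL ?_
  intro e he t z0 _ _ V hV hVb
  exact min_trunc_aux hU hx h hu he hV hVb

end U

section Y
variable {Y : Set ℂ} {x0 ψ φ : ℂ → ℝ} {u : ℕ → ℂ → ℝ} {m : ℝ} {σ : Cmp Y → ℝ} {c : ℕ → ℝ}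
  {p : ℂ → ℂ} {P : (ℂ → ℝ) → Prop}

/-- **the minimiser is switched** -/
theorem MinT.swd (hY : IsExteriorDomain Yᶜ) (hx : X0 Y x0) (h : MinT Y x0 u m σ c p ψ)
    (hu : ∀ n, TT Y (u n)) : Swd Y (fun z => x0 z + ψ z) := by
  obtain ⟨U, rfl⟩ : ∃ U : Set ℂ, Y = Uᶜ := ⟨Yᶜ, (compl_compl Y).symm⟩
  exact swd_aux (by simpa using hY) hx h hu

/-- **univalence** -/
theorem MinT.injOn (hY : IsExteriorDomain Yᶜ) (hx : X0 Y x0) (h : MinT Y x0 u m σ c p ψ)
    (hu : ∀ n, TT Y (u n)) (hEL : Uv_913.ELIneq Yᶜ p) : InjOn p Yᶜ := by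
  obtain ⟨U, rfl⟩ : ∃ U : Set ℂ, Y = Uᶜ := ⟨Yᶜ, (compl_compl Y).symm⟩
  rw [compl_compl] at hY hEL ⊢
  exact injOn_aux hY hx h hu hEL

/-- minimality along commutant directions -/
theorem MinT.min_add (hPZ : ∀ φ, PZ φ → P φ) (hY : IsExteriorDomain Yᶜ) (hx : X0 Y x0)
    (hlin : CombP Y x0 P) (hs : SelT Y x0 P u m σ) (h : MinT Y x0 u m σ c p ψ) (hφ : TT Y φ)
    (hn : ∀ i, NI Y (u i) φ) (t : ℝ) : TJ Y x0 ψ ≤ TJ Y x0 fun z => ψ z + t * φ z := by
  have hcl := (cpt_of hY).isClosed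
  refine h.min _ (h.tt.add hcl (TT_smul hcl t hφ)) fun i => ?_
  have h1 := comb' hPZ hY hx hlin (hs.tt i) (hs.p i) (hs.swd i) h.tt hφ (h.ni i) (hn i) 1 t
  simpa only [one_mul] using h1

end Y

end

end Crest.Agent.R105.Min_790
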