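import Mathlib
import Crest.Agent.R193.Planar2

/-!
# R105 MON (helper868): the Monge inequality for classes of functions on a rectangle which are
closed under component switch.

Planarity theorem of post #9404, part (M1)-(M3).  `Rect t1 t2 c0 c1 = [t1,t2] × [c0,c1]`,
`p_c = (t1, c)`, `q_c = (t2, c)`.
-/

set_option autoImplicit false

open Set Filter Topology Metric

namespace Crest.Agent.R105.Mon_868

/-- closed rectangle -/
def Rect (t1 t2 c0 c1 : ℝ) : Set (ℝ × ℝ) := Icc t1 t2 ×ˢ Icc c0 c1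

/-- clamp retraction onto the rectangle -/
def proj (t1 t2 c0 c1 : ℝ) (z : ℝ × ℝ) : ℝ × ℝ := (max t1 (min t2 z.1), max c0 (min c1 z.2))

lemma continuous_proj (t1 t2 c0 c1 : ℝ) : Continuous (proj t1 t2 c0 c1) := by
  unfold proj; fun_prop

lemma proj_mem {t1 t2 c0 c1 : ℝ} (ht : t1 ≤ t2) (hc : c0 ≤ c1) (z : ℝ × ℝ) :
    proj t1 t2 c0 c1 z ∈ Rect t1 t2 c0 c1 := by
  refine ⟨⟨le_max_left _ _, max_le ht (min_le_left _ _)⟩, ⟨le_max_left _ _, max_le hc (min_le_left _ _)⟩⟩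

lemma proj_eq {t1 t2 c0 c1 : ℝ} {z : ℝ × ℝ} (hz : z ∈ Rect t1 t2 c0 c1) :
    proj t1 t2 c0 c1 z = z := by
  obtain ⟨⟨h1, h2⟩, h3, h4⟩ := hz
  simp only [proj, min_eq_right h2, min_eq_right h4, max_eq_right h1, max_eq_right h3]

/-- two points in one component of a relatively open subset `{τ < ψ}` of the rectangle lie in one
compact connected subset -/
lemma exists_continuum {t1 t2 c0 c1 : ℝ} {ψ : ℝ × ℝ → ℝ} (hψ : ContinuousOn ψ (Rect t1 t2 c0 c1))
    {τ : ℝ} {p q : ℝ × ℝ} (h : q ∈ connectedComponentIn (Rect t1 t2 c0 c1 ∩ {z | τ < ψ z}) p) :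
    ∃ K : Set (ℝ × ℝ), IsCompact K ∧ IsPreconnected K ∧ p ∈ K ∧ q ∈ K ∧
      K ⊆ Rect t1 t2 c0 c1 ∩ {z | τ < ψ z} := by
  have hp : p ∈ Rect t1 t2 c0 c1 ∩ {z | τ < ψ z} := by
    by_contra hp
    rw [connectedComponentIn_eq_empty hp] at h
    exact h
  have ht : t1 ≤ t2 := hp.1.1.1.trans hp.1.1.2
  have hc : c0 ≤ c1 := hp.1.2.1.trans hp.1.2.2
  set P := proj t1 t2 c0 c1 with hP
  have hPc : Continuous (fun z => ψ (P z)) :=
    hψ.comp_continuous (continuous_proj _ _ _ _) (fun z => proj_mem ht hc z)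
  set W : Set (ℝ × ℝ) := {z | τ < ψ (P z)} with hW
  have hWo : IsOpen W := isOpen_lt continuous_const hPc
  have hsub : Rect t1 t2 c0 c1 ∩ {z | τ < ψ z} ⊆ W := by
    rintro z ⟨hz, hz2⟩
    show τ < ψ (P z)
    rw [hP, proj_eq hz]; exact hz2
  have hq' : q ∈ connectedComponentIn W p := connectedComponentIn_mono p hsub h
  have hqR : q ∈ Rect t1 t2 c0 c1 := (connectedComponentIn_subset _ _ h).1
  obtain ⟨γ, hγc, hγ0, hγ1, hγ⟩ := R193.Planar.exists_path_Icc (hWo.connectedComponentIn (x := p))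
    isPreconnected_connectedComponentIn (mem_connectedComponentIn (hsub hp)) hq'
  refine ⟨P '' (γ '' Icc (-1) 1), ?_, ?_, ?_, ?_, ?_⟩
  · exact (isCompact_Icc.image_of_continuousOn hγc).image (continuous_proj _ _ _ _)
  · exact (isPreconnected_Icc.image _ hγc).image _ (continuous_proj _ _ _ _).continuousOn
  · exact ⟨p, ⟨-1, by norm_num, hγ0⟩, proj_eq hp.1⟩
  · exact ⟨q, ⟨1, by norm_num, hγ1⟩, proj_eq hqR⟩
  · rintro _ ⟨_, ⟨s, hs, rfl⟩, rfl⟩
    refine ⟨proj_mem ht hc _, ?_⟩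
    have := connectedComponentIn_subset _ _ (hγ s hs)
    exact this

/-- **Crossing.** -/
theorem cross {t1 t2 c0 c1 : ℝ} {K₁ K₂ : Set (ℝ × ℝ)}
    (h1 : IsCompact K₁) (h2 : IsCompact K₂) (h1c : IsPreconnected K₁) (h2c : IsPreconnected K₂)
    (h1R : K₁ ⊆ Rect t1 t2 c0 c1) (h2R : K₂ ⊆ Rect t1 t2 c0 c1) {c c' e e' : ℝ} (hc : c < c')
    (he : e < e') (hp : (t1, c) ∈ K₁) (hq' : (t2, e') ∈ K₁) (hp' : (t1, c') ∈ K₂)
    (hq : (t2, e) ∈ K₂) : (K₁ ∩ K₂).Nonempty := by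
  by_contra hcon
  rw [not_nonempty_iff_eq_empty] at hcon
  have hno : ∀ z ∈ K₁, z ∉ K₂ := fun z h1 h2 => by
    have : z ∈ K₁ ∩ K₂ := ⟨h1, h2⟩
    rw [hcon] at this
    exact this
  have hR1 := h1R hp
  have hR2 := h1R hq'
  have hR3 := h2R hp'
  have hR4 := h2R hq
  have ht12 : t1 ≤ t2 := hR1.1.2
  set A1 : Set (ℝ × ℝ) := Icc (t1 - 1) t1 ×ˢ {c} with hA1
  set A2 : Set (ℝ × ℝ) := Icc t2 (t2 + 1) ×ˢ {e'} with hA2
  set B1 : Set (ℝ × ℝ) := Icc (t1 - 1) t1 ×ˢ {c'} with hB1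
  set B2 : Set (ℝ × ℝ) := {t1 - 1} ×ˢ Icc c' (c1 + 1) with hB2
  set B3 : Set (ℝ × ℝ) := Icc t2 (t2 + 1) ×ˢ {e} with hB3
  set B4 : Set (ℝ × ℝ) := {t2 + 1} ×ˢ Icc (c0 - 1) e with hB4
  set H := K₁ ∪ A1 ∪ A2 with hH
  set V := K₂ ∪ B1 ∪ B3 ∪ B2 ∪ B4 with hV
  have hHcpt : IsCompact H :=
    (h1.union (isCompact_Icc.prod isCompact_singleton)).union (isCompact_Icc.prod isCompact_singleton)
  have hVcpt : IsCompact V :=
    (((h2.union (isCompact_Icc.prod isCompact_singleton)).union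
      (isCompact_Icc.prod isCompact_singleton)).union
      (isCompact_singleton.prod isCompact_Icc)).union (isCompact_singleton.prod isCompact_Icc)
  have hHcon : IsPreconnected H :=
    (h1c.union (t1, c) hp (show (t1, c) ∈ A1 from ⟨⟨by simp, le_rfl⟩, rfl⟩)
      (isPreconnected_Icc.prod isPreconnected_singleton)).union (t2, e') (Or.inl hq')
      (show (t2, e') ∈ A2 from ⟨⟨le_rfl, by simp⟩, rfl⟩)
      (isPreconnected_Icc.prod isPreconnected_singleton)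
  have hVcon : IsPreconnected V := by
    have s1 : IsPreconnected (K₂ ∪ B1) := h2c.union (t1, c') hp'
      (show (t1, c') ∈ B1 from ⟨⟨by simp, le_rfl⟩, rfl⟩)
      (isPreconnected_Icc.prod isPreconnected_singleton)
    have s2 : IsPreconnected (K₂ ∪ B1 ∪ B3) := s1.union (t2, e) (Or.inl hq)
      (show (t2, e) ∈ B3 from ⟨⟨le_rfl, by simp⟩, rfl⟩)
      (isPreconnected_Icc.prod isPreconnected_singleton)
    have s3 : IsPreconnected (K₂ ∪ B1 ∪ B3 ∪ B2) := s2.union (t1 - 1, c')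
      (Or.inl (Or.inr (show (t1 - 1, c') ∈ B1 from ⟨⟨le_rfl, by simp⟩, rfl⟩)))
      (show (t1 - 1, c') ∈ B2 from ⟨rfl, ⟨le_rfl, by linarith [hR3.2.2]⟩⟩)
      (isPreconnected_singleton.prod isPreconnected_Icc)
    exact s3.union (t2 + 1, e)
      (Or.inl (Or.inr (show (t2 + 1, e) ∈ B3 from ⟨⟨by simp, le_rfl⟩, rfl⟩)))
      (show (t2 + 1, e) ∈ B4 from ⟨rfl, ⟨by linarith [hR4.2.1], le_rfl⟩⟩)
      (isPreconnected_singleton.prod isPreconnected_Icc)
  have key := R193.Planar.continua_cross (a := t1 - 1) (b := t2 + 1) (c := c0 - 1) (d := c1 + 1)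
    hHcpt hVcpt hHcon hVcon ?_ ?_ ?_ ?_ ?_ ?_
  · obtain ⟨z, hzH, hzV⟩ := key
    rcases hzH with (hz1 | hz1) | hz1
    · have hz := h1R hz1
      rcases hzV with (((hz2 | hz2) | hz2) | hz2) | hz2
      · exact hno z hz1 hz2
      · -- `z ∈ B1`
        have e1 : z = (t1, c') := Prod.ext (le_antisymm hz2.1.2 hz.1.1) hz2.2
        exact hno z hz1 (e1 ▸ hp')
      · have e1 : z = (t2, e) := Prod.ext (le_antisymm hz.1.2 hz2.1.1) hz2.2
        exact hno z hz1 (e1 ▸ hq)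
      · have e1 : z.1 = t1 - 1 := hz2.1
        linarith [hz.1.1]
      · have e1 : z.1 = t2 + 1 := hz2.1
        linarith [hz.1.2]
    · -- `z ∈ A1`
      have hz2c : z.2 = c := hz1.2
      rcases hzV with (((hz2 | hz2) | hz2) | hz2) | hz2
      · have hz := h2R hz2
        have e1 : z = (t1, c) := Prod.ext (le_antisymm hz1.1.2 hz.1.1) hz2c
        exact hno z (e1 ▸ hp) hz2
      · have : z.2 = c' := hz2.2
        linarith
      · have h3 : t2 ≤ z.1 := hz2.1.1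
        have h4 : z.1 ≤ t1 := hz1.1.2
        have e1 : z = (t1, c) := Prod.ext (by linarith : z.1 = t1) hz2c
        have e2 : z = (t2, e) := Prod.ext (by linarith : z.1 = t2) hz2.2
        exact hno z (e1 ▸ hp) (e2 ▸ hq)
      · have h3 : c' ≤ z.2 := hz2.2.1
        linarith
      · have h3 : z.1 = t2 + 1 := hz2.1
        linarith [hz1.1.2]
    · -- `z ∈ A2`
      have hz2c : z.2 = e' := hz1.2
      rcases hzV with (((hz2 | hz2) | hz2) | hz2) | hz2
      · have hz := h2R hz2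
        have e1 : z = (t2, e') := Prod.ext (le_antisymm hz.1.2 hz1.1.1) hz2c
        exact hno z (e1 ▸ hq') hz2
      · have h3 : t2 ≤ z.1 := hz1.1.1
        have h4 : z.1 ≤ t1 := hz2.1.2
        have e1 : z = (t2, e') := Prod.ext (by linarith : z.1 = t2) hz2c
        have e2 : z = (t1, c') := Prod.ext (by linarith : z.1 = t1) hz2.2
        exact hno z (e1 ▸ hq') (e2 ▸ hp')
      · have : z.2 = e := hz2.2
        linarith
      · have h3 : z.1 = t1 - 1 := hz2.1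
        linarith [hz1.1.1]
      · have h3 : z.2 ≤ e := hz2.2.2
        linarith
  · rintro z ((h | h) | h)
    · exact ⟨by linarith [(h1R h).2.1], by linarith [(h1R h).2.2]⟩
    · have : z.2 = c := h.2
      rw [this]; exact ⟨by linarith [hR1.2.1], by linarith [hR1.2.2]⟩
    · have : z.2 = e' := h.2
      rw [this]; exact ⟨by linarith [hR2.2.1], by linarith [hR2.2.2]⟩
  · rintro z ((((h | h) | h) | h) | h)
    · exact ⟨by linarith [(h2R h).1.1], by linarith [(h2R h).1.2]⟩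
    · exact ⟨h.1.1, by linarith [h.1.2]⟩
    · exact ⟨by linarith [h.1.1], h.1.2⟩
    · have : z.1 = t1 - 1 := h.1
      rw [this]; exact ⟨le_rfl, by linarith⟩
    · have : z.1 = t2 + 1 := h.1
      rw [this]; exact ⟨by linarith, le_rfl⟩
  · exact ⟨(t1 - 1, c), Or.inl (Or.inr ⟨⟨le_rfl, by simp⟩, rfl⟩), le_rfl⟩
  · exact ⟨(t2 + 1, e'), Or.inr ⟨⟨by simp, le_rfl⟩, rfl⟩, le_rfl⟩
  · exact ⟨(t2 + 1, c0 - 1), Or.inr ⟨rfl, ⟨le_rfl, by linarith [hR4.2.1]⟩⟩, le_rfl⟩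
  · exact ⟨(t1 - 1, c1 + 1), Or.inl (Or.inr ⟨rfl, ⟨by linarith [hR3.2.2], le_rfl⟩⟩), le_rfl⟩

/-- the component switch of `φ` and `φ' - τ` on the component of `q` in `{φ' - φ ≠ τ}` -/
noncomputable def sw (R : Set (ℝ × ℝ)) (φ φ' : ℝ × ℝ → ℝ) (τ : ℝ) (q : ℝ × ℝ) : ℝ × ℝ → ℝ :=
  open Classical in
  fun z => if z ∈ connectedComponentIn (R ∩ {w | φ' w - φ w ≠ τ}) q then φ' z - τ else φ z

/-- good levels -/
lemma exists_level {t1 t2 c0 c1 : ℝ} {ψ : ℝ × ℝ → ℝ} (hψ : ContinuousOn ψ (Rect t1 t2 c0 c1))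
    {c c' e e' : ℝ} (hc : c < c') (he : e < e')
    (hp : (t1, c) ∈ Rect t1 t2 c0 c1) (hp' : (t1, c') ∈ Rect t1 t2 c0 c1)
    (hq : (t2, e) ∈ Rect t1 t2 c0 c1) (hq' : (t2, e') ∈ Rect t1 t2 c0 c1) :
    ∃ τ : ℝ, (t2, e') ∉ connectedComponentIn (Rect t1 t2 c0 c1 ∩ {z | ψ z ≠ τ}) (t1, c) ∧
      (t2, e) ∉ connectedComponentIn (Rect t1 t2 c0 c1 ∩ {z | ψ z ≠ τ}) (t1, c') := by
  set R := Rect t1 t2 c0 c1 with hR
  set cc : ℝ → ℝ × ℝ → Set (ℝ × ℝ) := fun τ a => connectedComponentIn (R ∩ {z | τ < ψ z}) a with hcc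
  set dd : ℝ → ℝ × ℝ → Set (ℝ × ℝ) := fun τ a => connectedComponentIn (R ∩ {z | τ < -ψ z}) a with hdd
  set P : Set ℝ := {τ | (t2, e') ∈ cc τ (t1, c) ∨ (t2, e) ∈ cc τ (t1, c')} with hP
  set N : Set ℝ := {τ | (t2, e') ∈ dd (-τ) (t1, c) ∨ (t2, e) ∈ dd (-τ) (t1, c')} with hN
  have hRconv : Convex ℝ R := (convex_Icc _ _).prod (convex_Icc _ _)
  have hRcpt : IsCompact R := isCompact_Icc.prod isCompact_Icc
  -- openness, general
  have open_gen : ∀ (f : ℝ × ℝ → ℝ) (_ : ContinuousOn f R) (a b : ℝ × ℝ) (τ : ℝ),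
      b ∈ connectedComponentIn (R ∩ {z | τ < f z}) a →
      ∃ m, τ < m ∧ ∀ τ' < m, b ∈ connectedComponentIn (R ∩ {z | τ' < f z}) a := by
    intro f hf a b τ hab
    obtain ⟨K, hK, hKc, ha, hb, hKs⟩ := exists_continuum hf hab
    obtain ⟨z0, hz0, hmin⟩ := hK.exists_isMinOn ⟨a, ha⟩ (hf.mono fun z hz => (hKs hz).1)
    refine ⟨f z0, (hKs hz0).2, fun τ' hτ' => ?_⟩
    have hK2 : K ⊆ R ∩ {z | τ' < f z} := fun z hz => ⟨(hKs hz).1, lt_of_lt_of_le hτ' (hmin hz)⟩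
    exact hKc.subset_connectedComponentIn ha hK2 hb
  have hPo : IsOpen P := by
    rw [isOpen_iff_mem_nhds]
    rintro τ (h | h)
    · obtain ⟨m, hm, hm'⟩ := open_gen ψ hψ _ _ τ h
      exact mem_of_superset (Iio_mem_nhds hm) fun τ' hτ' => Or.inl (hm' τ' hτ')
    · obtain ⟨m, hm, hm'⟩ := open_gen ψ hψ _ _ τ h
      exact mem_of_superset (Iio_mem_nhds hm) fun τ' hτ' => Or.inr (hm' τ' hτ')
  have hNo : IsOpen N := by
    rw [isOpen_iff_mem_nhds]
    rintro τ (h | h)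
    · obtain ⟨m, hm, hm'⟩ := open_gen (fun z => -ψ z) hψ.neg _ _ (-τ) h
      refine mem_of_superset (Ioi_mem_nhds (show -m < τ by linarith)) fun τ' hτ' => Or.inl (hm' _ ?_)
      have : -m < τ' := hτ'
      linarith
    · obtain ⟨m, hm, hm'⟩ := open_gen (fun z => -ψ z) hψ.neg _ _ (-τ) h
      refine mem_of_superset (Ioi_mem_nhds (show -m < τ by linarith)) fun τ' hτ' => Or.inr (hm' _ ?_)
      have : -m < τ' := hτ'
      linarith
  have hPne : P.Nonempty := by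
    obtain ⟨z0, hz0, hmin⟩ := hRcpt.exists_isMinOn ⟨_, hp⟩ hψ
    refine ⟨ψ z0 - 1, Or.inl ?_⟩
    have hs : R ⊆ R ∩ {z | ψ z0 - 1 < ψ z} := fun z hz =>
      ⟨hz, by have : ψ z0 ≤ ψ z := hmin hz; show ψ z0 - 1 < ψ z; linarith⟩
    exact hRconv.isPreconnected.subset_connectedComponentIn hp hs hq'
  have hNne : N.Nonempty := by
    obtain ⟨z0, hz0, hmax⟩ := hRcpt.exists_isMaxOn ⟨_, hp⟩ hψ
    refine ⟨ψ z0 + 1, Or.inl ?_⟩
    have hs : R ⊆ R ∩ {z | -(ψ z0 + 1) < -ψ z} := fun z hz =>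
      ⟨hz, by have : ψ z ≤ ψ z0 := hmax hz; show -(ψ z0 + 1) < -ψ z; linarith⟩
    exact hRconv.isPreconnected.subset_connectedComponentIn hp hs hq'
  have hdisj : P ∩ N = ∅ := by
    rw [eq_empty_iff_forall_notMem]
    rintro τ ⟨h1 | h1, h2 | h2⟩
    · have a1 : τ < ψ (t2, e') := (connectedComponentIn_subset _ _ h1).2
      have a2 : -τ < -ψ (t2, e') := (connectedComponentIn_subset _ _ h2).2
      linarith
    · obtain ⟨K, hK, hKc, ha, hb, hKs⟩ := exists_continuum hψ h1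
      obtain ⟨L, hL, hLc, ha', hb', hLs⟩ := exists_continuum hψ.neg h2
      obtain ⟨z, hz1, hz2⟩ := cross hK hL hKc hLc (fun z hz => (hKs hz).1) (fun z hz => (hLs hz).1)
        hc he ha hb ha' hb'
      have a1 : τ < ψ z := (hKs hz1).2
      have a2 : -τ < -ψ z := (hLs hz2).2
      linarith
    · obtain ⟨K, hK, hKc, ha, hb, hKs⟩ := exists_continuum hψ h1
      obtain ⟨L, hL, hLc, ha', hb', hLs⟩ := exists_continuum hψ.neg h2
      obtain ⟨z, hz1, hz2⟩ := cross hL hK hLc hKc (fun z hz => (hLs hz).1) (fun z hz => (hKs hz).1)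
        hc he ha' hb' ha hb
      have a1 : τ < ψ z := (hKs hz2).2
      have a2 : -τ < -ψ z := (hLs hz1).2
      linarith
    · have a1 : τ < ψ (t2, e) := (connectedComponentIn_subset _ _ h1).2
      have a2 : -τ < -ψ (t2, e) := (connectedComponentIn_subset _ _ h2).2
      linarith
  obtain ⟨τ, hτ⟩ : ∃ τ, τ ∉ P ∪ N := by
    by_contra hcon
    push Not at hcon
    have := (isPreconnected_univ (α := ℝ)) P N hPo hNo (fun x _ => hcon x)
      (by simpa using hPne) (by simpa using hNne)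
    rw [univ_inter, hdisj] at this
    exact this.ne_empty rfl
  have hτP : τ ∉ P := fun h => hτ (Or.inl h)
  have hτN : τ ∉ N := fun h => hτ (Or.inr h)
  -- a component of `{ψ ≠ τ}` is contained in `{ψ > τ}` or in `{ψ < τ}`
  have split : ∀ a b : ℝ × ℝ, b ∈ connectedComponentIn (R ∩ {z | ψ z ≠ τ}) a →
      b ∈ cc τ a ∨ b ∈ dd (-τ) a := by
    intro a b hab
    have ha : a ∈ R ∩ {z | ψ z ≠ τ} := by
      by_contra ha
      rw [connectedComponentIn_eq_empty ha] at hab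
      exact hab
    set S := connectedComponentIn (R ∩ {z | ψ z ≠ τ}) a with hS
    have hSc : IsPreconnected S := isPreconnected_connectedComponentIn
    have hSs : S ⊆ R ∩ {z | ψ z ≠ τ} := connectedComponentIn_subset _ _
    have haS : a ∈ S := mem_connectedComponentIn ha
    have himg : IsPreconnected (ψ '' S) := hSc.image _ (hψ.mono fun z hz => (hSs hz).1)
    have hoc := himg.ordConnected
    rcases lt_or_gt_of_ne ha.2 with h | h
    · right
      have hs : S ⊆ R ∩ {z | -τ < -ψ z} := by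
        intro z hz
        refine ⟨(hSs hz).1, ?_⟩
        show -τ < -ψ z
        by_contra hlt
        push Not at hlt
        have h1 : τ ∈ ψ '' S := hoc.out ⟨a, haS, rfl⟩ ⟨z, hz, rfl⟩ ⟨h.le, by linarith⟩
        obtain ⟨w, hw, hw'⟩ := h1
        exact (hSs hw).2 hw'
      exact hSc.subset_connectedComponentIn haS hs hab
    · left
      have hs : S ⊆ R ∩ {z | τ < ψ z} := by
        intro z hz
        refine ⟨(hSs hz).1, ?_⟩
        show τ < ψ z
        by_contra hlt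
        push Not at hlt
        have h1 : τ ∈ ψ '' S := hoc.out ⟨z, hz, rfl⟩ ⟨a, haS, rfl⟩ ⟨hlt, h.le⟩
        obtain ⟨w, hw, hw'⟩ := h1
        exact (hSs hw).2 hw'
      exact hSc.subset_connectedComponentIn haS hs hab
  refine ⟨τ, fun h => ?_, fun h => ?_⟩
  · rcases split _ _ h with h | h
    · exact hτP (Or.inl h)
    · exact hτN (Or.inl h)
  · rcases split _ _ h with h | h
    · exact hτP (Or.inr h)
    · exact hτN (Or.inr h)

/-- **Monge inequality (M2)**, exact form for two continuous functions. -/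
theorem monge' {t1 t2 c0 c1 : ℝ} {φ φ' : ℝ × ℝ → ℝ} (hφ : ContinuousOn φ (Rect t1 t2 c0 c1))
    (hφ' : ContinuousOn φ' (Rect t1 t2 c0 c1))
    {c c' e e' : ℝ} (hc : c < c') (he : e < e')
    (hp : (t1, c) ∈ Rect t1 t2 c0 c1) (hp' : (t1, c') ∈ Rect t1 t2 c0 c1)
    (hq : (t2, e) ∈ Rect t1 t2 c0 c1) (hq' : (t2, e') ∈ Rect t1 t2 c0 c1) :
    ∃ τ, (sw (Rect t1 t2 c0 c1) φ φ' τ (t2, e') (t2, e') -
        sw (Rect t1 t2 c0 c1) φ φ' τ (t2, e') (t1, c)) +
      (sw (Rect t1 t2 c0 c1) φ φ' τ (t1, c') (t2, e) -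
        sw (Rect t1 t2 c0 c1) φ φ' τ (t1, c') (t1, c')) =
      (φ (t2, e) - φ (t1, c)) + (φ' (t2, e') - φ' (t1, c')) := by
  set R := Rect t1 t2 c0 c1 with hR
  set ψ : ℝ × ℝ → ℝ := fun z => φ' z - φ z with hψ
  have hψc : ContinuousOn ψ R := hφ'.sub hφ
  obtain ⟨τ, h1, h2⟩ := exists_level hψc hc he hp hp' hq hq'
  -- values of the switch
  have val : ∀ q ∈ R, sw R φ φ' τ q q = φ' q - τ := by
    intro q hq
    unfold sw
    by_cases h : ψ q = τ
    · split_ifs with h3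
      · rfl
      · have : φ' q - φ q = τ := h
        linarith
    · have hm : q ∈ R ∩ {w | φ' w - φ w ≠ τ} := ⟨hq, h⟩
      rw [if_pos (mem_connectedComponentIn hm)]
  have val' : ∀ q a, a ∉ connectedComponentIn (R ∩ {w | φ' w - φ w ≠ τ}) q →
      sw R φ φ' τ q a = φ a := by
    intro q a ha
    unfold sw
    rw [if_neg ha]
  have symm : ∀ a b : ℝ × ℝ, b ∉ connectedComponentIn (R ∩ {w | φ' w - φ w ≠ τ}) a →
      a ∉ connectedComponentIn (R ∩ {w | φ' w - φ w ≠ τ}) b := by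
    intro a b hab hba
    apply hab
    have hb : b ∈ R ∩ {w | φ' w - φ w ≠ τ} := by
      by_contra hb
      rw [connectedComponentIn_eq_empty hb] at hba
      exact hba
    rw [← connectedComponentIn_eq hba]
    exact mem_connectedComponentIn hb
  refine ⟨τ, ?_⟩
  rw [val _ hq', val _ hp', val' _ _ (symm _ _ h1), val' _ _ h2]
  ring

end Crest.Agent.R105.Mon_868
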