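import Mathlib
import Crest.Agent.R105.Mon1_868

/-!
# R105 MON (helper868): potentials.  Planarity theorem of post #9404, part (M3)-(M4).
-/

set_option autoImplicit false

open Set Filter Topology Metric MeasureTheory

namespace Crest.Agent.R105.Mon_868

/-- hypotheses on the class `FF` of functions on the rectangle -/
structure MonClass (t1 t2 c0 c1 : ℝ) (FF : Set (ℝ × ℝ → ℝ)) : Prop where
  cont : ∀ φ ∈ FF, ContinuousOn φ (Rect t1 t2 c0 c1)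
  sw : ∀ φ ∈ FF, ∀ φ' ∈ FF, ∀ τ q, ∀ ε > 0, ∃ S ∈ FF, ∀ z ∈ Rect t1 t2 c0 c1,
    |S z - Mon_868.sw (Rect t1 t2 c0 c1) φ φ' τ q z| ≤ ε
  add : ∀ φ ∈ FF, ∀ k : ℝ, (fun z => φ z + k) ∈ FF
  max : ∀ φ ∈ FF, ∀ φ' ∈ FF, (fun z => max (φ z) (φ' z)) ∈ FF
  min : ∀ φ ∈ FF, ∀ φ' ∈ FF, (fun z => min (φ z) (φ' z)) ∈ FF
  bdd : ∃ C : ℝ, ∀ φ ∈ FF, ∀ c ∈ Icc c0 c1, ∀ e ∈ Icc c0 c1, φ (t2, e) - φ (t1, c) ≤ C

section
variable {t1 t2 c0 c1 : ℝ} {FF : Set (ℝ × ℝ → ℝ)}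

lemma fin_max (h : ∀ φ ∈ FF, ∀ φ' ∈ FF, (fun z => Max.max (φ z) (φ' z)) ∈ FF) (f : ℕ → ℝ × ℝ → ℝ) :
    ∀ m : ℕ, (∀ j ≤ m, f j ∈ FF) → ∃ φ ∈ FF, ∀ z, (∀ j ≤ m, f j z ≤ φ z) ∧ ∃ j ≤ m, φ z = f j z := by
  intro m
  induction m with
  | zero =>
    intro hf
    refine ⟨f 0, hf 0 le_rfl, fun z => ⟨fun j hj => ?_, 0, le_rfl, rfl⟩⟩
    rw [Nat.le_zero.1 hj]
  | succ m ih =>
    intro hf
    obtain ⟨φ, hφ, H⟩ := ih fun j hj => hf j (hj.trans (Nat.le_succ m))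
    refine ⟨_, h φ hφ (f (m + 1)) (hf _ le_rfl), fun z => ⟨fun j hj => ?_, ?_⟩⟩
    · rcases Nat.le_succ_iff.1 hj with hj | hj
      · exact ((H z).1 j hj).trans (le_max_left _ _)
      · rw [hj]; exact le_max_right _ _
    · rcases le_total (φ z) (f (m + 1) z) with h1 | h1
      · exact ⟨m + 1, le_rfl, max_eq_right h1⟩
      · obtain ⟨j, hj, hj'⟩ := (H z).2
        exact ⟨j, hj.trans (Nat.le_succ m), (max_eq_left h1).trans hj'⟩

lemma fin_min (h : ∀ φ ∈ FF, ∀ φ' ∈ FF, (fun z => Min.min (φ z) (φ' z)) ∈ FF) (f : ℕ → ℝ × ℝ → ℝ) :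
    ∀ m : ℕ, (∀ j ≤ m, f j ∈ FF) → ∃ φ ∈ FF, ∀ z, (∀ j ≤ m, φ z ≤ f j z) ∧ ∃ j ≤ m, φ z = f j z := by
  intro m
  induction m with
  | zero =>
    intro hf
    refine ⟨f 0, hf 0 le_rfl, fun z => ⟨fun j hj => ?_, 0, le_rfl, rfl⟩⟩
    rw [Nat.le_zero.1 hj]
  | succ m ih =>
    intro hf
    obtain ⟨φ, hφ, H⟩ := ih fun j hj => hf j (hj.trans (Nat.le_succ m))
    refine ⟨_, h φ hφ (f (m + 1)) (hf _ le_rfl), fun z => ⟨fun j hj => ?_, ?_⟩⟩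
    · rcases Nat.le_succ_iff.1 hj with hj | hj
      · exact (min_le_left _ _).trans ((H z).1 j hj)
      · rw [hj]; exact min_le_right _ _
    · rcases le_total (φ z) (f (m + 1) z) with h1 | h1
      · obtain ⟨j, hj, hj'⟩ := (H z).2
        exact ⟨j, hj.trans (Nat.le_succ m), (min_eq_left h1).trans hj'⟩
      · exact ⟨m + 1, le_rfl, min_eq_right h1⟩

/-- the distance `D c e = sup_{φ ∈ FF} φ (t2, e) - φ (t1, c)` -/
noncomputable def D (t1 t2 : ℝ) (FF : Set (ℝ × ℝ → ℝ)) (c e : ℝ) : ℝ :=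
  sSup {r | ∃ φ ∈ FF, r = φ (t2, e) - φ (t1, c)}

lemma MonClass.bddAbove (hF : MonClass t1 t2 c0 c1 FF) {c e : ℝ} (hc : c ∈ Icc c0 c1)
    (he : e ∈ Icc c0 c1) : BddAbove {r | ∃ φ ∈ FF, r = φ (t2, e) - φ (t1, c)} := by
  obtain ⟨C, hC⟩ := hF.bdd
  exact ⟨C, by rintro _ ⟨φ, hφ, rfl⟩; exact hC φ hφ c hc e he⟩

lemma MonClass.le_D (hF : MonClass t1 t2 c0 c1 FF) {c e : ℝ} (hc : c ∈ Icc c0 c1)
    (he : e ∈ Icc c0 c1) {φ : ℝ × ℝ → ℝ} (hφ : φ ∈ FF) :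
    φ (t2, e) - φ (t1, c) ≤ D t1 t2 FF c e :=
  le_csSup (hF.bddAbove hc he) ⟨φ, hφ, rfl⟩

lemma MonClass.exists_near (hne : FF.Nonempty) (c e : ℝ) {ε : ℝ} (hε : 0 < ε) :
    ∃ φ ∈ FF, D t1 t2 FF c e - ε < φ (t2, e) - φ (t1, c) := by
  obtain ⟨φ0, h0⟩ := hne
  have hn : {r | ∃ φ ∈ FF, r = φ (t2, e) - φ (t1, c)}.Nonempty := ⟨_, φ0, h0, rfl⟩
  obtain ⟨_, ⟨φ, hφ, rfl⟩, h⟩ := exists_lt_of_lt_csSup hn
    (show D t1 t2 FF c e - ε < sSup {r | ∃ φ ∈ FF, r = φ (t2, e) - φ (t1, c)} by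
      show D t1 t2 FF c e - ε < D t1 t2 FF c e
      linarith)
  exact ⟨φ, hφ, h⟩

/-- Monge inequality for `D` -/
lemma MonClass.monge_D (hF : MonClass t1 t2 c0 c1 FF) (hne : FF.Nonempty) (ht : t1 ≤ t2)
    {c c' e e' : ℝ} (hc : c ∈ Icc c0 c1) (hc' : c' ∈ Icc c0 c1) (he : e ∈ Icc c0 c1)
    (he' : e' ∈ Icc c0 c1) (hcc : c < c') (hee : e < e') :
    D t1 t2 FF c e + D t1 t2 FF c' e' ≤ D t1 t2 FF c e' + D t1 t2 FF c' e := by
  refine le_of_forall_pos_le_add fun ε hε => ?_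
  have hε6 : 0 < ε / 6 := by positivity
  obtain ⟨φ, hφ, h1⟩ := MonClass.exists_near (t1 := t1) (t2 := t2) hne c e hε6
  obtain ⟨φ', hφ', h2⟩ := MonClass.exists_near (t1 := t1) (t2 := t2) hne c' e' hε6
  have m1 : (t1, c) ∈ Rect t1 t2 c0 c1 := ⟨⟨le_rfl, ht⟩, hc⟩
  have m2 : (t1, c') ∈ Rect t1 t2 c0 c1 := ⟨⟨le_rfl, ht⟩, hc'⟩
  have m3 : (t2, e) ∈ Rect t1 t2 c0 c1 := ⟨⟨ht, le_rfl⟩, he⟩
  have m4 : (t2, e') ∈ Rect t1 t2 c0 c1 := ⟨⟨ht, le_rfl⟩, he'⟩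
  obtain ⟨τ, H⟩ := monge' (hF.cont φ hφ) (hF.cont φ' hφ') hcc hee m1 m2 m3 m4
  obtain ⟨φ₁, h₁, H1⟩ := hF.sw φ hφ φ' hφ' τ (t2, e') _ hε6
  obtain ⟨φ₂, h₂, H2⟩ := hF.sw φ hφ φ' hφ' τ (t1, c') _ hε6
  have a1 := hF.le_D hc he' h₁
  have a2 := hF.le_D hc' he h₂
  have b1 := abs_le.1 (H1 _ m4)
  have b2 := abs_le.1 (H1 _ m1)
  have b3 := abs_le.1 (H2 _ m3)
  have b4 := abs_le.1 (H2 _ m2)
  linarith [b1.1, b1.2, b2.1, b2.2, b3.1, b3.2, b4.1, b4.2]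

/-- the potential on the left side -/
noncomputable def u (t1 t2 : ℝ) (FF : Set (ℝ × ℝ → ℝ)) (c : ℕ → ℝ) : ℕ → ℝ
  | 0 => 0
  | i + 1 => u t1 t2 FF c i + D t1 t2 FF (c i) (c i) - D t1 t2 FF (c (i + 1)) (c i)

/-- the monotone coupling is optimal: `v_j - u_i ≤ D c_i c_j` -/
lemma MonClass.potential (hF : MonClass t1 t2 c0 c1 FF) (hne : FF.Nonempty) (ht : t1 ≤ t2)
    {n : ℕ} {c : ℕ → ℝ} (hcm : ∀ i j, i < j → j < n → c i < c j) (hcI : ∀ i < n, c i ∈ Icc c0 c1)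
    {i j : ℕ} (hi : i < n) (hj : j < n) :
    u t1 t2 FF c j + D t1 t2 FF (c j) (c j) - u t1 t2 FF c i ≤ D t1 t2 FF (c i) (c j) := by
  rcases le_total i j with hij | hij
  · -- induction on `j`
    obtain ⟨k, rfl⟩ := Nat.exists_eq_add_of_le hij
    clear hij
    induction k with
    | zero => simp
    | succ k ih =>
      have hk : i + k < n := by omega
      have ih' := ih hk
      have hM := hF.monge_D hne ht (hcI i hi) (hcI _ hj) (hcI _ hk) (hcI _ hj)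
        (hcm i (i + (k + 1)) (by omega) hj) (hcm (i + k) (i + (k + 1)) (by omega) hj)
      have hu : u t1 t2 FF c (i + (k + 1)) = u t1 t2 FF c (i + k) +
          D t1 t2 FF (c (i + k)) (c (i + k)) - D t1 t2 FF (c (i + k + 1)) (c (i + k)) := rfl
      have e1 : i + (k + 1) = i + k + 1 := rfl
      rw [e1] at hM ⊢
      rw [e1] at hu
      rw [hu]
      linarith
  · obtain ⟨k, rfl⟩ := Nat.exists_eq_add_of_le hij
    clear hij
    induction k with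
    | zero => simp
    | succ k ih =>
      have hk : j + k < n := by omega
      have ih' := ih hk
      have hu : u t1 t2 FF c (j + k + 1) = u t1 t2 FF c (j + k) +
          D t1 t2 FF (c (j + k)) (c (j + k)) - D t1 t2 FF (c (j + k + 1)) (c (j + k)) := rfl
      have e1 : j + (k + 1) = j + k + 1 := rfl
      rw [e1] at hi ⊢
      rw [hu]
      rcases Nat.eq_zero_or_pos k with hk0 | hk0
      · subst hk0
        simp
      · have hM := hF.monge_D hne ht (hcI _ hk) (hcI _ hi) (hcI j hj) (hcI _ hk)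
          (hcm (j + k) (j + k + 1) (by omega) hi) (hcm j (j + k) (by omega) hk)
        linarith

/-- **(M3)** one function of the class is nearly optimal for all pairs `(p_j, q_j)` at once. -/
theorem MonClass.exists_opt (hF : MonClass t1 t2 c0 c1 FF) (hne : FF.Nonempty) (ht : t1 ≤ t2)
    {n : ℕ} {c : ℕ → ℝ} (hcm : ∀ i j, i < j → j < n → c i < c j) (hcI : ∀ i < n, c i ∈ Icc c0 c1)
    {ε : ℝ} (hε : 0 < ε) :
    ∃ φ ∈ FF, ∀ j < n, ∀ f ∈ FF, f (t2, c j) - f (t1, c j) - ε ≤ φ (t2, c j) - φ (t1, c j) := by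
  classical
  rcases Nat.eq_zero_or_pos n with hn | hn
  · obtain ⟨φ, hφ⟩ := hne
    exact ⟨φ, hφ, fun j hj => by omega⟩
  obtain ⟨m, rfl⟩ : ∃ m, n = m + 1 := ⟨n - 1, by omega⟩
  choose g hg hg' using fun i j : ℕ =>
    MonClass.exists_near (t1 := t1) (t2 := t2) hne (c i) (c j) hε
  have step : ∀ i, ∃ φ ∈ FF, φ (t1, c i) = 0 ∧
      ∀ j ≤ m, D t1 t2 FF (c i) (c j) - ε ≤ φ (t2, c j) := by
    intro i
    obtain ⟨φ, hφ, H⟩ := fin_max hF.max (fun j z => g i j z + -g i j (t1, c i)) m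
      (fun j _ => hF.add _ (hg i j) _)
    refine ⟨φ, hφ, ?_, fun j hj => ?_⟩
    · obtain ⟨j, hj, hj'⟩ := (H (t1, c i)).2
      rw [hj']; ring
    · have := (H (t2, c j)).1 j hj
      have h2 := hg' i j
      linarith
  choose h hh hh0 hh1 using step
  obtain ⟨φ, hφ, H⟩ := fin_min hF.min (fun i z => h i z + u t1 t2 FF c i) m
    (fun i _ => hF.add _ (hh i) _)
  refine ⟨φ, hφ, fun j hj f hf => ?_⟩
  have hj' : j ≤ m := by omega
  have a1 : φ (t1, c j) ≤ u t1 t2 FF c j := by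
    have := (H (t1, c j)).1 j hj'
    rw [hh0 j] at this
    linarith
  obtain ⟨i, hi, hi'⟩ := (H (t2, c j)).2
  have a2 := hh1 i j hj'
  have a3 := hF.potential hne ht hcm hcI (i := i) (j := j) (by omega) hj
  have a4 := hF.le_D (hcI j hj) (hcI j hj) hf
  rw [hi']
  linarith

/-- **(M4), pointwise form.** -/
theorem MonClass.exists_pointwise (hF : MonClass t1 t2 c0 c1 FF) (hne : FF.Nonempty) (ht : t1 ≤ t2)
    (hcc : c0 ≤ c1)
    (hequi : ∀ ε > 0, ∃ δ > 0, ∀ φ ∈ FF, ∀ c ∈ Icc c0 c1, ∀ c' ∈ Icc c0 c1, |c - c'| ≤ δ →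
      |φ (t1, c) - φ (t1, c')| ≤ ε ∧ |φ (t2, c) - φ (t2, c')| ≤ ε)
    {ε : ℝ} (hε : 0 < ε) :
    ∃ φ ∈ FF, ∀ c ∈ Icc c0 c1, ∀ f ∈ FF, f (t2, c) - f (t1, c) - ε ≤ φ (t2, c) - φ (t1, c) := by
  obtain ⟨δ, hδ, hδ'⟩ := hequi (ε / 5) (by positivity)
  set N : ℕ := ⌊(c1 - c0) / δ⌋₊ + 1 with hN
  have hcI : ∀ i < N, c0 + i * δ ∈ Icc c0 c1 := by
    intro i hi
    have h1 : (i : ℝ) ≤ (c1 - c0) / δ :=
      (Nat.le_floor_iff (div_nonneg (by linarith) hδ.le)).1 (by omega)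
    rw [le_div_iff₀ hδ] at h1
    exact ⟨by have : (0 : ℝ) ≤ i * δ := by positivity
              linarith, by linarith⟩
  obtain ⟨φ, hφ, H⟩ := hF.exists_opt hne ht (n := N) (c := fun i : ℕ => c0 + (i : ℝ) * δ)
    (fun i j hij _ => by
      have : (i : ℝ) < j := by exact_mod_cast hij
      have := mul_lt_mul_of_pos_right this hδ
      linarith) hcI (show (0 : ℝ) < ε / 5 by positivity)
  refine ⟨φ, hφ, fun c hc f hf => ?_⟩
  set i : ℕ := ⌊(c - c0) / δ⌋₊ with hi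
  have hnn : 0 ≤ (c - c0) / δ := div_nonneg (by linarith [hc.1]) hδ.le
  have hiN : i < N := by
    have : i ≤ ⌊(c1 - c0) / δ⌋₊ := Nat.floor_mono (by gcongr; exact hc.2)
    omega
  have h1 : (i : ℝ) ≤ (c - c0) / δ := Nat.floor_le hnn
  have h2 : (c - c0) / δ < i + 1 := Nat.lt_floor_add_one _
  rw [le_div_iff₀ hδ] at h1
  rw [div_lt_iff₀ hδ] at h2
  have hd : |c - (c0 + i * δ)| ≤ δ := by
    rw [abs_le]; constructor <;> nlinarith
  have e1 := hδ' φ hφ c hc _ (hcI i hiN) hd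
  have e2 := hδ' f hf c hc _ (hcI i hiN) hd
  have e3 := H i hiN f hf
  have q1 := abs_le.1 e1.1
  have q2 := abs_le.1 e1.2
  have q3 := abs_le.1 e2.1
  have q4 := abs_le.1 e2.2
  linarith [q1.1, q1.2, q2.1, q2.2, q3.1, q3.2, q4.1, q4.2]

/-- **(M4), integral form (Monge inequality ⟹ (*) of #9404).** -/
theorem MonClass.integral_le (hF : MonClass t1 t2 c0 c1 FF) (ht : t1 ≤ t2) (hcc : c0 ≤ c1)
    (hequi : ∀ ε > 0, ∃ δ > 0, ∀ φ ∈ FF, ∀ c ∈ Icc c0 c1, ∀ c' ∈ Icc c0 c1, |c - c'| ≤ δ →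
      |φ (t1, c) - φ (t1, c')| ≤ ε ∧ |φ (t2, c) - φ (t2, c')| ≤ ε)
    {M : ℝ} (hM : ∀ φ ∈ FF, ∫ c in Icc c0 c1, (φ (t2, c) - φ (t1, c)) ≤ M)
    {b : ℝ × ℝ → ℝ} (hb : b ∈ FF) (hb' : (fun z => -b z) ∈ FF) :
    ∫ c in Icc c0 c1, |b (t2, c) - b (t1, c)| ≤ M := by
  have cside : ∀ φ ∈ FF, ContinuousOn (fun c : ℝ => φ (t2, c) - φ (t1, c)) (Icc c0 c1) := by
    intro φ hφ
    have h := hF.cont φ hφ
    refine ContinuousOn.sub (h.comp (by fun_prop) fun c hc => ?_) (h.comp (by fun_prop) fun c hc => ?_)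
    · exact ⟨⟨ht, le_rfl⟩, hc⟩
    · exact ⟨⟨le_rfl, ht⟩, hc⟩
  refine le_of_forall_pos_le_add fun ε hε => ?_
  set ε' : ℝ := ε / (c1 - c0 + 1) with hε'
  have hL : 0 < c1 - c0 + 1 := by linarith
  have hε'p : 0 < ε' := by positivity
  obtain ⟨φ, hφ, H⟩ := hF.exists_pointwise ⟨b, hb⟩ ht hcc hequi hε'p
  have hint1 : IntegrableOn (fun c : ℝ => |b (t2, c) - b (t1, c)|) (Icc c0 c1) :=
    ((cside b hb).abs).integrableOn_Icc
  have hint2 : IntegrableOn (fun c : ℝ => φ (t2, c) - φ (t1, c)) (Icc c0 c1) :=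
    (cside φ hφ).integrableOn_Icc
  have hint3 : IntegrableOn (fun _ : ℝ => ε') (Icc c0 c1) :=
    integrableOn_const (by simp)
  calc ∫ c in Icc c0 c1, |b (t2, c) - b (t1, c)|
      ≤ ∫ c in Icc c0 c1, ((φ (t2, c) - φ (t1, c)) + ε') := by
        refine setIntegral_mono_on hint1 (hint2.add hint3) measurableSet_Icc fun c hc => ?_
        have h1 := H c hc b hb
        have h2 := H c hc _ hb'
        rw [abs_le]
        constructor <;> linarith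
    _ = (∫ c in Icc c0 c1, (φ (t2, c) - φ (t1, c))) + ∫ _ in Icc c0 c1, ε' :=
        integral_add hint2 hint3
    _ ≤ M + ε := by
        have h1 := hM φ hφ
        have h2 : ∫ _ in Icc c0 c1, ε' = (c1 - c0) * ε' := by
          rw [setIntegral_const, smul_eq_mul, Measure.real, Real.volume_Icc,
            ENNReal.toReal_ofReal (by linarith)]
        have h3 : (c1 - c0) * ε' ≤ ε := by
          rw [hε']
          rw [mul_div_assoc', div_le_iff₀ hL]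
          nlinarith
        linarith

end

end Crest.Agent.R105.Mon_868
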