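import Mathlib

open MeasureTheory Set Filter Topology
open scoped ENNReal NNReal

namespace Crest.Agent.R105.Mon5_804

/-- Scheffe's lemma in the form needed: no excess of mass, a.e. convergence where the limit is not 0. -/
theorem scheffe {α : Type*} [MeasurableSpace α] {ν : Measure α} {f : ℕ → α → ℝ} {F : α → ℝ}
    (hf : ∀ n, Integrable (f n) ν) (hF : Integrable F ν)
    (hle : ∀ n, ∫ z, |f n z| ∂ν ≤ ∫ z, |F z| ∂ν)
    (hlim : ∀ᵐ z ∂ν, F z = 0 ∨ Tendsto (fun n => f n z) atTop (𝓝 (F z))) :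
    Tendsto (fun n => ∫ z, |f n z - F z| ∂ν) atTop (𝓝 0) := by
  have h1 : Tendsto (fun n => ∫ z, (|f n z| + |F z| - |f n z - F z|) ∂ν) atTop
      (𝓝 (∫ z, 2 * |F z| ∂ν)) := by
    apply tendsto_integral_of_dominated_convergence (fun z => 2 * |F z|)
    · intro n
      exact (((hf n).abs.add hF.abs).sub ((hf n).sub hF).abs).aestronglyMeasurable
    · exact hF.abs.const_mul 2
    · intro n
      filter_upwards with z
      rw [Real.norm_eq_abs, abs_le]
      have e1 : |f n z - F z| ≤ |f n z| + |F z| := abs_sub (f n z) (F z)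
      have e2 := abs_nonneg (F z)
      have e3 : |f n z| - |F z| ≤ |f n z - F z| := abs_sub_abs_le_abs_sub (f n z) (F z)
      constructor <;> linarith
    · filter_upwards [hlim] with z hz
      rcases hz with hz | hz
      · simp [hz]
      · have := (hz.abs.add (tendsto_const_nhds (x := |F z|))).sub ((hz.sub_const (F z)).abs)
        simpa [two_mul] using this
  have h2 : ∀ n, ∫ z, |f n z - F z| ∂ν
      ≤ ∫ z, 2 * |F z| ∂ν - ∫ z, (|f n z| + |F z| - |f n z - F z|) ∂ν := by
    intro n
    have e1 : ∫ z, (|f n z| + |F z| - |f n z - F z|) ∂ν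
        = ∫ z, |f n z| ∂ν + ∫ z, |F z| ∂ν - ∫ z, |f n z - F z| ∂ν := by
      have a1 : Integrable (fun z => |f n z| + |F z|) ν := (hf n).abs.add hF.abs
      have a2 : Integrable (fun z => |f n z - F z|) ν := ((hf n).sub hF).abs
      rw [integral_sub a1 a2, integral_add (hf n).abs hF.abs]
    rw [e1, integral_const_mul]
    have := hle n
    linarith
  have h3 : Tendsto (fun n => ∫ z, 2 * |F z| ∂ν - ∫ z, (|f n z| + |F z| - |f n z - F z|) ∂ν)
      atTop (𝓝 0) := by
    have := (tendsto_const_nhds (x := ∫ z, 2 * |F z| ∂ν)).sub h1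
    simpa using this
  exact squeeze_zero (fun n => integral_nonneg fun z => abs_nonneg _) h2 h3

/-- Core statement: a continuous bounded function `B` on the plane, of compact variation in `x`,
whose slab increments are controlled by the slab masses of an integrable `F`. -/
theorem core {μ : Measure ℝ} [IsFiniteMeasure μ] {B F : ℝ × ℝ → ℝ} (hB : Continuous B)
    (hF : Integrable F ((volume : Measure ℝ).prod μ))
    (hslab : ∀ s t : ℝ, s ≤ t → ∫⁻ c, ‖B (t, c) - B (s, c)‖ₑ ∂μ
      ≤ ∫⁻ z in Prod.fst ⁻¹' Icc s t, ‖F z‖ₑ ∂((volume : Measure ℝ).prod μ))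
    (hlim : ∀ᵐ z ∂((volume : Measure ℝ).prod μ), F z = 0 ∨
      HasDerivAt (fun x => B (x, z.2)) (F z) z.1) :
    ∀ᵐ c ∂μ, ∀ s t : ℝ, B (t, c) - B (s, c) = ∫ x in s..t, F (x, c) := by
  classical
  set ν := (volume : Measure ℝ).prod μ with hν
  -- the mass distribution in x
  set θ : Measure ℝ := (ν.withDensity fun z => ‖F z‖ₑ).map Prod.fst with hθ
  have hθI : ∀ s t : ℝ, θ (Icc s t) = ∫⁻ z in Prod.fst ⁻¹' Icc s t, ‖F z‖ₑ ∂ν := by
    intro s t
    rw [hθ, Measure.map_apply measurable_fst measurableSet_Icc,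
      withDensity_apply _ (measurable_fst measurableSet_Icc)]
  have hθu : θ univ = ∫⁻ z, ‖F z‖ₑ ∂ν := by
    rw [hθ, Measure.map_apply measurable_fst MeasurableSet.univ, preimage_univ,
      withDensity_apply _ MeasurableSet.univ, Measure.restrict_univ]
  have hFfin : ∫⁻ z, ‖F z‖ₑ ∂ν < ∞ := hF.hasFiniteIntegral
  have : IsFiniteMeasure θ := ⟨by rw [hθu]; exact hFfin⟩
  -- sliding windows
  have hslide : ∀ h : ℝ, 0 < h → ∫⁻ x, θ (Icc x (x + h)) = ENNReal.ofReal h * θ univ := by
    intro h hh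
    have hS : MeasurableSet {p : ℝ × ℝ | p.1 ≤ p.2 ∧ p.2 ≤ p.1 + h} :=
      (measurableSet_le measurable_fst measurable_snd).inter
        (measurableSet_le measurable_snd (measurable_fst.add_const h))
    have e1 := Measure.prod_apply (μ := (volume : Measure ℝ)) (ν := θ) hS
    have e2 := Measure.prod_apply_symm (μ := (volume : Measure ℝ)) (ν := θ) hS
    have e3 : ∀ x : ℝ, Prod.mk x ⁻¹' {p : ℝ × ℝ | p.1 ≤ p.2 ∧ p.2 ≤ p.1 + h} = Icc x (x + h) := by
      intro x; ext u; simp
    have e4 : ∀ u : ℝ, (fun x : ℝ => (x, u)) ⁻¹' {p : ℝ × ℝ | p.1 ≤ p.2 ∧ p.2 ≤ p.1 + h}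
        = Icc (u - h) u := by
      intro u; ext x
      simp only [mem_preimage, mem_ofPred_eq, mem_Icc]
      constructor
      · rintro ⟨a, b⟩; exact ⟨by linarith, a⟩
      · rintro ⟨a, b⟩; exact ⟨b, by linarith⟩
    simp only [e3] at e1
    simp only [e4, Real.volume_Icc, sub_sub_cancel] at e2
    rw [← e1, e2, lintegral_const]
  -- difference quotients
  set f : ℕ → ℝ × ℝ → ℝ := fun n z => (B (z.1 + 1 / ((n : ℝ) + 1), z.2) - B z) * ((n : ℝ) + 1)
    with hf
  have hfc : ∀ n, Continuous (f n) := by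
    intro n
    have : Continuous fun z : ℝ × ℝ => B (z.1 + 1 / ((n : ℝ) + 1), z.2) :=
      hB.comp ((continuous_fst.add continuous_const).prodMk continuous_snd)
    exact (this.sub hB).mul continuous_const
  have hfl : ∀ n, ∫⁻ z, ‖f n z‖ₑ ∂ν ≤ ∫⁻ z, ‖F z‖ₑ ∂ν := by
    intro n
    have hn : (0 : ℝ) < (n : ℝ) + 1 := by positivity
    rw [hν, lintegral_prod _ (hfc n).enorm.measurable.aemeasurable, ← hν]
    have e1 : ∀ x : ℝ, ∫⁻ c, ‖f n (x, c)‖ₑ ∂μ
        ≤ ENNReal.ofReal ((n : ℝ) + 1) * θ (Icc x (x + 1 / ((n : ℝ) + 1))) := by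
      intro x
      have e2 : ∀ c, ‖f n (x, c)‖ₑ
          = ENNReal.ofReal ((n : ℝ) + 1) * ‖B (x + 1 / ((n : ℝ) + 1), c) - B (x, c)‖ₑ := by
        intro c
        simp only [hf]
        rw [enorm_mul, mul_comm, Real.enorm_eq_ofReal hn.le]
      simp only [e2]
      rw [lintegral_const_mul' _ _ ENNReal.ofReal_ne_top]
      gcongr
      rw [hθI]
      exact hslab x _ (by have : (0 : ℝ) < 1 / ((n : ℝ) + 1) := by positivity
                          linarith)
    calc ∫⁻ x, ∫⁻ c, ‖f n (x, c)‖ₑ ∂μ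
        ≤ ∫⁻ x, ENNReal.ofReal ((n : ℝ) + 1) * θ (Icc x (x + 1 / ((n : ℝ) + 1))) :=
          lintegral_mono e1
      _ = ENNReal.ofReal ((n : ℝ) + 1) * ∫⁻ x, θ (Icc x (x + 1 / ((n : ℝ) + 1))) := by
          rw [lintegral_const_mul' _ _ ENNReal.ofReal_ne_top]
      _ = ENNReal.ofReal ((n : ℝ) + 1) * (ENNReal.ofReal (1 / ((n : ℝ) + 1)) * θ univ) := by
          rw [hslide _ (by positivity)]
      _ = ∫⁻ z, ‖F z‖ₑ ∂ν := by
          rw [← mul_assoc, ← ENNReal.ofReal_mul hn.le, mul_one_div_cancel hn.ne',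
            ENNReal.ofReal_one, one_mul, hθu]
  have hfi : ∀ n, Integrable (f n) ν := fun n =>
    ⟨(hfc n).measurable.aestronglyMeasurable, (hfl n).trans_lt hFfin⟩
  have hfle : ∀ n, ∫ z, |f n z| ∂ν ≤ ∫ z, |F z| ∂ν := by
    intro n
    have e1 := integral_norm_eq_lintegral_enorm (hfi n).aestronglyMeasurable
    have e2 := integral_norm_eq_lintegral_enorm hF.aestronglyMeasurable
    simp only [Real.norm_eq_abs] at e1 e2
    rw [e1, e2]
    exact ENNReal.toReal_mono hFfin.ne (hfl n)
  have hh0 : Tendsto (fun n : ℕ => 1 / ((n : ℝ) + 1)) atTop (𝓝 0) :=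
    tendsto_one_div_add_atTop_nhds_zero_nat
  have hlim' : ∀ᵐ z ∂ν, F z = 0 ∨ Tendsto (fun n => f n z) atTop (𝓝 (F z)) := by
    filter_upwards [hlim] with z hz
    rcases hz with hz | hz
    · exact Or.inl hz
    · right
      have e1 := hz.tendsto_slope_zero
      have e2 : Tendsto (fun n : ℕ => 1 / ((n : ℝ) + 1)) atTop (𝓝[≠] (0 : ℝ)) := by
        refine tendsto_nhdsWithin_iff.2 ⟨hh0, ?_⟩
        filter_upwards with n
        have : (0 : ℝ) < 1 / ((n : ℝ) + 1) := by positivity
        exact this.ne'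
      have e3 := e1.comp e2
      refine e3.congr fun n => ?_
      have hn : (0 : ℝ) < (n : ℝ) + 1 := by positivity
      simp only [Function.comp_apply, hf, smul_eq_mul, one_div, inv_inv]
      ring
  have hL1 := scheffe hfi hF hfle hlim'
  -- fixed s ≤ t
  have hfix : ∀ s t : ℝ, s ≤ t → ∀ᵐ c ∂μ, B (t, c) - B (s, c) = ∫ x in s..t, F (x, c) := by
    intro s t hst
    have hFc : ∀ᵐ c ∂μ, Integrable (fun x => F (x, c)) volume := hF.prod_left_ae
    set E : ℕ → ℝ → ℝ := fun n c => (∫ x in s..t, f n (x, c)) - ∫ x in s..t, F (x, c) with hE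
    -- limit of the averages
    have hav : ∀ c (u : ℝ), Tendsto (fun n : ℕ => (∫ x in u..(u + 1 / ((n : ℝ) + 1)), B (x, c))
        * ((n : ℝ) + 1)) atTop (𝓝 (B (u, c))) := by
      intro c u
      have hc : Continuous fun x => B (x, c) := hB.comp (continuous_id.prodMk continuous_const)
      have e1 : HasDerivAt (fun v => ∫ x in u..v, B (x, c)) (B (u, c)) u :=
        intervalIntegral.integral_hasDerivAt_right (hc.intervalIntegrable _ _)
          hc.aestronglyMeasurable.stronglyMeasurableAtFilter hc.continuousAt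
      have e2 : Tendsto (fun n : ℕ => 1 / ((n : ℝ) + 1)) atTop (𝓝[≠] (0 : ℝ)) := by
        refine tendsto_nhdsWithin_iff.2 ⟨hh0, ?_⟩
        filter_upwards with n
        have : (0 : ℝ) < 1 / ((n : ℝ) + 1) := by positivity
        exact this.ne'
      refine (e1.tendsto_slope_zero.comp e2).congr fun n => ?_
      simp only [Function.comp_apply, smul_eq_mul, one_div, inv_inv,
        intervalIntegral.integral_same, sub_zero]
      ring
    have hint : ∀ n c, ∫ x in s..t, f n (x, c)
        = (∫ x in t..(t + 1 / ((n : ℝ) + 1)), B (x, c)) * ((n : ℝ) + 1)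
          - (∫ x in s..(s + 1 / ((n : ℝ) + 1)), B (x, c)) * ((n : ℝ) + 1) := by
      intro n c
      have hc : Continuous fun x => B (x, c) := hB.comp (continuous_id.prodMk continuous_const)
      have hii : ∀ u v, IntervalIntegrable (fun x => B (x, c)) volume u v :=
        fun u v => hc.intervalIntegrable u v
      have hc2 : Continuous fun x => B (x + 1 / ((n : ℝ) + 1), c) :=
        hB.comp ((continuous_id.add continuous_const).prodMk continuous_const)
      simp only [hf]
      rw [intervalIntegral.integral_mul_const,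
        intervalIntegral.integral_sub (hc2.intervalIntegrable _ _) (hii _ _),
        intervalIntegral.integral_comp_add_right (fun x => B (x, c))]
      have e1 := intervalIntegral.integral_add_adjacent_intervals (hii s t)
        (hii t (t + 1 / ((n : ℝ) + 1)))
      have e2 := intervalIntegral.integral_add_adjacent_intervals (hii s (s + 1 / ((n : ℝ) + 1)))
        (hii (s + 1 / ((n : ℝ) + 1)) (t + 1 / ((n : ℝ) + 1)))
      rw [← sub_mul]
      congr 1
      linarith
    have hElim : ∀ c, Tendsto (fun n => E n c) atTop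
        (𝓝 (B (t, c) - B (s, c) - ∫ x in s..t, F (x, c))) := by
      intro c
      have := ((hav c t).sub (hav c s)).sub_const (∫ x in s..t, F (x, c))
      refine this.congr fun n => ?_
      simp only [hE, hint n c]
    have hEle : ∀ n, ∫⁻ c, ‖E n c‖ₑ ∂μ ≤ ENNReal.ofReal (∫ z, |f n z - F z| ∂ν) := by
      intro n
      have hd : Integrable (fun z => f n z - F z) ν := (hfi n).sub hF
      have e0 : ENNReal.ofReal (∫ z, |f n z - F z| ∂ν) = ∫⁻ z, ‖f n z - F z‖ₑ ∂ν := by
        have := ofReal_integral_norm_eq_lintegral_enorm hd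
        simpa [Real.norm_eq_abs] using this
      rw [e0, hν, lintegral_prod_symm _ hd.aestronglyMeasurable.enorm]
      refine lintegral_mono_ae ?_
      filter_upwards [hFc] with c hc
      have hcf : Continuous fun x => f n (x, c) := (hfc n).comp (continuous_id.prodMk continuous_const)
      have e1 : E n c = ∫ x in Ioc s t, (f n (x, c) - F (x, c)) := by
        simp only [hE]
        rw [← intervalIntegral.integral_sub (hcf.intervalIntegrable _ _) hc.intervalIntegrable,
          intervalIntegral.integral_of_le hst]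
      rw [e1]
      exact (enorm_integral_le_lintegral_enorm _).trans (setLIntegral_le_lintegral _ _)
    have hEm : ∀ n, AEStronglyMeasurable (E n) μ := by
      intro n
      have hk : ∀ G : ℝ × ℝ → ℝ, Integrable G ν →
          AEStronglyMeasurable (fun c => ∫ x in s..t, G (x, c)) μ := by
        intro G hG
        have h1 : Integrable G (((volume : Measure ℝ).restrict (Ioc s t)).prod μ) := by
          have h2 := hG.restrict (s := Ioc s t ×ˢ (univ : Set ℝ))
          rwa [hν, ← Measure.prod_restrict, Measure.restrict_univ] at h2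
        have h3 := h1.integral_prod_right.aestronglyMeasurable
        simpa only [intervalIntegral.integral_of_le hst] using h3
      exact (hk _ (hfi n)).sub (hk _ hF)
    have h0 : ∫⁻ c, ‖B (t, c) - B (s, c) - ∫ x in s..t, F (x, c)‖ₑ ∂μ = 0 := by
      refine le_antisymm ?_ zero_le
      have e1 : ∫⁻ c, ‖B (t, c) - B (s, c) - ∫ x in s..t, F (x, c)‖ₑ ∂μ
          ≤ liminf (fun n => ∫⁻ c, ‖E n c‖ₑ ∂μ) atTop :=
        lintegral_enorm_le_liminf_of_tendsto (Eventually.of_forall hElim)
          (fun n => (hEm n).enorm)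
      refine e1.trans ?_
      have e2 : Tendsto (fun n => ENNReal.ofReal (∫ z, |f n z - F z| ∂ν)) atTop (𝓝 0) := by
        have e3 := (ENNReal.continuous_ofReal.tendsto 0).comp hL1
        rw [ENNReal.ofReal_zero] at e3
        exact e3
      calc liminf (fun n => ∫⁻ c, ‖E n c‖ₑ ∂μ) atTop
          ≤ liminf (fun n => ENNReal.ofReal (∫ z, |f n z - F z| ∂ν)) atTop :=
            liminf_le_liminf (Eventually.of_forall hEle)
        _ = 0 := e2.liminf_eq
    have hm0 : AEMeasurable (fun c => ‖B (t, c) - B (s, c) - ∫ x in s..t, F (x, c)‖ₑ) μ :=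
      (aestronglyMeasurable_of_tendsto_ae atTop hEm (Eventually.of_forall hElim)).enorm
    have h4 := (lintegral_eq_zero_iff' hm0).1 h0
    filter_upwards [h4] with c hc
    have h5 : ‖B (t, c) - B (s, c) - ∫ x in s..t, F (x, c)‖ₑ = 0 := hc
    rw [enorm_eq_zero] at h5
    linarith
  have hq : ∀ᵐ c ∂μ, ∀ s t : ℚ, (s : ℝ) ≤ t →
      B ((t : ℝ), c) - B ((s : ℝ), c) = ∫ x in (s : ℝ)..t, F (x, c) := by
    rw [ae_all_iff]; intro s
    rw [ae_all_iff]; intro t
    by_cases hst : (s : ℝ) ≤ t
    · filter_upwards [hfix s t hst] with c hc _ using hc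
    · exact Eventually.of_forall fun c h => absurd h hst
  have hFc : ∀ᵐ c ∂μ, Integrable (fun x => F (x, c)) volume := hF.prod_left_ae
  filter_upwards [hq, hFc] with c hc hFc
  have hcB : Continuous fun x => B (x, c) := hB.comp (continuous_id.prodMk continuous_const)
  have hcF : Continuous fun x => ∫ u in (0 : ℝ)..x, F (u, c) :=
    intervalIntegral.continuous_primitive (fun a b => hFc.intervalIntegrable) 0
  -- the difference is constant on the rationals
  have key : ∀ x : ℝ, B (x, c) - ∫ u in (0 : ℝ)..x, F (u, c) = B (0, c) := by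
    have hcl : IsClosed {x : ℝ | B (x, c) - ∫ u in (0 : ℝ)..x, F (u, c) = B (0, c)} :=
      isClosed_eq (hcB.sub hcF) continuous_const
    have hr : ∀ r : ℚ, (r : ℝ) ∈ {x : ℝ | B (x, c) - ∫ u in (0 : ℝ)..x, F (u, c) = B (0, c)} := by
      intro r
      simp only [mem_ofPred_eq]
      rcases le_total (0 : ℝ) r with h | h
      · have := hc 0 r (by simpa using h)
        simp only [Rat.cast_zero] at this
        linarith
      · have := hc r 0 (by simpa using h)
        simp only [Rat.cast_zero] at this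
        rw [intervalIntegral.integral_symm]
        linarith
    intro x
    have hd : DenseRange ((↑) : ℚ → ℝ) := Rat.isDenseEmbedding_coe_real.dense
    have : closure (range ((↑) : ℚ → ℝ)) ⊆ {x : ℝ | B (x, c) - ∫ u in (0 : ℝ)..x, F (u, c) = B (0, c)} :=
      hcl.closure_subset_iff.2 (by rintro _ ⟨r, rfl⟩; exact hr r)
    exact this (hd x)
  intro s t
  have e1 := key s
  have e2 := key t
  have e3 := intervalIntegral.integral_add_adjacent_intervals
    (hFc.intervalIntegrable (a := 0) (b := s)) (hFc.intervalIntegrable (a := s) (b := t))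
  linarith

/-- FTC form. -/
theorem ftc_of_slabs {a0 a1 c0 c1 : ℝ} (b g : ℝ × ℝ → ℝ) (V : Set (ℝ × ℝ)) (hV : MeasurableSet V)
    (hb : ContinuousOn b (Icc a0 a1 ×ˢ Icc c0 c1))
    (hg : IntegrableOn g (V ∩ Icc a0 a1 ×ˢ Icc c0 c1))
    (hd : ∀ᵐ z : ℝ × ℝ, z ∈ V → z ∈ Ioo a0 a1 ×ˢ Ioo c0 c1 →
      HasDerivAt (fun x => b (x, z.2)) (g z) z.1)
    (D : Set ℝ) (hD : Dense D)
    (H : ∀ s ∈ D, ∀ t ∈ D, a0 ≤ s → s < t → t ≤ a1 → ∫ c in Icc c0 c1, |b (t, c) - b (s, c)|
      ≤ ∫ c in Icc c0 c1, ∫ x in Icc s t, V.indicator (fun z => |g z|) (x, c)) :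
    ∀ᵐ c ∂(volume.restrict (Icc c0 c1)),
      IntegrableOn (fun x => V.indicator g (x, c)) (Icc a0 a1) ∧
      ∀ s ∈ Icc a0 a1, ∀ t ∈ Icc a0 a1, s ≤ t →
        b (t, c) - b (s, c) = ∫ x in s..t, V.indicator g (x, c) := by
  classical
  rcases lt_or_ge a1 a0 with ha | ha
  · refine Eventually.of_forall fun c => ⟨?_, fun s hs => absurd (hs.1.trans hs.2) (not_le.2 ha)⟩
    rw [Icc_eq_empty (not_le.2 ha)]
    exact integrableOn_empty
  rcases lt_or_ge c1 c0 with hc | hc
  · rw [Icc_eq_empty (not_le.2 hc), Measure.restrict_empty]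
    simp
  set μ : Measure ℝ := volume.restrict (Icc c0 c1) with hμ
  set ν := (volume : Measure ℝ).prod μ with hν
  have hνr : ν = (volume : Measure (ℝ × ℝ)).restrict (univ ×ˢ Icc c0 c1) := by
    rw [hν, hμ, Measure.volume_eq_prod, ← Measure.prod_restrict, Measure.restrict_univ]
  set B : ℝ × ℝ → ℝ := fun z => b (max a0 (min z.1 a1), max c0 (min z.2 c1)) with hBdef
  have hcl : ∀ {p q x : ℝ}, p ≤ q → max p (min x q) ∈ Icc p q := fun hpq =>
    ⟨le_max_left _ _, max_le hpq (min_le_right _ _)⟩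
  have hcl2 : ∀ {p q x : ℝ}, x ∈ Icc p q → max p (min x q) = x := by
    intro p q x hx
    rw [min_eq_left hx.2, max_eq_right hx.1]
  have hB : Continuous B := by
    refine hb.comp_continuous (by fun_prop) fun z => ⟨hcl ha, hcl hc⟩
  have hBeq : ∀ x ∈ Icc a0 a1, ∀ c ∈ Icc c0 c1, B (x, c) = b (x, c) := by
    intro x hx c hc'
    simp only [hBdef, hcl2 hx, hcl2 hc']
  obtain ⟨M, hM⟩ := (isCompact_Icc.prod isCompact_Icc).exists_bound_of_continuousOn hb
  have hBM : ∀ z, |B z| ≤ M := fun z => hM _ ⟨hcl ha, hcl hc⟩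
  set Q : Set (ℝ × ℝ) := Ioo a0 a1 ×ˢ Ioo c0 c1 with hQ
  have hQm : MeasurableSet Q := measurableSet_Ioo.prod measurableSet_Ioo
  set F : ℝ × ℝ → ℝ := (V ∩ Q).indicator g with hFdef
  have hFi0 : Integrable F (volume : Measure (ℝ × ℝ)) := by
    rw [hFdef, integrable_indicator_iff (hV.inter hQm)]
    exact hg.mono_set (inter_subset_inter_right _
      (prod_mono Ioo_subset_Icc_self Ioo_subset_Icc_self))
  have hFi : Integrable F ν := by rw [hνr]; exact hFi0.restrict
  have hFeq : ∀ x ∈ Ioo a0 a1, ∀ c ∈ Ioo c0 c1, F (x, c) = V.indicator g (x, c) := by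
    intro x hx c hc'
    simp only [hFdef, indicator]
    have : (x, c) ∈ Q := ⟨hx, hc'⟩
    by_cases hv : (x, c) ∈ V <;> simp [hv, this]
  have hIoo : ∀ᵐ c ∂μ, c ∈ Ioo c0 c1 := by
    rw [hμ, ← restrict_Ioo_eq_restrict_Icc]
    exact ae_restrict_mem measurableSet_Ioo
  -- masses of slabs
  have hL : Continuous fun p : ℝ × ℝ => ∫ c, |B (p.2, c) - B (p.1, c)| ∂μ := by
    refine continuous_of_dominated (bound := fun _ => 2 * M) ?_ ?_ (integrable_const _) ?_
    · intro p
      have : Continuous fun c => |B (p.2, c) - B (p.1, c)| :=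
        ((hB.comp (continuous_const.prodMk continuous_id)).sub
          (hB.comp (continuous_const.prodMk continuous_id))).abs
      exact this.aestronglyMeasurable
    · intro p
      refine Eventually.of_forall fun c => ?_
      rw [Real.norm_eq_abs, abs_abs]
      have h1 := abs_sub (B (p.2, c)) (B (p.1, c))
      have h2 := hBM (p.2, c)
      have h3 := hBM (p.1, c)
      linarith
    · refine Eventually.of_forall fun c => ?_
      exact ((hB.comp (continuous_snd.prodMk continuous_const)).sub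
          (hB.comp (continuous_fst.prodMk continuous_const))).abs
  have hslabD : ∀ s ∈ D, ∀ t ∈ D, a0 ≤ s → s < t → t ≤ a1 →
      ∫ c, |B (t, c) - B (s, c)| ∂μ ≤ ∫ z in Prod.fst ⁻¹' Icc s t, |F z| ∂ν := by
    intro s hs t ht has hst hta
    have h1 : ∫ c, |B (t, c) - B (s, c)| ∂μ = ∫ c in Icc c0 c1, |b (t, c) - b (s, c)| := by
      rw [hμ]
      refine setIntegral_congr_fun measurableSet_Icc fun c hc' => ?_
      rw [hBeq t ⟨has.trans hst.le, hta⟩ c hc', hBeq s ⟨has, hst.le.trans hta⟩ c hc']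
    have h2 : ∫ z in Prod.fst ⁻¹' Icc s t, |F z| ∂ν
        = ∫ c in Icc c0 c1, ∫ x in Icc s t, V.indicator (fun z => |g z|) (x, c) := by
      have h3 : ν.restrict (Prod.fst ⁻¹' Icc s t) = (volume.restrict (Icc s t)).prod μ := by
        rw [hν, ← prod_univ, ← Measure.prod_restrict, Measure.restrict_univ]
      have h4 : Integrable (fun z => |F z|) ((volume.restrict (Icc s t)).prod μ) := by
        rw [← h3]; exact hFi.abs.restrict
      rw [h3, integral_prod_symm _ h4, ← hμ]
      refine integral_congr_ae ?_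
      filter_upwards [hIoo] with c hc'
      rw [integral_Icc_eq_integral_Ioo, integral_Icc_eq_integral_Ioo]
      refine setIntegral_congr_fun measurableSet_Ioo fun x hx => ?_
      rw [hFeq x ⟨has.trans_lt hx.1, hx.2.trans_le hta⟩ c hc']
      by_cases hv : (x, c) ∈ V <;> simp [hv]
    rw [h1, h2]
    exact H s hs t ht has hst hta
  have hRmono : ∀ {s t s' t' : ℝ}, s' ≤ s → t ≤ t' → ∫ z in Prod.fst ⁻¹' Icc s t, |F z| ∂ν
      ≤ ∫ z in Prod.fst ⁻¹' Icc s' t', |F z| ∂ν := by
    intro s t s' t' h1 h2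
    exact setIntegral_mono_set hFi.abs.integrableOn
      (Eventually.of_forall fun z => abs_nonneg _)
      (Eventually.of_forall (preimage_mono (Icc_subset_Icc h1 h2)))
  have hslabI : ∀ s t : ℝ, a0 ≤ s → s < t → t ≤ a1 →
      ∫ c, |B (t, c) - B (s, c)| ∂μ ≤ ∫ z in Prod.fst ⁻¹' Icc s t, |F z| ∂ν := by
    intro s t has hst hta
    by_contra hcon
    rw [not_le] at hcon
    have hopen : IsOpen {p : ℝ × ℝ | ∫ z in Prod.fst ⁻¹' Icc s t, |F z| ∂ν
        < ∫ c, |B (p.2, c) - B (p.1, c)| ∂μ} := isOpen_lt continuous_const hL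
    obtain ⟨δ, hδ, hball⟩ := Metric.isOpen_iff.1 hopen (s, t) hcon
    obtain ⟨s', hs'D, hs'1, hs'2⟩ := hD.exists_between
      (show s < min (s + δ) ((s + t) / 2) from lt_min (by linarith) (by linarith))
    obtain ⟨t', ht'D, ht'1, ht'2⟩ := hD.exists_between
      (show max (t - δ) ((s + t) / 2) < t from max_lt (by linarith) (by linarith))
    have k1 := lt_min_iff.1 hs'2
    have k2 := max_lt_iff.1 ht'1
    have hmem : (s', t') ∈ Metric.ball ((s, t) : ℝ × ℝ) δ := by
      rw [Metric.mem_ball, Prod.dist_eq, max_lt_iff]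
      constructor
      · rw [Real.dist_eq, abs_lt]; constructor <;> simp only <;> linarith [k1.1]
      · rw [Real.dist_eq, abs_lt]; constructor <;> simp only <;> linarith [k2.1]
    have h1 := hball hmem
    have h2 := hslabD s' hs'D t' ht'D (by linarith) (by linarith [k1.2, k2.2]) (by linarith)
    have h3 := hRmono (s := s') (t := t') (s' := s) (t' := t) hs'1.le ht'2.le
    simp only [mem_ofPred_eq] at h1
    linarith
  have hslab : ∀ s t : ℝ, s ≤ t → ∫⁻ c, ‖B (t, c) - B (s, c)‖ₑ ∂μ
      ≤ ∫⁻ z in Prod.fst ⁻¹' Icc s t, ‖F z‖ₑ ∂ν := by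
    intro s t hst
    have hB1 : ∀ x c, B (x, c) = B (max a0 (min x a1), c) := by
      intro x c
      simp only [hBdef, hcl2 (hcl (x := x) ha)]
    set s' := max a0 (min s a1) with hs'
    set t' := max a0 (min t a1) with ht'
    have hst' : s' ≤ t' := max_le_max le_rfl (min_le_min hst le_rfl)
    rcases hst'.eq_or_lt with he | hlt
    · have : ∀ c, ‖B (t, c) - B (s, c)‖ₑ = 0 := by
        intro c
        rw [hB1 t c, hB1 s c, ← hs', ← ht', he, sub_self, enorm_zero]
      simp only [this, lintegral_zero]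
      exact zero_le
    · have hs1 : s ≤ s' := by
        rcases le_total s a1 with h | h
        · rw [hs', min_eq_left h]; exact le_max_right _ _
        · have : t' ≤ s' := by
            rw [hs', min_eq_right h]
            exact max_le (le_max_left _ _) ((min_le_right _ _).trans (le_max_right _ _))
          exact absurd this (not_le.2 hlt)
      have ht1 : t' ≤ t := by
        rcases le_total a0 t with h | h
        · exact max_le h (min_le_left _ _)
        · have : t' ≤ s' := by
            rw [ht', max_eq_left ((min_le_left _ _).trans h)]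
            exact le_max_left _ _
          exact absurd this (not_le.2 hlt)
      have h1 := hslabI s' t' (le_max_left _ _) hlt (max_le ha (min_le_right _ _))
      have h2 := hRmono (s := s') (t := t') (s' := s) (t' := t) hs1 ht1
      have hi1 : Integrable (fun c => B (t', c) - B (s', c)) μ := by
        refine Integrable.mono' (g := fun _ => 2 * M) (integrable_const _) ?_ ?_
        · exact ((hB.comp (continuous_const.prodMk continuous_id)).sub
            (hB.comp (continuous_const.prodMk continuous_id))).aestronglyMeasurable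
        · refine Eventually.of_forall fun c => ?_
          rw [Real.norm_eq_abs]
          have h1 := abs_sub (B (t', c)) (B (s', c))
          have h2 := hBM (t', c)
          have h3 := hBM (s', c)
          linarith
      have h3 := ofReal_integral_norm_eq_lintegral_enorm hi1
      have h4 := ofReal_integral_norm_eq_lintegral_enorm
        (hFi.restrict (s := Prod.fst ⁻¹' Icc s t))
      simp only [Real.norm_eq_abs] at h3 h4
      have h5 : ∫⁻ c, ‖B (t, c) - B (s, c)‖ₑ ∂μ = ∫⁻ c, ‖B (t', c) - B (s', c)‖ₑ ∂μ := by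
        refine lintegral_congr fun c => ?_
        rw [hB1 t c, hB1 s c]
      rw [h5, ← h3, ← h4]
      exact ENNReal.ofReal_le_ofReal (h1.trans h2)
  have hlim : ∀ᵐ z ∂ν, F z = 0 ∨ HasDerivAt (fun x => B (x, z.2)) (F z) z.1 := by
    rw [hνr]
    refine ae_restrict_of_ae ?_
    filter_upwards [hd] with z hz
    by_cases hv : z ∈ V ∩ Q
    · right
      have h1 := hz hv.1 hv.2
      have h2 : F z = g z := by simp only [hFdef, indicator_of_mem hv]
      rw [h2]
      refine h1.congr_of_eventuallyEq ?_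
      filter_upwards [Ioo_mem_nhds hv.2.1.1 hv.2.1.2] with x hx
      exact hBeq x (Ioo_subset_Icc_self hx) z.2 (Ioo_subset_Icc_self hv.2.2)
    · left
      simp only [hFdef, indicator_of_notMem hv]
  have hcore := core hB hFi hslab hlim
  have hFc : ∀ᵐ c ∂μ, Integrable (fun x => F (x, c)) volume := hFi.prod_left_ae
  filter_upwards [hcore, hFc, hIoo] with c h1 h2 h3
  have hae : ∀ᵐ x ∂(volume.restrict (Icc a0 a1)), F (x, c) = V.indicator g (x, c) := by
    rw [← restrict_Ioo_eq_restrict_Icc]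
    filter_upwards [ae_restrict_mem measurableSet_Ioo] with x hx
    exact hFeq x hx c h3
  refine ⟨(integrable_congr hae).1 h2.restrict, fun s hs t ht hst => ?_⟩
  have h4 := h1 s t
  rw [hBeq t ht c (Ioo_subset_Icc_self h3), hBeq s hs c (Ioo_subset_Icc_self h3)] at h4
  rw [h4, intervalIntegral.integral_of_le hst, intervalIntegral.integral_of_le hst]
  refine integral_congr_ae ?_
  have hsub : Ioc s t ⊆ Icc a0 a1 := fun x hx => ⟨hs.1.trans hx.1.le, hx.2.trans ht.2⟩
  exact ae_restrict_of_ae_restrict_of_subset hsub hae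

/-- (M5) of #9537, absolute value form. -/
theorem ac_of_slabs {a0 a1 c0 c1 : ℝ} (b g : ℝ × ℝ → ℝ) (V : Set (ℝ × ℝ)) (hV : MeasurableSet V)
    (hb : ContinuousOn b (Icc a0 a1 ×ˢ Icc c0 c1))
    (hg : IntegrableOn g (V ∩ Icc a0 a1 ×ˢ Icc c0 c1))
    (hd : ∀ᵐ z : ℝ × ℝ, z ∈ V → z ∈ Ioo a0 a1 ×ˢ Ioo c0 c1 →
      HasDerivAt (fun x => b (x, z.2)) (g z) z.1)
    (D : Set ℝ) (hD : Dense D)
    (H : ∀ s ∈ D, ∀ t ∈ D, a0 ≤ s → s < t → t ≤ a1 → ∫ c in Icc c0 c1, |b (t, c) - b (s, c)|
      ≤ ∫ c in Icc c0 c1, ∫ x in Icc s t, V.indicator (fun z => |g z|) (x, c)) :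
    ∀ᵐ c ∂(volume.restrict (Icc c0 c1)), ∀ s ∈ Icc a0 a1, ∀ t ∈ Icc a0 a1, s ≤ t →
      |b (t, c) - b (s, c)| ≤ ∫ x in Icc s t, V.indicator (fun z => |g z|) (x, c) := by
  filter_upwards [ftc_of_slabs b g V hV hb hg hd D hD H] with c hc s hs t ht hst
  rw [hc.2 s hs t ht hst, intervalIntegral.integral_of_le hst, ← integral_Icc_eq_integral_Ioc]
  refine (abs_integral_le_integral_abs).trans (le_of_eq ?_)
  refine integral_congr_ae (Eventually.of_forall fun x => ?_)
  simp only
  by_cases hv : (x, c) ∈ V <;> simp [hv]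

end Crest.Agent.R105.Mon5_804
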