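import Mathlib

/-! Row 105, lemma A, maximum principle: one-dimensional part.
`f = AC - (atomless monotone)`; if the monotone part does not charge `{f > 0}` then `f⁺` is
absolutely continuous with derivative `1_{f>0} h`. -/

open MeasureTheory Set Filter Topology

namespace Crest.Agent.R105.Mp_87

theorem ac_of_abs_le {α β : ℝ} {g K : ℝ → ℝ} (hK : AbsolutelyContinuousOnInterval K α β)
    (hg : ∀ x ∈ uIcc α β, ∀ x' ∈ uIcc α β, |g x - g x'| ≤ |K x - K x'|) :
    AbsolutelyContinuousOnInterval g α β := by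
  rw [absolutelyContinuousOnInterval_iff] at hK ⊢
  intro ε hε
  obtain ⟨δ, hδ, h⟩ := hK ε hε
  refine ⟨δ, hδ, fun E hE hs => lt_of_le_of_lt ?_ (h E hE hs)⟩
  apply Finset.sum_le_sum
  intro i hi
  have h1 := hE.1 i hi
  rw [Real.dist_eq, Real.dist_eq]
  exact hg _ h1.1 _ h1.2

theorem ii_mono {α β x x' : ℝ} {h : ℝ → ℝ} (hh : IntervalIntegrable h volume α β)
    (hx : x ∈ Icc α β) (hx' : x' ∈ Icc α β) : IntervalIntegrable h volume x x' := by
  have hab : α ≤ β := hx.1.trans hx.2
  apply hh.mono_set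
  rw [uIcc_of_le hab]
  exact uIcc_subset_Icc hx hx'

/-- The statement about `f⁺`. -/
theorem posPart_line {α β : ℝ} (hab : α ≤ β) {f h : ℝ → ℝ} {ν : Measure ℝ}
    (hc : ContinuousOn f (Icc α β)) (hα : f α ≤ 0) (hh : IntervalIntegrable h volume α β)
    {σ : ℝ} (hf : ∀ x ∈ Icc α β, ∀ x' ∈ Icc α β, x ≤ x' →
      f x' - f x = (∫ t in x..x', h t) - σ * (ν (Ico x x')).toReal)
    (hat : ∀ x ∈ Icc α β, ν {x} = 0)
    (hν : ν {x | x ∈ Ioo α β ∧ 0 < f x} = 0) :
    ∀ x ∈ Icc α β, max (f x) 0 = ∫ t in α..x, (if 0 < f t then h t else 0) := by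
  set g : ℝ → ℝ := fun x => max (f x) 0 with hg
  have hαm : α ∈ Icc α β := ⟨le_refl _, hab⟩
  have habs : IntervalIntegrable (fun t => |h t|) volume α β := hh.abs
  -- A: no mass on intervals where f > 0
  have hA : ∀ x ∈ Icc α β, ∀ x' ∈ Icc α β, x ≤ x' → (∀ t ∈ Ioo x x', 0 < f t) →
      f x' - f x = ∫ t in x..x', h t := by
    intro x hx x' hx' hxx' hpos
    rw [hf x hx x' hx' hxx']
    have h0 : ν (Ico x x') = 0 := by
      apply measure_mono_null _ (measure_union_null (hat x hx) hν)
      intro t ht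
      rcases eq_or_lt_of_le ht.1 with h1 | h1
      · left; exact h1.symm
      · right
        exact ⟨⟨lt_of_le_of_lt hx.1 h1, lt_of_lt_of_le ht.2 hx'.2⟩, hpos t ⟨h1, ht.2⟩⟩
    simp [h0]
  have habsle : ∀ x ∈ Icc α β, ∀ x' ∈ Icc α β, x ≤ x' →
      |∫ t in x..x', h t| ≤ ∫ t in x..x', |h t| := by
    intro x hx x' hx' hxx'
    exact intervalIntegral.abs_integral_le_integral_abs hxx'
  have hnn : ∀ x ∈ Icc α β, ∀ x' ∈ Icc α β, x ≤ x' → 0 ≤ ∫ t in x..x', |h t| := by
    intro x hx x' hx' hxx'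
    exact intervalIntegral.integral_nonneg hxx' (fun t _ => abs_nonneg _)
  have hadd : ∀ x ∈ Icc α β, ∀ y ∈ Icc α β, ∀ z ∈ Icc α β,
      (∫ t in x..y, |h t|) + (∫ t in y..z, |h t|) = ∫ t in x..z, |h t| := by
    intro x hx y hy z hz
    exact intervalIntegral.integral_add_adjacent_intervals (ii_mono habs hx hy)
      (ii_mono habs hy hz)
  -- B right
  have hBr : ∀ t0 ∈ Icc α β, ∀ x' ∈ Icc α β, t0 ≤ x' → f t0 ≤ 0 → g x' ≤ ∫ t in t0..x', |h t| := by
    intro t0 ht0 x' hx' htx h0
    apply max_le _ (hnn _ ht0 _ hx' htx)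
    set S : Set ℝ := {t | t ∈ Icc t0 x' ∧ f t ≤ 0} with hS
    have hSsub : S ⊆ Icc α β := fun t ht => ⟨ht0.1.trans ht.1.1, ht.1.2.trans hx'.2⟩
    have hSne : S.Nonempty := ⟨t0, ⟨le_refl _, htx⟩, h0⟩
    have hSbdd : BddAbove S := ⟨x', fun t ht => ht.1.2⟩
    have hScl : IsClosed S := by
      have h1 : ContinuousOn f (Icc t0 x') :=
        hc.mono (fun t ht => ⟨ht0.1.trans ht.1, ht.2.trans hx'.2⟩)
      exact h1.preimage_isClosed_of_isClosed isClosed_Icc isClosed_Iic
    set u := sSup S with hu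
    have huS : u ∈ S := hScl.csSup_mem hSne hSbdd
    have hpos : ∀ t ∈ Ioo u x', 0 < f t := by
      intro t ht
      by_contra hcon
      push Not at hcon
      have : t ∈ S := ⟨⟨huS.1.1.trans ht.1.le, ht.2.le⟩, hcon⟩
      have := le_csSup hSbdd this
      linarith [ht.1]
    have hum : u ∈ Icc α β := hSsub huS
    have h1 := hA u hum x' hx' huS.1.2 hpos
    have h2 := habsle u hum x' hx' huS.1.2
    have h3 := le_abs_self (∫ t in u..x', h t)
    have h4 := hadd t0 ht0 u hum x' hx'
    have h5 := hnn t0 ht0 u hum huS.1.1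
    have h6 := huS.2
    linarith
  -- B left
  have hBl : ∀ x ∈ Icc α β, ∀ t0 ∈ Icc α β, x ≤ t0 → f t0 ≤ 0 → g x ≤ ∫ t in x..t0, |h t| := by
    intro x hx t0 ht0 hxt h0
    apply max_le _ (hnn _ hx _ ht0 hxt)
    set S : Set ℝ := {t | t ∈ Icc x t0 ∧ f t ≤ 0} with hS
    have hSsub : S ⊆ Icc α β := fun t ht => ⟨hx.1.trans ht.1.1, ht.1.2.trans ht0.2⟩
    have hSne : S.Nonempty := ⟨t0, ⟨hxt, le_refl _⟩, h0⟩
    have hSbdd : BddBelow S := ⟨x, fun t ht => ht.1.1⟩
    have hScl : IsClosed S := by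
      have h1 : ContinuousOn f (Icc x t0) :=
        hc.mono (fun t ht => ⟨hx.1.trans ht.1, ht.2.trans ht0.2⟩)
      exact h1.preimage_isClosed_of_isClosed isClosed_Icc isClosed_Iic
    set u := sInf S with hu
    have huS : u ∈ S := hScl.csInf_mem hSne hSbdd
    have hpos : ∀ t ∈ Ioo x u, 0 < f t := by
      intro t ht
      by_contra hcon
      push Not at hcon
      have : t ∈ S := ⟨⟨ht.1.le, ht.2.le.trans huS.1.2⟩, hcon⟩
      have := csInf_le hSbdd this
      linarith [ht.2]
    have hum : u ∈ Icc α β := hSsub huS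
    have h1 := hA x hx u hum huS.1.1 hpos
    have h2 := habsle x hx u hum huS.1.1
    have h3 := neg_abs_le (∫ t in x..u, h t)
    have h4 := hadd x hx u hum t0 ht0
    have h5 := hnn u hum t0 ht0 huS.1.2
    have h6 := huS.2
    linarith
  have hclaim1 : ∀ x ∈ Icc α β, ∀ x' ∈ Icc α β, x ≤ x' → |g x - g x'| ≤ ∫ t in x..x', |h t| := by
    intro x hx x' hx' hxx'
    by_cases hex : ∃ t0 ∈ Icc x x', f t0 ≤ 0
    · obtain ⟨t0, ht0, h0⟩ := hex
      have ht0m : t0 ∈ Icc α β := ⟨hx.1.trans ht0.1, ht0.2.trans hx'.2⟩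
      have h1 := hBr t0 ht0m x' hx' ht0.2 h0
      have h2 := hBl x hx t0 ht0m ht0.1 h0
      have h3 := hadd x hx t0 ht0m x' hx'
      have h4 := hnn x hx t0 ht0m ht0.1
      have h5 := hnn t0 ht0m x' hx' ht0.2
      have h6 : 0 ≤ g x := le_max_right _ _
      have h7 : 0 ≤ g x' := le_max_right _ _
      rw [abs_le]
      constructor <;> linarith
    · push Not at hex
      have h1 := hA x hx x' hx' hxx' (fun t ht => hex t ⟨ht.1.le, ht.2.le⟩)
      have h2 : g x = f x := max_eq_left (hex x ⟨le_refl _, hxx'⟩).le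
      have h3 : g x' = f x' := max_eq_left (hex x' ⟨hxx', le_refl _⟩).le
      rw [h2, h3, abs_sub_comm, h1]
      exact habsle x hx x' hx' hxx'
  -- g is absolutely continuous
  have hKac : AbsolutelyContinuousOnInterval (fun x => ∫ t in α..x, |h t|) α β :=
    habs.absolutelyContinuousOnInterval_intervalIntegral (by simp)
  have hgac : AbsolutelyContinuousOnInterval g α β := by
    apply ac_of_abs_le hKac
    rw [uIcc_of_le hab]
    intro x hx x' hx'
    rcases le_total x x' with h1 | h1
    · have h2 := hadd α hαm x hx x' hx'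
      have h3 : (∫ t in α..x, |h t|) - (∫ t in α..x', |h t|) = -(∫ t in x..x', |h t|) := by linarith
      rw [h3, abs_neg, abs_of_nonneg (hnn x hx x' hx' h1)]
      exact hclaim1 x hx x' hx' h1
    · have h2 := hadd α hαm x' hx' x hx
      have h3 : (∫ t in α..x, |h t|) - (∫ t in α..x', |h t|) = (∫ t in x'..x, |h t|) := by linarith
      rw [h3, abs_of_nonneg (hnn x' hx' x hx h1), abs_sub_comm]
      exact hclaim1 x' hx' x hx h1
  -- derivative
  have hder : ∀ᵐ x, x ∈ Ioo α β → HasDerivAt g (if 0 < f x then h x else 0) x := by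
    filter_upwards [hgac.ae_differentiableAt, hh.ae_hasDerivAt_integral] with x hd hl hx
    have hxI : x ∈ Icc α β := ⟨hx.1.le, hx.2.le⟩
    have hxu : x ∈ uIcc α β := by rw [uIcc_of_le hab]; exact hxI
    split_ifs with hp
    · have h1 := hl hxu α (by simp)
      -- near x, f > 0
      have hcx : ContinuousAt f x := (hc x hxI).continuousAt (Icc_mem_nhds hx.1 hx.2)
      have hev : ∀ᶠ t in 𝓝 x, 0 < f t := hcx.eventually (lt_mem_nhds hp)
      obtain ⟨r, hr, hball⟩ := Metric.eventually_nhds_iff_ball.mp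
        (hev.and (Ioo_mem_nhds hx.1 hx.2))
      have hgl : ∀ t ∈ Metric.ball x r, g t = (f x - ∫ s in α..x, h s) + ∫ s in α..t, h s := by
        intro t ht
        have h2 := hball t ht
        have htI : t ∈ Icc α β := ⟨h2.2.1.le, h2.2.2.le⟩
        have h3 : g t = f t := max_eq_left h2.1.le
        rw [h3]
        rcases le_total x t with hxt | hxt
        · have h4 := hA x hxI t htI hxt (fun s hs => (hball s (by
            rw [Metric.mem_ball, Real.dist_eq] at ht ⊢
            rw [abs_of_nonneg (by linarith)] at ht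
            rw [abs_of_nonneg (by linarith [hs.1])]
            linarith [hs.2])).1)
          have h5 := intervalIntegral.integral_add_adjacent_intervals
            (ii_mono hh hαm hxI) (ii_mono hh hxI htI)
          linarith
        · have h4 := hA t htI x hxI hxt (fun s hs => (hball s (by
            rw [Metric.mem_ball, Real.dist_eq] at ht ⊢
            rw [abs_of_nonpos (by linarith)] at ht
            rw [abs_of_nonpos (by linarith [hs.2])]
            linarith [hs.1])).1)
          have h5 := intervalIntegral.integral_add_adjacent_intervals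
            (ii_mono hh hαm htI) (ii_mono hh htI hxI)
          linarith
      have h6 : HasDerivAt (fun t => (f x - ∫ s in α..x, h s) + ∫ s in α..t, h s) (h x) x := by
        have := h1.const_add (f x - ∫ s in α..x, h s)
        exact this
      apply h6.congr_of_eventuallyEq
      filter_upwards [Metric.ball_mem_nhds x hr] with t ht using hgl t ht
    · have hd' := (hd hxu).hasDerivAt
      have h0 : g x = 0 := max_eq_right (not_lt.mp hp)
      have hmin : IsLocalMin g x := by
        filter_upwards with t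
        rw [h0]; exact le_max_right _ _
      have := hmin.hasDerivAt_eq_zero hd'
      rw [this] at hd'
      exact hd'
  intro x hx
  have hsub : AbsolutelyContinuousOnInterval g α x := by
    apply hgac.mono
    rw [uIcc_of_le hab, uIcc_of_le hx.1]
    exact Icc_subset_Icc_right hx.2
  have h1 := hsub.integral_deriv_eq_sub
  have h2 : g α = 0 := max_eq_right hα
  have h3 : ∫ t in α..x, deriv g t = ∫ t in α..x, (if 0 < f t then h t else 0) := by
    apply intervalIntegral.integral_congr_ae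
    have hne : ∀ᵐ t : ℝ, t ≠ x := by
      rw [ae_iff]; simp
    filter_upwards [hder, hne] with t ht htx hti
    rw [uIoc_of_le hx.1] at hti
    exact (ht ⟨hti.1, lt_of_le_of_ne (hti.2.trans hx.2) (by
      intro h7; exact htx (le_antisymm hti.2 (h7 ▸ hx.2)))⟩).deriv
  rw [h3, h2] at h1
  linarith

end Crest.Agent.R105.Mp_87
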