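import Crest.Agent.R105.Mp1_87

/-! Row 105, lemma A, maximum principle on one rectangle, core. -/

open MeasureTheory Set Filter Topology

namespace Crest.Agent.R105.Mp_87

/-- the open rectangle -/
def Rc (x0 x1 y0 y1 : ℝ) : Set (ℝ × ℝ) := Ioo x0 x1 ×ˢ Ioo y0 y1

theorem measurableSet_Rc (x0 x1 y0 y1 : ℝ) : MeasurableSet (Rc x0 x1 y0 y1) :=
  measurableSet_Ioo.prod measurableSet_Ioo

theorem restrict_Rc (x0 x1 y0 y1 : ℝ) :
    (volume : Measure (ℝ × ℝ)).restrict (Rc x0 x1 y0 y1) =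
      ((volume : Measure ℝ).restrict (Ioo x0 x1)).prod ((volume : Measure ℝ).restrict (Ioo y0 y1)) := by
  rw [Measure.volume_eq_prod, Rc, Measure.prod_restrict]

/-- a.e. point of the rectangle, read on a.e. vertical line -/
theorem ae_Rc_x {x0 x1 y0 y1 : ℝ} {P : ℝ × ℝ → Prop}
    (h : ∀ᵐ p ∂((volume : Measure (ℝ × ℝ)).restrict (Rc x0 x1 y0 y1)), P p) :
    ∀ᵐ x, x ∈ Ioo x0 x1 → ∀ᵐ y, y ∈ Ioo y0 y1 → P (x, y) := by
  rw [restrict_Rc] at h
  have h1 := Measure.ae_ae_of_ae_prod h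
  rw [ae_restrict_iff' measurableSet_Ioo] at h1
  filter_upwards [h1] with x hx hxm
  exact (ae_restrict_iff' measurableSet_Ioo).mp (hx hxm)

/-- a.e. point of the rectangle, read on a.e. horizontal line -/
theorem ae_Rc_y {x0 x1 y0 y1 : ℝ} {P : ℝ × ℝ → Prop}
    (h : ∀ᵐ p ∂((volume : Measure (ℝ × ℝ)).restrict (Rc x0 x1 y0 y1)), P p) :
    ∀ᵐ y, y ∈ Ioo y0 y1 → ∀ᵐ x, x ∈ Ioo x0 x1 → P (x, y) := by
  rw [restrict_Rc] at h
  have h2 : ∀ᵐ p ∂(((volume : Measure ℝ).restrict (Ioo y0 y1)).prod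
      ((volume : Measure ℝ).restrict (Ioo x0 x1))), P p.swap := by
    have := (Measure.measurePreserving_swap (μ := (volume : Measure ℝ).restrict (Ioo y0 y1))
      (ν := (volume : Measure ℝ).restrict (Ioo x0 x1))).quasiMeasurePreserving.ae h
    exact this
  have h1 := Measure.ae_ae_of_ae_prod h2
  rw [ae_restrict_iff' measurableSet_Ioo] at h1
  filter_upwards [h1] with y hy hym
  exact (ae_restrict_iff' measurableSet_Ioo).mp (hy hym)

/-- Horizontal lines: the positive part. -/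
theorem hline {x0 x1 y M : ℝ} (hx : x0 ≤ x1) {X2 Ψ : ℝ × ℝ → ℝ} {μ : Measure (ℝ × ℝ)}
    (hi : IntervalIntegrable (fun s => X2 (s, y)) volume x0 x1)
    (hc : ContinuousOn (fun s => Ψ (s, y)) (Icc x0 x1))
    {σ : ℝ} (hf : ∀ x ∈ Icc x0 x1, ∀ x' ∈ Icc x0 x1, x ≤ x' →
      Ψ (x', y) - Ψ (x, y) = -(∫ s in x..x', X2 (s, y))
        - σ * (μ {q | q.1 ∈ Ico x x' ∧ q.2 < y}).toReal)
    (hat : ∀ x ∈ Icc x0 x1, μ {q | q.1 = x ∧ q.2 < y} = 0)
    (hb : Ψ (x0, y) ≤ M)
    (hflux : μ {q | q.1 ∈ Ioo x0 x1 ∧ q.2 < y ∧ M < Ψ (q.1, y)} = 0) :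
    ∀ x ∈ Icc x0 x1, max (Ψ (x, y) - M) 0 =
      ∫ s in x0..x, (if M < Ψ (s, y) then -X2 (s, y) else 0) := by
  set ν : Measure ℝ := (μ.restrict {q : ℝ × ℝ | q.2 < y}).map Prod.fst with hν
  have hms : MeasurableSet {q : ℝ × ℝ | q.2 < y} := measurableSet_lt measurable_snd measurable_const
  have hνa : ∀ A : Set ℝ, MeasurableSet A → ν A = μ {q | q.1 ∈ A ∧ q.2 < y} := by
    intro A hA
    rw [hν, Measure.map_apply measurable_fst hA, Measure.restrict_apply (measurable_fst hA)]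
    rfl
  have h := posPart_line (α := x0) (β := x1) hx (f := fun s => Ψ (s, y) - M)
    (h := fun s => -X2 (s, y)) (ν := ν) (σ := σ) (hc.sub continuousOn_const) (by simpa using hb) hi.neg
    (by
      intro x hx x' hx' hxx'
      rw [hνa _ measurableSet_Ico, intervalIntegral.integral_neg]
      have := hf x hx x' hx' hxx'
      linarith)
    (by
      intro x hx
      rw [hνa _ (measurableSet_singleton x)]
      exact hat x hx)
    (by
      -- the set is open relative to the interval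
      have hsub : {x | x ∈ Ioo x0 x1 ∧ 0 < Ψ (x, y) - M} = {x | x ∈ Ioo x0 x1 ∧ M < Ψ (x, y)} := by
        ext x; simp [sub_pos]
      have hop : IsOpen {x | x ∈ Ioo x0 x1 ∧ M < Ψ (x, y)} := by
        have h1 : ContinuousOn (fun s => Ψ (s, y)) (Ioo x0 x1) := hc.mono Ioo_subset_Icc_self
        exact h1.isOpen_inter_preimage isOpen_Ioo isOpen_Ioi
      rw [hsub, hνa _ hop.measurableSet]
      apply measure_mono_null _ hflux
      intro q hq
      exact ⟨hq.1.1, hq.2, hq.1.2⟩)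
  intro x hxm
  rw [h x hxm]
  apply intervalIntegral.integral_congr
  intro s _
  simp only [sub_pos]

/-- Vertical lines: the positive part. -/
theorem vline {y0 y1 x M : ℝ} (hy : y0 ≤ y1) {X1 ψ : ℝ × ℝ → ℝ}
    (hi : IntervalIntegrable (fun t => X1 (x, t)) volume y0 y1)
    (hf : ∀ y ∈ Icc y0 y1, ψ (x, y) = ψ (x, y0) + ∫ t in y0..y, X1 (x, t))
    (hb : ψ (x, y0) ≤ M) :
    ∀ y ∈ Icc y0 y1, max (ψ (x, y) - M) 0 =
      ∫ t in y0..y, (if M < ψ (x, t) then X1 (x, t) else 0) := by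
  have hac : AbsolutelyContinuousOnInterval (fun y => ∫ t in y0..y, X1 (x, t)) y0 y1 :=
    hi.absolutelyContinuousOnInterval_intervalIntegral (by simp)
  have hc : ContinuousOn (fun t => ψ (x, t) - M) (Icc y0 y1) := by
    have h1 := hac.continuousOn
    rw [uIcc_of_le hy] at h1
    have h2 : ContinuousOn (fun y => (ψ (x, y0) - M) + ∫ t in y0..y, X1 (x, t)) (Icc y0 y1) :=
      continuousOn_const.add h1
    apply h2.congr
    intro t ht
    simp only
    rw [hf t ht]; ring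
  have h := posPart_line (α := y0) (β := y1) hy (f := fun t => ψ (x, t) - M)
    (h := fun t => X1 (x, t)) (ν := 0) (σ := 0) hc (by simpa using hb) hi
    (by
      intro y hy1 y' hy1' hyy'
      have h1 := hf y hy1
      have h2 := hf y' hy1'
      have h3 := intervalIntegral.integral_add_adjacent_intervals
        (ii_mono hi ⟨le_refl _, hy⟩ hy1) (ii_mono hi hy1 hy1')
      simp only [Measure.coe_zero, Pi.zero_apply, ENNReal.toReal_zero, mul_zero, sub_zero]
      linarith)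
    (by intro x _; simp) (by simp)
  intro y hym
  rw [h y hym]
  apply intervalIntegral.integral_congr
  intro s _
  simp only [sub_pos]

/-- Cauchy-Schwarz convergence. -/
theorem tendsto_integral_mul {Ω : Type*} [MeasurableSpace Ω] {m : Measure Ω} {g : Ω → ℝ}
    {E : ℕ → Ω → ℝ} {X : Ω → ℝ} (hg : MemLp g 2 m) (hE : ∀ n, MemLp (E n) 2 m) (hX : MemLp X 2 m)
    (h : Tendsto (fun n => ∫ p, (E n p - X p) ^ 2 ∂m) atTop (𝓝 0)) :
    Tendsto (fun n => ∫ p, g p * E n p ∂m) atTop (𝓝 (∫ p, g p * X p ∂m)) := by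
  have hint : ∀ F : Ω → ℝ, MemLp F 2 m → Integrable (fun p => g p * F p) m := by
    intro F hF
    exact hg.integrable_mul hF
  have hsq : ∀ F : Ω → ℝ, MemLp F 2 m → Integrable (fun p => F p ^ 2) m := fun F hF =>
    hF.integrable_sq
  set G := ∫ p, g p ^ 2 ∂m with hG
  have hG0 : 0 ≤ G := integral_nonneg (fun p => sq_nonneg _)
  have key : ∀ n, |∫ p, g p * E n p ∂m - ∫ p, g p * X p ∂m| ≤
      Real.sqrt G * Real.sqrt (∫ p, (E n p - X p) ^ 2 ∂m) := by
    intro n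
    have hd : MemLp (fun p => E n p - X p) 2 m := (hE n).sub hX
    have h1 : ∫ p, g p * E n p ∂m - ∫ p, g p * X p ∂m = ∫ p, g p * (E n p - X p) ∂m := by
      rw [← integral_sub (hint _ (hE n)) (hint _ hX)]
      congr 1; ext p; ring
    rw [h1]
    have h2 : |∫ p, g p * (E n p - X p) ∂m| ≤ ∫ p, ‖g p‖ * ‖E n p - X p‖ ∂m := by
      refine (abs_integral_le_integral_abs).trans (le_of_eq ?_)
      congr 1; ext p; rw [abs_mul]; rfl
    refine h2.trans ?_
    have h3 := integral_mul_norm_le_Lp_mul_Lq (μ := m) (f := g) (g := fun p => E n p - X p)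
      (p := 2) (q := 2) Real.HolderConjugate.two_two (by simpa using hg) (by simpa using hd)
    refine h3.trans (le_of_eq ?_)
    rw [Real.sqrt_eq_rpow, Real.sqrt_eq_rpow, hG]
    congr 2
    · congr 1; ext p; simp
    · congr 1; ext p; simp
  rw [tendsto_iff_norm_sub_tendsto_zero]
  have hlim : Tendsto (fun n => Real.sqrt G * Real.sqrt (∫ p, (E n p - X p) ^ 2 ∂m)) atTop
      (𝓝 0) := by
    have := (Real.continuous_sqrt.tendsto 0).comp h
    rw [Real.sqrt_zero] at this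
    simpa using this.const_mul (Real.sqrt G)
  exact squeeze_zero (fun n => norm_nonneg _) key hlim

/-- the two weak derivatives of `(ψ - M)⁺` -/
noncomputable def wx (M : ℝ) (X2 Ψ : ℝ × ℝ → ℝ) (p : ℝ × ℝ) : ℝ := if M < Ψ p then -X2 p else 0
noncomputable def wy (M : ℝ) (X1 ψ : ℝ × ℝ → ℝ) (p : ℝ × ℝ) : ℝ := if M < ψ p then X1 p else 0

/-- **Maximum principle on one rectangle** (core). `ψ` = vertical representative,
`Ψ` = horizontal representative of the stream function. -/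
theorem mp_core {x0 x1 y0 y1 M : ℝ}
    {X1 X2 ψ Ψ : ℝ × ℝ → ℝ} (hψm : Measurable ψ) (hΨm : Measurable Ψ)
    (hX1 : MemLp X1 2 (volume.restrict (Rc x0 x1 y0 y1)))
    (hX2 : MemLp X2 2 (volume.restrict (Rc x0 x1 y0 y1)))
    (hΨψ : ∀ᵐ p ∂(volume.restrict (Rc x0 x1 y0 y1)), Ψ p = ψ p)
    (hH : ∀ᵐ y, y ∈ Ioo y0 y1 → ∀ x ∈ Icc x0 x1, max (Ψ (x, y) - M) 0 =
      ∫ s in x0..x, wx M X2 Ψ (s, y))
    {E1 E2 : ℕ → ℝ × ℝ → ℝ}
    (hE1 : ∀ n, MemLp (E1 n) 2 (volume.restrict (Rc x0 x1 y0 y1)))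
    (hE2 : ∀ n, MemLp (E2 n) 2 (volume.restrict (Rc x0 x1 y0 y1)))
    (h1 : Tendsto (fun n => ∫ p in Rc x0 x1 y0 y1, (E1 n p - X1 p) ^ 2) atTop (𝓝 0))
    (h2 : Tendsto (fun n => ∫ p in Rc x0 x1 y0 y1, (E2 n p - X2 p) ^ 2) atTop (𝓝 0))
    (hG : ∀ n, ∫ p in Rc x0 x1 y0 y1, (wy M X1 ψ p * E1 n p - wx M X2 Ψ p * E2 n p) = 0) :
    ∀ᵐ p ∂(volume.restrict (Rc x0 x1 y0 y1)), ψ p ≤ M := by
  set m := (volume : Measure (ℝ × ℝ)).restrict (Rc x0 x1 y0 y1) with hm
  have hSψ : MeasurableSet {p | M < ψ p} := measurableSet_lt measurable_const hψm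
  have hSΨ : MeasurableSet {p | M < Ψ p} := measurableSet_lt measurable_const hΨm
  have hwy : MemLp (wy M X1 ψ) 2 m := by
    have : wy M X1 ψ = {p | M < ψ p}.indicator X1 := by
      ext p; simp [wy, indicator]
    rw [this]; exact hX1.indicator hSψ
  have hwx : MemLp (wx M X2 Ψ) 2 m := by
    have : wx M X2 Ψ = {p | M < Ψ p}.indicator (fun p => -X2 p) := by
      ext p; simp [wx, indicator]
    rw [this]; exact hX2.neg.indicator hSΨ
  have t1 := tendsto_integral_mul hwy hE1 hX1 h1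
  have t2 := tendsto_integral_mul hwx hE2 hX2 h2
  have t3 := t1.sub t2
  have e0 : ∀ n, (∫ p, wy M X1 ψ p * E1 n p ∂m) - (∫ p, wx M X2 Ψ p * E2 n p ∂m) = 0 := by
    intro n
    have i1 : Integrable (fun p => wy M X1 ψ p * E1 n p) m := hwy.integrable_mul (hE1 n)
    have i2 : Integrable (fun p => wx M X2 Ψ p * E2 n p) m := hwx.integrable_mul (hE2 n)
    rw [← integral_sub i1 i2]
    exact hG n
  have e1 : (∫ p, wy M X1 ψ p * X1 p ∂m) - (∫ p, wx M X2 Ψ p * X2 p ∂m) = 0 := by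
    have h0 : Tendsto (fun _ : ℕ => (0 : ℝ)) atTop (𝓝
        ((∫ p, wy M X1 ψ p * X1 p ∂m) - (∫ p, wx M X2 Ψ p * X2 p ∂m))) := by
      refine t3.congr (fun n => ?_)
      exact e0 n
    exact (tendsto_nhds_unique tendsto_const_nhds h0).symm
  have e2 : ∫ p, (wy M X1 ψ p * X1 p - wx M X2 Ψ p * X2 p) ∂m = 0 := by
    have i1 : Integrable (fun p => wy M X1 ψ p * X1 p) m := hwy.integrable_mul hX1
    have i2 : Integrable (fun p => wx M X2 Ψ p * X2 p) m := hwx.integrable_mul hX2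
    rw [integral_sub i1 i2]
    exact e1
  have hnn : 0 ≤ᵐ[m] fun p => wy M X1 ψ p * X1 p - wx M X2 Ψ p * X2 p := by
    filter_upwards [hΨψ] with p hp
    simp only [wx, wy, hp, Pi.zero_apply]
    split_ifs
    · nlinarith [sq_nonneg (X1 p), sq_nonneg (X2 p)]
    · simp
  have e3 := (integral_eq_zero_iff_of_nonneg_ae hnn
    ((hwy.integrable_mul hX1).sub (hwx.integrable_mul hX2))).mp e2
  have e4 : ∀ᵐ p ∂m, wx M X2 Ψ p = 0 := by
    filter_upwards [e3, hΨψ] with p hp hpp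
    simp only [wx, wy, hpp, Pi.zero_apply] at hp ⊢
    split_ifs at hp ⊢ with hc
    · have : X2 p = 0 := by nlinarith [sq_nonneg (X1 p), sq_nonneg (X2 p)]
      simp [this]
    · rfl
  -- conclusion on horizontal lines
  have e5 := ae_Rc_y e4
  have e6 : ∀ᵐ y, y ∈ Ioo y0 y1 → ∀ x ∈ Icc x0 x1, Ψ (x, y) ≤ M := by
    filter_upwards [e5, hH] with y hy5 hyH hym x hxm
    have h7 := hyH hym x hxm
    have h8 : ∫ s in x0..x, wx M X2 Ψ (s, y) = 0 := by
      have : ∫ s in x0..x, wx M X2 Ψ (s, y) = ∫ s in x0..x, (0 : ℝ) := by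
        apply intervalIntegral.integral_congr_ae
        have hne : ∀ᵐ t : ℝ, t ≠ x := by rw [ae_iff]; simp
        filter_upwards [hy5 hym, hne] with s hs hsx hsI
        rw [uIoc_of_le hxm.1] at hsI
        exact hs ⟨hsI.1, lt_of_lt_of_le (lt_of_le_of_ne hsI.2 hsx) hxm.2⟩
      rw [this]; simp
    rw [h8] at h7
    have := le_max_left (Ψ (x, y) - M) 0
    linarith
  have e7 : ∀ᵐ p ∂m, Ψ p ≤ M := by
    rw [hm, restrict_Rc]
    have hms : MeasurableSet {p : ℝ × ℝ | Ψ p ≤ M} := measurableSet_le hΨm measurable_const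
    have hsw : ∀ᵐ p ∂(((volume : Measure ℝ).restrict (Ioo y0 y1)).prod
        ((volume : Measure ℝ).restrict (Ioo x0 x1))), Ψ p.swap ≤ M := by
      have hms' : MeasurableSet {p : ℝ × ℝ | Ψ p.swap ≤ M} := measurable_swap hms
      rw [Measure.ae_prod_iff_ae_ae hms']
      rw [ae_restrict_iff' measurableSet_Ioo]
      filter_upwards [e6] with y hy hym
      rw [ae_restrict_iff' measurableSet_Ioo]
      filter_upwards with x hxm
      exact hy hym x ⟨hxm.1.le, hxm.2.le⟩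
    have := (Measure.measurePreserving_swap (μ := (volume : Measure ℝ).restrict (Ioo x0 x1))
      (ν := (volume : Measure ℝ).restrict (Ioo y0 y1))).quasiMeasurePreserving.ae hsw
    simpa using this
  filter_upwards [e7, hΨψ] with p h1 h2
  rw [← h2]; exact h1

end Crest.Agent.R105.Mp_87
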