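import Crest.Agent.R105.Mp2_87

/-! Row 105, lemma A: the stream function in `lines form` and the maximum principle on a
rectangle with good sides (flux hairs are never cut). `σ = 1` for `ψ`, `σ = -1` for `-ψ`. -/

open MeasureTheory Set Filter Topology

namespace Crest.Agent.R105.Mp_87

/-- `λ(x) = μ {q | q.1 < x}` -/
noncomputable def lam (μ : Measure (ℝ × ℝ)) (x : ℝ) : ℝ := (μ {q | q.1 < x}).toReal

theorem lam_mono (μ : Measure (ℝ × ℝ)) [IsFiniteMeasure μ] : Monotone (lam μ) := by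
  intro x y hxy
  exact ENNReal.toReal_mono (measure_ne_top _ _)
    (measure_mono (fun q (hq : q.1 < x) => lt_of_lt_of_le hq hxy))

/-- The stream function on `(a,b) × (c,∞)`, lower problem with level `B`. -/
structure Lines (a b c B σ : ℝ) (X1 X2 : ℝ × ℝ → ℝ) (μ : Measure (ℝ × ℝ))
    (ψ Ψ : ℝ × ℝ → ℝ) : Prop where
  mψ : Measurable ψ
  mΨ : Measurable Ψ
  L1 : MemLp X1 2 (volume : Measure (ℝ × ℝ))
  L2 : MemLp X2 2 (volume : Measure (ℝ × ℝ))
  strip : ∀ p : ℝ × ℝ, B ≤ p.2 → ψ p = -σ * lam μ p.1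
  V : ∀ᵐ x, x ∈ Ioo a b → ∀ y y', c < y → y ≤ y' →
    ψ (x, y') - ψ (x, y) = ∫ t in y..y', X1 (x, t)
  H : ∀ᵐ y, c < y → ∀ x ∈ Ioo a b, ∀ x' ∈ Ioo a b, x ≤ x' →
    Ψ (x', y) - Ψ (x, y) = -(∫ s in x..x', X2 (s, y))
      - σ * (μ {q | q.1 ∈ Ico x x' ∧ q.2 < y}).toReal
  E : ∀ᵐ p : ℝ × ℝ, p.1 ∈ Ioo a b → c < p.2 → Ψ p = ψ p
  /-- only the columns without mass below `y` (a column with an atom has its own side traces) -/
  S : ∀ᵐ y, c < y → μ {q | q.2 < y ∧ μ {r | r.1 = q.1 ∧ r.2 < y} = 0 ∧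
    Ψ (q.1, y) ≠ -σ * lam μ q.1} = 0

/-- good abscissa -/
structure GoodX (a b c : ℝ) (X1 : ℝ × ℝ → ℝ) (ψ Ψ : ℝ × ℝ → ℝ) (x : ℝ) : Prop where
  int : ∀ y y', IntervalIntegrable (fun t => X1 (x, t)) volume y y'
  V : ∀ y y', c < y → y ≤ y' → ψ (x, y') - ψ (x, y) = ∫ t in y..y', X1 (x, t)
  E : ∀ᵐ y, c < y → Ψ (x, y) = ψ (x, y)

/-- good height -/
structure GoodY (a b σ : ℝ) (X2 : ℝ × ℝ → ℝ) (μ : Measure (ℝ × ℝ)) (ψ Ψ : ℝ × ℝ → ℝ)
    (y : ℝ) : Prop where
  int : ∀ x x', IntervalIntegrable (fun t => X2 (t, y)) volume x x'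
  H : ∀ x ∈ Ioo a b, ∀ x' ∈ Ioo a b, x ≤ x' →
    Ψ (x', y) - Ψ (x, y) = -(∫ s in x..x', X2 (s, y))
      - σ * (μ {q | q.1 ∈ Ico x x' ∧ q.2 < y}).toReal
  E : ∀ᵐ x, x ∈ Ioo a b → Ψ (x, y) = ψ (x, y)
  S : μ {q | q.2 < y ∧ μ {r | r.1 = q.1 ∧ r.2 < y} = 0 ∧ Ψ (q.1, y) ≠ -σ * lam μ q.1} = 0

theorem ii_of_memLp {f : ℝ → ℝ} (h : MemLp f 2 (volume : Measure ℝ)) (y y' : ℝ) :
    IntervalIntegrable f volume y y' := by
  rw [intervalIntegrable_iff]
  have h1 : MemLp f 2 (volume.restrict (uIoc y y')) := h.restrict _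
  have h2 : IsFiniteMeasure ((volume : Measure ℝ).restrict (uIoc y y')) := by
    refine ⟨?_⟩
    rw [Measure.restrict_apply_univ, uIoc, Real.volume_Ioc]
    exact ENNReal.ofReal_lt_top
  exact h1.integrable (by norm_num)

theorem ae_line_x {X : ℝ × ℝ → ℝ} (h : MemLp X 2 (volume : Measure (ℝ × ℝ))) :
    ∀ᵐ x : ℝ, MemLp (fun t : ℝ => X (x, t)) 2 volume := by
  have h1 : Integrable (fun p => X p ^ 2) ((volume : Measure ℝ).prod (volume : Measure ℝ)) := by
    rw [← Measure.volume_eq_prod]; exact h.integrable_sq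
  have h2 := h1.prod_right_ae
  have h3 : AEStronglyMeasurable X ((volume : Measure ℝ).prod (volume : Measure ℝ)) := by
    rw [← Measure.volume_eq_prod]; exact h.1
  have h4 := h3.prodMk_left
  filter_upwards [h2, h4] with x hx2 hx4
  exact (memLp_two_iff_integrable_sq hx4).mpr hx2

theorem ae_line_y {X : ℝ × ℝ → ℝ} (h : MemLp X 2 (volume : Measure (ℝ × ℝ))) :
    ∀ᵐ y : ℝ, MemLp (fun s : ℝ => X (s, y)) 2 volume := by
  have h1 : MemLp (X ∘ Prod.swap) 2 (volume : Measure (ℝ × ℝ)) := by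
    rw [Measure.volume_eq_prod] at h ⊢
    exact h.comp_measurePreserving Measure.measurePreserving_swap
  exact ae_line_x h1

theorem ae_swap {P : ℝ × ℝ → Prop} (h : ∀ᵐ p : ℝ × ℝ, P p) : ∀ᵐ p : ℝ × ℝ, P p.swap := by
  rw [Measure.volume_eq_prod] at h ⊢
  exact Measure.measurePreserving_swap.quasiMeasurePreserving.ae h

theorem ae_x_of_ae {P : ℝ × ℝ → Prop} (h : ∀ᵐ p : ℝ × ℝ, P p) : ∀ᵐ x : ℝ, ∀ᵐ y : ℝ, P (x, y) := by
  rw [Measure.volume_eq_prod] at h
  exact Measure.ae_ae_of_ae_prod h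

theorem ae_y_of_ae {P : ℝ × ℝ → Prop} (h : ∀ᵐ p : ℝ × ℝ, P p) : ∀ᵐ y : ℝ, ∀ᵐ x : ℝ, P (x, y) :=
  ae_x_of_ae (ae_swap h)

variable {a b c B σ : ℝ} {X1 X2 ψ Ψ : ℝ × ℝ → ℝ} {μ : Measure (ℝ × ℝ)}

theorem Lines.goodX (L : Lines a b c B σ X1 X2 μ ψ Ψ) :
    ∀ᵐ x, x ∈ Ioo a b → GoodX a b c X1 ψ Ψ x := by
  filter_upwards [ae_line_x L.L1, L.V, ae_x_of_ae L.E] with x h1 h2 h3 hx
  refine ⟨fun y y' => ii_of_memLp h1 y y', h2 hx, ?_⟩
  filter_upwards [h3] with y hy hc
  exact hy hx hc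

theorem Lines.goodY (L : Lines a b c B σ X1 X2 μ ψ Ψ) :
    ∀ᵐ y, c < y → GoodY a b σ X2 μ ψ Ψ y := by
  filter_upwards [ae_line_y L.L2, L.H, ae_y_of_ae L.E, L.S] with y h1 h2 h3 h4 hy
  refine ⟨fun x x' => ii_of_memLp h1 x x', h2 hy, ?_, h4 hy⟩
  filter_upwards [h3] with x hx hab
  exact hx hab hy

/-- continuity of `Ψ(·, y)` on a closed interval without atoms -/
theorem GoodY.continuousOn [IsFiniteMeasure μ] {y x0 x1 : ℝ} (G : GoodY a b σ X2 μ ψ Ψ y)
    (ha : a < x0) (hb : x1 < b)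
    (hat : ∀ x ∈ Icc x0 x1, μ {q | q.1 = x ∧ q.2 < y} = 0) :
    ContinuousOn (fun s => Ψ (s, y)) (Icc x0 x1) := by
  rcases lt_or_ge x1 x0 with hlt | hle
  · rw [Icc_eq_empty (not_le.mpr hlt)]; exact continuousOn_empty _
  set ν : Measure ℝ := (μ.restrict {q : ℝ × ℝ | q.2 < y}).map Prod.fst with hν
  have hms : MeasurableSet {q : ℝ × ℝ | q.2 < y} := measurableSet_lt measurable_snd measurable_const
  have hνa : ∀ A : Set ℝ, MeasurableSet A → ν A = μ {q | q.1 ∈ A ∧ q.2 < y} := by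
    intro A hA
    rw [hν, Measure.map_apply measurable_fst hA, Measure.restrict_apply (measurable_fst hA)]
    rfl
  have : IsFiniteMeasure ν := by
    rw [hν]; infer_instance
  -- cdf-like function
  have hG : ContinuousOn (fun s => (ν (Ico x0 s)).toReal) (Icc x0 x1) := by
    intro s hs
    -- use left/right continuity of measures of intervals
    have hs0 : ν {s} = 0 := by rw [hνa _ (measurableSet_singleton s)]; exact hat s hs
    have hkey : ∀ ε : ℝ, 0 < ε → ∃ δ > 0, (ν (Icc (s - δ) (s + δ))).toReal < ε := by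
      intro ε hε
      have hanti : Antitone (fun n : ℕ => Icc (s - 1 / (n + 1 : ℝ)) (s + 1 / (n + 1 : ℝ))) := by
        intro n m hnm
        have h1 : (1 : ℝ) / (m + 1) ≤ 1 / (n + 1) := by
          apply one_div_le_one_div_of_le (by positivity)
          have : (n : ℝ) ≤ m := by exact_mod_cast hnm
          linarith
        exact Icc_subset_Icc (by linarith) (by linarith)
      have hInt : (⋂ n : ℕ, Icc (s - 1 / (n + 1 : ℝ)) (s + 1 / (n + 1 : ℝ))) = {s} := by
        ext t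
        simp only [mem_iInter, mem_Icc, mem_singleton_iff]
        constructor
        · intro h
          have hlim : Tendsto (fun n : ℕ => (1 : ℝ) / (n + 1)) atTop (𝓝 0) :=
            tendsto_one_div_add_atTop_nhds_zero_nat
          have h1 : s ≤ t := by
            have := hlim.const_sub s
            simp only [sub_zero] at this
            exact le_of_tendsto' this (fun n => (h n).1)
          have h2 : t ≤ s := by
            have := hlim.const_add s
            simp only [add_zero] at this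
            exact ge_of_tendsto' this (fun n => (h n).2)
          exact le_antisymm h2 h1
        · rintro rfl n
          have : (0 : ℝ) ≤ 1 / (n + 1) := by positivity
          constructor <;> linarith
      have ht := tendsto_measure_iInter_atTop (μ := ν)
        (s := fun n : ℕ => Icc (s - 1 / ((n : ℝ) + 1)) (s + 1 / ((n : ℝ) + 1)))
        (fun n => measurableSet_Icc.nullMeasurableSet)
        hanti ⟨0, measure_ne_top _ _⟩
      rw [hInt, hs0] at ht
      have ht2 : Tendsto (fun n : ℕ => (ν (Icc (s - 1 / ((n : ℝ) + 1)) (s + 1 / ((n : ℝ) + 1)))).toReal)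
          atTop (𝓝 0) := by
        have := (ENNReal.tendsto_toReal (by simp : (0 : ENNReal) ≠ ⊤)).comp ht
        rw [ENNReal.toReal_zero] at this
        exact this
      obtain ⟨n, hn⟩ := ((tendsto_order.1 ht2).2 ε hε).exists
      exact ⟨1 / (n + 1), by positivity, hn⟩
    rw [Metric.continuousWithinAt_iff]
    intro ε hε
    obtain ⟨δ, hδ, hlt⟩ := hkey ε hε
    refine ⟨δ, hδ, fun {t} ht hts => ?_⟩
    rw [Real.dist_eq] at hts ⊢
    have hts' := abs_lt.mp hts
    rcases le_total s t with hst | hst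
    · have h1 : Ico x0 t = Ico x0 s ∪ Ico s t := (Ico_union_Ico_eq_Ico hs.1 hst).symm
      have h2 : ν (Ico x0 t) = ν (Ico x0 s) + ν (Ico s t) := by
        rw [h1, measure_union (Ico_disjoint_Ico_same) measurableSet_Ico]
      rw [h2, ENNReal.toReal_add (measure_ne_top _ _) (measure_ne_top _ _), add_sub_cancel_left,
        abs_of_nonneg ENNReal.toReal_nonneg]
      refine lt_of_le_of_lt (ENNReal.toReal_mono (measure_ne_top _ _) (measure_mono ?_)) hlt
      intro r hr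
      exact ⟨by linarith [hr.1], by linarith [hr.2]⟩
    · have h1 : Ico x0 s = Ico x0 t ∪ Ico t s := (Ico_union_Ico_eq_Ico ht.1 hst).symm
      have h2 : ν (Ico x0 s) = ν (Ico x0 t) + ν (Ico t s) := by
        rw [h1, measure_union (Ico_disjoint_Ico_same) measurableSet_Ico]
      rw [h2, ENNReal.toReal_add (measure_ne_top _ _) (measure_ne_top _ _), abs_sub_comm,
        add_sub_cancel_left, abs_of_nonneg ENNReal.toReal_nonneg]
      refine lt_of_le_of_lt (ENNReal.toReal_mono (measure_ne_top _ _) (measure_mono ?_)) hlt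
      intro r hr
      exact ⟨by linarith [hr.1], by linarith [hr.2]⟩
  have hac : ContinuousOn (fun s => ∫ t in x0..s, X2 (t, y)) (Icc x0 x1) := by
    have h1 := (G.int x0 x1).absolutelyContinuousOnInterval_intervalIntegral
      (c := x0) (by simp)
    have h2 := h1.continuousOn
    rwa [uIcc_of_le hle] at h2
  have hcomb : ContinuousOn (fun s => Ψ (x0, y) - (∫ t in x0..s, X2 (t, y))
      - σ * (ν (Ico x0 s)).toReal) (Icc x0 x1) :=
    (continuousOn_const.sub hac).sub (continuousOn_const.mul hG)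
  apply hcomb.congr
  intro s hs
  have h1 := G.H x0 ⟨ha, lt_of_le_of_lt hle hb⟩ s ⟨lt_of_lt_of_le ha hs.1, lt_of_le_of_lt hs.2 hb⟩ hs.1
  rw [← hνa _ measurableSet_Ico] at h1
  simp only
  linarith

end Crest.Agent.R105.Mp_87
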