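import Crest.Agent.R105.Mp3_87

/-! Row 105, lemma A: maximum principle on a rectangle with good sides. -/

open MeasureTheory Set Filter Topology

namespace Crest.Agent.R105.Mp_87

variable {a b c B σ : ℝ} {X1 X2 ψ Ψ : ℝ × ℝ → ℝ} {μ : Measure (ℝ × ℝ)}

/-- the four sides of a rectangle are good and there is no atom in the column below its top -/
structure GoodR (a b c σ : ℝ) (X1 X2 : ℝ × ℝ → ℝ) (μ : Measure (ℝ × ℝ)) (ψ Ψ : ℝ × ℝ → ℝ)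
    (x0 x1 y0 y1 : ℝ) : Prop where
  ha : a < x0
  hx : x0 < x1
  hb : x1 < b
  hc : c < y0
  hy : y0 < y1
  gx0 : GoodX a b c X1 ψ Ψ x0
  gx1 : GoodX a b c X1 ψ Ψ x1
  gy0 : GoodY a b σ X2 μ ψ Ψ y0
  gy1 : GoodY a b σ X2 μ ψ Ψ y1
  hat : ∀ x ∈ Icc x0 x1, μ {q | q.1 = x ∧ q.2 < y1} = 0

/-- boundary values `≤ M` -/
structure BdLe (M : ℝ) (ψ Ψ : ℝ × ℝ → ℝ) (x0 x1 y0 y1 : ℝ) : Prop where
  l : ∀ y ∈ Icc y0 y1, ψ (x0, y) ≤ M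
  r : ∀ y ∈ Icc y0 y1, ψ (x1, y) ≤ M
  d : ∀ x ∈ Icc x0 x1, Ψ (x, y0) ≤ M
  u : ∀ x ∈ Icc x0 x1, Ψ (x, y1) ≤ M

theorem flux_zero [IsFiniteMeasure μ] (L : Lines a b c B σ X1 X2 μ ψ Ψ) (hσ : σ = 1 ∨ σ = -1)
    {x0 x1 y0 y1 M : ℝ} (R : GoodR a b c σ X1 X2 μ ψ Ψ x0 x1 y0 y1)
    (hM : BdLe M ψ Ψ x0 x1 y0 y1) :
    ∀ᵐ y, y ∈ Ioo y0 y1 → μ {q | q.1 ∈ Ioo x0 x1 ∧ q.2 < y ∧ M < Ψ (q.1, y)} = 0 := by
  have hC : μ {q | q.1 ∈ Ioo x0 x1 ∧ q.2 < y1 ∧ M < -σ * lam μ q.1} = 0 := by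
    rcases lt_or_ge B y1 with hB | hB
    · have hemp : {q : ℝ × ℝ | q.1 ∈ Ioo x0 x1 ∧ q.2 < y1 ∧ M < -σ * lam μ q.1} = ∅ := by
        ext q
        simp only [mem_setOf_eq, mem_empty_iff_false, iff_false, not_and, not_lt]
        intro hq _
        set y := (max B y0 + y1) / 2 with hy
        have hm : max B y0 < y1 := max_lt hB R.hy
        have hyB : B ≤ y := by
          have := le_max_left B y0
          rw [hy]; linarith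
        have hyI : y ∈ Icc y0 y1 := by
          have := le_max_right B y0
          constructor <;> rw [hy] <;> linarith
        have h0 := hM.l y hyI
        have h1 := hM.r y hyI
        rw [L.strip (x0, y) hyB] at h0
        rw [L.strip (x1, y) hyB] at h1
        simp only at h0 h1
        have m0 := lam_mono μ hq.1.le
        have m1 := lam_mono μ hq.2.le
        rcases hσ with rfl | rfl <;> linarith
      rw [hemp]; exact measure_empty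
    · apply measure_mono_null _ R.gy1.S
      intro q hq
      refine ⟨hq.2.1, R.hat q.1 ⟨hq.1.1.le, hq.1.2.le⟩, fun heq => ?_⟩
      have h1 := hM.u q.1 ⟨hq.1.1.le, hq.1.2.le⟩
      rw [heq] at h1
      exact absurd hq.2.2 (not_lt.mpr h1)
  filter_upwards [L.S] with y hS hy
  have hyc : c < y := R.hc.trans hy.1
  apply measure_mono_null _ (measure_union_null (hS hyc) hC)
  intro q hq
  by_cases h : Ψ (q.1, y) = -σ * lam μ q.1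
  · right
    exact ⟨hq.1, hq.2.1.trans hy.2, h ▸ hq.2.2⟩
  · left
    have hsub : {r : ℝ × ℝ | r.1 = q.1 ∧ r.2 < y} ⊆ {r : ℝ × ℝ | r.1 = q.1 ∧ r.2 < y1} :=
      fun r hr => ⟨hr.1, hr.2.trans hy.2⟩
    exact ⟨hq.2.1, measure_mono_null hsub (R.hat q.1 ⟨hq.1.1.le, hq.1.2.le⟩), h⟩

/-- horizontal lines of `w = (ψ-M)⁺` -/
theorem w_hlines [IsFiniteMeasure μ] (L : Lines a b c B σ X1 X2 μ ψ Ψ) (hσ : σ = 1 ∨ σ = -1)
    {x0 x1 y0 y1 M : ℝ} (R : GoodR a b c σ X1 X2 μ ψ Ψ x0 x1 y0 y1)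
    (hM : BdLe M ψ Ψ x0 x1 y0 y1) :
    ∀ᵐ y, y ∈ Ioo y0 y1 → (∀ x ∈ Icc x0 x1, max (Ψ (x, y) - M) 0 =
      ∫ s in x0..x, wx M X2 Ψ (s, y)) ∧ Ψ (x0, y) ≤ M ∧ Ψ (x1, y) ≤ M := by
  filter_upwards [flux_zero L hσ R hM, L.goodY, R.gx0.E, R.gx1.E] with y h1 h2 h3 h4 hy
  have hyc : c < y := R.hc.trans hy.1
  have G := h2 hyc
  have hat' : ∀ x ∈ Icc x0 x1, μ {q | q.1 = x ∧ q.2 < y} = 0 := by
    intro x hx
    apply measure_mono_null _ (R.hat x hx)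
    intro q hq
    exact ⟨hq.1, hq.2.trans hy.2⟩
  have hyI : y ∈ Icc y0 y1 := ⟨hy.1.le, hy.2.le⟩
  have e0 : Ψ (x0, y) ≤ M := by rw [h3 hyc]; exact hM.l y hyI
  have e1 : Ψ (x1, y) ≤ M := by rw [h4 hyc]; exact hM.r y hyI
  refine ⟨?_, e0, e1⟩
  have hmem : ∀ x ∈ Icc x0 x1, x ∈ Ioo a b := fun x hx =>
    ⟨lt_of_lt_of_le R.ha hx.1, lt_of_le_of_lt hx.2 R.hb⟩
  exact hline R.hx.le (G.int x0 x1) (G.continuousOn R.ha R.hb hat')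
    (fun x hx x' hx' hxx' => G.H x (hmem x hx) x' (hmem x' hx') hxx') hat' e0 (h1 hy)

/-- vertical lines of `w = (ψ-M)⁺` -/
theorem w_vlines (L : Lines a b c B σ X1 X2 μ ψ Ψ)
    {x0 x1 y0 y1 M : ℝ} (R : GoodR a b c σ X1 X2 μ ψ Ψ x0 x1 y0 y1)
    (hM : BdLe M ψ Ψ x0 x1 y0 y1) :
    ∀ᵐ x, x ∈ Ioo x0 x1 → (∀ y ∈ Icc y0 y1, max (ψ (x, y) - M) 0 =
      ∫ t in y0..y, wy M X1 ψ (x, t)) ∧ ψ (x, y0) ≤ M ∧ ψ (x, y1) ≤ M := by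
  filter_upwards [L.goodX, R.gy0.E, R.gy1.E] with x h1 h2 h3 hx
  have hxab : x ∈ Ioo a b := ⟨R.ha.trans hx.1, hx.2.trans R.hb⟩
  have G := h1 hxab
  have hxI : x ∈ Icc x0 x1 := ⟨hx.1.le, hx.2.le⟩
  have e0 : ψ (x, y0) ≤ M := by rw [← h2 hxab]; exact hM.d x hxI
  have e1 : ψ (x, y1) ≤ M := by rw [← h3 hxab]; exact hM.u x hxI
  refine ⟨?_, e0, e1⟩
  exact vline R.hy.le (G.int y0 y1)
    (fun y hy => by have := G.V y0 y R.hc hy.1; linarith) e0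

/-- **Maximum principle.** -/
theorem mp_rect [IsFiniteMeasure μ] (L : Lines a b c B σ X1 X2 μ ψ Ψ) (hσ : σ = 1 ∨ σ = -1)
    {x0 x1 y0 y1 M : ℝ} (R : GoodR a b c σ X1 X2 μ ψ Ψ x0 x1 y0 y1)
    (hM : BdLe M ψ Ψ x0 x1 y0 y1)
    {E1 E2 : ℕ → ℝ × ℝ → ℝ}
    (hE1 : ∀ n, MemLp (E1 n) 2 (volume.restrict (Rc x0 x1 y0 y1)))
    (hE2 : ∀ n, MemLp (E2 n) 2 (volume.restrict (Rc x0 x1 y0 y1)))
    (h1 : Tendsto (fun n => ∫ p in Rc x0 x1 y0 y1, (E1 n p - X1 p) ^ 2) atTop (𝓝 0))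
    (h2 : Tendsto (fun n => ∫ p in Rc x0 x1 y0 y1, (E2 n p - X2 p) ^ 2) atTop (𝓝 0))
    (hG : ∀ n, ∫ p in Rc x0 x1 y0 y1, (wy M X1 ψ p * E1 n p - wx M X2 Ψ p * E2 n p) = 0) :
    ∀ᵐ p ∂((volume : Measure (ℝ × ℝ)).restrict (Rc x0 x1 y0 y1)), ψ p ≤ M := by
  refine mp_core (X1 := X1) (X2 := X2) L.mψ L.mΨ (L.L1.restrict _) (L.L2.restrict _) ?_ ?_
    hE1 hE2 h1 h2 hG
  · rw [ae_restrict_iff' (measurableSet_Rc _ _ _ _)]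
    filter_upwards [L.E] with p hp hpR
    exact hp ⟨R.ha.trans hpR.1.1, hpR.1.2.trans R.hb⟩ (R.hc.trans hpR.2.1)
  · filter_upwards [w_hlines L hσ R hM] with y hy hyI
    exact (hy hyI).1

end Crest.Agent.R105.Mp_87
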