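import Crest.Agent.R105.Mp4_87

/-! Row 105, lemma A: good rectangles and the oscillation estimate. -/

open MeasureTheory Set Filter Topology

namespace Crest.Agent.R105.Mp_87

theorem cs_line {S : Set (ℝ × ℝ)} {X : ℝ × ℝ → ℝ} (hX : MemLp X 2 (volume.restrict S))
    (hfin : volume S ≠ ⊤) :
    ∫ p in S, |X p| ≤ Real.sqrt (volume S).toReal * Real.sqrt (∫ p in S, X p ^ 2) := by
  have : IsFiniteMeasure ((volume : Measure (ℝ × ℝ)).restrict S) :=
    ⟨by rw [Measure.restrict_apply_univ]; exact lt_top_iff_ne_top.mpr hfin⟩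
  have h1 : MemLp (fun _ : ℝ × ℝ => (1 : ℝ)) 2 (volume.restrict S) := memLp_const 1
  have h3 := integral_mul_norm_le_Lp_mul_Lq (μ := volume.restrict S) (f := fun _ => (1 : ℝ)) (g := X)
      (p := 2) (q := 2) Real.HolderConjugate.two_two (by simpa using h1) (by simpa using hX)
  have e1 : ∫ p in S, |X p| = ∫ p in S, ‖(1 : ℝ)‖ * ‖X p‖ := by
    congr 1; ext p; simp
  rw [e1]
  refine h3.trans (le_of_eq ?_)
  rw [Real.sqrt_eq_rpow, Real.sqrt_eq_rpow]
  congr 2
  · simp [Measure.real]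
  · congr 1; ext p; simp

/-- a good vertical line in a strip of width `r`, height `4 r`. -/
theorem exists_line_x {X : ℝ × ℝ → ℝ} (hX : MemLp X 2 (volume : Measure (ℝ × ℝ)))
    {α γ r : ℝ} (hr : 0 < r) {P : ℝ → Prop} (hP : ∀ᵐ x, x ∈ Ioo α (α + r) → P x) :
    ∃ x ∈ Ioo α (α + r), P x ∧ ∫ t in Ioo γ (γ + 4 * r), |X (x, t)| ≤
      2 * Real.sqrt (∫ p in Rc α (α + r) γ (γ + 4 * r), X p ^ 2) := by
  set S := Rc α (α + r) γ (γ + 4 * r) with hS
  have hvol : volume S = ENNReal.ofReal (4 * r ^ 2) := by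
    rw [hS, Rc, Measure.volume_eq_prod, Measure.prod_prod, Real.volume_Ioo, Real.volume_Ioo,
      ← ENNReal.ofReal_mul (by linarith)]
    congr 1; ring
  have hfin : volume S ≠ ⊤ := by rw [hvol]; exact ENNReal.ofReal_ne_top
  have hcs := cs_line (hX.restrict S) hfin
  have hsq : Real.sqrt (volume S).toReal = 2 * r := by
    rw [hvol, ENNReal.toReal_ofReal (by positivity), show 4 * r ^ 2 = (2 * r) ^ 2 by ring,
      Real.sqrt_sq (by positivity)]
  rw [hsq] at hcs
  have : IsFiniteMeasure ((volume : Measure (ℝ × ℝ)).restrict S) :=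
    ⟨by rw [Measure.restrict_apply_univ]; exact lt_top_iff_ne_top.mpr hfin⟩
  have hint : Integrable (fun p => |X p|) ((volume : Measure (ℝ × ℝ)).restrict S) :=
    ((hX.restrict S).integrable (by norm_num)).abs
  rw [hS, restrict_Rc] at hint
  have hfub : ∫ p in S, |X p| = ∫ x in Ioo α (α + r), ∫ t in Ioo γ (γ + 4 * r), |X (x, t)| := by
    rw [hS, restrict_Rc]
    exact integral_prod _ hint
  have hint2 : Integrable (fun x => ∫ t in Ioo γ (γ + 4 * r), |X (x, t)|)
      ((volume : Measure ℝ).restrict (Ioo α (α + r))) := hint.integral_prod_left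
  have hm0 : (volume : Measure ℝ).restrict (Ioo α (α + r)) ≠ 0 := by
    intro h0
    have h1 := congrArg (fun m : Measure ℝ => m univ) h0
    simp only [Measure.restrict_apply_univ, Real.volume_Ioo, Measure.coe_zero, Pi.zero_apply] at h1
    rw [ENNReal.ofReal_eq_zero] at h1
    linarith
  have hfin1 : IsFiniteMeasure ((volume : Measure ℝ).restrict (Ioo α (α + r))) :=
    ⟨by rw [Measure.restrict_apply_univ, Real.volume_Ioo]; exact ENNReal.ofReal_lt_top⟩
  have hPr : ((volume : Measure ℝ).restrict (Ioo α (α + r))) {x | ¬ (x ∈ Ioo α (α + r) ∧ P x)} = 0 := by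
    have : ∀ᵐ x ∂((volume : Measure ℝ).restrict (Ioo α (α + r))), x ∈ Ioo α (α + r) ∧ P x := by
      rw [ae_restrict_iff' measurableSet_Ioo]
      filter_upwards [hP] with x hx hxI
      exact ⟨hxI, hx hxI⟩
    exact ae_iff.mp this
  obtain ⟨x, hxN, hxle⟩ := exists_notMem_null_le_average hm0 hint2 hPr
  simp only [mem_ofPred_eq, not_not] at hxN
  refine ⟨x, hxN.1, hxN.2, hxle.trans ?_⟩
  rw [average_eq, ← hfub]
  have hreal : ((volume : Measure ℝ).restrict (Ioo α (α + r))).real univ = r := by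
    rw [Measure.real, Measure.restrict_apply_univ, Real.volume_Ioo, ENNReal.toReal_ofReal (by linarith)]
    ring
  rw [hreal, smul_eq_mul]
  calc r⁻¹ * ∫ p in S, |X p| ≤ r⁻¹ * (2 * r * Real.sqrt (∫ p in S, X p ^ 2)) :=
        mul_le_mul_of_nonneg_left hcs (by positivity)
    _ = 2 * Real.sqrt (∫ p in S, X p ^ 2) := by field_simp

theorem setIntegral_swap {X : ℝ × ℝ → ℝ} {x0 x1 y0 y1 : ℝ} :
    ∫ p in Rc y0 y1 x0 x1, X p.swap = ∫ p in Rc x0 x1 y0 y1, X p := by
  rw [restrict_Rc, restrict_Rc]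
  exact integral_prod_swap X

/-- a good horizontal line in a strip of height `r`, width `4 r`. -/
theorem exists_line_y {X : ℝ × ℝ → ℝ} (hX : MemLp X 2 (volume : Measure (ℝ × ℝ)))
    {α γ r : ℝ} (hr : 0 < r) {P : ℝ → Prop} (hP : ∀ᵐ y, y ∈ Ioo α (α + r) → P y) :
    ∃ y ∈ Ioo α (α + r), P y ∧ ∫ s in Ioo γ (γ + 4 * r), |X (s, y)| ≤
      2 * Real.sqrt (∫ p in Rc γ (γ + 4 * r) α (α + r), X p ^ 2) := by
  have h1 : MemLp (fun p : ℝ × ℝ => X p.swap) 2 (volume : Measure (ℝ × ℝ)) := by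
    rw [Measure.volume_eq_prod] at hX ⊢
    exact hX.comp_measurePreserving Measure.measurePreserving_swap
  obtain ⟨y, hy, hPy, hle⟩ := exists_line_x h1 hr hP (γ := γ)
  refine ⟨y, hy, hPy, ?_⟩
  rw [setIntegral_swap (X := fun p => X p ^ 2)] at hle
  exact hle

end Crest.Agent.R105.Mp_87
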