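import Crest.Agent.R105.Mp5_87

/-! Row 105, lemma A: oscillation estimate for the stream function. -/

open MeasureTheory Set Filter Topology

namespace Crest.Agent.R105.Mp_87

variable {a b c B σ : ℝ} {X1 X2 ψ Ψ : ℝ × ℝ → ℝ} {μ : Measure (ℝ × ℝ)}

theorem Lines.neg (L : Lines a b c B σ X1 X2 μ ψ Ψ) :
    Lines a b c B (-σ) (fun p => -X1 p) (fun p => -X2 p) μ (fun p => -ψ p) (fun p => -Ψ p) where
  mψ := L.mψ.neg
  mΨ := L.mΨ.neg
  L1 := L.L1.neg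
  L2 := L.L2.neg
  strip := by intro p hp; rw [L.strip p hp]; ring
  V := by
    filter_upwards [L.V] with x hx hxI y y' hy hyy'
    rw [intervalIntegral.integral_neg, ← hx hxI y y' hy hyy']; ring
  H := by
    filter_upwards [L.H] with y hy hc x hx x' hx' hxx'
    rw [intervalIntegral.integral_neg]
    have := hy hc x hx x' hx' hxx'
    linarith
  E := by
    filter_upwards [L.E] with p hp h1 h2
    rw [hp h1 h2]
  S := by
    filter_upwards [L.S] with y hy hc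
    have : {q : ℝ × ℝ | q.2 < y ∧ μ {r | r.1 = q.1 ∧ r.2 < y} = 0 ∧
          -Ψ (q.1, y) ≠ - -σ * lam μ q.1} =
        {q : ℝ × ℝ | q.2 < y ∧ μ {r | r.1 = q.1 ∧ r.2 < y} = 0 ∧
          Ψ (q.1, y) ≠ -σ * lam μ q.1} := by
      ext q
      simp only [mem_ofPred_eq, ne_eq, and_congr_right_iff]
      intro _ _
      constructor
      · intro h h'; apply h; rw [h']; ring
      · intro h h'; apply h; linarith
    rw [this]; exact hy hc

theorem GoodX.neg {x : ℝ} (G : GoodX a b c X1 ψ Ψ x) :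
    GoodX a b c (fun p => -X1 p) (fun p => -ψ p) (fun p => -Ψ p) x where
  int := fun y y' => (G.int y y').neg
  V := by
    intro y y' hy hyy'
    rw [intervalIntegral.integral_neg, ← G.V y y' hy hyy']; ring
  E := by
    filter_upwards [G.E] with y hy h1
    rw [hy h1]

theorem GoodY.neg {y : ℝ} (G : GoodY a b σ X2 μ ψ Ψ y) :
    GoodY a b (-σ) (fun p => -X2 p) μ (fun p => -ψ p) (fun p => -Ψ p) y where
  int := fun y y' => (G.int y y').neg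
  H := by
    intro x hx x' hx' hxx'
    rw [intervalIntegral.integral_neg]
    have := G.H x hx x' hx' hxx'
    linarith
  E := by
    filter_upwards [G.E] with y hy h1
    rw [hy h1]
  S := by
    have : {q : ℝ × ℝ | q.2 < y ∧ μ {r | r.1 = q.1 ∧ r.2 < y} = 0 ∧
          -Ψ (q.1, y) ≠ - -σ * lam μ q.1} =
        {q : ℝ × ℝ | q.2 < y ∧ μ {r | r.1 = q.1 ∧ r.2 < y} = 0 ∧
          Ψ (q.1, y) ≠ -σ * lam μ q.1} := by
      ext q
      simp only [mem_ofPred_eq, ne_eq, and_congr_right_iff]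
      intro _ _
      constructor
      · intro h h'; apply h; rw [h']; ring
      · intro h h'; apply h; linarith
    rw [this]; exact G.S

theorem GoodR.neg {x0 x1 y0 y1 : ℝ} (R : GoodR a b c σ X1 X2 μ ψ Ψ x0 x1 y0 y1) :
    GoodR a b c (-σ) (fun p => -X1 p) (fun p => -X2 p) μ (fun p => -ψ p) (fun p => -Ψ p)
      x0 x1 y0 y1 where
  ha := R.ha
  hx := R.hx
  hb := R.hb
  hc := R.hc
  hy := R.hy
  gx0 := R.gx0.neg
  gx1 := R.gx1.neg
  gy0 := R.gy0.neg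
  gy1 := R.gy1.neg
  hat := R.hat

/-- the maximum principle holds for all good rectangles whose sides have the a.e. properties
`PX` (vertical sides) and `PY` (horizontal sides), and which satisfy `PR` (e.g. avoid atomic
hairs) -/
def MPat (a b c σ : ℝ) (X1 X2 : ℝ × ℝ → ℝ) (μ : Measure (ℝ × ℝ)) (ψ Ψ : ℝ × ℝ → ℝ)
    (PX PY : ℝ → Prop) (PR : ℝ → ℝ → ℝ → ℝ → Prop) : Prop :=
  ∀ x0 x1 y0 y1 M, GoodR a b c σ X1 X2 μ ψ Ψ x0 x1 y0 y1 → PX x0 → PX x1 → PY y0 → PY y1 →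
    PR x0 x1 y0 y1 → BdLe M ψ Ψ x0 x1 y0 y1 → ∀ᵐ p ∂((volume : Measure (ℝ × ℝ)).restrict (Rc x0 x1 y0 y1)), ψ p ≤ M

theorem abs_ii_le {f : ℝ → ℝ} {γ δ y y' : ℝ} (hf : ∀ y y', IntervalIntegrable f volume y y')
    (hγ : γ < y) (hyy' : y ≤ y') (hδ : y' < δ) :
    |∫ t in y..y', f t| ≤ ∫ t in Ioo γ δ, |f t| := by
  have h1 : |∫ t in y..y', f t| ≤ ∫ t in y..y', |f t| :=
    intervalIntegral.abs_integral_le_integral_abs hyy'
  refine h1.trans ?_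
  rw [intervalIntegral.integral_of_le hyy']
  have hint : IntegrableOn (fun t => |f t|) (Ioo γ δ) := by
    have := (hf γ δ).abs
    rw [intervalIntegrable_iff, uIoc_of_le (by linarith)] at this
    exact this.mono_set Ioo_subset_Ioc_self
  apply setIntegral_mono_set hint
  · filter_upwards with t using abs_nonneg _
  · exact LE.le.eventuallyLE (fun t ht => ⟨hγ.trans ht.1, lt_of_le_of_lt ht.2 hδ⟩)

theorem sqrt_int_mono {X : ℝ × ℝ → ℝ} (hX : MemLp X 2 (volume : Measure (ℝ × ℝ)))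
    {S T : Set (ℝ × ℝ)} (hST : S ⊆ T) :
    Real.sqrt (∫ p in S, X p ^ 2) ≤ Real.sqrt (∫ p in T, X p ^ 2) := by
  apply Real.sqrt_le_sqrt
  apply setIntegral_mono_set hX.integrable_sq.integrableOn
  · filter_upwards with t using sq_nonneg _
  · exact LE.le.eventuallyLE hST

/-- **Oscillation estimate.** -/
theorem osc [IsFiniteMeasure μ] (L : Lines a b c B σ X1 X2 μ ψ Ψ) (hσ : |σ| = 1)
    {PX PY : ℝ → Prop} {PR : ℝ → ℝ → ℝ → ℝ → Prop} (hPX : ∀ᵐ x, x ∈ Ioo a b → PX x) (hPY : ∀ᵐ y, c < y → PY y)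
    (mp : MPat a b c σ X1 X2 μ ψ Ψ PX PY PR)
    (mn : MPat a b c (-σ) (fun p => -X1 p) (fun p => -X2 p) μ (fun p => -ψ p) (fun p => -Ψ p) PX PY PR)
    {u v r : ℝ} (hr : 0 < r) (ha : a < u - 2 * r) (hb : u + 2 * r < b) (hc : c < v - 2 * r)
    (hat : ∀ x ∈ Icc (u - 2 * r) (u + 2 * r), μ {q | q.1 = x ∧ q.2 < v + 2 * r} = 0)
    (hPR : ∀ x0 x1 y0 y1, u - 2 * r < x0 → x0 < x1 → x1 < u + 2 * r → v - 2 * r < y0 → y0 < y1 →
      y1 < v + 2 * r → PR x0 x1 y0 y1) :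
    ∃ m0 : ℝ, ∀ᵐ p ∂((volume : Measure (ℝ × ℝ)).restrict (Rc (u - r) (u + r) (v - r) (v + r))),
      |ψ p - m0| ≤ 4 * Real.sqrt (∫ p in Rc (u - 2 * r) (u + 2 * r) (v - 2 * r) (v + 2 * r), X1 p ^ 2)
        + 4 * Real.sqrt (∫ p in Rc (u - 2 * r) (u + 2 * r) (v - 2 * r) (v + 2 * r), X2 p ^ 2)
        + (μ {q | q.1 ∈ Ico (u - 2 * r) (u + 2 * r) ∧ q.2 < v + 2 * r}).toReal := by
  set Q := Rc (u - 2 * r) (u + 2 * r) (v - 2 * r) (v + 2 * r) with hQ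
  set s1 := Real.sqrt (∫ p in Q, X1 p ^ 2) with hs1
  set s2 := Real.sqrt (∫ p in Q, X2 p ^ 2) with hs2
  set m1 := (μ {q | q.1 ∈ Ico (u - 2 * r) (u + 2 * r) ∧ q.2 < v + 2 * r}).toReal with hm1
  -- vertical sides
  have hgx : ∀ᵐ x, x ∈ Ioo a b → GoodX a b c X1 ψ Ψ x ∧ PX x := by
    filter_upwards [L.goodX, hPX] with x h1 h2 hx using ⟨h1 hx, h2 hx⟩
  have hsubx : ∀ α, u - 2 * r ≤ α → α + r ≤ u + 2 * r →
      Rc α (α + r) (v - 2 * r) (v - 2 * r + 4 * r) ⊆ Q := by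
    intro α h1 h2 p hp
    exact ⟨⟨lt_of_le_of_lt h1 hp.1.1, lt_of_lt_of_le hp.1.2 h2⟩, ⟨hp.2.1, by linarith [hp.2.2]⟩⟩
  have hsuby : ∀ α, v - 2 * r ≤ α → α + r ≤ v + 2 * r →
      Rc (u - 2 * r) (u - 2 * r + 4 * r) α (α + r) ⊆ Q := by
    intro α h1 h2 p hp
    exact ⟨⟨hp.1.1, by linarith [hp.1.2]⟩, ⟨lt_of_le_of_lt h1 hp.2.1, lt_of_lt_of_le hp.2.2 h2⟩⟩
  obtain ⟨x0, hx0, ⟨gx0, px0⟩, A0⟩ := exists_line_x L.L1 (α := u - 2 * r) (γ := v - 2 * r) hr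
    (P := fun x => GoodX a b c X1 ψ Ψ x ∧ PX x) (by
      filter_upwards [hgx] with x h hx
      exact h ⟨by linarith [hx.1], by linarith [hx.2]⟩)
  obtain ⟨x1, hx1, ⟨gx1, px1⟩, A1⟩ := exists_line_x L.L1 (α := u + r) (γ := v - 2 * r) hr
    (P := fun x => GoodX a b c X1 ψ Ψ x ∧ PX x) (by
      filter_upwards [hgx] with x h hx
      exact h ⟨by linarith [hx.1], by linarith [hx.2]⟩)
  have hgy : ∀ᵐ y, c < y → GoodY a b σ X2 μ ψ Ψ y ∧ PY y ∧ Ψ (x0, y) = ψ (x0, y) ∧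
      Ψ (x1, y) = ψ (x1, y) := by
    filter_upwards [L.goodY, hPY, gx0.E, gx1.E] with y h1 h2 h3 h4 hy
    exact ⟨h1 hy, h2 hy, h3 hy, h4 hy⟩
  obtain ⟨y0, hy0, ⟨gy0, py0, e00, e10⟩, B0⟩ := exists_line_y L.L2 (α := v - 2 * r)
    (γ := u - 2 * r) hr
    (P := fun y => GoodY a b σ X2 μ ψ Ψ y ∧ PY y ∧ Ψ (x0, y) = ψ (x0, y) ∧
      Ψ (x1, y) = ψ (x1, y)) (by
      filter_upwards [hgy] with x h hx
      exact h (by linarith [hx.1]))
  obtain ⟨y1, hy1, ⟨gy1, py1, e01, e11⟩, B1⟩ := exists_line_y L.L2 (α := v + r)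
    (γ := u - 2 * r) hr
    (P := fun y => GoodY a b σ X2 μ ψ Ψ y ∧ PY y ∧ Ψ (x0, y) = ψ (x0, y) ∧
      Ψ (x1, y) = ψ (x1, y)) (by
      filter_upwards [hgy] with x h hx
      exact h (by linarith [hx.1]))
  have A0' := A0.trans (mul_le_mul_of_nonneg_left
    (sqrt_int_mono L.L1 (hsubx _ (by linarith) (by linarith))) (by norm_num : (0:ℝ) ≤ 2))
  have A1' := A1.trans (mul_le_mul_of_nonneg_left
    (sqrt_int_mono L.L1 (hsubx _ (by linarith) (by linarith))) (by norm_num : (0:ℝ) ≤ 2))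
  have B0' := B0.trans (mul_le_mul_of_nonneg_left
    (sqrt_int_mono L.L2 (hsuby _ (by linarith) (by linarith))) (by norm_num : (0:ℝ) ≤ 2))
  have B1' := B1.trans (mul_le_mul_of_nonneg_left
    (sqrt_int_mono L.L2 (hsuby _ (by linarith) (by linarith))) (by norm_num : (0:ℝ) ≤ 2))
  rw [← hs1] at A0' A1'
  rw [← hs2] at B0' B1'
  have R : GoodR a b c σ X1 X2 μ ψ Ψ x0 x1 y0 y1 := by
    refine ⟨by linarith [hx0.1], by linarith [hx0.2, hx1.1], by linarith [hx1.2],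
      by linarith [hy0.1], by linarith [hy0.2, hy1.1], gx0, gx1, gy0, gy1, ?_⟩
    intro x hx
    apply measure_mono_null _ (hat x ⟨by linarith [hx.1, hx0.1], by linarith [hx.2, hx1.2]⟩)
    intro q hq
    exact ⟨hq.1, by linarith [hq.2, hy1.2]⟩
  -- variations along the sides
  have vert : ∀ x, GoodX a b c X1 ψ Ψ x → (∫ t in Ioo (v - 2 * r) (v - 2 * r + 4 * r), |X1 (x, t)| ≤ 2 * s1) →
      ∀ y ∈ Icc y0 y1, |ψ (x, y) - ψ (x, y0)| ≤ 2 * s1 := by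
    intro x gx hA y hy
    rw [gx.V y0 y (by linarith [hy0.1]) hy.1]
    refine (abs_ii_le gx.int (γ := v - 2 * r) (δ := v - 2 * r + 4 * r) (by linarith [hy0.1]) hy.1
      (by linarith [hy.2, hy1.2])).trans hA
  have hmem : ∀ x ∈ Icc x0 x1, x ∈ Ioo a b := fun x hx =>
    ⟨by linarith [hx.1, hx0.1], by linarith [hx.2, hx1.2]⟩
  have hx01 : x0 ≤ x1 := by linarith [hx0.2, hx1.1]
  have horz : ∀ y, GoodY a b σ X2 μ ψ Ψ y → y < v + 2 * r →
      (∫ s in Ioo (u - 2 * r) (u - 2 * r + 4 * r), |X2 (s, y)| ≤ 2 * s2) →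
      ∀ x ∈ Icc x0 x1, |Ψ (x, y) - Ψ (x0, y)| ≤ 2 * s2 + m1 := by
    intro y gy hyv hB x hx
    rw [gy.H x0 (hmem x0 ⟨le_refl _, hx01⟩) x (hmem x hx) hx.1]
    have h1 := (abs_ii_le gy.int (γ := u - 2 * r) (δ := u - 2 * r + 4 * r) (by linarith [hx0.1]) hx.1
      (by linarith [hx.2, hx1.2])).trans hB
    have h2 : (μ {q | q.1 ∈ Ico x0 x ∧ q.2 < y}).toReal ≤ m1 := by
      rw [hm1]
      apply ENNReal.toReal_mono (measure_ne_top _ _)
      apply measure_mono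
      intro q hq
      exact ⟨⟨by linarith [hq.1.1, hx0.1], by linarith [hq.1.2, hx.2, hx1.2]⟩, hq.2.trans hyv⟩
    have h3 : 0 ≤ (μ {q | q.1 ∈ Ico x0 x ∧ q.2 < y}).toReal := ENNReal.toReal_nonneg
    have h4 : |σ * (μ {q | q.1 ∈ Ico x0 x ∧ q.2 < y}).toReal| ≤ m1 := by
      rw [abs_mul, hσ, one_mul, abs_of_nonneg h3]; exact h2
    calc |-(∫ s in x0..x, X2 (s, y)) - σ * (μ {q | q.1 ∈ Ico x0 x ∧ q.2 < y}).toReal|
        ≤ |-(∫ s in x0..x, X2 (s, y))| + |σ * (μ {q | q.1 ∈ Ico x0 x ∧ q.2 < y}).toReal| := abs_sub _ _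
      _ ≤ 2 * s2 + m1 := by rw [abs_neg]; exact add_le_add h1 h4
  have l1 := vert x0 gx0 A0'
  have l2 := vert x1 gx1 A1'
  have l3 := horz y0 gy0 (by linarith [hy0.2]) B0'
  have l4 := horz y1 gy1 (by linarith [hy1.2]) B1'
  set m0 := ψ (x0, y0) with hm0
  have hs1n : 0 ≤ s1 := Real.sqrt_nonneg _
  have hs2n : 0 ≤ s2 := Real.sqrt_nonneg _
  have hm1n : 0 ≤ m1 := ENNReal.toReal_nonneg
  have hy01 : y0 ≤ y1 := by linarith [hy0.2, hy1.1]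
  -- corner values
  have c10 : |ψ (x1, y0) - m0| ≤ 2 * s2 + m1 := by
    have := l3 x1 ⟨hx01, le_refl _⟩
    rwa [e10, e00] at this
  have c01 : |ψ (x0, y1) - m0| ≤ 2 * s1 := l1 y1 ⟨hy01, le_refl _⟩
  have bl : ∀ y ∈ Icc y0 y1, |ψ (x0, y) - m0| ≤ 4 * s1 + 4 * s2 + m1 := fun y hy =>
    (l1 y hy).trans (by linarith)
  have br : ∀ y ∈ Icc y0 y1, |ψ (x1, y) - m0| ≤ 4 * s1 + 4 * s2 + m1 := by
    intro y hy
    have h1 := l2 y hy
    rw [abs_le] at h1 c10 ⊢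
    constructor <;> linarith [h1.1, h1.2, c10.1, c10.2]
  have bd : ∀ x ∈ Icc x0 x1, |Ψ (x, y0) - m0| ≤ 4 * s1 + 4 * s2 + m1 := by
    intro x hx
    have h1 := l3 x hx
    rw [e00] at h1
    exact h1.trans (by linarith)
  have bu : ∀ x ∈ Icc x0 x1, |Ψ (x, y1) - m0| ≤ 4 * s1 + 4 * s2 + m1 := by
    intro x hx
    have h1 := l4 x hx
    rw [e01] at h1
    rw [abs_le] at h1 c01 ⊢
    constructor <;> linarith [h1.1, h1.2, c01.1, c01.2]
  have hM : BdLe (m0 + (4 * s1 + 4 * s2 + m1)) ψ Ψ x0 x1 y0 y1 := by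
    refine ⟨fun y hy => ?_, fun y hy => ?_, fun x hx => ?_, fun x hx => ?_⟩
    · linarith [(abs_le.mp (bl y hy)).2]
    · linarith [(abs_le.mp (br y hy)).2]
    · linarith [(abs_le.mp (bd x hx)).2]
    · linarith [(abs_le.mp (bu x hx)).2]
  have hN : BdLe (-m0 + (4 * s1 + 4 * s2 + m1)) (fun p => -ψ p) (fun p => -Ψ p) x0 x1 y0 y1 := by
    refine ⟨fun y hy => ?_, fun y hy => ?_, fun x hx => ?_, fun x hx => ?_⟩
    · show -ψ (x0, y) ≤ _; linarith [(abs_le.mp (bl y hy)).1]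
    · show -ψ (x1, y) ≤ _; linarith [(abs_le.mp (br y hy)).1]
    · show -Ψ (x, y0) ≤ _; linarith [(abs_le.mp (bd x hx)).1]
    · show -Ψ (x, y1) ≤ _; linarith [(abs_le.mp (bu x hx)).1]
  have hpr : PR x0 x1 y0 y1 := hPR x0 x1 y0 y1 hx0.1 R.hx (by linarith [hx1.2]) hy0.1 R.hy
    (by linarith [hy1.2])
  have f1 := mp x0 x1 y0 y1 _ R px0 px1 py0 py1 hpr hM
  have f2 := mn x0 x1 y0 y1 _ R.neg px0 px1 py0 py1 hpr hN
  refine ⟨m0, ?_⟩
  have hsub : Rc (u - r) (u + r) (v - r) (v + r) ⊆ Rc x0 x1 y0 y1 := by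
    intro p hp
    exact ⟨⟨by linarith [hp.1.1, hx0.2], by linarith [hp.1.2, hx1.1]⟩,
      ⟨by linarith [hp.2.1, hy0.2], by linarith [hp.2.2, hy1.1]⟩⟩
  filter_upwards [ae_restrict_of_ae_restrict_of_subset hsub f1,
    ae_restrict_of_ae_restrict_of_subset hsub f2] with p g1 g2
  rw [abs_le]
  constructor <;> linarith

end Crest.Agent.R105.Mp_87
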