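import Mathlib

/-! Row 105, S0138, NI-10: MOLLQ, part A: the mean `H ε G z = ε⁻² ∫_{box z 3ε} G` of the gradient of a
function with accumulating squares is square integrable on the set `NQ` of points that are not deep
inside a big square. -/

open MeasureTheory Set Metric Filter Topology
open scoped ENNReal Function

namespace Crest.Agent.R105.Mq_347

noncomputable section

variable {ι : Type*}

theorem vol_cb (z : ℝ × ℝ) {r : ℝ} (hr : 0 ≤ r) :
    volume (closedBall z r) = ENNReal.ofReal (4 * r ^ 2) := by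
  rw [← closedBall_prod_same z.1 z.2 r, Measure.volume_eq_prod, Measure.prod_prod,
    Real.volume_closedBall, Real.volume_closedBall, ← ENNReal.ofReal_mul (by linarith)]
  congr 1; ring

/-- Tonelli: the integral of `z ↦ μ (closedBall z r)`. -/
theorem lint_cb (μ : Measure (ℝ × ℝ)) [SFinite μ] {r : ℝ} (hr : 0 ≤ r) :
    ∫⁻ z : ℝ × ℝ, μ (closedBall z r) = ENNReal.ofReal (4 * r ^ 2) * μ univ := by
  have hS : MeasurableSet {p : (ℝ × ℝ) × (ℝ × ℝ) | dist p.2 p.1 ≤ r} :=
    (isClosed_le (continuous_snd.dist continuous_fst) continuous_const).measurableSet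
  have h1 : ∀ z : ℝ × ℝ, μ (closedBall z r) =
      ∫⁻ w, ({p : (ℝ × ℝ) × (ℝ × ℝ) | dist p.2 p.1 ≤ r}.indicator (fun _ => (1 : ℝ≥0∞))) (z, w)
        ∂μ := by
    intro z
    have : (fun w => ({p : (ℝ × ℝ) × (ℝ × ℝ) | dist p.2 p.1 ≤ r}.indicator
        (fun _ => (1 : ℝ≥0∞))) (z, w)) = (closedBall z r).indicator (fun _ => 1) := by
      funext w
      simp [indicator, mem_closedBall]
    rw [this, lintegral_indicator isClosed_closedBall.measurableSet]
    simp
  simp_rw [h1]
  rw [lintegral_lintegral_swap]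
  · have h2 : ∀ w : ℝ × ℝ, ∫⁻ z : ℝ × ℝ, ({p : (ℝ × ℝ) × (ℝ × ℝ) | dist p.2 p.1 ≤ r}.indicator
        (fun _ => (1 : ℝ≥0∞))) (z, w) = ENNReal.ofReal (4 * r ^ 2) := by
      intro w
      have : (fun z => ({p : (ℝ × ℝ) × (ℝ × ℝ) | dist p.2 p.1 ≤ r}.indicator
          (fun _ => (1 : ℝ≥0∞))) (z, w)) = (closedBall w r).indicator (fun _ => 1) := by
        funext z
        simp [indicator, mem_closedBall, dist_comm]
      rw [this, lintegral_indicator isClosed_closedBall.measurableSet]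
      simp [vol_cb w hr]
    simp_rw [h2]
    rw [lintegral_const]
  · exact (measurable_const.indicator hS).aemeasurable

/-- `ε⁻² ∫_{box z 3ε} G` -/
def H (ε : ℝ) (G : ℝ × ℝ → ℝ≥0∞) (z : ℝ × ℝ) : ℝ≥0∞ :=
  (ENNReal.ofReal (ε ^ 2))⁻¹ * ∫⁻ u in closedBall z (3 * ε), G u

/-- points that are not deep inside a big square -/
def NQ (c : ι → ℝ × ℝ) (h : ι → ℝ) (ε : ℝ) : Set (ℝ × ℝ) :=
  {z | ∀ i, ε < h i → h i - 2 * ε ≤ dist z (c i)}

theorem measurableSet_NQ [Countable ι] (c : ι → ℝ × ℝ) (h : ι → ℝ) (ε : ℝ) :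
    MeasurableSet (NQ c h ε) := by
  have : NQ c h ε = ⋂ i, {z | ε < h i → h i - 2 * ε ≤ dist z (c i)} := by
    ext z; simp [NQ]
  rw [this]
  refine MeasurableSet.iInter fun i => ?_
  by_cases hi : ε < h i
  · simp only [hi, true_imp_iff]
    exact (isClosed_le continuous_const (continuous_id.dist continuous_const)).measurableSet
  · simp [hi]

theorem measurable_cb {G : ℝ × ℝ → ℝ≥0∞} (hG : Measurable G) (r : ℝ) :
    Measurable fun z : ℝ × ℝ => ∫⁻ u in closedBall z r, G u := by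
  have hS : MeasurableSet {p : (ℝ × ℝ) × (ℝ × ℝ) | dist p.2 p.1 ≤ r} :=
    (isClosed_le (continuous_snd.dist continuous_fst) continuous_const).measurableSet
  have h1 : (fun z : ℝ × ℝ => ∫⁻ u in closedBall z r, G u) = fun z =>
      ∫⁻ w, ({p : (ℝ × ℝ) × (ℝ × ℝ) | dist p.2 p.1 ≤ r}.indicator (fun p => G p.2)) (z, w) := by
    funext z
    rw [← lintegral_indicator isClosed_closedBall.measurableSet]
    refine lintegral_congr fun w => ?_
    simp [indicator, mem_closedBall]
  rw [h1]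
  exact Measurable.lintegral_prod_right' ((hG.comp measurable_snd).indicator hS)

theorem measurable_H {G : ℝ × ℝ → ℝ≥0∞} (hG : Measurable G) (ε : ℝ) : Measurable (H ε G) :=
  (measurable_cb hG _).const_mul _

/-- Cauchy-Schwarz -/
theorem cs {α : Type*} [MeasurableSpace α] (μ : Measure α) {f g : α → ℝ≥0∞}
    (hf : AEMeasurable f μ) (hg : AEMeasurable g μ) :
    (∫⁻ x, f x * g x ∂μ) ^ 2 ≤ (∫⁻ x, f x ^ 2 ∂μ) * ∫⁻ x, g x ^ 2 ∂μ := by
  have h := ENNReal.lintegral_mul_le_Lp_mul_Lq μ (Real.HolderConjugate.two_two) hf hg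
  have e : ∀ x : ℝ≥0∞, (x ^ (1 / (2 : ℝ))) ^ 2 = x := by
    intro x
    rw [← ENNReal.rpow_natCast, ← ENNReal.rpow_mul]; norm_num
  have h2 : ∀ k : α → ℝ≥0∞, ∫⁻ x, k x ^ (2 : ℝ) ∂μ = ∫⁻ x, k x ^ 2 ∂μ := by
    intro k; refine lintegral_congr fun x => ?_
    rw [← ENNReal.rpow_natCast]; norm_num
  calc (∫⁻ x, f x * g x ∂μ) ^ 2 = (∫⁻ x, (f * g) x ∂μ) ^ 2 := rfl
    _ ≤ ((∫⁻ x, f x ^ (2 : ℝ) ∂μ) ^ (1 / (2 : ℝ)) * (∫⁻ x, g x ^ (2 : ℝ) ∂μ) ^ (1 / (2 : ℝ))) ^ 2 := by
        gcongr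
    _ = _ := by rw [mul_pow, e, e, h2, h2]

theorem cs_one {α : Type*} [MeasurableSpace α] (μ : Measure α) {f : α → ℝ≥0∞}
    (hf : AEMeasurable f μ) : (∫⁻ x, f x ∂μ) ^ 2 ≤ μ univ * ∫⁻ x, f x ^ 2 ∂μ := by
  have h := cs μ (f := fun _ => 1) aemeasurable_const hf
  simpa using h

theorem cs_tsum {f g : ι → ℝ≥0∞} : (∑' i, f i * g i) ^ 2 ≤ (∑' i, f i ^ 2) * ∑' i, g i ^ 2 := by
  let _ : MeasurableSpace ι := ⊤
  have h := cs (Measure.count : Measure ι) (f := f) (g := g)
    measurable_from_top.aemeasurable measurable_from_top.aemeasurable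
  simpa [lintegral_count] using h

/-- (A0) the part of `G` on `V` -/
theorem A0 {G : ℝ × ℝ → ℝ≥0∞} (hG : Measurable G) {ε : ℝ} (hε : 0 < ε) :
    ∫⁻ z, H ε G z ^ 2 ≤ 1296 * ∫⁻ z, G z ^ 2 := by
  have h0 : ENNReal.ofReal (ε ^ 2) ≠ 0 := by simp; positivity
  have h1 : ENNReal.ofReal (ε ^ 2) ≠ ∞ := ENNReal.ofReal_ne_top
  have hv : ENNReal.ofReal (4 * (3 * ε) ^ 2) = 36 * ENNReal.ofReal (ε ^ 2) := by
    rw [show 4 * (3 * ε) ^ 2 = 36 * ε ^ 2 by ring, ENNReal.ofReal_mul (by norm_num)]; norm_num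
  have key : ∀ z : ℝ × ℝ, H ε G z ^ 2 ≤
      36 * (ENNReal.ofReal (ε ^ 2))⁻¹ * (volume.withDensity fun u => G u ^ 2) (closedBall z (3 * ε)) := by
    intro z
    have h2 := cs_one (volume.restrict (closedBall z (3 * ε))) (f := G) hG.aemeasurable
    rw [Measure.restrict_apply_univ, vol_cb z (by linarith), hv] at h2
    rw [withDensity_apply _ isClosed_closedBall.measurableSet, H, mul_pow]
    calc (ENNReal.ofReal (ε ^ 2))⁻¹ ^ 2 * (∫⁻ u in closedBall z (3 * ε), G u) ^ 2
        ≤ (ENNReal.ofReal (ε ^ 2))⁻¹ ^ 2 *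
          (36 * ENNReal.ofReal (ε ^ 2) * ∫⁻ u in closedBall z (3 * ε), G u ^ 2) := by gcongr
      _ = ((ENNReal.ofReal (ε ^ 2))⁻¹ * ENNReal.ofReal (ε ^ 2)) * (36 * (ENNReal.ofReal (ε ^ 2))⁻¹ *
          ∫⁻ u in closedBall z (3 * ε), G u ^ 2) := by ring
      _ = _ := by rw [ENNReal.inv_mul_cancel h0 h1, one_mul]
  calc ∫⁻ z, H ε G z ^ 2 ≤ ∫⁻ z : ℝ × ℝ, 36 * (ENNReal.ofReal (ε ^ 2))⁻¹ *
        (volume.withDensity fun u => G u ^ 2) (closedBall z (3 * ε)) := lintegral_mono key
    _ = 36 * (ENNReal.ofReal (ε ^ 2))⁻¹ * (ENNReal.ofReal (4 * (3 * ε) ^ 2) *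
        (volume.withDensity fun u : ℝ × ℝ => G u ^ 2) univ) := by
        rw [lintegral_const_mul', lint_cb _ (by linarith)]
        exact ENNReal.mul_ne_top (by norm_num) (ENNReal.inv_ne_top.mpr h0)
    _ = ((ENNReal.ofReal (ε ^ 2))⁻¹ * ENNReal.ofReal (ε ^ 2)) * (36 * 36 *
        (volume.withDensity fun u : ℝ × ℝ => G u ^ 2) univ) := by rw [hv]; ring
    _ = 1296 * ∫⁻ z, G z ^ 2 := by
        rw [ENNReal.inv_mul_cancel h0 h1, one_mul, withDensity_apply _ MeasurableSet.univ,
          Measure.restrict_univ]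
        norm_num

theorem sq3 (a b c : ℝ≥0∞) : (a + b + c) ^ 2 ≤ 3 * (a ^ 2 + b ^ 2 + c ^ 2) := by
  have h := cs_tsum (ι := Fin 3) (f := fun _ => 1) (g := ![a, b, c])
  simp only [tsum_fintype, Fin.sum_univ_three] at h
  simpa [mul_add, show (1 : ℝ≥0∞) + 1 + 1 = 3 by norm_num] using h

/-- the flow bound through the square `i`: part of `G` in `Q i`, seen from a point that is at depth
at most `r` -/
def LF (c : ι → ℝ × ℝ) (h : ι → ℝ) (μ : ι → Measure (ℝ × ℝ)) (G : ℝ × ℝ → ℝ≥0∞) : Prop :=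
  ∀ i z r, 0 < r → h i - r ≤ dist z (c i) →
    ∫⁻ u in closedBall z (3 * r) ∩ closedBall (c i) (h i), G u ≤
      ENNReal.ofReal (12 * r) * μ i (closedBall z (15 * r))

variable {c : ι → ℝ × ℝ} {h : ι → ℝ} {μ : ι → Measure (ℝ × ℝ)} {G : ℝ × ℝ → ℝ≥0∞} {ε : ℝ}

/-- (A1) small squares, pointwise -/
theorem A1_pt [Countable ι] (hh : ∀ i, 0 < h i)
    (hd : Pairwise (Disjoint on fun i => closedBall (c i) (h i))) (hLF : LF c h μ G)
    (hε : 0 < ε) (z : ℝ × ℝ) :
    (∑' i, ∫⁻ u in closedBall z (3 * ε) ∩ (if h i ≤ ε then closedBall (c i) (h i) else ∅), G u) ^ 2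
      ≤ ENNReal.ofReal (3600 * ε ^ 2) *
        ∑' i, (closedBall (c i) (4 * ε)).indicator (fun _ => μ i univ ^ 2) z := by
  classical
  set I : Set ι := {i | h i ≤ ε ∧ dist z (c i) ≤ 4 * ε} with hI
  have h1 : ∀ i, ∫⁻ u in closedBall z (3 * ε) ∩ (if h i ≤ ε then closedBall (c i) (h i) else ∅), G u
      ≤ I.indicator (fun i => ENNReal.ofReal (12 * h i)) i *
        I.indicator (fun i => μ i univ) i := by
    intro i
    by_cases hi : h i ≤ ε
    · rw [if_pos hi]
      by_cases hz : dist z (c i) ≤ 4 * ε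
      · have hiI : i ∈ I := ⟨hi, hz⟩
        rw [indicator_of_mem hiI, indicator_of_mem hiI]
        calc ∫⁻ u in closedBall z (3 * ε) ∩ closedBall (c i) (h i), G u
            ≤ ∫⁻ u in closedBall (c i) (3 * h i) ∩ closedBall (c i) (h i), G u := by
              refine lintegral_mono_set ?_
              intro u hu
              exact ⟨closedBall_subset_closedBall (by linarith [hh i]) hu.2, hu.2⟩
          _ ≤ ENNReal.ofReal (12 * h i) * μ i (closedBall (c i) (15 * h i)) :=
              hLF i (c i) (h i) (hh i) (by simp)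
          _ ≤ _ := by gcongr; exact subset_univ _
      · have : closedBall z (3 * ε) ∩ closedBall (c i) (h i) = ∅ := by
          ext u
          simp only [mem_inter_iff, mem_closedBall, mem_empty_iff_false, iff_false, not_and, not_le]
          intro hu
          by_contra hc
          push Not at hc
          apply hz
          calc dist z (c i) ≤ dist z u + dist u (c i) := dist_triangle _ _ _
            _ ≤ 3 * ε + ε := by rw [dist_comm z u]; linarith
            _ = 4 * ε := by ring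
        rw [this]; simp
    · rw [if_neg hi]; simp
  have h2 : ∑' i, (I.indicator (fun i => ENNReal.ofReal (12 * h i)) i) ^ 2 ≤
      ENNReal.ofReal (3600 * ε ^ 2) := by
    have e1 : ∀ i, (I.indicator (fun i => ENNReal.ofReal (12 * h i)) i) ^ 2 =
        36 * volume (if i ∈ I then closedBall (c i) (h i) else ∅) := by
      intro i
      by_cases hi : i ∈ I
      · rw [indicator_of_mem hi, if_pos hi, vol_cb _ (hh i).le, ← ENNReal.ofReal_pow (by
          have := hh i; positivity), show (12 * h i) ^ 2 = 36 * (4 * h i ^ 2) by ring,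
          ENNReal.ofReal_mul (by norm_num)]
        norm_num
      · rw [indicator_of_notMem hi, if_neg hi]; simp
    simp_rw [e1]
    rw [ENNReal.tsum_mul_left, ← measure_iUnion]
    · calc 36 * volume (⋃ i, if i ∈ I then closedBall (c i) (h i) else ∅)
          ≤ 36 * volume (closedBall z (5 * ε)) := by
            gcongr
            refine iUnion_subset fun i => ?_
            by_cases hi : i ∈ I
            · rw [if_pos hi]
              intro u hu
              rw [mem_closedBall] at hu ⊢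
              calc dist u z ≤ dist u (c i) + dist (c i) z := dist_triangle _ _ _
                _ ≤ ε + 4 * ε := by rw [dist_comm (c i) z]; linarith [hi.1, hi.2]
                _ = 5 * ε := by ring
            · rw [if_neg hi]; exact empty_subset _
        _ = ENNReal.ofReal (3600 * ε ^ 2) := by
            rw [vol_cb _ (by linarith), show 3600 * ε ^ 2 = 36 * (4 * (5 * ε) ^ 2) by ring,
              ENNReal.ofReal_mul (by norm_num : (0 : ℝ) ≤ 36)]
            norm_num
    · intro i j hij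
      show Disjoint (if i ∈ I then closedBall (c i) (h i) else ∅)
        (if j ∈ I then closedBall (c j) (h j) else ∅)
      by_cases hi : i ∈ I
      · by_cases hj : j ∈ I
        · rw [if_pos hi, if_pos hj]; exact hd hij
        · rw [if_neg hj]; exact disjoint_bot_right
      · rw [if_neg hi]; exact disjoint_bot_left
    · intro i
      split_ifs
      · exact isClosed_closedBall.measurableSet
      · exact MeasurableSet.empty
  calc _ ≤ (∑' i, I.indicator (fun i => ENNReal.ofReal (12 * h i)) i *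
        I.indicator (fun i => μ i univ) i) ^ 2 := by
        gcongr with i; exact h1 i
    _ ≤ (∑' i, (I.indicator (fun i => ENNReal.ofReal (12 * h i)) i) ^ 2) *
        ∑' i, (I.indicator (fun i => μ i univ) i) ^ 2 := cs_tsum
    _ ≤ _ := by
        gcongr with i
        by_cases hi : i ∈ I
        · rw [indicator_of_mem hi, indicator_of_mem (by rw [mem_closedBall]; exact hi.2)]
        · rw [indicator_of_notMem hi]; simp

/-- a box of half side `ε` inside a bigger box, near a given point -/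
theorem sub_box {a q : ℝ × ℝ} {η : ℝ} (hε : 0 < ε) (hη : ε < η) (hq : q ∈ closedBall a η) :
    ∃ w, closedBall w ε ⊆ closedBall a η ∧ dist w q ≤ ε ∧ dist w a ≤ η - ε := by
  have h0 : 0 < η := hε.trans hη
  have h1 : 0 ≤ 1 - ε / η := by
    rw [sub_nonneg, div_le_one h0]; exact hη.le
  rw [mem_closedBall, dist_eq_norm] at hq
  have e1 : dist (a + (1 - ε / η) • (q - a)) a ≤ η - ε := by
    rw [dist_eq_norm, add_sub_cancel_left, norm_smul, Real.norm_of_nonneg h1]
    calc (1 - ε / η) * ‖q - a‖ ≤ (1 - ε / η) * η := by gcongr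
      _ = η - ε := by field_simp
  refine ⟨a + (1 - ε / η) • (q - a), ?_, ?_, e1⟩
  · intro u hu
    rw [mem_closedBall] at hu ⊢
    calc dist u a ≤ dist u (a + (1 - ε / η) • (q - a)) + dist (a + (1 - ε / η) • (q - a)) a :=
          dist_triangle _ _ _
      _ ≤ ε + (η - ε) := by gcongr
      _ = η := by ring
  · have : a + (1 - ε / η) • (q - a) - q = (-(ε / η)) • (q - a) := by
      simp only [sub_smul, one_smul, neg_smul]; abel
    rw [dist_eq_norm, this, norm_smul, norm_neg, Real.norm_of_nonneg (by positivity)]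
    calc ε / η * ‖q - a‖ ≤ ε / η * η := by gcongr
      _ = ε := by field_simp

/-- at most 25 big squares are seen from a point -/
theorem card25 [Countable ι]
    (hd : Pairwise (Disjoint on fun i => closedBall (c i) (h i))) (hε : 0 < ε) (z : ℝ × ℝ) :
    ∑' i, {i | ε < h i ∧ (closedBall z (3 * ε) ∩ closedBall (c i) (h i)).Nonempty}.indicator
      (fun _ => (1 : ℝ≥0∞)) i ≤ 25 := by
  classical
  set B : Set ι := {i | ε < h i ∧ (closedBall z (3 * ε) ∩ closedBall (c i) (h i)).Nonempty} with hB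
  have h0 : ENNReal.ofReal (4 * ε ^ 2) ≠ 0 := by simp; positivity
  have h1 : ENNReal.ofReal (4 * ε ^ 2) ≠ ∞ := ENNReal.ofReal_ne_top
  have key : ∀ i, ENNReal.ofReal (4 * ε ^ 2) * B.indicator (fun _ => (1 : ℝ≥0∞)) i ≤
      volume (closedBall (c i) (h i) ∩ closedBall z (5 * ε)) := by
    intro i
    by_cases hi : i ∈ B
    · rw [indicator_of_mem hi, mul_one]
      obtain ⟨hi1, q, hq1, hq2⟩ := hi
      obtain ⟨w, hw1, hw2, -⟩ := sub_box hε hi1 hq2
      rw [← vol_cb w hε.le]
      refine measure_mono (subset_inter hw1 ?_)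
      intro u hu
      rw [mem_closedBall] at hu hq1 ⊢
      calc dist u z ≤ dist u w + dist w z := dist_triangle _ _ _
        _ ≤ dist u w + (dist w q + dist q z) := by gcongr; exact dist_triangle _ _ _
        _ ≤ ε + (ε + 3 * ε) := by gcongr
        _ = 5 * ε := by ring
    · rw [indicator_of_notMem hi]; simp
  have h2 : ENNReal.ofReal (4 * ε ^ 2) * ∑' i, B.indicator (fun _ => (1 : ℝ≥0∞)) i ≤
      ENNReal.ofReal (4 * ε ^ 2) * 25 := by
    rw [← ENNReal.tsum_mul_left]
    calc _ ≤ ∑' i, volume (closedBall (c i) (h i) ∩ closedBall z (5 * ε)) :=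
          ENNReal.tsum_le_tsum key
      _ = volume (⋃ i, closedBall (c i) (h i) ∩ closedBall z (5 * ε)) := by
          rw [measure_iUnion]
          · intro i j hij
            exact (hd hij).mono inter_subset_left inter_subset_left
          · intro i
            exact isClosed_closedBall.measurableSet.inter isClosed_closedBall.measurableSet
      _ ≤ volume (closedBall z (5 * ε)) :=
          measure_mono (iUnion_subset fun i => inter_subset_right)
      _ = ENNReal.ofReal (4 * ε ^ 2) * 25 := by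
          rw [vol_cb _ (by linarith), show 4 * (5 * ε) ^ 2 = (4 * ε ^ 2) * 25 by ring,
            ENNReal.ofReal_mul (by positivity)]
          norm_num
  exact (ENNReal.mul_le_mul_iff_right h0 h1).mp h2

/-- (A2) big squares, pointwise at a point of `NQ` -/
theorem A2_pt [Countable ι]
    (hd : Pairwise (Disjoint on fun i => closedBall (c i) (h i))) (hLF : LF c h μ G)
    (hε : 0 < ε) {z : ℝ × ℝ} (hz : z ∈ NQ c h ε) :
    (∑' i, ∫⁻ u in closedBall z (3 * ε) ∩ (if ε < h i then closedBall (c i) (h i) else ∅), G u) ^ 2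
      ≤ ENNReal.ofReal (14400 * ε ^ 2) * ∑' i, μ i univ * μ i (closedBall z (30 * ε)) := by
  classical
  set B : Set ι := {i | ε < h i ∧ (closedBall z (3 * ε) ∩ closedBall (c i) (h i)).Nonempty} with hB
  have h1 : ∀ i, ∫⁻ u in closedBall z (3 * ε) ∩ (if ε < h i then closedBall (c i) (h i) else ∅), G u
      ≤ B.indicator (fun _ => 1) i *
        (ENNReal.ofReal (24 * ε) * μ i (closedBall z (30 * ε))) := by
    intro i
    by_cases hi : ε < h i
    · rw [if_pos hi]
      by_cases hn : (closedBall z (3 * ε) ∩ closedBall (c i) (h i)).Nonempty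
      · have hiB : i ∈ B := ⟨hi, hn⟩
        rw [indicator_of_mem hiB, one_mul]
        calc ∫⁻ u in closedBall z (3 * ε) ∩ closedBall (c i) (h i), G u
            ≤ ∫⁻ u in closedBall z (3 * (2 * ε)) ∩ closedBall (c i) (h i), G u := by
              refine lintegral_mono_set (inter_subset_inter_left _ ?_)
              exact closedBall_subset_closedBall (by linarith)
          _ ≤ ENNReal.ofReal (12 * (2 * ε)) * μ i (closedBall z (15 * (2 * ε))) :=
              hLF i z (2 * ε) (by linarith) (hz i hi)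
          _ = _ := by ring_nf
      · rw [not_nonempty_iff_eq_empty.mp hn]; simp
    · rw [if_neg hi]; simp
  calc _ ≤ (∑' i, B.indicator (fun _ => 1) i *
        (ENNReal.ofReal (24 * ε) * μ i (closedBall z (30 * ε)))) ^ 2 := by
        gcongr with i; exact h1 i
    _ ≤ (∑' i, (B.indicator (fun _ => (1 : ℝ≥0∞)) i) ^ 2) *
        ∑' i, (ENNReal.ofReal (24 * ε) * μ i (closedBall z (30 * ε))) ^ 2 := cs_tsum
    _ ≤ 25 * ∑' i, (ENNReal.ofReal (24 * ε) * μ i (closedBall z (30 * ε))) ^ 2 := by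
        gcongr
        refine le_trans (le_of_eq ?_) (card25 hd hε z)
        refine tsum_congr fun i => ?_
        by_cases hi : i ∈ B
        · rw [indicator_of_mem hi]; simp
        · rw [indicator_of_notMem hi]; simp
    _ ≤ 25 * ∑' i, ENNReal.ofReal (576 * ε ^ 2) * (μ i univ * μ i (closedBall z (30 * ε))) := by
        gcongr with i
        rw [mul_pow, ← ENNReal.ofReal_pow (by positivity), show (24 * ε) ^ 2 = 576 * ε ^ 2 by ring,
          sq (μ i _)]
        gcongr
        exact subset_univ _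
    _ = _ := by
        rw [ENNReal.tsum_mul_left, ← mul_assoc, show 14400 * ε ^ 2 = 25 * (576 * ε ^ 2) by ring,
          ENNReal.ofReal_mul (by norm_num : (0 : ℝ) ≤ 25)]
        norm_num

theorem measurable_mu_cb (μ : Measure (ℝ × ℝ)) [SFinite μ] (r : ℝ) :
    Measurable fun z : ℝ × ℝ => μ (closedBall z r) := by
  have hS : MeasurableSet {p : (ℝ × ℝ) × (ℝ × ℝ) | dist p.2 p.1 ≤ r} :=
    (isClosed_le (continuous_snd.dist continuous_fst) continuous_const).measurableSet
  exact measurable_measure_prodMk_left hS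

/-- pointwise bound at a point of `NQ` -/
theorem H_pt [Countable ι] (hh : ∀ i, 0 < h i)
    (hd : Pairwise (Disjoint on fun i => closedBall (c i) (h i))) (hLF : LF c h μ G)
    (hε : 0 < ε) {z : ℝ × ℝ} (hz : z ∈ NQ c h ε) :
    H ε G z ^ 2 ≤ 3 * (H ε ((⋃ i, closedBall (c i) (h i))ᶜ.indicator G) z ^ 2 +
      ((ENNReal.ofReal (ε ^ 2))⁻¹ ^ 2 * (ENNReal.ofReal (3600 * ε ^ 2) *
        ∑' i, (closedBall (c i) (4 * ε)).indicator (fun _ => μ i univ ^ 2) z) +
      (ENNReal.ofReal (ε ^ 2))⁻¹ ^ 2 * (ENNReal.ofReal (14400 * ε ^ 2) *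
        ∑' i, μ i univ * μ i (closedBall z (30 * ε))))) := by
  classical
  set U : Set (ℝ × ℝ) := ⋃ i, closedBall (c i) (h i) with hU
  have hUm : MeasurableSet U := MeasurableSet.iUnion fun i => isClosed_closedBall.measurableSet
  set s1 : ι → Set (ℝ × ℝ) := fun i => closedBall z (3 * ε) ∩
    (if h i ≤ ε then closedBall (c i) (h i) else ∅) with hs1
  set s2 : ι → Set (ℝ × ℝ) := fun i => closedBall z (3 * ε) ∩
    (if ε < h i then closedBall (c i) (h i) else ∅) with hs2
  have hcov : closedBall z (3 * ε) ⊆ (closedBall z (3 * ε) ∩ Uᶜ) ∪ (⋃ i, s1 i) ∪ ⋃ i, s2 i := by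
    intro u hu
    by_cases huU : u ∈ U
    · obtain ⟨i, hi⟩ := mem_iUnion.mp huU
      rcases le_or_gt (h i) ε with h1 | h1
      · refine Or.inl (Or.inr (mem_iUnion.mpr ⟨i, hu, ?_⟩)); rw [if_pos h1]; exact hi
      · refine Or.inr (mem_iUnion.mpr ⟨i, hu, ?_⟩); rw [if_pos h1]; exact hi
    · exact Or.inl (Or.inl ⟨hu, huU⟩)
  have h1 : ∫⁻ u in closedBall z (3 * ε), G u ≤
      (∫⁻ u in closedBall z (3 * ε), Uᶜ.indicator G u) + (∑' i, ∫⁻ u in s1 i, G u) +
        ∑' i, ∫⁻ u in s2 i, G u := by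
    calc ∫⁻ u in closedBall z (3 * ε), G u
        ≤ ∫⁻ u in (closedBall z (3 * ε) ∩ Uᶜ) ∪ (⋃ i, s1 i) ∪ ⋃ i, s2 i, G u :=
          lintegral_mono_set hcov
      _ ≤ (∫⁻ u in (closedBall z (3 * ε) ∩ Uᶜ) ∪ (⋃ i, s1 i), G u) + ∫⁻ u in ⋃ i, s2 i, G u :=
          lintegral_union_le _ _ _
      _ ≤ ((∫⁻ u in closedBall z (3 * ε) ∩ Uᶜ, G u) + ∫⁻ u in ⋃ i, s1 i, G u) +
          ∫⁻ u in ⋃ i, s2 i, G u := by gcongr; exact lintegral_union_le _ _ _
      _ ≤ _ := by
          refine add_le_add (add_le_add ?_ (lintegral_iUnion_le _ _)) (lintegral_iUnion_le _ _)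
          rw [setLIntegral_indicator hUm.compl, inter_comm]
  have h2 : H ε G z ≤ H ε (Uᶜ.indicator G) z + (ENNReal.ofReal (ε ^ 2))⁻¹ * (∑' i, ∫⁻ u in s1 i, G u)
      + (ENNReal.ofReal (ε ^ 2))⁻¹ * ∑' i, ∫⁻ u in s2 i, G u := by
    unfold H
    rw [← mul_add, ← mul_add]
    gcongr
  calc H ε G z ^ 2 ≤ (H ε (Uᶜ.indicator G) z + (ENNReal.ofReal (ε ^ 2))⁻¹ *
        (∑' i, ∫⁻ u in s1 i, G u) + (ENNReal.ofReal (ε ^ 2))⁻¹ * ∑' i, ∫⁻ u in s2 i, G u) ^ 2 := by
        gcongr
    _ ≤ _ := sq3 _ _ _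
    _ ≤ _ := by
        rw [add_assoc, mul_pow, mul_pow]
        gcongr
        · exact A1_pt hh hd hLF hε z
        · exact A2_pt hd hLF hε hz

/-- **(A)** -/
theorem H_sq_le [Countable ι] [∀ i, SFinite (μ i)] (hh : ∀ i, 0 < h i)
    (hd : Pairwise (Disjoint on fun i => closedBall (c i) (h i))) (hG : Measurable G)
    (hLF : LF c h μ G) (hε : 0 < ε) :
    ∫⁻ z in NQ c h ε, H ε G z ^ 2 ≤
      200000000 * ((∫⁻ z in (⋃ i, closedBall (c i) (h i))ᶜ, G z ^ 2) + ∑' i, μ i univ ^ 2) := by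
  set U : Set (ℝ × ℝ) := ⋃ i, closedBall (c i) (h i) with hU
  have hUm : MeasurableSet U := MeasurableSet.iUnion fun i => isClosed_closedBall.measurableSet
  set e : ℝ≥0∞ := ENNReal.ofReal (ε ^ 2) with he
  have he0 : e ≠ 0 := by rw [he]; simp; positivity
  have he1 : e ≠ ∞ := ENNReal.ofReal_ne_top
  have hee : e⁻¹ * e = 1 := ENNReal.inv_mul_cancel he0 he1
  have mA : Measurable fun z => H ε (Uᶜ.indicator G) z ^ 2 :=
    (measurable_H (hG.indicator hUm.compl) ε).pow_const 2
  have mB : Measurable fun z => e⁻¹ ^ 2 * (ENNReal.ofReal (3600 * ε ^ 2) *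
        ∑' i, (closedBall (c i) (4 * ε)).indicator (fun _ => μ i univ ^ 2) z) := by
    refine Measurable.const_mul (Measurable.const_mul (Measurable.tsum fun i => ?_) _) _
    exact measurable_const.indicator isClosed_closedBall.measurableSet
  have c1 : ENNReal.ofReal (3600 * ε ^ 2) = 3600 * e := by
    rw [ENNReal.ofReal_mul (by norm_num), ← he]; norm_num
  have c2 : ENNReal.ofReal (14400 * ε ^ 2) = 14400 * e := by
    rw [ENNReal.ofReal_mul (by norm_num), ← he]; norm_num
  have c3 : ENNReal.ofReal (4 * (4 * ε) ^ 2) = 64 * e := by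
    rw [show 4 * (4 * ε) ^ 2 = 64 * ε ^ 2 by ring, ENNReal.ofReal_mul (by norm_num), ← he]; norm_num
  have c4 : ENNReal.ofReal (4 * (30 * ε) ^ 2) = 3600 * e := by
    rw [show 4 * (30 * ε) ^ 2 = 3600 * ε ^ 2 by ring, ENNReal.ofReal_mul (by norm_num), ← he]; norm_num
  have IA : ∫⁻ z, H ε (Uᶜ.indicator G) z ^ 2 ≤ 1296 * ∫⁻ z in Uᶜ, G z ^ 2 := by
    refine (A0 (hG.indicator hUm.compl) hε).trans (le_of_eq ?_)
    rw [← lintegral_indicator hUm.compl]
    congr 1
    refine lintegral_congr fun z => ?_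
    by_cases hz : z ∈ Uᶜ
    · rw [indicator_of_mem hz, indicator_of_mem hz]
    · rw [indicator_of_notMem hz, indicator_of_notMem hz]; simp
  have IB : ∫⁻ z, e⁻¹ ^ 2 * (ENNReal.ofReal (3600 * ε ^ 2) *
        ∑' i, (closedBall (c i) (4 * ε)).indicator (fun _ => μ i univ ^ 2) z) ≤
      230400 * ∑' i, μ i univ ^ 2 := by
    have hb : Measurable fun z => ∑' i, (closedBall (c i) (4 * ε)).indicator
        (fun _ => μ i univ ^ 2) z := Measurable.tsum fun i =>
      measurable_const.indicator isClosed_closedBall.measurableSet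
    rw [lintegral_const_mul _ (hb.const_mul _), lintegral_const_mul _ hb, lintegral_tsum]
    · have : ∀ i, ∫⁻ z, (closedBall (c i) (4 * ε)).indicator (fun _ => μ i univ ^ 2) z =
          64 * e * μ i univ ^ 2 := by
        intro i
        rw [lintegral_indicator isClosed_closedBall.measurableSet, setLIntegral_const,
          vol_cb _ (by linarith), c3]
        ring
      simp_rw [this]
      rw [ENNReal.tsum_mul_left, c1]
      refine le_of_eq ?_
      calc e⁻¹ ^ 2 * (3600 * e * (64 * e * ∑' i, μ i univ ^ 2)) =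
          (e⁻¹ * e) * (e⁻¹ * e) * (3600 * 64 * ∑' i, μ i univ ^ 2) := by ring
        _ = _ := by rw [hee]; norm_num
    · intro i
      exact (measurable_const.indicator isClosed_closedBall.measurableSet).aemeasurable
  have IC : ∫⁻ z, e⁻¹ ^ 2 * (ENNReal.ofReal (14400 * ε ^ 2) *
        ∑' i, μ i univ * μ i (closedBall z (30 * ε))) ≤
      51840000 * ∑' i, μ i univ ^ 2 := by
    have hb0 : ∀ i, Measurable fun z : ℝ × ℝ => μ i univ * μ i (closedBall z (30 * ε)) :=
      fun i => (measurable_mu_cb (μ i) _).const_mul _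
    have hb : Measurable fun z : ℝ × ℝ => ∑' i, μ i univ * μ i (closedBall z (30 * ε)) :=
      Measurable.tsum hb0
    rw [lintegral_const_mul _ (hb.const_mul _), lintegral_const_mul _ hb, lintegral_tsum
      fun i => (hb0 i).aemeasurable]
    have : ∀ i, ∫⁻ z : ℝ × ℝ, μ i univ * μ i (closedBall z (30 * ε)) =
        3600 * e * μ i univ ^ 2 := by
      intro i
      rw [lintegral_const_mul _ (measurable_mu_cb (μ i) _), lint_cb (μ i) (by linarith), c4]
      ring
    simp_rw [this]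
    rw [ENNReal.tsum_mul_left, c2]
    refine le_of_eq ?_
    calc e⁻¹ ^ 2 * (14400 * e * (3600 * e * ∑' i, μ i univ ^ 2)) =
        (e⁻¹ * e) * (e⁻¹ * e) * (14400 * 3600 * ∑' i, μ i univ ^ 2) := by ring
      _ = _ := by rw [hee]; norm_num
  calc ∫⁻ z in NQ c h ε, H ε G z ^ 2
      ≤ ∫⁻ z in NQ c h ε, 3 * (H ε (Uᶜ.indicator G) z ^ 2 +
      (e⁻¹ ^ 2 * (ENNReal.ofReal (3600 * ε ^ 2) *
        ∑' i, (closedBall (c i) (4 * ε)).indicator (fun _ => μ i univ ^ 2) z) +
      e⁻¹ ^ 2 * (ENNReal.ofReal (14400 * ε ^ 2) *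
        ∑' i, μ i univ * μ i (closedBall z (30 * ε))))) := by
        refine setLIntegral_mono' (measurableSet_NQ c h ε) fun z hz => ?_
        exact H_pt hh hd hLF hε hz
    _ ≤ ∫⁻ z, 3 * (H ε (Uᶜ.indicator G) z ^ 2 +
      (e⁻¹ ^ 2 * (ENNReal.ofReal (3600 * ε ^ 2) *
        ∑' i, (closedBall (c i) (4 * ε)).indicator (fun _ => μ i univ ^ 2) z) +
      e⁻¹ ^ 2 * (ENNReal.ofReal (14400 * ε ^ 2) *
        ∑' i, μ i univ * μ i (closedBall z (30 * ε))))) := setLIntegral_le_lintegral _ _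
    _ = 3 * ((∫⁻ z, H ε (Uᶜ.indicator G) z ^ 2) + ((∫⁻ z, e⁻¹ ^ 2 * (ENNReal.ofReal (3600 * ε ^ 2) *
        ∑' i, (closedBall (c i) (4 * ε)).indicator (fun _ => μ i univ ^ 2) z)) +
      ∫⁻ z, e⁻¹ ^ 2 * (ENNReal.ofReal (14400 * ε ^ 2) *
        ∑' i, μ i univ * μ i (closedBall z (30 * ε))))) := by
        rw [lintegral_const_mul' _ _ (by norm_num), lintegral_add_left mA, lintegral_add_left mB]
    _ ≤ 3 * (1296 * (∫⁻ z in Uᶜ, G z ^ 2) + (230400 * (∑' i, μ i univ ^ 2) +
        51840000 * ∑' i, μ i univ ^ 2)) := by gcongr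
    _ = 3888 * (∫⁻ z in Uᶜ, G z ^ 2) + 156211200 * ∑' i, μ i univ ^ 2 := by ring
    _ ≤ 200000000 * (∫⁻ z in Uᶜ, G z ^ 2) + 200000000 * ∑' i, μ i univ ^ 2 := by
        gcongr <;> norm_num
    _ = _ := by ring

end

end Crest.Agent.R105.Mq_347
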