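import Crest.Agent.R105.Mq2_347

/-! Row 105, S0138, NI-10: MOLLQ, part C: oscillation of the box mean on the squares. -/

open MeasureTheory Set Metric Filter Topology
open scoped ENNReal Function

namespace Crest.Agent.R105.Mq_347

noncomputable section

variable {ι : Type*} {c : ι → ℝ × ℝ} {h : ι → ℝ} {μ : ι → Measure (ℝ × ℝ)}
variable {W : Set (ℝ × ℝ)} {ψ Ψ : ℝ × ℝ → ℝ} {G : ℝ × ℝ → ℝ≥0∞} {ε : ℝ}

theorem sq2 (a b : ℝ≥0∞) : (a + b) ^ 2 ≤ 2 * (a ^ 2 + b ^ 2) := by
  have h := cs_tsum (ι := Fin 2) (f := fun _ => 1) (g := ![a, b])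
  simp only [tsum_fintype, Fin.sum_univ_two] at h
  simpa [mul_add, show (1 : ℝ≥0∞) + 1 = 2 by norm_num] using h

theorem measurable_H2 (hG : Measurable G) (ε : ℝ) : Measurable fun z => H ε G z ^ 2 :=
  (measurable_H hG ε).pow_const 2

/-- constant bounded by a multiple of `H` on a set -/
theorem const_le_lint {a : ℝ≥0∞} {S : Set (ℝ × ℝ)} (hSm : MeasurableSet S) {r k : ℝ}
    (hk : 0 ≤ k) (h : ∀ z ∈ S, a ≤ ENNReal.ofReal k * H ε G z) (hG : Measurable G)
    (hS : volume S = ENNReal.ofReal (4 * r ^ 2)) :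
    ENNReal.ofReal (4 * r ^ 2) * a ^ 2 ≤ ENNReal.ofReal (k ^ 2) * ∫⁻ z in S, H ε G z ^ 2 := by
  rw [← hS, mul_comm, ← Measure.restrict_apply_univ S, ← lintegral_const,
    ← lintegral_const_mul _ (measurable_H2 hG ε)]
  refine setLIntegral_mono' hSm fun z hz => ?_
  calc a ^ 2 ≤ (ENNReal.ofReal k * H ε G z) ^ 2 := by gcongr; exact h z hz
    _ = ENNReal.ofReal (k ^ 2) * H ε G z ^ 2 := by
      rw [mul_pow, ENNReal.ofReal_pow hk]

/-- small squares are in `NQ` -/
theorem small_sub_NQ (hd : Pairwise (Disjoint on fun i => closedBall (c i) (h i)))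
    {i : ι} (hi : h i ≤ ε) (hε : 0 < ε) : closedBall (c i) (h i) ⊆ NQ c h ε := by
  intro z hz j hj
  have hne : i ≠ j := by rintro rfl; linarith
  have h1 := Set.disjoint_left.mp (hd hne) hz
  simp only [mem_closedBall, not_le] at h1
  linarith

/-- **(O3), small squares** -/
theorem small_osc (L : LineB W ψ Ψ G) (hG : Measurable G) (hε : 0 < ε)
    (hi : ∀ z r, closedBall z r ⊆ W → IntegrableOn ψ (closedBall z r)) {a : ℝ × ℝ} {η : ℝ}
    (hη : 0 < η) (hηε : η ≤ ε) {p q : ℝ × ℝ} (hp : p ∈ closedBall a η) (hq : q ∈ closedBall a η)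
    (hpW : closedBall p (6 * ε) ⊆ W) :
    4 * ‖bm ε ψ q - bm ε ψ p‖ₑ ^ 2 ≤ ∫⁻ z in closedBall a η, H ε G z ^ 2 := by
  have h1 : ∀ z ∈ closedBall a η, ‖bm ε ψ q - bm ε ψ p‖ₑ ≤ ENNReal.ofReal η * H ε G z := by
    intro z hz
    have hpq : dist q p ≤ 2 * η := by
      rw [mem_closedBall] at hp hq
      linarith [dist_triangle_right q p a]
    have hpz : dist p z ≤ 2 * η := by
      rw [mem_closedBall] at hp hz
      linarith [dist_triangle_right p z a]
    have hqz : dist q z ≤ 2 * η := by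
      rw [mem_closedBall] at hq hz
      linarith [dist_triangle_right q z a]
    have hzW : closedBall z (3 * ε) ⊆ W := by
      refine (closedBall_subset_closedBall' ?_).trans hpW
      rw [dist_comm]; linarith
    refine (O1 L hG hε hzW (hi _ _ hzW) (p := p) (p' := q)
      (by rw [mem_closedBall]; linarith) (by rw [mem_closedBall]; linarith)).trans ?_
    gcongr
    linarith
  have h2 := const_le_lint (r := η) isClosed_closedBall.measurableSet hη.le h1 hG
    (vol_cb a hη.le)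
  have h3 : ENNReal.ofReal (4 * η ^ 2) = ENNReal.ofReal (η ^ 2) * 4 := by
    rw [mul_comm, ENNReal.ofReal_mul (by positivity)]; norm_num
  rw [h3, mul_assoc] at h2
  exact (ENNReal.mul_le_mul_iff_right (by simp; positivity) ENNReal.ofReal_ne_top).mp h2

/-- the part of `∫ H²` near the square `i` -/
def TT (c : ι → ℝ × ℝ) (h : ι → ℝ) (ε : ℝ) (G : ℝ × ℝ → ℝ≥0∞) (i : ι) : ℝ≥0∞ :=
  ∫⁻ z in NQ c h ε ∩ closedBall (c i) (h i + ε), H ε G z ^ 2

theorem bm_const_le {m o : ℝ} {w : ℝ × ℝ} (hε : 0 < ε)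
    (hi : IntegrableOn ψ (closedBall w ε))
    (hm : ∀ᵐ p : ℝ × ℝ, p ∈ closedBall w ε → |ψ p - m| ≤ o) : |bm ε ψ w - m| ≤ o := by
  have hvol : (volume : Measure (ℝ × ℝ)).real (closedBall w ε) = 4 * ε ^ 2 := by
    rw [Measure.real, vol_cb w hε.le, ENNReal.toReal_ofReal (by positivity)]
  have hfin : volume (closedBall w ε) ≠ ∞ := by rw [vol_cb w hε.le]; exact ENNReal.ofReal_ne_top
  have hpos : 0 < 4 * ε ^ 2 := by positivity
  have e1 : bm ε ψ w - m = (4 * ε ^ 2)⁻¹ * ∫ u in closedBall w ε, (ψ u - m) := by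
    rw [integral_sub hi (integrableOn_const hfin), setIntegral_const, hvol, smul_eq_mul]
    unfold bm
    field_simp
  have e2 : |∫ u in closedBall w ε, (ψ u - m)| ≤ o * (4 * ε ^ 2) := by
    rw [← Real.norm_eq_abs, ← hvol]
    refine norm_setIntegral_le_of_norm_le_const_ae' hfin.lt_top ?_
    filter_upwards [hm] with p hp hpw
    rw [Real.norm_eq_abs]; exact hp hpw
  rw [e1, abs_mul, abs_of_pos (inv_pos.mpr hpos), inv_mul_le_iff₀ hpos]
  linarith

/-- **(O3), big squares** -/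
theorem big_osc (L : LineB W ψ Ψ G) (hG : Measurable G) (hε : 0 < ε)
    (hd : Pairwise (Disjoint on fun i => closedBall (c i) (h i)))
    (hi : ∀ z r, closedBall z r ⊆ W → IntegrableOn ψ (closedBall z r)) {i : ι}
    (hbig : ε < h i) {m o : ℝ} (ho : 0 ≤ o)
    (hm : ∀ᵐ p : ℝ × ℝ, p ∈ closedBall (c i) (h i) → |ψ p - m| ≤ o)
    {p : ℝ × ℝ} (hp : p ∈ closedBall (c i) (h i)) (hpW : closedBall p (6 * ε) ⊆ W) :
    8 * ‖bm ε ψ p - m‖ₑ ^ 2 ≤ 16 * ENNReal.ofReal (o ^ 2) + TT c h ε G i := by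
  by_cases hdeep : dist p (c i) ≤ h i - ε
  · have hsub : closedBall p ε ⊆ closedBall (c i) (h i) :=
      closedBall_subset_closedBall' (by linarith)
    have h1 : |bm ε ψ p - m| ≤ o := by
      refine bm_const_le hε (hi _ _ ((closedBall_subset_closedBall (by linarith)).trans hpW)) ?_
      filter_upwards [hm] with u hu hup using hu (hsub hup)
    have h2 : ‖bm ε ψ p - m‖ₑ ^ 2 ≤ ENNReal.ofReal (o ^ 2) := by
      rw [ENNReal.ofReal_pow ho, Real.enorm_eq_ofReal_abs]
      gcongr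
    calc 8 * ‖bm ε ψ p - m‖ₑ ^ 2 ≤ 16 * ENNReal.ofReal (o ^ 2) := by
          gcongr
          norm_num
      _ ≤ _ := le_self_add
  · push Not at hdeep
    obtain ⟨w, hw1, hw2, hw3⟩ := sub_box hε hbig hp
    have hwW : closedBall w ε ⊆ W := by
      refine (closedBall_subset_closedBall' ?_).trans hpW
      linarith
    have h1 : |bm ε ψ w - m| ≤ o := by
      refine bm_const_le hε (hi _ _ hwW) ?_
      filter_upwards [hm] with u hu hup using hu (hw1 hup)
    have hsub : closedBall p ε ⊆ NQ c h ε ∩ closedBall (c i) (h i + ε) := by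
      intro z hz
      refine ⟨fun j hj => ?_, closedBall_subset_closedBall' (by
        rw [mem_closedBall] at hp; linarith) hz⟩
      rw [mem_closedBall] at hz
      have h3 := dist_triangle p z (c j)
      rw [dist_comm p z] at h3
      by_cases hij : i = j
      · subst hij; linarith
      · have h4 := Set.disjoint_left.mp (hd hij) hp
        simp only [mem_closedBall, not_le] at h4
        linarith
    have h2 : ∀ z ∈ closedBall p ε, ‖bm ε ψ p - bm ε ψ w‖ₑ ≤ ENNReal.ofReal (ε / 2) * H ε G z := by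
      intro z hz
      rw [mem_closedBall] at hz
      have hzW : closedBall z (3 * ε) ⊆ W := by
        refine (closedBall_subset_closedBall' ?_).trans hpW
        linarith
      have hwz : dist w z ≤ 2 * ε := by
        have := dist_triangle w p z
        rw [dist_comm p z] at this
        linarith
      refine (O1 L hG hε hzW (hi _ _ hzW) (p := w) (p' := p)
        (by rw [mem_closedBall]; exact hwz) (by rw [mem_closedBall, dist_comm]; linarith)).trans ?_
      gcongr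
      rw [dist_comm]; exact hw2
    have h3 := const_le_lint (r := ε) isClosed_closedBall.measurableSet (by positivity) h2 hG
      (vol_cb p hε.le)
    have e3 : ENNReal.ofReal (4 * ε ^ 2) = ENNReal.ofReal ((ε / 2) ^ 2) * 16 := by
      rw [show 4 * ε ^ 2 = (ε / 2) ^ 2 * 16 by ring, ENNReal.ofReal_mul (by positivity)]; norm_num
    rw [e3, mul_assoc] at h3
    have h4 : 16 * ‖bm ε ψ p - bm ε ψ w‖ₑ ^ 2 ≤ TT c h ε G i := by
      refine ((ENNReal.mul_le_mul_iff_right (by simp; positivity)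
        ENNReal.ofReal_ne_top).mp h3).trans ?_
      exact lintegral_mono_set hsub
    have h5 : ‖bm ε ψ w - m‖ₑ ^ 2 ≤ ENNReal.ofReal (o ^ 2) := by
      rw [ENNReal.ofReal_pow ho, Real.enorm_eq_ofReal_abs]
      gcongr
    have h6 : ‖bm ε ψ p - m‖ₑ ≤ ‖bm ε ψ p - bm ε ψ w‖ₑ + ‖bm ε ψ w - m‖ₑ := by
      have : bm ε ψ p - m = (bm ε ψ p - bm ε ψ w) + (bm ε ψ w - m) := by ring
      rw [this]; exact enorm_add_le _ _
    have h7 : ‖bm ε ψ p - m‖ₑ ^ 2 ≤ 2 * (‖bm ε ψ p - bm ε ψ w‖ₑ ^ 2 + ‖bm ε ψ w - m‖ₑ ^ 2) :=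
      le_trans (by gcongr) (sq2 _ _)
    calc 8 * ‖bm ε ψ p - m‖ₑ ^ 2 ≤
          8 * (2 * (‖bm ε ψ p - bm ε ψ w‖ₑ ^ 2 + ‖bm ε ψ w - m‖ₑ ^ 2)) := by gcongr
      _ = 16 * ‖bm ε ψ w - m‖ₑ ^ 2 + 16 * ‖bm ε ψ p - bm ε ψ w‖ₑ ^ 2 := by ring
      _ ≤ _ := by gcongr

/-- bound of the oscillation of the mean on the square `i` -/
def BB (c : ι → ℝ × ℝ) (h : ι → ℝ) (o : ι → ℝ) (ε : ℝ) (G : ℝ × ℝ → ℝ≥0∞) (i : ι) : ℝ≥0∞ :=
  32 * ENNReal.ofReal (o i ^ 2) + 2 * (if ε < h i then TT c h ε G i else 0) +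
    (if h i ≤ ε then ∫⁻ z in closedBall (c i) (h i), H ε G z ^ 2 else 0)

/-- **(O3)** -/
theorem osc_le (L : LineB W ψ Ψ G) (hG : Measurable G) (hε : 0 < ε) (hh : ∀ i, 0 < h i)
    (hd : Pairwise (Disjoint on fun i => closedBall (c i) (h i)))
    (hi : ∀ z r, closedBall z r ⊆ W → IntegrableOn ψ (closedBall z r)) {o : ι → ℝ}
    (ho : ∀ i, 0 ≤ o i)
    (hm : ∀ i, ∃ m, ∀ᵐ p : ℝ × ℝ, p ∈ closedBall (c i) (h i) → |ψ p - m| ≤ o i) (i : ι)
    {p q : ℝ × ℝ} (hp : p ∈ closedBall (c i) (h i)) (hq : q ∈ closedBall (c i) (h i))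
    (hpW : closedBall p (6 * ε) ⊆ W) (hqW : closedBall q (6 * ε) ⊆ W) :
    4 * ‖bm ε ψ q - bm ε ψ p‖ₑ ^ 2 ≤ BB c h o ε G i := by
  unfold BB
  rcases le_or_gt (h i) ε with hs | hb
  · have h1 := small_osc L hG hε hi (hh i) hs hp hq hpW
    rw [if_pos hs]
    exact h1.trans le_add_self
  · rw [if_pos hb]
    obtain ⟨m, hm⟩ := hm i
    have h1 := big_osc L hG hε hd hi hb (ho i) hm hp hpW
    have h2 := big_osc L hG hε hd hi hb (ho i) hm hq hqW
    have e : bm ε ψ q - bm ε ψ p = (bm ε ψ q - m) + (m - bm ε ψ p) := by ring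
    have h3 : ‖bm ε ψ q - bm ε ψ p‖ₑ ≤ ‖bm ε ψ q - m‖ₑ + ‖bm ε ψ p - m‖ₑ := by
      rw [e]
      refine (enorm_add_le _ _).trans ?_
      rw [← enorm_neg (m - bm ε ψ p), neg_sub]
    have h4 : ‖bm ε ψ q - bm ε ψ p‖ₑ ^ 2 ≤
        2 * (‖bm ε ψ q - m‖ₑ ^ 2 + ‖bm ε ψ p - m‖ₑ ^ 2) := le_trans (by gcongr) (sq2 _ _)
    refine le_trans ?_ le_self_add
    calc 4 * ‖bm ε ψ q - bm ε ψ p‖ₑ ^ 2 ≤
          4 * (2 * (‖bm ε ψ q - m‖ₑ ^ 2 + ‖bm ε ψ p - m‖ₑ ^ 2)) := by gcongr
      _ = 8 * ‖bm ε ψ q - m‖ₑ ^ 2 + 8 * ‖bm ε ψ p - m‖ₑ ^ 2 := by ring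
      _ ≤ (16 * ENNReal.ofReal (o i ^ 2) + TT c h ε G i) +
          (16 * ENNReal.ofReal (o i ^ 2) + TT c h ε G i) := by gcongr
      _ = _ := by ring

/-- the sum over the squares -/
theorem sum_BB [Countable ι] (hG : Measurable G) (hε : 0 < ε)
    (hd : Pairwise (Disjoint on fun i => closedBall (c i) (h i))) (o : ι → ℝ) :
    ∑' i, BB c h o ε G i ≤
      32 * (∑' i, ENNReal.ofReal (o i ^ 2)) + 51 * ∫⁻ z in NQ c h ε, H ε G z ^ 2 := by
  set A := ∫⁻ z in NQ c h ε, H ε G z ^ 2 with hA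
  have hNQ := measurableSet_NQ c h ε
  have hHm := measurable_H2 hG ε
  have k1 : ∑' i, (if h i ≤ ε then ∫⁻ z in closedBall (c i) (h i), H ε G z ^ 2 else 0) ≤ A := by
    have e1 : ∀ i, (if h i ≤ ε then ∫⁻ z in closedBall (c i) (h i), H ε G z ^ 2 else 0) =
        ∫⁻ z in (if h i ≤ ε then closedBall (c i) (h i) else ∅), H ε G z ^ 2 := by
      intro i; split_ifs <;> simp
    simp_rw [e1]
    rw [← lintegral_iUnion]
    · refine lintegral_mono_set (iUnion_subset fun i => ?_)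
      split_ifs with hs
      · exact small_sub_NQ hd hs hε
      · exact empty_subset _
    · intro i
      split_ifs
      · exact isClosed_closedBall.measurableSet
      · exact MeasurableSet.empty
    · intro i j hij
      simp only [Function.onFun]
      split_ifs
      · exact hd hij
      · exact disjoint_bot_right
      · exact disjoint_bot_left
      · exact disjoint_bot_left
  have k2 : ∑' i, (if ε < h i then TT c h ε G i else 0) ≤ 25 * A := by
    set g : ι → ℝ × ℝ → ℝ≥0∞ := fun i =>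
      (if ε < h i then closedBall (c i) (h i + ε) else ∅ : Set (ℝ × ℝ)).indicator
        fun z => H ε G z ^ 2 with hg
    have hgm : ∀ i, Measurable (g i) := by
      intro i
      refine hHm.indicator ?_
      split_ifs
      · exact isClosed_closedBall.measurableSet
      · exact MeasurableSet.empty
    have e1 : ∀ i, (if ε < h i then TT c h ε G i else 0) = ∫⁻ z in NQ c h ε, g i z := by
      intro i
      simp only [hg]
      split_ifs with hb
      · rw [setLIntegral_indicator isClosed_closedBall.measurableSet, inter_comm]; rfl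
      · simp
    simp_rw [e1]
    rw [← lintegral_tsum fun i => (hgm i).aemeasurable, hA, ← lintegral_const_mul _ hHm]
    refine lintegral_mono fun z => ?_
    have e2 : ∀ i, g i z ≤ {i | ε < h i ∧
        (closedBall z (3 * ε) ∩ closedBall (c i) (h i)).Nonempty}.indicator
          (fun _ => (1 : ℝ≥0∞)) i * H ε G z ^ 2 := by
      intro i
      simp only [hg]
      by_cases hb : ε < h i
      · rw [if_pos hb]
        by_cases hz : z ∈ closedBall (c i) (h i + ε)
        · obtain ⟨w, -, hw2, hw3⟩ := sub_box hε (show ε < h i + ε by linarith) hz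
          have hmem : i ∈ {i | ε < h i ∧
              (closedBall z (3 * ε) ∩ closedBall (c i) (h i)).Nonempty} :=
            ⟨hb, w, by rw [mem_closedBall]; linarith, by rw [mem_closedBall]; linarith⟩
          rw [indicator_of_mem hz, indicator_of_mem hmem, one_mul]
        · rw [indicator_of_notMem hz]; exact zero_le
      · rw [if_neg hb]; simp
    calc ∑' i, g i z ≤ ∑' i, {i | ε < h i ∧
        (closedBall z (3 * ε) ∩ closedBall (c i) (h i)).Nonempty}.indicator
          (fun _ => (1 : ℝ≥0∞)) i * H ε G z ^ 2 := ENNReal.tsum_le_tsum e2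
      _ = (∑' i, {i | ε < h i ∧
        (closedBall z (3 * ε) ∩ closedBall (c i) (h i)).Nonempty}.indicator
          (fun _ => (1 : ℝ≥0∞)) i) * H ε G z ^ 2 := ENNReal.tsum_mul_right
      _ ≤ 25 * H ε G z ^ 2 := by gcongr; exact card25 hd hε z
  calc ∑' i, BB c h o ε G i = 32 * (∑' i, ENNReal.ofReal (o i ^ 2)) +
        2 * (∑' i, (if ε < h i then TT c h ε G i else 0)) +
        ∑' i, (if h i ≤ ε then ∫⁻ z in closedBall (c i) (h i), H ε G z ^ 2 else 0) := by
        unfold BB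
        rw [ENNReal.tsum_add, ENNReal.tsum_add, ENNReal.tsum_mul_left, ENNReal.tsum_mul_left]
    _ ≤ 32 * (∑' i, ENNReal.ofReal (o i ^ 2)) + 2 * (25 * A) + A := by gcongr
    _ = _ := by ring

end

end Crest.Agent.R105.Mq_347
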