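import Crest.Agent.R105.Mq5_347
import Crest.Agent.R105.Psq0_425

/-! Row 105, S0138, NI-10: MOLLQ, part D: a function with line formulas and local flow bounds is, after
a Lipschitz cut-off, a limit of planar Lipschitz functions with bounded energy. -/

set_option autoImplicit false

open MeasureTheory Set Metric Filter Topology
open scoped ENNReal NNReal Function

namespace Crest.Agent.R105.Mq_347

open Crest.Agent.R105.CF_363 Crest.Agent.R105.Stp_722 Crest.Agent.R105.Cq_463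
open Crest.Agent.R105.Psq_425

/-- centre of a square -/
noncomputable def cen (Q : Sqr) : ℝ × ℝ := (Q.x + Q.s / 2, Q.y + Q.s / 2)

theorem car_eq (Q : Sqr) : Q.car = closedBall (cen Q) (Q.s / 2) := by
  ext p
  rw [Sqr.mem_car, mem_cb_iff]
  simp only [cen]
  constructor
  · rintro ⟨⟨h1, h2⟩, h3, h4⟩
    exact ⟨abs_le.mpr ⟨by linarith, by linarith⟩, abs_le.mpr ⟨by linarith, by linarith⟩⟩
  · rintro ⟨h1, h2⟩
    have h1 := abs_le.mp h1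
    have h2 := abs_le.mp h2
    exact ⟨⟨by linarith [h1.1], by linarith [h1.2]⟩, ⟨by linarith [h2.1], by linarith [h2.2]⟩⟩

/-- the squares in `W` -/
abbrev SqIn (𝒬 : Set Sqr) (W : Set (ℝ × ℝ)) : Type := {Q : Sqr // Q ∈ 𝒬 ∧ Q.car ⊆ W}

/-- the data of the approximation theorem -/
structure Aps (E W : Set (ℝ × ℝ)) (𝒬 : Set Sqr) (f ψ Ψ : ℝ × ℝ → ℝ) (G : ℝ × ℝ → ℝ≥0∞)
    (μ : Sqr → Measure (ℝ × ℝ)) (o : Sqr → ℝ) : Prop where
  hW : IsOpen W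
  alt : ∀ Q ∈ 𝒬, Q.car ⊆ W ∨ Disjoint Q.car W
  mG : Measurable G
  G1 : ∫⁻ z in W, G z ≠ ∞
  G2 : ∫⁻ z in W \ E, G z ^ 2 ≠ ∞
  L : LineB W ψ Ψ G
  int : ∀ z r, closedBall z r ⊆ W → IntegrableOn ψ (closedBall z r)
  cont : ContinuousOn f (W \ E)
  eq : ∀ᵐ p : ℝ × ℝ, p ∈ W \ E → ψ p = f p
  fin : ∀ Q ∈ 𝒬, Q.car ⊆ W → IsFiniteMeasure (μ Q)
  flx : ∀ Q ∈ 𝒬, Q.car ⊆ W → ∀ z r, 0 < r → Q.s / 2 - r ≤ dist z (cen Q) →
    ∫⁻ u in closedBall z (3 * r) ∩ closedBall (cen Q) (Q.s / 2), G u ≤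
      ENNReal.ofReal (12 * r) * μ Q (closedBall z (15 * r))
  μ2 : ∑' i : SqIn 𝒬 W, μ i.1 univ ^ 2 ≠ ∞
  o0 : ∀ Q, 0 ≤ o Q
  o2 : ∑' i : SqIn 𝒬 W, ENNReal.ofReal (o i.1 ^ 2) ≠ ∞
  osc : ∀ Q ∈ 𝒬, Q.car ⊆ W → ∃ m, ∀ᵐ p : ℝ × ℝ, p ∈ closedBall (cen Q) (Q.s / 2) →
    |ψ p - m| ≤ o Q

variable {E W : Set (ℝ × ℝ)} {𝒬 : Set Sqr} {𝓗 : Set Hair} {f ψ Ψ : ℝ × ℝ → ℝ}
  {G : ℝ × ℝ → ℝ≥0∞} {μ : Sqr → Measure (ℝ × ℝ)} {o : Sqr → ℝ} {ε : ℝ}

theorem Aps.lineB (A : Aps E W 𝒬 f ψ Ψ G μ o) : LineB W ψ Ψ (W.indicator G) where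
  H := by
    filter_upwards [A.L.H] with y hy x x' hxx hW
    refine (hy x x' hxx hW).trans (le_of_eq ?_)
    refine setLIntegral_congr_fun measurableSet_Icc fun s hs => ?_
    simp only [indicator_of_mem (hW s hs)]
  V := by
    filter_upwards [A.L.V] with x hx y y' hyy hW
    refine (hx y y' hyy hW).trans (le_of_eq ?_)
    refine setLIntegral_congr_fun measurableSet_Icc fun s hs => ?_
    simp only [indicator_of_mem (hW s hs)]
  E := A.L.E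

theorem Aps.lf (A : Aps E W 𝒬 f ψ Ψ G μ o) :
    LF (fun i : SqIn 𝒬 W => cen i.1) (fun i => i.1.s / 2) (fun i => μ i.1) (W.indicator G) := by
  intro i z r hr hz
  refine le_trans (lintegral_mono fun u => ?_) (A.flx i.1 i.2.1 i.2.2 z r hr hz)
  exact indicator_le_self _ _ _

theorem SqIn.pos (i : SqIn 𝒬 W) : 0 < i.1.s / 2 := by have := i.1.hs; positivity

theorem SqIn.disj (hE : QPic E 𝒬 𝓗) :
    Pairwise (Disjoint on fun i : SqIn 𝒬 W => closedBall (cen i.1) (i.1.s / 2)) := by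
  intro i j hij
  simp only [Function.onFun]
  rw [← car_eq, ← car_eq]
  exact hE.disjoint i.2.1 j.2.1 fun hh => hij (Subtype.ext hh)

theorem SqIn.countable (hE : QPic E 𝒬 𝓗) : Countable (SqIn 𝒬 W) := by
  have : {Q : Sqr | Q ∈ 𝒬 ∧ Q.car ⊆ W}.Countable := hE.countable.mono fun Q hQ => hQ.1
  exact this.to_subtype

theorem Aps.sq_fin (A : Aps E W 𝒬 f ψ Ψ G μ o) (hE : QPic E 𝒬 𝓗) :
    ∫⁻ z in (⋃ i : SqIn 𝒬 W, closedBall (cen i.1) (i.1.s / 2))ᶜ, W.indicator G z ^ 2 ≤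
      ∫⁻ z in W \ E, G z ^ 2 := by
  have hEc : MeasurableSet (W \ E) := A.hW.measurableSet.diff hE.cpt.isClosed.measurableSet
  have : Countable (SqIn 𝒬 W) := SqIn.countable hE
  have hU : MeasurableSet (⋃ i : SqIn 𝒬 W, closedBall (cen i.1) (i.1.s / 2)) :=
    MeasurableSet.iUnion fun i => isClosed_closedBall.measurableSet
  rw [← lintegral_indicator hU.compl, ← lintegral_indicator hEc]
  refine lintegral_mono_ae ?_
  filter_upwards [measure_eq_zero_iff_ae_notMem.mp hE.null] with z hz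
  by_cases hzU : z ∈ (⋃ i : SqIn 𝒬 W, closedBall (cen i.1) (i.1.s / 2))ᶜ
  · rw [indicator_of_mem hzU]
    by_cases hzW : z ∈ W
    · have hzE : z ∉ E := by
        intro hzE
        refine hz ⟨hzE, fun hc => ?_⟩
        obtain ⟨Q, hQ, hzQ⟩ := mem_iUnion₂.mp hc
        rcases A.alt Q hQ with h1 | h1
        · exact hzU (mem_iUnion.mpr ⟨⟨Q, hQ, h1⟩, by rw [← car_eq]; exact hzQ⟩)
        · exact Set.disjoint_left.mp h1 hzQ hzW
      rw [indicator_of_mem hzW, indicator_of_mem (show z ∈ W \ E from ⟨hzW, hzE⟩)]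
    · rw [indicator_of_notMem hzW]; simp
  · rw [indicator_of_notMem hzU]; exact zero_le

/-- the bound of the square function -/
noncomputable def AA (E W : Set (ℝ × ℝ)) (𝒬 : Set Sqr) (G : ℝ × ℝ → ℝ≥0∞)
    (μ : Sqr → Measure (ℝ × ℝ)) : ℝ≥0∞ :=
  200000000 * ((∫⁻ z in W \ E, G z ^ 2) + ∑' i : SqIn 𝒬 W, μ i.1 univ ^ 2)

theorem Aps.AA_fin (A : Aps E W 𝒬 f ψ Ψ G μ o) : AA E W 𝒬 G μ ≠ ∞ :=
  ENNReal.mul_ne_top (by norm_num) (ENNReal.add_ne_top.mpr ⟨A.G2, A.μ2⟩)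

theorem Aps.H_le (A : Aps E W 𝒬 f ψ Ψ G μ o) (hE : QPic E 𝒬 𝓗) (hε : 0 < ε) :
    ∫⁻ z in NQ (fun i : SqIn 𝒬 W => cen i.1) (fun i => i.1.s / 2) ε, H ε (W.indicator G) z ^ 2 ≤
      AA E W 𝒬 G μ := by
  have : Countable (SqIn 𝒬 W) := SqIn.countable hE
  have : ∀ i : SqIn 𝒬 W, IsFiniteMeasure (μ i.1) := fun i => A.fin i.1 i.2.1 i.2.2
  refine (H_sq_le (μ := fun i : SqIn 𝒬 W => μ i.1) (fun i => i.pos) (SqIn.disj hE)
    (A.mG.indicator A.hW.measurableSet) A.lf hε).trans ?_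
  unfold AA
  exact mul_le_mul_right (add_le_add_left (A.sq_fin hE) _) _

theorem compl_sub_NQ (hE : QPic E 𝒬 𝓗) (hε : 0 < ε) :
    Eᶜ ⊆ NQ (fun i : SqIn 𝒬 W => cen i.1) (fun i => i.1.s / 2) ε := by
  intro z hz i _
  have h1 : z ∉ closedBall (cen i.1) (i.1.s / 2) := by
    rw [← car_eq]; exact fun hc => hz (hE.sub i.1 i.2.1 hc)
  rw [mem_closedBall, not_le] at h1
  linarith

theorem Aps.H_fin (A : Aps E W 𝒬 f ψ Ψ G μ o) (z : ℝ × ℝ) :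
    H ε (W.indicator G) z ≤ (ENNReal.ofReal (ε ^ 2))⁻¹ * ∫⁻ z in W, G z := by
  unfold H
  refine mul_le_mul_right ?_ _
  rw [← lintegral_indicator A.hW.measurableSet]
  exact setLIntegral_le_lintegral _ _

theorem Aps.HM_fin (A : Aps E W 𝒬 f ψ Ψ G μ o) (hε : 0 < ε) :
    (ENNReal.ofReal (ε ^ 2))⁻¹ * ∫⁻ z in W, G z ≠ ∞ :=
  ENNReal.mul_ne_top (ENNReal.inv_ne_top.mpr (by simp; positivity)) A.G1

/-- real form of (O1) -/
theorem Aps.O1r (A : Aps E W 𝒬 f ψ Ψ G μ o) (hε : 0 < ε) {z p p' : ℝ × ℝ}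
    (hz : closedBall z (3 * ε) ⊆ W)
    (hp : p ∈ closedBall z (2 * ε)) (hp' : p' ∈ closedBall z (2 * ε)) :
    |bm ε ψ p' - bm ε ψ p| ≤ dist p' p / 2 * (H ε (W.indicator G) z).toReal := by
  have h1 := O1 A.lineB (A.mG.indicator A.hW.measurableSet) hε hz (A.int _ _ hz) hp hp'
  have h2 : H ε (W.indicator G) z ≠ ∞ := ne_top_of_le_ne_top (A.HM_fin hε) (A.H_fin z)
  have h3 := ENNReal.toReal_mono (ENNReal.mul_ne_top ENNReal.ofReal_ne_top h2) h1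
  rwa [toReal_enorm, Real.norm_eq_abs, ENNReal.toReal_mul, ENNReal.toReal_ofReal (by positivity)]
    at h3

/-- limit of the means -/
theorem Aps.bm_lim (A : Aps E W 𝒬 f ψ Ψ G μ o) (hE : QPic E 𝒬 𝓗) {p : ℝ × ℝ} (hp : p ∈ W \ E)
    {δ : ℝ} (hδ : 0 < δ) : ∃ r > 0, ∀ ε, 0 < ε → ε ≤ r → |bm ε ψ p - f p| ≤ δ := by
  have hopen : IsOpen (W \ E) := A.hW.sdiff hE.cpt.isClosed
  have hc : ContinuousAt f p := A.cont.continuousAt (hopen.mem_nhds hp)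
  obtain ⟨r1, hr1, h1⟩ := Metric.continuousAt_iff.mp hc δ hδ
  obtain ⟨r2, hr2, h2⟩ := Metric.isOpen_iff.mp hopen p hp
  refine ⟨min r1 r2 / 2, by positivity, fun ε hε hεr => ?_⟩
  have hsub : closedBall p ε ⊆ W \ E := by
    refine fun u hu => h2 ?_
    rw [mem_closedBall] at hu
    rw [mem_ball]
    have := min_le_right r1 r2
    linarith
  refine bm_const_le hε (A.int _ _ fun u hu => (hsub hu).1) ?_
  filter_upwards [A.eq] with u hu hup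
  rw [hu (hsub hup)]
  have h3 : dist u p < r1 := by
    rw [mem_closedBall] at hup
    have := min_le_left r1 r2
    linarith
  have := h1 h3
  rw [Real.dist_eq] at this
  exact this.le

end Crest.Agent.R105.Mq_347
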