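import Crest.Agent.R105.Mq6_347

/-! Row 105, S0138, NI-10: MOLLQ, part E: the planar approximation. -/

set_option autoImplicit false

open MeasureTheory Set Metric Filter Topology
open scoped ENNReal NNReal Function

namespace Crest.Agent.R105.Mq_347

open Crest.Agent.R105.CF_363 Crest.Agent.R105.Stp_722 Crest.Agent.R105.Cq_463
open Crest.Agent.R105.Psq_425

variable {E W : Set (ℝ × ℝ)} {𝒬 : Set Sqr} {𝓗 : Set Hair} {f ψ Ψ : ℝ × ℝ → ℝ}
  {G : ℝ × ℝ → ℝ≥0∞} {μ : Sqr → Measure (ℝ × ℝ)} {o : Sqr → ℝ} {ε : ℝ}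

/-- the approximating function -/
noncomputable def fap (κ : ℝ × ℝ → ℝ) (T : ℝ → ℝ) (ψ : ℝ × ℝ → ℝ) (ε : ℝ) (p : ℝ × ℝ) : ℝ :=
  κ p * T (bm ε ψ p)

section one

variable {κ : ℝ × ℝ → ℝ} {T : ℝ → ℝ} {Lκ LT : ℝ≥0} {K C : ℝ}

theorem mul_diff {a b s t : ℝ} {K C : ℝ} (ha : |a| ≤ K) (ht : |t| ≤ C) :
    |a * s - b * t| ≤ K * |s - t| + C * |a - b| := by
  have : a * s - b * t = a * (s - t) + (a - b) * t := by ring
  rw [this]
  refine (abs_add_le _ _).trans ?_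
  rw [abs_mul, abs_mul]
  have h1 : |a| * |s - t| ≤ K * |s - t| := by gcongr
  have h2 : |a - b| * |t| ≤ C * |a - b| := by rw [mul_comm]; gcongr
  linarith

/-- local Lipschitz bound -/
theorem Aps.loc (A : Aps E W 𝒬 f ψ Ψ G μ o) (hε : 0 < ε) (hκ : LipschitzWith Lκ κ)
    (hT : LipschitzWith LT T) (hK : ∀ p, |κ p| ≤ K) (hC : ∀ s, |T s| ≤ C) {z : ℝ × ℝ}
    (hz : closedBall z (3 * ε) ⊆ W) {p q : ℝ × ℝ} (hp : p ∈ closedBall z (2 * ε))
    (hq : q ∈ closedBall z (2 * ε)) :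
    |fap κ T ψ ε p - fap κ T ψ ε q| ≤
      (K * LT / 2 * (H ε (W.indicator G) z).toReal + C * Lκ) * dist p q := by
  have hK0 : 0 ≤ K := (abs_nonneg _).trans (hK p)
  have hC0 : 0 ≤ C := (abs_nonneg _).trans (hC 0)
  have h1 := A.O1r hε hz hq hp
  have h2 : |T (bm ε ψ p) - T (bm ε ψ q)| ≤ LT * |bm ε ψ p - bm ε ψ q| := by
    have := hT.dist_le_mul (bm ε ψ p) (bm ε ψ q)
    rwa [Real.dist_eq, Real.dist_eq] at this
  have h3 : |κ p - κ q| ≤ Lκ * dist p q := by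
    have := hκ.dist_le_mul p q
    rwa [Real.dist_eq] at this
  refine (mul_diff (hK p) (hC _)).trans ?_
  calc K * |T (bm ε ψ p) - T (bm ε ψ q)| + C * |κ p - κ q|
      ≤ K * (LT * (dist p q / 2 * (H ε (W.indicator G) z).toReal)) + C * (Lκ * dist p q) := by
        gcongr
        exact h2.trans (by gcongr)
    _ = _ := by ring

theorem fap_zero {p : ℝ × ℝ} (hp : p ∉ tsupport κ) : fap κ T ψ ε p = 0 := by
  unfold fap
  rw [image_eq_zero_of_notMem_tsupport hp, zero_mul]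

/-- global Lipschitz bound -/
theorem Aps.lip (A : Aps E W 𝒬 f ψ Ψ G μ o) (hε : 0 < ε) (hκ : LipschitzWith Lκ κ)
    (hT : LipschitzWith LT T) (hK : ∀ p, |κ p| ≤ K) (hC : ∀ s, |T s| ≤ C)
    (hW : ∀ p ∈ tsupport κ, closedBall p (6 * ε) ⊆ W) :
    ∃ L : ℝ≥0, LipschitzWith L (fap κ T ψ ε) := by
  have hK0 : 0 ≤ K := (abs_nonneg _).trans (hK 0)
  have hC0 : 0 ≤ C := (abs_nonneg _).trans (hC 0)
  set M := ((ENNReal.ofReal (ε ^ 2))⁻¹ * ∫⁻ z in W, G z).toReal with hM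
  have hM0 : 0 ≤ M := ENNReal.toReal_nonneg
  have hHM : ∀ z, (H ε (W.indicator G) z).toReal ≤ M := fun z =>
    ENNReal.toReal_mono (A.HM_fin hε) (A.H_fin z)
  set Λ := (K * LT / 2 * M + C * Lκ) + K * C / ε with hΛ
  have hΛ0 : 0 ≤ Λ := by positivity
  have key : ∀ p q, p ∈ tsupport κ → |fap κ T ψ ε p - fap κ T ψ ε q| ≤ Λ * dist p q := by
    intro p q hp
    rcases le_or_gt (dist p q) (2 * ε) with h1 | h1
    · refine (A.loc hε hκ hT hK hC ((closedBall_subset_closedBall (by linarith)).trans (hW p hp))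
        (mem_closedBall_self (by linarith)) (by rw [mem_closedBall, dist_comm]; exact h1)).trans ?_
      gcongr
      rw [hΛ]
      have h2 : K * LT / 2 * (H ε (W.indicator G) p).toReal ≤ K * LT / 2 * M := by
        gcongr; exact hHM p
      have h3 : 0 ≤ K * C / ε := by positivity
      linarith
    · have h2 : ∀ p, |fap κ T ψ ε p| ≤ K * C := by
        intro p
        unfold fap
        rw [abs_mul]
        gcongr
        · exact hK p
        · exact hC _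
      have h3 : |fap κ T ψ ε p - fap κ T ψ ε q| ≤ 2 * (K * C) := by
        refine (abs_sub _ _).trans ?_
        linarith [h2 p, h2 q]
      refine h3.trans ?_
      have h4 : 2 * (K * C) ≤ K * C / ε * dist p q := by
        rw [div_mul_eq_mul_div, le_div_iff₀ hε]
        have : 0 ≤ K * C := by positivity
        nlinarith
      have h5 : K * C / ε * dist p q ≤ Λ * dist p q := by
        gcongr
        rw [hΛ]
        have : 0 ≤ K * LT / 2 * M + C * Lκ := by positivity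
        linarith
      exact h4.trans h5
  refine ⟨Λ.toNNReal, LipschitzWith.of_dist_le_mul fun p q => ?_⟩
  rw [Real.dist_eq, Real.coe_toNNReal _ hΛ0]
  by_cases hp : p ∈ tsupport κ
  · exact key p q hp
  · by_cases hq : q ∈ tsupport κ
    · have := key q p hq
      rwa [abs_sub_comm, dist_comm] at this
    · rw [fap_zero hp, fap_zero hq, sub_zero, abs_zero]
      positivity

/-- the energy -/
theorem Aps.en (A : Aps E W 𝒬 f ψ Ψ G μ o) (hE : QPic E 𝒬 𝓗) (hε : 0 < ε)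
    (hκ : LipschitzWith Lκ κ) (hκc : HasCompactSupport κ)
    (hT : LipschitzWith LT T) (hK : ∀ p, |κ p| ≤ K) (hC : ∀ s, |T s| ≤ C)
    (hW : ∀ p ∈ tsupport κ, closedBall p (6 * ε) ⊆ W) :
    En (univ \ E) (fap κ T ψ ε) ≤ (ENNReal.ofReal (K ^ 2 * LT ^ 2) * AA E W 𝒬 G μ +
      ENNReal.ofReal (4 * C ^ 2 * Lκ ^ 2) * volume (tsupport κ)).toReal := by
  have hK0 : 0 ≤ K := (abs_nonneg _).trans (hK 0)
  have hC0 : 0 ≤ C := (abs_nonneg _).trans (hC 0)
  have hfin : ENNReal.ofReal (K ^ 2 * LT ^ 2) * AA E W 𝒬 G μ +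
      ENNReal.ofReal (4 * C ^ 2 * Lκ ^ 2) * volume (tsupport κ) ≠ ∞ :=
    ENNReal.add_ne_top.mpr ⟨ENNReal.mul_ne_top ENNReal.ofReal_ne_top A.AA_fin,
      ENNReal.mul_ne_top ENNReal.ofReal_ne_top (IsCompact.measure_ne_top hκc)⟩
  have hKm : MeasurableSet (tsupport κ) := (isClosed_tsupport κ).measurableSet
  have hHm := measurable_H2 (A.mG.indicator A.hW.measurableSet) ε
  unfold En
  rw [integral_eq_lintegral_of_nonneg_ae (Eventually.of_forall fun p => g2_nonneg _ p)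
    (measurable_g2 _).aestronglyMeasurable]
  refine ENNReal.toReal_mono hfin ?_
  have hpt : ∀ p, ENNReal.ofReal (g2 (fap κ T ψ ε) p) ≤
      ENNReal.ofReal (K ^ 2 * LT ^ 2) * H ε (W.indicator G) p ^ 2 +
        (tsupport κ).indicator (fun _ => ENNReal.ofReal (4 * C ^ 2 * Lκ ^ 2)) p := by
    intro p
    by_cases hp : p ∈ tsupport κ
    · rw [indicator_of_mem hp]
      set Hp := (H ε (W.indicator G) p).toReal with hHp
      have hHp0 : 0 ≤ Hp := ENNReal.toReal_nonneg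
      have hne : H ε (W.indicator G) p ≠ ∞ := ne_top_of_le_ne_top (A.HM_fin hε) (A.H_fin p)
      set Lp := K * LT / 2 * Hp + C * Lκ with hLp
      have hLp0 : 0 ≤ Lp := by positivity
      have hSL : SL (ball p (2 * ε)) Lp (fap κ T ψ ε) := by
        intro q q' hseg
        exact A.loc hε hκ hT hK hC ((closedBall_subset_closedBall (by linarith)).trans (hW p hp))
          (ball_subset_closedBall (hseg (left_mem_segment ℝ q q')))
          (ball_subset_closedBall (hseg (right_mem_segment ℝ q q')))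
      have h1 := hSL.g2_le isOpen_ball hLp0 (mem_ball_self (by linarith : 0 < 2 * ε))
      have h2 : 2 * Lp ^ 2 ≤ K ^ 2 * LT ^ 2 * Hp ^ 2 + 4 * C ^ 2 * Lκ ^ 2 := by
        rw [hLp]
        nlinarith [sq_nonneg (K * LT / 2 * Hp - C * Lκ)]
      calc ENNReal.ofReal (g2 (fap κ T ψ ε) p)
          ≤ ENNReal.ofReal (K ^ 2 * LT ^ 2 * Hp ^ 2 + 4 * C ^ 2 * Lκ ^ 2) :=
            ENNReal.ofReal_le_ofReal (h1.trans h2)
        _ = _ := by
            rw [ENNReal.ofReal_add (by positivity) (by positivity),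
              ENNReal.ofReal_mul (by positivity), ENNReal.ofReal_pow hHp0, hHp,
              ENNReal.ofReal_toReal hne]
    · have h0 : fap κ T ψ ε =ᶠ[𝓝 p] fun _ => 0 := by
        filter_upwards [(isClosed_tsupport κ).isOpen_compl.mem_nhds hp] with q hq
        exact fap_zero hq
      have h1 : g2 (fap κ T ψ ε) p = 0 := by
        unfold g2
        rw [gx_congr h0, gy_congr h0]
        simp [gx, gy]
      rw [h1]; simp
  calc ∫⁻ p in univ \ E, ENNReal.ofReal (g2 (fap κ T ψ ε) p)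
      ≤ ∫⁻ p in univ \ E, (ENNReal.ofReal (K ^ 2 * LT ^ 2) * H ε (W.indicator G) p ^ 2 +
        (tsupport κ).indicator (fun _ => ENNReal.ofReal (4 * C ^ 2 * Lκ ^ 2)) p) :=
        lintegral_mono fun p => hpt p
    _ = ENNReal.ofReal (K ^ 2 * LT ^ 2) * (∫⁻ p in univ \ E, H ε (W.indicator G) p ^ 2) +
        ∫⁻ p in univ \ E, (tsupport κ).indicator (fun _ => ENNReal.ofReal (4 * C ^ 2 * Lκ ^ 2)) p := by
        rw [lintegral_add_left (hHm.const_mul _), lintegral_const_mul _ hHm]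
    _ ≤ _ := by
        refine add_le_add (mul_le_mul_right ?_ _) ?_
        · refine le_trans (lintegral_mono_set ?_) (A.H_le hE hε)
          rw [← compl_eq_univ_sdiff]
          exact compl_sub_NQ hE hε
        · refine (setLIntegral_le_lintegral _ _).trans ?_
          rw [lintegral_indicator hKm, lintegral_const, Measure.restrict_apply_univ]

/-- bound of the squared charge of the square `i` -/
noncomputable def Gam (K C : ℝ) (Lκ LT : ℝ≥0) (o : Sqr → ℝ) (ε : ℝ) (G : ℝ × ℝ → ℝ≥0∞)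
    (W : Set (ℝ × ℝ)) (𝒬 : Set Sqr) (i : SqIn 𝒬 W) : ℝ≥0∞ :=
  ENNReal.ofReal (K ^ 2 * LT ^ 2) *
    BB (fun i : SqIn 𝒬 W => cen i.1) (fun i => i.1.s / 2) (fun i => o i.1) ε (W.indicator G) i +
  ENNReal.ofReal (2 * C ^ 2 * Lκ ^ 2) * ENNReal.ofReal (i.1.s ^ 2)

theorem Aps.osc_pt (A : Aps E W 𝒬 f ψ Ψ G μ o) (hE : QPic E 𝒬 𝓗) (hε : 0 < ε)
    (hκ : LipschitzWith Lκ κ)
    (hT : LipschitzWith LT T) (hK : ∀ p, |κ p| ≤ K) (hC : ∀ s, |T s| ≤ C)
    (hW : ∀ p ∈ tsupport κ, closedBall p (6 * ε) ⊆ W) (i : SqIn 𝒬 W) {p q : ℝ × ℝ}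
    (hp : p ∈ i.1.car) (hq : q ∈ i.1.car) :
    ENNReal.ofReal ((fap κ T ψ ε p - fap κ T ψ ε q) ^ 2) ≤ Gam K C Lκ LT o ε G W 𝒬 i := by
  have hK0 : 0 ≤ K := (abs_nonneg _).trans (hK 0)
  have hC0 : 0 ≤ C := (abs_nonneg _).trans (hC 0)
  have hpc := hp
  have hqc := hq
  rw [car_eq] at hpc hqc
  have hdist : dist p q ≤ i.1.s := by
    rw [mem_closedBall] at hpc hqc
    linarith [dist_triangle_right p q (cen i.1)]
  have hs0 := i.1.hs
  -- one point outside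
  have hone : ∀ p q : ℝ × ℝ, dist p q ≤ i.1.s → q ∉ tsupport κ →
      |fap κ T ψ ε p - fap κ T ψ ε q| ≤ C * Lκ * i.1.s := by
    intro p q hpq hq
    rw [fap_zero hq, sub_zero]
    unfold fap
    have h0 : κ q = 0 := image_eq_zero_of_notMem_tsupport hq
    have h1 : |κ p| ≤ Lκ * dist p q := by
      have := hκ.dist_le_mul p q
      rwa [Real.dist_eq, h0, sub_zero] at this
    rw [abs_mul]
    calc |κ p| * |T (bm ε ψ p)| ≤ (Lκ * dist p q) * C := by
          gcongr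
          exact hC _
      _ ≤ (Lκ * i.1.s) * C := by gcongr
      _ = _ := by ring
  have hfar : ∀ d : ℝ, |d| ≤ C * Lκ * i.1.s →
      ENNReal.ofReal (d ^ 2) ≤ Gam K C Lκ LT o ε G W 𝒬 i := by
    intro d hd
    unfold Gam
    refine le_trans ?_ le_add_self
    rw [← ENNReal.ofReal_mul (by positivity)]
    refine ENNReal.ofReal_le_ofReal ?_
    have h1 : d ^ 2 ≤ (C * Lκ * i.1.s) ^ 2 := by
      rw [← sq_abs d]
      gcongr
    have h2 : 0 ≤ (C * Lκ * i.1.s) ^ 2 := sq_nonneg _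
    calc d ^ 2 ≤ (C * Lκ * i.1.s) ^ 2 := h1
      _ ≤ 2 * (C * Lκ * i.1.s) ^ 2 := by linarith
      _ = _ := by ring
  by_cases hqK : q ∈ tsupport κ
  · by_cases hpK : p ∈ tsupport κ
    · have hcount : Countable (SqIn 𝒬 W) := SqIn.countable hE
      have h1 := osc_le (c := fun i : SqIn 𝒬 W => cen i.1) (h := fun i => i.1.s / 2)
        (o := fun i => o i.1) A.lineB (A.mG.indicator A.hW.measurableSet) hε (fun i => i.pos)
        (SqIn.disj hE) A.int (fun i => A.o0 i.1) (fun i => A.osc i.1 i.2.1 i.2.2) i hqc hpc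
        (hW q hqK) (hW p hpK)
      have h2 : |T (bm ε ψ p) - T (bm ε ψ q)| ≤ LT * |bm ε ψ p - bm ε ψ q| := by
        have := hT.dist_le_mul (bm ε ψ p) (bm ε ψ q)
        rwa [Real.dist_eq, Real.dist_eq] at this
      have h3 : |κ p - κ q| ≤ Lκ * i.1.s := by
        have := hκ.dist_le_mul p q
        rw [Real.dist_eq] at this
        exact this.trans (by gcongr)
      set D := |bm ε ψ p - bm ε ψ q| with hD
      have hD0 : 0 ≤ D := abs_nonneg _
      have h4 : |fap κ T ψ ε p - fap κ T ψ ε q| ≤ K * LT * D + C * Lκ * i.1.s := by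
        refine (mul_diff (hK p) (hC _)).trans ?_
        have e1 : K * |T (bm ε ψ p) - T (bm ε ψ q)| ≤ K * (LT * D) := by gcongr
        have e2 : C * |κ p - κ q| ≤ C * (Lκ * i.1.s) := by gcongr
        linarith
      have h5 : (fap κ T ψ ε p - fap κ T ψ ε q) ^ 2 ≤
          K ^ 2 * LT ^ 2 * (2 * D ^ 2) + 2 * C ^ 2 * Lκ ^ 2 * i.1.s ^ 2 := by
        have e1 : (fap κ T ψ ε p - fap κ T ψ ε q) ^ 2 ≤ (K * LT * D + C * Lκ * i.1.s) ^ 2 := by
          rw [← sq_abs (fap κ T ψ ε p - fap κ T ψ ε q)]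
          gcongr
        have e2 := sq_nonneg (K * LT * D - C * Lκ * i.1.s)
        nlinarith
      have h6 : ENNReal.ofReal (2 * D ^ 2) ≤
          BB (fun i : SqIn 𝒬 W => cen i.1) (fun i => i.1.s / 2) (fun i => o i.1) ε
            (W.indicator G) i := by
        refine le_trans ?_ h1
        rw [hD, ENNReal.ofReal_mul (by norm_num), ENNReal.ofReal_pow (abs_nonneg _),
          ← Real.enorm_eq_ofReal_abs]
        refine mul_le_mul_left ?_ _
        norm_num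
      unfold Gam
      calc ENNReal.ofReal ((fap κ T ψ ε p - fap κ T ψ ε q) ^ 2)
          ≤ ENNReal.ofReal (K ^ 2 * LT ^ 2 * (2 * D ^ 2) + 2 * C ^ 2 * Lκ ^ 2 * i.1.s ^ 2) :=
            ENNReal.ofReal_le_ofReal h5
        _ = ENNReal.ofReal (K ^ 2 * LT ^ 2) * ENNReal.ofReal (2 * D ^ 2) +
            ENNReal.ofReal (2 * C ^ 2 * Lκ ^ 2) * ENNReal.ofReal (i.1.s ^ 2) := by
            rw [ENNReal.ofReal_add (by positivity) (by positivity),
              ENNReal.ofReal_mul (p := K ^ 2 * LT ^ 2) (by positivity),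
              ENNReal.ofReal_mul (p := 2 * C ^ 2 * Lκ ^ 2) (by positivity)]
        _ ≤ _ := add_le_add_left (mul_le_mul_right h6 _) _
    · refine hfar _ ?_
      rw [abs_sub_comm]
      exact hone q p (by rw [dist_comm]; exact hdist) hpK
  · exact hfar _ (hone p q hdist hqK)

/-- a continuous function: oscillation at a compact set -/
theorem oscLe_of_lip {g : ℝ × ℝ → ℝ} {L : ℝ≥0} (hg : LipschitzWith L g) {V P : Set (ℝ × ℝ)}
    {c : ℝ} (hc : ∀ p ∈ P, ∀ q ∈ P, |g p - g q| ≤ c) : OscLe V P g c := by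
  intro δ hδ
  set r : ℝ := δ / (2 * (L + 1)) with hr
  have hr0 : 0 < r := by positivity
  refine ⟨thickening r P, isOpen_thickening, self_subset_thickening hr0 P, ?_⟩
  rintro q ⟨hq, -⟩ q' ⟨hq', -⟩
  obtain ⟨x, hx, hqx⟩ := mem_thickening_iff.1 hq
  obtain ⟨x', hx', hqx'⟩ := mem_thickening_iff.1 hq'
  have h1 : |g q - g x| ≤ L * dist q x := by
    have := hg.dist_le_mul q x; rwa [Real.dist_eq] at this
  have h2 : |g q' - g x'| ≤ L * dist q' x' := by
    have := hg.dist_le_mul q' x'; rwa [Real.dist_eq] at this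
  have h3 := hc x hx x' hx'
  have h4 : (L : ℝ) * r ≤ δ / 2 := by
    rw [hr]
    rw [show (L : ℝ) * (δ / (2 * (L + 1))) = (L * δ) / (2 * (L + 1)) by ring,
      div_le_div_iff₀ (by positivity) (by norm_num)]
    nlinarith [L.2]
  have h5 : (L : ℝ) * dist q x ≤ L * r := by gcongr
  have h6 : (L : ℝ) * dist q' x' ≤ L * r := by gcongr
  have e : g q - g q' = (g q - g x) + (g x - g x') - (g q' - g x') := by ring
  rw [e]
  calc |(g q - g x) + (g x - g x') - (g q' - g x')|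
      ≤ |(g q - g x) + (g x - g x')| + |g q' - g x'| := abs_sub _ _
    _ ≤ |g q - g x| + |g x - g x'| + |g q' - g x'| := by gcongr; exact abs_add_le _ _
    _ ≤ c + δ := by linarith

theorem Aps.ch_le (A : Aps E W 𝒬 f ψ Ψ G μ o) (hE : QPic E 𝒬 𝓗) (hε : 0 < ε)
    (hκ : LipschitzWith Lκ κ)
    (hT : LipschitzWith LT T) (hK : ∀ p, |κ p| ≤ K) (hC : ∀ s, |T s| ≤ C)
    (hW : ∀ p ∈ tsupport κ, closedBall p (6 * ε) ⊆ W) (i : SqIn 𝒬 W) :
    ENNReal.ofReal (ch E univ (fap κ T ψ ε) i.1 ^ 2) ≤ Gam K C Lκ LT o ε G W 𝒬 i := by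
  obtain ⟨L, hL⟩ := A.lip hε hκ hT hK hC hW
  by_cases hinf : Gam K C Lκ LT o ε G W 𝒬 i = ∞
  · rw [hinf]; exact le_top
  set c := Real.sqrt (Gam K C Lκ LT o ε G W 𝒬 i).toReal with hc
  have h1 : ∀ p ∈ i.1.car, ∀ q ∈ i.1.car, |fap κ T ψ ε p - fap κ T ψ ε q| ≤ c := by
    intro p hp q hq
    have h2 := A.osc_pt hE hε hκ hT hK hC hW i hp hq
    have h3 := ENNReal.toReal_mono hinf h2
    rw [ENNReal.toReal_ofReal (sq_nonneg _)] at h3
    rw [hc]
    exact Real.abs_le_sqrt h3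
  have h2 : ch E univ (fap κ T ψ ε) i.1 ≤ c := by
    unfold ch
    refine chg_le (Real.sqrt_nonneg _) ?_
    exact (oscLe_of_lip hL h1).mono_set inter_subset_left
  have h3 : ch E univ (fap κ T ψ ε) i.1 ^ 2 ≤ (Gam K C Lκ LT o ε G W 𝒬 i).toReal := by
    rw [← Real.sq_sqrt (ENNReal.toReal_nonneg (a := Gam K C Lκ LT o ε G W 𝒬 i)), ← hc]
    have := ch_nonneg E univ (fap κ T ψ ε) i.1
    gcongr
  exact (ENNReal.ofReal_le_ofReal h3).trans (le_of_eq (ENNReal.ofReal_toReal hinf))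

theorem Aps.sum_Gam (A : Aps E W 𝒬 f ψ Ψ G μ o) (hE : QPic E 𝒬 𝓗) (hε : 0 < ε) :
    ∑' i : SqIn 𝒬 W, Gam K C Lκ LT o ε G W 𝒬 i ≤
      ENNReal.ofReal (K ^ 2 * LT ^ 2) * (32 * (∑' i : SqIn 𝒬 W, ENNReal.ofReal (o i.1 ^ 2)) +
        51 * AA E W 𝒬 G μ) + ENNReal.ofReal (2 * C ^ 2 * Lκ ^ 2) * volume E := by
  have hcount : Countable (SqIn 𝒬 W) := SqIn.countable hE
  unfold Gam
  rw [ENNReal.tsum_add, ENNReal.tsum_mul_left, ENNReal.tsum_mul_left]
  refine add_le_add (mul_le_mul_right ?_ _) (mul_le_mul_right ?_ _)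
  · refine (sum_BB (A.mG.indicator A.hW.measurableSet) hε (SqIn.disj hE) _).trans ?_
    exact add_le_add_right (mul_le_mul_right (A.H_le hE hε) _) _
  · refine le_trans ?_ hE.tsum_sq_le
    exact ENNReal.tsum_comp_le_tsum_of_injective
      (f := fun i : SqIn 𝒬 W => (⟨i.1, i.2.1⟩ : 𝒬))
      (fun i j hij => Subtype.ext (by simpa using hij)) (fun Q : 𝒬 => ENNReal.ofReal (Q.1.s ^ 2))

theorem Aps.Ch_le (A : Aps E W 𝒬 f ψ Ψ G μ o) (hE : QPic E 𝒬 𝓗) (hε : 0 < ε)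
    (hκ : LipschitzWith Lκ κ)
    (hT : LipschitzWith LT T) (hK : ∀ p, |κ p| ≤ K) (hC : ∀ s, |T s| ≤ C)
    (hW : ∀ p ∈ tsupport κ, closedBall p (6 * ε) ⊆ W) :
    Ch E univ 𝒬 (fap κ T ψ ε) ≤
      (ENNReal.ofReal (K ^ 2 * LT ^ 2) * (32 * (∑' i : SqIn 𝒬 W, ENNReal.ofReal (o i.1 ^ 2)) +
        51 * AA E W 𝒬 G μ) + ENNReal.ofReal (2 * C ^ 2 * Lκ ^ 2) * volume E).toReal := by
  have hfin : ENNReal.ofReal (K ^ 2 * LT ^ 2) * (32 * (∑' i : SqIn 𝒬 W, ENNReal.ofReal (o i.1 ^ 2)) +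
        51 * AA E W 𝒬 G μ) + ENNReal.ofReal (2 * C ^ 2 * Lκ ^ 2) * volume E ≠ ∞ :=
    ENNReal.add_ne_top.mpr ⟨ENNReal.mul_ne_top ENNReal.ofReal_ne_top (ENNReal.add_ne_top.mpr
      ⟨ENNReal.mul_ne_top (by norm_num) A.o2, ENNReal.mul_ne_top (by norm_num) A.AA_fin⟩),
      ENNReal.mul_ne_top ENNReal.ofReal_ne_top hE.cpt.measure_ne_top⟩
  -- squares outside
  have hout : ∀ Q : 𝒬, ¬ Q.1.car ⊆ W → ch E univ (fap κ T ψ ε) Q.1 = 0 := by
    intro Q hQ
    have hdis : Disjoint Q.1.car W := (A.alt Q.1 Q.2).resolve_left hQ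
    unfold ch
    refine chg_eq_zero (O := (tsupport κ)ᶜ) (isClosed_tsupport κ).isOpen_compl ?_ (a := 0)
      fun q hq => fap_zero hq.1
    intro p hp hpK
    exact Set.disjoint_left.mp hdis hp.1 ((hW p hpK) (mem_closedBall_self (by linarith)))
  have hsum : ∑' Q : 𝒬, ENNReal.ofReal (ch E univ (fap κ T ψ ε) Q.1 ^ 2) ≤
      ENNReal.ofReal (K ^ 2 * LT ^ 2) * (32 * (∑' i : SqIn 𝒬 W, ENNReal.ofReal (o i.1 ^ 2)) +
        51 * AA E W 𝒬 G μ) + ENNReal.ofReal (2 * C ^ 2 * Lκ ^ 2) * volume E := by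
    refine le_trans ?_ (A.sum_Gam hE hε)
    have hinj : Function.Injective (fun i : SqIn 𝒬 W => (⟨i.1, i.2.1⟩ : 𝒬)) :=
      fun i j hij => Subtype.ext (by simpa using hij)
    rw [← hinj.tsum_eq (f := fun Q : 𝒬 => ENNReal.ofReal (ch E univ (fap κ T ψ ε) Q.1 ^ 2))]
    · exact ENNReal.tsum_le_tsum fun i => A.ch_le hE hε hκ hT hK hC hW i
    · intro Q hQ
      by_contra hcon
      apply hQ
      have : ¬ Q.1.car ⊆ W := fun h => hcon ⟨⟨Q.1, Q.2, h⟩, rfl⟩
      simp only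
      rw [hout Q this]; simp
  have hnn : ∀ Q : 𝒬, 0 ≤ ch E univ (fap κ T ψ ε) Q.1 ^ 2 := fun Q => sq_nonneg _
  have hsm : Summable fun Q : 𝒬 => ch E univ (fap κ T ψ ε) Q.1 ^ 2 :=
    summable_of_tsum_ofReal hnn (ne_top_of_le_ne_top hfin hsum)
  unfold Ch
  rw [← ENNReal.toReal_ofReal (tsum_nonneg hnn), ENNReal.ofReal_tsum_of_nonneg hnn hsm]
  exact ENNReal.toReal_mono hfin hsum

end one

/-- **The planar approximation.** -/
theorem Aps.plaLim (A : Aps E W 𝒬 f ψ Ψ G μ o) (hE : QPic E 𝒬 𝓗) {κ : ℝ × ℝ → ℝ} {T : ℝ → ℝ}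
    {Lκ LT : ℝ≥0} {C : ℝ} (hκ : LipschitzWith Lκ κ) (hκc : HasCompactSupport κ)
    (hκW : tsupport κ ⊆ W) (hT : LipschitzWith LT T) (hC : ∀ s, |T s| ≤ C) :
    PlaLim E 𝒬 fun p => κ p * T (f p) := by
  obtain ⟨K, hK⟩ := hκc.exists_bound_of_continuous hκ.continuous
  simp only [Real.norm_eq_abs] at hK
  have hK0 : 0 ≤ K := (abs_nonneg _).trans (hK 0)
  have hC0 : 0 ≤ C := (abs_nonneg _).trans (hC 0)
  obtain ⟨δ, hδ, hδW⟩ := IsCompact.exists_cthickening_subset_open hκc A.hW hκW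
  set e : ℕ → ℝ := fun n => δ / 6 / (n + 1) with he
  have he0 : ∀ n, 0 < e n := fun n => by rw [he]; positivity
  have heδ : ∀ n, e n ≤ δ / 6 := by
    intro n
    rw [he]
    refine div_le_self (by positivity) ?_
    have : (0 : ℝ) ≤ n := n.cast_nonneg
    linarith
  have hW : ∀ n, ∀ p ∈ tsupport κ, closedBall p (6 * e n) ⊆ W := by
    intro n p hp
    refine (closedBall_subset_cthickening hp _).trans ((cthickening_mono ?_ _).trans hδW)
    linarith [heδ n]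
  refine ⟨fun n => fap κ T ψ (e n), fun n => A.lip (he0 n) hκ hT hK hC (hW n),
    ⟨tsupport κ, hκc, fun n p hp => fap_zero hp⟩, ⟨K * C, fun n p => ?_⟩, fun p hp => ?_, ?_⟩
  · unfold fap
    rw [abs_mul]
    gcongr
    · exact hK p
    · exact hC _
  · unfold fap
    by_cases hpK : p ∈ tsupport κ
    · refine Tendsto.const_mul _ ((hT.continuous.tendsto _).comp ?_)
      rw [Metric.tendsto_atTop]
      intro η hη
      obtain ⟨r, hr, h1⟩ := A.bm_lim hE (p := p) ⟨hκW hpK, hp⟩ (half_pos hη)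
      have hlim : Tendsto e atTop (𝓝 0) := by
        have := tendsto_one_div_add_atTop_nhds_zero_nat (𝕜 := ℝ)
        have h2 := this.const_mul (δ / 6)
        rw [mul_zero] at h2
        refine h2.congr fun n => ?_
        rw [he]; ring
      obtain ⟨N, hN⟩ := Filter.eventually_atTop.mp (hlim.eventually (gt_mem_nhds hr))
      refine ⟨N, fun n hn => ?_⟩
      rw [Real.dist_eq]
      exact (h1 (e n) (he0 n) (hN n hn).le).trans_lt (by linarith)
    · have h0 : κ p = 0 := image_eq_zero_of_notMem_tsupport hpK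
      simp only [h0, zero_mul]
      exact tendsto_const_nhds
  · refine ⟨(ENNReal.ofReal (K ^ 2 * LT ^ 2) * AA E W 𝒬 G μ +
      ENNReal.ofReal (4 * C ^ 2 * Lκ ^ 2) * volume (tsupport κ)).toReal +
      (ENNReal.ofReal (K ^ 2 * LT ^ 2) * (32 * (∑' i : SqIn 𝒬 W, ENNReal.ofReal (o i.1 ^ 2)) +
        51 * AA E W 𝒬 G μ) + ENNReal.ofReal (2 * C ^ 2 * Lκ ^ 2) * volume E).toReal,
      fun n => ?_⟩
    unfold TQ
    exact add_le_add (A.en hE (he0 n) hκ hκc hT hK hC (hW n))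
      (A.Ch_le hE (he0 n) hκ hT hK hC (hW n))

end Crest.Agent.R105.Mq_347
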