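import Crest.Agent.R105.Mq4_347
import Crest.Agent.R105.Mq7_347

/-! Row 105, S0138, NI-10: MOLLQ, part F: the planar approximation from the glued data. -/

set_option autoImplicit false

open MeasureTheory Set Metric Filter Topology
open scoped ENNReal NNReal Function

namespace Crest.Agent.R105.Mq_347

open Crest.Agent.R105.CF_363 Crest.Agent.R105.Stp_722 Crest.Agent.R105.Cq_463
open Crest.Agent.R105.Psq_425
open Crest.Agent.R105.SqF_136 (FillC FillP fill2)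

/-- the glued data -/
structure GlueD (E W : Set (ℝ × ℝ)) (𝒬 : Set Sqr) (f ψ Ψ X1 X2 : ℝ × ℝ → ℝ)
    (n1 n2 : Sqr → Measure (ℝ × ℝ)) : Prop where
  hW : IsOpen W
  alt : ∀ Q ∈ 𝒬, Q.car ⊆ W ∨ Disjoint Q.car W
  m1 : Measurable X1
  m2 : Measurable X2
  i1 : Integrable X1
  i2 : Integrable X2
  s1 : IntegrableOn (fun p => X1 p ^ 2) (W \ E)
  s2 : IntegrableOn (fun p => X2 p ^ 2) (W \ E)
  V : ∀ᵐ x : ℝ, ∀ y y', y ≤ y' → (∀ t ∈ Icc y y', (x, t) ∈ W) →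
    ψ (x, y') - ψ (x, y) = ∫ t in y..y', X1 (x, t)
  H : ∀ᵐ y : ℝ, ∀ x x', x ≤ x' → (∀ s ∈ Icc x x', (s, y) ∈ W) →
    Ψ (x', y) - Ψ (x, y) = -∫ s in x..x', X2 (s, y)
  ae_eq : ∀ᵐ p : ℝ × ℝ, p ∈ W → Ψ p = ψ p
  int : ∀ z r, closedBall z r ⊆ W → IntegrableOn ψ (closedBall z r)
  cont : ContinuousOn f (W \ E)
  eq : ∀ᵐ p : ℝ × ℝ, p ∈ W \ E → ψ p = f p
  fin1 : ∀ Q ∈ 𝒬, Q.car ⊆ W → IsFiniteMeasure (n1 Q)
  fin2 : ∀ Q ∈ 𝒬, Q.car ⊆ W → IsFiniteMeasure (n2 Q)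
  c1 : ∀ Q ∈ 𝒬, Q.car ⊆ W → n1 Q Q.carᶜ = 0
  c2 : ∀ Q ∈ 𝒬, Q.car ⊆ W → n2 Q Q.carᶜ = 0
  mass : ∀ Q ∈ 𝒬, Q.car ⊆ W → n1 Q univ = n2 Q univ
  mass2 : Summable fun i : SqIn 𝒬 W => (n1 i.1 univ).toReal ^ 2
  F1 : ∀ Q ∈ 𝒬, Q.car ⊆ W → ∀ (L : ℝ) (e : ℝ × ℝ → ℝ), 0 ≤ L →
    (∀ p q, |e p - e q| ≤ L * dist p q) →
    ∫ p in ball (cen Q) (Q.s / 2), (X1 p * gx e p + X2 p * gy e p) =
      (∫ p, e p ∂(n1 Q)) - ∫ p, e p ∂(n2 Q)

variable {E W : Set (ℝ × ℝ)} {𝒬 : Set Sqr} {𝓗 : Set Hair} {f ψ Ψ X1 X2 : ℝ × ℝ → ℝ}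
  {n1 n2 : Sqr → Measure (ℝ × ℝ)}

theorem int_x {X : ℝ × ℝ → ℝ} (h : Integrable X) : ∀ᵐ x : ℝ, Integrable fun t : ℝ => X (x, t) := by
  rw [Measure.volume_eq_prod] at h
  exact h.prod_right_ae

theorem int_y {X : ℝ × ℝ → ℝ} (h : Integrable X) : ∀ᵐ y : ℝ, Integrable fun s : ℝ => X (s, y) := by
  rw [Measure.volume_eq_prod] at h
  exact h.prod_left_ae

/-- a function with compact support box and an integrable vertical derivative is integrable -/
theorem int_of_V {δ D : ℝ × ℝ → ℝ} {a b c B : ℝ} (hm : Measurable δ) (hD : Integrable D)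
    (hz : ∀ p, ¬ (p.1 ∈ Ioo a b ∧ p.2 ∈ Ioo c B) → δ p = 0)
    (hV : ∀ᵐ x : ℝ, ∀ y y', δ (x, y') - δ (x, y) = ∫ t in y..y', D (x, t)) : Integrable δ := by
  have hK : Integrable fun x : ℝ => ∫ t, |D (x, t)| := by
    have h1 := hD.abs
    rw [Measure.volume_eq_prod] at h1
    exact h1.integral_prod_left
  have hI : Integrable ((Ioo c B).indicator fun _ => (1 : ℝ)) :=
    (integrable_indicator_iff measurableSet_Ioo).mpr
      (integrableOn_const (by rw [Real.volume_Ioo]; exact ENNReal.ofReal_ne_top))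
  have hg := hK.mul_prod hI
  rw [← Measure.volume_eq_prod] at hg
  refine Integrable.mono' hg hm.aestronglyMeasurable ?_
  filter_upwards [ae_fst' hV, ae_fst' (int_x hD)] with p h1 h2
  by_cases hp : p.2 ∈ Ioo c B
  · simp only [indicator_of_mem hp, mul_one]
    have e1 : δ p = ∫ t in c..p.2, D (p.1, t) := by
      have h3 := h1 c p.2
      rw [hz (p.1, c) (fun hh => lt_irrefl _ hh.2.1), sub_zero] at h3
      exact h3
    rw [e1]
    refine (intervalIntegral.norm_integral_le_integral_norm hp.1.le).trans ?_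
    rw [intervalIntegral.integral_of_le hp.1.le]
    exact setIntegral_le_integral h2.abs (Eventually.of_forall fun t => abs_nonneg _)
  · simp only [indicator_of_notMem hp, mul_zero]
    rw [hz p (fun hh => hp hh.2)]; simp

theorem enorm_ii_le {g : ℝ → ℝ} {x x' : ℝ} (hxx : x ≤ x') {k : ℝ → ℝ≥0∞}
    (hk : ∀ s, ‖g s‖ₑ ≤ k s) : ‖∫ s in x..x', g s‖ₑ ≤ ∫⁻ s in Icc x x', k s := by
  rw [intervalIntegral.integral_of_le hxx]
  refine (enorm_integral_le_lintegral_enorm _).trans ?_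
  refine le_trans (lintegral_mono fun s => hk s) (lintegral_mono_set Ioc_subset_Icc_self)

/-- oscillation over a filled square -/
theorem osc_fill {c : ℝ × ℝ} {h : ℝ} (hh : 0 < h) {ν1 ν2 : Measure (ℝ × ℝ)}
    {Y1 Y2 Z1 Z2 : ℝ × ℝ → ℝ} (hY : FillP c.1 c.2 h ν1 ν2 Y1 Y2)
    (hZ : ∀ p ∈ ball c h, Z1 p = Y1 p ∧ Z2 p = Y2 p)
    (hsub : closedBall c h ⊆ W)
    (hV : ∀ᵐ x : ℝ, ∀ y y', y ≤ y' → (∀ t ∈ Icc y y', (x, t) ∈ W) →
      ψ (x, y') - ψ (x, y) = ∫ t in y..y', Z1 (x, t))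
    (hH : ∀ᵐ y : ℝ, ∀ x x', x ≤ x' → (∀ s ∈ Icc x x', (s, y) ∈ W) →
      Ψ (x', y) - Ψ (x, y) = -∫ s in x..x', Z2 (s, y))
    (hE : ∀ᵐ p : ℝ × ℝ, p ∈ W → Ψ p = ψ p) :
    ∃ m, ∀ᵐ p : ℝ × ℝ, p ∈ closedBall c h → |ψ p - m| ≤ 2 * (ν1 univ + ν2 univ).toReal := by
  set ν := (ν1 univ + ν2 univ).toReal with hν
  -- vertical
  have hVb : ∀ᵐ x : ℝ, x ∈ Ioo (c.1 - h) (c.1 + h) → ∀ y ∈ Icc (c.2 - h) (c.2 + h),
      ∀ y' ∈ Icc (c.2 - h) (c.2 + h), |ψ (x, y') - ψ (x, y)| ≤ ν := by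
    filter_upwards [hV, hY.Lx] with x h1 h2 hx
    have key : ∀ y ∈ Icc (c.2 - h) (c.2 + h), ∀ y' ∈ Icc (c.2 - h) (c.2 + h), y ≤ y' →
        |ψ (x, y') - ψ (x, y)| ≤ ν := by
      intro y hy y' hy' hyy
      rw [h1 y y' hyy fun t ht => hsub (by
        rw [mem_cb_iff]
        exact ⟨abs_le.mpr ⟨by linarith [hx.1], by linarith [hx.2]⟩,
          abs_le.mpr ⟨by linarith [ht.1, hy.1], by linarith [ht.2, hy'.2]⟩⟩)]
      have e1 : ∫ t in y..y', Z1 (x, t) = ∫ t in y..y', Y1 (x, t) := by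
        rw [intervalIntegral.integral_of_le hyy, intervalIntegral.integral_of_le hyy,
          integral_Ioc_eq_integral_Ioo, integral_Ioc_eq_integral_Ioo]
        refine setIntegral_congr_fun measurableSet_Ioo fun t ht => ?_
        refine (hZ (x, t) ?_).1
        rw [mem_ball_iff]
        exact ⟨hx, by linarith [ht.1, hy.1], by linarith [ht.2, hy'.2]⟩
      rw [e1]
      have e2 := intervalIntegral.norm_integral_le_integral_norm (μ := volume)
        (f := fun t => Y1 (x, t)) hyy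
      rw [Real.norm_eq_abs] at e2
      refine e2.trans (le_trans ?_ h2.2)
      rw [intervalIntegral.integral_of_le hyy]
      exact setIntegral_le_integral h2.1.abs (Eventually.of_forall fun t => abs_nonneg _)
    intro y hy y' hy'
    rcases le_total y y' with hyy | hyy
    · exact key y hy y' hy' hyy
    · rw [abs_sub_comm]; exact key y' hy' y hy hyy
  have hHb : ∀ᵐ y : ℝ, y ∈ Ioo (c.2 - h) (c.2 + h) → ∀ x ∈ Icc (c.1 - h) (c.1 + h),
      ∀ x' ∈ Icc (c.1 - h) (c.1 + h), |Ψ (x', y) - Ψ (x, y)| ≤ ν := by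
    filter_upwards [hH, hY.Ly] with y h1 h2 hy
    have key : ∀ x ∈ Icc (c.1 - h) (c.1 + h), ∀ x' ∈ Icc (c.1 - h) (c.1 + h), x ≤ x' →
        |Ψ (x', y) - Ψ (x, y)| ≤ ν := by
      intro x hx x' hx' hxx
      rw [h1 x x' hxx fun t ht => hsub (by
        rw [mem_cb_iff]
        exact ⟨abs_le.mpr ⟨by linarith [ht.1, hx.1], by linarith [ht.2, hx'.2]⟩,
          abs_le.mpr ⟨by linarith [hy.1], by linarith [hy.2]⟩⟩)]
      have e1 : ∫ t in x..x', Z2 (t, y) = ∫ t in x..x', Y2 (t, y) := by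
        rw [intervalIntegral.integral_of_le hxx, intervalIntegral.integral_of_le hxx,
          integral_Ioc_eq_integral_Ioo, integral_Ioc_eq_integral_Ioo]
        refine setIntegral_congr_fun measurableSet_Ioo fun t ht => ?_
        refine (hZ (t, y) ?_).2
        rw [mem_ball_iff]
        exact ⟨⟨by linarith [ht.1, hx.1], by linarith [ht.2, hx'.2]⟩, hy⟩
      rw [e1, abs_neg]
      have e2 := intervalIntegral.norm_integral_le_integral_norm (μ := volume)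
        (f := fun t => Y2 (t, y)) hxx
      rw [Real.norm_eq_abs] at e2
      refine e2.trans (le_trans ?_ h2.2)
      rw [intervalIntegral.integral_of_le hxx]
      exact setIntegral_le_integral h2.1.abs (Eventually.of_forall fun t => abs_nonneg _)
    intro x hx x' hx'
    rcases le_total x x' with hxx | hxx
    · exact key x hx x' hx' hxx
    · rw [abs_sub_comm]; exact key x' hx' x hx hxx
  -- a good vertical line
  have hEx : ∀ᵐ x : ℝ, ∀ᵐ y : ℝ, (x, y) ∈ W → Ψ (x, y) = ψ (x, y) := ae_unswap hE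
  have hpos : (volume : Measure ℝ) (Ioo (c.1 - h) (c.1 + h)) ≠ 0 := by
    rw [Real.volume_Ioo]
    simp only [ne_eq, ENNReal.ofReal_eq_zero, not_le]
    linarith
  obtain ⟨x0, hx0, hx1, hx2⟩ :=
    (frequently_ae_mem_iff.mpr hpos |>.and_eventually (hVb.and hEx)).exists
  refine ⟨ψ (x0, c.2), ?_⟩
  have hnb : ∀ᵐ p : ℝ × ℝ, p ∈ closedBall c h → p ∈ ball c h := by
    filter_upwards [(ball_ae_closedBall c hh).mem_iff] with p hp hpc using hp.mp hpc
  filter_upwards [hE, ae_snd' hHb, ae_snd' hx2, hnb] with p h1 h2 h3 h4 hp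
  have hpb := h4 hp
  rw [mem_ball_iff] at hpb
  have hpI1 : p.1 ∈ Icc (c.1 - h) (c.1 + h) := Ioo_subset_Icc_self hpb.1
  have hpI2 : p.2 ∈ Icc (c.2 - h) (c.2 + h) := Ioo_subset_Icc_self hpb.2
  have hcI : c.2 ∈ Icc (c.2 - h) (c.2 + h) := ⟨by linarith, by linarith⟩
  have k1 := h2 hpb.2 x0 (Ioo_subset_Icc_self hx0) p.1 hpI1
  have k2 := hx1 hx0 c.2 hcI p.2 hpI2
  have k3 : Ψ (x0, p.2) = ψ (x0, p.2) := h3 (hsub (by
    rw [mem_cb_iff]
    exact ⟨abs_le.mpr ⟨by linarith [hx0.1], by linarith [hx0.2]⟩,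
      abs_le.mpr ⟨by linarith [hpI2.1], by linarith [hpI2.2]⟩⟩))
  have k4 : Ψ p = ψ p := h1 (hsub hp)
  have k5 : Ψ (p.1, p.2) = ψ p := k4
  rw [k3, k5] at k1
  have e : ψ p - ψ (x0, c.2) = (ψ p - ψ (x0, p.2)) + (ψ (x0, p.2) - ψ (x0, c.2)) := by ring
  rw [e]
  refine (abs_add_le _ _).trans ?_
  linarith

/-- **the data of the approximation theorem from the glued data** -/
theorem GlueD.aps (D : GlueD E W 𝒬 f ψ Ψ X1 X2 n1 n2) (hE : QPic E 𝒬 𝓗) :
    ∃ (G : ℝ × ℝ → ℝ≥0∞) (ψ' Ψ' : ℝ × ℝ → ℝ) (o : Sqr → ℝ),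
      Aps E W 𝒬 f ψ' Ψ' G (fun Q => n1 Q + n2 Q) o := by
  have hcount : Countable (SqIn 𝒬 W) := SqIn.countable hE
  have hf1 : ∀ i : SqIn 𝒬 W, IsFiniteMeasure (n1 i.1) := fun i => D.fin1 i.1 i.2.1 i.2.2
  have hf2 : ∀ i : SqIn 𝒬 W, IsFiniteMeasure (n2 i.1) := fun i => D.fin2 i.1 i.2.1 i.2.2
  -- a box
  obtain ⟨R, hR0, hR⟩ := hE.cpt.isBounded.subset_ball_lt 0 (0 : ℝ × ℝ)
  have hbox : ∀ i : SqIn 𝒬 W, ball (cen i.1) (i.1.s / 2) ⊆ Ioo (-R) R ×ˢ Ioo (-R) R := by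
    intro i p hp
    have h1 : p ∈ ball (0 : ℝ × ℝ) R := hR (hE.sub i.1 i.2.1 (by
      rw [car_eq]; exact ball_subset_closedBall hp))
    rw [mem_ball_iff] at h1
    simpa using h1
  have hUE : (⋃ i : SqIn 𝒬 W, ball (cen i.1) (i.1.s / 2)) ⊆ E := by
    refine iUnion_subset fun i => (ball_subset_closedBall.trans ?_)
    rw [← car_eq]; exact hE.sub i.1 i.2.1
  have hd : Pairwise fun i j : SqIn 𝒬 W =>
      Disjoint (ball (cen i.1) (i.1.s / 2)) (ball (cen j.1) (j.1.s / 2)) := by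
    intro i j hij
    exact (SqIn.disj hE hij).mono ball_subset_closedBall ball_subset_closedBall
  have hmass : ∀ i : SqIn 𝒬 W, (n1 i.1 univ + n2 i.1 univ).toReal = 2 * (n1 i.1 univ).toReal := by
    intro i
    rw [← D.mass i.1 i.2.1 i.2.2, ENNReal.toReal_add (measure_ne_top _ _) (measure_ne_top _ _)]
    ring
  have hs2 : Summable fun i : SqIn 𝒬 W => (i.1.s / 2) ^ 2 := by
    have h1 := hE.summable_sq
    have h2 := h1.comp_injective (i := fun i : SqIn 𝒬 W => (⟨i.1, i.2.1⟩ : 𝒬))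
      (fun i j hij => Subtype.ext (by simpa using hij))
    refine (h2.mul_left (1 / 4)).congr fun i => ?_
    simp only [Function.comp]
    ring
  have hs : Summable fun i : SqIn 𝒬 W => i.1.s / 2 * (n1 i.1 univ + n2 i.1 univ).toReal := by
    refine Summable.of_nonneg_of_le (fun i => ?_) (fun i => ?_) (hs2.add D.mass2)
    · have := i.pos
      have h2 : 0 ≤ (n1 i.1 univ + n2 i.1 univ).toReal := ENNReal.toReal_nonneg
      positivity
    · rw [hmass]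
      nlinarith [sq_nonneg (i.1.s / 2 - (n1 i.1 univ).toReal)]
  obtain ⟨Z1, Z2, Y1, Y2, δV, δH, hY, mZ1, mZ2, iZ1, iZ2, ho, hi, mδV, mδH, hδ0, hδe, hδV, hδH⟩ :=
    refill (c := fun i : SqIn 𝒬 W => cen i.1) (h := fun i => i.1.s / 2) (fun i => i.pos) hd
      (show -R < R by linarith) hbox (fun i => n1 i.1) (fun i => n2 i.1)
      (fun i => by rw [← car_eq]; exact D.c1 i.1 i.2.1 i.2.2)
      (fun i => by rw [← car_eq]; exact D.c2 i.1 i.2.1 i.2.2)
      (fun i => D.mass i.1 i.2.1 i.2.2) hs D.m1 D.m2 D.i1 D.i2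
      (fun i => D.F1 i.1 i.2.1 i.2.2)
  -- the line formulas
  have hV : ∀ᵐ x : ℝ, ∀ y y', y ≤ y' → (∀ t ∈ Icc y y', (x, t) ∈ W) →
      (ψ (x, y') - δV (x, y')) - (ψ (x, y) - δV (x, y)) = ∫ t in y..y', Z1 (x, t) := by
    filter_upwards [D.V, hδV, int_x D.i1, int_x iZ1] with x h1 h2 h3 h4 y y' hyy hW
    have e1 := h1 y y' hyy hW
    have e2 := h2 y y'
    rw [intervalIntegral.integral_sub h3.intervalIntegrable h4.intervalIntegrable] at e2
    linarith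
  have hH : ∀ᵐ y : ℝ, ∀ x x', x ≤ x' → (∀ s ∈ Icc x x', (s, y) ∈ W) →
      (Ψ (x', y) - δH (x', y)) - (Ψ (x, y) - δH (x, y)) = -∫ s in x..x', Z2 (s, y) := by
    filter_upwards [D.H, hδH, int_y D.i2, int_y iZ2] with y h1 h2 h3 h4 x x' hxx hW
    have e1 := h1 x x' hxx hW
    have e2 := h2 x x'
    rw [intervalIntegral.integral_sub h3.intervalIntegrable h4.intervalIntegrable] at e2
    linarith
  have hEe : ∀ᵐ p : ℝ × ℝ, p ∈ W → Ψ p - δH p = ψ p - δV p := by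
    filter_upwards [D.ae_eq, hδe] with p h1 h2 hp
    rw [h1 hp, h2]
  have iδV : Integrable δV := by
    refine int_of_V mδV (D.i1.sub iZ1) (a := -R) (b := R) (c := -R) (B := R) (fun p hp => ?_) hδV
    refine (hδ0 p fun hc => hp ?_).1
    obtain ⟨i, hi'⟩ := mem_iUnion.mp hc
    have := hbox i hi'
    exact ⟨this.1, this.2⟩
  have hEm := hE.cpt.isClosed.measurableSet
  have hWE : MeasurableSet (W \ E) := D.hW.measurableSet.diff hEm
  have hZX : ∀ p ∈ W \ E, Z1 p = X1 p ∧ Z2 p = X2 p := fun p hp => ho p fun hc => hp.2 (hUE hc)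
  refine ⟨GZ Z1 Z2, fun p => ψ p - δV p, fun p => Ψ p - δH p,
    fun Q => 2 * (n1 Q univ + n2 Q univ).toReal, ?_⟩
  exact
  { hW := D.hW
    alt := D.alt
    mG := measurable_GZ mZ1 mZ2
    G1 := by
      refine ne_top_of_le_ne_top ?_ (setLIntegral_le_lintegral W _)
      unfold GZ
      rw [lintegral_add_left mZ1.enorm]
      exact ENNReal.add_ne_top.mpr ⟨iZ1.2.ne, iZ2.2.ne⟩
    G2 := by
      have e1 : ∀ X : ℝ × ℝ → ℝ, IntegrableOn (fun p => X p ^ 2) (W \ E) →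
          ∫⁻ p in W \ E, ‖X p‖ₑ ^ 2 ≠ ∞ := by
        intro X hX
        have h1 := hX.2
        unfold HasFiniteIntegral at h1
        simp only [enorm_pow] at h1
        exact h1.ne
      have e2 : ∫⁻ p in W \ E, GZ Z1 Z2 p ^ 2 ≤
          ∫⁻ p in W \ E, 2 * (‖X1 p‖ₑ ^ 2 + ‖X2 p‖ₑ ^ 2) := by
        refine setLIntegral_mono' hWE fun p hp => ?_
        unfold GZ
        rw [(hZX p hp).1, (hZX p hp).2]
        exact sq2 _ _
      refine ne_top_of_le_ne_top ?_ e2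
      rw [lintegral_const_mul' _ _ (by norm_num), lintegral_add_left (D.m1.enorm.pow_const 2)]
      exact ENNReal.mul_ne_top (by norm_num) (ENNReal.add_ne_top.mpr ⟨e1 _ D.s1, e1 _ D.s2⟩)
    L :=
    { H := by
        filter_upwards [hH] with y h1 x x' hxx hW
        rw [h1 x x' hxx hW, enorm_neg]
        exact enorm_ii_le hxx fun s => le_add_self
      V := by
        filter_upwards [hV] with x h1 y y' hyy hW
        rw [h1 y y' hyy hW]
        exact enorm_ii_le hyy fun s => le_self_add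
      E := hEe }
    int := fun z r hz => (D.int z r hz).sub iδV.integrableOn
    cont := D.cont
    eq := by
      filter_upwards [D.eq] with p hp hpW
      rw [(hδ0 p fun hc => hpW.2 (hUE hc)).1, sub_zero]
      exact hp hpW
    fin := by
      intro Q hQ hQW
      have := D.fin1 Q hQ hQW
      have := D.fin2 Q hQ hQW
      infer_instance
    flx := by
      intro Q hQ hQW z r hr hz
      exact flux_local (c := fun i : SqIn 𝒬 W => cen i.1) (h := fun i => i.1.s / 2)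
        (fun i => i.pos) hY hi ⟨Q, hQ, hQW⟩ z r hr hz
    μ2 := by
      have h1 : ∀ i : SqIn 𝒬 W, (n1 i.1 + n2 i.1) univ ^ 2 =
          ENNReal.ofReal ((2 * (n1 i.1 univ).toReal) ^ 2) := by
        intro i
        rw [Measure.add_apply, ← hmass, ENNReal.ofReal_pow ENNReal.toReal_nonneg,
          ENNReal.ofReal_toReal (ENNReal.add_ne_top.mpr ⟨measure_ne_top _ _, measure_ne_top _ _⟩)]
      simp_rw [h1]
      have h2 : Summable fun i : SqIn 𝒬 W => (2 * (n1 i.1 univ).toReal) ^ 2 := by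
        refine (D.mass2.mul_left 4).congr fun i => by ring
      rw [← ENNReal.ofReal_tsum_of_nonneg (fun i => sq_nonneg _) h2]
      exact ENNReal.ofReal_ne_top
    o0 := fun Q => by positivity
    o2 := by
      have h2 : Summable fun i : SqIn 𝒬 W =>
          (2 * (n1 i.1 univ + n2 i.1 univ).toReal) ^ 2 := by
        refine (D.mass2.mul_left 16).congr fun i => ?_
        rw [hmass]; ring
      rw [← ENNReal.ofReal_tsum_of_nonneg (fun i => sq_nonneg _) h2]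
      exact ENNReal.ofReal_ne_top
    osc := by
      intro Q hQ hQW
      refine osc_fill (W := W) (Z1 := Z1) (Z2 := Z2) (SqIn.pos ⟨Q, hQ, hQW⟩) (hY ⟨Q, hQ, hQW⟩)
        (hi ⟨Q, hQ, hQW⟩) ?_ hV hH hEe
      rw [← car_eq]; exact hQW }

/-- **PlaLim from the glued data.** -/
theorem GlueD.plaLim (D : GlueD E W 𝒬 f ψ Ψ X1 X2 n1 n2) (hE : QPic E 𝒬 𝓗)
    {κ : ℝ × ℝ → ℝ} {T : ℝ → ℝ}
    {Lκ LT : ℝ≥0} {C : ℝ} (hκ : LipschitzWith Lκ κ) (hκc : HasCompactSupport κ)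
    (hκW : tsupport κ ⊆ W) (hT : LipschitzWith LT T) (hC : ∀ s, |T s| ≤ C) :
    PlaLim E 𝒬 fun p => κ p * T (f p) := by
  obtain ⟨G, ψ', Ψ', o, A⟩ := D.aps hE
  exact A.plaLim hE hκ hκc hκW hT hC

end Crest.Agent.R105.Mq_347
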