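import Crest.Agent.R105.Mr1_61

/-!
# Row 105, ATT (B): monotone replacement on a finite grid of levels (helper61)
-/

set_option autoImplicit false

open Set Filter Topology Metric Bornology
open scoped ContDiff

namespace Crest.Agent.R105.Mr_61

/-- far away the function only depends on `re z` -/
def FarRe (u : ℂ → ℝ) (R : ℝ) : Prop :=
  ∀ z w : ℂ, R ≤ ‖z‖ → R ≤ ‖w‖ → z.re = w.re → u z = u w

lemma FarRe.neg {u : ℂ → ℝ} {R : ℝ} (h : FarRe u R) : FarRe (fun z => -u z) R :=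
  fun z w hz hw h1 => by simp only [h z w hz hw h1]

lemma FarRe.congr {u u' : ℂ → ℝ} {R : ℝ} (h : FarRe u R) (h' : ∀ z, R ≤ ‖z‖ → u' z = u z) :
    FarRe u' R := fun z w hz hw h1 => by rw [h' z hz, h' w hw, h z w hz hw h1]

lemma farRe_re {u : ℂ → ℝ} {R : ℝ} (h : ∀ z, R ≤ ‖z‖ → u z = z.re) : FarRe u R :=
  fun z w hz hw h1 => by rw [h z hz, h w hw, h1]

/-- far points lie in unbounded components of superlevel sets -/
lemma far_unbounded {u : ℂ → ℝ} {R : ℝ} (h : FarRe u R) (t : ℝ) :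
    ∀ z, t < u z → R ≤ ‖z‖ → ¬ IsBounded (connectedComponentIn {w | t < u w} z) := by
  intro z hz hR hb
  -- a vertical ray away from the real axis
  obtain ⟨σ, hσ, hσ1⟩ : ∃ σ : ℝ, 0 ≤ σ * z.im ∧ |σ| = 1 := by
    rcases le_total 0 z.im with h1 | h1
    · exact ⟨1, by linarith, by norm_num⟩
    · exact ⟨-1, by linarith, by norm_num⟩
  set g : ℝ → ℂ := fun s => z + ((s * σ : ℝ) : ℂ) * Complex.I with hg
  have hgc : Continuous g := by
    rw [hg]
    exact continuous_const.add ((Complex.continuous_ofReal.comp (continuous_id.mul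
      continuous_const)).mul continuous_const)
  have hre : ∀ s, (g s).re = z.re := by intro s; simp [hg]
  have him : ∀ s, (g s).im = z.im + s * σ := by intro s; simp [hg]
  have hnorm : ∀ s, 0 ≤ s → ‖z‖ ≤ ‖g s‖ := by
    intro s hs
    rw [← sq_le_sq₀ (norm_nonneg _) (norm_nonneg _), ← Complex.normSq_eq_norm_sq,
      ← Complex.normSq_eq_norm_sq, Complex.normSq_apply, Complex.normSq_apply, hre, him]
    nlinarith [mul_nonneg hs hσ, mul_self_nonneg (s * σ)]
  have hsub : g '' Ici 0 ⊆ connectedComponentIn {w | t < u w} z := by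
    refine (isPreconnected_Ici.image g hgc.continuousOn).subset_connectedComponentIn
      ⟨0, mem_Ici.2 le_rfl, by simp [hg]⟩ ?_
    rintro _ ⟨s, hs, rfl⟩
    show t < u (g s)
    rw [h (g s) z (hR.trans (hnorm s hs)) hR (hre s)]
    exact hz
  have hb' := hb.subset hsub
  rw [isBounded_iff_forall_norm_le] at hb'
  obtain ⟨M, hM⟩ := hb'
  have h0 : 0 ≤ |M| + |z.im| + 1 := by positivity
  have h1 := hM (g (|M| + |z.im| + 1)) ⟨_, h0, rfl⟩
  have h2 : |(g (|M| + |z.im| + 1)).im| ≤ M := (Complex.abs_im_le_norm _).trans h1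
  rw [him] at h2
  have h3 : |M| + |z.im| + 1 ≤ |z.im + (|M| + |z.im| + 1) * σ| + |z.im| := by
    have h4 : |(|M| + |z.im| + 1) * σ| ≤ |z.im + (|M| + |z.im| + 1) * σ| + |z.im| := by
      have := abs_sub (z.im + (|M| + |z.im| + 1) * σ) z.im
      rwa [add_sub_cancel_left] at this
    rw [abs_mul, hσ1, mul_one, abs_of_nonneg h0] at h4
    exact h4
  have h5 := le_abs_self M
  linarith

/-- a class of functions closed under the two component switches -/
structure Cl (C : Set ℂ) (PP : (ℂ → ℝ) → Prop) : Prop where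
  up : ∀ (u : ℂ → ℝ) (t e : ℝ) (χ : ℂ → ℝ), PP u → 0 < e → Cut C χ →
    PP (fun z => u z - max (u z - t - e) 0 * χ z)
  dn : ∀ (u : ℂ → ℝ) (t e : ℝ) (χ : ℂ → ℝ), PP u → 0 < e → Cut C χ →
    PP (fun z => u z + max (t - e - u z) 0 * χ z)

/-- the relation "good replacement" -/
structure Rep (R : ℝ) (u u' : ℂ → ℝ) : Prop where
  cont : Continuous u'
  far : ∀ z, R ≤ ‖z‖ → u' z = u z
  grad : ∀ z, fderiv ℝ u' z = fderiv ℝ u z ∨ fderiv ℝ u' z = 0

lemma Rep.trans {R : ℝ} {u u' u'' : ℂ → ℝ} (h : Rep R u u') (h' : Rep R u' u'') : Rep R u u'' where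
  cont := h'.cont
  far z hz := by rw [h'.far z hz, h.far z hz]
  grad z := by
    rcases h'.grad z with h1 | h1
    · rcases h.grad z with h2 | h2
      · left; rw [h1, h2]
      · right; rw [h1, h2]
    · right; exact h1

/-- one superlevel step -/
theorem step_up {C : Set ℂ} (hC : IsCompact C) (htd : IsTotallyDisconnected C) {u : ℂ → ℝ}
    (hu : Continuous u) {R : ℝ} (hR : FarRe u R) {PP : (ℂ → ℝ) → Prop} (hcl : Cl C PP) (hP : PP u)
    (t : ℝ) {e : ℝ} (he : 0 < e) :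
    ∃ u', PP u' ∧ Rep R u u' ∧ (∀ z, u' z ≤ u z) ∧ Pp u' t e ∧
      (∀ s e', 0 < e' → Pp u s e' → Pp u' s e') ∧ (∀ s e', 0 < e' → Pm u s e' → Pm u' s e') := by
  obtain ⟨χ, hχ, hA⟩ := exists_adm hC htd hu he (far_unbounded hR t)
  refine ⟨sw u t e χ, hcl.up u t e χ hP he hχ, ⟨?_, ?_, fderiv_sw hu he hA⟩, sw_le hA,
    Pp_sw he hA, fun s e' he' h => Pp_sw_of he hA he' h, fun s e' he' h => Pm_sw_of hu he hA he' h⟩
  · exact hu.sub (((((hu.sub continuous_const).sub continuous_const)).max continuous_const).mul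
      hχ.sm.continuous)
  · intro z hz
    refine sw_not hA fun h => ?_
    exact far_unbounded hR t z h.1 hz h.2

/-- one sublevel step -/
theorem step_dn {C : Set ℂ} (hC : IsCompact C) (htd : IsTotallyDisconnected C) {u : ℂ → ℝ}
    (hu : Continuous u) {R : ℝ} (hR : FarRe u R) {PP : (ℂ → ℝ) → Prop} (hcl : Cl C PP) (hP : PP u)
    (t : ℝ) {e : ℝ} (he : 0 < e) :
    ∃ u', PP u' ∧ Rep R u u' ∧ (∀ z, u z ≤ u' z) ∧ Pm u' t e ∧
      (∀ s e', 0 < e' → Pp u s e' → Pp u' s e') ∧ (∀ s e', 0 < e' → Pm u s e' → Pm u' s e') := by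
  have hcl' : Cl C (fun v => PP (fun z => -v z)) := by
    refine ⟨fun v t e χ hv he hχ => ?_, fun v t e χ hv he hχ => ?_⟩
    · have := hcl.dn (fun z => -v z) (-t) e χ hv he hχ
      refine (congrArg PP (funext fun z => ?_)).mp this
      rw [show -t - e - -v z = v z - t - e by ring]; ring
    · have := hcl.up (fun z => -v z) (-t) e χ hv he hχ
      refine (congrArg PP (funext fun z => ?_)).mp this
      rw [show -v z - -t - e = t - e - v z by ring]; ring
  obtain ⟨v, hv, hr, hle, h1, h2, h3⟩ := step_up hC htd (u := fun z => -u z) hu.neg hR.neg hcl'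
    (by simpa using hP) (-t) he
  refine ⟨fun z => -v z, hv, ⟨hr.cont.neg, ?_, ?_⟩, ?_, ?_, ?_, ?_⟩
  · intro z hz
    rw [hr.far z hz, neg_neg]
  · intro z
    have e1 : fderiv ℝ (fun z => -v z) z = -fderiv ℝ v z := fderiv_fun_neg
    have e2 : fderiv ℝ (fun z => -u z) z = -fderiv ℝ u z := fderiv_fun_neg
    rcases hr.grad z with h | h
    · left; rw [e1, h, e2, neg_neg]
    · right; rw [e1, h, neg_zero]
  · intro z
    have := hle z
    linarith
  · rw [← Pp_neg]; simpa using h1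
  · intro s e' he' h
    rw [← Pm_neg]
    simpa using h3 (-s) e' he' (Pm_neg.2 h)
  · intro s e' he' h
    rw [← Pp_neg]
    simpa using h2 (-s) e' he' (Pp_neg.2 h)

/-- **MONOTONE REPLACEMENT** on a finite grid `T` of levels, with tolerance `e` -/
theorem exists_mono {C : Set ℂ} (hC : IsCompact C) (htd : IsTotallyDisconnected C) {u : ℂ → ℝ}
    (hu : Continuous u) {R : ℝ} (hR : FarRe u R) {PP : (ℂ → ℝ) → Prop} (hcl : Cl C PP) (hP : PP u)
    (T : Finset ℝ) {e : ℝ} (he : 0 < e) :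
    ∃ u', PP u' ∧ Rep R u u' ∧ ∀ t ∈ T, Pp u' t e ∧ Pm u' t e := by
  classical
  induction T using Finset.induction_on with
  | empty =>
    exact ⟨u, hP, ⟨hu, fun z _ => rfl, fun z => Or.inl rfl⟩, by simp⟩
  | insert t T _ ih =>
    obtain ⟨u₁, hP₁, hr₁, h₁⟩ := ih
    obtain ⟨u₂, hP₂, hr₂, -, h2t, h2p, h2m⟩ :=
      step_up hC htd hr₁.cont (hR.congr hr₁.far) hcl hP₁ t he
    obtain ⟨u₃, hP₃, hr₃, -, h3t, h3p, h3m⟩ :=
      step_dn hC htd hr₂.cont ((hR.congr hr₁.far).congr hr₂.far) hcl hP₂ t he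
    refine ⟨u₃, hP₃, (hr₁.trans hr₂).trans hr₃, fun s hs => ?_⟩
    rcases Finset.mem_insert.1 hs with rfl | hs
    · exact ⟨h3p _ e he h2t, h3t⟩
    · exact ⟨h3p s e he (h2p s e he (h₁ s hs).1), h3m s e he (h2m s e he (h₁ s hs).2)⟩

/-- pointwise energy identity for a replacement -/
theorem Rep.energy {R : ℝ} {u u' : ℂ → ℝ} (h : Rep R u u') (z v : ℂ) :
    (fderiv ℝ u z v - fderiv ℝ u' z v) ^ 2 = fderiv ℝ u z v ^ 2 - fderiv ℝ u' z v ^ 2 := by
  rcases h.grad z with h1 | h1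
  · rw [h1]; ring
  · rw [h1]; simp

/-- a grid: for `z` with `u z < c` there is a grid level between -/
theorem exists_grid (M e : ℝ) (he : 0 < e) :
    ∃ T : Finset ℝ, ∀ c, |c| ≤ M → ∃ t ∈ T, c ≤ t ∧ t ≤ c + e := by
  classical
  obtain ⟨N, hN⟩ := exists_nat_gt (2 * (|M| + 1) / e + 1)
  refine ⟨(Finset.range (N + 1)).image fun k : ℕ => -|M| + k * e, fun c hc => ?_⟩
  have hM : |c| ≤ |M| := hc.trans (le_abs_self M)
  have h0 : 0 ≤ c + |M| := by linarith [neg_abs_le c]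
  refine ⟨-|M| + (⌈(c + |M|) / e⌉₊ : ℕ) * e, ?_, ?_, ?_⟩
  · rw [Finset.mem_image]
    refine ⟨⌈(c + |M|) / e⌉₊, ?_, rfl⟩
    rw [Finset.mem_range]
    have h1 : (⌈(c + |M|) / e⌉₊ : ℝ) < (c + |M|) / e + 1 := Nat.ceil_lt_add_one (by positivity)
    have h2 : (c + |M|) / e ≤ 2 * (|M| + 1) / e := by
      gcongr
      linarith [le_abs_self c]
    have h3 : (⌈(c + |M|) / e⌉₊ : ℝ) < N := by linarith
    have h4 : ⌈(c + |M|) / e⌉₊ < N := by exact_mod_cast h3
    omega
  · have h1 : (c + |M|) / e ≤ ⌈(c + |M|) / e⌉₊ := Nat.le_ceil _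
    rw [div_le_iff₀ he] at h1
    linarith
  · have h1 : (⌈(c + |M|) / e⌉₊ : ℝ) < (c + |M|) / e + 1 := Nat.ceil_lt_add_one (by positivity)
    have h2 : (⌈(c + |M|) / e⌉₊ : ℝ) * e ≤ ((c + |M|) / e + 1) * e :=
      mul_le_mul_of_nonneg_right h1.le he.le
    rw [add_mul, div_mul_cancel₀ _ he.ne'] at h2
    linarith

end Crest.Agent.R105.Mr_61
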