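import Crest.Agent.R105.MsA_425

/-!
Row 105 (helper425): smoothing with boundary control (Meyers-Serrin).
`f` continuous on the whole space, weak gradient `G ∈ L²(V)` on the open set `V`; then there is a
continuous `v`, equal to `f` off `V`, `C^∞` on `V`, with `|v - f| ≤ ε` and
`‖fderiv v - G‖_{L²(V)} ≤ ε`.
-/

set_option linter.unusedSectionVars false

noncomputable section

namespace Crest.Agent.R105.MsB_425

open MeasureTheory Filter Topology Set
open scoped ContDiff ENNReal Convolution Manifold

open MsA_425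

variable {E : Type*} [NormedAddCommGroup E] [NormedSpace ℝ E] [FiniteDimensional ℝ E]
  [MeasureSpace E] [BorelSpace E] [(volume : Measure E).IsAddHaarMeasure]

omit [MeasureSpace E] [BorelSpace E] [(volume : Measure E).IsAddHaarMeasure] in
theorem exhaustion {V : Set E} (hV : IsOpen V) :
    ∃ K : ℕ → Set E, (∀ n, IsCompact (K n)) ∧ (∀ n, K n ⊆ interior (K (n + 1))) ∧
      (⋃ n, K n) = V := by
  have : LocallyCompactSpace V := hV.locallyCompactSpace
  let C := CompactExhaustion.choice V
  refine ⟨fun n => Subtype.val '' (C n), fun n => (C.isCompact n).image continuous_subtype_val,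
    fun n => ?_, ?_⟩
  · have h1 : Subtype.val '' (interior (C (n+1))) ⊆ interior (Subtype.val '' (C (n+1))) :=
      interior_maximal (image_mono interior_subset) (hV.isOpenMap_subtype_val _ isOpen_interior)
    exact (image_mono (C.subset_interior_succ n)).trans h1
  · rw [← image_iUnion, C.iUnion_eq, image_univ, Subtype.range_coe]

omit [MeasureSpace E] [BorelSpace E] [(volume : Measure E).IsAddHaarMeasure] in
theorem cutoff {K L : Set E} (hK : IsClosed K) (hKL : K ⊆ interior L) :
    ∃ χ : E → ℝ, ContDiff ℝ ∞ χ ∧ (∀ᶠ x in 𝓝ˢ K, χ x = 1) ∧ (∀ x ∉ L, χ x = 0) ∧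
      ∀ x, 0 ≤ χ x ∧ χ x ≤ 1 := by
  obtain ⟨f, h1, h2, h3⟩ := exists_contMDiffMap_one_nhds_of_subset_interior (n := (⊤ : ℕ∞))
    (𝓘(ℝ, E)) hK hKL
  exact ⟨f, contMDiff_iff_contDiff.1 f.contMDiff, h1, h2, fun x => ⟨(h3 x).1, (h3 x).2⟩⟩

/-- `G` is the weak gradient of `f` on `V` -/
def WG (V : Set E) (f : E → ℝ) (G : E → E →L[ℝ] ℝ) : Prop :=
  ∀ η : E → ℝ, ContDiff ℝ ∞ η → HasCompactSupport η → tsupport η ⊆ V → ∀ e : E,
    ∫ x, f x * fderiv ℝ η x e = - ∫ x, η x * G x e

/-- weak gradient of `ρ f` -/
def HG (ρ f : E → ℝ) (G : E → E →L[ℝ] ℝ) (x : E) : E →L[ℝ] ℝ := ρ x • G x + f x • fderiv ℝ ρ x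

omit [NormedSpace ℝ E] [FiniteDimensional ℝ E] [BorelSpace E]
  [(volume : Measure E).IsAddHaarMeasure] in
theorem memLp_of_restrict {F : Type*} [NormedAddCommGroup F] {V : Set E} (hV : MeasurableSet V)
    {g : E → F} (h : MemLp g 2 (volume.restrict V)) (h0 : ∀ x ∉ V, g x = 0) :
    MemLp g 2 (volume : Measure E) := by
  have e : V.indicator g = g := by
    rw [indicator_eq_self]
    intro x hx
    by_contra hxV
    exact hx (h0 x hxV)
  rw [← e]
  exact (memLp_indicator_iff_restrict hV).2 h

omit [NormedSpace ℝ E] [FiniteDimensional ℝ E] [MeasureSpace E] [BorelSpace E]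
  [(volume : Measure E).IsAddHaarMeasure] in
/-- a function continuous on the open set `V` times a continuous function supported in `V` -/
theorem continuous_smul_of_tsupport {F : Type*} [NormedAddCommGroup F] [NormedSpace ℝ F]
    {V : Set E} (hV : IsOpen V) {f : E → ℝ} {D : E → F} (hf : ContinuousOn f V)
    (hD : Continuous D) (hs : tsupport D ⊆ V) : Continuous fun x => f x • D x := by
  rw [continuous_iff_continuousAt]
  intro x
  by_cases hx : x ∈ V
  · exact (hf.continuousAt (hV.mem_nhds hx)).smul hD.continuousAt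
  · have h1 : D =ᶠ[𝓝 x] 0 := notMem_tsupport_iff_eventuallyEq.1 fun h => hx (hs h)
    have h2 : (fun x => f x • D x) =ᶠ[𝓝 x] fun _ => 0 := by
      filter_upwards [h1] with y hy
      rw [hy]; simp
    exact (continuousAt_congr h2).2 continuousAt_const

omit [NormedSpace ℝ E] [FiniteDimensional ℝ E] [MeasureSpace E] [BorelSpace E]
  [(volume : Measure E).IsAddHaarMeasure] in
theorem continuous_mul_of_tsupport {V : Set E} (hV : IsOpen V) {f h : E → ℝ}
    (hf : ContinuousOn f V) (hh : Continuous h) (hs : tsupport h ⊆ V) :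
    Continuous fun x => h x * f x := by
  have := continuous_smul_of_tsupport hV hf hh hs
  refine this.congr fun x => ?_
  rw [smul_eq_mul, mul_comm]

theorem memLp_gen {F : Type*} [NormedAddCommGroup F] [NormedSpace ℝ F] {V : Set E} (hV : IsOpen V)
    {ρ f : E → ℝ} {G D : E → F} (hf : ContinuousOn f V)
    (hG : MemLp G 2 (volume.restrict V)) (hρ : Continuous ρ) (hc : HasCompactSupport ρ)
    (hs : tsupport ρ ⊆ V) (hdcont : Continuous D) (hdc : HasCompactSupport D)
    (hDs : tsupport D ⊆ V) :
    MemLp (fun x => ρ x • G x + f x • D x) 2 (volume : Measure E) := by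
  have h2 : MemLp (fun x => f x • D x) 2 (volume : Measure E) :=
    (continuous_smul_of_tsupport hV hf hdcont hDs).memLp_of_hasCompactSupport (hdc.smul_left)
  have h1 : MemLp (fun x => ρ x • G x) 2 (volume : Measure E) := by
    obtain ⟨C, hC⟩ := hc.exists_bound_of_continuous hρ
    have h0 : MemLp (fun x => ρ x • G x) 2 (volume.restrict V) := by
      refine MemLp.of_le_mul (c := C) hG ?_ ?_
      · exact hρ.aestronglyMeasurable.smul hG.1
      · refine Eventually.of_forall fun x => ?_
        rw [norm_smul]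
        exact mul_le_mul_of_nonneg_right (hC x) (norm_nonneg _)
    refine memLp_of_restrict hV.measurableSet h0 fun x hx => ?_
    have : ρ x = 0 := image_eq_zero_of_notMem_tsupport fun h => hx (hs h)
    rw [this, zero_smul]
  exact h1.add h2

theorem memLp_HG {V : Set E} (hV : IsOpen V) {ρ f : E → ℝ} {G : E → E →L[ℝ] ℝ}
    (hf : ContinuousOn f V)
    (hG : MemLp G 2 (volume.restrict V)) (hρ : ContDiff ℝ ∞ ρ) (hc : HasCompactSupport ρ)
    (hs : tsupport ρ ⊆ V) : MemLp (HG ρ f G) 2 volume := by
  have hdc : HasCompactSupport (fderiv ℝ ρ) := hc.fderiv (𝕜 := ℝ)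
  have hdcont : Continuous (fderiv ℝ ρ) := hρ.continuous_fderiv (by norm_num)
  unfold HG
  exact memLp_gen hV hf hG hρ.continuous hc hs hdcont hdc
    ((tsupport_fderiv_subset ℝ).trans hs)

/-- gradient of the mollification of `ρ f` -/
theorem fderiv_moll_piece {V : Set E} (hV : IsOpen V) {ρ f : E → ℝ} {G : E → E →L[ℝ] ℝ}
    (hf : ContinuousOn f V) (hG : MemLp G 2 (volume.restrict V)) (hW : WG V f G)
    (hρ : ContDiff ℝ ∞ ρ) (hc : HasCompactSupport ρ)
    (hs : tsupport ρ ⊆ V) (φ : ContDiffBump (0 : E)) (x : E) :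
    fderiv ℝ (moll φ fun y => ρ y * f y) x = moll φ (HG ρ f G) x := by
  have hHG := memLp_HG hV hf hG hρ hc hs
  have hcont : Continuous fun y => ρ y * f y := continuous_mul_of_tsupport hV hf hρ.continuous hs
  have hloc : LocallyIntegrable (fun y => ρ y * f y) (volume : Measure E) :=
    hcont.locallyIntegrable
  have hφd : ContDiff ℝ ∞ (φ.normed (volume : Measure E)) := φ.contDiff_normed
  have hint : Integrable (fun y => φ.normed volume (x - y) • HG ρ f G y) volume := by
    have hl : LocallyIntegrable (HG ρ f G) volume := hHG.locallyIntegrable (by norm_num)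
    have := φ.hasCompactSupport_normed.convolutionExists_left
        (L := (ContinuousLinearMap.lsmul ℝ ℝ : ℝ →L[ℝ] (E →L[ℝ] ℝ) →L[ℝ] (E →L[ℝ] ℝ)))
        (μ := volume) (φ.continuous_normed (μ := volume)) hl x
    exact this.integrable_swap
  ext e
  rw [fderiv_moll hloc]
  unfold moll
  rw [ContinuousLinearMap.integral_apply hint]
  -- the test function
  set η : E → ℝ := fun y => ρ y * φ.normed volume (x - y) with hη
  have hηs : ContDiff ℝ ∞ η := hρ.mul (hφd.comp (contDiff_const.sub contDiff_id))
  have hηc : HasCompactSupport η := hc.mul_right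
  have hηt : tsupport η ⊆ V := by
    refine subset_trans (closure_mono ?_) hs
    intro y hy
    rw [Function.mem_support] at hy ⊢
    intro h
    exact hy (by rw [hη]; simp [h])
  have hWη := hW η hηs hηc hηt e
  have hder : ∀ y, fderiv ℝ η y e =
      fderiv ℝ ρ y e * φ.normed volume (x - y) - ρ y * fderiv ℝ (φ.normed volume) (x - y) e := by
    intro y
    have h1 : HasFDerivAt ρ (fderiv ℝ ρ y) y := (hρ.differentiable (by norm_num) y).hasFDerivAt
    have h2 : HasFDerivAt (fun y => φ.normed (volume : Measure E) (x - y))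
        ((fderiv ℝ (φ.normed (volume : Measure E)) (x - y)).comp
          (-(ContinuousLinearMap.id ℝ E))) y := by
      have h3 : HasFDerivAt (fun y => x - y) (-(ContinuousLinearMap.id ℝ E)) y :=
        (hasFDerivAt_id y).const_sub x
      exact ((hφd.differentiable (by norm_num) (x - y)).hasFDerivAt).comp y h3
    have h4 : HasFDerivAt η (ρ y • ((fderiv ℝ (φ.normed (volume : Measure E)) (x - y)).comp
          (-(ContinuousLinearMap.id ℝ E))) + φ.normed (volume : Measure E) (x - y) •
          fderiv ℝ ρ y) y := h1.mul h2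
    rw [h4.fderiv]
    simp only [_root_.add_apply, _root_.smul_apply,
      ContinuousLinearMap.comp_apply, _root_.neg_apply, ContinuousLinearMap.id_apply,
      map_neg, smul_eq_mul]
    ring
  have hdcont : Continuous fun y => fderiv ℝ ρ y e :=
    (hρ.continuous_fderiv (by norm_num)).clm_apply continuous_const
  have hdcomp : HasCompactSupport fun y => fderiv ℝ ρ y e := hc.fderiv_apply (𝕜 := ℝ) e
  have hφc : Continuous fun y => φ.normed (volume : Measure E) (x - y) :=
    φ.continuous_normed.comp (continuous_const.sub continuous_id)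
  have hφdc : Continuous fun y => fderiv ℝ (φ.normed (volume : Measure E)) (x - y) e :=
    ((hφd.continuous_fderiv (by norm_num)).comp
      (continuous_const.sub continuous_id)).clm_apply continuous_const
  have i1 : Integrable (fun y => f y * (fderiv ℝ ρ y e * φ.normed volume (x - y))) volume := by
    have h7 := continuous_smul_of_tsupport hV hf (hdcont.mul hφc) (subset_trans (closure_mono
      (Function.support_mul_subset_left _ _)) ((tsupport_fderiv_apply_subset ℝ e).trans hs))
    exact Continuous.integrable_of_hasCompactSupport h7 ((hdcomp.mul_right).mul_left)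
  have i2 : Integrable (fun y => f y * (ρ y * fderiv ℝ (φ.normed (volume : Measure E)) (x - y) e))
      volume := by
    have h7 := continuous_smul_of_tsupport hV hf (hρ.continuous.mul hφdc) (subset_trans (closure_mono
      (Function.support_mul_subset_left _ _)) hs)
    exact Continuous.integrable_of_hasCompactSupport h7 ((hc.mul_right).mul_left)
  have i3 : Integrable (fun y => η y * G y e) volume := by
    have h5 : Integrable (fun y => φ.normed volume (x - y) • HG ρ f G y e) volume :=
      (ContinuousLinearMap.apply ℝ ℝ e).integrable_comp hint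
    have h6 : (fun y => η y * G y e) = fun y => φ.normed volume (x - y) • HG ρ f G y e -
        f y * (fderiv ℝ ρ y e * φ.normed volume (x - y)) := by
      funext y
      simp only [hη, HG, _root_.add_apply, _root_.smul_apply, smul_eq_mul]
      ring
    rw [h6]
    exact h5.sub i1
  have e1 : ∫ y, fderiv ℝ (φ.normed (volume : Measure E)) (x - y) e • (ρ y * f y) =
      ∫ y, f y * (ρ y * fderiv ℝ (φ.normed (volume : Measure E)) (x - y) e) := by
    congr 1; funext y; rw [smul_eq_mul]; ring
  have e2 : ∫ y, f y * fderiv ℝ η y e =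
      (∫ y, f y * (fderiv ℝ ρ y e * φ.normed volume (x - y))) -
        ∫ y, f y * (ρ y * fderiv ℝ (φ.normed (volume : Measure E)) (x - y) e) := by
    rw [← integral_sub i1 i2]
    congr 1; funext y; rw [hder y]; ring
  have e3 : ∫ y, (φ.normed volume (x - y) • HG ρ f G y) e =
      (∫ y, f y * (fderiv ℝ ρ y e * φ.normed volume (x - y))) + ∫ y, η y * G y e := by
    rw [← integral_add i1 i3]
    congr 1; funext y
    simp only [hη, HG, _root_.add_apply, _root_.smul_apply, smul_eq_mul]
    ring
  rw [e1, e3]
  rw [e2] at hWη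
  linarith

/-- one piece -/
theorem piece {V W : Set E} (hV : IsOpen V) (hWo : IsOpen W) {ρ f : E → ℝ} {G : E → E →L[ℝ] ℝ}
    (hf : ContinuousOn f V) (hG : MemLp G 2 (volume.restrict V)) (hW : WG V f G)
    (hρ : ContDiff ℝ ∞ ρ) (hc : HasCompactSupport ρ) (hs : tsupport ρ ⊆ V) (hsW : tsupport ρ ⊆ W)
    {ε : ℝ} (hε : 0 < ε) :
    ∃ w : E → ℝ, ContDiff ℝ ∞ w ∧ (∀ x ∉ W, w x = 0) ∧ (∀ x, |w x - ρ x * f x| ≤ ε) ∧
      eLpNorm (fun x => fderiv ℝ w x - HG ρ f G x) 2 volume ≤ ENNReal.ofReal ε := by
  have hHG := memLp_HG hV hf hG hρ hc hs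
  have hcont : Continuous fun y => ρ y * f y := continuous_mul_of_tsupport hV hf hρ.continuous hs
  have hcs : HasCompactSupport fun y => ρ y * f y := hc.mul_right
  have hloc : LocallyIntegrable (fun y => ρ y * f y) (volume : Measure E) :=
    hcont.locallyIntegrable
  -- the sequence of bumps
  let φs : ℕ → ContDiffBump (0 : E) := fun n =>
    ⟨1 / (2 * ((n : ℝ) + 1)), 1 / ((n : ℝ) + 1), by positivity, by
      rw [one_div_lt_one_div (by positivity) (by positivity)]
      have : (0 : ℝ) ≤ n := Nat.cast_nonneg n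
      linarith⟩
  have hφ : Tendsto (fun n => (φs n).rOut) atTop (𝓝 0) := tendsto_one_div_add_atTop_nhds_zero_nat
  -- (a)
  obtain ⟨δ, hδ, hδW⟩ := hc.isCompact.exists_thickening_subset_open hWo hsW
  -- (b)
  have huc : UniformContinuous fun y => ρ y * f y :=
    hcont.uniformContinuous_of_tendsto_cocompact hcs.is_zero_at_infty
  obtain ⟨δ', hδ', huc'⟩ := Metric.uniformContinuous_iff.1 huc ε hε
  -- (c)
  have hL2 := tendsto_moll hHG hφ
  have hL2' : ∀ᶠ n in atTop, eLpNorm (moll (φs n) (HG ρ f G) - HG ρ f G) 2 volume ≤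
      ENNReal.ofReal ε :=
    (ENNReal.tendsto_nhds_zero.1 hL2) _ (ENNReal.ofReal_pos.2 hε)
  have ha : ∀ᶠ n in atTop, (φs n).rOut < δ := hφ.eventually (gt_mem_nhds hδ)
  have hb : ∀ᶠ n in atTop, (φs n).rOut < δ' := hφ.eventually (gt_mem_nhds hδ')
  obtain ⟨n, ⟨h1, h2⟩, h3⟩ := ((ha.and hb).and hL2').exists
  set φ := φs n with hφn
  refine ⟨moll φ fun y => ρ y * f y, contDiff_moll hloc, ?_, ?_, ?_⟩
  · intro x hx
    unfold moll
    rw [← integral_zero E ℝ (μ := volume)]
    congr 1
    funext y
    by_cases hy : y ∈ tsupport ρ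
    · have : φ.normed volume (x - y) = 0 := by
        have h4 : x - y ∉ Function.support (φ.normed volume) := by
          rw [φ.support_normed_eq, Metric.mem_ball, dist_zero_right, not_lt]
          by_contra hcon
          push Not at hcon
          apply hx
          apply hδW
          rw [Metric.mem_thickening_iff]
          exact ⟨y, hy, by rw [dist_eq_norm]; linarith⟩
        simpa using h4
      rw [this, zero_smul]
    · show φ.normed volume (x - y) • (ρ y * f y) = 0
      rw [image_eq_zero_of_notMem_tsupport hy, zero_mul, smul_zero]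
  · intro x
    have h4 := φ.dist_normed_convolution_le (μ := (volume : Measure E)) (g := fun y => ρ y * f y)
      (x₀ := x) (ε := ε) hcont.aestronglyMeasurable (fun y hy => by
        refine (huc' ?_).le
        rw [Metric.mem_ball] at hy
        linarith)
    rw [moll_eq_conv, ← Real.dist_eq]
    exact h4
  · have h5 : (fun x => fderiv ℝ (moll φ fun y => ρ y * f y) x - HG ρ f G x) =
        moll φ (HG ρ f G) - HG ρ f G := by
      funext x
      rw [fderiv_moll_piece hV hf hG hW hρ hc hs φ x]
      rfl
    rw [h5]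
    exact h3

end Crest.Agent.R105.MsB_425
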