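import Crest.Agent.R105.MsB_425

/-!
Row 105 (helper425): smoothing with boundary control (Meyers-Serrin), main theorem `ms`.
-/

set_option linter.unusedSectionVars false

noncomputable section

namespace Crest.Agent.R105.MsB_425

open MeasureTheory Filter Topology Set
open scoped ContDiff ENNReal Convolution Manifold

open MsA_425

variable {E : Type*} [NormedAddCommGroup E] [NormedSpace ℝ E] [FiniteDimensional ℝ E]
  [MeasureSpace E] [BorelSpace E] [(volume : Measure E).IsAddHaarMeasure]

/-- **Smoothing with boundary control**, for `f` continuous on `V` only. -/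
theorem ms_on {V : Set E} (hV : IsOpen V) {f : E → ℝ} (hf : ContinuousOn f V) {G : E → E →L[ℝ] ℝ}
    (hG : MemLp G 2 (volume.restrict V)) (hW : WG V f G) {ε : ℝ} (hε : 0 < ε) :
    ∃ v : E → ℝ, Continuous (fun x => v x - f x) ∧ ContDiffOn ℝ ∞ v V ∧ (∀ x ∉ V, v x = f x) ∧
      (∀ x, |v x - f x| ≤ ε) ∧
      eLpNorm (fun x => fderiv ℝ v x - G x) 2 (volume.restrict V) ≤ ENNReal.ofReal ε := by
  obtain ⟨K, hKc, hKi, hKV⟩ := exhaustion hV
  have hKs : ∀ n, K n ⊆ K (n + 1) := fun n => (hKi n).trans interior_subset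
  have hKm : Monotone K := monotone_nat_of_le_succ hKs
  have hKsub : ∀ n, K n ⊆ V := fun n => by rw [← hKV]; exact subset_iUnion K n
  choose χ hχs hχ1 hχ0 hχb using fun n => cutoff (hKc n).isClosed (hKi n)
  -- the partition
  let ρ : ℕ → E → ℝ := fun n => Nat.casesOn n (χ 0) fun k => fun x => χ (k + 1) x - χ k x
  have hρ0 : ρ 0 = χ 0 := rfl
  have hρS : ∀ k, ρ (k + 1) = fun x => χ (k + 1) x - χ k x := fun k => rfl
  have hρs : ∀ n, ContDiff ℝ ∞ (ρ n) := by
    intro n
    cases n with
    | zero => rw [hρ0]; exact hχs 0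
    | succ k => rw [hρS]; exact (hχs (k + 1)).sub (hχs k)
  have hρsupp : ∀ n, tsupport (ρ n) ⊆ K (n + 1) := by
    intro n
    refine closure_minimal ?_ (hKc (n + 1)).isClosed
    intro x hx
    by_contra hxK
    apply hx
    cases n with
    | zero => rw [hρ0]; exact hχ0 0 x hxK
    | succ k =>
      rw [hρS]
      show χ (k + 1) x - χ k x = 0
      rw [hχ0 (k + 1) x hxK, hχ0 k x (fun h => hxK (hKs _ h)), sub_zero]
  have hρc : ∀ n, HasCompactSupport (ρ n) := fun n =>
    HasCompactSupport.of_support_subset_isCompact (hKc (n + 1))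
      (subset_trans (subset_tsupport _) (hρsupp n))
  have hρV : ∀ n, tsupport (ρ n) ⊆ V := fun n => (hρsupp n).trans (hKsub _)
  have hχnear : ∀ n, ∀ x ∈ K n, ∀ᶠ y in 𝓝 x, χ n y = 1 := fun n x hx =>
    (eventually_nhdsSet_iff_forall.1 (hχ1 n)) x hx
  let W : ℕ → Set E := fun n => Nat.casesOn n V fun k => V \ K k
  have hW0 : W 0 = V := rfl
  have hWS : ∀ k, W (k + 1) = V \ K k := fun k => rfl
  have hWo : ∀ n, IsOpen (W n) := by
    intro n
    cases n with
    | zero => rw [hW0]; exact hV
    | succ k => rw [hWS]; exact hV.sdiff (hKc k).isClosed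
  have hρK : ∀ k, ∀ x ∈ K k, x ∉ tsupport (ρ (k + 1)) := by
    intro k x hx
    rw [notMem_tsupport_iff_eventuallyEq]
    filter_upwards [hχnear k x hx, hχnear (k + 1) x (hKs k hx)] with y h1 h2
    rw [hρS]
    show χ (k + 1) y - χ k y = 0
    rw [h1, h2, sub_self]
  have hρW : ∀ n, tsupport (ρ n) ⊆ W n := by
    intro n
    cases n with
    | zero => rw [hW0]; exact hρV 0
    | succ k =>
      rw [hWS]
      intro x hx
      exact ⟨hρV (k + 1) hx, fun h => hρK k x h hx⟩
  have hεk : ∀ k : ℕ, 0 < ε / 2 / 2 ^ k := fun k => by positivity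
  choose w hws hw0 hwb hwL using fun k => piece hV (hWo k) hf hG hW (hρs k) (hρc k) (hρV k) (hρW k)
    (hεk k)
  have hsumε : HasSum (fun k : ℕ => ε / 2 / 2 ^ k) ε := hasSum_geometric_two' ε
  set v : E → ℝ := fun x => f x + ∑' k, (w k x - ρ k x * f x) with hv
  -- vanishing of late terms
  have hlate : ∀ m, ∀ x ∈ K m, ∀ k ∉ Finset.range (m + 1), w k x = 0 ∧ ρ k x = 0 := by
    intro m x hx k hk
    rw [Finset.mem_range, not_lt] at hk
    obtain ⟨j, rfl⟩ : ∃ j, k = j + 1 := ⟨k - 1, by omega⟩
    have hxj : x ∈ K j := hKm (by omega : m ≤ j) hx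
    refine ⟨hw0 (j + 1) x ?_, image_eq_zero_of_notMem_tsupport (hρK j x hxj)⟩
    rw [hWS]
    exact fun h => h.2 hxj
  have hsumρ : ∀ m x, ∑ k ∈ Finset.range (m + 1), ρ k x = χ m x := by
    intro m x
    induction m with
    | zero => rw [Finset.sum_range_succ, Finset.sum_range_zero, zero_add, hρ0]
    | succ m ih =>
      rw [Finset.sum_range_succ, ih, hρS]
      ring
  have hvK : ∀ m, ∀ x ∈ K m, v x = ∑ k ∈ Finset.range (m + 1), w k x := by
    intro m x hx
    rw [hv]
    show f x + ∑' k, (w k x - ρ k x * f x) = _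
    rw [tsum_eq_sum (s := Finset.range (m + 1)) (fun k hk => by
      rw [(hlate m x hx k hk).1, (hlate m x hx k hk).2]; ring), Finset.sum_sub_distrib,
      ← Finset.sum_mul, hsumρ, (hχnear m x hx).self_of_nhds]
    ring
  have hvcont : Continuous fun x => v x - f x := by
    have h0 : (fun x => v x - f x) = fun x => ∑' k, (w k x - ρ k x * f x) := by
      funext x; rw [hv]; ring
    rw [h0]
    refine continuous_tsum (fun k => ?_) hsumε.summable fun k x => ?_
    · exact (hws k).continuous.sub (continuous_mul_of_tsupport hV hf (hρs k).continuous (hρV k))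
    · rw [Real.norm_eq_abs]; exact hwb k x
  have hIV : (⋃ m, interior (K m)) = V := by
    apply subset_antisymm
    · exact iUnion_subset fun m => interior_subset.trans (hKsub m)
    · rw [← hKV]
      exact iUnion_subset fun m => (hKi m).trans (subset_iUnion (fun m => interior (K m)) (m + 1))
  refine ⟨v, hvcont, ?_, ?_, ?_, ?_⟩
  · intro x hx
    rw [← hIV, mem_iUnion] at hx
    obtain ⟨m, hm⟩ := hx
    have h1 : v =ᶠ[𝓝 x] fun x => ∑ k ∈ Finset.range (m + 1), w k x := by
      filter_upwards [isOpen_interior.mem_nhds hm] with y hy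
      exact hvK m y (interior_subset hy)
    have h2 : ContDiffAt ℝ ∞ (fun x => ∑ k ∈ Finset.range (m + 1), w k x) x :=
      (ContDiff.sum fun k _ => hws k).contDiffAt
    exact (h2.congr_of_eventuallyEq h1).contDiffWithinAt
  · intro x hx
    rw [hv]
    show f x + ∑' k, (w k x - ρ k x * f x) = f x
    have : ∀ k, w k x - ρ k x * f x = 0 := by
      intro k
      have h1 : x ∉ W k := by
        cases k with
        | zero => rw [hW0]; exact hx
        | succ j => rw [hWS]; exact fun h => hx h.1
      rw [hw0 k x h1, image_eq_zero_of_notMem_tsupport (fun h => hx (hρV k h))]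
      ring
    simp [this]
  · intro x
    have h1 : v x - f x = ∑' k, (w k x - ρ k x * f x) := by rw [hv]; ring
    rw [h1, ← Real.norm_eq_abs]
    refine tsum_of_norm_bounded hsumε fun k => ?_
    rw [Real.norm_eq_abs]
    exact hwb k x
  · -- the gradient
    have key : ∀ m, eLpNorm (fun x => fderiv ℝ v x - G x) 2 (volume.restrict (interior (K m))) ≤
        ENNReal.ofReal ε := by
      intro m
      have h1 : ∀ x ∈ interior (K m), fderiv ℝ v x - G x =
          (∑ k ∈ Finset.range (m + 1), fun x => fderiv ℝ (w k) x - HG (ρ k) f G x) x := by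
        intro x hx
        have h2 : v =ᶠ[𝓝 x] fun x => ∑ k ∈ Finset.range (m + 1), w k x := by
          filter_upwards [isOpen_interior.mem_nhds hx] with y hy
          exact hvK m y (interior_subset hy)
        rw [h2.fderiv_eq, fderiv_fun_sum fun k _ => ((hws k).differentiable (by norm_num) x),
          Finset.sum_apply, Finset.sum_sub_distrib]
        congr 1
        have hKx : x ∈ K m := interior_subset hx
        have h3 : ∑ k ∈ Finset.range (m + 1), fderiv ℝ (ρ k) x = 0 := by
          rw [← fderiv_fun_sum fun k _ => ((hρs k).differentiable (by norm_num) x)]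
          have h4 : (fun x => ∑ k ∈ Finset.range (m + 1), ρ k x) =ᶠ[𝓝 x] fun _ => (1:ℝ) := by
            filter_upwards [hχnear m x hKx] with y hy
            rw [hsumρ m y, hy]
          rw [h4.fderiv_eq]
          simp
        unfold HG
        rw [Finset.sum_add_distrib, ← Finset.sum_smul, ← Finset.smul_sum, h3, smul_zero, add_zero,
          hsumρ, (hχnear m x hKx).self_of_nhds, one_smul]
      have h5 : eLpNorm (fun x => fderiv ℝ v x - G x) 2 (volume.restrict (interior (K m))) =
          eLpNorm (∑ k ∈ Finset.range (m + 1), fun x => fderiv ℝ (w k) x - HG (ρ k) f G x) 2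
            (volume.restrict (interior (K m))) := by
        refine eLpNorm_congr_ae ?_
        rw [EventuallyEq, ae_restrict_iff' isOpen_interior.measurableSet]
        exact Eventually.of_forall h1
      rw [h5]
      have hmeas : ∀ k, AEStronglyMeasurable (fun x => fderiv ℝ (w k) x - HG (ρ k) f G x)
          (volume.restrict (interior (K m))) := by
        intro k
        refine AEStronglyMeasurable.restrict ?_
        exact ((hws k).continuous_fderiv (by norm_num)).aestronglyMeasurable.sub
          (memLp_HG hV hf hG (hρs k) (hρc k) (hρV k)).1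
      refine (eLpNorm_sum_le (fun k _ => hmeas k) (by norm_num)).trans ?_
      have h6 : ∀ k, eLpNorm (fun x => fderiv ℝ (w k) x - HG (ρ k) f G x) 2
          (volume.restrict (interior (K m))) ≤ ENNReal.ofReal (ε / 2 / 2 ^ k) := fun k =>
        (eLpNorm_mono_measure _ Measure.restrict_le_self).trans (hwL k)
      refine (Finset.sum_le_sum fun k _ => h6 k).trans ?_
      rw [← ENNReal.ofReal_sum_of_nonneg fun k _ => (hεk k).le]
      exact ENNReal.ofReal_le_ofReal (sum_le_hasSum _ (fun k _ => (hεk k).le) hsumε)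
    -- pass to the union
    have hmono : Monotone fun m => interior (K m) := fun m n hmn => interior_mono (hKm hmn)
    have hdir : Directed (· ⊆ ·) fun m => interior (K m) := fun m n =>
      ⟨max m n, hmono (le_max_left m n), hmono (le_max_right m n)⟩
    have hsq : ∀ S : Set E, eLpNorm (fun x => fderiv ℝ v x - G x) 2 (volume.restrict S) ^ 2 =
        ∫⁻ x in S, ‖fderiv ℝ v x - G x‖ₑ ^ 2 := fun S => eLpNorm_two_sq _
    have h7 : eLpNorm (fun x => fderiv ℝ v x - G x) 2 (volume.restrict V) ^ 2 ≤
        ENNReal.ofReal ε ^ 2 := by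
      rw [hsq V, ← hIV, setLIntegral_iUnion_of_directed _ hdir]
      refine iSup_le fun m => ?_
      rw [← hsq]
      gcongr
      exact key m
    exact (ENNReal.pow_le_pow_left_iff (by norm_num)).mp h7

/-- **Smoothing with boundary control.** -/
theorem ms {V : Set E} (hV : IsOpen V) {f : E → ℝ} (hf : Continuous f) {G : E → E →L[ℝ] ℝ}
    (hG : MemLp G 2 (volume.restrict V)) (hW : WG V f G) {ε : ℝ} (hε : 0 < ε) :
    ∃ v : E → ℝ, Continuous v ∧ ContDiffOn ℝ ∞ v V ∧ (∀ x ∉ V, v x = f x) ∧
      (∀ x, |v x - f x| ≤ ε) ∧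
      eLpNorm (fun x => fderiv ℝ v x - G x) 2 (volume.restrict V) ≤ ENNReal.ofReal ε := by
  obtain ⟨v, h1, h2, h3, h4, h5⟩ := ms_on hV hf.continuousOn hG hW hε
  refine ⟨v, ?_, h2, h3, h4, h5⟩
  have := h1.add hf
  refine this.congr fun x => ?_
  show v x - f x + f x = v x
  ring

end Crest.Agent.R105.MsB_425
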