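import Crest.Agent.R105.Ni0_459

/-!
# Row 105, S0138, NI part 1 (helper459): the area inequality for the pair `(a, b)`
-/

set_option autoImplicit false

open MeasureTheory Set Filter Topology Metric
open scoped NNReal ENNReal

namespace Crest.Agent.R105.Ni_459

open Bd_775 Ends_897 Tc_808 Crest.AnalysisR

noncomputable section

/-- the pair as a map of the plane -/
def prm (a b : ℂ → ℝ) (z : ℂ) : ℂ := ⟨a z, b z⟩

lemma vol_image_pair (a b : ℂ → ℝ) (S : Set ℂ) :
    volume ((fun z => (a z, b z)) '' S) = volume (prm a b '' S) := by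
  have h := Complex.volume_preserving_equiv_real_prod.measure_preimage_equiv
    ((fun z => (a z, b z)) '' S)
  rw [← h]
  congr 1
  ext w
  simp only [mem_preimage, mem_image, prm, Complex.measurableEquivRealProd_apply, Prod.mk.injEq]
  constructor
  · rintro ⟨z, hz, h1, h2⟩; exact ⟨z, hz, Complex.ext h1 h2⟩
  · rintro ⟨z, hz, rfl⟩; exact ⟨z, hz, rfl, rfl⟩

/-- locally Lipschitz maps preserve null sets -/
lemma null_image {U : Set ℂ} (hU : IsOpen U) {G : ℂ → ℂ} (hG : LocallyLipschitzOn U G) {S : Set ℂ}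
    (hS : S ⊆ U) (h0 : volume S = 0) : volume (G '' S) = 0 := by
  have hfr : (2 : ℝ) = (Module.finrank ℝ ℂ : ℝ) := by
    rw [Complex.finrank_real_complex]; norm_num
  have hH : (Measure.hausdorffMeasure 2 : Measure ℂ).IsAddHaarMeasure := by
    rw [hfr]; exact isAddHaarMeasure_hausdorffMeasure
  have h1 : (Measure.hausdorffMeasure 2 : Measure ℂ) ≪ volume :=
    Measure.absolutelyContinuous_isAddHaarMeasure _ _
  have h2 : (volume : Measure ℂ) ≪ Measure.hausdorffMeasure 2 :=
    Measure.absolutelyContinuous_isAddHaarMeasure _ _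
  have key : (OuterMeasure.comap G (volume : Measure ℂ).toOuterMeasure) S = 0 := by
    apply measure_null_of_locally_null
    intro z hz
    obtain ⟨K, t, ht, hL⟩ := hG (hS hz)
    refine ⟨S ∩ t, inter_mem self_mem_nhdsWithin (nhdsWithin_mono _ hS ht), ?_⟩
    rw [OuterMeasure.comap_apply]
    apply h2
    have h3 := (hL.mono (inter_subset_right : S ∩ t ⊆ t)).hausdorffMeasure_image_le
      (d := 2) (by norm_num)
    have h4 : (Measure.hausdorffMeasure 2 : Measure ℂ) (S ∩ t) = 0 :=
      h1 (measure_mono_null inter_subset_left h0)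
    rw [h4, mul_zero] at h3
    exact le_antisymm h3 bot_le
  rwa [OuterMeasure.comap_apply] at key

lemma locLip_prm {U : Set ℂ} {a b : ℂ → ℝ} (ha : LocallyLipschitzOn U a)
    (hb : LocallyLipschitzOn U b) : LocallyLipschitzOn U (prm a b) := by
  intro z hz
  obtain ⟨K, t, ht, hL⟩ := ha hz
  obtain ⟨K', t', ht', hL'⟩ := hb hz
  refine ⟨K + K', t ∩ t', inter_mem ht ht', LipschitzOnWith.of_dist_le_mul fun x hx y hy => ?_⟩
  have h1 := hL.dist_le_mul x hx.1 y hy.1
  have h2 := hL'.dist_le_mul x hx.2 y hy.2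
  have h3 : dist (prm a b x) (prm a b y) ≤ dist (a x) (a y) + dist (b x) (b y) := by
    rw [dist_eq_norm, Real.dist_eq, Real.dist_eq]
    refine (Complex.norm_le_abs_re_add_abs_im _).trans ?_
    simp [prm]
  push_cast
  rw [add_mul]
  exact h3.trans (add_le_add h1 h2)

/-- the derivative of the pair -/
def dprm (a b : ℂ → ℝ) (z : ℂ) : ℂ →L[ℝ] ℂ :=
  Complex.equivRealProdCLM.symm.toContinuousLinearMap.comp ((fderiv ℝ a z).prod (fderiv ℝ b z))

lemma dprm_apply (a b : ℂ → ℝ) (z v : ℂ) :
    dprm a b z v = ⟨fderiv ℝ a z v, fderiv ℝ b z v⟩ := by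
  simp [dprm, Complex.equivRealProdCLM_symm_apply]
  apply Complex.ext <;> simp

lemma hasFDerivAt_prm {a b : ℂ → ℝ} {z : ℂ} (ha : DifferentiableAt ℝ a z)
    (hb : DifferentiableAt ℝ b z) : HasFDerivAt (prm a b) (dprm a b z) z := by
  have h := Complex.equivRealProdCLM.symm.toContinuousLinearMap.hasFDerivAt.comp z
    (ha.hasFDerivAt.prodMk hb.hasFDerivAt)
  have he : prm a b = ⇑(Complex.equivRealProdCLM.symm.toContinuousLinearMap) ∘ fun x => (a x, b x) := by
    funext w
    apply Complex.ext <;> simp [prm, Complex.equivRealProdCLM_symm_apply]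
  rw [he]
  exact h

lemma det_dprm (a b : ℂ → ℝ) (z : ℂ) : (dprm a b z).det = wdg a b z := by
  rw [ContinuousLinearMap.det, ← LinearMap.det_toMatrix Complex.basisOneI, Matrix.det_fin_two]
  simp only [LinearMap.toMatrix_apply, Complex.coe_basisOneI, ContinuousLinearMap.coe_coe,
    dprm_apply, Complex.coe_basisOneI_repr]
  simp [wdg, gx, gy]

/-- **area inequality** -/
theorem area {U : Set ℂ} (hU : IsOpen U) {a b : ℂ → ℝ} (ha : LocallyLipschitzOn U a)
    (hb : LocallyLipschitzOn U b) {N : Set ℂ} (hN : MeasurableSet N) (hNU : N ⊆ U) :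
    volume ((fun z => (a z, b z)) '' N) ≤ ∫⁻ z in N, ENNReal.ofReal |wdg a b z| := by
  rw [vol_image_pair]
  set D : Set ℂ := {z | DifferentiableAt ℝ a z} ∩ {z | DifferentiableAt ℝ b z} with hD
  have hDm : MeasurableSet D :=
    (measurableSet_of_differentiableAt ℝ a).inter (measurableSet_of_differentiableAt ℝ b)
  have h0 : volume (N \ D) = 0 := by
    have h1 := ae_diff hU ha
    have h2 := ae_diff hU hb
    have h3 : ∀ᵐ z ∂(volume.restrict U), z ∈ D := by
      filter_upwards [h1, h2] with z h h'; exact ⟨h, h'⟩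
    rw [ae_restrict_iff' hU.measurableSet] at h3
    refine measure_mono_null (fun z hz => ?_) h3
    simp only [mem_compl_iff, mem_ofPred_eq, not_forall]
    exact ⟨hNU hz.1, hz.2⟩
  have h1 : volume (prm a b '' (N \ D)) = 0 :=
    null_image hU (locLip_prm ha hb) (sdiff_subset.trans hNU) h0
  have h2 : volume (prm a b '' (N ∩ D)) ≤ ∫⁻ z in N ∩ D, ENNReal.ofReal |(dprm a b z).det| :=
    addHaar_image_le_lintegral_abs_det_fderiv volume (hN.inter hDm)
      fun z hz => (hasFDerivAt_prm hz.2.1 hz.2.2).hasFDerivWithinAt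
  simp only [det_dprm] at h2
  calc volume (prm a b '' N) ≤ volume (prm a b '' (N ∩ D)) + volume (prm a b '' (N \ D)) := by
        rw [← inter_union_sdiff N D, image_union]
        refine (measure_union_le _ _).trans ?_
        rw [inter_union_sdiff]
    _ ≤ _ := by
        rw [h1, add_zero]
        exact h2.trans (lintegral_mono_set inter_subset_left)

end

end Crest.Agent.R105.Ni_459
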