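import Crest.Agent.R105.Sl2_732

/-!
# Row 105, S0138 (T-frame), SLICES, part 4 (helper732)

* `acv_of_liminf` : closedness of small variation along a.e. level under pointwise limits (Fatou)
-/

set_option autoImplicit false

open MeasureTheory Set Filter Topology Metric
open scoped NNReal ENNReal

namespace Crest.Agent.R105.Sl_732

open Thin_12

/-- **closedness.** `W j` : open neighbourhoods of `E` minus countably many components -/
theorem acv_of_liminf {E : Set ℂ} {L : ℝ → Set ℂ} {B : ℕ → ℂ → ℝ} {b : ℂ → ℝ}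
    {S : Set (Set ℂ)} (hS : S.Countable) (hSc : ∀ K ∈ S, ∃ z ∈ E, K = connectedComponentIn E z)
    {W : ℕ → Set ℂ} (hW : ∀ j, IsOpen (W j)) (hSW : ∀ j, E \ ⋃₀ S ⊆ W j)
    (hB : ∀ z ∉ E, Tendsto (fun n => B n z) atTop (𝓝 (b z)))
    {η : ℕ → ℕ → ℝ → ℝ≥0∞} (hη : ∀ j n, Measurable (η j n))
    (hv : ∀ᵐ t : ℝ, ∀ j n, ∀ c : ℝ, η j n t ≤ ENNReal.ofReal c → VarLe E (L t) (W j) (B n) c)
    (hsmall : ∀ ε > 0, ∃ j, ∃ᶠ n in atTop, ∫⁻ t, η j n t ≤ ENNReal.ofReal ε) :
    ∀ᵐ t : ℝ, ACV E (L t) b := by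
  have h1 : ∀ k : ℕ, ∃ j, ∃ᶠ n in atTop, ∫⁻ t, η j n t ≤ ENNReal.ofReal (1 / ((k : ℝ) + 1)) :=
    fun k => hsmall _ (by positivity)
  choose j hj using h1
  set g : ℕ → ℝ → ℝ≥0∞ := fun k t => liminf (fun n => η (j k) n t) atTop with hg
  have hgm : ∀ k, Measurable (g k) := fun k => Measurable.liminf fun n => hη (j k) n
  have h2 : ∀ k, ∫⁻ t, g k t ≤ ENNReal.ofReal (1 / ((k : ℝ) + 1)) := fun k =>
    (lintegral_liminf_le fun n => hη (j k) n).trans (liminf_le_of_frequently_le' (hj k))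
  have h3 : ∫⁻ t, liminf (fun k => g k t) atTop = 0 := by
    refine le_antisymm ?_ zero_le
    refine (lintegral_liminf_le hgm).trans ?_
    have h4 : Tendsto (fun k : ℕ => ENNReal.ofReal (1 / ((k : ℝ) + 1))) atTop (𝓝 0) := by
      rw [← ENNReal.ofReal_zero]
      exact (ENNReal.continuous_ofReal.tendsto 0).comp tendsto_one_div_add_atTop_nhds_zero_nat
    calc liminf (fun k => ∫⁻ t, g k t) atTop
        ≤ liminf (fun k : ℕ => ENNReal.ofReal (1 / ((k : ℝ) + 1))) atTop :=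
          liminf_le_liminf (Eventually.of_forall h2)
      _ = 0 := h4.liminf_eq
  have h5 : ∀ᵐ t : ℝ, liminf (fun k => g k t) atTop = 0 := by
    rw [lintegral_eq_zero_iff (Measurable.liminf hgm)] at h3
    exact h3
  filter_upwards [h5, hv] with t ht hvt
  refine ⟨S, hS, hSc, fun δ hδ => ?_⟩
  have h6 : ∃ k, g k t < ENNReal.ofReal δ := by
    by_contra hcon
    push Not at hcon
    have h7 : ENNReal.ofReal δ ≤ liminf (fun k => g k t) atTop :=
      le_liminf_of_le (by isBoundedDefault) (Eventually.of_forall hcon)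
    rw [ht] at h7
    exact absurd h7 (not_le.2 (ENNReal.ofReal_pos.2 hδ))
  obtain ⟨k, hk⟩ := h6
  have h8 : ∃ᶠ n in atTop, η (j k) n t < ENNReal.ofReal δ :=
    frequently_lt_of_liminf_lt (by isBoundedDefault) hk
  refine ⟨W (j k), hW _, fun z hz => hSW _ ⟨hz.1.2, hz.2⟩, ?_⟩
  refine VarLe.of_tendsto (fun z hz => hB z hz.2) fun ε hε => h8.mono fun n hn => ?_
  exact hvt (j k) n (δ + ε) (hn.le.trans (ENNReal.ofReal_le_ofReal (by linarith)))

end Crest.Agent.R105.Sl_732
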