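import Crest.Agent.R105.Bd1_775

/-!
# Row 105, S0138, NI (P2), the a.e. `t` half, part 1 (helper439): area inequality and
multiplicity on levels

* `area_le` : `|(a,b)(s)| ≤ ∫_s |da ∧ db|` for locally Lipschitz `a, b` on an open set
* `mult` : dyadic multiplicity of `b` on `{a = t} ∩ s`, `lintegral_mult_le`, `sum_image_le`
-/

set_option autoImplicit false

open MeasureTheory Set Filter Topology Metric
open scoped NNReal ENNReal

namespace Crest.Agent.R105.Vs_439

open Bd_775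

noncomputable section

/-- images of null sets -/
theorem null_image_of_lip {O : Set ℂ} (hO : IsOpen O) {a b : ℂ → ℝ}
    (ha : LocallyLipschitzOn O a) (hb : LocallyLipschitzOn O b) {s : Set ℂ} (hsO : s ⊆ O)
    (hs : volume s = 0) : volume ((fun z => (a z, b z)) '' s) = 0 := by
  set e : ℂ ≃L[ℝ] ℝ × ℝ := Complex.equivRealProdCLM with he
  have hes : volume (e '' s) = 0 := by
    have h1 := Complex.volume_preserving_equiv_real_prod.measure_preimage_equiv (e '' s)
    have h2 : Complex.measurableEquivRealProd ⁻¹' (e '' s) = s := by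
      ext z
      simp only [mem_preimage, mem_image]
      constructor
      · rintro ⟨w, hw, hwz⟩
        have : w = z := by
          apply Complex.ext
          · have := congrArg Prod.fst hwz; simpa [he, Complex.measurableEquivRealProd_apply] using this
          · have := congrArg Prod.snd hwz; simpa [he, Complex.measurableEquivRealProd_apply] using this
        exact this ▸ hw
      · intro hz
        exact ⟨z, hz, by simp [he, Complex.measurableEquivRealProd_apply]⟩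
    rw [h2, hs] at h1
    exact h1.symm
  have hloc : ∀ z ∈ s, ∃ K : ℝ≥0, ∃ t ∈ 𝓝 z, LipschitzOnWith K (fun z => (a z, b z)) t := by
    intro z hz
    obtain ⟨K, t, ht, hK⟩ := ha (hsO hz)
    obtain ⟨L, t', ht', hL⟩ := hb (hsO hz)
    rw [hO.nhdsWithin_eq (hsO hz)] at ht ht'
    exact ⟨max K L, t ∩ t', inter_mem ht ht',
      (hK.mono inter_subset_left).prodMk (hL.mono inter_subset_right)⟩
  choose! K t ht hK using hloc
  obtain ⟨T, hTs, hTc, hTcov⟩ := TopologicalSpace.countable_cover_nhdsWithin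
    (s := s) (f := t) (fun z hz => mem_nhdsWithin_of_mem_nhds (ht z hz))
  have hsub : (fun z => (a z, b z)) '' s ⊆ ⋃ x ∈ T, (fun z => (a z, b z)) '' (s ∩ t x) := by
    rintro _ ⟨z, hz, rfl⟩
    obtain ⟨x, hx, hzx⟩ := mem_iUnion₂.1 (hTcov hz)
    exact mem_iUnion₂.2 ⟨x, hx, z, ⟨hz, hzx⟩, rfl⟩
  refine measure_mono_null hsub ((measure_biUnion_null_iff hTc).2 fun x hx => ?_)
  have h1 : LipschitzOnWith (K x) (fun z => (a z, b z)) (s ∩ t x) :=
    (hK x (hTs hx)).mono inter_subset_right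
  have h2 : LipschitzWith ‖(e.symm : ℝ × ℝ →L[ℝ] ℂ)‖₊ e.symm :=
    (e.symm : ℝ × ℝ →L[ℝ] ℂ).lipschitz
  have h3 : LipschitzOnWith (K x * ‖(e.symm : ℝ × ℝ →L[ℝ] ℂ)‖₊)
      ((fun z => (a z, b z)) ∘ e.symm) (e '' (s ∩ t x)) := by
    refine h1.comp (h2.lipschitzOnWith) ?_
    rintro _ ⟨z, hz, rfl⟩
    simpa using hz
  have h4 := h3.hausdorffMeasure_image_le (d := 2) zero_le_two
  rw [hausdorffMeasure_prod_real] at h4
  have h5 : ((fun z => (a z, b z)) ∘ e.symm) '' (e '' (s ∩ t x)) =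
      (fun z => (a z, b z)) '' (s ∩ t x) := by
    rw [← image_comp]
    congr 1
  rw [h5] at h4
  refine le_antisymm (h4.trans ?_) zero_le
  rw [measure_mono_null (image_mono inter_subset_left) hes, mul_zero]

lemma det_eq (a b : ℂ → ℝ) (z : ℂ) (A : ℝ × ℝ →L[ℝ] ℝ × ℝ)
    (hA : ∀ p : ℝ × ℝ, A p = (fderiv ℝ a z (⟨p.1, p.2⟩ : ℂ), fderiv ℝ b z (⟨p.1, p.2⟩ : ℂ))) :
    A.det = wdg a b z := by
  have h1 : A.det = LinearMap.det (A : ℝ × ℝ →ₗ[ℝ] ℝ × ℝ) := rfl
  rw [h1, ← LinearMap.det_toMatrix (Module.Basis.finTwoProd ℝ), Matrix.det_fin_two]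
  simp only [LinearMap.toMatrix_apply, Module.Basis.finTwoProd_zero, Module.Basis.finTwoProd_one,
    Module.Basis.coe_finTwoProd_repr, ContinuousLinearMap.coe_coe, hA, Matrix.cons_val_zero,
    Matrix.cons_val_one, Matrix.cons_val_fin_one]
  have e1 : (⟨1, 0⟩ : ℂ) = 1 := rfl
  have eI : (⟨0, 1⟩ : ℂ) = Complex.I := rfl
  unfold wdg gx gy
  rw [e1, eI]

/-- **area inequality** -/
theorem area_le {O : Set ℂ} (hO : IsOpen O) {a b : ℂ → ℝ}
    (ha : LocallyLipschitzOn O a) (hb : LocallyLipschitzOn O b) {s : Set ℂ} (hsO : s ⊆ O)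
    (hs : MeasurableSet s) :
    volume ((fun z => (a z, b z)) '' s) ≤ ∫⁻ z in s, ENNReal.ofReal |wdg a b z| := by
  set s1 : Set ℂ := s ∩ {z | DifferentiableAt ℝ a z ∧ DifferentiableAt ℝ b z} with hs1
  have hs1m : MeasurableSet s1 :=
    hs.inter ((measurableSet_of_differentiableAt ℝ a).inter (measurableSet_of_differentiableAt ℝ b))
  have hnull : volume (s \ s1) = 0 := by
    have h1 := ae_diff hO ha
    have h2 := ae_diff hO hb
    have h3 : ∀ᵐ z ∂(volume.restrict O), z ∈ {z | DifferentiableAt ℝ a z ∧ DifferentiableAt ℝ b z} := by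
      filter_upwards [h1, h2] with z h1 h2 using ⟨h1, h2⟩
    have h4 : ∀ᵐ z ∂(volume.restrict s), z ∈ {z | DifferentiableAt ℝ a z ∧ DifferentiableAt ℝ b z} :=
      ae_restrict_of_ae_restrict_of_subset hsO h3
    rw [ae_restrict_iff' hs] at h4
    refine measure_mono_null ?_ h4
    rintro z ⟨hz, hz'⟩ hcon
    exact hz' ⟨hz, hcon hz⟩
  have hsplit : (fun z => (a z, b z)) '' s ⊆
      (fun z => (a z, b z)) '' s1 ∪ (fun z => (a z, b z)) '' (s \ s1) := by
    rw [← image_union]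
    refine image_mono fun z hz => ?_
    by_cases h : z ∈ s1
    · exact Or.inl h
    · exact Or.inr ⟨hz, h⟩
  refine (measure_mono hsplit).trans ((measure_union_le _ _).trans ?_)
  rw [null_image_of_lip hO ha hb (sdiff_subset.trans hsO) hnull, add_zero]
  set e : ℂ ≃L[ℝ] ℝ × ℝ := Complex.equivRealProdCLM with he
  -- the derivative in coordinates
  set H : ℝ × ℝ → ℝ × ℝ := fun p => (a ⟨p.1, p.2⟩, b ⟨p.1, p.2⟩) with hH
  set H' : ℝ × ℝ → (ℝ × ℝ →L[ℝ] ℝ × ℝ) := fun p =>
    ((fderiv ℝ a ⟨p.1, p.2⟩).prod (fderiv ℝ b ⟨p.1, p.2⟩)).comp (e.symm : ℝ × ℝ →L[ℝ] ℂ) with hH'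
  have hesymm : ∀ p : ℝ × ℝ, e.symm p = (⟨p.1, p.2⟩ : ℂ) := by
    intro p
    rw [he]
    apply Complex.ext <;> simp
  set S : Set (ℝ × ℝ) := Complex.measurableEquivRealProd.symm ⁻¹' s1 with hS
  have hSm : MeasurableSet S := Complex.measurableEquivRealProd.symm.measurable hs1m
  have hSmem : ∀ p : ℝ × ℝ, p ∈ S ↔ (⟨p.1, p.2⟩ : ℂ) ∈ s1 := by
    intro p
    rw [hS, mem_preimage]
    rfl
  have hder : ∀ p ∈ S, HasFDerivWithinAt H (H' p) S p := by
    intro p hp
    have hp' := (hSmem p).1 hp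
    have h1 : HasFDerivAt (fun z : ℂ => (a z, b z))
        ((fderiv ℝ a ⟨p.1, p.2⟩).prod (fderiv ℝ b ⟨p.1, p.2⟩)) (e.symm p) := by
      rw [hesymm]
      exact hp'.2.1.hasFDerivAt.prodMk hp'.2.2.hasFDerivAt
    have h2 := h1.comp p e.symm.hasFDerivAt
    have h3 : (fun z : ℂ => (a z, b z)) ∘ e.symm = H := by
      funext q
      simp only [Function.comp, hesymm, hH]
    rw [h3] at h2
    exact h2.hasFDerivWithinAt
  have harea := addHaar_image_le_lintegral_abs_det_fderiv (volume : Measure (ℝ × ℝ)) hSm hder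
  have himg : H '' S = (fun z => (a z, b z)) '' s1 := by
    ext q
    constructor
    · rintro ⟨p, hp, rfl⟩
      exact ⟨⟨p.1, p.2⟩, (hSmem p).1 hp, rfl⟩
    · rintro ⟨z, hz, rfl⟩
      exact ⟨(z.re, z.im), (hSmem _).2 hz, rfl⟩
  rw [himg] at harea
  refine harea.trans ?_
  have hdet : ∀ p : ℝ × ℝ, (H' p).det = wdg a b ⟨p.1, p.2⟩ := fun p =>
    det_eq a b ⟨p.1, p.2⟩ (H' p) fun q => by
      simp only [hH', ContinuousLinearMap.comp_apply, ContinuousLinearEquiv.coe_coe, hesymm,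
        ContinuousLinearMap.prod_apply]
  simp only [hdet]
  have hmp := Complex.volume_preserving_equiv_real_prod.symm
  have hchg : ∫⁻ p in S, ENNReal.ofReal |wdg a b ⟨p.1, p.2⟩| =
      ∫⁻ z in s1, ENNReal.ofReal |wdg a b z| :=
    hmp.setLIntegral_comp_preimage_emb (MeasurableEquiv.measurableEmbedding _)
      (fun z => ENNReal.ofReal |wdg a b z|) s1
  rw [hchg]
  exact lintegral_mono_set inter_subset_left

/-! ### multiplicity on levels -/

/-- dyadic cells -/
def cell (k : ℕ) (m : ℤ × ℤ) : Set ℂ := {z | ⌊(2 : ℝ) ^ k * z.re⌋ = m.1 ∧ ⌊(2 : ℝ) ^ k * z.im⌋ = m.2}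

lemma measurableSet_cell (k : ℕ) (m : ℤ × ℤ) : MeasurableSet (cell k m) := by
  have h1 : Measurable fun z : ℂ => ⌊(2 : ℝ) ^ k * z.re⌋ :=
    Int.measurable_floor.comp (Complex.measurable_re.const_mul _)
  have h2 : Measurable fun z : ℂ => ⌊(2 : ℝ) ^ k * z.im⌋ :=
    Int.measurable_floor.comp (Complex.measurable_im.const_mul _)
  exact (measurableSet_eq_fun h1 measurable_const).inter (measurableSet_eq_fun h2 measurable_const)

lemma mem_cell (k : ℕ) (z : ℂ) : z ∈ cell k (⌊(2 : ℝ) ^ k * z.re⌋, ⌊(2 : ℝ) ^ k * z.im⌋) :=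
  ⟨rfl, rfl⟩

lemma cell_disj (k : ℕ) : Pairwise (Function.onFun Disjoint (cell k)) := by
  intro m n hmn
  rw [Function.onFun, disjoint_left]
  rintro z ⟨h1, h2⟩ ⟨h3, h4⟩
  exact hmn (Prod.ext (h1.symm.trans h3) (h2.symm.trans h4))

lemma iUnion_cell (k : ℕ) : ⋃ m, cell k m = univ :=
  eq_univ_of_forall fun z => mem_iUnion.2 ⟨_, mem_cell k z⟩

lemma dist_cell {k : ℕ} {m : ℤ × ℤ} {z w : ℂ} (hz : z ∈ cell k m) (hw : w ∈ cell k m) :
    dist z w ≤ 2 * (1 / 2) ^ k := by
  have h2 : (0 : ℝ) < 2 ^ k := by positivity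
  have key : ∀ {x y : ℝ}, ⌊(2 : ℝ) ^ k * x⌋ = ⌊(2 : ℝ) ^ k * y⌋ → |x - y| ≤ (1 / 2) ^ k := by
    intro x y hxy
    have h3 := Int.abs_sub_lt_one_of_floor_eq_floor hxy
    rw [← mul_sub, abs_mul, abs_of_pos h2] at h3
    rw [one_div, inv_pow, ← one_div, le_div_iff₀ h2]
    linarith
  have h3 := key (hz.1.trans hw.1.symm)
  have h4 := key (hz.2.trans hw.2.symm)
  calc dist z w = ‖z - w‖ := Complex.dist_eq z w
    _ ≤ |(z - w).re| + |(z - w).im| := Complex.norm_le_abs_re_add_abs_im _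
    _ ≤ 2 * (1 / 2) ^ k := by
        rw [Complex.sub_re, Complex.sub_im]; linarith

/-- stage `k` of the multiplicity: total length of `b` on the cells of the level `t` -/
def hk (a b : ℂ → ℝ) (S : Set ℂ) (k : ℕ) (t : ℝ) : ℝ≥0∞ :=
  ∑' m : ℤ × ℤ, volume (Prod.mk t ⁻¹' toMeasurable volume ((fun z => (a z, b z)) '' (cell k m ∩ S)))

/-- multiplicity of `b` on the level `t` of `a` inside `S` -/
def mul (a b : ℂ → ℝ) (S : Set ℂ) (t : ℝ) : ℝ≥0∞ := liminf (fun k => hk a b S k t) atTop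

lemma measurable_hk (a b : ℂ → ℝ) (S : Set ℂ) (k : ℕ) : Measurable (hk a b S k) :=
  Measurable.tsum fun _ => measurable_measure_prodMk_left (measurableSet_toMeasurable _ _)

lemma measurable_mul (a b : ℂ → ℝ) (S : Set ℂ) : Measurable (mul a b S) :=
  Measurable.liminf fun k => measurable_hk a b S k

theorem lintegral_mul_le {O : Set ℂ} (hO : IsOpen O) {a b : ℂ → ℝ}
    (ha : LocallyLipschitzOn O a) (hb : LocallyLipschitzOn O b) {S : Set ℂ} (hSO : S ⊆ O)
    (hS : MeasurableSet S) :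
    ∫⁻ t, mul a b S t ≤ ∫⁻ z in S, ENNReal.ofReal |wdg a b z| := by
  refine (lintegral_liminf_le fun k => measurable_hk a b S k).trans ?_
  refine liminf_le_of_frequently_le' (Frequently.of_forall fun k => ?_)
  unfold hk
  rw [lintegral_tsum fun m => (measurable_measure_prodMk_left
    (measurableSet_toMeasurable _ _)).aemeasurable]
  calc ∑' m : ℤ × ℤ, ∫⁻ t, volume (Prod.mk t ⁻¹' toMeasurable volume
        ((fun z => (a z, b z)) '' (cell k m ∩ S)))
      = ∑' m : ℤ × ℤ, volume ((fun z => (a z, b z)) '' (cell k m ∩ S)) := by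
        refine tsum_congr fun m => ?_
        rw [← measure_toMeasurable ((fun z => (a z, b z)) '' (cell k m ∩ S)),
          Measure.volume_eq_prod, Measure.prod_apply (measurableSet_toMeasurable _ _)]
    _ ≤ ∑' m : ℤ × ℤ, ∫⁻ z in cell k m ∩ S, ENNReal.ofReal |wdg a b z| :=
        ENNReal.tsum_le_tsum fun m => area_le hO ha hb (inter_subset_right.trans hSO)
          ((measurableSet_cell k m).inter hS)
    _ = ∫⁻ z in ⋃ m, cell k m ∩ S, ENNReal.ofReal |wdg a b z| := by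
        rw [lintegral_iUnion (fun m => (measurableSet_cell k m).inter hS)
          (fun m n hmn => (cell_disj k hmn).mono inter_subset_left inter_subset_left)]
    _ = ∫⁻ z in S, ENNReal.ofReal |wdg a b z| := by
        rw [← iUnion_inter, iUnion_cell, univ_inter]

/-- disjoint compact pieces of the level -/
theorem sum_image_le {a b : ℂ → ℝ} {S : Set ℂ} {t : ℝ} {ι : Type*} (F : Finset ι)
    {C : ι → Set ℂ} (hC : ∀ i ∈ F, IsCompact (C i))
    (hd : ∀ i ∈ F, ∀ j ∈ F, i ≠ j → Disjoint (C i) (C j))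
    (ht : ∀ i ∈ F, ∀ z ∈ C i, z ∈ S → a z = t) :
    ∑ i ∈ F, volume (b '' (C i ∩ S)) ≤ mul a b S t := by
  have hsep : ∀ i ∈ F, ∀ j ∈ F, i ≠ j → ∀ᶠ k : ℕ in atTop, ∀ m, ¬ ((cell k m ∩ C i).Nonempty ∧
      (cell k m ∩ C j).Nonempty) := by
    intro i hi j hj hij
    obtain ⟨δ, hδ, hdis⟩ := (hd i hi j hj hij).exists_thickenings (hC i hi) (hC j hj).isClosed
    have h1 : Tendsto (fun k : ℕ => 2 * (1 / 2 : ℝ) ^ k) atTop (𝓝 (2 * 0)) :=
      (tendsto_pow_atTop_nhds_zero_of_lt_one (by norm_num) (by norm_num)).const_mul 2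
    rw [mul_zero] at h1
    filter_upwards [h1.eventually (gt_mem_nhds hδ)] with k hk m
    rintro ⟨⟨x, hx, hxC⟩, ⟨y, hy, hyC⟩⟩
    have hy2 : y ∈ thickening δ (C i) :=
      mem_thickening_iff.2 ⟨x, hxC, (dist_cell hy hx).trans_lt hk⟩
    exact disjoint_left.1 hdis hy2 (self_subset_thickening hδ _ hyC)
  have hall : ∀ᶠ k : ℕ in atTop, ∀ i ∈ F, ∀ j ∈ F, i ≠ j → ∀ m, ¬ ((cell k m ∩ C i).Nonempty ∧
      (cell k m ∩ C j).Nonempty) := by
    rw [Filter.eventually_all_finset]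
    intro i hi
    rw [Filter.eventually_all_finset]
    intro j hj
    by_cases hij : i = j
    · exact Eventually.of_forall fun k h => absurd hij h
    · filter_upwards [hsep i hi j hj hij] with k hk _ using hk
  refine le_liminf_of_le (by isBoundedDefault) ?_
  filter_upwards [hall] with k hk'
  classical
  calc ∑ i ∈ F, volume (b '' (C i ∩ S))
      ≤ ∑ i ∈ F, ∑' m : ℤ × ℤ, volume (b '' (C i ∩ S ∩ cell k m)) := by
        refine Finset.sum_le_sum fun i _ => ?_
        have h1 : b '' (C i ∩ S) ⊆ ⋃ m, b '' (C i ∩ S ∩ cell k m) := by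
          rintro _ ⟨z, hz, rfl⟩
          exact mem_iUnion.2 ⟨_, z, ⟨hz, mem_cell k z⟩, rfl⟩
        exact (measure_mono h1).trans (measure_iUnion_le _)
    _ = ∑' m : ℤ × ℤ, ∑ i ∈ F, volume (b '' (C i ∩ S ∩ cell k m)) :=
        (Summable.tsum_finsetSum fun i _ => ENNReal.summable).symm
    _ ≤ hk a b S k t := by
        refine ENNReal.tsum_le_tsum fun m => ?_
        by_cases hex : ∃ i ∈ F, (cell k m ∩ C i).Nonempty
        · obtain ⟨i, hi, hne⟩ := hex
          rw [Finset.sum_eq_single_of_mem i hi]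
          · refine measure_mono ?_
            rintro _ ⟨z, ⟨⟨hzC, hzS⟩, hzc⟩, rfl⟩
            refine subset_toMeasurable _ _ ⟨z, ⟨hzc, hzS⟩, ?_⟩
            simp only [ht i hi z hzC hzS]
          · intro j hj hji
            have : C j ∩ S ∩ cell k m = ∅ := by
              rw [← not_nonempty_iff_eq_empty]
              rintro ⟨z, ⟨hzC, -⟩, hzc⟩
              exact hk' i hi j hj hji.symm m ⟨hne, z, hzc, hzC⟩
            rw [this, image_empty, measure_empty]
        · refine le_of_eq_of_le (Finset.sum_eq_zero fun i hi => ?_) zero_le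
          have : C i ∩ S ∩ cell k m = ∅ := by
            rw [← not_nonempty_iff_eq_empty]
            rintro ⟨z, ⟨hzC, -⟩, hzc⟩
            exact hex ⟨i, hi, z, hzc, hzC⟩
          rw [this, image_empty, measure_empty]

end

end Crest.Agent.R105.Vs_439
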