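import Crest.Agent.R105.Ni0_459
import Crest.Agent.R105.Sl2_732
import Crest.Agent.R105.Vs1_439

/-!
# Row 105, S0138, NI (P2), the a.e. `t` half, part 2 (helper439)

* `sum_le_EB` : null image ⟹ on a.e. level `t` of `a` the variation of `b` over disjoint saturated
  continua in `W` is at most `EB Y a b W t` (multiplicity off `Y` + jumps of `b` in `W`)
* `lintegral_EB_le` : `∫ EB dt ≤ (θ T_W(a) + θ⁻¹ T_W(b)) / 2`
-/

set_option autoImplicit false

open MeasureTheory Set Filter Topology Metric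
open scoped NNReal ENNReal

namespace Crest.Agent.R105.Vs_439

open Bd_775 Ends_897 Tc_808 Ni_459 Sl_732 Crest.AnalysisR

noncomputable section

variable {Y : Set ℂ} {a b u : ℂ → ℝ}

lemma en_nonneg' (u : ℂ → ℝ) (z : ℂ) : 0 ≤ en u z := by
  unfold en; positivity

lemma measurable_en' (u : ℂ → ℝ) : Measurable (en u) := by
  unfold en gx gy
  exact ((measurable_fderiv_apply_const ℝ u 1).pow_const 2).add
    ((measurable_fderiv_apply_const ℝ u Complex.I).pow_const 2)

/-- the component of a point -/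
def cK (Y : Set ℂ) (z : ℂ) (hz : z ∈ Y) : Cmp Y := ⟨connectedComponentIn Y z, z, hz, rfl⟩

/-- upper value at a component -/
def upK (Y : Set ℂ) (u : ℂ → ℝ) (K : Cmp Y) : ℝ := up Y u K.2.choose

/-- lower value at a component -/
def loK (Y : Set ℂ) (u : ℂ → ℝ) (K : Cmp Y) : ℝ := lo Y u K.2.choose

/-- the jump -/
def gap (Y : Set ℂ) (u : ℂ → ℝ) (K : Cmp Y) : ℝ := upK Y u K - loK Y u K

/-- the components with a jump -/
def JJ (Y : Set ℂ) (u : ℂ → ℝ) : Set (Cmp Y) := {K | 0 < gap Y u K}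

lemma up_eq_upK {K : Cmp Y} {z : ℂ} (hz : z ∈ K.1) : up Y u z = upK Y u K := by
  have h := K.2.choose_spec
  exact up_congr_cc h.1 (h.2 ▸ hz)

lemma lo_eq_loK {K : Cmp Y} {z : ℂ} (hz : z ∈ K.1) : lo Y u z = loK Y u K := by
  have h := K.2.choose_spec
  exact lo_congr_cc h.1 (h.2 ▸ hz)

lemma cmp_nonempty (K : Cmp Y) : K.1.Nonempty := by
  obtain ⟨K, z, hz, rfl⟩ := K
  exact ⟨z, mem_connectedComponentIn hz⟩

lemma cmp_subset (K : Cmp Y) : K.1 ⊆ Y := by
  obtain ⟨K, z, hz, rfl⟩ := K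
  exact connectedComponentIn_subset _ _

lemma mem_cK {z : ℂ} (hz : z ∈ Y) : z ∈ (cK Y z hz).1 := mem_connectedComponentIn hz

/-- the interval valued image of a connected set -/
theorem slice' {lo hi : ℂ → ℝ} (hlo : LowerSemicontinuous lo)
    (hhi : UpperSemicontinuous hi) (hle : ∀ z, lo z ≤ hi z) {C : Set ℂ} (hC : IsPreconnected C)
    {q q' : ℂ} (hq : q ∈ C) (hq' : q' ∈ C) {s : ℝ} (h1 : lo q' ≤ s) (h2 : s ≤ hi q) :
    ∃ z ∈ C, lo z ≤ s ∧ s ≤ hi z := by
  obtain ⟨z, hz, h3, h4⟩ := (isPreconnected_closed_iff.1 hC) {z | lo z ≤ s} {z | s ≤ hi z}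
    (hlo.isClosed_preimage s) (hhi.isClosed_preimage s)
    (fun z _ => by
      rcases le_total (lo z) s with h | h
      · exact Or.inl h
      · exact Or.inr (h.trans (hle z)))
    ⟨q', hq', h1⟩ ⟨q, hq, h2⟩
  exact ⟨z, hz, h3, h4⟩

/-- slice bound: multiplicity + jumps -/
def jsum (Y : Set ℂ) (a b : ℂ → ℝ) (W : Set ℂ) (t : ℝ) : ℝ≥0∞ :=
  open Classical in
  ∑' K : JJ Y b, if K.1.1 ⊆ W ∧ loK Y a K.1 ≤ t ∧ t ≤ upK Y a K.1 then
    ENNReal.ofReal (gap Y b K.1) else 0

/-- slice bound: multiplicity + jumps -/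
def EB (Y : Set ℂ) (a b : ℂ → ℝ) (W : Set ℂ) (t : ℝ) : ℝ≥0∞ :=
  mul a b (W \ Y) t + jsum Y a b W t

section
variable (hY : IsExteriorDomain Yᶜ)
include hY

lemma gap_nonneg (hu : LB u) (K : Cmp Y) : 0 ≤ gap Y u K :=
  sub_nonneg.2 (lo_le_up hY hu _)

/-- one piece -/
theorem piece_le (hb : LB b) (hbc : ContinuousOn b Yᶜ) (ha : LB a)
    (hJb : (JJ Y b).Countable) (hJa : (JJ Y a).Countable) {t : ℝ}
    (ht : volume {s | (t, s) ∈ NP Y a b} = 0) {W C : Set ℂ} {p q : ℂ}
    (hC : Piece Y (Lv Y a t ∩ W) C p q) :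
    open Classical in
    ENNReal.ofReal |b p - b q| ≤ volume (b '' (C ∩ (W \ Y))) +
      ∑' K : JJ Y b, if K.1.1 ⊆ C then ENNReal.ofReal (gap Y b K.1) else 0 := by
  classical
  have hYo : IsOpen Yᶜ := hY.1
  have hca : ∀ z ∉ Y, ContinuousAt b z := fun z hz => hbc.continuousAt (hYo.mem_nhds hz)
  set Za : Set ℝ := (fun K : Cmp Y => loK Y b K) '' JJ Y a with hZa
  have hZac : volume Za = 0 := (hJa.image _).measure_zero _
  have hcov : uIcc (b p) (b q) ⊆ ((b '' (C ∩ (W \ Y)) ∪ {s | (t, s) ∈ NP Y a b}) ∪ Za) ∪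
      ⋃ K : JJ Y b, if K.1.1 ⊆ C then Icc (loK Y b K.1) (upK Y b K.1) else ∅ := by
    intro s hs
    obtain ⟨z, hzC, h1, h2⟩ : ∃ z ∈ C, lo Y b z ≤ s ∧ s ≤ up Y b z := by
      rcases le_total (b p) (b q) with h | h
      · rw [uIcc_of_le h] at hs
        refine slice' (lsc_lo hY hb) (usc_up hY hb) (lo_le_up hY hb) hC.conn hC.hq.1 hC.hp.1 ?_ ?_
        · rw [lo_of_notMem hY hb hC.hp.2 (hca _ hC.hp.2)]; exact hs.1
        · rw [up_of_notMem hY hb hC.hq.2 (hca _ hC.hq.2)]; exact hs.2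
      · rw [uIcc_of_ge h] at hs
        refine slice' (lsc_lo hY hb) (usc_up hY hb) (lo_le_up hY hb) hC.conn hC.hp.1 hC.hq.1 ?_ ?_
        · rw [lo_of_notMem hY hb hC.hq.2 (hca _ hC.hq.2)]; exact hs.1
        · rw [up_of_notMem hY hb hC.hp.2 (hca _ hC.hp.2)]; exact hs.2
    by_cases hzY : z ∈ Y
    · set K : Cmp Y := cK Y z hzY with hK
      have hzK : z ∈ K.1 := mem_cK hzY
      by_cases hKb : K ∈ JJ Y b
      · refine Or.inr (mem_iUnion.2 ⟨⟨K, hKb⟩, ?_⟩)
        have hKC : K.1 ⊆ C := hC.sat z hzC hzY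
        rw [if_pos hKC]
        rw [lo_eq_loK hzK] at h1
        rw [up_eq_upK hzK] at h2
        exact ⟨h1, h2⟩
      · left
        have hg : gap Y b K ≤ 0 := not_lt.1 hKb
        have h3 : up Y b z ≤ lo Y b z := by
          rw [up_eq_upK hzK, lo_eq_loK hzK]
          unfold gap at hg
          linarith
        have h4 : lo Y b z = s := le_antisymm h1 (h2.trans h3)
        have h5 : up Y b z = s := le_antisymm (h3.trans h1) h2
        by_cases hKa : K ∈ JJ Y a
        · right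
          exact ⟨K, hKa, by rw [← h4, lo_eq_loK hzK]⟩
        · left; right
          have hga : gap Y a K ≤ 0 := not_lt.1 hKa
          have h6 : up Y a z ≤ lo Y a z := by
            rw [up_eq_upK hzK, lo_eq_loK hzK]
            unfold gap at hga
            linarith
          have h7 := (hC.sub hzC).1
          exact ⟨z, hzY, le_antisymm h7.1 (h7.2.trans h6), le_antisymm (h6.trans h7.1) h7.2,
            h4, h5⟩
    · left; left; left
      rw [lo_of_notMem hY hb hzY (hca _ hzY)] at h1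
      rw [up_of_notMem hY hb hzY (hca _ hzY)] at h2
      exact ⟨z, ⟨hzC, (hC.sub hzC).2, hzY⟩, le_antisymm h1 h2⟩
  have hvol : ENNReal.ofReal |b p - b q| = volume (uIcc (b p) (b q)) := by
    rw [Real.volume_interval, abs_sub_comm]
  rw [hvol]
  have : Countable (JJ Y b) := hJb.to_subtype
  refine (measure_mono hcov).trans ((measure_union_le _ _).trans ?_)
  refine add_le_add ?_ ?_
  · refine (measure_union_le _ _).trans ?_
    rw [hZac, add_zero]
    refine (measure_union_le _ _).trans ?_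
    rw [ht, add_zero]
  · refine (measure_iUnion_le _).trans (ENNReal.tsum_le_tsum fun K => ?_)
    split_ifs with h
    · rw [Real.volume_Icc]; rfl
    · simp

/-- **slice bound** -/
theorem sum_le_EB (hb : LB b) (hbc : ContinuousOn b Yᶜ) (ha : LB a) (hac : ContinuousOn a Yᶜ)
    (hJb : (JJ Y b).Countable) (hJa : (JJ Y a).Countable) {t : ℝ}
    (ht : volume {s | (t, s) ∈ NP Y a b} = 0) {W : Set ℂ} (F : Finset (Set ℂ))
    (p q : Set ℂ → ℂ) (hF : ∀ C ∈ F, Piece Y (Lv Y a t ∩ W) C (p C) (q C))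
    (hd : (F : Set (Set ℂ)).PairwiseDisjoint id) :
    ∑ C ∈ F, ENNReal.ofReal |b (p C) - b (q C)| ≤ EB Y a b W t := by
  classical
  have hYo : IsOpen Yᶜ := hY.1
  have hca : ∀ z ∉ Y, ContinuousAt a z := fun z hz => hac.continuousAt (hYo.mem_nhds hz)
  refine (Finset.sum_le_sum fun C hC => piece_le hY hb hbc ha hJb hJa ht (hF C hC)).trans ?_
  rw [Finset.sum_add_distrib]
  refine add_le_add ?_ ?_
  · refine sum_image_le F (C := fun C => C) (fun C hC => (hF C hC).cpt)
      (fun C hC D hD hne => hd hC hD hne) ?_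
    intro C hC z hz hzS
    have h1 := ((hF C hC).sub hz).1
    rw [Lv, mem_ofPred_eq, lo_of_notMem hY ha hzS.2 (hca _ hzS.2),
      up_of_notMem hY ha hzS.2 (hca _ hzS.2)] at h1
    exact le_antisymm h1.1 h1.2
  · rw [← Summable.tsum_finsetSum fun i _ => ENNReal.summable]
    unfold jsum
    refine ENNReal.tsum_le_tsum fun K => ?_
    by_cases hex : ∃ C ∈ F, K.1.1 ⊆ C
    · obtain ⟨C, hC, hKC⟩ := hex
      rw [Finset.sum_eq_single_of_mem C hC]
      · obtain ⟨z, hz⟩ := cmp_nonempty K.1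
        have h1 := ((hF C hC).sub (hKC hz)).1
        rw [if_pos hKC, if_pos]
        refine ⟨fun w hw => ((hF C hC).sub (hKC hw)).2, ?_, ?_⟩
        · rw [← lo_eq_loK hz]; exact h1.1
        · rw [← up_eq_upK hz]; exact h1.2
      · intro D hD hDC
        rw [if_neg]
        intro hKD
        obtain ⟨z, hz⟩ := cmp_nonempty K.1
        exact disjoint_left.1 (hd hD hC hDC) (hKD hz) (hKC hz)
    · rw [Finset.sum_eq_zero fun C hC => if_neg fun h => hex ⟨C, hC, h⟩]
      exact zero_le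

theorem varLe_of_EB (hb : LB b) (hbc : ContinuousOn b Yᶜ) (ha : LB a) (hac : ContinuousOn a Yᶜ)
    (hJb : (JJ Y b).Countable) (hJa : (JJ Y a).Countable) {t : ℝ}
    (ht : volume {s | (t, s) ∈ NP Y a b} = 0) {W : Set ℂ} {η : ℝ} (hη : 0 ≤ η)
    (h : EB Y a b W t ≤ ENNReal.ofReal η) : VarLe Y (Lv Y a t) W b η := by
  intro F p q hF hd
  have h1 := (sum_le_EB hY hb hbc ha hac hJb hJa ht F p q hF hd).trans h
  rw [← ENNReal.ofReal_sum_of_nonneg fun C _ => abs_nonneg _] at h1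
  exact (ENNReal.ofReal_le_ofReal_iff hη).1 h1

omit hY in
theorem ae_slice_null (h : NI Y a b) : ∀ᵐ t : ℝ, volume {s | (t, s) ∈ NP Y a b} = 0 := by
  unfold NI at h
  have h1 : ∀ᵐ p : ℝ × ℝ, p ∉ NP Y a b := by
    rw [ae_iff]; simpa using h
  rw [Measure.volume_eq_prod] at h1
  filter_upwards [Measure.ae_ae_of_ae_prod h1] with t ht
  rw [ae_iff] at ht
  simpa using ht

/-! ### the integral of the bound -/

/-- energy in `W` : Dirichlet part off `Y` and jumps of the components in `W` -/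
def TW (Y W : Set ℂ) (u : ℂ → ℝ) : ℝ≥0∞ :=
  open Classical in
  (∫⁻ z in W \ Y, ENNReal.ofReal (en u z)) +
    ∑' K : Cmp Y, if K.1 ⊆ W then ENNReal.ofReal (gap Y u K ^ 2) else 0

omit hY in
lemma measurable_jsum (hJb : (JJ Y b).Countable) (W : Set ℂ) : Measurable (jsum Y a b W) := by
  have : Countable (JJ Y b) := hJb.to_subtype
  unfold jsum
  refine Measurable.tsum fun K => ?_
  refine Measurable.ite ?_ measurable_const measurable_const
  by_cases h : K.1.1 ⊆ W
  · simp only [h, true_and]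
    exact measurableSet_Icc
  · simp only [h, false_and, ofPred_false]
    exact MeasurableSet.empty

omit hY in
lemma measurable_EB (hJb : (JJ Y b).Countable) (W : Set ℂ) : Measurable (EB Y a b W) :=
  (measurable_mul a b _).add (measurable_jsum hJb W)

omit hY in
lemma am_gm {θ : ℝ} (hθ : 0 < θ) (x y : ℝ) : x * y ≤ θ * x ^ 2 + θ⁻¹ * y ^ 2 := by
  have h1 : 0 < θ⁻¹ := inv_pos.2 hθ
  have h2 : θ * θ⁻¹ = 1 := mul_inv_cancel₀ hθ.ne'
  have h3 : θ * x ^ 2 + θ⁻¹ * y ^ 2 - x * y =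
      θ * (x - θ⁻¹ * y / 2) ^ 2 + 3 / 4 * θ⁻¹ * y ^ 2 := by
    have : θ * (x - θ⁻¹ * y / 2) ^ 2 = θ * x ^ 2 - (θ * θ⁻¹) * x * y + (θ * θ⁻¹) * θ⁻¹ * y ^ 2 / 4 := by
      ring
    rw [this, h2]; ring
  have h4 : 0 ≤ θ * (x - θ⁻¹ * y / 2) ^ 2 + 3 / 4 * θ⁻¹ * y ^ 2 := by positivity
  linarith

omit hY in
lemma wdg_le_en {θ : ℝ} (hθ : 0 < θ) (z : ℂ) : |wdg a b z| ≤ θ * en a z + θ⁻¹ * en b z := by
  have h1 : 0 < θ⁻¹ := inv_pos.2 hθ
  unfold wdg en
  have h2 := am_gm hθ (gx a z) (gy b z)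
  have h3 := am_gm hθ (gy a z) (gx b z)
  have h4 := am_gm hθ (-gx a z) (gy b z)
  have h5 := am_gm hθ (-gy a z) (gx b z)
  rw [abs_le]
  constructor <;> nlinarith

theorem lintegral_EB_le (hb : LB b) (hbl : LocallyLipschitzOn Yᶜ b) (ha : LB a)
    (hal : LocallyLipschitzOn Yᶜ a) (hJb : (JJ Y b).Countable) {W : Set ℂ} (hW : IsOpen W)
    {θ : ℝ} (hθ : 0 < θ) :
    ∫⁻ t, EB Y a b W t ≤ ENNReal.ofReal θ * TW Y W a + ENNReal.ofReal θ⁻¹ * TW Y W b := by
  classical
  have hYc : IsClosed Y := by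
    have := hY.1; rwa [isOpen_compl_iff] at this
  have : Countable (JJ Y b) := hJb.to_subtype
  have hWY : W \ Y ⊆ Yᶜ := fun z hz => hz.2
  have hms : MeasurableSet (W \ Y) := hW.measurableSet.diff hYc.measurableSet
  have hθ' : 0 < θ⁻¹ := inv_pos.2 hθ
  unfold EB TW
  rw [lintegral_add_left (measurable_mul a b _)]
  have hA : ∫⁻ t, mul a b (W \ Y) t ≤
      ENNReal.ofReal θ * (∫⁻ z in W \ Y, ENNReal.ofReal (en a z)) +
      ENNReal.ofReal θ⁻¹ * (∫⁻ z in W \ Y, ENNReal.ofReal (en b z)) := by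
    refine (lintegral_mul_le hY.1 hal hbl hWY hms).trans ?_
    rw [← lintegral_const_mul' _ _ ENNReal.ofReal_ne_top, ← lintegral_const_mul' _ _ ENNReal.ofReal_ne_top,
      ← lintegral_add_left ((measurable_en' a).ennreal_ofReal.const_mul _)]
    refine lintegral_mono fun z => ?_
    rw [← ENNReal.ofReal_mul hθ.le, ← ENNReal.ofReal_mul hθ'.le, ← ENNReal.ofReal_add
      (mul_nonneg hθ.le (en_nonneg' a z)) (mul_nonneg hθ'.le (en_nonneg' b z))]
    exact ENNReal.ofReal_le_ofReal (wdg_le_en hθ z)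
  have hB : ∫⁻ t, jsum Y a b W t ≤
      ENNReal.ofReal θ * (∑' K : Cmp Y, if K.1 ⊆ W then ENNReal.ofReal (gap Y a K ^ 2) else 0) +
      ENNReal.ofReal θ⁻¹ * (∑' K : Cmp Y, if K.1 ⊆ W then ENNReal.ofReal (gap Y b K ^ 2) else 0) := by
    have h1 : ∫⁻ t, jsum Y a b W t = ∑' K : JJ Y b, if K.1.1 ⊆ W then
        ENNReal.ofReal (gap Y b K.1) * ENNReal.ofReal (gap Y a K.1) else 0 := by
      unfold jsum
      rw [lintegral_tsum]
      · refine tsum_congr fun K => ?_
        by_cases h : K.1.1 ⊆ W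
        · simp only [h, true_and, if_true]
          have h2 : (fun t : ℝ => if loK Y a K.1 ≤ t ∧ t ≤ upK Y a K.1 then
              ENNReal.ofReal (gap Y b K.1) else 0) =
              (Icc (loK Y a K.1) (upK Y a K.1)).indicator
                (fun _ => ENNReal.ofReal (gap Y b K.1)) := by
            funext t; rw [indicator_apply]; rfl
          rw [h2, lintegral_indicator_const measurableSet_Icc, Real.volume_Icc]
          rfl
        · simp only [h, false_and, if_false, lintegral_zero]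
      · intro K
        refine (Measurable.ite ?_ measurable_const measurable_const).aemeasurable
        by_cases h : K.1.1 ⊆ W
        · simp only [h, true_and]
          exact measurableSet_Icc
        · simp only [h, false_and, ofPred_false]
          exact MeasurableSet.empty
    rw [h1, ← ENNReal.tsum_mul_left, ← ENNReal.tsum_mul_left, ← ENNReal.tsum_add]
    refine le_trans (ENNReal.tsum_le_tsum fun K => ?_)
      (ENNReal.tsum_comp_le_tsum_of_injective (Subtype.val_injective (p := (· ∈ JJ Y b))) _)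
    by_cases h : K.1.1 ⊆ W
    · rw [if_pos h]
      simp only [h, if_true]
      have ga := gap_nonneg hY ha K.1
      have gb := gap_nonneg hY hb K.1
      rw [← ENNReal.ofReal_mul gb, ← ENNReal.ofReal_mul hθ.le, ← ENNReal.ofReal_mul hθ'.le,
        ← ENNReal.ofReal_add (by positivity) (by positivity), mul_comm]
      exact ENNReal.ofReal_le_ofReal (am_gm hθ _ _)
    · rw [if_neg h]; exact zero_le
  refine (add_le_add hA hB).trans (le_of_eq ?_)
  ring

end

end

end Crest.Agent.R105.Vs_439
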