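import Crest.Agent.R105.Nip9_31
import Crest.Agent.R105.Sl4_732
import Crest.Agent.R105.Vs2_439
import Crest.Agent.R105.Ni2_459

/-!
# Row 105, S0138 (NI frame), node NIEP, part 1 (helper909): from slice bounds to `NI`

`P` = countable set of components (the solids), `c` = charges, `A = x0 + a`.
* `sqc Y A P c W t` : sum of the charges of the solids in `W` met by the level `t` of `A`
* `nie_core` : if for a.e. `t` the variation of `b n` along the level `t` of `A` in every open `W` is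
  at most `mul A (b n) (W \ Y) t + sqc Y A P (c n) W t`, `b n → f` pointwise off `Y`, the energies of
  `b n` are bounded and `Σ (c n)² ≤ C`, then `NI Y a f`.
-/

set_option autoImplicit false

open MeasureTheory Set Filter Topology Metric
open scoped NNReal ENNReal

namespace Crest.Agent.R105.Nie_909

open Bd_775 Tc_808 Ni_459 Crest.AnalysisR Sl_732 IfB_641
open Vs_439 (mul measurable_mul lintegral_mul_le am_gm wdg_le_en measurable_en')
open Nip_31 (ni_iff_acvG)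

noncomputable section

variable {Y : Set ℂ} {x0 a f A : ℂ → ℝ}

/-- **closedness along a.e. level** (732's `acv_of_liminf`, bounds `c ≥ 0`, exceptional components
fixed) -/
theorem smv_of_liminf {E : Set ℂ} {L : ℝ → Set ℂ} {B : ℕ → ℂ → ℝ} {b : ℂ → ℝ}
    {S : Set (Set ℂ)}
    {W : ℕ → Set ℂ} (hW : ∀ j, IsOpen (W j)) (hSW : ∀ j, E \ ⋃₀ S ⊆ W j)
    (hB : ∀ z ∉ E, Tendsto (fun n => B n z) atTop (𝓝 (b z)))
    {η : ℕ → ℕ → ℝ → ℝ≥0∞} (hη : ∀ j n, Measurable (η j n))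
    (hv : ∀ᵐ t : ℝ, ∀ j n, ∀ c : ℝ, 0 ≤ c → η j n t ≤ ENNReal.ofReal c →
      VarLe E (L t) (W j) (B n) c)
    (hsmall : ∀ ε > 0, ∃ j, ∃ᶠ n in atTop, ∫⁻ t, η j n t ≤ ENNReal.ofReal ε) :
    ∀ᵐ t : ℝ, ∀ δ > 0, ∃ V, IsOpen V ∧ (L t ∩ E) \ ⋃₀ S ⊆ V ∧ VarLe E (L t) V b δ := by
  have h1 : ∀ k : ℕ, ∃ j, ∃ᶠ n in atTop, ∫⁻ t, η j n t ≤ ENNReal.ofReal (1 / ((k : ℝ) + 1)) :=
    fun k => hsmall _ (by positivity)
  choose j hj using h1
  set g : ℕ → ℝ → ℝ≥0∞ := fun k t => liminf (fun n => η (j k) n t) atTop with hg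
  have hgm : ∀ k, Measurable (g k) := fun k => Measurable.liminf fun n => hη (j k) n
  have h2 : ∀ k, ∫⁻ t, g k t ≤ ENNReal.ofReal (1 / ((k : ℝ) + 1)) := fun k =>
    (lintegral_liminf_le fun n => hη (j k) n).trans (liminf_le_of_frequently_le' (hj k))
  have h3 : ∫⁻ t, liminf (fun k => g k t) atTop = 0 := by
    refine le_antisymm ?_ zero_le
    refine (lintegral_liminf_le hgm).trans ?_
    have h4 : Tendsto (fun k : ℕ => ENNReal.ofReal (1 / ((k : ℝ) + 1))) atTop (𝓝 0) := by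
      rw [← ENNReal.ofReal_zero]
      exact (ENNReal.continuous_ofReal.tendsto 0).comp tendsto_one_div_add_atTop_nhds_zero_nat
    calc liminf (fun k => ∫⁻ t, g k t) atTop
        ≤ liminf (fun k : ℕ => ENNReal.ofReal (1 / ((k : ℝ) + 1))) atTop :=
          liminf_le_liminf (Eventually.of_forall h2)
      _ = 0 := h4.liminf_eq
  have h5 : ∀ᵐ t : ℝ, liminf (fun k => g k t) atTop = 0 := by
    rw [lintegral_eq_zero_iff (Measurable.liminf hgm)] at h3
    exact h3
  filter_upwards [h5, hv] with t ht hvt δ hδ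
  have h6 : ∃ k, g k t < ENNReal.ofReal δ := by
    by_contra hcon
    push Not at hcon
    have h7 : ENNReal.ofReal δ ≤ liminf (fun k => g k t) atTop :=
      le_liminf_of_le (by isBoundedDefault) (Eventually.of_forall hcon)
    rw [ht] at h7
    exact absurd h7 (not_le.2 (ENNReal.ofReal_pos.2 hδ))
  obtain ⟨k, hk⟩ := h6
  have h8 : ∃ᶠ n in atTop, η (j k) n t < ENNReal.ofReal δ :=
    frequently_lt_of_liminf_lt (by isBoundedDefault) hk
  refine ⟨W (j k), hW _, fun z hz => hSW _ ⟨hz.1.2, hz.2⟩, ?_⟩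
  refine VarLe.of_tendsto (fun z hz => hB z hz.2) fun ε hε => h8.mono fun n hn => ?_
  exact hvt (j k) n (δ + ε) (by linarith) (hn.le.trans (ENNReal.ofReal_le_ofReal (by linarith)))

/-- charges of the solids in `W` met by the level `t` -/
def sqc (Y : Set ℂ) (A : ℂ → ℝ) (P : Set (Cmp Y)) (c : Cmp Y → ℝ) (W : Set ℂ) (t : ℝ) : ℝ≥0∞ :=
  open Classical in
  ∑' K : P, if K.1.1 ⊆ W ∧ lo Y A (Nip_31.pt K.1) ≤ t ∧ t ≤ up Y A (Nip_31.pt K.1) then
    ENNReal.ofReal (c K.1) else 0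

lemma measurable_sqc {P : Set (Cmp Y)} (hP : P.Countable) (c : Cmp Y → ℝ) (W : Set ℂ) :
    Measurable (sqc Y A P c W) := by
  have : Countable P := hP.to_subtype
  unfold sqc
  refine Measurable.tsum fun K => ?_
  refine Measurable.ite ?_ measurable_const measurable_const
  by_cases h : K.1.1 ⊆ W
  · simp only [h, true_and]
    exact measurableSet_Icc
  · simp only [h, false_and, ofPred_false]
    exact MeasurableSet.empty

lemma lintegral_sqc {P : Set (Cmp Y)} (hP : P.Countable) (c : Cmp Y → ℝ) (W : Set ℂ) :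
    ∫⁻ t, sqc Y A P c W t = open Classical in ∑' K : P, if K.1.1 ⊆ W then
      ENNReal.ofReal (c K.1) * ENNReal.ofReal (Nip_31.osp Y A (Nip_31.pt K.1)) else 0 := by
  classical
  have : Countable P := hP.to_subtype
  unfold sqc
  rw [lintegral_tsum]
  · refine tsum_congr fun K => ?_
    by_cases h : K.1.1 ⊆ W
    · simp only [h, true_and, if_true]
      have h2 : (fun t : ℝ => if lo Y A (Nip_31.pt K.1) ≤ t ∧ t ≤ up Y A (Nip_31.pt K.1) then
          ENNReal.ofReal (c K.1) else 0) =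
          (Icc (lo Y A (Nip_31.pt K.1)) (up Y A (Nip_31.pt K.1))).indicator
            (fun _ => ENNReal.ofReal (c K.1)) := by
        funext t; rw [indicator_apply]; rfl
      rw [h2, lintegral_indicator_const measurableSet_Icc, Real.volume_Icc]
      rfl
    · simp only [h, false_and, if_false, lintegral_zero]
  · intro K
    refine (Measurable.ite ?_ measurable_const measurable_const).aemeasurable
    by_cases h : K.1.1 ⊆ W
    · simp only [h, true_and]
      exact measurableSet_Icc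
    · simp only [h, false_and, ofPred_false]
      exact MeasurableSet.empty

/-- the neighbourhoods `W j`: thin neighbourhoods of `Y` minus the first `j` solids -/
def Wj (Y : Set ℂ) (P : Set (Cmp Y)) [Encodable P] (j : ℕ) : Set ℂ :=
  thickening (1 / ((j : ℝ) + 1)) Y \ ⋃ K : {K : P // Encodable.encode K < j}, K.1.1.1

lemma finite_lt (P : Set (Cmp Y)) [Encodable P] (j : ℕ) :
    Finite {K : P // Encodable.encode K < j} :=
  Finite.of_injective (fun K => (⟨Encodable.encode K.1, K.2⟩ : Fin j)) fun K K' h => by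
    have := congrArg Fin.val h
    exact Subtype.ext (Encodable.encode_injective this)

lemma isOpen_Wj (hY : IsCompact Y) (P : Set (Cmp Y)) [Encodable P] (j : ℕ) :
    IsOpen (Wj Y P j) := by
  have := finite_lt P j
  exact isOpen_thickening.sdiff (isClosed_iUnion_of_finite fun K => (K.1.1.isCompact hY).isClosed)

lemma sub_Wj (P : Set (Cmp Y)) [Encodable P] (j : ℕ) :
    Y \ ⋃₀ ((fun K : Cmp Y => K.1) '' P) ⊆ Wj Y P j := by
  rintro z ⟨hz, hz'⟩
  refine ⟨self_subset_thickening (by positivity) _ hz, fun hc => hz' ?_⟩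
  obtain ⟨K, hK⟩ := mem_iUnion.1 hc
  exact mem_sUnion.2 ⟨_, ⟨K.1.1, K.1.2, rfl⟩, hK⟩

/-- energy near `Y` -/
lemma tendsto_en (hY : IsExteriorDomain Yᶜ) (hx : X0 Y x0) (ha : TT Y a) :
    Tendsto (fun j : ℕ => ∫⁻ z in thickening (1 / ((j : ℝ) + 1)) Y \ Y,
      ENNReal.ofReal (en (fun w => x0 w + a w) z)) atTop (𝓝 0) := by
  have hYc := cpt_of hY
  obtain ⟨R, hR⟩ := hYc.isBounded.exists_norm_le
  have hfin := Nip_31.en_x0_fin hY hx ha (R + 2)
  have hsub : ∀ j : ℕ, thickening (1 / ((j : ℝ) + 1)) Y \ Y ⊆ ball 0 (R + 2) \ Y := by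
    rintro j z ⟨hz, hzY⟩
    refine ⟨?_, hzY⟩
    obtain ⟨y, hy, hzy⟩ := mem_thickening_iff.1 hz
    have h1 : (1 : ℝ) / ((j : ℝ) + 1) ≤ 1 := by
      rw [div_le_one (by positivity)]; linarith [(Nat.cast_nonneg j : (0 : ℝ) ≤ j)]
    rw [mem_ball_zero_iff]
    have h2 := norm_le_norm_add_norm_sub' z y
    rw [dist_eq_norm] at hzy
    have := hR y hy
    linarith
  have hm : ∀ j : ℕ, MeasurableSet (thickening (1 / ((j : ℝ) + 1)) Y \ Y) := fun j =>
    isOpen_thickening.measurableSet.diff hYc.isClosed.measurableSet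
  set g : ℂ → ℝ≥0∞ := fun z => ENNReal.ofReal (en (fun w => x0 w + a w) z) with hg
  have hgm : Measurable g := (measurable_en' _).ennreal_ofReal
  have e : ∀ j : ℕ, ∫⁻ z in thickening (1 / ((j : ℝ) + 1)) Y \ Y, g z =
      (volume.withDensity g).restrict (ball 0 (R + 2) \ Y)
        (thickening (1 / ((j : ℝ) + 1)) Y \ Y) := by
    intro j
    rw [Measure.restrict_apply (hm j), inter_eq_left.2 (hsub j), withDensity_apply _ (hm j)]
  simp_rw [e]
  have hI : ⋂ j : ℕ, (thickening (1 / ((j : ℝ) + 1)) Y \ Y) = ∅ := by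
    ext z
    simp only [mem_iInter, mem_empty_iff_false, iff_false]
    intro hz
    refine (hz 0).2 ?_
    have hcl : z ∈ closure Y := by
      rw [Metric.mem_closure_iff]
      intro ε hε
      obtain ⟨n, hn⟩ := exists_nat_one_div_lt hε
      obtain ⟨y, hy, hzy⟩ := mem_thickening_iff.1 (hz n).1
      exact ⟨y, hy, hzy.trans hn⟩
    rwa [hYc.isClosed.closure_eq] at hcl
  have hfin2 : (volume.withDensity g).restrict (ball 0 (R + 2) \ Y) univ ≠ ∞ := by
    rw [Measure.restrict_apply_univ, withDensity_apply _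
      (isOpen_ball.measurableSet.diff hYc.isClosed.measurableSet)]
    exact hfin
  have h1 := tendsto_measure_iInter_atTop (μ := (volume.withDensity g).restrict (ball 0 (R + 2) \ Y))
    (s := fun j : ℕ => thickening (1 / ((j : ℝ) + 1)) Y \ Y)
    (fun j => (hm j).nullMeasurableSet) (fun i j hij => ?_) ⟨0, ?_⟩
  · rw [hI, measure_empty] at h1
    exact h1
  · refine sdiff_subset_sdiff_left (thickening_mono ?_ _)
    have : (i : ℝ) ≤ j := by exact_mod_cast hij
    exact one_div_le_one_div_of_le (by positivity) (by linarith)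
  · exact ne_top_of_le_ne_top hfin2 (measure_mono (subset_univ _))

/-- jumps of the solids which are not removed from `W j` -/
lemma tendsto_osc (ha : TT Y a) (P : Set (Cmp Y)) [Encodable P] :
    Tendsto (fun j : ℕ => open Classical in ∑' K : P, if K.1.1 ⊆ Wj Y P j then
      ENNReal.ofReal (osc Y a K.1.1 ^ 2) else 0) atTop (𝓝 0) := by
  classical
  set g : P → ℝ≥0∞ := fun K => ENNReal.ofReal (osc Y a K.1.1 ^ 2) with hg
  have hs : Summable fun K : P => osc Y a K.1.1 ^ 2 :=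
    ha.sum.comp_injective Subtype.val_injective
  have hfin : ∑' K : P, g K ≠ ∞ := hs.tsum_ofReal_ne_top
  have h1 : ∀ K : P, ∀ᶠ j : ℕ in atTop, ¬ K.1.1 ⊆ Wj Y P j := by
    intro K
    filter_upwards [eventually_gt_atTop (Encodable.encode K)] with j hj hc
    obtain ⟨z, hz⟩ := K.1.nonempty
    exact (hc hz).2 (mem_iUnion.2 ⟨⟨K, hj⟩, hz⟩)
  have h2 := ENNReal.tendsto_tsum_compl_atTop_zero hfin
  rw [ENNReal.tendsto_nhds_zero] at h2 ⊢
  intro ε hε
  obtain ⟨s, hs'⟩ := (h2 ε hε).exists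
  filter_upwards [(Filter.eventually_all_finset s).2 fun K _ => h1 K] with j hj
  refine le_trans ?_ hs'
  have e1 : (fun K : P => if K.1.1 ⊆ Wj Y P j then g K else 0).support ⊆
      {K : P | K ∉ s} := by
    intro K hK hKs
    exact hK (if_neg (hj K hKs))
  rw [← tsum_subtype_eq_of_support_subset e1]
  refine ENNReal.tsum_le_tsum fun K => ?_
  split_ifs
  · exact le_rfl
  · exact zero_le

/-- **from slice bounds to small variation along a.e. level** -/
theorem smv_core (hY : IsExteriorDomain Yᶜ) (hx : X0 Y x0) (ha : TT Y a)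
    {P : Set (Cmp Y)} (hP : P.Countable)
    {c : ℕ → Cmp Y → ℝ} (hc0 : ∀ n K, 0 ≤ c n K) {C : ℝ≥0∞} (hC : C ≠ ∞)
    (hcs : ∀ n, ∑' K : P, ENNReal.ofReal (c n K.1 ^ 2) ≤ C)
    {b : ℕ → ℂ → ℝ} (hb : ∀ n, LocallyLipschitzOn Yᶜ (b n))
    (hbf : ∀ z ∉ Y, Tendsto (fun n => b n z) atTop (𝓝 (f z)))
    {M : ℝ≥0∞} (hM : M ≠ ∞) (hen : ∀ n, ∫⁻ z in Yᶜ, ENNReal.ofReal (en (b n) z) ≤ M)
    (hv : ∀ n, ∀ᵐ t : ℝ, ∀ W, IsOpen W → ∀ r : ℝ, 0 ≤ r →
      mul (fun z => x0 z + a z) (b n) (W \ Y) t + sqc Y (fun z => x0 z + a z) P (c n) W t ≤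
        ENNReal.ofReal r → VarLe Y (Lv Y (fun z => x0 z + a z) t) W (b n) r) :
    ∀ᵐ t : ℝ, ∀ δ > 0, ∃ V, IsOpen V ∧
      (Lv Y (fun z => x0 z + a z) t ∩ Y) \ ⋃₀ ((fun K : Cmp Y => K.1) '' P) ⊆ V ∧
      VarLe Y (Lv Y (fun z => x0 z + a z) t) V f δ := by
  classical
  have hYc := cpt_of hY
  have hPc : Countable P := hP.to_subtype
  let _ : Encodable P := Encodable.ofCountable P
  set A : ℂ → ℝ := fun z => x0 z + a z with hA
  have hAl : LocallyLipschitzOn Yᶜ A := Nip_31.ll_x0 hx ha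
  set η : ℕ → ℕ → ℝ → ℝ≥0∞ := fun j n t =>
    mul A (b n) (Wj Y P j \ Y) t + sqc Y A P (c n) (Wj Y P j) t with hη
  refine smv_of_liminf (S := (fun K : Cmp Y => K.1) '' P) (L := fun t => Lv Y A t)
    (W := Wj Y P) (isOpen_Wj hYc P) (sub_Wj P) hbf (η := η)
    (fun j n => (measurable_mul _ _ _).add (measurable_sqc hP _ _)) ?_ ?_
  · have h1 := ae_all_iff.2 hv
    filter_upwards [h1] with t ht j n r hr0 hr
    exact ht n (Wj Y P j) (isOpen_Wj hYc P j) r hr0 hr
  · intro ε hε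
    -- constants
    set N : ℝ≥0∞ := M + C with hN
    have hNt : N ≠ ∞ := ENNReal.add_ne_top.2 ⟨hM, hC⟩
    set θ : ℝ := 2 * (N.toReal + 1) / ε with hθd
    have hN0 : 0 ≤ N.toReal := ENNReal.toReal_nonneg
    have hθ : 0 < θ := by positivity
    have h1 := tendsto_en hY hx ha
    have h2 := tendsto_osc ha P
    have h3 := ENNReal.Tendsto.const_mul (a := ENNReal.ofReal θ) (h1.add h2)
      (Or.inr ENNReal.ofReal_ne_top)
    rw [add_zero, mul_zero] at h3
    obtain ⟨j, hj⟩ := (ENNReal.tendsto_nhds_zero.1 h3 (ENNReal.ofReal (ε / 2))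
      (ENNReal.ofReal_pos.2 (by positivity))).exists
    refine ⟨j, Frequently.of_forall fun n => ?_⟩
    have hWo := isOpen_Wj hYc P j
    have hms : MeasurableSet (Wj Y P j \ Y) := hWo.measurableSet.diff hYc.isClosed.measurableSet
    have hWs : Wj Y P j \ Y ⊆ thickening (1 / ((j : ℝ) + 1)) Y \ Y := fun z hz => ⟨hz.1.1, hz.2⟩
    have hθ' : 0 < θ⁻¹ := inv_pos.2 hθ
    have hI : ∫⁻ t, η j n t = (∫⁻ t, mul A (b n) (Wj Y P j \ Y) t) +
        ∫⁻ t, sqc Y A P (c n) (Wj Y P j) t :=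
      lintegral_add_left (measurable_mul A (b n) (Wj Y P j \ Y)) _
    rw [hI, lintegral_sqc hP]
    have hA1 : ∫⁻ t, mul A (b n) (Wj Y P j \ Y) t ≤
        ENNReal.ofReal θ * (∫⁻ z in thickening (1 / ((j : ℝ) + 1)) Y \ Y, ENNReal.ofReal (en A z)) +
        ENNReal.ofReal θ⁻¹ * M := by
      refine (lintegral_mul_le hY.1 hAl (hb n) (fun z hz => hz.2) hms).trans ?_
      have h4 : ∫⁻ z in Wj Y P j \ Y, ENNReal.ofReal |wdg A (b n) z| ≤
          ∫⁻ z in Wj Y P j \ Y, (ENNReal.ofReal θ * ENNReal.ofReal (en A z) +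
            ENNReal.ofReal θ⁻¹ * ENNReal.ofReal (en (b n) z)) := by
        refine lintegral_mono fun z => ?_
        rw [← ENNReal.ofReal_mul hθ.le, ← ENNReal.ofReal_mul hθ'.le, ← ENNReal.ofReal_add
          (mul_nonneg hθ.le (en_nonneg A z)) (mul_nonneg hθ'.le (en_nonneg (b n) z))]
        exact ENNReal.ofReal_le_ofReal (wdg_le_en hθ z)
      refine h4.trans ?_
      rw [lintegral_add_left ((measurable_en' A).ennreal_ofReal.const_mul _),
        lintegral_const_mul' _ _ ENNReal.ofReal_ne_top,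
        lintegral_const_mul' _ _ ENNReal.ofReal_ne_top]
      refine add_le_add ?_ ?_
      · exact mul_le_mul_right (lintegral_mono_set hWs) _
      · exact mul_le_mul_right ((lintegral_mono_set fun z hz => hz.2).trans (hen n)) _
    have hA2 : (∑' K : P, if K.1.1 ⊆ Wj Y P j then
        ENNReal.ofReal (c n K.1) * ENNReal.ofReal (Nip_31.osp Y A (Nip_31.pt K.1)) else 0) ≤
        ENNReal.ofReal θ * (∑' K : P, if K.1.1 ⊆ Wj Y P j then
          ENNReal.ofReal (osc Y a K.1.1 ^ 2) else 0) + ENNReal.ofReal θ⁻¹ * C := by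
      refine le_trans ?_ (add_le_add_right (mul_le_mul_right (hcs n) _) _)
      rw [← ENNReal.tsum_mul_left, ← ENNReal.tsum_mul_left, ← ENNReal.tsum_add]
      refine ENNReal.tsum_le_tsum fun K => ?_
      by_cases h : K.1.1 ⊆ Wj Y P j
      · rw [if_pos h, if_pos h, Nip_31.osp_x0 hx, Nip_31.osp_eq hY ha,
          ← ENNReal.ofReal_mul (hc0 _ _), ← ENNReal.ofReal_mul hθ.le, ← ENNReal.ofReal_mul hθ'.le,
          ← ENNReal.ofReal_add (by positivity) (by positivity), mul_comm]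
        exact ENNReal.ofReal_le_ofReal (am_gm hθ _ _)
      · rw [if_neg h]; exact zero_le
    refine (add_le_add hA1 hA2).trans ?_
    have h5 : ENNReal.ofReal θ⁻¹ * N ≤ ENNReal.ofReal (ε / 2) := by
      rw [← ENNReal.ofReal_toReal hNt, ← ENNReal.ofReal_mul hθ'.le]
      refine ENNReal.ofReal_le_ofReal ?_
      rw [hθd, inv_div, div_mul_eq_mul_div, div_le_div_iff₀ (by positivity) (by norm_num)]
      nlinarith
    calc _ = ENNReal.ofReal θ * ((∫⁻ z in thickening (1 / ((j : ℝ) + 1)) Y \ Y,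
              ENNReal.ofReal (en A z)) + ∑' K : P, if K.1.1 ⊆ Wj Y P j then
              ENNReal.ofReal (osc Y a K.1.1 ^ 2) else 0) + ENNReal.ofReal θ⁻¹ * N := by
            rw [hN]; ring
      _ ≤ ENNReal.ofReal (ε / 2) + ENNReal.ofReal (ε / 2) := add_le_add hj h5
      _ = ENNReal.ofReal ε := by
            rw [← ENNReal.ofReal_add (by positivity) (by positivity), add_halves]

/-- **from slice bounds to `NI`** -/
theorem nie_core (hY : IsExteriorDomain Yᶜ) (hx : X0 Y x0) (ha : TT Y a)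
    (hs : Swd Y (fun z => x0 z + a z)) (hf : TT Y f) {P : Set (Cmp Y)} (hP : P.Countable)
    {c : ℕ → Cmp Y → ℝ} (hc0 : ∀ n K, 0 ≤ c n K) {C : ℝ≥0∞} (hC : C ≠ ∞)
    (hcs : ∀ n, ∑' K : P, ENNReal.ofReal (c n K.1 ^ 2) ≤ C)
    {b : ℕ → ℂ → ℝ} (hb : ∀ n, LocallyLipschitzOn Yᶜ (b n))
    (hbf : ∀ z ∉ Y, Tendsto (fun n => b n z) atTop (𝓝 (f z)))
    {M : ℝ≥0∞} (hM : M ≠ ∞) (hen : ∀ n, ∫⁻ z in Yᶜ, ENNReal.ofReal (en (b n) z) ≤ M)
    (hv : ∀ n, ∀ᵐ t : ℝ, ∀ W, IsOpen W → ∀ r : ℝ, 0 ≤ r →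
      mul (fun z => x0 z + a z) (b n) (W \ Y) t + sqc Y (fun z => x0 z + a z) P (c n) W t ≤
        ENNReal.ofReal r → VarLe Y (Lv Y (fun z => x0 z + a z) t) W (b n) r) :
    NI Y a f := by
  rw [ni_iff_acvG hY hx ha hs hf]
  filter_upwards [smv_core hY hx ha hP hc0 hC hcs hb hbf hM hen hv] with t ht
  refine ⟨_, hP.image _, ?_, ht⟩
  rintro _ ⟨K, -, rfl⟩
  exact K.2

/-- from small variation along a.e. level to `NI`, for functions which are only continuous off `Y`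
(locally bounded, jumps in `l²`) -/
theorem ni_of_smv (hY : IsExteriorDomain Yᶜ) (hx : X0 Y x0) (ha : TT Y a)
    (hs : Swd Y (fun z => x0 z + a z)) (hfb : LB f) (hfc : ∀ z ∉ Y, ContinuousAt f z)
    (hfs : Summable fun K : Cmp Y => osc Y f K.1 ^ 2) {P : Set (Cmp Y)} (hP : P.Countable)
    (h : ∀ᵐ t : ℝ, ∀ δ > 0, ∃ V, IsOpen V ∧
      (Lv Y (fun z => x0 z + a z) t ∩ Y) \ ⋃₀ ((fun K : Cmp Y => K.1) '' P) ⊆ V ∧
      VarLe Y (Lv Y (fun z => x0 z + a z) t) V f δ) : NI Y a f := by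
  have hA := Nip_31.ll_x0 hx ha
  have hAb := Nip_31.lb_x0 hx ha
  have hdj : ∀ K : Cmp Y, dj Y f K = osc Y f K.1 := by
    intro K
    have h1 := osc_eq' hY hfb (K.subset (Nip_31.pt_mem K))
    rw [Nip_31.cc_pt] at h1
    rw [Nip_31.dj_eq, h1]
    rfl
  have hdA : ∀ K : Cmp Y, dj Y (fun z => x0 z + a z) K = osc Y a K.1 := by
    intro K
    rw [Nip_31.dj_eq, Nip_31.osp_x0 hx, Nip_31.osp_eq hY ha]
  rw [← Nip_31.ni_x0 hx]
  refine Nip_31.ni_of_acvN hY hAb hfb hfc ?_ ?_ ?_ ?_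
  · simp only [hdj]
    refine hfs.countable_support.mono fun K hK => ?_
    exact pow_ne_zero 2 hK
  · have h1 : ∀ K : Cmp Y, ENNReal.ofReal (dj Y (fun z => x0 z + a z) K) *
        ENNReal.ofReal (dj Y f K) ≤ ENNReal.ofReal (osc Y a K.1 ^ 2 + osc Y f K.1 ^ 2) := by
      intro K
      rw [hdj, hdA, ← ENNReal.ofReal_mul (osc_nonneg _ _ _)]
      refine ENNReal.ofReal_le_ofReal ?_
      nlinarith [sq_nonneg (osc Y a K.1 - osc Y f K.1), sq_nonneg (osc Y a K.1),
        sq_nonneg (osc Y f K.1)]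
    exact ne_top_of_le_ne_top (ha.sum.add hfs).tsum_ofReal_ne_top (ENNReal.tsum_le_tsum h1)
  · filter_upwards [Nip_31.pos_ae hY hA hAb (Nip_31.en_x0_fin hY hx ha)] with t ht
    obtain ⟨μ, hμ, hμC⟩ := ht
    exact ⟨Uni_659.noIsland_nLv hY hAb (fun z hz => Nip_31.contAt hY hA hz) hs t, μ,
      inferInstance, hμC⟩
  · filter_upwards [h] with t ht
    refine ⟨_, hP.image _, ?_, ht⟩
    rintro _ ⟨K, -, rfl⟩
    exact K.2

/-- small variation of an admissible function along a.e. level, off its own jumps -/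
theorem smv_of_ni (hY : IsExteriorDomain Yᶜ) (hx : X0 Y x0) (ha : TT Y a) (hf : TT Y f)
    (hni : NI Y a f) {P : Set (Cmp Y)} (hP : P.Countable) (hPf : ∀ K : Cmp Y, osc Y f K.1 ≠ 0 → K ∈ P) :
    ∀ᵐ t : ℝ, ∀ δ > 0, ∃ V, IsOpen V ∧
      (Lv Y (fun z => x0 z + a z) t ∩ Y) \ ⋃₀ ((fun K : Cmp Y => K.1) '' P) ⊆ V ∧
      VarLe Y (Lv Y (fun z => x0 z + a z) t) V f δ := by
  classical
  have hYc := cpt_of hY
  set A : ℂ → ℝ := fun z => x0 z + a z with hA
  have hAl : LocallyLipschitzOn Yᶜ A := Nip_31.ll_x0 hx ha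
  have hAb : LB A := Nip_31.lb_x0 hx ha
  have hfb : LB f := Nip_31.tt_lb hf
  have hs : Summable fun K : P => osc Y f K.1.1 ^ 2 := hf.sum.comp_injective Subtype.val_injective
  have hfin : ∫⁻ z in Yᶜ, ENNReal.ofReal (en f z) ≠ ∞ := hf.q.fin.lintegral_lt_top.ne
  -- 439's jumps
  have hgap : ∀ (u : ℂ → ℝ) (K : Cmp Y), Vs_439.gap Y u K = Nip_31.osp Y u (Nip_31.pt K) := by
    intro u K
    unfold Vs_439.gap Nip_31.osp
    rw [Vs_439.up_eq_upK (Nip_31.pt_mem K), Vs_439.lo_eq_loK (Nip_31.pt_mem K)]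
  have hJf : ∀ K : Cmp Y, K ∈ Vs_439.JJ Y f → osc Y f K.1 ≠ 0 := by
    intro K hK
    have h1 : 0 < Vs_439.gap Y f K := hK
    rw [hgap, Nip_31.osp_eq hY hf] at h1
    exact h1.ne'
  have hJa : ∀ K : Cmp Y, K ∈ Vs_439.JJ Y A → osc Y a K.1 ≠ 0 := by
    intro K hK
    have h1 : 0 < Vs_439.gap Y A K := hK
    rw [hgap, Nip_31.osp_x0 hx, Nip_31.osp_eq hY ha] at h1
    exact h1.ne'
  have hcf : (Vs_439.JJ Y f).Countable := hf.countable.mono fun K hK => hJf K hK
  have hca : (Vs_439.JJ Y A).Countable := ha.countable.mono fun K hK => hJa K hK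
  refine smv_core hY hx ha hP (c := fun _ K => osc Y f K.1) (fun _ K => osc_nonneg _ _ _)
    (C := ∑' K : P, ENNReal.ofReal (osc Y f K.1.1 ^ 2)) hs.tsum_ofReal_ne_top (fun _ => le_rfl)
    (b := fun _ => f) (fun _ => hf.q.loc) (fun z _ => tendsto_const_nhds) hfin (fun _ => le_rfl)
    fun n => ?_
  filter_upwards [Vs_439.ae_slice_null ((Nip_31.ni_x0 hx).2 hni)] with t ht W hW r hr0 hr
  refine Vs_439.varLe_of_EB hY hfb hf.q.loc.continuousOn hAb hAl.continuousOn hcf hca ht hr0 ?_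
  refine le_trans (add_le_add le_rfl ?_) hr
  unfold Vs_439.jsum sqc
  let i : Vs_439.JJ Y f → P := fun K => ⟨K.1, hPf _ (hJf _ K.2)⟩
  have hi : Function.Injective i := fun K K' h => Subtype.ext (congrArg (fun K : P => K.1) h)
  refine le_trans (ENNReal.tsum_le_tsum fun K => ?_) (ENNReal.tsum_comp_le_tsum_of_injective hi
    (fun K : P => if K.1.1 ⊆ W ∧ lo Y A (Nip_31.pt K.1) ≤ t ∧ t ≤ up Y A (Nip_31.pt K.1) then
      ENNReal.ofReal (osc Y f K.1.1) else 0))
  by_cases h : K.1.1 ⊆ W ∧ Vs_439.loK Y A K.1 ≤ t ∧ t ≤ Vs_439.upK Y A K.1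
  · rw [if_pos h, if_pos, hgap, Nip_31.osp_eq hY hf]
    rw [Vs_439.up_eq_upK (Nip_31.pt_mem _), Vs_439.lo_eq_loK (Nip_31.pt_mem _)]
    exact h
  · rw [if_neg h]; exact zero_le

end

end Crest.Agent.R105.Nie_909
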