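import Crest.Agent.R105.Nie1_909
import Crest.Agent.R105.Plv3_626

/-!
# Row 105, S0138 (NI frame), node NIEP, part 2 (helper909): the abstract theorem `nie`

`A = x0 + a` switched anchor, `P` countable set of components (solids), `X`, `y` the coordinates.
If for a.e. `t` both `X` and `y` have small variation along the level `t` of `A` near `Y` off the
solids, and the functions `b n` are near every component off the solids Lipschitz functions of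
`(X, y)` along the level (constants arbitrary) and have charges `c n K` at the solids (`Σ (c n)²`
bounded), energies bounded, `b n → f` pointwise off `Y`, `f ∈ TT`, then `NI Y a f`.
-/

set_option autoImplicit false

open MeasureTheory Set Filter Topology Metric
open scoped NNReal ENNReal

namespace Crest.Agent.R105.Nie_909

open Bd_775 Tc_808 Ni_459 Crest.AnalysisR Sl_732 IfB_641 Plv_626
open Vs_439 (mul)

noncomputable section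

variable {Y : Set ℂ} {x0 a f A : ℂ → ℝ}

/-- the underlying sets of the components in `P` -/
abbrev Sv (P : Set (Cmp Y)) : Set (Set ℂ) := (fun K : Cmp Y => K.1) '' P

lemma Sv_comp (P : Set (Cmp Y)) : ∀ K ∈ Sv P, ∃ z ∈ Y, K = connectedComponentIn Y z := by
  rintro _ ⟨K, -, rfl⟩
  exact K.2

lemma Lv_closed (hY : IsExteriorDomain Yᶜ) (hA : LB A) (t : ℝ) : IsClosed (Lv Y A t) :=
  ((lsc_lo hY hA).isClosed_preimage t).inter ((usc_up hY hA).isClosed_preimage t)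

lemma Lv_sat (t : ℝ) : Sat Y (Lv Y A t) := by
  intro z hz hzY w hw
  have h1 := up_congr_cc (u := A) hzY hw
  have h2 := lo_congr_cc (u := A) hzY hw
  refine ⟨?_, ?_⟩
  · rw [h2]; exact hz.1
  · rw [h1]; exact hz.2

/-- the level sets are unbounded -/
lemma Lv_unbdd (hY : IsExteriorDomain Yᶜ) (hAl : LocallyLipschitzOn Yᶜ A) (hA : LB A) {R : ℝ}
    (hR : Y ⊆ ball 0 R) (hfar : ∀ z : ℂ, R ≤ ‖z‖ → A z = z.re) (t : ℝ) (N : Set ℂ)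
    (hN : IsCompact N) : ¬ Lv Y A t ⊆ N := by
  intro hc
  obtain ⟨M, hM⟩ := hN.isBounded.exists_norm_le
  set ρ : ℝ := |M| + |R| + 1 with hρ
  have h0 : |ρ| ≤ ‖(⟨t, ρ⟩ : ℂ)‖ := Complex.abs_im_le_norm (⟨t, ρ⟩ : ℂ)
  have hρ0 : ρ ≤ |ρ| := le_abs_self ρ
  have h1 : R ≤ ‖(⟨t, ρ⟩ : ℂ)‖ := by
    have := le_abs_self R
    have := abs_nonneg M
    linarith
  have hz : (⟨t, ρ⟩ : ℂ) ∉ Y := fun h => by
    have := mem_ball_zero_iff.1 (hR h)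
    linarith
  have hzL : (⟨t, ρ⟩ : ℂ) ∈ Lv Y A t := by
    refine ⟨?_, ?_⟩
    · rw [Nip_31.lo_eq hY hAl hA hz, hfar _ h1]
    · rw [Nip_31.up_eq hY hAl hA hz, hfar _ h1]
  have h2 := hM _ (hc hzL)
  have := le_abs_self M
  have := abs_nonneg R
  linarith

/-- charges as a function of sets -/
def chS (c : Cmp Y → ℝ) (K : Set ℂ) : ℝ :=
  open Classical in if h : ∃ z ∈ Y, K = connectedComponentIn Y z then c ⟨K, h⟩ else 0

lemma chS_eq (c : Cmp Y → ℝ) (K : Cmp Y) : chS c K.1 = c K := by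
  unfold chS
  rw [dif_pos K.2]
  rfl

/-- small variation of the limit along a.e. level -/
theorem smv_planar (hY : IsExteriorDomain Yᶜ) (hx : X0 Y x0) (ha : TT Y a)
    (hs : Swd Y (fun z => x0 z + a z)) {P : Set (Cmp Y)} (hP : P.Countable)
    {X y : ℂ → ℝ} (hX : ContinuousOn X Yᶜ) (hy : ContinuousOn y Yᶜ)
    (hvX : ∀ᵐ t : ℝ, SmV Y (Lv Y (fun z => x0 z + a z) t) (Sv P) X)
    (hvy : ∀ᵐ t : ℝ, SmV Y (Lv Y (fun z => x0 z + a z) t) (Sv P) y)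
    {c : ℕ → Cmp Y → ℝ} (hc0 : ∀ n K, 0 ≤ c n K) {C : ℝ≥0∞} (hC : C ≠ ∞)
    (hcs : ∀ n, ∑' K : P, ENNReal.ofReal (c n K.1 ^ 2) ≤ C)
    {b : ℕ → ℂ → ℝ} (hb : ∀ n, LocallyLipschitzOn Yᶜ (b n))
    (hbf : ∀ z ∉ Y, Tendsto (fun n => b n z) atTop (𝓝 (f z)))
    {M : ℝ≥0∞} (hM : M ≠ ∞) (hen : ∀ n, ∫⁻ z in Yᶜ, ENNReal.ofReal (en (b n) z) ≤ M)
    (hlip : ∀ n, ∀ᵐ t : ℝ, ∀ z ∈ (Lv Y (fun z => x0 z + a z) t ∩ Y) \ ⋃₀ Sv P,
      LipAt Y (Lv Y (fun z => x0 z + a z) t) X y (b n) z)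
    (hch : ∀ n, ∀ᵐ t : ℝ, ∀ K ∈ P, K.1 ⊆ Lv Y (fun z => x0 z + a z) t →
      ChLe Y (Lv Y (fun z => x0 z + a z) t) (b n) K.1 (c n K)) :
    ∀ᵐ t : ℝ, SmV Y (Lv Y (fun z => x0 z + a z) t) (Sv P) f := by
  classical
  set A : ℂ → ℝ := fun z => x0 z + a z with hA
  have hYc := cpt_of hY
  have hAl : LocallyLipschitzOn Yᶜ A := Nip_31.ll_x0 hx ha
  have hAb : LB A := Nip_31.lb_x0 hx ha
  refine smv_core hY hx ha hP hc0 hC hcs hb hbf hM hen fun n => ?_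
  filter_upwards [hvX, hvy, hlip n, hch n,
    Nip_31.pos_ae hY hAl hAb (Nip_31.en_x0_fin hY hx ha)] with t h1 h2 h3 h4 h5 W hW r hr0 hr
  obtain ⟨μ, hμ, hμC⟩ := h5
  have hLc := Lv_closed hY hAb t
  refine varLe_planarN hYc hLc
    (Uni_659.noIsland_nLv hY hAb (fun z hz => Nip_31.contAt hY hAl hz) hs t) (Lv_sat t) μ hμC
    (hP.image _) (Sv_comp P) hX hy (hb n).continuousOn h1 h2 h3 (σ := chS (c n)) ?_
    (a := A) (t := t) ?_ hr0 ?_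
  · rintro _ ⟨K, hK, rfl⟩ hKL
    rw [chS_eq]
    exact h4 K hK hKL
  · rintro z ⟨hz, hzY⟩
    have h6 := hz.1
    have h7 := hz.2
    rw [Nip_31.lo_eq hY hAl hAb hzY] at h6
    rw [Nip_31.up_eq hY hAl hAb hzY] at h7
    exact le_antisymm h6 h7
  · refine le_trans (add_le_add le_rfl ?_) hr
    have h6 := tsum_image (fun K : Set ℂ => if K ⊆ Lv Y A t ∩ W then
      ENNReal.ofReal (chS (c n) K) else 0) (Subtype.val_injective.injOn (s := P))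
    rw [show (∑' K : Sv P, if K.1 ⊆ Lv Y A t ∩ W then ENNReal.ofReal (chS (c n) K.1) else 0) =
      ∑' K : P, if K.1.1 ⊆ Lv Y A t ∩ W then ENNReal.ofReal (chS (c n) K.1.1) else 0 from h6]
    unfold sqc
    refine ENNReal.tsum_le_tsum fun K => ?_
    by_cases h : K.1.1 ⊆ Lv Y A t ∩ W
    · have h8 := (h (Nip_31.pt_mem K.1)).1
      rw [if_pos h, if_pos ⟨fun z hz => (h hz).2, h8.1, h8.2⟩, chS_eq]
    · rw [if_neg h]; exact zero_le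

/-- **the abstract theorem**, `f` continuous off `Y`, jumps in `l²` -/
theorem nieG (hY : IsExteriorDomain Yᶜ) (hx : X0 Y x0) (ha : TT Y a)
    (hs : Swd Y (fun z => x0 z + a z)) (hfb : LB f) (hfc : ∀ z ∉ Y, ContinuousAt f z)
    (hfs : Summable fun K : Cmp Y => osc Y f K.1 ^ 2) {P : Set (Cmp Y)} (hP : P.Countable)
    {X y : ℂ → ℝ} (hX : ContinuousOn X Yᶜ) (hy : ContinuousOn y Yᶜ)
    (hvX : ∀ᵐ t : ℝ, SmV Y (Lv Y (fun z => x0 z + a z) t) (Sv P) X)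
    (hvy : ∀ᵐ t : ℝ, SmV Y (Lv Y (fun z => x0 z + a z) t) (Sv P) y)
    {c : ℕ → Cmp Y → ℝ} (hc0 : ∀ n K, 0 ≤ c n K) {C : ℝ≥0∞} (hC : C ≠ ∞)
    (hcs : ∀ n, ∑' K : P, ENNReal.ofReal (c n K.1 ^ 2) ≤ C)
    {b : ℕ → ℂ → ℝ} (hb : ∀ n, LocallyLipschitzOn Yᶜ (b n))
    (hbf : ∀ z ∉ Y, Tendsto (fun n => b n z) atTop (𝓝 (f z)))
    {M : ℝ≥0∞} (hM : M ≠ ∞) (hen : ∀ n, ∫⁻ z in Yᶜ, ENNReal.ofReal (en (b n) z) ≤ M)
    (hlip : ∀ n, ∀ᵐ t : ℝ, ∀ z ∈ (Lv Y (fun z => x0 z + a z) t ∩ Y) \ ⋃₀ Sv P,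
      LipAt Y (Lv Y (fun z => x0 z + a z) t) X y (b n) z)
    (hch : ∀ n, ∀ᵐ t : ℝ, ∀ K ∈ P, K.1 ⊆ Lv Y (fun z => x0 z + a z) t →
      ChLe Y (Lv Y (fun z => x0 z + a z) t) (b n) K.1 (c n K)) :
    NI Y a f :=
  ni_of_smv hY hx ha hs hfb hfc hfs hP
    (smv_planar hY hx ha hs hP hX hy hvX hvy hc0 hC hcs hb hbf hM hen hlip hch)

/-- **the abstract theorem**, `f ∈ TT` -/
theorem nie (hY : IsExteriorDomain Yᶜ) (hx : X0 Y x0) (ha : TT Y a)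
    (hs : Swd Y (fun z => x0 z + a z)) (hf : TT Y f) {P : Set (Cmp Y)} (hP : P.Countable)
    {X y : ℂ → ℝ} (hX : ContinuousOn X Yᶜ) (hy : ContinuousOn y Yᶜ)
    (hvX : ∀ᵐ t : ℝ, SmV Y (Lv Y (fun z => x0 z + a z) t) (Sv P) X)
    (hvy : ∀ᵐ t : ℝ, SmV Y (Lv Y (fun z => x0 z + a z) t) (Sv P) y)
    {c : ℕ → Cmp Y → ℝ} (hc0 : ∀ n K, 0 ≤ c n K) {C : ℝ≥0∞} (hC : C ≠ ∞)
    (hcs : ∀ n, ∑' K : P, ENNReal.ofReal (c n K.1 ^ 2) ≤ C)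
    {b : ℕ → ℂ → ℝ} (hb : ∀ n, LocallyLipschitzOn Yᶜ (b n))
    (hbf : ∀ z ∉ Y, Tendsto (fun n => b n z) atTop (𝓝 (f z)))
    {M : ℝ≥0∞} (hM : M ≠ ∞) (hen : ∀ n, ∫⁻ z in Yᶜ, ENNReal.ofReal (en (b n) z) ≤ M)
    (hlip : ∀ n, ∀ᵐ t : ℝ, ∀ z ∈ (Lv Y (fun z => x0 z + a z) t ∩ Y) \ ⋃₀ Sv P,
      LipAt Y (Lv Y (fun z => x0 z + a z) t) X y (b n) z)
    (hch : ∀ n, ∀ᵐ t : ℝ, ∀ K ∈ P, K.1 ⊆ Lv Y (fun z => x0 z + a z) t →
      ChLe Y (Lv Y (fun z => x0 z + a z) t) (b n) K.1 (c n K)) :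
    NI Y a f :=
  nieG hY hx ha hs (Nip_31.tt_lb hf) (fun z hz => Nip_31.contAt hY hf.q.loc hz) hf.sum hP hX hy
    hvX hvy hc0 hC hcs hb hbf hM hen hlip hch

end

end Crest.Agent.R105.Nie_909
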