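import Crest.Agent.R105.Thin1_12

/-!
# Row 105, S0138 (T-frame), module NI of helper459 (#9956), part (P2), file 1 (helper31)

Saturated sets, boundary bumping, and the fixed level lemma.

`E` compact, `fib E z` = the component of `E` through `z` (or `{z}` off `E`), `Sat E A` : `A` is
saturated.  `Ctm E L C` : `C` is a compact connected saturated subset of `L`.
-/

set_option autoImplicit false

open Set Filter Topology MeasureTheory
open scoped ENNReal

namespace Crest.Agent.R105.Nip_31

open Thin_12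

variable {X : Type*} [TopologicalSpace X]

/-- the fibre of the decomposition -/
def fib (E : Set X) (z : X) : Set X := {w | w = z ∨ (z ∈ E ∧ w ∈ connectedComponentIn E z)}

/-- saturated sets -/
def Sat (E A : Set X) : Prop := ∀ z ∈ A, z ∈ E → connectedComponentIn E z ⊆ A

variable {E L W A B C N : Set X} {z w : X}

lemma Sat.inter (hA : Sat E A) (hB : Sat E B) : Sat E (A ∩ B) :=
  fun z hz hzE => subset_inter (hA z hz.1 hzE) (hB z hz.2 hzE)

lemma Sat.union (hA : Sat E A) (hB : Sat E B) : Sat E (A ∪ B) := by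
  rintro z (hz | hz) hzE
  · exact (hA z hz hzE).trans subset_union_left
  · exact (hB z hz hzE).trans subset_union_right

/-- the saturated interior -/
def sint (E W : Set X) : Set X := {z | z ∈ W ∧ (z ∈ E → connectedComponentIn E z ⊆ W)}

lemma sint_subset : sint E W ⊆ W := fun _ h => h.1

lemma sat_sint : Sat E (sint E W) := by
  intro z hz hzE w hw
  refine ⟨hz.2 hzE hw, fun hwE => ?_⟩
  rw [← connectedComponentIn_eq hw]
  exact hz.2 hzE

lemma Sat.subset_sint (hA : Sat E A) (h : A ⊆ W) : A ⊆ sint E W :=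
  fun z hz => ⟨h hz, fun hzE => (hA z hz hzE).trans h⟩

/-- compact saturated neighbourhoods -/
lemma exists_nhd [T2Space X] [LocallyCompactSpace X] (hE : IsCompact E) (hW : IsOpen W)
    (hz : z ∈ W) (hzW : z ∈ E → connectedComponentIn E z ⊆ W) :
    ∃ N, IsCompact N ∧ Sat E N ∧ N ⊆ W ∧ z ∈ interior N ∧
      (z ∈ E → connectedComponentIn E z ⊆ interior N) := by
  by_cases hzE : z ∈ E
  · obtain ⟨K₁, h1, h2, h1K, hCK, hKW⟩ := exists_clopen hE hzE hW (hzW hzE)
    obtain ⟨N, hNo, hN, hcN, hNc⟩ := exists_open_between_and_isCompact_closure h1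
      (U := W ∩ (E \ K₁)ᶜ) (hW.inter h2.isClosed.isOpen_compl)
      (fun y hy => ⟨hKW hy, fun h => h.2 hy⟩)
    have hint : N ⊆ interior (closure N) := by
      conv_lhs => rw [← hNo.interior_eq]
      exact interior_mono subset_closure
    refine ⟨closure N, hNc, ?_, fun y hy => (hcN hy).1, ?_,
      fun _ => hCK.trans (hN.trans hint)⟩
    · intro y hy hyE
      have hyK : y ∈ K₁ := by
        by_contra h
        exact (hcN hy).2 ⟨hyE, h⟩
      have hsub : connectedComponentIn E y ⊆ K₁ := by
        have hp : IsPreconnected (connectedComponentIn E y) := isPreconnected_connectedComponentIn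
        have h1c := h1.isClosed
        have h2c := h2.isClosed
        by_contra hcon
        rw [Set.not_subset] at hcon
        obtain ⟨v, hv, hvK⟩ := hcon
        have hvE := connectedComponentIn_subset _ _ hv
        have := isPreconnected_closed_iff.1 hp K₁ (E \ K₁) h1c h2c
          (fun u hu => by
            by_cases h : u ∈ K₁
            · exact Or.inl h
            · exact Or.inr ⟨connectedComponentIn_subset _ _ hu, h⟩)
          ⟨y, mem_connectedComponentIn hyE, hyK⟩ ⟨v, hv, hvE, hvK⟩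
        obtain ⟨u, -, hu1, hu2⟩ := this
        exact hu2.2 hu1
      exact hsub.trans (hN.trans subset_closure)
    · exact hint (hN (hCK (mem_connectedComponentIn hzE)))
  · obtain ⟨N, hN, hNz, hNW⟩ := exists_compact_subset (hW.inter hE.isClosed.isOpen_compl)
      (show z ∈ W ∩ Eᶜ from ⟨hz, hzE⟩)
    exact ⟨N, hN, fun y hy hyE => absurd hyE (hNW hy).2, fun y hy => (hNW hy).1, hNz,
      fun h => absurd h hzE⟩

lemma isOpen_sint [T2Space X] [LocallyCompactSpace X] (hE : IsCompact E) (hW : IsOpen W) :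
    IsOpen (sint E W) := by
  rw [isOpen_iff_mem_nhds]
  intro z hz
  obtain ⟨N, -, hNs, hNW, hzN, -⟩ := exists_nhd hE hW hz.1 hz.2
  exact mem_of_superset (isOpen_interior.mem_nhds hzN)
    (interior_subset.trans (hNs.subset_sint hNW))

/-- boundary bumping: the component of `L ∩ N` through `z` meets the frontier of `N`. -/
lemma bump [T2Space X] (hL : IsPreconnected L) (hLc : IsClosed L) (hN : IsCompact N)
    (hLN : ¬ L ⊆ N) (hzL : z ∈ L) (hz : z ∈ N) :
    ∃ y ∈ connectedComponentIn (L ∩ N) z, y ∉ interior N := by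
  by_contra hcon
  push Not at hcon
  have hK : IsCompact (L ∩ N) := hN.inter_left hLc
  obtain ⟨K₁, h1, h2, h1K, hCK, hKW⟩ := exists_clopen hK (x := z) ⟨hzL, hz⟩ isOpen_interior
    (fun y hy => hcon y hy)
  -- `K₁` is clopen in `L`
  have hcl : IsClosed ((L ∩ N) \ K₁ ∪ L ∩ (interior N)ᶜ) :=
    h2.isClosed.union (hLc.inter isOpen_interior.isClosed_compl)
  obtain ⟨p, hpL, hpN⟩ := Set.not_subset.1 hLN
  have hne := isPreconnected_closed_iff.1 hL K₁ ((L ∩ N) \ K₁ ∪ L ∩ (interior N)ᶜ) h1.isClosed hcl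
    (fun u hu => by
      by_cases h : u ∈ K₁
      · exact Or.inl h
      · by_cases h' : u ∈ interior N
        · exact Or.inr (Or.inl ⟨⟨hu, interior_subset h'⟩, h⟩)
        · exact Or.inr (Or.inr ⟨hu, h'⟩))
    ⟨z, hzL, hCK (mem_connectedComponentIn ⟨hzL, hz⟩)⟩
    ⟨p, hpL, Or.inr ⟨hpL, fun h => hpN (interior_subset h)⟩⟩
  obtain ⟨u, -, hu1, hu2 | hu2⟩ := hne
  · exact hu2.2 hu1
  · exact hu2.2 (hKW hu1)

/-- saturated continua in `L` -/
structure Ctm (E L C : Set X) : Prop where
  cpt : IsCompact C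
  conn : IsPreconnected C
  sat : Sat E C
  sub : C ⊆ L

lemma Ctm.mono {L' : Set X} (h : Ctm E L C) (hL : L ⊆ L') : Ctm E L' C :=
  ⟨h.cpt, h.conn, h.sat, h.sub.trans hL⟩

lemma Ctm.union (hA : Ctm E L A) (hB : Ctm E L B) (h : (A ∩ B).Nonempty) : Ctm E L (A ∪ B) :=
  ⟨hA.cpt.union hB.cpt, hA.conn.union' h hB.conn, hA.sat.union hB.sat,
    union_subset hA.sub hB.sub⟩

/-- small non degenerate continua through every point of `L`. -/
lemma exists_ctm [T2Space X] [LocallyCompactSpace X] (hE : IsCompact E)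
    (hL : IsPreconnected L) (hLc : IsClosed L) (hLs : Sat E L) (hLn : ∀ N, IsCompact N → ¬ L ⊆ N)
    (hW : IsOpen W) (hzL : z ∈ L) (hzE : z ∈ E) (hzW : connectedComponentIn E z ⊆ W) :
    ∃ C, Ctm E (L ∩ W) C ∧ z ∈ C ∧ (C \ E).Nonempty := by
  obtain ⟨N, hN, hNs, hNW, hzN, hKN⟩ := exists_nhd hE hW (hzW (mem_connectedComponentIn hzE))
    (fun _ => hzW)
  have hz : z ∈ N := interior_subset hzN
  obtain ⟨y, hy, hyN⟩ := bump hL hLc hN (hLn N hN) hzL hz
  set C := connectedComponentIn (L ∩ N) z with hC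
  have hcs : C ⊆ L ∩ N := connectedComponentIn_subset _ _
  have hzC : z ∈ C := mem_connectedComponentIn ⟨hzL, hz⟩
  refine ⟨C, ⟨isCompact_cc (hN.inter_left hLc) z, isPreconnected_connectedComponentIn, ?_,
    fun u hu => ⟨(hcs hu).1, hNW (hcs hu).2⟩⟩, hzC, ?_⟩
  · intro u hu huE
    have h1 : connectedComponentIn E u ⊆ L ∩ N := subset_inter (hLs u (hcs hu).1 huE)
      (hNs u (hcs hu).2 huE)
    rw [hC, connectedComponentIn_eq hu]
    exact isPreconnected_connectedComponentIn.subset_connectedComponentIn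
      (mem_connectedComponentIn huE) h1
  · by_contra hcon
    rw [Set.not_nonempty_iff_eq_empty, Set.sdiff_eq_empty] at hcon
    have : C ⊆ connectedComponentIn E z :=
      isPreconnected_connectedComponentIn.subset_connectedComponentIn hzC hcon
    exact hyN (hKN hzE (this hy))

end Crest.Agent.R105.Nip_31
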