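import Crest.Agent.R105.Nip1_31

/-!
# Row 105, S0138 (T-frame), module NI of helper459 (#9956), part (P2), file 2 (helper31)

The fixed level lemma: if `|b p - b q| ≤ ν C` for all saturated continua `C` of the level set `L`
(near `E`) and all `p, q ∈ C \ E`, then the limit values of `b` on a `ν`-null saturated part `Q` of
`E ∩ L` form a null set.
-/

set_option autoImplicit false

open Set Filter Topology MeasureTheory
open scoped ENNReal

namespace Crest.Agent.R105.Nip_31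

variable {X : Type*} [TopologicalSpace X] [T2Space X] [LocallyCompactSpace X]
  [MeasurableSpace X] [BorelSpace X]
variable {E L W A B C N : Set X} {z w : X}

/-- the class of `z` -/
def cls (E L : Set X) (z : X) : Set X := ⋃₀ {C | Ctm E L C ∧ z ∈ C}

omit [T2Space X] [LocallyCompactSpace X] [MeasurableSpace X] [BorelSpace X] in
lemma cls_eq (h : (cls E L z ∩ cls E L w).Nonempty) : cls E L z = cls E L w := by
  have key : ∀ z w : X, (cls E L z ∩ cls E L w).Nonempty → cls E L z ⊆ cls E L w := by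
    rintro z w ⟨p, ⟨C, ⟨hC, hzC⟩, hpC⟩, C', ⟨hC', hwC'⟩, hpC'⟩ q ⟨D, ⟨hD, hzD⟩, hqD⟩
    refine ⟨(C' ∪ C) ∪ D, ⟨(hC'.union hC ⟨p, hpC', hpC⟩).union hD ⟨z, Or.inr hzC, hzD⟩,
      Or.inl (Or.inl hwC')⟩, Or.inr hqD⟩
  exact Subset.antisymm (key z w h) (key w z (by rwa [inter_comm]))

/-- **the fixed level lemma** -/
theorem null_image {W₀ Q : Set X} {ν ν₁ : Measure X} [IsFiniteMeasure ν] [IsFiniteMeasure ν₁]
    [ν.OuterRegular] (hE : IsCompact E) (hL : IsPreconnected L) (hLc : IsClosed L)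
    (hLs : Sat E L) (hLn : ∀ N, IsCompact N → ¬ L ⊆ N) (hW₀ : IsOpen W₀) (hEW : E ⊆ W₀)
    (hpos : ∀ C, Ctm E (L ∩ W₀) C → (C \ E).Nonempty → 0 < ν₁ C)
    {b β : X → ℝ}
    (hb : ∀ C, Ctm E (L ∩ W₀) C → ∀ p ∈ C \ E, ∀ q ∈ C \ E, ENNReal.ofReal |b p - b q| ≤ ν C)
    (hQL : Q ⊆ L) (hQE : Q ⊆ E) (hQs : Sat E Q) (hQ : ν Q = 0)
    (hβ : ∀ z ∈ Q, Tendsto b (𝓝ˢ (connectedComponentIn E z) ⊓ 𝓟 Eᶜ) (𝓝 (β z))) :
    volume (β '' Q) = 0 := by
  classical
  refine le_antisymm (ENNReal.le_of_forall_pos_le_add fun ε hε _ => ?_) bot_le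
  rw [zero_add]
  have hε2 : (0 : ℝ≥0∞) < (ε : ℝ≥0∞) / 2 := by
    apply ENNReal.div_pos _ (by norm_num)
    exact_mod_cast hε.ne'
  obtain ⟨W₁, hQW₁, hW₁, hνW₁⟩ := Q.exists_isOpen_lt_add (μ := ν) (by rw [hQ]; simp) hε2.ne'
  rw [hQ, zero_add] at hνW₁
  set W := sint E (W₁ ∩ W₀) with hWdef
  have hWo : IsOpen W := isOpen_sint hE (hW₁.inter hW₀)
  have hWW : W ⊆ W₁ ∩ W₀ := sint_subset
  have hQW : Q ⊆ W := hQs.subset_sint (subset_inter hQW₁ (hQE.trans hEW))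
  have hνW : ν W ≤ ε / 2 := (measure_mono (hWW.trans inter_subset_left)).trans hνW₁.le
  have hup : ∀ C, Ctm E (L ∩ W) C → Ctm E (L ∩ W₀) C := fun C hC =>
    hC.mono (inter_subset_inter_right _ (hWW.trans inter_subset_right))
  -- a non degenerate continuum through each point of `Q` in any open `O`
  have hnd : ∀ z ∈ Q, ∀ O : Set X, IsOpen O → connectedComponentIn E z ⊆ O →
      ∃ C, Ctm E (L ∩ W) C ∧ z ∈ C ∧ C ⊆ O ∧ (C \ E).Nonempty := by
    intro z hz O hO hzO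
    obtain ⟨C, hC, hzC, hCn⟩ := exists_ctm hE hL hLc hLs hLn (hWo.inter hO) (hQL hz) (hQE hz)
      (subset_inter ((hQs z hz (hQE hz)).trans hQW) hzO)
    exact ⟨C, hC.mono fun x hx => ⟨hx.1, hx.2.1⟩, hzC, fun x hx => (hC.sub hx).2.2, hCn⟩
  -- the choice of `C_z`
  have hch : ∀ z ∈ Q, ∃ C, Ctm E (L ∩ W) C ∧ z ∈ C ∧ (C \ E).Nonempty ∧
      ∀ D, Ctm E (L ∩ W) D → z ∈ D → ν D ≤ 2 * ν C := by
    intro z hz
    obtain ⟨C₀, hC₀, hzC₀, -, hC₀n⟩ := hnd z hz univ isOpen_univ (subset_univ _)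
    set f : ℝ≥0∞ := ⨆ D : {D // Ctm E (L ∩ W) D ∧ z ∈ D}, ν D.1 with hf
    have hle : ∀ D, Ctm E (L ∩ W) D → z ∈ D → ν D ≤ f := fun D hD hzD =>
      le_iSup (fun D : {D // Ctm E (L ∩ W) D ∧ z ∈ D} => ν D.1) ⟨D, hD, hzD⟩
    have hft : f ≠ ∞ := ne_top_of_le_ne_top (measure_ne_top ν univ)
      (iSup_le fun D => measure_mono (subset_univ _))
    by_cases hf0 : f = 0
    · exact ⟨C₀, hC₀, hzC₀, hC₀n, fun D hD hzD => (hle D hD hzD).trans (by rw [hf0]; exact bot_le)⟩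
    · have hlt : f / 2 < f := ENNReal.half_lt_self hf0 hft
      obtain ⟨⟨D, hD, hzD⟩, hDf⟩ := lt_iSup_iff.1 (hf ▸ hlt)
      refine ⟨D ∪ C₀, hD.union hC₀ ⟨z, hzD, hzC₀⟩, Or.inl hzD,
        hC₀n.mono (sdiff_subset_sdiff_left subset_union_right), fun D' hD' hzD' => ?_⟩
      have h1 : ν D' ≤ 2 * (f / 2) := by
        rw [ENNReal.mul_div_cancel (by norm_num) (by norm_num)]
        exact hle D' hD' hzD'
      refine h1.trans (mul_le_mul_right ?_ 2)
      exact hDf.le.trans (measure_mono subset_union_left)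
  choose! K hK hzK hKn hKf using hch
  -- values on a class
  have hdiam : ∀ z ∈ Q, volume (β '' (Q ∩ cls E (L ∩ W) z)) ≤ 2 * ν (K z) := by
    intro z hz
    refine (Real.volume_le_diam _).trans (Metric.ediam_le ?_)
    rintro _ ⟨p, ⟨hp, C, ⟨hC, hzC⟩, hpC⟩, rfl⟩ _ ⟨q, ⟨hq, C', ⟨hC', hzC'⟩, hqC'⟩, rfl⟩
    refine ENNReal.le_of_forall_pos_le_add fun δ hδ _ => ?_
    -- points near `p`, `q`
    have hnear : ∀ p ∈ Q, ∃ D, Ctm E (L ∩ W) D ∧ p ∈ D ∧ ∃ x ∈ D \ E, |b x - β p| < δ / 2 := by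
      intro p hp
      have h1 : ∀ᶠ x in 𝓝ˢ (connectedComponentIn E p) ⊓ 𝓟 Eᶜ, |b x - β p| < δ / 2 := by
        have := (hβ p hp).eventually (Metric.ball_mem_nhds (β p) (half_pos (NNReal.coe_pos.2 hδ)))
        filter_upwards [this] with x hx
        simpa [Real.dist_eq] using hx
      rw [eventually_inf_principal, eventually_nhdsSet_iff_exists] at h1
      obtain ⟨O, hO, hpO, hOb⟩ := h1
      obtain ⟨D, hD, hpD, hDO, x, hx⟩ := hnd p hp O hO hpO
      exact ⟨D, hD, hpD, x, hx, hOb x (hDO hx.1) hx.2⟩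
    obtain ⟨D, hD, hpD, x, hx, hxb⟩ := hnear p hp
    obtain ⟨D', hD', hqD', y, hy, hyb⟩ := hnear q hq
    have hU : Ctm E (L ∩ W) ((C ∪ C') ∪ D ∪ D') :=
      ((hC.union hC' ⟨z, hzC, hzC'⟩).union hD ⟨p, Or.inl hpC, hpD⟩).union hD'
        ⟨q, Or.inl (Or.inr hqC'), hqD'⟩
    have h2 := hb _ (hup _ hU) x ⟨Or.inl (Or.inr hx.1), hx.2⟩ y ⟨Or.inr hy.1, hy.2⟩
    have h3 := h2.trans (hKf z hz _ hU (Or.inl (Or.inl (Or.inl hzC))))
    rw [edist_dist, Real.dist_eq]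
    have h4 : |β p - β q| ≤ |b x - b y| + δ := by
      have e : β p - β q = (b x - b y) - (b x - β p) + (b y - β q) := by ring
      rw [e]
      refine (abs_add_le _ _).trans ?_
      have := abs_sub (b x - b y) (b x - β p)
      linarith
    refine (ENNReal.ofReal_le_ofReal h4).trans ?_
    rw [ENNReal.ofReal_add (abs_nonneg _) δ.coe_nonneg, ENNReal.ofReal_coe_nnreal]
    gcongr
  -- the classes
  set I : Set (Set X) := (fun z => cls E (L ∩ W) z) '' Q with hI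
  have hrep : ∀ S : I, ∃ z ∈ Q, cls E (L ∩ W) z = S.1 := fun S => S.2
  choose g hgQ hg using hrep
  have hKsub : ∀ z ∈ Q, K z ⊆ cls E (L ∩ W) z := fun z hz => subset_sUnion_of_mem ⟨hK z hz, hzK z hz⟩
  have hdis : Pairwise (Function.onFun Disjoint fun S : I => K (g S)) := by
    intro S S' hne
    rw [Function.onFun, Set.disjoint_left]
    intro x hx hx'
    apply hne
    apply Subtype.ext
    rw [← hg S, ← hg S']
    exact cls_eq ⟨x, hKsub _ (hgQ S) hx, hKsub _ (hgQ S') hx'⟩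
  have hmeas : ∀ S : I, MeasurableSet (K (g S)) := fun S => (hK _ (hgQ S)).cpt.measurableSet
  have hcount : Countable I := by
    have := Measure.countable_meas_pos_of_disjoint_iUnion (μ := ν₁) hmeas hdis
    have h2 : {S : I | 0 < ν₁ (K (g S))} = univ := by
      ext S
      simp only [mem_ofPred_eq, mem_univ, iff_true]
      exact hpos _ (hup _ (hK _ (hgQ S))) (hKn _ (hgQ S))
    rw [h2] at this
    exact countable_univ_iff.1 this
  have hcov : β '' Q ⊆ ⋃ S : I, β '' (Q ∩ cls E (L ∩ W) (g S)) := by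
    rintro _ ⟨z, hz, rfl⟩
    refine mem_iUnion.2 ⟨⟨cls E (L ∩ W) z, z, hz, rfl⟩, z, ⟨hz, ?_⟩, rfl⟩
    rw [hg]
    exact hKsub z hz (hzK z hz)
  calc volume (β '' Q) ≤ ∑' S : I, volume (β '' (Q ∩ cls E (L ∩ W) (g S))) :=
        (measure_mono hcov).trans (measure_iUnion_le _)
    _ ≤ ∑' S : I, 2 * ν (K (g S)) := ENNReal.tsum_le_tsum fun S => hdiam _ (hgQ S)
    _ = 2 * ν (⋃ S : I, K (g S)) := by rw [ENNReal.tsum_mul_left, measure_iUnion hdis hmeas]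
    _ ≤ 2 * ν W := by
        gcongr
        exact iUnion_subset fun S x hx => ((hK _ (hgQ S)).sub hx).2
    _ ≤ 2 * (ε / 2) := by gcongr
    _ = ε := ENNReal.mul_div_cancel (by norm_num) (by norm_num)

end Crest.Agent.R105.Nip_31
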