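import Crest.Agent.R105.Nip2_31

/-!
# Row 105, S0138 (T-frame), module NI of helper459 (#9956), part (P2), file 3 (helper31)

* `slc ρ t` : the slices of a finite measure on `ℝ × X` (absolutely continuous part of the first
  marginal);
* `exists_sat` : a countable family of compact saturated sets;
* `ZF aM aP bM bP F` : the multivalued image of `F`;
* `slice_le` : (AREA) for all compact saturated `F` and all Borel sets of levels implies, for a.e.
  level `t`, the slice inequality for ALL compact saturated `F` at once.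
-/

set_option autoImplicit false

open Set Filter Topology MeasureTheory ProbabilityTheory
open scoped ENNReal

namespace Crest.Agent.R105.Nip_31

section slices

variable {X : Type*} [MeasurableSpace X] [StandardBorelSpace X] [Nonempty X]

/-- slices -/
noncomputable def slc (ρ : Measure (ℝ × X)) [IsFiniteMeasure ρ] (t : ℝ) : Measure X :=
  (ρ.fst.rnDeriv volume t) • ρ.condKernel t

variable (ρ : Measure (ℝ × X)) [IsFiniteMeasure ρ]

lemma slc_apply (t : ℝ) (A : Set X) : slc ρ t A = ρ.fst.rnDeriv volume t * ρ.condKernel t A := rfl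

lemma ae_slc_lt_top : ∀ᵐ t, ∀ A, slc ρ t A < ∞ := by
  filter_upwards [Measure.rnDeriv_lt_top ρ.fst volume] with t ht A
  rw [slc_apply]
  exact ENNReal.mul_lt_top ht (measure_lt_top _ _)

lemma measurable_slc {S : Set (ℝ × X)} (hS : MeasurableSet S) :
    Measurable fun t => slc ρ t (Prod.mk t ⁻¹' S) := by
  simp_rw [slc_apply]
  exact (Measure.measurable_rnDeriv _ _).mul
    (Kernel.measurable_kernel_prodMk_left hS)

lemma lintegral_slc_le {S : Set (ℝ × X)} (hS : MeasurableSet S) :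
    ∫⁻ t, slc ρ t (Prod.mk t ⁻¹' S) ≤ ρ S := by
  have hm : Measurable fun t => ρ.condKernel t (Prod.mk t ⁻¹' S) :=
    Kernel.measurable_kernel_prodMk_left hS
  calc ∫⁻ t, slc ρ t (Prod.mk t ⁻¹' S)
      = ∫⁻ t, ρ.condKernel t (Prod.mk t ⁻¹' S) ∂(volume.withDensity (ρ.fst.rnDeriv volume)) := by
        rw [lintegral_withDensity_eq_lintegral_mul _ (Measure.measurable_rnDeriv _ _) hm]
        rfl
    _ ≤ ∫⁻ t, ρ.condKernel t (Prod.mk t ⁻¹' S) ∂ρ.fst :=
        lintegral_mono' (Measure.withDensity_rnDeriv_le _ _) le_rfl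
    _ = ρ S := by
        conv_rhs => rw [← ρ.disintegrate ρ.condKernel, Measure.compProd_apply hS]

/-- off a Lebesgue null set of levels the slices see everything. -/
lemma exists_null : ∃ N : Set ℝ, MeasurableSet N ∧ volume N = 0 ∧ ∀ S : Set (ℝ × X),
    MeasurableSet S → (∀ q ∈ S, q.1 ∉ N) → ρ S = ∫⁻ t, slc ρ t (Prod.mk t ⁻¹' S) := by
  obtain ⟨N, hN, h1, h2⟩ := Measure.mutuallySingular_singularPart ρ.fst (volume : Measure ℝ)
  refine ⟨Nᶜ, hN.compl, h2, fun S hS hSN => ?_⟩
  have hm : Measurable fun t => ρ.condKernel t (Prod.mk t ⁻¹' S) :=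
    Kernel.measurable_kernel_prodMk_left hS
  have e1 : ρ S = ∫⁻ t, ρ.condKernel t (Prod.mk t ⁻¹' S) ∂ρ.fst := by
    conv_lhs => rw [← ρ.disintegrate ρ.condKernel, Measure.compProd_apply hS]
  have e2 : ρ.fst = ρ.fst.singularPart volume + volume.withDensity (ρ.fst.rnDeriv volume) :=
    Measure.haveLebesgueDecomposition_add _ _
  have e3 : ∫⁻ t, ρ.condKernel t (Prod.mk t ⁻¹' S) ∂(ρ.fst.singularPart volume) = 0 := by
    rw [lintegral_eq_zero_iff hm]
    rw [Filter.EventuallyEq, ae_iff]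
    refine measure_mono_null (fun t ht => ?_) h1
    by_contra hcon
    apply ht
    have : Prod.mk t ⁻¹' S = (∅ : Set X) := by
      ext x
      simp only [mem_preimage, mem_empty_iff_false, iff_false]
      intro hx
      exact hSN _ hx hcon
    rw [this]
    simp
  rw [e1]
  conv_lhs => rw [e2]
  rw [lintegral_add_measure, e3, zero_add,
    lintegral_withDensity_eq_lintegral_mul _ (Measure.measurable_rnDeriv _ _) hm]
  rfl

end slices

section family

variable {X : Type*} [TopologicalSpace X]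

/-- the saturation of `A` -/
def sat (E A : Set X) : Set X := (sint E Aᶜ)ᶜ

lemma subset_sat {E A : Set X} : A ⊆ sat E A := fun _ hz h => h.1 hz

lemma sat_sat {E A : Set X} : Sat E (sat E A) := by
  intro z hz hzE w hw hw'
  apply hz
  have hwE := connectedComponentIn_subset _ _ hw
  have := sat_sint (E := E) (W := Aᶜ) w hw' hwE
  rw [← connectedComponentIn_eq hw] at this
  exact this (mem_connectedComponentIn hzE)

lemma sat_subset {E A O : Set X} (hO : Sat E O) (h : A ⊆ O) : sat E A ⊆ O := by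
  intro z hz
  by_contra hzO
  apply hz
  refine ⟨fun hzA => hzO (h hzA), fun hzE w hw hwA => hzO ?_⟩
  have hwE := connectedComponentIn_subset _ _ hw
  have := hO w (h hwA) hwE
  rw [← connectedComponentIn_eq hw] at this
  exact this (mem_connectedComponentIn hzE)

lemma isCompact_sat [T2Space X] [LocallyCompactSpace X] {E A : Set X} (hE : IsCompact E)
    (hA : IsCompact A) : IsCompact (sat E A) := by
  have hcl : IsClosed (sat E A) := (isOpen_sint hE hA.isClosed.isOpen_compl).isClosed_compl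
  refine (hA.union hE).of_isClosed_subset hcl fun z hz => ?_
  by_cases hzE : z ∈ E
  · exact Or.inr hzE
  · refine Or.inl ?_
    by_contra hzA
    exact hz ⟨hzA, fun h => absurd h hzE⟩

lemma exists_family [T2Space X] [LocallyCompactSpace X] [SecondCountableTopology X] {E : Set X}
    (hE : IsCompact E) : ∃ 𝒞 : Set (Set X), 𝒞.Countable ∧ (∀ G ∈ 𝒞, IsCompact G ∧ Sat E G) ∧
      ∀ F O : Set X, IsCompact F → Sat E F → IsOpen O → F ⊆ O → ∃ G ∈ 𝒞, F ⊆ G ∧ G ⊆ O := by
  classical
  set 𝒟 : Set (Set (Set X)) := {s | s.Finite ∧ s ⊆ TopologicalSpace.countableBasis X} with h𝒟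
  have h𝒟c : 𝒟.Countable := countable_ofPred_finite_subset (TopologicalSpace.countable_countableBasis X)
  refine ⟨{G | ∃ s ∈ 𝒟, IsCompact (closure (⋃₀ s)) ∧ G = sat E (closure (⋃₀ s))}, ?_, ?_, ?_⟩
  · refine (h𝒟c.image fun s => sat E (closure (⋃₀ s))).mono ?_
    rintro G ⟨s, hs, -, rfl⟩
    exact ⟨s, hs, rfl⟩
  · rintro G ⟨s, hs, hc, rfl⟩
    exact ⟨isCompact_sat hE hc, sat_sat⟩
  · intro F O hF hFs hO hFO
    obtain ⟨V, hV, hFV, hVO, hVc⟩ := exists_open_between_and_isCompact_closure hF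
      (isOpen_sint hE hO) (hFs.subset_sint hFO)
    have hB := TopologicalSpace.isBasis_countableBasis X
    have h1 : ∀ z ∈ F, ∃ B ∈ TopologicalSpace.countableBasis X, z ∈ B ∧ B ⊆ V := fun z hz =>
      hB.exists_subset_of_mem_open (hFV hz) hV
    choose! B hB1 hB2 hB3 using h1
    obtain ⟨T, hTF, hT⟩ := hF.elim_nhds_subcover B
      (fun z hz => (hB.isOpen (hB1 z hz)).mem_nhds (hB2 z hz))
    set s : Set (Set X) := B '' (T : Set X) with hs
    have hsV : ⋃₀ s ⊆ V := by
      rintro x ⟨_, ⟨z, hz, rfl⟩, hx⟩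
      exact hB3 z (hTF z hz) hx
    have hFs' : F ⊆ ⋃₀ s := by
      intro x hx
      obtain ⟨z, hz, hxz⟩ := mem_iUnion₂.1 (hT hx)
      exact ⟨B z, ⟨z, hz, rfl⟩, hxz⟩
    have hc : IsCompact (closure (⋃₀ s)) := hVc.of_isClosed_subset isClosed_closure
      (closure_mono hsV)
    refine ⟨sat E (closure (⋃₀ s)), ⟨s, ⟨T.finite_toSet.image B, ?_⟩, hc, rfl⟩,
      (hFs'.trans subset_closure).trans subset_sat, ?_⟩
    · rintro _ ⟨z, hz, rfl⟩
      exact hB1 z (hTF z hz)
    · exact (sat_subset sat_sint ((closure_mono hsV).trans hVO)).trans sint_subset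

end family

section areas

variable {X : Type*} [TopologicalSpace X]

/-- the multivalued image of `F` -/
def ZF (aM aP bM bP : X → ℝ) (F : Set X) : Set (ℝ × ℝ) :=
  {p | ∃ z ∈ F, aM z ≤ p.1 ∧ p.1 ≤ aP z ∧ bM z ≤ p.2 ∧ p.2 ≤ bP z}

variable {aM aP bM bP : X → ℝ} {F : Set X}

omit [TopologicalSpace X] in
lemma ZF_mono {F' : Set X} (h : F ⊆ F') : ZF aM aP bM bP F ⊆ ZF aM aP bM bP F' :=
  fun _ ⟨z, hz, h'⟩ => ⟨z, h hz, h'⟩

lemma isClosed_ZF (h1 : LowerSemicontinuous aM) (h2 : UpperSemicontinuous aP)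
    (h3 : LowerSemicontinuous bM) (h4 : UpperSemicontinuous bP) (hF : IsCompact F) :
    IsClosed (ZF aM aP bM bP F) := by
  have : CompactSpace F := isCompact_iff_compactSpace.1 hF
  have hc1 : IsClosed {q : F × (ℝ × ℝ) | aM q.1.1 ≤ q.2.1} := by
    have := (h1.isClosed_epigraph).preimage
      (f := fun q : F × (ℝ × ℝ) => ((q.1 : X), q.2.1)) (by fun_prop)
    exact this
  have hc3 : IsClosed {q : F × (ℝ × ℝ) | bM q.1.1 ≤ q.2.2} := by
    have := (h3.isClosed_epigraph).preimage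
      (f := fun q : F × (ℝ × ℝ) => ((q.1 : X), q.2.2)) (by fun_prop)
    exact this
  have hc2 : IsClosed {q : F × (ℝ × ℝ) | q.2.1 ≤ aP q.1.1} := by
    have := (h2.IsClosed_hypograph).preimage
      (f := fun q : F × (ℝ × ℝ) => ((q.1 : X), q.2.1)) (by fun_prop)
    exact this
  have hc4 : IsClosed {q : F × (ℝ × ℝ) | q.2.2 ≤ bP q.1.1} := by
    have := (h4.IsClosed_hypograph).preimage
      (f := fun q : F × (ℝ × ℝ) => ((q.1 : X), q.2.2)) (by fun_prop)
    exact this
  have hc := isClosedMap_snd_of_compactSpace (X := F) (Y := ℝ × ℝ) _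
    ((hc1.inter hc2).inter (hc3.inter hc4))
  convert hc using 1
  ext p
  constructor
  · rintro ⟨z, hz, ha, hb, hc, hd⟩
    exact ⟨(⟨z, hz⟩, p), ⟨⟨ha, hb⟩, hc, hd⟩, rfl⟩
  · rintro ⟨⟨z, q⟩, ⟨⟨ha, hb⟩, hc, hd⟩, rfl⟩
    exact ⟨z, z.2, ha, hb, hc, hd⟩

variable [T2Space X] [LocallyCompactSpace X] [SecondCountableTopology X]
  [MeasurableSpace X] [BorelSpace X] [StandardBorelSpace X] [Nonempty X]

/-- **slices of (AREA)** -/
theorem slice_le {E W₀ : Set X} (hE : IsCompact E) (hW₀ : IsOpen W₀)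
    (h1 : LowerSemicontinuous aM) (h2 : UpperSemicontinuous aP)
    (h3 : LowerSemicontinuous bM) (h4 : UpperSemicontinuous bP)
    {ρ : Measure (ℝ × X)} [IsFiniteMeasure ρ]
    (H : ∀ F, IsCompact F → Sat E F → F ⊆ W₀ → ∀ T : Set ℝ, MeasurableSet T →
      volume (ZF aM aP bM bP F ∩ T ×ˢ univ) ≤ ρ (T ×ˢ F)) :
    ∀ᵐ t, ∀ F, IsCompact F → Sat E F → F ⊆ W₀ →
      volume {s | (t, s) ∈ ZF aM aP bM bP F} ≤ slc ρ t F := by
  obtain ⟨𝒞, h𝒞, hcs, hsub⟩ := exists_family hE (X := X)
  obtain ⟨N, hN, hN0, hNρ⟩ := exists_null ρ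
  -- one set at a time
  have key : ∀ G, IsCompact G → Sat E G → G ⊆ W₀ →
      ∀ᵐ t, volume {s | (t, s) ∈ ZF aM aP bM bP G} ≤ slc ρ t G := by
    intro G hG hGs hGW
    have hZ : MeasurableSet (ZF aM aP bM bP G) := (isClosed_ZF h1 h2 h3 h4 hG).measurableSet
    have hm1 : Measurable fun t : ℝ => volume {s | (t, s) ∈ ZF aM aP bM bP G} :=
      measurable_measure_prodMk_left hZ
    refine ae_le_of_forall_setLIntegral_le_of_sigmaFinite hm1 fun T hT _ => ?_
    have hT' : MeasurableSet (T \ N) := hT.diff hN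
    have e0 : (T \ N : Set ℝ) =ᵐ[volume] T := by
      exact sdiff_null_ae_eq_self hN0
    have e1 : ∫⁻ t in T \ N, volume {s | (t, s) ∈ ZF aM aP bM bP G} =
        volume (ZF aM aP bM bP G ∩ (T \ N) ×ˢ univ) := by
      rw [Measure.volume_eq_prod, Measure.prod_apply (hZ.inter (hT'.prod MeasurableSet.univ)),
        ← lintegral_indicator hT']
      refine lintegral_congr fun t => ?_
      by_cases ht : t ∈ T \ N
      · rw [indicator_of_mem ht]
        congr 1
        ext s
        simp [ht.1, ht.2]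
      · rw [indicator_of_notMem ht]
        symm
        refine measure_mono_null (t := ∅) (fun s hs => ?_) (by simp)
        exact ht hs.2.1
    have e2 : ρ ((T \ N) ×ˢ G) = ∫⁻ t in T \ N, slc ρ t G := by
      rw [hNρ _ (hT'.prod hG.measurableSet) (fun q hq => hq.1.2), ← lintegral_indicator hT']
      refine lintegral_congr fun t => ?_
      by_cases ht : t ∈ T \ N
      · rw [indicator_of_mem ht]
        congr 1
        ext x
        simp [ht.1, ht.2]
      · rw [indicator_of_notMem ht]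
        refine measure_mono_null (t := ∅) (fun s hs => ?_) (by simp)
        exact ht hs.1
    calc ∫⁻ t in T, volume {s | (t, s) ∈ ZF aM aP bM bP G}
        = ∫⁻ t in T \ N, volume {s | (t, s) ∈ ZF aM aP bM bP G} := (setLIntegral_congr e0).symm
      _ = volume (ZF aM aP bM bP G ∩ (T \ N) ×ˢ univ) := e1
      _ ≤ ρ ((T \ N) ×ˢ G) := H G hG hGs hGW _ hT'
      _ = ∫⁻ t in T \ N, slc ρ t G := e2
      _ = ∫⁻ t in T, slc ρ t G := setLIntegral_congr e0
  have hall : ∀ᵐ t, ∀ G ∈ 𝒞, G ⊆ W₀ → volume {s | (t, s) ∈ ZF aM aP bM bP G} ≤ slc ρ t G := by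
    rw [ae_ball_iff h𝒞]
    intro G hG
    by_cases hGW : G ⊆ W₀
    · filter_upwards [key G (hcs G hG).1 (hcs G hG).2 hGW] with t ht _ using ht
    · exact Eventually.of_forall fun t h => absurd h hGW
  filter_upwards [hall, ae_slc_lt_top ρ] with t ht htt F hF hFs hFW
  have hfin : IsFiniteMeasure (slc ρ t) := ⟨htt univ⟩
  refine ENNReal.le_of_forall_pos_le_add fun ε hε _ => ?_
  have hε' : (ε : ℝ≥0∞) ≠ 0 := by exact_mod_cast hε.ne'
  obtain ⟨O, hFO, hO, hOε⟩ := F.exists_isOpen_lt_add (μ := slc ρ t) (htt F).ne hε'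
  obtain ⟨G, hG, hFG, hGO⟩ := hsub F (O ∩ W₀) hF hFs (hO.inter hW₀) (subset_inter hFO hFW)
  calc volume {s | (t, s) ∈ ZF aM aP bM bP F}
      ≤ volume {s | (t, s) ∈ ZF aM aP bM bP G} := measure_mono fun s hs => ZF_mono hFG hs
    _ ≤ slc ρ t G := ht G hG (hGO.trans inter_subset_right)
    _ ≤ slc ρ t O := measure_mono (hGO.trans inter_subset_left)
    _ ≤ slc ρ t F + ε := hOε.le

end areas

end Crest.Agent.R105.Nip_31
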