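import Crest.Agent.R105.Nip3_31
import Crest.Agent.R105.Ni0_459

/-!
# Row 105, S0138 (T-frame), module NI of helper459, part (P2), file 4 (helper31)

* `null_image_ll` : locally Lipschitz maps of the plane send null sets to null sets;
* `area` (T2) : `|(a, b)(M)| ≤ ∫_M |da ∧ db|` for measurable `M ⊆ Yᶜ`.
-/

set_option autoImplicit false

open Set Filter Topology MeasureTheory Metric
open scoped ENNReal NNReal

namespace Crest.Agent.R105.Nip_31

open Bd_775

lemma ac_hausdorff : (volume : Measure ℂ) ≪ μH[2] ∧ (μH[2] : Measure ℂ) ≪ volume := by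
  have h2 : ((Module.finrank ℝ ℂ : ℕ) : ℝ) = 2 := by rw [Complex.finrank_real_complex]; norm_num
  have : (μH[2] : Measure ℂ).IsAddHaarMeasure := by
    rw [← h2]
    exact MeasureTheory.isAddHaarMeasure_hausdorffMeasure
  exact ⟨Measure.absolutelyContinuous_isAddHaarMeasure _ _,
    Measure.absolutelyContinuous_isAddHaarMeasure _ _⟩

lemma null_image_lip {G : ℂ → ℂ} {S : Set ℂ} {K : ℝ≥0} (hG : LipschitzOnWith K G S)
    (hS : volume S = 0) : volume (G '' S) = 0 := by
  apply ac_hausdorff.1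
  have h1 : (μH[2] : Measure ℂ) S = 0 := ac_hausdorff.2 hS
  refine le_antisymm ?_ bot_le
  refine (hG.hausdorffMeasure_image_le (d := 2) (by norm_num)).trans ?_
  rw [h1, mul_zero]

lemma null_image_ll {G : ℂ → ℂ} {O S : Set ℂ} (hG : ∀ z ∈ O, ∃ K : ℝ≥0, ∃ t ∈ 𝓝 z,
    LipschitzOnWith K G t) (hSO : S ⊆ O) (hS : volume S = 0) : volume (G '' S) = 0 := by
  choose! K t ht hL using hG
  obtain ⟨c, hcS, hc, hcov⟩ := TopologicalSpace.countable_cover_nhdsWithin
    (s := S) (f := t) fun z hz => mem_nhdsWithin_of_mem_nhds (ht z (hSO hz))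
  have : G '' S ⊆ ⋃ z ∈ c, G '' (S ∩ t z) := by
    rintro _ ⟨x, hx, rfl⟩
    obtain ⟨z, hz, hxz⟩ := mem_iUnion₂.1 (hcov hx)
    exact mem_iUnion₂.2 ⟨z, hz, x, ⟨hx, hxz⟩, rfl⟩
  refine measure_mono_null this ((measure_biUnion_null_iff hc).2 fun z hz => ?_)
  exact null_image_lip ((hL z (hSO (hcS hz))).mono inter_subset_right)
    (measure_mono_null inter_subset_left hS)

/-- (T2) **area inequality** -/
theorem area {Y M : Set ℂ} {a b : ℂ → ℝ} (hY : IsClosed Y) (ha : LocallyLipschitzOn Yᶜ a)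
    (hb : LocallyLipschitzOn Yᶜ b) (hM : MeasurableSet M) (hMY : M ⊆ Yᶜ) :
    volume ((fun z => (a z, b z)) '' M) ≤ ∫⁻ z in M, ENNReal.ofReal |wdg a b z| := by
  classical
  set G : ℂ → ℂ := fun z => (a z : ℂ) + (b z : ℂ) * Complex.I with hG
  have himg : (fun z => (a z, b z)) '' M =
      Complex.measurableEquivRealProd.symm ⁻¹' (G '' M) := by
    ext p
    constructor
    · rintro ⟨z, hz, rfl⟩
      refine ⟨z, hz, ?_⟩
      apply Complex.ext <;> simp [hG, Complex.measurableEquivRealProd]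
    · rintro ⟨z, hz, h⟩
      refine ⟨z, hz, ?_⟩
      have h1 := congrArg Complex.re h
      have h2 := congrArg Complex.im h
      simp [hG, Complex.measurableEquivRealProd] at h1 h2
      exact Prod.ext h1 h2
  rw [himg, Complex.volume_preserving_equiv_real_prod.symm.measure_preimage_equiv]
  -- split off the null set of bad points
  set D : Set ℂ := {z | DifferentiableAt ℝ a z} ∩ {z | DifferentiableAt ℝ b z} with hD
  have hDm : MeasurableSet D := (measurableSet_of_differentiableAt ℝ a).inter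
    (measurableSet_of_differentiableAt ℝ b)
  have hnull : volume (M \ D) = 0 := by
    have h1 := ae_diff hY.isOpen_compl ha
    have h2 := ae_diff hY.isOpen_compl hb
    rw [ae_restrict_iff' hY.isOpen_compl.measurableSet] at h1 h2
    refine measure_mono_null (fun z hz => ?_) (ae_iff.1 (h1.and h2))
    rintro ⟨h3, h4⟩
    exact hz.2 ⟨h3 (hMY hz.1), h4 (hMY hz.1)⟩
  have hGl : ∀ z ∈ Yᶜ, ∃ K : ℝ≥0, ∃ t ∈ 𝓝 z, LipschitzOnWith K G t := by
    intro z hz
    obtain ⟨K₁, t₁, ht₁, h1⟩ := ha hz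
    obtain ⟨K₂, t₂, ht₂, h2⟩ := hb hz
    rw [hY.isOpen_compl.nhdsWithin_eq hz] at ht₁ ht₂
    refine ⟨K₁ + K₂, t₁ ∩ t₂, inter_mem ht₁ ht₂, LipschitzOnWith.of_dist_le_mul fun x hx y hy => ?_⟩
    have e1 := h1.dist_le_mul x hx.1 y hy.1
    have e2 := h2.dist_le_mul x hx.2 y hy.2
    rw [Real.dist_eq] at e1 e2
    have e3 : G x - G y = ((a x - a y : ℝ) : ℂ) + ((b x - b y : ℝ) : ℂ) * Complex.I := by
      simp only [hG]; push_cast; ring
    rw [dist_eq_norm, e3]
    refine (norm_add_le _ _).trans ?_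
    rw [norm_mul, Complex.norm_I, mul_one, Complex.norm_real, Complex.norm_real,
      Real.norm_eq_abs, Real.norm_eq_abs, NNReal.coe_add, add_mul]
    exact add_le_add e1 e2
  have h0 : volume (G '' (M \ D)) = 0 :=
    null_image_ll hGl (fun z hz => hMY hz.1) hnull
  set I' : ℝ →L[ℝ] ℂ := ContinuousLinearMap.toSpanSingleton ℝ Complex.I with hI'
  have hI'a : ∀ t : ℝ, I' t = (t : ℂ) * Complex.I := fun t => by
    simp [hI', ContinuousLinearMap.toSpanSingleton_apply]
  set L : ℂ → ℂ →L[ℝ] ℂ := fun z => Complex.ofRealCLM.comp (fderiv ℝ a z) +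
    I'.comp (fderiv ℝ b z) with hL
  have hder : ∀ z ∈ D, HasFDerivAt G (L z) z := by
    intro z hz
    have h1 := Complex.ofRealCLM.hasFDerivAt.comp z hz.1.hasFDerivAt
    have h2 := I'.hasFDerivAt.comp z hz.2.hasFDerivAt
    have h3 := h1.add h2
    refine h3.congr_of_eventuallyEq (Eventually.of_forall fun w => ?_)
    simp [hG, hI'a]
  have hdet : ∀ z, (L z).det = wdg a b z := by
    intro z
    have e1 : (L z).det = LinearMap.det ((L z : ℂ →L[ℝ] ℂ) : ℂ →ₗ[ℝ] ℂ) := rfl
    rw [e1, ← LinearMap.det_toMatrix Complex.basisOneI, Matrix.det_fin_two]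
    simp only [LinearMap.toMatrix_apply, Complex.coe_basisOneI_repr, Complex.coe_basisOneI,
      ContinuousLinearMap.coe_coe]
    simp [hL, hI'a, wdg, gx, gy]
  calc volume (G '' M) ≤ volume (G '' (M ∩ D) ∪ G '' (M \ D)) := by
        rw [← image_union, inter_union_sdiff]
    _ ≤ volume (G '' (M ∩ D)) + volume (G '' (M \ D)) := measure_union_le _ _
    _ = volume (G '' (M ∩ D)) := by rw [h0, add_zero]
    _ ≤ ∫⁻ z in M ∩ D, ENNReal.ofReal |(L z).det| :=
        addHaar_image_le_lintegral_abs_det_fderiv volume (hM.inter hDm)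
          fun z hz => (hder z hz.2).hasFDerivWithinAt
    _ = ∫⁻ z in M ∩ D, ENNReal.ofReal |wdg a b z| := by simp_rw [hdet]
    _ ≤ ∫⁻ z in M, ENNReal.ofReal |wdg a b z| := lintegral_mono_set inter_subset_left

end Crest.Agent.R105.Nip_31
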