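import Crest.Agent.R105.Ends1_897

/-! Row 105, S0138, NI-3 (helper897), part 1: unicoherence of the plane for closed sets and
boundary bumping. -/

set_option autoImplicit false

open Set Filter Topology Metric

namespace Crest.Agent.R105.Nit_897

open Crest.Agent.R105.Ends_897 Crest.Agent.R193.Planar

/-- a locally constant function on a preconnected set is constant -/
theorem const_on {A : Set ℂ} (hA : IsPreconnected A) {f : ℂ → ℝ}
    (hf : ∀ x ∈ A, ∀ᶠ y in 𝓝[A] x, f y = f x) {x y : ℂ} (hx : x ∈ A) (hy : y ∈ A) :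
    f x = f y := by
  have _ : PreconnectedSpace A := isPreconnected_iff_preconnectedSpace.1 hA
  have h1 : IsLocallyConstant fun z : A => f z := by
    rw [IsLocallyConstant.iff_eventually_eq]
    intro z
    exact (eventually_nhds_subtype_iff A z fun w => f w = f z).2 (hf z z.2)
  exact h1.apply_eq_of_preconnectedSpace ⟨x, hx⟩ ⟨y, hy⟩

/-- **unicoherence of the plane** (one piece compact) -/
theorem unicoherence {A B K1 K2 : Set ℂ} (hA : IsClosed A) (hB : IsClosed B)
    (hAB : A ∪ B = univ) (hAc : IsPreconnected A) (hBc : IsPreconnected B)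
    (hK : A ∩ B = K1 ∪ K2) (h1 : IsCompact K1) (h2 : IsClosed K2) (hd : Disjoint K1 K2) :
    K1 = ∅ ∨ K2 = ∅ := by
  classical
  by_contra hcon
  rw [not_or, ← ne_eq, ← ne_eq, ← nonempty_iff_ne_empty, ← nonempty_iff_ne_empty] at hcon
  obtain ⟨⟨p, hp⟩, ⟨q, hq⟩⟩ := hcon
  set c : ℂ → ℝ := fun y => if y ∈ A then 0 else 1 with hcdef
  have hc : LCOff (K1 ∪ K2) c := by
    intro y hy
    rw [← hK] at hy
    by_cases hyA : y ∈ A
    · have hyB : y ∉ B := fun h => hy ⟨hyA, h⟩
      filter_upwards [hB.isOpen_compl.mem_nhds hyB] with w hw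
      have hwA : w ∈ A := by
        have := mem_univ w
        rw [← hAB] at this
        exact this.resolve_right hw
      simp only [hcdef, if_pos hyA, if_pos hwA]
    · filter_upwards [hA.isOpen_compl.mem_nhds hyA] with w hw
      simp only [hcdef, if_neg hyA, if_neg hw]
  obtain ⟨c1, c2, hc1, hc2, hs⟩ := split_C h1 h2 hd hc
  have hpA : p ∈ A := (hK ▸ (Or.inl hp : p ∈ K1 ∪ K2) : p ∈ A ∩ B).1
  have hpB : p ∈ B := (hK ▸ (Or.inl hp : p ∈ K1 ∪ K2) : p ∈ A ∩ B).2
  have hqA : q ∈ A := (hK ▸ (Or.inr hq : q ∈ K1 ∪ K2) : q ∈ A ∩ B).1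
  have hqB : q ∈ B := (hK ▸ (Or.inr hq : q ∈ K1 ∪ K2) : q ∈ A ∩ B).2
  have hpK2 : p ∉ K2 := fun h => disjoint_left.1 hd hp h
  have hqK1 : q ∉ K1 := fun h => disjoint_left.1 hd h hq
  -- on a closed set `X` where `c` has the value `κ` off `K1 ∪ K2`
  have key : ∀ {X : Set ℂ} {κ : ℝ}, IsPreconnected X → (∀ y ∈ X, y ∉ K1 ∪ K2 → c y = κ) →
      p ∈ X → q ∈ X → κ - c2 p = c1 q := by
    intro X κ hX hκ hpX hqX
    set f : ℂ → ℝ := fun y => if y ∈ K1 then κ - c2 y else c1 y with hf
    have hfp : f p = κ - c2 p := if_pos hp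
    have hfq : f q = c1 q := if_neg hqK1
    rw [← hfp, ← hfq]
    refine const_on hX (fun x hx => ?_) hpX hqX
    by_cases hxK1 : x ∈ K1
    · have hxK2 : x ∉ K2 := fun h => disjoint_left.1 hd hxK1 h
      have e1 := (hc2 x hxK2).filter_mono (nhdsWithin_le_nhds (s := X))
      have e2 : ∀ᶠ y in 𝓝[X] x, y ∉ K2 :=
        mem_nhdsWithin_of_mem_nhds (h2.isOpen_compl.mem_nhds hxK2)
      filter_upwards [e1, e2, self_mem_nhdsWithin] with y hy1 hy2 hyX
      have hfx : f x = κ - c2 x := if_pos hxK1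
      rw [hfx]
      by_cases hyK1 : y ∈ K1
      · have : f y = κ - c2 y := if_pos hyK1
        rw [this, hy1]
      · have h3 : f y = c1 y := if_neg hyK1
        have h4 : y ∉ K1 ∪ K2 := fun h => h.elim hyK1 hy2
        have h5 := hs y h4
        rw [hκ y hyX h4] at h5
        rw [h3, ← hy1]
        linarith
    · have hfx : f x = c1 x := if_neg hxK1
      have e1 := (hc1 x hxK1).filter_mono (nhdsWithin_le_nhds (s := X))
      have e2 : ∀ᶠ y in 𝓝[X] x, y ∉ K1 :=
        mem_nhdsWithin_of_mem_nhds (h1.isClosed.isOpen_compl.mem_nhds hxK1)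
      filter_upwards [e1, e2] with y hy1 hy2
      have : f y = c1 y := if_neg hy2
      rw [this, hfx, hy1]
  have k1 := key (κ := 0) hAc (fun y hy _ => if_pos hy) hpA hqA
  have k2 := key (κ := 1) hBc (fun y hy hyK => by
    refine if_neg fun hyA => ?_
    rw [← hK] at hyK
    exact hyK ⟨hyA, hy⟩) hpB hqB
  linarith

/-- no proper compact relatively open piece -/
def NoPiece (L : Set ℂ) : Prop :=
  ∀ K1 K2 : Set ℂ, IsCompact K1 → IsClosed K2 → Disjoint K1 K2 → L = K1 ∪ K2 → K1 = ∅ ∨ K2 = ∅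

theorem noPiece_inter {A B : Set ℂ} (hA : IsClosed A) (hB : IsClosed B)
    (hAB : A ∪ B = univ) (hAc : IsPreconnected A) (hBc : IsPreconnected B) :
    NoPiece (A ∩ B) :=
  fun _ _ h1 h2 hd hK => unicoherence hA hB hAB hAc hBc hK h1 h2 hd

/-- a closed set without proper compact pieces which is not bounded has no compact pieces, and its
components are unbounded; a compact one is connected -/
theorem NoPiece.isPreconnected {L : Set ℂ} (h : NoPiece L) (hL : IsCompact L) :
    IsPreconnected L := by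
  rw [isPreconnected_closed_iff]
  intro t t' ht ht' hsub h1 h2
  by_contra hcon
  rw [not_nonempty_iff_eq_empty] at hcon
  have h3 := h (L ∩ t) (L ∩ t') (hL.inter_right ht) (hL.isClosed.inter ht')
    (disjoint_left.2 fun y hy hy' => by
      have : y ∈ L ∩ (t ∩ t') := ⟨hy.1, hy.2, hy'.2⟩
      rw [hcon] at this
      exact this)
    (by
      rw [← inter_union_distrib_left]
      exact (inter_eq_left.2 hsub).symm)
  rcases h3 with h3 | h3
  · rw [h3] at h1; exact not_nonempty_empty h1
  · rw [h3] at h2; exact not_nonempty_empty h2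

/-- **boundary bumping** -/
theorem NoPiece.bump {L N : Set ℂ} (h : NoPiece L) (hL : IsClosed L) (hN : IsCompact N) {q : ℂ}
    (hqL : q ∈ L) (hqN : q ∈ N) (hLN : ¬ L ⊆ interior N) :
    (connectedComponentIn (L ∩ N) q ∩ frontier N).Nonempty := by
  by_contra hcon
  rw [not_nonempty_iff_eq_empty] at hcon
  have hX : IsCompact (L ∩ N) := hN.inter_left hL
  have hsub : connectedComponentIn (L ∩ N) q ⊆ interior N := by
    intro y hy
    by_contra hyi
    have hyN : y ∈ N := (connectedComponentIn_subset _ _ hy).2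
    have : y ∈ connectedComponentIn (L ∩ N) q ∩ frontier N :=
      ⟨hy, by rw [hN.isClosed.frontier_eq]; exact ⟨hyN, hyi⟩⟩
    rw [hcon] at this
    exact this
  obtain ⟨B, hB, hXB, hBX, hqB, hBW⟩ := exists_clopen hX ⟨hqL, hqN⟩ isOpen_interior hsub
  have hq : q ∈ B := hqB (mem_connectedComponentIn ⟨hqL, hqN⟩)
  have hK2 : IsClosed (((L ∩ N) \ B) ∪ (L \ interior N)) :=
    hXB.isClosed.union (hL.sdiff isOpen_interior)
  rcases h B (((L ∩ N) \ B) ∪ (L \ interior N)) hB hK2 (disjoint_left.2 fun y hy hy' => by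
      rcases hy' with hy' | hy'
      · exact hy'.2 hy
      · exact hy'.2 (hBW hy)) (by
      ext y
      constructor
      · intro hy
        by_cases hyB : y ∈ B
        · exact Or.inl hyB
        · by_cases hyi : y ∈ interior N
          · exact Or.inr (Or.inl ⟨⟨hy, interior_subset hyi⟩, hyB⟩)
          · exact Or.inr (Or.inr ⟨hy, hyi⟩)
      · rintro (hy | hy | hy)
        · exact (hBX hy).1
        · exact hy.1.1
        · exact hy.1) with h3 | h3
  · rw [h3] at hq; exact hq
  · rw [not_subset] at hLN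
    obtain ⟨y, hyL, hyi⟩ := hLN
    have : y ∈ ((L ∩ N) \ B) ∪ (L \ interior N) := Or.inr ⟨hyL, hyi⟩
    rw [h3] at this
    exact this

end Crest.Agent.R105.Nit_897
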