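import Crest.Agent.R105.Skp2_257
import Crest.Agent.R105.Isx1_909

/-!
# Row 105 (S0139, PP): the leaf `NULLIM` of `Skp2_257` (helper157)

A planar function which is constant on the components maps a compact family of hairs crossing a
strip onto a null set: read the values on one good horizontal line.
-/

set_option autoImplicit false

namespace Crest.Agent.R105.Nlm_157

open Set Filter MeasureTheory Topology
open CF_363 Stp_722 Skp2_257

theorem nullim : NULLIM := by
  intro E hE g Bm Bp hg b hb
  have h1 : ∀ᵐ y : ℝ, ∀ᵐ x : ℝ, (x, y) ∉ E := by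
    refine ae_swap (P := fun p => p ∉ E) ?_
    rw [ae_iff]
    simpa using hE.null
  have h3 := h1.and hb.1.hor
  obtain ⟨y, hy, hy1, hy2⟩ : ∃ y ∈ Ioo Bm Bp, (∀ᵐ x : ℝ, (x, y) ∉ E) ∧
      ∀ a c, a ≤ c → (∀ x ∈ Icc a c, (x, y) ∉ (∅ : Set (ℝ × ℝ))) →
        IntervalIntegrable (fun s => gx b (s, y)) volume a c ∧
          b (c, y) - b (a, y) = ∫ s in a..c, gx b (s, y) := by
    by_contra hcon
    have h0 : volume (Ioo Bm Bp) = 0 := by
      refine measure_mono_null (fun y hy hP => hcon ⟨y, hy, hP⟩) (ae_iff.1 h3)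
    rw [Real.volume_Ioo] at h0
    have := hg.lt
    simp at h0
    linarith
  set S : Set ℝ := {x | (x, y) ∈ E} with hS
  have hS0 : volume S = 0 := by
    have := ae_iff.1 hy1
    simpa using this
  have hv : ∀ a c, IntervalIntegrable (fun s => gx b (s, y)) volume a c := by
    intro a c
    rcases le_total a c with h | h
    · exact (hy2 a c h (fun x _ => notMem_empty _)).1
    · exact (hy2 c a h (fun x _ => notMem_empty _)).1.symm
  have hF : ∀ a c, (fun x => b (x, y)) c - (fun x => b (x, y)) a = ∫ x in a..c, gx b (x, y) := by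
    intro a c
    rcases le_total a c with h | h
    · exact (hy2 a c h (fun x _ => notMem_empty _)).2
    · have := (hy2 c a h (fun x _ => notMem_empty _)).2
      rw [intervalIntegral.integral_symm]
      simp only
      linarith
  have hnull := Isx_909.lusinN hv hF hS0
  refine measure_mono_null ?_ hnull
  rintro _ ⟨p, hp, rfl⟩
  simp only [un, mem_iUnion] at hp
  obtain ⟨K, hK, hpK⟩ := hp
  have hc := hg.crs K hK
  have hq : (K.x, y) ∈ K.car := Hair.mem_car.2 ⟨rfl, hc.1.trans hy.1.le, hy.2.le.trans hc.2⟩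
  have hKE : K.car ∈ Comps E := hg.sub hK
  refine ⟨K.x, ?_, ?_⟩
  · exact un_sub hg.sub (by simp only [un, mem_iUnion]; exact ⟨K, hK, hq⟩)
  · exact hb.2 K.car hKE (K.x, y) hq p hpK

end Crest.Agent.R105.Nlm_157
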