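import Mathlib

/-!
# Row 105, S0138 (NI-10): the law lemma, one-dimensional part (helper138, post #10253)

`Λ` = law of `(x, u)` (with the solids as atoms in `u`), `ν` = measure on the `x`-axis which controls
the variation of the law (Euler-Lagrange).  If `S ⊆ ℝ × ℝ` is a set of pairs `(x₀, κ)` such that
`Λ` has mass `≥ l` near `κ` over the lines right of `x₀`, and `Prod.fst '' S` is null, then
`Prod.snd '' S` is null.
-/

set_option autoImplicit false

open Set MeasureTheory Filter Topology Metric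
open scoped ENNReal NNReal

namespace Crest.Agent.R105.Nlq_138

/-! ### clamp, tent, ramp -/

/-- clamp to `[0, 1]` -/
noncomputable def cl (s : ℝ) : ℝ := max 0 (min 1 s)

theorem cl_nonneg (s : ℝ) : 0 ≤ cl s := le_max_left _ _

theorem cl_le_one (s : ℝ) : cl s ≤ 1 := max_le zero_le_one (min_le_left _ _)

theorem cl_zero {s : ℝ} (h : s ≤ 0) : cl s = 0 := by
  rw [cl, max_eq_left ((min_le_right _ _).trans h)]

theorem cl_one {s : ℝ} (h : 1 ≤ s) : cl s = 1 := by
  rw [cl, min_eq_left h, max_eq_right zero_le_one]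

theorem cl_mid {s : ℝ} (h0 : 0 ≤ s) (h1 : s ≤ 1) : cl s = s := by
  rw [cl, min_eq_right h1, max_eq_right h0]

theorem cl_mono : Monotone cl := fun _ _ h => max_le_max le_rfl (min_le_min le_rfl h)

theorem cl_lip (a b : ℝ) : |cl a - cl b| ≤ |a - b| := by
  wlog h : a ≤ b with H
  · rw [abs_sub_comm, abs_sub_comm a b]; exact H b a (le_of_not_ge h)
  · rw [abs_sub_comm, abs_sub_comm a b, abs_of_nonneg (sub_nonneg.2 (cl_mono h)),
      abs_of_nonneg (sub_nonneg.2 h)]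
    unfold cl
    simp only [max_def, min_def]
    split_ifs <;> linarith

/-- tent of height one: `1` on `|t - κ| ≤ η`, `0` for `|t - κ| ≥ 2 η` -/
noncomputable def tent (κ η t : ℝ) : ℝ := cl (2 - |t - κ| / η)

theorem tent_nonneg (κ η t : ℝ) : 0 ≤ tent κ η t := cl_nonneg _

theorem tent_le_one (κ η t : ℝ) : tent κ η t ≤ 1 := cl_le_one _

theorem tent_eq_one {κ η t : ℝ} (hη : 0 < η) (h : |t - κ| ≤ η) : tent κ η t = 1 := by
  have : |t - κ| / η ≤ 1 := (div_le_one hη).2 h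
  exact cl_one (by linarith)

theorem tent_eq_zero {κ η t : ℝ} (hη : 0 < η) (h : 2 * η ≤ |t - κ|) : tent κ η t = 0 := by
  have : 2 ≤ |t - κ| / η := (le_div_iff₀ hη).2 h
  exact cl_zero (by linarith)

theorem tent_lip {κ η : ℝ} (hη : 0 < η) (s t : ℝ) :
    |tent κ η s - tent κ η t| ≤ η⁻¹ * |s - t| := by
  refine (cl_lip _ _).trans ?_
  have h1 : 2 - |s - κ| / η - (2 - |t - κ| / η) = η⁻¹ * (|t - κ| - |s - κ|) := by
    field_simp; ring
  rw [h1, abs_mul, abs_of_pos (inv_pos.2 hη)]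
  refine mul_le_mul_of_nonneg_left ?_ (inv_pos.2 hη).le
  refine (abs_abs_sub_abs_le_abs_sub _ _).trans ?_
  rw [abs_sub_comm s t]
  apply le_of_eq
  congr 1
  ring

theorem continuous_cl : Continuous cl := by unfold cl; fun_prop

theorem continuous_tent (κ η : ℝ) : Continuous (tent κ η) := by
  unfold tent; exact continuous_cl.comp (by fun_prop)

/-- ramp from `0` to `1` over `[a, a + ε]` -/
noncomputable def rp (a ε x : ℝ) : ℝ := cl ((x - a) / ε)

theorem rp_zero {a ε x : ℝ} (hε : 0 < ε) (h : x ≤ a) : rp a ε x = 0 :=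
  cl_zero (div_nonpos_of_nonpos_of_nonneg (by linarith) hε.le)

theorem rp_one {a ε x : ℝ} (hε : 0 < ε) (h : a + ε ≤ x) : rp a ε x = 1 :=
  cl_one ((one_le_div hε).2 (by linarith))

theorem rp_lip {a ε : ℝ} (hε : 0 < ε) (s t : ℝ) : |rp a ε s - rp a ε t| ≤ ε⁻¹ * |s - t| := by
  refine (cl_lip _ _).trans (le_of_eq ?_)
  have h1 : (s - a) / ε - (t - a) / ε = ε⁻¹ * (s - t) := by field_simp; ring
  rw [h1, abs_mul, abs_of_pos (inv_pos.2 hε)]

theorem deriv_rp {a ε x : ℝ} (hε : 0 < ε) (h1 : x ≠ a) (h2 : x ≠ a + ε) :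
    HasDerivAt (rp a ε) ((Ioo a (a + ε)).indicator (fun _ => ε⁻¹) x) x := by
  rcases lt_or_gt_of_ne h1 with h | h
  · rw [indicator_of_notMem (fun hx => by linarith [hx.1])]
    refine (hasDerivAt_const x (0 : ℝ)).congr_of_eventuallyEq ?_
    filter_upwards [Iio_mem_nhds h] with y hy
    exact rp_zero hε (le_of_lt hy)
  · rcases lt_or_gt_of_ne h2 with h' | h'
    · rw [indicator_of_mem (mem_Ioo.2 ⟨h, h'⟩)]
      have h3 : HasDerivAt (fun y : ℝ => (y - a) / ε) ε⁻¹ x := by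
        simpa using ((hasDerivAt_id x).sub_const a).div_const ε
      refine h3.congr_of_eventuallyEq ?_
      filter_upwards [Ioo_mem_nhds h h'] with y hy
      refine cl_mid (div_nonneg (by linarith [hy.1]) hε.le) ((div_le_one hε).2 (by linarith [hy.2]))
    · rw [indicator_of_notMem (fun hx => by linarith [hx.2])]
      refine (hasDerivAt_const x (1 : ℝ)).congr_of_eventuallyEq ?_
      filter_upwards [Ioi_mem_nhds h'] with y hy
      exact rp_one hε (le_of_lt hy)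

/-- difference of two ramps -/
noncomputable def hh (a ε b δ x : ℝ) : ℝ := rp a ε x - rp b δ x

theorem hh_abs_le (a ε b δ x : ℝ) : |hh a ε b δ x| ≤ 1 := by
  have h1 := cl_nonneg ((x - a) / ε)
  have h2 := cl_le_one ((x - a) / ε)
  have h3 := cl_nonneg ((x - b) / δ)
  have h4 := cl_le_one ((x - b) / δ)
  unfold hh rp
  rw [abs_le]; constructor <;> linarith

theorem hh_lip {a ε b δ : ℝ} (hε : 0 < ε) (hδ : 0 < δ) (s t : ℝ) :
    |hh a ε b δ s - hh a ε b δ t| ≤ (ε⁻¹ + δ⁻¹) * |s - t| := by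
  have h1 := rp_lip (a := a) hε s t
  have h2 := rp_lip (a := b) hδ s t
  have h3 : hh a ε b δ s - hh a ε b δ t = (rp a ε s - rp a ε t) - (rp b δ s - rp b δ t) := by
    unfold hh; ring
  rw [h3]
  refine (abs_sub _ _).trans ?_
  linarith [add_mul ε⁻¹ δ⁻¹ |s - t|]

theorem hh_eq_zero {a ε b δ x : ℝ} (hε : 0 < ε) (hδ : 0 < δ)
    (h : x ∉ Icc (min a b) (max (a + ε) (b + δ))) : hh a ε b δ x = 0 := by
  rw [mem_Icc, not_and_or, not_le, not_le] at h
  rcases h with h | h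
  · have := lt_min_iff.1 h
    rw [hh, rp_zero hε this.1.le, rp_zero hδ this.2.le, sub_zero]
  · have := max_lt_iff.1 h
    rw [hh, rp_one hε this.1.le, rp_one hδ this.2.le, sub_self]

/-! ### the law -/

/-- `Λ` on the strip `(A, B) × ℝ`: marginal `≤ M dx`, variation controlled by `ν` -/
structure Law (Λ : Measure (ℝ × ℝ)) (ν : Measure ℝ) (M A B : ℝ) : Prop where
  marg : ∀ s, MeasurableSet s → Λ (s ×ˢ univ) ≤ ENNReal.ofReal M * volume s
  el : ∀ (H h : ℝ → ℝ) (L K : ℝ), 0 ≤ L → 0 ≤ K → (∀ s t, |H s - H t| ≤ L * |s - t|) →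
    (∀ t, 0 ≤ H t ∧ H t ≤ 1) → (∀ s t, |h s - h t| ≤ K * |s - t|) → (∀ x, |h x| ≤ 1) →
    (∃ a b, A < a ∧ b < B ∧ ∀ x ∉ Icc a b, h x = 0) →
    |∫ p, deriv h p.1 * H p.2 ∂Λ| ≤ L * ∫ x, |h x| ∂ν
  atoms : ∃ D : Set ℝ, D.Countable ∧ ∀ s, volume s = 0 → ν (s \ D) = 0

variable {Λ : Measure (ℝ × ℝ)} {ν : Measure ℝ} {M A B l : ℝ}

theorem marg_lt_top (hm : ∀ s, MeasurableSet s → Λ (s ×ˢ univ) ≤ ENNReal.ofReal M * volume s)
    (a b : ℝ) (t : Set ℝ) : Λ (Ioo a b ×ˢ t) < ⊤ := by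
  refine (measure_mono (prod_mono_right (subset_univ t))).trans_lt ((hm _ measurableSet_Ioo).trans_lt ?_)
  rw [Real.volume_Ioo]
  exact ENNReal.mul_lt_top ENNReal.ofReal_lt_top ENNReal.ofReal_lt_top

theorem marg_null (hm : ∀ s, MeasurableSet s → Λ (s ×ˢ univ) ≤ ENNReal.ofReal M * volume s)
    (a : ℝ) : ∀ᵐ p ∂Λ, p.1 ≠ a := by
  have h : Λ ({a} ×ˢ univ) = 0 := by
    refine le_antisymm ((hm _ (measurableSet_singleton a)).trans ?_) bot_le
    simp
  rw [ae_iff]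
  refine measure_mono_null (fun p hp => ?_) h
  simp only [mem_ofPred_eq, not_not] at hp
  exact ⟨hp, mem_univ _⟩

theorem int_deriv (hm : ∀ s, MeasurableSet s → Λ (s ×ˢ univ) ≤ ENNReal.ofReal M * volume s)
    {a ε b δ : ℝ} (hε : 0 < ε) (hδ : 0 < δ) {H : ℝ → ℝ} (hH : Continuous H)
    (h01 : ∀ t, 0 ≤ H t ∧ H t ≤ 1) :
    ∫ p, deriv (hh a ε b δ) p.1 * H p.2 ∂Λ =
      ε⁻¹ * (∫ p in Ioo a (a + ε) ×ˢ univ, H p.2 ∂Λ) -
      δ⁻¹ * ∫ p in Ioo b (b + δ) ×ˢ univ, H p.2 ∂Λ := by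
  have hint : ∀ c d : ℝ, IntegrableOn (fun p : ℝ × ℝ => H p.2) (Ioo c d ×ˢ univ) Λ := by
    intro c d
    refine Measure.integrableOn_of_bounded (M := 1) (marg_lt_top hm c d univ).ne
      (by fun_prop) (Eventually.of_forall fun p => ?_)
    rw [Real.norm_of_nonneg (h01 _).1]; exact (h01 _).2
  have hms : ∀ c d : ℝ, MeasurableSet (Ioo c d ×ˢ (univ : Set ℝ)) := fun c d =>
    measurableSet_Ioo.prod MeasurableSet.univ
  have hae : (fun p : ℝ × ℝ => deriv (hh a ε b δ) p.1 * H p.2) =ᵐ[Λ] fun p =>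
      ε⁻¹ * (Ioo a (a + ε) ×ˢ univ).indicator (fun p : ℝ × ℝ => H p.2) p -
      δ⁻¹ * (Ioo b (b + δ) ×ˢ univ).indicator (fun p : ℝ × ℝ => H p.2) p := by
    filter_upwards [marg_null hm a, marg_null hm (a + ε), marg_null hm b, marg_null hm (b + δ)]
      with p h1 h2 h3 h4
    have h5 := ((deriv_rp hε h1 h2).sub (deriv_rp hδ h3 h4)).deriv
    have h6 : deriv (hh a ε b δ) p.1 = (Ioo a (a + ε)).indicator (fun _ => ε⁻¹) p.1 -
        (Ioo b (b + δ)).indicator (fun _ => δ⁻¹) p.1 := h5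
    rw [h6]
    by_cases g1 : p.1 ∈ Ioo a (a + ε) <;> by_cases g2 : p.1 ∈ Ioo b (b + δ) <;>
    simp only [indicator, mem_prod, g1, g2, mem_univ, and_true, and_self, if_true, if_false] <;>
    ring
  rw [integral_congr_ae hae, integral_sub, integral_const_mul, integral_const_mul,
    integral_indicator (hms _ _), integral_indicator (hms _ _)]
  · exact ((hint _ _).integrable_indicator (hms _ _)).const_mul _
  · exact ((hint _ _).integrable_indicator (hms _ _)).const_mul _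

/-- the main inequality -/
theorem step [IsFiniteMeasure ν] (hL : Law Λ ν M A B) {I : Set ℝ} (hI : I.OrdConnected)
    (hIm : MeasurableSet I) (hIAB : ∀ x ∈ I, ∀ y ∈ I, A < x ∧ y < B)
    {a ε b δ κ η : ℝ} (hε : 0 < ε) (hδ : 0 < δ) (hη : 0 < η)
    (ha : a ∈ I) (ha' : a + ε ∈ I) (hb : b ∈ I) (hb' : b + δ ∈ I)
    (hc : ENNReal.ofReal (l * ε) ≤ Λ (Ioo a (a + ε) ×ˢ closedBall κ η)) :
    l ≤ δ⁻¹ * (Λ (Ioo b (b + δ) ×ˢ closedBall κ (2 * η))).toReal + η⁻¹ * (ν I).toReal := by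
  have hH := continuous_tent κ η
  have h01 : ∀ t, 0 ≤ tent κ η t ∧ tent κ η t ≤ 1 := fun t => ⟨tent_nonneg _ _ _, tent_le_one _ _ _⟩
  have hms : ∀ (c d : ℝ) (r : ℝ), MeasurableSet (Ioo c d ×ˢ closedBall κ r) := fun c d r =>
    measurableSet_Ioo.prod isClosed_closedBall.measurableSet
  have hmu : ∀ (c d : ℝ), MeasurableSet (Ioo c d ×ˢ (univ : Set ℝ)) := fun c d =>
    measurableSet_Ioo.prod MeasurableSet.univ
  have hint : ∀ (c d : ℝ) (t : Set ℝ), IntegrableOn (fun p : ℝ × ℝ => tent κ η p.2) (Ioo c d ×ˢ t) Λ := by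
    intro c d t
    refine Measure.integrableOn_of_bounded (M := 1) (marg_lt_top hL.marg c d t).ne
      (by fun_prop) (Eventually.of_forall fun p => ?_)
    rw [Real.norm_of_nonneg (h01 _).1]; exact (h01 _).2
  -- Euler-Lagrange
  have hel := hL.el (tent κ η) (hh a ε b δ) η⁻¹ (ε⁻¹ + δ⁻¹) (inv_pos.2 hη).le (by positivity)
    (tent_lip hη) h01 (hh_lip hε hδ) (hh_abs_le _ _ _ _) ⟨min a b, max (a + ε) (b + δ),
      by
        rcases min_choice a b with h | h <;> rw [h]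
        · exact (hIAB a ha a ha).1
        · exact (hIAB b hb b hb).1,
      by
        rcases max_choice (a + ε) (b + δ) with h | h <;> rw [h]
        · exact (hIAB _ ha' _ ha').2
        · exact (hIAB _ hb' _ hb').2, fun x hx => hh_eq_zero hε hδ hx⟩
  rw [int_deriv hL.marg hε hδ hH h01] at hel
  -- lower bound
  have h1 : l * ε ≤ ∫ p in Ioo a (a + ε) ×ˢ univ, tent κ η p.2 ∂Λ := by
    have g1 : (Λ (Ioo a (a + ε) ×ˢ closedBall κ η)).toReal ≤
        ∫ p in Ioo a (a + ε) ×ˢ univ, tent κ η p.2 ∂Λ := by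
      have g2 : ∫ p in Ioo a (a + ε) ×ˢ closedBall κ η, tent κ η p.2 ∂Λ =
          (Λ (Ioo a (a + ε) ×ˢ closedBall κ η)).toReal := by
        rw [setIntegral_congr_fun (g := fun _ => (1 : ℝ)) (hms _ _ _) fun p hp => ?_]
        · simp [Measure.real]
        · exact tent_eq_one hη (by simpa [Real.dist_eq] using hp.2)
      rw [← g2]
      exact setIntegral_mono_set (hint _ _ _) (Eventually.of_forall fun p => (h01 _).1)
        (prod_mono_right (subset_univ _)).eventuallyLE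
    refine le_trans ?_ g1
    exact (ENNReal.ofReal_le_iff_le_toReal (marg_lt_top hL.marg _ _ _).ne).1 hc
  -- upper bound
  have h3 : ∫ p in Ioo b (b + δ) ×ˢ univ, tent κ η p.2 ∂Λ ≤
      (Λ (Ioo b (b + δ) ×ˢ closedBall κ (2 * η))).toReal := by
    have g2 : ∫ p in Ioo b (b + δ) ×ˢ univ, tent κ η p.2 ∂Λ =
        ∫ p in Ioo b (b + δ) ×ˢ closedBall κ (2 * η), tent κ η p.2 ∂Λ := by
      refine setIntegral_eq_of_subset_of_forall_sdiff_eq_zero (hmu _ _)
        (prod_mono_right (subset_univ _)) fun p hp => ?_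
      refine tent_eq_zero hη ?_
      by_contra hcon
      push Not at hcon
      exact hp.2 ⟨hp.1.1, by rw [mem_closedBall, Real.dist_eq]; exact hcon.le⟩
    rw [g2]
    have g3 : ∫ p in Ioo b (b + δ) ×ˢ closedBall κ (2 * η), (1 : ℝ) ∂Λ =
        (Λ (Ioo b (b + δ) ×ˢ closedBall κ (2 * η))).toReal := by
      simp [Measure.real]
    rw [← g3]
    refine setIntegral_mono (hint _ _ _) ?_ fun p => (h01 _).2
    exact integrableOn_const (marg_lt_top hL.marg _ _ _).ne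
  have h4 : ∫ x, |hh a ε b δ x| ∂ν ≤ (ν I).toReal := by
    have g1 : (ν I).toReal = ∫ x, I.indicator (fun _ => (1 : ℝ)) x ∂ν := by
      rw [integral_indicator hIm]; simp [Measure.real]
    rw [g1]
    refine integral_mono_of_nonneg (Eventually.of_forall fun x => abs_nonneg _)
      ((integrable_const _).indicator hIm) (Eventually.of_forall fun x => ?_)
    by_cases hx : x ∈ I
    · simp only [indicator_of_mem hx]; exact hh_abs_le _ _ _ _ _
    · simp only [indicator_of_notMem hx]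
      rw [hh_eq_zero hε hδ, abs_zero]
      intro hx'
      refine hx (hI.out ?_ ?_ hx')
      · rcases min_choice a b with h | h <;> rw [h] <;> assumption
      · rcases max_choice (a + ε) (b + δ) with h | h <;> rw [h] <;> assumption
  have h5 := (abs_le.1 hel).2
  have h6 : η⁻¹ * ∫ x, |hh a ε b δ x| ∂ν ≤ η⁻¹ * (ν I).toReal :=
    mul_le_mul_of_nonneg_left h4 (inv_pos.2 hη).le
  have h7 : l ≤ ε⁻¹ * ∫ p in Ioo a (a + ε) ×ˢ univ, tent κ η p.2 ∂Λ := by
    rw [le_inv_mul_iff₀ hε, mul_comm]; exact h1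
  have h8 : δ⁻¹ * ∫ p in Ioo b (b + δ) ×ˢ univ, tent κ η p.2 ∂Λ ≤
      δ⁻¹ * (Λ (Ioo b (b + δ) ×ˢ closedBall κ (2 * η))).toReal :=
    mul_le_mul_of_nonneg_left h3 (inv_pos.2 hδ).le
  linarith

/-! ### Chebyshev in the value -/

/-- `∫ μ (closedBall κ r) dκ = 2 r μ univ` -/
theorem lintegral_closedBall (μ : Measure ℝ) [SFinite μ] (r : ℝ) :
    ∫⁻ κ : ℝ, μ (closedBall κ r) = ENNReal.ofReal (2 * r) * μ univ := by
  have hm : MeasurableSet {p : ℝ × ℝ | dist p.2 p.1 ≤ r} :=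
    (isClosed_le (by fun_prop) continuous_const).measurableSet
  have h1 : ∀ κ : ℝ, μ (closedBall κ r) =
      ∫⁻ t, {p : ℝ × ℝ | dist p.2 p.1 ≤ r}.indicator (fun _ => (1 : ℝ≥0∞)) (κ, t) ∂μ := by
    intro κ
    rw [← lintegral_indicator_one (isClosed_closedBall.measurableSet)]
    refine lintegral_congr fun t => ?_
    simp only [indicator, mem_closedBall, mem_ofPred_eq, Pi.one_apply]
  simp_rw [h1]
  rw [lintegral_lintegral_swap]
  · have h2 : ∀ t : ℝ, ∫⁻ κ : ℝ, {p : ℝ × ℝ | dist p.2 p.1 ≤ r}.indicator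
        (fun _ => (1 : ℝ≥0∞)) (κ, t) = ENNReal.ofReal (2 * r) := by
      intro t
      rw [← Real.volume_closedBall t r, ← lintegral_indicator_one isClosed_closedBall.measurableSet]
      refine lintegral_congr fun κ => ?_
      simp only [indicator, mem_closedBall, mem_ofPred_eq, Pi.one_apply, dist_comm]
    simp_rw [h2]
    rw [lintegral_const]
  · exact ((measurable_const.indicator hm).comp measurable_id).aemeasurable

/-- values of `S` over an order-connected open set `I` -/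
theorem interval_bound [IsFiniteMeasure ν] (hL : Law Λ ν M A B) (hM : 0 ≤ M) (hl : 0 < l)
    {S : Set (ℝ × ℝ)}
    (conc : ∀ p ∈ S, ∀ r > 0, ∀ᶠ ε in 𝓝[>] (0 : ℝ),
      ENNReal.ofReal (l * ε) ≤ Λ (Ioo p.1 (p.1 + ε) ×ˢ closedBall p.2 r))
    {I : Set ℝ} (hI : I.OrdConnected) (hIo : IsOpen I) (hIAB : ∀ x ∈ I, ∀ y ∈ I, A < x ∧ y < B) :
    volume {κ | ∃ a ∈ I, (a, κ) ∈ S} ≤ ENNReal.ofReal (16 * M / l ^ 2) * ν I := by
  rcases I.eq_empty_or_nonempty with rfl | ⟨b, hb⟩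
  · simp
  obtain ⟨δ, hδ, hbδ⟩ : ∃ δ > 0, b + δ ∈ I := by
    obtain ⟨δ, hδ, h⟩ := Metric.isOpen_iff.1 hIo b hb
    refine ⟨δ / 2, by linarith, h ?_⟩
    rw [mem_ball, Real.dist_eq, add_sub_cancel_left, abs_of_pos (by linarith)]
    linarith
  set μ : Measure ℝ := (Λ.restrict (Ioo b (b + δ) ×ˢ univ)).map Prod.snd with hμ
  have hμs : ∀ t : Set ℝ, MeasurableSet t → μ t = Λ (Ioo b (b + δ) ×ˢ t) := by
    intro t ht
    rw [hμ, Measure.map_apply measurable_snd ht, Measure.restrict_apply (measurable_snd ht)]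
    congr 1
    ext p; simp only [mem_inter_iff, mem_preimage, mem_prod, mem_univ, and_true]; tauto
  have hμu : μ univ ≤ ENNReal.ofReal (M * δ) := by
    rw [hμs _ MeasurableSet.univ]
    refine (hL.marg _ measurableSet_Ioo).trans ?_
    rw [Real.volume_Ioo, ← ENNReal.ofReal_mul hM]
    apply le_of_eq; congr 1; ring
  have : IsFiniteMeasure μ := ⟨hμu.trans_lt ENNReal.ofReal_lt_top⟩
  have key : ∀ η : ℝ, 0 < η → 2 * (ν I).toReal / l ≤ η →
      volume {κ | ∃ a ∈ I, (a, κ) ∈ S} ≤ ENNReal.ofReal (8 * M / l * η) := by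
    intro η hη hη'
    have hsub : {κ | ∃ a ∈ I, (a, κ) ∈ S} ⊆
        {κ | ENNReal.ofReal (l / 2 * δ) ≤ μ (closedBall κ (2 * η))} := by
      rintro κ ⟨a, ha, haS⟩
      have h1 := conc _ haS η hη
      have h2 : ∀ᶠ ε in 𝓝[>] (0 : ℝ), a + ε ∈ I := by
        have h3 : Tendsto (fun ε : ℝ => a + ε) (𝓝[>] 0) (𝓝 a) := by
          have : Tendsto (fun ε : ℝ => a + ε) (𝓝 0) (𝓝 (a + 0)) :=
            (continuous_const.add continuous_id).tendsto 0
          rw [add_zero] at this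
          exact this.mono_left nhdsWithin_le_nhds
        exact h3 (hIo.mem_nhds ha)
      obtain ⟨ε, ⟨hε1, hε2⟩, hε⟩ := ((h1.and h2).and self_mem_nhdsWithin).exists
      have hε0 : (0 : ℝ) < ε := hε
      have h4 := step hL hI hIo.measurableSet hIAB hε0 hδ hη ha hε2 hb hbδ hε1
      have h5 : η⁻¹ * (ν I).toReal ≤ l / 2 := by
        rw [inv_mul_le_iff₀ hη]
        rw [div_le_iff₀ hl] at hη'
        nlinarith
      have h6 : l / 2 ≤ δ⁻¹ * (Λ (Ioo b (b + δ) ×ˢ closedBall κ (2 * η))).toReal := by linarith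
      rw [le_inv_mul_iff₀ hδ] at h6
      simp only [mem_ofPred_eq]
      rw [hμs _ isClosed_closedBall.measurableSet, ← ENNReal.ofReal_toReal
        (marg_lt_top hL.marg b (b + δ) (closedBall κ (2 * η))).ne]
      exact ENNReal.ofReal_le_ofReal (by linarith [mul_comm δ (l / 2)])
    refine (measure_mono hsub).trans ?_
    have h7 := mul_meas_ge_le_lintegral₀ (μ := volume) (f := fun κ : ℝ => μ (closedBall κ (2 * η)))
      (measurable_measure_prodMk_left (s := {p : ℝ × ℝ | dist p.2 p.1 ≤ 2 * η})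
        (isClosed_le (by fun_prop) continuous_const).measurableSet).aemeasurable
      (ENNReal.ofReal (l / 2 * δ))
    rw [lintegral_closedBall μ] at h7
    have h8 : ENNReal.ofReal (l / 2 * δ) * volume {κ | ENNReal.ofReal (l / 2 * δ) ≤ μ (closedBall κ (2 * η))} ≤
        ENNReal.ofReal (2 * (2 * η)) * ENNReal.ofReal (M * δ) := h7.trans (by gcongr)
    rw [← ENNReal.ofReal_mul (by linarith)] at h8
    have h9 : 0 < l / 2 * δ := by positivity
    rw [mul_comm, ← ENNReal.le_div_iff_mul_le (Or.inl (by simpa using h9)) (Or.inl ENNReal.ofReal_ne_top),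
      ← ENNReal.ofReal_div_of_pos h9] at h8
    refine h8.trans (ENNReal.ofReal_le_ofReal (le_of_eq ?_))
    field_simp
    ring
  -- pass to the limit
  have hlim : ∀ ρ : ℝ, 0 < ρ → volume {κ | ∃ a ∈ I, (a, κ) ∈ S} ≤
      ENNReal.ofReal (16 * M / l ^ 2) * ν I + ENNReal.ofReal (8 * M / l * ρ) := by
    intro ρ hρ
    refine (key (2 * (ν I).toReal / l + ρ) (by positivity) (by linarith)).trans ?_
    rw [← ENNReal.ofReal_toReal (measure_ne_top ν I), ← ENNReal.ofReal_mul (by positivity),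
      ENNReal.toReal_ofReal ENNReal.toReal_nonneg, ← ENNReal.ofReal_add (by positivity) (by positivity)]
    refine ENNReal.ofReal_le_ofReal (le_of_eq ?_)
    field_simp
    ring
  refine ge_of_tendsto (x := 𝓝[>] (0 : ℝ)) (f := fun ρ : ℝ => ENNReal.ofReal (16 * M / l ^ 2) * ν I +
    ENNReal.ofReal (8 * M / l * ρ)) ?_ (by filter_upwards [self_mem_nhdsWithin] with ρ hρ using hlim ρ hρ)
  have h1 : Tendsto (fun ρ : ℝ => ENNReal.ofReal (8 * M / l * ρ)) (𝓝[>] 0) (𝓝 0) := by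
    have h2 : Tendsto (fun ρ : ℝ => ENNReal.ofReal (8 * M / l * ρ)) (𝓝 0)
        (𝓝 (ENNReal.ofReal (8 * M / l * 0))) :=
      (ENNReal.continuous_ofReal.comp (continuous_const.mul continuous_id)).tendsto 0
    rw [mul_zero, ENNReal.ofReal_zero] at h2
    exact h2.mono_left nhdsWithin_le_nhds
  simpa using tendsto_const_nhds.add h1

/-- finitely many values over one line -/
theorem fibre_finite (hm : ∀ s, MeasurableSet s → Λ (s ×ˢ univ) ≤ ENNReal.ofReal M * volume s)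
    (hM : 0 ≤ M) (hl : 0 < l) {S : Set (ℝ × ℝ)}
    (conc : ∀ p ∈ S, ∀ r > 0, ∀ᶠ ε in 𝓝[>] (0 : ℝ),
      ENNReal.ofReal (l * ε) ≤ Λ (Ioo p.1 (p.1 + ε) ×ˢ closedBall p.2 r)) (a : ℝ) :
    {κ | (a, κ) ∈ S}.Finite := by
  by_contra hinf
  obtain ⟨n, hn⟩ := exists_nat_gt (M / l)
  obtain ⟨F, hF, hFc⟩ := (show Set.Infinite _ from hinf).exists_subset_card_eq n
  have hsep : ∀ᶠ r in 𝓝[>] (0 : ℝ), ∀ x ∈ F, ∀ y ∈ F, x ≠ y →
      Disjoint (closedBall x r) (closedBall y r) := by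
    refine (Filter.eventually_all_finset F).2 fun x _ => (Filter.eventually_all_finset F).2 fun y _ => ?_
    by_cases hxy : x = y
    · exact Eventually.of_forall fun _ h => absurd hxy h
    · have h1 : ∀ᶠ r in 𝓝[>] (0 : ℝ), r < dist x y / 2 :=
        nhdsWithin_le_nhds (gt_mem_nhds (by have := dist_pos.2 hxy; linarith))
      filter_upwards [h1] with r hr _
      exact closedBall_disjoint_closedBall (by linarith)
  obtain ⟨r, hr, hr0⟩ := (hsep.and self_mem_nhdsWithin).exists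
  have h1 : ∀ᶠ ε in 𝓝[>] (0 : ℝ), ∀ κ ∈ F,
      ENNReal.ofReal (l * ε) ≤ Λ (Ioo a (a + ε) ×ˢ closedBall κ r) :=
    (Filter.eventually_all_finset F).2 fun κ hκ => conc (a, κ) (hF hκ) r hr0
  obtain ⟨ε, hε, hε0⟩ := (h1.and self_mem_nhdsWithin).exists
  have hε' : (0 : ℝ) < ε := hε0
  have h2 : ∑ κ ∈ F, Λ (Ioo a (a + ε) ×ˢ closedBall κ r) =
      Λ (⋃ κ ∈ F, Ioo a (a + ε) ×ˢ closedBall κ r) := by
    refine (measure_biUnion_finset (fun x hx y hy hxy => ?_) fun κ _ =>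
      measurableSet_Ioo.prod isClosed_closedBall.measurableSet).symm
    exact Set.disjoint_left.2 fun p hp hq => Set.disjoint_left.1 (hr x hx y hy hxy) hp.2 hq.2
  have h3 : Λ (⋃ κ ∈ F, Ioo a (a + ε) ×ˢ closedBall κ r) ≤ ENNReal.ofReal M * ENNReal.ofReal ε := by
    refine (measure_mono (t := Ioo a (a + ε) ×ˢ univ) ?_).trans ((hm _ measurableSet_Ioo).trans ?_)
    · exact iUnion₂_subset fun κ _ => prod_mono_right (subset_univ _)
    · rw [Real.volume_Ioo, add_sub_cancel_left]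
  have h4 : (n : ℝ≥0∞) * ENNReal.ofReal (l * ε) ≤ ENNReal.ofReal M * ENNReal.ofReal ε := by
    rw [← hFc, ← nsmul_eq_mul, ← Finset.sum_const]
    exact (Finset.sum_le_sum fun κ hκ => hε κ hκ).trans (h2.le.trans h3)
  rw [← ENNReal.ofReal_natCast, ← ENNReal.ofReal_mul (by positivity), ← ENNReal.ofReal_mul hM,
    ENNReal.ofReal_le_ofReal_iff (by positivity)] at h4
  rw [div_lt_iff₀ hl] at hn
  nlinarith

/-- **law lemma**: null set of lines ⟹ null set of values -/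
theorem law_null [IsFiniteMeasure ν] (hL : Law Λ ν M A B) (hM : 0 ≤ M) (hl : 0 < l)
    {S : Set (ℝ × ℝ)}
    (conc : ∀ p ∈ S, ∀ r > 0, ∀ᶠ ε in 𝓝[>] (0 : ℝ),
      ENNReal.ofReal (l * ε) ≤ Λ (Ioo p.1 (p.1 + ε) ×ˢ closedBall p.2 r))
    (hAB : ∀ p ∈ S, p.1 ∈ Ioo A B) (h0 : volume (Prod.fst '' S) = 0) :
    volume (Prod.snd '' S) = 0 := by
  obtain ⟨D, hD, hDν⟩ := hL.atoms
  have hsub : Prod.snd '' S ⊆ (⋃ a ∈ D, {κ | (a, κ) ∈ S}) ∪
      {κ | ∃ a, a ∉ D ∧ (a, κ) ∈ S} := by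
    rintro κ ⟨p, hp, rfl⟩
    by_cases h : p.1 ∈ D
    · exact Or.inl (mem_iUnion₂.2 ⟨p.1, h, hp⟩)
    · exact Or.inr ⟨p.1, h, hp⟩
  have hc : volume (⋃ a ∈ D, {κ | (a, κ) ∈ S}) = 0 :=
    (measure_biUnion_null_iff hD).2 fun a _ => (fibre_finite hL.marg hM hl conc a).measure_zero _
  refine measure_mono_null hsub (measure_union_null hc ?_)
  set c := ENNReal.ofReal (16 * M / l ^ 2) with hcdef
  have key : ∀ ε : ℝ≥0∞, 0 < ε → volume {κ | ∃ a, a ∉ D ∧ (a, κ) ∈ S} ≤ c * ε := by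
    intro ε hε
    have h1 : ν (Prod.fst '' S \ D) < ε := by rw [hDν _ h0]; exact hε
    obtain ⟨U, hU, hUo, hUν⟩ := Set.exists_isOpen_lt_of_lt _ _ h1
    set V := U ∩ Ioo A B with hV
    have hVo : IsOpen V := hUo.inter isOpen_Ioo
    set T : Set (Set ℝ) := {C | ∃ x ∈ V, C = connectedComponentIn V x} with hT
    have hTo : ∀ C ∈ T, IsOpen C := by
      rintro C ⟨x, -, rfl⟩; exact hVo.connectedComponentIn
    have hTV : ∀ C ∈ T, C ⊆ V := by
      rintro C ⟨x, -, rfl⟩; exact connectedComponentIn_subset _ _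
    have hTc : T.Countable := by
      refine ((Set.countable_univ (α := ℚ)).image
        (fun q : ℚ => connectedComponentIn V (q : ℝ))).mono ?_
      rintro C ⟨x, hx, rfl⟩
      obtain ⟨q, hq⟩ := Rat.denseRange_cast.exists_mem_open hVo.connectedComponentIn
        ⟨x, mem_connectedComponentIn hx⟩
      exact ⟨q, mem_univ _, (connectedComponentIn_eq hq).symm⟩
    have hTd : T.PairwiseDisjoint id := by
      rintro C ⟨x, hx, rfl⟩ C' ⟨y, hy, rfl⟩ hne
      refine Set.disjoint_left.2 fun z hz hz' => hne ?_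
      rw [connectedComponentIn_eq hz, connectedComponentIn_eq hz']
    have h2 : {κ | ∃ a, a ∉ D ∧ (a, κ) ∈ S} ⊆ ⋃ C ∈ T, {κ | ∃ a ∈ C, (a, κ) ∈ S} := by
      rintro κ ⟨a, haD, haS⟩
      have haV : a ∈ V := ⟨hU ⟨⟨(a, κ), haS, rfl⟩, haD⟩, hAB _ haS⟩
      exact mem_iUnion₂.2 ⟨_, ⟨a, haV, rfl⟩, a, mem_connectedComponentIn haV, haS⟩
    calc volume {κ | ∃ a, a ∉ D ∧ (a, κ) ∈ S}
        ≤ volume (⋃ C ∈ T, {κ | ∃ a ∈ C, (a, κ) ∈ S}) := measure_mono h2
      _ ≤ ∑' C : T, volume {κ | ∃ a ∈ (C : Set ℝ), (a, κ) ∈ S} := measure_biUnion_le _ hTc _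
      _ ≤ ∑' C : T, c * ν (C : Set ℝ) := by
          refine ENNReal.tsum_le_tsum fun C => ?_
          obtain ⟨C, hC⟩ := C
          refine interval_bound hL hM hl conc ?_ (hTo C hC) fun x hx y hy =>
            ⟨(hTV C hC hx).2.1, (hTV C hC hy).2.2⟩
          obtain ⟨x, -, rfl⟩ := hC
          exact isPreconnected_connectedComponentIn.ordConnected
      _ = c * ∑' C : T, ν (C : Set ℝ) := ENNReal.tsum_mul_left
      _ = c * ν (⋃ C ∈ T, C) := by
          have h3 := measure_biUnion (μ := ν) hTc hTd fun C hC => (hTo C hC).measurableSet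
          simp only [id] at h3
          rw [h3]
      _ ≤ c * ε := by
          gcongr
          exact (measure_mono (iUnion₂_subset fun C hC => (hTV C hC).trans inter_subset_left)).trans hUν.le
  refine le_antisymm ?_ bot_le
  have h4 : Tendsto (fun ε : ℝ≥0∞ => c * ε) (𝓝[>] 0) (𝓝 (c * 0)) :=
    (ENNReal.Tendsto.const_mul tendsto_id (Or.inr ENNReal.ofReal_ne_top)).mono_left
      nhdsWithin_le_nhds
  rw [mul_zero] at h4
  exact ge_of_tendsto h4 (by filter_upwards [self_mem_nhdsWithin] with ε hε using key ε hε)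

end Crest.Agent.R105.Nlq_138
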