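import Crest.Agent.R105.Pct4_185
import Crest.Agent.R105.Nlq1_138

/-!
# Row 105, S0138 (ATN (2)(b) of 403 #10534): E-L with faces in the picture plane (helper138)

`E` compact, `Σ wd² < ∞`, `MINT E (τ φ)` for all `τ`:
`|∫_{Eᶜ} φ_x + Σ wd_L (R_L - L_L)| ≤ 2 Σ wd_L e_L`, `R_L`, `L_L` the values of `φ` at the right /
left end of `L` up to `e_L`.
-/

set_option autoImplicit false

open Set MeasureTheory Filter Topology Metric
open scoped ENNReal NNReal ContDiff

namespace Crest.Agent.R105.Nlq_138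

open Tc_808 Sqr_185 Pct_185
open Sct_636 (LCE)

variable {E : Set ℂ}

/-- smooth functions with compact support are in `Q` -/
theorem q_smooth {f : ℂ → ℝ} (hf : ContDiff ℝ ∞ f) (hc : HasCompactSupport f) : Bd_775.Q E f where
  bdd := by
    obtain ⟨C, hC⟩ := hc.exists_bound_of_continuous hf.continuous
    exact ⟨C, fun z => hC z⟩
  loc := ((hf.of_le (by simp : (1 : WithTop ℕ∞) ≤
      ((⊤ : ℕ∞) : WithTop ℕ∞))).locallyLipschitz).locallyLipschitzOn
  fin := by
    have hd : Continuous (fderiv ℝ f) := hf.continuous_fderiv (by simp)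
    have h1 : Continuous (Bd_775.en f) :=
      ((hd.clm_apply continuous_const).pow 2).add ((hd.clm_apply continuous_const).pow 2)
    refine (h1.integrable_of_hasCompactSupport ?_).integrableOn
    refine (hc.fderiv (𝕜 := ℝ)).mono ?_
    intro z hz hz0
    apply hz
    have h2 : fderiv ℝ f z = 0 := hz0
    simp [Bd_775.en, Bd_775.gx, Bd_775.gy, h2]

/-- the coordinate `re`, cut off far away -/
theorem exists_u0 (hE : IsCompact E) (hsum : Summable fun L : Cmp E => wd L.1 ^ 2) (R : ℝ) :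
    ∃ u0 : ℂ → ℝ, TT E u0 ∧ ∀ z, ‖z‖ ≤ R → u0 z = z.re := by
  obtain ⟨R1, hR1⟩ := hE.isBounded.exists_norm_le
  set R' : ℝ := max 1 (max R (R1 + 1)) with hR'
  have hR0 : 0 < R' := lt_of_lt_of_le one_pos (le_max_left _ _)
  let f : ContDiffBump (0 : ℂ) := ⟨R', R' + 1, hR0, by linarith⟩
  have hf : ∀ z, ‖z‖ ≤ R' → f z = 1 := fun z hz =>
    f.one_of_mem_closedBall (mem_closedBall_zero_iff.2 hz)
  have hsm : ContDiff ℝ ∞ fun z : ℂ => z.re * f z := Complex.reCLM.contDiff.mul f.contDiff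
  have hcs : HasCompactSupport fun z : ℂ => z.re * f z := f.hasCompactSupport.mul_left
  refine ⟨fun z => z.re * f z, ⟨q_smooth hsm hcs, ?_⟩, fun z hz => ?_⟩
  · refine hsum.congr fun L => ?_
    have h1 : osc E (fun z : ℂ => z.re * f z) L.1 = osc E (fun z => z.re) L.1 := by
      refine osc_congr (O := ball 0 R') isOpen_ball (fun z hz => ?_) fun z hz _ => ?_
      · have h2 := hR1 z (L.subset hz)
        rw [mem_ball_zero_iff]
        have h3 : R1 + 1 ≤ R' := (le_max_right _ _).trans (le_max_right _ _)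
        linarith
      · show z.re * f z = z.re
        rw [hf z (mem_ball_zero_iff.1 hz).le, mul_one]
    rw [h1, osc_re hE]; rfl
  · show z.re * f z = z.re
    rw [hf z (hz.trans ((le_max_left _ _).trans (le_max_right _ _))), mul_one]

theorem fderiv_const_mul' (φ : ℂ → ℝ) (τ : ℝ) (w : ℂ) :
    fderiv ℝ (fun z => τ * φ z) w = τ • fderiv ℝ φ w := by
  have h3 := congrFun (fderiv_const_smul_field (𝕜 := ℝ) (f := φ) τ) w
  exact h3

/-- **E-L with faces in the picture plane** -/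
theorem faces_pic (hE : IsCompact E) (hsum : Summable fun L : Cmp E => wd L.1 ^ 2) {φ : ℂ → ℝ}
    (hφ : TT E φ) (hm : ∀ τ : ℝ, MINT E (fun w => τ * φ w)) {R L e : Cmp E → ℝ}
    (hR : ∀ K : Cmp E, wd K.1 ≠ 0 → ∀ ε > 0, ∃ δ > 0, ∀ᶠ z in eK E K.1,
      hi K.1 - δ < z.re → |φ z - R K| ≤ e K + ε)
    (hL : ∀ K : Cmp E, wd K.1 ≠ 0 → ∀ ε > 0, ∃ δ > 0, ∀ᶠ z in eK E K.1,
      z.re < lo K.1 + δ → |φ z - L K| ≤ e K + ε)
    (hs : Summable fun K : Cmp E => wd K.1 * (R K - L K))
    (hse : Summable fun K : Cmp E => wd K.1 * e K) :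
    |(∫ w in Eᶜ, fderiv ℝ φ w 1) + ∑' K : Cmp E, wd K.1 * (R K - L K)| ≤
      2 * ∑' K : Cmp E, wd K.1 * e K := by
  obtain ⟨R1, hR1⟩ := hE.isBounded.exists_norm_le
  obtain ⟨u0, hu0, hu0e⟩ := exists_u0 hE hsum (R1 + 1)
  have hnb : ∀ K : Cmp E, ∀ᶠ z in eK E K.1, u0 z = z.re := by
    intro K
    refine mem_eK.2 ⟨ball 0 (R1 + 1), isOpen_ball, fun z hz => ?_, fun z hz _ => ?_⟩
    · have h2 := hR1 z (K.subset hz)
      rw [mem_ball_zero_iff]; linarith
    · exact hu0e z (mem_ball_zero_iff.1 hz).le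
  have hosc0 : ∀ (g : ℂ → ℝ) (K : Cmp E), osc E (fun z => u0 z + g z) K.1
      = osc E (fun z => z.re + g z) K.1 := by
    intro g K
    refine osc_congr (O := ball 0 (R1 + 1)) isOpen_ball (fun z hz => ?_) fun z hz _ => ?_
    · have h2 := hR1 z (K.subset hz)
      rw [mem_ball_zero_iff]; linarith
    · show u0 z + g z = z.re + g z
      rw [hu0e z (mem_ball_zero_iff.1 hz).le]
  have hosc1 : ∀ K : Cmp E, osc E u0 K.1 = osc E (fun z => z.re) K.1 := by
    intro K
    have := hosc0 (fun _ => 0) K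
    simpa using this
  have hwd : ∀ K : Cmp E, osc E u0 K.1 = wd K.1 := fun K => by rw [hosc1, osc_re hE]; rfl
  have hcl : IsClosed E := hE.isClosed
  have hmin : Elf_600.MinAt E u0 φ (∫ w in Eᶜ, fderiv ℝ φ w 1) (∫ w in Eᶜ, Bd_775.en φ w) := by
    intro t
    have h := hm t
    unfold MINT at h
    have h2 : TT E (fun z => u0 z + t * φ z) := hu0.add hcl ((TT.const t).mul hcl hφ)
    have e1 : ∑' K : Cmp E, (osc E (fun w => w.re + t * φ w) K.1 ^ 2
        - osc E (fun w => w.re) K.1 ^ 2)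
        = ∑' K : Cmp E, osc E (fun z => u0 z + t * φ z) K.1 ^ 2
          - ∑' K : Cmp E, osc E u0 K.1 ^ 2 := by
      rw [← h2.sum.tsum_sub hu0.sum]
      exact tsum_congr fun K => by rw [hosc0 (fun z => t * φ z) K, hosc1 K]
    have e2 : ∫ w in Eᶜ, fderiv ℝ (fun w => t * φ w) w 1 = t * ∫ w in Eᶜ, fderiv ℝ φ w 1 := by
      rw [← integral_const_mul]
      congr 1
      funext w
      rw [fderiv_const_mul']; simp
    have e3 : ∫ w in Eᶜ, Bd_775.en (fun w => t * φ w) w = t ^ 2 * ∫ w in Eᶜ, Bd_775.en φ w := by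
      rw [← integral_const_mul]
      congr 1
      funext w
      simp only [Bd_775.en, Bd_775.gx, Bd_775.gy]
      rw [fderiv_const_mul']
      simp only [_root_.smul_apply, smul_eq_mul]
      ring
    rw [e1, e2, e3] at h
    linarith
  have hrng : ∀ K : Cmp E, Elf_600.Rng E u0 K.1 (lo K.1) (hi K.1) := by
    intro K
    refine ⟨lo_le_hi (K.isCompact hE) K.nonempty, fun ε hε => ?_, fun ε hε => ?_, (hwd K).symm⟩
    · have h1 : ∀ᶠ z in eK E K.1, lo K.1 - ε < z.re :=
        mem_eK.2 ⟨{z | lo K.1 - ε < z.re}, isOpen_lt continuous_const Complex.continuous_re,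
          fun z hz => by
            have := lo_le (K.isCompact hE) hz
            simp only [mem_ofPred_eq]; linarith, fun z hz _ => hz⟩
      filter_upwards [h1, hnb K] with z h2 h3
      rw [h3]; exact h2
    · have h1 : ∀ᶠ z in eK E K.1, z.re < hi K.1 + ε :=
        mem_eK.2 ⟨{z | z.re < hi K.1 + ε}, isOpen_lt Complex.continuous_re continuous_const,
          fun z hz => by
            have := le_hi (K.isCompact hE) hz
            simp only [mem_ofPred_eq]; linarith, fun z hz _ => hz⟩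
      filter_upwards [h1, hnb K] with z h2 h3
      rw [h3]; exact h2
  have h := Elf_600.faces (R := R) (L := L) (e := e) hu0 hφ hmin (fun K _ => hrng K)
    (fun K h0 ε hε => by
      obtain ⟨δ, hδ, h1⟩ := hR K (by rwa [hwd] at h0) ε hε
      refine ⟨δ, hδ, ?_⟩
      filter_upwards [h1, hnb K] with z h2 h3 h4
      exact h2 (by rwa [h3] at h4))
    (fun K h0 ε hε => by
      obtain ⟨δ, hδ, h1⟩ := hL K (by rwa [hwd] at h0) ε hε
      refine ⟨δ, hδ, ?_⟩
      filter_upwards [h1, hnb K] with z h2 h3 h4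
      exact h2 (by rwa [h3] at h4))
    (by simpa only [hwd] using hs) (by simpa only [hwd] using hse)
  simpa only [hwd] using h

end Crest.Agent.R105.Nlq_138
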