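import Crest.Agent.R105.Nlq2_138

/-!
# Row 105, S0138 (ATN (2)(b) of 403 #10534): E-L for the test functions `χ H(v) h(re)` (helper138)

* `ch R` : cut-off, `1` near `E`;  `el_test` : E-L with faces for `ch R · H(v) h(re)`;
* `fderiv_test` : the `x`-derivative, a.e.;  `int_test` : the integral over `Eᶜ`.
-/

set_option autoImplicit false

open Set MeasureTheory Filter Topology Metric
open scoped ENNReal NNReal ContDiff

namespace Crest.Agent.R105.Nlq_138

open Tc_808 Sqr_185 Pct_185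
open Sct_636 (LCE)

variable {E : Set ℂ} {v : ℂ → ℝ} {R : ℝ} {H h : ℝ → ℝ} {L K : ℝ≥0}

/-! ### cut-offs -/

/-- bump on the line: `1` on `[-R, R]`, `0` off `[-R-1, R+1]` -/
noncomputable def bm (R : ℝ) (hR : 0 < R) : ContDiffBump (0 : ℝ) := ⟨R, R + 1, hR, by linarith⟩

/-- cut-off in the plane -/
noncomputable def ch (R : ℝ) (hR : 0 < R) (w : ℂ) : ℝ := bm R hR w.re * bm R hR w.im

theorem bm_one (hR : 0 < R) {x : ℝ} (hx : |x| ≤ R) : bm R hR x = 1 :=
  (bm R hR).one_of_mem_closedBall (mem_closedBall_zero_iff.2 hx)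

theorem bm_zero (hR : 0 < R) {x : ℝ} (hx : R + 1 ≤ |x|) : bm R hR x = 0 :=
  (bm R hR).zero_of_le_dist (by rw [dist_zero_right]; exact hx)

theorem bm_nonneg (hR : 0 < R) (x : ℝ) : 0 ≤ bm R hR x := (bm R hR).nonneg
theorem bm_le_one (hR : 0 < R) (x : ℝ) : bm R hR x ≤ 1 := (bm R hR).le_one

theorem contDiff_ch (hR : 0 < R) : ContDiff ℝ ∞ (ch R hR) :=
  ((bm R hR).contDiff.comp Complex.reCLM.contDiff).mul
    ((bm R hR).contDiff.comp Complex.imCLM.contDiff)

theorem ch_supp (hR : 0 < R) : HasCompactSupport (ch R hR) := by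
  refine HasCompactSupport.of_support_subset_isCompact (isCompact_closedBall (0 : ℂ) (2 * (R + 1)))
    fun w hw => ?_
  have h1 : |w.re| < R + 1 := by
    by_contra hc
    exact hw (by unfold ch; rw [bm_zero hR (not_lt.1 hc), zero_mul])
  have h2 : |w.im| < R + 1 := by
    by_contra hc
    exact hw (by unfold ch; rw [bm_zero hR (not_lt.1 hc), mul_zero])
  rw [mem_closedBall_zero_iff]
  have := Complex.norm_le_abs_re_add_abs_im w
  linarith

theorem re_lt {w : ℂ} (hE : E ⊆ ball 0 R) (hw : w ∈ E) : |w.re| < R :=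
  (Complex.abs_re_le_norm w).trans_lt (mem_ball_zero_iff.1 (hE hw))

theorem im_lt {w : ℂ} (hE : E ⊆ ball 0 R) (hw : w ∈ E) : |w.im| < R :=
  (Complex.abs_im_le_norm w).trans_lt (mem_ball_zero_iff.1 (hE hw))

theorem ch_one (hR : 0 < R) {w : ℂ} (h : w ∈ ball (0 : ℂ) R) : ch R hR w = 1 := by
  have h1 : ball (0 : ℂ) R ⊆ ball 0 R := subset_rfl
  unfold ch
  rw [bm_one hR (re_lt h1 h).le, bm_one hR (im_lt h1 h).le, mul_one]

theorem ch_near (hR : 0 < R) (hE : E ⊆ ball 0 R) (M : Cmp E) : ∀ᶠ z in eK E M.1, ch R hR z = 1 :=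
  mem_eK.2 ⟨ball 0 R, isOpen_ball, M.subset.trans hE, fun _ hz _ => ch_one hR hz⟩

theorem lce_ch (hR : 0 < R) (hE : E ⊆ ball 0 R) : LCE E (ch R hR) where
  smooth := contDiff_ch hR
  supp := ch_supp hR
  lc := fun z hz => by
    filter_upwards [isOpen_ball.mem_nhds (hE hz)] with w hw
    rw [ch_one hR hw, ch_one hR (hE hz)]

/-! ### the test function -/

/-- the test functions are `T`-finite -/
theorem tt_test (hE : IsCompact E) (hsum : Summable fun L : Cmp E => wd L.1 ^ 2) (hv : TT E v)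
    (hR : 0 < R) (hER : E ⊆ ball 0 R) (hH : LipschitzWith L H) (hh : LipschitzWith K h) :
    TT E (fun w => ch R hR w * (H (v w) * h w.re)) := by
  obtain ⟨R1, hR1⟩ := (ch_supp hR).isCompact.isBounded.exists_norm_le
  obtain ⟨u0, hu0, hu0e⟩ := exists_u0 hE hsum R1
  have e : (fun w => ch R hR w * (H (v w) * h w.re)) =
      fun w => ch R hR w * (H (v w) * h (u0 w)) := by
    funext w
    by_cases hw : w ∈ tsupport (ch R hR)
    · rw [hu0e w (hR1 w hw)]
    · rw [image_eq_zero_of_notMem_tsupport hw, zero_mul, zero_mul]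
  rw [e]
  exact (TT.lc (LCE.LC (lce_ch hR hER))).mul hE.isClosed
    ((hv.comp hE.isClosed hH).mul hE.isClosed (hu0.comp hE.isClosed hh))

/-- one face -/
theorem face_bound {z : ℂ} {x o c ε : ℝ} (hH : LipschitzWith L H) (hh : LipschitzWith K h)
    (hH1 : ∀ t, 0 ≤ H t ∧ H t ≤ 1) (hh1 : ∀ x, |h x| ≤ 1)
    (h1 : |v z - c| ≤ o + ε) (h2 : |z.re - x| ≤ ε) :
    |H (v z) * h z.re - H c * h x| ≤ L * o * |h x| + (K + L) * ε := by
  have e : H (v z) * h z.re - H c * h x = H (v z) * (h z.re - h x) + (H (v z) - H c) * h x := by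
    ring
  have a1 := hh.dist_le_mul z.re x
  have a2 := hH.dist_le_mul (v z) c
  rw [Real.dist_eq, Real.dist_eq] at a1 a2
  have hε : 0 ≤ ε := (abs_nonneg _).trans h2
  have b1 : |H (v z) * (h z.re - h x)| ≤ K * ε := by
    rw [abs_mul, abs_of_nonneg (hH1 _).1]
    calc H (v z) * |h z.re - h x| ≤ 1 * (K * ε) := by
          refine mul_le_mul (hH1 _).2 (a1.trans (mul_le_mul_of_nonneg_left h2 K.2)) (abs_nonneg _)
            zero_le_one
      _ = K * ε := one_mul _
  have b2 : |(H (v z) - H c) * h x| ≤ L * o * |h x| + L * ε := by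
    rw [abs_mul]
    have c1 : |H (v z) - H c| ≤ L * (o + ε) := a2.trans (mul_le_mul_of_nonneg_left h1 L.2)
    calc |H (v z) - H c| * |h x| ≤ (L * (o + ε)) * |h x| :=
          mul_le_mul_of_nonneg_right c1 (abs_nonneg _)
      _ = L * o * |h x| + L * ε * |h x| := by ring
      _ ≤ L * o * |h x| + L * ε * 1 := by
          have : L * ε * |h x| ≤ L * ε * 1 :=
            mul_le_mul_of_nonneg_left (hh1 _) (mul_nonneg L.2 hε)
          linarith
      _ = _ := by ring
  rw [e]
  calc |H (v z) * (h z.re - h x) + (H (v z) - H c) * h x|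
      ≤ |H (v z) * (h z.re - h x)| + |(H (v z) - H c) * h x| := abs_add_le _ _
    _ ≤ K * ε + (L * o * |h x| + L * ε) := add_le_add b1 b2
    _ = _ := by ring

/-- **E-L with faces for `χ H(v) h(re)`** -/
theorem el_test (hE : IsCompact E) (hsum : Summable fun L : Cmp E => wd L.1 ^ 2) (hv : TT E v)
    (hR : 0 < R) (hER : E ⊆ ball 0 R) {c : Cmp E → ℝ}
    (hc : ∀ M : Cmp E, ∀ ε > 0, ∀ᶠ z in eK E M.1, |v z - c M| ≤ osc E v M.1 + ε)
    (hH : LipschitzWith L H) (hh : LipschitzWith K h) (hH1 : ∀ t, 0 ≤ H t ∧ H t ≤ 1)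
    (hh1 : ∀ x, |h x| ≤ 1)
    (hm : ∀ τ : ℝ, MINT E (fun w => τ * (ch R hR w * (H (v w) * h w.re)))) :
    |(∫ w in Eᶜ, fderiv ℝ (fun w => ch R hR w * (H (v w) * h w.re)) w 1) +
      ∑' M : Cmp E, wd M.1 * (H (c M) * h (hi M.1) - H (c M) * h (lo M.1))| ≤
      2 * ∑' M : Cmp E, wd M.1 * (L * osc E v M.1 * (|h (hi M.1)| + |h (lo M.1)|)) := by
  have hw0 : ∀ M : Cmp E, 0 ≤ wd M.1 := fun M => by
    have := lo_le_hi (M.isCompact hE) M.nonempty
    simp only [wd]; linarith
  have hso : Summable fun M : Cmp E => wd M.1 * osc E v M.1 :=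
    Elf_600.summable_mul_of_sq hsum hv.sum
  refine faces_pic hE hsum (tt_test hE hsum hv hR hER hH hh) hm ?_ ?_ ?_ ?_
  · intro M _ ε hε
    set ε1 : ℝ := ε / (K + L + 1) with hε1
    have hp : (0 : ℝ) < K + L + 1 := by positivity
    have hε10 : 0 < ε1 := div_pos hε hp
    have hle : (K + L) * ε1 ≤ ε := by
      rw [hε1, mul_div_assoc', div_le_iff₀ hp]; nlinarith
    refine ⟨ε1, hε10, ?_⟩
    have hnear : ∀ᶠ z in eK E M.1, z.re < hi M.1 + ε1 :=
      mem_eK.2 ⟨{z | z.re < hi M.1 + ε1}, isOpen_lt Complex.continuous_re continuous_const,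
        fun z hz => by
          have := le_hi (M.isCompact hE) hz
          simp only [mem_ofPred_eq]; linarith, fun z hz _ => hz⟩
    filter_upwards [hnear, hc M ε1 hε10, ch_near hR hER M] with z h1 h2 h3 h4
    rw [h3, one_mul]
    have h5 := face_bound (z := z) (x := hi M.1) (c := c M) hH hh hH1 hh1 h2
      (abs_le.2 ⟨by linarith, by linarith⟩)
    have h6 : 0 ≤ (L : ℝ) * osc E v M.1 * |h (lo M.1)| := by
      have := osc_nonneg E v M.1
      positivity
    linarith
  · intro M _ ε hε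
    set ε1 : ℝ := ε / (K + L + 1) with hε1
    have hp : (0 : ℝ) < K + L + 1 := by positivity
    have hε10 : 0 < ε1 := div_pos hε hp
    have hle : (K + L) * ε1 ≤ ε := by
      rw [hε1, mul_div_assoc', div_le_iff₀ hp]; nlinarith
    refine ⟨ε1, hε10, ?_⟩
    have hnear : ∀ᶠ z in eK E M.1, lo M.1 - ε1 < z.re :=
      mem_eK.2 ⟨{z | lo M.1 - ε1 < z.re}, isOpen_lt continuous_const Complex.continuous_re,
        fun z hz => by
          have := lo_le (M.isCompact hE) hz
          simp only [mem_ofPred_eq]; linarith, fun z hz _ => hz⟩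
    filter_upwards [hnear, hc M ε1 hε10, ch_near hR hER M] with z h1 h2 h3 h4
    rw [h3, one_mul]
    have h5 := face_bound (z := z) (x := lo M.1) (c := c M) hH hh hH1 hh1 h2
      (abs_le.2 ⟨by linarith, by linarith⟩)
    have h6 : 0 ≤ (L : ℝ) * osc E v M.1 * |h (hi M.1)| := by
      have := osc_nonneg E v M.1
      positivity
    linarith
  · refine Summable.of_norm_bounded (hsum.mul_left (K : ℝ)) fun M => ?_
    have h1 := hh.dist_le_mul (hi M.1) (lo M.1)
    rw [Real.dist_eq, Real.dist_eq, abs_of_nonneg (a := hi M.1 - lo M.1) (hw0 M)] at h1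
    rw [← mul_sub, Real.norm_eq_abs, abs_mul, abs_mul, abs_of_nonneg (hw0 M),
      abs_of_nonneg (hH1 _).1]
    have h2 : H (c M) * |h (hi M.1) - h (lo M.1)| ≤ 1 * (K * wd M.1) :=
      mul_le_mul (hH1 _).2 h1 (abs_nonneg _) zero_le_one
    calc wd M.1 * (H (c M) * |h (hi M.1) - h (lo M.1)|) ≤ wd M.1 * (1 * (K * wd M.1)) :=
          mul_le_mul_of_nonneg_left h2 (hw0 M)
      _ = K * wd M.1 ^ 2 := by ring
  · refine Summable.of_nonneg_of_le (fun M => ?_) (fun M => ?_) (hso.mul_left (2 * (L : ℝ)))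
    · have := osc_nonneg E v M.1
      have := hw0 M
      positivity
    · have h1 : |h (hi M.1)| + |h (lo M.1)| ≤ 2 := by
        have := hh1 (hi M.1)
        have := hh1 (lo M.1)
        linarith
      have h2 : 0 ≤ wd M.1 * (L * osc E v M.1) :=
        mul_nonneg (hw0 M) (mul_nonneg L.2 (osc_nonneg _ _ _))
      calc wd M.1 * (L * osc E v M.1 * (|h (hi M.1)| + |h (lo M.1)|))
          = wd M.1 * (L * osc E v M.1) * (|h (hi M.1)| + |h (lo M.1)|) := by ring
        _ ≤ wd M.1 * (L * osc E v M.1) * 2 := mul_le_mul_of_nonneg_left h1 h2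
        _ = _ := by ring

/-! ### the derivative of the test function -/

/-- Rademacher on vertical strips -/
theorem ae_diff_re (hh : LipschitzWith K h) : ∀ᵐ w : ℂ, DifferentiableAt ℝ h w.re := by
  have h1 : ∀ᵐ x : ℝ, DifferentiableAt ℝ h x := hh.ae_differentiableAt
  have h2 : ∀ᵐ p : ℝ × ℝ, DifferentiableAt ℝ h p.1 :=
    (Measure.quasiMeasurePreserving_fst (μ := (volume : Measure ℝ))
      (ν := (volume : Measure ℝ))).ae h1
  exact Complex.volume_preserving_equiv_real_prod.quasiMeasurePreserving.ae h2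

theorem fderiv_test (hE : IsCompact E) (hv : TT E v) (hR : 0 < R)
    (hH : LipschitzWith L H) (hh : LipschitzWith K h) {a b : ℝ} (ha : -R < a) (hb : b < R)
    (hab : ∀ x ∉ Icc a b, h x = 0) :
    ∀ᵐ w ∂(volume.restrict Eᶜ), fderiv ℝ (fun w => ch R hR w * (H (v w) * h w.re)) w 1 =
      bm R hR w.im * (deriv h w.re * H (v w)) +
        bm R hR w.im * (h w.re * fderiv ℝ (fun z => H (v z)) w 1) := by
  filter_upwards [(hv.comp hE.isClosed hH).q.ae_diff hE.isClosed,
    ae_restrict_of_ae (ae_diff_re hh)] with w h1 h2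
  have h3 : HasFDerivAt (fun z : ℂ => h z.re) (deriv h w.re • Complex.reCLM) w :=
    h2.hasDerivAt.comp_hasFDerivAt w Complex.reCLM.hasFDerivAt
  have h4 : DifferentiableAt ℝ (ch R hR) w := (contDiff_ch hR).differentiable (by simp) w
  have h5 : DifferentiableAt ℝ (fun z : ℂ => H (v z) * h z.re) w := h1.mul h3.differentiableAt
  rw [fderiv_fun_mul h4 h5, fderiv_fun_mul h1 h3.differentiableAt, h3.fderiv]
  simp only [_root_.add_apply, _root_.smul_apply, smul_eq_mul, Complex.reCLM_apply,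
    Complex.one_re, mul_one]
  by_cases hx : w.re ∈ Ioo (-R) R
  · -- the horizontal cut-off is one near `w`
    have e1 : (fun z => ch R hR z) =ᶠ[𝓝 w] fun z => bm R hR z.im := by
      have : ∀ᶠ z : ℂ in 𝓝 w, z.re ∈ Ioo (-R) R :=
        Complex.continuous_re.continuousAt.eventually_mem (Ioo_mem_nhds hx.1 hx.2)
      filter_upwards [this] with z hz
      unfold ch
      rw [bm_one hR (abs_le.2 ⟨hz.1.le, hz.2.le⟩), one_mul]
    have e2 : fderiv ℝ (ch R hR) w 1 = 0 := by
      have h6 : fderiv ℝ (ch R hR) w = fderiv ℝ (fun z : ℂ => bm R hR z.im) w :=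
        Filter.EventuallyEq.fderiv_eq e1
      have h7 : HasFDerivAt (fun z : ℂ => bm R hR z.im) (deriv (bm R hR) w.im • Complex.imCLM) w :=
        (((bm R hR).contDiff (n := 1)).differentiable (by simp) w.im).hasDerivAt.comp_hasFDerivAt w
          Complex.imCLM.hasFDerivAt
      rw [h6, h7.fderiv]
      simp
    have e3 : ch R hR w = bm R hR w.im := e1.self_of_nhds
    rw [e2, e3]
    ring
  · have h6 : w.re ∉ Icc a b := fun hc => hx ⟨by linarith [hc.1], by linarith [hc.2]⟩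
    have h7 : h w.re = 0 := hab _ h6
    have h8 : deriv h w.re = 0 := by
      have : h =ᶠ[𝓝 w.re] fun _ => (0 : ℝ) := by
        filter_upwards [isClosed_Icc.isOpen_compl.mem_nhds h6] with x hx
        exact hab x hx
      rw [this.deriv_eq]; simp
    rw [h7, h8]
    ring

end Crest.Agent.R105.Nlq_138
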