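import Crest.Agent.R105.Nlq3_138

/-!
# Row 105, S0138 (ATN (2)(b) of 403 #10534): the law of `(re, v)` on the picture (helper138)

`LamV + LamS` : law of `(re, v)` on `Eᶜ` plus the solids at the value `c L`;
`nuV + nuS` : control of its variation.  `law : Law (LamV + LamS) (nuV + nuS) ..`.
-/

set_option autoImplicit false

open Set MeasureTheory Filter Topology Metric
open scoped ENNReal NNReal ContDiff

namespace Crest.Agent.R105.Nlq_138

open Tc_808 Sqr_185 Pct_185
open Sct_636 (LCE)

variable {E : Set ℂ} {v : ℂ → ℝ} {R : ℝ} {c : Cmp E → ℝ}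

/-- planar part of the law -/
noncomputable def LamV (E : Set ℂ) (v : ℂ → ℝ) (R : ℝ) (hR : 0 < R) : Measure (ℝ × ℝ) :=
  ((volume.restrict Eᶜ).withDensity
    (fun w : ℂ => ((Real.toNNReal (bm R hR w.im) : ℝ≥0) : ℝ≥0∞))).map (fun w => (w.re, v w))

/-- the solids -/
noncomputable def LamS (E : Set ℂ) (c : Cmp E → ℝ) : Measure (ℝ × ℝ) :=
  Measure.sum fun M : Sol E => ENNReal.ofReal (wd M.1.1) •
    (volume.restrict (Ioo (lo M.1.1) (hi M.1.1))).map (fun x : ℝ => (x, c M.1))

/-- planar part of the control -/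
noncomputable def nuV (E : Set ℂ) (v : ℂ → ℝ) (R : ℝ) (hR : 0 < R) : Measure ℝ :=
  ((volume.restrict (Eᶜ ∩ {w | |w.re| ≤ R})).withDensity
    (fun w : ℂ => ((Real.toNNReal (bm R hR w.im * |fderiv ℝ v w 1|) : ℝ≥0) : ℝ≥0∞))).map Complex.re

/-- faces -/
noncomputable def nuS (E : Set ℂ) (v : ℂ → ℝ) : Measure ℝ :=
  Measure.sum fun M : Sol E => ENNReal.ofReal (2 * (wd M.1.1 * osc E v M.1.1)) •
    (Measure.dirac (lo M.1.1) + Measure.dirac (hi M.1.1))

theorem wd_nonneg (hE : IsCompact E) (M : Cmp E) : 0 ≤ wd M.1 := by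
  have := lo_le_hi (M.isCompact hE) M.nonempty
  simp only [wd]; linarith

/-! ### marginals -/

theorem volume_re_inter (s : Set ℝ) (hs : MeasurableSet s) (a b : ℝ) :
    volume {w : ℂ | w.re ∈ s ∧ w.im ∈ Ioo a b} = volume s * ENNReal.ofReal (b - a) := by
  have h2 := Complex.volume_preserving_equiv_real_prod.measure_preimage
    (s := s ×ˢ Ioo a b) (hs.prod measurableSet_Ioo).nullMeasurableSet
  rw [Measure.volume_eq_prod, Measure.prod_prod, Real.volume_Ioo] at h2
  exact h2

theorem aem (hE : IsClosed E) (hv : TT E v) :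
    AEMeasurable (fun w : ℂ => (w.re, v w)) (volume.restrict Eᶜ) := by
  refine Complex.measurable_re.aemeasurable.prodMk ?_
  exact hv.q.loc.continuousOn.aemeasurable hE.isOpen_compl.measurableSet

theorem marg_V (hE : IsClosed E) (hv : TT E v) (hR : 0 < R) (s : Set ℝ) (hs : MeasurableSet s) :
    LamV E v R hR (s ×ˢ univ) ≤ ENNReal.ofReal (2 * (R + 1)) * volume s := by
  have hac : (volume.restrict Eᶜ).withDensity
      (fun w : ℂ => ((Real.toNNReal (bm R hR w.im) : ℝ≥0) : ℝ≥0∞)) ≪ volume.restrict Eᶜ :=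
    withDensity_absolutelyContinuous _ _
  unfold LamV
  rw [Measure.map_apply_of_aemeasurable ((aem hE hv).mono_ac hac) (hs.prod MeasurableSet.univ)]
  have hset : (fun w : ℂ => (w.re, v w)) ⁻¹' (s ×ˢ univ) = {w : ℂ | w.re ∈ s} := by
    ext w; simp
  have hms : MeasurableSet {w : ℂ | w.re ∈ s} := Complex.measurable_re hs
  rw [hset, withDensity_apply _ hms]
  have hm : MeasurableSet {w : ℂ | w.im ∈ Ioo (-(R + 1)) (R + 1)} :=
    Complex.measurable_im measurableSet_Ioo
  calc ∫⁻ w in {w : ℂ | w.re ∈ s}, ((Real.toNNReal (bm R hR w.im) : ℝ≥0) : ℝ≥0∞)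
        ∂(volume.restrict Eᶜ)
      ≤ ∫⁻ w in {w : ℂ | w.re ∈ s}, {w : ℂ | w.im ∈ Ioo (-(R + 1)) (R + 1)}.indicator
          (fun _ => (1 : ℝ≥0∞)) w ∂(volume.restrict Eᶜ) := by
        refine lintegral_mono fun w => ?_
        by_cases hw : w ∈ {w : ℂ | w.im ∈ Ioo (-(R + 1)) (R + 1)}
        · rw [indicator_of_mem hw]
          have : Real.toNNReal (bm R hR w.im) ≤ 1 := by
            rw [Real.toNNReal_le_one]; exact bm_le_one hR _
          exact ENNReal.coe_le_one_iff.2 this
        · rw [indicator_of_notMem hw]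
          have : bm R hR w.im = 0 := by
            refine bm_zero hR ?_
            by_contra hc
            exact hw (abs_lt.1 (not_le.1 hc))
          simp [this]
    _ ≤ ∫⁻ w in {w : ℂ | w.re ∈ s}, {w : ℂ | w.im ∈ Ioo (-(R + 1)) (R + 1)}.indicator
          (fun _ => (1 : ℝ≥0∞)) w ∂volume :=
        lintegral_mono' (Measure.restrict_mono_measure Measure.restrict_le_self _) le_rfl
    _ = volume {w : ℂ | w.re ∈ s ∧ w.im ∈ Ioo (-(R + 1)) (R + 1)} := by
        rw [lintegral_indicator hm, lintegral_const, one_mul, Measure.restrict_apply MeasurableSet.univ,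
          univ_inter, Measure.restrict_apply hm]
        congr 1
        ext w; simp only [mem_inter_iff, mem_ofPred_eq]; tauto
    _ = ENNReal.ofReal (2 * (R + 1)) * volume s := by
        rw [volume_re_inter s hs, mul_comm]
        congr 2; ring

theorem measurableSet_sec {K : Set ℂ} (hK : IsClosed K) (t : ℝ) : MeasurableSet (sec K t) := by
  have : IsClosed (sec K t) := by
    have hc : Continuous fun y : ℝ => (⟨t, y⟩ : ℂ) :=
      continuous_mk.comp (continuous_const.prodMk continuous_id)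
    exact hK.preimage hc
  exact this.measurableSet

/-- the solids over a line have total length `≤ 2 R` -/
theorem ae_sum_le (hP : PicT E) (hER : E ⊆ ball 0 R) :
    ∀ᵐ x : ℝ, ∑' M : Sol E, (Ioo (lo M.1.1) (hi M.1.1)).indicator
      (fun _ => ENNReal.ofReal (wd M.1.1)) x ≤ ENNReal.ofReal (2 * R) := by
  have := countable_sol hP.sum
  have h1 : ∀ᵐ x : ℝ, ∀ M : Sol E, volume (sec M.1.1 x)
      = (Icc (lo M.1.1) (hi M.1.1)).indicator (fun _ => ENNReal.ofReal (wd M.1.1)) x :=
    ae_all_iff.2 fun M => hP.vol M.1 M.2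
  filter_upwards [h1] with x hx
  calc ∑' M : Sol E, (Ioo (lo M.1.1) (hi M.1.1)).indicator (fun _ => ENNReal.ofReal (wd M.1.1)) x
      ≤ ∑' M : Sol E, volume (sec M.1.1 x) := by
        refine ENNReal.tsum_le_tsum fun M => ?_
        rw [hx M]
        exact indicator_le_indicator_of_subset Ioo_subset_Icc_self (fun _ => zero_le) x
    _ = volume (⋃ M : Sol E, sec M.1.1 x) := by
        refine (measure_iUnion ?_ fun M => measurableSet_sec (M.1.isCompact hP.cpt).isClosed x).symm
        intro M M' hne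
        refine disjoint_left.2 fun y hy hy' => ?_
        have hd := Cmp.disjoint (fun h : M.1 = M'.1 => hne (Subtype.ext h))
        exact disjoint_left.1 hd hy hy'
    _ ≤ volume (Ioo (-R) R) := by
        refine measure_mono (iUnion_subset fun M y hy => ?_)
        have h2 : (⟨x, y⟩ : ℂ) ∈ E := M.1.subset hy
        have h3 := im_lt hER h2
        exact abs_lt.1 h3
    _ = ENNReal.ofReal (2 * R) := by
        rw [Real.volume_Ioo]; congr 1; ring

theorem LamS_apply [Countable (Sol E)] {A : Set (ℝ × ℝ)} (hA : MeasurableSet A) :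
    LamS E c A = ∑' M : Sol E, ENNReal.ofReal (wd M.1.1) *
      volume ({x : ℝ | (x, c M.1) ∈ A} ∩ Ioo (lo M.1.1) (hi M.1.1)) := by
  unfold LamS
  rw [Measure.sum_apply _ hA]
  refine tsum_congr fun M => ?_
  have h1 : MeasurableSet ((fun x : ℝ => (x, c M.1)) ⁻¹' A) :=
    (measurable_id.prodMk measurable_const) hA
  rw [Measure.smul_apply, smul_eq_mul, Measure.map_apply (by fun_prop) hA,
    Measure.restrict_apply h1]
  rfl

theorem marg_S (hP : PicT E) (hER : E ⊆ ball 0 R) (s : Set ℝ) (hs : MeasurableSet s) :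
    LamS E c (s ×ˢ univ) ≤ ENNReal.ofReal (2 * R) * volume s := by
  have := countable_sol hP.sum
  rw [LamS_apply (hs.prod MeasurableSet.univ)]
  have h1 : ∀ M : Sol E, ENNReal.ofReal (wd M.1.1) *
      volume ({x : ℝ | (x, c M.1) ∈ s ×ˢ (univ : Set ℝ)} ∩ Ioo (lo M.1.1) (hi M.1.1)) =
      ∫⁻ x in s, (Ioo (lo M.1.1) (hi M.1.1)).indicator (fun _ => ENNReal.ofReal (wd M.1.1)) x := by
    intro M
    rw [lintegral_indicator measurableSet_Ioo, lintegral_const,
      Measure.restrict_restrict measurableSet_Ioo, Measure.restrict_apply MeasurableSet.univ,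
      univ_inter, inter_comm]
    congr 2
    ext x; simp
  calc _ = ∑' M : Sol E, ∫⁻ x in s, (Ioo (lo M.1.1) (hi M.1.1)).indicator
        (fun _ => ENNReal.ofReal (wd M.1.1)) x := tsum_congr h1
    _ = ∫⁻ x in s, ∑' M : Sol E, (Ioo (lo M.1.1) (hi M.1.1)).indicator
        (fun _ => ENNReal.ofReal (wd M.1.1)) x := by
        rw [lintegral_tsum fun M => (measurable_const.indicator measurableSet_Ioo).aemeasurable]
    _ ≤ ∫⁻ _ in s, ENNReal.ofReal (2 * R) :=
        lintegral_mono_ae (ae_restrict_of_ae (ae_sum_le hP hER))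
    _ = _ := by rw [lintegral_const, Measure.restrict_apply MeasurableSet.univ, univ_inter]

/-! ### finiteness and atoms -/

theorem finite_nuV (hv : TT E v) (hR : 0 < R) : IsFiniteMeasure (nuV E v R hR) := by
  refine ⟨?_⟩
  unfold nuV
  rw [Measure.map_apply Complex.measurable_re MeasurableSet.univ, preimage_univ,
    withDensity_apply _ MeasurableSet.univ, Measure.restrict_univ]
  have hm : MeasurableSet {w : ℂ | w.im ∈ Ioo (-(R + 1)) (R + 1)} :=
    Complex.measurable_im measurableSet_Ioo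
  have hmz : MeasurableSet {w : ℂ | |w.re| ≤ R} :=
    (isClosed_le (continuous_abs.comp Complex.continuous_re) continuous_const).measurableSet
  have hen : ∫⁻ w in Eᶜ, ENNReal.ofReal (Bd_775.en v w) < ⊤ := by
    have := hv.q.fin.2
    rw [hasFiniteIntegral_iff_ofReal (ae_of_all _ fun w => Bd_775.en_nonneg v w)] at this
    exact this
  have hZ : volume ({w : ℂ | |w.re| ≤ R} ∩ {w : ℂ | w.im ∈ Ioo (-(R + 1)) (R + 1)}) < ⊤ := by
    have h1 := volume_re_inter (Icc (-R) R) measurableSet_Icc (-(R + 1)) (R + 1)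
    have h2 : {w : ℂ | |w.re| ≤ R} ∩ {w : ℂ | w.im ∈ Ioo (-(R + 1)) (R + 1)} =
        {w : ℂ | w.re ∈ Icc (-R) R ∧ w.im ∈ Ioo (-(R + 1)) (R + 1)} := by
      ext w; simp only [mem_inter_iff, mem_ofPred_eq, abs_le, mem_Icc]
    rw [h2, h1, Real.volume_Icc]
    exact ENNReal.mul_lt_top ENNReal.ofReal_lt_top ENNReal.ofReal_lt_top
  calc ∫⁻ w in Eᶜ ∩ {w | |w.re| ≤ R}, ((Real.toNNReal (bm R hR w.im * |fderiv ℝ v w 1|) : ℝ≥0) : ℝ≥0∞)
      ≤ ∫⁻ w in Eᶜ ∩ {w | |w.re| ≤ R}, (ENNReal.ofReal (Bd_775.en v w) +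
          {w : ℂ | w.im ∈ Ioo (-(R + 1)) (R + 1)}.indicator (fun _ => (1 : ℝ≥0∞)) w) := by
        refine lintegral_mono fun w => ?_
        change ENNReal.ofReal (bm R hR w.im * |fderiv ℝ v w 1|) ≤ _
        by_cases hw : w ∈ {w : ℂ | w.im ∈ Ioo (-(R + 1)) (R + 1)}
        · rw [indicator_of_mem hw, ← ENNReal.ofReal_one, ← ENNReal.ofReal_add (Bd_775.en_nonneg v w)
            zero_le_one]
          refine ENNReal.ofReal_le_ofReal ?_
          have h1 : |fderiv ℝ v w 1| ≤ Bd_775.en v w + 1 := by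
            unfold Bd_775.en Bd_775.gx
            nlinarith [sq_nonneg (|fderiv ℝ v w 1| - 1), sq_abs (fderiv ℝ v w 1),
              sq_nonneg (Bd_775.gy v w), abs_nonneg (fderiv ℝ v w 1)]
          calc bm R hR w.im * |fderiv ℝ v w 1| ≤ 1 * |fderiv ℝ v w 1| :=
                mul_le_mul_of_nonneg_right (bm_le_one hR _) (abs_nonneg _)
            _ ≤ _ := by rw [one_mul]; exact h1
        · have : bm R hR w.im = 0 := by
            refine bm_zero hR ?_
            by_contra hc
            exact hw (abs_lt.1 (not_le.1 hc))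
          rw [this, zero_mul, ENNReal.ofReal_zero]
          exact zero_le
    _ = (∫⁻ w in Eᶜ ∩ {w | |w.re| ≤ R}, ENNReal.ofReal (Bd_775.en v w)) +
          ∫⁻ w in Eᶜ ∩ {w | |w.re| ≤ R}, {w : ℂ | w.im ∈ Ioo (-(R + 1)) (R + 1)}.indicator
            (fun _ => (1 : ℝ≥0∞)) w :=
        lintegral_add_right _ (measurable_const.indicator hm)
    _ < ⊤ := by
        refine ENNReal.add_lt_top.2 ⟨(lintegral_mono_set inter_subset_left).trans_lt hen, ?_⟩
        rw [lintegral_indicator hm, lintegral_const, one_mul,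
          Measure.restrict_apply MeasurableSet.univ, univ_inter, Measure.restrict_apply hm]
        refine (measure_mono ?_).trans_lt hZ
        rintro w ⟨h1, -, h2⟩
        exact ⟨h2, h1⟩

theorem finite_nuS (hP : PicT E) (hv : TT E v) : IsFiniteMeasure (nuS E v) := by
  have := countable_sol hP.sum
  refine ⟨?_⟩
  unfold nuS
  rw [Measure.sum_apply _ MeasurableSet.univ]
  have hso : Summable fun M : Cmp E => wd M.1 * osc E v M.1 :=
    Elf_600.summable_mul_of_sq hP.sum hv.sum
  have hs2 : Summable fun M : Sol E => 2 * (wd M.1.1 * osc E v M.1.1) * 2 :=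
    ((hso.comp_injective (i := fun M : Sol E => M.1) Subtype.val_injective).mul_left 2).mul_right 2
  have h0 : ∀ M : Sol E, 0 ≤ 2 * (wd M.1.1 * osc E v M.1.1) := fun M => by
    have := wd_nonneg hP.cpt M.1
    have := osc_nonneg E v M.1.1
    positivity
  have h1 : ∀ M : Sol E, (ENNReal.ofReal (2 * (wd M.1.1 * osc E v M.1.1)) •
      (Measure.dirac (lo M.1.1) + Measure.dirac (hi M.1.1))) univ =
      ENNReal.ofReal (2 * (wd M.1.1 * osc E v M.1.1) * 2) := by
    intro M
    rw [ENNReal.ofReal_mul (h0 M)]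
    simp only [Measure.smul_apply, Measure.coe_add, Pi.add_apply, measure_univ, smul_eq_mul]
    norm_num
  rw [tsum_congr h1, ← ENNReal.ofReal_tsum_of_nonneg (fun M => mul_nonneg (h0 M) zero_le_two) hs2]
  exact ENNReal.ofReal_lt_top

theorem atoms (hP : PicT E) (hR : 0 < R) :
    ∃ D : Set ℝ, D.Countable ∧ ∀ s, volume s = 0 → (nuV E v R hR + nuS E v) (s \ D) = 0 := by
  have := countable_sol hP.sum
  refine ⟨(range fun M : Sol E => lo M.1.1) ∪ range fun M : Sol E => hi M.1.1,
    (countable_range _).union (countable_range _), fun s hs => ?_⟩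
  rw [Measure.add_apply, add_eq_zero]
  constructor
  · have hq : Measure.QuasiMeasurePreserving Complex.re (volume : Measure ℂ) volume :=
      (Measure.quasiMeasurePreserving_fst (μ := (volume : Measure ℝ))
        (ν := (volume : Measure ℝ))).comp
        Complex.volume_preserving_equiv_real_prod.quasiMeasurePreserving
    have h1 : nuV E v R hR ≪ volume := by
      unfold nuV
      exact (((withDensity_absolutelyContinuous _ _).trans
        Measure.restrict_le_self.absolutelyContinuous).map Complex.measurable_re).trans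
        hq.absolutelyContinuous
    exact measure_mono_null sdiff_subset (h1 hs)
  · unfold nuS
    rw [Measure.sum_apply_of_countable, ENNReal.tsum_eq_zero]
    intro M
    have h1 : lo M.1.1 ∉ s \ ((range fun M : Sol E => lo M.1.1) ∪ range fun M : Sol E => hi M.1.1) :=
      fun hx => hx.2 (Or.inl ⟨M, rfl⟩)
    have h2 : hi M.1.1 ∉ s \ ((range fun M : Sol E => lo M.1.1) ∪ range fun M : Sol E => hi M.1.1) :=
      fun hx => hx.2 (Or.inr ⟨M, rfl⟩)
    rw [Measure.smul_apply, Measure.add_apply, Measure.dirac_apply, Measure.dirac_apply,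
      indicator_of_notMem h1, indicator_of_notMem h2, add_zero, smul_zero]

end Crest.Agent.R105.Nlq_138
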