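import Crest.Agent.R105.Nlq4_138

/-!
# Row 105, S0138 (ATN (2)(b) of 403 #10534): `law`, the Euler-Lagrange inequality (helper138)
-/

set_option autoImplicit false

open Set MeasureTheory Filter Topology Metric
open scoped ENNReal NNReal ContDiff

namespace Crest.Agent.R105.Nlq_138

open Tc_808 Sqr_185 Pct_185
open Sct_636 (LCE)

variable {E : Set ℂ} {v : ℂ → ℝ} {R : ℝ} {c : Cmp E → ℝ} {H h : ℝ → ℝ} {L K : ℝ≥0} {a b : ℝ}

/-- minimality in the directions `χ H(v) h(re)` -/
def MinFam (E : Set ℂ) (v : ℂ → ℝ) : Prop :=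
  ∀ (R : ℝ) (hR : 0 < R), E ⊆ ball 0 R → ∀ (H h : ℝ → ℝ) (L K : ℝ≥0), LipschitzWith L H →
    LipschitzWith K h → (∀ t, 0 ≤ H t ∧ H t ≤ 1) → (∀ x, |h x| ≤ 1) → HasCompactSupport h →
    ∀ τ : ℝ, MINT E (fun w => τ * (ch R hR w * (H (v w) * h w.re)))

theorem tsum_sol (hE : IsCompact E) (f : Cmp E → ℝ) :
    ∑' M : Cmp E, wd M.1 * f M = ∑' M : Sol E, wd M.1.1 * f M.1 := by
  have h1 : (fun M : Cmp E => wd M.1 * f M).support ⊆ {M : Cmp E | 0 < wd M.1} := by
    intro M hM
    refine lt_of_le_of_ne (wd_nonneg hE M) fun h0 => hM ?_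
    simp only [← h0, zero_mul]
  rw [← tsum_subtype_eq_of_support_subset h1]
  rfl

theorem deriv_zero_off (hab : ∀ x ∉ Icc a b, h x = 0) {x : ℝ} (hx : x ∉ Icc a b) :
    deriv h x = 0 := by
  have : h =ᶠ[𝓝 x] fun _ => (0 : ℝ) := by
    filter_upwards [isClosed_Icc.isOpen_compl.mem_nhds hx] with y hy
    exact hab y hy
  rw [this.deriv_eq]; simp

theorem abs_deriv_le (hh : LipschitzWith K h) (x : ℝ) : |deriv h x| ≤ K := by
  have := norm_deriv_le_of_lipschitz hh (x₀ := x)
  simpa using this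

/-- the integrand is integrable for every law with bounded marginal -/
theorem int_g {Λ : Measure (ℝ × ℝ)} {M : ℝ}
    (hm : ∀ s, MeasurableSet s → Λ (s ×ˢ univ) ≤ ENNReal.ofReal M * volume s)
    (hH : LipschitzWith L H) (hh : LipschitzWith K h) (hH1 : ∀ t, 0 ≤ H t ∧ H t ≤ 1)
    (hab : ∀ x ∉ Icc a b, h x = 0) : Integrable (fun p : ℝ × ℝ => deriv h p.1 * H p.2) Λ := by
  have h1 : Measurable fun p : ℝ × ℝ => deriv h p.1 * H p.2 :=
    ((measurable_deriv h).comp measurable_fst).mul (hH.continuous.measurable.comp measurable_snd)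
  have hfin : Λ (Icc a b ×ˢ univ) ≠ ⊤ := by
    refine ((hm _ measurableSet_Icc).trans_lt ?_).ne
    rw [Real.volume_Icc]
    exact ENNReal.mul_lt_top ENNReal.ofReal_lt_top ENNReal.ofReal_lt_top
  have h2 : IntegrableOn (fun p : ℝ × ℝ => deriv h p.1 * H p.2) (Icc a b ×ˢ univ) Λ := by
    refine Measure.integrableOn_of_bounded (M := K) hfin h1.aestronglyMeasurable
      (Eventually.of_forall fun p => ?_)
    rw [Real.norm_eq_abs, abs_mul, abs_of_nonneg (hH1 _).1]
    calc |deriv h p.1| * H p.2 ≤ K * 1 :=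
          mul_le_mul (abs_deriv_le hh _) (hH1 _).2 (hH1 _).1 K.2
      _ = K := mul_one _
  refine (integrableOn_iff_integrable_of_support_subset fun p hp => ?_).1 h2
  refine ⟨?_, mem_univ _⟩
  by_contra hc
  exact hp (by simp only; rw [deriv_zero_off hab hc, zero_mul])

/-- the box where everything lives -/
def Bo (R : ℝ) : Set ℂ := {w : ℂ | w.re ∈ Icc (-R) R ∧ w.im ∈ Ioo (-(R + 1)) (R + 1)}

theorem measurableSet_Bo (R : ℝ) : MeasurableSet (Bo R) :=
  (Complex.measurable_re measurableSet_Icc).inter (Complex.measurable_im measurableSet_Ioo)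

theorem volume_Bo (R : ℝ) : volume (Bo R) < ⊤ := by
  unfold Bo
  rw [volume_re_inter _ measurableSet_Icc, Real.volume_Icc]
  exact ENNReal.mul_lt_top ENNReal.ofReal_lt_top ENNReal.ofReal_lt_top

theorem zero_off_Bo (hR : 0 < R) (ha : -R < a) (hb : b < R) {k : ℝ → ℝ}
    (hab : ∀ x ∉ Icc a b, k x = 0) {w : ℂ} (hw : w ∉ Bo R) : bm R hR w.im = 0 ∨ k w.re = 0 := by
  by_cases h1 : w.im ∈ Ioo (-(R + 1)) (R + 1)
  · right
    refine hab _ fun hc => hw ⟨⟨by linarith [hc.1], by linarith [hc.2]⟩, h1⟩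
  · left
    refine bm_zero hR ?_
    by_contra hc
    exact h1 (abs_lt.1 (not_le.1 hc))

theorem int_Bo (C : ℝ) : Integrable ((Bo R).indicator fun _ : ℂ => C) :=
  (integrable_indicator_iff (measurableSet_Bo R)).2 (integrableOn_const (volume_Bo R).ne)

theorem int_one (hE : IsCompact E) (hv : TT E v) (hR : 0 < R)
    (hH : LipschitzWith L H) (hh : LipschitzWith K h) (hH1 : ∀ t, 0 ≤ H t ∧ H t ≤ 1)
    (ha : -R < a) (hb : b < R) (hab : ∀ x ∉ Icc a b, h x = 0) :
    IntegrableOn (fun w : ℂ => bm R hR w.im * (deriv h w.re * H (v w))) Eᶜ := by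
  refine Integrable.mono' (int_Bo (R := R) K).integrableOn ?_ (Eventually.of_forall fun w => ?_)
  · refine AEStronglyMeasurable.mul ?_ (AEStronglyMeasurable.mul ?_ ?_)
    · exact ((bm R hR).continuous.comp Complex.continuous_im).aestronglyMeasurable
    · exact ((measurable_deriv h).comp Complex.measurable_re).aestronglyMeasurable
    · exact (hH.continuous.comp_continuousOn hv.q.loc.continuousOn).aestronglyMeasurable
        hE.isClosed.isOpen_compl.measurableSet
  · by_cases hw : w ∈ Bo R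
    · rw [indicator_of_mem hw, Real.norm_eq_abs, abs_mul, abs_mul, abs_of_nonneg (bm_nonneg hR _),
        abs_of_nonneg (hH1 _).1]
      have h1 : |deriv h w.re| * H (v w) ≤ K * 1 :=
        mul_le_mul (abs_deriv_le hh _) (hH1 _).2 (hH1 _).1 K.2
      have h0 : 0 ≤ |deriv h w.re| * H (v w) := mul_nonneg (abs_nonneg _) (hH1 _).1
      calc bm R hR w.im * (|deriv h w.re| * H (v w)) ≤ 1 * (K * 1) :=
            mul_le_mul (bm_le_one hR _) h1 h0 zero_le_one
        _ = K := by ring
    · rw [indicator_of_notMem hw]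
      rcases zero_off_Bo hR ha hb (k := deriv h) (fun x hx => deriv_zero_off hab hx) hw with h1 | h1
      · rw [h1, zero_mul, norm_zero]
      · rw [h1, zero_mul, mul_zero, norm_zero]

/-- domination of the second part -/
theorem bound_two (hR : 0 < R) (hH : LipschitzWith L H) {w : ℂ} (hd : DifferentiableAt ℝ v w) :
    |bm R hR w.im * (h w.re * fderiv ℝ (fun z => H (v z)) w 1)| ≤
      L * (bm R hR w.im * |fderiv ℝ v w 1| * |h w.re|) := by
  rw [abs_mul, abs_mul, abs_of_nonneg (bm_nonneg hR _)]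
  have h1 := Bd_775.norm_fderiv_comp_le hH hd 1
  calc bm R hR w.im * (|h w.re| * |fderiv ℝ (fun z => H (v z)) w 1|)
      ≤ bm R hR w.im * (|h w.re| * (L * |fderiv ℝ v w 1|)) :=
        mul_le_mul_of_nonneg_left (mul_le_mul_of_nonneg_left h1 (abs_nonneg _)) (bm_nonneg hR _)
    _ = _ := by ring

theorem int_three (hv : TT E v) (hR : 0 < R) (hh : LipschitzWith K h)
    (hh1 : ∀ x, |h x| ≤ 1) (ha : -R < a) (hb : b < R) (hab : ∀ x ∉ Icc a b, h x = 0) :
    IntegrableOn (fun w : ℂ => bm R hR w.im * |fderiv ℝ v w 1| * |h w.re|) Eᶜ := by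
  have h1 : IntegrableOn (fun w => Bd_775.en v w + (Bo R).indicator (fun _ : ℂ => (1 : ℝ)) w) Eᶜ :=
    hv.q.fin.add (int_Bo (R := R) 1).integrableOn
  refine Integrable.mono' h1 ?_ (Eventually.of_forall fun w => ?_)
  · refine Measurable.aestronglyMeasurable ?_
    exact (((bm R hR).continuous.comp Complex.continuous_im).measurable.mul
      (measurable_fderiv_apply_const ℝ v 1).norm).mul
      (hh.continuous.comp Complex.continuous_re).measurable.norm
  · have h0 : 0 ≤ bm R hR w.im * |fderiv ℝ v w 1| * |h w.re| :=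
      mul_nonneg (mul_nonneg (bm_nonneg hR _) (abs_nonneg _)) (abs_nonneg _)
    rw [Real.norm_of_nonneg h0]
    by_cases hw : w ∈ Bo R
    · rw [indicator_of_mem hw]
      have h2 : |fderiv ℝ v w 1| ≤ Bd_775.en v w + 1 := by
        unfold Bd_775.en Bd_775.gx
        nlinarith [sq_nonneg (|fderiv ℝ v w 1| - 1), sq_abs (fderiv ℝ v w 1),
          sq_nonneg (Bd_775.gy v w), abs_nonneg (fderiv ℝ v w 1)]
      calc bm R hR w.im * |fderiv ℝ v w 1| * |h w.re| ≤ (1 * |fderiv ℝ v w 1|) * 1 :=
            mul_le_mul (mul_le_mul_of_nonneg_right (bm_le_one hR _) (abs_nonneg _)) (hh1 _)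
              (abs_nonneg _) (by positivity)
        _ ≤ _ := by linarith
    · rw [indicator_of_notMem hw, add_zero]
      rcases zero_off_Bo hR ha hb hab hw with h2 | h2
      · rw [h2, zero_mul, zero_mul]; exact Bd_775.en_nonneg v w
      · rw [h2, abs_zero, mul_zero]; exact Bd_775.en_nonneg v w

theorem int_two (hE : IsCompact E) (hv : TT E v) (hR : 0 < R)
    (hH : LipschitzWith L H) (hh : LipschitzWith K h)
    (hh1 : ∀ x, |h x| ≤ 1) (ha : -R < a) (hb : b < R) (hab : ∀ x ∉ Icc a b, h x = 0) :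
    IntegrableOn (fun w : ℂ => bm R hR w.im * (h w.re * fderiv ℝ (fun z => H (v z)) w 1)) Eᶜ := by
  refine Integrable.mono' ((int_three hv hR hh hh1 ha hb hab).const_mul (L : ℝ)) ?_ ?_
  · refine Measurable.aestronglyMeasurable ?_
    exact ((bm R hR).continuous.comp Complex.continuous_im).measurable.mul
      ((hh.continuous.comp Complex.continuous_re).measurable.mul
        (measurable_fderiv_apply_const ℝ _ 1))
  · filter_upwards [hv.q.ae_diff hE.isClosed] with w hd
    rw [Real.norm_eq_abs]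
    exact bound_two hR hH hd

theorem integral_LamV (hE : IsCompact E) (hv : TT E v) (hR : 0 < R) (hH : LipschitzWith L H) :
    ∫ p, deriv h p.1 * H p.2 ∂(LamV E v R hR) =
      ∫ w in Eᶜ, bm R hR w.im * (deriv h w.re * H (v w)) := by
  have hac : (volume.restrict Eᶜ).withDensity
      (fun w : ℂ => ((Real.toNNReal (bm R hR w.im) : ℝ≥0) : ℝ≥0∞)) ≪ volume.restrict Eᶜ :=
    withDensity_absolutelyContinuous _ _
  have h1 : Measurable fun p : ℝ × ℝ => deriv h p.1 * H p.2 :=
    ((measurable_deriv h).comp measurable_fst).mul (hH.continuous.measurable.comp measurable_snd)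
  have hmm : Measurable fun w : ℂ => Real.toNNReal (bm R hR w.im) :=
    ((bm R hR).continuous.comp Complex.continuous_im).measurable.real_toNNReal
  unfold LamV
  rw [integral_map ((aem hE.isClosed hv).mono_ac hac) h1.aestronglyMeasurable,
    integral_withDensity_eq_integral_smul hmm]
  refine integral_congr_ae (Eventually.of_forall fun w => ?_)
  change Real.toNNReal (bm R hR w.im) • (deriv h w.re * H (v w)) = _
  rw [NNReal.smul_def, Real.coe_toNNReal _ (bm_nonneg hR _), smul_eq_mul]

theorem integral_deriv_Ioo (hh : LipschitzWith K h) {x y : ℝ} (hxy : x ≤ y) :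
    ∫ t in Ioo x y, deriv h t = h y - h x := by
  have h1 : AbsolutelyContinuousOnInterval h x y :=
    (hh.lipschitzOnWith (s := uIcc x y)).absolutelyContinuousOnInterval
  rw [← integral_Ioc_eq_integral_Ioo, ← intervalIntegral.integral_of_le hxy]
  exact h1.integral_deriv_eq_sub

theorem integral_LamS (hP : PicT E) (hER : E ⊆ ball 0 R)
    (hH : LipschitzWith L H) (hh : LipschitzWith K h) (hH1 : ∀ t, 0 ≤ H t ∧ H t ≤ 1)
    (hab : ∀ x ∉ Icc a b, h x = 0) :
    ∫ p, deriv h p.1 * H p.2 ∂(LamS E c) =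
      ∑' M : Sol E, wd M.1.1 * (H (c M.1) * h (hi M.1.1) - H (c M.1) * h (lo M.1.1)) := by
  have h1 : Measurable fun p : ℝ × ℝ => deriv h p.1 * H p.2 :=
    ((measurable_deriv h).comp measurable_fst).mul (hH.continuous.measurable.comp measurable_snd)
  have h2 := int_g (Λ := LamS E c) (marg_S hP hER) hH hh hH1 hab
  unfold LamS at h2 ⊢
  rw [← (hasSum_integral_measure h2).tsum_eq]
  refine tsum_congr fun M => ?_
  rw [integral_smul_measure, ENNReal.toReal_ofReal (wd_nonneg hP.cpt M.1),
    integral_map (by fun_prop) h1.aestronglyMeasurable, smul_eq_mul]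
  congr 1
  simp only
  rw [integral_mul_const, integral_deriv_Ioo hh (lo_le_hi (M.1.isCompact hP.cpt) M.1.nonempty)]
  ring

theorem integral_nuV (hv : TT E v) (hR : 0 < R) (hh : LipschitzWith K h)
    (hE : IsCompact E) (ha : -R < a) (hb : b < R) (hab : ∀ x ∉ Icc a b, h x = 0) :
    ∫ x, |h x| ∂(nuV E v R hR) = ∫ w in Eᶜ, bm R hR w.im * |fderiv ℝ v w 1| * |h w.re| := by
  unfold nuV
  have hmz : MeasurableSet {w : ℂ | |w.re| ≤ R} :=
    (isClosed_le (continuous_abs.comp Complex.continuous_re) continuous_const).measurableSet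
  have hmm : Measurable fun w : ℂ => Real.toNNReal (bm R hR w.im * |fderiv ℝ v w 1|) :=
    (((bm R hR).continuous.comp Complex.continuous_im).measurable.mul
        (measurable_fderiv_apply_const ℝ v 1).norm).real_toNNReal
  have hsm : Measurable fun x : ℝ => |h x| := (continuous_abs.comp hh.continuous).measurable
  rw [integral_map Complex.measurable_re.aemeasurable hsm.aestronglyMeasurable,
    integral_withDensity_eq_integral_smul hmm]
  have h1 : ∫ w in Eᶜ ∩ {w | |w.re| ≤ R},
      Real.toNNReal (bm R hR w.im * |fderiv ℝ v w 1|) • |h w.re| =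
      ∫ w in Eᶜ ∩ {w | |w.re| ≤ R}, bm R hR w.im * |fderiv ℝ v w 1| * |h w.re| := by
    refine integral_congr_ae (Eventually.of_forall fun w => ?_)
    simp only
    rw [NNReal.smul_def, Real.coe_toNNReal _ (mul_nonneg (bm_nonneg hR _) (abs_nonneg _)),
      smul_eq_mul]
  refine h1.trans ?_
  refine (setIntegral_eq_of_subset_of_forall_sdiff_eq_zero
    hE.isClosed.isOpen_compl.measurableSet inter_subset_left fun w hw => ?_).symm
  have h2 : w.re ∉ Icc a b := by
    intro hc
    apply hw.2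
    refine ⟨hw.1, ?_⟩
    simp only [mem_ofPred_eq, abs_le]
    exact ⟨by linarith [hc.1], by linarith [hc.2]⟩
  rw [hab _ h2, abs_zero, mul_zero]

theorem integral_nuS (hP : PicT E) (hv : TT E v) (hh : LipschitzWith K h) (hh1 : ∀ x, |h x| ≤ 1) :
    ∫ x, |h x| ∂(nuS E v) =
      ∑' M : Sol E, 2 * (wd M.1.1 * osc E v M.1.1) * (|h (lo M.1.1)| + |h (hi M.1.1)|) := by
  have hfin := finite_nuS hP hv
  have h2 : Integrable (fun x => |h x|) (nuS E v) := by
    refine Integrable.of_bound (continuous_abs.comp hh.continuous).aestronglyMeasurable 1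
      (Eventually.of_forall fun x => ?_)
    rw [Real.norm_eq_abs, abs_abs]; exact hh1 x
  unfold nuS at h2 ⊢
  rw [← (hasSum_integral_measure h2).tsum_eq]
  refine tsum_congr fun M => ?_
  have h0 : 0 ≤ 2 * (wd M.1.1 * osc E v M.1.1) := by
    have := wd_nonneg hP.cpt M.1
    have := osc_nonneg E v M.1.1
    positivity
  rw [integral_smul_measure, ENNReal.toReal_ofReal h0, smul_eq_mul,
    integral_add_measure, integral_dirac, integral_dirac]
  · exact integrable_dirac (by simp)
  · exact integrable_dirac (by simp)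

/-- **the law** -/
theorem law (hP : PicT E) (hv : TT E v) (hR : 0 < R) (hER : E ⊆ ball 0 R)
    (hc : ∀ M : Cmp E, ∀ ε > 0, ∀ᶠ z in eK E M.1, |v z - c M| ≤ osc E v M.1 + ε)
    (hm : MinFam E v) :
    Law (LamV E v R hR + LamS E c) (nuV E v R hR + nuS E v) (2 * (R + 1) + 2 * R) (-R) R where
  marg := fun s hs => by
    rw [Measure.add_apply, ENNReal.ofReal_add (by positivity) (by positivity), add_mul]
    exact add_le_add (marg_V hP.cpt.isClosed hv hR s hs) (marg_S hP hER s hs)
  atoms := atoms hP hR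
  el := by
    intro H h L0 K0 hL0 hK0 hH' hH1 hh' hh1 hsup
    obtain ⟨a, b, ha, hb, hab⟩ := hsup
    obtain ⟨L, hL⟩ : ∃ L : ℝ≥0, (L : ℝ) = L0 := ⟨⟨L0, hL0⟩, rfl⟩
    obtain ⟨K, hK⟩ : ∃ K : ℝ≥0, (K : ℝ) = K0 := ⟨⟨K0, hK0⟩, rfl⟩
    have hH : LipschitzWith L H := LipschitzWith.of_dist_le_mul fun s t => by
      rw [Real.dist_eq, Real.dist_eq, hL]; exact hH' s t
    have hh : LipschitzWith K h := LipschitzWith.of_dist_le_mul fun s t => by
      rw [Real.dist_eq, Real.dist_eq, hK]; exact hh' s t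
    have hcs : HasCompactSupport h := by
      refine HasCompactSupport.of_support_subset_isCompact (isCompact_Icc (a := a) (b := b))
        fun x hx => ?_
      by_contra hc
      exact hx (hab x hc)
    have hel := el_test hP.cpt hP.sum hv hR hER hc hH hh hH1 hh1
      (hm R hR hER H h L K hH hh hH1 hh1 hcs)
    rw [integral_congr_ae (fderiv_test hP.cpt hv hR hH hh ha hb hab),
      integral_add (int_one hP.cpt hv hR hH hh hH1 ha hb hab)
        (int_two hP.cpt hv hR hH hh hh1 ha hb hab),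
      tsum_sol hP.cpt (fun M => H (c M) * h (hi M.1) - H (c M) * h (lo M.1)),
      tsum_sol hP.cpt (fun M => L * osc E v M.1 * (|h (hi M.1)| + |h (lo M.1)|))] at hel
    have i1 := int_g (Λ := LamV E v R hR) (marg_V hP.cpt.isClosed hv hR) hH hh hH1 hab
    have i2 := int_g (Λ := LamS E c) (marg_S hP hER) hH hh hH1 hab
    have hfV := finite_nuV hv hR
    have hfS := finite_nuS hP hv
    have j1 : ∀ ν : Measure ℝ, IsFiniteMeasure ν → Integrable (fun x => |h x|) ν := by
      intro ν hν
      refine Integrable.of_bound (continuous_abs.comp hh.continuous).aestronglyMeasurable 1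
        (Eventually.of_forall fun x => ?_)
      rw [Real.norm_eq_abs, abs_abs]; exact hh1 x
    rw [integral_add_measure i1 i2, integral_LamV hP.cpt hv hR hH,
      integral_LamS hP hER hH hh hH1 hab, integral_add_measure (j1 _ hfV) (j1 _ hfS),
      integral_nuV hv hR hh hP.cpt ha hb hab, integral_nuS hP hv hh hh1, ← hL]
    have h2 : |∫ w in Eᶜ, bm R hR w.im * (h w.re * fderiv ℝ (fun z => H (v z)) w 1)| ≤
        L * ∫ w in Eᶜ, bm R hR w.im * |fderiv ℝ v w 1| * |h w.re| := by
      rw [← integral_const_mul]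
      refine (abs_integral_le_integral_abs).trans ?_
      refine integral_mono_ae (int_two hP.cpt hv hR hH hh hh1 ha hb hab).abs
        ((int_three hv hR hh hh1 ha hb hab).const_mul _) ?_
      filter_upwards [hv.q.ae_diff hP.cpt.isClosed] with w hd
      exact bound_two hR hH hd
    have h3 : 2 * ∑' M : Sol E, wd M.1.1 * (L * osc E v M.1.1 * (|h (hi M.1.1)| + |h (lo M.1.1)|)) =
        L * ∑' M : Sol E, 2 * (wd M.1.1 * osc E v M.1.1) * (|h (lo M.1.1)| + |h (hi M.1.1)|) := by
      rw [← tsum_mul_left, ← tsum_mul_left]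
      exact tsum_congr fun M => by ring
    rw [h3] at hel
    rw [mul_add]
    rw [abs_le] at hel h2 ⊢
    constructor <;> linarith [hel.1, hel.2, h2.1, h2.2]

end Crest.Agent.R105.Nlq_138
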