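import Crest.Agent.R105.Nlq5_138

/-!
# Row 105, S0138 (ATN (2)(b) of 403 #10534): null values on hairs and attached pieces (helper138)

* `sq M` : the closed square of the solid `M`; `Seg`, `RLim`, `TLim`;
* `conc` : concentration of the law near a segment;
* `null_values` : the values of `v` on (the right side of) hairs and attached pieces form a null set.
-/

set_option autoImplicit false

open Set MeasureTheory Filter Topology Metric
open scoped ENNReal NNReal ContDiff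

namespace Crest.Agent.R105.Nlq_138

open Tc_808 Sqr_185 Pct_185

variable {E : Set ℂ} {v : ℂ → ℝ} {R : ℝ} {c : Cmp E → ℝ}

/-- box -/
def bx (al b s : ℝ) : Set ℂ := {p | p.re ∈ Icc al (al + s) ∧ p.im ∈ Icc b (b + s)}

/-- the closed square of a solid -/
def sq (M : Cmp E) : Set ℂ := {p | ∃ b, SqK M.1 (lo M.1) b (wd M.1) ∧ p ∈ bx (lo M.1) b (wd M.1)}

/-- a piece of a hair or of an attached piece, off all closed squares -/
def Seg (E : Set ℂ) (x y1 y2 : ℝ) : Prop :=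
  y1 < y2 ∧ ∀ y ∈ Icc y1 y2, (⟨x, y⟩ : ℂ) ∈ E ∧ ∀ M : Cmp E, 0 < wd M.1 → (⟨x, y⟩ : ℂ) ∉ sq M

/-- `v → c` at the segment from the right -/
def RLim (E : Set ℂ) (v : ℂ → ℝ) (x y1 y2 c : ℝ) : Prop :=
  ∀ r > 0, ∃ O, IsOpen O ∧ (∀ y ∈ Icc y1 y2, (⟨x, y⟩ : ℂ) ∈ O) ∧
    ∀ z ∈ O, z ∉ E → x < z.re → |v z - c| ≤ r

/-- `v → c` at the segment -/
def TLim (E : Set ℂ) (v : ℂ → ℝ) (x y1 y2 c : ℝ) : Prop :=
  ∀ r > 0, ∃ O, IsOpen O ∧ (∀ y ∈ Icc y1 y2, (⟨x, y⟩ : ℂ) ∈ O) ∧
    ∀ z ∈ O, z ∉ E → |v z - c| ≤ r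

theorem TLim.rlim {x y1 y2 c : ℝ} (h : TLim E v x y1 y2 c) : RLim E v x y1 y2 c := fun r hr => by
  obtain ⟨O, h1, h2, h3⟩ := h r hr
  exact ⟨O, h1, h2, fun z hz hzE _ => h3 z hz hzE⟩

theorem isClosed_bx (al b s : ℝ) : IsClosed (bx al b s) :=
  (isClosed_Icc.preimage Complex.continuous_re).inter (isClosed_Icc.preimage Complex.continuous_im)

theorem bx_subset {K : Set ℂ} {al b s : ℝ} (h : SqK K al b s) : bx al b s ⊆ K :=
  fun p hp => h.sub p hp.1 hp.2

theorem hi_eq (M : Set ℂ) : hi M = lo M + wd M := by unfold wd; ring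

/-- the solids whose square meets the thin box near the segment have value near `c0` -/
theorem near_values (hP : PicT E) (hv : TT E v)
    (hc : ∀ M : Cmp E, ∀ ε > 0, ∀ᶠ z in eK E M.1, |v z - c M| ≤ osc E v M.1 + ε)
    {b : Sol E → ℝ} (hb : ∀ M : Sol E, SqK M.1.1 (lo M.1.1) (b M) (wd M.1.1))
    {x y1 y2 c0 : ℝ} (hS : Seg E x y1 y2) (hL : RLim E v x y1 y2 c0) {r : ℝ} (hr : 0 < r) :
    ∃ δ > 0, (∀ z : ℂ, z ∉ E → z.re ∈ Ioo x (x + δ) → z.im ∈ Icc y1 y2 → |v z - c0| ≤ r) ∧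
      ∀ M : Sol E, (∃ p ∈ bx (lo M.1.1) (b M) (wd M.1.1), p.re ∈ Ioo x (x + δ) ∧
        p.im ∈ Icc y1 y2) → |c M.1 - c0| ≤ r := by
  obtain ⟨O, hO, hSO, hOr⟩ := hL (r / 4) (by positivity)
  -- the segment is compact
  have hcs : IsCompact ((fun y : ℝ => (⟨x, y⟩ : ℂ)) '' Icc y1 y2) :=
    isCompact_Icc.image (continuous_mk_right x)
  obtain ⟨ρ, hρ, hρO⟩ := hcs.exists_thickening_subset_open hO (by
    rintro _ ⟨y, hy, rfl⟩; exact hSO y hy)
  have hclose : ∀ z : ℂ, ∀ y ∈ Icc y1 y2, |z.re - x| + |z.im - y| < ρ → z ∈ O := by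
    intro z y hy h
    refine hρO (mem_thickening_iff.2 ⟨_, ⟨y, hy, rfl⟩, ?_⟩)
    rw [dist_eq_norm]
    exact (Complex.norm_le_abs_re_add_abs_im _).trans_lt h
  -- finitely many exceptional solids
  have hT1 : {M : Cmp E | r / 4 ≤ osc E v M.1}.Finite := hv.finite (by positivity)
  have hT2 : {M : Cmp E | ρ / 8 ≤ wd M.1}.Finite := by
    have h1 : Tendsto (fun M : Cmp E => wd M.1 ^ 2) cofinite (𝓝 0) := hP.sum.tendsto_cofinite_zero
    have h2 := h1.eventually (gt_mem_nhds (show (0 : ℝ) < (ρ / 8) ^ 2 by positivity))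
    refine (eventually_cofinite.1 h2).subset fun M hM => ?_
    simp only [mem_ofPred_eq, not_lt]
    have hM' : ρ / 8 ≤ wd M.1 := hM
    exact pow_le_pow_left₀ (by positivity) hM' 2
  have hT : {M : Sol E | r / 4 ≤ osc E v M.1.1 ∨ ρ / 8 ≤ wd M.1.1}.Finite := by
    have h1 := (hT1.union hT2).preimage (f := fun M : Sol E => M.1)
      Subtype.val_injective.injOn
    exact h1
  -- squares right of the segment
  have hright : ∀ M : Sol E, ∀ p ∈ bx (lo M.1.1) (b M) (wd M.1.1), x < p.re → p.im ∈ Icc y1 y2 →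
      x < lo M.1.1 := by
    intro M p hp hx hy
    by_contra hcon
    push Not at hcon
    have h1 : (⟨x, p.im⟩ : ℂ) ∈ bx (lo M.1.1) (b M) (wd M.1.1) :=
      ⟨⟨hcon, (hx.le).trans hp.1.2⟩, hp.2⟩
    exact (hS.2 p.im hy).2 M.1 M.2 ⟨b M, hb M, h1⟩
  obtain ⟨δ1, hδ1, hδ1'⟩ : ∃ δ1 > 0, ∀ M ∈ {M : Sol E | r / 4 ≤ osc E v M.1.1 ∨ ρ / 8 ≤ wd M.1.1},
      x < lo M.1.1 → x + δ1 ≤ lo M.1.1 := by
    refine hT.induction_on _ ⟨1, one_pos, fun M hM => absurd hM (Set.notMem_empty M)⟩ ?_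
    intro M S _ _ hI
    obtain ⟨δ, hδ, hd⟩ := hI
    by_cases hM : x < lo M.1.1
    · refine ⟨min δ (lo M.1.1 - x), lt_min hδ (by linarith), fun M' hM' h => ?_⟩
      rcases hM' with rfl | hM'
      · have := min_le_right δ (lo M'.1.1 - x)
        linarith
      · have := hd M' hM' h
        have := min_le_left δ (lo M.1.1 - x)
        linarith
    · refine ⟨δ, hδ, fun M' hM' h => ?_⟩
      rcases hM' with rfl | hM'
      · exact absurd h hM
      · exact hd M' hM' h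
  refine ⟨min δ1 (ρ / 8), lt_min hδ1 (by positivity), fun z hzE hz1 hz2 => ?_, fun M hM => ?_⟩
  · have h1 : z ∈ O := by
      refine hclose z z.im hz2 ?_
      have := min_le_right δ1 (ρ / 8)
      rw [sub_self, abs_zero, add_zero, abs_of_pos (by linarith [hz1.1])]
      linarith [hz1.2]
    exact (hOr z h1 hzE hz1.1).trans (by linarith)
  · obtain ⟨p, hp, hp1, hp2⟩ := hM
    have hlo := hright M p hp hp1.1 hp2
    have hM2 : ¬ (r / 4 ≤ osc E v M.1.1 ∨ ρ / 8 ≤ wd M.1.1) := by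
      intro h
      have h1 := hδ1' M h hlo
      have h2 := hp.1.1
      have h3 := min_le_left δ1 (ρ / 8)
      linarith [hp1.2]
    push Not at hM2
    obtain ⟨ho, hw⟩ := hM2
    -- the lower left corner
    have hw0 : 0 < wd M.1.1 := M.2
    set q : ℂ := ⟨lo M.1.1, b M⟩ with hq
    have hqb : q ∈ bx (lo M.1.1) (b M) (wd M.1.1) :=
      ⟨⟨le_rfl, by rw [hq]; simp only; linarith⟩, ⟨le_rfl, by rw [hq]; simp only; linarith⟩⟩
    have hqM : q ∈ M.1.1 := bx_subset (hb M) hqb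
    have hqcl : q ∈ closure Eᶜ :=
      lo_mem_closure M.1 hqM fun q' hq' => lo_le (M.1.isCompact hP.cpt) hq'
    have hqO : q ∈ O := by
      refine hclose q p.im hp2 ?_
      have h1 := min_le_right δ1 (ρ / 8)
      have h2 : |q.re - x| < ρ / 8 := by
        rw [hq]; simp only
        rw [abs_of_pos (by linarith)]
        linarith [hp.1.1, hp1.2]
      have h3 : |q.im - p.im| ≤ wd M.1.1 := by
        rw [hq, abs_le]; simp only
        constructor <;> linarith [hp.2.1, hp.2.2]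
      linarith
    obtain ⟨O', hO', hMO', hO'r⟩ := mem_eK.1 (hc M.1 (r / 8) (by positivity))
    obtain ⟨z, hz1, hz2⟩ := mem_closure_iff.1 hqcl (O ∩ O' ∩ {z | x < z.re})
      ((hO.inter hO').inter (isOpen_lt continuous_const Complex.continuous_re))
      ⟨⟨hqO, hMO' hqM⟩, hlo⟩
    have h1 := hOr z hz1.1.1 hz2 hz1.2
    have h2 : |v z - c M.1| ≤ osc E v M.1.1 + r / 8 := hO'r z hz1.1.2 hz2
    rw [abs_le] at h1 h2 ⊢
    constructor <;> linarith [h1.1, h1.2, h2.1, h2.2]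

/-- the area of a solid in the thin box -/
theorem vol_solid {M : Set ℂ} (hM : IsCompact M) {b : ℝ} (hb : SqK M (lo M) b (wd M)) {x y1 y2 ε : ℝ} :
    volume ({w : ℂ | w.re ∈ Ioo x (x + ε) ∧ w.im ∈ Icc y1 y2} ∩ M) ≤
      ENNReal.ofReal (wd M) * volume (Ioo x (x + ε) ∩ Ioo (lo M) (hi M)) ∧
    ((¬ ∃ p ∈ bx (lo M) b (wd M), p.re ∈ Ioo x (x + ε) ∧ p.im ∈ Icc y1 y2) →
      volume ({w : ℂ | w.re ∈ Ioo x (x + ε) ∧ w.im ∈ Icc y1 y2} ∩ M) = 0) := by
  have hm : MeasurableSet ({w : ℂ | w.re ∈ Ioo x (x + ε) ∧ w.im ∈ Icc y1 y2} ∩ M) :=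
    ((Complex.measurable_re measurableSet_Ioo).inter
      (Complex.measurable_im measurableSet_Icc)).inter hM.isClosed.measurableSet
  rw [Sct_636.volume_eq_lintegral_sec hm]
  constructor
  · calc ∫⁻ t, volume (sec ({w : ℂ | w.re ∈ Ioo x (x + ε) ∧ w.im ∈ Icc y1 y2} ∩ M) t)
        ≤ ∫⁻ t, (Ioo x (x + ε) ∩ Ioo (lo M) (hi M)).indicator (fun _ => ENNReal.ofReal (wd M)) t := by
          have h0 : ∀ᵐ t : ℝ, t ≠ lo M ∧ t ≠ hi M :=
            (Measure.ae_ne volume (lo M)).and (Measure.ae_ne volume (hi M))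
          refine lintegral_mono_ae ?_
          filter_upwards [hb.ae, h0] with t ht h0
          by_cases h1 : t ∈ Ioo x (x + ε) ∩ Ioo (lo M) (hi M)
          · rw [indicator_of_mem h1]
            have h2 := ht (by rw [← hi_eq]; exact Ioo_subset_Icc_self h1.2)
            calc _ ≤ volume (sec M t) := measure_mono fun y hy => hy.2
              _ = ENNReal.ofReal (wd M) := by rw [h2, Real.volume_Icc]; congr 1; ring
          · rw [indicator_of_notMem h1]
            have h2 : sec ({w : ℂ | w.re ∈ Ioo x (x + ε) ∧ w.im ∈ Icc y1 y2} ∩ M) t = ∅ := by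
              refine eq_empty_of_forall_notMem fun y hy => h1 ⟨hy.1.1, ?_⟩
              have h3 := lo_le hM hy.2
              have h4 := le_hi hM hy.2
              exact ⟨lt_of_le_of_ne h3 h0.1.symm, lt_of_le_of_ne h4 h0.2⟩
            rw [h2, measure_empty]
      _ = _ := by
          rw [lintegral_indicator (measurableSet_Ioo.inter measurableSet_Ioo), lintegral_const,
            Measure.restrict_apply MeasurableSet.univ, univ_inter]
  · intro hno
    rw [lintegral_eq_zero_iff' (Sct_636.measurable_volume_sec hm).aemeasurable]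
    filter_upwards [hb.ae] with t ht
    have h2 : sec ({w : ℂ | w.re ∈ Ioo x (x + ε) ∧ w.im ∈ Icc y1 y2} ∩ M) t = ∅ := by
      refine eq_empty_of_forall_notMem fun y hy => hno ⟨⟨t, y⟩, ?_, hy.1⟩
      have h3 : t ∈ Icc (lo M) (lo M + wd M) := ⟨lo_le hM hy.2, by rw [← hi_eq]; exact le_hi hM hy.2⟩
      refine ⟨h3, ?_⟩
      have h4 : y ∈ sec M t := hy.2
      rw [ht h3] at h4
      exact h4
    have h5 := congrArg volume h2
    rw [measure_empty] at h5
    exact h5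

/-- **concentration** -/
theorem conc (hP : PicT E) (hv : TT E v) (hR : 0 < R) (hER : E ⊆ ball 0 R)
    (hc : ∀ M : Cmp E, ∀ ε > 0, ∀ᶠ z in eK E M.1, |v z - c M| ≤ osc E v M.1 + ε)
    {x y1 y2 c0 l : ℝ} (hS : Seg E x y1 y2) (hL : RLim E v x y1 y2 c0) (hl : l ≤ y2 - y1)
    {r : ℝ} (hr : 0 < r) : ∀ᶠ ε in 𝓝[>] (0 : ℝ),
      ENNReal.ofReal (l * ε) ≤ (LamV E v R hR + LamS E c) (Ioo x (x + ε) ×ˢ closedBall c0 r) := by
  have := countable_sol hP.sum
  choose b hb using fun M : Sol E => hP.sq M.1 M.2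
  obtain ⟨δ, hδ, hV, hSo⟩ := near_values hP hv hc hb hS hL hr
  filter_upwards [self_mem_nhdsWithin, mem_nhdsWithin_of_mem_nhds (Iio_mem_nhds hδ)] with ε hε hεδ
  have hε0 : (0 : ℝ) < ε := hε
  have hεd : ε < δ := hεδ
  set B : Set ℂ := {w : ℂ | w.re ∈ Ioo x (x + ε) ∧ w.im ∈ Icc y1 y2} with hB
  have hBm : MeasurableSet B :=
    (Complex.measurable_re measurableSet_Ioo).inter (Complex.measurable_im measurableSet_Icc)
  have hAm : MeasurableSet (Ioo x (x + ε) ×ˢ closedBall c0 r) :=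
    measurableSet_Ioo.prod isClosed_closedBall.measurableSet
  -- the planar part
  have hpl : volume (B ∩ Eᶜ) ≤ LamV E v R hR (Ioo x (x + ε) ×ˢ closedBall c0 r) := by
    have hac : (volume.restrict Eᶜ).withDensity
        (fun w : ℂ => ((Real.toNNReal (bm R hR w.im) : ℝ≥0) : ℝ≥0∞)) ≪ volume.restrict Eᶜ :=
      withDensity_absolutelyContinuous _ _
    have hEm : MeasurableSet (B ∩ Eᶜ) := hBm.inter hP.cpt.isClosed.isOpen_compl.measurableSet
    unfold LamV
    rw [Measure.map_apply_of_aemeasurable ((aem hP.cpt.isClosed hv).mono_ac hac) hAm]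
    calc volume (B ∩ Eᶜ) = ∫⁻ _ in B ∩ Eᶜ, 1 ∂(volume.restrict Eᶜ) := by
          rw [setLIntegral_one, Measure.restrict_apply hEm, inter_assoc, inter_self]
      _ = ∫⁻ w in B ∩ Eᶜ, ((Real.toNNReal (bm R hR w.im) : ℝ≥0) : ℝ≥0∞) ∂(volume.restrict Eᶜ) := by
          refine setLIntegral_congr_fun hEm fun w hw => ?_
          have h1 : bm R hR w.im = 1 := bm_one hR (im_lt hER (hS.2 w.im hw.1.2).1).le
          simp only [h1, Real.toNNReal_one, ENNReal.coe_one]
      _ = (volume.restrict Eᶜ).withDensity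
            (fun w : ℂ => ((Real.toNNReal (bm R hR w.im) : ℝ≥0) : ℝ≥0∞)) (B ∩ Eᶜ) :=
          (withDensity_apply _ hEm).symm
      _ ≤ _ := by
          refine measure_mono fun w hw => ⟨hw.1.1, ?_⟩
          rw [mem_closedBall, Real.dist_eq]
          exact hV w hw.2 ⟨hw.1.1.1, by linarith [hw.1.1.2]⟩ hw.1.2
  -- the solids
  have hso : ∑' M : Sol E, volume (B ∩ M.1.1) ≤ LamS E c (Ioo x (x + ε) ×ˢ closedBall c0 r) := by
    rw [LamS_apply hAm]
    refine ENNReal.tsum_le_tsum fun M => ?_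
    obtain ⟨h1, h2⟩ := vol_solid (M.1.isCompact hP.cpt) (hb M) (x := x) (y1 := y1) (y2 := y2) (ε := ε)
    by_cases h3 : ∃ p ∈ bx (lo M.1.1) (b M) (wd M.1.1), p.re ∈ Ioo x (x + ε) ∧ p.im ∈ Icc y1 y2
    · refine h1.trans ?_
      gcongr
      intro t ht
      obtain ⟨p, hp, hp1, hp2⟩ := h3
      have h4 := hSo M ⟨p, hp, ⟨hp1.1, by linarith [hp1.2]⟩, hp2⟩
      exact ⟨ht, by rw [mem_closedBall, Real.dist_eq]; exact h4⟩
    · rw [h2 h3]; exact zero_le
  -- the total area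
  have hvol : volume B = ENNReal.ofReal ((y2 - y1) * ε) := by
    have h2 := Complex.volume_preserving_equiv_real_prod.measure_preimage
      (s := Ioo x (x + ε) ×ˢ Icc y1 y2) (measurableSet_Ioo.prod measurableSet_Icc).nullMeasurableSet
    rw [Measure.volume_eq_prod, Measure.prod_prod, Real.volume_Ioo, Real.volume_Icc,
      ← ENNReal.ofReal_mul (by linarith)] at h2
    calc volume B = _ := h2
      _ = _ := by congr 1; ring
  have hcov : B ⊆ (B ∩ Eᶜ) ∪ ((E \ ⋃ M : Sol E, M.1.1) ∪ ⋃ M : Sol E, B ∩ M.1.1) := by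
    intro w hw
    by_cases h1 : w ∈ E
    · right
      by_cases h2 : w ∈ ⋃ M : Sol E, M.1.1
      · right
        obtain ⟨M, hM⟩ := mem_iUnion.1 h2
        exact mem_iUnion.2 ⟨M, hw, hM⟩
      · exact Or.inl ⟨h1, h2⟩
    · exact Or.inl ⟨hw, h1⟩
  calc ENNReal.ofReal (l * ε) ≤ volume B := by
        rw [hvol]; exact ENNReal.ofReal_le_ofReal (mul_le_mul_of_nonneg_right hl hε0.le)
    _ ≤ volume (B ∩ Eᶜ) + (volume (E \ ⋃ M : Sol E, M.1.1) + volume (⋃ M : Sol E, B ∩ M.1.1)) :=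
        (measure_mono hcov).trans ((measure_union_le _ _).trans
          (add_le_add le_rfl (measure_union_le _ _)))
    _ ≤ volume (B ∩ Eᶜ) + ∑' M : Sol E, volume (B ∩ M.1.1) := by
        rw [hP.null, zero_add]
        exact add_le_add le_rfl (measure_iUnion_le _)
    _ ≤ _ := by
        rw [Measure.add_apply]
        exact add_le_add hpl hso

/-- the abscissae of the long pieces are null -/
theorem null_abscissae (hP : PicT E) {l : ℝ} (hl : 0 < l) :
    volume {x : ℝ | ∃ y1 y2, l ≤ y2 - y1 ∧ Seg E x y1 y2} = 0 := by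
  have := countable_sol hP.sum
  choose b hb using fun M : Sol E => hP.sq M.1 M.2
  set N : Set ℂ := E \ ⋃ M : Sol E, bx (lo M.1.1) (b M) (wd M.1.1) with hN
  have hNm : MeasurableSet N := hP.cpt.isClosed.measurableSet.diff
    (MeasurableSet.iUnion fun M => (isClosed_bx _ _ _).measurableSet)
  have h0 : volume N = 0 := by
    have hsub : N ⊆ (E \ ⋃ M : Sol E, M.1.1) ∪
        ⋃ M : Sol E, (M.1.1 \ bx (lo M.1.1) (b M) (wd M.1.1)) := by
      rintro w ⟨h1, h2⟩
      by_cases h3 : w ∈ ⋃ M : Sol E, M.1.1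
      · right
        obtain ⟨M, hM⟩ := mem_iUnion.1 h3
        exact mem_iUnion.2 ⟨M, hM, fun hc => h2 (mem_iUnion.2 ⟨M, hc⟩)⟩
      · exact Or.inl ⟨h1, h3⟩
    refine measure_mono_null hsub (measure_union_null hP.null (measure_iUnion_null fun M => ?_))
    have hM := M.1.isCompact hP.cpt
    have hm : MeasurableSet (M.1.1 \ bx (lo M.1.1) (b M) (wd M.1.1)) :=
      hM.isClosed.measurableSet.diff (isClosed_bx _ _ _).measurableSet
    rw [Sct_636.volume_eq_lintegral_sec hm,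
      lintegral_eq_zero_iff' (Sct_636.measurable_volume_sec hm).aemeasurable]
    filter_upwards [(hb M).ae] with t ht
    have h2 : sec (M.1.1 \ bx (lo M.1.1) (b M) (wd M.1.1)) t = ∅ := by
      refine eq_empty_of_forall_notMem fun y hy => hy.2 ?_
      have h3 : t ∈ Icc (lo M.1.1) (lo M.1.1 + wd M.1.1) :=
        ⟨lo_le hM hy.1, by rw [← hi_eq]; exact le_hi hM hy.1⟩
      refine ⟨h3, ?_⟩
      have h4 : y ∈ sec M.1.1 t := hy.1
      rw [ht h3] at h4
      exact h4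
    have h5 := congrArg volume h2
    rw [measure_empty] at h5
    exact h5
  rw [Sct_636.volume_eq_lintegral_sec hNm,
    lintegral_eq_zero_iff' (Sct_636.measurable_volume_sec hNm).aemeasurable] at h0
  have h1 : {x : ℝ | ∃ y1 y2, l ≤ y2 - y1 ∧ Seg E x y1 y2} ⊆ {x | ¬ volume (sec N x) = 0} := by
    rintro x ⟨y1, y2, hy, hS⟩ hx
    have h2 : Icc y1 y2 ⊆ sec N x := by
      intro y hyy
      refine ⟨(hS.2 y hyy).1, fun hc => ?_⟩
      obtain ⟨M, hM⟩ := mem_iUnion.1 hc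
      exact (hS.2 y hyy).2 M.1 M.2 ⟨b M, hb M, hM⟩
    have h3 := measure_mono_null h2 hx
    rw [Real.volume_Icc, ENNReal.ofReal_eq_zero] at h3
    linarith
  exact measure_mono_null h1 (ae_iff.1 h0)

/-- **null values**: the values of `v` at the hairs and at the attached pieces form a null set -/
theorem null_values (hP : PicT E) (hv : TT E v) (hm : MinFam E v) :
    volume {c : ℝ | ∃ x y1 y2, Seg E x y1 y2 ∧ RLim E v x y1 y2 c} = 0 := by
  obtain ⟨R0, hR0⟩ := hP.cpt.isBounded.exists_norm_le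
  set R : ℝ := max R0 0 + 1 with hR1
  have hR : 0 < R := by have := le_max_right R0 0; linarith
  have hER : E ⊆ ball 0 R := fun z hz => by
    rw [mem_ball_zero_iff]
    have := hR0 z hz
    have := le_max_left R0 0
    linarith
  have hrng : ∀ M : Cmp E, ∃ c : ℝ, ∀ ε > 0, ∀ᶠ z in eK E M.1, |v z - c| ≤ osc E v M.1 + ε := by
    intro M
    obtain ⟨α, β, h⟩ := Elf_600.exists_rng hv.q.bdd M.1
    refine ⟨α, fun ε hε => ?_⟩
    filter_upwards [h.lo ε hε, h.hi ε hε] with z h1 h2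
    have h3 := h.osc
    have h4 := osc_nonneg E v M.1
    rw [abs_le]
    constructor <;> linarith
  choose c hc using hrng
  have hlaw := law hP hv hR hER hc hm
  have hfV := finite_nuV (E := E) hv hR
  have hfS := finite_nuS hP hv
  have key : ∀ n : ℕ, volume (Prod.snd '' {p : ℝ × ℝ | ∃ y1 y2, (1 : ℝ) / (n + 1) ≤ y2 - y1 ∧
      Seg E p.1 y1 y2 ∧ RLim E v p.1 y1 y2 p.2}) = 0 := by
    intro n
    have hl : (0 : ℝ) < 1 / (n + 1) := by positivity
    refine law_null hlaw (by positivity) hl ?_ ?_ ?_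
    · rintro ⟨x, c0⟩ ⟨y1, y2, h1, h2, h3⟩ r hr
      exact conc hP hv hR hER hc h2 h3 h1 hr
    · rintro ⟨x, c0⟩ ⟨y1, y2, h1, h2, h3⟩
      have h4 := re_lt hER (h2.2 y1 ⟨le_rfl, h2.1.le⟩).1
      exact abs_lt.1 h4
    · refine measure_mono_null ?_ (null_abscissae hP hl)
      rintro _ ⟨⟨x, c0⟩, ⟨y1, y2, h1, h2, -⟩, rfl⟩
      exact ⟨y1, y2, h1, h2⟩
  refine measure_mono_null ?_ (measure_iUnion_null key)
  rintro c0 ⟨x, y1, y2, h1, h2⟩
  obtain ⟨n, hn⟩ := exists_nat_one_div_lt (sub_pos.2 h1.1)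
  exact mem_iUnion.2 ⟨n, ⟨(x, c0), ⟨y1, y2, hn.le, h1, h2⟩, rfl⟩⟩

end Crest.Agent.R105.Nlq_138
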