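import Mathlib

/-!
# Row 105, S0138 (NI frame), node E13, NO NODE, part 1 (helper281)

The tent function `tent q R w = (1 - |w - q|_∞ / R)⁺`, its oscillation on a closed square, and the
count `Σ (chg)² ≤ 16` for disjoint squares meeting the box of radius `R` about `q`.
-/

set_option autoImplicit false

open MeasureTheory Set Filter Topology Metric
open scoped NNReal ENNReal

namespace Crest.Agent.R105.Nod_281

noncomputable section

/-- sup norm -/
def nm (w : ℂ) : ℝ := max |w.re| |w.im|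

/-- tent -/
def tent (q : ℂ) (R : ℝ) (w : ℂ) : ℝ := max 0 (1 - nm (w - q) / R)

/-- closed square -/
def CSq (c : ℂ) (r : ℝ) : Set ℂ := {w : ℂ | |w.re - c.re| ≤ r ∧ |w.im - c.im| ≤ r}

/-- open square -/
def OSq (c : ℂ) (r : ℝ) : Set ℂ := {w : ℂ | |w.re - c.re| < r ∧ |w.im - c.im| < r}

lemma nm_nonneg (w : ℂ) : 0 ≤ nm w := (abs_nonneg _).trans (le_max_left _ _)

lemma nm_le_norm (w : ℂ) : nm w ≤ ‖w‖ :=
  max_le (Complex.abs_re_le_norm w) (Complex.abs_im_le_norm w)

lemma norm_le_nm (w : ℂ) : ‖w‖ ≤ 2 * nm w := by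
  have h1 := Complex.norm_le_abs_re_add_abs_im w
  have h2 : |w.re| ≤ nm w := le_max_left _ _
  have h3 : |w.im| ≤ nm w := le_max_right _ _
  linarith

lemma nm_add_le (w w' : ℂ) : nm (w + w') ≤ nm w + nm w' := by
  refine max_le ?_ ?_
  · rw [Complex.add_re]
    exact (abs_add_le _ _).trans (add_le_add (le_max_left _ _) (le_max_left _ _))
  · rw [Complex.add_im]
    exact (abs_add_le _ _).trans (add_le_add (le_max_right _ _) (le_max_right _ _))

lemma nm_neg (w : ℂ) : nm (-w) = nm w := by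
  unfold nm; simp

lemma nm_le_add (w : ℂ) : nm w ≤ |w.re| + |w.im| :=
  max_le (le_add_of_nonneg_right (abs_nonneg _)) (le_add_of_nonneg_left (abs_nonneg _))

lemma nm_sq_le (w : ℂ) : nm w ^ 2 ≤ w.re ^ 2 + w.im ^ 2 := by
  unfold nm
  rcases max_choice |w.re| |w.im| with h | h <;> rw [h, sq_abs]
  · nlinarith [sq_nonneg w.im]
  · nlinarith [sq_nonneg w.re]

lemma continuous_nm : Continuous nm := by
  unfold nm
  exact (Complex.continuous_re.abs).max (Complex.continuous_im.abs)

lemma abs_nm_sub_le (q w w' : ℂ) : |nm (w - q) - nm (w' - q)| ≤ nm (w - w') := by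
  rw [abs_le]
  constructor
  · have h := nm_add_le (w - q) (w' - w)
    rw [show w - q + (w' - w) = w' - q by ring] at h
    have h2 : nm (w' - w) = nm (w - w') := by rw [← nm_neg]; congr 1; ring
    linarith
  · have h := nm_add_le (w' - q) (w - w')
    rw [show w' - q + (w - w') = w - q by ring] at h
    linarith

section
variable {q : ℂ} {R : ℝ}

lemma tent_nonneg (w : ℂ) : 0 ≤ tent q R w := le_max_left _ _

lemma tent_le_one (hR : 0 < R) (w : ℂ) : tent q R w ≤ 1 := by
  refine max_le zero_le_one ?_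
  have : 0 ≤ nm (w - q) / R := div_nonneg (nm_nonneg _) hR.le
  linarith

lemma tent_zero (hR : 0 < R) {w : ℂ} (h : R ≤ nm (w - q)) : tent q R w = 0 := by
  refine max_eq_left ?_
  have : 1 ≤ nm (w - q) / R := (one_le_div hR).2 h
  linarith

lemma tent_ge (w : ℂ) : 1 - nm (w - q) / R ≤ tent q R w := le_max_right _ _

lemma tent_lip (hR : 0 < R) (w w' : ℂ) : |tent q R w - tent q R w'| ≤ nm (w - w') / R := by
  have h1 : |tent q R w - tent q R w'| ≤ |(1 - nm (w - q) / R) - (1 - nm (w' - q) / R)| := by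
    unfold tent
    have := abs_max_sub_max_le_abs (0 : ℝ) (1 - nm (w - q) / R) (1 - nm (w' - q) / R)
    rw [max_comm 0, max_comm 0]
    simpa [max_comm] using abs_max_sub_max_le_abs (1 - nm (w - q) / R) (1 - nm (w' - q) / R) (0 : ℝ)
  refine h1.trans ?_
  have h2 : (1 - nm (w - q) / R) - (1 - nm (w' - q) / R) = -((nm (w - q) - nm (w' - q)) / R) := by
    ring
  rw [h2, abs_neg, abs_div, abs_of_pos hR]
  gcongr
  exact abs_nm_sub_le q w w'

lemma continuous_tent : Continuous (tent q R) := by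
  unfold tent
  exact continuous_const.max (continuous_const.sub
    ((continuous_nm.comp (continuous_id.sub continuous_const)).div_const _))

/-- the charge of a square -/
def chg (q : ℂ) (R : ℝ) (c : ℂ) (r : ℝ) : ℝ :=
  open Classical in if ∃ w ∈ CSq c r, nm (w - q) < R then min 1 (2 * r / R) else 0

lemma chg_nonneg (hR : 0 < R) {c : ℂ} {r : ℝ} (hr : 0 ≤ r) : 0 ≤ chg q R c r := by
  unfold chg
  split_ifs
  · exact le_min zero_le_one (by positivity)
  · exact le_rfl

lemma tent_osc (hR : 0 < R) {c : ℂ} {r : ℝ} {w w' : ℂ} (hw : w ∈ CSq c r)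
    (hw' : w' ∈ CSq c r) : |tent q R w - tent q R w'| ≤ chg q R c r := by
  unfold chg
  split_ifs with h
  · refine le_min ?_ ?_
    · rw [abs_le]
      have h1 := tent_nonneg (q := q) (R := R) w
      have h2 := tent_nonneg (q := q) (R := R) w'
      have h3 := tent_le_one (q := q) hR w
      have h4 := tent_le_one (q := q) hR w'
      constructor <;> linarith
    · refine (tent_lip hR w w').trans ?_
      gcongr
      refine max_le ?_ ?_
      · rw [Complex.sub_re, abs_le]
        have h1 := abs_le.1 hw.1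
        have h2 := abs_le.1 hw'.1
        constructor <;> linarith [h1.1, h1.2, h2.1, h2.2]
      · rw [Complex.sub_im, abs_le]
        have h1 := abs_le.1 hw.2
        have h2 := abs_le.1 hw'.2
        constructor <;> linarith [h1.1, h1.2, h2.1, h2.2]
  · have h1 : R ≤ nm (w - q) := not_lt.1 fun h' => h ⟨w, hw, h'⟩
    have h2 : R ≤ nm (w' - q) := not_lt.1 fun h' => h ⟨w', hw', h'⟩
    rw [tent_zero hR h1, tent_zero hR h2]
    simp

end

/-- open box -/
def Bx (a b m : ℝ) : Set ℂ := {w : ℂ | w.re ∈ Ioo a (a + m) ∧ w.im ∈ Ioo b (b + m)}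

lemma volume_Bx (a b : ℝ) {m : ℝ} (hm : 0 ≤ m) : volume (Bx a b m) = ENNReal.ofReal (m ^ 2) := by
  have h1 : Bx a b m = Complex.measurableEquivRealProd ⁻¹' (Ioo a (a + m) ×ˢ Ioo b (b + m)) := by
    ext w; rfl
  rw [h1, Complex.volume_preserving_equiv_real_prod.measure_preimage_equiv, Measure.volume_eq_prod,
    Measure.prod_prod, Real.volume_Ioo, Real.volume_Ioo, ← ENNReal.ofReal_mul (by linarith)]
  congr 1
  ring

lemma measurableSet_Bx (a b m : ℝ) : MeasurableSet (Bx a b m) :=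
  (measurableSet_Ioo.preimage Complex.measurable_re).inter
    (measurableSet_Ioo.preimage Complex.measurable_im)

lemma sub_int {c r w m q R : ℝ} (h1 : |w - c| ≤ r) (h2 : m ≤ 2 * r) (h3 : 0 ≤ m) (h4 : m ≤ R)
    (h5 : |w - q| < R) : ∃ α, c - r ≤ α ∧ α + m ≤ c + r ∧ q - 2 * R ≤ α ∧ α + m ≤ q + 2 * R := by
  rw [abs_le] at h1
  rw [abs_lt] at h5
  refine ⟨max (c - r) (w - m), le_max_left _ _, ?_, ?_, ?_⟩
  · rcases max_choice (c - r) (w - m) with h | h <;> rw [h] <;> linarith [h1.1, h1.2]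
  · refine le_trans ?_ (le_max_right _ _)
    linarith [h5.1]
  · have : max (c - r) (w - m) ≤ w := max_le (by linarith [h1.1]) (by linarith)
    linarith [h5.2]

/-- **count**: disjoint squares meeting a box -/
theorem sum_chg {ι : Type*} [Countable ι] {q : ℂ} {R : ℝ} (hR : 0 < R) {c : ι → ℂ} {r : ι → ℝ}
    (hr : ∀ i, 0 < r i) (hd : Pairwise (Function.onFun Disjoint fun i => OSq (c i) (r i))) :
    ∑' i, ENNReal.ofReal (chg q R (c i) (r i) ^ 2) ≤ 16 := by
  classical
  have key : ∀ i, ∃ T : Set ℂ, MeasurableSet T ∧ T ⊆ OSq (c i) (r i) ∧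
      T ⊆ Bx (q.re - 2 * R) (q.im - 2 * R) (4 * R) ∧
      volume T = ENNReal.ofReal (R ^ 2 * chg q R (c i) (r i) ^ 2) := by
    intro i
    by_cases h : ∃ w ∈ CSq (c i) (r i), nm (w - q) < R
    · obtain ⟨w, hw, hwq⟩ := h
      have hch : chg q R (c i) (r i) = min 1 (2 * r i / R) := if_pos ⟨w, hw, hwq⟩
      set m : ℝ := min R (2 * r i) with hm
      have hm0 : 0 < m := lt_min hR (by have := hr i; linarith)
      have hmR : R * chg q R (c i) (r i) = m := by
        rw [hch, hm, mul_min_of_nonneg _ _ hR.le, mul_one, mul_div_cancel₀ _ hR.ne']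
      have h1 : |w.re - q.re| < R := lt_of_le_of_lt (le_max_left _ _) hwq
      have h2 : |w.im - q.im| < R := lt_of_le_of_lt (le_max_right _ _) hwq
      obtain ⟨α, a1, a2, a3, a4⟩ := sub_int hw.1 (min_le_right _ _) hm0.le (min_le_left _ _) h1
      obtain ⟨β, b1, b2, b3, b4⟩ := sub_int hw.2 (min_le_right _ _) hm0.le (min_le_left _ _) h2
      refine ⟨Bx α β m, measurableSet_Bx _ _ _, ?_, ?_, ?_⟩
      · rintro z ⟨⟨z1, z2⟩, z3, z4⟩
        exact ⟨abs_lt.2 ⟨by linarith, by linarith⟩, abs_lt.2 ⟨by linarith, by linarith⟩⟩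
      · rintro z ⟨⟨z1, z2⟩, z3, z4⟩
        exact ⟨⟨by linarith, by linarith⟩, by linarith, by linarith⟩
      · rw [volume_Bx _ _ hm0.le, ← hmR, mul_pow]
    · refine ⟨∅, MeasurableSet.empty, empty_subset _, empty_subset _, ?_⟩
      have hch : chg q R (c i) (r i) = 0 := if_neg h
      rw [hch]; simp
  choose T hTm hTs hTb hTv using key
  have h1 : ∑' i, volume (T i) ≤ ENNReal.ofReal ((4 * R) ^ 2) := by
    rw [← measure_iUnion (fun i j hij => (hd hij).mono (hTs i) (hTs j)) hTm,
      ← volume_Bx (q.re - 2 * R) (q.im - 2 * R) (by linarith : 0 ≤ 4 * R)]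
    exact measure_mono (iUnion_subset hTb)
  have h2 : ENNReal.ofReal (R ^ 2) * ∑' i, ENNReal.ofReal (chg q R (c i) (r i) ^ 2) ≤
      ENNReal.ofReal (R ^ 2) * 16 := by
    rw [← ENNReal.tsum_mul_left]
    calc ∑' i, ENNReal.ofReal (R ^ 2) * ENNReal.ofReal (chg q R (c i) (r i) ^ 2)
        = ∑' i, volume (T i) := by
          refine tsum_congr fun i => ?_
          rw [hTv, ← ENNReal.ofReal_mul (by positivity)]
      _ ≤ ENNReal.ofReal ((4 * R) ^ 2) := h1
      _ = ENNReal.ofReal (R ^ 2) * 16 := by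
          rw [show (16 : ℝ≥0∞) = ENNReal.ofReal 16 by norm_num, ← ENNReal.ofReal_mul (by positivity)]
          congr 1; ring
  exact (ENNReal.mul_le_mul_iff_right (by simpa using hR.ne') ENNReal.ofReal_ne_top).1 h2

end

end Crest.Agent.R105.Nod_281
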