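import Crest.Agent.R105.Nod1_281
import Crest.Agent.R105.Nie2_909

/-!
# Row 105, S0138 (NI frame), node E13, NO NODE, part 2 (helper281): the tent along `F`

`b = tent q R ∘ F`: locally Lipschitz, energy `≤ (en X + en y) / R²` on `{|F - q|_∞ < R}`, `0`
elsewhere; slice inequality for `b` with charges on the squares.
-/

set_option autoImplicit false

open MeasureTheory Set Filter Topology Metric
open scoped NNReal ENNReal

namespace Crest.Agent.R105.Nod_281

open Bd_775 Tc_808 Ni_459 Crest.AnalysisR Sl_732 IfB_641 Plv_626 Nie_909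
open Vs_439 (mul measurable_mul lintegral_mul_le am_gm wdg_le_en measurable_en')

noncomputable section

variable {Y : Set ℂ} {x0 a : ℂ → ℝ} {F : ℂ → ℂ} {q : ℂ} {R : ℝ}

lemma nm_smul (s : ℝ) (w : ℂ) : nm (s • w) = |s| * nm w := by
  unfold nm
  rw [Complex.smul_re, Complex.smul_im, smul_eq_mul, smul_eq_mul, abs_mul, abs_mul,
    mul_max_of_nonneg _ _ (abs_nonneg s)]

/-- derivative of a function controlled by `F` -/
lemma fd_bound {b : ℂ → ℝ} {z : ℂ} (hF : DifferentiableAt ℝ F z) {M : ℝ} (hM : 0 ≤ M)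
    (h : ∀ w, |b w - b z| ≤ M * nm (F w - F z)) (v : ℂ) :
    |fderiv ℝ b z v| ≤ M * nm (fderiv ℝ F z v) := by
  by_cases hb : DifferentiableAt ℝ b z
  · have h1 := hb.hasFDerivAt.hasLineDerivAt v
    have h2 := hF.hasFDerivAt.hasLineDerivAt v
    unfold HasLineDerivAt at h1 h2
    rw [hasDerivAt_iff_tendsto_slope_zero] at h1 h2
    refine le_of_tendsto_of_tendsto h1.abs
      (((continuous_nm.tendsto _).comp h2).const_mul M) ?_
    filter_upwards with s
    simp only [Function.comp, zero_add, zero_smul, add_zero]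
    rw [smul_eq_mul, abs_mul, nm_smul]
    have h3 := h (z + s • v)
    calc |s⁻¹| * |b (z + s • v) - b z| ≤ |s⁻¹| * (M * nm (F (z + s • v) - F z)) := by gcongr
      _ = M * (|s⁻¹| * nm (F (z + s • v) - F z)) := by ring
  · rw [fderiv_zero_of_not_differentiableAt hb]
    simp only [zero_apply, abs_zero]
    exact mul_nonneg hM (nm_nonneg _)

/-- coordinates of the derivative -/
lemma fd_re {z : ℂ} (hF : DifferentiableAt ℝ F z) (v : ℂ) :
    (fderiv ℝ F z v).re = fderiv ℝ (fun w => (F w).re) z v := by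
  have h := (Complex.reCLM.hasFDerivAt.comp z hF.hasFDerivAt).fderiv
  have h2 : (fun w => (F w).re) = (Complex.reCLM ∘ F) := rfl
  rw [h2, h]; rfl

lemma fd_im {z : ℂ} (hF : DifferentiableAt ℝ F z) (v : ℂ) :
    (fderiv ℝ F z v).im = fderiv ℝ (fun w => (F w).im) z v := by
  have h := (Complex.imCLM.hasFDerivAt.comp z hF.hasFDerivAt).fderiv
  have h2 : (fun w => (F w).im) = (Complex.imCLM ∘ F) := rfl
  rw [h2, h]; rfl

lemma en_bound {b : ℂ → ℝ} {z : ℂ} (hF : DifferentiableAt ℝ F z) {M : ℝ} (hM : 0 ≤ M)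
    (h : ∀ w, |b w - b z| ≤ M * nm (F w - F z)) :
    en b z ≤ M ^ 2 * (en (fun w => (F w).re) z + en (fun w => (F w).im) z) := by
  have key : ∀ v, (fderiv ℝ b z v) ^ 2 ≤
      M ^ 2 * ((fderiv ℝ (fun w => (F w).re) z v) ^ 2 + (fderiv ℝ (fun w => (F w).im) z v) ^ 2) := by
    intro v
    have h1 := fd_bound hF hM h v
    have h2 := nm_sq_le (fderiv ℝ F z v)
    rw [fd_re hF, fd_im hF] at h2
    have h3 : (fderiv ℝ b z v) ^ 2 ≤ (M * nm (fderiv ℝ F z v)) ^ 2 := by
      rw [← sq_abs (fderiv ℝ b z v)]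
      exact pow_le_pow_left₀ (abs_nonneg _) h1 2
    rw [mul_pow] at h3
    exact h3.trans (mul_le_mul_of_nonneg_left h2 (sq_nonneg M))
  unfold en gx gy
  have := key 1
  have := key Complex.I
  nlinarith

/-- the tent along `F` -/
def bt (F : ℂ → ℂ) (q : ℂ) (R : ℝ) (z : ℂ) : ℝ := tent q R (F z)

lemma bt_lip (hR : 0 < R) (z w : ℂ) : |bt F q R z - bt F q R w| ≤ R⁻¹ * nm (F z - F w) := by
  have := tent_lip (q := q) hR (F z) (F w)
  rw [div_eq_inv_mul] at this
  exact this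

lemma bt_ll (hR : 0 < R) (hFl : LocallyLipschitzOn Yᶜ F) : LocallyLipschitzOn Yᶜ (bt F q R) := by
  intro x hx
  obtain ⟨K, t, ht, hK⟩ := hFl hx
  refine ⟨R⁻¹.toNNReal * K, t, ht, ?_⟩
  refine LipschitzOnWith.of_dist_le_mul fun p hp w hw => ?_
  have h1 := bt_lip (F := F) (q := q) hR p w
  have h2 := hK.dist_le_mul p hp w hw
  rw [Real.dist_eq, NNReal.coe_mul, Real.coe_toNNReal _ (inv_nonneg.2 hR.le), mul_assoc]
  refine h1.trans (mul_le_mul_of_nonneg_left ?_ (inv_nonneg.2 hR.le))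
  rw [dist_eq_norm] at h2
  exact (nm_le_norm _).trans h2

lemma bt_en (hR : 0 < R) {z : ℂ} (hF : DifferentiableAt ℝ F z) :
    en (bt F q R) z ≤ (R⁻¹) ^ 2 * (en (fun w => (F w).re) z + en (fun w => (F w).im) z) :=
  en_bound hF (inv_nonneg.2 hR.le) fun w => bt_lip hR w z

lemma bt_fderiv_zero (hR : 0 < R) {z : ℂ} (hz : R ≤ nm (F z - q)) : fderiv ℝ (bt F q R) z = 0 := by
  have h1 : IsLocalMin (bt F q R) z := by
    refine Filter.Eventually.of_forall fun w => ?_
    change tent q R (F z) ≤ tent q R (F w)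
    rw [tent_zero hR hz]
    exact tent_nonneg _
  exact h1.fderiv_eq_zero

lemma wdg_bt_zero (A : ℂ → ℝ) (hR : 0 < R) {z : ℂ} (hz : R ≤ nm (F z - q)) :
    wdg A (bt F q R) z = 0 := by
  unfold wdg gx gy
  rw [bt_fderiv_zero hR hz]
  simp

/-- the charge at a solid -/
lemma bt_ch (hR : 0 < R) {L K : Set ℂ} {c : ℂ} {r : ℝ}
    (h : ∀ δ > 0, ∃ O, IsOpen O ∧ K ⊆ O ∧ ∀ z ∈ (O ∩ L) \ Y, ∃ w ∈ CSq c r, ‖F z - w‖ < δ) :
    ChLe Y L (bt F q R) K (chg q R c r) := by
  intro δ hδ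
  obtain ⟨O, hO, hKO, h1⟩ := h (R * δ / 2) (by positivity)
  refine ⟨O, hO, hKO, fun p hp p' hp' => ?_⟩
  obtain ⟨w, hw, hpw⟩ := h1 p hp
  obtain ⟨w', hw', hpw'⟩ := h1 p' hp'
  have e1 : |tent q R (F p) - tent q R w| ≤ δ / 2 := by
    refine (tent_lip hR _ _).trans ?_
    rw [div_le_iff₀ hR]
    have := (nm_le_norm (F p - w)).trans hpw.le
    linarith
  have e2 : |tent q R (F p') - tent q R w'| ≤ δ / 2 := by
    refine (tent_lip hR _ _).trans ?_
    rw [div_le_iff₀ hR]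
    have := (nm_le_norm (F p' - w')).trans hpw'.le
    linarith
  have e3 := tent_osc (q := q) hR hw hw'
  change |tent q R (F p) - tent q R (F p')| ≤ _
  rw [abs_le] at e1 e2 e3 ⊢
  constructor <;> linarith [e1.1, e1.2, e2.1, e2.2, e3.1, e3.2]

/-- **slices**: a level which accumulates at `q` -/
theorem slice_one (hY : IsExteriorDomain Yᶜ) (hx : X0 Y x0) (ha : TT Y a)
    (hs : Swd Y (fun z => x0 z + a z)) {P : Set (Cmp Y)} (hP : P.Countable)
    (hFc : ContinuousOn F Yᶜ) (hfar : Tendsto (fun z => ‖F z‖) (cocompact ℂ) atTop)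
    (hvX : ∀ᵐ t : ℝ, SmV Y (Lv Y (fun z => x0 z + a z) t) (Sv P) (fun z => (F z).re))
    (hvy : ∀ᵐ t : ℝ, SmV Y (Lv Y (fun z => x0 z + a z) t) (Sv P) (fun z => (F z).im))
    {c : Cmp Y → ℂ} {r : Cmp Y → ℝ}
    (hat : ∀ᵐ t : ℝ, ∀ K ∈ P, K.1 ⊆ Lv Y (fun z => x0 z + a z) t → ∀ δ > 0, ∃ O, IsOpen O ∧
      K.1 ⊆ O ∧ ∀ z ∈ (O ∩ Lv Y (fun z => x0 z + a z) t) \ Y, ∃ w ∈ CSq (c K) (r K),
        ‖F z - w‖ < δ) (q : ℂ) :
    ∀ᵐ t : ℝ, (∀ δ > 0, ∃ z ∈ Lv Y (fun z => x0 z + a z) t \ Y, ‖F z - q‖ < δ) →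
      ∀ R : ℝ, 0 < R → R ≤ 1 → 1 ≤ mul (fun z => x0 z + a z) (bt F q R) (univ \ Y) t +
        sqc Y (fun z => x0 z + a z) P (fun K => chg q R (c K) (r K)) univ t := by
  classical
  set A : ℂ → ℝ := fun z => x0 z + a z with hA
  have hYc := cpt_of hY
  have hAl : LocallyLipschitzOn Yᶜ A := Nip_31.ll_x0 hx ha
  have hAb : LB A := Nip_31.lb_x0 hx ha
  filter_upwards [hvX, hvy, hat,
    Nip_31.pos_ae hY hAl hAb (Nip_31.en_x0_fin hY hx ha)] with t h1 h2 h4 h5 hT R hR hR1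
  obtain ⟨μ, hμ, hμC⟩ := h5
  have hLc := Lv_closed hY hAb t
  have hLn := Uni_659.noIsland_nLv hY hAb (fun z hz => Nip_31.contAt hY hAl hz) hs t
  by_contra hlt
  push Not at hlt
  set g : ℝ≥0∞ := mul A (bt F q R) (univ \ Y) t +
    sqc Y A P (fun K => chg q R (c K) (r K)) univ t with hg
  have hgt : g ≠ ∞ := (hlt.trans ENNReal.one_lt_top).ne
  have hg1 : g.toReal < 1 := by
    have := (ENNReal.toReal_lt_toReal hgt ENNReal.one_ne_top).2 hlt
    simpa using this
  have hbc : ContinuousOn (bt F q R) Yᶜ := continuous_tent.comp_continuousOn hFc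
  have hV : VarLe Y (Lv Y A t) univ (bt F q R) g.toReal := by
    refine varLe_planarN hYc hLc hLn (Lv_sat t) μ hμC
      (hP.image _) (Sv_comp P) (Complex.continuous_re.comp_continuousOn hFc)
      (Complex.continuous_im.comp_continuousOn hFc) hbc h1 h2 ?_
      (σ := chS (fun K => chg q R (c K) (r K))) ?_
      (a := A) (t := t) ?_ ENNReal.toReal_nonneg ?_
    · intro z _
      refine ⟨univ, R⁻¹, isOpen_univ, subset_univ _, fun p _ p' _ => ?_⟩
      refine (bt_lip hR p p').trans (mul_le_mul_of_nonneg_left ?_ (inv_nonneg.2 hR.le))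
      have := nm_le_add (F p - F p')
      rwa [Complex.sub_re, Complex.sub_im] at this
    · rintro _ ⟨K, hK, rfl⟩ hKL
      rw [chS_eq]
      exact bt_ch hR (h4 K hK hKL)
    · rintro z ⟨hz, hzY⟩
      have h6 := hz.1
      have h7 := hz.2
      rw [Nip_31.lo_eq hY hAl hAb hzY] at h6
      rw [Nip_31.up_eq hY hAl hAb hzY] at h7
      exact le_antisymm h6 h7
    · rw [ENNReal.ofReal_toReal hgt, hg]
      refine add_le_add le_rfl ?_
      have h6 := tsum_image (fun K : Set ℂ => if K ⊆ Lv Y A t ∩ univ then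
        ENNReal.ofReal (chS (fun K => chg q R (c K) (r K)) K) else 0)
        (Subtype.val_injective.injOn (s := P))
      rw [show (∑' K : Sv P, if K.1 ⊆ Lv Y A t ∩ univ then
          ENNReal.ofReal (chS (fun K => chg q R (c K) (r K)) K.1) else 0) =
        ∑' K : P, if K.1.1 ⊆ Lv Y A t ∩ univ then
          ENNReal.ofReal (chS (fun K => chg q R (c K) (r K)) K.1.1) else 0 from h6]
      unfold sqc
      refine ENNReal.tsum_le_tsum fun K => ?_
      by_cases h : K.1.1 ⊆ Lv Y A t ∩ univ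
      · have h8 := (h (Nip_31.pt_mem K.1)).1
        rw [if_pos h, if_pos ⟨fun z hz => (h hz).2, h8.1, h8.2⟩, chS_eq]
      · rw [if_neg h]; exact zero_le
  -- a big ball
  obtain ⟨ρ, hYρ, hρ⟩ : ∃ ρ : ℝ, Y ⊆ ball 0 ρ ∧ ∀ z : ℂ, ρ ≤ ‖z‖ → ‖q‖ + 3 ≤ ‖F z‖ := by
    have e1 := hfar.eventually_ge_atTop (‖q‖ + 3)
    rw [← Metric.cobounded_eq_cocompact, ← comap_norm_atTop, eventually_comap] at e1
    obtain ⟨ρ1, e2⟩ := eventually_atTop.1 e1
    obtain ⟨ρ2, e3⟩ := hYc.isBounded.exists_norm_le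
    refine ⟨max ρ1 (ρ2 + 1), fun z hz => ?_, fun z hz => ?_⟩
    · rw [mem_ball_zero_iff]
      exact lt_of_le_of_lt (e3 z hz) ((lt_add_one _).trans_le (le_max_right _ _))
    · exact e2 ‖z‖ ((le_max_left _ _).trans hz) z rfl
  have hbz : ∀ z : ℂ, ρ ≤ ‖z‖ → bt F q R z = 0 := by
    intro z hz
    refine tent_zero hR ?_
    have e1 := hρ z hz
    have e2 := norm_le_nm (F z - q)
    have e3 := norm_sub_norm_le (F z) q
    linarith
  have key : ∀ δ > 0, 1 - δ ≤ g.toReal := by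
    intro δ hδ
    obtain ⟨p, hp, hpq⟩ := hT (min (R * δ) 1) (lt_min (by positivity) one_pos)
    have hbp : 1 - δ ≤ bt F q R p := by
      refine le_trans ?_ (tent_ge (F p))
      have e1 : nm (F p - q) / R ≤ δ := by
        rw [div_le_iff₀ hR]
        have := (nm_le_norm (F p - q)).trans (hpq.le.trans (min_le_left _ _))
        linarith
      linarith
    have hpρ : ‖p‖ < ρ := by
      by_contra hcon
      push Not at hcon
      have e1 := hρ p hcon
      have e3 := norm_sub_norm_le (F p) q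
      have e4 := hpq.trans_le (min_le_right _ _)
      linarith
    have hN : IsCompact (closedBall (0 : ℂ) ρ) := isCompact_closedBall 0 ρ
    have hρ0 : 0 < ρ := (norm_nonneg p).trans_lt hpρ
    obtain ⟨y, hy1, hy2⟩ := Uni_659.comp_meets hLc hLn hN hp.1
      (mem_closedBall_zero_iff.2 hpρ.le)
    set D := connectedComponentIn (Lv Y A t ∩ closedBall 0 ρ) p with hD
    have hDs : D ⊆ Lv Y A t ∩ closedBall 0 ρ := connectedComponentIn_subset _ _
    have hpD : p ∈ D := mem_connectedComponentIn ⟨hp.1, mem_closedBall_zero_iff.2 hpρ.le⟩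
    rw [frontier_closedBall _ hρ0.ne', mem_sphere_zero_iff_norm] at hy2
    have hyY : y ∉ Y := fun h => by
      have := mem_ball_zero_iff.1 (hYρ h)
      linarith
    have hpc : Piece Y (Lv Y A t ∩ univ) D p y := by
      refine ⟨Thin_12.isCompact_cc (hN.inter_left hLc) p, isPreconnected_connectedComponentIn, ?_,
        fun z hz => ⟨(hDs hz).1, mem_univ _⟩, ⟨hpD, hp.2⟩, ⟨hy1, hyY⟩⟩
      intro u hu huY
      have e1 : connectedComponentIn Y u ⊆ Lv Y A t ∩ closedBall 0 ρ := fun w hw =>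
        ⟨Lv_sat t u (hDs hu).1 huY hw,
          ball_subset_closedBall (hYρ (connectedComponentIn_subset _ _ hw))⟩
      rw [hD, connectedComponentIn_eq hu]
      exact isPreconnected_connectedComponentIn.subset_connectedComponentIn
        (mem_connectedComponentIn huY) e1
    have e5 := hV.one hpc
    rw [hbz y hy2.ge, sub_zero] at e5
    exact hbp.trans ((le_abs_self _).trans e5)
  have := le_of_forall_pos_le_add (a := (1 : ℝ)) (b := g.toReal) fun δ hδ => by
    linarith [key δ hδ]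
  linarith

end

end Crest.Agent.R105.Nod_281
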