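import Crest.Agent.R105.Nod2_281

/-!
# Row 105, S0138 (NI frame), node E13, NO NODE, part 3 (helper281): **`no_node`**

Courant-Lebesgue along a.e. level of an anchor with charges on the squares only: a point `q` of the
picture plane which is neither in the picture of the domain nor in a closed square is not a limit
point of `F` along a.e. level.
-/

set_option autoImplicit false

open MeasureTheory Set Filter Topology Metric
open scoped NNReal ENNReal

namespace Crest.Agent.R105.Nod_281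

open Bd_775 Tc_808 Ni_459 Crest.AnalysisR Sl_732 IfB_641 Plv_626 Nie_909
open Vs_439 (mul measurable_mul lintegral_mul_le am_gm wdg_le_en measurable_en')

noncomputable section

variable {Y : Set ℂ} {x0 a : ℂ → ℝ} {F : ℂ → ℂ} {q : ℂ} {R : ℝ}

/-- the part of the domain which is mapped near `q` -/
def GG (Y : Set ℂ) (F : ℂ → ℂ) (q : ℂ) (R : ℝ) : Set ℂ := {z | z ∉ Y ∧ nm (F z - q) < R}

lemma isOpen_GG (hY : IsOpen Yᶜ) (hFc : ContinuousOn F Yᶜ) : IsOpen (GG Y F q R) := by
  have h1 : GG Y F q R = Yᶜ ∩ F ⁻¹' {w | nm (w - q) < R} := rfl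
  rw [h1]
  exact hFc.isOpen_inter_preimage hY
    (isOpen_lt (continuous_nm.comp (continuous_id.sub continuous_const)) continuous_const)

/-- a sequence of radii -/
def Rn (n : ℕ) : ℝ := 1 / ((n : ℝ) + 1)

lemma Rn_pos (n : ℕ) : 0 < Rn n := by unfold Rn; positivity

lemma Rn_le_one (n : ℕ) : Rn n ≤ 1 := by
  unfold Rn
  rw [div_le_one (by positivity)]; linarith [(Nat.cast_nonneg n : (0 : ℝ) ≤ n)]

lemma tendsto_Rn : Tendsto Rn atTop (𝓝 0) := tendsto_one_div_add_atTop_nhds_zero_nat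

lemma Rn_anti {i j : ℕ} (h : i ≤ j) : Rn j ≤ Rn i := by
  unfold Rn
  have : (i : ℝ) ≤ j := by exact_mod_cast h
  exact one_div_le_one_div_of_le (by positivity) (by linarith)

/-- the energy of the anchor near `q` -/
theorem tendsto_E (hY : IsExteriorDomain Yᶜ) (hx : X0 Y x0) (ha : TT Y a)
    (hFc : ContinuousOn F Yᶜ) (hfar : Tendsto (fun z => ‖F z‖) (cocompact ℂ) atTop)
    (hqU : ∀ z ∉ Y, F z ≠ q) :
    Tendsto (fun n => ∫⁻ z in GG Y F q (Rn n), ENNReal.ofReal (en (fun w => x0 w + a w) z))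
      atTop (𝓝 0) := by
  obtain ⟨ρ, hρ⟩ : ∃ ρ : ℝ, ∀ z : ℂ, ρ ≤ ‖z‖ → ‖q‖ + 3 ≤ ‖F z‖ := by
    have e1 := hfar.eventually_ge_atTop (‖q‖ + 3)
    rw [← Metric.cobounded_eq_cocompact, ← comap_norm_atTop, eventually_comap] at e1
    obtain ⟨ρ1, e2⟩ := eventually_atTop.1 e1
    exact ⟨ρ1, fun z hz => e2 ‖z‖ hz z rfl⟩
  have hfin := Nip_31.en_x0_fin hY hx ha ρ
  have hsub : ∀ n : ℕ, GG Y F q (Rn n) ⊆ ball 0 ρ \ Y := by
    rintro n z ⟨hzY, hz⟩
    refine ⟨?_, hzY⟩
    rw [mem_ball_zero_iff]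
    by_contra hcon
    push Not at hcon
    have e1 := hρ z hcon
    have e2 := norm_le_nm (F z - q)
    have e3 := norm_sub_norm_le (F z) q
    have e4 := Rn_le_one n
    linarith
  have hm : ∀ n : ℕ, MeasurableSet (GG Y F q (Rn n)) := fun n =>
    (isOpen_GG hY.1 hFc).measurableSet
  set g : ℂ → ℝ≥0∞ := fun z => ENNReal.ofReal (en (fun w => x0 w + a w) z) with hg
  have e : ∀ n : ℕ, ∫⁻ z in GG Y F q (Rn n), g z =
      (volume.withDensity g).restrict (ball 0 ρ \ Y) (GG Y F q (Rn n)) := by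
    intro n
    rw [Measure.restrict_apply (hm n), inter_eq_left.2 (hsub n), withDensity_apply _ (hm n)]
  simp_rw [e]
  have hI : ⋂ n : ℕ, GG Y F q (Rn n) = ∅ := by
    ext z
    simp only [mem_iInter, mem_empty_iff_false, iff_false]
    intro hz
    have h1 : 0 < nm (F z - q) := by
      have h2 := norm_le_nm (F z - q)
      have h3 : 0 < ‖F z - q‖ := norm_pos_iff.2 (sub_ne_zero.2 (hqU z (hz 0).1))
      linarith
    obtain ⟨n, hn⟩ := (tendsto_Rn.eventually (gt_mem_nhds h1)).exists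
    exact absurd (hz n).2 (not_lt.2 hn.le)
  have hfin2 : (volume.withDensity g).restrict (ball 0 ρ \ Y) univ ≠ ∞ := by
    rw [Measure.restrict_apply_univ, withDensity_apply _
      (isOpen_ball.measurableSet.diff (cpt_of hY).isClosed.measurableSet)]
    exact hfin
  have h1 := tendsto_measure_iInter_atTop (μ := (volume.withDensity g).restrict (ball 0 ρ \ Y))
    (s := fun n : ℕ => GG Y F q (Rn n))
    (fun n => (hm n).nullMeasurableSet) (fun i j hij => ?_) ⟨0, ?_⟩
  · rw [hI, measure_empty] at h1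
    exact h1
  · exact fun z hz => ⟨hz.1, hz.2.trans_le (Rn_anti hij)⟩
  · exact ne_top_of_le_ne_top hfin2 (measure_mono (subset_univ _))

/-- a closed square which misses `q` stays away from `q` -/
lemma chg_zero {c : ℂ} {r : ℝ} (hq : q ∉ CSq c r) : ∀ᶠ n in atTop, chg q (Rn n) c r = 0 := by
  have h1 : ∃ ε > 0, ∀ w ∈ CSq c r, ε ≤ nm (w - q) := by
    have h2 : r < |q.re - c.re| ∨ r < |q.im - c.im| := by
      by_contra hcon
      push Not at hcon
      exact hq hcon
    rcases h2 with h2 | h2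
    · refine ⟨|q.re - c.re| - r, by linarith, fun w hw => ?_⟩
      have h3 : |w.re - q.re| ≤ nm (w - q) := le_max_left _ _
      have h4 : |q.re - c.re| ≤ |w.re - q.re| + |w.re - c.re| := by
        have := abs_sub_le q.re w.re c.re
        rwa [abs_sub_comm q.re w.re] at this
      linarith [hw.1]
    · refine ⟨|q.im - c.im| - r, by linarith, fun w hw => ?_⟩
      have h3 : |w.im - q.im| ≤ nm (w - q) := le_max_right _ _
      have h4 : |q.im - c.im| ≤ |w.im - q.im| + |w.im - c.im| := by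
        have := abs_sub_le q.im w.im c.im
        rwa [abs_sub_comm q.im w.im] at this
      linarith [hw.2]
  obtain ⟨ε, hε, h1⟩ := h1
  filter_upwards [tendsto_Rn.eventually (gt_mem_nhds hε)] with n hn
  refine if_neg ?_
  rintro ⟨w, hw, hwq⟩
  linarith [h1 w hw]

/-- the jumps at the squares near `q` -/
theorem tendsto_S (ha : TT Y a) {P : Set (Cmp Y)} {c : Cmp Y → ℂ}
    {r : Cmp Y → ℝ} (hq : ∀ K ∈ P, q ∉ CSq (c K) (r K)) :
    Tendsto (fun n : ℕ => open Classical in ∑' K : P, if chg q (Rn n) (c K.1) (r K.1) ≠ 0 then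
      ENNReal.ofReal (osc Y a K.1.1 ^ 2) else 0) atTop (𝓝 0) := by
  classical
  set g : P → ℝ≥0∞ := fun K => ENNReal.ofReal (osc Y a K.1.1 ^ 2) with hg
  have hs : Summable fun K : P => osc Y a K.1.1 ^ 2 :=
    ha.sum.comp_injective Subtype.val_injective
  have hfin : ∑' K : P, g K ≠ ∞ := hs.tsum_ofReal_ne_top
  have h1 : ∀ K : P, ∀ᶠ n : ℕ in atTop, ¬ chg q (Rn n) (c K.1) (r K.1) ≠ 0 := by
    intro K
    filter_upwards [chg_zero (hq K.1 K.2)] with n hn
    simpa using hn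
  have h2 := ENNReal.tendsto_tsum_compl_atTop_zero hfin
  rw [ENNReal.tendsto_nhds_zero] at h2 ⊢
  intro ε hε
  obtain ⟨s, hs'⟩ := (h2 ε hε).exists
  filter_upwards [(Filter.eventually_all_finset s).2 fun K _ => h1 K] with n hn
  refine le_trans ?_ hs'
  have e1 : (fun K : P => if chg q (Rn n) (c K.1) (r K.1) ≠ 0 then g K else 0).support ⊆
      {K : P | K ∉ s} := by
    intro K hK hKs
    exact hK (if_neg (hn K hKs))
  rw [← tsum_subtype_eq_of_support_subset e1]
  refine ENNReal.tsum_le_tsum fun K => ?_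
  split_ifs
  · exact le_rfl
  · exact zero_le

/-- the integral of the slice bound -/
theorem int_bound (hY : IsExteriorDomain Yᶜ) (hx : X0 Y x0) (ha : TT Y a)
    {P : Set (Cmp Y)} (hP : P.Countable) (hF : ∀ z ∉ Y, DifferentiableAt ℝ F z)
    (hFl : LocallyLipschitzOn Yᶜ F) {c : Cmp Y → ℂ} {r : Cmp Y → ℝ} (hr : ∀ K ∈ P, 0 < r K)
    (hd : P.PairwiseDisjoint fun K => OSq (c K) (r K)) {C : ℝ} (hR : 0 < R)
    (harea : ∫⁻ z in GG Y F q R, ENNReal.ofReal (en (fun z => (F z).re) z +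
      en (fun z => (F z).im) z) ≤ ENNReal.ofReal (C * R ^ 2)) {θ : ℝ} (hθ : 0 < θ) :
    ∫⁻ t, (mul (fun z => x0 z + a z) (bt F q R) (univ \ Y) t +
      sqc Y (fun z => x0 z + a z) P (fun K => chg q R (c K) (r K)) univ t) ≤
    ENNReal.ofReal θ * ((∫⁻ z in GG Y F q R, ENNReal.ofReal (en (fun w => x0 w + a w) z)) +
      (open Classical in ∑' K : P, if chg q R (c K.1) (r K.1) ≠ 0 then
        ENNReal.ofReal (osc Y a K.1.1 ^ 2) else 0)) + ENNReal.ofReal θ⁻¹ * (ENNReal.ofReal C + 16) := by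
  classical
  have hYc := cpt_of hY
  set A : ℂ → ℝ := fun z => x0 z + a z with hA
  have hAl : LocallyLipschitzOn Yᶜ A := Nip_31.ll_x0 hx ha
  have hθ' : 0 < θ⁻¹ := inv_pos.2 hθ
  have hms : MeasurableSet (univ \ Y) := MeasurableSet.univ.diff hYc.isClosed.measurableSet
  have hG : MeasurableSet (GG Y F q R) := (isOpen_GG hY.1 hFl.continuousOn).measurableSet
  have hGs : GG Y F q R ⊆ univ \ Y := fun z hz => ⟨mem_univ _, hz.1⟩
  have hA1 : ∫⁻ t, mul A (bt F q R) (univ \ Y) t ≤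
      ENNReal.ofReal θ * (∫⁻ z in GG Y F q R, ENNReal.ofReal (en A z)) +
      ENNReal.ofReal θ⁻¹ * ENNReal.ofReal C := by
    refine (lintegral_mul_le hY.1 hAl (bt_ll hR hFl) (fun z hz => hz.2) hms).trans ?_
    have h4 : ∫⁻ z in univ \ Y, ENNReal.ofReal |wdg A (bt F q R) z| ≤
        ∫⁻ z in GG Y F q R, (ENNReal.ofReal θ * ENNReal.ofReal (en A z) +
          ENNReal.ofReal θ⁻¹ * (ENNReal.ofReal (R⁻¹ ^ 2) * ENNReal.ofReal
            (en (fun z => (F z).re) z + en (fun z => (F z).im) z))) := by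
      rw [← lintegral_indicator hG, ← lintegral_indicator hms]
      refine lintegral_mono fun z => ?_
      by_cases hzY : z ∈ univ \ Y
      · rw [indicator_of_mem hzY]
        by_cases hzG : z ∈ GG Y F q R
        · rw [indicator_of_mem hzG]
          have e1 := wdg_le_en (a := A) (b := bt F q R) hθ z
          have e2 := bt_en (q := q) hR (hF z hzY.2)
          have e3 : 0 ≤ en (fun z => (F z).re) z + en (fun z => (F z).im) z :=
            add_nonneg (en_nonneg _ z) (en_nonneg _ z)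
          have e4 : ENNReal.ofReal (θ * en A z + θ⁻¹ * (R⁻¹ ^ 2 *
              (en (fun z => (F z).re) z + en (fun z => (F z).im) z))) =
              ENNReal.ofReal θ * ENNReal.ofReal (en A z) + ENNReal.ofReal θ⁻¹ *
                (ENNReal.ofReal (R⁻¹ ^ 2) * ENNReal.ofReal
                  (en (fun z => (F z).re) z + en (fun z => (F z).im) z)) := by
            rw [ENNReal.ofReal_add (mul_nonneg hθ.le (en_nonneg A z)) (by positivity),
              ENNReal.ofReal_mul hθ.le, ENNReal.ofReal_mul hθ'.le, ENNReal.ofReal_mul (by positivity)]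
          rw [← e4]
          refine ENNReal.ofReal_le_ofReal (e1.trans ?_)
          exact add_le_add le_rfl (mul_le_mul_of_nonneg_left e2 hθ'.le)
        · rw [indicator_of_notMem hzG]
          have e1 : R ≤ nm (F z - q) := not_lt.1 fun h => hzG ⟨hzY.2, h⟩
          rw [wdg_bt_zero A hR e1]
          simp
      · rw [indicator_of_notMem hzY]
        exact zero_le
    refine h4.trans ?_
    rw [lintegral_add_left ((measurable_en' A).ennreal_ofReal.const_mul _),
      lintegral_const_mul' _ _ ENNReal.ofReal_ne_top, lintegral_const_mul' _ _ ENNReal.ofReal_ne_top,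
      lintegral_const_mul' _ _ ENNReal.ofReal_ne_top]
    refine add_le_add le_rfl (mul_le_mul_right ?_ _)
    calc ENNReal.ofReal (R⁻¹ ^ 2) * ∫⁻ z in GG Y F q R, ENNReal.ofReal
          (en (fun z => (F z).re) z + en (fun z => (F z).im) z)
        ≤ ENNReal.ofReal (R⁻¹ ^ 2) * ENNReal.ofReal (C * R ^ 2) := mul_le_mul_right harea _
      _ = ENNReal.ofReal C := by
          rw [← ENNReal.ofReal_mul (by positivity)]
          congr 1
          field_simp
  have hPc : Countable P := hP.to_subtype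
  have hc16 : ∑' K : P, ENNReal.ofReal (chg q R (c K.1) (r K.1) ^ 2) ≤ 16 := by
    refine sum_chg hR (fun K : P => hr K.1 K.2) fun K K' hKK => ?_
    exact hd K.2 K'.2 fun h => hKK (Subtype.ext h)
  have hA2 : ∫⁻ t, sqc Y A P (fun K => chg q R (c K) (r K)) univ t ≤
      ENNReal.ofReal θ * (∑' K : P, if chg q R (c K.1) (r K.1) ≠ 0 then
        ENNReal.ofReal (osc Y a K.1.1 ^ 2) else 0) + ENNReal.ofReal θ⁻¹ * 16 := by
    rw [lintegral_sqc hP]
    refine le_trans ?_ (add_le_add_right (mul_le_mul_right hc16 _) _)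
    rw [← ENNReal.tsum_mul_left, ← ENNReal.tsum_mul_left, ← ENNReal.tsum_add]
    refine ENNReal.tsum_le_tsum fun K => ?_
    rw [if_pos (subset_univ _)]
    by_cases h : chg q R (c K.1) (r K.1) = 0
    · rw [h]; simp
    · rw [if_pos h, Nip_31.osp_x0 hx, Nip_31.osp_eq hY ha,
        ← ENNReal.ofReal_mul (chg_nonneg hR (hr K.1 K.2).le), ← ENNReal.ofReal_mul hθ.le,
        ← ENNReal.ofReal_mul hθ'.le,
        ← ENNReal.ofReal_add (by positivity) (by positivity), mul_comm]
      exact ENNReal.ofReal_le_ofReal (am_gm hθ _ _)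
  rw [lintegral_add_left (measurable_mul A (bt F q R) (univ \ Y))]
  refine (add_le_add hA1 hA2).trans (le_of_eq ?_)
  ring

/-- **NO NODE** -/
theorem no_node (hY : IsExteriorDomain Yᶜ) (hx : X0 Y x0) (ha : TT Y a)
    (hs : Swd Y (fun z => x0 z + a z)) {P : Set (Cmp Y)} (hP : P.Countable)
    (hF : ∀ z ∉ Y, DifferentiableAt ℝ F z) (hFl : LocallyLipschitzOn Yᶜ F)
    (hfar : Tendsto (fun z => ‖F z‖) (cocompact ℂ) atTop)
    (hvX : ∀ᵐ t : ℝ, SmV Y (Lv Y (fun z => x0 z + a z) t) (Sv P) (fun z => (F z).re))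
    (hvy : ∀ᵐ t : ℝ, SmV Y (Lv Y (fun z => x0 z + a z) t) (Sv P) (fun z => (F z).im))
    {c : Cmp Y → ℂ} {r : Cmp Y → ℝ} (hr : ∀ K ∈ P, 0 < r K)
    (hd : P.PairwiseDisjoint fun K => OSq (c K) (r K))
    (hat : ∀ᵐ t : ℝ, ∀ K ∈ P, K.1 ⊆ Lv Y (fun z => x0 z + a z) t → ∀ δ > 0, ∃ O, IsOpen O ∧
      K.1 ⊆ O ∧ ∀ z ∈ (O ∩ Lv Y (fun z => x0 z + a z) t) \ Y, ∃ w ∈ CSq (c K) (r K),
        ‖F z - w‖ < δ) {C : ℝ}
    (harea : ∀ R, 0 < R → R ≤ 1 → ∫⁻ z in GG Y F q R, ENNReal.ofReal (en (fun z => (F z).re) z +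
      en (fun z => (F z).im) z) ≤ ENNReal.ofReal (C * R ^ 2))
    (hqU : ∀ z ∉ Y, F z ≠ q) (hq : ∀ K ∈ P, q ∉ CSq (c K) (r K)) :
    ∀ᵐ t : ℝ, ∃ δ > 0, ∀ z ∈ Lv Y (fun z => x0 z + a z) t \ Y, δ ≤ ‖F z - q‖ := by
  classical
  set A : ℂ → ℝ := fun z => x0 z + a z with hA
  have h1 := slice_one hY hx ha hs hP hFl.continuousOn hfar hvX hvy hat q
  set T : Set ℝ := {t | ∀ δ > 0, ∃ z ∈ Lv Y A t \ Y, ‖F z - q‖ < δ} with hT
  have hT0 : volume T = 0 := by
    refine le_antisymm (ENNReal.le_of_forall_pos_le_add fun ε hε _ => ?_) zero_le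
    rw [zero_add]
    set N : ℝ≥0∞ := ENNReal.ofReal C + 16 with hN
    have hNt : N ≠ ∞ := ENNReal.add_ne_top.2 ⟨ENNReal.ofReal_ne_top, by simp⟩
    have hε' : (0 : ℝ) < ε := by exact_mod_cast hε
    set θ : ℝ := 2 * (N.toReal + 1) / ε with hθd
    have hN0 : 0 ≤ N.toReal := ENNReal.toReal_nonneg
    have hθ : 0 < θ := by positivity
    have hθ' : 0 < θ⁻¹ := inv_pos.2 hθ
    have h2 := tendsto_E (q := q) hY hx ha hFl.continuousOn hfar hqU
    have h3 := tendsto_S ha hq
    have h4 := ENNReal.Tendsto.const_mul (a := ENNReal.ofReal θ) (h2.add h3)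
      (Or.inr ENNReal.ofReal_ne_top)
    rw [add_zero, mul_zero] at h4
    obtain ⟨n, hn⟩ := (ENNReal.tendsto_nhds_zero.1 h4 (ENNReal.ofReal (ε / 2))
      (ENNReal.ofReal_pos.2 (by positivity))).exists
    have h5 := int_bound (q := q) hY hx ha hP hF hFl hr hd (Rn_pos n)
      (harea (Rn n) (Rn_pos n) (Rn_le_one n)) hθ
    have h6 : ENNReal.ofReal θ⁻¹ * N ≤ ENNReal.ofReal (ε / 2) := by
      rw [← ENNReal.ofReal_toReal hNt, ← ENNReal.ofReal_mul hθ'.le]
      refine ENNReal.ofReal_le_ofReal ?_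
      rw [hθd, inv_div, div_mul_eq_mul_div, div_le_div_iff₀ (by positivity) (by norm_num)]
      nlinarith
    have h7 : T ≤ᵐ[volume] {t | 1 ≤ mul A (bt F q (Rn n)) (univ \ Y) t +
        sqc Y A P (fun K => chg q (Rn n) (c K) (r K)) univ t} := by
      filter_upwards [h1] with t ht htT
      exact ht htT (Rn n) (Rn_pos n) (Rn_le_one n)
    refine (measure_mono_ae h7).trans ?_
    have h8 := mul_meas_ge_le_lintegral (μ := (volume : Measure ℝ))
      ((measurable_mul A (bt F q (Rn n)) (univ \ Y)).add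
        (measurable_sqc (Y := Y) (A := A) hP (fun K => chg q (Rn n) (c K) (r K)) univ)) 1
    rw [one_mul] at h8
    refine h8.trans (h5.trans ?_)
    refine (add_le_add hn h6).trans (le_of_eq ?_)
    rw [← ENNReal.ofReal_add (by positivity) (by positivity), add_halves, ENNReal.ofReal_coe_nnreal]
  have h9 : ∀ᵐ t : ℝ, t ∉ T := by
    rw [ae_iff]
    simpa using hT0
  filter_upwards [h9] with t ht
  simp only [hT, mem_ofPred_eq, not_forall, not_exists, not_and, not_lt, exists_prop] at ht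
  exact ht

end

end Crest.Agent.R105.Nod_281
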