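import Crest.Agent.R105.NulN1_421

/-!
Row 105, lemma A (helper421): from the box to every neighbourhood.
Part 2: values near a hair, cut-off functions, `Null` in the box implies `NullN`.
-/

open MeasureTheory Set Filter Topology
open scoped NNReal ENNReal

namespace Crest.Agent.R105.NulN_421

open CF_363 Kin_238 Skp2_257

variable {a b c B : ℝ} {J : Finset Hair} {e : ℝ × ℝ → ℝ} {L : ℝ}

/-- near a hair the values are not much smaller than some trace on the hair -/
theorem near_hair (h : SL (Wl a b c B \ cut J) L e) (hL : 0 ≤ L) {K : Hair}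
    (hx : a < K.x ∧ K.x < b) (hcK : c < K.b) (hKB : K.b ≤ B) (hBK : B ≤ K.t)
    (hJ : ∀ K' ∈ J, K' ≠ K → Disjoint K.car K'.car) {η : ℝ} (hη : 0 < η) :
    ∃ O : Set (ℝ × ℝ), IsOpen O ∧ K.car ⊆ O ∧ ∀ p ∈ O, p ∉ K.car → p.2 < B →
      ∃ (σ : Bool) (y : ℝ), K.b ≤ y ∧ y ≤ B ∧ tr e σ K.x y - η ≤ e p := by
  classical
  set C' := cut (J.filter (· ≠ K)) with hC'
  set U : Set (ℝ × ℝ) := ((Ioo a b) ×ˢ (Ioi c)) ∩ C'ᶜ with hU
  have hUo : IsOpen U := (isOpen_Ioo.prod isOpen_Ioi).inter (isCompact_cut _).isClosed.isOpen_compl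
  have hKU : K.car ⊆ U := by
    intro q hq
    have hq1 : q.1 = K.x := hq.1
    have hq2 : K.b ≤ q.2 := hq.2.1
    refine ⟨⟨by rw [hq1]; exact hx, lt_of_lt_of_le hcK hq2⟩, ?_⟩
    rintro ⟨K', hK', hqK'⟩
    rw [Finset.mem_filter] at hK'
    exact (Set.disjoint_left.mp (hJ K' hK'.1 hK'.2)) hq hqK'
  obtain ⟨r, hr, hrU⟩ := K.isCompact_car.exists_thickening_subset_open hUo hKU
  set r' := min r (η / (L + 1)) with hr'
  have hr'0 : 0 < r' := lt_min hr (by positivity)
  have hr'U : Metric.thickening r' K.car ⊆ U :=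
    (Metric.thickening_mono (min_le_left _ _) _).trans hrU
  have hLr : L * r' ≤ η := by
    have h1 : r' ≤ η / (L + 1) := min_le_right _ _
    have h2 : L * r' ≤ (L + 1) * (η / (L + 1)) := by
      refine mul_le_mul (by linarith) h1 hr'0.le (by linarith)
    rwa [mul_div_cancel₀ _ (by linarith : L + 1 ≠ 0)] at h2
  have hconv : Convex ℝ (Metric.thickening r' K.car) := by
    refine Convex.thickening ?_ _
    rw [K.car_eq]
    exact (convex_singleton _).prod (convex_Icc _ _)
  refine ⟨Metric.thickening r' K.car, Metric.isOpen_thickening,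
    Metric.self_subset_thickening hr'0 _, ?_⟩
  intro p hp hpK hpB
  obtain ⟨z, hz, hpz⟩ := Metric.mem_thickening_iff.mp hp
  have hz1 : z.1 = K.x := hz.1
  have hz2 : K.b ≤ z.2 := hz.2.1
  rw [Prod.dist_eq, max_lt_iff, Real.dist_eq, Real.dist_eq, hz1] at hpz
  obtain ⟨d1, d2⟩ := hpz
  rw [abs_lt] at d1 d2
  set y := max p.2 K.b with hy
  have hyb : K.b ≤ y := le_max_right _ _
  have hyB : y ≤ B := max_le hpB.le hKB
  have hyp : |p.2 - y| ≤ r' := by
    rw [hy, abs_le]
    rcases le_total p.2 K.b with h1 | h1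
    · rw [max_eq_right h1]; constructor <;> linarith
    · rw [max_eq_left h1]; constructor <;> linarith
  have hycar : (K.x, y) ∈ K.car := ⟨rfl, hyb, hyB.trans hBK⟩
  -- the side
  have key : ∀ (σ : Bool), (∀ s ∈ sInt σ K.x r', 0 ≤ (p.1 - K.x) * (s - K.x)) →
      ∃ (σ : Bool) (y : ℝ), K.b ≤ y ∧ y ≤ B ∧ tr e σ K.x y - η ≤ e p := by
    intro σ hσ
    refine ⟨σ, y, hyb, hyB, ?_⟩
    have ht : Tendsto (fun s => e (s, y)) (side σ K.x) (𝓝 (tr e σ K.x y)) := by
      obtain ⟨g, hg, hge⟩ := exists_tr h σ hx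
      rw [(hge y (lt_of_lt_of_le hcK hyb) hyB).1]
      exact (hge y (lt_of_lt_of_le hcK hyb) hyB).2
    have hle : tr e σ K.x y ≤ e p + η := by
      refine le_of_tendsto ht ?_
      filter_upwards [sInt_mem (σ := σ) (x := K.x) hr'0] with s hs
      obtain ⟨hs1, hs2⟩ := sInt_subset hs
      have hsd : |p.1 - s| ≤ r' := by
        have h3 := hσ s hs
        rw [abs_lt] at hs1
        rw [abs_le]
        rcases le_or_gt K.x p.1 with h4 | h4
        · rcases lt_or_gt_of_ne hs2 with h5 | h5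
          · have h6 : p.1 = K.x := by
              by_contra hne
              have : 0 < p.1 - K.x := lt_of_le_of_ne (by linarith) (fun hh => hne (by linarith))
              nlinarith
            constructor <;> linarith
          · constructor <;> linarith
        · rcases lt_or_gt_of_ne hs2 with h5 | h5
          · constructor <;> linarith
          · exfalso; nlinarith
      have hsy : (s, y) ∈ Metric.thickening r' K.car := by
        refine Metric.mem_thickening_iff.mpr ⟨(K.x, y), hycar, ?_⟩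
        rw [Prod.dist_eq]
        simp only [dist_self, Real.dist_eq]
        exact max_lt hs1 hr'0
      have hseg : segment ℝ p (s, y) ⊆ Wl a b c B \ cut J := by
        intro q hq
        have hqT : q ∈ Metric.thickening r' K.car := hconv.segment_subset hp hsy hq
        have hqU := hr'U hqT
        have hqB : q.2 ≤ B := by
          have hcB : Convex ℝ {q : ℝ × ℝ | q.2 ≤ B} :=
            convex_halfSpace_le (LinearMap.snd ℝ ℝ ℝ).isLinear B
          exact hcB.segment_subset (show p.2 ≤ B from hpB.le) (show y ≤ B from hyB) hq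
        refine ⟨⟨hqU.1.1, hqU.1.2, hqB⟩, ?_⟩
        rintro ⟨K', hK', hqK'⟩
        by_cases hne : K' = K
        · subst hne
          obtain ⟨u, v, hu, hv, huv, rfl⟩ := hq
          have hq1 : u * p.1 + v * s = K'.x := hqK'.1
          have h3 := hσ s hs
          have h4 : v = 0 := by
            by_contra hv0
            have hvp : 0 < v := lt_of_le_of_ne hv (Ne.symm hv0)
            have h5 : u * (p.1 - K'.x) + v * (s - K'.x) = 0 := by
              have : u * (p.1 - K'.x) + v * (s - K'.x) = (u * p.1 + v * s) - (u + v) * K'.x := by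
                ring
              rw [this, hq1, huv]; ring
            have h6 : 0 < (s - K'.x) ^ 2 := by
              have : s - K'.x ≠ 0 := sub_ne_zero.mpr hs2
              positivity
            have h7 : u * ((p.1 - K'.x) * (s - K'.x)) + v * (s - K'.x) ^ 2 = 0 := by
              have : u * ((p.1 - K'.x) * (s - K'.x)) + v * (s - K'.x) ^ 2 =
                (u * (p.1 - K'.x) + v * (s - K'.x)) * (s - K'.x) := by ring
              rw [this, h5, zero_mul]
            have h8 : 0 ≤ u * ((p.1 - K'.x) * (s - K'.x)) := mul_nonneg hu h3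
            have h9 : 0 < v * (s - K'.x) ^ 2 := mul_pos hvp h6
            linarith
          subst h4
          have h5 : u = 1 := by linarith
          subst h5
          apply hpK
          simpa using hqK'
        · exact hqU.2 ⟨K', Finset.mem_filter.mpr ⟨hK', hne⟩, hqK'⟩
      have h10 := h p (s, y) hseg
      have h11 : dist p (s, y) ≤ r' := by
        rw [Prod.dist_eq, Real.dist_eq, Real.dist_eq]
        exact max_le hsd hyp
      have h12 : |e p - e (s, y)| ≤ η :=
        h10.trans ((mul_le_mul_of_nonneg_left h11 hL).trans hLr)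
      rw [abs_le] at h12
      linarith [h12.1]
    linarith
  rcases le_or_gt K.x p.1 with h1 | h1
  · refine key true fun s hs => ?_
    have : s ∈ Ioo K.x (K.x + r') := by simpa [sInt] using hs
    exact mul_nonneg (by linarith) (by linarith [this.1])
  · refine key false fun s hs => ?_
    have : s ∈ Ioo (K.x - r') K.x := by simpa [sInt] using hs
    exact mul_nonneg_of_nonpos_of_nonpos (by linarith) (by linarith [this.2])

/-- Lipschitz cut-off functions -/
theorem exists_chi {G N : Set (ℝ × ℝ)} (hG : IsCompact G) (hN : IsOpen N) (hGN : G ⊆ N) :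
    ∃ (χ : ℝ × ℝ → ℝ) (ℓ : ℝ≥0), LipschitzWith ℓ χ ∧ (∀ p, 0 ≤ χ p ∧ χ p ≤ 1) ∧
      (∃ O, IsOpen O ∧ G ⊆ O ∧ ∀ p ∈ O, χ p = 1) ∧ IsCompact (tsupport χ) ∧ tsupport χ ⊆ N := by
  rcases G.eq_empty_or_nonempty with rfl | hne
  · refine ⟨fun _ => 0, 0, LipschitzWith.const _, fun p => ⟨le_rfl, zero_le_one⟩,
      ⟨∅, isOpen_empty, le_rfl, fun p hp => absurd hp (notMem_empty p)⟩, ?_, ?_⟩
    · have : tsupport (fun _ : ℝ × ℝ => (0 : ℝ)) = ∅ := by
        rw [tsupport_eq_empty_iff]; rfl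
      rw [this]; exact isCompact_empty
    · have : tsupport (fun _ : ℝ × ℝ => (0 : ℝ)) = ∅ := by
        rw [tsupport_eq_empty_iff]; rfl
      rw [this]; exact empty_subset _
  obtain ⟨δ, hδ, hδN⟩ := hG.exists_cthickening_subset_open hN hGN
  set r := δ / 2 with hr
  have hr0 : 0 < r := by positivity
  have hsupp : tsupport (fun p => max 0 (min 1 (2 - Metric.infDist p G / r))) ⊆
      Metric.cthickening δ G := by
    refine closure_minimal ?_ Metric.isClosed_cthickening
    intro p hp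
    by_contra hcon
    apply hp
    have hcon2 : δ ≤ Metric.infDist p G := by
      by_contra hlt
      exact hcon (Metric.thickening_subset_cthickening _ _
        ((Metric.mem_thickening_iff_infDist_lt hne).mpr (not_le.mp hlt)))
    have h1 : 2 ≤ Metric.infDist p G / r := by
      rw [le_div_iff₀ hr0]; linarith
    have h2 : min 1 (2 - Metric.infDist p G / r) ≤ 0 := (min_le_right _ _).trans (by linarith)
    exact max_eq_left h2
  refine ⟨fun p => max 0 (min 1 (2 - Metric.infDist p G / r)), (1 / r).toNNReal, ?_, fun p =>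
    ⟨le_max_left _ _, max_le zero_le_one (min_le_left _ _)⟩, ?_, ?_, ?_⟩
  · refine LipschitzWith.const_max (LipschitzWith.const_min ?_ 1) 0
    refine LipschitzWith.of_dist_le_mul fun p q => ?_
    have h1 := (Metric.lipschitz_infDist_pt G).dist_le_mul p q
    rw [NNReal.coe_one, one_mul] at h1
    rw [Real.coe_toNNReal _ (by positivity), Real.dist_eq]
    have h2 : 2 - Metric.infDist p G / r - (2 - Metric.infDist q G / r) =
        (1 / r) * (Metric.infDist q G - Metric.infDist p G) := by ring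
    rw [h2, abs_mul, abs_of_pos (by positivity : 0 < 1 / r), abs_sub_comm, ← Real.dist_eq]
    exact mul_le_mul_of_nonneg_left h1 (by positivity)
  · refine ⟨Metric.thickening r G, Metric.isOpen_thickening,
      Metric.self_subset_thickening hr0 G, fun p hp => ?_⟩
    rw [Metric.mem_thickening_iff_infDist_lt hne] at hp
    have h1 : Metric.infDist p G / r ≤ 1 := by rw [div_le_one hr0]; exact hp.le
    simp only
    rw [min_eq_left (by linarith), max_eq_right zero_le_one]
  · exact hG.cthickening.of_isClosed_subset (isClosed_tsupport _) hsupp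
  · exact hsupp.trans hδN

/-- cutting off one half -/
theorem half_cut {𝓗 : Set Hair} (he : e ∈ Vl 𝓗 a b c B) (hcB : c < B)
    (he01 : ∀ p, 0 ≤ e p ∧ e p ≤ 1) {χ : ℝ × ℝ → ℝ} {ℓ : ℝ≥0} (hχ : LipschitzWith ℓ χ)
    (hχ01 : ∀ p, 0 ≤ χ p ∧ χ p ≤ 1) (hχs : tsupport χ ⊆ Ioo a b ×ˢ Ioi c) :
    ∃ z : ℝ × ℝ → ℝ, CFJ 𝓗 (Lo B) z ∧ (∀ p, 0 ≤ z p ∧ z p ≤ 1) ∧
      (∀ p, p ∉ tsupport χ → z p = 0) ∧
      En (Lo B) z ≤ (2 + 4 * ℓ ^ 2 * (B - c) ^ 2) * En (Wo a b c B) e ∧
      ∀ p ∈ Wo a b c B, z p = χ p * e p := by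
  set N0 : Set (ℝ × ℝ) := Ioo a b ×ˢ Ioi c with hN0
  have hN0o : IsOpen N0 := isOpen_Ioo.prod isOpen_Ioi
  have hA : IsOpen (tsupport χ)ᶜ := (isClosed_tsupport χ).isOpen_compl
  obtain ⟨heJ, δ, hδ, he0⟩ := he
  have hχCF : CF (Wl a b c B) χ :=
    CF_of_lipschitz hχ (C := 1) fun p _ => by rw [abs_of_nonneg (hχ01 p).1]; exact (hχ01 p).2
  have hprod : CFJ 𝓗 (Wl a b c B) (fun p => χ p * e p) := hχCF.cfj.mul heJ
  have hz0 : ∀ p, p ∉ tsupport χ → N0.indicator (fun p => χ p * e p) p = 0 := by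
    intro p hp
    by_cases hpN : p ∈ N0
    · rw [indicator_of_mem hpN, image_eq_zero_of_notMem_tsupport hp, zero_mul]
    · exact indicator_of_notMem hpN _
  have hzW : ∀ p ∈ Wo a b c B, N0.indicator (fun p => χ p * e p) p = χ p * e p := by
    intro p hp
    exact indicator_of_mem (show p ∈ N0 from ⟨hp.1, hp.2.1⟩) _
  refine ⟨N0.indicator (fun p => χ p * e p), ?_, ?_, hz0, ?_, hzW⟩
  · refine hprod.indicator hN0o hA ?_ ?_ ?_
    · intro p _
      by_cases hpN : p ∈ N0
      · exact Or.inl hpN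
      · exact Or.inr fun hh => hpN (hχs hh)
    · rintro p ⟨hpB, hpN⟩
      exact ⟨hpN.1, hpN.2, (show p.2 < B from hpB).le⟩
    · rintro p ⟨-, hp⟩
      rw [image_eq_zero_of_notMem_tsupport hp, zero_mul]
  · intro p
    by_cases hpN : p ∈ N0
    · rw [indicator_of_mem hpN]
      exact ⟨mul_nonneg (hχ01 p).1 (he01 p).1, mul_le_one₀ (hχ01 p).2 (he01 p).1 (he01 p).2⟩
    · rw [indicator_of_notMem hpN]; exact ⟨le_rfl, zero_le_one⟩
  · obtain ⟨J, -, L, C, hL, hSL, hC⟩ := heJ
    have h1 := en_cut hSL hC hcB hδ he0 hχ (fun p => by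
      rw [abs_of_nonneg (hχ01 p).1]; exact (hχ01 p).2)
    refine le_trans (le_of_eq ?_) h1
    unfold En
    have hLo : MeasurableSet (Lo B) := measurableSet_lt measurable_snd measurable_const
    have hsub : Wo a b c B ⊆ Lo B := fun p hp => hp.2.2
    have e1 : ∫ p in Lo B, g2 (N0.indicator (fun p => χ p * e p)) p =
        ∫ p in Wo a b c B, g2 (N0.indicator (fun p => χ p * e p)) p := by
      refine setIntegral_eq_of_subset_of_forall_sdiff_eq_zero hLo hsub ?_
      rintro p ⟨hpB, hpW⟩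
      have hpN : p ∉ tsupport χ := by
        intro hh
        have := hχs hh
        exact hpW ⟨this.1, this.2, hpB⟩
      have : N0.indicator (fun p => χ p * e p) =ᶠ[𝓝 p] fun _ => 0 := by
        filter_upwards [hA.mem_nhds hpN] with q hq using hz0 q hq
      unfold g2
      rw [gx_congr this, gy_congr this]
      simp
    rw [e1]
    refine setIntegral_congr_fun measurableSet_Wo fun p hp => ?_
    have : N0.indicator (fun p => χ p * e p) =ᶠ[𝓝 p] fun p => χ p * e p := by
      filter_upwards [isOpen_Wo.mem_nhds hp] with q hq using hzW q hq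
    simp only [g2]
    rw [gx_congr this, gy_congr this]

/-- clamping -/
theorem clamp_Vl {𝓗 : Set Hair} (he : e ∈ Vl 𝓗 a b c B) :
    (fun p => max (min (e p) 1) 0) ∈ Vl 𝓗 a b c B ∧
      En (Wo a b c B) (fun p => max (min (e p) 1) 0) ≤ En (Wo a b c B) e := by
  obtain ⟨heJ, δ, hδ, he0⟩ := he
  constructor
  · refine ⟨(heJ.min (CFJ_const 1)).max (CFJ_const 0), δ, hδ, fun p hp hpc => ?_⟩
    show max (min (e p) 1) 0 = 0
    rw [he0 p hp hpc]; simp
  · obtain ⟨J, -, L, C, hL, hSL, hC⟩ := heJ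
    have h1 : SL (Wo a b c B \ cut J) L e := hSL.mono (sdiff_subset_sdiff_left Wo_subset)
    have h2 := h1.min (SL_const (1 : ℝ))
    exact (En_max_const_le h2 0 isOpen_Wo (isClosed_cut J) (volume_cut J) volume_Wo_lt.ne).trans
      (En_min_const_le h1 1 isOpen_Wo (isClosed_cut J) (volume_cut J) volume_Wo_lt.ne)

theorem clamp_add {s t : ℝ} (h : 9 / 10 ≤ s + t) :
    9 / 10 ≤ max (min s 1) 0 + max (min t 1) 0 := by
  have a1 : 0 ≤ max (min s 1) 0 := le_max_right _ _
  have a2 : 0 ≤ max (min t 1) 0 := le_max_right _ _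
  rcases le_or_gt 1 s with h1 | h1
  · have : max (min s 1) 0 = 1 := by rw [min_eq_right h1]; norm_num
    linarith
  rcases le_or_gt 1 t with h2 | h2
  · have : max (min t 1) 0 = 1 := by rw [min_eq_right h2]; norm_num
    linarith
  have a3 : s ≤ max (min s 1) 0 := by rw [min_eq_left h1.le]; exact le_max_left _ _
  have a4 : t ≤ max (min t 1) 0 := by rw [min_eq_left h2.le]; exact le_max_left _ _
  linarith

theorem tsupport_rf (χ : ℝ × ℝ → ℝ) : tsupport (fun p => χ (rf p)) ⊆ rf ⁻¹' tsupport χ := by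
  refine closure_minimal ?_ ((isClosed_tsupport χ).preimage continuous_rf)
  intro p hp
  exact subset_closure hp

/-- **`Null` in the box implies `NullN`** (LEMA (vi)). -/
theorem nullN_of_null {E : Set (ℝ × ℝ)} (_hE : Pic E) {g : Set Hair} {Bm Bp : ℝ}
    (hg : Fam E g Bm Bp) {d : ℝ} (hc : c < Bm) (hd : Bp < d)
    (hbox : E ⊆ Ioo a b ×ˢ Ioo c d) (h : Null (hairs E) a b c Bm (-d) (-Bp) g) :
    NullN E g Bm Bp := by
  intro N hN hgN ε hε
  have hunE : un g ⊆ E := by
    intro q hq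
    obtain ⟨K, hK, hqK⟩ := mem_un.mp hq
    exact car_subset (hg.sub hK) hqK
  obtain ⟨χ, ℓ, hχ, hχ01, ⟨Oχ, hOo, hgO, hO1⟩, hχc, hχs⟩ := exists_chi hg.cpt
    (hN.inter (isOpen_Ioo.prod isOpen_Ioo)) (fun q hq => ⟨hgN hq, hbox (hunE hq)⟩)
  have hχs1 : tsupport χ ⊆ Ioo a b ×ˢ Ioi c := fun q hq => ⟨(hχs hq).2.1, (hχs hq).2.2.1⟩
  set χ' : ℝ × ℝ → ℝ := fun p => χ (rf p) with hχ'
  have hχ'L : LipschitzWith ℓ χ' := by
    have := hχ.comp isometry_rf.lipschitz
    rwa [mul_one] at this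
  have hχ'01 : ∀ p, 0 ≤ χ' p ∧ χ' p ≤ 1 := fun p => hχ01 _
  have hχ's : tsupport χ' ⊆ Ioo a b ×ˢ Ioi (-d) := by
    intro q hq
    have h1 := hχs (tsupport_rf χ hq)
    have h2 : -q.2 < d := h1.2.2.2
    exact ⟨h1.2.1, by show -d < q.2; linarith⟩
  set C1 : ℝ := 2 + 4 * ℓ ^ 2 * (Bm - c) ^ 2 + 4 * ℓ ^ 2 * (-Bp - -d) ^ 2 with hC1
  have hC10 : 0 < C1 := by positivity
  obtain ⟨e, he, e', he', hen, hkey⟩ := h (ε / C1) (by positivity)
  obtain ⟨hk1, hk2⟩ := clamp_Vl he
  obtain ⟨hk1', hk2'⟩ := clamp_Vl he'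
  have hcl : ∀ (f : ℝ × ℝ → ℝ) p, 0 ≤ max (min (f p) 1) 0 ∧ max (min (f p) 1) 0 ≤ 1 := fun f p =>
    ⟨le_max_right _ _, max_le (min_le_right _ _) zero_le_one⟩
  obtain ⟨z, z1, z2, z3, z4, z5⟩ := half_cut hk1 hc (hcl e) hχ hχ01 hχs1
  obtain ⟨z', z1', z2', z3', z4', z5'⟩ := half_cut hk1' (by linarith : -d < -Bp) (hcl e')
    hχ'L hχ'01 hχ's
  have hE1 := En_nonneg (Wo a b c Bm) e
  have hE2 := En_nonneg (Wo a b (-d) (-Bp)) e'
  have hUp : Up Bp = rf ⁻¹' Lo (-Bp) := by
    ext q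
    show Bp < q.2 ↔ -q.2 < -Bp
    constructor <;> intro _ <;> linarith
  refine ⟨z, fun p => z' (rf p), ⟨z1, z2, ⟨tsupport χ, hχc, fun q hq => (hχs hq).1,
    fun p _ hp => z3 p hp⟩, ?_⟩, ⟨?_, fun p => z2' _, ⟨tsupport χ, hχc, fun q hq => (hχs hq).1,
    fun p _ hp => z3' _ (fun hh => hp ?_)⟩, ?_⟩, ?_⟩
  · refine z4.trans ?_
    have k1 : (2 + 4 * (ℓ : ℝ) ^ 2 * (Bm - c) ^ 2) * En (Wo a b c Bm) (fun p => max (min (e p) 1) 0) ≤
        C1 * (ε / C1) := by
      refine mul_le_mul ?_ (by linarith) (En_nonneg _ _) hC10.le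
      have : 0 ≤ 4 * (ℓ : ℝ) ^ 2 * (-Bp - -d) ^ 2 := by positivity
      linarith
    rwa [mul_div_cancel₀ _ hC10.ne'] at k1
  · rw [hUp]
    have := z1'.refl
    rwa [reflH_reflH] at this
  · have := tsupport_rf χ hh
    simpa using this
  · rw [hUp, En_rf]
    refine z4'.trans ?_
    have k1 : (2 + 4 * (ℓ : ℝ) ^ 2 * (-Bp - -d) ^ 2) *
        En (Wo a b (-d) (-Bp)) (fun p => max (min (e' p) 1) 0) ≤ C1 * (ε / C1) := by
      refine mul_le_mul ?_ (by linarith) (En_nonneg _ _) hC10.le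
      have : 0 ≤ 4 * (ℓ : ℝ) ^ 2 * (Bm - c) ^ 2 := by positivity
      linarith
    rwa [mul_div_cancel₀ _ hC10.ne'] at k1
  · intro K hK
    have hKE : K.car ⊆ E := car_subset (hg.sub hK)
    obtain ⟨hb1, hb2⟩ := hg.crs K hK
    have hlt := hg.lt
    have hKb := hbox (hKE (⟨rfl, le_rfl, K.hbt.le⟩ : (K.x, K.b) ∈ K.car))
    have hKt := hbox (hKE (⟨rfl, K.hbt.le, le_rfl⟩ : (K.x, K.t) ∈ K.car))
    obtain ⟨heJ, -⟩ := he
    obtain ⟨heJ', -⟩ := he'
    obtain ⟨J, hJ, L, C, hL, hSL, hC⟩ := heJ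
    obtain ⟨J', hJ', L', C', hL', hSL', hC'⟩ := heJ'
    obtain ⟨O1, hO1o, hKO1, hO1p⟩ := near_hair hSL hL (K := K) hKb.1 hKb.2.1 hb1 (by linarith)
      (fun K' hK' hne => hairs_disj (hg.sub hK) (hJ K' hK') (Ne.symm hne))
      (η := 1 / 20) (by norm_num)
    obtain ⟨O2, hO2o, hKO2, hO2p⟩ := near_hair hSL' hL' (K := K.refl) (by simpa using hKb.1)
      (by have := hKt.2.2; simp only [Hair.refl_b]; linarith) (by simp only [Hair.refl_b]; linarith)
      (by simp only [Hair.refl_t]; linarith)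
      (fun K' hK' hne => by
        have h1 : K'.refl ∈ hairs E := hJ' K' hK'
        have h2 : K ≠ K'.refl := fun hh => hne (by rw [hh, Hair.refl_refl])
        have h3 := hairs_disj (hg.sub hK) h1 h2
        rw [Set.disjoint_left] at h3 ⊢
        intro p hp hp'
        rw [Hair.mem_car_refl] at hp
        refine h3 hp ?_
        rw [Hair.mem_car_refl]
        simpa using hp')
      (η := 1 / 20) (by norm_num)
    refine ⟨O1 ∩ rf ⁻¹' O2 ∩ Oχ, (hO1o.inter (hO2o.preimage continuous_rf)).inter hOo, ?_, ?_⟩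
    · intro q hq
      refine ⟨⟨hKO1 hq, hKO2 ?_⟩, hgO (mem_un.mpr ⟨K, hK, hq⟩)⟩
      rw [Hair.mem_car_refl]; simpa using hq
    · rintro p ⟨hpO, hpE⟩ hpB q ⟨hqO, hqE⟩ hqB
      obtain ⟨σ, y, hy1, hy2, hy3⟩ := hO1p p hpO.1.1 (fun hh => hpE (hKE hh)) hpB
      obtain ⟨σ', y', hy1', hy2', hy3'⟩ := hO2p (rf q) hqO.1.2 (fun hh => hqE (hKE (by
        rw [Hair.mem_car_refl] at hh; simpa using hh)))
        (by have : Bp < q.2 := hqB
            simp only [rf_snd]; linarith)
      have h1 := hkey K hK σ σ' y y' hy1 hy2 hy1' hy2'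
      simp only [Hair.refl_x] at hy3'
      have hχp : χ p = 1 := hO1 p hpO.2
      have hχq : χ q = 1 := hO1 q hqO.2
      have hpS : p ∈ tsupport χ := subset_closure (by
        show χ p ≠ 0
        rw [hχp]; exact one_ne_zero)
      have hqS : q ∈ tsupport χ := subset_closure (by
        show χ q ≠ 0
        rw [hχq]; exact one_ne_zero)
      have hpW : p ∈ Wo a b c Bm := ⟨(hχs hpS).2.1, (hχs hpS).2.2.1, hpB⟩
      have hqW : rf q ∈ Wo a b (-d) (-Bp) := by
        refine ⟨(hχs hqS).2.1, ?_, ?_⟩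
        · have := (hχs hqS).2.2.2
          simp only [rf_snd]; linarith
        · have : Bp < q.2 := hqB
          simp only [rf_snd]; linarith
      show (9 / 10 : ℝ) ≤ z p + z' (rf q)
      rw [z5 p hpW, z5' (rf q) hqW, hχp, hχ']
      simp only [rf_rf, hχq, one_mul]
      exact clamp_add (by linarith)

end Crest.Agent.R105.NulN_421
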