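import Crest.Agent.R105.Lt1_275

/-!
# Row 105, S0138 (NI frame), Lemma Y: (3) of 701 #10366 = LINEAR ORDER of the cut points of a continuum

`L` connected set of a T2 space; `n p : X → Prop` (`p ∈ R ⊆ L`) is locally constant on `L \ {p}`,
true at the bottom `b`, false at the top `e`.  `Sd L p n = {x ∈ L | x ≠ p ∧ n x}`,
`Td L p n = {x ∈ L | x ≠ p ∧ ¬ n x}`.
* `Cut.conn_S`, `Cut.conn_T` : `Sd ∪ {p}` and `Td ∪ {p}` are connected
* `Cut.total` : the cut points are linearly ordered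
* `Cut.between`, `Cut.diff_subset` : `C ⊆ L` continuum, `p < q` in `C` ⟹ `Sd q \ Sd p ⊆ C`
-/

set_option autoImplicit false

open Set Filter Topology

namespace Crest.Agent.R105.Ord_642

variable {X : Type*} [TopologicalSpace X]

/-- lower part -/
def Sd (L : Set X) (p : X) (n : X → Prop) : Set X := {x | x ∈ L ∧ x ≠ p ∧ n x}

/-- upper part -/
def Td (L : Set X) (p : X) (n : X → Prop) : Set X := {x | x ∈ L ∧ x ≠ p ∧ ¬ n x}

/-- `n` cuts `L` at `p`, `b` is below, `e` is above -/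
structure Cut (L : Set X) (b e p : X) (n : X → Prop) : Prop where
  mem : p ∈ L
  lc : ∀ x ∈ L, x ≠ p → ∀ᶠ y in 𝓝[L] x, (n y ↔ n x)
  bot : b ∈ Sd L p n
  top : e ∈ Td L p n

variable {L C : Set X} {b e p q k x y : X} {n m l : X → Prop}

omit [TopologicalSpace X] in
theorem Td_neg : Td L p (fun x => ¬ n x) = Sd L p n := by
  ext x; simp only [Td, Sd, mem_ofPred_eq, not_not]

omit [TopologicalSpace X] in
theorem Sd_neg : Sd L p (fun x => ¬ n x) = Td L p n := rfl

/-- reversed order -/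
theorem Cut.neg (h : Cut L b e p n) : Cut L e b p (fun x => ¬ n x) where
  mem := h.mem
  lc := fun x hx hxp => (h.lc x hx hxp).mono fun y hy => not_congr hy
  bot := h.top
  top := by rw [Td_neg]; exact h.bot

omit [TopologicalSpace X] in
theorem mem_cases (p : X) (n : X → Prop) (hx : x ∈ L) : x = p ∨ x ∈ Sd L p n ∨ x ∈ Td L p n := by
  by_cases h : x = p
  · exact Or.inl h
  · by_cases h' : n x
    · exact Or.inr (Or.inl ⟨hx, h, h'⟩)
    · exact Or.inr (Or.inr ⟨hx, h, h'⟩)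

omit [TopologicalSpace X] in
theorem disj : Disjoint (Sd L p n) (Td L p n) := disjoint_left.2 fun _ h h' => h'.2.2 h.2.2

/-- `Sd` is relatively open in `L` -/
theorem Cut.exists_open [T1Space X] (h : Cut L b e p n) : ∃ O, IsOpen O ∧ O ∩ L = Sd L p n := by
  refine ⟨⋃₀ {W | IsOpen W ∧ ∀ z ∈ W, z ∈ L → z ∈ Sd L p n}, isOpen_sUnion fun W hW => hW.1, ?_⟩
  ext x
  constructor
  · rintro ⟨⟨W, hW, hx⟩, hxL⟩
    exact hW.2 x hx hxL
  · intro hx
    refine ⟨?_, hx.1⟩
    have h1 : ∀ᶠ y in 𝓝[L] x, (n y ↔ n x) := h.lc x hx.1 hx.2.1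
    have h2 : ∀ᶠ y in 𝓝[L] x, y ≠ p :=
      nhdsWithin_le_nhds (isOpen_ne.mem_nhds hx.2.1)
    obtain ⟨W, hW, hxW, hWs⟩ := mem_nhdsWithin.1 (h1.and h2)
    refine ⟨W, ⟨hW, fun z hz hzL => ?_⟩, hxW⟩
    have h3 := hWs ⟨hz, hzL⟩
    exact ⟨hzL, h3.2, h3.1.2 hx.2.2⟩

/-- the lower part together with the cut point is connected -/
theorem Cut.conn_S [T1Space X] (hL : IsPreconnected L) (h : Cut L b e p n) :
    IsPreconnected (insert p (Sd L p n)) := by
  obtain ⟨O, hO, hOL⟩ := h.exists_open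
  obtain ⟨P, hP, hPL⟩ := h.neg.exists_open
  rw [Sd_neg] at hPL
  -- the asymmetric form
  have key : ∀ u v : Set X, IsOpen u → IsOpen v → insert p (Sd L p n) ⊆ u ∪ v → p ∈ u →
      (insert p (Sd L p n) ∩ v).Nonempty → (insert p (Sd L p n) ∩ (u ∩ v)).Nonempty := by
    intro u v hu hv hsub hpu hne
    obtain ⟨y, hy, hyv⟩ := hne
    rcases hy with rfl | hy
    · exact ⟨y, mem_insert _ _, hpu, hyv⟩
    have h1 : L ⊆ (v ∩ O) ∪ (u ∪ P) := by
      intro z hz
      rcases mem_cases p n hz with rfl | hz' | hz'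
      · exact Or.inr (Or.inl hpu)
      · rcases hsub (mem_insert_of_mem _ hz') with h2 | h2
        · exact Or.inr (Or.inl h2)
        · refine Or.inl ⟨h2, ?_⟩
          rw [← hOL] at hz'; exact hz'.1
      · rw [← hPL] at hz'; exact Or.inr (Or.inr hz'.1)
    have hyO : y ∈ O ∩ L := by rw [hOL]; exact hy
    obtain ⟨z, hzL, ⟨hzv, hzO⟩, hz2⟩ := hL _ _ (hv.inter hO) (hu.union hP) h1
      ⟨y, hyO.2, hyv, hyO.1⟩ ⟨p, h.mem, Or.inl hpu⟩
    have hzS : z ∈ Sd L p n := by rw [← hOL]; exact ⟨hzO, hzL⟩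
    rcases hz2 with hzu | hzP
    · exact ⟨z, mem_insert_of_mem _ hzS, hzu, hzv⟩
    · have hzT : z ∈ Td L p n := by rw [← hPL]; exact ⟨hzP, hzL⟩
      exact (disjoint_left.1 disj hzS hzT).elim
  intro u v hu hv hsub hne1 hne2
  rcases hsub (mem_insert p _) with hp | hp
  · exact key u v hu hv hsub hp hne2
  · rw [inter_comm u v]
    exact key v u hv hu (by rwa [union_comm]) hp hne1

/-- the upper part together with the cut point is connected -/
theorem Cut.conn_T [T1Space X] (hL : IsPreconnected L) (h : Cut L b e p n) :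
    IsPreconnected (insert p (Td L p n)) := h.neg.conn_S hL

/-- a connected part of `L` which avoids `p` lies on one side of `p` -/
theorem Cut.side [T1Space X] (h : Cut L b e p n) (hC : IsPreconnected C) (hCL : C ⊆ L)
    (hp : p ∉ C) (hx : x ∈ C) (hy : y ∈ C) (hxS : x ∈ Sd L p n) : y ∈ Sd L p n := by
  obtain ⟨O, hO, hOL⟩ := h.exists_open
  obtain ⟨P, hP, hPL⟩ := h.neg.exists_open
  rw [Sd_neg] at hPL
  by_contra hcon
  have hyT : y ∈ Td L p n := by
    rcases mem_cases p n (hCL hy) with rfl | h1 | h1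
    · exact (hp hy).elim
    · exact (hcon h1).elim
    · exact h1
  have h1 : C ⊆ O ∪ P := by
    intro z hz
    rcases mem_cases p n (hCL hz) with rfl | h1 | h1
    · exact (hp hz).elim
    · rw [← hOL] at h1; exact Or.inl h1.1
    · rw [← hPL] at h1; exact Or.inr h1.1
  rw [← hOL] at hxS
  rw [← hPL] at hyT
  obtain ⟨z, hz, hzO, hzP⟩ := hC _ _ hO hP h1 ⟨x, hx, hxS.1⟩ ⟨y, hy, hyT.1⟩
  have h2 : z ∈ Sd L p n := by rw [← hOL]; exact ⟨hzO, hCL hz⟩
  have h3 : z ∈ Td L p n := by rw [← hPL]; exact ⟨hzP, hCL hz⟩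
  exact disjoint_left.1 disj h2 h3

theorem Cut.side' [T1Space X] (h : Cut L b e p n) (hC : IsPreconnected C) (hCL : C ⊆ L)
    (hp : p ∉ C) (hx : x ∈ C) (hy : y ∈ C) (hxT : x ∈ Td L p n) : y ∈ Td L p n :=
  h.neg.side hC hCL hp hx hy hxT

/-- if `q` is above `p` then everything below `p`, and `p`, is below `q` -/
theorem Cut.le [T1Space X] (hL : IsPreconnected L) (hp : Cut L b e p n) (hq : Cut L b e q m)
    (h : q ∈ Td L p n) : insert p (Sd L p n) ⊆ Sd L q m := by
  have hqn : q ∉ insert p (Sd L p n) := by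
    rintro (h1 | h1)
    · exact h.2.1 h1
    · exact disjoint_left.1 disj h1 h
  intro y hy
  exact hq.side (hp.conn_S hL) (insert_subset hp.mem fun z hz => hz.1) hqn
    (mem_insert_of_mem _ hp.bot) hy hq.bot

/-- if `q` is below `p` then everything above `p`, and `p`, is above `q` -/
theorem Cut.ge [T1Space X] (hL : IsPreconnected L) (hp : Cut L b e p n) (hq : Cut L b e q m)
    (h : q ∈ Sd L p n) : insert p (Td L p n) ⊆ Td L q m := by
  have h1 := Cut.le hL hp.neg hq.neg (show q ∈ Td L p (fun x => ¬ n x) by rw [Td_neg]; exact h)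
  exact h1

/-- the lower parts shrink -/
theorem Cut.anti [T1Space X] (hL : IsPreconnected L) (hp : Cut L b e p n) (hq : Cut L b e q m)
    (h : q ∈ Sd L p n) : insert q (Sd L q m) ⊆ Sd L p n := by
  have h1 : p ∈ Td L q m := hp.ge hL hq h (mem_insert _ _)
  exact hq.le hL hp h1

/-- **linear order of the cut points** -/
theorem Cut.total [T1Space X] (hL : IsPreconnected L) (hp : Cut L b e p n) (hq : Cut L b e q m)
    (hne : p ≠ q) : (p ∈ Sd L q m ∧ q ∈ Td L p n ∧ insert p (Sd L p n) ⊆ Sd L q m ∧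
      insert q (Td L q m) ⊆ Td L p n) ∨ (q ∈ Sd L p n ∧ p ∈ Td L q m ∧
        insert q (Sd L q m) ⊆ Sd L p n ∧ insert p (Td L p n) ⊆ Td L q m) := by
  rcases mem_cases p n hq.mem with h | h | h
  · exact (hne h.symm).elim
  · have h1 := hp.ge hL hq h
    have h2 := hp.anti hL hq h
    exact Or.inr ⟨h, h1 (mem_insert _ _), h2, h1⟩
  · have h1 := hp.le hL hq h
    have h2 := hq.ge hL hp (h1 (mem_insert _ _))
    exact Or.inl ⟨h1 (mem_insert _ _), h, h1, h2⟩

/-- a connected part of `L` which contains `p < q` contains all cut points between -/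
theorem Cut.between [T1Space X] (hp : p ∈ C) (hq : q ∈ C)
    (hC : IsPreconnected C) (hCL : C ⊆ L) (hk : Cut L b e k l) (h1 : p ∈ Sd L k l)
    (h2 : q ∈ Td L k l) : k ∈ C := by
  by_contra hkC
  exact disjoint_left.1 disj (hk.side hC hCL hkC hp hq h1) h2

/-- **`C` a continuum in `L`, `p, q ∈ C` ⟹ `Sd q \ Sd p ⊆ C`** (empty unless `p < q`).  `R` = set of cut points, it
meets every non degenerate continuum of `L`. -/
theorem diff_subset [T2Space X] [LocallyCompactSpace X] {R : Set X} {N : X → X → Prop} (hLc : IsCompact L)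
    (hL : IsPreconnected L) (hR : ∀ r ∈ R, Cut L b e r (N r))
    (hd : ∀ D ⊆ L, IsCompact D → IsPreconnected D → D.Nontrivial → (D ∩ R).Nonempty)
    (hCc : IsClosed C) (hC : IsPreconnected C) (hCL : C ⊆ L) (hp : p ∈ C) (hq : q ∈ C)
    (hpR : p ∈ R) (hqR : q ∈ R) : Sd L q (N q) \ Sd L p (N p) ⊆ C := by
  intro k hk
  by_contra hkC
  have hkp : k ≠ p := fun h => hkC (h ▸ hp)
  have hkL : k ∈ L := hk.1.1
  have hkT : k ∈ Td L p (N p) := by
    rcases mem_cases p (N p) hkL with h | h | h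
    · exact (hkp h).elim
    · exact (hk.2 h).elim
    · exact h
  -- an open set around `k` inside `Sd q ∩ Td p`, off `C`
  obtain ⟨O, hO, hOL⟩ := (hR q hqR).exists_open
  obtain ⟨P, hP, hPL⟩ := (hR p hpR).neg.exists_open
  rw [Sd_neg] at hPL
  have hkO : k ∈ O := by have h := hk.1; rw [← hOL] at h; exact h.1
  have hkP : k ∈ P := by have h := hkT; rw [← hPL] at h; exact h.1
  have hG : IsOpen (O ∩ P ∩ Cᶜ) := (hO.inter hP).inter hCc.isOpen_compl
  have hkG : k ∈ O ∩ P ∩ Cᶜ := ⟨⟨hkO, hkP⟩, hkC⟩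
  -- a continuum inside
  obtain ⟨W, hWc, hkW, hWG⟩ := exists_compact_subset hG hkG
  have hkW' : k ∈ W := interior_subset hkW
  have hpW : p ∉ W := fun h => (hWG h).2 hp
  obtain ⟨w, hw, hwf⟩ := Lt_275.bump hLc.isClosed hL hWc hkL hkW'
    fun h => hpW (h (hCL hp))
  have hLW : IsCompact (L ∩ W) := hLc.inter_right hWc.isClosed
  obtain ⟨D, hDL, hDc, hDp, hDn, hDG⟩ : ∃ D, D ⊆ L ∧ IsCompact D ∧ IsPreconnected D ∧
      D.Nontrivial ∧ D ⊆ O ∩ P ∩ Cᶜ := by
    refine ⟨connectedComponentIn (L ∩ W) k, ?_, ?_, isPreconnected_connectedComponentIn, ?_, ?_⟩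
    · exact (connectedComponentIn_subset _ _).trans inter_subset_left
    · exact hLW.of_isClosed_subset (Thin_12.isClosed_cc hLW.isClosed k) (connectedComponentIn_subset _ _)
    · refine ⟨k, mem_connectedComponentIn ⟨hkL, hkW'⟩, w, hw, ?_⟩
      rintro rfl
      exact hwf.2 hkW
    · exact (connectedComponentIn_subset _ _).trans (inter_subset_right.trans hWG)
  obtain ⟨r, hrD, hrR⟩ := hd D hDL hDc hDp hDn
  have hrG := hDG hrD
  have hrq : r ∈ Sd L q (N q) := by rw [← hOL]; exact ⟨hrG.1.1, hDL hrD⟩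
  have hrp : r ∈ Td L p (N p) := by rw [← hPL]; exact ⟨hrG.1.2, hDL hrD⟩
  -- `p < r < q`
  have h1 : p ∈ Sd L r (N r) := (hR p hpR).le hL (hR r hrR) hrp (mem_insert _ _)
  have h2 : q ∈ Td L r (N r) := (hR q hqR).ge hL (hR r hrR) hrq (mem_insert _ _)
  exact hrG.2 (Cut.between hp hq hC hCL (hR r hrR) h1 h2)

end Crest.Agent.R105.Ord_642
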