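import Crest.Agent.R105.Sqr6_185
import Crest.Agent.R105.Tra3_937

/-!
# R105 PIC-T (1): z-plane <-> picture plane with solids (helper185)

`U` exterior domain, `F` univalent on `U`, fixing infinity, `V = F '' U`.
* `eqv h : Cmp Uᶜ ≃ Cmp Vᶜ` with `map F (eK Uᶜ K) = eK Vᶜ (eqv K)`;
* `osc_pull`, `Jmp_pull`, `Q_pull`, `TT_pull`, `TF_pull`;
* `MINZ U x φ` : the `T`-functional at `x` does not decrease in the direction `φ`;
  `minz_iff : MINZ U x ψ ↔ MINT Vᶜ φ` for `x = re F`, `ψ = φ ∘ F` on `U`.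
-/

set_option autoImplicit false

open Set Filter MeasureTheory Metric
open scoped Topology ENNReal NNReal
open Crest.AnalysisR
open Crest.Agent.R105.Ends_897 (eF EndMap oscF)

namespace Crest.Agent.R105.Pct_185

open Tc_808 Sqr_185 Tra_937

noncomputable section

variable {U V : Set ℂ} {f : ℂ → ℂ}

/-! ### the correspondence of the components -/

lemma exists_toCmp (h : EndMap U V f) (K : Cmp Uᶜ) :
    ∃ L : Cmp Vᶜ, map f (eK Uᶜ K.1) = eK Vᶜ L.1 := by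
  obtain ⟨K, z, hz, rfl⟩ := K
  obtain ⟨ζ, hζ, he⟩ := h.exists_end hz
  refine ⟨⟨connectedComponentIn Vᶜ ζ, ζ, hζ, rfl⟩, ?_⟩
  rw [eK_eq_eF, eK_eq_eF]
  exact he

/-- the component of `Vᶜ` corresponding to the component `K` of `Uᶜ` -/
def toCmp (h : EndMap U V f) (K : Cmp Uᶜ) : Cmp Vᶜ := (exists_toCmp h K).choose

lemma toCmp_spec (h : EndMap U V f) (K : Cmp Uᶜ) :
    map f (eK Uᶜ K.1) = eK Vᶜ (toCmp h K).1 := (exists_toCmp h K).choose_spec

lemma eK_injective {V : Set ℂ} (hV : IsExteriorDomain V) {L L' : Cmp Vᶜ}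
    (h : eK Vᶜ L.1 = eK Vᶜ L'.1) : L = L' := by
  obtain ⟨L, z, hz, rfl⟩ := L
  obtain ⟨L', z', hz', rfl⟩ := L'
  rw [eK_eq_eF, eK_eq_eF] at h
  exact Cmp.ext (Ends_897.eF_injective hV hz h)

lemma toCmp_injective (h : EndMap U V f) : Function.Injective (toCmp h) := by
  intro K K' he
  have h1 := toCmp_spec h K
  have h2 := toCmp_spec h K'
  rw [he, ← h2] at h1
  obtain ⟨K, z, hz, rfl⟩ := K
  obtain ⟨K', z', hz', rfl⟩ := K'
  rw [eK_eq_eF, eK_eq_eF] at h1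
  exact Cmp.ext (h.map_injective hz h1)

lemma toCmp_surjective (h : EndMap U V f) : Function.Surjective (toCmp h) := by
  rintro ⟨L, ζ, hζ, rfl⟩
  obtain ⟨z, hz, he⟩ := h.exists_end' hζ
  let K : Cmp Uᶜ := ⟨connectedComponentIn Uᶜ z, z, hz, rfl⟩
  refine ⟨K, ?_⟩
  apply eK_injective h.hV
  refine (toCmp_spec h K).symm.trans ?_
  change map f (eK Uᶜ (connectedComponentIn Uᶜ z)) = eK Vᶜ (connectedComponentIn Vᶜ ζ)
  rw [eK_eq_eF, eK_eq_eF]
  exact he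

/-- **the correspondence of the components** -/
def eqv (h : EndMap U V f) : Cmp Uᶜ ≃ Cmp Vᶜ :=
  Equiv.ofBijective (toCmp h) ⟨toCmp_injective h, toCmp_surjective h⟩

lemma map_eK (h : EndMap U V f) (K : Cmp Uᶜ) : map f (eK Uᶜ K.1) = eK Vᶜ (eqv h K).1 :=
  toCmp_spec h K

/-- a neighbourhood of a component in the picture contains the image of a neighbourhood -/
lemma exists_nhd_of (h : EndMap U V f) (K : Cmp Uᶜ) {P : Set ℂ} (hP : IsOpen P)
    (hKP : (eqv h K).1 ⊆ P) : ∃ O, IsOpen O ∧ K.1 ⊆ O ∧ ∀ z ∈ O, z ∈ U → f z ∈ P := by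
  have h1 : P ∩ V ∈ eK Vᶜ (eqv h K).1 := by
    rw [mem_eK]
    exact ⟨P, hP, hKP, fun z hz hzV => ⟨hz, not_not.1 hzV⟩⟩
  rw [← map_eK h K] at h1
  obtain ⟨O, hO, hKO, hsub⟩ := mem_eK.1 (mem_map.1 h1)
  exact ⟨O, hO, hKO, fun z hz hzU => (hsub z hz (not_not.2 hzU)).1⟩

/-! ### transport of oscillations -/

/-- **osc transport** -/
theorem osc_pull (h : EndMap U V f) {u v : ℂ → ℝ} (huv : ∀ z ∈ U, v z = u (f z)) (K : Cmp Uᶜ) :
    osc Uᶜ v K.1 = osc Vᶜ u (eqv h K).1 := by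
  have h1 : osc Uᶜ v K.1 = osc Uᶜ (u ∘ f) K.1 :=
    osc_congr isOpen_univ (subset_univ _) fun z _ hz => huv z (not_not.1 hz)
  rw [h1]
  unfold osc
  rw [Ends_897.oscF_comp, map_eK h K]

theorem Jmp_pull (h : EndMap U V f) {u v : ℂ → ℝ} (huv : ∀ z ∈ U, v z = u (f z)) :
    Jmp Uᶜ v = eqv h ⁻¹' Jmp Vᶜ u := by
  ext K
  simp only [Jmp, mem_preimage, mem_ofPred_eq]
  rw [osc_pull h huv K]

theorem tsum_pull (h : EndMap U V f) {α : Type*} [AddCommMonoid α] [TopologicalSpace α] [T2Space α]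
    {A : Cmp Uᶜ → α} {B : Cmp Vᶜ → α} (hAB : ∀ K, A K = B (eqv h K)) : ∑' K, A K = ∑' L, B L := by
  rw [← (eqv h).tsum_eq B]
  exact tsum_congr hAB

theorem summable_pull (h : EndMap U V f) {u v : ℂ → ℝ} (huv : ∀ z ∈ U, v z = u (f z)) :
    (Summable fun K : Cmp Uᶜ => osc Uᶜ v K.1 ^ 2) ↔ Summable fun L : Cmp Vᶜ => osc Vᶜ u L.1 ^ 2 := by
  rw [← (eqv h).summable_iff]
  refine summable_congr fun K => ?_
  rw [osc_pull h huv K]
  rfl

/-! ### transport of the classes -/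

variable {F : ℂ → ℂ}

theorem Q_pull (hF : Uni U F) {u v : ℂ → ℝ} (huv : ∀ z ∈ U, v z = u (F z))
    (hv : ∃ M, ∀ z, |v z| ≤ M) (hu : Bd_775.Q (F '' U)ᶜ u) : Bd_775.Q Uᶜ v := by
  have hE : EqOn (u ∘ F) v U := fun z hz => (huv z hz).symm
  have hL : LocallyLipschitzOn (F '' U) u := by
    have := hu.loc
    rwa [compl_compl] at this
  refine ⟨hv, ?_, ?_⟩
  · rw [compl_compl]
    exact locLip_congr hE (hF.locLip_comp hL)
  · rw [compl_compl]
    have h0 := hu.fin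
    rw [compl_compl] at h0
    have h1 := (hF.integrableOn_en hF.op.measurableSet subset_rfl (fun _ => 1)
      (ae_diff_of_locLip hF.isOpen_image hL)).2 (by simp only [one_mul]; exact h0)
    simp only [one_mul] at h1
    exact h1.congr_fun (en_congr hF.op hE) hF.op.measurableSet

theorem TT_pull (h : EndMap U (F '' U) F) (hF : Uni U F) {u v : ℂ → ℝ}
    (huv : ∀ z ∈ U, v z = u (F z)) (hv : ∃ M, ∀ z, |v z| ≤ M) (hu : TT (F '' U)ᶜ u) : TT Uᶜ v :=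
  ⟨Q_pull hF huv hv hu.q, (summable_pull h huv).2 hu.sum⟩

theorem TF_pull (h : EndMap U (F '' U) F) (hF : Uni U F) {u v : ℂ → ℝ}
    (huv : ∀ z ∈ U, v z = u (F z)) (hv : ∃ M, ∀ z, |v z| ≤ M) (hu : TF (F '' U)ᶜ u) : TF Uᶜ v :=
  ⟨Q_pull hF huv hv hu.q, by
    rw [Jmp_pull h huv]
    exact hu.fin.preimage (eqv h).injective.injOn⟩

/-! ### transport of the minimality -/

/-- the `T`-functional at `x` does not decrease in the direction `φ` (z-plane) -/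
def MINZ (U : Set ℂ) (x φ : ℂ → ℝ) : Prop :=
  0 ≤ 2 * (∫ z in U, dot x φ z) + (∫ z in U, en φ z)
    + ∑' K : Cmp Uᶜ, (osc Uᶜ (fun z => x z + φ z) K.1 ^ 2 - osc Uᶜ x K.1 ^ 2)

/-- **transport of the `T`-minimality** -/
theorem minz_iff (h : EndMap U (F '' U) F) (hF : Uni U F) {x φ ψ : ℂ → ℝ}
    (hx : ∀ z ∈ U, x z = (F z).re) (hφ : LocallyLipschitzOn (F '' U) φ)
    (hψ : ∀ z ∈ U, ψ z = φ (F z)) : MINZ U x ψ ↔ MINT (F '' U)ᶜ φ := by
  have hEψ : EqOn ψ (φ ∘ F) U := hψ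
  have hEx : EqOn x (fun z => (F z).re) U := hx
  have e1 : ∫ z in U, dot x ψ z = ∫ w in (F '' U)ᶜᶜ, fderiv ℝ φ w 1 := by
    have h1 := hF.integral_dot_re hF.op.measurableSet subset_rfl (fun _ => 1)
      (ae_diff_of_locLip hF.isOpen_image hφ)
    simp only [one_mul] at h1
    rw [compl_compl]
    refine Eq.trans ?_ h1
    exact setIntegral_congr_fun hF.op.measurableSet (dot_congr hF.op hEx hEψ)
  have e2 : ∫ z in U, en ψ z = ∫ w in (F '' U)ᶜᶜ, Bd_775.en φ w := by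
    have h1 := hF.integral_en hF.op.measurableSet subset_rfl (fun _ => 1)
      (ae_diff_of_locLip hF.isOpen_image hφ)
    simp only [one_mul] at h1
    rw [compl_compl]
    refine Eq.trans ?_ h1
    exact setIntegral_congr_fun hF.op.measurableSet (en_congr hF.op hEψ)
  have e3 : ∑' K : Cmp Uᶜ, (osc Uᶜ (fun z => x z + ψ z) K.1 ^ 2 - osc Uᶜ x K.1 ^ 2)
      = ∑' L : Cmp (F '' U)ᶜ, (osc (F '' U)ᶜ (fun w => w.re + φ w) L.1 ^ 2
          - osc (F '' U)ᶜ (fun w => w.re) L.1 ^ 2) := by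
    refine tsum_pull h fun K => ?_
    rw [osc_pull h (u := fun w => w.re + φ w) (fun z hz => by rw [hx z hz, hψ z hz]) K,
      osc_pull h (u := fun w => w.re) hx K]
  unfold MINZ MINT
  rw [e1, e2, e3]

/-- the oscillation of `x = re F` is the width in the picture -/
theorem osc_x (h : EndMap U (F '' U) F) {x : ℂ → ℝ} (hx : ∀ z ∈ U, x z = (F z).re) (K : Cmp Uᶜ) :
    osc Uᶜ x K.1 = wd (eqv h K).1 := by
  rw [osc_pull h (u := fun w => w.re) hx K,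
    osc_re (Ends_897.isCompact_compl h.hV) (eqv h K)]
  rfl

theorem summable_wd (h : EndMap U (F '' U) F) {x : ℂ → ℝ} (hx : ∀ z ∈ U, x z = (F z).re)
    (hs : Summable fun K : Cmp Uᶜ => osc Uᶜ x K.1 ^ 2) :
    Summable fun L : Cmp (F '' U)ᶜ => wd L.1 ^ 2 := by
  rw [← (eqv h).summable_iff]
  refine hs.congr fun K => ?_
  rw [osc_x h hx K]
  rfl

/-- functions locally constant near the components are transported -/
theorem LC_pull (h : EndMap U (F '' U) F) {χ : ℂ → ℝ} (hχ : Bd_775.LC (F '' U)ᶜ χ) :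
    ∀ K : Cmp Uᶜ, ∃ c, ∃ O, IsOpen O ∧ K.1 ⊆ O ∧ ∀ z ∈ O, z ∈ U → χ (F z) = c := by
  intro K
  obtain ⟨c, P, hP, hKP, hc⟩ := LC.const_near hχ (eqv h K).preconn (eqv h K).subset
  obtain ⟨O, hO, hKO, hsub⟩ := exists_nhd_of h K hP hKP
  exact ⟨c, O, hO, hKO, fun z hz hzU => hc _ (hsub z hz hzU)⟩

end

end Crest.Agent.R105.Pct_185
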