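import Crest.Agent.R105.Pct2_185

/-!
# R105 PIC-T (3): the test functions on the z-plane (helper185)

* `LCE_pull` : functions locally constant near `E` pull back to such functions;
* `testA`, `testB` : the two families `G(x) χ` and `1_{above K} θ(x) κ(y)`; classes `Q`, `TT`,
  local form near the components, on the picture and on the z-plane;
* `picT_of_minz`.
-/

set_option autoImplicit false

open Set Filter MeasureTheory Metric
open scoped Topology NNReal ContDiff
open Crest.AnalysisR
open Crest.Agent.R105.Ends_897 (eF EndMap oscF)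

namespace Crest.Agent.R105.Pct_185

open Tc_808 Sqr_185 Tra_937
open Sct_636 (LCE ELId)

noncomputable section

variable {E : Set ℂ} {U : Set ℂ} {F : ℂ → ℂ}

/-! ### oscillation bounds -/

lemma osc_lip_re (hE : IsCompact E) (L : Cmp E) {g : ℂ → ℝ} {k : ℝ → ℝ} {C : ℝ≥0}
    (hk : LipschitzWith C k) (hg : ∀ p ∈ L.1, ∀ᶠ z in 𝓝 p, g z = k z.re) :
    osc E g L.1 ≤ C * wd L.1 := by
  have hL := L.isCompact hE
  have hw : 0 ≤ wd L.1 := by
    have := lo_le_hi hL L.nonempty
    simp only [wd]; linarith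
  refine osc_le_of_forall (mul_nonneg C.2 hw) fun ε hε => ?_
  have hC1 : (0 : ℝ) < 2 * (C + 1) := by positivity
  set δ : ℝ := ε / (2 * (C + 1)) with hδ
  have hδ0 : 0 < δ := div_pos hε hC1
  refine ⟨interior {z | g z = k z.re} ∩ {z | lo L.1 - δ < z.re ∧ z.re < hi L.1 + δ},
    isOpen_interior.inter ((isOpen_lt continuous_const Complex.continuous_re).inter
      (isOpen_lt Complex.continuous_re continuous_const)),
    fun z hz => ⟨mem_interior_iff_mem_nhds.2 (hg z hz), ?_, ?_⟩, fun z hz _ w hw' _ => ?_⟩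
  · have := lo_le hL hz
    linarith
  · have := le_hi hL hz
    linarith
  · have h3 : g z = k z.re := by
      have := interior_subset hz.1
      exact this
    have h4 : g w = k w.re := by
      have := interior_subset hw'.1
      exact this
    rw [h3, h4]
    have h5 := hk.dist_le_mul z.re w.re
    rw [Real.dist_eq, Real.dist_eq] at h5
    have h6 : |z.re - w.re| ≤ wd L.1 + 2 * δ := by
      have a1 := hz.2.1
      have a2 := hz.2.2
      have a3 := hw'.2.1
      have a4 := hw'.2.2
      simp only [wd]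
      rw [abs_le]
      constructor <;> linarith
    have h7 : (C : ℝ) * (2 * δ) ≤ ε := by
      have : 2 * (C + 1) * δ = ε := by
        rw [hδ]; field_simp
      nlinarith [C.2]
    calc |k z.re - k w.re| ≤ C * |z.re - w.re| := h5
      _ ≤ C * (wd L.1 + 2 * δ) := mul_le_mul_of_nonneg_left h6 C.2
      _ = C * wd L.1 + C * (2 * δ) := by ring
      _ ≤ C * wd L.1 + ε := by linarith

lemma lip_of_deriv {k : ℝ → ℝ} (hk : ContDiff ℝ ∞ k) (hk' : HasCompactSupport (deriv k)) :
    ∃ C : ℝ≥0, LipschitzWith C k := by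
  obtain ⟨C, hC⟩ := hk'.exists_bound_of_continuous (hk.continuous_deriv (by simp))
  have hC0 : 0 ≤ C := (norm_nonneg _).trans (hC 0)
  refine ⟨⟨C, hC0⟩, lipschitzWith_of_nnnorm_deriv_le (hk.differentiable (by simp)) fun x => ?_⟩
  exact_mod_cast hC x

/-! ### the first family `G(x) χ` -/

/-- near a component `χ` is constant -/
lemma LCE.near {χ : ℂ → ℝ} (h : LCE E χ) (L : Cmp E) :
    ∃ c, ∃ O, IsOpen O ∧ L.1 ⊆ O ∧ ∀ z ∈ O, χ z = c :=
  Tc_808.LC.const_near (LCE.LC h) L.preconn L.subset

theorem TT_A (hE : IsCompact E) (hsum : Summable fun L : Cmp E => wd L.1 ^ 2)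
    {G : ℝ → ℝ} {χ : ℂ → ℝ} (hG : ContDiff ℝ ∞ G) (hG' : HasCompactSupport (deriv G))
    (hχ : LCE E χ) : TT E (fun w => G w.re * χ w) := by
  have hsm : ContDiff ℝ ∞ fun w : ℂ => G w.re * χ w :=
    (hG.comp Complex.reCLM.contDiff).mul hχ.smooth
  have hcs : HasCompactSupport fun w : ℂ => G w.re * χ w := hχ.supp.mul_left
  refine ⟨⟨?_, ?_, ?_⟩, ?_⟩
  · obtain ⟨C, hC⟩ := hcs.exists_bound_of_continuous hsm.continuous
    exact ⟨C, hC⟩
  · exact ((hsm.of_le (by simp : (1 : WithTop ℕ∞) ≤
      ((⊤ : ℕ∞) : WithTop ℕ∞))).locallyLipschitz).locallyLipschitzOn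
  · have hd : Continuous (fderiv ℝ fun w : ℂ => G w.re * χ w) := hsm.continuous_fderiv (by simp)
    have h1 : Continuous (Bd_775.en fun w : ℂ => G w.re * χ w) :=
      ((hd.clm_apply continuous_const).pow 2).add ((hd.clm_apply continuous_const).pow 2)
    refine (h1.integrable_of_hasCompactSupport ?_).integrableOn
    refine (hcs.fderiv (𝕜 := ℝ)).mono ?_
    intro z hz hz0
    apply hz
    have h2 : fderiv ℝ (fun w : ℂ => G w.re * χ w) z = 0 := hz0
    simp [Bd_775.en, Bd_775.gx, Bd_775.gy, h2]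
  · obtain ⟨C, hC⟩ := lip_of_deriv hG hG'
    obtain ⟨X, hX⟩ := hχ.supp.exists_bound_of_continuous hχ.smooth.continuous
    have hX0 : 0 ≤ X := (norm_nonneg _).trans (hX 0)
    obtain ⟨X', hX'⟩ : ∃ X' : ℝ≥0, (X' : ℝ) = X := ⟨⟨X, hX0⟩, rfl⟩
    refine Summable.of_nonneg_of_le (fun _ => sq_nonneg _) (fun L => ?_)
      (hsum.mul_left ((X' * C : ℝ≥0) : ℝ) |>.mul_left ((X' * C : ℝ≥0) : ℝ))
    obtain ⟨c, O, hO, hLO, hc⟩ := LCE.near hχ L
    obtain ⟨p, hp⟩ := L.nonempty
    have hcX : |c| ≤ X := by rw [← hc p (hLO hp)]; exact hX p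
    have hlip : LipschitzWith (X' * C) fun t => c * G t := by
      refine LipschitzWith.of_dist_le_mul fun a b => ?_
      rw [Real.dist_eq, ← mul_sub, abs_mul]
      have h1 := hC.dist_le_mul a b
      rw [Real.dist_eq (G a)] at h1
      calc |c| * |G a - G b| ≤ X * (C * dist a b) :=
            mul_le_mul hcX h1 (abs_nonneg _) hX0
        _ = ((X' * C : ℝ≥0) : ℝ) * dist a b := by
            rw [NNReal.coe_mul, hX']; ring
    have h2 := osc_lip_re hE L (g := fun w => G w.re * χ w) hlip (by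
      intro p hp
      filter_upwards [hO.mem_nhds (hLO hp)] with z hz
      rw [hc z hz]; ring)
    calc osc E (fun w => G w.re * χ w) L.1 ^ 2
        ≤ (((X' * C : ℝ≥0) : ℝ) * wd L.1) ^ 2 :=
          pow_le_pow_left₀ (osc_nonneg _ _ _) h2 2
      _ = _ := by ring

/-! ### the second family -/

section B

variable {K : Cmp E} {θ κ : ℝ → ℝ}

/-- near the other components the function is `θ(x)` or `0` -/
theorem near_B (hE : IsCompact E) (hs : ∀ L : Cmp E, ∀ t, OrdConnected (sec L.1 t))
    (hθs : tsupport θ ⊆ Ioo (lo K.1) (hi K.1)) (hκ : ∀ p ∈ E, ∀ᶠ y in 𝓝 p.im, κ y = 1)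
    {L : Cmp E} (hL : L ≠ K) :
    (∀ p ∈ L.1, ∀ᶠ z in 𝓝 p, up K.1 θ z * κ z.im = θ z.re) ∨
      (∀ p ∈ L.1, ∀ᶠ z in 𝓝 p, up K.1 θ z * κ z.im = 0) := by
  have hK := K.isCompact hE
  have hne : ∀ t ∈ Ioo (lo K.1) (hi K.1), (sec K.1 t).Nonempty := fun t ht =>
    sec_nonempty hK K.preconn K.nonempty ⟨ht.1.le, ht.2.le⟩
  have hκ' : ∀ p ∈ L.1, ∀ᶠ z in 𝓝 p, κ z.im = 1 := fun p hp =>
    (Complex.continuous_im.tendsto p).eventually (hκ p (L.subset hp))
  rcases up_on_disjoint hK (hs K) (L.isCompact hE) L.preconn (hs L)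
    (Cmp.disjoint (fun h => hL h.symm)) hne hθs with ⟨-, h2⟩ | ⟨-, h2⟩
  · left
    intro p hp
    filter_upwards [h2 p hp, hκ' p hp] with z h1 h3
    rw [h1, h3, mul_one]
  · right
    intro p hp
    filter_upwards [h2 p hp] with z h1
    rw [h1, zero_mul]

theorem contDiffAt_B (hE : IsCompact E) (hs : ∀ t, OrdConnected (sec K.1 t))
    (hθ : ContDiff ℝ ∞ θ) (hθs : tsupport θ ⊆ Ioo (lo K.1) (hi K.1)) (hκ : ContDiff ℝ ∞ κ)
    {p : ℂ} (hp : p ∉ K.1) : ContDiffAt ℝ ∞ (fun z => up K.1 θ z * κ z.im) p := by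
  have hK := K.isCompact hE
  have hne : ∀ t ∈ Ioo (lo K.1) (hi K.1), (sec K.1 t).Nonempty := fun t ht =>
    sec_nonempty hK K.preconn K.nonempty ⟨ht.1.le, ht.2.le⟩
  exact (contDiffAt_up hK hs hne hθs hθ hp).mul (hκ.comp Complex.imCLM.contDiff).contDiffAt

theorem locLip_B (hE : IsCompact E) (hs : ∀ t, OrdConnected (sec K.1 t))
    (hθ : ContDiff ℝ ∞ θ) (hθs : tsupport θ ⊆ Ioo (lo K.1) (hi K.1)) (hκ : ContDiff ℝ ∞ κ)
    {S : Set ℂ} (hS : S ⊆ K.1ᶜ) : LocallyLipschitzOn S (fun z => up K.1 θ z * κ z.im) := by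
  intro p hp
  have h1 : ContDiffAt ℝ 1 (fun z => up K.1 θ z * κ z.im) p :=
    (contDiffAt_B hE hs hθ hθs hκ (hS hp)).of_le (by simp)
  obtain ⟨C, t, ht, hC⟩ := h1.exists_lipschitzOnWith
  exact ⟨C, t, mem_nhdsWithin_of_mem_nhds ht, hC⟩

theorem Q_B (hE : IsCompact E) (hs : ∀ t, OrdConnected (sec K.1 t))
    (hθ : ContDiff ℝ ∞ θ) (hθc : HasCompactSupport θ) (hθs : tsupport θ ⊆ Ioo (lo K.1) (hi K.1))
    (hκ : ContDiff ℝ ∞ κ) (hκc : HasCompactSupport κ) :
    Bd_775.Q E (fun z => up K.1 θ z * κ z.im) := by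
  have hK := K.isCompact hE
  have hne : ∀ t ∈ Ioo (lo K.1) (hi K.1), (sec K.1 t).Nonempty := fun t ht =>
    sec_nonempty hK K.preconn K.nonempty ⟨ht.1.le, ht.2.le⟩
  obtain ⟨A, hA⟩ := hθc.exists_bound_of_continuous hθ.continuous
  obtain ⟨B, hB⟩ := hκc.exists_bound_of_continuous hκ.continuous
  obtain ⟨A', hA'⟩ := hθc.deriv.exists_bound_of_continuous (hθ.continuous_deriv (by simp))
  obtain ⟨B', hB'⟩ := hκc.deriv.exists_bound_of_continuous (hκ.continuous_deriv (by simp))
  have hA0 : 0 ≤ A := (norm_nonneg _).trans (hA 0)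
  have hB0 : 0 ≤ B := (norm_nonneg _).trans (hB 0)
  have hA'0 : 0 ≤ A' := (norm_nonneg _).trans (hA' 0)
  have hB'0 : 0 ≤ B' := (norm_nonneg _).trans (hB' 0)
  have hup : ∀ z, |up K.1 θ z| ≤ A := by
    intro z
    rcases up_mem (K := K.1) (θ := θ) z with h | h
    · rw [h]; exact hA _
    · rw [h, abs_zero]; exact hA0
  refine ⟨⟨A * B, fun z => ?_⟩, locLip_B hE hs hθ hθs hκ
    (compl_subset_compl.2 K.subset), ?_⟩
  · rw [abs_mul]
    exact mul_le_mul (hup z) (hB _) (abs_nonneg _) hA0
  · -- finite energy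
    set T : Set ℂ := Complex.re ⁻¹' (tsupport θ) ∩ Complex.im ⁻¹' (tsupport κ) with hT
    have hTm : MeasurableSet T :=
      (Complex.measurable_re (isClosed_tsupport θ).measurableSet).inter
        (Complex.measurable_im (isClosed_tsupport κ).measurableSet)
    have hTv : volume T < ⊤ := by
      have h2 := Complex.volume_preserving_equiv_real_prod.measure_preimage
        (s := tsupport θ ×ˢ tsupport κ)
        ((isClosed_tsupport θ).measurableSet.prod (isClosed_tsupport κ).measurableSet).nullMeasurableSet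
      rw [Measure.volume_eq_prod, Measure.prod_prod] at h2
      have h3 : volume T = volume (tsupport θ) * volume (tsupport κ) := by
        rw [← h2]; rfl
      rw [h3]
      exact ENNReal.mul_lt_top hθc.isCompact.measure_lt_top hκc.isCompact.measure_lt_top
    have hder : ∀ p ∈ Eᶜ, fderiv ℝ (fun z => up K.1 θ z * κ z.im) p
        = up K.1 θ p • deriv κ p.im • Complex.imCLM
          + κ p.im • (above K.1).indicator (fun q => deriv θ q.re • Complex.reCLM) p := by
      intro w hw
      have hwK : w ∉ K.1 := fun h => hw (K.subset h)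
      have h1 : DifferentiableAt ℝ (up K.1 θ) w :=
        (contDiffAt_up hK hs hne hθs hθ hwK).differentiableAt (by simp)
      have h2 : HasFDerivAt (fun w : ℂ => κ w.im) (deriv κ w.im • Complex.imCLM) w :=
        ((hκ.differentiable (by simp)) w.im).hasDerivAt.comp_hasFDerivAt w
          Complex.imCLM.hasFDerivAt
      have h3 := (h1.hasFDerivAt.mul h2).fderiv
      rw [← fderiv_up hK hs hne hθs (hθ.differentiable (by simp)) hwK]
      exact h3
    have hbd : ∀ p ∈ Eᶜ, Bd_775.en (fun z => up K.1 θ z * κ z.im) p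
        ≤ T.indicator (fun _ => (B * A') ^ 2 + (A * B') ^ 2) p := by
      intro p hp
      have hx : Bd_775.gx (fun z => up K.1 θ z * κ z.im) p
          = κ p.im * (above K.1).indicator (fun q => deriv θ q.re) p := by
        simp only [Bd_775.gx]
        rw [hder p hp]
        simp only [_root_.add_apply, _root_.smul_apply, Complex.imCLM_apply, Complex.one_im,
          smul_eq_mul, mul_zero, zero_add]
        by_cases ha : p ∈ above K.1
        · rw [indicator_of_mem ha, indicator_of_mem ha]; simp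
        · rw [indicator_of_notMem ha, indicator_of_notMem ha]; simp
      have hy : Bd_775.gy (fun z => up K.1 θ z * κ z.im) p = up K.1 θ p * deriv κ p.im := by
        simp only [Bd_775.gy]
        rw [hder p hp]
        simp only [_root_.add_apply, _root_.smul_apply, Complex.imCLM_apply, Complex.I_im,
          smul_eq_mul, mul_one]
        by_cases ha : p ∈ above K.1
        · rw [indicator_of_mem ha]; simp
        · rw [indicator_of_notMem ha]; simp
      have hen : Bd_775.en (fun z => up K.1 θ z * κ z.im) p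
          = (κ p.im * (above K.1).indicator (fun q => deriv θ q.re) p) ^ 2
            + (up K.1 θ p * deriv κ p.im) ^ 2 := by
        simp only [Bd_775.en]
        rw [hx, hy]
      rw [hen]
      have hind : |(above K.1).indicator (fun q => deriv θ q.re) p| ≤ A' := by
        by_cases ha : p ∈ above K.1
        · rw [indicator_of_mem ha]; exact hA' _
        · rw [indicator_of_notMem ha, abs_zero]; exact hA'0
      by_cases hpT : p ∈ T
      · rw [indicator_of_mem hpT]
        refine add_le_add ?_ ?_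
        · rw [← sq_abs, abs_mul]
          exact pow_le_pow_left₀ (by positivity) (mul_le_mul (hB _) hind (abs_nonneg _) hB0) 2
        · rw [← sq_abs, abs_mul]
          exact pow_le_pow_left₀ (by positivity) (mul_le_mul (hup p) (hB' _) (abs_nonneg _) hA0) 2
      · rw [indicator_of_notMem hpT]
        have h0 : (κ p.im = 0 ∧ deriv κ p.im = 0) ∨ (θ p.re = 0 ∧ deriv θ p.re = 0) := by
          by_cases h1 : p.im ∈ tsupport κ
          · right
            have h2 : p.re ∉ tsupport θ := fun hc => hpT ⟨hc, h1⟩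
            exact ⟨image_eq_zero_of_notMem_tsupport h2,
              image_eq_zero_of_notMem_tsupport fun hc => h2 (tsupport_deriv_subset hc)⟩
          · left
            exact ⟨image_eq_zero_of_notMem_tsupport h1,
              image_eq_zero_of_notMem_tsupport fun hc => h1 (tsupport_deriv_subset hc)⟩
        rcases h0 with ⟨h1, h2⟩ | ⟨h1, h2⟩
        · rw [h1, h2]; simp
        · have h3 : (above K.1).indicator (fun q => deriv θ q.re) p = 0 := by
            by_cases ha : p ∈ above K.1
            · rw [indicator_of_mem ha]; exact h2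
            · rw [indicator_of_notMem ha]
          have h4 : up K.1 θ p = 0 := by
            rcases up_mem (K := K.1) (θ := θ) p with h | h
            · rw [h, h1]
            · exact h
          rw [h3, h4]; simp
    have hmeas : Measurable (Bd_775.en (fun z => up K.1 θ z * κ z.im)) :=
      ((Bd_775.measurable_gx _).pow_const 2).add ((Bd_775.measurable_gy _).pow_const 2)
    have hint : Integrable (T.indicator fun _ : ℂ => (B * A') ^ 2 + (A * B') ^ 2) :=
      (integrable_indicator_iff hTm).2 (integrableOn_const hTv.ne)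
    refine Integrable.mono' hint.integrableOn hmeas.aestronglyMeasurable ?_
    rw [ae_restrict_iff' hE.isClosed.measurableSet.compl]
    refine Eventually.of_forall fun p hp => ?_
    rw [Real.norm_of_nonneg (by simp only [Bd_775.en]; positivity)]
    exact hbd p hp

theorem TT_B (hE : IsCompact E) (hs : ∀ L : Cmp E, ∀ t, OrdConnected (sec L.1 t))
    (hsum : Summable fun L : Cmp E => wd L.1 ^ 2)
    (hθ : ContDiff ℝ ∞ θ) (hθc : HasCompactSupport θ) (hθs : tsupport θ ⊆ Ioo (lo K.1) (hi K.1))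
    (hκ : ContDiff ℝ ∞ κ) (hκc : HasCompactSupport κ)
    (hκE : ∀ p ∈ E, ∀ᶠ y in 𝓝 p.im, κ y = 1) : TT E (fun z => up K.1 θ z * κ z.im) := by
  classical
  have hQ := Q_B (K := K) hE (hs K) hθ hθc hθs hκ hκc
  refine ⟨hQ, ?_⟩
  obtain ⟨C, hC⟩ := lip_of_deriv hθ hθc.deriv
  have h1 : ∀ L : Cmp E, L ≠ K →
      osc E (fun z => up K.1 θ z * κ z.im) L.1 ^ 2 ≤ (C : ℝ) ^ 2 * wd L.1 ^ 2 := by
    intro L hL
    rw [← mul_pow]
    refine pow_le_pow_left₀ (osc_nonneg _ _ _) ?_ 2
    rcases near_B hE hs hθs hκE hL with h | h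
    · exact osc_lip_re hE L hC h
    · exact osc_lip_re hE L (k := fun _ => 0) (LipschitzWith.const 0 |>.weaken zero_le) h
  set c : ℝ := osc E (fun z => up K.1 θ z * κ z.im) K.1 ^ 2 with hc
  refine Summable.of_nonneg_of_le (fun _ => sq_nonneg _) (fun L => ?_)
    ((hsum.mul_left ((C : ℝ) ^ 2)).add (summable_of_hasFiniteSupport
      (f := fun L : Cmp E => if L = K then c else 0) ?_))
  · by_cases hL : L = K
    · subst hL
      simp only [if_true]
      have : 0 ≤ (C : ℝ) ^ 2 * wd L.1 ^ 2 := by positivity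
      linarith
    · simp only [if_neg hL, add_zero]
      exact h1 L hL
  · refine (Set.finite_singleton K).subset fun L hL => ?_
    by_contra hne
    simp only [Function.mem_support] at hL
    exact hL (if_neg hne)

end B

end

end Crest.Agent.R105.Pct_185
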