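import Crest.Agent.R105.Ends4_897

/-! Row 105, PIC (helper442), part 1: the components of the complement of the picture.

`F : U → V` an `EndMap` (897) whose real part converges at every end of `U`:
every component of `Vᶜ` is a point or a vertical segment over the limit value; totally disconnected
`Uᶜ`: end filters are `𝓝[U] z`; usc of `z ↦ K_z`. -/

set_option autoImplicit false

open Set Filter Topology Metric

namespace Crest.Agent.R105.Pic_442

open Crest.AnalysisR Ends_897

/-! ### vertical segments -/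

/-- the vertical segment `{c} × [b, t]` -/
def vseg (c b t : ℝ) : Set ℂ := {w | w.re = c ∧ b ≤ w.im ∧ w.im ≤ t}

theorem mem_vseg {c b t : ℝ} {w : ℂ} : w ∈ vseg c b t ↔ w.re = c ∧ b ≤ w.im ∧ w.im ≤ t := Iff.rfl

theorem vseg_eq_image (c b t : ℝ) : vseg c b t = (fun y : ℝ => (⟨c, y⟩ : ℂ)) '' Icc b t := by
  ext w
  constructor
  · rintro ⟨h1, h2, h3⟩
    exact ⟨w.im, ⟨h2, h3⟩, by rw [← h1]⟩
  · rintro ⟨y, hy, rfl⟩
    exact ⟨rfl, hy.1, hy.2⟩

theorem continuous_mk (c : ℝ) : Continuous fun y : ℝ => (⟨c, y⟩ : ℂ) := by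
  have h : (fun y : ℝ => (⟨c, y⟩ : ℂ)) = fun y : ℝ => (c : ℂ) + (y : ℂ) * Complex.I := by
    ext y
    exact Complex.mk_eq_add_mul_I c y
  rw [h]; fun_prop

theorem isCompact_vseg (c b t : ℝ) : IsCompact (vseg c b t) := by
  rw [vseg_eq_image]; exact isCompact_Icc.image (continuous_mk c)

theorem isPreconnected_vseg (c b t : ℝ) : IsPreconnected (vseg c b t) := by
  rw [vseg_eq_image]; exact isPreconnected_Icc.image _ (continuous_mk c).continuousOn

theorem vseg_self (c b : ℝ) : vseg c b b = {(⟨c, b⟩ : ℂ)} := by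
  rw [vseg_eq_image, Icc_self, image_singleton]

/-- a compact set whose frontier lies in a vertical line lies in this line -/
theorem re_eq_of_frontier {K : Set ℂ} (hK : IsCompact K) {c : ℝ}
    (h : ∀ w ∈ frontier K, w.re = c) : ∀ w ∈ K, w.re = c := by
  intro w hw
  have key : ∀ w1 ∈ K, w1 ∉ interior K → w1.re = c := fun w1 h1 h2 => h w1
    ⟨subset_closure h1, h2⟩
  obtain ⟨w1, h1, hmax⟩ := hK.exists_isMaxOn ⟨w, hw⟩ Complex.continuous_re.continuousOn
  obtain ⟨w0, h0, hmin⟩ := hK.exists_isMinOn ⟨w, hw⟩ Complex.continuous_re.continuousOn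
  have e1 : w1.re = c := by
    refine key w1 h1 fun hi => ?_
    obtain ⟨ε, hε, hb⟩ := Metric.mem_nhds_iff.1 (mem_interior_iff_mem_nhds.1 hi)
    have h2 : w1 + ((ε / 2 : ℝ) : ℂ) ∈ K := hb (by
      rw [mem_ball, dist_eq_norm, add_sub_cancel_left, Complex.norm_real, Real.norm_eq_abs,
        abs_of_pos (by positivity)]
      linarith)
    have h3 : (w1 + ((ε / 2 : ℝ) : ℂ)).re ≤ w1.re := hmax h2
    rw [Complex.add_re, Complex.ofReal_re] at h3
    linarith
  have e0 : w0.re = c := by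
    refine key w0 h0 fun hi => ?_
    obtain ⟨ε, hε, hb⟩ := Metric.mem_nhds_iff.1 (mem_interior_iff_mem_nhds.1 hi)
    have h2 : w0 - ((ε / 2 : ℝ) : ℂ) ∈ K := hb (by
      rw [mem_ball, dist_eq_norm, sub_sub_cancel_left, norm_neg, Complex.norm_real,
        Real.norm_eq_abs, abs_of_pos (by positivity)]
      linarith)
    have h3 : w0.re ≤ (w0 - ((ε / 2 : ℝ) : ℂ)).re := hmin h2
    rw [Complex.sub_re, Complex.ofReal_re] at h3
    linarith
  have e2 : w.re ≤ w1.re := hmax hw
  have e3 : w0.re ≤ w.re := hmin hw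
  linarith

/-- a compact connected subset of a vertical line is a vertical segment -/
theorem exists_vseg {K : Set ℂ} (hK : IsCompact K) (hc : IsPreconnected K) (hne : K.Nonempty)
    {c : ℝ} (h : ∀ w ∈ K, w.re = c) : ∃ b t : ℝ, b ≤ t ∧ K = vseg c b t := by
  have h1 : IsConnected (Complex.im '' K) :=
    ⟨hne.image _, hc.image _ Complex.continuous_im.continuousOn⟩
  have h2 : IsCompact (Complex.im '' K) := hK.image Complex.continuous_im
  have h3 := eq_Icc_of_connected_compact h1 h2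
  have h4 : sInf (Complex.im '' K) ≤ sSup (Complex.im '' K) :=
    Real.sInf_le_sSup _ h2.bddBelow h2.bddAbove
  refine ⟨_, _, h4, ?_⟩
  ext w
  constructor
  · intro hw
    have h5 : w.im ∈ Complex.im '' K := ⟨w, hw, rfl⟩
    rw [h3] at h5
    exact ⟨h w hw, h5.1, h5.2⟩
  · rintro ⟨h5, h6, h7⟩
    have h8 : w.im ∈ Complex.im '' K := by rw [h3]; exact ⟨h6, h7⟩
    obtain ⟨w', hw', he⟩ := h8
    have : w' = w := Complex.ext ((h w' hw').trans h5.symm) he
    exact this ▸ hw'

/-! ### the picture -/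

/-- **(P1)** if the real part converges to `c` at the end `ζ`, the component lies over `c` -/
theorem cc_re_eq {V : Set ℂ} (hV : IsExteriorDomain V) {ζ : ℂ} {c : ℝ}
    (h : Tendsto Complex.re (eF V ζ) (𝓝 c)) : ∀ w ∈ connectedComponentIn Vᶜ ζ, w.re = c := by
  have hK := isCompact_cc (isCompact_compl hV) ζ
  refine re_eq_of_frontier hK fun w hw => ?_
  have h1 : ClusterPt w (eF V ζ) := clusterPt_eF_of_frontier hV hw
  have h2 : MapClusterPt w.re (eF V ζ) Complex.re :=
    h1.map Complex.continuous_re.continuousAt tendsto_map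
  have h3 : ClusterPt w.re (𝓝 c) := ClusterPt.mono (h2 : ClusterPt w.re (map Complex.re (eF V ζ))) h
  exact eq_of_nhds_neBot h3

/-- **(P1)** the end component of `F` at `z` is a vertical segment (or a point) over the limit -/
theorem exists_end_vseg {U V : Set ℂ} {F : ℂ → ℂ} (h : EndMap U V F) {z : ℂ} (hz : z ∉ U) {c : ℝ}
    (hx : Tendsto (fun w => (F w).re) (eF U z) (𝓝 c)) :
    ∃ ζ, ζ ∉ V ∧ map F (eF U z) = eF V ζ ∧ ∃ b t : ℝ, b ≤ t ∧
      connectedComponentIn Vᶜ ζ = vseg c b t := by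
  obtain ⟨ζ, hζ, he⟩ := h.exists_end hz
  refine ⟨ζ, hζ, he, ?_⟩
  have h1 : Tendsto Complex.re (eF V ζ) (𝓝 c) := by
    rw [← he]; exact tendsto_map'_iff.2 hx
  exact exists_vseg (isCompact_cc (isCompact_compl h.hV) ζ) isPreconnected_connectedComponentIn
    ⟨ζ, mem_connectedComponentIn hζ⟩ (cc_re_eq h.hV h1)

/-- **(P1)** every component of `Vᶜ` is a vertical segment (or a point) over a value of `x` -/
theorem cc_vseg {U V : Set ℂ} {F : ℂ → ℂ} (h : EndMap U V F) {x : ℂ → ℝ}
    (hx : ∀ z ∉ U, Tendsto (fun w => (F w).re) (eF U z) (𝓝 (x z))) {ζ : ℂ} (hζ : ζ ∉ V) :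
    ∃ z, z ∉ U ∧ map F (eF U z) = eF V ζ ∧ x z = ζ.re ∧ ∃ b t : ℝ, b ≤ t ∧
      connectedComponentIn Vᶜ ζ = vseg ζ.re b t := by
  obtain ⟨z, hz, he⟩ := h.exists_end' hζ
  have h1 : Tendsto Complex.re (eF V ζ) (𝓝 (x z)) := by
    rw [← he]; exact tendsto_map'_iff.2 (hx z hz)
  have h2 := cc_re_eq h.hV h1
  have h3 : ζ.re = x z := h2 ζ (mem_connectedComponentIn hζ)
  refine ⟨z, hz, he, h3.symm, ?_⟩
  rw [h3]
  exact exists_vseg (isCompact_cc (isCompact_compl h.hV) ζ) isPreconnected_connectedComponentIn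
    ⟨ζ, mem_connectedComponentIn hζ⟩ h2

/-! ### totally disconnected complement -/

/-- point components -/
theorem cc_singleton {X : Set ℂ} (hX : IsTotallyDisconnected X) {z : ℂ} (hz : z ∈ X) :
    connectedComponentIn X z = {z} := by
  have h1 := hX _ (connectedComponentIn_subset X z) isPreconnected_connectedComponentIn
  exact h1.eq_singleton_of_mem (mem_connectedComponentIn hz)

theorem eF_eq_nhdsWithin {U : Set ℂ} {z : ℂ} (h : connectedComponentIn Uᶜ z = {z}) :
    eF U z = 𝓝[U] z := by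
  rw [eF, h, nhdsSet_singleton, nhdsWithin]

/-- continuous functions converge at point ends -/
theorem tendsto_of_continuousAt {U : Set ℂ} {z : ℂ} (h : connectedComponentIn Uᶜ z = {z})
    {α : Type*} [TopologicalSpace α] {x g : ℂ → α} (hx : ContinuousAt x z)
    (hg : ∀ w ∈ U, g w = x w) : Tendsto g (eF U z) (𝓝 (x z)) := by
  rw [eF_eq_nhdsWithin h]
  refine Tendsto.congr' ?_ (hx.tendsto.mono_left nhdsWithin_le_nhds)
  filter_upwards [self_mem_nhdsWithin] with w hw using (hg w hw).symm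

/-- **(P4a)** extension to a totally disconnected compact complement: if `g` is continuous on `U`
and converges at every point of `Uᶜ`, the extension is continuous on `ℂ` -/
theorem continuous_extend {U : Set ℂ} (hU : IsExteriorDomain U) (hC : IsTotallyDisconnected Uᶜ)
    {α : Type*} [TopologicalSpace α] [RegularSpace α] {g : ℂ → α} (hg : ContinuousOn g U)
    {x : ℂ → α} (hxU : ∀ w ∈ U, x w = g w) (hx : ∀ z ∉ U, Tendsto g (eF U z) (𝓝 (x z))) :
    Continuous x := by
  rw [continuous_iff_continuousAt]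
  intro z
  by_cases hz : z ∈ U
  · have h1 : ContinuousAt g z := hg.continuousAt (hU.1.mem_nhds hz)
    refine ContinuousAt.congr h1 ?_
    filter_upwards [hU.1.mem_nhds hz] with w hw using (hxU w hw).symm
  · have he : ∀ z ∉ U, eF U z = 𝓝[U] z := fun z hz => eF_eq_nhdsWithin (cc_singleton hC hz)
    rw [ContinuousAt, (closed_nhds_basis (x z)).tendsto_right_iff]
    rintro S ⟨hS1, hS2⟩
    have h1 := (hx z hz) hS1
    rw [he z hz] at h1
    obtain ⟨W, hWo, hzW, hW⟩ := mem_nhdsWithin.1 h1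
    filter_upwards [hWo.mem_nhds hzW] with w hw
    by_cases hwU : w ∈ U
    · rw [hxU w hwU]
      exact hW ⟨hw, hwU⟩
    · have h2 := hx w hwU
      have hne : (eF U w).NeBot := eF_neBot hU hwU
      refine hS2.mem_of_tendsto h2 ?_
      rw [he w hwU]
      exact mem_nhdsWithin.2 ⟨W, hWo, hw, hW⟩

end Crest.Agent.R105.Pic_442
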