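import Crest.Agent.R105.Skp4_257
import Crest.Agent.R105.Null1_442
import Crest.Agent.R105.Pic2_442

/-! Row 105, PICP (helper442): the picture is a slit picture on `ℝ × ℝ` (Prop of `Skp4_257`). -/

set_option autoImplicit false

open MeasureTheory Set Filter Topology Metric

namespace Crest.Agent.R105.Pic_442

open Crest.AnalysisR Ends_897 IfB_641

/-! ### transport `ℂ ↔ ℝ × ℝ` -/

theorem eC_cc {S : Set ℂ} {q : ℝ × ℝ} (hq : q ∈ Skp3_257.eC ⁻¹' S) :
    connectedComponentIn (Skp3_257.eC ⁻¹' S) q =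
      Skp3_257.eC ⁻¹' connectedComponentIn S (Skp3_257.eC q) := by
  have h1 := Skp3_257.eC.image_connectedComponentIn (s := Skp3_257.eC ⁻¹' S) hq
  rw [Skp3_257.eC.image_preimage] at h1
  rw [← h1, Skp3_257.eC.preimage_image]

theorem eC_preimage_vseg (c b t : ℝ) :
    Skp3_257.eC ⁻¹' vseg c b t = {q : ℝ × ℝ | q.1 = c ∧ b ≤ q.2 ∧ q.2 ≤ t} := by
  ext q
  simp only [mem_preimage, mem_vseg, Skp3_257.eC_apply, mem_ofPred_eq]

theorem volume_eC_preimage {S : Set ℂ} (h : volume S = 0) : volume (Skp3_257.eC ⁻¹' S) = 0 := by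
  have h1 : (Skp3_257.eC : ℝ × ℝ → ℂ) = Complex.measurableEquivRealProd.symm := by
    ext q
    rw [Skp3_257.eC_apply]; rfl
  rw [h1]
  exact (Complex.volume_preserving_equiv_real_prod.symm.quasiMeasurePreserving.preimage_null h)

/-- the end map of a completed picture -/
theorem endMap_of_cpl {C : Set ℂ} {x0 φ : ℂ → ℝ} {p : ℂ → ℂ} (h : TD C) (hc : Cpl C x0 φ p)
    (hinj : InjOn p Cᶜ) : EndMap Cᶜ (p '' Cᶜ) p := by
  obtain ⟨c, hinf⟩ := hc.inf
  exact EndMap.of_holo (isExteriorDomain_compl h.cpt h.td) hc.hol hinj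
    (Red_828.tendsto_cocompact_of_tendsto_sub hinf)

/-- the components of the complement of the picture are vertical segments or points -/
theorem cc_pic {C : Set ℂ} {x0 φ : ℂ → ℝ} {p : ℂ → ℂ} (h : TD C) (hx0 : Continuous x0)
    (hφ : Continuous φ) (hc : Cpl C x0 φ p) (hinj : InjOn p Cᶜ) {ζ : ℂ} (hζ : ζ ∉ p '' Cᶜ) :
    ∃ z ∈ C, map p (eF Cᶜ z) = eF (p '' Cᶜ) ζ ∧ x0 z + φ z = ζ.re ∧ ∃ b t : ℝ, b ≤ t ∧
      connectedComponentIn (p '' Cᶜ)ᶜ ζ = vseg ζ.re b t := by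
  have hE := endMap_of_cpl h hc hinj
  have hx : ∀ z ∉ Cᶜ, Tendsto (fun w => (p w).re) (eF Cᶜ z) (𝓝 (x0 z + φ z)) := by
    intro z hz
    have hz' : z ∈ C := not_not.1 hz
    have hcc : connectedComponentIn Cᶜᶜ z = {z} := by
      rw [compl_compl]; exact cc_singleton h.td hz'
    exact tendsto_of_continuousAt (x := fun z => x0 z + φ z) hcc
      (hx0.add hφ).continuousAt hc.re
  obtain ⟨z, hz, h1, h2, b, t, hbt, h3⟩ := cc_vseg hE hx hζ
  exact ⟨z, not_not.1 hz, h1, h2, b, t, hbt, h3⟩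

/-- **PICP, literally** -/
theorem picp : Skp4_257.PICP := by
  intro C x0 b φ p hk hc hinj hnull
  have hE := endMap_of_cpl hk.td hc hinj
  have hcpt : IsCompact (p '' Cᶜ)ᶜ := isCompact_compl hE.hV
  refine ⟨?_, volume_eC_preimage hnull, ?_⟩
  · exact Skp3_257.eC.isCompact_preimage.2 hcpt
  · rintro P ⟨q, hq, rfl⟩
    have hq' : Skp3_257.eC q ∉ p '' Cᶜ := hq
    obtain ⟨z, -, -, -, b', t, hbt, h3⟩ := cc_pic hk.td hk.hx0.sm.continuous hk.memφ.cont hc hinj hq'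
    have h4 : connectedComponentIn (Skp3_257.EP C p) q =
        {q' : ℝ × ℝ | q'.1 = (Skp3_257.eC q).re ∧ b' ≤ q'.2 ∧ q'.2 ≤ t} := by
      rw [Skp3_257.EP, eC_cc hq, h3, eC_preimage_vseg]
    rcases hbt.eq_or_lt with rfl | hlt
    · left
      refine ⟨((Skp3_257.eC q).re, b'), ?_⟩
      rw [h4]
      ext q'
      simp only [mem_ofPred_eq, mem_singleton_iff, Prod.ext_iff]
      constructor
      · rintro ⟨h1, h2, h3⟩; exact ⟨h1, le_antisymm h3 h2⟩
      · rintro ⟨h1, h2⟩; exact ⟨h1, h2.ge, h2.le⟩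
    · right
      exact ⟨⟨(Skp3_257.eC q).re, b', t, hlt⟩, h4⟩

end Crest.Agent.R105.Pic_442
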