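import Crest.Agent.R105.Skp4_257
import Crest.Agent.R105.Null1_442

/-!
# Row 105, [B], node A7b: `Skp4_257.PICP` (helper72)

The picture set `EP C p ⊆ ℝ × ℝ` is a slit picture: compact, null, and every component is a point
or a vertical hair.
-/

set_option autoImplicit false

open MeasureTheory Set Filter Topology Metric

namespace Crest.Agent.R105.Picp_72

open Crest.AnalysisR Ends_897 Pic_442 Skp2_257 Skp3_257 Skp4_257 CF_363

/-- components of a preimage under a homeomorphism -/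
theorem cc_preimage {X Y : Type*} [TopologicalSpace X] [TopologicalSpace Y] (e : X ≃ₜ Y)
    (S : Set Y) {q : X} (hq : e q ∈ S) :
    connectedComponentIn (e ⁻¹' S) q = e ⁻¹' connectedComponentIn S (e q) := by
  have h := e.symm.image_connectedComponentIn hq
  rw [e.symm_apply_apply, e.symm.image_eq_preimage_symm, e.symm.image_eq_preimage_symm,
    Homeomorph.symm_symm] at h
  exact h.symm

theorem eC_symm_apply (z : ℂ) : eC.symm z = (z.re, z.im) := by
  rw [Homeomorph.symm_apply_eq, eC_apply]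

theorem measurePreserving_eC : MeasurePreserving eC (volume : Measure (ℝ × ℝ)) volume := by
  have h := (Complex.volume_preserving_equiv_real_prod).symm Complex.measurableEquivRealProd
  have e : (eC : ℝ × ℝ → ℂ) = Complex.measurableEquivRealProd.symm := by
    funext q
    rw [eC_apply]
    exact (Complex.measurableEquivRealProd_symm_apply q).symm
  rw [e]
  exact h

theorem volume_preimage_eC {S : Set ℂ} (hS : NullMeasurableSet S) :
    volume (eC ⁻¹' S) = volume S := measurePreserving_eC.measure_preimage hS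

/-- a vertical segment of `ℂ` read on `ℝ × ℝ` -/
theorem preimage_vseg (c b t : ℝ) :
    eC ⁻¹' vseg c b t = {q : ℝ × ℝ | q.1 = c ∧ b ≤ q.2 ∧ q.2 ≤ t} := by
  ext q
  rw [mem_preimage, mem_vseg, eC_apply]
  exact Iff.rfl

/-- the `EndMap` of a package -/
theorem endMap {C : Set ℂ} {x0 : ℂ → ℝ} {b : ℕ → ℂ → ℝ} {φ : ℂ → ℝ} {p : ℂ → ℂ}
    (hk : IfB_641.Pk C x0 b φ) (hc : IfB_641.Cpl C x0 φ p) (hi : InjOn p Cᶜ) :
    EndMap Cᶜ (p '' Cᶜ) p := by
  obtain ⟨c, hinf⟩ := hc.inf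
  exact EndMap.of_holo (isExteriorDomain_compl hk.td.cpt hk.td.td) hc.hol hi
    (Red_828.tendsto_cocompact_of_tendsto_sub hinf)

/-- the real part converges at every end -/
theorem tendsto_re {C : Set ℂ} {x0 : ℂ → ℝ} {b : ℕ → ℂ → ℝ} {φ : ℂ → ℝ} {p : ℂ → ℂ}
    (hk : IfB_641.Pk C x0 b φ) (hc : IfB_641.Cpl C x0 φ p) (z : ℂ) (hz : z ∉ Cᶜ) :
    Tendsto (fun w => (p w).re) (eF Cᶜ z) (𝓝 (x0 z + φ z)) := by
  have hzC : z ∈ C := not_not.1 hz
  refine tendsto_of_continuousAt (x := fun w => x0 w + φ w) ?_ ?_ (fun w hw => hc.re w hw)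
  · rw [compl_compl]; exact cc_singleton hk.td.td hzC
  · exact (hk.hx0.sm.continuous.add hk.memφ.cont).continuousAt

/-- every component of the picture set is a vertical segment -/
theorem cc_EP {C : Set ℂ} {x0 : ℂ → ℝ} {b : ℕ → ℂ → ℝ} {φ : ℂ → ℝ} {p : ℂ → ℂ}
    (hk : IfB_641.Pk C x0 b φ) (hc : IfB_641.Cpl C x0 φ p) (hi : InjOn p Cᶜ) {q : ℝ × ℝ}
    (hq : q ∈ EP C p) : ∃ z ∈ C, map p (eF Cᶜ z) = eF (p '' Cᶜ) (eC q) ∧ x0 z + φ z = q.1 ∧
      ∃ l t : ℝ, l ≤ t ∧
        connectedComponentIn (EP C p) q = {q' : ℝ × ℝ | q'.1 = q.1 ∧ l ≤ q'.2 ∧ q'.2 ≤ t} := by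
  have h := endMap hk hc hi
  have hq' : eC q ∉ p '' Cᶜ := hq
  obtain ⟨z, hz, he, hx, l, t, hlt, hcc⟩ := cc_vseg h (x := fun w => x0 w + φ w)
    (fun z hz => tendsto_re hk hc z hz) hq'
  have e1 : (eC q).re = q.1 := by rw [eC_apply]
  refine ⟨z, not_not.1 hz, he, hx.trans e1, l, t, hlt, ?_⟩
  have h1 := cc_preimage eC (p '' Cᶜ)ᶜ (q := q) hq
  rw [hcc, preimage_vseg, e1] at h1
  exact h1

/-- **PICP**: the picture is a slit picture. -/
theorem picp : PICP := by
  intro C x0 b φ p hk hc hi hnull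
  have h := endMap hk hc hi
  have hcpt : IsCompact (p '' Cᶜ)ᶜ := isCompact_compl h.hV
  refine ⟨?_, ?_, ?_⟩
  · exact (eC.isCompact_preimage).2 hcpt
  · have := volume_preimage_eC (S := (p '' Cᶜ)ᶜ) hcpt.isClosed.measurableSet.nullMeasurableSet
    rw [EP, this, hnull]
  · rintro P ⟨q, hq, rfl⟩
    obtain ⟨z, -, -, -, l, t, hlt, hcc⟩ := cc_EP hk hc hi hq
    rw [hcc]
    rcases hlt.eq_or_lt with h1 | h1
    · left
      refine ⟨(q.1, l), ?_⟩
      ext q'
      simp only [mem_ofPred_eq, mem_singleton_iff, ← h1]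
      constructor
      · rintro ⟨h2, h3, h4⟩
        exact Prod.ext h2 (le_antisymm h4 h3)
      · rintro rfl
        exact ⟨rfl, le_rfl, le_rfl⟩
    · right
      exact ⟨⟨q.1, l, t, h1⟩, rfl⟩

end Crest.Agent.R105.Picp_72
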