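import Crest.Agent.R105.Boj2_676

/-!
# Row 105 (helper676), PLa: the cut-offs of the planarisation

`hat` (radial, slope `1/(β-α)`), `pcut` (average of `N` hats on disjoint annuli: energy `4π/N`).
-/

set_option autoImplicit false

open MeasureTheory Metric Set Filter Topology
open scoped ENNReal NNReal

namespace Crest.Agent.R105.Pla_676

/-- the radial hat: `1` on `closedBall c α`, `0` off `ball c β` -/
noncomputable def hat (c : ℂ) (α β : ℝ) (z : ℂ) : ℝ := max 0 (min 1 ((β - ‖z - c‖) / (β - α)))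

/-- its slope -/
noncomputable def slo (c : ℂ) (α β : ℝ) (z : ℂ) : ℝ :=
  (closedBall c β \ ball c α).indicator (fun _ => (β - α)⁻¹) z

section hat

variable {c : ℂ} {α β : ℝ}

theorem hat_nonneg (z : ℂ) : 0 ≤ hat c α β z := le_max_left _ _

theorem hat_le_one (z : ℂ) : hat c α β z ≤ 1 := max_le zero_le_one (min_le_left _ _)

theorem hat_one (h : α < β) {z : ℂ} (hz : z ∈ closedBall c α) : hat c α β z = 1 := by
  rw [mem_closedBall, dist_eq_norm] at hz
  have h1 : 1 ≤ (β - ‖z - c‖) / (β - α) := (one_le_div (sub_pos.2 h)).2 (by linarith)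
  rw [hat, min_eq_left h1, max_eq_right zero_le_one]

theorem hat_zero (h : α < β) {z : ℂ} (hz : β ≤ ‖z - c‖) : hat c α β z = 0 := by
  have h1 : (β - ‖z - c‖) / (β - α) ≤ 0 :=
    div_nonpos_of_nonpos_of_nonneg (by linarith) (sub_pos.2 h).le
  rw [hat, min_eq_right (h1.trans zero_le_one), max_eq_left h1]

theorem hat_diff (h : α < β) (z w : ℂ) :
    |hat c α β w - hat c α β z| ≤ (β - α)⁻¹ * ‖w - z‖ := by
  have h0 : 0 < β - α := sub_pos.2 h
  have h1 : |hat c α β w - hat c α β z| ≤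
      |(β - ‖w - c‖) / (β - α) - (β - ‖z - c‖) / (β - α)| := by
    unfold hat
    rw [max_comm 0, max_comm 0, min_comm 1, min_comm 1]
    exact (abs_max_sub_max_le_abs _ _ _).trans (by
      have := abs_min_sub_min_le_max ((β - ‖w - c‖) / (β - α)) 1 ((β - ‖z - c‖) / (β - α)) 1
      simpa using this)
  refine h1.trans ?_
  rw [← sub_div, abs_div, abs_of_pos h0, div_eq_inv_mul]
  refine mul_le_mul_of_nonneg_left ?_ (inv_nonneg.2 h0.le)
  have h2 : β - ‖w - c‖ - (β - ‖z - c‖) = ‖z - c‖ - ‖w - c‖ := by ring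
  rw [h2]
  refine (abs_norm_sub_norm_le _ _).trans (le_of_eq ?_)
  rw [show z - c - (w - c) = -(w - z) by ring, norm_neg]

theorem hat_lip (h : α < β) : LipschitzWith (β - α)⁻¹.toNNReal (hat c α β) := by
  refine LipschitzWith.of_dist_le_mul fun w z => ?_
  rw [Real.dist_eq, dist_eq_norm, Real.coe_toNNReal _ (inv_nonneg.2 (sub_pos.2 h).le)]
  exact hat_diff h z w

theorem slo_nonneg (h : α < β) (z : ℂ) : 0 ≤ slo c α β z :=
  indicator_nonneg (fun _ _ => inv_nonneg.2 (sub_pos.2 h).le) z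

theorem slo_meas : Measurable (slo c α β) :=
  measurable_const.indicator (measurableSet_closedBall.diff measurableSet_ball)

theorem slo_zero {z : ℂ} (hz : z ∉ closedBall c β) : slo c α β z = 0 :=
  indicator_of_notMem (fun h => hz h.1) _

theorem slo_le (h : α < β) (z : ℂ) :
    slo c α β z ≤ (closedBall c β).indicator (fun _ => (β - α)⁻¹) z :=
  indicator_le_indicator_of_subset sdiff_subset (fun _ => inv_nonneg.2 (sub_pos.2 h).le) z

theorem hat_slope (h : α < β) (z : ℂ) :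
    ∀ᶠ w in 𝓝 z, |hat c α β w - hat c α β z| ≤ slo c α β z * ‖w - z‖ := by
  by_cases hz : z ∈ closedBall c β \ ball c α
  · refine Eventually.of_forall fun w => ?_
    rw [slo, indicator_of_mem hz]
    exact hat_diff h z w
  · have hz' : z ∉ closedBall c β ∨ z ∈ ball c α := by
      by_contra hcon
      push Not at hcon
      exact hz ⟨hcon.1, hcon.2⟩
    rw [slo, indicator_of_notMem hz]
    rcases hz' with h1 | h1
    · filter_upwards [isClosed_closedBall.isOpen_compl.mem_nhds h1] with w hw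
      rw [mem_compl_iff, mem_closedBall, dist_eq_norm, not_le] at hw
      rw [mem_closedBall, dist_eq_norm, not_le] at h1
      rw [hat_zero h hw.le, hat_zero h h1.le]
      simp
    · filter_upwards [isOpen_ball.mem_nhds h1] with w hw
      rw [hat_one h (ball_subset_closedBall hw), hat_one h (ball_subset_closedBall h1)]
      simp

end hat

/-- the cut-off at a point: the average of `N` hats at the radii `δ / 4 ^ (k+1)` -/
noncomputable def pcut (c : ℂ) (δ : ℝ) (N : ℕ) (z : ℂ) : ℝ :=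
  (N : ℝ)⁻¹ * ∑ k ∈ Finset.range N, hat c (δ / 4 ^ (k + 1)) (2 * (δ / 4 ^ (k + 1))) z

/-- its slope -/
noncomputable def pslo (c : ℂ) (δ : ℝ) (N : ℕ) (z : ℂ) : ℝ :=
  (N : ℝ)⁻¹ * ∑ k ∈ Finset.range N, slo c (δ / 4 ^ (k + 1)) (2 * (δ / 4 ^ (k + 1))) z

section pcut

variable {c : ℂ} {δ : ℝ} {N : ℕ}

theorem rad_pos (hδ : 0 < δ) (k : ℕ) : 0 < δ / 4 ^ (k + 1) := by positivity

theorem rad_lt (hδ : 0 < δ) (k : ℕ) : δ / 4 ^ (k + 1) < 2 * (δ / 4 ^ (k + 1)) := by
  have := rad_pos hδ k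
  linarith

theorem rad_anti (hδ : 0 < δ) {k l : ℕ} (h : k ≤ l) : δ / 4 ^ (l + 1) ≤ δ / 4 ^ (k + 1) :=
  div_le_div_of_nonneg_left hδ.le (by positivity)
    (pow_le_pow_right₀ (by norm_num) (by omega))

theorem rad_le (hδ : 0 < δ) (k : ℕ) : 2 * (δ / 4 ^ (k + 1)) ≤ δ / 2 := by
  have h1 := rad_anti hδ (Nat.zero_le k)
  have h2 : δ / 4 ^ (0 + 1) = δ / 4 := by norm_num
  linarith

theorem pcut_nonneg (z : ℂ) : 0 ≤ pcut c δ N z :=
  mul_nonneg (by positivity) (Finset.sum_nonneg fun _ _ => hat_nonneg z)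

theorem pcut_le_one (z : ℂ) : pcut c δ N z ≤ 1 := by
  unfold pcut
  rcases Nat.eq_zero_or_pos N with rfl | hN
  · simp
  · have h1 : ∑ k ∈ Finset.range N, hat c (δ / 4 ^ (k + 1)) (2 * (δ / 4 ^ (k + 1))) z ≤ N := by
      refine (Finset.sum_le_sum fun k _ => hat_le_one z).trans ?_
      simp
    have h2 : (0 : ℝ) < N := by exact_mod_cast hN
    rw [inv_mul_le_iff₀ h2, mul_one]
    exact h1

theorem pcut_one (hδ : 0 < δ) (hN : 0 < N) {z : ℂ} (hz : z ∈ closedBall c (δ / 4 ^ N)) :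
    pcut c δ N z = 1 := by
  have h1 : ∀ k ∈ Finset.range N, hat c (δ / 4 ^ (k + 1)) (2 * (δ / 4 ^ (k + 1))) z = 1 := by
    intro k hk
    refine hat_one (rad_lt hδ k) (closedBall_subset_closedBall ?_ hz)
    exact div_le_div_of_nonneg_left hδ.le (by positivity)
      (pow_le_pow_right₀ (by norm_num) (Finset.mem_range.1 hk))
  rw [pcut, Finset.sum_congr rfl h1]
  have h2 : (N : ℝ) ≠ 0 := by exact_mod_cast hN.ne'
  simp [h2]

theorem pcut_zero (hδ : 0 < δ) {z : ℂ} (hz : z ∉ closedBall c (δ / 2)) : pcut c δ N z = 0 := by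
  rw [mem_closedBall, dist_eq_norm, not_le] at hz
  rw [pcut, Finset.sum_eq_zero fun k _ => hat_zero (rad_lt hδ k) ((rad_le hδ k).trans hz.le),
    mul_zero]

theorem pslo_nonneg (hδ : 0 < δ) (z : ℂ) : 0 ≤ pslo c δ N z :=
  mul_nonneg (by positivity) (Finset.sum_nonneg fun k _ => slo_nonneg (rad_lt hδ k) z)

theorem pslo_meas : Measurable (pslo c δ N) :=
  (Finset.measurable_fun_sum _ fun _ _ => slo_meas).const_mul _

theorem pslo_zero (hδ : 0 < δ) {z : ℂ} (hz : z ∉ closedBall c (δ / 2)) : pslo c δ N z = 0 := by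
  rw [pslo, Finset.sum_eq_zero fun k _ =>
    slo_zero fun h => hz (closedBall_subset_closedBall (rad_le hδ k) h), mul_zero]

theorem pcut_slope (hδ : 0 < δ) (z : ℂ) :
    ∀ᶠ w in 𝓝 z, |pcut c δ N w - pcut c δ N z| ≤ pslo c δ N z * ‖w - z‖ := by
  have h1 : ∀ᶠ w in 𝓝 z, ∀ k ∈ Finset.range N,
      |hat c (δ / 4 ^ (k + 1)) (2 * (δ / 4 ^ (k + 1))) w -
        hat c (δ / 4 ^ (k + 1)) (2 * (δ / 4 ^ (k + 1))) z| ≤
        slo c (δ / 4 ^ (k + 1)) (2 * (δ / 4 ^ (k + 1))) z * ‖w - z‖ :=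
    (Filter.eventually_all_finset _).2 fun k _ => hat_slope (rad_lt hδ k) z
  filter_upwards [h1] with w hw
  have hN : (0 : ℝ) ≤ (N : ℝ)⁻¹ := by positivity
  rw [pcut, pcut, pslo, ← mul_sub, ← Finset.sum_sub_distrib, abs_mul, abs_of_nonneg hN, mul_assoc,
    Finset.sum_mul]
  exact mul_le_mul_of_nonneg_left ((Finset.abs_sum_le_sum_abs _ _).trans (Finset.sum_le_sum hw)) hN

theorem pcut_lip (hδ : 0 < δ) : ∃ K : ℝ≥0, LipschitzWith K (pcut c δ N) := by
  refine ⟨(N : ℝ≥0)⁻¹ * ∑ k ∈ Finset.range N,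
    (2 * (δ / 4 ^ (k + 1)) - δ / 4 ^ (k + 1))⁻¹.toNNReal, ?_⟩
  refine LipschitzWith.of_dist_le_mul fun w z => ?_
  have hN : (0 : ℝ) ≤ (N : ℝ)⁻¹ := by positivity
  rw [Real.dist_eq, pcut, pcut, ← mul_sub, ← Finset.sum_sub_distrib, abs_mul, abs_of_nonneg hN]
  push_cast
  rw [mul_assoc, Finset.sum_mul]
  refine mul_le_mul_of_nonneg_left ((Finset.abs_sum_le_sum_abs _ _).trans
    (Finset.sum_le_sum fun k _ => ?_)) hN
  have := (hat_lip (c := c) (rad_lt hδ k)).dist_le_mul w z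
  rwa [Real.dist_eq] at this

/-- the square of a slope -/
theorem lint_slo_sq {α β : ℝ} (h : α < β) (hβ : 0 ≤ β) :
    ∫⁻ z, ENNReal.ofReal (slo c α β z) ^ 2 ≤
      ENNReal.ofReal ((β - α)⁻¹ ^ 2 * (Real.pi * β ^ 2)) := by
  have h0 : 0 ≤ (β - α)⁻¹ := inv_nonneg.2 (sub_pos.2 h).le
  calc ∫⁻ z, ENNReal.ofReal (slo c α β z) ^ 2 ≤
      ∫⁻ z, (closedBall c β).indicator (fun _ => ENNReal.ofReal ((β - α)⁻¹) ^ 2) z := by
        refine lintegral_mono fun z => ?_
        have h1 := slo_le (c := c) h z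
        by_cases hz : z ∈ closedBall c β
        · rw [indicator_of_mem hz] at h1 ⊢
          exact pow_le_pow_left' (ENNReal.ofReal_le_ofReal h1) 2
        · rw [slo_zero hz, indicator_of_notMem hz]
          simp
    _ = ENNReal.ofReal ((β - α)⁻¹) ^ 2 * volume (closedBall c β) := by
        rw [lintegral_indicator measurableSet_closedBall, lintegral_const,
          Measure.restrict_apply_univ]
    _ = _ := by
        rw [Complex.volume_closedBall, ← ENNReal.ofReal_pow h0, ← ENNReal.ofReal_pow hβ,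
          ENNReal.ofReal_mul (by positivity), mul_comm (ENNReal.ofReal (β ^ 2)),
          ENNReal.ofReal_mul Real.pi_pos.le]
        congr 2
        rw [← NNReal.coe_real_pi, ENNReal.ofReal_coe_nnreal]

theorem lint_slo {α β : ℝ} (h : α < β) (hβ : 0 ≤ β) :
    ∫⁻ z, ENNReal.ofReal (slo c α β z) ≤ ENNReal.ofReal ((β - α)⁻¹ * (Real.pi * β ^ 2)) := by
  have h0 : 0 ≤ (β - α)⁻¹ := inv_nonneg.2 (sub_pos.2 h).le
  calc ∫⁻ z, ENNReal.ofReal (slo c α β z) ≤
      ∫⁻ z, (closedBall c β).indicator (fun _ => ENNReal.ofReal ((β - α)⁻¹)) z := by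
        refine lintegral_mono fun z => ?_
        have h1 := slo_le (c := c) h z
        by_cases hz : z ∈ closedBall c β
        · rw [indicator_of_mem hz] at h1 ⊢
          exact ENNReal.ofReal_le_ofReal h1
        · rw [slo_zero hz, indicator_of_notMem hz]
          simp
    _ = ENNReal.ofReal ((β - α)⁻¹) * volume (closedBall c β) := by
        rw [lintegral_indicator measurableSet_closedBall, lintegral_const,
          Measure.restrict_apply_univ]
    _ = _ := by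
        rw [Complex.volume_closedBall, ← ENNReal.ofReal_pow hβ,
          ENNReal.ofReal_mul h0, mul_comm (ENNReal.ofReal (β ^ 2)),
          ENNReal.ofReal_mul Real.pi_pos.le]
        congr 2
        rw [← NNReal.coe_real_pi, ENNReal.ofReal_coe_nnreal]

/-- the annuli are disjoint -/
theorem slo_disj (hδ : 0 < δ) (z : ℂ) {k l : ℕ} (hkl : k < l)
    (hk : slo c (δ / 4 ^ (k + 1)) (2 * (δ / 4 ^ (k + 1))) z ≠ 0) :
    slo c (δ / 4 ^ (l + 1)) (2 * (δ / 4 ^ (l + 1))) z = 0 := by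
  have h1 : z ∈ closedBall c (2 * (δ / 4 ^ (k + 1))) \ ball c (δ / 4 ^ (k + 1)) := by
    by_contra h
    exact hk (indicator_of_notMem h _)
  refine slo_zero fun h2 => h1.2 ?_
  rw [mem_closedBall] at h2
  rw [mem_ball]
  refine h2.trans_lt ?_
  have h3 := rad_anti hδ (Nat.succ_le_of_lt hkl)
  have h4 : δ / 4 ^ (k.succ + 1) = (δ / 4 ^ (k + 1)) / 4 := by
    rw [Nat.succ_eq_add_one, pow_succ 4 (k + 1), div_div]
  have h5 := rad_pos hδ k
  rw [h4] at h3
  linarith

theorem pslo_sq (hδ : 0 < δ) (z : ℂ) :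
    ENNReal.ofReal (pslo c δ N z) ^ 2 = ENNReal.ofReal ((N : ℝ)⁻¹ ^ 2) * ∑ k ∈ Finset.range N,
      ENNReal.ofReal (slo c (δ / 4 ^ (k + 1)) (2 * (δ / 4 ^ (k + 1))) z) ^ 2 := by
  have hs : ∀ k, 0 ≤ slo c (δ / 4 ^ (k + 1)) (2 * (δ / 4 ^ (k + 1))) z := fun k =>
    slo_nonneg (rad_lt hδ k) z
  have h1 : (∑ k ∈ Finset.range N, slo c (δ / 4 ^ (k + 1)) (2 * (δ / 4 ^ (k + 1))) z) ^ 2 =
      ∑ k ∈ Finset.range N, slo c (δ / 4 ^ (k + 1)) (2 * (δ / 4 ^ (k + 1))) z ^ 2 := by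
    by_cases h : ∃ k ∈ Finset.range N, slo c (δ / 4 ^ (k + 1)) (2 * (δ / 4 ^ (k + 1))) z ≠ 0
    · obtain ⟨k, hk, hk0⟩ := h
      have h2 : ∀ l, l ≠ k → slo c (δ / 4 ^ (l + 1)) (2 * (δ / 4 ^ (l + 1))) z = 0 := by
        intro l hl
        rcases lt_or_gt_of_ne hl with h3 | h3
        · by_contra h4
          exact hk0 (slo_disj hδ z h3 h4)
        · exact slo_disj hδ z h3 hk0
      rw [Finset.sum_eq_single_of_mem k hk fun l _ hl => h2 l hl,
        Finset.sum_eq_single_of_mem k hk fun l _ hl => by rw [h2 l hl]; norm_num]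
    · push Not at h
      rw [Finset.sum_eq_zero h, Finset.sum_eq_zero fun k hk => by rw [h k hk]; norm_num]
      norm_num
  rw [← ENNReal.ofReal_pow (pslo_nonneg hδ z), pslo, mul_pow, h1,
    ENNReal.ofReal_mul (by positivity), ENNReal.ofReal_sum_of_nonneg fun k _ => sq_nonneg _]
  congr 1
  exact Finset.sum_congr rfl fun k _ => ENNReal.ofReal_pow (hs k) 2

/-- energy of the point cut-off -/
theorem lint_pslo_sq (hδ : 0 < δ) (hN : 0 < N) :
    ∫⁻ z, ENNReal.ofReal (pslo c δ N z) ^ 2 ≤ ENNReal.ofReal (4 * Real.pi / N) := by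
  have hN' : (0 : ℝ) < N := by exact_mod_cast hN
  simp only [pslo_sq hδ]
  rw [lintegral_const_mul' _ _ ENNReal.ofReal_ne_top, lintegral_finsetSum _ fun k _ =>
    slo_meas.ennreal_ofReal.pow_const 2]
  have h1 : ∀ k ∈ Finset.range N,
      ∫⁻ z, ENNReal.ofReal (slo c (δ / 4 ^ (k + 1)) (2 * (δ / 4 ^ (k + 1))) z) ^ 2 ≤
        ENNReal.ofReal (4 * Real.pi) := by
    intro k _
    have hp := rad_pos hδ k
    refine (lint_slo_sq (rad_lt hδ k) (by positivity)).trans (le_of_eq ?_)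
    congr 1
    generalize δ / 4 ^ (k + 1) = a at hp
    have : a ≠ 0 := hp.ne'
    rw [show 2 * a - a = a by ring]
    field_simp
    ring
  refine (mul_le_mul_right (Finset.sum_le_sum h1) _).trans ?_
  rw [Finset.sum_const, Finset.card_range, nsmul_eq_mul, ← ENNReal.ofReal_natCast,
    ← ENNReal.ofReal_mul (by positivity), ← ENNReal.ofReal_mul (by positivity)]
  refine ENNReal.ofReal_le_ofReal (le_of_eq ?_)
  field_simp

theorem lint_pslo (hδ : 0 < δ) :
    ∫⁻ z, ENNReal.ofReal (pslo c δ N z) ≤ ENNReal.ofReal (4 * Real.pi * δ) := by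
  have h0 : ∀ z, ENNReal.ofReal (pslo c δ N z) = ENNReal.ofReal ((N : ℝ)⁻¹) *
      ∑ k ∈ Finset.range N, ENNReal.ofReal (slo c (δ / 4 ^ (k + 1)) (2 * (δ / 4 ^ (k + 1))) z) := by
    intro z
    rw [pslo, ENNReal.ofReal_mul (by positivity), ENNReal.ofReal_sum_of_nonneg fun k _ =>
      slo_nonneg (rad_lt hδ k) z]
  simp only [h0]
  rw [lintegral_const_mul' _ _ ENNReal.ofReal_ne_top, lintegral_finsetSum _ fun k _ =>
    slo_meas.ennreal_ofReal]
  have h1 : ∀ k ∈ Finset.range N,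
      ∫⁻ z, ENNReal.ofReal (slo c (δ / 4 ^ (k + 1)) (2 * (δ / 4 ^ (k + 1))) z) ≤
        ENNReal.ofReal (4 * Real.pi * δ) := by
    intro k _
    have hp := rad_pos hδ k
    refine (lint_slo (rad_lt hδ k) (by positivity)).trans ?_
    refine ENNReal.ofReal_le_ofReal ?_
    have hle := rad_le hδ k
    generalize δ / 4 ^ (k + 1) = a at hp hle
    have h2 : (2 * a - a)⁻¹ * (Real.pi * (2 * a) ^ 2) = 4 * Real.pi * a := by
      have : a ≠ 0 := hp.ne'
      rw [show 2 * a - a = a by ring]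
      field_simp
      ring
    rw [h2]
    exact mul_le_mul_of_nonneg_left (by linarith) (by positivity)
  refine (mul_le_mul_right (Finset.sum_le_sum h1) _).trans ?_
  rw [Finset.sum_const, Finset.card_range, nsmul_eq_mul, ← ENNReal.ofReal_natCast,
    ← ENNReal.ofReal_mul (by positivity), ← ENNReal.ofReal_mul (by positivity)]
  refine ENNReal.ofReal_le_ofReal ?_
  rcases Nat.eq_zero_or_pos N with rfl | hN
  · simp; positivity
  · have hN' : (N : ℝ) ≠ 0 := by exact_mod_cast hN.ne'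
    field_simp
    exact le_refl _

end pcut

end Crest.Agent.R105.Pla_676
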