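import Crest.Agent.R105.Pla1_676

/-!
# Row 105 (helper676), PLa: the family of cut-offs of the planarisation and `Σ l i * g i`
-/

set_option autoImplicit false

open MeasureTheory Metric Set Filter Topology
open scoped ENNReal NNReal

namespace Crest.Agent.R105.Pla_676

/-- the family of cut-offs: discs (`0 < r i`): `1` near `closedBall (c i) (5/4 r i)`, support in the
double disc; points (`r i = 0`): support of radius `≤ d i` -/
structure Cuts {ι : Type} (c : ι → ℂ) (r d : ι → ℝ) (χ g : ι → ℂ → ℝ) (rad : ι → ℝ) : Prop where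
  rad0 : ∀ i, r i < rad i
  rad1 : ∀ i, 0 < r i → rad i = 2 * r i
  rad2 : ∀ i, r i = 0 → rad i ≤ d i
  chi0 : ∀ i z, 0 ≤ χ i z
  chi1 : ∀ i z, χ i z ≤ 1
  one : ∀ i, ∃ ρ, r i < ρ ∧ ρ ≤ rad i ∧ ∀ z ∈ closedBall (c i) ρ, χ i z = 1
  supp : ∀ i, ∀ z ∉ closedBall (c i) (rad i), χ i z = 0
  lip : ∀ i, ∃ K : ℝ≥0, LipschitzWith K (χ i)
  gm : ∀ i, Measurable (g i)
  g0 : ∀ i z, 0 ≤ g i z
  gsupp : ∀ i, ∀ z ∉ closedBall (c i) (rad i), g i z = 0
  slope : ∀ i z, ∀ᶠ w in 𝓝 z, |χ i w - χ i z| ≤ g i z * ‖w - z‖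
  gd : ∀ i z, ‖fderiv ℝ (χ i) z‖ ≤ g i z

/-- Cauchy–Schwarz for sums with weights -/
theorem cs_tsum {ι : Type} {x w : ι → ℝ} (x0 : ∀ i, 0 ≤ x i) (w0 : ∀ i, 0 < w i)
    (hw : ∀ F : Finset ι, ∑ i ∈ F, w i ≤ 1) :
    (∑' i, ENNReal.ofReal (x i)) ^ 2 ≤ ∑' i, ENNReal.ofReal (x i ^ 2 / w i) := by
  have h1 : (∑' i, ENNReal.ofReal (x i)) ^ 2 =
      ⨆ F : Finset ι, (∑ i ∈ F, ENNReal.ofReal (x i)) ^ 2 := by
    rw [ENNReal.tsum_eq_iSup_sum]
    exact (Monotone.map_iSup_of_continuousAt (f := fun t : ℝ≥0∞ => t ^ 2)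
      (ENNReal.continuous_pow 2).continuousAt (fun a b hab => pow_le_pow_left' hab 2) (by simp))
  rw [h1]
  refine iSup_le fun F => ?_
  refine le_trans ?_ (ENNReal.sum_le_tsum F)
  rcases F.eq_empty_or_nonempty with rfl | hF
  · simp
  have hS : 0 < ∑ i ∈ F, w i := Finset.sum_pos (fun i _ => w0 i) hF
  have h2 := Finset.sq_sum_div_le_sum_sq_div F x (g := w) fun i _ => w0 i
  have h3 : (∑ i ∈ F, x i) ^ 2 ≤ ∑ i ∈ F, x i ^ 2 / w i := by
    rw [div_le_iff₀ hS] at h2
    refine h2.trans (mul_le_of_le_one_right (Finset.sum_nonneg fun i _ => ?_) (hw F))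
    exact div_nonneg (sq_nonneg _) (w0 i).le
  rw [← ENNReal.ofReal_sum_of_nonneg fun i _ => x0 i,
    ← ENNReal.ofReal_pow (Finset.sum_nonneg fun i _ => x0 i),
    ← ENNReal.ofReal_sum_of_nonneg fun i _ => div_nonneg (sq_nonneg _) (w0 i).le]
  exact ENNReal.ofReal_le_ofReal h3

theorem add_sq_le (a b : ℝ≥0∞) : (a + b) ^ 2 ≤ 4 * a ^ 2 + 4 * b ^ 2 := by
  rcases le_total a b with h | h
  · calc (a + b) ^ 2 ≤ (b + b) ^ 2 := by gcongr
      _ = 4 * b ^ 2 := by ring
      _ ≤ _ := le_add_self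
  · calc (a + b) ^ 2 ≤ (a + a) ^ 2 := by gcongr
      _ = 4 * a ^ 2 := by ring
      _ ≤ _ := le_self_add

/-- **PLa** -/
theorem exists_cuts {ι : Type} [Countable ι] {c : ι → ℂ} {r l d : ι → ℝ} (r0 : ∀ i, 0 ≤ r i)
    (l0 : ∀ i, 0 ≤ l i) (d0 : ∀ i, 0 < d i)
    (disj : Pairwise fun i j => Disjoint (closedBall (c i) (r i)) (closedBall (c j) (r j)))
    (sr : Summable fun i => r i ^ 2) (sl : Summable fun i => l i ^ 2) {ε : ℝ} (hε : 0 < ε) :
    ∃ (χ g : ι → ℂ → ℝ) (rad : ι → ℝ), Cuts c r d χ g rad ∧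
      ∃ s0 : Finset ι, (∀ i ∈ s0, 0 < r i) ∧ ∀ s : Finset ι, s0 ⊆ s →
        MeasurableSet (⋃ i ∈ {i | i ∉ s}, closedBall (c i) (rad i)) ∧
        volume (⋃ i ∈ {i | i ∉ s}, closedBall (c i) (rad i)) ≤ ENNReal.ofReal ε ∧
        ∃ h : ℂ → ℝ, Measurable h ∧ (∀ z, 0 ≤ h z) ∧
          (∀ z ∉ ⋃ i ∈ {i | i ∉ s}, closedBall (c i) (rad i), h z = 0) ∧
          ∫ z, h z ≤ ε ∧ Integrable h ∧ Integrable (fun z => h z ^ 2) ∧
          ∀ᵐ z, Summable (fun i : {i // i ∉ s} => l i * g i z) ∧
            ∑' i : {i // i ∉ s}, l i * g i z = h z := by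
  classical
  -- the weights
  obtain ⟨w', hw'0, wc, hwc, hwc'⟩ := NNReal.exists_pos_sum_of_countable
    (ε := (min (ε / 4) 1).toNNReal) (by
      have : 0 < min (ε / 4) 1 := lt_min (by positivity) one_pos
      exact (Real.toNNReal_pos.2 this).ne') ι
  set w : ι → ℝ := fun i => w' i with hw
  have w0 : ∀ i, 0 < w i := fun i => by exact_mod_cast hw'0 i
  have hwc2 : (wc : ℝ) < min (ε / 4) 1 := by
    have := hwc'
    rw [← NNReal.coe_lt_coe, Real.coe_toNNReal _ (le_min (by positivity) zero_le_one)] at this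
    exact this
  have hws : HasSum w wc := NNReal.hasSum_coe.2 hwc
  have hwF : ∀ F : Finset ι, ∑ i ∈ F, w i ≤ 1 := fun F =>
    (sum_le_hasSum F (fun i _ => (w0 i).le) hws).trans (hwc2.le.trans (min_le_right _ _))
  have hwT : ∑' i, ENNReal.ofReal (w i) ≤ ENNReal.ofReal (ε / 4) := by
    rw [← ENNReal.ofReal_tsum_of_nonneg (fun i => (w0 i).le) hws.summable, hws.tsum_eq]
    exact ENNReal.ofReal_le_ofReal (hwc2.le.trans (min_le_left _ _))
  -- the radii and the numbers of hats at the points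
  have hδ : ∀ i, ∃ δ : ℝ, 0 < δ ∧ δ ≤ d i ∧ δ ≤ 1 ∧ 4 * Real.pi * δ * (l i + 1) ≤ w i := by
    intro i
    have hp := Real.pi_pos
    have hl := l0 i
    have h1 : 0 < w i / (4 * Real.pi * (l i + 1)) := div_pos (w0 i) (by positivity)
    refine ⟨min (min (d i) 1) (w i / (4 * Real.pi * (l i + 1))),
      lt_min (lt_min (d0 i) one_pos) h1, (min_le_left _ _).trans (min_le_left _ _),
      (min_le_left _ _).trans (min_le_right _ _), ?_⟩
    calc 4 * Real.pi * min (min (d i) 1) (w i / (4 * Real.pi * (l i + 1))) * (l i + 1) =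
        (4 * Real.pi * (l i + 1)) * min (min (d i) 1) (w i / (4 * Real.pi * (l i + 1))) := by ring
      _ ≤ (4 * Real.pi * (l i + 1)) * (w i / (4 * Real.pi * (l i + 1))) :=
        mul_le_mul_of_nonneg_left (min_le_right _ _) (by positivity)
      _ = w i := mul_div_cancel₀ _ (by positivity)
  choose δ δ0 δd δ1 δw using hδ
  have hN : ∀ i, ∃ N : ℕ, 0 < N ∧ l i ^ 2 * (4 * Real.pi / N) ≤ w i ^ 2 := by
    intro i
    obtain ⟨N, hN⟩ := exists_nat_gt (l i ^ 2 * (4 * Real.pi) / w i ^ 2)
    have hw2 : 0 < w i ^ 2 := pow_pos (w0 i) 2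
    have hNpos : (0 : ℝ) < N := lt_of_le_of_lt (by positivity) hN
    refine ⟨N, by exact_mod_cast hNpos, ?_⟩
    rw [div_lt_iff₀ hw2] at hN
    rw [← mul_div_assoc, div_le_iff₀ hNpos]
    linarith
  choose N N0 hNw using hN
  set χ : ι → ℂ → ℝ := fun i => if 0 < r i then hat (c i) (5 / 4 * r i) (2 * r i)
    else pcut (c i) (δ i) (N i) with hχ
  set g : ι → ℂ → ℝ := fun i => if 0 < r i then slo (c i) (5 / 4 * r i) (2 * r i)
    else pslo (c i) (δ i) (N i) with hg
  set rad : ι → ℝ := fun i => if 0 < r i then 2 * r i else δ i with hrad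
  have hlt : ∀ i, 0 < r i → 5 / 4 * r i < 2 * r i := fun i hi => by linarith
  have half : ∀ i z, z ∉ closedBall (c i) (δ i) → z ∉ closedBall (c i) (δ i / 2) :=
    fun i z hz h => hz (closedBall_subset_closedBall (by have := δ0 i; linarith) h)
  have hslope : ∀ i z, ∀ᶠ w in 𝓝 z, |χ i w - χ i z| ≤ g i z * ‖w - z‖ := by
    intro i z
    by_cases hi : 0 < r i
    · simp only [hχ, hg, if_pos hi]
      exact hat_slope (hlt i hi) z
    · simp only [hχ, hg, if_neg hi]
      exact pcut_slope (δ0 i) z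
  have hg0 : ∀ i z, 0 ≤ g i z := by
    intro i z
    by_cases hi : 0 < r i
    · simp only [hg, if_pos hi]
      exact slo_nonneg (hlt i hi) z
    · simp only [hg, if_neg hi]
      exact pslo_nonneg (δ0 i) z
  have hgm : ∀ i, Measurable (g i) := by
    intro i
    by_cases hi : 0 < r i
    · simp only [hg, if_pos hi]
      exact slo_meas
    · simp only [hg, if_neg hi]
      exact pslo_meas
  have hgs : ∀ i, ∀ z ∉ closedBall (c i) (rad i), g i z = 0 := by
    intro i z hz
    by_cases hi : 0 < r i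
    · simp only [hg, hrad, if_pos hi] at hz ⊢
      exact slo_zero hz
    · simp only [hg, hrad, if_neg hi] at hz ⊢
      exact pslo_zero (δ0 i) (half i z hz)
  have hcuts : Cuts c r d χ g rad := by
    refine ⟨fun i => ?_, fun i hi => ?_, fun i hi => ?_, fun i z => ?_, fun i z => ?_, fun i => ?_,
      fun i z hz => ?_, fun i => ?_, hgm, hg0, hgs, hslope, fun i z => ?_⟩
    · by_cases hi : 0 < r i
      · simp only [hrad, if_pos hi]; linarith
      · simp only [hrad, if_neg hi]
        exact lt_of_le_of_lt (not_lt.1 hi) (δ0 i)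
    · simp only [hrad, if_pos hi]
    · simp only [hrad, hi, lt_irrefl, if_false]
      exact δd i
    · by_cases hi : 0 < r i
      · simp only [hχ, if_pos hi]; exact hat_nonneg z
      · simp only [hχ, if_neg hi]; exact pcut_nonneg z
    · by_cases hi : 0 < r i
      · simp only [hχ, if_pos hi]; exact hat_le_one z
      · simp only [hχ, if_neg hi]; exact pcut_le_one z
    · by_cases hi : 0 < r i
      · refine ⟨5 / 4 * r i, by linarith, ?_, fun z hz => ?_⟩
        · simp only [hrad, if_pos hi]; linarith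
        · simp only [hχ, if_pos hi]
          exact hat_one (hlt i hi) hz
      · have h4 : (0 : ℝ) < 4 ^ N i := by positivity
        refine ⟨δ i / 4 ^ N i, ?_, ?_, fun z hz => ?_⟩
        · exact lt_of_le_of_lt (not_lt.1 hi) (div_pos (δ0 i) h4)
        · simp only [hrad, if_neg hi]
          exact div_le_self (δ0 i).le (one_le_pow₀ (by norm_num))
        · simp only [hχ, if_neg hi]
          exact pcut_one (δ0 i) (N0 i) hz
    · by_cases hi : 0 < r i
      · simp only [hχ, hrad, if_pos hi] at hz ⊢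
        refine hat_zero (hlt i hi) ?_
        rw [mem_closedBall, dist_eq_norm, not_le] at hz
        exact hz.le
      · simp only [hχ, hrad, if_neg hi] at hz ⊢
        exact pcut_zero (δ0 i) (half i z hz)
    · by_cases hi : 0 < r i
      · simp only [hχ, if_pos hi]
        exact ⟨_, hat_lip (hlt i hi)⟩
      · simp only [hχ, if_neg hi]
        exact pcut_lip (δ0 i)
    · exact norm_fderiv_le_of_lip' ℝ (hg0 i z) ((hslope i z).mono fun w hw => by
        rw [Real.norm_eq_abs]; exact hw)
  refine ⟨χ, g, rad, hcuts, ?_⟩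
  -- integrals of the slopes
  set b : ι → ℝ≥0∞ := fun i =>
    if 0 < r i then ENNReal.ofReal (16 / 3 * Real.pi * (l i * r i) + 4 * Real.pi * r i ^ 2) else 0
    with hb
  have hbs : ∑' i, b i ≠ ⊤ := by
    have h1 : Summable fun i => 16 / 3 * Real.pi * (l i * r i) + 4 * Real.pi * r i ^ 2 := by
      refine Summable.add (Summable.mul_left _ ?_) (sr.mul_left _)
      refine Summable.of_nonneg_of_le (fun i => mul_nonneg (l0 i) (r0 i)) (fun i => ?_)
        ((sl.add sr))
      nlinarith [sq_nonneg (l i - r i), l0 i, r0 i, sq_nonneg (l i), sq_nonneg (r i)]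
    refine ne_top_of_le_ne_top h1.tsum_ofReal_ne_top (ENNReal.tsum_le_tsum fun i => ?_)
    simp only [hb]
    split_ifs
    · exact le_rfl
    · exact zero_le
  have hx1 : ∀ i, ∫⁻ z, ENNReal.ofReal (l i * g i z) ≤ b i + ENNReal.ofReal (w i) := by
    intro i
    have h1 : ∀ z, ENNReal.ofReal (l i * g i z) = ENNReal.ofReal (l i) * ENNReal.ofReal (g i z) :=
      fun z => ENNReal.ofReal_mul (l0 i)
    simp only [h1]
    rw [lintegral_const_mul' _ _ ENNReal.ofReal_ne_top]
    by_cases hi : 0 < r i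
    · simp only [hg, hb, if_pos hi]
      refine le_trans ?_ le_self_add
      refine (mul_le_mul_right (lint_slo (hlt i hi) (by positivity)) _).trans ?_
      rw [← ENNReal.ofReal_mul (l0 i)]
      refine ENNReal.ofReal_le_ofReal ?_
      have h2 : (2 * r i - 5 / 4 * r i)⁻¹ * (Real.pi * (2 * r i) ^ 2) =
          16 / 3 * Real.pi * r i := by
        have : r i ≠ 0 := hi.ne'
        rw [show 2 * r i - 5 / 4 * r i = 3 / 4 * r i by ring]
        field_simp
        ring
      rw [h2]
      have h3 : 0 ≤ 4 * Real.pi * r i ^ 2 := by positivity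
      linarith
    · simp only [hg, hb, if_neg hi, zero_add]
      refine (mul_le_mul_right (lint_pslo (δ0 i)) _).trans ?_
      rw [← ENNReal.ofReal_mul (l0 i)]
      refine ENNReal.ofReal_le_ofReal (le_trans ?_ (δw i))
      have := δ0 i
      have hp := Real.pi_pos
      nlinarith [mul_pos hp this]
  have hvol : ∀ i, volume (closedBall (c i) (rad i)) ≤ b i + ENNReal.ofReal (w i) := by
    intro i
    have hpi : (NNReal.pi : ℝ≥0∞) = ENNReal.ofReal Real.pi := by
      rw [← NNReal.coe_real_pi, ENNReal.ofReal_coe_nnreal]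
    rw [Complex.volume_closedBall, hpi, mul_comm]
    by_cases hi : 0 < r i
    · simp only [hrad, hb, if_pos hi]
      refine le_trans ?_ le_self_add
      rw [← ENNReal.ofReal_pow (by positivity), ← ENNReal.ofReal_mul Real.pi_pos.le]
      refine ENNReal.ofReal_le_ofReal ?_
      have h3 : 0 ≤ 16 / 3 * Real.pi * (l i * r i) := by
        have := l0 i
        positivity
      nlinarith
    · simp only [hrad, hb, if_neg hi, zero_add]
      rw [← ENNReal.ofReal_pow (δ0 i).le, ← ENNReal.ofReal_mul Real.pi_pos.le]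
      refine ENNReal.ofReal_le_ofReal (le_trans ?_ (δw i))
      have h1 := δ0 i
      have h2 := δ1 i
      have h3 := l0 i
      have hp := Real.pi_pos
      have h4 : δ i ^ 2 ≤ δ i := by nlinarith
      have h5 : δ i ≤ 4 * δ i * (l i + 1) := by nlinarith
      calc Real.pi * δ i ^ 2 ≤ Real.pi * (4 * δ i * (l i + 1)) :=
            mul_le_mul_of_nonneg_left (h4.trans h5) hp.le
        _ = 4 * Real.pi * δ i * (l i + 1) := by ring
  -- square integrability of the whole sum
  have hsq : ∫⁻ z, (∑' i, ENNReal.ofReal (l i * g i z)) ^ 2 < ⊤ := by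
    have e1 : ∀ z, ∑' i, ENNReal.ofReal (l i * g i z) =
        (∑' i : {i // 0 < r i}, ENNReal.ofReal (l i * g i z)) +
          ∑' i : {i // ¬ 0 < r i}, ENNReal.ofReal (l i * g i z) := by
      intro z
      exact (ENNReal.summable.tsum_add_tsum_compl (s := {i | 0 < r i})
        (f := fun i => ENNReal.ofReal (l i * g i z)) ENNReal.summable).symm
    simp only [e1]
    refine lt_of_le_of_lt (lintegral_mono fun z => add_sq_le _ _) ?_
    have mD : Measurable fun z => 4 * (∑' i : {i // 0 < r i}, ENNReal.ofReal (l i * g i z)) ^ 2 :=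
      ((Measurable.tsum fun i : {i // 0 < r i} =>
        ((hgm i).const_mul _).ennreal_ofReal).pow_const 2).const_mul _
    rw [lintegral_add_left mD]
    refine ENNReal.add_lt_top.2 ⟨?_, ?_⟩
    · rw [lintegral_const_mul' _ _ (by norm_num)]
      refine ENNReal.mul_lt_top (by norm_num) ?_
      obtain ⟨K, -, hK⟩ := Boj_676.boj_plane (K := 2) (by norm_num)
      have h1 := hK (fun i : {i // 0 < r i} => c i) (fun i => r i) (fun i => i.2)
        (fun i j hij => disj fun h => hij (Subtype.ext h))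
        (fun i => ENNReal.ofReal (l i * (3 / 4 * r i)⁻¹))
      refine lt_of_le_of_lt (lintegral_mono fun z => ?_) (lt_of_le_of_lt h1 ?_)
      · refine pow_le_pow_left' (ENNReal.tsum_le_tsum fun i => ?_) 2
        have hi := i.2
        simp only [hg, if_pos hi]
        by_cases hz : z ∈ closedBall (c i) (2 * r i)
        · rw [indicator_of_mem hz]
          refine ENNReal.ofReal_le_ofReal (mul_le_mul_of_nonneg_left ?_ (l0 i))
          have h2 := slo_le (c := c i) (hlt i hi) z
          rw [indicator_of_mem hz] at h2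
          refine h2.trans (le_of_eq ?_)
          congr 1
          ring
        · rw [slo_zero hz, indicator_of_notMem hz]
          simp
      · refine ENNReal.mul_lt_top ENNReal.coe_lt_top ?_
        have h3 : Summable fun i : {i // 0 < r i} => 16 / 9 * Real.pi * l i ^ 2 :=
          (sl.mul_left _).subtype _
        refine lt_of_le_of_lt (ENNReal.tsum_le_tsum fun i => ?_) h3.tsum_ofReal_lt_top
        have hi := i.2
        have hpi : (NNReal.pi : ℝ≥0∞) = ENNReal.ofReal Real.pi := by
          rw [← NNReal.coe_real_pi, ENNReal.ofReal_coe_nnreal]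
        have hli := l0 i
        rw [Complex.volume_closedBall, hpi, ← ENNReal.ofReal_pow (by positivity),
          ← ENNReal.ofReal_pow hi.le, ← ENNReal.ofReal_mul (by positivity),
          ← ENNReal.ofReal_mul (by positivity)]
        refine ENNReal.ofReal_le_ofReal (le_of_eq ?_)
        have : r i ≠ 0 := hi.ne'
        field_simp
        ring
    · rw [lintegral_const_mul' _ _ (by norm_num)]
      refine ENNReal.mul_lt_top (by norm_num) ?_
      have h1 : ∀ z, (∑' i : {i // ¬ 0 < r i}, ENNReal.ofReal (l i * g i z)) ^ 2 ≤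
          ∑' i : {i // ¬ 0 < r i}, ENNReal.ofReal ((l i * g i z) ^ 2 / w i) := by
        intro z
        refine cs_tsum (fun i => mul_nonneg (l0 i) (hg0 i z)) (fun i => w0 i) fun F => ?_
        have := hwF (F.map (Function.Embedding.subtype _))
        rwa [Finset.sum_map] at this
      refine lt_of_le_of_lt (lintegral_mono h1) ?_
      rw [lintegral_tsum fun i : {i // ¬ 0 < r i} =>
        ((((hgm i).const_mul (l i)).pow_const 2).div_const (w i)).ennreal_ofReal.aemeasurable]
      have h2 : ∀ i : {i // ¬ 0 < r i},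
          ∫⁻ z, ENNReal.ofReal ((l i * g i z) ^ 2 / w i) ≤ ENNReal.ofReal (w i) := by
        intro i
        have hi := i.2
        have e2 : ∀ z, ENNReal.ofReal ((l i * g i z) ^ 2 / w i) =
            ENNReal.ofReal (l i ^ 2 / w i) * ENNReal.ofReal (g i z) ^ 2 := by
          intro z
          rw [← ENNReal.ofReal_pow (hg0 i z), ← ENNReal.ofReal_mul
            (div_nonneg (sq_nonneg _) (w0 i).le)]
          congr 1
          ring
        simp only [e2]
        rw [lintegral_const_mul' _ _ ENNReal.ofReal_ne_top]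
        simp only [hg, if_neg hi]
        refine (mul_le_mul_right (lint_pslo_sq (δ0 i) (N0 i)) _).trans ?_
        rw [← ENNReal.ofReal_mul (div_nonneg (sq_nonneg _) (w0 i).le)]
        refine ENNReal.ofReal_le_ofReal ?_
        have h3 := hNw i
        have h4 := w0 i
        calc l i ^ 2 / w i * (4 * Real.pi / N i) = (l i ^ 2 * (4 * Real.pi / N i)) / w i := by ring
          _ ≤ w i ^ 2 / w i := div_le_div_of_nonneg_right h3 h4.le
          _ = w i := by field_simp
      refine lt_of_le_of_lt (ENNReal.tsum_le_tsum h2) ?_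
      refine lt_of_le_of_lt (ENNReal.tsum_comp_le_tsum_of_injective
        (f := ((↑) : {i // ¬ 0 < r i} → ι)) Subtype.val_injective
          (fun i => ENNReal.ofReal (w i))) ?_
      exact hwT.trans_lt ENNReal.ofReal_lt_top
  -- the tail
  have htail := ENNReal.tendsto_tsum_compl_atTop_zero hbs
  have hε4 : (0 : ℝ≥0∞) < ENNReal.ofReal (ε / 4) := ENNReal.ofReal_pos.2 (by positivity)
  obtain ⟨t0, ht0⟩ := ((ENNReal.tendsto_nhds_zero.1 htail) _ hε4).exists
  refine ⟨t0.filter fun i => 0 < r i, fun i hi => (Finset.mem_filter.1 hi).2, fun s hs => ?_⟩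
  have hbt : ∑' i : {i // i ∉ s}, (b i + ENNReal.ofReal (w i)) ≤ ENNReal.ofReal ε := by
    rw [ENNReal.tsum_add]
    have h1 : ∑' i : {i // i ∉ s}, b i ≤ ∑' i : {i // i ∉ t0}, b i := by
      have e1 : ∑' i : {i // i ∉ s}, b i = ∑' i, {i | i ∉ s}.indicator b i :=
        tsum_subtype {i | i ∉ s} b
      have e2 : ∑' i : {i // i ∉ t0}, b i = ∑' i, {i | i ∉ t0}.indicator b i :=
        tsum_subtype {i | i ∉ t0} b
      rw [e1, e2]
      refine ENNReal.tsum_le_tsum fun i => ?_
      by_cases hi : i ∈ s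
      · rw [indicator_of_notMem (by simpa using hi)]
        exact zero_le
      · rw [indicator_of_mem (by simpa using hi)]
        by_cases hr : 0 < r i
        · have : i ∉ t0 := fun h => hi (hs (Finset.mem_filter.2 ⟨h, hr⟩))
          rw [indicator_of_mem (by simpa using this)]
        · simp only [hb, if_neg hr]
          exact zero_le
    have h2 : ∑' i : {i // i ∉ s}, ENNReal.ofReal (w i) ≤ ENNReal.ofReal (ε / 4) :=
      (ENNReal.tsum_comp_le_tsum_of_injective
        (f := ((↑) : {i // i ∉ s} → ι)) Subtype.val_injective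
          (fun i => ENNReal.ofReal (w i))).trans hwT
    calc (∑' i : {i // i ∉ s}, b i) + ∑' i : {i // i ∉ s}, ENNReal.ofReal (w i) ≤
        ENNReal.ofReal (ε / 4) + ENNReal.ofReal (ε / 4) := add_le_add (h1.trans ht0) h2
      _ = ENNReal.ofReal (ε / 4 + ε / 4) := (ENNReal.ofReal_add (by positivity)
          (by positivity)).symm
      _ ≤ _ := ENNReal.ofReal_le_ofReal (by linarith)
  have hAm : MeasurableSet (⋃ i ∈ {i | i ∉ s}, closedBall (c i) (rad i)) :=
    MeasurableSet.biUnion (to_countable _) fun i _ => measurableSet_closedBall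
  refine ⟨hAm, ?_, ?_⟩
  · refine (measure_biUnion_le _ (to_countable _) _).trans ?_
    exact (ENNReal.tsum_le_tsum fun i : {i // i ∉ s} => hvol i).trans hbt
  set H : ℂ → ℝ≥0∞ := fun z => ∑' i : {i // i ∉ s}, ENNReal.ofReal (l i * g i z) with hH
  have hHm : Measurable H := Measurable.tsum fun i : {i // i ∉ s} =>
    ((hgm i).const_mul _).ennreal_ofReal
  have hH1 : ∫⁻ z, H z ≤ ENNReal.ofReal ε := by
    rw [hH, lintegral_tsum fun i : {i // i ∉ s} =>
      ((hgm i).const_mul _).ennreal_ofReal.aemeasurable]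
    exact (ENNReal.tsum_le_tsum fun i : {i // i ∉ s} => hx1 i).trans hbt
  have hHtop : ∫⁻ z, H z ≠ ⊤ := ne_top_of_le_ne_top ENNReal.ofReal_ne_top hH1
  have hHae : ∀ᵐ z, H z < ⊤ := ae_lt_top hHm hHtop
  have hH2 : ∫⁻ z, H z ^ 2 < ⊤ := by
    refine lt_of_le_of_lt (lintegral_mono fun z => ?_) hsq
    exact pow_le_pow_left' (ENNReal.tsum_comp_le_tsum_of_injective
      (f := ((↑) : {i // i ∉ s} → ι)) Subtype.val_injective
        (fun i => ENNReal.ofReal (l i * g i z))) 2
  refine ⟨fun z => (H z).toReal, hHm.ennreal_toReal, fun z => ENNReal.toReal_nonneg, ?_, ?_, ?_, ?_,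
    ?_⟩
  · intro z hz
    have h1 : H z = 0 := by
      rw [hH]
      simp only [ENNReal.tsum_eq_zero]
      intro i
      have h2 : z ∉ closedBall (c i) (rad i) := fun h => hz (mem_biUnion i.2 h)
      rw [hgs i z h2, mul_zero, ENNReal.ofReal_zero]
    simp [h1]
  · rw [integral_toReal hHm.aemeasurable hHae]
    exact ENNReal.toReal_le_of_le_ofReal hε.le hH1
  · exact integrable_toReal_of_lintegral_ne_top hHm.aemeasurable hHtop
  · have h1 : Integrable fun z => (H z ^ 2).toReal :=
      integrable_toReal_of_lintegral_ne_top (hHm.pow_const 2).aemeasurable hH2.ne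
    refine h1.congr (Eventually.of_forall fun z => ?_)
    simp only [ENNReal.toReal_pow]
  · filter_upwards [hHae] with z hz
    have e1 : ∀ i : {i // i ∉ s}, (ENNReal.ofReal (l i * g i z)).toReal = l i * g i z := fun i =>
      ENNReal.toReal_ofReal (mul_nonneg (l0 i) (hg0 i z))
    have h1 := ENNReal.summable_toReal hz.ne
    have h2 : (H z).toReal = ∑' i : {i // i ∉ s}, (ENNReal.ofReal (l i * g i z)).toReal :=
      ENNReal.tsum_toReal_eq fun i => ENNReal.ofReal_ne_top
    simp only [e1] at h1 h2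
    exact ⟨h1, h2.symm⟩

end Crest.Agent.R105.Pla_676
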