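import Mathlib

/-!
# Row 105 (S0139), PLAN: the calculus of the planarisation function (helper294)

`Psi χ a b z s = ∫ t in 0..s, (1 - ⨆ i, χ i z * 1[t ∈ [a i, b i]])` (formula of helper449 #9406).
-/

set_option autoImplicit false

open Set Filter Metric Topology MeasureTheory
open scoped ENNReal NNReal

noncomputable section

namespace Crest.Agent.R105.Psc_294

/-- a countable family of cut-offs with windows `[a i, b i]` -/
structure Fam {ι : Type} (χ : ι → ℂ → ℝ) (a b : ι → ℝ) : Prop where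
  cnt : Countable ι
  c0 : ∀ i z, 0 ≤ χ i z
  c1 : ∀ i z, χ i z ≤ 1
  lip : ∀ i, ∃ K : ℝ≥0, LipschitzWith K (χ i)
  ab : ∀ i, a i ≤ b i

/-- the fraction of the value `t` which is removed at `z` -/
def rho {ι : Type} (χ : ι → ℂ → ℝ) (a b : ι → ℝ) (z : ℂ) (t : ℝ) : ℝ :=
  ⨆ i, (Icc (a i) (b i)).indicator (fun _ => χ i z) t

/-- the planarisation function -/
def Psi {ι : Type} (χ : ι → ℂ → ℝ) (a b : ι → ℝ) (z : ℂ) (s : ℝ) : ℝ :=
  ∫ t in (0 : ℝ)..s, (1 - rho χ a b z t)

section
variable {ι : Type} {χ : ι → ℂ → ℝ} {a b : ι → ℝ}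

theorem Fam.ind0 (h : Fam χ a b) (i : ι) (z : ℂ) (t : ℝ) :
    0 ≤ (Icc (a i) (b i)).indicator (fun _ => χ i z) t :=
  indicator_nonneg (fun _ _ => h.c0 i z) t

theorem Fam.ind1 (h : Fam χ a b) (i : ι) (z : ℂ) (t : ℝ) :
    (Icc (a i) (b i)).indicator (fun _ => χ i z) t ≤ 1 :=
  indicator_le' (fun _ _ => h.c1 i z) (fun _ _ => zero_le_one) t

theorem Fam.bdd (h : Fam χ a b) (z : ℂ) (t : ℝ) :
    BddAbove (range fun i => (Icc (a i) (b i)).indicator (fun _ => χ i z) t) :=
  ⟨1, by rintro _ ⟨i, rfl⟩; exact h.ind1 i z t⟩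

theorem Fam.rho0 (h : Fam χ a b) (z : ℂ) (t : ℝ) : 0 ≤ rho χ a b z t :=
  Real.iSup_nonneg fun i => h.ind0 i z t

theorem Fam.rho1 (h : Fam χ a b) (z : ℂ) (t : ℝ) : rho χ a b z t ≤ 1 :=
  Real.iSup_le (fun i => h.ind1 i z t) zero_le_one

theorem Fam.le_rho (h : Fam χ a b) {i : ι} {z : ℂ} {t : ℝ} (ht : t ∈ Icc (a i) (b i)) :
    χ i z ≤ rho χ a b z t := by
  have := le_ciSup (h.bdd z t) i
  rwa [indicator_of_mem ht] at this

theorem Fam.rho_meas (h : Fam χ a b) : Measurable fun p : ℂ × ℝ => rho χ a b p.1 p.2 := by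
  have := h.cnt
  refine Measurable.iSup fun i => ?_
  obtain ⟨K, hK⟩ := h.lip i
  have h1 : Measurable fun p : ℂ × ℝ => χ i p.1 := hK.continuous.measurable.comp measurable_fst
  have h2 : (fun p : ℂ × ℝ => (Icc (a i) (b i)).indicator (fun _ => χ i p.1) p.2) =
      (Prod.snd ⁻¹' Icc (a i) (b i)).indicator fun p : ℂ × ℝ => χ i p.1 := by
    funext p
    by_cases hp : p.2 ∈ Icc (a i) (b i)
    · rw [indicator_of_mem hp, indicator_of_mem (by exact hp)]
    · rw [indicator_of_notMem hp, indicator_of_notMem (by exact hp)]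
  rw [h2]
  exact h1.indicator (measurable_snd measurableSet_Icc)

theorem Fam.rho_meas_right (h : Fam χ a b) (z : ℂ) : Measurable fun t => rho χ a b z t :=
  h.rho_meas.comp (measurable_const.prodMk measurable_id)

theorem Fam.ii (h : Fam χ a b) (z : ℂ) (s t : ℝ) :
    IntervalIntegrable (fun x => 1 - rho χ a b z x) volume s t := by
  have h1 : IntervalIntegrable (fun _ : ℝ => (1 : ℝ)) volume s t := intervalIntegrable_const
  refine h1.mono_fun ((measurable_const.sub (h.rho_meas_right z)).aestronglyMeasurable) ?_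
  refine Eventually.of_forall fun x => ?_
  change |1 - rho χ a b z x| ≤ |(1 : ℝ)|
  rw [abs_one, abs_le]
  constructor <;> linarith [h.rho0 z x, h.rho1 z x]

theorem Fam.ii' (h : Fam χ a b) (z : ℂ) (s t : ℝ) :
    IntervalIntegrable (fun x => rho χ a b z x) volume s t := by
  have h1 : IntervalIntegrable (fun _ : ℝ => (1 : ℝ)) volume s t := intervalIntegrable_const
  refine h1.mono_fun ((h.rho_meas_right z).aestronglyMeasurable) ?_
  refine Eventually.of_forall fun x => ?_
  change |rho χ a b z x| ≤ |(1 : ℝ)|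
  rw [abs_one, abs_le]
  constructor <;> linarith [h.rho0 z x, h.rho1 z x]

theorem Fam.sub (h : Fam χ a b) (z : ℂ) (s t : ℝ) :
    Psi χ a b z t - Psi χ a b z s = ∫ x in s..t, (1 - rho χ a b z x) :=
  intervalIntegral.integral_interval_sub_left (h.ii z 0 t) (h.ii z 0 s)

theorem Psi_zero (z : ℂ) : Psi χ a b z 0 = 0 := by
  rw [Psi, intervalIntegral.integral_same]

theorem Fam.mono (h : Fam χ a b) (z : ℂ) : Monotone (Psi χ a b z) := by
  intro s t hst
  have h1 : 0 ≤ ∫ x in s..t, (1 - rho χ a b z x) :=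
    intervalIntegral.integral_nonneg hst fun x _ => by linarith [h.rho1 z x]
  linarith [h.sub z s t]

theorem Fam.lip1 (h : Fam χ a b) (z : ℂ) (s t : ℝ) (hst : s ≤ t) :
    Psi χ a b z t - Psi χ a b z s ≤ t - s := by
  rw [h.sub]
  have h1 : ∫ x in s..t, (1 - rho χ a b z x) ≤ ∫ x in s..t, (1 : ℝ) :=
    intervalIntegral.integral_mono_on hst (h.ii z s t) intervalIntegrable_const
      fun x _ => by linarith [h.rho0 z x]
  simpa using h1

theorem Fam.abs_sub_le (h : Fam χ a b) (z : ℂ) (s t : ℝ) :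
    |Psi χ a b z t - Psi χ a b z s| ≤ |t - s| := by
  rcases le_total s t with hst | hst
  · rw [abs_of_nonneg (sub_nonneg.2 (h.mono z hst)), abs_of_nonneg (sub_nonneg.2 hst)]
    exact h.lip1 z s t hst
  · rw [abs_of_nonpos (sub_nonpos.2 (h.mono z hst)), abs_of_nonpos (sub_nonpos.2 hst)]
    linarith [h.lip1 z t s hst]

/-- the increments of `Psi z` have the sign of `t - s` and `Psi z t - t` is 1-Lipschitz too -/
theorem Fam.abs_sub_sub_le (h : Fam χ a b) (z : ℂ) (s t : ℝ) :
    |(Psi χ a b z t - Psi χ a b z s) - (t - s)| ≤ |t - s| := by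
  rcases le_total s t with hst | hst
  · have h1 := h.mono z hst
    have h2 := h.lip1 z s t hst
    rw [abs_of_nonneg (sub_nonneg.2 hst), abs_le]
    constructor <;> linarith
  · have h1 := h.mono z hst
    have h2 := h.lip1 z t s hst
    rw [abs_of_nonpos (sub_nonpos.2 hst), abs_le]
    constructor <;> linarith

theorem Fam.abs_psi_le (h : Fam χ a b) (z : ℂ) (s : ℝ) : |Psi χ a b z s| ≤ |s| := by
  have := h.abs_sub_le z 0 s
  rwa [Psi_zero, sub_zero, sub_zero] at this

theorem Fam.meas (h : Fam χ a b) (s : ℝ) : Measurable fun z => Psi χ a b z s := by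
  have h1 : StronglyMeasurable fun p : ℂ × ℝ => 1 - rho χ a b p.1 p.2 :=
    (measurable_const.sub h.rho_meas).stronglyMeasurable
  have h2 : ∀ s t : ℝ, Measurable fun z => ∫ x in Ioc s t, (1 - rho χ a b z x) := fun s t =>
    (h1.integral_prod_right (ν := volume.restrict (Ioc s t))).measurable
  simp only [Psi, intervalIntegral]
  exact (h2 0 s).sub (h2 s 0)

theorem rho_eq_zero {z : ℂ} (hz : ∀ i, χ i z = 0) (t : ℝ) : rho χ a b z t = 0 := by
  have h1 : (fun i => (Icc (a i) (b i)).indicator (fun _ => χ i z) t) = fun _ => (0 : ℝ) := by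
    funext i
    rw [hz i]
    simp
  rw [rho, h1]
  rcases isEmpty_or_nonempty ι with h | h
  · exact Real.iSup_of_isEmpty _
  · exact ciSup_const

/-- where no cut-off is active nothing happens -/
theorem off {z : ℂ} (hz : ∀ i, χ i z = 0) (s : ℝ) : Psi χ a b z s = s := by
  rw [Psi]
  have h1 : ∀ t, (1 - rho χ a b z t) = (1 : ℝ) := fun t => by rw [rho_eq_zero hz, sub_zero]
  simp only [h1]
  simp

/-- **window constancy** -/
theorem Fam.const_win (h : Fam χ a b) {i : ι} {z : ℂ} (hz : χ i z = 1) {s t : ℝ}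
    (hs : s ∈ Icc (a i) (b i)) (ht : t ∈ Icc (a i) (b i)) : Psi χ a b z s = Psi χ a b z t := by
  have h1 : ∫ x in s..t, (1 - rho χ a b z x) = ∫ x in s..t, (0 : ℝ) := by
    refine intervalIntegral.integral_congr fun x hx => ?_
    have hx' : x ∈ Icc (a i) (b i) := uIcc_subset_Icc hs ht hx
    have h2 := h.le_rho (z := z) hx'
    rw [hz] at h2
    have h3 := h.rho1 z x
    linarith
  rw [intervalIntegral.integral_zero] at h1
  linarith [h.sub z s t]

/-- difference of `rho` at two points: finitely many indices and a tail -/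
theorem Fam.rho_sub_le (h : Fam χ a b) (F : Finset ι) (z z' : ℂ) (t : ℝ) :
    rho χ a b z' t - rho χ a b z t ≤
      ∑ i ∈ F, (Icc (a i) (b i)).indicator (fun _ => |χ i z' - χ i z|) t +
      (⋃ i ∈ {i | i ∉ F ∧ χ i z' ≠ χ i z}, Icc (a i) (b i)).indicator (fun _ => (1 : ℝ)) t := by
  have hS : 0 ≤ ∑ i ∈ F, (Icc (a i) (b i)).indicator (fun _ => |χ i z' - χ i z|) t :=
    Finset.sum_nonneg fun i _ => indicator_nonneg (fun _ _ => abs_nonneg _) t
  have hT : 0 ≤ (⋃ i ∈ {i | i ∉ F ∧ χ i z' ≠ χ i z}, Icc (a i) (b i)).indicator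
      (fun _ => (1 : ℝ)) t := indicator_nonneg (fun _ _ => zero_le_one) t
  have h0 := h.rho0 z t
  suffices hs : rho χ a b z' t ≤ rho χ a b z t +
      (∑ i ∈ F, (Icc (a i) (b i)).indicator (fun _ => |χ i z' - χ i z|) t +
      (⋃ i ∈ {i | i ∉ F ∧ χ i z' ≠ χ i z}, Icc (a i) (b i)).indicator (fun _ => (1 : ℝ)) t) by
    linarith
  refine Real.iSup_le (fun i => ?_) (by linarith)
  by_cases ht : t ∈ Icc (a i) (b i)
  · rw [indicator_of_mem ht]
    have h1 := h.le_rho (z := z) ht
    by_cases hi : i ∈ F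
    · have h2 : |χ i z' - χ i z| ≤
          ∑ i ∈ F, (Icc (a i) (b i)).indicator (fun _ => |χ i z' - χ i z|) t := by
        have := Finset.single_le_sum
          (f := fun i => (Icc (a i) (b i)).indicator (fun _ => |χ i z' - χ i z|) t)
          (fun j _ => indicator_nonneg (fun _ _ => abs_nonneg _) t) hi
        simpa only [indicator_of_mem ht] using this
      have h3 := le_abs_self (χ i z' - χ i z)
      linarith
    · by_cases he : χ i z' = χ i z
      · rw [he]
        linarith
      · have h2 : t ∈ ⋃ i ∈ {i | i ∉ F ∧ χ i z' ≠ χ i z}, Icc (a i) (b i) := by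
          simp only [mem_iUnion, mem_ofPred_eq]
          exact ⟨i, ⟨hi, he⟩, ht⟩
        rw [indicator_of_mem h2]
        linarith [h.c1 i z']
  · rw [indicator_of_notMem ht]
    linarith

/-- the tail set of the comparison of two points -/
def tl (χ : ι → ℂ → ℝ) (a b : ι → ℝ) (F : Finset ι) (z z' : ℂ) : Set ℝ :=
  ⋃ i ∈ {i | i ∉ F ∧ χ i z' ≠ χ i z}, Icc (a i) (b i)

theorem tl_symm (F : Finset ι) (z z' : ℂ) : tl χ a b F z z' = tl χ a b F z' z := by
  simp only [tl, ne_comm]

theorem Fam.tl_meas (h : Fam χ a b) (F : Finset ι) (z z' : ℂ) :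
    MeasurableSet (tl χ a b F z z') := by
  have := h.cnt
  exact MeasurableSet.biUnion (to_countable _) fun i _ => measurableSet_Icc

theorem tl_empty {F : Finset ι} {z z' : ℂ} (hF : ∀ i ∉ F, χ i z' = χ i z) :
    tl χ a b F z z' = ∅ := by
  simp only [tl, mem_ofPred_eq, iUnion_eq_empty]
  intro i hi
  exact absurd (hF i hi.1) hi.2

theorem Fam.abs_rho_sub_le (h : Fam χ a b) (F : Finset ι) (z z' : ℂ) (t : ℝ) :
    |rho χ a b z' t - rho χ a b z t| ≤
      ∑ i ∈ F, (Icc (a i) (b i)).indicator (fun _ => |χ i z' - χ i z|) t +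
      (tl χ a b F z z').indicator (fun _ => (1 : ℝ)) t := by
  rw [abs_le]
  constructor
  · have h1 := h.rho_sub_le F z' z t
    have h2 : (⋃ i ∈ {i | i ∉ F ∧ χ i z ≠ χ i z'}, Icc (a i) (b i)) = tl χ a b F z z' := by
      simp only [tl, ne_comm]
    rw [h2] at h1
    simp only [abs_sub_comm (χ _ z) (χ _ z')] at h1
    linarith
  · exact h.rho_sub_le F z z' t

/-- **difference of `Psi` at two points**, `s t` arbitrary: finitely many cut-offs and a tail -/
theorem Fam.diff4 (h : Fam χ a b) (F : Finset ι) (z z' : ℂ) (s t : ℝ) {T : ℝ} (hT0 : 0 ≤ T)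
    (hT : volume (tl χ a b F z z') ≤ ENNReal.ofReal T) :
    |(Psi χ a b z' t - Psi χ a b z' s) - (Psi χ a b z t - Psi χ a b z s)| ≤
      ∑ i ∈ F, (b i - a i) * |χ i z' - χ i z| + T := by
  wlog hst : s ≤ t generalizing s t
  · have := this t s (not_le.1 hst).le
    have he : |(Psi χ a b z' t - Psi χ a b z' s) - (Psi χ a b z t - Psi χ a b z s)| =
        |(Psi χ a b z' s - Psi χ a b z' t) - (Psi χ a b z s - Psi χ a b z t)| := by
      rw [← abs_neg]
      congr 1
      ring
    rwa [he]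
  rw [h.sub, h.sub, ← intervalIntegral.integral_sub (h.ii z' s t) (h.ii z s t)]
  have h0 : volume (tl χ a b F z z') < ⊤ := hT.trans_lt ENNReal.ofReal_lt_top
  have hI : ∀ i ∈ F, Integrable (fun x => (Icc (a i) (b i)).indicator
      (fun _ => |χ i z' - χ i z|) x) (volume.restrict (Ioc s t)) := fun i _ =>
    (integrable_const _).indicator measurableSet_Icc
  have hI2 : Integrable (fun x => (tl χ a b F z z').indicator (fun _ => (1 : ℝ)) x)
      (volume.restrict (Ioc s t)) := (integrable_const _).indicator (h.tl_meas F z z')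
  have hI3 : Integrable (fun x => ∑ i ∈ F, (Icc (a i) (b i)).indicator
      (fun _ => |χ i z' - χ i z|) x) (volume.restrict (Ioc s t)) := integrable_finsetSum _ hI
  calc |∫ x in s..t, ((1 - rho χ a b z' x) - (1 - rho χ a b z x))|
      ≤ ∫ x in s..t, |(1 - rho χ a b z' x) - (1 - rho χ a b z x)| :=
        intervalIntegral.abs_integral_le_integral_abs hst
    _ ≤ ∫ x in s..t, (∑ i ∈ F, (Icc (a i) (b i)).indicator (fun _ => |χ i z' - χ i z|) x +
          (tl χ a b F z z').indicator (fun _ => (1 : ℝ)) x) := by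
        refine intervalIntegral.integral_mono_on hst ?_ ?_ fun x _ => ?_
        · exact ((h.ii z' s t).sub (h.ii z s t)).abs
        · rw [intervalIntegrable_iff_integrableOn_Ioc_of_le hst]
          exact hI3.add hI2
        · have := h.abs_rho_sub_le F z z' x
          have he : (1 - rho χ a b z' x) - (1 - rho χ a b z x) =
            -(rho χ a b z' x - rho χ a b z x) := by ring
          rw [he, abs_neg]
          exact this
    _ = (∑ i ∈ F, ∫ x in Ioc s t, (Icc (a i) (b i)).indicator (fun _ => |χ i z' - χ i z|) x) +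
          ∫ x in Ioc s t, (tl χ a b F z z').indicator (fun _ => (1 : ℝ)) x := by
        rw [intervalIntegral.integral_of_le hst, integral_add hI3 hI2, integral_finsetSum _ hI]
    _ ≤ ∑ i ∈ F, (b i - a i) * |χ i z' - χ i z| + T := by
        refine add_le_add (Finset.sum_le_sum fun i _ => ?_) ?_
        · rw [integral_indicator measurableSet_Icc, setIntegral_const, smul_eq_mul,
            measureReal_restrict_apply measurableSet_Icc]
          refine mul_le_mul_of_nonneg_right ?_ (abs_nonneg _)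
          have h1 : volume.real (Icc (a i) (b i) ∩ Ioc s t) ≤ volume.real (Icc (a i) (b i)) :=
            measureReal_mono inter_subset_left (by simp)
          rwa [Real.volume_real_Icc_of_le (h.ab i)] at h1
        · rw [integral_indicator (h.tl_meas F z z'), setIntegral_const, smul_eq_mul, mul_one,
            measureReal_restrict_apply (h.tl_meas F z z')]
          have h1 : volume.real (tl χ a b F z z' ∩ Ioc s t) ≤ volume.real (tl χ a b F z z') :=
            measureReal_mono inter_subset_left h0.ne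
          exact h1.trans (ENNReal.toReal_le_of_le_ofReal hT0 hT)

/-- difference in `z` at one value -/
theorem Fam.difz (h : Fam χ a b) (F : Finset ι) (z z' : ℂ) (t : ℝ) {T : ℝ} (hT0 : 0 ≤ T)
    (hT : volume (tl χ a b F z z') ≤ ENNReal.ofReal T) :
    |Psi χ a b z' t - Psi χ a b z t| ≤ ∑ i ∈ F, (b i - a i) * |χ i z' - χ i z| + T := by
  have := h.diff4 F z z' 0 t hT0 hT
  simpa only [Psi_zero, sub_zero] using this

/-- finite version: all cut-offs outside `F` agree at `z` and `z'` -/
theorem Fam.difz_fin (h : Fam χ a b) {F : Finset ι} {z z' : ℂ} (hF : ∀ i ∉ F, χ i z' = χ i z)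
    (t : ℝ) :
    |Psi χ a b z' t - Psi χ a b z t| ≤ ∑ i ∈ F, (b i - a i) * |χ i z' - χ i z| := by
  have := h.difz F z z' t le_rfl (by rw [tl_empty hF]; simp)
  rwa [add_zero] at this

/-- **both arguments move**, finite version -/
theorem Fam.dif_fin (h : Fam χ a b) {F : Finset ι} {z z' : ℂ} (hF : ∀ i ∉ F, χ i z' = χ i z)
    (s t : ℝ) :
    |Psi χ a b z' t - Psi χ a b z s| ≤
      ∑ i ∈ F, (b i - a i) * |χ i z' - χ i z| + |t - s| := by
  have h1 := h.difz_fin hF t
  have h2 := h.abs_sub_le z s t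
  have h3 := abs_add_le (Psi χ a b z' t - Psi χ a b z t) (Psi χ a b z t - Psi χ a b z s)
  have h4 : Psi χ a b z' t - Psi χ a b z t + (Psi χ a b z t - Psi χ a b z s) =
    Psi χ a b z' t - Psi χ a b z s := by ring
  rw [h4] at h3
  linarith

/-- both arguments move, compared with the identity in the value -/
theorem Fam.dif_fin' (h : Fam χ a b) {F : Finset ι} {z z' : ℂ} (hF : ∀ i ∉ F, χ i z' = χ i z)
    (s t : ℝ) :
    |(Psi χ a b z' t - t) - (Psi χ a b z s - s)| ≤
      ∑ i ∈ F, (b i - a i) * |χ i z' - χ i z| + |t - s| := by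
  have h1 := h.difz_fin hF t
  have h2 := h.abs_sub_sub_le z s t
  have h3 := abs_add_le (Psi χ a b z' t - Psi χ a b z t)
    ((Psi χ a b z t - Psi χ a b z s) - (t - s))
  have h4 : Psi χ a b z' t - Psi χ a b z t + ((Psi χ a b z t - Psi χ a b z s) - (t - s)) =
    (Psi χ a b z' t - t) - (Psi χ a b z s - s) := by ring
  rw [h4] at h3
  linarith

end

end Crest.Agent.R105.Psc_294
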