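import Mathlib
import Crest.Agent.R105.Psc1_294

/-!
# Row 105 (S0139), PLAN: continuity, Lipschitz bounds and gradients of `z ↦ Psi z (v z)` (helper294)
-/

set_option autoImplicit false

open Set Filter Metric Topology MeasureTheory
open scoped ENNReal NNReal

noncomputable section

namespace Crest.Agent.R105.Psc_294

variable {ι : Type} {χ : ι → ℂ → ℝ} {a b : ι → ℝ}

/-- **continuity** at a point where `v` is continuous and the tail windows are small -/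
theorem Fam.continuousAt (h : Fam χ a b) {v : ℂ → ℝ} {q : ℂ} (hv : ContinuousAt v q)
    (ht : ∀ ε > 0, ∃ F : Finset ι, ∀ᶠ z in 𝓝 q,
      volume (⋃ i ∈ {i | i ∉ F ∧ (χ i z ≠ 0 ∨ χ i q ≠ 0)}, Icc (a i) (b i)) ≤ ENNReal.ofReal ε) :
    ContinuousAt (fun z => Psi χ a b z (v z)) q := by
  rw [Metric.continuousAt_iff']
  intro ε hε
  obtain ⟨F, hF⟩ := ht (ε / 4) (by positivity)
  have h1 : ∀ᶠ z in 𝓝 q, |v z - v q| < ε / 4 := by
    have := (Metric.continuousAt_iff'.1 hv) (ε / 4) (by positivity)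
    simpa only [Real.dist_eq] using this
  have h2 : ∀ᶠ z in 𝓝 q, ∑ i ∈ F, (b i - a i) * |χ i z - χ i q| < ε / 4 := by
    have hc : Continuous fun z => ∑ i ∈ F, (b i - a i) * |χ i z - χ i q| := by
      refine continuous_finsetSum _ fun i _ => ?_
      obtain ⟨K, hK⟩ := h.lip i
      exact continuous_const.mul (hK.continuous.sub continuous_const).abs
    have h0 : (fun z => ∑ i ∈ F, (b i - a i) * |χ i z - χ i q|) q < ε / 4 := by
      simp only [sub_self, abs_zero, mul_zero, Finset.sum_const_zero]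
      positivity
    exact hc.continuousAt.eventually_lt continuousAt_const h0
  filter_upwards [hF, h1, h2] with z hz1 hz2 hz3
  have h3 : volume (tl χ a b F q z) ≤ ENNReal.ofReal (ε / 4) := by
    refine (measure_mono ?_).trans hz1
    refine biUnion_subset_biUnion_left ?_
    rintro i ⟨hi, hne⟩
    refine ⟨hi, ?_⟩
    by_contra hcon
    push Not at hcon
    exact hne (hcon.1.trans hcon.2.symm)
  have h4 := h.difz F q z (v z) (by positivity) h3
  have h5 := h.abs_sub_le q (v q) (v z)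
  rw [Real.dist_eq]
  have h6 : Psi χ a b z (v z) - Psi χ a b q (v q) =
    (Psi χ a b z (v z) - Psi χ a b q (v z)) + (Psi χ a b q (v z) - Psi χ a b q (v q)) := by ring
  rw [h6]
  have h7 := abs_add_le (Psi χ a b z (v z) - Psi χ a b q (v z))
    (Psi χ a b q (v z) - Psi χ a b q (v q))
  linarith

/-- the total Lipschitz constant of finitely many cut-offs -/
theorem Fam.exists_lip_sum (h : Fam χ a b) (F : Finset ι) : ∃ K : ℝ≥0, ∀ z z' : ℂ,
    ∑ i ∈ F, (b i - a i) * |χ i z' - χ i z| ≤ K * dist z' z := by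
  choose K hK using h.lip
  refine ⟨∑ i ∈ F, Real.toNNReal (b i - a i) * K i, fun z z' => ?_⟩
  push_cast
  rw [Finset.sum_mul]
  refine Finset.sum_le_sum fun i _ => ?_
  rw [Real.coe_toNNReal _ (sub_nonneg.2 (h.ab i)), mul_assoc]
  refine mul_le_mul_of_nonneg_left ?_ (sub_nonneg.2 (h.ab i))
  have := (hK i).dist_le_mul z' z
  rwa [Real.dist_eq] at this

/-- at a fixed value `Psi` is Lipschitz in `z` on a set where all but finitely many cut-offs are
constant -/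
theorem Fam.lip_fix (h : Fam χ a b) {F : Finset ι} {t : Set ℂ}
    (hF : ∀ z ∈ t, ∀ z' ∈ t, ∀ i ∉ F, χ i z' = χ i z) (s : ℝ) :
    ∃ K : ℝ≥0, LipschitzOnWith K (fun z => Psi χ a b z s) t := by
  obtain ⟨K, hK⟩ := h.exists_lip_sum F
  refine ⟨K, LipschitzOnWith.of_dist_le_mul fun z hz z' hz' => ?_⟩
  rw [Real.dist_eq, abs_sub_comm]
  refine (h.difz_fin (fun i hi => hF z hz z' hz' i hi) s).trans ?_
  rw [dist_comm]
  exact hK z z'

/-- **local Lipschitz bound** where only finitely many cut-offs live and `v` is Lipschitz -/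
theorem Fam.lip_comp (h : Fam χ a b) {F : Finset ι} {t : Set ℂ} {v : ℂ → ℝ} {L : ℝ≥0}
    (hF : ∀ z ∈ t, ∀ z' ∈ t, ∀ i ∉ F, χ i z' = χ i z) (hv : LipschitzOnWith L v t) :
    ∃ K : ℝ≥0, LipschitzOnWith K (fun z => Psi χ a b z (v z)) t := by
  obtain ⟨K, hK⟩ := h.exists_lip_sum F
  refine ⟨K + L, LipschitzOnWith.of_dist_le_mul fun z hz z' hz' => ?_⟩
  rw [Real.dist_eq, abs_sub_comm]
  refine (h.dif_fin (fun i hi => hF z hz z' hz' i hi) (v z) (v z')).trans ?_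
  have h1 := hv.dist_le_mul z' hz' z hz
  rw [Real.dist_eq] at h1
  have h2 := hK z z'
  push_cast
  rw [dist_comm z z']
  linarith

theorem Fam.locLip (h : Fam χ a b) {F : Finset ι} {v : ℂ → ℝ} {q : ℂ}
    (hF : ∀ᶠ z in 𝓝 q, ∀ i ∉ F, χ i z = 0)
    (hv : ∃ K : ℝ≥0, ∃ t ∈ 𝓝 q, LipschitzOnWith K v t) :
    ∃ K : ℝ≥0, ∃ t ∈ 𝓝 q, LipschitzOnWith K (fun z => Psi χ a b z (v z)) t := by
  obtain ⟨L, t, ht, hL⟩ := hv
  obtain ⟨K, hK⟩ := h.lip_comp (t := t ∩ {z | ∀ i ∉ F, χ i z = 0})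
    (fun z hz z' hz' i hi => (hz'.2 i hi).trans (hz.2 i hi).symm) (hL.mono inter_subset_left)
  exact ⟨K, _, inter_mem ht hF, hK⟩

/-- **local Lipschitz bound on the windows**: `v` may be discontinuous there -/
theorem Fam.locLip_win (h : Fam χ a b) {F : Finset ι} {v : ℂ → ℝ} {q : ℂ} {i : ι}
    (hF : ∀ᶠ z in 𝓝 q, ∀ i ∉ F, χ i z = 0) (hχ : ∀ᶠ z in 𝓝 q, χ i z = 1)
    (hv : ∀ᶠ z in 𝓝 q, v z ∈ Icc (a i) (b i)) :
    ∃ K : ℝ≥0, ∃ t ∈ 𝓝 q, LipschitzOnWith K (fun z => Psi χ a b z (v z)) t := by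
  obtain ⟨K, hK⟩ := h.lip_fix (t := {z | ∀ i ∉ F, χ i z = 0})
    (fun z hz z' hz' i hi => (hz' i hi).trans (hz i hi).symm) (a i)
  refine ⟨K, _, inter_mem hF (inter_mem hχ hv), ?_⟩
  intro z hz z' hz'
  have hi : a i ∈ Icc (a i) (b i) := ⟨le_rfl, h.ab i⟩
  have h1 := h.const_win hz.2.1 hz.2.2 hi
  have h2 := h.const_win hz'.2.1 hz'.2.2 hi
  simp only
  rw [h1, h2]
  exact hK hz.1 hz'.1

/-- increments of one function dominated by those of finitely many others -/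
theorem norm_fderiv_le_sum {u : ℂ → ℝ} {z : ℂ} {F : Finset ι} {c : ι → ℝ} (hc : ∀ i ∈ F, 0 ≤ c i)
    (hχ : ∀ i ∈ F, DifferentiableAt ℝ (χ i) z) {M : ℝ} {v : ℂ → ℝ} (hM : 0 ≤ M)
    (hv : DifferentiableAt ℝ v z)
    (hu : ∀ᶠ z' in 𝓝 z, |u z' - u z| ≤ ∑ i ∈ F, c i * |χ i z' - χ i z| + M * |v z' - v z|) :
    ‖fderiv ℝ u z‖ ≤ ∑ i ∈ F, c i * ‖fderiv ℝ (χ i) z‖ + M * ‖fderiv ℝ v z‖ := by
  by_cases hd : DifferentiableAt ℝ u z
  swap
  · rw [fderiv_zero_of_not_differentiableAt hd, norm_zero]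
    have : 0 ≤ ∑ i ∈ F, c i * ‖fderiv ℝ (χ i) z‖ :=
      Finset.sum_nonneg fun i hi => mul_nonneg (hc i hi) (norm_nonneg _)
    positivity
  have key : ∀ {f : ℂ → ℝ}, DifferentiableAt ℝ f z → ∀ ε > 0, ∀ᶠ z' in 𝓝 z,
      |f z' - f z| ≤ (‖fderiv ℝ f z‖ + ε) * ‖z' - z‖ := by
    intro f hf ε hε
    have h1 := hf.hasFDerivAt.isLittleO.def hε
    filter_upwards [h1] with z' hz'
    rw [Real.norm_eq_abs] at hz'
    have h2 := (fderiv ℝ f z).le_opNorm (z' - z)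
    rw [Real.norm_eq_abs] at h2
    have h3 := abs_add_le (f z' - f z - fderiv ℝ f z (z' - z)) (fderiv ℝ f z (z' - z))
    have h4 : f z' - f z - fderiv ℝ f z (z' - z) + fderiv ℝ f z (z' - z) = f z' - f z := by ring
    rw [h4] at h3
    linarith
  have main : ∀ ε > 0, ‖fderiv ℝ u z‖ ≤
      ∑ i ∈ F, c i * (‖fderiv ℝ (χ i) z‖ + ε) + M * (‖fderiv ℝ v z‖ + ε) := by
    intro ε hε
    refine hd.hasFDerivAt.le_of_lip' ?_ ?_
    · have : 0 ≤ ∑ i ∈ F, c i * (‖fderiv ℝ (χ i) z‖ + ε) :=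
        Finset.sum_nonneg fun i hi => mul_nonneg (hc i hi) (by positivity)
      positivity
    · have h1 : ∀ᶠ z' in 𝓝 z, ∀ i ∈ F, |χ i z' - χ i z| ≤ (‖fderiv ℝ (χ i) z‖ + ε) * ‖z' - z‖ := by
        rw [Filter.eventually_all_finset]
        exact fun i hi => key (hχ i hi) ε hε
      filter_upwards [hu, h1, key hv ε hε] with z' h2 h3 h4
      rw [Real.norm_eq_abs, add_mul, Finset.sum_mul]
      refine h2.trans (add_le_add (Finset.sum_le_sum fun i hi => ?_) ?_)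
      · rw [mul_assoc]
        exact mul_le_mul_of_nonneg_left (h3 i hi) (hc i hi)
      · rw [mul_assoc]
        exact mul_le_mul_of_nonneg_left h4 hM
  have hlim : Tendsto (fun ε : ℝ => ∑ i ∈ F, c i * (‖fderiv ℝ (χ i) z‖ + ε) +
      M * (‖fderiv ℝ v z‖ + ε)) (𝓝[>] 0)
      (𝓝 (∑ i ∈ F, c i * ‖fderiv ℝ (χ i) z‖ + M * ‖fderiv ℝ v z‖)) := by
    have hcont : Continuous fun ε : ℝ => ∑ i ∈ F, c i * (‖fderiv ℝ (χ i) z‖ + ε) +
      M * (‖fderiv ℝ v z‖ + ε) := by fun_prop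
    have := hcont.tendsto 0
    simp only [add_zero] at this
    exact this.mono_left nhdsWithin_le_nhds
  refine ge_of_tendsto hlim ?_
  filter_upwards [self_mem_nhdsWithin] with ε hε
  exact main ε hε

/-- **gradient at a fixed value** -/
theorem Fam.der_fix (h : Fam χ a b) {F : Finset ι} {z : ℂ}
    (hF : ∀ᶠ z' in 𝓝 z, ∀ i ∉ F, χ i z' = χ i z) (hχ : ∀ i ∈ F, DifferentiableAt ℝ (χ i) z)
    (s : ℝ) :
    ‖fderiv ℝ (fun z => Psi χ a b z s) z‖ ≤ ∑ i ∈ F, (b i - a i) * ‖fderiv ℝ (χ i) z‖ := by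
  have h1 := norm_fderiv_le_sum (u := fun z => Psi χ a b z s) (c := fun i => b i - a i)
    (v := fun _ : ℂ => (0 : ℝ)) (M := 0) (F := F) (χ := χ) (z := z)
    (fun i _ => sub_nonneg.2 (h.ab i)) hχ le_rfl (differentiableAt_const _) (by
      filter_upwards [hF] with z' hz'
      have := h.difz_fin hz' s
      simpa using this)
  simpa using h1

/-- **gradient of the planarised function**, compared with the gradient of `v` -/
theorem Fam.der_sub (h : Fam χ a b) {F : Finset ι} {v : ℂ → ℝ} {z : ℂ}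
    (hF : ∀ᶠ z' in 𝓝 z, ∀ i ∉ F, χ i z' = χ i z) (hχ : ∀ i ∈ F, DifferentiableAt ℝ (χ i) z)
    (hv : DifferentiableAt ℝ v z) :
    ‖fderiv ℝ (fun z => Psi χ a b z (v z)) z - fderiv ℝ v z‖ ≤
      ‖fderiv ℝ v z‖ + ∑ i ∈ F, (b i - a i) * ‖fderiv ℝ (χ i) z‖ := by
  by_cases hd : DifferentiableAt ℝ (fun z => Psi χ a b z (v z)) z
  · have h1 := norm_fderiv_le_sum (u := fun z => Psi χ a b z (v z) - v z)
      (c := fun i => b i - a i) (v := v) (M := 1) (F := F) (χ := χ) (z := z)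
      (fun i _ => sub_nonneg.2 (h.ab i)) hχ zero_le_one hv (by
        filter_upwards [hF] with z' hz'
        have := h.dif_fin' hz' (v z) (v z')
        simpa using this)
    rw [fderiv_fun_sub hd hv] at h1
    linarith
  · rw [fderiv_zero_of_not_differentiableAt hd, zero_sub, norm_neg]
    have : 0 ≤ ∑ i ∈ F, (b i - a i) * ‖fderiv ℝ (χ i) z‖ :=
      Finset.sum_nonneg fun i _ => mul_nonneg (sub_nonneg.2 (h.ab i)) (norm_nonneg _)
    linarith

/-- **gradient of the planarised function** -/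
theorem Fam.der_comp (h : Fam χ a b) {F : Finset ι} {v : ℂ → ℝ} {z : ℂ}
    (hF : ∀ᶠ z' in 𝓝 z, ∀ i ∉ F, χ i z' = χ i z) (hχ : ∀ i ∈ F, DifferentiableAt ℝ (χ i) z)
    (hv : DifferentiableAt ℝ v z) :
    ‖fderiv ℝ (fun z => Psi χ a b z (v z)) z‖ ≤
      ‖fderiv ℝ v z‖ + ∑ i ∈ F, (b i - a i) * ‖fderiv ℝ (χ i) z‖ := by
  have h1 := norm_fderiv_le_sum (u := fun z => Psi χ a b z (v z))
    (c := fun i => b i - a i) (v := v) (M := 1) (F := F) (χ := χ) (z := z)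
    (fun i _ => sub_nonneg.2 (h.ab i)) hχ zero_le_one hv (by
      filter_upwards [hF] with z' hz'
      have := h.dif_fin hz' (v z) (v z')
      simpa using this)
  linarith

/-- **gradient on the windows** -/
theorem Fam.der_win (h : Fam χ a b) {F : Finset ι} {v : ℂ → ℝ} {z : ℂ} {i : ι}
    (hF : ∀ᶠ z' in 𝓝 z, ∀ i ∉ F, χ i z' = χ i z) (hχ : ∀ i ∈ F, DifferentiableAt ℝ (χ i) z)
    (hi : ∀ᶠ z' in 𝓝 z, χ i z' = 1) (hv : ∀ᶠ z' in 𝓝 z, v z' ∈ Icc (a i) (b i)) :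
    ‖fderiv ℝ (fun z => Psi χ a b z (v z)) z‖ ≤
      ∑ i ∈ F, (b i - a i) * ‖fderiv ℝ (χ i) z‖ := by
  have he : (fun z => Psi χ a b z (v z)) =ᶠ[𝓝 z] fun z => Psi χ a b z (a i) := by
    filter_upwards [hi, hv] with z' h1 h2
    exact h.const_win h1 h2 ⟨le_rfl, h.ab i⟩
  rw [he.fderiv_eq]
  exact h.der_fix hF hχ (a i)

/-- near a point where all cut-offs vanish nothing changes -/
theorem eventuallyEq_of_off {v : ℂ → ℝ} {z : ℂ} (hF : ∀ᶠ z' in 𝓝 z, ∀ i, χ i z' = 0) :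
    (fun z => Psi χ a b z (v z)) =ᶠ[𝓝 z] v := by
  filter_upwards [hF] with z' hz'
  exact off hz' (v z')

end Crest.Agent.R105.Psc_294
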