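import Mathlib
import Crest.Agent.R105.Psc2_294

/-!
# Row 105 (S0139), PLAN: weak gradient of `z ↦ Psi z s` (helper294)
-/

set_option autoImplicit false

open Set Filter Metric Topology MeasureTheory
open scoped ENNReal NNReal

noncomputable section

namespace Crest.Agent.R105.Psc_294

variable {ι : Type} {χ : ι → ℂ → ℝ} {a b : ι → ℝ}

open Classical in
/-- the family restricted to finitely many indices -/
def cutF (χ : ι → ℂ → ℝ) (F : Finset ι) (i : ι) (z : ℂ) : ℝ := if i ∈ F then χ i z else 0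

theorem cutF_mem {F : Finset ι} {i : ι} (hi : i ∈ F) (z : ℂ) : cutF χ F i z = χ i z := if_pos hi

theorem cutF_notMem {F : Finset ι} {i : ι} (hi : i ∉ F) (z : ℂ) : cutF χ F i z = 0 := if_neg hi

theorem Fam.cut (h : Fam χ a b) (F : Finset ι) : Fam (cutF χ F) a b where
  cnt := h.cnt
  c0 i z := by
    by_cases hi : i ∈ F
    · rw [cutF_mem hi]; exact h.c0 i z
    · rw [cutF_notMem hi]
  c1 i z := by
    by_cases hi : i ∈ F
    · rw [cutF_mem hi]; exact h.c1 i z
    · rw [cutF_notMem hi]; exact zero_le_one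
  lip i := by
    by_cases hi : i ∈ F
    · obtain ⟨K, hK⟩ := h.lip i
      have : cutF χ F i = χ i := by funext z; exact cutF_mem hi z
      exact ⟨K, this ▸ hK⟩
    · have : cutF χ F i = fun _ => 0 := by funext z; exact cutF_notMem hi z
      exact ⟨0, this ▸ LipschitzWith.const _⟩
  ab := h.ab

theorem Fam.tendsto_rho (h : Fam χ a b) (z : ℂ) (t : ℝ) :
    Tendsto (fun F : Finset ι => rho (cutF χ F) a b z t) atTop (𝓝 (rho χ a b z t)) := by
  rcases isEmpty_or_nonempty ι with hι | hι
  · have h1 : ∀ F : Finset ι, rho (cutF χ F) a b z t = rho χ a b z t := fun F => by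
      simp only [rho, Real.iSup_of_isEmpty]
    simp only [h1]
    exact tendsto_const_nhds
  rw [tendsto_order]
  constructor
  · intro c hc
    obtain ⟨i, hi⟩ := exists_lt_of_lt_ciSup hc
    filter_upwards [eventually_ge_atTop {i}] with F hF
    have hiF : i ∈ F := hF (Finset.mem_singleton_self i)
    refine hi.trans_le ?_
    have h1 := le_ciSup ((h.cut F).bdd z t) i
    rw [cutF_mem hiF] at h1
    exact h1
  · intro c hc
    refine Eventually.of_forall fun F => lt_of_le_of_lt ?_ hc
    refine ciSup_le fun i => ?_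
    by_cases hi : i ∈ F
    · rw [cutF_mem hi]
      exact le_ciSup (h.bdd z t) i
    · rw [cutF_notMem hi]
      have : (Icc (a i) (b i)).indicator (fun _ => (0 : ℝ)) t = 0 := by simp
      rw [this]
      exact h.rho0 z t

theorem Fam.tendsto_Psi (h : Fam χ a b) (z : ℂ) (s : ℝ) :
    Tendsto (fun F : Finset ι => Psi (cutF χ F) a b z s) atTop (𝓝 (Psi χ a b z s)) := by
  have := h.cnt
  refine intervalIntegral.tendsto_integral_filter_of_dominated_convergence (fun _ => (1 : ℝ))
    ?_ ?_ intervalIntegrable_const ?_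
  · exact Eventually.of_forall fun F =>
      (measurable_const.sub ((h.cut F).rho_meas_right z)).aestronglyMeasurable
  · refine Eventually.of_forall fun F => Eventually.of_forall fun x _ => ?_
    rw [Real.norm_eq_abs, abs_le]
    constructor <;> linarith [(h.cut F).rho0 z x, (h.cut F).rho1 z x]
  · exact Eventually.of_forall fun x _ => tendsto_const_nhds.sub (h.tendsto_rho z x)

theorem integrable_fderiv_apply {η : ℂ → ℝ} {K : ℝ≥0} (hη : LipschitzWith K η)
    (hc : HasCompactSupport η) (e : ℂ) : Integrable fun z => fderiv ℝ η z e := by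
  have h1 : HasCompactSupport fun z => fderiv ℝ η z e := hc.fderiv_apply ℝ e
  have h2 : Measurable fun z => fderiv ℝ η z e := measurable_fderiv_apply_const ℝ η e
  have h3 : IntegrableOn (fun z => fderiv ℝ η z e) (tsupport fun z => fderiv ℝ η z e) := by
    refine Measure.integrableOn_of_bounded (M := K * ‖e‖) h1.measure_lt_top.ne
      h2.aestronglyMeasurable (Eventually.of_forall fun z => ?_)
    refine ((fderiv ℝ η z).le_opNorm e).trans ?_
    exact mul_le_mul_of_nonneg_right (norm_fderiv_le_of_lipschitz ℝ hη) (norm_nonneg _)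
  exact (integrableOn_iff_integrable_of_support_subset (subset_tsupport _)).1 h3

/-- **weak gradient of `z ↦ Psi z s`** (field `cst` of `PlanOut`) -/
theorem Fam.cst (h : Fam χ a b) {g : ℂ → ℝ} (hg : LocallyIntegrable g)
    (hle : ∀ F : Finset ι, ∀ᵐ z, ∑ i ∈ F, (b i - a i) * ‖fderiv ℝ (χ i) z‖ ≤ g z)
    (s : ℝ) (η : ℂ → ℝ) (K : ℝ≥0) (hη : LipschitzWith K η) (hc : HasCompactSupport η) (e : ℂ) :
    |∫ z, Psi χ a b z s * fderiv ℝ η z e| ≤ ‖e‖ * ∫ z, |η z| * g z := by
  have := h.cnt
  have hie := integrable_fderiv_apply hη hc e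
  have hig : Integrable fun z => |η z| * g z := by
    have h1 : Integrable fun z => |η z| • g z :=
      hg.integrable_smul_left_of_hasCompactSupport hη.continuous.abs
        (hc.comp_left (g := fun x : ℝ => |x|) abs_zero)
    simpa only [smul_eq_mul] using h1
  -- the finite families
  have hfin : ∀ F : Finset ι, |∫ z, Psi (cutF χ F) a b z s * fderiv ℝ η z e| ≤
      ‖e‖ * ∫ z, |η z| * g z := by
    intro F
    have hF := h.cut F
    obtain ⟨L, hL⟩ := hF.lip_fix (F := F) (t := univ)
      (fun z _ z' _ i hi => by rw [cutF_notMem hi, cutF_notMem hi]) s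
    have hL' : LipschitzWith L fun z => Psi (cutF χ F) a b z s := lipschitzOnWith_univ.1 hL
    have h1 := LipschitzWith.integral_lineDeriv_mul_eq (μ := volume) hL' hη hc e
    have h2 : ∫ z, lineDeriv ℝ η z (-e) * Psi (cutF χ F) a b z s =
        - ∫ z, Psi (cutF χ F) a b z s * fderiv ℝ η z e := by
      rw [← integral_neg]
      refine integral_congr_ae ?_
      filter_upwards [hη.ae_differentiableAt (μ := volume)] with z hz
      rw [hz.lineDeriv_eq_fderiv, map_neg]
      ring
    have h3 : |∫ z, Psi (cutF χ F) a b z s * fderiv ℝ η z e| =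
        |∫ z, lineDeriv ℝ (fun z => Psi (cutF χ F) a b z s) z e * η z| := by
      rw [h1, h2, abs_neg]
    rw [h3, ← Real.norm_eq_abs, ← integral_const_mul]
    refine norm_integral_le_of_norm_le (hig.const_mul _) ?_
    have hχ : ∀ᵐ z : ℂ, ∀ i ∈ F, DifferentiableAt ℝ (cutF χ F i) z := by
      have hχ' : ∀ᵐ z : ℂ, ∀ i : ι, DifferentiableAt ℝ (cutF χ F i) z := by
        rw [ae_all_iff]
        intro i
        obtain ⟨K, hK⟩ := hF.lip i
        exact hK.ae_differentiableAt
      filter_upwards [hχ'] with z hz i _ using hz i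
    filter_upwards [hL'.ae_differentiableAt (μ := volume), hχ, hle F] with z h4 h5 h6
    rw [h4.lineDeriv_eq_fderiv, norm_mul, Real.norm_eq_abs (η z)]
    have h7 := hF.der_fix (F := F) (z := z) (Eventually.of_forall fun z' i hi => by
      rw [cutF_notMem hi, cutF_notMem hi]) h5 s
    have h8 : ∑ i ∈ F, (b i - a i) * ‖fderiv ℝ (cutF χ F i) z‖ =
        ∑ i ∈ F, (b i - a i) * ‖fderiv ℝ (χ i) z‖ := by
      refine Finset.sum_congr rfl fun i hi => ?_
      have : cutF χ F i = χ i := by funext z; exact cutF_mem hi z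
      rw [this]
    rw [h8] at h7
    have h9 := (fderiv ℝ (fun z => Psi (cutF χ F) a b z s) z).le_opNorm e
    calc ‖fderiv ℝ (fun z => Psi (cutF χ F) a b z s) z e‖ * |η z|
        ≤ (g z * ‖e‖) * |η z| := by
          refine mul_le_mul_of_nonneg_right (h9.trans ?_) (abs_nonneg _)
          exact mul_le_mul_of_nonneg_right (h7.trans h6) (norm_nonneg _)
      _ = ‖e‖ * (|η z| * g z) := by ring
  have hlim : Tendsto (fun F : Finset ι => ∫ z, Psi (cutF χ F) a b z s * fderiv ℝ η z e) atTop
      (𝓝 (∫ z, Psi χ a b z s * fderiv ℝ η z e)) := by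
    refine tendsto_integral_filter_of_dominated_convergence (fun z => |s| * |fderiv ℝ η z e|)
      ?_ ?_ (hie.abs.const_mul _) ?_
    · exact Eventually.of_forall fun F =>
        (((h.cut F).meas s).mul (measurable_fderiv_apply_const ℝ η e)).aestronglyMeasurable
    · refine Eventually.of_forall fun F => Eventually.of_forall fun z => ?_
      rw [Real.norm_eq_abs, abs_mul]
      exact mul_le_mul_of_nonneg_right ((h.cut F).abs_psi_le z s) (abs_nonneg _)
    · exact Eventually.of_forall fun z => (h.tendsto_Psi z s).mul_const _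
  exact le_of_tendsto hlim.abs (Eventually.of_forall hfin)

theorem Fam.ae_diff (h : Fam χ a b) : ∀ᵐ z : ℂ, ∀ i : ι, DifferentiableAt ℝ (χ i) z := by
  have := h.cnt
  rw [ae_all_iff]
  intro i
  obtain ⟨K, hK⟩ := h.lip i
  exact hK.ae_differentiableAt

/-- the bound `h = ∑' (b i - a i) * g i` -/
theorem Fam.sum_le_tsum (h : Fam χ a b) {g : ι → ℂ → ℝ}
    (gd : ∀ i, ∀ᵐ z, ‖fderiv ℝ (χ i) z‖ ≤ g i z) :
    ∀ᵐ z, (Summable fun i => (b i - a i) * g i z) → ∀ F : Finset ι,
      ∑ i ∈ F, (b i - a i) * ‖fderiv ℝ (χ i) z‖ ≤ ∑' i, (b i - a i) * g i z := by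
  have := h.cnt
  have h1 : ∀ᵐ z, ∀ i, ‖fderiv ℝ (χ i) z‖ ≤ g i z := ae_all_iff.2 gd
  filter_upwards [h1] with z hz hs F
  refine (Finset.sum_le_sum fun i _ =>
    mul_le_mul_of_nonneg_left (hz i) (sub_nonneg.2 (h.ab i))).trans ?_
  exact hs.sum_le_tsum F fun i _ =>
    mul_nonneg (sub_nonneg.2 (h.ab i)) ((norm_nonneg _).trans (hz i))

end Crest.Agent.R105.Psc_294
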