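import Crest.Agent.R105.Pla2_676
import Crest.Agent.R105.Psc3_294
import Crest.Agent.R105.Rd0_557

/-!
# Row 105 (helper676): assembly of `PlanOut`

`Tr` = the treated components (skip rule of helper897) with their neighbourhoods;
`planOut_of` = the planarisation.
-/

set_option autoImplicit false

open MeasureTheory Metric Set Filter Topology
open scoped ENNReal NNReal

namespace Crest.Agent.R105.Pla_676

open Rd_557 Psc_294

/-- the treated components: `T ⊆ sᶜ`, every component off `s` is inside some `N j`, `j ∈ T`, and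
(`skip`) no treated component is inside an earlier `N j` -/
structure Tr {ι : Type} (U : Set ℂ) (c : ι → ℂ) (r m ρ : ι → ℝ) (v : ℂ → ℝ) (χ : ι → ℂ → ℝ)
    (s : Finset ι) (en : ι → ℕ) (T : Set ι) (N : ι → Set ℂ) : Prop where
  inj : Function.Injective en
  sub : ∀ i ∈ T, i ∉ s
  op : ∀ i, IsOpen (N i)
  mem : ∀ i, closedBall (c i) (r i) ⊆ N i
  chi : ∀ i, ∀ z ∈ N i, χ i z = 1
  win : ∀ i, ∀ z ∈ N i, |v z - m i| ≤ ρ i
  sat : ∀ i j, c j ∈ N i → closedBall (c j) (r j) ⊆ N i
  cov : ∀ i, i ∉ s → ∃ j ∈ T, closedBall (c i) (r i) ⊆ N j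
  skip : ∀ i ∈ T, ∀ j ∈ T, en j < en i → ¬ closedBall (c i) (r i) ⊆ N j

section

variable {ι : Type} {U : Set ℂ} {L : ℝ} {c : ι → ℂ} {r d m R ρ : ι → ℝ} {v : ℂ → ℝ}
  {χ g : ι → ℂ → ℝ} {rad : ι → ℝ} {s : Finset ι} {en : ι → ℕ} {T : Set ι} {N : ι → Set ℂ}

open Classical in
/-- the cut-offs of the treated components -/
noncomputable def cutT (χ : ι → ℂ → ℝ) (T : Set ι) (i : ι) (z : ℂ) : ℝ := if i ∈ T then χ i z else 0

theorem cutT_mem {i : ι} (hi : i ∈ T) : cutT χ T i = χ i := by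
  funext z
  exact if_pos hi

theorem cutT_notMem {i : ι} (hi : i ∉ T) : cutT χ T i = fun _ => 0 := by
  funext z
  exact if_neg hi

theorem fam (hc : Cuts c r d χ g rad) (hcnt : Countable ι) (ρ0 : ∀ i, 0 ≤ ρ i) (T : Set ι) :
    Fam (cutT χ T) (fun i => m i - ρ i) (fun i => m i + ρ i) where
  cnt := hcnt
  c0 i z := by
    by_cases hi : i ∈ T
    · rw [cutT_mem hi]; exact hc.chi0 i z
    · rw [cutT_notMem hi]
  c1 i z := by
    by_cases hi : i ∈ T
    · rw [cutT_mem hi]; exact hc.chi1 i z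
    · rw [cutT_notMem hi]; exact zero_le_one
  lip i := by
    by_cases hi : i ∈ T
    · rw [cutT_mem hi]; exact hc.lip i
    · rw [cutT_notMem hi]; exact ⟨0, LipschitzWith.const _⟩
  ab i := by
    have := ρ0 i
    linarith

theorem cutT_zero (hc : Cuts c r d χ g rad) {i : ι} {z : ℂ}
    (h : i ∈ T → z ∉ closedBall (c i) (rad i)) : cutT χ T i z = 0 := by
  by_cases hi : i ∈ T
  · rw [cutT_mem hi]; exact hc.supp i z (h hi)
  · rw [cutT_notMem hi]

/-- the radii of the supports tend to zero -/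
theorem rad_fin (hc : Cuts c r d χ g rad) (r0 : ∀ i, 0 ≤ r i) (sr : Summable fun i => r i ^ 2)
    (sd : Summable fun i => d i ^ 2) (d0 : ∀ i, 0 < d i) {η : ℝ} (hη : 0 < η) :
    {i | η ≤ rad i}.Finite := by
  have h1 : {i | η ^ 2 / 8 ≤ r i ^ 2 + d i ^ 2}.Finite := by
    have h2 := (sr.add sd).tendsto_cofinite_zero
    have h3 := h2.eventually (gt_mem_nhds (show (0 : ℝ) < η ^ 2 / 8 by positivity))
    rw [eventually_cofinite] at h3
    refine h3.subset fun i hi => ?_
    simp only [mem_ofPred_eq] at hi ⊢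
    exact not_lt.2 hi
  refine h1.subset fun i hi => ?_
  simp only [mem_ofPred_eq] at hi ⊢
  rcases (r0 i).eq_or_lt with h | h
  · have h4 := hc.rad2 i h.symm
    have h5 := d0 i
    rw [← h]
    nlinarith
  · rw [hc.rad1 i h] at hi
    have h5 := sq_nonneg (d i)
    nlinarith

/-- **local finiteness** -/
theorem loc_fin (hD : DatR U L c r m R v) (hc : Cuts c r d χ g rad)
    (sd : Summable fun i => d i ^ 2) (d0 : ∀ i, 0 < d i)
    (hT : Tr U c r m ρ v χ s en T N) {z : ℂ} (hz : z ∈ U ∨ ∃ k ∈ T, z ∈ N k) :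
    ∃ F : Finset ι, ∀ᶠ w in 𝓝 z, ∀ i ∉ F, i ∈ T → w ∉ closedBall (c i) (rad i) := by
  -- an open set `O ∋ z` containing only finitely many treated centres
  obtain ⟨O, hO, hzO, hfin⟩ : ∃ O : Set ℂ, IsOpen O ∧ z ∈ O ∧ {i | i ∈ T ∧ c i ∈ O}.Finite := by
    rcases hz with hz | ⟨k, hk, hz⟩
    · refine ⟨U, hD.ext.1, hz, ?_⟩
      convert Set.finite_empty (α := ι)
      ext i
      simp only [mem_ofPred_eq, mem_empty_iff_false, iff_false, not_and]
      intro _ h
      exact (hD.comp i (c i) (mem_closedBall_self (hD.r0 i))).1 h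
    · refine ⟨N k, hT.op k, hz, ?_⟩
      have h1 : {i | en i ≤ en k}.Finite :=
        ((Set.finite_Iic (en k)).preimage (hT.inj.injOn)).subset fun i hi => hi
      refine h1.subset fun i hi => ?_
      by_contra hcon
      exact hT.skip i hi.1 k hk (not_le.1 hcon) (hT.sat k i hi.2)
  obtain ⟨η, hη, hηO⟩ := Metric.isOpen_iff.1 hO z hzO
  have h2 := rad_fin hc hD.r0 hD.sr sd d0 (half_pos hη)
  classical
  refine ⟨(hfin.union h2).toFinset, ?_⟩
  filter_upwards [ball_mem_nhds z (half_pos hη)] with w hw i hi hiT hwi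
  rw [Set.Finite.mem_toFinset, mem_union, not_or] at hi
  have h3 : rad i < η / 2 := not_le.1 hi.2
  refine hi.1 ⟨hiT, hηO ?_⟩
  rw [mem_ball] at hw ⊢
  rw [mem_closedBall] at hwi
  have := dist_triangle (c i) w z
  rw [dist_comm (c i) w] at this
  linarith

/-- the set where the planarised function is not locally Lipschitz -/
def Cz (U : Set ℂ) (c : ι → ℂ) (r : ι → ℝ) (s : Finset ι) (T : Set ι) (N : ι → Set ℂ) : Set ℂ :=
  (Uᶜ \ ⋃ k ∈ T, N k) \ big c r s

theorem cz_ball (hT : Tr U c r m ρ v χ s en T N) {q : ℂ} (hq : q ∈ Cz U c r s T N) (i : ι) :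
    q ∉ closedBall (c i) (r i) := by
  intro h
  by_cases hi : i ∈ s
  · exact hq.2 (mem_biUnion hi h)
  · obtain ⟨j, hj, hij⟩ := hT.cov i hi
    exact hq.1.2 (mem_biUnion hj (hij h))

theorem cz_dust (hD : DatR U L c r m R v) (hT : Tr U c r m ρ v χ s en T N) {q : ℂ}
    (hq : q ∈ Cz U c r s T N) : connectedComponentIn Uᶜ q = {q} ∧ ContinuousAt v q :=
  hD.dust q hq.1.1 (cz_ball hT hq)

theorem cz_frontier (hD : DatR U L c r m R v) (hT : Tr U c r m ρ v χ s en T N) :
    Cz U c r s T N ⊆ frontier U := by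
  intro q hq
  have hqU : q ∉ U := hq.1.1
  rw [hD.ext.1.frontier_eq]
  refine ⟨?_, hqU⟩
  by_contra hcl
  have h1 : (closure U)ᶜ ∈ 𝓝 q := isClosed_closure.isOpen_compl.mem_nhds hcl
  obtain ⟨η, hη, hb⟩ := Metric.mem_nhds_iff.1 h1
  have h2 : ball q η ⊆ connectedComponentIn Uᶜ q := by
    refine (convex_ball q η).isPreconnected.subset_connectedComponentIn (mem_ball_self hη) ?_
    intro w hw hwU
    exact hb hw (subset_closure hwU)
  rw [(cz_dust hD hT hq).1] at h2
  have h3 : q + (η / 2 : ℝ) ∈ ball q η := by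
    rw [mem_ball, dist_eq_norm, add_sub_cancel_left, Complex.norm_real, Real.norm_eq_abs,
      abs_of_pos (half_pos hη)]
    exact half_lt_self hη
  have h4 := h2 h3
  rw [mem_singleton_iff, add_eq_left] at h4
  have h5 : (η / 2 : ℝ) = 0 := by exact_mod_cast h4
  linarith

theorem big_sub (hD : DatR U L c r m R v) : big c r s ⊆ Uᶜ := by
  intro z hz
  obtain ⟨i, -, hi⟩ := mem_iUnion₂.1 hz
  exact (hD.comp i z hi).1

/-- the continuity at the dust -/
theorem cont_cz (hD : DatR U L c r m R v) (hc : Cuts c r d χ g rad)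
    (sd : Summable fun i => d i ^ 2) (d0 : ∀ i, 0 < d i) (ρ0 : ∀ i, 0 ≤ ρ i)
    (sρ : Summable fun i => ρ i ^ 2)
    (hT : Tr U c r m ρ v χ s en T N) {q : ℂ} (hq : q ∈ Cz U c r s T N) :
    ContinuousAt (fun z => Psi (cutT χ T) (fun i => m i - ρ i) (fun i => m i + ρ i) z (v z)) q := by
  have hv := (cz_dust hD hT hq).2
  refine (fam (m := m) hc hD.cnt ρ0 T).continuousAt hv fun ε hε => ?_
  obtain ⟨η, hη, hηv⟩ := Metric.continuousAt_iff.1 hv (ε / 8) (by positivity)
  have h1 := rad_fin hc hD.r0 hD.sr sd d0 (half_pos hη)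
  have h2 : {i | ε / 8 ≤ ρ i}.Finite := by
    have h3 := sρ.tendsto_cofinite_zero.eventually
      (gt_mem_nhds (show (0 : ℝ) < (ε / 8) ^ 2 by positivity))
    rw [eventually_cofinite] at h3
    refine h3.subset fun i hi => ?_
    simp only [mem_ofPred_eq] at hi ⊢
    exact not_lt.2 (pow_le_pow_left₀ (by positivity) hi 2)
  classical
  refine ⟨(h1.union h2).toFinset, ?_⟩
  filter_upwards [ball_mem_nhds q (half_pos hη)] with z hz
  have key : (⋃ i ∈ {i | i ∉ (h1.union h2).toFinset ∧ (cutT χ T i z ≠ 0 ∨ cutT χ T i q ≠ 0)},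
      Icc (m i - ρ i) (m i + ρ i)) ⊆ Icc (v q - ε / 4) (v q + ε / 4) := by
    intro t ht
    obtain ⟨i, hi, hti⟩ := mem_iUnion₂.1 ht
    obtain ⟨hiF, hi2⟩ := hi
    rw [Set.Finite.mem_toFinset, mem_union, not_or] at hiF
    have h3 : rad i < η / 2 := not_le.1 hiF.1
    have h4 : ρ i < ε / 8 := not_le.1 hiF.2
    have h5 : ∃ w ∈ ball q (η / 2), w ∈ closedBall (c i) (rad i) := by
      rcases hi2 with h | h
      · refine ⟨z, hz, ?_⟩
        by_contra hcon
        exact h (cutT_zero hc fun _ => hcon)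
      · refine ⟨q, mem_ball_self (half_pos hη), ?_⟩
        by_contra hcon
        exact h (cutT_zero hc fun _ => hcon)
    obtain ⟨w, hw, hwi⟩ := h5
    have h6 : dist (c i) q < η := by
      rw [mem_ball] at hw
      rw [mem_closedBall, dist_comm] at hwi
      have := dist_triangle (c i) w q
      linarith
    have h7 := hηv h6
    rw [hD.val i (c i) (mem_closedBall_self (hD.r0 i)), Real.dist_eq, abs_lt] at h7
    rw [mem_Icc] at hti ⊢
    constructor <;> linarith
  refine (measure_mono key).trans ?_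
  rw [Real.volume_Icc]
  exact ENNReal.ofReal_le_ofReal (by linarith)

/-- `v` is Lipschitz near the points of `U` -/
theorem lip_U (hD : DatR U L c r m R v) {z : ℂ} (hz : z ∈ U) :
    ∃ K : ℝ≥0, ∃ t ∈ 𝓝 z, LipschitzOnWith K v t := by
  have h1 : ContDiffAt ℝ 1 v z := hD.diff.contDiffAt (hD.ext.1.mem_nhds hz)
  exact h1.exists_lipschitzOnWith

end

end Crest.Agent.R105.Pla_676
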