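import Crest.Agent.R105.Pla3_676
import Crest.Agent.R105.Ext1_616

/-!
# Row 105 (helper676): `PlanP`
-/

set_option autoImplicit false

open MeasureTheory Metric Set Filter Topology
open scoped ENNReal NNReal

namespace Crest.Agent.R105.Pla_676

open Rd_557 Psc_294

section

variable {ι : Type} {U : Set ℂ} {L : ℝ} {c : ι → ℂ} {r d m R ρ : ι → ℝ} {v : ℂ → ℝ}
  {χ g : ι → ℂ → ℝ} {rad : ι → ℝ} {s : Finset ι} {en : ι → ℕ} {T : Set ι} {N : ι → Set ℂ}

/-- the planarisation function -/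
noncomputable abbrev Ps (χ : ι → ℂ → ℝ) (T : Set ι) (m ρ : ι → ℝ) : ℂ → ℝ → ℝ :=
  Psi (cutT χ T) (fun i => m i - ρ i) (fun i => m i + ρ i)

/-- locally only finitely many cut-offs -/
theorem ev_zero (hD : DatR U L c r m R v) (hc : Cuts c r d χ g rad)
    (sd : Summable fun i => d i ^ 2) (d0 : ∀ i, 0 < d i)
    (hT : Tr U c r m ρ v χ s en T N) {z : ℂ} (hz : z ∈ U ∨ ∃ k ∈ T, z ∈ N k) :
    ∃ F : Finset ι, ∀ᶠ w in 𝓝 z, ∀ i ∉ F, cutT χ T i w = 0 := by
  obtain ⟨F, hF⟩ := loc_fin hD hc sd d0 hT hz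
  exact ⟨F, hF.mono fun w hw i hi => cutT_zero hc fun hiT => hw i hi hiT⟩

theorem fderiv_cutT_le (hc : Cuts c r d χ g rad) (i : ι) (z : ℂ) :
    ‖fderiv ℝ (cutT χ T i) z‖ ≤ g i z := by
  by_cases hi : i ∈ T
  · rw [cutT_mem hi]; exact hc.gd i z
  · rw [cutT_notMem hi, fderiv_const_apply, norm_zero]
    exact hc.g0 i z

theorem sum_le (hc : Cuts c r d χ g rad) (hT : Tr U c r m ρ v χ s en T N) (ρ0 : ∀ i, 0 ≤ ρ i)
    {h : ℂ → ℝ} {z : ℂ}
    (hs : Summable fun i : {i // i ∉ s} => (2 * ρ i) * g i z)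
    (hh : ∑' i : {i // i ∉ s}, (2 * ρ i) * g i z = h z) (F : Finset ι) :
    ∑ i ∈ F, (m i + ρ i - (m i - ρ i)) * ‖fderiv ℝ (cutT χ T i) z‖ ≤ h z := by
  classical
  have h1 : ∑ i ∈ F, (m i + ρ i - (m i - ρ i)) * ‖fderiv ℝ (cutT χ T i) z‖ ≤
      ∑ i ∈ F, if i ∉ s then (2 * ρ i) * g i z else 0 := by
    refine Finset.sum_le_sum fun i _ => ?_
    have hρ := ρ0 i
    by_cases hi : i ∉ s
    · rw [if_pos hi, show m i + ρ i - (m i - ρ i) = 2 * ρ i by ring]
      exact mul_le_mul_of_nonneg_left (fderiv_cutT_le hc i z) (by linarith)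
    · rw [if_neg hi, cutT_notMem fun h => hi (hT.sub i h), fderiv_const_apply, norm_zero, mul_zero]
  refine h1.trans ?_
  rw [← Finset.sum_filter, ← hh]
  have h2 : ∑ i ∈ F.filter (fun i => i ∉ s), (2 * ρ i) * g i z =
      ∑ i ∈ (F.subtype fun i => i ∉ s), (2 * ρ i) * g i z := by
    rw [← Finset.sum_subtype_eq_sum_filter]
  rw [h2]
  exact hs.sum_le_tsum _ fun i _ => mul_nonneg (by have := ρ0 i; linarith) (hc.g0 i z)

theorem planOut_of (hD : DatR U L c r m R v) (hU0 : volume (frontier U) = 0)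
    (hc : Cuts c r d χ g rad) (sd : Summable fun i => d i ^ 2) (d0 : ∀ i, 0 < d i)
    (d1 : ∀ i, d i ≤ 1) (ρ0 : ∀ i, 0 ≤ ρ i) (sρ : Summable fun i => ρ i ^ 2)
    (hT : Tr U c r m ρ v χ s en T N) {ε : ℝ}
    (hAm : MeasurableSet (⋃ i ∈ {i | i ∉ s}, closedBall (c i) (rad i)))
    (hAv : volume (⋃ i ∈ {i | i ∉ s}, closedBall (c i) (rad i)) ≤ ENNReal.ofReal ε)
    {h : ℂ → ℝ} (hm : Measurable h) (h0 : ∀ z, 0 ≤ h z)
    (hA : ∀ z ∉ ⋃ i ∈ {i | i ∉ s}, closedBall (c i) (rad i), h z = 0)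
    (h1 : ∫ z, h z ≤ ε) (hi : Integrable h) (h2 : Integrable fun z => h z ^ 2)
    (hs : ∀ᵐ z, Summable (fun i : {i // i ∉ s} => (2 * ρ i) * g i z) ∧
      ∑' i : {i // i ∉ s}, (2 * ρ i) * g i z = h z) :
    PlanOut U L v (big c r s) ε (Cz U c r s T N)
      (⋃ i ∈ {i | i ∉ s}, closedBall (c i) (rad i)) h (Ps χ T m ρ) := by
  set A : Set ℂ := ⋃ i ∈ {i | i ∉ s}, closedBall (c i) (rad i) with hAdef
  have hfam := fam (m := m) hc hD.cnt ρ0 T
  have hsum : ∀ F : Finset ι, ∀ᵐ z, ∑ i ∈ F, (m i + ρ i - (m i - ρ i)) *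
      ‖fderiv ℝ (cutT χ T i) z‖ ≤ h z := fun F => by
    filter_upwards [hs] with z hz
    exact sum_le hc hT ρ0 hz.1 hz.2 F
  have hsum' : ∀ᵐ z, ∀ F : Finset ι, ∑ i ∈ F, (m i + ρ i - (m i - ρ i)) *
      ‖fderiv ℝ (cutT χ T i) z‖ ≤ h z := by
    filter_upwards [hs] with z hz F
    exact sum_le hc hT ρ0 hz.1 hz.2 F
  have hcnt := hD.cnt
  have hdiff : ∀ᵐ z, ∀ i, DifferentiableAt ℝ (cutT χ T i) z := by
    rw [ae_all_iff]
    intro i
    obtain ⟨K, hK⟩ := hfam.lip i
    exact hK.ae_differentiableAt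
  -- near every point off `B ∪ C0`
  have hcase : ∀ z, z ∉ big c r s → z ∉ Cz U c r s T N → z ∈ U ∨ ∃ k ∈ T, z ∈ N k := by
    intro z hzB hzC
    by_contra hcon
    push Not at hcon
    refine hzC ⟨⟨hcon.1, ?_⟩, hzB⟩
    intro hz
    obtain ⟨k, hk, hzk⟩ := mem_iUnion₂.1 hz
    exact hcon.2 k hk hzk
  have hlocU : ∀ z ∈ U, ∃ K : ℝ≥0, ∃ t ∈ 𝓝 z,
      LipschitzOnWith K (fun z => Ps χ T m ρ z (v z)) t := by
    intro z hz
    obtain ⟨F, hF⟩ := ev_zero hD hc sd d0 hT (Or.inl hz)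
    exact hfam.locLip hF (lip_U hD hz)
  have hlocN : ∀ z, (∃ k ∈ T, z ∈ N k) → ∃ K : ℝ≥0, ∃ t ∈ 𝓝 z,
      LipschitzOnWith K (fun z => Ps χ T m ρ z (v z)) t := by
    intro z hz
    obtain ⟨F, hF⟩ := ev_zero hD hc sd d0 hT (Or.inr hz)
    obtain ⟨k, hk, hzk⟩ := hz
    refine hfam.locLip_win (i := k) hF ?_ ?_
    · filter_upwards [(hT.op k).mem_nhds hzk] with w hw
      rw [cutT_mem hk]
      exact hT.chi k w hw
    · filter_upwards [(hT.op k).mem_nhds hzk] with w hw
      have := abs_le.1 (hT.win k w hw)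
      exact ⟨by linarith [this.1], by linarith [this.2]⟩
  have hloc : ∀ z, z ∉ big c r s → z ∉ Cz U c r s T N → ∃ K : ℝ≥0, ∃ t ∈ 𝓝 z,
      LipschitzOnWith K (fun z => Ps χ T m ρ z (v z)) t := by
    intro z hzB hzC
    rcases hcase z hzB hzC with hz | hz
    · exact hlocU z hz
    · exact hlocN z hz
  refine
    { mono := hfam.mono
      lip := hfam.lip1
      off := fun z hz t => ?_
      zero := fun z => Psi_zero z
      meas := hfam.meas
      cst := ?_
      C0c := ?_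
      C0B := ?_
      C0d := ?_
      C0f := cz_frontier hD hT
      cont := ?_
      loc := hloc
      derU := ?_
      derC := ?_
      Am := hAm
      Av := hAv
      AL := ?_
      hm := hm
      h0 := h0
      hA := hA
      h1 := h1
      h2 := h2 }
  · -- off
    refine Psc_294.off (fun i => ?_) t
    refine cutT_zero hc fun hiT hz' => hz (mem_biUnion (hT.sub i hiT) hz')
  · -- cst
    exact hfam.cst hi.locallyIntegrable hsum
  · -- C0c
    have e1 : Cz U c r s T N ∪ big c r s = (Uᶜ \ ⋃ k ∈ T, N k) ∪ big c r s := by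
      rw [Cz, sdiff_union_self]
    rw [e1]
    have hB : IsCompact (big c r s) :=
      s.finite_toSet.isCompact_biUnion fun i _ => isCompact_closedBall (c i) (r i)
    have hX : IsCompact (Uᶜ \ ⋃ k ∈ T, N k) := by
      have hUc : IsCompact Uᶜ := (isCompact_closedBall 0 L).of_isClosed_subset
        hD.ext.1.isClosed_compl hD.hL
      exact hUc.diff (isOpen_biUnion fun k _ => hT.op k)
    exact hX.union hB
  · -- C0B
    exact disjoint_sdiff_left
  · -- C0d
    intro t ht htc q hq q' hq'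
    have h3 : t ⊆ connectedComponentIn Uᶜ q :=
      htc.subset_connectedComponentIn hq fun w hw => (ht hw).1.1
    rw [(cz_dust hD hT (ht hq)).1] at h3
    exact (h3 hq').symm
  · -- cont
    intro z hz
    by_cases hzC : z ∈ Cz U c r s T N
    · exact (cont_cz hD hc sd d0 ρ0 sρ hT hzC).continuousWithinAt
    · obtain ⟨K, t, ht, hL⟩ := hloc z hz hzC
      exact (hL.continuousOn.continuousAt ht).continuousWithinAt
  · -- derU
    filter_upwards [hsum', hdiff] with z hz hd hzU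
    obtain ⟨F, hF⟩ := ev_zero hD hc sd d0 hT (Or.inl hzU)
    have hF' : ∀ᶠ w in 𝓝 z, ∀ i ∉ F, cutT χ T i w = cutT χ T i z := by
      have := hF.self_of_nhds
      filter_upwards [hF] with w hw i hi
      rw [hw i hi, this i hi]
    have hvd : DifferentiableAt ℝ v z :=
      (hD.diff.contDiffAt (hD.ext.1.mem_nhds hzU)).differentiableAt (by norm_num)
    by_cases hzA : z ∈ A
    · rw [indicator_of_mem hzA]
      exact (hfam.der_sub hF' (fun i _ => hd i) hvd).trans (add_le_add le_rfl (hz F))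
    · rw [indicator_of_notMem hzA, zero_add]
      obtain ⟨F2, hF2⟩ := loc_fin hD hc sd d0 hT (Or.inl hzU)
      have h3 : ∀ᶠ w in 𝓝 z, ∀ i ∈ F2, i ∈ T → w ∉ closedBall (c i) (rad i) := by
        refine (Filter.eventually_all_finset F2).2 fun i _ => ?_
        by_cases hiT : i ∈ T
        · have h4 : z ∉ closedBall (c i) (rad i) := fun h => hzA (mem_biUnion (hT.sub i hiT) h)
          filter_upwards [isClosed_closedBall.isOpen_compl.mem_nhds h4] with w hw _
          exact hw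
        · exact Eventually.of_forall fun w h => absurd h hiT
      have h5 : ∀ᶠ w in 𝓝 z, ∀ i, cutT χ T i w = 0 := by
        filter_upwards [hF2, h3] with w hw hw' i
        refine cutT_zero hc fun hiT => ?_
        by_cases hiF : i ∈ F2
        · exact hw' i hiF hiT
        · exact hw i hiF hiT
      rw [(eventuallyEq_of_off h5).fderiv_eq, sub_self, norm_zero]
      exact h0 z
  · -- derC
    have hfr : ∀ᵐ z, z ∉ frontier U := compl_mem_ae_iff.2 hU0
    filter_upwards [hsum', hdiff, hfr] with z hz hd hzf hzU hzB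
    have hzC : z ∉ Cz U c r s T N := fun h => hzf (cz_frontier hD hT h)
    have hzN : ∃ k ∈ T, z ∈ N k := by
      rcases hcase z hzB hzC with h | h
      · exact absurd h hzU
      · exact h
    obtain ⟨F, hF⟩ := ev_zero hD hc sd d0 hT (Or.inr hzN)
    have hF' : ∀ᶠ w in 𝓝 z, ∀ i ∉ F, cutT χ T i w = cutT χ T i z := by
      have := hF.self_of_nhds
      filter_upwards [hF] with w hw i hi
      rw [hw i hi, this i hi]
    obtain ⟨k, hk, hzk⟩ := hzN
    refine (hfam.der_win (i := k) hF' (fun i _ => hd i) ?_ ?_).trans (hz F)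
    · filter_upwards [(hT.op k).mem_nhds hzk] with w hw
      rw [cutT_mem hk]
      exact hT.chi k w hw
    · filter_upwards [(hT.op k).mem_nhds hzk] with w hw
      have := abs_le.1 (hT.win k w hw)
      exact ⟨by linarith [this.1], by linarith [this.2]⟩
  · -- AL
    intro z hz
    obtain ⟨i, his, hzi⟩ := mem_iUnion₂.1 hz
    have hball : closedBall (c i) (r i) ⊆ closedBall 0 L := fun w hw =>
      hD.hL (hD.comp i w hw).1
    have hcL : ‖c i‖ ≤ L := by
      have := hball (mem_closedBall_self (hD.r0 i))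
      rwa [mem_closedBall_zero_iff] at this
    have hrL : r i ≤ L := by
      have a1 : c i + (r i : ℂ) ∈ closedBall (c i) (r i) := by
        rw [mem_closedBall, dist_eq_norm, add_sub_cancel_left, Complex.norm_real,
          Real.norm_eq_abs, abs_of_nonneg (hD.r0 i)]
      have a2 : c i - (r i : ℂ) ∈ closedBall (c i) (r i) := by
        rw [mem_closedBall, dist_eq_norm, show c i - (r i : ℂ) - c i = -(r i : ℂ) by ring,
          norm_neg, Complex.norm_real, Real.norm_eq_abs, abs_of_nonneg (hD.r0 i)]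
      have b1 := hball a1
      have b2 := hball a2
      rw [mem_closedBall_zero_iff] at b1 b2
      have b3 := norm_sub_le (c i + (r i : ℂ)) (c i - (r i : ℂ))
      rw [show c i + (r i : ℂ) - (c i - (r i : ℂ)) = ((2 * r i : ℝ) : ℂ) by push_cast; ring,
        Complex.norm_real, Real.norm_eq_abs, abs_of_nonneg (by have := hD.r0 i; linarith)] at b3
      linarith
    have hrad : rad i ≤ 2 * L + 1 := by
      rcases (hD.r0 i).eq_or_lt with h | h
      · have a1 := hc.rad2 i h.symm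
        have a2 := d1 i
        have a3 := norm_nonneg (c i)
        linarith
      · rw [hc.rad1 i h]
        linarith
    rw [mem_closedBall_zero_iff]
    rw [mem_closedBall, dist_eq_norm] at hzi
    have := norm_sub_norm_le z (c i)
    linarith

end

/-- the skip rule -/
theorem exists_skip {ι : Type} (en : ι → ℕ) (A : ι → Prop) (Q : ι → ι → Prop) :
    ∃ T : Set ι, ∀ i, i ∈ T ↔ A i ∧ ∀ j ∈ T, en j < en i → ¬ Q i j := by
  let P : ι → Prop := (measure en).wf.fix (C := fun _ => Prop)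
    fun i ih => A i ∧ ∀ j, ∀ h : en j < en i, ih j h → ¬ Q i j
  refine ⟨{i | P i}, fun i => ?_⟩
  have h1 : P i = (A i ∧ ∀ j, ∀ _ : en j < en i, P j → ¬ Q i j) :=
    (measure en).wf.fix_eq _ i
  change P i ↔ _
  rw [h1]
  constructor
  · rintro ⟨h2, h3⟩
    exact ⟨h2, fun j hj hji => h3 j hji hj⟩
  · rintro ⟨h2, h3⟩
    exact ⟨h2, fun j hji hj => h3 j hj hji⟩

/-- **PLAN** -/
theorem planP : PlanP := by
  intro U L ι c r m R v hD hU0 ε hε
  classical
  have hcnt := hD.cnt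
  obtain ⟨en, hen⟩ := hcnt.exists_injective_nat
  -- small positive numbers
  set e : ι → ℝ := fun i => (1 / 2) ^ en i with he
  have e0 : ∀ i, 0 < e i := fun i => by positivity
  have e1 : ∀ i, e i ≤ 1 := fun i => pow_le_one₀ (by norm_num) (by norm_num)
  have se : Summable fun i => e i ^ 2 := by
    have h1 : Summable fun n : ℕ => ((1 / 2 : ℝ) ^ n) ^ 2 := by
      have : (fun n : ℕ => ((1 / 2 : ℝ) ^ n) ^ 2) = fun n : ℕ => (1 / 4 : ℝ) ^ n := by
        funext n
        rw [← pow_mul, mul_comm, pow_mul]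
        norm_num
      rw [this]
      exact summable_geometric_of_lt_one (by norm_num) (by norm_num)
    exact h1.comp_injective hen
  set ρ : ι → ℝ := fun i => R i + e i with hρ
  have ρ0 : ∀ i, 0 ≤ ρ i := fun i => add_nonneg (hD.R0 i) (e0 i).le
  have sρ : Summable fun i => ρ i ^ 2 := by
    refine Summable.of_nonneg_of_le (fun i => sq_nonneg _) (fun i => ?_)
      ((hD.sR.add se).mul_left 2)
    simp only [hρ]
    nlinarith [sq_nonneg (R i - e i)]
  have sl : Summable fun i => (2 * ρ i) ^ 2 := by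
    have : (fun i => (2 * ρ i) ^ 2) = fun i => 4 * ρ i ^ 2 := by
      funext i
      ring
    rw [this]
    exact sρ.mul_left 4
  obtain ⟨χ, g, rad, hc, s0, hs0, hs⟩ := exists_cuts (c := c) (r := r) (l := fun i => 2 * ρ i)
    (d := e) hD.r0 (fun i => by have := ρ0 i; linarith) e0 hD.disj hD.sr sl hε
  refine ⟨s0, hs0, fun s hss hsr => ?_⟩
  obtain ⟨hAm, hAv, h, hm, h0, hA, h1, hi, h2, hsm⟩ := hs s hss
  -- the neighbourhoods
  have hN : ∀ i, ∃ N : Set ℂ, IsOpen N ∧ closedBall (c i) (r i) ⊆ N ∧ (∀ z ∈ N, χ i z = 1) ∧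
      (∀ z ∈ N, |v z - m i| ≤ ρ i) ∧ ∀ j, c j ∈ N → closedBall (c j) (r j) ⊆ N := by
    intro i
    obtain ⟨t, ht, -, ht1⟩ := hc.one i
    obtain ⟨N0, hN0, hN1, hN2⟩ := hD.near i (e i) (e0 i)
    have hcU := hD.comp i (c i) (mem_closedBall_self (hD.r0 i))
    obtain ⟨N, hNo, hNK, hNW, -, hsat⟩ := Ext_616.exists_sat_nhd hD.ext hcU.1
      (hN0.inter (isOpen_ball (x := c i) (ε := t))) (by
        rw [hcU.2]
        exact subset_inter hN1 (closedBall_subset_ball ht))
    rw [hcU.2] at hNK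
    refine ⟨N, hNo, hNK, fun z hz => ht1 z (ball_subset_closedBall (hNW hz).2),
      fun z hz => hN2 z (hNW hz).1, fun j hj => ?_⟩
    have hcj := hD.comp j (c j) (mem_closedBall_self (hD.r0 j))
    have := hsat (c j) hcj.1 hj
    rwa [hcj.2] at this
  choose N N1 N2 N3 N4 N5 using hN
  -- the treated components
  obtain ⟨T, hT⟩ := exists_skip en (fun i => i ∉ s) fun i j => closedBall (c i) (r i) ⊆ N j
  have htr : Tr U c r m ρ v χ s en T N :=
    { inj := hen
      sub := fun i hiT => ((hT i).1 hiT).1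
      op := N1
      mem := N2
      chi := N3
      win := N4
      sat := N5
      cov := fun i his => by
        by_cases hiT : i ∈ T
        · exact ⟨i, hiT, N2 i⟩
        · rw [hT i] at hiT
          push Not at hiT
          obtain ⟨j, hj, -, hij⟩ := hiT his
          exact ⟨j, hj, hij⟩
      skip := fun i hiT => ((hT i).1 hiT).2 }
  exact ⟨_, _, h, _, planOut_of hD hU0 hc se e0 e1 ρ0 sρ htr hAm hAv hm h0 hA h1 hi h2 hsm⟩

end Crest.Agent.R105.Pla_676
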