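import Crest.Agent.R105.Prod8_412

/-! Row 105, PROD (helper412), part 9: the sign kernel from order convexity of the classes. -/

open MeasureTheory Set Filter Topology
open scoped ContDiff

namespace Crest.Agent.R105.Prod_412

variable {A : Set (ℝ × ℝ → ℝ)} {D : (ℝ × ℝ → ℝ) → (ℝ × ℝ → ℝ)} {t0 t1 y0 y1 : ℝ}

/-- algebraic separation of two compact sets -/
theorem exists_sep {X : Type*} [TopologicalSpace X] {T : Set (X → ℝ)}
    (one : (1 : X → ℝ) ∈ T) (mul : ∀ f ∈ T, ∀ g ∈ T, f * g ∈ T)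
    (sub : ∀ f ∈ T, ∀ g ∈ T, f - g ∈ T) {K L : Set X} (hK : IsCompact K) (hL : IsCompact L)
    (h : ∀ x ∈ K, ∀ y ∈ L, ∃ ψ ∈ T, (∀ᶠ z in 𝓝[K] x, ψ z = 1) ∧ ∀ᶠ z in 𝓝[L] y, ψ z = 0) :
    ∃ κ ∈ T, (∀ x ∈ K, κ x = 1) ∧ ∀ y ∈ L, κ y = 0 := by
  have step1 : ∀ x ∈ K, ∃ ψ ∈ T, (∀ᶠ z in 𝓝[K] x, ψ z = 1) ∧ ∀ y ∈ L, ψ y = 0 := by
    intro x hx
    refine hL.induction_on (p := fun s => ∃ ψ ∈ T, (∀ᶠ z in 𝓝[K] x, ψ z = 1) ∧
      ∀ y ∈ s, ψ y = 0) ?_ ?_ ?_ ?_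
    · exact ⟨1, one, Eventually.of_forall fun z => rfl, fun y hy => absurd hy (notMem_empty y)⟩
    · rintro s t hst ⟨ψ, h1, h2, h3⟩
      exact ⟨ψ, h1, h2, fun y hy => h3 y (hst hy)⟩
    · rintro s t ⟨ψ, h1, h2, h3⟩ ⟨φ, g1, g2, g3⟩
      refine ⟨ψ * φ, mul _ h1 _ g1, ?_, ?_⟩
      · filter_upwards [h2, g2] with z a b
        rw [Pi.mul_apply, a, b, one_mul]
      · rintro y (hy | hy)
        · rw [Pi.mul_apply, h3 y hy, zero_mul]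
        · rw [Pi.mul_apply, g3 y hy, mul_zero]
    · intro y hy
      obtain ⟨ψ, h1, h2, h3⟩ := h x hx y hy
      exact ⟨{z | ψ z = 0}, h3, ψ, h1, h2, fun z hz => hz⟩
  refine hK.induction_on (p := fun s => ∃ κ ∈ T, (∀ x ∈ s, κ x = 1) ∧
      ∀ y ∈ L, κ y = 0) ?_ ?_ ?_ ?_
  · refine ⟨1 - 1, sub _ one _ one, fun y hy => absurd hy (notMem_empty y), fun y _ => by simp⟩
  · rintro s t hst ⟨ψ, h1, h2, h3⟩
    exact ⟨ψ, h1, fun y hy => h2 y (hst hy), h3⟩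
  · rintro s t ⟨ψ, h1, h2, h3⟩ ⟨φ, g1, g2, g3⟩
    refine ⟨1 - (1 - ψ) * (1 - φ), sub _ one _ (mul _ (sub _ one _ h1) _ (sub _ one _ g1)), ?_, ?_⟩
    · rintro x (hx | hx)
      · simp [h2 x hx]
      · simp [g2 x hx]
    · intro y hy
      simp [h3 y hy, g3 y hy]
  · intro x hx
    obtain ⟨ψ, h1, h2, h3⟩ := step1 x hx
    exact ⟨{z | ψ z = 1}, h2, ψ, h1, fun z hz => hz, h3⟩

/-- The classes of `A` are order convex on vertical lines: the sign kernel is a finite sum of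
products. -/
theorem signK_of_ord (h : Slab A D t0 t1 y0 y1)
    (comp : ∀ b ∈ A, ∀ τ : ℝ → ℝ, ContDiff ℝ ∞ τ → (∃ K, LipschitzWith K τ) →
      HasCompactSupport τ → (fun p => τ (b p)) ∈ A)
    (ord : ∀ t ∈ Icc t0 t1, ∀ s ∈ Icc t0 t1, ∀ y ∈ Icc y0 y1, ∀ y' ∈ Icc y0 y1,
      ∀ u ∈ Icc y0 y1, ∀ u' ∈ Icc y0 y1, y' < y → u < u' →
      (∀ b ∈ A, b (t, y) = b (s, u)) → (∀ b ∈ A, b (t, y') = b (s, u')) →
      ∀ b ∈ A, b (t, y) = b (t, y')) :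
    SignK A t0 t1 y0 y1 := by
  intro a ha d hd
  set e : ℝ × (ℝ × ℝ) → ℝ := fun p => a (p.1, p.2.1) - a (p.1, p.2.2) with he
  have hec : ContinuousOn e (box3 t0 t1 y0 y1) := (cont1 (h.cont a ha)).sub (cont2 (h.cont a ha))
  have hbc : IsClosed (box3 t0 t1 y0 y1) := (isCompact_box3 _ _ _ _).isClosed
  have hcl : IsClosed (box3 t0 t1 y0 y1 ∩ {p | d ≤ |e p|}) := by
    have := hec.abs.preimage_isClosed_of_isClosed hbc (isClosed_Ici (a := d))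
    exact this
  have hne : ∀ p : ℝ × (ℝ × ℝ), d ≤ |e p| → p.2.1 ≠ p.2.2 := by
    intro p hp heq
    have : e p = 0 := by simp only [he]; rw [heq]; ring
    rw [this, abs_zero] at hp
    linarith
  set K : Set (ℝ × (ℝ × ℝ)) := (box3 t0 t1 y0 y1 ∩ {p | d ≤ |e p|}) ∩ {p | p.2.2 ≤ p.2.1} with hKd
  set L : Set (ℝ × (ℝ × ℝ)) := (box3 t0 t1 y0 y1 ∩ {p | d ≤ |e p|}) ∩ {p | p.2.1 ≤ p.2.2} with hLd
  have hK : IsCompact K := by
    refine (isCompact_box3 t0 t1 y0 y1).of_isClosed_subset ?_ (fun p hp => hp.1.1)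
    exact hcl.inter (isClosed_le (by fun_prop) (by fun_prop))
  have hL : IsCompact L := by
    refine (isCompact_box3 t0 t1 y0 y1).of_isClosed_subset ?_ (fun p hp => hp.1.1)
    exact hcl.inter (isClosed_le (by fun_prop) (by fun_prop))
  -- separation of one pair by one function of one variable
  have hbump : ∀ b ∈ A, ∀ m : ℝ × (ℝ × ℝ) → ℝ × ℝ, Continuous m →
      (∀ p ∈ box3 t0 t1 y0 y1, m p ∈ Icc t0 t1 ×ˢ Icc y0 y1) →
      (∀ c ∈ A, (fun p => c (m p)) ∈ TT A) →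
      ∀ p ∈ K, ∀ q ∈ L, b (m p) ≠ b (m q) →
      ∃ ψ ∈ (TT A : Set (ℝ × (ℝ × ℝ) → ℝ)), (∀ᶠ z in 𝓝[K] p, ψ z = 1) ∧
        ∀ᶠ z in 𝓝[L] q, ψ z = 0 := by
    intro b hb m hm hmb hmT p hp q hq hbpq
    have hδ : 0 < |b (m p) - b (m q)| := abs_pos.mpr (sub_ne_zero.mpr hbpq)
    set δ := |b (m p) - b (m q)| with hδd
    let f : ContDiffBump (b (m p)) := ⟨δ / 4, δ / 2, by positivity, by linarith⟩
    have hfs : ContDiff ℝ ∞ (f : ℝ → ℝ) := f.contDiff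
    have hfc : HasCompactSupport (f : ℝ → ℝ) := f.hasCompactSupport
    have hfl : ∃ C, LipschitzWith C (f : ℝ → ℝ) :=
      ContDiff.lipschitzWith_of_hasCompactSupport hfc hfs (by simp)
    refine ⟨fun z => f (b (m z)), hmT _ (comp b hb f hfs hfl hfc), ?_, ?_⟩
    · have hc : ContinuousWithinAt (fun z => b (m z)) K p := by
        have : ContinuousOn (fun z => b (m z)) (box3 t0 t1 y0 y1) :=
          (h.cont b hb).comp hm.continuousOn hmb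
        exact (this p hp.1.1).mono (fun z hz => hz.1.1)
      have := hc (Metric.closedBall_mem_nhds (b (m p)) (show 0 < δ / 4 by positivity))
      filter_upwards [this] with z hz
      exact f.one_of_mem_closedBall hz
    · have hc : ContinuousWithinAt (fun z => b (m z)) L q := by
        have : ContinuousOn (fun z => b (m z)) (box3 t0 t1 y0 y1) :=
          (h.cont b hb).comp hm.continuousOn hmb
        exact (this q hq.1.1).mono (fun z hz => hz.1.1)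
      have := hc (Metric.ball_mem_nhds (b (m q)) (show 0 < δ / 2 by positivity))
      filter_upwards [this] with z hz
      apply f.zero_of_le_dist
      have h1 : dist (b (m z)) (b (m q)) < δ / 2 := hz
      have h2 : δ = dist (b (m p)) (b (m q)) := by rw [hδd, Real.dist_eq]
      have h3 := dist_triangle (b (m p)) (b (m z)) (b (m q))
      show δ / 2 ≤ dist (b (m z)) (b (m p))
      rw [dist_comm (b (m z)) (b (m p))]
      linarith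
  have hpair : ∀ p ∈ K, ∀ q ∈ L, ∃ ψ ∈ (TT A : Set (ℝ × (ℝ × ℝ) → ℝ)),
      (∀ᶠ z in 𝓝[K] p, ψ z = 1) ∧ ∀ᶠ z in 𝓝[L] q, ψ z = 0 := by
    intro p hp q hq
    by_cases c1 : ∃ b ∈ A, b (p.1, p.2.1) ≠ b (q.1, q.2.1)
    · obtain ⟨b, hb, hne1⟩ := c1
      exact hbump b hb (fun p => (p.1, p.2.1)) (by fun_prop) (fun p hp => ⟨hp.1, hp.2.1⟩)
        (fun c hc => TT_fst h hc) p hp q hq hne1
    by_cases c2 : ∃ b ∈ A, b (p.1, p.2.2) ≠ b (q.1, q.2.2)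
    · obtain ⟨b, hb, hne1⟩ := c2
      exact hbump b hb (fun p => (p.1, p.2.2)) (by fun_prop) (fun p hp => ⟨hp.1, hp.2.2⟩)
        (fun c hc => TT_snd h hc) p hp q hq hne1
    exfalso
    push Not at c1 c2
    have l1 : p.2.2 < p.2.1 := lt_of_le_of_ne hp.2 (hne p hp.1.2).symm
    have l2 : q.2.1 < q.2.2 := lt_of_le_of_ne hq.2 (hne q hq.1.2)
    have := ord p.1 hp.1.1.1 q.1 hq.1.1.1 p.2.1 hp.1.1.2.1 p.2.2 hp.1.1.2.2 q.2.1 hq.1.1.2.1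
      q.2.2 hq.1.1.2.2 l1 l2 c1 c2 a ha
    have h0 : e p = 0 := by simp only [he]; rw [this]; ring
    have h1 : d ≤ |e p| := hp.1.2
    rw [h0, abs_zero] at h1
    linarith
  obtain ⟨κ, hκ, h1, h2⟩ := exists_sep (T := (TT A : Set (ℝ × (ℝ × ℝ) → ℝ))) (TT_const h 1)
    (fun f hf g hg => TT_mul h hf hg) (fun f hf g hg => sub_mem hf hg) hK hL hpair
  refine ⟨(2 : ℝ) • κ - fun _ => 1, sub_mem (Submodule.smul_mem _ _ hκ) (TT_const h 1), ?_⟩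
  intro t ht y hy y' hy' hdd
  have hbox : (t, (y, y')) ∈ box3 t0 t1 y0 y1 := ⟨ht, hy, hy'⟩
  simp only [Pi.sub_apply, Pi.smul_apply, smul_eq_mul]
  rcases lt_trichotomy y' y with hlt | heq | hlt
  · rw [h1 (t, (y, y')) ⟨⟨hbox, hdd⟩, hlt.le⟩]
    simp [sg, hlt]
    norm_num
  · exact absurd heq.symm (hne (t, (y, y')) hdd)
  · rw [h2 (t, (y, y')) ⟨⟨hbox, hdd⟩, hlt.le⟩]
    simp [sg, hlt, hlt.not_gt]

/-- order convexity from convex fibres of a map `π` -/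
theorem ord_of_convex {S : Type*} (π : ℝ × ℝ → S)
    (hA : ∀ b ∈ A, ∀ p q : ℝ × ℝ, π p = π q → b p = b q)
    (sep : ∀ p ∈ Icc t0 t1 ×ˢ Icc y0 y1, ∀ q ∈ Icc t0 t1 ×ˢ Icc y0 y1,
      (∀ b ∈ A, b p = b q) → π p = π q)
    (fib : ∀ p q : ℝ × ℝ, π p = π q → ∀ r ∈ segment ℝ p q, π r = π p) :
    ∀ t ∈ Icc t0 t1, ∀ s ∈ Icc t0 t1, ∀ y ∈ Icc y0 y1, ∀ y' ∈ Icc y0 y1,
      ∀ u ∈ Icc y0 y1, ∀ u' ∈ Icc y0 y1, y' < y → u < u' →
      (∀ b ∈ A, b (t, y) = b (s, u)) → (∀ b ∈ A, b (t, y') = b (s, u')) →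
      ∀ b ∈ A, b (t, y) = b (t, y') := by
  intro t ht s hs y hy y' hy' u hu u' hu' l1 l2 e1 e2 b hb
  have p1 : π (t, y) = π (s, u) := sep _ ⟨ht, hy⟩ _ ⟨hs, hu⟩ e1
  have p2 : π (t, y') = π (s, u') := sep _ ⟨ht, hy'⟩ _ ⟨hs, hu'⟩ e2
  -- the crossing point
  set c : ℝ := (y - y') / ((y - y') + (u' - u)) with hc
  have hden : 0 < (y - y') + (u' - u) := by linarith
  have hc0 : 0 ≤ c := div_nonneg (by linarith) hden.le
  have hc1 : c ≤ 1 := by rw [hc, div_le_one hden]; linarith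
  set r : ℝ × ℝ := ((1 - c) * t + c * s, (1 - c) * y + c * u) with hr
  have hcr : (1 - c) * y + c * u = (1 - c) * y' + c * u' := by
    rw [hc]
    field_simp
    ring
  have r1 : r ∈ segment ℝ ((t, y) : ℝ × ℝ) (s, u) :=
    ⟨1 - c, c, by linarith, hc0, by ring, by simp [hr]⟩
  have r2 : r ∈ segment ℝ ((t, y') : ℝ × ℝ) (s, u') :=
    ⟨1 - c, c, by linarith, hc0, by ring, by simp [hr, hcr]⟩
  have := (fib _ _ p1 r r1).symm.trans (fib _ _ p2 r r2)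
  exact hA b hb _ _ this

/-- FINAL FORM: planarity from `el` and convex fibres -/
theorem acl_of_fibres (h : Slab A D t0 t1 y0 y1) (hy : y0 ≤ y1)
    (comp : ∀ b ∈ A, ∀ τ : ℝ → ℝ, ContDiff ℝ ∞ τ → (∃ K, LipschitzWith K τ) →
      HasCompactSupport τ → (fun p => τ (b p)) ∈ A)
    {S : Type*} (π : ℝ × ℝ → S)
    (hA : ∀ b ∈ A, ∀ p q : ℝ × ℝ, π p = π q → b p = b q)
    (sep : ∀ p ∈ Icc t0 t1 ×ˢ Icc y0 y1, ∀ q ∈ Icc t0 t1 ×ˢ Icc y0 y1,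
      (∀ b ∈ A, b p = b q) → π p = π q)
    (fib : ∀ p q : ℝ × ℝ, π p = π q → ∀ r ∈ segment ℝ p q, π r = π p)
    {a : ℝ × ℝ → ℝ} (ha : a ∈ A) :
    ∀ᵐ y ∂((volume : Measure ℝ).restrict (Icc y0 y1)),
      IntegrableOn (fun s => D a (s, y)) (Icc t0 t1) ∧
      ∀ t ∈ Icc t0 t1, ∀ t' ∈ Icc t0 t1, a (t', y) - a (t, y) = ∫ s in t..t', D a (s, y) :=
  acl h hy (signK_of_ord h comp (ord_of_convex π hA sep fib)) ha

end Crest.Agent.R105.Prod_412
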