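import Crest.Agent.R105.Pln0_868
import Crest.Agent.R105.Prod9_412
import Crest.Agent.R105.Thin1_12

/-! Row 105 (helper412): `PicAlg` (868) ⟹ horizontal absolute continuity, part 1: cut-offs,
the classes of `A`, order. -/

open MeasureTheory Set Filter Topology
open scoped ContDiff NNReal

namespace Crest.Agent.R105.Plh_412

open Pln_868 CF_363

/-- Lipschitz cut-off between a compact and a closed set -/
theorem exists_cutoff {K L : Set (ℝ × ℝ)} (hK : IsCompact K) (hL : IsClosed L)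
    (hd : Disjoint K L) : ∃ κ : ℝ × ℝ → ℝ, (∃ C, LipschitzWith C κ) ∧ HasCompactSupport κ ∧
      (∀ p, 0 ≤ κ p ∧ κ p ≤ 1) ∧ (∃ U, IsOpen U ∧ K ⊆ U ∧ ∀ p ∈ U, κ p = 1) ∧
      ∃ V, IsOpen V ∧ L ⊆ V ∧ ∀ p ∈ V, κ p = 0 := by
  rcases K.eq_empty_or_nonempty with rfl | hne
  · refine ⟨fun _ => 0, ⟨0, LipschitzWith.const 0⟩, HasCompactSupport.zero,
      fun p => ⟨le_rfl, zero_le_one⟩, ⟨∅, isOpen_empty, Subset.rfl, by simp⟩,
      ⟨univ, isOpen_univ, subset_univ _, fun p _ => rfl⟩⟩
  obtain ⟨δ, hδ, hdis⟩ := hd.exists_thickenings hK hL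
  set κ : ℝ × ℝ → ℝ := fun p => max 0 (min 1 (2 - 3 / δ * Metric.infDist p K)) with hκ
  have hlip : LipschitzWith (Real.toNNReal (3 / δ)) κ := by
    have h0 : LipschitzWith 1 (fun p : ℝ × ℝ => Metric.infDist p K) := Metric.lipschitz_infDist_pt K
    have h1 : LipschitzWith (Real.toNNReal (3 / δ)) (fun x : ℝ => 2 - 3 / δ * x) := by
      apply LipschitzWith.of_dist_le_mul
      intro x y
      rw [Real.dist_eq, Real.dist_eq, Real.coe_toNNReal _ (by positivity),
        show 2 - 3 / δ * x - (2 - 3 / δ * y) = 3 / δ * (y - x) by ring, abs_mul,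
        abs_of_pos (show 0 < 3 / δ by positivity), abs_sub_comm]
    have h2 := (h1.comp h0)
    rw [mul_one] at h2
    exact (h2.const_min 1).const_max 0
  have hout : ∀ p, 2 * δ / 3 ≤ Metric.infDist p K → κ p = 0 := by
    intro p hp
    simp only [hκ]
    have : 2 - 3 / δ * Metric.infDist p K ≤ 0 := by
      have h1 : 3 / δ * (2 * δ / 3) = 2 := by field_simp
      have h2 : 3 / δ * (2 * δ / 3) ≤ 3 / δ * Metric.infDist p K :=
        mul_le_mul_of_nonneg_left hp (by positivity)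
      linarith
    rw [max_eq_left]
    exact (min_le_right _ _).trans this
  refine ⟨κ, ⟨_, hlip⟩, ?_, ?_, ⟨{p | Metric.infDist p K < δ / 3}, ?_, ?_, ?_⟩,
    ⟨{p | 2 * δ / 3 < Metric.infDist p K}, ?_, ?_, ?_⟩⟩
  · apply HasCompactSupport.of_support_subset_isCompact
      (K := Metric.cthickening δ K) (hK.cthickening)
    intro p hp
    by_contra hnot
    apply hp
    apply hout
    have h1 : p ∉ Metric.thickening δ K := fun h1 =>
      hnot (Metric.thickening_subset_cthickening δ K h1)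
    rw [Metric.mem_thickening_iff_infDist_lt hne] at h1
    push Not at h1
    linarith
  · intro p
    exact ⟨le_max_left _ _, max_le zero_le_one (min_le_left _ _)⟩
  · exact isOpen_lt (Metric.continuous_infDist_pt K) continuous_const
  · intro p hp
    have : Metric.infDist p K = 0 := Metric.infDist_zero_of_mem hp
    simp only [mem_ofPred_eq, this]
    positivity
  · intro p hp
    simp only [hκ]
    have h1 : 1 ≤ 2 - 3 / δ * Metric.infDist p K := by
      have h1 : 3 / δ * (δ / 3) = 1 := by field_simp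
      have h2 : 3 / δ * Metric.infDist p K ≤ 3 / δ * (δ / 3) :=
        mul_le_mul_of_nonneg_left (le_of_lt hp) (by positivity)
      linarith
    rw [min_eq_left h1, max_eq_right zero_le_one]
  · exact isOpen_lt continuous_const (Metric.continuous_infDist_pt K)
  · intro p hp
    have h1 : p ∉ Metric.thickening δ K := fun h =>
      (Set.disjoint_left.mp hdis h) (Metric.self_subset_thickening hδ L hp)
    rw [Metric.mem_thickening_iff_infDist_lt hne] at h1
    push Not at h1
    simp only [mem_ofPred_eq]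
    linarith
  · intro p hp
    exact hout p (le_of_lt hp)

/-- the class relation -/
def Cl (E : Set (ℝ × ℝ)) (p q : ℝ × ℝ) : Prop := p = q ∨ (p ∈ E ∧ q ∈ connectedComponentIn E p)

variable {E : Set (ℝ × ℝ)} {A : (ℝ × ℝ → ℝ) → Prop}

theorem cl_eq (h : PicAlg E A) {a : ℝ × ℝ → ℝ} (ha : A a) {p q : ℝ × ℝ} (hpq : Cl E p q) :
    a q = a p := by
  rcases hpq with rfl | ⟨hp, hq⟩
  · rfl
  · exact h.cst a ha p hp q hq

/-- a cut-off gives a function of `A` -/
theorem cut_mem (h : PicAlg E A) {κ : ℝ × ℝ → ℝ} (hκ : Cut E κ) : A κ := by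
  have := h.cut κ hκ (fun _ => 1) ⟨0, LipschitzWith.const 1⟩
  simpa using this

/-- a point off `E` is separated from every other point -/
theorem sep_out (h : PicAlg E A) {p q : ℝ × ℝ} (hp : p ∉ E) (hne : p ≠ q) :
    ∃ b, A b ∧ b p ≠ b q := by
  obtain ⟨κ, ⟨C, hC⟩, hcs, -, ⟨U, hU, hKU, h1⟩, ⟨V, hV, hLV, h0⟩⟩ :=
    exists_cutoff (K := {p}) (L := E ∪ {q}) isCompact_singleton
      (h.cpt.isClosed.union isClosed_singleton) (by
        rw [Set.disjoint_singleton_left]
        rintro (h1 | h1)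
        · exact hp h1
        · exact hne h1)
  refine ⟨κ, cut_mem h ⟨⟨C, hC⟩, hcs, ?_⟩, ?_⟩
  · intro r hr
    filter_upwards [hV.mem_nhds (hLV (Or.inl hr))] with s hs
    rw [h0 s hs, h0 r (hLV (Or.inl hr))]
  · rw [h1 p (hKU rfl), h0 q (hLV (Or.inr rfl))]
    norm_num

/-- `A` separates the classes -/
theorem sepA (h : PicAlg E A) {p q : ℝ × ℝ} (hpq : ∀ b, A b → b p = b q) : Cl E p q := by
  by_contra hcl
  have hcl' := not_or.mp hcl
  have hne : p ≠ q := hcl'.1
  by_cases hp : p ∈ E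
  swap
  · obtain ⟨b, hb, hb2⟩ := sep_out h hp hne
    exact hb2 (hpq b hb)
  by_cases hq : q ∈ E
  swap
  · obtain ⟨b, hb, hb2⟩ := sep_out h hq hne.symm
    exact hb2 (hpq b hb).symm
  have hqc : q ∉ connectedComponentIn E p := fun h1 => hcl'.2 ⟨hp, h1⟩
  obtain ⟨K1, k1, k2, k3, k4, k5⟩ := Thin_12.exists_clopen h.cpt hp
    (W := ({q} : Set (ℝ × ℝ))ᶜ) isClosed_singleton.isOpen_compl
    (fun r hr hrq => hqc (by rw [mem_singleton_iff] at hrq; rw [← hrq]; exact hr))
  have hqK : q ∈ E \ K1 := ⟨hq, fun h1 => k5 h1 rfl⟩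
  obtain ⟨κ, ⟨C, hC⟩, hcs, -, ⟨U, hU, hKU, h1⟩, ⟨V, hV, hLV, h0⟩⟩ :=
    exists_cutoff (K := K1) (L := E \ K1) k1 k2.isClosed (disjoint_sdiff_right)
  have hcut : Cut E κ := by
    refine ⟨⟨C, hC⟩, hcs, ?_⟩
    intro r hr
    by_cases hrK : r ∈ K1
    · filter_upwards [hU.mem_nhds (hKU hrK)] with s hs
      rw [h1 s hs, h1 r (hKU hrK)]
    · filter_upwards [hV.mem_nhds (hLV ⟨hr, hrK⟩)] with s hs
      rw [h0 s hs, h0 r (hLV ⟨hr, hrK⟩)]
  have := hpq κ (cut_mem h hcut)
  rw [h1 p (hKU (k4 (mem_connectedComponentIn hp))), h0 q (hLV hqK)] at this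
  norm_num at this

/-- the classes are vertical segments -/
theorem cl_segment (h : PicAlg E A) {p q : ℝ × ℝ} (hpq : Cl E p q) :
    ∀ r ∈ segment ℝ p q, Cl E p r := by
  rcases hpq with rfl | ⟨hp, hq⟩
  · intro r hr
    rw [segment_same, mem_singleton_iff] at hr
    exact Or.inl hr.symm
  · rintro r ⟨a, b, ha, hb, hab, rfl⟩
    right
    refine ⟨hp, ?_⟩
    have hq1 : q.1 = p.1 := h.vert p hp q hq
    have hpc : p ∈ connectedComponentIn E p := mem_connectedComponentIn hp
    have himg : IsPreconnected (Prod.snd '' connectedComponentIn E p) :=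
      isPreconnected_connectedComponentIn.image _ continuous_snd.continuousOn
    have hord := himg.ordConnected
    have hmem : a * p.2 + b * q.2 ∈ Prod.snd '' connectedComponentIn E p := by
      have h1 : p.2 ∈ Prod.snd '' connectedComponentIn E p := ⟨p, hpc, rfl⟩
      have h2 : q.2 ∈ Prod.snd '' connectedComponentIn E p := ⟨q, hq, rfl⟩
      have h3 := hord.uIcc_subset h1 h2
      apply h3
      have h4 : a * p.2 + b * q.2 ∈ segment ℝ p.2 q.2 := ⟨a, b, ha, hb, hab, by simp⟩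
      rwa [segment_eq_uIcc] at h4
    obtain ⟨r', hr', hr2⟩ := hmem
    have hr1 : r'.1 = p.1 := h.vert p hp r' hr'
    have : r' = a • p + b • q := by
      ext
      · simp only [Prod.fst_add, Prod.smul_fst, smul_eq_mul]
        rw [hr1, hq1, ← add_mul, hab, one_mul]
      · simp only [Prod.snd_add, Prod.smul_snd, smul_eq_mul]
        exact hr2
    rw [← this]
    exact hr'

/-- order convexity -/
theorem ordA (h : PicAlg E A) (t s y y' u u' : ℝ) (l1 : y' < y) (l2 : u < u')
    (e1 : ∀ b, A b → b (t, y) = b (s, u)) (e2 : ∀ b, A b → b (t, y') = b (s, u')) :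
    ∀ b, A b → b (t, y) = b (t, y') := by
  intro b hb
  have p1 : Cl E (t, y) (s, u) := sepA h e1
  have p2 : Cl E (t, y') (s, u') := sepA h e2
  set c : ℝ := (y - y') / ((y - y') + (u' - u)) with hc
  have hden : 0 < (y - y') + (u' - u) := by linarith
  have hc0 : 0 ≤ c := div_nonneg (by linarith) hden.le
  have hc1 : c ≤ 1 := by rw [hc, div_le_one hden]; linarith
  set r : ℝ × ℝ := ((1 - c) * t + c * s, (1 - c) * y + c * u) with hr
  have hcr : (1 - c) * y + c * u = (1 - c) * y' + c * u' := by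
    rw [hc]
    field_simp
    ring
  have r1 : r ∈ segment ℝ ((t, y) : ℝ × ℝ) (s, u) :=
    ⟨1 - c, c, by linarith, hc0, by ring, by simp [hr]⟩
  have r2 : r ∈ segment ℝ ((t, y') : ℝ × ℝ) (s, u') :=
    ⟨1 - c, c, by linarith, hc0, by ring, by simp [hr, hcr]⟩
  rw [← cl_eq h hb (cl_segment h p1 r r1), ← cl_eq h hb (cl_segment h p2 r r2)]

/-- SEPC (literal of 868 #9943) -/
theorem sepc (h : PicAlg E A) {p q : ℝ × ℝ} (hne : p ≠ q)
    (hor : q ∉ connectedComponentIn E p ∨ p ∉ E) : ∃ a, A a ∧ a p ≠ a q := by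
  by_contra hcon
  push Not at hcon
  rcases sepA h hcon with h1 | ⟨h1, h2⟩
  · exact hne h1
  · rcases hor with h3 | h3
    · exact h3 h2
    · exact h3 h1

theorem segc (h : PicAlg E A) {p q r : ℝ × ℝ} (hp : p ∈ E) (hq : q ∈ connectedComponentIn E p)
    (hr : r ∈ segment ℝ p q) : r ∈ connectedComponentIn E p := by
  rcases cl_segment h (Or.inr ⟨hp, hq⟩) r hr with h1 | ⟨_, h2⟩
  · rw [← h1]; exact mem_connectedComponentIn hp
  · exact h2

end Crest.Agent.R105.Plh_412
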