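import Crest.Agent.R105.Plh1_412

/-! Row 105 (helper412): `PicAlg` (868) + Stokes on slabs ⟹ horizontal absolute continuity. -/

open MeasureTheory Set Filter Topology
open scoped ContDiff NNReal

namespace Crest.Agent.R105.Plh_412

open Pln_868 CF_363

variable {E : Set (ℝ × ℝ)} {A : (ℝ × ℝ → ℝ) → Prop}

/-- Rademacher for locally Lipschitz functions on an open set of the plane. -/
theorem ae_diff {V : Set (ℝ × ℝ)} (hV : IsOpen V) {u : ℝ × ℝ → ℝ}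
    (hu : LocallyLipschitzOn V u) : ∀ᵐ z ∂(volume.restrict V), DifferentiableAt ℝ u z := by
  rw [ae_restrict_iff' hV.measurableSet]
  have h1 : ∀ z : V, ∃ r > 0, Metric.ball (z : ℝ × ℝ) r ⊆ V ∧
      ∃ K, LipschitzOnWith K u (Metric.ball (z : ℝ × ℝ) r) := by
    rintro ⟨z, hz⟩
    obtain ⟨K, t, ht, hK⟩ := hu hz
    rw [mem_nhdsWithin_iff_exists_mem_nhds_inter] at ht
    obtain ⟨s, hs, hst⟩ := ht
    obtain ⟨r, hr, hb⟩ := Metric.mem_nhds_iff.1 (inter_mem hs (hV.mem_nhds hz))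
    exact ⟨r, hr, fun x hx => (hb hx).2, K, hK.mono fun x hx => hst (hb hx)⟩
  choose r hr hrV K hK using h1
  obtain ⟨T, hT, hTV⟩ := TopologicalSpace.isOpen_iUnion_countable
    (fun z : V => Metric.ball (z : ℝ × ℝ) (r z)) (fun _ => Metric.isOpen_ball)
  have h2 : ∀ z ∈ T, ∀ᵐ x : ℝ × ℝ, x ∈ Metric.ball (z : ℝ × ℝ) (r z) →
      DifferentiableAt ℝ u x := by
    intro z _
    filter_upwards [(hK z).ae_differentiableWithinAt_of_mem (μ := volume)] with x hx hxb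
    exact (hx hxb).differentiableAt (Metric.isOpen_ball.mem_nhds hxb)
  have h3 := (ae_ball_iff hT).2 h2
  filter_upwards [h3] with x hx hxV
  have : x ∈ ⋃ z : V, Metric.ball (z : ℝ × ℝ) (r z) :=
    mem_iUnion.2 ⟨⟨x, hxV⟩, Metric.mem_ball_self (hr _)⟩
  rw [← hTV] at this
  simp only [mem_iUnion] at this
  obtain ⟨z, hzT, hxz⟩ := this
  exact hx z hzT hxz

theorem ae_notMem (h : PicAlg E A) : ∀ᵐ p : ℝ × ℝ, p ∉ E :=
  measure_eq_zero_iff_ae_notMem.mp h.null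

theorem ae_diff' (h : PicAlg E A) {a : ℝ × ℝ → ℝ} (ha : A a) :
    ∀ᵐ p : ℝ × ℝ, DifferentiableAt ℝ a p := by
  have h1 := ae_diff h.cpt.isClosed.isOpen_compl (h.loc a ha)
  rw [ae_restrict_iff' h.cpt.isClosed.isOpen_compl.measurableSet] at h1
  filter_upwards [h1, ae_notMem h] with p h2 h3
  exact h2 h3

theorem int_gx (h : PicAlg E A) {a : ℝ × ℝ → ℝ} (ha : A a) {K : Set (ℝ × ℝ)}
    (hK : IsCompact K) : IntegrableOn (gx a) K := by
  have h1 : IntegrableOn (fun p => 1 + g2 a p) (K ∩ Eᶜ) := by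
    apply Integrable.add
    · have : IntegrableOn (fun _ : ℝ × ℝ => (1 : ℝ)) K :=
        integrableOn_const hK.measure_ne_top
      exact this.mono_set inter_subset_left
    · exact (h.fin a ha).mono_set inter_subset_right
  have h2 : IntegrableOn (gx a) (K ∩ Eᶜ) := by
    refine h1.mono' (measurable_gx a).aestronglyMeasurable (ae_of_all _ fun p => ?_)
    rw [Real.norm_eq_abs]
    have h3 : g2 a p = gx a p ^ 2 + gy a p ^ 2 := rfl
    have h4 : |gx a p| ≤ 1 + gx a p ^ 2 := by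
      rcases abs_cases (gx a p) with ⟨h5, _⟩ | ⟨h5, _⟩ <;> nlinarith [sq_nonneg (gx a p - 1), sq_nonneg (gx a p + 1)]
    nlinarith [sq_nonneg (gy a p)]
  have h5 : IntegrableOn (gx a) (K ∩ E) := by
    rw [IntegrableOn, Measure.restrict_eq_zero.mpr (measure_mono_null inter_subset_right h.null)]
    exact integrable_zero_measure
  have := h2.union h5
  rwa [← inter_union_distrib_left, compl_union_self, inter_univ] at this

/-- Stokes on slabs, the literal of 868 #9943 -/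
def StP (E : Set (ℝ × ℝ)) (A : (ℝ × ℝ → ℝ) → Prop) : Prop :=
  ∀ a, A a → ∀ s t c0 c1 : ℝ, s ≤ t → (∀ p ∈ E, c0 < p.2 ∧ p.2 < c1) →
    (∫ y in c0..c1, a (t, y)) - (∫ y in c0..c1, a (s, y)) =
      ∫ x in s..t, ∫ y in c0..c1, gx a (x, y)

theorem slabA (h : PicAlg E A) (hst : StP E A) {t0 t1 c0 c1 : ℝ}
    (hE : ∀ p ∈ E, c0 < p.2 ∧ p.2 < c1) :
    Prod_412.Slab {a | A a} gx t0 t1 c0 c1 where
  const := h.const
  add := fun a ha b hb => h.add a b ha hb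
  mul := fun a ha b hb => h.mul a b ha hb
  cont := fun a ha => (h.cont a ha).continuousOn
  int := fun a ha => int_gx h ha (isCompact_Icc.prod isCompact_Icc)
  der := by
    intro a ha
    apply ae_restrict_of_ae
    filter_upwards [ae_diff' h ha] with p hp
    exact gx_eq_deriv (x := p.1) (y := p.2) hp
  el := fun a ha t _ t' _ htt => hst a ha t t' c0 c1 htt hE

/-- **Horizontal absolute continuity.** -/
theorem hor_of_stokes (h : PicAlg E A) (hst : StP E A) {a : ℝ × ℝ → ℝ} (ha : A a) :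
    ∀ᵐ y : ℝ, ∀ s t : ℝ, IntervalIntegrable (fun x => gx a (x, y)) volume s t ∧
      a (t, y) - a (s, y) = ∫ x in s..t, gx a (x, y) := by
  obtain ⟨n0, hn0⟩ : ∃ n0 : ℕ, ∀ p ∈ E, -(n0 : ℝ) < p.2 ∧ p.2 < n0 := by
    obtain ⟨M, hM⟩ := h.cpt.isBounded.exists_norm_le
    obtain ⟨n, hn⟩ := exists_nat_gt M
    refine ⟨n, fun p hp => ?_⟩
    have h1 : |p.2| ≤ M := (norm_snd_le p).trans (hM p hp)
    exact abs_lt.mp (h1.trans_lt hn)
  have hbox : ∀ n : ℕ, ∀ᵐ y : ℝ, y ∈ Icc (-((n + n0 : ℕ) : ℝ)) ((n + n0 : ℕ) : ℝ) →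
      IntegrableOn (fun s => gx a (s, y)) (Icc (-((n + n0 : ℕ) : ℝ)) ((n + n0 : ℕ) : ℝ)) ∧
      ∀ t ∈ Icc (-((n + n0 : ℕ) : ℝ)) ((n + n0 : ℕ) : ℝ),
      ∀ t' ∈ Icc (-((n + n0 : ℕ) : ℝ)) ((n + n0 : ℕ) : ℝ),
        a (t', y) - a (t, y) = ∫ s in t..t', gx a (s, y) := by
    intro n
    have hle : (n0 : ℝ) ≤ ((n + n0 : ℕ) : ℝ) := by push_cast; linarith [(n.cast_nonneg : (0 : ℝ) ≤ n)]
    have hE : ∀ p ∈ E, -((n + n0 : ℕ) : ℝ) < p.2 ∧ p.2 < ((n + n0 : ℕ) : ℝ) := fun p hp =>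
      ⟨by linarith [(hn0 p hp).1], by linarith [(hn0 p hp).2]⟩
    have hS := slabA h hst (t0 := -((n + n0 : ℕ) : ℝ)) (t1 := ((n + n0 : ℕ) : ℝ)) hE
    have hle2 : -((n + n0 : ℕ) : ℝ) ≤ ((n + n0 : ℕ) : ℝ) := by
      have : (0 : ℝ) ≤ ((n + n0 : ℕ) : ℝ) := Nat.cast_nonneg _
      linarith
    have hK := Prod_412.signK_of_ord hS (fun b hb τ _ hτ _ => h.comp τ hτ b hb)
      (fun t _ s _ y _ y' _ u _ u' _ l1 l2 e1 e2 b hb =>
        ordA h t s y y' u u' l1 l2 (fun b hb => e1 b hb) (fun b hb => e2 b hb) b hb)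
    have := Prod_412.acl hS hle2 hK ha
    rwa [Prod_412.leb, ae_restrict_iff' measurableSet_Icc] at this
  rw [← ae_all_iff] at hbox
  filter_upwards [hbox] with y hy s t
  obtain ⟨n, hn⟩ := exists_nat_gt (max |y| (max |s| |t|))
  have hnn : (n : ℝ) ≤ ((n + n0 : ℕ) : ℝ) := by push_cast; linarith [(n0.cast_nonneg : (0 : ℝ) ≤ n0)]
  have hy1 : |y| ≤ ((n + n0 : ℕ) : ℝ) := ((le_max_left _ _).trans hn.le).trans hnn
  have hs1 : |s| ≤ ((n + n0 : ℕ) : ℝ) :=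
    (((le_max_left _ _).trans (le_max_right _ _)).trans hn.le).trans hnn
  have ht1 : |t| ≤ ((n + n0 : ℕ) : ℝ) :=
    (((le_max_right _ _).trans (le_max_right _ _)).trans hn.le).trans hnn
  obtain ⟨h1, h2⟩ := hy n (abs_le.mp hy1)
  refine ⟨?_, h2 s (abs_le.mp hs1) t (abs_le.mp ht1)⟩
  rw [intervalIntegrable_iff]
  apply h1.mono_set
  refine uIoc_subset_uIcc.trans ?_
  exact (ordConnected_Icc (a := -((n + n0 : ℕ) : ℝ)) (b := ((n + n0 : ℕ) : ℝ))).uIcc_subset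
    (abs_le.mp hs1) (abs_le.mp ht1)

end Crest.Agent.R105.Plh_412
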