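import Crest.Agent.R105.Pln0_868

/-!
# Row 105, PLANP: tools (locally Lipschitz functions on an open set, FTC on lines, trapezoids)
-/

namespace Crest.Agent.R105.Pln_868

open Set Filter MeasureTheory Topology
open CF_363
open scoped NNReal ENNReal

noncomputable section

/-- Rademacher on an open set of the plane -/
theorem ae_diff {V : Set (ℝ × ℝ)} (hV : IsOpen V) {u : ℝ × ℝ → ℝ}
    (hu : LocallyLipschitzOn V u) : ∀ᵐ z : ℝ × ℝ, z ∈ V → DifferentiableAt ℝ u z := by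
  have h1 : ∀ z : V, ∃ r > 0, Metric.ball (z : ℝ × ℝ) r ⊆ V ∧
      ∃ K, LipschitzOnWith K u (Metric.ball (z : ℝ × ℝ) r) := by
    rintro ⟨z, hz⟩
    obtain ⟨K, t, ht, hK⟩ := hu hz
    rw [mem_nhdsWithin_iff_exists_mem_nhds_inter] at ht
    obtain ⟨s, hs, hst⟩ := ht
    obtain ⟨r, hr, hb⟩ := Metric.mem_nhds_iff.1 (inter_mem hs (hV.mem_nhds hz))
    exact ⟨r, hr, fun x hx => (hb hx).2, K, hK.mono fun x hx => hst (hb hx)⟩
  choose r hr hrV K hK using h1
  obtain ⟨T, hT, hTV⟩ := TopologicalSpace.isOpen_iUnion_countable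
    (fun z : V => Metric.ball (z : ℝ × ℝ) (r z)) (fun _ => Metric.isOpen_ball)
  have h2 : ∀ z ∈ T, ∀ᵐ x : ℝ × ℝ, x ∈ Metric.ball (z : ℝ × ℝ) (r z) → DifferentiableAt ℝ u x := by
    intro z _
    filter_upwards [(hK z).ae_differentiableWithinAt_of_mem (μ := volume)] with x hx hxb
    exact (hx hxb).differentiableAt (Metric.isOpen_ball.mem_nhds hxb)
  have h3 := (ae_ball_iff hT).2 h2
  filter_upwards [h3] with x hx hxV
  have : x ∈ ⋃ z : V, Metric.ball (z : ℝ × ℝ) (r z) :=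
    mem_iUnion.2 ⟨⟨x, hxV⟩, Metric.mem_ball_self (hr _)⟩
  rw [← hTV] at this
  simp only [mem_iUnion] at this
  obtain ⟨z, hzT, hxz⟩ := this
  exact hx z hzT hxz

/-- a function on an interval, locally Lipschitz at each of its points -/
theorem ftc_loc {α β : ℝ → ℝ} {s t : ℝ} (hα : ∀ y ∈ uIcc s t, ∃ K : ℝ≥0, ∃ u ∈ 𝓝 y, LipschitzOnWith K α u)
    (hd : ∀ᵐ y, y ∈ uIcc s t → HasDerivAt α (β y) y) :
    α t - α s = ∫ y in s..t, β y := by
  have h1 : LocallyLipschitzOn (uIcc s t) α := by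
    intro y hy
    obtain ⟨K, u, hu, hK⟩ := hα y hy
    exact ⟨K, u, mem_nhdsWithin_of_mem_nhds hu, hK⟩
  obtain ⟨K, hK⟩ := h1.exists_lipschitzOnWith_of_compact isCompact_uIcc
  exact ftc_lip hK hd

theorem ll_line_x {V : Set (ℝ × ℝ)} (hV : IsOpen V) {u : ℝ × ℝ → ℝ} (hu : LocallyLipschitzOn V u)
    {x y : ℝ} (h : (x, y) ∈ V) : ∃ K : ℝ≥0, ∃ t ∈ 𝓝 x, LipschitzOnWith K (fun x => u (x, y)) t := by
  obtain ⟨K, t, ht, hK⟩ := hu h
  rw [hV.nhdsWithin_eq h] at ht
  have hc : Continuous fun x : ℝ => (x, y) := by fun_prop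
  refine ⟨K, (fun x : ℝ => (x, y)) ⁻¹' t, hc.continuousAt.preimage_mem_nhds ht, ?_⟩
  refine LipschitzOnWith.of_dist_le_mul fun a ha b hb => ?_
  have := hK.dist_le_mul _ ha _ hb
  simpa [Prod.dist_eq] using this

theorem ll_line_y {V : Set (ℝ × ℝ)} (hV : IsOpen V) {u : ℝ × ℝ → ℝ} (hu : LocallyLipschitzOn V u)
    {x y : ℝ} (h : (x, y) ∈ V) : ∃ K : ℝ≥0, ∃ t ∈ 𝓝 y, LipschitzOnWith K (fun y => u (x, y)) t := by
  obtain ⟨K, t, ht, hK⟩ := hu h
  rw [hV.nhdsWithin_eq h] at ht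
  have hc : Continuous fun y : ℝ => (x, y) := by fun_prop
  refine ⟨K, (fun y : ℝ => (x, y)) ⁻¹' t, hc.continuousAt.preimage_mem_nhds ht, ?_⟩
  refine LipschitzOnWith.of_dist_le_mul fun a ha b hb => ?_
  have := hK.dist_le_mul _ ha _ hb
  simpa [Prod.dist_eq] using this

/-- FTC on horizontal segments of `V`, for a.e. line -/
theorem ftc_x {V : Set (ℝ × ℝ)} (hV : IsOpen V) {u : ℝ × ℝ → ℝ} (hu : LocallyLipschitzOn V u) :
    ∀ᵐ y : ℝ, ∀ a b : ℝ, (∀ x ∈ uIcc a b, (x, y) ∈ V) →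
      u (b, y) - u (a, y) = ∫ x in a..b, gx u (x, y) := by
  filter_upwards [ae_swap (ae_diff hV hu)] with y hy a b hab
  refine ftc_loc (α := fun x => u (x, y)) (fun x hx => ll_line_x hV hu (hab x hx)) ?_
  filter_upwards [hy] with x hx hx'
  exact gx_eq_deriv (hx (hab x hx'))

theorem ftc_y {V : Set (ℝ × ℝ)} (hV : IsOpen V) {u : ℝ × ℝ → ℝ} (hu : LocallyLipschitzOn V u) :
    ∀ᵐ x : ℝ, ∀ a b : ℝ, (∀ y ∈ uIcc a b, (x, y) ∈ V) →
      u (x, b) - u (x, a) = ∫ y in a..b, gy u (x, y) := by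
  filter_upwards [ae_unswap (ae_diff hV hu)] with x hx a b hab
  refine ftc_loc (α := fun y => u (x, y)) (fun y hy => ll_line_y hV hu (hab y hy)) ?_
  filter_upwards [hx] with y hy hy'
  exact gy_eq_deriv (hy (hab y hy'))

/-! ### algebra of locally Lipschitz functions -/

section LL

variable {X : Type*} [PseudoMetricSpace X] {S : Set X} {f g : X → ℝ}

theorem ll_const (c : ℝ) : LocallyLipschitzOn S (fun _ : X => c) := fun _ _ =>
  ⟨0, univ, univ_mem, LipschitzWith.lipschitzOnWith (LipschitzWith.const c)⟩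

theorem ll_of_lip {L : ℝ≥0} (h : LipschitzWith L f) : LocallyLipschitzOn S f := fun _ _ =>
  ⟨L, univ, univ_mem, h.lipschitzOnWith⟩

theorem ll_comp {h : ℝ → ℝ} {L : ℝ≥0} (hh : LipschitzWith L h) (hf : LocallyLipschitzOn S f) :
    LocallyLipschitzOn S (fun x => h (f x)) := by
  intro x hx
  obtain ⟨K, t, ht, hK⟩ := hf hx
  exact ⟨L * K, t, ht, (hh.comp_lipschitzOnWith hK)⟩

theorem ll_add (hf : LocallyLipschitzOn S f) (hg : LocallyLipschitzOn S g) :
    LocallyLipschitzOn S (fun x => f x + g x) := by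
  intro x hx
  obtain ⟨K, t, ht, hK⟩ := hf hx
  obtain ⟨L, u, hu, hL⟩ := hg hx
  refine ⟨K + L, t ∩ u, inter_mem ht hu, ?_⟩
  exact (hK.mono inter_subset_left).add (hL.mono inter_subset_right)

theorem ll_mul (hf : LocallyLipschitzOn S f) (hg : LocallyLipschitzOn S g) :
    LocallyLipschitzOn S (fun x => f x * g x) := by
  intro x hx
  obtain ⟨K, t, ht, hK⟩ := hf hx
  obtain ⟨L, u, hu, hL⟩ := hg hx
  -- bounded near `x`
  have hfc : ContinuousWithinAt f S x := hf.continuousOn x hx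
  have hgc : ContinuousWithinAt g S x := hg.continuousOn x hx
  have hfb : ∀ᶠ y in 𝓝[S] x, |f y| ≤ |f x| + 1 := by
    have := (hfc.abs).eventually (gt_mem_nhds (show |f x| < |f x| + 1 by linarith))
    exact this.mono fun y hy => hy.le
  have hgb : ∀ᶠ y in 𝓝[S] x, |g y| ≤ |g x| + 1 := by
    have := (hgc.abs).eventually (gt_mem_nhds (show |g x| < |g x| + 1 by linarith))
    exact this.mono fun y hy => hy.le
  refine ⟨Real.toNNReal ((|f x| + 1) * L + (|g x| + 1) * K), t ∩ u ∩ {y | |f y| ≤ |f x| + 1 ∧ |g y| ≤ |g x| + 1},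
    inter_mem (inter_mem ht hu) (hfb.and hgb), ?_⟩
  refine LipschitzOnWith.of_dist_le_mul fun a ha b hb => ?_
  have h1 := hK.dist_le_mul _ ha.1.1 _ hb.1.1
  have h2 := hL.dist_le_mul _ ha.1.2 _ hb.1.2
  rw [Real.dist_eq] at h1 h2 ⊢
  have e : f a * g a - f b * g b = f a * (g a - g b) + g b * (f a - f b) := by ring
  have h3 : |f a * (g a - g b)| ≤ (|f x| + 1) * (L * dist a b) := by
    rw [abs_mul]; exact mul_le_mul ha.2.1 h2 (abs_nonneg _) (by positivity)
  have h4 : |g b * (f a - f b)| ≤ (|g x| + 1) * (K * dist a b) := by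
    rw [abs_mul]; exact mul_le_mul hb.2.2 h1 (abs_nonneg _) (by positivity)
  rw [e, Real.coe_toNNReal _ (by positivity)]
  calc _ ≤ |f a * (g a - g b)| + |g b * (f a - f b)| := abs_add_le _ _
    _ ≤ _ := by linarith

end LL

/-! ### trapezoids -/

/-- the trapezoid `1` on `[s + δ, t]`, `0` off `[s, t + δ]` -/
def trap (δ s t x : ℝ) : ℝ := (max 0 (min δ (x - s)) - max 0 (min δ (x - t))) / δ

theorem lip_ramp (δ s : ℝ) : LipschitzWith 1 (fun x : ℝ => max 0 (min δ (x - s))) := by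
  have h1 : LipschitzWith 1 (fun x : ℝ => x - s) := by
    refine LipschitzWith.of_dist_le_mul fun x y => ?_
    simp [Real.dist_eq]
  have h2 : LipschitzWith 1 (fun x : ℝ => min δ (x - s)) := by
    simpa using (LipschitzWith.const_min h1 δ)
  simpa using (LipschitzWith.const_max h2 0)

theorem lip_trap {δ : ℝ} (s t : ℝ) : ∃ L : ℝ≥0, LipschitzWith L (trap δ s t) := by
  have h1 := (lip_ramp δ s).sub (lip_ramp δ t)
  refine ⟨Real.toNNReal (2 * |δ⁻¹|), LipschitzWith.of_dist_le_mul fun x y => ?_⟩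
  have h2 := h1.dist_le_mul x y
  rw [Real.dist_eq] at h2 ⊢
  rw [Real.coe_toNNReal _ (by positivity)]
  have e : trap δ s t x - trap δ s t y = δ⁻¹ * (((max 0 (min δ (x - s)) - max 0 (min δ (x - t)))) -
      ((max 0 (min δ (y - s)) - max 0 (min δ (y - t))))) := by
    unfold trap; ring
  rw [e, abs_mul]
  have h3 : |((max 0 (min δ (x - s)) - max 0 (min δ (x - t)))) -
      ((max 0 (min δ (y - s)) - max 0 (min δ (y - t))))| ≤ 2 * dist x y := by
    convert h2 using 2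
    norm_num
  nlinarith [abs_nonneg δ⁻¹]

theorem ramp_deriv {δ : ℝ} (hδ : 0 < δ) (s x : ℝ) (h1 : x ≠ s) (h2 : x ≠ s + δ) :
    HasDerivAt (fun x : ℝ => max 0 (min δ (x - s))) ((Ioc s (s + δ)).indicator 1 x) x := by
  rcases lt_or_gt_of_ne h1 with h | h
  · have : (fun x : ℝ => max 0 (min δ (x - s))) =ᶠ[𝓝 x] fun _ => 0 := by
      filter_upwards [gt_mem_nhds h] with y hy
      exact max_eq_left ((min_le_right _ _).trans (by linarith))
    rw [indicator_of_notMem (fun hx => absurd hx.1 (by linarith))]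
    exact (hasDerivAt_const x (0 : ℝ)).congr_of_eventuallyEq this
  · rcases lt_or_gt_of_ne h2 with h' | h'
    · have : (fun x : ℝ => max 0 (min δ (x - s))) =ᶠ[𝓝 x] fun x => x - s := by
        filter_upwards [gt_mem_nhds h', lt_mem_nhds h] with y hy hy'
        rw [min_eq_right (by linarith), max_eq_right (by linarith)]
      rw [indicator_of_mem (show x ∈ Ioc s (s + δ) from ⟨h, h'.le⟩), Pi.one_apply]
      exact ((hasDerivAt_id x).sub_const s).congr_of_eventuallyEq this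
    · have : (fun x : ℝ => max 0 (min δ (x - s))) =ᶠ[𝓝 x] fun _ => δ := by
        filter_upwards [lt_mem_nhds h'] with y hy
        rw [min_eq_left (by linarith), max_eq_right hδ.le]
      rw [indicator_of_notMem (fun hx => absurd hx.2 (by linarith))]
      exact (hasDerivAt_const x δ).congr_of_eventuallyEq this

theorem trap_deriv {δ : ℝ} (hδ : 0 < δ) {s t x : ℝ} (h1 : x ≠ s) (h2 : x ≠ s + δ) (h3 : x ≠ t)
    (h4 : x ≠ t + δ) : HasDerivAt (trap δ s t)
      (((Ioc s (s + δ)).indicator 1 x - (Ioc t (t + δ)).indicator 1 x) / δ) x :=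
  ((ramp_deriv hδ s x h1 h2).sub (ramp_deriv hδ t x h3 h4)).div_const δ

theorem trap_eq_zero_left {δ s t x : ℝ} (hst : s ≤ t) (hx : x ≤ s) : trap δ s t x = 0 := by
  unfold trap
  rw [max_eq_left ((min_le_right _ _).trans (by linarith)),
    max_eq_left ((min_le_right _ _).trans (by linarith))]
  simp

theorem trap_eq_zero_right {δ s t x : ℝ} (hst : s ≤ t) (hx : t + δ ≤ x) : trap δ s t x = 0 := by
  unfold trap
  rw [min_eq_left (by linarith), min_eq_left (by linarith)]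
  simp

theorem trap_eq_one {δ s t x : ℝ} (hδ : 0 < δ) (hx : s + δ ≤ x) (hx' : x ≤ t) :
    trap δ s t x = 1 := by
  unfold trap
  rw [min_eq_left (by linarith), max_eq_left (a := (0 : ℝ)) ((min_le_right _ _).trans (by linarith)),
    max_eq_right hδ.le]
  field_simp
  simp

theorem abs_trap_le {δ s t x : ℝ} (hδ : 0 < δ) : |trap δ s t x| ≤ 1 := by
  unfold trap
  rw [abs_div, abs_of_pos hδ, div_le_one hδ]
  have a1 : 0 ≤ max 0 (min δ (x - s)) := le_max_left _ _
  have a2 : max 0 (min δ (x - s)) ≤ δ := max_le hδ.le (min_le_left _ _)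
  have a3 : 0 ≤ max 0 (min δ (x - t)) := le_max_left _ _
  have a4 : max 0 (min δ (x - t)) ≤ δ := max_le hδ.le (min_le_left _ _)
  rw [abs_le]; constructor <;> linarith

/-- averages over short intervals -/
theorem tendsto_avg {m : ℝ → ℝ} (hm : Continuous m) (s : ℝ) {δ : ℕ → ℝ} (hδ : ∀ n, 0 < δ n)
    (hlim : Tendsto δ atTop (𝓝 0)) :
    Tendsto (fun n => (∫ x in s..(s + δ n), m x) / δ n) atTop (𝓝 (m s)) := by
  have h1 : HasDerivAt (fun u => ∫ x in s..u, m x) (m s) s :=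
    intervalIntegral.integral_hasDerivAt_right (hm.intervalIntegrable _ _)
      (hm.stronglyMeasurableAtFilter _ _) hm.continuousAt
  have h2 := h1.tendsto_slope_zero
  have h3 : Tendsto δ atTop (𝓝[≠] 0) :=
    tendsto_nhdsWithin_iff.2 ⟨hlim, Eventually.of_forall fun n => (hδ n).ne'⟩
  have h4 := h2.comp h3
  refine h4.congr fun n => ?_
  simp only [Function.comp, intervalIntegral.integral_same, sub_zero, smul_eq_mul]
  rw [div_eq_inv_mul]

end

end Crest.Agent.R105.Pln_868
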