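import Mathlib

/-! Row 105, S0139, RED-PLAN (helper897), part 1: the clamping function
`G(z,s) = ∫_0^s (1 - sup_i χ_i(z) 1_{[a_i,b_i]}(t)) dt` (formula of helper449, #9406). -/

set_option autoImplicit false

open Set Filter Topology Metric MeasureTheory
open scoped ENNReal NNReal

namespace Crest.Agent.R105.Pln_897

variable {ι : Type*}

/-- the profile: sup of `χ_i(z)` over the `i` with `t ∈ [a_i, b_i]` -/
noncomputable def ph (χ : ι → ℂ → ℝ) (a b : ι → ℝ) (z : ℂ) (t : ℝ) : ℝ :=
  ⨆ i, χ i z * (Icc (a i) (b i)).indicator 1 t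

/-- the clamping function -/
noncomputable def G (χ : ι → ℂ → ℝ) (a b : ι → ℝ) (z : ℂ) (s : ℝ) : ℝ :=
  ∫ t in (0 : ℝ)..s, (1 - ph χ a b z t)

/-- cut-offs with values in `[0,1]` and intervals -/
structure Cut (χ : ι → ℂ → ℝ) (a b : ι → ℝ) : Prop where
  nonneg : ∀ i z, 0 ≤ χ i z
  le_one : ∀ i z, χ i z ≤ 1
  ab : ∀ i, a i ≤ b i

section

variable {χ : ι → ℂ → ℝ} {a b : ι → ℝ}

theorem ind_nonneg (a b t : ℝ) : 0 ≤ (Icc a b).indicator (1 : ℝ → ℝ) t :=
  indicator_nonneg (fun _ _ => zero_le_one) t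

theorem ind_le (a b t : ℝ) : (Icc a b).indicator (1 : ℝ → ℝ) t ≤ 1 :=
  indicator_le_self' (fun _ _ => zero_le_one) t

namespace Cut

variable (h : Cut χ a b)
include h

theorem term_nonneg (i : ι) (z : ℂ) (t : ℝ) : 0 ≤ χ i z * (Icc (a i) (b i)).indicator 1 t :=
  mul_nonneg (h.nonneg i z) (ind_nonneg _ _ t)

theorem term_le (i : ι) (z : ℂ) (t : ℝ) : χ i z * (Icc (a i) (b i)).indicator 1 t ≤ 1 :=
  mul_le_one₀ (h.le_one i z) (ind_nonneg _ _ t) (ind_le _ _ t)

theorem bdd (z : ℂ) (t : ℝ) : BddAbove (range fun i => χ i z * (Icc (a i) (b i)).indicator 1 t) :=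
  ⟨1, by rintro _ ⟨i, rfl⟩; exact h.term_le i z t⟩

theorem ph_nonneg (z : ℂ) (t : ℝ) : 0 ≤ ph χ a b z t :=
  Real.iSup_nonneg fun i => h.term_nonneg i z t

theorem ph_le_one (z : ℂ) (t : ℝ) : ph χ a b z t ≤ 1 :=
  Real.iSup_le (fun i => h.term_le i z t) zero_le_one

theorem le_ph (i : ι) (z : ℂ) (t : ℝ) : χ i z * (Icc (a i) (b i)).indicator 1 t ≤ ph χ a b z t :=
  le_ciSup (h.bdd z t) i

theorem ph_eq_one {i : ι} {z : ℂ} {t : ℝ} (hi : χ i z = 1) (ht : t ∈ Icc (a i) (b i)) :
    ph χ a b z t = 1 := by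
  refine le_antisymm (h.ph_le_one z t) ?_
  have := h.le_ph i z t
  rw [hi, indicator_of_mem ht] at this
  simpa using this

/-- one-sided comparison of profiles off the bad set -/
theorem ph_le {F : Finset ι} {B : Set ℝ} {z z' : ℂ} {t : ℝ} (ht : t ∉ B)
    (hF : ∀ i, i ∉ F → χ i z ≠ 0 → Icc (a i) (b i) ⊆ B) :
    ph χ a b z t ≤ ph χ a b z' t +
      ∑ i ∈ F, |χ i z - χ i z'| * (Icc (a i) (b i)).indicator 1 t := by
  have hS : 0 ≤ ∑ i ∈ F, |χ i z - χ i z'| * (Icc (a i) (b i)).indicator (1 : ℝ → ℝ) t :=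
    Finset.sum_nonneg fun i _ => mul_nonneg (abs_nonneg _) (ind_nonneg _ _ t)
  refine Real.iSup_le (fun i => ?_) (add_nonneg (h.ph_nonneg z' t) hS)
  by_cases hi : i ∈ F
  · have h1 := h.le_ph i z' t
    have h2 : |χ i z - χ i z'| * (Icc (a i) (b i)).indicator (1 : ℝ → ℝ) t ≤
        ∑ i ∈ F, |χ i z - χ i z'| * (Icc (a i) (b i)).indicator 1 t :=
      Finset.single_le_sum (f := fun i => |χ i z - χ i z'| * (Icc (a i) (b i)).indicator
        (1 : ℝ → ℝ) t) (fun i _ => mul_nonneg (abs_nonneg _) (ind_nonneg _ _ t)) hi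
    have h3 : χ i z ≤ χ i z' + |χ i z - χ i z'| := by linarith [le_abs_self (χ i z - χ i z')]
    have h4 := mul_le_mul_of_nonneg_right h3 (ind_nonneg (a i) (b i) t)
    rw [add_mul] at h4
    linarith
  · by_cases hz : χ i z = 0
    · rw [hz, zero_mul]; exact add_nonneg (h.ph_nonneg z' t) hS
    · have : t ∉ Icc (a i) (b i) := fun hm => ht (hF i hi hz hm)
      rw [indicator_of_notMem this, mul_zero]
      exact add_nonneg (h.ph_nonneg z' t) hS

/-- two-sided comparison -/
theorem abs_ph_sub_le {F : Finset ι} {B : Set ℝ} {z z' : ℂ} {t : ℝ}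
    (hF : ∀ i, i ∉ F → (χ i z ≠ 0 ∨ χ i z' ≠ 0) → Icc (a i) (b i) ⊆ B) :
    |ph χ a b z t - ph χ a b z' t| ≤
      ∑ i ∈ F, |χ i z - χ i z'| * (Icc (a i) (b i)).indicator 1 t + B.indicator 1 t := by
  have hS : 0 ≤ ∑ i ∈ F, |χ i z - χ i z'| * (Icc (a i) (b i)).indicator (1 : ℝ → ℝ) t :=
    Finset.sum_nonneg fun i _ => mul_nonneg (abs_nonneg _) (ind_nonneg _ _ t)
  by_cases ht : t ∈ B
  · rw [indicator_of_mem ht]
    have h1 := h.ph_nonneg z t
    have h2 := h.ph_le_one z t
    have h3 := h.ph_nonneg z' t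
    have h4 := h.ph_le_one z' t
    rw [abs_le]
    constructor <;> simp only [Pi.one_apply] <;> linarith
  · rw [indicator_of_notMem ht, add_zero, abs_le]
    have h1 := h.ph_le (z' := z') ht fun i hi hz => hF i hi (Or.inl hz)
    have h2 := h.ph_le (z := z') (z' := z) ht fun i hi hz => hF i hi (Or.inr hz)
    simp only [abs_sub_comm (χ _ z') (χ _ z)] at h2
    constructor <;> linarith

omit h in
theorem measurable_ph [Countable ι] (z : ℂ) : Measurable (ph χ a b z) := by
  unfold ph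
  exact Measurable.iSup fun i => (measurable_one.indicator measurableSet_Icc).const_mul _

theorem integrable_ph [Countable ι] (z : ℂ) (s s' : ℝ) :
    IntervalIntegrable (ph χ a b z) volume s s' := by
  refine (intervalIntegrable_const (c := (1 : ℝ))).mono_fun
    (measurable_ph z).aestronglyMeasurable ?_
  refine Eventually.of_forall fun t => ?_
  show ‖ph χ a b z t‖ ≤ ‖(1 : ℝ)‖
  rw [Real.norm_eq_abs, abs_of_nonneg (h.ph_nonneg z t), norm_one]
  exact h.ph_le_one z t

theorem integrable_g [Countable ι] (z : ℂ) (s s' : ℝ) :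
    IntervalIntegrable (fun t => 1 - ph χ a b z t) volume s s' :=
  intervalIntegrable_const.sub (h.integrable_ph z s s')

theorem G_sub [Countable ι] (z : ℂ) (s s' : ℝ) :
    G χ a b z s - G χ a b z s' = ∫ t in s'..s, (1 - ph χ a b z t) :=
  intervalIntegral.integral_interval_sub_left (h.integrable_g z 0 s) (h.integrable_g z 0 s')

/-- **(P1)** `G` is 1-Lipschitz in `s` -/
theorem G_lip [Countable ι] (z : ℂ) (s s' : ℝ) : |G χ a b z s - G χ a b z s'| ≤ |s - s'| := by
  rw [h.G_sub]
  have := intervalIntegral.norm_integral_le_of_norm_le_const (a := s') (b := s) (C := 1)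
    (f := fun t => 1 - ph χ a b z t) (fun t _ => by
      rw [Real.norm_eq_abs, abs_le]
      constructor <;> linarith [h.ph_nonneg z t, h.ph_le_one z t])
  simpa using this

/-- `G z` is constant on an interval on which the cut-off is one -/
theorem G_const [Countable ι] {i : ι} {z : ℂ} (hi : χ i z = 1) {s s' : ℝ}
    (hs : s ∈ Icc (a i) (b i)) (hs' : s' ∈ Icc (a i) (b i)) : G χ a b z s = G χ a b z s' := by
  rw [← sub_eq_zero, h.G_sub]
  refine intervalIntegral.integral_zero_ae (Eventually.of_forall fun t ht => ?_)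
  have h1 : t ∈ Icc (a i) (b i) := by
    have h2 : uIcc s' s ⊆ Icc (a i) (b i) := uIcc_subset_Icc hs' hs
    exact h2 (uIoc_subset_uIcc ht)
  rw [h.ph_eq_one hi h1, sub_self]

/-- **(P2)** dependence on `z` -/
theorem G_z [Countable ι] {F : Finset ι} {B : Set ℝ} (hB : MeasurableSet B) {δ : ℝ} (hδ : 0 ≤ δ)
    (hBδ : volume B ≤ ENNReal.ofReal δ) {z z' : ℂ}
    (hF : ∀ i, i ∉ F → (χ i z ≠ 0 ∨ χ i z' ≠ 0) → Icc (a i) (b i) ⊆ B) (s : ℝ) :
    |G χ a b z s - G χ a b z' s| ≤ ∑ i ∈ F, |χ i z - χ i z'| * (b i - a i) + δ := by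
  have h1 : G χ a b z s - G χ a b z' s =
      ∫ t in (0 : ℝ)..s, (ph χ a b z' t - ph χ a b z t) := by
    unfold G
    rw [← intervalIntegral.integral_sub (h.integrable_g z 0 s) (h.integrable_g z' 0 s)]
    congr 1
    ext t
    ring
  have hI : ∀ i, Integrable (fun t => |χ i z - χ i z'| * (Icc (a i) (b i)).indicator
      (1 : ℝ → ℝ) t) volume := fun i => by
    refine Integrable.const_mul ?_ _
    exact (integrableOn_const (by
      rw [Real.volume_Icc]; exact ENNReal.ofReal_ne_top)).integrable_indicator measurableSet_Icc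
  have hBfin : volume B ≠ ∞ := ne_top_of_le_ne_top ENNReal.ofReal_ne_top hBδ
  have hIB : Integrable (B.indicator (1 : ℝ → ℝ)) volume :=
    (integrableOn_const hBfin).integrable_indicator hB
  have hIS : Integrable (fun t => ∑ i ∈ F, |χ i z - χ i z'| * (Icc (a i) (b i)).indicator
      (1 : ℝ → ℝ) t + B.indicator 1 t) volume :=
    (integrable_finsetSum _ fun i _ => hI i).add hIB
  have hpos : ∀ t, 0 ≤ ∑ i ∈ F, |χ i z - χ i z'| * (Icc (a i) (b i)).indicator
      (1 : ℝ → ℝ) t + B.indicator 1 t := fun t =>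
    add_nonneg (Finset.sum_nonneg fun i _ => mul_nonneg (abs_nonneg _) (ind_nonneg _ _ t))
      (indicator_nonneg (fun _ _ => zero_le_one) t)
  have hval : ∫ t, (∑ i ∈ F, |χ i z - χ i z'| * (Icc (a i) (b i)).indicator
      (1 : ℝ → ℝ) t + B.indicator 1 t) = ∑ i ∈ F, |χ i z - χ i z'| * (b i - a i) +
        volume.real B := by
    rw [integral_add (integrable_finsetSum _ fun i _ => hI i) hIB,
      integral_finsetSum _ fun i _ => hI i]
    congr 1
    · refine Finset.sum_congr rfl fun i _ => ?_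
      rw [integral_const_mul, integral_indicator_one measurableSet_Icc, Real.volume_real_Icc,
        max_eq_left (sub_nonneg.2 (h.ab i))]
    · exact integral_indicator_one hB
  rw [h1]
  calc |∫ t in (0 : ℝ)..s, (ph χ a b z' t - ph χ a b z t)|
      ≤ ∫ t in uIoc 0 s, ‖ph χ a b z' t - ph χ a b z t‖ := by
        rw [← Real.norm_eq_abs]; exact intervalIntegral.norm_integral_le_integral_norm_uIoc
    _ ≤ ∫ t in uIoc 0 s, (∑ i ∈ F, |χ i z - χ i z'| * (Icc (a i) (b i)).indicator
          (1 : ℝ → ℝ) t + B.indicator 1 t) := by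
        refine integral_mono_of_nonneg (Eventually.of_forall fun t => norm_nonneg _)
          hIS.integrableOn (Eventually.of_forall fun t => ?_)
        show ‖ph χ a b z' t - ph χ a b z t‖ ≤ _
        rw [Real.norm_eq_abs, abs_sub_comm]
        exact h.abs_ph_sub_le hF
    _ ≤ ∫ t, (∑ i ∈ F, |χ i z - χ i z'| * (Icc (a i) (b i)).indicator
          (1 : ℝ → ℝ) t + B.indicator 1 t) :=
        setIntegral_le_integral hIS (Eventually.of_forall hpos)
    _ = ∑ i ∈ F, |χ i z - χ i z'| * (b i - a i) + volume.real B := hval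
    _ ≤ _ := by
        have : volume.real B ≤ δ := by
          rw [Measure.real]
          exact ENNReal.toReal_le_of_le_ofReal hδ hBδ
        linarith

/-- **(P2')** with finitely many active indices -/
theorem G_z' [Countable ι] {F : Finset ι} {z z' : ℂ}
    (hF : ∀ i, i ∉ F → χ i z = 0 ∧ χ i z' = 0) (s : ℝ) :
    |G χ a b z s - G χ a b z' s| ≤ ∑ i ∈ F, |χ i z - χ i z'| * (b i - a i) := by
  have := h.G_z (F := F) (B := ∅) MeasurableSet.empty le_rfl (by simp) (z := z) (z' := z')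
    (fun i hi hz => by
      exfalso
      rcases hz with hz | hz
      · exact hz (hF i hi).1
      · exact hz (hF i hi).2) s
  simpa using this

/-- **(P5)** distance to the identity -/
theorem G_sub_self [Countable ι] {F : Finset ι} {z : ℂ} (hF : ∀ i, i ∉ F → χ i z = 0) (s : ℝ) :
    |G χ a b z s - s| ≤ ∑ i ∈ F, χ i z * (b i - a i) := by
  have h1 : G χ a b z s - s = -∫ t in (0 : ℝ)..s, ph χ a b z t := by
    unfold G
    rw [intervalIntegral.integral_sub intervalIntegrable_const (h.integrable_ph z 0 s)]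
    simp
  have hI : ∀ i, Integrable (fun t => χ i z * (Icc (a i) (b i)).indicator
      (1 : ℝ → ℝ) t) volume := fun i => by
    refine Integrable.const_mul ?_ _
    exact (integrableOn_const (by
      rw [Real.volume_Icc]; exact ENNReal.ofReal_ne_top)).integrable_indicator measurableSet_Icc
  have hIS : Integrable (fun t => ∑ i ∈ F, χ i z * (Icc (a i) (b i)).indicator
      (1 : ℝ → ℝ) t) volume := integrable_finsetSum _ fun i _ => hI i
  have hpos : ∀ t, 0 ≤ ∑ i ∈ F, χ i z * (Icc (a i) (b i)).indicator (1 : ℝ → ℝ) t := fun t =>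
    Finset.sum_nonneg fun i _ => h.term_nonneg i z t
  rw [h1, abs_neg]
  calc |∫ t in (0 : ℝ)..s, ph χ a b z t| ≤ ∫ t in uIoc 0 s, ‖ph χ a b z t‖ := by
        rw [← Real.norm_eq_abs]; exact intervalIntegral.norm_integral_le_integral_norm_uIoc
    _ ≤ ∫ t in uIoc 0 s, ∑ i ∈ F, χ i z * (Icc (a i) (b i)).indicator (1 : ℝ → ℝ) t := by
        refine integral_mono_of_nonneg (Eventually.of_forall fun t => norm_nonneg _)
          hIS.integrableOn (Eventually.of_forall fun t => ?_)
        show ‖ph χ a b z t‖ ≤ _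
        rw [Real.norm_eq_abs, abs_of_nonneg (h.ph_nonneg z t)]
        refine Real.iSup_le (fun i => ?_) (hpos t)
        by_cases hi : i ∈ F
        · exact Finset.single_le_sum (f := fun i => χ i z * (Icc (a i) (b i)).indicator
            (1 : ℝ → ℝ) t) (fun i _ => h.term_nonneg i z t) hi
        · rw [hF i hi, zero_mul]; exact hpos t
    _ ≤ ∫ t, ∑ i ∈ F, χ i z * (Icc (a i) (b i)).indicator (1 : ℝ → ℝ) t :=
        setIntegral_le_integral hIS (Eventually.of_forall hpos)
    _ = ∑ i ∈ F, χ i z * (b i - a i) := by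
        rw [integral_finsetSum _ fun i _ => hI i]
        refine Finset.sum_congr rfl fun i _ => ?_
        rw [integral_const_mul, integral_indicator_one measurableSet_Icc, Real.volume_real_Icc,
          max_eq_left (sub_nonneg.2 (h.ab i))]

end Cut

end

end Crest.Agent.R105.Pln_897
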