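import Crest.Agent.R105.Pln1_868

/-!
# Row 105, PLANP: Stokes on slabs for the picture algebra
-/

namespace Crest.Agent.R105.Pln_868

open Set Filter MeasureTheory Topology
open CF_363
open scoped NNReal ENNReal

noncomputable section

/-- Lipschitz cut-off `= 1` near a compact set, supported in an open set -/
theorem exists_cutoff {K O : Set (ℝ × ℝ)} (hK : IsCompact K) (hO : IsOpen O) (hKO : K ⊆ O) :
    ∃ κ : ℝ × ℝ → ℝ, (∃ L, LipschitzWith L κ) ∧ HasCompactSupport κ ∧ tsupport κ ⊆ O ∧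
      (∀ᶠ p in 𝓝ˢ K, κ p = 1) ∧ ∀ p, 0 ≤ κ p ∧ κ p ≤ 1 := by
  rcases K.eq_empty_or_nonempty with rfl | hne
  · refine ⟨fun _ => 0, ⟨0, LipschitzWith.const 0⟩, HasCompactSupport.zero, ?_, ?_, fun p => ⟨le_rfl, zero_le_one⟩⟩
    · have : tsupport (fun _ : ℝ × ℝ => (0 : ℝ)) = ∅ := by
        rw [tsupport_eq_empty_iff]; rfl
      rw [this]; exact empty_subset _
    · rw [nhdsSet_empty]; exact eventually_bot
  obtain ⟨δ, hδ, hδO⟩ := hK.exists_cthickening_subset_open hO hKO
  set κ : ℝ × ℝ → ℝ := fun p => max 0 (min 1 (2 - 3 / δ * Metric.infDist p K)) with hκ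
  have hsub : tsupport κ ⊆ Metric.cthickening δ K := by
    refine closure_minimal ?_ Metric.isClosed_cthickening
    intro p hp
    by_contra hcon
    have h1 : δ < Metric.infDist p K := by
      rw [Metric.mem_cthickening_iff, not_le] at hcon
      exact (ENNReal.ofReal_lt_iff_lt_toReal hδ.le (Metric.infEDist_ne_top hne)).1 hcon
    apply hp
    have h2 : 3 ≤ 3 / δ * Metric.infDist p K := by
      rw [div_mul_eq_mul_div, le_div_iff₀ hδ]; nlinarith
    simp only [hκ]
    rw [max_eq_left ((min_le_right _ _).trans (by linarith))]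
  refine ⟨κ, ?_, ?_, hsub.trans hδO, ?_, fun p => ⟨le_max_left _ _, max_le zero_le_one (min_le_left _ _)⟩⟩
  · have h1 : LipschitzWith (Real.toNNReal (3 / δ) * 1) (fun p : ℝ × ℝ => 3 / δ * Metric.infDist p K) := by
      refine LipschitzWith.of_dist_le_mul fun p q => ?_
      have := (Metric.lipschitz_infDist_pt K).dist_le_mul p q
      rw [Real.dist_eq] at this ⊢
      rw [← mul_sub, abs_mul, NNReal.coe_mul, Real.coe_toNNReal _ (by positivity),
        abs_of_pos (show (0 : ℝ) < 3 / δ by positivity), mul_assoc]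
      exact mul_le_mul_of_nonneg_left this (by positivity)
    have h2 : LipschitzWith (0 + Real.toNNReal (3 / δ) * 1)
        (fun p : ℝ × ℝ => 2 - 3 / δ * Metric.infDist p K) := (LipschitzWith.const (2 : ℝ)).sub h1
    have h3 := (h2.const_min 1).const_max 0
    exact ⟨_, h3⟩
  · exact HasCompactSupport.intro' hK.cthickening Metric.isClosed_cthickening fun p hp =>
      image_eq_zero_of_notMem_tsupport fun h => hp (hsub h)
  · filter_upwards [Metric.thickening_mem_nhdsSet K (show 0 < δ / 3 by positivity)] with p hp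
    obtain ⟨z, hz, hpz⟩ := Metric.mem_thickening_iff.1 hp
    have h1 : Metric.infDist p K < δ / 3 := (Metric.infDist_le_dist_of_mem hz).trans_lt hpz
    have h2 : 3 / δ * Metric.infDist p K ≤ 1 := by
      rw [div_mul_eq_mul_div, div_le_iff₀ hδ]; linarith
    simp only [hκ]
    rw [min_eq_left (by linarith), max_eq_right zero_le_one]

variable {E : Set (ℝ × ℝ)} {A : (ℝ × ℝ → ℝ) → Prop} {a : ℝ × ℝ → ℝ}

namespace PicAlg

theorem vol_eq (h : PicAlg E A) : (volume : Measure (ℝ × ℝ)).restrict Eᶜ = volume :=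
  Measure.restrict_eq_self_of_ae_mem (by
    have := h.null
    rw [measure_eq_zero_iff_ae_notMem] at this
    exact this)

theorem ae_notMem (h : PicAlg E A) : ∀ᵐ p : ℝ × ℝ, p ∉ E :=
  measure_eq_zero_iff_ae_notMem.1 h.null

theorem isOpen (h : PicAlg E A) : IsOpen Eᶜ := h.cpt.isClosed.isOpen_compl

theorem aeDiff (h : PicAlg E A) (ha : A a) : ∀ᵐ p : ℝ × ℝ, DifferentiableAt ℝ a p := by
  filter_upwards [ae_diff h.isOpen (h.loc a ha), h.ae_notMem] with p h1 h2
  exact h1 h2

theorem intOn_gx (h : PicAlg E A) (ha : A a) {K : Set (ℝ × ℝ)} (hK : volume K ≠ ∞) :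
    IntegrableOn (gx a) K := by
  have h1 := h.fin a ha
  rw [IntegrableOn, h.vol_eq] at h1
  have h2 : IntegrableOn (fun p => 1 + g2 a p) K := (integrableOn_const hK).add h1.integrableOn
  refine h2.mono' (measurable_gx a).aestronglyMeasurable (Eventually.of_forall fun p => ?_)
  rw [Real.norm_eq_abs]
  unfold g2
  nlinarith [sq_nonneg (|gx a p| - 1), sq_abs (gx a p), sq_nonneg (gy a p), abs_nonneg (gx a p)]

theorem intOn_gy (h : PicAlg E A) (ha : A a) {K : Set (ℝ × ℝ)} (hK : volume K ≠ ∞) :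
    IntegrableOn (gy a) K := by
  have h1 := h.fin a ha
  rw [IntegrableOn, h.vol_eq] at h1
  have h2 : IntegrableOn (fun p => 1 + g2 a p) K := (integrableOn_const hK).add h1.integrableOn
  refine h2.mono' (measurable_gy a).aestronglyMeasurable (Eventually.of_forall fun p => ?_)
  rw [Real.norm_eq_abs]
  unfold g2
  nlinarith [sq_nonneg (|gy a p| - 1), sq_abs (gy a p), sq_nonneg (gx a p), abs_nonneg (gy a p)]

/-- a cut function equal to `1` on a bounded set -/
theorem exists_one (h : PicAlg E A) {K : Set (ℝ × ℝ)} (hK : IsCompact K) :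
    ∃ κ, Cut E κ ∧ ∀ p ∈ K, κ p = 1 := by
  obtain ⟨κ, h1, h2, -, h3, -⟩ := exists_cutoff (h.cpt.union hK) isOpen_univ (subset_univ _)
  have h4 := h3.self_of_nhdsSet
  refine ⟨κ, ⟨h1, h2, fun p hp => ?_⟩, fun p hp => h4 p (Or.inr hp)⟩
  rw [eventually_nhdsSet_iff_forall] at h3
  filter_upwards [h3 p (Or.inl hp)] with q hq
  rw [hq, h4 p (Or.inl hp)]

theorem hasFDeriv_fst {T : ℝ → ℝ} {T' : ℝ} {p : ℝ × ℝ} (hT : HasDerivAt T T' p.1) :
    DifferentiableAt ℝ (fun q : ℝ × ℝ => T q.1) p ∧ gx (fun q : ℝ × ℝ => T q.1) p = T' := by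
  have h1 : HasFDerivAt (fun q : ℝ × ℝ => T q.1) (T' • (ContinuousLinearMap.fst ℝ ℝ ℝ)) p :=
    hT.comp_hasFDerivAt p hasFDerivAt_fst
  refine ⟨h1.differentiableAt, ?_⟩
  unfold gx
  rw [h1.fderiv]
  simp

theorem ae_fst {P : ℝ → Prop} (h : ∀ᵐ x, P x) : ∀ᵐ p : ℝ × ℝ, P p.1 := by
  have := (Measure.quasiMeasurePreserving_fst (μ := (volume : Measure ℝ))
    (ν := (volume : Measure ℝ))).ae h
  rwa [← Measure.volume_eq_prod] at this

theorem ae_ne_fst (s : ℝ) : ∀ᵐ p : ℝ × ℝ, p.1 ≠ s :=
  ae_fst (by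
    have : (volume : Measure ℝ) {s} = 0 := Real.volume_singleton
    exact measure_eq_zero_iff_ae_notMem.1 this)

theorem gx_zero_of_notMem {p : ℝ × ℝ} (hp : p ∉ tsupport a) :
    gx a p = 0 := by
  have : a =ᶠ[𝓝 p] fun _ => 0 := notMem_tsupport_iff_eventuallyEq.1 hp
  rw [gx_congr this, gx_const]

/-- Fubini with a weight in `x` -/
theorem fub {T : ℝ → ℝ} {g : ℝ × ℝ → ℝ} {c0 c1 : ℝ} (hcc : c0 ≤ c1)
    (hg : ∀ p : ℝ × ℝ, ¬ (c0 < p.2 ∧ p.2 < c1) → g p = 0)
    (hi : Integrable (fun p : ℝ × ℝ => T p.1 * g p)) :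
    ∫ p : ℝ × ℝ, T p.1 * g p = ∫ x, T x * ∫ y in c0..c1, g (x, y) := by
  rw [Measure.volume_eq_prod] at hi ⊢
  rw [integral_prod _ hi]
  refine integral_congr_ae (Eventually.of_forall fun x => ?_)
  simp only
  rw [integral_const_mul, intervalIntegral.integral_of_le hcc,
    setIntegral_eq_integral_of_forall_compl_eq_zero]
  intro y hy
  exact hg (x, y) fun h => hy ⟨h.1, h.2.le⟩

theorem int_ind {m : ℝ → ℝ} {s δ : ℝ} (hδ : 0 ≤ δ) :
    ∫ x, (Ioc s (s + δ)).indicator (fun _ => (1 : ℝ)) x * m x = ∫ x in s..(s + δ), m x := by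
  rw [intervalIntegral.integral_of_le (by linarith), ← integral_indicator measurableSet_Ioc]
  refine integral_congr_ae (Eventually.of_forall fun x => ?_)
  by_cases hx : x ∈ Ioc s (s + δ) <;> simp [hx]

/-- Stokes on slabs, compactly supported elements -/
theorem stokes_cpt (h : PicAlg E A) (ha : A a) (hac : HasCompactSupport a) {c0 c1 : ℝ}
    (hcc : c0 ≤ c1) (hs : tsupport a ⊆ {p | c0 < p.2 ∧ p.2 < c1}) {s t : ℝ} (hst : s ≤ t) :
    (∫ y in c0..c1, a (t, y)) - (∫ y in c0..c1, a (s, y)) =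
      ∫ x in s..t, ∫ y in c0..c1, gx a (x, y) := by
  have hcont := h.cont a ha
  set m : ℝ → ℝ := fun x => ∫ y in c0..c1, a (x, y) with hm
  have hmc : Continuous m :=
    intervalIntegral.continuous_parametric_intervalIntegral_of_continuous' (f := fun x y => a (x, y))
      (show Continuous (fun p : ℝ × ℝ => a (p.1, p.2)) from hcont) c0 c1
  have ha0 : ∀ p : ℝ × ℝ, ¬ (c0 < p.2 ∧ p.2 < c1) → a p = 0 := fun p hp =>
    image_eq_zero_of_notMem_tsupport fun h => hp (hs h)
  have hg0 : ∀ p : ℝ × ℝ, ¬ (c0 < p.2 ∧ p.2 < c1) → gx a p = 0 := fun p hp =>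
    gx_zero_of_notMem fun h => hp (hs h)
  have hai : Integrable a := hcont.integrable_of_hasCompactSupport hac
  have hgi : Integrable (gx a) := by
    have h1 : IntegrableOn (gx a) (tsupport a) :=
      h.intOn_gx ha (hac.isCompact.measure_lt_top.ne)
    exact h1.integrable_of_forall_notMem_eq_zero fun p hp => gx_zero_of_notMem hp
  obtain ⟨κ, hκ, hκ1⟩ := h.exists_one hac.isCompact
  set δ : ℕ → ℝ := fun n => 1 / ((n : ℝ) + 1) with hδ
  have hδp : ∀ n, 0 < δ n := fun n => by positivity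
  have hδl : Tendsto δ atTop (𝓝 0) := tendsto_one_div_add_atTop_nhds_zero_nat
  -- the identity for each `n`
  have key : ∀ n, ((∫ x in s..(s + δ n), m x) / δ n - (∫ x in t..(t + δ n), m x) / δ n) +
      ∫ p : ℝ × ℝ, trap (δ n) s t p.1 * gx a p = 0 := by
    intro n
    have hA : A (fun p => trap (δ n) s t p.1 * a p) := by
      have h1 := h.mul _ _ (h.cut κ hκ (trap (δ n) s t) (lip_trap s t)) ha
      refine (congrArg A (funext fun p => ?_)).mp h1
      by_cases hp : a p = 0
      · simp [hp]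
      · rw [hκ1 p (subset_tsupport a hp), one_mul]
    have hc : HasCompactSupport (fun p : ℝ × ℝ => trap (δ n) s t p.1 * a p) := hac.mul_left
    have h0 := h.el _ hA hc
    rw [h.vol_eq] at h0
    have h1 : ∀ᵐ p : ℝ × ℝ, gx (fun p => trap (δ n) s t p.1 * a p) p =
        (((Ioc s (s + δ n)).indicator (fun _ => (1 : ℝ)) p.1 * a p) / δ n -
          ((Ioc t (t + δ n)).indicator (fun _ => (1 : ℝ)) p.1 * a p) / δ n) +
          trap (δ n) s t p.1 * gx a p := by
      filter_upwards [h.aeDiff ha, ae_ne_fst s, ae_ne_fst (s + δ n), ae_ne_fst t,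
        ae_ne_fst (t + δ n)] with p h1 h2 h3 h4 h5
      obtain ⟨h6, h7⟩ := hasFDeriv_fst (trap_deriv (hδp n) h2 h3 h4 h5)
      rw [gx_mul h6 h1, h7]
      have e : (1 : ℝ → ℝ) = fun _ => 1 := rfl
      rw [e]
      ring
    have hi1 : Integrable (fun p : ℝ × ℝ => (Ioc s (s + δ n)).indicator (fun _ => (1 : ℝ)) p.1 * a p) := by
      refine hai.bdd_mul (c := 1) ?_ (Eventually.of_forall fun p => ?_)
      · exact ((measurable_const.indicator measurableSet_Ioc).comp measurable_fst).aestronglyMeasurable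
      · by_cases hx : p.1 ∈ Ioc s (s + δ n) <;> simp [hx]
    have hi2 : Integrable (fun p : ℝ × ℝ => (Ioc t (t + δ n)).indicator (fun _ => (1 : ℝ)) p.1 * a p) := by
      refine hai.bdd_mul (c := 1) ?_ (Eventually.of_forall fun p => ?_)
      · exact ((measurable_const.indicator measurableSet_Ioc).comp measurable_fst).aestronglyMeasurable
      · by_cases hx : p.1 ∈ Ioc t (t + δ n) <;> simp [hx]
    have hi3 : Integrable (fun p : ℝ × ℝ => trap (δ n) s t p.1 * gx a p) := by
      obtain ⟨L, hL⟩ := lip_trap (δ := δ n) s t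
      refine hgi.bdd_mul (c := 1) ?_ (Eventually.of_forall fun p => ?_)
      · exact (hL.continuous.comp continuous_fst).aestronglyMeasurable
      · rw [Real.norm_eq_abs]; exact abs_trap_le (hδp n)
    have hi4 : Integrable (fun p : ℝ × ℝ =>
        ((Ioc s (s + δ n)).indicator (fun _ => (1 : ℝ)) p.1 * a p) / δ n -
          ((Ioc t (t + δ n)).indicator (fun _ => (1 : ℝ)) p.1 * a p) / δ n) :=
      (hi1.div_const _).sub (hi2.div_const _)
    rw [integral_congr_ae h1, integral_add hi4 hi3,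
      integral_sub (hi1.div_const _) (hi2.div_const _), integral_div, integral_div,
      fub hcc ha0 hi1, fub hcc ha0 hi2, int_ind (hδp n).le, int_ind (hδp n).le] at h0
    exact h0
  -- limits
  have l1 := (tendsto_avg hmc s hδp hδl).sub (tendsto_avg hmc t hδp hδl)
  have hind : Integrable (fun p : ℝ × ℝ => (Ioc s t).indicator (fun _ => (1 : ℝ)) p.1 * gx a p) := by
    refine hgi.bdd_mul (c := 1) ?_ (Eventually.of_forall fun p => ?_)
    · exact ((measurable_const.indicator measurableSet_Ioc).comp measurable_fst).aestronglyMeasurable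
    · by_cases hx : p.1 ∈ Ioc s t <;> simp [hx]
  have l2 : Tendsto (fun n => ∫ p : ℝ × ℝ, trap (δ n) s t p.1 * gx a p) atTop
      (𝓝 (∫ p : ℝ × ℝ, (Ioc s t).indicator (fun _ => (1 : ℝ)) p.1 * gx a p)) := by
    refine tendsto_integral_of_dominated_convergence (fun p => |gx a p|) (fun n => ?_) hgi.abs
      (fun n => Eventually.of_forall fun p => ?_) (Eventually.of_forall fun p => ?_)
    · obtain ⟨L, hL⟩ := lip_trap (δ := δ n) s t
      exact (hL.continuous.comp continuous_fst).aestronglyMeasurable.mul hgi.aestronglyMeasurable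
    · rw [Real.norm_eq_abs, abs_mul]
      exact mul_le_of_le_one_left (abs_nonneg _) (abs_trap_le (hδp n))
    · refine Tendsto.mul_const _ ?_
      rcases le_or_gt p.1 s with h1 | h1
      · rw [indicator_of_notMem (fun hx => absurd hx.1 (not_lt.2 h1))]
        simp only [trap_eq_zero_left hst h1]
        exact tendsto_const_nhds
      · rcases le_or_gt p.1 t with h2 | h2
        · rw [indicator_of_mem (show p.1 ∈ Ioc s t from ⟨h1, h2⟩)]
          refine tendsto_const_nhds.congr' ?_
          filter_upwards [hδl.eventually (gt_mem_nhds (show 0 < p.1 - s by linarith))] with n hn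
          rw [trap_eq_one (hδp n) (by linarith) h2]
        · rw [indicator_of_notMem (fun hx => absurd hx.2 (not_le.2 h2))]
          refine tendsto_const_nhds.congr' ?_
          filter_upwards [hδl.eventually (gt_mem_nhds (show 0 < p.1 - t by linarith))] with n hn
          rw [trap_eq_zero_right hst (by linarith)]
  have l3 := l1.add l2
  have l4 := tendsto_nhds_unique (l3.congr key) tendsto_const_nhds
  rw [fub hcc hg0 hind] at l4
  have l5 : ∫ x, (Ioc s t).indicator (fun _ => (1 : ℝ)) x * ∫ y in c0..c1, gx a (x, y) =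
      ∫ x in s..t, ∫ y in c0..c1, gx a (x, y) := by
    have := int_ind (m := fun x => ∫ y in c0..c1, gx a (x, y)) (s := s) (δ := t - s) (by linarith)
    rwa [show s + (t - s) = t by ring] at this
  rw [l5] at l4
  linarith

end PicAlg

end

end Crest.Agent.R105.Pln_868
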