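import Crest.Agent.R105.Pln1_897

/-! Row 105, S0139, RED-PLAN (helper897), part 2: the planarised function `w z = G z (v z)` from
abstract data: continuous, locally Lipschitz off the dust, derivatives. -/

set_option autoImplicit false

open Set Filter Topology Metric MeasureTheory
open scoped ENNReal NNReal

namespace Crest.Agent.R105.Pln_897

variable {κ : Type*}

/-- data for the planarisation off `B`: `N i` are open neighbourhoods of the treated
components, `χ i = 1` on `N i`, the values of `v` on `N i` lie in `[a i, b i]`, `T i` supports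
`χ i`, `g i` is a slope of `χ i` -/
structure PData (U B : Set ℂ) (v : ℂ → ℝ) (N T : κ → Set ℂ) (χ g : κ → ℂ → ℝ) (a b : κ → ℝ) :
    Prop where
  cut : Cut χ a b
  Uo : IsOpen U
  No : ∀ i, IsOpen (N i)
  one : ∀ i, ∀ z ∈ N i, χ i z = 1
  lip : ∀ i, ∃ L : ℝ≥0, LipschitzWith L (χ i)
  Tc : ∀ i, IsClosed (T i)
  supp : ∀ i, ∀ z ∉ T i, χ i z = 0
  mem : ∀ i, ∀ z ∈ N i, v z ∈ Icc (a i) (b i)
  g0 : ∀ i z, 0 ≤ g i z
  gT : ∀ i, ∀ z ∉ T i, g i z = 0
  gm : ∀ i, Measurable (g i)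
  slope : ∀ i z, ∀ᶠ y in 𝓝 z, |χ i y - χ i z| ≤ g i z * ‖y - z‖
  locfin : ∀ z ∈ U ∪ ⋃ i, N i, ∃ t ∈ 𝓝 z, {i | (T i ∩ t).Nonempty}.Finite
  dust : ∀ q, q ∉ B → q ∉ U ∪ ⋃ i, N i → ContinuousAt v q ∧ ∀ ε > 0, ∃ t ∈ 𝓝 q,
    {i | (T i ∩ t).Nonempty ∧ ¬ Icc (a i) (b i) ⊆ Icc (v q - ε) (v q + ε)}.Finite

/-- the weight -/
noncomputable def hE (g : κ → ℂ → ℝ) (a b : κ → ℝ) (z : ℂ) : ℝ≥0∞ :=
  ∑' i, ENNReal.ofReal ((b i - a i) * g i z)

/-- the real weight -/
noncomputable def hh (g : κ → ℂ → ℝ) (a b : κ → ℝ) (z : ℂ) : ℝ := (hE g a b z).toReal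

namespace PData

variable {U B : Set ℂ} {v : ℂ → ℝ} {N T : κ → Set ℂ} {χ g : κ → ℂ → ℝ} {a b : κ → ℝ}
variable (h : PData U B v N T χ g a b)
include h

theorem len_nonneg (i : κ) : 0 ≤ b i - a i := sub_nonneg.2 (h.cut.ab i)

theorem term_nonneg (i : κ) (z : ℂ) : 0 ≤ (b i - a i) * g i z :=
  mul_nonneg (h.len_nonneg i) (h.g0 i z)

theorem sum_le_hh {z : ℂ} (hfin : hE g a b z ≠ ∞) (F : Finset κ) :
    ∑ i ∈ F, (b i - a i) * g i z ≤ hh g a b z := by
  rw [hh, ← ENNReal.ofReal_le_iff_le_toReal hfin, ENNReal.ofReal_sum_of_nonneg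
    fun i _ => h.term_nonneg i z]
  exact ENNReal.sum_le_tsum F

omit h in
theorem hE_ne_top {z : ℂ} {F : Finset κ} (hF : ∀ i, i ∉ F → g i z = 0) : hE g a b z ≠ ∞ := by
  rw [hE, tsum_eq_sum (s := F) fun i hi => by rw [hF i hi, mul_zero, ENNReal.ofReal_zero]]
  exact ENNReal.sum_ne_top.2 fun i _ => ENNReal.ofReal_ne_top

omit h in
theorem hE_zero {z : ℂ} (hF : ∀ i, g i z = 0) : hE g a b z = 0 := by
  rw [hE, ENNReal.tsum_eq_zero]
  intro i
  rw [hF i, mul_zero, ENNReal.ofReal_zero]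

theorem measurable_hE [Countable κ] : Measurable (hE g a b) :=
  Measurable.tsum fun i => ((h.gm i).const_mul _).ennreal_ofReal

theorem measurable_hh [Countable κ] : Measurable (hh g a b) := h.measurable_hE.ennreal_toReal

/-- the active indices near a point, as a finset -/
theorem exists_active {z : ℂ} (hz : z ∈ U ∪ ⋃ i, N i) :
    ∃ t ∈ 𝓝 z, ∃ F : Finset κ, ∀ y ∈ t, ∀ i, i ∉ F → y ∉ T i := by
  obtain ⟨t, ht, hfin⟩ := h.locfin z hz
  refine ⟨t, ht, hfin.toFinset, fun y hy i hi hyT => ?_⟩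
  exact hi (hfin.mem_toFinset.2 ⟨y, hyT, hy⟩)

/-- increments of `w` -/
theorem inc [Countable κ] {F : Finset κ} {z z' : ℂ} (hF : ∀ i, i ∉ F → z ∉ T i ∧ z' ∉ T i) :
    |G χ a b z (v z) - G χ a b z' (v z')| ≤
      |v z - v z'| + ∑ i ∈ F, |χ i z - χ i z'| * (b i - a i) := by
  have h1 := h.cut.G_lip z (v z) (v z')
  have h2 := h.cut.G_z' (fun i hi => ⟨h.supp i z (hF i hi).1, h.supp i z' (hF i hi).2⟩) (v z')
  calc |G χ a b z (v z) - G χ a b z' (v z')|
      = |(G χ a b z (v z) - G χ a b z (v z')) + (G χ a b z (v z') - G χ a b z' (v z'))| := by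
        congr 1; ring
    _ ≤ _ := (abs_add_le _ _).trans (add_le_add h1 h2)

/-- increments of `w - v` -/
theorem inc' [Countable κ] {F : Finset κ} {z z' : ℂ} (hF : ∀ i, i ∉ F → z ∉ T i ∧ z' ∉ T i) :
    |(G χ a b z (v z) - v z) - (G χ a b z' (v z') - v z')| ≤
      |v z - v z'| + ∑ i ∈ F, |χ i z - χ i z'| * (b i - a i) := by
  have h2 := h.cut.G_z' (fun i hi => ⟨h.supp i z (hF i hi).1, h.supp i z' (hF i hi).2⟩) (v z')
  have h1 : |(G χ a b z (v z) - G χ a b z (v z')) - (v z - v z')| ≤ |v z - v z'| := by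
    have e : (G χ a b z (v z) - G χ a b z (v z')) - (v z - v z') =
        -∫ t in (v z')..(v z), ph χ a b z t := by
      rw [h.cut.G_sub, intervalIntegral.integral_sub intervalIntegrable_const
        (h.cut.integrable_ph z _ _)]
      simp
    rw [e, abs_neg]
    have := intervalIntegral.norm_integral_le_of_norm_le_const (a := v z') (b := v z) (C := 1)
      (f := fun t => ph χ a b z t) (fun t _ => by
        rw [Real.norm_eq_abs, abs_of_nonneg (h.cut.ph_nonneg z t)]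
        exact h.cut.ph_le_one z t)
    simpa using this
  calc |(G χ a b z (v z) - v z) - (G χ a b z' (v z') - v z')|
      = |((G χ a b z (v z) - G χ a b z (v z')) - (v z - v z')) +
          (G χ a b z (v z') - G χ a b z' (v z'))| := by
        congr 1; ring
    _ ≤ _ := (abs_add_le _ _).trans (add_le_add h1 h2)

/-- increments on `N i` -/
theorem inc_N [Countable κ] {F : Finset κ} {i : κ} {z z' : ℂ} (hz : z ∈ N i) (hz' : z' ∈ N i)
    (hF : ∀ i, i ∉ F → z ∉ T i ∧ z' ∉ T i) :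
    |G χ a b z (v z) - G χ a b z' (v z')| ≤ ∑ i ∈ F, |χ i z - χ i z'| * (b i - a i) := by
  rw [h.cut.G_const (h.one i z hz) (h.mem i z hz) (s' := a i) ⟨le_rfl, h.cut.ab i⟩,
    h.cut.G_const (h.one i z' hz') (h.mem i z' hz') (s' := a i) ⟨le_rfl, h.cut.ab i⟩]
  exact h.cut.G_z' (fun i hi => ⟨h.supp i z (hF i hi).1, h.supp i z' (hF i hi).2⟩) (a i)

/-- the sum of the increments of the cut-offs near a point -/
theorem slope_sum (F : Finset κ) (z : ℂ) :
    ∀ᶠ y in 𝓝 z, ∑ i ∈ F, |χ i y - χ i z| * (b i - a i) ≤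
      (∑ i ∈ F, (b i - a i) * g i z) * ‖y - z‖ := by
  have := (eventually_all_finset F).2 fun i _ => h.slope i z
  filter_upwards [this] with y hy
  rw [Finset.sum_mul]
  refine Finset.sum_le_sum fun i hi => ?_
  have := mul_le_mul_of_nonneg_right (hy i hi) (h.len_nonneg i)
  linarith

theorem exists_lip (F : Finset κ) : ∃ S : ℝ≥0, ∀ y y' : ℂ,
    ∑ i ∈ F, |χ i y - χ i y'| * (b i - a i) ≤ S * dist y y' := by
  choose L hL using h.lip
  have hS : 0 ≤ ∑ i ∈ F, (L i : ℝ) * (b i - a i) :=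
    Finset.sum_nonneg fun i _ => mul_nonneg (L i).2 (h.len_nonneg i)
  refine ⟨Real.toNNReal (∑ i ∈ F, (L i : ℝ) * (b i - a i)), fun y y' => ?_⟩
  rw [Real.coe_toNNReal _ hS, Finset.sum_mul]
  refine Finset.sum_le_sum fun i _ => ?_
  have h1 := (hL i).dist_le_mul y y'
  rw [Real.dist_eq] at h1
  have h2 := h.len_nonneg i
  nlinarith

/-- **locally Lipschitz off the dust** -/
theorem lipschitz [Countable κ] (hv : ∀ z ∈ U, ∃ K : ℝ≥0, ∃ t ∈ 𝓝 z, LipschitzOnWith K v t)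
    {z : ℂ} (hz : z ∈ U ∪ ⋃ i, N i) :
    ∃ K : ℝ≥0, ∃ t ∈ 𝓝 z, LipschitzOnWith K (fun z => G χ a b z (v z)) t := by
  obtain ⟨t, ht, F, hF⟩ := h.exists_active hz
  obtain ⟨S, hsum⟩ := h.exists_lip F
  rcases hz with hz | hz
  · obtain ⟨K, s, hs, hK⟩ := hv z hz
    refine ⟨K + S, t ∩ s, inter_mem ht hs, ?_⟩
    refine LipschitzOnWith.of_dist_le_mul fun y hy y' hy' => ?_
    have h1 := h.inc (F := F) (z := y) (z' := y') fun i hi => ⟨hF y hy.1 i hi, hF y' hy'.1 i hi⟩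
    have h2 := hK.dist_le_mul y hy.2 y' hy'.2
    have h3 := hsum y y'
    rw [Real.dist_eq] at h2 ⊢
    rw [NNReal.coe_add, add_mul]
    linarith
  · rw [mem_iUnion] at hz
    obtain ⟨j, hj⟩ := hz
    refine ⟨S, t ∩ N j, inter_mem ht ((h.No j).mem_nhds hj), ?_⟩
    refine LipschitzOnWith.of_dist_le_mul fun y hy y' hy' => ?_
    have h1 := h.inc_N hy.2 hy'.2 (F := F) fun i hi => ⟨hF y hy.1 i hi, hF y' hy'.1 i hi⟩
    rw [Real.dist_eq]
    exact h1.trans (hsum y y')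

/-- **continuity at the dust** -/
theorem continuousAt_dust [Countable κ] {q : ℂ} (hqB : q ∉ B) (hq : q ∉ U ∪ ⋃ i, N i) :
    ContinuousAt (fun z => G χ a b z (v z)) q := by
  rw [Metric.continuousAt_iff']
  intro ε0 hε0
  obtain ⟨ε, hε, hε1⟩ : ∃ ε : ℝ, 0 < ε ∧ 6 * ε < ε0 := ⟨ε0 / 12, by positivity, by linarith⟩
  obtain ⟨hcv, hd⟩ := h.dust q hqB hq
  obtain ⟨t, ht, hfin⟩ := hd ε hε
  set F : Finset κ := hfin.toFinset with hFdef
  have hactive : ∀ y ∈ t, ∀ i, i ∉ F → χ i y ≠ 0 →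
      Icc (a i) (b i) ⊆ Icc (v q - ε) (v q + ε) := by
    intro y hy i hi hne
    by_contra hcon
    refine hi (hfin.mem_toFinset.2 ⟨⟨y, ?_, hy⟩, hcon⟩)
    by_contra hyT
    exact hne (h.supp i y hyT)
  have hqt : q ∈ t := mem_of_mem_nhds ht
  have hcont : ∀ i, Continuous (χ i) := fun i => (h.lip i).choose_spec.continuous
  -- small neighbourhood
  have hχF : ∀ᶠ y in 𝓝 q, ∑ i ∈ F, |χ i y - χ i q| * (b i - a i) < ε := by
    have hc : Tendsto (fun y => ∑ i ∈ F, |χ i y - χ i q| * (b i - a i)) (𝓝 q) (𝓝 0) := by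
      have h0 : (fun y => ∑ i ∈ F, |χ i y - χ i q| * (b i - a i)) q = 0 := by simp
      rw [← h0]
      refine tendsto_finsetSum _ fun i _ => ?_
      exact (((hcont i).continuousAt.sub continuousAt_const).abs.mul continuousAt_const)
    exact hc.eventually_lt_const hε
  have hvq : ∀ᶠ y in 𝓝 q, |v y - v q| < ε := by
    have := Metric.continuousAt_iff'.1 hcv ε hε
    simpa only [Real.dist_eq] using this
  filter_upwards [ht, hχF, hvq] with y hy hyχ hyv
  rw [Real.dist_eq]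
  have h1 := h.cut.G_lip y (v y) (v q)
  have h2 := h.cut.G_z (F := F) (B := Icc (v q - ε) (v q + ε)) measurableSet_Icc
      (δ := 2 * ε) (by positivity) (by
        rw [Real.volume_Icc]
        exact ENNReal.ofReal_le_ofReal (by linarith)) (z := y) (z' := q)
      (fun i hi hne => by
        rcases hne with hne | hne
        · exact hactive y hy i hi hne
        · exact hactive q hqt i hi hne) (v q)
  calc |G χ a b y (v y) - G χ a b q (v q)|
      = |(G χ a b y (v y) - G χ a b y (v q)) + (G χ a b y (v q) - G χ a b q (v q))| := by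
        congr 1; ring
    _ ≤ _ := (abs_add_le _ _).trans (add_le_add h1 h2)
    _ < ε0 := by linarith

/-- **continuity off `B`** -/
theorem continuousOn [Countable κ]
    (hv : ∀ z ∈ U, ∃ K : ℝ≥0, ∃ t ∈ 𝓝 z, LipschitzOnWith K v t) :
    ContinuousOn (fun z => G χ a b z (v z)) Bᶜ := by
  intro z hz
  by_cases hz' : z ∈ U ∪ ⋃ i, N i
  · obtain ⟨K, t, ht, hK⟩ := h.lipschitz hv hz'
    exact (hK.continuousOn.continuousAt ht).continuousWithinAt
  · exact (h.continuousAt_dust hz hz').continuousWithinAt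

/-- **(derC)** -/
theorem fderiv_N [Countable κ] {i : κ} {z : ℂ} (hz : z ∈ N i) :
    ‖fderiv ℝ (fun z => G χ a b z (v z)) z‖ ≤ hh g a b z := by
  obtain ⟨t, ht, F, hF⟩ := h.exists_active (Or.inr (mem_iUnion.2 ⟨i, hz⟩))
  have hzt := mem_of_mem_nhds ht
  have hfin : hE g a b z ≠ ∞ := hE_ne_top fun j hj => h.gT j z (hF z hzt j hj)
  refine le_trans ?_ (h.sum_le_hh hfin F)
  refine norm_fderiv_le_of_lip' ℝ (Finset.sum_nonneg fun j _ => h.term_nonneg j z) ?_
  filter_upwards [ht, (h.No i).mem_nhds hz, h.slope_sum F z] with y hy hyN hys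
  rw [Real.norm_eq_abs]
  exact (h.inc_N hyN hz fun j hj => ⟨hF y hy j hj, hF z hzt j hj⟩).trans hys

/-- **(derU)** -/
theorem fderiv_U [Countable κ] {z : ℂ} (hz : z ∈ U) (hv : DifferentiableAt ℝ v z) :
    ‖fderiv ℝ (fun z => G χ a b z (v z)) z - fderiv ℝ v z‖ ≤
      (⋃ i, T i).indicator (fun z => ‖fderiv ℝ v z‖) z + hh g a b z := by
  obtain ⟨t, ht, F, hF⟩ := h.exists_active (Or.inl hz)
  have hzt := mem_of_mem_nhds ht
  have hfin : hE g a b z ≠ ∞ := hE_ne_top fun j hj => h.gT j z (hF z hzt j hj)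
  have hh0 : 0 ≤ hh g a b z := ENNReal.toReal_nonneg
  by_cases hA : z ∈ ⋃ i, T i
  · rw [indicator_of_mem hA]
    by_cases hw : DifferentiableAt ℝ (fun z => G χ a b z (v z)) z
    · refine le_of_forall_pos_le_add fun ε hε => ?_
      have hd := hw.hasFDerivAt.sub hv.hasFDerivAt
      refine hd.le_of_lip' (by positivity) ?_
      have h1 : ∀ᶠ y in 𝓝 z, |v y - v z| ≤ (‖fderiv ℝ v z‖ + ε) * ‖y - z‖ := by
        filter_upwards [hv.hasFDerivAt.isLittleO.def hε] with y hy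
        rw [Real.norm_eq_abs] at hy
        have h2 := (fderiv ℝ v z).le_opNorm (y - z)
        rw [Real.norm_eq_abs] at h2
        have h3 : |v y - v z| ≤ |v y - v z - fderiv ℝ v z (y - z)| + |fderiv ℝ v z (y - z)| := by
          simpa using abs_add_le (v y - v z - fderiv ℝ v z (y - z)) (fderiv ℝ v z (y - z))
        rw [add_mul]
        linarith
      filter_upwards [ht, h1, h.slope_sum F z] with y hy hy1 hys
      rw [Real.norm_eq_abs]
      have h2 := h.inc' (F := F) (z := y) (z' := z) fun j hj => ⟨hF y hy j hj, hF z hzt j hj⟩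
      have h3 := mul_le_mul_of_nonneg_right (h.sum_le_hh hfin F) (norm_nonneg (y - z))
      calc _ ≤ |v y - v z| + ∑ i ∈ F, |χ i y - χ i z| * (b i - a i) := h2
        _ ≤ (‖fderiv ℝ v z‖ + ε) * ‖y - z‖ + hh g a b z * ‖y - z‖ := by linarith
        _ = _ := by ring
    · rw [fderiv_zero_of_not_differentiableAt hw, zero_sub, norm_neg]
      linarith
  · rw [indicator_of_notMem hA, zero_add]
    have hno : ∀ᶠ y in 𝓝 z, ∀ i, y ∉ T i := by
      have h1 : ∀ᶠ y in 𝓝 z, ∀ i ∈ F, y ∉ T i := by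
        rw [eventually_all_finset]
        intro i _
        exact (h.Tc i).isOpen_compl.mem_nhds fun hm => hA (mem_iUnion.2 ⟨i, hm⟩)
      filter_upwards [ht, h1] with y hy hy1 i
      by_cases hi : i ∈ F
      · exact hy1 i hi
      · exact hF y hy i hi
    have heq : (fun z => G χ a b z (v z)) =ᶠ[𝓝 z] v := by
      filter_upwards [hno] with y hy
      have := h.cut.G_sub_self (F := ∅) (z := y) (fun i _ => h.supp i y (hy i)) (v y)
      rw [Finset.sum_empty] at this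
      exact sub_eq_zero.1 (abs_nonpos_iff.1 this)
    rw [heq.fderiv_eq, sub_self, norm_zero]
    exact hh0

end PData

end Crest.Agent.R105.Pln_897
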