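import Crest.Agent.R105.Pln2_868
import Crest.Agent.R105.Prod9_412

/-!
# Row 105, PLANP: absolute continuity on horizontal lines for the picture algebra
-/

namespace Crest.Agent.R105.Pln_868

open Set Filter MeasureTheory Topology
open CF_363
open scoped NNReal ENNReal

noncomputable section

variable {E : Set (ℝ × ℝ)} {A : (ℝ × ℝ → ℝ) → Prop} {a : ℝ × ℝ → ℝ}

namespace PicAlg

/-! ### separation of components -/

theorem cutA (h : PicAlg E A) {κ : ℝ × ℝ → ℝ} (hκ : Cut E κ) : A κ := by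
  have := h.cut κ hκ (fun _ => 1) ⟨0, LipschitzWith.const 1⟩
  simpa using this

/-- a cut function from a splitting of `E` -/
theorem exists_split {K1 K2 : Set (ℝ × ℝ)} (h1 : IsCompact K1) (h2 : IsClosed K2)
    (hd : Disjoint K1 K2) (hE : E ⊆ K1 ∪ K2) :
    ∃ κ, Cut E κ ∧ (∀ p ∈ K1, κ p = 1) ∧ ∀ p ∈ K2, κ p = 0 := by
  obtain ⟨κ, l, c, t, o, -⟩ := exists_cutoff h1 h2.isOpen_compl
    (fun p hp hp2 => Set.disjoint_left.1 hd hp hp2)
  have o' := o.self_of_nhdsSet
  have hz : ∀ p ∈ K2, ∀ᶠ q in 𝓝 p, κ q = 0 := fun p hp => by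
    have : p ∉ tsupport κ := fun hp' => t hp' hp
    exact notMem_tsupport_iff_eventuallyEq.1 this
  rw [eventually_nhdsSet_iff_forall] at o
  refine ⟨κ, ⟨l, c, fun p hp => ?_⟩, fun p hp => o' p hp, fun p hp => (hz p hp).self_of_nhds⟩
  rcases hE hp with hp | hp
  · filter_upwards [o p hp] with q hq
    rw [hq, o' p hp]
  · filter_upwards [hz p hp] with q hq
    rw [hq, (hz p hp).self_of_nhds]

/-- points of `E` in different components are separated by a splitting -/
theorem exists_clopen_split (hE : IsCompact E) {p q : ℝ × ℝ} (hp : p ∈ E) (hq : q ∈ E)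
    (hpq : q ∉ connectedComponentIn E p) :
    ∃ K1 K2 : Set (ℝ × ℝ), IsCompact K1 ∧ IsCompact K2 ∧ Disjoint K1 K2 ∧ E = K1 ∪ K2 ∧
      p ∈ K1 ∧ q ∈ K2 := by
  have : CompactSpace E := isCompact_iff_compactSpace.1 hE
  rw [connectedComponentIn_eq_image hp] at hpq
  have h1 : (⟨q, hq⟩ : E) ∉ connectedComponent (⟨p, hp⟩ : E) := fun h => hpq ⟨_, h, rfl⟩
  rw [connectedComponent_eq_iInter_isClopen] at h1
  simp only [mem_iInter, Subtype.forall, not_forall] at h1
  obtain ⟨s, ⟨hs, hps⟩, hqs⟩ := h1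
  refine ⟨Subtype.val '' s, Subtype.val '' sᶜ, hs.isClosed.isCompact.image continuous_subtype_val,
    hs.compl.isClosed.isCompact.image continuous_subtype_val, ?_, ?_, ⟨_, hps, rfl⟩, ⟨_, hqs, rfl⟩⟩
  · rw [Set.disjoint_image_iff Subtype.val_injective]
    exact disjoint_compl_right
  · rw [← image_union, union_compl_self, image_univ, Subtype.range_coe]

theorem sepc (h : PicAlg E A) {p q : ℝ × ℝ} (hne : p ≠ q) (hall : ∀ b, A b → b p = b q) :
    p ∈ E ∧ q ∈ connectedComponentIn E p := by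
  have key : ∀ p q : ℝ × ℝ, p ≠ q → (∀ b, A b → b p = b q) → p ∈ E := by
    intro p q hne hall
    by_contra hp
    obtain ⟨κ, hκ, h1, h2⟩ := exists_split (E := E) (K1 := {p}) (K2 := E ∪ {q}) isCompact_singleton
      (h.cpt.isClosed.union isClosed_singleton) (by
        rw [Set.disjoint_singleton_left]
        rintro (h1 | h1)
        · exact hp h1
        · exact hne h1) (subset_union_left.trans subset_union_right)
    have := hall κ (h.cutA hκ)
    rw [h1 p rfl, h2 q (Or.inr rfl)] at this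
    exact one_ne_zero this
  have hp := key p q hne hall
  have hq := key q p hne.symm fun b hb => (hall b hb).symm
  refine ⟨hp, ?_⟩
  by_contra hcon
  obtain ⟨K1, K2, k1, k2, kd, kE, kp, kq⟩ := exists_clopen_split h.cpt hp hq hcon
  obtain ⟨κ, hκ, h1, h2⟩ := exists_split k1 k2.isClosed kd kE.le
  have := hall κ (h.cutA hκ)
  rw [h1 p kp, h2 q kq] at this
  exact one_ne_zero this

/-- components of `E` are convex -/
theorem seg_cc (h : PicAlg E A) {p q r : ℝ × ℝ} (hp : p ∈ E) (hq : q ∈ connectedComponentIn E p)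
    (hr : r ∈ segment ℝ p q) : r ∈ connectedComponentIn E p := by
  have hqx := h.vert p hp q hq
  have hr1 : r.1 = p.1 := by
    obtain ⟨u, v, hu, hv, huv, rfl⟩ := hr
    simp only [Prod.fst_add, Prod.smul_fst, smul_eq_mul, hqx]
    rw [← add_mul, huv, one_mul]
  have hr2 : r.2 ∈ segment ℝ p.2 q.2 := by
    obtain ⟨u, v, hu, hv, huv, rfl⟩ := hr
    exact ⟨u, v, hu, hv, huv, by simp⟩
  have hpre : IsPreconnected (Prod.snd '' connectedComponentIn E p) :=
    isPreconnected_connectedComponentIn.image _ continuous_snd.continuousOn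
  have h3 : r.2 ∈ Prod.snd '' connectedComponentIn E p := by
    rw [segment_eq_uIcc] at hr2
    exact hpre.ordConnected.uIcc_subset ⟨p, mem_connectedComponentIn hp, rfl⟩ ⟨q, hq, rfl⟩ hr2
  obtain ⟨s, hs, hs2⟩ := h3
  have : s = r := Prod.ext ((h.vert p hp s hs).trans hr1.symm) hs2
  rwa [← this]

theorem agree_seg (h : PicAlg E A) {p q r : ℝ × ℝ} (hall : ∀ b, A b → b p = b q)
    (hr : r ∈ segment ℝ p q) : ∀ b, A b → b r = b p := by
  intro b hb
  rcases eq_or_ne p q with rfl | hne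
  · rw [segment_same] at hr
    rw [mem_singleton_iff.1 hr]
  · obtain ⟨hp, hq⟩ := h.sepc hne hall
    exact h.cst b hb p hp r (h.seg_cc hp hq hr)

/-! ### general Stokes -/

theorem ii_eq {g : ℝ × ℝ → ℝ} {s t c0 c1 : ℝ} (hst : s ≤ t) (hcc : c0 ≤ c1)
    (hg : IntegrableOn g (Ioc s t ×ˢ Ioc c0 c1)) :
    ∫ x in s..t, ∫ y in c0..c1, g (x, y) = ∫ p in Ioc s t ×ˢ Ioc c0 c1, g p := by
  rw [Measure.volume_eq_prod] at hg ⊢
  rw [setIntegral_prod _ hg, intervalIntegral.integral_of_le hst]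
  simp only [intervalIntegral.integral_of_le hcc]

theorem ii_eq' {g : ℝ × ℝ → ℝ} {s t c0 c1 : ℝ} (hst : s ≤ t) (hcc : c0 ≤ c1)
    (hg : IntegrableOn g (Ioc s t ×ˢ Ioc c0 c1)) :
    ∫ y in c0..c1, ∫ x in s..t, g (x, y) = ∫ p in Ioc s t ×ˢ Ioc c0 c1, g p := by
  rw [Measure.volume_eq_prod, ← setIntegral_prod_swap, setIntegral_prod,
    intervalIntegral.integral_of_le hcc]
  · simp only [intervalIntegral.integral_of_le hst, Prod.swap]
  · rw [Measure.volume_eq_prod] at hg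
    exact hg.swap

theorem vol_rect_ne (s t c0 c1 : ℝ) : (volume : Measure (ℝ × ℝ)) (Icc s t ×ˢ Icc c0 c1) ≠ ∞ :=
  (isCompact_Icc.prod isCompact_Icc).measure_lt_top.ne

theorem stokes (h : PicAlg E A) (ha : A a) {c0 c1 : ℝ} (hcc : c0 ≤ c1)
    (hE : E ⊆ {p | c0 < p.2 ∧ p.2 < c1}) {s t : ℝ} (hst : s ≤ t) :
    (∫ y in c0..c1, a (t, y)) - (∫ y in c0..c1, a (s, y)) =
      ∫ x in s..t, ∫ y in c0..c1, gx a (x, y) := by
  have hcont := h.cont a ha
  have hO : IsOpen {p : ℝ × ℝ | c0 < p.2 ∧ p.2 < c1} :=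
    (isOpen_lt continuous_const continuous_snd).inter (isOpen_lt continuous_snd continuous_const)
  obtain ⟨κ, l, c, tk, o, -⟩ := exists_cutoff h.cpt hO hE
  have o' := o.self_of_nhdsSet
  rw [eventually_nhdsSet_iff_forall] at o
  have hκ : Cut E κ := ⟨l, c, fun p hp => by
    filter_upwards [o p hp] with q hq
    rw [hq, o' p hp]⟩
  set b1 : ℝ × ℝ → ℝ := fun p => κ p * a p with hb1
  have hA1 : A b1 := h.mul _ _ (h.cutA hκ) ha
  have hc1 : HasCompactSupport b1 := c.mul_right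
  have ht1 : tsupport b1 ⊆ {p | c0 < p.2 ∧ p.2 < c1} :=
    (tsupport_mul_subset_left).trans tk
  have S1 := h.stokes_cpt hA1 hc1 hcc ht1 hst
  set b2 : ℝ × ℝ → ℝ := fun p => (1 - κ p) * a p with hb2
  obtain ⟨L, hL⟩ := l
  have hκc : Continuous κ := hL.continuous
  have hb2c : Continuous b2 := (continuous_const.sub hκc).mul hcont
  have hb1c : Continuous b1 := hκc.mul hcont
  have hll : LocallyLipschitzOn univ b2 := by
    intro x _
    by_cases hx : x ∈ E
    · refine ⟨0, {q | κ q = 1}, mem_nhdsWithin_of_mem_nhds (o x hx), ?_⟩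
      refine LipschitzOnWith.of_dist_le_mul fun p hp q hq => ?_
      have hp' : κ p = 1 := hp
      have hq' : κ q = 1 := hq
      simp [hb2, hp', hq']
    · have h1 : LocallyLipschitzOn Eᶜ (fun p => 1 - κ p) := by
        have : LipschitzWith (0 + L) (fun p => 1 - κ p) := (LipschitzWith.const (1 : ℝ)).sub hL
        exact ll_of_lip this
      obtain ⟨K, t, ht, hK⟩ := ll_mul h1 (h.loc a ha) (x := x) hx
      refine ⟨K, t, ?_, hK⟩
      rw [h.isOpen.nhdsWithin_eq hx] at ht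
      exact mem_nhdsWithin_of_mem_nhds ht
  have hftc := ftc_x isOpen_univ hll
  have hsum : ∀ᵐ p : ℝ × ℝ, gx a p = gx b1 p + gx b2 p := by
    filter_upwards [h.aeDiff hA1, ae_diff isOpen_univ hll] with p h1 h2
    have : a = fun p => b1 p + b2 p := by
      funext p; simp only [hb1, hb2]; ring
    conv_lhs => rw [this]
    exact gx_add h1 (h2 (mem_univ p))
  set Q : Set (ℝ × ℝ) := Ioc s t ×ˢ Ioc c0 c1 with hQ
  have hQv : volume Q ≠ ∞ :=
    ((measure_mono (Set.prod_mono Ioc_subset_Icc_self Ioc_subset_Icc_self)).trans_lt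
      (vol_rect_ne s t c0 c1).lt_top).ne
  have i0 : IntegrableOn (gx a) Q := h.intOn_gx ha hQv
  have i1 : IntegrableOn (gx b1) Q := h.intOn_gx hA1 hQv
  have i2 : IntegrableOn (gx b2) Q := by
    refine (i0.sub i1).congr ?_
    filter_upwards [ae_restrict_of_ae hsum] with p hp
    simp only [Pi.sub_apply]
    linarith
  have e1 : ∀ x : ℝ, ∫ y in c0..c1, a (x, y) = (∫ y in c0..c1, b1 (x, y)) + ∫ y in c0..c1, b2 (x, y) := by
    intro x
    rw [← intervalIntegral.integral_add]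
    · refine intervalIntegral.integral_congr fun y _ => ?_
      simp only [hb1, hb2]; ring
    · exact (hb1c.comp (by fun_prop)).intervalIntegrable _ _
    · exact (hb2c.comp (by fun_prop)).intervalIntegrable _ _
  have e2 : (∫ y in c0..c1, b2 (t, y)) - (∫ y in c0..c1, b2 (s, y)) = ∫ p in Q, gx b2 p := by
    rw [← ii_eq' hst hcc i2, ← intervalIntegral.integral_sub]
    · refine intervalIntegral.integral_congr_ae ?_
      filter_upwards [hftc] with y hy _
      exact hy s t fun x _ => mem_univ _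
    · exact (hb2c.comp (by fun_prop)).intervalIntegrable _ _
    · exact (hb2c.comp (by fun_prop)).intervalIntegrable _ _
  rw [ii_eq hst hcc i1] at S1
  rw [ii_eq hst hcc i0, e1, e1, integral_congr_ae (ae_restrict_of_ae hsum), integral_add i1 i2]
  linarith

/-- the slab structure of 412 -/
theorem slab (h : PicAlg E A) {t0 t1 y0 y1 : ℝ} (hy : y0 ≤ y1)
    (hE : E ⊆ {p | y0 < p.2 ∧ p.2 < y1}) :
    Prod_412.Slab {b | A b} gx t0 t1 y0 y1 where
  const := h.const
  add := fun a ha b hb => h.add a b ha hb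
  mul := fun a ha b hb => h.mul a b ha hb
  cont := fun a ha => (h.cont a ha).continuousOn
  int := fun a ha => h.intOn_gx ha (vol_rect_ne _ _ _ _)
  der := fun a ha => by
    filter_upwards [ae_restrict_of_ae (h.aeDiff ha)] with p hp
    exact gx_eq_deriv (x := p.1) (y := p.2) hp
  el := fun a ha t _ t' _ htt => h.stokes ha hy hE htt

theorem hor_rect (h : PicAlg E A) (ha : A a) {t0 t1 y0 y1 : ℝ} (hy : y0 ≤ y1)
    (hE : E ⊆ {p | y0 < p.2 ∧ p.2 < y1}) :
    ∀ᵐ y ∂((volume : Measure ℝ).restrict (Icc y0 y1)),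
      IntegrableOn (fun s => gx a (s, y)) (Icc t0 t1) ∧
      ∀ t ∈ Icc t0 t1, ∀ t' ∈ Icc t0 t1, a (t', y) - a (t, y) = ∫ s in t..t', gx a (s, y) := by
  refine Prod_412.acl_of_fibres (h.slab hy hE) hy (fun b hb τ _ hτ _ => h.comp τ hτ b hb)
    (S := {b // A b} → ℝ) (fun p b => b.1 p) (fun b hb p q hpq => congrFun hpq ⟨b, hb⟩)
    (fun p _ q _ hpq => funext fun b => hpq b.1 b.2) (fun p q hpq r hr => ?_) ha
  funext b
  exact h.agree_seg (fun b hb => congrFun hpq ⟨b, hb⟩) hr b.1 b.2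

/-- **absolute continuity on a.e. horizontal line** -/
theorem hor (h : PicAlg E A) (ha : A a) :
    ∀ᵐ y : ℝ, ∀ s t : ℝ, IntervalIntegrable (fun x => gx a (x, y)) volume s t ∧
      a (t, y) - a (s, y) = ∫ x in s..t, gx a (x, y) := by
  obtain ⟨R, hR⟩ := h.cpt.isBounded.exists_norm_le
  obtain ⟨N0, hN0⟩ := exists_nat_gt R
  have key : ∀ N : ℕ, ∀ᵐ y : ℝ, y ∈ Icc (-((N0 + N : ℕ) : ℝ)) ((N0 + N : ℕ) : ℝ) →
      IntegrableOn (fun s => gx a (s, y)) (Icc (-((N0 + N : ℕ) : ℝ)) ((N0 + N : ℕ) : ℝ)) ∧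
      ∀ t ∈ Icc (-((N0 + N : ℕ) : ℝ)) ((N0 + N : ℕ) : ℝ), ∀ t' ∈ Icc (-((N0 + N : ℕ) : ℝ)) ((N0 + N : ℕ) : ℝ),
        a (t', y) - a (t, y) = ∫ s in t..t', gx a (s, y) := by
    intro N
    rw [← ae_restrict_iff' measurableSet_Icc]
    refine h.hor_rect ha (by
      have : (0 : ℝ) ≤ ((N0 + N : ℕ) : ℝ) := Nat.cast_nonneg _
      linarith) fun p hp => ?_
    have h1 : |p.2| ≤ R := (norm_snd_le p).trans (hR p hp)
    have h2 : (N0 : ℝ) ≤ ((N0 + N : ℕ) : ℝ) := by exact_mod_cast Nat.le_add_right _ _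
    rw [abs_le] at h1
    exact ⟨by linarith [h1.1], by linarith [h1.2]⟩
  rw [← ae_all_iff] at key
  filter_upwards [key] with y hy s t
  obtain ⟨N, hN⟩ := exists_nat_gt (max |y| (max |s| |t|))
  have h2 : (N : ℝ) ≤ ((N0 + N : ℕ) : ℝ) := by exact_mod_cast Nat.le_add_left _ _
  have hm : ∀ u : ℝ, |u| ≤ max |y| (max |s| |t|) → u ∈ Icc (-((N0 + N : ℕ) : ℝ)) ((N0 + N : ℕ) : ℝ) := by
    intro u hu
    rw [mem_Icc, ← abs_le]
    linarith
  obtain ⟨h3, h4⟩ := hy N (hm y (le_max_left _ _))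
  have hs := hm s ((le_max_left _ _).trans (le_max_right _ _))
  have ht := hm t ((le_max_right _ _).trans (le_max_right _ _))
  refine ⟨?_, h4 s hs t ht⟩
  rw [intervalIntegrable_iff]
  exact h3.mono_set ((uIoc_subset_uIcc).trans (ordConnected_Icc.uIcc_subset hs ht))

end PicAlg

end

end Crest.Agent.R105.Pln_868
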