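import Crest.Agent.R105.Pln2_897

/-! Row 105, S0139, RED-PLAN (helper897), part 3: finite sups, measurability, the constants. -/

set_option autoImplicit false

open Set Filter Topology Metric MeasureTheory
open scoped ENNReal NNReal

namespace Crest.Agent.R105.Pln_897

variable {κ : Type*}

open Classical in
/-- restricted cut-offs -/
noncomputable def res (F : Finset κ) (χ : κ → ℂ → ℝ) (i : κ) (z : ℂ) : ℝ :=
  if i ∈ F then χ i z else 0

theorem res_mem {F : Finset κ} {χ : κ → ℂ → ℝ} {i : κ} (hi : i ∈ F) (z : ℂ) :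
    res F χ i z = χ i z := by
  classical
  exact if_pos hi

theorem res_not {F : Finset κ} {χ : κ → ℂ → ℝ} {i : κ} (hi : i ∉ F) (z : ℂ) :
    res F χ i z = 0 := by
  classical
  exact if_neg hi

theorem Cut.res {χ : κ → ℂ → ℝ} {a b : κ → ℝ} (h : Cut χ a b) (F : Finset κ) :
    Cut (res F χ) a b where
  nonneg i z := by
    by_cases hi : i ∈ F
    · rw [res_mem hi]; exact h.nonneg i z
    · rw [res_not hi]
  le_one i z := by
    by_cases hi : i ∈ F
    · rw [res_mem hi]; exact h.le_one i z
    · rw [res_not hi]; exact zero_le_one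
  ab := h.ab

/-- `|G z s| ≤ |s|` -/
theorem Cut.abs_G_le {χ : κ → ℂ → ℝ} {a b : κ → ℝ} (h : Cut χ a b) [Countable κ] (z : ℂ) (s : ℝ) :
    |G χ a b z s| ≤ |s| := by
  have := h.G_lip z s 0
  have h0 : G χ a b z 0 = 0 := intervalIntegral.integral_same
  rwa [h0, sub_zero, sub_zero] at this

/-- the finite sups converge -/
theorem Cut.tendsto_ph {χ : κ → ℂ → ℝ} {a b : κ → ℝ} (h : Cut χ a b) (z : ℂ) (t : ℝ) :
    Tendsto (fun F : Finset κ => ph (Pln_897.res F χ) a b z t) atTop (𝓝 (ph χ a b z t)) := by
  rw [tendsto_order]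
  constructor
  · intro x hx
    rcases isEmpty_or_nonempty κ with he | hne
    · refine Eventually.of_forall fun F => ?_
      have : ph (Pln_897.res F χ) a b z t = ph χ a b z t := by
        unfold ph
        rw [Real.iSup_of_isEmpty, Real.iSup_of_isEmpty]
      rw [this]
      exact hx
    · obtain ⟨i, hi⟩ := exists_lt_of_lt_ciSup hx
      filter_upwards [eventually_ge_atTop ({i} : Finset κ)] with F hF
      have hiF : i ∈ F := hF (Finset.mem_singleton_self i)
      have := (h.res F).le_ph i z t
      rw [res_mem hiF] at this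
      exact lt_of_lt_of_le hi this
  · intro x hx
    refine Eventually.of_forall fun F => lt_of_le_of_lt ?_ hx
    refine Real.iSup_le (fun i => ?_) (h.ph_nonneg z t)
    by_cases hi : i ∈ F
    · rw [res_mem hi]; exact h.le_ph i z t
    · rw [res_not hi, zero_mul]; exact h.ph_nonneg z t

/-- the finite clampings converge -/
theorem Cut.tendsto_G {χ : κ → ℂ → ℝ} {a b : κ → ℝ} (h : Cut χ a b) [Countable κ] (z : ℂ)
    (s : ℝ) :
    Tendsto (fun F : Finset κ => G (Pln_897.res F χ) a b z s) atTop (𝓝 (G χ a b z s)) := by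
  unfold G
  refine intervalIntegral.tendsto_integral_filter_of_dominated_convergence (fun _ => (1 : ℝ))
    ?_ ?_ intervalIntegrable_const ?_
  · exact Eventually.of_forall fun F =>
      (measurable_const.sub (Cut.measurable_ph z)).aestronglyMeasurable
  · refine Eventually.of_forall fun F => Eventually.of_forall fun t _ => ?_
    rw [Real.norm_eq_abs, abs_le]
    constructor <;> linarith [(h.res F).ph_nonneg z t, (h.res F).ph_le_one z t]
  · exact Eventually.of_forall fun t _ => tendsto_const_nhds.sub (h.tendsto_ph z t)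

namespace PData

variable {U B : Set ℂ} {v : ℂ → ℝ} {N T : κ → Set ℂ} {χ g : κ → ℂ → ℝ} {a b : κ → ℝ}
variable (h : PData U B v N T χ g a b)
include h

/-- increments of the finite clampings -/
theorem inc_res [Countable κ] (F : Finset κ) (z z' : ℂ) (s : ℝ) :
    |G (res F χ) a b z s - G (res F χ) a b z' s| ≤ ∑ i ∈ F, |χ i z - χ i z'| * (b i - a i) := by
  have := (h.cut.res F).G_z' (F := F) (z := z) (z' := z')
    (fun i hi => ⟨res_not hi z, res_not hi z'⟩) s
  refine this.trans (Finset.sum_le_sum fun i hi => ?_)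
  rw [res_mem hi, res_mem hi]

theorem lip_res [Countable κ] (F : Finset κ) (s : ℝ) :
    ∃ S : ℝ≥0, LipschitzWith S fun z => G (res F χ) a b z s := by
  obtain ⟨S, hS⟩ := h.exists_lip F
  refine ⟨S, LipschitzWith.of_dist_le_mul fun z z' => ?_⟩
  rw [Real.dist_eq]
  exact (h.inc_res F z z' s).trans (hS z z')

/-- **(meas)** -/
theorem measurable_G [Countable κ] (s : ℝ) : Measurable fun z => G χ a b z s := by
  refine measurable_of_tendsto_metrizable' (atTop : Filter (Finset κ))
    (f := fun F z => G (res F χ) a b z s) (fun F => ?_) ?_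
  · obtain ⟨S, hS⟩ := h.lip_res F s
    exact hS.continuous.measurable
  · rw [tendsto_pi_nhds]
    exact fun z => h.cut.tendsto_G z s

/-- **(cst)** -/
theorem cst [Countable κ] (hfin : ∀ᵐ z, hE g a b z ≠ ∞) (hi : Integrable (hh g a b))
    (s : ℝ) {η : ℂ → ℝ} {K : ℝ≥0} (hη : LipschitzWith K η) (hc : HasCompactSupport η) (e : ℂ) :
    |∫ z, G χ a b z s * fderiv ℝ η z e| ≤ ‖e‖ * ∫ z, |η z| * hh g a b z := by
  have hηc : Continuous η := hη.continuous
  obtain ⟨M, hM⟩ := hc.exists_bound_of_continuous hηc
  have hI : Integrable fun z => |η z| * hh g a b z := by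
    refine (hi.norm.const_mul M).mono (hηc.abs.aestronglyMeasurable.mul hi.aestronglyMeasurable)
      (Eventually.of_forall fun z => ?_)
    rw [norm_mul, norm_mul, norm_norm, Real.norm_eq_abs |η z|, abs_abs]
    have h1 := hM z
    rw [Real.norm_eq_abs] at h1
    have h2 : |η z| ≤ ‖M‖ := h1.trans (le_abs_self M)
    exact mul_le_mul_of_nonneg_right h2 (norm_nonneg _)
  have hηd : ∀ᵐ z, DifferentiableAt ℝ η z := hη.ae_differentiableAt
  -- finite
  have hF : ∀ F : Finset κ, |∫ z, G (res F χ) a b z s * fderiv ℝ η z e| ≤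
      ‖e‖ * ∫ z, |η z| * hh g a b z := by
    intro F
    obtain ⟨S, hS⟩ := h.lip_res F s
    have h1 := hS.integral_lineDeriv_mul_eq (μ := volume) hη hc e
    have h2 : ∫ z, G (res F χ) a b z s * fderiv ℝ η z e =
        -∫ z, lineDeriv ℝ η z (-e) * G (res F χ) a b z s := by
      rw [← integral_neg]
      refine integral_congr_ae ?_
      filter_upwards [hηd] with z hz
      rw [hz.lineDeriv_eq_fderiv, map_neg]
      ring
    rw [h2, ← h1, abs_neg, ← integral_const_mul]
    rw [← Real.norm_eq_abs]
    refine (norm_integral_le_integral_norm _).trans ?_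
    refine integral_mono_of_nonneg (Eventually.of_forall fun z => norm_nonneg _)
      (hI.const_mul _) ?_
    filter_upwards [hfin] with z hz
    show ‖_‖ ≤ _
    rw [norm_mul, Real.norm_eq_abs (η z)]
    have h3 : ‖lineDeriv ℝ (fun z => G (res F χ) a b z s) z e‖ ≤
        (∑ i ∈ F, (b i - a i) * g i z) * ‖e‖ := by
      refine norm_lineDeriv_le_of_lip' ℝ (Finset.sum_nonneg fun i _ => h.term_nonneg i z) ?_
      filter_upwards [h.slope_sum F z] with y hy
      rw [Real.norm_eq_abs]
      exact (h.inc_res F y z s).trans hy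
    have h4 := h.sum_le_hh hz F
    calc _ ≤ ((∑ i ∈ F, (b i - a i) * g i z) * ‖e‖) * |η z| :=
          mul_le_mul_of_nonneg_right h3 (abs_nonneg _)
      _ ≤ (hh g a b z * ‖e‖) * |η z| := by gcongr
      _ = _ := by ring
  -- the limit
  have hlim : Tendsto (fun F : Finset κ => ∫ z, G (res F χ) a b z s * fderiv ℝ η z e) atTop
      (𝓝 (∫ z, G χ a b z s * fderiv ℝ η z e)) := by
    refine tendsto_integral_filter_of_dominated_convergence
      (fun z : ℂ => |s| * ‖fderiv ℝ η z e‖) ?_ ?_ ?_ ?_
    · refine Eventually.of_forall fun F => ?_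
      obtain ⟨S, hS⟩ := h.lip_res F s
      exact hS.continuous.aestronglyMeasurable.mul
        (measurable_fderiv_apply_const ℝ η e).aestronglyMeasurable
    · refine Eventually.of_forall fun F => Eventually.of_forall fun z => ?_
      rw [norm_mul, Real.norm_eq_abs (G _ _ _ _ _)]
      exact mul_le_mul_of_nonneg_right ((h.cut.res F).abs_G_le z s) (norm_nonneg _)
    · refine Integrable.const_mul ?_ _
      refine Integrable.norm ?_
      have hcs : HasCompactSupport fun z => fderiv ℝ η z e := hc.fderiv_apply ℝ e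
      refine (integrableOn_iff_integrable_of_support_subset (s := tsupport fun z => fderiv ℝ η z e)
        subset_closure).1 ?_
      refine Measure.integrableOn_of_bounded (M := K * ‖e‖) hcs.isCompact.measure_lt_top.ne
        (measurable_fderiv_apply_const ℝ η e).aestronglyMeasurable
        (Eventually.of_forall fun z => ?_)
      exact (ContinuousLinearMap.le_opNorm _ _).trans
        (mul_le_mul_of_nonneg_right (norm_fderiv_le_of_lipschitz ℝ hη) (norm_nonneg _))
    · exact Eventually.of_forall fun z => (h.cut.tendsto_G z s).mul_const _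
  exact le_of_tendsto hlim.abs (Eventually.of_forall hF)

end PData

end Crest.Agent.R105.Pln_897
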