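import Mathlib

/-! Row 105, S0139, RED-PLAN (helper897), part 4: cut-offs of discs and of points. -/

set_option autoImplicit false

open Set Filter Topology Metric MeasureTheory
open scoped ENNReal NNReal

namespace Crest.Agent.R105.Pln_897

/-- a cut-off, one on `closedBall c p`, supported by `closedBall c ρ`, with slope `g` -/
structure CutAt (c : ℂ) (p ρ : ℝ) (χ g : ℂ → ℝ) : Prop where
  nonneg : ∀ z, 0 ≤ χ z
  le_one : ∀ z, χ z ≤ 1
  one : ∀ z ∈ closedBall c p, χ z = 1
  lip : ∃ L : ℝ≥0, LipschitzWith L χ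
  supp : ∀ z ∉ closedBall c ρ, χ z = 0
  g0 : ∀ z, 0 ≤ g z
  gT : ∀ z ∉ closedBall c ρ, g z = 0
  gm : Measurable g
  slope : ∀ z, ∀ᶠ y in 𝓝 z, |χ y - χ z| ≤ g z * ‖y - z‖

/-- the basic cut-off -/
noncomputable def bump (c : ℂ) (p q : ℝ) (z : ℂ) : ℝ := max 0 (min 1 ((q - dist z c) / (q - p)))

theorem bump_nonneg (c : ℂ) (p q : ℝ) (z : ℂ) : 0 ≤ bump c p q z := le_max_left _ _

theorem bump_le_one (c : ℂ) (p q : ℝ) (z : ℂ) : bump c p q z ≤ 1 :=
  max_le zero_le_one (min_le_left _ _)

theorem bump_one {c : ℂ} {p q : ℝ} (h : p < q) {z : ℂ} (hz : dist z c ≤ p) :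
    bump c p q z = 1 := by
  have h1 : 1 ≤ (q - dist z c) / (q - p) := by
    rw [le_div_iff₀ (sub_pos.2 h)]
    linarith
  rw [bump, min_eq_left h1, max_eq_right zero_le_one]

theorem bump_zero {c : ℂ} {p q : ℝ} (h : p < q) {z : ℂ} (hz : q ≤ dist z c) :
    bump c p q z = 0 := by
  have h1 : (q - dist z c) / (q - p) ≤ 0 :=
    div_nonpos_of_nonpos_of_nonneg (by linarith) (sub_pos.2 h).le
  rw [bump, min_eq_right (h1.trans zero_le_one), max_eq_left h1]

theorem bump_lip (c : ℂ) {p q : ℝ} (h : p < q) (z y : ℂ) :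
    |bump c p q y - bump c p q z| ≤ 1 / (q - p) * ‖y - z‖ := by
  have hq := sub_pos.2 h
  have h1 : |bump c p q y - bump c p q z| ≤
      |(q - dist y c) / (q - p) - (q - dist z c) / (q - p)| := by
    set A := (q - dist y c) / (q - p)
    set D := (q - dist z c) / (q - p)
    have e1 : |max 0 (min 1 A) - max 0 (min 1 D)| ≤ |min 1 A - min 1 D| := by
      rw [max_comm 0, max_comm 0]
      exact abs_max_sub_max_le_abs _ _ _
    have e2 : |min 1 A - min 1 D| ≤ |A - D| := by
      have := abs_min_sub_min_le_max 1 A 1 D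
      rw [sub_self, abs_zero, max_eq_right (abs_nonneg _)] at this
      exact this
    exact e1.trans e2
  refine h1.trans ?_
  rw [← sub_div, abs_div, abs_of_pos hq, div_le_iff₀ hq]
  have h2 : |q - dist y c - (q - dist z c)| ≤ dist y z := by
    have := abs_dist_sub_le y z c
    rw [show q - dist y c - (q - dist z c) = -(dist y c - dist z c) by ring, abs_neg]
    exact this
  calc _ ≤ dist y z := h2
    _ = _ := by rw [dist_eq_norm y z]; field_simp

theorem bump_lipschitz (c : ℂ) {p q : ℝ} (h : p < q) :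
    LipschitzWith (Real.toNNReal (1 / (q - p))) (bump c p q) := by
  refine LipschitzWith.of_dist_le_mul fun y z => ?_
  rw [Real.dist_eq, dist_eq_norm, Real.coe_toNNReal _ (by
    have := sub_pos.2 h
    positivity)]
  exact bump_lip c h z y

theorem bump_slope (c : ℂ) {p q : ℝ} (h : p < q) (z : ℂ) : ∀ᶠ y in 𝓝 z,
    |bump c p q y - bump c p q z| ≤
      (closedBall c q \ ball c p).indicator (fun _ => 1 / (q - p)) z * ‖y - z‖ := by
  by_cases h1 : z ∈ closedBall c q
  · by_cases h2 : z ∈ ball c p
    · filter_upwards [isOpen_ball.mem_nhds h2] with y hy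
      rw [bump_one h (mem_ball.1 hy).le, bump_one h (mem_ball.1 h2).le, sub_self, abs_zero]
      refine mul_nonneg (indicator_nonneg (fun _ _ => ?_) _) (norm_nonneg _)
      have := sub_pos.2 h
      positivity
    · rw [indicator_of_mem (show z ∈ closedBall c q \ ball c p from ⟨h1, h2⟩)]
      exact Eventually.of_forall fun y => bump_lip c h z y
  · filter_upwards [isClosed_closedBall.isOpen_compl.mem_nhds h1] with y hy
    have e1 : q ≤ dist y c := (not_le.1 fun hm => hy (mem_closedBall.2 hm)).le
    have e2 : q ≤ dist z c := (not_le.1 fun hm => h1 (mem_closedBall.2 hm)).le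
    rw [bump_zero h e1, bump_zero h e2, sub_self, abs_zero]
    refine mul_nonneg (indicator_nonneg (fun _ _ => ?_) _) (norm_nonneg _)
    have := sub_pos.2 h
    positivity

/-- the cut-off of a disc -/
theorem exists_disc (c : ℂ) {r : ℝ} (hr : 0 < r) :
    ∃ χ : ℂ → ℝ, CutAt c (3 / 2 * r) (2 * r) χ
      ((closedBall c (2 * r)).indicator fun _ => 2 / r) := by
  have hpq : 3 / 2 * r < 2 * r := by linarith
  have e : 1 / (2 * r - 3 / 2 * r) = 2 / r := by field_simp; norm_num
  refine ⟨bump c (3 / 2 * r) (2 * r), bump_nonneg _ _ _, bump_le_one _ _ _, fun z hz =>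
    bump_one hpq hz, ⟨_, bump_lipschitz c hpq⟩, fun z hz => bump_zero hpq (not_le.1 hz).le,
    fun z => indicator_nonneg (fun _ _ => by positivity) z, fun z hz => indicator_of_notMem hz _,
    measurable_const.indicator measurableSet_closedBall, fun z => ?_⟩
  filter_upwards [bump_slope c hpq z] with y hy
  refine hy.trans (mul_le_mul_of_nonneg_right ?_ (norm_nonneg _))
  rw [e]
  exact indicator_le_indicator_of_subset sdiff_subset (fun _ => by positivity) z

/-- the annular slope -/
noncomputable def ga (c : ℂ) (s : ℝ) (z : ℂ) : ℝ :=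
  (closedBall c (2 * s) \ ball c s).indicator (fun _ => 1 / s) z

theorem ga_nonneg (c : ℂ) {s : ℝ} (hs : 0 < s) (z : ℂ) : 0 ≤ ga c s z :=
  indicator_nonneg (fun _ _ => by positivity) z

theorem measurable_ga (c : ℂ) (s : ℝ) : Measurable (ga c s) :=
  measurable_const.indicator (measurableSet_closedBall.diff measurableSet_ball)

theorem lintegral_ga_sq (c : ℂ) {s : ℝ} (hs : 0 < s) :
    ∫⁻ z, ENNReal.ofReal (ga c s z ^ 2) ≤ ENNReal.ofReal (4 * Real.pi) := by
  calc ∫⁻ z, ENNReal.ofReal (ga c s z ^ 2)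
      ≤ ∫⁻ z, (closedBall c (2 * s)).indicator (fun _ => ENNReal.ofReal ((1 / s) ^ 2)) z := by
        refine lintegral_mono fun z => ?_
        by_cases hz : z ∈ closedBall c (2 * s) \ ball c s
        · rw [ga, indicator_of_mem hz, indicator_of_mem hz.1]
        · rw [ga, indicator_of_notMem hz]
          simp
    _ = ENNReal.ofReal ((1 / s) ^ 2) * volume (closedBall c (2 * s)) := by
        rw [lintegral_indicator measurableSet_closedBall, setLIntegral_const]
    _ = ENNReal.ofReal (4 * Real.pi) := by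
        rw [Complex.volume_closedBall, ← ENNReal.ofReal_pow (by positivity),
          ← ENNReal.ofReal_coe_nnreal, NNReal.coe_real_pi, ← ENNReal.ofReal_mul (by positivity),
          ← ENNReal.ofReal_mul (by positivity)]
        congr 1
        field_simp
        ring
    _ ≤ _ := le_rfl

/-- the cut-off of a point -/
theorem exists_pt (c : ℂ) {δ : ℝ} (hδ : 0 < δ) :
    ∃ (p ρ : ℝ) (χ g : ℂ → ℝ), 0 < p ∧ 0 < ρ ∧ ρ ≤ δ ∧ CutAt c p ρ χ g ∧
      ∫⁻ z, ENNReal.ofReal (g z ^ 2) ≤ ENNReal.ofReal δ := by
  obtain ⟨n, hn⟩ := exists_nat_gt (4 * Real.pi / δ)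
  have hn0 : 0 < (n : ℝ) := lt_trans (by positivity) hn
  set s : ℕ → ℝ := fun j => δ / 2 * (1 / 4) ^ j with hs
  have hs0 : ∀ j, 0 < s j := fun j => by positivity
  have hsl : ∀ j, s j < 2 * s j := fun j => by linarith [hs0 j]
  have hmono : ∀ j k, j < k → 2 * s k < s j := by
    intro j k hjk
    have h1 : (1 / 4 : ℝ) ^ k ≤ (1 / 4) ^ (j + 1) :=
      pow_le_pow_of_le_one (by norm_num) (by norm_num) hjk
    have h2 : s k ≤ s j / 4 := by
      show δ / 2 * (1 / 4) ^ k ≤ δ / 2 * (1 / 4) ^ j / 4
      rw [pow_succ] at h1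
      nlinarith
    linarith [hs0 j]
  have hanti : ∀ j k, j ≤ k → s k ≤ s j := by
    intro j k hjk
    rcases hjk.lt_or_eq with h | h
    · linarith [hmono j k h, hs0 k]
    · rw [h]
  set χ : ℂ → ℝ := fun z => (∑ j ∈ Finset.range n, bump c (s j) (2 * s j) z) / n with hχ
  set g : ℂ → ℝ := fun z => (∑ j ∈ Finset.range n, ga c (s j) z) / n with hg
  have hga : ∀ j z, ga c (s j) z =
      (closedBall c (2 * s j) \ ball c (s j)).indicator (fun _ => 1 / (2 * s j - s j)) z := by
    intro j z
    rw [ga, show 2 * s j - s j = s j by ring]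
  refine ⟨s n, 2 * s 0, χ, g, hs0 n, by linarith [hs0 0], ?_, ⟨?_, ?_, ?_, ?_, ?_, ?_, ?_, ?_, ?_⟩,
    ?_⟩
  · show 2 * (δ / 2 * (1 / 4) ^ 0) ≤ δ
    rw [pow_zero]
    linarith
  · exact fun z => div_nonneg (Finset.sum_nonneg fun j _ => bump_nonneg _ _ _ _) hn0.le
  · intro z
    rw [hχ]
    simp only
    rw [div_le_one hn0]
    calc _ ≤ ∑ j ∈ Finset.range n, (1 : ℝ) := Finset.sum_le_sum fun j _ => bump_le_one _ _ _ _
      _ = n := by simp
  · intro z hz
    rw [hχ]
    simp only
    rw [Finset.sum_congr rfl fun j hj => bump_one (hsl j) (c := c) (z := z)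
      ((mem_closedBall.1 hz).trans (hanti j n (Finset.mem_range.1 hj).le))]
    simp [hn0.ne']
  · refine ⟨Real.toNNReal ((∑ j ∈ Finset.range n, 1 / (2 * s j - s j)) / n),
      LipschitzWith.of_dist_le_mul fun y z => ?_⟩
    have hpos : ∀ j ∈ Finset.range n, 0 ≤ 1 / (2 * s j - s j) := fun j _ => by
      have := sub_pos.2 (hsl j)
      positivity
    rw [Real.coe_toNNReal _ (div_nonneg (Finset.sum_nonneg hpos) hn0.le), Real.dist_eq,
      dist_eq_norm]
    show |(∑ j ∈ Finset.range n, bump c (s j) (2 * s j) y) / n -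
      (∑ j ∈ Finset.range n, bump c (s j) (2 * s j) z) / n| ≤ _
    rw [← sub_div, ← Finset.sum_sub_distrib, abs_div, abs_of_pos hn0, div_mul_eq_mul_div]
    refine div_le_div_of_nonneg_right ?_ hn0.le
    rw [Finset.sum_mul]
    exact (Finset.abs_sum_le_sum_abs _ _).trans (Finset.sum_le_sum fun j _ =>
      bump_lip c (hsl j) z y)
  · intro z hz
    have hz' : 2 * s 0 < dist z c := not_le.1 hz
    rw [hχ]
    simp only
    rw [Finset.sum_congr rfl fun j hj => bump_zero (hsl j) (c := c) (z := z)
      (by linarith [hanti 0 j (Nat.zero_le j)])]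
    simp
  · exact fun z => div_nonneg (Finset.sum_nonneg fun j _ => ga_nonneg c (hs0 j) z) hn0.le
  · intro z hz
    have hz' : 2 * s 0 < dist z c := not_le.1 hz
    rw [hg]
    simp only
    rw [Finset.sum_congr rfl fun j hj => show ga c (s j) z = 0 from
      indicator_of_notMem (fun hm => by
        have := mem_closedBall.1 hm.1
        linarith [hanti 0 j (Nat.zero_le j)]) _]
    simp
  · exact (Finset.measurable_sum _ fun j _ => measurable_ga c (s j)).div_const _
  · intro z
    have := (eventually_all_finset (Finset.range n)).2 fun j _ => bump_slope c (hsl j) z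
    filter_upwards [this] with y hy
    show |(∑ j ∈ Finset.range n, bump c (s j) (2 * s j) y) / n -
      (∑ j ∈ Finset.range n, bump c (s j) (2 * s j) z) / n| ≤
        (∑ j ∈ Finset.range n, ga c (s j) z) / n * ‖y - z‖
    rw [← sub_div, ← Finset.sum_sub_distrib, abs_div, abs_of_pos hn0, div_mul_eq_mul_div]
    refine div_le_div_of_nonneg_right ?_ hn0.le
    rw [Finset.sum_mul]
    refine (Finset.abs_sum_le_sum_abs _ _).trans (Finset.sum_le_sum fun j hj => ?_)
    rw [hga]
    exact hy j hj
  · have hpt : ∀ z, (g z) ^ 2 ≤ ∑ j ∈ Finset.range n, ga c (s j) z ^ 2 / n ^ 2 := by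
      intro z
      show ((∑ j ∈ Finset.range n, ga c (s j) z) / n) ^ 2 ≤ _
      rw [div_pow, ← Finset.sum_div]
      refine div_le_div_of_nonneg_right ?_ (by positivity)
      by_cases hex : ∃ j ∈ Finset.range n, ga c (s j) z ≠ 0
      · obtain ⟨j, hj, hne⟩ := hex
        have hjm : z ∈ closedBall c (2 * s j) \ ball c (s j) := by
          by_contra hm
          exact hne (indicator_of_notMem hm _)
        have hz1 := mem_closedBall.1 hjm.1
        have hz2 : s j ≤ dist z c := not_lt.1 hjm.2
        rw [Finset.sum_eq_single j (fun k _ hkj => ?_) (fun hm => absurd hj hm)]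
        · exact Finset.single_le_sum (f := fun k => ga c (s k) z ^ 2)
            (fun k _ => sq_nonneg _) hj
        · refine indicator_of_notMem (fun hm => ?_) _
          have hz3 := mem_closedBall.1 hm.1
          have hz4 : s k ≤ dist z c := not_lt.1 hm.2
          rcases lt_or_gt_of_ne hkj with h | h
          · linarith [hmono k j h]
          · linarith [hmono j k h]
      · push Not at hex
        rw [Finset.sum_congr rfl hex, Finset.sum_const_zero]
        simp only [ne_eq, OfNat.ofNat_ne_zero, not_false_eq_true, zero_pow]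
        exact Finset.sum_nonneg fun j _ => sq_nonneg _
    calc ∫⁻ z, ENNReal.ofReal (g z ^ 2)
        ≤ ∫⁻ z, ∑ j ∈ Finset.range n, ENNReal.ofReal (ga c (s j) z ^ 2) *
            ENNReal.ofReal (1 / n ^ 2) := by
          refine lintegral_mono fun z => ?_
          refine (ENNReal.ofReal_le_ofReal (hpt z)).trans ?_
          rw [ENNReal.ofReal_sum_of_nonneg fun j _ => by positivity]
          refine Finset.sum_le_sum fun j _ => ?_
          rw [← ENNReal.ofReal_mul (by positivity), mul_one_div]
      _ = ∑ j ∈ Finset.range n, (∫⁻ z, ENNReal.ofReal (ga c (s j) z ^ 2)) *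
            ENNReal.ofReal (1 / n ^ 2) := by
          rw [lintegral_finsetSum _ fun j _ =>
            (((measurable_ga c (s j)).pow_const 2).ennreal_ofReal.mul_const _)]
          refine Finset.sum_congr rfl fun j _ => ?_
          rw [lintegral_mul_const _ ((measurable_ga c (s j)).pow_const 2).ennreal_ofReal]
      _ ≤ ∑ j ∈ Finset.range n, ENNReal.ofReal (4 * Real.pi) * ENNReal.ofReal (1 / n ^ 2) := by
          gcongr with j _
          exact lintegral_ga_sq c (hs0 j)
      _ = ENNReal.ofReal (4 * Real.pi / n) := by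
          rw [Finset.sum_const, Finset.card_range, nsmul_eq_mul, ← ENNReal.ofReal_mul
            (by positivity), ← ENNReal.ofReal_natCast, ← ENNReal.ofReal_mul (by positivity)]
          congr 1
          field_simp
      _ ≤ ENNReal.ofReal δ := by
          refine ENNReal.ofReal_le_ofReal ?_
          rw [div_le_iff₀ hn0]
          rw [div_lt_iff₀ hδ] at hn
          linarith

end Crest.Agent.R105.Pln_897
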