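import Crest.Agent.R105.Pln3_897
import Crest.Agent.R105.Pln4_897
import Crest.Agent.R105.Ends1_897
import Crest.Agent.R105.Rd0_557

/-! Row 105, S0139, RED-PLAN (helper897), part 5: neighbourhoods of the components, the skip rule,
local finiteness. -/

set_option autoImplicit false

open Set Filter Topology Metric MeasureTheory
open scoped ENNReal NNReal

namespace Crest.Agent.R105.Pln_897

open Crest.Agent.R105 Crest.Agent.R105.Rd_557

/-- neighbourhoods whose trace on the complement is a union of components -/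
theorem exists_nb {X W : Set ℂ} (hX : IsCompact X) {z : ℂ} (hz : z ∈ X) (hW : IsOpen W)
    (hKW : connectedComponentIn X z ⊆ W) :
    ∃ N : Set ℂ, IsOpen N ∧ connectedComponentIn X z ⊆ N ∧ N ⊆ W ∧
      ∀ K : Set ℂ, IsPreconnected K → K ⊆ X → (K ∩ N).Nonempty → K ⊆ N := by
  obtain ⟨B, hB, hXB, hBX, hzB, hBW⟩ := Ends_897.exists_clopen hX hz hW hKW
  refine ⟨W ∩ (X \ B)ᶜ, hW.inter hXB.isClosed.isOpen_compl, fun y hy => ⟨hKW hy, fun hm =>
    hm.2 (hzB hy)⟩, inter_subset_left, ?_⟩
  rintro K hK hKX ⟨y, hyK, hyW, hyB⟩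
  have hyB' : y ∈ B := by
    by_contra hcon
    exact hyB ⟨hKX hyK, hcon⟩
  have hKB : K ⊆ B := by
    intro w hw
    by_contra hcon
    have := isPreconnected_closed_iff.1 hK B (X \ B) hB.isClosed hXB.isClosed
      (fun u hu => by
        by_cases hu' : u ∈ B
        · exact Or.inl hu'
        · exact Or.inr ⟨hKX hu, hu'⟩) ⟨y, hyK, hyB'⟩ ⟨w, hw, hKX hw, hcon⟩
    obtain ⟨u, -, hu1, hu2⟩ := this
    exact hu2.2 hu1
  exact fun w hw => ⟨hBW (hKB hw), fun hm => hm.2 (hKB hw)⟩

/-- the greedy choice -/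
theorem greedy {ι : Type} (e : ι → ℕ) (Q : ι → Prop) (P : ι → ι → Prop) :
    ∃ S : Set ι, ∀ k, k ∈ S ↔ (Q k ∧ ∀ i, e i < e k → i ∈ S → P i k) := by
  have hwf : WellFounded (InvImage (· < ·) e) := InvImage.wf e wellFounded_lt
  let f : ι → Prop := hwf.fix fun k ih => Q k ∧ ∀ i (h : e i < e k), ih i h → P i k
  refine ⟨{k | f k}, fun k => ?_⟩
  show f k ↔ _
  have : f k = (Q k ∧ ∀ i (_ : e i < e k), f i → P i k) := hwf.fix_eq _ k
  rw [this]
  rfl

variable {U : Set ℂ} {L : ℝ} {ι : Type} {c : ι → ℂ} {r : ι → ℝ} {m R : ι → ℝ} {v : ℂ → ℝ}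

theorem isCompact_compl' (D : DatR U L c r m R v) : IsCompact Uᶜ :=
  (isCompact_closedBall 0 L).of_isClosed_subset D.ext.1.isClosed_compl D.hL

theorem c_mem (D : DatR U L c r m R v) (i : ι) : c i ∈ closedBall (c i) (r i) :=
  mem_closedBall_self (D.r0 i)

theorem c_not (D : DatR U L c r m R v) (i : ι) : c i ∉ U := (D.comp i _ (c_mem D i)).1

theorem ball_sub (D : DatR U L c r m R v) (i : ι) : closedBall (c i) (r i) ⊆ Uᶜ :=
  fun z hz => (D.comp i z hz).1

theorem pre_ball (i : ι) : IsPreconnected (closedBall (c i) (r i)) :=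
  (convex_closedBall (c i) (r i)).isPreconnected

/-- the planarisation data -/
theorem exists_pdata (D : DatR U L c r m R v) (s : Finset ι) {e p ρ : ι → ℝ} {χ g : ι → ℂ → ℝ}
    (he : ∀ i, 0 < e i) (hp : ∀ i, r i < p i)
    (hcut : ∀ i, CutAt (c i) (p i) (ρ i) (χ i) (g i))
    (hfin : ∀ η > 0, {i | η ≤ ρ i ∨ η ≤ R i + e i}.Finite) :
    ∃ (S : Set ι) (N : ι → Set ℂ), (∀ i ∈ S, i ∉ s) ∧
      PData U (big c r s) v (fun i : S => N i) (fun i : S => closedBall (c i) (ρ i))
        (fun i : S => χ i) (fun i : S => g i) (fun i : S => m i - R i - e i)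
        (fun i : S => m i + R i + e i) ∧
      ∀ i, i ∉ s → closedBall (c i) (r i) ⊆ ⋃ j : S, N j := by
  have hX := isCompact_compl' D
  have := D.cnt
  obtain ⟨e0, he0⟩ := exists_injective_nat ι
  -- the neighbourhoods
  have hN : ∀ i, ∃ N : Set ℂ, IsOpen N ∧ closedBall (c i) (r i) ⊆ N ∧
      N ⊆ closedBall (c i) (p i) ∧ (∀ w ∈ N, |v w - m i| ≤ R i + e i) ∧
      ∀ K : Set ℂ, IsPreconnected K → K ⊆ Uᶜ → (K ∩ N).Nonempty → K ⊆ N := by
    intro i
    obtain ⟨N0, hN0, h1, h2⟩ := D.near i (e i) (he i)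
    have hcc := (D.comp i _ (c_mem D i)).2
    obtain ⟨N, hNo, h3, h4, h5⟩ := exists_nb hX (c_not D i) (hN0.inter isOpen_ball)
      (W := N0 ∩ ball (c i) (p i)) (by
        rw [hcc]
        exact fun y hy => ⟨h1 hy, closedBall_subset_ball (hp i) hy⟩)
    rw [hcc] at h3
    exact ⟨N, hNo, h3, fun y hy => ball_subset_closedBall (h4 hy).2,
      fun w hw => h2 w (h4 hw).1, h5⟩
  choose N hNo hKN hNp hNv hNK using hN
  obtain ⟨S, hS⟩ := greedy e0 (fun i => i ∉ s)
    (fun i k => Disjoint (closedBall (c k) (r k)) (N i))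
  -- balls centred near a point
  have hnear : ∀ (z : ℂ) (δ : ℝ) (i : ι), ρ i < δ →
      (closedBall (c i) (ρ i) ∩ ball z δ).Nonempty → c i ∈ ball z (2 * δ) := by
    rintro z δ i hi ⟨y, hy1, hy2⟩
    rw [mem_closedBall, dist_comm] at hy1
    rw [mem_ball] at hy2 ⊢
    linarith [dist_triangle (c i) y z]
  refine ⟨S, N, fun i hi => ((hS i).1 hi).1, ?_, ?_⟩
  · refine ⟨⟨fun i z => (hcut i).nonneg z, fun i z => (hcut i).le_one z, fun i => ?_⟩, D.ext.1,
      fun i => hNo i, fun i z hz => (hcut i).one z (hNp i hz), fun i => (hcut i).lip,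
      fun i => isClosed_closedBall, fun i z hz => (hcut i).supp z hz, fun i z hz => ?_,
      fun i z => (hcut i).g0 z, fun i z hz => (hcut i).gT z hz, fun i => (hcut i).gm,
      fun i z => (hcut i).slope z, ?_, ?_⟩
    · linarith [D.R0 i, he i]
    · have := abs_le.1 (hNv i z hz)
      constructor <;> linarith
    · -- local finiteness
      rintro z (hz | hz)
      · obtain ⟨δ, hδ, hδU⟩ := Metric.isOpen_iff.1 D.ext.1 z hz
        refine ⟨ball z (δ / 2), ball_mem_nhds z (by positivity), ?_⟩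
        refine Set.Finite.of_finite_image ?_ Subtype.val_injective.injOn
        refine (hfin (δ / 2) (by positivity)).subset ?_
        rintro _ ⟨i, hi, rfl⟩
        by_contra hcon
        have hc := hnear z (δ / 2) i (by
          by_contra h
          exact hcon (Or.inl (not_lt.1 h))) hi
        rw [show 2 * (δ / 2) = δ by ring] at hc
        exact c_not D i (hδU hc)
      · rw [mem_iUnion] at hz
        obtain ⟨j, hj⟩ := hz
        obtain ⟨δ, hδ, hδN⟩ := Metric.isOpen_iff.1 (hNo j) z hj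
        refine ⟨ball z (δ / 2), ball_mem_nhds z (by positivity), ?_⟩
        refine Set.Finite.of_finite_image ?_ Subtype.val_injective.injOn
        have hf2 : {i : ι | e0 i ≤ e0 j}.Finite :=
          (finite_le_nat (e0 j)).preimage he0.injOn
        refine ((hfin (δ / 2) (by positivity)).union hf2).subset ?_
        rintro _ ⟨i, hi, rfl⟩
        by_contra hcon
        rw [mem_union, not_or] at hcon
        have hc := hnear z (δ / 2) i (by
          by_contra h
          exact hcon.1 (Or.inl (not_lt.1 h))) hi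
        rw [show 2 * (δ / 2) = δ by ring] at hc
        have h1 := ((hS i).1 i.2).2 j (not_le.1 hcon.2) j.2
        exact disjoint_left.1 h1 (c_mem D i) (hδN hc)
    · -- the dust
      intro q hqB hq
      rw [mem_union, not_or, mem_iUnion, not_exists] at hq
      have hqc : ∀ i, q ∉ closedBall (c i) (r i) := by
        intro i hi
        by_cases his : i ∈ s
        · exact hqB (mem_biUnion (t := fun i => closedBall (c i) (r i)) his hi)
        · by_cases hiS : i ∈ S
          · exact hq.2 ⟨i, hiS⟩ (hKN i hi)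
          · rw [hS] at hiS
            push Not at hiS
            obtain ⟨j, -, hjS, hj⟩ := hiS his
            rw [not_disjoint_iff_nonempty_inter] at hj
            exact hq.2 ⟨j, hjS⟩ (hNK j _ (pre_ball i) (ball_sub D i) hj hi)
      have hcv := (D.dust q hq.1 hqc).2
      refine ⟨hcv, fun ε hε => ?_⟩
      obtain ⟨δ, hδ, hδv⟩ := Metric.continuousAt_iff.1 hcv (ε / 2) (by positivity)
      refine ⟨ball q (δ / 2), ball_mem_nhds q (by positivity), ?_⟩
      refine Set.Finite.of_finite_image ?_ Subtype.val_injective.injOn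
      refine (hfin (min (δ / 2) (ε / 2)) (by positivity)).subset ?_
      rintro _ ⟨i, ⟨hi, hi2⟩, rfl⟩
      by_contra hcon
      have hc1 : ρ i < δ / 2 := by
        by_contra h
        exact hcon (Or.inl ((min_le_left _ _).trans (not_lt.1 h)))
      have hc2 : R i + e i < ε / 2 := by
        by_contra h
        exact hcon (Or.inr ((min_le_right _ _).trans (not_lt.1 h)))
      have hc := hnear q (δ / 2) i hc1 hi
      rw [show 2 * (δ / 2) = δ by ring] at hc
      have h3 := hδv (mem_ball.1 hc)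
      rw [D.val i _ (c_mem D i), Real.dist_eq, abs_lt] at h3
      refine hi2 (Icc_subset_Icc ?_ ?_) <;> linarith
  · -- covering
    intro i his
    by_cases hiS : i ∈ S
    · exact (hKN i).trans (subset_iUnion (fun j : S => N j) ⟨i, hiS⟩)
    · rw [hS] at hiS
      push Not at hiS
      obtain ⟨j, -, hjS, hj⟩ := hiS his
      rw [not_disjoint_iff_nonempty_inter] at hj
      exact (hNK j _ (pre_ball i) (ball_sub D i) hj).trans
        (subset_iUnion (fun j : S => N j) ⟨j, hjS⟩)

/-- the dust -/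
theorem c0_props (D : DatR U L c r m R v) (s : Finset ι) {V : Set ℂ} (hV : IsOpen V)
    (hcov : ∀ i, i ∉ s → closedBall (c i) (r i) ⊆ V) :
    IsCompact ((Uᶜ \ (big c r s ∪ V)) ∪ big c r s) ∧
      IsTotallyDisconnected (Uᶜ \ (big c r s ∪ V)) ∧ Uᶜ \ (big c r s ∪ V) ⊆ frontier U ∧
      ∀ z ∈ Uᶜ \ (big c r s ∪ V), ∀ i, z ∉ closedBall (c i) (r i) := by
  have hno : ∀ z ∈ Uᶜ \ (big c r s ∪ V), ∀ i, z ∉ closedBall (c i) (r i) := by
    rintro z ⟨-, hz⟩ i hi
    by_cases his : i ∈ s
    · exact hz (Or.inl (mem_biUnion (t := fun i => closedBall (c i) (r i)) his hi))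
    · exact hz (Or.inr (hcov i his hi))
  have hbig : IsCompact (big c r s) := s.isCompact_biUnion fun i _ => isCompact_closedBall _ _
  refine ⟨?_, ?_, ?_, hno⟩
  · have : (Uᶜ \ (big c r s ∪ V)) ∪ big c r s = (Uᶜ \ V) ∪ big c r s := by
      ext z
      simp only [mem_union, Set.mem_sdiff, mem_compl_iff]
      tauto
    rw [this]
    exact ((isCompact_compl' D).diff hV).union hbig
  · intro T hT hTp x hx y hy
    have h1 : T ⊆ connectedComponentIn Uᶜ x :=
      hTp.subset_connectedComponentIn hx fun u hu => (hT hu).1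
    have h2 := (D.dust x (hT hx).1 (hno x (hT hx))).1
    rw [h2] at h1
    exact (h1 hy).symm
  · intro z hz
    have h2 := (D.dust z hz.1 (hno z hz)).1
    rw [D.ext.1.frontier_eq]
    refine ⟨?_, hz.1⟩
    by_contra hcl
    obtain ⟨δ, hδ, hδU⟩ := Metric.isOpen_iff.1 isClosed_closure.isOpen_compl z hcl
    have h3 : ball z δ ⊆ connectedComponentIn Uᶜ z :=
      (convex_ball z δ).isPreconnected.subset_connectedComponentIn (mem_ball_self hδ)
        fun y hy hyU => hδU hy (subset_closure hyU)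
    rw [h2] at h3
    have h4 : z + (δ / 2 : ℝ) ∈ ball z δ := by
      rw [mem_ball, dist_eq_norm, add_sub_cancel_left, Complex.norm_real, Real.norm_eq_abs,
        abs_of_pos (by positivity)]
      linarith
    have h5 := h3 h4
    rw [mem_singleton_iff, add_eq_left] at h5
    have : δ / 2 = 0 := by exact_mod_cast h5
    linarith

end Crest.Agent.R105.Pln_897
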