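import Crest.Agent.R105.Sl2_732
import Crest.Agent.R105.Nip1_31

/-!
# Row 105, S0138, NI frame: LINK 2 of 444 #10384, part 1 (helper626)

* `LimAt E L b z β` : limit of `b` along `L` at the component of `z`
* `null_of_var'` : 732's `null_of_var` with limits along `L` only
* `lim_along`, `exists_lim` ((Y')) : small variation of `x` near `z` along the continuum `L` gives a limit
* `exists_sep` : a value between `b p` and `b q` which is not taken on `C \ E` is a cluster value from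
  both sides at a component of `E`
-/

set_option autoImplicit false

open MeasureTheory Set Filter Topology Metric
open scoped NNReal ENNReal

namespace Crest.Agent.R105.Plv_626

open Thin_12 Sl_732

variable {E L S C W : Set ℂ} {b : ℂ → ℝ}

/-- limit of `b` along `L` at the component of `z` -/
def LimAt (E L : Set ℂ) (b : ℂ → ℝ) (z : ℂ) (β : ℝ) : Prop :=
  ∀ δ > 0, ∃ O, IsOpen O ∧ connectedComponentIn E z ⊆ O ∧ ∀ w ∈ (O ∩ L) \ E, |b w - β| < δ

/-- the bound for the values on one class -/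
theorem class_le' (hE : IsCompact E) {C : Set ℂ} (hC : IsCompact C) (hCp : IsPreconnected C)
    (hU : (C \ E).Nonempty) (hCL : C ⊆ L) {G : Set ℂ} (hG : G ⊆ E) {β : ℂ → ℝ}
    (hb : ∀ z ∈ G, LimAt E L b z (β z)) {c : ℝ}
    (H : ∀ p ∈ C \ E, ∀ q ∈ C \ E, |b p - b q| ≤ c) :
    volume (β '' (C ∩ G)) ≤ ENNReal.ofReal c := by
  refine (Real.volume_le_diam _).trans (Metric.ediam_le ?_)
  rintro _ ⟨z, ⟨hzC, hzG⟩, rfl⟩ _ ⟨w, ⟨hwC, hwG⟩, rfl⟩
  rw [edist_dist, Real.dist_eq]
  refine ENNReal.ofReal_le_ofReal (le_of_forall_pos_le_add fun δ hδ => ?_)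
  obtain ⟨O, hO, hzO, h1⟩ := hb z hzG (δ / 2) (half_pos hδ)
  obtain ⟨P, hP, hwP, h2⟩ := hb w hwG (δ / 2) (half_pos hδ)
  obtain ⟨p, hp, hpO⟩ := exists_near hE hC hCp hU hzC (hG hzG) hO hzO
  obtain ⟨q, hq, hqP⟩ := exists_near hE hC hCp hU hwC (hG hwG) hP hwP
  have h3 := h1 p ⟨⟨hpO, hCL hp.1⟩, hp.2⟩
  have h4 := h2 q ⟨⟨hqP, hCL hq.1⟩, hq.2⟩
  have h5 := H p hp q hq
  rw [abs_lt] at h3 h4
  rw [abs_le] at h5 ⊢
  constructor <;> linarith

/-- the class of `b` on one continuum -/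
theorem osc_class' (hE : IsCompact E) {C : Set ℂ} (hC : IsCompact C) (hCp : IsPreconnected C)
    (hU : (C \ E).Nonempty) (hCL : C ⊆ L) {G : Set ℂ} (hG : G ⊆ E) {β : ℂ → ℝ}
    (hb : ∀ z ∈ G, LimAt E L b z (β z)) {η : ℝ}
    (H : ∀ p ∈ C \ E, ∀ q ∈ C \ E, |b p - b q| ≤ η) {ε : ℝ} (hε : 0 < ε) :
    ∃ p ∈ C \ E, ∃ q ∈ C \ E, volume (β '' (C ∩ G)) ≤ ENNReal.ofReal (|b p - b q| + ε) := by
  have hne : Set.Nonempty ((fun z : ℂ × ℂ => |b z.1 - b z.2|) '' ((C \ E) ×ˢ (C \ E))) :=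
    (hU.prod hU).image _
  obtain ⟨_, ⟨⟨p, q⟩, ⟨hp, hq⟩, rfl⟩, hlt⟩ := exists_lt_of_lt_csSup hne
    (show sSup ((fun z : ℂ × ℂ => |b z.1 - b z.2|) '' ((C \ E) ×ˢ (C \ E))) - ε <
      sSup ((fun z : ℂ × ℂ => |b z.1 - b z.2|) '' ((C \ E) ×ˢ (C \ E))) by linarith)
  have hbd : BddAbove ((fun z : ℂ × ℂ => |b z.1 - b z.2|) '' ((C \ E) ×ˢ (C \ E))) := by
    refine ⟨η, ?_⟩
    rintro _ ⟨⟨z, w⟩, ⟨hz, hw⟩, rfl⟩
    exact H z hz w hw
  refine ⟨p, hp, q, hq, class_le' hE hC hCp hU hCL hG hb fun z hz w hw => ?_⟩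
  have h1 : |b z - b w| ≤ sSup ((fun z : ℂ × ℂ => |b z.1 - b z.2|) '' ((C \ E) ×ˢ (C \ E))) :=
    le_csSup hbd ⟨(z, w), ⟨hz, hw⟩, rfl⟩
  simp only at hlt
  linarith

/-- **SLICES, variation form**, limits along `L` only. -/
theorem null_of_var' (hE : IsCompact E) (hL : IsClosed L) (hLc : IsPreconnected L)
    (sat : Sat E L) (hU : (L \ E).Nonempty) (μ : Measure ℂ) [SigmaFinite μ]
    (pos : ∀ C ⊆ L \ E, IsCompact C → IsPreconnected C → C.Nontrivial → μ C ≠ 0)
    {G : Set ℂ} (hGL : G ⊆ L ∩ E) (hGs : Sat E G)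
    {β : ℂ → ℝ} (hb : ∀ z ∈ G, LimAt E L b z (β z))
    (hvar : ∀ η > 0, ∃ W, IsOpen W ∧ G ⊆ W ∧ VarLe E L W b η) :
    volume (β '' G) = 0 := by
  classical
  have hGE : G ⊆ E := fun z hz => (hGL hz).2
  refine le_antisymm (ENNReal.le_of_forall_pos_le_add fun η hη _ => ?_) zero_le
  rw [zero_add]
  obtain ⟨W, hWo, hGW, hWv⟩ := hvar η (by exact_mod_cast hη)
  have hN : ∀ z ∈ G, ∃ N, IsOpen N ∧ connectedComponentIn E z ⊆ N ∧ closure N ⊆ W ∧
      IsCompact (closure N) ∧ Disjoint (frontier N) E := fun z hz =>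
    thin_nhd hE (hGE hz) hWo ((hGs z hz (hGE hz)).trans hGW)
  choose! N hNo hzN hNW hNc hNf using hN
  have hzN' : ∀ z ∈ G, z ∈ N z := fun z hz => hzN z hz (mem_connectedComponentIn (hGE hz))
  obtain ⟨T, hTG, hTc, hTcov⟩ := TopologicalSpace.countable_cover_nhdsWithin
    (s := G) (f := N) (fun z hz => mem_nhdsWithin_of_mem_nhds ((hNo z hz).mem_nhds (hzN' z hz)))
  rcases T.eq_empty_or_nonempty with hTe | hTne
  · have hGe : G = ∅ := by
      rw [hTe] at hTcov
      simpa using hTcov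
    rw [hGe]; simp
  obtain ⟨e, he⟩ := hTc.exists_eq_range hTne
  have heG : ∀ n, e n ∈ G := fun n => hTG (by rw [he]; exact mem_range_self n)
  set O : ℕ → Set ℂ := fun k => ⋃ n ∈ Finset.range k, N (e n) with hO
  set V : ℕ → Set ℂ := fun k => ⋃ n ∈ Finset.range k, closure (N (e n)) with hV
  have hOV : ∀ k, O k ⊆ interior (V k) := by
    intro k
    refine interior_maximal ?_ (isOpen_biUnion fun n _ => hNo _ (heG n))
    exact iUnion₂_mono fun n _ => subset_closure
  have hVc : ∀ k, IsCompact (V k) := fun k =>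
    (Finset.range k).isCompact_biUnion fun n _ => hNc _ (heG n)
  have hVW : ∀ k, V k ⊆ W := fun k => iUnion₂_subset fun n _ => hNW _ (heG n)
  have hVf : ∀ k, Disjoint (frontier (V k)) E := by
    intro k
    rw [disjoint_left]
    intro z hz hzE
    rw [(hVc k).isClosed.frontier_eq] at hz
    obtain ⟨n, hn, hzn⟩ := mem_iUnion₂.1 hz.1
    have h1 : z ∉ N (e n) := fun h => hz.2 (hOV k (mem_iUnion₂.2 ⟨n, hn, h⟩))
    have h2 : z ∈ frontier (N (e n)) := by
      rw [(hNo _ (heG n)).frontier_eq]; exact ⟨hzn, h1⟩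
    exact disjoint_left.1 (hNf _ (heG n)) h2 hzE
  have hmono : Monotone O := fun k l hkl =>
    biUnion_subset_biUnion_left (by
      intro n hn
      simp only [Finset.coe_range, Set.mem_Iio] at hn ⊢
      exact lt_of_lt_of_le hn hkl)
  have hcov : G ⊆ ⋃ k, O k := by
    intro z hz
    obtain ⟨x, hx, hzx⟩ := mem_iUnion₂.1 (hTcov hz)
    rw [he] at hx
    obtain ⟨n, rfl⟩ := hx
    exact mem_iUnion.2 ⟨n + 1, mem_iUnion₂.2 ⟨n, by simp, hzx⟩⟩
  -- one stage
  have stage : ∀ k, volume (β '' (G ∩ O k)) ≤ η := by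
    intro k
    set K : Set ℂ := L ∩ V k with hK
    have hKc : IsCompact K := (hVc k).inter_left hL
    -- the classes
    set ι : Type := {C : Set ℂ // ∃ z ∈ G ∩ O k, C = connectedComponentIn K z} with hι
    have hmem : ∀ z ∈ G ∩ O k, z ∈ K := fun z hz =>
      ⟨(hGL hz.1).1, interior_subset (hOV k hz.2)⟩
    have hCc : ∀ C : ι, IsCompact C.1 := by
      rintro ⟨C, z, hz, rfl⟩
      exact isCompact_cc hKc z
    have hCp : ∀ C : ι, IsPreconnected C.1 := by
      rintro ⟨C, z, hz, rfl⟩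
      exact isPreconnected_connectedComponentIn
    have hCL : ∀ C : ι, C.1 ⊆ L := by
      rintro ⟨C, z, hz, rfl⟩
      exact (connectedComponentIn_subset _ _).trans inter_subset_left
    have hCV : ∀ C : ι, C.1 ⊆ V k := by
      rintro ⟨C, z, hz, rfl⟩
      exact (connectedComponentIn_subset _ _).trans inter_subset_right
    have hCU : ∀ C : ι, (C.1 \ E).Nonempty := by
      rintro ⟨C, z, hz, rfl⟩
      by_cases h : L ⊆ interior (V k)
      · have hKL : K = L := inter_eq_left.2 (h.trans interior_subset)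
        obtain ⟨p, hp⟩ := hU
        refine ⟨p, ?_, hp.2⟩
        rw [hKL]
        exact hLc.subset_connectedComponentIn (hGL hz.1).1 subset_rfl hp.1
      · obtain ⟨p, hp1, hp2⟩ := bump' hL hLc (hVc k).isClosed hKc (hGL hz.1).1 (hmem z hz).2 h
        exact ⟨p, hp1, disjoint_left.1 (hVf k) hp2⟩
    have hCs : ∀ C : ι, Sat E C.1 := by
      rintro ⟨C, z, hz, rfl⟩ w hw hwE
      have hwK : w ∈ K := connectedComponentIn_subset _ _ hw
      have h1 : connectedComponentIn E w ⊆ K := fun x hx =>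
        ⟨sat w hwK.1 hwE hx, interior_subset (cc_subset_interior (hVf k) hwE hwK.2 hx)⟩
      change connectedComponentIn E w ⊆ connectedComponentIn K z
      rw [connectedComponentIn_eq (show w ∈ connectedComponentIn K z from hw)]
      exact isPreconnected_connectedComponentIn.subset_connectedComponentIn
        (mem_connectedComponentIn hwE) h1
    have hCd : Pairwise (Function.onFun Disjoint fun C : ι => C.1) := by
      rintro ⟨C, z, hz, rfl⟩ ⟨D, w, hw, rfl⟩ hne
      rw [Function.onFun, disjoint_left]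
      intro x hx1 hx2
      apply hne
      apply Subtype.ext
      change connectedComponentIn K z = connectedComponentIn K w
      rw [connectedComponentIn_eq hx1, connectedComponentIn_eq hx2]
    -- countably many
    have hcount : Countable ι := by
      have h1 := Measure.countable_meas_pos_of_disjoint_iUnion (μ := μ)
        (As := fun C : ι => C.1 \ E)
        (fun C => (hCc C).isClosed.measurableSet.diff hE.isClosed.measurableSet)
        (fun C D hCD => (hCd hCD).mono sdiff_subset sdiff_subset)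
      have h2 : {C : ι | 0 < μ (C.1 \ E)} = univ := by
        refine eq_univ_of_forall fun C => ?_
        obtain ⟨z, hz, hC⟩ := C.2
        obtain ⟨C', hC', h3, h4, h5⟩ := exists_sub hE (hCc C) (hCp C) (hCU C) (z := z)
          (by rw [hC]; exact mem_connectedComponentIn (hmem z hz)) (hGE hz.1)
        have h6 := pos C' (hC'.trans (sdiff_subset_sdiff_left (hCL C))) h3 h4 h5
        exact (pos_iff_ne_zero.2 h6).trans_le (measure_mono hC')
      rw [h2] at h1
      exact countable_univ_iff.1 h1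
    have hsub : β '' (G ∩ O k) ⊆ ⋃ C : ι, β '' (C.1 ∩ G) := by
      rintro _ ⟨z, hz, rfl⟩
      exact mem_iUnion.2 ⟨⟨_, z, hz, rfl⟩, z,
        ⟨mem_connectedComponentIn (hmem z hz), hz.1⟩, rfl⟩
    refine (measure_mono hsub).trans ((measure_iUnion_le _).trans ?_)
    rw [ENNReal.tsum_eq_iSup_sum]
    refine iSup_le fun F => ?_
    have hH : ∀ C : ι, ∀ p ∈ C.1 \ E, ∀ q ∈ C.1 \ E, |b p - b q| ≤ η := fun C p hp q hq =>
      hWv.one ⟨hCc C, hCp C, hCs C, subset_inter (hCL C) ((hCV C).trans (hVW k)), hp, hq⟩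
    have key : ∀ ε > 0, ∑ C ∈ F, volume (β '' (C.1 ∩ G)) ≤ ENNReal.ofReal (η + F.card * ε) := by
      intro ε hε
      have h3 : ∀ C : ι, ∃ p q : ℂ, p ∈ C.1 \ E ∧ q ∈ C.1 \ E ∧
          volume (β '' (C.1 ∩ G)) ≤ ENNReal.ofReal (|b p - b q| + ε) := by
        intro C
        obtain ⟨p, hp, q, hq, h⟩ := osc_class' hE (hCc C) (hCp C) (hCU C) (hCL C) hGE hb (hH C) hε
        exact ⟨p, q, hp, hq, h⟩
      choose p q hp hq hpq using h3
      set P : Set ℂ → ℂ := fun C => if h : ∃ z ∈ G ∩ O k, C = connectedComponentIn K z then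
        p ⟨C, h⟩ else 0 with hP
      set Q : Set ℂ → ℂ := fun C => if h : ∃ z ∈ G ∩ O k, C = connectedComponentIn K z then
        q ⟨C, h⟩ else 0 with hQ
      have hPv : ∀ C : ι, P C.1 = p C := fun C => (dif_pos C.2).trans rfl
      have hQv : ∀ C : ι, Q C.1 = q C := fun C => (dif_pos C.2).trans rfl
      have h4 := hWv (F.map (Function.Embedding.subtype _)) P Q (by
        intro C hC
        obtain ⟨D, hD, rfl⟩ := Finset.mem_map.1 hC
        rw [Function.Embedding.subtype_apply, hPv, hQv]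
        exact ⟨hCc D, hCp D, hCs D, subset_inter (hCL D) ((hCV D).trans (hVW k)), hp D, hq D⟩)
        (by
          intro C hC D hD hne
          obtain ⟨C', hC', rfl⟩ := Finset.mem_map.1 hC
          obtain ⟨D', hD', rfl⟩ := Finset.mem_map.1 hD
          exact hCd (fun h => hne (by rw [h])))
      rw [Finset.sum_map] at h4
      simp only [Function.Embedding.subtype_apply, hPv, hQv] at h4
      calc ∑ C ∈ F, volume (β '' (C.1 ∩ G)) ≤ ∑ C ∈ F, ENNReal.ofReal (|b (p C) - b (q C)| + ε) :=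
            Finset.sum_le_sum fun C _ => hpq C
        _ = ENNReal.ofReal (∑ C ∈ F, (|b (p C) - b (q C)| + ε)) :=
            (ENNReal.ofReal_sum_of_nonneg fun C _ => by positivity).symm
        _ ≤ ENNReal.ofReal (η + F.card * ε) := by
            refine ENNReal.ofReal_le_ofReal ?_
            rw [Finset.sum_add_distrib, Finset.sum_const, nsmul_eq_mul]
            linarith
    have h5 : Tendsto (fun ε : ℝ => ENNReal.ofReal ((η : ℝ) + F.card * ε)) (𝓝[>] 0)
        (𝓝 (ENNReal.ofReal ((η : ℝ) + F.card * 0))) :=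
      (ENNReal.continuous_ofReal.tendsto _).comp
        (tendsto_nhdsWithin_of_tendsto_nhds (Continuous.tendsto (by fun_prop) _))
    rw [mul_zero, add_zero, ENNReal.ofReal_coe_nnreal] at h5
    exact ge_of_tendsto h5 (eventually_nhdsWithin_of_forall fun ε hε => key ε hε)
  have h1 : β '' G = ⋃ k, β '' (G ∩ O k) := by
    rw [← image_iUnion, ← inter_iUnion, inter_eq_left.2 hcov]
  have h2 : Monotone fun k => β '' (G ∩ O k) := fun k l hkl =>
    image_mono (inter_subset_inter_right _ (hmono hkl))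
  rw [h1, h2.directed_le.measure_iUnion]
  exact iSup_le stage


/-- **(Y') : limits along `L`**, Cauchy form -/
theorem lim_along (hE : IsCompact E) (hL : IsClosed L) (hLc : IsPreconnected L)
    (sat : Sat E L) (hne : ∀ N, IsCompact N → ¬ L ⊆ N) {x : ℂ → ℝ} (hx : ContinuousOn x Eᶜ) {z : ℂ}
    (hzL : z ∈ L) (hzE : z ∈ E)
    (hvar : ∀ η > 0, ∃ W, IsOpen W ∧ connectedComponentIn E z ⊆ W ∧ VarLe E L W x η) {δ : ℝ}
    (hδ : 0 < δ) : ∃ O, IsOpen O ∧ connectedComponentIn E z ⊆ O ∧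
      ∀ p ∈ (O ∩ L) \ E, ∀ q ∈ (O ∩ L) \ E, |x p - x q| ≤ δ := by
  have hEo : IsOpen Eᶜ := hE.isClosed.isOpen_compl
  obtain ⟨W, hWo, hzW, hW⟩ := hvar (δ / 6) (by positivity)
  obtain ⟨N, hNo, hzN, hNW, hNc, hNf⟩ := thin_nhd hE hzE hWo hzW
  set K : Set ℂ := L ∩ closure N with hK
  have hKc : IsCompact K := hNc.inter_left hL
  have hfr : Disjoint (frontier (closure N)) E := hNf.mono_left frontier_closure_subset
  have hzN' : z ∈ N := hzN (mem_connectedComponentIn hzE)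
  have hzK : z ∈ K := ⟨hzL, subset_closure hzN'⟩
  have hni : ¬ L ⊆ interior (closure N) := fun h => hne _ hNc (h.trans interior_subset)
  -- the pieces
  have hbump : ∀ w ∈ K, (connectedComponentIn K w ∩ frontier (closure N)).Nonempty := fun w hw =>
    bump' hL hLc isClosed_closure hKc hw.1 hw.2 hni
  have hpiece : ∀ w ∈ K, ∀ p ∈ connectedComponentIn K w \ E, ∀ q ∈ connectedComponentIn K w \ E,
      |x p - x q| ≤ δ / 6 := by
    intro w hw p hp q hq
    refine hW.one (C := connectedComponentIn K w) ⟨isCompact_cc hKc w,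
      isPreconnected_connectedComponentIn, ?_, ?_, hp, hq⟩
    · intro v hv hvE
      have hvK : v ∈ K := connectedComponentIn_subset _ _ hv
      have h1 : connectedComponentIn E v ⊆ K := fun u hu =>
        ⟨sat v hvK.1 hvE hu, interior_subset (cc_subset_interior hfr hvE hvK.2 hu)⟩
      rw [connectedComponentIn_eq hv]
      exact isPreconnected_connectedComponentIn.subset_connectedComponentIn
        (mem_connectedComponentIn hvE) h1
    · exact fun v hv => ⟨(connectedComponentIn_subset _ _ hv).1,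
        hNW (connectedComponentIn_subset _ _ hv).2⟩
  obtain ⟨e₀, he₀, he₀f⟩ := hbump z hzK
  have he₀E : e₀ ∉ E := disjoint_left.1 hfr he₀f
  -- the open set `O₁`
  set O₁ : Set ℂ := {e | e ∈ Eᶜ ∧ |x e - x e₀| < 2 * (δ / 6)} with hO₁
  have hO₁o : IsOpen O₁ := by
    have h1 : ContinuousOn (fun e => |x e - x e₀|) Eᶜ := (hx.sub continuousOn_const).abs
    have h2 := h1.isOpen_inter_preimage hEo (isOpen_Iio (a := 2 * (δ / 6)))
    exact h2
  have hP : IsOpen (O₁ ∪ (frontier (closure N))ᶜ) := hO₁o.union isClosed_frontier.isOpen_compl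
  have hMP : connectedComponentIn K z ⊆ O₁ ∪ (frontier (closure N))ᶜ := by
    intro e he
    by_cases hef : e ∈ frontier (closure N)
    · have heE : e ∉ E := disjoint_left.1 hfr hef
      refine Or.inl ⟨heE, ?_⟩
      have := hpiece z hzK e ⟨he, heE⟩ e₀ ⟨he₀, he₀E⟩
      linarith
    · exact Or.inr hef
  obtain ⟨K₁, h1, h2, h1K, hCK, hKP⟩ := exists_clopen hKc hzK hP hMP
  have hzK₁ : connectedComponentIn E z ⊆ K₁ := by
    refine subset_trans ?_ hCK
    refine isPreconnected_connectedComponentIn.subset_connectedComponentIn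
      (mem_connectedComponentIn hzE) fun u hu => ⟨sat z hzL hzE hu, subset_closure (hzN hu)⟩
  refine ⟨N \ (K \ K₁), hNo.sdiff h2.isClosed, fun u hu => ⟨hzN hu, fun h => h.2 (hzK₁ hu)⟩, ?_⟩
  have main : ∀ p ∈ ((N \ (K \ K₁)) ∩ L) \ E, |x p - x e₀| < 3 * (δ / 6) := by
    rintro p ⟨⟨⟨hpN, hpK₁⟩, hpL⟩, hpE⟩
    have hpK : p ∈ K := ⟨hpL, subset_closure hpN⟩
    have hpK1 : p ∈ K₁ := by
      by_contra h
      exact hpK₁ ⟨hpK, h⟩
    obtain ⟨e, he, hef⟩ := hbump p hpK
    have heE : e ∉ E := disjoint_left.1 hfr hef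
    have heK₁ : e ∈ K₁ := by
      have hpre : IsPreconnected (connectedComponentIn K p) := isPreconnected_connectedComponentIn
      have hsub : connectedComponentIn K p ⊆ K₁ := by
        refine (isPreconnected_iff_subset_of_disjoint_closed.1 hpre K₁ (K \ K₁) h1.isClosed
          h2.isClosed (fun u hu => ?_) ?_).resolve_right fun hsub => ?_
        · by_cases hu1 : u ∈ K₁
          · exact Or.inl hu1
          · exact Or.inr ⟨connectedComponentIn_subset _ _ hu, hu1⟩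
        · ext u; simp only [mem_inter_iff, mem_empty_iff_false, iff_false]
          rintro ⟨-, hu, -, hu'⟩; exact hu' hu
        · exact (hsub (mem_connectedComponentIn hpK)).2 hpK1
      exact hsub he
    have h3 := hpiece p hpK p ⟨mem_connectedComponentIn hpK, hpE⟩ e ⟨he, heE⟩
    have h4 : |x e - x e₀| < 2 * (δ / 6) := by
      rcases hKP heK₁ with h | h
      · exact h.2
      · exact absurd hef h
    calc |x p - x e₀| ≤ |x p - x e| + |x e - x e₀| := abs_sub_le _ _ _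
      _ < 3 * (δ / 6) := by linarith
  intro p hp q hq
  have h3 := main p hp
  have h4 := main q hq
  rw [abs_sub_comm] at h4
  have := abs_sub_le (x p) (x e₀) (x q)
  linarith

/-- points of `L` off `E` near the component of `z` -/
theorem exists_near_L (hE : IsCompact E) (hL : IsClosed L) (hLc : IsPreconnected L)
    (hne : ∀ N, IsCompact N → ¬ L ⊆ N) {z : ℂ} (hzL : z ∈ L) (hzE : z ∈ E) {O : Set ℂ}
    (hO : IsOpen O) (hzO : connectedComponentIn E z ⊆ O) : ∃ p, p ∈ (O ∩ L) \ E := by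
  obtain ⟨N, hNo, hzN, hNO, hNc, hNf⟩ := thin_nhd hE hzE hO hzO
  have hni : ¬ L ⊆ interior (closure N) := fun h => hne _ hNc (h.trans interior_subset)
  obtain ⟨p, hp1, hp2⟩ := bump' hL hLc isClosed_closure (hNc.inter_left hL) hzL
    (subset_closure (hzN (mem_connectedComponentIn hzE))) hni
  have hp3 : p ∈ L ∩ closure N := connectedComponentIn_subset _ _ hp1
  exact ⟨p, ⟨hNO hp3.2, hp3.1⟩, disjoint_left.1 hNf (frontier_closure_subset hp2)⟩

/-- **(Y')** existence of the limit -/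
theorem exists_lim (hE : IsCompact E) (hL : IsClosed L) (hLc : IsPreconnected L)
    (hne : ∀ N, IsCompact N → ¬ L ⊆ N) {x : ℂ → ℝ} {z : ℂ} (hzL : z ∈ L) (hzE : z ∈ E)
    (h : ∀ δ > 0, ∃ O, IsOpen O ∧ connectedComponentIn E z ⊆ O ∧
      ∀ p ∈ (O ∩ L) \ E, ∀ q ∈ (O ∩ L) \ E, |x p - x q| ≤ δ) : ∃ β, LimAt E L x z β := by
  set f : Filter ℂ := 𝓝ˢ (connectedComponentIn E z) ⊓ 𝓟 (L \ E) with hf
  have hmem : ∀ O, IsOpen O → connectedComponentIn E z ⊆ O → (O ∩ L) \ E ∈ f := by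
    intro O hO hzO
    rw [inter_sdiff_assoc]
    exact inter_mem_inf (hO.mem_nhdsSet.2 hzO) (mem_principal_self _)
  have hfne : f.NeBot := by
    rw [hf, inf_neBot_iff]
    intro s hs t ht
    obtain ⟨O, hO, hzO, hOs⟩ := mem_nhdsSet_iff_exists.1 hs
    obtain ⟨p, hp⟩ := exists_near_L hE hL hLc hne hzL hzE hO hzO
    exact ⟨p, hOs hp.1.1, (mem_principal.1 ht) ⟨hp.1.2, hp.2⟩⟩
  have hC : Cauchy (f.map x) := by
    rw [Metric.cauchy_iff]
    refine ⟨hfne.map x, fun ε hε => ?_⟩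
    obtain ⟨O, hO, hzO, h1⟩ := h (ε / 2) (half_pos hε)
    refine ⟨x '' ((O ∩ L) \ E), image_mem_map (hmem O hO hzO), ?_⟩
    rintro _ ⟨p, hp, rfl⟩ _ ⟨q, hq, rfl⟩
    rw [Real.dist_eq]
    linarith [h1 p hp q hq]
  obtain ⟨β, hβ⟩ := CompleteSpace.complete hC
  refine ⟨β, fun δ hδ => ?_⟩
  have h1 : ∀ᶠ w in f, |x w - β| < δ := by
    have := (show Tendsto x f (𝓝 β) from hβ).eventually (Metric.ball_mem_nhds β hδ)
    filter_upwards [this] with w hw
    simpa [Real.dist_eq] using hw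
  rw [hf, eventually_inf_principal, eventually_nhdsSet_iff_exists] at h1
  obtain ⟨O, hO, hzO, hOb⟩ := h1
  exact ⟨O, hO, hzO, fun w hw => hOb w hw.1.1 ⟨hw.1.2, hw.2⟩⟩

/-- **separation** : a value between `b p` and `b q` not taken on `C \ E` -/
theorem exists_sep (hE : IsCompact E) {C : Set ℂ} (hC : IsCompact C) (hCp : IsPreconnected C)
    (hb : ContinuousOn b Eᶜ) {p q : ℂ} (hp : p ∈ C \ E) (hq : q ∈ C \ E) {s : ℝ}
    (h1 : b p < s) (h2 : s < b q) (hs : s ∉ b '' (C \ E)) :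
    ∃ z ∈ C ∩ E, ∀ O, IsOpen O → connectedComponentIn E z ⊆ O →
      (∃ p ∈ (O ∩ C) \ E, b p < s) ∧ ∃ q ∈ (O ∩ C) \ E, s < b q := by
  have hEo : IsOpen Eᶜ := hE.isClosed.isOpen_compl
  set A : Set ℂ := {w | w ∈ C \ E ∧ b w < s} with hA
  set B : Set ℂ := {w | w ∈ C \ E ∧ s < b w} with hB
  set A' : Set ℂ := (Nip_31.sint E (closure A)ᶜ)ᶜ with hA'
  set B' : Set ℂ := (Nip_31.sint E (closure B)ᶜ)ᶜ with hB'
  have hA'c : IsClosed A' := (Nip_31.isOpen_sint hE isClosed_closure.isOpen_compl).isClosed_compl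
  have hB'c : IsClosed B' := (Nip_31.isOpen_sint hE isClosed_closure.isOpen_compl).isClosed_compl
  have hsat : ∀ D : Set ℂ, closure D ⊆ (Nip_31.sint E (closure D)ᶜ)ᶜ := fun D w hw h => h.1 hw
  have hcov : C ⊆ A' ∪ B' := by
    intro w hw
    by_cases hwE : w ∈ E
    · by_contra hcon
      rw [mem_union, not_or] at hcon
      have h3 : w ∈ Nip_31.sint E (closure A)ᶜ := not_not.1 hcon.1
      have h4 : w ∈ Nip_31.sint E (closure B)ᶜ := not_not.1 hcon.2
      obtain ⟨r, hr, hrO⟩ := exists_near hE hC hCp ⟨p, hp⟩ hw hwE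
        (O := (closure A)ᶜ ∩ (closure B)ᶜ)
        (isClosed_closure.isOpen_compl.inter isClosed_closure.isOpen_compl)
        (subset_inter (h3.2 hwE) (h4.2 hwE))
      rcases lt_trichotomy (b r) s with h | h | h
      · exact hrO.1 (subset_closure ⟨hr, h⟩)
      · exact hs ⟨r, hr, h⟩
      · exact hrO.2 (subset_closure ⟨hr, h⟩)
    · rcases lt_trichotomy (b w) s with h | h | h
      · exact Or.inl (hsat A (subset_closure ⟨⟨hw, hwE⟩, h⟩))
      · exact absurd ⟨w, ⟨hw, hwE⟩, h⟩ hs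
      · exact Or.inr (hsat B (subset_closure ⟨⟨hw, hwE⟩, h⟩))
  obtain ⟨z, hzC, hzA, hzB⟩ := isPreconnected_closed_iff.1 hCp A' B' hA'c hB'c hcov
    ⟨p, hp.1, hsat A (subset_closure ⟨hp, h1⟩)⟩ ⟨q, hq.1, hsat B (subset_closure ⟨hq, h2⟩)⟩
  have hzE : z ∈ E := by
    by_contra hzE
    have h3 : z ∈ closure A := by
      by_contra h
      exact hzA ⟨h, fun h' => absurd h' hzE⟩
    have h4 : z ∈ closure B := by
      by_contra h
      exact hzB ⟨h, fun h' => absurd h' hzE⟩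
    have hca : ContinuousAt b z := hb.continuousAt (hEo.mem_nhds hzE)
    rcases lt_trichotomy (b z) s with h | h | h
    · obtain ⟨w, hw1, hw2⟩ := mem_closure_iff_nhds.1 h4 _ (hca.eventually (gt_mem_nhds h))
      exact lt_asymm hw2.2 hw1
    · exact hs ⟨z, ⟨hzC, hzE⟩, h⟩
    · obtain ⟨w, hw1, hw2⟩ := mem_closure_iff_nhds.1 h3 _ (hca.eventually (lt_mem_nhds h))
      exact lt_asymm hw2.2 hw1
  have key : ∀ D : Set ℂ, z ∉ Nip_31.sint E (closure D)ᶜ → ∀ O, IsOpen O →
      connectedComponentIn E z ⊆ O → (O ∩ D).Nonempty := by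
    intro D hD O hO hzO
    by_contra hcon
    rw [not_nonempty_iff_eq_empty] at hcon
    apply hD
    have h3 : O ⊆ (closure D)ᶜ := by
      intro w hw hwD
      obtain ⟨v, hv⟩ := mem_closure_iff.1 hwD O hO hw
      rw [hcon] at hv
      exact hv
    exact ⟨h3 (hzO (mem_connectedComponentIn hzE)), fun _ => hzO.trans h3⟩
  refine ⟨z, ⟨hzC, hzE⟩, fun O hO hzO => ?_⟩
  obtain ⟨r, hrO, hr⟩ := key A hzA O hO hzO
  obtain ⟨r', hrO', hr'⟩ := key B hzB O hO hzO
  exact ⟨⟨r, ⟨⟨hrO, hr.1.1⟩, hr.1.2⟩, hr.2⟩, ⟨r', ⟨⟨hrO', hr'.1.1⟩, hr'.1.2⟩, hr'.2⟩⟩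

end Crest.Agent.R105.Plv_626
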