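import Crest.Agent.R105.Plv1_626
import Crest.Agent.R105.Vs1_439

/-!
# Row 105, S0138, NI frame: LINK 2 of 444 #10384, part 2 (helper626)

(2'): the variation of a function `b` which is near every uncharged component a Lipschitz function of
`(x, y)` along `L` (Lipschitz constant arbitrary) is bounded by the length of its values off `E` and
the charges `σ K` of countably many components: `sum_planar`, `varLe_planar`.
-/

set_option autoImplicit false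

open MeasureTheory Set Filter Topology Metric
open scoped NNReal ENNReal

namespace Crest.Agent.R105.Plv_626

open Thin_12 Sl_732

variable {E L W : Set ℂ} {S : Set (Set ℂ)} {b x y : ℂ → ℝ}

/-- small variation near `E` off the components in `S` -/
def SmV (E L : Set ℂ) (S : Set (Set ℂ)) (x : ℂ → ℝ) : Prop :=
  ∀ η > 0, ∃ W, IsOpen W ∧ (L ∩ E) \ ⋃₀ S ⊆ W ∧ VarLe E L W x η

/-- `b` is near the component of `z` a Lipschitz function of `(x, y)` along `L` -/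
def LipAt (E L : Set ℂ) (x y b : ℂ → ℝ) (z : ℂ) : Prop :=
  ∃ (O : Set ℂ) (M : ℝ), IsOpen O ∧ connectedComponentIn E z ⊆ O ∧
    ∀ p ∈ (O ∩ L) \ E, ∀ q ∈ (O ∩ L) \ E, |b p - b q| ≤ M * (|x p - x q| + |y p - y q|)

/-- the charge at a component -/
def ChLe (E L : Set ℂ) (b : ℂ → ℝ) (K : Set ℂ) (σ : ℝ) : Prop :=
  ∀ δ > 0, ∃ O, IsOpen O ∧ K ⊆ O ∧ ∀ p ∈ (O ∩ L) \ E, ∀ q ∈ (O ∩ L) \ E, |b p - b q| ≤ σ + δ

lemma sat_rest (hSE : ∀ K ∈ S, ∃ z ∈ E, K = connectedComponentIn E z) (sat : Sat E L) :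
    Sat E ((L ∩ E) \ ⋃₀ S) := by
  intro z hz hzE w hw
  refine ⟨⟨sat z hz.1.1 hzE hw, connectedComponentIn_subset _ _ hw⟩, ?_⟩
  rintro ⟨K, hK, hwK⟩
  obtain ⟨v, hv, rfl⟩ := hSE K hK
  apply hz.2
  refine ⟨_, hK, ?_⟩
  rw [connectedComponentIn_eq hwK, ← connectedComponentIn_eq hw]
  exact mem_connectedComponentIn hzE

/-- limits of `b` along `L` at the uncharged components -/
theorem exists_beta (hE : IsCompact E) (hL : IsClosed L) (hLc : IsPreconnected L)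
    (sat : Sat E L) (hne : ∀ N, IsCompact N → ¬ L ⊆ N)
    (hSE : ∀ K ∈ S, ∃ z ∈ E, K = connectedComponentIn E z)
    (hx : ContinuousOn x Eᶜ) (hy : ContinuousOn y Eᶜ) (hvx : SmV E L S x) (hvy : SmV E L S y)
    (hlip : ∀ z ∈ (L ∩ E) \ ⋃₀ S, LipAt E L x y b z) :
    ∃ β : ℂ → ℝ, ∀ z ∈ (L ∩ E) \ ⋃₀ S, LimAt E L b z (β z) := by
  have h : ∀ z ∈ (L ∩ E) \ ⋃₀ S, ∃ β, LimAt E L b z β := by
    intro z hz
    have hsat := sat_rest hSE sat
    have hzG : connectedComponentIn E z ⊆ (L ∩ E) \ ⋃₀ S := hsat z hz hz.1.2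
    have hX : ∀ η > 0, ∃ W, IsOpen W ∧ connectedComponentIn E z ⊆ W ∧ VarLe E L W x η :=
      fun η hη => (hvx η hη).imp fun W h => ⟨h.1, hzG.trans h.2.1, h.2.2⟩
    have hY : ∀ η > 0, ∃ W, IsOpen W ∧ connectedComponentIn E z ⊆ W ∧ VarLe E L W y η :=
      fun η hη => (hvy η hη).imp fun W h => ⟨h.1, hzG.trans h.2.1, h.2.2⟩
    obtain ⟨O, M, hO, hzO, hM⟩ := hlip z hz
    refine exists_lim hE hL hLc hne hz.1.1 hz.1.2 fun δ hδ => ?_
    have hM1 : 0 < 2 * (|M| + 1) := by positivity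
    obtain ⟨O₁, hO₁, hzO₁, h1⟩ := lim_along hE hL hLc sat hne hx hz.1.1 hz.1.2 hX
      (show 0 < δ / (2 * (|M| + 1)) by positivity)
    obtain ⟨O₂, hO₂, hzO₂, h2⟩ := lim_along hE hL hLc sat hne hy hz.1.1 hz.1.2 hY
      (show 0 < δ / (2 * (|M| + 1)) by positivity)
    refine ⟨O ∩ (O₁ ∩ O₂), hO.inter (hO₁.inter hO₂), subset_inter hzO (subset_inter hzO₁ hzO₂),
      fun p hp q hq => ?_⟩
    have h3 := hM p ⟨⟨hp.1.1.1, hp.1.2⟩, hp.2⟩ q ⟨⟨hq.1.1.1, hq.1.2⟩, hq.2⟩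
    have h4 := h1 p ⟨⟨hp.1.1.2.1, hp.1.2⟩, hp.2⟩ q ⟨⟨hq.1.1.2.1, hq.1.2⟩, hq.2⟩
    have h5 := h2 p ⟨⟨hp.1.1.2.2, hp.1.2⟩, hp.2⟩ q ⟨⟨hq.1.1.2.2, hq.1.2⟩, hq.2⟩
    calc |b p - b q| ≤ M * (|x p - x q| + |y p - y q|) := h3
      _ ≤ (|M| + 1) * (|x p - x q| + |y p - y q|) :=
          mul_le_mul_of_nonneg_right (by linarith [le_abs_self M]) (by positivity)
      _ ≤ (|M| + 1) * (δ / (2 * (|M| + 1)) + δ / (2 * (|M| + 1))) :=
          mul_le_mul_of_nonneg_left (add_le_add h4 h5) (by positivity)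
      _ = δ := by field_simp; ring
  choose! β hβ using h
  exact ⟨β, hβ⟩

/-- the limit values are null -/
theorem beta_null (hE : IsCompact E) (hL : IsClosed L) (hLc : IsPreconnected L)
    (sat : Sat E L) (hU : (L \ E).Nonempty) (μ : Measure ℂ) [SigmaFinite μ]
    (pos : ∀ C ⊆ L \ E, IsCompact C → IsPreconnected C → C.Nontrivial → μ C ≠ 0)
    (hSE : ∀ K ∈ S, ∃ z ∈ E, K = connectedComponentIn E z)
    (hvx : SmV E L S x) (hvy : SmV E L S y)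
    (hlip : ∀ z ∈ (L ∩ E) \ ⋃₀ S, LipAt E L x y b z)
    {β : ℂ → ℝ} (hβ : ∀ z ∈ (L ∩ E) \ ⋃₀ S, LimAt E L b z (β z)) :
    volume (β '' ((L ∩ E) \ ⋃₀ S)) = 0 := by
  set G : Set ℂ := (L ∩ E) \ ⋃₀ S with hG
  have hGs : Sat E G := sat_rest hSE sat
  have hGE : G ⊆ E := fun z hz => hz.1.2
  choose! O M hO hzO hM using hlip
  have hN : ∀ z ∈ G, ∃ N, IsOpen N ∧ connectedComponentIn E z ⊆ N ∧ closure N ⊆ O z ∧
      IsCompact (closure N) ∧ Disjoint (frontier N) E := fun z hz =>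
    thin_nhd hE (hGE hz) (hO z hz) (hzO z hz)
  choose! N hNo hzN hNO hNc hNf using hN
  have hzN' : ∀ z ∈ G, z ∈ N z := fun z hz => hzN z hz (mem_connectedComponentIn (hGE hz))
  obtain ⟨T, hTG, hTc, hTcov⟩ := TopologicalSpace.countable_cover_nhdsWithin
    (s := G) (f := N) (fun z hz => mem_nhdsWithin_of_mem_nhds ((hNo z hz).mem_nhds (hzN' z hz)))
  have hsub : β '' G ⊆ ⋃ z ∈ T, β '' (G ∩ N z) := by
    rintro _ ⟨w, hw, rfl⟩
    obtain ⟨z, hz, hwz⟩ := mem_iUnion₂.1 (hTcov hw)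
    exact mem_iUnion₂.2 ⟨z, hz, w, ⟨hw, hwz⟩, rfl⟩
  refine measure_mono_null hsub ((measure_biUnion_null_iff hTc).2 fun z hzT => ?_)
  have hz := hTG hzT
  refine null_of_var' hE hL hLc sat hU μ pos (G := G ∩ N z) (b := b)
    (fun w hw => hw.1.1) ?_ (fun w hw => hβ w hw.1) ?_
  · intro w hw hwE v hv
    refine ⟨hGs w hw.1 hwE hv, ?_⟩
    have h1 := cc_subset_interior (hNf z hz) hwE hw.2 hv
    rwa [(hNo z hz).interior_eq] at h1
  · intro η hη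
    have hM1 : 0 < 2 * (|M z| + 1) := by positivity
    obtain ⟨W₁, hW₁, hGW₁, h1⟩ := hvx (η / (2 * (|M z| + 1))) (by positivity)
    obtain ⟨W₂, hW₂, hGW₂, h2⟩ := hvy (η / (2 * (|M z| + 1))) (by positivity)
    refine ⟨N z ∩ (W₁ ∩ W₂), (hNo z hz).inter (hW₁.inter hW₂),
      fun w hw => ⟨hw.2, hGW₁ hw.1, hGW₂ hw.1⟩, ?_⟩
    have h1' := h1.mono (W' := N z ∩ (W₁ ∩ W₂)) (fun w hw => hw.2.1) le_rfl
    have h2' := h2.mono (W' := N z ∩ (W₁ ∩ W₂)) (fun w hw => hw.2.2) le_rfl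
    intro F p q hF hd
    have h3 := h1' F p q hF hd
    have h4 := h2' F p q hF hd
    have hmemO : ∀ C ∈ F, ∀ r ∈ C \ E, r ∈ (O z ∩ L) \ E := fun C hC r hr =>
      ⟨⟨hNO z hz (subset_closure ((hF C hC).sub hr.1).2.1), ((hF C hC).sub hr.1).1⟩, hr.2⟩
    calc ∑ C ∈ F, |b (p C) - b (q C)|
        ≤ ∑ C ∈ F, (|M z| + 1) * (|x (p C) - x (q C)| + |y (p C) - y (q C)|) := by
          refine Finset.sum_le_sum fun C hC => ?_
          refine (hM z hz _ (hmemO C hC _ (hF C hC).hp) _ (hmemO C hC _ (hF C hC).hq)).trans ?_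
          exact mul_le_mul_of_nonneg_right (by linarith [le_abs_self (M z)]) (by positivity)
      _ = (|M z| + 1) * (∑ C ∈ F, |x (p C) - x (q C)| + ∑ C ∈ F, |y (p C) - y (q C)|) := by
          rw [← Finset.mul_sum, Finset.sum_add_distrib]
      _ ≤ (|M z| + 1) * (η / (2 * (|M z| + 1)) + η / (2 * (|M z| + 1))) :=
          mul_le_mul_of_nonneg_left (add_le_add h3 h4) (by positivity)
      _ = η := by field_simp; ring

/-- the values with two sided clusters at `K` along `C` -/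
def Skv (E C : Set ℂ) (b : ℂ → ℝ) (K : Set ℂ) : Set ℝ :=
  {s | ∀ O, IsOpen O → K ⊆ O → (∃ p ∈ (O ∩ C) \ E, b p < s) ∧ ∃ q ∈ (O ∩ C) \ E, s < b q}

lemma volume_Skv {C K : Set ℂ} {σ : ℝ} (hCL : C ⊆ L) (h : ChLe E L b K σ) :
    volume (Skv E C b K) ≤ ENNReal.ofReal σ := by
  refine (Real.volume_le_diam _).trans (Metric.ediam_le ?_)
  have key : ∀ s ∈ Skv E C b K, ∀ s' ∈ Skv E C b K, s' - s ≤ σ := by
    intro s hs s' hs'
    refine le_of_forall_pos_le_add fun δ hδ => ?_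
    obtain ⟨O, hO, hKO, h1⟩ := h δ hδ
    obtain ⟨⟨p, hp, hps⟩, -⟩ := hs O hO hKO
    obtain ⟨-, q, hq, hqs⟩ := hs' O hO hKO
    have h2 := h1 q ⟨⟨hq.1.1, hCL hq.1.2⟩, hq.2⟩ p ⟨⟨hp.1.1, hCL hp.1.2⟩, hp.2⟩
    have := le_abs_self (b q - b p)
    linarith
  intro s hs s' hs'
  rw [edist_dist, Real.dist_eq]
  refine ENNReal.ofReal_le_ofReal (abs_le.2 ⟨?_, ?_⟩)
  · linarith [key s hs s' hs']
  · linarith [key s' hs' s hs]

/-- one piece -/
theorem piece_planar (hE : IsCompact E) (hb : ContinuousOn b Eᶜ)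
    (hSc : S.Countable) (hSE : ∀ K ∈ S, ∃ z ∈ E, K = connectedComponentIn E z)
    {σ : Set ℂ → ℝ} (hσ : ∀ K ∈ S, K ⊆ L → ChLe E L b K (σ K))
    {β : ℂ → ℝ} (hβ : ∀ z ∈ (L ∩ E) \ ⋃₀ S, LimAt E L b z (β z))
    (hnull : volume (β '' ((L ∩ E) \ ⋃₀ S)) = 0) {C : Set ℂ} {p q : ℂ} (hC : Piece E L C p q) :
    open Classical in
    ENNReal.ofReal |b p - b q| ≤ volume (b '' (C \ E)) +
      ∑' K : S, if K.1 ⊆ C then ENNReal.ofReal (σ K.1) else 0 := by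
  classical
  have : Countable S := hSc.to_subtype
  have hcov : uIcc (b p) (b q) ⊆ (b '' (C \ E) ∪ β '' ((L ∩ E) \ ⋃₀ S)) ∪
      ⋃ K : S, if K.1 ⊆ C then Skv E C b K.1 else ∅ := by
    intro s hs
    by_cases hsC : s ∈ b '' (C \ E)
    · exact Or.inl (Or.inl hsC)
    have hsp : b p ≠ s := fun h => hsC ⟨p, hC.hp, h⟩
    have hsq : b q ≠ s := fun h => hsC ⟨q, hC.hq, h⟩
    obtain ⟨z, hz, hzO⟩ : ∃ z ∈ C ∩ E, ∀ O, IsOpen O → connectedComponentIn E z ⊆ O →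
        (∃ p ∈ (O ∩ C) \ E, b p < s) ∧ ∃ q ∈ (O ∩ C) \ E, s < b q := by
      rcases le_total (b p) (b q) with h | h
      · rw [uIcc_of_le h] at hs
        exact exists_sep hE hC.cpt hC.conn hb hC.hp hC.hq (lt_of_le_of_ne hs.1 hsp)
          (lt_of_le_of_ne hs.2 hsq.symm) hsC
      · rw [uIcc_of_ge h] at hs
        exact exists_sep hE hC.cpt hC.conn hb hC.hq hC.hp (lt_of_le_of_ne hs.1 hsq)
          (lt_of_le_of_ne hs.2 hsp.symm) hsC
    by_cases hzS : z ∈ ⋃₀ S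
    · obtain ⟨K, hK, hzK⟩ := hzS
      have hKz : K = connectedComponentIn E z := by
        obtain ⟨v, hv, rfl⟩ := hSE K hK
        exact connectedComponentIn_eq hzK
      refine Or.inr (mem_iUnion.2 ⟨⟨K, hK⟩, ?_⟩)
      have hKC : K ⊆ C := by rw [hKz]; exact hC.sat z hz.1 hz.2
      rw [if_pos hKC]
      intro O hO hKO
      exact hzO O hO (by rw [← hKz]; exact hKO)
    · have hzG : z ∈ (L ∩ E) \ ⋃₀ S := ⟨⟨hC.sub hz.1, hz.2⟩, hzS⟩
      refine Or.inl (Or.inr ⟨z, hzG, ?_⟩)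
      by_contra hne
      have hd : 0 < |β z - s| := abs_pos.2 (sub_ne_zero.2 hne)
      obtain ⟨O, hO, hzO', h1⟩ := hβ z hzG _ hd
      obtain ⟨⟨r, hr, hrs⟩, r', hr', hrs'⟩ := hzO O hO hzO'
      have h2 := h1 r ⟨⟨hr.1.1, hC.sub hr.1.2⟩, hr.2⟩
      have h3 := h1 r' ⟨⟨hr'.1.1, hC.sub hr'.1.2⟩, hr'.2⟩
      rw [abs_lt] at h2 h3
      rcases abs_cases (β z - s) with h | h <;> linarith
  have h0 : ENNReal.ofReal |b p - b q| = volume (uIcc (b p) (b q)) := by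
    rw [Real.volume_interval, abs_sub_comm]
  rw [h0]
  refine (measure_mono hcov).trans ((measure_union_le _ _).trans (add_le_add ?_ ?_))
  · refine (measure_union_le _ _).trans ?_
    rw [hnull, add_zero]
  · refine (measure_iUnion_le _).trans (ENNReal.tsum_le_tsum fun K => ?_)
    split_ifs with h
    · exact volume_Skv hC.sub (hσ K.1 K.2 (h.trans hC.sub))
    · simp

/-- **(2')** sums over disjoint pieces -/
theorem sum_planar (hE : IsCompact E) (hL : IsClosed L) (hLc : IsPreconnected L)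
    (sat : Sat E L) (hU : (L \ E).Nonempty) (hne : ∀ N, IsCompact N → ¬ L ⊆ N)
    (μ : Measure ℂ) [SigmaFinite μ]
    (pos : ∀ C ⊆ L \ E, IsCompact C → IsPreconnected C → C.Nontrivial → μ C ≠ 0)
    (hSc : S.Countable) (hSE : ∀ K ∈ S, ∃ z ∈ E, K = connectedComponentIn E z)
    (hx : ContinuousOn x Eᶜ) (hy : ContinuousOn y Eᶜ) (hb : ContinuousOn b Eᶜ)
    (hvx : SmV E L S x) (hvy : SmV E L S y)
    (hlip : ∀ z ∈ (L ∩ E) \ ⋃₀ S, LipAt E L x y b z)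
    {σ : Set ℂ → ℝ} (hσ : ∀ K ∈ S, K ⊆ L → ChLe E L b K (σ K))
    (F : Finset (Set ℂ)) (p q : Set ℂ → ℂ) (hF : ∀ C ∈ F, Piece E (L ∩ W) C (p C) (q C))
    (hd : (F : Set (Set ℂ)).PairwiseDisjoint id) :
    open Classical in
    ∑ C ∈ F, ENNReal.ofReal |b (p C) - b (q C)| ≤ ∑ C ∈ F, volume (b '' (C \ E)) +
      ∑' K : S, if K.1 ⊆ L ∩ W then ENNReal.ofReal (σ K.1) else 0 := by
  classical
  obtain ⟨β, hβ⟩ := exists_beta hE hL hLc sat hne hSE hx hy hvx hvy hlip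
  have hnull := beta_null hE hL hLc sat hU μ pos hSE hvx hvy hlip hβ
  have hF' : ∀ C ∈ F, Piece E L C (p C) (q C) := fun C hC =>
    ⟨(hF C hC).cpt, (hF C hC).conn, (hF C hC).sat, fun w hw => ((hF C hC).sub hw).1,
      (hF C hC).hp, (hF C hC).hq⟩
  refine (Finset.sum_le_sum fun C hC =>
    piece_planar hE hb hSc hSE hσ hβ hnull (hF' C hC)).trans ?_
  rw [Finset.sum_add_distrib]
  refine add_le_add le_rfl ?_
  rw [← Summable.tsum_finsetSum fun i _ => ENNReal.summable]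
  refine ENNReal.tsum_le_tsum fun K => ?_
  obtain ⟨z, hz⟩ : K.1.Nonempty := by
    obtain ⟨v, hv, h⟩ := hSE K.1 K.2
    rw [h]; exact ⟨v, mem_connectedComponentIn hv⟩
  by_cases hex : ∃ C ∈ F, K.1 ⊆ C
  · obtain ⟨C, hC, hKC⟩ := hex
    rw [Finset.sum_eq_single_of_mem C hC]
    · rw [if_pos hKC, if_pos (hKC.trans (hF C hC).sub)]
    · intro D hD hDC
      rw [if_neg]
      intro hKD
      exact disjoint_left.1 (hd hD hC hDC) (hKD hz) (hKC hz)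
  · rw [Finset.sum_eq_zero fun C hC => if_neg fun h => hex ⟨C, hC, h⟩]
    exact zero_le

/-- **(2')** in the form of 439's multiplicity: charges only on the components in `S` -/
theorem varLe_planar (hE : IsCompact E) (hL : IsClosed L) (hLc : IsPreconnected L)
    (sat : Sat E L) (hU : (L \ E).Nonempty) (hne : ∀ N, IsCompact N → ¬ L ⊆ N)
    (μ : Measure ℂ) [SigmaFinite μ]
    (pos : ∀ C ⊆ L \ E, IsCompact C → IsPreconnected C → C.Nontrivial → μ C ≠ 0)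
    (hSc : S.Countable) (hSE : ∀ K ∈ S, ∃ z ∈ E, K = connectedComponentIn E z)
    (hx : ContinuousOn x Eᶜ) (hy : ContinuousOn y Eᶜ) (hb : ContinuousOn b Eᶜ)
    (hvx : SmV E L S x) (hvy : SmV E L S y)
    (hlip : ∀ z ∈ (L ∩ E) \ ⋃₀ S, LipAt E L x y b z)
    {σ : Set ℂ → ℝ} (hσ : ∀ K ∈ S, K ⊆ L → ChLe E L b K (σ K))
    {a : ℂ → ℝ} {t : ℝ} (ha : ∀ z ∈ L \ E, a z = t) {η : ℝ} (hη : 0 ≤ η)
    (h : open Classical in Vs_439.mul a b (W \ E) t +
      ∑' K : S, (if K.1 ⊆ L ∩ W then ENNReal.ofReal (σ K.1) else 0) ≤ ENNReal.ofReal η) :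
    VarLe E L W b η := by
  classical
  intro F p q hF hd
  have h1 := sum_planar hE hL hLc sat hU hne μ pos hSc hSE hx hy hb hvx hvy hlip hσ F p q hF hd
  have h2 : ∑ C ∈ F, volume (b '' (C \ E)) ≤ Vs_439.mul a b (W \ E) t := by
    refine le_trans (Finset.sum_le_sum fun C hC => ?_) (Vs_439.sum_image_le (a := a) (b := b)
      (S := W \ E) (t := t) F (C := fun C => C) (fun C hC => (hF C hC).cpt)
      (fun C hC D hD hne => hd hC hD hne)
      fun C hC z hz hzS => ha z ⟨((hF C hC).sub hz).1, hzS.2⟩)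
    refine measure_mono (image_mono fun z hz => ⟨hz.1, ((hF C hC).sub hz.1).2, hz.2⟩)
  have h3 := h1.trans ((add_le_add_left h2 _).trans h)
  rw [← ENNReal.ofReal_sum_of_nonneg fun C _ => abs_nonneg _] at h3
  exact (ENNReal.ofReal_le_ofReal_iff hη).1 h3

end Crest.Agent.R105.Plv_626
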