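import Mathlib
import Crest.Agent.R165.GeoP2_67
import Crest.Agent.R216.ParamInt

/-!
# R105, PRIM 1 (helper591): primitives from orthogonality

* `kk δ` : the regularised kernel `u ↦ 1/u` (equal to `1/u` for `2δ ≤ ‖u‖²`, smooth on `ℂ`)
* `mean_rad` : radial mean value formula
* `exists_prim` (P1): `h` holomorphic on an open preconnected `U`, `Orth U h` (`∫_U h (φ_x + i φ_y) = 0` for
  real `φ ∈ C_c^∞(ℂ)` with `tsupport (fderiv φ) ⊆ U`); then `h` has a primitive on `U`
-/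

set_option autoImplicit false

open Set Filter Topology Metric Complex MeasureTheory
open scoped ContDiff

namespace Crest.Agent.R105.Prim591

noncomputable section

/-! ### the kernel -/

/-- smooth step -/
def Gs (δ : ℝ) (s : ℝ) : ℝ := Real.smoothTransition ((s - δ) / δ)

theorem contDiff_Gs (δ : ℝ) : ContDiff ℝ ∞ (Gs δ) :=
  Real.smoothTransition.contDiff.comp ((contDiff_id.sub contDiff_const).div_const δ)

theorem Gs_zero {δ s : ℝ} (hδ : 0 < δ) (hs : s ≤ δ) : Gs δ s = 0 := by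
  unfold Gs
  apply Real.smoothTransition.zero_of_nonpos
  exact div_nonpos_of_nonpos_of_nonneg (by linarith) hδ.le

theorem Gs_one {δ s : ℝ} (hδ : 0 < δ) (hs : 2 * δ ≤ s) : Gs δ s = 1 := by
  unfold Gs
  apply Real.smoothTransition.one_of_one_le
  rw [le_div_iff₀ hδ]
  linarith

/-- regularised `1/u` -/
def kk (δ : ℝ) (u : ℂ) : ℂ := (Gs δ (‖u‖ ^ 2) : ℂ) * u⁻¹

/-- radial weight -/
def ww (δ : ℝ) (u : ℂ) : ℝ := deriv (Gs δ) (‖u‖ ^ 2)

theorem contDiff_ww (δ : ℝ) : ContDiff ℝ ∞ (ww δ) :=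
  ((contDiff_Gs δ).iterate_deriv 1).comp (contDiff_norm_sq ℝ)

theorem ww_of_lt {δ : ℝ} (hδ : 0 < δ) {u : ℂ} (h : ‖u‖ ^ 2 < δ) : ww δ u = 0 := by
  unfold ww
  have : Gs δ =ᶠ[𝓝 (‖u‖ ^ 2)] fun _ => 0 := by
    filter_upwards [gt_mem_nhds h] with s hs using Gs_zero hδ (le_of_lt hs)
  rw [this.deriv_eq]; simp

theorem ww_of_gt {δ : ℝ} (hδ : 0 < δ) {u : ℂ} (h : 2 * δ < ‖u‖ ^ 2) : ww δ u = 0 := by
  unfold ww
  have : Gs δ =ᶠ[𝓝 (‖u‖ ^ 2)] fun _ => 1 := by
    filter_upwards [lt_mem_nhds h] with s hs using Gs_one hδ (le_of_lt hs)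
  rw [this.deriv_eq]; simp

theorem kk_of_lt {δ : ℝ} (hδ : 0 < δ) {u : ℂ} (h : ‖u‖ ^ 2 ≤ δ) : kk δ u = 0 := by
  unfold kk; rw [Gs_zero hδ h]; simp

theorem kk_of_gt {δ : ℝ} (hδ : 0 < δ) {u : ℂ} (h : 2 * δ ≤ ‖u‖ ^ 2) : kk δ u = u⁻¹ := by
  unfold kk; rw [Gs_one hδ h]; simp

theorem contDiff_kk {δ : ℝ} (hδ : 0 < δ) : ContDiff ℝ ∞ (kk δ) := by
  rw [contDiff_iff_contDiffAt]
  intro u
  by_cases hu : ‖u‖ ^ 2 < δ
  · have h1 : kk δ =ᶠ[𝓝 u] fun _ => 0 := by
      have hc : Continuous fun u : ℂ => ‖u‖ ^ 2 := by fun_prop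
      filter_upwards [hc.continuousAt.eventually_lt continuousAt_const hu] with v hv
        using kk_of_lt hδ (le_of_lt hv)
    exact contDiffAt_const.congr_of_eventuallyEq h1
  · have hu0 : u ≠ 0 := by
      rintro rfl
      apply hu
      simpa using hδ
    have h1 : ContDiff ℝ ∞ fun u : ℂ => ((Gs δ (‖u‖ ^ 2) : ℝ) : ℂ) :=
      Complex.ofRealCLM.contDiff.comp ((contDiff_Gs δ).comp (contDiff_norm_sq ℝ))
    exact h1.contDiffAt.mul (contDiffAt_inv ℝ hu0)

/-- `kk` is holomorphic far from `0` -/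
theorem hasDerivAt_kk {δ : ℝ} (hδ : 0 < δ) {u : ℂ} (h : 2 * δ < ‖u‖ ^ 2) :
    HasDerivAt (kk δ) (-(u ^ 2)⁻¹) u := by
  have hu0 : u ≠ 0 := by
    rintro rfl
    simp at h
    linarith
  have h1 : kk δ =ᶠ[𝓝 u] fun u => u⁻¹ := by
    have hc : Continuous fun u : ℂ => ‖u‖ ^ 2 := by fun_prop
    filter_upwards [continuousAt_const.eventually_lt hc.continuousAt h] with v hv
      using kk_of_gt hδ (le_of_lt hv)
  exact (hasDerivAt_inv hu0).congr_of_eventuallyEq h1

/-- the `∂̄`-derivative of `kk` -/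
theorem dbar_kk {δ : ℝ} (hδ : 0 < δ) (u : ℂ) :
    fderiv ℝ (kk δ) u 1 + I * fderiv ℝ (kk δ) u I = 2 * (ww δ u : ℂ) := by
  by_cases hu : ‖u‖ ^ 2 < δ
  · have h1 : kk δ =ᶠ[𝓝 u] fun _ => 0 := by
      have hc : Continuous fun u : ℂ => ‖u‖ ^ 2 := by fun_prop
      filter_upwards [hc.continuousAt.eventually_lt continuousAt_const hu] with v hv
        using kk_of_lt hδ (le_of_lt hv)
    rw [h1.fderiv_eq, ww_of_lt hδ hu]
    simp
  · have hu0 : u ≠ 0 := by
      rintro rfl
      apply hu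
      simpa using hδ
    have h2 : HasFDerivAt (fun u : ℂ => ‖u‖ ^ 2) (2 • (innerSL ℝ u)) u :=
      (hasStrictFDerivAt_norm_sq u).hasFDerivAt
    have h3 : HasDerivAt (Gs δ) (ww δ u) (‖u‖ ^ 2) :=
      ((contDiff_Gs δ).differentiable (by simp) _).hasDerivAt
    have h4 : HasFDerivAt (fun u : ℂ => Gs δ (‖u‖ ^ 2)) (ww δ u • (2 • (innerSL ℝ u))) u :=
      HasDerivAt.comp_hasFDerivAt (h₂ := Gs δ) (f := fun u : ℂ => ‖u‖ ^ 2) u h3 h2
    have h5 : HasFDerivAt (fun u : ℂ => ((Gs δ (‖u‖ ^ 2) : ℝ) : ℂ))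
        (Complex.ofRealCLM.comp (ww δ u • (2 • (innerSL ℝ u)))) u :=
      Complex.ofRealCLM.hasFDerivAt.comp u h4
    have h6 : HasFDerivAt (𝕜 := ℝ) (fun u : ℂ => u⁻¹)
        ((ContinuousLinearMap.toSpanSingleton ℂ (-(u ^ 2)⁻¹)).restrictScalars ℝ) u :=
      ((hasDerivAt_inv hu0).hasFDerivAt).restrictScalars ℝ
    have h7 := h5.mul h6
    have h8 : HasFDerivAt (kk δ) _ u := h7
    rw [h8.fderiv]
    simp only [add_apply, smul_apply,
      ContinuousLinearMap.comp_apply, innerSL_apply_apply, ContinuousLinearMap.coe_restrictScalars',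
      ContinuousLinearMap.toSpanSingleton_apply, smul_eq_mul, Complex.ofRealCLM_apply]
    have i1 : inner ℝ u (1 : ℂ) = u.re := by simp [Complex.inner]
    have i2 : inner ℝ u I = u.im := by simp [Complex.inner]
    rw [i1, i2]
    have e1 : (u.re : ℂ) + u.im * I = u := re_add_im u
    have e2 : u⁻¹ * u = 1 := inv_mul_cancel₀ hu0
    push_cast
    simp only [nsmul_eq_mul]
    push_cast
    linear_combination (2 * (ww δ u : ℂ) * u⁻¹) * e1 + (2 * (ww δ u : ℂ)) * e2 -
      ((Gs δ (‖u‖ ^ 2) : ℝ) : ℂ) * (u ^ 2)⁻¹ * I_sq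

/-! ### radial mean value formula -/

theorem circle_int {ζ : ℂ} {ρ r : ℝ} (hr : 0 < r) (hrρ : r < ρ) {h : ℂ → ℂ}
    (hh : DifferentiableOn ℂ h (ball ζ ρ)) :
    ∫ θ in Ioo (-Real.pi) Real.pi, h (ζ + (r : ℂ) * (Real.cos θ + Real.sin θ * I)) =
      (2 * Real.pi : ℝ) • h ζ := by
  have h1 : DiffContOnCl ℂ h (ball ζ |r|) := by
    refine (hh.mono ?_).diffContOnCl
    rw [closure_ball _ (by simpa using hr.ne'), abs_of_pos hr]
    exact closedBall_subset_ball hrρ
  have h2 := h1.circleAverage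
  rw [Real.circleAverage_def] at h2
  have h3 : ∫ θ in (0:ℝ)..2 * Real.pi, h (circleMap ζ r θ) = (2 * Real.pi : ℝ) • h ζ := by
    rw [← h2, smul_smul, mul_inv_cancel₀ (by positivity), one_smul]
  have h4 : Function.Periodic (fun θ => h (circleMap ζ r θ)) (2 * Real.pi) := by
    intro θ
    simp only
    rw [periodic_circleMap ζ r θ]
  have h5 := h4.intervalIntegral_add_eq 0 (-Real.pi)
  rw [zero_add, h3] at h5
  rw [← integral_Ioc_eq_integral_Ioo, ← intervalIntegral.integral_of_le (by linarith [Real.pi_pos]),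
    h5, show -Real.pi + 2 * Real.pi = Real.pi by ring]
  refine intervalIntegral.integral_congr fun θ _ => ?_
  simp only [circleMap, exp_mul_I, ofReal_cos, ofReal_sin]

theorem int_rad {δ : ℝ} (hδ : 0 < δ) :
    ∫ r in Ioi (0:ℝ), r * deriv (Gs δ) (r ^ 2) = 1 / 2 := by
  have hG := contDiff_Gs δ
  have hc : Continuous fun r : ℝ => r * deriv (Gs δ) (r ^ 2) :=
    continuous_id.mul ((hG.continuous_deriv (by simp)).comp (continuous_id.pow 2))
  have h0 : ∀ r : ℝ, 2 * δ < r ^ 2 → deriv (Gs δ) (r ^ 2) = 0 := by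
    intro r hr
    have : Gs δ =ᶠ[𝓝 (r ^ 2)] fun _ => 1 := by
      filter_upwards [lt_mem_nhds hr] with s hs using Gs_one hδ (le_of_lt hs)
    rw [this.deriv_eq]; simp
  have hd : ∀ r ∈ Ioi (0:ℝ), HasDerivAt (fun r : ℝ => Gs δ (r ^ 2) / 2)
      (r * deriv (Gs δ) (r ^ 2)) r := by
    intro r _
    have h1 : HasDerivAt (Gs δ) (deriv (Gs δ) (r ^ 2)) (r ^ 2) :=
      (hG.differentiable (by simp) _).hasDerivAt
    have h2 : HasDerivAt (fun r : ℝ => r ^ 2) (2 * r) r := by
      simpa using hasDerivAt_pow 2 r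
    have h3 : HasDerivAt (fun r : ℝ => Gs δ (r ^ 2)) (deriv (Gs δ) (r ^ 2) * (2 * r)) r :=
      HasDerivAt.comp (h₂ := Gs δ) (h := fun r : ℝ => r ^ 2) r h1 h2
    exact (h3.div_const 2).congr_deriv (by ring)
  have hi : IntegrableOn (fun r : ℝ => r * deriv (Gs δ) (r ^ 2)) (Ioi 0) := by
    have h1 : IntegrableOn (fun r : ℝ => r * deriv (Gs δ) (r ^ 2)) (Icc 0 (1 + 2 * δ)) :=
      hc.integrableOn_Icc
    refine h1.of_forall_sdiff_eq_zero measurableSet_Ioi ?_
    rintro r ⟨hr, hr'⟩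
    have hr0 : 0 < r := hr
    have : 1 + 2 * δ < r := by
      by_contra hcon
      exact hr' ⟨hr0.le, not_lt.1 hcon⟩
    rw [h0 r (by nlinarith), mul_zero]
  have hl : Tendsto (fun r : ℝ => Gs δ (r ^ 2) / 2) atTop (𝓝 (1 / 2)) := by
    refine tendsto_const_nhds.congr' ?_
    filter_upwards [eventually_gt_atTop (1 + 2 * δ)] with r hr
    rw [Gs_one hδ (by nlinarith)]
  have := integral_Ioi_of_hasDerivAt_of_tendsto
    (((hG.continuous.comp (continuous_id.pow 2)).div_const 2).continuousWithinAt) hd hi hl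
  rw [this]
  simp [Gs_zero hδ hδ.le]

/-- radial mean value formula -/
theorem mean_rad {δ ρ : ℝ} (hδ : 0 < δ) (hρ : 0 < ρ) (hδρ : 2 * δ < ρ ^ 2) {ζ : ℂ} {h : ℂ → ℂ}
    (hh : DifferentiableOn ℂ h (ball ζ ρ)) :
    ∫ w : ℂ, h (ζ + w) * (ww δ w : ℂ) = Real.pi * h ζ := by
  set Φ : ℂ → ℂ := fun w => h (ζ + w) * (ww δ w : ℂ) with hΦ
  have hΦ0 : ∀ w : ℂ, 2 * δ < ‖w‖ ^ 2 → Φ w = 0 := by
    intro w hw
    simp only [hΦ, ww_of_gt hδ hw, ofReal_zero, mul_zero]
  have hΦc : Continuous Φ := by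
    rw [continuous_iff_continuousAt]
    intro w
    by_cases hw : ‖w‖ < ρ
    · have h1 : ContinuousAt (fun w => h (ζ + w)) w := by
        refine ContinuousAt.comp (f := fun w => ζ + w) (g := h) ?_ (by fun_prop)
        exact (hh.differentiableAt (isOpen_ball.mem_nhds (by simpa using hw))).continuousAt
      exact h1.mul (continuous_ofReal.comp (contDiff_ww δ).continuous).continuousAt
    · have h1 : Φ =ᶠ[𝓝 w] fun _ => 0 := by
        have hc : Continuous fun u : ℂ => ‖u‖ ^ 2 := by fun_prop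
        have hw' : 2 * δ < ‖w‖ ^ 2 := by nlinarith [norm_nonneg w, not_lt.1 hw]
        filter_upwards [continuousAt_const.eventually_lt hc.continuousAt hw'] with v hv
          using hΦ0 v hv
      exact continuousAt_const.congr h1.symm
  rw [← Complex.integral_comp_polarCoord_symm,
    show _root_.polarCoord.target = Ioi (0:ℝ) ×ˢ Ioo (-Real.pi) Real.pi from rfl]
  set F : ℝ × ℝ → ℂ := fun p => p.1 • Φ (Complex.polarCoord.symm p) with hF
  have hFe : ∀ p : ℝ × ℝ, F p =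
      p.1 • Φ ((p.1 : ℂ) * (Real.cos p.2 + Real.sin p.2 * I)) := by
    intro p
    simp only [hF, Complex.polarCoord_symm_apply]
  have hFc : Continuous F := by
    have : F = fun p => p.1 • Φ ((p.1 : ℂ) * (Real.cos p.2 + Real.sin p.2 * I)) := by
      funext p; exact hFe p
    rw [this]
    refine continuous_fst.smul (hΦc.comp ?_)
    fun_prop
  have hnorm : ∀ r θ : ℝ, ‖(r : ℂ) * (Real.cos θ + Real.sin θ * I)‖ = |r| := by
    intro r θ
    have := Complex.norm_polarCoord_symm (r, θ)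
    rwa [Complex.polarCoord_symm_apply] at this
  have hF0 : ∀ r θ : ℝ, ρ ≤ r → F (r, θ) = 0 := by
    intro r θ hr
    rw [hFe]
    simp only
    rw [hΦ0 _ (by rw [hnorm, sq_abs]; nlinarith), smul_zero]
  have hFi : IntegrableOn F (Ioi (0:ℝ) ×ˢ Ioo (-Real.pi) Real.pi) (volume.prod volume) := by
    have h1 : IntegrableOn F (Icc (0:ℝ) ρ ×ˢ Icc (-Real.pi) Real.pi) (volume.prod volume) :=
      hFc.continuousOn.integrableOn_compact (isCompact_Icc.prod isCompact_Icc)
    refine h1.of_forall_sdiff_eq_zero (measurableSet_Ioi.prod measurableSet_Ioo) ?_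
    rintro ⟨r, θ⟩ ⟨⟨hr, hθ⟩, hr'⟩
    have hr0 : 0 < r := hr
    have : ρ < r := by
      by_contra hcon
      exact hr' ⟨⟨hr0.le, not_lt.1 hcon⟩, ⟨hθ.1.le, hθ.2.le⟩⟩
    exact hF0 r θ this.le
  have h1 : ∫ p in Ioi (0:ℝ) ×ˢ Ioo (-Real.pi) Real.pi, F p
      = ∫ r in Ioi (0:ℝ), ∫ θ in Ioo (-Real.pi) Real.pi, F (r, θ) := setIntegral_prod F hFi
  rw [h1]
  have h2 : ∀ r ∈ Ioi (0:ℝ), ∫ θ in Ioo (-Real.pi) Real.pi, F (r, θ)
      = ((r * deriv (Gs δ) (r ^ 2) : ℝ) : ℂ) * ((2 * Real.pi : ℝ) • h ζ) := by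
    intro r hr
    have hr0 : 0 < r := hr
    by_cases hrρ : r < ρ
    · rw [← circle_int hr0 hrρ hh, ← integral_const_mul]
      refine setIntegral_congr_fun measurableSet_Ioo fun θ _ => ?_
      rw [hFe]
      simp only [hΦ]
      have : ww δ ((r : ℂ) * (Real.cos θ + Real.sin θ * I)) = deriv (Gs δ) (r ^ 2) := by
        unfold ww
        rw [hnorm, sq_abs]
      rw [this, real_smul]
      push_cast
      ring
    · have h3 : ∫ θ in Ioo (-Real.pi) Real.pi, F (r, θ) = 0 := by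
        rw [setIntegral_congr_fun measurableSet_Ioo (g := fun _ => (0:ℂ))
          (fun θ _ => hF0 r θ (not_lt.1 hrρ))]
        simp
      rw [h3]
      have h4 : deriv (Gs δ) (r ^ 2) = 0 := by
        have : Gs δ =ᶠ[𝓝 (r ^ 2)] fun _ => 1 := by
          filter_upwards [lt_mem_nhds (show 2 * δ < r ^ 2 by nlinarith [not_lt.1 hrρ])] with s hs
            using Gs_one hδ (le_of_lt hs)
        rw [this.deriv_eq]; simp
      rw [h4]; simp
  rw [setIntegral_congr_fun measurableSet_Ioi h2, integral_mul_const, integral_complex_ofReal,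
    int_rad hδ, real_smul]
  push_cast
  ring

/-! ### the potential of a polygon -/

open Crest.Agent.R165.GeoPx67 Crest.Agent.R216

theorem hasFDerivAt_par {g : ℂ → ℂ} (hg : ContDiff ℝ ∞ g) (a b z0 : ℂ) :
    HasFDerivAt (fun z => ∫ t in (0:ℝ)..1, g (z - (a + t * (b - a))))
      (∫ t in (0:ℝ)..1, fderiv ℝ g (z0 - (a + t * (b - a)))) z0 := by
  have hc1 : Continuous (fderiv ℝ g) := hg.continuous_fderiv (by simp)
  have hcomp : IsCompact (closedBall z0 1 ×ˢ Icc (0:ℝ) 1) :=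
    (isCompact_closedBall _ _).prod isCompact_Icc
  have hcc : Continuous fun q : ℂ × ℝ => fderiv ℝ g (q.1 - (a + q.2 * (b - a))) :=
    hc1.comp (by fun_prop)
  obtain ⟨C, hC⟩ := hcomp.exists_bound_of_continuousOn hcc.continuousOn
  refine intervalIntegral.hasFDerivAt_integral_of_dominated_of_fderiv_le (𝕜 := ℝ)
    (F := fun z t => g (z - (a + t * (b - a))))
    (F' := fun z t => fderiv ℝ g (z - (a + t * (b - a)))) (s := ball z0 1) (bound := fun _ => C)
    (ball_mem_nhds _ one_pos) ?_ ?_ ?_ ?_ ?_ ?_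
  · refine Eventually.of_forall fun z => ?_
    exact (hg.continuous.comp (by fun_prop)).aestronglyMeasurable
  · exact (hg.continuous.comp (by fun_prop)).intervalIntegrable _ _
  · exact (hc1.comp (by fun_prop)).aestronglyMeasurable
  · refine Eventually.of_forall fun t ht z hz => ?_
    rw [uIoc_of_le zero_le_one] at ht
    exact hC (z, t) ⟨ball_subset_closedBall hz, ht.1.le, ht.2⟩
  · exact intervalIntegrable_const
  · refine Eventually.of_forall fun t _ z _ => ?_
    have h1 : HasFDerivAt g (fderiv ℝ g (z - (a + t * (b - a)))) (z - (a + t * (b - a))) :=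
      (hg.differentiable (by simp) _).hasFDerivAt
    have h2 : HasFDerivAt (fun z : ℂ => z - (a + t * (b - a))) (ContinuousLinearMap.id ℝ ℂ) z :=
      (hasFDerivAt_id z).sub_const _
    have := h1.comp z h2
    rw [ContinuousLinearMap.comp_id] at this
    exact this

/-- the potential of a polygon -/
def pot (δ : ℝ) (p : ℕ → ℂ) (n : ℕ) (z : ℂ) : ℂ := polyI p n (fun ζ => kk δ (z - ζ))

theorem contDiff_pot {δ : ℝ} (hδ : 0 < δ) (p : ℕ → ℂ) (n : ℕ) : ContDiff ℝ ∞ (pot δ p n) := by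
  unfold pot polyI segI
  refine ContDiff.sum fun i _ => contDiff_const.mul ?_
  refine contDiff_param_integral (n := ⊤) (h := fun (z : ℂ) (t : ℝ) =>
    kk δ (z - (p i + t * (p (i+1) - p i)))) 0 1 ?_
  refine (contDiff_kk hδ).comp (g := kk δ)
    (f := fun q : ℂ × ℝ => q.1 - (p i + (q.2 : ℂ) * (p (i+1) - p i))) ?_
  have : ContDiff ℝ ∞ fun q : ℂ × ℝ => (q.2 : ℂ) := Complex.ofRealCLM.contDiff.comp contDiff_snd
  exact contDiff_fst.sub (contDiff_const.add (this.mul contDiff_const))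

theorem fderiv_pot {δ : ℝ} (hδ : 0 < δ) (p : ℕ → ℂ) (n : ℕ) (z v : ℂ) :
    fderiv ℝ (pot δ p n) z v = polyI p n (fun ζ => fderiv ℝ (kk δ) (z - ζ) v) := by
  have h1 : HasFDerivAt (pot δ p n) (∑ i ∈ Finset.range n, (p (i+1) - p i) •
      ∫ t in (0:ℝ)..1, fderiv ℝ (kk δ) (z - (p i + t * (p (i+1) - p i)))) z := by
    unfold pot polyI segI
    refine HasFDerivAt.fun_sum fun i _ => ?_
    exact (hasFDerivAt_par (contDiff_kk hδ) (p i) (p (i+1)) z).const_mul _
  rw [h1.fderiv]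
  simp only [polyI, segI, sum_apply, smul_apply, smul_eq_mul]
  refine Finset.sum_congr rfl fun i _ => ?_
  congr 1
  rw [ContinuousLinearMap.intervalIntegral_apply]
  refine Continuous.intervalIntegrable ?_ _ _
  exact ((contDiff_kk hδ).continuous_fderiv (by simp)).comp (by fun_prop)

/-- the potential of a closed polygon is locally constant far from the polygon -/
theorem fderiv_pot_zero {δ : ℝ} (hδ : 0 < δ) {p : ℕ → ℂ} {n : ℕ} (hp : p n = p 0) {z : ℂ}
    (hz : ∀ i < n, ∀ ζ ∈ segment ℝ (p i) (p (i+1)), 2 * δ < ‖z - ζ‖ ^ 2) :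
    fderiv ℝ (pot δ p n) z = 0 := by
  have hK : ∀ i < n, segment ℝ (p i) (p (i+1)) ⊆ {ζ | z - ζ ≠ 0} := by
    intro i hi ζ hζ h0
    have h1 : 2 * δ < ‖z - ζ‖ ^ 2 := hz i hi ζ hζ
    rw [h0] at h1
    simp at h1
    linarith
  have key : ∀ v : ℂ, fderiv ℝ (pot δ p n) z v = 0 := by
    intro v
    rw [fderiv_pot hδ]
    have h1 : polyI p n (fun ζ => fderiv ℝ (kk δ) (z - ζ) v) =
        polyI p n (fun ζ => -(v * ((z - ζ) ^ 2)⁻¹)) := by
      unfold polyI
      refine Finset.sum_congr rfl fun i hi => (cur_segI _ _).congr _ _ fun ζ hζ => ?_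
      have h2 := (hasDerivAt_kk hδ (hz i (Finset.mem_range.1 hi) ζ hζ)).hasFDerivAt.restrictScalars ℝ
      rw [h2.fderiv]
      simp
    rw [h1, polyI_prim (F := fun ζ => -(v * (z - ζ)⁻¹)) hK, hp, sub_self]
    · refine ContinuousOn.neg (continuousOn_const.mul (ContinuousOn.inv₀ (by fun_prop) ?_))
      intro ζ hζ
      exact pow_ne_zero 2 hζ
    · intro ζ hζ
      have h2 : HasDerivAt (fun ζ : ℂ => z - ζ) (-1) ζ := (hasDerivAt_id ζ).const_sub z
      have h3 := ((h2.inv hζ).const_mul v).neg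
      refine h3.congr_deriv ?_
      field_simp
  ext v
  simpa using key v

theorem dbar_pot {δ : ℝ} (hδ : 0 < δ) (p : ℕ → ℂ) (n : ℕ) (z : ℂ) :
    fderiv ℝ (pot δ p n) z 1 + I * fderiv ℝ (pot δ p n) z I =
      2 * polyI p n (fun ζ => (ww δ (z - ζ) : ℂ)) := by
  have hc : ∀ v : ℂ, Continuous fun ζ => fderiv ℝ (kk δ) (z - ζ) v := by
    intro v
    exact (((contDiff_kk hδ).continuous_fderiv (by simp)).comp (by fun_prop)).clm_apply
      continuous_const
  rw [fderiv_pot hδ, fderiv_pot hδ]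
  unfold polyI segI
  rw [Finset.mul_sum, Finset.mul_sum, ← Finset.sum_add_distrib]
  refine Finset.sum_congr rfl fun i _ => ?_
  have h1 : ∀ v : ℂ, IntervalIntegrable
      (fun t : ℝ => fderiv ℝ (kk δ) (z - (p i + t * (p (i+1) - p i))) v) volume 0 1 := by
    intro v
    exact ((hc v).comp (g := fun ζ => fderiv ℝ (kk δ) (z - ζ) v)
      (f := fun t : ℝ => p i + (t : ℂ) * (p (i+1) - p i)) (by fun_prop)).intervalIntegrable _ _
  have h2 : ∀ a b c : ℂ, a * b + I * (a * c) = a * (b + I * c) := by intros; ring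
  have h3 : ∀ a b : ℂ, 2 * (a * b) = a * (2 * b) := by intros; ring
  rw [h2, h3, ← intervalIntegral.integral_const_mul, ← intervalIntegral.integral_const_mul,
    ← intervalIntegral.integral_add (h1 1) ((h1 I).const_mul I)]
  simp only [dbar_kk hδ]

theorem ww_bdd {δ : ℝ} (hδ : 0 < δ) : ∃ C, ∀ u : ℂ, ‖(ww δ u : ℂ)‖ ≤ C := by
  have hc : Continuous fun u : ℂ => (ww δ u : ℂ) :=
    continuous_ofReal.comp (contDiff_ww δ).continuous
  obtain ⟨C, hC⟩ := (isCompact_closedBall (0:ℂ) (1 + 2 * δ)).exists_bound_of_continuousOn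
    hc.continuousOn
  refine ⟨max C 0, fun u => ?_⟩
  by_cases hu : ‖u‖ ≤ 1 + 2 * δ
  · exact (hC u (by simpa using hu)).trans (le_max_left _ _)
  · rw [ww_of_gt hδ (by nlinarith [not_le.1 hu])]
    simp

theorem fub_seg {δ ρ : ℝ} (hδ : 0 < δ) (hρ : 0 < ρ) (hδρ : 2 * δ < ρ ^ 2) {K : Set ℂ}
    (hK : IsCompact K) {h : ℂ → ℂ} (hhK : ContinuousOn h K) {a b : ℂ}
    (hab : ∀ ζ ∈ segment ℝ a b, ball ζ ρ ⊆ K)
    (hh : ∀ ζ ∈ segment ℝ a b, DifferentiableOn ℂ h (ball ζ ρ)) :
    ∫ z in K, h z * segI a b (fun ζ => (ww δ (z - ζ) : ℂ)) = Real.pi * segI a b h := by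
  have hwc : Continuous fun u : ℂ => (ww δ u : ℂ) :=
    continuous_ofReal.comp (contDiff_ww δ).continuous
  obtain ⟨C, hC⟩ := ww_bdd hδ
  set γ : ℝ → ℂ := fun t => a + t * (b - a) with hγ
  have hγc : Continuous γ := by fun_prop
  have hint : Integrable (fun q : ℂ × ℝ => h q.1 * (ww δ (q.1 - γ q.2) : ℂ))
      ((volume.restrict K).prod (volume.restrict (Ioc (0:ℝ) 1))) := by
    have h1 : Integrable h (volume.restrict K) := hhK.integrableOn_compact hK
    have h2 : Integrable (fun _ : ℝ => (1:ℂ)) (volume.restrict (Ioc (0:ℝ) 1)) :=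
      integrable_const _
    have h3 := (h1.mul_prod h2)
    simp only [mul_one] at h3
    refine h3.mul_bdd (c := C) ?_ (Eventually.of_forall fun q => hC _)
    exact (hwc.comp (by fun_prop : Continuous fun q : ℂ × ℝ => q.1 - γ q.2)).aestronglyMeasurable
  have e1 : ∫ z in K, h z * segI a b (fun ζ => (ww δ (z - ζ) : ℂ)) =
      ∫ z in K, (b - a) * ∫ t in Ioc (0:ℝ) 1, h z * (ww δ (z - γ t) : ℂ) := by
    refine integral_congr_ae (Eventually.of_forall fun z => ?_)
    simp only [segI]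
    rw [intervalIntegral.integral_of_le zero_le_one, integral_const_mul]
    ring
  rw [e1, integral_const_mul, integral_integral_swap hint]
  have e2 : ∀ t ∈ Ioc (0:ℝ) 1, ∫ z in K, h z * (ww δ (z - γ t) : ℂ) = Real.pi * h (γ t) := by
    intro t ht
    have hmem : γ t ∈ segment ℝ a b := mem_segment_param a b ⟨ht.1.le, ht.2⟩
    rw [← mean_rad hδ hρ hδρ (hh _ hmem)]
    rw [setIntegral_eq_integral_of_forall_compl_eq_zero]
    · rw [← integral_add_left_eq_self _ (γ t)]
      refine integral_congr_ae (Eventually.of_forall fun z => ?_)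
      simp only [add_sub_cancel_left]
    · intro z hz
      have : ρ ≤ ‖z - γ t‖ := by
        by_contra hcon
        exact hz (hab _ hmem (by rw [mem_ball, dist_eq_norm]; exact not_le.1 hcon))
      rw [ww_of_gt hδ (by nlinarith)]
      simp
  rw [setIntegral_congr_fun measurableSet_Ioc e2, integral_const_mul, segI,
    intervalIntegral.integral_of_le zero_le_one]
  ring

/-- the potential of a closed polygon vanishes far away -/
theorem pot_far {δ : ℝ} (hδ : 0 < δ) {p : ℕ → ℂ} {n : ℕ} (hp : p n = p 0) {R : ℝ} (hR : 0 < R)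
    (hpR : ∀ i < n, segment ℝ (p i) (p (i+1)) ⊆ ball 0 R) {z : ℂ} (hz : R + 2 * δ + 1 ≤ ‖z‖) :
    pot δ p n z = 0 := by
  have hz0 : z ≠ 0 := by
    rintro rfl
    rw [norm_zero] at hz
    linarith
  have h1 : pot δ p n z = polyI p n (fun ζ => (z - ζ)⁻¹) := by
    unfold pot polyI
    refine Finset.sum_congr rfl fun i hi => (cur_segI _ _).congr _ _ fun ζ hζ => ?_
    have h2 : ‖ζ‖ < R := by simpa using hpR i (Finset.mem_range.1 hi) hζ
    have h3 : ‖z‖ - ‖ζ‖ ≤ ‖z - ζ‖ := norm_sub_norm_le _ _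
    exact kk_of_gt hδ (by nlinarith)
  have hlt : ∀ ζ ∈ ball (0:ℂ) R, ‖ζ / z‖ < 1 := by
    intro ζ hζ
    have h2 : ‖ζ‖ < R := by simpa using hζ
    rw [norm_div, div_lt_one (norm_pos_iff.2 hz0)]
    linarith
  have hne : ∀ ζ ∈ ball (0:ℂ) R, z - ζ ≠ 0 := by
    intro ζ hζ h0
    have h2 := hlt ζ hζ
    rw [← sub_eq_zero.1 h0, div_self hz0] at h2
    simp at h2
  rw [h1, polyI_prim (F := fun ζ => -Complex.log (1 - ζ / z)) hpR, hp, sub_self]
  · refine ContinuousOn.inv₀ (by fun_prop) hne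
  · intro ζ hζ
    have h2 : HasDerivAt (fun ζ : ℂ => 1 - ζ / z) (-(1 / z)) ζ :=
      ((hasDerivAt_id ζ).div_const z).const_sub 1
    have hs : 1 - ζ / z ∈ slitPlane := by
      refine Or.inl ?_
      have h3 : (ζ / z).re ≤ ‖ζ / z‖ := re_le_norm _
      have h4 := hlt ζ hζ
      simp only [sub_re, one_re]
      linarith
    have h5 := (h2.clog hs).neg
    refine h5.congr_deriv ?_
    have h6 := hne ζ hζ
    have h7 : 1 - ζ / z ≠ 0 := slitPlane_ne_zero hs
    have h8 : 1 - ζ / z = (z - ζ) / z := by field_simp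
    rw [h8]
    field_simp

/-- orthogonality of `h` to `∂̄ φ`, `φ` real, smooth, compactly supported and locally constant near
the complement of `U` -/
def Orth (U : Set ℂ) (h : ℂ → ℂ) : Prop :=
  ∀ φ : ℂ → ℝ, ContDiff ℝ ∞ φ → HasCompactSupport φ → tsupport (fderiv ℝ φ) ⊆ U →
    ∫ z in U, h z * ((fderiv ℝ φ z 1 : ℂ) + I * (fderiv ℝ φ z I : ℂ)) = 0

/-- the integral of `h` over a closed polygon vanishes -/
theorem polyI_zero {U : Set ℂ} (hU : IsOpen U) {h : ℂ → ℂ} (hh : DifferentiableOn ℂ h U)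
    (hO : Orth U h) {a : ℂ} {n : ℕ} {p : ℕ → ℂ} (hp : Poly U a a n p) : polyI p n h = 0 := by
  set Γ : Set ℂ := ⋃ i ∈ Finset.range n, segment ℝ (p i) (p (i+1)) with hΓ
  have hΓc : IsCompact Γ := (Finset.range n).isCompact_biUnion (fun i _ => isCompact_segment _ _)
  have hΓU : Γ ⊆ U := iUnion₂_subset (fun i hi => hp.sub i (Finset.mem_range.1 hi))
  have hseg : ∀ i < n, segment ℝ (p i) (p (i+1)) ⊆ Γ := fun i hi =>
    subset_biUnion_of_mem (u := fun i => segment ℝ (p i) (p (i+1))) (Finset.mem_range.2 hi)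
  obtain ⟨ρ, hρ, hρU⟩ := hΓc.exists_cthickening_subset_open hU hΓU
  set K : Set ℂ := cthickening ρ Γ with hK
  have hKc : IsCompact K := hΓc.cthickening
  have hball : ∀ ζ ∈ Γ, ball ζ ρ ⊆ K := by
    intro ζ hζ z hz
    exact mem_cthickening_of_dist_le z ζ ρ Γ hζ (le_of_lt hz)
  have hpc : p n = p 0 := by rw [hp.fin, hp.start]
  obtain ⟨δ, hδ, hδρ⟩ : ∃ δ > 0, 2 * δ < ρ ^ 2 := ⟨ρ ^ 2 / 4, by positivity, by
    have : 0 < ρ ^ 2 := by positivity
    linarith⟩
  set φ : ℂ → ℂ := pot δ p n with hφ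
  have hφs : ContDiff ℝ ∞ φ := contDiff_pot hδ p n
  have hφd : Differentiable ℝ φ := hφs.differentiable (by simp)
  have hφ0 : ∀ z ∉ K, fderiv ℝ φ z = 0 := by
    intro z hz
    refine fderiv_pot_zero hδ hpc fun i hi ζ hζ => ?_
    have : ρ < ‖z - ζ‖ := by
      by_contra hcon
      exact hz (mem_cthickening_of_dist_le z ζ ρ Γ (hseg i hi hζ)
        (by rw [dist_eq_norm]; exact not_lt.1 hcon))
    nlinarith
  obtain ⟨R, hR, hRΓ⟩ : ∃ R > 0, Γ ⊆ ball 0 R := by
    obtain ⟨R, hR⟩ := hΓc.isBounded.subset_ball (0:ℂ)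
    exact ⟨max R 1, lt_of_lt_of_le one_pos (le_max_right _ _),
      hR.trans (ball_subset_ball (le_max_left _ _))⟩
  have hφc : HasCompactSupport φ := by
    refine HasCompactSupport.intro (isCompact_closedBall (0:ℂ) (R + 2 * δ + 1)) fun z hz => ?_
    exact pot_far hδ hpc hR (fun i hi => (hseg i hi).trans hRΓ)
      (le_of_lt (by simpa using hz))
  have hT : ∀ L : ℂ →L[ℝ] ℝ, ∫ z in U, h z * ((L (fderiv ℝ φ z 1) : ℂ) +
      I * (L (fderiv ℝ φ z I) : ℂ)) = 0 := by
    intro L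
    have hd : ∀ z, fderiv ℝ (fun z => L (φ z)) z = L.comp (fderiv ℝ φ z) := fun z =>
      (L.hasFDerivAt.comp z (hφd z).hasFDerivAt).fderiv
    have := hO (fun z => L (φ z)) (L.contDiff.comp hφs)
      (hφc.comp_left (g := fun w => L w) (map_zero L)) ?_
    · simpa only [hd, ContinuousLinearMap.comp_apply] using this
    · refine (closure_minimal ?_ isClosed_cthickening : _ ⊆ K).trans hρU
      intro z hz
      by_contra hcon
      apply hz
      rw [hd, hφ0 z hcon, ContinuousLinearMap.comp_zero]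
  have hKU : K ⊆ U := hρU
  have hhK : ContinuousOn h K := hh.continuousOn.mono hKU
  have hcd : ∀ v : ℂ, Continuous fun z => fderiv ℝ φ z v := fun v =>
    (hφs.continuous_fderiv (by simp)).clm_apply continuous_const
  -- integrability
  have hI : ∀ g : ℂ → ℂ, Continuous g → (∀ z ∉ K, g z = 0) → IntegrableOn (fun z => h z * g z) U := by
    intro g hg hg0
    have h1 : IntegrableOn (fun z => h z * g z) K :=
      (hhK.mul hg.continuousOn).integrableOn_compact hKc
    refine h1.of_forall_sdiff_eq_zero hU.measurableSet fun z hz => ?_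
    rw [hg0 z hz.2, mul_zero]
  have hres : ∀ g : ℂ → ℂ, (∀ z ∉ K, g z = 0) → ∫ z in U, h z * g z = ∫ z in K, h z * g z := by
    intro g hg0
    refine setIntegral_eq_of_subset_of_forall_sdiff_eq_zero hU.measurableSet hKU fun z hz => ?_
    rw [hg0 z hz.2, mul_zero]
  have hsum : ∫ z in U, h z * (fderiv ℝ φ z 1 + I * fderiv ℝ φ z I) = 0 := by
    have h1 := hT reCLM
    have h2 := hT imCLM
    have hcr : ∀ v : ℂ, Continuous fun z => ((fderiv ℝ φ z v).re : ℂ) := fun v =>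
      continuous_ofReal.comp (continuous_re.comp (hcd v))
    have hci : ∀ v : ℂ, Continuous fun z => ((fderiv ℝ φ z v).im : ℂ) := fun v =>
      continuous_ofReal.comp (continuous_im.comp (hcd v))
    have i1 := hI (fun z => ((fderiv ℝ φ z 1).re : ℂ) + I * ((fderiv ℝ φ z I).re : ℂ))
      ((hcr 1).add (continuous_const.mul (hcr I))) (fun z hz => by simp [hφ0 z hz])
    have i2 := hI (fun z => ((fderiv ℝ φ z 1).im : ℂ) + I * ((fderiv ℝ φ z I).im : ℂ))
      ((hci 1).add (continuous_const.mul (hci I))) (fun z hz => by simp [hφ0 z hz])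
    simp only [reCLM_apply, imCLM_apply] at h1 h2
    have h3 : ∫ z in U, (h z * (((fderiv ℝ φ z 1).re : ℂ) + I * ((fderiv ℝ φ z I).re : ℂ)) +
        (h z * (((fderiv ℝ φ z 1).im : ℂ) + I * ((fderiv ℝ φ z I).im : ℂ))) * I) = 0 := by
      rw [integral_add i1 (i2.mul_const I), integral_mul_const, h1, h2]
      simp
    rw [← h3]
    refine integral_congr_ae (Eventually.of_forall fun z => ?_)
    simp only
    nth_rewrite 1 [← re_add_im (fderiv ℝ φ z 1)]
    nth_rewrite 1 [← re_add_im (fderiv ℝ φ z I)]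
    ring
  have hdb : ∀ z, fderiv ℝ φ z 1 + I * fderiv ℝ φ z I =
      2 * polyI p n (fun ζ => (ww δ (z - ζ) : ℂ)) := fun z => dbar_pot hδ p n z
  have hww0 : ∀ z ∉ K, (fun z => fderiv ℝ φ z 1 + I * fderiv ℝ φ z I) z = 0 := by
    intro z hz
    simp [hφ0 z hz]
  rw [hres _ hww0] at hsum
  have hfin : ∫ z in K, h z * (fderiv ℝ φ z 1 + I * fderiv ℝ φ z I) =
      2 * (Real.pi * polyI p n h) := by
    simp only [hdb, polyI]
    have e1 : ∀ z, h z * (2 * ∑ i ∈ Finset.range n, segI (p i) (p (i+1))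
        (fun ζ => (ww δ (z - ζ) : ℂ))) = 2 * ∑ i ∈ Finset.range n, h z * segI (p i) (p (i+1))
        (fun ζ => (ww δ (z - ζ) : ℂ)) := by
      intro z
      rw [Finset.mul_sum, Finset.mul_sum, Finset.mul_sum]
      exact Finset.sum_congr rfl fun i _ => by ring
    simp only [e1]
    rw [integral_const_mul, integral_finsetSum]
    · congr 1
      rw [Finset.mul_sum]
      refine Finset.sum_congr rfl fun i hi => ?_
      have hi' := Finset.mem_range.1 hi
      exact fub_seg hδ hρ hδρ hKc hhK (fun ζ hζ => hball ζ (hseg i hi' hζ))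
        (fun ζ hζ => hh.mono ((hball ζ (hseg i hi' hζ)).trans hKU))
    · intro i _
      refine (hhK.mul ?_).integrableOn_compact hKc
      refine Continuous.continuousOn ?_
      unfold segI
      refine continuous_const.mul ?_
      refine intervalIntegral.continuous_parametric_intervalIntegral_of_continuous' ?_ _ _
      exact (continuous_ofReal.comp (contDiff_ww δ).continuous).comp (by fun_prop)
  rw [hfin] at hsum
  have hpi : (Real.pi : ℂ) ≠ 0 := by exact_mod_cast Real.pi_ne_zero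
  simpa [hpi] using hsum

/-- **(P1)** a holomorphic function orthogonal to all `∂̄ φ` has a primitive -/
theorem exists_prim {U : Set ℂ} (hU : IsOpen U) (hc : IsPreconnected U) {h : ℂ → ℂ}
    (hh : DifferentiableOn ℂ h U) (hO : Orth U h) : ∃ F : ℂ → ℂ, ∀ z ∈ U, HasDerivAt F (h z) z := by
  classical
  rcases U.eq_empty_or_nonempty with rfl | ⟨a, ha⟩
  · exact ⟨0, fun z hz => absurd hz (notMem_empty z)⟩
  have hex : ∀ z : ℂ, ∃ np : ℕ × (ℕ → ℂ), z ∈ U → Poly U a z np.1 np.2 := by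
    intro z
    by_cases hz : z ∈ U
    · obtain ⟨ℓ, n, p, hp, -⟩ := exists_JL hU hc ha hz
      exact ⟨(n, p), fun _ => hp⟩
    · exact ⟨(0, fun _ => 0), fun h => absurd h hz⟩
  choose P hP using hex
  have hswap : ∀ a b : ℂ, segI b a h = -segI a b h := by
    intro a b
    unfold segI
    have h1 := intervalIntegral.integral_comp_sub_left (a := 0) (b := 1)
      (fun t : ℝ => h (a + t * (b - a))) 1
    simp only [sub_self, sub_zero] at h1
    rw [← h1]
    have h2 : ∀ t : ℝ, a + ((1 - t : ℝ) : ℂ) * (b - a) = b + t * (a - b) := by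
      intro t; push_cast; ring
    simp only [h2]
    ring
  have hrev : ∀ {b : ℂ} {n : ℕ} {p : ℕ → ℂ}, Poly U a b n p →
      polyI (fun i => p (n - i)) n h = -polyI p n h := by
    intro b n p hp
    unfold polyI
    rw [← Finset.sum_range_reflect, ← Finset.sum_neg_distrib]
    refine Finset.sum_congr rfl fun i hi => ?_
    have hi' := Finset.mem_range.1 hi
    have h1 : n - (n - 1 - i + 1) = i := by omega
    have h2 : n - (n - 1 - i) = i + 1 := by omega
    simp only [h1, h2]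
    exact hswap _ _
  have heq : ∀ {b : ℂ} {n m : ℕ} {p q : ℕ → ℂ}, Poly U a b n p → Poly U a b m q →
      polyI p n h = polyI q m h := by
    intro b n m p q hp hq
    obtain ⟨k, r, hr, hri, -⟩ := hp.append hq.reverse.1
    have h1 := polyI_zero hU hh hO hr
    rw [hri, hrev hq] at h1
    exact (sub_eq_zero.1 (by rw [sub_eq_add_neg]; exact h1))
  refine ⟨fun z => polyI (P z).2 (P z).1 h, fun z hz => ?_⟩
  obtain ⟨ε, hε, hεU⟩ := Metric.isOpen_iff.1 hU z hz
  obtain ⟨G, hG⟩ := (DifferentiableOn.isExactOn_ball (hh.mono hεU))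
  have hev : (fun y => polyI (P y).2 (P y).1 h) =ᶠ[𝓝 z]
      fun y => polyI (P z).2 (P z).1 h + (G y - G z) := by
    filter_upwards [Metric.ball_mem_nhds z hε] with y hy
    have hseg : segment ℝ z y ⊆ ball z ε :=
      (convex_ball z ε).segment_subset (mem_ball_self hε) hy
    obtain ⟨q, hq, hqi, -⟩ := (hP z hz).snoc (hseg.trans hεU)
    rw [heq (hP y (hεU hy)) hq, hqi,
      segI_prim ((hh.continuousOn.mono hεU).mono hseg) (fun w hw => hG w (hseg hw))]
  have h1 : HasDerivAt (fun y => polyI (P z).2 (P z).1 h + (G y - G z)) (h z) z :=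
    ((hG z (mem_ball_self hε)).sub_const _).const_add _
  exact h1.congr_of_eventuallyEq hev

end

end Crest.Agent.R105.Prim591
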