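import Crest.Agent.R105.Prod1_412

/-! Row 105, PROD (helper412), part 2: slabs, good weights, the doubling of a product. -/

open MeasureTheory Set Filter Topology

namespace Crest.Agent.R105.Prod_412

/-- Algebra `A` of continuous functions on the rectangle `[t0,t1] × [y0,y1]`, `D a` = the a.e.
derivative in the first variable, `el` = the weight `1` is good. -/
structure Slab (A : Set (ℝ × ℝ → ℝ)) (D : (ℝ × ℝ → ℝ) → (ℝ × ℝ → ℝ)) (t0 t1 y0 y1 : ℝ) :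
    Prop where
  const : ∀ c : ℝ, (fun _ : ℝ × ℝ => c) ∈ A
  add : ∀ a ∈ A, ∀ b ∈ A, (fun p => a p + b p) ∈ A
  mul : ∀ a ∈ A, ∀ b ∈ A, (fun p => a p * b p) ∈ A
  cont : ∀ a ∈ A, ContinuousOn a (Icc t0 t1 ×ˢ Icc y0 y1)
  int : ∀ a ∈ A, IntegrableOn (D a) (Icc t0 t1 ×ˢ Icc y0 y1)
  der : ∀ a ∈ A, ∀ᵐ p ∂((volume : Measure (ℝ × ℝ)).restrict (Icc t0 t1 ×ˢ Icc y0 y1)),
    HasDerivAt (fun s => a (s, p.2)) (D a p) p.1
  el : ∀ a ∈ A, ∀ t ∈ Icc t0 t1, ∀ t' ∈ Icc t0 t1, t ≤ t' →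
    (∫ y in y0..y1, a (t', y)) - (∫ y in y0..y1, a (t, y)) =
      ∫ s in t..t', ∫ y in y0..y1, D a (s, y)

/-- `Lebesgue` on a compact interval -/
noncomputable abbrev leb (a b : ℝ) : Measure ℝ := (volume : Measure ℝ).restrict (Icc a b)

theorem leb_prod (a b c d : ℝ) : (leb a b).prod (leb c d) =
    (volume : Measure (ℝ × ℝ)).restrict (Icc a b ×ˢ Icc c d) := by
  rw [leb, leb, Measure.prod_restrict]; rfl

theorem intervalIntegral_eq {a b : ℝ} (hab : a ≤ b) (f : ℝ → ℝ) :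
    ∫ x in a..b, f x = ∫ x, f x ∂(leb a b) := by
  rw [intervalIntegral.integral_of_le hab, leb, integral_Icc_eq_integral_Ioc]

/-- good weights -/
def Good (A : Set (ℝ × ℝ → ℝ)) (D : (ℝ × ℝ → ℝ) → (ℝ × ℝ → ℝ)) (t0 t1 y0 y1 : ℝ)
    (w : ℝ → ℝ) : Prop :=
  ∀ a ∈ A, ∀ t ∈ Icc t0 t1, ∀ t' ∈ Icc t0 t1, t ≤ t' →
    (∫ y, w y * a (t', y) ∂(leb y0 y1)) - (∫ y, w y * a (t, y) ∂(leb y0 y1)) =
      ∫ s in t..t', ∫ y, w y * D a (s, y) ∂(leb y0 y1)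

variable {A : Set (ℝ × ℝ → ℝ)} {D : (ℝ × ℝ → ℝ) → (ℝ × ℝ → ℝ)} {t0 t1 y0 y1 : ℝ}

theorem Slab.good_one (h : Slab A D t0 t1 y0 y1) (hy : y0 ≤ y1) :
    Good A D t0 t1 y0 y1 (fun _ => 1) := by
  intro a ha t ht t' ht' htt
  have := h.el a ha t ht t' ht' htt
  simp only [one_mul]
  rw [← intervalIntegral_eq hy, ← intervalIntegral_eq hy, this]
  congr 1
  ext s
  rw [intervalIntegral_eq hy]

/-- the box -/
abbrev box3 (t0 t1 y0 y1 : ℝ) : Set (ℝ × (ℝ × ℝ)) := Icc t0 t1 ×ˢ (Icc y0 y1 ×ˢ Icc y0 y1)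

/-- three variable identity -/
def Idn (t0 t1 y0 y1 : ℝ) (W : ℝ × ℝ → ℝ) (H K : ℝ × (ℝ × ℝ) → ℝ) : Prop :=
  ∀ t ∈ Icc t0 t1, ∀ t' ∈ Icc t0 t1, t ≤ t' →
    (∫ q, W q * H (t', q) ∂((leb y0 y1).prod (leb y0 y1))) -
      (∫ q, W q * H (t, q) ∂((leb y0 y1).prod (leb y0 y1))) =
      ∫ p in (Ioc t t' ×ˢ (univ : Set (ℝ × ℝ))), W p.2 * K p ∂(bet (leb t0 t1) (leb y0 y1))

theorem ae_mem_sq (y0 y1 : ℝ) : ∀ᵐ q ∂((leb y0 y1).prod (leb y0 y1)),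
    q ∈ Icc y0 y1 ×ˢ Icc y0 y1 := by
  rw [leb_prod]
  exact ae_restrict_mem (measurableSet_Icc.prod measurableSet_Icc)

theorem bet_eq (t0 t1 y0 y1 : ℝ) : bet (leb t0 t1) (leb y0 y1) =
    (volume : Measure (ℝ × (ℝ × ℝ))).restrict (box3 t0 t1 y0 y1) := by
  rw [bet, leb_prod, leb, Measure.prod_restrict]; rfl

theorem measurableSet_box3 (t0 t1 y0 y1 : ℝ) : MeasurableSet (box3 t0 t1 y0 y1) :=
  measurableSet_Icc.prod (measurableSet_Icc.prod measurableSet_Icc)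

theorem isCompact_box3 (t0 t1 y0 y1 : ℝ) : IsCompact (box3 t0 t1 y0 y1) :=
  isCompact_Icc.prod (isCompact_Icc.prod isCompact_Icc)

theorem ae_mem_box (t0 t1 y0 y1 : ℝ) : ∀ᵐ p ∂(bet (leb t0 t1) (leb y0 y1)),
    p ∈ box3 t0 t1 y0 y1 := by
  rw [bet_eq]
  exact ae_restrict_mem (measurableSet_box3 _ _ _ _)

theorem slice_aesm {H : ℝ × (ℝ × ℝ) → ℝ} (hH : ContinuousOn H (box3 t0 t1 y0 y1)) {t : ℝ}
    (ht : t ∈ Icc t0 t1) :
    AEStronglyMeasurable (fun q => H (t, q)) ((leb y0 y1).prod (leb y0 y1)) := by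
  rw [leb_prod]
  have : ContinuousOn (fun q => H (t, q)) (Icc y0 y1 ×ˢ Icc y0 y1) :=
    hH.comp (by fun_prop) (fun q hq => ⟨ht, hq⟩)
  exact this.aestronglyMeasurable (measurableSet_Icc.prod measurableSet_Icc)

theorem box_aesm {H : ℝ × (ℝ × ℝ) → ℝ} (hH : ContinuousOn H (box3 t0 t1 y0 y1)) :
    AEStronglyMeasurable H (bet (leb t0 t1) (leb y0 y1)) := by
  rw [bet_eq]
  exact hH.aestronglyMeasurable (measurableSet_box3 _ _ _ _)

/-- limits in the identity -/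
theorem Idn.lim {W : ℝ × ℝ → ℝ} (hW : Continuous W) {H K : ℕ → ℝ × (ℝ × ℝ) → ℝ}
    {H0 K0 : ℝ × (ℝ × ℝ) → ℝ} {B : ℝ} {G : ℝ × (ℝ × ℝ) → ℝ}
    (hG : Integrable G (bet (leb t0 t1) (leb y0 y1)))
    (hH : ∀ n, ContinuousOn (H n) (box3 t0 t1 y0 y1))
    (hHb : ∀ n, ∀ p ∈ box3 t0 t1 y0 y1, |H n p| ≤ B)
    (hHl : ∀ p ∈ box3 t0 t1 y0 y1, Tendsto (fun n => H n p) atTop (𝓝 (H0 p)))
    (hK : ∀ n, AEStronglyMeasurable (K n) (bet (leb t0 t1) (leb y0 y1)))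
    (hKb : ∀ n, ∀ᵐ p ∂(bet (leb t0 t1) (leb y0 y1)), |K n p| ≤ G p)
    (hKl : ∀ᵐ p ∂(bet (leb t0 t1) (leb y0 y1)), Tendsto (fun n => K n p) atTop (𝓝 (K0 p)))
    (h : ∀ n, Idn t0 t1 y0 y1 W (H n) (K n)) : Idn t0 t1 y0 y1 W H0 K0 := by
  obtain ⟨C, hC⟩ : ∃ C, ∀ q ∈ Icc y0 y1 ×ˢ Icc y0 y1, ‖W q‖ ≤ C :=
    (isCompact_Icc.prod isCompact_Icc).exists_bound_of_continuousOn hW.continuousOn
  intro t ht t' ht' htt
  have hL : ∀ s ∈ Icc t0 t1, Tendsto (fun n => ∫ q, W q * H n (s, q)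
      ∂((leb y0 y1).prod (leb y0 y1))) atTop
      (𝓝 (∫ q, W q * H0 (s, q) ∂((leb y0 y1).prod (leb y0 y1)))) := by
    intro s hs
    apply tendsto_integral_of_dominated_convergence (fun _ => C * B)
    · intro n
      exact hW.aestronglyMeasurable.mul (slice_aesm (hH n) hs)
    · exact integrable_const _
    · intro n
      filter_upwards [ae_mem_sq y0 y1] with q hq
      rw [norm_mul]
      exact mul_le_mul (hC q hq) (hHb n _ ⟨hs, hq⟩) (norm_nonneg _)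
        ((norm_nonneg _).trans (hC q hq))
    · filter_upwards [ae_mem_sq y0 y1] with q hq
      exact (hHl _ ⟨hs, hq⟩).const_mul _
  have hR : Tendsto (fun n => ∫ p in (Ioc t t' ×ˢ (univ : Set (ℝ × ℝ))), W p.2 * K n p
      ∂(bet (leb t0 t1) (leb y0 y1))) atTop
      (𝓝 (∫ p in (Ioc t t' ×ˢ (univ : Set (ℝ × ℝ))), W p.2 * K0 p
      ∂(bet (leb t0 t1) (leb y0 y1)))) := by
    apply tendsto_integral_of_dominated_convergence (fun p => C * G p)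
    · intro n
      exact ((hW.comp continuous_snd).aestronglyMeasurable.mul (hK n)).restrict
    · exact (hG.const_mul C).restrict
    · intro n
      apply ae_restrict_of_ae
      filter_upwards [ae_mem_box t0 t1 y0 y1, hKb n] with p hp hpn
      rw [norm_mul]
      exact mul_le_mul (hC p.2 hp.2) hpn (norm_nonneg _) ((norm_nonneg _).trans (hC p.2 hp.2))
    · apply ae_restrict_of_ae
      filter_upwards [hKl] with p hp
      exact hp.const_mul _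
  refine tendsto_nhds_unique ?_ hR
  have := (hL t' ht').sub (hL t ht)
  refine this.congr (fun n => ?_)
  exact h n t ht t' ht' htt

theorem Idn.congr {W : ℝ × ℝ → ℝ} {H K H' K' : ℝ × (ℝ × ℝ) → ℝ}
    (h : Idn t0 t1 y0 y1 W H K) (hH : ∀ p ∈ box3 t0 t1 y0 y1, H p = H' p)
    (hK : ∀ᵐ p ∂(bet (leb t0 t1) (leb y0 y1)), K p = K' p) : Idn t0 t1 y0 y1 W H' K' := by
  intro t ht t' ht' htt
  have h1 : ∀ s ∈ Icc t0 t1, ∫ q, W q * H' (s, q) ∂((leb y0 y1).prod (leb y0 y1)) =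
      ∫ q, W q * H (s, q) ∂((leb y0 y1).prod (leb y0 y1)) := by
    intro s hs
    apply integral_congr_ae
    filter_upwards [ae_mem_sq y0 y1] with q hq
    rw [hH _ ⟨hs, hq⟩]
  rw [h1 t' ht', h1 t ht, h t ht t' ht' htt]
  apply integral_congr_ae
  apply ae_restrict_of_ae
  filter_upwards [hK] with p hp
  rw [hp]

end Crest.Agent.R105.Prod_412
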