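import Crest.Agent.R105.Prod2_412

/-! Row 105, PROD (helper412), part 3: doubling of a product. -/

open MeasureTheory Set Filter Topology

namespace Crest.Agent.R105.Prod_412

variable {A : Set (ℝ × ℝ → ℝ)} {D : (ℝ × ℝ → ℝ) → (ℝ × ℝ → ℝ)} {t0 t1 y0 y1 : ℝ}

theorem Slab.int' (h : Slab A D t0 t1 y0 y1) {a : ℝ × ℝ → ℝ} (ha : a ∈ A) :
    Integrable (D a) ((leb t0 t1).prod (leb y0 y1)) := by
  rw [leb_prod]; exact h.int a ha

theorem cont1 {a : ℝ × ℝ → ℝ} (ha : ContinuousOn a (Icc t0 t1 ×ˢ Icc y0 y1)) :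
    ContinuousOn (fun p : ℝ × (ℝ × ℝ) => a (p.1, p.2.1)) (box3 t0 t1 y0 y1) :=
  ha.comp (by fun_prop) (fun p hp => ⟨hp.1, hp.2.1⟩)

theorem cont2 {a : ℝ × ℝ → ℝ} (ha : ContinuousOn a (Icc t0 t1 ×ˢ Icc y0 y1)) :
    ContinuousOn (fun p : ℝ × (ℝ × ℝ) => a (p.1, p.2.2)) (box3 t0 t1 y0 y1) :=
  ha.comp (by fun_prop) (fun p hp => ⟨hp.1, hp.2.2⟩)

theorem int_mul_cont {f g : ℝ × (ℝ × ℝ) → ℝ} (hf : Integrable f (bet (leb t0 t1) (leb y0 y1)))
    (hg : ContinuousOn g (box3 t0 t1 y0 y1)) :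
    Integrable (fun p => f p * g p) (bet (leb t0 t1) (leb y0 y1)) := by
  rw [bet_eq] at hf ⊢
  exact IntegrableOn.mul_continuousOn hf hg (isCompact_box3 _ _ _ _)

theorem int_cont {g : ℝ × (ℝ × ℝ) → ℝ} (hg : ContinuousOn g (box3 t0 t1 y0 y1)) :
    Integrable g (bet (leb t0 t1) (leb y0 y1)) := by
  rw [bet_eq]
  exact hg.integrableOn_compact (isCompact_box3 _ _ _ _)

theorem slice_int {f : ℝ × ℝ → ℝ} (hf : Integrable f ((leb t0 t1).prod (leb y0 y1))) {w : ℝ → ℝ}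
    (hw : Continuous w) :
    Integrable (fun p : ℝ × ℝ => w p.2 * f p) ((leb t0 t1).prod (leb y0 y1)) := by
  rw [leb_prod] at hf ⊢
  have hc : ContinuousOn (fun p : ℝ × ℝ => w p.2) (Icc t0 t1 ×ˢ Icc y0 y1) := by fun_prop
  exact IntegrableOn.continuousOn_mul hc hf (isCompact_Icc.prod isCompact_Icc)

theorem leb_restrict {t t' : ℝ} (ht : t ∈ Icc t0 t1) (ht' : t' ∈ Icc t0 t1) :
    (leb t0 t1).restrict (Ioc t t') = (volume : Measure ℝ).restrict (Ioc t t') := by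
  rw [leb, Measure.restrict_restrict measurableSet_Ioc]
  congr 1
  apply inter_eq_left.mpr
  exact fun x hx => ⟨ht.1.trans hx.1.le, hx.2.trans ht'.2⟩

theorem ival {f : ℝ → ℝ} (hf : Integrable f (leb t0 t1)) {t t' : ℝ} (ht : t ∈ Icc t0 t1)
    (ht' : t' ∈ Icc t0 t1) (htt : t ≤ t') : IntervalIntegrable f volume t t' := by
  rw [intervalIntegrable_iff_integrableOn_Ioc_of_le htt, IntegrableOn, ← leb_restrict ht ht']
  exact hf.restrict

/-- Fubini for the right hand sides -/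
theorem rhs_fubini {W : ℝ × ℝ → ℝ} (hW : Continuous W) {K : ℝ × (ℝ × ℝ) → ℝ}
    (hK : Integrable K (bet (leb t0 t1) (leb y0 y1))) {t t' : ℝ} (ht : t ∈ Icc t0 t1)
    (ht' : t' ∈ Icc t0 t1) (htt : t ≤ t') :
    ∫ p in (Ioc t t' ×ˢ (univ : Set (ℝ × ℝ))), W p.2 * K p ∂(bet (leb t0 t1) (leb y0 y1)) =
      ∫ s in t..t', ∫ q, W q * K (s, q) ∂((leb y0 y1).prod (leb y0 y1)) := by
  have h1 : Integrable (fun p : ℝ × (ℝ × ℝ) => W p.2 * K p) (bet (leb t0 t1) (leb y0 y1)) := by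
    have := int_mul_cont hK (g := fun p => W p.2) (by fun_prop)
    exact this.congr (ae_of_all _ fun p => mul_comm _ _)
  rw [bet, setIntegral_prod _ h1.integrableOn, leb_restrict ht ht',
    intervalIntegral.integral_of_le htt]
  simp only [Measure.restrict_univ]

/-- the doubling of a product of functions of `A` -/
theorem idn_prod (h : Slab A D t0 t1 y0 y1) {w1 w2 : ℝ → ℝ} (hw1 : Continuous w1)
    (hw2 : Continuous w2) (g1 : Good A D t0 t1 y0 y1 w1) (g2 : Good A D t0 t1 y0 y1 w2)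
    {a b : ℝ × ℝ → ℝ} (ha : a ∈ A) (hb : b ∈ A) :
    Integrable (fun p : ℝ × (ℝ × ℝ) => D a (p.1, p.2.1) * b (p.1, p.2.2) +
      a (p.1, p.2.1) * D b (p.1, p.2.2)) (bet (leb t0 t1) (leb y0 y1)) ∧
    Idn t0 t1 y0 y1 (fun q => w1 q.1 * w2 q.2) (fun p => a (p.1, p.2.1) * b (p.1, p.2.2))
      (fun p => D a (p.1, p.2.1) * b (p.1, p.2.2) + a (p.1, p.2.1) * D b (p.1, p.2.2)) := by
  have hDa := h.int' ha
  have hDb := h.int' hb
  have hK1 : Integrable (fun p : ℝ × (ℝ × ℝ) => D a (p.1, p.2.1) * b (p.1, p.2.2))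
      (bet (leb t0 t1) (leb y0 y1)) := int_mul_cont (integrable1 hDa) (cont2 (h.cont b hb))
  have hK2 : Integrable (fun p : ℝ × (ℝ × ℝ) => a (p.1, p.2.1) * D b (p.1, p.2.2))
      (bet (leb t0 t1) (leb y0 y1)) :=
    (int_mul_cont (integrable2 hDb) (cont1 (h.cont a ha))).congr
      (ae_of_all _ fun p => mul_comm _ _)
  have hK : Integrable (fun p : ℝ × (ℝ × ℝ) => D a (p.1, p.2.1) * b (p.1, p.2.2) +
      a (p.1, p.2.1) * D b (p.1, p.2.2)) (bet (leb t0 t1) (leb y0 y1)) := hK1.add hK2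
  refine ⟨hK, ?_⟩
  intro t ht t' ht' htt
  rw [rhs_fubini (W := fun q => w1 q.1 * w2 q.2) (by fun_prop) hK ht ht' htt]
  set f : ℝ → ℝ := fun s => ∫ y, w1 y * a (s, y) ∂(leb y0 y1) with hf
  set g : ℝ → ℝ := fun s => ∫ y, w2 y * b (s, y) ∂(leb y0 y1) with hg
  set f1 : ℝ → ℝ := fun s => ∫ y, w1 y * D a (s, y) ∂(leb y0 y1) with hf1
  set g1' : ℝ → ℝ := fun s => ∫ y, w2 y * D b (s, y) ∂(leb y0 y1) with hg1'
  have if1 : Integrable f1 (leb t0 t1) := (slice_int hDa hw1).integral_prod_left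
  have ig1 : Integrable g1' (leb t0 t1) := (slice_int hDb hw2).integral_prod_left
  have key := prod_rule (f := f) (g := g) (f1 := f1) (g1 := g1') htt (ival if1 ht ht' htt)
    (ival ig1 ht ht' htt)
    (fun s hs => by
      have := g1 a ha t ht s ⟨ht.1.trans hs.1, hs.2.trans ht'.2⟩ hs.1
      linarith)
    (fun s hs => by
      have := g2 b hb t ht s ⟨ht.1.trans hs.1, hs.2.trans ht'.2⟩ hs.1
      linarith)
  have hl : ∀ s, ∫ q : ℝ × ℝ, (w1 q.1 * w2 q.2) * (a (s, q.1) * b (s, q.2))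
      ∂((leb y0 y1).prod (leb y0 y1)) = f s * g s := by
    intro s
    rw [hf, hg, ← integral_prod_mul]
    congr 1
    ext q
    ring
  rw [hl, hl, key]
  apply intervalIntegral.integral_congr_ae
  have e1 := (slice_int hDa hw1).prod_right_ae
  have e2 := (slice_int hDb hw2).prod_right_ae
  rw [leb, ae_restrict_iff' measurableSet_Icc] at e1 e2
  filter_upwards [e1, e2] with s hs1 hs2 hs3
  rw [uIoc_of_le htt] at hs3
  have hs : s ∈ Icc t0 t1 := ⟨ht.1.trans hs3.1.le, hs3.2.trans ht'.2⟩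
  have i1 := hs1 hs
  have i2 := hs2 hs
  have ca : Integrable (fun y => w1 y * a (s, y)) (leb y0 y1) := by
    apply ContinuousOn.integrableOn_compact isCompact_Icc
    exact hw1.continuousOn.mul ((h.cont a ha).comp (by fun_prop) (fun y hy => ⟨hs, hy⟩))
  have cb : Integrable (fun y => w2 y * b (s, y)) (leb y0 y1) := by
    apply ContinuousOn.integrableOn_compact isCompact_Icc
    exact hw2.continuousOn.mul ((h.cont b hb).comp (by fun_prop) (fun y hy => ⟨hs, hy⟩))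
  have j1 : Integrable (fun q : ℝ × ℝ => (w1 q.1 * D a (s, q.1)) * (w2 q.2 * b (s, q.2)))
    ((leb y0 y1).prod (leb y0 y1)) := i1.mul_prod cb
  have j2 : Integrable (fun q : ℝ × ℝ => (w1 q.1 * a (s, q.1)) * (w2 q.2 * D b (s, q.2)))
    ((leb y0 y1).prod (leb y0 y1)) := ca.mul_prod i2
  have : f1 s * g s + f s * g1' s =
      (∫ q : ℝ × ℝ, (w1 q.1 * D a (s, q.1)) * (w2 q.2 * b (s, q.2))
        ∂((leb y0 y1).prod (leb y0 y1))) +
      ∫ q : ℝ × ℝ, (w1 q.1 * a (s, q.1)) * (w2 q.2 * D b (s, q.2))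
        ∂((leb y0 y1).prod (leb y0 y1)) := by
    rw [integral_prod_mul (f := fun y => w1 y * D a (s, y)) (g := fun y => w2 y * b (s, y)),
      integral_prod_mul (f := fun y => w1 y * a (s, y)) (g := fun y => w2 y * D b (s, y))]
  rw [this, ← integral_add j1 j2]
  congr 1
  ext q
  ring

end Crest.Agent.R105.Prod_412
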