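import Crest.Agent.R105.Prod3_412

/-! Row 105, PROD (helper412), part 4: the span of the products, polynomials of a difference. -/

open MeasureTheory Set Filter Topology

namespace Crest.Agent.R105.Prod_412

variable {A : Set (ℝ × ℝ → ℝ)} {D : (ℝ × ℝ → ℝ) → (ℝ × ℝ → ℝ)} {t0 t1 y0 y1 : ℝ}

theorem slice_integrable {H : ℝ × (ℝ × ℝ) → ℝ} (hH : ContinuousOn H (box3 t0 t1 y0 y1))
    {W : ℝ × ℝ → ℝ} (hW : Continuous W) {t : ℝ} (ht : t ∈ Icc t0 t1) :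
    Integrable (fun q => W q * H (t, q)) ((leb y0 y1).prod (leb y0 y1)) := by
  rw [leb_prod]
  apply ContinuousOn.integrableOn_compact (isCompact_Icc.prod isCompact_Icc)
  exact hW.continuousOn.mul (hH.comp (by fun_prop) (fun q hq => ⟨ht, hq⟩))

theorem W_int {W : ℝ × ℝ → ℝ} (hW : Continuous W) {K : ℝ × (ℝ × ℝ) → ℝ}
    (hK : Integrable K (bet (leb t0 t1) (leb y0 y1))) :
    Integrable (fun p : ℝ × (ℝ × ℝ) => W p.2 * K p) (bet (leb t0 t1) (leb y0 y1)) := by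
  have := int_mul_cont hK (g := fun p => W p.2) (by fun_prop)
  exact this.congr (ae_of_all _ fun p => mul_comm _ _)

/-- a function of three variables for which everything is known -/
structure HH (t0 t1 y0 y1 : ℝ) (W : ℝ × ℝ → ℝ) (H K : ℝ × (ℝ × ℝ) → ℝ) : Prop where
  cont : ContinuousOn H (box3 t0 t1 y0 y1)
  int : Integrable K (bet (leb t0 t1) (leb y0 y1))
  der : ∀ᵐ p ∂(bet (leb t0 t1) (leb y0 y1)), HasDerivAt (fun s => H (s, p.2)) (K p) p.1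
  idn : Idn t0 t1 y0 y1 W H K

theorem HH.add {W : ℝ × ℝ → ℝ} (hW : Continuous W) {H K H' K' : ℝ × (ℝ × ℝ) → ℝ}
    (h : HH t0 t1 y0 y1 W H K) (h' : HH t0 t1 y0 y1 W H' K') :
    HH t0 t1 y0 y1 W (H + H') (K + K') := by
  refine ⟨h.cont.add h'.cont, h.int.add h'.int, ?_, ?_⟩
  · filter_upwards [h.der, h'.der] with p h1 h2
    exact h1.add h2
  · intro t ht t' ht' htt
    have e1 : ∀ s ∈ Icc t0 t1, ∫ q, W q * (H + H') (s, q) ∂((leb y0 y1).prod (leb y0 y1)) =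
        (∫ q, W q * H (s, q) ∂((leb y0 y1).prod (leb y0 y1))) +
        ∫ q, W q * H' (s, q) ∂((leb y0 y1).prod (leb y0 y1)) := by
      intro s hs
      rw [← integral_add (slice_integrable h.cont hW hs) (slice_integrable h'.cont hW hs)]
      congr 1
      ext q
      simp only [Pi.add_apply]
      ring
    have e2 : ∫ p in (Ioc t t' ×ˢ (univ : Set (ℝ × ℝ))), W p.2 * (K + K') p
        ∂(bet (leb t0 t1) (leb y0 y1)) =
        (∫ p in (Ioc t t' ×ˢ (univ : Set (ℝ × ℝ))), W p.2 * K p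
          ∂(bet (leb t0 t1) (leb y0 y1))) +
        ∫ p in (Ioc t t' ×ˢ (univ : Set (ℝ × ℝ))), W p.2 * K' p
          ∂(bet (leb t0 t1) (leb y0 y1)) := by
      rw [← integral_add (W_int hW h.int).restrict (W_int hW h'.int).restrict]
      congr 1
      ext q
      simp only [Pi.add_apply]
      ring
    rw [e1 t' ht', e1 t ht, e2, ← h.idn t ht t' ht' htt, ← h'.idn t ht t' ht' htt]
    ring

theorem HH.smul {W : ℝ × ℝ → ℝ} (c : ℝ) {H K : ℝ × (ℝ × ℝ) → ℝ}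
    (h : HH t0 t1 y0 y1 W H K) : HH t0 t1 y0 y1 W (c • H) (c • K) := by
  refine ⟨h.cont.const_smul c, h.int.smul c, ?_, ?_⟩
  · filter_upwards [h.der] with p h1
    exact h1.const_smul c
  · intro t ht t' ht' htt
    have e1 : ∀ s, ∫ q, W q * (c • H) (s, q) ∂((leb y0 y1).prod (leb y0 y1)) =
        c * ∫ q, W q * H (s, q) ∂((leb y0 y1).prod (leb y0 y1)) := by
      intro s
      rw [← integral_const_mul]
      congr 1
      ext q
      simp only [Pi.smul_apply, smul_eq_mul]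
      ring
    have e2 : ∫ p in (Ioc t t' ×ˢ (univ : Set (ℝ × ℝ))), W p.2 * (c • K) p
        ∂(bet (leb t0 t1) (leb y0 y1)) =
        c * ∫ p in (Ioc t t' ×ˢ (univ : Set (ℝ × ℝ))), W p.2 * K p
          ∂(bet (leb t0 t1) (leb y0 y1)) := by
      rw [← integral_const_mul]
      congr 1
      ext q
      simp only [Pi.smul_apply, smul_eq_mul]
      ring
    rw [e1, e1, e2, ← h.idn t ht t' ht' htt]
    ring

theorem HH.zero {W : ℝ × ℝ → ℝ} : HH t0 t1 y0 y1 W 0 0 := by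
  refine ⟨continuousOn_const, integrable_zero _ _ _, ?_, ?_⟩
  · exact ae_of_all _ fun p => hasDerivAt_const _ _
  · intro t ht t' ht' htt
    simp

/-- a.e. derivative in the first copy -/
theorem Slab.der1 (h : Slab A D t0 t1 y0 y1) {a : ℝ × ℝ → ℝ} (ha : a ∈ A) :
    ∀ᵐ p ∂(bet (leb t0 t1) (leb y0 y1)),
      HasDerivAt (fun s => a (s, p.2.1)) (D a (p.1, p.2.1)) p.1 := by
  have := h.der a ha
  rw [← leb_prod] at this
  exact (qmp1 (leb t0 t1) (leb y0 y1)).ae this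

theorem Slab.der2 (h : Slab A D t0 t1 y0 y1) {a : ℝ × ℝ → ℝ} (ha : a ∈ A) :
    ∀ᵐ p ∂(bet (leb t0 t1) (leb y0 y1)),
      HasDerivAt (fun s => a (s, p.2.2)) (D a (p.1, p.2.2)) p.1 := by
  have := h.der a ha
  rw [← leb_prod] at this
  exact (qmp2 (leb t0 t1) (leb y0 y1)).ae this

theorem HH_prod (h : Slab A D t0 t1 y0 y1) {w1 w2 : ℝ → ℝ} (hw1 : Continuous w1)
    (hw2 : Continuous w2) (g1 : Good A D t0 t1 y0 y1 w1) (g2 : Good A D t0 t1 y0 y1 w2)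
    {a b : ℝ × ℝ → ℝ} (ha : a ∈ A) (hb : b ∈ A) :
    HH t0 t1 y0 y1 (fun q => w1 q.1 * w2 q.2) (fun p => a (p.1, p.2.1) * b (p.1, p.2.2))
      (fun p => D a (p.1, p.2.1) * b (p.1, p.2.2) + a (p.1, p.2.1) * D b (p.1, p.2.2)) := by
  obtain ⟨i1, i2⟩ := idn_prod h hw1 hw2 g1 g2 ha hb
  refine ⟨(cont1 (h.cont a ha)).mul (cont2 (h.cont b hb)), i1, ?_, i2⟩
  filter_upwards [h.der1 ha, h.der2 hb] with p h1 h2
  exact h1.mul h2

/-- finite sums of products -/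
def TT (A : Set (ℝ × ℝ → ℝ)) : Submodule ℝ (ℝ × (ℝ × ℝ) → ℝ) :=
  Submodule.span ℝ {H | ∃ a ∈ A, ∃ b ∈ A, H = fun p => a (p.1, p.2.1) * b (p.1, p.2.2)}

theorem TT_mem {a b : ℝ × ℝ → ℝ} (ha : a ∈ A) (hb : b ∈ A) :
    (fun p : ℝ × (ℝ × ℝ) => a (p.1, p.2.1) * b (p.1, p.2.2)) ∈ TT A :=
  Submodule.subset_span ⟨a, ha, b, hb, rfl⟩

theorem TT_mul (h : Slab A D t0 t1 y0 y1) {H H' : ℝ × (ℝ × ℝ) → ℝ} (hH : H ∈ TT A)
    (hH' : H' ∈ TT A) : (H * H') ∈ TT A := by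
  refine Submodule.span_induction ?_ ?_ ?_ ?_ hH
  · rintro x ⟨a, ha, b, hb, rfl⟩
    refine Submodule.span_induction ?_ ?_ ?_ ?_ hH'
    · rintro y ⟨c, hc, d, hd, rfl⟩
      convert TT_mem (h.mul a ha c hc) (h.mul b hb d hd) using 1
      ext p
      simp only [Pi.mul_apply]
      ring
    · simp
    · intro x y _ _ hx hy
      rw [mul_add]
      exact add_mem hx hy
    · intro c x _ hx
      rw [mul_smul_comm]
      exact Submodule.smul_mem _ _ hx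
  · simp
  · intro x y _ _ hx hy
    rw [add_mul]
    exact add_mem hx hy
  · intro c x _ hx
    rw [smul_mul_assoc]
    exact Submodule.smul_mem _ _ hx

theorem TT_const (h : Slab A D t0 t1 y0 y1) (c : ℝ) : (fun _ => c) ∈ TT A := by
  have := TT_mem (h.const c) (h.const 1)
  simpa using this

theorem TT_fst (h : Slab A D t0 t1 y0 y1) {a : ℝ × ℝ → ℝ} (ha : a ∈ A) :
    (fun p : ℝ × (ℝ × ℝ) => a (p.1, p.2.1)) ∈ TT A := by
  have := TT_mem ha (h.const 1)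
  simpa using this

theorem TT_snd (h : Slab A D t0 t1 y0 y1) {a : ℝ × ℝ → ℝ} (ha : a ∈ A) :
    (fun p : ℝ × (ℝ × ℝ) => a (p.1, p.2.2)) ∈ TT A := by
  have := TT_mem (h.const 1) ha
  simpa using this

theorem TT_diff (h : Slab A D t0 t1 y0 y1) {a : ℝ × ℝ → ℝ} (ha : a ∈ A) :
    (fun p : ℝ × (ℝ × ℝ) => a (p.1, p.2.1) - a (p.1, p.2.2)) ∈ TT A :=
  sub_mem (TT_fst h ha) (TT_snd h ha)

theorem TT_pow (h : Slab A D t0 t1 y0 y1) {H : ℝ × (ℝ × ℝ) → ℝ} (hH : H ∈ TT A) (n : ℕ) :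
    H ^ n ∈ TT A := by
  induction n with
  | zero => rw [pow_zero]; exact TT_const h 1
  | succ n ih => rw [pow_succ]; exact TT_mul h ih hH

theorem TT_poly (h : Slab A D t0 t1 y0 y1) {H : ℝ × (ℝ × ℝ) → ℝ} (hH : H ∈ TT A)
    (P : Polynomial ℝ) : (fun p => P.eval (H p)) ∈ TT A := by
  have : (fun p => P.eval (H p)) = ∑ i ∈ Finset.range (P.natDegree + 1), P.coeff i • H ^ i := by
    ext p
    rw [Polynomial.eval_eq_sum_range]
    simp [Finset.sum_apply]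
  rw [this]
  exact Submodule.sum_mem _ fun i _ => Submodule.smul_mem _ _ (TT_pow h hH i)

theorem TT_HH (h : Slab A D t0 t1 y0 y1) {w1 w2 : ℝ → ℝ} (hw1 : Continuous w1)
    (hw2 : Continuous w2) (g1 : Good A D t0 t1 y0 y1 w1) (g2 : Good A D t0 t1 y0 y1 w2)
    {H : ℝ × (ℝ × ℝ) → ℝ} (hH : H ∈ TT A) :
    ∃ K, HH t0 t1 y0 y1 (fun q => w1 q.1 * w2 q.2) H K := by
  refine Submodule.span_induction ?_ ?_ ?_ ?_ hH
  · rintro x ⟨a, ha, b, hb, rfl⟩
    exact ⟨_, HH_prod h hw1 hw2 g1 g2 ha hb⟩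
  · exact ⟨0, HH.zero⟩
  · rintro x y _ _ ⟨K, hK⟩ ⟨K', hK'⟩
    exact ⟨_, hK.add (by fun_prop) hK'⟩
  · rintro c x _ ⟨K, hK⟩
    exact ⟨_, hK.smul c⟩

/-- uniqueness of `K` -/
theorem HH.unique {W : ℝ × ℝ → ℝ} {H K K' : ℝ × (ℝ × ℝ) → ℝ} (h : HH t0 t1 y0 y1 W H K)
    (h' : ∀ᵐ p ∂(bet (leb t0 t1) (leb y0 y1)), HasDerivAt (fun s => H (s, p.2)) (K' p) p.1) :
    ∀ᵐ p ∂(bet (leb t0 t1) (leb y0 y1)), K p = K' p := by
  filter_upwards [h.der, h'] with p h1 h2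
  exact h1.unique h2

theorem exists_antideriv (p : Polynomial ℝ) :
    ∃ P : Polynomial ℝ, P.derivative = p ∧ P.eval 0 = 0 := by
  induction p using Polynomial.induction_on' with
  | add p q hp hq =>
    obtain ⟨P, h1, h2⟩ := hp
    obtain ⟨Q, h3, h4⟩ := hq
    exact ⟨P + Q, by simp [h1, h3], by simp [h2, h4]⟩
  | monomial n c =>
    refine ⟨Polynomial.monomial (n + 1) (c / (n + 1)), ?_, ?_⟩
    · rw [Polynomial.derivative_monomial_succ]
      congr 1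
      field_simp
    · simp

end Crest.Agent.R105.Prod_412
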