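import Crest.Agent.R105.Prod4_412

/-! Row 105, PROD (helper412), part 5: one variable Weierstrass. -/

open MeasureTheory Set Filter Topology

namespace Crest.Agent.R105.Prod_412

variable {A : Set (ℝ × ℝ → ℝ)} {D : (ℝ × ℝ → ℝ) → (ℝ × ℝ → ℝ)} {t0 t1 y0 y1 : ℝ}

/-- `κ g(e)`, `g = ∫ ρ`, for `κ` in the span of the products -/
theorem idn_comp (h : Slab A D t0 t1 y0 y1) {w1 w2 : ℝ → ℝ} (hw1 : Continuous w1)
    (hw2 : Continuous w2) (g1 : Good A D t0 t1 y0 y1 w1) (g2 : Good A D t0 t1 y0 y1 w2)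
    {κ κ' e e' : ℝ × (ℝ × ℝ) → ℝ} (hκ : κ ∈ TT A) (he : e ∈ TT A)
    (hκ' : HH t0 t1 y0 y1 (fun q => w1 q.1 * w2 q.2) κ κ')
    (he' : HH t0 t1 y0 y1 (fun q => w1 q.1 * w2 q.2) e e')
    {ρ : ℝ → ℝ} (hρ : Continuous ρ) :
    HH t0 t1 y0 y1 (fun q => w1 q.1 * w2 q.2) (fun p => κ p * ∫ r in (0 : ℝ)..(e p), ρ r)
      (fun p => κ' p * (∫ r in (0 : ℝ)..(e p), ρ r) + κ p * (ρ (e p) * e' p)) := by
  obtain ⟨M, hM⟩ : ∃ M, ∀ p ∈ box3 t0 t1 y0 y1, ‖e p‖ ≤ M :=
    (isCompact_box3 t0 t1 y0 y1).exists_bound_of_continuousOn he'.cont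
  obtain ⟨Cκ, hCκ⟩ : ∃ M, ∀ p ∈ box3 t0 t1 y0 y1, ‖κ p‖ ≤ M :=
    (isCompact_box3 t0 t1 y0 y1).exists_bound_of_continuousOn hκ'.cont
  obtain ⟨Cρ, hCρ⟩ : ∃ C, ∀ x ∈ Icc (-M) M, ‖ρ x‖ ≤ C :=
    isCompact_Icc.exists_bound_of_continuousOn hρ.continuousOn
  have hgd : ∀ x, HasDerivAt (fun x => ∫ r in (0 : ℝ)..x, ρ r) (ρ x) x := fun x =>
    intervalIntegral.integral_hasDerivAt_right (hρ.intervalIntegrable _ _)
      hρ.aestronglyMeasurable.stronglyMeasurableAtFilter hρ.continuousAt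
  have hgc : Continuous (fun x => ∫ r in (0 : ℝ)..x, ρ r) :=
    continuous_iff_continuousAt.mpr fun x => (hgd x).continuousAt
  have hcont : ContinuousOn (fun p => κ p * ∫ r in (0 : ℝ)..(e p), ρ r) (box3 t0 t1 y0 y1) :=
    hκ'.cont.mul (hgc.comp_continuousOn he'.cont)
  have hint : Integrable (fun p => κ' p * (∫ r in (0 : ℝ)..(e p), ρ r) + κ p * (ρ (e p) * e' p))
      (bet (leb t0 t1) (leb y0 y1)) := by
    refine (int_mul_cont hκ'.int (hgc.comp_continuousOn he'.cont)).add ?_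
    have h1 := int_mul_cont he'.int (hκ'.cont.mul (hρ.comp_continuousOn he'.cont))
    refine h1.congr (ae_of_all _ fun p => ?_)
    simp only [Pi.mul_apply, Function.comp_apply]
    ring
  have hder : ∀ᵐ p ∂(bet (leb t0 t1) (leb y0 y1)),
      HasDerivAt (fun s => κ (s, p.2) * ∫ r in (0 : ℝ)..(e (s, p.2)), ρ r)
      (κ' p * (∫ r in (0 : ℝ)..(e p), ρ r) + κ p * (ρ (e p) * e' p)) p.1 := by
    filter_upwards [hκ'.der, he'.der] with p h1 h2
    have h3 : HasDerivAt (fun s => ∫ r in (0 : ℝ)..(e (s, p.2)), ρ r) (ρ (e p) * e' p) p.1 :=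
      HasDerivAt.comp (h := fun s => e (s, p.2)) (h₂ := fun x => ∫ r in (0 : ℝ)..x, ρ r) p.1
        (hgd (e (p.1, p.2))) h2
    exact h1.mul h3
  refine ⟨hcont, hint, hder, ?_⟩
  -- polynomials
  have hpoly : ∀ n : ℕ, ∃ p : Polynomial ℝ, ∀ x ∈ Icc (-M) M, |p.eval x - ρ x| < 1 / ((n : ℝ) + 1) :=
    fun n => exists_polynomial_near_of_continuousOn (-M) M ρ hρ.continuousOn _ (by positivity)
  choose p hp using hpoly
  choose P hP hP0 using fun n => exists_antideriv (p n)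
  have hPg : ∀ n, ∀ x ∈ Icc (-M) M, |(P n).eval x - ∫ r in (0 : ℝ)..x, ρ r| ≤ M * (1 / ((n : ℝ) + 1)) := by
    intro n x hx
    have hM0 : 0 ≤ M := by
      have := hx.1.trans hx.2
      linarith
    have hPd : ∀ x, HasDerivAt (fun x => (P n).eval x) ((p n).eval x) x := by
      intro x
      have := (P n).hasDerivAt x
      rwa [hP n] at this
    have e1 : (P n).eval x = ∫ r in (0 : ℝ)..x, (p n).eval r := by
      rw [intervalIntegral.integral_eq_sub_of_hasDerivAt (f := fun x => (P n).eval x)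
        (fun y _ => hPd y) ((p n).continuous.intervalIntegrable _ _), hP0 n, sub_zero]
    rw [e1, ← intervalIntegral.integral_sub ((p n).continuous.intervalIntegrable _ _)
      (hρ.intervalIntegrable _ _)]
    have e2 := intervalIntegral.norm_integral_le_of_norm_le_const (a := (0 : ℝ)) (b := x)
      (f := fun r => (p n).eval r - ρ r) (C := 1 / ((n : ℝ) + 1)) (fun r hr => by
        refine (hp n r ?_).le
        rcases le_total 0 x with h0 | h0
        · rw [uIoc_of_le h0] at hr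
          exact ⟨by linarith [hr.1], hr.2.trans hx.2⟩
        · rw [uIoc_of_ge h0] at hr
          exact ⟨hx.1.trans hr.1.le, hr.2.trans hM0⟩)
    rw [Real.norm_eq_abs, sub_zero] at e2
    refine e2.trans ?_
    rw [mul_comm]
    exact mul_le_mul_of_nonneg_right (abs_le.mpr hx) (by positivity)
  have hbox : ∀ q ∈ box3 t0 t1 y0 y1, e q ∈ Icc (-M) M := fun q hq => abs_le.mp (hM q hq)
  obtain ⟨Cg, hCg⟩ : ∃ C, ∀ x ∈ Icc (-M) M, ‖∫ r in (0 : ℝ)..x, ρ r‖ ≤ C :=
    isCompact_Icc.exists_bound_of_continuousOn hgc.continuousOn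
  have htends : Tendsto (fun n : ℕ => 1 / ((n : ℝ) + 1)) atTop (𝓝 0) :=
    tendsto_one_div_add_atTop_nhds_zero_nat
  have hle1 : ∀ n : ℕ, 1 / ((n : ℝ) + 1) ≤ 1 := by
    intro n
    rw [div_le_one (by positivity)]
    linarith [(n.cast_nonneg : (0 : ℝ) ≤ n)]
  have hPl : ∀ x ∈ Icc (-M) M, Tendsto (fun n => (P n).eval x) atTop
      (𝓝 (∫ r in (0 : ℝ)..x, ρ r)) := by
    intro x hx
    rw [tendsto_iff_norm_sub_tendsto_zero]
    refine squeeze_zero (fun n => norm_nonneg _) (fun n => hPg n x hx) ?_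
    simpa using htends.const_mul M
  have hpl : ∀ x ∈ Icc (-M) M, Tendsto (fun n => (p n).eval x) atTop (𝓝 (ρ x)) := by
    intro x hx
    rw [tendsto_iff_norm_sub_tendsto_zero]
    exact squeeze_zero (fun n => norm_nonneg _) (fun n => (hp n x hx).le) htends
  have hPb : ∀ n, ∀ x ∈ Icc (-M) M, |(P n).eval x| ≤ Cg + M := by
    intro n x hx
    have hM0 : 0 ≤ M := by
      have := hx.1.trans hx.2
      linarith
    have a1 := hPg n x hx
    have a2 : |∫ r in (0 : ℝ)..x, ρ r| ≤ Cg := hCg x hx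
    have a3 : M * (1 / ((n : ℝ) + 1)) ≤ M * 1 := mul_le_mul_of_nonneg_left (hle1 n) hM0
    have a4 := abs_sub_abs_le_abs_sub ((P n).eval x) (∫ r in (0 : ℝ)..x, ρ r)
    linarith
  have hpb : ∀ n, ∀ x ∈ Icc (-M) M, |(p n).eval x| ≤ Cρ + 1 := by
    intro n x hx
    have a1 := hp n x hx
    have a2 : |ρ x| ≤ Cρ := hCρ x hx
    have a4 := abs_sub_abs_le_abs_sub ((p n).eval x) (ρ x)
    linarith [hle1 n]
  -- the identities for the polynomials
  have hHn : ∀ n, HH t0 t1 y0 y1 (fun q => w1 q.1 * w2 q.2)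
      (fun q => κ q * (P n).eval (e q))
      (fun q => κ' q * (P n).eval (e q) + κ q * ((p n).eval (e q) * e' q)) := by
    intro n
    have hmem : (fun q => κ q * (P n).eval (e q)) ∈ TT A := TT_mul h hκ (TT_poly h he (P n))
    obtain ⟨K, hK⟩ := TT_HH h hw1 hw2 g1 g2 hmem
    have hd : ∀ᵐ q ∂(bet (leb t0 t1) (leb y0 y1)),
        HasDerivAt (fun s => κ (s, q.2) * (P n).eval (e (s, q.2)))
        (κ' q * (P n).eval (e q) + κ q * ((p n).eval (e q) * e' q)) q.1 := by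
      filter_upwards [hκ'.der, he'.der] with q h1 h2
      have h3 : HasDerivAt (fun s => (P n).eval (e (s, q.2))) ((p n).eval (e q) * e' q) q.1 := by
        have := (P n).hasDerivAt (e (q.1, q.2))
        rw [hP n] at this
        exact this.comp q.1 h2
      exact h1.mul h3
    have hu := hK.unique hd
    exact ⟨hK.cont, hK.int.congr hu, hd, hK.idn.congr (fun _ _ => rfl) hu⟩
  refine Idn.lim (W := fun q => w1 q.1 * w2 q.2) (by fun_prop)
    (H := fun n q => κ q * (P n).eval (e q))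
    (K := fun n q => κ' q * (P n).eval (e q) + κ q * ((p n).eval (e q) * e' q))
    (B := Cκ * (Cg + M)) (G := fun q => |κ' q| * (Cg + M) + Cκ * ((Cρ + 1) * |e' q|))
    ?_ (fun n => (hHn n).cont) ?_ ?_ (fun n => (hHn n).int.aestronglyMeasurable) ?_ ?_
    (fun n => (hHn n).idn)
  · exact (hκ'.int.abs.mul_const _).add ((he'.int.abs.const_mul _).const_mul _)
  · intro n q hq
    rw [abs_mul]
    exact mul_le_mul (hCκ q hq) (hPb n _ (hbox q hq)) (abs_nonneg _)
      ((norm_nonneg _).trans (hCκ q hq))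
  · intro q hq
    exact (hPl _ (hbox q hq)).const_mul _
  · intro n
    filter_upwards [ae_mem_box t0 t1 y0 y1] with q hq
    refine (abs_add_le _ _).trans ?_
    rw [abs_mul, abs_mul, abs_mul]
    refine add_le_add ?_ ?_
    · exact mul_le_mul_of_nonneg_left (hPb n _ (hbox q hq)) (abs_nonneg _)
    · exact mul_le_mul (hCκ q hq) (mul_le_mul_of_nonneg_right (hpb n _ (hbox q hq)) (abs_nonneg _))
        (by positivity) ((norm_nonneg _).trans (hCκ q hq))
  · filter_upwards [ae_mem_box t0 t1 y0 y1] with q hq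
    exact ((hPl _ (hbox q hq)).const_mul _).add
      (((hpl _ (hbox q hq)).mul_const _).const_mul _)

end Crest.Agent.R105.Prod_412
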