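import Crest.Agent.R105.Prod5_412

/-! Row 105, PROD (helper412), part 6: the sign kernel. -/

open MeasureTheory Set Filter Topology

namespace Crest.Agent.R105.Prod_412

variable {A : Set (ℝ × ℝ → ℝ)} {D : (ℝ × ℝ → ℝ) → (ℝ × ℝ → ℝ)} {t0 t1 y0 y1 : ℝ}

/-- sign of `q.1 - q.2` -/
noncomputable def sg (q : ℝ × ℝ) : ℝ := if q.2 < q.1 then 1 else if q.1 < q.2 then -1 else 0

theorem sg_anti (y y' : ℝ) : sg (y', y) = - sg (y, y') := by
  unfold sg
  simp only
  split_ifs <;> first | (exfalso; linarith) | simp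

theorem abs_sg_le (q : ℝ × ℝ) : |sg q| ≤ 1 := by
  unfold sg
  split_ifs <;> simp

theorem measurable_sg : Measurable sg := by
  unfold sg
  refine Measurable.ite ?_ measurable_const (Measurable.ite ?_ measurable_const measurable_const)
  · exact measurableSet_lt measurable_snd measurable_fst
  · exact measurableSet_lt measurable_fst measurable_snd

/-- the kernel `sign (y - y')` is a finite sum of products wherever `a` separates -/
def SignK (A : Set (ℝ × ℝ → ℝ)) (t0 t1 y0 y1 : ℝ) : Prop :=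
  ∀ a ∈ A, ∀ d : ℝ, 0 < d → ∃ κ ∈ TT A, ∀ t ∈ Icc t0 t1, ∀ y ∈ Icc y0 y1, ∀ y' ∈ Icc y0 y1,
    d ≤ |a (t, y) - a (t, y')| → κ (t, (y, y')) = sg (y, y')

/-- the cut-off -/
noncomputable def rh (d x : ℝ) : ℝ := min 1 (max 0 ((|x| - d) / d))

theorem rh_cont (d : ℝ) : Continuous (rh d) := by
  unfold rh
  fun_prop

theorem rh_nonneg (d x : ℝ) : 0 ≤ rh d x := le_min zero_le_one (le_max_left _ _)

theorem rh_le (d x : ℝ) : rh d x ≤ 1 := min_le_left _ _

theorem rh_zero {d x : ℝ} (hd : 0 < d) (hx : |x| ≤ d) : rh d x = 0 := by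
  unfold rh
  have : (|x| - d) / d ≤ 0 := div_nonpos_of_nonpos_of_nonneg (by linarith) hd.le
  rw [max_eq_left this, min_eq_right zero_le_one]

theorem rh_one {d x : ℝ} (hd : 0 < d) (hx : 2 * d ≤ |x|) : rh d x = 1 := by
  unfold rh
  have : 1 ≤ (|x| - d) / d := by
    rw [le_div_iff₀ hd]; linarith
  rw [min_eq_left (le_max_of_le_right this)]

theorem rg_zero {d x : ℝ} (hd : 0 < d) (hx : |x| ≤ d) : ∫ r in (0 : ℝ)..x, rh d r = 0 := by
  rw [intervalIntegral.integral_congr (g := fun _ => (0 : ℝ))]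
  · simp
  · intro r hr
    apply rh_zero hd
    refine le_trans ?_ hx
    rcases le_total 0 x with h0 | h0
    · rw [uIcc_of_le h0] at hr
      rw [abs_of_nonneg hr.1, abs_of_nonneg h0]; exact hr.2
    · rw [uIcc_of_ge h0] at hr
      rw [abs_of_nonpos hr.2, abs_of_nonpos h0]; linarith [hr.1]

theorem rg_le (d x : ℝ) : |∫ r in (0 : ℝ)..x, rh d r| ≤ |x| := by
  have := intervalIntegral.norm_integral_le_of_norm_le_const (a := (0 : ℝ)) (b := x)
    (f := rh d) (C := 1) (fun r _ => by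
      rw [Real.norm_eq_abs, abs_of_nonneg (rh_nonneg d r)]; exact rh_le d r)
  simpa using this

/-- `d = 1/(n+1)` -/
noncomputable def dn (n : ℕ) : ℝ := 1 / ((n : ℝ) + 1)

theorem dn_pos (n : ℕ) : 0 < dn n := by unfold dn; positivity

theorem rh_tendsto {x : ℝ} (hx : x ≠ 0) : Tendsto (fun n => rh (dn n) x) atTop (𝓝 1) := by
  have h1 : Tendsto dn atTop (𝓝 0) := tendsto_one_div_add_atTop_nhds_zero_nat
  have h2 : ∀ᶠ n in atTop, dn n < |x| / 2 :=
    h1.eventually (gt_mem_nhds (by positivity))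
  refine tendsto_const_nhds.congr' ?_
  filter_upwards [h2] with n hn
  rw [rh_one (dn_pos n) (by linarith)]

theorem rg_tendsto (x : ℝ) : Tendsto (fun n => ∫ r in (0 : ℝ)..x, rh (dn n) r) atTop (𝓝 x) := by
  have h : Tendsto (fun n => ∫ r in (0 : ℝ)..x, rh (dn n) r) atTop
      (𝓝 (∫ _ in (0 : ℝ)..x, (1 : ℝ))) := by
    apply intervalIntegral.tendsto_integral_filter_of_dominated_convergence (fun _ => 1)
    · exact Eventually.of_forall fun n => (rh_cont _).aestronglyMeasurable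
    · refine Eventually.of_forall fun n => ae_of_all _ fun r _ => ?_
      rw [Real.norm_eq_abs, abs_of_nonneg (rh_nonneg _ r)]; exact rh_le _ r
    · exact intervalIntegrable_const
    · have h0 : ∀ᵐ r : ℝ, r ≠ 0 := by simp [ae_iff, measure_singleton]
      filter_upwards [h0] with r hr _
      exact rh_tendsto hr
  simpa using h

section swap

variable {lam : Measure ℝ} {nu : Measure (ℝ × ℝ)} [SFinite lam] [SFinite nu]

theorem ae_section {R : ℝ × (ℝ × ℝ) → Prop} (h : ∀ᵐ p ∂(lam.prod nu), R p) :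
    ∀ᵐ q ∂nu, ∀ᵐ s ∂lam, R (s, q) := by
  have h1 : ∀ᵐ r ∂(nu.prod lam), R r.swap :=
    (Measure.measurePreserving_swap (μ := nu) (ν := lam)).quasiMeasurePreserving.ae h
  exact Measure.ae_ae_of_ae_prod h1

theorem ae_of_section {S : Set (ℝ × (ℝ × ℝ))} (hS : MeasurableSet S)
    (h : ∀ᵐ q ∂nu, ∀ᵐ s ∂lam, (s, q) ∈ S) : ∀ᵐ p ∂(lam.prod nu), p ∈ S := by
  have h1 : ∀ᵐ r ∂(nu.prod lam), r.swap ∈ S :=
    (Measure.ae_prod_iff_ae_ae (measurable_swap hS)).mpr h
  have h2 := (Measure.measurePreserving_swap (μ := lam) (ν := nu)).quasiMeasurePreserving.ae h1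
  simpa using h2

end swap

/-- `e = 0` implies `e' = 0` almost everywhere -/
theorem zero_ae {e e' : ℝ × (ℝ × ℝ) → ℝ} (he : ContinuousOn e (box3 t0 t1 y0 y1))
    (he' : Integrable e' (bet (leb t0 t1) (leb y0 y1)))
    (hd : ∀ᵐ p ∂(bet (leb t0 t1) (leb y0 y1)), HasDerivAt (fun s => e (s, p.2)) (e' p) p.1) :
    ∀ᵐ p ∂(bet (leb t0 t1) (leb y0 y1)), e p = 0 → e' p = 0 := by
  have m1 := box_aesm he
  have m2 := he'.aestronglyMeasurable
  set e1 := m1.mk e with he1
  set e2 := m2.mk e' with he2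
  have a1 : ∀ᵐ p ∂(bet (leb t0 t1) (leb y0 y1)), e p = e1 p := m1.ae_eq_mk
  have a2 : ∀ᵐ p ∂(bet (leb t0 t1) (leb y0 y1)), e' p = e2 p := m2.ae_eq_mk
  have s1 : Measurable e1 := m1.stronglyMeasurable_mk.measurable
  have s2 : Measurable e2 := m2.stronglyMeasurable_mk.measurable
  have hS : MeasurableSet {p : ℝ × (ℝ × ℝ) | e1 p = 0 → e2 p = 0} := by
    have : {p : ℝ × (ℝ × ℝ) | e1 p = 0 → e2 p = 0} = {p | e1 p = 0}ᶜ ∪ {p | e2 p = 0} := by
      ext p
      simp only [mem_ofPred_eq, mem_union, mem_compl_iff]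
      tauto
    rw [this]
    exact (measurableSet_eq_fun s1 measurable_const).compl.union
      (measurableSet_eq_fun s2 measurable_const)
  have hsec : ∀ᵐ p ∂(bet (leb t0 t1) (leb y0 y1)),
      p ∈ {p : ℝ × (ℝ × ℝ) | e1 p = 0 → e2 p = 0} := by
    apply ae_of_section hS
    filter_upwards [ae_section a1, ae_section a2, ae_section hd] with q h1 h2 h3
    have h4 := zero_deriv_ae (fun s => e (s, q)) (fun s => e' (s, q))
    have h5 : ∀ᵐ x ∂(leb t0 t1), e (x, q) = 0 → HasDerivAt (fun s => e (s, q)) (e' (x, q)) x →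
      e' (x, q) = 0 := ae_restrict_of_ae h4
    filter_upwards [h1, h2, h3, h5] with s b1 b2 b3 b4
    intro b5
    rw [← b1] at b5
    rw [← b2]
    exact b4 b5 b3
  filter_upwards [a1, a2, hsec] with p b1 b2 b3
  intro b4
  rw [b2]
  apply b3
  rw [← b1]
  exact b4

theorem ae_mem_Ioo (t0 t1 y0 y1 : ℝ) : ∀ᵐ p ∂(bet (leb t0 t1) (leb y0 y1)),
    p.1 ∈ Ioo t0 t1 := by
  have h1 : ∀ᵐ s ∂(leb t0 t1), s ∈ Ioo t0 t1 := by
    rw [leb, ← restrict_Ioo_eq_restrict_Icc]
    exact ae_restrict_mem measurableSet_Ioo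
  exact Measure.quasiMeasurePreserving_fst.ae h1

/-- the doubling with the sign kernel -/
theorem idn_sg (h : Slab A D t0 t1 y0 y1) (hs : SignK A t0 t1 y0 y1) {w1 w2 : ℝ → ℝ}
    (hw1 : Continuous w1) (hw2 : Continuous w2) (g1 : Good A D t0 t1 y0 y1 w1)
    (g2 : Good A D t0 t1 y0 y1 w2) {a : ℝ × ℝ → ℝ} (ha : a ∈ A) :
    Idn t0 t1 y0 y1 (fun q => w1 q.1 * w2 q.2)
      (fun p => sg p.2 * (a (p.1, p.2.1) - a (p.1, p.2.2)))
      (fun p => sg p.2 * (D a (p.1, p.2.1) - D a (p.1, p.2.2))) := by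
  set e : ℝ × (ℝ × ℝ) → ℝ := fun p => a (p.1, p.2.1) - a (p.1, p.2.2) with he
  set e' : ℝ × (ℝ × ℝ) → ℝ := fun p => D a (p.1, p.2.1) - D a (p.1, p.2.2) with he'
  have heT : e ∈ TT A := TT_diff h ha
  have hdere : ∀ᵐ p ∂(bet (leb t0 t1) (leb y0 y1)),
      HasDerivAt (fun s => e (s, p.2)) (e' p) p.1 := by
    filter_upwards [h.der1 ha, h.der2 ha] with p h1 h2
    exact h1.sub h2
  have hHe : HH t0 t1 y0 y1 (fun q => w1 q.1 * w2 q.2) e e' := by
    obtain ⟨K, hK⟩ := TT_HH h hw1 hw2 g1 g2 heT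
    have hu := hK.unique hdere
    exact ⟨hK.cont, hK.int.congr hu, hdere, hK.idn.congr (fun _ _ => rfl) hu⟩
  -- the approximations
  have key : ∀ d : ℝ, 0 < d →
      ContinuousOn (fun p : ℝ × (ℝ × ℝ) => sg p.2 * ∫ r in (0 : ℝ)..(e p), rh d r)
        (box3 t0 t1 y0 y1) ∧
      Idn t0 t1 y0 y1 (fun q => w1 q.1 * w2 q.2)
        (fun p => sg p.2 * ∫ r in (0 : ℝ)..(e p), rh d r)
        (fun p => sg p.2 * (rh d (e p) * e' p)) := by
    intro d hd
    obtain ⟨κ, hκT, hκ⟩ := hs a ha d hd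
    obtain ⟨κ', hκ'⟩ := TT_HH h hw1 hw2 g1 g2 hκT
    have hc := idn_comp h hw1 hw2 g1 g2 hκT heT hκ' hHe (rh_cont d)
    have heq : ∀ p ∈ box3 t0 t1 y0 y1, κ p * (∫ r in (0 : ℝ)..(e p), rh d r) =
        sg p.2 * ∫ r in (0 : ℝ)..(e p), rh d r := by
      intro p hp
      by_cases hcase : |e p| ≤ d
      · rw [rg_zero hd hcase]; simp
      · rw [hκ p.1 hp.1 p.2.1 hp.2.1 p.2.2 hp.2.2 (le_of_lt (not_le.mp hcase))]
    have hder2 : ∀ᵐ p ∂(bet (leb t0 t1) (leb y0 y1)),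
        HasDerivAt (fun s => κ (s, p.2) * ∫ r in (0 : ℝ)..(e (s, p.2)), rh d r)
        (sg p.2 * (rh d (e p) * e' p)) p.1 := by
      filter_upwards [hdere, ae_mem_box t0 t1 y0 y1, ae_mem_Ioo t0 t1 y0 y1] with p h1 h2 h3
      have hgd : HasDerivAt (fun x => ∫ r in (0 : ℝ)..x, rh d r) (rh d (e (p.1, p.2)))
          (e (p.1, p.2)) :=
        intervalIntegral.integral_hasDerivAt_right ((rh_cont d).intervalIntegrable _ _)
          (rh_cont d).aestronglyMeasurable.stronglyMeasurableAtFilter (rh_cont d).continuousAt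
      have h4 : HasDerivAt (fun s => ∫ r in (0 : ℝ)..(e (s, p.2)), rh d r)
          (rh d (e p) * e' p) p.1 :=
        HasDerivAt.comp (h := fun s => e (s, p.2)) (h₂ := fun x => ∫ r in (0 : ℝ)..x, rh d r) p.1
          hgd h1
      have h5 := h4.const_mul (sg p.2)
      refine h5.congr_of_eventuallyEq ?_
      filter_upwards [isOpen_Ioo.mem_nhds h3] with s hs
      exact heq (s, p.2) ⟨⟨hs.1.le, hs.2.le⟩, h2.2⟩
    have hu := hc.unique hder2
    exact ⟨hc.cont.congr fun p hp => (heq p hp).symm, hc.idn.congr heq hu⟩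
  have hz := zero_ae hHe.cont hHe.int hHe.der
  obtain ⟨M, hM⟩ : ∃ M, ∀ p ∈ box3 t0 t1 y0 y1, ‖e p‖ ≤ M :=
    (isCompact_box3 t0 t1 y0 y1).exists_bound_of_continuousOn hHe.cont
  refine Idn.lim (W := fun q => w1 q.1 * w2 q.2) (by fun_prop)
    (H := fun n p => sg p.2 * ∫ r in (0 : ℝ)..(e p), rh (dn n) r)
    (K := fun n p => sg p.2 * (rh (dn n) (e p) * e' p)) (B := 1 * M) (G := fun p => 1 * (1 * |e' p|))
    ?_ (fun n => (key _ (dn_pos n)).1) ?_ ?_ ?_ ?_ ?_ (fun n => (key _ (dn_pos n)).2)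
  · exact (hHe.int.abs.const_mul _).const_mul _
  · intro n p hp
    rw [abs_mul]
    exact mul_le_mul (abs_sg_le _) ((rg_le _ _).trans (hM p hp)) (abs_nonneg _) zero_le_one
  · intro p hp
    exact (rg_tendsto (e p)).const_mul _
  · intro n
    have m1 := box_aesm hHe.cont
    have m2 : AEStronglyMeasurable (fun p => rh (dn n) (e p)) (bet (leb t0 t1) (leb y0 y1)) :=
      (rh_cont _).comp_aestronglyMeasurable m1
    exact (measurable_sg.comp measurable_snd).aestronglyMeasurable.mul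
      (m2.mul hHe.int.aestronglyMeasurable)
  · intro n
    refine ae_of_all _ fun p => ?_
    rw [abs_mul, abs_mul]
    refine mul_le_mul (abs_sg_le _) (mul_le_mul_of_nonneg_right ?_ (abs_nonneg _))
      (by positivity) zero_le_one
    rw [abs_of_nonneg (rh_nonneg _ _)]
    exact rh_le _ _
  · filter_upwards [hz] with p hp
    refine Filter.Tendsto.const_mul (sg p.2) (f := fun n => rh (dn n) (e p) * e' p) ?_
    by_cases h0 : e p = 0
    · have h1 : e' p = 0 := hp h0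
      have h2 : (fun n => rh (dn n) (e p) * e' p) = fun _ => e' p := by
        ext n
        rw [h1, mul_zero]
      rw [h2]
      exact tendsto_const_nhds
    · have h3 := (rh_tendsto h0).mul_const (e' p)
      rwa [one_mul] at h3

end Crest.Agent.R105.Prod_412
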