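import Crest.Agent.R105.Prod6_412

/-! Row 105, PROD (helper412), part 7: the product lemma. -/

open MeasureTheory Set Filter Topology

namespace Crest.Agent.R105.Prod_412

variable {A : Set (ℝ × ℝ → ℝ)} {D : (ℝ × ℝ → ℝ) → (ℝ × ℝ → ℝ)} {t0 t1 y0 y1 : ℝ}

/-- `∫ w(y') sign(y - y') dy'` -/
noncomputable def Sg (y0 y1 : ℝ) (w : ℝ → ℝ) (y : ℝ) : ℝ := ∫ y', w y' * sg (y, y') ∂(leb y0 y1)

theorem sg_aesm (y0 y1 : ℝ) : AEStronglyMeasurable sg ((leb y0 y1).prod (leb y0 y1)) :=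
  measurable_sg.aestronglyMeasurable

theorem mul_sg_int {f : ℝ × ℝ → ℝ} (hf : Integrable f ((leb y0 y1).prod (leb y0 y1))) :
    Integrable (fun q => sg q * f q) ((leb y0 y1).prod (leb y0 y1)) :=
  hf.bdd_mul (sg_aesm y0 y1) (ae_of_all _ fun q => abs_sg_le q)

theorem leb_int {w : ℝ → ℝ} (hw : Continuous w) : Integrable w (leb y0 y1) :=
  hw.continuousOn.integrableOn_compact isCompact_Icc

theorem leb_mul_int {f w : ℝ → ℝ} (hf : Integrable f (leb y0 y1)) (hw : Continuous w) :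
    Integrable (fun y => w y * f y) (leb y0 y1) :=
  IntegrableOn.continuousOn_mul hw.continuousOn hf isCompact_Icc

theorem eval_sg {w1 w2 : ℝ → ℝ} (hw1 : Continuous w1) (hw2 : Continuous w2) {f : ℝ → ℝ}
    (hf : Integrable f (leb y0 y1)) :
    ∫ q : ℝ × ℝ, (w1 q.1 * w2 q.2) * (sg q * (f q.1 - f q.2)) ∂((leb y0 y1).prod (leb y0 y1)) =
      ∫ y, (w1 y * Sg y0 y1 w2 y + w2 y * Sg y0 y1 w1 y) * f y ∂(leb y0 y1) := by
  have j1 : Integrable (fun q : ℝ × ℝ => sg q * ((w1 q.1 * f q.1) * w2 q.2))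
      ((leb y0 y1).prod (leb y0 y1)) :=
    mul_sg_int ((leb_mul_int hf hw1).mul_prod (leb_int hw2))
  have j2 : Integrable (fun q : ℝ × ℝ => sg q * (w1 q.1 * (w2 q.2 * f q.2)))
      ((leb y0 y1).prod (leb y0 y1)) :=
    mul_sg_int ((leb_int hw1).mul_prod (leb_mul_int hf hw2))
  have e1 : ∫ q : ℝ × ℝ, (w1 q.1 * w2 q.2) * (sg q * (f q.1 - f q.2))
      ∂((leb y0 y1).prod (leb y0 y1)) =
      (∫ q : ℝ × ℝ, sg q * ((w1 q.1 * f q.1) * w2 q.2) ∂((leb y0 y1).prod (leb y0 y1))) -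
      ∫ q : ℝ × ℝ, sg q * (w1 q.1 * (w2 q.2 * f q.2)) ∂((leb y0 y1).prod (leb y0 y1)) := by
    rw [← integral_sub j1 j2]
    congr 1
    ext q
    ring
  have k1 : ∀ y, ∫ y', sg (y, y') * ((w1 y * f y) * w2 y') ∂(leb y0 y1) =
      (w1 y * f y) * Sg y0 y1 w2 y := by
    intro y
    rw [Sg, ← integral_const_mul]
    congr 1
    ext y'
    ring
  have k2 : ∀ y', ∫ y, sg (y, y') * (w1 y * (w2 y' * f y')) ∂(leb y0 y1) =
      - ((w2 y' * f y') * Sg y0 y1 w1 y') := by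
    intro y'
    rw [Sg, ← integral_const_mul, ← integral_neg]
    congr 1
    ext y
    rw [sg_anti y' y]
    ring
  have i1 : Integrable (fun y => (w1 y * f y) * Sg y0 y1 w2 y) (leb y0 y1) :=
    j1.integral_prod_left.congr (ae_of_all _ fun y => k1 y)
  have i2 : Integrable (fun y => - ((w2 y * f y) * Sg y0 y1 w1 y)) (leb y0 y1) :=
    j2.integral_prod_right.congr (ae_of_all _ fun y => k2 y)
  rw [e1, integral_prod _ j1, integral_prod_symm _ j2]
  simp only [k1, k2]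
  rw [← integral_sub i1 i2]
  congr 1
  ext y
  ring

theorem Sg_eq {w : ℝ → ℝ} (hw : Continuous w) {y : ℝ} (hy : y ∈ Icc y0 y1) :
    Sg y0 y1 w y = 2 * (∫ r in y0..y, w r) - ∫ r in y0..y1, w r := by
  have hle := hy.1.trans hy.2
  have hi : Integrable (fun y' => w y' * sg (y, y')) (leb y0 y1) := by
    have := (leb_int (y0 := y0) (y1 := y1) hw).bdd_mul (f := fun y' => sg (y, y'))
      (measurable_sg.comp (measurable_const.prodMk measurable_id)).aestronglyMeasurable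
      (ae_of_all _ fun q => abs_sg_le _)
    exact this.congr (ae_of_all _ fun q => mul_comm _ _)
  have h1 : IntervalIntegrable (fun y' => w y' * sg (y, y')) volume y0 y :=
    ival hi ⟨le_rfl, hle⟩ hy hy.1
  have h2 : IntervalIntegrable (fun y' => w y' * sg (y, y')) volume y y1 :=
    ival hi hy ⟨hle, le_rfl⟩ hy.2
  rw [Sg, ← intervalIntegral_eq hle, ← intervalIntegral.integral_add_adjacent_intervals h1 h2,
    ← intervalIntegral.integral_add_adjacent_intervals (hw.intervalIntegrable y0 y)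
      (hw.intervalIntegrable y y1)]
  have e1 : ∫ y' in y0..y, w y' * sg (y, y') = ∫ r in y0..y, w r := by
    apply intervalIntegral.integral_congr_ae
    have h0 : ∀ᵐ r : ℝ, r ≠ y := by simp [ae_iff, measure_singleton]
    filter_upwards [h0] with r hr hr2
    rw [uIoc_of_le hy.1] at hr2
    have : r < y := lt_of_le_of_ne hr2.2 hr
    simp [sg, this]
  have e2 : ∫ y' in y..y1, w y' * sg (y, y') = - ∫ r in y..y1, w r := by
    rw [← intervalIntegral.integral_neg]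
    apply intervalIntegral.integral_congr_ae
    refine ae_of_all _ fun r hr2 => ?_
    rw [uIoc_of_le hy.2] at hr2
    have h3 : ¬ r < y := not_lt.mpr hr2.1.le
    simp [sg, hr2.1, h3]
  rw [e1, e2]
  ring

theorem Good.congr {w w' : ℝ → ℝ} (h : Good A D t0 t1 y0 y1 w)
    (hw : ∀ y ∈ Icc y0 y1, w y = w' y) : Good A D t0 t1 y0 y1 w' := by
  intro a ha t ht t' ht' htt
  have e : ∀ f : ℝ → ℝ, ∫ y, w' y * f y ∂(leb y0 y1) = ∫ y, w y * f y ∂(leb y0 y1) := by
    intro f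
    apply integral_congr_ae
    filter_upwards [ae_restrict_mem measurableSet_Icc] with y hy
    rw [hw y hy]
  simp only [e]
  exact h a ha t ht t' ht' htt

theorem Slab.ae_sec (h : Slab A D t0 t1 y0 y1) {a : ℝ × ℝ → ℝ} (ha : a ∈ A) :
    ∀ᵐ s : ℝ, s ∈ Icc t0 t1 → Integrable (fun y => D a (s, y)) (leb y0 y1) := by
  have := (h.int' ha).prod_right_ae
  rwa [leb, ae_restrict_iff' measurableSet_Icc] at this

theorem Slab.slice (h : Slab A D t0 t1 y0 y1) {a : ℝ × ℝ → ℝ} (ha : a ∈ A) {t : ℝ}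
    (ht : t ∈ Icc t0 t1) : Integrable (fun y => a (t, y)) (leb y0 y1) := by
  apply ContinuousOn.integrableOn_compact isCompact_Icc
  exact (h.cont a ha).comp (by fun_prop) (fun y hy => ⟨ht, hy⟩)

theorem Good.add (h : Slab A D t0 t1 y0 y1) {w w' : ℝ → ℝ} (hw : Continuous w)
    (hw' : Continuous w') (g : Good A D t0 t1 y0 y1 w) (g' : Good A D t0 t1 y0 y1 w') :
    Good A D t0 t1 y0 y1 (fun y => w y + w' y) := by
  intro a ha t ht t' ht' htt
  have e : ∀ f : ℝ → ℝ, Integrable f (leb y0 y1) → ∫ y, (w y + w' y) * f y ∂(leb y0 y1) =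
      (∫ y, w y * f y ∂(leb y0 y1)) + ∫ y, w' y * f y ∂(leb y0 y1) := by
    intro f hf
    rw [← integral_add (leb_mul_int hf hw) (leb_mul_int hf hw')]
    congr 1
    ext y
    ring
  rw [e _ (h.slice ha ht'), e _ (h.slice ha ht)]
  have e2 : ∫ s in t..t', ∫ y, (w y + w' y) * D a (s, y) ∂(leb y0 y1) =
      ∫ s in t..t', ((∫ y, w y * D a (s, y) ∂(leb y0 y1)) +
        ∫ y, w' y * D a (s, y) ∂(leb y0 y1)) := by
    apply intervalIntegral.integral_congr_ae
    filter_upwards [h.ae_sec ha] with s hs hs2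
    rw [uIoc_of_le htt] at hs2
    exact e _ (hs ⟨ht.1.trans hs2.1.le, hs2.2.trans ht'.2⟩)
  rw [e2, intervalIntegral.integral_add
    (ival (slice_int (h.int' ha) hw).integral_prod_left ht ht' htt)
    (ival (slice_int (h.int' ha) hw').integral_prod_left ht ht' htt),
    ← g a ha t ht t' ht' htt, ← g' a ha t ht t' ht' htt]
  ring

theorem Good.smul (c : ℝ) {w : ℝ → ℝ} (g : Good A D t0 t1 y0 y1 w) :
    Good A D t0 t1 y0 y1 (fun y => c * w y) := by
  intro a ha t ht t' ht' htt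
  have e : ∀ f : ℝ → ℝ, ∫ y, (c * w y) * f y ∂(leb y0 y1) =
      c * ∫ y, w y * f y ∂(leb y0 y1) := by
    intro f
    rw [← integral_const_mul]
    congr 1
    ext y
    ring
  simp only [e]
  rw [intervalIntegral.integral_const_mul, ← g a ha t ht t' ht' htt]
  ring

/-- THE PRODUCT LEMMA -/
theorem Good.prod (h : Slab A D t0 t1 y0 y1) (hs : SignK A t0 t1 y0 y1) {w1 w2 : ℝ → ℝ}
    (hw1 : Continuous w1) (hw2 : Continuous w2) (g1 : Good A D t0 t1 y0 y1 w1)
    (g2 : Good A D t0 t1 y0 y1 w2) :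
    Good A D t0 t1 y0 y1
      (fun y => w1 y * (∫ r in y0..y, w2 r) + w2 y * ∫ r in y0..y, w1 r) := by
  have hW : ∀ w : ℝ → ℝ, Continuous w → Continuous (fun y => ∫ r in y0..y, w r) := fun w hw =>
    intervalIntegral.continuous_primitive (fun _ _ => hw.intervalIntegrable _ _) _
  have hΩ : Good A D t0 t1 y0 y1 (fun y => w1 y * Sg y0 y1 w2 y + w2 y * Sg y0 y1 w1 y) := by
    intro a ha t ht t' ht' htt
    have hid := idn_sg h hs hw1 hw2 g1 g2 ha t ht t' ht' htt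
    have hK : Integrable (fun p : ℝ × (ℝ × ℝ) => sg p.2 * (D a (p.1, p.2.1) - D a (p.1, p.2.2)))
        (bet (leb t0 t1) (leb y0 y1)) := by
      have h1 := (integrable1 (h.int' ha)).sub (integrable2 (h.int' ha))
      exact h1.bdd_mul (measurable_sg.comp measurable_snd).aestronglyMeasurable
        (ae_of_all _ fun q => abs_sg_le _)
    rw [rhs_fubini (W := fun q => w1 q.1 * w2 q.2) (by fun_prop) hK ht ht' htt] at hid
    rw [← eval_sg hw1 hw2 (h.slice ha ht'), ← eval_sg hw1 hw2 (h.slice ha ht)]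
    have e2 : ∫ s in t..t', ∫ y, (w1 y * Sg y0 y1 w2 y + w2 y * Sg y0 y1 w1 y) * D a (s, y)
        ∂(leb y0 y1) = ∫ s in t..t', ∫ q : ℝ × ℝ, (w1 q.1 * w2 q.2) *
          (sg q * (D a (s, q.1) - D a (s, q.2))) ∂((leb y0 y1).prod (leb y0 y1)) := by
      apply intervalIntegral.integral_congr_ae
      filter_upwards [h.ae_sec ha] with s hs hs2
      rw [uIoc_of_le htt] at hs2
      exact (eval_sg hw1 hw2 (hs ⟨ht.1.trans hs2.1.le, hs2.2.trans ht'.2⟩)).symm
    rw [e2]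
    exact hid
  have c1 := (g1.smul (∫ r in y0..y1, w2 r))
  have c2 := (g2.smul (∫ r in y0..y1, w1 r))
  have hΩ' : Good A D t0 t1 y0 y1 (fun y =>
      2 * (w1 y * (∫ r in y0..y, w2 r) + w2 y * ∫ r in y0..y, w1 r) -
        ((∫ r in y0..y1, w2 r) * w1 y + (∫ r in y0..y1, w1 r) * w2 y)) := by
    refine hΩ.congr fun y hy => ?_
    rw [Sg_eq hw1 hy, Sg_eq hw2 hy]
    ring
  have k1 := Good.add h (by fun_prop) (by fun_prop) c1 c2
  have k2 := Good.add h
    (w := fun y => 2 * (w1 y * (∫ r in y0..y, w2 r) + w2 y * ∫ r in y0..y, w1 r) -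
        ((∫ r in y0..y1, w2 r) * w1 y + (∫ r in y0..y1, w1 r) * w2 y))
    (w' := fun y => (∫ r in y0..y1, w2 r) * w1 y + (∫ r in y0..y1, w1 r) * w2 y)
    (by have := hW w1 hw1; have := hW w2 hw2; fun_prop) (by fun_prop) hΩ' k1
  have k3 := k2.smul (1 / 2)
  refine k3.congr fun y _ => ?_
  ring

end Crest.Agent.R105.Prod_412
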