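import Crest.Agent.R105.Prod7_412

/-! Row 105, PROD (helper412), part 8: all continuous weights are good; the functions of `A` are
absolutely continuous on almost every horizontal line. -/

open MeasureTheory Set Filter Topology

namespace Crest.Agent.R105.Prod_412

variable {A : Set (ℝ × ℝ → ℝ)} {D : (ℝ × ℝ → ℝ) → (ℝ × ℝ → ℝ)} {t0 t1 y0 y1 : ℝ}

theorem good_pow (h : Slab A D t0 t1 y0 y1) (hy : y0 ≤ y1) (hs : SignK A t0 t1 y0 y1) (n : ℕ) :
    Good A D t0 t1 y0 y1 (fun y => ((n : ℝ) + 1) * (y - y0) ^ n) := by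
  have hprim : ∀ (n : ℕ) (y : ℝ), ∫ r in y0..y, ((n : ℝ) + 1) * (r - y0) ^ n = (y - y0) ^ (n + 1) := by
    intro n y
    have hd : ∀ x ∈ uIcc y0 y, HasDerivAt (fun x => (x - y0) ^ (n + 1))
        (((n : ℝ) + 1) * (x - y0) ^ n) x := by
      intro x _
      have h1 : HasDerivAt (fun x : ℝ => x - y0) 1 x := (hasDerivAt_id x).sub_const y0
      have h2 := h1.fun_pow (n + 1)
      have h3 : (((n + 1 : ℕ) : ℝ) * (x - y0) ^ (n + 1 - 1) * 1) =
          ((n : ℝ) + 1) * (x - y0) ^ n := by
        push_cast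
        rw [mul_one]
      rw [h3] at h2
      exact h2
    have hc : Continuous (fun r : ℝ => ((n : ℝ) + 1) * (r - y0) ^ n) := by fun_prop
    rw [intervalIntegral.integral_eq_sub_of_hasDerivAt hd (hc.intervalIntegrable _ _)]
    simp
  induction n with
  | zero =>
    refine (h.good_one hy).congr fun y _ => ?_
    simp
  | succ n ih =>
    have hc : Continuous (fun r : ℝ => ((n : ℝ) + 1) * (r - y0) ^ n) := by fun_prop
    have k := Good.prod h hs hc (continuous_const (y := (1 : ℝ))) ih (h.good_one hy)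
    refine k.congr fun y _ => ?_
    simp only [hprim]
    have e1 : ∫ _ in y0..y, (1 : ℝ) = y - y0 := by simp
    rw [e1]
    push_cast
    ring

theorem good_poly (h : Slab A D t0 t1 y0 y1) (hy : y0 ≤ y1) (hs : SignK A t0 t1 y0 y1)
    (P : Polynomial ℝ) : Good A D t0 t1 y0 y1 (fun y => P.eval (y - y0)) := by
  induction P using Polynomial.induction_on' with
  | add p q hp hq =>
    simp only [Polynomial.eval_add]
    exact Good.add h (p.continuous.comp (continuous_id.sub continuous_const))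
      (q.continuous.comp (continuous_id.sub continuous_const)) hp hq
  | monomial n c =>
    have k := (good_pow h hy hs n).smul (c / ((n : ℝ) + 1))
    refine k.congr fun y _ => ?_
    rw [Polynomial.eval_monomial]
    have : ((n : ℝ) + 1) ≠ 0 := by positivity
    field_simp

/-- 2D form of the right hand side -/
theorem rhs2 {f : ℝ × ℝ → ℝ} (hf : Integrable f ((leb t0 t1).prod (leb y0 y1))) {t t' : ℝ}
    (ht : t ∈ Icc t0 t1) (ht' : t' ∈ Icc t0 t1) (htt : t ≤ t') :
    ∫ s in t..t', ∫ y, f (s, y) ∂(leb y0 y1) =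
      ∫ p in (Ioc t t' ×ˢ (univ : Set ℝ)), f p ∂((leb t0 t1).prod (leb y0 y1)) := by
  rw [setIntegral_prod _ hf.integrableOn, leb_restrict ht ht',
    intervalIntegral.integral_of_le htt]
  simp only [Measure.restrict_univ]

theorem rhs2_swap {f : ℝ × ℝ → ℝ} (hf : Integrable f ((leb t0 t1).prod (leb y0 y1))) {t t' : ℝ}
    (ht : t ∈ Icc t0 t1) (ht' : t' ∈ Icc t0 t1) (htt : t ≤ t') :
    ∫ s in t..t', ∫ y, f (s, y) ∂(leb y0 y1) =
      ∫ y, (∫ s in t..t', f (s, y)) ∂(leb y0 y1) := by
  rw [intervalIntegral.integral_of_le htt]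
  simp only [intervalIntegral.integral_of_le htt]
  rw [← leb_restrict ht ht']
  have h1 : Integrable f (((leb t0 t1).restrict (Ioc t t')).prod (leb y0 y1)) := by
    have := hf.restrict (s := Ioc t t' ×ˢ (univ : Set ℝ))
    rwa [← Measure.prod_restrict, Measure.restrict_univ] at this
  exact integral_integral_swap (f := fun x y => f (x, y)) h1

theorem good_all (h : Slab A D t0 t1 y0 y1) (hy : y0 ≤ y1) (hs : SignK A t0 t1 y0 y1)
    {w : ℝ → ℝ} (hw : Continuous w) : Good A D t0 t1 y0 y1 w := by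
  have hpoly : ∀ n : ℕ, ∃ p : Polynomial ℝ, ∀ x ∈ Icc 0 (y1 - y0),
      |p.eval x - w (x + y0)| < 1 / ((n : ℝ) + 1) :=
    fun n => exists_polynomial_near_of_continuousOn 0 (y1 - y0) (fun x => w (x + y0))
      (by fun_prop) _ (by positivity)
  choose p hp using hpoly
  set v : ℕ → ℝ → ℝ := fun n y => (p n).eval (y - y0) with hv
  have hvc : ∀ n, Continuous (v n) := fun n => (p n).continuous.comp (by fun_prop)
  have hvg : ∀ n, Good A D t0 t1 y0 y1 (v n) := fun n => good_poly h hy hs (p n)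
  have hvw : ∀ n, ∀ y ∈ Icc y0 y1, |v n y - w y| < 1 / ((n : ℝ) + 1) := by
    intro n y hy'
    have := hp n (y - y0) ⟨by linarith [hy'.1], by linarith [hy'.2]⟩
    simpa [hv] using this
  have htends : Tendsto (fun n : ℕ => 1 / ((n : ℝ) + 1)) atTop (𝓝 0) :=
    tendsto_one_div_add_atTop_nhds_zero_nat
  have hle1 : ∀ n : ℕ, 1 / ((n : ℝ) + 1) ≤ 1 := by
    intro n
    rw [div_le_one (by positivity)]
    linarith [(n.cast_nonneg : (0 : ℝ) ≤ n)]
  have hvl : ∀ y ∈ Icc y0 y1, Tendsto (fun n => v n y) atTop (𝓝 (w y)) := by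
    intro y hy'
    rw [tendsto_iff_norm_sub_tendsto_zero]
    exact squeeze_zero (fun n => norm_nonneg _) (fun n => (hvw n y hy').le) htends
  obtain ⟨C, hC⟩ : ∃ C, ∀ y ∈ Icc y0 y1, ‖w y‖ ≤ C :=
    isCompact_Icc.exists_bound_of_continuousOn hw.continuousOn
  have hvb : ∀ n, ∀ y ∈ Icc y0 y1, |v n y| ≤ C + 1 := by
    intro n y hy'
    have a1 := hvw n y hy'
    have a2 : |w y| ≤ C := hC y hy'
    have a4 := abs_sub_abs_le_abs_sub (v n y) (w y)
    linarith [hle1 n]
  intro a ha t ht t' ht' htt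
  have hL : ∀ s ∈ Icc t0 t1, Tendsto (fun n => ∫ y, v n y * a (s, y) ∂(leb y0 y1)) atTop
      (𝓝 (∫ y, w y * a (s, y) ∂(leb y0 y1))) := by
    intro s hs'
    apply tendsto_integral_of_dominated_convergence (fun y => (C + 1) * |a (s, y)|)
    · intro n
      exact (hvc n).aestronglyMeasurable.mul (h.slice ha hs').aestronglyMeasurable
    · exact (h.slice ha hs').abs.const_mul _
    · intro n
      filter_upwards [ae_restrict_mem measurableSet_Icc] with y hy'
      rw [norm_mul]
      exact mul_le_mul_of_nonneg_right (hvb n y hy') (abs_nonneg _)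
    · filter_upwards [ae_restrict_mem measurableSet_Icc] with y hy'
      exact (hvl y hy').mul_const _
  have hm : ∀ᵐ q ∂((leb t0 t1).prod (leb y0 y1)), q.2 ∈ Icc y0 y1 := by
    rw [leb_prod]
    filter_upwards [ae_restrict_mem (measurableSet_Icc.prod measurableSet_Icc)] with q hq
    exact hq.2
  have hR : Tendsto (fun n => ∫ s in t..t', ∫ y, v n y * D a (s, y) ∂(leb y0 y1)) atTop
      (𝓝 (∫ s in t..t', ∫ y, w y * D a (s, y) ∂(leb y0 y1))) := by
    have e : ∀ u : ℝ → ℝ, Continuous u → ∫ s in t..t', ∫ y, u y * D a (s, y) ∂(leb y0 y1) =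
        ∫ q in (Ioc t t' ×ˢ (univ : Set ℝ)), u q.2 * D a q ∂((leb t0 t1).prod (leb y0 y1)) :=
      fun u hu => rhs2 (slice_int (h.int' ha) hu) ht ht' htt
    rw [e w hw]
    simp only [fun n => e (v n) (hvc n)]
    apply tendsto_integral_of_dominated_convergence (fun q => (C + 1) * |D a q|)
    · intro n
      exact (((hvc n).comp continuous_snd).aestronglyMeasurable.mul
        (h.int' ha).aestronglyMeasurable).restrict
    · exact ((h.int' ha).abs.const_mul _).restrict
    · intro n
      apply ae_restrict_of_ae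
      filter_upwards [hm] with q hq
      rw [norm_mul]
      exact mul_le_mul_of_nonneg_right (hvb n _ hq) (abs_nonneg _)
    · apply ae_restrict_of_ae
      filter_upwards [hm] with q hq
      exact (hvl _ hq).mul_const _
  refine tendsto_nhds_unique ?_ hR
  refine ((hL t' ht').sub (hL t ht)).congr fun n => ?_
  exact hvg n a ha t ht t' ht' htt

/-- two times -/
theorem acl_two (h : Slab A D t0 t1 y0 y1) (hy : y0 ≤ y1) (hs : SignK A t0 t1 y0 y1)
    {a : ℝ × ℝ → ℝ} (ha : a ∈ A) {t t' : ℝ} (ht : t ∈ Icc t0 t1) (ht' : t' ∈ Icc t0 t1)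
    (htt : t ≤ t') :
    ∀ᵐ y ∂(leb y0 y1), a (t', y) - a (t, y) = ∫ s in t..t', D a (s, y) := by
  have hI : Integrable (fun y => ∫ s in t..t', D a (s, y)) (leb y0 y1) := by
    have h1 : Integrable (D a) (((leb t0 t1).restrict (Ioc t t')).prod (leb y0 y1)) := by
      have := (h.int' ha).restrict (s := Ioc t t' ×ˢ (univ : Set ℝ))
      rwa [← Measure.prod_restrict, Measure.restrict_univ] at this
    rw [leb_restrict ht ht'] at h1
    have := h1.integral_prod_right
    simpa only [intervalIntegral.integral_of_le htt] using this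
  have hF : Integrable (fun y => (a (t', y) - a (t, y)) - ∫ s in t..t', D a (s, y))
      (leb y0 y1) := ((h.slice ha ht').sub (h.slice ha ht)).sub hI
  have hz : ∀ᵐ y ∂(leb y0 y1), (a (t', y) - a (t, y)) - ∫ s in t..t', D a (s, y) = 0 := by
    apply ae_eq_zero_of_integral_contDiff_smul_eq_zero hF.locallyIntegrable
    intro g hg _
    have hgc : Continuous g := hg.continuous
    have k := good_all h hy hs hgc a ha t ht t' ht' htt
    rw [rhs2_swap (slice_int (h.int' ha) hgc) ht ht' htt] at k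
    simp only [intervalIntegral.integral_const_mul] at k
    have e : ∫ y, g y • ((a (t', y) - a (t, y)) - (∫ s in t..t', D a (s, y))) ∂(leb y0 y1) =
        ((∫ y, g y * a (t', y) ∂(leb y0 y1)) - ∫ y, g y * a (t, y) ∂(leb y0 y1)) -
        ∫ y, g y * (∫ s in t..t', D a (s, y)) ∂(leb y0 y1) := by
      have q1 : Integrable (fun y => g y * a (t', y) - g y * a (t, y)) (leb y0 y1) :=
        (leb_mul_int (h.slice ha ht') hgc).sub (leb_mul_int (h.slice ha ht) hgc)
      rw [← integral_sub (leb_mul_int (h.slice ha ht') hgc) (leb_mul_int (h.slice ha ht) hgc),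
        ← integral_sub q1 (leb_mul_int hI hgc)]
      congr 1
      ext y
      simp only [smul_eq_mul]
      ring
    rw [e, k, sub_self]
  filter_upwards [hz] with y hy'
  linarith

/-- PLANARITY IN THE FIRST DIRECTION: for almost every `y` the function `a(.,y)` is the primitive
of `D a (.,y)` -/
theorem acl (h : Slab A D t0 t1 y0 y1) (hy : y0 ≤ y1) (hs : SignK A t0 t1 y0 y1)
    {a : ℝ × ℝ → ℝ} (ha : a ∈ A) :
    ∀ᵐ y ∂(leb y0 y1), IntegrableOn (fun s => D a (s, y)) (Icc t0 t1) ∧
      ∀ t ∈ Icc t0 t1, ∀ t' ∈ Icc t0 t1, a (t', y) - a (t, y) = ∫ s in t..t', D a (s, y) := by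
  rcases lt_or_ge t1 t0 with hlt | hle
  · refine ae_of_all _ fun y => ⟨?_, ?_⟩
    · rw [Icc_eq_empty (not_le.mpr hlt)]; exact integrableOn_empty
    · intro t ht; exact absurd (ht.1.trans ht.2) (not_le.mpr hlt)
  have hsec : ∀ᵐ y ∂(leb y0 y1), Integrable (fun s => D a (s, y)) (leb t0 t1) :=
    (h.int' ha).prod_left_ae
  have ht0 : t0 ∈ Icc t0 t1 := ⟨le_rfl, hle⟩
  have hQ : ∀ᵐ y ∂(leb y0 y1), ∀ r : ℚ, (r : ℝ) ∈ Icc t0 t1 →
      a ((r : ℝ), y) - a (t0, y) = ∫ s in t0..(r : ℝ), D a (s, y) := by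
    rw [ae_all_iff]
    intro r
    by_cases hr : (r : ℝ) ∈ Icc t0 t1
    · filter_upwards [acl_two h hy hs ha ht0 hr hr.1] with y h1 _
      exact h1
    · exact ae_of_all _ fun y h1 => absurd h1 hr
  filter_upwards [hsec, hQ, ae_restrict_mem measurableSet_Icc] with y h1 h2 hyI
  refine ⟨h1, ?_⟩
  have hint : IntervalIntegrable (fun s => D a (s, y)) volume t0 t1 :=
    ival h1 ht0 ⟨hle, le_rfl⟩ hle
  have main : ∀ t ∈ Icc t0 t1, a (t, y) - a (t0, y) = ∫ s in t0..t, D a (s, y) := by
    rcases hle.eq_or_lt with heq | hlt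
    · intro t ht
      have : t = t0 := le_antisymm (by rw [heq]; exact ht.2) ht.1
      rw [this]; simp
    have hEq : EqOn (fun t => a (t, y) - a (t0, y)) (fun t => ∫ s in t0..t, D a (s, y))
        (Ioo t0 t1 ∩ range ((↑) : ℚ → ℝ)) := by
      rintro t ⟨ht, r, rfl⟩
      exact h2 r ⟨ht.1.le, ht.2.le⟩
    have hcf : ContinuousOn (fun t => a (t, y) - a (t0, y)) (Icc t0 t1) := by
      apply ContinuousOn.sub _ continuousOn_const
      exact (h.cont a ha).comp (by fun_prop) (fun t ht => ⟨ht, hyI⟩)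
    have hcg : ContinuousOn (fun t => ∫ s in t0..t, D a (s, y)) (Icc t0 t1) := by
      have := intervalIntegral.continuousOn_primitive_interval (μ := volume)
        (f := fun s => D a (s, y)) (a := t0) (b := t1)
        (by rw [uIcc_of_le hle]; exact h1)
      rwa [uIcc_of_le hle] at this
    have := hEq.of_subset_closure hcf hcg (fun t ht => ⟨ht.1.1.le, ht.1.2.le⟩) (by
      have hd : Dense (range ((↑) : ℚ → ℝ)) := Rat.denseRange_cast
      have h3 := hd.open_subset_closure_inter (isOpen_Ioo (a := t0) (b := t1))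
      have h4 := closure_mono h3
      rw [closure_Ioo hlt.ne, closure_closure] at h4
      exact h4)
    exact this
  intro t ht t' ht'
  have k1 := main t ht
  have k2 := main t' ht'
  have i1 : IntervalIntegrable (fun s => D a (s, y)) volume t0 t := ival h1 ht0 ht ht.1
  have i2 : IntervalIntegrable (fun s => D a (s, y)) volume t0 t' := ival h1 ht0 ht' ht'.1
  rw [← intervalIntegral.integral_interval_sub_left i2 i1]
  linarith

end Crest.Agent.R105.Prod_412
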