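import Crest.Agent.R105.Psi8_425

/-!
Row 105 (helper425): the test function of lemma A in the literal classes of `Skp2_257`.
-/

open MeasureTheory Set Filter Topology
open scoped NNReal ENNReal ContDiff

namespace Crest.Agent.R105.Psi9_425

open Psi5_425 Psi6_425 Psi7_425 Psi8_425 CF_363 MsB_425 Skp2_257 Stp_722

local notation "AC" => AbsolutelyContinuousOnInterval

variable {E G S : Set (ℝ × ℝ)} {a b c d : ℝ} {f U1 χ ψ : ℝ × ℝ → ℝ}

theorem gx_trunc {M : ℝ} (hM : 0 < M) {u : ℝ × ℝ → ℝ} {p : ℝ × ℝ} (hu : ContinuousAt u p) :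
    gx (fun q => trunc M (u q)) p = if |u p| < M then gx u p else 0 := by
  unfold gx
  rw [fderiv_trunc hM hu]
  split_ifs <;> simp

theorem gy_trunc {M : ℝ} (hM : 0 < M) {u : ℝ × ℝ → ℝ} {p : ℝ × ℝ} (hu : ContinuousAt u p) :
    gy (fun q => trunc M (u q)) p = if |u p| < M then gy u p else 0 := by
  unfold gy
  rw [fderiv_trunc hM hu]
  split_ifs <;> simp

theorem exists_trunc (hE : IsClosed E) (h : Smo E G S a b c d f U1 χ ψ)
    (hne : ∫ p in Eᶜ, gx ψ p ≠ 0) :
    ∃ M : ℝ, 0 < M ∧ ∫ p in Eᶜ, gx (fun q => trunc M (ψ q)) p ≠ 0 := by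
  have hcontE : ∀ p ∈ Eᶜ, ContinuousAt ψ p := fun p hp =>
    (h.smooth.contDiffAt (hE.isOpen_compl.mem_nhds hp)).continuousAt
  have hT : Tendsto (fun n : ℕ => ∫ p in Eᶜ, gx (fun q => trunc ((n : ℝ) + 1) (ψ q)) p) atTop
      (𝓝 (∫ p in Eᶜ, gx ψ p)) := by
    refine tendsto_integral_of_dominated_convergence (fun p => |gx ψ p|)
      (fun n => (measurable_gx _).aestronglyMeasurable) h.int.abs (fun n => ?_) ?_
    · rw [ae_restrict_iff' hE.isOpen_compl.measurableSet]
      refine Eventually.of_forall fun p hp => ?_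
      rw [gx_trunc (by positivity) (hcontE p hp), Real.norm_eq_abs]
      split_ifs
      · exact le_rfl
      · simp
    · rw [ae_restrict_iff' hE.isOpen_compl.measurableSet]
      refine Eventually.of_forall fun p hp => ?_
      refine tendsto_const_nhds.congr' ?_
      obtain ⟨N, hN⟩ := exists_nat_gt |ψ p|
      filter_upwards [eventually_ge_atTop N] with n hn
      rw [gx_trunc (by positivity) (hcontE p hp), if_pos]
      have : (N : ℝ) ≤ n := by exact_mod_cast hn
      linarith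
  have h1 := hT.eventually_ne hne
  obtain ⟨n, hn⟩ := h1.exists
  exact ⟨(n : ℝ) + 1, by positivity, hn⟩

theorem test (hE : IsCompact E) (hnull : volume E = 0) (hS : IsClosed S)
    (hSG : S ⊆ G) (h : Smo E G S a b c d f U1 χ ψ) (hχE : ∀ p ∈ E, χ p = 1)
    (hconst : ∀ P ∈ Comps E, Disjoint P S → ∀ p ∈ P, ∀ q ∈ P, f p = f q)
    (hne : ∫ p in Eᶜ, gx ψ p ≠ 0) :
    ∃ ψ' : ℝ × ℝ → ℝ, Reg E ψ' ∧ PL E G ψ' ∧
      (∀ P ∈ Comps E, Disjoint P S → OscLe Eᶜ P ψ' 0) ∧ ∫ p in Eᶜ, gx ψ' p ≠ 0 := by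
  obtain ⟨M, hM, hMne⟩ := exists_trunc hE.isClosed h hne
  set ψ' : ℝ × ℝ → ℝ := fun q => trunc M (ψ q) with hψ'
  have hcontE : ∀ p ∈ Eᶜ, ContinuousAt ψ p := fun p hp =>
    (h.smooth.contDiffAt (hE.isClosed.isOpen_compl.mem_nhds hp)).continuousAt
  have bdd : ∃ C : ℝ, ∀ p, |ψ' p| ≤ C := ⟨M, fun p => abs_trunc_le hM.le _⟩
  have hcS : ContinuousOn ψ' Sᶜ := (trunc_lipschitz M).continuous.comp_continuousOn h.cont
  have lip : LocallyLipschitzOn Eᶜ ψ' := by
    intro p hp
    obtain ⟨K, t, ht, hl⟩ := ll_of_contDiffOn hE.isClosed.isOpen_compl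
      (h.smooth.of_le (by norm_num)) hp
    exact ⟨1 * K, t, ht, (trunc_lipschitz M).comp_lipschitzOnWith hl⟩
  have fin : IntegrableOn (g2 ψ') Eᶜ := by
    refine Integrable.mono' h.fin (measurable_g2 _).aestronglyMeasurable ?_
    rw [ae_restrict_iff' hE.isClosed.isOpen_compl.measurableSet]
    refine Eventually.of_forall fun p hp => ?_
    rw [Real.norm_eq_abs, abs_of_nonneg (g2_nonneg _ _)]
    unfold g2
    rw [hψ', gx_trunc hM (hcontE p hp), gy_trunc hM (hcontE p hp)]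
    split_ifs
    · exact le_rfl
    · have := g2_nonneg ψ p
      unfold g2 at this
      simpa using this
  have hPL : PL E G ψ' := by
    refine pl_of_ac hE.isClosed hnull bdd (hcS.mono (compl_subset_compl.2 hSG)) lip fin ?_ ?_
    · filter_upwards [h.hor] with y hy a' b' hab hG'
      exact ac_lip (h := trunc M) (hy a' b' hab hG') zero_le_one (trunc_lip M)
    · filter_upwards [h.ver] with x hx a' b' hab hG'
      exact ac_lip (h := trunc M) (hx a' b' hab hG') zero_le_one (trunc_lip M)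
  refine ⟨ψ', ⟨lip, ?_, bdd, fin⟩, hPL, ?_, hMne⟩
  · exact h.cpt.comp_left (g := trunc M) (trunc_zero hM.le)
  · intro P hP hdis
    have hPE : P ⊆ E := by
      obtain ⟨q, _, rfl⟩ := hP
      exact connectedComponentIn_subset _ _
    refine oscLe_of_const (fun p hp => ?_) fun p hp q hq => ?_
    · exact hcS.continuousAt (hS.isOpen_compl.mem_nhds fun h' => (disjoint_left.1 hdis) hp h')
    · show trunc M (ψ p) = trunc M (ψ q)
      rw [h.onE p (hPE hp), h.onE q (hPE hq), hχE p (hPE hp), hχE q (hPE hq), one_mul, one_mul,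
        hconst P hP hdis p hp q hq]

end Crest.Agent.R105.Psi9_425
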