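import Crest.Agent.R105.Psi12_425
import Crest.Agent.R105.Psi9_425

/-!
Row 105 (helper425): square integrability of the glued function, the flux of `χ f`.
-/

open MeasureTheory Set Filter Topology
open scoped NNReal ENNReal ContDiff

namespace Crest.Agent.R105.Psi13_425

open Psi5_425 Psi7_425 Psi8_425 Psi_425 CF_363 Skp2_257 Mp_87 Psi10_425 Psi11_425 Psi12_425

variable {E S : Set (ℝ × ℝ)} {g : Set Hair} {a b c d Bm Bp : ℝ} {X1 X2 Y1 Y2 : ℝ × ℝ → ℝ}
  {μ ν : Measure (ℝ × ℝ)} {fl fu : ℝ × ℝ → ℝ}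

/-- Cauchy-Schwarz for a finite measure -/
theorem sq_integral_le {β : Measure ℝ} [IsFiniteMeasure β] {u : ℝ → ℝ} (hu : Integrable u β)
    (hu2 : Integrable (fun t => u t ^ 2) β) :
    (∫ t, |u t| ∂β) ^ 2 ≤ β.real univ * ∫ t, u t ^ 2 ∂β := by
  set k := ∫ t, |u t| ∂β with hk
  set M := β.real univ with hM
  have hM0 : 0 ≤ M := measureReal_nonneg
  have h1 : 0 ≤ ∫ t, (M * |u t| - k) ^ 2 ∂β := integral_nonneg fun t => sq_nonneg _
  have i1 : Integrable (fun t => 2 * M * k * |u t|) β := (Integrable.abs hu).const_mul _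
  have i0 : Integrable (fun t => M ^ 2 * u t ^ 2) β := hu2.const_mul _
  have i2 : Integrable (fun t => M ^ 2 * u t ^ 2 - 2 * M * k * |u t|) β := i0.sub i1
  have h2 : ∫ t, (M * |u t| - k) ^ 2 ∂β =
      M ^ 2 * (∫ t, u t ^ 2 ∂β) - 2 * M * k * k + M * k ^ 2 := by
    have e1 : ∀ t, (M * |u t| - k) ^ 2 =
        M ^ 2 * u t ^ 2 - 2 * M * k * |u t| + k ^ 2 := by
      intro t; rw [sub_sq, mul_pow, sq_abs]; ring
    simp_rw [e1]
    rw [integral_add i2 (integrable_const _), integral_sub i0 i1, integral_const_mul,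
      integral_const_mul, integral_const, smul_eq_mul, ← hk]
  rw [h2] at h1
  rcases eq_or_lt_of_le hM0 with h3 | h3
  · have h4 : β = 0 := by
      rw [← Measure.measure_univ_eq_zero]
      have h5 : (β univ).toReal = 0 := h3.symm
      rcases (ENNReal.toReal_eq_zero_iff _).1 h5 with h6 | h6
      · exact h6
      · exact absurd h6 (measure_ne_top _ _)
    rw [hk, h4]; simp
  · have h4 : 0 ≤ M * (M * (∫ t, u t ^ 2 ∂β) - k ^ 2) := by
      have : M * (M * (∫ t, u t ^ 2 ∂β) - k ^ 2) =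
        M ^ 2 * (∫ t, u t ^ 2 ∂β) - 2 * M * k * k + M * k ^ 2 := by ring
      rw [this]; exact h1
    have h5 := nonneg_of_mul_nonneg_right h4 h3
    linarith

theorem memLp_prod {α β : Measure ℝ} [IsFiniteMeasure α] [IsFiniteMeasure β] {m : ℝ}
    {F U : ℝ × ℝ → ℝ} (hU : MemLp U 2 (α.prod β)) (hF : AEStronglyMeasurable F (α.prod β))
    (hb : ∀ᵐ p ∂(α.prod β), |F p| ≤ m + ∫ t, |U (p.1, t)| ∂β) : MemLp F 2 (α.prod β) := by
  have hUi : Integrable U (α.prod β) := hU.integrable (by norm_num)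
  have hUa : Integrable (fun p => |U p|) (α.prod β) := hUi.abs
  have hU2 : Integrable (fun p => U p ^ 2) (α.prod β) := hU.integrable_sq
  have hkm : AEStronglyMeasurable (fun x => ∫ t, |U (x, t)| ∂β) α := hUa.1.integral_prod_right'
  have hk2 : Integrable (fun x => (∫ t, |U (x, t)| ∂β) ^ 2) α := by
    refine Integrable.mono' (hU2.integral_prod_left.const_mul (β.real univ)) (hkm.pow 2) ?_
    filter_upwards [hU2.prod_right_ae, hUi.prod_right_ae] with x h2 h3
    rw [Real.norm_eq_abs, abs_of_nonneg (sq_nonneg _)]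
    exact sq_integral_le h3 h2
  have hkL : MemLp (fun x => ∫ t, |U (x, t)| ∂β) 2 α := (memLp_two_iff_integrable_sq hkm).2 hk2
  have hmk : MemLp (fun x => |m| + ∫ t, |U (x, t)| ∂β) 2 α := (memLp_const |m|).add hkL
  refine MemLp.mono (hmk.comp_fst β) hF ?_
  filter_upwards [hb] with p hp
  have hk0 : 0 ≤ ∫ t, |U (p.1, t)| ∂β := integral_nonneg fun t => abs_nonneg _
  rw [Real.norm_eq_abs, Real.norm_eq_abs, abs_of_nonneg (add_nonneg (abs_nonneg m) hk0)]
  have := le_abs_self m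
  linarith

theorem abs_ii_le' {u : ℝ → ℝ} {c d y y' : ℝ} (hy : y ∈ Ioo c d) (hy' : y' ∈ Ioo c d)
    (hu : IntegrableOn u (Ioo c d)) : |∫ t in y..y', u t| ≤ ∫ t in Ioo c d, |u t| := by
  have h1 : |∫ t in y..y', u t| ≤ ∫ t in uIoc y y', |u t| := by
    have := intervalIntegral.norm_integral_le_integral_norm_uIoc (f := u) (a := y) (b := y')
      (μ := volume)
    simpa [Real.norm_eq_abs] using this
  refine h1.trans ?_
  refine setIntegral_mono_set (Integrable.abs hu) (Eventually.of_forall fun t => abs_nonneg _)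
    (LE.le.eventuallyLE ?_)
  intro t ht
  rw [mem_uIoc] at ht
  rcases ht with h | h
  · exact ⟨hy.1.trans h.1, lt_of_le_of_lt h.2 hy'.2⟩
  · exact ⟨hy'.1.trans h.1, lt_of_le_of_lt h.2 hy.2⟩

theorem memLp_rect {a b c d m : ℝ} {F U : ℝ × ℝ → ℝ}
    (hU : MemLp U 2 (volume : Measure (ℝ × ℝ)))
    (hF : AEStronglyMeasurable F (volume.restrict (Ioo a b ×ˢ Ioo c d)))
    {e : ℝ} (he : e ∈ Ioo c d)
    (hb : ∀ᵐ x, x ∈ Ioo a b → ∀ y, c < y → y < d → |F (x, y)| ≤ m + |∫ t in e..y, U (x, t)|) :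
    MemLp F 2 (volume.restrict (Ioo a b ×ˢ Ioo c d)) := by
  have hfin1 : IsFiniteMeasure ((volume : Measure ℝ).restrict (Ioo a b)) :=
    ⟨by rw [Measure.restrict_apply_univ, Real.volume_Ioo]; exact ENNReal.ofReal_lt_top⟩
  have hfin2 : IsFiniteMeasure ((volume : Measure ℝ).restrict (Ioo c d)) :=
    ⟨by rw [Measure.restrict_apply_univ, Real.volume_Ioo]; exact ENNReal.ofReal_lt_top⟩
  have hprod : (volume : Measure (ℝ × ℝ)).restrict (Ioo a b ×ˢ Ioo c d) =
      ((volume : Measure ℝ).restrict (Ioo a b)).prod ((volume : Measure ℝ).restrict (Ioo c d)) := by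
    rw [Measure.prod_restrict, Measure.volume_eq_prod]
  have hUr : MemLp U 2 (((volume : Measure ℝ).restrict (Ioo a b)).prod
      ((volume : Measure ℝ).restrict (Ioo c d))) := by
    rw [← hprod]; exact hU.restrict _
  have hUi : Integrable U (((volume : Measure ℝ).restrict (Ioo a b)).prod
      ((volume : Measure ℝ).restrict (Ioo c d))) := hUr.integrable (by norm_num)
  rw [hprod] at hF ⊢
  refine memLp_prod (m := m) hUr hF ?_
  have h5 : ∀ᵐ p ∂(((volume : Measure ℝ).restrict (Ioo a b)).prod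
      ((volume : Measure ℝ).restrict (Ioo c d))), p.1 ∈ Ioo a b ∧ p.2 ∈ Ioo c d := by
    rw [← hprod]
    exact ae_restrict_mem (measurableSet_Ioo.prod measurableSet_Ioo)
  have h6' : ∀ᵐ x ∂((volume : Measure ℝ).restrict (Ioo a b)),
      ∀ y, c < y → y < d → |F (x, y)| ≤ m + |∫ t in e..y, U (x, t)| := by
    rw [ae_restrict_iff' measurableSet_Ioo]; exact hb
  have h6 := (Measure.quasiMeasurePreserving_fst (μ := (volume : Measure ℝ).restrict (Ioo a b))
    (ν := (volume : Measure ℝ).restrict (Ioo c d))).ae h6'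
  have h7 := (Measure.quasiMeasurePreserving_fst (μ := (volume : Measure ℝ).restrict (Ioo a b))
    (ν := (volume : Measure ℝ).restrict (Ioo c d))).ae hUi.prod_right_ae
  filter_upwards [h5, h6, h7] with p hp h8 h9
  have h10 : |F p| ≤ m + |∫ t in e..p.2, U (p.1, t)| := h8 p.2 hp.2.1 hp.2.2
  have h11 : |∫ t in e..p.2, U (p.1, t)| ≤ ∫ t in Ioo c d, |U (p.1, t)| :=
    abs_ii_le' he hp.2 h9
  exact h10.trans (add_le_add le_rfl h11)

variable (H : Two E S g a b c d Bm Bp X1 X2 Y1 Y2 μ ν fl fu)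
include H

theorem Two.memLp : MemLp (glue Bm Bp fl fu) 2 (volume.restrict (Ioo a b ×ˢ Ioo c d)) := by
  have hlt := H.lt
  have := H.finμ
  have h1 := H.cB
  have h2 := H.Bd
  refine memLp_rect (m := (μ univ).toReal) H.mV2 ?_
    (e := (Bm + Bp) / 2) ⟨by linarith, by linarith⟩ ?_
  · have hm : MeasurableSet ((Ioo a b ×ˢ Ioo c d) \ S) :=
      (measurableSet_Ioo.prod measurableSet_Ioo).diff H.cS.measurableSet
    have h3 := H.cont.aestronglyMeasurable (μ := (volume : Measure (ℝ × ℝ))) hm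
    have hS0 : volume S = 0 := measure_mono_null (H.SG.trans (un_sub H.sub)) H.null
    have h4 : (volume : Measure (ℝ × ℝ)).restrict ((Ioo a b ×ˢ Ioo c d) \ S) =
        volume.restrict (Ioo a b ×ˢ Ioo c d) :=
      Measure.restrict_congr_set (sdiff_null_ae_eq_self hS0)
    rwa [h4] at h3
  · filter_upwards [H.ver'] with x hx hxab y hy hyd
    rw [hx hxab y hy hyd]
    refine (abs_add_le _ _).trans ?_
    gcongr
    unfold lam
    rw [abs_neg, abs_of_nonneg ENNReal.toReal_nonneg]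
    exact ENNReal.toReal_mono (measure_ne_top _ _) (measure_mono (subset_univ _))

theorem Two.str : Str (un g) S a b c d (glue Bm Bp fl fu) (V1 X2 Y2) (V2 X1 Y1) where
  cont := H.cont
  L2 := Two.memLp H
  L2x := H.mV1
  L2y := H.mV2
  hor := H.hor
  ver := H.ver

omit H in
theorem tsupport_rf {χ : ℝ × ℝ → ℝ} (h : HasCompactSupport χ) :
    HasCompactSupport (fun p => χ (rf p)) ∧ tsupport (fun p => χ (rf p)) ⊆ rf ⁻¹' tsupport χ := by
  have h1 : tsupport (fun p => χ (rf p)) ⊆ rf ⁻¹' tsupport χ :=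
    closure_minimal (fun p hp => subset_tsupport χ hp)
      ((isClosed_tsupport χ).preimage continuous_rf)
  refine ⟨?_, h1⟩
  refine HasCompactSupport.of_support_subset_isCompact (K := rf '' tsupport χ)
    (h.isCompact.image continuous_rf) fun p hp => ⟨rf p, subset_tsupport χ hp, rf_rf p⟩

theorem Two.line {χ : ℝ × ℝ → ℝ} (hχ : ContDiff ℝ 1 χ) (hχc : HasCompactSupport χ)
    (hχs : tsupport χ ⊆ Ioo a b ×ˢ Ioo c d) (hχG : ∀ p ∈ un g, χ p = 1) :
    ∀ᵐ y, y ∈ Ioo c d →
      ∫ x, (gx χ (x, y) * glue Bm Bp fl fu (x, y) + χ (x, y) * V1 X2 Y2 (x, y)) =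
        if y < (Bm + Bp) / 2 then (μ {q | q.2 < y}).toReal else (ν {q | q.2 < -y}).toReal := by
  have hlt := H.lt
  have h1 := H.lo.flux χ hχ hχc (hχs.trans (prod_mono Subset.rfl (subset_univ _))) hχG
  obtain ⟨hc', hs'⟩ := tsupport_rf hχc
  have h2 := H.up.flux (fun p => χ (rf p)) (hχ.comp (by unfold rf; fun_prop)) hc'
    (hs'.trans fun p hp => ⟨(hχs hp).1, trivial⟩) (fun p hp => hχG (rf p) (by
      rw [Kin_238.un_reflH] at hp; exact hp))
  filter_upwards [h1, ae_neg h2] with y h3 h4 hy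
  split_ifs with hm
  · rw [← h3 hy.1 (by linarith)]
    congr 1; funext x
    have e1 : glue Bm Bp fl fu (x, y) = fl (x, y) := if_pos hm
    rw [e1]
    show _ + χ (x, y) * (-X2 (x, y) - Y2 (rf (x, y))) = _
    rw [H.zY2 (rf (x, y)) (by show -Bp ≤ -y; linarith)]
    ring
  · rw [← h4 (by linarith [hy.2]) (by linarith)]
    congr 1; funext x
    have e1 : glue Bm Bp fl fu (x, y) = fu (x, -y) := if_neg hm
    have e2 : gx (fun p => χ (rf p)) (x, -y) = gx χ (x, y) := by
      rw [gx_rf]; simp [rf]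
    have e3 : rf (x, -y) = (x, y) := by simp [rf]
    rw [e1, e2, e3]
    show _ + χ (x, y) * (-X2 (x, y) - Y2 (rf (x, y))) = _
    rw [H.zX2 (x, y) (by show Bm ≤ y; linarith)]
    have e4 : rf (x, y) = (x, -y) := rfl
    rw [e4]
    ring

theorem Two.value {χ : ℝ × ℝ → ℝ} (hχ : ContDiff ℝ 1 χ) (hχc : HasCompactSupport χ)
    (hχs : tsupport χ ⊆ Ioo a b ×ˢ Ioo c d) (hχG : ∀ p ∈ un g, χ p = 1) :
    0 < ∫ p in Ioo a b ×ˢ Ioo c d, (gx χ p * glue Bm Bp fl fu p + χ p * V1 X2 Y2 p) := by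
  have hlt := H.lt
  have hcB := H.cB
  have hBd := H.Bd
  have hfμ := H.finμ
  have hχgx : Continuous (gx χ) := continuous_gx hχ
  have hχgxc : HasCompactSupport (gx χ) := hχc.fderiv_apply (𝕜 := ℝ) ((1:ℝ), (0:ℝ))
  set R : Set (ℝ × ℝ) := Ioo a b ×ˢ Ioo c d with hR
  have hRm : MeasurableSet R := measurableSet_Ioo.prod measurableSet_Ioo
  have hfinR : IsFiniteMeasure ((volume : Measure (ℝ × ℝ)).restrict R) :=
    ⟨by rw [Measure.restrict_apply_univ]; exact lt_top_iff_ne_top.mpr (volume_rect a b c d)⟩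
  set Q : ℝ × ℝ → ℝ := fun p => gx χ p * glue Bm Bp fl fu p + χ p * V1 X2 Y2 p with hQ
  have hQi : IntegrableOn Q R := by
    have h1 := (memLp_mul_bdd (Two.memLp H) hχgx hχgxc).integrable (by norm_num)
    have h2 := (memLp_mul_bdd (H.mV1.restrict R) hχ.continuous hχc).integrable (by norm_num)
    exact h1.add h2
  have hQ0 : ∀ p ∉ R, Q p = 0 := by
    intro p hp
    have h1 : χ p = 0 := image_eq_zero_of_notMem_tsupport fun h => hp (hχs h)
    have h2 : gx χ p = 0 := image_eq_zero_of_notMem_tsupport fun h => hp (hχs (tsupport_gx h))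
    rw [hQ]; simp only
    rw [h1, h2]; ring
  have hQR : R.indicator Q = Q := by
    rw [indicator_eq_self]
    intro p hp
    by_contra hcon
    exact hp (hQ0 p hcon)
  have hQi2 : Integrable Q ((volume : Measure ℝ).prod (volume : Measure ℝ)) := by
    rw [← Measure.volume_eq_prod, ← hQR, integrable_indicator_iff hRm]
    exact hQi
  rw [← integral_indicator hRm, hQR, Measure.volume_eq_prod, integral_prod_symm _ hQi2]
  have hline := Two.line H hχ hχc hχs hχG
  set bb : ℝ → ℝ := fun y => ∫ x, Q (x, y) with hbb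
  have hbi : Integrable bb volume := hQi2.integral_prod_right
  have hb0 : ∀ y, y ∉ Ioo c d → bb y = 0 := by
    intro y hy
    rw [hbb]; simp only
    rw [← integral_zero ℝ ℝ (μ := volume)]
    congr 1; funext x
    exact hQ0 (x, y) fun h => hy h.2
  have hbnn : ∀ᵐ y, 0 ≤ bb y := by
    filter_upwards [hline] with y hy
    by_cases hy' : y ∈ Ioo c d
    · have e1 : bb y = _ := hy hy'
      rw [e1]
      split_ifs <;> exact ENNReal.toReal_nonneg
    · rw [hb0 y hy']
  have hbm : ∀ᵐ y, y ∈ Ioo Bm ((Bm + Bp) / 2) → bb y = (μ univ).toReal := by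
    filter_upwards [hline] with y hy hy'
    have e1 : bb y = _ := hy ⟨by linarith [hy'.1], by linarith [hy'.2]⟩
    rw [e1, if_pos hy'.2]
    congr 1
    refine measure_congr ?_
    rw [eventuallyEq_set]
    filter_upwards [H.carμ] with q hq
    exact ⟨fun _ => trivial, fun _ => lt_of_le_of_lt hq hy'.1⟩
  have h1 : ∫ y in Ioo Bm ((Bm + Bp) / 2), bb y ≤ ∫ y, bb y :=
    setIntegral_le_integral hbi hbnn
  have h2 : ∫ y in Ioo Bm ((Bm + Bp) / 2), bb y =
      ∫ y in Ioo Bm ((Bm + Bp) / 2), (μ univ).toReal := by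
    refine setIntegral_congr_ae measurableSet_Ioo ?_
    filter_upwards [hbm] with y hy hy' using hy hy'
  rw [h2, setIntegral_const, Measure.real, Real.volume_Ioo,
    ENNReal.toReal_ofReal (by linarith), smul_eq_mul] at h1
  have h3 : 0 < ((Bm + Bp) / 2 - Bm) * (μ univ).toReal :=
    mul_pos (by linarith) H.pos
  exact lt_of_lt_of_le h3 h1

end Crest.Agent.R105.Psi13_425
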