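import Crest.Agent.R105.Str5_421
import Crest.Agent.R105.Kin7_238
import Crest.Agent.R105.Mp8_87

/-!
Row 105, lemma A: the stream function on a rectangle (helper421).
Part 6: `Appr` of 87 from `Half` of 238.
-/

open MeasureTheory Set Filter Topology
open Crest.Agent.R105.CF_363 (CF CFJ SL Hair cut gx gy ramp)
open Crest.Agent.R105.Mp_87 (lam Lines Appr)
open Crest.Agent.R105.Kin_238 (Wl Wo Vl lowSet Half)

namespace Crest.Agent.R105.Str_421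

variable {a b c B : ℝ} {𝓗 g : Set Hair} {X1 X2 : ℝ × ℝ → ℝ} {μ : Measure (ℝ × ℝ)}

theorem appr_half (hab : a < b) (hcB : c < B) (hg : g ⊆ 𝓗)
    (G : Crest.Agent.R105.Kin_238.GG a b c B g) (h : Half 𝓗 a b c B g X1 X2 μ)
    (hdis : ∀ K ∈ 𝓗, ∀ K' ∈ 𝓗, ∀ p, p ∈ K.car → p ∈ K'.car → K = K')
    (hBt : ∀ K ∈ g, B < K.t) :
    ∃ κ : Hair → ℝ, (∀ K ∈ 𝓗, K.x ∈ Ioo a b → μ {q | q.1 = K.x ∧ q.2 < K.t} = 0 →
        (∀ᵐ y, c < y → y ∈ Ioo K.b K.t → Psi a b X1 X2 μ (K.x, y) = κ K) ∧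
          (B ≤ K.t → κ K = -lam μ K.x)) ∧
      ∃ (J : ℕ → Finset Hair) (z : ℕ → ℝ × ℝ → ℝ), (∀ n, ∀ K ∈ J n, K ∈ 𝓗) ∧
        Appr a b c B 1 X1 X2 μ (Psi a b X1 X2 μ) J z κ := by
  classical
  have hT : ∀ K : Hair, ∃ κ : ℝ, K ∈ 𝓗 → K.x ∈ Ioo a b → μ {q | q.1 = K.x ∧ q.2 < K.t} = 0 →
      (∀ᵐ y, c < y → y ∈ Ioo K.b K.t → Psi a b X1 X2 μ (K.x, y) = κ) ∧
        (B ≤ K.t → κ = -lam μ K.x) := by
    intro K
    by_cases hK : K ∈ 𝓗 ∧ K.x ∈ Ioo a b ∧ μ {q | q.1 = K.x ∧ q.2 < K.t} = 0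
    · obtain ⟨κ, hκ⟩ := T_half hab hcB hg G h hdis hBt hK.1 hK.2.1.1 hK.2.1.2 hK.2.2
      exact ⟨κ, fun _ _ _ => hκ⟩
    · exact ⟨0, fun h1 h2 h3 => absurd ⟨h1, h2, h3⟩ hK⟩
  choose κ hκ using hT
  obtain ⟨J, z, hzV, hJ, hzCF, hzSL, hc1, hc2⟩ := h.exists_seq
  refine ⟨κ, hκ, J, z, hJ, ?_⟩
  exact
    { mX1 := h.m1
      mX2 := h.m2
      X1B := fun p hp => h.z1 p (fun hh => absurd hh.2.2 (not_lt.mpr hp))
      X2B := fun p hp => h.z2 p (fun hh => absurd hh.2.2 (not_lt.mpr hp))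
      disj := by
        intro n K hK K' hK' hne
        rw [Set.disjoint_left]
        intro p hp hp'
        exact hne (hdis K (hJ n K hK) K' (hJ n K' hK') p hp hp')
      sl := hzSL
      c1 := hc1
      c2 := hc2
      T := by
        intro n K hK hx hμ
        obtain ⟨k1, k2⟩ := hκ K (hJ n K hK) hx hμ
        exact ⟨k1, fun hB => by rw [k2 hB]; ring⟩ }

end Crest.Agent.R105.Str_421
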