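import Crest.Agent.R105.Psi13_425
import Crest.Agent.R105.Str6_421
import Crest.Agent.R105.NulN2_421

/-!
Row 105 (helper425): **lemma A** (`Skp2_257.LEMA`).
-/

open MeasureTheory Set Filter Topology
open scoped NNReal ENNReal ContDiff

namespace Crest.Agent.R105.Psi14_425

open Psi8_425 CF_363 Skp2_257 Mp_87 Psi10_425 Psi11_425 Psi12_425 Psi13_425 Kin_238

variable {E S : Set (ℝ × ℝ)} {g : Set Hair} {a b c d Bm Bp m : ℝ} {X1 X2 Y1 Y2 : ℝ × ℝ → ℝ}
  {μ ν : Measure (ℝ × ℝ)}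

theorem hBt (hg : Fam E g Bm Bp) : ∀ K ∈ g, Bm < K.t := fun K hK =>
  lt_of_lt_of_le hg.lt (hg.crs K hK).2

theorem exists_two (hE : Pic E) (hg : Fam E g Bm Bp) (hab : a < b) (hcB : c < Bm) (hBd : Bp < d)
    (hbox : E ⊆ Ioo a b ×ˢ Ioo c d) (hm : 0 < m)
    (F : Flow (hairs E) a b c Bm (-d) (-Bp) g m X1 X2 μ Y1 Y2 ν)
    (sing : (S = ∅ ∧ ∀ x, μ {q | q.1 = x} = 0) ∨ (∃ K₀, g = {K₀} ∧ S = K₀.car)) :
    ∃ fl fu, Two E S g a b c d Bm Bp X1 X2 Y1 Y2 μ ν fl fu := by
  have hfμ : IsFiniteMeasure μ := F.lo.fin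
  have hfν : IsFiniteMeasure ν := F.up.fin
  have hlt := hg.lt
  -- lower half
  have G := gg_lo hE.cpt hg hbox
  have L := Str_421.lines_half hab hcB hg.sub G F.lo
  obtain ⟨κ, hκ, J, z, hJ, A⟩ := Str_421.appr_half hab hcB hg.sub G F.lo
    (fun K hK K' hK' p hp hp' => eq_of_mem hK hK' hp hp') (hBt hg)
  have hcar : ∀ᵐ q ∂μ, ∃ K ∈ g, q ∈ K.car ∧ q.2 ≤ Bm := by
    have h1 : ∀ᵐ q ∂μ, q ∈ lowSet g Bm := by rw [ae_iff]; exact F.lo.carried
    filter_upwards [h1] with q hq using hq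
  have C : Ctx E g S a b c Bm Bp μ :=
    { cE := hE.cpt
      box := fun p hp => ⟨(hbox hp).1.1, (hbox hp).1.2, (hbox hp).2.1⟩
      ab := hab
      cB := hcB
      BT := hg.lt
      crs := hg.crs
      sub := hg.sub
      carried := hcar
      sing := sing }
  have hTT : TT E c Bm (Str_421.Psi a b X1 X2 μ) μ := by
    intro K hK hμK
    have hb := hbox (car_sub hK (bot_mem K))
    exact ⟨κ K, hκ K hK hb.1 hμK⟩
  obtain ⟨fl, hfl⟩ := exists_hf C L A hJ hTT
  -- upper half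
  have G' := gg_up hE.cpt hg hbox
  have hsub' : reflH g ⊆ reflH (hairs E) := fun K hK => hg.sub hK
  have hH : hairs (rf ⁻¹' E) = reflH (hairs E) := hairs_rf E
  have L' := Str_421.lines_half hab (by linarith : -d < -Bp) hsub' G' F.up
  obtain ⟨κ', hκ', J', z', hJ', A'⟩ := Str_421.appr_half hab (by linarith : -d < -Bp) hsub' G' F.up
    (fun K hK K' hK' p hp hp' => eq_of_mem (E := rf ⁻¹' E) (by rw [hH]; exact hK)
      (by rw [hH]; exact hK') hp hp') (fun K hK => by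
      have := (hg.crs K.refl hK).1
      simp only [Hair.refl_b] at this
      linarith)
  have hcar' : ∀ᵐ q ∂ν, ∃ K ∈ reflH g, q ∈ K.car ∧ q.2 ≤ -Bp := by
    have h1 : ∀ᵐ q ∂ν, q ∈ lowSet (reflH g) (-Bp) := by rw [ae_iff]; exact F.up.carried
    filter_upwards [h1] with q hq using hq
  have C' : Ctx (rf ⁻¹' E) (reflH g) (rf ⁻¹' S) a b (-d) (-Bp) (-Bm) ν :=
    { cE := by
        rw [← rf_image_eq_preimage]
        exact hE.cpt.image continuous_rf
      box := fun p hp => by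
        have := hbox hp
        simp only [mem_prod, mem_Ioo, rf_fst, rf_snd] at this
        exact ⟨this.1.1, this.1.2, by linarith [this.2.2]⟩
      ab := hab
      cB := by linarith
      BT := by linarith
      crs := fun K hK => by
        have := hg.crs K.refl hK
        simp only [Hair.refl_b, Hair.refl_t] at this
        exact ⟨by linarith [this.2], by linarith [this.1]⟩
      sub := by rw [hH]; exact hsub'
      carried := hcar'
      sing := by
        rcases sing with ⟨h1, h2⟩ | ⟨K₀, h1, h2⟩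
        · left
          refine ⟨by rw [h1]; rfl, fun x => ?_⟩
          have := F.marg {x} (measurableSet_singleton x)
          simp only [mem_singleton_iff] at this
          rw [← this]; exact h2 x
        · right
          refine ⟨K₀.refl, ?_, by rw [h2, Hair.car_refl]⟩
          ext K
          rw [h1]
          show K.refl ∈ ({K₀} : Set Hair) ↔ K ∈ ({K₀.refl} : Set Hair)
          rw [mem_singleton_iff, mem_singleton_iff]
          constructor
          · intro h; rw [← h, Hair.refl_refl]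
          · intro h; rw [h, Hair.refl_refl] }
  have hTT' : TT (rf ⁻¹' E) (-d) (-Bp) (Str_421.Psi a b Y1 Y2 ν) ν := by
    intro K hK hμK
    have hb := C'.box _ (car_sub hK (bot_mem K))
    exact ⟨κ' K, hκ' K (by rw [← hH]; exact hK) ⟨hb.1, hb.2.1⟩ hμK⟩
  obtain ⟨fu, hfu⟩ := exists_hf C' L' A' (fun n K hK => by rw [hH]; exact hJ' n K hK) hTT'
  refine ⟨fl, fu, ?_⟩
  exact
    { cE := hE.cpt
      null := hE.null
      box := hbox
      ab := hab
      cB := hcB
      lt := hg.lt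
      Bd := hBd
      SG := C.SG
      cS := C.closedS
      sub := hg.sub
      cG := hg.cpt.isClosed
      finμ := hfμ
      finν := hfν
      L1 := F.lo.L1
      L2 := F.lo.L2
      M1 := F.up.L1
      M2 := F.up.L2
      zX1 := fun p hp => F.lo.z1 p fun h => absurd h.2.2 (not_lt.2 hp)
      zX2 := fun p hp => F.lo.z2 p fun h => absurd h.2.2 (not_lt.2 hp)
      zY1 := fun p hp => F.up.z1 p fun h => absurd h.2.2 (not_lt.2 hp)
      zY2 := fun p hp => F.up.z2 p fun h => absurd h.2.2 (not_lt.2 hp)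
      carμ := by filter_upwards [hcar] with q hq; obtain ⟨K, _, _, h⟩ := hq; exact h
      pos := by
        have := F.mass
        rw [Measure.real] at this
        rw [this]; exact hm
      lo := hfl
      up := hfu
      marg := fun x => by
        have := F.marg (Iio x) measurableSet_Iio
        simp only [mem_Iio] at this
        unfold lam
        rw [this] }

theorem contra (hE : Pic E) (hg : Fam E g Bm Bp) (hEL : ELg E g) (hab : a < b) (hcB : c < Bm)
    (hBd : Bp < d) (hbox : E ⊆ Ioo a b ×ˢ Ioo c d) (hm : 0 < m)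
    (F : Flow (hairs E) a b c Bm (-d) (-Bp) g m X1 X2 μ Y1 Y2 ν)
    (sing : (S = ∅ ∧ ∀ x, μ {q | q.1 = x} = 0) ∨ (∃ K₀, g = {K₀} ∧ S = K₀.car)) : False := by
  obtain ⟨fl, fu, H⟩ := exists_two hE hg hab hcB hBd hbox hm F sing
  have hRo : IsOpen (Ioo a b ×ˢ Ioo c d : Set (ℝ × ℝ)) := isOpen_Ioo.prod isOpen_Ioo
  -- the cut-off
  obtain ⟨Lc, hLc, hEL1, hLR⟩ := exists_compact_between hE.cpt hRo hbox
  obtain ⟨χ, hχ, hχ1, hχ0, -⟩ := MsB_425.cutoff hE.cpt.isClosed hEL1
  have hχs : tsupport χ ⊆ Lc := by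
    refine closure_minimal (fun p hp => ?_) hLc.isClosed
    by_contra hcon
    exact hp (hχ0 p hcon)
  have hχc : HasCompactSupport χ := hLc.of_isClosed_subset (isClosed_tsupport χ) hχs
  have hχE : ∀ p ∈ E, χ p = 1 := fun p hp =>
    ((eventually_nhdsSet_iff_forall.1 hχ1) p hp).self_of_nhds
  have hGE : un g ⊆ E := un_sub hg.sub
  obtain ⟨ψ, hψ⟩ := core hE.cpt.isClosed hE.null H.cG H.cS H.SG hGE (Two.str H) hχ hχc
    (hχs.trans hLR)
  have hval := Two.value H (hχ.of_le (by norm_num)) hχc (hχs.trans hLR)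
    (fun p hp => hχE p (hGE hp))
  rw [← hψ.val] at hval
  obtain ⟨ψ', hreg, hPL, hosc, hne⟩ := Psi9_425.test hE.cpt hE.null H.cS H.SG hψ hχE
    (Two.const H hE) hval.ne'
  refine hne (hEL ψ' ?_ hPL)
  rcases sing with ⟨h1, -⟩ | ⟨K₀, h1, h2⟩
  · left
    refine ⟨hreg, fun P hP => hosc P hP ?_⟩
    rw [h1]; exact disjoint_empty P
  · right
    refine ⟨hreg, K₀, hg.sub (by rw [h1]; rfl), fun P hP hne' => hosc P hP ?_⟩
    rw [h2, Set.disjoint_left]
    intro p hp hp'
    obtain ⟨q, _, rfl⟩ := hP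
    have hK₀ : K₀ ∈ hairs E := hg.sub (by rw [h1]; rfl)
    obtain ⟨q', _, hq'⟩ := hK₀
    rw [hq'] at hp' hne'
    exact hne' (by rw [connectedComponentIn_eq hp, connectedComponentIn_eq hp'])

theorem null_single (hE : Pic E) (hEL : ∀ g Bm Bp, Fam E g Bm Bp → ELg E g) {K : Hair}
    (hg : Fam E {K} Bm Bp) (hab : a < b) (hcB : c < Bm) (hBd : Bp < d)
    (hbox : E ⊆ Ioo a b ×ˢ Ioo c d) : Null (hairs E) a b c Bm (-d) (-Bp) {K} := by
  by_contra hnot
  obtain ⟨m, X1, X2, μ, Y1, Y2, ν, hm, F, -⟩ := exists_flow_fam hE.cpt hg hbox hnot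
  exact contra hE hg (hEL _ _ _ hg) hab hcB hBd hbox hm F (Or.inr ⟨K, rfl, rfl⟩)

theorem null_fam (hE : Pic E) (hEL : ∀ g Bm Bp, Fam E g Bm Bp → ELg E g)
    (hg : Fam E g Bm Bp) (hab : a < b) (hcB : c < Bm) (hBd : Bp < d)
    (hbox : E ⊆ Ioo a b ×ˢ Ioo c d) : Null (hairs E) a b c Bm (-d) (-Bp) g := by
  by_contra hnot
  obtain ⟨m, X1, X2, μ, Y1, Y2, ν, hm, F, hat⟩ := exists_flow_fam hE.cpt hg hbox hnot
  refine contra (S := ∅) hE hg (hEL _ _ _ hg) hab hcB hBd hbox hm F (Or.inl ⟨rfl, fun x => ?_⟩)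
  by_cases hx : ∃ K ∈ g, K.x = x
  · obtain ⟨K, hK, rfl⟩ := hx
    exact hat K hK (null_single hE hEL (Kin_238.fam_singleton hg hK) hab hcB hBd hbox)
  · rw [measure_eq_zero_iff_ae_notMem]
    have h1 : ∀ᵐ q ∂μ, q ∈ lowSet g Bm := by rw [ae_iff]; exact F.lo.carried
    filter_upwards [h1] with q hq hqx
    obtain ⟨K, hK, hqK, -⟩ := hq
    exact hx ⟨K, hK, (Hair.mem_car.1 hqK).1.symm.trans hqx⟩

/-- **LEMA** -/
theorem lema : LEMA := by
  intro E hE hEL g Bm Bp hg
  obtain ⟨a, b, c, d, hab, hcB, hBd, hbox⟩ := exists_box hE.cpt Bm Bp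
  exact NulN_421.nullN_of_null hE hg hcB hBd hbox (null_fam hE hEL hg hab hcB hBd hbox)

end Crest.Agent.R105.Psi14_425
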