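import Crest.Agent.R105.Sq1_363

/-!
Row 105, lemma A, analytic half: continuous representatives from small essential oscillation.
-/

open MeasureTheory Set Filter Topology
open scoped ENNReal NNReal

namespace Crest.Agent.R105.Psi_425

open Sq_363

/-- the essential oscillation of `ψ` on `O ∩ A` is at most `ε` -/
def EOsc (A O : Set (ℝ × ℝ)) (ψ : ℝ × ℝ → ℝ) (ε : ℝ) : Prop :=
  ∃ N : Set (ℝ × ℝ), volume N = 0 ∧ ∀ z ∈ (O ∩ A) \ N, ∀ z' ∈ (O ∩ A) \ N, |ψ z - ψ z'| ≤ ε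

theorem EOsc.mono {A O A' O' : Set (ℝ × ℝ)} {ψ : ℝ × ℝ → ℝ} {ε ε' : ℝ} (h : EOsc A O ψ ε)
    (hA : A' ⊆ A) (hO : O' ⊆ O) (hε : ε ≤ ε') : EOsc A' O' ψ ε' := by
  obtain ⟨N, hN, h⟩ := h
  refine ⟨N, hN, fun z hz z' hz' => (h z ?_ z' ?_).trans hε⟩
  · exact ⟨⟨hO hz.1.1, hA hz.1.2⟩, hz.2⟩
  · exact ⟨⟨hO hz'.1.1, hA hz'.1.2⟩, hz'.2⟩

/-- essential oscillation from essential bounds -/
theorem eosc_of_bounds {A O : Set (ℝ × ℝ)} {ψ : ℝ × ℝ → ℝ} {m M ε : ℝ}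
    (h : ∀ᵐ z ∂(volume : Measure (ℝ × ℝ)), z ∈ O ∩ A → m ≤ ψ z ∧ ψ z ≤ M) (hε : M - m ≤ ε) :
    EOsc A O ψ ε := by
  refine ⟨{z | ¬ (z ∈ O ∩ A → m ≤ ψ z ∧ ψ z ≤ M)}, h, fun z hz z' hz' => ?_⟩
  have h1 : m ≤ ψ z ∧ ψ z ≤ M := by
    by_contra hc
    exact hz.2 fun h => hc (h hz.1)
  have h2 : m ≤ ψ z' ∧ ψ z' ≤ M := by
    by_contra hc
    exact hz'.2 fun h => hc (h hz'.1)
  rw [abs_le]
  constructor <;> linarith [h1.1, h1.2, h2.1, h2.2]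

theorem EOsc.congr {A O : Set (ℝ × ℝ)} {ψ φ : ℝ × ℝ → ℝ} {ε : ℝ} (h : EOsc A O ψ ε)
    (hφ : ∀ᵐ z ∂(volume : Measure (ℝ × ℝ)), z ∈ O ∩ A → φ z = ψ z) : EOsc A O φ ε := by
  obtain ⟨N, hN, h⟩ := h
  refine ⟨N ∪ {z | ¬ (z ∈ O ∩ A → φ z = ψ z)}, measure_union_null hN hφ, fun z hz z' hz' => ?_⟩
  have h1 : φ z = ψ z := by
    by_contra hc
    exact hz.2 (Or.inr fun h => hc (h hz.1))
  have h2 : φ z' = ψ z' := by
    by_contra hc
    exact hz'.2 (Or.inr fun h => hc (h hz'.1))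
  rw [h1, h2]
  exact h z ⟨hz.1, fun h => hz.2 (Or.inl h)⟩ z' ⟨hz'.1, fun h => hz'.2 (Or.inl h)⟩

/-- **continuous representative.**  If `ψ` has essential oscillation (relative to `A`) tending to
zero at every point of `B`, there is a function `f`, continuous on `B`, equal to `ψ` almost
everywhere on `A ∩ B`, and it is the essential limit of `ψ` at the points of `B`. -/
theorem cont_rep {A B : Set (ℝ × ℝ)} {ψ : ℝ × ℝ → ℝ}
    (h : ∀ z ∈ B, ∀ ε > 0, ∃ O, IsOpen O ∧ z ∈ O ∧ EOsc A O ψ ε)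
    (hd : ∀ z ∈ B, ∀ O, IsOpen O → z ∈ O → volume (O ∩ A) ≠ 0) :
    ∃ f : ℝ × ℝ → ℝ, ContinuousOn f B ∧
      (∀ᵐ z ∂(volume : Measure (ℝ × ℝ)), z ∈ A ∩ B → ψ z = f z) ∧
      ∀ z ∈ B, ∀ ε > 0, ∃ O, IsOpen O ∧ z ∈ O ∧
        ∀ᵐ w ∂(volume : Measure (ℝ × ℝ)), w ∈ O ∩ A → |ψ w - f z| ≤ ε := by
  classical
  obtain ⟨𝓑, h𝓑c, -, h𝓑⟩ := TopologicalSpace.exists_countable_basis (ℝ × ℝ)
  -- the exceptional null set
  set bad : Set (ℝ × ℝ) → ℕ → Set (ℝ × ℝ) := fun b n =>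
    if hb : EOsc A b ψ (1 / ((n : ℝ) + 1)) then hb.choose else ∅ with hbad
  set N : Set (ℝ × ℝ) := ⋃ b ∈ 𝓑, ⋃ n : ℕ, bad b n with hN
  have hN0 : volume N = 0 := by
    rw [hN, measure_biUnion_null_iff h𝓑c]
    intro b _
    rw [measure_iUnion_null_iff]
    intro n
    simp only [hbad]
    split_ifs with hb
    · exact hb.choose_spec.1
    · simp
  set A' : Set (ℝ × ℝ) := A \ N with hA'
  have key : ∀ z ∈ B, ∀ ε > 0, ∃ b, IsOpen b ∧ z ∈ b ∧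
      ∀ x ∈ b ∩ A', ∀ y ∈ b ∩ A', |ψ x - ψ y| ≤ ε := by
    intro z hz ε hε
    obtain ⟨n, hn⟩ := exists_nat_one_div_lt hε
    obtain ⟨O, hO, hzO, hosc⟩ := h z hz (1 / ((n : ℝ) + 1)) (by positivity)
    obtain ⟨b, hb, hzb, hbO⟩ := h𝓑.exists_subset_of_mem_open hzO hO
    have hb' : EOsc A b ψ (1 / ((n : ℝ) + 1)) := hosc.mono le_rfl hbO le_rfl
    refine ⟨b, h𝓑.isOpen hb, hzb, fun x hx y hy => ?_⟩
    have hsub : hb'.choose ⊆ N := by
      have : hb'.choose = bad b n := by simp only [hbad, dif_pos hb']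
      rw [this]
      exact (subset_iUnion (fun n => bad b n) n).trans
        (subset_biUnion_of_mem (u := fun b => ⋃ n : ℕ, bad b n) hb)
    refine (hb'.choose_spec.2 x ⟨⟨hx.1, hx.2.1⟩, fun h => hx.2.2 (hsub h)⟩ y
      ⟨⟨hy.1, hy.2.1⟩, fun h => hy.2.2 (hsub h)⟩).trans hn.le
  have hcl : B ⊆ closure A' := by
    intro z hz
    rw [mem_closure_iff]
    intro O hO hzO
    by_contra hc
    rw [not_nonempty_iff_eq_empty] at hc
    apply hd z hz O hO hzO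
    refine measure_mono_null (fun x hx => ?_) hN0
    by_contra hxN
    have : x ∈ O ∩ A' := ⟨hx.1, hx.2, hxN⟩
    rw [hc] at this
    exact this
  have hlim : ∀ z ∈ B, ∃ y, Tendsto ψ (𝓝[A'] z) (𝓝 y) := by
    intro z hz
    have : (𝓝[A'] z).NeBot := mem_closure_iff_nhdsWithin_neBot.1 (hcl hz)
    rw [← cauchy_map_iff_exists_tendsto]
    rw [Metric.cauchy_iff]
    refine ⟨inferInstance, fun ε hε => ?_⟩
    obtain ⟨b, hb, hzb, hosc⟩ := key z hz (ε / 2) (by positivity)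
    refine ⟨ψ '' (b ∩ A'), ?_, ?_⟩
    · rw [mem_map]
      refine mem_of_superset ?_ (subset_preimage_image ψ (b ∩ A'))
      rw [inter_comm]
      exact inter_mem_nhdsWithin _ (hb.mem_nhds hzb)
    · rintro _ ⟨x, hx, rfl⟩ _ ⟨y, hy, rfl⟩
      rw [Real.dist_eq]
      linarith [hosc x hx y hy]
  refine ⟨extendFrom A' ψ, continuousOn_extendFrom hcl hlim, ?_, ?_⟩
  · have hNn : ∀ᵐ z ∂(volume : Measure (ℝ × ℝ)), z ∉ N := measure_eq_zero_iff_ae_notMem.1 hN0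
    filter_upwards [hNn] with z hzN hzAB
    have hzA' : z ∈ A' := ⟨hzAB.1, hzN⟩
    have ht : Tendsto ψ (𝓝[A'] z) (𝓝 (ψ z)) := by
      rw [Metric.tendsto_nhds]
      intro ε hε
      obtain ⟨b, hb, hzb, hosc⟩ := key z hzAB.2 (ε / 2) (by positivity)
      have : b ∩ A' ∈ 𝓝[A'] z := by
        rw [inter_comm]
        exact inter_mem_nhdsWithin _ (hb.mem_nhds hzb)
      filter_upwards [this] with x hx
      rw [Real.dist_eq]
      linarith [hosc x hx z ⟨hzb, hzA'⟩]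
    exact (extendFrom_eq (hcl hzAB.2) ht).symm
  · intro z hz ε hε
    obtain ⟨b, hb, hzb, hosc⟩ := key z hz (ε / 2) (by positivity)
    have : (𝓝[A'] z).NeBot := mem_closure_iff_nhdsWithin_neBot.1 (hcl hz)
    obtain ⟨y, hy⟩ := hlim z hz
    have hfy : extendFrom A' ψ z = y := extendFrom_eq (hcl hz) hy
    refine ⟨b, hb, hzb, ?_⟩
    have hNn : ∀ᵐ z ∂(volume : Measure (ℝ × ℝ)), z ∉ N := measure_eq_zero_iff_ae_notMem.1 hN0
    filter_upwards [hNn] with w hwN hw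
    have hwA' : w ∈ b ∩ A' := ⟨hw.1, hw.2, hwN⟩
    have hmem : b ∩ A' ∈ 𝓝[A'] z := by
      rw [inter_comm]
      exact inter_mem_nhdsWithin _ (hb.mem_nhds hzb)
    have h1 : Tendsto (fun x => |ψ w - ψ x|) (𝓝[A'] z) (𝓝 |ψ w - y|) :=
      (tendsto_const_nhds.sub hy).abs
    have h2 : |ψ w - y| ≤ ε / 2 := by
      refine le_of_tendsto h1 ?_
      filter_upwards [hmem] with x hx
      exact hosc w hwA' x hx
    rw [hfy]
    linarith

end Crest.Agent.R105.Psi_425
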