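import Crest.Agent.R105.Psi1_425

/-!
Row 105, lemma A, analytic half: from line representations and the maximum principle on squares
to small essential oscillation.
-/

open MeasureTheory Set Filter Topology
open scoped ENNReal NNReal

namespace Crest.Agent.R105.Psi_425

open Sq_363

/-- closed square -/
def Qc (p : ℝ × ℝ) (s : ℝ) : Set (ℝ × ℝ) :=
  Icc (p.1 - s) (p.1 + s) ×ˢ Icc (p.2 - s) (p.2 + s)

theorem isOpen_Qo (p : ℝ × ℝ) (s : ℝ) : IsOpen (Qo p s) := isOpen_Ioo.prod isOpen_Ioo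

/-- the (upper) maximum principle on one square: `ψ` gives the values on the vertical sides, `Ψ`
the values on the horizontal sides -/
def MPsq (A : Set (ℝ × ℝ)) (ψ Ψ : ℝ × ℝ → ℝ) (p : ℝ × ℝ) (s : ℝ) : Prop :=
  ∀ M : ℝ, (∀ t ∈ Icc (p.2 - s) (p.2 + s), ψ (p.1 - s, t) ≤ M ∧ ψ (p.1 + s, t) ≤ M) →
    (∀ t ∈ Icc (p.1 - s) (p.1 + s), Ψ (t, p.2 - s) ≤ M ∧ Ψ (t, p.2 + s) ≤ M) →
    ∀ᵐ z ∂(volume : Measure (ℝ × ℝ)), z ∈ Qo p s ∩ A → ψ z ≤ M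

/-- oscillation on one square -/
theorem osc_square {A : Set (ℝ × ℝ)} {ψ Ψ : ℝ × ℝ → ℝ} {p : ℝ × ℝ} {s L R B T κ : ℝ}
    (hs : 0 ≤ s)
    (hL : ∀ t ∈ Icc (p.2 - s) (p.2 + s), |ψ (p.1 - s, p.2 - s) - ψ (p.1 - s, t)| ≤ L)
    (hR : ∀ t ∈ Icc (p.2 - s) (p.2 + s), |ψ (p.1 + s, p.2 - s) - ψ (p.1 + s, t)| ≤ R)
    (hB : ∀ t ∈ Icc (p.1 - s) (p.1 + s), |Ψ (p.1 - s, p.2 - s) - Ψ (t, p.2 - s)| ≤ B)
    (hT : ∀ t ∈ Icc (p.1 - s) (p.1 + s), |Ψ (p.1 - s, p.2 + s) - Ψ (t, p.2 + s)| ≤ T)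
    (hc1 : |Ψ (p.1 - s, p.2 - s) - ψ (p.1 - s, p.2 - s)| ≤ κ)
    (hc2 : |Ψ (p.1 + s, p.2 - s) - ψ (p.1 + s, p.2 - s)| ≤ κ)
    (hc3 : |Ψ (p.1 - s, p.2 + s) - ψ (p.1 - s, p.2 + s)| ≤ κ)
    (hup : MPsq A ψ Ψ p s) (hlo : MPsq A (fun z => - ψ z) (fun z => - Ψ z) p s) :
    EOsc A (Qo p s) ψ (2 * (L + R + B + T + 2 * κ)) := by
  set v : ℝ := ψ (p.1 - s, p.2 - s) with hv
  set S : ℝ := L + R + B + T + 2 * κ with hS
  have m1 : p.2 - s ∈ Icc (p.2 - s) (p.2 + s) := ⟨le_rfl, by linarith⟩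
  have m2 : p.2 + s ∈ Icc (p.2 - s) (p.2 + s) := ⟨by linarith, le_rfl⟩
  have n1 : p.1 - s ∈ Icc (p.1 - s) (p.1 + s) := ⟨le_rfl, by linarith⟩
  have n2 : p.1 + s ∈ Icc (p.1 - s) (p.1 + s) := ⟨by linarith, le_rfl⟩
  have hL0 : 0 ≤ L := (abs_nonneg _).trans (hL _ m1)
  have hR0 : 0 ≤ R := (abs_nonneg _).trans (hR _ m1)
  have hB0 : 0 ≤ B := (abs_nonneg _).trans (hB _ n1)
  have hT0 : 0 ≤ T := (abs_nonneg _).trans (hT _ n1)
  have hκ0 : 0 ≤ κ := (abs_nonneg _).trans hc1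
  rw [abs_le] at hc1 hc2 hc3
  have hB2 := abs_le.1 (hB _ n2)
  have hL2 := abs_le.1 (hL _ m2)
  have bL : ∀ t ∈ Icc (p.2 - s) (p.2 + s), |v - ψ (p.1 - s, t)| ≤ S := fun t ht => by
    refine (hL t ht).trans ?_
    rw [hS]; linarith
  have bB : ∀ t ∈ Icc (p.1 - s) (p.1 + s), |v - Ψ (t, p.2 - s)| ≤ S := fun t ht => by
    have h1 := abs_le.1 (hB t ht)
    rw [abs_le, hS]
    constructor <;> linarith [h1.1, h1.2, hc1.1, hc1.2]
  have bR : ∀ t ∈ Icc (p.2 - s) (p.2 + s), |v - ψ (p.1 + s, t)| ≤ S := fun t ht => by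
    have h1 := abs_le.1 (hR t ht)
    rw [abs_le, hS]
    constructor <;> linarith [h1.1, h1.2, hc1.1, hc1.2, hc2.1, hc2.2, hB2.1, hB2.2]
  have bT : ∀ t ∈ Icc (p.1 - s) (p.1 + s), |v - Ψ (t, p.2 + s)| ≤ S := fun t ht => by
    have h1 := abs_le.1 (hT t ht)
    rw [abs_le, hS]
    constructor <;> linarith [h1.1, h1.2, hc3.1, hc3.2, hL2.1, hL2.2]
  have hU := hup (v + S) (fun t ht => ⟨by linarith [(abs_le.1 (bL t ht)).1],
    by linarith [(abs_le.1 (bR t ht)).1]⟩) (fun t ht => ⟨by linarith [(abs_le.1 (bB t ht)).1],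
    by linarith [(abs_le.1 (bT t ht)).1]⟩)
  have hD := hlo (-(v - S)) (fun t ht => ⟨by linarith [(abs_le.1 (bL t ht)).2],
    by linarith [(abs_le.1 (bR t ht)).2]⟩) (fun t ht => ⟨by linarith [(abs_le.1 (bB t ht)).2],
    by linarith [(abs_le.1 (bT t ht)).2]⟩)
  refine eosc_of_bounds (m := v - S) (M := v + S) ?_ (by linarith)
  filter_upwards [hU, hD] with z h1 h2 hz
  exact ⟨by linarith [h2 hz], h1 hz⟩

/-- the corners of almost every square avoid a null set -/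
theorem ae_corner {Z : Set (ℝ × ℝ)} (hZ : volume Z = 0) (σ τ : ℝ) :
    ∀ᵐ p ∂(volume : Measure (ℝ × ℝ)), ∀ᵐ s ∂(volume : Measure ℝ),
      (p.1 + σ * s, p.2 + τ * s) ∉ Z := by
  set Z' := toMeasurable volume Z with hZ'
  have hZ'0 : volume Z' = 0 := by rw [hZ', measure_toMeasurable, hZ]
  have hm : MeasurableSet Z' := measurableSet_toMeasurable _ _
  have hsub : Z ⊆ Z' := subset_toMeasurable _ _
  have hmeas : Measurable fun x : (ℝ × ℝ) × ℝ => (x.1.1 + σ * x.2, x.1.2 + τ * x.2) := by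
    fun_prop
  have key : ∀ᵐ p ∂(volume : Measure (ℝ × ℝ)), ∀ᵐ s ∂(volume : Measure ℝ),
      (p.1 + σ * s, p.2 + τ * s) ∉ Z' := by
    rw [Measure.ae_ae_comm (p := fun (p : ℝ × ℝ) (s : ℝ) => (p.1 + σ * s, p.2 + τ * s) ∉ Z')
      (hmeas hm.compl)]
    refine Filter.Eventually.of_forall fun s => ?_
    have hmp : MeasurePreserving (fun p : ℝ × ℝ => p + (σ * s, τ * s)) volume volume :=
      measurePreserving_add_right volume (σ * s, τ * s)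
    have := hmp.quasiMeasurePreserving.ae (measure_eq_zero_iff_ae_notMem.1 hZ'0)
    filter_upwards [this] with p hp
    exact hp
  filter_upwards [key] with p hp
  filter_upwards [hp] with s hs h
  exact hs (hsub h)

/-- translated good radii -/
theorem ae_line {P : ℝ → Prop} (hP : ∀ᵐ x ∂(volume : Measure ℝ), P x) (a : ℝ) :
    (∀ᵐ s ∂(volume : Measure ℝ), P (a + s)) ∧ ∀ᵐ s ∂(volume : Measure ℝ), P (a - s) := by
  constructor
  · exact (measurePreserving_add_left (volume : Measure ℝ) a).quasiMeasurePreserving.ae hP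
  · have h := ((measurePreserving_add_left (volume : Measure ℝ) a).comp
      (Measure.measurePreserving_neg (volume : Measure ℝ))).quasiMeasurePreserving.ae hP
    filter_upwards [h] with s hs
    simpa [sub_eq_add_neg] using hs

/-- a set of full measure meets every nonempty open set -/
theorem exists_near {P : ℝ × ℝ → Prop} (hP : ∀ᵐ p ∂(volume : Measure (ℝ × ℝ)), P p)
    (z : ℝ × ℝ) {r : ℝ} (hr : 0 < r) : ∃ p, P p ∧ z ∈ Qo p r ∧ p ∈ Qo z r := by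
  have hO : IsOpen (Qo z r) := isOpen_Qo z r
  have hne : (Qo z r).Nonempty := ⟨z, ⟨by simp [hr], by simp [hr]⟩⟩
  have hpos : volume (Qo z r) ≠ 0 := (hO.measure_pos volume hne).ne'
  have : ∃ p ∈ Qo z r, P p := by
    by_contra hc
    push Not at hc
    exact hpos (measure_mono_null (fun p hp => hc p hp) hP)
  obtain ⟨p, hp, hPp⟩ := this
  refine ⟨p, hPp, ?_, hp⟩
  obtain ⟨h1, h2⟩ := hp
  exact ⟨⟨by linarith [h1.2], by linarith [h1.1]⟩, ⟨by linarith [h2.2], by linarith [h2.1]⟩⟩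

theorem Qo_sub_Qo {p z : ℝ × ℝ} {r R R' : ℝ} (h : p ∈ Qo z r) (hR : R + r ≤ R') :
    Qo p R ⊆ Qo z R' := by
  obtain ⟨h1, h2⟩ := h
  rintro q ⟨q1, q2⟩
  exact ⟨⟨by linarith [h1.1, h1.2, q1.1, q1.2], by linarith [h1.1, h1.2, q1.1, q1.2]⟩,
    ⟨by linarith [h2.1, h2.2, q2.1, q2.2], by linarith [h2.1, h2.2, q2.1, q2.2]⟩⟩

theorem Qc_sub_Qo {p z : ℝ × ℝ} {r R R' : ℝ} (h : p ∈ Qo z r) (hR : R + r ≤ R') :
    Qc p R ⊆ Qo z R' := by
  obtain ⟨h1, h2⟩ := h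
  rintro q ⟨q1, q2⟩
  exact ⟨⟨by linarith [h1.1, h1.2, q1.1, q1.2], by linarith [h1.1, h1.2, q1.1, q1.2]⟩,
    ⟨by linarith [h2.1, h2.2, q2.1, q2.2], by linarith [h2.1, h2.2, q2.1, q2.2]⟩⟩

theorem exists_Qo_sub {G : Set (ℝ × ℝ)} (hG : IsOpen G) {z : ℝ × ℝ} (hz : z ∈ G) :
    ∃ R, 0 < R ∧ Qo z R ⊆ G := by
  obtain ⟨R, hR, h⟩ := Metric.isOpen_iff.1 hG z hz
  refine ⟨R, hR, fun q hq => h ?_⟩
  obtain ⟨h1, h2⟩ := hq
  rw [Metric.mem_ball, Prod.dist_eq, max_lt_iff, Real.dist_eq, Real.dist_eq, abs_lt, abs_lt]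
  exact ⟨⟨by linarith [h1.1], by linarith [h1.2]⟩, ⟨by linarith [h2.1], by linarith [h2.2]⟩⟩

/-- **small oscillation at every point** (no solids). -/
theorem small_osc {G A : Set (ℝ × ℝ)} (hG : IsOpen G) {ψ Ψ : ℝ × ℝ → ℝ} {u : ℝ × ℝ → ℝ≥0∞}
    (hu : Measurable u) (hu2 : ∫⁻ q in G, u q ^ 2 ≠ ∞) {ω : ℝ → ℝ}
    (hω : Tendsto ω (𝓝[>] 0) (𝓝 0))
    (hV : ∀ᵐ x ∂(volume : Measure ℝ), ∀ y y', y ≤ y' → (∀ t ∈ Icc y y', (x, t) ∈ G) →
      ENNReal.ofReal |ψ (x, y) - ψ (x, y')| ≤ ∫⁻ t in Icc y y', u (x, t))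
    (hH : ∀ᵐ y ∂(volume : Measure ℝ), ∀ x x', x ≤ x' → (∀ t ∈ Icc x x', (t, y) ∈ G) →
      ENNReal.ofReal |Ψ (x, y) - Ψ (x', y)| ≤
        (∫⁻ t in Icc x x', u (t, y)) + ENNReal.ofReal (ω (x' - x)))
    (hωm : Monotone ω)
    (hZ : ∀ᵐ z ∂(volume : Measure (ℝ × ℝ)), z ∈ G → Ψ z = ψ z)
    (hMP : ∀ p, ∀ᵐ s ∂(volume : Measure ℝ), 0 < s → Qc p s ⊆ G →
      MPsq A ψ Ψ p s ∧ MPsq A (fun z => - ψ z) (fun z => - Ψ z) p s) :
    ∀ z ∈ G, ∀ ε > 0, ∃ O, IsOpen O ∧ z ∈ O ∧ EOsc A O ψ ε := by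
  intro z hz ε hε
  obtain ⟨R₀, hR₀, hR₀G⟩ := exists_Qo_sub hG hz
  -- choose `R` with `ω (2R)` small
  set δ : ℝ := ε / 16 with hδ
  have hδ0 : 0 < δ := by positivity
  have hω0 : ∀ᶠ s in 𝓝[>] (0:ℝ), ω s < δ := (hω.eventually (gt_mem_nhds hδ0))
  obtain ⟨s₀, hs₀, hωs₀⟩ : ∃ s₀ > 0, ∀ s ∈ Ioo 0 s₀, ω s < δ := by
    obtain ⟨s₀, hs₀, h⟩ := mem_nhdsGT_iff_exists_Ioo_subset.1 hω0
    exact ⟨s₀, hs₀, fun s hs => h hs⟩
  set R : ℝ := min (R₀ / 2) (s₀ / 4) with hRdef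
  have hR : 0 < R := by positivity
  have hR1 : R ≤ R₀ / 2 := min_le_left _ _
  have hR2 : R ≤ s₀ / 4 := min_le_right _ _
  -- total energy
  set E : ℝ≥0∞ := 128 * ∫⁻ q in G, u q ^ 2 with hE
  have hEt : E ≠ ∞ := ENNReal.mul_ne_top (by norm_num) hu2
  -- choose `r` small
  set D : ℝ := E.toReal / δ ^ 2 + 1 with hD
  have hD0 : 0 < D := by positivity
  set r : ℝ := R * Real.exp (-D) with hr
  have hr0 : 0 < r := by positivity
  have hrR : r < R := by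
    have : Real.exp (-D) < 1 := by
      rw [Real.exp_lt_one_iff]; linarith
    calc r < R * 1 := by rw [hr]; gcongr
      _ = R := mul_one R
  have hlog : Real.log (R / r) = D := by
    rw [hr, div_mul_eq_div_div, div_self hR.ne', one_div, ← Real.exp_neg, neg_neg, Real.log_exp]
  -- the centre
  have hZ0 : volume {z : ℝ × ℝ | ¬ (z ∈ G → Ψ z = ψ z)} = 0 := hZ
  obtain ⟨p, ⟨⟨hp1, hp2⟩, hp3⟩, hzp, hpz⟩ := exists_near (((ae_corner hZ0 (-1) (-1)).and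
    (ae_corner hZ0 1 (-1))).and (ae_corner hZ0 (-1) 1)) z hr0
  have hV1 := (ae_line hV p.1).1
  have hV2 := (ae_line hV p.1).2
  have hH1 := (ae_line hH p.2).1
  have hH2 := (ae_line hH p.2).2
  have hall := ((((((hp1.and hp2).and hp3).and hV1).and hV2).and hH1).and hH2).and (hMP p)
  obtain ⟨s, hs, hsN, hCL⟩ := exists_good hu p hr0 hrR (N := {s | ¬ _}) hall
  simp only [mem_ofPred_eq, not_not] at hsN
  obtain ⟨⟨⟨⟨⟨⟨⟨g1, g2⟩, g3⟩, v1⟩, v2⟩, h1⟩, h2⟩, mp⟩ := hsN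
  have hs0 : 0 < s := hr0.trans hs.1
  have hQG : Qc p s ⊆ G := (Qc_sub_Qo hpz (by linarith [hs.2] : s + r ≤ R₀)).trans hR₀G
  have hQRG : Qo p R ⊆ G := (Qo_sub_Qo hpz (by linarith : R + r ≤ R₀)).trans hR₀G
  obtain ⟨mp1, mp2⟩ := mp hs0 hQG
  -- smallness of the boundary integral
  have hbq : bq u p s ≤ ENNReal.ofReal δ := by
    have h3 : bq u p s ^ 2 * ENNReal.ofReal D ≤ E := by
      rw [← hlog]
      refine hCL.trans ?_
      rw [hE]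
      gcongr
    by_contra hc
    push Not at hc
    have h4 : ENNReal.ofReal δ ^ 2 * ENNReal.ofReal D ≤ E := le_trans (by gcongr) h3
    rw [← ENNReal.ofReal_pow hδ0.le, ← ENNReal.ofReal_mul (by positivity),
      ENNReal.ofReal_le_iff_le_toReal hEt, hD] at h4
    have h5 : δ ^ 2 * (E.toReal / δ ^ 2 + 1) = E.toReal + δ ^ 2 := by
      field_simp
    rw [h5] at h4
    nlinarith [sq_nonneg δ, pow_pos hδ0 2]
  have hωs : ω (p.1 + s - (p.1 - s)) ≤ δ := by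
    refine (hωs₀ _ ⟨by linarith, by linarith [hs.2]⟩).le
  -- sides
  have memG : ∀ x y, x ∈ Icc (p.1 - s) (p.1 + s) → y ∈ Icc (p.2 - s) (p.2 + s) → (x, y) ∈ G :=
    fun x y hx hy => hQG ⟨hx, hy⟩
  have n1 : p.1 - s ∈ Icc (p.1 - s) (p.1 + s) := ⟨le_rfl, by linarith⟩
  have n2 : p.1 + s ∈ Icc (p.1 - s) (p.1 + s) := ⟨by linarith, le_rfl⟩
  have m1 : p.2 - s ∈ Icc (p.2 - s) (p.2 + s) := ⟨le_rfl, by linarith⟩
  have m2 : p.2 + s ∈ Icc (p.2 - s) (p.2 + s) := ⟨by linarith, le_rfl⟩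
  have toR : ∀ {a b : ℝ} , 0 ≤ b → ENNReal.ofReal |a| ≤ ENNReal.ofReal b → |a| ≤ b :=
    fun hb h => (ENNReal.ofReal_le_ofReal_iff hb).1 h
  have sL : ∀ t ∈ Icc (p.2 - s) (p.2 + s), |ψ (p.1 - s, p.2 - s) - ψ (p.1 - s, t)| ≤ δ := by
    intro t ht
    refine toR hδ0.le ?_
    refine (v2 (p.2 - s) t ht.1 fun y hy => memG _ _ n1 ⟨hy.1, hy.2.trans ht.2⟩).trans
      (le_trans ?_ hbq)
    unfold bq
    calc _ ≤ ∫⁻ t in Icc (p.2 - s) (p.2 + s), u (p.1 - s, t) :=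
          lintegral_mono_set (Icc_subset_Icc_right ht.2)
      _ ≤ _ := le_add_self
      _ ≤ _ := le_self_add
  have sR : ∀ t ∈ Icc (p.2 - s) (p.2 + s), |ψ (p.1 + s, p.2 - s) - ψ (p.1 + s, t)| ≤ δ := by
    intro t ht
    refine toR hδ0.le ?_
    refine (v1 (p.2 - s) t ht.1 fun y hy => memG _ _ n2 ⟨hy.1, hy.2.trans ht.2⟩).trans
      (le_trans ?_ hbq)
    unfold bq
    calc _ ≤ ∫⁻ t in Icc (p.2 - s) (p.2 + s), u (p.1 + s, t) :=
          lintegral_mono_set (Icc_subset_Icc_right ht.2)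
      _ ≤ _ := le_self_add
      _ ≤ _ := le_self_add
  have sB : ∀ t ∈ Icc (p.1 - s) (p.1 + s), |Ψ (p.1 - s, p.2 - s) - Ψ (t, p.2 - s)| ≤ 2 * δ := by
    intro t ht
    refine toR (by positivity) ?_
    refine (h2 (p.1 - s) t ht.1 fun y hy => memG _ _ ⟨hy.1, hy.2.trans ht.2⟩ m1).trans ?_
    rw [two_mul, ENNReal.ofReal_add hδ0.le hδ0.le]
    refine add_le_add (le_trans ?_ hbq)
      (ENNReal.ofReal_le_ofReal ((hωm (by linarith [ht.2])).trans hωs))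
    unfold bq
    calc _ ≤ ∫⁻ t in Icc (p.1 - s) (p.1 + s), u (t, p.2 - s) :=
          lintegral_mono_set (Icc_subset_Icc_right ht.2)
      _ ≤ _ := le_add_self
      _ ≤ _ := le_add_self
  have sT : ∀ t ∈ Icc (p.1 - s) (p.1 + s), |Ψ (p.1 - s, p.2 + s) - Ψ (t, p.2 + s)| ≤ 2 * δ := by
    intro t ht
    refine toR (by positivity) ?_
    refine (h1 (p.1 - s) t ht.1 fun y hy => memG _ _ ⟨hy.1, hy.2.trans ht.2⟩ m2).trans ?_
    rw [two_mul, ENNReal.ofReal_add hδ0.le hδ0.le]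
    refine add_le_add (le_trans ?_ hbq)
      (ENNReal.ofReal_le_ofReal ((hωm (by linarith [ht.2])).trans hωs))
    unfold bq
    calc _ ≤ ∫⁻ t in Icc (p.1 - s) (p.1 + s), u (t, p.2 + s) :=
          lintegral_mono_set (Icc_subset_Icc_right ht.2)
      _ ≤ _ := le_self_add
      _ ≤ _ := le_add_self
  have c1 : |Ψ (p.1 - s, p.2 - s) - ψ (p.1 - s, p.2 - s)| ≤ 0 := by
    have := g1
    simp only [neg_mul, one_mul, ← sub_eq_add_neg] at this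
    rw [this (memG _ _ n1 m1)]; simp
  have c2 : |Ψ (p.1 + s, p.2 - s) - ψ (p.1 + s, p.2 - s)| ≤ 0 := by
    have := g2
    simp only [neg_mul, one_mul, ← sub_eq_add_neg] at this
    rw [this (memG _ _ n2 m1)]; simp
  have c3 : |Ψ (p.1 - s, p.2 + s) - ψ (p.1 - s, p.2 + s)| ≤ 0 := by
    have := g3
    simp only [neg_mul, one_mul, ← sub_eq_add_neg] at this
    rw [this (memG _ _ n1 m2)]; simp
  refine ⟨Qo p s, isOpen_Qo p s, ?_, ?_⟩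
  · obtain ⟨h3, h4⟩ := hzp
    exact ⟨⟨by linarith [h3.1, hs.1], by linarith [h3.2, hs.1]⟩,
      ⟨by linarith [h4.1, hs.1], by linarith [h4.2, hs.1]⟩⟩
  · refine (osc_square hs0.le sL sR sB sT c1 c2 c3 mp1 mp2).mono le_rfl le_rfl ?_
    rw [hδ]; linarith

end Crest.Agent.R105.Psi_425
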