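import Crest.Agent.R105.Psi2_425

/-!
Row 105, lemma A, analytic half: the continuous representative agrees with the line
representatives on every point of almost every line; it is constant on hairs.
-/

open MeasureTheory Set Filter Topology
open scoped ENNReal NNReal

namespace Crest.Agent.R105.Psi_425

open Sq_363

/-- one-dimensional continuity from a bound by an integral plus a modulus -/
theorem cont_of_bound {g : ℝ → ℝ} {u : ℝ → ℝ≥0∞} {O : Set ℝ} (hO : IsOpen O) (_hu : Measurable u)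
    (hfin : ∫⁻ t in O, u t ^ 2 ≠ ∞) {ω : ℝ → ℝ} (hω : Tendsto ω (𝓝[>] 0) (𝓝 0))
    (hωm : Monotone ω)
    (h : ∀ x x', x ≤ x' → Icc x x' ⊆ O →
      ENNReal.ofReal |g x - g x'| ≤ (∫⁻ t in Icc x x', u t) + ENNReal.ofReal (ω (x' - x))) :
    ContinuousOn g O := by
  intro x₀ hx₀
  apply ContinuousAt.continuousWithinAt
  obtain ⟨r, hr, hrO⟩ := Metric.isOpen_iff.1 hO x₀ hx₀
  set I : Set ℝ := Icc (x₀ - r / 2) (x₀ + r / 2) with hI
  have hIO : I ⊆ O := by
    intro t ht
    apply hrO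
    rw [Metric.mem_ball, Real.dist_eq, abs_lt]
    exact ⟨by linarith [ht.1], by linarith [ht.2]⟩
  have hIfin : ∫⁻ t in I, u t ≠ ∞ := by
    have h1 : ∫⁻ t in I, u t ≤ ∫⁻ t in I, (1 + u t ^ 2) := by
      refine lintegral_mono fun t => ?_
      rcases le_total (u t) 1 with h1 | h1
      · exact h1.trans le_self_add
      · calc u t = u t * 1 := (mul_one _).symm
          _ ≤ u t * u t := by gcongr
          _ = u t ^ 2 := by ring
          _ ≤ 1 + u t ^ 2 := le_add_self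
    refine ne_top_of_le_ne_top ?_ h1
    rw [lintegral_add_left measurable_const, lintegral_one, Measure.restrict_apply_univ]
    refine ENNReal.add_ne_top.2 ⟨?_, ?_⟩
    · rw [hI, Real.volume_Icc]; exact ENNReal.ofReal_ne_top
    · exact ne_top_of_le_ne_top hfin (lintegral_mono_set hIO)
  have hT1 : Tendsto (fun x => ∫⁻ t in uIcc x₀ x, u t ∂(volume.restrict I)) (𝓝 x₀) (𝓝 0) := by
    refine tendsto_setLIntegral_zero hIfin ?_
    rw [ENNReal.tendsto_nhds_zero]
    intro ε hε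
    have h2 : Tendsto (fun x : ℝ => ENNReal.ofReal |x - x₀|) (𝓝 x₀) (𝓝 0) := by
      have : Tendsto (fun x : ℝ => |x - x₀|) (𝓝 x₀) (𝓝 0) := by
        have h3 : Tendsto (fun x : ℝ => |x - x₀|) (𝓝 x₀) (𝓝 |x₀ - x₀|) :=
          ((continuous_id.sub continuous_const).abs).tendsto x₀
        simpa using h3
      simpa using ENNReal.tendsto_ofReal this
    filter_upwards [(ENNReal.tendsto_nhds_zero.1 h2) ε hε] with x hx
    refine le_trans ?_ hx
    show (volume.restrict I) (uIcc x₀ x) ≤ _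
    refine (Measure.restrict_apply_le _ _).trans ?_
    rw [Real.volume_interval]
  have hT2 : Tendsto (fun x => ENNReal.ofReal (ω |x - x₀|)) (𝓝 x₀) (𝓝 0) := by
    rw [ENNReal.tendsto_nhds_zero]
    intro ε hε
    obtain ⟨e, he, heε⟩ : ∃ e : ℝ, 0 < e ∧ ENNReal.ofReal e ≤ ε := by
      rcases eq_or_ne ε ∞ with rfl | hεt
      · exact ⟨1, one_pos, le_top⟩
      · exact ⟨ε.toReal, ENNReal.toReal_pos hε.ne' hεt, by rw [ENNReal.ofReal_toReal hεt]⟩
    have hev : ∀ᶠ s in 𝓝[>] (0:ℝ), ω s < e := hω.eventually (gt_mem_nhds he)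
    obtain ⟨s₀, hs₀, hs⟩ := mem_nhdsGT_iff_exists_Ioo_subset.1 hev
    have hs₀' : 0 < s₀ := hs₀
    filter_upwards [Metric.ball_mem_nhds x₀ hs₀'] with x hx
    rw [Metric.mem_ball, Real.dist_eq] at hx
    refine le_trans (ENNReal.ofReal_le_ofReal ?_) heε
    have h4 : (|x - x₀| + s₀) / 2 ∈ Ioo 0 s₀ :=
      ⟨by have := abs_nonneg (x - x₀); linarith, by linarith⟩
    exact (hωm (by linarith)).trans (hs h4).le
  have hT3 : Tendsto (fun x => edist (g x) (g x₀)) (𝓝 x₀) (𝓝 0) := by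
    have hsum := hT1.add hT2
    rw [add_zero] at hsum
    refine tendsto_of_tendsto_of_tendsto_of_le_of_le' tendsto_const_nhds hsum
      (Eventually.of_forall fun _ => zero_le) ?_
    filter_upwards [Metric.ball_mem_nhds x₀ (half_pos hr)] with x hx
    rw [Metric.mem_ball, Real.dist_eq, abs_lt] at hx
    have hsub : uIcc x₀ x ⊆ I := by
      rw [hI]
      refine uIcc_subset_Icc ⟨by linarith, by linarith⟩ ⟨by linarith [hx.1], by linarith [hx.2]⟩
    have hres : ∫⁻ t in uIcc x₀ x, u t ∂(volume.restrict I) = ∫⁻ t in uIcc x₀ x, u t := by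
      rw [Measure.restrict_restrict measurableSet_uIcc, inter_eq_left.2 hsub]
    rw [hres, edist_dist, Real.dist_eq]
    rcases le_total x₀ x with hxx | hxx
    · rw [uIcc_of_le hxx, abs_sub_comm, abs_of_nonneg (sub_nonneg.2 hxx)]
      exact h x₀ x hxx (by rw [uIcc_of_le hxx] at hsub; exact hsub.trans hIO)
    · rw [uIcc_of_ge hxx, abs_of_nonpos (sub_nonpos.2 hxx), neg_sub]
      exact h x x₀ hxx (by rw [uIcc_of_ge hxx] at hsub; exact hsub.trans hIO)
  exact tendsto_iff_edist_tendsto_0.2 hT3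

/-- finiteness of the energy on almost every vertical line -/
theorem fin_vert {G : Set (ℝ × ℝ)} (hG : IsOpen G) {u : ℝ × ℝ → ℝ≥0∞} (hu : Measurable u)
    (hu2 : ∫⁻ q in G, u q ^ 2 ≠ ∞) :
    ∀ᵐ x ∂(volume : Measure ℝ), ∫⁻ t in {t | (x, t) ∈ G}, u (x, t) ^ 2 ≠ ∞ := by
  have h1 : ∫⁻ q, G.indicator (fun q => u q ^ 2) q ≠ ∞ := by
    rwa [lintegral_indicator hG.measurableSet]
  have hm : Measurable (G.indicator fun q => u q ^ 2) :=
    (hu.pow_const 2).indicator hG.measurableSet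
  rw [Measure.volume_eq_prod, lintegral_prod _ hm.aemeasurable] at h1
  have h2 := ae_lt_top (Measurable.lintegral_prod_right' hm) h1
  filter_upwards [h2] with x hx
  have hmx : MeasurableSet {t | (x, t) ∈ G} := measurable_prodMk_left hG.measurableSet
  rw [← lintegral_indicator hmx]
  refine ne_of_lt (lt_of_le_of_lt (le_of_eq ?_) hx)
  refine lintegral_congr fun t => ?_
  by_cases ht : (x, t) ∈ G
  · rw [indicator_of_mem (show t ∈ {t | (x, t) ∈ G} from ht), indicator_of_mem ht]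
  · rw [indicator_of_notMem (show t ∉ {t | (x, t) ∈ G} from ht), indicator_of_notMem ht]

theorem mp_swap : MeasurePreserving (Prod.swap : ℝ × ℝ → ℝ × ℝ) volume volume := by
  rw [Measure.volume_eq_prod]; exact Measure.measurePreserving_swap

/-- finiteness of the energy on almost every horizontal line -/
theorem fin_hor {G : Set (ℝ × ℝ)} (hG : IsOpen G) {u : ℝ × ℝ → ℝ≥0∞} (hu : Measurable u)
    (hu2 : ∫⁻ q in G, u q ^ 2 ≠ ∞) :
    ∀ᵐ y ∂(volume : Measure ℝ), ∫⁻ t in {t | (t, y) ∈ G}, u (t, y) ^ 2 ≠ ∞ := by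
  have hG' : IsOpen (Prod.swap ⁻¹' G) := hG.preimage continuous_swap
  have hu' : Measurable (u ∘ Prod.swap) := hu.comp measurable_swap
  refine fin_vert hG' hu' ?_
  have : ∫⁻ q in Prod.swap ⁻¹' G, (u ∘ Prod.swap) q ^ 2 = ∫⁻ q in G, u q ^ 2 :=
    mp_swap.setLIntegral_comp_preimage hG.measurableSet (hu.pow_const 2)
  rw [this]
  exact hu2

/-- Fubini for null sets, vertical lines -/
theorem ae_vert {P : ℝ × ℝ → Prop} (h : ∀ᵐ z ∂(volume : Measure (ℝ × ℝ)), P z) :
    ∀ᵐ x ∂(volume : Measure ℝ), ∀ᵐ y ∂(volume : Measure ℝ), P (x, y) :=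
  Measure.ae_ae_of_ae_prod (by rwa [← Measure.volume_eq_prod])

/-- Fubini for null sets, horizontal lines -/
theorem ae_hor {P : ℝ × ℝ → Prop} (h : ∀ᵐ z ∂(volume : Measure (ℝ × ℝ)), P z) :
    ∀ᵐ y ∂(volume : Measure ℝ), ∀ᵐ x ∂(volume : Measure ℝ), P (x, y) := by
  have := mp_swap.quasiMeasurePreserving.ae h
  exact ae_vert (P := fun z => P z.swap) this

/-- two continuous functions equal almost everywhere on an open set of reals are equal there -/
theorem eq_on_open {O : Set ℝ} (hO : IsOpen O) {g h : ℝ → ℝ} (hg : ContinuousOn g O)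
    (hh : ContinuousOn h O) (hae : ∀ᵐ x ∂(volume : Measure ℝ), x ∈ O → g x = h x) :
    ∀ x ∈ O, g x = h x := by
  have hae' : g =ᵐ[volume.restrict O] h := (ae_restrict_iff' hO.measurableSet).2 hae
  exact fun x hx => Measure.eqOn_open_of_ae_eq hae' hO hg hh hx

/-- the horizontal representative is the continuous one on almost every horizontal line -/
theorem line_eq_h {G : Set (ℝ × ℝ)} (hG : IsOpen G) {Ψ f : ℝ × ℝ → ℝ} {u : ℝ × ℝ → ℝ≥0∞}
    (hu : Measurable u) (hu2 : ∫⁻ q in G, u q ^ 2 ≠ ∞) {ω : ℝ → ℝ}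
    (hω : Tendsto ω (𝓝[>] 0) (𝓝 0)) (hωm : Monotone ω)
    (hH : ∀ᵐ y ∂(volume : Measure ℝ), ∀ x x', x ≤ x' → (∀ t ∈ Icc x x', (t, y) ∈ G) →
      ENNReal.ofReal |Ψ (x, y) - Ψ (x', y)| ≤
        (∫⁻ t in Icc x x', u (t, y)) + ENNReal.ofReal (ω (x' - x)))
    (hf : ContinuousOn f G)
    (hZ : ∀ᵐ z ∂(volume : Measure (ℝ × ℝ)), z ∈ G → Ψ z = f z) :
    ∀ᵐ y ∂(volume : Measure ℝ), ∀ x, (x, y) ∈ G → Ψ (x, y) = f (x, y) := by
  filter_upwards [hH, fin_hor hG hu hu2, ae_hor hZ] with y h1 h2 h3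
  have hO : IsOpen {x : ℝ | (x, y) ∈ G} := hG.preimage (by fun_prop)
  refine eq_on_open hO (cont_of_bound hO (mhor hu y) h2 hω hωm fun x x' hx hsub =>
    h1 x x' hx fun t ht => hsub ht) ?_ h3
  exact hf.comp (by fun_prop) fun x hx => hx

/-- the vertical representative is the continuous one on almost every vertical line -/
theorem line_eq_v {G : Set (ℝ × ℝ)} (hG : IsOpen G) {ψ f : ℝ × ℝ → ℝ} {u : ℝ × ℝ → ℝ≥0∞}
    (hu : Measurable u) (hu2 : ∫⁻ q in G, u q ^ 2 ≠ ∞)
    (hV : ∀ᵐ x ∂(volume : Measure ℝ), ∀ y y', y ≤ y' → (∀ t ∈ Icc y y', (x, t) ∈ G) →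
      ENNReal.ofReal |ψ (x, y) - ψ (x, y')| ≤ ∫⁻ t in Icc y y', u (x, t))
    (hf : ContinuousOn f G)
    (hZ : ∀ᵐ z ∂(volume : Measure (ℝ × ℝ)), z ∈ G → ψ z = f z) :
    ∀ᵐ x ∂(volume : Measure ℝ), ∀ y, (x, y) ∈ G → ψ (x, y) = f (x, y) := by
  filter_upwards [hV, fin_vert hG hu hu2, ae_vert hZ] with x h1 h2 h3
  have hO : IsOpen {y : ℝ | (x, y) ∈ G} := hG.preimage (by fun_prop)
  refine eq_on_open hO (cont_of_bound hO (mvert hu x) h2 (ω := fun _ => 0) tendsto_const_nhds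
    monotone_const fun y y' hy hsub => ?_) ?_ h3
  · rw [ENNReal.ofReal_zero, add_zero]
    exact h1 y y' hy fun t ht => hsub ht
  · exact hf.comp (by fun_prop) fun x hx => hx

/-- a function continuous near a vertical segment which is almost everywhere equal to `c` on its
interior is equal to `c` on the whole segment -/
theorem const_on_segment {G : Set (ℝ × ℝ)} {Ψ f : ℝ × ℝ → ℝ} (hf : ContinuousOn f G)
    (hline : ∀ᵐ y ∂(volume : Measure ℝ), ∀ x, (x, y) ∈ G → Ψ (x, y) = f (x, y))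
    {x b t c : ℝ} (hbt : b < t) (hsub : ∀ y ∈ Icc b t, (x, y) ∈ G)
    (hc : ∀ᵐ y ∂(volume : Measure ℝ), y ∈ Ioo b t → Ψ (x, y) = c) :
    ∀ y ∈ Icc b t, f (x, y) = c := by
  have hcont : ContinuousOn (fun y => f (x, y)) (Icc b t) :=
    hf.comp (by fun_prop) fun y hy => hsub y hy
  have h1 : ∀ y ∈ Ioo b t, f (x, y) = c := by
    refine eq_on_open isOpen_Ioo (hcont.mono Ioo_subset_Icc_self) continuousOn_const ?_
    filter_upwards [hline, hc] with y hy1 hy2 hy
    rw [← hy1 x (hsub y ⟨hy.1.le, hy.2.le⟩)]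
    exact hy2 hy
  intro y hy
  have hcl : y ∈ closure (Ioo b t) := by rw [closure_Ioo hbt.ne]; exact hy
  have hcont' : ContinuousOn (fun y => f (x, y)) (closure (Ioo b t)) := by
    rw [closure_Ioo hbt.ne]; exact hcont
  exact (closure_minimal (s := Ioo b t) (t := {y | y ∈ closure (Ioo b t) ∧ f (x, y) = c})
    (fun y hy => ⟨subset_closure hy, h1 y hy⟩)
    (by
      have := hcont'.preimage_isClosed_of_isClosed isClosed_closure (isClosed_singleton (x := c))
      exact this) hcl).2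

end Crest.Agent.R105.Psi_425
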