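import Crest.Agent.R105.Psi3_425
import Crest.Agent.R105.Mp6_87

/-!
Row 105, lemma A, analytic half: the continuous representative of the stream function of the lower
problem, from `Lines` (helper87) and the maximum principle `MPat`.
-/

open MeasureTheory Set Filter Topology
open scoped ENNReal NNReal

namespace Crest.Agent.R105.Psi_425

open Sq_363 Mp_87

variable {a b c B σ : ℝ} {X1 X2 ψ Ψ : ℝ × ℝ → ℝ} {μ : Measure (ℝ × ℝ)}

/-- points at which the maximum principle can be used in all small squares -/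
def Adm (a b c : ℝ) (μ : Measure (ℝ × ℝ)) (PR : ℝ → ℝ → ℝ → ℝ → Prop) : Set (ℝ × ℝ) :=
  {z | ∃ r > 0, a < z.1 - 2 * r ∧ z.1 + 2 * r < b ∧ c < z.2 - 2 * r ∧
    (∀ x ∈ Icc (z.1 - 2 * r) (z.1 + 2 * r), μ {q | q.1 = x ∧ q.2 < z.2 + 2 * r} = 0) ∧
    ∀ x0 x1 y0 y1, z.1 - 2 * r < x0 → x0 < x1 → x1 < z.1 + 2 * r → z.2 - 2 * r < y0 → y0 < y1 →
      y1 < z.2 + 2 * r → PR x0 x1 y0 y1}

theorem Adm.sub {PR : ℝ → ℝ → ℝ → ℝ → Prop} :
    Adm a b c μ PR ⊆ Ioo a b ×ˢ Ioi c := by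
  rintro z ⟨r, hr, h1, h2, h3, -, -⟩
  exact ⟨⟨by linarith, by linarith⟩, by show c < z.2; linarith⟩

/-- admissibility is inherited by smaller squares around nearby points -/
theorem adm_shrink {PR : ℝ → ℝ → ℝ → ℝ → Prop} {z : ℝ × ℝ} {r : ℝ}
    (h1 : a < z.1 - 2 * r) (h2 : z.1 + 2 * r < b) (h3 : c < z.2 - 2 * r)
    (h4 : ∀ x ∈ Icc (z.1 - 2 * r) (z.1 + 2 * r), μ {q | q.1 = x ∧ q.2 < z.2 + 2 * r} = 0)
    (h5 : ∀ x0 x1 y0 y1, z.1 - 2 * r < x0 → x0 < x1 → x1 < z.1 + 2 * r → z.2 - 2 * r < y0 →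
      y0 < y1 → y1 < z.2 + 2 * r → PR x0 x1 y0 y1)
    {z' : ℝ × ℝ} {r' : ℝ} (hx1 : z.1 - 2 * r ≤ z'.1 - 2 * r') (hx2 : z'.1 + 2 * r' ≤ z.1 + 2 * r)
    (hy1 : z.2 - 2 * r ≤ z'.2 - 2 * r') (hy2 : z'.2 + 2 * r' ≤ z.2 + 2 * r) :
    a < z'.1 - 2 * r' ∧ z'.1 + 2 * r' < b ∧ c < z'.2 - 2 * r' ∧
    (∀ x ∈ Icc (z'.1 - 2 * r') (z'.1 + 2 * r'), μ {q | q.1 = x ∧ q.2 < z'.2 + 2 * r'} = 0) ∧
    ∀ x0 x1 y0 y1, z'.1 - 2 * r' < x0 → x0 < x1 → x1 < z'.1 + 2 * r' → z'.2 - 2 * r' < y0 →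
      y0 < y1 → y1 < z'.2 + 2 * r' → PR x0 x1 y0 y1 := by
  refine ⟨by linarith, by linarith, by linarith, fun x hx => ?_, fun x0 x1 y0 y1 e1 e2 e3 e4 e5 e6 =>
    h5 x0 x1 y0 y1 (by linarith) e2 (by linarith) (by linarith) e5 (by linarith)⟩
  refine measure_mono_null ?_ (h4 x ⟨by linarith [hx.1], by linarith [hx.2]⟩)
  rintro q ⟨q1, q2⟩
  exact ⟨q1, by linarith⟩

theorem isOpen_Adm {PR : ℝ → ℝ → ℝ → ℝ → Prop} : IsOpen (Adm a b c μ PR) := by
  rw [isOpen_iff_mem_nhds]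
  rintro z ⟨r, hr, h1, h2, h3, h4, h5⟩
  refine mem_of_superset ((isOpen_Qo z r).mem_nhds ⟨⟨by linarith, by linarith⟩,
    ⟨by linarith, by linarith⟩⟩) ?_
  rintro z' ⟨hz1, hz2⟩
  exact ⟨r / 2, by positivity, adm_shrink h1 h2 h3 h4 h5 (by linarith [hz1.1])
    (by linarith [hz1.2]) (by linarith [hz2.1]) (by linarith [hz2.2])⟩

/-- small squares have small energy -/
theorem tendsto_energy {X : ℝ × ℝ → ℝ} (hX : MemLp X 2 (volume : Measure (ℝ × ℝ))) (u v : ℝ) :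
    Tendsto (fun r : ℝ => Real.sqrt (∫ p in Rc (u - 2 * r) (u + 2 * r) (v - 2 * r) (v + 2 * r),
      X p ^ 2)) (𝓝[>] 0) (𝓝 0) := by
  have h1 : Tendsto (fun r : ℝ => ∫ p in Rc (u - 2 * r) (u + 2 * r) (v - 2 * r) (v + 2 * r),
      X p ^ 2) (𝓝[>] 0) (𝓝 0) := by
    refine hX.integrable_sq.tendsto_setIntegral_nhds_zero ?_
    have h2 : ∀ r : ℝ, volume (Rc (u - 2 * r) (u + 2 * r) (v - 2 * r) (v + 2 * r)) =
        ENNReal.ofReal (4 * r) * ENNReal.ofReal (4 * r) := by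
      intro r
      rw [Rc, Measure.volume_eq_prod, Measure.prod_prod, Real.volume_Ioo, Real.volume_Ioo]
      congr 2 <;> ring
    show Tendsto (fun r : ℝ => volume (Rc (u - 2 * r) (u + 2 * r) (v - 2 * r) (v + 2 * r)))
      (𝓝[>] 0) (𝓝 0)
    simp_rw [h2]
    have h3 : Tendsto (fun r : ℝ => ENNReal.ofReal (4 * r)) (𝓝[>] 0) (𝓝 0) := by
      have h4 : Tendsto (fun r : ℝ => 4 * r) (𝓝[>] 0) (𝓝 0) := by
        have : Tendsto (fun r : ℝ => 4 * r) (𝓝 0) (𝓝 (4 * 0)) :=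
          (continuous_const.mul continuous_id).tendsto 0
        rw [mul_zero] at this
        exact this.mono_left nhdsWithin_le_nhds
      simpa using ENNReal.tendsto_ofReal h4
    have h5 := ENNReal.Tendsto.mul h3 (Or.inr ENNReal.zero_ne_top) h3
      (Or.inr ENNReal.zero_ne_top)
    simpa using h5
  have h2 := (Real.continuous_sqrt.tendsto 0).comp h1
  rw [Real.sqrt_zero] at h2
  exact h2

/-- small squares without atoms have small flux -/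
theorem tendsto_flux [IsFiniteMeasure μ] {u t : ℝ} (hu : μ {q | q.1 = u ∧ q.2 < t} = 0) :
    Tendsto (fun r : ℝ => (μ {q | q.1 ∈ Icc (u - 2 * r) (u + 2 * r) ∧ q.2 < t}).toReal)
      (𝓝[>] 0) (𝓝 0) := by
  have h1 : Tendsto (fun r : ℝ => μ {q | q.1 ∈ Icc (u - 2 * r) (u + 2 * r) ∧ q.2 < t})
      (𝓝[>] 0) (𝓝 (μ (⋂ r > (0:ℝ), {q | q.1 ∈ Icc (u - 2 * r) (u + 2 * r) ∧ q.2 < t}))) := by
    refine tendsto_measure_biInter_gt (fun r _ => ?_) (fun i j _ hij => ?_) ⟨1, one_pos,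
      measure_ne_top _ _⟩
    · exact ((measurable_fst measurableSet_Icc).inter
        (measurableSet_lt measurable_snd measurable_const)).nullMeasurableSet
    · rintro q ⟨q1, q2⟩
      exact ⟨⟨by linarith [q1.1], by linarith [q1.2]⟩, q2⟩
  have h2 : μ (⋂ r > (0:ℝ), {q : ℝ × ℝ | q.1 ∈ Icc (u - 2 * r) (u + 2 * r) ∧ q.2 < t}) = 0 := by
    refine measure_mono_null ?_ hu
    intro q hq
    simp only [mem_iInter] at hq
    refine ⟨?_, (hq 1 one_pos).2⟩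
    refine le_antisymm (le_of_forall_pos_le_add fun ε hε => ?_)
      (le_of_forall_pos_le_add fun ε hε => ?_)
    · have := (hq (ε / 2) (by positivity)).1.2
      linarith
    · have := (hq (ε / 2) (by positivity)).1.1
      linarith
  rw [h2] at h1
  have h3 := (ENNReal.tendsto_toReal ENNReal.zero_ne_top).comp h1
  rw [ENNReal.toReal_zero] at h3
  exact h3

/-- the oscillation of `ψ` is small near every admissible point -/
theorem small_osc_adm [IsFiniteMeasure μ] (L : Lines a b c B σ X1 X2 μ ψ Ψ) (hσ : |σ| = 1)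
    {PX PY : ℝ → Prop} {PR : ℝ → ℝ → ℝ → ℝ → Prop} (hPX : ∀ᵐ x, x ∈ Ioo a b → PX x)
    (hPY : ∀ᵐ y, c < y → PY y)
    (mp : MPat a b c σ X1 X2 μ ψ Ψ PX PY PR)
    (mn : MPat a b c (-σ) (fun p => -X1 p) (fun p => -X2 p) μ (fun p => -ψ p) (fun p => -Ψ p)
      PX PY PR) :
    ∀ z ∈ Adm a b c μ PR, ∀ ε > 0, ∃ O, IsOpen O ∧ z ∈ O ∧ EOsc univ O ψ ε := by
  rintro z ⟨r₀, hr₀, h1, h2, h3, h4, h5⟩ ε hε
  have hatom : μ {q | q.1 = z.1 ∧ q.2 < z.2 + 2 * r₀} = 0 :=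
    h4 z.1 ⟨by linarith, by linarith⟩
  have hT := (((tendsto_energy L.L1 z.1 z.2).const_mul 4).add
    ((tendsto_energy L.L2 z.1 z.2).const_mul 4)).add (tendsto_flux hatom)
  simp only [mul_zero, add_zero] at hT
  have hev := (hT.eventually (gt_mem_nhds (half_pos hε))).and
    (Ioo_mem_nhdsGT hr₀)
  obtain ⟨r, hrε, hr⟩ := hev.exists
  obtain ⟨e1, e2, e3, e4, e5⟩ := adm_shrink (z' := z) (r' := r) h1 h2 h3 h4 h5
    (by linarith [hr.2]) (by linarith [hr.2]) (by linarith [hr.2]) (by linarith [hr.2])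
  obtain ⟨m0, hm0⟩ := osc L hσ hPX hPY mp mn hr.1 e1 e2 e3 e4 e5
  refine ⟨Qo z r, isOpen_Qo z r, ⟨⟨by linarith [hr.1], by linarith [hr.1]⟩,
    ⟨by linarith [hr.1], by linarith [hr.1]⟩⟩, ?_⟩
  refine eosc_of_bounds (m := m0 - ε / 2) (M := m0 + ε / 2) ?_ (by linarith)
  rw [ae_restrict_iff' (measurableSet_Rc _ _ _ _)] at hm0
  filter_upwards [hm0] with p hp hpQ
  have hp1 := hp hpQ.1
  have hflux : (μ {q | q.1 ∈ Ico (z.1 - 2 * r) (z.1 + 2 * r) ∧ q.2 < z.2 + 2 * r}).toReal ≤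
      (μ {q | q.1 ∈ Icc (z.1 - 2 * r) (z.1 + 2 * r) ∧ q.2 < z.2 + 2 * r₀}).toReal := by
    refine ENNReal.toReal_mono (measure_ne_top _ _) (measure_mono ?_)
    rintro q ⟨q1, q2⟩
    exact ⟨⟨q1.1, q1.2.le⟩, by linarith [hr.2]⟩
  have : |ψ p - m0| ≤ ε / 2 := by
    refine hp1.trans (le_trans ?_ hrε.le)
    linarith
  rw [abs_le] at this
  exact ⟨by linarith [this.1], by linarith [this.2]⟩

/-- **continuous representative of the stream function (lower problem)** -/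
theorem exists_cont [IsFiniteMeasure μ] (L : Lines a b c B σ X1 X2 μ ψ Ψ) (hσ : |σ| = 1)
    {PX PY : ℝ → Prop} {PR : ℝ → ℝ → ℝ → ℝ → Prop} (hPX : ∀ᵐ x, x ∈ Ioo a b → PX x)
    (hPY : ∀ᵐ y, c < y → PY y)
    (mp : MPat a b c σ X1 X2 μ ψ Ψ PX PY PR)
    (mn : MPat a b c (-σ) (fun p => -X1 p) (fun p => -X2 p) μ (fun p => -ψ p) (fun p => -Ψ p)
      PX PY PR) :
    ∃ f : ℝ × ℝ → ℝ, ContinuousOn f (Adm a b c μ PR) ∧
      (∀ᵐ z ∂(volume : Measure (ℝ × ℝ)), z ∈ Adm a b c μ PR → ψ z = f z) ∧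
      (∀ᵐ y ∂(volume : Measure ℝ), ∀ x, (x, y) ∈ Adm a b c μ PR → Ψ (x, y) = f (x, y)) ∧
      (∀ᵐ x ∂(volume : Measure ℝ), ∀ y, (x, y) ∈ Adm a b c μ PR → ψ (x, y) = f (x, y)) := by
  obtain ⟨f, hf, hae, -⟩ := cont_rep (A := univ) (small_osc_adm L hσ hPX hPY mp mn)
    (fun z hz O hO hzO => by
      rw [inter_univ]; exact (hO.measure_pos volume ⟨z, hzO⟩).ne')
  have hae' : ∀ᵐ z ∂(volume : Measure (ℝ × ℝ)), z ∈ Adm a b c μ PR → ψ z = f z := by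
    filter_upwards [hae] with z hz hzA
    exact hz ⟨mem_univ _, hzA⟩
  have haeΨ : ∀ᵐ z ∂(volume : Measure (ℝ × ℝ)), z ∈ Adm a b c μ PR → Ψ z = f z := by
    filter_upwards [hae', L.E] with z hz hE hzA
    have := Adm.sub hzA
    rw [hE this.1 this.2, hz hzA]
  refine ⟨f, hf, hae', ?_, ?_⟩
  · filter_upwards [L.goodY, ae_hor haeΨ] with y hy h3
    have hO : IsOpen {x : ℝ | (x, y) ∈ Adm a b c μ PR} := isOpen_Adm.preimage (by fun_prop)
    refine eq_on_open hO ?_ (hf.comp (by fun_prop) fun x hx => hx) h3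
    rintro x ⟨r, hr, h1, h2, h3, h4, -⟩
    simp only at h1 h2 h3 h4
    have hyc : c < y := by linarith
    have hcont := (hy hyc).continuousOn h1 h2 (fun x' hx' => by
      refine measure_mono_null ?_ (h4 x' hx')
      rintro q ⟨q1, q2⟩
      exact ⟨q1, by linarith⟩)
    exact (hcont.continuousAt (Icc_mem_nhds (by linarith) (by linarith))).continuousWithinAt
  · filter_upwards [L.goodX, ae_vert hae'] with x hx h3
    have hO : IsOpen {y : ℝ | (x, y) ∈ Adm a b c μ PR} := isOpen_Adm.preimage (by fun_prop)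
    refine eq_on_open hO ?_ (hf.comp (by fun_prop) fun y hy => hy) h3
    intro y hy
    have hy' := Adm.sub hy
    have G := hx hy'.1
    have hyc : c < y := hy'.2
    -- `ψ (x, ·)` is a primitive on `(c, ∞)`
    set y₀ : ℝ := (c + y) / 2 with hy₀
    have hy₀c : c < y₀ := by rw [hy₀]; linarith
    have hy₀y : y₀ < y := by rw [hy₀]; linarith
    have hcont : Continuous fun t => ψ (x, y₀) + ∫ s in y₀..t, X1 (x, s) :=
      continuous_const.add (intervalIntegral.continuous_primitive G.int y₀)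
    refine (hcont.continuousAt.congr ?_).continuousWithinAt
    filter_upwards [Ioi_mem_nhds hy₀y] with t ht
    have := G.V y₀ t hy₀c (le_of_lt ht)
    linarith

end Crest.Agent.R105.Psi_425
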