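import Crest.Agent.R105.Mp1_87

/-!
Row 105 (helper425): absolutely continuous functions on lines: gluing across a closed set where
the function vanishes (`ac_glue`), integration by parts with compact support in an open set
(`ibp_open`).
-/

open MeasureTheory Set Filter Topology

namespace Crest.Agent.R105.Psi5_425

open Mp_87

local notation "AC" => AbsolutelyContinuousOnInterval

theorem ac_congr {f g : ℝ → ℝ} {a b : ℝ} (hf : AC f a b) (h : ∀ x ∈ uIcc a b, g x = f x) :
    AC g a b :=
  ac_of_abs_le hf fun x hx x' hx' => by rw [h x hx, h x' hx']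

theorem ac_lip {f h : ℝ → ℝ} {a b C : ℝ} (hf : AC f a b) (hC : 0 ≤ C)
    (hh : ∀ s t, |h s - h t| ≤ C * |s - t|) : AC (fun x => h (f x)) a b := by
  refine ac_of_abs_le (hf.const_mul C) fun x _ x' _ => ?_
  rw [← mul_sub, abs_mul, abs_of_nonneg hC]
  exact hh _ _

theorem ac_const (a b c : ℝ) : AC (fun _ => c) a b := by
  have h : LipschitzOnWith 0 (fun _ : ℝ => c) (uIcc a b) := by
    intro x _ y _
    simp
  exact h.absolutelyContinuousOnInterval

/-- line formula ⟹ AC -/
theorem ac_of_line {f g : ℝ → ℝ} {a b : ℝ} (hab : a ≤ b) (hg : IntervalIntegrable g volume a b)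
    (h : ∀ x ∈ Icc a b, f x - f a = ∫ t in a..x, g t) : AC f a b := by
  have h1 := hg.absolutelyContinuousOnInterval_intervalIntegral (c := a) left_mem_uIcc
  refine ac_congr (h1.add (ac_const a b (f a))) fun x hx => ?_
  rw [uIcc_of_le hab] at hx
  have := h x hx
  show f x = (∫ v in a..x, g v) + f a
  linarith

/-- increments bounded by an integral ⟹ AC -/
theorem ac_of_bound {f g : ℝ → ℝ} {a b : ℝ} (hab : a ≤ b)
    (hg : IntervalIntegrable g volume a b)
    (h : ∀ s t, a ≤ s → s ≤ t → t ≤ b → |f t - f s| ≤ ∫ r in s..t, |g r|) : AC f a b := by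
  have hga : IntervalIntegrable (fun r => |g r|) volume a b := hg.abs
  have h1 := hga.absolutelyContinuousOnInterval_intervalIntegral (c := a) left_mem_uIcc
  refine ac_of_abs_le h1 ?_
  have key : ∀ s ∈ uIcc a b, ∀ t ∈ uIcc a b, s ≤ t →
      |f s - f t| ≤ |(∫ v in a..s, |g v|) - (∫ v in a..t, |g v|)| := by
    intro s hs t ht hst
    rw [uIcc_of_le hab] at hs ht
    have h2 : (∫ v in a..t, |g v|) - (∫ v in a..s, |g v|) = ∫ v in s..t, |g v| := by
      rw [sub_eq_iff_eq_add', intervalIntegral.integral_add_adjacent_intervals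
        (ii_mono hga ⟨le_refl a, hab⟩ hs) (ii_mono hga hs ht)]
    rw [abs_sub_comm (∫ v in a..s, |g v|), h2, abs_sub_comm]
    exact (h s t hs.1 hst ht.2).trans (le_abs_self _)
  intro x hx x' hx'
  rcases le_total x x' with h3 | h3
  · exact key x hx x' hx' h3
  · have := key x' hx' x hx h3
    rwa [abs_sub_comm, abs_sub_comm (∫ v in a..x', |g v|)] at this

/-- **gluing**: `w` continuous, zero on the closed set `F`, increments bounded by `∫ |h|` on
segments off `F` ⟹ increments bounded by `∫ |h|` on all segments. -/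
theorem glue_bound {w h : ℝ → ℝ} {a b : ℝ} (hw : ContinuousOn w (Icc a b)) {F : Set ℝ}
    (hF : IsClosed F) (h0 : ∀ x ∈ F, x ∈ Icc a b → w x = 0)
    (hh : IntervalIntegrable h volume a b)
    (hb : ∀ s t, a ≤ s → s ≤ t → t ≤ b → (∀ r ∈ Icc s t, r ∉ F) →
      |w t - w s| ≤ ∫ r in s..t, |h r|) :
    ∀ s t, a ≤ s → s ≤ t → t ≤ b → |w t - w s| ≤ ∫ r in s..t, |h r| := by
  intro s t has hst htb
  have hab : a ≤ b := has.trans (hst.trans htb)
  have hha : IntervalIntegrable (fun r => |h r|) volume a b := hh.abs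
  by_cases hne : (Icc s t ∩ F).Nonempty
  swap
  · refine hb s t has hst htb fun r hr hrF => hne ⟨r, hr, hrF⟩
  have hcpt : IsCompact (Icc s t ∩ F) := isCompact_Icc.inter_right hF
  obtain ⟨s', hs', hs'min⟩ := hcpt.exists_isLeast hne
  obtain ⟨t', ht', ht'max⟩ := hcpt.exists_isGreatest hne
  have hs't' : s' ≤ t' := hs'min ht'
  have ii : ∀ u v, s ≤ u → u ≤ v → v ≤ t → IntervalIntegrable (fun r => |h r|) volume u v :=
    fun u v hu huv hv => ii_mono hha ⟨has.trans hu, huv.trans (hv.trans htb)⟩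
      ⟨(has.trans hu).trans huv, hv.trans htb⟩
  have ws' : w s' = 0 := h0 s' hs'.2 ⟨has.trans hs'.1.1, hs'.1.2.trans htb⟩
  have wt' : w t' = 0 := h0 t' ht'.2 ⟨has.trans ht'.1.1, ht'.1.2.trans htb⟩
  have nn : ∀ u v, u ≤ v → 0 ≤ ∫ r in u..v, |h r| := fun u v huv =>
    intervalIntegral.integral_nonneg huv fun r _ => abs_nonneg _
  -- left piece
  have hl : |w s' - w s| ≤ ∫ r in s..s', |h r| := by
    rcases eq_or_lt_of_le hs'.1.1 with he | hlt
    · rw [← he]; simp
    have hT1 : Tendsto (fun r => |w r - w s|) (𝓝[<] s') (𝓝 |w s' - w s|) := by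
      have hc : ContinuousWithinAt w (Icc a b) s' := hw s' ⟨has.trans hs'.1.1, hs'.1.2.trans htb⟩
      have h1 : Tendsto w (𝓝[<] s') (𝓝 (w s')) := by
        refine (hc.mono_left ?_)
        refine nhdsWithin_le_iff.2 ?_
        filter_upwards [Ioo_mem_nhdsLT hlt] with r hr
        exact ⟨has.trans hr.1.le, hr.2.le.trans (hs'.1.2.trans htb)⟩
      exact (h1.sub_const _).abs
    refine le_of_tendsto hT1 ?_
    filter_upwards [Ioo_mem_nhdsLT hlt] with r hr
    have h1 := hb s r has hr.1.le (hr.2.le.trans (hs'.1.2.trans htb)) fun q hq hqF =>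
      absurd (hs'min ⟨⟨hq.1, hq.2.trans (hr.2.le.trans hs'.1.2)⟩, hqF⟩)
        (not_le.2 (lt_of_le_of_lt hq.2 hr.2))
    have h2 := intervalIntegral.integral_add_adjacent_intervals
      (ii s r le_rfl hr.1.le (hr.2.le.trans hs'.1.2)) (ii r s' hr.1.le hr.2.le hs'.1.2)
    have := nn r s' hr.2.le
    linarith
  -- right piece
  have hr' : |w t - w t'| ≤ ∫ r in t'..t, |h r| := by
    rcases eq_or_lt_of_le ht'.1.2 with he | hlt
    · rw [he]; simp
    have hT1 : Tendsto (fun r => |w t - w r|) (𝓝[>] t') (𝓝 |w t - w t'|) := by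
      have hc : ContinuousWithinAt w (Icc a b) t' := hw t' ⟨has.trans ht'.1.1, ht'.1.2.trans htb⟩
      have h1 : Tendsto w (𝓝[>] t') (𝓝 (w t')) := by
        refine (hc.mono_left ?_)
        refine nhdsWithin_le_iff.2 ?_
        filter_upwards [Ioo_mem_nhdsGT hlt] with r hr
        exact ⟨(has.trans ht'.1.1).trans hr.1.le, hr.2.le.trans htb⟩
      exact (h1.const_sub _).abs
    refine le_of_tendsto hT1 ?_
    filter_upwards [Ioo_mem_nhdsGT hlt] with r hr
    have h1 := hb r t ((has.trans ht'.1.1).trans hr.1.le) hr.2.le htb fun q hq hqF =>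
      absurd (ht'max ⟨⟨(ht'.1.1.trans hr.1.le).trans hq.1, hq.2⟩, hqF⟩)
        (not_le.2 (lt_of_lt_of_le hr.1 hq.1))
    have h2 := intervalIntegral.integral_add_adjacent_intervals
      (ii t' r ht'.1.1 hr.1.le hr.2.le) (ii r t (ht'.1.1.trans hr.1.le) hr.2.le le_rfl)
    have := nn t' r hr.1.le
    linarith
  have h3 := intervalIntegral.integral_add_adjacent_intervals
    (ii s s' le_rfl hs'.1.1 hs'.1.2) (ii s' t' hs'.1.1 hs't' ht'.1.2)
  have h4 := intervalIntegral.integral_add_adjacent_intervals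
    (ii s t' le_rfl (hs'.1.1.trans hs't') ht'.1.2) (ii t' t ht'.1.1 ht'.1.2 le_rfl)
  have h5 := nn s' t' hs't'
  rw [ws'] at hl
  rw [wt'] at hr'
  have h6 : |w t - w s| ≤ |w t - 0| + |0 - w s| := by
    have := abs_add_le (w t - 0) (0 - w s)
    have e : w t - 0 + (0 - w s) = w t - w s := by ring
    rwa [e] at this
  linarith

/-- gluing, AC form -/
theorem ac_glue {w h : ℝ → ℝ} {a b : ℝ} (hab : a ≤ b) (hw : ContinuousOn w (Icc a b)) {F : Set ℝ}
    (hF : IsClosed F) (h0 : ∀ x ∈ F, x ∈ Icc a b → w x = 0)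
    (hh : IntervalIntegrable h volume a b)
    (hb : ∀ s t, a ≤ s → s ≤ t → t ≤ b → (∀ r ∈ Icc s t, r ∉ F) →
      |w t - w s| ≤ ∫ r in s..t, |h r|) : AC w a b :=
  ac_of_bound hab hh (glue_bound hw hF h0 hh hb)

/-- derivative from the local line formula -/
theorem ae_hasDerivAt_of_line {O : Set ℝ} (hO : IsOpen O) {f g : ℝ → ℝ}
    (hg : LocallyIntegrable g volume)
    (h : ∀ s t, s ≤ t → (∀ r ∈ Icc s t, r ∈ O) → f t - f s = ∫ r in s..t, g r) :
    ∀ᵐ x, x ∈ O → HasDerivAt f (g x) x := by
  filter_upwards [_root_.LocallyIntegrable.ae_hasDerivAt_integral hg] with x hx hxO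
  have h1 := (hx x).const_add (f x)
  refine h1.congr_of_eventuallyEq ?_
  obtain ⟨l, u, ⟨hl, hu⟩, hsub⟩ := mem_nhds_iff_exists_Ioo_subset.1 (hO.mem_nhds hxO)
  filter_upwards [Ioo_mem_nhds hl hu] with y hy
  rcases le_total x y with hxy | hxy
  · have := h x y hxy fun r hr => hsub ⟨lt_of_lt_of_le hl hr.1, lt_of_le_of_lt hr.2 hy.2⟩
    linarith
  · have := h y x hxy fun r hr => hsub ⟨lt_of_lt_of_le hy.1 hr.1, lt_of_le_of_lt hr.2 hu⟩
    rw [intervalIntegral.integral_symm]
    linarith

theorem intervalIntegrable_of_li {g : ℝ → ℝ} (hg : LocallyIntegrable g volume) (x y : ℝ) :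
    IntervalIntegrable g volume x y :=
  intervalIntegrable_iff.mpr <|
    (hg.integrableOn_isCompact isCompact_uIcc).mono_set uIoc_subset_uIcc

/-- continuity from the local line formula -/
theorem continuousOn_of_line {O : Set ℝ} (hO : IsOpen O) {f g : ℝ → ℝ}
    (hg : LocallyIntegrable g volume)
    (h : ∀ s t, s ≤ t → (∀ r ∈ Icc s t, r ∈ O) → f t - f s = ∫ r in s..t, g r) :
    ContinuousOn f O := by
  intro x hxO
  refine ContinuousAt.continuousWithinAt ?_
  obtain ⟨l, u, ⟨hl, hu⟩, hsub⟩ := mem_nhds_iff_exists_Ioo_subset.1 (hO.mem_nhds hxO)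
  have hc : Continuous fun y => f x + ∫ r in x..y, g r :=
    continuous_const.add (intervalIntegral.continuous_primitive (intervalIntegrable_of_li hg) x)
  refine hc.continuousAt.congr ?_
  filter_upwards [Ioo_mem_nhds hl hu] with y hy
  rcases le_total x y with hxy | hxy
  · have := h x y hxy fun r hr => hsub ⟨lt_of_lt_of_le hl hr.1, lt_of_le_of_lt hr.2 hy.2⟩
    linarith
  · have := h y x hxy fun r hr => hsub ⟨lt_of_lt_of_le hy.1 hr.1, lt_of_le_of_lt hr.2 hu⟩
    rw [intervalIntegral.integral_symm]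
    linarith

/-- **integration by parts**, compact support in an open set -/
theorem ibp_open {O : Set ℝ} (hO : IsOpen O) {f g : ℝ → ℝ}
    (hg : LocallyIntegrable g volume)
    (h : ∀ s t, s ≤ t → (∀ r ∈ Icc s t, r ∈ O) → f t - f s = ∫ r in s..t, g r)
    {η : ℝ → ℝ} (hη : ContDiff ℝ 1 η) (hc : HasCompactSupport η) (hs : tsupport η ⊆ O) :
    ∫ x, f x * deriv η x = -∫ x, η x * g x := by
  have hfc := continuousOn_of_line hO hg h
  have hηc : Continuous η := hη.continuous
  have hηdc : Continuous (deriv η) := hη.continuous_deriv le_rfl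
  -- a big interval
  obtain ⟨R, hR, hRs⟩ : ∃ R : ℝ, 0 < R ∧ ∀ x, x ∉ Ioo (-R) R → x ∉ tsupport η := by
    obtain ⟨r, hr⟩ := hc.isCompact.isBounded.subset_ball (0 : ℝ)
    refine ⟨max r 1, by positivity, fun x hx hxs => hx ?_⟩
    have := hr hxs
    rw [Metric.mem_ball, dist_zero_right, Real.norm_eq_abs, abs_lt] at this
    have := le_max_left r 1
    exact ⟨by linarith, by linarith⟩
  have hz : ∀ x, x ∉ tsupport η → η x = 0 ∧ deriv η x = 0 := fun x hx =>
    ⟨image_eq_zero_of_notMem_tsupport hx, by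
      have : x ∉ tsupport (deriv η) := fun h' => hx ((tsupport_deriv_subset (𝕜 := ℝ) (f := η)) h')
      exact image_eq_zero_of_notMem_tsupport this⟩
  set w : ℝ → ℝ := fun x => η x * f x with hw
  set k : ℝ → ℝ := fun x => deriv η x * f x + η x * g x with hk
  have hwO : ∀ x, x ∉ O → w =ᶠ[𝓝 x] 0 := by
    intro x hx
    have h1 : x ∉ tsupport η := fun h' => hx (hs h')
    filter_upwards [(notMem_tsupport_iff_eventuallyEq.1 h1)] with y hy
    rw [hw]; show η y * f y = 0; rw [hy]; simp
  have hwc : Continuous w := by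
    rw [continuous_iff_continuousAt]
    intro x
    by_cases hx : x ∈ O
    · exact hηc.continuousAt.mul (hfc.continuousAt (hO.mem_nhds hx))
    · exact (continuousAt_congr (hwO x hx)).2 continuousAt_const
  -- integrability of `k`
  have hdf : Continuous fun x => deriv η x * f x := by
    rw [continuous_iff_continuousAt]
    intro x
    by_cases hx : x ∈ O
    · exact hηdc.continuousAt.mul (hfc.continuousAt (hO.mem_nhds hx))
    · have h1 : x ∉ tsupport (deriv η) := fun h' =>
        hx (hs ((tsupport_deriv_subset (𝕜 := ℝ) (f := η)) h'))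
      have h2 : (fun x => deriv η x * f x) =ᶠ[𝓝 x] fun _ => 0 := by
        filter_upwards [(notMem_tsupport_iff_eventuallyEq.1 h1)] with y hy
        rw [hy]; simp
      exact (continuousAt_congr h2).2 continuousAt_const
  have hηg : LocallyIntegrable (fun x => η x * g x) volume := by
    have := hg.smul_continuous hηc
    refine this.congr (Eventually.of_forall fun x => ?_)
    show _ = η x * g x
    simp [mul_comm]
  have hkl : LocallyIntegrable k volume := hdf.locallyIntegrable.add hηg
  have hder : ∀ᵐ x, HasDerivAt w (k x) x := by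
    filter_upwards [ae_hasDerivAt_of_line hO hg h] with x hx
    by_cases hxO : x ∈ O
    · have h1 : HasDerivAt η (deriv η x) x := (hη.differentiable (by norm_num) x).hasDerivAt
      exact h1.mul (hx hxO)
    · have h1 : x ∉ tsupport η := fun h' => hxO (hs h')
      have h2 : k x = 0 := by
        rw [hk]; simp only; rw [(hz x h1).1, (hz x h1).2]; ring
      rw [h2]
      exact (hasDerivAt_const x (0:ℝ)).congr_of_eventuallyEq (hwO x hxO)
  -- AC on segments in `O`
  have hacO : ∀ s t, s ≤ t → (∀ r ∈ Icc s t, r ∈ O) → |w t - w s| ≤ ∫ r in s..t, |k r| := by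
    intro s t hst hO'
    have h1 : AC f s t := ac_of_line hst (intervalIntegrable_of_li hg s t) fun x hx =>
      h s x hx.1 fun r hr => hO' r ⟨hr.1, hr.2.trans hx.2⟩
    have h2 : AC η s t := (hη.contDiffOn (s := uIcc s t)).absolutelyContinuousOnInterval
    have h3 : AC w s t := h2.mul h1
    rw [← h3.integral_deriv_eq_sub]
    refine (intervalIntegral.abs_integral_le_integral_abs hst).trans (le_of_eq ?_)
    refine intervalIntegral.integral_congr_ae ?_
    filter_upwards [hder] with x hx _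
    rw [hx.deriv]
  have hac : AC w (-R) R := by
    refine ac_glue (by linarith) hwc.continuousOn (F := Oᶜ) hO.isClosed_compl
      (fun x hx _ => (hwO x hx).self_of_nhds) (intervalIntegrable_of_li hkl _ _) ?_
    intro s t _ hst _ hr
    exact hacO s t hst fun r hr' => by
      by_contra hcon
      exact hr r hr' hcon
  have hI := hac.integral_deriv_eq_sub
  have hw1 : w R = 0 := by
    rw [hw]; simp only
    rw [(hz R (hRs R fun h => lt_irrefl _ h.2)).1, zero_mul]
  have hw2 : w (-R) = 0 := by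
    rw [hw]; simp only
    rw [(hz (-R) (hRs (-R) fun h => lt_irrefl _ h.1)).1, zero_mul]
  rw [hw1, hw2, sub_zero] at hI
  have hI2 : ∫ x in (-R)..R, k x = 0 := by
    rw [← hI]
    refine intervalIntegral.integral_congr_ae ?_
    filter_upwards [hder] with x hx _
    rw [hx.deriv]
  have hsupp1 : ∀ x, x ∉ Ioo (-R) R → deriv η x * f x = 0 := fun x hx => by
    rw [(hz x (hRs x hx)).2, zero_mul]
  have hsupp2 : ∀ x, x ∉ Ioo (-R) R → η x * g x = 0 := fun x hx => by
    rw [(hz x (hRs x hx)).1, zero_mul]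
  have hfull : ∀ q : ℝ → ℝ, (∀ x, x ∉ Ioo (-R) R → q x = 0) →
      ∫ x in (-R)..R, q x = ∫ x, q x := by
    intro q hq
    rw [intervalIntegral.integral_of_le (by linarith), ← integral_indicator measurableSet_Ioc]
    congr 1
    funext x
    by_cases hx : x ∈ Ioc (-R) R
    · rw [indicator_of_mem hx]
    · rw [indicator_of_notMem hx, hq x fun h' => hx ⟨h'.1, h'.2.le⟩]
  have hI3 : (∫ x in (-R)..R, deriv η x * f x) + ∫ x in (-R)..R, η x * g x = 0 := by
    rw [← intervalIntegral.integral_add (hdf.intervalIntegrable _ _)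
      (intervalIntegrable_of_li hηg _ _)]
    exact hI2
  rw [hfull _ hsupp1, hfull _ hsupp2] at hI3
  have : ∫ x, f x * deriv η x = ∫ x, deriv η x * f x := by congr 1; funext x; ring
  rw [this]
  linarith

end Crest.Agent.R105.Psi5_425
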