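import Crest.Agent.R105.Psi5_425
import Crest.Agent.R105.Skp2_257

/-!
Row 105 (helper425): the class `PL E G` from absolute continuity on a.e. line; oscillation zero
from continuity; truncation.
-/

open MeasureTheory Set Filter Topology
open scoped NNReal ENNReal

namespace Crest.Agent.R105.Psi6_425

open Psi5_425 CF_363 Stp_722 Skp2_257

local notation "AC" => AbsolutelyContinuousOnInterval

/-- Rademacher for locally Lipschitz functions on an open set -/
theorem ae_differentiableAt_of_ll {V : Set (ℝ × ℝ)} (hV : IsOpen V) {u : ℝ × ℝ → ℝ}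
    (h : LocallyLipschitzOn V u) : ∀ᵐ p : ℝ × ℝ, p ∈ V → DifferentiableAt ℝ u p := by
  have : volume {p : ℝ × ℝ | ¬ (p ∈ V → DifferentiableAt ℝ u p)} = 0 := by
    refine measure_null_of_locally_null _ fun p hp => ?_
    have hpV : p ∈ V := by
      by_contra hc
      exact hp fun h => absurd h hc
    obtain ⟨K, t, ht, hl⟩ := h hpV
    have ht' : t ∈ 𝓝 p := by rwa [hV.nhdsWithin_eq hpV] at ht
    obtain ⟨r, hr, hrt⟩ := Metric.mem_nhds_iff.1 ht'
    have hl' : LipschitzOnWith K u (Metric.ball p r) := hl.mono hrt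
    have h1 := hl'.ae_differentiableWithinAt_of_mem (μ := (volume : Measure (ℝ × ℝ)))
    refine ⟨{p | ¬ (p ∈ V → DifferentiableAt ℝ u p)} ∩ Metric.ball p r,
      inter_mem_nhdsWithin _ (Metric.ball_mem_nhds p hr), ?_⟩
    have h2 : ∀ᵐ q : ℝ × ℝ, ¬ (q ∈ {p | ¬ (p ∈ V → DifferentiableAt ℝ u p)} ∩ Metric.ball p r) := by
      filter_upwards [h1] with q hq
      rintro ⟨hq1, hq2⟩
      exact hq1 fun _ => (hq hq2).differentiableAt (Metric.isOpen_ball.mem_nhds hq2)
    rw [ae_iff] at h2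
    simp only [not_not] at h2
    exact h2
  exact this

theorem ll_of_contDiffOn {V : Set (ℝ × ℝ)} (hV : IsOpen V) {u : ℝ × ℝ → ℝ}
    (h : ContDiffOn ℝ 1 u V) : LocallyLipschitzOn V u := by
  intro p hp
  obtain ⟨K, t, ht, hl⟩ := (h.contDiffAt (hV.mem_nhds hp)).exists_lipschitzOnWith
  exact ⟨K, t, mem_nhdsWithin_of_mem_nhds ht, hl⟩

/-- FTC on a line from AC and a.e. known derivative -/
theorem line_of_ac {φ g : ℝ → ℝ} {a b : ℝ} (h : AC φ a b)
    (hd : ∀ᵐ s, deriv φ s = g s) :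
    IntervalIntegrable g volume a b ∧ φ b - φ a = ∫ s in a..b, g s := by
  have h1 := h.intervalIntegrable_deriv
  refine ⟨h1.congr_ae (ae_restrict_of_ae hd), ?_⟩
  rw [← h.integral_deriv_eq_sub]
  exact intervalIntegral.integral_congr_ae (hd.mono fun s hs _ => hs)

/-- **PL from AC on a.e. line.** -/
theorem pl_of_ac {E G : Set (ℝ × ℝ)} (hE : IsClosed E) (hnull : volume E = 0) {u : ℝ × ℝ → ℝ}
    (bdd : ∃ M : ℝ, ∀ p, |u p| ≤ M) (cont : ContinuousOn u Gᶜ) (lip : LocallyLipschitzOn Eᶜ u)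
    (fin : IntegrableOn (g2 u) Eᶜ)
    (hor : ∀ᵐ y : ℝ, ∀ a b, a ≤ b → (∀ x ∈ Icc a b, (x, y) ∉ G) → AC (fun s => u (s, y)) a b)
    (ver : ∀ᵐ x : ℝ, ∀ a b, a ≤ b → (∀ y ∈ Icc a b, (x, y) ∉ G) → AC (fun s => u (x, s)) a b) :
    PL E G u := by
  have hdiff : ∀ᵐ p : ℝ × ℝ, DifferentiableAt ℝ u p := by
    have h1 : ∀ᵐ p : ℝ × ℝ, p ∉ E := measure_eq_zero_iff_ae_notMem.mp hnull
    filter_upwards [ae_differentiableAt_of_ll hE.isOpen_compl lip, h1] with p h2 h3
    exact h2 h3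
  refine ⟨bdd, cont, lip, fin, ?_, ?_⟩
  · filter_upwards [hor, CF_363.ae_swap hdiff] with y h1 h2 a b hab hG
    exact line_of_ac (h1 a b hab hG) (h2.mono fun s hs => (gx_eq_deriv hs).deriv)
  · filter_upwards [ver, ae_unswap hdiff] with x h1 h2 a b hab hG
    exact line_of_ac (h1 a b hab hG) (h2.mono fun s hs => (gy_eq_deriv hs).deriv)

/-- continuous at the points of the compact set `P`, constant on `P` ⟹ oscillation zero -/
theorem oscLe_of_const {X : Type*} [TopologicalSpace X] {V P : Set X} {u : X → ℝ}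
    (hc : ∀ p ∈ P, ContinuousAt u p) (h : ∀ p ∈ P, ∀ q ∈ P, u p = u q) : OscLe V P u 0 := by
  intro ε hε
  rcases P.eq_empty_or_nonempty with rfl | ⟨p₀, hp₀⟩
  · exact ⟨∅, isOpen_empty, Subset.rfl, fun q hq => absurd hq.1 (notMem_empty _)⟩
  have h1 : ∀ p ∈ P, ∃ O, IsOpen O ∧ p ∈ O ∧ ∀ q ∈ O, |u q - u p₀| < ε / 2 := by
    intro p hp
    have h2 := Metric.continuousAt_iff'.1 (hc p hp) (ε / 2) (by positivity)
    obtain ⟨O, hO, hOo, hpO⟩ := eventually_nhds_iff.1 h2
    refine ⟨O, hOo, hpO, fun q hq => ?_⟩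
    have := hO q hq
    rw [Real.dist_eq, h p hp p₀ hp₀] at this
    exact this
  choose! O hOo hpO hO using h1
  refine ⟨⋃ p ∈ P, O p, isOpen_biUnion hOo, fun p hp => mem_biUnion hp (hpO p hp), ?_⟩
  rintro q ⟨hq, -⟩ q' ⟨hq', -⟩
  simp only [mem_iUnion] at hq hq'
  obtain ⟨p, hp, hqp⟩ := hq
  obtain ⟨p', hp', hqp'⟩ := hq'
  have h3 := hO p hp q hqp
  have h4 := hO p' hp' q' hqp'
  rw [abs_lt] at h3 h4
  rw [abs_le]
  constructor <;> linarith [h3.1, h3.2, h4.1, h4.2]

/-! ### truncation -/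

/-- truncation at `± M` -/
noncomputable def trunc (M t : ℝ) : ℝ := max (-M) (min M t)

theorem trunc_lip (M s t : ℝ) : |trunc M s - trunc M t| ≤ 1 * |s - t| := by
  rw [one_mul]
  unfold trunc
  refine (abs_max_sub_max_le_max _ _ _ _).trans ?_
  refine max_le (by simp) ?_
  refine (abs_min_sub_min_le_max _ _ _ _).trans ?_
  exact max_le (by simp) le_rfl

theorem trunc_lipschitz (M : ℝ) : LipschitzWith 1 (trunc M) := by
  refine LipschitzWith.of_dist_le_mul fun s t => ?_
  rw [Real.dist_eq, Real.dist_eq]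
  exact trunc_lip M s t

theorem abs_trunc_le {M : ℝ} (hM : 0 ≤ M) (t : ℝ) : |trunc M t| ≤ M := by
  unfold trunc
  rw [abs_le]
  exact ⟨le_max_left _ _, max_le (by linarith) (min_le_left _ _)⟩

theorem trunc_eq {M t : ℝ} (h : |t| ≤ M) : trunc M t = t := by
  rw [abs_le] at h
  unfold trunc
  rw [min_eq_right h.2, max_eq_right h.1]

theorem trunc_zero {M : ℝ} (hM : 0 ≤ M) : trunc M 0 = 0 := trunc_eq (by simpa)

/-- gradient of the truncation -/
theorem fderiv_trunc {M : ℝ} (hM : 0 < M) {u : ℝ × ℝ → ℝ} {p : ℝ × ℝ} (hu : ContinuousAt u p) :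
    fderiv ℝ (fun q => trunc M (u q)) p = if |u p| < M then fderiv ℝ u p else 0 := by
  split_ifs with h
  · refine Filter.EventuallyEq.fderiv_eq ?_
    have h1 : ∀ᶠ q in 𝓝 p, |u q| < M := (hu.abs).eventually (gt_mem_nhds h)
    filter_upwards [h1] with q hq
    exact trunc_eq hq.le
  · rw [not_lt] at h
    rcases le_abs.1 h with h1 | h1
    · refine IsLocalMax.fderiv_eq_zero (f := fun q => trunc M (u q)) ?_
      have h2 : trunc M (u p) = M := by
        unfold trunc
        rw [min_eq_left h1, max_eq_right (by linarith)]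
      refine Eventually.of_forall fun q => ?_
      show trunc M (u q) ≤ trunc M (u p)
      rw [h2]
      exact (abs_le.1 (abs_trunc_le hM.le (u q))).2
    · refine IsLocalMin.fderiv_eq_zero (f := fun q => trunc M (u q)) ?_
      have h2 : trunc M (u p) = -M := by
        unfold trunc
        exact max_eq_left ((min_le_right _ _).trans (by linarith))
      refine Eventually.of_forall fun q => ?_
      show trunc M (u p) ≤ trunc M (u q)
      rw [h2]
      exact (abs_le.1 (abs_trunc_le hM.le (u q))).1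

end Crest.Agent.R105.Psi6_425
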