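import Crest.Agent.R105.Psi6_425
import Crest.Agent.R105.MsC_425
import Crest.Agent.R105.Mp3_87

/-!
Row 105 (helper425): from line formulas to weak gradients in the plane, lines of the smoothed
function.
-/

open MeasureTheory Set Filter Topology
open scoped NNReal ENNReal ContDiff

namespace Crest.Agent.R105.Psi7_425

open Psi5_425 Psi6_425 CF_363 MsB_425

local notation "AC" => AbsolutelyContinuousOnInterval

/-! ### one dimension -/

/-- `w` continuous, zero off the open set `O`, primitive of `D` inside -/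
theorem line_w {O : Set ℝ} (hO : IsOpen O) {w D : ℝ → ℝ} (hw : Continuous w)
    (h0 : ∀ s ∉ O, w s = 0) (hD : LocallyIntegrable (O.indicator D) volume)
    (hinc : ∀ s t, s ≤ t → (∀ r ∈ Icc s t, r ∈ O) → w t - w s = ∫ r in s..t, D r) :
    ∀ a b, a ≤ b → AC w a b := by
  intro a b hab
  refine ac_glue hab hw.continuousOn (F := Oᶜ) hO.isClosed_compl (fun x hx _ => h0 x hx)
    (intervalIntegrable_of_li hD a b) ?_
  intro s t _ hst _ hr
  have hr' : ∀ r ∈ Icc s t, r ∈ O := fun r hr' => by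
    by_contra hcon
    exact hr r hr' hcon
  rw [hinc s t hst hr']
  refine (intervalIntegral.abs_integral_le_integral_abs hst).trans (le_of_eq ?_)
  refine intervalIntegral.integral_congr fun r hr2 => ?_
  rw [uIcc_of_le hst] at hr2
  show |D r| = |O.indicator D r|
  rw [indicator_of_mem (hr' r hr2)]

/-- cut-off times a function which is a primitive on `O \ C` -/
theorem line_cut {O C : Set ℝ} (hO : IsOpen O) (hC : IsClosed C) {f U χ : ℝ → ℝ}
    (hU : LocallyIntegrable U volume) (hf : LocallyIntegrable (O.indicator f) volume)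
    (h : ∀ s t, s ≤ t → (∀ r ∈ Icc s t, r ∈ O \ C) → f t - f s = ∫ r in s..t, U r)
    (hχ : ContDiff ℝ 1 χ) (hs : tsupport χ ⊆ O) :
    ∀ a b, a ≤ b → (∀ r ∈ Icc a b, r ∉ C) → AC (fun s => χ s * f s) a b := by
  intro a b hab hC'
  have hOC : IsOpen (O \ C) := hO.sdiff hC
  have hfc := continuousOn_of_line hOC hU h
  have hχc : Continuous χ := hχ.continuous
  have hχd : Continuous (deriv χ) := hχ.continuous_deriv le_rfl
  have hz : ∀ x ∉ O, (fun s => χ s * f s) =ᶠ[𝓝 x] fun _ => 0 := by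
    intro x hx
    have h1 : x ∉ tsupport χ := fun h' => hx (hs h')
    filter_upwards [(notMem_tsupport_iff_eventuallyEq.1 h1)] with y hy
    rw [hy]; simp
  have hdz : ∀ x ∉ O, deriv χ x = 0 := by
    intro x hx
    have h1 : x ∉ tsupport (deriv χ) := fun h' =>
      hx (hs ((tsupport_deriv_subset (𝕜 := ℝ) (f := χ)) h'))
    exact image_eq_zero_of_notMem_tsupport h1
  have hwc : ContinuousOn (fun s => χ s * f s) (Icc a b) := by
    intro x hx
    by_cases hxO : x ∈ O
    · exact (hχc.continuousAt.mul (hfc.continuousAt (hOC.mem_nhds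
        ⟨hxO, hC' x hx⟩))).continuousWithinAt
    · exact ((continuousAt_congr (hz x hxO)).2 continuousAt_const).continuousWithinAt
  have hk : LocallyIntegrable (fun s => deriv χ s * f s + χ s * U s) volume := by
    have h1 : LocallyIntegrable (fun s => deriv χ s * f s) volume := by
      have h2 := hf.smul_continuous hχd
      refine h2.congr (Eventually.of_forall fun x => ?_)
      show _ = deriv χ x * f x
      by_cases hx : x ∈ O
      · simp [indicator_of_mem hx, mul_comm]
      · simp [indicator_of_notMem hx, hdz x hx]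
    have h3 : LocallyIntegrable (fun s => χ s * U s) volume := by
      have h2 := hU.smul_continuous hχc
      refine h2.congr (Eventually.of_forall fun x => ?_)
      show _ = χ x * U x
      simp [mul_comm]
    exact h1.add h3
  refine ac_glue hab hwc (F := Oᶜ) hO.isClosed_compl (fun x hx _ => (hz x hx).self_of_nhds)
    (intervalIntegrable_of_li hk a b) ?_
  intro s t has hst htb hr
  have hr' : ∀ r ∈ Icc s t, r ∈ O \ C := fun r hr' => by
    refine ⟨?_, hC' r ⟨has.trans hr'.1, hr'.2.trans htb⟩⟩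
    by_contra hcon
    exact hr r hr' hcon
  have h1 : AC f s t := ac_of_line hst (intervalIntegrable_of_li hU s t) fun x hx =>
    h s x hx.1 fun r hr => hr' r ⟨hr.1, hr.2.trans hx.2⟩
  have h2 : AC χ s t := (hχ.contDiffOn (s := uIcc s t)).absolutelyContinuousOnInterval
  have h3 : AC (fun s => χ s * f s) s t := h2.mul h1
  rw [← h3.integral_deriv_eq_sub]
  refine (intervalIntegral.abs_integral_le_integral_abs hst).trans (le_of_eq ?_)
  refine intervalIntegral.integral_congr_ae ?_
  filter_upwards [ae_hasDerivAt_of_line hOC hU h] with x hx hxI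
  have hxm : x ∈ Icc s t := by
    rw [uIoc_of_le hst] at hxI
    exact ⟨hxI.1.le, hxI.2⟩
  have h4 : HasDerivAt χ (deriv χ x) x := (hχ.differentiable (by norm_num) x).hasDerivAt
  have h5 : HasDerivAt (fun s => χ s * f s) (deriv χ x * f x + χ x * U x) x :=
    h4.mul (hx (hr' x hxm))
  rw [h5.deriv]

/-- the integral of the derivative of an AC function with compact support vanishes -/
theorem integral_deriv_eq_zero {w : ℝ → ℝ} (hw : ∀ a b, a ≤ b → AC w a b) {R : ℝ} (hR : 0 < R)
    (h0 : ∀ x, x ∉ Ioo (-R) R → w =ᶠ[𝓝 x] 0) :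
    Integrable (deriv w) volume ∧ ∫ x, deriv w x = 0 := by
  have hd0 : ∀ x, x ∉ Ioo (-R) R → deriv w x = 0 := fun x hx => by
    rw [(h0 x hx).deriv_eq]; simp
  have h1 := hw (-R) R (by linarith)
  have h2 := h1.intervalIntegrable_deriv
  have h3 : (Ioc (-R) R).indicator (deriv w) = deriv w := by
    rw [indicator_eq_self]
    intro x hx
    by_contra hcon
    exact hx (hd0 x fun h => hcon ⟨h.1, h.2.le⟩)
  have h4 : Integrable ((Ioc (-R) R).indicator (deriv w)) volume := by
    rw [integrable_indicator_iff measurableSet_Ioc]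
    exact (intervalIntegrable_iff_integrableOn_Ioc_of_le (by linarith)).1 h2
  refine ⟨h3 ▸ h4, ?_⟩
  have h5 := h1.integral_deriv_eq_sub
  rw [(h0 R fun h => lt_irrefl _ h.2).self_of_nhds, (h0 (-R) fun h => lt_irrefl _ h.1).self_of_nhds,
    intervalIntegral.integral_of_le (by linarith), ← integral_indicator measurableSet_Ioc, h3] at h5
  rw [h5]; simp

/-! ### weak gradients in the plane -/

theorem line_x_support {η : ℝ × ℝ → ℝ} (hc : HasCompactSupport η) (y : ℝ) :
    HasCompactSupport (fun x => η (x, y)) ∧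
      tsupport (fun x => η (x, y)) ⊆ {x | (x, y) ∈ tsupport η} := by
  have h1 : tsupport (fun x => η (x, y)) ⊆ {x | (x, y) ∈ tsupport η} := by
    refine closure_minimal (fun x hx => subset_tsupport η hx) ?_
    exact (isClosed_tsupport η).preimage (by fun_prop)
  refine ⟨?_, h1⟩
  refine HasCompactSupport.of_support_subset_isCompact (K := Prod.fst '' tsupport η)
    (hc.isCompact.image continuous_fst) ?_
  intro x hx
  exact ⟨(x, y), subset_tsupport η hx, rfl⟩

theorem line_y_support {η : ℝ × ℝ → ℝ} (hc : HasCompactSupport η) (x : ℝ) :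
    HasCompactSupport (fun y => η (x, y)) ∧
      tsupport (fun y => η (x, y)) ⊆ {y | (x, y) ∈ tsupport η} := by
  have h1 : tsupport (fun y => η (x, y)) ⊆ {y | (x, y) ∈ tsupport η} := by
    refine closure_minimal (fun y hy => subset_tsupport η hy) ?_
    exact (isClosed_tsupport η).preimage (by fun_prop)
  refine ⟨?_, h1⟩
  refine HasCompactSupport.of_support_subset_isCompact (K := Prod.snd '' tsupport η)
    (hc.isCompact.image continuous_snd) ?_
  intro y hy
  exact ⟨(x, y), subset_tsupport η hy, rfl⟩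

theorem continuous_gx {η : ℝ × ℝ → ℝ} (hη : ContDiff ℝ 1 η) : Continuous (gx η) :=
  (hη.continuous_fderiv (by norm_num)).clm_apply continuous_const

theorem continuous_gy {η : ℝ × ℝ → ℝ} (hη : ContDiff ℝ 1 η) : Continuous (gy η) :=
  (hη.continuous_fderiv (by norm_num)).clm_apply continuous_const

theorem tsupport_gx {η : ℝ × ℝ → ℝ} : tsupport (gx η) ⊆ tsupport η :=
  tsupport_fderiv_apply_subset ℝ ((1 : ℝ), (0 : ℝ))

theorem tsupport_gy {η : ℝ × ℝ → ℝ} : tsupport (gy η) ⊆ tsupport η :=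
  tsupport_fderiv_apply_subset ℝ ((0 : ℝ), (1 : ℝ))

theorem int_gx {V : Set (ℝ × ℝ)} (hV : IsOpen V) {f U : ℝ × ℝ → ℝ}
    (hf : ContinuousOn f V) (hU : MemLp U 2 (volume : Measure (ℝ × ℝ)))
    (hor : ∀ᵐ y : ℝ, ∀ x x', x ≤ x' → (∀ s ∈ Icc x x', (s, y) ∈ V) →
      f (x', y) - f (x, y) = ∫ s in x..x', U (s, y))
    {η : ℝ × ℝ → ℝ} (hη : ContDiff ℝ ∞ η) (hc : HasCompactSupport η) (hs : tsupport η ⊆ V) :
    ∫ p, f p * gx η p = - ∫ p, η p * U p := by
  have hη1 : ContDiff ℝ 1 η := hη.of_le (by norm_num)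
  have i1 : Integrable (fun p => f p * gx η p) (volume : Measure (ℝ × ℝ)) := by
    have h7 := continuous_smul_of_tsupport hV hf (continuous_gx hη1) (tsupport_gx.trans hs)
    refine Continuous.integrable_of_hasCompactSupport h7 ?_
    exact (hc.fderiv_apply (𝕜 := ℝ) ((1:ℝ), (0:ℝ))).mul_left
  have i2 : Integrable (fun p => η p * U p) (volume : Measure (ℝ × ℝ)) := by
    have h8 : MemLp η 2 (volume : Measure (ℝ × ℝ)) :=
      hη.continuous.memLp_of_hasCompactSupport hc
    exact h8.integrable_mul hU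
  rw [Measure.volume_eq_prod] at i1 i2 ⊢
  rw [integral_prod_symm _ i1, integral_prod_symm _ i2, ← integral_neg]
  refine integral_congr_ae ?_
  filter_upwards [hor, Mp_87.ae_line_y hU] with y h1 h2
  obtain ⟨hc', hs'⟩ := line_x_support hc y
  have hO : IsOpen {x : ℝ | (x, y) ∈ V} := hV.preimage (by fun_prop)
  have h3 := ibp_open hO (h2.locallyIntegrable (by norm_num)) (f := fun x => f (x, y))
    (g := fun x => U (x, y)) (fun s t hst hr => h1 s t hst hr) (η := fun x => η (x, y))
    (hη1.comp (by fun_prop)) hc' (hs'.trans fun x hx => hs hx)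
  have h4 : ∀ x, deriv (fun x => η (x, y)) x = gx η (x, y) := fun x =>
    (gx_eq_deriv (hη1.differentiable (by norm_num) (x, y))).deriv
  simp only [h4] at h3
  exact h3

theorem int_gy {V : Set (ℝ × ℝ)} (hV : IsOpen V) {f U : ℝ × ℝ → ℝ}
    (hf : ContinuousOn f V) (hU : MemLp U 2 (volume : Measure (ℝ × ℝ)))
    (ver : ∀ᵐ x : ℝ, ∀ y y', y ≤ y' → (∀ t ∈ Icc y y', (x, t) ∈ V) →
      f (x, y') - f (x, y) = ∫ t in y..y', U (x, t))
    {η : ℝ × ℝ → ℝ} (hη : ContDiff ℝ ∞ η) (hc : HasCompactSupport η) (hs : tsupport η ⊆ V) :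
    ∫ p, f p * gy η p = - ∫ p, η p * U p := by
  have hη1 : ContDiff ℝ 1 η := hη.of_le (by norm_num)
  have i1 : Integrable (fun p => f p * gy η p) (volume : Measure (ℝ × ℝ)) := by
    have h7 := continuous_smul_of_tsupport hV hf (continuous_gy hη1) (tsupport_gy.trans hs)
    refine Continuous.integrable_of_hasCompactSupport h7 ?_
    exact (hc.fderiv_apply (𝕜 := ℝ) ((0:ℝ), (1:ℝ))).mul_left
  have i2 : Integrable (fun p => η p * U p) (volume : Measure (ℝ × ℝ)) := by
    have h8 : MemLp η 2 (volume : Measure (ℝ × ℝ)) :=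
      hη.continuous.memLp_of_hasCompactSupport hc
    exact h8.integrable_mul hU
  rw [Measure.volume_eq_prod] at i1 i2 ⊢
  rw [integral_prod _ i1, integral_prod _ i2, ← integral_neg]
  refine integral_congr_ae ?_
  filter_upwards [ver, Mp_87.ae_line_x hU] with x h1 h2
  obtain ⟨hc', hs'⟩ := line_y_support hc x
  have hO : IsOpen {y : ℝ | (x, y) ∈ V} := hV.preimage (by fun_prop)
  have h3 := ibp_open hO (h2.locallyIntegrable (by norm_num)) (f := fun y => f (x, y))
    (g := fun y => U (x, y)) (fun s t hst hr => h1 s t hst hr) (η := fun y => η (x, y))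
    (hη1.comp (by fun_prop)) hc' (hs'.trans fun y hy => hs hy)
  have h4 : ∀ y, deriv (fun y => η (x, y)) y = gy η (x, y) := fun y =>
    (gy_eq_deriv (hη1.differentiable (by norm_num) (x, y))).deriv
  simp only [h4] at h3
  exact h3

/-- the gradient as a linear form -/
noncomputable def Gf (U1 U2 : ℝ × ℝ → ℝ) (p : ℝ × ℝ) : ℝ × ℝ →L[ℝ] ℝ :=
  U1 p • ContinuousLinearMap.fst ℝ ℝ ℝ + U2 p • ContinuousLinearMap.snd ℝ ℝ ℝ

theorem Gf_apply (U1 U2 : ℝ × ℝ → ℝ) (p e : ℝ × ℝ) : Gf U1 U2 p e = U1 p * e.1 + U2 p * e.2 := by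
  simp [Gf]

theorem fderiv_eq_g (η : ℝ × ℝ → ℝ) (p e : ℝ × ℝ) :
    fderiv ℝ η p e = e.1 * gx η p + e.2 * gy η p := by
  have h : e = e.1 • ((1 : ℝ), (0 : ℝ)) + e.2 • ((0 : ℝ), (1 : ℝ)) := by
    ext <;> simp
  conv_lhs => rw [h]
  rw [map_add, map_smul, map_smul]
  rfl

theorem memLp_Gf {U1 U2 : ℝ × ℝ → ℝ} {μ : Measure (ℝ × ℝ)} (h1 : MemLp U1 2 μ)
    (h2 : MemLp U2 2 μ) : MemLp (Gf U1 U2) 2 μ := by
  have e1 := (ContinuousLinearMap.toSpanSingleton ℝ
    (ContinuousLinearMap.fst ℝ ℝ ℝ)).comp_memLp' h1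
  have e2 := (ContinuousLinearMap.toSpanSingleton ℝ
    (ContinuousLinearMap.snd ℝ ℝ ℝ)).comp_memLp' h2
  exact e1.add e2

theorem wg_of_lines {V : Set (ℝ × ℝ)} (hV : IsOpen V) {f U1 U2 : ℝ × ℝ → ℝ}
    (hf : ContinuousOn f V) (hU1 : MemLp U1 2 (volume : Measure (ℝ × ℝ)))
    (hU2 : MemLp U2 2 (volume : Measure (ℝ × ℝ)))
    (hor : ∀ᵐ y : ℝ, ∀ x x', x ≤ x' → (∀ s ∈ Icc x x', (s, y) ∈ V) →
      f (x', y) - f (x, y) = ∫ s in x..x', U1 (s, y))
    (ver : ∀ᵐ x : ℝ, ∀ y y', y ≤ y' → (∀ t ∈ Icc y y', (x, t) ∈ V) →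
      f (x, y') - f (x, y) = ∫ t in y..y', U2 (x, t)) : WG V f (Gf U1 U2) := by
  intro η hη hc hs e
  have hη1 : ContDiff ℝ 1 η := hη.of_le (by norm_num)
  have h1 := int_gx hV hf hU1 hor hη hc hs
  have h2 := int_gy hV hf hU2 ver hη hc hs
  have i1 : Integrable (fun p => f p * gx η p) (volume : Measure (ℝ × ℝ)) := by
    have h7 := continuous_smul_of_tsupport hV hf (continuous_gx hη1) (tsupport_gx.trans hs)
    refine Continuous.integrable_of_hasCompactSupport h7 ?_
    exact (hc.fderiv_apply (𝕜 := ℝ) ((1:ℝ), (0:ℝ))).mul_left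
  have i2 : Integrable (fun p => f p * gy η p) (volume : Measure (ℝ × ℝ)) := by
    have h7 := continuous_smul_of_tsupport hV hf (continuous_gy hη1) (tsupport_gy.trans hs)
    refine Continuous.integrable_of_hasCompactSupport h7 ?_
    exact (hc.fderiv_apply (𝕜 := ℝ) ((0:ℝ), (1:ℝ))).mul_left
  have h8 : MemLp η 2 (volume : Measure (ℝ × ℝ)) := hη.continuous.memLp_of_hasCompactSupport hc
  have j1 : Integrable (fun p => η p * U1 p) (volume : Measure (ℝ × ℝ)) := h8.integrable_mul hU1
  have j2 : Integrable (fun p => η p * U2 p) (volume : Measure (ℝ × ℝ)) := h8.integrable_mul hU2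
  have e1 : ∫ p, f p * fderiv ℝ η p e = e.1 * (∫ p, f p * gx η p) + e.2 * ∫ p, f p * gy η p := by
    rw [← integral_const_mul, ← integral_const_mul, ← integral_add (i1.const_mul _)
      (i2.const_mul _)]
    congr 1; funext p; rw [fderiv_eq_g]; ring
  have e2 : ∫ p, η p * Gf U1 U2 p e = e.1 * (∫ p, η p * U1 p) + e.2 * ∫ p, η p * U2 p := by
    rw [← integral_const_mul, ← integral_const_mul, ← integral_add (j1.const_mul _)
      (j2.const_mul _)]
    congr 1; funext p; rw [Gf_apply]; ring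
  rw [e1, e2, h1, h2]
  ring

end Crest.Agent.R105.Psi7_425
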