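import Crest.Agent.R105.Psq1_425

/-!
# Row 105 (S0138), helper425: the flux of the clamped stream function of one half, and of the glued
function (clamped version of `Hq_363`).
-/

set_option autoImplicit false

open MeasureTheory Set Filter Topology
open scoped NNReal ENNReal ContDiff

namespace Crest.Agent.R105.Psq_425

open Psi5_425 Psi7_425 CF_363 Sq_87 Mp_87 Hq_363

variable {ι : Type} {Q : Rects ι} {S : Set (ℝ × ℝ)}
variable {a b c B M m : ℝ} {X1 X2 ψ Ψ χ : ℝ × ℝ → ℝ} {μ : Measure (ℝ × ℝ)} {f : ι → ℝ}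
variable {T : ℝ → ℝ}

theorem flux_level_ge [IsFiniteMeasure μ] (hab : a < b) (hχ : ContDiff ℝ 1 χ)
    (hχc : HasCompactSupport χ) (hχs : tsupport χ ⊆ Ioo a b ×ˢ univ) (χ0 : ∀ p, 0 ≤ χ p) {y : ℝ}
    (hI : ∀ x x', IntervalIntegrable (fun s => X2 (s, y)) volume x x')
    (hH : ∀ x ∈ Ioo a b, ∀ x' ∈ Ioo a b, x ≤ x' →
      Ψ (x', y) - Ψ (x, y) = -(∫ s in x..x', X2 (s, y)) -
        (μ {q | q.1 ∈ Ico x x' ∧ q.2 < y}).toReal)
    (hT : ContDiff ℝ 1 T) (hT0 : ∀ t, 0 ≤ deriv T t) (hT1 : ∀ t, deriv T t ≤ 1) :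
    0 ≤ ∫ x, (gx χ (x, y) * T (Ψ (x, y)) - χ (x, y) * (deriv T (Ψ (x, y)) * X2 (x, y))) := by
  obtain ⟨hc', hs'⟩ := line_x_support hχc y
  set φ : ℝ → ℝ := fun x => χ (x, y) with hφ
  have hφ1 : ContDiff ℝ 1 φ := hχ.comp (by fun_prop)
  have hgx : ∀ x, gx χ (x, y) = deriv φ x := fun x =>
    (Psi8_425.hasDerivAt_x (hχ.differentiable (by norm_num) (x, y))).deriv.symm
  have hsub : tsupport φ ⊆ Ioo a b := fun x hx => (hχs (hs' hx)).1
  obtain ⟨a1, b1, ha1, hab1, hb1, hab1s⟩ := exists_inner hab hc' hsub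
  have hφ0 : ∀ x, x ∉ Ioo a1 b1 → φ x = 0 := fun x hx =>
    image_eq_zero_of_notMem_tsupport (hab1s x hx)
  have hφd0 : ∀ x, x ∉ Ioo a1 b1 → deriv φ x = 0 := fun x hx =>
    image_eq_zero_of_notMem_tsupport fun h =>
      hab1s x hx ((tsupport_deriv_subset (𝕜 := ℝ) (f := φ)) h)
  set ρ : Measure ℝ := (μ.restrict {q | q.2 < y}).map Prod.fst with hρ
  have hρI : ∀ x, ρ (Ico a1 x) = μ {q | q.1 ∈ Ico a1 x ∧ q.2 < y} := by
    intro x
    rw [hρ, Measure.map_apply measurable_fst measurableSet_Ico,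
      Measure.restrict_apply (measurable_fst measurableSet_Ico)]
    rfl
  have key := flux_line_ge (k := Ψ (a1, y)) hab1 hφ1 (hφ0 a1 fun h => lt_irrefl _ h.1)
    (hφ0 b1 fun h => lt_irrefl _ h.2) (fun x => χ0 _) (ρ := ρ) (hI a1 b1)
    (F := fun x => Ψ (a1, y) - (∫ s in a1..x, X2 (s, y)) - (ρ (Ico a1 x)).toReal)
    (fun x _ => rfl) hT hT0 hT1
  have e1 : ∫ x, (gx χ (x, y) * T (Ψ (x, y)) - χ (x, y) * (deriv T (Ψ (x, y)) * X2 (x, y))) =
      ∫ x in a1..b1, (gx χ (x, y) * T (Ψ (x, y)) -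
        χ (x, y) * (deriv T (Ψ (x, y)) * X2 (x, y))) := by
    rw [intervalIntegral.integral_of_le hab1, ← integral_indicator measurableSet_Ioc]
    congr 1
    funext x
    by_cases hx : x ∈ Ioc a1 b1
    · rw [indicator_of_mem hx]
    · rw [indicator_of_notMem hx, hgx, hφd0 x fun h => hx ⟨h.1, h.2.le⟩]
      have : χ (x, y) = 0 := hφ0 x fun h => hx ⟨h.1, h.2.le⟩
      rw [this]; ring
  rw [e1]
  refine le_of_le_of_eq key ?_
  refine intervalIntegral.integral_congr fun x hx => ?_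
  rw [uIcc_of_le hab1] at hx
  have h5 := hH a1 ⟨ha1, lt_of_le_of_lt hab1 hb1⟩ x ⟨lt_of_lt_of_le ha1 hx.1,
    lt_of_le_of_lt hx.2 hb1⟩ hx.1
  have h6 : Ψ (a1, y) - (∫ s in a1..x, X2 (s, y)) - (ρ (Ico a1 x)).toReal = Ψ (x, y) := by
    rw [hρI x]; linarith
  show deriv φ x * T _ - φ x * (deriv T _ * X2 (x, y)) = _
  rw [hgx, h6]

/-- integrability of the integrand of the flux -/
theorem integrableOn_fluxT [IsFiniteMeasure μ] (L : LinesI a b c B 1 X1 X2 μ ψ Ψ)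
    (hχ : ContDiff ℝ 1 χ) (hχc : HasCompactSupport χ)
    (hT : ContDiff ℝ 1 T) (hT0 : ∀ t, 0 ≤ deriv T t) (hT1 : ∀ t, deriv T t ≤ 1) :
    IntegrableOn (fun p => gx χ p * T (Ψ p) - χ p * (deriv T (Ψ p) * X2 p))
      (Ioo a b ×ˢ Ioo c B) := by
  have hR : MeasurableSet (Ioo a b ×ˢ Ioo c B) := measurableSet_Ioo.prod measurableSet_Ioo
  have hψ := L.intψ (by simp)
  have hfinR : IsFiniteMeasure ((volume : Measure (ℝ × ℝ)).restrict (Ioo a b ×ˢ Ioo c B)) :=
    ⟨by rw [Measure.restrict_apply_univ]; exact lt_top_iff_ne_top.mpr (Psi8_425.volume_rect a b c B)⟩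
  have hΨ : IntegrableOn Ψ (Ioo a b ×ˢ Ioo c B) := by
    refine hψ.congr ?_
    rw [EventuallyEq, ae_restrict_iff' hR]
    filter_upwards [L.E] with p hp hpR
    exact (hp hpR.1 hpR.2.1).symm
  have hlip := lip_of_deriv hT hT0 hT1
  have hdT : Continuous (deriv T) := hT.continuous_deriv le_rfl
  have hTΨ : IntegrableOn (fun p => T (Ψ p)) (Ioo a b ×ˢ Ioo c B) := by
    refine Integrable.mono' (g := fun p => |T 0| + |Ψ p|) ((integrable_const _).add hΨ.abs)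
      (hT.continuous.comp_aestronglyMeasurable hΨ.1) (Eventually.of_forall fun p => ?_)
    have h1 := hlip.dist_le_mul (Ψ p) 0
    rw [Real.dist_eq, Real.dist_eq, NNReal.coe_one, one_mul, sub_zero] at h1
    have h2 := abs_sub_abs_le_abs_sub (T (Ψ p)) (T 0)
    rw [Real.norm_eq_abs]
    linarith
  obtain ⟨C1, hC1⟩ := hχ.continuous.bounded_above_of_compact_support hχc
  obtain ⟨C2, hC2⟩ := bdd_gx hχ hχc
  refine Integrable.sub ?_ ?_
  · exact hTΨ.bdd_mul (c := C2) (Hq_363.continuous_gx hχ).aestronglyMeasurable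
      (Eventually.of_forall hC2)
  · refine Integrable.bdd_mul (c := C1) ?_ hχ.continuous.aestronglyMeasurable
      (Eventually.of_forall hC1)
    refine L.L2.integrableOn.bdd_mul (c := 1) (hdT.comp_aestronglyMeasurable hΨ.1)
      (Eventually.of_forall fun p => ?_)
    rw [Real.norm_eq_abs, abs_of_nonneg (hT0 _)]; exact hT1 _

/-- **the total flux of one half** (squares filled) -/
theorem flux_total_ge [IsFiniteMeasure μ] (L : LinesI a b c B 1 X1 X2 μ ψ Ψ) (hab : a < b)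
    (hχ : ContDiff ℝ 1 χ) (hχc : HasCompactSupport χ) (hχs : tsupport χ ⊆ Ioo a b ×ˢ univ)
    (χ0 : ∀ p, 0 ≤ χ p)
    (hT : ContDiff ℝ 1 T) (hT0 : ∀ t, 0 ≤ deriv T t) (hT1 : ∀ t, deriv T t ≤ 1) :
    0 ≤ ∫ p in Ioo a b ×ˢ Ioo c B, (gx χ p * T (Ψ p) - χ p * (deriv T (Ψ p) * X2 p)) := by
  rw [integral_rect_y (integrableOn_fluxT L hχ hχc hT hT0 hT1)]
  refine setIntegral_nonneg_of_ae_restrict ?_
  rw [EventuallyLE, ae_restrict_iff' measurableSet_Ioo]
  filter_upwards [L.H, ae_int_y L.L2] with y hH hI hy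
  have e0 : ∀ x, x ∉ Ioo a b →
      gx χ (x, y) * T (Ψ (x, y)) - χ (x, y) * (deriv T (Ψ (x, y)) * X2 (x, y)) = 0 := by
    intro x hx
    have h3 : (x, y) ∉ tsupport χ := fun h => hx (hχs h).1
    have h4 : χ (x, y) = 0 := image_eq_zero_of_notMem_tsupport h3
    rw [h4, gx_zero_of_notMem h3]; ring
  show 0 ≤ ∫ x in Ioo a b, (gx χ (x, y) * T (Ψ (x, y)) -
    χ (x, y) * (deriv T (Ψ (x, y)) * X2 (x, y)))
  rw [setIntegral_eq_integral_of_forall_compl_eq_zero e0]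
  refine flux_level_ge (μ := μ) hab hχ hχc hχs χ0 (fun x x' => hI.intervalIntegrable) ?_ hT hT0 hT1
  intro x hx x' hx' hxx
  rw [hH hy.1 x hx x' hx' hxx]; ring

/-- **the flux of one half, outside the squares.** -/
theorem flux_half_ge [Countable ι] [IsFiniteMeasure μ] (L : LinesI a b c B 1 X1 X2 μ ψ Ψ)
    (hab : a < b) (hS : MeasurableSet S) (hX : ∀ᵐ p : ℝ × ℝ, p ∈ S → X2 p = 0)
    (dis : Pairwise (fun i j => Disjoint (Q.op i) (Q.op j)))
    (box : ∀ i, Q.op i ⊆ Ioo a b ×ˢ Ioo c B)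
    (la : ∀ i, ∫ p in Q.op i, |X2 p| ≤ 4 * (Q.h2 i * f i))
    (sf : Summable fun i => Q.h2 i * f i)
    (hχ : ContDiff ℝ 1 χ) (hχc : HasCompactSupport χ) (hχs : tsupport χ ⊆ Ioo a b ×ˢ univ)
    (χ0 : ∀ p, 0 ≤ χ p) (χ1 : ∀ p, χ p ≤ 1) (gχ : ∀ p ∈ Q.un ∪ S, gx χ p = 0)
    (hT : ContDiff ℝ 1 T) (hT0 : ∀ t, 0 ≤ deriv T t) (hT1 : ∀ t, deriv T t ≤ 1) :
    -(∑' i, (On Q χ).indicator (fun i => 4 * (Q.h2 i * f i)) i) ≤
      ∫ p in (Ioo a b ×ˢ Ioo c B) \ (Q.un ∪ S),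
        (gx χ p * T (Ψ p) - χ p * (deriv T (Ψ p) * X2 p)) := by
  have hR : MeasurableSet (Ioo a b ×ˢ Ioo c B) := measurableSet_Ioo.prod measurableSet_Ioo
  have hU : MeasurableSet Q.un := Q.measurableSet_un
  have hF := integrableOn_fluxT L hχ hχc hT hT0 hT1
  have hdT : Continuous (deriv T) := hT.continuous_deriv le_rfl
  set F : ℝ × ℝ → ℝ := fun p => gx χ p * T (Ψ p) - χ p * (deriv T (Ψ p) * X2 p) with hFd
  set R := Ioo a b ×ˢ Ioo c B with hRd
  have hUR : Q.un ⊆ R := iUnion_subset box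
  -- split
  have e1 : ∫ p in R, F p = (∫ p in R \ (Q.un ∪ S), F p) + ∫ p in R ∩ (Q.un ∪ S), F p := by
    rw [← integral_inter_add_sdiff (hU.union hS) hF]; ring
  have e2 : ∫ p in R ∩ (Q.un ∪ S), F p = ∫ p in Q.un, F p := by
    have h3 : R ∩ (Q.un ∪ S) = Q.un ∪ (R ∩ (S \ Q.un)) := by
      ext p
      simp only [mem_inter_iff, mem_union, Set.mem_sdiff]
      constructor
      · rintro ⟨h, h' | h'⟩
        · exact Or.inl h'
        · by_cases h'' : p ∈ Q.un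
          · exact Or.inl h''
          · exact Or.inr ⟨h, h', h''⟩
      · rintro (h | ⟨h, h', -⟩)
        · exact ⟨hUR h, Or.inl h⟩
        · exact ⟨h, Or.inr h'⟩
    have hm : MeasurableSet (R ∩ (S \ Q.un)) := hR.inter (hS.diff hU)
    rw [h3, setIntegral_union (by
      rw [Set.disjoint_left]; rintro p hp ⟨-, -, hp'⟩; exact hp' hp) hm
      (hF.mono_set hUR) (hF.mono_set inter_subset_left)]
    have h4 : ∫ p in R ∩ (S \ Q.un), F p = 0 := by
      rw [← integral_zero (ℝ × ℝ) ℝ (μ := volume.restrict (R ∩ (S \ Q.un)))]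
      refine setIntegral_congr_ae hm ?_
      filter_upwards [hX] with p hp hpm
      show gx χ p * T (Ψ p) - χ p * (deriv T (Ψ p) * X2 p) = 0
      rw [gχ p (Or.inr hpm.2.1), hp hpm.2.1]; ring
    rw [h4, add_zero]
  have iF : IntegrableOn F Q.un := hF.mono_set hUR
  have e4 : HasSum (fun i => ∫ p in Q.op i, F p) (∫ p in Q.un, F p) :=
    hasSum_integral_iUnion (fun i => Q.measurableSet_op i) dis iF
  have hsum : Summable ((On Q χ).indicator (fun i => 4 * (Q.h2 i * f i))) :=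
    (sf.mul_left 4).indicator _
  have hb : ∀ i, (∫ p in Q.op i, F p) ≤ (On Q χ).indicator (fun i => 4 * (Q.h2 i * f i)) i := by
    intro i
    have h5 : ∫ p in Q.op i, F p = ∫ p in Q.op i, -(χ p * (deriv T (Ψ p) * X2 p)) := by
      refine setIntegral_congr_fun (Q.measurableSet_op i) fun p hp => ?_
      show gx χ p * T (Ψ p) - χ p * (deriv T (Ψ p) * X2 p) = _
      rw [gχ p (Or.inl (mem_iUnion.2 ⟨i, hp⟩))]; ring
    rw [h5]
    by_cases hi : i ∈ On Q χ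
    · rw [indicator_of_mem hi]
      refine (le_abs_self _).trans ?_
      refine (abs_integral_le_integral_abs).trans ((integral_mono_of_nonneg
        (Eventually.of_forall fun p => abs_nonneg _) L.L2.abs.integrableOn
        (Eventually.of_forall fun p => ?_)).trans (la i))
      show |-(χ p * (deriv T (Ψ p) * X2 p))| ≤ |X2 p|
      rw [abs_neg, abs_mul, abs_mul, abs_of_nonneg (χ0 p), abs_of_nonneg (hT0 _)]
      calc χ p * (deriv T (Ψ p) * |X2 p|) ≤ 1 * (1 * |X2 p|) :=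
            mul_le_mul (χ1 p) (mul_le_mul_of_nonneg_right (hT1 _) (abs_nonneg _))
              (mul_nonneg (hT0 _) (abs_nonneg _)) zero_le_one
        _ = |X2 p| := by ring
    · rw [indicator_of_notMem hi]
      refine le_of_eq ?_
      rw [← integral_zero (ℝ × ℝ) ℝ (μ := volume.restrict (Q.op i))]
      refine setIntegral_congr_fun (Q.measurableSet_op i) fun p hp => ?_
      have : χ p = 0 := by
        by_contra hcon
        exact hi ⟨p, hp, hcon⟩
      show -(χ p * (deriv T (Ψ p) * X2 p)) = 0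
      rw [this]; ring
  have e5 : ∫ p in Q.un, F p ≤
      ∑' i, (On Q χ).indicator (fun i => 4 * (Q.h2 i * f i)) i :=
    hasSum_le hb e4 hsum.hasSum
  have key := flux_total_ge L hab hχ hχc hχs χ0 hT hT0 hT1
  have e6 : 0 ≤ ∫ p in R, F p := key
  linarith

end Crest.Agent.R105.Psq_425
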