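import Crest.Agent.R105.Psq2_425

/-!
# Row 105 (S0138), helper425: the flux of the clamped glued function (clamped version of
`Hq_363.TwoQ.flux`, after helper363)
-/

set_option autoImplicit false

open MeasureTheory Set Filter Topology
open scoped NNReal ENNReal ContDiff

namespace Crest.Agent.R105.Psq_425

open Psi5_425 Psi7_425 CF_363 Sq_87 Mp_87 Hq_363

section Half

variable {ι : Type} {Q : Rects ι} {S : Set (ℝ × ℝ)}
variable {a b c B M m : ℝ} {X1 X2 ψ Ψ χ : ℝ × ℝ → ℝ} {μ : Measure (ℝ × ℝ)} {f : ι → ℝ}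
variable {T : ℝ → ℝ}

/-- **one half with its part of the strip** -/
theorem HalfD.fluxT [Countable ι] [IsFiniteMeasure μ] (H : HalfD Q S a b c B X1 X2 ψ Ψ μ f)
    (la : ∀ i, ∫ p in Q.op i, |X2 p| ≤ 4 * (Q.h2 i * f i))
    {M₀ : ℝ} (hT : Clamp m M₀ T) (hm : (μ univ).toReal ≤ m)
    (hab : a < b) (hcB : c < B) (hBM : B ≤ M) {Z : Set (ℝ × ℝ)} (hZ : MeasurableSet Z)
    (hZl : ∀ᵐ p : ℝ × ℝ, p ∈ Ioo a b ×ˢ Ioo c B → (p ∈ Z ↔ p ∈ Q.un ∪ S))
    (C : CutD Q S Z a b c M μ χ) :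
    IntegrableOn (fun p => gx χ p * T (ψ p) - χ p * (deriv T (ψ p) * X2 p)) (Ioo a b ×ˢ Ioo c M) ∧
    (M - B) * (μ univ).toReal - ∑' i, (On Q χ).indicator (fun i => 4 * (Q.h2 i * f i)) i ≤
      ∫ p in (Ioo a b ×ˢ Ioo c M) \ Z, (gx χ p * T (ψ p) - χ p * (deriv T (ψ p) * X2 p)) := by
  have L := H.L
  have hT1 : ContDiff ℝ 1 T := hT.sm.of_le (by norm_num)
  have hTl : ∀ x, T (-lam μ x) = -lam μ x := fun x => by
    have h1 := abs_lam_le μ x
    have h2 : 0 ≤ lam μ x := by unfold Mp_87.lam; exact ENNReal.toReal_nonneg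
    rw [abs_of_nonneg h2] at h1
    exact hT.id _ (by linarith) (by linarith)
  obtain ⟨C2, hC2⟩ := bdd_gx C.sm C.cs
  have hR1 : MeasurableSet (Ioo a b ×ˢ Ioo c B) := measurableSet_Ioo.prod measurableSet_Ioo
  have hR2 : MeasurableSet (Ioo a b ×ˢ Ico B M) := measurableSet_Ioo.prod measurableSet_Ico
  have hRR : Ioo a b ×ˢ Ioo c M = (Ioo a b ×ˢ Ioo c B) ∪ (Ioo a b ×ˢ Ico B M) := by
    rw [← prod_union]
    congr 1
    ext y
    simp only [mem_union, mem_Ioo, mem_Ico]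
    constructor
    · rintro ⟨h1, h2⟩
      rcases lt_or_ge y B with h | h
      · exact Or.inl ⟨h1, h⟩
      · exact Or.inr ⟨h, h2⟩
    · rintro (⟨h1, h2⟩ | ⟨h1, h2⟩)
      · exact ⟨h1, by linarith⟩
      · exact ⟨by linarith, h2⟩
  have hdis : Disjoint (Ioo a b ×ˢ Ioo c B) (Ioo a b ×ˢ Ico B M) := by
    rw [Set.disjoint_left]
    rintro p ⟨-, -, h⟩ ⟨-, h', -⟩
    exact absurd h' (not_le.2 h)
  set F : ℝ × ℝ → ℝ := fun p => gx χ p * T (ψ p) - χ p * (deriv T (ψ p) * X2 p) with hF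
  have hae : ∀ᵐ p : ℝ × ℝ, p ∈ Ioo a b ×ˢ Ioo c B → gx χ p * T (Ψ p) - χ p * (deriv T (Ψ p) * X2 p) = F p := by
    filter_upwards [L.E] with p hp hpR
    rw [hp hpR.1 hpR.2.1]
  have i1 : IntegrableOn F (Ioo a b ×ˢ Ioo c B) := by
    refine (integrableOn_fluxT L C.sm C.cs hT1 hT.nn hT.le).congr ?_
    rw [EventuallyEq, ae_restrict_iff' hR1]
    exact hae
  -- the strip
  have hFs : ∀ p ∈ Ioo a b ×ˢ Ico B M, F p = gx χ p * (-lam μ p.1) := by
    intro p hp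
    show gx χ p * T (ψ p) - χ p * (deriv T (ψ p) * X2 p) = _
    rw [L.strip p hp.2.1, H.XB p hp.2.1]
    have e : (-1 : ℝ) * lam μ p.1 = -lam μ p.1 := by ring
    rw [e, hTl]; ring
  have hsm : Measurable fun p : ℝ × ℝ => -lam μ p.1 := (measurable_lam.comp measurable_fst).neg
  have hfin : volume (Ioo a b ×ˢ Ico B M : Set (ℝ × ℝ)) ≠ ⊤ := by
    rw [Measure.volume_eq_prod, Measure.prod_prod]
    simp [Real.volume_Ioo, Real.volume_Ico, ENNReal.mul_eq_top]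
  have i2' : IntegrableOn (fun p : ℝ × ℝ => gx χ p * (-lam μ p.1)) (Ioo a b ×ˢ Ico B M) := by
    have h1 : IntegrableOn (fun p : ℝ × ℝ => -lam μ p.1) (Ioo a b ×ˢ Ico B M) := by
      refine Measure.integrableOn_of_bounded (M := (μ univ).toReal) hfin
        hsm.aestronglyMeasurable (Eventually.of_forall fun p => ?_)
      rw [norm_neg, Real.norm_eq_abs]
      exact abs_lam_le μ _
    exact h1.bdd_mul (c := C2) (Hq_363.continuous_gx C.sm).aestronglyMeasurable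
      (Eventually.of_forall hC2)
  have i2 : IntegrableOn F (Ioo a b ×ˢ Ico B M) := by
    refine i2'.congr ?_
    rw [EventuallyEq, ae_restrict_iff' hR2]
    exact Eventually.of_forall fun p hp => (hFs p hp).symm
  have i12 : IntegrableOn F (Ioo a b ×ˢ Ioo c M) := by
    rw [hRR]; exact i1.union i2
  refine ⟨i12, ?_⟩
  have es : (Ioo a b ×ˢ Ioo c M) \ Z = ((Ioo a b ×ˢ Ioo c B) \ Z) ∪ ((Ioo a b ×ˢ Ico B M) \ Z) := by
    rw [hRR, union_sdiff_distrib]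
  rw [es, setIntegral_union (hdis.mono sdiff_subset sdiff_subset) (hR2.diff hZ)
    (i1.mono_set sdiff_subset) (i2.mono_set sdiff_subset)]
  -- lower part
  have k1 := flux_half_ge (χ := χ) L hab H.mS H.XS H.dis H.box la H.sf C.sm C.cs C.ts C.nn C.le
    (fun p hp => C.gx p (Or.inl hp)) hT1 hT.nn hT.le
  have k2 : ∫ p in (Ioo a b ×ˢ Ioo c B) \ (Q.un ∪ S),
      (gx χ p * T (Ψ p) - χ p * (deriv T (Ψ p) * X2 p)) =
      ∫ p in (Ioo a b ×ˢ Ioo c B) \ Z, F p := by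
    have h1 : ((Ioo a b ×ˢ Ioo c B) \ (Q.un ∪ S) : Set (ℝ × ℝ)) =ᵐ[volume]
        ((Ioo a b ×ˢ Ioo c B) \ Z : Set (ℝ × ℝ)) := by
      rw [eventuallyEq_set]
      filter_upwards [hZl] with p hp
      simp only [Set.mem_sdiff]
      constructor
      · rintro ⟨h1, h2⟩
        exact ⟨h1, fun h => h2 ((hp h1).1 h)⟩
      · rintro ⟨h1, h2⟩
        exact ⟨h1, fun h => h2 ((hp h1).2 h)⟩
    rw [setIntegral_congr_set h1]
    refine setIntegral_congr_ae (hR1.diff hZ) ?_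
    filter_upwards [hae] with p hp hpm
    exact hp hpm.1
  rw [k2] at k1
  -- strip part
  have k4 : ∫ p in (Ioo a b ×ˢ Ico B M) \ Z, F p = (M - B) * (μ univ).toReal := by
    have h1 : ∫ p in (Ioo a b ×ˢ Ico B M) \ Z, F p =
        ∫ p in Ioo a b ×ˢ Ico B M, gx χ p * (-lam μ p.1) := by
      have h2 : ∫ p in (Ioo a b ×ˢ Ico B M) ∩ Z, F p = 0 := by
        rw [← integral_zero (ℝ × ℝ) ℝ (μ := volume.restrict ((Ioo a b ×ˢ Ico B M) ∩ Z))]
        refine setIntegral_congr_fun (hR2.inter hZ) fun p hp => ?_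
        show F p = 0
        rw [hFs p hp.1, C.gx p (Or.inr hp.2)]; ring
      have h3 := integral_inter_add_sdiff (μ := (volume : Measure (ℝ × ℝ))) hZ i2
      rw [h2, zero_add] at h3
      rw [h3]
      exact setIntegral_congr_fun hR2 hFs
    rw [h1]
    have h4 : IntegrableOn (fun p : ℝ × ℝ => gx χ p * (-lam μ p.1)) (Ioo a b ×ˢ Ioo B M) :=
      i2'.mono_set (prod_mono_right Ioo_subset_Ico_self)
    have h5 : (Ioo a b ×ˢ Ico B M : Set (ℝ × ℝ)) =ᵐ[volume] (Ioo a b ×ˢ Ioo B M : Set (ℝ × ℝ)) := by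
      rw [Measure.volume_eq_prod]
      exact Measure.set_prod_ae_eq (ae_eq_refl _) Ioo_ae_eq_Ico.symm
    rw [setIntegral_congr_set h5, integral_rect_y h4]
    have h6 : ∀ y ∈ Ioo B M, ∫ x in Ioo a b, gx χ (x, y) * (-lam μ x) = (μ univ).toReal := by
      intro y hy
      have e0 : ∀ x, x ∉ Ioo a b → gx χ (x, y) * (-lam μ x) = 0 := by
        intro x hx
        rw [gx_zero_of_notMem fun h => hx (C.ts h).1]; ring
      rw [setIntegral_eq_integral_of_forall_compl_eq_zero e0]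
      refine flux_strip hab C.sm C.cs C.ts ?_
      filter_upwards [C.one y (hcB.trans hy.1) hy.2, H.car] with q h7 h8
      exact h7 (lt_of_le_of_lt h8 hy.1)
    rw [setIntegral_congr_fun measurableSet_Ioo h6, setIntegral_const, smul_eq_mul,
      Measure.real, Real.volume_Ioo, ENNReal.toReal_ofReal (by linarith)]
  rw [k4]
  linarith

end Half

section Two

variable {ι ι' : Type} {Q : Rects ι} {Q' : Rects ι'} {S S' Z : Set (ℝ × ℝ)}
variable {a b c d Bm Bp M m : ℝ} {X1 X2 Y1 Y2 ψ Ψ ψ' Ψ' χ F : ℝ × ℝ → ℝ}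
  {μ ν : Measure (ℝ × ℝ)} {f : ι → ℝ} {f' : ι' → ℝ} {T : ℝ → ℝ}

/-- **the flux of the glued function times the cut-off** -/
theorem TwoQ.fluxT [Countable ι] [Countable ι'] [IsFiniteMeasure μ] [IsFiniteMeasure ν]
    (H : TwoQ Q Q' S S' Z a b c d Bm Bp M X1 X2 ψ Ψ Y1 Y2 ψ' Ψ' μ ν f f' F)
    (la : ∀ i, ∫ p in Q.op i, |X2 p| ≤ 4 * (Q.h2 i * f i))
    (la' : ∀ i, ∫ p in Q'.op i, |Y2 p| ≤ 4 * (Q'.h2 i * f' i))
    (C : CutT Q Q' S S' Z a b c d M μ ν χ) {M₀ : ℝ} (hT : Clamp m M₀ T)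
    (hm : (μ univ).toReal ≤ m) :
    IntegrableOn (fun p => gx χ p * T (F p) + χ p * (deriv T (F p) * W1 X2 Y2 p))
      ((Ioo a b ×ˢ Ioo c d) \ Z) ∧
    (Bp - Bm) * (μ univ).toReal - ∑' i, (On Q χ).indicator (fun i => 4 * (Q.h2 i * f i)) i
      - ∑' i, (On Q' (fun p => χ (rf p))).indicator (fun i => 4 * (Q'.h2 i * f' i)) i ≤
      ∫ p in (Ioo a b ×ˢ Ioo c d) \ Z,
        (gx χ p * T (F p) + χ p * (deriv T (F p) * W1 X2 Y2 p)) := by
  have hcB := H.cB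
  have hBM := H.BM
  have hMB := H.MB
  have hBd := H.Bd
  have hdiff : Differentiable ℝ χ := C.sm.differentiable (by norm_num)
  have hgrf : ∀ p, gx (fun q => χ (rf q)) p = gx χ (rf p) := gx_rf hdiff
  have hrfm : Measurable rf := continuous_rf.measurable
  have hZ' : MeasurableSet (rf ⁻¹' Z) := hrfm H.mZ
  -- lower half
  have Cl : CutD Q S Z a b c M μ χ :=
    ⟨C.sm, C.cs, C.ts, C.nn, C.le, C.gx, C.ct, C.one⟩
  obtain ⟨i1, k1⟩ := HalfD.fluxT H.lo la hT hm H.ab hcB hBM H.mZ H.Zl Cl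
  -- upper half
  have hts := tsupport_rf' C.cs
  have Cu : CutD Q' S' (rf ⁻¹' Z) a b (-d) (-M) ν (fun p => χ (rf p)) := by
    refine ⟨C.sm.comp (by unfold rf; fun_prop), hts.1, ?_, fun p => C.nn _, fun p => C.le _, ?_,
      C.ct', ?_⟩
    · intro p hp
      have := C.ts (hts.2 hp)
      exact ⟨this.1, mem_univ _⟩
    · intro p hp
      rw [hgrf]
      rcases hp with hp | hp
      · exact C.gx' p hp
      · exact C.gx (rf p) (Or.inr hp)
    · intro y hy hyM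
      filter_upwards [C.one' (-y) (by linarith) (by linarith)] with q hq h
      exact hq (by rw [neg_neg]; exact h)
  obtain ⟨i2, k2⟩ := HalfD.fluxT (M := -M) (Z := rf ⁻¹' Z) H.up la' hT (by rw [H.mass]; exact hm)
    H.ab (by linarith) (by linarith) hZ' H.Zu Cu
  rw [H.mass] at k2
  set G : ℝ × ℝ → ℝ := fun p => gx χ p * T (F p) + χ p * (deriv T (F p) * W1 X2 Y2 p) with hG
  have hR1 : MeasurableSet (Ioo a b ×ˢ Ioo c M) := measurableSet_Ioo.prod measurableSet_Ioo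
  have hR2 : MeasurableSet (Ioo a b ×ˢ Ioo (-d) (-M)) := measurableSet_Ioo.prod measurableSet_Ioo
  have hR3 : MeasurableSet (Ioo a b ×ˢ Ioo M d) := measurableSet_Ioo.prod measurableSet_Ioo
  -- the lower integrand
  have e1 : ∀ᵐ p : ℝ × ℝ, p ∈ (Ioo a b ×ˢ Ioo c M) \ Z → gx χ p * T (ψ p) - χ p * (deriv T (ψ p) * X2 p) = G p := by
    filter_upwards [H.Fl] with p hp hpm
    show _ = gx χ p * T (F p) + χ p * (deriv T (F p) * (-X2 p - Y2 (rf p)))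
    rw [hp hpm.1 hpm.2, H.up.XB (rf p) (by show -Bp ≤ -p.2; linarith [hpm.1.2.2])]; ring
  have j1 : IntegrableOn G ((Ioo a b ×ˢ Ioo c M) \ Z) := by
    refine (i1.mono_set sdiff_subset).congr ?_
    rw [EventuallyEq, ae_restrict_iff' (hR1.diff H.mZ)]
    exact e1
  have l1 : ∫ p in (Ioo a b ×ˢ Ioo c M) \ Z, (gx χ p * T (ψ p) - χ p * (deriv T (ψ p) * X2 p)) =
      ∫ p in (Ioo a b ×ˢ Ioo c M) \ Z, G p := setIntegral_congr_ae (hR1.diff H.mZ) e1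
  -- the upper integrand
  have hmp := measurePreserving_rf
  have e2' : ∀ᵐ p : ℝ × ℝ, rf p ∈ Ioo a b ×ˢ Ioo M d → rf p ∉ Z → F (rf p) = ψ' (rf (rf p)) :=
    hmp.quasiMeasurePreserving.ae H.Fu
  have e2 : ∀ᵐ p : ℝ × ℝ, p ∈ (Ioo a b ×ˢ Ioo (-d) (-M)) \ (rf ⁻¹' Z) →
      gx (fun q => χ (rf q)) p * T (ψ' p) - χ (rf p) * (deriv T (ψ' p) * Y2 p) = G (rf p) := by
    filter_upwards [e2'] with p hp hpm
    have h1 : rf p ∈ Ioo a b ×ˢ Ioo M d :=
      ⟨hpm.1.1, by show M < -p.2; linarith [hpm.1.2.2], by show -p.2 < d; linarith [hpm.1.2.1]⟩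
    show _ = gx χ (rf p) * T (F (rf p)) + χ (rf p) * (deriv T (F (rf p)) * (-X2 (rf p) - Y2 (rf (rf p))))
    rw [hp h1 hpm.2, rf_rf, hgrf, H.lo.XB (rf p) (by show Bm ≤ -p.2; linarith [hpm.1.2.2])]; ring
  have hset : rf ⁻¹' ((Ioo a b ×ˢ Ioo M d) \ Z) = (Ioo a b ×ˢ Ioo (-d) (-M)) \ (rf ⁻¹' Z) := by
    ext p
    simp only [mem_preimage, Set.mem_sdiff, rf, mem_prod, mem_Ioo]
    constructor
    · rintro ⟨⟨h1, h2, h3⟩, h4⟩
      exact ⟨⟨h1, by linarith, by linarith⟩, h4⟩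
    · rintro ⟨⟨h1, h2, h3⟩, h4⟩
      exact ⟨⟨h1, by linarith, by linarith⟩, h4⟩
  have hemb : MeasurableEmbedding rf := measurableEmbedding_rf
  have l2 : ∫ p in (Ioo a b ×ˢ Ioo (-d) (-M)) \ (rf ⁻¹' Z),
      (gx (fun q => χ (rf q)) p * T (ψ' p) - χ (rf p) * (deriv T (ψ' p) * Y2 p)) =
      ∫ p in (Ioo a b ×ˢ Ioo M d) \ Z, G p := by
    rw [setIntegral_congr_ae (hR2.diff hZ') e2, ← hset]
    exact hmp.setIntegral_preimage_emb hemb G _
  have j2 : IntegrableOn G ((Ioo a b ×ˢ Ioo M d) \ Z) := by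
    refine (hmp.integrableOn_comp_preimage (f := G) (s := (Ioo a b ×ˢ Ioo M d) \ Z) hemb).1 ?_
    rw [hset]
    refine (i2.mono_set sdiff_subset).congr ?_
    rw [EventuallyEq, ae_restrict_iff' (hR2.diff hZ')]
    exact e2
  -- join
  have hE : ((Ioo a b ×ˢ Ioo c d) \ Z : Set (ℝ × ℝ)) =ᵐ[volume]
      (((Ioo a b ×ˢ Ioo c M) \ Z) ∪ ((Ioo a b ×ˢ Ioo M d) \ Z) : Set (ℝ × ℝ)) := by
    rw [eventuallyEq_set]
    have h0 : ∀ᵐ p : ℝ × ℝ, p.2 ≠ M := by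
      have h00 : ∀ᵐ t : ℝ, t ≠ M := by rw [ae_iff]; simp
      exact ae_snd' h00
    filter_upwards [h0] with p hp
    simp only [mem_union, Set.mem_sdiff, mem_prod, mem_Ioo]
    constructor
    · rintro ⟨⟨h1, h2, h3⟩, h4⟩
      rcases lt_or_gt_of_ne hp with h | h
      · exact Or.inl ⟨⟨h1, h2, h⟩, h4⟩
      · exact Or.inr ⟨⟨h1, h, h3⟩, h4⟩
    · rintro (⟨⟨h1, h2, h3⟩, h4⟩ | ⟨⟨h1, h2, h3⟩, h4⟩)
      · exact ⟨⟨h1, h2, by linarith⟩, h4⟩
      · exact ⟨⟨h1, by linarith, h3⟩, h4⟩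
  have hdis : Disjoint ((Ioo a b ×ˢ Ioo c M) \ Z) ((Ioo a b ×ˢ Ioo M d) \ Z) := by
    rw [Set.disjoint_left]
    rintro p ⟨⟨-, -, h⟩, -⟩ ⟨⟨-, h', -⟩, -⟩
    exact lt_asymm h h'
  refine ⟨?_, ?_⟩
  · exact (j1.union j2).congr_set_ae hE
  · rw [setIntegral_congr_set hE, setIntegral_union hdis (hR3.diff H.mZ) j1 j2, ← l1, ← l2]
    have h1 : (Bp - Bm) * (μ univ).toReal = (M - Bm) * (μ univ).toReal +
        (-M - -Bp) * (μ univ).toReal := by ring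
    linarith

end Two

end Crest.Agent.R105.Psq_425
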