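import Crest.Agent.R105.Psq4_425
import Crest.Agent.R105.Psi9_425

/-!
# Row 105 (S0138), helper425: the test function `χ T(F) + w` and E-L
-/

set_option autoImplicit false

open MeasureTheory Set Filter Topology
open scoped NNReal ENNReal ContDiff

namespace Crest.Agent.R105.Psq_425

open Psi5_425 Psi6_425 Psi7_425 CF_363 Psq_463
open Crest.Agent.R105.Stp_722 Crest.Agent.R105.Cq_463
open Crest.Agent.R105.Nal_649 Crest.Agent.R105.Exs_992 Crest.Agent.R105.SkT1_137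
open Crest.Agent.R105.Skp2_257 (Comps Reg Lo Up)

/-- the cut-off: smooth, compact support in `R`, `0 ≤ χ ≤ 1`, locally constant near `E`, `1` near
the members of `g` -/
structure Cut (E R : Set (ℝ × ℝ)) (g : Set (Set (ℝ × ℝ))) (χ : ℝ × ℝ → ℝ) : Prop where
  sm : ContDiff ℝ ∞ χ
  cpt : HasCompactSupport χ
  sub : tsupport χ ⊆ R
  nn : ∀ p, 0 ≤ χ p
  le : ∀ p, χ p ≤ 1
  loc : ∀ P ∈ Comps E, ∃ c : ℝ, ∃ O, IsOpen O ∧ P ⊆ O ∧ ∀ p ∈ O, χ p = c
  one : ∀ P ∈ g, ∃ O, IsOpen O ∧ P ⊆ O ∧ ∀ p ∈ O, χ p = 1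

/-- the glued function, seen from the components -/
structure GFun (E : Set (ℝ × ℝ)) (𝒬 : Set Sqr) (R : Set (ℝ × ℝ)) (g S₀ : Set (Set (ℝ × ℝ)))
    (m : ℝ) (F U1 U2 : ℝ × ℝ → ℝ) (o : Sqr → ℝ) : Prop where
  str : LineV (R \ E) F U1 U2
  fin : S₀.Finite
  lim : ∀ P ∈ Comps E, P ∉ S₀ → (∀ Q ∈ 𝒬, ¬ Q.car ⊆ P) → ∃ k, LimAt E P F k
  fam : ∃ G : ℝ → ℝ, Antitone G ∧ (∀ x, -m ≤ G x ∧ G x ≤ 0) ∧ ∀ P ∈ g, P ∉ S₀ →
    (∀ Q ∈ 𝒬, ¬ Q.car ⊆ P) → ∃ K : Hair, P = K.car ∧ LimAt E P F (G K.x)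
  o0 : ∀ Q, 0 ≤ o Q
  sum : Summable fun Q : 𝒬 => o Q.1 ^ 2
  osc : ∀ Q ∈ 𝒬, comp E Q ∉ S₀ → OscLe Eᶜ (comp E Q) F (o Q)

variable {E R : Set (ℝ × ℝ)} {𝒬 : Set Sqr} {𝓗 : Set Hair} {g S₀ : Set (Set (ℝ × ℝ))}
  {F U1 U2 χ : ℝ × ℝ → ℝ} {T : ℝ → ℝ} {m M Bm Bp : ℝ} {o : Sqr → ℝ}

open Classical in
/-- the bound for the oscillation of the test function at the component of `Q` -/
noncomputable def oCut (E : Set (ℝ × ℝ)) (S₀ : Set (Set (ℝ × ℝ))) (χ : ℝ × ℝ → ℝ) (A : ℝ)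
    (o : Sqr → ℝ) (Q : Sqr) : ℝ :=
  if ∃ p ∈ Q.car, χ p ≠ 0 then (if comp E Q ∈ S₀ then A else o Q) else 0

open Classical in
/-- the profile of the test function -/
noncomputable def pCut (𝒬 : Set Sqr) (S₀ : Set (Set (ℝ × ℝ))) (χ : ℝ × ℝ → ℝ) (A : ℝ)
    (o : Sqr → ℝ) (P : Set (ℝ × ℝ)) : ℝ :=
  if ∃ p ∈ P, χ p ≠ 0 then (if P ∈ S₀ then A else prof 𝒬 o P) else 0

theorem comps_nonempty {P : Set (ℝ × ℝ)} (hP : P ∈ Comps E) : P.Nonempty := by
  obtain ⟨p, hp, rfl⟩ := hP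
  exact ⟨p, mem_connectedComponentIn hp⟩

theorem comps_sub {P : Set (ℝ × ℝ)} (hP : P ∈ Comps E) : P ⊆ E := by
  obtain ⟨p, hp, rfl⟩ := hP
  exact connectedComponentIn_subset _ _

theorem lip_mul {κ χ : ℝ × ℝ → ℝ} {L K : ℝ≥0} (hκ : LipschitzWith L κ) (hχ : LipschitzWith K χ)
    {A B : ℝ≥0} (hA : ∀ p, |κ p| ≤ A) (hB : ∀ p, |χ p| ≤ B) :
    LipschitzWith (A * K + L * B) fun p => κ p * χ p := by
  refine LipschitzWith.of_dist_le_mul fun p q => ?_
  rw [Real.dist_eq]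
  have e : κ p * χ p - κ q * χ q = κ p * (χ p - χ q) + (κ p - κ q) * χ q := by ring
  rw [e]
  refine (abs_add_le _ _).trans ?_
  rw [abs_mul, abs_mul]
  have h1 := hκ.dist_le_mul p q
  have h2 := hχ.dist_le_mul p q
  rw [Real.dist_eq] at h1 h2
  have h3 : |κ p| * |χ p - χ q| ≤ A * (K * dist p q) :=
    mul_le_mul (hA p) h2 (abs_nonneg _) A.2
  have h4 : |κ p - κ q| * |χ q| ≤ (L * dist p q) * B :=
    mul_le_mul h1 (hB q) (abs_nonneg _) (by positivity)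
  have h5 : ((A * K + L * B : ℝ≥0) : ℝ) * dist p q = A * (K * dist p q) + (L * dist p q) * B := by
    push_cast; ring
  rw [h5]
  exact add_le_add h3 h4

theorem Cut.lip (h : Cut E R g χ) : ∃ K : ℝ≥0, LipschitzWith K χ := by
  obtain ⟨C, hC⟩ := (h.sm.continuous_fderiv (by norm_num)).bounded_above_of_compact_support
    (h.cpt.fderiv (𝕜 := ℝ))
  have hC0 : 0 ≤ C := (norm_nonneg _).trans (hC 0)
  refine ⟨⟨C, hC0⟩, lipschitzWith_of_nnnorm_fderiv_le (𝕜 := ℝ)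
    (h.sm.differentiable (by norm_num)) fun p => ?_⟩
  exact hC p

/-- **E-L for the test function.** -/
theorem el_test (hP : PicS E 𝒬 𝓗) (hEL : ELS StrQ E 𝒬 𝓗) (hg : FamQ E g Bm Bp) (hR : IsOpen R)
    (hRv : volume R ≠ ⊤)
    (hm : 0 ≤ m) (hM : 0 < M) (hT : Clamp m M T) (H : GFun E 𝒬 R g S₀ m F U1 U2 o)
    (pla : ∀ (κ : ℝ × ℝ → ℝ) (L : ℝ≥0), LipschitzWith L κ → HasCompactSupport κ →
      tsupport κ ⊆ R → (∃ O, IsOpen O ∧ ⋃₀ g ⊆ O ∧ ∀ p ∈ O, κ p = 0) →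
      PlaLim E 𝒬 fun p => κ p * T (F p))
    (hC : Cut E R g χ) :
    |∫ p in R \ E, (gx χ p * T (F p) + χ p * (deriv T (F p) * U1 p))| ≤
      ∑' Q : 𝒬, Q.1.s * oCut E S₀ χ (m + 2 * M) o Q.1 := by
  have hE := hP.q
  have hEc : IsClosed E := hE.cpt.isClosed
  obtain ⟨K, hK⟩ := hC.lip
  have hSt := LineV.clamp (hR.sdiff hEc) (ne_top_of_le_ne_top hRv (measure_mono sdiff_subset)) H.str
    hT hm
  obtain ⟨φ, w, D1, D2, hφ⟩ := smooth_on hEc hR hSt hK hC.cpt hC.sub one_pos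
  have hA : 0 ≤ m + 2 * M := by linarith
  have hw0 : ∀ P ∈ Comps E, LimAt E P w 0 := fun P hP' => limAt_zero hφ.cor.cont fun p hp =>
    hφ.cor.zero p fun h => h.2 (comps_sub hP' hp)
  have heq : φ = fun p => χ p * T (F p) + w p := funext hφ.eq
  -- the value of the cut-off on a component
  have hcval : ∀ P ∈ Comps E, ∃ c : ℝ, 0 ≤ c ∧ c ≤ 1 ∧ (c = 0 ↔ ¬ ∃ p ∈ P, χ p ≠ 0) ∧
      ∃ O, IsOpen O ∧ P ⊆ O ∧ ∀ p ∈ O, χ p = c := by
    intro P hP'
    obtain ⟨c, O, hO, hPO, hc⟩ := hC.loc P hP'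
    obtain ⟨q, hq⟩ := comps_nonempty hP'
    refine ⟨c, ?_, ?_, ?_, O, hO, hPO, hc⟩
    · rw [← hc q (hPO hq)]; exact hC.nn q
    · rw [← hc q (hPO hq)]; exact hC.le q
    · constructor
      · rintro h0 ⟨p, hp, hne⟩
        exact hne (by rw [hc p (hPO hp), h0])
      · intro h
        by_contra hne
        exact h ⟨q, hq, by rw [hc q (hPO hq)]; exact hne⟩
  -- the profile
  have hprof0 : ∀ P, 0 ≤ prof 𝒬 o P := fun P => prof_nonneg H.o0 P
  have hnn : ∀ P, 0 ≤ pCut 𝒬 S₀ χ (m + 2 * M) o P := by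
    intro P
    unfold pCut
    split_ifs
    · exact hA
    · exact hprof0 P
    · exact le_rfl
  have hsum : Summable fun P : Comps E => pCut 𝒬 S₀ χ (m + 2 * M) o P.1 ^ 2 := by
    classical
    have h1 := summable_prof hE (o := o) H.sum
    have h2 : Summable fun P : Comps E => (if P.1 ∈ S₀ then (m + 2 * M) ^ 2 else (0:ℝ)) := by
      refine summable_of_hasFiniteSupport ?_
      have h3 : (Subtype.val ⁻¹' S₀ : Set (Comps E)).Finite :=
        H.fin.preimage Subtype.val_injective.injOn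
      refine h3.subset fun P hP' => ?_
      by_contra hn
      have : P.1 ∉ S₀ := hn
      rw [Function.mem_support, if_neg this] at hP'
      exact hP' rfl
    refine Summable.of_nonneg_of_le (fun P => sq_nonneg _) (fun P => ?_) (h1.add h2)
    unfold pCut
    split_ifs with h3 h4
    · linarith [sq_nonneg (prof 𝒬 o P.1)]
    · linarith
    · have := sq_nonneg (prof 𝒬 o P.1)
      have := sq_nonneg (m + 2 * M)
      simp only [ne_eq, OfNat.ofNat_ne_zero, not_false_eq_true, zero_pow]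
      linarith
    · have := sq_nonneg (prof 𝒬 o P.1)
      simp only [ne_eq, OfNat.ofNat_ne_zero, not_false_eq_true, zero_pow]
      linarith
  have hosc : ∀ P ∈ Comps E, OscLe Eᶜ P φ (pCut 𝒬 S₀ χ (m + 2 * M) o P) := by
    intro P hP'
    obtain ⟨c, hc0, hc1, hciff, hc⟩ := hcval P hP'
    rw [heq]
    by_cases hz : c = 0
    · have h1 : pCut 𝒬 S₀ χ (m + 2 * M) o P = 0 := by
        unfold pCut; rw [if_neg (hciff.1 hz)]
      have h2 := oscLe_phi_clamp (F := F) hT hc0 hc (hw0 P hP')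
      rw [h1]
      rw [hz, zero_mul] at h2
      exact h2
    · have hex : ∃ p ∈ P, χ p ≠ 0 := by
        by_contra h
        exact hz (hciff.2 h)
      unfold pCut
      rw [if_pos hex]
      split_ifs with hS
      · exact (oscLe_phi_clamp hT hc0 hc (hw0 P hP')).mono (by nlinarith)
      · by_cases hsq : ∃ Q ∈ 𝒬, Q.car ⊆ P
        · obtain ⟨Q, hQ, hQP⟩ := hsq
          have hPQ := eq_comp hE hQ hP' hQP
          rw [hPQ] at hS ⊢
          rw [prof_comp hE o hQ]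
          rw [hPQ] at hc hP'
          exact oscLe_phi hT (H.osc Q hQ hS) hc0 hc1 hc (hw0 _ hP')
        · push Not at hsq
          obtain ⟨k, hk⟩ := H.lim P hP' hS hsq
          rw [prof_of_no hsq]
          exact (limAt_phi hT hk hc0 hc1 hc (hw0 P hP')).oscLe
  have hbdd : ∀ p, |φ p| ≤ m + M + 1 := by
    intro p
    rw [hφ.eq p]
    refine (abs_add_le _ _).trans (add_le_add ?_ (hφ.cor.bdd p))
    rw [abs_mul, abs_of_nonneg (hC.nn p)]
    calc χ p * |T (F p)| ≤ 1 * (m + M) :=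
          mul_le_mul (hC.le p) (hT.bdd hm _) (abs_nonneg _) zero_le_one
      _ = m + M := one_mul _
  have hlip : LocallyLipschitzOn Eᶜ φ := by
    intro p hp
    exact ll_of_contDiffOn hEc.isOpen_compl (hφ.smooth.of_le (by norm_num)) hp
  have hTF : TFin E φ (pCut 𝒬 S₀ χ (m + 2 * M) o) :=
    ⟨⟨hlip, hφ.cpt, ⟨_, hbdd⟩, hφ.fin⟩, fun P _ => hnn P, hosc, hsum⟩
  -- the class
  have hχE : ContinuousOn (fun p => χ p * T (F p)) Eᶜ := by
    intro p hp
    refine ContinuousAt.continuousWithinAt ?_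
    by_cases hpR : p ∈ R
    · have h1 : ContinuousAt (fun p => T (F p)) p :=
        hSt.cont.continuousAt ((hR.sdiff hEc).mem_nhds ⟨hpR, hp⟩)
      exact hC.sm.continuous.continuousAt.mul h1
    · have h1 : p ∉ tsupport χ := fun h => hpR (hC.sub h)
      refine (continuousAt_const (y := (0:ℝ))).congr ?_
      filter_upwards [notMem_tsupport_iff_eventuallyEq.1 h1] with q hq
      rw [hq]; simp
  have hStr : StrQ E 𝒬 𝓗 g Bm Bp φ := by
    refine ⟨?_, ?_, ⟨_, hTF⟩⟩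
    · obtain ⟨G, hGa, hGb, hG⟩ := H.fam
      refine ⟨S₀ ∪ (fun Q => comp E Q) '' 𝒬, H.fin.countable.union (hE.countable.image _), G, hGa,
        fun P hPg hPC => ?_⟩
      have hPS : P ∉ S₀ := fun h => hPC (Or.inl h)
      have hPQ : ∀ Q ∈ 𝒬, ¬ Q.car ⊆ P := fun Q hQ h =>
        hPC (Or.inr ⟨Q, hQ, (eq_comp hE hQ (hg.sub hPg) h).symm⟩)
      obtain ⟨K', hPK, hlim⟩ := hG P hPg hPS hPQ
      refine ⟨K', hPK, ?_⟩
      rw [heq]
      have h1 := limAt_phi hT hlim zero_le_one le_rfl (hC.one P hPg) (hw0 P (hg.sub hPg))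
      rw [one_mul, hT.id _ (hGb K'.x).1 (hGb K'.x).2] at h1
      exact h1
    · refine ⟨fun p => χ p * T (F p), hχE, ⟨m + M, fun p => ?_⟩, fun P hP' => ?_, ?_⟩
      · rw [abs_mul, abs_of_nonneg (hC.nn p)]
        calc χ p * |T (F p)| ≤ 1 * (m + M) :=
              mul_le_mul (hC.le p) (hT.bdd hm _) (abs_nonneg _) zero_le_one
          _ = m + M := one_mul _
      · have e : (fun p => φ p - χ p * T (F p)) = w := by
          funext p; rw [hφ.eq p]; ring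
        rw [e]
        exact hw0 P hP'
      · intro κ L hκ hκc hκ0
        obtain ⟨A, hA'⟩ := hκ.continuous.bounded_above_of_compact_support hκc
        have hA0 : 0 ≤ A := (norm_nonneg _).trans (hA' 0)
        have hl := lip_mul hκ hK (A := ⟨A, hA0⟩) (B := 1) (fun p => hA' p) (fun p => by
          rw [abs_of_nonneg (hC.nn p)]; exact hC.le p)
        have h2 := pla (fun p => κ p * χ p) _ hl hκc.mul_right ?_ ?_
        · have e : (fun p => κ p * (χ p * T (F p))) = fun p => κ p * χ p * T (F p) := by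
            funext p; ring
          rw [e]
          exact h2
        · exact (tsupport_mul_subset_right).trans hC.sub
        · obtain ⟨O, hO, hgO, h0⟩ := hκ0
          exact ⟨O, hO, hgO, fun p hp => by rw [h0 p hp, zero_mul]⟩
  have key := hEL g Bm Bp hg φ hStr _ hTF
  rw [hφ.val] at key
  refine key.trans (le_of_eq (tsum_congr fun Q => ?_))
  congr 1
  -- the profile at the component of a square
  have hQ := Q.2
  have hcm := comp_mem hE hQ
  obtain ⟨c, -, -, hciff, O, hO, hPO, hc⟩ := hcval _ hcm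
  have hiff : (∃ p ∈ comp E Q.1, χ p ≠ 0) ↔ ∃ p ∈ Q.1.car, χ p ≠ 0 := by
    constructor
    · rintro ⟨p, hp, hne⟩
      obtain ⟨q, hq⟩ := Q.1.nonempty
      refine ⟨q, hq, ?_⟩
      rw [hc q (hPO (car_sub_comp hE hQ hq)), ← hc p (hPO hp)]
      exact hne
    · rintro ⟨p, hp, hne⟩
      exact ⟨p, car_sub_comp hE hQ hp, hne⟩
  unfold pCut oCut
  rw [prof_comp hE o hQ]
  by_cases h : ∃ p ∈ Q.1.car, χ p ≠ 0
  · rw [if_pos h, if_pos (hiff.2 h)]
  · rw [if_neg h, if_neg fun h' => h (hiff.1 h')]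

end Crest.Agent.R105.Psq_425
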