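import Crest.Agent.R105.Psq5_425

/-!
# Row 105 (S0138), helper425: shrinking cut-offs; the inequality of Lemma A with squares
-/

set_option autoImplicit false

open MeasureTheory Set Filter Topology
open scoped NNReal ENNReal ContDiff

namespace Crest.Agent.R105.Psq_425

open Psi5_425 Psi6_425 Psi7_425 CF_363 Psq_463 Sq_87 Mp_87 Hq_363
open Crest.Agent.R105.Stp_722 Crest.Agent.R105.Cq_463
open Crest.Agent.R105.Nal_649 Crest.Agent.R105.Exs_992 Crest.Agent.R105.SkT1_137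
open Crest.Agent.R105.Skp2_257 (Comps Reg Lo Up)

/-- **the glued function with its flux** (all the input of the inequality). -/
structure Glue {ι ι' : Type} (E : Set (ℝ × ℝ)) (𝒬 : Set Sqr) (g S₀ : Set (Set (ℝ × ℝ)))
    (a b c d Bm Bp L m : ℝ) (Q : Rects ι) (Q' : Rects ι') (S S' : Set (ℝ × ℝ))
    (X1 X2 ψ Ψ Y1 Y2 ψ' Ψ' : ℝ × ℝ → ℝ) (μ ν : Measure (ℝ × ℝ)) (f : ι → ℝ) (f' : ι' → ℝ)
    (F U2 : ℝ × ℝ → ℝ) (o : Sqr → ℝ) (sq : ι → Sqr) (sq' : ι' → Sqr) : Prop where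
  two : TwoQ Q Q' S S' E a b c d Bm Bp L X1 X2 ψ Ψ Y1 Y2 ψ' Ψ' μ ν f f' F
  la : ∀ i, ∫ p in Q.op i, |X2 p| ≤ 4 * (Q.h2 i * f i)
  la' : ∀ i, ∫ p in Q'.op i, |Y2 p| ≤ 4 * (Q'.h2 i * f' i)
  gf : GFun E 𝒬 (Ioo a b ×ˢ Ioo c d) g S₀ m F (W1 X2 Y2) U2 o
  sub : ⋃₀ g ⊆ Ioo a b ×ˢ Ioo c d
  mass : (μ univ).toReal = m
  SE : S ⊆ E
  SE' : ∀ p ∈ S', rf p ∈ E
  sq : ∀ i, sq i ∈ 𝒬 ∧ Q.op i ⊆ (sq i).car
  sq' : ∀ i, sq' i ∈ 𝒬 ∧ ∀ p ∈ Q'.op i, rf p ∈ (sq' i).car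
  up : ∀ᵐ q ∂μ, ∀ y, q.2 < y → y < L → (q.1, y) ∈ ⋃₀ g
  up' : ∀ᵐ q ∂ν, ∀ y, L < y → q.2 < -y → (q.1, y) ∈ ⋃₀ g
  pla : ∀ (T : ℝ → ℝ) (M₀ : ℝ), Clamp m M₀ T → ∀ (κ : ℝ × ℝ → ℝ) (K : ℝ≥0), LipschitzWith K κ →
    HasCompactSupport κ → tsupport κ ⊆ Ioo a b ×ˢ Ioo c d →
    (∃ O, IsOpen O ∧ ⋃₀ g ⊆ O ∧ ∀ p ∈ O, κ p = 0) → PlaLim E 𝒬 fun p => κ p * T (F p)

variable {E R O : Set (ℝ × ℝ)} {𝒬 : Set Sqr} {𝓗 : Set Hair} {g S₀ : Set (Set (ℝ × ℝ))}
  {F U1 U2 χ : ℝ × ℝ → ℝ} {T : ℝ → ℝ} {m M Bm Bp : ℝ} {o : Sqr → ℝ}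

/-- (after helper70) In a compact set, a component inside an open set is inside a relatively clopen piece inside it:
`E = E₁ ∪ E₂`, disjoint compact pieces, component in `E₁`, `E₁` in the open set. -/
theorem exists_clopen_piece {X : Type*} [TopologicalSpace X] [T2Space X] {E : Set X} (hE : IsCompact E)
    {x : X} (hx : x ∈ E) {W : Set X} (hW : IsOpen W) (hK : connectedComponentIn E x ⊆ W) :
    ∃ E₁ ⊆ E, IsCompact E₁ ∧ IsCompact (E \ E₁) ∧ connectedComponentIn E x ⊆ E₁ ∧ E₁ ⊆ W := by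
  have : CompactSpace E := isCompact_iff_compactSpace.mp hE
  have h1 : connectedComponentIn E x = Subtype.val '' connectedComponent (⟨x, hx⟩ : E) :=
    connectedComponentIn_eq_image hx
  have h2 : connectedComponent (⟨x, hx⟩ : E) ⊆ Subtype.val ⁻¹' W := by
    intro y hy
    exact hK (by rw [h1]; exact ⟨y, hy, rfl⟩)
  rw [connectedComponent_eq_iInter_isClopen] at h2
  have hdir : Directed (· ⊇ ·) fun s : { s : Set E // IsClopen s ∧ (⟨x, hx⟩ : E) ∈ s } => s.val := by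
    rintro ⟨a, ha, hxa⟩ ⟨b, hb, hxb⟩
    exact ⟨⟨a ∩ b, ha.inter hb, hxa, hxb⟩, inter_subset_left, inter_subset_right⟩
  have : Nonempty { s : Set E // IsClopen s ∧ (⟨x, hx⟩ : E) ∈ s } := ⟨⟨univ, isClopen_univ, trivial⟩⟩
  obtain ⟨⟨s, hs, hxs⟩, hsW⟩ := exists_subset_nhds_of_isCompact' hdir
    (fun s => s.2.1.isClosed.isCompact) (fun s => s.2.1.isClosed)
    (U := Subtype.val ⁻¹' W) (fun y hy => (hW.preimage continuous_subtype_val).mem_nhds (h2 hy))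
  refine ⟨Subtype.val '' s, by rintro _ ⟨y, _, rfl⟩; exact y.2,
    hs.isClosed.isCompact.image continuous_subtype_val, ?_, ?_, ?_⟩
  · have : E \ Subtype.val '' s = Subtype.val '' sᶜ := by
      ext y
      constructor
      · rintro ⟨hy, hn⟩
        exact ⟨⟨y, hy⟩, fun h => hn ⟨_, h, rfl⟩, rfl⟩
      · rintro ⟨z, hz, rfl⟩
        refine ⟨z.2, ?_⟩
        rintro ⟨z', hz', he⟩
        have : z' = z := Subtype.ext he
        exact hz (this ▸ hz')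
    rw [this]
    exact hs.compl.isClosed.isCompact.image continuous_subtype_val
  · rw [h1]
    apply image_mono
    exact hs.connectedComponent_subset hxs
  · rintro _ ⟨y, hy, rfl⟩
    exact hsW hy

/-- a saturated compact part of `E` inside an open set is inside a clopen piece inside it -/
theorem exists_clopen_fam (hE : IsCompact E) {K : Set (ℝ × ℝ)} (hK : IsCompact K) (hKE : K ⊆ E)
    (hO : IsOpen O) (hsat : ∀ x ∈ K, connectedComponentIn E x ⊆ O) :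
    ∃ E₁ ⊆ E, IsCompact E₁ ∧ IsCompact (E \ E₁) ∧ K ⊆ E₁ ∧ E₁ ⊆ O := by
  choose! f hf using fun x (hx : x ∈ K) => exists_clopen_piece hE (hKE hx) hO (hsat x hx)
  obtain ⟨t, ht, hcov⟩ := hK.elim_nhds_subcover (fun x => (E \ f x)ᶜ) (fun x hx => by
    refine (hf x hx).2.2.1.isClosed.isOpen_compl.mem_nhds fun h => h.2 ?_
    exact (hf x hx).2.2.2.1 (mem_connectedComponentIn (hKE hx)))
  have hc : IsCompact (⋃ x ∈ t, f x) := t.isCompact_biUnion fun x hx => (hf x (ht x hx)).2.1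
  refine ⟨⋃ x ∈ t, f x, iUnion₂_subset fun x hx => (hf x (ht x hx)).1, hc, ?_, ?_,
    iUnion₂_subset fun x hx => (hf x (ht x hx)).2.2.2.2⟩
  · have h1 : E \ ⋃ x ∈ t, f x = E ∩ ⋂ x ∈ t, (E \ f x) := by
      ext y
      simp only [Set.mem_sdiff, mem_iUnion, exists_prop, not_exists, not_and, mem_inter_iff,
        mem_iInter]
      exact ⟨fun h => ⟨h.1, fun i hi => ⟨h.1, h.2 i hi⟩⟩, fun h => ⟨h.1, fun i hi => (h.2 i hi).2⟩⟩
    rw [h1]
    refine hE.inter_right (isClosed_biInter fun x hx => ?_)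
    exact (hf x (ht x hx)).2.2.1.isClosed
  · intro y hy
    obtain ⟨x, hx, hyx⟩ := mem_iUnion₂.1 (hcov hy)
    refine mem_iUnion₂.2 ⟨x, hx, ?_⟩
    by_contra hn
    exact hyx ⟨hKE hy, hn⟩

theorem comps_conn {P : Set (ℝ × ℝ)} (hP : P ∈ Comps E) : IsPreconnected P := by
  obtain ⟨p, hp, rfl⟩ := hP
  exact isPreconnected_connectedComponentIn

theorem Cut.mono (h : Cut E O g χ) (hOR : O ⊆ R) : Cut E R g χ :=
  ⟨h.sm, h.cpt, h.sub.trans hOR, h.nn, h.le, h.loc, h.one⟩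

/-- **cut-offs with small support** -/
theorem exists_cut (hE : IsCompact E) (hg : g ⊆ Comps E) (hgc : IsCompact (⋃₀ g))
    (hO : IsOpen O) (hgO : ⋃₀ g ⊆ O) : ∃ χ, Cut E O g χ := by
  have hgE : ⋃₀ g ⊆ E := sUnion_subset fun P hP => comps_sub (hg hP)
  obtain ⟨E₁, h1E, h1c, h2c, h1g, h1O⟩ := exists_clopen_fam hE hgc hgE hO (by
    intro x hx
    obtain ⟨P, hP, hxP⟩ := hx
    obtain ⟨p, hp, rfl⟩ := hg hP
    rw [← connectedComponentIn_eq hxP]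
    exact (subset_sUnion_of_mem hP).trans hgO)
  obtain ⟨L, hL, hL1, hL2⟩ := exists_compact_between h1c (hO.sdiff h2c.isClosed) (fun p hp =>
    ⟨h1O hp, fun h => h.2 hp⟩)
  obtain ⟨χ, hs, h1, h0, hb⟩ := MsB_425.cutoff h1c.isClosed hL1
  have hsup : tsupport χ ⊆ L := by
    refine closure_minimal (fun p hp => ?_) hL.isClosed
    by_contra hn
    exact hp (h0 p hn)
  obtain ⟨O1, hO1, hEO1, hO1'⟩ := mem_nhdsSet_iff_exists.1 h1
  refine ⟨χ, hs, HasCompactSupport.of_support_subset_isCompact hL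
    ((subset_tsupport χ).trans hsup), fun p hp => (hL2 (hsup hp)).1, fun p => (hb p).1,
    fun p => (hb p).2, fun P hP => ?_, fun P hP => ?_⟩
  · by_cases hPE : (P ∩ E₁).Nonempty
    · refine ⟨1, O1, hO1, ?_, fun p hp => hO1' hp⟩
      refine Subset.trans ?_ hEO1
      by_contra hn
      obtain ⟨q, hq, hqE⟩ := not_subset.1 hn
      have h2 := isPreconnected_closed_iff.1 (comps_conn hP) E₁ (E \ E₁) h1c.isClosed
        h2c.isClosed (fun p hp => by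
          by_cases h : p ∈ E₁
          · exact Or.inl h
          · exact Or.inr ⟨comps_sub hP hp, h⟩) hPE ⟨q, hq, comps_sub hP hq, hqE⟩
      obtain ⟨r, -, hr1, hr2⟩ := h2
      exact hr2.2 hr1
    · refine ⟨0, Lᶜ, hL.isClosed.isOpen_compl, fun p hp hpL => ?_, fun p hp => h0 p hp⟩
      refine (hL2 hpL).2 ⟨comps_sub hP hp, fun h => hPE ⟨p, hp, h⟩⟩
  · exact ⟨O1, hO1, ((subset_sUnion_of_mem hP).trans h1g).trans hEO1, fun p hp => hO1' hp⟩

/-- tails -/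
theorem tail {κ : Type*} {u v : κ → ℝ} (hu : Summable u) (hu0 : ∀ i, 0 ≤ u i)
    (hv0 : ∀ i, 0 ≤ v i) (hvu : ∀ i, v i ≤ u i) {G : Set κ} {t : Finset κ} {ε : ℝ}
    (ht : ∑' i : {i // i ∉ t}, u i.1 ≤ ε) (h0 : ∀ i ∈ t, i ∉ G → v i = 0) :
    ∑' i, v i ≤ ∑' i, G.indicator u i + ε := by
  have h1 : ∀ i, v i ≤ G.indicator u i + {i | i ∉ t}.indicator u i := by
    intro i
    by_cases hG : i ∈ G
    · rw [indicator_of_mem hG]
      have : 0 ≤ {i | i ∉ t}.indicator u i := indicator_nonneg (fun i _ => hu0 i) i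
      linarith [hvu i]
    · rw [indicator_of_notMem hG]
      by_cases hi : i ∈ t
      · rw [h0 i hi hG]
        have : 0 ≤ {i | i ∉ t}.indicator u i := indicator_nonneg (fun i _ => hu0 i) i
        linarith
      · rw [indicator_of_mem (show i ∈ {i | i ∉ t} from hi)]
        linarith [hvu i]
  have hs1 : Summable (G.indicator u) := hu.indicator G
  have hs2 : Summable ({i | i ∉ t}.indicator u) := hu.indicator _
  have hsv : Summable v := Summable.of_nonneg_of_le hv0 hvu hu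
  calc ∑' i, v i ≤ ∑' i, (G.indicator u i + {i | i ∉ t}.indicator u i) :=
        hsv.tsum_le_tsum h1 (hs1.add hs2)
    _ = ∑' i, G.indicator u i + ∑' i, {i | i ∉ t}.indicator u i := hs1.tsum_add hs2
    _ ≤ _ := by
        refine add_le_add le_rfl (le_trans (le_of_eq ?_) ht)
        exact (tsum_subtype {i | i ∉ t} u).symm

theorem exists_tail {κ : Type*} {u : κ → ℝ} {ε : ℝ} (hε : 0 < ε) :
    ∃ t : Finset κ, ∑' i : {i // i ∉ t}, u i.1 ≤ ε := by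
  have h := tendsto_tsum_compl_atTop_zero u
  obtain ⟨t, ht⟩ := (h.eventually (gt_mem_nhds hε)).exists
  exact ⟨t, ht.le⟩

end Crest.Agent.R105.Psq_425
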