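import Crest.Agent.R105.Psq6_425
import Crest.Agent.R105.Psq3_425

/-!
# Row 105 (S0138), helper425: the inequality of Lemma A with squares
-/

set_option autoImplicit false

open MeasureTheory Set Filter Topology
open scoped NNReal ENNReal ContDiff

namespace Crest.Agent.R105.Psq_425

open Psi5_425 Psi6_425 Psi7_425 CF_363 Psq_463 Sq_87 Mp_87 Hq_363
open Crest.Agent.R105.Stp_722 Crest.Agent.R105.Cq_463
open Crest.Agent.R105.Nal_649 Crest.Agent.R105.Exs_992 Crest.Agent.R105.SkT1_137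
open Crest.Agent.R105.Skp2_257 (Comps Reg Lo Up)

variable {ι ι' : Type} {E : Set (ℝ × ℝ)} {𝒬 : Set Sqr} {𝓗 : Set Hair}
  {g S₀ : Set (Set (ℝ × ℝ))} {a b c d Bm Bp L m M : ℝ} {Q : Rects ι} {Q' : Rects ι'}
  {S S' : Set (ℝ × ℝ)} {X1 X2 ψ Ψ Y1 Y2 ψ' Ψ' : ℝ × ℝ → ℝ} {μ ν : Measure (ℝ × ℝ)}
  {f : ι → ℝ} {f' : ι' → ℝ} {F U2 χ : ℝ × ℝ → ℝ} {o : Sqr → ℝ} {sq : ι → Sqr} {sq' : ι' → Sqr}

theorem Cut.gx_zero {R : Set (ℝ × ℝ)} (h : Cut E R g χ) {p : ℝ × ℝ} (hp : p ∈ E) :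
    CF_363.gx χ p = 0 := by
  obtain ⟨k, O, hO, hPO, hk⟩ := h.loc _ ⟨p, hp, rfl⟩
  have h1 : χ =ᶠ[𝓝 p] fun _ => k := by
    filter_upwards [hO.mem_nhds (hPO (mem_connectedComponentIn hp))] with q hq
    exact hk q hq
  unfold CF_363.gx
  rw [h1.fderiv_eq, fderiv_fun_const]
  rfl

theorem Cut.one' {R : Set (ℝ × ℝ)} (h : Cut E R g χ) {p : ℝ × ℝ} (hp : p ∈ ⋃₀ g) : χ p = 1 := by
  obtain ⟨P, hP, hpP⟩ := hp
  obtain ⟨O, -, hPO, h1⟩ := h.one P hP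
  exact h1 p (hPO hpP)

theorem Cut.const_car {R : Set (ℝ × ℝ)} (hE : QPic E 𝒬 𝓗) (h : Cut E R g χ) {P : Sqr}
    (hP : P ∈ 𝒬) : ∃ k, ∀ p ∈ P.car, χ p = k := by
  obtain ⟨k, O, -, hPO, hk⟩ := h.loc _ (comp_mem hE hP)
  exact ⟨k, fun p hp => hk p (hPO (car_sub_comp hE hP hp))⟩

/-- the cut-off is admissible for the flux -/
theorem Cut.cutT (hE : QPic E 𝒬 𝓗)
    (G : Glue E 𝒬 g S₀ a b c d Bm Bp L m Q Q' S S' X1 X2 ψ Ψ Y1 Y2 ψ' Ψ' μ ν f f' F U2 o sq sq')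
    (h : Cut E (Ioo a b ×ˢ Ioo c d) g χ) : CutT Q Q' S S' E a b c d L μ ν χ := by
  refine ⟨h.sm.of_le (by norm_num), h.cpt, fun p hp => ⟨(h.sub hp).1, mem_univ _⟩, h.nn, h.le,
    ?_, ?_, fun i => ?_, fun i => ?_, ?_, ?_⟩
  · rintro p ((hp | hp) | hp)
    · obtain ⟨i, hi⟩ := mem_iUnion.1 hp
      exact h.gx_zero (hE.sub _ (G.sq i).1 ((G.sq i).2 hi))
    · exact h.gx_zero (G.SE hp)
    · exact h.gx_zero hp
  · rintro p (hp | hp)
    · obtain ⟨i, hi⟩ := mem_iUnion.1 hp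
      exact h.gx_zero (hE.sub _ (G.sq' i).1 ((G.sq' i).2 p hi))
    · exact h.gx_zero (G.SE' p hp)
  · obtain ⟨k, hk⟩ := h.const_car hE (G.sq i).1
    exact ⟨k, fun p hp => hk p ((G.sq i).2 hp)⟩
  · obtain ⟨k, hk⟩ := h.const_car hE (G.sq' i).1
    exact ⟨k, fun p hp => hk _ ((G.sq' i).2 p hp)⟩
  · intro y _ hy
    filter_upwards [G.up] with q hq hqy
    exact h.one' (hq y hqy hy)
  · intro y hy _
    filter_upwards [G.up'] with q hq hqy
    exact h.one' (hq y hy hqy)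

theorem mem_g_of_meet (hE : QPic E 𝒬 𝓗) (hg : g ⊆ Comps E) {P : Sqr} (hP : P ∈ 𝒬)
    {p : ℝ × ℝ} (hp : p ∈ P.car) (hpg : p ∈ ⋃₀ g) : comp E P ∈ g := by
  obtain ⟨A, hA, hpA⟩ := hpg
  have := Famq_306.comp_unique (hg hA) (comp_mem hE hP) ⟨p, hpA, car_sub_comp hE hP hp⟩
  rwa [this] at hA

/-- cut-offs which vanish on finitely many given squares -/
theorem exists_cut_off (hE : QPic E 𝒬 𝓗) (hg : FamQ E g Bm Bp) {R : Set (ℝ × ℝ)} (hR : IsOpen R)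
    (hgR : ⋃₀ g ⊆ R) {s : Set Sqr} (hs : s.Finite) (hsQ : s ⊆ 𝒬) :
    ∃ χ, Cut E R g χ ∧ ∀ P ∈ s, comp E P ∉ g → ∀ p ∈ P.car, χ p = 0 := by
  set B : Set (ℝ × ℝ) := ⋃ P ∈ {P ∈ s | comp E P ∉ g}, P.car with hB
  have hBc : IsClosed B := by
    refine Set.Finite.isClosed_biUnion (hs.subset fun P hP => hP.1) fun P _ => ?_
    exact P.isCompact_car.isClosed
  obtain ⟨χ, hχ⟩ := exists_cut hE.cpt hg.sub hg.cpt (hR.sdiff hBc) (fun p hp => ⟨hgR hp, fun h => by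
    obtain ⟨P, hP, hpP⟩ := mem_iUnion₂.1 h
    exact hP.2 (mem_g_of_meet hE hg.sub (hsQ hP.1) hpP hp)⟩)
  refine ⟨χ, hχ.mono sdiff_subset, fun P hP hPg p hp => ?_⟩
  by_contra hne
  have h1 := hχ.sub (subset_tsupport χ hne)
  exact h1.2 (mem_iUnion₂.2 ⟨P, ⟨hP, hPg⟩, hp⟩)

open Classical in
theorem summable_terms (hE : QPic E 𝒬 𝓗) (hfin : S₀.Finite) (o0 : ∀ P, 0 ≤ o P)
    (hsum : Summable fun P : 𝒬 => o P.1 ^ 2) {A : ℝ} (hA : 0 ≤ A) :
    Summable fun P : 𝒬 => P.1.s * (if comp E P.1 ∈ S₀ then A else o P.1) := by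
  have h1 := hE.summable_sq
  have h2 : Summable fun P : 𝒬 => (if comp E P.1 ∈ S₀ then A ^ 2 else (0:ℝ)) := by
    refine summable_of_hasFiniteSupport ?_
    have h3 : ((fun P : 𝒬 => comp E P.1) ⁻¹' S₀ : Set 𝒬).Finite := by
      refine hfin.preimage ?_
      intro P _ P' _ he
      exact Subtype.ext (eq_of_comp_eq hE P.2 P'.2 he)
    refine h3.subset fun P hP' => ?_
    by_contra hn
    have : comp E P.1 ∉ S₀ := hn
    rw [Function.mem_support, if_neg this] at hP'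
    exact hP' rfl
  refine Summable.of_nonneg_of_le (fun P => ?_) (fun P => ?_) ((h1.add h2).add hsum)
  · refine mul_nonneg P.1.hs.le ?_
    split_ifs
    · exact hA
    · exact o0 _
  · split_ifs
    · nlinarith [sq_nonneg (P.1.s - A), sq_nonneg (o P.1), sq_nonneg P.1.s, sq_nonneg A]
    · nlinarith [sq_nonneg (P.1.s - o P.1), sq_nonneg (o P.1), sq_nonneg P.1.s]

open Classical in
/-- **THE INEQUALITY** (at a fixed clamping `M`). -/
theorem Glue.ineqM [Countable ι] [Countable ι'] [IsFiniteMeasure μ] [IsFiniteMeasure ν]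
    (hP : PicS E 𝒬 𝓗) (hEL : ELS StrQ E 𝒬 𝓗) (hg : FamQ E g Bm Bp)
    (G : Glue E 𝒬 g S₀ a b c d Bm Bp L m Q Q' S S' X1 X2 ψ Ψ Y1 Y2 ψ' Ψ' μ ν f f' F U2 o sq sq')
    (hM : 0 < M) :
    (Bp - Bm) * m ≤
      ∑' P : 𝒬, {P : 𝒬 | comp E P.1 ∈ g}.indicator
        (fun P => P.1.s * (if comp E P.1 ∈ S₀ then m + 2 * M else o P.1)) P +
      ∑' i, {i | comp E (sq i) ∈ g}.indicator (fun i => 4 * (Q.h2 i * f i)) i +
      ∑' i, {i | comp E (sq' i) ∈ g}.indicator (fun i => 4 * (Q'.h2 i * f' i)) i := by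
  have hE := hP.q
  have hm : 0 ≤ m := by rw [← G.mass]; exact ENNReal.toReal_nonneg
  have hA : 0 ≤ m + 2 * M := by linarith
  have hR : IsOpen (Ioo a b ×ˢ Ioo c d : Set (ℝ × ℝ)) := isOpen_Ioo.prod isOpen_Ioo
  -- the three summable majorants
  have hs1 := summable_terms hE G.gf.fin G.gf.o0 G.gf.sum hA
  have hs2 : Summable fun i => 4 * (Q.h2 i * f i) := G.two.lo.sf.mul_left 4
  have hs3 : Summable fun i => 4 * (Q'.h2 i * f' i) := G.two.up.sf.mul_left 4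
  have n1 : ∀ P : 𝒬, 0 ≤ P.1.s * (if comp E P.1 ∈ S₀ then m + 2 * M else o P.1) := fun P => by
    refine mul_nonneg P.1.hs.le ?_
    split_ifs
    · exact hA
    · exact G.gf.o0 _
  have n2 : ∀ i, 0 ≤ 4 * (Q.h2 i * f i) := fun i =>
    mul_nonneg (by norm_num) (mul_nonneg (Q.p2 i).le (G.two.lo.f0 i))
  have n3 : ∀ i, 0 ≤ 4 * (Q'.h2 i * f' i) := fun i =>
    mul_nonneg (by norm_num) (mul_nonneg (Q'.p2 i).le (G.two.up.f0 i))
  refine le_of_forall_pos_le_add fun ε hε => ?_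
  have hε3 : 0 < ε / 3 := by positivity
  obtain ⟨t1, ht1⟩ := exists_tail (u := fun P : 𝒬 =>
    P.1.s * (if comp E P.1 ∈ S₀ then m + 2 * M else o P.1)) hε3
  obtain ⟨t2, ht2⟩ := exists_tail (u := fun i => 4 * (Q.h2 i * f i)) hε3
  obtain ⟨t3, ht3⟩ := exists_tail (u := fun i => 4 * (Q'.h2 i * f' i)) hε3
  set s : Set Sqr := (Subtype.val '' (t1 : Set 𝒬)) ∪ (sq '' (t2 : Set ι)) ∪
    (sq' '' (t3 : Set ι')) with hs
  have hsf : s.Finite := ((t1.finite_toSet.image _).union (t2.finite_toSet.image _)).union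
    (t3.finite_toSet.image _)
  have hsQ : s ⊆ 𝒬 := by
    rintro P ((⟨x, -, rfl⟩ | ⟨x, -, rfl⟩) | ⟨x, -, rfl⟩)
    · exact x.2
    · exact (G.sq x).1
    · exact (G.sq' x).1
  obtain ⟨χ, hχ, hχ0⟩ := exists_cut_off hE hg hR G.sub hsf hsQ
  obtain ⟨T, hT⟩ := exists_clamp hm hM
  have hCT := hχ.cutT hE G
  obtain ⟨-, hflux⟩ := TwoQ.fluxT G.two G.la G.la' hCT hT G.mass.le
  have hRv : volume (Ioo a b ×ˢ Ioo c d : Set (ℝ × ℝ)) ≠ ⊤ := by
    rw [Measure.volume_eq_prod, Measure.prod_prod, Real.volume_Ioo, Real.volume_Ioo]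
    exact ENNReal.mul_ne_top ENNReal.ofReal_ne_top ENNReal.ofReal_ne_top
  have hel := el_test hP hEL hg hR hRv hm hM hT G.gf (G.pla T M hT) hχ
  have hmass := G.mass
  rw [hmass] at hflux
  -- the three sums
  have b1 : ∑' P : 𝒬, P.1.s * oCut E S₀ χ (m + 2 * M) o P.1 ≤
      ∑' P : 𝒬, {P : 𝒬 | comp E P.1 ∈ g}.indicator
        (fun P => P.1.s * (if comp E P.1 ∈ S₀ then m + 2 * M else o P.1)) P + ε / 3 := by
    refine tail hs1 n1 (fun P => ?_) (fun P => ?_) ht1 (fun P hP' hPg => ?_)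
    · unfold oCut
      refine mul_nonneg P.1.hs.le ?_
      split_ifs
      · exact hA
      · exact G.gf.o0 _
      · exact le_rfl
    · unfold oCut
      by_cases h : ∃ p ∈ P.1.car, χ p ≠ 0
      · rw [if_pos h]
      · rw [if_neg h, mul_zero]; exact n1 P
    · have h0 := hχ0 P.1 (Or.inl (Or.inl ⟨P, hP', rfl⟩)) hPg
      unfold oCut
      rw [if_neg, mul_zero]
      rintro ⟨p, hp, hne⟩
      exact hne (h0 p hp)
  have b2 : ∑' i, (On Q χ).indicator (fun i => 4 * (Q.h2 i * f i)) i ≤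
      ∑' i, {i | comp E (sq i) ∈ g}.indicator (fun i => 4 * (Q.h2 i * f i)) i + ε / 3 := by
    refine tail hs2 n2 (fun i => indicator_nonneg (fun i _ => n2 i) i) (fun i => ?_) ht2
      (fun i hi hig => ?_)
    · exact indicator_le_self' (fun i _ => n2 i) i
    · have h0 := hχ0 (sq i) (Or.inl (Or.inr ⟨i, hi, rfl⟩)) hig
      rw [indicator_of_notMem]
      rintro ⟨p, hp, hne⟩
      exact hne (h0 p ((G.sq i).2 hp))
  have b3 : ∑' i, (On Q' (fun p => χ (rf p))).indicator (fun i => 4 * (Q'.h2 i * f' i)) i ≤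
      ∑' i, {i | comp E (sq' i) ∈ g}.indicator (fun i => 4 * (Q'.h2 i * f' i)) i + ε / 3 := by
    refine tail hs3 n3 (fun i => indicator_nonneg (fun i _ => n3 i) i) (fun i => ?_) ht3
      (fun i hi hig => ?_)
    · exact indicator_le_self' (fun i _ => n3 i) i
    · have h0 := hχ0 (sq' i) (Or.inr ⟨i, hi, rfl⟩) hig
      rw [indicator_of_notMem]
      rintro ⟨p, hp, hne⟩
      exact hne (h0 _ ((G.sq' i).2 p hp))
  have h5 := (le_abs_self _).trans hel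
  linarith

end Crest.Agent.R105.Psq_425
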