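import Crest.Agent.R105.Gl4_363

/-!
# Row 105 (S0138), helper425: `TwoG ⟹ TwoQ`
-/

set_option autoImplicit false

open MeasureTheory Set Filter Topology
open scoped NNReal ENNReal

namespace Crest.Agent.R105.Psq_425

open CF_363 Cq_463 Sq_87 Hq_363 Kbx_247 Gl_363
open Mp_87 (lam Rc)

variable {ι ι' : Type} {E S : Set (ℝ × ℝ)} {𝒬 : Set Sqr} {𝓗 : Set Hair} {Q : Rects ι}
  {Q' : Rects ι'} {sq : ι → Sqr} {sq' : ι' → Sqr} {a b c d Bm Bp Tl Tu M : ℝ}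
  {X1 X2 ψ Ψ Y1 Y2 ψ' Ψ' : ℝ × ℝ → ℝ} {μ ν : Measure (ℝ × ℝ)} {f : ι → ℝ} {f' : ι' → ℝ}
  {g g' : ℝ × ℝ → ℝ}

theorem twoQ_of_twoG (H : TwoG E S 𝒬 𝓗 Q Q' sq sq' a b c d Bm Bp Tl Tu M X1 X2 ψ Ψ Y1 Y2 ψ' Ψ' μ ν
    f f' g g') :
    TwoQ Q Q' ((E ∩ {p | p.2 < Bm}) \ Q.un) ((rf ⁻¹' E ∩ {p | p.2 < -Bp}) \ Q'.un) E
      a b c d Bm Bp M X1 X2 ψ Ψ Y1 Y2 ψ' Ψ' μ ν f f' (glF M g g') := by
  have hQE := un_sub H.G
  have hQE' := un_sub H.G'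
  refine ⟨H.ab, H.G.cB, H.BM.le, H.MB.le, H.Bd, H.D, H.D', H.mass,
    H.G.pic.cpt.isClosed.measurableSet, ?_, ?_, ?_, ?_⟩
  · refine Eventually.of_forall fun p hp => ⟨fun h => ?_, ?_⟩
    · by_cases hu : p ∈ Q.un
      · exact Or.inl hu
      · exact Or.inr ⟨⟨h, hp.2.2⟩, hu⟩
    · rintro (h | h)
      · exact hQE h
      · exact h.1.1
  · refine Eventually.of_forall fun p hp => ⟨fun h => ?_, ?_⟩
    · by_cases hu : p ∈ Q'.un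
      · exact Or.inl hu
      · exact Or.inr ⟨⟨h, hp.2.2⟩, hu⟩
    · rintro (h | h)
      · exact hQE' h
      · exact h.1.1
  · filter_upwards [H.H.ae] with p h1 hp hpE
    unfold glF
    rw [if_pos hp.2.2]
    exact h1 ⟨hp.1, hp.2.1, hp.2.2.trans H.Ml⟩ (fun h => hpE (hQE h)) (fun h => hpE (H.G.SE h))
  · have h2 := measurePreserving_rf.quasiMeasurePreserving.ae H.H'.ae
    filter_upwards [h2] with p h1 hp hpE
    unfold glF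
    rw [if_neg (not_lt.2 hp.2.1.le)]
    refine h1 ⟨hp.1, ?_, ?_⟩ (fun h => hpE (by simpa using hQE' h)) (fun h => hpE ?_)
    · show -d < -p.2
      linarith [hp.2.2]
    · show -p.2 < Tu
      linarith [hp.2.1, H.Mu, H.BM]
    · have : rf (rf p) ∈ S := h
      rw [rf_rf] at this
      exact H.G.SE this

end Crest.Agent.R105.Psq_425
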