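import Crest.Agent.R165.ConfTop_641
import Crest.Agent.Lib.InjHolo

/-!
# Row 105 (Koebe), D-frame: all `p_θ = e^{-iθ} w - e^{iθ} S` univalent ⟹ `w` univalent and `S` is a
strict contraction of `w` (post #9272 (2)), helper988

* `isPreconnected_offDiag` : `U × U` minus the diagonal is preconnected;
* `contraction` : `‖S z₁ - S z₂‖ < ‖w z₁ - w z₂‖` for all `z₁ ≠ z₂` in `U`;
* `injOn_w`, `injOn_sub_conj`, `injOn_add_conj`, `injOn_comb`;
* `exists_pair_of_bounded` : the starting pair near infinity.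
-/

set_option autoImplicit false

open Set Filter Topology Metric Complex
open scoped ComplexConjugate

namespace Crest.Agent.R105.Pth_988

/-- the pairs of distinct points of a planar domain form a preconnected set -/
theorem isPreconnected_offDiag {U : Set ℂ} (hU : IsOpen U) (hc : IsPreconnected U) :
    IsPreconnected {q : ℂ × ℂ | q.1 ∈ U ∧ q.2 ∈ U ∧ q.1 ≠ q.2} := by
  apply isPreconnected_of_forall_pair
  rintro ⟨a, b⟩ ⟨ha, hb, hab⟩ ⟨c, d⟩ ⟨hc', hd, hcd⟩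
  simp only at ha hb hab hc' hd hcd
  -- a third point
  obtain ⟨e, he, hea, hec⟩ : ∃ e ∈ U, e ≠ a ∧ e ≠ c := by
    have hinf : (U : Set ℂ).Infinite := infinite_of_mem_nhds a (hU.mem_nhds ha)
    obtain ⟨e, he⟩ := (hinf.sdiff (Set.toFinite ({a, c} : Set ℂ))).nonempty
    refine ⟨e, he.1, ?_, ?_⟩
    · intro h; exact he.2 (by simp [h])
    · intro h; exact he.2 (by simp [h])
  have key := Crest.Agent.R165.ConfTopx641.isPreconnected_sdiff_singleton hU hc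
  have h1 : IsPreconnected (({a} : Set ℂ) ×ˢ (U \ {a})) := isPreconnected_singleton.prod (key a)
  have h2 : IsPreconnected ((U \ {e}) ×ˢ ({e} : Set ℂ)) := (key e).prod isPreconnected_singleton
  have h3 : IsPreconnected (({c} : Set ℂ) ×ˢ (U \ {c})) := isPreconnected_singleton.prod (key c)
  have h12 : IsPreconnected ((({a} : Set ℂ) ×ˢ (U \ {a})) ∪ ((U \ {e}) ×ˢ ({e} : Set ℂ))) :=
    h1.union (a, e) ⟨rfl, he, hea⟩ ⟨⟨ha, fun h => hea h.symm⟩, rfl⟩ h2
  have h123 := h12.union (c, e) (Or.inr ⟨⟨hc', fun h => hec h.symm⟩, rfl⟩)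
    (⟨rfl, he, hec⟩ : (c, e) ∈ ({c} : Set ℂ) ×ˢ (U \ {c})) h3
  refine ⟨_, ?_, ?_, ?_, h123⟩
  · rintro ⟨x, y⟩ ((⟨hx, hy⟩ | ⟨hx, hy⟩) | ⟨hx, hy⟩)
    · simp only [mem_singleton_iff] at hx
      exact ⟨hx ▸ ha, hy.1, fun h => hy.2 (by simp only at h; simp [← h, hx])⟩
    · simp only [mem_singleton_iff] at hy
      exact ⟨hx.1, hy ▸ he, fun h => hx.2 (by simp only at h; simp [h, hy])⟩
    · simp only [mem_singleton_iff] at hx
      exact ⟨hx ▸ hc', hy.1, fun h => hy.2 (by simp only at h; simp [← h, hx])⟩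
  · exact Or.inl (Or.inl ⟨rfl, hb, fun h => hab h.symm⟩)
  · exact Or.inr ⟨rfl, hd, fun h => hcd h.symm⟩

/-- the rotation angle which makes two numbers of the same modulus cancel -/
theorem exists_theta {x y : ℂ} (h : ‖x‖ = ‖y‖) :
    ∃ θ : ℝ, exp (-(θ : ℂ) * I) * x = exp ((θ : ℂ) * I) * y := by
  rcases eq_or_ne y 0 with rfl | hy
  · rw [norm_zero, norm_eq_zero] at h
    exact ⟨0, by simp [h]⟩
  · refine ⟨arg (x / y) / 2, ?_⟩
    have hn : ‖x / y‖ = 1 := by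
      rw [norm_div, h, div_self (norm_ne_zero_iff.2 hy)]
    have h1 : exp (arg (x / y) * I) = x / y := by
      have := norm_mul_exp_arg_mul_I (x / y)
      rwa [hn, ofReal_one, one_mul] at this
    have h2 : x = exp (arg (x / y) * I) * y := by rw [h1]; field_simp
    calc exp (-((arg (x / y) / 2 : ℝ) : ℂ) * I) * x
        = exp (-((arg (x / y) / 2 : ℝ) : ℂ) * I) * (exp (arg (x / y) * I) * y) := by rw [← h2]
      _ = exp (((arg (x / y) / 2 : ℝ) : ℂ) * I) * y := by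
          rw [← mul_assoc, ← Complex.exp_add]
          congr 2
          push_cast; ring

variable {U : Set ℂ} {w S : ℂ → ℂ}

/-- **all `p_θ` univalent ⟹ `S` is a strict contraction of `w`** -/
theorem contraction (hU : IsOpen U) (hc : IsPreconnected U)
    (hw : ContinuousOn w U) (hS : ContinuousOn S U)
    (hp : ∀ θ : ℝ, InjOn (fun z => exp (-(θ : ℂ) * I) * w z - exp ((θ : ℂ) * I) * S z) U)
    (h0 : ∃ z₁ ∈ U, ∃ z₂ ∈ U, z₁ ≠ z₂ ∧ ‖S z₁ - S z₂‖ < ‖w z₁ - w z₂‖) :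
    ∀ z₁ ∈ U, ∀ z₂ ∈ U, z₁ ≠ z₂ → ‖S z₁ - S z₂‖ < ‖w z₁ - w z₂‖ := by
  obtain ⟨a, ha, b, hb, hab, hlt⟩ := h0
  intro z₁ h₁ z₂ h₂ h12
  set D : Set (ℂ × ℂ) := {q : ℂ × ℂ | q.1 ∈ U ∧ q.2 ∈ U ∧ q.1 ≠ q.2} with hD
  have hpre : IsPreconnected D := isPreconnected_offDiag hU hc
  let g : ℂ × ℂ → ℝ := fun q => ‖w q.1 - w q.2‖ - ‖S q.1 - S q.2‖
  have hg : ContinuousOn g D := by
    have m1 : MapsTo (Prod.fst : ℂ × ℂ → ℂ) D U := fun q hq => hq.1
    have m2 : MapsTo (Prod.snd : ℂ × ℂ → ℂ) D U := fun q hq => hq.2.1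
    have w1 := hw.comp continuousOn_fst m1
    have w2 := hw.comp continuousOn_snd m2
    have s1 := hS.comp continuousOn_fst m1
    have s2 := hS.comp continuousOn_snd m2
    exact (w1.sub w2).norm.sub (s1.sub s2).norm
  have hne : ∀ q ∈ D, g q ≠ 0 := by
    rintro ⟨x, y⟩ ⟨hx, hy, hxy⟩ h
    simp only at hx hy hxy
    have h' : ‖w x - w y‖ = ‖S x - S y‖ := sub_eq_zero.1 h
    obtain ⟨θ, hθ⟩ := exists_theta h'
    apply hxy
    apply hp θ hx hy
    simp only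
    linear_combination hθ
  by_contra hcon
  push Not at hcon
  have hle : g (z₁, z₂) ≤ 0 := by simp only [g]; linarith
  have hge : 0 ≤ g (a, b) := by simp only [g]; linarith
  obtain ⟨q, hq, hq0⟩ := hpre.intermediate_value (⟨h₁, h₂, h12⟩ : (z₁, z₂) ∈ D)
    (⟨ha, hb, hab⟩ : (a, b) ∈ D) hg ⟨hle, hge⟩
  exact hne q hq hq0

/-- the starting pair: near infinity `w` is close to the identity and `S` is bounded -/
theorem exists_pair_of_bounded {R C : ℝ} (hR : ∀ z : ℂ, R < ‖z‖ → z ∈ U)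
    (hw : ∀ z : ℂ, R < ‖z‖ → ‖w z - z‖ ≤ C) (hS : ∀ z : ℂ, R < ‖z‖ → ‖S z‖ ≤ C) :
    ∃ z₁ ∈ U, ∃ z₂ ∈ U, z₁ ≠ z₂ ∧ ‖S z₁ - S z₂‖ < ‖w z₁ - w z₂‖ := by
  set T : ℝ := |R| + |C| + 1 with hT
  have hT0 : 0 < T := by positivity
  have hTR : R < T := by
    have := le_abs_self R
    have := abs_nonneg C
    linarith
  have hTC : C < T := by
    have := le_abs_self C
    have := abs_nonneg R
    linarith
  have n1 : ‖((T : ℝ) : ℂ)‖ = T := by rw [Complex.norm_real, Real.norm_of_nonneg hT0.le]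
  have n2 : ‖((-(5 * T) : ℝ) : ℂ)‖ = 5 * T := by
    rw [Complex.norm_real, Real.norm_eq_abs, abs_neg, abs_of_pos (by linarith)]
  have r1 : R < ‖((T : ℝ) : ℂ)‖ := by rw [n1]; exact hTR
  have r2 : R < ‖((-(5 * T) : ℝ) : ℂ)‖ := by rw [n2]; linarith
  have hdist : ‖((T : ℝ) : ℂ) - ((-(5 * T) : ℝ) : ℂ)‖ = 6 * T := by
    rw [← ofReal_sub, Complex.norm_real, Real.norm_of_nonneg (by linarith)]; ring
  refine ⟨(T : ℂ), hR _ r1, ((-(5 * T) : ℝ) : ℂ), hR _ r2, ?_, ?_⟩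
  · intro h
    rw [h, sub_self, norm_zero] at hdist
    linarith
  · have a1 := hw _ r1
    have a2 := hw _ r2
    have b1 := hS _ r1
    have b2 := hS _ r2
    have c1 : ‖S ((T : ℝ) : ℂ) - S ((-(5 * T) : ℝ) : ℂ)‖ ≤ C + C :=
      (norm_sub_le _ _).trans (add_le_add b1 b2)
    have c2 : ‖((T : ℝ) : ℂ) - ((-(5 * T) : ℝ) : ℂ)‖ ≤
        ‖w ((T : ℝ) : ℂ) - w ((-(5 * T) : ℝ) : ℂ)‖ + ‖w ((T : ℝ) : ℂ) - ((T : ℝ) : ℂ)‖ +
          ‖w ((-(5 * T) : ℝ) : ℂ) - ((-(5 * T) : ℝ) : ℂ)‖ := by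
      have e : ((T : ℝ) : ℂ) - ((-(5 * T) : ℝ) : ℂ) =
          (w ((T : ℝ) : ℂ) - w ((-(5 * T) : ℝ) : ℂ)) - (w ((T : ℝ) : ℂ) - ((T : ℝ) : ℂ)) +
          (w ((-(5 * T) : ℝ) : ℂ) - ((-(5 * T) : ℝ) : ℂ)) := by ring
      calc _ = _ := congrArg _ e
        _ ≤ _ := (norm_add_le _ _).trans (add_le_add_left (norm_sub_le _ _) _)
    rw [hdist] at c2
    linarith

section Corollaries

variable (h : ∀ z₁ ∈ U, ∀ z₂ ∈ U, z₁ ≠ z₂ → ‖S z₁ - S z₂‖ < ‖w z₁ - w z₂‖)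
include h

theorem injOn_w : InjOn w U := by
  intro a ha b hb hab
  by_contra hne
  have := h a ha b hb hne
  rw [hab, sub_self, norm_zero] at this
  exact absurd this (not_lt.2 (norm_nonneg _))

/-- `w + c conj S` is injective for `|c| ≤ 1` -/
theorem injOn_comb {c : ℂ} (hc : ‖c‖ ≤ 1) : InjOn (fun z => w z + c * conj (S z)) U := by
  intro a ha b hb hab
  by_contra hne
  have h1 := h a ha b hb hne
  have h2 : w a - w b = -(c * conj (S a - S b)) := by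
    simp only at hab
    rw [map_sub]
    linear_combination hab
  have h3 : ‖w a - w b‖ ≤ ‖S a - S b‖ := by
    rw [h2, norm_neg, norm_mul, Complex.norm_conj]
    calc ‖c‖ * ‖S a - S b‖ ≤ 1 * ‖S a - S b‖ := by gcongr
      _ = _ := one_mul _
  linarith

theorem injOn_sub_conj : InjOn (fun z => w z - conj (S z)) U := by
  have := injOn_comb h (c := -1) (by simp)
  refine this.congr ?_
  intro z _
  simp only; ring

theorem injOn_add_conj : InjOn (fun z => w z + conj (S z)) U := by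
  have := injOn_comb h (c := 1) (by simp)
  refine this.congr ?_
  intro z _
  simp only; ring

/-- the contraction is also true for the derivatives -/
theorem norm_deriv_le (hU : IsOpen U) (hw : DifferentiableOn ℂ w U) (hS : DifferentiableOn ℂ S U)
    {z : ℂ} (hz : z ∈ U) : ‖deriv S z‖ ≤ ‖deriv w z‖ := by
  have d1 := ((hS z hz).differentiableAt (hU.mem_nhds hz)).hasDerivAt
  have d2 := ((hw z hz).differentiableAt (hU.mem_nhds hz)).hasDerivAt
  have t1 := (hasDerivAt_iff_tendsto_slope.1 d1).norm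
  have t2 := (hasDerivAt_iff_tendsto_slope.1 d2).norm
  refine le_of_tendsto_of_tendsto t1 t2 ?_
  have hmem : U \ {z} ∈ 𝓝[≠] z := by
    rw [sdiff_eq]
    exact inter_mem (mem_nhdsWithin_of_mem_nhds (hU.mem_nhds hz)) self_mem_nhdsWithin
  filter_upwards [hmem] with y hy
  simp only [slope, vsub_eq_sub, smul_eq_mul, norm_mul]
  have := h y hy.1 z hz (fun e => hy.2 e)
  gcongr

theorem deriv_w_ne_zero (hU : IsOpen U) (hw : DifferentiableOn ℂ w U) {z : ℂ} (hz : z ∈ U) :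
    deriv w z ≠ 0 :=
  Crest.Agent.Lib.deriv_ne_zero_of_injOn hU hw (injOn_w h) hz

end Corollaries

end Crest.Agent.R105.Pth_988
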