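import Mathlib

/-!
# Vertical absolute continuity, one variable part (helper937, task 2338)

`α` continuous, locally Lipschitz off the closed set `K`, derivative `b` a.e. off `K`, and
`∫ (χ b + χ' α) = 0` for one cut-off `χ` which is `1` near `K ∩ [y1,y2]` and `0` near the rest of
`K`  ⟹  `α y2 - α y1 = ∫_{y1}^{y2} b`.
-/

set_option autoImplicit false

open Set Filter MeasureTheory intervalIntegral
open scoped Topology NNReal

namespace Crest.Agent.R105.Vac_937

theorem const_of_locally {H : ℝ → ℝ} {a b : ℝ} (hab : a ≤ b)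
    (h : ∀ y ∈ Icc a b, ∀ᶠ x in 𝓝 y, H x = H y) : H b = H a := by
  have h1 : ∀ y ∈ Icc a b, HasDerivAt H 0 y := fun y hy =>
    (hasDerivAt_const y (H y)).congr_of_eventuallyEq (h y hy)
  exact constant_of_has_deriv_right_zero (fun y hy => (h1 y hy).continuousAt.continuousWithinAt)
    (fun y hy => (h1 y (Ico_subset_Icc_self hy)).hasDerivWithinAt) b (right_mem_Icc.2 hab)

/-- a neighbourhood contains all `uIcc y x`, `x` near `y`. -/
theorem eventually_uIcc {y : ℝ} {t : Set ℝ} (ht : t ∈ 𝓝 y) : ∀ᶠ x in 𝓝 y, uIcc y x ⊆ t := by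
  obtain ⟨δ, hδ, hb⟩ := Metric.mem_nhds_iff.1 ht
  filter_upwards [Metric.ball_mem_nhds y hδ] with x hx
  refine Subset.trans ?_ hb
  exact ((convex_ball y δ).ordConnected.uIcc_subset (Metric.mem_ball_self hδ) hx)

section

variable {α b χ χ' : ℝ → ℝ} {K : Set ℝ}

/-- increments of `α` near a point off `K`. -/
theorem incr_one (hK : IsClosed K) (hα : LocallyLipschitzOn Kᶜ α)
    (hd : ∀ᵐ y : ℝ, y ∉ K → HasDerivAt α (b y) y) {y : ℝ} (hy : y ∉ K) :
    ∀ᶠ x in 𝓝 y, ∫ r in y..x, b r = α x - α y := by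
  obtain ⟨L, t, ht, hL⟩ := hα hy
  rw [hK.isOpen_compl.nhdsWithin_eq hy] at ht
  filter_upwards [eventually_uIcc (inter_mem ht (hK.isOpen_compl.mem_nhds hy))] with x hx
  have h1 : AbsolutelyContinuousOnInterval α y x :=
    (hL.mono (hx.trans inter_subset_left)).absolutelyContinuousOnInterval
  rw [← h1.integral_deriv_eq_sub]
  apply intervalIntegral.integral_congr_ae
  filter_upwards [hd] with r hr hr'
  exact (hr (hx (uIoc_subset_uIcc hr')).2).deriv.symm

/-- increments of `χ α` near a point off `K`. -/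
theorem incr_two (hK : IsClosed K) (hα : LocallyLipschitzOn Kᶜ α)
    (hd : ∀ᵐ y : ℝ, y ∉ K → HasDerivAt α (b y) y)
    (hχ : ∀ y, HasDerivAt χ (χ' y) y) (hχc : Continuous χ') {y : ℝ} (hy : y ∉ K) :
    ∀ᶠ x in 𝓝 y, ∫ r in y..x, (χ r * b r + χ' r * α r) = χ x * α x - χ y * α y := by
  obtain ⟨L, t, ht, hL⟩ := hα hy
  rw [hK.isOpen_compl.nhdsWithin_eq hy] at ht
  have hC : ContDiff ℝ 1 χ := by
    rw [contDiff_one_iff_deriv]
    refine ⟨fun y => (hχ y).differentiableAt, ?_⟩
    have : deriv χ = χ' := funext fun y => (hχ y).deriv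
    rw [this]; exact hχc
  filter_upwards [eventually_uIcc (inter_mem ht (hK.isOpen_compl.mem_nhds hy))] with x hx
  have h1 : AbsolutelyContinuousOnInterval α y x :=
    (hL.mono (hx.trans inter_subset_left)).absolutelyContinuousOnInterval
  have h2 : AbsolutelyContinuousOnInterval χ y x :=
    hC.contDiffOn.absolutelyContinuousOnInterval
  rw [← AbsolutelyContinuousOnInterval.integral_deriv_mul_eq_sub h2 h1]
  apply intervalIntegral.integral_congr_ae
  filter_upwards [hd] with r hr hr'
  rw [(hr (hx (uIoc_subset_uIcc hr')).2).deriv, (hχ r).deriv]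
  ring

theorem deriv_zero_near (hχ : ∀ y, HasDerivAt χ (χ' y) y) {y c : ℝ}
    (h : ∀ᶠ x in 𝓝 y, χ x = c) : ∀ᶠ x in 𝓝 y, χ' x = 0 := by
  filter_upwards [eventually_eventually_nhds.2 h] with x hx
  exact (hχ x).unique ((hasDerivAt_const x c).congr_of_eventuallyEq hx)

theorem key (hK : IsClosed K) (hα : LocallyLipschitzOn Kᶜ α) (hαc : Continuous α)
    (hd : ∀ᵐ y : ℝ, y ∉ K → HasDerivAt α (b y) y)
    (hb : ∀ u v, IntervalIntegrable b volume u v)
    (hχ : ∀ y, HasDerivAt χ (χ' y) y) (hχc : Continuous χ') {y1 y2 R : ℝ} (h12 : y1 ≤ y2)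
    (hy1 : y1 ∉ K) (hy2 : y2 ∉ K) (hR1 : -R ≤ y1) (hR2 : y2 ≤ R)
    (h1 : ∀ y ∈ K, y ∈ Icc y1 y2 → ∀ᶠ x in 𝓝 y, χ x = 1)
    (h0 : ∀ y ∈ K, y ∉ Icc y1 y2 → ∀ᶠ x in 𝓝 y, χ x = 0)
    (hl : χ (-R) = 0) (hr : χ R = 0)
    (htot : ∫ y in (-R)..R, (χ y * b y + χ' y * α y) = 0) :
    α y2 - α y1 = ∫ y in y1..y2, b y := by
  have hχc0 : Continuous χ := continuous_iff_continuousAt.2 fun y => (hχ y).continuousAt
  set f : ℝ → ℝ := fun y => χ y * b y + χ' y * α y with hf
  have hfi : ∀ u v, IntervalIntegrable f volume u v := fun u v =>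
    ((hb u v).continuousOn_mul hχc0.continuousOn).add
      ((hχc.mul hαc).intervalIntegrable u v)
  -- the first function
  have e1 : ∀ y, y ∉ Icc y1 y2 ∨ y ∉ K → ∀ᶠ x in 𝓝 y,
      (∫ r in (-R)..x, f r) - χ x * α x = (∫ r in (-R)..y, f r) - χ y * α y := by
    intro y hy
    by_cases hyK : y ∈ K
    · have hy' : y ∉ Icc y1 y2 := hy.resolve_right (fun h => h hyK)
      have h2 := h0 y hyK hy'
      have h3 := deriv_zero_near hχ h2
      obtain ⟨t, ht, htt⟩ := Filter.eventually_iff_exists_mem.1 (h2.and h3)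
      filter_upwards [eventually_uIcc ht] with x hx
      have h4 : ∫ r in y..x, f r = 0 := by
        apply integral_zero_ae
        refine Eventually.of_forall fun r hr' => ?_
        have := htt r (hx (uIoc_subset_uIcc hr'))
        simp [hf, this.1, this.2]
      have h5 := (htt x (hx right_mem_uIcc)).1
      have h6 := (htt y (hx left_mem_uIcc)).1
      rw [h5, h6, ← integral_add_adjacent_intervals (hfi (-R) y) (hfi y x), h4]
      ring
    · filter_upwards [incr_two hK hα hd hχ hχc hyK] with x hx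
      rw [← integral_add_adjacent_intervals (hfi (-R) y) (hfi y x), hx]
      ring
  -- the second function
  have e2 : ∀ y ∈ Icc y1 y2, ∀ᶠ x in 𝓝 y,
      (∫ r in (-R)..x, f r) - (∫ r in (-R)..x, b r) - (χ x - 1) * α x
        = (∫ r in (-R)..y, f r) - (∫ r in (-R)..y, b r) - (χ y - 1) * α y := by
    intro y hy
    by_cases hyK : y ∈ K
    · have h2 := h1 y hyK hy
      have h3 := deriv_zero_near hχ h2
      obtain ⟨t, ht, htt⟩ := Filter.eventually_iff_exists_mem.1 (h2.and h3)
      filter_upwards [eventually_uIcc ht] with x hx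
      have h4 : ∫ r in y..x, f r = ∫ r in y..x, b r := by
        apply intervalIntegral.integral_congr_ae
        refine Eventually.of_forall fun r hr' => ?_
        have := htt r (hx (uIoc_subset_uIcc hr'))
        simp [hf, this.1, this.2]
      have h5 := (htt x (hx right_mem_uIcc)).1
      have h6 := (htt y (hx left_mem_uIcc)).1
      rw [h5, h6, ← integral_add_adjacent_intervals (hfi (-R) y) (hfi y x),
        ← integral_add_adjacent_intervals (hb (-R) y) (hb y x), h4]
      ring
    · filter_upwards [incr_two hK hα hd hχ hχc hyK, incr_one hK hα hd hyK] with x hx hx'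
      rw [← integral_add_adjacent_intervals (hfi (-R) y) (hfi y x), hx,
        ← integral_add_adjacent_intervals (hb (-R) y) (hb y x), hx']
      ring
  have c1 := const_of_locally (H := fun y => (∫ r in (-R)..y, f r) - χ y * α y) hR1 (by
    intro y hy
    apply e1
    by_cases hyK : y ∈ K
    · left
      intro hm
      have : y = y1 := le_antisymm hy.2 hm.1
      exact hy1 (this ▸ hyK)
    · exact Or.inr hyK)
  have c3 := const_of_locally (H := fun y => (∫ r in (-R)..y, f r) - χ y * α y) hR2 (by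
    intro y hy
    apply e1
    by_cases hyK : y ∈ K
    · left
      intro hm
      have : y = y2 := le_antisymm hm.2 hy.1
      exact hy2 (this ▸ hyK)
    · exact Or.inr hyK)
  have c2 := const_of_locally
    (H := fun y => (∫ r in (-R)..y, f r) - (∫ r in (-R)..y, b r) - (χ y - 1) * α y) h12 e2
  beta_reduce at c1 c2 c3
  rw [integral_same, hl] at c1
  have h7 : ∫ r in (-R)..R, f r = 0 := htot
  rw [h7, hr] at c3
  have h8 : ∫ r in (-R)..y2, b r = (∫ r in (-R)..y1, b r) + ∫ r in y1..y2, b r :=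
    (integral_add_adjacent_intervals (hb (-R) y1) (hb y1 y2)).symm
  rw [h8] at c2
  linarith

end

end Crest.Agent.R105.Vac_937
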