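import Crest.Agent.R105.Pln0_868
import Crest.Agent.R105.Vac1_937

/-!
# Row 105: topology of a compact set with vertical components, cut-offs (helper937)
-/

set_option autoImplicit false

open Set Filter MeasureTheory Topology
open scoped ContDiff NNReal

namespace Crest.Agent.R105.Pv_937

noncomputable section

open CF_363 Pln_868

/-- Rademacher for locally Lipschitz functions. -/
theorem ae_diff {V : Set (ℝ × ℝ)} (hV : IsOpen V) {u : ℝ × ℝ → ℝ}
    (hu : LocallyLipschitzOn V u) : ∀ᵐ z : ℝ × ℝ, z ∈ V → DifferentiableAt ℝ u z := by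
  have h1 : ∀ z : V, ∃ r > 0, Metric.ball (z : ℝ × ℝ) r ⊆ V ∧
      ∃ K, LipschitzOnWith K u (Metric.ball (z : ℝ × ℝ) r) := by
    rintro ⟨z, hz⟩
    obtain ⟨K, t, ht, hK⟩ := hu hz
    rw [mem_nhdsWithin_iff_exists_mem_nhds_inter] at ht
    obtain ⟨s, hs, hst⟩ := ht
    obtain ⟨r, hr, hb⟩ := Metric.mem_nhds_iff.1 (inter_mem hs (hV.mem_nhds hz))
    exact ⟨r, hr, fun x hx => (hb hx).2, K, hK.mono fun x hx => hst (hb hx)⟩
  choose r hr hrV K hK using h1
  obtain ⟨T, hT, hTV⟩ := TopologicalSpace.isOpen_iUnion_countable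
    (fun z : V => Metric.ball (z : ℝ × ℝ) (r z)) (fun _ => Metric.isOpen_ball)
  have h2 : ∀ z ∈ T, ∀ᵐ x : ℝ × ℝ, x ∈ Metric.ball (z : ℝ × ℝ) (r z) →
      DifferentiableAt ℝ u x := by
    intro z _
    filter_upwards [(hK z).ae_differentiableWithinAt_of_mem (μ := volume)] with x hx hxb
    exact (hx hxb).differentiableAt (Metric.isOpen_ball.mem_nhds hxb)
  have h3 := (ae_ball_iff hT).2 h2
  filter_upwards [h3] with x hx hxV
  have : x ∈ ⋃ z : V, Metric.ball (z : ℝ × ℝ) (r z) :=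
    mem_iUnion.2 ⟨⟨x, hxV⟩, Metric.mem_ball_self (hr _)⟩
  rw [← hTV] at this
  simp only [mem_iUnion] at this
  obtain ⟨z, hzT, hxz⟩ := this
  exact hx z hzT hxz

/-- a compact second countable space has countably many clopen subsets. -/
theorem countable_clopens (X : Type*) [TopologicalSpace X] [CompactSpace X]
    [SecondCountableTopology X] : Countable (TopologicalSpace.Clopens X) := by
  classical
  have h : ∀ s : TopologicalSpace.Clopens X,
      ∃ t : Finset (TopologicalSpace.countableBasis X), s.1 = (SetLike.coe t).sUnion :=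
    fun s => eq_sUnion_finset_of_isTopologicalBasis_of_isCompact_open _
      (TopologicalSpace.isBasis_countableBasis X) s.1 s.2.1.isCompact s.2.2
  let f : TopologicalSpace.Clopens X → Finset (TopologicalSpace.countableBasis X) :=
    fun s => (h s).choose
  have hf : f.Injective := by
    intro s t (hh : Exists.choose _ = Exists.choose _)
    ext1
    change s.carrier = t.carrier
    rw [(h s).choose_spec, (h t).choose_spec, hh]
  exact hf.countable

/-- separation in a compact Hausdorff space. -/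
theorem exists_clopen_sep {X : Type*} [TopologicalSpace X] [CompactSpace X] [T2Space X]
    {Z1 Z2 : Set X} (h1 : IsClosed Z1) (h2 : IsClosed Z2)
    (hd : ∀ x ∈ Z1, ∀ y ∈ Z2, y ∉ connectedComponent x) :
    ∃ S, IsClopen S ∧ Z1 ⊆ S ∧ ∀ y ∈ Z2, y ∉ S := by
  have c : Continuous (ConnectedComponents.mk : X → ConnectedComponents X) :=
    ConnectedComponents.continuous_coe
  have k1 : IsClosed ((ConnectedComponents.mk : X → ConnectedComponents X) '' Z1) :=
    (h1.isCompact.image c).isClosed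
  have k2 : IsClosed ((ConnectedComponents.mk : X → ConnectedComponents X) '' Z2) :=
    (h2.isCompact.image c).isClosed
  have hdis : (ConnectedComponents.mk : X → ConnectedComponents X) '' Z1 ⊆
      ((ConnectedComponents.mk : X → ConnectedComponents X) '' Z2)ᶜ := by
    rintro _ ⟨x, hx, rfl⟩ ⟨y, hy, he⟩
    apply hd x hx y hy
    have := ConnectedComponents.coe_eq_coe.1 he
    rw [← this]
    exact mem_connectedComponent
  obtain ⟨S, hS, hS1, hS2⟩ := exists_clopen_of_closed_subset_open k1 k2.isOpen_compl hdis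
  exact ⟨_, hS.preimage c, fun x hx => hS1 ⟨x, hx, rfl⟩, fun y hy hm => hS2 hm ⟨y, hy, rfl⟩⟩

theorem mem_cc {E : Set (ℝ × ℝ)} {q q' : E} (h : q' ∈ connectedComponent q) :
    (q' : ℝ × ℝ) ∈ connectedComponentIn E q := by
  rw [connectedComponentIn_eq_image q.2]
  exact ⟨q', h, rfl⟩

/-- separation of the points of a vertical line. -/
theorem sep_line {E : Set (ℝ × ℝ)} (hE : IsCompact E)
    (vert : ∀ p ∈ E, ∀ q ∈ connectedComponentIn E p, q.1 = p.1) {x y1 y2 : ℝ}
    (h1 : (x, y1) ∉ E) (h2 : (x, y2) ∉ E) :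
    ∃ S : Set E, IsClopen S ∧ (∀ q : E, q.1.1 = x → q.1.2 ∈ Icc y1 y2 → q ∈ S) ∧
      ∀ q : E, q.1.1 = x → q.1.2 ∉ Icc y1 y2 → q ∉ S := by
  have : CompactSpace E := isCompact_iff_compactSpace.1 hE
  set Z1 : Set E := {q | q.1.1 = x ∧ q.1.2 ∈ Icc y1 y2} with hZ1
  set Z2 : Set E := {q | q.1.1 = x ∧ q.1.2 ∉ Ioo y1 y2} with hZ2
  have cx : Continuous (fun q : E => q.1.1) := continuous_fst.comp continuous_subtype_val
  have cy : Continuous (fun q : E => q.1.2) := continuous_snd.comp continuous_subtype_val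
  have c1 : IsClosed Z1 := (isClosed_eq cx continuous_const).inter (isClosed_Icc.preimage cy)
  have c2 : IsClosed Z2 :=
    (isClosed_eq cx continuous_const).inter ((isOpen_Ioo.isClosed_compl).preimage cy)
  obtain ⟨S, hS, hS1, hS2⟩ := exists_clopen_sep c1 c2 (by
    rintro q ⟨hqx, hqy⟩ q' ⟨hqx', hqy'⟩ hm
    have hm' := mem_cc hm
    set Q := connectedComponentIn E (q : ℝ × ℝ) with hQ
    have hpc : IsPreconnected (Prod.snd '' Q) :=
      isPreconnected_connectedComponentIn.image _ continuous_snd.continuousOn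
    have hoc := hpc.ordConnected
    have m1 : q.1.2 ∈ Prod.snd '' Q := ⟨q, mem_connectedComponentIn q.2, rfl⟩
    have m2 : q'.1.2 ∈ Prod.snd '' Q := ⟨q', hm', rfl⟩
    have key : ∀ t, t ∈ uIcc q.1.2 q'.1.2 → (x, t) ∈ E := by
      intro t ht
      obtain ⟨r, hr, hrt⟩ := hoc.uIcc_subset m1 m2 ht
      have h3 := vert q q.2 r hr
      have h4 : r = (x, t) := Prod.ext (h3.trans hqx) hrt
      rw [← h4]
      exact connectedComponentIn_subset _ _ hr
    rw [mem_Ioo, not_and_or, not_lt, not_lt] at hqy'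
    rcases hqy' with h5 | h5
    · exact h1 (key y1 (mem_uIcc.2 (Or.inr ⟨h5, hqy.1⟩)))
    · exact h2 (key y2 (mem_uIcc.2 (Or.inl ⟨hqy.2, h5⟩))))
  exact ⟨S, hS, fun q hq hq' => hS1 ⟨hq, hq'⟩,
    fun q hq hq' => hS2 q ⟨hq, fun h => hq' (Ioo_subset_Icc_self h)⟩⟩

theorem exists_cut {K O : Set (ℝ × ℝ)} (hK : IsCompact K) (hO : IsOpen O) (hKO : K ⊆ O) :
    ∃ ρ : ℝ × ℝ → ℝ, ContDiff ℝ ∞ ρ ∧ HasCompactSupport ρ ∧ tsupport ρ ⊆ O ∧
      (∀ z ∈ K, ∀ᶠ y in 𝓝 z, ρ y = 1) ∧ ∀ z, ρ z ∈ Icc (0:ℝ) 1 := by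
  obtain ⟨V, hVo, hKV, hVO, hVc⟩ := exists_open_between_and_isCompact_closure hK hO hKO
  obtain ⟨f, hf1, hf0, hf⟩ := exists_contMDiffMap_one_nhds_of_subset_interior
    (modelWithCornersSelf ℝ (ℝ × ℝ)) (n := (⊤ : ℕ∞)) hK.isClosed (t := V)
    (hKV.trans (interior_eq_iff_isOpen.mpr hVo).ge)
  have hsm : ContDiff ℝ ∞ (f : ℝ × ℝ → ℝ) := f.contMDiff.contDiff
  have hts : tsupport (f : ℝ × ℝ → ℝ) ⊆ closure V := by
    apply closure_mono
    intro x hx
    by_contra h
    exact hx (hf0 x h)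
  exact ⟨f, hsm, hVc.of_isClosed_subset isClosed_closure hts, hts.trans hVO,
    fun z hz => (eventually_nhdsSet_iff_forall.1 hf1) z hz, hf⟩

/-- the cut-off of a clopen part of `E`. -/
theorem exists_cutS {E : Set (ℝ × ℝ)} (hE : IsCompact E) {S : Set E} (hS : IsClopen S) :
    ∃ X : ℝ × ℝ → ℝ, ContDiff ℝ ∞ X ∧ HasCompactSupport X ∧
      (∀ q ∈ E, ∀ᶠ w in 𝓝 q, X w = X q) ∧ (∀ q : E, q ∈ S → X q = 1) ∧
      (∀ q : E, q ∉ S → X q = 0) ∧ ∀ z, X z ∈ Icc (0:ℝ) 1 := by
  classical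
  have : CompactSpace E := isCompact_iff_compactSpace.1 hE
  have k1 : IsCompact (Subtype.val '' (S : Set E)) :=
    (hS.isClosed.isCompact).image continuous_subtype_val
  have k2 : IsCompact (Subtype.val '' (S : Set E)ᶜ) :=
    (hS.compl.isClosed.isCompact).image continuous_subtype_val
  have hd : Subtype.val '' (S : Set E) ⊆ (Subtype.val '' (S : Set E)ᶜ)ᶜ := by
    rintro _ ⟨z, hz, rfl⟩ ⟨z', hz', he⟩
    rw [Subtype.ext he] at hz'
    exact hz' hz
  obtain ⟨ρ, h1, h2, h3, h4, h5⟩ := exists_cut k1 k2.isClosed.isOpen_compl hd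
  have e0 : ∀ z : E, z ∉ S → ∀ᶠ w in 𝓝 (z : ℝ × ℝ), ρ w = 0 := by
    intro z hz
    exact notMem_tsupport_iff_eventuallyEq.1 fun hm => h3 hm ⟨z, hz, rfl⟩
  have e1 : ∀ z : E, z ∈ S → ∀ᶠ w in 𝓝 (z : ℝ × ℝ), ρ w = 1 := fun z hz => h4 z ⟨z, hz, rfl⟩
  refine ⟨ρ, h1, h2, ?_, fun z hz => (e1 z hz).self_of_nhds,
    fun z hz => (e0 z hz).self_of_nhds, h5⟩
  intro z hz
  by_cases hs : (⟨z, hz⟩ : E) ∈ S
  · have h5 := e1 ⟨z, hz⟩ hs
    filter_upwards [h5] with w hw
    rw [hw, h5.self_of_nhds]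
  · have h5 := e0 ⟨z, hz⟩ hs
    filter_upwards [h5] with w hw
    rw [hw, h5.self_of_nhds]

/-- smooth compactly supported functions are Lipschitz. -/
theorem exists_lip {X : Type*} [NormedAddCommGroup X] [NormedSpace ℝ X] {f : X → ℝ}
    (h : ContDiff ℝ ∞ f) (hc : HasCompactSupport f) : ∃ L, LipschitzWith L f :=
  ⟨_, (h.lipschitzWith_of_hasCompactSupport hc (by simp)).choose_spec⟩

end

end Crest.Agent.R105.Pv_937
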