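import Crest.Agent.R105.Ends1_897

/-!
# Row 105, S0138, NI-7 (ATT): the quadrant lemma (helper272)

`[am, ap]`, `[bm, bp]` semicontinuous interval valued functions on the plane (`ap`, `bp` upper,
`am`, `bm` lower semicontinuous), `N` a bounded open set such that `am ≤ t, s ≤ bp` never happens
on `frontier N`.  If some `z₀ ∈ N` is joined in `{ap < t}` (by `Q`) and in `{s < bm}` (by `P`) to a
connected set `R` missing `N`, then `(t, s)` is in the multivalued image of `N`.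
No unicoherence, no continuum `L_t`.
-/

set_option autoImplicit false

open Set Filter Topology Metric MeasureTheory

namespace Crest.Agent.R105.Qd_272

open Crest.Agent.R193.Planar

/-- **The quadrant lemma.** -/
theorem quadrant {ap am bp bm : ℂ → ℝ} (hap : UpperSemicontinuous ap)
    (ham : LowerSemicontinuous am) (hbp : UpperSemicontinuous bp) (hbm : LowerSemicontinuous bm)
    (ha : ∀ z, am z ≤ ap z) (hb : ∀ z, bm z ≤ bp z)
    {N : Set ℂ} (hN : IsOpen N) (hNb : Bornology.IsBounded N) {t s : ℝ}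
    (hfr : ∀ z ∈ frontier N, t < am z ∨ bp z < s)
    {z0 : ℂ} (hz0 : z0 ∈ N) {Q P R : Set ℂ}
    (hQ : IsPreconnected Q) (hQ0 : z0 ∈ Q) (hQa : ∀ z ∈ Q, ap z < t)
    (hP : IsPreconnected P) (hP0 : z0 ∈ P) (hPb : ∀ z ∈ P, s < bm z)
    (hR : IsPreconnected R) (hRN : Disjoint R N) (hQR : (Q ∩ R).Nonempty)
    (hPR : (P ∩ R).Nonempty) :
    ∃ z ∈ N, am z ≤ t ∧ t ≤ ap z ∧ bm z ≤ s ∧ s ≤ bp z := by
  classical
  by_contra hcon
  push Not at hcon
  -- the four closed sets
  have c1 : IsClosed {z | am z ≤ t} := ham.isClosed_preimage t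
  have c2 : IsClosed {z | s ≤ bp z} := hbp.isClosed_preimage s
  have c3 : IsClosed {z | t ≤ ap z} := hap.isClosed_preimage t
  have c4 : IsClosed {z | bm z ≤ s} := hbm.isClosed_preimage s
  set D : Set ℂ := closure N ∩ ({z | am z ≤ t} ∩ {z | s ≤ bp z}) with hD
  have hDc : IsCompact D := hNb.isCompact_closure.inter_right (c1.inter c2)
  have hDN : D ⊆ N := by
    rintro z ⟨hz1, hz2, hz3⟩
    by_contra hzN
    have hzf : z ∈ frontier N := ⟨hz1, by rwa [hN.interior_eq]⟩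
    rcases hfr z hzf with h | h
    · exact absurd hz2 (not_le.2 h)
    · exact absurd hz3 (not_le.2 h)
  -- interior points of `D`
  have hint : ∀ z ∈ D, ap z < t → s < bm z → ∀ᶠ w in 𝓝 z, w ∈ D := by
    intro z hz h1 h2
    filter_upwards [hap z t h1, hbm z s h2, hN.mem_nhds (hDN hz)] with w w1 w2 w3
    exact ⟨subset_closure w3, (ha w).trans w1.le, w2.le.trans (hb w)⟩
  set D1 : Set ℂ := D ∩ {z | t ≤ ap z} with hD1
  set D2 : Set ℂ := D ∩ {z | bm z ≤ s} with hD2
  have hd1 : IsCompact D1 := hDc.inter_right c3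
  have hd2 : IsClosed D2 := hDc.isClosed.inter c4
  have hdis : Disjoint D1 D2 := by
    rw [disjoint_left]
    rintro z ⟨hz, h1⟩ ⟨-, h2⟩
    exact absurd hz.2.2 (not_le.2 (hcon z (hDN hz) hz.2.1 h1 h2))
  set c : ℂ → ℝ := fun z => if z ∈ D then 1 else 0 with hcdef
  have hc : LCOff (D1 ∪ D2) c := by
    intro z hz
    by_cases hzD : z ∈ D
    · have h1 : ap z < t := by
        by_contra h
        exact hz (Or.inl ⟨hzD, not_lt.1 h⟩)
      have h2 : s < bm z := by
        by_contra h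
        exact hz (Or.inr ⟨hzD, not_lt.1 h⟩)
      filter_upwards [hint z hzD h1 h2] with w hw
      simp only [hcdef]
      rw [if_pos hw, if_pos hzD]
    · filter_upwards [hDc.isClosed.isOpen_compl.mem_nhds hzD] with w hw
      simp only [hcdef]
      rw [if_neg hw, if_neg hzD]
  obtain ⟨f1, f2, hl1, hl2, hs⟩ := Ends_897.split_C hd1 hd2 hdis hc
  obtain ⟨q, hqQ, hqR⟩ := hQR
  obtain ⟨p, hpP, hpR⟩ := hPR
  have hRD : ∀ z ∈ R, z ∉ D := fun z hz hzD => disjoint_left.1 hRN hz (hDN hzD)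
  have dQ : Disjoint Q D1 := by
    rw [disjoint_left]
    rintro z hz ⟨-, h⟩
    exact absurd (hQa z hz) (not_lt.2 h)
  have dP : Disjoint P D2 := by
    rw [disjoint_left]
    rintro z hz ⟨-, h⟩
    exact absurd (hPb z hz) (not_lt.2 h)
  have dR1 : Disjoint R D1 := by
    rw [disjoint_left]
    rintro z hz ⟨h, -⟩
    exact hRD z hz h
  have dR2 : Disjoint R D2 := by
    rw [disjoint_left]
    rintro z hz ⟨h, -⟩
    exact hRD z hz h
  have e1 : f1 z0 = f1 q := hl1.eq_of_preconnected hQ dQ hQ0 hqQ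
  have e2 : f2 z0 = f2 p := hl2.eq_of_preconnected hP dP hP0 hpP
  have e3 : f2 q = f2 p := hl2.eq_of_preconnected hR dR2 hqR hpR
  have hz0D : z0 ∈ D := ⟨subset_closure hz0, (ha z0).trans (hQa z0 hQ0).le,
    (hPb z0 hP0).le.trans (hb z0)⟩
  have hz0K : z0 ∉ D1 ∪ D2 := by
    rintro (h | h)
    · exact absurd (hQa z0 hQ0) (not_lt.2 h.2)
    · exact absurd (hPb z0 hP0) (not_lt.2 h.2)
  have hqK : q ∉ D1 ∪ D2 := by
    rintro (h | h)
    · exact hRD q hqR h.1
    · exact hRD q hqR h.1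
  have k1 : c z0 = 1 := if_pos hz0D
  have k2 : c q = 0 := if_neg (hRD q hqR)
  have k3 := hs z0 hz0K
  have k4 := hs q hqK
  rw [k1] at k3
  rw [k2] at k4
  linarith

/-- area of the parallelogram `{(t, s) : β + h < t < β + 2h, t + h/5 < s < t + h}` -/
theorem area_parallelogram {A : Set (ℝ × ℝ)} {β h : ℝ} (hh : 0 < h)
    (hA : ∀ t s, β + h < t → t < β + 2 * h → t + h / 5 < s → s < t + h → (t, s) ∈ A) :
    ENNReal.ofReal (4 * h ^ 2 / 5) ≤ volume A := by
  have hsub : regionBetween (fun t : ℝ => t + h / 5) (fun t => t + h) (Ioo (β + h) (β + 2 * h))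
      ⊆ A := by
    rintro ⟨t, s⟩ ⟨ht, hs⟩
    exact hA t s ht.1 ht.2 hs.1 hs.2
  refine le_trans (le_of_eq ?_) (measure_mono hsub)
  have hint : ∀ c : ℝ, IntegrableOn (fun t : ℝ => t + c) (Ioo (β + h) (β + 2 * h)) := by
    intro c
    exact ((continuous_id.add continuous_const).integrableOn_Icc (a := β + h)
      (b := β + 2 * h)).mono_set Ioo_subset_Icc_self
  rw [Measure.volume_eq_prod, volume_regionBetween_eq_integral (hint _) (hint _) measurableSet_Ioo
    (fun t _ => by linarith)]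
  congr 1
  have : ∀ t : ℝ, ((fun t : ℝ => t + h) - fun t => t + h / 5) t = 4 * h / 5 := by
    intro t
    simp only [Pi.sub_apply]
    ring
  rw [integral_congr_ae (Eventually.of_forall this), setIntegral_const, smul_eq_mul,
    Measure.real, Real.volume_Ioo, ENNReal.toReal_ofReal (by linarith)]
  ring

/-- **The core of (ATT).** `bp < am + h/5` on `frontier N`; `z₀ ∈ N` is joined to `R` (connected,
missing `N`) in every `{ap < t}`, `β + h < t < β + 2h`, and in every `{s < bm}`, `s < β + 3h`.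
Then the multivalued image of `N ∩ {ap > β + h}` has area at least `4h²/5`. -/
theorem att_area {ap am bp bm : ℂ → ℝ} (hap : UpperSemicontinuous ap)
    (ham : LowerSemicontinuous am) (hbp : UpperSemicontinuous bp) (hbm : LowerSemicontinuous bm)
    (ha : ∀ z, am z ≤ ap z) (hb : ∀ z, bm z ≤ bp z)
    {N : Set ℂ} (hN : IsOpen N) (hNb : Bornology.IsBounded N) {β h : ℝ} (hh : 0 < h)
    (hfr : ∀ z ∈ frontier N, bp z < am z + h / 5) {z0 : ℂ} (hz0 : z0 ∈ N)
    {R : Set ℂ} (hR : IsPreconnected R) (hRN : Disjoint R N)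
    (hQ : ∀ t, β + h < t → t < β + 2 * h →
      ∃ Q : Set ℂ, IsPreconnected Q ∧ z0 ∈ Q ∧ (∀ z ∈ Q, ap z < t) ∧ (Q ∩ R).Nonempty)
    (hP : ∀ s, β + h < s → s < β + 3 * h →
      ∃ P : Set ℂ, IsPreconnected P ∧ z0 ∈ P ∧ (∀ z ∈ P, s < bm z) ∧ (P ∩ R).Nonempty) :
    ENNReal.ofReal (4 * h ^ 2 / 5) ≤ volume {p : ℝ × ℝ | ∃ z ∈ N, β + h < ap z ∧
      am z ≤ p.1 ∧ p.1 ≤ ap z ∧ bm z ≤ p.2 ∧ p.2 ≤ bp z} := by
  refine area_parallelogram (β := β) hh fun t s ht1 ht2 hs1 hs2 => ?_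
  obtain ⟨Q, q1, q2, q3, q4⟩ := hQ t ht1 ht2
  obtain ⟨P, p1, p2, p3, p4⟩ := hP s (by linarith) (by linarith)
  obtain ⟨z, hz, h1, h2, h3, h4⟩ := quadrant hap ham hbp hbm ha hb hN hNb (t := t) (s := s)
    (fun z hz => by
      rcases lt_or_ge t (am z) with h | h
      · exact Or.inl h
      · exact Or.inr (by linarith [hfr z hz])) hz0 q1 q2 q3 p1 p2 p3 hR hRN q4 p4
  exact ⟨z, hz, lt_of_lt_of_le ht1 h2, h1, h2, h3, h4⟩

end Crest.Agent.R105.Qd_272
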