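import Crest.Agent.R105.Rd0_557

/-! Row 105 RED, PLAN part a: radial Lipschitz cut-offs (helper557). -/

set_option autoImplicit false

open Set Filter Metric Topology MeasureTheory

namespace Crest.Agent.R105.Rda_557

/-- `1` on `closedBall p ρ`, `0` off `ball p (2 ρ)`, slope `1/ρ` -/
noncomputable def zt (p : ℂ) (ρ : ℝ) (z : ℂ) : ℝ := max 0 (min 1 (2 - dist z p / ρ))

theorem zt_nonneg (p : ℂ) (ρ : ℝ) (z : ℂ) : 0 ≤ zt p ρ z := le_max_left _ _

theorem zt_le_one (p : ℂ) (ρ : ℝ) (z : ℂ) : zt p ρ z ≤ 1 :=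
  max_le zero_le_one (min_le_left _ _)

theorem zt_one {p : ℂ} {ρ : ℝ} (hρ : 0 < ρ) {z : ℂ} (h : dist z p ≤ ρ) : zt p ρ z = 1 := by
  have h1 : dist z p / ρ ≤ 1 := (div_le_one hρ).2 h
  rw [zt, min_eq_left (by linarith), max_eq_right zero_le_one]

theorem zt_zero {p : ℂ} {ρ : ℝ} (hρ : 0 < ρ) {z : ℂ} (h : 2 * ρ ≤ dist z p) : zt p ρ z = 0 := by
  have h1 : 2 ≤ dist z p / ρ := (le_div_iff₀ hρ).2 h
  exact max_eq_left ((min_le_right _ _).trans (by linarith))

theorem zt_lip (p : ℂ) {ρ : ℝ} (hρ : 0 < ρ) : LipschitzWith (Real.toNNReal (1 / ρ)) (zt p ρ) := by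
  have h1 : LipschitzWith (Real.toNNReal (1 / ρ)) fun z : ℂ => 2 - dist z p / ρ := by
    refine LipschitzWith.of_dist_le_mul fun x y => ?_
    rw [Real.dist_eq, Real.coe_toNNReal _ (by positivity)]
    have h2 : (2 - dist x p / ρ) - (2 - dist y p / ρ) = (1 / ρ) * (dist y p - dist x p) := by ring
    rw [h2, abs_mul, abs_of_pos (by positivity : 0 < 1 / ρ)]
    refine mul_le_mul_of_nonneg_left ?_ (by positivity)
    rw [abs_sub_comm]
    exact abs_dist_sub_le x y p
  exact (h1.const_min 1).const_max 0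

/-- gradient bound of `zt` -/
noncomputable def gz (p : ℂ) (ρ : ℝ) (z : ℂ) : ℝ :=
  {w : ℂ | ρ < dist w p ∧ dist w p < 2 * ρ}.indicator (fun _ => 1 / ρ) z

theorem meas_ann (p : ℂ) (ρ : ℝ) : MeasurableSet {w : ℂ | ρ < dist w p ∧ dist w p < 2 * ρ} :=
  ((isOpen_lt continuous_const (continuous_id.dist continuous_const)).inter
    (isOpen_lt (continuous_id.dist continuous_const) continuous_const)).measurableSet

theorem gz_meas (p : ℂ) (ρ : ℝ) : Measurable (gz p ρ) :=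
  measurable_const.indicator (meas_ann p ρ)

theorem gz_nonneg (p : ℂ) {ρ : ℝ} (hρ : 0 < ρ) (z : ℂ) : 0 ≤ gz p ρ z :=
  indicator_nonneg (fun _ _ => by positivity) _

theorem gz_zero {p : ℂ} {ρ : ℝ} {z : ℂ} (h : 2 * ρ ≤ dist z p) : gz p ρ z = 0 :=
  indicator_of_notMem (fun h' => absurd h'.2 (not_lt.2 h)) _

theorem gz_le (p : ℂ) {ρ : ℝ} (hρ : 0 < ρ) (z : ℂ) :
    gz p ρ z ≤ (closedBall p (2 * ρ)).indicator (fun _ => 1 / ρ) z := by
  by_cases h : dist z p ≤ 2 * ρ
  · rw [indicator_of_mem (mem_closedBall.2 h)]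
    exact indicator_le_self' (fun _ _ => by positivity) z
  · rw [gz_zero (not_le.1 h).le]
    exact indicator_nonneg (fun _ _ => by positivity) _

theorem gz_bound (p : ℂ) {ρ : ℝ} (hρ : 0 < ρ) {z : ℂ} (h1 : dist z p ≠ ρ)
    (h2 : dist z p ≠ 2 * ρ) : ‖fderiv ℝ (zt p ρ) z‖ ≤ gz p ρ z := by
  rcases lt_or_gt_of_ne h1 with h1 | h1
  · have h3 : zt p ρ =ᶠ[𝓝 z] fun _ => 1 := by
      have : {w : ℂ | dist w p < ρ} ∈ 𝓝 z :=
        (isOpen_lt (continuous_id.dist continuous_const) continuous_const).mem_nhds h1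
      filter_upwards [this] with w hw using zt_one hρ (le_of_lt hw)
    rw [h3.fderiv_eq, fderiv_const_apply, norm_zero]
    exact gz_nonneg p hρ z
  · rcases lt_or_gt_of_ne h2 with h2 | h2
    · rw [gz, indicator_of_mem (show z ∈ {w : ℂ | ρ < dist w p ∧ dist w p < 2 * ρ} from ⟨h1, h2⟩)]
      have := norm_fderiv_le_of_lipschitz ℝ (x₀ := z) (zt_lip p hρ)
      rwa [Real.coe_toNNReal _ (by positivity)] at this
    · have h3 : zt p ρ =ᶠ[𝓝 z] fun _ => 0 := by
        have : {w : ℂ | 2 * ρ < dist w p} ∈ 𝓝 z :=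
          (isOpen_lt continuous_const (continuous_id.dist continuous_const)).mem_nhds h2
        filter_upwards [this] with w hw using zt_zero hρ (le_of_lt hw)
      rw [h3.fderiv_eq, fderiv_const_apply, norm_zero]
      exact gz_nonneg p hρ z

theorem ae_dist_ne (p : ℂ) (ρ : ℝ) : ∀ᵐ z : ℂ, dist z p ≠ ρ := by
  have h : volume (sphere p ρ) = 0 := by
    rcases eq_or_ne ρ 0 with rfl | h
    · rw [sphere_zero]; exact measure_singleton p
    · exact Measure.addHaar_sphere_of_ne_zero volume p h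
  exact measure_eq_zero_iff_ae_notMem.1 h

theorem gz_ae (p : ℂ) {ρ : ℝ} (hρ : 0 < ρ) : ∀ᵐ z : ℂ, ‖fderiv ℝ (zt p ρ) z‖ ≤ gz p ρ z := by
  filter_upwards [ae_dist_ne p ρ, ae_dist_ne p (2 * ρ)] with z h1 h2 using gz_bound p hρ h1 h2

theorem vol_cb (p : ℂ) {r : ℝ} (hr : 0 ≤ r) :
    volume (closedBall p r) = ENNReal.ofReal (Real.pi * r ^ 2) := by
  rw [Complex.volume_closedBall, ENNReal.ofReal_mul Real.pi_pos.le, mul_comm,
    ENNReal.ofReal_pow hr]
  congr 1
  rw [← NNReal.coe_real_pi, ENNReal.ofReal_coe_nnreal]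

theorem gz_sq (p : ℂ) {ρ : ℝ} (hρ : 0 < ρ) :
    ∫⁻ z, ENNReal.ofReal (gz p ρ z ^ 2) ≤ ENNReal.ofReal (4 * Real.pi) := by
  have h1 : ∀ z, ENNReal.ofReal (gz p ρ z ^ 2) ≤
      (closedBall p (2 * ρ)).indicator (fun _ => ENNReal.ofReal ((1 / ρ) ^ 2)) z := by
    intro z
    by_cases h : z ∈ closedBall p (2 * ρ)
    · rw [indicator_of_mem h]
      refine ENNReal.ofReal_le_ofReal (pow_le_pow_left₀ (gz_nonneg p hρ z) ?_ 2)
      have := gz_le p hρ z
      rwa [indicator_of_mem h] at this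
    · rw [indicator_of_notMem h, gz_zero (not_le.1 (fun h' => h (mem_closedBall.2 h'))).le]
      simp
  refine (lintegral_mono h1).trans ?_
  rw [lintegral_indicator_const measurableSet_closedBall, vol_cb p (by positivity),
    ← ENNReal.ofReal_mul (by positivity)]
  refine ENNReal.ofReal_le_ofReal (le_of_eq ?_)
  field_simp
  ring

/-- cut-off of small energy at a point -/
theorem exists_point (p : ℂ) {t κ : ℝ} (ht : 0 < t) (hκ : 0 < κ) : ∃ (χ g : ℂ → ℝ) (ρ : ℝ), 0 < ρ ∧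
    (∃ K, LipschitzWith K χ) ∧ (∀ z, 0 ≤ χ z) ∧ (∀ z, χ z ≤ 1) ∧ (∀ z ∈ ball p ρ, χ z = 1) ∧
    (∀ z, z ∉ closedBall p t → χ z = 0) ∧ Measurable g ∧ (∀ z, 0 ≤ g z) ∧
    (∀ z, z ∉ closedBall p t → g z = 0) ∧ (∀ᵐ z, ‖fderiv ℝ χ z‖ ≤ g z) ∧
    ∫⁻ z, ENNReal.ofReal (g z ^ 2) ≤ ENNReal.ofReal κ := by
  obtain ⟨n, hn⟩ := exists_nat_gt (4 * Real.pi / κ)
  have hn0 : (0 : ℝ) < n := lt_of_le_of_lt (by positivity) hn
  have hnN : 0 < n := by exact_mod_cast hn0
  set ρ : ℕ → ℝ := fun k => t / 2 ^ (k + 1) with hρ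
  have hρ0 : ∀ k, 0 < ρ k := fun k => by positivity
  have hρt : ∀ k, 2 * ρ k ≤ t := by
    intro k
    have : 2 * ρ k = t / 2 ^ k := by rw [hρ]; simp only; rw [pow_succ]; field_simp
    rw [this]
    exact div_le_self ht.le (one_le_pow₀ one_le_two)
  have hρm : ∀ j k, j < k → 2 * ρ k ≤ ρ j := by
    intro j k hjk
    have : 2 * ρ k = t / 2 ^ k := by rw [hρ]; simp only; rw [pow_succ]; field_simp
    rw [this]
    exact div_le_div_of_nonneg_left ht.le (by positivity)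
      (pow_le_pow_right₀ one_le_two (Nat.succ_le_of_lt hjk))
  have hdiff : ∀ᵐ z : ℂ, ∀ k, DifferentiableAt ℝ (zt p (ρ k)) z :=
    ae_all_iff.2 fun k => (zt_lip p (hρ0 k)).ae_differentiableAt
  have hgk : ∀ᵐ z : ℂ, ∀ k, ‖fderiv ℝ (zt p (ρ k)) z‖ ≤ gz p (ρ k) z :=
    ae_all_iff.2 fun k => gz_ae p (hρ0 k)
  refine ⟨fun z => (1 / (n : ℝ)) * ∑ k ∈ Finset.range n, zt p (ρ k) z,
    fun z => (1 / (n : ℝ)) * ∑ k ∈ Finset.range n, gz p (ρ k) z, ρ n, hρ0 n, ?_, ?_, ?_, ?_, ?_,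
    ?_, ?_, ?_, ?_, ?_⟩
  · have h1 : ∀ m : ℕ, ∃ K, LipschitzWith K fun z => ∑ k ∈ Finset.range m, zt p (ρ k) z := by
      intro m
      induction m with
      | zero => exact ⟨0, by simp⟩
      | succ m ih =>
        obtain ⟨K, hK⟩ := ih
        refine ⟨K + Real.toNNReal (1 / ρ m), ?_⟩
        have : (fun z => ∑ k ∈ Finset.range (m + 1), zt p (ρ k) z) =
            fun z => (∑ k ∈ Finset.range m, zt p (ρ k) z) + zt p (ρ m) z := by
          funext z; rw [Finset.sum_range_succ]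
        rw [this]
        exact hK.add (zt_lip p (hρ0 m))
    obtain ⟨K, hK⟩ := h1 n
    refine ⟨‖(1 / (n : ℝ))‖₊ * K, ?_⟩
    have := (lipschitzWith_smul (1 / (n : ℝ)) (β := ℝ)).comp hK
    exact this
  · intro z
    exact mul_nonneg (by positivity) (Finset.sum_nonneg fun k _ => zt_nonneg _ _ _)
  · intro z
    have h1 : ∑ k ∈ Finset.range n, zt p (ρ k) z ≤ ∑ k ∈ Finset.range n, (1 : ℝ) :=
      Finset.sum_le_sum fun k _ => zt_le_one _ _ _
    rw [Finset.sum_const, Finset.card_range, nsmul_eq_mul, mul_one] at h1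
    calc (1 / (n : ℝ)) * ∑ k ∈ Finset.range n, zt p (ρ k) z ≤ (1 / (n : ℝ)) * n :=
          mul_le_mul_of_nonneg_left h1 (by positivity)
      _ = 1 := by field_simp
  · intro z hz
    have h1 : ∑ k ∈ Finset.range n, zt p (ρ k) z = ∑ k ∈ Finset.range n, (1 : ℝ) := by
      refine Finset.sum_congr rfl fun k hk => zt_one (hρ0 k) ?_
      have h2 := hρm k n (Finset.mem_range.1 hk)
      have h3 := mem_ball.1 hz
      have h4 := hρ0 n
      linarith
    simp only [h1, Finset.sum_const, Finset.card_range, nsmul_eq_mul, mul_one]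
    field_simp
  · intro z hz
    have h1 : ∑ k ∈ Finset.range n, zt p (ρ k) z = 0 := by
      refine Finset.sum_eq_zero fun k _ => zt_zero (hρ0 k) ?_
      rw [mem_closedBall, not_le] at hz
      exact (hρt k).trans hz.le
    simp only [h1, mul_zero]
  · exact (Finset.measurable_sum _ fun k _ => gz_meas p (ρ k)).const_mul _
  · intro z
    exact mul_nonneg (by positivity) (Finset.sum_nonneg fun k _ => gz_nonneg _ (hρ0 k) _)
  · intro z hz
    have h1 : ∑ k ∈ Finset.range n, gz p (ρ k) z = 0 := by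
      refine Finset.sum_eq_zero fun k _ => gz_zero ?_
      rw [mem_closedBall, not_le] at hz
      exact (hρt k).trans hz.le
    simp only [h1, mul_zero]
  · filter_upwards [hdiff, hgk] with z h1 h2
    have h3 : HasFDerivAt (fun z => (1 / (n : ℝ)) * ∑ k ∈ Finset.range n, zt p (ρ k) z)
        ((1 / (n : ℝ)) • ∑ k ∈ Finset.range n, fderiv ℝ (zt p (ρ k)) z) z := by
      have := HasFDerivAt.fun_sum (u := Finset.range n) (fun k _ => (h1 k).hasFDerivAt)
      exact this.const_mul (1 / (n : ℝ))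
    rw [h3.fderiv, norm_smul, Real.norm_of_nonneg (by positivity)]
    refine mul_le_mul_of_nonneg_left ?_ (by positivity)
    exact (norm_sum_le _ _).trans (Finset.sum_le_sum fun k _ => h2 k)
  · have hpt : ∀ z, ENNReal.ofReal (((1 / (n : ℝ)) * ∑ k ∈ Finset.range n, gz p (ρ k) z) ^ 2) ≤
        ∑ k ∈ Finset.range n, ENNReal.ofReal ((1 / (n : ℝ)) ^ 2) *
          ENNReal.ofReal (gz p (ρ k) z ^ 2) := by
      intro z
      by_cases h : ∃ k ∈ Finset.range n, gz p (ρ k) z ≠ 0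
      · obtain ⟨k, hk, hkz⟩ := h
        have h1 : ρ k < dist z p ∧ dist z p < 2 * ρ k := by
          by_contra h'
          exact hkz (indicator_of_notMem
            (s := {w : ℂ | ρ k < dist w p ∧ dist w p < 2 * ρ k}) h' _)
        have h2 : ∑ j ∈ Finset.range n, gz p (ρ j) z = gz p (ρ k) z := by
          refine Finset.sum_eq_single_of_mem k hk fun j _ hjk => ?_
          refine indicator_of_notMem
            (s := {w : ℂ | ρ j < dist w p ∧ dist w p < 2 * ρ j}) (fun h' => ?_) _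
          obtain ⟨h3, h4⟩ := h'
          rcases lt_or_gt_of_ne hjk with h5 | h5
          · have := hρm j k h5; linarith [h1.2]
          · have := hρm k j h5; linarith [h1.1]
        rw [h2, mul_pow, ENNReal.ofReal_mul (by positivity)]
        exact Finset.single_le_sum (f := fun k => ENNReal.ofReal ((1 / (n : ℝ)) ^ 2) *
          ENNReal.ofReal (gz p (ρ k) z ^ 2)) (fun _ _ => zero_le) hk
      · push Not at h
        rw [Finset.sum_eq_zero h]
        simp
    refine (lintegral_mono hpt).trans ?_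
    rw [lintegral_finsetSum _ fun k _ =>
      ((gz_meas p (ρ k)).pow_const 2).ennreal_ofReal.const_mul _]
    have h4 : ∀ k ∈ Finset.range n, ∫⁻ z, ENNReal.ofReal ((1 / (n : ℝ)) ^ 2) *
        ENNReal.ofReal (gz p (ρ k) z ^ 2) ≤ ENNReal.ofReal ((1 / (n : ℝ)) ^ 2 * (4 * Real.pi)) := by
      intro k _
      rw [lintegral_const_mul _ ((gz_meas p (ρ k)).pow_const 2).ennreal_ofReal,
        ENNReal.ofReal_mul (by positivity)]
      exact mul_le_mul_right (gz_sq p (hρ0 k)) _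
    refine (Finset.sum_le_sum h4).trans ?_
    rw [Finset.sum_const, Finset.card_range, nsmul_eq_mul, ← ENNReal.ofReal_natCast,
      ← ENNReal.ofReal_mul (by positivity)]
    refine ENNReal.ofReal_le_ofReal ?_
    have h5 : (n : ℝ) * ((1 / (n : ℝ)) ^ 2 * (4 * Real.pi)) = 4 * Real.pi / n := by
      field_simp
    rw [h5, div_le_iff₀ hn0]
    rw [div_lt_iff₀ hκ] at hn
    linarith

end Crest.Agent.R105.Rda_557
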