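import Mathlib
import Crest.Prelude.Def_CircleDomain
import Crest.Agent.Lib.InjHolo

/-!
# Row 105 (S0138, S0139): first reductions (helper828)

* `exists_expansion` : `f z = a z + b + O(1/z)` with `a ≠ 0`;
* `exteriorDomain_image` : the image of an exterior domain is an exterior domain;
-/

set_option autoImplicit false

open Set Filter Metric Topology Bornology
open Crest.AnalysisR

namespace Crest.Agent.R105.Red_828

/-- `1 / f (1 / w)` with value `0` at `0`. -/
noncomputable def inv8 (f : ℂ → ℂ) (w : ℂ) : ℂ := if w = 0 then 0 else (f w⁻¹)⁻¹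

theorem inv8_zero (f : ℂ → ℂ) : inv8 f 0 = 0 := by simp [inv8]

theorem inv8_of_ne (f : ℂ → ℂ) {w : ℂ} (hw : w ≠ 0) : inv8 f w = (f w⁻¹)⁻¹ := by simp [inv8, hw]

/-- a radius outside which everything is in `U` and `f` is large -/
theorem exists_radius {U : Set ℂ} (hU : IsExteriorDomain U) {f : ℂ → ℂ}
    (hinf : Tendsto f (cocompact ℂ) (cocompact ℂ)) (M : ℝ) :
    ∃ R : ℝ, 0 < R ∧ ∀ z : ℂ, R < ‖z‖ → z ∈ U ∧ M < ‖f z‖ := by
  obtain ⟨R0, hR0⟩ := hU.2.2
  have h1 : ∀ᶠ z in cocompact ℂ, M < ‖f z‖ := by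
    have h2 : Tendsto (fun z => ‖f z‖) (cocompact ℂ) atTop :=
      (tendsto_norm_cocompact_atTop (E := ℂ)).comp hinf
    exact h2.eventually_gt_atTop M
  rw [← cobounded_eq_cocompact] at h1
  obtain ⟨R1, -, hR1⟩ := (hasBasis_cobounded_norm (E := ℂ)).mem_iff.1 h1
  refine ⟨max (max R0 R1) 1, by positivity, fun z hz => ⟨hR0 z ?_, hR1 ?_⟩⟩
  · exact lt_of_le_of_lt (le_trans (le_max_left _ _) (le_max_left _ _)) hz
  · exact le_of_lt (lt_of_le_of_lt (le_trans (le_max_right _ _) (le_max_left _ _)) hz)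

/-- The local coordinate at infinity is holomorphic and injective near `0`. -/
theorem inv8_spec {U : Set ℂ} (hU : IsExteriorDomain U) {f : ℂ → ℂ}
    (hf : DifferentiableOn ℂ f U) (hinj : InjOn f U)
    (hinf : Tendsto f (cocompact ℂ) (cocompact ℂ)) :
    ∃ r : ℝ, 0 < r ∧ DifferentiableOn ℂ (inv8 f) (ball 0 r) ∧ InjOn (inv8 f) (ball 0 r) ∧
      ∀ w ∈ ball (0 : ℂ) r, w ≠ 0 → w⁻¹ ∈ U ∧ f w⁻¹ ≠ 0 := by
  obtain ⟨R, hR, h⟩ := exists_radius hU hinf 0
  have hr : 0 < R⁻¹ := inv_pos.2 hR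
  have key : ∀ w ∈ ball (0 : ℂ) R⁻¹, w ≠ 0 → w⁻¹ ∈ U ∧ f w⁻¹ ≠ 0 := by
    intro w hw hw0
    rw [mem_ball_zero_iff] at hw
    have h1 : R < ‖w⁻¹‖ := by
      rw [norm_inv]
      exact (lt_inv_comm₀ hR (norm_pos_iff.2 hw0)).2 hw
    exact ⟨(h _ h1).1, norm_pos_iff.1 (h _ h1).2⟩
  refine ⟨R⁻¹, hr, ?_, ?_, key⟩
  · have hcont : ContinuousAt (inv8 f) 0 := by
      rw [continuousAt_iff_punctured_nhds, inv8_zero]
      have h2 : Tendsto (fun w : ℂ => (f w⁻¹)⁻¹) (𝓝[≠] 0) (𝓝 0) := by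
        have h3 : Tendsto (fun w : ℂ => w⁻¹) (𝓝[≠] 0) (cocompact ℂ) := by
          rw [← cobounded_eq_cocompact]
          exact tendsto_inv₀_nhdsNE_zero
        have h4 : Tendsto (fun w : ℂ => w⁻¹) (cocompact ℂ) (𝓝 0) := by
          rw [← cobounded_eq_cocompact]
          exact tendsto_inv₀_cobounded
        exact h4.comp (hinf.comp h3)
      refine h2.congr' ?_
      filter_upwards [self_mem_nhdsWithin] with w hw
      exact (inv8_of_ne f hw).symm
    refine (Complex.differentiableOn_compl_singleton_and_continuousAt_iff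
      (ball_mem_nhds (0 : ℂ) hr)).1 ⟨?_, hcont⟩
    have h5 : DifferentiableOn ℂ (fun w : ℂ => (f w⁻¹)⁻¹) (ball 0 R⁻¹ \ {0}) := by
      refine DifferentiableOn.inv ?_ (fun w hw => (key w hw.1 hw.2).2)
      refine hf.comp (differentiableOn_id.inv fun w hw => hw.2) ?_
      intro w hw
      exact (key w hw.1 hw.2).1
    exact h5.congr fun w hw => inv8_of_ne f hw.2
  · intro w hw v hv hwv
    by_cases hw0 : w = 0
    · by_cases hv0 : v = 0
      · rw [hw0, hv0]
      · exfalso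
        rw [hw0, inv8_zero, inv8_of_ne f hv0] at hwv
        exact (inv_ne_zero (key v hv hv0).2) hwv.symm
    · by_cases hv0 : v = 0
      · exfalso
        rw [hv0, inv8_zero, inv8_of_ne f hw0] at hwv
        exact (inv_ne_zero (key w hw hw0).2) hwv
      · rw [inv8_of_ne f hw0, inv8_of_ne f hv0] at hwv
        exact inv_injective (hinj (key w hw hw0).1 (key v hv hv0).1 (inv_injective hwv))

/-- Expansion at infinity: `f z = a z + b + O(1/z)`. -/
theorem exists_expansion {U : Set ℂ} (hU : IsExteriorDomain U) {f : ℂ → ℂ}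
    (hf : DifferentiableOn ℂ f U) (hinj : InjOn f U)
    (hinf : Tendsto f (cocompact ℂ) (cocompact ℂ)) :
    ∃ a b : ℂ, a ≠ 0 ∧ ∃ C R : ℝ, 0 < R ∧ ∀ z : ℂ, R < ‖z‖ →
      z ∈ U ∧ ‖f z - (a * z + b)‖ ≤ C / ‖z‖ := by
  obtain ⟨r, hr, hd, hi, hk⟩ := inv8_spec hU hf hinj hinf
  have hd0 : deriv (inv8 f) 0 ≠ 0 :=
    Crest.Agent.Lib.deriv_ne_zero_of_injOn isOpen_ball hd hi (mem_ball_self hr)
  -- `h w = inv8 f w / w`, `h 0 = deriv`
  have hslope : DifferentiableOn ℂ (dslope (inv8 f) 0) (ball 0 r) :=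
    (Complex.differentiableOn_dslope (ball_mem_nhds (0 : ℂ) hr)).2 hd
  have hne : ∀ w ∈ ball (0 : ℂ) r, dslope (inv8 f) 0 w ≠ 0 := by
    intro w hw
    by_cases hw0 : w = 0
    · rw [hw0, dslope_same]; exact hd0
    · rw [dslope_of_ne _ hw0, slope_def_field, inv8_zero, sub_zero, sub_zero, inv8_of_ne f hw0]
      exact div_ne_zero (inv_ne_zero (hk w hw hw0).2) hw0
  have hA : AnalyticAt ℂ (fun w => (dslope (inv8 f) 0 w)⁻¹) 0 :=
    (hslope.inv hne).analyticAt (ball_mem_nhds (0 : ℂ) hr)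
  -- second slope
  set q : ℂ → ℂ := fun w => (dslope (inv8 f) 0 w)⁻¹ with hq
  have hqd : DifferentiableOn ℂ q (ball 0 r) := hslope.inv hne
  have hq1 : DifferentiableOn ℂ (dslope q 0) (ball 0 r) :=
    (Complex.differentiableOn_dslope (ball_mem_nhds (0 : ℂ) hr)).2 hqd
  have hq2 : DifferentiableOn ℂ (dslope (dslope q 0) 0) (ball 0 r) :=
    (Complex.differentiableOn_dslope (ball_mem_nhds (0 : ℂ) hr)).2 hq1
  have hcq : ContinuousAt (dslope (dslope q 0) 0) 0 :=
    (hq2.differentiableAt (ball_mem_nhds (0 : ℂ) hr)).continuousAt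
  obtain ⟨δ, hδ, hb⟩ := Metric.continuousAt_iff.1 hcq 1 one_pos
  set M : ℝ := ‖dslope (dslope q 0) 0 0‖ + 1 with hM
  have hρ : 0 < min δ r := lt_min hδ hr
  refine ⟨q 0, dslope q 0 0, ?_, M, (min δ r)⁻¹, inv_pos.2 hρ, ?_⟩
  · exact inv_ne_zero (hne 0 (mem_ball_self hr))
  · intro z hz
    have hz0 : 0 < ‖z‖ := lt_trans (inv_pos.2 hρ) hz
    have hzne : z ≠ 0 := norm_pos_iff.1 hz0
    set w : ℂ := z⁻¹ with hw
    have hwne : w ≠ 0 := inv_ne_zero hzne
    have hwn : ‖w‖ < min δ r := by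
      rw [hw, norm_inv]
      exact (inv_lt_comm₀ hρ hz0).1 hz
    have hwr : w ∈ ball (0 : ℂ) r := by
      rw [mem_ball_zero_iff]; exact lt_of_lt_of_le hwn (min_le_right _ _)
    have hzw : w⁻¹ = z := by rw [hw, inv_inv]
    have hfz : f z = q w * z := by
      have h1 : q w = (inv8 f w / w)⁻¹ := by
        rw [hq]
        simp only
        rw [dslope_of_ne _ hwne, slope_def_field, inv8_zero, sub_zero, sub_zero]
      rw [h1, inv8_of_ne f hwne, hzw, inv_div, ← hzw]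
      field_simp
    have hexp : q w = q 0 + w * dslope q 0 0 + w ^ 2 * dslope (dslope q 0) 0 w := by
      have e1 : dslope q 0 w = (q w - q 0) / w := by
        rw [dslope_of_ne _ hwne, slope_def_field, sub_zero]
      have e2 : dslope (dslope q 0) 0 w = (dslope q 0 w - dslope q 0 0) / w := by
        rw [dslope_of_ne _ hwne, slope_def_field, sub_zero]
      rw [e2, e1]
      field_simp
      ring
    refine ⟨hzw ▸ (hk w hwr hwne).1, ?_⟩
    have hdiff : f z - (q 0 * z + dslope q 0 0) = w * dslope (dslope q 0) 0 w := by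
      rw [hfz, hexp, ← hzw]
      field_simp
      ring
    rw [hdiff, norm_mul, hw, norm_inv, div_eq_inv_mul]
    refine mul_le_mul_of_nonneg_left ?_ (by positivity)
    have h6 : dist w 0 < δ := by
      rw [dist_zero_right]; exact lt_of_lt_of_le hwn (min_le_left _ _)
    have h7 := hb h6
    rw [dist_eq_norm] at h7
    have h8 := norm_sub_norm_le (dslope (dslope q 0) 0 w) (dslope (dslope q 0) 0 0)
    rw [← hw]
    linarith

end Crest.Agent.R105.Red_828
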