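import Mathlib

/-!
Row 105, S0138 (helper938), LEMMA Y, part (0) of 701's plan (#10366): one-dimensional Sard for
locally Lipschitz functions; crossings of rational lines; rational points are dense in continua.
No reference to the carrier.
-/

set_option autoImplicit false

open MeasureTheory Set Filter Topology Metric
open scoped NNReal ENNReal

namespace Crest.Agent.R105.Sd_938

/-- null sets have null image under a locally Lipschitz function of one variable -/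
theorem null_image {O N : Set ℝ} (hO : IsOpen O) {f : ℝ → ℝ} (hf : LocallyLipschitzOn O f)
    (hN : N ⊆ O) (h0 : volume N = 0) : volume (f '' N) = 0 := by
  have h1 : ∀ s ∈ O, ∃ K : ℝ≥0, ∃ V ∈ 𝓝 s, LipschitzOnWith K f V := by
    intro s hs
    obtain ⟨K, V, hV, hK⟩ := hf hs
    rw [hO.nhdsWithin_eq hs] at hV
    exact ⟨K, V, hV, hK⟩
  choose! K V hV hK using h1
  obtain ⟨t, htO, htc, ht⟩ := TopologicalSpace.countable_cover_nhdsWithin
    (s := O) (f := V) (fun s hs => mem_nhdsWithin_of_mem_nhds (hV s hs))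
  have h2 : f '' N ⊆ ⋃ s ∈ t, f '' (N ∩ V s) := by
    rintro _ ⟨x, hx, rfl⟩
    obtain ⟨s, hs, hxs⟩ := mem_iUnion₂.1 (ht (hN hx))
    exact mem_biUnion hs ⟨x, ⟨hx, hxs⟩, rfl⟩
  refine measure_mono_null h2 ((measure_biUnion_null_iff htc).2 fun s hs => ?_)
  have h3 : volume (N ∩ V s) = 0 := measure_mono_null inter_subset_left h0
  have h4 := (hK s (htO hs)).mono (inter_subset_right : N ∩ V s ⊆ V s)
  have h5 := h4.hausdorffMeasure_image_le (d := 1) zero_le_one
  rw [hausdorffMeasure_real, h3, mul_zero] at h5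
  exact le_antisymm h5 bot_le

/-- **Sard in dimension one** -/
theorem sard {O : Set ℝ} (hO : IsOpen O) {f : ℝ → ℝ} (hf : LocallyLipschitzOn O f) :
    ∀ᵐ t : ℝ, ∀ s ∈ O, f s = t → ∃ d : ℝ, d ≠ 0 ∧ HasDerivAt f d s := by
  have h1 : ∀ s ∈ O, ∃ K : ℝ≥0, ∃ V ∈ 𝓝 s, LipschitzOnWith K f V := by
    intro s hs
    obtain ⟨K, V, hV, hK⟩ := hf hs
    rw [hO.nhdsWithin_eq hs] at hV
    exact ⟨K, V, hV, hK⟩
  choose! K V hV hK using h1
  -- almost everywhere differentiable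
  have hD : volume {s | s ∈ O ∧ ¬ DifferentiableAt ℝ f s} = 0 := by
    obtain ⟨t, htO, htc, ht⟩ := TopologicalSpace.countable_cover_nhdsWithin
      (s := O) (f := fun s => interior (V s))
      (fun s hs => mem_nhdsWithin_of_mem_nhds (interior_mem_nhds.2 (hV s hs)))
    have h2 : {s | s ∈ O ∧ ¬ DifferentiableAt ℝ f s} ⊆
        ⋃ s ∈ t, {x | x ∈ interior (V s) ∧ ¬ DifferentiableWithinAt ℝ f (V s) x} := by
      rintro x ⟨hx, hxd⟩
      obtain ⟨s, hs, hxs⟩ := mem_iUnion₂.1 (ht hx)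
      refine mem_biUnion hs ⟨hxs, fun h => hxd ?_⟩
      exact h.differentiableAt (mem_interior_iff_mem_nhds.1 hxs)
    refine measure_mono_null h2 ((measure_biUnion_null_iff htc).2 fun s hs => ?_)
    have h3 := (hK s (htO hs)).ae_differentiableWithinAt_of_mem_real
    rw [ae_iff] at h3
    refine measure_mono_null ?_ h3
    rintro x ⟨hx, hxd⟩ hcon
    exact hxd (hcon (interior_subset hx))
  have h6 := null_image hO hf (N := {s | s ∈ O ∧ ¬ DifferentiableAt ℝ f s}) (fun s hs => hs.1) hD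
  have h7 : volume (f '' {s | s ∈ O ∧ HasDerivAt f 0 s}) = 0 := by
    refine addHaar_image_eq_zero_of_det_fderivWithin_eq_zero volume
      (f' := fun _ => (0 : ℝ →L[ℝ] ℝ)) (fun x hx => ?_) (fun x hx => ?_)
    · have := hx.2.hasFDerivAt
      have h8 : (ContinuousLinearMap.toSpanSingleton ℝ (0 : ℝ)) = (0 : ℝ →L[ℝ] ℝ) := by
        ext; simp
      rw [h8] at this
      exact this.hasFDerivWithinAt
    · simp [ContinuousLinearMap.det]
  have h9 : volume (f '' {s | s ∈ O ∧ ¬ DifferentiableAt ℝ f s} ∪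
      f '' {s | s ∈ O ∧ HasDerivAt f 0 s}) = 0 := measure_union_null h6 h7
  rw [ae_iff]
  refine measure_mono_null ?_ h9
  intro t ht
  simp only [mem_ofPred_eq, not_forall] at ht
  obtain ⟨s, hs, hst, hns⟩ := ht
  by_cases hd : DifferentiableAt ℝ f s
  · right
    refine ⟨s, ⟨hs, ?_⟩, hst⟩
    by_cases h0 : deriv f s = 0
    · have := hd.hasDerivAt
      rwa [h0] at this
    · exact absurd ⟨deriv f s, h0, hd.hasDerivAt⟩ hns
  · left
    exact ⟨s, ⟨hs, hd⟩, hst⟩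

/-- crossing of the horizontal line at `p` with a non zero slope -/
def CrH (a : ℂ → ℝ) (p : ℂ) : Prop := ∃ d : ℝ, d ≠ 0 ∧ HasDerivAt (fun s : ℝ => a (p + s)) d 0

/-- crossing of the vertical line at `p` with a non zero slope -/
def CrV (a : ℂ → ℝ) (p : ℂ) : Prop :=
  ∃ d : ℝ, d ≠ 0 ∧ HasDerivAt (fun s : ℝ => a (p + s * Complex.I)) d 0

/-- sign change at a point of non zero slope -/
theorem sign_of_hasDerivAt {g : ℝ → ℝ} {d : ℝ} (hd : d ≠ 0) (h : HasDerivAt g d 0) :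
    ∃ e : ℝ, (e = 1 ∨ e = -1) ∧ ∃ ρ > 0, ∀ s ∈ Ioc (0 : ℝ) ρ, g 0 < g (e * s) ∧ g (-(e * s)) < g 0 := by
  have key : ∀ {g : ℝ → ℝ} {d : ℝ}, 0 < d → HasDerivAt g d 0 →
      ∃ ρ > 0, ∀ s ∈ Ioc (0 : ℝ) ρ, g 0 < g s ∧ g (-s) < g 0 := by
    intro g d hd h
    have h1 := h.tendsto_slope
    have h2 : ∀ᶠ y in 𝓝[≠] (0 : ℝ), 0 < slope g 0 y := h1.eventually (lt_mem_nhds hd)
    obtain ⟨ρ, hρ, h3⟩ := Metric.mem_nhdsWithin_iff.1 h2
    refine ⟨ρ / 2, by positivity, fun s hs => ⟨?_, ?_⟩⟩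
    · have h4 : s ∈ {y | 0 < slope g 0 y} := h3 ⟨by
        rw [mem_ball, Real.dist_eq, sub_zero, abs_of_pos hs.1]; linarith [hs.2], hs.1.ne'⟩
      have h5 : 0 < slope g 0 s := h4
      rw [slope_def_field, sub_zero] at h5
      have h6 := (div_pos_iff_of_pos_right hs.1).1 h5
      linarith
    · have h4 : -s ∈ {y | 0 < slope g 0 y} := h3 ⟨by
        rw [mem_ball, Real.dist_eq, sub_zero, abs_neg, abs_of_pos hs.1]; linarith [hs.2],
        by simpa using hs.1.ne'⟩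
      have h5 : 0 < slope g 0 (-s) := h4
      rw [slope_def_field, sub_zero] at h5
      rw [div_neg, neg_pos] at h5
      have h6 : g (-s) - g 0 < 0 := by
        by_contra hcon
        push Not at hcon
        exact absurd (div_nonneg hcon hs.1.le) (not_le.2 h5)
      linarith
  rcases lt_or_gt_of_ne hd with hd' | hd'
  · refine ⟨-1, Or.inr rfl, ?_⟩
    have h1 : HasDerivAt (fun s => g (-s)) (-d) 0 := by
      have h2 : HasDerivAt (fun s : ℝ => -s) (-1) 0 := hasDerivAt_neg 0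
      have h3 : HasDerivAt g d (-(0 : ℝ)) := by simpa using h
      have := HasDerivAt.scomp (0 : ℝ) h3 h2
      simpa [Function.comp_def] using this
    obtain ⟨ρ, hρ, h4⟩ := key (by linarith) h1
    refine ⟨ρ, hρ, fun s hs => ?_⟩
    have := h4 s hs
    simpa using this
  · refine ⟨1, Or.inl rfl, ?_⟩
    obtain ⟨ρ, hρ, h4⟩ := key hd' h
    exact ⟨ρ, hρ, fun s hs => by simpa using h4 s hs⟩

theorem CrH.sign {a : ℂ → ℝ} {p : ℂ} (h : CrH a p) :
    ∃ e : ℝ, (e = 1 ∨ e = -1) ∧ ∃ ρ > 0, ∀ s ∈ Ioc (0 : ℝ) ρ,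
      a p < a (p + ((e * s : ℝ) : ℂ)) ∧ a (p - ((e * s : ℝ) : ℂ)) < a p := by
  obtain ⟨d, hd, h⟩ := h
  obtain ⟨e, he, ρ, hρ, h1⟩ := sign_of_hasDerivAt hd h
  refine ⟨e, he, ρ, hρ, fun s hs => ?_⟩
  have := h1 s hs
  simpa [sub_eq_add_neg] using this

theorem CrV.sign {a : ℂ → ℝ} {p : ℂ} (h : CrV a p) :
    ∃ e : ℝ, (e = 1 ∨ e = -1) ∧ ∃ ρ > 0, ∀ s ∈ Ioc (0 : ℝ) ρ,
      a p < a (p + ((e * s : ℝ) : ℂ) * Complex.I) ∧ a (p - ((e * s : ℝ) : ℂ) * Complex.I) < a p := by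
  obtain ⟨d, hd, h⟩ := h
  obtain ⟨e, he, ρ, hρ, h1⟩ := sign_of_hasDerivAt hd h
  refine ⟨e, he, ρ, hρ, fun s hs => ?_⟩
  have := h1 s hs
  simpa [sub_eq_add_neg] using this

section
variable {U : Set ℂ} {a : ℂ → ℝ}

lemma locLip_line (ha : LocallyLipschitzOn U a) {g : ℝ → ℂ} (hg : LipschitzWith 1 g) :
    LocallyLipschitzOn (g ⁻¹' U) fun s => a (g s) := by
  intro s hs
  obtain ⟨K, V, hV, hK⟩ := ha hs
  refine ⟨K, g ⁻¹' V, ?_, ?_⟩
  · exact (hg.continuous.continuousWithinAt.tendsto_nhdsWithin (mapsTo_preimage g U)) hV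
  · have := hK.comp (hg.lipschitzOnWith (s := g ⁻¹' V)) (mapsTo_preimage g V)
    rw [mul_one] at this
    exact this

lemma lip_hor (q : ℝ) : LipschitzWith 1 fun s : ℝ => (s : ℂ) + q * Complex.I := by
  refine LipschitzWith.of_dist_le_mul fun x y => ?_
  rw [NNReal.coe_one, one_mul, dist_add_right, Complex.dist_eq, ← Complex.ofReal_sub,
    Complex.norm_real, Real.dist_eq, Real.norm_eq_abs]

lemma lip_ver (q : ℝ) : LipschitzWith 1 fun s : ℝ => (q : ℂ) + s * Complex.I := by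
  refine LipschitzWith.of_dist_le_mul fun x y => ?_
  rw [NNReal.coe_one, one_mul, dist_add_left, Complex.dist_eq, ← sub_mul, norm_mul,
    Complex.norm_I, mul_one, ← Complex.ofReal_sub, Complex.norm_real, Real.dist_eq,
    Real.norm_eq_abs]

/-- **for a.e. `t` all points of the level `t` on rational lines are crossings** -/
theorem ae_cross (hU : IsOpen U) (ha : LocallyLipschitzOn U a) :
    ∀ᵐ t : ℝ, ∀ p ∈ U, a p = t →
      ((∃ q : ℚ, p.im = q) → CrH a p) ∧ ((∃ q : ℚ, p.re = q) → CrV a p) := by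
  have h1 : ∀ q : ℚ, ∀ᵐ t : ℝ, ∀ s ∈ (fun s : ℝ => (s : ℂ) + (q : ℝ) * Complex.I) ⁻¹' U,
      a ((s : ℂ) + (q : ℝ) * Complex.I) = t →
        ∃ d : ℝ, d ≠ 0 ∧ HasDerivAt (fun s : ℝ => a ((s : ℂ) + (q : ℝ) * Complex.I)) d s :=
    fun q => sard (hU.preimage (lip_hor q).continuous) (locLip_line ha (lip_hor q))
  have h2 : ∀ q : ℚ, ∀ᵐ t : ℝ, ∀ s ∈ (fun s : ℝ => ((q : ℝ) : ℂ) + s * Complex.I) ⁻¹' U,
      a (((q : ℝ) : ℂ) + s * Complex.I) = t →
        ∃ d : ℝ, d ≠ 0 ∧ HasDerivAt (fun s : ℝ => a (((q : ℝ) : ℂ) + s * Complex.I)) d s :=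
    fun q => sard (hU.preimage (lip_ver q).continuous) (locLip_line ha (lip_ver q))
  filter_upwards [ae_all_iff.2 h1, ae_all_iff.2 h2] with t ht1 ht2 p hp hpt
  refine ⟨?_, ?_⟩
  · rintro ⟨q, hq⟩
    have h3 : ((p.re : ℂ) + ((q : ℝ) : ℂ) * Complex.I) = p := by
      rw [← hq]; exact Complex.re_add_im p
    obtain ⟨d, hd, h4⟩ := ht1 q p.re (by rw [mem_preimage, h3]; exact hp) (by rw [h3]; exact hpt)
    refine ⟨d, hd, ?_⟩
    have h5 : HasDerivAt (fun s : ℝ => p.re + s) 1 0 := by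
      simpa using (hasDerivAt_id (0 : ℝ)).const_add p.re
    have h6 : HasDerivAt (fun s : ℝ => a ((s : ℂ) + (q : ℝ) * Complex.I)) d (p.re + 0) := by
      rwa [add_zero]
    have h7 := HasDerivAt.scomp (0 : ℝ) h6 h5
    rw [one_smul] at h7
    refine h7.congr_of_eventuallyEq (Eventually.of_forall fun s => ?_)
    simp only [Function.comp_def]
    congr 1
    nth_rewrite 1 [← h3]
    push_cast; ring
  · rintro ⟨q, hq⟩
    have h3 : ((((q : ℝ) : ℂ)) + (p.im : ℂ) * Complex.I) = p := by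
      rw [← hq]; exact Complex.re_add_im p
    obtain ⟨d, hd, h4⟩ := ht2 q p.im (by rw [mem_preimage, h3]; exact hp) (by rw [h3]; exact hpt)
    refine ⟨d, hd, ?_⟩
    have h5 : HasDerivAt (fun s : ℝ => p.im + s) 1 0 := by
      simpa using (hasDerivAt_id (0 : ℝ)).const_add p.im
    have h6 : HasDerivAt (fun s : ℝ => a (((q : ℝ) : ℂ) + s * Complex.I)) d (p.im + 0) := by
      rwa [add_zero]
    have h7 := HasDerivAt.scomp (0 : ℝ) h6 h5
    rw [one_smul] at h7
    refine h7.congr_of_eventuallyEq (Eventually.of_forall fun s => ?_)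
    simp only [Function.comp_def]
    congr 1
    nth_rewrite 1 [← h3]
    push_cast; ring

end

/-- a connected set meets the frontier of a set which it enters and leaves -/
theorem meets_frontier {C B : Set ℂ} (hC : IsPreconnected C) {p q : ℂ} (hp : p ∈ C) (hpB : p ∈ B)
    (hq : q ∈ C) (hqB : q ∉ B) : (C ∩ frontier B).Nonempty := by
  by_contra hcon
  rw [not_nonempty_iff_eq_empty] at hcon
  have hcov : C ⊆ interior B ∪ (closure B)ᶜ := by
    intro x hx
    by_cases h1 : x ∈ interior B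
    · exact Or.inl h1
    · right
      intro h2
      have : x ∈ C ∩ frontier B := ⟨hx, h2, h1⟩
      rw [hcon] at this; exact this
  have h1 : p ∈ interior B := by
    rcases hcov hp with h | h
    · exact h
    · exact absurd (subset_closure hpB) h
  have h2 : q ∈ (closure B)ᶜ := by
    rcases hcov hq with h | h
    · exact absurd (interior_subset h) hqB
    · exact h
  obtain ⟨x, -, hx1, hx2⟩ := hC _ _ isOpen_interior isClosed_closure.isOpen_compl hcov
    ⟨p, hp, h1⟩ ⟨q, hq, h2⟩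
  exact hx2 (subset_closure (interior_subset hx1))

/-- **rational points are dense in connected sets** -/
theorem exists_rat {C : Set ℂ} (hC : IsPreconnected C) {p q : ℂ} (hp : p ∈ C) (hq : q ∈ C)
    (hpq : q ≠ p) {V : Set ℂ} (hV : V ∈ 𝓝 p) :
    ∃ r ∈ C, r ∈ V ∧ ((∃ c : ℚ, r.im = c) ∨ ∃ c : ℚ, r.re = c) := by
  obtain ⟨ε, hε, hεV⟩ := Metric.mem_nhds_iff.1 hV
  set δ : ℝ := min ε (dist q p) / 2 with hδ
  have hδ0 : 0 < δ := by
    rw [hδ]; exact half_pos (lt_min hε (dist_pos.2 hpq))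
  obtain ⟨x1, hx1, hx1'⟩ := exists_rat_btwn (show p.re - δ / 2 < p.re by linarith)
  obtain ⟨x2, hx2, hx2'⟩ := exists_rat_btwn (show p.re < p.re + δ / 2 by linarith)
  obtain ⟨y1, hy1, hy1'⟩ := exists_rat_btwn (show p.im - δ / 2 < p.im by linarith)
  obtain ⟨y2, hy2, hy2'⟩ := exists_rat_btwn (show p.im < p.im + δ / 2 by linarith)
  set B : Set ℂ := Icc (x1 : ℝ) x2 ×ℂ Icc (y1 : ℝ) y2 with hB
  have hnear : ∀ z ∈ B, dist z p < 2 * δ := by
    intro z hz
    rw [hB, Complex.mem_reProdIm] at hz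
    rw [Complex.dist_eq]
    have h1 : |(z - p).re| ≤ δ / 2 := by
      rw [Complex.sub_re, abs_le]; constructor <;> linarith [hz.1.1, hz.1.2]
    have h2 : |(z - p).im| ≤ δ / 2 := by
      rw [Complex.sub_im, abs_le]; constructor <;> linarith [hz.2.1, hz.2.2]
    calc ‖z - p‖ ≤ |(z - p).re| + |(z - p).im| := Complex.norm_le_abs_re_add_abs_im _
      _ ≤ δ / 2 + δ / 2 := add_le_add h1 h2
      _ < 2 * δ := by linarith
  have hpB : p ∈ B := by
    rw [hB, Complex.mem_reProdIm]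
    exact ⟨⟨hx1'.le, hx2.le⟩, ⟨hy1'.le, hy2.le⟩⟩
  have hqB : q ∉ B := by
    intro h
    have h1 := hnear q h
    have h2 : 2 * δ ≤ dist q p := by rw [hδ]; linarith [min_le_right ε (dist q p)]
    linarith
  obtain ⟨r, hrC, hr⟩ := meets_frontier hC hp hpB hq hqB
  have hBc : IsClosed B := by
    rw [hB]; exact isClosed_Icc.reProdIm isClosed_Icc
  have hrB : r ∈ B := hBc.frontier_subset hr
  refine ⟨r, hrC, hεV ?_, ?_⟩
  · rw [mem_ball]
    have h2 : 2 * δ ≤ ε := by rw [hδ]; linarith [min_le_left ε (dist q p)]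
    linarith [hnear r hrB]
  · by_contra hcon
    rw [not_or] at hcon
    push Not at hcon
    obtain ⟨h1, h2⟩ := hcon
    rw [hB, Complex.mem_reProdIm] at hrB
    have h3 : r ∈ interior B := by
      rw [hB, Complex.interior_reProdIm, interior_Icc, interior_Icc, Complex.mem_reProdIm]
      exact ⟨⟨lt_of_le_of_ne hrB.1.1 (h2 x1).symm, lt_of_le_of_ne hrB.1.2 (h2 x2)⟩,
        ⟨lt_of_le_of_ne hrB.2.1 (h1 y1).symm, lt_of_le_of_ne hrB.2.2 (h1 y2)⟩⟩
    exact hr.2 h3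

end Crest.Agent.R105.Sd_938
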