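import Crest.Agent.R105.Selp_871
import Crest.Agent.R105.Bd5_775

/-! Row 105, S0139: **SELP is proved** (871 `selp_of` + 775 `J_bddBelow`). -/

set_option autoImplicit false

namespace Crest.Agent.R105.Bd_775

theorem jlow : Clo_871.JLow := fun _ _ hTD hx => by
  obtain ⟨L, hL⟩ := J_bddBelow hTD.cpt hx
  exact ⟨L, fun u hu => hL u hu.q⟩

theorem selp : IfB_641.SELP := Clo_871.selp_of jlow

end Crest.Agent.R105.Bd_775
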