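import Mathlib
import Crest.Agent.R105.Clo2_871
import Crest.Agent.R105.IfB2_641

/-!
Row 105 (S0139), SELP = selection (658) + complete metric (775) + CLOSE (871), from a lower bound
of `J` (775 Bd5).
-/

set_option autoImplicit false
set_option linter.style.haveILetI false

open MeasureTheory Set Filter Topology Metric
open scoped NNReal ENNReal

namespace Crest.Agent.R105.Clo_871

open Crest.Agent.R105.Bd_775 Crest.Agent.R105.OneF_871

/-- the lower bound of `J` (775 Bd5) -/
def JLow : Prop := ∀ (C : Set ℂ) (x0 : ℂ → ℝ), IfB_641.TD C → IfB_641.X0 C x0 →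
  ∃ L : ℝ, ∀ u, D C u → L ≤ IfB_641.J C x0 u

variable {C : Set ℂ}

theorem iso_pair (hC : IsCompact C) (v : Hn C) (o : Hn C) (ho : o.1 = fun _ => 0) :
    IsoH C {v, o} := by
  unfold IsoH
  refine IfB_641.Iso.trans (T := range (fun _ : Unit => v.1)) ?_
    (IfB_641.iso_range.2 (iso_one hC v.2.q))
  rintro _ ⟨s, hs, rfl⟩
  rcases hs with rfl | hs
  · exact IfB_641.Gen.of ⟨(), rfl⟩
  · rw [mem_singleton_iff] at hs
    subst hs
    simp only [ho]
    exact IfB_641.Gen.const 0

/-- closing does not raise `J` by more than `g` -/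
theorem j_close (hC : IsCompact C) {x0 : ℂ → ℝ} (hx : IfB_641.X0 C x0) {q : ℂ} (hq : q ∈ C)
    {ψ : ℂ → ℝ} (hψ : IfB_641.D1 C q ψ) {g : ℝ} (hg : 0 < g) :
    ∃ δ₀ > 0, ∃ ε > 0, ∀ u : Hn C, (∀ z ∉ closedBall q δ₀, u.1 z = ψ z) →
      IntegrableOn (en (fun z => u.1 z - ψ z)) Cᶜ → ∫ z in Cᶜ, en (fun z => u.1 z - ψ z) z ≤ ε →
      IfB_641.J C x0 u.1 ≤ IfB_641.J C x0 ψ + g := by
  have hCc := hC.isClosed
  -- `lap x0 = 0` near `q`
  have h1 : (tsupport (IfB_641.lap x0))ᶜ ∈ 𝓝 q :=
    (isClosed_tsupport _).isOpen_compl.mem_nhds fun h => hx.lap_sub h hq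
  obtain ⟨δ₀, hδ₀, hδ⟩ := Metric.nhds_basis_closedBall.mem_iff.1 h1
  set A := IfB_641.di C ψ ψ with hA
  have hA0 : 0 ≤ A := di_self_nonneg _
  set t : ℝ := g / (2 * (A + 1)) with ht
  have ht0 : 0 < t := by positivity
  refine ⟨δ₀, hδ₀, g / (2 * (1 + 1 / t)), by positivity, fun u hu _ he => ?_⟩
  have h2 : ∫ z, u.1 z * IfB_641.lap x0 z = ∫ z, ψ z * IfB_641.lap x0 z := by
    congr 1; funext z
    by_cases hz : z ∈ closedBall q δ₀
    · have h3 : IfB_641.lap x0 z = 0 := image_eq_zero_of_notMem_tsupport (hδ hz)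
      rw [h3, mul_zero, mul_zero]
    · rw [hu z hz]
  have h3 := di_le hCc u.2.q hψ.toQ ht0
  have h4 : IfB_641.di C (fun w => u.1 w - ψ w) (fun w => u.1 w - ψ w) ≤ g / (2 * (1 + 1 / t)) := by
    rw [di_self]; exact he
  have h5 : (1 + 1 / t) * IfB_641.di C (fun w => u.1 w - ψ w) (fun w => u.1 w - ψ w) ≤ g / 2 := by
    calc (1 + 1 / t) * IfB_641.di C (fun w => u.1 w - ψ w) (fun w => u.1 w - ψ w)
        ≤ (1 + 1 / t) * (g / (2 * (1 + 1 / t))) := mul_le_mul_of_nonneg_left h4 (by positivity)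
      _ = g / 2 := by field_simp
  have h6 : t * A ≤ g / 2 := by
    rw [ht]
    calc g / (2 * (A + 1)) * A ≤ g / (2 * (A + 1)) * (A + 1) :=
          mul_le_mul_of_nonneg_left (by linarith) (by positivity)
      _ = g / 2 := by field_simp
  unfold IfB_641.J
  rw [h2]
  rw [← hA] at h3 ⊢
  linarith

/-- **SELP**, from the lower bound of `J`. -/
theorem selp_of (hJ : JLow) : IfB_641.SELP := by
  intro C x0 hTD hx v hv η hη
  have hC := hTD.cpt
  have hCc := hC.isClosed
  obtain ⟨L, hL⟩ := hJ C x0 hTD hx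
  letI := metr hCc
  haveI : CompleteSpace (Hn C) := complete hCc
  have hint : Integrable (IfB_641.lap x0) :=
    hx.lap_cont.integrable_of_hasCompactSupport hx.lap_cpt
  have hcont : Continuous fun x : Hn C => IfB_641.J C x0 x.1 := continuous_J hCc hint
  have hpred : Sel_658.IsoPred (IsoH C) := isoPred hCc
  set o : Hn C := ⟨fun _ => 0, (Q.const C 0).d continuous_const⟩ with ho
  set r : ℝ := min η 1 with hr
  have hr0 : 0 < r := by positivity
  obtain ⟨b, m, hd, hiso, hlim, -, hmin⟩ := Sel_658.select hpred hcont (L := L)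
    (fun x => hL x.1 x.2) (v := (⟨v, hv⟩ : Hn C)) (u₀ := o) (iso_pair hC _ _ rfl)
    (half_pos hr0)
  have hnear : Near C r (b 0).1 v := near_of_dist_lt hCc (lt_of_le_of_lt hd (by linarith))
  have hisoR : IfB_641.Iso C (range fun k => (b k).1) := by
    have : (range fun k => (b k).1) = (fun x : Hn C => x.1) '' range b := by
      rw [← range_comp]; rfl
    rw [this]; exact hiso
  refine ⟨fun k => (b k).1, m, ⟨fun i => (b i).2, hisoR, hlim, ?_⟩, fun z => ?_, ?_⟩
  · intro ψ hT hI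
    -- it is enough to have `m ≤ J ψ + 2 g`
    refine le_of_forall_pos_le_add fun g hg => ?_
    obtain ⟨n, δ, hδ, hsel⟩ := hmin (g / 2) (half_pos hg)
    rcases hT with hD | ⟨q, hq, hψ⟩
    · have h1 := hsel b ⟨ψ, hD⟩ (fun i _ => by rw [dist_self]; exact hδ.le) ?_
      · simp only at h1
        linarith
      · show IfB_641.Iso C _
        refine IfB_641.Iso.mono ?_ hI
        rintro _ ⟨s, hs, rfl⟩
        rcases hs with rfl | ⟨i, -, rfl⟩
        · exact mem_insert _ _
        · exact mem_insert_of_mem _ (mem_range_self i)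
    · obtain ⟨δ₀, hδ₀, ε, hε, hj⟩ := j_close hC hx hq hψ (half_pos hg)
      obtain ⟨M, hM⟩ := hψ.toQ.bdd
      obtain ⟨c, u, hc1, hc2, -, hc4, hc5, hc6⟩ := close hC hTD.td hq hψ hI hM n
        (δ := min δ δ₀) (by positivity) hε
      have h1 := hsel c u (fun i hi => ?_) ?_
      · have h2 := hj u (fun z hz => hc4 z fun h => hz (closedBall_subset_closedBall
          (min_le_right _ _) h)) hc5 hc6
        linarith
      · have h3 : dist (c i) (b i) ≤ min δ δ₀ := dist_le_of_near hCc (by positivity) (hc1 i hi)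
        exact h3.trans (min_le_left _ _)
      · show IfB_641.Iso C _
        refine IfB_641.Iso.mono ?_ hc2
        rintro _ ⟨s, hs, rfl⟩
        rcases hs with rfl | ⟨i, hi, rfl⟩
        · exact mem_insert _ _
        · exact mem_insert_of_mem _ ⟨i, hi, rfl⟩
  · exact (hnear.sup z).trans (min_le_left _ _)
  · rw [di_self]
    have h1 : r ^ 2 ≤ η := by
      have h2 : r ≤ 1 := min_le_right _ _
      have h3 : r ≤ η := min_le_left _ _
      nlinarith
    refine (en_integral_le ((b 0).2.q.sub hCc hv.q) (by positivity) hnear.enr).trans h1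

end Crest.Agent.R105.Clo_871
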