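import Crest.Agent.R105.Psq5_425
import Crest.Agent.R105.Famq4_306
import Crest.Agent.R105.MsB_425

/-!
# Row 105 (S0138), LEMAQ, helper306: shrinking cut-offs (over `Psq_425.Cut`)

`exists_cut`: for a compact family `g` of components of `E` inside the open set `R` and summable
weights `w` of the squares there is a cut-off `χ` (`Cut E R g χ`) such that the total weight of the
squares where `χ ≠ 0` is at most `ε` plus the total weight of the squares contained in `⋃₀ g`.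
`concl_pairs`, `concl_single` : the two abstract conclusions of Lemma A.
-/

set_option autoImplicit false

namespace Crest.Agent.R105.Shr_306

open Set Filter MeasureTheory Topology Metric
open CF_363 Stp_722 Cq_463 Thin_891 Nal_649 Exs_992 SkT1_137 Famq_306 Psq_425
open Skp2_257 (Comps Lo Up)
open scoped NNReal ContDiff

variable {E R N S : Set (ℝ × ℝ)} {𝒬 : Set Sqr} {𝓗 : Set Hair} {g : Set (Set (ℝ × ℝ))}
  {χ : ℝ × ℝ → ℝ} {w : Sqr → ℝ}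

/-- a smooth cut-off which is `1` near the piece `S` and `0` near the rest of `E` -/
theorem cut_piece (hS : Piece E S) (hN : IsOpen N) (hSN : S ⊆ N) :
    ∃ χ : ℝ × ℝ → ℝ, ContDiff ℝ ∞ χ ∧ HasCompactSupport χ ∧ tsupport χ ⊆ N ∧
      (∀ p, 0 ≤ χ p ∧ χ p ≤ 1) ∧ (∃ O, IsOpen O ∧ S ⊆ O ∧ ∀ p ∈ O, χ p = 1) ∧
      ∃ O, IsOpen O ∧ E \ S ⊆ O ∧ ∀ p ∈ O, χ p = 0 := by
  have hO : IsOpen (N \ (E \ S)) := hN.sdiff hS.cpt'.isClosed
  have hSO : S ⊆ N \ (E \ S) := fun p hp => ⟨hSN hp, fun h => h.2 hp⟩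
  obtain ⟨δ, hδ, hδO⟩ := hS.cpt.exists_cthickening_subset_open hO hSO
  have hint : S ⊆ interior (Metric.cthickening δ S) :=
    (Metric.self_subset_thickening hδ S).trans
      (interior_maximal (Metric.thickening_subset_cthickening δ S) Metric.isOpen_thickening)
  obtain ⟨χ, h1, h2, h3, h4⟩ := MsB_425.cutoff (E := ℝ × ℝ) hS.cpt.isClosed hint
  have hts : tsupport χ ⊆ Metric.cthickening δ S := by
    refine closure_minimal (fun p hp => ?_) Metric.isClosed_cthickening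
    by_contra hcon
    exact hp (h3 p hcon)
  obtain ⟨O, hO1, hSO1, hO2⟩ : ∃ O, IsOpen O ∧ S ⊆ O ∧ ∀ p ∈ O, χ p = 1 := by
    obtain ⟨O, hO1, hO2, hO3⟩ := mem_nhdsSet_iff_exists.1 h2
    exact ⟨O, hO1, hO2, hO3⟩
  refine ⟨χ, h1, hS.cpt.cthickening.of_isClosed_subset (isClosed_tsupport _) hts,
    (hts.trans hδO).trans sdiff_subset, h4, ⟨O, hO1, hSO1, hO2⟩,
    (tsupport χ)ᶜ, (isClosed_tsupport _).isOpen_compl, fun p hp h => ?_,
    fun p hp => image_eq_zero_of_notMem_tsupport hp⟩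
  exact (hδO (hts h)).2 hp

/-- a piece between a compact family of components and an open set -/
theorem piece_fam (hE : IsCompact E) (hg : g ⊆ Comps E) (hc : IsCompact (⋃₀ g)) (hN : IsOpen N)
    (hgN : ⋃₀ g ⊆ N) : ∃ S, Piece E S ∧ ⋃₀ g ⊆ S ∧ S ⊆ N := by
  have hgE : ⋃₀ g ⊆ E := sUnion_subset fun P hP => comps_sub (hg hP)
  obtain ⟨n, p, F, -, hF, hFN, -, -, hGF⟩ := exists_pieces hE hc hgE (fun _ => N)
    (fun _ _ => hN) (fun x hx => by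
      obtain ⟨P, hP, hxP⟩ := hx
      obtain ⟨y, hy, rfl⟩ := hg hP
      rw [← connectedComponentIn_eq hxP]
      exact (subset_sUnion_of_mem hP).trans hgN)
  have key : ∀ s : Finset (Fin n), Piece E (⋃ i ∈ s, F i) := by
    classical
    intro s
    induction s using Finset.induction_on with
    | empty => simpa using Piece.empty hE
    | insert i s _ ih =>
      rw [Finset.set_biUnion_insert]
      exact (hF i).union ih
  refine ⟨⋃ i, F i, ?_, hGF, iUnion_subset hFN⟩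
  have := key Finset.univ
  simpa using this

theorem cut_of_piece (hS : Piece E S) (hgS : ⋃₀ g ⊆ S) (hR : IsOpen R)
    (hSR : S ⊆ R) : ∃ χ, Cut E R g χ ∧ (∀ p ∈ E, p ∉ S → χ p = 0) ∧ ∀ p ∈ S, χ p = 1 := by
  obtain ⟨χ, h1, h2, h3, h4, ⟨O, hO, hSO, hO1⟩, O', hO', hEO', hO0⟩ := cut_piece hS hR hSR
  refine ⟨χ, ⟨h1, h2, h3, fun p => (h4 p).1, fun p => (h4 p).2, fun P hP => ?_, fun P hP => ?_⟩,
    fun p hp hpS => hO0 p (hEO' ⟨hp, hpS⟩), fun p hp => hO1 p (hSO hp)⟩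
  · obtain ⟨q, hq⟩ := comps_nonempty hP
    by_cases hqS : q ∈ S
    · refine ⟨1, O, hO, ?_, hO1⟩
      obtain ⟨y, hy, rfl⟩ := hP
      exact (hS.component_subset' ⟨q, hq, hqS⟩).trans hSO
    · refine ⟨0, O', hO', fun p hp => hEO' ⟨comps_sub hP hp, fun hpS => hqS ?_⟩, hO0⟩
      obtain ⟨y, hy, rfl⟩ := hP
      exact hS.component_subset' ⟨p, hp, hpS⟩ hq
  · exact ⟨O, hO, ((subset_sUnion_of_mem hP).trans hgS).trans hSO, hO1⟩

/-- the squares where `χ` is not zero -/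
def OnQ (χ : ℝ × ℝ → ℝ) : Set Sqr := {Q | ∃ p ∈ Q.car, χ p ≠ 0}

/-- the squares inside `G` -/
def InQ (G : Set (ℝ × ℝ)) : Set Sqr := {Q | Q.car ⊆ G}

/-- **shrinking cut-offs** -/
theorem exists_cut (hE : QPic E 𝒬 𝓗) (hg : g ⊆ Comps E) (hc : IsCompact (⋃₀ g)) (hR : IsOpen R)
    (hgR : ⋃₀ g ⊆ R) (hw : Summable fun Q : 𝒬 => w Q.1) (h0 : ∀ Q, 0 ≤ w Q) {ε : ℝ}
    (hε : 0 < ε) : ∃ χ, Cut E R g χ ∧
      ∑' Q : 𝒬, (OnQ χ).indicator w Q.1 ≤ ε + ∑' Q : 𝒬, (InQ (⋃₀ g)).indicator w Q.1 := by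
  classical
  obtain ⟨T₀, hT₀⟩ := (summable_iff_vanishing_norm.1 hw) ε hε
  set U : Set (ℝ × ℝ) := ⋃ Q ∈ T₀.filter (fun Q : 𝒬 => ¬ Q.1.car ⊆ ⋃₀ g), Q.1.car with hU
  have hUc : IsClosed U := isClosed_biUnion_finset fun Q _ => Q.1.isCompact_car.isClosed
  have hgU : ⋃₀ g ⊆ R \ U := by
    rintro p ⟨P, hP, hp⟩
    refine ⟨hgR ⟨P, hP, hp⟩, fun h => ?_⟩
    obtain ⟨Q, hQ, hpQ⟩ := mem_iUnion₂.1 h
    refine (Finset.mem_filter.1 hQ).2 ?_
    exact (sq_in_comp hE Q.2 (hg hP) ⟨p, hpQ, hp⟩).trans (subset_sUnion_of_mem hP)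
  obtain ⟨S, hS, hgS, hSN⟩ := piece_fam hE.cpt hg hc (hR.sdiff hUc) hgU
  obtain ⟨χ, hχ, hχ0, -⟩ := cut_of_piece hS hgS (hR.sdiff hUc) hSN
  refine ⟨χ, ⟨hχ.sm, hχ.cpt, hχ.sub.trans sdiff_subset, hχ.nn, hχ.le, hχ.loc, hχ.one⟩, ?_⟩
  have hsum1 : Summable fun Q : 𝒬 => (InQ (⋃₀ g)).indicator w Q.1 := by
    refine Summable.of_nonneg_of_le (fun Q => indicator_nonneg (fun _ _ => h0 _) _) (fun Q => ?_) hw
    exact indicator_le_self' (fun _ _ => h0 _) _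
  have hsum2 : Summable fun Q : 𝒬 => ((T₀ : Set 𝒬)ᶜ).indicator (fun Q : 𝒬 => w Q.1) Q :=
    hw.indicator _
  have hsum3 : Summable fun Q : 𝒬 => (OnQ χ).indicator w Q.1 := by
    refine Summable.of_nonneg_of_le (fun Q => indicator_nonneg (fun _ _ => h0 _) _) (fun Q => ?_) hw
    exact indicator_le_self' (fun _ _ => h0 _) _
  have htail : ∑' Q : 𝒬, ((T₀ : Set 𝒬)ᶜ).indicator (fun Q : 𝒬 => w Q.1) Q ≤ ε := by
    refine hsum2.tsum_le_of_sum_le fun s => ?_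
    have h1 : ∑ Q ∈ s, ((T₀ : Set 𝒬)ᶜ).indicator (fun Q : 𝒬 => w Q.1) Q =
        ∑ Q ∈ s \ T₀, w Q.1 := by
      rw [Finset.sum_indicator_eq_sum_filter]
      refine Finset.sum_congr ?_ fun _ _ => rfl
      ext Q
      simp [Finset.mem_sdiff]
    rw [h1]
    have h2 := hT₀ (s \ T₀) Finset.sdiff_disjoint
    rw [Real.norm_eq_abs] at h2
    exact (le_abs_self _).trans h2.le
  have hle : ∀ Q : 𝒬, (OnQ χ).indicator w Q.1 ≤
      ((T₀ : Set 𝒬)ᶜ).indicator (fun Q : 𝒬 => w Q.1) Q + (InQ (⋃₀ g)).indicator w Q.1 := by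
    intro Q
    by_cases hQ : Q.1 ∈ OnQ χ
    · rw [indicator_of_mem hQ]
      by_cases hQg : Q.1.car ⊆ ⋃₀ g
      · rw [indicator_of_mem (show Q.1 ∈ InQ (⋃₀ g) from hQg)]
        have : 0 ≤ ((T₀ : Set 𝒬)ᶜ).indicator (fun Q : 𝒬 => w Q.1) Q :=
          indicator_nonneg (fun _ _ => h0 _) _
        linarith
      · have hQT : Q ∉ T₀ := by
          intro hQT
          obtain ⟨p, hp, hne⟩ := hQ
          by_cases hpS : p ∈ S
          · have h1 := (hSN hpS).2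
            exact h1 (mem_iUnion₂.2 ⟨Q, Finset.mem_filter.2 ⟨hQT, hQg⟩, hp⟩)
          · exact hne (hχ0 p (hE.sub Q.1 Q.2 hp) hpS)
        rw [indicator_of_mem (show Q ∈ (T₀ : Set 𝒬)ᶜ from hQT)]
        have : 0 ≤ (InQ (⋃₀ g)).indicator w Q.1 := indicator_nonneg (fun _ _ => h0 _) _
        linarith
    · rw [indicator_of_notMem hQ]
      exact add_nonneg (indicator_nonneg (fun _ _ => h0 _) _)
        (indicator_nonneg (fun _ _ => h0 _) _)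
  calc ∑' Q : 𝒬, (OnQ χ).indicator w Q.1
      ≤ ∑' Q : 𝒬, (((T₀ : Set 𝒬)ᶜ).indicator (fun Q : 𝒬 => w Q.1) Q +
        (InQ (⋃₀ g)).indicator w Q.1) := hsum3.tsum_le_tsum hle (hsum2.add hsum1)
    _ = ∑' Q : 𝒬, ((T₀ : Set 𝒬)ᶜ).indicator (fun Q : 𝒬 => w Q.1) Q +
        ∑' Q : 𝒬, (InQ (⋃₀ g)).indicator w Q.1 := hsum2.tsum_add hsum1
    _ ≤ _ := by gcongr

/-! ### the two abstract conclusions -/

/-- the sum over the squares inside `G` against the area -/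
theorem sum_in_le {G : Set (ℝ × ℝ)} {φ : Sqr → ℝ} (h0 : ∀ Q, 0 ≤ φ Q)
    (hs : Summable fun Q : 𝒬 => Q.1.s * φ Q.1) (hφ : Summable fun Q : 𝒬 => φ Q.1 ^ 2) {c A : ℝ}
    (hc : SqSub 𝒬 G c) (hA : ∑' Q : 𝒬, φ Q.1 ^ 2 ≤ A) :
    ∑' Q : 𝒬, (InQ G).indicator (fun Q => Q.s * φ Q) Q.1 ≤ √c * √A := by
  classical
  have hc0 : 0 ≤ c := by simpa using hc ∅ (by simp)
  have hs' : Summable fun Q : 𝒬 => (InQ G).indicator (fun Q => Q.s * φ Q) Q.1 := by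
    have hn : ∀ Q : Sqr, 0 ≤ Q.s * φ Q := fun Q => mul_nonneg Q.hs.le (h0 Q)
    refine Summable.of_nonneg_of_le (fun Q => indicator_nonneg (fun _ _ => hn _) _)
      (fun Q => ?_) hs
    exact indicator_le_self' (fun _ _ => hn _) _
  refine hs'.tsum_le_of_sum_le fun t => ?_
  have h1 : ∑ Q ∈ t, (InQ G).indicator (fun Q => Q.s * φ Q) Q.1 =
      ∑ Q ∈ t.filter (fun Q : 𝒬 => Q.1 ∈ InQ G), Q.1.s * φ Q.1 := by
    rw [Finset.sum_filter]
    refine Finset.sum_congr rfl fun Q _ => ?_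
    by_cases h : Q.1 ∈ InQ G
    · rw [indicator_of_mem h, if_pos h]
    · rw [indicator_of_notMem h, if_neg h]
  rw [h1]
  have h2 : ∑ Q ∈ t.filter (fun Q : 𝒬 => Q.1 ∈ InQ G), Q.1.s ^ 2 ≤ c := by
    have h3 := hc ((t.filter (fun Q : 𝒬 => Q.1 ∈ InQ G)).map (Function.Embedding.subtype _))
      (fun Q hQ => by
        obtain ⟨Q', hQ', rfl⟩ := Finset.mem_map.1 hQ
        exact ⟨Q'.2, (Finset.mem_filter.1 hQ').2⟩)
    rwa [Finset.sum_map] at h3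
  have h3 : ∑ Q ∈ t.filter (fun Q : 𝒬 => Q.1 ∈ InQ G), φ Q.1 ^ 2 ≤ A :=
    (hφ.sum_le_tsum _ fun _ _ => sq_nonneg _).trans hA
  have h4 := Finset.sum_mul_sq_le_sq_mul_sq (t.filter (fun Q : 𝒬 => Q.1 ∈ InQ G))
    (fun Q => Q.1.s) (fun Q => φ Q.1)
  have hA0 : 0 ≤ A := (tsum_nonneg fun _ => sq_nonneg _).trans hA
  rw [← Real.sqrt_mul hc0]
  refine Real.le_sqrt_of_sq_le (h4.trans ?_)
  exact mul_le_mul h2 h3 (Finset.sum_nonneg fun _ _ => sq_nonneg _) hc0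

/-- **conclusion for families**: `D² m ≤ A c` -/
theorem concl_pairs (hE : QPic E 𝒬 𝓗) (hg : g ⊆ Comps E) (hgc : IsCompact (⋃₀ g))
    (hR : IsOpen R) (hgR : ⋃₀ g ⊆ R) {φ : Sqr → ℝ} (h0 : ∀ Q, 0 ≤ φ Q)
    (hφ : Summable fun Q : 𝒬 => φ Q.1 ^ 2) {D m A : ℝ} (hD : 0 ≤ D) (hm : 0 ≤ m) (hA0 : 0 ≤ A)
    (hA : ∑' Q : 𝒬, φ Q.1 ^ 2 ≤ A * m)
    (h : ∀ χ, Cut E R g χ → D * m ≤ ∑' Q : 𝒬, (OnQ χ).indicator (fun Q => Q.s * φ Q) Q.1)
    {c : ℝ} (hc : SqSub 𝒬 (⋃₀ g) c) : D ^ 2 * m ≤ A * c := by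
  have hs : Summable fun Q : 𝒬 => Q.1.s * φ Q.1 := by
    refine Summable.of_nonneg_of_le (fun Q => mul_nonneg Q.1.hs.le (h0 _)) (fun Q => ?_)
      (hE.summable_sq.add hφ)
    nlinarith [sq_nonneg (Q.1.s - φ Q.1), sq_nonneg Q.1.s, sq_nonneg (φ Q.1)]
  have hc0 : 0 ≤ c := by simpa using hc ∅ (by simp)
  have h1 : D * m ≤ √c * √(A * m) := by
    refine le_of_forall_pos_le_add fun ε hε => ?_
    obtain ⟨χ, hχ, hχ1⟩ := exists_cut hE hg hgc hR hgR (w := fun Q => Q.s * φ Q) hs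
      (fun Q => mul_nonneg Q.hs.le (h0 Q)) hε
    have h2 := sum_in_le h0 hs hφ hc hA
    linarith [h χ hχ]
  rw [← Real.sqrt_mul hc0] at h1
  rcases hm.eq_or_lt with h2 | h2
  · rw [← h2, mul_zero]; positivity
  · have h3 : (D * m) ^ 2 ≤ c * (A * m) := by
      have h4 := pow_le_pow_left₀ (by positivity : 0 ≤ D * m) h1 2
      rwa [Real.sq_sqrt (by positivity)] at h4
    have h5 : D ^ 2 * m * m ≤ A * c * m := by nlinarith
    exact le_of_mul_le_mul_right h5 h2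

/-- **conclusion for one solid** `Q₀` with exempt component: `D m ≤ s₀ m`, so `m = 0` if `s₀ < D`. -/
theorem concl_single (hE : QPic E 𝒬 𝓗) {Q₀ : Sqr} (hQ₀ : Q₀ ∈ 𝒬) (hR : IsOpen R)
    (hgR : comp E Q₀ ⊆ R) (h0 : ∀ Q, 0 ≤ w Q) (hw : Summable fun Q : 𝒬 => w Q.1)
    {D m : ℝ} (hm : 0 ≤ m) (hD : Q₀.s < D)
    (h : ∀ M > 0, ∀ χ, Cut E R {comp E Q₀} χ → D * m ≤ Q₀.s * (m + 2 * M) +
      ∑' Q : 𝒬, (OnQ χ \ {Q₀}).indicator w Q.1) : m = 0 := by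
  classical
  have hcm := comp_mem hE hQ₀
  have hsU : ⋃₀ ({comp E Q₀} : Set (Set (ℝ × ℝ))) = comp E Q₀ := sUnion_singleton _
  set w' : Sqr → ℝ := fun Q => if Q = Q₀ then 0 else w Q with hw'
  have h0' : ∀ Q, 0 ≤ w' Q := fun Q => by
    rw [hw']; simp only; split_ifs
    · exact le_rfl
    · exact h0 Q
  have hs' : Summable fun Q : 𝒬 => w' Q.1 := by
    refine Summable.of_nonneg_of_le (fun Q => h0' Q.1) (fun Q => ?_) hw
    rw [hw']; simp only; split_ifs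
    · exact h0 _
    · exact le_rfl
  have hin : ∑' Q : 𝒬, (InQ (⋃₀ {comp E Q₀})).indicator w' Q.1 = 0 := by
    rw [hsU]
    have hz : ∀ Q : 𝒬, (InQ (comp E Q₀)).indicator w' Q.1 = 0 := by
      intro Q
      by_cases hQ : Q.1 ∈ InQ (comp E Q₀)
      · rw [indicator_of_mem hQ]
        have : Q.1 = Q₀ := eq_of_comp_eq hE Q.2 hQ₀ (eq_comp hE Q.2 hcm hQ).symm
        rw [hw']; simp only; rw [if_pos this]
      · rw [indicator_of_notMem hQ]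
    simp only [hz, tsum_zero]
  have key : D * m ≤ Q₀.s * m := by
    refine le_of_forall_pos_le_add fun ε hε => ?_
    have hM : 0 < ε / (4 * Q₀.s) := by have := Q₀.hs; positivity
    obtain ⟨χ, hχ, hχ1⟩ := exists_cut hE (g := {comp E Q₀}) (singleton_subset_iff.2 hcm)
      (by rw [hsU]; exact isCompact_comp hE hcm) hR (by rw [hsU]; exact hgR) hs' h0'
      (half_pos hε)
    rw [hin, add_zero] at hχ1
    have h2 := h _ hM χ hχ
    have h3 : ∑' Q : 𝒬, (OnQ χ \ {Q₀}).indicator w Q.1 = ∑' Q : 𝒬, (OnQ χ).indicator w' Q.1 := by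
      refine tsum_congr fun Q => ?_
      by_cases h1 : Q.1 ∈ OnQ χ
      · by_cases h4 : Q.1 = Q₀
        · rw [indicator_of_notMem (fun h => h.2 h4), indicator_of_mem h1]
          rw [hw']; simp only; rw [if_pos h4]
        · rw [indicator_of_mem (show Q.1 ∈ OnQ χ \ {Q₀} from ⟨h1, h4⟩), indicator_of_mem h1]
          rw [hw']; simp only; rw [if_neg h4]
      · rw [indicator_of_notMem (fun h => h1 h.1), indicator_of_notMem h1]
    rw [h3] at h2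
    have h4 : Q₀.s * (m + 2 * (ε / (4 * Q₀.s))) = Q₀.s * m + ε / 2 := by
      have := Q₀.hs.ne'
      field_simp
      ring
    rw [h4] at h2
    linarith
  nlinarith

end Crest.Agent.R105.Shr_306
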