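import Mathlib

/-!
R105 / Sig1_731: Hurwitz and Montel.
-/

set_option autoImplicit false

open Set Metric Filter Complex
open scoped Topology

namespace Crest.Agent.R105.Sig731

/-- Minimum modulus form of Hurwitz: if `g` is holomorphic and zero free on a closed ball then the
minimum of its modulus over the sphere bounds the modulus at the centre. -/
theorem exists_zero_of_small {g : ℂ → ℂ} {c : ℂ} {r δ : ℝ} (hr : 0 < r) (hδ : 0 < δ)
    (hd : DifferentiableOn ℂ g (closedBall c r)) (hs : ∀ z ∈ sphere c r, δ ≤ ‖g z‖)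
    (hc : ‖g c‖ < δ) : ∃ z ∈ ball c r, g z = 0 := by
  by_contra hne
  push Not at hne
  have hne' : ∀ z ∈ closedBall c r, g z ≠ 0 := by
    intro z hz h0
    rcases (mem_closedBall.1 hz).lt_or_eq with h | h
    · exact hne z (mem_ball.2 h) h0
    · have := hs z (mem_sphere.2 h)
      rw [h0, norm_zero] at this
      linarith
  have hcl : closure (ball c r) = closedBall c r := closure_ball c hr.ne'
  have hdc : DiffContOnCl ℂ (fun z => (g z)⁻¹) (ball c r) := by
    apply DifferentiableOn.diffContOnCl
    rw [hcl]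
    exact hd.inv hne'
  have := Complex.norm_le_of_forall_mem_frontier_norm_le (isBounded_ball) hdc (C := δ⁻¹)
    (fun z hz => by
      rw [frontier_ball c hr.ne'] at hz
      rw [norm_inv]
      exact inv_anti₀ hδ (hs z hz)) (z := c) (subset_closure (mem_ball_self hr))
  rw [norm_inv] at this
  have h0 : 0 < ‖g c‖ := norm_pos_iff.2 (hne' c (mem_closedBall_self hr.le))
  have := (inv_le_inv₀ h0 hδ).1 this
  linarith

/-- If `f` is analytic on an open preconnected set and not constant, then around each point `c`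
there are arbitrarily small circles on which `f - f c` is bounded away from zero. -/
theorem exists_radius {f : ℂ → ℂ} {U : Set ℂ} (hU : IsOpen U) (hUc : IsPreconnected U)
    (hf : DifferentiableOn ℂ f U) {c : ℂ} (hc : c ∈ U) (hnc : ¬ ∀ z ∈ U, f z = f c)
    {ρ : ℝ} (hρ : 0 < ρ) :
    ∃ r, 0 < r ∧ r < ρ ∧ closedBall c r ⊆ U ∧ ∃ δ > 0, ∀ z ∈ sphere c r, δ ≤ ‖f z - f c‖ := by
  have han : AnalyticOnNhd ℂ f U := hf.analyticOnNhd hU
  have hac : AnalyticAt ℂ (fun z => f z - f c) c := (han c hc).sub analyticAt_const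
  rcases hac.eventually_eq_zero_or_eventually_ne_zero with h | h
  · exfalso
    apply hnc
    have := (han.sub (analyticOnNhd_const (v := f c))).eqOn_zero_of_preconnected_of_eventuallyEq_zero
      hUc hc h
    intro z hz
    have := this hz
    simpa [sub_eq_zero] using this
  · rw [eventually_nhdsWithin_iff] at h
    obtain ⟨ε, hε, hε'⟩ := Metric.eventually_nhds_iff.1 h
    obtain ⟨ε2, hε2, hε2'⟩ := Metric.isOpen_iff.1 hU c hc
    set r := min (min ε ε2) ρ / 2 with hr
    have hr0 : 0 < r := by positivity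
    have hr1 : r < ε := by
      have : min (min ε ε2) ρ ≤ ε := (min_le_left _ _).trans (min_le_left _ _)
      have : 0 < min (min ε ε2) ρ := by positivity
      linarith
    have hr2 : r < ε2 := by
      have : min (min ε ε2) ρ ≤ ε2 := (min_le_left _ _).trans (min_le_right _ _)
      have : 0 < min (min ε ε2) ρ := by positivity
      linarith
    have hr3 : r < ρ := by
      have : min (min ε ε2) ρ ≤ ρ := min_le_right _ _
      have : 0 < min (min ε ε2) ρ := by positivity
      linarith
    have hsub : closedBall c r ⊆ U := (closedBall_subset_ball hr2).trans hε2'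
    refine ⟨r, hr0, hr3, hsub, ?_⟩
    have hcomp : IsCompact (sphere c r) := isCompact_sphere c r
    have hne : (sphere c r).Nonempty := NormedSpace.sphere_nonempty.mpr hr0.le
    have hcont : ContinuousOn (fun z => ‖f z - f c‖) (sphere c r) :=
      ((hf.continuousOn.mono (sphere_subset_closedBall.trans hsub)).sub continuousOn_const).norm
    obtain ⟨z0, hz0, hmin⟩ := hcomp.exists_isMinOn hne hcont
    refine ⟨‖f z0 - f c‖, ?_, fun z hz => hmin hz⟩
    have hz0' : dist z0 c = r := mem_sphere.1 hz0
    have : f z0 - f c ≠ 0 := hε' (by rw [hz0']; exact hr1) (by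
      intro h
      rw [mem_singleton_iff.1 h, dist_self] at hz0'
      linarith)
    exact norm_pos_iff.2 this

/-- Uniform surjectivity (Hurwitz, quantitative): if `F n → f` locally uniformly on `U`, `f` not
constant, then every `w` close to `f c` is a value of `F n` near `c`, for all large `n`. -/
theorem hurwitz_value {ι : Type*} {l : Filter ι} {F : ι → ℂ → ℂ} {f : ℂ → ℂ} {U : Set ℂ}
    (hU : IsOpen U) (hUc : IsPreconnected U) (hF : ∀ᶠ n in l, DifferentiableOn ℂ (F n) U)
    (hf : DifferentiableOn ℂ f U)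
    (hlim : TendstoLocallyUniformlyOn F f l U) {c : ℂ} (hc : c ∈ U)
    (hnc : ¬ ∀ z ∈ U, f z = f c) {ρ : ℝ} (hρ : 0 < ρ) :
    ∃ η > 0, ∀ᶠ n in l, ∀ w ∈ ball (f c) η, ∃ z ∈ ball c ρ ∩ U, F n z = w := by
  obtain ⟨r, hr0, hrρ, hsub, δ, hδ, hs⟩ := exists_radius hU hUc hf hc hnc hρ
  have hunif : TendstoUniformlyOn F f l (closedBall c r) :=
    (tendstoLocallyUniformlyOn_iff_forall_isCompact hU).1 hlim _ hsub (isCompact_closedBall c r)
  refine ⟨δ / 4, by positivity, ?_⟩
  have h1 := Metric.tendstoUniformlyOn_iff.1 hunif (δ / 4) (by positivity)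
  filter_upwards [h1, hF] with n hn hFn
  intro w hw
  obtain ⟨z, hz, hz0⟩ := exists_zero_of_small (g := fun z => F n z - w) (c := c) (r := r)
    (δ := δ / 2) hr0 (by positivity) ((hFn.mono hsub).sub (differentiableOn_const _))
    (by
      intro z hz
      have h2 := hs z hz
      have h3 := hn z (sphere_subset_closedBall hz)
      have h4 := mem_ball.1 hw
      rw [dist_eq_norm] at h3 h4
      have : f z - f c = (F n z - w) + (f z - F n z) + (w - f c) := by ring
      have h5 : ‖f z - f c‖ ≤ ‖F n z - w‖ + ‖f z - F n z‖ + ‖w - f c‖ := by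
        rw [this]; exact norm_add₃_le
      linarith)
    (by
      have h3 := hn c (mem_closedBall_self hr0.le)
      have h4 := mem_ball.1 hw
      rw [dist_eq_norm] at h3 h4
      have : F n c - w = -(f c - F n c) - (w - f c) := by ring
      have h5 : ‖F n c - w‖ ≤ ‖f c - F n c‖ + ‖w - f c‖ := by
        rw [this]
        refine (norm_sub_le _ _).trans ?_
        rw [norm_neg]
      linarith)
  refine ⟨z, ⟨ball_subset_ball hrρ.le hz, hsub (ball_subset_closedBall hz)⟩, ?_⟩
  simpa [sub_eq_zero] using hz0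

/-- **Hurwitz**: a locally uniform limit of injective holomorphic functions is injective or
constant. -/
theorem hurwitz_injOn {ι : Type*} {l : Filter ι} [l.NeBot] {F : ι → ℂ → ℂ} {f : ℂ → ℂ} {U : Set ℂ}
    (hU : IsOpen U) (hUc : IsPreconnected U) (hF : ∀ᶠ n in l, DifferentiableOn ℂ (F n) U)
    (hinj : ∀ᶠ n in l, InjOn (F n) U)
    (hlim : TendstoLocallyUniformlyOn F f l U)
    (hnc : ¬ ∃ w, ∀ z ∈ U, f z = w) : InjOn f U := by
  have hf : DifferentiableOn ℂ f U := hlim.differentiableOn hF hU
  have hnc' : ∀ a, ¬ ∀ z ∈ U, f z = f a := fun a h => hnc ⟨f a, h⟩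
  intro a ha b hb hab
  by_contra hne
  have hd : 0 < dist a b := dist_pos.2 hne
  obtain ⟨η1, hη1, h1⟩ := hurwitz_value hU hUc hF hf hlim ha (hnc' a) (ρ := dist a b / 2)
    (by positivity)
  obtain ⟨η2, hη2, h2⟩ := hurwitz_value hU hUc hF hf hlim hb (hnc' b) (ρ := dist a b / 2)
    (by positivity)
  obtain ⟨n, h1n, h2n, hin⟩ := (h1.and (h2.and hinj)).exists
  obtain ⟨z1, hz1, hz1'⟩ := h1n (f a) (mem_ball_self hη1)
  obtain ⟨z2, hz2, hz2'⟩ := h2n (f a) (by rw [hab]; exact mem_ball_self hη2)
  have : z1 = z2 := hin hz1.2 hz2.2 (by rw [hz1', hz2'])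
  subst this
  have e1 := mem_ball.1 hz1.1
  have e2 := mem_ball.1 hz2.1
  have := dist_triangle_left a b z1
  linarith

/-- **Montel** (sequential form). -/
theorem montel {U : Set ℂ} (hU : IsOpen U) {F : ℕ → ℂ → ℂ}
    (hF : ∀ n, DifferentiableOn ℂ (F n) U)
    (hb : ∀ z ∈ U, ∃ r > 0, ∃ M : ℝ, ∀ n, ∀ w ∈ ball z r ∩ U, ‖F n w‖ ≤ M) :
    ∃ φ : ℕ → ℕ, StrictMono φ ∧ ∃ f : ℂ → ℂ, DifferentiableOn ℂ f U ∧
      TendstoLocallyUniformlyOn (fun n => F (φ n)) f atTop U := by
  have key : ∀ x : U, ∃ r > 0, ∃ M : ℝ, ∀ n, ‖F n x‖ ≤ M ∧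
      ∀ y : U, dist y x < r → dist (F n y) (F n x) ≤ (M / r) * dist (y : ℂ) x := by
    rintro ⟨x, hx⟩
    obtain ⟨r, hr, M, hM⟩ := hb x hx
    obtain ⟨ε, hε, hεU⟩ := Metric.isOpen_iff.1 hU x hx
    set s := min r ε / 3 with hs
    have hm : 0 < min r ε := lt_min hr hε
    have hs0 : 0 < s := by positivity
    have hsr : 3 * s ≤ r := by rw [hs]; linarith [min_le_left r ε]
    have hsε : 3 * s ≤ ε := by rw [hs]; linarith [min_le_right r ε]
    refine ⟨s, hs0, M, fun n => ⟨hM n x ⟨mem_ball_self hr, hx⟩, ?_⟩⟩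
    rintro ⟨y, hy⟩ hyx
    have hyx' : dist y x < s := hyx
    have hsub : ∀ z ∈ ball x s, closedBall z s ⊆ ball x r ∩ U := by
      intro z hz w hw
      have h1 := mem_ball.1 hz
      have h2 := mem_closedBall.1 hw
      have h3 := dist_triangle w z x
      exact ⟨mem_ball.2 (by linarith), hεU (mem_ball.2 (by linarith))⟩
    have hder : ∀ z ∈ ball x s, ‖deriv (F n) z‖ ≤ M / s := by
      intro z hz
      apply Complex.norm_deriv_le_of_forall_mem_sphere_norm_le hs0
      · apply DifferentiableOn.diffContOnCl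
        rw [closure_ball z hs0.ne']
        exact (hF n).mono fun w hw => (hsub z hz hw).2
      · intro w hw
        exact hM n w (hsub z hz (sphere_subset_closedBall hw))
    have hda : ∀ z ∈ ball x s, DifferentiableAt ℂ (F n) z := fun z hz =>
      ((hF n) z (hsub z hz (mem_closedBall_self hs0.le)).2).differentiableAt
        (hU.mem_nhds (hsub z hz (mem_closedBall_self hs0.le)).2)
    have := (convex_ball x s).norm_image_sub_le_of_norm_deriv_le hda hder
      (mem_ball_self hs0) (mem_ball.2 hyx')
    rw [dist_eq_norm, dist_eq_norm]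
    exact this
  choose r hr M hM using key
  let cond : (U → ℂ) → Prop := fun g => (∀ x, ‖g x‖ ≤ M x) ∧
      ∀ x y : U, dist y x < r x → dist (g y) (g x) ≤ (M x / r x) * dist (y : ℂ) x
  let S : Set C(U, ℂ) := {g | cond g}
  have himg : ContinuousMap.toFun '' S = {g : U → ℂ | cond g} := by
    ext g
    constructor
    · rintro ⟨h, hh, rfl⟩
      exact hh
    · intro hg
      have hcont : Continuous g := by
        rw [continuous_iff_continuousAt]
        intro x
        rw [Metric.continuousAt_iff]
        intro ε hε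
        have hMx : 0 ≤ M x := (norm_nonneg _).trans (hg.1 x)
        have hL : 0 ≤ M x / r x := div_nonneg hMx (hr x).le
        refine ⟨min (r x) (ε / (M x / r x + 1)), by have := hr x; positivity, fun {y} hy => ?_⟩
        have h1 := hg.2 x y (lt_of_lt_of_le hy (min_le_left _ _))
        have h2 : dist y x < ε / (M x / r x + 1) := lt_of_lt_of_le hy (min_le_right _ _)
        rw [lt_div_iff₀ (by positivity)] at h2
        have h3 : dist (y : ℂ) x = dist y x := rfl
        rw [h3] at h1
        have h4 : (M x / r x) * dist y x ≤ dist y x * (M x / r x + 1) := by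
          have : 0 ≤ dist y x := dist_nonneg
          nlinarith
        linarith
      exact ⟨⟨g, hcont⟩, hg, rfl⟩
  have hS1 : IsCompact (ContinuousMap.toFun '' S) := by
    rw [himg]
    have hcl : IsClosed {g : U → ℂ | cond g} := by
      have : {g : U → ℂ | cond g} = (⋂ x, {g : U → ℂ | ‖g x‖ ≤ M x}) ∩
          ⋂ x, ⋂ y, ⋂ (_ : dist y x < r x), {g : U → ℂ | dist (g y) (g x) ≤
            (M x / r x) * dist (y : ℂ) x} := by
        ext g
        simp only [cond, mem_setOf_eq, mem_inter_iff, mem_iInter]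
      rw [this]
      refine (isClosed_iInter fun x => isClosed_le (continuous_apply x).norm continuous_const).inter
        (isClosed_iInter fun x => isClosed_iInter fun y => isClosed_iInter fun _ =>
          isClosed_le ((continuous_apply y).dist (continuous_apply x)) continuous_const)
    have hpi : IsCompact (Set.pi univ fun x : U => closedBall (0 : ℂ) (M x)) :=
      isCompact_univ_pi fun x => isCompact_closedBall _ _
    refine hpi.of_isClosed_subset hcl fun g hg => ?_
    intro x _
    rw [mem_closedBall_zero_iff]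
    exact hg.1 x
  have hS2 : Equicontinuous ((↑) : S → U → ℂ) := by
    intro x
    rw [Metric.equicontinuousAt_iff]
    intro ε hε
    have hr' := hr x
    by_cases hMx : 0 ≤ M x
    · have hL : 0 ≤ M x / r x := div_nonneg hMx (hr x).le
      refine ⟨min (r x) (ε / (M x / r x + 1)), by positivity, fun y hy g => ?_⟩
      have h1 := g.2.2 x y (lt_of_lt_of_le hy (min_le_left _ _))
      have h2 : dist y x < ε / (M x / r x + 1) := lt_of_lt_of_le hy (min_le_right _ _)
      rw [lt_div_iff₀ (by positivity)] at h2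
      have h3 : dist (y : ℂ) x = dist y x := rfl
      rw [h3] at h1
      have h4 : (M x / r x) * dist y x ≤ dist y x * (M x / r x + 1) := by
        have : 0 ≤ dist y x := dist_nonneg
        nlinarith
      rw [dist_comm]
      exact lt_of_le_of_lt (h1.trans h4) h2
    · exact ⟨1, one_pos, fun y _ g => absurd ((norm_nonneg _).trans (g.2.1 x)) hMx⟩
  have hSc : IsCompact S := ArzelaAscoli.isCompact_of_equicontinuous S hS1 hS2
  haveI : LocallyCompactSpace U := hU.locallyCompactSpace
  let G : ℕ → C(U, ℂ) := fun n => ⟨fun x => F n x, (hF n).continuousOn.domRestrict⟩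
  have hG : ∀ n, G n ∈ S := fun n => ⟨fun x => (hM x n).1, fun x y h => (hM x n).2 y h⟩
  obtain ⟨g, -, φ, hφ, hlim⟩ := hSc.tendsto_subseq hG
  rw [ContinuousMap.tendsto_iff_tendstoLocallyUniformly] at hlim
  classical
  let f : ℂ → ℂ := fun z => if h : z ∈ U then g ⟨z, h⟩ else 0
  have hlim' : TendstoLocallyUniformlyOn (fun n => F (φ n)) f atTop U := by
    rw [tendstoLocallyUniformlyOn_iff_tendstoLocallyUniformly_comp_coe]
    have : (f ∘ ((↑) : U → ℂ)) = g := by
      ext x
      simp [f]
    rw [this]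
    exact hlim
  exact ⟨φ, hφ, f, hlim'.differentiableOn (Eventually.of_forall fun n => hF (φ n)) hU, hlim'⟩

end Crest.Agent.R105.Sig731
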