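import Crest.Agent.R105.Sig3_731

/-!
R105 / Sig4_731: compactness of the class Sigma, also for variable domains.
-/

set_option autoImplicit false

open Set Metric Filter Complex
open scoped Topology

namespace Crest.Agent.R105.Sig731

/-- Montel, compact set form: the holomorphic functions bounded by a fixed continuous function lie
in a compact subset of `C(U, ℂ)`. -/
theorem montel_compact {U : Set ℂ} (hU : IsOpen U) (B : ℂ → ℝ) (hB : Continuous B) :
    ∃ S : Set C(U, ℂ), IsCompact S ∧ ∀ (F : ℂ → ℂ) (hF : DifferentiableOn ℂ F U),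
      (∀ z ∈ U, ‖F z‖ ≤ B z) → (⟨fun z : U => F z, hF.continuousOn.domRestrict⟩ : C(U, ℂ)) ∈ S := by
  have key : ∀ x : U, ∃ r > 0, ∃ M : ℝ, 0 ≤ M ∧ ∀ F : ℂ → ℂ, DifferentiableOn ℂ F U →
      (∀ z ∈ U, ‖F z‖ ≤ B z) → ‖F x‖ ≤ M ∧
      ∀ y : U, dist y x < r → dist (F y) (F x) ≤ (M / r) * dist (y : ℂ) x := by
    rintro ⟨x, hx⟩
    obtain ⟨ε0, hε0, hε0'⟩ := Metric.continuous_iff.1 hB x 1 one_pos
    obtain ⟨ε, hε, hεU⟩ := Metric.isOpen_iff.1 hU x hx
    set s := min ε0 ε / 3 with hs
    have hm : 0 < min ε0 ε := lt_min hε0 hε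
    have hs0 : 0 < s := by positivity
    have hsr : 3 * s ≤ ε0 := by rw [hs]; linarith [min_le_left ε0 ε]
    have hsε : 3 * s ≤ ε := by rw [hs]; linarith [min_le_right ε0 ε]
    refine ⟨s, hs0, |B x| + 1, by positivity, fun F hF hFB => ⟨?_, ?_⟩⟩
    · exact (hFB x hx).trans ((le_abs_self _).trans (by linarith))
    rintro ⟨y, hy⟩ hyx
    have hyx' : dist y x < s := hyx
    have hMM : ∀ w ∈ ball x ε0 ∩ U, ‖F w‖ ≤ |B x| + 1 := by
      intro w hw
      have h1 := hε0' w (mem_ball.1 hw.1)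
      rw [Real.dist_eq] at h1
      have h2 := (abs_lt.1 h1).2
      have h3 := hFB w hw.2
      have h4 := le_abs_self (B x)
      linarith
    have hsub : ∀ z ∈ ball x s, closedBall z s ⊆ ball x ε0 ∩ U := by
      intro z hz w hw
      have h1 := mem_ball.1 hz
      have h2 := mem_closedBall.1 hw
      have h3 := dist_triangle w z x
      exact ⟨mem_ball.2 (by linarith), hεU (mem_ball.2 (by linarith))⟩
    have hder : ∀ z ∈ ball x s, ‖deriv F z‖ ≤ (|B x| + 1) / s := by
      intro z hz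
      apply Complex.norm_deriv_le_of_forall_mem_sphere_norm_le hs0
      · apply DifferentiableOn.diffContOnCl
        rw [closure_ball z hs0.ne']
        exact hF.mono fun w hw => (hsub z hz hw).2
      · intro w hw
        exact hMM w (hsub z hz (sphere_subset_closedBall hw))
    have hda : ∀ z ∈ ball x s, DifferentiableAt ℂ F z := fun z hz =>
      (hF z (hsub z hz (mem_closedBall_self hs0.le)).2).differentiableAt
        (hU.mem_nhds (hsub z hz (mem_closedBall_self hs0.le)).2)
    have := (convex_ball x s).norm_image_sub_le_of_norm_deriv_le hda hder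
      (mem_ball_self hs0) (mem_ball.2 hyx')
    rw [dist_eq_norm, dist_eq_norm]
    exact this
  choose r hr M hM0 hM using key
  let cond : (U → ℂ) → Prop := fun g => (∀ x, ‖g x‖ ≤ M x) ∧
      ∀ x y : U, dist y x < r x → dist (g y) (g x) ≤ (M x / r x) * dist (y : ℂ) x
  let S : Set C(U, ℂ) := {g | cond g}
  have himg : ContinuousMap.toFun '' S = {g : U → ℂ | cond g} := by
    ext g
    constructor
    · rintro ⟨h, hh, rfl⟩
      exact hh
    · intro hg
      have hcont : Continuous g := by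
        rw [continuous_iff_continuousAt]
        intro x
        rw [Metric.continuousAt_iff]
        intro ε hε
        have hL : 0 ≤ M x / r x := div_nonneg (hM0 x) (hr x).le
        refine ⟨min (r x) (ε / (M x / r x + 1)), by have := hr x; positivity, fun {y} hy => ?_⟩
        have h1 := hg.2 x y (lt_of_lt_of_le hy (min_le_left _ _))
        have h2 : dist y x < ε / (M x / r x + 1) := lt_of_lt_of_le hy (min_le_right _ _)
        rw [lt_div_iff₀ (by positivity)] at h2
        have h3 : dist (y : ℂ) x = dist y x := rfl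
        rw [h3] at h1
        have h4 : (M x / r x) * dist y x ≤ dist y x * (M x / r x + 1) := by
          have : 0 ≤ dist y x := dist_nonneg
          nlinarith
        linarith
      exact ⟨⟨g, hcont⟩, hg, rfl⟩
  have hS1 : IsCompact (ContinuousMap.toFun '' S) := by
    rw [himg]
    have hcl : IsClosed {g : U → ℂ | cond g} := by
      have : {g : U → ℂ | cond g} = (⋂ x, {g : U → ℂ | ‖g x‖ ≤ M x}) ∩
          ⋂ x, ⋂ y, ⋂ (_ : dist y x < r x), {g : U → ℂ | dist (g y) (g x) ≤
            (M x / r x) * dist (y : ℂ) x} := by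
        ext g
        simp only [cond, mem_ofPred_eq, mem_inter_iff, mem_iInter]
      rw [this]
      refine (isClosed_iInter fun x => isClosed_le (continuous_apply x).norm continuous_const).inter
        (isClosed_iInter fun x => isClosed_iInter fun y => isClosed_iInter fun _ =>
          isClosed_le ((continuous_apply y).dist (continuous_apply x)) continuous_const)
    have hpi : IsCompact (Set.pi univ fun x : U => closedBall (0 : ℂ) (M x)) :=
      isCompact_univ_pi fun x => isCompact_closedBall _ _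
    refine hpi.of_isClosed_subset hcl fun g hg => ?_
    intro x _
    rw [mem_closedBall_zero_iff]
    exact hg.1 x
  have hS2 : Equicontinuous ((↑) : S → U → ℂ) := by
    intro x
    rw [Metric.equicontinuousAt_iff]
    intro ε hε
    have hr' := hr x
    have hL : 0 ≤ M x / r x := div_nonneg (hM0 x) (hr x).le
    refine ⟨min (r x) (ε / (M x / r x + 1)), by positivity, fun y hy g => ?_⟩
    have h1 := g.2.2 x y (lt_of_lt_of_le hy (min_le_left _ _))
    have h2 : dist y x < ε / (M x / r x + 1) := lt_of_lt_of_le hy (min_le_right _ _)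
    rw [lt_div_iff₀ (by positivity)] at h2
    have h3 : dist (y : ℂ) x = dist y x := rfl
    rw [h3] at h1
    have h4 : (M x / r x) * dist y x ≤ dist y x * (M x / r x + 1) := by
      have : 0 ≤ dist y x := dist_nonneg
      nlinarith
    rw [dist_comm]
    exact lt_of_le_of_lt (h1.trans h4) h2
  refine ⟨S, ArzelaAscoli.isCompact_of_equicontinuous S hS1 hS2, fun F hF hFB => ?_⟩
  exact ⟨fun x => (hM x F hF hFB).1, fun x y h => (hM x F hF hFB).2 y h⟩

/-- Montel for variable domains: `F n` is holomorphic and bounded by `B` on `W n`, and every compact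
subset of the open set `U` is eventually contained in `W n`. -/
theorem montel_var {U : Set ℂ} (hU : IsOpen U) (B : ℂ → ℝ) (hB : Continuous B)
    {W : ℕ → Set ℂ} (hW : ∀ L ⊆ U, IsCompact L → ∀ᶠ n in atTop, L ⊆ W n) {F : ℕ → ℂ → ℂ}
    (hF : ∀ n, DifferentiableOn ℂ (F n) (W n)) (hFB : ∀ n, ∀ z ∈ W n, ‖F n z‖ ≤ B z) :
    ∃ φ : ℕ → ℕ, StrictMono φ ∧ ∃ f : ℂ → ℂ, DifferentiableOn ℂ f U ∧
      TendstoLocallyUniformlyOn (fun n => F (φ n)) f atTop U := by
  classical
  have : LocallyCompactSpace U := hU.locallyCompactSpace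
  let K : CompactExhaustion U := CompactExhaustion.choice U
  let K' : ℕ → Set ℂ := fun k => ((↑) : U → ℂ) '' K k
  let O : ℕ → Set ℂ := fun k => ((↑) : U → ℂ) '' interior (K k)
  have hK'c : ∀ k, IsCompact (K' k) := fun k => (K.isCompact k).image continuous_subtype_val
  have hK'U : ∀ k, K' k ⊆ U := by
    rintro k _ ⟨x, -, rfl⟩
    exact x.2
  have hOK : ∀ k, O k ⊆ K' k := fun k => image_mono interior_subset
  have hOo : ∀ k, IsOpen (O k) := fun k => hU.isOpenMap_subtype_val _ isOpen_interior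
  have hOU : ∀ z ∈ U, ∃ k, z ∈ O k := by
    intro z hz
    obtain ⟨n, hn⟩ := K.exists_mem ⟨z, hz⟩
    exact ⟨n + 1, ⟨z, hz⟩, K.subset_interior_succ n hn, rfl⟩
  have hev : ∀ k, ∀ᶠ n in atTop, O k ⊆ W n := fun k =>
    (hW (K' k) (hK'U k) (hK'c k)).mono fun n hn => (hOK k).trans hn
  choose S hSc hS using fun k => montel_compact (hOo k) B hB
  have : ∀ k, LocallyCompactSpace (O k) := fun k => (hOo k).locallyCompactSpace
  let x : ℕ → (k : ℕ) → C(O k, ℂ) := fun n k =>
    if h : O k ⊆ W n then ⟨fun z : O k => F n z, ((hF n).mono h).continuousOn.domRestrict⟩ else 0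
  have hxm : ∀ n, x n ∈ Set.pi univ (fun k => S k ∪ {0}) := by
    intro n k _
    by_cases h : O k ⊆ W n
    · left
      have := hS k (F n) ((hF n).mono h) (fun z hz => hFB n z (h hz))
      simp only [x, dif_pos h]
      exact this
    · right
      simp only [x, dif_neg h]
      rfl
  have hcomp : IsCompact (Set.pi univ (fun k => S k ∪ {(0 : C(O k, ℂ))})) :=
    isCompact_univ_pi fun k => (hSc k).union isCompact_singleton
  obtain ⟨g, -, φ, hφ, hlim⟩ := hcomp.tendsto_subseq hxm
  have hlimk : ∀ k, TendstoLocallyUniformly (fun n => (x (φ n) k : O k → ℂ)) (g k) atTop := by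
    intro k
    have := (tendsto_pi_nhds.1 hlim) k
    rw [ContinuousMap.tendsto_iff_tendstoLocallyUniformly] at this
    exact this
  let f : ℂ → ℂ := fun z => if h : ∃ k, z ∈ O k then g (Nat.find h) ⟨z, Nat.find_spec h⟩ else 0
  have hxe : ∀ k, ∀ᶠ n in atTop, ∀ z : O k, x (φ n) k z = F (φ n) z := by
    intro k
    filter_upwards [hφ.tendsto_atTop.eventually (hev k)] with n hn z
    simp only [x, dif_pos hn]
    rfl
  have hfg : ∀ k (z : O k), f z = g k z := by
    intro k z
    have hex : ∃ k, (z : ℂ) ∈ O k := ⟨k, z.2⟩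
    have h1 : f z = g (Nat.find hex) ⟨z, Nat.find_spec hex⟩ := by
      simp only [f, dif_pos hex]
    rw [h1]
    have h2 := (tendstoLocallyUniformlyOn_univ.2 (hlimk (Nat.find hex))).tendsto_at
      (mem_univ (⟨z, Nat.find_spec hex⟩ : O (Nat.find hex)))
    have h3 := (tendstoLocallyUniformlyOn_univ.2 (hlimk k)).tendsto_at (mem_univ z)
    refine tendsto_nhds_unique (f := fun n => F (φ n) z) (l := atTop) ?_ ?_
    · apply h2.congr'
      filter_upwards [hxe (Nat.find hex)] with n hn
      exact hn ⟨z, Nat.find_spec hex⟩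
    · apply h3.congr'
      filter_upwards [hxe k] with n hn
      exact hn z
  have hlimO : ∀ k, TendstoLocallyUniformlyOn (fun n => F (φ n)) f atTop (O k) := by
    intro k
    rw [tendstoLocallyUniformlyOn_iff_tendstoLocallyUniformly_comp_coe]
    intro u hu z
    obtain ⟨t, ht, ht'⟩ := hlimk k u hu z
    refine ⟨t, ht, ?_⟩
    filter_upwards [ht', hxe k] with n hn hn' y hy
    have := hn y hy
    rw [hn' y, ← hfg k y] at this
    exact this
  have hdO : ∀ k, DifferentiableOn ℂ f (O k) := by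
    intro k
    apply (hlimO k).differentiableOn _ (hOo k)
    filter_upwards [hφ.tendsto_atTop.eventually (hev k)] with n hn
    exact (hF (φ n)).mono hn
  refine ⟨φ, hφ, f, ?_, ?_⟩
  · intro z hz
    obtain ⟨k, hk⟩ := hOU z hz
    exact ((hdO k z hk).differentiableAt ((hOo k).mem_nhds hk)).differentiableWithinAt
  · intro u hu z hz
    obtain ⟨k, hk⟩ := hOU z hz
    obtain ⟨t, ht, ht'⟩ := hlimO k u hu z hk
    refine ⟨t, ?_, ht'⟩
    have : 𝓝[O k] z = 𝓝 z := (hOo k).nhdsWithin_eq hk
    rw [this] at ht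
    exact nhdsWithin_le_nhds ht

/-- Local quantitative Hurwitz for variable domains. -/
theorem hurwitz_value_var {ι : Type*} {l : Filter ι} {F : ι → ℂ → ℂ} {f : ℂ → ℂ} {U : Set ℂ}
    (hU : IsOpen U) (hUc : IsPreconnected U)
    (hF : ∀ K ⊆ U, IsCompact K → ∀ᶠ n in l, DifferentiableOn ℂ (F n) K)
    (hf : DifferentiableOn ℂ f U)
    (hlim : TendstoLocallyUniformlyOn F f l U) {c : ℂ} (hc : c ∈ U)
    (hnc : ¬ ∀ z ∈ U, f z = f c) {ρ : ℝ} (hρ : 0 < ρ) :
    ∃ η > 0, ∃ r, 0 < r ∧ r < ρ ∧ closedBall c r ⊆ U ∧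
      ∀ᶠ n in l, ∀ w ∈ ball (f c) η, ∃ z ∈ ball c r, F n z = w := by
  obtain ⟨r, hr0, hrρ, hsub, δ, hδ, hs⟩ := exists_radius hU hUc hf hc hnc hρ
  have hunif : TendstoUniformlyOn F f l (closedBall c r) :=
    (tendstoLocallyUniformlyOn_iff_forall_isCompact hU).1 hlim _ hsub (isCompact_closedBall c r)
  refine ⟨δ / 4, by positivity, r, hr0, hrρ, hsub, ?_⟩
  have h1 := Metric.tendstoUniformlyOn_iff.1 hunif (δ / 4) (by positivity)
  filter_upwards [h1, hF _ hsub (isCompact_closedBall c r)] with n hn hFn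
  intro w hw
  obtain ⟨z, hz, hz0⟩ := exists_zero_of_small (g := fun z => F n z - w) (c := c) (r := r)
    (δ := δ / 2) hr0 (by positivity) (hFn.sub (differentiableOn_const _))
    (by
      intro z hz
      have h2 := hs z hz
      have h3 := hn z (sphere_subset_closedBall hz)
      have h4 := mem_ball.1 hw
      rw [dist_eq_norm] at h3 h4
      have : f z - f c = (F n z - w) + (f z - F n z) + (w - f c) := by ring
      have h5 : ‖f z - f c‖ ≤ ‖F n z - w‖ + ‖f z - F n z‖ + ‖w - f c‖ := by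
        rw [this]; exact norm_add₃_le
      linarith)
    (by
      have h3 := hn c (mem_closedBall_self hr0.le)
      have h4 := mem_ball.1 hw
      rw [dist_eq_norm] at h3 h4
      have : F n c - w = -(f c - F n c) - (w - f c) := by ring
      have h5 : ‖F n c - w‖ ≤ ‖f c - F n c‖ + ‖w - f c‖ := by
        rw [this]
        refine (norm_sub_le _ _).trans ?_
        rw [norm_neg]
      linarith)
  exact ⟨z, hz, by simpa [sub_eq_zero] using hz0⟩

/-- Hurwitz for variable domains. -/
theorem hurwitz_injOn_var {ι : Type*} {l : Filter ι} [l.NeBot] {F : ι → ℂ → ℂ} {f : ℂ → ℂ}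
    {U : Set ℂ} (hU : IsOpen U) (hUc : IsPreconnected U)
    (hF : ∀ K ⊆ U, IsCompact K → ∀ᶠ n in l, DifferentiableOn ℂ (F n) K ∧ InjOn (F n) K)
    (hf : DifferentiableOn ℂ f U)
    (hlim : TendstoLocallyUniformlyOn F f l U)
    (hnc : ¬ ∃ w, ∀ z ∈ U, f z = w) : InjOn f U := by
  have hnc' : ∀ a, ¬ ∀ z ∈ U, f z = f a := fun a h => hnc ⟨f a, h⟩
  intro a ha b hb hab
  by_contra hne
  have hd : 0 < dist a b := dist_pos.2 hne
  obtain ⟨η1, hη1, r1, hr1, hr1', hs1, h1⟩ := hurwitz_value_var hU hUc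
    (fun K hK hKc => (hF K hK hKc).mono fun n hn => hn.1) hf hlim ha (hnc' a) (ρ := dist a b / 2)
    (by positivity)
  obtain ⟨η2, hη2, r2, hr2, hr2', hs2, h2⟩ := hurwitz_value_var hU hUc
    (fun K hK hKc => (hF K hK hKc).mono fun n hn => hn.1) hf hlim hb (hnc' b) (ρ := dist a b / 2)
    (by positivity)
  have h3 := hF (closedBall a r1 ∪ closedBall b r2) (union_subset hs1 hs2)
    ((isCompact_closedBall _ _).union (isCompact_closedBall _ _))
  obtain ⟨n, h1n, h2n, -, hin⟩ := (h1.and (h2.and h3)).exists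
  obtain ⟨z1, hz1, hz1'⟩ := h1n (f a) (mem_ball_self hη1)
  obtain ⟨z2, hz2, hz2'⟩ := h2n (f a) (by rw [hab]; exact mem_ball_self hη2)
  have : z1 = z2 := hin (Or.inl (ball_subset_closedBall hz1)) (Or.inr (ball_subset_closedBall hz2))
    (by rw [hz1', hz2'])
  subst this
  have e1 := mem_ball.1 hz1
  have e2 := mem_ball.1 hz2
  have := dist_triangle_left a b z1
  linarith

section Compact

variable {U : Set ℂ} {R : ℝ} {W : ℕ → Set ℂ} {F : ℕ → ℂ → ℂ}

/-- **Compactness of the class Sigma** for variable domains. -/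
theorem sig_compact_var (hU : IsOpen U) (hUc : IsPreconnected U) (hR : 0 < R)
    (hRU : ∀ z, R < ‖z‖ → z ∈ U) (hWR : ∀ n z, R < ‖z‖ → z ∈ W n)
    (hW : ∀ L ⊆ U, IsCompact L → ∀ᶠ n in atTop, L ⊆ W n) (hF : ∀ n, Sig (W n) (F n)) :
    ∃ φ : ℕ → ℕ, StrictMono φ ∧ ∃ f : ℂ → ℂ, Sig U f ∧
      TendstoLocallyUniformlyOn (fun n => F (φ n)) f atTop U := by
  obtain ⟨φ, hφ, f, hfd, hlim⟩ := montel_var hU (fun z => 33 * (R + ‖z‖)) (by fun_prop) hW
    (fun n => (hF n).1) (fun n z hz => (hF n).norm_le hR (hWR n) hz)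
  have hbd : ∀ z, R < ‖z‖ → ‖f z - z‖ ≤ 66 * R ^ 2 / ‖z‖ := by
    intro z hz
    have h1 := (hlim.tendsto_at (hRU z hz)).sub_const z
    apply le_of_tendsto h1.norm
    exact Eventually.of_forall fun n => (hF (φ n)).norm_sub_le hR (hWR (φ n)) hz
  have hinf : Tendsto (fun z => f z - z) (cocompact ℂ) (𝓝 0) := by
    have h1 : Tendsto (fun z : ℂ => 66 * R ^ 2 / ‖z‖) (cocompact ℂ) (𝓝 0) :=
      tendsto_const_nhds.div_atTop (tendsto_norm_cocompact_atTop (E := ℂ))
    apply squeeze_zero_norm' _ h1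
    have h5 : ∀ᶠ z : ℂ in cocompact ℂ, R < ‖z‖ := by
      have := (isCompact_closedBall (0 : ℂ) R).compl_mem_cocompact
      filter_upwards [this] with z hz
      simpa using hz
    filter_upwards [h5] with z hz
    exact hbd z hz
  refine ⟨φ, hφ, f, ⟨hfd, ?_, hinf⟩, hlim⟩
  apply hurwitz_injOn_var hU hUc _ hfd hlim
  · rintro ⟨w, hw⟩
    obtain ⟨r, hr, hr'⟩ := eventually_norm_gt hinf ‖w‖
    have h1 : r < ‖((max r R + 1 : ℝ) : ℂ)‖ := by
      rw [norm_real, Real.norm_eq_abs, abs_of_pos (by positivity)]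
      have := le_max_left r R
      linarith
    have h2 : R < ‖((max r R + 1 : ℝ) : ℂ)‖ := by
      rw [norm_real, Real.norm_eq_abs, abs_of_pos (by positivity)]
      have := le_max_right r R
      linarith
    have h3 := hr' _ h1
    rw [hw _ (hRU _ h2)] at h3
    exact lt_irrefl _ h3
  · intro K hK hKc
    filter_upwards [hφ.tendsto_atTop.eventually (hW K hK hKc)] with n hn
    exact ⟨(hF (φ n)).1.mono hn, (hF (φ n)).2.1.mono hn⟩

/-- **Compactness of the class Sigma**, fixed domain. -/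
theorem sig_compact (hU : IsOpen U) (hUc : IsPreconnected U) (hR : 0 < R)
    (hRU : ∀ z, R < ‖z‖ → z ∈ U) (hF : ∀ n, Sig U (F n)) :
    ∃ φ : ℕ → ℕ, StrictMono φ ∧ ∃ f : ℂ → ℂ, Sig U f ∧
      TendstoLocallyUniformlyOn (fun n => F (φ n)) f atTop U :=
  sig_compact_var (W := fun _ => U) hU hUc hR hRU (fun _ => hRU)
    (fun _ hL _ => Eventually.of_forall fun _ => hL) hF

end Compact

end Crest.Agent.R105.Sig731
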