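import Crest.Agent.R105.CFcls_363
import Crest.Agent.R105.Skp2_257
import Crest.Agent.R105.Thin1_12

/-!
# Row 105, leaf SINGLE (part 1): locality of the energy, cut-off at a point
-/

namespace Crest.Agent.R105.Sin_925

open Set Filter MeasureTheory Topology Metric
open CF_363 Stp_722 Skp2_257
open scoped ENNReal NNReal

/-! ### locality of the energy -/

theorem g2_zero_off {W S : Set (ℝ × ℝ)} {f : ℝ × ℝ → ℝ} (hW : IsOpen W) (hS : IsClosed S)
    (h : ∀ p ∈ W, p ∉ S → f p = 0) {p : ℝ × ℝ} (hp : p ∈ W) (hpS : p ∉ S) : g2 f p = 0 := by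
  have : f =ᶠ[𝓝 p] fun _ => 0 := by
    filter_upwards [(hW.sdiff hS).mem_nhds ⟨hp, hpS⟩] with q hq
    exact h q hq.1 hq.2
  simp [g2, gx_congr this, gy_congr this]

theorem g2_congr_of {f g : ℝ × ℝ → ℝ} {U : Set (ℝ × ℝ)} (hU : IsOpen U) (h : EqOn f g U)
    {p : ℝ × ℝ} (hp : p ∈ U) : g2 f p = g2 g p := by
  have : f =ᶠ[𝓝 p] g := h.eventuallyEq_of_mem (hU.mem_nhds hp)
  simp only [g2, gx_congr this, gy_congr this]

theorem En_restrict {W B S : Set (ℝ × ℝ)} {f : ℝ × ℝ → ℝ} (hW : IsOpen W)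
    (hS : IsClosed S) (hSB : S ⊆ B) (h : ∀ p ∈ W, p ∉ S → f p = 0) : En W f = En (W ∩ B) f := by
  unfold En
  refine setIntegral_eq_of_subset_of_forall_sdiff_eq_zero hW.measurableSet inter_subset_left ?_
  rintro p ⟨hp, hpB⟩
  exact g2_zero_off hW hS h hp (fun hpS => hpB ⟨hp, hSB hpS⟩)

theorem integrable_of_cpt {𝓗 : Set Hair} {W S : Set (ℝ × ℝ)} {f : ℝ × ℝ → ℝ} (hW : IsOpen W)
    (hf : CFJ 𝓗 W f) (hS : IsCompact S) (h : ∀ p ∈ W, p ∉ S → f p = 0) :
    IntegrableOn (g2 f) W := by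
  obtain ⟨r, hr⟩ := hS.isBounded.subset_ball 0
  refine IntegrableOn.of_forall_sdiff_eq_zero (s := W ∩ ball 0 r) ?_ hW.measurableSet ?_
  · refine (hf.mono subset_rfl inter_subset_left).integrableOn_g2 (hW.inter isOpen_ball) ?_
    exact ((measure_mono inter_subset_right).trans_lt measure_ball_lt_top).ne
  · rintro p ⟨hp, hpB⟩
    exact g2_zero_off hW hS.isClosed h hp (fun hpS => hpB ⟨hp, hr hpS⟩)

theorem En_mono {𝓗 : Set Hair} {W W' S : Set (ℝ × ℝ)} {f : ℝ × ℝ → ℝ} (hW : IsOpen W)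
    (hf : CFJ 𝓗 W f) (hS : IsCompact S) (h : ∀ p ∈ W, p ∉ S → f p = 0) (hW' : W' ⊆ W) :
    En W' f ≤ En W f :=
  setIntegral_mono_set (integrable_of_cpt hW hf hS h) (ae_of_all _ fun p => g2_nonneg f p)
    hW'.eventuallyLE

theorem g2_one_sub (f : ℝ × ℝ → ℝ) (p : ℝ × ℝ) : g2 (fun q => 1 - f q) p = g2 f p := by
  simp only [g2, gx, gy]
  rw [fderiv_const_sub]
  simp

/-! ### cut-off at a point -/

/-- tent: one on the ball of radius `ρ/2`, zero off the ball of radius `ρ`. -/
noncomputable def tent (q : ℝ × ℝ) (ρ : ℝ) (p : ℝ × ℝ) : ℝ :=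
  Max.max 0 (Min.min 1 (2 - 2 * (dist p q / ρ)))

theorem tent_nonneg (q : ℝ × ℝ) (ρ : ℝ) (p : ℝ × ℝ) : 0 ≤ tent q ρ p := le_max_left _ _

theorem tent_le_one (q : ℝ × ℝ) (ρ : ℝ) (p : ℝ × ℝ) : tent q ρ p ≤ 1 :=
  max_le zero_le_one (min_le_left _ _)

theorem tent_one {q : ℝ × ℝ} {ρ : ℝ} (hρ : 0 < ρ) {p : ℝ × ℝ} (h : dist p q ≤ ρ / 2) :
    tent q ρ p = 1 := by
  unfold tent
  have h1 : dist p q / ρ ≤ 1 / 2 := by rw [div_le_iff₀ hρ]; linarith
  rw [min_eq_left (by linarith)]
  exact max_eq_right zero_le_one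

theorem tent_zero {q : ℝ × ℝ} {ρ : ℝ} (hρ : 0 < ρ) {p : ℝ × ℝ} (h : ρ ≤ dist p q) :
    tent q ρ p = 0 := by
  unfold tent
  have h1 : 1 ≤ dist p q / ρ := by rwa [one_le_div hρ]
  exact max_eq_left ((min_le_right _ _).trans (by linarith))

theorem tent_lip {q : ℝ × ℝ} {ρ : ℝ} (hρ : 0 < ρ) :
    LipschitzWith (Real.toNNReal (2 / ρ)) (tent q ρ) := by
  refine LipschitzWith.of_dist_le_mul fun p p' => ?_
  rw [Real.coe_toNNReal _ (by positivity), Real.dist_eq]
  unfold tent
  have h1 := abs_max_sub_max_le_max 0 (Min.min 1 (2 - 2 * (dist p q / ρ))) 0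
    (Min.min 1 (2 - 2 * (dist p' q / ρ)))
  have h2 := abs_min_sub_min_le_max 1 (2 - 2 * (dist p q / ρ)) 1 (2 - 2 * (dist p' q / ρ))
  have h3 : |(2 - 2 * (dist p q / ρ)) - (2 - 2 * (dist p' q / ρ))| ≤ 2 / ρ * dist p p' := by
    have e : (2 - 2 * (dist p q / ρ)) - (2 - 2 * (dist p' q / ρ)) =
        2 / ρ * (dist p' q - dist p q) := by field_simp; ring
    rw [e, abs_mul, abs_of_pos (by positivity : (0 : ℝ) < 2 / ρ)]
    refine mul_le_mul_of_nonneg_left ?_ (by positivity)
    rw [abs_sub_comm]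
    exact abs_dist_sub_le p p' q
  have h4 : (0 : ℝ) ≤ 2 / ρ * dist p p' := by positivity
  rw [sub_self, abs_zero] at h1 h2
  exact h1.trans (max_le h4 (h2.trans (max_le h4 h3)))

theorem tent_cf {q : ℝ × ℝ} {ρ : ℝ} (hρ : 0 < ρ) : CF univ (tent q ρ) :=
  CF_of_lipschitz (tent_lip hρ) (C := 1) fun p _ => by
    rw [abs_of_nonneg (tent_nonneg _ _ _)]; exact tent_le_one _ _ _

theorem volume_ball_plane (q : ℝ × ℝ) {ρ : ℝ} (hρ : 0 ≤ ρ) :
    (volume (ball q ρ)).toReal = 4 * ρ ^ 2 := by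
  obtain ⟨a, b⟩ := q
  rw [← ball_prod_same, Measure.volume_eq_prod, Measure.prod_prod, Real.volume_ball,
    Real.volume_ball, ENNReal.toReal_mul, ENNReal.toReal_ofReal (by positivity)]
  ring

/-- sum of tents -/
noncomputable def tents (q : ℝ × ℝ) (R : ℝ) (m : ℕ) (p : ℝ × ℝ) : ℝ :=
  ∑ k ∈ Finset.range m, tent q (R / 2 ^ k) p

theorem tents_spec (q : ℝ × ℝ) {R : ℝ} (hR : 0 < R) (m : ℕ) :
    CF univ (tents q R m) ∧ (∀ p, 0 ≤ tents q R m p ∧ tents q R m p ≤ m) ∧
    (∀ p, dist p q ≤ R / 2 ^ m → tents q R m p = m) ∧ (∀ p, R ≤ dist p q → tents q R m p = 0) ∧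
    En univ (tents q R m) ≤ 32 * m := by
  induction m with
  | zero =>
    have : tents q R 0 = fun _ => 0 := by funext p; simp [tents]
    rw [this]
    refine ⟨CF_const 0, fun p => by simp, fun p _ => by simp, fun p _ => rfl, ?_⟩
    rw [En_const]; simp
  | succ m ih =>
    obtain ⟨h1, h2, h3, h4, h5⟩ := ih
    set ρ := R / 2 ^ m with hρ
    have hρ0 : 0 < ρ := by positivity
    have hρR : ρ ≤ R := by
      rw [hρ]; exact div_le_self hR.le (one_le_pow₀ (by norm_num))
    have he : tents q R (m + 1) = fun p => tents q R m p + tent q ρ p := by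
      funext p; simp only [tents, Finset.sum_range_succ, hρ]
    have hρ2 : R / 2 ^ (m + 1) = ρ / 2 := by rw [hρ, pow_succ]; field_simp
    rw [he]
    refine ⟨h1.add (tent_cf hρ0), fun p => ?_, fun p hp => ?_, fun p hp => ?_, ?_⟩
    · push_cast
      exact ⟨add_nonneg (h2 p).1 (tent_nonneg _ _ _), add_le_add (h2 p).2 (tent_le_one _ _ _)⟩
    · rw [hρ2] at hp
      beta_reduce
      rw [h3 p (by linarith), tent_one hρ0 hp]; push_cast; ring
    · beta_reduce
      rw [h4 p hp, tent_zero hρ0 (hρR.trans hp), add_zero]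
    · have hint : IntegrableOn (g2 (tents q R m)) univ :=
        integrable_of_cpt (𝓗 := ∅) isOpen_univ h1.cfj (isCompact_closedBall q R)
          (fun p _ hp => h4 p (by rw [mem_closedBall, not_le] at hp; exact hp.le))
      have hind : Integrable ((ball q ρ).indicator fun _ : ℝ × ℝ => 8 / ρ ^ 2) :=
        (integrable_indicator_iff measurableSet_ball).2
          (integrableOn_const measure_ball_lt_top.ne)
      have hsum : ∫ p, (g2 (tents q R m) p + (ball q ρ).indicator (fun _ => 8 / ρ ^ 2) p) =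
          En univ (tents q R m) + 32 := by
        rw [integral_add (by simpa [IntegrableOn] using hint) hind,
          integral_indicator measurableSet_ball, setIntegral_const, Measure.real,
          volume_ball_plane q hρ0.le]
        unfold En
        rw [Measure.restrict_univ, smul_eq_mul]
        congr 1
        field_simp
        norm_num
      have hle : En univ (fun p => tents q R m p + tent q ρ p) ≤
          ∫ p, (g2 (tents q R m) p + (ball q ρ).indicator (fun _ => 8 / ρ ^ 2) p) := by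
        unfold En
        rw [Measure.restrict_univ]
        refine integral_mono_of_nonneg (ae_of_all _ fun p => g2_nonneg _ p)
          ((by simpa [IntegrableOn] using hint : Integrable (g2 (tents q R m))).add hind) ?_
        have hs : volume (sphere q ρ) = 0 := Measure.addHaar_sphere _ _ _
        filter_upwards [measure_eq_zero_iff_ae_notMem.mp hs] with p hp
        rcases lt_trichotomy (dist p q) ρ with h | h | h
        · have hpb : p ∈ ball q ρ := h
          rw [indicator_of_mem hpb]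
          have e1 : EqOn (fun p => tents q R m p + tent q ρ p) (fun p => m + tent q ρ p)
              (ball q ρ) := fun y hy => by
            simp only; rw [h3 y (le_of_lt hy)]
          rw [g2_congr_of isOpen_ball e1 hpb]
          have e2 : g2 (fun p => (m : ℝ) + tent q ρ p) p ≤ 2 * (2 / ρ) ^ 2 := by
            refine SL.g2_le (U := univ) (L := 2 / ρ) ?_ isOpen_univ (by positivity) (mem_univ p)
            have := (SL_const (U := univ) (X := ℝ × ℝ) (m : ℝ)).add
              (SL_of_lipschitz (U := univ) (tent_lip (q := q) hρ0))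
            rw [zero_add, Real.coe_toNNReal _ (by positivity)] at this
            exact this
          have e3 : 2 * (2 / ρ) ^ 2 = 8 / ρ ^ 2 := by field_simp; norm_num
          have := g2_nonneg (tents q R m) p
          linarith
        · exact absurd h hp
        · have hpb : p ∉ ball q ρ := fun h' => absurd (mem_ball.1 h') (not_lt.2 h.le)
          rw [indicator_of_notMem hpb, add_zero]
          have e1 : EqOn (fun p => tents q R m p + tent q ρ p) (tents q R m)
              (closedBall q ρ)ᶜ := fun y hy => by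
            simp only
            rw [tent_zero hρ0 (le_of_lt (by simpa using hy)), add_zero]
          exact (g2_congr_of isClosed_closedBall.isOpen_compl e1 (by simpa using h)).le
      push_cast
      linarith

/-- **cut-off at a point** of arbitrarily small energy. -/
theorem cap_point (q : ℝ × ℝ) {R ε : ℝ} (hR : 0 < R) (hε : 0 < ε) :
    ∃ r, 0 < r ∧ ∃ lam : ℝ × ℝ → ℝ, CF univ lam ∧ (∀ p, 0 ≤ lam p ∧ lam p ≤ 1) ∧
      (∀ p, dist p q ≤ r → lam p = 1) ∧ (∀ p, R ≤ dist p q → lam p = 0) ∧ En univ lam ≤ ε := by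
  obtain ⟨m, hm⟩ := exists_nat_gt (32 / ε)
  have hm0 : (0 : ℝ) < m := (by positivity : (0 : ℝ) < 32 / ε).trans hm
  obtain ⟨h1, h2, h3, h4, h5⟩ := tents_spec q hR m
  refine ⟨R / 2 ^ m, by positivity, fun p => (m : ℝ)⁻¹ * tents q R m p, h1.const_mul _,
    fun p => ⟨by have := (h2 p).1; positivity, ?_⟩, fun p hp => ?_, fun p hp => ?_, ?_⟩
  · rw [inv_mul_le_iff₀ hm0]; simpa using (h2 p).2
  · beta_reduce
    rw [h3 p hp]; exact inv_mul_cancel₀ hm0.ne'
  · beta_reduce
    rw [h4 p hp, mul_zero]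
  · rw [CFJ.En_const_mul (𝓗 := ∅) isOpen_univ h1.cfj]
    have h6 : ((m : ℝ)⁻¹) ^ 2 * En univ (tents q R m) ≤ ((m : ℝ)⁻¹) ^ 2 * (32 * m) :=
      mul_le_mul_of_nonneg_left h5 (by positivity)
    refine h6.trans ?_
    have e : ((m : ℝ)⁻¹) ^ 2 * (32 * m) = 32 / m := by field_simp
    rw [e, div_le_iff₀ hm0]
    rw [div_lt_iff₀ hε] at hm
    linarith

end Crest.Agent.R105.Sin_925
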