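import Crest.Agent.R105.Sin1_925

/-!
# Row 105, leaf SINGLE (part 2): dichotomy, the level, assembly, nested averaging
-/

namespace Crest.Agent.R105.Sin_925

open Set Filter MeasureTheory Topology Metric
open CF_363 Stp_722 Skp2_257
open scoped ENNReal NNReal

theorem isOpen_Lo (B : ℝ) : IsOpen (Lo B) := isOpen_lt continuous_snd continuous_const
theorem isOpen_Up (B : ℝ) : IsOpen (Up B) := isOpen_lt continuous_const continuous_snd

theorem Half.zero {E W N : Set (ℝ × ℝ)} {ε : ℝ} (hε : 0 ≤ ε) : Half E W N ε (fun _ => 0) where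
  cf := CFJ_const 0
  rg := fun _ => ⟨le_rfl, zero_le_one⟩
  sp := ⟨∅, isCompact_empty, empty_subset _, fun _ _ _ => rfl⟩
  en := by rw [En_const]; exact hε

/-- amplification: `min (c z) 1`. -/
theorem half_amp {E W N N' : Set (ℝ × ℝ)} {ε ε' c : ℝ} {z : ℝ × ℝ → ℝ} (hW : IsOpen W)
    (hc : 0 ≤ c) (h : Half E W N ε z) (hN : N ⊆ N') (hε : c ^ 2 * ε ≤ ε') :
    Half E W N' ε' (fun p => Min.min (c * z p) 1) := by
  obtain ⟨S, hS, hSN, hS0⟩ := h.sp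
  have h0 : ∀ p ∈ W, p ∉ S → Min.min (c * z p) 1 = 0 := fun p hp hpS => by
    rw [hS0 p hp hpS, mul_zero]; exact min_eq_left zero_le_one
  refine ⟨(h.cf.const_mul c).min (CFJ_const 1), fun p => ⟨le_min (mul_nonneg hc (h.rg p).1)
    zero_le_one, min_le_right _ _⟩, ⟨S, hS, hSN.trans hN, h0⟩, ?_⟩
  obtain ⟨r, hr⟩ := hS.isBounded.subset_ball 0
  have hWb : volume (W ∩ ball (0 : ℝ × ℝ) r) ≠ ∞ :=
    ((measure_mono inter_subset_right).trans_lt measure_ball_lt_top).ne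
  have hWo : IsOpen (W ∩ ball (0 : ℝ × ℝ) r) := hW.inter isOpen_ball
  rw [En_restrict hW hS.isClosed hr h0]
  have hz := h.cf.mono subset_rfl (inter_subset_left : W ∩ ball (0 : ℝ × ℝ) r ⊆ W)
  refine ((hz.const_mul c).En_min_le hWo hWb (CFJ_const 1)).trans ?_
  rw [En_const, add_zero, hz.En_const_mul hWo, ← En_restrict hW hS.isClosed hr hS0]
  exact (mul_le_mul_of_nonneg_left h.en (sq_nonneg c)).trans hε

/-- lower side null at level `B` -/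
def LowN (E : Set (ℝ × ℝ)) (K : Hair) (B : ℝ) : Prop :=
  ∀ N, IsOpen N → K.car ⊆ N → ∀ ε > 0, ∃ z, Half E (Lo B) N ε z ∧
    ∃ O, IsOpen O ∧ K.car ⊆ O ∧ ∀ p ∈ O \ E, p ∈ Lo B → z p = 1

/-- upper side null at level `B` -/
def UpN (E : Set (ℝ × ℝ)) (K : Hair) (B : ℝ) : Prop :=
  ∀ N, IsOpen N → K.car ⊆ N → ∀ ε > 0, ∃ z, Half E (Up B) N ε z ∧
    ∃ O, IsOpen O ∧ K.car ⊆ O ∧ ∀ p ∈ O \ E, p ∈ Up B → z p = 1

theorem un_singleton (K : Hair) : un {K} = K.car := by simp [un]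

theorem low_or_up {E : Set (ℝ × ℝ)} {K : Hair} {Bm Bp : ℝ} (h : NullN E {K} Bm Bp) :
    LowN E K Bm ∨ UpN E K Bp := by
  by_contra hcon
  rw [not_or] at hcon
  obtain ⟨h1, h2⟩ := hcon
  unfold LowN at h1
  unfold UpN at h2
  push Not at h1 h2
  obtain ⟨N₁, hN₁, hK₁, ε₁, hε₁, H₁⟩ := h1
  obtain ⟨N₂, hN₂, hK₂, ε₂, hε₂, H₂⟩ := h2
  set ε := Min.min ε₁ ε₂ / 5 with hε
  have hmin : 0 < Min.min ε₁ ε₂ := lt_min hε₁ hε₂
  obtain ⟨zm, zp, hP⟩ := h (N₁ ∩ N₂) (hN₁.inter hN₂)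
    (by rw [un_singleton]; exact subset_inter hK₁ hK₂) ε (by positivity)
  obtain ⟨O, hO, hKO, hkey⟩ := hP.key K rfl
  have hc : ∀ {e : ℝ}, Min.min ε₁ ε₂ ≤ e → (20 / 9 : ℝ) ^ 2 * ε ≤ e := by
    intro e he
    rw [hε]; nlinarith
  by_cases hA : ∀ p ∈ O \ E, p ∈ Lo Bm → 9 / 20 ≤ zm p
  · obtain ⟨p, hp, hpL, hne⟩ := H₁ _ (half_amp (c := 20 / 9) (isOpen_Lo Bm) (by norm_num) hP.m
      inter_subset_left (hc (min_le_left _ _))) O hO hKO
    apply hne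
    have := hA p hp hpL
    exact min_eq_right (by linarith)
  · push Not at hA
    obtain ⟨p, hp, hpL, hlt⟩ := hA
    obtain ⟨q, hq, hqU, hne⟩ := H₂ _ (half_amp (c := 20 / 9) (isOpen_Up Bp) (by norm_num) hP.p
      inter_subset_right (hc (min_le_right _ _))) O hO hKO
    apply hne
    have := hkey p hp hpL q hq hqU
    exact min_eq_right (by linarith)

theorem fam_single {E : Set (ℝ × ℝ)} {K : Hair} (hK : K ∈ hairs E) {Bm Bp : ℝ} (h : Bm < Bp)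
    (h1 : K.b ≤ Bm) (h2 : Bp ≤ K.t) : Fam E {K} Bm Bp where
  lt := h
  sub := by simpa using hK
  cpt := by rw [un_singleton]; exact K.isCompact_car
  crs := by intro K' hK'; rw [mem_singleton_iff.1 hK']; exact ⟨h1, h2⟩

/-- points near `K` -/
theorem near_car {K : Hair} {d : ℝ} {p : ℝ × ℝ} (hp : p ∈ thickening d K.car) :
    |p.1 - K.x| < d ∧ K.b - d < p.2 ∧ p.2 < K.t + d := by
  obtain ⟨q, hq, hpq⟩ := mem_thickening_iff.1 hp
  rw [Prod.dist_eq, max_lt_iff, Real.dist_eq, Real.dist_eq] at hpq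
  obtain ⟨h1, h2, h3⟩ := hq
  rw [h1] at hpq
  have := abs_lt.1 hpq.2
  exact ⟨hpq.1, by linarith [this.1], by linarith [this.2]⟩

/-- lower data at `(β, d)` -/
def LowS (E : Set (ℝ × ℝ)) (K : Hair) (β d : ℝ) : Prop :=
  ∀ N, IsOpen N → K.car ⊆ N → ∀ ε > 0, ∃ B, β - d < B ∧ B ≤ β ∧ ∃ z, Half E (Lo B) N ε z ∧
    ∃ O, IsOpen O ∧ K.car ⊆ O ∧ ∀ p ∈ O \ E, p.2 ≤ β - d → z p = 1

/-- upper data at `(β, d)` -/
def UpS (E : Set (ℝ × ℝ)) (K : Hair) (β d : ℝ) : Prop :=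
  ∀ N, IsOpen N → K.car ⊆ N → ∀ ε > 0, ∃ B, β ≤ B ∧ B < β + d ∧ ∃ z, Half E (Up B) N ε z ∧
    ∃ O, IsOpen O ∧ K.car ⊆ O ∧ ∀ p ∈ O \ E, β + d ≤ p.2 → z p = 1

theorem exists_level {E : Set (ℝ × ℝ)} {K : Hair} (hK : K ∈ hairs E)
    (h : ∀ Bm Bp, Fam E {K} Bm Bp → NullN E {K} Bm Bp) :
    ∃ β, K.b ≤ β ∧ β ≤ K.t ∧ ∀ d > 0, LowS E K β d ∧ UpS E K β d := by
  have hdich : ∀ Bm Bp, Bm < Bp → K.b ≤ Bm → Bp ≤ K.t → LowN E K Bm ∨ UpN E K Bp :=
    fun Bm Bp h0 h1 h2 => low_or_up (h Bm Bp (fam_single hK h0 h1 h2))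
  set S : Set ℝ := {B | K.b ≤ B ∧ B ≤ K.t ∧ LowN E K B} with hS
  have hup : ∀ β, K.b ≤ β → β ≤ K.t → (∀ B, β < B → B ≤ K.t → ¬ LowN E K B) → ∀ d > 0,
      UpS E K β d := by
    intro β hb ht hno d hd N hN hKN ε hε
    rcases ht.eq_or_lt with rfl | hlt
    · refine ⟨K.t, le_rfl, by linarith, fun _ => 0, Half.zero hε.le, thickening d K.car,
        isOpen_thickening, self_subset_thickening hd _, fun p hp hp2 => ?_⟩
      exact absurd (near_car hp.1).2.2 (not_lt.2 hp2)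
    · set B := Min.min (β + d / 2) K.t with hB
      have hβB : β < B := lt_min (by linarith) hlt
      have hBt : B ≤ K.t := min_le_right _ _
      have hBd : B ≤ β + d / 2 := min_le_left _ _
      have := hdich ((β + B) / 2) B (by linarith) (by linarith) hBt
      rcases this with h' | h'
      · exact absurd h' (hno _ (by linarith) (by linarith))
      · obtain ⟨z, hz, O, hO, hKO, h1⟩ := h' N hN hKN ε hε
        exact ⟨B, hβB.le, by linarith, z, hz, O, hO, hKO, fun p hp hp2 => h1 p hp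
          (by show B < p.2; linarith)⟩
  by_cases hne : S.Nonempty
  · have hbdd : BddAbove S := ⟨K.t, fun B hB => hB.2.1⟩
    obtain ⟨B₀, hB₀⟩ := hne
    have h1 : K.b ≤ sSup S := hB₀.1.trans (le_csSup hbdd hB₀)
    have h2 : sSup S ≤ K.t := csSup_le ⟨B₀, hB₀⟩ fun B hB => hB.2.1
    refine ⟨sSup S, h1, h2, fun d hd => ⟨?_, hup _ h1 h2 (fun B hB hBt hL => ?_) d hd⟩⟩
    · intro N hN hKN ε hε
      obtain ⟨B, hBS, hBd⟩ := exists_lt_of_lt_csSup ⟨B₀, hB₀⟩ (by linarith : sSup S - d < sSup S)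
      obtain ⟨z, hz, O, hO, hKO, h3⟩ := hBS.2.2 N hN hKN ε hε
      exact ⟨B, hBd, le_csSup hbdd hBS, z, hz, O, hO, hKO, fun p hp hp2 => h3 p hp
        (by show p.2 < B; linarith)⟩
    · exact absurd (le_csSup hbdd ⟨h1.trans hB.le, hBt, hL⟩) (not_le.2 hB)
  · rw [not_nonempty_iff_eq_empty] at hne
    refine ⟨K.b, le_rfl, K.hbt.le, fun d hd => ⟨?_, hup _ le_rfl K.hbt.le
      (fun B hB hBt hL => ?_) d hd⟩⟩
    · intro N hN hKN ε hε
      refine ⟨K.b, by linarith, le_rfl, fun _ => 0, Half.zero hε.le, thickening d K.car,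
        isOpen_thickening, self_subset_thickening hd _, fun p hp hp2 => ?_⟩
      exact absurd (near_car hp.1).2.1 (not_lt.2 hp2)
    · have : B ∈ S := ⟨hB.le, hBt, hL⟩
      rw [hne] at this
      exact this

end Crest.Agent.R105.Sin_925
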