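import Crest.Agent.R105.CF3_363

/-!
# Row 105, leaf `SINGLE`, part 1: the logarithmic cut-off at a point of `ℝ × ℝ` (sup metric)
-/

namespace Crest.Agent.R105.Sing_49

open Set Filter MeasureTheory Topology Metric
open CF_363
open scoped ENNReal NNReal

theorem g2_le_of_norm {f : ℝ × ℝ → ℝ} {p : ℝ × ℝ} {A : ℝ} (h : ‖fderiv ℝ f p‖ ≤ A) :
    g2 f p ≤ 2 * A ^ 2 := by
  have h1 := (fderiv ℝ f p).le_opNorm (1, 0)
  have h2 := (fderiv ℝ f p).le_opNorm (0, 1)
  have h3 : ‖((1 : ℝ), (0 : ℝ))‖ = 1 := by simp [Prod.norm_def]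
  have h4 : ‖((0 : ℝ), (1 : ℝ))‖ = 1 := by simp [Prod.norm_def]
  rw [h3, mul_one] at h1
  rw [h4, mul_one] at h2
  have h5 : |gx f p| ≤ A := h1.trans h
  have h6 : |gy f p| ≤ A := h2.trans h
  have h7 := sq_le_sq' (abs_le.mp h5).1 (abs_le.mp h5).2
  have h8 := sq_le_sq' (abs_le.mp h6).1 (abs_le.mp h6).2
  unfold g2; linarith

/-- radial profile -/
noncomputable def lg (R r s : ℝ) : ℝ :=
  max 0 ((Real.log R - Real.log (max s r)) / (Real.log R - Real.log r))

theorem lg_nonneg (R r s : ℝ) : 0 ≤ lg R r s := le_max_left _ _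

theorem lg_eq_one {R r s : ℝ} (hr : 0 < r) (hR : r < R) (h : s ≤ r) : lg R r s = 1 := by
  have : 0 < Real.log R - Real.log r := sub_pos.2 (Real.log_lt_log hr hR)
  unfold lg
  rw [max_eq_right h, div_self this.ne', max_eq_right zero_le_one]

theorem lg_eq_zero {R r s : ℝ} (hr : 0 < r) (hR : r < R) (h : R ≤ s) : lg R r s = 0 := by
  have h1 : 0 < Real.log R - Real.log r := sub_pos.2 (Real.log_lt_log hr hR)
  unfold lg
  rw [max_eq_left (hR.le.trans h)]
  refine max_eq_left (div_nonpos_of_nonpos_of_nonneg ?_ h1.le)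
  have := Real.log_le_log (hr.trans hR) h
  linarith

theorem lg_le_one {R r : ℝ} (hr : 0 < r) (hR : r < R) (s : ℝ) : lg R r s ≤ 1 := by
  have h1 : 0 < Real.log R - Real.log r := sub_pos.2 (Real.log_lt_log hr hR)
  refine max_le zero_le_one ((div_le_one h1).2 ?_)
  have := Real.log_le_log hr (le_max_right s r)
  linarith

theorem log_sub_le {a b m : ℝ} (hm : 0 < m) (ha : m ≤ a) (hb : m ≤ b) :
    |Real.log a - Real.log b| ≤ |a - b| / m := by
  wlog h : b ≤ a generalizing a b
  · rw [abs_sub_comm, abs_sub_comm a b]; exact this hb ha (le_of_not_ge h)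
  have hb0 : 0 < b := hm.trans_le hb
  have ha0 : 0 < a := hm.trans_le ha
  rw [abs_of_nonneg (sub_nonneg.2 (Real.log_le_log hb0 h)), abs_of_nonneg (sub_nonneg.2 h),
    ← Real.log_div ha0.ne' hb0.ne']
  have h1 := Real.log_le_sub_one_of_pos (div_pos ha0 hb0)
  have h2 : a / b - 1 = (a - b) / b := by field_simp
  rw [h2] at h1
  exact h1.trans (div_le_div_of_nonneg_left (sub_nonneg.2 h) hm hb)

theorem lg_lip {R r m s t : ℝ} (hr : 0 < r) (hR : r < R) (hm : 0 < m) (hs : m ≤ max s r)
    (ht : m ≤ max t r) : |lg R r s - lg R r t| ≤ |s - t| / (m * (Real.log R - Real.log r)) := by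
  have h1 : 0 < Real.log R - Real.log r := sub_pos.2 (Real.log_lt_log hr hR)
  unfold lg
  refine (abs_max_sub_max_le_max _ _ _ _).trans (max_le (by simp; positivity) ?_)
  rw [← sub_div, abs_div, abs_of_pos h1, sub_sub_sub_cancel_left, ← div_div,
    div_le_div_iff_of_pos_right h1]
  refine (log_sub_le hm ht hs).trans ?_
  rw [div_le_div_iff_of_pos_right hm, abs_sub_comm (max t r)]
  have := abs_max_sub_max_le_max s r t r
  simpa using this

/-- the cut-off -/
noncomputable def lc (q : ℝ × ℝ) (R r : ℝ) (p : ℝ × ℝ) : ℝ := lg R r (dist p q)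

theorem lc_lip {q : ℝ × ℝ} {R r : ℝ} (hr : 0 < r) (hR : r < R) :
    LipschitzWith (Real.toNNReal (1 / (r * (Real.log R - Real.log r)))) (lc q R r) := by
  have h1 : 0 < Real.log R - Real.log r := sub_pos.2 (Real.log_lt_log hr hR)
  refine LipschitzWith.of_dist_le_mul fun p p' => ?_
  rw [Real.dist_eq, Real.coe_toNNReal _ (by positivity)]
  refine (lg_lip hr hR hr (le_max_right _ _) (le_max_right _ _)).trans ?_
  rw [div_eq_mul_one_div, mul_comm]
  refine mul_le_mul_of_nonneg_left ?_ (by positivity)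
  have := abs_dist_sub_le p p' q
  exact this

theorem g2_lc_le {q p : ℝ × ℝ} {R r : ℝ} (hr : 0 < r) (hR : r < R) (hp : p ≠ q) :
    g2 (lc q R r) p ≤ 8 / ((dist p q) ^ 2 * (Real.log R - Real.log r) ^ 2) := by
  have h1 : 0 < Real.log R - Real.log r := sub_pos.2 (Real.log_lt_log hr hR)
  have hs : 0 < dist p q := dist_pos.2 hp
  set s := dist p q with hsd
  have hL : LipschitzOnWith (Real.toNNReal (2 / (s * (Real.log R - Real.log r)))) (lc q R r)
      (ball p (s / 2)) := by
    refine LipschitzOnWith.of_dist_le_mul fun x hx y hy => ?_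
    rw [Real.dist_eq, Real.coe_toNNReal _ (by positivity)]
    have e : ∀ z ∈ ball p (s / 2), s / 2 ≤ max (dist z q) r := by
      intro z hz
      rw [mem_ball] at hz
      have h2 : s ≤ dist z q + s / 2 := by
        have := dist_triangle p z q
        rw [dist_comm p z] at this
        linarith
      exact le_max_of_le_left (by linarith)
    refine (lg_lip hr hR (half_pos hs) (e x hx) (e y hy)).trans ?_
    have h3 : |dist x q - dist y q| ≤ dist x y := abs_dist_sub_le x y q
    have h4 : 2 / (s * (Real.log R - Real.log r)) * dist x y =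
        dist x y / (s / 2 * (Real.log R - Real.log r)) := by
      field_simp
    rw [h4]
    gcongr
  have h5 := norm_fderiv_le_of_lipschitzOn ℝ (ball_mem_nhds p (half_pos hs)) hL
  rw [Real.coe_toNNReal _ (by positivity)] at h5
  refine (g2_le_of_norm h5).trans (le_of_eq ?_)
  field_simp
  norm_num

theorem g2_lc_zero_in {q p : ℝ × ℝ} {R r : ℝ} (hr : 0 < r) (hR : r < R) (hp : dist p q < r) :
    g2 (lc q R r) p = 0 := by
  have h : lc q R r =ᶠ[𝓝 p] fun _ => (1 : ℝ) := by
    filter_upwards [isOpen_ball.mem_nhds (show p ∈ ball q r from hp)] with z hz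
    exact lg_eq_one hr hR (mem_ball.1 hz).le
  simp [g2, gx_congr h, gy_congr h]

theorem g2_lc_zero_out {q p : ℝ × ℝ} {R r : ℝ} (hr : 0 < r) (hR : r < R) (hp : R < dist p q) :
    g2 (lc q R r) p = 0 := by
  have h : lc q R r =ᶠ[𝓝 p] fun _ => (0 : ℝ) := by
    have : IsOpen {z : ℝ × ℝ | R < dist z q} :=
      isOpen_lt continuous_const (continuous_id.dist continuous_const)
    filter_upwards [this.mem_nhds hp] with z hz
    exact lg_eq_zero hr hR (le_of_lt hz)
  simp [g2, gx_congr h, gy_congr h]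

theorem vol_ball_real : (volume : Measure (ℝ × ℝ)).real (ball 0 1) = 4 := by
  have : ball (0 : ℝ × ℝ) 1 = ball (0 : ℝ) 1 ×ˢ ball (0 : ℝ) 1 := by
    rw [ball_prod_same]; rfl
  rw [Measure.real, this, Measure.volume_eq_prod, Measure.prod_prod, Real.volume_ball]
  rw [ENNReal.toReal_mul, ENNReal.toReal_ofReal (by norm_num)]
  norm_num

theorem int_profile {R r c : ℝ} (hr : 0 < r) (hR : r < R) :
    IntegrableOn (fun y : ℝ => y ^ (2 - 1) • (Icc r R).indicator (fun s => c / s ^ 2) y) (Ioi 0) ∧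
    ∫ y in Ioi (0 : ℝ), y ^ (2 - 1) • (Icc r R).indicator (fun s => c / s ^ 2) y =
      c * (Real.log R - Real.log r) := by
  have e : (fun y : ℝ => y ^ (2 - 1) • (Icc r R).indicator (fun s => c / s ^ 2) y) =
      (Icc r R).indicator (fun y => c * y⁻¹) := by
    funext y
    by_cases hy : y ∈ Icc r R
    · have hy0 : y ≠ 0 := (hr.trans_le hy.1).ne'
      rw [indicator_of_mem hy, indicator_of_mem hy, smul_eq_mul]
      field_simp
      norm_num
      ring
    · rw [indicator_of_notMem hy, indicator_of_notMem hy, smul_zero]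
  have hsub : Icc r R ⊆ Ioi 0 := fun y hy => hr.trans_le hy.1
  have hI : IntegrableOn (fun y : ℝ => c * y⁻¹) (Icc r R) := by
    refine ContinuousOn.integrableOn_Icc ?_
    exact continuousOn_const.mul (continuousOn_inv₀.mono fun y hy => (hr.trans_le hy.1).ne')
  rw [e]
  constructor
  · exact (hI.integrable_indicator measurableSet_Icc).integrableOn
  · rw [setIntegral_indicator measurableSet_Icc, inter_eq_right.2 hsub, integral_Icc_eq_integral_Ioc,
      ← intervalIntegral.integral_of_le hR.le, intervalIntegral.integral_const_mul,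
      integral_inv_of_pos hr (hr.trans hR), Real.log_div (hr.trans hR).ne' hr.ne']

theorem En_lc {q : ℝ × ℝ} {R r : ℝ} (hr : 0 < r) (hR : r < R) :
    En univ (lc q R r) ≤ 64 / (Real.log R - Real.log r) := by
  have h1 : 0 < Real.log R - Real.log r := sub_pos.2 (Real.log_lt_log hr hR)
  set Λ := Real.log R - Real.log r with hΛ
  obtain ⟨hi, hv⟩ := int_profile (c := 8 / Λ ^ 2) hr hR
  have hfin : Module.finrank ℝ (ℝ × ℝ) = 2 := by simp
  have hI : Integrable (fun p : ℝ × ℝ => (Icc r R).indicator (fun s => 8 / Λ ^ 2 / s ^ 2) ‖p‖) := by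
    rw [integrable_fun_norm_addHaar (μ := (volume : Measure (ℝ × ℝ))), hfin]
    exact hi
  have hint := integral_fun_norm_addHaar (volume : Measure (ℝ × ℝ))
    ((Icc r R).indicator (fun s => 8 / Λ ^ 2 / s ^ 2))
  rw [hfin, vol_ball_real, hv] at hint
  have hI' : Integrable
      (fun p : ℝ × ℝ => (Icc r R).indicator (fun s => 8 / Λ ^ 2 / s ^ 2) ‖p - q‖) :=
    hI.comp_sub_right q
  have hint' : ∫ p : ℝ × ℝ, (Icc r R).indicator (fun s => 8 / Λ ^ 2 / s ^ 2) ‖p - q‖ =
      ∫ p : ℝ × ℝ, (Icc r R).indicator (fun s => 8 / Λ ^ 2 / s ^ 2) ‖p‖ :=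
    integral_sub_right_eq_self
      (fun p : ℝ × ℝ => (Icc r R).indicator (fun s => 8 / Λ ^ 2 / s ^ 2) ‖p‖) q
  unfold En
  rw [setIntegral_univ]
  calc ∫ p, g2 (lc q R r) p ≤ ∫ p : ℝ × ℝ, (Icc r R).indicator (fun s => 8 / Λ ^ 2 / s ^ 2) ‖p - q‖ := by
        refine integral_mono_of_nonneg (Eventually.of_forall fun p => g2_nonneg _ p) hI'
          (Eventually.of_forall fun p => ?_)
        dsimp only
        rw [← dist_eq_norm]
        by_cases hp : dist p q ∈ Icc r R
        · rw [indicator_of_mem hp]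
          have hne : p ≠ q := by
            rintro rfl
            rw [dist_self] at hp
            linarith [hp.1]
          refine (g2_lc_le hr hR hne).trans (le_of_eq ?_)
          rw [div_div, mul_comm (Λ ^ 2)]
        · rw [indicator_of_notMem hp]
          rw [mem_Icc, not_and_or, not_le, not_le] at hp
          rcases hp with hp | hp
          · exact (g2_lc_zero_in hr hR hp).le
          · exact (g2_lc_zero_out hr hR hp).le
    _ = 64 / Λ := by
        rw [hint', hint]
        simp only [smul_eq_mul, nsmul_eq_mul]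
        rw [← hΛ]
        field_simp
        norm_num

/-- **Points have capacity zero.** -/
theorem exists_point_cut (q : ℝ × ℝ) {N : Set (ℝ × ℝ)} (hN : IsOpen N) (hq : q ∈ N) {ε : ℝ}
    (hε : 0 < ε) : ∃ (l : ℝ × ℝ → ℝ) (K : ℝ≥0) (r : ℝ), LipschitzWith K l ∧
      (∀ p, 0 ≤ l p ∧ l p ≤ 1) ∧ 0 < r ∧ (∀ p ∈ ball q r, l p = 1) ∧
      (∃ S, IsCompact S ∧ S ⊆ N ∧ ∀ p ∉ S, l p = 0) ∧ En univ l ≤ ε := by
  obtain ⟨R, hR, hRN⟩ := Metric.nhds_basis_closedBall.mem_iff.1 (hN.mem_nhds hq)
  -- choose `r` with `log R - log r = 64 / ε`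
  set r := R * Real.exp (-(64 / ε)) with hr
  have hr0 : 0 < r := mul_pos hR (Real.exp_pos _)
  have hlog : Real.log R - Real.log r = 64 / ε := by
    rw [hr, Real.log_mul hR.ne' (Real.exp_pos _).ne', Real.log_exp]; ring
  have hrR : r < R := by
    rw [hr]
    have h2 : 0 < 64 / ε := by positivity
    have : Real.exp (-(64 / ε)) < Real.exp 0 := Real.exp_lt_exp.2 (by linarith)
    rw [Real.exp_zero] at this
    nlinarith
  refine ⟨lc q R r, _, r, lc_lip hr0 hrR, fun p => ⟨lg_nonneg _ _ _, lg_le_one hr0 hrR _⟩, hr0,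
    fun p hp => lg_eq_one hr0 hrR (mem_ball.1 hp).le, ⟨closedBall q R, isCompact_closedBall _ _,
      hRN, fun p hp => lg_eq_zero hr0 hrR ?_⟩, ?_⟩
  · rw [mem_closedBall, not_le] at hp; exact hp.le
  · refine (En_lc hr0 hrR).trans (le_of_eq ?_)
    rw [hlog, div_div_eq_mul_div]
    field_simp

end Crest.Agent.R105.Sing_49
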