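import Crest.Agent.R105.Skp2_257
import Crest.Agent.R105.Sing1_49

/-!
# Row 105, leaf `SINGLE`, part 2: normalised halves, the dichotomy and the level `β`
-/

namespace Crest.Agent.R105.Sing_49

open Set Filter MeasureTheory Topology Metric
open CF_363 Stp_722 Skp2_257
open scoped ENNReal NNReal

variable {E : Set (ℝ × ℝ)}

theorem g2_const_near {f : ℝ × ℝ → ℝ} {p : ℝ × ℝ} {c : ℝ} (h : ∀ᶠ q in 𝓝 p, f q = c) :
    g2 f p = 0 := by
  have h : f =ᶠ[𝓝 p] fun _ => c := h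
  simp [g2, gx_congr h, gy_congr h]

theorem g2_congr {f g : ℝ × ℝ → ℝ} {p : ℝ × ℝ} (h : f =ᶠ[𝓝 p] g) : g2 f p = g2 g p := by
  simp only [g2, gx_congr h, gy_congr h]

/-- the energy density of a function vanishing off a compact set is integrable -/
theorem int_g2 {W S : Set (ℝ × ℝ)} {J : Finset Hair} {z : ℝ × ℝ → ℝ} (hW : IsOpen W)
    (hz : CF (W \ cut J) z) (hS : IsCompact S) (h0 : ∀ p ∈ W, p ∉ S → z p = 0) :
    IntegrableOn (g2 z) W := by
  obtain ⟨L, C, hL, h1, -⟩ := hz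
  have hb : IntegrableOn (g2 z) (W ∩ S) := by
    refine Measure.integrableOn_of_bounded (M := 2 * L ^ 2)
      ((measure_mono inter_subset_right).trans_lt hS.measure_lt_top).ne
      (measurable_g2 z).aestronglyMeasurable ?_
    have h2 : ∀ᵐ p ∂(volume.restrict (W ∩ S)), p ∉ cut J :=
      ae_restrict_of_ae (measure_eq_zero_iff_ae_notMem.mp (volume_cut J))
    filter_upwards [h2, ae_restrict_mem (hW.measurableSet.inter hS.measurableSet)] with p hp hpW
    rw [Real.norm_of_nonneg (g2_nonneg z p)]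
    exact h1.g2_le (isOpen_diff_cut hW J) hL ⟨hpW.1, hp⟩
  have hz0 : IntegrableOn (g2 z) (W \ S) := by
    refine (integrableOn_zero (ε' := ℝ)).congr_fun ?_ (hW.measurableSet.diff hS.measurableSet)
    intro p hp
    symm
    refine g2_const_near (c := 0) ?_
    filter_upwards [(hW.sdiff hS.isClosed).mem_nhds hp] with q hq
    exact h0 q hq.1 hq.2
  have := hb.union hz0
  rwa [inter_union_sdiff] at this

theorem half_int {W N : Set (ℝ × ℝ)} {ε : ℝ} {z : ℝ × ℝ → ℝ} (h : Half E W N ε z)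
    (hW : IsOpen W) : IntegrableOn (g2 z) W := by
  obtain ⟨J, -, hcf⟩ := h.cf
  obtain ⟨S, hS, -, h0⟩ := h.sp
  exact int_g2 hW hcf hS h0

theorem g2_min_le {f : ℝ × ℝ → ℝ} {p : ℝ × ℝ} {c : ℝ} (hf : DifferentiableAt ℝ f p)
    (hm : DifferentiableAt ℝ (fun q => min 1 (c * f q)) p) :
    g2 (fun q => min 1 (c * f q)) p ≤ c ^ 2 * g2 f p := by
  have h1 := fderiv_min (f := fun _ : ℝ × ℝ => (1 : ℝ)) (g := fun q => c * f q)
    (differentiableAt_const 1) (hf.const_mul c) hm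
  have hn := g2_nonneg f p
  rcases le_total 1 (c * f p) with h | h
  · have h2 := h1.1 h
    simp only [g2, gx, gy, h2]
    simp only [fderiv_fun_const, Pi.zero_apply, _root_.zero_apply]
    unfold g2 at hn
    have : 0 ≤ c ^ 2 * g2 f p := mul_nonneg (sq_nonneg c) (g2_nonneg f p)
    simpa [g2, gx, gy] using this
  · have h2 := h1.2 h
    simp only [g2, gx, gy, h2, fderiv_const_mul hf]
    simp only [_root_.smul_apply, smul_eq_mul]
    apply le_of_eq; ring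

/-- normalisation of a half -/
theorem fix {W N O P : Set (ℝ × ℝ)} {z : ℝ × ℝ → ℝ} {ε : ℝ} (hE : Pic E) (hW : IsOpen W)
    (hN : IsOpen N) (hP : IsCompact P) (hPN : P ⊆ N) (hO : IsOpen O) (hPO : P ⊆ O)
    (h : Half E W N ε z) (h1 : ∀ p ∈ O \ E, p ∈ W → (9 / 20 : ℝ) ≤ z p) :
    ∃ z', Half E W N (5 * ε) z' ∧ ∃ O', IsOpen O' ∧ P ⊆ O' ∧ ∀ p ∈ O', p ∈ W → z' p = 1 := by
  classical
  have hint := half_int h hW
  obtain ⟨⟨J, hJ, hcf⟩, hrg, ⟨S, hS, hSN, hS0⟩, hen⟩ := h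
  set w : ℝ × ℝ → ℝ := fun q => min 1 (20 / 9 * z q) with hwd
  have hw : CF (W \ cut J) w := (CF_const 1).min (hcf.const_mul (20 / 9))
  obtain ⟨O', hO', hPO', hcO', hcc⟩ := exists_open_between_and_isCompact_closure hP
    (hN.inter hO) (subset_inter hPN hPO)
  have hWJ := isOpen_diff_cut hW J
  have hdense : Dense Eᶜ := interior_eq_empty_iff_dense_compl.1
    (Measure.interior_eq_empty_of_null hE.null)
  have hw1 : ∀ q ∈ O', q ∈ W → q ∉ cut J → w q = 1 := by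
    intro q hq hqW hqJ
    by_contra hne
    have hlt : w q < 1 := lt_of_le_of_ne (min_le_left _ _) hne
    have hc : ContinuousAt w q := hw.continuousAt hWJ ⟨hqW, hqJ⟩
    have hnb : {x | w x < 1} ∩ (O' ∩ W) ∈ 𝓝 q :=
      inter_mem (hc.eventually (Iio_mem_nhds hlt)) ((hO'.inter hW).mem_nhds ⟨hq, hqW⟩)
    obtain ⟨x, hx, hxE⟩ := hdense.inter_nhds_nonempty hnb
    obtain ⟨hx1, hxO, hxW⟩ := hxE
    have h2 := h1 x ⟨(hcO' (subset_closure hxO)).2, hx⟩ hxW
    have h3 : w x = 1 := min_eq_left (by linarith)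
    have h4 : w x < 1 := hx1
    linarith
  set z' : ℝ × ℝ → ℝ := fun q => if q ∈ O' ∩ cut J then 1 else w q with hz'
  have hz'w : ∀ q ∉ cut J, z' q = w q := fun q hq => if_neg fun hh => hq hh.2
  refine ⟨z', ⟨⟨J, hJ, hw.congr fun q hq => (hz'w q hq.2).symm⟩, ?_, ?_, ?_⟩, O', hO', hPO', ?_⟩
  · intro p
    by_cases hp : p ∈ O' ∩ cut J
    · simp only [hz', if_pos hp]; norm_num
    · simp only [hz', if_neg hp, hwd]
      have := (hrg p).1
      exact ⟨le_min zero_le_one (by positivity), min_le_left _ _⟩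
  · refine ⟨S ∪ closure O', hS.union hcc, union_subset hSN fun x hx => (hcO' hx).1, ?_⟩
    intro p hpW hp
    rw [mem_union, not_or] at hp
    have h2 : p ∉ O' ∩ cut J := fun hh => hp.2 (subset_closure hh.1)
    simp only [hz', if_neg h2, hwd, hS0 p hpW hp.1]
    norm_num
  · have hen0 : 0 ≤ ε := (En_nonneg W z).trans hen
    have hle : En W z' ≤ (20 / 9 : ℝ) ^ 2 * En W z := by
      unfold En
      rw [← integral_const_mul]
      refine integral_mono_of_nonneg (Eventually.of_forall fun p => g2_nonneg _ p)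
        (hint.const_mul _) ?_
      obtain ⟨L, C, hL, hSL, -⟩ := hcf
      obtain ⟨L', C', hL', hSL', -⟩ := hw
      filter_upwards [ae_restrict_of_ae (hSL.ae_differentiableAt (μ := volume) hWJ),
        ae_restrict_of_ae (hSL'.ae_differentiableAt (μ := volume) hWJ),
        ae_restrict_of_ae (measure_eq_zero_iff_ae_notMem.mp (volume_cut J)),
        ae_restrict_mem hW.measurableSet] with p h1 h2 h3 h4
      have e : z' =ᶠ[𝓝 p] w := by
        filter_upwards [(isClosed_cut J).isOpen_compl.mem_nhds h3] with q hq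
        exact hz'w q hq
      rw [g2_congr e]
      exact g2_min_le (h1 ⟨h4, h3⟩) (h2 ⟨h4, h3⟩)
    nlinarith [En_nonneg W z]
  · intro p hp hpW
    by_cases hpJ : p ∈ cut J
    · simp only [hz', if_pos (show p ∈ O' ∩ cut J from ⟨hp, hpJ⟩)]
    · rw [hz'w p hpJ]; exact hw1 p hp hpW hpJ

theorem isOpen_Lo (B : ℝ) : IsOpen (Lo B) := isOpen_lt continuous_snd continuous_const
theorem isOpen_Up (B : ℝ) : IsOpen (Up B) := isOpen_lt continuous_const continuous_snd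

/-- the part of `K` below `B` is null -/
def LowK (E : Set (ℝ × ℝ)) (K : Hair) (B : ℝ) : Prop :=
  ∀ N, IsOpen N → K.car ⊆ N → ∀ ε > 0, ∃ z, Half E (Lo B) N ε z ∧
    ∃ O, IsOpen O ∧ (∀ p ∈ K.car, p.2 ≤ B → p ∈ O) ∧ ∀ p ∈ O, p ∈ Lo B → z p = 1

/-- the part of `K` above `B` is null -/
def UppK (E : Set (ℝ × ℝ)) (K : Hair) (B : ℝ) : Prop :=
  ∀ N, IsOpen N → K.car ⊆ N → ∀ ε > 0, ∃ z, Half E (Up B) N ε z ∧
    ∃ O, IsOpen O ∧ (∀ p ∈ K.car, B ≤ p.2 → p ∈ O) ∧ ∀ p ∈ O, p ∈ Up B → z p = 1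

theorem half_zero (W N : Set (ℝ × ℝ)) {ε : ℝ} (hε : 0 < ε) : Half E W N ε (fun _ => 0) where
  cf := CFJ_const 0
  rg := fun _ => ⟨le_rfl, zero_le_one⟩
  sp := ⟨∅, isCompact_empty, empty_subset _, fun _ _ _ => rfl⟩
  en := (En_const W 0).le.trans hε.le

theorem low_of_lt {K : Hair} {B : ℝ} (h : B < K.b) : LowK E K B := fun N _ _ ε hε =>
  ⟨fun _ => 0, half_zero _ _ hε, ∅, isOpen_empty, fun p hp hpB => absurd (hp.2.1.trans hpB)
    (not_le.2 h), fun p hp => absurd hp (notMem_empty p)⟩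

theorem upp_of_lt {K : Hair} {B : ℝ} (h : K.t < B) : UppK E K B := fun N _ _ ε hε =>
  ⟨fun _ => 0, half_zero _ _ hε, ∅, isOpen_empty, fun p hp hpB => absurd (hpB.trans hp.2.2)
    (not_le.2 h), fun p hp => absurd hp (notMem_empty p)⟩

theorem low_mono {K : Hair} {B B' : ℝ} (h : B' ≤ B) (hl : LowK E K B) : LowK E K B' := by
  intro N hN hKN ε hε
  obtain ⟨z, hz, O, hO, h1, h2⟩ := hl N hN hKN ε hε
  have hsub : Lo B' ⊆ Lo B := fun p hp => lt_of_lt_of_le hp h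
  obtain ⟨S, hS, hSN, hS0⟩ := hz.sp
  refine ⟨z, ⟨hz.cf.mono subset_rfl hsub, hz.rg, ⟨S, hS, hSN, fun p hp => hS0 p (hsub hp)⟩, ?_⟩, O,
    hO, fun p hp hpB => h1 p hp (hpB.trans h), fun p hp hpB => h2 p hp (hsub hpB)⟩
  exact (setIntegral_mono_set (half_int hz (isOpen_Lo B)) (Eventually.of_forall fun p => g2_nonneg z p)
    (Eventually.of_forall fun p hp => hsub hp)).trans hz.en

theorem half_monoN {W N N' : Set (ℝ × ℝ)} {ε ε' : ℝ} {z : ℝ × ℝ → ℝ} (h : Half E W N ε z)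
    (hN : N ⊆ N') (hε : ε ≤ ε') : Half E W N' ε' z where
  cf := h.cf
  rg := h.rg
  sp := by
    obtain ⟨S, hS, hSN, h0⟩ := h.sp
    exact ⟨S, hS, hSN.trans hN, h0⟩
  en := h.en.trans hε

/-- the dichotomy for one hair -/
theorem dich (hE : Pic E) {K : Hair} {Bm Bp : ℝ} (h : NullN E {K} Bm Bp) :
    LowK E K Bm ∨ UppK E K Bp := by
  by_contra hcon
  rw [not_or] at hcon
  obtain ⟨h1, h2⟩ := hcon
  unfold LowK at h1
  unfold UppK at h2
  push Not at h1 h2
  obtain ⟨N₁, hN₁, hK₁, ε₁, hε₁, H₁⟩ := h1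
  obtain ⟨N₂, hN₂, hK₂, ε₂, hε₂, H₂⟩ := h2
  have hun : un {K} = K.car := by simp [un]
  obtain ⟨zm, zp, hp⟩ := h (N₁ ∩ N₂) (hN₁.inter hN₂) (by rw [hun]; exact subset_inter hK₁ hK₂)
    (min ε₁ ε₂ / 5) (by positivity)
  obtain ⟨O, hO, hKO, hkey⟩ := hp.key K rfl
  have e1 : 5 * (min ε₁ ε₂ / 5) ≤ ε₁ := by
    have := min_le_left ε₁ ε₂; linarith
  have e2 : 5 * (min ε₁ ε₂ / 5) ≤ ε₂ := by
    have := min_le_right ε₁ ε₂; linarith
  by_cases hA : ∀ p ∈ O \ E, p ∈ Lo Bm → (9 / 20 : ℝ) ≤ zm p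
  · obtain ⟨z', hz', O', hO', hPO', h1'⟩ := fix hE (isOpen_Lo Bm) (hN₁.inter hN₂) K.isCompact_car
      (subset_inter hK₁ hK₂) hO hKO hp.m hA
    obtain ⟨p, hpO, hpB, hne⟩ := H₁ z' (half_monoN hz' inter_subset_left e1) O' hO'
      (fun p hp _ => hPO' hp)
    exact hne (h1' p hpO hpB)
  · push Not at hA
    obtain ⟨p₀, hp₀, hp₀B, hlt⟩ := hA
    have hB : ∀ q ∈ O \ E, q ∈ Up Bp → (9 / 20 : ℝ) ≤ zp q := by
      intro q hq hqB
      have := hkey p₀ hp₀ hp₀B q hq hqB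
      linarith
    obtain ⟨z', hz', O', hO', hPO', h1'⟩ := fix hE (isOpen_Up Bp) (hN₁.inter hN₂) K.isCompact_car
      (subset_inter hK₁ hK₂) hO hKO hp.p hB
    obtain ⟨p, hpO, hpB, hne⟩ := H₂ z' (half_monoN hz' inter_subset_right e2) O' hO'
      (fun p hp _ => hPO' hp)
    exact hne (h1' p hpO hpB)

theorem exists_beta (hE : Pic E) {K : Hair} (hK : K ∈ hairs E)
    (hN : ∀ Bm Bp, Fam E {K} Bm Bp → NullN E {K} Bm Bp) :
    ∃ β, K.b ≤ β ∧ β ≤ K.t ∧ (∀ B < β, LowK E K B) ∧ ∀ B > β, UppK E K B := by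
  set T : Set ℝ := {B | LowK E K B ∧ B ≤ K.t} with hT
  have hbdd : BddAbove T := ⟨K.t, fun B hB => hB.2⟩
  have hmem : ∀ B < K.b, B ∈ T := fun B hB => ⟨low_of_lt hB, hB.le.trans K.hbt.le⟩
  have hne : T.Nonempty := ⟨K.b - 1, hmem _ (by linarith)⟩
  refine ⟨sSup T, le_of_forall_lt fun B hB => ?_, csSup_le hne fun B hB => hB.2, ?_, ?_⟩
  · obtain ⟨B', h1, h2⟩ := exists_between hB
    exact h1.trans_le (le_csSup hbdd (hmem B' h2))
  · intro B hB
    obtain ⟨B', hB', hlt⟩ := exists_lt_of_lt_csSup hne hB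
    exact low_mono hlt.le hB'.1
  · intro B hB
    rcases lt_or_ge K.t B with h | h
    · exact upp_of_lt h
    · obtain ⟨B', h1, h2⟩ := exists_between hB
      have hb' : K.b ≤ B' := by
        refine le_of_forall_lt fun c hc => ?_
        obtain ⟨c', h3, h4⟩ := exists_between hc
        exact (h3.trans_le (le_csSup hbdd (hmem c' h4))).trans h1
      have hFam : Fam E {K} B' B := by
        refine ⟨h2, by rintro _ rfl; exact hK, ?_, ?_⟩
        · have hun : un {K} = K.car := by simp [un]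
          rw [hun]; exact K.isCompact_car
        · rintro _ rfl; exact ⟨hb', h⟩
      rcases dich hE (hN B' B hFam) with hl | hu
      · exfalso
        exact absurd (le_csSup hbdd (show B' ∈ T from ⟨hl, h2.le.trans h⟩)) (not_le.2 h1)
      · exact hu

end Crest.Agent.R105.Sing_49
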