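import Crest.Agent.R105.Sing2_49
import Crest.Agent.R105.Thin1_12

/-!
# Row 105, leaf `SINGLE`, part 3: the cut-off of one hair, averaging
-/

namespace Crest.Agent.R105.Sing_49

open Set Filter MeasureTheory Topology Metric
open CF_363 Stp_722 Skp2_257
open scoped ENNReal NNReal

variable {E : Set (ℝ × ℝ)}

theorem g2_one_sub {f : ℝ × ℝ → ℝ} {p : ℝ × ℝ} : g2 (fun q => 1 - f q) p = g2 f p := by
  simp only [g2, gx, gy, fderiv_const_sub]
  simp

theorem g2_zeta_le {l a b : ℝ × ℝ → ℝ} {p : ℝ × ℝ} (hl : DifferentiableAt ℝ l p)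
    (ha : DifferentiableAt ℝ a p) (hb : DifferentiableAt ℝ b p) (hl1 : 0 ≤ l p ∧ l p ≤ 1)
    (ha1 : 0 ≤ a p ∧ a p ≤ 1) (hb1 : 0 ≤ b p ∧ b p ≤ 1) :
    g2 (fun q => 1 - (1 - l q) * ((1 - a q) * (1 - b q))) p ≤
      2 * g2 l p + 4 * g2 a p + 4 * g2 b p := by
  rw [g2_one_sub (f := fun q => (1 - l q) * ((1 - a q) * (1 - b q)))]
  have h1 := g2_mul_le (hl.const_sub 1) ((ha.const_sub 1).mul (hb.const_sub 1))
  have h2 := g2_mul_le (ha.const_sub 1) (hb.const_sub 1)
  simp only [Pi.mul_apply] at h1 h2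
  rw [g2_one_sub] at h1
  rw [g2_one_sub, g2_one_sub] at h2
  have nl := g2_nonneg l p
  have na := g2_nonneg a p
  have nb := g2_nonneg b p
  have nab := g2_nonneg (fun q => (1 - a q) * (1 - b q)) p
  have s1 : (1 - l p) ^ 2 ≤ 1 := by nlinarith [hl1.1, hl1.2]
  have s2 : (1 - a p) ^ 2 ≤ 1 := by nlinarith [ha1.1, ha1.2]
  have s3 : (1 - b p) ^ 2 ≤ 1 := by nlinarith [hb1.1, hb1.2]
  have s4 : ((1 - a p) * (1 - b p)) ^ 2 ≤ 1 := by
    rw [mul_pow]; exact mul_le_one₀ s2 (sq_nonneg _) s3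
  have t1 := mul_le_mul_of_nonneg_right s1 nab
  have t2 := mul_le_mul_of_nonneg_right s4 nl
  have t3 := mul_le_mul_of_nonneg_right s2 nb
  have t4 := mul_le_mul_of_nonneg_right s3 na
  have e1 : g2 (fun q => (1 - l q) * ((1 - a q) * (1 - b q))) p ≤
      2 * ((1 - l p) ^ 2 * g2 (fun q => (1 - a q) * (1 - b q)) p) +
        2 * (((1 - a p) * (1 - b p)) ^ 2 * g2 l p) := h1
  have e2 : g2 (fun q => (1 - a q) * (1 - b q)) p ≤
      2 * ((1 - a p) ^ 2 * g2 b p) + 2 * ((1 - b p) ^ 2 * g2 a p) := h2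
  linarith

/-- the product of the three factors stays in `[0,1]` -/
theorem zeta_rg {x y z : ℝ} (hx : 0 ≤ x ∧ x ≤ 1) (hy : 0 ≤ y ∧ y ≤ 1) (hz : 0 ≤ z ∧ z ≤ 1) :
    0 ≤ 1 - (1 - x) * ((1 - y) * (1 - z)) ∧ 1 - (1 - x) * ((1 - y) * (1 - z)) ≤ 1 := by
  have h1 : 0 ≤ (1 - y) * (1 - z) := mul_nonneg (by linarith [hy.2]) (by linarith [hz.2])
  have h2 : (1 - y) * (1 - z) ≤ 1 := mul_le_one₀ (by linarith [hy.1]) (by linarith [hz.2])
    (by linarith [hz.1])
  have h3 : 0 ≤ (1 - x) * ((1 - y) * (1 - z)) := mul_nonneg (by linarith [hx.2]) h1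
  have h4 : (1 - x) * ((1 - y) * (1 - z)) ≤ 1 := mul_le_one₀ (by linarith [hx.1]) h1 h2
  constructor <;> linarith

/-- **the cut-off of one hair** (no control of the oscillations) -/
theorem one (hE : Pic E) {K : Hair} (hK : K ∈ hairs E)
    (hNN : ∀ Bm Bp, Fam E {K} Bm Bp → NullN E {K} Bm Bp) {N : Set (ℝ × ℝ)} (hN : IsOpen N)
    (hKN : K.car ⊆ N) {ε : ℝ} (hε : 0 < ε) :
    ∃ ζ, Half E univ N ε ζ ∧ ∃ O, IsOpen O ∧ K.car ⊆ O ∧ ∀ p ∈ O, ζ p = 1 := by
  classical
  obtain ⟨β, hβb, hβt, hlow, hupp⟩ := exists_beta hE hK hNN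
  set q : ℝ × ℝ := (K.x, β) with hq
  have hqK : q ∈ K.car := ⟨rfl, hβb, hβt⟩
  obtain ⟨l, Kl, r, hlip, hl01, hr, hl1, ⟨Sl, hSl, hSlN, hl0⟩, hlen⟩ :=
    exists_point_cut q hN (hKN hqK) (ε := ε / 20) (by positivity)
  set d := r / 2 with hd
  have hd0 : 0 < d := half_pos hr
  set N' : Set (ℝ × ℝ) := N ∩ {p | |p.1 - K.x| < d} with hN'
  have hN'o : IsOpen N' := hN.inter (isOpen_lt (by fun_prop) continuous_const)
  have hKN' : K.car ⊆ N' := fun p hp => ⟨hKN hp, by
    change |p.1 - K.x| < d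
    rw [hp.1, sub_self, abs_zero]; exact hd0⟩
  obtain ⟨zm, hzm, Om, hOm, hKOm, hzm1⟩ := hlow (β - d) (by linarith) N' hN'o hKN' (ε / 40)
    (by positivity)
  obtain ⟨zp, hzp, Op, hOp, hKOp, hzp1⟩ := hupp (β + d) (by linarith) N' hN'o hKN' (ε / 40)
    (by positivity)
  obtain ⟨Sm, hSm, hSmN, hSm0⟩ := hzm.sp
  obtain ⟨Sp, hSp, hSpN, hSp0⟩ := hzp.sp
  obtain ⟨Jm, hJm, hcfm⟩ := hzm.cf
  obtain ⟨Jp, hJp, hcfp⟩ := hzp.cf
  have hLo := isOpen_Lo (β - d)
  have hUp := isOpen_Up (β + d)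
  set a : ℝ × ℝ → ℝ := (Lo (β - d)).indicator zm with ha
  set b : ℝ × ℝ → ℝ := (Up (β + d)).indicator zp with hb
  have ha01 : ∀ p, 0 ≤ a p ∧ a p ≤ 1 := by
    intro p
    by_cases hp : p ∈ Lo (β - d)
    · rw [ha, indicator_of_mem hp]; exact hzm.rg p
    · rw [ha, indicator_of_notMem hp]; exact ⟨le_rfl, zero_le_one⟩
  have hb01 : ∀ p, 0 ≤ b p ∧ b p ≤ 1 := by
    intro p
    by_cases hp : p ∈ Up (β + d)
    · rw [hb, indicator_of_mem hp]; exact hzp.rg p
    · rw [hb, indicator_of_notMem hp]; exact ⟨le_rfl, zero_le_one⟩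
  have ha0 : ∀ p, p ∉ Sm → a p = 0 := by
    intro p hp
    by_cases hpL : p ∈ Lo (β - d)
    · rw [ha, indicator_of_mem hpL]; exact hSm0 p hpL hp
    · rw [ha, indicator_of_notMem hpL]
  have hb0 : ∀ p, p ∉ Sp → b p = 0 := by
    intro p hp
    by_cases hpL : p ∈ Up (β + d)
    · rw [hb, indicator_of_mem hpL]; exact hSp0 p hpL hp
    · rw [hb, indicator_of_notMem hpL]
  set ζ : ℝ × ℝ → ℝ := fun p => 1 - (1 - l p) * ((1 - a p) * (1 - b p)) with hζ
  refine ⟨ζ, ⟨?_, fun p => zeta_rg (hl01 p) (ha01 p) (hb01 p), ?_, ?_⟩, ?_⟩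
  · -- CFJ
    set J := Jm ∪ Jp with hJ
    have hcJ : IsOpen (cut J)ᶜ := (isClosed_cut J).isOpen_compl
    have hl : CF (univ : Set (ℝ × ℝ)) l := CF_of_lipschitz hlip (C := 1) fun p _ => by
      rw [abs_of_nonneg (hl01 p).1]; exact (hl01 p).2
    refine ⟨J, fun K' hK' => ?_, ?_⟩
    · rcases Finset.mem_union.1 hK' with h | h
      · exact hJm K' h
      · exact hJp K' h
    -- five open sets
    have c1 : CF (Lo (β - d) \ cut J) ζ := by
      have h1 : CF (Lo (β - d) \ cut J) zm :=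
        hcfm.mono (sdiff_subset_sdiff_right (cut_mono Finset.subset_union_left))
      have h2 : CF (Lo (β - d) \ cut J) l := hl.mono (subset_univ _)
      refine ((CF_const 1).sub (((CF_const 1).sub h2).mul ((CF_const 1).sub h1))).congr ?_
      intro p hp
      have e1 : a p = zm p := by rw [ha, indicator_of_mem hp.1]
      have e2 : b p = 0 := by
        rw [hb, indicator_of_notMem]
        intro h
        have h1 : p.2 < β - d := hp.1
        have h2 : β + d < p.2 := h
        linarith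
      simp only [hζ, e1, e2, sub_zero, mul_one]
    have c3 : CF (Up (β + d) \ cut J) ζ := by
      have h1 : CF (Up (β + d) \ cut J) zp :=
        hcfp.mono (sdiff_subset_sdiff_right (cut_mono Finset.subset_union_right))
      have h2 : CF (Up (β + d) \ cut J) l := hl.mono (subset_univ _)
      refine ((CF_const 1).sub (((CF_const 1).sub h2).mul ((CF_const 1).sub h1))).congr ?_
      intro p hp
      have e1 : b p = zp p := by rw [hb, indicator_of_mem hp.1]
      have e2 : a p = 0 := by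
        rw [ha, indicator_of_notMem]
        intro h
        have h1 : p.2 < β - d := h
        have h2 : β + d < p.2 := hp.1
        linarith
      simp only [hζ, e1, e2, sub_zero, one_mul]
    have c2 : CF {p : ℝ × ℝ | β - d < p.2 ∧ p.2 < β + d} ζ := by
      refine (hl.mono (subset_univ _)).congr ?_
      intro p hp
      have e1 : a p = 0 := by
        rw [ha, indicator_of_notMem]; exact not_lt.2 (le_of_lt hp.1)
      have e2 : b p = 0 := by
        rw [hb, indicator_of_notMem]; exact not_lt.2 (le_of_lt hp.2)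
      simp only [hζ, e1, e2]; ring
    have c4 : CF (ball q r) ζ := by
      refine (CF_const 1).congr ?_
      intro p hp
      simp only [hζ, hl1 p hp]; ring
    have c5 : CF (Sm ∪ Sp)ᶜ ζ := by
      refine (hl.mono (subset_univ _)).congr ?_
      intro p hp
      rw [mem_compl_iff, mem_union, not_or] at hp
      simp only [hζ, ha0 p hp.1, hb0 p hp.2]; ring
    have o2 : IsOpen {p : ℝ × ℝ | β - d < p.2 ∧ p.2 < β + d} :=
      (isOpen_lt continuous_const continuous_snd).inter (isOpen_lt continuous_snd continuous_const)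
    have o5 : IsOpen (Sm ∪ Sp)ᶜ := (hSm.union hSp).isClosed.isOpen_compl
    have k1 := CF.union (isOpen_diff_cut hLo J) (isOpen_diff_cut hUp J) c1 c3
    have k2 := CF.union ((isOpen_diff_cut hLo J).union (isOpen_diff_cut hUp J)) o2 k1 c2
    have k3 := CF.union (((isOpen_diff_cut hLo J).union (isOpen_diff_cut hUp J)).union o2)
      isOpen_ball k2 c4
    have k4 := CF.union ((((isOpen_diff_cut hLo J).union (isOpen_diff_cut hUp J)).union o2).union
      isOpen_ball) o5 k3 c5
    refine k4.mono ?_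
    intro p hp
    have key : ∀ s : ℝ × ℝ, s ∈ N' → |s.2 - β| < r → s ∈ ball q r := by
      intro s hs hs2
      rw [mem_ball, Prod.dist_eq, Real.dist_eq, Real.dist_eq]
      exact max_lt (lt_of_lt_of_le hs.2 (by rw [hd]; linarith)) hs2
    by_cases hpS : p ∈ Sm ∪ Sp
    · have hpN' : p ∈ N' := by
        rcases hpS with h | h
        · exact hSmN h
        · exact hSpN h
      rcases lt_trichotomy p.2 (β - d) with h | h | h
      · exact Or.inl (Or.inl (Or.inl (Or.inl ⟨h, hp.2⟩)))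
      · refine Or.inl (Or.inr (key p hpN' ?_))
        rw [h, abs_lt]; constructor <;> linarith
      · rcases lt_trichotomy p.2 (β + d) with h' | h' | h'
        · exact Or.inl (Or.inl (Or.inr ⟨h, h'⟩))
        · refine Or.inl (Or.inr (key p hpN' ?_))
          rw [h', abs_lt]; constructor <;> linarith
        · exact Or.inl (Or.inl (Or.inl (Or.inr ⟨h', hp.2⟩)))
    · exact Or.inr hpS
  · refine ⟨Sl ∪ (Sm ∪ Sp), hSl.union (hSm.union hSp), union_subset hSlN (union_subset
      (hSmN.trans inter_subset_left) (hSpN.trans inter_subset_left)), fun p _ hp => ?_⟩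
    rw [mem_union, not_or, mem_union, not_or] at hp
    simp only [hζ, hl0 p hp.1, ha0 p hp.2.1, hb0 p hp.2.2]; norm_num
  · -- energy
    have im := half_int hzm hLo
    have ip := half_int hzp hUp
    have il : Integrable (g2 l) := by
      have hlc : CF (univ \ cut ∅) l := by
        rw [cut_empty, sdiff_empty]
        exact CF_of_lipschitz hlip (C := 1) fun p _ => by
          rw [abs_of_nonneg (hl01 p).1]; exact (hl01 p).2
      have := int_g2 isOpen_univ hlc hSl fun p _ hp => hl0 p hp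
      rwa [integrableOn_univ] at this
    have im' : Integrable ((Lo (β - d)).indicator (g2 zm)) :=
      im.integrable_indicator hLo.measurableSet
    have ip' : Integrable ((Up (β + d)).indicator (g2 zp)) :=
      ip.integrable_indicator hUp.measurableSet
    obtain ⟨Lm, Cm, hLm, hSLm, -⟩ := hcfm
    obtain ⟨Lp, Cp, hLp, hSLp, -⟩ := hcfp
    have hline : ∀ c : ℝ, ∀ᵐ p : ℝ × ℝ, p.2 ≠ c := by
      intro c
      have h3 : volume {p : ℝ × ℝ | p.2 = c} = 0 := by
        have : {p : ℝ × ℝ | p.2 = c} = univ ×ˢ {c} := by ext p; simp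
        rw [this, Measure.volume_eq_prod, Measure.prod_prod]; simp
      filter_upwards [measure_eq_zero_iff_ae_notMem.mp h3] with p hp using hp
    have hle : ∀ᵐ p : ℝ × ℝ, g2 ζ p ≤ 2 * g2 l p + 4 * (Lo (β - d)).indicator (g2 zm) p +
        4 * (Up (β + d)).indicator (g2 zp) p := by
      filter_upwards [hline (β - d), hline (β + d),
        hSLm.ae_differentiableAt (μ := volume) (isOpen_diff_cut hLo Jm),
        hSLp.ae_differentiableAt (μ := volume) (isOpen_diff_cut hUp Jp),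
        measure_eq_zero_iff_ae_notMem.mp (volume_cut Jm),
        measure_eq_zero_iff_ae_notMem.mp (volume_cut Jp),
        hlip.ae_differentiableAt (μ := volume)] with p h1 h2 h3 h4 h5 h6 h7
      have hda : DifferentiableAt ℝ a p ∧ g2 a p = (Lo (β - d)).indicator (g2 zm) p := by
        rcases lt_or_gt_of_ne h1 with h | h
        · have e : a =ᶠ[𝓝 p] zm := by
            filter_upwards [hLo.mem_nhds (show p ∈ Lo (β - d) from h)] with s hs
            rw [ha, indicator_of_mem hs]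
          refine ⟨(h3 ⟨h, h5⟩).congr_of_eventuallyEq e, ?_⟩
          rw [g2_congr e, indicator_of_mem (show p ∈ Lo (β - d) from h)]
        · have e : a =ᶠ[𝓝 p] fun _ => 0 := by
            filter_upwards [(isOpen_lt continuous_const continuous_snd).mem_nhds
              (show p ∈ {s : ℝ × ℝ | β - d < s.2} from h)] with s hs
            rw [ha, indicator_of_notMem]; exact not_lt.2 (le_of_lt hs)
          refine ⟨(differentiableAt_const 0).congr_of_eventuallyEq e, ?_⟩
          rw [g2_const_near e, indicator_of_notMem]; exact not_lt.2 h.le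
      have hdb : DifferentiableAt ℝ b p ∧ g2 b p = (Up (β + d)).indicator (g2 zp) p := by
        rcases lt_or_gt_of_ne h2 with h | h
        · have e : b =ᶠ[𝓝 p] fun _ => 0 := by
            filter_upwards [(isOpen_lt continuous_snd continuous_const).mem_nhds
              (show p ∈ {s : ℝ × ℝ | s.2 < β + d} from h)] with s hs
            rw [hb, indicator_of_notMem]; exact not_lt.2 (le_of_lt hs)
          refine ⟨(differentiableAt_const 0).congr_of_eventuallyEq e, ?_⟩
          rw [g2_const_near e, indicator_of_notMem]; exact not_lt.2 h.le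
        · have e : b =ᶠ[𝓝 p] zp := by
            filter_upwards [hUp.mem_nhds (show p ∈ Up (β + d) from h)] with s hs
            rw [hb, indicator_of_mem hs]
          refine ⟨(h4 ⟨h, h6⟩).congr_of_eventuallyEq e, ?_⟩
          rw [g2_congr e, indicator_of_mem (show p ∈ Up (β + d) from h)]
      have := g2_zeta_le h7 hda.1 hdb.1 (hl01 p) (ha01 p) (hb01 p)
      rwa [hda.2, hdb.2] at this
    have h8 : En univ ζ ≤ ∫ p, (2 * g2 l p + 4 * (Lo (β - d)).indicator (g2 zm) p +
        4 * (Up (β + d)).indicator (g2 zp) p) := by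
      unfold En
      rw [setIntegral_univ]
      exact integral_mono_of_nonneg (Eventually.of_forall fun p => g2_nonneg _ p)
        (((il.const_mul 2).add (im'.const_mul 4)).add (ip'.const_mul 4)) hle
    have h9 : ∫ p, (2 * g2 l p + 4 * (Lo (β - d)).indicator (g2 zm) p +
        4 * (Up (β + d)).indicator (g2 zp) p) =
        2 * En univ l + 4 * En (Lo (β - d)) zm + 4 * En (Up (β + d)) zp := by
      have e1 := integral_add ((il.const_mul 2).add (im'.const_mul 4)) (ip'.const_mul 4)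
      have e2 := integral_add (il.const_mul 2) (im'.const_mul 4)
      simp only [Pi.add_apply] at e1 e2
      rw [e1, e2, integral_const_mul, integral_const_mul,
        integral_const_mul, integral_indicator hLo.measurableSet,
        integral_indicator hUp.measurableSet]
      simp only [En, setIntegral_univ]
    rw [h9] at h8
    have h10 := hzm.en
    have h11 := hzp.en
    linarith
  · refine ⟨(Om ∩ Lo (β - d)) ∪ (ball q r ∪ (Op ∩ Up (β + d))),
      (hOm.inter hLo).union (isOpen_ball.union (hOp.inter hUp)), ?_, ?_⟩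
    · intro p hp
      rcases lt_or_ge p.2 (β - d) with h | h
      · exact Or.inl ⟨hKOm p hp h.le, h⟩
      · rcases lt_or_ge (β + d) p.2 with h' | h'
        · exact Or.inr (Or.inr ⟨hKOp p hp h'.le, h'⟩)
        · refine Or.inr (Or.inl ?_)
          rw [mem_ball, Prod.dist_eq, Real.dist_eq, Real.dist_eq, hp.1, sub_self, abs_zero]
          refine max_lt hr (lt_of_le_of_lt (abs_le.2 ⟨?_, ?_⟩) (show d < r by rw [hd]; linarith))
          · change -d ≤ p.2 - β; linarith
          · change p.2 - β ≤ d; linarith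
    · rintro p (⟨h1, h2⟩ | h | ⟨h1, h2⟩)
      · have : a p = 1 := by rw [ha, indicator_of_mem h2]; exact hzm1 p h1 h2
        simp only [hζ, this]; ring
      · simp only [hζ, hl1 p h]; ring
      · have : b p = 1 := by rw [hb, indicator_of_mem h2]; exact hzp1 p h1 h2
        simp only [hζ, this]; ring

theorem g2_add_le' {f g : ℝ × ℝ → ℝ} {p : ℝ × ℝ} (hf : DifferentiableAt ℝ f p)
    (hg : DifferentiableAt ℝ g p) : g2 (fun q => f q + g q) p ≤ 2 * g2 f p + 2 * g2 g p := by
  simp only [g2, gx_add hf hg, gy_add hf hg]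
  nlinarith [sq_nonneg (gx f p - gx g p), sq_nonneg (gy f p - gy g p)]

/-- nested sums of cut-offs: only one summand varies on each component -/
theorem nested (hE : Pic E) {K : Hair} (hK : K ∈ hairs E)
    (hone : ∀ N, IsOpen N → K.car ⊆ N → ∀ ε : ℝ, 0 < ε →
      ∃ ζ, Half E univ N ε ζ ∧ ∃ O, IsOpen O ∧ K.car ⊆ O ∧ ∀ p ∈ O, ζ p = 1) :
    ∀ n : ℕ, ∀ N, IsOpen N → K.car ⊆ N → ∀ ε : ℝ, 0 < ε → ∃ ζ : ℝ × ℝ → ℝ,
      CFJ (hairs E) univ ζ ∧ (∀ p, 0 ≤ ζ p ∧ ζ p ≤ n) ∧
      (∃ S, IsCompact S ∧ S ⊆ N ∧ ∀ p, p ∉ S → ζ p = 0) ∧ En univ ζ ≤ ε ∧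
      (∃ O, IsOpen O ∧ K.car ⊆ O ∧ ∀ p ∈ O, ζ p = n) ∧ ∀ P ∈ Comps E, OscLe Eᶜ P ζ 1 := by
  intro n
  induction n with
  | zero =>
    intro N hN hKN ε hε
    refine ⟨fun _ => 0, CFJ_const 0, fun _ => by simp, ⟨∅, isCompact_empty, empty_subset _,
      fun _ _ => rfl⟩, (En_const univ 0).le.trans hε.le, ⟨N, hN, hKN, fun _ _ => by simp⟩, ?_⟩
    intro P _ η hη
    exact ⟨univ, isOpen_univ, subset_univ _, fun q _ q' _ => by simp; linarith⟩
  | succ n ih =>
    intro N hN hKN ε hε
    obtain ⟨ζ₁, h1, O₁, hO₁, hKO₁, h1O⟩ := hone N hN hKN (ε / 4) (by positivity)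
    obtain ⟨q₀, hq₀, hKq₀⟩ := hK
    obtain ⟨N₂, hN₂, hKN₂, hcN₂, -, hfr⟩ := Thin_12.thin_nhd hE.cpt hq₀
      (W := O₁ ∩ N) (hO₁.inter hN) (by rw [← hKq₀]; exact subset_inter hKO₁ hKN)
    rw [← hKq₀] at hKN₂
    obtain ⟨ζ₂, h2, h2rg, ⟨S₂, hS₂, hS₂N, h20⟩, h2en, ⟨O₂, hO₂, hKO₂, h2O⟩, h2osc⟩ :=
      ih N₂ hN₂ hKN₂ (ε / 4) (by positivity)
    obtain ⟨S₁, hS₁, hS₁N, h10⟩ := h1.sp
    refine ⟨fun p => ζ₁ p + ζ₂ p, h1.cf.add h2, fun p => ⟨add_nonneg (h1.rg p).1 (h2rg p).1, ?_⟩,
      ⟨S₁ ∪ S₂, hS₁.union hS₂, union_subset hS₁N (hS₂N.trans (subset_closure.trans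
        (hcN₂.trans inter_subset_right))), fun p hp => ?_⟩, ?_,
      ⟨O₁ ∩ O₂, hO₁.inter hO₂, subset_inter hKO₁ hKO₂, fun p hp => ?_⟩, ?_⟩
    · push_cast
      linarith [(h1.rg p).2, (h2rg p).2]
    · rw [mem_union, not_or] at hp
      simp only [h10 p (mem_univ p) hp.1, h20 p hp.2]; norm_num
    · have i1 := half_int h1 isOpen_univ
      obtain ⟨J₂, -, hcf₂⟩ := h2
      have i2 := int_g2 isOpen_univ hcf₂ hS₂ fun p _ hp => h20 p hp
      obtain ⟨J₁, -, L₁, C₁, hL₁, hSL₁, -⟩ := h1.cf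
      obtain ⟨L₂, C₂, hL₂, hSL₂, -⟩ := hcf₂
      have h3 : En univ (fun p => ζ₁ p + ζ₂ p) ≤ 2 * En univ ζ₁ + 2 * En univ ζ₂ := by
        unfold En
        rw [← integral_const_mul, ← integral_const_mul,
          ← integral_add (i1.const_mul 2) (i2.const_mul 2)]
        refine integral_mono_of_nonneg (Eventually.of_forall fun p => g2_nonneg _ p)
          ((i1.const_mul 2).add (i2.const_mul 2)) ?_
        filter_upwards [ae_restrict_of_ae (hSL₁.ae_differentiableAt (μ := volume)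
            (isOpen_diff_cut isOpen_univ J₁)),
          ae_restrict_of_ae (hSL₂.ae_differentiableAt (μ := volume)
            (isOpen_diff_cut isOpen_univ J₂)),
          ae_restrict_of_ae (measure_eq_zero_iff_ae_notMem.mp (volume_cut J₁)),
          ae_restrict_of_ae (measure_eq_zero_iff_ae_notMem.mp (volume_cut J₂))] with p a b c d
        exact g2_add_le' (a ⟨mem_univ p, c⟩) (b ⟨mem_univ p, d⟩)
      have := h1.en
      linarith
    · simp only [h1O p hp.1, h2O p hp.2]
      push_cast; ring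
    · intro P hP
      obtain ⟨x, hx, rfl⟩ := hP
      have hpre : IsPreconnected (connectedComponentIn E x) := isPreconnected_connectedComponentIn
      have hsubE : connectedComponentIn E x ⊆ E := connectedComponentIn_subset E x
      by_cases hm : (connectedComponentIn E x ∩ N₂).Nonempty
      · -- inside `N₂`: the first function is constant
        have hin : connectedComponentIn E x ⊆ N₂ := by
          have hdis : Disjoint N₂ (closure N₂)ᶜ := disjoint_compl_right.mono_left subset_closure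
          refine hpre.subset_left_of_subset_union hN₂
            (isClosed_closure (s := N₂)).isOpen_compl hdis ?_ hm
          intro y hy
          by_cases hyN : y ∈ N₂
          · exact Or.inl hyN
          · refine Or.inr fun hyc => disjoint_left.1 hfr ?_ (hsubE hy)
            rw [hN₂.frontier_eq]; exact ⟨hyc, hyN⟩
        have hinO : connectedComponentIn E x ⊆ O₁ := fun y hy =>
          (hcN₂ (subset_closure (hin hy))).1
        intro η hη
        obtain ⟨O, hO, hPO, H⟩ := h2osc _ ⟨x, hx, rfl⟩ η hη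
        refine ⟨O ∩ O₁, hO.inter hO₁, subset_inter hPO hinO, fun q hq q' hq' => ?_⟩
        have := H q ⟨hq.1.1, hq.2⟩ q' ⟨hq'.1.1, hq'.2⟩
        dsimp only
        rw [h1O q hq.1.2, h1O q' hq'.1.2]
        rwa [add_sub_add_left_eq_sub]
      · -- outside: the second one vanishes
        intro η hη
        refine ⟨S₂ᶜ, hS₂.isClosed.isOpen_compl, fun y hy hyS => hm ⟨y, hy, hS₂N hyS⟩,
          fun q hq q' hq' => ?_⟩
        dsimp only
        rw [h20 q hq.1, h20 q' hq'.1, add_zero, add_zero, abs_le]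
        have a1 := h1.rg q
        have a2 := h1.rg q'
        constructor <;> linarith [a1.1, a1.2, a2.1, a2.2]

/-- **SINGLE** -/
theorem single : SINGLE := by
  intro E hE K hK hNN N hN hKN M hM ε hε
  have hM0 : (0 : ℝ) < M := by exact_mod_cast hM
  have hM1 : (1 : ℝ) ≤ M := by exact_mod_cast hM
  obtain ⟨ζ, h1, hrg, ⟨S, hS, hSN, h0⟩, hen, ⟨O, hO, hKO, hO1⟩, hosc⟩ :=
    nested hE hK (fun N' hN' hKN' ε' hε' => one hE hK hNN hN' hKN' hε') M N hN hKN ε hε
  have hen' : En univ (fun p => (1 / (M : ℝ)) * ζ p) ≤ ε := by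
    obtain ⟨J, -, L, C, hL, hSL, -⟩ := h1
    rw [En_const_mul hSL (1 / (M : ℝ)) isOpen_univ (isClosed_cut J) (volume_cut J)]
    have h2 : (1 / (M : ℝ)) ^ 2 ≤ 1 := by
      rw [div_pow, one_pow, div_le_one (by positivity)]
      nlinarith
    have := mul_le_mul_of_nonneg_right h2 (En_nonneg univ ζ)
    linarith
  refine ⟨fun p => (1 / (M : ℝ)) * ζ p, ⟨h1.const_mul _, fun p => ⟨?_, ?_⟩,
    ⟨S, hS, hSN, fun p _ hp => by simp only [h0 p hp, mul_zero]⟩, hen'⟩,
    ⟨O, hO, hKO, fun p hp => ?_⟩, ?_⟩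
  · exact mul_nonneg (by positivity) (hrg p).1
  · rw [one_div, inv_mul_le_iff₀ hM0, mul_one]; exact (hrg p).2
  · simp only [hO1 p hp]; field_simp
  · intro P hP η hη
    obtain ⟨O', hO', hPO', H⟩ := hosc P hP (M * η) (by positivity)
    refine ⟨O', hO', hPO', fun q hq q' hq' => ?_⟩
    have := H q hq q' hq'
    rw [← mul_sub, abs_mul, abs_of_pos (by positivity : (0 : ℝ) < 1 / M), one_div,
      inv_mul_le_iff₀ hM0]
    calc |ζ q - ζ q'| ≤ 1 + M * η := this
      _ = M * ((M : ℝ)⁻¹ + η) := by field_simp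

end Crest.Agent.R105.Sing_49
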