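import Crest.Agent.R105.SkA2_8
import Crest.Agent.R105.Ata1_782
import Crest.Agent.R105.Cutp1_770

/-!
# Row 105, S0138, first half: attainment (helper8)

`attain : SWITCHP → LINP → CLOSEDP → AREAP → CONVP → ATTAINP`,
`attain' ` : the same with compactly supported anchors recorded
(greedy sequence of 782, limit of 755, `osc` of the limit by 790's `att`, minimality by 782's
`SelT.attained`).
-/

set_option autoImplicit false

open MeasureTheory Set Filter Topology Metric
open scoped NNReal ENNReal ContDiff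

namespace Crest.Agent.R105.SkA_8

open Crest.AnalysisR Bd_775 IfB_641 Tc_808 Ni_459 Grd_782

theorem en_add_const (u v : ℂ → ℝ) (c : ℝ) (z : ℂ) :
    en (fun w => (u w + c) - v w) z = en (fun w => u w - v w) z := by
  have h : (fun w => (u w + c) - v w) = fun w => (u w - v w) + c := by funext w; ring
  rw [h]
  unfold en gx gy
  simp only [fderiv_add_const]

/-- connected component in `Y` of a component -/
theorem near_const {Y : Set ℂ} (b : ℂ → ℝ) (h : ∀ z ∈ Y, ∀ᶠ w in 𝓝 z, b w = b z)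
    (K : Cmp Y) : ∃ c : ℝ, ∃ O, IsOpen O ∧ K.1 ⊆ O ∧ ∀ w ∈ O, b w = c := by
  obtain ⟨z, hz⟩ := K.nonempty
  have hcc : ∀ w ∈ K.1, b w = b z := by
    intro w hw
    have hlc : IsLocallyConstant (fun p : K.1 => b p) := by
      rw [IsLocallyConstant.iff_eventually_eq]
      intro p
      exact continuous_subtype_val.continuousAt.eventually (h p.1 (K.subset p.2))
    have : PreconnectedSpace K.1 := isPreconnected_iff_preconnectedSpace.1 K.preconn
    exact hlc.apply_eq_of_preconnectedSpace ⟨w, hw⟩ ⟨z, hz⟩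
  refine ⟨b z, interior {w | b w = b z}, isOpen_interior, fun w hw => ?_,
    fun w hw => (interior_subset hw : w ∈ {w | b w = b z})⟩
  rw [mem_interior_iff_mem_nhds]
  filter_upwards [h w (K.subset hw)] with p hp
  exact hp.trans (hcc w hw)

theorem osc_locconst {Y : Set ℂ} {b : ℂ → ℝ} (h : ∀ z ∈ Y, ∀ᶠ w in 𝓝 z, b w = b z)
    (K : Cmp Y) : Tc_808.osc Y b K.1 = 0 := by
  obtain ⟨c, O, hO, hKO, hc⟩ := near_const b h K
  rw [osc_congr hO hKO (v := fun _ => c) fun z hz _ => hc z hz, osc_const]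

theorem osc_addc {Y K : Set ℂ} {u : ℂ → ℝ} (hu : ∃ M, ∀ z, |u z| ≤ M) (c : ℝ) :
    Tc_808.osc Y (fun z => u z + c) K = Tc_808.osc Y u K := by
  have hcb : ∃ M, ∀ z : ℂ, |(fun _ : ℂ => c) z| ≤ M := ⟨|c|, fun _ => le_rfl⟩
  have hcb' : ∃ M, ∀ z : ℂ, |(fun _ : ℂ => -c) z| ≤ M := ⟨|-c|, fun _ => le_rfl⟩
  obtain ⟨M, hM⟩ := hu
  have hb : ∃ M, ∀ z, |u z + c| ≤ M := ⟨M + |c|, fun z => (abs_add_le _ _).trans (by gcongr; exact hM z)⟩
  apply le_antisymm
  · have := Tc_808.osc_add_le (Y := Y) (K := K) ⟨M, hM⟩ hcb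
    rw [osc_const] at this
    linarith
  · have h2 : (fun z => (u z + c) + -c) = u := by funext z; ring
    have := Tc_808.osc_add_le (Y := Y) (K := K) hb hcb'
    rw [osc_const] at this
    simp only [h2, add_zero] at this
    exact this

theorem osc_x0 {Y : Set ℂ} {x0 : ℂ → ℝ} (hx : X0 Y x0) (u : ℂ → ℝ) (K : Cmp Y) :
    Tc_808.osc Y (fun z => x0 z + u z) K.1 = Tc_808.osc Y u K.1 := by
  refine osc_congr (O := (tsupport x0)ᶜ) (isClosed_tsupport x0).isOpen_compl ?_ ?_
  · intro z hz hz'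
    exact hx.zero hz' (K.subset hz)
  · intro z hz _
    rw [image_eq_zero_of_notMem_tsupport hz, zero_add]

theorem attain (hsw : SWITCHP) (hlin : LINP) (hcl : CLOSEDP) (har : AREAP) (hcv : CONVP) :
    ATTAINP := by
  intro Y x0 hY hx
  have hYc : IsCompact Y := cpt_of hY
  have hcomb := combP_of_linp hlin hY hx
  have h00 : TT Y (fun _ => (0 : ℝ)) := TT.const 0
  obtain ⟨φ0, t0, p0, s0, -, -⟩ := hsw Y x0 hY hx _ h00 HasCompactSupport.zero
  obtain ⟨u, m, σ, -, h⟩ := selT hYc hx plin_cs (hsw Y x0 hY hx) hcomb t0 p0 s0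
  -- Euler-Lagrange limit for locally constant test functions
  have hel : ∀ ψ, TT Y ψ → HasCompactSupport ψ → (∀ z ∈ Y, ∀ᶠ w in 𝓝 z, ψ w = ψ z) →
      Tendsto (fun n => di Y (u n) ψ - ∫ z, ψ z * lap x0 z) atTop (𝓝 0) := by
    intro ψ hψ hc hlc
    have hni : ∀ i, NI Y (u i) ψ := fun i => NI_locconst hY hlc
    have hosc : ∀ K : Cmp Y, Tc_808.osc Y ψ K.1 = 0 := osc_locconst hlc
    have hb : ∀ n, |di Y (u n) ψ - ∫ z, ψ z * lap x0 z| ≤
        Real.sqrt ((TJ Y x0 (u n) - m) * ET Y ψ) := by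
      intro n
      have := h.near_el hYc.isClosed hx plin_cs hcomb hψ hc hni n
      simpa [hosc] using this
    have ht : Tendsto (fun n => Real.sqrt ((TJ Y x0 (u n) - m) * ET Y ψ)) atTop (𝓝 0) := by
      have h1 : Tendsto (fun n => (TJ Y x0 (u n) - m) * ET Y ψ) atTop (𝓝 ((m - m) * ET Y ψ)) :=
        (h.lim.sub_const m).mul_const _
      have h2 := (Real.continuous_sqrt.tendsto _).comp h1
      rw [sub_self, zero_mul, Real.sqrt_zero] at h2
      exact h2
    exact squeeze_zero_norm hb ht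
  obtain ⟨F, ψ, c, hF, hre, hinf, hq, hcv1, hcv2⟩ := hcv Y x0 hY hx u m σ h hel
  -- the sequence with the constants
  have tv : ∀ n, TT Y (fun z => u n z + c n) := fun n => TT_add_const hYc.isClosed (h.tt n) (c n)
  have hLB : ∀ n, LB fun z => x0 z + u n z := fun n => LB_x0 hx (h.tt n)
  have sv : ∀ n, Swd Y (fun z => x0 z + (u n z + c n)) := by
    intro n
    have := Swd_add_const hY (hLB n) (h.swd n) (c n)
    have e : (fun z => x0 z + (u n z + c n)) = fun z => (x0 z + u n z) + c n := by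
      funext z; ring
    rw [e]; exact this
  have nv : ∀ i j, NI Y (fun z => u i z + c i) (fun z => u j z + c j) := fun i j =>
    (NI_add_const₂ hY (LB_TT (h.tt i)) (LB_TT (h.tt j)) (c i) (c j)).2 (h.ni i j)
  have ov : ∀ n (K : Cmp Y), Tc_808.osc Y (fun z => u n z + c n) K.1 = Tc_808.osc Y (u n) K.1 := by
    intro n K
    exact osc_addc (h.tt n).q.bdd (c n)
  have he : Tendsto (fun n => ∫ z in Yᶜ, en (fun w => u n w - ψ w) z) atTop (𝓝 0) := by
    simpa only [en_add_const] using hcv2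
  have hx0l : LocallyLipschitz x0 := (hx.sm.of_le (by exact_mod_cast le_top)).locallyLipschitz
  have lipv : ∀ n, LocallyLipschitzOn Yᶜ fun z => x0 z + (u n z + c n) := by
    intro n
    exact hx0l.locallyLipschitzOn.add (tv n).q.loc
  have hlbv : ∀ n, LB fun z => x0 z + (u n z + c n) := fun n => LB_x0 hx (tv n)
  have hcnt : ∀ n, {K : Cmp Y | Tc_808.osc Y (fun z => x0 z + (u n z + c n)) K.1 ≠ 0}.Countable := by
    intro n
    refine (tv n).countable.mono fun K hK => ?_
    have : Tc_808.osc Y (fun z => x0 z + (u n z + c n)) K.1 =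
        Tc_808.osc Y (fun z => u n z + c n) K.1 := osc_x0 hx _ K
    show Tc_808.osc Y (fun z => u n z + c n) K.1 ≠ 0
    rw [← this]; exact hK
  have hosc : ∀ K : Cmp Y, Tc_808.osc Y ψ K.1 ≤ σ K := by
    refine Att3_790.att hY hx.sm.continuous hx.zero tv sv (fun n => ?_) (fun i j G hG => ?_)
      hq.loc hq.fin hcv1 hcv2 (fun n => ?_) h.sum ?_
    · intro t N hN hNb z hz
      obtain ⟨C, h1, h2, h3, h4, h5, -⟩ :=
        Uni_659.bump hY (lipv n) (hlbv n) (sv n) t hN hNb hz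
      exact ⟨C, h1, h2, h3, h4, h5⟩
    · exact har Y _ _ hY (lipv i) (lipv j) (hlbv i) (hlbv j) (hcnt i) (hcnt j)
        ((NI_x0 hx).2 (nv i j)) G hG
    · have hQ := ((tv n).q.sub hYc.isClosed hq)
      exact hQ.fin
    · simpa only [ov] using h.l2
  have hni : TT Y ψ → ∀ i, NI Y (u i) ψ := by
    intro htψ i
    refine hcl Y x0 hY hx (u i) (h.tt i) (h.p i) (h.swd i) (fun n z => u n z + c n) ψ σ tv htψ
      (fun n => ?_) h.sum hcv1 hcv2 ?_ hosc
    · exact (NI_add_const hY (LB_TT (h.tt n)) (c n)).2 (h.ni i n)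
    · simpa only [ov] using h.l2
  obtain ⟨ttψ, niψ, -, -, hmin⟩ := SelT.attained hYc hx h hq he hosc hni
  exact ⟨u, ψ, F, hY, hx, h.tt, h.swd, h.ni, ttψ, niψ, hmin, hF, hre, hinf⟩

end Crest.Agent.R105.SkA_8
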