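import Crest.Agent.R105.SkA1_8

/-!
# Row 105, S0138, first half: `VALP` (helper832)

Null image only sees the honest values at the components: the values at components where `b`
jumps form a countable set, the values of `w` in a countable set `S` give a null set.
-/

set_option autoImplicit false

open MeasureTheory Set Filter Topology Metric
open scoped NNReal ENNReal

namespace Crest.Agent.R105.SkVal_832

open Bd_775 Tc_808 Ni_459 Crest.AnalysisR

/-- the values of a function at the jump components of `b` form a countable set -/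
lemma countable_jumps {Y : Set ℂ} {b : ℂ → ℝ} (hY : IsExteriorDomain Yᶜ) (hb : TT Y b)
    (f : ℂ → ℝ × ℝ) (hf : ∀ z ∈ Y, ∀ w ∈ connectedComponentIn Y z, f w = f z) :
    {p : ℝ × ℝ | ∃ z ∈ Y, lo Y b z ≠ up Y b z ∧ f z = p}.Countable := by
  have hc : {K : Cmp Y | Tc_808.osc Y b K.1 ≠ 0}.Countable := by
    refine (hb.sum.countable_support).mono fun K hK => ?_
    rw [Function.mem_support]
    exact pow_ne_zero 2 hK
  -- a representative of every component
  let r : Cmp Y → ℂ := fun K => K.2.choose
  have hr : ∀ K : Cmp Y, r K ∈ Y ∧ K.1 = connectedComponentIn Y (r K) := fun K => K.2.choose_spec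
  refine (hc.image fun K => f (r K)).mono ?_
  rintro p ⟨z, hz, hne, rfl⟩
  let K : Cmp Y := ⟨connectedComponentIn Y z, z, hz, rfl⟩
  refine ⟨K, ?_, ?_⟩
  · show Tc_808.osc Y b (connectedComponentIn Y z) ≠ 0
    rw [osc_eq hY hb.q.bdd hz]
    intro h
    exact hne (by linarith)
  · have h1 := (hr K).2
    have h2 : r K ∈ connectedComponentIn Y z := by
      have : r K ∈ connectedComponentIn Y (r K) := mem_connectedComponentIn (hr K).1
      rw [← h1] at this
      exact this
    exact hf z hz _ h2

/-- **VALP** -/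
theorem valP : SkA_8.VALP := by
  intro Y a b w hY ha hb hw hab S hS h
  have hS0 : volume ((univ : Set ℝ) ×ˢ S) = 0 := by
    rw [Measure.volume_eq_prod, Measure.prod_prod, hS.measure_zero, mul_zero]
  have hJ := countable_jumps (Y := Y) (b := b) hY hb (fun z => (up Y a z, up Y w z))
    fun z hz x hx => by
      simp only [up_congr_cc hz hx]
  refine measure_mono_null (t := NP Y a b ∪ (univ : Set ℝ) ×ˢ S ∪
    {p : ℝ × ℝ | ∃ z ∈ Y, lo Y b z ≠ up Y b z ∧ (up Y a z, up Y w z) = p}) ?_
    (measure_union_null (measure_union_null hab hS0) (hJ.measure_zero _))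
  rintro p ⟨z, hz, h1, h2, h3, h4⟩
  rcases h z hz (h3.trans h4.symm) with ⟨h5, h6⟩ | h5 | h5
  · exact Or.inl (Or.inl ⟨z, hz, h1, h2, by rw [h5, h6, h4], by rw [h6, h4]⟩)
  · exact Or.inl (Or.inr ⟨mem_univ _, h4 ▸ h5⟩)
  · exact Or.inr ⟨z, hz, h5, Prod.ext h2 h4⟩

end Crest.Agent.R105.SkVal_832
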