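import Crest.Agent.R105.Skp2_257

/-!
# Row 105: leaf `CFPL` of 257's skeleton of PP, version 2

Functions cut along finitely many hairs are regular, and planar off the cut.
-/

namespace Crest.Agent.R105.Skc2_49

open Set Filter MeasureTheory Topology
open CF_363 Stp_722 Skp2_257
open scoped ENNReal NNReal

/-- off the topological support the gradient vanishes -/
theorem g2_eq_zero {f : ℝ × ℝ → ℝ} {p : ℝ × ℝ} (h : p ∉ tsupport f) : g2 f p = 0 := by
  have h1 : f =ᶠ[𝓝 p] fun _ => (0 : ℝ) := notMem_tsupport_iff_eventuallyEq.mp h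
  simp [g2, gx_congr h1, gy_congr h1]

theorem integrable_g2 {f : ℝ × ℝ → ℝ} {S : Set (ℝ × ℝ)} {L : ℝ} (hf : SL Sᶜ L f)
    (hS : IsClosed S) (hS0 : volume S = 0) (hc : HasCompactSupport f) : Integrable (g2 f) := by
  have hf' : SL Sᶜ (max L 0) f := hf.mono_const (le_max_left _ _)
  have h1 : IntegrableOn (g2 f) (tsupport f) := by
    refine Measure.integrableOn_of_bounded (M := 2 * (max L 0) ^ 2) hc.measure_lt_top.ne
      (measurable_g2 f).aestronglyMeasurable ?_
    have h2 : ∀ᵐ p ∂(volume.restrict (tsupport f)), p ∉ S :=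
      ae_restrict_of_ae (measure_eq_zero_iff_ae_notMem.mp hS0)
    filter_upwards [h2] with p hp
    rw [Real.norm_of_nonneg (g2_nonneg f p)]
    exact hf'.g2_le hS.isOpen_compl (le_max_right _ _) hp
  refine (integrableOn_iff_integrable_of_support_subset fun p hp => ?_).1 h1
  by_contra hcon
  exact hp (g2_eq_zero hcon)

theorem cut_sub {E : Set (ℝ × ℝ)} {J : Finset Hair} (hJ : ∀ K ∈ J, K ∈ hairs E) :
    cut J ⊆ E := by
  intro p hp
  obtain ⟨K, hK, hpK⟩ := mem_cut.1 hp
  obtain ⟨q, _, hP⟩ := hJ K hK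
  rw [hP] at hpK
  exact connectedComponentIn_subset _ _ hpK

/-- **CFPL** -/
theorem cfpl : CFPL := by
  intro E hE f hf hc hb
  obtain ⟨C, hC⟩ := hb
  obtain ⟨J, hJ, L, C', hL, hSL, -⟩ := hf
  have hcE : cut J ⊆ E := cut_sub hJ
  have hSL' : SL (cut J)ᶜ L f := by rwa [← compl_eq_univ_sdiff] at hSL
  have hop : IsOpen (cut J)ᶜ := (isClosed_cut J).isOpen_compl
  have hlip : LocallyLipschitzOn Eᶜ f := by
    intro p hp
    obtain ⟨r, hr, -, hl⟩ := hSL'.lipschitzOnWith_ball hop (fun h => hp (hcE h))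
    exact ⟨_, _, mem_nhdsWithin_of_mem_nhds (Metric.ball_mem_nhds p hr), hl⟩
  have hfin : IntegrableOn (g2 f) Eᶜ :=
    (integrable_g2 hSL' (isClosed_cut J) (volume_cut J) hc).integrableOn
  refine ⟨⟨hlip, hc, ⟨C, hC⟩, hfin⟩, J, hJ, ⟨⟨C, hC⟩, hSL'.continuousOn hop, hlip, hfin, ?_, ?_⟩⟩
  · filter_upwards [hSL'.ftc_x hop] with y hy a b hab hd
    have hd' : ∀ x ∈ uIcc a b, (x, y) ∈ (cut J)ᶜ := by
      rw [uIcc_of_le hab]; exact hd
    refine ⟨?_, hy a b hd'⟩
    rw [intervalIntegrable_iff_integrableOn_Icc_of_le hab]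
    refine Measure.integrableOn_of_bounded (M := L) (by simp) ?_ ?_
    · exact ((measurable_gx f).comp (measurable_id.prodMk measurable_const)).aestronglyMeasurable
    · filter_upwards [ae_restrict_mem measurableSet_Icc] with x hx
      exact hSL'.abs_gx_le hop hL (hd x hx)
  · filter_upwards [hSL'.ftc_y hop] with x hx a b hab hd
    have hd' : ∀ y ∈ uIcc a b, (x, y) ∈ (cut J)ᶜ := by
      rw [uIcc_of_le hab]; exact hd
    refine ⟨?_, hx a b hd'⟩
    rw [intervalIntegrable_iff_integrableOn_Icc_of_le hab]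
    refine Measure.integrableOn_of_bounded (M := L) (by simp) ?_ ?_
    · exact ((measurable_gy f).comp (measurable_const.prodMk measurable_id)).aestronglyMeasurable
    · filter_upwards [ae_restrict_mem measurableSet_Icc] with y hy
      exact hSL'.abs_gy_le hop hL (hd y hy)

end Crest.Agent.R105.Skc2_49
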