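import Crest.Agent.R105.CF3_363
import Crest.Agent.R105.Stp1_722

/-!
# Row 105, skeleton of PP (picture half of [B]): the literal contracts between the modules

Plane `ℝ × ℝ`; `E` compact, null, every component a point or a vertical hair; `V = Eᶜ`.
Everything is locally Lipschitz on `V`, gradients are `gx, gy` of 363 (`fderiv`), oscillations near
components are `OscLe Eᶜ P f c` of 722.
-/

namespace Crest.Agent.R105.Skp_257

open Set Filter MeasureTheory Topology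
open CF_363 Stp_722

/-- The components of `E`. -/
def Comps (E : Set (ℝ × ℝ)) : Set (Set (ℝ × ℝ)) := {P | ∃ p ∈ E, P = connectedComponentIn E p}

/-- A slit picture: compact null set, components = points and vertical hairs. -/
structure Pic (E : Set (ℝ × ℝ)) : Prop where
  cpt : IsCompact E
  null : volume E = 0
  comp : ∀ P ∈ Comps E, (∃ p, P = {p}) ∨ ∃ K : Hair, P = K.car

/-- The hairs of `E`. -/
def hairs (E : Set (ℝ × ℝ)) : Set Hair := {K | K.car ∈ Comps E}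

/-! ## Function classes -/

/-- Basic regularity of the test functions (values on `E` are irrelevant). -/
structure Reg (E : Set (ℝ × ℝ)) (f : ℝ × ℝ → ℝ) : Prop where
  lip : LocallyLipschitzOn Eᶜ f
  cpt : HasCompactSupport f
  bdd : ∃ C : ℝ, ∀ p, |f p| ≤ C
  fin : IntegrableOn (g2 f) Eᶜ

/-- Honest: oscillation zero at every component. -/
def Honest (E : Set (ℝ × ℝ)) (f : ℝ × ℝ → ℝ) : Prop :=
  Reg E f ∧ ∀ P ∈ Comps E, OscLe Eᶜ P f 0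

/-- One atom: oscillation zero at every component with the exception of one hair. -/
def OneAtom (E : Set (ℝ × ℝ)) (f : ℝ × ℝ → ℝ) : Prop :=
  Reg E f ∧ ∃ K ∈ hairs E, ∀ P ∈ Comps E, P ≠ K.car → OscLe Eᶜ P f 0

/-- Planar `W^{1,2}` (continuous, ACL on a.e. line, the null set `E` included). -/
structure Pla (E : Set (ℝ × ℝ)) (b : ℝ × ℝ → ℝ) : Prop where
  cont : Continuous b
  cpt : HasCompactSupport b
  lip : LocallyLipschitzOn Eᶜ b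
  fin : IntegrableOn (g2 b) Eᶜ
  hor : ∀ᵐ y : ℝ, ∀ x x', b (x', y) - b (x, y) = ∫ t in x..x', gx b (t, y)
  ver : ∀ᵐ x : ℝ, ∀ y y', b (x, y') - b (x, y) = ∫ t in y..y', gy b (x, t)

/-- Planar and constant on every component = what the isotropic algebra `B` looks like. -/
def Pl (E : Set (ℝ × ℝ)) (b : ℝ × ℝ → ℝ) : Prop :=
  Pla E b ∧ ∀ P ∈ Comps E, ∀ p ∈ P, ∀ q ∈ P, b p = b q

/-- Planar off a compact set `G ⊆ E`. -/
def PlaOff (E G : Set (ℝ × ℝ)) (f : ℝ × ℝ → ℝ) : Prop :=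
  ∀ χ : ℝ × ℝ → ℝ, (∃ L, LipschitzWith L χ) → HasCompactSupport χ → Disjoint (tsupport χ) G →
    Pla E (fun p => χ p * f p)

/-- The class generated by `S` (775's `Gen`): constants, sums, products, Lipschitz functions of
one variable. -/
inductive Gen (S : Set (ℝ × ℝ → ℝ)) : (ℝ × ℝ → ℝ) → Prop
  | const (c : ℝ) : Gen S (fun _ => c)
  | of (u : ℝ × ℝ → ℝ) : u ∈ S → Gen S u
  | add (u v : ℝ × ℝ → ℝ) : Gen S u → Gen S v → Gen S (fun p => u p + v p)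
  | mul (u v : ℝ × ℝ → ℝ) : Gen S u → Gen S v → Gen S (fun p => u p * v p)
  | comp (h : ℝ → ℝ) (u : ℝ × ℝ → ℝ) : (∃ L, LipschitzWith L h) → Gen S u →
      Gen S (fun p => h (u p))

/-- `ψ` is isotropic with ALL planar functions constant on the components. -/
def IsoPl (E : Set (ℝ × ℝ)) (ψ : ℝ × ℝ → ℝ) : Prop :=
  ∀ u v, Gen (insert ψ {b | Pl E b}) u → Gen (insert ψ {b | Pl E b}) v →
    ∫ p in Eᶜ, (gx u p * gy v p - gy u p * gx v p) = 0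

/-- The Euler-Lagrange condition in the form delivered by the selection. -/
def EL (E : Set (ℝ × ℝ)) : Prop :=
  ∀ ψ, (Honest E ψ ∨ OneAtom E ψ) → IsoPl E ψ → ∫ p in Eᶜ, gx ψ p = 0

/-- **PP**: no hairs in an E-L picture. -/
def PP : Prop := ∀ E, Pic E → EL E → hairs E = ∅

/-! ## Families of hairs, test pairs (two-ended conductance) -/

/-- the union of a family -/
def un (g : Set Hair) : Set (ℝ × ℝ) := ⋃ K ∈ g, K.car

/-- A compact family of hairs of `E` crossing the levels `Bm < Bp`. -/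
structure Fam (E : Set (ℝ × ℝ)) (g : Set Hair) (Bm Bp : ℝ) : Prop where
  lt : Bm < Bp
  sub : g ⊆ hairs E
  cpt : IsCompact (un g)
  crs : ∀ K ∈ g, K.b ≤ Bm ∧ Bp ≤ K.t

/-- the regularity of one half of a test pair (`W` = a half plane): piecewise Lipschitz, cut along
finitely many hairs of `E`, values in `[0,1]`, zero off a compact subset of `N`, energy `≤ ε` -/
structure Half (E W N : Set (ℝ × ℝ)) (ε : ℝ) (z : ℝ × ℝ → ℝ) : Prop where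
  cf : CFJ (hairs E) W z
  rg : ∀ p, 0 ≤ z p ∧ z p ≤ 1
  sp : ∃ S, IsCompact S ∧ S ⊆ N ∧ ∀ p ∈ W, p ∉ S → z p = 0
  en : En W z ≤ ε

/-- lower half plane -/
def Lo (B : ℝ) : Set (ℝ × ℝ) := {p | p.2 < B}
/-- upper half plane -/
def Up (B : ℝ) : Set (ℝ × ℝ) := {p | B < p.2}

/-- A test pair of energy `≤ ε` supported in `N`. -/
structure Pair (E : Set (ℝ × ℝ)) (g : Set Hair) (Bm Bp : ℝ) (N : Set (ℝ × ℝ)) (ε : ℝ)
    (zm zp : ℝ × ℝ → ℝ) : Prop where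
  m : Half E (Lo Bm) N ε zm
  p : Half E (Up Bp) N ε zp
  key : ∀ K ∈ g, ∃ O, IsOpen O ∧ K.car ⊆ O ∧
    ∀ p ∈ O \ E, p ∈ Lo Bm → ∀ q ∈ O \ E, q ∈ Up Bp → (9 / 10 : ℝ) ≤ zm p + zp q

/-- open box -/
def Bx (L : ℝ) : Set (ℝ × ℝ) := Ioo (-L) L ×ˢ Ioo (-L) L

/-- conductance zero in every box which contains `E` -/
def NullB (E : Set (ℝ × ℝ)) (g : Set Hair) (Bm Bp : ℝ) : Prop :=
  ∀ L, E ⊆ Bx L → ∀ ε > 0, ∃ zm zp, Pair E g Bm Bp (Bx L) ε zm zp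

/-- conductance zero in every neighbourhood -/
def NullN (E : Set (ℝ × ℝ)) (g : Set Hair) (Bm Bp : ℝ) : Prop :=
  ∀ N, IsOpen N → un g ⊆ N → ∀ ε > 0, ∃ zm zp, Pair E g Bm Bp N ε zm zp

/-! ## The leaves -/

/-- **PSI** (425 with 238, 421, 87, 271): positive conductance gives a test function which violates
E-L. For a singleton family one atom is allowed; for a general family the singletons are already
known to be null. -/
def PSI : Prop := ∀ E, Pic E → ∀ g Bm Bp, Fam E g Bm Bp →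
  ((∃ K, g = {K}) ∨ ∀ K ∈ g, NullB E {K} Bm Bp) → ¬ NullB E g Bm Bp →
  ∃ ψ, (Honest E ψ ∨ OneAtom E ψ) ∧ PlaOff E (un g) ψ ∧ ∫ p in Eᶜ, gx ψ p ≠ 0

/-- **NULLIM** (909 X2 / 938): a planar function constant on the components maps a compact family
crossing a strip onto a null set. -/
def NULLIM : Prop := ∀ E, Pic E → ∀ g Bm Bp, Fam E g Bm Bp → ∀ b, Pl E b →
  volume (b '' un g) = 0

/-- **ISOG** (938 / 909): planar off `G`, `G` has null image under all `Pl` functions ⟹ isotropic. -/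
def ISOG : Prop := ∀ E, Pic E → ∀ G, IsCompact G → G ⊆ E → (∀ b, Pl E b → volume (b '' G) = 0) →
  ∀ ψ, Reg E ψ → PlaOff E G ψ → IsoPl E ψ

/-- **ISOLIM** (938 / 909 X5): isotropy passes to the limit. -/
def ISOLIM : Prop := ∀ E, Pic E → ∀ (φ : ℕ → ℝ × ℝ → ℝ) (ψ : ℝ × ℝ → ℝ),
  (∀ n, Reg E (φ n)) → Reg E ψ →
  (∃ S, IsCompact S ∧ ∀ n, ∀ p ∉ S, φ n p = 0) → (∃ C : ℝ, ∀ n p, |φ n p| ≤ C) →
  (∀ A, IsCompact A → A ⊆ Eᶜ → ∀ᶠ n in atTop, ∀ p ∈ A, φ n p = ψ p) →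
  Tendsto (fun n => ∫ p in Eᶜ, g2 (fun q => φ n q - ψ q) p) atTop (𝓝 0) →
  (∀ n, IsoPl E (φ n)) → IsoPl E ψ

/-- **LOC** (271 Loc1 + cut-off): from the box to every neighbourhood. -/
def LOC : Prop := ∀ E, Pic E → ∀ g Bm Bp, Fam E g Bm Bp → NullB E g Bm Bp → NullN E g Bm Bp

/-- the output of the layer lemma -/
def LayOut (E : Set (ℝ × ℝ)) (g : Set Hair) (Bm Bp : ℝ) : Prop :=
  ∀ N, IsOpen N → un g ⊆ N → ∀ M : ℕ, 1 ≤ M → ∀ ε > 0, ∃ zm zp,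
    Half E (Lo Bm) N ε zm ∧ Half E (Up Bp) N ε zp ∧
    (∀ P ∈ Comps E, OscLe (Eᶜ ∩ Lo Bm) (P ∩ {p | p.2 ≤ Bm}) zm (1 / M)) ∧
    (∀ P ∈ Comps E, OscLe (Eᶜ ∩ Up Bp) (P ∩ {p | Bp ≤ p.2}) zp (1 / M)) ∧
    ∀ K ∈ g, (∃ O, IsOpen O ∧ K.car ∩ {p | p.2 ≤ Bm} ⊆ O ∧ ∀ p ∈ O \ E, p ∈ Lo Bm → zm p = 1) ∨
      (∃ O, IsOpen O ∧ K.car ∩ {p | Bp ≤ p.2} ⊆ O ∧ ∀ p ∈ O \ E, p ∈ Up Bp → zp p = 1)

/-- **LAY** (925 Lay1 + 891 thin pieces): Lemma C. -/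
def LAY : Prop := ∀ E, Pic E → ∀ g Bm Bp, Fam E g Bm Bp → NullN E g Bm Bp → LayOut E g Bm Bp

/-- the cut-off of a single hair -/
def SinOut (E : Set (ℝ × ℝ)) (K : Hair) : Prop :=
  ∀ N, IsOpen N → K.car ⊆ N → ∀ M : ℕ, 1 ≤ M → ∀ ε > 0, ∃ ζ, Half E univ N ε ζ ∧
    (∃ O, IsOpen O ∧ K.car ⊆ O ∧ ∀ p ∈ O, ζ p = 1) ∧
    ∀ P ∈ Comps E, OscLe Eᶜ P ζ (1 / M)

/-- **SINGLE**: (4) of #8892. -/
def SINGLE : Prop := ∀ E, Pic E → ∀ K ∈ hairs E,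
  (∀ Bm Bp, Fam E {K} Bm Bp → NullN E {K} Bm Bp) → SinOut E K

/-- the output of one halving step -/
def StepOut (E : Set (ℝ × ℝ)) : Prop :=
  ∀ (φ : ℝ × ℝ → ℝ) (a : ℝ), 0 < a → CFJ (hairs E) univ φ → HasCompactSupport φ →
    (∀ P ∈ Comps E, OscLe Eᶜ P φ a) → ∀ W, IsOpen W → E ⊆ W → ∀ ε > 0,
    ∃ φ', CFJ (hairs E) univ φ' ∧ (∀ p ∉ W, φ' p = φ p) ∧ (∀ p, |φ' p - φ p| ≤ 2 * a) ∧
      (∫ p in Eᶜ, g2 (fun q => φ' q - φ q) p) ≤ ε ∧ ∀ P ∈ Comps E, OscLe Eᶜ P φ' (a / 2)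

/-- **STEP** (722): (5) of #8892. -/
def STEP : Prop := ∀ E, Pic E → (∀ g Bm Bp, Fam E g Bm Bp → LayOut E g Bm Bp) →
  (∀ K ∈ hairs E, SinOut E K) → StepOut E

/-- the output of the iteration -/
def LimOut (E : Set (ℝ × ℝ)) : Prop :=
  ∀ Φ, CFJ (hairs E) univ Φ → HasCompactSupport Φ → (∃ C : ℝ, ∀ p, |Φ p| ≤ C) → ∀ ε > 0,
    ∃ (φ : ℕ → ℝ × ℝ → ℝ) (ψ : ℝ × ℝ → ℝ), Honest E ψ ∧
      (∀ n, CFJ (hairs E) univ (φ n)) ∧ (∃ C : ℝ, ∀ n p, |φ n p| ≤ C) ∧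
      (∃ S, IsCompact S ∧ ∀ n, ∀ p ∉ S, φ n p = 0) ∧ (∀ n, HasCompactSupport (φ n)) ∧
      (∀ A, IsCompact A → A ⊆ Eᶜ → ∀ᶠ n in atTop, ∀ p ∈ A, φ n p = ψ p) ∧
      Tendsto (fun n => ∫ p in Eᶜ, g2 (fun q => φ n q - ψ q) p) atTop (𝓝 0) ∧
      |(∫ p in Eᶜ, gx ψ p) - ∫ p in Eᶜ, gx Φ p| ≤ ε

/-- **LIM**: (6) of #8892, iteration with summable errors. -/
def LIM : Prop := ∀ E, Pic E → StepOut E → LimOut E

/-- **CFPL**: functions cut along finitely many hairs are planar off the cut; finite cuts have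
null image. -/
def CFPL : Prop := ∀ E, Pic E → ∀ f, CFJ (hairs E) univ f → HasCompactSupport f → (∃ C : ℝ, ∀ p, |f p| ≤ C) →
  Reg E f ∧ ∃ J : Finset Hair, (∀ K ∈ J, K ∈ hairs E) ∧ PlaOff E (cut J) f

/-- **START**: the function which violates E-L, one-sided ramp at a hair. -/
def START : Prop := ∀ E, Pic E → ∀ K ∈ hairs E, ∃ Φ, CFJ (hairs E) univ Φ ∧ HasCompactSupport Φ ∧
  (∃ C : ℝ, ∀ p, |Φ p| ≤ C) ∧ 0 < |∫ p in Eᶜ, gx Φ p|

/-! ## Assembly -/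

theorem fam_singleton {E : Set (ℝ × ℝ)} {g : Set Hair} {Bm Bp : ℝ} (h : Fam E g Bm Bp) {K : Hair}
    (hK : K ∈ g) : Fam E {K} Bm Bp where
  lt := h.lt
  sub := by rintro _ rfl; exact h.sub hK
  cpt := by simpa [un] using K.isCompact_car
  crs := by rintro _ rfl; exact h.crs _ hK

theorem un_sub {E : Set (ℝ × ℝ)} {g : Set Hair} (h : g ⊆ hairs E) : un g ⊆ E := by
  intro p hp
  simp only [un, mem_iUnion] at hp
  obtain ⟨K, hK, hpK⟩ := hp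
  obtain ⟨q, _, hP⟩ := h hK
  rw [hP] at hpK
  exact connectedComponentIn_subset _ _ hpK

theorem nullB {E : Set (ℝ × ℝ)} (hE : Pic E) (hEL : EL E) (hPSI : PSI) (hN : NULLIM)
    (hI : ISOG) : ∀ g Bm Bp, Fam E g Bm Bp → NullB E g Bm Bp := by
  have key : ∀ g Bm Bp, Fam E g Bm Bp → ((∃ K, g = {K}) ∨ ∀ K ∈ g, NullB E {K} Bm Bp) →
      NullB E g Bm Bp := by
    intro g Bm Bp hg h1
    by_contra hnot
    obtain ⟨ψ, hψ, hoff, hne⟩ := hPSI E hE g Bm Bp hg h1 hnot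
    refine hne (hEL ψ hψ (hI E hE (un g) hg.cpt (un_sub hg.sub)
      (fun b hb => hN E hE g Bm Bp hg b hb) ψ ?_ hoff))
    rcases hψ with h | h
    · exact h.1
    · exact h.1
  intro g Bm Bp hg
  exact key g Bm Bp hg (Or.inr fun K hK => key {K} Bm Bp (fam_singleton hg hK) (Or.inl ⟨K, rfl⟩))

theorem volume_image_cut {E : Set (ℝ × ℝ)} {b : ℝ × ℝ → ℝ} (hb : Pl E b) {J : Finset Hair}
    (hJ : ∀ K ∈ J, K ∈ hairs E) : volume (b '' cut J) = 0 := by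
  rw [cut_eq_biUnion, image_iUnion₂]
  refine (measure_biUnion_null_iff J.countable_toSet).2 fun K hK => ?_
  have : b '' K.car ⊆ {b (K.x, K.b)} := by
    rintro _ ⟨p, hp, rfl⟩
    exact hb.2 K.car (hJ K hK) p hp (K.x, K.b) (Hair.mem_car.2 ⟨rfl, le_rfl, K.hbt.le⟩)
  exact measure_mono_null this (by simp)

theorem pp_of_leaves (hPSI : PSI) (hN : NULLIM) (hI : ISOG) (hIL : ISOLIM) (hLOC : LOC)
    (hLAY : LAY) (hSIN : SINGLE) (hSTEP : STEP) (hLIM : LIM) (hCF : CFPL) (hST : START) : PP := by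
  intro E hE hEL
  have hB := nullB hE hEL hPSI hN hI
  have hNN : ∀ g Bm Bp, Fam E g Bm Bp → NullN E g Bm Bp :=
    fun g Bm Bp hg => hLOC E hE g Bm Bp hg (hB g Bm Bp hg)
  have hstep : StepOut E := hSTEP E hE (fun g Bm Bp hg => hLAY E hE g Bm Bp hg (hNN g Bm Bp hg))
    (fun K hK => hSIN E hE K hK (fun Bm Bp hg => hNN {K} Bm Bp hg))
  have hlim := hLIM E hE hstep
  by_contra hne
  obtain ⟨K, hK⟩ := nonempty_iff_ne_empty.2 hne
  obtain ⟨Φ, hΦ, hΦc, hΦb, hpos⟩ := hST E hE K hK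
  obtain ⟨φ, ψ, hψ, hφ, ⟨C, hC⟩, ⟨S, hS, hS0⟩, hφc, heq, hen, hl1⟩ :=
    hlim Φ hΦ hΦc hΦb (|∫ p in Eᶜ, gx Φ p| / 2) (by positivity)
  have hreg : ∀ n, Reg E (φ n) := fun n => (hCF E hE (φ n) (hφ n) (hφc n) ⟨C, hC n⟩).1
  have hiso : ∀ n, IsoPl E (φ n) := by
    intro n
    obtain ⟨hr, J, hJ, hoff⟩ := hCF E hE (φ n) (hφ n) (hφc n) ⟨C, hC n⟩
    refine hI E hE (cut J) (isCompact_cut J) ?_ (fun b hb => volume_image_cut hb hJ) (φ n) hr hoff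
    intro p hp
    obtain ⟨K', hK', hp'⟩ := mem_cut.1 hp
    exact un_sub (g := {K | K ∈ J}) (fun K hK => hJ K hK)
      (by simp only [un, mem_iUnion]; exact ⟨K', hK', hp'⟩)
  have hisoψ : IsoPl E ψ := hIL E hE φ ψ hreg hψ.1 ⟨S, hS, hS0⟩ ⟨C, hC⟩ heq hen hiso
  have h0 : ∫ p in Eᶜ, gx ψ p = 0 := hEL ψ (Or.inl hψ) hisoψ
  rw [h0, zero_sub, abs_neg] at hl1
  linarith

end Crest.Agent.R105.Skp_257
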