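import Crest.Agent.R105.Skp2_257
import Crest.Agent.R105.IfB1_641

/-!
# Row 105, [B]: from PP on `ℝ × ℝ` to helper641's `PPP` on `ℂ`
-/

namespace Crest.Agent.R105.Skp3_257

open Set Filter MeasureTheory Topology
open Skp2_257

/-- `ℝ × ℝ → ℂ` -/
noncomputable def eC : ℝ × ℝ ≃ₜ ℂ := Complex.equivRealProdCLM.symm.toHomeomorph

theorem eC_apply (q : ℝ × ℝ) : eC q = ⟨q.1, q.2⟩ := by
  apply Complex.ext <;> simp [eC]

/-- the picture set on `ℝ × ℝ` -/
def EP (C : Set ℂ) (p : ℂ → ℂ) : Set (ℝ × ℝ) := eC ⁻¹' (p '' Cᶜ)ᶜ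

/-- **ADP** (987): the picture is a slit picture and satisfies E-L in the form of `Skp2_257`. -/
def ADP : Prop :=
  ∀ (C : Set ℂ) (x0 : ℂ → ℝ) (b : ℕ → ℂ → ℝ) (φ : ℂ → ℝ) (p : ℂ → ℂ),
    IfB_641.Pk C x0 b φ → IfB_641.Cpl C x0 φ p → InjOn p Cᶜ → volume (p '' Cᶜ)ᶜ = 0 →
    (∀ u, IfB_641.Gen C (insert φ (range b)) u → IfB_641.Planar C x0 φ p u) →
    Pic (EP C p) ∧ EL (EP C p)

theorem totallyDisconnected_of_points {S : Set ℂ}
    (h : ∀ q ∈ eC ⁻¹' S, connectedComponentIn (eC ⁻¹' S) q = {q}) : IsTotallyDisconnected S := by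
  intro t htS ht x hx y hy
  have h1 : IsPreconnected (eC ⁻¹' t) := by
    have := ht.image _ eC.symm.continuous.continuousOn
    rwa [eC.symm.image_eq_preimage_symm, Homeomorph.symm_symm] at this
  have hx' : eC.symm x ∈ eC ⁻¹' t := by simpa using hx
  have hy' : eC.symm y ∈ eC ⁻¹' t := by simpa using hy
  have hsub : eC ⁻¹' t ⊆ eC ⁻¹' S := preimage_mono htS
  have h2 := h1.subset_connectedComponentIn hx' hsub hy'
  rw [h _ (hsub hx')] at h2
  exact (eC.symm.injective h2).symm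

/-- 641's `PPP` from `PP` and the adapter. -/
theorem ppp_of (hPP : PP) (hAD : ADP) : IfB_641.PPP := by
  intro C x0 b φ p hPk hCpl hinj hnull hpl
  obtain ⟨h1, h2⟩ := hAD C x0 b φ p hPk hCpl hinj hnull hpl
  exact totallyDisconnected_of_points (hPP.points h1 h2)

end Crest.Agent.R105.Skp3_257
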