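import Crest.Agent.R105.Adp3_257
import Crest.Agent.R105.Isx4_909
import Crest.Agent.R105.Isl1_157
import Crest.Agent.R105.Lop1_744
import Crest.Agent.R105.Sin3_925
import Crest.Agent.R105.SkLim2_363
import Crest.Agent.R105.Skc2_49
import Crest.Agent.R105.Skst2_49

/-!
# Row 105, [B]: PP and PPP from the leaves which are still open
-/

namespace Crest.Agent.R105.Skp5_257

open Skp2_257 Skp3_257 Skp4_257

/-- PP from LEMA, ISOG, STEP -/
theorem pp_of (hA : LEMA) (hI : ISOG) (hS : STEP) : PP :=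
  pp_of_leaves hA Isx_909.nullim hI Isl_157.isolim (stepall_of Lop1_744.lay Sin_925.single hS)
    SkLim2_363.lim Skc2_49.cfpl Skst2_49.start

/-- PPP from LEMA, ISOG, STEP and PLN -/
theorem ppp_of (hA : LEMA) (hI : ISOG) (hS : STEP) (hP : PLN) : IfB_641.PPP :=
  Skp4_257.ppp_of (pp_of hA hI hS) hP Adp_257.picp Adp_257.elp

end Crest.Agent.R105.Skp5_257
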