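import Crest.Agent.R105.Skp5_257
import Crest.Agent.R105.Iso7_938
import Crest.Agent.R105.Stp12_722
import Crest.Agent.R105.Pln4_868
import Crest.Agent.R105.IfB3_641
import Crest.Agent.R105.Selp_775
import Crest.Agent.R105.Dir4_508
import Crest.Agent.R105.Uv8_913
import Crest.Agent.R105.Null1_442

/-!
# Row 105: PPP from LEMA; BP from ATTP and LEMA
-/

namespace Crest.Agent.R105.Skp6_257

open Skp2_257 Skp3_257 Skp4_257

theorem pp_of_lema (h : LEMA) : PP := Skp5_257.pp_of h Iso_938.isog Stp_722.step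

theorem ppp_of_lema (h : LEMA) : IfB_641.PPP :=
  Skp5_257.ppp_of h Iso_938.isog Stp_722.step Pln_868.pln

/-- BP from the last two leaves -/
theorem bp_of (hA : IfB_641.ATTP) (hL : LEMA) : IfB_641.BP :=
  IfB_641.BP_of_leaves Bd_775.selp hA Dir_508.dirp Uv_913.univp Pic_442.nullp Pln_868.planp
    (ppp_of_lema hL)

end Crest.Agent.R105.Skp6_257
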