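import Crest.Agent.R105.Thin1_12

/-!
# Row 105, S0138 (T-frame, null image isotropy), SLICES, part 1 (helper732)

`null_image`: on a continuum `L ⊆ ℂ` (a level set of a switched function), saturated with respect
to the compact set `E`, if the oscillation of `b` on every saturated subcontinuum `C` (seen from
`C \ E`) is at most `ν C`, where the finite measure `ν` does not charge `(L ∩ E) \ S`, then the set
of the values of `b` on `(L ∩ E) \ S` is Lebesgue null.
-/

set_option autoImplicit false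

open MeasureTheory Set Filter Topology Metric
open scoped NNReal ENNReal

namespace Crest.Agent.R105.Sl_732

open Thin_12

/-- `A` is saturated with respect to the components of `E`. -/
def Sat {X : Type*} [TopologicalSpace X] (E A : Set X) : Prop :=
  ∀ z ∈ A, z ∈ E → connectedComponentIn E z ⊆ A

section general
variable {X : Type*} [TopologicalSpace X]

/-- boundary bumping, general form -/
theorem bump' [T2Space X] {L W : Set X} (hL : IsClosed L) (hLc : IsPreconnected L)
    (hW : IsClosed W) (hLW : IsCompact (L ∩ W)) {z : X} (hzL : z ∈ L) (hzW : z ∈ W)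
    (hne : ¬ L ⊆ interior W) :
    (connectedComponentIn (L ∩ W) z ∩ frontier W).Nonempty := by
  by_contra hcon
  rw [not_nonempty_iff_eq_empty] at hcon
  have hsub : connectedComponentIn (L ∩ W) z ⊆ interior W := by
    intro w hw
    by_contra hwi
    have : w ∈ connectedComponentIn (L ∩ W) z ∩ frontier W :=
      ⟨hw, by rw [hW.frontier_eq]; exact ⟨(connectedComponentIn_subset _ _ hw).2, hwi⟩⟩
    rw [hcon] at this
    exact this
  obtain ⟨K₁, h1, h2, h1K, hCK, hKW⟩ :=
    exists_clopen hLW ⟨hzL, hzW⟩ isOpen_interior hsub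
  have hcl : IsClosed (((L ∩ W) \ K₁) ∪ (L \ interior W)) :=
    h2.isClosed.union (hL.sdiff isOpen_interior)
  rw [isPreconnected_closed_iff] at hLc
  obtain ⟨w, hwL, hw1, hw2⟩ := hLc K₁ (((L ∩ W) \ K₁) ∪ (L \ interior W)) h1.isClosed hcl
    (by
      intro w hw
      by_cases hwK : w ∈ K₁
      · exact Or.inl hwK
      · by_cases hwi : w ∈ interior W
        · exact Or.inr (Or.inl ⟨⟨hw, interior_subset hwi⟩, hwK⟩)
        · exact Or.inr (Or.inr ⟨hw, hwi⟩))
    ⟨z, hzL, hCK (mem_connectedComponentIn ⟨hzL, hzW⟩)⟩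
    (by
      rw [not_subset] at hne
      obtain ⟨w, hw, hwi⟩ := hne
      exact ⟨w, hw, Or.inr ⟨hw, hwi⟩⟩)
  rcases hw2 with hw2 | hw2
  · exact hw2.2 hw1
  · exact hw2.2 (hKW hw1)

/-- boundary bumping -/
theorem bump [T2Space X] {L W : Set X} (hL : IsCompact L) (hLc : IsPreconnected L)
    (hW : IsClosed W) {z : X} (hzL : z ∈ L) (hzW : z ∈ W) (hne : ¬ L ⊆ interior W) :
    (connectedComponentIn (L ∩ W) z ∩ frontier W).Nonempty :=
  bump' hL.isClosed hLc hW (hL.inter_right hW) hzL hzW hne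

/-- a component of `E` which meets a set `W` whose frontier misses `E` lies in the interior. -/
theorem cc_subset_interior {E W : Set X} (hf : Disjoint (frontier W) E) {z : X} (hzE : z ∈ E)
    (hz : z ∈ W) : connectedComponentIn E z ⊆ interior W := by
  have hzi : z ∈ interior W := by
    by_contra h
    exact disjoint_left.1 hf ⟨subset_closure hz, h⟩ hzE
  have hp : IsPreconnected (connectedComponentIn E z) := isPreconnected_connectedComponentIn
  have hcov : connectedComponentIn E z ⊆ interior W ∪ (closure W)ᶜ := by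
    intro w hw
    by_contra hcon
    rw [mem_union, not_or, mem_compl_iff, not_not] at hcon
    exact disjoint_left.1 hf ⟨hcon.2, hcon.1⟩ (connectedComponentIn_subset _ _ hw)
  refine hp.subset_left_of_subset_union isOpen_interior isClosed_closure.isOpen_compl ?_ hcov
    ⟨z, mem_connectedComponentIn hzE, hzi⟩
  rw [disjoint_left]
  intro w hw hw2
  exact hw2 (interior_subset.trans subset_closure hw)

end general

section plane

variable {E L S : Set ℂ} {b : ℂ → ℝ}

/-- a point of the continuum `C` off `E`, where `b` is nearly `b z` -/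
theorem exists_near (hE : IsCompact E) {C : Set ℂ} (hC : IsCompact C) (hCp : IsPreconnected C)
    (hU : (C \ E).Nonempty) {z : ℂ} (hzC : z ∈ C) (hzE : z ∈ E) {O : Set ℂ} (hO : IsOpen O)
    (hzO : connectedComponentIn E z ⊆ O) : ∃ p ∈ C \ E, p ∈ O := by
  obtain ⟨N, hNo, hzN, hNO, hNc, hNf⟩ := thin_nhd hE hzE hO hzO
  by_cases h : C ⊆ interior (closure N)
  · obtain ⟨p, hp⟩ := hU
    exact ⟨p, hp, hNO (interior_subset (h hp.1))⟩
  · obtain ⟨p, hp1, hp2⟩ := bump hC hCp isClosed_closure hzC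
      (subset_closure (hzN (mem_connectedComponentIn hzE))) h
    have hp3 : p ∈ C ∩ closure N := connectedComponentIn_subset _ _ hp1
    have hp4 : p ∈ frontier N := frontier_closure_subset hp2
    exact ⟨p, ⟨hp3.1, disjoint_left.1 hNf hp4⟩, hNO hp3.2⟩

/-- a nondegenerate subcontinuum off `E` -/
theorem exists_sub (hE : IsCompact E) {C : Set ℂ} (hC : IsCompact C) (hCp : IsPreconnected C)
    (hU : (C \ E).Nonempty) {z : ℂ} (hzC : z ∈ C) (hzE : z ∈ E) :
    ∃ C' ⊆ C \ E, IsCompact C' ∧ IsPreconnected C' ∧ C'.Nontrivial := by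
  obtain ⟨p, hpC, hpE⟩ := hU
  obtain ⟨r, hr, hrE⟩ := Metric.nhds_basis_closedBall.mem_iff.1
    (hE.isClosed.isOpen_compl.mem_nhds hpE)
  have hne : ¬ C ⊆ interior (closedBall p r) := fun h => hrE (interior_subset (h hzC)) hzE
  obtain ⟨q, hq1, hq2⟩ := bump hC hCp isClosed_closedBall hpC (mem_closedBall_self hr.le) hne
  have hpI : p ∈ C ∩ closedBall p r := ⟨hpC, mem_closedBall_self hr.le⟩
  refine ⟨connectedComponentIn (C ∩ closedBall p r) p, fun w hw => ?_,
    isCompact_cc (hC.inter_right isClosed_closedBall) _, isPreconnected_connectedComponentIn,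
    p, mem_connectedComponentIn hpI, q, hq1, ?_⟩
  · have hw' := connectedComponentIn_subset _ _ hw
    exact ⟨hw'.1, hrE hw'.2⟩
  · rintro rfl
    rw [frontier_closedBall _ hr.ne', mem_sphere, dist_self] at hq2
    exact hr.ne hq2

/-- the bound for the values on one class -/
theorem class_le (hE : IsCompact E) {C : Set ℂ} (hC : IsCompact C) (hCp : IsPreconnected C)
    (hU : (C \ E).Nonempty) {G : Set ℂ} (hG : G ⊆ E)
    (hb : ∀ z ∈ G, ∀ δ > 0, ∃ O, IsOpen O ∧ connectedComponentIn E z ⊆ O ∧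
      ∀ w ∈ O \ E, |b w - b z| < δ) {c : ℝ}
    (H : ∀ p ∈ C \ E, ∀ q ∈ C \ E, |b p - b q| ≤ c) :
    volume (b '' (C ∩ G)) ≤ ENNReal.ofReal c := by
  refine (Real.volume_le_diam _).trans (Metric.ediam_le ?_)
  rintro _ ⟨z, ⟨hzC, hzG⟩, rfl⟩ _ ⟨w, ⟨hwC, hwG⟩, rfl⟩
  rw [edist_dist, Real.dist_eq]
  refine ENNReal.ofReal_le_ofReal (le_of_forall_pos_le_add fun δ hδ => ?_)
  obtain ⟨O, hO, hzO, h1⟩ := hb z hzG (δ / 2) (half_pos hδ)
  obtain ⟨P, hP, hwP, h2⟩ := hb w hwG (δ / 2) (half_pos hδ)
  obtain ⟨p, hp, hpO⟩ := exists_near hE hC hCp hU hzC (hG hzG) hO hzO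
  obtain ⟨q, hq, hqP⟩ := exists_near hE hC hCp hU hwC (hG hwG) hP hwP
  have h3 := h1 p ⟨hpO, hp.2⟩
  have h4 := h2 q ⟨hqP, hq.2⟩
  have h5 := H p hp q hq
  rw [abs_lt] at h3 h4
  rw [abs_le] at h5 ⊢
  constructor <;> linarith

/-- **SLICES, core.** -/
theorem null_image (hE : IsCompact E) (hL : IsCompact L) (hLc : IsPreconnected L)
    (sat : Sat E L) (hU : (L \ E).Nonempty) (ν μ : Measure ℂ) [IsFiniteMeasure ν] [SigmaFinite μ]
    (pos : ∀ C ⊆ L \ E, IsCompact C → IsPreconnected C → C.Nontrivial → μ C ≠ 0)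
    (hSs : Sat E S) (hS : ν ((L ∩ E) \ S) = 0)
    (hb : ∀ z ∈ (L ∩ E) \ S, ∀ δ > 0, ∃ O, IsOpen O ∧ connectedComponentIn E z ⊆ O ∧
      ∀ w ∈ O \ E, |b w - b z| < δ)
    (H : ∀ C ⊆ L, IsCompact C → IsPreconnected C → Sat E C →
      ∀ p ∈ C \ E, ∀ q ∈ C \ E, |b p - b q| ≤ (ν C).toReal) :
    volume (b '' ((L ∩ E) \ S)) = 0 := by
  classical
  set G : Set ℂ := (L ∩ E) \ S with hG
  have hGE : G ⊆ E := fun z hz => hz.1.2
  have hGs : Sat E G := by
    intro z hz hzE w hw
    refine ⟨⟨sat z hz.1.1 hzE hw, connectedComponentIn_subset _ _ hw⟩, fun hwS => hz.2 ?_⟩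
    have h1 := hSs w hwS (connectedComponentIn_subset _ _ hw)
    rw [← connectedComponentIn_eq hw] at h1
    exact h1 (mem_connectedComponentIn hzE)
  refine le_antisymm (ENNReal.le_of_forall_pos_le_add fun ε hε _ => ?_) zero_le
  rw [zero_add]
  obtain ⟨W, hGW, hWo, hWε⟩ := G.exists_isOpen_lt_of_lt (ε : ℝ≥0∞) (μ := ν)
    (by rw [hS]; exact_mod_cast hε)
  have hN : ∀ z ∈ G, ∃ N, IsOpen N ∧ connectedComponentIn E z ⊆ N ∧ closure N ⊆ W ∧
      IsCompact (closure N) ∧ Disjoint (frontier N) E := fun z hz =>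
    thin_nhd hE (hGE hz) hWo ((hGs z hz (hGE hz)).trans hGW)
  choose! N hNo hzN hNW hNc hNf using hN
  have hzN' : ∀ z ∈ G, z ∈ N z := fun z hz => hzN z hz (mem_connectedComponentIn (hGE hz))
  obtain ⟨T, hTG, hTc, hTcov⟩ := TopologicalSpace.countable_cover_nhdsWithin
    (s := G) (f := N) (fun z hz => mem_nhdsWithin_of_mem_nhds ((hNo z hz).mem_nhds (hzN' z hz)))
  rcases T.eq_empty_or_nonempty with hTe | hTne
  · have hGe : G = ∅ := by
      rw [hTe] at hTcov
      simpa using hTcov
    rw [hGe]; simp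
  obtain ⟨e, he⟩ := hTc.exists_eq_range hTne
  have heG : ∀ n, e n ∈ G := fun n => hTG (by rw [he]; exact mem_range_self n)
  set O : ℕ → Set ℂ := fun k => ⋃ n ∈ Finset.range k, N (e n) with hO
  set V : ℕ → Set ℂ := fun k => ⋃ n ∈ Finset.range k, closure (N (e n)) with hV
  have hOV : ∀ k, O k ⊆ interior (V k) := by
    intro k
    refine interior_maximal ?_ (isOpen_biUnion fun n _ => hNo _ (heG n))
    exact iUnion₂_mono fun n _ => subset_closure
  have hVc : ∀ k, IsCompact (V k) := fun k =>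
    (Finset.range k).isCompact_biUnion fun n _ => hNc _ (heG n)
  have hVW : ∀ k, V k ⊆ W := fun k => iUnion₂_subset fun n _ => hNW _ (heG n)
  have hVf : ∀ k, Disjoint (frontier (V k)) E := by
    intro k
    rw [disjoint_left]
    intro z hz hzE
    rw [(hVc k).isClosed.frontier_eq] at hz
    obtain ⟨n, hn, hzn⟩ := mem_iUnion₂.1 hz.1
    have h1 : z ∉ N (e n) := fun h => hz.2 (hOV k (mem_iUnion₂.2 ⟨n, hn, h⟩))
    have h2 : z ∈ frontier (N (e n)) := by
      rw [(hNo _ (heG n)).frontier_eq]; exact ⟨hzn, h1⟩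
    exact disjoint_left.1 (hNf _ (heG n)) h2 hzE
  have hmono : Monotone O := fun k l hkl =>
    biUnion_subset_biUnion_left (by
      intro n hn
      simp only [Finset.coe_range, Set.mem_Iio] at hn ⊢
      exact lt_of_lt_of_le hn hkl)
  have hcov : G ⊆ ⋃ k, O k := by
    intro z hz
    obtain ⟨x, hx, hzx⟩ := mem_iUnion₂.1 (hTcov hz)
    rw [he] at hx
    obtain ⟨n, rfl⟩ := hx
    exact mem_iUnion.2 ⟨n + 1, mem_iUnion₂.2 ⟨n, by simp, hzx⟩⟩
  -- one stage
  have stage : ∀ k, volume (b '' (G ∩ O k)) ≤ ε := by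
    intro k
    set K : Set ℂ := L ∩ V k with hK
    have hKc : IsCompact K := hL.inter_right (hVc k).isClosed
    -- the classes
    set ι : Type := {C : Set ℂ // ∃ z ∈ G ∩ O k, C = connectedComponentIn K z} with hι
    have hmem : ∀ z ∈ G ∩ O k, z ∈ K := fun z hz =>
      ⟨hz.1.1.1, interior_subset (hOV k hz.2)⟩
    have hCc : ∀ C : ι, IsCompact C.1 := by
      rintro ⟨C, z, hz, rfl⟩
      exact isCompact_cc hKc z
    have hCp : ∀ C : ι, IsPreconnected C.1 := by
      rintro ⟨C, z, hz, rfl⟩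
      exact isPreconnected_connectedComponentIn
    have hCL : ∀ C : ι, C.1 ⊆ L := by
      rintro ⟨C, z, hz, rfl⟩
      exact (connectedComponentIn_subset _ _).trans inter_subset_left
    have hCV : ∀ C : ι, C.1 ⊆ V k := by
      rintro ⟨C, z, hz, rfl⟩
      exact (connectedComponentIn_subset _ _).trans inter_subset_right
    have hCU : ∀ C : ι, (C.1 \ E).Nonempty := by
      rintro ⟨C, z, hz, rfl⟩
      by_cases h : L ⊆ interior (V k)
      · have hKL : K = L := inter_eq_left.2 (h.trans interior_subset)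
        obtain ⟨p, hp⟩ := hU
        refine ⟨p, ?_, hp.2⟩
        rw [hKL]
        exact hLc.subset_connectedComponentIn hz.1.1.1 subset_rfl hp.1
      · obtain ⟨p, hp1, hp2⟩ := bump hL hLc (hVc k).isClosed hz.1.1.1 (hmem z hz).2 h
        exact ⟨p, hp1, disjoint_left.1 (hVf k) hp2⟩
    have hCs : ∀ C : ι, Sat E C.1 := by
      rintro ⟨C, z, hz, rfl⟩ w hw hwE
      have hwK : w ∈ K := connectedComponentIn_subset _ _ hw
      have h1 : connectedComponentIn E w ⊆ K := fun x hx =>
        ⟨sat w hwK.1 hwE hx, interior_subset (cc_subset_interior (hVf k) hwE hwK.2 hx)⟩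
      change connectedComponentIn E w ⊆ connectedComponentIn K z
      rw [connectedComponentIn_eq (show w ∈ connectedComponentIn K z from hw)]
      exact isPreconnected_connectedComponentIn.subset_connectedComponentIn
        (mem_connectedComponentIn hwE) h1
    have hCd : Pairwise (Function.onFun Disjoint fun C : ι => C.1) := by
      rintro ⟨C, z, hz, rfl⟩ ⟨D, w, hw, rfl⟩ hne
      rw [Function.onFun, disjoint_left]
      intro x hx1 hx2
      apply hne
      apply Subtype.ext
      change connectedComponentIn K z = connectedComponentIn K w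
      rw [connectedComponentIn_eq hx1, connectedComponentIn_eq hx2]
    -- countably many
    have hcount : Countable ι := by
      have h1 := Measure.countable_meas_pos_of_disjoint_iUnion (μ := μ)
        (As := fun C : ι => C.1 \ E)
        (fun C => (hCc C).isClosed.measurableSet.diff hE.isClosed.measurableSet)
        (fun C D hCD => (hCd hCD).mono sdiff_subset sdiff_subset)
      have h2 : {C : ι | 0 < μ (C.1 \ E)} = univ := by
        refine eq_univ_of_forall fun C => ?_
        obtain ⟨z, hz, hC⟩ := C.2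
        obtain ⟨C', hC', h3, h4, h5⟩ := exists_sub hE (hCc C) (hCp C) (hCU C) (z := z)
          (by rw [hC]; exact mem_connectedComponentIn (hmem z hz)) (hGE hz.1)
        have h6 := pos C' (hC'.trans (sdiff_subset_sdiff_left (hCL C))) h3 h4 h5
        exact (pos_iff_ne_zero.2 h6).trans_le (measure_mono hC')
      rw [h2] at h1
      exact countable_univ_iff.1 h1
    have hsub : b '' (G ∩ O k) ⊆ ⋃ C : ι, b '' (C.1 ∩ G) := by
      rintro _ ⟨z, hz, rfl⟩
      exact mem_iUnion.2 ⟨⟨_, z, hz, rfl⟩, z,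
        ⟨mem_connectedComponentIn (hmem z hz), hz.1⟩, rfl⟩
    calc volume (b '' (G ∩ O k)) ≤ volume (⋃ C : ι, b '' (C.1 ∩ G)) := measure_mono hsub
      _ ≤ ∑' C : ι, volume (b '' (C.1 ∩ G)) := measure_iUnion_le _
      _ ≤ ∑' C : ι, ν C.1 := by
          refine ENNReal.tsum_le_tsum fun C => ?_
          refine (class_le hE (hCc C) (hCp C) (hCU C) hGE hb
            (H C.1 (hCL C) (hCc C) (hCp C) (hCs C))).trans ?_
          rw [ENNReal.ofReal_toReal (measure_ne_top ν _)]
      _ = ν (⋃ C : ι, C.1) :=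
          (measure_iUnion hCd fun C => (hCc C).isClosed.measurableSet).symm
      _ ≤ ν W := measure_mono (iUnion_subset fun C => (hCV C).trans (hVW k))
      _ ≤ ε := hWε.le
  have h1 : b '' G = ⋃ k, b '' (G ∩ O k) := by
    rw [← image_iUnion, ← inter_iUnion, inter_eq_left.2 hcov]
  have h2 : Monotone fun k => b '' (G ∩ O k) := fun k l hkl =>
    image_mono (inter_subset_inter_right _ (hmono hkl))
  rw [h1, h2.directed_le.measure_iUnion]
  exact iSup_le stage

end plane

end Crest.Agent.R105.Sl_732
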