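import Mathlib
import Crest.Agent.R165.GeoP2_67

/-!
Row 105 (helper107), slit maps, part 1: Cauchy's theorem (Dixon's proof), primitives, logarithms and square
roots in a connected open set `U` (bounded or not) such that no nonempty compact subset of `Uᶜ` is relatively
open in `Uᶜ` (`NC U`). Adapted from R165/GeoP1_67, GeoP2_67.
-/

set_option autoImplicit false

open Set Filter Topology Metric Complex MeasureTheory

namespace Crest.Agent.R105.Slt_107

open Crest.Agent.R165.GeoPx67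

noncomputable section

/-- no nonempty compact subset of `Uᶜ` is relatively open in `Uᶜ` -/
def NC (U : Set ℂ) : Prop :=
  ∀ A O : Set ℂ, IsCompact A → IsOpen O → A = O ∩ Uᶜ → A = ∅

section index

variable {K : Set ℂ} {L : (ℂ → ℂ) → ℂ}

theorem continuousOn_kernel {z : ℂ} (hz : z ∉ K) : ContinuousOn (fun w => (w - z)⁻¹) K := by
  refine ContinuousOn.inv₀ (by fun_prop) ?_
  intro w hw h0
  exact hz (by rwa [← sub_eq_zero.1 h0])

theorem index_loc (hKc : IsCompact K) (hL : Cur K L)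
    (hcl : ∀ f F : ℂ → ℂ, ContinuousOn f K → (∀ w ∈ K, HasDerivAt F (f w) w) → L f = 0)
    {z₀ : ℂ} (hz₀ : z₀ ∉ K) :
    ∀ᶠ z in 𝓝 z₀, z ∉ K ∧ L (fun w => (w - z)⁻¹) = L (fun w => (w - z₀)⁻¹) := by
  obtain ⟨δ, hδ, hδK⟩ := Metric.isOpen_iff.1 hKc.isClosed.isOpen_compl z₀ hz₀
  filter_upwards [Metric.ball_mem_nhds z₀ hδ] with z hz
  have hzK : z ∉ K := hδK hz
  refine ⟨hzK, ?_⟩
  have hlt : ∀ w ∈ K, ‖z - z₀‖ < ‖w - z₀‖ := by
    intro w hw
    have h1 : δ ≤ ‖w - z₀‖ := by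
      by_contra hcon
      push Not at hcon
      exact hδK (show w ∈ ball z₀ δ by rwa [mem_ball, dist_eq_norm]) hw
    rw [mem_ball, dist_eq_norm] at hz
    linarith
  have h0 := hcl (fun w => (w - z)⁻¹ - (w - z₀)⁻¹) (fun w => Complex.log ((w - z) / (w - z₀)))
    ((continuousOn_kernel hzK).sub (continuousOn_kernel hz₀))
    (fun w hw => hasDerivAt_log_ratio (hlt w hw))
  have h1 : L (fun w => (w - z)⁻¹ - (w - z₀)⁻¹) =
      L (fun w => (w - z)⁻¹) - L (fun w => (w - z₀)⁻¹) := by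
    have e1 := hL.add (fun w => (w - z)⁻¹) (fun w => (-1:ℂ) * (w - z₀)⁻¹)
      (continuousOn_kernel hzK) ((continuousOn_kernel hz₀).const_smul (-1:ℂ))
    have e2 := hL.smul (-1) (fun w => (w - z₀)⁻¹)
    rw [e2] at e1
    have e3 : (fun w : ℂ => (w - z)⁻¹ + (-1:ℂ) * (w - z₀)⁻¹) =
        (fun w => (w - z)⁻¹ - (w - z₀)⁻¹) := by
      funext w; ring
    rw [e3] at e1
    rw [e1]; ring
  rw [h1] at h0
  exact sub_eq_zero.1 h0

theorem index_far
    (hcl : ∀ f F : ℂ → ℂ, ContinuousOn f K → (∀ w ∈ K, HasDerivAt F (f w) w) → L f = 0)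
    {R : ℝ} (hKR : ∀ w ∈ K, ‖w‖ < R) {z : ℂ} (hz : R ≤ ‖z‖) : L (fun w => (w - z)⁻¹) = 0 := by
  have hzK : z ∉ K := fun h => absurd (hKR z h) (not_lt.2 hz)
  exact hcl _ _ (continuousOn_kernel hzK)
    (fun w hw => hasDerivAt_log_far (lt_of_lt_of_le (hKR w hw) hz))

theorem exists_radius (hKc : IsCompact K) : ∃ R : ℝ, ∀ w ∈ K, ‖w‖ < R := by
  obtain ⟨R, hR⟩ := hKc.isBounded.subset_ball (0:ℂ)
  exact ⟨R, fun w hw => by simpa using hR hw⟩

theorem index_zero {U : Set ℂ} (hU : IsOpen U) (hNC : NC U) (hKc : IsCompact K) (hKU : K ⊆ U)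
    (hL : Cur K L)
    (hcl : ∀ f F : ℂ → ℂ, ContinuousOn f K → (∀ w ∈ K, HasDerivAt F (f w) w) → L f = 0)
    {z : ℂ} (hz : z ∉ U) : L (fun w => (w - z)⁻¹) = 0 := by
  obtain ⟨R, hKR⟩ := exists_radius hKc
  set V : Set ℂ := {z | z ∉ K ∧ L (fun w => (w - z)⁻¹) = 0} with hV
  have hVo : IsOpen V := by
    rw [isOpen_iff_mem_nhds]
    rintro z₀ ⟨hz₀, h0⟩
    filter_upwards [index_loc hKc hL hcl hz₀] with z hz
    exact ⟨hz.1, hz.2.trans h0⟩
  set W : Set ℂ := {z | z ∉ K ∧ L (fun w => (w - z)⁻¹) ≠ 0} with hW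
  have hWo : IsOpen W := by
    rw [isOpen_iff_mem_nhds]
    rintro z₀ ⟨hz₀, h0⟩
    filter_upwards [index_loc hKc hL hcl hz₀] with z hz
    exact ⟨hz.1, by rw [hz.2]; exact h0⟩
  have hA : W ∩ Uᶜ = Uᶜ ∩ Vᶜ := by
    ext y
    constructor
    · rintro ⟨⟨h1, h2⟩, h3⟩
      exact ⟨h3, fun h4 => h2 h4.2⟩
    · rintro ⟨h1, h2⟩
      exact ⟨⟨fun h => h1 (hKU h), fun h => h2 ⟨fun h => h1 (hKU h), h⟩⟩, h1⟩
  have hAc : IsCompact (W ∩ Uᶜ) := by
    refine (isCompact_closedBall (0:ℂ) R).of_isClosed_subset ?_ ?_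
    · rw [hA]
      exact hU.isClosed_compl.inter hVo.isClosed_compl
    · rintro y ⟨⟨h1, h2⟩, h3⟩
      rw [mem_closedBall_zero_iff]
      by_contra hcon
      push Not at hcon
      exact h2 (index_far hcl hKR hcon.le)
  have h0 := hNC _ W hAc hWo rfl
  by_contra hcon
  have : z ∈ W ∩ Uᶜ := ⟨⟨fun h => hz (hKU h), hcon⟩, hz⟩
  rw [h0] at this
  exact this

end index

/-! ### Dixon's theorem -/

theorem dixon' {U K : Set ℂ} {L : (ℂ → ℂ) → ℂ} (hU : IsOpen U) (hKc : IsCompact K) (hKU : K ⊆ U)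
    (hL : Cur K L)
    (hcl : ∀ f F : ℂ → ℂ, ContinuousOn f K → (∀ w ∈ K, HasDerivAt F (f w) w) → L f = 0)
    (hind : ∀ z ∉ U, L (fun w => (w - z)⁻¹) = 0) {z₁ : ℂ} (hz₁ : z₁ ∉ U)
    {g : ℂ → ℂ} (hg : DifferentiableOn ℂ g U) : L g = 0 := by
  obtain ⟨R, hKR⟩ := exists_radius hKc
  set φ : ℂ → ℂ := fun z => L (fun w => (w - z)⁻¹) with hφ
  have hcontinv : ∀ z ∉ K, ContinuousOn (fun w => (w - z)⁻¹) K := fun z hz =>
    continuousOn_kernel hz
  -- V
  set V : Set ℂ := {z | z ∉ K ∧ φ z = 0} with hV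
  have hVo : IsOpen V := by
    rw [isOpen_iff_mem_nhds]
    rintro z₀ ⟨hz₀, h0⟩
    filter_upwards [index_loc hKc hL hcl hz₀] with z hz
    exact ⟨hz.1, hz.2.trans h0⟩
  have hUcV : Uᶜ ⊆ V := fun z hz => ⟨fun h => hz (hKU h), hind z hz⟩
  -- the key statement
  have key : ∀ G : ℂ → ℂ, DifferentiableOn ℂ G U → ∀ z ∉ U, L (fun w => G w * (w - z)⁻¹) = 0 := by
    classical
    intro G hG
    have hGK : ContinuousOn G K := hG.continuousOn.mono hKU
    set h₁ : ℂ → ℂ := fun z => L (fun w => dslope G z w) with hh₁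
    set h₂ : ℂ → ℂ := fun z => L (fun w => G w * (w - z)⁻¹) with hh₂
    have hd1 : DifferentiableOn ℂ h₁ U := by
      refine hL.param U (fun q => dslope G q.1 q.2) hU ?_ ?_
      · rintro ⟨z, w⟩ ⟨hz, hw⟩
        exact (continuousAt_dslope_prod hU hG hz (hKU hw)).continuousWithinAt
      · intro w hw
        exact differentiableOn_dslope_left hU hG (hKU hw)
    have hd2 : DifferentiableOn ℂ h₂ Kᶜ := by
      refine hL.param Kᶜ (fun q => G q.2 * (q.2 - q.1)⁻¹) hKc.isClosed.isOpen_compl ?_ ?_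
      · refine ContinuousOn.mul (hGK.comp continuousOn_snd (fun q hq => hq.2)) ?_
        refine ContinuousOn.inv₀ (by fun_prop) ?_
        rintro ⟨z, w⟩ ⟨hz, hw⟩ h0
        have h1 : w = z := sub_eq_zero.1 h0
        exact hz (by rw [← h1]; exact hw)
      · intro w hw
        have hne : ∀ z ∈ Kᶜ, w - z ≠ 0 := by
          intro z hz h0
          have h1 : w = z := sub_eq_zero.1 h0
          exact hz (by rw [← h1]; exact hw)
        have hid : DifferentiableOn ℂ (fun z : ℂ => w - z) Kᶜ := by fun_prop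
        exact (hid.inv hne).const_mul (G w)
    have heq : ∀ z ∈ V, z ∈ U → h₁ z = h₂ z := by
      rintro z ⟨hzK, hz0⟩ hzU
      have e1 : h₁ z = L (fun w => G w * (w - z)⁻¹ + (-G z) * (w - z)⁻¹) := by
        refine hL.congr _ _ (fun w hw => ?_)
        have hne : w ≠ z := fun h => hzK (by rw [← h]; exact hw)
        rw [dslope_of_ne G hne, slope_def_field]
        have : w - z ≠ 0 := sub_ne_zero.2 hne
        field_simp
        ring
      have e2 := hL.add (fun w => G w * (w - z)⁻¹) (fun w => (-G z) * (w - z)⁻¹)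
        (hGK.mul (hcontinv z hzK)) ((hcontinv z hzK).const_smul (-G z))
      have e3 := hL.smul (-G z) (fun w => (w - z)⁻¹)
      rw [e1, e2, e3]
      change h₂ z + -G z * φ z = h₂ z
      rw [hz0]; ring
    set h : ℂ → ℂ := fun z => if z ∈ U then h₁ z else h₂ z with hh
    have hV2 : ∀ z ∈ V, h z = h₂ z := by
      intro z hz
      by_cases hzU : z ∈ U
      · simp only [hh, hzU, if_true]
        exact heq z hz hzU
      · simp only [hh, hzU, if_false]
    have hhd : Differentiable ℂ h := by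
      intro z
      by_cases hz : z ∈ U
      · have : h =ᶠ[𝓝 z] h₁ := by
          filter_upwards [hU.mem_nhds hz] with y hy
          simp [hh, hy]
        exact (hd1.differentiableAt (hU.mem_nhds hz)).congr_of_eventuallyEq this
      · have hzV : z ∈ V := hUcV hz
        have : h =ᶠ[𝓝 z] h₂ := by
          filter_upwards [hVo.mem_nhds hzV] with y hy
          exact hV2 y hy
        exact (hd2.differentiableAt (hKc.isClosed.isOpen_compl.mem_nhds hzV.1)).congr_of_eventuallyEq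
          this
    have hlim : Tendsto h (cocompact ℂ) (𝓝 0) := by
      obtain ⟨C, hC, hCb⟩ := hL.bound
      obtain ⟨B, hB⟩ := hKc.exists_bound_of_continuousOn hGK
      have hlim2 : Tendsto (fun z : ℂ => C * ((max B 0) * (‖z‖ - R)⁻¹)) (cocompact ℂ) (𝓝 0) := by
        have h1 : Tendsto (fun z : ℂ => ‖z‖ - R) (cocompact ℂ) atTop :=
          tendsto_atTop_add_const_right _ _ tendsto_norm_cocompact_atTop
        have h2 := (h1.inv_tendsto_atTop.const_mul (max B 0)).const_mul C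
        simpa using h2
      refine squeeze_zero_norm' ?_ hlim2
      have hev : ∀ᶠ z : ℂ in cocompact ℂ, R < ‖z‖ :=
        tendsto_norm_cocompact_atTop.eventually_gt_atTop R
      filter_upwards [hev] with z hz
      have hzK : z ∉ K := fun h => absurd (hKR z h) (not_lt.2 hz.le)
      have hzV : z ∈ V := ⟨hzK, index_far hcl hKR hz.le⟩
      rw [hV2 z hzV]
      refine hCb _ _ ?_ ?_
      · exact mul_nonneg (le_max_right _ _) (inv_nonneg.2 (by linarith))
      · intro w hw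
        rw [norm_mul, norm_inv]
        have h3 : ‖z‖ - R ≤ ‖w - z‖ := by
          have h4 : ‖z‖ - ‖w‖ ≤ ‖z - w‖ := norm_sub_norm_le z w
          rw [norm_sub_rev] at h4
          have h5 := hKR w hw
          linarith
        have h6 : 0 < ‖z‖ - R := by linarith
        gcongr
        exact (hB w hw).trans (le_max_left _ _)
    intro z hz
    have h0 : h z = 0 := hhd.apply_eq_of_tendsto_cocompact z hlim
    have : h z = h₂ z := by simp only [hh, hz, if_false]
    rw [this] at h0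
    exact h0
  -- conclusion
  have hfin := key (fun w => (w - z₁) * g w)
    ((show DifferentiableOn ℂ (fun w : ℂ => w - z₁) U by fun_prop).mul hg) z₁ hz₁
  rw [← hfin]
  refine hL.congr _ _ (fun w hw => ?_)
  have hne : w - z₁ ≠ 0 := by
    intro h0
    have : w = z₁ := sub_eq_zero.1 h0
    exact hz₁ (by rw [← this]; exact hKU hw)
  field_simp

theorem cauchy_poly' {U : Set ℂ} (hU : IsOpen U) (hNC : NC U) {z₁ : ℂ} (hz₁ : z₁ ∉ U)
    {g : ℂ → ℂ} (hg : DifferentiableOn ℂ g U)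
    {a b : ℂ} {n m : ℕ} {p q : ℕ → ℂ} (hp : Poly U a b n p) (hq : Poly U a b m q) :
    polyI p n g = polyI q m g := by
  set K : Set ℂ := (⋃ i ∈ Finset.range n, segment ℝ (p i) (p (i+1))) ∪
    (⋃ i ∈ Finset.range m, segment ℝ (q i) (q (i+1))) with hK
  have hKc : IsCompact K := by
    refine IsCompact.union ?_ ?_
    · exact (Finset.range n).isCompact_biUnion (fun i _ => isCompact_segment _ _)
    · exact (Finset.range m).isCompact_biUnion (fun i _ => isCompact_segment _ _)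
  have hKU : K ⊆ U := by
    refine union_subset ?_ ?_
    · exact iUnion₂_subset (fun i hi => hp.sub i (Finset.mem_range.1 hi))
    · exact iUnion₂_subset (fun i hi => hq.sub i (Finset.mem_range.1 hi))
  have hpK : ∀ i < n, segment ℝ (p i) (p (i+1)) ⊆ K := fun i hi =>
    subset_union_of_subset_left
      (subset_biUnion_of_mem (u := fun i => segment ℝ (p i) (p (i+1))) (Finset.mem_range.2 hi)) _
  have hqK : ∀ i < m, segment ℝ (q i) (q (i+1)) ⊆ K := fun i hi =>
    subset_union_of_subset_right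
      (subset_biUnion_of_mem (u := fun i => segment ℝ (q i) (q (i+1))) (Finset.mem_range.2 hi)) _
  have hcur : Cur K (fun f => polyI p n f - polyI q m f) := (cur_polyI hpK).sub (cur_polyI hqK)
  have hcl : ∀ f F : ℂ → ℂ, ContinuousOn f K → (∀ w ∈ K, HasDerivAt F (f w) w) →
      (fun f => polyI p n f - polyI q m f) f = 0 := fun f F hf hF => by
    simp only
    rw [polyI_prim hpK hf hF, polyI_prim hqK hf hF, hp.start, hp.fin, hq.start, hq.fin]
    ring
  have := dixon' hU hKc hKU hcur hcl (fun z hz => index_zero hU hNC hKc hKU hcur hcl hz) hz₁ hg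
  exact sub_eq_zero.1 this

/-! ### primitives, logarithms, square roots -/

theorem exists_primitive' {U : Set ℂ} (hU : IsOpen U) (hc : IsPreconnected U)
    (hNC : NC U) {z₁ : ℂ} (hz₁ : z₁ ∉ U) {g : ℂ → ℂ}
    (hg : DifferentiableOn ℂ g U) : ∃ F : ℂ → ℂ, ∀ z ∈ U, HasDerivAt F (g z) z := by
  classical
  rcases U.eq_empty_or_nonempty with rfl | ⟨a, ha⟩
  · exact ⟨0, fun z hz => absurd hz (notMem_empty z)⟩
  have hex : ∀ z : ℂ, ∃ np : ℕ × (ℕ → ℂ), z ∈ U → Poly U a z np.1 np.2 := by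
    intro z
    by_cases hz : z ∈ U
    · obtain ⟨ℓ, n, p, hp, -⟩ := exists_JL hU hc ha hz
      exact ⟨(n, p), fun _ => hp⟩
    · exact ⟨(0, fun _ => 0), fun h => absurd h hz⟩
  choose P hP using hex
  refine ⟨fun z => polyI (P z).2 (P z).1 g, fun z hz => ?_⟩
  obtain ⟨ε, hε, hεU⟩ := Metric.isOpen_iff.1 hU z hz
  obtain ⟨G, hG⟩ := (DifferentiableOn.isExactOn_ball (hg.mono hεU))
  have hev : (fun y => polyI (P y).2 (P y).1 g) =ᶠ[𝓝 z]
      fun y => polyI (P z).2 (P z).1 g + (G y - G z) := by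
    filter_upwards [Metric.ball_mem_nhds z hε] with y hy
    have hseg : segment ℝ z y ⊆ ball z ε :=
      (convex_ball z ε).segment_subset (mem_ball_self hε) hy
    obtain ⟨q, hq, hqi, -⟩ := (hP z hz).snoc (hseg.trans hεU)
    rw [cauchy_poly' hU hNC hz₁ hg (hP y (hεU hy)) hq, hqi,
      segI_prim ((hg.continuousOn.mono hεU).mono hseg) (fun w hw => hG w (hseg hw))]
  have h1 : HasDerivAt (fun y => polyI (P z).2 (P z).1 g + (G y - G z)) (g z) z :=
    ((hG z (mem_ball_self hε)).sub_const _).const_add _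
  exact h1.congr_of_eventuallyEq hev

theorem exists_log' {U : Set ℂ} (hU : IsOpen U) (hc : IsPreconnected U)
    (hNC : NC U) {z₁ : ℂ} (hz₁ : z₁ ∉ U) {f : ℂ → ℂ}
    (hf : DifferentiableOn ℂ f U) (h0 : ∀ z ∈ U, f z ≠ 0) :
    ∃ l : ℂ → ℂ, DifferentiableOn ℂ l U ∧ ∀ z ∈ U, Complex.exp (l z) = f z := by
  rcases U.eq_empty_or_nonempty with rfl | ⟨a, ha⟩
  · exact ⟨0, differentiableOn_empty, fun z hz => absurd hz (notMem_empty z)⟩
  have hd : DifferentiableOn ℂ (deriv f) U := hf.deriv hU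
  obtain ⟨F, hF⟩ := exists_primitive' hU hc hNC hz₁ (hd.div hf h0)
  have hF0 : ∀ z ∈ U, HasDerivAt (fun z => f z * Complex.exp (-F z)) 0 z := by
    intro z hz
    have h1 := (hf.differentiableAt (hU.mem_nhds hz)).hasDerivAt
    have h2 := ((hF z hz).neg).cexp
    have h3 := h1.mul h2
    refine h3.congr_deriv ?_
    have := h0 z hz
    simp only [Pi.div_apply]
    field_simp
    ring
  obtain ⟨c, hcc⟩ : ∃ c, ∀ z ∈ U, f z * Complex.exp (-F z) = c := by
    refine ⟨f a * Complex.exp (-F a), fun z hz => ?_⟩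
    obtain ⟨ℓ, hℓ⟩ := exists_JL hU hc ha hz
    have := hℓ.lipC (f := fun z => f z * Complex.exp (-F z)) hU
      (fun z hz => (hF0 z hz).differentiableAt.differentiableWithinAt) (B := 0)
      (fun z hz => by rw [(hF0 z hz).deriv]; simp) le_rfl
    rw [zero_mul, norm_le_zero_iff, sub_eq_zero] at this
    exact this
  have hc0 : c ≠ 0 := by
    rw [← hcc a ha]
    exact mul_ne_zero (h0 a ha) (Complex.exp_ne_zero _)
  refine ⟨fun z => F z + Complex.log c, fun z hz =>
    ((hF z hz).differentiableAt.add_const _).differentiableWithinAt, fun z hz => ?_⟩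
  rw [Complex.exp_add, Complex.exp_log hc0, ← hcc z hz, Complex.exp_neg]
  field_simp [Complex.exp_ne_zero]

theorem exists_sqrt' {U : Set ℂ} (hU : IsOpen U) (hc : IsPreconnected U)
    (hNC : NC U) {z₁ : ℂ} (hz₁ : z₁ ∉ U) {f : ℂ → ℂ}
    (hf : DifferentiableOn ℂ f U) (h0 : ∀ z ∈ U, f z ≠ 0) :
    ∃ s : ℂ → ℂ, DifferentiableOn ℂ s U ∧ ∀ z ∈ U, s z ^ 2 = f z := by
  obtain ⟨l, hl, hle⟩ := exists_log' hU hc hNC hz₁ hf h0
  refine ⟨fun z => Complex.exp (l z / 2), (hl.div_const 2).cexp, fun z hz => ?_⟩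
  rw [← Complex.exp_nat_mul, ← hle z hz]
  congr 1
  push_cast
  ring

end

end Crest.Agent.R105.Slt_107
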