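import Mathlib
import Crest.Agent.Lib.Bieberbach

/-!
Row 105 (helper107), slit maps, part 2: the area theorem with its equality case, for
`F t = 1/t + H t`, `H` holomorphic on the unit disc, `F` injective on the punctured disc:
`‖H'(0)‖ ≤ 1`, and `‖H'(0)‖ = 1` only if `H t = H 0 + H'(0) t`.
-/

set_option autoImplicit false

open MeasureTheory Metric Set Filter Topology
open scoped ComplexConjugate Real

namespace Crest.Agent.R105.Slt_107

open Crest.Agent.Lib.Bieberbach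

theorem lower_pt_eq (b z k : ℂ) (hz : z ≠ 0) {ρ : ℝ} (hρ : ‖z‖ = ρ) :
    (1 / ρ ^ 4 + ‖b‖ ^ 2) +
      ((-(2 / (ρ:ℂ) ^ 4) * b * z ^ 2 + 2 * (-(z ^ 2) / (ρ:ℂ) ^ 4 + conj b) * (k - b))).re
      = ‖-(z ^ 2)⁻¹ + k‖ ^ 2 - ‖k - b‖ ^ 2 := by
  have hρ0 : 0 < ρ := by rw [← hρ]; exact norm_pos_iff.2 hz
  have hρc : (ρ : ℂ) ≠ 0 := by exact_mod_cast hρ0.ne'
  have hzz : z * conj z = (ρ : ℂ) ^ 2 := by
    rw [Complex.mul_conj, Complex.normSq_eq_norm_sq, hρ]; push_cast; ring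
  have hcz : conj z ≠ 0 := by
    intro h; apply hz; simpa using h
  -- conj of the principal part
  set p : ℂ := -(z ^ 2)⁻¹ + b with hp
  have hcp : conj p = -(z ^ 2) / (ρ:ℂ) ^ 4 + conj b := by
    rw [hp]
    simp only [map_add, map_neg, map_inv₀, map_pow]
    have : ((ρ:ℂ)) ^ 4 = z ^ 2 * conj z ^ 2 := by
      rw [← mul_pow, hzz]; ring
    rw [this]
    field_simp
  have h1 : ‖-(z ^ 2)⁻¹ + k‖ ^ 2 = ‖p‖ ^ 2 + 2 * (conj p * (k - b)).re + ‖k - b‖ ^ 2 := by
    have : -(z ^ 2)⁻¹ + k = p + (k - b) := by rw [hp]; ring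
    rw [this, ← Complex.normSq_eq_norm_sq, ← Complex.normSq_eq_norm_sq,
      ← Complex.normSq_eq_norm_sq, Complex.normSq_add]
    have : (p * conj (k - b)).re = (conj p * (k - b)).re := by
      simp [Complex.mul_re]
      ring
    rw [this]; ring
  have h2 : ‖p‖ ^ 2 = 1 / ρ ^ 4 + ‖b‖ ^ 2 + (-(2 / (ρ:ℂ) ^ 4) * b * z ^ 2).re := by
    have h3 : ((‖p‖ ^ 2 : ℝ) : ℂ) = p * conj p := by
      rw [Complex.mul_conj, Complex.normSq_eq_norm_sq]
    have h4 : ((‖b‖ ^ 2 : ℝ) : ℂ) = b * conj b := by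
      rw [Complex.mul_conj, Complex.normSq_eq_norm_sq]
    have h5 : p * conj p = 1 / (ρ:ℂ) ^ 4 + b * conj b + (-(conj b * (z ^ 2)⁻¹)
        - b * z ^ 2 / (ρ:ℂ)^4) := by
      rw [hcp, hp]
      field_simp
      ring
    have h6 : (conj b * (z ^ 2)⁻¹) = conj (b * z ^ 2 / (ρ:ℂ)^4) := by
      simp only [map_div₀, map_mul, map_pow, Complex.conj_ofReal]
      have : ((ρ:ℂ)) ^ 4 = z ^ 2 * conj z ^ 2 := by
        rw [← mul_pow, hzz]; ring
      rw [this]
      field_simp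
    have h7 : (‖p‖ ^ 2 : ℝ) = ((‖p‖ ^ 2 : ℝ) : ℂ).re := (Complex.ofReal_re _).symm
    rw [h7, h3, h5, ← h4, h6]
    have e1 : (-(2 / (ρ:ℂ) ^ 4) * b * z ^ 2) = (-2 : ℝ) * (b * z ^ 2 / (ρ:ℂ)^4) := by
      push_cast; ring
    rw [e1, Complex.re_ofReal_mul]
    have e2 : (1 / (ρ:ℂ) ^ 4) = ((1 / ρ ^ 4 : ℝ) : ℂ) := by push_cast; ring
    rw [e2]
    simp only [Complex.add_re, Complex.sub_re, Complex.neg_re, Complex.ofReal_re,
      Complex.conj_re]
    ring
  rw [h1, h2, hcp, Complex.add_re]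
  have e3 : (2 * (-(z ^ 2) / (ρ:ℂ) ^ 4 + conj b) * (k - b)).re =
      2 * ((-(z ^ 2) / (ρ:ℂ) ^ 4 + conj b) * (k - b)).re := by
    rw [mul_assoc]
    have : (2 : ℂ) = ((2 : ℝ) : ℂ) := by norm_num
    rw [this, Complex.re_ofReal_mul]
  rw [e3]
  ring

theorem area_lower_eq {k : ℂ → ℂ} (hk : DifferentiableOn ℂ k (ball 0 1)) {ε r : ℝ} (hε : 0 < ε)
    (hεr : ε < r) (hr : r < 1) :
    IntegrableOn (fun z : ℂ => ‖-(z ^ 2)⁻¹ + k z‖ ^ 2) (ann ε r) ∧
    IntegrableOn (fun z : ℂ => ‖k z - k 0‖ ^ 2) (ann ε r) ∧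
    π * (1 / ε ^ 2 - 1 / r ^ 2) + π * ‖k 0‖ ^ 2 * (r ^ 2 - ε ^ 2) +
      ∫ z in ann ε r, ‖k z - k 0‖ ^ 2 ≤ ∫ z in ann ε r, ‖-(z ^ 2)⁻¹ + k z‖ ^ 2 := by
  set b : ℂ := k 0 with hb
  have hkc : ContinuousOn k (ball 0 1) := hk.continuousOn
  have hsub : {z : ℂ | ε ≤ ‖z‖ ∧ ‖z‖ ≤ r} ⊆ ball 0 1 := by
    intro z hz
    rw [mem_ball_zero_iff]
    exact lt_of_le_of_lt hz.2 hr
  have hF1 : ContinuousOn (fun z : ℂ => ‖-(z ^ 2)⁻¹ + k z‖ ^ 2) {z : ℂ | ε ≤ ‖z‖ ∧ ‖z‖ ≤ r} := by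
    apply ContinuousOn.pow
    apply ContinuousOn.norm
    apply ContinuousOn.add _ (hkc.mono hsub)
    apply ContinuousOn.neg
    apply ContinuousOn.inv₀ (continuous_pow 2).continuousOn
    intro z hz
    apply pow_ne_zero
    rw [← norm_pos_iff]
    exact lt_of_lt_of_le hε hz.1
  have hF2 : ContinuousOn (fun z : ℂ => ‖k z - b‖ ^ 2) {z : ℂ | ε ≤ ‖z‖ ∧ ‖z‖ ≤ r} :=
    (((hkc.mono hsub).sub continuousOn_const).norm).pow 2
  have hF : ContinuousOn (fun z : ℂ => ‖-(z ^ 2)⁻¹ + k z‖ ^ 2 - ‖k z - b‖ ^ 2)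
      {z : ℂ | ε ≤ ‖z‖ ∧ ‖z‖ ≤ r} := hF1.sub hF2
  obtain ⟨hI1, -, -⟩ := polar_ann hε hF1
  obtain ⟨hI2, -, -⟩ := polar_ann hε hF2
  obtain ⟨hI0, hI, he⟩ := polar_ann hε hF
  refine ⟨hI1, hI2, ?_⟩
  rw [← le_sub_iff_add_le, ← integral_sub hI1 hI2, he]
  -- circle inequality
  have hcirc : ∀ ρ ∈ Ioo ε r, 2 * π * (1 / ρ ^ 3 + ‖b‖ ^ 2 * ρ) ≤
      ∫ θ in Ioo (-π) π, ρ * (‖-(((ρ : ℂ) * eu θ) ^ 2)⁻¹ + k ((ρ : ℂ) * eu θ)‖ ^ 2 -
        ‖k ((ρ : ℂ) * eu θ) - b‖ ^ 2) := by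
    intro ρ hρ
    have hρ0 : 0 < ρ := hε.trans hρ.1
    have hρ1 : ρ < 1 := hρ.2.trans hr
    set Φ : ℂ → ℂ := fun z =>
      -(2 / (ρ:ℂ) ^ 4) * b * z ^ 2 + 2 * (-(z ^ 2) / (ρ:ℂ) ^ 4 + conj b) * (k z - b) with hΦ
    have hΦd : DifferentiableOn ℂ Φ (ball 0 1) := by
      rw [hΦ]
      apply DifferentiableOn.add
      · fun_prop
      · apply DifferentiableOn.mul
        · fun_prop
        · exact hk.sub_const b
    have hΦ0 : Φ 0 = 0 := by simp [hΦ, hb]
    have hm := mean_zero hΦd hρ0 hρ1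
    rw [hΦ0, smul_zero] at hm
    have hcurve : Continuous (fun θ : ℝ => (ρ : ℂ) * eu θ) := by fun_prop
    have hmaps : ∀ θ : ℝ, (ρ : ℂ) * eu θ ∈ ball (0:ℂ) 1 := by
      intro θ
      rw [mem_ball_zero_iff, norm_smul_eu hρ0.le]; exact hρ1
    have hΦcont : Continuous (fun θ : ℝ => Φ ((ρ : ℂ) * eu θ)) :=
      hΦd.continuousOn.comp_continuous hcurve hmaps
    have hFcont : Continuous (fun θ : ℝ =>
        ρ * (‖-(((ρ : ℂ) * eu θ) ^ 2)⁻¹ + k ((ρ : ℂ) * eu θ)‖ ^ 2 -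
          ‖k ((ρ : ℂ) * eu θ) - b‖ ^ 2)) := by
      apply Continuous.mul continuous_const
      apply hF.comp_continuous hcurve
      intro θ
      simp only [mem_ofPred_eq, norm_smul_eu hρ0.le]
      exact ⟨hρ.1.le, hρ.2.le⟩
    rw [← integral_Ioc_eq_integral_Ioo, ← intervalIntegral.integral_of_le (by linarith [Real.pi_pos])]
    have hre : ∫ θ in (-π)..π, (Φ ((ρ : ℂ) * eu θ)).re = 0 := by
      have := Complex.reCLM.intervalIntegral_comp_comm
        (hΦcont.intervalIntegrable (μ := volume) (-π) π)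
      simp only [Complex.reCLM_apply] at this
      rw [this, hm]; simp
    calc 2 * π * (1 / ρ ^ 3 + ‖b‖ ^ 2 * ρ)
        = ∫ θ in (-π)..π, (ρ * (1 / ρ ^ 4 + ‖b‖ ^ 2) + ρ * (Φ ((ρ : ℂ) * eu θ)).re) := by
          have hi2 : IntervalIntegrable (fun θ : ℝ => ρ * (Φ ((ρ : ℂ) * eu θ)).re) volume (-π) π :=
            (continuous_const.mul (Complex.continuous_re.comp hΦcont)).intervalIntegrable _ _
          have hi3 : ∫ θ in (-π)..π, ρ * (Φ ((ρ : ℂ) * eu θ)).re = 0 := by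
            rw [intervalIntegral.integral_const_mul, hre, mul_zero]
          rw [intervalIntegral.integral_add (by simp) hi2, hi3, intervalIntegral.integral_const]
          simp only [smul_eq_mul]
          field_simp
          ring
      _ ≤ _ := by
          apply intervalIntegral.integral_mono_on (by linarith [Real.pi_pos])
          · exact (continuous_const.add
              (continuous_const.mul (Complex.continuous_re.comp hΦcont))).intervalIntegrable _ _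
          · exact hFcont.intervalIntegrable _ _
          · intro θ _
            rw [← mul_add]
            apply mul_le_mul_of_nonneg_left _ hρ0.le
            apply le_of_eq
            apply lower_pt_eq
            · rw [← norm_pos_iff, norm_smul_eu hρ0.le]; exact hρ0
            · exact norm_smul_eu hρ0.le θ
  have hlhs : π * (1 / ε ^ 2 - 1 / r ^ 2) + π * ‖b‖ ^ 2 * (r ^ 2 - ε ^ 2) =
      ∫ ρ in Ioo ε r, 2 * π * (1 / ρ ^ 3 + ‖b‖ ^ 2 * ρ) := by
    rw [← integral_Ioc_eq_integral_Ioo, ← intervalIntegral.integral_of_le hεr.le]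
    have hcont : ContinuousOn (fun ρ : ℝ => 2 * π * (1 / ρ ^ 3 + ‖b‖ ^ 2 * ρ)) (uIcc ε r) := by
      rw [uIcc_of_le hεr.le]
      intro x hx
      have : x ≠ 0 := (hε.trans_le hx.1).ne'
      apply ContinuousAt.continuousWithinAt
      fun_prop (disch := positivity)
    rw [intervalIntegral.integral_eq_sub_of_hasDerivAt
      (f := fun ρ : ℝ => -π * (1 / ρ ^ 2) + π * ‖b‖ ^ 2 * ρ ^ 2)]
    · ring
    · intro x hx
      rw [uIcc_of_le hεr.le] at hx
      have hx0 : x ≠ 0 := (hε.trans_le hx.1).ne'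
      have h1 : HasDerivAt (fun ρ : ℝ => 1 / ρ ^ 2) (-(2 * x) / (x ^ 2) ^ 2) x := by
        have := (hasDerivAt_pow 2 x).fun_inv (pow_ne_zero 2 hx0)
        simpa using this
      have h2 := (h1.const_mul (-π)).add ((hasDerivAt_pow 2 x).const_mul (π * ‖b‖ ^ 2))
      have h3 : -π * (-(2 * x) / (x ^ 2) ^ 2) + π * ‖b‖ ^ 2 * (((2 : ℕ) : ℝ) * x ^ (2 - 1)) =
          2 * π * (1 / x ^ 3 + ‖b‖ ^ 2 * x) := by
        norm_num
        field_simp
      rw [h3] at h2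
      exact h2
    · exact hcont.intervalIntegrable
  rw [hlhs]
  apply setIntegral_mono_on _ hI measurableSet_Ioo hcirc
  have : ContinuousOn (fun ρ : ℝ => 2 * π * (1 / ρ ^ 3 + ‖b‖ ^ 2 * ρ)) (Icc ε r) := by
    intro x hx
    have : x ≠ 0 := (hε.trans_le hx.1).ne'
    apply ContinuousAt.continuousWithinAt
    fun_prop (disch := positivity)
  exact (this.integrableOn_compact isCompact_Icc).mono_set Ioo_subset_Icc_self

theorem isPreconnected_norm_gt' {ρ : ℝ} (hρ : 0 < ρ) : IsPreconnected {w : ℂ | ρ < ‖w‖} := by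
  have h1 : {w : ℂ | ρ < ‖w‖} = Complex.exp '' {z : ℂ | Real.log ρ < z.re} := by
    ext w
    constructor
    · intro hw
      have hw' : ρ < ‖w‖ := hw
      have hw0 : w ≠ 0 := norm_pos_iff.1 (hρ.trans hw')
      refine ⟨Complex.log w, ?_, Complex.exp_log hw0⟩
      simp only [mem_ofPred_eq, Complex.log_re]
      exact Real.log_lt_log hρ hw'
    · rintro ⟨z, hz, rfl⟩
      simp only [mem_ofPred_eq, Complex.norm_exp] at hz ⊢
      exact (Real.log_lt_iff_lt_exp hρ).1 hz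
  rw [h1]
  apply IsPreconnected.image _ _ Complex.continuous_exp.continuousOn
  exact (convex_halfSpace_re_gt _).isPreconnected

/-- the exterior of an ellipse is connected -/
theorem isPreconnected_compl_ell {c : ℂ} (hc : ‖c‖ < 1) {T : ℝ} (hT : 0 < T) :
    IsPreconnected (ell c T)ᶜ := by
  have hd : LinearMap.det (lmap c) ≠ 0 := by
    rw [det_lmap]
    nlinarith [norm_nonneg c]
  set e : ℂ ≃ₗ[ℝ] ℂ := LinearEquiv.ofIsUnitDet (f := lmap c) (v := Complex.basisOneI)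
    (v' := Complex.basisOneI) (by
      rw [LinearMap.det_toMatrix]
      exact hd.isUnit) with he
  have he1 : ∀ w, e w = w - c * conj w := fun w => rfl
  have h1 : (ell c T)ᶜ = e.symm '' {w : ℂ | T < ‖w‖} := by
    ext w
    simp only [mem_compl_iff, ell, mem_ofPred_eq, not_le, mem_image]
    constructor
    · intro h
      exact ⟨e w, by rw [he1]; exact h, e.symm_apply_apply w⟩
    · rintro ⟨v, hv, rfl⟩
      rw [← he1, e.apply_symm_apply]; exact hv
  rw [h1]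
  apply IsPreconnected.image (isPreconnected_norm_gt' hT)
  exact (e.symm.toContinuousLinearEquiv.continuous).continuousOn

theorem isBounded_ell {c : ℂ} (hc : ‖c‖ < 1) {T : ℝ} : Bornology.IsBounded (ell c T) := by
  rw [isBounded_iff_subset_closedBall (0:ℂ)]
  refine ⟨T / (1 - ‖c‖), fun w hw => ?_⟩
  rw [mem_closedBall_zero_iff, le_div_iff₀ (by linarith)]
  have h1 : ‖w - c * conj w‖ ≤ T := hw
  have h2 : ‖w‖ - ‖c * conj w‖ ≤ ‖w - c * conj w‖ := norm_sub_norm_le _ _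
  rw [norm_mul, RCLike.norm_conj] at h2
  nlinarith

/-- the map `1/t + H t` tends to infinity at `0` -/
theorem tendsto_inv_add {H : ℂ → ℂ} (hH : DifferentiableOn ℂ H (ball 0 1)) :
    Tendsto (fun t : ℂ => t⁻¹ + H t) (𝓝[≠] 0) (cocompact ℂ) := by
  rw [← cobounded_eq_cocompact]
  have h1 : Tendsto (fun t : ℂ => t⁻¹) (𝓝[≠] 0) (Bornology.cobounded ℂ) :=
    tendsto_inv₀_nhdsNE_zero
  have h2 : Tendsto H (𝓝[≠] 0) (𝓝 (H 0)) :=
    ((hH.differentiableAt (ball_mem_nhds 0 one_pos)).continuousAt.tendsto).mono_left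
      nhdsWithin_le_nhds
  rw [← tendsto_norm_atTop_iff_cobounded] at h1 ⊢
  have h3 : Tendsto (fun t : ℂ => ‖t⁻¹‖ + (-‖H t‖)) (𝓝[≠] 0) atTop :=
    h1.atTop_add h2.norm.neg
  refine tendsto_atTop_mono (fun t => ?_) h3
  have := norm_sub_norm_le (t⁻¹) (-H t)
  rw [norm_neg, sub_neg_eq_add] at this
  linarith

theorem contain' {F : ℂ → ℂ} (hF : DifferentiableOn ℂ F (ball 0 1 \ {0}))
    (hinj : InjOn F (ball 0 1 \ {0})) (hinf : Tendsto F (𝓝[≠] 0) (cocompact ℂ))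
    {ε : ℝ} (hε : 0 < ε) (hε1 : ε < 1) {E : Set ℂ} (hE : IsPreconnected Eᶜ)
    (hEb : Bornology.IsBounded E) (hsph : ∀ z : ℂ, ‖z‖ = ε → F z ∈ E) :
    Eᶜ ⊆ F '' (ball 0 ε \ {0}) := by
  have hb : ball (0:ℂ) ε \ {0} ⊆ ball 0 1 \ {0} := sdiff_subset_sdiff_left (ball_subset_ball hε1.le)
  have hop : IsOpen (ball (0:ℂ) ε \ {0}) := isOpen_ball.sdiff isClosed_singleton
  -- far away near 0
  have hfar : ∀ M : ℝ, ∃ δ > 0, ∀ t : ℂ, t ≠ 0 → ‖t‖ < δ → M < ‖F t‖ := by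
    intro M
    have h1 : ∀ᶠ t in 𝓝[≠] (0:ℂ), M < ‖F t‖ := by
      have h2 : Tendsto (fun t => ‖F t‖) (𝓝[≠] 0) atTop :=
        (tendsto_norm_cocompact_atTop (E := ℂ)).comp hinf
      exact h2.eventually_gt_atTop M
    rw [eventually_nhdsWithin_iff, Metric.eventually_nhds_iff_ball] at h1
    obtain ⟨δ, hδ, h⟩ := h1
    exact ⟨δ, hδ, fun t ht htδ => h t (by rwa [mem_ball_zero_iff]) ht⟩
  apply hE.subset_left_of_subset_union (u := F '' (ball 0 ε \ {0}))
    (v := (F '' (closedBall 0 ε \ {0}))ᶜ)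
  · exact Crest.Agent.Lib.isOpen_image_of_injOn hop (hF.mono hb) (hinj.mono hb)
  · rw [isOpen_iff_mem_nhds]
    intro w hw
    obtain ⟨δ, hδ, hδF⟩ := hfar (‖w‖ + 1)
    have hcomp : IsCompact (F '' {t : ℂ | δ ≤ ‖t‖ ∧ ‖t‖ ≤ ε}) := by
      apply IsCompact.image_of_continuousOn
      · apply (isCompact_closedBall (0 : ℂ) ε).of_isClosed_subset
        · exact (isClosed_le continuous_const continuous_norm).inter
            (isClosed_le continuous_norm continuous_const)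
        · intro z hz
          simpa using hz.2
      · apply hF.continuousOn.mono
        intro t ht
        refine ⟨?_, ?_⟩
        · rw [mem_ball_zero_iff]; exact lt_of_le_of_lt ht.2 hε1
        · intro h
          rw [mem_singleton_iff] at h
          have := ht.1
          rw [h, norm_zero] at this
          linarith
    have hwn : w ∉ F '' {t : ℂ | δ ≤ ‖t‖ ∧ ‖t‖ ≤ ε} := by
      rintro ⟨t, ht, rfl⟩
      apply hw
      refine ⟨t, ⟨by simpa using ht.2, ?_⟩, rfl⟩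
      intro h
      rw [mem_singleton_iff] at h
      have := ht.1
      rw [h, norm_zero] at this
      linarith
    filter_upwards [hcomp.isClosed.isOpen_compl.mem_nhds hwn, ball_mem_nhds w one_pos] with v hv1 hv2
    rintro ⟨t, ⟨ht1, ht2⟩, rfl⟩
    by_cases h : δ ≤ ‖t‖
    · exact hv1 ⟨t, ⟨h, by simpa using ht1⟩, rfl⟩
    · push Not at h
      have h3 := hδF t ht2 h
      rw [mem_ball, dist_eq_norm] at hv2
      have h4 := norm_sub_norm_le (F t) w
      linarith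
  · rw [Set.disjoint_left]
    intro w h1 h2
    apply h2
    exact image_mono (sdiff_subset_sdiff_left ball_subset_closedBall) h1
  · intro w hw
    by_cases h : w ∈ F '' (closedBall 0 ε \ {0})
    · left
      obtain ⟨t, ⟨ht1, ht2⟩, rfl⟩ := h
      rw [mem_closedBall_zero_iff] at ht1
      rcases ht1.lt_or_eq with h3 | h3
      · exact ⟨t, ⟨by rwa [mem_ball_zero_iff], ht2⟩, rfl⟩
      · exact absurd (hsph t h3) hw
    · right; exact h
  · obtain ⟨M, hM⟩ := (isBounded_iff_subset_closedBall (0:ℂ)).1 hEb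
    obtain ⟨δ, hδ, hδF⟩ := hfar M
    set t : ℂ := ((min δ ε / 2 : ℝ) : ℂ) with ht
    have h0 : 0 < min δ ε / 2 := by positivity
    have htn : ‖t‖ = min δ ε / 2 := by
      rw [ht, Complex.norm_real, Real.norm_eq_abs, abs_of_pos h0]
    have ht0 : t ≠ 0 := by rw [← norm_pos_iff, htn]; exact h0
    have h1 : min δ ε / 2 < δ := by have := min_le_left δ ε; linarith
    have h2 : min δ ε / 2 < ε := by have := min_le_right δ ε; linarith
    refine ⟨F t, ?_, t, ⟨by rw [mem_ball_zero_iff, htn]; exact h2, ht0⟩, rfl⟩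
    intro hmem
    have h3 := hM hmem
    rw [mem_closedBall_zero_iff] at h3
    have h4 := hδF t ht0 (by rw [htn]; exact h1)
    linarith

/-- one step of the area theorem -/
theorem area_step' {h : ℂ → ℂ} (hhd : DifferentiableOn ℂ h (ball 0 1))
    (hinj : InjOn (fun t : ℂ => t⁻¹ + h t) (ball 0 1 \ {0}))
    {C : ℝ} (hC0 : 0 ≤ C)
    (hC : ∀ z : ℂ, ‖z‖ ≤ 1 / 2 → ‖h z - deriv h 0 * z‖ ≤ C * ‖z‖ ^ 2 ∧ ‖h z‖ ≤ C)
    {ε r : ℝ} (hε : 0 < ε) (hε2 : ε ≤ 1 / 2) (hεr : ε < r) (hr : r < 1)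
    (hbε : ‖deriv h 0‖ * ε ^ 2 < 1) :
    (1 / ε ^ 2 - 1 / r ^ 2) + ‖deriv h 0‖ ^ 2 * (r ^ 2 - ε ^ 2) +
      (∫ z in ann ε r, ‖deriv h z - deriv h 0‖ ^ 2) / π ≤
      (1 / ε + C * (1 + ‖deriv h 0‖) * ε ^ 2) ^ 2 /
        (1 - (‖deriv h 0‖ * ε ^ 2) ^ 2) := by
  set b : ℂ := deriv h 0 with hb
  have hkd : DifferentiableOn ℂ (deriv h) (ball 0 1) := hhd.deriv isOpen_ball
  have hopn : IsOpen (ball (0:ℂ) 1 \ {0}) := isOpen_ball.sdiff isClosed_singleton
  have hFd : DifferentiableOn ℂ (fun t : ℂ => t⁻¹ + h t) (ball 0 1 \ {0}) := by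
    apply DifferentiableOn.add
    · exact differentiableOn_id.inv (fun t ht => ht.2)
    · exact hhd.mono sdiff_subset
  set c : ℂ := b * (ε : ℂ) ^ 2 with hc
  have hcn : ‖c‖ = ‖b‖ * ε ^ 2 := by
    rw [hc, norm_mul, norm_pow, Complex.norm_real, Real.norm_eq_abs, abs_of_pos hε]
  have hc1 : ‖c‖ < 1 := by rw [hcn]; exact hbε
  set T : ℝ := 1 / ε + C * (1 + ‖b‖) * ε ^ 2 with hT
  have hT0 : 0 < T := by positivity
  have hε1 : ε < 1 := hεr.trans hr
  -- the circle `|z| = ε` is mapped into the ellipse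
  have hsph : ∀ z : ℂ, ‖z‖ = ε → z⁻¹ + h z ∈ ell c T := by
    intro z hz
    have hz0 : z ≠ 0 := by rw [← norm_pos_iff, hz]; exact hε
    simp only [ell, mem_ofPred_eq]
    have hzz : z * conj z = (ε : ℂ) ^ 2 := by
      rw [Complex.mul_conj, Complex.normSq_eq_norm_sq, hz]; push_cast; ring
    have hcz : conj z ≠ 0 := by
      intro h; apply hz0; simpa using h
    have e1 : z⁻¹ + h z - c * conj (z⁻¹ + h z) =
        z⁻¹ + (h z - b * z) - c * conj (h z) := by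
      rw [map_add, map_inv₀, hc, ← hzz]
      field_simp
      ring
    rw [e1]
    obtain ⟨k1, k2⟩ := hC z (by rw [hz]; exact hε2)
    calc ‖z⁻¹ + (h z - b * z) - c * conj (h z)‖
        ≤ ‖z⁻¹‖ + ‖h z - b * z‖ + ‖c * conj (h z)‖ :=
          (norm_sub_le _ _).trans (add_le_add_left (norm_add_le _ _) _)
      _ ≤ 1 / ε + C * ε ^ 2 + (‖b‖ * ε ^ 2) * C := by
          gcongr
          · rw [norm_inv, hz, one_div]
          · rw [← hz]; exact k1
          · rw [norm_mul, hcn, RCLike.norm_conj]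
            exact mul_le_mul_of_nonneg_left k2 (by positivity)
      _ = T := by rw [hT]; ring
  have hcont := contain' hFd hinj (tendsto_inv_add hhd) hε hε1
    (isPreconnected_compl_ell hc1 hT0) (isBounded_ell hc1) hsph
  -- the image of the annulus lies in the ellipse
  have hann1 : ann ε r ⊆ ball 0 1 \ {0} := by
    intro z hz
    refine ⟨by rw [mem_ball_zero_iff]; exact hz.2.trans hr, ?_⟩
    intro h0
    rw [mem_singleton_iff] at h0
    have := hz.1
    rw [h0, norm_zero] at this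
    exact lt_asymm hε this
  have himg : (fun z => z⁻¹ + h z) '' ann ε r ⊆ ell c T := by
    rintro _ ⟨z, hz, rfl⟩
    by_contra hcon
    obtain ⟨y, hy, hyz⟩ := hcont hcon
    have : y = z := hinj ⟨ball_subset_ball hε1.le hy.1, hy.2⟩ (hann1 hz) hyz
    have hy1 := hy.1
    rw [this, mem_ball_zero_iff] at hy1
    exact lt_asymm hy1 hz.1
  have hder : ∀ z ∈ ann ε r, HasDerivAt (fun z => z⁻¹ + h z) (-(z ^ 2)⁻¹ + deriv h z) z := by
    intro z hz
    have hz1 := hann1 hz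
    have h1 : HasDerivAt h (deriv h z) z :=
      (hhd.differentiableAt (isOpen_ball.mem_nhds hz1.1)).hasDerivAt
    exact (hasDerivAt_inv hz1.2).add h1
  have hvol := vol_image (isOpen_ann ε r).measurableSet hder (hinj.mono hann1)
  obtain ⟨hint, -, hlow⟩ := area_lower_eq hkd hε hεr hr
  have h1 : ENNReal.ofReal (∫ z in ann ε r, ‖-(z ^ 2)⁻¹ + deriv h z‖ ^ 2) ≤
      ENNReal.ofReal (π * T ^ 2 / (1 - ‖c‖ ^ 2)) := by
    rw [ofReal_integral_eq_lintegral_ofReal hint (by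
      filter_upwards with z
      positivity), hvol, ← vol_ell c hc1 hT0.le]
    exact measure_mono himg
  have hp : 0 < 1 - ‖c‖ ^ 2 := by nlinarith [norm_nonneg c]
  have h2 := (ENNReal.ofReal_le_ofReal_iff (by positivity)).1 h1
  have h3 := hlow.trans h2
  rw [hcn] at h3
  have h4 : π * ((1 / ε ^ 2 - 1 / r ^ 2) + ‖b‖ ^ 2 * (r ^ 2 - ε ^ 2) +
      (∫ z in ann ε r, ‖deriv h z - b‖ ^ 2) / π) ≤
      π * (T ^ 2 / (1 - (‖b‖ * ε ^ 2) ^ 2)) := by
    calc _ = π * (1 / ε ^ 2 - 1 / r ^ 2) + π * ‖b‖ ^ 2 * (r ^ 2 - ε ^ 2) +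
        ∫ z in ann ε r, ‖deriv h z - b‖ ^ 2 := by
          have := Real.pi_pos.ne'
          field_simp
      _ ≤ _ := h3
      _ = _ := by ring
  exact le_of_mul_le_mul_left h4 Real.pi_pos

/-- limit of the area inequality, `h 0 = 0` -/
theorem area_key {h : ℂ → ℂ} (hhd : DifferentiableOn ℂ h (ball 0 1)) (h00 : h 0 = 0)
    (hinj : InjOn (fun t : ℂ => t⁻¹ + h t) (ball 0 1 \ {0})) {s r : ℝ} (hs : 0 < s) (hsr : s < r)
    (hr1 : r < 1) :
    ‖deriv h 0‖ ^ 2 * r ^ 2 + (∫ z in ann s r, ‖deriv h z - deriv h 0‖ ^ 2) / π ≤ 1 / r ^ 2 := by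
  set b : ℂ := deriv h 0 with hb
  have hr0 : 0 < r := hs.trans hsr
  have hkd : DifferentiableOn ℂ (deriv h) (ball 0 1) := hhd.deriv isOpen_ball
  -- second order bound
  obtain ⟨C, hC0, hC⟩ : ∃ C : ℝ, 0 ≤ C ∧ ∀ z : ℂ, ‖z‖ ≤ 1 / 2 →
      ‖h z - b * z‖ ≤ C * ‖z‖ ^ 2 ∧ ‖h z‖ ≤ C := by
    set h1 : ℂ → ℂ := dslope h 0 with hh1
    have hh1d : DifferentiableOn ℂ h1 (ball 0 1) :=
      (Complex.differentiableOn_dslope (ball_mem_nhds 0 one_pos)).2 hhd
    set h2 : ℂ → ℂ := dslope h1 0 with hh2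
    have hh2d : DifferentiableOn ℂ h2 (ball 0 1) :=
      (Complex.differentiableOn_dslope (ball_mem_nhds 0 one_pos)).2 hh1d
    have hsub : closedBall (0:ℂ) (1/2) ⊆ ball 0 1 := closedBall_subset_ball (by norm_num)
    obtain ⟨C1, hC1⟩ := (isCompact_closedBall (0:ℂ) (1/2)).exists_bound_of_continuousOn
      (hh2d.continuousOn.mono hsub)
    obtain ⟨C2, hC2⟩ := (isCompact_closedBall (0:ℂ) (1/2)).exists_bound_of_continuousOn
      (hhd.continuousOn.mono hsub)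
    refine ⟨max (max C1 C2) 0, le_max_right _ _, fun z hz => ?_⟩
    have hzm : z ∈ closedBall (0:ℂ) (1/2) := by rwa [mem_closedBall_zero_iff]
    have e1 : h z = z * h1 z := by
      have := sub_smul_dslope h 0 z
      rw [sub_zero, h00, smul_eq_mul, sub_zero] at this
      rw [hh1, this]
    have e2 : h1 z - b = z * h2 z := by
      have := sub_smul_dslope h1 0 z
      rw [sub_zero, smul_eq_mul] at this
      rw [hh2, this]
      congr 1
      rw [hh1, dslope_same]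
    have e3 : h z - b * z = z ^ 2 * h2 z := by
      rw [e1, show z * h1 z - b * z = z * (h1 z - b) by ring, e2]; ring
    constructor
    · rw [e3, norm_mul, norm_pow, mul_comm]
      apply mul_le_mul_of_nonneg_right _ (by positivity)
      exact (hC1 z hzm).trans ((le_max_left _ _).trans (le_max_left _ _))
    · exact (hC2 z hzm).trans ((le_max_right _ _).trans (le_max_left _ _))
  set K : ℝ := C * (1 + ‖b‖) with hK
  set J : ℝ := (∫ z in ann s r, ‖deriv h z - b‖ ^ 2) / π with hJ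
  -- the inequality for small ε
  have hineq : ∀ᶠ ε : ℝ in 𝓝[>] 0, ‖b‖ ^ 2 * (r ^ 2 - ε ^ 2) - 1 / r ^ 2 + J ≤
      (2 * K * ε + K ^ 2 * ε ^ 4 + ‖b‖ ^ 2 * ε ^ 2) / (1 - (‖b‖ * ε ^ 2) ^ 2) := by
    have a1 : ∀ᶠ ε : ℝ in 𝓝[>] 0, ε < min (1/2) s :=
      nhdsWithin_le_nhds (gt_mem_nhds (lt_min (by norm_num) hs))
    have a2 : ∀ᶠ ε : ℝ in 𝓝[>] 0, ‖b‖ * ε ^ 2 < 1 := by
      have : Tendsto (fun ε : ℝ => ‖b‖ * ε ^ 2) (𝓝 0) (𝓝 (‖b‖ * 0 ^ 2)) := by
        apply Continuous.tendsto; fun_prop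
      have h2 := this.eventually (gt_mem_nhds (show ‖b‖ * 0 ^ 2 < 1 by simp))
      exact nhdsWithin_le_nhds h2
    filter_upwards [a1, a2, self_mem_nhdsWithin] with ε h1 h2 h3
    have hε : 0 < ε := h3
    have hεs : ε < s := h1.trans_le (min_le_right _ _)
    have h4 := area_step' hhd hinj hC0 hC hε (h1.le.trans (min_le_left _ _))
      (hεs.trans hsr) hr1 h2
    have hmono : (∫ z in ann s r, ‖deriv h z - b‖ ^ 2) ≤ ∫ z in ann ε r, ‖deriv h z - b‖ ^ 2 := by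
      apply setIntegral_mono_set (area_lower_eq hkd hε (hεs.trans hsr) hr1).2.1
      · filter_upwards with z
        positivity
      · apply LE.le.eventuallyLE
        intro z hz
        exact ⟨hεs.trans hz.1, hz.2⟩
    have hmono' : J ≤ (∫ z in ann ε r, ‖deriv h z - b‖ ^ 2) / π :=
      div_le_div_of_nonneg_right hmono Real.pi_pos.le
    have hp : 0 < 1 - (‖b‖ * ε ^ 2) ^ 2 := by
      have : 0 ≤ ‖b‖ * ε ^ 2 := by positivity
      nlinarith
    have h5 : (1 / ε + K * ε ^ 2) ^ 2 / (1 - (‖b‖ * ε ^ 2) ^ 2) - 1 / ε ^ 2 =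
        (2 * K * ε + K ^ 2 * ε ^ 4 + ‖b‖ ^ 2 * ε ^ 2) / (1 - (‖b‖ * ε ^ 2) ^ 2) := by
      have h6 : (1 / ε + K * ε ^ 2) ^ 2 - (1 - (‖b‖ * ε ^ 2) ^ 2) / ε ^ 2 =
          2 * K * ε + K ^ 2 * ε ^ 4 + ‖b‖ ^ 2 * ε ^ 2 := by
        field_simp
        ring
      rw [← h6, sub_div, div_div, mul_comm (ε ^ 2), ← div_div, div_self hp.ne']
    rw [← h5]
    change (1 / ε ^ 2 - 1 / r ^ 2) + ‖b‖ ^ 2 * (r ^ 2 - ε ^ 2) +
      (∫ z in ann ε r, ‖deriv h z - b‖ ^ 2) / π ≤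
      (1 / ε + K * ε ^ 2) ^ 2 / (1 - (‖b‖ * ε ^ 2) ^ 2) at h4
    linarith
  have hl : Tendsto (fun ε : ℝ => ‖b‖ ^ 2 * (r ^ 2 - ε ^ 2) - 1 / r ^ 2 + J) (𝓝[>] 0)
      (𝓝 (‖b‖ ^ 2 * (r ^ 2 - 0 ^ 2) - 1 / r ^ 2 + J)) := by
    apply Tendsto.mono_left _ nhdsWithin_le_nhds
    apply Continuous.tendsto (f := fun ε : ℝ => ‖b‖ ^ 2 * (r ^ 2 - ε ^ 2) - 1 / r ^ 2 + J)
    fun_prop
  have hrr : Tendsto (fun ε : ℝ =>
      (2 * K * ε + K ^ 2 * ε ^ 4 + ‖b‖ ^ 2 * ε ^ 2) / (1 - (‖b‖ * ε ^ 2) ^ 2)) (𝓝[>] 0)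
      (𝓝 ((2 * K * 0 + K ^ 2 * 0 ^ 4 + ‖b‖ ^ 2 * 0 ^ 2) / (1 - (‖b‖ * 0 ^ 2) ^ 2))) := by
    apply Tendsto.mono_left _ nhdsWithin_le_nhds
    apply Tendsto.div
    · apply Continuous.tendsto
        (f := fun ε : ℝ => 2 * K * ε + K ^ 2 * ε ^ 4 + ‖b‖ ^ 2 * ε ^ 2)
      fun_prop
    · apply Continuous.tendsto (f := fun ε : ℝ => 1 - (‖b‖ * ε ^ 2) ^ 2)
      fun_prop
    · simp
  have hfin := le_of_tendsto_of_tendsto hl hrr hineq
  have h7 : (2 * K * 0 + K ^ 2 * 0 ^ 4 + ‖b‖ ^ 2 * 0 ^ 2) / (1 - (‖b‖ * 0 ^ 2) ^ 2) = 0 := by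
    simp
  rw [h7] at hfin
  simp only [ne_eq, OfNat.ofNat_ne_zero, not_false_eq_true, zero_pow, sub_zero] at hfin
  linarith

/-- **Area theorem** (first coefficient, with the equality case). -/
theorem area_eq {H : ℂ → ℂ} (hHd : DifferentiableOn ℂ H (ball 0 1))
    (hinj : InjOn (fun t : ℂ => t⁻¹ + H t) (ball 0 1 \ {0})) :
    ‖deriv H 0‖ ≤ 1 ∧ (‖deriv H 0‖ = 1 → ∀ t ∈ ball (0:ℂ) 1, H t = H 0 + deriv H 0 * t) := by
  set h : ℂ → ℂ := fun t => H t - H 0 with hh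
  have hhd : DifferentiableOn ℂ h (ball 0 1) := hHd.sub_const _
  have h00 : h 0 = 0 := by simp [hh]
  have hder : deriv h = deriv H := by
    funext z
    rw [hh, deriv_sub_const]
  have hinj' : InjOn (fun t : ℂ => t⁻¹ + h t) (ball 0 1 \ {0}) := by
    intro x hx y hy hxy
    apply hinj hx hy
    simp only [hh] at hxy ⊢
    linear_combination hxy
  set b : ℂ := deriv H 0 with hb
  have hkd : DifferentiableOn ℂ (deriv h) (ball 0 1) := hhd.deriv isOpen_ball
  have key : ∀ s r : ℝ, 0 < s → s < r → r < 1 →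
      ‖b‖ ^ 2 * r ^ 2 + (∫ z in ann s r, ‖deriv h z - b‖ ^ 2) / π ≤ 1 / r ^ 2 := by
    intro s r hs hsr hr1
    have := area_key hhd h00 hinj' hs hsr hr1
    rw [hder] at this ⊢
    exact this
  have hnn : ∀ s r : ℝ, 0 ≤ (∫ z in ann s r, ‖deriv h z - b‖ ^ 2) / π := by
    intro s r
    apply div_nonneg _ Real.pi_pos.le
    apply integral_nonneg
    intro z
    positivity
  have h1 : ‖b‖ ≤ 1 := by
    have hlim : ‖b‖ ^ 2 * 1 ^ 2 ≤ 1 / 1 ^ 2 := by
      have t1 : Tendsto (fun r : ℝ => ‖b‖ ^ 2 * r ^ 2) (𝓝[<] 1) (𝓝 (‖b‖ ^ 2 * 1 ^ 2)) := by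
        apply Tendsto.mono_left _ nhdsWithin_le_nhds
        apply Continuous.tendsto (f := fun r : ℝ => ‖b‖ ^ 2 * r ^ 2)
        fun_prop
      have t2 : Tendsto (fun r : ℝ => 1 / r ^ 2) (𝓝[<] 1) (𝓝 (1 / 1 ^ 2)) := by
        apply Tendsto.mono_left _ nhdsWithin_le_nhds
        have : ContinuousAt (fun r : ℝ => 1 / r ^ 2) 1 := by
          fun_prop (disch := norm_num)
        exact this.tendsto
      apply le_of_tendsto_of_tendsto t1 t2
      have h2 : ∀ᶠ r : ℝ in 𝓝[<] 1, 1 / 2 < r := nhdsWithin_le_nhds (lt_mem_nhds (by norm_num))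
      filter_upwards [h2, self_mem_nhdsWithin] with r hr0 hr1
      have := key (1/2) r (by norm_num) hr0 hr1
      have := hnn (1/2) r
      linarith
    nlinarith [norm_nonneg b]
  refine ⟨h1, fun hb1 => ?_⟩
  -- the integral vanishes
  have hzero : ∀ s r : ℝ, 0 < s → s < r → r < 1 →
      ∫ z in ann s r, ‖deriv h z - b‖ ^ 2 = 0 := by
    intro s r hs hsr hr1
    apply le_antisymm
    · have hlim : (∫ z in ann s r, ‖deriv h z - b‖ ^ 2) / π ≤ 1 / 1 ^ 2 - 1 * 1 ^ 2 := by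
        have t2 : Tendsto (fun r : ℝ => 1 / r ^ 2 - 1 * r ^ 2) (𝓝[<] 1)
            (𝓝 (1 / 1 ^ 2 - 1 * 1 ^ 2)) := by
          apply Tendsto.mono_left _ nhdsWithin_le_nhds
          have : ContinuousAt (fun r : ℝ => 1 / r ^ 2 - 1 * r ^ 2) 1 := by
            fun_prop (disch := norm_num)
          exact this.tendsto
        apply ge_of_tendsto t2
        have h2 : ∀ᶠ r' : ℝ in 𝓝[<] 1, r < r' := nhdsWithin_le_nhds (lt_mem_nhds hr1)
        filter_upwards [h2, self_mem_nhdsWithin] with r' hr' hr'1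
        have h3 := key s r' hs (hsr.trans hr') hr'1
        have hmono : (∫ z in ann s r, ‖deriv h z - b‖ ^ 2) ≤
            ∫ z in ann s r', ‖deriv h z - b‖ ^ 2 := by
          have hI := (area_lower_eq hkd hs (hsr.trans hr') hr'1).2.1
          have hbb : deriv h 0 = b := by rw [hder]
          rw [hbb] at hI
          apply setIntegral_mono_set hI
          · filter_upwards with z
            positivity
          · apply LE.le.eventuallyLE
            intro z hz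
            exact ⟨hz.1, hz.2.trans hr'⟩
        have hmono' := div_le_div_of_nonneg_right hmono Real.pi_pos.le
        rw [hb1] at h3
        linarith
      norm_num at hlim
      rw [div_le_iff₀ Real.pi_pos, zero_mul] at hlim
      exact hlim
    · apply integral_nonneg
      intro z
      positivity
  -- the derivative is constant
  have hconst : ∀ z ∈ ball (0:ℂ) 1, deriv h z = b := by
    have hne : ∀ z ∈ ball (0:ℂ) 1, z ≠ 0 → deriv h z = b := by
      intro z hz hz0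
      by_contra hcon
      have hzn : 0 < ‖z‖ := norm_pos_iff.2 hz0
      rw [mem_ball_zero_iff] at hz
      set s : ℝ := ‖z‖ / 2 with hs
      set r : ℝ := (1 + ‖z‖) / 2 with hr
      have hs0 : 0 < s := by positivity
      have hsz : s < ‖z‖ := by rw [hs]; linarith
      have hzr : ‖z‖ < r := by rw [hr]; linarith
      have hr1 : r < 1 := by rw [hr]; linarith
      have hsr : s < r := hsz.trans hzr
      have h0 := hzero s r hs0 hsr hr1
      have hI := (area_lower_eq hkd hs0 hsr hr1).2.1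
      have hbb : deriv h 0 = b := by rw [hder]
      rw [hbb] at hI
      have hcont : ContinuousOn (fun z : ℂ => ‖deriv h z - b‖ ^ 2) (ann s r) := by
        have hsub : ann s r ⊆ ball 0 1 := by
          intro w hw
          rw [mem_ball_zero_iff]; exact hw.2.trans hr1
        exact (((hkd.continuousOn.mono hsub).sub continuousOn_const).norm).pow 2
      have h1 : (fun z : ℂ => ‖deriv h z - b‖ ^ 2) =ᵐ[volume.restrict (ann s r)] 0 := by
        rw [← setIntegral_eq_zero_iff_of_nonneg_ae _ hI]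
        · exact h0
        · filter_upwards with z
          positivity
      have h2 := MeasureTheory.Measure.eqOn_open_of_ae_eq h1 (isOpen_ann s r) hcont
        continuousOn_const
      have h3 := h2 (show z ∈ ann s r from ⟨hsz, hzr⟩)
      simp only [Pi.zero_apply] at h3
      exact hcon (sub_eq_zero.1 (norm_eq_zero.1 (pow_eq_zero_iff (two_ne_zero) |>.1 h3)))
    intro z hz
    by_cases hz0 : z = 0
    · rw [hz0, hder]
    · exact hne z hz hz0
  intro t ht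
  have hd : ∀ z ∈ ball (0:ℂ) 1, HasDerivAt (fun z => h z - b * z) 0 z := by
    intro z hz
    have h2 : HasDerivAt h b z := by
      have := (hhd.differentiableAt (isOpen_ball.mem_nhds hz)).hasDerivAt
      rwa [hconst z hz] at this
    have h3 := h2.sub ((hasDerivAt_id z).const_mul b)
    simp only [mul_one, sub_self] at h3
    exact h3
  have h4 := (convex_ball (0:ℂ) 1).is_const_of_fderivWithin_eq_zero (𝕜 := ℂ)
    (f := fun z => h z - b * z)
    (fun z hz => (hd z hz).differentiableAt.differentiableWithinAt) (by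
      intro x hx
      rw [fderivWithin_of_isOpen isOpen_ball hx, (hd x hx).hasFDerivAt.fderiv]
      ext
      simp) ht (mem_ball_self one_pos)
  simp only [mul_zero, sub_zero, hh] at h4
  linear_combination h4

end Crest.Agent.R105.Slt_107
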