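import Crest.Agent.R105.Cln1_891
import Crest.Agent.R105.Nal0_649
import Crest.Agent.R105.Sin3_925

/-!
# Row 105 (S0138, picture with solids), SINGLEQ part 1: the abstract energy, gluing across a level
-/

set_option autoImplicit false

namespace Crest.Agent.R105.Snq_925

open Set Filter MeasureTheory Topology Metric
open CF_363 Stp_722 Cq_463
open Skp2_257 (Comps Lo Up)
open scoped ENNReal NNReal

/-- open convex union of horizontal lines -/
structure Band (W : Set (ℝ × ℝ)) : Prop where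
  isOpen : IsOpen W
  convex : Convex ℝ W
  hor : ∀ x x' y, (x, y) ∈ W → (x', y) ∈ W

theorem band_univ : Band univ := ⟨isOpen_univ, convex_univ, by simp⟩
theorem band_lo (B : ℝ) : Band (Lo B) :=
  ⟨(slab_lo B).isOpen, (slab_lo B).convex, fun _ _ _ h => h⟩
theorem band_up (B : ℝ) : Band (Up B) :=
  ⟨(slab_up B).isOpen, (slab_up B).convex, fun _ _ _ h => h⟩
theorem Band.inter {W W' : Set (ℝ × ℝ)} (h : Band W) (h' : Band W') : Band (W ∩ W') :=
  ⟨h.isOpen.inter h'.isOpen, h.convex.inter h'.convex,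
    fun x x' y hp => ⟨h.hor x x' y hp.1, h'.hor x x' y hp.2⟩⟩

/-- two bands whose union contains `W` and which overlap in the strip `b' < y < b` -/
structure Ov (W W1 W2 : Set (ℝ × ℝ)) (b' b : ℝ) : Prop where
  lt : b' < b
  sub : W ⊆ W1 ∪ W2
  s1 : W1 ⊆ W
  s2 : W2 ⊆ W
  u1 : ∀ p ∈ W1, p.2 < b
  u2 : ∀ p ∈ W2, b' < p.2
  ov : ∀ p : ℝ × ℝ, b' < p.2 → p.2 < b → p ∈ W1 ∧ p ∈ W2

theorem ov_univ {b' b : ℝ} (h : b' < b) : Ov univ (Lo b) (Up b') b' b where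
  lt := h
  sub := fun p _ => by
    by_cases hp : p.2 < b
    · exact Or.inl hp
    · exact Or.inr (show b' < p.2 by linarith)
  s1 := subset_univ _
  s2 := subset_univ _
  u1 := fun _ h => h
  u2 := fun _ h => h
  ov := fun _ h h' => ⟨h', h⟩

/-- the abstract energy: `T W f`, `W` a band -/
structure EnC (E : Set (ℝ × ℝ)) (𝓗 : Set Hair) (T : Set (ℝ × ℝ) → (ℝ × ℝ → ℝ) → ℝ) : Prop where
  nonneg : ∀ W f, 0 ≤ T W f
  zero : ∀ W, T W (fun _ => 0) = 0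
  congr : ∀ W, IsOpen W → ∀ f g, EqOn f g (W \ E) → T W f = T W g
  mono : ∀ W W' f, Band W → Band W' → W' ⊆ W → Cc 𝓗 W f → T W' f ≤ T W f
  max : ∀ W f g, Band W → Cc 𝓗 W f → Cc 𝓗 W g →
    T W (fun p => Max.max (f p) (g p)) ≤ T W f + T W g
  add : ∀ W f g, Band W → Cc 𝓗 W f → Cc 𝓗 W g →
    T W (fun p => f p + g p) ≤ 2 * T W f + 2 * T W g
  cmul : ∀ W f c, Band W → Cc 𝓗 W f → T W (fun p => c * f p) ≤ c ^ 2 * T W f
  amp : ∀ W f c, Band W → Cc 𝓗 W f → 0 ≤ c → T W (fun p => Min.min (c * f p) 1) ≤ c ^ 2 * T W f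
  glue : ∀ W W1 W2 b' b f, Band W → Band W1 → Band W2 → Ov W W1 W2 b' b → Cc 𝓗 W f →
    T W f ≤ 2 * T W1 f + 2 * T W2 f

/-- the energy is small near points -/
def CapAt (T : Set (ℝ × ℝ) → (ℝ × ℝ → ℝ) → ℝ) (q : ℝ × ℝ) : Prop :=
  ∀ R > 0, ∀ ε > 0, ∃ r, 0 < r ∧ ∃ lam : ℝ × ℝ → ℝ, CF univ lam ∧ (∀ p, 0 ≤ lam p ∧ lam p ≤ 1) ∧
    (∀ p, dist p q ≤ r → lam p = 1) ∧ (∀ p, R ≤ dist p q → lam p = 0) ∧ T univ lam ≤ ε

/-! ### charges glue across a level -/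

section glue

variable {E : Set (ℝ × ℝ)} {𝒬 : Set Sqr} {𝓗 : Set Hair} {f g : ℝ × ℝ → ℝ}

/-- near the part of a square in a closed strip there are points of `Eᶜ` in the open strip -/
theorem exists_near (hE : QPic E 𝒬 𝓗) {Q : Sqr} (hQ : Q ∈ 𝒬) {b' b : ℝ} (hb : b' < b)
    (h1 : Q.y ≤ b) (h2 : b' ≤ Q.y + Q.s) {O : Set (ℝ × ℝ)} (hO : IsOpen O)
    (hQO : ∀ p ∈ Q.car, b' ≤ p.2 → p.2 ≤ b → p ∈ O) :
    ∃ q ∈ O, q ∉ E ∧ b' < q.2 ∧ q.2 < b := by
  classical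
  have hs := Q.hs
  set t : ℝ := max Q.y b' with ht
  have htQ : t ≤ Q.y + Q.s := max_le (by linarith) h2
  have hty : Q.y ≤ t := le_max_left _ _
  have htb : b' ≤ t := le_max_right _ _
  have htb2 : t ≤ b := max_le h1 hb.le
  have hpQ : ((Q.x, t) : ℝ × ℝ) ∈ Q.car := Sqr.mem_car.2 ⟨⟨le_rfl, by simp only; linarith⟩, hty, htQ⟩
  obtain ⟨r, hr, hrO⟩ := Metric.isOpen_iff.1 hO _ (hQO _ hpQ htb htb2)
  -- the convex open set near `(Q.x, t)`, left of `Q`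
  set A : Set (ℝ × ℝ) := (Ioo (Q.x - r) Q.x) ×ˢ (Ioo (max b' (t - r)) (min b (t + r))) with hA
  have hne : max b' (t - r) < min b (t + r) := by
    refine max_lt (lt_min hb ?_) (lt_min ?_ ?_) <;> linarith
  have hAo : IsOpen A := isOpen_Ioo.prod isOpen_Ioo
  have hAO : A ⊆ O := by
    intro p hp
    obtain ⟨⟨a1, a2⟩, a3, a4⟩ := hp
    have a5 := lt_of_le_of_lt (le_max_right _ _) a3
    have a6 := lt_of_lt_of_le a4 (min_le_right _ _)
    refine hrO ?_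
    rw [mem_ball, Prod.dist_eq, Real.dist_eq, Real.dist_eq]
    refine max_lt ?_ ?_ <;> simp only <;> rw [abs_lt] <;> constructor <;> linarith
  by_contra hcon
  push Not at hcon
  have hAE : A ⊆ E := by
    intro p hp
    by_contra hpE
    have a3 := lt_of_le_of_lt (le_max_left _ _) hp.2.1
    have a4 := lt_of_lt_of_le hp.2.2 (min_le_left _ _)
    exact absurd a4 (not_lt.2 (hcon p (hAO hp) hpE a3))
  have hAne : A.Nonempty :=
    (nonempty_Ioo.2 (by linarith : Q.x - r < Q.x)).prod (nonempty_Ioo.2 hne)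
  -- a point of another square
  have hvol : volume A ≠ 0 := (hAo.measure_pos volume hAne).ne'
  have hex : ∃ Q' ∈ 𝒬, (A ∩ Q'.car).Nonempty := by
    by_contra hc
    push Not at hc
    have hsub : A ⊆ E \ ⋃ Q ∈ 𝒬, Q.car := by
      intro p hp
      refine ⟨hAE hp, fun hpU => ?_⟩
      obtain ⟨Q', hQ', hpQ'⟩ := mem_iUnion₂.1 hpU
      exact Set.eq_empty_iff_forall_notMem.1 (hc Q' hQ') p ⟨hp, hpQ'⟩
    exact hvol (measure_mono_null hsub hE.null)
  obtain ⟨Q', hQ', p, hpA, hpQ'⟩ := hex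
  have hcl : closure A = (Icc (Q.x - r) Q.x) ×ˢ (Icc (max b' (t - r)) (min b (t + r))) := by
    rw [hA, closure_prod_eq, closure_Ioo (sub_lt_self _ hr).ne, closure_Ioo hne.ne]
  have hconv : Convex ℝ (closure A) := by
    rw [hcl]; exact (convex_Icc _ _).prod (convex_Icc _ _)
  have hmem : ((Q.x, t) : ℝ × ℝ) ∈ closure A := by
    rw [hcl]
    exact ⟨⟨(sub_lt_self _ hr).le, le_rfl⟩, max_le htb (sub_lt_self t hr).le,
      le_min htb2 (lt_add_of_pos_right t hr).le⟩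
  have := hE.sep (closure A) (closure_minimal hAE hE.cpt.isClosed) hconv.isPreconnected Q hQ Q' hQ'
    ⟨_, hmem, hpQ⟩ ⟨p, subset_closure hpA, hpQ'⟩
  subst this
  have a1 : p.1 < Q.x := hpA.1.2
  exact absurd (Sqr.mem_car.1 hpQ').1.1 (not_le.2 a1)

theorem closure_sub_le {W : Set (ℝ × ℝ)} {b : ℝ} (h : ∀ p ∈ W, p.2 < b) :
    ∀ p ∈ closure W, p.2 ≤ b := by
  have : closure W ⊆ {p : ℝ × ℝ | p.2 ≤ b} :=
    closure_minimal (fun p hp => (h p hp).le) (isClosed_le continuous_snd continuous_const)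
  exact this

theorem closure_sub_ge {W : Set (ℝ × ℝ)} {b : ℝ} (h : ∀ p ∈ W, b < p.2) :
    ∀ p ∈ closure W, b ≤ p.2 := by
  have : closure W ⊆ {p : ℝ × ℝ | b ≤ p.2} :=
    closure_minimal (fun p hp => (h p hp).le) (isClosed_le continuous_const continuous_snd)
  exact this

theorem mem_closure_strip {b' b : ℝ} (hb : b' < b) {p : ℝ × ℝ} (h1 : b' ≤ p.2) (h2 : p.2 ≤ b) :
    p ∈ closure {q : ℝ × ℝ | b' < q.2 ∧ q.2 < b} := by
  have : {q : ℝ × ℝ | b' < q.2 ∧ q.2 < b} = (univ : Set ℝ) ×ˢ Ioo b' b := by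
    ext q; simp
  rw [this, closure_prod_eq, closure_Ioo hb.ne]
  exact ⟨by simp, h1, h2⟩

/-- **gluing of charges** -/
theorem ch_glue (hE : QPic E 𝒬 𝓗) {W W1 W2 : Set (ℝ × ℝ)} {b' b : ℝ} (ho : Ov W W1 W2 b' b)
    {Q : Sqr} (hQ : Q ∈ 𝒬) (h1 : Fin (Eᶜ ∩ W1) (Q.car ∩ closure W1) f)
    (h2 : Fin (Eᶜ ∩ W2) (Q.car ∩ closure W2) f) :
    ch E W f Q ≤ ch E W1 f Q + ch E W2 f Q := by
  refine chg_le (add_nonneg (ch_nonneg _ _ _ _) (ch_nonneg _ _ _ _)) ?_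
  intro ε hε
  obtain ⟨O1, hO1, hP1, H1⟩ := h1.oscLe (ε / 2) (by linarith)
  obtain ⟨O2, hO2, hP2, H2⟩ := h2.oscLe (ε / 2) (by linarith)
  have c1 := ch_nonneg E W1 f Q
  have c2 := ch_nonneg E W2 f Q
  change (∀ q ∈ O1 ∩ (Eᶜ ∩ W1), ∀ q' ∈ O1 ∩ (Eᶜ ∩ W1), |f q - f q'| ≤ ch E W1 f Q + ε / 2) at H1
  change (∀ q ∈ O2 ∩ (Eᶜ ∩ W2), ∀ q' ∈ O2 ∩ (Eᶜ ∩ W2), |f q - f q'| ≤ ch E W2 f Q + ε / 2) at H2
  -- the open set seen from both sides
  set U1 : Set (ℝ × ℝ) := O1 ∪ (closure W1)ᶜ with hU1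
  set U2 : Set (ℝ × ℝ) := O2 ∪ (closure W2)ᶜ with hU2
  have hU1o : IsOpen U1 := hO1.union isClosed_closure.isOpen_compl
  have hU2o : IsOpen U2 := hO2.union isClosed_closure.isOpen_compl
  have hQ1 : Q.car ⊆ U1 := fun p hp => by
    by_cases h : p ∈ closure W1
    · exact Or.inl (hP1 ⟨hp, h⟩)
    · exact Or.inr h
  have hQ2 : Q.car ⊆ U2 := fun p hp => by
    by_cases h : p ∈ closure W2
    · exact Or.inl (hP2 ⟨hp, h⟩)
    · exact Or.inr h
  have m1 : ∀ q ∈ U1, q ∈ W1 → q ∈ O1 := fun q hq hW => by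
    rcases hq with h | h
    · exact h
    · exact absurd (subset_closure hW) h
  have m2 : ∀ q ∈ U2, q ∈ W2 → q ∈ O2 := fun q hq hW => by
    rcases hq with h | h
    · exact h
    · exact absurd (subset_closure hW) h
  by_cases e1 : (Q.car ∩ closure W1).Nonempty
  · by_cases e2 : (Q.car ∩ closure W2).Nonempty
    · -- a common point
      obtain ⟨p1, hp1, hp1'⟩ := e1
      obtain ⟨p2, hp2, hp2'⟩ := e2
      have y1 : Q.y ≤ b := (Sqr.mem_car.1 hp1).2.1.trans (closure_sub_le ho.u1 p1 hp1')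
      have y2 : b' ≤ Q.y + Q.s := (closure_sub_ge ho.u2 p2 hp2').trans (Sqr.mem_car.1 hp2).2.2
      have hst1 : {q : ℝ × ℝ | b' < q.2 ∧ q.2 < b} ⊆ W1 := fun q hq => (ho.ov q hq.1 hq.2).1
      have hst2 : {q : ℝ × ℝ | b' < q.2 ∧ q.2 < b} ⊆ W2 := fun q hq => (ho.ov q hq.1 hq.2).2
      obtain ⟨q0, hq0, hq0E, hq01, hq02⟩ := exists_near hE hQ ho.lt y1 y2 (hO1.inter hO2)
        (fun p hp a1 a2 => ⟨hP1 ⟨hp, closure_mono hst1 (mem_closure_strip ho.lt a1 a2)⟩,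
          hP2 ⟨hp, closure_mono hst2 (mem_closure_strip ho.lt a1 a2)⟩⟩)
      have q1 : q0 ∈ O1 ∩ (Eᶜ ∩ W1) := ⟨hq0.1, hq0E, (ho.ov q0 hq01 hq02).1⟩
      have q2 : q0 ∈ O2 ∩ (Eᶜ ∩ W2) := ⟨hq0.2, hq0E, (ho.ov q0 hq01 hq02).2⟩
      refine ⟨U1 ∩ U2, hU1o.inter hU2o, fun p hp => ⟨hQ1 hp.1, hQ2 hp.1⟩, ?_⟩
      intro q hq q' hq'
      have d1 : ∀ q ∈ (U1 ∩ U2) ∩ (Eᶜ ∩ W), q ∈ W1 → q ∈ O1 ∩ (Eᶜ ∩ W1) :=
        fun q hq hW => ⟨m1 q hq.1.1 hW, hq.2.1, hW⟩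
      have d2 : ∀ q ∈ (U1 ∩ U2) ∩ (Eᶜ ∩ W), q ∈ W2 → q ∈ O2 ∩ (Eᶜ ∩ W2) :=
        fun q hq hW => ⟨m2 q hq.1.2 hW, hq.2.1, hW⟩
      rcases ho.sub hq.2.2 with w | w <;> rcases ho.sub hq'.2.2 with w' | w'
      · have := H1 q (d1 q hq w) q' (d1 q' hq' w')
        linarith
      · have a1 := H1 q (d1 q hq w) q0 q1
        have a2 := H2 q0 q2 q' (d2 q' hq' w')
        have := abs_sub_le (f q) (f q0) (f q')
        linarith
      · have a1 := H2 q (d2 q hq w) q0 q2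
        have a2 := H1 q0 q1 q' (d1 q' hq' w')
        have := abs_sub_le (f q) (f q0) (f q')
        linarith
      · have := H2 q (d2 q hq w) q' (d2 q' hq' w')
        linarith
    · -- no portion in `W2`
      have hQ2' : Q.car ⊆ (closure W2)ᶜ := fun p hp hp' => e2 ⟨p, hp, hp'⟩
      refine ⟨U1 ∩ (closure W2)ᶜ, hU1o.inter isClosed_closure.isOpen_compl,
        fun p hp => ⟨hQ1 hp.1, hQ2' hp.1⟩, fun q hq q' hq' => ?_⟩
      have d1 : ∀ q ∈ (U1 ∩ (closure W2)ᶜ) ∩ (Eᶜ ∩ W), q ∈ O1 ∩ (Eᶜ ∩ W1) := fun q hq => by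
        rcases ho.sub hq.2.2 with w | w
        · exact ⟨m1 q hq.1.1 w, hq.2.1, w⟩
        · exact absurd (subset_closure w) hq.1.2
      have := H1 q (d1 q hq) q' (d1 q' hq')
      linarith
  · -- no portion in `W1`
    have hQ1' : Q.car ⊆ (closure W1)ᶜ := fun p hp hp' => e1 ⟨p, hp, hp'⟩
    refine ⟨U2 ∩ (closure W1)ᶜ, hU2o.inter isClosed_closure.isOpen_compl,
      fun p hp => ⟨hQ2 hp.1, hQ1' hp.1⟩, fun q hq q' hq' => ?_⟩
    have d1 : ∀ q ∈ (U2 ∩ (closure W1)ᶜ) ∩ (Eᶜ ∩ W), q ∈ O2 ∩ (Eᶜ ∩ W2) := fun q hq => by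
      rcases ho.sub hq.2.2 with w | w
      · exact absurd (subset_closure w) hq.1.2
      · exact ⟨m2 q hq.1.1 w, hq.2.1, w⟩
    have := H2 q (d1 q hq) q' (d1 q' hq')
    linarith

/-- congruence of charges -/
theorem ch_congr {W : Set (ℝ × ℝ)} (h : EqOn f g (W \ E)) (Q : Sqr) : ch E W f Q = ch E W g Q := by
  have key : ∀ c, OscLe (Eᶜ ∩ W) (Q.car ∩ closure W) f c ↔
      OscLe (Eᶜ ∩ W) (Q.car ∩ closure W) g c := by
    intro c
    constructor
    · intro H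
      exact H.congr isOpen_univ (subset_univ _) fun q hq => (h ⟨hq.2.2, hq.2.1⟩).symm
    · intro H
      exact H.congr isOpen_univ (subset_univ _) fun q hq => h ⟨hq.2.2, hq.2.1⟩
  unfold ch chg
  simp only [key]

theorem ch_mono {W W' : Set (ℝ × ℝ)} (hW : W' ⊆ W) (hf : Fin (Eᶜ ∩ W) univ f) (Q : Sqr) :
    ch E W' f Q ≤ ch E W f Q := by
  unfold ch
  have h1 : Fin (Eᶜ ∩ W) (Q.car ∩ closure W) f := hf.mono_set (subset_univ _)
  refine (chg_mono_V (h1.mono_set (inter_subset_inter_right _ (closure_mono hW)))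
    (inter_subset_inter_right _ hW)).trans ?_
  exact chg_mono_set h1 (inter_subset_inter_right _ (closure_mono hW))

theorem En_mono_set {W W' : Set (ℝ × ℝ)} (hE : IsCompact E) (hW : Band W) (hW' : W' ⊆ W)
    (hf : Cc 𝓗 W f) : En (W' \ E) f ≤ En (W \ E) f := by
  obtain ⟨h1, S, hS, h2⟩ := hf
  exact Sin_925.En_mono (hW.isOpen.sdiff hE.isClosed)
    (h1.mono subset_rfl sdiff_subset) hS (fun p hp hpS => h2 p hp.1 hpS)
    (sdiff_subset_sdiff_left hW')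

/-- **`TQ` is an abstract energy** -/
theorem enC_TQ (hE : QPic E 𝒬 𝓗) : EnC E 𝓗 (fun W f => TQ E W 𝒬 f) where
  nonneg := fun W f => TQ_nonneg _ _ _ _
  zero := fun W => TQ_zero
  congr := by
    intro W hW f g h
    unfold TQ Ch
    have e : En (W \ E) f = En (W \ E) g := by
      unfold En
      exact setIntegral_congr_fun (hW.sdiff hE.cpt.isClosed).measurableSet fun p hp =>
        Sin_925.g2_congr_of (hW.sdiff hE.cpt.isClosed) h hp
    rw [e]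
    simp only [ch_congr h]
  mono := by
    intro W W' f hW hW' hsub hf
    unfold TQ
    refine add_le_add (En_mono_set hE.cpt hW hsub hf) ?_
    have hf' : CFJ 𝓗 W' f := hf.1.mono subset_rfl hsub
    unfold Ch
    refine Summable.tsum_le_tsum (fun Q => pow_le_pow_left₀ (ch_nonneg _ _ _ _)
      (ch_mono hsub (CFJ.fin hE hf.1 univ) _) 2) (summable_ch hE hW'.convex hf')
      (summable_ch hE hW.convex hf.1)
  max := fun W f g hW hf hg => TQ_max_le hE hW.isOpen hW.convex hf hg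
  add := fun W f g hW hf hg => TQ_add_le hE hW.isOpen hW.convex hf hg
  cmul := fun W f c hW hf => TQ_const_mul_le hE hW.isOpen hW.convex hf c
  amp := by
    intro W f c hW hf hc
    obtain ⟨h1, S, hS, h2⟩ := hf
    obtain ⟨R, hR, hRv, hRW, hRE⟩ := transfer hE hW.isOpen hS
    have h3 := h1.mono (Subset.refl 𝓗) (hRW.trans sdiff_subset)
    have e1 := (h3.const_mul c).En_min_le hR hRv (CFJ_const (𝓗 := 𝓗) (W := R) 1)
    rw [En_const, add_zero, h3.En_const_mul hR] at e1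
    have e2 := Ch_comp_le (𝒬 := 𝒬) hE hW.convex h1 (G := fun t => Min.min (c * t) 1)
      (M := c) hc (fun s t => by
        have := abs_min_sub_min_le_max (c * s) 1 (c * t) 1
        rw [sub_self, abs_zero, ← mul_sub, abs_mul, abs_of_nonneg hc] at this
        exact this.trans (max_le le_rfl (by positivity)))
    unfold TQ
    rw [hRE f h2, hRE (fun q => Min.min (c * f q) 1) fun p hp hpS => by
      rw [h2 p hp hpS, mul_zero]; exact min_eq_left zero_le_one]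
    linarith
  glue := by
    intro W W1 W2 b' b f hW hW1 hW2 ho hf
    have f1 : CFJ 𝓗 W1 f := hf.1.mono subset_rfl ho.s1
    have f2 : CFJ 𝓗 W2 f := hf.1.mono subset_rfl ho.s2
    have eC : Ch E W 𝒬 f ≤ 2 * Ch E W1 𝒬 f + 2 * Ch E W2 𝒬 f := by
      unfold Ch
      rw [← tsum_mul_left, ← tsum_mul_left,
        ← ((summable_ch hE hW1.convex f1).mul_left 2).tsum_add
          ((summable_ch hE hW2.convex f2).mul_left 2)]
      refine Summable.tsum_le_tsum (fun Q => ?_) (summable_ch hE hW.convex hf.1)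
        (((summable_ch hE hW1.convex f1).mul_left 2).add
          ((summable_ch hE hW2.convex f2).mul_left 2))
      have := ch_glue hE ho Q.2 (CFJ.fin hE f1 _) (CFJ.fin hE f2 _) (f := f)
      have h2 := pow_le_pow_left₀ (ch_nonneg _ _ _ _) this 2
      nlinarith [sq_nonneg (ch E W1 f Q.1 - ch E W2 f Q.1)]
    have eE : En (W \ E) f ≤ En (W1 \ E) f + En (W2 \ E) f := by
      have e : W \ E = (W1 \ E) ∪ (W2 \ E) := by
        rw [← union_sdiff_distrib]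
        exact congrArg (· \ E) (ho.sub.antisymm (union_subset ho.s1 ho.s2))
      have hint : IntegrableOn (g2 f) (W \ E) := by
        obtain ⟨h1, S, hS, h2⟩ := hf
        exact Sin_925.integrable_of_cpt (hW.isOpen.sdiff hE.cpt.isClosed)
          (h1.mono subset_rfl sdiff_subset) hS fun p hp hpS => h2 p hp.1 hpS
      rw [e] at hint ⊢
      exact Sin_925.En_union_le (hW1.isOpen.sdiff hE.cpt.isClosed).measurableSet
        (hW2.isOpen.sdiff hE.cpt.isClosed).measurableSet hint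
    unfold TQ
    have := En_nonneg (W1 \ E) f
    have := En_nonneg (W2 \ E) f
    linarith

theorem capAt_TQ (hE : QPic E 𝒬 𝓗) {q : ℝ × ℝ} (hq : ∀ Q ∈ 𝒬, q ∉ Q.car) :
    CapAt (fun W f => TQ E W 𝒬 f) q := by
  intro R hR ε hε
  obtain ⟨l, ρ, hρ, -, hl, hl01, h1, h0, -, -, hT⟩ := Cln_891.exists_point_cut_Q hE hq hR hε
  exact ⟨ρ, hρ, l, hl, hl01, fun p hp => h1 p hp, h0, hT⟩

end glue

end Crest.Agent.R105.Snq_925
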