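import Crest.Agent.R105.Snq1_925

/-!
# Row 105 (S0138, picture with solids), SINGLEQ part 2: one free hair over an abstract energy
-/

set_option autoImplicit false

namespace Crest.Agent.R105.Snq_925

open Set Filter MeasureTheory Topology Metric
open CF_363 Stp_722 Cq_463
open Skp2_257 (Comps Lo Up)
open Sin_925 (isOpen_Lo isOpen_Up near_car)
open scoped ENNReal NNReal

variable {E : Set (ℝ × ℝ)} {𝓗 : Set Hair} {T : Set (ℝ × ℝ) → (ℝ × ℝ → ℝ) → ℝ}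

/-- one half of a test pair for the energy `T` -/
structure HalfT (𝓗 : Set Hair) (T : Set (ℝ × ℝ) → (ℝ × ℝ → ℝ) → ℝ) (W N : Set (ℝ × ℝ)) (ε : ℝ)
    (z : ℝ × ℝ → ℝ) : Prop where
  cf : CFJ 𝓗 W z
  rg : ∀ p, 0 ≤ z p ∧ z p ≤ 1
  sp : ∃ S, IsCompact S ∧ S ⊆ N ∧ ∀ p ∈ W, p ∉ S → z p = 0
  en : T W z ≤ ε

theorem HalfT.cc {W N : Set (ℝ × ℝ)} {ε : ℝ} {z : ℝ × ℝ → ℝ} (h : HalfT 𝓗 T W N ε z) :
    Cc 𝓗 W z := by
  obtain ⟨S, hS, -, h0⟩ := h.sp
  exact ⟨h.cf, S, hS, h0⟩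

theorem HalfT.zero (hT : EnC E 𝓗 T) (W N : Set (ℝ × ℝ)) {ε : ℝ} (hε : 0 ≤ ε) :
    HalfT 𝓗 T W N ε (fun _ => 0) where
  cf := CFJ_const 0
  rg := fun _ => ⟨le_rfl, zero_le_one⟩
  sp := ⟨∅, isCompact_empty, empty_subset _, fun _ _ _ => rfl⟩
  en := by rw [hT.zero]; exact hε

/-- amplification: `min (c z) 1`. -/
theorem HalfT.amp (hT : EnC E 𝓗 T) {W N N' : Set (ℝ × ℝ)} {ε ε' c : ℝ} {z : ℝ × ℝ → ℝ}
    (hW : Band W) (hc : 0 ≤ c) (h : HalfT 𝓗 T W N ε z) (hN : N ⊆ N') (hε : c ^ 2 * ε ≤ ε') :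
    HalfT 𝓗 T W N' ε' (fun p => Min.min (c * z p) 1) := by
  obtain ⟨S, hS, hSN, hS0⟩ := h.sp
  refine ⟨(h.cf.const_mul c).min (CFJ_const 1), fun p => ⟨le_min (mul_nonneg hc (h.rg p).1)
    zero_le_one, min_le_right _ _⟩, ⟨S, hS, hSN.trans hN, fun p hp hpS => ?_⟩, ?_⟩
  · rw [hS0 p hp hpS, mul_zero]; exact min_eq_left zero_le_one
  · exact (hT.amp W z c hW h.cc hc).trans
      ((mul_le_mul_of_nonneg_left h.en (sq_nonneg c)).trans hε)

/-- lower side null at level `B` -/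
def LowNT (E : Set (ℝ × ℝ)) (𝓗 : Set Hair) (T : Set (ℝ × ℝ) → (ℝ × ℝ → ℝ) → ℝ) (K : Hair)
    (B : ℝ) : Prop :=
  ∀ N, IsOpen N → K.car ⊆ N → ∀ ε > 0, ∃ z, HalfT 𝓗 T (Lo B) N ε z ∧
    ∃ O, IsOpen O ∧ K.car ⊆ O ∧ ∀ p ∈ O \ E, p ∈ Lo B → z p = 1

/-- upper side null at level `B` -/
def UpNT (E : Set (ℝ × ℝ)) (𝓗 : Set Hair) (T : Set (ℝ × ℝ) → (ℝ × ℝ → ℝ) → ℝ) (K : Hair)
    (B : ℝ) : Prop :=
  ∀ N, IsOpen N → K.car ⊆ N → ∀ ε > 0, ∃ z, HalfT 𝓗 T (Up B) N ε z ∧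
    ∃ O, IsOpen O ∧ K.car ⊆ O ∧ ∀ p ∈ O \ E, p ∈ Up B → z p = 1

/-- conductance zero for one hair -/
def NullT (E : Set (ℝ × ℝ)) (𝓗 : Set Hair) (T : Set (ℝ × ℝ) → (ℝ × ℝ → ℝ) → ℝ) (K : Hair)
    (Bm Bp : ℝ) : Prop :=
  ∀ N, IsOpen N → K.car ⊆ N → ∀ ε > 0, ∃ zm zp, HalfT 𝓗 T (Lo Bm) N ε zm ∧
    HalfT 𝓗 T (Up Bp) N ε zp ∧ ∃ O, IsOpen O ∧ K.car ⊆ O ∧
    ∀ p ∈ O \ E, p ∈ Lo Bm → ∀ q ∈ O \ E, q ∈ Up Bp → (9 / 10 : ℝ) ≤ zm p + zp q

theorem low_or_up (hT : EnC E 𝓗 T) {K : Hair} {Bm Bp : ℝ} (h : NullT E 𝓗 T K Bm Bp) :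
    LowNT E 𝓗 T K Bm ∨ UpNT E 𝓗 T K Bp := by
  by_contra hcon
  rw [not_or] at hcon
  obtain ⟨h1, h2⟩ := hcon
  unfold LowNT at h1
  unfold UpNT at h2
  push Not at h1 h2
  obtain ⟨N₁, hN₁, hK₁, ε₁, hε₁, H₁⟩ := h1
  obtain ⟨N₂, hN₂, hK₂, ε₂, hε₂, H₂⟩ := h2
  set ε := Min.min ε₁ ε₂ / 5 with hε
  have hmin : 0 < Min.min ε₁ ε₂ := lt_min hε₁ hε₂
  obtain ⟨zm, zp, hPm, hPp, O, hO, hKO, hkey⟩ := h (N₁ ∩ N₂) (hN₁.inter hN₂)
    (subset_inter hK₁ hK₂) ε (by positivity)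
  have hc : ∀ {e : ℝ}, Min.min ε₁ ε₂ ≤ e → (20 / 9 : ℝ) ^ 2 * ε ≤ e := by
    intro e he
    rw [hε]; nlinarith
  by_cases hA : ∀ p ∈ O \ E, p ∈ Lo Bm → 9 / 20 ≤ zm p
  · obtain ⟨p, hp, hpL, hne⟩ := H₁ _ (HalfT.amp hT (c := 20 / 9) (band_lo Bm) (by norm_num) hPm
      inter_subset_left (hc (min_le_left _ _))) O hO hKO
    apply hne
    have := hA p hp hpL
    exact min_eq_right (by linarith)
  · push Not at hA
    obtain ⟨p, hp, hpL, hlt⟩ := hA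
    obtain ⟨q, hq, hqU, hne⟩ := H₂ _ (HalfT.amp hT (c := 20 / 9) (band_up Bp) (by norm_num) hPp
      inter_subset_right (hc (min_le_right _ _))) O hO hKO
    apply hne
    have := hkey p hp hpL q hq hqU
    exact min_eq_right (by linarith)

/-- lower data at `(β, d)` -/
def LowST (E : Set (ℝ × ℝ)) (𝓗 : Set Hair) (T : Set (ℝ × ℝ) → (ℝ × ℝ → ℝ) → ℝ) (K : Hair)
    (β d : ℝ) : Prop :=
  ∀ N, IsOpen N → K.car ⊆ N → ∀ ε > 0, ∃ B, β - d < B ∧ B ≤ β ∧ ∃ z, HalfT 𝓗 T (Lo B) N ε z ∧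
    ∃ O, IsOpen O ∧ K.car ⊆ O ∧ ∀ p ∈ O \ E, p.2 ≤ β - d → z p = 1

/-- upper data at `(β, d)` -/
def UpST (E : Set (ℝ × ℝ)) (𝓗 : Set Hair) (T : Set (ℝ × ℝ) → (ℝ × ℝ → ℝ) → ℝ) (K : Hair)
    (β d : ℝ) : Prop :=
  ∀ N, IsOpen N → K.car ⊆ N → ∀ ε > 0, ∃ B, β ≤ B ∧ B < β + d ∧ ∃ z, HalfT 𝓗 T (Up B) N ε z ∧
    ∃ O, IsOpen O ∧ K.car ⊆ O ∧ ∀ p ∈ O \ E, β + d ≤ p.2 → z p = 1

theorem exists_level (hT : EnC E 𝓗 T) {K : Hair}
    (h : ∀ Bm Bp, Bm < Bp → K.b ≤ Bm → Bp ≤ K.t → NullT E 𝓗 T K Bm Bp) :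
    ∃ β, K.b ≤ β ∧ β ≤ K.t ∧ ∀ d > 0, LowST E 𝓗 T K β d ∧ UpST E 𝓗 T K β d := by
  have hdich : ∀ Bm Bp, Bm < Bp → K.b ≤ Bm → Bp ≤ K.t → LowNT E 𝓗 T K Bm ∨ UpNT E 𝓗 T K Bp :=
    fun Bm Bp h0 h1 h2 => low_or_up hT (h Bm Bp h0 h1 h2)
  set S : Set ℝ := {B | K.b ≤ B ∧ B ≤ K.t ∧ LowNT E 𝓗 T K B} with hS
  have hup : ∀ β, K.b ≤ β → β ≤ K.t → (∀ B, β < B → B ≤ K.t → ¬ LowNT E 𝓗 T K B) → ∀ d > 0,
      UpST E 𝓗 T K β d := by
    intro β hb ht hno d hd N hN hKN ε hε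
    rcases ht.eq_or_lt with rfl | hlt
    · refine ⟨K.t, le_rfl, by linarith, fun _ => 0, HalfT.zero hT _ _ hε.le, thickening d K.car,
        isOpen_thickening, self_subset_thickening hd _, fun p hp hp2 => ?_⟩
      exact absurd (near_car hp.1).2.2 (not_lt.2 hp2)
    · set B := Min.min (β + d / 2) K.t with hB
      have hβB : β < B := lt_min (by linarith) hlt
      have hBt : B ≤ K.t := min_le_right _ _
      have hBd : B ≤ β + d / 2 := min_le_left _ _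
      have := hdich ((β + B) / 2) B (by linarith) (by linarith) hBt
      rcases this with h' | h'
      · exact absurd h' (hno _ (by linarith) (by linarith))
      · obtain ⟨z, hz, O, hO, hKO, h1⟩ := h' N hN hKN ε hε
        exact ⟨B, hβB.le, by linarith, z, hz, O, hO, hKO, fun p hp hp2 => h1 p hp
          (by show B < p.2; linarith)⟩
  by_cases hne : S.Nonempty
  · have hbdd : BddAbove S := ⟨K.t, fun B hB => hB.2.1⟩
    obtain ⟨B₀, hB₀⟩ := hne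
    have h1 : K.b ≤ sSup S := hB₀.1.trans (le_csSup hbdd hB₀)
    have h2 : sSup S ≤ K.t := csSup_le ⟨B₀, hB₀⟩ fun B hB => hB.2.1
    refine ⟨sSup S, h1, h2, fun d hd => ⟨?_, hup _ h1 h2 (fun B hB hBt hL => ?_) d hd⟩⟩
    · intro N hN hKN ε hε
      obtain ⟨B, hBS, hBd⟩ := exists_lt_of_lt_csSup ⟨B₀, hB₀⟩ (by linarith : sSup S - d < sSup S)
      obtain ⟨z, hz, O, hO, hKO, h3⟩ := hBS.2.2 N hN hKN ε hε
      exact ⟨B, hBd, le_csSup hbdd hBS, z, hz, O, hO, hKO, fun p hp hp2 => h3 p hp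
        (by show p.2 < B; linarith)⟩
    · exact absurd (le_csSup hbdd ⟨h1.trans hB.le, hBt, hL⟩) (not_le.2 hB)
  · rw [not_nonempty_iff_eq_empty] at hne
    refine ⟨K.b, le_rfl, K.hbt.le, fun d hd => ⟨?_, hup _ le_rfl K.hbt.le
      (fun B hB hBt hL => ?_) d hd⟩⟩
    · intro N hN hKN ε hε
      refine ⟨K.b, by linarith, le_rfl, fun _ => 0, HalfT.zero hT _ _ hε.le, thickening d K.car,
        isOpen_thickening, self_subset_thickening hd _, fun p hp hp2 => ?_⟩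
      exact absurd (near_car hp.1).2.1 (not_lt.2 hp2)
    · have : B ∈ S := ⟨hB.le, hBt, hL⟩
      rw [hne] at this
      exact this

/-- the basic cut-off, off `E` -/
theorem basic0 (hT : EnC E 𝓗 T) {K : Hair} {β : ℝ} (hb : K.b ≤ β) (ht : β ≤ K.t)
    (hcap : CapAt T (K.x, β))
    (h : ∀ d > 0, LowST E 𝓗 T K β d ∧ UpST E 𝓗 T K β d) {N : Set (ℝ × ℝ)} (hN : IsOpen N)
    (hKN : K.car ⊆ N) {ε : ℝ} (hε : 0 < ε) :
    ∃ ζ, HalfT 𝓗 T univ N ε ζ ∧ ∃ O, IsOpen O ∧ K.car ⊆ O ∧ ∀ p ∈ O \ E, ζ p = 1 := by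
  classical
  set q : ℝ × ℝ := (K.x, β) with hq
  have hqK : q ∈ K.car := ⟨rfl, hb, ht⟩
  obtain ⟨R, hR, hRN⟩ := nhds_basis_closedBall.mem_iff.1 (hN.mem_nhds (hKN hqK))
  obtain ⟨r, hr, lam, hl, hl01, hl1, hl0, hle⟩ := hcap R hR (ε / 16) (by positivity)
  set d := r / 4 with hd
  have hd0 : 0 < d := by positivity
  set N' := N ∩ thickening d K.car with hN'
  have hN'o : IsOpen N' := hN.inter isOpen_thickening
  have hKN' : K.car ⊆ N' := subset_inter hKN (self_subset_thickening hd0 _)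
  obtain ⟨Bm, hBm1, hBm2, zm, hzm, Om, hOm, hKOm, hm1⟩ := (h d hd0).1 N' hN'o hKN' (ε / 16)
    (by positivity)
  obtain ⟨Bp, hBp1, hBp2, zp, hzp, Op, hOp, hKOp, hp1⟩ := (h d hd0).2 N' hN'o hKN' (ε / 16)
    (by positivity)
  obtain ⟨Sm, hSm, hSmN, hSm0⟩ := hzm.sp
  obtain ⟨Sp, hSp, hSpN, hSp0⟩ := hzp.sp
  set ζ : ℝ × ℝ → ℝ := fun p => if p.2 < Bm then Max.max (lam p) (zm p)
    else if Bp < p.2 then Max.max (lam p) (zp p) else lam p with hζ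
  have near : ∀ p : ℝ × ℝ, |p.1 - K.x| < 2 * d → |p.2 - β| < 2 * d → lam p = 1 := by
    intro p h1 h2
    refine hl1 p ?_
    rw [hq, Prod.dist_eq, Real.dist_eq, Real.dist_eq]
    refine (max_lt h1 h2).le.trans ?_
    rw [hd]; linarith
  -- values on the three pieces
  have eqL : EqOn ζ (fun p => Max.max (lam p) (zm p)) (Lo Bm) := fun p hp => by
    simp only [hζ]; exact if_pos hp
  have eqU : EqOn ζ (fun p => Max.max (lam p) (zp p)) (Up Bp) := fun p hp => by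
    have hp' : Bp < p.2 := hp
    simp only [hζ]
    rw [if_neg (by linarith), if_pos hp']
  set U2 : Set (ℝ × ℝ) := Lo (β + 2 * d) ∩ Up (β - 2 * d) with hU2
  have hU2b : Band U2 := (band_lo _).inter (band_up _)
  have eqM : EqOn ζ lam U2 := by
    intro p hp
    have hp1 : p.2 < β + 2 * d := hp.1
    have hp2 : β - 2 * d < p.2 := hp.2
    have hab : |p.2 - β| < 2 * d := by rw [abs_lt]; constructor <;> linarith
    simp only [hζ]
    split_ifs with hc1 hc2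
    · by_cases hpS : p ∈ Sm
      · rw [near p ((near_car (hSmN hpS).2).1.trans (by linarith)) hab]
        exact max_eq_left (hzm.rg p).2
      · rw [hSm0 p hc1 hpS]; exact max_eq_left (hl01 p).1
    · by_cases hpS : p ∈ Sp
      · rw [near p ((near_car (hSpN hpS).2).1.trans (by linarith)) hab]
        exact max_eq_left (hzp.rg p).2
      · rw [hSp0 p hc2 hpS]; exact max_eq_left (hl01 p).1
    · rfl
  have hcov : (univ : Set (ℝ × ℝ)) = (Lo Bm ∪ Up Bp) ∪ U2 := by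
    refine (eq_univ_of_forall fun p => ?_).symm
    by_cases h1 : p.2 < Bm
    · exact Or.inl (Or.inl h1)
    · by_cases h2 : Bp < p.2
      · exact Or.inl (Or.inr h2)
      · refine Or.inr ⟨?_, ?_⟩
        · show p.2 < β + 2 * d
          linarith
        · show β - 2 * d < p.2
          linarith
  -- regularity
  have hlcc : ∀ W, Cc 𝓗 W lam := fun W =>
    ⟨(hl.cfj (𝓗 := 𝓗)).mono subset_rfl (subset_univ W), closedBall q R, isCompact_closedBall q R,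
      fun p _ hp => hl0 p (by rw [mem_closedBall, not_le] at hp; exact hp.le)⟩
  have hcf : CFJ 𝓗 univ ζ := by
    obtain ⟨J₁, hJ₁, k₁⟩ := hzm.cf
    obtain ⟨J₂, hJ₂, k₂⟩ := hzp.cf
    refine ⟨J₁ ∪ J₂, fun K' hK' => ?_, ?_⟩
    · rcases Finset.mem_union.mp hK' with h' | h'
      · exact hJ₁ K' h'
      · exact hJ₂ K' h'
    · have e : (univ : Set (ℝ × ℝ)) \ cut (J₁ ∪ J₂) = ((Lo Bm \ cut (J₁ ∪ J₂)) ∪
          (Up Bp \ cut (J₁ ∪ J₂))) ∪ (U2 \ cut (J₁ ∪ J₂)) := by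
        rw [← union_sdiff_distrib, ← union_sdiff_distrib, ← hcov]
      rw [e]
      refine CF.union ((isOpen_diff_cut (isOpen_Lo _) _).union (isOpen_diff_cut (isOpen_Up _) _))
        (isOpen_diff_cut hU2b.isOpen _) (CF.union (isOpen_diff_cut (isOpen_Lo _) _)
        (isOpen_diff_cut (isOpen_Up _) _) ?_ ?_) ?_
      · have k : CF (Lo Bm \ cut (J₁ ∪ J₂)) zm :=
          k₁.mono (sdiff_subset_sdiff_right (cut_mono Finset.subset_union_left))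
        exact ((hl.mono (subset_univ _)).max k).congr (eqL.symm.mono sdiff_subset)
      · have k : CF (Up Bp \ cut (J₁ ∪ J₂)) zp :=
          k₂.mono (sdiff_subset_sdiff_right (cut_mono Finset.subset_union_right))
        exact ((hl.mono (subset_univ _)).max k).congr (eqU.symm.mono sdiff_subset)
      · exact (hl.mono (subset_univ _)).congr (eqM.symm.mono sdiff_subset)
  -- support
  have hcS : IsCompact ((closedBall q R ∪ Sm) ∪ Sp) :=
    ((isCompact_closedBall q R).union hSm).union hSp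
  have hS0 : ∀ p, p ∉ (closedBall q R ∪ Sm) ∪ Sp → ζ p = 0 := by
    intro p hp
    rw [mem_union, mem_union, not_or, not_or] at hp
    obtain ⟨⟨a1, a2⟩, a3⟩ := hp
    have hlp : lam p = 0 := hl0 p (by rw [mem_closedBall, not_le] at a1; exact a1.le)
    simp only [hζ]
    split_ifs with hc1 hc2
    · rw [hlp, hSm0 p hc1 a2]; exact max_self 0
    · rw [hlp, hSp0 p hc2 a3]; exact max_self 0
    · exact hlp
  have hζcc : ∀ W, Cc 𝓗 W ζ := fun W =>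
    ⟨hcf.mono subset_rfl (subset_univ W), _, hcS, fun p _ hp => hS0 p hp⟩
  refine ⟨ζ, ⟨hcf, fun p => ?_, ⟨_, hcS, ?_, fun p _ hp => hS0 p hp⟩, ?_⟩,
    (Om ∩ Op) ∩ thickening d K.car, (hOm.inter hOp).inter isOpen_thickening,
    subset_inter (subset_inter hKOm hKOp) (self_subset_thickening hd0 _), fun p hp => ?_⟩
  · obtain ⟨b1, b2⟩ := hl01 p
    obtain ⟨c1, c2⟩ := hzm.rg p
    obtain ⟨c3, c4⟩ := hzp.rg p
    simp only [hζ]
    split_ifs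
    · exact ⟨b1.trans (le_max_left _ _), max_le b2 c2⟩
    · exact ⟨b1.trans (le_max_left _ _), max_le b2 c4⟩
    · exact ⟨b1, b2⟩
  · exact union_subset (union_subset hRN fun p hp => (hSmN hp).1) fun p hp => (hSpN hp).1
  · -- energy
    have hlW : ∀ W, Band W → T W lam ≤ ε / 16 := fun W hW =>
      (hT.mono univ W lam band_univ hW (subset_univ _) (hlcc univ)).trans hle
    have o1 : Ov univ (Lo Bm) (Up (β - 2 * d)) (β - 2 * d) Bm := ov_univ (by linarith)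
    have o2 : Ov (Up (β - 2 * d)) U2 (Up Bp) Bp (β + 2 * d) :=
      { lt := by linarith
        sub := fun p hp => by
          by_cases h2 : p.2 < β + 2 * d
          · exact Or.inl ⟨h2, hp⟩
          · exact Or.inr (show Bp < p.2 by linarith)
        s1 := fun p hp => hp.2
        s2 := fun p hp => by
          have hp' : Bp < p.2 := hp
          show β - 2 * d < p.2
          linarith
        u1 := fun p hp => hp.1
        u2 := fun p hp => hp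
        ov := fun p h1 h2 => ⟨⟨h2, show β - 2 * d < p.2 by linarith⟩, h1⟩ }
    have g1 := hT.glue _ _ _ _ _ ζ band_univ (band_lo Bm) (band_up _) o1 (hζcc univ)
    have g2 := hT.glue _ _ _ _ _ ζ (band_up _) hU2b (band_up Bp) o2 (hζcc _)
    have h3 : T (Lo Bm) ζ ≤ ε / 16 + ε / 16 := by
      rw [hT.congr _ (isOpen_Lo Bm) ζ _ (eqL.mono sdiff_subset)]
      exact (hT.max _ _ _ (band_lo Bm) (hlcc _) hzm.cc).trans
        (add_le_add (hlW _ (band_lo Bm)) hzm.en)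
    have h4 : T (Up Bp) ζ ≤ ε / 16 + ε / 16 := by
      rw [hT.congr _ (isOpen_Up Bp) ζ _ (eqU.mono sdiff_subset)]
      exact (hT.max _ _ _ (band_up Bp) (hlcc _) hzp.cc).trans
        (add_le_add (hlW _ (band_up Bp)) hzp.en)
    have h5 : T U2 ζ ≤ ε / 16 := by
      rw [hT.congr _ hU2b.isOpen ζ _ (eqM.mono sdiff_subset)]
      exact hlW _ hU2b
    linarith
  · obtain ⟨⟨⟨hpm, hpp⟩, hpt⟩, hpE⟩ := hp
    rcases le_or_gt p.2 (β - d) with c1 | c1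
    · have hlt : p.2 < Bm := by linarith
      have hz := hm1 p ⟨hpm, hpE⟩ c1
      simp only [hζ]
      rw [if_pos hlt, hz]; exact max_eq_right (hl01 p).2
    · rcases le_or_gt (β + d) p.2 with c2 | c2
      · have hlt : Bp < p.2 := by linarith
        have hz := hp1 p ⟨hpp, hpE⟩ c2
        simp only [hζ]
        rw [if_neg (by linarith), if_pos hlt, hz]; exact max_eq_right (hl01 p).2
      · have hlp : lam p = 1 := near p ((near_car hpt).1.trans (by linarith))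
          (by rw [abs_lt]; constructor <;> linarith)
        have hpU : p ∈ U2 := ⟨by show p.2 < β + 2 * d; linarith, by show β - 2 * d < p.2; linarith⟩
        rw [eqM hpU, hlp]

end Crest.Agent.R105.Snq_925
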