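import Crest.Agent.R105.Snq3_925
import Crest.Agent.R105.SkT1_137

/-!
# Row 105 (S0138, picture with solids): `SkT1_137.OUTQ` and `SkT1_137.SINGLEQ`
-/

set_option autoImplicit false

namespace Crest.Agent.R105.Snq_925

open Set Filter MeasureTheory Topology Metric
open CF_363 Stp_722 Cq_463
open Skp2_257 (Comps Lo Up)
open Nal_649 (HalfQ FamQ PairQ NullNQ Win NullUp NullLo OneNear comp)
open Exs_992 (PicS)
open Sin_925 (isOpen_Lo isOpen_Up)
open scoped ENNReal NNReal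

section patch

variable {E : Set (ℝ × ℝ)} {𝓗 : Set Hair} {T : Set (ℝ × ℝ) → (ℝ × ℝ → ℝ) → ℝ}

/-- `patch` in an open region -/
theorem patchW (hT : EnC E 𝓗 T) (hE : IsCompact E) {W : Set (ℝ × ℝ)} (hW : IsOpen W)
    {P : Set (ℝ × ℝ)} (hP : P ∈ Comps E)
    {N : Set (ℝ × ℝ)} (hN : IsOpen N) (hPN : P ⊆ N) {ε : ℝ} {ζ : ℝ × ℝ → ℝ}
    (h : HalfT 𝓗 T W N ε ζ) {O : Set (ℝ × ℝ)} (hO : IsOpen O) (hPO : P ⊆ O)
    (h1 : ∀ p ∈ O \ E, p ∈ W → ζ p = 1) :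
    ∃ ζ', HalfT 𝓗 T W N ε ζ' ∧ ∃ O', IsOpen O' ∧ P ⊆ O' ∧ ∀ p ∈ O', ζ' p = 1 := by
  classical
  obtain ⟨x, hx, rfl⟩ := hP
  obtain ⟨N₂, hN₂, hKN₂, hcl, hclc, hfr⟩ := Thin_12.thin_nhd hE hx (W := O ∩ N)
    (hO.inter hN) (subset_inter hPO hPN)
  obtain ⟨J, hJ, hc⟩ := h.cf
  set ζ' : ℝ × ℝ → ℝ := fun p => if p ∈ N₂ then 1 else ζ p with hζ'
  -- the two open sets
  set A : Set (ℝ × ℝ) := W ∩ (N₂ ∪ (O \ E)) with hA
  set B : Set (ℝ × ℝ) := W ∩ (closure N₂)ᶜ with hB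
  have hAo : IsOpen A := hW.inter (hN₂.union (hO.sdiff hE.isClosed))
  have hBo : IsOpen B := hW.inter isClosed_closure.isOpen_compl
  have eA : EqOn (fun _ => (1 : ℝ)) ζ' A := by
    intro p hp
    simp only [hζ']
    split_ifs with hpN
    · rfl
    · rcases hp.2 with hp' | hp'
      · exact absurd hp' hpN
      · exact (h1 p hp' hp.1).symm
  have eB : EqOn ζ ζ' B := by
    intro p hp
    simp only [hζ']
    rw [if_neg fun hpN => hp.2 (subset_closure hpN)]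
  have hcov : W = A ∪ B := by
    refine Subset.antisymm (fun p hpW => ?_) (union_subset inter_subset_left inter_subset_left)
    by_cases hp : p ∈ closure N₂
    · by_cases hpN : p ∈ N₂
      · exact Or.inl ⟨hpW, Or.inl hpN⟩
      · refine Or.inl ⟨hpW, Or.inr ⟨(hcl hp).1, fun hpE => Set.disjoint_left.1 hfr ?_ hpE⟩⟩
        rw [hN₂.frontier_eq]; exact ⟨hp, hpN⟩
    · exact Or.inr ⟨hpW, hp⟩
  have hcf : CFJ 𝓗 W ζ' := by
    refine ⟨J, hJ, ?_⟩
    have e : W \ cut J = (A \ cut J) ∪ (B \ cut J) := by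
      rw [← union_sdiff_distrib, ← hcov]
    rw [e]
    refine CF.union (isOpen_diff_cut hAo _) (isOpen_diff_cut hBo _) ?_ ?_
    · exact (CF_const 1).congr (eA.mono sdiff_subset)
    · exact (hc.mono (sdiff_subset_sdiff_left inter_subset_left)).congr (eB.mono sdiff_subset)
  obtain ⟨S, hS, hSN, hS0⟩ := h.sp
  refine ⟨ζ', ⟨hcf, fun p => ?_, ⟨S ∪ closure N₂, hS.union hclc,
    union_subset hSN fun p hp => (hcl hp).2, fun p hpW hp => ?_⟩, ?_⟩, N₂, hN₂, hKN₂,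
    fun p hp => if_pos hp⟩
  · simp only [hζ']
    split_ifs
    · exact ⟨zero_le_one, le_rfl⟩
    · exact h.rg p
  · rw [mem_union, not_or] at hp
    simp only [hζ']
    rw [if_neg fun hpN => hp.2 (subset_closure hpN)]
    exact hS0 p hpW hp.1
  · have e : EqOn ζ' ζ (W \ E) := by
      intro p hp
      simp only [hζ']
      split_ifs with hpN
      · exact (h1 p ⟨(hcl (subset_closure hpN)).1, hp.2⟩ hp.1).symm
      · rfl
    rw [hT.congr _ hW ζ' ζ e]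
    exact h.en

end patch

section TQ

variable {E : Set (ℝ × ℝ)} {𝒬 : Set Sqr} {𝓗 : Set Hair}

/-- a Lipschitz cut-off of a compact set -/
theorem exists_lip {S N : Set (ℝ × ℝ)} (hS : IsCompact S) (hN : IsOpen N) (hSN : S ⊆ N) :
    ∃ (ℓ : ℝ≥0) (χ : ℝ × ℝ → ℝ), LipschitzWith ℓ χ ∧ (∀ p, 0 ≤ χ p ∧ χ p ≤ 1) ∧
      (∃ C, IsCompact C ∧ C ⊆ N ∧ ∀ p ∉ C, χ p = 0) ∧ ∃ O, IsOpen O ∧ S ⊆ O ∧ ∀ p ∈ O, χ p = 1 := by
  rcases S.eq_empty_or_nonempty with rfl | hne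
  · exact ⟨0, fun _ => 0, LipschitzWith.const 0, fun p => ⟨le_rfl, zero_le_one⟩, ⟨∅,
      isCompact_empty, empty_subset _, fun _ _ => rfl⟩, ∅, isOpen_empty, Subset.rfl,
      fun p hp => absurd hp (notMem_empty p)⟩
  obtain ⟨δ, hδ, hδN⟩ := hS.exists_cthickening_subset_open hN hSN
  refine ⟨Real.toNNReal (2 / δ), fun p => Max.max 0 (Min.min 1 (2 - 2 * (infDist p S / δ))),
    ?_, fun p => ⟨le_max_left _ _, max_le zero_le_one (min_le_left _ _)⟩,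
    ⟨cthickening δ S, hS.cthickening, hδN, fun p hp => ?_⟩, thickening (δ / 2) S,
    isOpen_thickening, self_subset_thickening (by positivity) _, fun p hp => ?_⟩
  · refine LipschitzWith.of_dist_le_mul fun p p' => ?_
    rw [Real.coe_toNNReal _ (by positivity), Real.dist_eq]
    have h1 := abs_max_sub_max_le_max 0 (Min.min 1 (2 - 2 * (infDist p S / δ))) 0
      (Min.min 1 (2 - 2 * (infDist p' S / δ)))
    have h2 := abs_min_sub_min_le_max 1 (2 - 2 * (infDist p S / δ)) 1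
      (2 - 2 * (infDist p' S / δ))
    have h3 : |(2 - 2 * (infDist p S / δ)) - (2 - 2 * (infDist p' S / δ))| ≤
        2 / δ * dist p p' := by
      have e : (2 - 2 * (infDist p S / δ)) - (2 - 2 * (infDist p' S / δ)) =
          2 / δ * (infDist p' S - infDist p S) := by field_simp; ring
      rw [e, abs_mul, abs_of_pos (by positivity : (0 : ℝ) < 2 / δ)]
      refine mul_le_mul_of_nonneg_left ?_ (by positivity)
      have h5 := (lipschitz_infDist_pt S).dist_le_mul p' p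
      rw [NNReal.coe_one, one_mul, Real.dist_eq, dist_comm] at h5
      exact h5
    have h4 : (0 : ℝ) ≤ 2 / δ * dist p p' := by positivity
    rw [sub_self, abs_zero] at h1 h2
    exact h1.trans (max_le h4 (h2.trans (max_le h4 h3)))
  · have h1 : δ ≤ infDist p S := by
      by_contra hcon
      push Not at hcon
      exact hp (thickening_subset_cthickening _ _ ((mem_thickening_iff_infDist_lt hne).2 hcon))
    have h2 : 1 ≤ infDist p S / δ := by rwa [one_le_div hδ]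
    exact max_eq_left ((min_le_right _ _).trans (by linarith))
  · have h1 := (mem_thickening_iff_infDist_lt hne).1 hp
    have h2 : infDist p S / δ ≤ 1 / 2 := by rw [div_le_iff₀ hδ]; linarith
    beta_reduce
    rw [min_eq_left (by linarith)]
    exact max_eq_right zero_le_one

/-- energy of `θ z`, `θ = 0` on the other band -/
theorem TQ_ext_le (hE : QPic E 𝒬 𝓗) {W W' : Set (ℝ × ℝ)} (hW : Slab W) (hW' : Band W')
    {b' b : ℝ} (ho : Ov univ W W' b' b ∨ Ov univ W' W b' b) {z θ : ℝ × ℝ → ℝ} {ℓ : ℝ≥0}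
    (hz : Cc 𝓗 W z) (hθ : LipschitzWith ℓ θ) (hθ1 : ∀ p, 0 ≤ θ p ∧ θ p ≤ 1)
    (hθ0 : ∀ p ∈ W', θ p = 0) {S : Set (ℝ × ℝ)} (hS : IsCompact S)
    (hzS : ∀ p ∈ W, p ∉ S → z p = 0) {u v : ℝ} (huv : u < v)
    (hE2 : ∀ p ∈ E, u < p.2 ∧ p.2 < v) (hS2 : ∀ p ∈ S, u < p.2 ∧ p.2 < v) :
    CFJ 𝓗 univ (fun p => θ p * z p) ∧
      TQ E univ 𝒬 (fun p => θ p * z p) ≤ 2 * (cutC ℓ (v - u) * TQ E W 𝒬 z) := by
  have hθa : ∀ p, |θ p| ≤ 1 := fun p => by rw [abs_of_nonneg (hθ1 p).1]; exact (hθ1 p).2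
  have hcov : (univ : Set (ℝ × ℝ)) = W ∪ W' := by
    rcases ho with ho | ho
    · exact ho.sub.antisymm (subset_univ _)
    · rw [union_comm]; exact ho.sub.antisymm (subset_univ _)
  have hcf : CFJ 𝓗 univ (fun p => θ p * z p) := by
    obtain ⟨J, hJ, hc⟩ := (CFJ_of_lipschitz (𝓗 := 𝓗) (W := W) hθ hθa).mul hz.1
    refine ⟨J, hJ, ?_⟩
    have e : (univ : Set (ℝ × ℝ)) \ cut J = (W \ cut J) ∪ (W' \ cut J) := by
      rw [← union_sdiff_distrib, ← hcov]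
    rw [e]
    refine CF.union (isOpen_diff_cut hW.isOpen _) (isOpen_diff_cut hW'.isOpen _) hc ?_
    refine (CF_const 0).congr fun p hp => ?_
    beta_reduce
    rw [hθ0 p hp.1, zero_mul]
  have h0 : ∀ p, p ∉ S → θ p * z p = 0 := by
    intro p hp
    have : p ∈ W ∪ W' := hcov ▸ mem_univ p
    rcases this with h | h
    · rw [hzS p h hp, mul_zero]
    · rw [hθ0 p h, zero_mul]
  have hcc : Cc 𝓗 univ (fun p => θ p * z p) := ⟨hcf, S, hS, fun p _ hp => h0 p hp⟩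
  refine ⟨hcf, ?_⟩
  have hT := enC_TQ hE
  have e0 : TQ E W' 𝒬 (fun p => θ p * z p) = 0 := by
    have := hT.congr W' hW'.isOpen (fun p => θ p * z p) (fun _ => 0) fun p hp => by
      beta_reduce
      rw [hθ0 p hp.1, zero_mul]
    rw [hT.zero] at this
    exact this
  have hBW : Band W := ⟨hW.isOpen, hW.convex, hW.hor⟩
  have e1 : TQ E W 𝒬 (fun p => θ p * z p) ≤ cutC ℓ (v - u) * TQ E W 𝒬 z :=
    TQ_cut_le hE hW hz hE2 huv.le ⟨fun p hp h => hzS p hp fun hpS => by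
      have := hS2 p hpS
      rcases h with h | h <;> linarith [this.1, this.2]⟩ hθ hθa
  rcases ho with ho | ho
  · have := hT.glue _ _ _ _ _ _ band_univ hBW hW' ho hcc
    beta_reduce at this
    linarith
  · have := hT.glue _ _ _ _ _ _ band_univ hW' hBW ho hcc
    beta_reduce at this
    linarith

/-- cheap functions with support in a fixed bounded set give cheap functions with support in any
neighbourhood -/
theorem sin_of_bdd (hE : QPic E 𝒬 𝓗) {S N₁ : Set (ℝ × ℝ)} (hS : IsCompact S)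
    (hN₁ : Bornology.IsBounded N₁)
    (h : ∀ ε > 0, ∃ ζ, HalfQ E 𝒬 𝓗 univ N₁ ε ζ ∧ ∃ O, IsOpen O ∧ S ⊆ O ∧ ∀ p ∈ O, ζ p = 1) :
    SkT1_137.SinOutQ E 𝒬 𝓗 S := by
  intro N hN hSN ε hε
  obtain ⟨ℓ, χ, hχ, hχ1, ⟨C, hC, hCN, hC0⟩, O₂, hO₂, hSO₂, h2⟩ := exists_lip hS hN hSN
  obtain ⟨u, v, huv, hEv⟩ := exists_height (hE.cpt.union hN₁.isCompact_closure)
  have hc0 : 0 ≤ cutC ℓ (v - u) := by unfold cutC; positivity
  obtain ⟨ζ, hζ, O, hO, hSO, h1⟩ := h (ε / (cutC ℓ (v - u) + 1)) (by positivity)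
  obtain ⟨S', hS', hSN', hS0'⟩ := hζ.sp
  have hcc : Cc 𝓗 univ ζ := ⟨hζ.cf, S', hS', hS0'⟩
  have hχa : ∀ p, |χ p| ≤ 1 := fun p => by rw [abs_of_nonneg (hχ1 p).1]; exact (hχ1 p).2
  refine ⟨fun p => χ p * ζ p, ⟨(CFJ_of_lipschitz hχ hχa).mul hζ.cf, fun p =>
    ⟨mul_nonneg (hχ1 p).1 (hζ.rg p).1, mul_le_one₀ (hχ1 p).2 (hζ.rg p).1 (hζ.rg p).2⟩,
    ⟨C, hC, hCN, fun p _ hp => by rw [hC0 p hp, zero_mul]⟩, ?_⟩, O ∩ O₂, hO.inter hO₂,
    subset_inter hSO hSO₂, fun p hp => by beta_reduce; rw [h1 p hp.1, h2 p hp.2, one_mul]⟩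
  have h3 := TQ_cut_le hE slab_univ hcc (a := u) (b := v) (fun p hp => hEv p (Or.inl hp)) huv.le
    ⟨fun p _ h => hS0' p (mem_univ _) fun hpS => by
      have := hEv p (Or.inr (subset_closure (hSN' hpS)))
      rcases h with h | h <;> linarith [this.1, this.2]⟩ hχ hχa
  refine h3.trans ?_
  have h4 := hζ.en
  calc cutC ℓ (v - u) * TQ E univ 𝒬 ζ ≤ cutC ℓ (v - u) * (ε / (cutC ℓ (v - u) + 1)) := by gcongr
    _ ≤ (cutC ℓ (v - u) + 1) * (ε / (cutC ℓ (v - u) + 1)) := by gcongr; linarith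
    _ = ε := by field_simp

/-- one end null ⟹ plane cut-off of the outer part, general form -/
theorem out_gen (hE : QPic E 𝒬 𝓗) {P : Set (ℝ × ℝ)} (hP : P ∈ Comps E) {S : Set (ℝ × ℝ)}
    (hS : IsCompact S) (hSP : S ⊆ P)
    {W W' : Set (ℝ × ℝ)} (hW : Slab W) (hW' : Band W')
    {b' b : ℝ} (ho : Ov univ W W' b' b ∨ Ov univ W' W b' b) {θ : ℝ × ℝ → ℝ} {ℓ : ℝ≥0}
    (hθ : LipschitzWith ℓ θ) (hθ1 : ∀ p, 0 ≤ θ p ∧ θ p ≤ 1)
    (hθ0 : ∀ p ∈ W', θ p = 0) (hθS : ∃ O, IsOpen O ∧ S ⊆ O ∧ ∀ p ∈ O, θ p = 1)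
    (h : ∀ N, IsOpen N → P ⊆ N → ∀ ε > 0, ∃ z, HalfQ E 𝒬 𝓗 W N ε z ∧
      ∃ O, IsOpen O ∧ P ⊆ O ∧ ∀ p ∈ O \ E, p ∈ W → z p = 1) :
    SkT1_137.SinOutQ E 𝒬 𝓗 S := by
  have hPc : IsCompact P := by
    obtain ⟨x, hx, rfl⟩ := hP
    exact Thin_12.isCompact_cc hE.cpt x
  set N₁ : Set (ℝ × ℝ) := thickening 1 P with hN₁
  have hN₁b : Bornology.IsBounded N₁ := hPc.isBounded.thickening
  refine sin_of_bdd hE hS hN₁b fun ε hε => ?_
  obtain ⟨u, v, huv, hEv⟩ := exists_height (hE.cpt.union hN₁b.isCompact_closure)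
  have hc0 : 0 ≤ cutC ℓ (v - u) := by unfold cutC; positivity
  obtain ⟨z, hz, O, hO, hPO, h1⟩ := h N₁ isOpen_thickening
    (self_subset_thickening one_pos _) (ε / (2 * cutC ℓ (v - u) + 1)) (by positivity)
  obtain ⟨z', hz', O', hO', hPO', h1'⟩ := patchW (enC_TQ hE) hE.cpt hW.isOpen hP isOpen_thickening
    (self_subset_thickening one_pos _) (half_of hz) hO hPO h1
  obtain ⟨S', hS', hSN', hS0'⟩ := hz'.sp
  obtain ⟨hcf, hen⟩ := TQ_ext_le hE hW hW' ho hz'.cc hθ hθ1 hθ0 hS' hS0' huv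
    (fun p hp => hEv p (Or.inl hp)) (fun p hp => hEv p (Or.inr (subset_closure (hSN' hp))))
  obtain ⟨O₂, hO₂, hSO₂, h2⟩ := hθS
  have hcov : ∀ p : ℝ × ℝ, p ∈ W ∨ p ∈ W' := by
    intro p
    rcases ho with ho | ho
    · exact ho.sub (mem_univ p)
    · exact (ho.sub (mem_univ p)).symm
  refine ⟨fun p => θ p * z' p, ⟨hcf, fun p => ⟨mul_nonneg (hθ1 p).1 (hz'.rg p).1,
    mul_le_one₀ (hθ1 p).2 (hz'.rg p).1 (hz'.rg p).2⟩, ⟨S', hS', hSN', fun p _ hp => ?_⟩, ?_⟩,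
    O' ∩ O₂, hO'.inter hO₂, subset_inter (hSP.trans hPO') hSO₂,
    fun p hp => by beta_reduce; rw [h2 p hp.2, h1' p hp.1, one_mul]⟩
  · rcases hcov p with h' | h'
    · rw [hS0' p h' hp, mul_zero]
    · rw [hθ0 p h', zero_mul]
  · refine hen.trans ?_
    have h4 : TQ E W 𝒬 z' ≤ ε / (2 * cutC ℓ (v - u) + 1) := hz'.en
    calc 2 * (cutC ℓ (v - u) * TQ E W 𝒬 z')
        ≤ 2 * (cutC ℓ (v - u) * (ε / (2 * cutC ℓ (v - u) + 1))) := by gcongr
      _ = (2 * cutC ℓ (v - u)) * (ε / (2 * cutC ℓ (v - u) + 1)) := by ring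
      _ ≤ (2 * cutC ℓ (v - u) + 1) * (ε / (2 * cutC ℓ (v - u) + 1)) := by gcongr; linarith
      _ = ε := by field_simp

/-- ramp in the height: `0` for `c * y ≤ c * B₁`, `1` for `c * B₂ ≤ c * y` -/
theorem ramp_lip {c B₁ B₂ : ℝ} (hc : c = 1 ∨ c = -1) (hB : c * B₁ < c * B₂) :
    ∃ ℓ : ℝ≥0, LipschitzWith ℓ (fun p : ℝ × ℝ =>
      Max.max 0 (Min.min 1 ((c * p.2 - c * B₁) / (c * B₂ - c * B₁)))) := by
  have hd : 0 < c * B₂ - c * B₁ := by linarith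
  refine ⟨Real.toNNReal (1 / (c * B₂ - c * B₁)), LipschitzWith.of_dist_le_mul fun p q => ?_⟩
  rw [Real.coe_toNNReal _ (by positivity), Real.dist_eq]
  have h1 := abs_max_sub_max_le_max 0 (Min.min 1 ((c * p.2 - c * B₁) / (c * B₂ - c * B₁))) 0
    (Min.min 1 ((c * q.2 - c * B₁) / (c * B₂ - c * B₁)))
  have h2 := abs_min_sub_min_le_max 1 ((c * p.2 - c * B₁) / (c * B₂ - c * B₁)) 1
    ((c * q.2 - c * B₁) / (c * B₂ - c * B₁))
  have h3 : |(c * p.2 - c * B₁) / (c * B₂ - c * B₁) - (c * q.2 - c * B₁) / (c * B₂ - c * B₁)| ≤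
      1 / (c * B₂ - c * B₁) * dist p q := by
    rw [← sub_div, abs_div, abs_of_pos hd, div_eq_mul_one_div, mul_comm]
    refine mul_le_mul_of_nonneg_left ?_ (by positivity)
    have e : c * p.2 - c * B₁ - (c * q.2 - c * B₁) = c * (p.2 - q.2) := by ring
    have hc1 : |c| = 1 := by rcases hc with rfl | rfl <;> simp
    rw [e, abs_mul, hc1, one_mul, ← Real.dist_eq]
    exact le_max_right _ _
  have h4 : (0 : ℝ) ≤ 1 / (c * B₂ - c * B₁) * dist p q := by positivity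
  rw [sub_self, abs_zero] at h1 h2
  exact h1.trans (max_le h4 (h2.trans (max_le h4 h3)))

/-- upper outer part -/
theorem out_up (hE : QPic E 𝒬 𝓗) {P : Set (ℝ × ℝ)} (hP : P ∈ Comps E) {B B₀ : ℝ} (hB : B < B₀)
    (h : NullUp E 𝒬 𝓗 P B) : SkT1_137.SinOutQ E 𝒬 𝓗 (P ∩ {p | B₀ ≤ p.2}) := by
  have hPc : IsCompact P := by
    obtain ⟨x, hx, rfl⟩ := hP
    exact Thin_12.isCompact_cc hE.cpt x
  have hS : IsCompact (P ∩ {p : ℝ × ℝ | B₀ ≤ p.2}) :=
    hPc.inter_right (isClosed_le continuous_const continuous_snd)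
  set B₁ := B + (B₀ - B) / 3 with hB₁
  set B₂ := B + 2 * (B₀ - B) / 3 with hB₂
  have h12 : (1 : ℝ) * B₁ < 1 * B₂ := by rw [one_mul, one_mul, hB₁, hB₂]; linarith
  obtain ⟨ℓ, hℓ⟩ := ramp_lip (Or.inl rfl) h12
  have hd : 0 < B₂ - B₁ := by linarith
  refine out_gen hE hP hS inter_subset_left (slab_up B) (band_lo B₁) (b' := B) (b := B₁)
    (Or.inr (ov_univ (by rw [hB₁]; linarith))) hℓ
    (fun p => ⟨le_max_left _ _, max_le zero_le_one (min_le_left _ _)⟩) (fun p hp => ?_)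
    ⟨{p | B₂ < p.2}, isOpen_lt continuous_const continuous_snd, fun p hp => ?_, fun p hp => ?_⟩ ?_
  · have hp' : p.2 < B₁ := hp
    refine max_eq_left ((min_le_right _ _).trans ?_)
    simp only [one_mul]
    exact div_nonpos_of_nonpos_of_nonneg (by linarith) hd.le
  · have : B₀ ≤ p.2 := hp.2
    show B₂ < p.2
    rw [hB₂]; linarith
  · have hp' : B₂ < p.2 := hp
    have h1 : 1 ≤ (1 * p.2 - 1 * B₁) / (1 * B₂ - 1 * B₁) := by
      simp only [one_mul]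
      rw [one_le_div hd]; linarith
    rw [min_eq_left h1]
    exact max_eq_right zero_le_one
  · intro N hN hPN ε hε
    obtain ⟨z, hz, O, hO, hPO, h1⟩ := h N hN hPN ε hε
    refine ⟨z, hz, O ∪ {p | p.2 < B}, hO.union (isOpen_lt continuous_snd continuous_const),
      fun p hp => ?_, fun p hp hpW => ?_⟩
    · by_cases hpB : B ≤ p.2
      · exact Or.inl (hPO ⟨hp, hpB⟩)
      · exact Or.inr (not_le.1 hpB)
    · have hpW' : B < p.2 := hpW
      rcases hp.1 with h' | h'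
      · exact h1 p ⟨h', hp.2⟩ hpW
      · exact absurd h' (not_lt.2 hpW'.le)

/-- lower outer part -/
theorem out_lo (hE : QPic E 𝒬 𝓗) {P : Set (ℝ × ℝ)} (hP : P ∈ Comps E) {B B₀ : ℝ} (hB : B₀ < B)
    (h : NullLo E 𝒬 𝓗 P B) : SkT1_137.SinOutQ E 𝒬 𝓗 (P ∩ {p | p.2 ≤ B₀}) := by
  have hPc : IsCompact P := by
    obtain ⟨x, hx, rfl⟩ := hP
    exact Thin_12.isCompact_cc hE.cpt x
  have hS : IsCompact (P ∩ {p : ℝ × ℝ | p.2 ≤ B₀}) :=
    hPc.inter_right (isClosed_le continuous_snd continuous_const)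
  set B₁ := B - (B - B₀) / 3 with hB₁
  set B₂ := B - 2 * (B - B₀) / 3 with hB₂
  have h12 : (-1 : ℝ) * B₁ < -1 * B₂ := by rw [hB₁, hB₂]; linarith
  obtain ⟨ℓ, hℓ⟩ := ramp_lip (Or.inr rfl) h12
  have hd : 0 < -1 * B₂ - -1 * B₁ := by linarith
  refine out_gen hE hP hS inter_subset_left (slab_lo B) (band_up B₁) (b' := B₁) (b := B)
    (Or.inl (ov_univ (by rw [hB₁]; linarith))) hℓ
    (fun p => ⟨le_max_left _ _, max_le zero_le_one (min_le_left _ _)⟩) (fun p hp => ?_)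
    ⟨{p | p.2 < B₂}, isOpen_lt continuous_snd continuous_const, fun p hp => ?_, fun p hp => ?_⟩ ?_
  · have hp' : B₁ < p.2 := hp
    refine max_eq_left ((min_le_right _ _).trans ?_)
    exact div_nonpos_of_nonpos_of_nonneg (by linarith) hd.le
  · have : p.2 ≤ B₀ := hp.2
    show p.2 < B₂
    rw [hB₂]; linarith
  · have hp' : p.2 < B₂ := hp
    have h1 : 1 ≤ (-1 * p.2 - -1 * B₁) / (-1 * B₂ - -1 * B₁) := by
      rw [one_le_div hd]; linarith
    rw [min_eq_left h1]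
    exact max_eq_right zero_le_one
  · intro N hN hPN ε hε
    obtain ⟨z, hz, O, hO, hPO, h1⟩ := h N hN hPN ε hε
    refine ⟨z, hz, O ∪ {p | B < p.2}, hO.union (isOpen_lt continuous_const continuous_snd),
      fun p hp => ?_, fun p hp hpW => ?_⟩
    · by_cases hpB : p.2 ≤ B
      · exact Or.inl (hPO ⟨hp, hpB⟩)
      · exact Or.inr (not_le.1 hpB)
    · have hpW' : p.2 < B := hpW
      rcases hp.1 with h' | h'
      · exact h1 p ⟨h', hp.2⟩ hpW
      · exact absurd h' (not_lt.2 hpW'.le)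

/-- **OUTQ** -/
theorem outQ : SkT1_137.OUTQ := by
  intro E 𝒬 𝓗 hP hS Q hQ δ hδ
  obtain ⟨h1, h2⟩ := hS Q hQ
  have hm := SkT1_137.comp_mem hP.q hQ
  exact ⟨out_up hP.q hm (B := Q.y + Q.s + δ / 2) (by linarith) (h1 _ (by linarith)),
    out_lo hP.q hm (B := Q.y - δ / 2) (by linarith) (h2 _ (by linarith))⟩

/-- restriction to a smaller compact set -/
theorem sin_sub (hE : QPic E 𝒬 𝓗) {S S' : Set (ℝ × ℝ)} (hS : IsCompact S)
    (hS' : IsCompact S') (hsub : S' ⊆ S) (h : SkT1_137.SinOutQ E 𝒬 𝓗 S) :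
    SkT1_137.SinOutQ E 𝒬 𝓗 S' := by
  refine sin_of_bdd hE hS' (hS.isBounded.thickening (δ := 1)) fun ε hε => ?_
  obtain ⟨ζ, hζ, O, hO, hSO, h1⟩ := h _ isOpen_thickening (self_subset_thickening one_pos _) ε hε
  exact ⟨ζ, hζ, O, hO, hsub.trans hSO, h1⟩

/-- **SINGLEQ** -/
theorem sINGLEQ : SkT1_137.SINGLEQ := by
  intro E 𝒬 𝓗 hP hS hF K hK hoff
  have hKE : K.car ⊆ E := hP.q.hsub K hK
  have hKpre : IsPreconnected K.car := by
    rw [K.car_eq]; exact isPreconnected_singleton.prod isPreconnected_Icc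
  have hb : ((K.x, K.b) : ℝ × ℝ) ∈ K.car := ⟨rfl, le_rfl, K.hbt.le⟩
  have ht : ((K.x, K.t) : ℝ × ℝ) ∈ K.car := ⟨rfl, K.hbt.le, le_rfl⟩
  set P := connectedComponentIn E (K.x, K.b) with hPdef
  have hPm : P ∈ Comps E := ⟨_, hKE hb, rfl⟩
  have hKP : K.car ⊆ P := hKpre.subset_connectedComponentIn hb hKE
  have hPc : IsCompact P := Thin_12.isCompact_cc hP.q.cpt _
  rcases hP.comp P hPm with ⟨p, hp⟩ | ⟨K₀, hK₀, hp⟩ | ⟨Q, hQ, hQP, hp⟩
  · have h1 := hKP hb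
    have h2 := hKP ht
    rw [hp, mem_singleton_iff] at h1 h2
    have h3 : K.b = K.t := congrArg Prod.snd (h1.trans h2.symm)
    exact absurd h3 K.hbt.ne
  · have h1 : SkT1_137.SinOutQ E 𝒬 𝓗 K₀.car := by
      have := singleQ' hP.q hF (K := K₀) (by rw [← hp]; exact hPm)
      intro N hN hKN ε hε
      obtain ⟨ζ, hζ, hO, -⟩ := this N hN hKN 1 le_rfl ε hε
      exact ⟨ζ, hζ, hO⟩
    rw [← hp] at h1
    exact sin_sub hP.q hPc K.isCompact_car hKP h1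
  · have hcomp : P = comp E Q := SkT1_137.eq_comp hP.q hQ hPm hQP
    -- position of the points of `K`
    have hpos : ∀ p ∈ K.car, Q.y + Q.s < p.2 ∨ p.2 < Q.y := by
      intro p hpK
      have hpQ : p ∉ Q.car := fun h => Set.disjoint_left.1 (hoff Q hQ) hpK h
      obtain ⟨K', hK', -, hpK', hne⟩ := hp p (hKP hpK) hpQ
      obtain ⟨r, hrK', hrQ⟩ := hne
      have hx : Q.x ≤ p.1 ∧ p.1 ≤ Q.x + Q.s := by
        have e1 : p.1 = K'.x := hpK'.1
        have e2 : r.1 = K'.x := hrK'.1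
        rw [e1, ← e2]; exact (Sqr.mem_car.1 hrQ).1
      by_contra hcon
      push Not at hcon
      exact hpQ (Sqr.mem_car.2 ⟨hx, hcon.2, hcon.1⟩)
    have hs := Q.hs
    rcases hpos _ hb with h1 | h1
    · have hsub : K.car ⊆ comp E Q ∩ {p | Q.y + Q.s + (K.b - (Q.y + Q.s)) ≤ p.2} := by
        intro p hpK
        refine ⟨hcomp ▸ hKP hpK, ?_⟩
        have : K.b ≤ p.2 := hpK.2.1
        show Q.y + Q.s + (K.b - (Q.y + Q.s)) ≤ p.2
        linarith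
      have hd : 0 < K.b - (Q.y + Q.s) := by simp only at h1; linarith
      refine sin_sub hP.q ?_ K.isCompact_car hsub (outQ E 𝒬 𝓗 hP hS Q hQ _ hd).1
      rw [← hcomp]
      exact hPc.inter_right (isClosed_le continuous_const continuous_snd)
    · have h2 : K.t < Q.y := by
        by_contra hcon
        push Not at hcon
        have hm : ((K.x, Q.y) : ℝ × ℝ) ∈ K.car := ⟨rfl, by simp only at h1 ⊢; linarith, hcon⟩
        rcases hpos _ hm with h3 | h3 <;> simp only at h3 <;> linarith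
      have hsub : K.car ⊆ comp E Q ∩ {p | p.2 ≤ Q.y - (Q.y - K.t)} := by
        intro p hpK
        refine ⟨hcomp ▸ hKP hpK, ?_⟩
        have : p.2 ≤ K.t := hpK.2.2
        show p.2 ≤ Q.y - (Q.y - K.t)
        linarith
      refine sin_sub hP.q ?_ K.isCompact_car hsub
        (outQ E 𝒬 𝓗 hP hS Q hQ _ (by linarith : 0 < Q.y - K.t)).2
      rw [← hcomp]
      exact hPc.inter_right (isClosed_le continuous_snd continuous_const)

/-- all cheap cut-offs -/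
theorem cheap (hP : PicS E 𝒬 𝓗) (hS : SkT1_137.SOLO E 𝒬 𝓗) (hF : SkT1_137.FAMQ E 𝒬 𝓗) :
    SkT1_137.Cheap E 𝒬 𝓗 :=
  SkT1_137.cheap_of hP hS hF sINGLEQ outQ

/-- `STEPQ` from `STEPC` alone -/
theorem stepQ_of_stepC {C0 θ : ℝ} (h : SkT1_137.STEPC C0 θ) : SkT1_137.STEPQ C0 θ :=
  SkT1_137.stepQ_of sINGLEQ outQ h

end TQ

end Crest.Agent.R105.Snq_925
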