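import Crest.Agent.R105.Spq0_722

/-!
Row 105 (S0138, picture with solids), task 2456 (STEPQ), part 1: growth on slices, one level of
the step with solids.
-/

set_option autoImplicit false
set_option linter.unusedSectionVars false

open Set Filter Topology Metric

namespace Crest.Agent.R105.Spq_722

open Stp_722

local notation "cc" => connectedComponentIn

variable {X : Type*} [TopologicalSpace X] [T2Space X] {V E : Set X} {h : X → ℝ}

section slice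

variable {B τ : ℝ} {z c χ : X → ℝ}

/-- growth of a portion contained in one level `{h = t}`: only the oscillation of `z` counts. -/
theorem growth_slice (hh : Continuous h) (hτ : 0 < τ) {P : Set X} {t : ℝ}
    (hPt : ∀ p ∈ P, h p = t) {N : Set X} (hN : IsOpen N)
    (hPN : P ⊆ N) {k A m a : ℝ} (hA0 : 0 ≤ A) (hm0 : 0 ≤ m)
    (hc : ∀ q ∈ N ∩ V, c q = k) (hA : ∀ q ∈ N ∩ V, |χ q - k| ≤ A)
    (hz01 : ∀ x, 0 ≤ z x ∧ z x ≤ 1)
    (hz : OscLe (V ∩ {x | h x < B}) (P ∩ {x | h x ≤ B}) z m) (ha : OscLe V P χ a) :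
    OscLe V P (op h B τ z c χ) (a + m * A) := by
  have hmA : 0 ≤ m * A := mul_nonneg hm0 hA0
  rcases lt_or_ge B t with h1 | h1
  · -- above the level nothing changes
    refine (ha.congr (O := {x | B < h x}) (isOpen_lt continuous_const hh)
      (fun p hp => by simp only [mem_ofPred_eq]; rw [hPt p hp]; exact h1)
      fun q hq => op_eq_of_le hτ (le_of_lt hq.1)).mono (by linarith)
  intro ε hε
  set e' := ε / (4 * (A + 1)) with he'
  have he'0 : 0 < e' := by positivity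
  have hεA : e' * A ≤ ε / 4 := by
    rw [he', div_mul_eq_mul_div, div_le_div_iff₀ (by positivity) (by norm_num)]
    nlinarith
  obtain ⟨O, hO, hPO, H⟩ := ha (ε / 2) (by linarith)
  obtain ⟨Oz, hOz, hPOz, Hz⟩ := hz e' he'0
  have hpz : P ⊆ Oz := fun p hp => hPOz ⟨hp, by simp only [mem_ofPred_eq]; rw [hPt p hp]; exact h1⟩
  -- near `P` the ramp varies by less than `e'`
  have hcont : Continuous fun x => th B τ (h x) := by unfold th; fun_prop
  set Oθ : Set X := {x | |th B τ (h x) - th B τ t| < e' / 2} with hOθ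
  have hOθo : IsOpen Oθ := isOpen_lt (by fun_prop) continuous_const
  have hpθ : P ⊆ Oθ := fun p hp => by
    simp only [hOθ, mem_ofPred_eq]; rw [hPt p hp, sub_self, abs_zero]; linarith
  -- the weight varies by at most `m + 2 e'`
  have hw : ∀ q ∈ (Oz ∩ Oθ) ∩ V, ∀ q' ∈ (Oz ∩ Oθ) ∩ V,
      |th B τ (h q) * z q - th B τ (h q') * z q'| ≤ m + 2 * e' := by
    intro q hq q' hq'
    have t0 : |th B τ (h q) - th B τ t| < e' / 2 := hq.1.2
    have t0' : |th B τ (h q') - th B τ t| < e' / 2 := hq'.1.2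
    have t1 := abs_lt.1 t0
    have t2 := abs_lt.1 t0'
    have hθ : |th B τ (h q) - th B τ (h q')| ≤ e' := by rw [abs_le]; constructor <;> linarith
    obtain ⟨z0, z1⟩ := hz01 q
    obtain ⟨z0', z1'⟩ := hz01 q'
    have s0 := th_nonneg B τ (h q)
    have s1 := th_le_one B τ (h q)
    have s0' := th_nonneg B τ (h q')
    have s1' := th_le_one B τ (h q')
    rcases le_or_gt B (h q) with h2 | h2
    · -- `θ q = 0`
      have z : th B τ (h q) = 0 := th_eq_zero hτ h2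
      rw [z] at hθ ⊢
      rw [zero_mul, zero_sub, abs_neg, abs_of_nonneg (mul_nonneg s0' z0')]
      rw [zero_sub, abs_neg, abs_of_nonneg s0'] at hθ
      have := mul_le_mul hθ z1' z0' (by linarith)
      linarith
    rcases le_or_gt B (h q') with h3 | h3
    · have z : th B τ (h q') = 0 := th_eq_zero hτ h3
      rw [z] at hθ ⊢
      rw [zero_mul, sub_zero, abs_of_nonneg (mul_nonneg s0 z0)]
      rw [sub_zero, abs_of_nonneg s0] at hθ
      have := mul_le_mul hθ z1 z0 (by linarith)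
      linarith
    have hzz := Hz q ⟨hq.1.1, hq.2, h2⟩ q' ⟨hq'.1.1, hq'.2, h3⟩
    have e : th B τ (h q) * z q - th B τ (h q') * z q' =
        (th B τ (h q) - th B τ (h q')) * z q + th B τ (h q') * (z q - z q') := by ring
    rw [e]
    calc _ ≤ |(th B τ (h q) - th B τ (h q')) * z q| + |th B τ (h q') * (z q - z q')| :=
          abs_add_le _ _
      _ = |th B τ (h q) - th B τ (h q')| * z q + th B τ (h q') * |z q - z q'| := by
          rw [abs_mul, abs_mul, abs_of_nonneg z0, abs_of_nonneg s0']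
      _ ≤ e' * 1 + 1 * (m + e') := by gcongr
      _ = m + 2 * e' := by ring
  refine ⟨(O ∩ N) ∩ (Oz ∩ Oθ), (hO.inter hN).inter (hOz.inter hOθo), ?_, ?_⟩
  · exact subset_inter (subset_inter hPO hPN) (subset_inter hpz hpθ)
  · intro q hq q' hq'
    have hqN : q ∈ N ∩ V := ⟨hq.1.1.2, hq.2⟩
    have hqN' : q' ∈ N ∩ V := ⟨hq'.1.1.2, hq'.2⟩
    have h7 := H q ⟨hq.1.1.1, hq.2⟩ q' ⟨hq'.1.1.1, hq'.2⟩
    have h8 := abs_combo_le (a := χ q) (w_nonneg (h := h) (B := B) (τ := τ) hz01 q)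
      (w_le_one hz01 q) (hw q ⟨hq.1.2, hq.2⟩ q' ⟨hq'.1.2, hq'.2⟩) (hA q' hqN')
    unfold op
    rw [hc q hqN, hc q' hqN']
    have h9 : (m + 2 * e') * A = m * A + 2 * (e' * A) := by ring
    linarith

variable {n : ℕ} {N : Fin n → Set X} {k k' : Fin n → ℝ} {m A η : ℝ}

/-- growth of a slice in a one-sided operation. -/
theorem slice_side (hN : Pieces E N) (hh : Continuous h) (hτ : 0 < τ)
    (hz : Cut V E h B (⋃ i, N i) m z) (hm0 : 0 ≤ m) (hA0 : 0 ≤ A)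
    (hA : ∀ i, ∀ q ∈ N i ∩ V, |χ q - k i| ≤ A) {x : X} (hx : x ∈ E) {P : Set X}
    (hP : P ⊆ cc E x) {t : ℝ} (hPt : ∀ p ∈ P, h p = t) {b : ℝ}
    (hb : OscLe V P χ b) : OscLe V P (op h B τ z (cst N k) χ) (b + m * A) := by
  have hmA : 0 ≤ m * A := mul_nonneg hm0 hA0
  by_cases hne : ∃ i, (cc E x ∩ N i).Nonempty
  · obtain ⟨i, hi⟩ := hne
    have hKN := hN.sat i x hx hi
    exact growth_slice hh hτ hPt (hN.opn i) (hP.trans hKN) (c := cst N k) (k := k i) hA0 hm0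
      (fun q hq => hN.cst_eq hq.1 k) (hA i) hz.z01
      ((hz.osc x hx).mono_set (inter_subset_inter_left _ hP)) hb
  · obtain ⟨C, hC, hCW, hC0⟩ := hz.supp
    refine (growth_off hC hC0 ?_ hb).mono (by linarith)
    rw [Set.disjoint_left]
    intro y hyP hyC
    obtain ⟨i, hi⟩ := mem_iUnion.1 (hCW hyC)
    exact hne ⟨i, y, hP hyP, hi⟩

end slice

section two

variable {n : ℕ} {N : Fin n → Set X} {k k' lo hi : Fin n → ℝ} {B B' τ m A η : ℝ}
  {z z' χ : X → ℝ}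

theorem data_slice (D : Data V E h N k k' lo hi B B' τ m A η z z' χ) {x : X} (hx : x ∈ E)
    {P : Set X} (hP : P ⊆ cc E x) {t : ℝ} (hPt : ∀ p ∈ P, h p = t) {b : ℝ}
    (hb : OscLe V P χ b) :
    OscLe V P (op2 h B B' τ z z' (cst N k) (cst N k') χ) (b + 2 * (m * A)) := by
  have h1 := slice_side D.hN D.hh D.hτ D.hz D.hm0 D.hA0 D.hA1 hx hP hPt hb
  have h2 := slice_side (k := k') (t := -t) D.hN D.hh.neg D.hτ D.hz' D.hm0 D.hA0 D.hA2 hx hP
    (fun p hp => by change - h p = - t; rw [hPt p hp]) h1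
  exact h2.mono (by linarith)

end two

/-- pointwise hull of the operation -/
theorem op_hull {z c χ : X → ℝ} {B τ : ℝ} (hz : ∀ x, 0 ≤ z x ∧ z x ≤ 1) {lo hi : ℝ} {x : X}
    (hx : χ x ∈ Icc lo hi) (hc : z x ≠ 0 → c x ∈ Icc lo hi) :
    op h B τ z c χ x ∈ Icc lo hi := by
  by_cases h0 : z x = 0
  · rw [op_eq_of_z h0]; exact hx
  · exact op_mem_Icc hz hx (hc h0)

/-- constants of the step with solids -/
structure ConstQ (m : ℕ) (R μ A σ0 σ1 ε1 : ℝ) : Prop where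
  R0 : 0 ≤ R
  μ0 : 0 < μ
  A0 : 0 ≤ A
  ε0 : 0 < ε1
  σ : ∀ i < m, σ0 + i * (2 * (μ * A)) ≤ σ1
  σ10 : 0 ≤ σ1

/-- invariants after the first `i` levels -/
structure InvQ (V E : Set X) (h : X → ℝ) (Cl : (X → ℝ) → Prop)
    (D : (X → ℝ) → (X → ℝ) → ℝ → Prop) (φ : X → ℝ) (R : ℝ) {l : ℕ} (N0 : Fin l → Set X)
    (lo hi : Fin l → ℝ) (g : Set X) (μ A σ0 σ1 ε1 e1 : ℝ) (Bs : ℕ → ℝ) (i : ℕ)
    (χ : X → ℝ) : Prop where
  cl : Cl χ
  bd : ∀ x, |χ x| ≤ R
  en : D φ χ (i * e1)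
  hull : ∀ l, ∀ q ∈ N0 l, ∀ lo' hi', lo' ≤ lo l → hi l ≤ hi' → φ q ∈ Icc lo' hi' →
    χ q ∈ Icc lo' hi'
  off : ∀ x ∉ ⋃ l, N0 l, χ x = φ x
  slice : ∀ x ∈ g, ∀ t, OscLe V (cc E x ∩ {y | h y = t}) χ (σ0 + i * (2 * (μ * A)))
  grow : ∀ x ∈ E, ∀ P ⊆ cc E x, Lev V h P → ∀ b, OscLe V P φ b →
    OscLe V P χ (b + i * (2 * (μ * A + 2 * (σ1 + ε1))))
  hist : ∀ j < i, ∀ x ∈ g,
    OscLe V (cc E x ∩ {y | h y ≤ Bs j}) χ
      (2 * (σ1 + ε1) + i * (2 * (μ * A + 2 * (σ1 + ε1)))) ∨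
    OscLe V (cc E x ∩ {y | Bs (j + 1) ≤ h y}) χ
      (2 * (σ1 + ε1) + i * (2 * (μ * A + 2 * (σ1 + ε1))))

/-- `choose_const` with a value of the hull which does not depend on the point -/
theorem choose_constQ {N V : Set X} {χ : X → ℝ} {B τ η lo hi R : ℝ} (hlohi : lo ≤ hi)
    (hlo : -R ≤ lo) (hhi : hi ≤ R) (hR : ∀ x, |χ x| ≤ R) (hlh : ∀ q ∈ N ∩ V, χ q ∈ Icc lo hi)
    (hp : ∀ q ∈ N ∩ V, ∀ q' ∈ N ∩ V, |h q - B| < 2 * τ → |h q' - B| < 2 * τ → |χ q - χ q'| ≤ η) :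
    ∃ k, |k| ≤ R ∧ k ∈ Icc lo hi ∧ ∀ q ∈ N ∩ V, |h q - B| < 2 * τ → |χ q - k| ≤ η := by
  by_cases h1 : ∃ q ∈ N ∩ V, |h q - B| < 2 * τ
  · obtain ⟨q, hq, hqB⟩ := h1
    exact ⟨χ q, hR q, hlh q hq, fun q' hq' h' => hp q' hq' q hq h' hqB⟩
  · push Not at h1
    refine ⟨lo, abs_le.2 ⟨hlo, hlohi.trans hhi⟩, ⟨le_rfl, hlohi⟩, ?_⟩
    exact fun q' hq' h' => absurd h' (not_lt.2 (h1 q' hq'))

theorem InvQ.step {Hr : Set X} {Cl : (X → ℝ) → Prop}
    {D : (X → ℝ) → (X → ℝ) → ℝ → Prop} {ρ : ℝ}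
    (S : SetupR V E h Hr Cl D ρ) {φ : X → ℝ} {R : ℝ} {l : ℕ}
    {N0 : Fin l → Set X} (hN0 : Pieces E N0) {lo hi : Fin l → ℝ}
    (hbase : ∀ l, ∀ q ∈ N0 l ∩ V, φ q ∈ Icc (lo l) (hi l))
    (hlo : ∀ l, -R ≤ lo l) (hhi : ∀ l, hi l ≤ R) (hle : ∀ l, lo l ≤ hi l)
    {m : ℕ} {μ A σ0 σ1 ε1 e1 : ℝ} (hlh : ∀ i, hi i - lo i ≤ A)
    (C : ConstQ m R μ A σ0 σ1 ε1) (he1 : 0 < e1) {g : Set X}
    (hg : FamC E g) (hgHr : g ⊆ Hr) (hcov : g ⊆ ⋃ l, N0 l)
    {Bs : ℕ → ℝ} (hBs : ∀ i, Bs i + ρ ≤ Bs (i + 1)) (hBs' : ∀ i, Bs i < Bs (i + 1))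
    {i : ℕ} (him : i < m) {χ : X → ℝ}
    (I : InvQ V E h Cl D φ R N0 lo hi g μ A σ0 σ1 ε1 e1 Bs i χ) :
    ∃ χ', InvQ V E h Cl D φ R N0 lo hi g μ A σ0 σ1 ε1 e1 Bs (i + 1) χ' ∧
      ∀ x ∉ ⋃ l, N0 l, χ' x = χ x := by
  classical
  have hgE : g ⊆ E := hg.sub
  set G := cross E h g (Bs i) (Bs (i + 1)) with hG
  have hGc : IsCompact G := isCompact_cross S.hE S.hh hgE hg.nb _ _
  have hGg : G ⊆ g := fun x hx => hx.1
  have hη0 : 0 ≤ σ1 + ε1 := by have := C.σ10; have := C.ε0; linarith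
  have hμA : 0 ≤ μ * A := mul_nonneg C.μ0.le C.A0
  set gg := 2 * (μ * A + 2 * (σ1 + ε1)) with hgg
  have hgg0 : 0 ≤ gg := by rw [hgg]; linarith
  have hslc : ∀ t, ∀ x ∈ G, OscLe V (cc E x ∩ {y | h y = t}) χ σ1 := fun t x hx =>
    (I.slice x (hGg hx) t).mono (C.σ i him)
  obtain ⟨n, p, N, τ, hN, hGN, hp, hNO, hτ, hτB, hsl, hsl'⟩ := fine_data (V := V) S.hE S.hh hGc
    (hGg.trans hgE) C.ε0 (hBs' i) (hslc (Bs i)) (hslc (Bs (i + 1)))
    (fun x => ⋃ j, ⋃ (_ : x ∈ N0 j), N0 j)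
    (fun x _ => isOpen_iUnion fun j => isOpen_iUnion fun _ => hN0.opn j)
    (fun x hx => by
      obtain ⟨j, hj⟩ := mem_iUnion.1 (hcov (hGg hx))
      refine subset_trans ?_ (subset_iUnion_of_subset j (subset_iUnion_of_subset hj Subset.rfl))
      exact hN0.sat _ x (hgE (hGg hx)) ⟨x, mem_connectedComponentIn (hgE (hGg hx)), hj⟩)
  have hl : ∀ j : Fin n, ∃ j0, p j ∈ N0 j0 := fun j => mem_iUnion.1 (hcov (hGg (hp j)))
  choose lx hlx using hl
  have hNN0 : ∀ j, N j ⊆ N0 (lx j) := by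
    intro j y hy
    have h1 := hNO j hy
    simp only [mem_iUnion] at h1
    obtain ⟨j0, hj0, hy0⟩ := h1
    have : lx j = j0 := by
      by_contra hne
      exact Set.disjoint_left.1 (hN0.disj _ _ hne) (hlx j) hj0
    rw [this]; exact hy0
  have hhull : ∀ j, ∀ q ∈ N j ∩ V, χ q ∈ Icc (lo (lx j)) (hi (lx j)) := fun j q hq =>
    I.hull _ q (hNN0 j hq.1) _ _ le_rfl le_rfl (hbase _ q ⟨hNN0 j hq.1, hq.2⟩)
  choose k hkR hkI hkη using fun j => choose_constQ (h := h) (hle (lx j)) (hlo _) (hhi _)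
    I.bd (hhull j) (hsl j)
  choose k' hkR' hkI' hkη' using fun j => choose_constQ (h := h) (hle (lx j)) (hlo _) (hhi _)
    I.bd (hhull j) (hsl' j)
  obtain ⟨z, z', hz, hz', hone, hcl, hen⟩ := S.layer (Bs i) (Bs (i + 1)) G (⋃ j, N j) χ (cst N k)
    (cst N k') R τ μ e1 (hBs i) hGc (hGg.trans hgHr) (fun x hx y hy => cross_sat hg.sat hx hy)
    (isOpen_iUnion hN.opn) hGN (fun x hx => hx.2) I.cl I.bd (cst_abs_le C.R0 hkR)
    (cst_abs_le C.R0 hkR') (hN.cst_loc k) (hN.cst_loc k') hτ C.μ0 he1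
  have Da : Data V E h N k k' (fun j => lo (lx j)) (fun j => hi (lx j)) (Bs i)
      (Bs (i + 1)) τ μ A (σ1 + ε1) z z' χ :=
    { hh := S.hh, hN := hN, hBB := hBs' i, hτ := hτ, hτB := hτB, hm0 := C.μ0.le, hA0 := C.A0,
      hη0 := hη0, hz := hz, hz' := hz', hlh := fun j => hlh _, hχ := hhull,
      hk := fun j q _ => hkI j, hk' := fun j q _ => hkI' j, hη := hkη, hη' := hkη' }
  have hNsub : (⋃ j, N j) ⊆ ⋃ l, N0 l := by
    refine iUnion_subset fun j => (hNN0 j).trans (subset_iUnion N0 _)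
  have hoff : ∀ x ∉ ⋃ l, N0 l, op2 h (Bs i) (Bs (i + 1)) τ z z' (cst N k) (cst N k') χ x = χ x :=
    fun x hx => Da.off fun hx' => hx (hNsub hx')
  have hcast : ((i + 1 : ℕ) : ℝ) = (i : ℝ) + 1 := by push_cast; ring
  refine ⟨op2 h (Bs i) (Bs (i + 1)) τ z z' (cst N k) (cst N k') χ, ?_, hoff⟩
  refine ⟨hcl, fun x => Da.bound I.bd hkR hkR' x, ?_, ?_, ?_, ?_, ?_, ?_⟩
  · have := S.Dadd _ _ _ _ _ I.en hen
    rw [hcast]
    convert this using 1
    ring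
  · intro j q hq lo' hi' hlo hhi hφ
    by_cases hqN : q ∈ ⋃ j, N j
    · obtain ⟨j', hj'⟩ := mem_iUnion.1 hqN
      have h2 : lx j' = j := by
        by_contra hne
        exact Set.disjoint_left.1 (hN0.disj _ _ hne) (hNN0 j' hj') hq
      have hc : cst N k q ∈ Icc lo' hi' := by
        rw [hN.cst_eq hj']
        have := hkI j'
        rw [h2] at this
        exact ⟨hlo.trans this.1, this.2.trans hhi⟩
      have hc' : cst N k' q ∈ Icc lo' hi' := by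
        rw [hN.cst_eq hj']
        have := hkI' j'
        rw [h2] at this
        exact ⟨hlo.trans this.1, this.2.trans hhi⟩
      exact op_mem_Icc hz'.z01 (op_mem_Icc hz.z01 (I.hull j q hq lo' hi' hlo hhi hφ) hc) hc'
    · rw [Da.off hqN]
      exact I.hull j q hq lo' hi' hlo hhi hφ
  · intro x hx
    rw [hoff x hx]
    exact I.off x hx
  · intro x hx t
    have := data_slice Da (hgE hx) (inter_subset_left (t := {y | h y = t})) (fun p hp => hp.2)
      (I.slice x hx t)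
    rw [hcast]
    refine this.mono (le_of_eq ?_)
    ring
  · intro x hx P hP hPl b hb
    have := Da.growth hx hP hPl (I.grow x hx P hP hPl b hb)
    rw [hcast]
    refine this.mono (le_of_eq ?_)
    ring
  · intro j hj x hx
    have hxE := hgE hx
    have hgrow : ∀ I' : Set ℝ, I'.OrdConnected → ∀ b, OscLe V (cc E x ∩ h ⁻¹' I') χ b →
        OscLe V (cc E x ∩ h ⁻¹' I')
          (op2 h (Bs i) (Bs (i + 1)) τ z z' (cst N k) (cst N k') χ) (b + gg) := by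
      intro I' hI' b hb
      exact Da.growth hxE inter_subset_left (S.levI x hxE I' hI') hb
    have e1' : 2 * (σ1 + ε1) + ((i + 1 : ℕ) : ℝ) * gg =
        (2 * (σ1 + ε1) + (i : ℝ) * gg) + gg := by
      rw [hcast]; ring
    rcases Nat.lt_succ_iff_lt_or_eq.1 hj with hj | rfl
    · rcases I.hist j hj x hx with h1 | h1
      · left
        rw [e1']
        exact hgrow (Iic (Bs j)) ordConnected_Iic _ h1
      · right
        rw [e1']
        exact hgrow (Ici (Bs (j + 1))) ordConnected_Ici _ h1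
    · have hbig : 2 * (σ1 + ε1) ≤ 2 * (σ1 + ε1) + ((j + 1 : ℕ) : ℝ) * gg := by
        have : 0 ≤ ((j + 1 : ℕ) : ℝ) * gg := by positivity
        linarith
      by_cases hxG : x ∈ G
      · obtain ⟨j', hj'⟩ := mem_iUnion.1 (hGN hxG)
        have hKj : cc E x ⊆ N j' := hN.sat _ x hxE ⟨x, mem_connectedComponentIn hxE, hj'⟩
        rcases Da.flat hKj (hone x hxG) with h1 | h1
        · exact Or.inl (h1.mono hbig)
        · exact Or.inr (h1.mono hbig)
      · have hnot : ¬ ((∃ y ∈ cc E x, h y ≤ Bs j) ∧ ∃ y ∈ cc E x, Bs (j + 1) ≤ h y) := fun h' =>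
          hxG ⟨hx, h'⟩
        rw [not_and_or] at hnot
        rcases hnot with h1 | h1
        · left
          have : cc E x ∩ {y | h y ≤ Bs j} = ∅ := by
            rw [eq_empty_iff_forall_notMem]
            exact fun y hy => h1 ⟨y, hy.1, hy.2⟩
          rw [this]; exact oscLe_empty
        · right
          have : cc E x ∩ {y | Bs (j + 1) ≤ h y} = ∅ := by
            rw [eq_empty_iff_forall_notMem]
            exact fun y hy => h1 ⟨y, hy.1, hy.2⟩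
          rw [this]; exact oscLe_empty

end Crest.Agent.R105.Spq_722
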