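import Crest.Agent.R105.Spq1_722

/-!
Row 105 (S0138, picture with solids), task 2456 (STEPQ), part 2: **the step with solids, frame
free** (no bound on the oscillation of the components is needed; output = hull + small
oscillation + growth).
-/

set_option autoImplicit false
set_option linter.unusedSectionVars false

open Set Filter Topology Metric

namespace Crest.Agent.R105.Spq_722

open Stp_722

local notation "cc" => connectedComponentIn

variable {X : Type*} [TopologicalSpace X] [T2Space X] {V E : Set X} {h : X → ℝ}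

/-- a compact saturated part of `E` -/
structure Part (E E' : Set X) : Prop where
  cpt : IsCompact E'
  sub : E' ⊆ E
  sat : ∀ x ∈ E', cc E x ⊆ E'

theorem Part.compl {E' : Set X} (hE' : Part E E') {x : X} (hx : x ∈ E \ E') :
    cc E x ⊆ E'ᶜ := by
  intro y hy hyE'
  have h1 := hE'.sat y hyE'
  rw [cc_eq hy] at h1
  exact hx.2 (h1 (mem_connectedComponentIn hx.1))

theorem famC_gset {E' : Set X} (hE' : Part E E') (φ : X → ℝ) (b : ℝ) :
    FamC E (gset V E φ b ∩ E') where
  sub := fun x hx => hx.1.1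
  sat := fun x hx y hy => ⟨gset_sat hx.1 hy, hE'.sat x hx.2 hy⟩
  nb := by
    rintro x ⟨hxE, hx⟩
    by_cases hxE' : x ∈ E'
    · have h1 : ¬ x ∈ gset V E φ b := fun h => hx ⟨h, hxE'⟩
      simp only [gset, mem_ofPred_eq, not_and, not_not] at h1
      obtain ⟨c, hc, hosc⟩ := h1 hxE
      obtain ⟨O, hO, hxO, H⟩ := hosc.exists_nhds (show c < (c + b) / 2 by linarith)
      exact ⟨O, hO, hxO, fun y _ hyO hyg => hyg.1.2 ⟨(c + b) / 2, by linarith, H _ hyO⟩⟩
    · refine ⟨E'ᶜ, hE'.cpt.isClosed.isOpen_compl, hE'.compl ⟨hxE, hxE'⟩, ?_⟩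
      exact fun y hyE hyO hyg => hyO (mem_connectedComponentIn hyE) hyg.2

theorem isCompact_gset' {E' : Set X} (hE : IsCompact E) (hE' : Part E E') (φ : X → ℝ) (b : ℝ) :
    IsCompact (gset V E φ b ∩ E') := (isCompact_gset hE b).inter hE'.cpt

/-- a neighbourhood of a member of the family meets `V`. -/
theorem meets_of_gset {φ : X → ℝ} {b : ℝ} {x : X} (hx : x ∈ gset V E φ b) {O : Set X}
    (hO : IsOpen O) (hxO : cc E x ⊆ O) : (O ∩ V).Nonempty := by
  by_contra h0
  rw [not_nonempty_iff_eq_empty] at h0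
  refine hx.2 ⟨b - 1, by linarith, fun ε _ => ⟨O, hO, hxO, fun q hq => ?_⟩⟩
  rw [h0] at hq
  exact absurd hq (notMem_empty _)

/-- **the step with solids**, abstract form. -/
theorem step_bQ {Hr : Set X} {Cl : (X → ℝ) → Prop} {D : (X → ℝ) → (X → ℝ) → ℝ → Prop} {ρ : ℝ}
    (S : SetupR V E h Hr Cl D ρ) {E' : Set X} (hE' : Part E E') {φ : X → ℝ} (hφ : Cl φ)
    {R : ℝ} (hR0 : 0 ≤ R) (hR : ∀ x, |φ x| ≤ R) {a : ℝ} (ha : 0 < a)
    (hgHr : gset V E φ (a / 4) ∩ E' ⊆ Hr)
    {d B0 : ℝ} {m : ℕ} (hd : 0 < d) (hρd : ρ ≤ d) (hm : 0 < m)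
    (hcov : ∀ x ∈ E', B0 ≤ h x ∧ h x ≤ B0 + m * d)
    (hport : ∀ x ∈ gset V E φ (a / 4) ∩ E', ∀ s,
      OscLe V (cc E x ∩ {y | s ≤ h y ∧ h y ≤ s + 2 * d}) φ (a / 100))
    (hslice : ∀ x ∈ gset V E φ (a / 4) ∩ E', ∀ s,
      OscLe V (cc E x ∩ {y | h y = s}) φ (a / (1000 * m)))
    {O : X → Set X} (hO : ∀ x ∈ gset V E φ (a / 4) ∩ E', IsOpen (O x) ∧ cc E x ⊆ O x)
    {ε : ℝ} (hε : 0 < ε) :
    ∃ φ' : X → ℝ, Cl φ' ∧ (∀ x, |φ' x| ≤ R) ∧ D φ φ' ε ∧
      (∀ x ∈ E', OscLe V (cc E x) φ' (a / 3)) ∧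
      (∀ q, φ' q = φ q ∨ ∃ x ∈ gset V E φ (a / 4) ∩ E', q ∈ O x ∧ ∀ lo hi,
        (∀ q' ∈ O x ∩ V, φ q' ∈ Icc lo hi) → φ q ∈ Icc lo hi → φ' q ∈ Icc lo hi) ∧
      ∀ x ∈ E, ∀ P ⊆ cc E x, Lev V h P → ∀ b, OscLe V P φ b → OscLe V P φ' (b + a / 50) := by
  classical
  set g := gset V E φ (a / 4) ∩ E' with hg
  have hgF : FamC E g := famC_gset hE' φ _
  have hgE : g ⊆ E := hgF.sub
  have hgc : IsCompact g := isCompact_gset' S.hE hE' φ _
  -- coarse pieces
  obtain ⟨l, p, N0, hp, hN0o, hN0U, hd0, hsat0, hcov0⟩ := exists_thick S.hE hgc hgE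
    O (fun x hx => (hO x hx).1) (fun x hx => (hO x hx).2)
  have hN0 : Pieces E N0 := ⟨hN0o, hd0, hsat0⟩
  set F : Fin l → Set ℝ := fun i => φ '' (O (p i) ∩ V) with hF
  have hFne : ∀ i, (F i).Nonempty := fun i =>
    (meets_of_gset (hp i).1 (hO _ (hp i)).1 (hO _ (hp i)).2).image φ
  have hFb : ∀ i, ∀ y ∈ F i, -R ≤ y ∧ y ≤ R := by
    rintro i y ⟨q, _, rfl⟩
    exact abs_le.1 (hR q)
  have hbb : ∀ i, BddBelow (F i) := fun i => ⟨-R, fun y hy => (hFb i y hy).1⟩
  have hba : ∀ i, BddAbove (F i) := fun i => ⟨R, fun y hy => (hFb i y hy).2⟩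
  set lo : Fin l → ℝ := fun i => sInf (F i) with hlo
  set hi : Fin l → ℝ := fun i => sSup (F i) with hhi
  have hloR : ∀ i, -R ≤ lo i := fun i => le_csInf (hFne i) fun y hy => (hFb i y hy).1
  have hhiR : ∀ i, hi i ≤ R := fun i => csSup_le (hFne i) fun y hy => (hFb i y hy).2
  have hlohi : ∀ i, lo i ≤ hi i := fun i => by
    obtain ⟨y, hy⟩ := hFne i
    exact (csInf_le (hbb i) hy).trans (le_csSup (hba i) hy)
  have hbase : ∀ i, ∀ q ∈ N0 i ∩ V, φ q ∈ Icc (lo i) (hi i) := fun i q hq =>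
    ⟨csInf_le (hbb i) ⟨q, ⟨hN0U i hq.1, hq.2⟩, rfl⟩, le_csSup (hba i) ⟨q, ⟨hN0U i hq.1, hq.2⟩, rfl⟩⟩
  -- constants
  have hM : (0:ℝ) < m := by exact_mod_cast hm
  have hM1 : (1:ℝ) ≤ m := by exact_mod_cast hm
  set M : ℝ := (m : ℝ) with hMdef
  set t : ℝ := a / (1000 * M) with ht
  have ht0 : 0 < t := by positivity
  have htM : M * t = a / 1000 := by rw [ht]; field_simp
  have hta : t ≤ a / 1000 := by
    rw [← htM]; nlinarith
  set A : ℝ := 2 * R with hA
  have hA0 : 0 ≤ A := by positivity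
  set μ : ℝ := t / (2 * M * (A + 1)) with hμ
  have hμ0 : 0 < μ := by positivity
  have hμA : M * (2 * (μ * A)) ≤ t := by
    have e : M * (2 * (μ * A)) = t * (A / (A + 1)) := by
      rw [hμ]; field_simp
    rw [e]
    have h1 : A / (A + 1) ≤ 1 := by rw [div_le_one (by positivity)]; linarith
    nlinarith
  have hμA1 : 2 * (μ * A) ≤ t := by
    have h1 : 0 ≤ 2 * (μ * A) := by positivity
    nlinarith
  set e1 : ℝ := ε / M with he1
  have he10 : 0 < e1 := by positivity
  have C : ConstQ m R μ A t (2 * t) t :=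
    { R0 := hR0, μ0 := hμ0, A0 := hA0, ε0 := ht0
      σ := fun i hi => by
        have h1 : (i:ℝ) ≤ M := by rw [hMdef]; exact_mod_cast hi.le
        have h2 : 0 ≤ 2 * (μ * A) := by positivity
        have := mul_le_mul_of_nonneg_right h1 h2
        linarith
      σ10 := by positivity }
  set Bs : ℕ → ℝ := fun i => B0 + i * d with hBs
  have hBs1 : ∀ i, Bs i < Bs (i + 1) := by
    intro i; simp only [hBs]; push_cast; nlinarith
  have hBs2 : ∀ i, Bs i + ρ ≤ Bs (i + 1) := by
    intro i; simp only [hBs]; push_cast; nlinarith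
  -- induction
  have key : ∀ i ≤ m, ∃ χ, InvQ V E h Cl D φ R N0 lo hi g μ A t (2 * t) t e1 Bs i χ := by
    intro i
    induction i with
    | zero =>
      intro _
      refine ⟨φ, hφ, hR, ?_, ?_, fun _ _ => rfl, ?_, ?_, ?_⟩
      · simpa using S.D0 φ hφ
      · exact fun _ _ _ _ _ _ _ h => h
      · intro x hx s
        simpa using hslice x hx s
      · intro x _ P _ _ b hb
        simpa using hb
      · intro j hj
        exact absurd hj (Nat.not_lt_zero _)
    | succ i ih =>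
      intro hi
      obtain ⟨χ, hχ⟩ := ih (by omega)
      obtain ⟨χ', hχ', _⟩ := hχ.step S hN0 hbase hloR hhiR hlohi (fun i => by
        have := hloR i; have := hhiR i; rw [hA]; linarith) C he10 hgF hgHr hcov0 hBs2 hBs1
        (show i < m by omega)
      exact ⟨χ', hχ'⟩
  obtain ⟨χ, I⟩ := key m le_rfl
  -- total growth
  have hgg : M * (2 * (μ * A + 2 * (2 * t + t))) ≤ 13 * a / 1000 := by
    have e : M * (2 * (μ * A + 2 * (2 * t + t))) =
      M * (2 * (μ * A)) + 12 * (M * t) := by ring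
    rw [e, htM]; linarith
  have hgrow : ∀ x ∈ E, ∀ P ⊆ cc E x, Lev V h P → ∀ b, OscLe V P φ b →
      OscLe V P χ (b + 13 * a / 1000) := by
    intro x hx P hP hPl b hb
    exact (I.grow x hx P hP hPl b hb).mono (by linarith)
  refine ⟨χ, I.cl, I.bd, ?_, ?_, ?_, ?_⟩
  · have := I.en
    have e : (m:ℝ) * e1 = ε := by rw [he1, ← hMdef]; field_simp
    rwa [e] at this
  · intro x hxE'
    have hx : x ∈ E := hE'.sub hxE'
    have hlev : Lev V h (cc E x) := by
      have := S.levI x hx univ ordConnected_univ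
      rwa [preimage_univ, inter_univ] at this
    by_cases hxg : x ∈ g
    · set c1 := 30 * a / 1000 with hc1
      have hpor : ∀ I' : Set ℝ, I'.OrdConnected → ∀ s, I' ∩ Icc B0 (B0 + M * d) ⊆ Icc s (s + 2 * d) →
          OscLe V (cc E x ∩ h ⁻¹' I') χ (a / 100 + 13 * a / 1000) := by
        intro I' hI' s hs
        refine hgrow x hx _ inter_subset_left (S.levI x hx I' hI') _ ?_
        refine (hport x hxg s).mono_set ?_
        rintro y ⟨hy, hyI⟩
        have := hs ⟨hyI, hcov y (hE'.sat x hxE' hy)⟩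
        exact ⟨hy, this.1, this.2⟩
      have h2M : M * d = m * d := rfl
      obtain ⟨i, j, hij, hji, hLo, hUp⟩ := comb_levels (m := m)
        (Lo := fun i => OscLe V (cc E x ∩ {y | h y ≤ Bs i}) χ c1)
        (Up := fun j => OscLe V (cc E x ∩ {y | Bs j ≤ h y}) χ c1)
        (by
          have := hpor (Iic (Bs 0)) ordConnected_Iic B0 (by
            rintro t' ⟨h1, h2⟩
            simp only [hBs, Nat.cast_zero, zero_mul, add_zero, mem_Iic] at h1
            exact ⟨h2.1, by linarith⟩)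
          exact this.mono (by rw [hc1]; linarith))
        (by
          have := hpor (Ici (Bs m)) ordConnected_Ici (B0 + M * d) (by
            rintro t' ⟨h1, h2⟩
            simp only [hBs, mem_Ici] at h1
            exact ⟨h1, by linarith [h2.2]⟩)
          exact this.mono (by rw [hc1]; linarith))
        (by
          intro i hi
          rcases I.hist i hi x hxg with h1 | h1
          · left
            refine h1.mono ?_
            rw [hc1]; linarith
          · right
            refine h1.mono ?_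
            rw [hc1]; linarith)
      have hmid : OscLe V ((cc E x ∩ h ⁻¹' Ici (Bs i)) ∩ {y | h y ≤ Bs j}) χ
          (a / 100 + 13 * a / 1000) := by
        have := hpor (Icc (Bs i) (Bs j)) ordConnected_Icc (Bs i) (by
          rintro t' ⟨h1, _⟩
          refine ⟨h1.1, h1.2.trans ?_⟩
          simp only [hBs]
          have : (j:ℝ) ≤ i + 2 := by exact_mod_cast hji
          nlinarith)
        refine this.mono_set ?_
        rintro y ⟨⟨hy, hyi⟩, hyj⟩
        exact ⟨hy, hyi, hyj⟩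
      have hup2 : OscLe V (cc E x ∩ h ⁻¹' Ici (Bs i)) χ ((a / 100 + 13 * a / 1000) + c1) := by
        refine osc_split (h := h) (S.levI x hx _ ordConnected_Ici) (s := Bs j) (by positivity)
          (by positivity) hmid ?_
        refine hUp.mono_set ?_
        rintro y ⟨⟨hy, _⟩, hyj⟩
        exact ⟨hy, hyj⟩
      have hall := osc_split (h := h) hlev (s := Bs i) (by positivity)
        (by positivity) hLo hup2
      refine hall.mono ?_
      rw [hc1]; linarith
    · have h1 : ∃ c < a / 4, OscLe V (cc E x) φ c := by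
        by_contra h2
        exact hxg ⟨⟨hx, h2⟩, hxE'⟩
      obtain ⟨c, hc, hcosc⟩ := h1
      refine (hgrow x hx _ Subset.rfl hlev c hcosc).mono ?_
      linarith
  · intro q
    by_cases hqN : q ∈ ⋃ i, N0 i
    · obtain ⟨i, hi'⟩ := mem_iUnion.1 hqN
      refine Or.inr ⟨p i, hp i, hN0U i hi', fun lo' hi'' hb hq => ?_⟩
      refine I.hull i q hi' lo' hi'' ?_ ?_ hq
      · refine le_csInf (hFne i) ?_
        rintro y ⟨q', hq', rfl⟩
        exact (hb q' hq').1
      · refine csSup_le (hFne i) ?_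
        rintro y ⟨q', hq', rfl⟩
        exact (hb q' hq').2
    · exact Or.inl (I.off q hqN)
  · intro x hx P hP hPl b hb
    exact (hgrow x hx P hP hPl b hb).mono (by linarith)

end Crest.Agent.R105.Spq_722
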