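import Crest.Agent.R105.Spq4_722
import Crest.Agent.R105.Spq2_722
import Crest.Agent.R105.Laq5_744

/-!
Row 105 (S0138, picture with solids), task 2456 (STEPQ), part 5: one round of single operations.
-/

set_option autoImplicit false
set_option linter.unusedSectionVars false

open Set Filter Topology Metric MeasureTheory

namespace Crest.Agent.R105.Spq_722

open Stp_722 CF_363 Cq_463 Exs_992 Thin_891 Lop1_744 Lop3_744 Laq4_744
open Skp2_257 (Comps)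

local notation "cc" => connectedComponentIn

/-- finitely many disjoint compact sets have disjoint neighbourhoods. -/
theorem sep_nbhds {X : Type*} [TopologicalSpace X] [T2Space X] {ι : Type*} [Finite ι]
    {P U : ι → Set X} (hc : ∀ i, IsCompact (P i)) (hd : ∀ i j, i ≠ j → Disjoint (P i) (P j))
    (hU : ∀ i, IsOpen (U i)) (hPU : ∀ i, P i ⊆ U i) :
    ∃ N : ι → Set X, (∀ i, IsOpen (N i)) ∧ (∀ i, P i ⊆ N i) ∧ (∀ i, N i ⊆ U i) ∧
      ∀ i j, i ≠ j → Disjoint (N i) (N j) := by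
  classical
  have hs : ∀ i j, ∃ A B : Set X, i ≠ j → IsOpen A ∧ IsOpen B ∧ P i ⊆ A ∧ P j ⊆ B ∧
      Disjoint A B := by
    intro i j
    by_cases hij : i = j
    · exact ⟨∅, ∅, fun h => absurd hij h⟩
    · obtain ⟨A, B, h⟩ := SeparatedNhds.of_isCompact_isCompact (hc i) (hc j) (hd i j hij)
      exact ⟨A, B, fun _ => h⟩
  choose A B H using hs
  refine ⟨fun i => U i ∩ ⋂ j ∈ {j | j ≠ i}, (A i j ∩ B j i), fun i => ?_, fun i => ?_, fun i =>
    inter_subset_left, fun i j hij => ?_⟩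
  · refine (hU i).inter ((Set.toFinite _).isOpen_biInter fun j hj => ?_)
    exact (H i j (Ne.symm hj)).1.inter (H j i hj).2.1
  · refine subset_inter (hPU i) (subset_iInter₂ fun j hj => ?_)
    exact subset_inter (H i j (Ne.symm hj)).2.2.1 (H j i hj).2.2.2.1
  · rw [Set.disjoint_left]
    rintro x ⟨_, h1⟩ ⟨_, h2⟩
    simp only [mem_iInter] at h1 h2
    have h3 : x ∈ A i j := (h1 j (Ne.symm hij)).1
    have h4 : x ∈ B i j := (h2 i hij).2
    exact Set.disjoint_left.1 (H i j hij).2.2.2.2 h3 h4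

variable {E : Set (ℝ × ℝ)} {𝒬 : Set Sqr} {𝓗 : Set Hair}

theorem DQ_mono {χ χ' : ℝ × ℝ → ℝ} {s t : ℝ} (h : DQ E 𝒬 𝓗 χ χ' s) (hst : s ≤ t) :
    DQ E 𝒬 𝓗 χ χ' t := by
  obtain ⟨h0, h1, h2, h3⟩ := h
  refine ⟨h0.trans hst, h1, h2, h3.trans ?_⟩
  gcongr

theorem TQ_congr_V (hE : QPic E 𝒬 𝓗) {u v : ℝ × ℝ → ℝ} (h : ∀ q ∈ Eᶜ, u q = v q) :
    TQ E univ 𝒬 u = TQ E univ 𝒬 v := by
  have e1 : En (univ \ E) u = En (univ \ E) v :=
    En_congr (isOpen_univ.sdiff hE.cpt.isClosed) fun p hp => h p hp.2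
  have e2 : Ch E univ 𝒬 u = Ch E univ 𝒬 v := by
    unfold Ch ch
    congr 1
    funext Q
    rw [chg_congr isOpen_univ (subset_univ _) fun q hq => h q hq.2.1]
  unfold TQ
  rw [e1, e2]

theorem cc_disj {x y : ℝ × ℝ} (h : cc E x ≠ cc E y) : Disjoint (cc E x) (cc E y) := by
  rw [Set.disjoint_left]
  intro z hz hz'
  exact h ((cc_eq hz).symm.trans (cc_eq hz'))

/-- one round of single operations at a finite family of components. -/
theorem round (hP : PicS E 𝒬 𝓗)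
    (hT : ∀ x ∈ E, (∀ p, cc E x ≠ {p}) →
      Treat Eᶜ E Prod.snd (ClQ 𝓗) (DQ E 𝒬 𝓗) (Sqr.car '' 𝒬) (cc E x))
    {E' : Set (ℝ × ℝ)} (hE' : Piece E E') {W₀ : Set (ℝ × ℝ)} (hW₀ : IsOpen W₀) (hEW : E' ⊆ W₀)
    {F : Set (Set (ℝ × ℝ))} (hfin : F.Finite)
    (hF : ∀ P ∈ F, ∃ x ∈ E', P = cc E x ∧ ∀ p, cc E x ≠ {p}) {χ : ℝ × ℝ → ℝ} (hχ : ClQ 𝓗 χ)
    {b c ε η : ℝ} (hb : 0 ≤ b) (hc : 0 ≤ c) (hosc : ∀ x ∈ E', OscLe Eᶜ (cc E x) χ b)
    (hsq : ∀ P ∈ F, ∀ Q ∈ 𝒬, Q.car ⊆ P → OscLe Eᶜ Q.car χ c) (hε : 0 < ε) (hη : 0 < η) :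
    ∃ χ' : ℝ × ℝ → ℝ, DQ E 𝒬 𝓗 χ χ' ε ∧
      (∃ S, IsClosed S ∧ S ⊆ W₀ ∧ ∀ p ∉ S, χ' p = χ p) ∧
      (∀ q ∈ Eᶜ, |χ' q - χ q| ≤ b + η) ∧ (∀ P ∈ F, OscLe Eᶜ P χ' (c + η)) ∧
      ∀ x ∈ E, cc E x ∉ F → ∀ R ⊆ cc E x, Lev Eᶜ Prod.snd R → ∀ β, OscLe Eᶜ R χ β →
        OscLe Eᶜ R χ' (β + η) := by
  classical
  have hFt : Finite F := hfin.to_subtype
  have hft : Fintype F := Fintype.ofFinite F
  choose x hx hPx hpt using fun P : F => hF P.1 P.2
  -- neighbourhoods with small oscillation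
  have hO : ∀ P : F, ∃ O, IsOpen O ∧ P.1 ⊆ O ∧ ∀ q ∈ O ∩ Eᶜ, ∀ q' ∈ O ∩ Eᶜ,
      |χ q - χ q'| ≤ b + η / 2 := fun P => by
    have h1 := hosc (x P) (hx P) (η / 2) (by linarith)
    rw [← hPx P] at h1
    exact h1
  choose O hOo hPO HO using hO
  have hcpt : ∀ P : F, IsCompact P.1 := fun P => by rw [hPx P]; exact isCompact_cc hP.q.cpt _
  have hPE' : ∀ P : F, P.1 ⊆ E' := fun P => by rw [hPx P]; exact hE'.component_subset (hx P)
  have hdis : ∀ P P' : F, P ≠ P' → Disjoint P.1 P'.1 := by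
    intro P P' hne
    rw [hPx P, hPx P']
    refine cc_disj fun h => hne (Subtype.ext ?_)
    rw [hPx P, hPx P']; exact h
  obtain ⟨N, hNo, hPN, hNU, hNd⟩ := sep_nbhds (ι := F) (P := fun P => P.1)
    (U := fun P => O P ∩ W₀) hcpt hdis (fun P => (hOo P).inter hW₀)
    (fun P => subset_inter (hPO P) ((hPE' P).trans hEW))
  set n : ℝ := ((Finset.univ : Finset F).card : ℝ) with hn
  have hn0 : 0 ≤ n := by positivity
  have hnn : n / (n + 1) ≤ 1 := by rw [div_le_one (by positivity)]; linarith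
  obtain ⟨χ', hD, -, ⟨S, hSc, hSN, hoff⟩, hsup, hfl, hgr⟩ := treat_all (V := Eᶜ) (E := E)
    (h := Prod.snd) (Cl := ClQ 𝓗) (D := DQ E 𝒬 𝓗) (sq := Sqr.car '' 𝒬)
    (fun _ h => DQ.refl h) (fun _ _ _ _ _ h1 h2 => h1.trans hP.q h2) (ι := F)
    (P := fun P => P.1) (N := N) (fun P => by
      have := hT (x P) (hE'.sub (hx P)) (hpt P)
      rwa [← hPx P] at this) hNo hPN hNd hχ (c := c) (A := b + η / 2) (ε := ε / (n + 1))
    (η := η / (2 * (n + 1))) hc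
    (fun P Q hQ hQP => by
      obtain ⟨Q', hQ', rfl⟩ := hQ
      exact hsq P.1 P.2 Q' hQ' hQP) (by positivity)
    (fun P q hq q' hq' => HO P q ⟨(hNU P hq.1).1, hq.2⟩ q' ⟨(hNU P hq'.1).1, hq'.2⟩)
    (by positivity) (by positivity) Finset.univ
  have hη1 : η / (2 * (n + 1)) ≤ η / 2 := by
    apply div_le_div_of_nonneg_left hη.le (by norm_num)
    linarith
  have hηn : n * (η / (2 * (n + 1))) ≤ η := by
    have e : n * (η / (2 * (n + 1))) = (η / 2) * (n / (n + 1)) := by field_simp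
    rw [e]
    nlinarith
  have hεn : n * (ε / (n + 1)) ≤ ε := by
    have e : n * (ε / (n + 1)) = ε * (n / (n + 1)) := by field_simp
    rw [e]
    nlinarith
  refine ⟨χ', DQ_mono hD hεn, ⟨S, hSc, ?_, hoff⟩, ?_, ?_, ?_⟩
  · refine hSN.trans (iUnion₂_subset fun P _ => (hNU P).trans inter_subset_right)
  · intro q hq
    exact (hsup q hq).trans (by linarith)
  · intro P hPF
    exact (hfl ⟨P, hPF⟩ (Finset.mem_univ _)).mono (by linarith)
  · intro y hy hyF R hR hRl β hβ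
    refine (hgr y hy (fun P _ hyP => hyF ?_) R hR hRl β hβ).mono (by linarith)
    have h1 : y ∈ cc E (x P) := by rw [← hPx P]; exact hyP
    rw [cc_eq h1, ← hPx P]
    exact P.2

end Crest.Agent.R105.Spq_722
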