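import Crest.Agent.R105.Spq5_722

/-!
Row 105 (S0138, picture with solids), task 2456 (STEPQ), part 6: the assembly `stepQ_of`
(treatment of every component which is not a point + the layer operation ⟹ `Exs_992.StepQ` with
`C0 = 20`, `θ = 1/10`).
-/

set_option autoImplicit false
set_option linter.unusedSectionVars false

open Set Filter Topology Metric MeasureTheory

namespace Crest.Agent.R105.Spq_722

open Stp_722 CF_363 Cq_463 Exs_992 Thin_891 Lop1_744 Lop3_744 Laq4_744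
open Skp2_257 (Comps)

local notation "cc" => connectedComponentIn

variable {E : Set (ℝ × ℝ)} {𝒬 : Set Sqr} {𝓗 : Set Hair}

theorem finite_big (hP : PicS E 𝒬 𝓗) {ρ : ℝ} (hρ : 0 < ρ) : {Q : Sqr | Q ∈ 𝒬 ∧ ρ ≤ Q.s}.Finite := by
  have h1 := hP.q.summable_sq.tendsto_cofinite_zero
  have h2 := h1.eventually (Iio_mem_nhds (show (0:ℝ) < ρ ^ 2 by positivity))
  rw [Filter.eventually_cofinite] at h2
  refine (h2.image Subtype.val).subset ?_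
  rintro Q ⟨hQ, hs⟩
  refine ⟨⟨Q, hQ⟩, ?_, rfl⟩
  simp only [mem_ofPred_eq, not_lt]
  exact pow_le_pow_left₀ hρ.le hs 2

/-- every level of a square is visible -/
theorem lev_car (hP : PicS E 𝒬 𝓗) {Q : Sqr} (hQ : Q ∈ 𝒬) : Lev Eᶜ Prod.snd Q.car := by
  rintro t ⟨y, hy, hyt⟩ ⟨w, hw, htw⟩
  have hs := Q.hs
  have hy' := (Sqr.mem_car.1 hy).2
  have hw' := (Sqr.mem_car.1 hw).2
  have hc : (Q.x, t) ∈ Q.car := Sqr.mem_car.2 ⟨⟨le_rfl, by linarith⟩, by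
    constructor <;> simp only <;> linarith [hy'.1, hw'.2]⟩
  refine ⟨(Q.x, t), hc, mem_closure_compl hP.q fun Q' hQ' hp => ?_, rfl⟩
  have h1 : Q' = Q := by
    have h2 := sq_sub_cc hP hQ' (x := (Q.x, t))
      ⟨(Q.x, t), interior_subset hp, mem_connectedComponentIn (hP.q.sub Q hQ hc)⟩
    have h3 := sq_sub_cc hP hQ (x := (Q.x, t))
      ⟨(Q.x, t), hc, mem_connectedComponentIn (hP.q.sub Q hQ hc)⟩
    exact sq_unique hP hQ' hQ h2 h3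
  rw [h1, interior_car] at hp
  exact lt_irrefl _ hp.1.1

theorem sq_not_pt {Q : Sqr} {p : ℝ × ℝ} (h : Q.car ⊆ {p}) : False := by
  have hs := Q.hs
  have e1 : (Q.x, Q.y) = p := h (Sqr.mem_car.2 ⟨⟨le_rfl, by simp only; linarith⟩, le_rfl, by
    simp only; linarith⟩)
  have e2 : (Q.x + Q.s, Q.y) = p := h (Sqr.mem_car.2 ⟨⟨by simp only; linarith, le_rfl⟩, le_rfl, by
    simp only; linarith⟩)
  have e3 := congrArg Prod.fst (e1.trans e2.symm)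
  simp only at e3
  linarith

theorem clamp_mem (A : ℝ) (hA : 0 ≤ A) (u : ℝ) : |max (-A) (min A u)| ≤ A := by
  rw [abs_le]
  exact ⟨le_max_left _ _, max_le (by linarith) (min_le_left _ _)⟩

theorem clamp_eq {A u : ℝ} (h : |u| ≤ A) : max (-A) (min A u) = u := by
  rw [abs_le] at h
  rw [min_eq_right h.2, max_eq_right h.1]

/-- **the last step**: from a function near `r` off `E` to the increment. -/
theorem increment (hP : PicS E 𝒬 𝓗) {r φ₃ : ℝ × ℝ → ℝ} {κ A : ℝ} (hA : 0 ≤ A)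
    (hD : DQ E 𝒬 𝓗 r φ₃ κ) (hb : ∀ q ∈ Eᶜ, |φ₃ q - r q| ≤ A) {T W : Set (ℝ × ℝ)}
    (hT : IsCompact T) (hTW : T ⊆ W) (hoff : ∀ q ∉ T, φ₃ q = r q) :
    ∃ φ : ℝ × ℝ → ℝ, CFJ 𝓗 univ φ ∧ (∃ S, IsCompact S ∧ S ⊆ W ∧ ∀ p ∉ S, φ p = 0) ∧
      (∀ p, |φ p| ≤ A) ∧ TQ E univ 𝒬 φ ≤ κ ^ 2 ∧ ∀ q ∈ Eᶜ, r q + φ q = φ₃ q := by
  obtain ⟨-, hr, h3, hen⟩ := hD
  refine ⟨fun q => max (-A) (min A (φ₃ q - r q)), ?_, ⟨T, hT, hTW, fun p hp => ?_⟩, fun p =>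
    clamp_mem A hA _, ?_, fun q hq => ?_⟩
  · exact (CFJ_const (-A)).max ((CFJ_const A).min (h3.1.sub hr.1))
  · simp only
    rw [hoff p hp, sub_self, clamp_eq (by rwa [abs_zero])]
  · rw [TQ_congr_V hP.q (v := fun q => φ₃ q - r q) fun q hq => clamp_eq (hb q hq)]
    exact hen
  · simp only
    rw [clamp_eq (hb q hq)]
    ring

/-- **the step with solids, from the treatment of the components and the layer operation** -/
theorem stepQ_of (hP : PicS E 𝒬 𝓗)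
    (hT : ∀ x ∈ E, (∀ p, cc E x ≠ {p}) →
      Treat Eᶜ E Prod.snd (ClQ 𝓗) (DQ E 𝒬 𝓗) (Sqr.car '' 𝒬) (cc E x))
    (hS : ∀ ρ > 0, SetupR Eᶜ E Prod.snd (HrQ E 𝒬 ρ) (ClQ 𝓗) (DQ E 𝒬 𝓗) ρ) :
    StepQ E 𝒬 𝓗 20 (1 / 10) := by
  classical
  intro r hrc hrs hrb E' hE'c hE'E hE'c' d hd hosc0 hsq0 W hW hE'W κ hκ
  have hcl : ClQ 𝓗 r := ⟨hrc, hrs, hrb⟩
  have hE' : Piece E E' := ⟨hE'E, hE'c, hE'c'⟩
  have hsat : ∀ x ∈ E', cc E x ⊆ E' := fun x hx => hE'.component_subset hx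
  have hPart : Part E E' := ⟨hE'c, hE'E, hsat⟩
  -- neighbourhood
  obtain ⟨δ, hδ, hδW⟩ := hE'c.exists_cthickening_subset_open hW hE'W
  set W₀ := thickening δ E' with hW₀
  have hW₀o : IsOpen W₀ := isOpen_thickening
  have hEW₀ : E' ⊆ W₀ := self_subset_thickening hδ E'
  have hTc : IsCompact (cthickening δ E') := hE'c.cthickening
  have hW₀T : W₀ ⊆ cthickening δ E' := thickening_subset_cthickening _ _
  -- constants
  obtain ⟨J, hJ, L, C, hL, hsl, -⟩ := id hrc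
  obtain ⟨B0, R1, hR1, hBR⟩ : ∃ B0 R1 : ℝ, 0 < R1 ∧ ∀ x ∈ E', B0 ≤ x.2 ∧ x.2 ≤ B0 + R1 := by
    obtain ⟨K, hK⟩ := hE'c.isBounded.exists_norm_le
    refine ⟨-|K|, 2 * |K| + 1, by positivity, fun x hx => ?_⟩
    have h1 : |x.2| ≤ K := (norm_snd_le x).trans (hK x hx)
    have h2 := abs_le.1 (h1.trans (le_abs_self K))
    constructor <;> linarith [h2.1, h2.2]
  set dm : ℝ := d / (800 * (L + 1)) with hdm
  have hdm0 : 0 < dm := by positivity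
  have hLdm : L * (2 * dm) ≤ d / 400 := by
    have e : L * (2 * dm) = d / 400 * (L / (L + 1)) := by rw [hdm]; field_simp; ring
    rw [e]
    have h1 : L / (L + 1) ≤ 1 := by rw [div_le_one (by positivity)]; linarith
    have h2 : 0 ≤ d / 400 := by positivity
    nlinarith
  obtain ⟨m, hm⟩ := exists_nat_gt (R1 / dm)
  have hm0 : (0:ℝ) < m := lt_trans (by positivity) hm
  have hmN : 0 < m := by exact_mod_cast hm0
  have hm1 : (1:ℝ) ≤ m := by exact_mod_cast hmN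
  have hcov : ∀ x ∈ E', B0 ≤ x.2 ∧ x.2 ≤ B0 + m * dm := by
    intro x hx
    obtain ⟨h1, h2⟩ := hBR x hx
    rw [div_lt_iff₀ hdm0] at hm
    exact ⟨h1, by linarith⟩
  set t : ℝ := d / (4000 * m) with ht
  have ht0 : 0 < t := by positivity
  have htd : t ≤ d / 4000 := by
    rw [ht]
    apply div_le_div_of_nonneg_left hd.le (by norm_num)
    linarith
  have htm : 4 * t = d / (1000 * m) := by rw [ht]; field_simp; ring
  have hlevI : ∀ x, ∀ I : Set ℝ, I.OrdConnected → Lev Eᶜ Prod.snd (cc E x ∩ Prod.snd ⁻¹' I) :=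
    fun x I hI => levI hP.q.cpt x hI
  have hlev : ∀ x, Lev Eᶜ Prod.snd (cc E x) := by
    intro x
    have := hlevI x univ ordConnected_univ
    rwa [preimage_univ, inter_univ] at this
  -- round one
  set F₁ : Set (Set (ℝ × ℝ)) := {P | ∃ K ∈ J, K.car ⊆ E' ∧ P = cc E (K.x, K.b)} with hF₁
  have hF₁fin : F₁.Finite := by
    refine ((J.finite_toSet).image fun K : Hair => cc E (K.x, K.b)).subset ?_
    rintro P ⟨K, hK, -, rfl⟩
    exact ⟨K, hK, rfl⟩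
  have hKcc : ∀ K ∈ J, K.car ⊆ cc E (K.x, K.b) := fun K hK =>
    car_sub_cc hP (hJ K hK) ⟨(K.x, K.b), bot_mem_car K,
      mem_connectedComponentIn (hsub hP (hJ K hK) (bot_mem_car K))⟩
  have hF₁' : ∀ P ∈ F₁, ∃ x ∈ E', P = cc E x ∧ ∀ p, cc E x ≠ {p} := by
    rintro P ⟨K, hK, hKE', rfl⟩
    refine ⟨(K.x, K.b), hKE' (bot_mem_car K), rfl, fun p hp => ?_⟩
    have h1 := hKcc K hK
    rw [hp] at h1
    exact point_untouched h1
  have hosc1 : ∀ x ∈ E', OscLe Eᶜ (cc E x) r (2 * d) := fun x hx =>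
    hosc0 _ ⟨x, hE'E hx, rfl⟩ (hsat x hx)
  obtain ⟨φ₁, hD₁, ⟨S₁, hS₁c, hS₁W, hoff₁⟩, hd₁, hfl₁, hgr₁⟩ := round hP hT hE' hW₀o hEW₀ hF₁fin
    hF₁' hcl (b := 2 * d) (c := d / 10) (ε := κ / 3) (η := t) (by positivity) (by positivity)
    hosc1 (fun P hPF Q hQ hQP => by
      obtain ⟨x, hx, hPx, -⟩ := hF₁' P hPF
      have := hsq0 Q hQ (hQP.trans (hPx ▸ hsat x hx))
      exact this.mono (by linarith)) (by positivity) ht0
  have hc₁ : ∀ x ∈ E', OscLe Eᶜ (cc E x) φ₁ (2 * d + t) := by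
    intro x hx
    by_cases hF : cc E x ∈ F₁
    · exact (hfl₁ _ hF).mono (by linarith)
    · exact hgr₁ x (hE'E hx) hF _ Subset.rfl (hlev x) _ (hosc1 x hx)
  -- neighbourhoods of the touched components
  have hO₁ : ∀ K : Hair, K ∈ J ∧ K.car ⊆ E' → ∃ O, IsOpen O ∧ cc E (K.x, K.b) ⊆ O ∧
      ∀ P' ⊆ O, OscLe Eᶜ P' φ₁ (d / 10 + 2 * t) := fun K hK =>
    (hfl₁ _ ⟨K, hK.1, hK.2, rfl⟩).exists_nhds (by linarith)
  choose! O₁ hO₁o hO₁c hO₁s using hO₁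
  obtain ⟨ρ0, hρ0, hcomb⟩ := comb hP hJ hE' (O₁ := O₁) (fun K hK h => hO₁o K ⟨hK, h⟩)
    (fun K hK h => hO₁c K ⟨hK, h⟩)
  set ρ : ℝ := min ρ0 (min dm (t / (L + 1))) with hρ
  have hρpos : 0 < ρ := by
    rw [hρ]
    exact lt_min hρ0 (lt_min hdm0 (by positivity))
  have hρρ0 : ρ ≤ ρ0 := min_le_left _ _
  have hρdm : ρ ≤ dm := (min_le_right _ _).trans (min_le_left _ _)
  have hLρ : L * ρ ≤ t := by
    have h1 : ρ ≤ t / (L + 1) := (min_le_right _ _).trans (min_le_right _ _)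
    rw [le_div_iff₀ (by positivity)] at h1
    nlinarith
  -- round two
  set F₂ : Set (Set (ℝ × ℝ)) := {P | (∃ Q ∈ 𝒬, Q.car ⊆ E' ∧ ρ ≤ Q.s ∧ P = cc E (Q.x, Q.y)) ∧
    P ∉ F₁} with hF₂
  have hcor : ∀ Q : Sqr, (Q.x, Q.y) ∈ Q.car := fun Q => by
    have := Q.hs
    exact Sqr.mem_car.2 ⟨⟨le_rfl, by simp only; linarith⟩, le_rfl, by simp only; linarith⟩
  have hF₂fin : F₂.Finite := by
    refine ((finite_big hP hρpos).image fun Q : Sqr => cc E (Q.x, Q.y)).subset ?_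
    rintro P ⟨⟨Q, hQ, -, hs, rfl⟩, -⟩
    exact ⟨Q, ⟨hQ, hs⟩, rfl⟩
  have hQcc : ∀ Q ∈ 𝒬, Q.car ⊆ cc E (Q.x, Q.y) := fun Q hQ =>
    sq_sub_cc hP hQ ⟨(Q.x, Q.y), hcor Q, mem_connectedComponentIn (hP.q.sub Q hQ (hcor Q))⟩
  have hF₂' : ∀ P ∈ F₂, ∃ x ∈ E', P = cc E x ∧ ∀ p, cc E x ≠ {p} := by
    rintro P ⟨⟨Q, hQ, hQE', hs, rfl⟩, -⟩
    refine ⟨(Q.x, Q.y), hQE' (hcor Q), rfl, fun p hp => ?_⟩
    have h1 := hQcc Q hQ
    rw [hp] at h1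
    exact sq_not_pt h1
  obtain ⟨φ₂, hD₂, ⟨S₂, hS₂c, hS₂W, hoff₂⟩, hd₂, hfl₂, hgr₂⟩ := round hP hT hE' hW₀o hEW₀ hF₂fin
    hF₂' hD₁.2.2.1 (b := 2 * d + t) (c := d / 10 + t) (ε := κ / 3) (η := t) (by positivity)
    (by positivity) hc₁ (fun P hPF Q hQ hQP => by
      obtain ⟨x, hx, hPx, -⟩ := hF₂' P hPF
      have h1 : Q.car ⊆ cc E x := hPx ▸ hQP
      refine hgr₁ x (hE'E hx) (hPx ▸ hPF.2) _ h1 (lev_car hP hQ) _ ?_
      exact (hsq0 Q hQ (h1.trans (hsat x hx))).mono (by linarith)) (by positivity) ht0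
  have hc₂ : ∀ x ∈ E', OscLe Eᶜ (cc E x) φ₂ (2 * d + 2 * t) := by
    intro x hx
    by_cases hF : cc E x ∈ F₂
    · exact (hfl₂ _ hF).mono (by linarith)
    · exact (hgr₂ x (hE'E hx) hF _ Subset.rfl (hlev x) _ (hc₁ x hx)).mono (by linarith)
  -- the bad family
  set g : Set (ℝ × ℝ) := gset Eᶜ E φ₂ (d / 4) ∩ E' with hg
  have hgE : ∀ x ∈ g, x ∈ E := fun x hx => hE'E hx.2
  have hbig : ∀ x ∈ g, ∀ c < d / 4, ¬ OscLe Eᶜ (cc E x) φ₂ c := fun x hx c hc h =>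
    hx.1.2 ⟨c, hc, h⟩
  have hnF₂ : ∀ x ∈ g, cc E x ∉ F₂ := fun x hx hF =>
    hbig x hx _ (show d / 10 + t + t < d / 4 by linarith) (hfl₂ _ hF)
  have hnF₁ : ∀ x ∈ g, cc E x ∉ F₁ := fun x hx hF =>
    hbig x hx _ (show d / 10 + t + t < d / 4 by linarith)
      (hgr₂ x (hgE x hx) (hnF₂ x hx) _ Subset.rfl (hlev x) _ (hfl₁ _ hF))
  have hnO : ∀ x ∈ g, ¬ ∃ K ∈ J, K.car ⊆ E' ∧ cc E x ⊆ O₁ K := by
    rintro x hx ⟨K, hK, hKE', hxO⟩
    exact hbig x hx _ (show d / 10 + 2 * t + t < d / 4 by linarith)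
      (hgr₂ x (hgE x hx) (hnF₂ x hx) _ Subset.rfl (hlev x) _ (hO₁s K ⟨hK, hKE'⟩ _ hxO))
  have hunt : ∀ x ∈ g, ∀ K ∈ J, ¬ K.car ⊆ cc E x := by
    intro x hx K hK hKx
    refine hnF₁ x hx ⟨K, hK, hKx.trans (hsat x hx.2), ?_⟩
    exact (cc_eq (hKx (bot_mem_car K))).symm
  have hsmall : ∀ x ∈ g, ∀ Q ∈ 𝒬, Q.car ⊆ cc E x → Q.s < ρ := by
    intro x hx Q hQ hQx
    by_contra hs
    push Not at hs
    refine hnF₂ x hx ⟨⟨Q, hQ, hQx.trans (hsat x hx.2), hs, ?_⟩, hnF₁ x hx⟩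
    exact (cc_eq (hQx (hcor Q))).symm
  have hgHr : g ⊆ HrQ E 𝒬 ρ := fun x hx => ⟨hgE x hx, hsmall x hx⟩
  -- geometry of the members
  have hgeo : ∀ x ∈ g, Good J (cc E x) ∧ ∀ p ∈ cc E x, ∀ p' ∈ cc E x, |p.1 - p'.1| ≤ ρ := by
    intro x hx
    rcases hP.comp _ ⟨x, hgE x hx, rfl⟩ with ⟨p, hp⟩ | ⟨K, _, hK⟩ | ⟨Q, hQ, hQx, -⟩
    · refine ⟨good_of_convex (by rw [hp]; exact convex_singleton _)
        (disj_cut hP hJ (hunt x hx)), ?_⟩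
      rw [hp]
      rintro q rfl q' rfl
      rw [sub_self, abs_zero]
      exact hρpos.le
    · refine ⟨good_of_convex (by rw [hK]; exact convex_car K)
        (disj_cut hP hJ (hunt x hx)), ?_⟩
      rw [hK]
      intro q hq q' hq'
      have e1 : q.1 = K.x := hq.1
      have e2 : q'.1 = K.x := hq'.1
      rw [e1, e2, sub_self, abs_zero]
      exact hρpos.le
    · have hs := hsmall x hx Q hQ hQx
      refine ⟨?_, ?_⟩
      · rcases hcomb x hx.2 Q hQ hQx (hs.trans_le hρρ0) with h1 | h1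
        · exact absurd h1 (hnO x hx)
        · exact h1
      · intro q hq q' hq'
        obtain ⟨a1, a2⟩ := width hP (hgE x hx) hQ hQx hq
        obtain ⟨b1, b2⟩ := width hP (hgE x hx) hQ hQx hq'
        rw [abs_le]
        constructor <;> linarith
  have hgr : ∀ x ∈ g, ∀ R ⊆ cc E x, Lev Eᶜ Prod.snd R → ∀ β, OscLe Eᶜ R r β →
      OscLe Eᶜ R φ₂ (β + 2 * t) := by
    intro x hx R hR hRl β hβ
    exact (hgr₂ x (hgE x hx) (hnF₂ x hx) R hR hRl _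
      (hgr₁ x (hgE x hx) (hnF₁ x hx) R hR hRl β hβ)).mono (by linarith)
  have hport : ∀ x ∈ g, ∀ s, OscLe Eᶜ (cc E x ∩ {y | s ≤ y.2 ∧ y.2 ≤ s + 2 * dm}) φ₂
      (d / 100) := by
    intro x hx s
    obtain ⟨hG, hw⟩ := hgeo x hx
    have h1 := osc_good (V := Eᶜ) hL hsl (isCompact_cc hP.q.cpt x) hG
      (R := cc E x ∩ {y | s ≤ y.2 ∧ y.2 ≤ s + 2 * dm}) inter_subset_left (d := 2 * dm) (by
        rintro p ⟨hp, hp1, hp2⟩ p' ⟨hp', hp1', hp2'⟩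
        rw [Prod.dist_eq, Real.dist_eq, Real.dist_eq, max_le_iff]
        refine ⟨(hw p hp p' hp').trans (by linarith), ?_⟩
        rw [abs_le]
        constructor <;> linarith)
    exact (hgr x hx _ inter_subset_left (hlevI x (Icc s (s + 2 * dm)) ordConnected_Icc) _ h1).mono
      (by linarith)
  have hslice : ∀ x ∈ g, ∀ s, OscLe Eᶜ (cc E x ∩ {y | y.2 = s}) φ₂ (d / (1000 * m)) := by
    intro x hx s
    obtain ⟨hG, hw⟩ := hgeo x hx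
    have e0 : (cc E x ∩ {y : ℝ × ℝ | y.2 = s}) = cc E x ∩ Prod.snd ⁻¹' (Icc s s) := by
      ext y
      simp only [mem_inter_iff, mem_ofPred_eq, mem_preimage, Icc_self, mem_singleton_iff]
    rw [e0]
    have h1 := osc_good (V := Eᶜ) hL hsl (isCompact_cc hP.q.cpt x) hG
      (R := cc E x ∩ Prod.snd ⁻¹' (Icc s s)) inter_subset_left (d := ρ) (by
        rintro p ⟨hp, hp1⟩ p' ⟨hp', hp1'⟩
        have e1 : p.2 = s := le_antisymm hp1.2 hp1.1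
        have e2 : p'.2 = s := le_antisymm hp1'.2 hp1'.1
        rw [Prod.dist_eq, Real.dist_eq, Real.dist_eq, max_le_iff]
        refine ⟨hw p hp p' hp', ?_⟩
        rw [e1, e2, sub_self, abs_zero]
        exact hρpos.le)
    exact (hgr x hx _ inter_subset_left (hlevI x (Icc s s) ordConnected_Icc) _ h1).mono
      (by linarith)
  -- neighbourhoods of the members
  have hO : ∀ x, x ∈ g → ∃ O, (IsOpen O ∧ cc E x ⊆ O) ∧ O ⊆ W₀ ∧ ∀ q ∈ O ∩ Eᶜ, ∀ q' ∈ O ∩ Eᶜ,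
      |φ₂ q - φ₂ q'| ≤ 2 * d + 3 * t := by
    intro x hx
    obtain ⟨O, hO, hxO, H⟩ := hc₂ x hx.2 t ht0
    refine ⟨O ∩ W₀, ⟨hO.inter hW₀o, subset_inter hxO ((hsat x hx.2).trans hEW₀)⟩,
      inter_subset_right, fun q hq q' hq' => (H q ⟨hq.1.1, hq.2⟩ q' ⟨hq'.1.1, hq'.2⟩).trans ?_⟩
    linarith
  choose! O hO hOW hOH using hO
  obtain ⟨R, hR⟩ := hD₂.2.2.1.2.2
  have hR0 : 0 ≤ R := (abs_nonneg _).trans (hR (0, 0))
  obtain ⟨φ₃, -, -, hD₃, hfl₃, hhull, -⟩ := step_bQ (hS ρ hρpos) hPart hD₂.2.2.1 hR0 hR hd hgHr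
    hdm0 hρdm hmN hcov hport hslice (O := O) hO (ε := κ / 3) (by positivity)
  -- conclusion
  have hd₃ : ∀ q ∈ Eᶜ, |φ₃ q - φ₂ q| ≤ 2 * d + 3 * t := by
    intro q hq
    rcases hhull q with h1 | ⟨x, hx, hqO, H⟩
    · rw [h1, sub_self, abs_zero]; positivity
    · have h2 := H (φ₂ q - (2 * d + 3 * t)) (φ₂ q + (2 * d + 3 * t)) (fun q' hq' => by
        have := abs_le.1 (hOH x hx q' hq' q ⟨hqO, hq⟩)
        exact ⟨by linarith [this.1], by linarith [this.2]⟩)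
        ⟨by linarith, by linarith⟩
      rw [abs_le]
      exact ⟨by linarith [h2.1], by linarith [h2.2]⟩
  have hoff₃ : ∀ q ∉ cthickening δ E', φ₃ q = r q := by
    intro q hq
    have hqW : q ∉ W₀ := fun h => hq (hW₀T h)
    have h3 : φ₃ q = φ₂ q := by
      rcases hhull q with h1 | ⟨x, hx, hqO, _⟩
      · exact h1
      · exact absurd (hOW x hx hqO) hqW
    rw [h3, hoff₂ q fun h => hqW (hS₂W h), hoff₁ q fun h => hqW (hS₁W h)]
  have hD : DQ E 𝒬 𝓗 r φ₃ κ := by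
    have := (hD₁.trans hP.q hD₂).trans hP.q hD₃
    have e : κ / 3 + κ / 3 + κ / 3 = κ := by ring
    rwa [e] at this
  obtain ⟨φ, h1, h2, h3, h4, h5⟩ := increment hP (A := 20 * d) (by positivity) hD (fun q hq => by
    have a1 := abs_le.1 (hd₁ q hq)
    have a2 := abs_le.1 (hd₂ q hq)
    have a3 := abs_le.1 (hd₃ q hq)
    rw [abs_le]
    constructor <;> linarith [a1.1, a1.2, a2.1, a2.2, a3.1, a3.2]) hTc hδW hoff₃
  refine ⟨φ, h1, h2, h3, h4, ?_⟩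
  rintro P ⟨x, hx, rfl⟩ hPE'
  have hxE' : x ∈ E' := hPE' (mem_connectedComponentIn hx)
  exact ((hfl₃ x hxE').congr isOpen_univ (subset_univ _) fun q hq => h5 q hq.2).mono (by linarith)

end Crest.Agent.R105.Spq_722
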