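import Crest.Agent.R105.Spq6_722
import Crest.Agent.R105.Adp2_891

/-!
Row 105 (S0138, picture with solids), task 2456: **STEPQ** (`SkT1_137.STEPQ 20 (1/10)`).
-/

set_option autoImplicit false

open Set Filter Topology Metric MeasureTheory

namespace Crest.Agent.R105.Spq_722

/-- **STEPQ** : the halving step of a picture with solids. -/
theorem stepQ : SkT1_137.STEPQ 20 (1 / 10) := fun _ _ _ hP hS hF =>
  stepQ_of hP (fun x hx hpt => Adp_891.treat_any hP hS hF ⟨x, hx, rfl⟩ hpt)
    (fun _ hρ => Adp_891.setup_any hP hF hρ)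

end Crest.Agent.R105.Spq_722
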