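import Crest.Agent.R105.CF6_363

/-! Row 105, S0138, exact squares: Green's formula on a square for a Lipschitz function without
boundary condition.  `|∫_Q (v_y e_x - v_x e_y)| ≤ ½ osc_Q e · liminf (1/ε) ∫_{annulus} |v_y g_x - v_x g_y|`
where `g` is the gauge of `Q`. -/

open MeasureTheory Set Filter Topology

namespace Crest.Agent.R105.Sq_87

open Crest.Agent.R105.CF_363

/-- `1` for `t ≤ α`, `0` for `β ≤ t` -/
noncomputable def rmp (α β t : ℝ) : ℝ := max 0 (min 1 ((β - t) / (β - α)))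

theorem rmp_nonneg (α β t : ℝ) : 0 ≤ rmp α β t := le_max_left _ _

theorem rmp_le_one (α β t : ℝ) : rmp α β t ≤ 1 := max_le zero_le_one (min_le_left _ _)

theorem rmp_one {α β t : ℝ} (h : α < β) (ht : t ≤ α) : rmp α β t = 1 := by
  have : 1 ≤ (β - t) / (β - α) := by rw [le_div_iff₀ (by linarith)]; linarith
  rw [rmp, min_eq_left this]; exact max_eq_right zero_le_one

theorem rmp_zero {α β t : ℝ} (h : α < β) (ht : β ≤ t) : rmp α β t = 0 := by
  have : (β - t) / (β - α) ≤ 0 := div_nonpos_of_nonpos_of_nonneg (by linarith) (by linarith)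
  rw [rmp, min_eq_right (this.trans zero_le_one)]; exact max_eq_left this

theorem rmp_mid {α β t : ℝ} (h : α < β) (h1 : α ≤ t) (h2 : t ≤ β) :
    rmp α β t = (β - t) / (β - α) := by
  have h3 : 0 ≤ (β - t) / (β - α) := div_nonneg (by linarith) (by linarith)
  have h4 : (β - t) / (β - α) ≤ 1 := by rw [div_le_one (by linarith)]; linarith
  rw [rmp, min_eq_right h4, max_eq_right h3]

theorem rmp_lip {α β : ℝ} (h : α < β) (s t : ℝ) :
    |rmp α β s - rmp α β t| ≤ (β - α)⁻¹ * |s - t| := by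
  have e : (β - s) / (β - α) - (β - t) / (β - α) = (β - α)⁻¹ * (t - s) := by
    field_simp; ring
  have h0 : 0 < (β - α)⁻¹ := inv_pos.mpr (by linarith)
  calc |rmp α β s - rmp α β t| ≤ |min 1 ((β - s) / (β - α)) - min 1 ((β - t) / (β - α))| :=
        abs_max_sub_max_le_abs _ _ 0 |>.trans_eq' (by unfold rmp; rw [max_comm 0, max_comm 0])
    _ ≤ |(β - s) / (β - α) - (β - t) / (β - α)| := by
        rw [min_comm 1, min_comm 1]
        exact abs_min_sub_min_le_max _ _ _ _ |>.trans (by simp)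
    _ = (β - α)⁻¹ * |s - t| := by
        rw [e, abs_mul, abs_of_pos h0, abs_sub_comm]

/-- product rule on a line, the Lipschitz factor vanishing at both ends -/
theorem prod_line {α β : ℝ} (hab : α ≤ β) {f w ζ ζ' : ℝ → ℝ}
    (hw : IntervalIntegrable w volume α β)
    (hf : ∀ x ∈ Ioo α β, ∀ x' ∈ Ioo α β, x ≤ x' → f x' - f x = ∫ t in x..x', w t)
    (hζ : AbsolutelyContinuousOnInterval ζ α β)
    (hd : ∀ᵐ t, t ∈ uIcc α β → HasDerivAt ζ (ζ' t) t)
    (hα : ζ α = 0) (hβ : ζ β = 0) :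
    (∀ x ∈ Ioo α β, ∫ t in α..x, (ζ t * w t + ζ' t * f t) = ζ x * f x) ∧
      ∫ t in α..β, (ζ t * w t + ζ' t * f t) = 0 := by
  rcases eq_or_lt_of_le hab with h | h
  · subst h
    exact ⟨fun x hx => absurd hx (by simp), by simp⟩
  set m := (α + β) / 2 with hm
  have hmI : m ∈ Ioo α β := ⟨by rw [hm]; linarith, by rw [hm]; linarith⟩
  set F : ℝ → ℝ := fun x => f m + ∫ t in m..x, w t with hF
  have hmu : m ∈ uIcc α β := by rw [uIcc_of_le hab]; exact ⟨hmI.1.le, hmI.2.le⟩
  have hint : ∀ x ∈ Icc α β, ∀ x' ∈ Icc α β, IntervalIntegrable w volume x x' := by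
    intro x hx x' hx'
    apply hw.mono_set
    rw [uIcc_of_le hab]
    exact uIcc_subset_Icc hx hx'
  have hFf : ∀ x ∈ Ioo α β, F x = f x := by
    intro x hx
    simp only [hF]
    rcases le_total m x with h1 | h1
    · rw [← hf m hmI x hx h1]; ring
    · rw [intervalIntegral.integral_symm, ← hf x hx m hmI h1]; ring
  have hFac0 : AbsolutelyContinuousOnInterval (fun x => ∫ t in m..x, w t) α β :=
    hw.absolutelyContinuousOnInterval_intervalIntegral hmu
  have hFac : AbsolutelyContinuousOnInterval F α β := by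
    have h1 : AbsolutelyContinuousOnInterval (fun _ : ℝ => f m) α β := by
      exact (LipschitzWith.const (f m)).lipschitzOnWith.absolutelyContinuousOnInterval
    exact h1.add hFac0
  have hFd : ∀ᵐ t, t ∈ uIcc α β → HasDerivAt F (w t) t := by
    filter_upwards [hw.ae_hasDerivAt_integral] with t ht htI
    exact (ht htI m hmu).const_add (f m)
  have key : ∀ x ∈ Icc α β, ∫ t in α..x, (ζ t * w t + ζ' t * f t) = ζ x * F x := by
    intro x hx
    have hsub : uIcc α x ⊆ uIcc α β := by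
      rw [uIcc_of_le hab, uIcc_of_le hx.1]; exact Icc_subset_Icc_right hx.2
    have h1 := (hζ.mono hsub).integral_deriv_mul_eq_sub (hFac.mono hsub)
    rw [hα, zero_mul, sub_zero] at h1
    rw [← h1]
    apply intervalIntegral.integral_congr_ae
    have hne : ∀ᵐ t : ℝ, t ≠ β := by rw [ae_iff]; simp
    filter_upwards [hd, hFd, hne] with t h2 h3 h4 htI
    rw [uIoc_of_le hx.1] at htI
    have htu : t ∈ uIcc α β := by
      rw [uIcc_of_le hab]; exact ⟨htI.1.le, htI.2.trans hx.2⟩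
    have htO : t ∈ Ioo α β := ⟨htI.1, lt_of_le_of_ne (htI.2.trans hx.2) h4⟩
    rw [(h2 htu).deriv, (h3 htu).deriv, hFf t htO]
    ring
  refine ⟨fun x hx => ?_, ?_⟩
  · rw [key x ⟨hx.1.le, hx.2.le⟩, hFf x hx]
  · rw [key β ⟨hab, le_refl _⟩, hβ, zero_mul]

/-- absolutely continuous on a.e. line of a rectangle; `V1`, `V2` = horizontal, vertical version -/
structure ACL (a b c d : ℝ) (w1 w2 V1 V2 : ℝ × ℝ → ℝ) : Prop where
  m1 : Measurable w1
  mV : Measurable V1
  i1 : IntegrableOn w1 (Ioo a b ×ˢ Ioo c d)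
  i2 : IntegrableOn w2 (Ioo a b ×ˢ Ioo c d)
  iV : IntegrableOn V1 (Ioo a b ×ˢ Ioo c d)
  H : ∀ᵐ y, y ∈ Ioo c d → ∀ x ∈ Ioo a b, ∀ x' ∈ Ioo a b, x ≤ x' →
    V1 (x', y) - V1 (x, y) = ∫ s in x..x', w1 (s, y)
  V : ∀ᵐ x, x ∈ Ioo a b → ∀ y ∈ Ioo c d, ∀ y' ∈ Ioo c d, y ≤ y' →
    V2 (x, y') - V2 (x, y) = ∫ t in y..y', w2 (x, t)
  E : ∀ᵐ p : ℝ × ℝ, p ∈ Ioo a b ×ˢ Ioo c d → V1 p = V2 p

theorem ae_y_of_ae' {P : ℝ × ℝ → Prop} (h : ∀ᵐ p : ℝ × ℝ, P p) : ∀ᵐ y : ℝ, ∀ᵐ x : ℝ, P (x, y) :=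
  ae_swap h

theorem ae_snd' {Q : ℝ → Prop} (h : ∀ᵐ y : ℝ, Q y) : ∀ᵐ p : ℝ × ℝ, Q p.2 := by
  rw [Measure.volume_eq_prod]
  exact Measure.quasiMeasurePreserving_snd.ae h

theorem ae_fst' {Q : ℝ → Prop} (h : ∀ᵐ x : ℝ, Q x) : ∀ᵐ p : ℝ × ℝ, Q p.1 := by
  rw [Measure.volume_eq_prod]
  exact Measure.quasiMeasurePreserving_fst.ae h

/-- Green's formula for `φ` with compact support in the rectangle -/
theorem green_zero {a b c d L : ℝ} (hab : a ≤ b) (hcd : c ≤ d) (hL : 0 ≤ L)
    {w1 w2 V1 V2 : ℝ × ℝ → ℝ} (A : ACL a b c d w1 w2 V1 V2)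
    {g : ℝ × ℝ → ℝ} {G : ℝ} (hG : 0 ≤ G) (hg : ∀ p q : ℝ × ℝ, |g p - g q| ≤ G * dist p q)
    (hbd : ∀ p : ℝ × ℝ, (p.1 = a ∨ p.1 = b ∨ p.2 = c ∨ p.2 = d) → 1 ≤ g p)
    {φ : ℝ × ℝ → ℝ} (hφ : ∀ p q : ℝ × ℝ, |φ p - φ q| ≤ L * dist p q)
    {ε : ℝ} (hε : 0 < ε) (hφ0 : ∀ p, 1 - ε ≤ g p → φ p = 0) :
    ∫ p in Ioo a b ×ˢ Ioo c d, (w2 p * gx φ p - w1 p * gy φ p) = 0 := by
  set R : Set (ℝ × ℝ) := Ioo a b ×ˢ Ioo c d with hR
  set ζ : ℝ × ℝ → ℝ := fun p => rmp (1 - ε / 2) 1 (g p) with hζ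
  have hlt : 1 - ε / 2 < 1 := by linarith
  have hζl : ∀ p q : ℝ × ℝ, |ζ p - ζ q| ≤ ((ε / 2)⁻¹ * G) * dist p q := by
    intro p q
    have h1 := rmp_lip hlt (g p) (g q)
    rw [show 1 - (1 - ε / 2) = ε / 2 by ring] at h1
    refine h1.trans ?_
    rw [mul_assoc]
    exact mul_le_mul_of_nonneg_left (hg p q) (by positivity)
  have hK0 : 0 ≤ (ε / 2)⁻¹ * G := by positivity
  have hζSL : SL univ ((ε / 2)⁻¹ * G) ζ := fun p q _ => hζl p q
  have hφSL : SL univ L φ := fun p q _ => hφ p q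
  have hζb : ∀ p, |ζ p| ≤ 1 := fun p => abs_le.mpr ⟨by linarith [rmp_nonneg (1 - ε / 2) 1 (g p)],
    rmp_le_one _ _ _⟩
  have hgc : Continuous g := continuous_iff_continuousAt.mpr fun p =>
    (show SL univ G g from fun p q _ => hg p q).continuousAt isOpen_univ (mem_univ p)
  have hζc : Continuous ζ := continuous_iff_continuousAt.mpr fun p =>
    hζSL.continuousAt isOpen_univ (mem_univ p)
  have hζx : ∀ p, |gx ζ p| ≤ (ε / 2)⁻¹ * G := fun p => hζSL.abs_gx_le isOpen_univ hK0 (mem_univ p)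
  have hζy : ∀ p, |gy ζ p| ≤ (ε / 2)⁻¹ * G := fun p => hζSL.abs_gy_le isOpen_univ hK0 (mem_univ p)
  have hζ0 : ∀ p : ℝ × ℝ, (p.1 = a ∨ p.1 = b ∨ p.2 = c ∨ p.2 = d) → ζ p = 0 := fun p hp =>
    rmp_zero hlt (hbd p hp)
  set W1 : ℝ × ℝ → ℝ := fun p => ζ p * w1 p + gx ζ p * V1 p with hW1
  set W2 : ℝ × ℝ → ℝ := fun p => ζ p * w2 p + gy ζ p * V2 p with hW2
  have hW1m : Measurable W1 :=
    (hζc.measurable.mul A.m1).add ((measurable_gx ζ).mul A.mV)
  have iV2 : IntegrableOn V2 R := by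
    refine A.iV.congr ?_
    rw [EventuallyEq, ae_restrict_iff' (measurableSet_Ioo.prod measurableSet_Ioo)]
    exact A.E
  have hW1i : IntegrableOn W1 R := by
    have e1 : IntegrableOn (fun p => ζ p * w1 p) R :=
      A.i1.bdd_mul (c := 1) hζc.measurable.aestronglyMeasurable (Eventually.of_forall fun p => by
        rw [Real.norm_eq_abs]; exact hζb p)
    have e2 : IntegrableOn (fun p => gx ζ p * V1 p) R :=
      A.iV.bdd_mul (c := (ε / 2)⁻¹ * G) (measurable_gx ζ).aestronglyMeasurable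
        (Eventually.of_forall fun p => by rw [Real.norm_eq_abs]; exact hζx p)
    exact e1.add e2
  have hW2i : IntegrableOn W2 R := by
    have e1 : IntegrableOn (fun p => ζ p * w2 p) R :=
      A.i2.bdd_mul (c := 1) hζc.measurable.aestronglyMeasurable (Eventually.of_forall fun p => by
        rw [Real.norm_eq_abs]; exact hζb p)
    have e2 : IntegrableOn (fun p => gy ζ p * V2 p) R :=
      iV2.bdd_mul (c := (ε / 2)⁻¹ * G) (measurable_gy ζ).aestronglyMeasurable
        (Eventually.of_forall fun p => by rw [Real.norm_eq_abs]; exact hζy p)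
    exact e1.add e2
  have hdiff : ∀ᵐ p : ℝ × ℝ, DifferentiableAt ℝ ζ p := by
    filter_upwards [hζSL.ae_differentiableAt (μ := volume) isOpen_univ] with p hp
    exact hp (mem_univ p)
  -- horizontal lines
  have hH : ∀ᵐ y, y ∈ Ioo c d → (∀ x ∈ Ioo a b, ∫ s in a..x, W1 (s, y) = ζ (x, y) * V1 (x, y)) ∧
      ∫ s in a..b, W1 (s, y) = 0 := by
    have hsec : ∀ᵐ y, y ∈ Ioo c d → IntegrableOn (fun x => w1 (x, y)) (Ioo a b) := by
      have h1 := A.i1
      unfold IntegrableOn at h1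
      rw [volume_restrict_rect] at h1
      have h2 := h1.prod_left_ae
      rw [ae_restrict_iff' measurableSet_Ioo] at h2
      exact h2
    filter_upwards [A.H, hsec, ae_y_of_ae' hdiff] with y h1 h2 h3 hy
    have hii : IntervalIntegrable (fun x => w1 (x, y)) volume a b := by
      rw [intervalIntegrable_iff_integrableOn_Ioo_of_le hab]; exact h2 hy
    have hlip : LipschitzWith (Real.toNNReal ((ε / 2)⁻¹ * G)) (fun x => ζ (x, y)) := by
      refine LipschitzWith.of_dist_le_mul fun x x' => ?_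
      rw [Real.dist_eq, Real.coe_toNNReal _ hK0]
      have := hζl (x, y) (x', y)
      rwa [show dist ((x, y) : ℝ × ℝ) (x', y) = dist x x' by simp [Prod.dist_eq]] at this
    exact prod_line hab hii (h1 hy) (hlip.lipschitzOnWith).absolutelyContinuousOnInterval
      (by filter_upwards [h3] with x hx _ using gx_eq_deriv hx)
      (hζ0 (a, y) (Or.inl rfl)) (hζ0 (b, y) (Or.inr (Or.inl rfl)))
  have hV : ∀ᵐ x, x ∈ Ioo a b → (∀ y ∈ Ioo c d, ∫ t in c..y, W2 (x, t) = ζ (x, y) * V2 (x, y)) ∧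
      ∫ t in c..d, W2 (x, t) = 0 := by
    have hsec : ∀ᵐ x, x ∈ Ioo a b → IntegrableOn (fun y => w2 (x, y)) (Ioo c d) := by
      have h1 := A.i2
      unfold IntegrableOn at h1
      rw [volume_restrict_rect] at h1
      have h2 := h1.prod_right_ae
      rw [ae_restrict_iff' measurableSet_Ioo] at h2
      exact h2
    filter_upwards [A.V, hsec, ae_unswap hdiff] with x h1 h2 h3 hx
    have hii : IntervalIntegrable (fun y => w2 (x, y)) volume c d := by
      rw [intervalIntegrable_iff_integrableOn_Ioo_of_le hcd]; exact h2 hx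
    have hlip : LipschitzWith (Real.toNNReal ((ε / 2)⁻¹ * G)) (fun y => ζ (x, y)) := by
      refine LipschitzWith.of_dist_le_mul fun y y' => ?_
      rw [Real.dist_eq, Real.coe_toNNReal _ hK0]
      have := hζl (x, y) (x, y')
      rwa [show dist ((x, y) : ℝ × ℝ) (x, y') = dist y y' by simp [Prod.dist_eq]] at this
    exact prod_line hcd hii (h1 hx) (hlip.lipschitzOnWith).absolutelyContinuousOnInterval
      (by filter_upwards [h3] with y hy _ using gy_eq_deriv hy)
      (hζ0 (x, c) (Or.inr (Or.inr (Or.inl rfl)))) (hζ0 (x, d) (Or.inr (Or.inr (Or.inr rfl))))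
  have green := green_core hab hcd hL hW1m hW1i hW2i
    (by filter_upwards [hH] with y hy hyI using (hy hyI).2)
    (by filter_upwards [hV] with x hx hxI using (hx hxI).2)
    (by
      filter_upwards [ae_snd' hH, ae_fst' hV, A.E] with p h1 h2 h3 hp
      rw [(h1 hp.2).1 p.1 hp.1, (h2 hp.1).1 p.2 hp.2,
        show ((p.1, p.2) : ℝ × ℝ) = p from rfl, h3 hp]) hφ
  -- pointwise identities
  have hpt : ∀ p, W2 p * gx φ p - W1 p * gy φ p = w2 p * gx φ p - w1 p * gy φ p := by
    intro p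
    rcases lt_or_ge (g p) (1 - ε / 2) with h | h
    · have hev : ∀ᶠ q in 𝓝 p, ζ q = (fun _ => (1 : ℝ)) q := by
        filter_upwards [hgc.continuousAt.eventually (gt_mem_nhds h)] with q hq
        exact rmp_one hlt hq.le
      have hx : gx ζ p = 0 := by rw [gx_congr hev]; exact gx_const _ _
      have hy : gy ζ p = 0 := by rw [gy_congr hev]; exact gy_const _ _
      have h1 : ζ p = 1 := rmp_one hlt h.le
      simp only [hW1, hW2, hx, hy, h1]; ring
    · have hlt' : 1 - ε < g p := by linarith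
      have hev : ∀ᶠ q in 𝓝 p, φ q = (fun _ => (0 : ℝ)) q := by
        filter_upwards [hgc.continuousAt.eventually (lt_mem_nhds hlt')] with q hq
        exact hφ0 q (le_of_lt hq)
      have hx : gx φ p = 0 := by rw [gx_congr hev]; exact gx_const _ _
      have hy : gy φ p = 0 := by rw [gy_congr hev]; exact gy_const _ _
      rw [hx, hy]; ring
  have hφx : ∀ p, |gx φ p| ≤ L := fun p => hφSL.abs_gx_le isOpen_univ hL (mem_univ p)
  have hφy : ∀ p, |gy φ p| ≤ L := fun p => hφSL.abs_gy_le isOpen_univ hL (mem_univ p)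
  have j1 : IntegrableOn (fun p => W2 p * gx φ p) R :=
    hW2i.mul_bdd (c := L) (measurable_gx φ).aestronglyMeasurable
      (Eventually.of_forall fun p => by rw [Real.norm_eq_abs]; exact hφx p)
  have j2 : IntegrableOn (fun p => W1 p * gy φ p) R :=
    hW1i.mul_bdd (c := L) (measurable_gy φ).aestronglyMeasurable
      (Eventually.of_forall fun p => by rw [Real.norm_eq_abs]; exact hφy p)
  calc ∫ p in R, (w2 p * gx φ p - w1 p * gy φ p)
      = ∫ p in R, (W2 p * gx φ p - W1 p * gy φ p) := by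
        congr 1; ext p; exact (hpt p).symm
    _ = 0 := by rw [integral_sub j1 j2, green, sub_self]

/-- the a.e. derivative of the ramp of a Lipschitz function -/
theorem gx_rmp {g : ℝ × ℝ → ℝ} {α β : ℝ} (h : α < β) {p : ℝ × ℝ} (hg : DifferentiableAt ℝ g p) :
    gx (fun q => rmp α β (g q)) p = -(if α < g p ∧ g p < β then (β - α)⁻¹ * gx g p else 0) ∧
    gy (fun q => rmp α β (g q)) p = -(if α < g p ∧ g p < β then (β - α)⁻¹ * gy g p else 0) := by
  have hgc : ContinuousAt g p := hg.continuousAt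
  split_ifs with hc
  · have hev : ∀ᶠ q in 𝓝 p, rmp α β (g q) = (β - g q) / (β - α) := by
      filter_upwards [hgc.eventually (lt_mem_nhds hc.1), hgc.eventually (gt_mem_nhds hc.2)]
        with q h1 h2
      exact rmp_mid h h1.le h2.le
    have hd : HasFDerivAt (fun q => (β - g q) / (β - α)) (-((β - α)⁻¹ • fderiv ℝ g p)) p := by
      have h1 := (hg.hasFDerivAt.const_sub β).const_mul ((β - α)⁻¹)
      have e1 : (fun q => (β - g q) / (β - α)) = fun q => (β - α)⁻¹ * (β - g q) := by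
        ext q; rw [div_eq_inv_mul]
      rw [e1]
      have e2 : -((β - α)⁻¹ • fderiv ℝ g p) = (β - α)⁻¹ • (-fderiv ℝ g p) := by simp
      rw [e2]; exact h1
    constructor
    · rw [gx_congr hev, gx, hd.fderiv]; simp [gx]
    · rw [gy_congr hev, gy, hd.fderiv]; simp [gy]
  · -- local extremum: derivative zero
    have hz : fderiv ℝ (fun q => rmp α β (g q)) p = 0 := by
      rcases not_and_or.mp hc with h1 | h1
      · have : IsLocalMax (fun q => rmp α β (g q)) p := by
          filter_upwards with q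
          show rmp α β (g q) ≤ rmp α β (g p)
          rw [rmp_one h (not_lt.mp h1)]; exact rmp_le_one _ _ _
        exact this.fderiv_eq_zero
      · have : IsLocalMin (fun q => rmp α β (g q)) p := by
          filter_upwards with q
          show rmp α β (g p) ≤ rmp α β (g q)
          rw [rmp_zero h (not_lt.mp h1)]; exact rmp_nonneg _ _ _
        exact this.fderiv_eq_zero
    constructor <;> simp [gx, gy, hz]

/-- the density of the flux through the level lines of the gauge -/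
noncomputable def dn (g w1 w2 : ℝ × ℝ → ℝ) (p : ℝ × ℝ) : ℝ := w2 p * gx g p - w1 p * gy g p

/-- the annulus -/
def ann (g : ℝ × ℝ → ℝ) (ε : ℝ) : Set (ℝ × ℝ) := {p | 1 - 2 * ε < g p ∧ g p < 1 - ε}

theorem measurableSet_ann {g : ℝ × ℝ → ℝ} (hg : Measurable g) (ε : ℝ) : MeasurableSet (ann g ε) :=
  (measurableSet_lt measurable_const hg).inter (measurableSet_lt hg measurable_const)

theorem integrableOn_dn {R : Set (ℝ × ℝ)} {g w1 w2 : ℝ × ℝ → ℝ} {G : ℝ} (hG : 0 ≤ G)
    (hg : ∀ p q : ℝ × ℝ, |g p - g q| ≤ G * dist p q) (i1 : IntegrableOn w1 R)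
    (i2 : IntegrableOn w2 R) : IntegrableOn (dn g w1 w2) R := by
  have hSL : SL univ G g := fun p q _ => hg p q
  have e1 : IntegrableOn (fun p => w2 p * gx g p) R :=
    i2.mul_bdd (c := G) (measurable_gx g).aestronglyMeasurable
      (Eventually.of_forall fun p => by
        rw [Real.norm_eq_abs]; exact hSL.abs_gx_le isOpen_univ hG (mem_univ p))
  have e2 : IntegrableOn (fun p => w1 p * gy g p) R :=
    i1.mul_bdd (c := G) (measurable_gy g).aestronglyMeasurable
      (Eventually.of_forall fun p => by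
        rw [Real.norm_eq_abs]; exact hSL.abs_gy_le isOpen_univ hG (mem_univ p))
  exact e1.sub e2

/-- **(SQ), before the limit** -/
theorem sq_eps {a b c d L : ℝ} (hab : a ≤ b) (hcd : c ≤ d) (hL : 0 ≤ L)
    {w1 w2 V1 V2 : ℝ × ℝ → ℝ} (A : ACL a b c d w1 w2 V1 V2)
    {g : ℝ × ℝ → ℝ} {G : ℝ} (hG : 0 ≤ G) (hg : ∀ p q : ℝ × ℝ, |g p - g q| ≤ G * dist p q)
    (hbd : ∀ p : ℝ × ℝ, (p.1 = a ∨ p.1 = b ∨ p.2 = c ∨ p.2 = d) → 1 ≤ g p)
    (hsub : ∀ p, g p < 1 → p ∈ Ioo a b ×ˢ Ioo c d)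
    {e : ℝ × ℝ → ℝ} (he : ∀ p q : ℝ × ℝ, |e p - e q| ≤ L * dist p q)
    {k D : ℝ} (hD : 0 ≤ D) (hk : ∀ p ∈ Ioo a b ×ˢ Ioo c d, |e p - k| ≤ D)
    {ε : ℝ} (hε : 0 < ε) :
    |∫ p in Ioo a b ×ˢ Ioo c d, rmp (1 - 2 * ε) (1 - ε) (g p) * (w2 p * gx e p - w1 p * gy e p)| ≤
      D * (ε⁻¹ * ∫ p in (Ioo a b ×ˢ Ioo c d) ∩ ann g ε, |dn g w1 w2 p|) := by
  set R : Set (ℝ × ℝ) := Ioo a b ×ˢ Ioo c d with hR
  set η : ℝ × ℝ → ℝ := fun p => rmp (1 - 2 * ε) (1 - ε) (g p) with hη
  have hlt : 1 - 2 * ε < 1 - ε := by linarith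
  have hinv : (1 - ε - (1 - 2 * ε))⁻¹ = ε⁻¹ := by congr 1; ring
  have hε' : 0 < ε⁻¹ := inv_pos.mpr hε
  have hηl : ∀ p q : ℝ × ℝ, |η p - η q| ≤ (ε⁻¹ * G) * dist p q := by
    intro p q
    have h1 := rmp_lip hlt (g p) (g q)
    rw [hinv] at h1
    refine h1.trans ?_
    rw [mul_assoc]
    exact mul_le_mul_of_nonneg_left (hg p q) hε'.le
  have hη0 : ∀ p, 1 - ε ≤ g p → η p = 0 := fun p hp => rmp_zero hlt hp
  have hηR : ∀ p, p ∉ R → η p = 0 := by
    intro p hp
    apply hη0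
    by_contra hcon
    push Not at hcon
    exact hp (hsub p (by linarith))
  have hηb : ∀ p, |η p| ≤ 1 := fun p => abs_le.mpr
    ⟨by linarith [rmp_nonneg (1 - 2 * ε) (1 - ε) (g p)], rmp_le_one _ _ _⟩
  have hK0 : 0 ≤ ε⁻¹ * G := by positivity
  set φ : ℝ × ℝ → ℝ := fun p => η p * (e p - k) with hφ
  have hC : 0 ≤ ε⁻¹ * G * D + L := by positivity
  have hφl : ∀ p q : ℝ × ℝ, |φ p - φ q| ≤ (ε⁻¹ * G * D + L) * dist p q := by
    have key : ∀ p q : ℝ × ℝ, p ∈ R → |φ p - φ q| ≤ (ε⁻¹ * G * D + L) * dist p q := by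
      intro p q hp
      have e1 : φ p - φ q = (η p - η q) * (e p - k) + η q * (e p - e q) := by
        simp only [hφ]; ring
      rw [e1]
      have h1 : |(η p - η q) * (e p - k)| ≤ ε⁻¹ * G * dist p q * D := by
        rw [abs_mul]
        exact mul_le_mul (hηl p q) (hk p hp) (abs_nonneg _) (by positivity)
      have h2 : |η q * (e p - e q)| ≤ 1 * (L * dist p q) := by
        rw [abs_mul]
        exact mul_le_mul (hηb q) (he p q) (abs_nonneg _) zero_le_one
      refine (abs_add_le _ _).trans ?_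
      linarith
    intro p q
    by_cases hp : p ∈ R
    · exact key p q hp
    · by_cases hq : q ∈ R
      · rw [abs_sub_comm, dist_comm]; exact key q p hq
      · simp only [hφ, hηR p hp, hηR q hq, zero_mul, sub_self, abs_zero]
        positivity
  have h0 := green_zero hab hcd hC A hG hg hbd hφl hε (fun p hp => by
    simp only [hφ, hη0 p hp, zero_mul])
  have heSL : SL univ L e := fun p q _ => he p q
  have hgSL : SL univ G g := fun p q _ => hg p q
  have hηSL : SL univ (ε⁻¹ * G) η := fun p q _ => hηl p q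
  have hgc : Continuous g := continuous_iff_continuousAt.mpr fun p =>
    hgSL.continuousAt isOpen_univ (mem_univ p)
  have hec : Continuous e := continuous_iff_continuousAt.mpr fun p =>
    heSL.continuousAt isOpen_univ (mem_univ p)
  have hηc : Continuous η := continuous_iff_continuousAt.mpr fun p =>
    hηSL.continuousAt isOpen_univ (mem_univ p)
  have hmA : MeasurableSet (ann g ε) := measurableSet_ann hgc.measurable ε
  have hmR : MeasurableSet R := measurableSet_Ioo.prod measurableSet_Ioo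
  set T : ℝ × ℝ → ℝ := fun p => (ann g ε).indicator (fun p => (e p - k) * (ε⁻¹ * dn g w1 w2 p)) p
    with hT
  have hae : ∀ᵐ p : ℝ × ℝ, w2 p * gx φ p - w1 p * gy φ p =
      η p * (w2 p * gx e p - w1 p * gy e p) - T p := by
    filter_upwards [heSL.ae_differentiableAt (μ := volume) isOpen_univ,
      hgSL.ae_differentiableAt (μ := volume) isOpen_univ,
      hηSL.ae_differentiableAt (μ := volume) isOpen_univ] with p h1 h2 h3
    have d1 := h1 (mem_univ p)
    have d2 := h2 (mem_univ p)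
    have d3 := h3 (mem_univ p)
    have d4 : DifferentiableAt ℝ (fun q => e q - k) p := d1.sub_const k
    have k1 : gx (fun q => e q - k) p = gx e p := by simp [gx, fderiv_sub_const]
    have k2 : gy (fun q => e q - k) p = gy e p := by simp [gy, fderiv_sub_const]
    have m1 : gx φ p = η p * gx e p + (e p - k) * gx η p := by
      rw [← k1]; exact gx_mul d3 d4
    have m2 : gy φ p = η p * gy e p + (e p - k) * gy η p := by
      rw [← k2]; exact gy_mul d3 d4
    obtain ⟨r1, r2⟩ := gx_rmp hlt d2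
    rw [hinv] at r1 r2
    have r1' : gx η p = _ := r1
    have r2' : gy η p = _ := r2
    rw [m1, m2, r1', r2']
    by_cases hA : p ∈ ann g ε
    · have hA' : 1 - 2 * ε < g p ∧ g p < 1 - ε := hA
      simp only [hT, indicator_of_mem hA, if_pos hA', dn]; ring
    · have hA' : ¬ (1 - 2 * ε < g p ∧ g p < 1 - ε) := hA
      simp only [hT, indicator_of_notMem hA, if_neg hA']; ring
  have idn : IntegrableOn (dn g w1 w2) R := integrableOn_dn hG hg A.i1 A.i2
  have iT : IntegrableOn T R := by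
    have e1 : IntegrableOn (fun p => (e p - k) * (ε⁻¹ * dn g w1 w2 p)) R := by
      refine (idn.const_mul ε⁻¹).bdd_mul (c := D)
        (hec.sub continuous_const).aestronglyMeasurable ?_
      rw [ae_restrict_iff' hmR]
      filter_upwards with p hp
      rw [Real.norm_eq_abs]; exact hk p hp
    exact e1.indicator hmA
  have iE : IntegrableOn (fun p => η p * (w2 p * gx e p - w1 p * gy e p)) R := by
    have e1 : IntegrableOn (fun p => w2 p * gx e p) R :=
      A.i2.mul_bdd (c := L) (measurable_gx e).aestronglyMeasurable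
        (Eventually.of_forall fun p => by
          rw [Real.norm_eq_abs]; exact heSL.abs_gx_le isOpen_univ hL (mem_univ p))
    have e2 : IntegrableOn (fun p => w1 p * gy e p) R :=
      A.i1.mul_bdd (c := L) (measurable_gy e).aestronglyMeasurable
        (Eventually.of_forall fun p => by
          rw [Real.norm_eq_abs]; exact heSL.abs_gy_le isOpen_univ hL (mem_univ p))
    exact (e1.sub e2).bdd_mul (c := 1) hηc.aestronglyMeasurable
      (Eventually.of_forall fun p => by rw [Real.norm_eq_abs]; exact hηb p)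
  rw [integral_congr_ae (ae_restrict_of_ae hae), integral_sub iE iT, sub_eq_zero] at h0
  rw [h0]
  refine (abs_integral_le_integral_abs).trans ?_
  have hmaj : ∫ p in R, |T p| ≤ ∫ p in R, (ann g ε).indicator
      (fun p => D * (ε⁻¹ * |dn g w1 w2 p|)) p := by
    refine setIntegral_mono_on iT.abs
      (((idn.abs.const_mul ε⁻¹).const_mul D).indicator hmA) hmR ?_
    intro p hp
    by_cases hA : p ∈ ann g ε
    · simp only [hT, indicator_of_mem hA]
      rw [abs_mul, abs_mul, abs_of_pos hε']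
      exact mul_le_mul_of_nonneg_right (hk p hp) (by positivity)
    · simp only [hT, indicator_of_notMem hA, abs_zero]; exact le_refl _
  refine hmaj.trans (le_of_eq ?_)
  rw [setIntegral_indicator hmA, integral_const_mul, integral_const_mul]

/-- **(SQ)** -/
theorem sq_lim {a b c d L : ℝ} (hab : a ≤ b) (hcd : c ≤ d) (hL : 0 ≤ L)
    {w1 w2 V1 V2 : ℝ × ℝ → ℝ} (A : ACL a b c d w1 w2 V1 V2)
    {g : ℝ × ℝ → ℝ} {G : ℝ} (hG : 0 ≤ G) (hg : ∀ p q : ℝ × ℝ, |g p - g q| ≤ G * dist p q)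
    (hbd : ∀ p : ℝ × ℝ, (p.1 = a ∨ p.1 = b ∨ p.2 = c ∨ p.2 = d) → 1 ≤ g p)
    (hsub : ∀ p, g p < 1 ↔ p ∈ Ioo a b ×ˢ Ioo c d)
    {e : ℝ × ℝ → ℝ} (he : ∀ p q : ℝ × ℝ, |e p - e q| ≤ L * dist p q)
    {k D : ℝ} (hD : 0 ≤ D) (hk : ∀ p ∈ Ioo a b ×ˢ Ioo c d, |e p - k| ≤ D)
    {ε : ℕ → ℝ} (hε : ∀ n, 0 < ε n) (hε0 : Tendsto ε atTop (𝓝 0)) {F : ℝ}
    (hF : ∃ᶠ n in atTop, (ε n)⁻¹ * ∫ p in (Ioo a b ×ˢ Ioo c d) ∩ ann g (ε n), |dn g w1 w2 p| ≤ F) :
    |∫ p in Ioo a b ×ˢ Ioo c d, (w2 p * gx e p - w1 p * gy e p)| ≤ D * F := by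
  set R : Set (ℝ × ℝ) := Ioo a b ×ˢ Ioo c d with hR
  have hmR : MeasurableSet R := measurableSet_Ioo.prod measurableSet_Ioo
  have heSL : SL univ L e := fun p q _ => he p q
  have hgSL : SL univ G g := fun p q _ => hg p q
  have hgc : Continuous g := continuous_iff_continuousAt.mpr fun p =>
    hgSL.continuousAt isOpen_univ (mem_univ p)
  have iE : IntegrableOn (fun p => w2 p * gx e p - w1 p * gy e p) R := by
    have e1 : IntegrableOn (fun p => w2 p * gx e p) R :=
      A.i2.mul_bdd (c := L) (measurable_gx e).aestronglyMeasurable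
        (Eventually.of_forall fun p => by
          rw [Real.norm_eq_abs]; exact heSL.abs_gx_le isOpen_univ hL (mem_univ p))
    have e2 : IntegrableOn (fun p => w1 p * gy e p) R :=
      A.i1.mul_bdd (c := L) (measurable_gy e).aestronglyMeasurable
        (Eventually.of_forall fun p => by
          rw [Real.norm_eq_abs]; exact heSL.abs_gy_le isOpen_univ hL (mem_univ p))
    exact e1.sub e2
  have hlim : Tendsto (fun n => ∫ p in R, rmp (1 - 2 * ε n) (1 - ε n) (g p) *
      (w2 p * gx e p - w1 p * gy e p)) atTop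
      (𝓝 (∫ p in R, (w2 p * gx e p - w1 p * gy e p))) := by
    have hrc : ∀ n, Continuous fun p => rmp (1 - 2 * ε n) (1 - ε n) (g p) := by
      intro n
      unfold rmp
      fun_prop
    refine tendsto_integral_of_dominated_convergence
      (fun p => |w2 p * gx e p - w1 p * gy e p|)
      (fun n => (hrc n).aestronglyMeasurable.mul iE.aestronglyMeasurable) iE.abs
      (fun n => Eventually.of_forall fun p => ?_) ?_
    · rw [Real.norm_eq_abs, abs_mul, abs_of_nonneg (rmp_nonneg _ _ _)]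
      exact mul_le_of_le_one_left (abs_nonneg _) (rmp_le_one _ _ _)
    · rw [ae_restrict_iff' hmR]
      filter_upwards with p hp
      have hgp : g p < 1 := (hsub p).mpr hp
      have hev : ∀ᶠ n in atTop, rmp (1 - 2 * ε n) (1 - ε n) (g p) *
          (w2 p * gx e p - w1 p * gy e p) = w2 p * gx e p - w1 p * gy e p := by
        have h1 : ∀ᶠ n in atTop, ε n < (1 - g p) / 2 :=
          (tendsto_order.1 hε0).2 _ (by linarith)
        filter_upwards [h1] with n hn
        rw [rmp_one (by linarith [hε n]) (by linarith), one_mul]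
      exact tendsto_const_nhds.congr' (hev.mono fun n hn => hn.symm)
  have hfr : ∃ᶠ n in atTop, |∫ p in R, rmp (1 - 2 * ε n) (1 - ε n) (g p) *
      (w2 p * gx e p - w1 p * gy e p)| ≤ D * F := by
    refine hF.mono fun n hn => ?_
    exact (sq_eps hab hcd hL A hG hg hbd (fun p hp => (hsub p).mp hp) he hD hk (hε n)).trans
      (mul_le_mul_of_nonneg_left hn hD)
  by_contra hcon
  push Not at hcon
  have := (hlim.abs).eventually (lt_mem_nhds hcon)
  obtain ⟨n, h1, h2⟩ := (hfr.and_eventually this).exists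
  exact absurd h2 (not_lt.mpr h1)

end Crest.Agent.R105.Sq_87
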