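import Crest.Agent.R105.SqA_87
import Crest.Agent.R105.SqL_87

/-! Row 105, S0138, exact squares: rectangles, their gauges, and `(ψ - M)⁺` restricted to a good
rectangle as an absolutely continuous function on a.e. line of every square. -/

open MeasureTheory Set Filter Topology

namespace Crest.Agent.R105.Sq_87

open Crest.Agent.R105.Mp_87 (lam lam_mono Rc measurableSet_Rc restrict_Rc hline vline wx wy ae_swap
  ae_x_of_ae ae_y_of_ae ii_mono)
open Crest.Agent.R105.CF_363 (gx gy SL cut Hair measurable_gx measurable_gy)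

/-- countably many rectangles (the squares, or squares cut by the level) -/
structure Rects (ι : Type) where
  x : ι → ℝ
  y : ι → ℝ
  h1 : ι → ℝ
  h2 : ι → ℝ
  p1 : ∀ i, 0 < h1 i
  p2 : ∀ i, 0 < h2 i

variable {ι : Type}

/-- the open rectangle -/
def Rects.op (Q : Rects ι) (i : ι) : Set (ℝ × ℝ) :=
  Ioo (Q.x i - Q.h1 i) (Q.x i + Q.h1 i) ×ˢ Ioo (Q.y i - Q.h2 i) (Q.y i + Q.h2 i)

/-- the union of the open rectangles -/
def Rects.un (Q : Rects ι) : Set (ℝ × ℝ) := ⋃ i, Q.op i

/-- the gauge -/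
noncomputable def Rects.gau (Q : Rects ι) (i : ι) (p : ℝ × ℝ) : ℝ :=
  max (|p.1 - Q.x i| / Q.h1 i) (|p.2 - Q.y i| / Q.h2 i)

theorem Rects.isOpen_op (Q : Rects ι) (i : ι) : IsOpen (Q.op i) := isOpen_Ioo.prod isOpen_Ioo

theorem Rects.measurableSet_op (Q : Rects ι) (i : ι) : MeasurableSet (Q.op i) :=
  (Q.isOpen_op i).measurableSet

theorem Rects.isOpen_un (Q : Rects ι) : IsOpen Q.un := isOpen_iUnion fun i => Q.isOpen_op i

theorem Rects.measurableSet_un (Q : Rects ι) : MeasurableSet Q.un := Q.isOpen_un.measurableSet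

theorem Rects.gau_lip (Q : Rects ι) (i : ι) (p q : ℝ × ℝ) :
    |Q.gau i p - Q.gau i q| ≤ ((Q.h1 i)⁻¹ + (Q.h2 i)⁻¹) * dist p q := by
  have h1 := Q.p1 i
  have h2 := Q.p2 i
  unfold Rects.gau
  refine (abs_max_sub_max_le_max _ _ _ _).trans ?_
  have d1 : |p.1 - q.1| ≤ dist p q := by rw [Prod.dist_eq, ← Real.dist_eq]; exact le_max_left _ _
  have d2 : |p.2 - q.2| ≤ dist p q := by rw [Prod.dist_eq, ← Real.dist_eq]; exact le_max_right _ _
  have e1 : |(|p.1 - Q.x i| / Q.h1 i - |q.1 - Q.x i| / Q.h1 i)| ≤ (Q.h1 i)⁻¹ * dist p q := by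
    rw [← sub_div, abs_div, abs_of_pos h1, div_eq_inv_mul]
    apply mul_le_mul_of_nonneg_left _ (inv_pos.mpr h1).le
    refine (abs_abs_sub_abs_le _ _).trans ?_
    rw [sub_sub_sub_cancel_right]; exact d1
  have e2 : |(|p.2 - Q.y i| / Q.h2 i - |q.2 - Q.y i| / Q.h2 i)| ≤ (Q.h2 i)⁻¹ * dist p q := by
    rw [← sub_div, abs_div, abs_of_pos h2, div_eq_inv_mul]
    apply mul_le_mul_of_nonneg_left _ (inv_pos.mpr h2).le
    refine (abs_abs_sub_abs_le _ _).trans ?_
    rw [sub_sub_sub_cancel_right]; exact d2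
  have hd : 0 ≤ dist p q := dist_nonneg
  have i1 : 0 ≤ (Q.h1 i)⁻¹ * dist p q := by positivity
  have i2 : 0 ≤ (Q.h2 i)⁻¹ * dist p q := by positivity
  rw [add_mul]
  exact max_le (by linarith) (by linarith)

theorem Rects.gau_lt (Q : Rects ι) (i : ι) (p : ℝ × ℝ) : Q.gau i p < 1 ↔ p ∈ Q.op i := by
  have h1 := Q.p1 i
  have h2 := Q.p2 i
  unfold Rects.gau Rects.op
  rw [max_lt_iff, div_lt_one h1, div_lt_one h2, abs_lt, abs_lt, mem_prod, mem_Ioo, mem_Ioo]
  constructor
  · rintro ⟨⟨a, b⟩, c, d⟩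
    exact ⟨⟨by linarith, by linarith⟩, by linarith, by linarith⟩
  · rintro ⟨⟨a, b⟩, c, d⟩
    exact ⟨⟨by linarith, by linarith⟩, by linarith, by linarith⟩

theorem Rects.gau_bd (Q : Rects ι) (i : ι) (p : ℝ × ℝ)
    (hp : p.1 = Q.x i - Q.h1 i ∨ p.1 = Q.x i + Q.h1 i ∨ p.2 = Q.y i - Q.h2 i ∨
      p.2 = Q.y i + Q.h2 i) : 1 ≤ Q.gau i p := by
  by_contra hcon
  push Not at hcon
  rw [Q.gau_lt] at hcon
  obtain ⟨h1, h2⟩ := hcon
  rw [mem_Ioo] at h1 h2
  rcases hp with h | h | h | h <;> linarith [h1.1, h1.2, h2.1, h2.2]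

/-- restriction to an interval of a primitive vanishing at both ends -/
theorem ind_line {α β : ℝ} (hab : α ≤ β) {u v : ℝ → ℝ}
    (hv : ∀ x ∈ Icc α β, v x = ∫ t in α..x, u t) (hβ : v β = 0)
    (hu : IntervalIntegrable u volume α β) (x x' : ℝ) :
    (Ioo α β).indicator v x' - (Ioo α β).indicator v x =
      ∫ t in x..x', (Ioo α β).indicator u t := by
  have hint : ∀ y y', IntervalIntegrable ((Ioo α β).indicator u) volume y y' := by
    intro y y'
    have h1 : IntegrableOn u (Ioo α β) := by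
      rwa [intervalIntegrable_iff_integrableOn_Ioo_of_le hab] at hu
    have h2 : Integrable ((Ioo α β).indicator u) volume :=
      (integrable_indicator_iff measurableSet_Ioo).mpr h1
    exact h2.intervalIntegrable
  have key : ∀ x, (Ioo α β).indicator v x = ∫ t in α..x, (Ioo α β).indicator u t := by
    intro x
    have hin : ∀ y ∈ Icc α β, ∫ t in α..y, (Ioo α β).indicator u t = ∫ t in α..y, u t := by
      intro y hy
      apply intervalIntegral.integral_congr_ae
      have hne : ∀ᵐ t : ℝ, t ≠ β := by rw [ae_iff]; simp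
      filter_upwards [hne] with t ht hti
      rw [uIoc_of_le hy.1] at hti
      rw [indicator_of_mem]
      exact ⟨hti.1, lt_of_le_of_ne (hti.2.trans hy.2) ht⟩
    rcases le_or_gt x α with h1 | h1
    · rw [indicator_of_notMem (fun h => absurd h.1 (not_lt.mpr h1))]
      symm
      rw [intervalIntegral.integral_symm, neg_eq_zero]
      have : ∫ t in x..α, (Ioo α β).indicator u t = ∫ t in x..α, (0 : ℝ) := by
        apply intervalIntegral.integral_congr
        intro t ht
        rw [uIcc_of_le h1] at ht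
        exact indicator_of_notMem (fun h => absurd h.1 (not_lt.mpr ht.2)) _
      rw [this]; simp
    rcases lt_or_ge x β with h2 | h2
    · rw [indicator_of_mem (show x ∈ Ioo α β from ⟨h1, h2⟩), hv x ⟨h1.le, h2.le⟩,
        hin x ⟨h1.le, h2.le⟩]
    · rw [indicator_of_notMem (fun h => absurd h.2 (not_lt.mpr h2)),
        ← intervalIntegral.integral_add_adjacent_intervals (hint α β) (hint β x),
        hin β ⟨hab, le_refl _⟩, ← hv β ⟨hab, le_refl _⟩, hβ, zero_add]
      symm
      have : ∫ t in β..x, (Ioo α β).indicator u t = ∫ t in β..x, (0 : ℝ) := by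
        apply intervalIntegral.integral_congr
        intro t ht
        rw [uIcc_of_le h2] at ht
        exact indicator_of_notMem (fun h => absurd h.2 (not_lt.mpr ht.1)) _
      rw [this]; simp
  rw [key x, key x', intervalIntegral.integral_interval_sub_left (hint _ _) (hint _ _)]

/-- difference of two `ACL` functions -/
theorem ACL.sub {a b c d : ℝ} {w1 w2 V1 V2 w1' w2' V1' V2' : ℝ × ℝ → ℝ} (hab : a ≤ b) (hcd : c ≤ d)
    (A : ACL a b c d w1 w2 V1 V2) (A' : ACL a b c d w1' w2' V1' V2') :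
    ACL a b c d (fun p => w1 p - w1' p) (fun p => w2 p - w2' p) (fun p => V1 p - V1' p)
      (fun p => V2 p - V2' p) where
  m1 := A.m1.sub A'.m1
  mV := A.mV.sub A'.mV
  i1 := A.i1.sub A'.i1
  i2 := A.i2.sub A'.i2
  iV := A.iV.sub A'.iV
  H := by
    have hsec : ∀ (w : ℝ × ℝ → ℝ), IntegrableOn w (Ioo a b ×ˢ Ioo c d) →
        ∀ᵐ y, y ∈ Ioo c d → IntervalIntegrable (fun x => w (x, y)) volume a b := by
      intro w hw
      unfold IntegrableOn at hw
      rw [CF_363.volume_restrict_rect] at hw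
      have h2 := hw.prod_left_ae
      rw [ae_restrict_iff' measurableSet_Ioo] at h2
      filter_upwards [h2] with y hy hyI
      rw [intervalIntegrable_iff_integrableOn_Ioo_of_le hab]; exact hy hyI
    filter_upwards [A.H, A'.H, hsec _ A.i1, hsec _ A'.i1] with y h1 h2 h3 h4 hy x hx x' hx' hxx'
    have e1 := h1 hy x hx x' hx' hxx'
    have e2 := h2 hy x hx x' hx' hxx'
    have hI : x ∈ Icc a b := ⟨hx.1.le, hx.2.le⟩
    have hI' : x' ∈ Icc a b := ⟨hx'.1.le, hx'.2.le⟩
    rw [intervalIntegral.integral_sub (ii_mono (h3 hy) hI hI') (ii_mono (h4 hy) hI hI'), ← e1, ← e2]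
    ring
  V := by
    have hsec : ∀ (w : ℝ × ℝ → ℝ), IntegrableOn w (Ioo a b ×ˢ Ioo c d) →
        ∀ᵐ x, x ∈ Ioo a b → IntervalIntegrable (fun y => w (x, y)) volume c d := by
      intro w hw
      unfold IntegrableOn at hw
      rw [CF_363.volume_restrict_rect] at hw
      have h2 := hw.prod_right_ae
      rw [ae_restrict_iff' measurableSet_Ioo] at h2
      filter_upwards [h2] with y hy hyI
      rw [intervalIntegrable_iff_integrableOn_Ioo_of_le hcd]; exact hy hyI
    filter_upwards [A.V, A'.V, hsec _ A.i2, hsec _ A'.i2] with x h1 h2 h3 h4 hx y hy y' hy' hyy'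
    have e1 := h1 hx y hy y' hy' hyy'
    have e2 := h2 hx y hy y' hy' hyy'
    have hI : y ∈ Icc c d := ⟨hy.1.le, hy.2.le⟩
    have hI' : y' ∈ Icc c d := ⟨hy'.1.le, hy'.2.le⟩
    rw [intervalIntegral.integral_sub (ii_mono (h3 hx) hI hI') (ii_mono (h4 hx) hI hI'), ← e1, ← e2]
    ring
  E := by
    filter_upwards [A.E, A'.E] with p h1 h2 hp
    rw [h1 hp, h2 hp]

end Crest.Agent.R105.Sq_87
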