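import Crest.Agent.R105.Gl0_363
import Crest.Agent.R105.Psq5_425

/-!
# Row 105 (S0138), Lemma A with squares (helper832, leaf (L6) of 425 #10857)

Component oscillation of the glued stream function: from `GlueF` (363) and `PicS.comp` to the
fields `lim`, `fam`, `osc` of `Psq_425.GFun`.
-/

set_option autoImplicit false

open MeasureTheory Set Filter Topology
open scoped NNReal ENNReal

namespace Crest.Agent.R105.SqC_832

open Crest.Agent.R105.CF_363 Crest.Agent.R105.Cq_463 Crest.Agent.R105.Stp_722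
open Crest.Agent.R105.Exs_992 Crest.Agent.R105.Nal_649 Crest.Agent.R105.Psq_463
open Crest.Agent.R105.Psq_425 Crest.Agent.R105.Gl_363
open Crest.Agent.R105.Skp2_257 (Comps)

variable {E R S A P : Set (ℝ × ℝ)} {𝒬 : Set Sqr} {𝓗 : Set Hair} {g S₀ : Set (Set (ℝ × ℝ))}
  {F U1 U2 : ℝ × ℝ → ℝ} {a b c d Bm Bp : ℝ} {lm : ℝ → ℝ} {ch : Sqr → ℝ}

/-! ## Topology -/

/-- continuity off an open set `A ⊆ E` and off `S`, values at `P \ A` within `o`: oscillation -/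
theorem oscLe_of_cont (hR : IsOpen R) (hA : IsOpen A) (hAE : A ⊆ E) (hS : S ⊆ E)
    (hc : ContinuousOn F (R \ (A ∪ S))) (hPR : P ⊆ R) (hPS : Disjoint P S) {o : ℝ}
    (ho : ∀ p ∈ P \ A, ∀ q ∈ P \ A, |F p - F q| ≤ o) : OscLe Eᶜ P F o := by
  intro ε hε
  have h1 : ∀ p ∈ P \ A, ∃ O, IsOpen O ∧ p ∈ O ∧ O ⊆ R ∧
      ∀ w ∈ O, w ∉ E → |F w - F p| ≤ ε / 2 := by
    intro p hp
    have hpR : p ∈ R \ (A ∪ S) := ⟨hPR hp.1, fun h => h.elim hp.2 fun h =>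
      disjoint_left.1 hPS hp.1 h⟩
    have h2 := hc p hpR
    have h3 : ∀ᶠ w in 𝓝[R \ (A ∪ S)] p, dist (F w) (F p) < ε / 2 :=
      h2.eventually (Metric.ball_mem_nhds _ (half_pos hε))
    obtain ⟨O, hO, hpO, hOs⟩ := mem_nhdsWithin.1 h3
    refine ⟨O ∩ R, hO.inter hR, ⟨hpO, hpR.1⟩, inter_subset_right, fun w hw hwE => ?_⟩
    have h4 : w ∈ R \ (A ∪ S) := ⟨hw.2, fun h => hwE (h.elim (fun h => hAE h) fun h => hS h)⟩
    have h5 := hOs ⟨hw.1, h4⟩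
    have h6 : dist (F w) (F p) < ε / 2 := h5
    rw [Real.dist_eq] at h6
    exact h6.le
  choose! O hO hpO hOR hF using h1
  refine ⟨(⋃ p ∈ P \ A, O p) ∪ A, (isOpen_biUnion hO).union hA, fun p hp => ?_, ?_⟩
  · by_cases h : p ∈ A
    · exact Or.inr h
    · exact Or.inl (mem_biUnion (show p ∈ P \ A from ⟨hp, h⟩) (hpO p ⟨hp, h⟩))
  · have h7 : ∀ q ∈ ((⋃ p ∈ P \ A, O p) ∪ A) ∩ Eᶜ, ∃ p ∈ P \ A, |F q - F p| ≤ ε / 2 := by
      rintro q ⟨hq | hq, hqE⟩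
      · obtain ⟨p, hp, hqp⟩ := mem_iUnion₂.1 hq
        exact ⟨p, hp, hF p hp q hqp hqE⟩
      · exact absurd (hAE hq) hqE
    intro q hq q' hq'
    obtain ⟨p, hp, h8⟩ := h7 q hq
    obtain ⟨p', hp', h9⟩ := h7 q' hq'
    have h10 := ho p hp p' hp'
    rw [abs_le] at h8 h9 h10 ⊢
    constructor <;> linarith [h8.1, h8.2, h9.1, h9.2, h10.1, h10.2]

/-- the same for a constant value -/
theorem limAt_of_cont (hR : IsOpen R) (hS : S ⊆ E) (hA : IsOpen A) (hAE : A ⊆ E)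
    (hc : ContinuousOn F (R \ (A ∪ S))) (hPR : P ⊆ R) (hPS : Disjoint P S) {k : ℝ}
    (hk : ∀ p ∈ P \ A, F p = k) : LimAt E P F k := by
  intro ε hε
  have h1 : ∀ p ∈ P \ A, ∃ O, IsOpen O ∧ p ∈ O ∧ O ⊆ R ∧
      ∀ w ∈ O, w ∉ E → |F w - F p| ≤ ε := by
    intro p hp
    have hpR : p ∈ R \ (A ∪ S) := ⟨hPR hp.1, fun h => h.elim hp.2 fun h =>
      disjoint_left.1 hPS hp.1 h⟩
    have h3 : ∀ᶠ w in 𝓝[R \ (A ∪ S)] p, dist (F w) (F p) < ε :=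
      (hc p hpR).eventually (Metric.ball_mem_nhds _ hε)
    obtain ⟨O, hO, hpO, hOs⟩ := mem_nhdsWithin.1 h3
    refine ⟨O ∩ R, hO.inter hR, ⟨hpO, hpR.1⟩, inter_subset_right, fun w hw hwE => ?_⟩
    have h4 : w ∈ R \ (A ∪ S) := ⟨hw.2, fun h => hwE (h.elim (fun h => hAE h) fun h => hS h)⟩
    have h6 : dist (F w) (F p) < ε := hOs ⟨hw.1, h4⟩
    rw [Real.dist_eq] at h6
    exact h6.le
  choose! O hO hpO hOR hF using h1
  refine ⟨(⋃ p ∈ P \ A, O p) ∪ A, (isOpen_biUnion hO).union hA, fun p hp => ?_, ?_⟩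
  · by_cases h : p ∈ A
    · exact Or.inr h
    · exact Or.inl (mem_biUnion (show p ∈ P \ A from ⟨hp, h⟩) (hpO p ⟨hp, h⟩))
  · rintro q ⟨hq | hq, hqE⟩
    · obtain ⟨p, hp, hqp⟩ := mem_iUnion₂.1 hq
      rw [← hk p hp]
      exact hF p hp q hqp hqE
    · exact absurd (hAE hq) hqE

/-! ## Geometry of the picture -/

theorem interior_car (Q : Sqr) :
    interior Q.car = Ioo Q.x (Q.x + Q.s) ×ˢ Ioo Q.y (Q.y + Q.s) := by
  rw [Sqr.car, interior_prod_eq, interior_Icc, interior_Icc]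

/-- hairs are off the open squares -/
theorem att_disj (hP : PicS E 𝒬 𝓗) {K : Hair} (hK : K ∈ 𝓗) {Q : Sqr} (hQ : Q ∈ 𝒬) :
    Disjoint K.car (interior Q.car) := by
  rw [disjoint_left]
  intro p hpK hpQ
  have h1 := hP.att K hK Q hQ ⟨p, hpK, interior_subset hpQ⟩
  rw [interior_car] at hpQ
  obtain ⟨-, h2, h3⟩ := hpQ
  obtain ⟨-, h4, h5⟩ := Hair.mem_car.1 hpK
  rcases h1 with h1 | h1
  · rw [h1] at h4; exact absurd h3 (not_lt.2 h4)
  · rw [h1] at h5; exact absurd h2 (not_lt.2 h5)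

theorem comps_sub' (hP : P ∈ Comps E) : P ⊆ E := by
  obtain ⟨p, hp, rfl⟩ := hP
  exact connectedComponentIn_subset _ _

/-- a connected portion which meets a component is inside -/
theorem sub_of_meet (hP : P ∈ Comps E) {T : Set (ℝ × ℝ)} (hT : T ⊆ E) (hc : IsPreconnected T)
    (h : (P ∩ T).Nonempty) : T ⊆ P := by
  obtain ⟨p, hp, rfl⟩ := hP
  obtain ⟨q, hq, hqT⟩ := h
  have h1 := hc.subset_connectedComponentIn hqT hT
  rwa [← connectedComponentIn_eq hq] at h1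

theorem isPreconnected_car (Q : Sqr) : IsPreconnected Q.car := Q.convex_car.isPreconnected

/-- the centre of a square is not in another square of the picture, nor on a hair -/
theorem sq_unique (hP : PicS E 𝒬 𝓗) (hPc : P ∈ Comps E) {Q Q' : Sqr} (hQ : Q ∈ 𝒬) (hQ' : Q' ∈ 𝒬)
    (h : Q.car ⊆ P) (h' : Q'.car ⊆ P) : Q = Q' := by
  obtain ⟨p, hp, rfl⟩ := hPc
  refine hP.q.sep (connectedComponentIn E p) (connectedComponentIn_subset _ _)
    isPreconnected_connectedComponentIn Q hQ Q' hQ' ?_ ?_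
  · obtain ⟨q, hq⟩ := Q.nonempty; exact ⟨q, h hq, hq⟩
  · obtain ⟨q, hq⟩ := Q'.nonempty; exact ⟨q, h' hq, hq⟩

theorem car_ne_singleton (Q : Sqr) (p : ℝ × ℝ) : ¬ Q.car ⊆ {p} := by
  intro h
  have h1 : (Q.x, Q.y) ∈ Q.car := ⟨⟨le_rfl, by linarith [Q.hs]⟩, ⟨le_rfl, by linarith [Q.hs]⟩⟩
  have h2 : (Q.x + Q.s, Q.y) ∈ Q.car :=
    ⟨⟨by linarith [Q.hs], le_rfl⟩, ⟨le_rfl, by linarith [Q.hs]⟩⟩
  have h3 := h h1
  have h4 := h h2
  rw [mem_singleton_iff] at h3 h4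
  have h5 : Q.x = Q.x + Q.s := by
    have := h3.trans h4.symm
    exact congrArg Prod.fst this
  linarith [Q.hs]

theorem car_not_sub_hair (Q : Sqr) (K : Hair) : ¬ Q.car ⊆ K.car := by
  intro h
  have h1 : (Q.x, Q.y) ∈ Q.car := ⟨⟨le_rfl, by linarith [Q.hs]⟩, ⟨le_rfl, by linarith [Q.hs]⟩⟩
  have h2 : (Q.x + Q.s, Q.y) ∈ Q.car :=
    ⟨⟨by linarith [Q.hs], le_rfl⟩, ⟨le_rfl, by linarith [Q.hs]⟩⟩
  have h3 := (Hair.mem_car.1 (h h1)).1
  have h4 := (Hair.mem_car.1 (h h2)).1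
  have h5 : Q.x = Q.x + Q.s := h3.trans h4.symm
  linarith [Q.hs]

/-- a component with a square: every point off the square is on a hair of `𝓗` in the component which
meets the square -/
theorem comp_square (hP : PicS E 𝒬 𝓗) (hPc : P ∈ Comps E) {Q : Sqr} (hQ : Q ∈ 𝒬) (h : Q.car ⊆ P)
    {p : ℝ × ℝ} (hp : p ∈ P) (hpQ : p ∉ Q.car) :
    ∃ K ∈ 𝓗, K.car ⊆ P ∧ p ∈ K.car ∧ (K.car ∩ Q.car).Nonempty := by
  rcases hP.comp P hPc with ⟨q, hq⟩ | ⟨K, hK, hq⟩ | ⟨Q', hQ', h1, h2⟩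
  · exact absurd (hq ▸ h) (car_ne_singleton Q q)
  · exact absurd (hq ▸ h) (car_not_sub_hair Q K)
  · obtain rfl := sq_unique hP hPc hQ hQ' h h1
    exact h2 p hp hpQ

/-- a component without square is a point or a hair -/
theorem comp_no_square (hP : PicS E 𝒬 𝓗) (hPc : P ∈ Comps E) (h : ∀ Q ∈ 𝒬, ¬ Q.car ⊆ P) :
    (∃ p, P = {p}) ∨ ∃ K ∈ 𝓗, P = K.car := by
  rcases hP.comp P hPc with h1 | h1 | ⟨Q, hQ, h1, -⟩
  · exact Or.inl h1
  · exact Or.inr h1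
  · exact absurd h1 (h Q hQ)

/-! ## The component oscillation -/

section
variable (hP : PicS E 𝒬 𝓗) (G : GlueF E 𝒬 𝓗 S A a b c d Bm Bp lm ch F U1 U2)
include hP G

theorem A_sub : A ⊆ E := fun p hp => by
  obtain ⟨Q, hQ, h⟩ := G.Asq p hp
  exact hP.q.sub Q hQ (interior_subset h)

/-- a component without square does not meet `A` -/
theorem disj_A (hPc : P ∈ Comps E) (h : ∀ Q ∈ 𝒬, ¬ Q.car ⊆ P) : Disjoint P A := by
  rw [disjoint_left]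
  intro p hp hpA
  obtain ⟨Q, hQ, h1⟩ := G.Asq p hpA
  exact h Q hQ (sub_of_meet hPc (hP.q.sub Q hQ) (isPreconnected_car Q)
    ⟨p, hp, interior_subset h1⟩)

/-- hairs do not meet `A` -/
theorem hair_A {K : Hair} (hK : K ∈ 𝓗) : Disjoint K.car A := by
  rw [disjoint_left]
  intro p hp hpA
  obtain ⟨Q, hQ, h1⟩ := G.Asq p hpA
  exact disjoint_left.1 (att_disj hP hK hQ) hp h1

/-- **component without square**: limit; the value is the value of `F` on the component -/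
theorem lim_comp (hPc : P ∈ Comps E) (hPS : Disjoint P S) (h : ∀ Q ∈ 𝒬, ¬ Q.car ⊆ P)
    {p : ℝ × ℝ} (hp : p ∈ P) : LimAt E P F (F p) := by
  refine limAt_of_cont (isOpen_Ioo.prod isOpen_Ioo) G.SE G.oA (A_sub hP G) G.cont
    ((comps_sub' hPc).trans G.box) hPS fun q hq => ?_
  rcases comp_no_square hP hPc h with ⟨r, rfl⟩ | ⟨K, hK, rfl⟩
  · rw [mem_singleton_iff.1 hp, mem_singleton_iff.1 hq.1]
  · exact G.hair K hK hPS q hq.1 p hp

/-- **component with square**: oscillation -/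
theorem osc_comp (hPc : P ∈ Comps E) (hPS : Disjoint P S) {Q : Sqr} (hQ : Q ∈ 𝒬)
    (h : Q.car ⊆ P) : OscLe Eᶜ P F (ch Q) := by
  refine oscLe_of_cont (isOpen_Ioo.prod isOpen_Ioo) G.oA (A_sub hP G) G.SE G.cont
    ((comps_sub' hPc).trans G.box) hPS ?_
  -- every point of `P \ A` has the value of a point of `Q \ A`
  have h1 : ∀ p ∈ P \ A, ∃ q ∈ Q.car \ A, F p = F q := by
    intro p hp
    by_cases hpQ : p ∈ Q.car
    · exact ⟨p, ⟨hpQ, hp.2⟩, rfl⟩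
    · obtain ⟨K, hK, hKP, hpK, q, hqK, hqQ⟩ := comp_square hP hPc hQ h hp.1 hpQ
      exact ⟨q, ⟨hqQ, disjoint_left.1 (hair_A hP G hK) hqK⟩,
        G.hair K hK (hPS.mono_left hKP) p hpK q hqK⟩
  intro p hp q hq
  obtain ⟨p', hp', e⟩ := h1 p hp
  obtain ⟨q', hq', e'⟩ := h1 q hq
  rw [e, e']
  exact G.sq Q hQ (hPS.mono_left h) p' hp' q' hq'

/-- **member of the family without square**: a hair of `𝓗`, limit `-lm` -/
theorem fam_comp (hg : FamQ E g Bm Bp) (hPg : P ∈ g) (hPS : Disjoint P S)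
    (h : ∀ Q ∈ 𝒬, ¬ Q.car ⊆ P) : ∃ K ∈ 𝓗, P = K.car ∧ LimAt E P F (-lm K.x) := by
  have hPc := hg.sub hPg
  obtain ⟨⟨u, huP, hu⟩, v, hvP, hv⟩ := hg.crs P hPg
  rcases comp_no_square hP hPc h with ⟨r, rfl⟩ | ⟨K, hK, rfl⟩
  · rw [mem_singleton_iff] at huP hvP
    rw [huP] at hu; rw [hvP] at hv
    linarith [hg.lt]
  · refine ⟨K, hK, rfl, ?_⟩
    obtain ⟨-, hu1, -⟩ := Hair.mem_car.1 huP
    obtain ⟨-, -, hv1⟩ := Hair.mem_car.1 hvP
    have hp : (K.x, (Bm + Bp) / 2) ∈ K.car :=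
      Hair.mem_car.2 ⟨rfl, by show K.b ≤ (Bm + Bp) / 2; linarith [hg.lt],
        by show (Bm + Bp) / 2 ≤ K.t; linarith [hg.lt]⟩
    have h1 := lim_comp hP G hPc hPS h hp
    have h2 := G.strip (K.x, (Bm + Bp) / 2) (G.box (comps_sub' hPc hp))
      (by show Bm < (Bm + Bp) / 2; linarith [hg.lt])
      (by show (Bm + Bp) / 2 < Bp; linarith [hg.lt]) (disjoint_left.1 hPS hp)
    rw [h2] at h1
    exact h1

/-- **(L6)**: the fields of `GFun` from `GlueF` -/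
theorem gFun (hg : FamQ E g Bm Bp) (hS : ∀ P ∈ Comps E, P ∉ S₀ → Disjoint P S)
    (hSf : S₀.Finite) {m : ℝ} (hlm : Monotone lm) (h0 : ∀ x, 0 ≤ lm x) (hm : ∀ x, lm x ≤ m)
    (hch : ∀ Q, 0 ≤ ch Q) (hsum : Summable fun Q : 𝒬 => ch Q.1 ^ 2)
    (hstr : Psq_425.LineV ((Ioo a b ×ˢ Ioo c d) \ E) F U1 U2) :
    GFun E 𝒬 (Ioo a b ×ˢ Ioo c d) g S₀ m F U1 U2 ch where
  str := hstr
  fin := hSf
  lim := fun P hPc hPS h => by
    obtain ⟨p, hp⟩ := comps_nonempty hPc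
    exact ⟨F p, lim_comp hP G hPc (hS P hPc hPS) h hp⟩
  fam := ⟨fun x => -lm x, fun x y hxy => neg_le_neg (hlm hxy),
    fun x => ⟨neg_le_neg (hm x), by show -lm x ≤ 0; linarith [h0 x]⟩, fun P hPg hPS h => by
      obtain ⟨K, -, e, h1⟩ := fam_comp hP G hg hPg (hS P (hg.sub hPg) hPS) h
      exact ⟨K, e, h1⟩⟩
  o0 := hch
  sum := hsum
  osc := fun Q hQ hQS => by
    have hQE : (Q.x, Q.y) ∈ E := hP.q.sub Q hQ
      ⟨⟨le_rfl, by linarith [Q.hs]⟩, ⟨le_rfl, by linarith [Q.hs]⟩⟩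
    have hPc : Nal_649.comp E Q ∈ Comps E := ⟨_, hQE, rfl⟩
    refine osc_comp hP G hPc (hS _ hPc hQS) hQ ?_
    exact (isPreconnected_car Q).subset_connectedComponentIn
      ⟨⟨le_rfl, by linarith [Q.hs]⟩, ⟨le_rfl, by linarith [Q.hs]⟩⟩ (hP.q.sub Q hQ)

end

/-- the exempt set `∅` -/
theorem exempt_empty : ∀ P ∈ Comps E, P ∉ (∅ : Set (Set (ℝ × ℝ))) → Disjoint P (∅ : Set (ℝ × ℝ)) :=
  fun _ _ _ => disjoint_empty _

/-- one exempt component -/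
theorem exempt_one {P₀ : Set (ℝ × ℝ)} (h₀ : P₀ ∈ Comps E) :
    ∀ P ∈ Comps E, P ∉ ({P₀} : Set (Set (ℝ × ℝ))) → Disjoint P P₀ := by
  intro P hP hne
  rw [disjoint_left]
  intro p hp hp0
  apply hne
  rw [mem_singleton_iff]
  obtain ⟨q, hq, rfl⟩ := hP
  obtain ⟨q0, hq0, rfl⟩ := h₀
  rw [connectedComponentIn_eq hp, connectedComponentIn_eq hp0]

end Crest.Agent.R105.SqC_832
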