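import Crest.Agent.R105.SqB_87

/-! Row 105, S0138, exact squares: the functions `ψ` and `(ψ - M)⁺ 1_Rc` on the squares. -/

open MeasureTheory Set Filter Topology

namespace Crest.Agent.R105.Sq_87

open Crest.Agent.R105.Mp_87 (lam lam_mono Rc measurableSet_Rc restrict_Rc hline vline wx wy ae_swap
  ae_x_of_ae ae_y_of_ae ii_mono)
open Crest.Agent.R105.CF_363 (gx gy SL cut Hair measurable_gx measurable_gy)

variable {ι : Type} {Q : Rects ι} {S : Set (ℝ × ℝ)}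
variable {a b c B σ : ℝ} {X1 X2 ψ Ψ : ℝ × ℝ → ℝ} {μ : Measure (ℝ × ℝ)} {f : ι → ℝ}

/-- The squares: charge data of the field `X`; `S` = excluded set (null parts of `E` and the
squares which are not charged). -/
structure SqData (Q : Rects ι) (S : Set (ℝ × ℝ)) (a b c B : ℝ) (X1 X2 : ℝ × ℝ → ℝ)
    (μ : Measure (ℝ × ℝ)) (f : ι → ℝ) : Prop where
  mS : MeasurableSet S
  dis : Pairwise (fun i j => Disjoint (Q.op i) (Q.op j))
  box : ∀ i, Q.op i ⊆ Ioo a b ×ˢ Ioo c B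
  nomass : ∀ i, μ {q | q.1 ∈ Ioo (Q.x i - Q.h1 i) (Q.x i + Q.h1 i) ∧ q.2 < Q.y i + Q.h2 i} = 0
  V1 : MemLp X1 2 (volume.restrict (Q.un ∪ S)ᶜ)
  V2 : MemLp X2 2 (volume.restrict (Q.un ∪ S)ᶜ)
  f0 : ∀ i, 0 ≤ f i
  F2 : ∀ i, ∀ ε, 0 < ε → ε ≤ 1 / 4 → ε⁻¹ * ∫ p in Q.op i ∩ ann (Q.gau i) ε,
    |X1 p * gx (Q.gau i) p + X2 p * gy (Q.gau i) p| ≤ 2 * f i

theorem abs_lam_le (μ : Measure (ℝ × ℝ)) [IsFiniteMeasure μ] (x : ℝ) :
    |lam μ x| ≤ (μ univ).toReal := by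
  unfold lam
  rw [abs_of_nonneg ENNReal.toReal_nonneg]
  exact ENNReal.toReal_mono (measure_ne_top _ _) (measure_mono (subset_univ _))

theorem LinesI.intψ [IsFiniteMeasure μ] (L : LinesI a b c B σ X1 X2 μ ψ Ψ) (hσ : |σ| = 1) :
    IntegrableOn ψ (Ioo a b ×ˢ Ioo c B) := by
  have h1 : Integrable (fun x : ℝ => ∫ t : ℝ, ‖X1 (x, t)‖) volume := by
    have := L.L1
    rw [Measure.volume_eq_prod] at this
    exact this.integral_norm_prod_left
  have hbd : Integrable (fun p : ℝ × ℝ => (μ univ).toReal + ∫ t : ℝ, ‖X1 (p.1, t)‖)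
      ((volume : Measure (ℝ × ℝ)).restrict (Ioo a b ×ˢ Ioo c B)) := by
    have e1 : Integrable (fun x : ℝ => (μ univ).toReal + ∫ t : ℝ, ‖X1 (x, t)‖)
        ((volume : Measure ℝ).restrict (Ioo a b)) :=
      (integrable_const _).add h1.restrict
    rw [CF_363.volume_restrict_rect]
    exact e1.comp_fst _
  refine Integrable.mono' hbd L.mψ.aestronglyMeasurable ?_
  rw [ae_restrict_iff' (measurableSet_Ioo.prod measurableSet_Ioo)]
  filter_upwards [ae_fst' L.V, ae_fst' (ae_int_x L.L1)] with p hV hI hp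
  have e1 := hV hp.1 p.2 B hp.2.1 hp.2.2.le
  rw [show ((p.1, p.2) : ℝ × ℝ) = p from rfl, L.strip (p.1, B) (le_refl _)] at e1
  have e2 : |∫ t in p.2..B, X1 (p.1, t)| ≤ ∫ t : ℝ, ‖X1 (p.1, t)‖ := by
    refine (intervalIntegral.abs_integral_le_integral_abs hp.2.2.le).trans ?_
    rw [intervalIntegral.integral_of_le hp.2.2.le]
    exact setIntegral_le_integral hI.norm (Eventually.of_forall fun t => abs_nonneg _)
  have e3 : ψ p = -σ * lam μ p.1 - ∫ t in p.2..B, X1 (p.1, t) := by linarith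
  rw [e3, Real.norm_eq_abs]
  refine (abs_sub _ _).trans (add_le_add ?_ e2)
  rw [abs_mul, abs_neg, hσ, one_mul]
  exact abs_lam_le μ p.1

theorem hx_le (Q : Rects ι) (i : ι) : Q.x i - Q.h1 i ≤ Q.x i + Q.h1 i := by linarith [Q.p1 i]
theorem hy_le (Q : Rects ι) (i : ι) : Q.y i - Q.h2 i ≤ Q.y i + Q.h2 i := by linarith [Q.p2 i]

theorem cx_mem (Q : Rects ι) (i : ι) : Q.x i ∈ Ioo (Q.x i - Q.h1 i) (Q.x i + Q.h1 i) :=
  ⟨by linarith [Q.p1 i], by linarith [Q.p1 i]⟩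
theorem cy_mem (Q : Rects ι) (i : ι) : Q.y i ∈ Ioo (Q.y i - Q.h2 i) (Q.y i + Q.h2 i) :=
  ⟨by linarith [Q.p2 i], by linarith [Q.p2 i]⟩

/-- `ψ` on a square -/
theorem acl_psi [IsFiniteMeasure μ] (L : LinesI a b c B σ X1 X2 μ ψ Ψ) (hσ : |σ| = 1)
    (D : SqData Q S a b c B X1 X2 μ f) (i : ι) :
    ACL (Q.x i - Q.h1 i) (Q.x i + Q.h1 i) (Q.y i - Q.h2 i) (Q.y i + Q.h2 i)
      (fun p => -X2 p) X1 Ψ ψ where
  m1 := L.m2.neg
  mV := L.mΨ
  i1 := L.L2.neg.integrableOn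
  i2 := L.L1.integrableOn
  iV := by
    have h1 : IntegrableOn ψ (Q.op i) := (L.intψ hσ).mono_set (D.box i)
    refine h1.congr ?_
    rw [EventuallyEq, ae_restrict_iff' (Q.measurableSet_op i)]
    filter_upwards [L.E] with p hp hpi
    have := D.box i hpi
    exact (hp this.1 this.2.1).symm
  H := by
    filter_upwards [L.H] with y hy hyI x hx x' hx' hxx'
    have b1 := D.box i (show (x, y) ∈ Q.op i from ⟨hx, hyI⟩)
    have b2 := D.box i (show (x', y) ∈ Q.op i from ⟨hx', hyI⟩)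
    have e1 := hy b1.2.1 x b1.1 x' b2.1 hxx'
    have e2 : μ {q | q.1 ∈ Ico x x' ∧ q.2 < y} = 0 := by
      apply measure_mono_null _ (D.nomass i)
      intro q hq
      exact ⟨⟨lt_of_lt_of_le hx.1 hq.1.1, hq.1.2.trans hx'.2⟩, hq.2.trans hyI.2⟩
    rw [e2] at e1
    rw [intervalIntegral.integral_neg, e1]; simp
  V := by
    filter_upwards [L.V] with x hx hxI y hy y' hy' hyy'
    have b1 := D.box i (show (x, y) ∈ Q.op i from ⟨hxI, hy⟩)
    exact hx b1.1 y y' b1.2.1 hyy'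
  E := by
    filter_upwards [L.E] with p hp hpi
    have := D.box i hpi
    exact hp this.1 this.2.1

/-- the four components of `w = (ψ - M)⁺ 1_Rc` -/
noncomputable def W1 (x0 x1 y0 y1 M : ℝ) (X2 Ψ : ℝ × ℝ → ℝ) : ℝ × ℝ → ℝ :=
  (Rc x0 x1 y0 y1).indicator (wx M X2 Ψ)
noncomputable def W2 (x0 x1 y0 y1 M : ℝ) (X1 ψ : ℝ × ℝ → ℝ) : ℝ × ℝ → ℝ :=
  (Rc x0 x1 y0 y1).indicator (wy M X1 ψ)
noncomputable def U1 (x0 x1 y0 y1 M : ℝ) (Ψ : ℝ × ℝ → ℝ) : ℝ × ℝ → ℝ :=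
  (Rc x0 x1 y0 y1).indicator (fun p => max (Ψ p - M) 0)

theorem measurable_wx (M : ℝ) (h2 : Measurable X2) (h : Measurable Ψ) : Measurable (wx M X2 Ψ) :=
  Measurable.ite (measurableSet_lt measurable_const h) h2.neg measurable_const

theorem measurable_wy (M : ℝ) (h1 : Measurable X1) (h : Measurable ψ) : Measurable (wy M X1 ψ) :=
  Measurable.ite (measurableSet_lt measurable_const h) h1 measurable_const

theorem integrable_wx (M : ℝ) (h2 : Integrable X2 (volume : Measure (ℝ × ℝ))) (h : Measurable Ψ) :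
    Integrable (wx M X2 Ψ) (volume : Measure (ℝ × ℝ)) := by
  have : wx M X2 Ψ = {p | M < Ψ p}.indicator (fun p => -X2 p) := by
    ext p; simp [wx, indicator]
  rw [this]; exact h2.neg.indicator (measurableSet_lt measurable_const h)

theorem integrable_wy (M : ℝ) (h1 : Integrable X1 (volume : Measure (ℝ × ℝ))) (h : Measurable ψ) :
    Integrable (wy M X1 ψ) (volume : Measure (ℝ × ℝ)) := by
  have : wy M X1 ψ = {p | M < ψ p}.indicator X1 := by
    ext p; simp [wy, indicator]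
  rw [this]; exact h1.indicator (measurableSet_lt measurable_const h)

/-- on a.e. whole horizontal line `w` is the primitive of `w1` -/
theorem w_hglobal [IsFiniteMeasure μ] (L : LinesI a b c B σ X1 X2 μ ψ Ψ) (hσ : σ = 1 ∨ σ = -1)
    {x0 x1 y0 y1 M : ℝ} (R : GoodR a b c σ X1 X2 μ ψ Ψ x0 x1 y0 y1)
    (hM : BdLe M ψ Ψ x0 x1 y0 y1) :
    ∀ᵐ y, ∀ x x', U1 x0 x1 y0 y1 M Ψ (x', y) - U1 x0 x1 y0 y1 M Ψ (x, y) =
      ∫ s in x..x', W1 x0 x1 y0 y1 M X2 Ψ (s, y) := by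
  filter_upwards [w_hlines L hσ R hM, ae_int_y (integrable_wx M L.L2 L.mΨ)] with y h1 h2 x x'
  by_cases hy : y ∈ Ioo y0 y1
  · obtain ⟨e1, e2, e3⟩ := h1 hy
    have key := ind_line R.hx.le (u := fun s => wx M X2 Ψ (s, y))
      (v := fun s => max (Ψ (s, y) - M) 0) e1 (max_eq_right (by linarith)) h2.intervalIntegrable x x'
    have eU : ∀ s, U1 x0 x1 y0 y1 M Ψ (s, y) = (Ioo x0 x1).indicator
        (fun s => max (Ψ (s, y) - M) 0) s := by
      intro s
      unfold U1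
      by_cases hs : s ∈ Ioo x0 x1
      · rw [indicator_of_mem hs, indicator_of_mem (show (s, y) ∈ Rc x0 x1 y0 y1 from ⟨hs, hy⟩)]
      · rw [indicator_of_notMem hs, indicator_of_notMem (fun h => hs h.1)]
    have eW : ∀ s, W1 x0 x1 y0 y1 M X2 Ψ (s, y) = (Ioo x0 x1).indicator
        (fun s => wx M X2 Ψ (s, y)) s := by
      intro s
      unfold W1
      by_cases hs : s ∈ Ioo x0 x1
      · rw [indicator_of_mem hs, indicator_of_mem (show (s, y) ∈ Rc x0 x1 y0 y1 from ⟨hs, hy⟩)]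
      · rw [indicator_of_notMem hs, indicator_of_notMem (fun h => hs h.1)]
    rw [eU, eU, key]
    apply intervalIntegral.integral_congr
    intro s _
    exact (eW s).symm
  · have e1 : ∀ s, U1 x0 x1 y0 y1 M Ψ (s, y) = 0 := fun s => indicator_of_notMem (fun h => hy h.2) _
    have e2 : ∀ s, W1 x0 x1 y0 y1 M X2 Ψ (s, y) = 0 := fun s =>
      indicator_of_notMem (fun h => hy h.2) _
    simp [e1, e2]

theorem w_vglobal (L : LinesI a b c B σ X1 X2 μ ψ Ψ)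
    {x0 x1 y0 y1 M : ℝ} (R : GoodR a b c σ X1 X2 μ ψ Ψ x0 x1 y0 y1)
    (hM : BdLe M ψ Ψ x0 x1 y0 y1) :
    ∀ᵐ x, ∀ y y', U1 x0 x1 y0 y1 M ψ (x, y') - U1 x0 x1 y0 y1 M ψ (x, y) =
      ∫ t in y..y', W2 x0 x1 y0 y1 M X1 ψ (x, t) := by
  filter_upwards [w_vlines L R hM, ae_int_x (integrable_wy M L.L1 L.mψ)] with x h1 h2 y y'
  by_cases hx : x ∈ Ioo x0 x1
  · obtain ⟨e1, e2, e3⟩ := h1 hx
    have key := ind_line R.hy.le (u := fun t => wy M X1 ψ (x, t))
      (v := fun t => max (ψ (x, t) - M) 0) e1 (max_eq_right (by linarith)) h2.intervalIntegrable y y'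
    have eU : ∀ t, U1 x0 x1 y0 y1 M ψ (x, t) = (Ioo y0 y1).indicator
        (fun t => max (ψ (x, t) - M) 0) t := by
      intro t
      unfold U1
      by_cases ht : t ∈ Ioo y0 y1
      · rw [indicator_of_mem ht, indicator_of_mem (show (x, t) ∈ Rc x0 x1 y0 y1 from ⟨hx, ht⟩)]
      · rw [indicator_of_notMem ht, indicator_of_notMem (fun h => ht h.2)]
    have eW : ∀ t, W2 x0 x1 y0 y1 M X1 ψ (x, t) = (Ioo y0 y1).indicator
        (fun t => wy M X1 ψ (x, t)) t := by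
      intro t
      unfold W2
      by_cases ht : t ∈ Ioo y0 y1
      · rw [indicator_of_mem ht, indicator_of_mem (show (x, t) ∈ Rc x0 x1 y0 y1 from ⟨hx, ht⟩)]
      · rw [indicator_of_notMem ht, indicator_of_notMem (fun h => ht h.2)]
    rw [eU, eU, key]
    apply intervalIntegral.integral_congr
    intro t _
    exact (eW t).symm
  · have e1 : ∀ t, U1 x0 x1 y0 y1 M ψ (x, t) = 0 := fun t => indicator_of_notMem (fun h => hx h.1) _
    have e2 : ∀ t, W2 x0 x1 y0 y1 M X1 ψ (x, t) = 0 := fun t =>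
      indicator_of_notMem (fun h => hx h.1) _
    simp [e1, e2]

theorem measurable_U1 (x0 x1 y0 y1 M : ℝ) (h : Measurable Ψ) :
    Measurable (U1 x0 x1 y0 y1 M Ψ) :=
  ((h.sub_const M).max measurable_const).indicator (measurableSet_Rc _ _ _ _)

theorem measurable_W1 (x0 x1 y0 y1 M : ℝ) (h2 : Measurable X2) (h : Measurable Ψ) :
    Measurable (W1 x0 x1 y0 y1 M X2 Ψ) := (measurable_wx M h2 h).indicator (measurableSet_Rc _ _ _ _)

theorem integrable_W1 (x0 x1 y0 y1 M : ℝ) (h2 : Integrable X2 (volume : Measure (ℝ × ℝ)))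
    (h : Measurable Ψ) : Integrable (W1 x0 x1 y0 y1 M X2 Ψ) (volume : Measure (ℝ × ℝ)) :=
  (integrable_wx M h2 h).indicator (measurableSet_Rc _ _ _ _)

theorem integrable_W2 (x0 x1 y0 y1 M : ℝ) (h1 : Integrable X1 (volume : Measure (ℝ × ℝ)))
    (h : Measurable ψ) : Integrable (W2 x0 x1 y0 y1 M X1 ψ) (volume : Measure (ℝ × ℝ)) :=
  (integrable_wy M h1 h).indicator (measurableSet_Rc _ _ _ _)

/-- `w` on a square -/
theorem acl_w [IsFiniteMeasure μ] (L : LinesI a b c B σ X1 X2 μ ψ Ψ) (hσ : σ = 1 ∨ σ = -1)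
    (D : SqData Q S a b c B X1 X2 μ f)
    {x0 x1 y0 y1 M : ℝ} (R : GoodR a b c σ X1 X2 μ ψ Ψ x0 x1 y0 y1)
    (hM : BdLe M ψ Ψ x0 x1 y0 y1) (i : ι) :
    ACL (Q.x i - Q.h1 i) (Q.x i + Q.h1 i) (Q.y i - Q.h2 i) (Q.y i + Q.h2 i)
      (W1 x0 x1 y0 y1 M X2 Ψ) (W2 x0 x1 y0 y1 M X1 ψ) (U1 x0 x1 y0 y1 M Ψ)
      (U1 x0 x1 y0 y1 M ψ) where
  m1 := measurable_W1 _ _ _ _ _ L.m2 L.mΨ
  mV := measurable_U1 _ _ _ _ _ L.mΨ
  i1 := (integrable_W1 _ _ _ _ _ L.L2 L.mΨ).integrableOn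
  i2 := (integrable_W2 _ _ _ _ _ L.L1 L.mψ).integrableOn
  iV := by
    have hσ' : |σ| = 1 := by rcases hσ with h | h <;> rw [h] <;> simp
    have h1 := (acl_psi L hσ' D i).iV
    have h2 : IntegrableOn (fun p => max (Ψ p - M) 0) (Q.op i) := by
      have hfin : IsFiniteMeasure ((volume : Measure (ℝ × ℝ)).restrict (Q.op i)) := by
        refine ⟨?_⟩
        rw [Measure.restrict_apply_univ, Rects.op, Measure.volume_eq_prod, Measure.prod_prod,
          Real.volume_Ioo, Real.volume_Ioo]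
        exact ENNReal.mul_lt_top ENNReal.ofReal_lt_top ENNReal.ofReal_lt_top
      have hc : Integrable (fun _ : ℝ × ℝ => M) ((volume : Measure (ℝ × ℝ)).restrict (Q.op i)) :=
        integrable_const M
      exact (Integrable.sub (μ := (volume : Measure (ℝ × ℝ)).restrict (Q.op i)) h1 hc).pos_part
    exact h2.indicator (measurableSet_Rc _ _ _ _)
  H := by
    filter_upwards [w_hglobal L hσ R hM] with y hy _ x _ x' _ _
    exact hy x x'
  V := by
    filter_upwards [w_vglobal L R hM] with x hx _ y _ y' _ _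
    exact hx y y'
  E := by
    filter_upwards [L.E] with p hp hpi
    have hb := D.box i hpi
    unfold U1
    by_cases h : p ∈ Rc x0 x1 y0 y1
    · rw [indicator_of_mem h, indicator_of_mem h, hp hb.1 hb.2.1]
    · rw [indicator_of_notMem h, indicator_of_notMem h]

end Crest.Agent.R105.Sq_87
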