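import Crest.Agent.R105.SqC_87

/-! Row 105, S0138, exact squares: one square, consequences of (SQ). -/

open MeasureTheory Set Filter Topology
open scoped NNReal

namespace Crest.Agent.R105.Sq_87

open Crest.Agent.R105.Mp_87 (lam lam_mono Rc measurableSet_Rc restrict_Rc hline vline wx wy ae_swap
  ae_x_of_ae ae_y_of_ae ii_mono)
open Crest.Agent.R105.CF_363 (gx gy SL cut Hair measurable_gx measurable_gy gx_congr gy_congr
  gx_eq_deriv gy_eq_deriv)

variable {ι : Type} {Q : Rects ι}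

/-- the annular flux -/
noncomputable def af (Q : Rects ι) (i : ι) (w1 w2 : ℝ × ℝ → ℝ) (ε : ℝ) : ℝ :=
  ε⁻¹ * ∫ p in Q.op i ∩ ann (Q.gau i) ε, |dn (Q.gau i) w1 w2 p|

theorem af_nonneg (Q : Rects ι) (i : ι) (w1 w2 : ℝ × ℝ → ℝ) {ε : ℝ} (hε : 0 < ε) :
    0 ≤ af Q i w1 w2 ε :=
  mul_nonneg (inv_pos.mpr hε).le (integral_nonneg fun _ => abs_nonneg _)

/-- a sequence of widths -/
noncomputable def wd (n : ℕ) : ℝ := 1 / ((n : ℝ) + 4)

theorem wd_pos (n : ℕ) : 0 < wd n := by unfold wd; positivity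

theorem wd_le (n : ℕ) : wd n ≤ 1 / 4 := by
  unfold wd
  apply one_div_le_one_div_of_le (by norm_num)
  have : (0 : ℝ) ≤ n := Nat.cast_nonneg n
  linarith

theorem wd_lim : Tendsto wd atTop (𝓝 0) := by
  have h1 : Tendsto (fun n : ℕ => (n : ℝ) + 4) atTop atTop :=
    tendsto_atTop_add_const_right _ _ tendsto_natCast_atTop_atTop
  have := h1.inv_tendsto_atTop
  refine this.congr fun n => ?_
  simp [wd]

theorem gau_const_nonneg (Q : Rects ι) (i : ι) : 0 ≤ (Q.h1 i)⁻¹ + (Q.h2 i)⁻¹ := by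
  have h1 := Q.p1 i
  have h2 := Q.p2 i
  positivity

/-- **(SQ) on the square `i`**, for a function Lipschitz on the open square -/
theorem sq_one (i : ι) {w1 w2 V1 V2 : ℝ × ℝ → ℝ}
    (A : ACL (Q.x i - Q.h1 i) (Q.x i + Q.h1 i) (Q.y i - Q.h2 i) (Q.y i + Q.h2 i) w1 w2 V1 V2)
    {L : ℝ} (hL : 0 ≤ L) {e : ℝ × ℝ → ℝ}
    (he : ∀ p ∈ Q.op i, ∀ q ∈ Q.op i, |e p - e q| ≤ L * dist p q)
    {k D : ℝ} (hD : 0 ≤ D) (hk : ∀ p ∈ Q.op i, |e p - k| ≤ D) {F : ℝ}
    (hF : ∃ᶠ n in atTop, af Q i w1 w2 (wd n) ≤ F) :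
    |∫ p in Q.op i, (w2 p * gx e p - w1 p * gy e p)| ≤ D * F := by
  have hl : LipschitzOnWith (Real.toNNReal L) e (Q.op i) := by
    refine LipschitzOnWith.of_dist_le_mul fun p hp q hq => ?_
    rw [Real.dist_eq, Real.coe_toNNReal _ hL]
    exact he p hp q hq
  obtain ⟨E, hE, hEq⟩ := hl.extend_real
  have hE' : ∀ p q : ℝ × ℝ, |E p - E q| ≤ L * dist p q := by
    intro p q
    have := hE.dist_le_mul p q
    rwa [Real.dist_eq, Real.coe_toNNReal _ hL] at this
  have key := sq_lim (hx_le Q i) (hy_le Q i) hL A (gau_const_nonneg Q i) (Q.gau_lip i)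
    (fun p hp => Q.gau_bd i p hp) (fun p => Q.gau_lt i p) hE' hD
    (fun p hp => by rw [← hEq hp]; exact hk p hp) wd_pos wd_lim hF
  have hcongr : ∀ p ∈ Q.op i, w2 p * gx e p - w1 p * gy e p = w2 p * gx E p - w1 p * gy E p := by
    intro p hp
    have hev : e =ᶠ[𝓝 p] E := by
      filter_upwards [(Q.isOpen_op i).mem_nhds hp] with q hq using hEq hq
    rw [gx_congr hev, gy_congr hev]
  rw [setIntegral_congr_fun (Q.measurableSet_op i) hcongr]
  exact key

/-- lower limit of a sequence bounded below by `0`, by hand -/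
noncomputable def lowlim (u : ℕ → ℝ) : ℝ := sInf {F | ∃ᶠ n in atTop, u n ≤ F}

theorem lowlim_lt {u : ℕ → ℝ} {C : ℝ} (hC : ∀ n, u n ≤ C) {F : ℝ}
    (hF : lowlim u < F) : ∃ᶠ n in atTop, u n ≤ F := by
  have hne : {F | ∃ᶠ n in atTop, u n ≤ F}.Nonempty := ⟨C, Frequently.of_forall hC⟩
  obtain ⟨F', hF', hlt⟩ := exists_lt_of_csInf_lt hne hF
  exact hF'.mono fun n hn => hn.trans hlt.le

theorem lt_lowlim {u : ℕ → ℝ} (h0 : ∀ n, 0 ≤ u n) {F : ℝ} (hF : F < lowlim u) :
    ∀ᶠ n in atTop, F < u n := by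
  have hbd : BddBelow {F | ∃ᶠ n in atTop, u n ≤ F} := by
    refine ⟨0, fun F hF => ?_⟩
    obtain ⟨n, hn⟩ := hF.exists
    exact (h0 n).trans hn
  by_contra hcon
  rw [not_eventually] at hcon
  have : F ∈ {F | ∃ᶠ n in atTop, u n ≤ F} := hcon.mono fun n hn => not_lt.mp hn
  exact absurd (csInf_le hbd this) (not_le.mpr hF)

theorem lowlim_nonneg {u : ℕ → ℝ} {C : ℝ} (h0 : ∀ n, 0 ≤ u n) (hC : ∀ n, u n ≤ C) :
    0 ≤ lowlim u := by
  apply le_csInf ⟨C, Frequently.of_forall hC⟩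
  intro F hF
  obtain ⟨n, hn⟩ := hF.exists
  exact (h0 n).trans hn

theorem lowlim_le {u : ℕ → ℝ} {C : ℝ} (h0 : ∀ n, 0 ≤ u n) (hC : ∀ n, u n ≤ C) :
    lowlim u ≤ C := by
  apply csInf_le
  · refine ⟨0, fun F hF => ?_⟩
    obtain ⟨n, hn⟩ := hF.exists
    exact (h0 n).trans hn
  · exact Frequently.of_forall hC

theorem sq_lowlim (i : ι) {w1 w2 V1 V2 : ℝ × ℝ → ℝ}
    (A : ACL (Q.x i - Q.h1 i) (Q.x i + Q.h1 i) (Q.y i - Q.h2 i) (Q.y i + Q.h2 i) w1 w2 V1 V2)
    {L : ℝ} (hL : 0 ≤ L) {e : ℝ × ℝ → ℝ}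
    (he : ∀ p ∈ Q.op i, ∀ q ∈ Q.op i, |e p - e q| ≤ L * dist p q)
    {k D : ℝ} (hD : 0 ≤ D) (hk : ∀ p ∈ Q.op i, |e p - k| ≤ D) {C : ℝ}
    (hC : ∀ n, af Q i w1 w2 (wd n) ≤ C) :
    |∫ p in Q.op i, (w2 p * gx e p - w1 p * gy e p)| ≤
      D * lowlim (fun n => af Q i w1 w2 (wd n)) := by
  have h0 : ∀ n, 0 ≤ af Q i w1 w2 (wd n) := fun n => af_nonneg Q i w1 w2 (wd_pos n)
  have key : ∀ F, lowlim (fun n => af Q i w1 w2 (wd n)) < F →
      |∫ p in Q.op i, (w2 p * gx e p - w1 p * gy e p)| ≤ D * F := fun F hF =>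
    sq_one i A hL he hD hk (lowlim_lt hC hF)
  have hlim : Tendsto (fun F => D * F) (𝓝[>] (lowlim (fun n => af Q i w1 w2 (wd n))))
      (𝓝 (D * lowlim (fun n => af Q i w1 w2 (wd n)))) :=
    ((continuous_const.mul continuous_id).tendsto _).mono_left nhdsWithin_le_nhds
  exact ge_of_tendsto hlim (by filter_upwards [self_mem_nhdsWithin] with F hF using key F hF)

/-- sections of `w1` have integral zero as soon as the annular fluxes are small -/
theorem section_zero (i : ι) {w1 w2 V1 V2 : ℝ × ℝ → ℝ}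
    (A : ACL (Q.x i - Q.h1 i) (Q.x i + Q.h1 i) (Q.y i - Q.h2 i) (Q.y i + Q.h2 i) w1 w2 V1 V2)
    (hF : ∀ δ, 0 < δ → ∃ᶠ n in atTop, af Q i w1 w2 (wd n) ≤ δ) :
    ∀ᵐ y, y ∈ Ioo (Q.y i - Q.h2 i) (Q.y i + Q.h2 i) →
      ∫ s in Ioo (Q.x i - Q.h1 i) (Q.x i + Q.h1 i), w1 (s, y) = 0 := by
  set I := Ioo (Q.x i - Q.h1 i) (Q.x i + Q.h1 i) with hI
  set K := Ioo (Q.y i - Q.h2 i) (Q.y i + Q.h2 i) with hK
  set G : ℝ → ℝ := fun y => ∫ s in I, w1 (s, y) with hG
  have hGm : Measurable G := by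
    have h1 : StronglyMeasurable (fun q : ℝ × ℝ => w1 (q.2, q.1)) :=
      (A.m1.comp measurable_swap).stronglyMeasurable
    exact (h1.integral_prod_right' (ν := volume.restrict I)).measurable
  have hi1 : Integrable w1 ((volume.restrict I).prod (volume.restrict K)) := by
    have := A.i1
    unfold IntegrableOn at this
    rwa [CF_363.volume_restrict_rect] at this
  have hGi : Integrable G (volume.restrict K) := hi1.integral_prod_right
  set u : ℝ → ℝ := fun y => SignType.sign (G y) with hu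
  have hum : Measurable u := by
    have : u = fun y => if 0 < G y then 1 else if G y < 0 then -1 else 0 := by
      ext y
      simp only [hu]
      rcases lt_trichotomy (G y) 0 with h | h | h
      · simp [sign_neg h, not_lt.mpr h.le, h]
      · simp [h]
      · simp [sign_pos h, h]
    rw [this]
    exact Measurable.ite (measurableSet_lt measurable_const hGm) measurable_const
      (Measurable.ite (measurableSet_lt hGm measurable_const) measurable_const measurable_const)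
  have hub : ∀ y, |u y| ≤ 1 := by
    intro y
    simp only [hu]
    rcases lt_trichotomy (G y) 0 with h | h | h
    · simp [sign_neg h]
    · simp [h]
    · simp [sign_pos h]
  have hui : ∀ α β, IntervalIntegrable u volume α β := by
    intro α β
    rw [intervalIntegrable_iff]
    exact Measure.integrableOn_of_bounded (M := 1) (by simp) hum.aestronglyMeasurable
      (Eventually.of_forall fun s => by rw [Real.norm_eq_abs]; exact hub s)
  set θ : ℝ → ℝ := fun y => ∫ t in (Q.y i)..y, u t with hθ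
  set e : ℝ × ℝ → ℝ := fun p => θ p.2 with he
  have hθl : ∀ s t, |θ s - θ t| ≤ |s - t| := by
    intro s t
    simp only [hθ]
    rw [intervalIntegral.integral_interval_sub_left (hui _ _) (hui _ _)]
    have := intervalIntegral.norm_integral_le_of_norm_le_const (a := t) (b := s) (f := u) (C := 1)
      (fun x _ => by rw [Real.norm_eq_abs]; exact hub x)
    rwa [Real.norm_eq_abs, one_mul] at this
  have hel : ∀ p q : ℝ × ℝ, |e p - e q| ≤ 1 * dist p q := by
    intro p q
    rw [one_mul]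
    refine (hθl p.2 q.2).trans ?_
    rw [Prod.dist_eq, ← Real.dist_eq]; exact le_max_right _ _
  have heSL : SL univ 1 e := fun p q _ => hel p q
  have hloc : LocallyIntegrable u volume := by
    intro x
    refine ⟨Ioc (x - 1) (x + 1), Ioc_mem_nhds (by linarith) (by linarith), ?_⟩
    have := hui (x - 1) (x + 1)
    rwa [intervalIntegrable_iff_integrableOn_Ioc_of_le (by linarith)] at this
  have hgrad : ∀ᵐ p : ℝ × ℝ, gx e p = 0 ∧ gy e p = u p.2 := by
    have h2 := ae_snd' (LocallyIntegrable.ae_hasDerivAt_integral hloc)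
    filter_upwards [heSL.ae_differentiableAt (μ := volume) isOpen_univ, h2] with p hp hp2
    have d := hp (mem_univ p)
    constructor
    · have h1 := gx_eq_deriv (x := p.1) (y := p.2) d
      have h3 : HasDerivAt (fun s : ℝ => e (s, p.2)) 0 p.1 := by
        have h4 : HasDerivAt (fun _ : ℝ => θ p.2) 0 p.1 := hasDerivAt_const _ _
        exact h4
      exact h1.unique h3
    · have h1 := gy_eq_deriv (x := p.1) (y := p.2) d
      exact h1.unique (hp2 (Q.y i))
  have hD0 : 0 ≤ Q.h2 i := (Q.p2 i).le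
  have hk : ∀ p ∈ Q.op i, |e p - 0| ≤ Q.h2 i := by
    intro p hp
    have h1 := hθl p.2 (Q.y i)
    have h2 : θ (Q.y i) = 0 := by simp [hθ]
    rw [h2] at h1
    refine h1.trans ?_
    rw [abs_le]
    constructor <;> linarith [hp.2.1, hp.2.2]
  have hz : ∫ p in Q.op i, (w2 p * gx e p - w1 p * gy e p) = 0 := by
    have h1 : ∀ δ, 0 < δ → |∫ p in Q.op i, (w2 p * gx e p - w1 p * gy e p)| ≤ Q.h2 i * δ :=
      fun δ hδ => sq_one i A zero_le_one (fun p _ q _ => hel p q) hD0 hk (hF δ hδ)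
    have h2 : |∫ p in Q.op i, (w2 p * gx e p - w1 p * gy e p)| ≤ 0 := by
      apply le_of_forall_pos_le_add
      intro δ hδ
      have h3 := h1 (δ / Q.h2 i) (div_pos hδ (Q.p2 i))
      rw [mul_div_cancel₀ _ (Q.p2 i).ne'] at h3
      linarith
    exact abs_eq_zero.mp (le_antisymm h2 (abs_nonneg _))
  have hz2 : ∫ p in Q.op i, w1 p * u p.2 = 0 := by
    have : ∫ p in Q.op i, (w2 p * gx e p - w1 p * gy e p) = ∫ p in Q.op i, -(w1 p * u p.2) := by
      apply integral_congr_ae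
      apply ae_restrict_of_ae
      filter_upwards [hgrad] with p hp
      rw [hp.1, hp.2]; ring
    rw [this, integral_neg, neg_eq_zero] at hz
    exact hz
  have hi2 : Integrable (fun p : ℝ × ℝ => w1 p * u p.2)
      ((volume.restrict I).prod (volume.restrict K)) :=
    hi1.mul_bdd (c := 1) (hum.comp measurable_snd).aestronglyMeasurable
      (Eventually.of_forall fun p => by rw [Real.norm_eq_abs]; exact hub _)
  have hz3 : ∫ y in K, |G y| = 0 := by
    have h1 : ∫ p in Q.op i, w1 p * u p.2 = ∫ y in K, ∫ s in I, w1 (s, y) * u y := by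
      rw [Rects.op, CF_363.volume_restrict_rect]
      exact integral_prod_symm _ hi2
    rw [hz2] at h1
    rw [h1]
    congr 1
    ext y
    rw [integral_mul_const]
    show |G y| = G y * u y
    simp only [hu]
    rcases lt_trichotomy (G y) 0 with h | h | h
    · simp [sign_neg h, abs_of_neg h]
    · simp [h]
    · simp [sign_pos h, abs_of_pos h]
  have hz4 := (integral_eq_zero_iff_of_nonneg (fun y => abs_nonneg (G y)) hGi.abs).mp hz3
  have hz5 := (ae_restrict_iff' measurableSet_Ioo).mp hz4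
  filter_upwards [hz5] with y hy hyK
  exact abs_eq_zero.mp (hy hyK)

end Crest.Agent.R105.Sq_87
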