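import Crest.Agent.R105.SqF_136

/-! Row 105, S0138, exact squares: further properties of the fill of a square: the part of small
depth (F4) and the integrals on a.e. line (Lx), (Ly). -/

open MeasureTheory Set Filter Topology Metric

namespace Crest.Agent.R105.SqF_136

open Crest.Agent.R105.CF_363 Crest.Agent.R105.Sq_87

/-- the cost of (F4) -/
theorem cost_F4 {κ : Measure (ℝ × ℝ)} [IsProbabilityMeasure κ] {m0 : ℝ × ℝ} {h : ℝ} (hh : 0 < h)
    (hb : ∀ᵐ c ∂κ, c ∈ ball m0 (h / 2)) {π : ℝ × ℝ → ℝ}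
    (hπn : ∀ q, |π q| ≤ ‖q‖) {δ : ℝ} (hδ : 0 ≤ δ) {S : Set (ℝ × ℝ)}
    {P : Set (ℝ × ℝ)} (hSδ : ∀ u ∈ S, h - dist u m0 ≤ δ)
    (hP : ∀ p ∈ closedBall m0 h, ∀ u ∈ S, dist u p ≤ 3 * (h - dist u m0) → p ∈ P)
    {p : ℝ × ℝ} (hp : p ∈ closedBall m0 h) :
    ∫ s, |π (p - s.1)| * S.indicator (fun _ => (1 : ℝ)) (seg p s) ∂(κ.prod T01) ≤
      P.indicator (fun _ => 3 * δ) p := by
  have hb' : ∀ᵐ s ∂(κ.prod T01), s.1 ∈ ball m0 (h / 2) :=
    Measure.quasiMeasurePreserving_fst.ae hb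
  have ht' : ∀ᵐ s ∂(κ.prod T01), s.2 ∈ Ioo (0 : ℝ) 1 :=
    Measure.quasiMeasurePreserving_snd.ae (ae_restrict_mem measurableSet_Ioo)
  by_cases hpP : p ∈ P
  · rw [indicator_of_mem hpP]
    set Z : Set ((ℝ × ℝ) × ℝ) := univ ×ˢ Ici (1 - 2 * δ / h) with hZ
    have hZm : MeasurableSet Z := MeasurableSet.univ.prod measurableSet_Ici
    have hZi : Integrable (Z.indicator fun _ => 3 / 2 * h) (κ.prod T01) :=
      (integrable_const _).indicator hZm
    have hle : ∀ᵐ s ∂(κ.prod T01), ‖|π (p - s.1)| * S.indicator (fun _ => (1 : ℝ)) (seg p s)‖ ≤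
        Z.indicator (fun _ => 3 / 2 * h) s := by
      filter_upwards [hb', ht'] with s hs hts
      rw [mem_closedBall] at hp
      have hs' := hs
      rw [mem_ball] at hs'
      have hd : ‖p - s.1‖ ≤ 3 / 2 * h := by
        rw [← dist_eq_norm]
        have := dist_triangle p m0 s.1
        rw [dist_comm m0 s.1] at this
        linarith
      by_cases hq : seg p s ∈ S
      · have h1 := dist_seg_le (m0 := m0) (p := p) (c := s.1) hts.1.le hts.2.le
        have h2 := hSδ _ hq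
        have h3 : dist (seg p s) m0 ≤ (1 - s.2) * dist s.1 m0 + s.2 * dist p m0 := h1
        have h4 : 0 < 1 - s.2 := by linarith [hts.2]
        have h5 : (1 - s.2) * (h / 2) ≤ δ := by nlinarith [hts.1]
        have hsZ : s ∈ Z := by
          refine ⟨mem_univ _, ?_⟩
          rw [mem_Ici, sub_le_comm, le_div_iff₀ hh]
          linarith
        rw [indicator_of_mem hq, indicator_of_mem hsZ, mul_one, Real.norm_eq_abs, abs_abs]
        exact (hπn _).trans hd
      · rw [indicator_of_notMem hq, mul_zero, norm_zero]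
        exact indicator_nonneg (fun _ _ => by positivity) _
    have h1 := norm_integral_le_of_norm_le hZi hle
    refine (le_abs_self _).trans (h1.trans ?_)
    rw [integral_indicator hZm, setIntegral_const, smul_eq_mul]
    have h2 : (κ.prod T01).real Z ≤ 2 * δ / h := by
      rw [Measure.real, hZ, Measure.prod_prod, measure_univ, one_mul]
      refine ENNReal.toReal_le_of_le_ofReal (by positivity) ?_
      rw [Measure.restrict_apply measurableSet_Ici]
      have h3 : Ici (1 - 2 * δ / h) ∩ Ioo (0 : ℝ) 1 ⊆ Ico (1 - 2 * δ / h) 1 :=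
        fun t ht => ⟨ht.1, ht.2.2⟩
      refine (measure_mono h3).trans ?_
      rw [Real.volume_Ico]
      exact ENNReal.ofReal_le_ofReal (by linarith)
    calc (κ.prod T01).real Z * (3 / 2 * h) ≤ 2 * δ / h * (3 / 2 * h) :=
          mul_le_mul_of_nonneg_right h2 (by positivity)
      _ = 3 * δ := by field_simp
  · rw [indicator_of_notMem hpP]
    refine le_of_eq ?_
    have h0 : (fun s => |π (p - s.1)| * S.indicator (fun _ => (1 : ℝ)) (seg p s))
        =ᵐ[κ.prod T01] 0 := by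
      filter_upwards [hb', ht'] with s h2 h3
      have : seg p s ∉ S := fun hs => hpP (hP p hp _ hs (seg_not_mem hp h2 h3))
      rw [indicator_of_notMem this, mul_zero]; rfl
    rw [integral_congr_ae h0]
    simp

/-- (F4) for two flows -/
theorem Fil.F4 {κ ν₁ ν₂ : Measure (ℝ × ℝ)} [IsProbabilityMeasure κ] [IsFiniteMeasure ν₁]
    [IsFiniteMeasure ν₂] {m0 : ℝ × ℝ} {h : ℝ} (hh : 0 < h) {k1 k2 l1 l2 : ℝ × ℝ → ℝ}
    (hb : ∀ᵐ c ∂κ, c ∈ ball m0 (h / 2))
    (F : Fil κ ν₁ m0 h k1 k2) (G : Fil κ ν₂ m0 h l1 l2)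
    (h1 : ν₁ (closedBall m0 h)ᶜ = 0) (h2 : ν₂ (closedBall m0 h)ᶜ = 0)
    {δ : ℝ} (hδ : 0 ≤ δ) {S P : Set (ℝ × ℝ)} (hSm : MeasurableSet S) (hPm : MeasurableSet P)
    (hSδ : ∀ u ∈ S, h - dist u m0 ≤ δ)
    (hP : ∀ p ∈ closedBall m0 h, ∀ u ∈ S, dist u p ≤ 3 * (h - dist u m0) → p ∈ P) :
    (∫ u in S, |k1 u - l1 u| ≤ 3 * δ * (ν₁ P + ν₂ P).toReal) ∧
    (∫ u in S, |k2 u - l2 u| ≤ 3 * δ * (ν₁ P + ν₂ P).toReal) := by
  have h1m : Measurable (S.indicator fun _ => (1 : ℝ)) := measurable_const.indicator hSm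
  have h1b : ∀ q, |S.indicator (fun _ => (1 : ℝ)) q| ≤ 1 := by
    intro q
    by_cases hq : q ∈ S
    · rw [indicator_of_mem hq, abs_one]
    · rw [indicator_of_notMem hq, abs_zero]; exact zero_le_one
  have hzb : ∀ q : ℝ × ℝ, |(fun _ : ℝ × ℝ => (0 : ℝ)) q| ≤ 1 := fun q => by
    rw [abs_zero]; exact zero_le_one
  have habs : ∀ q : ℝ × ℝ, ∀ v : ℝ, |v * S.indicator (fun _ => (1 : ℝ)) q| =
      |v| * S.indicator (fun _ => (1 : ℝ)) q := by
    intro q v
    by_cases hq : q ∈ S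
    · rw [indicator_of_mem hq, mul_one, mul_one]
    · rw [indicator_of_notMem hq, mul_zero, mul_zero, abs_zero]
  have hset : ∀ f : ℝ × ℝ → ℝ,
      ∫ u in S, |f u| = ∫ u, |f u| * S.indicator (fun _ => (1 : ℝ)) u := by
    intro f
    rw [← integral_indicator hSm]
    congr 1
    ext q
    by_cases hq : q ∈ S
    · rw [indicator_of_mem hq, indicator_of_mem hq, mul_one]
    · rw [indicator_of_notMem hq, indicator_of_notMem hq, mul_zero]
  constructor
  · have hcost := F.cost_le G h1 h2 h1m measurable_const (C := 1) h1b hzb hPm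
      (K := 3 * δ) (fun p hp => by
        have := cost_F4 hh hb (fun q => norm_fst_le q) hδ hSδ hP hp
        refine le_trans (le_of_eq ?_) this
        congr 1
        ext s
        rw [mul_zero, add_zero, habs])
    refine le_trans (le_of_eq ?_) hcost
    rw [hset (fun u => k1 u - l1 u)]
    congr 1
    ext q
    rw [mul_zero, add_zero, habs]
  · have hcost := F.cost_le G h1 h2 measurable_const h1m (C := 1) hzb h1b hPm
      (K := 3 * δ) (fun p hp => by
        have := cost_F4 hh hb (fun q => norm_snd_le q) hδ hSδ hP hp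
        refine le_trans (le_of_eq ?_) this
        congr 1
        ext s
        rw [mul_zero, zero_add, habs])
    refine le_trans (le_of_eq ?_) hcost
    rw [hset (fun u => k2 u - l2 u)]
    congr 1
    ext q
    rw [mul_zero, zero_add, habs]

/-- a function whose integrals over intervals are at most `M` times the length -/
theorem ae_le_of_intervals {f : ℝ → ℝ} (hf : Integrable f) {M : ℝ}
    (h : ∀ a b, a ≤ b → ∫ x in a..b, f x ≤ (b - a) * M) : ∀ᵐ x, f x ≤ M := by
  have h1 : ∀ n : ℕ, ∀ᵐ x : ℝ, x ∈ Ioo (-(n : ℝ)) n → f x ≤ M := by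
    intro n
    have hi : IntervalIntegrable f volume (-(n : ℝ)) n := hf.intervalIntegrable
    have hnn : -(n : ℝ) ≤ n := by have := n.cast_nonneg (α := ℝ); linarith
    filter_upwards [hi.ae_hasDerivAt_integral] with x hx hxI
    have hxu : x ∈ uIcc (-(n : ℝ)) n := by rw [uIcc_of_le hnn]; exact ⟨hxI.1.le, hxI.2.le⟩
    have hd := hx hxu (-(n : ℝ)) (by simp)
    have hd2 : HasDerivAt (fun t => M * t - ∫ s in -(n : ℝ)..t, f s) (M * 1 - f x) x :=
      ((hasDerivAt_id x).const_mul M).sub hd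
    have hmono : Monotone fun t => M * t - ∫ s in -(n : ℝ)..t, f s := by
      intro s t hst
      have e1 : (∫ r in -(n : ℝ)..t, f r) - ∫ r in -(n : ℝ)..s, f r = ∫ r in s..t, f r :=
        intervalIntegral.integral_interval_sub_left hf.intervalIntegrable hf.intervalIntegrable
      have e2 := h s t hst
      simp only
      nlinarith
    have h3 : 0 ≤ deriv (fun t => M * t - ∫ s in -(n : ℝ)..t, f s) x := hmono.deriv_nonneg
    rw [hd2.deriv] at h3
    linarith
  rw [← ae_all_iff] at h1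
  filter_upwards [h1] with x hx
  obtain ⟨n, hn⟩ := exists_nat_gt |x|
  exact hx n ⟨by linarith [neg_abs_le x], by linarith [le_abs_self x]⟩

/-- the flow through a.e. vertical line -/
theorem FillC.Lx {x y h : ℝ} {ν₁ ν₂ : Measure (ℝ × ℝ)} {X1 X2 : ℝ × ℝ → ℝ}
    (C : FillC x y h ν₁ ν₂ X1 X2) : ∀ᵐ x' : ℝ, Integrable (fun y' : ℝ => X1 (x', y')) ∧
      ∫ y', |X1 (x', y')| ≤ (ν₁ univ + ν₂ univ).toReal := by
  have hi := C.i1
  rw [Measure.volume_eq_prod] at hi
  have hf : Integrable fun x' : ℝ => ∫ y', |X1 (x', y')| := hi.abs.integral_prod_left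
  have h2 : ∀ a b, a ≤ b → ∫ x' in a..b, (∫ y', |X1 (x', y')|) ≤
      (b - a) * (ν₁ univ + ν₂ univ).toReal := by
    intro a b hab
    rcases le_or_gt (y - h) (y + h) with hy | hy
    · have h3 := (C.F3 a b (y - h) (y + h) hab hy univ MeasurableSet.univ
        (fun p _ u _ _ => mem_univ p)).1
      refine le_trans (le_of_eq ?_) h3
      rw [intervalIntegral.integral_of_le hab, integral_Ioc_eq_integral_Ioo,
        Measure.volume_eq_prod, setIntegral_prod _ hi.abs.integrableOn]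
      congr 1
      ext x'
      rw [setIntegral_eq_integral_of_forall_compl_eq_zero]
      intro y' hy'
      rw [(C.z (x', y') (fun hc => hy' ?_)).1, abs_zero]
      rw [mem_ball, Prod.dist_eq, max_lt_iff, Real.dist_eq, Real.dist_eq] at hc
      have := abs_lt.mp hc.2
      exact ⟨by linarith [this.1], by linarith [this.2]⟩
    · have h0 : ∀ x' : ℝ, ∫ y', |X1 (x', y')| = 0 := by
        intro x'
        have : ∀ y' : ℝ, |X1 (x', y')| = 0 := by
          intro y'
          rw [(C.z (x', y') (fun hc => ?_)).1, abs_zero]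
          have := dist_nonneg.trans_lt (mem_ball.mp hc)
          linarith
        simp only [this, integral_zero]
      simp only [h0, intervalIntegral.integral_zero]
      have : 0 ≤ b - a := by linarith
      positivity
  filter_upwards [ae_le_of_intervals hf h2, hi.prod_right_ae] with x' h3 h4 using ⟨h4, h3⟩

/-- the flow through a.e. horizontal line -/
theorem FillC.Ly {x y h : ℝ} {ν₁ ν₂ : Measure (ℝ × ℝ)} {X1 X2 : ℝ × ℝ → ℝ}
    (C : FillC x y h ν₁ ν₂ X1 X2) : ∀ᵐ y' : ℝ, Integrable (fun x' : ℝ => X2 (x', y')) ∧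
      ∫ x', |X2 (x', y')| ≤ (ν₁ univ + ν₂ univ).toReal := by
  have hi := C.i2
  rw [Measure.volume_eq_prod] at hi
  have hf : Integrable fun y' : ℝ => ∫ x', |X2 (x', y')| := hi.abs.integral_prod_right
  have h2 : ∀ a b, a ≤ b → ∫ y' in a..b, (∫ x', |X2 (x', y')|) ≤
      (b - a) * (ν₁ univ + ν₂ univ).toReal := by
    intro a b hab
    rcases le_or_gt (x - h) (x + h) with hx | hx
    · have h3 := (C.F3 (x - h) (x + h) a b hx hab univ MeasurableSet.univ
        (fun p _ u _ _ => mem_univ p)).2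
      refine le_trans (le_of_eq ?_) h3
      have hi' : Integrable (fun u : ℝ × ℝ => |X2 u|)
          ((volume.restrict (Ioo (x - h) (x + h))).prod (volume.restrict (Ioo a b))) := by
        rw [Measure.prod_restrict]; exact hi.abs.integrableOn
      rw [intervalIntegral.integral_of_le hab, integral_Ioc_eq_integral_Ioo,
        Measure.volume_eq_prod, ← Measure.prod_restrict, integral_prod_symm _ hi']
      congr 1
      ext y'
      rw [setIntegral_eq_integral_of_forall_compl_eq_zero]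
      intro x' hx'
      rw [(C.z (x', y') (fun hc => hx' ?_)).2, abs_zero]
      rw [mem_ball, Prod.dist_eq, max_lt_iff, Real.dist_eq, Real.dist_eq] at hc
      have := abs_lt.mp hc.1
      exact ⟨by linarith [this.1], by linarith [this.2]⟩
    · have h0 : ∀ y' : ℝ, ∫ x', |X2 (x', y')| = 0 := by
        intro y'
        have : ∀ x' : ℝ, |X2 (x', y')| = 0 := by
          intro x'
          rw [(C.z (x', y') (fun hc => ?_)).2, abs_zero]
          have := dist_nonneg.trans_lt (mem_ball.mp hc)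
          linarith
        simp only [this, integral_zero]
      simp only [h0, intervalIntegral.integral_zero]
      have : 0 ≤ b - a := by linarith
      positivity
  filter_upwards [ae_le_of_intervals hf h2, hi.prod_left_ae] with y' h3 h4 using ⟨h4, h3⟩

/-- all properties of the fill -/
structure FillP (x y h : ℝ) (ν₁ ν₂ : Measure (ℝ × ℝ)) (X1 X2 : ℝ × ℝ → ℝ) : Prop
    extends FillC x y h ν₁ ν₂ X1 X2 where
  F4 : ∀ δ, 0 ≤ δ → ∀ S P : Set (ℝ × ℝ), MeasurableSet S → MeasurableSet P →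
    (∀ u ∈ S, h - dist u (x, y) ≤ δ) →
    (∀ p ∈ closedBall (x, y) h, ∀ u ∈ S, dist u p ≤ 3 * (h - dist u (x, y)) → p ∈ P) →
    (∫ u in S, |X1 u| ≤ 3 * δ * (ν₁ P + ν₂ P).toReal) ∧
    (∫ u in S, |X2 u| ≤ 3 * δ * (ν₁ P + ν₂ P).toReal)
  Lx : ∀ᵐ x' : ℝ, Integrable (fun y' : ℝ => X1 (x', y')) ∧
    ∫ y', |X1 (x', y')| ≤ (ν₁ univ + ν₂ univ).toReal
  Ly : ∀ᵐ y' : ℝ, Integrable (fun x' : ℝ => X2 (x', y')) ∧
    ∫ x', |X2 (x', y')| ≤ (ν₁ univ + ν₂ univ).toReal

/-- **the fill of a square, all properties** -/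
theorem fill2 {x y h : ℝ} (hh : 0 < h) (ν₁ ν₂ : Measure (ℝ × ℝ)) [IsFiniteMeasure ν₁]
    [IsFiniteMeasure ν₂] (h1 : ν₁ (closedBall (x, y) h)ᶜ = 0)
    (h2 : ν₂ (closedBall (x, y) h)ᶜ = 0) (hm : ν₁ univ = ν₂ univ) :
    ∃ X1 X2 : ℝ × ℝ → ℝ, FillP x y h ν₁ ν₂ X1 X2 := by
  obtain ⟨κ, k1, k2, l1, l2, hprob, hκ, hb, F, G, C⟩ := fill_core hh ν₁ ν₂ h1 h2 hm
  exact ⟨_, _, ⟨C, fun δ hδ S P hS hP hSδ hc => Fil.F4 hh hb F G h1 h2 hδ hS hP hSδ hc,
    C.Lx, C.Ly⟩⟩

end Crest.Agent.R105.SqF_136
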