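import Crest.Agent.R105.SqL_87

/-! Row 105, S0138, exact squares: the fill of a square (spec of helper87, post 10020).
Mean over `c` in the half square of the unit flows along the segments from `c` to `p`, integrated
against two finite measures of equal mass on the closed square. -/

open MeasureTheory Set Filter Topology Metric

namespace Crest.Agent.R105.SqF_136

open Crest.Agent.R105.CF_363 Crest.Agent.R105.Sq_87

/-! ### densities of push forwards -/

theorem pushden_nonneg {Ω : Type*} [MeasurableSpace Ω] {m : Measure Ω} [IsFiniteMeasure m]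
    {Φ : Ω → ℝ × ℝ} (hΦ : Measurable Φ) (habs : m.map Φ ≪ volume) {w : Ω → ℝ}
    (hwm : Measurable w) (hw : Integrable w m) (h0 : ∀ z, 0 ≤ w z) :
    ∃ k : ℝ × ℝ → ℝ, Measurable k ∧ Integrable k volume ∧
      ∀ θ : ℝ × ℝ → ℝ, Measurable θ → ∫ p, k p * θ p = ∫ z, w z * θ (Φ z) ∂m := by
  have : IsFiniteMeasure (m.withDensity fun z => ENNReal.ofReal (w z)) :=
    isFiniteMeasure_withDensity_ofReal hw.2
  set μw : Measure (ℝ × ℝ) := (m.withDensity fun z => ENNReal.ofReal (w z)).map Φ with hμw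
  have hac : μw ≪ volume := ((withDensity_absolutelyContinuous m _).map hΦ).trans habs
  refine ⟨fun p => (μw.rnDeriv volume p).toReal, (Measure.measurable_rnDeriv _ _).ennreal_toReal,
    Measure.integrable_toReal_rnDeriv, fun θ hθ => ?_⟩
  have e1 := integral_rnDeriv_smul (f := θ) hac
  simp only [smul_eq_mul] at e1
  rw [e1, integral_map hΦ.aemeasurable hθ.aestronglyMeasurable,
    integral_withDensity_eq_integral_toReal_smul (by fun_prop)
      (ae_of_all _ fun z => ENNReal.ofReal_lt_top)]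
  congr 1
  ext z
  rw [ENNReal.toReal_ofReal (h0 z), smul_eq_mul]

theorem pushden {Ω : Type*} [MeasurableSpace Ω] {m : Measure Ω} [IsFiniteMeasure m]
    {Φ : Ω → ℝ × ℝ} (hΦ : Measurable Φ) (habs : m.map Φ ≪ volume) {w : Ω → ℝ}
    (hwm : Measurable w) (hw : Integrable w m) {B : Set (ℝ × ℝ)} (hB : MeasurableSet B)
    (hΦB : ∀ᵐ z ∂m, Φ z ∈ B) :
    ∃ k : ℝ × ℝ → ℝ, Measurable k ∧ Integrable k volume ∧ (∀ p ∉ B, k p = 0) ∧
      ∀ θ : ℝ × ℝ → ℝ, Measurable θ → ∀ C : ℝ, (∀ p, |θ p| ≤ C) →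
        ∫ p, k p * θ p = ∫ z, w z * θ (Φ z) ∂m := by
  have hp : Integrable (fun z => max (w z) 0) m := hw.pos_part
  have hn : Integrable (fun z => max (-w z) 0) m := hw.neg_part
  obtain ⟨k1, k1m, k1i, h1⟩ := pushden_nonneg hΦ habs (w := fun z => max (w z) 0)
    (by fun_prop) hp (fun z => le_max_right _ _)
  obtain ⟨k2, k2m, k2i, h2⟩ := pushden_nonneg hΦ habs (w := fun z => max (-w z) 0)
    (by fun_prop) hn (fun z => le_max_right _ _)
  refine ⟨B.indicator fun p => k1 p - k2 p, (k1m.sub k2m).indicator hB,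
    (k1i.sub k2i).indicator hB, fun p hp => indicator_of_notMem hp _, fun θ hθ C hC => ?_⟩
  have hθB : Measurable (B.indicator θ) := hθ.indicator hB
  have hθBb : ∀ p, ‖B.indicator θ p‖ ≤ C := by
    intro p
    by_cases hp : p ∈ B
    · rw [indicator_of_mem hp, Real.norm_eq_abs]; exact hC p
    · rw [indicator_of_notMem hp, norm_zero]; exact (abs_nonneg _).trans (hC p)
  have i1 : Integrable (fun p => k1 p * B.indicator θ p) volume :=
    k1i.mul_bdd (c := C) hθB.aestronglyMeasurable (Eventually.of_forall hθBb)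
  have i2 : Integrable (fun p => k2 p * B.indicator θ p) volume :=
    k2i.mul_bdd (c := C) hθB.aestronglyMeasurable (Eventually.of_forall hθBb)
  have j1 : Integrable (fun z => max (w z) 0 * B.indicator θ (Φ z)) m :=
    hp.mul_bdd (c := C) (hθB.comp hΦ).aestronglyMeasurable
      (Eventually.of_forall fun z => hθBb (Φ z))
  have j2 : Integrable (fun z => max (-w z) 0 * B.indicator θ (Φ z)) m :=
    hn.mul_bdd (c := C) (hθB.comp hΦ).aestronglyMeasurable
      (Eventually.of_forall fun z => hθBb (Φ z))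
  calc ∫ p, B.indicator (fun p => k1 p - k2 p) p * θ p
      = ∫ p, (k1 p * B.indicator θ p - k2 p * B.indicator θ p) := by
        congr 1; ext p
        by_cases hp : p ∈ B
        · rw [indicator_of_mem hp, indicator_of_mem hp]; ring
        · rw [indicator_of_notMem hp, indicator_of_notMem hp]; ring
    _ = (∫ z, max (w z) 0 * B.indicator θ (Φ z) ∂m) -
          ∫ z, max (-w z) 0 * B.indicator θ (Φ z) ∂m := by
        rw [integral_sub i1 i2, h1 _ hθB, h2 _ hθB]
    _ = ∫ z, w z * θ (Φ z) ∂m := by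
        rw [← integral_sub j1 j2]
        refine integral_congr_ae ?_
        filter_upwards [hΦB] with z hz
        rw [indicator_of_mem hz]
        rcases le_total 0 (w z) with h | h
        · rw [max_eq_left h, max_eq_right (by linarith : -w z ≤ 0)]; ring
        · rw [max_eq_right h, max_eq_left (by linarith : 0 ≤ -w z)]; ring

/-! ### the segments -/

/-- the point at time `s.2` of the segment from `s.1` to `p` -/
noncomputable def seg (p : ℝ × ℝ) (s : (ℝ × ℝ) × ℝ) : ℝ × ℝ := s.1 + s.2 • (p - s.1)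

theorem measurable_seg2 : Measurable fun z : (ℝ × ℝ) × ((ℝ × ℝ) × ℝ) => seg z.1 z.2 := by
  unfold seg; fun_prop

theorem measurable_seg (p : ℝ × ℝ) : Measurable (seg p) := by
  unfold seg; fun_prop

/-- the time interval -/
noncomputable abbrev T01 : Measure ℝ := volume.restrict (Ioo (0 : ℝ) 1)

theorem seg_null {κ : Measure (ℝ × ℝ)} [IsFiniteMeasure κ] (hκ : κ ≪ volume) (p : ℝ × ℝ)
    {N : Set (ℝ × ℝ)} (hN : volume N = 0) : (κ.prod T01) (seg p ⁻¹' N) = 0 := by
  set N' := toMeasurable volume N with hN'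
  have hN'm : MeasurableSet N' := measurableSet_toMeasurable _ _
  have hN'0 : volume N' = 0 := by rw [hN', measure_toMeasurable]; exact hN
  refine measure_mono_null (preimage_mono (subset_toMeasurable volume N)) ?_
  rw [Measure.prod_apply_symm (measurable_seg p hN'm), lintegral_eq_zero_iff']
  · filter_upwards [ae_restrict_mem measurableSet_Ioo] with t ht
    refine hκ ?_
    have h1 : (fun c : ℝ × ℝ => (c, t)) ⁻¹' (seg p ⁻¹' N') =
        (fun c : ℝ × ℝ => (1 - t) • c) ⁻¹' ((fun c : ℝ × ℝ => c + t • p) ⁻¹' N') := by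
      ext c
      simp only [mem_preimage, seg]
      have : c + t • (p - c) = (1 - t) • c + t • p := by module
      rw [this]
    rw [h1, Measure.addHaar_preimage_smul volume (sub_pos.mpr ht.2).ne', measure_preimage_add_right,
      hN'0, mul_zero]
  · exact (measurable_measure_prodMk_right (measurable_seg p hN'm)).aemeasurable

theorem seg_ae {κ : Measure (ℝ × ℝ)} [IsFiniteMeasure κ] (hκ : κ ≪ volume) (p : ℝ × ℝ)
    {P : ℝ × ℝ → Prop} (h : ∀ᵐ q : ℝ × ℝ, P q) : ∀ᵐ s ∂(κ.prod T01), P (seg p s) :=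
  ae_iff.mpr (seg_null hκ p (ae_iff.mp h))

theorem seg_ac {κ : Measure (ℝ × ℝ)} [IsFiniteMeasure κ] (hκ : κ ≪ volume)
    (ν : Measure (ℝ × ℝ)) [IsFiniteMeasure ν] :
    (ν.prod (κ.prod T01)).map (fun z => seg z.1 z.2) ≪ volume := by
  refine Measure.AbsolutelyContinuous.mk fun N hN hN0 => ?_
  rw [Measure.map_apply measurable_seg2 hN,
    Measure.measure_prod_null (measurable_seg2 hN)]
  exact Eventually.of_forall fun p => seg_null hκ p hN0

theorem fderiv_split (e : ℝ × ℝ → ℝ) (q v : ℝ × ℝ) :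
    fderiv ℝ e q v = v.1 * gx e q + v.2 * gy e q := by
  have : v = v.1 • ((1 : ℝ), (0 : ℝ)) + v.2 • ((0 : ℝ), (1 : ℝ)) := by
    ext <;> simp
  conv_lhs => rw [this, map_add, map_smul, map_smul]
  simp [gx, gy]

/-- a.e. derivative along the segments -/
theorem seg_deriv {κ : Measure (ℝ × ℝ)} [IsFiniteMeasure κ] (hκ : κ ≪ volume) {e : ℝ × ℝ → ℝ}
    {L : ℝ} (he : ∀ p q : ℝ × ℝ, |e p - e q| ≤ L * dist p q) (p : ℝ × ℝ) :
    ∀ᵐ s ∂(κ.prod T01), HasDerivAt (fun t => e (seg p (s.1, t)))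
      ((p - s.1).1 * gx e (seg p s) + (p - s.1).2 * gy e (seg p s)) s.2 := by
  have heSL : SL univ L e := fun p q _ => he p q
  have h1 : ∀ᵐ q : ℝ × ℝ, DifferentiableAt ℝ e q := by
    filter_upwards [heSL.ae_differentiableAt (μ := volume) isOpen_univ] with q hq
    exact hq (mem_univ q)
  filter_upwards [seg_ae hκ p h1] with s hs
  have h2 : HasDerivAt (fun t : ℝ => seg p (s.1, t)) (p - s.1) s.2 := by
    have := ((hasDerivAt_id s.2).smul_const (p - s.1)).const_add s.1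
    simpa [seg] using this
  have h3 : HasFDerivAt e (fderiv ℝ e (seg p (s.1, s.2))) (seg p (s.1, s.2)) := hs.hasFDerivAt
  have h4 := h3.comp_hasDerivAt s.2 h2
  rw [fderiv_split] at h4
  exact h4

theorem dist_seg (p c : ℝ × ℝ) (t t' : ℝ) :
    dist (seg p (c, t)) (seg p (c, t')) = |t - t'| * dist p c := by
  have : seg p (c, t) - seg p (c, t') = (t - t') • (p - c) := by
    simp only [seg]; module
  rw [dist_eq_norm, this, norm_smul, Real.norm_eq_abs, dist_eq_norm]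

/-- the fundamental theorem along the segments, for a.e. starting point -/
theorem seg_ftc {κ : Measure (ℝ × ℝ)} [IsFiniteMeasure κ] (hκ : κ ≪ volume) {e : ℝ × ℝ → ℝ}
    {L : ℝ} (hL : 0 ≤ L) (he : ∀ p q : ℝ × ℝ, |e p - e q| ≤ L * dist p q) (p : ℝ × ℝ) :
    ∀ᵐ c ∂κ, ∫ t in Ioo (0 : ℝ) 1,
      ((p - c).1 * gx e (seg p (c, t)) + (p - c).2 * gy e (seg p (c, t))) = e p - e c := by
  have h0 := Measure.ae_ae_of_ae_prod (seg_deriv hκ he p)
  filter_upwards [h0] with c hc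
  have hlip : LipschitzOnWith (Real.toNNReal (L * dist p c)) (fun t => e (seg p (c, t)))
      (uIcc 0 1) := by
    refine LipschitzOnWith.of_dist_le_mul fun t _ t' _ => ?_
    rw [Real.coe_toNNReal _ (by positivity), Real.dist_eq, Real.dist_eq]
    refine (he _ _).trans (le_of_eq ?_)
    rw [dist_seg]; ring
  have h1 : ∀ᵐ t : ℝ, t ∈ uIcc (0 : ℝ) 1 → HasDerivAt (fun t => e (seg p (c, t)))
      ((p - c).1 * gx e (seg p (c, t)) + (p - c).2 * gy e (seg p (c, t))) t := by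
    rw [ae_restrict_iff' measurableSet_Ioo] at hc
    have n0 : ∀ᵐ t : ℝ, t ≠ 0 := by rw [ae_iff]; simp
    have n1 : ∀ᵐ t : ℝ, t ≠ 1 := by rw [ae_iff]; simp
    filter_upwards [hc, n0, n1] with t h2 h3 h4 ht
    rw [uIcc_of_le zero_le_one] at ht
    exact h2 ⟨lt_of_le_of_ne ht.1 (Ne.symm h3), lt_of_le_of_ne ht.2 h4⟩
  have h2 := ftc_lip hlip h1
  rw [intervalIntegral.integral_of_le zero_le_one, integral_Ioc_eq_integral_Ioo] at h2
  rw [← h2]
  simp [seg]

/-- bounded integrand along the segments -/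
theorem seg_int {κ : Measure (ℝ × ℝ)} [IsFiniteMeasure κ] {m0 : ℝ × ℝ} {r : ℝ}
    (hb : ∀ᵐ c ∂κ, c ∈ ball m0 r) (p : ℝ × ℝ) {θ1 θ2 : ℝ × ℝ → ℝ}
    (m1 : Measurable θ1) (m2 : Measurable θ2) {C : ℝ} (h1 : ∀ q, |θ1 q| ≤ C)
    (h2 : ∀ q, |θ2 q| ≤ C) :
    Integrable (fun s : (ℝ × ℝ) × ℝ => (p - s.1).1 * θ1 (seg p s) + (p - s.1).2 * θ2 (seg p s))
      (κ.prod T01) := by
  have hms := measurable_seg p
  have hC : 0 ≤ C := (abs_nonneg _).trans (h1 p)
  refine Integrable.of_bound (C := 2 * ((dist p m0 + r) * C)) ?_ ?_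
  · exact (((measurable_const.sub measurable_fst).fst.mul (m1.comp hms)).add
      ((measurable_const.sub measurable_fst).snd.mul (m2.comp hms))).aestronglyMeasurable
  · have hb' : ∀ᵐ s ∂(κ.prod T01), s.1 ∈ ball m0 r := Measure.quasiMeasurePreserving_fst.ae hb
    filter_upwards [hb'] with s hs
    have hd : ‖p - s.1‖ ≤ dist p m0 + r := by
      rw [← dist_eq_norm]
      have := dist_triangle p m0 s.1
      rw [mem_ball, dist_comm] at hs
      linarith
    have k1 : |(p - s.1).1| ≤ dist p m0 + r := (norm_fst_le (p - s.1)).trans hd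
    have k2 : |(p - s.1).2| ≤ dist p m0 + r := (norm_snd_le (p - s.1)).trans hd
    have k0 : 0 ≤ dist p m0 + r := (abs_nonneg _).trans k1
    rw [Real.norm_eq_abs]
    refine (abs_add_le _ _).trans ?_
    rw [abs_mul, abs_mul]
    have := mul_le_mul k1 (h1 (seg p s)) (abs_nonneg _) k0
    have := mul_le_mul k2 (h2 (seg p s)) (abs_nonneg _) k0
    linarith

/-- (F1) for a point mass -/
theorem seg_F1 {κ : Measure (ℝ × ℝ)} [IsProbabilityMeasure κ] (hκ : κ ≪ volume) {m0 : ℝ × ℝ}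
    {r : ℝ} (hb : ∀ᵐ c ∂κ, c ∈ ball m0 r) {e : ℝ × ℝ → ℝ} {L : ℝ} (hL : 0 ≤ L)
    (he : ∀ p q : ℝ × ℝ, |e p - e q| ≤ L * dist p q) (p : ℝ × ℝ) :
    ∫ s, ((p - s.1).1 * gx e (seg p s) + (p - s.1).2 * gy e (seg p s)) ∂(κ.prod T01) =
      e p - ∫ c, e c ∂κ := by
  have heSL : SL univ L e := fun p q _ => he p q
  have hec : Continuous e := continuous_iff_continuousAt.mpr fun p =>
    heSL.continuousAt isOpen_univ (mem_univ p)
  rw [integral_prod _ (seg_int hb p (measurable_gx e) (measurable_gy e)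
    (fun q => heSL.abs_gx_le isOpen_univ hL (mem_univ q))
    (fun q => heSL.abs_gy_le isOpen_univ hL (mem_univ q))),
    integral_congr_ae (seg_ftc hκ hL he p)]
  have hei : Integrable e κ := by
    refine Integrable.of_bound (C := |e m0| + L * r) hec.aestronglyMeasurable ?_
    filter_upwards [hb] with c hc
    rw [mem_ball] at hc
    have h1 := he c m0
    have h2 : L * dist c m0 ≤ L * r := mul_le_mul_of_nonneg_left hc.le hL
    have h3 : |e c| ≤ |e c - e m0| + |e m0| := by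
      have := abs_add_le (e c - e m0) (e m0); simpa using this
    rw [Real.norm_eq_abs]; linarith
  rw [integral_sub (integrable_const _) hei]
  simp

/-- the gauge of the square -/
noncomputable abbrev gau (m0 : ℝ × ℝ) (h : ℝ) : ℝ × ℝ → ℝ := fun q => dist q m0 / h

theorem gau_lip {m0 : ℝ × ℝ} {h : ℝ} (hh : 0 < h) (p q : ℝ × ℝ) :
    |gau m0 h p - gau m0 h q| ≤ h⁻¹ * dist p q := by
  rw [gau, ← sub_div, abs_div, abs_of_pos hh, div_eq_inv_mul]
  exact mul_le_mul_of_nonneg_left (abs_dist_sub_le p q m0) (inv_nonneg.mpr hh.le)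

theorem eta_lip {m0 : ℝ × ℝ} {h : ℝ} (hh : 0 < h) {ε : ℝ} (hε : 0 < ε) (p q : ℝ × ℝ) :
    |rmp (1 - 2 * ε) (1 - ε) (gau m0 h p) - rmp (1 - 2 * ε) (1 - ε) (gau m0 h q)| ≤
      (ε⁻¹ * h⁻¹) * dist p q := by
  have hlt : 1 - 2 * ε < 1 - ε := by linarith
  have h1 := rmp_lip hlt (gau m0 h p) (gau m0 h q)
  rw [show 1 - ε - (1 - 2 * ε) = ε by ring] at h1
  refine h1.trans ?_
  rw [mul_assoc]
  exact mul_le_mul_of_nonneg_left (gau_lip hh p q) (inv_nonneg.mpr hε.le)

theorem dist_seg_le {m0 p c : ℝ × ℝ} {t : ℝ} (h0 : 0 ≤ t) (h1 : t ≤ 1) :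
    dist (seg p (c, t)) m0 ≤ (1 - t) * dist c m0 + t * dist p m0 := by
  have e : seg p (c, t) - m0 = (1 - t) • (c - m0) + t • (p - m0) := by
    simp only [seg]; module
  rw [dist_eq_norm, e, dist_eq_norm, dist_eq_norm]
  refine (norm_add_le _ _).trans ?_
  rw [norm_smul, norm_smul, Real.norm_of_nonneg h0, Real.norm_of_nonneg (sub_nonneg.mpr h1)]

theorem seg_mem_ball {m0 p c : ℝ × ℝ} {h t : ℝ} (hh : 0 < h) (hp : p ∈ closedBall m0 h)
    (hc : c ∈ ball m0 (h / 2)) (ht : t ∈ Ioo (0 : ℝ) 1) : seg p (c, t) ∈ ball m0 h := by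
  rw [mem_ball] at hc ⊢
  rw [mem_closedBall] at hp
  have h1 := dist_seg_le (m0 := m0) (p := p) (c := c) ht.1.le ht.2.le
  have h2 : 0 < 1 - t := by linarith [ht.2]
  nlinarith [ht.1]

/-- above `α ≥ 1/2` the gauge increases along the segments -/
theorem eta_anti {m0 p c : ℝ × ℝ} {h ε : ℝ} (hh : 0 < h) (hc : c ∈ ball m0 (h / 2))
    (hε : 0 < ε) (hε4 : ε ≤ 1 / 4) :
    AntitoneOn (fun t => rmp (1 - 2 * ε) (1 - ε) (gau m0 h (seg p (c, t)))) (Icc 0 1) := by
  intro t ht t' ht' htt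
  simp only
  have hlt : 1 - 2 * ε < 1 - ε := by linarith
  set φ : ℝ → ℝ := fun t => gau m0 h (seg p (c, t)) with hφ
  rcases le_or_gt (φ t) (1 - 2 * ε) with h1 | h1
  · rw [rmp_one hlt h1]; exact rmp_le_one _ _ _
  · -- the gauge at time t' is at least the gauge at time t
    have hφc : gau m0 h c < φ t := by
      have : gau m0 h c < 1 / 2 := by
        rw [gau, div_lt_iff₀ hh]; rw [mem_ball] at hc; linarith
      linarith
    have key : φ t ≤ φ t' := by
      rcases eq_or_lt_of_le ht.1 with h0 | h0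
      · exfalso
        have : φ t = gau m0 h c := by simp [hφ, ← h0, seg]
        linarith
      · have ht'0 : 0 < t' := lt_of_lt_of_le h0 htt
        have h3 : dist (seg p (c, t)) m0 ≤
            (1 - t / t') * dist c m0 + (t / t') * dist (seg p (c, t')) m0 := by
          have e : seg p (c, t) = seg (seg p (c, t')) (c, t / t') := by
            simp only [seg]
            rw [show c + (t / t') • (c + t' • (p - c) - c) = c + ((t / t') * t') • (p - c) by
              module, div_mul_cancel₀ _ ht'0.ne']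
          rw [e]
          exact dist_seg_le (div_nonneg h0.le ht'0.le) ((div_le_one ht'0).mpr htt)
        have h4 : φ t ≤ (1 - t / t') * gau m0 h c + (t / t') * φ t' := by
          simp only [hφ, gau]
          rw [div_le_iff₀ hh]
          refine h3.trans (le_of_eq ?_)
          field_simp
        have h5 : 0 < t / t' := div_pos h0 ht'0
        have h6 : t / t' ≤ 1 := (div_le_one ht'0).mpr htt
        by_contra hcon
        push Not at hcon
        nlinarith
    have hmono : ∀ u v : ℝ, u ≤ v → rmp (1 - 2 * ε) (1 - ε) v ≤ rmp (1 - 2 * ε) (1 - ε) u := by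
      intro u v huv
      unfold rmp
      refine max_le_max le_rfl (min_le_min le_rfl ?_)
      exact div_le_div_of_nonneg_right (by linarith) (by linarith)
    exact hmono _ _ key

/-- (F2) for a point mass -/
theorem seg_F2 {κ : Measure (ℝ × ℝ)} [IsProbabilityMeasure κ] (hκ : κ ≪ volume) {m0 : ℝ × ℝ}
    {h : ℝ} (hh : 0 < h) (hb : ∀ᵐ c ∂κ, c ∈ ball m0 (h / 2)) {ε : ℝ} (hε : 0 < ε)
    (hε4 : ε ≤ 1 / 4) (p : ℝ × ℝ) :
    ∫ s, |(p - s.1).1 * gx (fun q => rmp (1 - 2 * ε) (1 - ε) (gau m0 h q)) (seg p s) +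
      (p - s.1).2 * gy (fun q => rmp (1 - 2 * ε) (1 - ε) (gau m0 h q)) (seg p s)|
        ∂(κ.prod T01) ≤ 1 := by
  set η : ℝ × ℝ → ℝ := fun q => rmp (1 - 2 * ε) (1 - ε) (gau m0 h q) with hη
  have hηl : ∀ p q : ℝ × ℝ, |η p - η q| ≤ (ε⁻¹ * h⁻¹) * dist p q := eta_lip hh hε
  have hL : 0 ≤ ε⁻¹ * h⁻¹ := by positivity
  have hF1 := seg_F1 hκ hb hL hηl p
  have hb' : ∀ᵐ s ∂(κ.prod T01), s.1 ∈ ball m0 (h / 2) :=
    Measure.quasiMeasurePreserving_fst.ae hb
  have ht' : ∀ᵐ s ∂(κ.prod T01), s.2 ∈ Ioo (0 : ℝ) 1 :=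
    Measure.quasiMeasurePreserving_snd.ae (ae_restrict_mem measurableSet_Ioo)
  have hneg : ∀ᵐ s ∂(κ.prod T01),
      |(p - s.1).1 * gx η (seg p s) + (p - s.1).2 * gy η (seg p s)| =
        -((p - s.1).1 * gx η (seg p s) + (p - s.1).2 * gy η (seg p s)) := by
    filter_upwards [seg_deriv hκ hηl p, hb', ht'] with s h1 h2 h3
    refine abs_of_nonpos ?_
    have h4 := (eta_anti (p := p) hh h2 hε hε4).derivWithin_nonpos (x := s.2)
    have h5 : Icc (0 : ℝ) 1 ∈ 𝓝 s.2 := Icc_mem_nhds h3.1 h3.2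
    rw [derivWithin_of_mem_nhds h5, h1.deriv] at h4
    exact h4
  rw [integral_congr_ae hneg, integral_neg, hF1]
  have h1 : ∫ c, η c ∂κ ≤ 1 := by
    have hηc : Continuous η := continuous_iff_continuousAt.mpr fun p =>
      (show SL univ (ε⁻¹ * h⁻¹) η from fun p q _ => hηl p q).continuousAt isOpen_univ (mem_univ p)
    have : ∫ c, η c ∂κ ≤ ∫ _, (1 : ℝ) ∂κ := by
      refine integral_mono ?_ (integrable_const _) fun c => rmp_le_one _ _ _
      refine Integrable.of_bound (C := 1) hηc.aestronglyMeasurable (Eventually.of_forall fun c => ?_)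
      rw [Real.norm_eq_abs, abs_of_nonneg (rmp_nonneg _ _ _)]
      exact rmp_le_one _ _ _
    simpa using this
  have h2 : 0 ≤ η p := rmp_nonneg _ _ _
  linarith

/-- length of the part of a line in a strip -/
theorem line_F3 {a b : ℝ} (hab : a ≤ b) (u v : ℝ) :
    ∫ t in Ioo (0 : ℝ) 1, |v| * (Ioo a b).indicator (fun _ => (1 : ℝ)) (u + t * v) ≤ b - a := by
  rcases eq_or_ne v 0 with rfl | hv
  · simp only [abs_zero, zero_mul, integral_zero]; linarith
  · rw [integral_const_mul]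
    have e1 : (fun t : ℝ => (Ioo a b).indicator (fun _ => (1 : ℝ)) (u + t * v)) =
        ((fun t : ℝ => t * v) ⁻¹' ((fun w : ℝ => u + w) ⁻¹' Ioo a b)).indicator
          (fun _ => (1 : ℝ)) := by
      rfl
    have hm : MeasurableSet ((fun t : ℝ => t * v) ⁻¹' ((fun w : ℝ => u + w) ⁻¹' Ioo a b)) :=
      (measurable_id.mul_const v) ((measurable_const.add measurable_id) measurableSet_Ioo)
    rw [e1, integral_indicator hm, setIntegral_const, smul_eq_mul, mul_one]
    have hvol : volume ((fun t : ℝ => t * v) ⁻¹' ((fun w : ℝ => u + w) ⁻¹' Ioo a b)) =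
        ENNReal.ofReal |v⁻¹| * ENNReal.ofReal (b - a) := by
      rw [Real.volume_preimage_mul_right hv, preimage_const_add_Ioo, Real.volume_Ioo]
      congr 2; ring
    have h1 : (volume.restrict (Ioo (0 : ℝ) 1)).real
        ((fun t : ℝ => t * v) ⁻¹' ((fun w : ℝ => u + w) ⁻¹' Ioo a b)) ≤ |v⁻¹| * (b - a) := by
      rw [Measure.real]
      refine ENNReal.toReal_le_of_le_ofReal (by
        have := abs_nonneg v⁻¹
        have : 0 ≤ b - a := by linarith
        positivity) ?_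
      refine (Measure.restrict_apply_le _ _).trans ?_
      rw [hvol, ← ENNReal.ofReal_mul (abs_nonneg _)]
    have h2 : |v| * (|v⁻¹| * (b - a)) = b - a := by
      rw [← mul_assoc, ← abs_mul, mul_inv_cancel₀ hv, abs_one, one_mul]
    calc _ ≤ |v| * (|v⁻¹| * (b - a)) := mul_le_mul_of_nonneg_left h1 (abs_nonneg _)
      _ = b - a := h2

/-- the length in a strip, averaged over the starting point -/
theorem seg_F3 {κ : Measure (ℝ × ℝ)} [IsProbabilityMeasure κ] {m0 : ℝ × ℝ} {r : ℝ}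
    (hb : ∀ᵐ c ∂κ, c ∈ ball m0 r) {a b : ℝ} (hab : a ≤ b) {π : ℝ × ℝ → ℝ}
    (hπm : Measurable π) (hπn : ∀ q, |π q| ≤ ‖q‖) (hπ : ∀ c p : ℝ × ℝ, ∀ t : ℝ,
      π (c + t • (p - c)) = π c + t * π (p - c)) (p : ℝ × ℝ) {S : Set (ℝ × ℝ)}
    (hSm : MeasurableSet S) (hS : ∀ q ∈ S, π q ∈ Ioo a b) :
    ∫ s, |π (p - s.1)| * S.indicator (fun _ => (1 : ℝ)) (seg p s) ∂(κ.prod T01) ≤ b - a := by
  have hms := measurable_seg p
  set Z : Set (ℝ × ℝ) := π ⁻¹' Ioo a b with hZ
  have hZm : MeasurableSet Z := hπm measurableSet_Ioo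
  have hb' : ∀ᵐ s ∂(κ.prod T01), s.1 ∈ ball m0 r := Measure.quasiMeasurePreserving_fst.ae hb
  have hint : ∀ {S : Set (ℝ × ℝ)}, MeasurableSet S →
      Integrable (fun s : (ℝ × ℝ) × ℝ => |π (p - s.1)| * S.indicator (fun _ => (1 : ℝ)) (seg p s))
        (κ.prod T01) := by
    intro S hSm
    refine Integrable.of_bound (C := (dist p m0 + r) * 1) ?_ ?_
    · exact ((hπm.comp (measurable_const.sub measurable_fst)).abs.mul
        ((measurable_const.indicator hSm).comp hms)).aestronglyMeasurable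
    · filter_upwards [hb'] with s hs
      have hd : ‖p - s.1‖ ≤ dist p m0 + r := by
        rw [← dist_eq_norm]
        have := dist_triangle p m0 s.1
        rw [mem_ball, dist_comm] at hs
        linarith
      have k1 : |π (p - s.1)| ≤ dist p m0 + r := (hπn _).trans hd
      rw [Real.norm_eq_abs, abs_mul, abs_abs]
      refine mul_le_mul k1 ?_ (abs_nonneg _) ((abs_nonneg _).trans k1)
      by_cases hq : seg p s ∈ S
      · rw [indicator_of_mem hq, abs_one]
      · rw [indicator_of_notMem hq, abs_zero]; exact zero_le_one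
  have h1 : ∫ s, |π (p - s.1)| * S.indicator (fun _ => (1 : ℝ)) (seg p s) ∂(κ.prod T01) ≤
      ∫ s, |π (p - s.1)| * Z.indicator (fun _ => (1 : ℝ)) (seg p s) ∂(κ.prod T01) := by
    refine integral_mono (hint hSm) (hint hZm) fun s => ?_
    refine mul_le_mul_of_nonneg_left ?_ (abs_nonneg _)
    exact indicator_le_indicator_of_subset hS (fun _ => zero_le_one) _
  refine h1.trans ?_
  rw [integral_prod _ (hint hZm)]
  have h2 : ∀ c : ℝ × ℝ, ∫ t in Ioo (0 : ℝ) 1, |π (p - c)| *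
      Z.indicator (fun _ => (1 : ℝ)) (seg p (c, t)) ≤ b - a := by
    intro c
    refine le_trans (le_of_eq ?_) (line_F3 hab (π c) (π (p - c)))
    congr 1
    ext t
    have : Z.indicator (fun _ => (1 : ℝ)) (seg p (c, t)) =
        (Ioo a b).indicator (fun _ => (1 : ℝ)) (π (seg p (c, t))) := rfl
    rw [this]
    simp only [seg, hπ]
  have h3 : ∫ c, (∫ t in Ioo (0 : ℝ) 1, |π (p - c)| *
      Z.indicator (fun _ => (1 : ℝ)) (seg p (c, t))) ∂κ ≤ ∫ _, (b - a) ∂κ :=
    integral_mono (hint hZm).integral_prod_left (integrable_const _) h2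
  simpa using h3

/-! ### the fill of one measure -/

/-- `k` is the flow of `ν` -/
structure Fil (κ ν : Measure (ℝ × ℝ)) (m0 : ℝ × ℝ) (h : ℝ) (k1 k2 : ℝ × ℝ → ℝ) : Prop where
  m1 : Measurable k1
  m2 : Measurable k2
  i1 : Integrable k1 volume
  i2 : Integrable k2 volume
  z1 : ∀ p ∉ ball m0 h, k1 p = 0
  z2 : ∀ p ∉ ball m0 h, k2 p = 0
  dual : ∀ θ1 θ2 : ℝ × ℝ → ℝ, Measurable θ1 → Measurable θ2 → ∀ C : ℝ, (∀ q, |θ1 q| ≤ C) →
    (∀ q, |θ2 q| ≤ C) → ∫ q, (k1 q * θ1 q + k2 q * θ2 q) =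
      ∫ p, (∫ s, ((p - s.1).1 * θ1 (seg p s) + (p - s.1).2 * θ2 (seg p s)) ∂(κ.prod T01)) ∂ν

theorem exists_fil {κ : Measure (ℝ × ℝ)} [IsProbabilityMeasure κ] (hκ : κ ≪ volume) {m0 : ℝ × ℝ}
    {h : ℝ} (hh : 0 < h) (hb : ∀ᵐ c ∂κ, c ∈ ball m0 (h / 2)) (ν : Measure (ℝ × ℝ))
    [IsFiniteMeasure ν] (hν : ν (closedBall m0 h)ᶜ = 0) : ∃ k1 k2, Fil κ ν m0 h k1 k2 := by
  set m := ν.prod (κ.prod T01) with hm
  have hp' : ∀ᵐ z ∂m, z.1 ∈ closedBall m0 h := by
    have : ∀ᵐ p ∂ν, p ∈ closedBall m0 h := by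
      rw [ae_iff]; exact hν
    exact Measure.quasiMeasurePreserving_fst.ae this
  have hc' : ∀ᵐ z ∂m, z.2.1 ∈ ball m0 (h / 2) := by
    have h1 : ∀ᵐ s ∂(κ.prod T01), s.1 ∈ ball m0 (h / 2) :=
      Measure.quasiMeasurePreserving_fst.ae hb
    exact Measure.quasiMeasurePreserving_snd.ae h1
  have ht' : ∀ᵐ z ∂m, z.2.2 ∈ Ioo (0 : ℝ) 1 := by
    have h1 : ∀ᵐ s ∂(κ.prod T01), s.2 ∈ Ioo (0 : ℝ) 1 :=
      Measure.quasiMeasurePreserving_snd.ae (ae_restrict_mem measurableSet_Ioo)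
    exact Measure.quasiMeasurePreserving_snd.ae h1
  have hB : ∀ᵐ z ∂m, seg z.1 z.2 ∈ ball m0 h := by
    filter_upwards [hp', hc', ht'] with z h1 h2 h3
    exact seg_mem_ball hh h1 h2 h3
  have hbd : ∀ᵐ z ∂m, ‖z.1 - z.2.1‖ ≤ 2 * h := by
    filter_upwards [hp', hc'] with z h1 h2
    rw [← dist_eq_norm]
    have := dist_triangle z.1 m0 z.2.1
    rw [mem_ball, dist_comm] at h2
    rw [mem_closedBall] at h1
    linarith
  have hw1 : Integrable (fun z : (ℝ × ℝ) × ((ℝ × ℝ) × ℝ) => (z.1 - z.2.1).1) m := by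
    refine Integrable.of_bound (C := 2 * h) (by fun_prop : Measurable _).aestronglyMeasurable ?_
    filter_upwards [hbd] with z hz
    exact (norm_fst_le _).trans hz
  have hw2 : Integrable (fun z : (ℝ × ℝ) × ((ℝ × ℝ) × ℝ) => (z.1 - z.2.1).2) m := by
    refine Integrable.of_bound (C := 2 * h) (by fun_prop : Measurable _).aestronglyMeasurable ?_
    filter_upwards [hbd] with z hz
    exact (norm_snd_le _).trans hz
  obtain ⟨k1, k1m, k1i, k1z, k1d⟩ := pushden measurable_seg2 (seg_ac hκ ν)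
    (by fun_prop : Measurable fun z : (ℝ × ℝ) × ((ℝ × ℝ) × ℝ) => (z.1 - z.2.1).1) hw1
    measurableSet_ball hB
  obtain ⟨k2, k2m, k2i, k2z, k2d⟩ := pushden measurable_seg2 (seg_ac hκ ν)
    (by fun_prop : Measurable fun z : (ℝ × ℝ) × ((ℝ × ℝ) × ℝ) => (z.1 - z.2.1).2) hw2
    measurableSet_ball hB
  refine ⟨k1, k2, k1m, k2m, k1i, k2i, k1z, k2z, fun θ1 θ2 t1 t2 C h1 h2 => ?_⟩
  have e1 : Integrable (fun q => k1 q * θ1 q) volume :=
    k1i.mul_bdd (c := C) t1.aestronglyMeasurable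
      (Eventually.of_forall fun q => by rw [Real.norm_eq_abs]; exact h1 q)
  have e2 : Integrable (fun q => k2 q * θ2 q) volume :=
    k2i.mul_bdd (c := C) t2.aestronglyMeasurable
      (Eventually.of_forall fun q => by rw [Real.norm_eq_abs]; exact h2 q)
  have j1 : Integrable (fun z : (ℝ × ℝ) × ((ℝ × ℝ) × ℝ) => (z.1 - z.2.1).1 * θ1 (seg z.1 z.2)) m :=
    hw1.mul_bdd (c := C) (t1.comp measurable_seg2).aestronglyMeasurable
      (Eventually.of_forall fun z => by rw [Real.norm_eq_abs]; exact h1 _)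
  have j2 : Integrable (fun z : (ℝ × ℝ) × ((ℝ × ℝ) × ℝ) => (z.1 - z.2.1).2 * θ2 (seg z.1 z.2)) m :=
    hw2.mul_bdd (c := C) (t2.comp measurable_seg2).aestronglyMeasurable
      (Eventually.of_forall fun z => by rw [Real.norm_eq_abs]; exact h2 _)
  rw [integral_add e1 e2, k1d θ1 t1 C h1, k2d θ2 t2 C h2, ← integral_add j1 j2]
  exact integral_prod _ (j1.add j2)

theorem Fil.cost_le {κ ν₁ ν₂ : Measure (ℝ × ℝ)} [IsProbabilityMeasure κ] [IsFiniteMeasure ν₁]
    [IsFiniteMeasure ν₂] {m0 : ℝ × ℝ} {h : ℝ} {k1 k2 l1 l2 : ℝ × ℝ → ℝ}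
    (F : Fil κ ν₁ m0 h k1 k2) (G : Fil κ ν₂ m0 h l1 l2)
    (h1 : ν₁ (closedBall m0 h)ᶜ = 0) (h2 : ν₂ (closedBall m0 h)ᶜ = 0)
    {f1 f2 : ℝ × ℝ → ℝ} (fm1 : Measurable f1) (fm2 : Measurable f2) {C : ℝ}
    (hf1 : ∀ q, |f1 q| ≤ C) (hf2 : ∀ q, |f2 q| ≤ C) {P : Set (ℝ × ℝ)} (hP : MeasurableSet P)
    {K : ℝ}
    (hc : ∀ p ∈ closedBall m0 h, ∫ s, |(p - s.1).1 * f1 (seg p s) + (p - s.1).2 * f2 (seg p s)|
      ∂(κ.prod T01) ≤ P.indicator (fun _ => K) p) :
    ∫ q, |(k1 q - l1 q) * f1 q + (k2 q - l2 q) * f2 q| ≤ K * (ν₁ P + ν₂ P).toReal := by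
  set H : ℝ × ℝ → ℝ := fun q => (k1 q - l1 q) * f1 q + (k2 q - l2 q) * f2 q with hH
  have hHm : Measurable H :=
    ((F.m1.sub G.m1).mul fm1).add ((F.m2.sub G.m2).mul fm2)
  set θ : ℝ × ℝ → ℝ := fun q => if 0 ≤ H q then 1 else -1 with hθ
  have hθm : Measurable θ :=
    Measurable.ite (measurableSet_le measurable_const hHm) measurable_const measurable_const
  have hθb : ∀ q, |θ q| = 1 := by
    intro q
    simp only [hθ]
    split_ifs <;> simp
  have hθH : ∀ q, |H q| = H q * θ q := by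
    intro q
    simp only [hθ]
    split_ifs with hq
    · rw [abs_of_nonneg hq, mul_one]
    · rw [abs_of_neg (not_le.mp hq)]; ring
  have g1m : Measurable fun q => f1 q * θ q := fm1.mul hθm
  have g2m : Measurable fun q => f2 q * θ q := fm2.mul hθm
  have g1b : ∀ q, |f1 q * θ q| ≤ C := fun q => by rw [abs_mul, hθb, mul_one]; exact hf1 q
  have g2b : ∀ q, |f2 q * θ q| ≤ C := fun q => by rw [abs_mul, hθb, mul_one]; exact hf2 q
  have i1 := F.i1.mul_bdd (c := C) g1m.aestronglyMeasurable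
    (Eventually.of_forall fun q => by rw [Real.norm_eq_abs]; exact g1b q)
  have i2 := F.i2.mul_bdd (c := C) g2m.aestronglyMeasurable
    (Eventually.of_forall fun q => by rw [Real.norm_eq_abs]; exact g2b q)
  have j1 := G.i1.mul_bdd (c := C) g1m.aestronglyMeasurable
    (Eventually.of_forall fun q => by rw [Real.norm_eq_abs]; exact g1b q)
  have j2 := G.i2.mul_bdd (c := C) g2m.aestronglyMeasurable
    (Eventually.of_forall fun q => by rw [Real.norm_eq_abs]; exact g2b q)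
  have main : ∫ q, |H q| = (∫ q, (k1 q * (f1 q * θ q) + k2 q * (f2 q * θ q))) -
      ∫ q, (l1 q * (f1 q * θ q) + l2 q * (f2 q * θ q)) := by
    refine Eq.trans ?_ (integral_sub (i1.add i2) (j1.add j2))
    congr 1
    ext q
    rw [hθH]
    simp only [hH]
    ring
  have one : ∀ ν : Measure (ℝ × ℝ), IsFiniteMeasure ν → ν (closedBall m0 h)ᶜ = 0 →
      |∫ p, (∫ s, ((p - s.1).1 * (f1 (seg p s) * θ (seg p s)) +
        (p - s.1).2 * (f2 (seg p s) * θ (seg p s))) ∂(κ.prod T01)) ∂ν| ≤ K * (ν P).toReal := by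
    intro ν hν h0
    have hg : Integrable (P.indicator fun _ => K) ν := (integrable_const K).indicator hP
    have hle : ∀ᵐ p ∂ν, ‖∫ s, ((p - s.1).1 * (f1 (seg p s) * θ (seg p s)) +
        (p - s.1).2 * (f2 (seg p s) * θ (seg p s))) ∂(κ.prod T01)‖ ≤
        P.indicator (fun _ => K) p := by
      have h3 : ∀ᵐ p ∂ν, p ∈ closedBall m0 h := by rw [ae_iff]; exact h0
      filter_upwards [h3] with p hp
      refine le_trans ?_ (hc p hp)
      refine (norm_integral_le_integral_norm _).trans (le_of_eq ?_)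
      congr 1
      ext s
      rw [Real.norm_eq_abs]
      have : (p - s.1).1 * (f1 (seg p s) * θ (seg p s)) +
          (p - s.1).2 * (f2 (seg p s) * θ (seg p s)) =
          ((p - s.1).1 * f1 (seg p s) + (p - s.1).2 * f2 (seg p s)) * θ (seg p s) := by ring
      rw [this, abs_mul, hθb, mul_one]
    have h4 := norm_integral_le_of_norm_le hg hle
    rw [Real.norm_eq_abs] at h4
    refine h4.trans (le_of_eq ?_)
    rw [integral_indicator hP, setIntegral_const, smul_eq_mul, mul_comm]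
    rfl
  have hP1 : ν₁ P ≠ ⊤ := measure_ne_top _ _
  have hP2 : ν₂ P ≠ ⊤ := measure_ne_top _ _
  rw [main, F.dual _ _ g1m g2m C g1b g2b, G.dual _ _ g1m g2m C g1b g2b,
    ENNReal.toReal_add hP1 hP2, mul_add]
  have a1 := one ν₁ inferInstance h1
  have a2 := one ν₂ inferInstance h2
  have b1 := (abs_le.mp a1).2
  have b2 := (abs_le.mp a2).1
  linarith

/-- off `P` no segment meets `S` -/
theorem seg_not_mem {m0 p c : ℝ × ℝ} {h t : ℝ} (hp : p ∈ closedBall m0 h)
    (hc : c ∈ ball m0 (h / 2)) (ht : t ∈ Ioo (0 : ℝ) 1) :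
    dist (seg p (c, t)) p ≤ 3 * (h - dist (seg p (c, t)) m0) := by
  rw [mem_ball] at hc
  rw [mem_closedBall] at hp
  have h1 := dist_seg_le (m0 := m0) (p := p) (c := c) ht.1.le ht.2.le
  have h2 : dist (seg p (c, t)) p = (1 - t) * dist p c := by
    have e : seg p (c, 1) = p := by simp [seg]
    have := dist_seg p c t 1
    rw [e, abs_sub_comm, abs_of_pos (sub_pos.mpr ht.2)] at this
    exact this
  have h3 := dist_triangle p m0 c
  rw [dist_comm m0 c] at h3
  have h4 : 0 < 1 - t := by linarith [ht.2]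
  rw [h2]
  nlinarith [ht.1]

/-- the cost of (F3) -/
theorem cost_F3 {κ : Measure (ℝ × ℝ)} [IsProbabilityMeasure κ] {m0 : ℝ × ℝ} {h : ℝ}
    (hb : ∀ᵐ c ∂κ, c ∈ ball m0 (h / 2)) {a b : ℝ} (hab : a ≤ b) {π : ℝ × ℝ → ℝ}
    (hπm : Measurable π) (hπn : ∀ q, |π q| ≤ ‖q‖) (hπ : ∀ c p : ℝ × ℝ, ∀ t : ℝ,
      π (c + t • (p - c)) = π c + t * π (p - c)) {S : Set (ℝ × ℝ)}
    (hSm : MeasurableSet S) (hS : ∀ q ∈ S, π q ∈ Ioo a b) {P : Set (ℝ × ℝ)}
    (hP : ∀ p ∈ closedBall m0 h, ∀ u ∈ S, dist u p ≤ 3 * (h - dist u m0) → p ∈ P)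
    {p : ℝ × ℝ} (hp : p ∈ closedBall m0 h) :
    ∫ s, |π (p - s.1)| * S.indicator (fun _ => (1 : ℝ)) (seg p s) ∂(κ.prod T01) ≤
      P.indicator (fun _ => b - a) p := by
  by_cases hpP : p ∈ P
  · rw [indicator_of_mem hpP]
    exact seg_F3 hb hab hπm hπn hπ p hSm hS
  · rw [indicator_of_notMem hpP]
    refine le_of_eq ?_
    have hb' : ∀ᵐ s ∂(κ.prod T01), s.1 ∈ ball m0 (h / 2) :=
      Measure.quasiMeasurePreserving_fst.ae hb
    have ht' : ∀ᵐ s ∂(κ.prod T01), s.2 ∈ Ioo (0 : ℝ) 1 :=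
      Measure.quasiMeasurePreserving_snd.ae (ae_restrict_mem measurableSet_Ioo)
    have h0 : (fun s => |π (p - s.1)| * S.indicator (fun _ => (1 : ℝ)) (seg p s))
        =ᵐ[κ.prod T01] 0 := by
      filter_upwards [hb', ht'] with s h2 h3
      have : seg p s ∉ S := fun hs => hpP (hP p hp _ hs (seg_not_mem hp h2 h3))
      rw [indicator_of_notMem this, mul_zero]; rfl
    rw [integral_congr_ae h0]
    simp

/-- the properties of the fill of the square `closedBall (x, y) h` -/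
structure FillC (x y h : ℝ) (ν₁ ν₂ : Measure (ℝ × ℝ)) (X1 X2 : ℝ × ℝ → ℝ) : Prop where
  m1 : Measurable X1
  m2 : Measurable X2
  z : ∀ p ∉ ball (x, y) h, X1 p = 0 ∧ X2 p = 0
  i1 : Integrable X1 volume
  i2 : Integrable X2 volume
  F1 : ∀ (L : ℝ) (e : ℝ × ℝ → ℝ), 0 ≤ L → (∀ p q, |e p - e q| ≤ L * dist p q) →
    ∫ p in ball (x, y) h, (X1 p * gx e p + X2 p * gy e p) = (∫ p, e p ∂ν₁) - ∫ p, e p ∂ν₂
  F2 : ∀ ε, 0 < ε → ε ≤ 1 / 4 →
    ε⁻¹ * ∫ p in ball (x, y) h ∩ ann (fun p => dist p (x, y) / h) ε,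
      |X1 p * gx (fun p => dist p (x, y) / h) p +
        X2 p * gy (fun p => dist p (x, y) / h) p| ≤ (ν₁ univ + ν₂ univ).toReal
  F3 : ∀ a b c d, a ≤ b → c ≤ d → ∀ P, MeasurableSet P →
    (∀ p ∈ closedBall (x, y) h, ∀ u ∈ Ioo a b ×ˢ Ioo c d,
      dist u p ≤ 3 * (h - dist u (x, y)) → p ∈ P) →
    (∫ u in Ioo a b ×ˢ Ioo c d, |X1 u| ≤ (b - a) * (ν₁ P + ν₂ P).toReal) ∧
    (∫ u in Ioo a b ×ˢ Ioo c d, |X2 u| ≤ (d - c) * (ν₁ P + ν₂ P).toReal)

/-- the fill of a square, with the two flows -/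
theorem fill_core {x y h : ℝ} (hh : 0 < h) (ν₁ ν₂ : Measure (ℝ × ℝ)) [IsFiniteMeasure ν₁]
    [IsFiniteMeasure ν₂] (h1 : ν₁ (closedBall (x, y) h)ᶜ = 0)
    (h2 : ν₂ (closedBall (x, y) h)ᶜ = 0) (hm : ν₁ univ = ν₂ univ) :
    ∃ (κ : Measure (ℝ × ℝ)) (k1 k2 l1 l2 : ℝ × ℝ → ℝ), IsProbabilityMeasure κ ∧ κ ≪ volume ∧
      (∀ᵐ c ∂κ, c ∈ ball (x, y) (h / 2)) ∧ Fil κ ν₁ (x, y) h k1 k2 ∧ Fil κ ν₂ (x, y) h l1 l2 ∧
      FillC x y h ν₁ ν₂ (fun q => k1 q - l1 q) (fun q => k2 q - l2 q) := by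
  set m0 : ℝ × ℝ := (x, y) with hm0
  set κ : Measure (ℝ × ℝ) := ProbabilityTheory.cond volume (ball m0 (h / 2)) with hκd
  have hh2 : 0 < h / 2 := by linarith
  have hprob : IsProbabilityMeasure κ :=
    ProbabilityTheory.cond_isProbabilityMeasure_of_finite (measure_ball_pos _ _ hh2).ne'
      measure_ball_lt_top.ne
  have hκ : κ ≪ volume := ProbabilityTheory.cond_absolutelyContinuous
  have hb : ∀ᵐ c ∂κ, c ∈ ball m0 (h / 2) := ProbabilityTheory.ae_cond_mem measurableSet_ball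
  obtain ⟨k1, k2, F⟩ := exists_fil hκ hh hb ν₁ h1
  obtain ⟨l1, l2, G⟩ := exists_fil hκ hh hb ν₂ h2
  refine ⟨κ, k1, k2, l1, l2, hprob, hκ, hb, F, G, F.m1.sub G.m1, F.m2.sub G.m2,
    fun q hq => ⟨by simp only [F.z1 q hq, G.z1 q hq, sub_zero],
      by simp only [F.z2 q hq, G.z2 q hq, sub_zero]⟩,
    F.i1.sub G.i1, F.i2.sub G.i2, ?_, ?_, ?_⟩
  · -- (F1)
    intro L e hL he
    have heSL : SL univ L e := fun p q _ => he p q
    have hec : Continuous e := continuous_iff_continuousAt.mpr fun p =>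
      heSL.continuousAt isOpen_univ (mem_univ p)
    have hx : ∀ q, |gx e q| ≤ L := fun q => heSL.abs_gx_le isOpen_univ hL (mem_univ q)
    have hy : ∀ q, |gy e q| ≤ L := fun q => heSL.abs_gy_le isOpen_univ hL (mem_univ q)
    have bx : ∀ᵐ q : ℝ × ℝ, ‖gx e q‖ ≤ L := Eventually.of_forall hx
    have by' : ∀ᵐ q : ℝ × ℝ, ‖gy e q‖ ≤ L := Eventually.of_forall hy
    have i1 := F.i1.mul_bdd (measurable_gx e).aestronglyMeasurable bx
    have i2 := F.i2.mul_bdd (measurable_gy e).aestronglyMeasurable by'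
    have j1 := G.i1.mul_bdd (measurable_gx e).aestronglyMeasurable bx
    have j2 := G.i2.mul_bdd (measurable_gy e).aestronglyMeasurable by'
    have hei : ∀ ν : Measure (ℝ × ℝ), IsFiniteMeasure ν → ν (closedBall m0 h)ᶜ = 0 →
        ∫ p, (e p - ∫ c, e c ∂κ) ∂ν = (∫ p, e p ∂ν) - (ν univ).toReal * ∫ c, e c ∂κ := by
      intro ν _ h0
      have hI : Integrable e ν := by
        refine Integrable.of_bound (C := |e m0| + L * h) hec.aestronglyMeasurable ?_
        have h3 : ∀ᵐ p ∂ν, p ∈ closedBall m0 h := by rw [ae_iff]; exact h0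
        filter_upwards [h3] with c hc
        rw [mem_closedBall] at hc
        have k1 := he c m0
        have k2 : L * dist c m0 ≤ L * h := mul_le_mul_of_nonneg_left hc hL
        have k3 : |e c| ≤ |e c - e m0| + |e m0| := by
          have := abs_add_le (e c - e m0) (e m0); simpa using this
        rw [Real.norm_eq_abs]; linarith
      rw [integral_sub hI (integrable_const _), integral_const, smul_eq_mul]
      rfl
    rw [setIntegral_eq_integral_of_forall_compl_eq_zero (fun q hq => by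
      simp only [F.z1 q hq, G.z1 q hq, F.z2 q hq, G.z2 q hq, sub_zero, zero_mul, add_zero])]
    have main : ∫ q, ((k1 q - l1 q) * gx e q + (k2 q - l2 q) * gy e q) =
        (∫ q, (k1 q * gx e q + k2 q * gy e q)) - ∫ q, (l1 q * gx e q + l2 q * gy e q) := by
      refine Eq.trans ?_ (integral_sub (i1.add i2) (j1.add j2))
      congr 1
      ext q
      ring
    rw [main, F.dual _ _ (measurable_gx e) (measurable_gy e) L hx hy,
      G.dual _ _ (measurable_gx e) (measurable_gy e) L hx hy]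
    simp only [seg_F1 hκ hb hL he]
    rw [hei ν₁ inferInstance h1, hei ν₂ inferInstance h2, hm]
    ring
  · -- (F2)
    intro ε hε hε4
    have hlt : 1 - 2 * ε < 1 - ε := by linarith
    set g : ℝ × ℝ → ℝ := fun p => dist p m0 / h with hg
    set η : ℝ × ℝ → ℝ := fun q => rmp (1 - 2 * ε) (1 - ε) (gau m0 h q) with hη
    have hηl : ∀ p q : ℝ × ℝ, |η p - η q| ≤ (ε⁻¹ * h⁻¹) * dist p q := eta_lip hh hε
    have hL : 0 ≤ ε⁻¹ * h⁻¹ := by positivity
    have hηSL : SL univ (ε⁻¹ * h⁻¹) η := fun p q _ => hηl p q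
    have hgSL : SL univ h⁻¹ g := fun p q _ => gau_lip hh p q
    have hgc : Continuous g := by fun_prop
    have hcost := F.cost_le G h1 h2 (measurable_gx η) (measurable_gy η)
      (fun q => hηSL.abs_gx_le isOpen_univ hL (mem_univ q))
      (fun q => hηSL.abs_gy_le isOpen_univ hL (mem_univ q)) MeasurableSet.univ (K := 1)
      (fun p _ => by
        rw [indicator_of_mem (mem_univ p)]
        exact seg_F2 hκ hh hb hε hε4 p)
    rw [one_mul] at hcost
    refine le_trans (le_of_eq ?_) hcost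
    have hmB : MeasurableSet (ball m0 h ∩ ann g ε) :=
      measurableSet_ball.inter (measurableSet_ann hgc.measurable ε)
    rw [← integral_const_mul, ← integral_indicator hmB]
    refine integral_congr_ae ?_
    filter_upwards [hgSL.ae_differentiableAt (μ := volume) isOpen_univ] with q hq
    obtain ⟨r1, r2⟩ := gx_rmp hlt (hq (mem_univ q))
    rw [show 1 - ε - (1 - 2 * ε) = ε by ring] at r1 r2
    have r1' : gx η q = _ := r1
    have r2' : gy η q = _ := r2
    rw [r1', r2']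
    by_cases hqB : q ∈ ball m0 h
    · by_cases hqA : q ∈ ann g ε
      · have hqA' : 1 - 2 * ε < g q ∧ g q < 1 - ε := hqA
        rw [indicator_of_mem (mem_inter hqB hqA), if_pos hqA', if_pos hqA',
          show (k1 q - l1 q) * -(ε⁻¹ * gx g q) + (k2 q - l2 q) * -(ε⁻¹ * gy g q) =
            -(ε⁻¹ * ((k1 q - l1 q) * gx g q + (k2 q - l2 q) * gy g q)) by ring,
          abs_neg, abs_mul, abs_of_pos (inv_pos.mpr hε)]
      · have hqA' : ¬ (1 - 2 * ε < g q ∧ g q < 1 - ε) := hqA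
        rw [indicator_of_notMem (fun hc => hqA hc.2), if_neg hqA', if_neg hqA']
        simp
    · rw [indicator_of_notMem (fun hc => hqB hc.1), F.z1 q hqB, G.z1 q hqB, F.z2 q hqB,
        G.z2 q hqB]
      simp
  · -- (F3)
    intro a b c d hab hcd P hPm hP
    have hSm : MeasurableSet (Ioo a b ×ˢ Ioo c d : Set (ℝ × ℝ)) :=
      measurableSet_Ioo.prod measurableSet_Ioo
    set S : Set (ℝ × ℝ) := Ioo a b ×ˢ Ioo c d with hS
    have h1m : Measurable (S.indicator fun _ => (1 : ℝ)) := measurable_const.indicator hSm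
    have h1b : ∀ q, |S.indicator (fun _ => (1 : ℝ)) q| ≤ 1 := by
      intro q
      by_cases hq : q ∈ S
      · rw [indicator_of_mem hq, abs_one]
      · rw [indicator_of_notMem hq, abs_zero]; exact zero_le_one
    have hzb : ∀ q : ℝ × ℝ, |(fun _ : ℝ × ℝ => (0 : ℝ)) q| ≤ 1 := fun q => by
      rw [abs_zero]; exact zero_le_one
    have habs : ∀ q : ℝ × ℝ, ∀ v : ℝ, |v * S.indicator (fun _ => (1 : ℝ)) q| =
        |v| * S.indicator (fun _ => (1 : ℝ)) q := by
      intro q v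
      by_cases hq : q ∈ S
      · rw [indicator_of_mem hq, mul_one, mul_one]
      · rw [indicator_of_notMem hq, mul_zero, mul_zero, abs_zero]
    have hset : ∀ f : ℝ × ℝ → ℝ, ∫ u in S, |f u| = ∫ u, |f u| * S.indicator (fun _ => (1 : ℝ)) u := by
      intro f
      rw [← integral_indicator hSm]
      congr 1
      ext q
      by_cases hq : q ∈ S
      · rw [indicator_of_mem hq, indicator_of_mem hq, mul_one]
      · rw [indicator_of_notMem hq, indicator_of_notMem hq, mul_zero]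
    constructor
    · have hcost := F.cost_le G h1 h2 h1m measurable_const (C := 1) h1b hzb hPm
        (K := b - a) (fun p hp => by
          have := cost_F3 hb hab measurable_fst (fun q => norm_fst_le q)
            (fun c p t => by simp) hSm (fun q hq => hq.1) hP hp
          refine le_trans (le_of_eq ?_) this
          congr 1
          ext s
          rw [mul_zero, add_zero, habs])
      refine le_trans (le_of_eq ?_) hcost
      rw [hset]
      congr 1
      ext q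
      rw [mul_zero, add_zero, habs]
    · have hcost := F.cost_le G h1 h2 measurable_const h1m (C := 1) hzb h1b hPm
        (K := d - c) (fun p hp => by
          have := cost_F3 hb hcd measurable_snd (fun q => norm_snd_le q)
            (fun c p t => by simp) hSm (fun q hq => hq.2) hP hp
          refine le_trans (le_of_eq ?_) this
          congr 1
          ext s
          rw [mul_zero, zero_add, habs])
      refine le_trans (le_of_eq ?_) hcost
      rw [hset]
      congr 1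
      ext q
      rw [mul_zero, zero_add, habs]

/-- **the fill of a square** (spec of helper87, post 10020) -/
theorem fill {x y h : ℝ} (hh : 0 < h) (ν₁ ν₂ : Measure (ℝ × ℝ)) [IsFiniteMeasure ν₁]
    [IsFiniteMeasure ν₂] (h1 : ν₁ (closedBall (x, y) h)ᶜ = 0)
    (h2 : ν₂ (closedBall (x, y) h)ᶜ = 0) (hm : ν₁ univ = ν₂ univ) :
    ∃ X1 X2 : ℝ × ℝ → ℝ, Measurable X1 ∧ Measurable X2 ∧
      (∀ p ∉ ball (x, y) h, X1 p = 0 ∧ X2 p = 0) ∧
      Integrable X1 volume ∧ Integrable X2 volume ∧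
      (∀ (L : ℝ) (e : ℝ × ℝ → ℝ), 0 ≤ L → (∀ p q, |e p - e q| ≤ L * dist p q) →
        ∫ p in ball (x, y) h, (X1 p * gx e p + X2 p * gy e p) =
          (∫ p, e p ∂ν₁) - ∫ p, e p ∂ν₂) ∧
      (∀ ε, 0 < ε → ε ≤ 1 / 4 →
        ε⁻¹ * ∫ p in ball (x, y) h ∩ ann (fun p => dist p (x, y) / h) ε,
          |X1 p * gx (fun p => dist p (x, y) / h) p +
            X2 p * gy (fun p => dist p (x, y) / h) p| ≤ (ν₁ univ + ν₂ univ).toReal) ∧
      (∀ a b c d, a ≤ b → c ≤ d → ∀ P, MeasurableSet P →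
        (∀ p ∈ closedBall (x, y) h, ∀ u ∈ Ioo a b ×ˢ Ioo c d,
          dist u p ≤ 3 * (h - dist u (x, y)) → p ∈ P) →
        (∫ u in Ioo a b ×ˢ Ioo c d, |X1 u| ≤ (b - a) * (ν₁ P + ν₂ P).toReal) ∧
        (∫ u in Ioo a b ×ˢ Ioo c d, |X2 u| ≤ (d - c) * (ν₁ P + ν₂ P).toReal)) := by
  obtain ⟨κ, k1, k2, l1, l2, -, -, -, -, -, C⟩ := fill_core hh ν₁ ν₂ h1 h2 hm
  exact ⟨_, _, C.m1, C.m2, C.z, C.i1, C.i2, C.F1, C.F2, C.F3⟩

end Crest.Agent.R105.SqF_136
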