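import Crest.Agent.R105.SqQ_87
import Crest.Agent.R105.Gl1_363
import Crest.Agent.R105.SqJb_361

/-! Row 105, S0138, exact squares: geometry for the half list: every point off the open squares is
accessible from the complement of `E` along almost every line; density of `Q.unᶜ`. -/

set_option autoImplicit false

open MeasureTheory Set Filter Topology
open scoped NNReal ENNReal

namespace Crest.Agent.R105.SqH_87

open CF_363 Cq_463 Sq_87 Gl_363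
open Mp_87 (ae_x_of_ae ae_y_of_ae)

theorem exists_mem_Ioo {P : ℝ → Prop} (h : ∀ᵐ x : ℝ, P x) {u v : ℝ} (huv : u < v) :
    ∃ x ∈ Ioo u v, P x := by
  by_contra hcon
  push Not at hcon
  have hpos : 0 < volume (Ioo u v) := by rw [Real.volume_Ioo]; simpa using huv
  exact hpos.ne' (measure_mono_null (fun x hx => hcon x hx) (ae_iff.mp h))

variable {E : Set (ℝ × ℝ)} {𝒬 : Set Sqr} {𝓗 : Set Hair}

theorem interior_car (Q : Sqr) : interior Q.car = Ioo Q.x (Q.x + Q.s) ×ˢ Ioo Q.y (Q.y + Q.s) := by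
  rw [Sqr.car, interior_prod_eq, interior_Icc, interior_Icc]

theorem notMem_closure_Ioo {A : Set ℝ} {x : ℝ} (h : x ∉ closure A) :
    ∃ δ > 0, ∀ x' ∈ Ioo (x - δ) (x + δ), x' ∉ A := by
  rw [Metric.mem_closure_iff] at h
  push Not at h
  obtain ⟨δ, hδ, h⟩ := h
  refine ⟨δ, hδ, fun x' hx' hA => ?_⟩
  have := h x' hA
  rw [Real.dist_eq] at this
  exact absurd (abs_lt.2 ⟨by linarith [hx'.2], by linarith [hx'.1]⟩ : |x - x'| < δ) (not_lt.2 this)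

/-- **horizontal access** to every point off the open squares -/
theorem acc_h (hE : QPic E 𝒬 𝓗) : ∀ᵐ y : ℝ, ∀ x, (∀ Q ∈ 𝒬, (x, y) ∉ interior Q.car) →
    x ∈ closure {x' | (x', y) ∈ Eᶜ} := by
  have h1 : ∀ᵐ p : ℝ × ℝ, p ∉ E \ ⋃ Q ∈ 𝒬, Q.car := measure_eq_zero_iff_ae_notMem.mp hE.null
  have h2 : ∀ᵐ y : ℝ, y ∉ (fun Q : Sqr => Q.y) '' 𝒬 :=
    (hE.countable.image _).ae_notMem volume
  have h3 : ∀ᵐ y : ℝ, y ∉ (fun Q : Sqr => Q.y + Q.s) '' 𝒬 :=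
    (hE.countable.image _).ae_notMem volume
  filter_upwards [ae_y_of_ae h1, h2, h3] with y h0 hy1 hy2 x hx
  by_contra hcon
  obtain ⟨δ, hδ, hδE⟩ := notMem_closure_Ioo hcon
  have hin : ∀ x' ∈ Ioo (x - δ) (x + δ), (x', y) ∈ E := fun x' hx' => by
    by_contra h
    exact hδE x' hx' h
  obtain ⟨x1, hx1, hx1'⟩ := exists_mem_Ioo h0 (u := x - δ) (v := x) (by linarith)
  obtain ⟨x2, hx2, hx2'⟩ := exists_mem_Ioo h0 (u := x) (v := x + δ) (by linarith)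
  have hq : ∀ x' ∈ Ioo (x - δ) (x + δ), (x', y) ∉ E \ ⋃ Q ∈ 𝒬, Q.car →
      ∃ Q ∈ 𝒬, (x', y) ∈ Q.car := by
    intro x' hx' h
    by_contra hc
    push Not at hc
    exact h ⟨hin x' hx', by simpa using hc⟩
  have m1 : x1 ∈ Ioo (x - δ) (x + δ) := ⟨hx1.1, by linarith [hx1.2]⟩
  have m2 : x2 ∈ Ioo (x - δ) (x + δ) := ⟨by linarith [hx2.1], hx2.2⟩
  obtain ⟨Q1, hQ1, hc1⟩ := hq x1 m1 hx1'
  obtain ⟨Q2, hQ2, hc2⟩ := hq x2 m2 hx2'
  have hPE : Ioo (x - δ) (x + δ) ×ˢ {y} ⊆ E := by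
    rintro ⟨x', y'⟩ ⟨a1, a2⟩
    rw [mem_singleton_iff] at a2
    simp only at a1 a2
    subst a2
    exact hin x' a1
  have hPc : IsPreconnected (Ioo (x - δ) (x + δ) ×ˢ {y}) :=
    (convex_Ioo _ _).isPreconnected.prod isPreconnected_singleton
  have h12 : Q1 = Q2 := hE.sep _ hPE hPc Q1 hQ1 Q2 hQ2 ⟨(x1, y), ⟨m1, rfl⟩, hc1⟩
    ⟨(x2, y), ⟨m2, rfl⟩, hc2⟩
  subst h12
  refine hx Q1 hQ1 ?_
  rw [interior_car]
  have e1 := hc1.1.1
  have e2 := hc2.1.2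
  have e3 := hc1.2
  simp only at e1 e2 e3
  refine ⟨⟨by simp only; linarith [hx1.2], by simp only; linarith [hx2.1]⟩,
    lt_of_le_of_ne e3.1 ?_, lt_of_le_of_ne e3.2 ?_⟩
  · intro h
    exact hy1 ⟨Q1, hQ1, h⟩
  · intro h
    exact hy2 ⟨Q1, hQ1, h.symm⟩

/-- **vertical access** to every point off the open squares -/
theorem acc_v (hE : QPic E 𝒬 𝓗) : ∀ᵐ x : ℝ, ∀ y, (∀ Q ∈ 𝒬, (x, y) ∉ interior Q.car) →
    y ∈ closure {y' | (x, y') ∈ Eᶜ} := by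
  have h1 : ∀ᵐ p : ℝ × ℝ, p ∉ E \ ⋃ Q ∈ 𝒬, Q.car := measure_eq_zero_iff_ae_notMem.mp hE.null
  have h2 : ∀ᵐ x : ℝ, x ∉ (fun Q : Sqr => Q.x) '' 𝒬 :=
    (hE.countable.image _).ae_notMem volume
  have h3 : ∀ᵐ x : ℝ, x ∉ (fun Q : Sqr => Q.x + Q.s) '' 𝒬 :=
    (hE.countable.image _).ae_notMem volume
  filter_upwards [ae_x_of_ae h1, h2, h3] with x h0 hy1 hy2 y hy
  by_contra hcon
  obtain ⟨δ, hδ, hδE⟩ := notMem_closure_Ioo hcon
  have hin : ∀ y' ∈ Ioo (y - δ) (y + δ), (x, y') ∈ E := fun y' hy' => by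
    by_contra h
    exact hδE y' hy' h
  obtain ⟨x1, hx1, hx1'⟩ := exists_mem_Ioo h0 (u := y - δ) (v := y) (by linarith)
  obtain ⟨x2, hx2, hx2'⟩ := exists_mem_Ioo h0 (u := y) (v := y + δ) (by linarith)
  have hq : ∀ y' ∈ Ioo (y - δ) (y + δ), (x, y') ∉ E \ ⋃ Q ∈ 𝒬, Q.car →
      ∃ Q ∈ 𝒬, (x, y') ∈ Q.car := by
    intro y' hy' h
    by_contra hc
    push Not at hc
    exact h ⟨hin y' hy', by simpa using hc⟩
  have m1 : x1 ∈ Ioo (y - δ) (y + δ) := ⟨hx1.1, by linarith [hx1.2]⟩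
  have m2 : x2 ∈ Ioo (y - δ) (y + δ) := ⟨by linarith [hx2.1], hx2.2⟩
  obtain ⟨Q1, hQ1, hc1⟩ := hq x1 m1 hx1'
  obtain ⟨Q2, hQ2, hc2⟩ := hq x2 m2 hx2'
  have hPE : {x} ×ˢ Ioo (y - δ) (y + δ) ⊆ E := by
    rintro ⟨x', y'⟩ ⟨a2, a1⟩
    rw [mem_singleton_iff] at a2
    simp only at a1 a2
    subst a2
    exact hin y' a1
  have hPc : IsPreconnected ({x} ×ˢ Ioo (y - δ) (y + δ)) :=
    isPreconnected_singleton.prod (convex_Ioo _ _).isPreconnected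
  have h12 : Q1 = Q2 := hE.sep _ hPE hPc Q1 hQ1 Q2 hQ2 ⟨(x, x1), ⟨rfl, m1⟩, hc1⟩
    ⟨(x, x2), ⟨rfl, m2⟩, hc2⟩
  subst h12
  refine hy Q1 hQ1 ?_
  rw [interior_car]
  have e1 := hc1.2.1
  have e2 := hc2.2.2
  have e3 := hc1.1
  simp only at e1 e2 e3
  refine ⟨⟨lt_of_le_of_ne e3.1 ?_, lt_of_le_of_ne e3.2 ?_⟩,
    by simp only; linarith [hx1.2], by simp only; linarith [hx2.1]⟩
  · intro h
    exact hy1 ⟨Q1, hQ1, h⟩
  · intro h
    exact hy2 ⟨Q1, hQ1, h.symm⟩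

section half

variable {ι : Type} {S SS : Set (ℝ × ℝ)} {Q : Rects ι} {sq : ι → Sqr}
  {a b c B T : ℝ} {μ : Measure (ℝ × ℝ)}

theorem op_sub_int (G : GeoC E S 𝒬 𝓗 Q sq a b c B T) (i : ι) : Q.op i ⊆ interior (sq i).car := by
  rw [interior_car]
  rintro p ⟨⟨h1, h2⟩, h3, h4⟩
  rw [G.x1 i] at h1
  rw [G.x2 i] at h2
  rw [G.y1 i] at h3
  rw [G.y2 i] at h4
  exact ⟨⟨h1, h2⟩, h3, h4.trans_le (min_le_left _ _)⟩

theorem op_sub_car (G : GeoC E S 𝒬 𝓗 Q sq a b c B T) (i : ι) : Q.op i ⊆ (sq i).car :=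
  (op_sub_int G i).trans interior_subset

theorem un_sub (G : GeoC E S 𝒬 𝓗 Q sq a b c B T) : Q.un ⊆ E := by
  refine iUnion_subset fun i => (op_sub_car G i).trans (G.pic.sub _ (G.sqm i).1)

theorem op_lt (G : GeoC E S 𝒬 𝓗 Q sq a b c B T) (i : ι) {p : ℝ × ℝ} (hp : p ∈ Q.op i) : p.2 < B := by
  have h4 := hp.2.2
  rw [G.y2 i] at h4
  exact h4.trans_le (min_le_right _ _)

theorem un_lt (G : GeoC E S 𝒬 𝓗 Q sq a b c B T) {p : ℝ × ℝ} (hp : p ∈ Q.un) : p.2 < B := by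
  obtain ⟨i, hi⟩ := mem_iUnion.1 hp
  exact op_lt G i hi

theorem un_notMem_S (G : GeoC E S 𝒬 𝓗 Q sq a b c B T) {p : ℝ × ℝ} (hp : p ∈ Q.un) : p ∉ S := by
  obtain ⟨i, hi⟩ := mem_iUnion.1 hp
  exact fun h => disjoint_left.1 (G.sqm i).2.1 (op_sub_car G i hi) h

/-- the complement of the open rectangles is dense in measure -/
theorem densQ (G : GeoC E S 𝒬 𝓗 Q sq a b c B T) {p : ℝ × ℝ} (hp : p ∉ Q.un) :
    ∀ O ∈ 𝓝 p, volume (O \ Q.un) ≠ 0 := by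
  intro O hO h0
  obtain ⟨ε, hε, hεO⟩ := Metric.mem_nhds_iff.1 hO
  set U := Metric.ball p ε with hU
  have hUo : IsOpen U := Metric.isOpen_ball
  have hpU : p ∈ U := Metric.mem_ball_self hε
  have h1 : volume (U \ Q.un) = 0 := measure_mono_null (sdiff_subset_sdiff_left hεO) h0
  have hUE : U ⊆ E := by
    intro w hw
    by_contra hwE
    have h2 : IsOpen (U ∩ Eᶜ) := hUo.inter G.pic.cpt.isClosed.isOpen_compl
    have h3 : volume (U ∩ Eᶜ) = 0 :=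
      measure_mono_null (fun z hz =>
        (⟨hz.1, fun hzu => hz.2 (un_sub G hzu)⟩ : z ∈ U \ Q.un)) h1
    exact (h2.measure_pos volume ⟨w, hw, hwE⟩).ne' h3
  have hUc : IsPreconnected U := (convex_ball p ε).isPreconnected
  obtain ⟨w, hwU, hwu⟩ : ∃ w ∈ U, w ∈ Q.un := by
    by_contra hcon
    push Not at hcon
    have h3 : U \ Q.un = U := by
      ext z; exact ⟨fun h => h.1, fun h => ⟨h, hcon z h⟩⟩
    rw [h3] at h1
    exact (hUo.measure_pos volume ⟨p, hpU⟩).ne' h1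
  obtain ⟨i, hi⟩ := mem_iUnion.1 hwu
  have hone : U ∩ Q.un ⊆ Q.op i := by
    rintro z ⟨hzU, hz⟩
    obtain ⟨j, hj⟩ := mem_iUnion.1 hz
    have h4 : sq j = sq i := G.pic.sep U hUE hUc _ (G.sqm j).1 _ (G.sqm i).1
      ⟨z, hzU, op_sub_car G j hj⟩ ⟨w, hwU, op_sub_car G i hi⟩
    have e1 := G.x1 j
    have e2 := G.x2 j
    have e3 := G.y1 j
    have e4 := G.y2 j
    rw [h4] at e1 e2 e3 e4
    unfold Rects.op at hj ⊢
    rw [e1, e2, e3, e4] at hj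
    rw [G.x1 i, G.x2 i, G.y1 i, G.y2 i]
    exact hj
  have hcl : U ⊆ closure (Q.op i) := by
    intro z hz
    by_contra hzc
    have h5 : IsOpen (U ∩ (closure (Q.op i))ᶜ) := hUo.inter isClosed_closure.isOpen_compl
    have h6 : volume (U ∩ (closure (Q.op i))ᶜ) = 0 :=
      measure_mono_null (fun z hz => (⟨hz.1, fun hzu =>
        hz.2 (subset_closure (hone ⟨hz.1, hzu⟩))⟩ : z ∈ U \ Q.un)) h1
    exact (h5.measure_pos volume ⟨z, hz, hzc⟩).ne' h6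
  have hint : p ∈ interior (closure (Q.op i)) := interior_maximal hcl hUo hpU
  have h7 : interior (closure (Q.op i)) = Q.op i := by
    have p1 := Q.p1 i
    have p2 := Q.p2 i
    unfold Rects.op
    rw [closure_prod_eq, closure_Ioo (by linarith), closure_Ioo (by linarith), interior_prod_eq,
      interior_Icc, interior_Icc]
  rw [h7] at hint
  exact hp (mem_iUnion.2 ⟨i, hint⟩)

end half

end Crest.Agent.R105.SqH_87
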