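import Crest.Agent.R105.SqF2_136
import Crest.Agent.R105.SqB_87

/-! Row 105, S0138, exact squares: the fill of a RECTANGLE (136's fill of the unit square, scaled). -/

open MeasureTheory Set Filter Topology Metric
open scoped NNReal ENNReal

namespace Crest.Agent.R105.SqJ_361

open Crest.Agent.R105.CF_363 Crest.Agent.R105.Sq_87 Crest.Agent.R105.SqF_136

/-! ### scaling -/

/-- the homeomorphism which takes the rectangle with centre `(x, y)` and half sides `h1`, `h2` to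
the unit square -/
noncomputable def sc (x y : ℝ) {h1 h2 : ℝ} (p1 : 0 < h1) (p2 : 0 < h2) : ℝ × ℝ ≃ₜ ℝ × ℝ where
  toFun p := ((p.1 - x) / h1, (p.2 - y) / h2)
  invFun u := (x + h1 * u.1, y + h2 * u.2)
  left_inv p := by
    have := p1.ne'
    have := p2.ne'
    ext <;> simp <;> field_simp <;> ring
  right_inv u := by
    have := p1.ne'
    have := p2.ne'
    ext <;> simp <;> field_simp
  continuous_toFun := by fun_prop
  continuous_invFun := by fun_prop

variable {x y h1 h2 : ℝ}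

theorem sc_apply (p1 : 0 < h1) (p2 : 0 < h2) (p : ℝ × ℝ) :
    sc x y p1 p2 p = ((p.1 - x) / h1, (p.2 - y) / h2) := rfl

theorem sc_symm_apply (p1 : 0 < h1) (p2 : 0 < h2) (u : ℝ × ℝ) :
    (sc x y p1 p2).symm u = (x + h1 * u.1, y + h2 * u.2) := rfl

theorem map_line (x : ℝ) {h : ℝ} (hh : 0 < h) :
    (volume : Measure ℝ).map (fun t => (t - x) / h) = ENNReal.ofReal h • (volume : Measure ℝ) := by
  have e : (fun t : ℝ => (t - x) / h) = (fun t => t * h⁻¹) ∘ fun t => t - x := by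
    ext t; simp [div_eq_mul_inv]
  rw [e, ← Measure.map_map (by fun_prop) (by fun_prop), map_sub_right_eq_self,
    Real.map_volume_mul_right (inv_ne_zero hh.ne'), inv_inv, abs_of_pos hh]

theorem map_sc (p1 : 0 < h1) (p2 : 0 < h2) :
    (volume : Measure (ℝ × ℝ)).map (sc x y p1 p2) =
      ENNReal.ofReal (h1 * h2) • (volume : Measure (ℝ × ℝ)) := by
  have e : (sc x y p1 p2 : ℝ × ℝ → ℝ × ℝ) =
      Prod.map (fun t => (t - x) / h1) fun t => (t - y) / h2 := rfl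
  rw [e, Measure.volume_eq_prod, ← Measure.map_prod_map _ _ (by fun_prop) (by fun_prop),
    map_line x p1, map_line y p2, Measure.prod_smul_left, Measure.prod_smul_right, smul_smul,
    ENNReal.ofReal_mul p1.le]

theorem integral_sc (p1 : 0 < h1) (p2 : 0 < h2) (g : ℝ × ℝ → ℝ) :
    ∫ p, g (sc x y p1 p2 p) = h1 * h2 * ∫ u, g u := by
  rw [← (sc x y p1 p2).measurableEmbedding.integral_map, map_sc, integral_smul_measure,
    ENNReal.toReal_ofReal (by positivity), smul_eq_mul]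

theorem setIntegral_sc (p1 : 0 < h1) (p2 : 0 < h2) (g : ℝ × ℝ → ℝ) (S : Set (ℝ × ℝ)) :
    ∫ p in sc x y p1 p2 ⁻¹' S, g (sc x y p1 p2 p) = h1 * h2 * ∫ u in S, g u := by
  rw [← (sc x y p1 p2).measurableEmbedding.setIntegral_map, map_sc, Measure.restrict_smul,
    integral_smul_measure, ENNReal.toReal_ofReal (by positivity), smul_eq_mul]

theorem setIntegral_sc_div (p1 : 0 < h1) (p2 : 0 < h2) (g : ℝ × ℝ → ℝ) (S : Set (ℝ × ℝ)) :
    ∫ p in sc x y p1 p2 ⁻¹' S, g (sc x y p1 p2 p) / (h1 * h2) = ∫ u in S, g u := by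
  rw [integral_div, setIntegral_sc, mul_div_cancel_left₀ _ (mul_pos p1 p2).ne']

theorem setIntegral_sc_abs (p1 : 0 < h1) (p2 : 0 < h2) (Y : ℝ × ℝ → ℝ) {c : ℝ} (hc : 0 < c)
    (S : Set (ℝ × ℝ)) :
    ∫ p in sc x y p1 p2 ⁻¹' S, |Y (sc x y p1 p2 p) / c| = h1 * h2 / c * ∫ u in S, |Y u| := by
  have h := setIntegral_sc (x := x) (y := y) p1 p2 (fun u => |Y u / c|) S
  rw [h]
  have e : ∀ u, |Y u / c| = |Y u| / c := fun u => by rw [abs_div, abs_of_pos hc]
  simp_rw [e]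
  rw [integral_div]
  ring

theorem integrable_sc (p1 : 0 < h1) (p2 : 0 < h2) {g : ℝ × ℝ → ℝ} (hg : Integrable g volume) :
    Integrable (fun p => g (sc x y p1 p2 p)) volume := by
  have h : Integrable g ((volume : Measure (ℝ × ℝ)).map (sc x y p1 p2)) := by
    rw [map_sc]; exact hg.smul_measure ENNReal.ofReal_ne_top
  exact ((sc x y p1 p2).measurableEmbedding.integrable_map_iff).mp h

/-- the scaling as a continuous linear equivalence -/
noncomputable def iso (p1 : 0 < h1) (p2 : 0 < h2) : (ℝ × ℝ) ≃L[ℝ] (ℝ × ℝ) :=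
  (ContinuousLinearEquiv.smulLeft (Units.mk0 h1 p1.ne')).prodCongr
    (ContinuousLinearEquiv.smulLeft (Units.mk0 h2 p2.ne'))

theorem iso_apply (p1 : 0 < h1) (p2 : 0 < h2) (u : ℝ × ℝ) :
    iso p1 p2 u = (h1 * u.1, h2 * u.2) := rfl

theorem fderiv_sc (p1 : 0 < h1) (p2 : 0 < h2) (e : ℝ × ℝ → ℝ) (u : ℝ × ℝ) :
    fderiv ℝ (fun u => e ((sc x y p1 p2).symm u)) u =
      (fderiv ℝ e ((sc x y p1 p2).symm u)).comp (iso p1 p2 : (ℝ × ℝ) →L[ℝ] (ℝ × ℝ)) := by
  have h := (iso p1 p2).comp_right_fderiv (f := fun v => e ((x, y) + v)) (x := u)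
  rw [fderiv_comp_add_left] at h
  exact h

theorem gx_sc (p1 : 0 < h1) (p2 : 0 < h2) (e : ℝ × ℝ → ℝ) (u : ℝ × ℝ) :
    gx (fun u => e ((sc x y p1 p2).symm u)) u = h1 * gx e ((sc x y p1 p2).symm u) := by
  unfold gx
  rw [fderiv_sc, ContinuousLinearMap.comp_apply]
  have : (iso p1 p2 : (ℝ × ℝ) →L[ℝ] (ℝ × ℝ)) (1, 0) = h1 • ((1, 0) : ℝ × ℝ) := by
    change (h1 * 1, h2 * 0) = (h1 * 1, h1 * 0); simp
  rw [this, map_smul, smul_eq_mul]

theorem gy_sc (p1 : 0 < h1) (p2 : 0 < h2) (e : ℝ × ℝ → ℝ) (u : ℝ × ℝ) :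
    gy (fun u => e ((sc x y p1 p2).symm u)) u = h2 * gy e ((sc x y p1 p2).symm u) := by
  unfold gy
  rw [fderiv_sc, ContinuousLinearMap.comp_apply]
  have : (iso p1 p2 : (ℝ × ℝ) →L[ℝ] (ℝ × ℝ)) (0, 1) = h2 • ((0, 1) : ℝ × ℝ) := by
    change (h1 * 0, h2 * 1) = (h2 * 0, h2 * 1); simp
  rw [this, map_smul, smul_eq_mul]

/-! ### the rectangle -/

/-- gauge of the rectangle -/
noncomputable def rg (x y h1 h2 : ℝ) (p : ℝ × ℝ) : ℝ := max (|p.1 - x| / h1) (|p.2 - y| / h2)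

/-- open rectangle -/
def ro (x y h1 h2 : ℝ) : Set (ℝ × ℝ) := Ioo (x - h1) (x + h1) ×ˢ Ioo (y - h2) (y + h2)

/-- closed rectangle -/
def rc (x y h1 h2 : ℝ) : Set (ℝ × ℝ) := Icc (x - h1) (x + h1) ×ˢ Icc (y - h2) (y + h2)

/-- distance in the scale of the rectangle -/
noncomputable def rd (h1 h2 : ℝ) (p q : ℝ × ℝ) : ℝ := max (|p.1 - q.1| / h1) (|p.2 - q.2| / h2)

theorem dist_sc (p1 : 0 < h1) (p2 : 0 < h2) (p q : ℝ × ℝ) :
    dist (sc x y p1 p2 p) (sc x y p1 p2 q) = rd h1 h2 p q := by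
  rw [Prod.dist_eq, sc_apply, sc_apply, rd]
  simp only [Real.dist_eq]
  rw [← sub_div, ← sub_div, abs_div, abs_div, abs_of_pos p1, abs_of_pos p2]
  congr 3 <;> ring

theorem sc_center (p1 : 0 < h1) (p2 : 0 < h2) : sc x y p1 p2 (x, y) = (0, 0) := by
  rw [sc_apply]; simp

theorem dist_sc_zero (p1 : 0 < h1) (p2 : 0 < h2) (p : ℝ × ℝ) :
    dist (sc x y p1 p2 p) (0, 0) = rg x y h1 h2 p := by
  rw [← sc_center (x := x) (y := y) p1 p2, dist_sc]; rfl

theorem rg_lt (p1 : 0 < h1) (p2 : 0 < h2) (p : ℝ × ℝ) : rg x y h1 h2 p < 1 ↔ p ∈ ro x y h1 h2 := by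
  unfold rg ro
  rw [max_lt_iff, div_lt_one p1, div_lt_one p2, abs_sub_lt_iff, abs_sub_lt_iff, mem_prod, mem_Ioo,
    mem_Ioo]
  constructor <;> rintro ⟨⟨_, _⟩, _, _⟩ <;> refine ⟨⟨?_, ?_⟩, ?_, ?_⟩ <;> linarith

theorem rg_le (p1 : 0 < h1) (p2 : 0 < h2) (p : ℝ × ℝ) : rg x y h1 h2 p ≤ 1 ↔ p ∈ rc x y h1 h2 := by
  unfold rg rc
  rw [max_le_iff, div_le_one p1, div_le_one p2, abs_sub_le_iff, abs_sub_le_iff, mem_prod, mem_Icc,
    mem_Icc]
  constructor <;> rintro ⟨⟨_, _⟩, _, _⟩ <;> refine ⟨⟨?_, ?_⟩, ?_, ?_⟩ <;> linarith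

theorem sc_ball (p1 : 0 < h1) (p2 : 0 < h2) :
    sc x y p1 p2 ⁻¹' ball (0, 0) 1 = ro x y h1 h2 := by
  ext p; rw [mem_preimage, mem_ball, dist_sc_zero, rg_lt p1 p2]

theorem sc_closedBall (p1 : 0 < h1) (p2 : 0 < h2) :
    sc x y p1 p2 ⁻¹' closedBall (0, 0) 1 = rc x y h1 h2 := by
  ext p; rw [mem_preimage, mem_closedBall, dist_sc_zero, rg_le p1 p2]

/-- the properties of the fill of a rectangle -/
structure FillR (x y h1 h2 : ℝ) (ν₁ ν₂ : Measure (ℝ × ℝ)) (X1 X2 : ℝ × ℝ → ℝ) : Prop where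
  m1 : Measurable X1
  m2 : Measurable X2
  z : ∀ p ∉ ro x y h1 h2, X1 p = 0 ∧ X2 p = 0
  i1 : Integrable X1 volume
  i2 : Integrable X2 volume
  F1 : ∀ (L : ℝ) (e : ℝ × ℝ → ℝ), 0 ≤ L → (∀ p q, |e p - e q| ≤ L * dist p q) →
    ∫ p in ro x y h1 h2, (X1 p * gx e p + X2 p * gy e p) = (∫ p, e p ∂ν₁) - ∫ p, e p ∂ν₂
  F2 : ∀ ε, 0 < ε → ε ≤ 1 / 4 →
    ε⁻¹ * ∫ p in ro x y h1 h2 ∩ ann (rg x y h1 h2) ε,
      |X1 p * gx (rg x y h1 h2) p + X2 p * gy (rg x y h1 h2) p| ≤ (ν₁ univ + ν₂ univ).toReal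
  F3 : ∀ a b c d, a ≤ b → c ≤ d → ∀ P, MeasurableSet P →
    (∀ p ∈ rc x y h1 h2, ∀ u ∈ Ioo a b ×ˢ Ioo c d,
      rd h1 h2 u p ≤ 3 * (1 - rg x y h1 h2 u) → p ∈ P) →
    (∫ u in Ioo a b ×ˢ Ioo c d, |X1 u| ≤ (b - a) * (ν₁ P + ν₂ P).toReal) ∧
    (∫ u in Ioo a b ×ˢ Ioo c d, |X2 u| ≤ (d - c) * (ν₁ P + ν₂ P).toReal)
  F4 : ∀ δ, 0 ≤ δ → ∀ S P : Set (ℝ × ℝ), MeasurableSet S → MeasurableSet P →
    (∀ u ∈ S, 1 - rg x y h1 h2 u ≤ δ) →
    (∀ p ∈ rc x y h1 h2, ∀ u ∈ S, rd h1 h2 u p ≤ 3 * (1 - rg x y h1 h2 u) → p ∈ P) →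
    (∫ u in S, |X1 u| ≤ h1 * (3 * δ * (ν₁ P + ν₂ P).toReal)) ∧
    (∫ u in S, |X2 u| ≤ h2 * (3 * δ * (ν₁ P + ν₂ P).toReal))

theorem fillR (p1 : 0 < h1) (p2 : 0 < h2) (ν₁ ν₂ : Measure (ℝ × ℝ)) [IsFiniteMeasure ν₁]
    [IsFiniteMeasure ν₂] (c1 : ν₁ (rc x y h1 h2)ᶜ = 0) (c2 : ν₂ (rc x y h1 h2)ᶜ = 0)
    (hm : ν₁ univ = ν₂ univ) : ∃ X1 X2 : ℝ × ℝ → ℝ, FillR x y h1 h2 ν₁ ν₂ X1 X2 := by
  set T := sc x y p1 p2 with hT
  have hTm : Measurable T := T.continuous.measurable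
  have hTe : MeasurableEmbedding T := T.measurableEmbedding
  have hA : h1 ≠ 0 := p1.ne'
  have hB : h2 ≠ 0 := p2.ne'
  have hAB : 0 < h1 * h2 := mul_pos p1 p2
  have k1 : (ν₁.map T) (closedBall (0, 0) 1)ᶜ = 0 := by
    rw [Measure.map_apply hTm measurableSet_closedBall.compl, preimage_compl, hT, sc_closedBall]
    exact c1
  have k2 : (ν₂.map T) (closedBall (0, 0) 1)ᶜ = 0 := by
    rw [Measure.map_apply hTm measurableSet_closedBall.compl, preimage_compl, hT, sc_closedBall]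
    exact c2
  have u1 : (ν₁.map T) univ = ν₁ univ := by rw [Measure.map_apply hTm MeasurableSet.univ]; simp
  have u2 : (ν₂.map T) univ = ν₂ univ := by rw [Measure.map_apply hTm MeasurableSet.univ]; simp
  obtain ⟨Y1, Y2, F⟩ := fill2 (x := 0) (y := 0) one_pos (ν₁.map T) (ν₂.map T) k1 k2
    (by rw [u1, u2, hm])
  have hgau : ∀ u : ℝ × ℝ, (fun u => rg x y h1 h2 (T.symm u)) u = dist u (0, 0) / 1 := by
    intro u
    simp only
    rw [← dist_sc_zero (x := x) (y := y) p1 p2, ← hT, T.apply_symm_apply, div_one]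
  have hgau' : (fun u : ℝ × ℝ => dist u (0, 0) / 1) = fun u => rg x y h1 h2 (T.symm u) :=
    (funext hgau).symm
  have hS : ∀ p, T.symm (T p) = p := T.symm_apply_apply
  refine ⟨fun p => Y1 (T p) / h2, fun p => Y2 (T p) / h1, ?_⟩
  refine ⟨(F.m1.comp hTm).div_const _, (F.m2.comp hTm).div_const _, ?_, ?_, ?_, ?_, ?_, ?_, ?_⟩
  · intro p hp
    rw [← sc_ball p1 p2, mem_preimage] at hp
    have := F.z _ hp
    simp only [hT, this.1, this.2, zero_div, and_self]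
  · exact (integrable_sc p1 p2 F.i1).div_const _
  · exact (integrable_sc p1 p2 F.i2).div_const _
  · intro L e hL he
    have he' : ∀ u v : ℝ × ℝ, |e (T.symm u) - e (T.symm v)| ≤ (L * max h1 h2) * dist u v := by
      intro u v
      refine (he _ _).trans ?_
      rw [mul_assoc]
      refine mul_le_mul_of_nonneg_left ?_ hL
      rw [hT, sc_symm_apply, sc_symm_apply, Prod.dist_eq, Prod.dist_eq]
      simp only [Real.dist_eq]
      have e1 : x + h1 * u.1 - (x + h1 * v.1) = h1 * (u.1 - v.1) := by ring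
      have e2 : y + h2 * u.2 - (y + h2 * v.2) = h2 * (u.2 - v.2) := by ring
      rw [e1, e2, abs_mul, abs_mul, abs_of_pos p1, abs_of_pos p2]
      apply max_le
      · exact mul_le_mul (le_max_left _ _) (le_max_left _ _) (abs_nonneg _)
          (p1.le.trans (le_max_left _ _))
      · exact mul_le_mul (le_max_right _ _) (le_max_right _ _) (abs_nonneg _)
          (p1.le.trans (le_max_left _ _))
    have h := F.F1 (L * max h1 h2) (fun u => e (T.symm u))
      (mul_nonneg hL (p1.le.trans (le_max_left _ _))) he'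
    rw [hTe.integral_map, hTe.integral_map] at h
    simp only [hS] at h
    rw [← h, ← sc_ball p1 p2, ← hT]
    have h3 := setIntegral_sc_div (x := x) (y := y) p1 p2 (fun u => Y1 u * gx (fun u => e (T.symm u)) u +
      Y2 u * gy (fun u => e (T.symm u)) u) (ball (0, 0) 1)
    rw [← hT] at h3
    rw [← h3]
    refine setIntegral_congr_fun (hTm measurableSet_ball) fun p _ => ?_
    rw [hT, gx_sc, gy_sc, ← hT, hS]
    field_simp
  · intro ε hε hε4
    have h := F.F2 ε hε hε4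
    rw [u1, u2, hgau'] at h
    refine le_trans (le_of_eq ?_) h
    congr 1
    have h3 := setIntegral_sc_div (x := x) (y := y) p1 p2 (fun u => |Y1 u * gx (fun u => rg x y h1 h2 (T.symm u)) u +
      Y2 u * gy (fun u => rg x y h1 h2 (T.symm u)) u|) (ball (0, 0) 1 ∩ ann (fun u => rg x y h1 h2 (T.symm u)) ε)
    rw [← hT] at h3
    rw [← h3]
    have hset : T ⁻¹' (ball (0, 0) 1 ∩ ann (fun u => rg x y h1 h2 (T.symm u)) ε) =
        ro x y h1 h2 ∩ ann (rg x y h1 h2) ε := by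
      rw [preimage_inter, hT, sc_ball]
      congr 1
      ext p
      simp only [ann, mem_preimage, mem_ofPred_eq, Homeomorph.symm_apply_apply]
    rw [hset]
    have hro : MeasurableSet (ro x y h1 h2) := measurableSet_Ioo.prod measurableSet_Ioo
    have hrg : Measurable (rg x y h1 h2) := by unfold rg; fun_prop
    refine setIntegral_congr_fun (hro.inter (measurableSet_ann hrg ε)) fun p _ => ?_
    rw [hT, gx_sc, gy_sc, ← hT, hS]
    rw [show Y1 (T p) / h2 * gx (rg x y h1 h2) p + Y2 (T p) / h1 * gy (rg x y h1 h2) p =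
      (Y1 (T p) * (h1 * gx (rg x y h1 h2) p) + Y2 (T p) * (h2 * gy (rg x y h1 h2) p)) / (h1 * h2) by
        field_simp, abs_div, abs_of_pos hAB]
  · intro a b c d hab hcd P hP hc
    have hset : T ⁻¹' (Ioo ((a - x) / h1) ((b - x) / h1) ×ˢ Ioo ((c - y) / h2) ((d - y) / h2)) =
        Ioo a b ×ˢ Ioo c d := by
      ext p
      rw [mem_preimage, hT, sc_apply, mem_prod, mem_prod, mem_Ioo, mem_Ioo, mem_Ioo, mem_Ioo]
      simp only
      rw [div_lt_div_iff_of_pos_right p1, div_lt_div_iff_of_pos_right p1,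
        div_lt_div_iff_of_pos_right p2, div_lt_div_iff_of_pos_right p2]
      constructor <;> rintro ⟨⟨_, _⟩, _, _⟩ <;> refine ⟨⟨?_, ?_⟩, ?_, ?_⟩ <;> linarith
    have h := F.F3 ((a - x) / h1) ((b - x) / h1) ((c - y) / h2) ((d - y) / h2)
      (by rw [div_le_div_iff_of_pos_right p1]; linarith)
      (by rw [div_le_div_iff_of_pos_right p2]; linarith) (T.symm ⁻¹' P)
      (T.symm.continuous.measurable hP) (by
        intro p hp u hu hd
        have hu' : T.symm u ∈ Ioo a b ×ˢ Ioo c d := by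
          rw [← hset, mem_preimage, T.apply_symm_apply]; exact hu
        refine hc (T.symm p) ?_ (T.symm u) hu' ?_
        · rw [← sc_closedBall p1 p2, mem_preimage, ← hT, T.apply_symm_apply]; exact hp
        · rw [← dist_sc (x := x) (y := y) p1 p2, ← dist_sc_zero p1 p2, ← hT, T.apply_symm_apply,
            T.apply_symm_apply]; exact hd)
    rw [Measure.map_apply hTm (T.symm.continuous.measurable hP),
      Measure.map_apply hTm (T.symm.continuous.measurable hP)] at h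
    have hPP : T ⁻¹' (T.symm ⁻¹' P) = P := by
      ext p; simp only [mem_preimage, T.symm_apply_apply]
    rw [hPP] at h
    have h3 := setIntegral_sc_abs (x := x) (y := y) p1 p2 Y1 p2
      (Ioo ((a - x) / h1) ((b - x) / h1) ×ˢ Ioo ((c - y) / h2) ((d - y) / h2))
    have h4 := setIntegral_sc_abs (x := x) (y := y) p1 p2 Y2 p1
      (Ioo ((a - x) / h1) ((b - x) / h1) ×ˢ Ioo ((c - y) / h2) ((d - y) / h2))
    rw [← hT, hset] at h3 h4
    rw [h3, h4, mul_div_cancel_right₀ _ hB, mul_div_cancel_left₀ _ hA]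
    constructor
    · refine (mul_le_mul_of_nonneg_left h.1 p1.le).trans (le_of_eq ?_)
      rw [← mul_assoc]; congr 1; field_simp; ring
    · refine (mul_le_mul_of_nonneg_left h.2 p2.le).trans (le_of_eq ?_)
      rw [← mul_assoc]; congr 1; field_simp; ring
  · intro δ hδ S P hS' hP hSδ hc
    have hSm : MeasurableSet (T.symm ⁻¹' S) := T.symm.continuous.measurable hS'
    have hset : T ⁻¹' (T.symm ⁻¹' S) = S := by
      ext p; simp only [mem_preimage, T.symm_apply_apply]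
    have h := F.F4 δ hδ (T.symm ⁻¹' S) (T.symm ⁻¹' P) hSm (T.symm.continuous.measurable hP) (by
        intro u hu
        have := hSδ _ hu
        rwa [← dist_sc_zero p1 p2, ← hT, T.apply_symm_apply] at this) (by
        intro p hp u hu hd
        refine hc (T.symm p) ?_ (T.symm u) hu ?_
        · rw [← sc_closedBall p1 p2, mem_preimage, ← hT, T.apply_symm_apply]; exact hp
        · rw [← dist_sc (x := x) (y := y) p1 p2, ← dist_sc_zero p1 p2, ← hT, T.apply_symm_apply,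
            T.apply_symm_apply]; exact hd)
    rw [Measure.map_apply hTm (T.symm.continuous.measurable hP),
      Measure.map_apply hTm (T.symm.continuous.measurable hP)] at h
    have hPP : T ⁻¹' (T.symm ⁻¹' P) = P := by
      ext p; simp only [mem_preimage, T.symm_apply_apply]
    rw [hPP] at h
    have h3 := setIntegral_sc_abs (x := x) (y := y) p1 p2 Y1 p2 (T.symm ⁻¹' S)
    have h4 := setIntegral_sc_abs (x := x) (y := y) p1 p2 Y2 p1 (T.symm ⁻¹' S)
    rw [← hT, hset] at h3 h4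
    rw [h3, h4, mul_div_cancel_right₀ _ hB, mul_div_cancel_left₀ _ hA]
    exact ⟨mul_le_mul_of_nonneg_left h.1 p1.le, mul_le_mul_of_nonneg_left h.2 p2.le⟩

end Crest.Agent.R105.SqJ_361
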