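import Crest.Agent.R105.Str1_421

/-!
Row 105, lemma A: the stream function on a rectangle (helper421).
Part 2: the flow identity for product test functions and its line form.
-/

open MeasureTheory Set Filter Topology
open Crest.Agent.R105.CF_363 (CF SL Hair cut gx gy ramp)
open Crest.Agent.R105.Mp_87 (lam Lines)

namespace Crest.Agent.R105.Str_421

/-- lower half of the rectangle, closed at the level -/
def Wm (a b c B : ℝ) : Set (ℝ × ℝ) := {p | a < p.1 ∧ p.1 < b ∧ c < p.2 ∧ p.2 ≤ B}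

/-- The output of the Kantorovich problem on the lower half of the rectangle. The last condition
(`sat`): almost every charged point lies on a hair which crosses the level, or in a solid rectangle
reaching the level in which the field vanishes. -/
structure FlowF (a b c B : ℝ) (𝓗 : Set Hair) (X1 X2 : ℝ × ℝ → ℝ) (μ : Measure (ℝ × ℝ)) : Prop where
  m1 : Measurable X1
  m2 : Measurable X2
  i1 : Integrable X1 (volume : Measure (ℝ × ℝ))
  i2 : Integrable X2 (volume : Measure (ℝ × ℝ))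
  z1 : ∀ p : ℝ × ℝ, ¬ (a < p.1 ∧ p.1 < b ∧ c < p.2 ∧ p.2 < B) → X1 p = 0
  z2 : ∀ p : ℝ × ℝ, ¬ (a < p.1 ∧ p.1 < b ∧ c < p.2 ∧ p.2 < B) → X2 p = 0
  carried : ∀ᵐ q ∂μ, q ∈ Wm a b c B
  sat : ∀ᵐ q ∂μ, (∃ K ∈ 𝓗, K.x = q.1 ∧ K.b ≤ q.2 ∧ B ≤ K.t) ∨
    (∃ α β b0 : ℝ, α < β ∧ α ≤ q.1 ∧ q.1 ≤ β ∧ b0 ≤ q.2 ∧
      ∀ᵐ p : ℝ × ℝ, p.1 ∈ Ioo α β → b0 < p.2 → X1 p = 0)
  F : ∀ J : Finset Hair, (∀ K ∈ J, K ∈ 𝓗) → μ (cut J) = 0 → ∀ e : ℝ × ℝ → ℝ,
    CF (Wm a b c B \ cut J) e → (∃ δ > 0, ∀ p ∈ Wm a b c B, p.2 < c + δ → e p = 0) →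
    ∫ p in Wm a b c B, (X1 p * gx e p + X2 p * gy e p) = ∫ q, e q ∂μ

theorem ae_fst {Q : ℝ → Prop} (h : ∀ᵐ x : ℝ, Q x) : ∀ᵐ p : ℝ × ℝ, Q p.1 := by
  rw [Measure.volume_eq_prod]
  exact Measure.quasiMeasurePreserving_fst.ae h

theorem ae_snd {Q : ℝ → Prop} (h : ∀ᵐ x : ℝ, Q x) : ∀ᵐ p : ℝ × ℝ, Q p.2 := by
  rw [Measure.volume_eq_prod]
  exact Measure.quasiMeasurePreserving_snd.ae h

theorem integrable_of_box {a b c B : ℝ} {X : ℝ × ℝ → ℝ} (hL : MemLp X 2 (volume : Measure (ℝ × ℝ)))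
    (hz : ∀ p : ℝ × ℝ, ¬ (a < p.1 ∧ p.1 < b ∧ c < p.2 ∧ p.2 < B) → X p = 0) :
    Integrable X := by
  have hfin : volume (Ioo a b ×ˢ Ioo c B) < ⊤ := by
    rw [Measure.volume_eq_prod, Measure.prod_prod, Real.volume_Ioo, Real.volume_Ioo]
    exact ENNReal.mul_lt_top ENNReal.ofReal_lt_top ENNReal.ofReal_lt_top
  have h1 : IntegrableOn X (Ioo a b ×ˢ Ioo c B) := by
    have : IsFiniteMeasure ((volume : Measure (ℝ × ℝ)).restrict (Ioo a b ×ˢ Ioo c B)) :=
      ⟨by rw [Measure.restrict_apply_univ]; exact hfin⟩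
    exact (hL.restrict _).integrable (by norm_num)
  refine (integrableOn_iff_integrable_of_support_subset ?_).mp h1
  intro p hp
  by_contra hcon
  apply hp
  apply hz
  intro h
  exact hcon ⟨⟨h.1, h.2.1⟩, h.2.2.1, h.2.2.2⟩

section FI

variable {X1 X2 : ℝ × ℝ → ℝ} {μ : Measure (ℝ × ℝ)} [IsFiniteMeasure μ] {D α E : ℝ → ℝ}
  {M A0 ME : ℝ}

/-- `A_D(t) = ∫_{y ≥ t} ∫ D(x) X1(x,y) dx dy` -/
noncomputable def AA (X1 : ℝ × ℝ → ℝ) (D : ℝ → ℝ) (t : ℝ) : ℝ :=
  ∫ y in {y : ℝ | t ≤ y}, ∫ x, D x * X1 (x, y)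

/-- `W_α(t) = ∫ α(x) X2(x,t) dx` -/
noncomputable def WW (X2 : ℝ × ℝ → ℝ) (α : ℝ → ℝ) (t : ℝ) : ℝ := ∫ x, α x * X2 (x, t)

/-- `N_α(t) = ∫_{t ≤ q.2} α(q.1) dμ` -/
noncomputable def NN (μ : Measure (ℝ × ℝ)) (α : ℝ → ℝ) (t : ℝ) : ℝ :=
  ∫ q in {q : ℝ × ℝ | t ≤ q.2}, α q.1 ∂μ

/-- the bracket -/
noncomputable def BR (X1 X2 : ℝ × ℝ → ℝ) (μ : Measure (ℝ × ℝ)) (D α : ℝ → ℝ) (t : ℝ) : ℝ :=
  AA X1 D t + WW X2 α t - NN μ α t

theorem int_mul_fst {X : ℝ × ℝ → ℝ} (hX : Integrable X) {D : ℝ → ℝ} (hDm : Measurable D)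
    (hM : ∀ x, |D x| ≤ M) : Integrable (fun p : ℝ × ℝ => D p.1 * X p) := by
  refine hX.bdd_mul (c := M) (hDm.comp measurable_fst).aestronglyMeasurable
    (Eventually.of_forall fun p => by rw [Real.norm_eq_abs]; exact hM _)

theorem int_mul_snd {X : ℝ × ℝ → ℝ} (hX : Integrable X) {D : ℝ → ℝ} (hDm : Measurable D)
    (hM : ∀ x, |D x| ≤ M) : Integrable (fun p : ℝ × ℝ => D p.2 * X p) := by
  refine hX.bdd_mul (c := M) (hDm.comp measurable_snd).aestronglyMeasurable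
    (Eventually.of_forall fun p => by rw [Real.norm_eq_abs]; exact hM _)

theorem integrable_U {X : ℝ × ℝ → ℝ} (hX : Integrable X) {D : ℝ → ℝ} (hDm : Measurable D)
    (hM : ∀ x, |D x| ≤ M) : Integrable (fun y => ∫ x, D x * X (x, y)) := by
  have h := int_mul_fst hX hDm hM
  rw [Measure.volume_eq_prod] at h
  exact h.integral_prod_right

theorem integrable_fst (hαm : Measurable α) (hA : ∀ x, |α x| ≤ A0) :
    Integrable (fun q : ℝ × ℝ => α q.1) μ :=
  Integrable.of_bound (C := A0) (hαm.comp measurable_fst).aestronglyMeasurable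
      (Eventually.of_forall fun q => by rw [Real.norm_eq_abs]; exact hA _)

theorem fi_int (h1 : Integrable X1) (h2 : Integrable X2) (hDm : Measurable D)
    (hM : ∀ x, |D x| ≤ M) (hαm : Measurable α) (hA : ∀ x, |α x| ≤ A0)
    (hE : Integrable E) (hEm : Measurable E) (hEM : ∀ x, |E x| ≤ ME) :
    Integrable (fun t => E t * AA X1 D t) ∧ Integrable (fun t => E t * WW X2 α t) ∧
    Integrable (fun t => E t * NN μ α t) ∧ Integrable (fun t => E t * BR X1 X2 μ D α t) := by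
  have hU := integrable_U h1 hDm hM
  have hW := integrable_U h2 hαm hA
  have hα : Integrable (fun q : ℝ × ℝ => α q.1) μ := integrable_fst hαm hA
  have j1 : Integrable (fun t => E t * AA X1 D t) :=
    integrable_dual (τ := fun y : ℝ => y) hU hE measurable_id
  have j2 : Integrable (fun t => E t * WW X2 α t) :=
    hW.bdd_mul (c := ME) hEm.aestronglyMeasurable
      (Eventually.of_forall fun p => by rw [Real.norm_eq_abs]; exact hEM _)
  have j3 : Integrable (fun t => E t * NN μ α t) :=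
    integrable_dual (τ := fun q : ℝ × ℝ => q.2) hα hE measurable_snd
  have hcongr : (fun t => E t * BR X1 X2 μ D α t) =
      fun t => E t * AA X1 D t + E t * WW X2 α t - E t * NN μ α t := by
    ext t; unfold BR; ring
  refine ⟨j1, j2, j3, ?_⟩
  rw [hcongr]
  exact (j1.add j2).sub j3

theorem fi (h1 : Integrable X1) (h2 : Integrable X2) (hDm : Measurable D)
    (hM : ∀ x, |D x| ≤ M) (hαm : Measurable α) (hA : ∀ x, |α x| ≤ A0)
    (hE : Integrable E) (hEm : Measurable E) (hEM : ∀ x, |E x| ≤ ME)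
    (hF : ∫ p, (X1 p * (D p.1 * P E p.2) + X2 p * (α p.1 * E p.2)) =
      ∫ q, α q.1 * P E q.2 ∂μ) :
    ∫ t, E t * BR X1 X2 μ D α t = 0 := by
  have hPc : Continuous (P E) := P_measurable hE hEM
  have hPb : ∀ x, |P E x| ≤ ∫ t, |E t| := P_bdd hE
  have hU := integrable_U h1 hDm hM
  have hα : Integrable (fun q : ℝ × ℝ => α q.1) μ := integrable_fst hαm hA
  obtain ⟨j1, j2, j3, -⟩ := fi_int (μ := μ) h1 h2 hDm hM hαm hA hE hEm hEM
  -- first term
  have i1 : Integrable (fun p : ℝ × ℝ => X1 p * (D p.1 * P E p.2)) := by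
    have := int_mul_snd (int_mul_fst h1 hDm hM) hPc.measurable hPb
    refine this.congr (Eventually.of_forall fun p => ?_)
    simp only; ring
  have i2 : Integrable (fun p : ℝ × ℝ => X2 p * (α p.1 * E p.2)) := by
    have := int_mul_snd (int_mul_fst h2 hαm hA) hEm hEM
    refine this.congr (Eventually.of_forall fun p => ?_)
    simp only; ring
  have e1 : ∫ p, X1 p * (D p.1 * P E p.2) = ∫ t, E t * AA X1 D t := by
    have s1 : ∫ p, X1 p * (D p.1 * P E p.2) = ∫ y, (∫ x, D x * X1 (x, y)) * P E y := by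
      rw [Measure.volume_eq_prod] at i1 ⊢
      rw [integral_prod_symm _ i1]
      congr 1; ext y
      rw [← integral_mul_const]
      congr 1; ext x; ring
    rw [s1]
    exact dualP (τ := fun y : ℝ => y) hU hE measurable_id
  have e2 : ∫ p, X2 p * (α p.1 * E p.2) = ∫ t, E t * WW X2 α t := by
    rw [Measure.volume_eq_prod] at i2 ⊢
    rw [integral_prod_symm _ i2]
    congr 1; ext y
    unfold WW
    rw [← integral_const_mul]
    congr 1; ext x; ring
  have e3 : ∫ q, α q.1 * P E q.2 ∂μ = ∫ t, E t * NN μ α t :=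
    dualP (τ := fun q : ℝ × ℝ => q.2) hα hE measurable_snd
  have hcongr : (fun t => E t * BR X1 X2 μ D α t) =
      fun t => E t * AA X1 D t + E t * WW X2 α t - E t * NN μ α t := by
    ext t; unfold BR; ring
  have j12 : Integrable (fun t => E t * AA X1 D t + E t * WW X2 α t) := j1.add j2
  rw [hcongr]
  rw [integral_sub j12 j3, integral_add j1 j2, ← e1, ← e2, ← e3, ← hF,
    integral_add i1 i2, sub_self]

end FI

theorem grad_prod {β D φ E : ℝ → ℝ} (hβ : ∀ᵐ x, HasDerivAt β (D x) x)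
    (hφ : ∀ᵐ y, HasDerivAt φ (E y) y) :
    ∀ᵐ p : ℝ × ℝ, gx (fun p => β p.1 * φ p.2) p = D p.1 * φ p.2 ∧
      gy (fun p => β p.1 * φ p.2) p = β p.1 * E p.2 := by
  filter_upwards [ae_fst hβ, ae_snd hφ] with p h1 h2
  have k1 := h1.hasFDerivAt.comp p hasFDerivAt_fst
  have k2 := h2.hasFDerivAt.comp p hasFDerivAt_snd
  have k := k1.mul k2
  have k' : fderiv ℝ (fun p : ℝ × ℝ => β p.1 * φ p.2) p = _ := k.fderiv
  unfold gx gy
  rw [k']
  constructor
  · simp [mul_comm]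
  · simp [mul_comm]

section FL

variable {a b c B : ℝ} {𝓗 : Set Hair} {X1 X2 : ℝ × ℝ → ℝ} {μ : Measure (ℝ × ℝ)}
  [IsFiniteMeasure μ] {D β E : ℝ → ℝ} {M A0 ME : ℝ}

omit [IsFiniteMeasure μ] in
theorem FlowF.int1 (h : FlowF a b c B 𝓗 X1 X2 μ) : Integrable X1 := h.i1

omit [IsFiniteMeasure μ] in
theorem FlowF.int2 (h : FlowF a b c B 𝓗 X1 X2 μ) : Integrable X2 := h.i2

theorem flow_line (h : FlowF a b c B 𝓗 X1 X2 μ)
    (hβm : Measurable β) (hβb : ∀ x, |β x| ≤ A0) (hDm : Measurable D) (hDb : ∀ x, |D x| ≤ M)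
    (hβ : ∀ᵐ x, HasDerivAt β (D x) x)
    (hE : Integrable E) (hEm : Measurable E) (hEb : ∀ x, |E x| ≤ ME)
    (hE0 : ∃ δ > 0, ∀ t ≤ c + δ, E t = 0)
    (J : Finset Hair) (hJ : ∀ K ∈ J, K ∈ 𝓗) (hμJ : μ (cut J) = 0)
    (hCF : CF (Wm a b c B \ cut J) (fun p => β p.1 * P E p.2)) :
    ∫ t, E t * BR X1 X2 μ D β t = 0 := by
  refine fi h.int1 h.int2 hDm hDb hβm hβb hE hEm hEb ?_
  obtain ⟨δ, hδ, hδ0⟩ := hE0
  have h1 := h.F J hJ hμJ _ hCF ⟨δ, hδ, fun p _ hp => by
    show β p.1 * P E p.2 = 0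
    rw [P_eq_zero (fun t ht => hδ0 t (by linarith)), mul_zero]⟩
  rw [← h1, setIntegral_eq_integral_of_forall_compl_eq_zero]
  · refine integral_congr_ae ?_
    filter_upwards [grad_prod hβ (P_hasDerivAt hE)] with p hp
    rw [hp.1, hp.2]
  · intro p hp
    have hp' : ¬ (a < p.1 ∧ p.1 < b ∧ c < p.2 ∧ p.2 < B) :=
      fun hh => hp ⟨hh.1, hh.2.1, hh.2.2.1, hh.2.2.2.le⟩
    rw [h.z1 p hp', h.z2 p hp']; ring

theorem lip_P (hD : Integrable D) (hM : ∀ t, |D t| ≤ M) : LipschitzWith M.toNNReal (P D) := by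
  have hM0 : 0 ≤ M := (abs_nonneg _).trans (hM 0)
  refine LipschitzWith.of_dist_le_mul fun s s' => ?_
  rw [Real.dist_eq, Real.dist_eq, Real.coe_toNNReal M hM0]
  exact P_lip hD hM s s'

theorem CF_PP {U : Set (ℝ × ℝ)} (hD : Integrable D) (hM : ∀ t, |D t| ≤ M)
    (hE : Integrable E) (hEM : ∀ t, |E t| ≤ ME) :
    CF U (fun p : ℝ × ℝ => P D p.1 * P E p.2) := by
  refine Crest.Agent.R105.CF_363.CF.mul ?_ ?_
  · exact Crest.Agent.R105.CF_363.CF_of_lipschitz
      ((lip_P hD hM).comp LipschitzWith.prod_fst) (fun p _ => P_bdd hD _)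
  · exact Crest.Agent.R105.CF_363.CF_of_lipschitz
      ((lip_P hE hEM).comp LipschitzWith.prod_snd) (fun p _ => P_bdd hE _)

theorem flow_prod (h : FlowF a b c B 𝓗 X1 X2 μ)
    (hD : Integrable D) (hDm : Measurable D) (hDb : ∀ x, |D x| ≤ M)
    (hE : Integrable E) (hEm : Measurable E) (hEb : ∀ x, |E x| ≤ ME)
    (hE0 : ∃ δ > 0, ∀ t ≤ c + δ, E t = 0) :
    ∫ t, E t * BR X1 X2 μ D (P D) t = 0 :=
  flow_line h (P_measurable hD hDb).measurable (P_bdd hD) hDm hDb (P_hasDerivAt hD) hE hEm hEb hE0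
    ∅ (by simp) (by simp) (CF_PP hD hDb hE hEb)

end FL

/-! tests with indicators of intervals -/

/-- indicator of `Ioc u v` -/
noncomputable def I1 (u v : ℝ) : ℝ → ℝ := (Ioc u v).indicator (fun _ => (1 : ℝ))

theorem I1_meas (u v : ℝ) : Measurable (I1 u v) := measurable_const.indicator measurableSet_Ioc

theorem I1_int (u v : ℝ) : Integrable (I1 u v) :=
  (integrable_indicator_iff measurableSet_Ioc).mpr
    (integrableOn_const (by rw [Real.volume_Ioc]; exact ENNReal.ofReal_ne_top))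

theorem I1_bdd (u v t : ℝ) : |I1 u v t| ≤ 1 := by
  unfold I1
  by_cases h : t ∈ Ioc u v
  · rw [indicator_of_mem h]; simp
  · rw [indicator_of_notMem h]; simp

theorem I1_mul (u v : ℝ) (huv : u ≤ v) (k : ℝ → ℝ) : ∫ t, I1 u v t * k t = ∫ t in u..v, k t := by
  rw [intervalIntegral.integral_of_le huv, ← integral_indicator measurableSet_Ioc]
  congr 1; ext t
  unfold I1
  by_cases h : t ∈ Ioc u v
  · rw [indicator_of_mem h, indicator_of_mem h, one_mul]
  · rw [indicator_of_notMem h, indicator_of_notMem h, zero_mul]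

theorem I1_total (u v : ℝ) (huv : u ≤ v) : ∫ t, I1 u v t = v - u := by
  have := I1_mul u v huv (fun _ => 1)
  simpa using this

theorem I1_left {u v t : ℝ} (h : t ≤ u) : I1 u v t = 0 := by
  unfold I1; exact indicator_of_notMem (fun hh => absurd hh.1 (not_lt.mpr h)) _

theorem I1_right {u v t : ℝ} (h : v < t) : I1 u v t = 0 := by
  unfold I1; exact indicator_of_notMem (fun hh => absurd hh.2 (not_le.mpr h)) _

theorem I1_mul_int {u v : ℝ} {k : ℝ → ℝ} (h : Integrable (fun t => I1 u v t * k t)) :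
    IntegrableOn k (Ioc u v) := by
  rw [← integrable_indicator_iff measurableSet_Ioc]
  refine h.congr (Eventually.of_forall fun t => ?_)
  simp only [I1]
  by_cases h : t ∈ Ioc u v
  · rw [indicator_of_mem h, indicator_of_mem h, one_mul]
  · rw [indicator_of_notMem h, indicator_of_notMem h, zero_mul]

theorem zero_of_tests {k : ℝ → ℝ} {u v : ℝ}
    (hi : ∀ u', u < u' → Integrable (fun t => I1 u' v t * k t))
    (h : ∀ u' x, u < u' → u' ≤ x → x < v → ∫ t, I1 u' x t * k t = 0) :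
    ∀ᵐ t, t ∈ Ioo u v → k t = 0 := by
  refine ae_of_subint fun c' hc' => ?_
  rcases le_or_gt v c' with hv | hv
  · exact Eventually.of_forall fun t ht => absurd (ht.1.trans ht.2) (not_lt.mpr hv)
  refine ae_zero_of_prim ?_ fun x hx => ?_
  · rw [intervalIntegrable_iff_integrableOn_Ioc_of_le hv.le]
    exact I1_mul_int (hi c' hc')
  · rw [← I1_mul c' x hx.1.le]
    exact h c' x hc' hx.1.le hx.2

theorem const_of_tests {k : ℝ → ℝ} {u v w : ℝ} (huw : u < w) (hwv : w < v)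
    (hi : ∀ u', u < u' → Integrable (fun t => I1 u' v t * k t))
    (h : ∀ u' x, u < u' → u' ≤ x → x < v →
      ∫ t, (I1 u' x t - ((x - u') / (v - w)) * I1 w v t) * k t = 0) :
    ∀ᵐ t, t ∈ Ioo u v → k t = (v - w)⁻¹ * ∫ t in w..v, k t := by
  have h0 : ∀ᵐ t, t ∈ Ioo u v → k t - (v - w)⁻¹ * ∫ t in w..v, k t = 0 := by
    have hc : ∀ u' x, Integrable (fun t => I1 u' x t * ((v - w)⁻¹ * ∫ t in w..v, k t)) :=
      fun u' x => (I1_int u' x).mul_const _
    refine zero_of_tests (fun u' hu' => ?_) (fun u' x hu' hx hxv => ?_)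
    · refine ((hi u' hu').sub (hc u' v)).congr (Eventually.of_forall fun t => ?_)
      simp only [Pi.sub_apply]; ring
    · have hix : Integrable (fun t => I1 u' x t * k t) := by
        have hss : Ioc u' x ⊆ Ioc u' v := fun t ht => ⟨ht.1, ht.2.trans hxv.le⟩
        have := (I1_mul_int (hi u' hu')).mono_set hss
        rw [← integrable_indicator_iff measurableSet_Ioc] at this
        refine this.congr (Eventually.of_forall fun t => ?_)
        simp only [I1]
        by_cases h : t ∈ Ioc u' x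
        · rw [indicator_of_mem h, indicator_of_mem h, one_mul]
        · rw [indicator_of_notMem h, indicator_of_notMem h, zero_mul]
      have h1 := h u' x hu' hx hxv
      have e1 : ∫ t, (I1 u' x t - ((x - u') / (v - w)) * I1 w v t) * k t =
          (∫ t, I1 u' x t * k t) - ((x - u') / (v - w)) * ∫ t, I1 w v t * k t := by
        rw [← integral_const_mul, ← integral_sub hix ((hi w huw).const_mul _)]
        congr 1; ext t; ring
      have e2 : ∫ t, I1 u' x t * (k t - (v - w)⁻¹ * ∫ t in w..v, k t) =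
          (∫ t, I1 u' x t * k t) - ∫ t, I1 u' x t * ((v - w)⁻¹ * ∫ t in w..v, k t) := by
        rw [← integral_sub hix (hc u' x)]
        congr 1; ext t; ring
      rw [e2, integral_mul_const, I1_total u' x hx]
      rw [e1, I1_mul w v hwv.le] at h1
      rw [← h1]
      field_simp
  filter_upwards [h0] with t ht hI
  linarith [ht hI]

end Crest.Agent.R105.Str_421
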