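import Crest.Agent.R105.SqJb_361
import Crest.Agent.R105.Knq4_247
import Crest.Agent.R105.Str2_421

/-! Row 105, S0138, exact squares: from the output of the Kantorovich problem with charged
rectangles (helper247's `HalfQ`, here `HQ`) to helper421's `FlowF` for the joined field. -/

open MeasureTheory Set Filter Topology Metric
open scoped NNReal ENNReal

namespace Crest.Agent.R105.SqJ_361

open Crest.Agent.R105.CF_363 Crest.Agent.R105.Sq_87 Crest.Agent.R105.Kin_238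
open Crest.Agent.R105.Str_421 (Wm FlowF)
open Crest.Agent.R105.Knq_247 (osc Bo QQ Vq HalfQ osc_nonneg le_osc)

variable {ι : Type}

/-- geometry of the charged rectangles `Q` in the lower half of the box; `S` = what is excluded
(it contains the open rectangles) -/
structure RG (𝓗 : Set Hair) (a b c B : ℝ) (Q : Rects ι) (S : Set (ℝ × ℝ)) : Prop where
  dis : Pairwise (fun i j => Disjoint (cl Q i) (cl Q j))
  box : ∀ i, cl Q i ⊆ Wl a b c B
  hq : ∀ K ∈ 𝓗, ∀ i, Disjoint K.car (Q.op i)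
  mS : MeasurableSet S
  sub : Q.un ⊆ S
  s1 : Summable fun i => Q.h1 i ^ 2
  s2 : Summable fun i => Q.h2 i ^ 2

/-- output of the Kantorovich problem with charged rectangles -/
structure HQ (𝓗 : Set Hair) (a b c B : ℝ) (Q : Rects ι) (S : Set (ℝ × ℝ)) (X1 X2 : ℝ × ℝ → ℝ)
    (f : ι → ℝ) (np nm : ι → Measure (ℝ × ℝ)) (μ : Measure (ℝ × ℝ)) : Prop where
  m1 : Measurable X1
  m2 : Measurable X2
  L1 : MemLp X1 2 (volume : Measure (ℝ × ℝ))
  L2 : MemLp X2 2 (volume : Measure (ℝ × ℝ))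
  z1 : ∀ p, p ∉ Wo a b c B \ S → X1 p = 0
  z2 : ∀ p, p ∉ Wo a b c B \ S → X2 p = 0
  fin : IsFiniteMeasure μ
  carried : μ (Wl a b c B)ᶜ = 0
  fp : ∀ i, IsFiniteMeasure (np i)
  fm : ∀ i, IsFiniteMeasure (nm i)
  cp : ∀ i, np i (cl Q i)ᶜ = 0
  cm : ∀ i, nm i (cl Q i)ᶜ = 0
  mp : ∀ i, (np i univ).toReal = f i
  mm : ∀ i, (nm i univ).toReal = f i
  f2 : Summable fun i => f i ^ 2
  F : ∀ (e : ℝ × ℝ → ℝ) (J : Finset Hair), e ∈ Vl 𝓗 a b c B → (∀ i, ContinuousOn e (cl Q i)) →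
    CF (Wl a b c B \ cut J) e → μ (cut J) = 0 →
    (∫ p in Wo a b c B \ S, (X1 p * gx e p + X2 p * gy e p)) +
      ∑' i, ((∫ p, e p ∂np i) - ∫ p, e p ∂nm i) = ∫ p, e p ∂μ
  cl : ∃ E : ℕ → ℝ × ℝ → ℝ, (∀ n, E n ∈ Vl 𝓗 a b c B) ∧ (∀ n i, ContinuousOn (E n) (cl Q i)) ∧
    Tendsto (fun n => ∫ p in Wo a b c B \ S, ((gx (E n) p - X1 p) ^ 2 + (gy (E n) p - X2 p) ^ 2))
      atTop (𝓝 0) ∧
    (∀ n, Summable fun i => osc (cl Q i) (E n) ^ 2) ∧
    Tendsto (fun n => ∑' i, (osc (cl Q i) (E n) - f i) ^ 2) atTop (𝓝 0) ∧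
    ∀ i, Tendsto (fun n => (∫ p, E n p ∂np i) - ∫ p, E n p ∂nm i) atTop (𝓝 (f i ^ 2))
  ab : ∀ e : ℝ × ℝ → ℝ, e ∈ Vl 𝓗 a b c B → (∀ i, ContinuousOn e (SqJ_361.cl Q i)) → ∀ i,
    |(∫ p, e p ∂np i) - ∫ p, e p ∂nm i| ≤ f i * osc (SqJ_361.cl Q i) e

/-- from helper247's output: `φ` enumerates the charged sets which meet the lower half -/
theorem HQ.of_half {𝓗 : Set Hair} {a b c B : ℝ} {Q : Rects ι} {S : Set (ℝ × ℝ)}
    {X1 X2 : ℝ × ℝ → ℝ} {κ : Type*} {QA : κ → Set (ℝ × ℝ)} {C : Set (ℝ × ℝ)} {f : κ → ℝ}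
    {νp νm : κ → Measure (ℝ × ℝ)} {μ : Measure (ℝ × ℝ)} (H : QQ 𝓗 a b c B QA)
    (h : HalfQ 𝓗 a b c B S QA C X1 X2 f νp νm μ) (hC : C ⊆ Wl a b c B) {φ : ι → κ}
    (hφ : Function.Injective φ) (h1 : ∀ i, QA (φ i) ∩ Wl a b c B = SqJ_361.cl Q i)
    (h2 : ∀ j ∉ range φ, QA j ∩ Wl a b c B = ∅) :
    HQ 𝓗 a b c B Q S X1 X2 (fun i => f (φ i)) (fun i => νp (φ i)) (fun i => νm (φ i)) μ := by
  have zp : ∀ j ∉ range φ, νp j = 0 := by
    intro j hj
    have := h.pc j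
    rw [h2 j hj, compl_empty] at this
    exact Measure.measure_univ_eq_zero.mp this
  have zm : ∀ j ∉ range φ, νm j = 0 := by
    intro j hj
    have := h.mc j
    rw [h2 j hj, compl_empty] at this
    exact Measure.measure_univ_eq_zero.mp this
  have zf : ∀ j ∉ range φ, f j = 0 := by
    intro j hj
    rw [← h.pm j, zp j hj]; simp
  have zo : ∀ j ∉ range φ, ∀ e, osc (QA j ∩ Wl a b c B) e = 0 := by
    intro j hj e
    rw [h2 j hj]
    have : IsEmpty ((∅ : Set (ℝ × ℝ)) × (∅ : Set (ℝ × ℝ))) := inferInstance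
    unfold Knq_247.osc
    rw [Real.iSup_of_isEmpty]
  have mem : ∀ e, e ∈ Vl 𝓗 a b c B → (∀ i, ContinuousOn e (SqJ_361.cl Q i)) →
      e ∈ Vq 𝓗 a b c B QA := by
    intro e he hc
    refine ⟨he, fun j => ?_⟩
    by_cases hj : j ∈ range φ
    · obtain ⟨i, rfl⟩ := hj
      rw [h1]; exact hc i
    · rw [h2 j hj]; exact continuousOn_empty _
  have inv : ∀ e, e ∈ Vq 𝓗 a b c B QA → ∀ i, ContinuousOn e (SqJ_361.cl Q i) := by
    intro e he i
    rw [← h1]; exact he.2 (φ i)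
  refine ⟨h.m1, h.m2, h.L1, h.L2, h.z1, h.z2, h.fin, ?_, fun i => h.pfin _, fun i => h.mfin _,
    fun i => ?_, fun i => ?_, fun i => h.pm _, fun i => h.mm _, h.fs.comp_injective hφ, ?_, ?_, ?_⟩
  · exact measure_mono_null (compl_subset_compl.mpr hC) h.carried
  · rw [← h1]; exact h.pc _
  · rw [← h1]; exact h.mc _
  · intro e J he hc hCF hμ
    have := h.F e J (mem e he hc) hCF hμ
    rw [← this]
    congr 1
    refine hφ.tsum_eq (f := fun j => (∫ p, e p ∂νp j) - ∫ p, e p ∂νm j) fun j hj => ?_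
    by_contra hjr
    apply hj
    simp only [zp j hjr, zm j hjr, integral_zero_measure, sub_zero]
  · obtain ⟨E, hE, e1, e2, e3⟩ := h.cl
    refine ⟨E, fun n => (hE n).1, fun n i => inv _ (hE n) i, e1, fun n => ?_, ?_, fun i => e3 _⟩
    · have := (H.summable (hE n)).comp_injective hφ
      refine this.congr fun i => ?_
      simp only [Function.comp, h1]
    · refine e2.congr fun n => ?_
      have := hφ.tsum_eq (f := fun j => (osc (QA j ∩ Wl a b c B) (E n) - f j) ^ 2) fun j hj => ?_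
      · rw [← this]
        refine tsum_congr fun i => ?_
        rw [h1]
      · by_contra hjr
        apply hj
        simp only [zo j hjr, zf j hjr]; norm_num
  · intro e he hc i
    have := h.abs_charge_le H (mem e he hc) (φ i)
    rwa [h1] at this

theorem Wm_eq (a b c B : ℝ) : Wm a b c B = Wl a b c B := by
  ext p; simp [Wm, Wl, and_assoc]

theorem measurableSet_Wl (a b c B : ℝ) : MeasurableSet (Wl a b c B) := by
  rw [Wl_eq]; exact measurableSet_Ioo.prod measurableSet_Ioc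

theorem measurableSet_Wo' (a b c B : ℝ) : MeasurableSet (Wo a b c B) := by
  rw [Wo_eq]; exact measurableSet_Ioo.prod measurableSet_Ioo

theorem isOpen_Wo' (a b c B : ℝ) : IsOpen (Wo a b c B) := by
  rw [Wo_eq]; exact isOpen_Ioo.prod isOpen_Ioo

theorem Wo_subset_Wl (a b c B : ℝ) : Wo a b c B ⊆ Wl a b c B := fun _ h => ⟨h.1, h.2.1, h.2.2.le⟩

theorem ae_Wo (a b c B : ℝ) : ∀ᵐ p : ℝ × ℝ, p ∈ Wl a b c B → p ∈ Wo a b c B := by
  have h : ∀ᵐ y : ℝ, y ≠ B := by rw [ae_iff]; simp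
  filter_upwards [ae_snd' h] with p hp hpW
  exact ⟨hpW.1, hpW.2.1, lt_of_le_of_ne hpW.2.2 hp⟩

variable {𝓗 : Set Hair} {a b c B : ℝ} {Q : Rects ι} {S : Set (ℝ × ℝ)}

theorem RG.disop (R : RG 𝓗 a b c B Q S) : Pairwise (fun i j => Disjoint (Q.op i) (Q.op j)) :=
  fun _ _ hij => (R.dis hij).mono (op_subset_cl Q _) (op_subset_cl Q _)

theorem RG.op_Wo (R : RG 𝓗 a b c B Q S) (i : ι) : Q.op i ⊆ Wo a b c B := by
  have h1 : Q.op i ⊆ Wl a b c B := (op_subset_cl Q i).trans (R.box i)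
  intro p hp
  have h2 := h1 hp
  refine ⟨h2.1, h2.2.1, lt_of_le_of_ne h2.2.2 fun hB => ?_⟩
  obtain ⟨q, hq1, hq2⟩ : ∃ q ∈ Q.op i, B < q.2 := by
    have hp2 := hp.2
    refine ⟨(p.1, (p.2 + (Q.y i + Q.h2 i)) / 2), ⟨hp.1, ?_, ?_⟩, ?_⟩
    · have := hp2.1; have := hp2.2; simp only; linarith
    · have := hp2.1; have := hp2.2; simp only; linarith
    · have := hp2.1; have := hp2.2; simp only; linarith
  exact absurd (h1 hq1).2.2 (not_le.mpr hq2)

theorem RG.op_cut (R : RG 𝓗 a b c B Q S) {J : Finset Hair} (hJ : ∀ K ∈ J, K ∈ 𝓗) (i : ι) :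
    Disjoint (cut J) (Q.op i) := by
  rw [Set.disjoint_left]
  rintro p ⟨K, hK, hp⟩ hpi
  exact (Set.disjoint_left.mp (R.hq K (hJ K hK) i)) hp hpi

/-! ### extension of a function from the open rectangles -/

/-- a function of class `CF` on the box minus a cut is on each closed rectangle, off the cut, the
restriction of a globally Lipschitz function -/
theorem RG.exists_ext (R : RG 𝓗 a b c B Q S) {J : Finset Hair} (hJ : ∀ K ∈ J, K ∈ 𝓗)
    {e : ℝ × ℝ → ℝ} {L : ℝ} (he : SL (Wl a b c B \ cut J) L e) (i : ι) :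
    ∃ g : ℝ × ℝ → ℝ, LipschitzWith L.toNNReal g ∧ EqOn g e (Q.op i) ∧
      EqOn g e (cl Q i \ cut J) := by
  have hsub : Q.op i ⊆ Wl a b c B \ cut J := fun p hp =>
    ⟨Wo_subset_Wl _ _ _ _ (R.op_Wo i hp), fun hc => Set.disjoint_left.mp (R.op_cut hJ i) hc hp⟩
  have h1 : LipschitzOnWith L.toNNReal e (Q.op i) := he.lipschitzOnWith (convex_op Q i) hsub
  obtain ⟨g, hg, hge⟩ := h1.extend_real
  refine ⟨g, hg, hge.symm, ?_⟩
  rintro p ⟨hp, hpJ⟩
  -- segments from `p` to the open rectangle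
  have key : ∀ q ∈ Q.op i, |e p - e q| ≤ L * dist p q := by
    intro q hq
    refine he p q fun r hr => ?_
    rcases eq_or_ne r p with rfl | hrp
    · exact ⟨R.box i hp, hpJ⟩
    · apply hsub
      have hrp' : r ∈ openSegment ℝ p q ∨ r = q := by
        rw [← insert_endpoints_openSegment] at hr
        rcases hr with hr | hr | hr
        · exact absurd hr hrp
        · exact Or.inr hr
        · exact Or.inl hr
      rcases hrp' with h | rfl
      · have hint : interior (cl Q i) = Q.op i := by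
          unfold cl rc Rects.op
          rw [interior_prod_eq, interior_Icc, interior_Icc]
        rw [← hint] at hq ⊢
        exact (convex_cl Q i).openSegment_self_interior_subset_interior hp hq h
      · exact hq
  have hpc : p ∈ closure (Q.op i) := by rw [closure_op]; exact hp
  by_contra hne
  have hpos : 0 < |g p - e p| := abs_pos.mpr (sub_ne_zero.mpr hne)
  set D := |g p - e p| with hD
  have hL : 0 ≤ (L.toNNReal : ℝ) := L.toNNReal.2
  have hLL : L ≤ L.toNNReal := Real.le_coe_toNNReal L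
  obtain ⟨q, hq, hpq⟩ := Metric.mem_closure_iff.mp hpc (D / (2 * L.toNNReal + 1)) (by positivity)
  have e1 := key q hq
  have e2 := hg.dist_le_mul p q
  rw [Real.dist_eq] at e2
  have e3 : g q = e q := (hge hq).symm
  have e4 : |g p - e p| ≤ |g p - g q| + |e p - e q| := by
    rw [e3]
    calc |g p - e p| = |(g p - e q) + -(e p - e q)| := by congr 1; ring
      _ ≤ |g p - e q| + |-(e p - e q)| := abs_add_le _ _
      _ = _ := by rw [abs_neg]
  have e5 : L * dist p q ≤ L.toNNReal * dist p q := mul_le_mul_of_nonneg_right hLL dist_nonneg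
  have e6 : D ≤ 2 * L.toNNReal * dist p q := by linarith
  have e7 : dist p q * (2 * L.toNNReal + 1) < D := by
    rwa [lt_div_iff₀ (by positivity)] at hpq
  nlinarith [dist_nonneg (x := p) (y := q)]

/-- redefinition on the cut inside the closed rectangles -/
theorem RG.exists_mod (R : RG 𝓗 a b c B Q S) {J : Finset Hair} (hJ : ∀ K ∈ J, K ∈ 𝓗)
    {e : ℝ × ℝ → ℝ} {L : ℝ} (hL : 0 ≤ L) (he : SL (Wl a b c B \ cut J) L e)
    (h0 : ∃ δ > 0, ∀ p ∈ Wl a b c B, p.2 < c + δ → e p = 0) :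
    ∃ e' : ℝ × ℝ → ℝ, (∀ p, p ∉ cut J → e' p = e p) ∧ (∀ i, LipschitzOnWith L.toNNReal e' (cl Q i)) ∧
      ∃ δ > 0, ∀ p ∈ Wl a b c B, p.2 < c + δ → e' p = 0 := by
  classical
  choose g hg hgo hgc using fun i => R.exists_ext hJ he i
  obtain ⟨δ, hδ, h0⟩ := h0
  let e' : ℝ × ℝ → ℝ := fun p => if h : ∃ i, p ∈ cl Q i then g h.choose p else e p
  have hcl : ∀ i, ∀ p ∈ cl Q i, e' p = g i p := by
    intro i p hp
    have h : ∃ i, p ∈ cl Q i := ⟨i, hp⟩
    have hi : h.choose = i := by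
      by_contra hne
      exact (Set.disjoint_left.mp (R.dis hne)) h.choose_spec hp
    simp only [e']
    rw [dif_pos h, hi]
  refine ⟨e', fun p hp => ?_, fun i => ?_, δ, hδ, fun p hp hpc => ?_⟩
  · by_cases h : ∃ i, p ∈ cl Q i
    · obtain ⟨i, hi⟩ := h
      rw [hcl i p hi]
      exact hgc i ⟨hi, hp⟩
    · simp only [e']; rw [dif_neg h]
  · intro p hp q hq
    rw [hcl i p hp, hcl i q hq]
    exact hg i p q
  · by_cases h : ∃ i, p ∈ cl Q i
    · obtain ⟨i, hi⟩ := h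
      rw [hcl i p hi]
      -- limit from the open rectangle
      have hpc' : p ∈ closure (Q.op i ∩ {q | q.2 < c + δ}) := by
        have h1 : p ∈ closure (Q.op i) := by rw [closure_op]; exact hi
        have ho : IsOpen {q : ℝ × ℝ | q.2 < c + δ} := isOpen_lt continuous_snd continuous_const
        exact ho.closure_inter ⟨h1, hpc⟩
      have hz : EqOn (g i) 0 (Q.op i ∩ {q | q.2 < c + δ}) := by
        rintro q ⟨hq, hq2⟩
        rw [hgo i hq]
        exact h0 q (Wo_subset_Wl _ _ _ _ (R.op_Wo i hq)) hq2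
      exact (hz.closure (hg i).continuous continuous_const) hpc'
    · simp only [e']; rw [dif_neg h]; exact h0 p hp hpc

/-! ### the flow of the whole box -/

variable {X1 X2 : ℝ × ℝ → ℝ} {f : ι → ℝ} {np nm : ι → Measure (ℝ × ℝ)} {μ : Measure (ℝ × ℝ)}
variable {Y1 Y2 : ι → ℝ × ℝ → ℝ}

theorem HQ.exists_fills (H : HQ 𝓗 a b c B Q S X1 X2 f np nm μ) (R : RG 𝓗 a b c B Q S) :
    ∃ Y1 Y2, Fills Q f np nm Y1 Y2 :=
  SqJ_361.exists_fills R.disop H.fp H.fm H.cp H.cm H.mp H.mm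

theorem summable_mul' {u v : ι → ℝ} (hu : Summable fun i => u i ^ 2)
    (hv : Summable fun i => v i ^ 2) : Summable fun i => u i * v i := by
  refine Summable.of_norm_bounded (g := fun i => u i ^ 2 + v i ^ 2) (hu.add hv) fun i => ?_
  rw [Real.norm_eq_abs, abs_mul]
  nlinarith [sq_abs (u i), sq_abs (v i), sq_nonneg (|u i| - |v i|), abs_nonneg (u i),
    abs_nonneg (v i)]

theorem integrableOn_of_box {X : ℝ × ℝ → ℝ} (hL : MemLp X 2 (volume : Measure (ℝ × ℝ)))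
    (hz : ∀ p, p ∉ Wo a b c B \ S → X p = 0) : Integrable X := by
  refine Str_421.integrable_of_box (a := a) (b := b) (c := c) (B := B) hL fun p hp => hz p ?_
  rintro ⟨h, -⟩
  exact hp ⟨h.1.1, h.1.2, h.2.1, h.2.2⟩

variable [Countable ι]

/-- gradient bounds and congruence for the redefined function -/
theorem ae_grad {J : Finset Hair} {e e' : ℝ × ℝ → ℝ} {L : ℝ} (hL : 0 ≤ L)
    (he : SL (Wl a b c B \ cut J) L e) (hee : ∀ p, p ∉ cut J → e' p = e p) :
    ∀ᵐ p : ℝ × ℝ, p ∈ Wl a b c B → gx e' p = gx e p ∧ gy e' p = gy e p ∧ |gx e' p| ≤ L ∧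
      |gy e' p| ≤ L := by
  have h1 : ∀ᵐ p : ℝ × ℝ, p ∉ cut J := by rw [ae_iff]; simpa using volume_cut J
  filter_upwards [h1, ae_Wo a b c B] with p hp hW hpW
  have ho : IsOpen (Wo a b c B \ cut J) := isOpen_diff_cut (isOpen_Wo' a b c B) J
  have hpo : p ∈ Wo a b c B \ cut J := ⟨hW hpW, hp⟩
  have hev : e' =ᶠ[𝓝 p] e := by
    filter_upwards [ho.mem_nhds hpo] with q hq using hee q hq.2
  have hs : SL (Wo a b c B \ cut J) L e :=
    he.mono (fun q hq => ⟨Wo_subset_Wl _ _ _ _ hq.1, hq.2⟩)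
  rw [gx_congr hev, gy_congr hev]
  exact ⟨rfl, rfl, hs.abs_gx_le ho hL hpo, hs.abs_gy_le ho hL hpo⟩

/-- **the joined field is a flow in the whole box** -/
theorem HQ.flowF (H : HQ 𝓗 a b c B Q S X1 X2 f np nm μ) (R : RG 𝓗 a b c B Q S)
    (F : Fills Q f np nm Y1 Y2)
    (sat : ∀ᵐ q ∂μ, (∃ K ∈ 𝓗, K.x = q.1 ∧ K.b ≤ q.2 ∧ B ≤ K.t) ∨
      (∃ α β b0 : ℝ, α < β ∧ α ≤ q.1 ∧ q.1 ≤ β ∧ b0 ≤ q.2 ∧
        ∀ᵐ p : ℝ × ℝ, p.1 ∈ Ioo α β → b0 < p.2 → join Q X1 Y1 p = 0)) :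
    FlowF a b c B 𝓗 (join Q X1 Y1) (join Q X2 Y2) μ := by
  have I1 := integrableOn_of_box H.L1 H.z1
  have I2 := integrableOn_of_box H.L2 H.z2
  have s1 : Summable fun i => Q.h1 i * f i := summable_mul' R.s1 H.f2
  have s2 : Summable fun i => Q.h2 i * f i := summable_mul' R.s2 H.f2
  have hz : ∀ (X : ℝ × ℝ → ℝ) (Y : ι → ℝ × ℝ → ℝ), (∀ p, p ∉ Wo a b c B \ S → X p = 0) →
      ∀ p : ℝ × ℝ, ¬ (a < p.1 ∧ p.1 < b ∧ c < p.2 ∧ p.2 < B) → join Q X Y p = 0 := by
    intro X Y hX p hp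
    have hpW : p ∉ Wo a b c B := fun h => hp ⟨h.1.1, h.1.2, h.2.1, h.2.2⟩
    have hpu : p ∉ Q.un := by
      intro h
      obtain ⟨i, hi⟩ := mem_iUnion.mp h
      exact hpW (R.op_Wo i hi)
    rw [join_of_not hpu]
    exact hX p fun h => hpW h.1
  refine ⟨F.m1 H.m1, F.m2 H.m2, F.i1 I1.integrableOn s1, F.i2 I2.integrableOn s2,
    hz X1 Y1 H.z1, hz X2 Y2 H.z2, ?_, sat, ?_⟩
  · rw [Wm_eq, ae_iff]; exact H.carried
  · intro J hJ hμJ e he h0
    rw [Wm_eq] at he h0 ⊢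
    obtain ⟨L, C, hL, hSL, hb⟩ := he
    obtain ⟨e', hee, hlip, h0'⟩ := R.exists_mod hJ hL hSL h0
    have hCF : CF (Wl a b c B \ cut J) e' :=
      CF.congr ⟨L, C, hL, hSL, hb⟩ fun p hp => (hee p hp.2).symm
    have hVl : e' ∈ Vl 𝓗 a b c B := ⟨⟨J, hJ, hCF⟩, h0'⟩
    have hcont : ∀ i, ContinuousOn e' (SqJ_361.cl Q i) := fun i => (hlip i).continuousOn
    have hg := ae_grad (a := a) (b := b) (c := c) (B := B) hL hSL hee
    have hLL : L ≤ L.toNNReal := Real.le_coe_toNNReal L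
    obtain ⟨-, hflow⟩ := F.flow (X1 := X1) (X2 := X2) I1.integrableOn I2.integrableOn s1 s2
      (measurableSet_Wl a b c B) (fun i => (R.op_Wo i).trans (Wo_subset_Wl _ _ _ _)) (e := e')
      (L := L.toNNReal)
      (by filter_upwards [hg] with p hp hpW
          exact ⟨(hp hpW).2.2.1.trans hLL, (hp hpW).2.2.2.trans hLL⟩)
      (fun i => (hlip i).mono (op_subset_cl Q i)) hcont
    have hF := H.F e' J hVl hcont hCF hμJ
    have e1 : ∫ p in Wl a b c B \ Q.un, (X1 p * gx e' p + X2 p * gy e' p) =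
        ∫ p in Wo a b c B \ S, (X1 p * gx e' p + X2 p * gy e' p) := by
      refine (setIntegral_eq_of_subset_of_forall_sdiff_eq_zero
        ((measurableSet_Wl a b c B).diff Q.measurableSet_un) ?_ ?_)
      · exact fun p hp => ⟨Wo_subset_Wl _ _ _ _ hp.1, fun h => hp.2 (R.sub h)⟩
      · intro p hp
        rw [H.z1 p hp.2, H.z2 p hp.2]; ring
    have e2 : ∫ q, e' q ∂μ = ∫ q, e q ∂μ := by
      refine integral_congr_ae ?_
      have : ∀ᵐ q ∂μ, q ∉ cut J := by rw [ae_iff]; simpa using hμJ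
      filter_upwards [this] with q hq using hee q hq
    rw [← e2, ← hF, ← e1, ← hflow]
    refine setIntegral_congr_ae (measurableSet_Wl a b c B) ?_
    filter_upwards [hg] with p hp hpW
    rw [(hp hpW).1, (hp hpW).2.1]

end Crest.Agent.R105.SqJ_361
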