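import Crest.Agent.R105.SqJf_361
import Crest.Agent.R105.Kbx2_247
import Crest.Agent.R105.Kbx3_247

/-! Row 105, S0138, Lemma A with exact squares: `LowOut` for both halves of helper247's box problems
`FamF` (families) and `SolF` (single solid) (helper361). -/

set_option autoImplicit false

open MeasureTheory Set Filter Topology Metric
open scoped NNReal ENNReal

namespace Crest.Agent.R105.SqJ_361

open Crest.Agent.R105.CF_363 Crest.Agent.R105.Sq_87 Crest.Agent.R105.Kin_238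
open Crest.Agent.R105.Cq_463 Crest.Agent.R105.Exs_992 Crest.Agent.R105.Stp_722
open Crest.Agent.R105.Nal_649 Crest.Agent.R105.Famq_306
open Crest.Agent.R105.Knq_247 (QQ HalfQ)
open Crest.Agent.R105.Kbx_247
open Crest.Agent.R105.Skp2_257 (Comps)

variable {E : Set (ℝ × ℝ)} {𝒬 : Set Sqr} {𝓗 : Set Hair} {a b c d B Bm Bp m : ℝ}
variable {g : Set (Set (ℝ × ℝ))} {Q0 : Sqr}

/-- the reflected picture -/
theorem BoxP.refl (hP : BoxP E 𝒬 𝓗 a b c d) :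
    BoxP (rf ⁻¹' E) (rfS '' 𝒬) (reflH 𝓗) a b (-d) (-c) where
  pic := refl_pic hP.pic
  dis := by
    intro K hK K' hK' hne
    have h := hP.dis K.refl hK K'.refl hK' fun h => hne (Hair.refl_injective h)
    rw [Hair.car_refl, Hair.car_refl] at h
    rw [Set.disjoint_left] at h ⊢
    intro p hp hp'
    exact h (a := rf p) (by simpa using hp) (by simpa using hp')
  box := by
    intro p hp
    have h1 := hP.box hp
    refine ⟨h1.1, ?_, ?_⟩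
    · have := h1.2.2
      rw [rf_snd] at this
      linarith
    · have := h1.2.1
      rw [rf_snd] at this
      linarith

/-- a square is not contained in a hair -/
theorem not_sub_hair (Q : Sqr) (K : Hair) : ¬ Q.car ⊆ K.car := by
  intro h
  have hs := Q.hs
  have h1 := (h (show (Q.x, Q.y) ∈ Q.car from
    Sqr.mem_car.2 ⟨⟨le_rfl, by linarith⟩, ⟨le_rfl, by linarith⟩⟩)).1
  have h2 := (h (show (Q.x + Q.s, Q.y) ∈ Q.car from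
    Sqr.mem_car.2 ⟨⟨by simp only; linarith, le_rfl⟩, ⟨le_rfl, by simp only; linarith⟩⟩)).1
  simp only at h1 h2
  linarith

/-- a free hair misses the squares -/
theorem free_misses (hP : PicS E 𝒬 𝓗) {K : Hair} (hK : K.car ∈ Comps E) {Q : Sqr} (hQ : Q ∈ 𝒬) :
    Disjoint K.car Q.car := by
  rw [Set.disjoint_left]
  intro p hp hpQ
  have h1 : K.car = comp E Q :=
    comp_unique hK (SkT1_137.comp_mem hP.q hQ) ⟨p, hp, SkT1_137.car_sub_comp hP.q hQ hpQ⟩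
  exact not_sub_hair Q K (h1 ▸ SkT1_137.car_sub_comp hP.q hQ)

section fam

variable {X1 X2 : ℝ × ℝ → ℝ} {f : {Q : Sqr // Q ∈ 𝒬} → ℝ}
  {νp νm : {Q : Sqr // Q ∈ 𝒬} → Measure (ℝ × ℝ)} {μ : Measure (ℝ × ℝ)}
  {Y1 Y2 : ℝ × ℝ → ℝ} {f' : {Q : Sqr // Q ∈ rfS '' 𝒬} → ℝ}
  {νp' νm' : {Q : Sqr // Q ∈ rfS '' 𝒬} → Measure (ℝ × ℝ)} {ν : Measure (ℝ × ℝ)}

/-- **the lower half of the flow of a family** -/
theorem famF_low (hP : BoxP E 𝒬 𝓗 a b c d) (hg : FamQ E g Bm Bp) (hab : a < b) (hc : c < Bm)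
    (gen : ∀ Q ∈ 𝒬, Q.y ≠ Bm)
    (F : FamF E 𝒬 𝓗 g Bm Bp a b c d m X1 X2 f νp νm μ Y1 Y2 f' νp' νm' ν) :
    ∃ U1 U2 ψ Ψ J z κ r,
      LowOut E 𝒬 𝓗 a b c Bm X1 X2 f νp νm μ U1 U2 ψ Ψ J z κ r := by
  refine exists_lowOut hP Subset.rfl hab hc gen ?_ (qq hP.pic.q hP.box Subset.rfl) F.lo ?_ ?_
  · rintro p ⟨⟨P, hPg, hpP⟩, h2⟩
    have h3 := hP.box (comps_sub (hg.sub hPg) hpP)
    exact ⟨h3.1, h3.2.1, h2⟩
  · filter_upwards [F.c1] with q hq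
    obtain ⟨K, hK, hKg, h1, h2, h3, h4⟩ := hq
    exact Or.inl ⟨K, hK, h1.1.symm, h1.2.1, (hg.lt.le).trans h4⟩
  · intro Q hQ
    refine measure_mono_null (fun q hq => ?_) (ae_iff.1 F.c1)
    rintro ⟨K, hK, hKg, h1, -⟩
    exact Set.disjoint_left.1 (free_misses hP.pic (hg.sub hKg) hQ) h1 hq

/-- **the upper half of the flow of a family** (reflected picture) -/
theorem famF_up (hP : BoxP E 𝒬 𝓗 a b c d) (hg : FamQ E g Bm Bp) (hab : a < b) (hd : Bp < d)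
    (gen : ∀ Q ∈ 𝒬, Q.y + Q.s ≠ Bp)
    (F : FamF E 𝒬 𝓗 g Bm Bp a b c d m X1 X2 f νp νm μ Y1 Y2 f' νp' νm' ν) :
    ∃ U1 U2 ψ Ψ J z κ r, LowOut (rf ⁻¹' E) (rfS '' 𝒬) (reflH 𝓗) a b (-d) (-Bp)
      Y1 Y2 f' νp' νm' ν U1 U2 ψ Ψ J z κ r := by
  have hP' := hP.refl
  refine exists_lowOut hP' Subset.rfl hab (by linarith) ?_ ?_ (qq hP'.pic.q hP'.box Subset.rfl)
    F.up ?_ ?_
  · rintro Q hQ h
    have h1 := gen (rfS Q) (mem_rfS.1 hQ)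
    rw [rfS_y, rfS_s] at h1
    exact h1 (by linarith)
  · rintro p ⟨⟨P, hPg, hpP⟩, h2⟩
    have h3 := hP'.box (show p ∈ rf ⁻¹' E from comps_sub (hg.sub hPg) hpP)
    exact ⟨h3.1, h3.2.1, h2⟩
  · filter_upwards [F.c2] with q hq
    obtain ⟨K, hK, hKg, h1, h2, h3, h4⟩ := hq
    have h5 : q ∈ K.refl.car := Hair.mem_car_refl.2 h1
    refine Or.inl ⟨K.refl, ?_, h5.1.symm, h5.2.1, ?_⟩
    · show K.refl.refl ∈ 𝓗
      rw [Hair.refl_refl]; exact hK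
    · rw [Hair.refl_t]
      have := hg.lt
      linarith
  · intro Q hQ
    refine measure_mono_null (fun q hq => ?_) (ae_iff.1 F.c2)
    rintro ⟨K, hK, hKg, h1, -⟩
    have h2 : rf q ∈ (rfS Q).car := by
      rw [mem_car_rfS, rf_rf]; exact hq
    exact Set.disjoint_left.1 (free_misses hP.pic (hg.sub hKg) (mem_rfS.1 hQ)) h1 h2

end fam

section sol

variable {X1 X2 : ℝ × ℝ → ℝ} {f : {Q : Sqr // Q ∈ 𝒬 \ {Q0}} → ℝ}
  {νp νm : {Q : Sqr // Q ∈ 𝒬 \ {Q0}} → Measure (ℝ × ℝ)} {μ : Measure (ℝ × ℝ)}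
  {Y1 Y2 : ℝ × ℝ → ℝ} {f' : {Q : Sqr // Q ∈ rfS '' (𝒬 \ {Q0})} → ℝ}
  {νp' νm' : {Q : Sqr // Q ∈ rfS '' (𝒬 \ {Q0})} → Measure (ℝ × ℝ)} {ν : Measure (ℝ × ℝ)}

/-- **the lower flow of a single solid** -/
theorem solF_low (hP : BoxP E 𝒬 𝓗 a b c d) (hQ0 : Q0 ∈ 𝒬) (hab : a < b) (hc : c < B)
    (hB : B ≤ Q0.y + Q0.s) (gen : ∀ Q ∈ 𝒬, Q.y ≠ B)
    (F : SolF E 𝒬 𝓗 Q0 B Bp a b c d X1 X2 f νp νm μ Y1 Y2 f' νp' νm' ν) :
    ∃ U1 U2 ψ Ψ J z κ r,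
      LowOut E (𝒬 \ {Q0}) 𝓗 a b c B X1 X2 f νp νm μ U1 U2 ψ Ψ J z κ r := by
  refine exists_lowOut hP sdiff_subset hab hc (fun Q hQ => gen Q hQ.1) ?_
    (qq hP.pic.q hP.box sdiff_subset) F.lo ?_ ?_
  · rintro p ⟨h1, h2⟩
    have h3 := hP.box (hP.pic.q.sub Q0 hQ0 h1)
    exact ⟨h3.1, h3.2.1, h2⟩
  · filter_upwards [F.c1] with q hq
    exact Or.inr ⟨Q0, hQ0, fun h => h.2 rfl, hq.1, hB⟩
  · intro Q hQ
    refine measure_mono_null (fun q hq => ?_) (ae_iff.1 F.c1)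
    rintro ⟨h1, -⟩
    exact Set.disjoint_left.1 (hP.pic.q.disjoint hQ.1 hQ0 hQ.2) hq h1

/-- **the upper flow of a single solid** (reflected picture) -/
theorem solF_up (hP : BoxP E 𝒬 𝓗 a b c d) (hQ0 : Q0 ∈ 𝒬) (hab : a < b) (hd : Bp < d)
    (hBp : Q0.y + Q0.s < Bp) (gen : ∀ Q ∈ 𝒬, Q.y + Q.s ≠ Bp)
    (F : SolF E 𝒬 𝓗 Q0 B Bp a b c d X1 X2 f νp νm μ Y1 Y2 f' νp' νm' ν) :
    ∃ U1 U2 ψ Ψ J z κ r, LowOut (rf ⁻¹' E) (rfS '' (𝒬 \ {Q0})) (reflH 𝓗) a b (-d) (-Bp)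
      Y1 Y2 f' νp' νm' ν U1 U2 ψ Ψ J z κ r := by
  have hP' := hP.refl
  have hsub : rfS '' (𝒬 \ {Q0}) ⊆ rfS '' 𝒬 := image_mono sdiff_subset
  refine exists_lowOut hP' hsub hab (by linarith) ?_ ?_ (qq hP'.pic.q hP'.box hsub) F.up ?_ ?_
  · rintro Q hQ h
    have h1 := gen (rfS Q) (mem_rfS.1 (hsub hQ))
    rw [rfS_y, rfS_s] at h1
    exact h1 (by linarith)
  · rintro p ⟨h1, h2⟩
    have h3 := hP'.box (show p ∈ rf ⁻¹' E from
      comps_sub (SkT1_137.comp_mem hP.pic.q hQ0) h1)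
    exact ⟨h3.1, h3.2.1, h2⟩
  · filter_upwards [F.c2] with q hq
    obtain ⟨h0, K, hK, h1, h2, h3, h4⟩ := hq
    have h5 : q ∈ K.refl.car := Hair.mem_car_refl.2 h3
    refine Or.inl ⟨K.refl, ?_, h5.1.symm, h5.2.1, ?_⟩
    · show K.refl.refl ∈ 𝓗
      rw [Hair.refl_refl]; exact hK
    · rw [Hair.refl_t, h2]
      linarith
  · intro Q hQ
    refine measure_mono_null (fun q hq => ?_) (ae_iff.1 F.c2)
    rintro ⟨-, K, hK, h1, h2, h3, -⟩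
    have h4 : rf q ∈ (rfS Q).car := by
      rw [mem_car_rfS, rf_rf]; exact hq
    have h5 := mem_rfS.1 hQ
    have h6 : comp E (rfS Q) = comp E Q0 :=
      comp_unique (SkT1_137.comp_mem hP.pic.q h5.1) (SkT1_137.comp_mem hP.pic.q hQ0)
        ⟨rf q, SkT1_137.car_sub_comp hP.pic.q h5.1 h4, h1 h3⟩
    exact h5.2 (SkT1_137.eq_of_comp_eq hP.pic.q h5.1 hQ0 h6)

end sol

end Crest.Agent.R105.SqJ_361
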