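import Crest.Agent.R105.SqM_87

/-! Row 105, S0138, exact squares: maximum principle for the stream function on `V`.
Part 2: Thomson's principle with truncated costs. -/

open MeasureTheory Set Filter Topology
open scoped NNReal

namespace Crest.Agent.R105.Sq_87

open Crest.Agent.R105.Mp_87 (lam lam_mono Rc measurableSet_Rc restrict_Rc hline vline wx wy ae_swap
  ae_x_of_ae ae_y_of_ae ii_mono tendsto_integral_mul PXh)
open Crest.Agent.R105.CF_363 (gx gy SL cut Hair measurable_gx measurable_gy gx_congr gy_congr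
  gx_eq_deriv gy_eq_deriv isOpen_diff_cut volume_cut green_hairs)

variable {ι : Type} {Q : Rects ι} {S : Set (ℝ × ℝ)}
variable {a b c B σ : ℝ} {X1 X2 ψ Ψ : ℝ × ℝ → ℝ} {μ : Measure (ℝ × ℝ)} {f : ι → ℝ}

theorem ae_rel (L : LinesI a b c B σ X1 X2 μ ψ Ψ) (x0 x1 y0 y1 M : ℝ) :
    ∀ᵐ p : ℝ × ℝ, p ∈ Ioo a b ×ˢ Ioo c B →
      (W1 x0 x1 y0 y1 M X2 Ψ p = -X2 p ∧ W2 x0 x1 y0 y1 M X1 ψ p = X1 p) ∨
      (W1 x0 x1 y0 y1 M X2 Ψ p = 0 ∧ W2 x0 x1 y0 y1 M X1 ψ p = 0) := by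
  filter_upwards [L.E] with p hp hpB
  have he := hp hpB.1 hpB.2.1
  unfold W1 W2
  by_cases h : p ∈ Rc x0 x1 y0 y1
  · rw [indicator_of_mem h, indicator_of_mem h]
    unfold wx wy
    rw [he]
    by_cases h2 : M < ψ p
    · left; simp [h2]
    · right; simp [h2]
  · right
    rw [indicator_of_notMem h, indicator_of_notMem h]
    exact ⟨rfl, rfl⟩

theorem af_add_le (L : LinesI a b c B σ X1 X2 μ ψ Ψ) (D : SqData Q S a b c B X1 X2 μ f)
    (x0 x1 y0 y1 M : ℝ) (i : ι) {ε : ℝ} (hε : 0 < ε) (hε4 : ε ≤ 1 / 4) :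
    af Q i (fun p => -X2 p - W1 x0 x1 y0 y1 M X2 Ψ p) (fun p => X1 p - W2 x0 x1 y0 y1 M X1 ψ p) ε +
      af Q i (W1 x0 x1 y0 y1 M X2 Ψ) (W2 x0 x1 y0 y1 M X1 ψ) ε ≤ 2 * f i := by
  refine le_trans (le_of_eq ?_) (D.F2 i ε hε hε4)
  unfold af
  rw [← mul_add]
  congr 1
  have iW1 := integrable_W1 x0 x1 y0 y1 M L.L2 L.mΨ
  have iW2 := integrable_W2 x0 x1 y0 y1 M L.L1 L.mψ
  have hgm : Measurable (Q.gau i) := by
    have hSL : SL univ ((Q.h1 i)⁻¹ + (Q.h2 i)⁻¹) (Q.gau i) := fun p q _ => Q.gau_lip i p q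
    exact (continuous_iff_continuousAt.mpr fun p =>
      hSL.continuousAt isOpen_univ (mem_univ p)).measurable
  have j1 : IntegrableOn (dn (Q.gau i) (fun p => -X2 p - W1 x0 x1 y0 y1 M X2 Ψ p)
      (fun p => X1 p - W2 x0 x1 y0 y1 M X1 ψ p)) (Q.op i ∩ ann (Q.gau i) ε) :=
    integrableOn_dn (gau_const_nonneg Q i) (Q.gau_lip i)
      ((L.L2.neg.sub iW1).integrableOn) ((L.L1.sub iW2).integrableOn)
  have j2 : IntegrableOn (dn (Q.gau i) (W1 x0 x1 y0 y1 M X2 Ψ) (W2 x0 x1 y0 y1 M X1 ψ))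
      (Q.op i ∩ ann (Q.gau i) ε) :=
    integrableOn_dn (gau_const_nonneg Q i) (Q.gau_lip i) iW1.integrableOn iW2.integrableOn
  rw [← integral_add j1.abs j2.abs]
  apply integral_congr_ae
  rw [EventuallyEq, ae_restrict_iff' ((Q.measurableSet_op i).inter (measurableSet_ann hgm ε))]
  filter_upwards [ae_rel L x0 x1 y0 y1 M] with p hp hpi
  rcases hp (D.box i hpi.1) with ⟨h1, h2⟩ | ⟨h1, h2⟩
  · simp only [dn, h1, h2]
    rw [show (X1 p - X1 p) * gx (Q.gau i) p - (-X2 p - -X2 p) * gy (Q.gau i) p = 0 by ring, abs_zero,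
      zero_add]
    congr 1; ring
  · simp only [dn, h1, h2]
    rw [show (0 : ℝ) * gx (Q.gau i) p - 0 * gy (Q.gau i) p = 0 by ring, abs_zero, add_zero]
    congr 1; ring

theorem grad_bd {J : ℕ → Finset Hair} {z : ℕ → ℝ × ℝ → ℝ} {κ : Hair → ℝ} {r : ℕ → ι → ℝ}
    (A : ApprQ Q S a b c B σ X1 X2 μ Ψ f J z κ r) (n : ℕ) :
    ∃ Ln : ℝ, 0 ≤ Ln ∧ ∀ᵐ p ∂((volume : Measure (ℝ × ℝ)).restrict (Ioo a b ×ˢ Ioo c B)),
      ‖gx (z n) p‖ ≤ Ln ∧ ‖gy (z n) p‖ ≤ Ln := by
  obtain ⟨Ln, hLn, hsl⟩ := A.sl n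
  refine ⟨Ln, hLn, ?_⟩
  rw [ae_restrict_iff' (measurableSet_Ioo.prod measurableSet_Ioo)]
  have hnull : ∀ᵐ p : ℝ × ℝ, p ∉ cut (J n) := measure_eq_zero_iff_ae_notMem.mp (volume_cut (J n))
  have hop : IsOpen ((Ioo a b ×ˢ Ioo c B) \ cut (J n)) :=
    isOpen_diff_cut (isOpen_Ioo.prod isOpen_Ioo) _
  filter_upwards [hnull] with p hp hpR
  exact ⟨hsl.abs_gx_le hop hLn ⟨hpR, hp⟩, hsl.abs_gy_le hop hLn ⟨hpR, hp⟩⟩

theorem lip_op (D : SqData Q S a b c B X1 X2 μ f)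
    {J : ℕ → Finset Hair} {z : ℕ → ℝ × ℝ → ℝ} {κ : Hair → ℝ} {r : ℕ → ι → ℝ}
    (A : ApprQ Q S a b c B σ X1 X2 μ Ψ f J z κ r) (n : ℕ) :
    ∃ Ln : ℝ, 0 ≤ Ln ∧ ∀ i, ∀ p ∈ Q.op i, ∀ q ∈ Q.op i, |z n p - z n q| ≤ Ln * dist p q := by
  obtain ⟨Ln, hLn, hsl⟩ := A.sl n
  refine ⟨Ln, hLn, fun i p hp q hq => ?_⟩
  apply hsl p q
  have hconv : Convex ℝ (Q.op i) := (convex_Ioo _ _).prod (convex_Ioo _ _)
  intro s hs
  have hsi := hconv.segment_subset hp hq hs
  exact ⟨D.box i hsi, fun h => Set.disjoint_left.mp (A.dq n i) h hsi⟩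

/-- **Thomson's principle with truncated costs.** -/
theorem thomson [IsFiniteMeasure μ] [Countable ι] (L : LinesI a b c B σ X1 X2 μ ψ Ψ)
    (hσ : σ = 1 ∨ σ = -1) (D : SqData Q S a b c B X1 X2 μ f)
    {J : ℕ → Finset Hair} {z : ℕ → ℝ × ℝ → ℝ} {κ : Hair → ℝ} {r : ℕ → ι → ℝ}
    (A : ApprQ Q S a b c B σ X1 X2 μ Ψ f J z κ r) {x0 x1 y0 y1 M : ℝ}
    (R : GoodR a b c σ X1 X2 μ ψ Ψ x0 x1 y0 y1)
    (py0 : PYq a b μ Ψ J κ y0) (py1 : PYq a b μ Ψ J κ y1) (pr : PRq μ J x0 x1 y0 y1)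
    (hM : BdLe M ψ Ψ x0 x1 y0 y1) (hB0 : y0 < B) (hS : volume (S ∩ Rc x0 x1 y0 y1) = 0) :
    (∀ᵐ p : ℝ × ℝ, p ∈ (Ioo a b ×ˢ Ioo c B) \ (Q.un ∪ S) → W1 x0 x1 y0 y1 M X2 Ψ p = 0) ∧
    ∀ j, ∀ δ, 0 < δ → ∃ᶠ n in atTop,
      af Q j (W1 x0 x1 y0 y1 M X2 Ψ) (W2 x0 x1 y0 y1 M X1 ψ) (wd n) ≤ δ := by
  set w1 := W1 x0 x1 y0 y1 M X2 Ψ with hw1
  set w2 := W2 x0 x1 y0 y1 M X1 ψ with hw2
  set BB : Set (ℝ × ℝ) := Ioo a b ×ˢ Ioo c B with hBB
  have hmBB : MeasurableSet BB := measurableSet_Ioo.prod measurableSet_Ioo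
  set DD : Set (ℝ × ℝ) := BB \ (Q.un ∪ S) with hDD
  have hmDD : MeasurableSet DD := hmBB.diff (Q.measurableSet_un.union D.mS)
  have hfinBB : volume BB ≠ ⊤ := by
    rw [hBB, Measure.volume_eq_prod, Measure.prod_prod, Real.volume_Ioo, Real.volume_Ioo]
    exact ENNReal.mul_ne_top ENNReal.ofReal_ne_top ENNReal.ofReal_ne_top
  have hfin : IsFiniteMeasure ((volume : Measure (ℝ × ℝ)).restrict DD) := by
    refine ⟨?_⟩
    rw [Measure.restrict_apply_univ]
    exact lt_of_le_of_lt (measure_mono sdiff_subset) (lt_top_iff_ne_top.mpr hfinBB)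
  have hw1m : Measurable w1 := measurable_W1 _ _ _ _ _ L.m2 L.mΨ
  have hw2m : Measurable w2 := (measurable_wy M L.m1 L.mψ).indicator (measurableSet_Rc _ _ _ _)
  have iw1 : Integrable w1 (volume : Measure (ℝ × ℝ)) := integrable_W1 _ _ _ _ _ L.L2 L.mΨ
  have iw2 : Integrable w2 (volume : Measure (ℝ × ℝ)) := integrable_W2 _ _ _ _ _ L.L1 L.mψ
  have hrel := ae_rel L x0 x1 y0 y1 M
  have hDsub : DD ⊆ (Q.un ∪ S)ᶜ := fun p hp => hp.2
  have hX1D : MemLp X1 2 ((volume : Measure (ℝ × ℝ)).restrict DD) :=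
    D.V1.mono_measure (Measure.restrict_mono hDsub le_rfl)
  have hX2D : MemLp X2 2 ((volume : Measure (ℝ × ℝ)).restrict DD) :=
    D.V2.mono_measure (Measure.restrict_mono hDsub le_rfl)
  have hrelD : ∀ᵐ p ∂((volume : Measure (ℝ × ℝ)).restrict DD),
      (w1 p = -X2 p ∧ w2 p = X1 p) ∨ (w1 p = 0 ∧ w2 p = 0) := by
    rw [ae_restrict_iff' hmDD]
    filter_upwards [hrel] with p hp hpD
    exact hp hpD.1
  have hw1D : MemLp w1 2 ((volume : Measure (ℝ × ℝ)).restrict DD) := by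
    refine hX2D.of_le hw1m.aestronglyMeasurable ?_
    filter_upwards [hrelD] with p hp
    rcases hp with ⟨h1, _⟩ | ⟨h1, _⟩
    · rw [h1, norm_neg]
    · rw [h1, norm_zero]; exact norm_nonneg _
  have hw2D : MemLp w2 2 ((volume : Measure (ℝ × ℝ)).restrict DD) := by
    refine hX1D.of_le hw2m.aestronglyMeasurable ?_
    filter_upwards [hrelD] with p hp
    rcases hp with ⟨_, h1⟩ | ⟨_, h1⟩
    · rw [h1]
    · rw [h1, norm_zero]; exact norm_nonneg _
  -- complement costs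
  set u1 : ℝ × ℝ → ℝ := fun p => -X2 p - w1 p with hu1
  set u2 : ℝ × ℝ → ℝ := fun p => X1 p - w2 p with hu2
  have hσ' : |σ| = 1 := by rcases hσ with h | h <;> rw [h] <;> simp
  have hsum : ∀ i n, af Q i u1 u2 (wd n) + af Q i w1 w2 (wd n) ≤ 2 * f i := fun i n =>
    af_add_le L D x0 x1 y0 y1 M i (wd_pos n) (wd_le n)
  have hu0 : ∀ i n, 0 ≤ af Q i u1 u2 (wd n) := fun i n => af_nonneg Q i u1 u2 (wd_pos n)
  have hw0 : ∀ i n, 0 ≤ af Q i w1 w2 (wd n) := fun i n => af_nonneg Q i w1 w2 (wd_pos n)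
  have huC : ∀ i n, af Q i u1 u2 (wd n) ≤ 2 * f i := fun i n => by linarith [hsum i n, hw0 i n]
  set l : ι → ℝ := fun i => lowlim (fun n => af Q i u1 u2 (wd n)) with hl
  have hl0 : ∀ i, 0 ≤ l i := fun i => lowlim_nonneg (hu0 i) (huC i)
  have hlC : ∀ i, l i ≤ 2 * f i := fun i => lowlim_le (hu0 i) (huC i)
  have hacl : ∀ i, ACL (Q.x i - Q.h1 i) (Q.x i + Q.h1 i) (Q.y i - Q.h2 i) (Q.y i + Q.h2 i) u1 u2
      (fun p => Ψ p - U1 x0 x1 y0 y1 M Ψ p) (fun p => ψ p - U1 x0 x1 y0 y1 M ψ p) := fun i =>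
    ACL.sub (hx_le Q i) (hy_le Q i) (acl_psi L hσ' D i) (acl_w L hσ D R hM i)
  have hr0 : ∀ n i, 0 ≤ r n i := by
    intro n i
    obtain ⟨k, hk⟩ := A.osc n i
    have := hk (Q.x i, Q.y i) ⟨cx_mem Q i, cy_mem Q i⟩
    linarith [abs_nonneg (z n (Q.x i, Q.y i) - k)]
  -- integrability of the products
  have hprod : ∀ (v1 v2 : ℝ × ℝ → ℝ), Integrable v1 (volume : Measure (ℝ × ℝ)) →
      Integrable v2 (volume : Measure (ℝ × ℝ)) → ∀ n,
      IntegrableOn (fun p => v2 p * gx (z n) p - v1 p * gy (z n) p) BB := by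
    intro v1 v2 h1 h2 n
    obtain ⟨Ln, hLn, hbd⟩ := grad_bd A n
    have e1 : IntegrableOn (fun p => v2 p * gx (z n) p) BB :=
      Integrable.mul_bdd (μ := (volume : Measure (ℝ × ℝ)).restrict BB) (c := Ln) h2.integrableOn
        (measurable_gx _).aestronglyMeasurable (hbd.mono fun p h => h.1)
    have e2 : IntegrableOn (fun p => v1 p * gy (z n) p) BB :=
      Integrable.mul_bdd (μ := (volume : Measure (ℝ × ℝ)).restrict BB) (c := Ln) h1.integrableOn
        (measurable_gy _).aestronglyMeasurable (hbd.mono fun p h => h.2)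
    exact e1.sub e2
  have hunBB : Q.un ⊆ BB := iUnion_subset fun i => D.box i
  set G : ℕ → ℝ × ℝ → ℝ := fun n p => w2 p * gx (z n) p - w1 p * gy (z n) p with hG
  have hGi : ∀ n, IntegrableOn (G n) BB := fun n => hprod w1 w2 iw1 iw2 n
  set T : ℕ → ι → ℝ := fun n i => ∫ p in Q.op i, G n p with hT
  set Fl : ℕ → ι → ℝ := fun n i => ∫ p in Q.op i, (X1 p * gx (z n) p + X2 p * gy (z n) p) with hFl
  have hTsum : ∀ n, HasSum (T n) (∫ p in Q.un, G n p) := fun n =>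
    hasSum_integral_iUnion (fun i => Q.measurableSet_op i) D.dis ((hGi n).mono_set hunBB)
  have hXi : ∀ n, IntegrableOn (fun p => X1 p * gx (z n) p + X2 p * gy (z n) p) BB := by
    intro n
    have := hprod (fun p => -X2 p) X1 L.L2.neg L.L1 n
    refine this.congr (Eventually.of_forall fun p => ?_)
    simp only; ring
  have hFsum : ∀ n, Summable (Fl n) := fun n =>
    (hasSum_integral_iUnion (fun i => Q.measurableSet_op i) D.dis
      ((hXi n).mono_set hunBB)).summable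
  have hFsum' : ∀ n, Summable (fun i => f i * r n i - Fl n i) := fun n =>
    (A.r2 n).sub (hFsum n)
  -- per square
  have hsq : ∀ n i, (f i - l i / 2) * r n i ≤ T n i + (f i * r n i - Fl n i) := by
    intro n i
    obtain ⟨Ln, hLn, hlip⟩ := lip_op D A n
    obtain ⟨k, hk⟩ := A.osc n i
    have h1 := sq_lowlim i (hacl i) hLn (hlip i) (D := r n i / 2) (by linarith [hr0 n i]) hk (huC i)
    have hsubi : Q.op i ⊆ BB := D.box i
    have h2 : ∫ p in Q.op i, (u2 p * gx (z n) p - u1 p * gy (z n) p) = Fl n i - T n i := by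
      simp only [hFl, hT]
      rw [← integral_sub ((hXi n).mono_set hsubi) ((hGi n).mono_set hsubi)]
      congr 1; ext p
      simp only [hu1, hu2, hG]; ring
    rw [h2] at h1
    have h3 := (abs_le.mp h1).2
    have h4 : r n i / 2 * l i = l i / 2 * r n i := by ring
    have h5 : r n i / 2 * lowlim (fun n => af Q i u1 u2 (wd n)) = l i / 2 * r n i := h4
    rw [h5] at h3
    linarith
  have hsq0 : ∀ n i, 0 ≤ T n i + (f i * r n i - Fl n i) := by
    intro n i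
    refine le_trans (mul_nonneg ?_ (hr0 n i)) (hsq n i)
    linarith [hlC i]
  have hgreen := fun n => greenQ L hσ A R py0 py1 pr hM hB0 n
  -- splitting
  have hsplit : ∀ n, (∫ p in DD, G n p) + ∑' i, (T n i + (f i * r n i - Fl n i)) -
      ∑' i, (f i * r n i - Fl n i) = 0 := by
    intro n
    have e1 : ∫ p in BB, G n p = (∫ p in Q.un, G n p) + ∫ p in BB \ Q.un, G n p := by
      have := integral_inter_add_sdiff (μ := (volume : Measure (ℝ × ℝ))) (f := G n) (s := BB)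
        Q.measurableSet_un (hGi n)
      rw [inter_eq_right.mpr hunBB] at this
      exact this.symm
    have e2 : ∫ p in BB \ Q.un, G n p = ∫ p in DD, G n p := by
      apply setIntegral_eq_of_subset_of_ae_sdiff_eq_zero
        (hmBB.diff Q.measurableSet_un).nullMeasurableSet
      · intro p hp
        exact ⟨hp.1, fun h => hp.2 (Or.inl h)⟩
      · have hnull : ∀ᵐ p : ℝ × ℝ, p ∉ S ∩ Rc x0 x1 y0 y1 := measure_eq_zero_iff_ae_notMem.mp hS
        filter_upwards [hnull] with p hp hpd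
        have hpS : p ∈ S := by
          by_contra hcon
          exact hpd.2 ⟨hpd.1.1, fun h => h.elim hpd.1.2 hcon⟩
        have hpR : p ∉ Rc x0 x1 y0 y1 := fun h => hp ⟨hpS, h⟩
        have z1 : w1 p = 0 := indicator_of_notMem hpR _
        have z2 : w2 p = 0 := indicator_of_notMem hpR _
        simp only [hG, z1, z2]; ring
    have e3 := hgreen n
    have e3' : ∫ p in BB, G n p = 0 := e3
    rw [e1, e2, ← (hTsum n).tsum_eq] at e3'
    rw [(hTsum n).summable.tsum_add (hFsum' n)]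
    linarith
  -- limits
  have hgL : ∀ n, MemLp (gx (z n)) 2 ((volume : Measure (ℝ × ℝ)).restrict DD) ∧
      MemLp (gy (z n)) 2 ((volume : Measure (ℝ × ℝ)).restrict DD) := by
    intro n
    obtain ⟨Ln, hLn, hbd⟩ := grad_bd A n
    have hbd' := ae_restrict_of_ae_restrict_of_subset (sdiff_subset : DD ⊆ BB) hbd
    exact ⟨MemLp.of_bound (measurable_gx _).aestronglyMeasurable Ln (hbd'.mono fun p h => h.1),
      MemLp.of_bound (measurable_gy _).aestronglyMeasurable Ln (hbd'.mono fun p h => h.2)⟩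
  have t1 := tendsto_integral_mul hw2D (fun n => (hgL n).1) hX1D A.c1
  have t2 := tendsto_integral_mul hw1D (fun n => (hgL n).2) hX2D A.c2
  have t3 : Tendsto (fun n => ∫ p in DD, G n p) atTop
      (𝓝 ((∫ p in DD, w2 p * X1 p) - ∫ p in DD, w1 p * X2 p)) := by
    refine (t1.sub t2).congr fun n => ?_
    have k1 : Integrable (fun p => w2 p * gx (z n) p) (volume.restrict DD) :=
      hw2D.integrable_mul (hgL n).1
    have k2 : Integrable (fun p => w1 p * gy (z n) p) (volume.restrict DD) :=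
      hw1D.integrable_mul (hgL n).2
    exact (integral_sub k1 k2).symm
  set e0 := (∫ p in DD, w2 p * X1 p) - ∫ p in DD, w1 p * X2 p with he0
  have kk1 : Integrable (fun p => w2 p * X1 p) (volume.restrict DD) := hw2D.integrable_mul hX1D
  have kk2 : Integrable (fun p => w1 p * X2 p) (volume.restrict DD) := hw1D.integrable_mul hX2D
  have e0' : e0 = ∫ p in DD, (w2 p * X1 p - w1 p * X2 p) := (integral_sub kk1 kk2).symm
  have hnn : 0 ≤ᵐ[(volume : Measure (ℝ × ℝ)).restrict DD] fun p => w2 p * X1 p - w1 p * X2 p := by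
    filter_upwards [hrelD] with p hp
    rcases hp with ⟨h1, h2⟩ | ⟨h1, h2⟩
    · rw [h1, h2]; simp only [Pi.zero_apply]; nlinarith [sq_nonneg (X1 p), sq_nonneg (X2 p)]
    · rw [h1, h2]; simp
  have he0nn : 0 ≤ e0 := by rw [e0']; exact integral_nonneg_of_ae hnn
  have he0le : e0 ≤ 0 := by
    have h1 : ∀ n, (∫ p in DD, G n p) - ∑' i, (f i * r n i - Fl n i) ≤ 0 := by
      intro n
      have h2 := hsplit n
      have h3 : 0 ≤ ∑' i, (T n i + (f i * r n i - Fl n i)) := tsum_nonneg (hsq0 n)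
      linarith
    have h4 := t3.sub A.r3
    rw [sub_zero] at h4
    exact le_of_tendsto' h4 h1
  have hj : ∀ j, e0 + (f j - l j / 2) * f j ≤ 0 := by
    intro j
    have h1 : ∀ n, (∫ p in DD, G n p) + (f j - l j / 2) * r n j -
        ∑' i, (f i * r n i - Fl n i) ≤ 0 := by
      intro n
      have h2 := hsplit n
      have h3 : T n j + (f j * r n j - Fl n j) ≤ ∑' i, (T n i + (f i * r n i - Fl n i)) :=
        ((hTsum n).summable.add (hFsum' n)).le_tsum j (fun i _ => hsq0 n i)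
      have h4 := hsq n j
      linarith
    have h5 := (t3.add ((A.r1 j).const_mul (f j - l j / 2))).sub A.r3
    rw [sub_zero] at h5
    exact le_of_tendsto' h5 h1
  have he0z : e0 = 0 := le_antisymm he0le he0nn
  constructor
  · -- w1 = 0 on DD
    rw [e0'] at he0z
    have h1 := (integral_eq_zero_iff_of_nonneg_ae hnn
      (kk1.sub kk2)).mp he0z
    have h2 : ∀ᵐ p ∂((volume : Measure (ℝ × ℝ)).restrict DD), w1 p = 0 := by
      filter_upwards [h1, hrelD] with p hp hpr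
      rcases hpr with ⟨k1, k2⟩ | ⟨k1, _⟩
      · rw [k1, k2] at hp
        simp only [Pi.zero_apply] at hp
        have : X2 p = 0 := by nlinarith [sq_nonneg (X1 p), sq_nonneg (X2 p)]
        rw [k1, this, neg_zero]
      · exact k1
    exact (ae_restrict_iff' hmDD).mp h2
  · intro j δ hδ
    have h1 := hj j
    rw [he0z, zero_add] at h1
    rcases eq_or_lt_of_le (D.f0 j) with h0 | h0
    · refine Frequently.of_forall fun n => ?_
      have h2 := hsum j n
      rw [← h0] at h2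
      linarith [hu0 j n]
    · have h2 : 2 * f j ≤ l j := by
        by_contra hcon
        push Not at hcon
        have : 0 < (f j - l j / 2) * f j := mul_pos (by linarith) h0
        linarith
      have h3 : 2 * f j - δ < lowlim (fun n => af Q j u1 u2 (wd n)) := by
        have : 2 * f j ≤ lowlim (fun n => af Q j u1 u2 (wd n)) := h2
        linarith
      have h4 := lt_lowlim (hu0 j) h3
      exact (h4.mono fun n hn => by linarith [hsum j n]).frequently

end Crest.Agent.R105.Sq_87
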