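import Crest.Agent.R105.SqN_87

/-! Row 105, S0138, exact squares: maximum principle for the stream function on `V`.
Part 3: `ψ ≤ M` almost everywhere off the squares. -/

open MeasureTheory Set Filter Topology
open scoped NNReal

namespace Crest.Agent.R105.Sq_87

open Crest.Agent.R105.Mp_87 (lam lam_mono Rc measurableSet_Rc restrict_Rc hline vline wx wy ae_swap
  ae_x_of_ae ae_y_of_ae ii_mono tendsto_integral_mul PXh)
open Crest.Agent.R105.CF_363 (gx gy SL cut Hair measurable_gx measurable_gy gx_congr gy_congr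
  gx_eq_deriv gy_eq_deriv isOpen_diff_cut volume_cut green_hairs)

variable {ι : Type} {Q : Rects ι} {S : Set (ℝ × ℝ)}
variable {a b c B σ : ℝ} {X1 X2 ψ Ψ : ℝ × ℝ → ℝ} {μ : Measure (ℝ × ℝ)} {f : ι → ℝ}

/-- a function on a line, zero off the sections of the squares and with integral zero over each
section, has integral zero over `(-∞, x)` if `x` is not in a section -/
theorem line_zero [Countable ι] (hd : Pairwise (fun i j => Disjoint (Q.op i) (Q.op j)))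
    {y : ℝ} {w : ℝ → ℝ} (hw : Integrable w)
    (h0 : ∀ᵐ s : ℝ, (s, y) ∉ Q.un → w s = 0)
    (hj : ∀ j, y ∈ Ioo (Q.y j - Q.h2 j) (Q.y j + Q.h2 j) →
      ∫ s in Ioo (Q.x j - Q.h1 j) (Q.x j + Q.h1 j), w s = 0)
    {x : ℝ} (hx : (x, y) ∉ Q.un) : ∫ s in Iio x, w s = 0 := by
  classical
  set T : ι → Set ℝ := fun j =>
    if y ∈ Ioo (Q.y j - Q.h2 j) (Q.y j + Q.h2 j) ∧ Q.x j + Q.h1 j ≤ x then
      Ioo (Q.x j - Q.h1 j) (Q.x j + Q.h1 j) else ∅ with hT
  have hTm : ∀ j, MeasurableSet (T j) := by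
    intro j
    simp only [hT]
    split_ifs
    · exact measurableSet_Ioo
    · exact MeasurableSet.empty
  have hmem : ∀ j s, s ∈ T j → (s, y) ∈ Q.op j ∧ s < x := by
    intro j s hs
    simp only [hT] at hs
    split_ifs at hs with h
    · exact ⟨⟨hs, h.1⟩, lt_of_lt_of_le hs.2 h.2⟩
    · exact absurd hs (notMem_empty s)
  have hsub : (⋃ j, T j) ⊆ Iio x := iUnion_subset fun j s hs => (hmem j s hs).2
  have hTd : Pairwise (Function.onFun Disjoint T) := by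
    intro i j hij
    rw [Function.onFun, Set.disjoint_left]
    intro s hi hj'
    exact Set.disjoint_left.mp (hd hij) (hmem i s hi).1 (hmem j s hj').1
  rw [setIntegral_eq_of_subset_of_ae_sdiff_eq_zero measurableSet_Iio.nullMeasurableSet hsub]
  · rw [integral_iUnion hTm hTd hw.integrableOn]
    have : ∀ j, ∫ s in T j, w s = 0 := by
      intro j
      by_cases h : y ∈ Ioo (Q.y j - Q.h2 j) (Q.y j + Q.h2 j) ∧ Q.x j + Q.h1 j ≤ x
      · have : T j = Ioo (Q.x j - Q.h1 j) (Q.x j + Q.h1 j) := by simp only [hT]; exact if_pos h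
        rw [this]; exact hj j h.1
      · have : T j = ∅ := by simp only [hT]; exact if_neg h
        rw [this]; simp
    simp [this]
  · filter_upwards [h0] with s hs hsd
    apply hs
    intro hun
    obtain ⟨j, hj'⟩ := mem_iUnion.mp hun
    apply hsd.2
    refine mem_iUnion.mpr ⟨j, ?_⟩
    have hxj : Q.x j + Q.h1 j ≤ x := by
      by_contra hcon
      push Not at hcon
      apply hx
      refine mem_iUnion.mpr ⟨j, ⟨?_, hj'.2⟩⟩
      have : s < x := hsd.1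
      exact ⟨lt_trans hj'.1.1 this, hcon⟩
    have : T j = Ioo (Q.x j - Q.h1 j) (Q.x j + Q.h1 j) := by
      simp only [hT]; exact if_pos ⟨hj'.2, hxj⟩
    rw [this]
    exact hj'.1

/-- **Maximum principle with squares.** -/
theorem mpq [IsFiniteMeasure μ] [Countable ι] (L : LinesI a b c B σ X1 X2 μ ψ Ψ)
    (hσ : σ = 1 ∨ σ = -1) (D : SqData Q S a b c B X1 X2 μ f)
    {J : ℕ → Finset Hair} {z : ℕ → ℝ × ℝ → ℝ} {κ : Hair → ℝ} {r : ℕ → ι → ℝ}
    (A : ApprQ Q S a b c B σ X1 X2 μ Ψ f J z κ r) {x0 x1 y0 y1 M : ℝ}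
    (R : GoodR a b c σ X1 X2 μ ψ Ψ x0 x1 y0 y1)
    (py0 : PYq a b μ Ψ J κ y0) (py1 : PYq a b μ Ψ J κ y1) (pr : PRq μ J x0 x1 y0 y1)
    (hM : BdLe M ψ Ψ x0 x1 y0 y1) (hS : volume (S ∩ Rc x0 x1 y0 y1) = 0) :
    ∀ᵐ p : ℝ × ℝ, p ∈ Rc x0 x1 y0 y1 → p ∉ Q.un → ψ p ≤ M := by
  rcases le_or_gt B y0 with hB0 | hB0
  · filter_upwards with p hp _
    rw [L.strip p (hB0.trans hp.2.1.le)]
    exact strip_leI L hσ R hM (lt_of_le_of_lt hB0 R.hy) p.1 ⟨hp.1.1.le, hp.1.2.le⟩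
  obtain ⟨hw, hf⟩ := thomson L hσ D A R py0 py1 pr hM hB0 hS
  have hsec : ∀ᵐ y, ∀ j, y ∈ Ioo (Q.y j - Q.h2 j) (Q.y j + Q.h2 j) →
      ∫ s in Ioo (Q.x j - Q.h1 j) (Q.x j + Q.h1 j), W1 x0 x1 y0 y1 M X2 Ψ (s, y) = 0 := by
    rw [ae_all_iff]
    intro j
    exact section_zero j (acl_w L hσ D R hM j) (hf j)
  have hnull : ∀ᵐ p : ℝ × ℝ, p ∉ S ∩ Rc x0 x1 y0 y1 := measure_eq_zero_iff_ae_notMem.mp hS
  have hline0 : ∀ᵐ y, y ∈ Ioo y0 y1 → ∀ x ∈ Ioo x0 x1, (x, y) ∉ Q.un → Ψ (x, y) ≤ M := by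
    filter_upwards [w_hglobal L hσ R hM, ae_y_of_ae' hw, ae_y_of_ae' hnull, hsec,
      ae_int_y (integrable_W1 x0 x1 y0 y1 M L.L2 L.mΨ)] with y h1 h2 h3 h4 h5 hy x hx hxu
    have h0 : ∀ᵐ s : ℝ, (s, y) ∉ Q.un → W1 x0 x1 y0 y1 M X2 Ψ (s, y) = 0 := by
      filter_upwards [h2, h3] with s k2 k3 hs
      by_cases hR : (s, y) ∈ Rc x0 x1 y0 y1
      · rcases lt_or_ge y B with hyB | hyB
        · apply k2
          refine ⟨⟨⟨R.ha.trans hR.1.1, hR.1.2.trans R.hb⟩, R.hc.trans hy.1, hyB⟩, ?_⟩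
          rintro (h | h)
          · exact hs h
          · exact k3 ⟨h, hR⟩
        · unfold W1
          rw [indicator_of_mem hR]
          unfold wx
          rw [A.X2B (s, y) hyB]
          simp
      · exact indicator_of_notMem hR _
    have key := line_zero D.dis h5 h0 h4 hxu
    have e1 := h1 x0 x
    have e2 : ∫ s in x0..x, W1 x0 x1 y0 y1 M X2 Ψ (s, y) = ∫ s in Iio x,
        W1 x0 x1 y0 y1 M X2 Ψ (s, y) := by
      rw [intervalIntegral.integral_of_le hx.1.le, integral_Ioc_eq_integral_Ioo]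
      symm
      apply setIntegral_eq_of_subset_of_ae_sdiff_eq_zero measurableSet_Iio.nullMeasurableSet
        (fun s hs => hs.2)
      filter_upwards with s hs
      apply indicator_of_notMem
      intro hR
      exact hs.2 ⟨hR.1.1, hs.1⟩
    rw [e2, key] at e1
    have e3 : U1 x0 x1 y0 y1 M Ψ (x0, y) = 0 :=
      indicator_of_notMem (fun h => absurd h.1.1 (lt_irrefl _)) _
    have e4 : U1 x0 x1 y0 y1 M Ψ (x, y) = max (Ψ (x, y) - M) 0 :=
      indicator_of_mem (show (x, y) ∈ Rc x0 x1 y0 y1 from ⟨hx, hy⟩) _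
    rw [e3, e4, sub_zero] at e1
    have := le_max_left (Ψ (x, y) - M) 0
    linarith
  filter_upwards [ae_snd' hline0, L.E] with p h1 h2 hpR hpu
  have h3 := h1 hpR.2 p.1 hpR.1 hpu
  rw [show ((p.1, p.2) : ℝ × ℝ) = p from rfl,
    h2 ⟨R.ha.trans hpR.1.1, hpR.1.2.trans R.hb⟩ (R.hc.trans hpR.2.1)] at h3
  exact h3

end Crest.Agent.R105.Sq_87
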