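import Crest.Agent.R105.SqO_87

/-! Row 105, S0138, exact squares: oscillation estimate for the stream function. -/

open MeasureTheory Set Filter Topology
open scoped NNReal

namespace Crest.Agent.R105.Sq_87

open Crest.Agent.R105.Mp_87 (lam lam_mono Rc measurableSet_Rc restrict_Rc hline vline wx wy ae_swap
  ae_x_of_ae ae_y_of_ae ii_mono tendsto_integral_mul PXh abs_ii_le setIntegral_swap)
open Crest.Agent.R105.CF_363 (gx gy SL cut Hair measurable_gx measurable_gy gx_congr gy_congr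
  gx_eq_deriv gy_eq_deriv isOpen_diff_cut volume_cut green_hairs)

variable {ι : Type} {Q : Rects ι} {S : Set (ℝ × ℝ)}
variable {a b c B σ : ℝ} {X1 X2 ψ Ψ : ℝ × ℝ → ℝ} {μ : Measure (ℝ × ℝ)} {f : ι → ℝ}

theorem LinesI.neg (L : LinesI a b c B σ X1 X2 μ ψ Ψ) :
    LinesI a b c B (-σ) (fun p => -X1 p) (fun p => -X2 p) μ (fun p => -ψ p) (fun p => -Ψ p) where
  mψ := L.mψ.neg
  mΨ := L.mΨ.neg
  m1 := L.m1.neg
  m2 := L.m2.neg
  L1 := L.L1.neg
  L2 := L.L2.neg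
  strip := by intro p hp; rw [L.strip p hp]; ring
  V := by
    filter_upwards [L.V] with x hx hxI y y' hy hyy'
    rw [intervalIntegral.integral_neg, ← hx hxI y y' hy hyy']; ring
  H := by
    filter_upwards [L.H] with y hy hc x hx x' hx' hxx'
    rw [intervalIntegral.integral_neg]
    have := hy hc x hx x' hx' hxx'
    linarith
  E := by
    filter_upwards [L.E] with p hp h1 h2
    rw [hp h1 h2]
  S := by
    filter_upwards [L.S] with y hy hc
    have : {q : ℝ × ℝ | q.2 < y ∧ μ {q2 | q2.1 = q.1 ∧ q2.2 < y} = 0 ∧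
        -Ψ (q.1, y) ≠ - -σ * lam μ q.1} =
        {q : ℝ × ℝ | q.2 < y ∧ μ {q2 | q2.1 = q.1 ∧ q2.2 < y} = 0 ∧
        Ψ (q.1, y) ≠ -σ * lam μ q.1} := by
      ext q
      simp only [mem_ofPred_eq, ne_eq, and_congr_right_iff]
      intro _ _
      constructor
      · intro h h'; apply h; rw [h']; ring
      · intro h h'; apply h; linarith
    rw [this]; exact hy hc

theorem GoodX.neg {x : ℝ} (G : GoodX a b c X1 ψ Ψ x) :
    GoodX a b c (fun p => -X1 p) (fun p => -ψ p) (fun p => -Ψ p) x where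
  int := fun y y' => (G.int y y').neg
  V := by
    intro y y' hy hyy'
    rw [intervalIntegral.integral_neg, ← G.V y y' hy hyy']; ring
  E := by
    filter_upwards [G.E] with y hy h1
    rw [hy h1]

theorem GoodY.neg {y : ℝ} (G : GoodY a b σ X2 μ ψ Ψ y) :
    GoodY a b (-σ) (fun p => -X2 p) μ (fun p => -ψ p) (fun p => -Ψ p) y where
  int := fun y y' => (G.int y y').neg
  H := by
    intro x hx x' hx' hxx'
    rw [intervalIntegral.integral_neg]
    have := G.H x hx x' hx' hxx'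
    linarith
  E := by
    filter_upwards [G.E] with y hy h1
    rw [hy h1]
  S := by
    have : {q : ℝ × ℝ | q.2 < y ∧ μ {q2 | q2.1 = q.1 ∧ q2.2 < y} = 0 ∧
        -Ψ (q.1, y) ≠ - -σ * lam μ q.1} =
        {q : ℝ × ℝ | q.2 < y ∧ μ {q2 | q2.1 = q.1 ∧ q2.2 < y} = 0 ∧
        Ψ (q.1, y) ≠ -σ * lam μ q.1} := by
      ext q
      simp only [mem_ofPred_eq, ne_eq, and_congr_right_iff]
      intro _ _
      constructor
      · intro h h'; apply h; rw [h']; ring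
      · intro h h'; apply h; linarith
    rw [this]; exact G.S

theorem GoodR.neg {x0 x1 y0 y1 : ℝ} (R : GoodR a b c σ X1 X2 μ ψ Ψ x0 x1 y0 y1) :
    GoodR a b c (-σ) (fun p => -X1 p) (fun p => -X2 p) μ (fun p => -ψ p) (fun p => -Ψ p)
      x0 x1 y0 y1 where
  ha := R.ha
  hx := R.hx
  hb := R.hb
  hc := R.hc
  hy := R.hy
  gx0 := R.gx0.neg
  gx1 := R.gx1.neg
  gy0 := R.gy0.neg
  gy1 := R.gy1.neg
  hat := R.hat

theorem SqData.neg (D : SqData Q S a b c B X1 X2 μ f) :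
    SqData Q S a b c B (fun p => -X1 p) (fun p => -X2 p) μ f where
  mS := D.mS
  dis := D.dis
  box := D.box
  nomass := D.nomass
  V1 := D.V1.neg
  V2 := D.V2.neg
  f0 := D.f0
  F2 := by
    intro i ε hε hε4
    refine le_trans (le_of_eq ?_) (D.F2 i ε hε hε4)
    congr 2
    ext p
    rw [show -X1 p * gx (Q.gau i) p + -X2 p * gy (Q.gau i) p =
      -(X1 p * gx (Q.gau i) p + X2 p * gy (Q.gau i) p) by ring, abs_neg]

theorem ApprQ.neg {J : ℕ → Finset Hair} {z : ℕ → ℝ × ℝ → ℝ} {κ : Hair → ℝ} {r : ℕ → ι → ℝ}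
    (A : ApprQ Q S a b c B σ X1 X2 μ Ψ f J z κ r) :
    ApprQ Q S a b c B (-σ) (fun p => -X1 p) (fun p => -X2 p) μ (fun p => -Ψ p) f J
      (fun n p => -z n p) (fun K => -κ K) r where
  X1B := by intro p hp; simp [A.X1B p hp]
  X2B := by intro p hp; simp [A.X2B p hp]
  disj := A.disj
  dq := A.dq
  sl := by
    intro n
    obtain ⟨L, h1, h2⟩ := A.sl n
    exact ⟨L, h1, h2.neg⟩
  c1 := by
    refine A.c1.congr (fun n => ?_)
    congr 1; ext p; rw [CF_363.gx_neg]; ring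
  c2 := by
    refine A.c2.congr (fun n => ?_)
    congr 1; ext p; rw [CF_363.gy_neg]; ring
  osc := by
    intro n i
    obtain ⟨k, hk⟩ := A.osc n i
    refine ⟨-k, fun p hp => ?_⟩
    have := hk p hp
    rwa [show -z n p - -k = -(z n p - k) by ring, abs_neg]
  r1 := A.r1
  r2 := A.r2
  r3 := by
    refine A.r3.congr (fun n => ?_)
    congr 1; ext i
    congr 1
    congr 1; ext p
    rw [CF_363.gx_neg, CF_363.gy_neg]; ring
  T := by
    intro n K hK hx hat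
    obtain ⟨h1, h2⟩ := A.T n K hK hx hat
    refine ⟨?_, fun h => by rw [h2 h]; ring⟩
    filter_upwards [h1] with y hy hc hyI
    rw [hy hc hyI]

theorem PYq_neg {J : ℕ → Finset Hair} {κ : Hair → ℝ} {y : ℝ}
    (h : PYq a b μ Ψ J κ y) : PYq a b μ (fun p => -Ψ p) J (fun K => -κ K) y := by
  intro n K hK
  obtain ⟨h1, h2, h3⟩ := h n K hK
  exact ⟨h1, h2, fun a1 a2 a3 => by show -Ψ (K.x, y) = -κ K; rw [h3 a1 a2 a3]⟩

/-- a good vertical line in a strip of width `r` -/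
theorem exists_line_xI {X : ℝ × ℝ → ℝ} (hX : Integrable X (volume : Measure (ℝ × ℝ)))
    {α γ δ r : ℝ} (hr : 0 < r) {P : ℝ → Prop} (hP : ∀ᵐ x, x ∈ Ioo α (α + r) → P x) :
    ∃ x ∈ Ioo α (α + r), P x ∧ ∫ t in Ioo γ δ, |X (x, t)| ≤
      r⁻¹ * ∫ p in Rc α (α + r) γ δ, |X p| := by
  set T := Rc α (α + r) γ δ with hT
  have hint : Integrable (fun p => |X p|) ((volume : Measure (ℝ × ℝ)).restrict T) := hX.abs.restrict
  rw [hT, restrict_Rc] at hint
  have hfub : ∫ p in T, |X p| = ∫ x in Ioo α (α + r), ∫ t in Ioo γ δ, |X (x, t)| := by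
    rw [hT, restrict_Rc]
    exact integral_prod _ hint
  have hint2 : Integrable (fun x => ∫ t in Ioo γ δ, |X (x, t)|)
      ((volume : Measure ℝ).restrict (Ioo α (α + r))) := hint.integral_prod_left
  have hm0 : (volume : Measure ℝ).restrict (Ioo α (α + r)) ≠ 0 := by
    intro h0
    have h1 := congrArg (fun m : Measure ℝ => m univ) h0
    simp only [Measure.restrict_apply_univ, Real.volume_Ioo, Measure.coe_zero, Pi.zero_apply] at h1
    rw [ENNReal.ofReal_eq_zero] at h1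
    linarith
  have hfin1 : IsFiniteMeasure ((volume : Measure ℝ).restrict (Ioo α (α + r))) :=
    ⟨by rw [Measure.restrict_apply_univ, Real.volume_Ioo]; exact ENNReal.ofReal_lt_top⟩
  have hPr : ((volume : Measure ℝ).restrict (Ioo α (α + r))) {x | ¬ (x ∈ Ioo α (α + r) ∧ P x)} = 0 := by
    have : ∀ᵐ x ∂((volume : Measure ℝ).restrict (Ioo α (α + r))), x ∈ Ioo α (α + r) ∧ P x := by
      rw [ae_restrict_iff' measurableSet_Ioo]
      filter_upwards [hP] with x hx hxI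
      exact ⟨hxI, hx hxI⟩
    exact ae_iff.mp this
  obtain ⟨x, hxN, hxle⟩ := exists_notMem_null_le_average hm0 hint2 hPr
  simp only [mem_ofPred_eq, not_not] at hxN
  refine ⟨x, hxN.1, hxN.2, hxle.trans (le_of_eq ?_)⟩
  rw [average_eq, ← hfub]
  have hreal : ((volume : Measure ℝ).restrict (Ioo α (α + r))).real univ = r := by
    rw [Measure.real, Measure.restrict_apply_univ, Real.volume_Ioo, ENNReal.toReal_ofReal (by linarith)]
    ring
  rw [hreal, smul_eq_mul]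

/-- a good horizontal line in a strip of height `r` -/
theorem exists_line_yI {X : ℝ × ℝ → ℝ} (hX : Integrable X (volume : Measure (ℝ × ℝ)))
    {α γ δ r : ℝ} (hr : 0 < r) {P : ℝ → Prop} (hP : ∀ᵐ y, y ∈ Ioo α (α + r) → P y) :
    ∃ y ∈ Ioo α (α + r), P y ∧ ∫ s in Ioo γ δ, |X (s, y)| ≤
      r⁻¹ * ∫ p in Rc γ δ α (α + r), |X p| := by
  have h1 : Integrable (fun p : ℝ × ℝ => X p.swap) (volume : Measure (ℝ × ℝ)) := by
    rw [Measure.volume_eq_prod] at hX ⊢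
    exact hX.swap
  obtain ⟨y, hy, hPy, hle⟩ := exists_line_xI h1 hr hP (γ := γ) (δ := δ)
  refine ⟨y, hy, hPy, ?_⟩
  rw [setIntegral_swap (X := fun p => |X p|)] at hle
  exact hle

theorem int_mono_set {X : ℝ × ℝ → ℝ} (hX : Integrable X (volume : Measure (ℝ × ℝ)))
    {T T' : Set (ℝ × ℝ)} (hTT : T ⊆ T') : ∫ p in T, |X p| ≤ ∫ p in T', |X p| := by
  apply setIntegral_mono_set hX.abs.integrableOn
  · filter_upwards with t using abs_nonneg _
  · exact LE.le.eventuallyLE hTT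

/-- **Oscillation estimate with squares.** -/
theorem oscQ [IsFiniteMeasure μ] [Countable ι] (L : LinesI a b c B σ X1 X2 μ ψ Ψ)
    (hσ : σ = 1 ∨ σ = -1) (D : SqData Q S a b c B X1 X2 μ f)
    {J : ℕ → Finset Hair} {z : ℕ → ℝ × ℝ → ℝ} {κ : Hair → ℝ} {ρ : ℕ → ι → ℝ}
    (A : ApprQ Q S a b c B σ X1 X2 μ Ψ f J z κ ρ)
    {u v r : ℝ} (hr : 0 < r) (ha : a < u - 2 * r) (hb : u + 2 * r < b) (hc : c < v - 2 * r)
    (hat : ∀ x ∈ Icc (u - 2 * r) (u + 2 * r), μ {q | q.1 = x ∧ q.2 < v + 2 * r} = 0)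
    (hav : ∀ n, ∀ K ∈ J n, μ {q | q.1 = K.x ∧ q.2 < K.t} ≠ 0 →
      K.x ∈ Ioo (u - 2 * r) (u + 2 * r) → K.t ≤ v - 2 * r ∨ v + 2 * r ≤ K.b)
    (hS : volume (S ∩ Rc (u - 2 * r) (u + 2 * r) (v - 2 * r) (v + 2 * r)) = 0) :
    ∃ m0 : ℝ, ∀ᵐ p : ℝ × ℝ, p ∈ Rc (u - r) (u + r) (v - r) (v + r) → p ∉ Q.un →
      |ψ p - m0| ≤ r⁻¹ * (∫ p in Rc (u - 2 * r) (u + 2 * r) (v - 2 * r) (v + 2 * r), |X1 p|)
        + r⁻¹ * (∫ p in Rc (u - 2 * r) (u + 2 * r) (v - 2 * r) (v + 2 * r), |X2 p|)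
        + (μ {q | q.1 ∈ Ico (u - 2 * r) (u + 2 * r) ∧ q.2 < v + 2 * r}).toReal := by
  have hσa : |σ| = 1 := by rcases hσ with h | h <;> rw [h] <;> simp
  have hσ' : -σ = 1 ∨ -σ = -1 := by
    rcases hσ with h | h
    · right; rw [h]
    · left; rw [h]; norm_num
  set K := Rc (u - 2 * r) (u + 2 * r) (v - 2 * r) (v + 2 * r) with hK
  set s1 := r⁻¹ * ∫ p in K, |X1 p| with hs1
  set s2 := r⁻¹ * ∫ p in K, |X2 p| with hs2
  set m1 := (μ {q | q.1 ∈ Ico (u - 2 * r) (u + 2 * r) ∧ q.2 < v + 2 * r}).toReal with hm1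
  have hri : 0 < r⁻¹ := inv_pos.mpr hr
  have hgy0 := ae_PYq A
  have hsubx : ∀ α, u - 2 * r ≤ α → α + r ≤ u + 2 * r →
      Rc α (α + r) (v - 2 * r) (v + 2 * r) ⊆ K := by
    intro α h1 h2 p hp
    exact ⟨⟨lt_of_le_of_lt h1 hp.1.1, lt_of_lt_of_le hp.1.2 h2⟩, hp.2⟩
  have hsuby : ∀ α, v - 2 * r ≤ α → α + r ≤ v + 2 * r →
      Rc (u - 2 * r) (u + 2 * r) α (α + r) ⊆ K := by
    intro α h1 h2 p hp
    exact ⟨hp.1, ⟨lt_of_le_of_lt h1 hp.2.1, lt_of_lt_of_le hp.2.2 h2⟩⟩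
  obtain ⟨x0, hx0, gx0, A0⟩ := exists_line_xI L.L1 (α := u - 2 * r) (γ := v - 2 * r)
    (δ := v + 2 * r) hr (P := fun x => GoodX a b c X1 ψ Ψ x) (by
      filter_upwards [L.goodX] with x h hx
      exact h ⟨by linarith [hx.1], by linarith [hx.2]⟩)
  obtain ⟨x1, hx1, gx1, A1⟩ := exists_line_xI L.L1 (α := u + r) (γ := v - 2 * r)
    (δ := v + 2 * r) hr (P := fun x => GoodX a b c X1 ψ Ψ x) (by
      filter_upwards [L.goodX] with x h hx
      exact h ⟨by linarith [hx.1], by linarith [hx.2]⟩)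
  have hgy : ∀ᵐ y, c < y → GoodY a b σ X2 μ ψ Ψ y ∧ PYq a b μ Ψ J κ y ∧ Ψ (x0, y) = ψ (x0, y) ∧
      Ψ (x1, y) = ψ (x1, y) := by
    filter_upwards [L.goodY, hgy0, gx0.E, gx1.E] with y h1 h2 h3 h4 hy
    exact ⟨h1 hy, h2 hy, h3 hy, h4 hy⟩
  obtain ⟨y0, hy0, ⟨gy0, py0, e00, e10⟩, B0⟩ := exists_line_yI L.L2 (α := v - 2 * r)
    (γ := u - 2 * r) (δ := u + 2 * r) hr
    (P := fun y => GoodY a b σ X2 μ ψ Ψ y ∧ PYq a b μ Ψ J κ y ∧ Ψ (x0, y) = ψ (x0, y) ∧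
      Ψ (x1, y) = ψ (x1, y)) (by
      filter_upwards [hgy] with x h hx
      exact h (by linarith [hx.1]))
  obtain ⟨y1, hy1, ⟨gy1, py1, e01, e11⟩, B1⟩ := exists_line_yI L.L2 (α := v + r)
    (γ := u - 2 * r) (δ := u + 2 * r) hr
    (P := fun y => GoodY a b σ X2 μ ψ Ψ y ∧ PYq a b μ Ψ J κ y ∧ Ψ (x0, y) = ψ (x0, y) ∧
      Ψ (x1, y) = ψ (x1, y)) (by
      filter_upwards [hgy] with x h hx
      exact h (by linarith [hx.1]))
  have A0' := A0.trans (mul_le_mul_of_nonneg_left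
    (int_mono_set L.L1 (hsubx _ (by linarith) (by linarith))) hri.le)
  have A1' := A1.trans (mul_le_mul_of_nonneg_left
    (int_mono_set L.L1 (hsubx _ (by linarith) (by linarith))) hri.le)
  have B0' := B0.trans (mul_le_mul_of_nonneg_left
    (int_mono_set L.L2 (hsuby _ (by linarith) (by linarith))) hri.le)
  have B1' := B1.trans (mul_le_mul_of_nonneg_left
    (int_mono_set L.L2 (hsuby _ (by linarith) (by linarith))) hri.le)
  rw [← hs1] at A0' A1'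
  rw [← hs2] at B0' B1'
  have R : GoodR a b c σ X1 X2 μ ψ Ψ x0 x1 y0 y1 := by
    refine ⟨by linarith [hx0.1], by linarith [hx0.2, hx1.1], by linarith [hx1.2],
      by linarith [hy0.1], by linarith [hy0.2, hy1.1], gx0, gx1, gy0, gy1, ?_⟩
    intro x hx
    apply measure_mono_null _ (hat x ⟨by linarith [hx.1, hx0.1], by linarith [hx.2, hx1.2]⟩)
    intro q hq
    exact ⟨hq.1, by linarith [hq.2, hy1.2]⟩
  -- variations along the sides
  have vert : ∀ x, GoodX a b c X1 ψ Ψ x → (∫ t in Ioo (v - 2 * r) (v + 2 * r), |X1 (x, t)| ≤ s1) →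
      ∀ y ∈ Icc y0 y1, |ψ (x, y) - ψ (x, y0)| ≤ s1 := by
    intro x gx hA y hy
    rw [gx.V y0 y (by linarith [hy0.1]) hy.1]
    exact (abs_ii_le gx.int (γ := v - 2 * r) (δ := v + 2 * r) (by linarith [hy0.1]) hy.1
      (by linarith [hy.2, hy1.2])).trans hA
  have hmem : ∀ x ∈ Icc x0 x1, x ∈ Ioo a b := fun x hx =>
    ⟨by linarith [hx.1, hx0.1], by linarith [hx.2, hx1.2]⟩
  have hx01 : x0 ≤ x1 := by linarith [hx0.2, hx1.1]
  have horz : ∀ y, GoodY a b σ X2 μ ψ Ψ y → y < v + 2 * r →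
      (∫ s in Ioo (u - 2 * r) (u + 2 * r), |X2 (s, y)| ≤ s2) →
      ∀ x ∈ Icc x0 x1, |Ψ (x, y) - Ψ (x0, y)| ≤ s2 + m1 := by
    intro y gy hyv hB x hx
    rw [gy.H x0 (hmem x0 ⟨le_refl _, hx01⟩) x (hmem x hx) hx.1]
    have h1 := (abs_ii_le gy.int (γ := u - 2 * r) (δ := u + 2 * r) (by linarith [hx0.1]) hx.1
      (by linarith [hx.2, hx1.2])).trans hB
    have h2 : (μ {q | q.1 ∈ Ico x0 x ∧ q.2 < y}).toReal ≤ m1 := by
      rw [hm1]
      apply ENNReal.toReal_mono (measure_ne_top _ _)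
      apply measure_mono
      intro q hq
      exact ⟨⟨by linarith [hq.1.1, hx0.1], by linarith [hq.1.2, hx.2, hx1.2]⟩, hq.2.trans hyv⟩
    have h3 : 0 ≤ (μ {q | q.1 ∈ Ico x0 x ∧ q.2 < y}).toReal := ENNReal.toReal_nonneg
    have h4 : |σ * (μ {q | q.1 ∈ Ico x0 x ∧ q.2 < y}).toReal| ≤ m1 := by
      rw [abs_mul, hσa, one_mul, abs_of_nonneg h3]; exact h2
    calc |-(∫ s in x0..x, X2 (s, y)) - σ * (μ {q | q.1 ∈ Ico x0 x ∧ q.2 < y}).toReal|
        ≤ |-(∫ s in x0..x, X2 (s, y))| + |σ * (μ {q | q.1 ∈ Ico x0 x ∧ q.2 < y}).toReal| := abs_sub _ _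
      _ ≤ s2 + m1 := by rw [abs_neg]; exact add_le_add h1 h4
  have l1 := vert x0 gx0 A0'
  have l2 := vert x1 gx1 A1'
  have l3 := horz y0 gy0 (by linarith [hy0.2]) B0'
  have l4 := horz y1 gy1 (by linarith [hy1.2]) B1'
  set m0 := ψ (x0, y0) with hm0
  have hs1n : 0 ≤ s1 := mul_nonneg hri.le (integral_nonneg fun _ => abs_nonneg _)
  have hs2n : 0 ≤ s2 := mul_nonneg hri.le (integral_nonneg fun _ => abs_nonneg _)
  have hm1n : 0 ≤ m1 := ENNReal.toReal_nonneg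
  have hy01 : y0 ≤ y1 := by linarith [hy0.2, hy1.1]
  -- corner values
  have c10 : |ψ (x1, y0) - m0| ≤ s2 + m1 := by
    have := l3 x1 ⟨hx01, le_refl _⟩
    rwa [e10, e00] at this
  have c01 : |ψ (x0, y1) - m0| ≤ s1 := l1 y1 ⟨hy01, le_refl _⟩
  have bl : ∀ y ∈ Icc y0 y1, |ψ (x0, y) - m0| ≤ s1 + s2 + m1 := fun y hy =>
    (l1 y hy).trans (by linarith)
  have br : ∀ y ∈ Icc y0 y1, |ψ (x1, y) - m0| ≤ s1 + s2 + m1 := by
    intro y hy
    have h1 := l2 y hy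
    rw [abs_le] at h1 c10 ⊢
    constructor <;> linarith [h1.1, h1.2, c10.1, c10.2]
  have bd : ∀ x ∈ Icc x0 x1, |Ψ (x, y0) - m0| ≤ s1 + s2 + m1 := by
    intro x hx
    have h1 := l3 x hx
    rw [e00] at h1
    exact h1.trans (by linarith)
  have bu : ∀ x ∈ Icc x0 x1, |Ψ (x, y1) - m0| ≤ s1 + s2 + m1 := by
    intro x hx
    have h1 := l4 x hx
    rw [e01] at h1
    rw [abs_le] at h1 c01 ⊢
    constructor <;> linarith [h1.1, h1.2, c01.1, c01.2]
  have hM : BdLe (m0 + (s1 + s2 + m1)) ψ Ψ x0 x1 y0 y1 := by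
    refine ⟨fun y hy => ?_, fun y hy => ?_, fun x hx => ?_, fun x hx => ?_⟩
    · linarith [(abs_le.mp (bl y hy)).2]
    · linarith [(abs_le.mp (br y hy)).2]
    · linarith [(abs_le.mp (bd x hx)).2]
    · linarith [(abs_le.mp (bu x hx)).2]
  have hN : BdLe (-m0 + (s1 + s2 + m1)) (fun p => -ψ p) (fun p => -Ψ p) x0 x1 y0 y1 := by
    refine ⟨fun y hy => ?_, fun y hy => ?_, fun x hx => ?_, fun x hx => ?_⟩
    · show -ψ (x0, y) ≤ _; linarith [(abs_le.mp (bl y hy)).1]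
    · show -ψ (x1, y) ≤ _; linarith [(abs_le.mp (br y hy)).1]
    · show -Ψ (x, y0) ≤ _; linarith [(abs_le.mp (bd x hx)).1]
    · show -Ψ (x, y1) ≤ _; linarith [(abs_le.mp (bu x hx)).1]
  have hsubK : Rc x0 x1 y0 y1 ⊆ K := by
    intro p hp
    exact ⟨⟨by linarith [hp.1.1, hx0.1], by linarith [hp.1.2, hx1.2]⟩,
      ⟨by linarith [hp.2.1, hy0.1], by linarith [hp.2.2, hy1.2]⟩⟩
  have hSR : volume (S ∩ Rc x0 x1 y0 y1) = 0 :=
    measure_mono_null (inter_subset_inter_right _ hsubK) hS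
  have hpr : PRq μ J x0 x1 y0 y1 := by
    intro n Kh hKh hne hKx
    have h1 : Kh.x ∈ Ioo (u - 2 * r) (u + 2 * r) :=
      ⟨by linarith [hKx.1, hx0.1], by linarith [hKx.2, hx1.2]⟩
    rcases hav n Kh hKh hne h1 with h | h
    · left; linarith [hy0.1]
    · right; linarith [hy1.2]
  have f1 := mpq L hσ D A R py0 py1 hpr hM hSR
  have f2 := mpq L.neg hσ' D.neg A.neg R.neg (PYq_neg py0) (PYq_neg py1) hpr hN hSR
  refine ⟨m0, ?_⟩
  have hsub : Rc (u - r) (u + r) (v - r) (v + r) ⊆ Rc x0 x1 y0 y1 := by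
    intro p hp
    exact ⟨⟨by linarith [hp.1.1, hx0.2], by linarith [hp.1.2, hx1.1]⟩,
      ⟨by linarith [hp.2.1, hy0.2], by linarith [hp.2.2, hy1.1]⟩⟩
  filter_upwards [f1, f2] with p g1 g2 hp hpu
  have k1 := g1 (hsub hp) hpu
  have k2 := g2 (hsub hp) hpu
  rw [abs_le]
  constructor <;> linarith

end Crest.Agent.R105.Sq_87
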