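import Crest.Agent.R105.SqX_87
import Crest.Agent.R105.Psi3_425
import Crest.Agent.R105.Psi1_425

/-! Row 105, S0138, exact squares: the continuous representative of the stream function off the
open charged rectangles. -/

open MeasureTheory Set Filter Topology
open scoped NNReal ENNReal

namespace Crest.Agent.R105.Sq_87

open Crest.Agent.R105.Mp_87 (Rc measurableSet_Rc restrict_Rc cs_line)
open Crest.Agent.R105.CF_363 (Hair)
open Crest.Agent.R105.Psi_425 (EOsc eosc_of_bounds cont_rep ae_hor ae_vert eq_on_open)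

variable {ι : Type} {Q : Rects ι} {S : Set (ℝ × ℝ)}
variable {a b c B σ : ℝ} {X X1 X2 ψ Ψ : ℝ × ℝ → ℝ} {μ : Measure (ℝ × ℝ)} {f : ι → ℝ}

theorem AdmQ.sub {J : ℕ → Finset Hair} : AdmQ a b c S μ J ⊆ Ioo a b ×ˢ Ioi c := by
  rintro z ⟨r, hr, h1, h2, h3, -⟩
  exact ⟨⟨by linarith, by linarith⟩, by show c < z.2; linarith⟩

/-- `Ψ (·, y)` is continuous at the admissible points -/
theorem contAt_h [IsFiniteMeasure μ] {J : ℕ → Finset Hair} {x y : ℝ}
    (G : GoodY a b σ X2 μ ψ Ψ y) (h : (x, y) ∈ AdmQ a b c S μ J) :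
    ContinuousAt (fun s => Ψ (s, y)) x := by
  obtain ⟨r, hr, h1, h2, h3, h4, -⟩ := h
  simp only at h1 h2 h3 h4
  have hcont := G.continuousOn h1 h2 (fun x' hx' => by
    refine measure_mono_null ?_ (h4 x' hx')
    rintro q ⟨q1, q2⟩
    exact ⟨q1, by linarith⟩)
  exact hcont.continuousAt (Icc_mem_nhds (by linarith) (by linarith))

/-- `ψ (x, ·)` is continuous above `c` -/
theorem contAt_v {x y : ℝ} (G : GoodX a b c X1 ψ Ψ x) (hy : c < y) :
    ContinuousAt (fun t => ψ (x, t)) y := by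
  set y₀ : ℝ := (c + y) / 2 with hy₀
  have hy₀c : c < y₀ := by rw [hy₀]; linarith
  have hy₀y : y₀ < y := by rw [hy₀]; linarith
  have hcont : Continuous fun t => ψ (x, y₀) + ∫ s in y₀..t, X1 (x, s) :=
    continuous_const.add (intervalIntegral.continuous_primitive G.int y₀)
  refine hcont.continuousAt.congr ?_
  filter_upwards [Ioi_mem_nhds hy₀y] with t ht
  have := G.V y₀ t hy₀c (le_of_lt ht)
  linarith

/-- from almost everywhere on an open set of the line to its closure -/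
theorem line_closure {A : Set ℝ} {O : Set ℝ} (hO : IsOpen O) (hOA : O ⊆ A) {u g : ℝ → ℝ}
    (hu : ∀ x ∈ A, ContinuousAt u x) (hg : ContinuousOn g A)
    (hae : ∀ᵐ x ∂(volume : Measure ℝ), x ∈ O → u x = g x) {x : ℝ} (hx : x ∈ A)
    (hxO : x ∈ closure O) : u x = g x := by
  have h1 : ∀ x ∈ O, u x = g x :=
    eq_on_open hO (fun x hx => (hu x (hOA hx)).continuousWithinAt) (hg.mono hOA) hae
  have : (𝓝[O] x).NeBot := mem_closure_iff_nhdsWithin_neBot.1 hxO
  have h2 : Tendsto u (𝓝[O] x) (𝓝 (u x)) := (hu x hx).mono_left nhdsWithin_le_nhds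
  have h3 : Tendsto g (𝓝[O] x) (𝓝 (g x)) := (hg x hx).mono_left (nhdsWithin_mono _ hOA)
  have h4 : Tendsto u (𝓝[O] x) (𝓝 (g x)) :=
    h3.congr' (by filter_upwards [self_mem_nhdsWithin] with s hs using (h1 s hs).symm)
  exact tendsto_nhds_unique h2 h4

/-- **Continuous representative of the stream function off the open charged rectangles.**
`V` = any open set of admissible points off the rectangles, for instance the domain. -/
theorem exists_contQ [IsFiniteMeasure μ] [Countable ι] (L : LinesI a b c B σ X1 X2 μ ψ Ψ)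
    (hσ : σ = 1 ∨ σ = -1) (D : SqData Q S a b c B X1 X2 μ f)
    {J : ℕ → Finset Hair} {z : ℕ → ℝ × ℝ → ℝ} {κ : Hair → ℝ} {ρ : ℕ → ι → ℝ}
    (A : ApprQ Q S a b c B σ X1 X2 μ Ψ f J z κ ρ) {s : ι → ℝ} {q : ι → ℝ × ℝ}
    {ν : ι → Measure (ℝ × ℝ)} (F : SqFlux Q X1 X2 f s q ν)
    (hd : ∀ p ∈ AdmQ a b c S μ J, p ∉ Q.un → ∀ O ∈ 𝓝 p, volume (O \ Q.un) ≠ 0) :
    ∃ g : ℝ × ℝ → ℝ, ContinuousOn g (AdmQ a b c S μ J \ Q.un) ∧
      (∀ᵐ w : ℝ × ℝ, w ∈ AdmQ a b c S μ J → w ∉ Q.un → g w = ψ w) ∧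
      (∀ w ∈ AdmQ a b c S μ J \ Q.un, ∀ ε > 0, ∃ O, IsOpen O ∧ w ∈ O ∧
        ∀ᵐ p : ℝ × ℝ, p ∈ O → p ∉ Q.un → |ψ p - g w| ≤ ε) ∧
      ∀ V, IsOpen V → V ⊆ AdmQ a b c S μ J \ Q.un →
        (∀ᵐ y : ℝ, ∀ x, (x, y) ∈ AdmQ a b c S μ J \ Q.un →
          x ∈ closure {x' | (x', y) ∈ V} → Ψ (x, y) = g (x, y)) ∧
        (∀ᵐ x : ℝ, ∀ y, (x, y) ∈ AdmQ a b c S μ J \ Q.un →
          y ∈ closure {y' | (x, y') ∈ V} → ψ (x, y) = g (x, y)) := by
  obtain ⟨g, hg, hae, hlim⟩ := cont_rep (A := Q.unᶜ) (B := AdmQ a b c S μ J \ Q.un) (ψ := ψ)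
    (fun w hw ε hε => by
      obtain ⟨r, ⟨m0, hm0⟩, hr⟩ := ((small_oscQ L hσ D A F hw.1 hw.2 (half_pos hε)).and
        self_mem_nhdsWithin).exists
      have hr' : 0 < r := hr
      refine ⟨Rc (w.1 - r) (w.1 + r) (w.2 - r) (w.2 + r), ?_, ?_, ?_⟩
      · exact isOpen_Ioo.prod isOpen_Ioo
      · exact ⟨⟨by linarith, by linarith⟩, by linarith, by linarith⟩
      · refine eosc_of_bounds (m := m0 - ε / 2) (M := m0 + ε / 2) ?_ (by linarith)
        filter_upwards [hm0] with p hp hpO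
        have := abs_le.1 (hp hpO.1 hpO.2)
        exact ⟨by linarith [this.1], by linarith [this.2]⟩)
    (fun w hw O hO hwO => by
      have := hd w hw.1 hw.2 O (hO.mem_nhds hwO)
      rwa [sdiff_eq] at this)
  have hae' : ∀ᵐ w : ℝ × ℝ, w ∈ AdmQ a b c S μ J → w ∉ Q.un → g w = ψ w := by
    filter_upwards [hae] with w hw h1 h2
    exact (hw ⟨h2, h1, h2⟩).symm
  refine ⟨g, hg, hae', ?_, fun V hV hVA => ⟨?_, ?_⟩⟩
  · intro w hw ε hε
    obtain ⟨O, hO, hwO, h⟩ := hlim w hw ε hε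
    refine ⟨O, hO, hwO, ?_⟩
    filter_upwards [h] with p hp h1 h2
    exact hp ⟨h1, h2⟩
  · have hΨ : ∀ᵐ w : ℝ × ℝ, w ∈ V → Ψ w = g w := by
      filter_upwards [hae', L.E] with w h1 h2 hw
      have h3 := hVA hw
      have h4 := AdmQ.sub h3.1
      rw [h1 h3.1 h3.2, h2 h4.1 h4.2]
    filter_upwards [L.goodY, ae_hor hΨ] with y hy h3 x hx hxO
    have hyc : c < y := (AdmQ.sub hx.1).2
    refine line_closure (A := {x' | (x', y) ∈ AdmQ a b c S μ J \ Q.un})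
      (O := {x' | (x', y) ∈ V}) (hV.preimage (by fun_prop)) (fun x' hx' => hVA hx')
      (u := fun s => Ψ (s, y)) (g := fun s => g (s, y)) (fun x' hx' => contAt_h (hy hyc) hx'.1)
      (hg.comp (by fun_prop) fun x' hx' => hx') ?_ hx hxO
    filter_upwards [h3] with x' hx'
    exact hx'
  · have hψ : ∀ᵐ w : ℝ × ℝ, w ∈ V → ψ w = g w := by
      filter_upwards [hae'] with w h1 hw
      have h3 := hVA hw
      rw [h1 h3.1 h3.2]
    filter_upwards [L.goodX, ae_vert hψ] with x hx h3 y hy hyO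
    have hxab : x ∈ Ioo a b := (AdmQ.sub hy.1).1
    refine line_closure (A := {y' | (x, y') ∈ AdmQ a b c S μ J \ Q.un})
      (O := {y' | (x, y') ∈ V}) (hV.preimage (by fun_prop)) (fun y' hy' => hVA hy')
      (u := fun s => ψ (x, s)) (g := fun s => g (x, s))
      (fun y' hy' => contAt_v (hx hxab) (AdmQ.sub hy'.1).2)
      (hg.comp (by fun_prop) fun y' hy' => hy') ?_ hy hyO
    filter_upwards [h3] with y' hy'
    exact hy'

end Crest.Agent.R105.Sq_87
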