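import Crest.Agent.R105.SqR_136

/-! Row 105, S0138, exact squares cut by the level: the fill of a RECTANGLE, assembly. -/

open MeasureTheory Set Filter Topology Metric

namespace Crest.Agent.R105.SqF_136

open Crest.Agent.R105.CF_363 Crest.Agent.R105.Sq_87

variable {x y h1 h2 : ℝ}

/-- `k` is the flow of `ν`, `B` = the open rectangle -/
structure FilB (κ ν : Measure (ℝ × ℝ)) (B : Set (ℝ × ℝ)) (k1 k2 : ℝ × ℝ → ℝ) : Prop where
  m1 : Measurable k1
  m2 : Measurable k2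
  i1 : Integrable k1 volume
  i2 : Integrable k2 volume
  z1 : ∀ p ∉ B, k1 p = 0
  z2 : ∀ p ∉ B, k2 p = 0
  dual : ∀ θ1 θ2 : ℝ × ℝ → ℝ, Measurable θ1 → Measurable θ2 → ∀ C : ℝ, (∀ q, |θ1 q| ≤ C) →
    (∀ q, |θ2 q| ≤ C) → ∫ q, (k1 q * θ1 q + k2 q * θ2 q) =
      ∫ p, (∫ s, ((p - s.1).1 * θ1 (seg p s) + (p - s.1).2 * θ2 (seg p s)) ∂(κ.prod T01)) ∂ν

theorem exists_filB {κ : Measure (ℝ × ℝ)} [IsProbabilityMeasure κ] (hκ : κ ≪ volume)
    {B A C : Set (ℝ × ℝ)} (hBm : MeasurableSet B) {R : ℝ}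
    (hb : ∀ᵐ c ∂κ, c ∈ C) (ν : Measure (ℝ × ℝ))
    [IsFiniteMeasure ν] (hν : ν Aᶜ = 0) (hmem : ∀ p ∈ A, ∀ c ∈ C, ∀ t ∈ Ioo (0 : ℝ) 1,
      seg p (c, t) ∈ B) (hR : ∀ p ∈ A, ∀ c ∈ C, ‖p - c‖ ≤ R) :
    ∃ k1 k2, FilB κ ν B k1 k2 := by
  set m := ν.prod (κ.prod T01) with hm
  have hp' : ∀ᵐ z ∂m, z.1 ∈ A := by
    have : ∀ᵐ p ∂ν, p ∈ A := by
      rw [ae_iff]; exact hν
    exact Measure.quasiMeasurePreserving_fst.ae this
  have hc' : ∀ᵐ z ∂m, z.2.1 ∈ C := by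
    have h1 : ∀ᵐ s ∂(κ.prod T01), s.1 ∈ C :=
      Measure.quasiMeasurePreserving_fst.ae hb
    exact Measure.quasiMeasurePreserving_snd.ae h1
  have ht' : ∀ᵐ z ∂m, z.2.2 ∈ Ioo (0 : ℝ) 1 := by
    have h1 : ∀ᵐ s ∂(κ.prod T01), s.2 ∈ Ioo (0 : ℝ) 1 :=
      Measure.quasiMeasurePreserving_snd.ae (ae_restrict_mem measurableSet_Ioo)
    exact Measure.quasiMeasurePreserving_snd.ae h1
  have hB : ∀ᵐ z ∂m, seg z.1 z.2 ∈ B := by
    filter_upwards [hp', hc', ht'] with z h1 h2 h3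
    exact hmem _ h1 _ h2 _ h3
  have hbd : ∀ᵐ z ∂m, ‖z.1 - z.2.1‖ ≤ R := by
    filter_upwards [hp', hc'] with z h1 h2
    exact hR _ h1 _ h2
  have hw1 : Integrable (fun z : (ℝ × ℝ) × ((ℝ × ℝ) × ℝ) => (z.1 - z.2.1).1) m := by
    refine Integrable.of_bound (C := R) (by fun_prop : Measurable _).aestronglyMeasurable ?_
    filter_upwards [hbd] with z hz
    exact (norm_fst_le _).trans hz
  have hw2 : Integrable (fun z : (ℝ × ℝ) × ((ℝ × ℝ) × ℝ) => (z.1 - z.2.1).2) m := by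
    refine Integrable.of_bound (C := R) (by fun_prop : Measurable _).aestronglyMeasurable ?_
    filter_upwards [hbd] with z hz
    exact (norm_snd_le _).trans hz
  obtain ⟨k1, k1m, k1i, k1z, k1d⟩ := pushden measurable_seg2 (seg_ac hκ ν)
    (by fun_prop : Measurable fun z : (ℝ × ℝ) × ((ℝ × ℝ) × ℝ) => (z.1 - z.2.1).1) hw1
    hBm hB
  obtain ⟨k2, k2m, k2i, k2z, k2d⟩ := pushden measurable_seg2 (seg_ac hκ ν)
    (by fun_prop : Measurable fun z : (ℝ × ℝ) × ((ℝ × ℝ) × ℝ) => (z.1 - z.2.1).2) hw2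
    hBm hB
  refine ⟨k1, k2, k1m, k2m, k1i, k2i, k1z, k2z, fun θ1 θ2 t1 t2 D h1 h2 => ?_⟩
  have e1 : Integrable (fun q => k1 q * θ1 q) volume :=
    k1i.mul_bdd (c := D) t1.aestronglyMeasurable
      (Eventually.of_forall fun q => by rw [Real.norm_eq_abs]; exact h1 q)
  have e2 : Integrable (fun q => k2 q * θ2 q) volume :=
    k2i.mul_bdd (c := D) t2.aestronglyMeasurable
      (Eventually.of_forall fun q => by rw [Real.norm_eq_abs]; exact h2 q)
  have j1 : Integrable (fun z : (ℝ × ℝ) × ((ℝ × ℝ) × ℝ) => (z.1 - z.2.1).1 * θ1 (seg z.1 z.2)) m :=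
    hw1.mul_bdd (c := D) (t1.comp measurable_seg2).aestronglyMeasurable
      (Eventually.of_forall fun z => by rw [Real.norm_eq_abs]; exact h1 _)
  have j2 : Integrable (fun z : (ℝ × ℝ) × ((ℝ × ℝ) × ℝ) => (z.1 - z.2.1).2 * θ2 (seg z.1 z.2)) m :=
    hw2.mul_bdd (c := D) (t2.comp measurable_seg2).aestronglyMeasurable
      (Eventually.of_forall fun z => by rw [Real.norm_eq_abs]; exact h2 _)
  rw [integral_add e1 e2, k1d θ1 t1 D h1, k2d θ2 t2 D h2, ← integral_add j1 j2]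
  exact integral_prod _ (j1.add j2)

theorem FilB.cost_le {κ ν₁ ν₂ : Measure (ℝ × ℝ)} [IsProbabilityMeasure κ] [IsFiniteMeasure ν₁]
    [IsFiniteMeasure ν₂] {B A : Set (ℝ × ℝ)} {k1 k2 l1 l2 : ℝ × ℝ → ℝ}
    (F : FilB κ ν₁ B k1 k2) (G : FilB κ ν₂ B l1 l2)
    (h1 : ν₁ Aᶜ = 0) (h2 : ν₂ Aᶜ = 0)
    {f1 f2 : ℝ × ℝ → ℝ} (fm1 : Measurable f1) (fm2 : Measurable f2) {C : ℝ}
    (hf1 : ∀ q, |f1 q| ≤ C) (hf2 : ∀ q, |f2 q| ≤ C) {P : Set (ℝ × ℝ)} (hP : MeasurableSet P)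
    {K : ℝ}
    (hc : ∀ p ∈ A, ∫ s, |(p - s.1).1 * f1 (seg p s) + (p - s.1).2 * f2 (seg p s)|
      ∂(κ.prod T01) ≤ P.indicator (fun _ => K) p) :
    ∫ q, |(k1 q - l1 q) * f1 q + (k2 q - l2 q) * f2 q| ≤ K * (ν₁ P + ν₂ P).toReal := by
  set H : ℝ × ℝ → ℝ := fun q => (k1 q - l1 q) * f1 q + (k2 q - l2 q) * f2 q with hH
  have hHm : Measurable H :=
    ((F.m1.sub G.m1).mul fm1).add ((F.m2.sub G.m2).mul fm2)
  set θ : ℝ × ℝ → ℝ := fun q => if 0 ≤ H q then 1 else -1 with hθ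
  have hθm : Measurable θ :=
    Measurable.ite (measurableSet_le measurable_const hHm) measurable_const measurable_const
  have hθb : ∀ q, |θ q| = 1 := by
    intro q
    simp only [hθ]
    split_ifs <;> simp
  have hθH : ∀ q, |H q| = H q * θ q := by
    intro q
    simp only [hθ]
    split_ifs with hq
    · rw [abs_of_nonneg hq, mul_one]
    · rw [abs_of_neg (not_le.mp hq)]; ring
  have g1m : Measurable fun q => f1 q * θ q := fm1.mul hθm
  have g2m : Measurable fun q => f2 q * θ q := fm2.mul hθm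
  have g1b : ∀ q, |f1 q * θ q| ≤ C := fun q => by rw [abs_mul, hθb, mul_one]; exact hf1 q
  have g2b : ∀ q, |f2 q * θ q| ≤ C := fun q => by rw [abs_mul, hθb, mul_one]; exact hf2 q
  have i1 := F.i1.mul_bdd (c := C) g1m.aestronglyMeasurable
    (Eventually.of_forall fun q => by rw [Real.norm_eq_abs]; exact g1b q)
  have i2 := F.i2.mul_bdd (c := C) g2m.aestronglyMeasurable
    (Eventually.of_forall fun q => by rw [Real.norm_eq_abs]; exact g2b q)
  have j1 := G.i1.mul_bdd (c := C) g1m.aestronglyMeasurable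
    (Eventually.of_forall fun q => by rw [Real.norm_eq_abs]; exact g1b q)
  have j2 := G.i2.mul_bdd (c := C) g2m.aestronglyMeasurable
    (Eventually.of_forall fun q => by rw [Real.norm_eq_abs]; exact g2b q)
  have main : ∫ q, |H q| = (∫ q, (k1 q * (f1 q * θ q) + k2 q * (f2 q * θ q))) -
      ∫ q, (l1 q * (f1 q * θ q) + l2 q * (f2 q * θ q)) := by
    refine Eq.trans ?_ (integral_sub (i1.add i2) (j1.add j2))
    congr 1
    ext q
    rw [hθH]
    simp only [hH]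
    ring
  have one : ∀ ν : Measure (ℝ × ℝ), IsFiniteMeasure ν → ν Aᶜ = 0 →
      |∫ p, (∫ s, ((p - s.1).1 * (f1 (seg p s) * θ (seg p s)) +
        (p - s.1).2 * (f2 (seg p s) * θ (seg p s))) ∂(κ.prod T01)) ∂ν| ≤ K * (ν P).toReal := by
    intro ν hν h0
    have hg : Integrable (P.indicator fun _ => K) ν := (integrable_const K).indicator hP
    have hle : ∀ᵐ p ∂ν, ‖∫ s, ((p - s.1).1 * (f1 (seg p s) * θ (seg p s)) +
        (p - s.1).2 * (f2 (seg p s) * θ (seg p s))) ∂(κ.prod T01)‖ ≤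
        P.indicator (fun _ => K) p := by
      have h3 : ∀ᵐ p ∂ν, p ∈ A := by rw [ae_iff]; exact h0
      filter_upwards [h3] with p hp
      refine le_trans ?_ (hc p hp)
      refine (norm_integral_le_integral_norm _).trans (le_of_eq ?_)
      congr 1
      ext s
      rw [Real.norm_eq_abs]
      have : (p - s.1).1 * (f1 (seg p s) * θ (seg p s)) +
          (p - s.1).2 * (f2 (seg p s) * θ (seg p s)) =
          ((p - s.1).1 * f1 (seg p s) + (p - s.1).2 * f2 (seg p s)) * θ (seg p s) := by ring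
      rw [this, abs_mul, hθb, mul_one]
    have h4 := norm_integral_le_of_norm_le hg hle
    rw [Real.norm_eq_abs] at h4
    refine h4.trans (le_of_eq ?_)
    rw [integral_indicator hP, setIntegral_const, smul_eq_mul, mul_comm]
    rfl
  have hP1 : ν₁ P ≠ ⊤ := measure_ne_top _ _
  have hP2 : ν₂ P ≠ ⊤ := measure_ne_top _ _
  rw [main, F.dual _ _ g1m g2m C g1b g2b, G.dual _ _ g1m g2m C g1b g2b,
    ENNReal.toReal_add hP1 hP2, mul_add]
  have a1 := one ν₁ inferInstance h1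
  have a2 := one ν₂ inferInstance h2
  have b1 := (abs_le.mp a1).2
  have b2 := (abs_le.mp a2).1
  linarith

/-- the cost of (F3) -/
theorem costR_F3 {κ : Measure (ℝ × ℝ)} [IsProbabilityMeasure κ] (p1 : 0 < h1) (p2 : 0 < h2)
    {m0 : ℝ × ℝ} {r : ℝ} (hb : ∀ᵐ c ∂κ, c ∈ ball m0 r)
    (hbR : ∀ᵐ c ∂κ, c ∈ oR x y (h1 / 2) (h2 / 2)) {a b : ℝ} (hab : a ≤ b) {π : ℝ × ℝ → ℝ}
    (hπm : Measurable π) (hπn : ∀ q, |π q| ≤ ‖q‖) (hπ : ∀ c p : ℝ × ℝ, ∀ t : ℝ,
      π (c + t • (p - c)) = π c + t * π (p - c)) {S : Set (ℝ × ℝ)}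
    (hSm : MeasurableSet S) (hS : ∀ q ∈ S, π q ∈ Ioo a b) {P : Set (ℝ × ℝ)}
    (hP : ∀ p ∈ cR x y h1 h2, ∀ u ∈ S, dR h1 h2 u p ≤ 3 * (1 - gR x y h1 h2 u) → p ∈ P)
    {p : ℝ × ℝ} (hp : p ∈ cR x y h1 h2) :
    ∫ s, |π (p - s.1)| * S.indicator (fun _ => (1 : ℝ)) (seg p s) ∂(κ.prod T01) ≤
      P.indicator (fun _ => b - a) p := by
  by_cases hpP : p ∈ P
  · rw [indicator_of_mem hpP]
    exact seg_F3 hb hab hπm hπn hπ p hSm hS
  · rw [indicator_of_notMem hpP]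
    refine le_of_eq ?_
    have hb' : ∀ᵐ s ∂(κ.prod T01), s.1 ∈ oR x y (h1 / 2) (h2 / 2) :=
      Measure.quasiMeasurePreserving_fst.ae hbR
    have ht' : ∀ᵐ s ∂(κ.prod T01), s.2 ∈ Ioo (0 : ℝ) 1 :=
      Measure.quasiMeasurePreserving_snd.ae (ae_restrict_mem measurableSet_Ioo)
    have h0 : (fun s => |π (p - s.1)| * S.indicator (fun _ => (1 : ℝ)) (seg p s))
        =ᵐ[κ.prod T01] 0 := by
      filter_upwards [hb', ht'] with s h2 h3
      have : seg p s ∉ S := fun hs => hpP (hP p hp _ hs (segR_not_mem p1 p2 hp h2 h3))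
      rw [indicator_of_notMem this, mul_zero]; rfl
    rw [integral_congr_ae h0]
    simp

/-- the cost of (F4); `hπn` : bound of the component on the rectangle -/
theorem costR_F4 {κ : Measure (ℝ × ℝ)} [IsProbabilityMeasure κ] (p1 : 0 < h1) (p2 : 0 < h2)
    (hbR : ∀ᵐ c ∂κ, c ∈ oR x y (h1 / 2) (h2 / 2)) {π : ℝ × ℝ → ℝ} {H : ℝ} (hH : 0 < H)
    (hπn : ∀ p ∈ cR x y h1 h2, ∀ c ∈ oR x y (h1 / 2) (h2 / 2), |π (p - c)| ≤ 3 / 2 * H)
    {δ : ℝ} (hδ : 0 ≤ δ) {S P : Set (ℝ × ℝ)} (hSδ : ∀ u ∈ S, 1 - gR x y h1 h2 u ≤ δ)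
    (hP : ∀ p ∈ cR x y h1 h2, ∀ u ∈ S, dR h1 h2 u p ≤ 3 * (1 - gR x y h1 h2 u) → p ∈ P)
    {p : ℝ × ℝ} (hp : p ∈ cR x y h1 h2) :
    ∫ s, |π (p - s.1)| * S.indicator (fun _ => (1 : ℝ)) (seg p s) ∂(κ.prod T01) ≤
      P.indicator (fun _ => 3 * H * δ) p := by
  have hb' : ∀ᵐ s ∂(κ.prod T01), s.1 ∈ oR x y (h1 / 2) (h2 / 2) :=
    Measure.quasiMeasurePreserving_fst.ae hbR
  have ht' : ∀ᵐ s ∂(κ.prod T01), s.2 ∈ Ioo (0 : ℝ) 1 :=
    Measure.quasiMeasurePreserving_snd.ae (ae_restrict_mem measurableSet_Ioo)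
  by_cases hpP : p ∈ P
  · rw [indicator_of_mem hpP]
    set Z : Set ((ℝ × ℝ) × ℝ) := univ ×ˢ Ici (1 - 2 * δ) with hZ
    have hZm : MeasurableSet Z := MeasurableSet.univ.prod measurableSet_Ici
    have hZi : Integrable (Z.indicator fun _ => 3 / 2 * H) (κ.prod T01) :=
      (integrable_const _).indicator hZm
    have hle : ∀ᵐ s ∂(κ.prod T01), ‖|π (p - s.1)| * S.indicator (fun _ => (1 : ℝ)) (seg p s)‖ ≤
        Z.indicator (fun _ => 3 / 2 * H) s := by
      filter_upwards [hb', ht'] with s hs hts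
      by_cases hq : seg p s ∈ S
      · have hp' := (gR_le p1 p2).mpr hp
        have hc' := gR_half p1 p2 hs
        have h1' := gR_seg (x := x) (y := y) p1 p2 (p := p) (c := s.1) hts.1.le hts.2.le
        have h2' := hSδ _ hq
        have h3 : gR x y h1 h2 (seg p s) ≤
            (1 - s.2) * gR x y h1 h2 s.1 + s.2 * gR x y h1 h2 p := h1'
        have h4 : 0 < 1 - s.2 := by linarith [hts.2]
        have h5 : (1 - s.2) / 2 ≤ δ := by nlinarith [hts.1]
        have hsZ : s ∈ Z := by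
          refine ⟨mem_univ _, ?_⟩
          rw [mem_Ici]
          linarith
        rw [indicator_of_mem hq, indicator_of_mem hsZ, mul_one, Real.norm_eq_abs, abs_abs]
        exact hπn p hp s.1 hs
      · rw [indicator_of_notMem hq, mul_zero, norm_zero]
        exact indicator_nonneg (fun _ _ => by positivity) _
    have h1' := norm_integral_le_of_norm_le hZi hle
    refine (le_abs_self _).trans (h1'.trans ?_)
    rw [integral_indicator hZm, setIntegral_const, smul_eq_mul]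
    have h2' : (κ.prod T01).real Z ≤ 2 * δ := by
      rw [Measure.real, hZ, Measure.prod_prod, measure_univ, one_mul]
      refine ENNReal.toReal_le_of_le_ofReal (by positivity) ?_
      rw [Measure.restrict_apply measurableSet_Ici]
      have h3 : Ici (1 - 2 * δ) ∩ Ioo (0 : ℝ) 1 ⊆ Ico (1 - 2 * δ) 1 :=
        fun t ht => ⟨ht.1, ht.2.2⟩
      refine (measure_mono h3).trans ?_
      rw [Real.volume_Ico]
      exact ENNReal.ofReal_le_ofReal (by linarith)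
    calc (κ.prod T01).real Z * (3 / 2 * H) ≤ 2 * δ * (3 / 2 * H) :=
          mul_le_mul_of_nonneg_right h2' (by positivity)
      _ = 3 * H * δ := by ring
  · rw [indicator_of_notMem hpP]
    refine le_of_eq ?_
    have h0 : (fun s => |π (p - s.1)| * S.indicator (fun _ => (1 : ℝ)) (seg p s))
        =ᵐ[κ.prod T01] 0 := by
      filter_upwards [hb', ht'] with s h2 h3
      have : seg p s ∉ S := fun hs => hpP (hP p hp _ hs (segR_not_mem p1 p2 hp h2 h3))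
      rw [indicator_of_notMem this, mul_zero]; rfl
    rw [integral_congr_ae h0]
    simp

/-- passage from costs to integrals over sets -/
theorem FilB.set_le {κ ν₁ ν₂ : Measure (ℝ × ℝ)} [IsProbabilityMeasure κ] [IsFiniteMeasure ν₁]
    [IsFiniteMeasure ν₂] {B A : Set (ℝ × ℝ)} {k1 k2 l1 l2 : ℝ × ℝ → ℝ}
    (F : FilB κ ν₁ B k1 k2) (G : FilB κ ν₂ B l1 l2) (h1 : ν₁ Aᶜ = 0) (h2 : ν₂ Aᶜ = 0)
    {S P : Set (ℝ × ℝ)} (hSm : MeasurableSet S) (hPm : MeasurableSet P) :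
    (∀ K : ℝ, (∀ p ∈ A, ∫ s, |(p - s.1).1| * S.indicator (fun _ => (1 : ℝ)) (seg p s)
      ∂(κ.prod T01) ≤ P.indicator (fun _ => K) p) →
      ∫ u in S, |k1 u - l1 u| ≤ K * (ν₁ P + ν₂ P).toReal) ∧
    (∀ K : ℝ, (∀ p ∈ A, ∫ s, |(p - s.1).2| * S.indicator (fun _ => (1 : ℝ)) (seg p s)
      ∂(κ.prod T01) ≤ P.indicator (fun _ => K) p) →
      ∫ u in S, |k2 u - l2 u| ≤ K * (ν₁ P + ν₂ P).toReal) := by
  have h1m : Measurable (S.indicator fun _ => (1 : ℝ)) := measurable_const.indicator hSm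
  have h1b : ∀ q, |S.indicator (fun _ => (1 : ℝ)) q| ≤ 1 := by
    intro q
    by_cases hq : q ∈ S
    · rw [indicator_of_mem hq, abs_one]
    · rw [indicator_of_notMem hq, abs_zero]; exact zero_le_one
  have hzb : ∀ q : ℝ × ℝ, |(fun _ : ℝ × ℝ => (0 : ℝ)) q| ≤ 1 := fun q => by
    rw [abs_zero]; exact zero_le_one
  have habs : ∀ q : ℝ × ℝ, ∀ v : ℝ, |v * S.indicator (fun _ => (1 : ℝ)) q| =
      |v| * S.indicator (fun _ => (1 : ℝ)) q := by
    intro q v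
    by_cases hq : q ∈ S
    · rw [indicator_of_mem hq, mul_one, mul_one]
    · rw [indicator_of_notMem hq, mul_zero, mul_zero, abs_zero]
  have hset : ∀ f : ℝ × ℝ → ℝ,
      ∫ u in S, |f u| = ∫ u, |f u| * S.indicator (fun _ => (1 : ℝ)) u := by
    intro f
    rw [← integral_indicator hSm]
    congr 1
    ext q
    by_cases hq : q ∈ S
    · rw [indicator_of_mem hq, indicator_of_mem hq, mul_one]
    · rw [indicator_of_notMem hq, indicator_of_notMem hq, mul_zero]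
  constructor
  · intro K hK
    have hcost := F.cost_le G h1 h2 h1m measurable_const (C := 1) h1b hzb hPm
      (K := K) (fun p hp => by
        refine le_trans (le_of_eq ?_) (hK p hp)
        congr 1
        ext s
        rw [mul_zero, add_zero, habs])
    refine le_trans (le_of_eq ?_) hcost
    rw [hset (fun u => k1 u - l1 u)]
    congr 1
    ext q
    rw [mul_zero, add_zero, habs]
  · intro K hK
    have hcost := F.cost_le G h1 h2 measurable_const h1m (C := 1) hzb h1b hPm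
      (K := K) (fun p hp => by
        refine le_trans (le_of_eq ?_) (hK p hp)
        congr 1
        ext s
        rw [mul_zero, zero_add, habs])
    refine le_trans (le_of_eq ?_) hcost
    rw [hset (fun u => k2 u - l2 u)]
    congr 1
    ext q
    rw [mul_zero, zero_add, habs]

/-- the properties of the fill of the rectangle -/
structure FillR (x y h1 h2 : ℝ) (ν₁ ν₂ : Measure (ℝ × ℝ)) (X1 X2 : ℝ × ℝ → ℝ) : Prop where
  m1 : Measurable X1
  m2 : Measurable X2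
  z : ∀ p ∉ oR x y h1 h2, X1 p = 0 ∧ X2 p = 0
  i1 : Integrable X1 volume
  i2 : Integrable X2 volume
  F1 : ∀ (L : ℝ) (e : ℝ × ℝ → ℝ), 0 ≤ L → (∀ p q, |e p - e q| ≤ L * dist p q) →
    ∫ p in oR x y h1 h2, (X1 p * gx e p + X2 p * gy e p) = (∫ p, e p ∂ν₁) - ∫ p, e p ∂ν₂
  F2 : ∀ ε, 0 < ε → ε ≤ 1 / 4 → ε⁻¹ * ∫ p in oR x y h1 h2 ∩ ann (gR x y h1 h2) ε,
      |X1 p * gx (gR x y h1 h2) p + X2 p * gy (gR x y h1 h2) p| ≤ (ν₁ univ + ν₂ univ).toReal
  F3 : ∀ a b c d, a ≤ b → c ≤ d → ∀ P, MeasurableSet P →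
    (∀ p ∈ cR x y h1 h2, ∀ u ∈ Ioo a b ×ˢ Ioo c d,
      dR h1 h2 u p ≤ 3 * (1 - gR x y h1 h2 u) → p ∈ P) →
    (∫ u in Ioo a b ×ˢ Ioo c d, |X1 u| ≤ (b - a) * (ν₁ P + ν₂ P).toReal) ∧
    (∫ u in Ioo a b ×ˢ Ioo c d, |X2 u| ≤ (d - c) * (ν₁ P + ν₂ P).toReal)
  F4 : ∀ δ, 0 ≤ δ → ∀ S P : Set (ℝ × ℝ), MeasurableSet S → MeasurableSet P →
    (∀ u ∈ S, 1 - gR x y h1 h2 u ≤ δ) →
    (∀ p ∈ cR x y h1 h2, ∀ u ∈ S, dR h1 h2 u p ≤ 3 * (1 - gR x y h1 h2 u) → p ∈ P) →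
    (∫ u in S, |X1 u| ≤ 3 * h1 * δ * (ν₁ P + ν₂ P).toReal) ∧
    (∫ u in S, |X2 u| ≤ 3 * h2 * δ * (ν₁ P + ν₂ P).toReal)

/-- **the fill of a rectangle** -/
theorem fillR {x y h1 h2 : ℝ} (p1 : 0 < h1) (p2 : 0 < h2) (ν₁ ν₂ : Measure (ℝ × ℝ))
    [IsFiniteMeasure ν₁] [IsFiniteMeasure ν₂] (n1 : ν₁ (cR x y h1 h2)ᶜ = 0)
    (n2 : ν₂ (cR x y h1 h2)ᶜ = 0) (hm : ν₁ univ = ν₂ univ) :
    ∃ X1 X2 : ℝ × ℝ → ℝ, FillR x y h1 h2 ν₁ ν₂ X1 X2 := by
  have q1 : 0 < h1 / 2 := by linarith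
  have q2 : 0 < h2 / 2 := by linarith
  set κ : Measure (ℝ × ℝ) := ProbabilityTheory.cond volume (oR x y (h1 / 2) (h2 / 2)) with hκd
  have hopen : IsOpen (oR x y (h1 / 2) (h2 / 2)) := isOpen_Ioo.prod isOpen_Ioo
  have hne : (oR x y (h1 / 2) (h2 / 2)).Nonempty :=
    ⟨(x, y), ⟨⟨by linarith, by linarith⟩, ⟨by linarith, by linarith⟩⟩⟩
  have hfin : volume (oR x y (h1 / 2) (h2 / 2)) ≠ ⊤ := by
    rw [oR, Measure.volume_eq_prod, Measure.prod_prod, Real.volume_Ioo, Real.volume_Ioo]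
    exact ENNReal.mul_ne_top ENNReal.ofReal_ne_top ENNReal.ofReal_ne_top
  have hprob : IsProbabilityMeasure κ :=
    ProbabilityTheory.cond_isProbabilityMeasure_of_finite (hopen.measure_pos volume hne).ne' hfin
  have hκ : κ ≪ volume := ProbabilityTheory.cond_absolutelyContinuous
  have hbR : ∀ᵐ c ∂κ, c ∈ oR x y (h1 / 2) (h2 / 2) :=
    ProbabilityTheory.ae_cond_mem hopen.measurableSet
  have hb : ∀ᵐ c ∂κ, c ∈ ball ((x, y) : ℝ × ℝ) (h1 + h2) := by
    filter_upwards [hbR] with c hc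
    obtain ⟨c1, c2⟩ := hc
    rw [mem_Ioo] at c1 c2
    rw [mem_ball, Prod.dist_eq, max_lt_iff, Real.dist_eq, Real.dist_eq, abs_lt, abs_lt]
    exact ⟨⟨by linarith, by linarith⟩, by linarith, by linarith⟩
  have hR : ∀ p ∈ cR x y h1 h2, ∀ c ∈ oR x y (h1 / 2) (h2 / 2),
      |(p - c).1| ≤ 3 / 2 * h1 ∧ |(p - c).2| ≤ 3 / 2 * h2 := by
    rintro p ⟨a1, a2⟩ c ⟨c1, c2⟩
    rw [mem_Ioo] at c1 c2
    rw [mem_Icc] at a1 a2
    rw [Prod.fst_sub, Prod.snd_sub, abs_le, abs_le]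
    exact ⟨⟨by linarith, by linarith⟩, by linarith, by linarith⟩
  have hRn : ∀ p ∈ cR x y h1 h2, ∀ c ∈ oR x y (h1 / 2) (h2 / 2), ‖p - c‖ ≤ 3 / 2 * (h1 + h2) := by
    intro p hp c hc
    obtain ⟨r1, r2⟩ := hR p hp c hc
    rw [Prod.norm_def, Real.norm_eq_abs, Real.norm_eq_abs]
    exact max_le (by linarith) (by linarith)
  have hmem : ∀ p ∈ cR x y h1 h2, ∀ c ∈ oR x y (h1 / 2) (h2 / 2), ∀ t ∈ Ioo (0 : ℝ) 1,
      seg p (c, t) ∈ oR x y h1 h2 := fun p hp c hc t ht => seg_mem_oR p1 p2 hp hc ht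
  obtain ⟨k1, k2, F⟩ := exists_filB hκ measurableSet_oR hbR ν₁ n1 hmem hRn
  obtain ⟨l1, l2, G⟩ := exists_filB hκ measurableSet_oR hbR ν₂ n2 hmem hRn
  refine ⟨fun q => k1 q - l1 q, fun q => k2 q - l2 q, F.m1.sub G.m1, F.m2.sub G.m2,
    fun q hq => ⟨by simp only [F.z1 q hq, G.z1 q hq, sub_zero],
      by simp only [F.z2 q hq, G.z2 q hq, sub_zero]⟩,
    F.i1.sub G.i1, F.i2.sub G.i2, ?_, ?_, ?_, ?_⟩
  · -- (F1)
    intro L e hL he
    have heSL : SL univ L e := fun p q _ => he p q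
    have hec : Continuous e := continuous_iff_continuousAt.mpr fun p =>
      heSL.continuousAt isOpen_univ (mem_univ p)
    have hx : ∀ q, |gx e q| ≤ L := fun q => heSL.abs_gx_le isOpen_univ hL (mem_univ q)
    have hy : ∀ q, |gy e q| ≤ L := fun q => heSL.abs_gy_le isOpen_univ hL (mem_univ q)
    have bx : ∀ᵐ q : ℝ × ℝ, ‖gx e q‖ ≤ L := Eventually.of_forall hx
    have by' : ∀ᵐ q : ℝ × ℝ, ‖gy e q‖ ≤ L := Eventually.of_forall hy
    have i1 := F.i1.mul_bdd (measurable_gx e).aestronglyMeasurable bx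
    have i2 := F.i2.mul_bdd (measurable_gy e).aestronglyMeasurable by'
    have j1 := G.i1.mul_bdd (measurable_gx e).aestronglyMeasurable bx
    have j2 := G.i2.mul_bdd (measurable_gy e).aestronglyMeasurable by'
    have hei : ∀ ν : Measure (ℝ × ℝ), IsFiniteMeasure ν → ν (cR x y h1 h2)ᶜ = 0 →
        ∫ p, (e p - ∫ c, e c ∂κ) ∂ν = (∫ p, e p ∂ν) - (ν univ).toReal * ∫ c, e c ∂κ := by
      intro ν _ h0
      have hI : Integrable e ν := by
        refine Integrable.of_bound (C := |e (x, y)| + L * (h1 + h2)) hec.aestronglyMeasurable ?_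
        have h3 : ∀ᵐ p ∂ν, p ∈ cR x y h1 h2 := by rw [ae_iff]; exact h0
        filter_upwards [h3] with c hc
        have hd : dist c (x, y) ≤ h1 + h2 := by
          obtain ⟨c1, c2⟩ := hc
          rw [mem_Icc] at c1 c2
          rw [Prod.dist_eq, max_le_iff, Real.dist_eq, Real.dist_eq, abs_le, abs_le]
          exact ⟨⟨by linarith, by linarith⟩, by linarith, by linarith⟩
        have k1 := he c (x, y)
        have k2 : L * dist c (x, y) ≤ L * (h1 + h2) := mul_le_mul_of_nonneg_left hd hL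
        have k3 : |e c| ≤ |e c - e (x, y)| + |e (x, y)| := by
          have := abs_add_le (e c - e (x, y)) (e (x, y)); simpa using this
        rw [Real.norm_eq_abs]; linarith
      rw [integral_sub hI (integrable_const _), integral_const, smul_eq_mul]
      rfl
    rw [setIntegral_eq_integral_of_forall_compl_eq_zero (fun q hq => by
      simp only [F.z1 q hq, G.z1 q hq, F.z2 q hq, G.z2 q hq, sub_zero, zero_mul, add_zero])]
    have main : ∫ q, ((k1 q - l1 q) * gx e q + (k2 q - l2 q) * gy e q) =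
        (∫ q, (k1 q * gx e q + k2 q * gy e q)) - ∫ q, (l1 q * gx e q + l2 q * gy e q) := by
      refine Eq.trans ?_ (integral_sub (i1.add i2) (j1.add j2))
      congr 1
      ext q
      ring
    rw [main, F.dual _ _ (measurable_gx e) (measurable_gy e) L hx hy,
      G.dual _ _ (measurable_gx e) (measurable_gy e) L hx hy]
    simp only [seg_F1 hκ hb hL he]
    rw [hei ν₁ inferInstance n1, hei ν₂ inferInstance n2, hm]
    ring
  · -- (F2)
    intro ε hε hε4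
    have hlt : 1 - 2 * ε < 1 - ε := by linarith
    set g : ℝ × ℝ → ℝ := gR x y h1 h2 with hg
    set η : ℝ × ℝ → ℝ := fun q => rmp (1 - 2 * ε) (1 - ε) (gR x y h1 h2 q) with hη
    have hηl : ∀ p q : ℝ × ℝ, |η p - η q| ≤ (ε⁻¹ * (h1⁻¹ + h2⁻¹)) * dist p q :=
      etaR_lip p1 p2 hε
    have hL : 0 ≤ ε⁻¹ * (h1⁻¹ + h2⁻¹) := by positivity
    have hηSL : SL univ (ε⁻¹ * (h1⁻¹ + h2⁻¹)) η := fun p q _ => hηl p q
    have hgSL : SL univ (h1⁻¹ + h2⁻¹) g := fun p q _ => gR_lip p1 p2 p q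
    have hgc : Continuous g := continuous_iff_continuousAt.mpr fun p =>
      hgSL.continuousAt isOpen_univ (mem_univ p)
    have hcost := F.cost_le G n1 n2 (measurable_gx η) (measurable_gy η)
      (fun q => hηSL.abs_gx_le isOpen_univ hL (mem_univ q))
      (fun q => hηSL.abs_gy_le isOpen_univ hL (mem_univ q)) MeasurableSet.univ (K := 1)
      (fun p _ => by
        rw [indicator_of_mem (mem_univ p)]
        exact segR_F2 hκ p1 p2 hb hbR hε hε4 p)
    rw [one_mul] at hcost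
    refine le_trans (le_of_eq ?_) hcost
    have hmB : MeasurableSet (oR x y h1 h2 ∩ ann g ε) :=
      measurableSet_oR.inter (measurableSet_ann hgc.measurable ε)
    rw [← integral_const_mul, ← integral_indicator hmB]
    refine integral_congr_ae ?_
    filter_upwards [hgSL.ae_differentiableAt (μ := volume) isOpen_univ] with q hq
    obtain ⟨r1, r2⟩ := gx_rmp hlt (hq (mem_univ q))
    rw [show 1 - ε - (1 - 2 * ε) = ε by ring] at r1 r2
    have r1' : gx η q = _ := r1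
    have r2' : gy η q = _ := r2
    rw [r1', r2']
    by_cases hqB : q ∈ oR x y h1 h2
    · by_cases hqA : q ∈ ann g ε
      · have hqA' : 1 - 2 * ε < g q ∧ g q < 1 - ε := hqA
        rw [indicator_of_mem (mem_inter hqB hqA), if_pos hqA', if_pos hqA',
          show (k1 q - l1 q) * -(ε⁻¹ * gx g q) + (k2 q - l2 q) * -(ε⁻¹ * gy g q) =
            -(ε⁻¹ * ((k1 q - l1 q) * gx g q + (k2 q - l2 q) * gy g q)) by ring,
          abs_neg, abs_mul, abs_of_pos (inv_pos.mpr hε)]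
      · have hqA' : ¬ (1 - 2 * ε < g q ∧ g q < 1 - ε) := hqA
        rw [indicator_of_notMem (fun hc => hqA hc.2), if_neg hqA', if_neg hqA']
        simp
    · rw [indicator_of_notMem (fun hc => hqB hc.1), F.z1 q hqB, G.z1 q hqB, F.z2 q hqB,
        G.z2 q hqB]
      simp
  · -- (F3)
    intro a b c d hab hcd P hPm hP
    have hSm : MeasurableSet (Ioo a b ×ˢ Ioo c d : Set (ℝ × ℝ)) :=
      measurableSet_Ioo.prod measurableSet_Ioo
    obtain ⟨s1, s2⟩ := F.set_le G n1 n2 hSm hPm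
    exact ⟨s1 _ fun p hp => costR_F3 p1 p2 hb hbR hab measurable_fst (fun q => norm_fst_le q)
        (fun c p t => by simp) hSm (fun q hq => hq.1) hP hp,
      s2 _ fun p hp => costR_F3 p1 p2 hb hbR hcd measurable_snd (fun q => norm_snd_le q)
        (fun c p t => by simp) hSm (fun q hq => hq.2) hP hp⟩
  · -- (F4)
    intro δ hδ S P hSm hPm hSδ hP
    obtain ⟨s1, s2⟩ := F.set_le G n1 n2 hSm hPm
    exact ⟨s1 _ fun p hp => costR_F4 (π := Prod.fst) p1 p2 hbR p1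
        (fun p hp c hc => (hR p hp c hc).1) hδ hSδ hP hp,
      s2 _ fun p hp => costR_F4 (π := Prod.snd) p1 p2 hbR p2
        (fun p hp c hc => (hR p hp c hc).2) hδ hSδ hP hp⟩

end Crest.Agent.R105.SqF_136
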