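import Crest.Agent.R105.SqR2_136

/-! Row 105, S0138, exact squares cut by the level: the fill of a RECTANGLE: integrals over a.e.
line, total integrals, and the form for `Rects`. -/

open MeasureTheory Set Filter Topology Metric

namespace Crest.Agent.R105.SqF_136

open Crest.Agent.R105.CF_363 Crest.Agent.R105.Sq_87

variable {x y h1 h2 : ℝ} {ν₁ ν₂ : Measure (ℝ × ℝ)} {X1 X2 : ℝ × ℝ → ℝ}

/-- the flow through a.e. vertical line -/
theorem FillR.Lx (C : FillR x y h1 h2 ν₁ ν₂ X1 X2) : ∀ᵐ x' : ℝ,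
    Integrable (fun y' : ℝ => X1 (x', y')) ∧
      ∫ y', |X1 (x', y')| ≤ (ν₁ univ + ν₂ univ).toReal := by
  have hi := C.i1
  rw [Measure.volume_eq_prod] at hi
  have hf : Integrable fun x' : ℝ => ∫ y', |X1 (x', y')| := hi.abs.integral_prod_left
  have h2' : ∀ a b, a ≤ b → ∫ x' in a..b, (∫ y', |X1 (x', y')|) ≤
      (b - a) * (ν₁ univ + ν₂ univ).toReal := by
    intro a b hab
    rcases le_or_gt (y - h2) (y + h2) with hy | hy
    · have h3 := (C.F3 a b (y - h2) (y + h2) hab hy univ MeasurableSet.univ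
        (fun p _ u _ _ => mem_univ p)).1
      refine le_trans (le_of_eq ?_) h3
      rw [intervalIntegral.integral_of_le hab, integral_Ioc_eq_integral_Ioo,
        Measure.volume_eq_prod, setIntegral_prod _ hi.abs.integrableOn]
      congr 1
      ext x'
      rw [setIntegral_eq_integral_of_forall_compl_eq_zero]
      intro y' hy'
      rw [(C.z (x', y') (fun hc => hy' hc.2)).1, abs_zero]
    · have h0 : ∀ x' : ℝ, ∫ y', |X1 (x', y')| = 0 := by
        intro x'
        have : ∀ y' : ℝ, |X1 (x', y')| = 0 := by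
          intro y'
          rw [(C.z (x', y') (fun hc => ?_)).1, abs_zero]
          have := hc.2
          rw [mem_Ioo] at this
          linarith [this.1, this.2]
        simp only [this, integral_zero]
      simp only [h0, intervalIntegral.integral_zero]
      have : 0 ≤ b - a := by linarith
      positivity
  filter_upwards [ae_le_of_intervals hf h2', hi.prod_right_ae] with x' h3 h4 using ⟨h4, h3⟩

/-- the flow through a.e. horizontal line -/
theorem FillR.Ly (C : FillR x y h1 h2 ν₁ ν₂ X1 X2) : ∀ᵐ y' : ℝ,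
    Integrable (fun x' : ℝ => X2 (x', y')) ∧
      ∫ x', |X2 (x', y')| ≤ (ν₁ univ + ν₂ univ).toReal := by
  have hi := C.i2
  rw [Measure.volume_eq_prod] at hi
  have hf : Integrable fun y' : ℝ => ∫ x', |X2 (x', y')| := hi.abs.integral_prod_right
  have h2' : ∀ a b, a ≤ b → ∫ y' in a..b, (∫ x', |X2 (x', y')|) ≤
      (b - a) * (ν₁ univ + ν₂ univ).toReal := by
    intro a b hab
    rcases le_or_gt (x - h1) (x + h1) with hx | hx
    · have h3 := (C.F3 (x - h1) (x + h1) a b hx hab univ MeasurableSet.univ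
        (fun p _ u _ _ => mem_univ p)).2
      refine le_trans (le_of_eq ?_) h3
      have hi' : Integrable (fun u : ℝ × ℝ => |X2 u|)
          ((volume.restrict (Ioo (x - h1) (x + h1))).prod (volume.restrict (Ioo a b))) := by
        rw [Measure.prod_restrict]; exact hi.abs.integrableOn
      rw [intervalIntegral.integral_of_le hab, integral_Ioc_eq_integral_Ioo,
        Measure.volume_eq_prod, ← Measure.prod_restrict, integral_prod_symm _ hi']
      congr 1
      ext y'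
      rw [setIntegral_eq_integral_of_forall_compl_eq_zero]
      intro x' hx'
      rw [(C.z (x', y') (fun hc => hx' hc.1)).2, abs_zero]
    · have h0 : ∀ y' : ℝ, ∫ x', |X2 (x', y')| = 0 := by
        intro y'
        have : ∀ x' : ℝ, |X2 (x', y')| = 0 := by
          intro x'
          rw [(C.z (x', y') (fun hc => ?_)).2, abs_zero]
          have := hc.1
          rw [mem_Ioo] at this
          linarith [this.1, this.2]
        simp only [this, integral_zero]
      simp only [h0, intervalIntegral.integral_zero]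
      have : 0 ≤ b - a := by linarith
      positivity
  filter_upwards [ae_le_of_intervals hf h2', hi.prod_left_ae] with y' h3 h4 using ⟨h4, h3⟩

/-- the total integrals -/
theorem FillR.total (p1 : 0 < h1) (p2 : 0 < h2) (C : FillR x y h1 h2 ν₁ ν₂ X1 X2) :
    (∫ u, |X1 u| ≤ 2 * h1 * (ν₁ univ + ν₂ univ).toReal) ∧
    (∫ u, |X2 u| ≤ 2 * h2 * (ν₁ univ + ν₂ univ).toReal) := by
  have h3 := C.F3 (x - h1) (x + h1) (y - h2) (y + h2) (by linarith) (by linarith) univ
    MeasurableSet.univ (fun p _ u _ _ => mem_univ p)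
  have e1 : ∫ u in Ioo (x - h1) (x + h1) ×ˢ Ioo (y - h2) (y + h2), |X1 u| = ∫ u, |X1 u| :=
    setIntegral_eq_integral_of_forall_compl_eq_zero fun u hu => by rw [(C.z u hu).1, abs_zero]
  have e2 : ∫ u in Ioo (x - h1) (x + h1) ×ˢ Ioo (y - h2) (y + h2), |X2 u| = ∫ u, |X2 u| :=
    setIntegral_eq_integral_of_forall_compl_eq_zero fun u hu => by rw [(C.z u hu).2, abs_zero]
  rw [e1, e2] at h3
  rw [show x + h1 - (x - h1) = 2 * h1 by ring, show y + h2 - (y - h2) = 2 * h2 by ring] at h3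
  exact h3

/-- the form for the rectangles of `Sq_87` -/
theorem fillQ {ι : Type} (Q : Rects ι) (i : ι) (ν₁ ν₂ : Measure (ℝ × ℝ))
    [IsFiniteMeasure ν₁] [IsFiniteMeasure ν₂]
    (n1 : ν₁ (Icc (Q.x i - Q.h1 i) (Q.x i + Q.h1 i) ×ˢ
      Icc (Q.y i - Q.h2 i) (Q.y i + Q.h2 i))ᶜ = 0)
    (n2 : ν₂ (Icc (Q.x i - Q.h1 i) (Q.x i + Q.h1 i) ×ˢ
      Icc (Q.y i - Q.h2 i) (Q.y i + Q.h2 i))ᶜ = 0) (hm : ν₁ univ = ν₂ univ) :
    ∃ X1 X2 : ℝ × ℝ → ℝ, FillR (Q.x i) (Q.y i) (Q.h1 i) (Q.h2 i) ν₁ ν₂ X1 X2 ∧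
      (∀ p ∉ Q.op i, X1 p = 0 ∧ X2 p = 0) ∧
      (∀ (L : ℝ) (e : ℝ × ℝ → ℝ), 0 ≤ L → (∀ p q, |e p - e q| ≤ L * dist p q) →
        ∫ p in Q.op i, (X1 p * gx e p + X2 p * gy e p) = (∫ p, e p ∂ν₁) - ∫ p, e p ∂ν₂) ∧
      (∀ ε, 0 < ε → ε ≤ 1 / 4 → ε⁻¹ * ∫ p in Q.op i ∩ ann (Q.gau i) ε,
        |X1 p * gx (Q.gau i) p + X2 p * gy (Q.gau i) p| ≤ (ν₁ univ + ν₂ univ).toReal) := by
  obtain ⟨X1, X2, C⟩ := fillR (Q.p1 i) (Q.p2 i) ν₁ ν₂ n1 n2 hm
  exact ⟨X1, X2, C, C.z, C.F1, C.F2⟩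

end Crest.Agent.R105.SqF_136
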