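import Crest.Agent.R105.SqF2_136
import Crest.Agent.R105.SqB_87

/-! Row 105, S0138, exact squares cut by the level: the fill of a RECTANGLE (same construction as
`SqF_136`, gauge `max (|p.1 - x| / h1) (|p.2 - y| / h2)`). -/

open MeasureTheory Set Filter Topology Metric

namespace Crest.Agent.R105.SqF_136

open Crest.Agent.R105.CF_363 Crest.Agent.R105.Sq_87

/-- the gauge of the rectangle with centre `(x, y)` and half sides `h1`, `h2` -/
noncomputable def gR (x y h1 h2 : ℝ) (p : ℝ × ℝ) : ℝ := max (|p.1 - x| / h1) (|p.2 - y| / h2)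

/-- the distance in the norm of the rectangle -/
noncomputable def dR (h1 h2 : ℝ) (p q : ℝ × ℝ) : ℝ := max (|p.1 - q.1| / h1) (|p.2 - q.2| / h2)

/-- the open rectangle -/
def oR (x y h1 h2 : ℝ) : Set (ℝ × ℝ) := Ioo (x - h1) (x + h1) ×ˢ Ioo (y - h2) (y + h2)

/-- the closed rectangle -/
def cR (x y h1 h2 : ℝ) : Set (ℝ × ℝ) := Icc (x - h1) (x + h1) ×ˢ Icc (y - h2) (y + h2)

variable {x y h1 h2 : ℝ}

theorem measurableSet_oR : MeasurableSet (oR x y h1 h2) := measurableSet_Ioo.prod measurableSet_Ioo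

theorem gR_lt (p1 : 0 < h1) (p2 : 0 < h2) {p : ℝ × ℝ} : gR x y h1 h2 p < 1 ↔ p ∈ oR x y h1 h2 := by
  unfold gR oR
  rw [max_lt_iff, div_lt_one p1, div_lt_one p2, abs_lt, abs_lt, mem_prod, mem_Ioo, mem_Ioo]
  constructor
  · rintro ⟨⟨a, b⟩, c, d⟩
    exact ⟨⟨by linarith, by linarith⟩, by linarith, by linarith⟩
  · rintro ⟨⟨a, b⟩, c, d⟩
    exact ⟨⟨by linarith, by linarith⟩, by linarith, by linarith⟩

theorem gR_le (p1 : 0 < h1) (p2 : 0 < h2) {p : ℝ × ℝ} : gR x y h1 h2 p ≤ 1 ↔ p ∈ cR x y h1 h2 := by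
  unfold gR cR
  rw [max_le_iff, div_le_one p1, div_le_one p2, abs_le, abs_le, mem_prod, mem_Icc, mem_Icc]
  constructor
  · rintro ⟨⟨a, b⟩, c, d⟩
    exact ⟨⟨by linarith, by linarith⟩, by linarith, by linarith⟩
  · rintro ⟨⟨a, b⟩, c, d⟩
    exact ⟨⟨by linarith, by linarith⟩, by linarith, by linarith⟩

theorem gR_half (p1 : 0 < h1) (p2 : 0 < h2) {p : ℝ × ℝ} (hp : p ∈ oR x y (h1 / 2) (h2 / 2)) :
    gR x y h1 h2 p < 1 / 2 := by
  obtain ⟨h3, h4⟩ := hp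
  unfold gR
  rw [mem_Ioo] at h3 h4
  rw [max_lt_iff, div_lt_iff₀ p1, div_lt_iff₀ p2, abs_lt, abs_lt]
  exact ⟨⟨by linarith, by linarith⟩, by linarith, by linarith⟩

theorem gR_nonneg (p1 : 0 < h1) {p : ℝ × ℝ} : 0 ≤ gR x y h1 h2 p :=
  le_max_of_le_left (div_nonneg (abs_nonneg _) p1.le)

theorem dR_nonneg (p1 : 0 < h1) {p q : ℝ × ℝ} : 0 ≤ dR h1 h2 p q :=
  le_max_of_le_left (div_nonneg (abs_nonneg _) p1.le)

theorem gR_lip (p1 : 0 < h1) (p2 : 0 < h2) (p q : ℝ × ℝ) :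
    |gR x y h1 h2 p - gR x y h1 h2 q| ≤ (h1⁻¹ + h2⁻¹) * dist p q := by
  unfold gR
  refine (abs_max_sub_max_le_max _ _ _ _).trans ?_
  have d1 : |p.1 - q.1| ≤ dist p q := by rw [Prod.dist_eq, ← Real.dist_eq]; exact le_max_left _ _
  have d2 : |p.2 - q.2| ≤ dist p q := by rw [Prod.dist_eq, ← Real.dist_eq]; exact le_max_right _ _
  have e1 : |(|p.1 - x| / h1 - |q.1 - x| / h1)| ≤ h1⁻¹ * dist p q := by
    rw [← sub_div, abs_div, abs_of_pos p1, div_eq_inv_mul]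
    apply mul_le_mul_of_nonneg_left _ (inv_pos.mpr p1).le
    refine (abs_abs_sub_abs_le _ _).trans ?_
    rw [sub_sub_sub_cancel_right]; exact d1
  have e2 : |(|p.2 - y| / h2 - |q.2 - y| / h2)| ≤ h2⁻¹ * dist p q := by
    rw [← sub_div, abs_div, abs_of_pos p2, div_eq_inv_mul]
    apply mul_le_mul_of_nonneg_left _ (inv_pos.mpr p2).le
    refine (abs_abs_sub_abs_le _ _).trans ?_
    rw [sub_sub_sub_cancel_right]; exact d2
  have hd : 0 ≤ dist p q := dist_nonneg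
  have i1 : 0 ≤ h1⁻¹ * dist p q := by positivity
  have i2 : 0 ≤ h2⁻¹ * dist p q := by positivity
  rw [add_mul]
  exact max_le (by linarith) (by linarith)

/-- the gauge is convex along the segments -/
theorem gR_seg (p1 : 0 < h1) (p2 : 0 < h2) {p c : ℝ × ℝ} {t : ℝ} (h0 : 0 ≤ t) (h1' : t ≤ 1) :
    gR x y h1 h2 (seg p (c, t)) ≤ (1 - t) * gR x y h1 h2 c + t * gR x y h1 h2 p := by
  have ht : 0 ≤ 1 - t := sub_nonneg.mpr h1'
  have one : ∀ (cc pp z h G H : ℝ), 0 < h → |cc - z| / h ≤ G → |pp - z| / h ≤ H →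
      |cc + t * (pp - cc) - z| / h ≤ (1 - t) * G + t * H := by
    intro cc pp z h G H hh hG hH
    rw [div_le_iff₀ hh] at hG hH ⊢
    have e : cc + t * (pp - cc) - z = (1 - t) * (cc - z) + t * (pp - z) := by ring
    rw [e]
    refine (abs_add_le _ _).trans ?_
    rw [abs_mul, abs_mul, abs_of_nonneg h0, abs_of_nonneg ht]
    have i1 := mul_le_mul_of_nonneg_left hG ht
    have i2 := mul_le_mul_of_nonneg_left hH h0
    nlinarith
  refine max_le ?_ ?_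
  · exact one c.1 p.1 x h1 _ _ p1 (le_max_left _ _) (le_max_left _ _)
  · exact one c.2 p.2 y h2 _ _ p2 (le_max_right _ _) (le_max_right _ _)

theorem seg_mem_oR (p1 : 0 < h1) (p2 : 0 < h2) {p c : ℝ × ℝ} {t : ℝ} (hp : p ∈ cR x y h1 h2)
    (hc : c ∈ oR x y (h1 / 2) (h2 / 2)) (ht : t ∈ Ioo (0 : ℝ) 1) :
    seg p (c, t) ∈ oR x y h1 h2 := by
  rw [← gR_lt p1 p2]
  have hp' := (gR_le p1 p2).mpr hp
  have hc' := gR_half p1 p2 hc
  have h := gR_seg (x := x) (y := y) p1 p2 (p := p) (c := c) ht.1.le ht.2.le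
  have h2' : 0 < 1 - t := by linarith [ht.2]
  nlinarith [ht.1]

theorem etaR_lip (p1 : 0 < h1) (p2 : 0 < h2) {ε : ℝ} (hε : 0 < ε) (p q : ℝ × ℝ) :
    |rmp (1 - 2 * ε) (1 - ε) (gR x y h1 h2 p) - rmp (1 - 2 * ε) (1 - ε) (gR x y h1 h2 q)| ≤
      (ε⁻¹ * (h1⁻¹ + h2⁻¹)) * dist p q := by
  have hlt : 1 - 2 * ε < 1 - ε := by linarith
  have h1' := rmp_lip hlt (gR x y h1 h2 p) (gR x y h1 h2 q)
  rw [show 1 - ε - (1 - 2 * ε) = ε by ring] at h1'
  refine h1'.trans ?_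
  rw [mul_assoc]
  exact mul_le_mul_of_nonneg_left (gR_lip p1 p2 p q) (inv_nonneg.mpr hε.le)

/-- above `α ≥ 1/2` the gauge increases along the segments -/
theorem etaR_anti (p1 : 0 < h1) (p2 : 0 < h2) {p c : ℝ × ℝ} {ε : ℝ}
    (hc : c ∈ oR x y (h1 / 2) (h2 / 2)) (hε : 0 < ε) (hε4 : ε ≤ 1 / 4) :
    AntitoneOn (fun t => rmp (1 - 2 * ε) (1 - ε) (gR x y h1 h2 (seg p (c, t)))) (Icc 0 1) := by
  intro t ht t' ht' htt
  simp only
  have hlt : 1 - 2 * ε < 1 - ε := by linarith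
  set φ : ℝ → ℝ := fun t => gR x y h1 h2 (seg p (c, t)) with hφ
  rcases le_or_gt (φ t) (1 - 2 * ε) with h1' | h1'
  · rw [rmp_one hlt h1']; exact rmp_le_one _ _ _
  · have hφc : gR x y h1 h2 c < φ t := by
      have := gR_half p1 p2 hc
      linarith
    have key : φ t ≤ φ t' := by
      rcases eq_or_lt_of_le ht.1 with h0 | h0
      · exfalso
        have : φ t = gR x y h1 h2 c := by simp [hφ, ← h0, seg]
        linarith
      · have ht'0 : 0 < t' := lt_of_lt_of_le h0 htt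
        have h4 : φ t ≤ (1 - t / t') * gR x y h1 h2 c + (t / t') * φ t' := by
          have e : seg p (c, t) = seg (seg p (c, t')) (c, t / t') := by
            simp only [seg]
            rw [show c + (t / t') • (c + t' • (p - c) - c) = c + ((t / t') * t') • (p - c) by
              module, div_mul_cancel₀ _ ht'0.ne']
          simp only [hφ]
          rw [e]
          exact gR_seg p1 p2 (div_nonneg h0.le ht'0.le) ((div_le_one ht'0).mpr htt)
        have h5 : 0 < t / t' := div_pos h0 ht'0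
        have h6 : t / t' ≤ 1 := (div_le_one ht'0).mpr htt
        by_contra hcon
        push Not at hcon
        nlinarith
    have hmono : ∀ u v : ℝ, u ≤ v → rmp (1 - 2 * ε) (1 - ε) v ≤ rmp (1 - 2 * ε) (1 - ε) u := by
      intro u v huv
      unfold rmp
      refine max_le_max le_rfl (min_le_min le_rfl ?_)
      exact div_le_div_of_nonneg_right (by linarith) (by linarith)
    exact hmono _ _ key

/-- (F2) for a point mass -/
theorem segR_F2 {κ : Measure (ℝ × ℝ)} [IsProbabilityMeasure κ] (hκ : κ ≪ volume)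
    (p1 : 0 < h1) (p2 : 0 < h2) {m0 : ℝ × ℝ} {r : ℝ} (hb : ∀ᵐ c ∂κ, c ∈ ball m0 r)
    (hbR : ∀ᵐ c ∂κ, c ∈ oR x y (h1 / 2) (h2 / 2)) {ε : ℝ} (hε : 0 < ε)
    (hε4 : ε ≤ 1 / 4) (p : ℝ × ℝ) :
    ∫ s, |(p - s.1).1 * gx (fun q => rmp (1 - 2 * ε) (1 - ε) (gR x y h1 h2 q)) (seg p s) +
      (p - s.1).2 * gy (fun q => rmp (1 - 2 * ε) (1 - ε) (gR x y h1 h2 q)) (seg p s)|
        ∂(κ.prod T01) ≤ 1 := by
  set η : ℝ × ℝ → ℝ := fun q => rmp (1 - 2 * ε) (1 - ε) (gR x y h1 h2 q) with hη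
  have hηl : ∀ p q : ℝ × ℝ, |η p - η q| ≤ (ε⁻¹ * (h1⁻¹ + h2⁻¹)) * dist p q :=
    etaR_lip p1 p2 hε
  have hL : 0 ≤ ε⁻¹ * (h1⁻¹ + h2⁻¹) := by positivity
  have hF1 := seg_F1 hκ hb hL hηl p
  have hb' : ∀ᵐ s ∂(κ.prod T01), s.1 ∈ oR x y (h1 / 2) (h2 / 2) :=
    Measure.quasiMeasurePreserving_fst.ae hbR
  have ht' : ∀ᵐ s ∂(κ.prod T01), s.2 ∈ Ioo (0 : ℝ) 1 :=
    Measure.quasiMeasurePreserving_snd.ae (ae_restrict_mem measurableSet_Ioo)
  have hneg : ∀ᵐ s ∂(κ.prod T01),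
      |(p - s.1).1 * gx η (seg p s) + (p - s.1).2 * gy η (seg p s)| =
        -((p - s.1).1 * gx η (seg p s) + (p - s.1).2 * gy η (seg p s)) := by
    filter_upwards [seg_deriv hκ hηl p, hb', ht'] with s h1 h2 h3
    refine abs_of_nonpos ?_
    have h4 := (etaR_anti (p := p) p1 p2 h2 hε hε4).derivWithin_nonpos (x := s.2)
    have h5 : Icc (0 : ℝ) 1 ∈ 𝓝 s.2 := Icc_mem_nhds h3.1 h3.2
    rw [derivWithin_of_mem_nhds h5, h1.deriv] at h4
    exact h4
  rw [integral_congr_ae hneg, integral_neg, hF1]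
  have h1' : ∫ c, η c ∂κ ≤ 1 := by
    have hηc : Continuous η := continuous_iff_continuousAt.mpr fun p =>
      (show SL univ (ε⁻¹ * (h1⁻¹ + h2⁻¹)) η from fun p q _ => hηl p q).continuousAt isOpen_univ
        (mem_univ p)
    have : ∫ c, η c ∂κ ≤ ∫ _, (1 : ℝ) ∂κ := by
      refine integral_mono ?_ (integrable_const _) fun c => rmp_le_one _ _ _
      refine Integrable.of_bound (C := 1) hηc.aestronglyMeasurable (Eventually.of_forall fun c => ?_)
      rw [Real.norm_eq_abs, abs_of_nonneg (rmp_nonneg _ _ _)]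
      exact rmp_le_one _ _ _
    simpa using this
  have h2' : 0 ≤ η p := rmp_nonneg _ _ _
  linarith

theorem segR_not_mem (p1 : 0 < h1) (p2 : 0 < h2) {p c : ℝ × ℝ} {t : ℝ} (hp : p ∈ cR x y h1 h2)
    (hc : c ∈ oR x y (h1 / 2) (h2 / 2)) (ht : t ∈ Ioo (0 : ℝ) 1) :
    dR h1 h2 (seg p (c, t)) p ≤ 3 * (1 - gR x y h1 h2 (seg p (c, t))) := by
  have hp' := (gR_le p1 p2).mpr hp
  have hc' := gR_half p1 p2 hc
  have h := gR_seg (x := x) (y := y) p1 p2 (p := p) (c := c) ht.1.le ht.2.le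
  have h2' : 0 < 1 - t := by linarith [ht.2]
  have hlow : (1 - t) / 2 ≤ 1 - gR x y h1 h2 (seg p (c, t)) := by nlinarith [ht.1]
  have one : ∀ (cc pp z h : ℝ), 0 < h → |cc - z| / h ≤ 1 / 2 → |pp - z| / h ≤ 1 →
      |cc + t * (pp - cc) - pp| / h ≤ (1 - t) * (3 / 2) := by
    intro cc pp z h hh hG hH
    rw [div_le_iff₀ hh] at hG hH ⊢
    have e : cc + t * (pp - cc) - pp = (1 - t) * ((cc - z) - (pp - z)) := by ring
    rw [e, abs_mul, abs_of_pos h2', mul_assoc]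
    refine mul_le_mul_of_nonneg_left ?_ h2'.le
    refine (abs_sub _ _).trans ?_
    linarith
  have hd : dR h1 h2 (seg p (c, t)) p ≤ (1 - t) * (3 / 2) := by
    refine max_le ?_ ?_
    · exact one c.1 p.1 x h1 p1 ((le_max_left _ _).trans hc'.le) ((le_max_left _ _).trans hp')
    · exact one c.2 p.2 y h2 p2 ((le_max_right _ _).trans hc'.le) ((le_max_right _ _).trans hp')
  linarith

end Crest.Agent.R105.SqF_136
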