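import Crest.Agent.R105.SqJf_361
import Crest.Agent.R105.Ge1_347

/-! Row 105, S0138, Lemma A with exact squares: `ChQ` (helper347) for the output `LowOut`, and the
numerical data for `Glue.family` (helper361). -/

set_option autoImplicit false

open MeasureTheory Set Filter Topology Metric
open scoped NNReal ENNReal

namespace Crest.Agent.R105.SqJ_361

open Crest.Agent.R105.CF_363 Crest.Agent.R105.Sq_87 Crest.Agent.R105.Kin_238
open Crest.Agent.R105.Cq_463 Crest.Agent.R105.Exs_992 Crest.Agent.R105.Stp_722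
open Crest.Agent.R105.Knq_247 (QQ HalfQ)
open Crest.Agent.R105.Kbx_247 (QA)

variable {E C : Set (ℝ × ℝ)} {𝒬 𝒬' : Set Sqr} {𝓗 : Set Hair} {a b c d B m : ℝ}
variable {X1 X2 U1 U2 ψ Ψ : ℝ × ℝ → ℝ} {f : {Q : Sqr // Q ∈ 𝒬'} → ℝ}
  {νp νm : {Q : Sqr // Q ∈ 𝒬'} → Measure (ℝ × ℝ)} {μ : Measure (ℝ × ℝ)}
  {J : ℕ → Finset Hair} {z : ℕ → ℝ × ℝ → ℝ} {κ : Hair → ℝ} {r : ℕ → Ix 𝒬' B → ℝ}

theorem sq_injective : Function.Injective fun i : Ix 𝒬' B => i.1.1 := fun _ _ h =>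
  Subtype.ext (Subtype.ext h)

theorem two_h2_le (i : Ix 𝒬' B) : 2 * (cutR 𝒬' B).h2 i ≤ i.1.1.s := by
  simp only [cutR]
  have := min_le_left (i.1.1.y + i.1.1.s) B
  linarith

theorem summable_Ix {w : {Q : Sqr // Q ∈ 𝒬'} → ℝ} (hw : Summable w) :
    Summable fun i : Ix 𝒬' B => w i.1 := hw.comp_injective Subtype.val_injective

/-- the charges of the half over the cut rectangles are a part of all charges -/
theorem tsum_Ix_le {w : {Q : Sqr // Q ∈ 𝒬'} → ℝ} (hw : Summable w) (h0 : ∀ i, 0 ≤ w i) :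
    ∑' i : Ix 𝒬' B, w i.1 ≤ ∑' i, w i :=
  Summable.tsum_subtype_le w {i | i.1.y < B} h0 hw

/-- **the charges of one half** -/
theorem LowOut.chQ (hP : BoxP E 𝒬 𝓗 a b c d) (h𝒬 : 𝒬' ⊆ 𝒬)
    (h : HalfQ 𝓗 a b c B E (QA 𝒬') C X1 X2 f νp νm μ)
    (O : LowOut E 𝒬' 𝓗 a b c B X1 X2 f νp νm μ U1 U2 ψ Ψ J z κ r) :
    Ge_347.ChQ (cutR 𝒬' B) U1 U2 (fun i => f i.1) (fun i => νp i.1) (fun i => νm i.1) where
  fp := fun i => h.pfin i.1
  fm := fun i => h.mfin i.1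
  cp := fun i => by
    rw [← hP.cl_eq h𝒬 i]
    exact h.pc i.1
  cm := fun i => by
    rw [← hP.cl_eq h𝒬 i]
    exact h.mc i.1
  mp := fun i => h.pm i.1
  mm := fun i => h.mm i.1
  f2 := summable_Ix h.fs
  one := fun i L e hL he => by
    have h1 : LipschitzWith ⟨L, hL⟩ e :=
      LipschitzWith.of_dist_le_mul fun p q => by rw [Real.dist_eq]; exact he p q
    exact O.one i e ⟨L, hL⟩ h1.lipschitzOnWith h1.continuous.continuousOn

end Crest.Agent.R105.SqJ_361
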