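import Crest.Agent.R105.SqG_87
import Crest.Agent.R105.SqJf_361

/-! Row 105, S0138, exact squares: 361's `LowOut` (box problem of a picture) gives 363's `HalfG`. -/

set_option autoImplicit false

open MeasureTheory Set Filter Topology
open scoped NNReal ENNReal

namespace Crest.Agent.R105.SqH_87

open CF_363 Cq_463 Sq_87 Gl_363 SqJ_361
open Mp_87 (lam)

variable {E S : Set (ℝ × ℝ)} {𝒬 𝒬' : Set Sqr} {𝓗 : Set Hair} {a b c d B T : ℝ}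
  {X1 X2 U1 U2 ψ Ψ : ℝ × ℝ → ℝ} {f : {Q : Sqr // Q ∈ 𝒬'} → ℝ}
  {νp νm : {Q : Sqr // Q ∈ 𝒬'} → Measure (ℝ × ℝ)} {μ : Measure (ℝ × ℝ)}
  {J : ℕ → Finset Hair} {z : ℕ → ℝ × ℝ → ℝ} {κ : Hair → ℝ} {r : ℕ → Ix 𝒬' B → ℝ}

/-- the uncharged part of the picture is null off the exempt set -/
theorem null_of (hP : BoxP E 𝒬 𝓗 a b c d) (h𝒬 : 𝒬' ⊆ 𝒬)
    (hS : ∀ Q ∈ 𝒬, Q ∉ 𝒬' → Q.car ⊆ S) : volume (Sl E 𝒬' B \ S) = 0 := by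
  refine measure_mono_null (fun p hp => ?_) (hP.null h𝒬 (B := B))
  refine ⟨hp.1, fun h => ?_⟩
  obtain ⟨Q, hQ, hpQ⟩ := mem_iUnion₂.1 h
  exact hp.2 (hS Q hQ.1 hQ.2 hpQ)

/-- **the half list of the box problem** -/
theorem halfG_of_lowOut [IsFiniteMeasure μ]
    (O : LowOut E 𝒬' 𝓗 a b c B X1 X2 f νp νm μ U1 U2 ψ Ψ J z κ r)
    (hP : BoxP E 𝒬 𝓗 a b c d) (h𝒬 : 𝒬' ⊆ 𝒬) (hS : ∀ Q ∈ 𝒬, Q ∉ 𝒬' → Q.car ⊆ S)
    (G : GeoC E S 𝒬 𝓗 (cutR 𝒬' B) (fun i => i.1.1) a b c B T) (C : CarC E S 𝒬 B T μ) :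
    ∃ g, HalfG E S 𝓗 (cutR 𝒬' B) a b c B T U1 U2 μ (fun i => f i.1) ψ g := by
  have := hP.countable h𝒬 (B := B)
  exact exists_halfG G C (null_of hP h𝒬 hS) O.hJ O.L O.D O.A O.F fun K hK hx h0 =>
    ⟨κ K, (O.T K hK hx h0).1⟩

/-- rectangle = square cut at the level -/
theorem cutR_x1 (i : Ix 𝒬' B) : (cutR 𝒬' B).x i - (cutR 𝒬' B).h1 i = i.1.1.x := by
  simp only [cutR]; ring

theorem cutR_x2 (i : Ix 𝒬' B) : (cutR 𝒬' B).x i + (cutR 𝒬' B).h1 i = i.1.1.x + i.1.1.s := by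
  simp only [cutR]; ring

theorem cutR_y1 (i : Ix 𝒬' B) : (cutR 𝒬' B).y i - (cutR 𝒬' B).h2 i = i.1.1.y := by
  simp only [cutR]; ring

theorem cutR_y2 (i : Ix 𝒬' B) :
    (cutR 𝒬' B).y i + (cutR 𝒬' B).h2 i = min (i.1.1.y + i.1.1.s) B := by
  simp only [cutR]; ring

/-- **geometry of one half**: `S` closed in `E`, saturated for hairs and squares, the charged
squares are the squares off `S` -/
theorem geoC_of_box (hP : BoxP E 𝒬 𝓗 a b c d) (cS : IsClosed S) (SE : S ⊆ E)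
    (hS : ∀ K ∈ 𝓗, (K.car ∩ S).Nonempty → K.car ⊆ S)
    (qS : ∀ Q ∈ 𝒬, (Q.car ∩ S).Nonempty → Q.car ⊆ S) (cB : c < B) (BT : B < T)
    (h𝒬 : ∀ Q, Q ∈ 𝒬' ↔ Q ∈ 𝒬 ∧ Disjoint Q.car S) :
    GeoC E S 𝒬 𝓗 (cutR 𝒬' B) (fun i => i.1.1) a b c B T where
  pic := hP.pic.q
  cS := cS
  SE := SE
  hS := hS
  qS := qS
  att := by
    intro K hK Q hQ
    rw [Set.disjoint_left]
    intro p hp hpi
    have h1 := hP.pic.att K hK Q hQ ⟨p, hp, interior_subset hpi⟩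
    rw [interior_car] at hpi
    rcases h1 with h | h
    · linarith [hp.2.1, hpi.2.2]
    · linarith [hp.2.2, hpi.2.1]
  box := fun p hp => ⟨(hP.box hp).1, (hP.box hp).2.1⟩
  cB := cB
  BT := BT
  sqm := fun i => ⟨((h𝒬 _).1 i.1.2).1, ((h𝒬 _).1 i.1.2).2, i.2⟩
  sqs := fun Q hQ hd hB => ⟨⟨⟨Q, (h𝒬 Q).2 ⟨hQ, hd⟩⟩, hB⟩, rfl⟩
  x1 := cutR_x1
  x2 := cutR_x2
  y1 := cutR_y1
  y2 := cutR_y2

end Crest.Agent.R105.SqH_87
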