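import Crest.Agent.R105.SqP_87
import Crest.Agent.R105.Psi4_425

/-! Row 105, S0138, exact squares: the averages `r⁻¹ ∫_{K_r} |X|` tend to zero. -/

open MeasureTheory Set Filter Topology
open scoped NNReal ENNReal

namespace Crest.Agent.R105.Sq_87

open Crest.Agent.R105.Mp_87 (Rc measurableSet_Rc restrict_Rc cs_line)

variable {ι : Type} {Q : Rects ι} {S : Set (ℝ × ℝ)}
variable {X X1 X2 : ℝ × ℝ → ℝ} {f : ι → ℝ}

/-- flux bounds of the filling field on the squares -/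
structure Flux3 (Q : Rects ι) (X1 X2 : ℝ × ℝ → ℝ) (f : ι → ℝ) : Prop where
  x : ∀ i, ∀ a b c d, a ≤ b → c ≤ d →
    ∫ p in Q.op i ∩ (Ioo a b ×ˢ Ioo c d), |X1 p| ≤ (b - a) * (2 * f i)
  y : ∀ i, ∀ a b c d, a ≤ b → c ≤ d →
    ∫ p in Q.op i ∩ (Ioo a b ×ˢ Ioo c d), |X2 p| ≤ (d - c) * (2 * f i)

/-- the rectangles are parts of disjoint full squares of side `s i` with lower left corner `q i` -/
structure Pack (Q : Rects ι) (s : ι → ℝ) (q : ι → ℝ × ℝ) : Prop where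
  w1 : ∀ i, 2 * Q.h1 i ≤ s i
  w2 : ∀ i, 2 * Q.h2 i ≤ s i
  sub : ∀ i, Q.op i ⊆ Ioo (q i).1 ((q i).1 + s i) ×ˢ Ioo (q i).2 ((q i).2 + s i)
  dis : Pairwise (fun i j => Disjoint (Ioo (q i).1 ((q i).1 + s i) ×ˢ Ioo (q i).2 ((q i).2 + s i))
    (Ioo (q j).1 ((q j).1 + s j) ×ˢ Ioo (q j).2 ((q j).2 + s j)))

theorem sub_interval {α s u r t : ℝ} (hr : 0 < r) (h1 : t ∈ Ioo α (α + s))
    (h2 : t ∈ Ioo (u - 2 * r) (u + 2 * r)) :
    ∃ α', Ioo α' (α' + min (4 * r) s) ⊆ Ioo α (α + s) ∩ Ioo (u - 6 * r) (u + 6 * r) := by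
  refine ⟨max α (t - min (4 * r) s), ?_⟩
  have hm1 : min (4 * r) s ≤ 4 * r := min_le_left _ _
  have hm2 : min (4 * r) s ≤ s := min_le_right _ _
  have hs : 0 < s := by linarith [h1.1, h1.2]
  have hm0 : 0 < min (4 * r) s := lt_min (by linarith) hs
  rintro y ⟨hy1, hy2⟩
  rcases le_total α (t - min (4 * r) s) with h | h
  · rw [max_eq_right h] at hy1 hy2
    exact ⟨⟨by linarith, by linarith [h1.2]⟩, by linarith [h2.1], by linarith [h2.2]⟩
  · rw [max_eq_left h] at hy1 hy2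
    exact ⟨⟨hy1, by linarith⟩, by linarith [h2.1], by linarith [h1.1, h2.2]⟩

/-- packing -/
theorem pack_sum {s : ι → ℝ} {q : ι → ℝ × ℝ} (P : Pack Q s q) {u v r : ℝ} (hr : 0 < r)
    (T : Finset ι) (hT : ∀ i ∈ T, (Q.op i ∩ Rc (u - 2 * r) (u + 2 * r) (v - 2 * r) (v + 2 * r)).Nonempty) :
    ∑ i ∈ T, (min (4 * r) (s i)) ^ 2 ≤ 144 * r ^ 2 := by
  have hch : ∀ i ∈ T, ∃ c : ℝ × ℝ,
      Ioo c.1 (c.1 + min (4 * r) (s i)) ×ˢ Ioo c.2 (c.2 + min (4 * r) (s i)) ⊆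
        (Ioo (q i).1 ((q i).1 + s i) ×ˢ Ioo (q i).2 ((q i).2 + s i)) ∩
          (Ioo (u - 6 * r) (u + 6 * r) ×ˢ Ioo (v - 6 * r) (v + 6 * r)) := by
    intro i hi
    obtain ⟨p, hp1, hp2⟩ := hT i hi
    have hp3 := P.sub i hp1
    obtain ⟨c1, hc1⟩ := sub_interval hr hp3.1 hp2.1
    obtain ⟨c2, hc2⟩ := sub_interval hr hp3.2 hp2.2
    refine ⟨(c1, c2), ?_⟩
    rintro ⟨y1, y2⟩ ⟨h1, h2⟩
    exact ⟨⟨(hc1 h1).1, (hc2 h2).1⟩, ⟨(hc1 h1).2, (hc2 h2).2⟩⟩
  choose! c hc using hch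
  have hs0 : ∀ i, 0 ≤ s i := fun i => by linarith [P.w1 i, Q.p1 i]
  set R : ι → Set (ℝ × ℝ) := fun i =>
    Ioo (c i).1 ((c i).1 + min (4 * r) (s i)) ×ˢ Ioo (c i).2 ((c i).2 + min (4 * r) (s i)) with hR
  have hvol : ∀ i, volume (R i) = ENNReal.ofReal ((min (4 * r) (s i)) ^ 2) := by
    intro i
    have hm0 : 0 ≤ min (4 * r) (s i) := le_min (by linarith) (hs0 i)
    rw [hR, Measure.volume_eq_prod, Measure.prod_prod, Real.volume_Ioo, Real.volume_Ioo,
      add_sub_cancel_left, add_sub_cancel_left, ← ENNReal.ofReal_mul hm0, sq]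
  have hd : Set.PairwiseDisjoint (T : Set ι) R := by
    intro i hi j hj hij
    exact (P.dis hij).mono (fun p hp => (hc i hi hp).1) (fun p hp => (hc j hj hp).1)
  have h1 : ∑ i ∈ T, volume (R i) = volume (⋃ i ∈ T, R i) :=
    (measure_biUnion_finset hd (fun i _ => measurableSet_Ioo.prod measurableSet_Ioo)).symm
  have h2 : volume (⋃ i ∈ T, R i) ≤ ENNReal.ofReal (144 * r ^ 2) := by
    have h3 : (⋃ i ∈ T, R i) ⊆ Ioo (u - 6 * r) (u + 6 * r) ×ˢ Ioo (v - 6 * r) (v + 6 * r) :=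
      iUnion₂_subset fun i hi p hp => (hc i hi hp).2
    refine (measure_mono h3).trans (le_of_eq ?_)
    rw [Measure.volume_eq_prod, Measure.prod_prod, Real.volume_Ioo, Real.volume_Ioo,
      ← ENNReal.ofReal_mul (by linarith)]
    congr 1; ring
  rw [← h1] at h2
  simp_rw [hvol] at h2
  rw [← ENNReal.ofReal_sum_of_nonneg (fun i _ => sq_nonneg _)] at h2
  exact (ENNReal.ofReal_le_ofReal_iff (by positivity)).mp h2

/-- one square, first component -/
theorem term_x (F : Flux3 Q X1 X2 f) (f0 : ∀ i, 0 ≤ f i) {s : ι → ℝ} (w1 : ∀ i, 2 * Q.h1 i ≤ s i)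
    (i : ι) (hi : Integrable X1 (volume : Measure (ℝ × ℝ))) {u v r : ℝ} (hr : 0 < r) :
    ∫ p in Q.op i ∩ Rc (u - 2 * r) (u + 2 * r) (v - 2 * r) (v + 2 * r), |X1 p| ≤
      min (4 * r) (s i) * (2 * f i) := by
  have hf : 0 ≤ 2 * f i := by linarith [f0 i]
  set α := max (u - 2 * r) (Q.x i - Q.h1 i) with hα
  set β := min (u + 2 * r) (Q.x i + Q.h1 i) with hβ
  have hsub : Q.op i ∩ Rc (u - 2 * r) (u + 2 * r) (v - 2 * r) (v + 2 * r) ⊆
      Q.op i ∩ (Ioo α β ×ˢ Ioo (v - 2 * r) (v + 2 * r)) := by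
    rintro p ⟨hp1, hp2⟩
    exact ⟨hp1, ⟨max_lt hp2.1.1 hp1.1.1, lt_min hp2.1.2 hp1.1.2⟩, hp2.2⟩
  have hmono : ∫ p in Q.op i ∩ Rc (u - 2 * r) (u + 2 * r) (v - 2 * r) (v + 2 * r), |X1 p| ≤
      ∫ p in Q.op i ∩ (Ioo α β ×ˢ Ioo (v - 2 * r) (v + 2 * r)), |X1 p| := int_mono_set hi hsub
  have hle : β - α ≤ min (4 * r) (s i) := by
    apply le_min
    · linarith [le_max_left (u - 2 * r) (Q.x i - Q.h1 i), min_le_left (u + 2 * r) (Q.x i + Q.h1 i)]
    · linarith [le_max_right (u - 2 * r) (Q.x i - Q.h1 i), min_le_right (u + 2 * r) (Q.x i + Q.h1 i),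
        w1 i]
  rcases le_or_gt α β with h | h
  · refine hmono.trans ((F.x i α β _ _ h (by linarith)).trans ?_)
    exact mul_le_mul_of_nonneg_right hle hf
  · have hemp : Q.op i ∩ (Ioo α β ×ˢ Ioo (v - 2 * r) (v + 2 * r)) = ∅ := by
      rw [Ioo_eq_empty (not_lt.mpr h.le)]; simp
    rw [hemp] at hmono
    simp only [Measure.restrict_empty, integral_zero_measure] at hmono
    refine hmono.trans (mul_nonneg (le_min (by linarith) ?_) hf)
    linarith [w1 i, Q.p1 i]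

/-- one square, second component -/
theorem term_y (F : Flux3 Q X1 X2 f) (f0 : ∀ i, 0 ≤ f i) {s : ι → ℝ} (w2 : ∀ i, 2 * Q.h2 i ≤ s i)
    (i : ι) (hi : Integrable X2 (volume : Measure (ℝ × ℝ))) {u v r : ℝ} (hr : 0 < r) :
    ∫ p in Q.op i ∩ Rc (u - 2 * r) (u + 2 * r) (v - 2 * r) (v + 2 * r), |X2 p| ≤
      min (4 * r) (s i) * (2 * f i) := by
  have hf : 0 ≤ 2 * f i := by linarith [f0 i]
  set α := max (v - 2 * r) (Q.y i - Q.h2 i) with hα
  set β := min (v + 2 * r) (Q.y i + Q.h2 i) with hβ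
  have hsub : Q.op i ∩ Rc (u - 2 * r) (u + 2 * r) (v - 2 * r) (v + 2 * r) ⊆
      Q.op i ∩ (Ioo (u - 2 * r) (u + 2 * r) ×ˢ Ioo α β) := by
    rintro p ⟨hp1, hp2⟩
    exact ⟨hp1, hp2.1, ⟨max_lt hp2.2.1 hp1.2.1, lt_min hp2.2.2 hp1.2.2⟩⟩
  have hmono : ∫ p in Q.op i ∩ Rc (u - 2 * r) (u + 2 * r) (v - 2 * r) (v + 2 * r), |X2 p| ≤
      ∫ p in Q.op i ∩ (Ioo (u - 2 * r) (u + 2 * r) ×ˢ Ioo α β), |X2 p| := int_mono_set hi hsub
  have hle : β - α ≤ min (4 * r) (s i) := by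
    apply le_min
    · linarith [le_max_left (v - 2 * r) (Q.y i - Q.h2 i), min_le_left (v + 2 * r) (Q.y i + Q.h2 i)]
    · linarith [le_max_right (v - 2 * r) (Q.y i - Q.h2 i), min_le_right (v + 2 * r) (Q.y i + Q.h2 i),
        w2 i]
  rcases le_or_gt α β with h | h
  · refine hmono.trans ((F.y i _ _ α β (by linarith) h).trans ?_)
    exact mul_le_mul_of_nonneg_right hle hf
  · have hemp : Q.op i ∩ (Ioo (u - 2 * r) (u + 2 * r) ×ˢ Ioo α β) = ∅ := by
      rw [Ioo_eq_empty (not_lt.mpr h.le)]; simp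
    rw [hemp] at hmono
    simp only [Measure.restrict_empty, integral_zero_measure] at hmono
    refine hmono.trans (mul_nonneg (le_min (by linarith) ?_) hf)
    linarith [w2 i, Q.p2 i]

/-- finitely many squares -/
theorem fin_sum {s : ι → ℝ} {q : ι → ℝ × ℝ} (P : Pack Q s q) {u v r : ℝ}
    (hr : 0 < r) (T : Finset ι) (g : ι → ℝ)
    (hg : ∀ i ∈ T, g i ≤ min (4 * r) (s i) * (2 * f i))
    (hg0 : ∀ i ∈ T, ¬ (Q.op i ∩ Rc (u - 2 * r) (u + 2 * r) (v - 2 * r) (v + 2 * r)).Nonempty →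
      g i = 0) :
    ∑ i ∈ T, g i ≤ 24 * r * Real.sqrt (∑ i ∈ T, f i ^ 2) := by
  classical
  set T' := T.filter (fun i =>
    (Q.op i ∩ Rc (u - 2 * r) (u + 2 * r) (v - 2 * r) (v + 2 * r)).Nonempty) with hT'
  have h1 : ∑ i ∈ T, g i = ∑ i ∈ T', g i := by
    rw [hT', Finset.sum_filter]
    apply Finset.sum_congr rfl
    intro i hi
    split_ifs with h
    · rfl
    · exact hg0 i hi h
  have h2 : ∑ i ∈ T', g i ≤ ∑ i ∈ T', min (4 * r) (s i) * (2 * f i) :=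
    Finset.sum_le_sum fun i hi => hg i (Finset.mem_filter.mp hi).1
  have h3 : ∑ i ∈ T', (min (4 * r) (s i)) ^ 2 ≤ 144 * r ^ 2 :=
    pack_sum P hr T' (fun i hi => (Finset.mem_filter.mp hi).2)
  have h4 : ∑ i ∈ T', (2 * f i) ^ 2 ≤ 4 * ∑ i ∈ T, f i ^ 2 := by
    rw [Finset.mul_sum]
    refine (Finset.sum_le_sum_of_subset_of_nonneg (Finset.filter_subset _ _)
      (fun i _ _ => sq_nonneg _)).trans (le_of_eq ?_)
    apply Finset.sum_congr rfl
    intro i _; ring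
  have h5 := Finset.sum_mul_sq_le_sq_mul_sq T' (fun i => min (4 * r) (s i)) (fun i => 2 * f i)
  rw [h1]
  refine h2.trans ?_
  have hf2 : 0 ≤ ∑ i ∈ T, f i ^ 2 := Finset.sum_nonneg fun i _ => sq_nonneg _
  apply le_of_sq_le_sq _ (by positivity)
  refine h5.trans ?_
  rw [mul_pow, mul_pow, Real.sq_sqrt hf2]
  calc (∑ i ∈ T', (min (4 * r) (s i)) ^ 2) * ∑ i ∈ T', (2 * f i) ^ 2
      ≤ (144 * r ^ 2) * (4 * ∑ i ∈ T, f i ^ 2) :=
        mul_le_mul h3 h4 (Finset.sum_nonneg fun i _ => sq_nonneg _) (by positivity)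
    _ = 24 ^ 2 * r ^ 2 * ∑ i ∈ T, f i ^ 2 := by ring

/-- **the averages tend to zero** (abstract form, one component) -/
theorem avg_lim [Countable ι] {s : ι → ℝ} {q : ι → ℝ × ℝ} (P : Pack Q s q)
    (fs : Summable fun i => f i ^ 2) (hX : Integrable X (volume : Measure (ℝ × ℝ)))
    (hV : MemLp X 2 (volume.restrict (Q.un ∪ S)ᶜ)) (hmS : MeasurableSet S)
    (hdis : Pairwise (fun i j => Disjoint (Q.op i) (Q.op j))) {u v : ℝ}
    (hterm : ∀ i, ∀ r, 0 < r →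
      ∫ p in Q.op i ∩ Rc (u - 2 * r) (u + 2 * r) (v - 2 * r) (v + 2 * r), |X p| ≤
        min (4 * r) (s i) * (2 * f i))
    (hS : ∃ r0, 0 < r0 ∧ volume (S ∩ Rc (u - 2 * r0) (u + 2 * r0) (v - 2 * r0) (v + 2 * r0)) = 0)
    (hloc : ∀ i, Tendsto (fun r : ℝ => r⁻¹ *
      ∫ p in Q.op i ∩ Rc (u - 2 * r) (u + 2 * r) (v - 2 * r) (v + 2 * r), |X p|) (𝓝[>] 0) (𝓝 0)) :
    Tendsto (fun r : ℝ => r⁻¹ * ∫ p in Rc (u - 2 * r) (u + 2 * r) (v - 2 * r) (v + 2 * r), |X p|)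
      (𝓝[>] 0) (𝓝 0) := by
  set K : ℝ → Set (ℝ × ℝ) := fun r => Rc (u - 2 * r) (u + 2 * r) (v - 2 * r) (v + 2 * r) with hK
  set Y : ℝ × ℝ → ℝ := (Q.un ∪ S)ᶜ.indicator X with hY
  have hmc : MeasurableSet (Q.un ∪ S)ᶜ := (Q.measurableSet_un.union hmS).compl
  have hY2 : MemLp Y 2 (volume : Measure (ℝ × ℝ)) := (memLp_indicator_iff_restrict hmc).mpr hV
  have hEn := Psi_425.tendsto_energy hY2 u v
  obtain ⟨r0, hr0, hS0⟩ := hS
  -- estimate
  rw [Metric.tendsto_nhds]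
  intro ε hε
  have hδ : 0 < (ε / 100) ^ 2 := by positivity
  obtain ⟨F, hF⟩ := (summable_iff_vanishing_norm.mp fs) ((ε / 100) ^ 2) hδ
  have hN : 0 < ε / (4 * ((F.card : ℝ) + 1)) := by positivity
  have hFev : ∀ᶠ r : ℝ in 𝓝[>] 0, ∀ i ∈ F, r⁻¹ * ∫ p in Q.op i ∩ K r, |X p| <
      ε / (4 * ((F.card : ℝ) + 1)) := by
    rw [Finset.eventually_all]
    intro i _
    have := (tendsto_order.1 (hloc i)).2 _ hN
    exact this
  have hEnev : ∀ᶠ r : ℝ in 𝓝[>] 0, Real.sqrt (∫ p in K r, Y p ^ 2) < ε / 16 :=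
    (tendsto_order.1 hEn).2 _ (by positivity)
  have hr0ev : ∀ᶠ r : ℝ in 𝓝[>] 0, r < r0 := by
    filter_upwards [Ioo_mem_nhdsGT hr0] with r hr using hr.2
  filter_upwards [hFev, hEnev, hr0ev, self_mem_nhdsWithin] with r h1 h2 h3 hr
  have hr' : 0 < r := hr
  have hri : 0 < r⁻¹ := inv_pos.mpr hr'
  have hmK : MeasurableSet (K r) := measurableSet_Rc _ _ _ _
  have hSK : volume (S ∩ K r) = 0 := by
    refine measure_mono_null (inter_subset_inter_right _ ?_) hS0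
    intro p hp
    exact ⟨⟨by linarith [hp.1.1], by linarith [hp.1.2]⟩, by linarith [hp.2.1], by linarith [hp.2.2]⟩
  -- splitting of the integral
  have hsplit : ∫ p in K r, |X p| = (∫ p in K r ∩ Q.un, |X p|) + ∫ p in K r \ Q.un, |X p| :=
    (integral_inter_add_sdiff Q.measurableSet_un hX.abs.integrableOn).symm
  have hVpart : ∫ p in K r \ Q.un, |X p| ≤ 4 * r * (ε / 16) := by
    have e1 : ∫ p in K r \ Q.un, |X p| = ∫ p in K r, |Y p| := by
      have e2 : ∫ p in K r, |Y p| = ∫ p in K r ∩ (Q.un ∪ S)ᶜ, |X p| := by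
        have : ∀ p, |Y p| = (Q.un ∪ S)ᶜ.indicator (fun p => |X p|) p := by
          intro p
          simp only [hY]
          by_cases hp : p ∈ (Q.un ∪ S)ᶜ
          · rw [indicator_of_mem hp, indicator_of_mem hp]
          · rw [indicator_of_notMem hp, indicator_of_notMem hp, abs_zero]
        simp_rw [this]
        rw [setIntegral_indicator hmc]
      rw [e2]
      apply setIntegral_eq_of_subset_of_ae_sdiff_eq_zero (hmK.diff Q.measurableSet_un).nullMeasurableSet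
      · rintro p ⟨hp1, hp2⟩
        exact ⟨hp1, fun h => hp2 (Or.inl h)⟩
      · have hnull : ∀ᵐ p : ℝ × ℝ, p ∉ S ∩ K r := measure_eq_zero_iff_ae_notMem.mp hSK
        filter_upwards [hnull] with p hp hpd
        exfalso
        apply hpd.2
        refine ⟨hpd.1.1, fun h => h.elim hpd.1.2 (fun hs => hp ⟨hs, hpd.1.1⟩)⟩
    rw [e1]
    have hvolK : volume (K r) = ENNReal.ofReal ((4 * r) ^ 2) := by
      simp only [hK, Rc]
      rw [Measure.volume_eq_prod, Measure.prod_prod, Real.volume_Ioo, Real.volume_Ioo,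
        ← ENNReal.ofReal_mul (by linarith)]
      congr 1; ring
    have hcs := cs_line (hY2.restrict (K r)) (by rw [hvolK]; exact ENNReal.ofReal_ne_top)
    rw [hvolK, ENNReal.toReal_ofReal (by positivity), Real.sqrt_sq (by positivity)] at hcs
    exact hcs.trans (mul_le_mul_of_nonneg_left h2.le (by positivity))
  have hQpart : ∫ p in K r ∩ Q.un, |X p| ≤ r * (ε / 4) + 24 * r * (ε / 100) := by
    have hunion : K r ∩ Q.un = ⋃ i, (Q.op i ∩ K r) := by
      rw [Rects.un, inter_iUnion]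
      congr 1; ext i p; simp only [mem_inter_iff]; tauto
    have hsum : HasSum (fun i => ∫ p in Q.op i ∩ K r, |X p|) (∫ p in K r ∩ Q.un, |X p|) := by
      rw [hunion]
      apply hasSum_integral_iUnion (fun i => (Q.measurableSet_op i).inter hmK)
      · intro i j hij
        exact (hdis hij).mono inter_subset_left inter_subset_left
      · exact hX.abs.integrableOn
    classical
    refine hasSum_le_of_sum_le hsum fun T => ?_
    have e1 : ∑ i ∈ T, ∫ p in Q.op i ∩ K r, |X p| =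
        (∑ i ∈ T.filter (fun i => i ∈ F), ∫ p in Q.op i ∩ K r, |X p|) +
          ∑ i ∈ T.filter (fun i => i ∉ F), ∫ p in Q.op i ∩ K r, |X p| :=
      (Finset.sum_filter_add_sum_filter_not T _ _).symm
    rw [e1]
    apply add_le_add
    · have e2 : ∑ i ∈ T.filter (fun i => i ∈ F), ∫ p in Q.op i ∩ K r, |X p| ≤
          ∑ i ∈ F, ∫ p in Q.op i ∩ K r, |X p| := by
        apply Finset.sum_le_sum_of_subset_of_nonneg
        · intro i hi; exact (Finset.mem_filter.mp hi).2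
        · intro i _ _; exact integral_nonneg fun _ => abs_nonneg _
      refine e2.trans ?_
      have e3 : ∑ i ∈ F, ∫ p in Q.op i ∩ K r, |X p| ≤
          ∑ i ∈ F, r * (ε / (4 * ((F.card : ℝ) + 1))) := by
        apply Finset.sum_le_sum
        intro i hi
        have := (h1 i hi).le
        calc ∫ p in Q.op i ∩ K r, |X p| = r * (r⁻¹ * ∫ p in Q.op i ∩ K r, |X p|) := by
              rw [← mul_assoc, mul_inv_cancel₀ hr'.ne', one_mul]
          _ ≤ _ := mul_le_mul_of_nonneg_left this hr'.le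
      refine e3.trans ?_
      rw [Finset.sum_const, nsmul_eq_mul]
      have hc : (0 : ℝ) ≤ F.card := Nat.cast_nonneg _
      have e4 : (F.card : ℝ) * (ε / (4 * ((F.card : ℝ) + 1))) ≤ ε / 4 := by
        rw [mul_div_assoc', div_le_div_iff₀ (by positivity) (by norm_num)]
        nlinarith
      calc (F.card : ℝ) * (r * (ε / (4 * ((F.card : ℝ) + 1)))) =
            r * ((F.card : ℝ) * (ε / (4 * ((F.card : ℝ) + 1)))) := by ring
        _ ≤ r * (ε / 4) := mul_le_mul_of_nonneg_left e4 hr'.le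
    · have e5 := fin_sum P (u := u) (v := v) hr' (T.filter (fun i => i ∉ F))
        (fun i => ∫ p in Q.op i ∩ K r, |X p|) (fun i _ => hterm i r hr') (fun i _ hne => by
          have : Q.op i ∩ K r = ∅ := not_nonempty_iff_eq_empty.mp hne
          simp [this])
      refine e5.trans ?_
      apply mul_le_mul_of_nonneg_left _ (by positivity)
      have e6 := hF (T.filter (fun i => i ∉ F)) (by
        rw [Finset.disjoint_left]
        intro i hi
        exact (Finset.mem_filter.mp hi).2)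
      rw [Real.norm_eq_abs] at e6
      have e7 := (le_abs_self _).trans e6.le
      calc Real.sqrt (∑ i ∈ T.filter (fun i => i ∉ F), f i ^ 2) ≤ Real.sqrt ((ε / 100) ^ 2) :=
            Real.sqrt_le_sqrt e7
        _ = ε / 100 := Real.sqrt_sq (by positivity)
  rw [Real.dist_eq, sub_zero, abs_of_nonneg (mul_nonneg hri.le (integral_nonneg fun _ => abs_nonneg _))]
  show r⁻¹ * ∫ p in K r, |X p| < ε
  rw [hsplit]
  have hfin : r⁻¹ * ((∫ p in K r ∩ Q.un, |X p|) + (∫ p in K r \ Q.un, |X p|)) ≤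
      r⁻¹ * (r * (ε / 4) + 24 * r * (ε / 100) + 4 * r * (ε / 16)) :=
    mul_le_mul_of_nonneg_left (by linarith) hri.le
  have heq : r⁻¹ * (r * (ε / 4) + 24 * r * (ε / 100) + 4 * r * (ε / 16)) = ε * (74 / 100) := by
    field_simp; ring
  have hle : r⁻¹ * (∫ p in K r ∩ Q.un, |X p|) + r⁻¹ * ∫ p in K r \ Q.un, |X p| ≤ ε * (74 / 100) := by
    rw [← mul_add]; exact hfin.trans heq.le
  rw [mul_add]
  linarith

end Crest.Agent.R105.Sq_87
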