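import Crest.Agent.R105.SqP_87

/-! Row 105, S0138, exact squares, leaf (W) of helper87 #10566 (helper832): oscillation of the
stream function over a charged square.

`F3H` : the flux of the field through every sub-rectangle of a charged square.
`hosc` / `vosc` : a.e. horizontal / vertical line of the open square, oscillation `≤ 2 f i`.
`oscQ_lines` : `oscQ` with the two good horizontal lines.
`sqosc` : the values of `ψ` off the squares at two points of the closed square differ by `≤ 4 f i`. -/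

open MeasureTheory Set Filter Topology
open scoped NNReal

namespace Crest.Agent.R105.SqW_832

open Crest.Agent.R105.Sq_87
open Crest.Agent.R105.Mp_87 (lam lam_mono Rc measurableSet_Rc restrict_Rc hline vline wx wy ae_swap
  ae_x_of_ae ae_y_of_ae ii_mono tendsto_integral_mul PXh abs_ii_le setIntegral_swap)
open Crest.Agent.R105.CF_363 (gx gy SL cut Hair measurable_gx measurable_gy gx_congr gy_congr
  gx_eq_deriv gy_eq_deriv isOpen_diff_cut volume_cut green_hairs)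

variable {ι : Type} {Q : Rects ι} {S : Set (ℝ × ℝ)}
variable {a b c B σ : ℝ} {X1 X2 ψ Ψ : ℝ × ℝ → ℝ} {μ : Measure (ℝ × ℝ)} {f : ι → ℝ}

/-- the flux of the field through the sub-rectangles of the charged squares -/
structure F3H (Q : Rects ι) (X1 X2 : ℝ × ℝ → ℝ) (f : ι → ℝ) : Prop where
  F31 : ∀ i, ∀ a' b' c' d' : ℝ, a' ≤ b' →
    ∫ p in Q.op i ∩ Ioo a' b' ×ˢ Ioo c' d', |X1 p| ≤ (b' - a') * (2 * f i)
  F32 : ∀ i, ∀ a' b' c' d' : ℝ, c' ≤ d' →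
    ∫ p in Q.op i ∩ Ioo a' b' ×ˢ Ioo c' d', |X2 p| ≤ (d' - c') * (2 * f i)

/-- a function whose integrals over all intervals are `≤ M · length` is `≤ M` a.e. -/
theorem ae_le_of_intervals {g : ℝ → ℝ} {α β M : ℝ} (hg : IntegrableOn g (Ioo α β))
    (h : ∀ c' d', α ≤ c' → c' ≤ d' → d' ≤ β → ∫ t in Ioo c' d', g t ≤ (d' - c') * M) :
    ∀ᵐ t, t ∈ Ioo α β → g t ≤ M := by
  rcases le_or_gt β α with hle | hlt
  · filter_upwards with t ht
    exact absurd (ht.1.trans ht.2) (not_lt.2 hle)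
  have hii : IntervalIntegrable g volume α β := by
    rw [intervalIntegrable_iff_integrableOn_Ioo_of_le hlt.le]; exact hg
  filter_upwards [hii.ae_hasDerivAt_integral] with t ht htI
  have htu : t ∈ uIcc α β := by rw [uIcc_of_le hlt.le]; exact ⟨htI.1.le, htI.2.le⟩
  have hαu : α ∈ uIcc α β := left_mem_uIcc
  have hd := ht htu α hαu
  rw [hasDerivAt_iff_tendsto_slope] at hd
  have hd' : Tendsto (slope (fun x => ∫ s in α..x, g s) t) (𝓝[>] t) (𝓝 (g t)) :=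
    hd.mono_left (nhdsWithin_mono _ fun x hx => (ne_of_gt hx))
  refine le_of_tendsto hd' ?_
  filter_upwards [Ioo_mem_nhdsGT htI.2] with x hx
  have h1 : IntervalIntegrable g volume α t := hii.mono_set (by
    rw [uIcc_of_le hlt.le, uIcc_of_le htI.1.le]; exact Icc_subset_Icc_right htI.2.le)
  have h2 : IntervalIntegrable g volume α x := hii.mono_set (by
    rw [uIcc_of_le hlt.le, uIcc_of_le (htI.1.le.trans hx.1.le)]; exact Icc_subset_Icc_right hx.2.le)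
  rw [slope_def_field, intervalIntegral.integral_interval_sub_left h2 h1,
    intervalIntegral.integral_of_le hx.1.le, integral_Ioc_eq_integral_Ioo,
    div_le_iff₀ (by linarith [hx.1])]
  have := h t x htI.1.le hx.1.le hx.2.le
  linarith

/-- a.e. horizontal line -/
theorem hflux (hX : Integrable X2 (volume : Measure (ℝ × ℝ))) (F : F3H Q X1 X2 f) (i : ι) :
    ∀ᵐ t, t ∈ Ioo (Q.y i - Q.h2 i) (Q.y i + Q.h2 i) →
      ∫ s in Ioo (Q.x i - Q.h1 i) (Q.x i + Q.h1 i), |X2 (s, t)| ≤ 2 * f i := by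
  have hfub : ∀ γ δ : ℝ, ∫ p in Rc (Q.x i - Q.h1 i) (Q.x i + Q.h1 i) γ δ, |X2 p| =
      ∫ t in Ioo γ δ, ∫ s in Ioo (Q.x i - Q.h1 i) (Q.x i + Q.h1 i), |X2 (s, t)| := by
    intro γ δ
    have hint : Integrable (fun p => |X2 p|)
        ((volume : Measure (ℝ × ℝ)).restrict (Rc (Q.x i - Q.h1 i) (Q.x i + Q.h1 i) γ δ)) :=
      hX.abs.restrict
    rw [restrict_Rc] at hint ⊢
    exact integral_prod_symm _ hint
  have hint2 : Integrable (fun t => ∫ s in Ioo (Q.x i - Q.h1 i) (Q.x i + Q.h1 i), |X2 (s, t)|)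
      ((volume : Measure ℝ).restrict (Ioo (Q.y i - Q.h2 i) (Q.y i + Q.h2 i))) := by
    have hint : Integrable (fun p => |X2 p|)
        ((volume : Measure (ℝ × ℝ)).restrict (Rc (Q.x i - Q.h1 i) (Q.x i + Q.h1 i)
          (Q.y i - Q.h2 i) (Q.y i + Q.h2 i))) := hX.abs.restrict
    rw [restrict_Rc] at hint
    exact hint.integral_prod_right
  refine ae_le_of_intervals hint2 fun c' d' h1 h2 h3 => ?_
  rw [← hfub]
  have hset : Rc (Q.x i - Q.h1 i) (Q.x i + Q.h1 i) c' d' =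
      Q.op i ∩ Ioo (Q.x i - Q.h1 i) (Q.x i + Q.h1 i) ×ˢ Ioo c' d' := by
    ext p
    simp only [Rc, Rects.op, mem_inter_iff, mem_prod, mem_Ioo]
    constructor
    · rintro ⟨⟨e1, e2⟩, e3, e4⟩
      exact ⟨⟨⟨e1, e2⟩, by linarith, by linarith⟩, ⟨e1, e2⟩, e3, e4⟩
    · rintro ⟨-, h⟩
      exact h
  rw [hset]
  exact F.F32 i _ _ c' d' h2

/-- a.e. vertical line -/
theorem vflux (hX : Integrable X1 (volume : Measure (ℝ × ℝ))) (F : F3H Q X1 X2 f) (i : ι) :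
    ∀ᵐ s, s ∈ Ioo (Q.x i - Q.h1 i) (Q.x i + Q.h1 i) →
      ∫ t in Ioo (Q.y i - Q.h2 i) (Q.y i + Q.h2 i), |X1 (s, t)| ≤ 2 * f i := by
  have hfub : ∀ γ δ : ℝ, ∫ p in Rc γ δ (Q.y i - Q.h2 i) (Q.y i + Q.h2 i), |X1 p| =
      ∫ s in Ioo γ δ, ∫ t in Ioo (Q.y i - Q.h2 i) (Q.y i + Q.h2 i), |X1 (s, t)| := by
    intro γ δ
    have hint : Integrable (fun p => |X1 p|)
        ((volume : Measure (ℝ × ℝ)).restrict (Rc γ δ (Q.y i - Q.h2 i) (Q.y i + Q.h2 i))) :=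
      hX.abs.restrict
    rw [restrict_Rc] at hint ⊢
    exact integral_prod _ hint
  have hint2 : Integrable (fun s => ∫ t in Ioo (Q.y i - Q.h2 i) (Q.y i + Q.h2 i), |X1 (s, t)|)
      ((volume : Measure ℝ).restrict (Ioo (Q.x i - Q.h1 i) (Q.x i + Q.h1 i))) := by
    have hint : Integrable (fun p => |X1 p|)
        ((volume : Measure (ℝ × ℝ)).restrict (Rc (Q.x i - Q.h1 i) (Q.x i + Q.h1 i)
          (Q.y i - Q.h2 i) (Q.y i + Q.h2 i))) := hX.abs.restrict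
    rw [restrict_Rc] at hint
    exact hint.integral_prod_left
  refine ae_le_of_intervals hint2 fun c' d' h1 h2 h3 => ?_
  rw [← hfub]
  have hset : Rc c' d' (Q.y i - Q.h2 i) (Q.y i + Q.h2 i) =
      Q.op i ∩ Ioo c' d' ×ˢ Ioo (Q.y i - Q.h2 i) (Q.y i + Q.h2 i) := by
    ext p
    simp only [Rc, Rects.op, mem_inter_iff, mem_prod, mem_Ioo]
    constructor
    · rintro ⟨⟨e1, e2⟩, e3, e4⟩
      exact ⟨⟨⟨by linarith, by linarith⟩, e3, e4⟩, ⟨e1, e2⟩, e3, e4⟩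
    · rintro ⟨-, h⟩
      exact h
  rw [hset]
  exact F.F31 i c' d' _ _ h2

/-- integral over a subinterval -/
theorem abs_ii_le' {g : ℝ → ℝ} {γ δ y y' : ℝ} (hg : ∀ y y', IntervalIntegrable g volume y y')
    (hγ : γ ≤ y) (hyy' : y ≤ y') (hδ : y' ≤ δ) :
    |∫ t in y..y', g t| ≤ ∫ t in Ioo γ δ, |g t| := by
  refine (intervalIntegral.abs_integral_le_integral_abs hyy').trans ?_
  rw [intervalIntegral.integral_of_le hyy', integral_Ioc_eq_integral_Ioo]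
  have hint : IntegrableOn (fun t => |g t|) (Ioo γ δ) := by
    have := (hg γ δ).abs
    rw [intervalIntegrable_iff_integrableOn_Ioo_of_le (by linarith)] at this
    exact this
  exact setIntegral_mono_set hint (Eventually.of_forall fun t => abs_nonneg _)
    (Ioo_subset_Ioo hγ hδ).eventuallyLE

/-- oscillation along a good horizontal line -/
theorem goodY_osc {t : ℝ} (G : GoodY a b σ X2 μ ψ Ψ t) {s s' α β M : ℝ} (hs : s ∈ Ioo a b)
    (hs' : s' ∈ Ioo a b) (hss : s ≤ s') (h0 : μ {q | q.1 ∈ Ico s s' ∧ q.2 < t} = 0)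
    (hα : α ≤ s) (hβ : s' ≤ β) (hM : ∫ r in Ioo α β, |X2 (r, t)| ≤ M) :
    |Ψ (s', t) - Ψ (s, t)| ≤ M := by
  rw [G.H s hs s' hs' hss, h0, ENNReal.toReal_zero, mul_zero, sub_zero, abs_neg]
  exact (abs_ii_le' G.int hα hss hβ).trans hM

/-- oscillation along a good vertical line -/
theorem goodX_osc {s : ℝ} (G : GoodX a b c X1 ψ Ψ s) {t t' α β M : ℝ} (ht : c < t)
    (htt : t ≤ t') (hα : α ≤ t) (hβ : t' ≤ β) (hM : ∫ r in Ioo α β, |X1 (s, r)| ≤ M) :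
    |ψ (s, t') - ψ (s, t)| ≤ M := by
  rw [G.V t t' ht htt]
  exact (abs_ii_le' G.int hα htt hβ).trans hM

theorem mem_box (D : SqData Q S a b c B X1 X2 μ f) {i : ι} {s t : ℝ}
    (hs : s ∈ Ioo (Q.x i - Q.h1 i) (Q.x i + Q.h1 i))
    (ht : t ∈ Ioo (Q.y i - Q.h2 i) (Q.y i + Q.h2 i)) : s ∈ Ioo a b ∧ t ∈ Ioo c B := by
  have : (s, t) ∈ Ioo a b ×ˢ Ioo c B := D.box i ⟨hs, ht⟩
  exact ⟨this.1, this.2⟩

theorem memx (Q : Rects ι) (i : ι) : Q.x i ∈ Ioo (Q.x i - Q.h1 i) (Q.x i + Q.h1 i) :=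
  ⟨by linarith [Q.p1 i], by linarith [Q.p1 i]⟩

theorem memy (Q : Rects ι) (i : ι) : Q.y i ∈ Ioo (Q.y i - Q.h2 i) (Q.y i + Q.h2 i) :=
  ⟨by linarith [Q.p2 i], by linarith [Q.p2 i]⟩

/-- **horizontal oscillation over a charged square**, open version -/
theorem hosc (L : LinesI a b c B σ X1 X2 μ ψ Ψ) (D : SqData Q S a b c B X1 X2 μ f)
    (F : F3H Q X1 X2 f) (i : ι) :
    ∀ᵐ t, t ∈ Ioo (Q.y i - Q.h2 i) (Q.y i + Q.h2 i) →
      ∀ s ∈ Ioo (Q.x i - Q.h1 i) (Q.x i + Q.h1 i), ∀ s' ∈ Ioo (Q.x i - Q.h1 i) (Q.x i + Q.h1 i),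
        |Ψ (s', t) - Ψ (s, t)| ≤ 2 * f i := by
  filter_upwards [L.goodY, hflux L.L2 F i] with t h1 h2 ht
  have hG := h1 (mem_box D (memx Q i) ht).2.1
  have key : ∀ s ∈ Ioo (Q.x i - Q.h1 i) (Q.x i + Q.h1 i),
      ∀ s' ∈ Ioo (Q.x i - Q.h1 i) (Q.x i + Q.h1 i), s ≤ s' →
        |Ψ (s', t) - Ψ (s, t)| ≤ 2 * f i := by
    intro s hs s' hs' hss
    refine goodY_osc hG (mem_box D hs ht).1 (mem_box D hs' ht).1 hss ?_ hs.1.le hs'.2.le (h2 ht)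
    refine measure_mono_null ?_ (D.nomass i)
    rintro q ⟨h3, h4⟩
    exact ⟨⟨hs.1.trans_le h3.1, h3.2.trans hs'.2⟩, h4.trans ht.2⟩
  intro s hs s' hs'
  rcases le_total s s' with h | h
  · exact key s hs s' hs' h
  · rw [abs_sub_comm]; exact key s' hs' s hs h

/-- **vertical oscillation over a charged square**, open version -/
theorem vosc (L : LinesI a b c B σ X1 X2 μ ψ Ψ) (D : SqData Q S a b c B X1 X2 μ f)
    (F : F3H Q X1 X2 f) (i : ι) :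
    ∀ᵐ s, s ∈ Ioo (Q.x i - Q.h1 i) (Q.x i + Q.h1 i) →
      ∀ t ∈ Ioo (Q.y i - Q.h2 i) (Q.y i + Q.h2 i), ∀ t' ∈ Ioo (Q.y i - Q.h2 i) (Q.y i + Q.h2 i),
        |ψ (s, t') - ψ (s, t)| ≤ 2 * f i := by
  filter_upwards [L.goodX, vflux L.L1 F i] with s h1 h2 hs
  have hG := h1 (mem_box D hs (memy Q i)).1
  have key : ∀ t ∈ Ioo (Q.y i - Q.h2 i) (Q.y i + Q.h2 i),
      ∀ t' ∈ Ioo (Q.y i - Q.h2 i) (Q.y i + Q.h2 i), t ≤ t' →
        |ψ (s, t') - ψ (s, t)| ≤ 2 * f i := by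
    intro t ht t' ht' htt
    exact goodX_osc hG (mem_box D hs ht).2.1 htt ht.1.le ht'.2.le (h2 hs)
  intro t ht t' ht'
  rcases le_total t t' with h | h
  · exact key t ht t' ht' h
  · rw [abs_sub_comm]; exact key t' ht' t ht h

/-- **horizontal oscillation over a charged square**, closed version -/
theorem hosc_closed (L : LinesI a b c B σ X1 X2 μ ψ Ψ) (D : SqData Q S a b c B X1 X2 μ f)
    (F : F3H Q X1 X2 f) (i : ι) (ha : a < Q.x i - Q.h1 i) (hb : Q.x i + Q.h1 i < b)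
    (nm : μ {q | q.1 ∈ Icc (Q.x i - Q.h1 i) (Q.x i + Q.h1 i) ∧ q.2 < Q.y i + Q.h2 i} = 0) :
    ∀ᵐ t, t ∈ Ioo (Q.y i - Q.h2 i) (Q.y i + Q.h2 i) →
      ∀ s ∈ Icc (Q.x i - Q.h1 i) (Q.x i + Q.h1 i), ∀ s' ∈ Icc (Q.x i - Q.h1 i) (Q.x i + Q.h1 i),
        |Ψ (s', t) - Ψ (s, t)| ≤ 2 * f i := by
  filter_upwards [L.goodY, hflux L.L2 F i] with t h1 h2 ht
  have hG := h1 (mem_box D (memx Q i) ht).2.1
  have hm : ∀ s ∈ Icc (Q.x i - Q.h1 i) (Q.x i + Q.h1 i), s ∈ Ioo a b := fun s hs =>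
    ⟨ha.trans_le hs.1, hs.2.trans_lt hb⟩
  have key : ∀ s ∈ Icc (Q.x i - Q.h1 i) (Q.x i + Q.h1 i),
      ∀ s' ∈ Icc (Q.x i - Q.h1 i) (Q.x i + Q.h1 i), s ≤ s' →
        |Ψ (s', t) - Ψ (s, t)| ≤ 2 * f i := by
    intro s hs s' hs' hss
    refine goodY_osc hG (hm s hs) (hm s' hs') hss ?_ hs.1 hs'.2 (h2 ht)
    refine measure_mono_null ?_ nm
    rintro q ⟨h3, h4⟩
    exact ⟨⟨hs.1.trans h3.1, h3.2.le.trans hs'.2⟩, h4.trans ht.2⟩
  intro s hs s' hs'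
  rcases le_total s s' with h | h
  · exact key s hs s' hs' h
  · rw [abs_sub_comm]; exact key s' hs' s hs h

/-- **vertical oscillation over a charged square**, closed version -/
theorem vosc_closed (L : LinesI a b c B σ X1 X2 μ ψ Ψ) (D : SqData Q S a b c B X1 X2 μ f)
    (F : F3H Q X1 X2 f) (i : ι) (hc : c < Q.y i - Q.h2 i) :
    ∀ᵐ s, s ∈ Ioo (Q.x i - Q.h1 i) (Q.x i + Q.h1 i) →
      ∀ t ∈ Icc (Q.y i - Q.h2 i) (Q.y i + Q.h2 i), ∀ t' ∈ Icc (Q.y i - Q.h2 i) (Q.y i + Q.h2 i),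
        |ψ (s, t') - ψ (s, t)| ≤ 2 * f i := by
  filter_upwards [L.goodX, vflux L.L1 F i] with s h1 h2 hs
  have hG := h1 (mem_box D hs (memy Q i)).1
  have key : ∀ t ∈ Icc (Q.y i - Q.h2 i) (Q.y i + Q.h2 i),
      ∀ t' ∈ Icc (Q.y i - Q.h2 i) (Q.y i + Q.h2 i), t ≤ t' →
        |ψ (s, t') - ψ (s, t)| ≤ 2 * f i := by
    intro t ht t' ht' htt
    exact goodX_osc hG (hc.trans_le ht.1) htt ht.1 ht'.2 (h2 hs)
  intro t ht t' ht'
  rcases le_total t t' with h | h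
  · exact key t ht t' ht' h
  · rw [abs_sub_comm]; exact key t' ht' t ht h

/-- the error of the oscillation estimate -/
noncomputable def errQ (X1 X2 : ℝ × ℝ → ℝ) (μ : Measure (ℝ × ℝ)) (u v r : ℝ) : ℝ :=
  r⁻¹ * (∫ p in Rc (u - 2 * r) (u + 2 * r) (v - 2 * r) (v + 2 * r), |X1 p|)
    + r⁻¹ * (∫ p in Rc (u - 2 * r) (u + 2 * r) (v - 2 * r) (v + 2 * r), |X2 p|)
    + (μ {q | q.1 ∈ Ico (u - 2 * r) (u + 2 * r) ∧ q.2 < v + 2 * r}).toReal

/-- **Oscillation estimate with squares**, together with two good horizontal lines with a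
prescribed almost sure property. (Proof = helper87's `oscQ`.) -/
theorem oscQ_lines [IsFiniteMeasure μ] [Countable ι] (L : LinesI a b c B σ X1 X2 μ ψ Ψ)
    (hσ : σ = 1 ∨ σ = -1) (D : SqData Q S a b c B X1 X2 μ f)
    {J : ℕ → Finset Hair} {z : ℕ → ℝ × ℝ → ℝ} {κ : Hair → ℝ} {ρ : ℕ → ι → ℝ}
    (A : ApprQ Q S a b c B σ X1 X2 μ Ψ f J z κ ρ)
    {u v r : ℝ} (hr : 0 < r) (ha : a < u - 2 * r) (hb : u + 2 * r < b) (hc : c < v - 2 * r)
    (hat : ∀ x ∈ Icc (u - 2 * r) (u + 2 * r), μ {q | q.1 = x ∧ q.2 < v + 2 * r} = 0)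
    (hav : ∀ n, ∀ K ∈ J n, μ {q | q.1 = K.x ∧ q.2 < K.t} ≠ 0 →
      K.x ∈ Ioo (u - 2 * r) (u + 2 * r) → K.t ≤ v - 2 * r ∨ v + 2 * r ≤ K.b)
    (hS : volume (S ∩ Rc (u - 2 * r) (u + 2 * r) (v - 2 * r) (v + 2 * r)) = 0)
    {P : ℝ → Prop} (hP : ∀ᵐ y, c < y → P y) :
    ∃ m0 : ℝ, (∀ᵐ p : ℝ × ℝ, p ∈ Rc (u - r) (u + r) (v - r) (v + r) → p ∉ Q.un →
      |ψ p - m0| ≤ errQ X1 X2 μ u v r) ∧
      (∃ y0 ∈ Ioo (v - 2 * r) (v - r), GoodY a b σ X2 μ ψ Ψ y0 ∧ P y0 ∧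
        ∀ x ∈ Icc (u - r) (u + r), |Ψ (x, y0) - m0| ≤ errQ X1 X2 μ u v r) ∧
      (∃ y1 ∈ Ioo (v + r) (v + 2 * r), GoodY a b σ X2 μ ψ Ψ y1 ∧ P y1 ∧
        ∀ x ∈ Icc (u - r) (u + r), |Ψ (x, y1) - m0| ≤ errQ X1 X2 μ u v r) := by
  unfold errQ
  have hσa : |σ| = 1 := by rcases hσ with h | h <;> rw [h] <;> simp
  have hσ' : -σ = 1 ∨ -σ = -1 := by
    rcases hσ with h | h
    · right; rw [h]
    · left; rw [h]; norm_num
  set K := Rc (u - 2 * r) (u + 2 * r) (v - 2 * r) (v + 2 * r) with hK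
  set s1 := r⁻¹ * ∫ p in K, |X1 p| with hs1
  set s2 := r⁻¹ * ∫ p in K, |X2 p| with hs2
  set m1 := (μ {q | q.1 ∈ Ico (u - 2 * r) (u + 2 * r) ∧ q.2 < v + 2 * r}).toReal with hm1
  have hri : 0 < r⁻¹ := inv_pos.mpr hr
  have hgy0 := ae_PYq A
  have hsubx : ∀ α, u - 2 * r ≤ α → α + r ≤ u + 2 * r →
      Rc α (α + r) (v - 2 * r) (v + 2 * r) ⊆ K := by
    intro α h1 h2 p hp
    exact ⟨⟨lt_of_le_of_lt h1 hp.1.1, lt_of_lt_of_le hp.1.2 h2⟩, hp.2⟩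
  have hsuby : ∀ α, v - 2 * r ≤ α → α + r ≤ v + 2 * r →
      Rc (u - 2 * r) (u + 2 * r) α (α + r) ⊆ K := by
    intro α h1 h2 p hp
    exact ⟨hp.1, ⟨lt_of_le_of_lt h1 hp.2.1, lt_of_lt_of_le hp.2.2 h2⟩⟩
  obtain ⟨x0, hx0, gx0, A0⟩ := exists_line_xI L.L1 (α := u - 2 * r) (γ := v - 2 * r)
    (δ := v + 2 * r) hr (P := fun x => GoodX a b c X1 ψ Ψ x) (by
      filter_upwards [L.goodX] with x h hx
      exact h ⟨by linarith [hx.1], by linarith [hx.2]⟩)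
  obtain ⟨x1, hx1, gx1, A1⟩ := exists_line_xI L.L1 (α := u + r) (γ := v - 2 * r)
    (δ := v + 2 * r) hr (P := fun x => GoodX a b c X1 ψ Ψ x) (by
      filter_upwards [L.goodX] with x h hx
      exact h ⟨by linarith [hx.1], by linarith [hx.2]⟩)
  have hgy : ∀ᵐ y, c < y → GoodY a b σ X2 μ ψ Ψ y ∧ PYq a b μ Ψ J κ y ∧ Ψ (x0, y) = ψ (x0, y) ∧
      Ψ (x1, y) = ψ (x1, y) ∧ P y := by
    filter_upwards [L.goodY, hgy0, gx0.E, gx1.E, hP] with y h1 h2 h3 h4 h5 hy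
    exact ⟨h1 hy, h2 hy, h3 hy, h4 hy, h5 hy⟩
  obtain ⟨y0, hy0, ⟨gy0, py0, e00, e10, pP0⟩, B0⟩ := exists_line_yI L.L2 (α := v - 2 * r)
    (γ := u - 2 * r) (δ := u + 2 * r) hr
    (P := fun y => GoodY a b σ X2 μ ψ Ψ y ∧ PYq a b μ Ψ J κ y ∧ Ψ (x0, y) = ψ (x0, y) ∧
      Ψ (x1, y) = ψ (x1, y) ∧ P y) (by
      filter_upwards [hgy] with x h hx
      exact h (by linarith [hx.1]))
  obtain ⟨y1, hy1, ⟨gy1, py1, e01, e11, pP1⟩, B1⟩ := exists_line_yI L.L2 (α := v + r)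
    (γ := u - 2 * r) (δ := u + 2 * r) hr
    (P := fun y => GoodY a b σ X2 μ ψ Ψ y ∧ PYq a b μ Ψ J κ y ∧ Ψ (x0, y) = ψ (x0, y) ∧
      Ψ (x1, y) = ψ (x1, y) ∧ P y) (by
      filter_upwards [hgy] with x h hx
      exact h (by linarith [hx.1]))
  have A0' := A0.trans (mul_le_mul_of_nonneg_left
    (int_mono_set L.L1 (hsubx _ (by linarith) (by linarith))) hri.le)
  have A1' := A1.trans (mul_le_mul_of_nonneg_left
    (int_mono_set L.L1 (hsubx _ (by linarith) (by linarith))) hri.le)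
  have B0' := B0.trans (mul_le_mul_of_nonneg_left
    (int_mono_set L.L2 (hsuby _ (by linarith) (by linarith))) hri.le)
  have B1' := B1.trans (mul_le_mul_of_nonneg_left
    (int_mono_set L.L2 (hsuby _ (by linarith) (by linarith))) hri.le)
  rw [← hs1] at A0' A1'
  rw [← hs2] at B0' B1'
  have R : GoodR a b c σ X1 X2 μ ψ Ψ x0 x1 y0 y1 := by
    refine ⟨by linarith [hx0.1], by linarith [hx0.2, hx1.1], by linarith [hx1.2],
      by linarith [hy0.1], by linarith [hy0.2, hy1.1], gx0, gx1, gy0, gy1, ?_⟩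
    intro x hx
    apply measure_mono_null _ (hat x ⟨by linarith [hx.1, hx0.1], by linarith [hx.2, hx1.2]⟩)
    intro q hq
    exact ⟨hq.1, by linarith [hq.2, hy1.2]⟩
  -- variations along the sides
  have vert : ∀ x, GoodX a b c X1 ψ Ψ x → (∫ t in Ioo (v - 2 * r) (v + 2 * r), |X1 (x, t)| ≤ s1) →
      ∀ y ∈ Icc y0 y1, |ψ (x, y) - ψ (x, y0)| ≤ s1 := by
    intro x gx hA y hy
    rw [gx.V y0 y (by linarith [hy0.1]) hy.1]
    exact (abs_ii_le gx.int (γ := v - 2 * r) (δ := v + 2 * r) (by linarith [hy0.1]) hy.1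
      (by linarith [hy.2, hy1.2])).trans hA
  have hmem : ∀ x ∈ Icc x0 x1, x ∈ Ioo a b := fun x hx =>
    ⟨by linarith [hx.1, hx0.1], by linarith [hx.2, hx1.2]⟩
  have hx01 : x0 ≤ x1 := by linarith [hx0.2, hx1.1]
  have horz : ∀ y, GoodY a b σ X2 μ ψ Ψ y → y < v + 2 * r →
      (∫ s in Ioo (u - 2 * r) (u + 2 * r), |X2 (s, y)| ≤ s2) →
      ∀ x ∈ Icc x0 x1, |Ψ (x, y) - Ψ (x0, y)| ≤ s2 + m1 := by
    intro y gy hyv hB x hx
    rw [gy.H x0 (hmem x0 ⟨le_refl _, hx01⟩) x (hmem x hx) hx.1]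
    have h1 := (abs_ii_le gy.int (γ := u - 2 * r) (δ := u + 2 * r) (by linarith [hx0.1]) hx.1
      (by linarith [hx.2, hx1.2])).trans hB
    have h2 : (μ {q | q.1 ∈ Ico x0 x ∧ q.2 < y}).toReal ≤ m1 := by
      rw [hm1]
      apply ENNReal.toReal_mono (measure_ne_top _ _)
      apply measure_mono
      intro q hq
      exact ⟨⟨by linarith [hq.1.1, hx0.1], by linarith [hq.1.2, hx.2, hx1.2]⟩, hq.2.trans hyv⟩
    have h3 : 0 ≤ (μ {q | q.1 ∈ Ico x0 x ∧ q.2 < y}).toReal := ENNReal.toReal_nonneg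
    have h4 : |σ * (μ {q | q.1 ∈ Ico x0 x ∧ q.2 < y}).toReal| ≤ m1 := by
      rw [abs_mul, hσa, one_mul, abs_of_nonneg h3]; exact h2
    calc |-(∫ s in x0..x, X2 (s, y)) - σ * (μ {q | q.1 ∈ Ico x0 x ∧ q.2 < y}).toReal|
        ≤ |-(∫ s in x0..x, X2 (s, y))| + |σ * (μ {q | q.1 ∈ Ico x0 x ∧ q.2 < y}).toReal| := abs_sub _ _
      _ ≤ s2 + m1 := by rw [abs_neg]; exact add_le_add h1 h4
  have l1 := vert x0 gx0 A0'
  have l2 := vert x1 gx1 A1'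
  have l3 := horz y0 gy0 (by linarith [hy0.2]) B0'
  have l4 := horz y1 gy1 (by linarith [hy1.2]) B1'
  set m0 := ψ (x0, y0) with hm0
  have hs1n : 0 ≤ s1 := mul_nonneg hri.le (integral_nonneg fun _ => abs_nonneg _)
  have hs2n : 0 ≤ s2 := mul_nonneg hri.le (integral_nonneg fun _ => abs_nonneg _)
  have hm1n : 0 ≤ m1 := ENNReal.toReal_nonneg
  have hy01 : y0 ≤ y1 := by linarith [hy0.2, hy1.1]
  -- corner values
  have c10 : |ψ (x1, y0) - m0| ≤ s2 + m1 := by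
    have := l3 x1 ⟨hx01, le_refl _⟩
    rwa [e10, e00] at this
  have c01 : |ψ (x0, y1) - m0| ≤ s1 := l1 y1 ⟨hy01, le_refl _⟩
  have bl : ∀ y ∈ Icc y0 y1, |ψ (x0, y) - m0| ≤ s1 + s2 + m1 := fun y hy =>
    (l1 y hy).trans (by linarith)
  have br : ∀ y ∈ Icc y0 y1, |ψ (x1, y) - m0| ≤ s1 + s2 + m1 := by
    intro y hy
    have h1 := l2 y hy
    rw [abs_le] at h1 c10 ⊢
    constructor <;> linarith [h1.1, h1.2, c10.1, c10.2]
  have bd : ∀ x ∈ Icc x0 x1, |Ψ (x, y0) - m0| ≤ s1 + s2 + m1 := by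
    intro x hx
    have h1 := l3 x hx
    rw [e00] at h1
    exact h1.trans (by linarith)
  have bu : ∀ x ∈ Icc x0 x1, |Ψ (x, y1) - m0| ≤ s1 + s2 + m1 := by
    intro x hx
    have h1 := l4 x hx
    rw [e01] at h1
    rw [abs_le] at h1 c01 ⊢
    constructor <;> linarith [h1.1, h1.2, c01.1, c01.2]
  have hM : BdLe (m0 + (s1 + s2 + m1)) ψ Ψ x0 x1 y0 y1 := by
    refine ⟨fun y hy => ?_, fun y hy => ?_, fun x hx => ?_, fun x hx => ?_⟩
    · linarith [(abs_le.mp (bl y hy)).2]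
    · linarith [(abs_le.mp (br y hy)).2]
    · linarith [(abs_le.mp (bd x hx)).2]
    · linarith [(abs_le.mp (bu x hx)).2]
  have hN : BdLe (-m0 + (s1 + s2 + m1)) (fun p => -ψ p) (fun p => -Ψ p) x0 x1 y0 y1 := by
    refine ⟨fun y hy => ?_, fun y hy => ?_, fun x hx => ?_, fun x hx => ?_⟩
    · show -ψ (x0, y) ≤ _; linarith [(abs_le.mp (bl y hy)).1]
    · show -ψ (x1, y) ≤ _; linarith [(abs_le.mp (br y hy)).1]
    · show -Ψ (x, y0) ≤ _; linarith [(abs_le.mp (bd x hx)).1]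
    · show -Ψ (x, y1) ≤ _; linarith [(abs_le.mp (bu x hx)).1]
  have hsubK : Rc x0 x1 y0 y1 ⊆ K := by
    intro p hp
    exact ⟨⟨by linarith [hp.1.1, hx0.1], by linarith [hp.1.2, hx1.2]⟩,
      ⟨by linarith [hp.2.1, hy0.1], by linarith [hp.2.2, hy1.2]⟩⟩
  have hSR : volume (S ∩ Rc x0 x1 y0 y1) = 0 :=
    measure_mono_null (inter_subset_inter_right _ hsubK) hS
  have hpr : PRq μ J x0 x1 y0 y1 := by
    intro n Kh hKh hne hKx
    have h1 : Kh.x ∈ Ioo (u - 2 * r) (u + 2 * r) :=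
      ⟨by linarith [hKx.1, hx0.1], by linarith [hKx.2, hx1.2]⟩
    rcases hav n Kh hKh hne h1 with h | h
    · left; linarith [hy0.1]
    · right; linarith [hy1.2]
  have f1 := mpq L hσ D A R py0 py1 hpr hM hSR
  have f2 := mpq L.neg hσ' D.neg A.neg R.neg (PYq_neg py0) (PYq_neg py1) hpr hN hSR
  have hsI : ∀ x ∈ Icc (u - r) (u + r), x ∈ Icc x0 x1 := fun x hx =>
    ⟨by linarith [hx.1, hx0.2], by linarith [hx.2, hx1.1]⟩
  refine ⟨m0, ?_, ⟨y0, ⟨hy0.1, by linarith [hy0.2]⟩, gy0, pP0, fun x hx => bd x (hsI x hx)⟩,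
    ⟨y1, ⟨hy1.1, by linarith [hy1.2]⟩, gy1, pP1, fun x hx => bu x (hsI x hx)⟩⟩
  have hsub : Rc (u - r) (u + r) (v - r) (v + r) ⊆ Rc x0 x1 y0 y1 := by
    intro p hp
    exact ⟨⟨by linarith [hp.1.1, hx0.2], by linarith [hp.1.2, hx1.1]⟩,
      ⟨by linarith [hp.2.1, hy0.2], by linarith [hp.2.2, hy1.1]⟩⟩
  filter_upwards [f1, f2] with p g1 g2 hp hpu
  have k1 := g1 (hsub hp) hpu
  have k2 := g2 (hsub hp) hpu
  rw [abs_le]
  constructor <;> linarith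


/-- `m` is the value of `ψ` at `p` seen from outside the squares -/
def AtQ (Q : Rects ι) (ψ : ℝ × ℝ → ℝ) (p : ℝ × ℝ) (m : ℝ) : Prop :=
  ∀ ε : ℝ, 0 < ε → ∃ O ∈ 𝓝 p, ∀ᵐ z : ℝ × ℝ, z ∈ O → z ∉ Q.un → |ψ z - m| ≤ ε

/-- the complement of the squares has positive measure near `p` -/
def DensQ (Q : Rects ι) (p : ℝ × ℝ) : Prop := ∀ O ∈ 𝓝 p, volume (O \ Q.un) ≠ 0

/-- the oscillation estimate applies at `p` at the scale `r` -/
structure LocR (S : Set (ℝ × ℝ)) (a b c : ℝ) (μ : Measure (ℝ × ℝ)) (J : ℕ → Finset Hair)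
    (p : ℝ × ℝ) (r : ℝ) : Prop where
  ha : a < p.1 - 2 * r
  hb : p.1 + 2 * r < b
  hc : c < p.2 - 2 * r
  hat : ∀ x ∈ Icc (p.1 - 2 * r) (p.1 + 2 * r), μ {q | q.1 = x ∧ q.2 < p.2 + 2 * r} = 0
  hav : ∀ n, ∀ K ∈ J n, μ {q | q.1 = K.x ∧ q.2 < K.t} ≠ 0 →
    K.x ∈ Ioo (p.1 - 2 * r) (p.1 + 2 * r) → K.t ≤ p.2 - 2 * r ∨ p.2 + 2 * r ≤ K.b
  hS : volume (S ∩ Rc (p.1 - 2 * r) (p.1 + 2 * r) (p.2 - 2 * r) (p.2 + 2 * r)) = 0

theorem LocR.mono {J : ℕ → Finset Hair} {p : ℝ × ℝ} {r r' : ℝ} (h : LocR S a b c μ J p r)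
    (hr : r' ≤ r) : LocR S a b c μ J p r' where
  ha := by linarith [h.ha]
  hb := by linarith [h.hb]
  hc := by linarith [h.hc]
  hat := fun x hx => by
    refine measure_mono_null ?_ (h.hat x ⟨by linarith [hx.1], by linarith [hx.2]⟩)
    rintro q ⟨h1, h2⟩
    exact ⟨h1, by linarith⟩
  hav := fun n K hK h1 h2 => by
    rcases h.hav n K hK h1 ⟨by linarith [h2.1], by linarith [h2.2]⟩ with h3 | h3
    · left; linarith
    · right; linarith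
  hS := by
    refine measure_mono_null (inter_subset_inter_right _ ?_) h.hS
    rintro q ⟨⟨h1, h2⟩, h3, h4⟩
    exact ⟨⟨by linarith, by linarith⟩, by linarith, by linarith⟩

/-- the oscillation estimate applies at `p` at arbitrarily small scales with small error -/
def LocQ (S : Set (ℝ × ℝ)) (a b c : ℝ) (X1 X2 : ℝ × ℝ → ℝ) (μ : Measure (ℝ × ℝ))
    (J : ℕ → Finset Hair) (p : ℝ × ℝ) : Prop :=
  ∀ ε : ℝ, 0 < ε → ∃ r, 0 < r ∧ r < ε ∧ LocR S a b c μ J p r ∧ errQ X1 X2 μ p.1 p.2 r ≤ ε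

theorem locQ_of_tendsto {J : ℕ → Finset Hair} {p : ℝ × ℝ} {r0 : ℝ} (hr0 : 0 < r0)
    (h : LocR S a b c μ J p r0)
    (hE : Tendsto (fun r => errQ X1 X2 μ p.1 p.2 r) (𝓝[>] 0) (𝓝 0)) :
    LocQ S a b c X1 X2 μ J p := by
  intro ε hε
  have h1 : ∀ᶠ r in 𝓝[>] (0 : ℝ), errQ X1 X2 μ p.1 p.2 r < ε := (tendsto_order.1 hE).2 ε hε
  have h2 : ∀ᶠ r in 𝓝[>] (0 : ℝ), r ∈ Ioo 0 (min ε r0) := Ioo_mem_nhdsGT (lt_min hε hr0)
  obtain ⟨r, h3, h4⟩ := (h1.and h2).exists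
  exact ⟨r, h4.1, h4.2.trans_le (min_le_left _ _), h.mono (h4.2.le.trans (min_le_right _ _)), h3.le⟩

/-- the error tends to zero where the averages of the field do and there are no atoms -/
theorem errQ_tendsto [IsFiniteMeasure μ] {u v r0 : ℝ} (hr0 : 0 < r0)
    (hat : μ {q | q.1 = u ∧ q.2 < v + 2 * r0} = 0)
    (h1 : Tendsto (fun r : ℝ => r⁻¹ * ∫ p in Rc (u - 2 * r) (u + 2 * r) (v - 2 * r) (v + 2 * r),
      |X1 p|) (𝓝[>] 0) (𝓝 0))
    (h2 : Tendsto (fun r : ℝ => r⁻¹ * ∫ p in Rc (u - 2 * r) (u + 2 * r) (v - 2 * r) (v + 2 * r),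
      |X2 p|) (𝓝[>] 0) (𝓝 0)) :
    Tendsto (fun r => errQ X1 X2 μ u v r) (𝓝[>] 0) (𝓝 0) := by
  have hms : MeasurableSet {q : ℝ × ℝ | q.2 < v + 2 * r0} :=
    measurableSet_lt measurable_snd measurable_const
  -- the mass tends to zero
  have h3 : Tendsto (fun r : ℝ =>
      (μ {q | q.1 ∈ Ico (u - 2 * r) (u + 2 * r) ∧ q.2 < v + 2 * r}).toReal) (𝓝[>] 0) (𝓝 0) := by
    set ν : Measure ℝ := (μ.restrict {q : ℝ × ℝ | q.2 < v + 2 * r0}).map Prod.fst with hν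
    have hνa : ∀ A : Set ℝ, MeasurableSet A → ν A = μ {q | q.1 ∈ A ∧ q.2 < v + 2 * r0} := by
      intro A hA
      rw [hν, Measure.map_apply measurable_fst hA, Measure.restrict_apply (measurable_fst hA)]
      rfl
    have : IsFiniteMeasure ν := by rw [hν]; infer_instance
    have hu0 : ν {u} = 0 := by
      rw [hνa _ (measurableSet_singleton u)]; exact hat
    have hanti : Antitone (fun n : ℕ => Icc (u - 1 / (n + 1 : ℝ)) (u + 1 / (n + 1 : ℝ))) := by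
      intro n m hnm
      have h1 : (1 : ℝ) / (m + 1) ≤ 1 / (n + 1) := by
        apply one_div_le_one_div_of_le (by positivity)
        have : (n : ℝ) ≤ m := by exact_mod_cast hnm
        linarith
      exact Icc_subset_Icc (by linarith) (by linarith)
    have hInt : (⋂ n : ℕ, Icc (u - 1 / (n + 1 : ℝ)) (u + 1 / (n + 1 : ℝ))) = {u} := by
      ext t
      simp only [mem_iInter, mem_Icc, mem_singleton_iff]
      constructor
      · intro h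
        have hlim : Tendsto (fun n : ℕ => (1 : ℝ) / (n + 1)) atTop (𝓝 0) :=
          tendsto_one_div_add_atTop_nhds_zero_nat
        have h1 : u ≤ t := by
          have := hlim.const_sub u
          simp only [sub_zero] at this
          exact le_of_tendsto' this (fun n => (h n).1)
        have h2 : t ≤ u := by
          have := hlim.const_add u
          simp only [add_zero] at this
          exact ge_of_tendsto' this (fun n => (h n).2)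
        exact le_antisymm h2 h1
      · rintro rfl n
        have : (0 : ℝ) ≤ 1 / (n + 1) := by positivity
        constructor <;> linarith
    have ht := tendsto_measure_iInter_atTop (μ := ν)
      (s := fun n : ℕ => Icc (u - 1 / ((n : ℝ) + 1)) (u + 1 / ((n : ℝ) + 1)))
      (fun n => measurableSet_Icc.nullMeasurableSet)
      hanti ⟨0, measure_ne_top _ _⟩
    rw [hInt, hu0] at ht
    have ht2 : Tendsto (fun n : ℕ => (ν (Icc (u - 1 / ((n : ℝ) + 1)) (u + 1 / ((n : ℝ) + 1)))).toReal)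
        atTop (𝓝 0) := by
      have := (ENNReal.tendsto_toReal (by simp : (0 : ENNReal) ≠ ⊤)).comp ht
      rw [ENNReal.toReal_zero] at this
      exact this
    rw [tendsto_order]
    refine ⟨fun e he => Eventually.of_forall fun r => he.trans_le ENNReal.toReal_nonneg,
      fun e he => ?_⟩
    obtain ⟨n, hn⟩ := ((tendsto_order.1 ht2).2 e he).exists
    have hpos : 0 < min r0 (1 / (2 * ((n : ℝ) + 1))) := lt_min hr0 (by positivity)
    filter_upwards [Ioo_mem_nhdsGT hpos] with r hr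
    refine lt_of_le_of_lt ?_ hn
    apply ENNReal.toReal_mono (measure_ne_top _ _)
    rw [hνa _ measurableSet_Icc]
    apply measure_mono
    rintro q ⟨e1, e2⟩
    have e3 := hr.2.trans_le (min_le_right _ _)
    have e4 := hr.2.trans_le (min_le_left _ _)
    have e5 : (1 : ℝ) / (2 * ((n : ℝ) + 1)) = 1 / ((n : ℝ) + 1) / 2 := by
      rw [div_div, mul_comm ((n : ℝ) + 1) 2]
    rw [e5] at e3
    exact ⟨⟨by linarith [e1.1], by linarith [e1.2]⟩, by linarith⟩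
  have := (h1.add h2).add h3
  simp only [add_zero] at this
  exact this

theorem atQ_of_cont {g : ℝ × ℝ → ℝ} {p : ℝ × ℝ} (hg : ContinuousWithinAt g (Q.un)ᶜ p)
    {O : Set (ℝ × ℝ)} (hO : O ∈ 𝓝 p) (h : ∀ᵐ z : ℝ × ℝ, z ∈ O → z ∉ Q.un → g z = ψ z) :
    AtQ Q ψ p (g p) := by
  intro ε hε
  have h1 : ∀ᶠ z in 𝓝[(Q.un)ᶜ] p, |g z - g p| < ε := by
    have := hg.eventually (Metric.ball_mem_nhds (g p) hε)
    filter_upwards [this] with z hz
    rwa [Real.dist_eq] at hz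
  rw [eventually_nhdsWithin_iff] at h1
  refine ⟨O ∩ {z | z ∈ (Q.un)ᶜ → |g z - g p| < ε}, inter_mem hO h1, ?_⟩
  filter_upwards [h] with z hz hzO hzu
  rw [← hz hzO.1 hzu]
  exact (hzO.2 hzu).le

theorem mem_closure_op {i : ι} {p : ℝ × ℝ} (hp : p ∈ closure (Q.op i)) :
    p.1 ∈ Icc (Q.x i - Q.h1 i) (Q.x i + Q.h1 i) ∧ p.2 ∈ Icc (Q.y i - Q.h2 i) (Q.y i + Q.h2 i) := by
  have h1 := Q.p1 i
  have h2 := Q.p2 i
  unfold Rects.op at hp
  rw [closure_prod_eq, closure_Ioo (by linarith), closure_Ioo (by linarith)] at hp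
  exact hp

/-- good horizontal lines through the square near a point of its boundary -/
theorem near_line [IsFiniteMeasure μ] [Countable ι] (L : LinesI a b c B σ X1 X2 μ ψ Ψ)
    (hσ : σ = 1 ∨ σ = -1) (D : SqData Q S a b c B X1 X2 μ f)
    {J : ℕ → Finset Hair} {z : ℕ → ℝ × ℝ → ℝ} {κ : Hair → ℝ} {ρ : ℕ → ι → ℝ}
    (A : ApprQ Q S a b c B σ X1 X2 μ Ψ f J z κ ρ) {i : ι} {p : ℝ × ℝ} {m : ℝ}
    (hp : p ∈ closure (Q.op i)) (hL : LocQ S a b c X1 X2 μ J p) (hd : DensQ Q p)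
    (hm : AtQ Q ψ p m) {P : ℝ → Prop} (hP : ∀ᵐ y, c < y → P y) {ε : ℝ} (hε : 0 < ε) :
    ∃ t ∈ Ioo (Q.y i - Q.h2 i) (Q.y i + Q.h2 i), GoodY a b σ X2 μ ψ Ψ t ∧ P t ∧
      ∃ α β : ℝ, α < β ∧ Ioo α β ⊆ Ioo (Q.x i - Q.h1 i) (Q.x i + Q.h1 i) ∧
        ∀ s ∈ Ioo α β, |Ψ (s, t) - m| ≤ ε := by
  obtain ⟨hp1, hp2⟩ := mem_closure_op hp
  have q1 := Q.p1 i
  have q2 := Q.p2 i
  obtain ⟨r, hr, hrε, hLr, herr⟩ := hL (min (ε / 3) (min (Q.h1 i) (Q.h2 i / 2)))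
    (lt_min (by linarith) (lt_min q1 (by linarith)))
  have hr1 : r < Q.h1 i := hrε.trans_le ((min_le_right _ _).trans (min_le_left _ _))
  have hr2 : r < Q.h2 i / 2 := hrε.trans_le ((min_le_right _ _).trans (min_le_right _ _))
  have herr' : errQ X1 X2 μ p.1 p.2 r ≤ ε / 3 := herr.trans (min_le_left _ _)
  obtain ⟨m0, hae, ⟨y0, hy0, gy0, py0, l0⟩, ⟨y1, hy1, gy1, py1, l1⟩⟩ :=
    oscQ_lines L hσ D A hr hLr.ha hLr.hb hLr.hc hLr.hat hLr.hav hLr.hS hP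
  -- `m0` is close to `m`
  have hmm : |m0 - m| ≤ ε / 3 + ε / 3 := by
    obtain ⟨O, hO, hOae⟩ := hm (ε / 3) (by linarith)
    have hRc : Rc (p.1 - r) (p.1 + r) (p.2 - r) (p.2 + r) ∈ 𝓝 p :=
      (isOpen_Ioo.prod isOpen_Ioo).mem_nhds ⟨⟨by linarith, by linarith⟩, ⟨by linarith, by linarith⟩⟩
    have hpos := hd _ (inter_mem hO hRc)
    obtain ⟨w, hw, hw1, hw2⟩ : ∃ w ∈ (O ∩ Rc (p.1 - r) (p.1 + r) (p.2 - r) (p.2 + r)) \ Q.un,
        |ψ w - m| ≤ ε / 3 ∧ |ψ w - m0| ≤ ε / 3 := by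
      by_contra hcon
      push Not at hcon
      apply hpos
      have : ∀ᵐ w : ℝ × ℝ, w ∉ (O ∩ Rc (p.1 - r) (p.1 + r) (p.2 - r) (p.2 + r)) \ Q.un := by
        filter_upwards [hOae, hae] with w h1 h2 hw
        have h3 := h1 hw.1.1 hw.2
        have h4 := (h2 hw.1.2 hw.2).trans herr'
        exact absurd h4 (not_le.2 (hcon w hw h3))
      exact measure_eq_zero_iff_ae_notMem.2 this
    rw [abs_le] at hw1 hw2 ⊢
    constructor <;> linarith [hw1.1, hw1.2, hw2.1, hw2.2]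
  have hfin : ∀ t, (∀ x ∈ Icc (p.1 - r) (p.1 + r), |Ψ (x, t) - m0| ≤ errQ X1 X2 μ p.1 p.2 r) →
      ∃ α β : ℝ, α < β ∧ Ioo α β ⊆ Ioo (Q.x i - Q.h1 i) (Q.x i + Q.h1 i) ∧
        ∀ s ∈ Ioo α β, |Ψ (s, t) - m| ≤ ε := by
    intro t ht
    have hb : ∀ s ∈ Icc (p.1 - r) (p.1 + r), |Ψ (s, t) - m| ≤ ε := by
      intro s hs
      have h1 := (ht s hs).trans herr'
      rw [abs_le] at h1 hmm ⊢
      constructor <;> linarith [h1.1, h1.2, hmm.1, hmm.2]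
    rcases le_total p.1 (Q.x i) with h | h
    · exact ⟨p.1, p.1 + r, by linarith, fun s hs => ⟨by linarith [hs.1, hp1.1], by linarith [hs.2]⟩,
        fun s hs => hb s ⟨by linarith [hs.1], hs.2.le⟩⟩
    · exact ⟨p.1 - r, p.1, by linarith, fun s hs => ⟨by linarith [hs.1], by linarith [hs.2, hp1.2]⟩,
        fun s hs => hb s ⟨hs.1.le, by linarith [hs.2]⟩⟩
  rcases le_total p.2 (Q.y i) with h | h
  · exact ⟨y1, ⟨by linarith [hy1.1, hp2.1], by linarith [hy1.2]⟩, gy1, py1, hfin y1 l1⟩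
  · exact ⟨y0, ⟨by linarith [hy0.1], by linarith [hy0.2, hp2.2]⟩, gy0, py0, hfin y0 l0⟩

/-- **(W)** the values of `ψ` (seen from outside the squares) at two points of a closed charged
square differ by at most `4 f i` -/
theorem sqosc [IsFiniteMeasure μ] [Countable ι] (L : LinesI a b c B σ X1 X2 μ ψ Ψ)
    (hσ : σ = 1 ∨ σ = -1) (D : SqData Q S a b c B X1 X2 μ f) (F : F3H Q X1 X2 f)
    {J : ℕ → Finset Hair} {z : ℕ → ℝ × ℝ → ℝ} {κ : Hair → ℝ} {ρ : ℕ → ι → ℝ}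
    (A : ApprQ Q S a b c B σ X1 X2 μ Ψ f J z κ ρ) {i : ι} {p q : ℝ × ℝ} {m m' : ℝ}
    (hp : p ∈ closure (Q.op i)) (hLp : LocQ S a b c X1 X2 μ J p) (hdp : DensQ Q p)
    (hm : AtQ Q ψ p m)
    (hq : q ∈ closure (Q.op i)) (hLq : LocQ S a b c X1 X2 μ J q) (hdq : DensQ Q q)
    (hm' : AtQ Q ψ q m') : |m - m'| ≤ 4 * f i := by
  refine le_of_forall_pos_le_add fun ε hε => ?_
  have hP : ∀ᵐ t, c < t → t ∈ Ioo (Q.y i - Q.h2 i) (Q.y i + Q.h2 i) →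
      ∀ s ∈ Ioo (Q.x i - Q.h1 i) (Q.x i + Q.h1 i), ∀ s' ∈ Ioo (Q.x i - Q.h1 i) (Q.x i + Q.h1 i),
        |Ψ (s', t) - Ψ (s, t)| ≤ 2 * f i := by
    filter_upwards [hosc L D F i] with t ht _
    exact ht
  obtain ⟨t, ht, gt, Pt, α, β, hαβ, hsub, hv⟩ := near_line L hσ D A hp hLp hdp hm hP
    (half_pos hε)
  obtain ⟨t', ht', gt', Pt', α', β', hαβ', hsub', hv'⟩ := near_line L hσ D A hq hLq hdq hm' hP
    (half_pos hε)
  -- a generic abscissa near `q`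
  obtain ⟨s', hs', e1, e2, e3⟩ : ∃ s' ∈ Ioo α' β', Ψ (s', t) = ψ (s', t) ∧
      Ψ (s', t') = ψ (s', t') ∧ |ψ (s', t') - ψ (s', t)| ≤ 2 * f i := by
    by_contra hcon
    push Not at hcon
    have hae : ∀ᵐ s : ℝ, s ∉ Ioo α' β' := by
      filter_upwards [gt.E, gt'.E, vosc L D F i] with s h1 h2 h3 hs
      have hsI := hsub' hs
      have hab := (mem_box D hsI ht).1
      exact absurd (h3 hsI t ht t' ht') (not_le.2 (hcon s hs (h1 hab) (h2 hab)))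
    have h0 := measure_eq_zero_iff_ae_notMem.2 hae
    rw [Real.volume_Ioo, ENNReal.ofReal_eq_zero] at h0
    linarith
  obtain ⟨s, hs⟩ : (Ioo α β).Nonempty := nonempty_Ioo.2 hαβ
  have k1 := hv s hs
  have k2 := Pt ht s (hsub hs) s' (hsub' hs')
  have k3 := hv' s' hs'
  rw [e1] at k2
  rw [e2] at k3
  rw [abs_le] at k1 k2 k3 e3 ⊢
  constructor <;> linarith [k1.1, k1.2, k2.1, k2.2, k3.1, k3.2, e3.1, e3.2]

/-- **(W)**, inside: `ψ` is `4 f i`-close a.e. in the open square to its value at any point of the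
closed square -/
theorem sqosc_in [IsFiniteMeasure μ] [Countable ι] (L : LinesI a b c B σ X1 X2 μ ψ Ψ)
    (hσ : σ = 1 ∨ σ = -1) (D : SqData Q S a b c B X1 X2 μ f) (F : F3H Q X1 X2 f)
    {J : ℕ → Finset Hair} {z : ℕ → ℝ × ℝ → ℝ} {κ : Hair → ℝ} {ρ : ℕ → ι → ℝ}
    (A : ApprQ Q S a b c B σ X1 X2 μ Ψ f J z κ ρ) {i : ι} {p : ℝ × ℝ} {m : ℝ}
    (hp : p ∈ closure (Q.op i)) (hLp : LocQ S a b c X1 X2 μ J p) (hdp : DensQ Q p)
    (hm : AtQ Q ψ p m) : ∀ᵐ w : ℝ × ℝ, w ∈ Q.op i → |ψ w - m| ≤ 4 * f i := by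
  have key : ∀ ε : ℝ, 0 < ε → ∀ᵐ w : ℝ × ℝ, w ∈ Q.op i → |ψ w - m| ≤ 4 * f i + ε := by
    intro ε hε
    have hP : ∀ᵐ t, c < t → t ∈ Ioo (Q.y i - Q.h2 i) (Q.y i + Q.h2 i) →
        ∀ s ∈ Ioo (Q.x i - Q.h1 i) (Q.x i + Q.h1 i), ∀ s' ∈ Ioo (Q.x i - Q.h1 i) (Q.x i + Q.h1 i),
          |Ψ (s', t) - Ψ (s, t)| ≤ 2 * f i := by
      filter_upwards [hosc L D F i] with t ht _
      exact ht
    obtain ⟨t, ht, gt, Pt, α, β, hαβ, hsub, hv⟩ := near_line L hσ D A hp hLp hdp hm hP hε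
    obtain ⟨s, hs⟩ : (Ioo α β).Nonempty := nonempty_Ioo.2 hαβ
    have k1 := hv s hs
    filter_upwards [ae_fst' gt.E, ae_fst' (vosc L D F i)] with w h1 h2 hw
    have hw1 : w.1 ∈ Ioo (Q.x i - Q.h1 i) (Q.x i + Q.h1 i) := hw.1
    have hw2 : w.2 ∈ Ioo (Q.y i - Q.h2 i) (Q.y i + Q.h2 i) := hw.2
    have e1 := h1 (mem_box D hw1 ht).1
    have e2 := h2 hw1 t ht w.2 hw2
    have k2 := Pt ht s (hsub hs) w.1 hw1
    rw [e1] at k2
    rw [show ((w.1, w.2) : ℝ × ℝ) = w from rfl] at e2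
    rw [abs_le] at k1 k2 e2 ⊢
    constructor <;> linarith [k1.1, k1.2, k2.1, k2.2, e2.1, e2.2]
  have h2 : ∀ᵐ w : ℝ × ℝ, ∀ n : ℕ, w ∈ Q.op i → |ψ w - m| ≤ 4 * f i + 1 / ((n : ℝ) + 1) := by
    rw [ae_all_iff]
    exact fun n => key _ (by positivity)
  filter_upwards [h2] with w hw hwi
  have h3 : Tendsto (fun n : ℕ => 4 * f i + 1 / ((n : ℝ) + 1)) atTop (𝓝 (4 * f i + 0)) :=
    tendsto_const_nhds.add tendsto_one_div_add_atTop_nhds_zero_nat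
  rw [add_zero] at h3
  exact ge_of_tendsto' h3 fun n => hw n hwi

/-- **(W)** for a representative `g`, continuous off the squares -/
theorem sqosc_cont [IsFiniteMeasure μ] [Countable ι] (L : LinesI a b c B σ X1 X2 μ ψ Ψ)
    (hσ : σ = 1 ∨ σ = -1) (D : SqData Q S a b c B X1 X2 μ f) (F : F3H Q X1 X2 f)
    {J : ℕ → Finset Hair} {z : ℕ → ℝ × ℝ → ℝ} {κ : Hair → ℝ} {ρ : ℕ → ι → ℝ}
    (A : ApprQ Q S a b c B σ X1 X2 μ Ψ f J z κ ρ) {i : ι} {g : ℝ × ℝ → ℝ}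
    {O : Set (ℝ × ℝ)} (hO : IsOpen O) (hg : ∀ᵐ w : ℝ × ℝ, w ∈ O → w ∉ Q.un → g w = ψ w)
    (hloc : ∀ p ∈ frontier (Q.op i) ∩ O, ContinuousWithinAt g (Q.un)ᶜ p ∧
      LocQ S a b c X1 X2 μ J p ∧ DensQ Q p) :
    ∀ p ∈ frontier (Q.op i) ∩ O, ∀ q ∈ frontier (Q.op i) ∩ O, |g p - g q| ≤ 4 * f i := by
  intro p hp q hq
  obtain ⟨a1, a2, a3⟩ := hloc p hp
  obtain ⟨b1, b2, b3⟩ := hloc q hq
  exact sqosc L hσ D F A (frontier_subset_closure hp.1) a2 a3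
    (atQ_of_cont a1 (hO.mem_nhds hp.2) hg) (frontier_subset_closure hq.1) b2 b3
    (atQ_of_cont b1 (hO.mem_nhds hq.2) hg)

end Crest.Agent.R105.SqW_832
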