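import Crest.Agent.R105.Sqr1_185

/-!
# R105 SQR (2): the test function `θ(x)` above `K` and `b = const` (helper185)
-/

set_option autoImplicit false

open Set Filter Topology MeasureTheory Metric
open scoped ContDiff

namespace Crest.Agent.R105.Sqr_185

/-- the test function: `θ(x)` above `K`, `0` elsewhere -/
noncomputable def up (K : Set ℂ) (θ : ℝ → ℝ) : ℂ → ℝ := (above K).indicator (fun p => θ p.re)

lemma up_of_above {K : Set ℂ} {θ : ℝ → ℝ} {p : ℂ} (h : p ∈ above K) : up K θ p = θ p.re :=
  indicator_of_mem h _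

lemma up_of_not {K : Set ℂ} {θ : ℝ → ℝ} {p : ℂ} (h : p ∉ above K) : up K θ p = 0 :=
  indicator_of_notMem h _

lemma up_mem {K : Set ℂ} {θ : ℝ → ℝ} (p : ℂ) : up K θ p = θ p.re ∨ up K θ p = 0 := by
  by_cases h : p ∈ above K
  · exact Or.inl (up_of_above h)
  · exact Or.inr (up_of_not h)

lemma up_of_below {K : Set ℂ} {θ : ℝ → ℝ} {al be : ℝ}
    (hne : ∀ t ∈ Ioo al be, (sec K t).Nonempty) (hθ : tsupport θ ⊆ Ioo al be) {p : ℂ}
    (h : p ∈ below K) : up K θ p = 0 := by
  by_cases hp : p.re ∈ Ioo al be
  · exact up_of_not (fun h1 => above_disjoint_below (hne p.re hp) h1 h)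
  · rcases up_mem (K := K) (θ := θ) p with h1 | h1
    · rw [h1]
      exact image_eq_zero_of_notMem_tsupport (fun hc => hp (hθ hc))
    · exact h1

/-- off `K` the test function is locally either `θ ∘ re` or `0` -/
lemma up_local {K : Set ℂ} (hK : IsCompact K) (hs : ∀ t, OrdConnected (sec K t))
    {θ : ℝ → ℝ} {al be : ℝ}
    (hne : ∀ t ∈ Ioo al be, (sec K t).Nonempty) (hθ : tsupport θ ⊆ Ioo al be) {p : ℂ}
    (hp : p ∉ K) :
    (p ∈ above K ∧ ∀ᶠ q in 𝓝 p, up K θ q = θ q.re) ∨ (p ∈ below K ∧ ∀ᶠ q in 𝓝 p, up K θ q = 0) := by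
  rcases above_or_below hs hp with h | h
  · left
    refine ⟨h, ?_⟩
    filter_upwards [(isOpen_above hK).mem_nhds h] with q hq using up_of_above hq
  · right
    refine ⟨h, ?_⟩
    filter_upwards [(isOpen_below hK).mem_nhds h] with q hq using up_of_below hne hθ hq

lemma contDiffAt_up {K : Set ℂ} (hK : IsCompact K) (hs : ∀ t, OrdConnected (sec K t))
    {θ : ℝ → ℝ} {al be : ℝ} {n : WithTop ℕ∞}
    (hne : ∀ t ∈ Ioo al be, (sec K t).Nonempty) (hθ : tsupport θ ⊆ Ioo al be)
    (hθs : ContDiff ℝ n θ) {p : ℂ} (hp : p ∉ K) : ContDiffAt ℝ n (up K θ) p := by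
  rcases up_local hK hs hne hθ hp with ⟨_, h⟩ | ⟨_, h⟩
  · refine ContDiffAt.congr_of_eventuallyEq ?_ h
    exact (hθs.comp Complex.reCLM.contDiff).contDiffAt
  · exact ContDiffAt.congr_of_eventuallyEq contDiffAt_const h

/-- the gradient of the test function off `K` -/
lemma fderiv_up {K : Set ℂ} (hK : IsCompact K) (hs : ∀ t, OrdConnected (sec K t))
    {θ : ℝ → ℝ} {al be : ℝ}
    (hne : ∀ t ∈ Ioo al be, (sec K t).Nonempty) (hθ : tsupport θ ⊆ Ioo al be)
    (hθd : Differentiable ℝ θ) {p : ℂ} (hp : p ∉ K) :
    fderiv ℝ (up K θ) p = (above K).indicator (fun q => deriv θ q.re • Complex.reCLM) p := by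
  rcases up_local hK hs hne hθ hp with ⟨h0, h⟩ | ⟨h0, h⟩
  · rw [indicator_of_mem h0, Filter.EventuallyEq.fderiv_eq h]
    have h1 : HasFDerivAt (fun q : ℂ => θ q.re) (deriv θ p.re • Complex.reCLM) p := by
      have h2 : HasDerivAt θ (deriv θ p.re) p.re := (hθd p.re).hasDerivAt
      exact h2.comp_hasFDerivAt p Complex.reCLM.hasFDerivAt
    exact h1.fderiv
  · have h3 : fderiv ℝ (up K θ) p = 0 := by
      rw [Filter.EventuallyEq.fderiv_eq (f := fun _ => (0 : ℝ)) h]
      simp
    rw [h3]
    by_cases hpa : p ∈ above K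
    · rw [indicator_of_mem hpa]
      by_cases hp' : p.re ∈ Ioo al be
      · exact absurd h0 (fun h0 => above_disjoint_below (hne p.re hp') hpa h0)
      · have h4 : deriv θ p.re = 0 := by
          have : p.re ∉ tsupport (deriv θ) := fun hc => hp' (hθ (tsupport_deriv_subset hc))
          exact image_eq_zero_of_notMem_tsupport this
        rw [h4, zero_smul]
    · rw [indicator_of_notMem hpa]

/-- on a component (or any connected compact set with interval sections) `L` disjoint from `K`
the test function is `θ ∘ re` or `0` throughout, and also near `L`. -/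
theorem up_on_disjoint {K L : Set ℂ} (hK : IsCompact K) (hKs : ∀ t, OrdConnected (sec K t))
    (hL : IsCompact L) (hLc : IsPreconnected L) (hLs : ∀ t, OrdConnected (sec L t))
    (hd : Disjoint K L) {θ : ℝ → ℝ} {al be : ℝ}
    (hne : ∀ t ∈ Ioo al be, (sec K t).Nonempty) (hθ : tsupport θ ⊆ Ioo al be) :
    (L ∩ Complex.re ⁻¹' (Ioo al be) ⊆ above K ∧ ∀ p ∈ L, ∀ᶠ q in 𝓝 p, up K θ q = θ q.re) ∨
    (L ∩ Complex.re ⁻¹' (Ioo al be) ⊆ below K ∧ ∀ p ∈ L, ∀ᶠ q in 𝓝 p, up K θ q = 0) := by
  have hout : ∀ p : ℂ, p.re ∉ Ioo al be → ∀ᶠ q in 𝓝 p, θ q.re = 0 := by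
    intro p hp
    have h1 : p.re ∉ tsupport θ := fun hc => hp (hθ hc)
    have h2 : ∀ᶠ r in 𝓝 p.re, θ r = 0 := by
      have := notMem_tsupport_iff_eventuallyEq.1 h1
      filter_upwards [this] with r hr using hr
    exact (Complex.continuous_re.tendsto p).eventually h2
  rcases side_of_disjoint hK hKs hL hLc hLs hd ordConnected_Ioo hne with h | h
  · left
    refine ⟨h, fun p hp => ?_⟩
    by_cases hpr : p.re ∈ Ioo al be
    · filter_upwards [(isOpen_above hK).mem_nhds (h ⟨hp, hpr⟩)] with q hq using up_of_above hq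
    · filter_upwards [hout p hpr] with q hq
      rcases up_mem (K := K) (θ := θ) q with h1 | h1
      · exact h1
      · rw [h1, hq]
  · right
    refine ⟨h, fun p hp => ?_⟩
    by_cases hpr : p.re ∈ Ioo al be
    · filter_upwards [(isOpen_below hK).mem_nhds (h ⟨hp, hpr⟩)] with q hq using
        up_of_below hne hθ hq
    · filter_upwards [hout p hpr] with q hq
      rcases up_mem (K := K) (θ := θ) q with h1 | h1
      · rw [h1, hq]
      · exact h1

/-- **du Bois-Reymond.** -/
theorem const_of_deriv {al be : ℝ} (hab : al < be) {f : ℝ → ℝ}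
    (hf : IntegrableOn f (Ioo al be))
    (h : ∀ θ : ℝ → ℝ, ContDiff ℝ ∞ θ → HasCompactSupport θ → tsupport θ ⊆ Ioo al be →
      ∫ t in Ioo al be, deriv θ t * f t = 0) :
    ∃ c : ℝ, ∀ᵐ t ∂(volume.restrict (Ioo al be)), f t = c := by
  -- a bump with integral one
  set m := (al + be) / 2 with hm
  have hball : closedBall m ((be - al) / 4) ⊆ Ioo al be := by
    intro t ht
    rw [Real.closedBall_eq_Icc] at ht
    constructor <;> [linarith [ht.1]; linarith [ht.2]]
  let η0 : ContDiffBump m := ⟨(be - al) / 8, (be - al) / 4, by linarith, by linarith⟩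
  set η : ℝ → ℝ := η0.normed volume with hη
  have hηs : ContDiff ℝ ∞ η := η0.contDiff_normed
  have hηt : tsupport η ⊆ Ioo al be := by
    rw [hη, η0.tsupport_normed_eq]
    exact hball
  have hηc : HasCompactSupport η := η0.hasCompactSupport_normed
  have hηi : ∫ t, η t = 1 := η0.integral_normed
  set c := ∫ t in Ioo al be, η t * f t with hc
  refine ⟨c, ?_⟩
  have hcont : ∀ g : ℝ → ℝ, ContDiff ℝ ∞ g → HasCompactSupport g → tsupport g ⊆ Ioo al be →
      ∫ t, g t = 0 → ∫ t in Ioo al be, g t * f t = 0 := by
    intro g hg hgc hgt hgi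
    -- primitive
    set θ : ℝ → ℝ := fun x => ∫ t in al..x, g t with hθ
    have hgcont : Continuous g := hg.continuous
    have hder : ∀ x, HasDerivAt θ (g x) x := fun x =>
      intervalIntegral.integral_hasDerivAt_right (hgcont.intervalIntegrable _ _)
        (hgcont.stronglyMeasurableAtFilter _ _) hgcont.continuousAt
    have hderiv : deriv θ = g := by
      ext x
      exact (hder x).deriv
    have hθs : ContDiff ℝ ∞ θ := by
      rw [contDiff_infty_iff_deriv] 
      · refine ⟨fun x => (hder x).differentiableAt, ?_⟩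
        rw [hderiv]
        exact hg
    -- support
    obtain ⟨a', b', ha', hb', hsub⟩ : ∃ a' b' : ℝ, al < a' ∧ b' < be ∧ tsupport g ⊆ Icc a' b' := by
      rcases (tsupport g).eq_empty_or_nonempty with he | hne
      · exact ⟨m, m, by rw [hm]; linarith, by rw [hm]; linarith, by rw [he]; exact empty_subset _⟩
      · have hcpt : IsCompact (tsupport g) := hgc
        obtain ⟨x1, hx1, h1⟩ := hcpt.exists_isLeast hne
        obtain ⟨x2, hx2, h2⟩ := hcpt.exists_isGreatest hne
        exact ⟨x1, x2, (hgt hx1).1, (hgt hx2).2, fun y hy => ⟨h1 hy, h2 hy⟩⟩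
    have hg0 : ∀ x, x ∉ Icc a' b' → g x = 0 := fun x hx =>
      image_eq_zero_of_notMem_tsupport (fun hc => hx (hsub hc))
    have hgI : Integrable g := hgcont.integrable_of_hasCompactSupport hgc
    have hθl : ∀ x, x < a' → θ x = 0 := by
      intro x hx
      have : ∀ t ∈ uIcc al x, g t = 0 := by
        intro t ht
        apply hg0
        intro hc
        have : t < a' := by
          rcases le_total al x with h' | h'
          · rw [uIcc_of_le h'] at ht; linarith [ht.2]
          · rw [uIcc_of_ge h'] at ht; linarith [ht.2]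
        linarith [hc.1]
      rw [hθ]
      simp only
      rw [intervalIntegral.integral_congr (g := fun _ => (0 : ℝ)) this]
      simp
    have hθr : ∀ x, b' < x → θ x = 0 := by
      intro x hx
      have h1 : ∫ t, g t = ∫ t in al..x, g t := by
        by_cases hax : al ≤ x
        · rw [intervalIntegral.integral_of_le hax]
          symm
          apply setIntegral_eq_integral_of_forall_compl_eq_zero
          intro t ht
          apply hg0
          intro hc
          exact ht ⟨by linarith [hc.1], by linarith [hc.2]⟩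
        · -- then x < al < a', and b' < x < a' so Icc empty, g = 0
          have hz : ∀ t, g t = 0 := by
            intro t
            apply hg0
            intro hc
            linarith [hc.1, hc.2]
          have h2 : g = fun _ => 0 := funext hz
          rw [h2]
          simp
      rw [hθ]
      simp only
      rw [← h1, hgi]
    have hθts : tsupport θ ⊆ Icc a' b' := by
      refine closure_minimal ?_ isClosed_Icc
      intro x hx
      rw [Function.mem_support] at hx
      by_contra hcon
      rw [mem_Icc, not_and_or, not_le, not_le] at hcon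
      rcases hcon with h' | h'
      · exact hx (hθl x h')
      · exact hx (hθr x h')
    have hθc : HasCompactSupport θ := HasCompactSupport.of_support_subset_isCompact isCompact_Icc
      ((subset_tsupport θ).trans hθts)
    have := h θ hθs hθc (hθts.trans (Icc_subset_Ioo ha' hb'))
    rw [hderiv] at this
    exact this
  -- for all g : ∫ g (f - c) = 0
  have hae := (isOpen_Ioo (a := al) (b := be)).ae_eq_zero_of_integral_contDiff_smul_eq_zero
    (f := fun t => f t - c) (μ := volume) ?_ ?_
  · rw [ae_restrict_iff' measurableSet_Ioo]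
    filter_upwards [hae] with t ht hmem
    have := ht hmem
    linarith [this]
  · have h1 : IntegrableOn (fun t => f t - c) (Ioo al be) :=
      hf.sub (integrableOn_const (by simp [Real.volume_Ioo]) (by simp))
    exact h1.locallyIntegrableOn
  · intro g hg hgc hgt
    have hgcont : Continuous g := hg.continuous
    have hgI : Integrable g := hgcont.integrable_of_hasCompactSupport hgc
    have hηcont : Continuous η := hηs.continuous
    -- bounded
    obtain ⟨Cg, hCg⟩ := hgc.exists_bound_of_continuous hgcont
    obtain ⟨Cη, hCη⟩ := hηc.exists_bound_of_continuous hηcont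
    have hI1 : IntegrableOn (fun t => g t * f t) (Ioo al be) :=
      hf.bdd_mul hgcont.aestronglyMeasurable (ae_of_all _ hCg)
    have hI2 : IntegrableOn (fun t => η t * f t) (Ioo al be) :=
      hf.bdd_mul hηcont.aestronglyMeasurable (ae_of_all _ hCη)
    have hk := hcont (fun t => g t - (∫ r, g r) * η t)
      (hg.sub (contDiff_const.mul hηs))
      (hgc.sub (hηc.mul_left))
      ((tsupport_sub _ _).trans (union_subset hgt ((tsupport_mul_subset_right).trans hηt)))
      (by
        rw [integral_sub hgI ((hηcont.integrable_of_hasCompactSupport hηc).const_mul _),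
          integral_const_mul, hηi]
        ring)
    have e1 : ∫ t in Ioo al be, (g t - (∫ r, g r) * η t) * f t
        = (∫ t in Ioo al be, g t * f t) - (∫ r, g r) * c := by
      rw [hc, ← integral_const_mul, ← integral_sub hI1 (hI2.const_mul _)]
      congr 1
      ext t
      ring
    rw [e1] at hk
    have e2 : ∫ t, g t • (f t - c) = (∫ t in Ioo al be, g t * f t) - (∫ r, g r) * c := by
      have e3 : ∫ t, g t • (f t - c) = ∫ t in Ioo al be, g t • (f t - c) := by
        symm
        apply setIntegral_eq_integral_of_forall_compl_eq_zero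
        intro t ht
        have : g t = 0 := image_eq_zero_of_notMem_tsupport (fun hc => ht (hgt hc))
        rw [this, zero_smul]
      have e4 : ∫ r, g r = ∫ t in Ioo al be, g t := by
        symm
        apply setIntegral_eq_integral_of_forall_compl_eq_zero
        intro t ht
        exact image_eq_zero_of_notMem_tsupport (fun hc => ht (hgt hc))
      rw [e3, e4, ← integral_mul_const, ← integral_sub hI1 (hgI.integrableOn.mul_const _)]
      congr 1
      ext t
      simp only [smul_eq_mul]
      ring
    rw [e2]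
    exact hk

end Crest.Agent.R105.Sqr_185
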