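import Crest.Agent.R105.Sqr2_185

/-!
# R105 SQR (3): `b = const` from the first variation, exact squares (helper185)
-/

set_option autoImplicit false

open Set Filter Topology MeasureTheory Metric
open scoped ContDiff

namespace Crest.Agent.R105.Sqr_185

lemma measurableSet_sec {S : Set ℂ} (hS : MeasurableSet S) (t : ℝ) : MeasurableSet (sec S t) :=
  (continuous_mk_right t).measurable hS

/-- Fubini for functions of the real part on a measurable set. -/
theorem integral_re {S : Set ℂ} (hS : MeasurableSet S) {g : ℝ → ℝ} 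
    (hint : IntegrableOn (fun p : ℂ => g p.re) S) :
    (∫ p in S, g p.re = ∫ t, g t * (volume (sec S t)).toReal) ∧
      Integrable (fun t => g t * (volume (sec S t)).toReal) := by
  have hmp := Complex.volume_preserving_equiv_real_prod.symm
  have hI : Integrable (S.indicator fun p : ℂ => g p.re) := by
    rwa [integrable_indicator_iff hS]
  have hI2 : Integrable (fun q : ℝ × ℝ =>
      (S.indicator fun p : ℂ => g p.re) (Complex.measurableEquivRealProd.symm q)) :=
    hmp.integrable_comp_of_integrable hI
  have h1 : ∫ p in S, g p.re = ∫ q : ℝ × ℝ,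
      (S.indicator fun p : ℂ => g p.re) (Complex.measurableEquivRealProd.symm q) := by
    rw [← integral_indicator hS]
    exact (hmp.integral_comp Complex.measurableEquivRealProd.symm.measurableEmbedding _).symm
  have hin : ∀ t : ℝ, ∫ y : ℝ, (S.indicator fun p : ℂ => g p.re)
      (Complex.measurableEquivRealProd.symm (t, y)) = g t * (volume (sec S t)).toReal := by
    intro t
    have h2 : (fun y : ℝ => (S.indicator fun p : ℂ => g p.re)
        (Complex.measurableEquivRealProd.symm (t, y))) = (sec S t).indicator (fun _ => g t) := by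
      ext y
      by_cases hy : (⟨t, y⟩ : ℂ) ∈ S
      · have h3 : y ∈ sec S t := hy
        rw [indicator_of_mem h3]
        have h4 : (Complex.measurableEquivRealProd.symm (t, y) : ℂ) = ⟨t, y⟩ := rfl
        rw [h4, indicator_of_mem hy]
      · have h3 : y ∉ sec S t := hy
        rw [indicator_of_notMem h3]
        have h4 : (Complex.measurableEquivRealProd.symm (t, y) : ℂ) = ⟨t, y⟩ := rfl
        rw [h4, indicator_of_notMem hy]
    rw [h2, integral_indicator (measurableSet_sec hS t), setIntegral_const, smul_eq_mul, mul_comm]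
    rfl
  refine ⟨?_, ?_⟩
  · rw [h1, Measure.volume_eq_prod, integral_prod _ (by rwa [← Measure.volume_eq_prod])]
    exact integral_congr_ae (ae_of_all _ hin)
  · rw [Measure.volume_eq_prod] at hI2
    exact hI2.integral_prod_left.congr (ae_of_all _ hin)

/-- sum of an absolutely summable series of integrable functions -/
theorem integrable_tsum_real {ι : Type*} [Countable ι] {R : ι → ℝ → ℝ}
    (hR : ∀ i, Integrable (R i) volume) (hs : Summable fun i => ∫ x, ‖R i x‖) :
    Integrable (fun x => ∑' i, R i x) volume := by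
  have h0 : ∑' i, ∫⁻ x, ‖R i x‖ₑ ≠ ⊤ := by
    have h1 : ∀ i, ∫⁻ x, ‖R i x‖ₑ = ENNReal.ofReal (∫ x, ‖R i x‖) := fun i => by
      rw [ofReal_integral_norm_eq_lintegral_enorm (hR i)]
    simp only [h1]
    exact hs.tsum_ofReal_ne_top
  have h2 : ∫⁻ x, ∑' i, ‖R i x‖ₑ ≠ ⊤ := by
    rw [lintegral_tsum fun i => (hR i).1.enorm]
    exact h0
  have h3 : ∀ᵐ x ∂(volume : Measure ℝ), ∑' i, ‖R i x‖ₑ < ⊤ :=
    ae_lt_top' (AEMeasurable.tsum fun i => (hR i).1.enorm) h2
  have h4 : ∀ᵐ x ∂(volume : Measure ℝ), HasSum (fun i => R i x) (∑' i, R i x) := by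
    filter_upwards [h3] with x hx
    have h5 : Summable fun i => ‖R i x‖ := by
      have := ENNReal.summable_toReal hx.ne
      simpa using this
    exact h5.of_norm.hasSum
  have h6 : AEStronglyMeasurable (fun x => ∑' i, R i x) volume := by
    refine aestronglyMeasurable_of_tendsto_ae (Filter.atTop : Filter (Finset ι))
      (f := fun s x => ∑ i ∈ s, R i x) (fun s => ?_) ?_
    · exact Finset.aestronglyMeasurable_fun_sum s fun i _ => (hR i).1
    · filter_upwards [h4] with x hx
      exact hx
  refine ⟨h6, ?_⟩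
  refine lt_of_le_of_lt (lintegral_mono fun x => enorm_tsum_le_tsum_enorm) ?_
  exact h2.lt_top

/-- length of the part of the vertical line over `t` above `K` and below height `M` -/
noncomputable def upLen (K : Set ℂ) (M t : ℝ) : ℝ :=
  (volume {y : ℝ | (⟨t, y⟩ : ℂ) ∈ above K ∧ y < M}).toReal

lemma sec_above_Icc {K : Set ℂ} {t b c : ℝ} (hbc : b ≤ c) (h : sec K t = Icc b c) (M : ℝ) :
    {y : ℝ | (⟨t, y⟩ : ℂ) ∈ above K ∧ y < M} = Ioo c M := by
  ext y
  simp only [above, mem_ofPred_eq, mem_Ioo, h]
  constructor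
  · rintro ⟨h1, h2⟩
    exact ⟨h1 c ⟨hbc, le_rfl⟩, h2⟩
  · rintro ⟨h1, h2⟩
    exact ⟨fun z hz => lt_of_le_of_lt hz.2 h1, h2⟩

lemma upLen_eq {K : Set ℂ} {t b c M : ℝ} (hbc : b ≤ c) (h : sec K t = Icc b c) (hM : c ≤ M) :
    upLen K M t = M - c := by
  rw [upLen, sec_above_Icc hbc h, Real.volume_Ioo, ENNReal.toReal_ofReal (by linarith)]

/-- **`b` is constant**: if a.e. section of the compact set `K` over `(al, be)` is
`[b t, b t + s]` and `∫ θ'(t) |{y < M above K_t}| dt = 0` for all test functions, then the
sections are all the same. -/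
theorem b_const {K : Set ℂ} (hK : IsCompact K) {al be s M : ℝ} (hab : al < be) (hs : 0 ≤ s)
    (hM : ∀ p ∈ K, p.im ≤ M) {b : ℝ → ℝ}
    (hb : ∀ᵐ t ∂(volume.restrict (Ioo al be)), sec K t = Icc (b t) (b t + s))
    (hF : ∀ θ : ℝ → ℝ, ContDiff ℝ ∞ θ → HasCompactSupport θ → tsupport θ ⊆ Ioo al be →
      ∫ t in Ioo al be, deriv θ t * upLen K M t = 0) :
    ∃ b0 : ℝ, ∀ᵐ t ∂(volume.restrict (Ioo al be)), sec K t = Icc b0 (b0 + s) := by
  obtain ⟨R, hR⟩ := hK.isBounded.exists_norm_le
  have hlen : ∀ᵐ t ∂(volume.restrict (Ioo al be)), upLen K M t = M - (b t + s) := by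
    filter_upwards [hb] with t ht
    refine upLen_eq (by linarith) ht ?_
    exact hM ⟨t, b t + s⟩ (by
      have : b t + s ∈ sec K t := by rw [ht]; exact ⟨by linarith, le_rfl⟩
      exact this)
  have hmeas : Measurable (upLen K M) := by
    have hSm : MeasurableSet {q : ℝ × ℝ | (⟨q.1, q.2⟩ : ℂ) ∈ above K ∧ q.2 < M} :=
      (continuous_mk.measurable (isOpen_above hK).measurableSet).inter
        (measurableSet_lt measurable_snd measurable_const)
    exact (measurable_measure_prodMk_left hSm).ennreal_toReal
  have hint : IntegrableOn (upLen K M) (Ioo al be) := by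
    refine Measure.integrableOn_of_bounded (M := |M| + R) (by simp [Real.volume_Ioo])
      hmeas.aestronglyMeasurable ?_
    filter_upwards [hlen, hb] with t ht hbt
    have hmem : b t + s ∈ sec K t := by rw [hbt]; exact ⟨by linarith, le_rfl⟩
    have h1 : ‖(⟨t, b t + s⟩ : ℂ)‖ ≤ R := hR _ hmem
    have h2 : |b t + s| ≤ R := (Complex.abs_im_le_norm (⟨t, b t + s⟩ : ℂ)).trans h1
    rw [ht, Real.norm_eq_abs]
    calc |M - (b t + s)| ≤ |M| + |b t + s| := abs_sub _ _
      _ ≤ |M| + R := by linarith
  obtain ⟨c, hc⟩ := const_of_deriv hab hint hF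
  refine ⟨M - c - s, ?_⟩
  filter_upwards [hc, hlen, hb] with t h1 h2 h3
  have : b t = M - c - s := by linarith
  rw [h3, this]

/-- **first variation at the test function `θ(x)` above `K`** ==> the hypothesis of `b_const`.
`E` the whole complement, `L i` the solids with `|L i_t| = s i` for a.e. `t` in
`(α i, β i)` and `= 0` off `[α i, β i]`, the rest of `E` null on a.e. vertical line;
`up` = the solids above `K` over `(al, be)`. -/
theorem hF_of_firstVariation {ι : Type*} [Countable ι] {E K : Set ℂ} (hE : IsCompact E)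
    (hK : IsCompact K) (hKE : K ⊆ E) {al be M : ℝ} 
    (hKne : ∀ t ∈ Ioo al be, (sec K t).Nonempty)
    (L : ι → Set ℂ) (hLc : ∀ i, IsCompact (L i)) (hLE : ∀ i, L i ⊆ E)
    (hLd : Pairwise fun i j => Disjoint (L i) (L j))
    (α β : ι → ℝ) (hαβ : ∀ i, α i ≤ β i) (hsum : Summable fun i => (β i - α i) ^ 2)
    (hL : ∀ i, ∀ᵐ t : ℝ, volume (sec (L i) t) =
      (Ioo (α i) (β i)).indicator (fun _ => ENNReal.ofReal (β i - α i)) t)
    (hrest : ∀ᵐ t ∂(volume.restrict (Ioo al be)), volume (sec (E \ (K ∪ ⋃ i, L i)) t) = 0)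
    (up : Set ι) (hup : ∀ i ∈ up, L i ∩ Complex.re ⁻¹' (Ioo al be) ⊆ above K)
    (hdn : ∀ i ∉ up, L i ∩ Complex.re ⁻¹' (Ioo al be) ⊆ (above K)ᶜ)
    (hM : ∀ p ∈ E, p.im < M) {θ : ℝ → ℝ} (hθ : ContDiff ℝ ∞ θ) (hθc : HasCompactSupport θ)
    (hθs : tsupport θ ⊆ Ioo al be)
    (hFV : (∫ p in {p : ℂ | p ∉ E ∧ p ∈ above K ∧ p.re ∈ Ioo al be ∧ p.im < M}, deriv θ p.re)
      + ∑' i : ι, up.indicator (fun i => (β i - α i) * (θ (β i) - θ (α i))) i = 0) :
    ∫ t in Ioo al be, deriv θ t * upLen K M t = 0 := by
  classical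
  obtain ⟨R, hR⟩ := hE.isBounded.exists_norm_le
  have hθ'c : Continuous (deriv θ) := hθ.continuous_deriv (by simp)
  have hθ'cs : HasCompactSupport (deriv θ) := hθc.deriv
  obtain ⟨Cθ, hCθ⟩ := hθ'cs.exists_bound_of_continuous hθ'c
  have hCθ0 : 0 ≤ Cθ := (norm_nonneg _).trans (hCθ 0)
  set S : Set ℂ := {p : ℂ | p ∉ E ∧ p ∈ above K ∧ p.re ∈ Ioo al be ∧ p.im < M} with hS
  have hSm : MeasurableSet S := by
    have h1 : S = Eᶜ ∩ (above K ∩ (Complex.re ⁻¹' (Ioo al be) ∩ Complex.im ⁻¹' (Iio M))) := by
      ext p; simp [hS]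
    rw [h1]
    exact hE.isClosed.measurableSet.compl.inter ((isOpen_above hK).measurableSet.inter
      ((Complex.measurable_re measurableSet_Ioo).inter (Complex.measurable_im measurableSet_Iio)))
  -- S has finite volume
  have hSb : S ⊆ Complex.re ⁻¹' (Ioo al be) ∩ Complex.im ⁻¹' (Ioo (-R) M) := by
    rintro p ⟨_, h2, h3, h4⟩
    refine ⟨h3, ?_, h4⟩
    obtain ⟨y, hy⟩ := hKne p.re h3
    have h5 : y < p.im := h2 y hy
    have h6 : ‖(⟨p.re, y⟩ : ℂ)‖ ≤ R := hR _ (hKE hy)
    have h7 : |y| ≤ R := (Complex.abs_im_le_norm (⟨p.re, y⟩ : ℂ)).trans h6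
    have h8 := neg_le_of_abs_le h7
    show -R < p.im
    linarith
  have hSfin : volume S < ⊤ := by
    refine lt_of_le_of_lt (measure_mono hSb) ?_
    have h1 : volume (Complex.re ⁻¹' (Ioo al be) ∩ Complex.im ⁻¹' (Ioo (-R) M))
        = volume (Ioo al be) * volume (Ioo (-R) M) := by
      have h2 := Complex.volume_preserving_equiv_real_prod.measure_preimage
        (s := Ioo al be ×ˢ Ioo (-R) M) (measurableSet_Ioo.prod measurableSet_Ioo).nullMeasurableSet
      rw [Measure.volume_eq_prod, Measure.prod_prod] at h2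
      rw [← h2]
      rfl
    rw [h1, Real.volume_Ioo, Real.volume_Ioo]
    exact ENNReal.mul_lt_top ENNReal.ofReal_lt_top ENNReal.ofReal_lt_top
  have hSint : IntegrableOn (fun p : ℂ => deriv θ p.re) S :=
    Measure.integrableOn_of_bounded (M := Cθ) hSfin.ne
      (hθ'c.comp Complex.continuous_re).aestronglyMeasurable (ae_of_all _ fun p => hCθ p.re)
  obtain ⟨hf1, hf2⟩ := integral_re (g := deriv θ) hSm hSint
  -- derivative vanishes off Ioo
  have hθ0 : ∀ t, t ∉ Ioo al be → deriv θ t = 0 := fun t ht =>
    image_eq_zero_of_notMem_tsupport (fun hc => ht (hθs (tsupport_deriv_subset hc)))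
  -- the solid terms
  set ell : ι → ℝ → ℝ := fun i => (Ioo (α i) (β i)).indicator (fun _ => β i - α i) with hell
  have hellm : ∀ i, Measurable (ell i) := fun i =>
    measurable_const.indicator measurableSet_Ioo
  have hell0 : ∀ i t, 0 ≤ ell i t := fun i t => by
    simp only [hell]
    exact indicator_nonneg (fun _ _ => by linarith [hαβ i]) t
  have hellint : ∀ i, ∫ t, ‖deriv θ t * ell i t‖ ≤ Cθ * (β i - α i) ^ 2 := by
    intro i
    have h1 : ∀ t, ‖deriv θ t * ell i t‖ ≤ (Ioo (α i) (β i)).indicator
        (fun _ => Cθ * (β i - α i)) t := by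
      intro t
      by_cases ht : t ∈ Ioo (α i) (β i)
      · simp only [hell, indicator_of_mem ht, norm_mul]
        rw [Real.norm_of_nonneg (by linarith [hαβ i] : 0 ≤ β i - α i)]
        exact mul_le_mul_of_nonneg_right (hCθ t) (by linarith [hαβ i])
      · simp [hell, indicator_of_notMem ht]
    have h2 : ∫ t, ‖deriv θ t * ell i t‖
        ≤ ∫ t, (Ioo (α i) (β i)).indicator (fun _ => Cθ * (β i - α i)) t := by
          refine integral_mono_of_nonneg (ae_of_all _ fun _ => norm_nonneg _) ?_ (ae_of_all _ h1)
          exact (integrable_indicator_iff measurableSet_Ioo).2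
            (integrableOn_const (by simp [Real.volume_Ioo]))
    have h3 : ∫ t, (Ioo (α i) (β i)).indicator (fun _ => Cθ * (β i - α i)) t
        = Cθ * (β i - α i) ^ 2 := by
      rw [integral_indicator measurableSet_Ioo, setIntegral_const, smul_eq_mul,
        measureReal_def, Real.volume_Ioo, ENNReal.toReal_ofReal (by linarith [hαβ i])]
      ring
    exact h2.trans h3.le
  have helli : ∀ i, Integrable (fun t => deriv θ t * ell i t) := by
    intro i
    have h1 : Integrable (ell i) := (integrable_indicator_iff measurableSet_Ioo).2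
      (integrableOn_const (by simp [Real.volume_Ioo]) (by simp))
    exact h1.bdd_mul hθ'c.aestronglyMeasurable (ae_of_all _ hCθ)
  have hterm : ∀ i, ∫ t, deriv θ t * ell i t = (β i - α i) * (θ (β i) - θ (α i)) := by
    intro i
    have h1 : (fun t => deriv θ t * ell i t) = (Ioo (α i) (β i)).indicator
        (fun t => deriv θ t * (β i - α i)) := by
      ext t
      by_cases ht : t ∈ Ioo (α i) (β i)
      · simp [hell, indicator_of_mem ht]
      · simp [hell, indicator_of_notMem ht]
    rw [h1, integral_indicator measurableSet_Ioo, ← integral_Ioc_eq_integral_Ioo,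
      ← intervalIntegral.integral_of_le (hαβ i), intervalIntegral.integral_mul_const,
      intervalIntegral.integral_deriv_eq_sub (fun x _ => (hθ.differentiable (by simp)) x)
        (hθ'c.intervalIntegrable _ _)]
    ring
  -- sum over up
  have hsumI : ∑' i : ι, up.indicator (fun i => (β i - α i) * (θ (β i) - θ (α i))) i
      = ∫ t, ∑' i : ι, up.indicator (fun i => deriv θ t * ell i t) i := by
    have h1 : ∀ i, Integrable (fun t => up.indicator (fun i => deriv θ t * ell i t) i) := by
      intro i
      by_cases hi : i ∈ up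
      · simpa [indicator_of_mem hi] using helli i
      · simp [indicator_of_notMem hi]
    have h2 : Summable fun i => ∫ t, ‖up.indicator (fun i => deriv θ t * ell i t) i‖ := by
      refine Summable.of_nonneg_of_le (fun i => integral_nonneg fun _ => norm_nonneg _) ?_
        (hsum.mul_left Cθ)
      intro i
      by_cases hi : i ∈ up
      · simpa [indicator_of_mem hi] using hellint i
      · simp only [indicator_of_notMem hi, norm_zero, integral_zero]
        positivity
    rw [← integral_tsum_of_summable_integral_norm h1 h2]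
    congr 1
    ext i
    by_cases hi : i ∈ up
    · simp only [indicator_of_mem hi]
      exact (hterm i).symm
    · simp [indicator_of_notMem hi]
  -- a.e. identity
  have hae : ∀ᵐ t : ℝ, deriv θ t * upLen K M t * (Ioo al be).indicator 1 t
      = deriv θ t * (volume (sec S t)).toReal
        + ∑' i : ι, up.indicator (fun i => deriv θ t * ell i t) i := by
    have hL' : ∀ᵐ t : ℝ, ∀ i, volume (sec (L i) t) =
      (Ioo (α i) (β i)).indicator (fun _ => ENNReal.ofReal (β i - α i)) t := ae_all_iff.2 hL
    rw [ae_restrict_iff' measurableSet_Ioo] at hrest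
    filter_upwards [hL', hrest] with t h1 h2
    by_cases ht : t ∈ Ioo al be
    · rw [indicator_of_mem ht]
      simp only [Pi.one_apply, mul_one]
      have h3 : ∑' i : ι, up.indicator (fun i => deriv θ t * ell i t) i
          = deriv θ t * ∑' i : ι, up.indicator (fun i => ell i t) i := by
        rw [← tsum_mul_left]
        congr 1
        ext i
        by_cases hi : i ∈ up
        · simp [indicator_of_mem hi]
        · simp [indicator_of_notMem hi]
      rw [h3, ← mul_add]
      congr 1
      -- decomposition of the line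
      have hup' : ∀ i, up.indicator (fun i => ell i t) i
          = (volume (sec (L i) t ∩ {y | (⟨t, y⟩ : ℂ) ∈ above K})).toReal := by
        intro i
        have hv : (volume (sec (L i) t)).toReal = ell i t := by
          rw [h1 i]
          by_cases hti : t ∈ Ioo (α i) (β i)
          · simp only [hell, indicator_of_mem hti]
            rw [ENNReal.toReal_ofReal (by linarith [hαβ i])]
          · simp [hell, indicator_of_notMem hti]
        by_cases hi : i ∈ up
        · rw [indicator_of_mem hi, ← hv]
          congr 2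
          symm
          rw [inter_eq_left]
          intro y hy
          exact hup i hi ⟨hy, ht⟩
        · rw [indicator_of_notMem hi]
          have h5 : sec (L i) t ∩ {y | (⟨t, y⟩ : ℂ) ∈ above K} = ∅ := by
            rw [eq_empty_iff_forall_notMem]
            rintro y ⟨hy, hya⟩
            exact hdn i hi ⟨hy, ht⟩ hya
          rw [h5]
          simp
      have hfinl : volume {y : ℝ | (⟨t, y⟩ : ℂ) ∈ above K ∧ y < M} < ⊤ := by
        have h5 : {y : ℝ | (⟨t, y⟩ : ℂ) ∈ above K ∧ y < M} ⊆ Ioo (-R) M := by
          rintro y ⟨hy, hyM⟩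
          obtain ⟨z, hz⟩ := hKne t ht
          have h6 : z < y := hy z hz
          have h7 : |z| ≤ R := (Complex.abs_im_le_norm (⟨t, z⟩ : ℂ)).trans (hR _ (hKE hz))
          exact ⟨by linarith [neg_le_of_abs_le h7], hyM⟩
        exact lt_of_le_of_lt (measure_mono h5) (by simp [Real.volume_Ioo])
      set P : Set ℝ := {y : ℝ | (⟨t, y⟩ : ℂ) ∈ above K} with hP
      have hPm : MeasurableSet P :=
        (continuous_mk_right t).measurable (isOpen_above hK).measurableSet
      have hset : {y : ℝ | (⟨t, y⟩ : ℂ) ∈ above K ∧ y < M}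
          = sec S t ∪ ((⋃ i, sec (L i) t ∩ P) ∪ (sec (E \ (K ∪ ⋃ i, L i)) t ∩ P)) := by
        ext y
        constructor
        · rintro ⟨hy, hyM⟩
          by_cases hyE : (⟨t, y⟩ : ℂ) ∈ E
          · right
            have hyK : (⟨t, y⟩ : ℂ) ∉ K := not_mem_of_above hy
            by_cases hyL : ∃ i, (⟨t, y⟩ : ℂ) ∈ L i
            · obtain ⟨i, hi⟩ := hyL
              exact Or.inl (mem_iUnion.2 ⟨i, hi, hy⟩)
            · right
              refine ⟨⟨hyE, ?_⟩, hy⟩
              rintro (h5 | h5)
              · exact hyK h5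
              · obtain ⟨i, hi⟩ := mem_iUnion.1 h5
                exact hyL ⟨i, hi⟩
          · left
            exact ⟨hyE, hy, ht, hyM⟩
        · rintro (⟨_, h5, _, h6⟩ | h5 | ⟨h5, h6⟩)
          · exact ⟨h5, h6⟩
          · obtain ⟨i, hi, hi2⟩ := mem_iUnion.1 h5
            exact ⟨hi2, hM _ (hLE i hi)⟩
          · exact ⟨h6, hM _ h5.1⟩
      have hLm : ∀ i, MeasurableSet (sec (L i) t ∩ P) := fun i =>
        (measurableSet_sec (hLc i).measurableSet t).inter hPm
      have hv0 : volume (sec (E \ (K ∪ ⋃ i, L i)) t ∩ P) = 0 :=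
        measure_mono_null inter_subset_left (h2 ht)
      have hd1 : Disjoint (sec S t) (⋃ i, sec (L i) t ∩ P) := by
        rw [disjoint_left]
        rintro y hy hy2
        obtain ⟨i, hi, _⟩ := mem_iUnion.1 hy2
        exact hy.1 (hLE i hi)
      have hv1 : volume {y : ℝ | (⟨t, y⟩ : ℂ) ∈ above K ∧ y < M}
          = volume (sec S t) + ∑' i, volume (sec (L i) t ∩ P) := by
        rw [hset, ← union_assoc]
        have h5 : volume (sec S t ∪ (⋃ i, sec (L i) t ∩ P) ∪ (sec (E \ (K ∪ ⋃ i, L i)) t ∩ P))
            = volume (sec S t ∪ (⋃ i, sec (L i) t ∩ P)) := by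
          apply le_antisymm
          · refine (measure_union_le _ _).trans ?_
            rw [hv0, add_zero]
          · exact measure_mono subset_union_left
        rw [h5, measure_union hd1 (MeasurableSet.iUnion hLm), measure_iUnion _ hLm]
        intro i j hij
        refine Disjoint.mono inter_subset_left inter_subset_left ?_
        rw [disjoint_left]
        intro y hy1 hy2
        exact disjoint_left.1 (hLd hij) hy1 hy2
      have hS1 : volume (sec S t) ≠ ⊤ := by
        have : volume (sec S t) ≤ volume {y : ℝ | (⟨t, y⟩ : ℂ) ∈ above K ∧ y < M} := by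
          rw [hv1]; exact le_self_add
        exact (lt_of_le_of_lt this hfinl).ne
      have hS2 : ∑' i, volume (sec (L i) t ∩ P) ≠ ⊤ := by
        have : ∑' i, volume (sec (L i) t ∩ P)
            ≤ volume {y : ℝ | (⟨t, y⟩ : ℂ) ∈ above K ∧ y < M} := by
          rw [hv1]; exact le_add_self
        exact (lt_of_le_of_lt this hfinl).ne
      rw [upLen, hv1, ENNReal.toReal_add hS1 hS2, ENNReal.tsum_toReal_eq (fun i =>
        ne_top_of_le_ne_top hS2 (ENNReal.le_tsum i))]
      congr 1
      exact tsum_congr fun i => (hup' i).symm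
    · rw [indicator_of_notMem ht, hθ0 t ht]
      simp
  -- conclude
  have hfin : ∫ t in Ioo al be, deriv θ t * upLen K M t
      = ∫ t, deriv θ t * upLen K M t * (Ioo al be).indicator 1 t := by
    rw [← integral_indicator measurableSet_Ioo]
    congr 1
    ext t
    by_cases ht : t ∈ Ioo al be
    · simp [indicator_of_mem ht]
    · simp [indicator_of_notMem ht]
  have hI3 : Integrable (fun t => ∑' i : ι, up.indicator (fun i => deriv θ t * ell i t) i) := by
    -- from the identity: difference of integrable functions is not available; use domination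
    have h1 : ∀ i, Integrable (fun t => up.indicator (fun i => deriv θ t * ell i t) i) := by
      intro i
      by_cases hi : i ∈ up
      · simpa [indicator_of_mem hi] using helli i
      · simp [indicator_of_notMem hi]
    have h2 : Summable fun i => ∫ t, ‖up.indicator (fun i => deriv θ t * ell i t) i‖ := by
      refine Summable.of_nonneg_of_le (fun i => integral_nonneg fun _ => norm_nonneg _) ?_
        (hsum.mul_left Cθ)
      intro i
      by_cases hi : i ∈ up
      · simpa [indicator_of_mem hi] using hellint i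
      · simp only [indicator_of_notMem hi, norm_zero, integral_zero]
        positivity
    exact integrable_tsum_real h1 h2
  rw [hfin, integral_congr_ae hae, integral_add hf2 hI3, ← hf1, ← hsumI]
  exact hFV

end Crest.Agent.R105.Sqr_185
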