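import Crest.Agent.R105.Sqr5_185

/-!
# R105 SQR (6): exact squares from the `T`-minimality in the picture (helper185)

`MINT E φ` : the `T`-functional at `re` does not decrease in the direction `φ`.
`exists_sqK` : every component of positive width is an exact square with attached vertical
pieces over a null set.
-/

set_option autoImplicit false

open Set Filter Topology MeasureTheory Metric
open scoped ContDiff NNReal

namespace Crest.Agent.R105.Sqr_185

open Tc_808 Bd_775

/-- `T`-minimality of `re` in the direction `φ` (difference form) -/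
def MINT (E : Set ℂ) (φ : ℂ → ℝ) : Prop :=
  0 ≤ 2 * (∫ w in Eᶜ, fderiv ℝ φ w 1) + (∫ w in Eᶜ, en φ w)
    + ∑' K : Cmp E, (osc E (fun w => w.re + φ w) K.1 ^ 2 - osc E (fun w => w.re) K.1 ^ 2)

/-- width of a component -/
noncomputable def wd (K : Set ℂ) : ℝ := hi K - lo K

lemma linear_of_quadratic {A B δ : ℝ} (hδ : 0 < δ) (h : ∀ τ : ℝ, |τ| ≤ δ → 0 ≤ 2 * τ * A + τ ^ 2 * B) :
    A = 0 := by
  by_contra hA
  -- choose `τ` of sign opposite to `A`, small
  have hA0 : 0 < |A| := abs_pos.2 hA
  set t : ℝ := min δ (|A| / (|B| + 1)) with ht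
  have ht0 : 0 < t := lt_min hδ (by positivity)
  have ht1 : t * (|B| + 1) ≤ |A| := by
    have h1 : t ≤ |A| / (|B| + 1) := min_le_right _ _
    rwa [le_div_iff₀ (by positivity)] at h1
  have hB : t ^ 2 * B ≤ t * |A| := by
    have h1 : t ^ 2 * B ≤ t ^ 2 * |B| := mul_le_mul_of_nonneg_left (le_abs_self B) (by positivity)
    have h2 : t ^ 2 * |B| ≤ t * |A| := by nlinarith
    linarith
  rcases lt_or_gt_of_ne hA with h1 | h1
  · have h2 := h t (by rw [abs_of_pos ht0]; exact min_le_left _ _)
    rw [abs_of_neg h1] at hB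
    nlinarith
  · have h2 := h (-t) (by rw [abs_neg, abs_of_pos ht0]; exact min_le_left _ _)
    rw [abs_of_pos h1] at hB
    nlinarith

variable {E : Set ℂ}

/-- first variation in the direction of `θ(x) κ(y)` above `K` -/
theorem firstVariation (hE : IsCompact E) (hs : ∀ L : Cmp E, ∀ t, OrdConnected (sec L.1 t))
    (hsum : Summable fun L : Cmp E => wd L.1 ^ 2) (K : Cmp E) {al be : ℝ} (hal : lo K.1 ≤ al)
    (hbe : be ≤ hi K.1) {θ : ℝ → ℝ} (hθ : ContDiff ℝ ∞ θ) (hθc : HasCompactSupport θ)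
    (hθs : tsupport θ ⊆ Ioo al be) {κ : ℝ → ℝ} (hκ : ∀ p ∈ E, ∀ᶠ y in 𝓝 p.im, κ y = 1)
    {δ : ℝ} (hδ : 0 < δ)
    (hmin : ∀ τ : ℝ, |τ| ≤ δ → MINT E (fun z => τ * (up K.1 θ z * κ z.im))) :
    (∫ w in Eᶜ, fderiv ℝ (fun w => up K.1 θ w * κ w.im) w 1)
      + ∑' L : Cmp E, wd L.1 * Del K.1 al be θ L.1 = 0 := by
  classical
  have hK := K.isCompact hE
  have hne : ∀ t ∈ Ioo al be, (sec K.1 t).Nonempty := fun t ht =>
    sec_nonempty hK K.preconn K.nonempty ⟨by linarith [ht.1], by linarith [ht.2]⟩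
  have hθ'c : Continuous (deriv θ) := hθ.continuous_deriv (by simp)
  obtain ⟨C, hC⟩ := hθc.deriv.exists_bound_of_continuous hθ'c
  have hC0 : 0 ≤ C := (norm_nonneg _).trans (hC 0)
  have hθd : Differentiable ℝ θ := hθ.differentiable (by simp)
  have hw0 : ∀ L : Cmp E, 0 ≤ wd L.1 := fun L => by
    have := lo_le_hi (L.isCompact hE) L.nonempty
    simp only [wd]; linarith
  have hDel : ∀ L : Cmp E, |Del K.1 al be θ L.1| ≤ C * wd L.1 := fun L =>
    abs_Del_le hθd hC (by have := hw0 L; simp only [wd] at this; linarith)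
  have hDK : Ioo al be = ∅ ∨ Del K.1 al be θ K.1 = 0 := by
    by_cases h : (Ioo al be).Nonempty
    · right
      obtain ⟨t, ht⟩ := h
      unfold Del
      split_ifs with hup
      · obtain ⟨y, hy⟩ := hne t ht
        exact absurd hy (not_mem_of_above (hup ⟨hy, ht⟩))
      · rfl
    · left; exact not_nonempty_iff_eq_empty.1 h
  -- the oscillations
  have hosc : ∀ τ : ℝ, |τ| * C ≤ 1 → ∀ L : Cmp E,
      osc E (fun z => z.re + τ * (up K.1 θ z * κ z.im)) L.1 = wd L.1 + τ * Del K.1 al be θ L.1 := by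
    intro τ hτ L
    by_cases hLK : L = K
    · subst hLK
      rw [osc_self hE L hal hbe hθ hθs hC hτ hκ]
      rcases hDK with h | h
      · have hθ0 : ∀ t, θ t = 0 := by
          intro t
          apply image_eq_zero_of_notMem_tsupport
          intro hc
          have := hθs hc
          rw [h] at this
          exact this
        have : Del L.1 al be θ L.1 = 0 := by
          unfold Del
          split_ifs
          · rw [hθ0, hθ0, sub_zero]
          · rfl
        rw [this, mul_zero, add_zero]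
        rfl
      · rw [h, mul_zero, add_zero]
        rfl
    · exact osc_other hE hK (hs K) hne hθ hθs hC hτ hκ L (hs L)
        (Cmp.disjoint (fun h => hLK h.symm))
  -- the sums
  have hS1 : Summable fun L : Cmp E => wd L.1 * Del K.1 al be θ L.1 := by
    refine Summable.of_norm_bounded (hsum.mul_left C) fun L => ?_
    rw [norm_mul, Real.norm_eq_abs, Real.norm_eq_abs, abs_of_nonneg (hw0 L)]
    nlinarith [hDel L, hw0 L, abs_nonneg (Del K.1 al be θ L.1)]
  have hS2 : Summable fun L : Cmp E => Del K.1 al be θ L.1 ^ 2 := by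
    refine Summable.of_nonneg_of_le (fun _ => sq_nonneg _) (fun L => ?_) (hsum.mul_left (C ^ 2))
    rw [← sq_abs, ← mul_pow]
    exact pow_le_pow_left₀ (abs_nonneg _) (hDel L) 2
  refine linear_of_quadratic (δ := min δ (1 / (C + 1))) (lt_min hδ (by positivity))
    (B := (∫ w in Eᶜ, en (fun w => up K.1 θ w * κ w.im) w)
      + ∑' L : Cmp E, Del K.1 al be θ L.1 ^ 2) fun τ hτ => ?_
  have hτC : |τ| * C ≤ 1 := by
    have h1 : |τ| ≤ 1 / (C + 1) := hτ.trans (min_le_right _ _)
    rw [le_div_iff₀ (by positivity)] at h1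
    nlinarith [abs_nonneg τ]
  have h := hmin τ (hτ.trans (min_le_left _ _))
  unfold MINT at h
  have e1 : ∀ w, fderiv ℝ (fun z => τ * (up K.1 θ z * κ z.im)) w
      = τ • fderiv ℝ (fun w => up K.1 θ w * κ w.im) w := by
    intro w
    have h1 := congrFun (fderiv_const_smul_field (𝕜 := ℝ) (f := fun w => up K.1 θ w * κ w.im) τ) w
    exact h1
  have e2 : ∫ w in Eᶜ, fderiv ℝ (fun z => τ * (up K.1 θ z * κ z.im)) w 1
      = τ * ∫ w in Eᶜ, fderiv ℝ (fun w => up K.1 θ w * κ w.im) w 1 := by
    rw [← integral_const_mul]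
    congr 1
    ext w
    rw [e1 w]
    rfl
  have e3 : ∫ w in Eᶜ, en (fun z => τ * (up K.1 θ z * κ z.im)) w
      = τ ^ 2 * ∫ w in Eᶜ, en (fun w => up K.1 θ w * κ w.im) w := by
    rw [← integral_const_mul]
    congr 1
    ext w
    simp only [en, gx, gy]
    rw [e1 w]
    simp only [_root_.smul_apply, smul_eq_mul]
    ring
  have e4 : ∀ L : Cmp E, osc E (fun z => z.re + τ * (up K.1 θ z * κ z.im)) L.1 ^ 2
      - osc E (fun w => w.re) L.1 ^ 2
      = 2 * τ * (wd L.1 * Del K.1 al be θ L.1) + τ ^ 2 * Del K.1 al be θ L.1 ^ 2 := by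
    intro L
    rw [hosc τ hτC L, osc_re hE L]
    simp only [wd]
    ring
  rw [e2, e3, tsum_congr e4, Summable.tsum_add (hS1.mul_left _) (hS2.mul_left _), tsum_mul_left,
    tsum_mul_left] at h
  nlinarith [h]

/-- compact sections which are intervals of known length -/
lemma sec_eq_Icc {K : Set ℂ} (hK : IsCompact K) {t s : ℝ} (hs : OrdConnected (sec K t))
    (h0 : 0 < s) (hv : volume (sec K t) = ENNReal.ofReal s) :
    sec K t = Icc (sInf (sec K t)) (sInf (sec K t) + s) := by
  have hc := isCompact_sec hK t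
  have hne : (sec K t).Nonempty := by
    rw [nonempty_iff_ne_empty]
    intro h
    rw [h, measure_empty] at hv
    exact absurd (ENNReal.ofReal_pos.2 h0) (by rw [← hv]; simp)
  have hlo := hc.sInf_mem hne
  have hhi := hc.sSup_mem hne
  have heq : sec K t = Icc (sInf (sec K t)) (sSup (sec K t)) :=
    Subset.antisymm (fun y hy => ⟨csInf_le hc.bddBelow hy, le_csSup hc.bddAbove hy⟩)
      (hs.out hlo hhi)
  have hle : sInf (sec K t) ≤ sSup (sec K t) := csInf_le hc.bddBelow hhi
  have h2 : volume (sec K t) = ENNReal.ofReal (sSup (sec K t) - sInf (sec K t)) := by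
    conv_lhs => rw [heq]
    rw [Real.volume_Icc]
  rw [h2] at hv
  have h3 : sSup (sec K t) - sInf (sec K t) = s := by
    have := congrArg ENNReal.toReal hv
    rwa [ENNReal.toReal_ofReal (by linarith), ENNReal.toReal_ofReal h0.le] at this
  have h4 : sSup (sec K t) = sInf (sec K t) + s := by linarith
  rw [← h4]
  exact heq

/-- **exact squares.** `E` compact, all vertical sections of the components are intervals, a.e.
section of the component `L` over its projection has length `wd L` (and measure `0` elsewhere),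
the components of width `0` are together null, `Σ wd² < ∞`, and the `T`-functional does not
decrease in the directions `τ θ(x) κ(y) 1_{above K}`. Then every component of positive width is
an exact square plus vertical pieces over a null set. -/
theorem exists_sqK (hE : IsCompact E) (hs : ∀ L : Cmp E, ∀ t, OrdConnected (sec L.1 t))
    (hsum : Summable fun L : Cmp E => wd L.1 ^ 2)
    (hvol : ∀ L : Cmp E, 0 < wd L.1 → ∀ᵐ t : ℝ, volume (sec L.1 t)
      = (Icc (lo L.1) (hi L.1)).indicator (fun _ => ENNReal.ofReal (wd L.1)) t)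
    (hrest : volume (E \ ⋃ L : {L : Cmp E // 0 < wd L.1}, L.1.1) = 0) (K : Cmp E)
    (hK0 : 0 < wd K.1)
    (hmin : ∀ θ : ℝ → ℝ, ContDiff ℝ ∞ θ → HasCompactSupport θ →
      tsupport θ ⊆ Ioo (lo K.1) (hi K.1) →
      ∀ κ : ℝ → ℝ, ContDiff ℝ ∞ κ → HasCompactSupport κ → (∀ p ∈ E, ∀ᶠ y in 𝓝 p.im, κ y = 1) →
      ∃ δ > 0, ∀ τ : ℝ, |τ| ≤ δ → MINT E (fun z => τ * (up K.1 θ z * κ z.im))) :
    ∃ b : ℝ, SqK K.1 (lo K.1) b (wd K.1) := by
  classical
  have hK := K.isCompact hE
  have hw0 : ∀ L : Cmp E, 0 ≤ wd L.1 := fun L => by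
    have := lo_le_hi (L.isCompact hE) L.nonempty
    simp only [wd]; linarith
  have hhi : hi K.1 = lo K.1 + wd K.1 := by simp only [wd]; ring
  have hlh : lo K.1 < hi K.1 := by simp only [wd] at hK0; linarith
  -- the index set is countable
  have hcnt : Countable {L : Cmp E // 0 < wd L.1} := by
    have h1 := hsum.countable_support
    refine (h1.mono ?_).to_subtype
    intro L hL
    have hL' : 0 < wd L.1 := hL
    simp only [Function.mem_support]
    positivity
  obtain ⟨R₀, hR₀⟩ := hE.isBounded.exists_norm_le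
  set R : ℝ := |R₀| + 1 with hR
  have hEb : ∀ p ∈ E, -R < p.im ∧ p.im < R := by
    intro p hp
    have h1 := (Complex.abs_im_le_norm p).trans (hR₀ p hp)
    have h2 := abs_le.1 (h1.trans (le_abs_self R₀))
    constructor
    · simp only [hR]; linarith [h2.1]
    · simp only [hR]; linarith [h2.2]
  -- cut-off in `y`
  obtain ⟨κ, hκc, hκ0, hκ1⟩ : ∃ κ : ℝ → ℝ, ContDiff ℝ ∞ κ ∧ HasCompactSupport κ ∧
      ∀ y ∈ Icc (-R) R, κ y = 1 := by
    have hRpos : 0 < R := by positivity
    let B : ContDiffBump (0 : ℝ) := ⟨R, R + 1, hRpos, by linarith⟩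
    refine ⟨B, B.contDiff, B.hasCompactSupport, fun y hy => B.one_of_mem_closedBall ?_⟩
    rw [mem_closedBall, Real.dist_eq, sub_zero, abs_le]
    exact hy
  have hκE : ∀ p ∈ E, ∀ᶠ y in 𝓝 p.im, κ y = 1 := by
    intro p hp
    have := hEb p hp
    filter_upwards [isOpen_Ioo.mem_nhds (⟨this.1, this.2⟩ : p.im ∈ Ioo (-R) R)] with y hy
    exact hκ1 y ⟨hy.1.le, hy.2.le⟩
  have hne : ∀ t ∈ Ioo (lo K.1) (hi K.1), (sec K.1 t).Nonempty := fun t ht =>
    sec_nonempty hK K.preconn K.nonempty ⟨ht.1.le, ht.2.le⟩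
  -- a.e. sections of `K`
  have hb : ∀ᵐ t ∂(volume.restrict (Ioo (lo K.1) (hi K.1))),
      sec K.1 t = Icc (sInf (sec K.1 t)) (sInf (sec K.1 t) + wd K.1) := by
    rw [ae_restrict_iff' measurableSet_Ioo]
    filter_upwards [hvol K hK0] with t ht htI
    have htI' : t ∈ Icc (lo K.1) (hi K.1) := ⟨htI.1.le, htI.2.le⟩
    rw [indicator_of_mem htI'] at ht
    exact sec_eq_Icc hK (hs K t) hK0 ht
  rw [hhi] at hb hne
  refine sqK_of_firstVariation hK (M := R) hK0
    (fun p hp => ⟨lo_le hK hp, by rw [← hhi]; exact le_hi hK hp⟩)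
    (fun p hp => (hEb p (K.subset hp)).2.le) (b := fun t => sInf (sec K.1 t)) hb ?_
  intro θ hθ hθc hθs
  rw [← hhi] at hθs hne ⊢
  obtain ⟨δ, hδ, hmin'⟩ := hmin θ hθ hθc hθs κ hκc hκ0 hκE
  have hFV := firstVariation hE hs hsum K le_rfl le_rfl hθ hθc hθs hκE hδ hmin'
  rw [integral_up hE hK K.subset (hs K) hne (fun p hp => (hEb p hp).2)
    (fun p hp => (hEb p hp).1) hθ hθc hθs hκc hκ0 hκ1] at hFV
  -- index family
  set up' : Set {L : Cmp E // 0 < wd L.1} := {L | Up K.1 (lo K.1) (hi K.1) L.1.1} with hup'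
  refine hF_of_firstVariation (ι := {L : Cmp E // 0 < wd L.1}) hE hK K.subset (al := lo K.1)
    (be := hi K.1) (M := R) hne
    (fun L => L.1.1) (fun L => L.1.isCompact hE) (fun L => L.1.subset)
    (fun L L' hLL => Cmp.disjoint fun h => hLL (Subtype.ext h))
    (fun L => lo L.1.1) (fun L => hi L.1.1) (fun L => lo_le_hi (L.1.isCompact hE) L.1.nonempty)
    (hsum.comp_injective Subtype.val_injective) ?_ ?_ up' (fun L hL => hL) ?_
    (fun p hp => (hEb p hp).2) hθ hθc hθs ?_
  · -- sections of the solids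
    intro L
    have h2 : ∀ᵐ t : ℝ, t ∉ ({lo L.1.1, hi L.1.1} : Set ℝ) :=
      measure_eq_zero_iff_ae_notMem.1 ((Set.toFinite _).measure_zero _)
    filter_upwards [hvol L.1 L.2, h2] with t h1 h2
    rw [h1]
    by_cases ht : t ∈ Ioo (lo L.1.1) (hi L.1.1)
    · have ht' : t ∈ Icc (lo L.1.1) (hi L.1.1) := ⟨ht.1.le, ht.2.le⟩
      rw [indicator_of_mem ht, indicator_of_mem ht']
      rfl
    · rw [indicator_of_notMem ht, indicator_of_notMem]
      rintro ⟨h3, h4⟩
      refine ht ⟨lt_of_le_of_ne h3 ?_, lt_of_le_of_ne h4 ?_⟩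
      · rintro rfl; exact h2 (by simp)
      · rintro rfl; exact h2 (by simp)
  · -- the rest is null on a.e. line
    have hm : MeasurableSet (E \ (K.1 ∪ ⋃ L : {L : Cmp E // 0 < wd L.1}, L.1.1)) :=
      hE.isClosed.measurableSet.diff (hK.isClosed.measurableSet.union
        (MeasurableSet.iUnion fun L => (L.1.isCompact hE).isClosed.measurableSet))
    have h0 : volume (E \ (K.1 ∪ ⋃ L : {L : Cmp E // 0 < wd L.1}, L.1.1)) = 0 := by
      refine measure_mono_null ?_ hrest
      rintro p ⟨h1, h2⟩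
      exact ⟨h1, fun h3 => h2 (Or.inr h3)⟩
    refine ae_restrict_of_ae ?_
    have h1 := Complex.volume_preserving_equiv_real_prod.symm.measure_preimage
      hm.nullMeasurableSet
    rw [h0, Measure.volume_eq_prod] at h1
    have h2 := (Measure.measure_prod_null
      (Complex.volume_preserving_equiv_real_prod.symm.measurable hm)).1 h1
    filter_upwards [h2] with t ht
    exact ht
  · -- not above
    intro L hL p hp hpa
    have hLK : L.1 ≠ K ∨ L.1 = K := (ne_or_eq _ _)
    rcases hLK with h | h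
    · rcases side_of_disjoint hK (hs K) (L.1.isCompact hE) L.1.preconn (hs L.1)
        (Cmp.disjoint (fun hc => h hc.symm)) ordConnected_Ioo hne with h1 | h1
      · exact hL h1
      · exact above_disjoint_below (hne _ hp.2) hpa (h1 hp)
    · have : p ∈ K.1 := by
        have := hp.1
        rw [h] at this
        exact this
      exact not_mem_of_above hpa this
  · -- the sum
    refine Eq.trans ?_ hFV
    congr 1
    have h1 : (fun L : Cmp E => wd L.1 * Del K.1 (lo K.1) (hi K.1) θ L.1).support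
        ⊆ {L : Cmp E | 0 < wd L.1} := by
      intro L hL
      rcases (hw0 L).lt_or_eq with h | h
      · exact h
      · exfalso
        apply hL
        simp only
        rw [← h, zero_mul]
    rw [← tsum_subtype_eq_of_support_subset h1]
    refine tsum_congr fun L => ?_
    by_cases hL : L ∈ up'
    · rw [indicator_of_mem hL]
      have hL' : Up K.1 (lo K.1) (hi K.1) L.1.1 := hL
      simp only [wd, Del]
      rw [if_pos hL']
    · rw [indicator_of_notMem hL]
      have hL' : ¬ Up K.1 (lo K.1) (hi K.1) L.1.1 := hL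
      simp only [wd, Del]
      rw [if_neg hL', mul_zero]

end Crest.Agent.R105.Sqr_185
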