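import Crest.Agent.R105.SqC_87
import Crest.Agent.R105.SqF2_136

/-! Row 105, S0138, exact squares: oscillation of the stream function over one charged square
(leaf (W) of 87 #10566). -/

open MeasureTheory Set Filter Topology

namespace Crest.Agent.R105.Sqw_693

open Crest.Agent.R105.Mp_87 (lam Rc ae_x_of_ae ae_y_of_ae)
open Crest.Agent.R105.Sq_87

variable {ι : Type} {Q : Rects ι} {a b c B σ : ℝ} {X1 X2 ψ Ψ : ℝ × ℝ → ℝ}
  {μ : Measure (ℝ × ℝ)} {i : ι} {M : ℝ}

/-- property (F3) of the fill, for the rectangle `i` (`M = 2 * f i`) -/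
structure F3 (Q : Rects ι) (i : ι) (X1 X2 : ℝ × ℝ → ℝ) (M : ℝ) : Prop where
  h1 : ∀ a' b' c' d' : ℝ, a' ≤ b' → c' ≤ d' →
    ∫ p in Q.op i ∩ (Ioo a' b' ×ˢ Ioo c' d'), |X1 p| ≤ (b' - a') * M
  h2 : ∀ a' b' c' d' : ℝ, a' ≤ b' → c' ≤ d' →
    ∫ p in Q.op i ∩ (Ioo a' b' ×ˢ Ioo c' d'), |X2 p| ≤ (d' - c') * M

theorem F3.nonneg (h : F3 Q i X1 X2 M) : 0 ≤ M := by
  have h1 := h.h1 0 1 0 1 zero_le_one zero_le_one
  have h2 : 0 ≤ ∫ p in Q.op i ∩ (Ioo (0 : ℝ) 1 ×ˢ Ioo (0 : ℝ) 1), |X1 p| :=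
    integral_nonneg fun _ => abs_nonneg _
  linarith

/-- the flow through a.e. horizontal line of the rectangle -/
theorem F3.line_y (h : F3 Q i X1 X2 M) (hi : Integrable X2 (volume : Measure (ℝ × ℝ))) :
    ∀ᵐ y : ℝ, y ∈ Ioo (Q.y i - Q.h2 i) (Q.y i + Q.h2 i) →
      ∫ s in Ioo (Q.x i - Q.h1 i) (Q.x i + Q.h1 i), |X2 (s, y)| ≤ M := by
  set X' : ℝ × ℝ → ℝ := (Q.op i).indicator X2 with hX'
  have hm := Q.measurableSet_op i
  have hi' : Integrable X' (volume : Measure (ℝ × ℝ)) := hi.indicator hm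
  have hi2 := hi'
  rw [Measure.volume_eq_prod] at hi2
  have hf : Integrable fun y' : ℝ => ∫ x', |X' (x', y')| := hi2.abs.integral_prod_right
  have key : ∀ c' d', c' ≤ d' → ∫ y' in c'..d', (∫ x', |X' (x', y')|) ≤ (d' - c') * M := by
    intro c' d' hcd
    have h0 : Q.x i - Q.h1 i ≤ Q.x i + Q.h1 i := by have := Q.p1 i; linarith
    have h3 := h.h2 _ _ c' d' h0 hcd
    refine le_trans (le_of_eq ?_) h3
    have hi3 : Integrable (fun u : ℝ × ℝ => |X' u|)
        ((volume : Measure ℝ).prod (volume.restrict (Ioo c' d'))) := by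
      have : (volume : Measure ℝ).prod (volume.restrict (Ioo c' d')) =
          ((volume : Measure ℝ).prod volume).restrict (univ ×ˢ Ioo c' d') := by
        rw [← Measure.prod_restrict, Measure.restrict_univ]
      rw [this]
      exact hi2.abs.integrableOn
    rw [intervalIntegral.integral_of_le hcd, integral_Ioc_eq_integral_Ioo,
      ← integral_prod_symm _ hi3]
    have e1 : (volume : Measure ℝ).prod (volume.restrict (Ioo c' d')) =
          (volume : Measure (ℝ × ℝ)).restrict (univ ×ˢ Ioo c' d') := by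
      rw [Measure.volume_eq_prod, ← Measure.prod_restrict, Measure.restrict_univ]
    rw [e1]
    have e2 : ∀ p, |X' p| = (Q.op i).indicator (fun p => |X2 p|) p := by
      intro p
      by_cases hp : p ∈ Q.op i
      · rw [hX', indicator_of_mem hp, indicator_of_mem hp]
      · rw [hX', indicator_of_notMem hp, indicator_of_notMem hp, abs_zero]
    simp only [e2]
    rw [setIntegral_indicator hm]
    congr 2
    ext p
    constructor
    · rintro ⟨⟨-, h1⟩, h2⟩
      exact ⟨h2, h2.1, h1⟩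
    · rintro ⟨h1, h2, h3⟩
      exact ⟨⟨mem_univ _, h3⟩, h1⟩
  filter_upwards [Crest.Agent.R105.SqF_136.ae_le_of_intervals hf key] with y hy hyI
  refine le_trans (le_of_eq ?_) hy
  rw [← integral_indicator measurableSet_Ioo]
  congr 1
  ext s
  by_cases hs : s ∈ Ioo (Q.x i - Q.h1 i) (Q.x i + Q.h1 i)
  · rw [indicator_of_mem hs, hX', indicator_of_mem (show (s, y) ∈ Q.op i from ⟨hs, hyI⟩)]
  · rw [indicator_of_notMem hs, hX', indicator_of_notMem (fun h' => hs h'.1), abs_zero]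

/-- the flow through a.e. vertical line of the rectangle -/
theorem F3.line_x (h : F3 Q i X1 X2 M) (hi : Integrable X1 (volume : Measure (ℝ × ℝ))) :
    ∀ᵐ x : ℝ, x ∈ Ioo (Q.x i - Q.h1 i) (Q.x i + Q.h1 i) →
      ∫ t in Ioo (Q.y i - Q.h2 i) (Q.y i + Q.h2 i), |X1 (x, t)| ≤ M := by
  set X' : ℝ × ℝ → ℝ := (Q.op i).indicator X1 with hX'
  have hm := Q.measurableSet_op i
  have hi' : Integrable X' (volume : Measure (ℝ × ℝ)) := hi.indicator hm
  have hi2 := hi'
  rw [Measure.volume_eq_prod] at hi2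
  have hf : Integrable fun x' : ℝ => ∫ y', |X' (x', y')| := hi2.abs.integral_prod_left
  have key : ∀ c' d', c' ≤ d' → ∫ x' in c'..d', (∫ y', |X' (x', y')|) ≤ (d' - c') * M := by
    intro c' d' hcd
    have h0 : Q.y i - Q.h2 i ≤ Q.y i + Q.h2 i := by have := Q.p2 i; linarith
    have h3 := h.h1 c' d' _ _ hcd h0
    refine le_trans (le_of_eq ?_) h3
    have hi3 : Integrable (fun u : ℝ × ℝ => |X' u|)
        ((volume.restrict (Ioo c' d')).prod (volume : Measure ℝ)) := by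
      have : (volume.restrict (Ioo c' d')).prod (volume : Measure ℝ) =
          ((volume : Measure ℝ).prod volume).restrict (Ioo c' d' ×ˢ univ) := by
        rw [← Measure.prod_restrict, Measure.restrict_univ]
      rw [this]
      exact hi2.abs.integrableOn
    rw [intervalIntegral.integral_of_le hcd, integral_Ioc_eq_integral_Ioo,
      ← integral_prod _ hi3]
    have e1 : (volume.restrict (Ioo c' d')).prod (volume : Measure ℝ) =
          (volume : Measure (ℝ × ℝ)).restrict (Ioo c' d' ×ˢ univ) := by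
      rw [Measure.volume_eq_prod, ← Measure.prod_restrict, Measure.restrict_univ]
    rw [e1]
    have e2 : ∀ p, |X' p| = (Q.op i).indicator (fun p => |X1 p|) p := by
      intro p
      by_cases hp : p ∈ Q.op i
      · rw [hX', indicator_of_mem hp, indicator_of_mem hp]
      · rw [hX', indicator_of_notMem hp, indicator_of_notMem hp, abs_zero]
    simp only [e2]
    rw [setIntegral_indicator hm]
    congr 2
    ext p
    constructor
    · rintro ⟨⟨h1, -⟩, h2⟩
      exact ⟨h2, h1, h2.2⟩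
    · rintro ⟨h1, h2, h3⟩
      exact ⟨⟨h2, mem_univ _⟩, h1⟩
  filter_upwards [Crest.Agent.R105.SqF_136.ae_le_of_intervals hf key] with x hx hxI
  refine le_trans (le_of_eq ?_) hx
  rw [← integral_indicator measurableSet_Ioo]
  congr 1
  ext s
  by_cases hs : s ∈ Ioo (Q.y i - Q.h2 i) (Q.y i + Q.h2 i)
  · rw [indicator_of_mem hs, hX', indicator_of_mem (show (x, s) ∈ Q.op i from ⟨hxI, hs⟩)]
  · rw [indicator_of_notMem hs, hX', indicator_of_notMem (fun h' => hs h'.2), abs_zero]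

/-- interval integrals inside an interval are bounded by the total variation -/
theorem abs_ii_le {g : ℝ → ℝ} {u v s t : ℝ} (hg : ∀ y y', IntervalIntegrable g volume y y')
    (hs : u ≤ s) (hst : s ≤ t) (ht : t ≤ v) (h : ∫ r in Ioo u v, |g r| ≤ M) :
    |∫ r in s..t, g r| ≤ M := by
  have h1 : |∫ r in s..t, g r| ≤ ∫ r in s..t, |g r| :=
    intervalIntegral.abs_integral_le_integral_abs hst
  refine h1.trans (le_trans ?_ h)
  rw [intervalIntegral.integral_of_le hst, ← integral_Ioc_eq_integral_Ioo]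
  have hi : IntegrableOn (fun r => |g r|) (Ioc u v) :=
    ((intervalIntegrable_iff_integrableOn_Ioc_of_le (hs.trans (hst.trans ht))).mp
      (hg u v)).abs
  exact setIntegral_mono_set hi (ae_of_all _ fun _ => abs_nonneg _)
    (Ioc_subset_Ioc hs ht).eventuallyLE

/-- the data of one closed rectangle -/
structure Box (Q : Rects ι) (i : ι) (a b c : ℝ) (μ : Measure (ℝ × ℝ)) : Prop where
  ha : a < Q.x i - Q.h1 i
  hb : Q.x i + Q.h1 i < b
  hc : c < Q.y i - Q.h2 i
  nomass : μ {q | q.1 ∈ Icc (Q.x i - Q.h1 i) (Q.x i + Q.h1 i) ∧ q.2 < Q.y i + Q.h2 i} = 0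

/-- a good height of the rectangle -/
structure HY (Q : Rects ι) (i : ι) (a b σ : ℝ) (X2 : ℝ × ℝ → ℝ) (μ : Measure (ℝ × ℝ))
    (ψ Ψ : ℝ × ℝ → ℝ) (M y : ℝ) : Prop extends GoodY a b σ X2 μ ψ Ψ y where
  mem : y ∈ Ioo (Q.y i - Q.h2 i) (Q.y i + Q.h2 i)
  bd : ∫ s in Ioo (Q.x i - Q.h1 i) (Q.x i + Q.h1 i), |X2 (s, y)| ≤ M

/-- a good abscissa of the rectangle -/
structure HX (Q : Rects ι) (i : ι) (a b c : ℝ) (X1 : ℝ × ℝ → ℝ)
    (ψ Ψ : ℝ × ℝ → ℝ) (M x : ℝ) : Prop extends GoodX a b c X1 ψ Ψ x where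
  mem : x ∈ Ioo (Q.x i - Q.h1 i) (Q.x i + Q.h1 i)
  bd : ∫ t in Ioo (Q.y i - Q.h2 i) (Q.y i + Q.h2 i), |X1 (x, t)| ≤ M

end Crest.Agent.R105.Sqw_693
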