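import Crest.Agent.R105.Sqw1_693

/-! Row 105, S0138, exact squares: oscillation of the stream function over one charged square
(leaf (W) of 87 #10566), second part. -/

open MeasureTheory Set Filter Topology

namespace Crest.Agent.R105.Sqw_693

open Crest.Agent.R105.Mp_87 (lam Rc ae_x_of_ae ae_y_of_ae)
open Crest.Agent.R105.Sq_87

variable {ι : Type} {Q : Rects ι} {a b c B σ : ℝ} {X1 X2 ψ Ψ : ℝ × ℝ → ℝ}
  {μ : Measure (ℝ × ℝ)} {i : ι} {M : ℝ}

theorem ae_HY (L : LinesI a b c B σ X1 X2 μ ψ Ψ) (h : F3 Q i X1 X2 M) (hB : Box Q i a b c μ) :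
    ∀ᵐ y : ℝ, y ∈ Ioo (Q.y i - Q.h2 i) (Q.y i + Q.h2 i) → HY Q i a b σ X2 μ ψ Ψ M y := by
  filter_upwards [L.goodY, h.line_y L.L2] with y h1 h2 hy
  exact ⟨h1 (hB.hc.trans hy.1), hy, h2 hy⟩

theorem ae_HX (L : LinesI a b c B σ X1 X2 μ ψ Ψ) (h : F3 Q i X1 X2 M) (hB : Box Q i a b c μ) :
    ∀ᵐ x : ℝ, x ∈ Ioo (Q.x i - Q.h1 i) (Q.x i + Q.h1 i) → HX Q i a b c X1 ψ Ψ M x := by
  filter_upwards [L.goodX, h.line_x L.L1] with x h1 h2 hx
  exact ⟨h1 ⟨hB.ha.trans hx.1, hx.2.trans hB.hb⟩, hx, h2 hx⟩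

/-- **oscillation of `Ψ` on a good horizontal line of the closed rectangle** -/
theorem HY.osc [IsFiniteMeasure μ] (hB : Box Q i a b c μ) {y : ℝ}
    (h : HY Q i a b σ X2 μ ψ Ψ M y) :
    ∀ x ∈ Icc (Q.x i - Q.h1 i) (Q.x i + Q.h1 i), ∀ x' ∈ Icc (Q.x i - Q.h1 i) (Q.x i + Q.h1 i),
      |Ψ (x, y) - Ψ (x', y)| ≤ M := by
  have key : ∀ x ∈ Icc (Q.x i - Q.h1 i) (Q.x i + Q.h1 i),
      ∀ x' ∈ Icc (Q.x i - Q.h1 i) (Q.x i + Q.h1 i), x ≤ x' → |Ψ (x', y) - Ψ (x, y)| ≤ M := by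
    intro x hx x' hx' hxx
    have h1 := h.H x ⟨hB.ha.trans_le hx.1, hx.2.trans_lt hB.hb⟩ x'
      ⟨hB.ha.trans_le hx'.1, hx'.2.trans_lt hB.hb⟩ hxx
    have h2 : μ {q | q.1 ∈ Ico x x' ∧ q.2 < y} = 0 := by
      refine measure_mono_null ?_ hB.nomass
      rintro q ⟨hq1, hq2⟩
      exact ⟨⟨hx.1.trans hq1.1, hq1.2.le.trans hx'.2⟩, hq2.trans h.mem.2⟩
    rw [h2, ENNReal.toReal_zero, mul_zero, sub_zero] at h1
    rw [h1, abs_neg]
    exact abs_ii_le h.int hx.1 hxx hx'.2 h.bd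
  intro x hx x' hx'
  rcases le_total x x' with hxx | hxx
  · rw [abs_sub_comm]; exact key x hx x' hx' hxx
  · exact key x' hx' x hx hxx

/-- **oscillation of `ψ` on a good vertical line of the closed rectangle** -/
theorem HX.osc (hB : Box Q i a b c μ) {x : ℝ} (h : HX Q i a b c X1 ψ Ψ M x) :
    ∀ y ∈ Icc (Q.y i - Q.h2 i) (Q.y i + Q.h2 i), ∀ y' ∈ Icc (Q.y i - Q.h2 i) (Q.y i + Q.h2 i),
      |ψ (x, y) - ψ (x, y')| ≤ M := by
  have key : ∀ y ∈ Icc (Q.y i - Q.h2 i) (Q.y i + Q.h2 i),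
      ∀ y' ∈ Icc (Q.y i - Q.h2 i) (Q.y i + Q.h2 i), y ≤ y' → |ψ (x, y') - ψ (x, y)| ≤ M := by
    intro y hy y' hy' hyy
    rw [h.V y y' (hB.hc.trans_le hy.1) hyy]
    exact abs_ii_le h.int hy.1 hyy hy'.2 h.bd
  intro y hy y' hy'
  rcases le_total y y' with hyy | hyy
  · rw [abs_sub_comm]; exact key y hy y' hy' hyy
  · exact key y' hy' y hy hyy

/-- `Ψ (·, y)` is continuous at a column without mass -/
theorem cont_Ψ [IsFiniteMeasure μ] {y X : ℝ} (h : GoodY a b σ X2 μ ψ Ψ y) (hX : X ∈ Ioo a b)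
    (h0 : μ {q | q.1 = X ∧ q.2 < y} = 0) : ContinuousAt (fun x => Ψ (x, y)) X := by
  set s : ℕ → Set (ℝ × ℝ) := fun n => {q | q.1 ∈ Icc (X - 1 / ((n : ℝ) + 1)) (X + 1 / ((n : ℝ) + 1)) ∧
    q.2 < y} with hs
  have hms : ∀ n, MeasurableSet (s n) := fun n =>
    (measurable_fst measurableSet_Icc).inter (measurable_snd measurableSet_Iio)
  have hanti : Antitone s := by
    intro m n hmn q hq
    have h1 : 1 / ((n : ℝ) + 1) ≤ 1 / ((m : ℝ) + 1) :=
      one_div_le_one_div_of_le (by positivity) (by have : (m : ℝ) ≤ n := by exact_mod_cast hmn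
                                                   linarith)
    exact ⟨⟨by linarith [hq.1.1], by linarith [hq.1.2]⟩, hq.2⟩
  have hlim := tendsto_measure_iInter_atTop (μ := μ) (s := s)
    (fun n => (hms n).nullMeasurableSet) hanti ⟨0, measure_ne_top _ _⟩
  have hint : ⋂ n, s n = {q | q.1 = X ∧ q.2 < y} := by
    ext q
    simp only [mem_iInter, hs, mem_ofPred_eq]
    constructor
    · intro hq
      refine ⟨?_, (hq 0).2⟩
      have h1 : ∀ n : ℕ, |q.1 - X| ≤ 1 / ((n : ℝ) + 1) := fun n =>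
        abs_le.mpr ⟨by linarith [(hq n).1.1], by linarith [(hq n).1.2]⟩
      have h2 := ge_of_tendsto' (tendsto_one_div_add_atTop_nhds_zero_nat (𝕜 := ℝ)) h1
      have h3 : q.1 - X = 0 := abs_eq_zero.mp (le_antisymm h2 (abs_nonneg _))
      linarith
    · rintro ⟨h1, h2⟩ n
      have : (0 : ℝ) ≤ 1 / ((n : ℝ) + 1) := by positivity
      exact ⟨⟨by rw [h1]; linarith, by rw [h1]; linarith⟩, h2⟩
  rw [hint, h0] at hlim
  have hlim' : Tendsto (fun n => (μ (s n)).toReal) atTop (𝓝 0) := by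
    have := (ENNReal.tendsto_toReal ENNReal.zero_ne_top).comp hlim
    rw [ENNReal.toReal_zero] at this
    exact this
  have hcont : Continuous fun x => ∫ r in X..x, X2 (r, y) :=
    intervalIntegral.continuous_primitive (fun u v => h.int u v) X
  rw [Metric.continuousAt_iff]
  intro ε hε
  have hσ : 0 < |σ| + 1 := by positivity
  obtain ⟨n, hn⟩ := (hlim'.eventually (gt_mem_nhds (show 0 < ε / 2 / (|σ| + 1) by positivity))).exists
  have hc0 : Tendsto (fun x => ∫ r in X..x, X2 (r, y)) (𝓝 X) (𝓝 0) := by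
    have := hcont.tendsto X
    simpa using this
  obtain ⟨δ1, hδ1, hδ1'⟩ := Metric.tendsto_nhds_nhds.mp hc0 (ε / 2) (by positivity)
  obtain ⟨δ2, hδ2, hδ2'⟩ := Metric.isOpen_iff.mp isOpen_Ioo X hX
  refine ⟨min δ1 (min δ2 (1 / ((n : ℝ) + 1))), lt_min hδ1 (lt_min hδ2 (by positivity)), ?_⟩
  intro x hx
  have hx1 : dist x X < δ1 := hx.trans_le (min_le_left _ _)
  have hx2 : dist x X < δ2 := hx.trans_le ((min_le_right _ _).trans (min_le_left _ _))
  have hx3 : dist x X < 1 / ((n : ℝ) + 1) :=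
    hx.trans_le ((min_le_right _ _).trans (min_le_right _ _))
  have hxI : x ∈ Ioo a b := hδ2' (Metric.mem_ball.mpr hx2)
  have hI := hδ1' hx1
  rw [Real.dist_eq, sub_zero] at hI
  rw [Real.dist_eq, abs_lt] at hx3
  have hμ : ∀ u v : ℝ, X - 1 / ((n : ℝ) + 1) ≤ u → v ≤ X + 1 / ((n : ℝ) + 1) →
      |σ * (μ {q | q.1 ∈ Ico u v ∧ q.2 < y}).toReal| < ε / 2 := by
    intro u v hu hv
    have h1 : (μ {q | q.1 ∈ Ico u v ∧ q.2 < y}).toReal ≤ (μ (s n)).toReal := by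
      refine ENNReal.toReal_mono (measure_ne_top _ _) (measure_mono ?_)
      rintro q ⟨hq1, hq2⟩
      exact ⟨⟨hu.trans hq1.1, hq1.2.le.trans hv⟩, hq2⟩
    have h2 : 0 ≤ (μ {q | q.1 ∈ Ico u v ∧ q.2 < y}).toReal := ENNReal.toReal_nonneg
    rw [abs_mul, abs_of_nonneg h2]
    have h3 : |σ| * (μ {q | q.1 ∈ Ico u v ∧ q.2 < y}).toReal ≤
        (|σ| + 1) * (μ (s n)).toReal := by
      refine mul_le_mul (by linarith) h1 h2 hσ.le
    refine h3.trans_lt ?_
    calc (|σ| + 1) * (μ (s n)).toReal < (|σ| + 1) * (ε / 2 / (|σ| + 1)) :=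
          mul_lt_mul_of_pos_left hn hσ
      _ = ε / 2 := by field_simp
  rw [Real.dist_eq]
  rcases le_total X x with hXx | hXx
  · have h1 := h.H X hX x hxI hXx
    have h2 := hμ X x (by have : (0 : ℝ) < 1 / ((n : ℝ) + 1) := by positivity
                          linarith) (by linarith [hx3.2])
    rw [h1]
    calc |-(∫ s in X..x, X2 (s, y)) - σ * (μ {q | q.1 ∈ Ico X x ∧ q.2 < y}).toReal|
        ≤ |-(∫ s in X..x, X2 (s, y))| + |σ * (μ {q | q.1 ∈ Ico X x ∧ q.2 < y}).toReal| :=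
          abs_sub _ _
      _ < ε := by rw [abs_neg]; linarith
  · have h1 := h.H x hxI X hX hXx
    have h2 := hμ x X (by linarith [hx3.1]) (by have : (0 : ℝ) < 1 / ((n : ℝ) + 1) := by positivity
                                                linarith)
    rw [abs_sub_comm, h1]
    have h3 : |∫ s in x..X, X2 (s, y)| = |∫ s in X..x, X2 (s, y)| := by
      rw [intervalIntegral.integral_symm, abs_neg]
    calc |-(∫ s in x..X, X2 (s, y)) - σ * (μ {q | q.1 ∈ Ico x X ∧ q.2 < y}).toReal|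
        ≤ |-(∫ s in x..X, X2 (s, y))| + |σ * (μ {q | q.1 ∈ Ico x X ∧ q.2 < y}).toReal| :=
          abs_sub _ _
      _ < ε := by rw [abs_neg, h3]; linarith

/-- `ψ (x, ·)` is continuous above `c` -/
theorem cont_ψ {x Y : ℝ} (h : GoodX a b c X1 ψ Ψ x) (hY : c < Y) :
    ContinuousAt (fun y => ψ (x, y)) Y := by
  have hcont : Continuous fun y => ∫ r in Y..y, X1 (x, r) :=
    intervalIntegral.continuous_primitive (fun u v => h.int u v) Y
  have he : (fun y => ψ (x, y)) =ᶠ[𝓝 Y] fun y => ψ (x, Y) + ∫ r in Y..y, X1 (x, r) := by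
    filter_upwards [lt_mem_nhds hY] with y hy
    rcases le_total Y y with h1 | h1
    · rw [← h.V Y y hY h1]; ring
    · rw [intervalIntegral.integral_symm, ← h.V y Y hy h1]; ring
  exact (continuousAt_congr he).mpr (continuousAt_const.add hcont.continuousAt)

end Crest.Agent.R105.Sqw_693
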