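import Crest.Agent.R105.Sqw2_693

/-! Row 105, S0138, exact squares: oscillation of the stream function over one charged square
(leaf (W) of 87 #10566), third part: the frontier of the rectangle. -/

open MeasureTheory Set Filter Topology

namespace Crest.Agent.R105.Sqw_693

open Crest.Agent.R105.Mp_87 (lam Rc ae_x_of_ae ae_y_of_ae)
open Crest.Agent.R105.Sq_87

variable {ι : Type} {Q : Rects ι} {a b c B σ : ℝ} {X1 X2 ψ Ψ F : ℝ × ℝ → ℝ}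
  {μ : Measure (ℝ × ℝ)} {i : ι} {M : ℝ}

/-- a property which holds a.e. on an open set holds frequently at each point of its closure -/
theorem freq_open {V : Set ℝ} (hV : IsOpen V) {s : ℝ} (hs : s ∈ closure V) {P : ℝ → Prop}
    (hP : ∀ᵐ x : ℝ, x ∈ V → P x) : ∃ᶠ x in 𝓝[V] s, P x := by
  intro h
  rw [eventually_nhdsWithin_iff] at h
  obtain ⟨t, ht, hto, hst⟩ := eventually_nhds_iff.mp h
  have hne : (t ∩ V).Nonempty := mem_closure_iff.mp hs t hto hst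
  have hpos : 0 < volume (t ∩ V) := (hto.inter hV).measure_pos volume hne
  have h0 : volume (t ∩ V) = 0 :=
    measure_mono_null (fun x hx (hx' : x ∈ V → P x) => ht x hx.1 hx.2 (hx' hx.2)) (ae_iff.mp hP)
  exact hpos.ne' h0

theorem Rects.lt1 (Q : Rects ι) (i : ι) : Q.x i - Q.h1 i < Q.x i + Q.h1 i := by
  have := Q.p1 i; linarith

theorem Rects.lt2 (Q : Rects ι) (i : ι) : Q.y i - Q.h2 i < Q.y i + Q.h2 i := by
  have := Q.p2 i; linarith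

/-- the abscissae of the vertical sides -/
def SX (Q : Rects ι) (i : ι) (s : ℝ) : Prop := s = Q.x i - Q.h1 i ∨ s = Q.x i + Q.h1 i

/-- the heights of the horizontal sides -/
def SY (Q : Rects ι) (i : ι) (t : ℝ) : Prop := t = Q.y i - Q.h2 i ∨ t = Q.y i + Q.h2 i

theorem SX.mem {s : ℝ} (h : SX Q i s) : s ∈ Icc (Q.x i - Q.h1 i) (Q.x i + Q.h1 i) := by
  have := Q.p1 i
  rcases h with h | h <;> rw [h] <;> constructor <;> linarith

theorem SY.mem {s : ℝ} (h : SY Q i s) : s ∈ Icc (Q.y i - Q.h2 i) (Q.y i + Q.h2 i) := by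
  have := Q.p2 i
  rcases h with h | h <;> rw [h] <;> constructor <;> linarith

theorem SX.ab {s : ℝ} (h : SX Q i s) (hB : Box Q i a b c μ) : s ∈ Ioo a b :=
  ⟨hB.ha.trans_le h.mem.1, h.mem.2.trans_lt hB.hb⟩

theorem SX.null {s y : ℝ} (h : SX Q i s) (hB : Box Q i a b c μ)
    (hy : y ∈ Ioo (Q.y i - Q.h2 i) (Q.y i + Q.h2 i)) : μ {q | q.1 = s ∧ q.2 < y} = 0 := by
  refine measure_mono_null ?_ hB.nomass
  rintro q ⟨h1, h2⟩
  exact ⟨h1 ▸ h.mem, h2.trans hy.2⟩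

/-- one vertical side, two good heights -/
theorem side_y [IsFiniteMeasure μ] (L : LinesI a b c B σ X1 X2 μ ψ Ψ) (hF3 : F3 Q i X1 X2 M)
    (hB : Box Q i a b c μ) {y y' s : ℝ} (h : HY Q i a b σ X2 μ ψ Ψ M y)
    (h' : HY Q i a b σ X2 μ ψ Ψ M y') (hs : SX Q i s) : |Ψ (s, y) - Ψ (s, y')| ≤ M := by
  have hcl : s ∈ closure (Ioo (Q.x i - Q.h1 i) (Q.x i + Q.h1 i)) := by
    rw [closure_Ioo (Rects.lt1 Q i).ne]; exact hs.mem
  have hfr : ∃ᶠ x in 𝓝[Ioo (Q.x i - Q.h1 i) (Q.x i + Q.h1 i)] s,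
      |Ψ (x, y) - Ψ (x, y')| ≤ M := by
    refine freq_open isOpen_Ioo hcl ?_
    filter_upwards [ae_HX L hF3 hB, h.E, h'.E] with x h1 h2 h3 hx
    have hxab : x ∈ Ioo a b := ⟨hB.ha.trans hx.1, hx.2.trans hB.hb⟩
    rw [h2 hxab, h3 hxab]
    exact (h1 hx).osc hB y ⟨h.mem.1.le, h.mem.2.le⟩ y' ⟨h'.mem.1.le, h'.mem.2.le⟩
  have hlim : Tendsto (fun x => |Ψ (x, y) - Ψ (x, y')|)
      (𝓝[Ioo (Q.x i - Q.h1 i) (Q.x i + Q.h1 i)] s) (𝓝 |Ψ (s, y) - Ψ (s, y')|) :=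
    (((cont_Ψ h.toGoodY (hs.ab hB) (hs.null hB h.mem)).sub
      (cont_Ψ h'.toGoodY (hs.ab hB) (hs.null hB h'.mem))).abs.tendsto).mono_left
      nhdsWithin_le_nhds
  exact le_of_tendsto_of_frequently hlim hfr

/-- two good abscissae, one horizontal side -/
theorem side_x [IsFiniteMeasure μ] (L : LinesI a b c B σ X1 X2 μ ψ Ψ) (hF3 : F3 Q i X1 X2 M)
    (hB : Box Q i a b c μ) {x x' t : ℝ} (h : HX Q i a b c X1 ψ Ψ M x)
    (h' : HX Q i a b c X1 ψ Ψ M x') (ht : SY Q i t) : |ψ (x, t) - ψ (x', t)| ≤ M := by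
  have hcl : t ∈ closure (Ioo (Q.y i - Q.h2 i) (Q.y i + Q.h2 i)) := by
    rw [closure_Ioo (Rects.lt2 Q i).ne]; exact ht.mem
  have hct : c < t := hB.hc.trans_le ht.mem.1
  have hfr : ∃ᶠ y in 𝓝[Ioo (Q.y i - Q.h2 i) (Q.y i + Q.h2 i)] t,
      |ψ (x, y) - ψ (x', y)| ≤ M := by
    refine freq_open isOpen_Ioo hcl ?_
    filter_upwards [ae_HY L hF3 hB, h.E, h'.E] with y h1 h2 h3 hy
    have hcy : c < y := hB.hc.trans hy.1
    rw [← h2 hcy, ← h3 hcy]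
    exact (h1 hy).osc hB x ⟨h.mem.1.le, h.mem.2.le⟩ x' ⟨h'.mem.1.le, h'.mem.2.le⟩
  have hlim : Tendsto (fun y => |ψ (x, y) - ψ (x', y)|)
      (𝓝[Ioo (Q.y i - Q.h2 i) (Q.y i + Q.h2 i)] t) (𝓝 |ψ (x, t) - ψ (x', t)|) :=
    (((cont_ψ h.toGoodX hct).sub (cont_ψ h'.toGoodX hct)).abs.tendsto).mono_left
      nhdsWithin_le_nhds
  exact le_of_tendsto_of_frequently hlim hfr

/-- a vertical and a horizontal side -/
theorem side_xy [IsFiniteMeasure μ] (L : LinesI a b c B σ X1 X2 μ ψ Ψ) (hF3 : F3 Q i X1 X2 M)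
    (hB : Box Q i a b c μ) {x y s t : ℝ} (h : HY Q i a b σ X2 μ ψ Ψ M y)
    (h' : HX Q i a b c X1 ψ Ψ M x) (hs : SX Q i s) (ht : SY Q i t) :
    |Ψ (s, y) - ψ (x, t)| ≤ 2 * M := by
  have hcl : t ∈ closure (Ioo (Q.y i - Q.h2 i) (Q.y i + Q.h2 i)) := by
    rw [closure_Ioo (Rects.lt2 Q i).ne]; exact ht.mem
  have hct : c < t := hB.hc.trans_le ht.mem.1
  have hfr : ∃ᶠ y' in 𝓝[Ioo (Q.y i - Q.h2 i) (Q.y i + Q.h2 i)] t,
      |Ψ (s, y) - ψ (x, y')| ≤ 2 * M := by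
    refine freq_open isOpen_Ioo hcl ?_
    filter_upwards [ae_HY L hF3 hB, h'.E] with y' h1 h2 hy
    have hcy : c < y' := hB.hc.trans hy.1
    rw [← h2 hcy]
    have e1 := side_y L hF3 hB h (h1 hy) hs
    have e2 := (h1 hy).osc hB s hs.mem x ⟨h'.mem.1.le, h'.mem.2.le⟩
    calc |Ψ (s, y) - Ψ (x, y')| ≤ |Ψ (s, y) - Ψ (s, y')| + |Ψ (s, y') - Ψ (x, y')| :=
          abs_sub_le _ _ _
      _ ≤ 2 * M := by linarith
  have hlim : Tendsto (fun y' => |Ψ (s, y) - ψ (x, y')|)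
      (𝓝[Ioo (Q.y i - Q.h2 i) (Q.y i + Q.h2 i)] t) (𝓝 |Ψ (s, y) - ψ (x, t)|) :=
    ((continuousAt_const.sub (cont_ψ h'.toGoodX hct)).abs.tendsto).mono_left
      nhdsWithin_le_nhds
  exact le_of_tendsto_of_frequently hlim hfr

/-- generic points of the sides at which `F` has the value of the stream function -/
def Gen (Q : Rects ι) (i : ι) (a b c σ : ℝ) (X1 X2 : ℝ × ℝ → ℝ) (μ : Measure (ℝ × ℝ))
    (ψ Ψ : ℝ × ℝ → ℝ) (M : ℝ) (F : ℝ × ℝ → ℝ) : Set (ℝ × ℝ) :=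
  {p | (SX Q i p.1 ∧ HY Q i a b σ X2 μ ψ Ψ M p.2 ∧ F p = Ψ p) ∨
    (SY Q i p.2 ∧ HX Q i a b c X1 ψ Ψ M p.1 ∧ F p = ψ p)}

theorem gen_osc [IsFiniteMeasure μ] (L : LinesI a b c B σ X1 X2 μ ψ Ψ) (hF3 : F3 Q i X1 X2 M)
    (hB : Box Q i a b c μ) {p q : ℝ × ℝ} (hp : p ∈ Gen Q i a b c σ X1 X2 μ ψ Ψ M F)
    (hq : q ∈ Gen Q i a b c σ X1 X2 μ ψ Ψ M F) : |F p - F q| ≤ 2 * M := by
  obtain ⟨p1, p2⟩ := p
  obtain ⟨q1, q2⟩ := q
  have hM := hF3.nonneg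
  rcases hp with ⟨h1, h2, h3⟩ | ⟨h1, h2, h3⟩ <;> rcases hq with ⟨h4, h5, h6⟩ | ⟨h4, h5, h6⟩
  · rw [h3, h6]
    simp only at h1 h2 h4 h5
    have e1 := side_y L hF3 hB h2 h5 h1
    have e2 := h5.osc hB p1 h1.mem q1 h4.mem
    calc |Ψ (p1, p2) - Ψ (q1, q2)| ≤ |Ψ (p1, p2) - Ψ (p1, q2)| + |Ψ (p1, q2) - Ψ (q1, q2)| :=
          abs_sub_le _ _ _
      _ ≤ 2 * M := by linarith
  · rw [h3, h6]
    exact side_xy L hF3 hB h2 h5 h1 h4
  · rw [h3, h6, abs_sub_comm]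
    exact side_xy L hF3 hB h5 h2 h4 h1
  · rw [h3, h6]
    simp only at h1 h2 h4 h5
    have e1 := side_x L hF3 hB h2 h5 h1
    have e2 := h5.osc hB p2 h1.mem q2 h4.mem
    calc |ψ (p1, p2) - ψ (q1, q2)| ≤ |ψ (p1, p2) - ψ (q1, p2)| + |ψ (q1, p2) - ψ (q1, q2)| :=
          abs_sub_le _ _ _
      _ ≤ 2 * M := by linarith

/-- oscillation on any set `T` in the closure of the generic points -/
theorem gen_closure [IsFiniteMeasure μ] (L : LinesI a b c B σ X1 X2 μ ψ Ψ)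
    (hF3 : F3 Q i X1 X2 M) (hB : Box Q i a b c μ) {T : Set (ℝ × ℝ)}
    (hT : T ⊆ closure (Gen Q i a b c σ X1 X2 μ ψ Ψ M F ∩ T)) (hc : ContinuousOn F T) :
    ∀ p ∈ T, ∀ q ∈ T, |F p - F q| ≤ 2 * M := by
  set G := Gen Q i a b c σ X1 X2 μ ψ Ψ M F with hG
  have hlim : ∀ p ∈ T, Tendsto F (𝓝[G ∩ T] p) (𝓝 (F p)) := fun p hp =>
    (hc p hp).mono_left (nhdsWithin_mono _ inter_subset_right)
  have h1 : ∀ p ∈ T, ∀ q ∈ G, |F p - F q| ≤ 2 * M := by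
    intro p hp q hq
    have : (𝓝[G ∩ T] p).NeBot := mem_closure_iff_nhdsWithin_neBot.mp (hT hp)
    refine le_of_tendsto ((hlim p hp).sub_const _).abs ?_
    filter_upwards [self_mem_nhdsWithin] with p' hp'
    exact gen_osc L hF3 hB hp'.1 hq
  intro p hp q hq
  have : (𝓝[G ∩ T] q).NeBot := mem_closure_iff_nhdsWithin_neBot.mp (hT hq)
  refine le_of_tendsto ((hlim q hq).const_sub _).abs ?_
  filter_upwards [self_mem_nhdsWithin] with q' hq'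
  exact h1 p hp q' hq'.1

/-- the closed vertical side over `s` -/
def vside (Q : Rects ι) (i : ι) (s : ℝ) : Set (ℝ × ℝ) :=
  {s} ×ˢ Icc (Q.y i - Q.h2 i) (Q.y i + Q.h2 i)

/-- the closed horizontal side at height `t` -/
def hside (Q : Rects ι) (i : ι) (t : ℝ) : Set (ℝ × ℝ) :=
  Icc (Q.x i - Q.h1 i) (Q.x i + Q.h1 i) ×ˢ {t}

theorem vside_closure (L : LinesI a b c B σ X1 X2 μ ψ Ψ) (hF3 : F3 Q i X1 X2 M)
    (hB : Box Q i a b c μ) {s : ℝ} (hs : SX Q i s)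
    (hF : ∀ᵐ y : ℝ, y ∈ Ioo (Q.y i - Q.h2 i) (Q.y i + Q.h2 i) → F (s, y) = Ψ (s, y)) :
    vside Q i s ⊆ closure (Gen Q i a b c σ X1 X2 μ ψ Ψ M F ∩ vside Q i s) := by
  rintro ⟨s', y⟩ ⟨hs', hy⟩
  rw [mem_singleton_iff] at hs'
  simp only at hs' hy
  subst hs'
  have hcl : y ∈ closure (Ioo (Q.y i - Q.h2 i) (Q.y i + Q.h2 i)) := by
    rw [closure_Ioo (Rects.lt2 Q i).ne]; exact hy
  have hfr : ∃ᶠ y' in 𝓝[Ioo (Q.y i - Q.h2 i) (Q.y i + Q.h2 i)] y,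
      (s', y') ∈ Gen Q i a b c σ X1 X2 μ ψ Ψ M F ∩ vside Q i s' := by
    refine freq_open isOpen_Ioo hcl ?_
    filter_upwards [ae_HY L hF3 hB, hF] with y' h1 h2 hy'
    exact ⟨Or.inl ⟨hs, h1 hy', h2 hy'⟩, mem_singleton _, hy'.1.le, hy'.2.le⟩
  rw [mem_closure_iff_frequently]
  have hcont : Tendsto (fun y' : ℝ => (s', y'))
      (𝓝[Ioo (Q.y i - Q.h2 i) (Q.y i + Q.h2 i)] y) (𝓝 (s', y)) :=
    ((continuous_const.prodMk continuous_id).tendsto y).mono_left nhdsWithin_le_nhds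
  exact hcont.frequently hfr

theorem hside_closure (L : LinesI a b c B σ X1 X2 μ ψ Ψ) (hF3 : F3 Q i X1 X2 M)
    (hB : Box Q i a b c μ) {t : ℝ} (ht : SY Q i t)
    (hF : ∀ᵐ x : ℝ, x ∈ Ioo (Q.x i - Q.h1 i) (Q.x i + Q.h1 i) → F (x, t) = ψ (x, t)) :
    hside Q i t ⊆ closure (Gen Q i a b c σ X1 X2 μ ψ Ψ M F ∩ hside Q i t) := by
  rintro ⟨x, t'⟩ ⟨hx, ht'⟩
  rw [mem_singleton_iff] at ht'
  simp only at ht' hx
  subst ht'
  have hcl : x ∈ closure (Ioo (Q.x i - Q.h1 i) (Q.x i + Q.h1 i)) := by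
    rw [closure_Ioo (Rects.lt1 Q i).ne]; exact hx
  have hfr : ∃ᶠ x' in 𝓝[Ioo (Q.x i - Q.h1 i) (Q.x i + Q.h1 i)] x,
      (x', t') ∈ Gen Q i a b c σ X1 X2 μ ψ Ψ M F ∩ hside Q i t' := by
    refine freq_open isOpen_Ioo hcl ?_
    filter_upwards [ae_HX L hF3 hB, hF] with x' h1 h2 hx'
    exact ⟨Or.inr ⟨ht, h1 hx', h2 hx'⟩, ⟨hx'.1.le, hx'.2.le⟩, mem_singleton _⟩
  rw [mem_closure_iff_frequently]
  have hcont : Tendsto (fun x' : ℝ => (x', t'))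
      (𝓝[Ioo (Q.x i - Q.h1 i) (Q.x i + Q.h1 i)] x) (𝓝 (x, t')) :=
    ((continuous_id.prodMk continuous_const).tendsto x).mono_left nhdsWithin_le_nhds
  exact hcont.frequently hfr

/-- `T ⊆ closure (G ∩ T)` is stable under unions -/
theorem closure_union {G T T' : Set (ℝ × ℝ)} (h : T ⊆ closure (G ∩ T))
    (h' : T' ⊆ closure (G ∩ T')) : T ∪ T' ⊆ closure (G ∩ (T ∪ T')) := by
  rintro p (hp | hp)
  · exact closure_mono (inter_subset_inter_right _ subset_union_left) (h hp)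
  · exact closure_mono (inter_subset_inter_right _ subset_union_right) (h' hp)

theorem frontier_op (Q : Rects ι) (i : ι) : frontier (Q.op i) =
    (vside Q i (Q.x i - Q.h1 i) ∪ vside Q i (Q.x i + Q.h1 i)) ∪
      (hside Q i (Q.y i - Q.h2 i) ∪ hside Q i (Q.y i + Q.h2 i)) := by
  have h1 := Rects.lt1 Q i
  have h2 := Rects.lt2 Q i
  rw [Rects.op, frontier_prod_eq, closure_Ioo h1.ne, closure_Ioo h2.ne, frontier_Ioo h1,
    frontier_Ioo h2]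
  ext ⟨p1, p2⟩
  simp only [mem_union, mem_prod, mem_insert_iff, mem_singleton_iff, vside, hside]
  tauto

end Crest.Agent.R105.Sqw_693
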