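import Crest.Agent.R105.Sqw3_693

/-! Row 105, S0138, exact squares: oscillation of the stream function over one charged square
(leaf (W) of 87 #10566), fourth part: final theorems. -/

open MeasureTheory Set Filter Topology

namespace Crest.Agent.R105.Sqw_693

open Crest.Agent.R105.Mp_87 (lam Rc ae_x_of_ae ae_y_of_ae)
open Crest.Agent.R105.Sq_87

variable {ι : Type} {Q : Rects ι} {a b c B σ : ℝ} {X1 X2 ψ Ψ F : ℝ × ℝ → ℝ}
  {μ : Measure (ℝ × ℝ)} {i : ι} {M : ℝ}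

/-- (W), horizontal lines -/
theorem osc_h [IsFiniteMeasure μ] (L : LinesI a b c B σ X1 X2 μ ψ Ψ) (hF3 : F3 Q i X1 X2 M)
    (hB : Box Q i a b c μ) : ∀ᵐ y : ℝ, y ∈ Ioo (Q.y i - Q.h2 i) (Q.y i + Q.h2 i) →
      ∀ x ∈ Icc (Q.x i - Q.h1 i) (Q.x i + Q.h1 i), ∀ x' ∈ Icc (Q.x i - Q.h1 i) (Q.x i + Q.h1 i),
        |Ψ (x, y) - Ψ (x', y)| ≤ M := by
  filter_upwards [ae_HY L hF3 hB] with y h hy using (h hy).osc hB

/-- (W), vertical lines -/
theorem osc_v (L : LinesI a b c B σ X1 X2 μ ψ Ψ) (hF3 : F3 Q i X1 X2 M)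
    (hB : Box Q i a b c μ) : ∀ᵐ x : ℝ, x ∈ Ioo (Q.x i - Q.h1 i) (Q.x i + Q.h1 i) →
      ∀ y ∈ Icc (Q.y i - Q.h2 i) (Q.y i + Q.h2 i), ∀ y' ∈ Icc (Q.y i - Q.h2 i) (Q.y i + Q.h2 i),
        |ψ (x, y) - ψ (x, y')| ≤ M := by
  filter_upwards [ae_HX L hF3 hB] with x h hx using (h hx).osc hB

/-- **oscillation over the frontier** from the values on a.e. point of the four sides -/
theorem osc_frontier [IsFiniteMeasure μ] (L : LinesI a b c B σ X1 X2 μ ψ Ψ)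
    (hF3 : F3 Q i X1 X2 M) (hB : Box Q i a b c μ) (hc : ContinuousOn F (frontier (Q.op i)))
    (hX : ∀ s, SX Q i s → ∀ᵐ y : ℝ, y ∈ Ioo (Q.y i - Q.h2 i) (Q.y i + Q.h2 i) →
      F (s, y) = Ψ (s, y))
    (hY : ∀ t, SY Q i t → ∀ᵐ x : ℝ, x ∈ Ioo (Q.x i - Q.h1 i) (Q.x i + Q.h1 i) →
      F (x, t) = ψ (x, t)) :
    ∀ p ∈ frontier (Q.op i), ∀ q ∈ frontier (Q.op i), |F p - F q| ≤ 2 * M := by
  refine gen_closure L hF3 hB ?_ hc
  rw [frontier_op]
  exact closure_union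
    (closure_union (vside_closure L hF3 hB (Or.inl rfl) (hX _ (Or.inl rfl)))
      (vside_closure L hF3 hB (Or.inr rfl) (hX _ (Or.inr rfl))))
    (closure_union (hside_closure L hF3 hB (Or.inl rfl) (hY _ (Or.inl rfl)))
      (hside_closure L hF3 hB (Or.inr rfl) (hY _ (Or.inr rfl))))

/-- the lower three sides (rectangles cut by the level) -/
def three (Q : Rects ι) (i : ι) : Set (ℝ × ℝ) :=
  (vside Q i (Q.x i - Q.h1 i) ∪ vside Q i (Q.x i + Q.h1 i)) ∪ hside Q i (Q.y i - Q.h2 i)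

/-- **oscillation over the lower three sides** (rectangles cut by the level) -/
theorem osc_three [IsFiniteMeasure μ] (L : LinesI a b c B σ X1 X2 μ ψ Ψ)
    (hF3 : F3 Q i X1 X2 M) (hB : Box Q i a b c μ) (hc : ContinuousOn F (three Q i))
    (hX : ∀ s, SX Q i s → ∀ᵐ y : ℝ, y ∈ Ioo (Q.y i - Q.h2 i) (Q.y i + Q.h2 i) →
      F (s, y) = Ψ (s, y))
    (hY : ∀ᵐ x : ℝ, x ∈ Ioo (Q.x i - Q.h1 i) (Q.x i + Q.h1 i) →
      F (x, Q.y i - Q.h2 i) = ψ (x, Q.y i - Q.h2 i)) :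
    ∀ p ∈ three Q i, ∀ q ∈ three Q i, |F p - F q| ≤ 2 * M := by
  refine gen_closure L hF3 hB ?_ hc
  exact closure_union
    (closure_union (vside_closure L hF3 hB (Or.inl rfl) (hX _ (Or.inl rfl)))
      (vside_closure L hF3 hB (Or.inr rfl) (hX _ (Or.inr rfl))))
    (hside_closure L hF3 hB (Or.inl rfl) hY)

/-- values on the vertical sides: `F` continuous on an open set `V` up to the side, `F = ψ` a.e.
on `V`, and the side is accessible from `V` along a.e. horizontal line -/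
theorem val_x [IsFiniteMeasure μ] (L : LinesI a b c B σ X1 X2 μ ψ Ψ) (hB : Box Q i a b c μ)
    {V : Set (ℝ × ℝ)} (hV : IsOpen V) (hF : ∀ᵐ p : ℝ × ℝ, p ∈ V → F p = ψ p) {s : ℝ}
    (hs : SX Q i s) (hc : ∀ y ∈ Ioo (Q.y i - Q.h2 i) (Q.y i + Q.h2 i),
      ContinuousWithinAt F V (s, y))
    (hacc : ∀ᵐ y : ℝ, y ∈ Ioo (Q.y i - Q.h2 i) (Q.y i + Q.h2 i) →
      s ∈ closure {x : ℝ | (x, y) ∈ V}) :
    ∀ᵐ y : ℝ, y ∈ Ioo (Q.y i - Q.h2 i) (Q.y i + Q.h2 i) → F (s, y) = Ψ (s, y) := by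
  filter_upwards [L.goodY, ae_y_of_ae hF, hacc] with y h1 h2 h3 hy
  have hG := h1 (hB.hc.trans hy.1)
  have hsab := hs.ab hB
  set W : Set ℝ := Ioo a b ∩ {x : ℝ | (x, y) ∈ V} with hW
  have hVy : IsOpen {x : ℝ | (x, y) ∈ V} :=
    hV.preimage (continuous_id.prodMk continuous_const)
  have hWo : IsOpen W := isOpen_Ioo.inter hVy
  have hsW : s ∈ closure W := isOpen_Ioo.inter_closure ⟨hsab, h3 hy⟩
  have hfr : ∃ᶠ x in 𝓝[W] s, F (x, y) = Ψ (x, y) := by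
    refine freq_open hWo hsW ?_
    filter_upwards [h2, hG.E] with x h4 h5 hx
    rw [h4 hx.2, h5 hx.1]
  have hlim1 : Tendsto (fun x => F (x, y)) (𝓝[W] s) (𝓝 (F (s, y))) := by
    refine (hc y hy).tendsto.comp ?_
    refine tendsto_nhdsWithin_of_tendsto_nhds_of_eventually_within _
      (((continuous_id.prodMk continuous_const).tendsto s).mono_left nhdsWithin_le_nhds) ?_
    filter_upwards [self_mem_nhdsWithin] with x hx using hx.2
  have hlim2 : Tendsto (fun x => Ψ (x, y)) (𝓝[W] s) (𝓝 (Ψ (s, y))) :=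
    (cont_Ψ hG hsab (hs.null hB hy)).tendsto.mono_left nhdsWithin_le_nhds
  exact tendsto_nhds_unique_of_frequently_eq hlim1 hlim2 hfr

/-- values on the horizontal sides -/
theorem val_y (L : LinesI a b c B σ X1 X2 μ ψ Ψ) (hB : Box Q i a b c μ)
    {V : Set (ℝ × ℝ)} (hV : IsOpen V) (hF : ∀ᵐ p : ℝ × ℝ, p ∈ V → F p = ψ p) {t : ℝ}
    (ht : SY Q i t) (hc : ∀ x ∈ Ioo (Q.x i - Q.h1 i) (Q.x i + Q.h1 i),
      ContinuousWithinAt F V (x, t))
    (hacc : ∀ᵐ x : ℝ, x ∈ Ioo (Q.x i - Q.h1 i) (Q.x i + Q.h1 i) →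
      t ∈ closure {y : ℝ | (x, y) ∈ V}) :
    ∀ᵐ x : ℝ, x ∈ Ioo (Q.x i - Q.h1 i) (Q.x i + Q.h1 i) → F (x, t) = ψ (x, t) := by
  filter_upwards [L.goodX, ae_x_of_ae hF, hacc] with x h1 h2 h3 hx
  have hG := h1 ⟨hB.ha.trans hx.1, hx.2.trans hB.hb⟩
  have hct : c < t := hB.hc.trans_le ht.mem.1
  have hVx : IsOpen {y : ℝ | (x, y) ∈ V} :=
    hV.preimage (continuous_const.prodMk continuous_id)
  have hfr : ∃ᶠ y in 𝓝[{y : ℝ | (x, y) ∈ V}] t, F (x, y) = ψ (x, y) :=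
    freq_open hVx (h3 hx) h2
  have hlim1 : Tendsto (fun y => F (x, y)) (𝓝[{y : ℝ | (x, y) ∈ V}] t) (𝓝 (F (x, t))) := by
    refine (hc x hx).tendsto.comp ?_
    refine tendsto_nhdsWithin_of_tendsto_nhds_of_eventually_within _
      (((continuous_const.prodMk continuous_id).tendsto t).mono_left nhdsWithin_le_nhds) ?_
    filter_upwards [self_mem_nhdsWithin] with y hy using hy
  have hlim2 : Tendsto (fun y => ψ (x, y)) (𝓝[{y : ℝ | (x, y) ∈ V}] t) (𝓝 (ψ (x, t))) :=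
    (cont_ψ hG hct).tendsto.mono_left nhdsWithin_le_nhds
  exact tendsto_nhds_unique_of_frequently_eq hlim1 hlim2 hfr

/-- the frontier of one rectangle meets none of the open rectangles -/
theorem frontier_sub (hd : Pairwise fun i j => Disjoint (Q.op i) (Q.op j)) :
    frontier (Q.op i) ⊆ Q.unᶜ := by
  intro p hp hp'
  obtain ⟨j, hj⟩ := mem_iUnion.mp hp'
  by_cases hij : i = j
  · subst hij
    rw [(Q.isOpen_op i).frontier_eq] at hp
    exact hp.2 hj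
  · obtain ⟨q, hq1, hq2⟩ := mem_closure_iff.mp hp.1 (Q.op j) (Q.isOpen_op j) hj
    exact (disjoint_left.mp (hd hij) hq2) hq1

/-- **(W)**: `f` continuous on the complement of the open rectangles, `f = ψ` a.e. on the open
set `V`, the four sides accessible from `V`: the oscillation of `f` over the frontier of the
rectangle is at most `2 * M` (`= 4 * f i`) -/
theorem osc_of_access [IsFiniteMeasure μ] (L : LinesI a b c B σ X1 X2 μ ψ Ψ)
    (hF3 : F3 Q i X1 X2 M) (hB : Box Q i a b c μ) {V A : Set (ℝ × ℝ)} (hV : IsOpen V)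
    (hVA : V ⊆ A) (hfA : frontier (Q.op i) ⊆ A) (hc : ContinuousOn F A)
    (hF : ∀ᵐ p : ℝ × ℝ, p ∈ V → F p = ψ p)
    (haccX : ∀ s, SX Q i s → ∀ᵐ y : ℝ, y ∈ Ioo (Q.y i - Q.h2 i) (Q.y i + Q.h2 i) →
      s ∈ closure {x : ℝ | (x, y) ∈ V})
    (haccY : ∀ t, SY Q i t → ∀ᵐ x : ℝ, x ∈ Ioo (Q.x i - Q.h1 i) (Q.x i + Q.h1 i) →
      t ∈ closure {y : ℝ | (x, y) ∈ V}) :
    ∀ p ∈ frontier (Q.op i), ∀ q ∈ frontier (Q.op i), |F p - F q| ≤ 2 * M := by
  have hvs : ∀ s, SX Q i s → vside Q i s ⊆ frontier (Q.op i) := by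
    intro s hs
    rw [frontier_op]
    rcases hs with rfl | rfl
    · exact fun p hp => Or.inl (Or.inl hp)
    · exact fun p hp => Or.inl (Or.inr hp)
  have hhs : ∀ t, SY Q i t → hside Q i t ⊆ frontier (Q.op i) := by
    intro t ht
    rw [frontier_op]
    rcases ht with rfl | rfl
    · exact fun p hp => Or.inr (Or.inl hp)
    · exact fun p hp => Or.inr (Or.inr hp)
  refine osc_frontier L hF3 hB (hc.mono hfA) (fun s hs => ?_) fun t ht => ?_
  · refine val_x L hB hV hF hs (fun y hy => ?_) (haccX s hs)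
    exact (hc (s, y) (hfA (hvs s hs ⟨mem_singleton _, hy.1.le, hy.2.le⟩))).mono hVA
  · refine val_y L hB hV hF ht (fun x hx => ?_) (haccY t ht)
    exact (hc (x, t) (hfA (hhs t ht ⟨⟨hx.1.le, hx.2.le⟩, mem_singleton _⟩))).mono hVA

/-- the same for the lower three sides -/
theorem osc_three_of_access [IsFiniteMeasure μ] (L : LinesI a b c B σ X1 X2 μ ψ Ψ)
    (hF3 : F3 Q i X1 X2 M) (hB : Box Q i a b c μ) {V A : Set (ℝ × ℝ)} (hV : IsOpen V)
    (hVA : V ⊆ A) (hfA : three Q i ⊆ A) (hc : ContinuousOn F A)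
    (hF : ∀ᵐ p : ℝ × ℝ, p ∈ V → F p = ψ p)
    (haccX : ∀ s, SX Q i s → ∀ᵐ y : ℝ, y ∈ Ioo (Q.y i - Q.h2 i) (Q.y i + Q.h2 i) →
      s ∈ closure {x : ℝ | (x, y) ∈ V})
    (haccY : ∀ᵐ x : ℝ, x ∈ Ioo (Q.x i - Q.h1 i) (Q.x i + Q.h1 i) →
      Q.y i - Q.h2 i ∈ closure {y : ℝ | (x, y) ∈ V}) :
    ∀ p ∈ three Q i, ∀ q ∈ three Q i, |F p - F q| ≤ 2 * M := by
  have hvs : ∀ s, SX Q i s → vside Q i s ⊆ three Q i := by
    intro s hs
    rcases hs with rfl | rfl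
    · exact fun p hp => Or.inl (Or.inl hp)
    · exact fun p hp => Or.inl (Or.inr hp)
  have hhs : hside Q i (Q.y i - Q.h2 i) ⊆ three Q i := fun p hp => Or.inr hp
  refine osc_three L hF3 hB (hc.mono hfA) (fun s hs => ?_) ?_
  · refine val_x L hB hV hF hs (fun y hy => ?_) (haccX s hs)
    exact (hc (s, y) (hfA (hvs s hs ⟨mem_singleton _, hy.1.le, hy.2.le⟩))).mono hVA
  · refine val_y L hB hV hF (Or.inl rfl) (fun x hx => ?_) haccY
    exact (hc _ (hfA (hhs ⟨⟨hx.1.le, hx.2.le⟩, mem_singleton _⟩))).mono hVA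

/-- accessibility of a side along one line: the segment between the side and a point `x'` off the
component contains a point of the complement of `E` -/
theorem mem_closure_of_seg {E : Set (ℝ × ℝ)} {s y : ℝ} (h : ∀ δ > 0, ∃ x : ℝ, |x - s| < δ ∧
    (x, y) ∉ E) : s ∈ closure {x : ℝ | (x, y) ∈ Eᶜ} := by
  rw [Metric.mem_closure_iff]
  intro ε hε
  obtain ⟨x, hx, hx'⟩ := h ε hε
  exact ⟨x, hx', by rw [dist_comm, Real.dist_eq]; exact hx⟩

end Crest.Agent.R105.Sqw_693
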