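import Crest.Agent.R105.CF5_363

/-!
# Row 105, PP with solids: the starting function with a STRICT gap

`E` compact, null off countably many disjoint closed squares `Q i` (sides `s i`, `∑ s i ^ 2 < ∞`);
`K` a hair disjoint from the squares.  With `Φ = one-sided ramp of width r + x / r` (monotone in `x`
on every square) one has `∑ s i * osc (Φ; Q i) < - ∫_{Eᶜ} Φ_x` for small `r`.
-/

namespace Crest.Agent.R105.StQ_75

open Set Filter MeasureTheory Topology
open CF_363
open scoped ENNReal NNReal

/-- the closed square with lower left corner `(a, c)` and side `s` -/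
def sq (a c s : ℝ) : Set (ℝ × ℝ) := Icc a (a + s) ×ˢ Icc c (c + s)

theorem mem_sq {a c s : ℝ} {p : ℝ × ℝ} :
    p ∈ sq a c s ↔ (a ≤ p.1 ∧ p.1 ≤ a + s) ∧ c ≤ p.2 ∧ p.2 ≤ c + s := Iff.rfl

theorem isCompact_sq (a c s : ℝ) : IsCompact (sq a c s) := isCompact_Icc.prod isCompact_Icc

theorem measurableSet_sq (a c s : ℝ) : MeasurableSet (sq a c s) :=
  (isCompact_sq a c s).isClosed.measurableSet

/-- the one-sided ramp of width `r` at the hair `K` with profile `χ` -/
noncomputable def rr (K : Hair) (χ : ℝ → ℝ) (r : ℝ) (p : ℝ × ℝ) : ℝ :=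
  if K.x < p.1 then χ p.2 * ramp r (p.1 - K.x) else 0

/-- the tent over `[b,t]` -/
noncomputable def tent (K : Hair) (y : ℝ) : ℝ := ramp ((K.t - K.b) / 2) (y - (K.b + K.t) / 2)

theorem tent_zero (K : Hair) {y : ℝ} (hy : y ∉ Icc K.b K.t) : tent K y = 0 := by
  have hbt := K.hbt
  refine ramp_eq_zero (by linarith) ?_
  rw [mem_Icc, not_and_or, not_le, not_le] at hy
  rcases hy with h | h
  · rw [abs_of_neg (by linarith)]; linarith
  · rw [abs_of_pos (by linarith)]; linarith

/-- the Lipschitz constant of the tent -/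
noncomputable def mK (K : Hair) : ℝ := ((K.t - K.b) / 2)⁻¹

theorem mK_pos (K : Hair) : 0 < mK K := inv_pos.2 (by have := K.hbt; linarith)

theorem tent_lip (K : Hair) (s t : ℝ) : |tent K s - tent K t| ≤ mK K * |s - t| := by
  have hbt := K.hbt
  have := ramp_lip (r := (K.t - K.b) / 2) (by linarith) (s - (K.b + K.t) / 2)
    (t - (K.b + K.t) / 2)
  rwa [sub_sub_sub_cancel_right] at this

theorem tent_nonneg (K : Hair) (y : ℝ) : 0 ≤ tent K y := ramp_nonneg _ _

theorem tent_le_one (K : Hair) (y : ℝ) : tent K y ≤ 1 :=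
  ramp_le_one (by have := K.hbt; linarith) _

theorem continuous_tent (K : Hair) : Continuous (tent K) := by
  unfold tent ramp; fun_prop

theorem tent_cpt (K : Hair) : HasCompactSupport (tent K) :=
  HasCompactSupport.intro isCompact_Icc fun _ hy => tent_zero K hy

theorem integral_tent_pos (K : Hair) : 0 < ∫ y, tent K y := by
  refine (continuous_tent K).integral_pos_of_hasCompactSupport_nonneg_nonzero (tent_cpt K)
    (fun y => tent_nonneg K y) (x := (K.b + K.t) / 2) ?_
  simp [tent, ramp_zero]

theorem CF_rr (K : Hair) {r : ℝ} (hr : 0 < r) : CF K.carᶜ (rr K (tent K) r) :=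
  CF_ramp_right K (A := 1) (M := mK K) zero_le_one (mK_pos K).le hr (tent_lip K)
    (fun s => by rw [abs_of_nonneg (tent_nonneg K s)]; exact tent_le_one K s)
    (fun y hy => tent_zero K hy)

/-- a.e. value of the horizontal derivative -/
theorem gx_rr (K : Hair) {r : ℝ} (hr : 0 < r) : ∀ᵐ p : ℝ × ℝ, gx (rr K (tent K) r) p =
    (Ioo K.x (K.x + r)).indicator (fun _ => (-r⁻¹ : ℝ)) p.1 * tent K p.2 := by
  have hbt := K.hbt
  obtain ⟨L, C, hL, h1, h2⟩ := CF_rr K hr
  have hd := h1.ae_differentiableAt (μ := volume) K.isClosed_car.isOpen_compl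
  have hn1 : ∀ c : ℝ, ∀ᵐ p : ℝ × ℝ, p.1 ≠ c := by
    intro c
    have h3 : volume {p : ℝ × ℝ | p.1 = c} = 0 := by
      have : {p : ℝ × ℝ | p.1 = c} = {c} ×ˢ univ := by ext p; simp
      rw [this, Measure.volume_eq_prod, Measure.prod_prod]; simp
    have := measure_eq_zero_iff_ae_notMem.mp h3
    filter_upwards [this] with p hp using hp
  filter_upwards [hd, hn1 K.x, hn1 (K.x + r)] with p hp hx hx1
  by_cases hin : p.1 ∈ Ioo K.x (K.x + r)
  · rw [indicator_of_mem hin]
    have hpK : p ∈ K.carᶜ := fun h => hx h.1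
    have hder := gx_eq_deriv (f := rr K (tent K) r) (x := p.1) (y := p.2) (hp hpK)
    have hder2 : HasDerivAt (fun s => rr K (tent K) r (s, p.2)) (-r⁻¹ * tent K p.2) p.1 := by
      have h4 : HasDerivAt (fun s : ℝ => tent K p.2 * (1 - (s - K.x) / r))
          (-r⁻¹ * tent K p.2) p.1 := by
        have := ((((hasDerivAt_id p.1).sub_const K.x).div_const r).const_sub 1).const_mul
          (tent K p.2)
        have h5 : tent K p.2 * -(1 / r) = -r⁻¹ * tent K p.2 := by rw [one_div]; ring
        rw [← h5]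
        exact this
      refine h4.congr_of_eventuallyEq ?_
      filter_upwards [Ioo_mem_nhds hin.1 hin.2] with s hs
      have h5 : ramp r (s - K.x) = 1 - (s - K.x) / r := by
        unfold ramp
        rw [abs_of_pos (by linarith [hs.1]), max_eq_right]
        have : (s - K.x) / r ≤ 1 := (div_le_one hr).2 (by linarith [hs.2])
        linarith
      simp only [rr, if_pos hs.1, h5]
    exact hder.unique hder2
  · rw [indicator_of_notMem hin, zero_mul]
    rw [mem_Ioo, not_and_or, not_lt, not_lt] at hin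
    have h6 : rr K (tent K) r =ᶠ[𝓝 p] fun _ => (0 : ℝ) := by
      rcases hin with h | h
      · have : ∀ᶠ q : ℝ × ℝ in 𝓝 p, q.1 < K.x :=
          (continuous_fst.tendsto p).eventually (Iio_mem_nhds (lt_of_le_of_ne h hx))
        filter_upwards [this] with q hq
        simp only [rr, if_neg (not_lt.2 hq.le)]
      · have : ∀ᶠ q : ℝ × ℝ in 𝓝 p, K.x + r < q.1 :=
          (continuous_fst.tendsto p).eventually (Ioi_mem_nhds (lt_of_le_of_ne h (Ne.symm hx1)))
        filter_upwards [this] with q hq
        have h7 : ramp r (q.1 - K.x) = 0 := ramp_eq_zero hr (by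
          rw [abs_of_pos (by linarith)]; linarith)
        simp [rr, h7]
    rw [gx_congr h6]
    simp [gx]

theorem rr_eq_zero (K : Hair) {r : ℝ} (hr : 0 < r) {p : ℝ × ℝ}
    (hp : p ∉ Icc K.x (K.x + r) ×ˢ Icc K.b K.t) : rr K (tent K) r p = 0 := by
  rw [mem_prod, not_and_or] at hp
  rcases hp with h | h
  · rw [mem_Icc, not_and_or, not_le, not_le] at h
    rcases h with h | h
    · simp only [rr, if_neg (not_lt.2 h.le)]
    · have h7 : ramp r (p.1 - K.x) = 0 := ramp_eq_zero hr (by
        rw [abs_of_pos (by linarith)]; linarith)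
      simp [rr, h7]
  · simp [rr, tent_zero K h]

theorem hcs_rr (K : Hair) {r : ℝ} (hr : 0 < r) : HasCompactSupport (rr K (tent K) r) :=
  HasCompactSupport.intro (K := Icc K.x (K.x + r) ×ˢ Icc K.b K.t)
    (isCompact_Icc.prod isCompact_Icc) fun _ hp => rr_eq_zero K hr hp

theorem integral_gx_rr (K : Hair) {r : ℝ} (hr : 0 < r) :
    ∫ p, gx (rr K (tent K) r) p = -∫ y, tent K y := by
  rw [integral_congr_ae (gx_rr K hr), Measure.volume_eq_prod,
    integral_prod_mul (fun x => (Ioo K.x (K.x + r)).indicator (fun _ => (-r⁻¹ : ℝ)) x)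
      (fun y => tent K y)]
  have h8 : ∫ x, (Ioo K.x (K.x + r)).indicator (fun _ => (-r⁻¹ : ℝ)) x = -1 := by
    rw [integral_indicator measurableSet_Ioo, setIntegral_const, Real.volume_real_Ioo_of_le
      (by linarith), smul_eq_mul]
    field_simp
    ring
  rw [h8]; ring

/-- compactly supported functions of class `CF` off a hair have integrable `gx` -/
theorem integrable_gx {K : Hair} {f : ℝ × ℝ → ℝ} {L : ℝ} (hf : SL K.carᶜ L f)
    (hc : HasCompactSupport f) : Integrable (gx f) := by
  have hf' : SL K.carᶜ (max L 0) f := hf.mono_const (le_max_left _ _)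
  have h1 : IntegrableOn (gx f) (tsupport f) := by
    refine Measure.integrableOn_of_bounded (M := max L 0) hc.measure_lt_top.ne
      (measurable_gx f).aestronglyMeasurable ?_
    have h2 : ∀ᵐ p ∂(volume.restrict (tsupport f)), p ∉ K.car :=
      ae_restrict_of_ae (measure_eq_zero_iff_ae_notMem.mp K.volume_car)
    filter_upwards [h2] with p hp
    exact hf'.abs_gx_le K.isClosed_car.isOpen_compl (le_max_right _ _) hp
  refine (integrableOn_iff_integrable_of_support_subset fun p hp => ?_).1 h1
  by_contra hcon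
  have h3 : f =ᶠ[𝓝 p] fun _ => (0 : ℝ) := notMem_tsupport_iff_eventuallyEq.mp hcon
  exact hp (by rw [gx_congr h3]; simp [gx])

end Crest.Agent.R105.StQ_75
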