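import Crest.Agent.R105.StQ1_75

/-!
# Row 105, PP with solids: the starting function with a STRICT gap (main theorem)
-/

namespace Crest.Agent.R105.StQ_75

open Set Filter MeasureTheory Topology
open CF_363
open scoped ENNReal NNReal

/-- a compactly supported smooth function which equals `x` on a big ball -/
theorem exists_X (R : ℝ) (hR : 0 < R) : ∃ X : ℝ × ℝ → ℝ, ContDiff ℝ 1 X ∧ HasCompactSupport X ∧
    ∀ p ∈ Metric.closedBall (0 : ℝ × ℝ) R, X p = p.1 := by
  let β : ContDiffBump (0 : ℝ × ℝ) := ⟨R, R + 1, hR, by linarith⟩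
  refine ⟨fun p => β p * p.1, ?_, ?_, ?_⟩
  · exact (β.contDiff (n := 1)).mul contDiff_fst
  · exact β.hasCompactSupport.mul_right
  · intro p hp
    have : β p = 1 := β.one_of_mem_closedBall hp
    simp [this]

theorem integral_gx_smooth {X : ℝ × ℝ → ℝ} (hX : ContDiff ℝ 1 X) (hc : HasCompactSupport X) :
    ∫ p, gx X p = 0 := by
  have h1 : Continuous fun p => fderiv ℝ X p (1, 0) :=
    (hX.continuous_fderiv (by norm_num)).clm_apply continuous_const
  have h2 : HasCompactSupport fun p => fderiv ℝ X p (1, 0) := by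
    have := hc.fderiv (𝕜 := ℝ)
    exact this.comp_left (g := fun T : (ℝ × ℝ) →L[ℝ] ℝ => T (1, 0)) (by simp)
  have h3 := integral_mul_fderiv_eq_neg_fderiv_mul_of_integrable (μ := (volume : Measure (ℝ × ℝ)))
    (f := fun _ => (1 : ℝ)) (g := X) (v := ((1 : ℝ), (0 : ℝ)))
    (by simp) (by simpa using h1.integrable_of_hasCompactSupport h2)
    (by simpa using hX.continuous.integrable_of_hasCompactSupport hc)
    (fun x _ => by fun_prop) (fun x _ => hX.differentiable (by norm_num) x)
  simpa [gx] using h3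

/-- the function `ramp + x / r` -/
noncomputable def phi (K : Hair) (r : ℝ) (X : ℝ × ℝ → ℝ) (p : ℝ × ℝ) : ℝ :=
  rr K (tent K) r p + r⁻¹ * X p

section

variable {K : Hair} {r : ℝ} {X : ℝ × ℝ → ℝ}

theorem CF_phi (hr : 0 < r) (hX : ContDiff ℝ 1 X) (hc : HasCompactSupport X) :
    CF K.carᶜ (phi K r X) := by
  obtain ⟨C, hC⟩ := hX.lipschitzWith_of_hasCompactSupport hc (by norm_num)
  obtain ⟨B, hB⟩ := hc.exists_bound_of_continuous hX.continuous
  exact (CF_rr K hr).add ((CF_of_lipschitz hC (C := B) fun p _ => hB p).const_mul r⁻¹)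

theorem hcs_phi (hr : 0 < r) (hc : HasCompactSupport X) : HasCompactSupport (phi K r X) :=
  (hcs_rr K hr).add hc.mul_left

theorem integral_gx_phi (hr : 0 < r) (hX : ContDiff ℝ 1 X) (hc : HasCompactSupport X) :
    ∫ p, gx (phi K r X) p = -∫ y, tent K y := by
  obtain ⟨L, C, hL, h1, h2⟩ := CF_rr K hr
  have hd := h1.ae_differentiableAt (μ := volume) K.isClosed_car.isOpen_compl
  have hXd : Differentiable ℝ X := hX.differentiable (by norm_num)
  have e1 : ∀ᵐ p : ℝ × ℝ, gx (phi K r X) p = gx (rr K (tent K) r) p + r⁻¹ * gx X p := by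
    filter_upwards [hd, measure_eq_zero_iff_ae_notMem.mp K.volume_car] with p hp hpK
    have h3 := hp hpK
    have h4 : DifferentiableAt ℝ (fun q => r⁻¹ * X q) p := (hXd p).const_mul _
    unfold phi
    rw [gx_add h3 h4, gx_const_mul _ (hXd p)]
  have i1 : Integrable (gx (rr K (tent K) r)) := integrable_gx h1 (hcs_rr K hr)
  have i2 : Integrable (gx X) := by
    obtain ⟨D, hD⟩ := hX.lipschitzWith_of_hasCompactSupport hc (by norm_num)
    exact integrable_gx (K := K) (SL_of_lipschitz hD) hc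
  rw [integral_congr_ae e1, integral_add i1 (i2.const_mul _), integral_const_mul,
    integral_gx_smooth hX hc, integral_gx_rr K hr]
  ring

variable {a c s R : ℝ}

/-- vertical variation of `phi` on a square on which `X = x` -/
theorem phi_vert (hr : 0 < r) (hX1 : ∀ p ∈ sq a c s, X p = p.1) {x y y' : ℝ}
    (h : (x, y) ∈ sq a c s) (h' : (x, y') ∈ sq a c s) :
    |phi K r X (x, y) - phi K r X (x, y')| ≤ mK K * s := by
  have hs : |y - y'| ≤ s := by
    rw [mem_sq] at h h'
    rw [abs_le]; constructor <;> linarith [h.2.1, h.2.2, h'.2.1, h'.2.2]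
  unfold phi
  rw [hX1 _ h, hX1 _ h']
  dsimp only
  rw [add_sub_add_right_eq_sub]
  unfold rr
  dsimp only
  split_ifs
  · rw [← sub_mul, abs_mul, abs_of_nonneg (ramp_nonneg _ _)]
    calc |tent K y - tent K y'| * ramp r (x - K.x) ≤ (mK K * s) * 1 :=
          mul_le_mul ((tent_lip K y y').trans (mul_le_mul_of_nonneg_left hs (mK_pos K).le))
            (ramp_le_one hr.le _) (ramp_nonneg _ _)
            (mul_nonneg (mK_pos K).le ((abs_nonneg _).trans hs))
      _ = mK K * s := mul_one _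
  · simp only [sub_self, abs_zero]
    exact mul_nonneg (mK_pos K).le ((abs_nonneg _).trans hs)

/-- `phi` is nondecreasing in `x` on a square -/
theorem phi_mono (hr : 0 < r) (hX1 : ∀ p ∈ sq a c s, X p = p.1)
    {x x' y : ℝ} (h : (x, y) ∈ sq a c s) (h' : (x', y) ∈ sq a c s) (hx : x ≤ x') :
    phi K r X (x, y) ≤ phi K r X (x', y) := by
  unfold phi
  rw [hX1 _ h, hX1 _ h']
  dsimp only
  have key : rr K (tent K) r (x, y) - rr K (tent K) r (x', y) ≤ r⁻¹ * (x' - x) := by
    have h0 : 0 ≤ r⁻¹ * (x' - x) := mul_nonneg (inv_pos.2 hr).le (by linarith)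
    by_cases hy : y ∈ Icc K.b K.t
    · unfold rr
      dsimp only
      by_cases h1 : K.x < x
      · rw [if_pos h1, if_pos (h1.trans_le hx), ← mul_sub]
        have h2 := ramp_lip hr (x - K.x) (x' - K.x)
        rw [sub_sub_sub_cancel_right, abs_sub_comm x x', abs_of_nonneg (by linarith : 0 ≤ x' - x)]
          at h2
        calc tent K y * (ramp r (x - K.x) - ramp r (x' - K.x))
            ≤ tent K y * (r⁻¹ * (x' - x)) :=
              mul_le_mul_of_nonneg_left ((le_abs_self _).trans h2) (tent_nonneg K y)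
          _ ≤ 1 * (r⁻¹ * (x' - x)) := mul_le_mul_of_nonneg_right (tent_le_one K y) h0
          _ = _ := one_mul _
      · rw [if_neg h1]
        split_ifs with h2
        · have := mul_nonneg (tent_nonneg K y) (ramp_nonneg r (x' - K.x))
          linarith
        · simpa using h0
    · unfold rr
      simp only [tent_zero K hy, zero_mul, ite_self, sub_self]
      exact h0
  have : r⁻¹ * (x' - x) = r⁻¹ * x' - r⁻¹ * x := by ring
  linarith

/-- the oscillation bound, squares which meet the strip -/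
theorem phi_osc (hr : 0 < r) (hX1 : ∀ p ∈ sq a c s, X p = p.1)
    {p q : ℝ × ℝ} (hp : p ∈ sq a c s) (hq : q ∈ sq a c s) {y : ℝ} (hy : y ∈ Icc c (c + s)) :
    phi K r X p - phi K r X q ≤ phi K r X (a + s, y) - phi K r X (a, y) + 2 * mK K * s := by
  rw [mem_sq] at hp hq
  have hs : 0 ≤ s := by linarith [hp.1.1, hp.1.2]
  have m1 : (p.1, p.2) ∈ sq a c s := hp
  have m2 : (p.1, y) ∈ sq a c s := ⟨hp.1, hy⟩
  have m3 : (a + s, y) ∈ sq a c s := ⟨⟨by linarith, le_rfl⟩, hy⟩
  have m4 : (q.1, q.2) ∈ sq a c s := hq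
  have m5 : (q.1, y) ∈ sq a c s := ⟨hq.1, hy⟩
  have m6 : (a, y) ∈ sq a c s := ⟨⟨le_rfl, by linarith⟩, hy⟩
  have h1 := (abs_le.1 (phi_vert (K := K) hr hX1 m1 m2)).2
  have h2 := phi_mono (K := K) hr hX1 m2 m3 hp.1.2
  have h3 := (abs_le.1 (phi_vert (K := K) hr hX1 m4 m5)).1
  have h4 := phi_mono (K := K) hr hX1 m6 m5 hq.1.1
  have e1 : phi K r X p = phi K r X (p.1, p.2) := rfl
  have e2 : phi K r X q = phi K r X (q.1, q.2) := rfl
  linarith

/-- the oscillation bound, squares off the strip -/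
theorem phi_osc' (hr : 0 < r) (hX1 : ∀ p ∈ sq a c s, X p = p.1)
    (hS : Disjoint (Icc K.x (K.x + r) ×ˢ Icc K.b K.t) (sq a c s))
    {p q : ℝ × ℝ} (hp : p ∈ sq a c s) (hq : q ∈ sq a c s) {y : ℝ} (hy : y ∈ Icc c (c + s)) :
    phi K r X p - phi K r X q ≤ phi K r X (a + s, y) - phi K r X (a, y) := by
  have hs : 0 ≤ s := by rw [mem_sq] at hp; linarith [hp.1.1, hp.1.2]
  have m3 : (a + s, y) ∈ sq a c s := ⟨⟨by linarith, le_rfl⟩, hy⟩
  have m6 : (a, y) ∈ sq a c s := ⟨⟨le_rfl, by linarith⟩, hy⟩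
  have h0 : ∀ z ∈ sq a c s, phi K r X z = r⁻¹ * z.1 := by
    intro z hz
    unfold phi
    rw [rr_eq_zero K hr (fun h => (disjoint_left.1 hS) h hz), hX1 z hz, zero_add]
  rw [h0 p hp, h0 q hq, h0 _ m3, h0 _ m6, ← mul_sub, ← mul_sub]
  rw [mem_sq] at hp hq
  exact mul_le_mul_of_nonneg_left (by dsimp only; linarith [hp.1.2, hq.1.1]) (inv_pos.2 hr).le

end

/-- Fubini + FTC on a square: `∫_Q f_x ≥ s * δ` if the difference between the right and the left
side is `≥ δ` on every horizontal line -/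
theorem le_integral_sq {K : Hair} {f : ℝ × ℝ → ℝ} {L : ℝ} (hL : 0 ≤ L) (hf : SL K.carᶜ L f)
    {a c s δ : ℝ} (hs : 0 ≤ s) (hK : Disjoint K.car (sq a c s))
    (h : ∀ y ∈ Icc c (c + s), δ ≤ f (a + s, y) - f (a, y)) :
    s * δ ≤ ∫ p in sq a c s, gx f p := by
  have hbd : ∀ p ∈ sq a c s, |gx f p| ≤ L := fun p hp =>
    hf.abs_gx_le K.isClosed_car.isOpen_compl hL (fun h1 => (disjoint_left.1 hK) h1 hp)
  have hint : IntegrableOn (gx f) (sq a c s) := by
    refine Measure.integrableOn_of_bounded (M := L) (isCompact_sq a c s).measure_lt_top.ne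
      (measurable_gx f).aestronglyMeasurable ?_
    exact ae_restrict_of_forall_mem (measurableSet_sq a c s) hbd
  have hrect : (volume : Measure (ℝ × ℝ)).restrict (sq a c s) =
      (volume.restrict (Icc a (a + s))).prod (volume.restrict (Icc c (c + s))) := by
    rw [Measure.prod_restrict, Measure.volume_eq_prod]; rfl
  have e1 : ∫ p in sq a c s, gx f p =
      ∫ y in Icc c (c + s), ∫ x in Icc a (a + s), gx f (x, y) := by
    have hint' := hint
    unfold IntegrableOn at hint'
    rw [hrect] at hint' ⊢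
    exact integral_prod_symm _ hint'
  have hi2 : IntegrableOn (fun y => ∫ x in Icc a (a + s), gx f (x, y)) (Icc c (c + s)) := by
    have hint' := hint
    unfold IntegrableOn at hint' ⊢
    rw [hrect] at hint'
    exact hint'.integral_prod_right
  rw [e1]
  have h2 : ∀ᵐ y ∂(volume.restrict (Icc c (c + s))), δ ≤ ∫ x in Icc a (a + s), gx f (x, y) := by
    filter_upwards [ae_restrict_of_ae (hf.ftc_x K.isClosed_car.isOpen_compl),
      ae_restrict_mem measurableSet_Icc] with y hy hyc
    have h3 := hy a (a + s) (fun x hx h4 => by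
      rw [uIcc_of_le (by linarith)] at hx
      exact (disjoint_left.1 hK) h4 ⟨hx, hyc⟩)
    rw [integral_Icc_eq_integral_Ioc, ← intervalIntegral.integral_of_le (by linarith), ← h3]
    exact h y hyc
  have h5 := integral_mono_ae (μ := volume.restrict (Icc c (c + s)))
    (integrable_const δ) hi2 h2
  rw [setIntegral_const, Real.volume_real_Icc_of_le (by linarith), smul_eq_mul,
    add_sub_cancel_left] at h5
  exact h5

/-- **START with squares: the strict gap.** -/
theorem start_gap {ι : Type*} [Countable ι] {E : Set (ℝ × ℝ)} (hE : IsCompact E) (K : Hair)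
    {a c s : ι → ℝ} (hs : ∀ i, 0 < s i) (hsum : Summable fun i => s i ^ 2)
    (hQE : ∀ i, sq (a i) (c i) (s i) ⊆ E)
    (hdis : Pairwise (Function.onFun Disjoint fun i => sq (a i) (c i) (s i)))
    (hKQ : ∀ i, Disjoint K.car (sq (a i) (c i) (s i)))
    (hnull : volume (E \ ⋃ i, sq (a i) (c i) (s i)) = 0) :
    ∃ Φ : ℝ × ℝ → ℝ, CF K.carᶜ Φ ∧ HasCompactSupport Φ ∧ (∃ C : ℝ, ∀ p, |Φ p| ≤ C) ∧
      ∃ (o : ι → ℝ) (L : ℝ), (∀ i, 0 ≤ o i ∧ o i ≤ L * s i) ∧
        (∀ i, ∀ p ∈ sq (a i) (c i) (s i), ∀ q ∈ sq (a i) (c i) (s i), |Φ p - Φ q| ≤ o i) ∧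
        Summable (fun i => s i * o i) ∧
        (∑' i, s i * o i) < -∫ p in Eᶜ, gx Φ p := by
  classical
  -- the big ball
  obtain ⟨R, hR, hER⟩ : ∃ R > 0, E ⊆ Metric.closedBall (0 : ℝ × ℝ) R := by
    obtain ⟨R, hR⟩ := hE.isBounded.subset_closedBall (0 : ℝ × ℝ)
    exact ⟨max R 1, lt_max_of_lt_right one_pos,
      hR.trans (Metric.closedBall_subset_closedBall (le_max_left _ _))⟩
  obtain ⟨X, hX, hXc, hX1⟩ := exists_X R hR
  have hXQ : ∀ i, ∀ p ∈ sq (a i) (c i) (s i), X p = p.1 := fun i p hp => hX1 p (hER (hQE i hp))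
  -- the strips
  set S : ℝ → Set (ℝ × ℝ) := fun r => Icc K.x (K.x + r) ×ˢ Icc K.b K.t with hSdef
  have hT := integral_tent_pos K
  set T : ℝ := ∫ y, tent K y with hTdef
  have hmK := mK_pos K
  -- choice of r
  obtain ⟨F, hF⟩ : ∃ F : Finset ι, ∑' i : {i // i ∉ F}, s i ^ 2 < T / (2 * mK K) := by
    have h1 := tendsto_tsum_compl_atTop_zero (fun i => s i ^ 2)
    have h2 := (tendsto_order.1 h1).2 _ (show 0 < T / (2 * mK K) by positivity)
    obtain ⟨F, hF⟩ := h2.exists
    exact ⟨F, hF⟩
  have hsep : ∀ i, ∃ r > 0, Disjoint (S r) (sq (a i) (c i) (s i)) := by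
    intro i
    obtain ⟨δ, hδ, h1⟩ := (hKQ i).exists_thickenings K.isCompact_car
      (isCompact_sq (a i) (c i) (s i)).isClosed
    refine ⟨δ / 2, by positivity, ?_⟩
    rw [disjoint_left]
    intro p hp hpq
    refine (disjoint_left.1 h1) ?_ (Metric.self_subset_thickening hδ _ hpq)
    rw [Metric.mem_thickening_iff]
    refine ⟨(K.x, p.2), ⟨rfl, hp.2.1, hp.2.2⟩, ?_⟩
    rw [Prod.dist_eq, dist_self, max_eq_left dist_nonneg, Real.dist_eq,
      abs_of_nonneg (by linarith [hp.1.1])]
    linarith [hp.1.2]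
  obtain ⟨r, hr, hrF⟩ : ∃ r > 0, ∀ i ∈ F, Disjoint (S r) (sq (a i) (c i) (s i)) := by
    choose ρ hρ hρ' using hsep
    by_cases hFe : F.Nonempty
    · refine ⟨F.inf' hFe ρ, (Finset.lt_inf'_iff hFe).2 fun i _ => hρ i, fun i hi => ?_⟩
      refine (hρ' i).mono_left ?_
      exact prod_mono (Icc_subset_Icc le_rfl (by linarith [Finset.inf'_le ρ hi])) le_rfl
    · rw [Finset.not_nonempty_iff_eq_empty] at hFe
      exact ⟨1, one_pos, by simp [hFe]⟩
  obtain ⟨L, C, hL, hSL, hC⟩ := CF_phi (K := K) hr hX hXc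
  have hcs : HasCompactSupport (phi K r X) := hcs_phi (K := K) hr hXc
  -- oscillations
  set e : ι → ℝ := fun i => if Disjoint (S r) (sq (a i) (c i) (s i)) then 0 else 2 * mK K * s i
    with hedef
  have he0 : ∀ i, 0 ≤ e i := by
    intro i; rw [hedef]; dsimp only; split_ifs
    · exact le_rfl
    · have := hs i; positivity
  have hei : ∀ i, e i ≤ 2 * mK K * s i := by
    intro i; rw [hedef]; dsimp only; split_ifs
    · have := hs i; positivity
    · exact le_rfl
  have hosc : ∀ i, ∀ p ∈ sq (a i) (c i) (s i), ∀ q ∈ sq (a i) (c i) (s i),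
      ∀ y ∈ Icc (c i) (c i + s i), phi K r X p - phi K r X q - e i ≤
        phi K r X (a i + s i, y) - phi K r X (a i, y) := by
    intro i p hp q hq y hy
    by_cases hd : Disjoint (S r) (sq (a i) (c i) (s i))
    · have h1 := phi_osc' (K := K) hr (hXQ i) hd hp hq hy
      have h2 : e i = 0 := by rw [hedef]; exact if_pos hd
      linarith
    · have h1 := phi_osc (K := K) hr (hXQ i) hp hq hy
      have h2 : e i = 2 * mK K * s i := by rw [hedef]; exact if_neg hd
      linarith
  set I : ι → ℝ := fun i => ∫ p in sq (a i) (c i) (s i), gx (phi K r X) p with hI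
  have hIle : ∀ i, ∀ p ∈ sq (a i) (c i) (s i), ∀ q ∈ sq (a i) (c i) (s i),
      s i * (phi K r X p - phi K r X q - e i) ≤ I i := fun i p hp q hq =>
    le_integral_sq hL hSL (hs i).le (hKQ i) (hosc i p hp q hq)
  have hIub : ∀ i, I i ≤ L * s i * s i := by
    intro i
    have hbd : ∀ p ∈ sq (a i) (c i) (s i), ‖gx (phi K r X) p‖ ≤ L := fun p hp =>
      hSL.abs_gx_le K.isClosed_car.isOpen_compl hL (fun h1 => (disjoint_left.1 (hKQ i)) h1 hp)
    have h1 := norm_setIntegral_le_of_norm_le_const (μ := volume)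
      (isCompact_sq (a i) (c i) (s i)).measure_lt_top hbd
    have h2 : (volume : Measure (ℝ × ℝ)).real (sq (a i) (c i) (s i)) = s i * s i := by
      unfold sq
      rw [Measure.real, Measure.volume_eq_prod, Measure.prod_prod, Real.volume_Icc,
        Real.volume_Icc, add_sub_cancel_left, add_sub_cancel_left, ENNReal.toReal_mul,
        ENNReal.toReal_ofReal (hs i).le]
    rw [h2] at h1
    calc I i ≤ ‖I i‖ := le_abs_self _
      _ ≤ _ := h1
      _ = _ := by ring
  have hgi : Integrable (gx (phi K r X)) := integrable_gx hSL hcs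
  -- total integral
  have hU : MeasurableSet (⋃ i, sq (a i) (c i) (s i)) :=
    MeasurableSet.iUnion fun i => measurableSet_sq _ _ _
  have hUE : (⋃ i, sq (a i) (c i) (s i)) ⊆ E := iUnion_subset hQE
  have hEU : ∫ p in E, gx (phi K r X) p = ∫ p in ⋃ i, sq (a i) (c i) (s i), gx (phi K r X) p := by
    refine setIntegral_congr_set ?_
    refine (ae_le_set.2 hnull).antisymm ?_
    exact Eventually.of_forall fun p hp => hUE hp
  have hhs := hasSum_integral_iUnion (μ := volume) (f := gx (phi K r X))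
    (fun i => measurableSet_sq (a i) (c i) (s i)) hdis hgi.integrableOn
  rw [← hEU] at hhs
  have htot : (∫ p in E, gx (phi K r X) p) + ∫ p in Eᶜ, gx (phi K r X) p = -T := by
    rw [integral_add_compl hE.measurableSet hgi, integral_gx_phi hr hX hXc]
  -- the error
  have hesum : Summable fun i => s i * e i := by
    refine Summable.of_nonneg_of_le (fun i => mul_nonneg (hs i).le (he0 i)) (fun i => ?_)
      (hsum.mul_left (2 * mK K))
    have := mul_le_mul_of_nonneg_left (hei i) (hs i).le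
    calc s i * e i ≤ s i * (2 * mK K * s i) := this
      _ = 2 * mK K * s i ^ 2 := by ring
  have hetot : ∑' i, s i * e i < T := by
    have h1 : ∑' i, s i * e i ≤ 2 * mK K * ∑' i : {i // i ∉ F}, s i ^ 2 := by
      rw [← tsum_mul_left]
      have h2 : ∑' i, s i * e i = ∑' i : {i // i ∉ F}, s i * e i := by
        refine (tsum_subtype_eq_of_support_subset (s := {i | i ∉ F}) ?_).symm
        intro i hi
        by_contra hcon
        rw [mem_ofPred_eq, not_not] at hcon
        apply hi
        have h3 : e i = 0 := by rw [hedef]; exact if_pos (hrF i hcon)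
        simp [h3]
      rw [h2]
      refine Summable.tsum_le_tsum (fun i => ?_) (hesum.subtype _)
        ((hsum.subtype {i | i ∉ F}).mul_left (2 * mK K))
      have := mul_le_mul_of_nonneg_left (hei i) (hs i).le
      calc s i * e i ≤ s i * (2 * mK K * s i) := this
        _ = 2 * mK K * s i ^ 2 := by ring
    have h4 : 2 * mK K * ∑' i : {i // i ∉ F}, s i ^ 2 < T := by
      rw [lt_div_iff₀ (by positivity)] at hF
      linarith
    linarith
  refine ⟨phi K r X, ⟨L, C, hL, hSL, hC⟩, hcs, ?_, fun i => I i / s i + e i, L + 2 * mK K,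
    fun i => ⟨?_, ?_⟩, ?_, ?_, ?_⟩
  · -- bounded everywhere
    obtain ⟨B, hB⟩ := hXc.exists_bound_of_continuous hX.continuous
    refine ⟨1 + r⁻¹ * B, fun p => ?_⟩
    unfold phi
    refine (abs_add_le _ _).trans (add_le_add ?_ ?_)
    · unfold rr
      split_ifs
      · rw [abs_of_nonneg (mul_nonneg (tent_nonneg K _) (ramp_nonneg _ _))]
        exact mul_le_one₀ (tent_le_one K _) (ramp_nonneg _ _) (ramp_le_one hr.le _)
      · simp
    · rw [abs_mul, abs_of_pos (inv_pos.2 hr)]
      exact mul_le_mul_of_nonneg_left (hB p) (inv_pos.2 hr).le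
  · -- nonneg
    have hmem : (a i, c i) ∈ sq (a i) (c i) (s i) :=
      ⟨⟨le_rfl, by dsimp only; linarith [hs i]⟩, le_rfl, by dsimp only; linarith [hs i]⟩
    have h1 := hIle i _ hmem _ hmem
    have h2 : s i * (-e i) ≤ I i := by
      calc s i * (-e i) = _ := by rw [sub_self, zero_sub]
        _ ≤ _ := h1
    have h3 : -e i ≤ I i / s i := by rw [le_div_iff₀ (hs i)]; linarith
    linarith
  · have h1 : I i / s i ≤ L * s i := by rw [div_le_iff₀ (hs i)]; exact hIub i
    have h2 := hei i
    calc I i / s i + e i ≤ L * s i + 2 * mK K * s i := add_le_add h1 h2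
      _ = _ := by ring
  · intro i p hp q hq
    have h1 := hIle i p hp q hq
    have h2 := hIle i q hq p hp
    have h3 : phi K r X p - phi K r X q - e i ≤ I i / s i := by
      rw [le_div_iff₀ (hs i)]; linarith
    have h4 : phi K r X q - phi K r X p - e i ≤ I i / s i := by
      rw [le_div_iff₀ (hs i)]; linarith
    rw [abs_le]; constructor <;> linarith
  · have : (fun i => s i * (I i / s i + e i)) = fun i => I i + s i * e i := by
      funext i; have := (hs i).ne'; field_simp
    rw [this]; exact hhs.summable.add hesum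
  · have h1 : (fun i => s i * (I i / s i + e i)) = fun i => I i + s i * e i := by
      funext i; have := (hs i).ne'; field_simp
    rw [h1, Summable.tsum_add hhs.summable hesum, hhs.tsum_eq]
    linarith

end Crest.Agent.R105.StQ_75
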