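import Crest.Agent.R105.Cdf2_377
import Crest.Agent.R105.Psq0_425
import Crest.Agent.R105.Ta7_937

/-!
# Row 105, S0138: stream functions of Lemma A (`Psq_425.StrQs`) are admissible: picture plane

* `up_eq_of`, `lo_eq_of`: envelopes from a limit at the component
* `up_eq_up`, `lo_eq_lo`: equal envelopes when the difference tends to `0` at the component
* `strip_null`: **strip half**: over the family `g` the joint image of `ψ` with ANY `u` is null
-/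

set_option autoImplicit false

open MeasureTheory Set Filter Topology Metric

namespace Crest.Agent.R105.Sth_377

open Ni_459 Crest.AnalysisR Tc_808 Cdf_377
open Tra_937 (setR setC toC)
open CF_363 (Hair)
open Skp2_257 (Comps)
open Nal_649 (FamQ)
open Psq_425 (LimAt)
open scoped NNReal

variable {Y E : Set ℂ} {u v : ℂ → ℝ} {z : ℂ} {k : ℝ} {ψ f : ℝ × ℝ → ℝ}
  {g : Set (Set (ℝ × ℝ))} {Bm Bp : ℝ} {P : Set (ℝ × ℝ)}

/-! ### envelopes -/

theorem up_eq_of (hY : IsExteriorDomain Yᶜ)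
    (h : ∀ ε > 0, ∃ O, Nb Y z O ∧ ∀ w ∈ O, w ∉ Y → |u w - k| ≤ ε) : up Y u z = k := by
  have key : ∀ ε > 0, ∀ c ∈ {c | ∃ O, Nb Y z O ∧ ∀ w ∈ O, w ∉ Y → u w ≤ c}, k - ε ≤ c := by
    rintro ε hε c ⟨O, hO, hc⟩
    obtain ⟨P, hP, h1⟩ := h ε hε
    obtain ⟨w, hw, hwY⟩ := (hO.inter hP).nonempty hY
    linarith [hc w hw.1 hwY, (abs_le.1 (h1 w hw.2 hwY)).1]
  refine le_antisymm (le_of_forall_pos_le_add fun ε hε => ?_) (le_csInf ?_ fun c hc => ?_)
  · obtain ⟨O, hO, h1⟩ := h ε hε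
    exact csInf_le ⟨k - 1, fun c hc => key 1 one_pos c hc⟩
      ⟨O, hO, fun w hw hwY => by linarith [(abs_le.1 (h1 w hw hwY)).2]⟩
  · obtain ⟨O, hO, h1⟩ := h 1 one_pos
    exact ⟨k + 1, O, hO, fun w hw hwY => by linarith [(abs_le.1 (h1 w hw hwY)).2]⟩
  · exact le_of_forall_pos_le_add fun ε hε => by linarith [key ε hε c hc]

theorem lo_eq_of (hY : IsExteriorDomain Yᶜ)
    (h : ∀ ε > 0, ∃ O, Nb Y z O ∧ ∀ w ∈ O, w ∉ Y → |u w - k| ≤ ε) : lo Y u z = k := by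
  unfold lo
  rw [up_eq_of (k := -k) hY fun ε hε => ?_, neg_neg]
  obtain ⟨O, hO, h1⟩ := h ε hε
  refine ⟨O, hO, fun w hw hwY => ?_⟩
  rw [show - u w - -k = -(u w - k) by ring, abs_neg]
  exact h1 w hw hwY

/-- two functions whose difference tends to `0` at the component have the same envelopes -/
theorem up_eq_up (h : ∀ ε > 0, ∃ O, Nb Y z O ∧ ∀ w ∈ O, w ∉ Y → |u w - v w| ≤ ε)
    (hY : IsExteriorDomain Yᶜ) (hv : LB v) (hu : LB u) : up Y u z = up Y v z := by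
  have key : ∀ u v : ℂ → ℝ, LB u → LB v →
      (∀ ε > 0, ∃ O, Nb Y z O ∧ ∀ w ∈ O, w ∉ Y → |u w - v w| ≤ ε) → up Y u z ≤ up Y v z := by
    intro u v hu hv h
    refine le_of_forall_pos_lt_add fun ε hε => ?_
    obtain ⟨O, hO, h1⟩ := h (ε / 3) (by linarith)
    obtain ⟨P, hP, h2⟩ := exists_lt_of_up_lt hY hv (show up Y v z < up Y v z + ε / 3 by linarith)
    have h3 := up_le hY hu (hO.inter hP) (c := up Y v z + ε / 3 + ε / 3) fun w hw hwY => by
      linarith [(abs_le.1 (h1 w hw.1 hwY)).2, h2 w hw.2 hwY]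
    linarith
  refine le_antisymm (key u v hu hv h) (key v u hv hu fun ε hε => ?_)
  obtain ⟨O, hO, h1⟩ := h ε hε
  exact ⟨O, hO, fun w hw hwY => by rw [abs_sub_comm]; exact h1 w hw hwY⟩

theorem lo_eq_lo (h : ∀ ε > 0, ∃ O, Nb Y z O ∧ ∀ w ∈ O, w ∉ Y → |u w - v w| ≤ ε)
    (hY : IsExteriorDomain Yᶜ) (hv : LB v) (hu : LB u) : lo Y u z = lo Y v z := by
  unfold lo
  rw [up_eq_up (u := fun w => - u w) (v := fun w => - v w) (fun ε hε => ?_) hY hv.neg hu.neg]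
  obtain ⟨O, hO, h1⟩ := h ε hε
  refine ⟨O, hO, fun w hw hwY => ?_⟩
  rw [show - u w - - v w = -(u w - v w) by ring, abs_neg]
  exact h1 w hw hwY

/-! ### components -/

/-- the component of a point of a member -/
theorem comp_of (hP : P ∈ Comps (setR E)) (hz : (z.re, z.im) ∈ P) :
    z ∈ E ∧ setR (connectedComponentIn E z) = P := by
  obtain ⟨L, rfl⟩ := Ta_937.mem_comps.1 hP
  have hzL : z ∈ L.1 := hz
  exact ⟨L.subset hzL, by rw [Ta_937.cc_of_mem L hzL]⟩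

theorem nb_of (hP : P ∈ Comps (setR E)) (hz : (z.re, z.im) ∈ P) {O : Set (ℝ × ℝ)}
    (hO : IsOpen O) (hPO : P ⊆ O) : Nb E z (setC O) := by
  obtain ⟨h1, h2⟩ := comp_of hP hz
  refine nb_of_mem h1 (Tra_937.isOpen_setC.2 hO) fun w hw => ?_
  have h3 : (w.re, w.im) ∈ setR (connectedComponentIn E z) := hw
  rw [h2] at h3
  exact hPO h3

theorem limAt_nb (hP : P ∈ Comps (setR E)) (hz : (z.re, z.im) ∈ P)
    (h : LimAt (setR E) P ψ k) :
    ∀ ε > 0, ∃ O, Nb E z O ∧ ∀ w ∈ O, w ∉ E → |toC ψ w - k| ≤ ε := by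
  intro ε hε
  obtain ⟨O, hO, hPO, h1⟩ := h ε hε
  exact ⟨setC O, nb_of hP hz hO hPO, fun w hw hwE => h1 (w.re, w.im) ⟨hw, hwE⟩⟩

/-! ### the strip half -/

/-- one component carries one value -/
theorem volume_NPon_comp (hP : P ∈ Comps (setR E)) : volume (NPon E u (toC ψ) (setC P)) = 0 := by
  obtain ⟨L, rfl⟩ := Ta_937.mem_comps.1 hP
  obtain ⟨z0, hz0⟩ := L.nonempty
  refine measure_mono_null (t := {(up E u z0, up E (toC ψ) z0)}) ?_ (measure_singleton _)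
  rintro p ⟨z, hz, -, h1, -, h2⟩
  have hzL : z ∈ L.1 := hz
  have hc : z ∈ connectedComponentIn E z0 := by rw [Ta_937.cc_of_mem L hz0]; exact hzL
  rw [mem_singleton_iff]
  exact Prod.ext (by rw [← h1]; exact up_congr_cc (L.subset hz0) hc)
    (by rw [← h2]; exact up_congr_cc (L.subset hz0) hc)

/-- **strip half**: over the family the joint image of `ψ` with ANY function `u` is null -/
theorem strip_null (hE : IsExteriorDomain Eᶜ) (hu : LB u) (hg : FamQ (setR E) g Bm Bp)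
    (h : ∃ C : Set (Set (ℝ × ℝ)), C.Countable ∧ ∃ F : ℝ → ℝ, Antitone F ∧
      ∀ P ∈ g, P ∉ C → ∃ K : Hair, P = K.car ∧ LimAt (setR E) P ψ (F K.x)) :
    volume (NPon E u (toC ψ) (setC (⋃₀ g))) = 0 := by
  obtain ⟨C, hC, F, hF, hK⟩ := h
  have h1 : volume (NPon E u (toC ψ) (setC (⋃₀ (g \ C)))) = 0 := by
    refine volume_NPon_family (B := Bm) (G := F) hE hu (Or.inr hF) ?_ ?_ ?_
    · rintro z ⟨P, hP, hz⟩
      exact (comp_of (hg.sub hP.1) hz).1
    · rintro z ⟨P, hP, hz⟩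
      obtain ⟨K, rfl, -⟩ := hK P hP.1 hP.2
      have h2 := (comp_of (hg.sub hP.1) hz).2
      obtain ⟨⟨p, hp, hpB⟩, q, hq, hqB⟩ := hg.crs _ hP.1
      have hz' := CF_363.Hair.mem_car.1 hz
      have hp' := CF_363.Hair.mem_car.1 hp
      have hq' := CF_363.Hair.mem_car.1 hq
      have h3 : (z.re, Bm) ∈ K.car :=
        CF_363.Hair.mem_car.2 ⟨hz'.1, hp'.2.1.trans hpB, (hg.lt.le.trans hqB).trans hq'.2.2⟩
      rw [← h2] at h3
      exact h3
    · rintro z ⟨P, hP, hz⟩ -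
      obtain ⟨K, rfl, hl⟩ := hK P hP.1 hP.2
      have hz' := (CF_363.Hair.mem_car.1 hz).1
      rw [up_eq_of hE (limAt_nb (hg.sub hP.1) hz hl), ← hz']
  have h2 : ∀ P : C, volume (NPon E u (toC ψ) (setC {p | p ∈ P.1 ∧ P.1 ∈ g})) = 0 := by
    rintro ⟨P, hP⟩
    by_cases hPg : P ∈ g
    · exact measure_mono_null (NPon_mono fun z hz => hz.1) (volume_NPon_comp (hg.sub hPg))
    · refine measure_mono_null (t := ∅) ?_ measure_empty
      rintro p ⟨z, hz, -⟩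
      exact hPg hz.2
  have := hC.to_subtype
  refine measure_mono_null ?_ (measure_union_null h1 (measure_iUnion_null h2))
  rintro p ⟨z, ⟨P, hP, hz⟩, h'⟩
  by_cases hPC : P ∈ C
  · exact Or.inr (mem_iUnion.2 ⟨⟨P, hPC⟩, z, ⟨hz, hP⟩, h'⟩)
  · exact Or.inl ⟨z, ⟨P, ⟨hP, hPC⟩, hz⟩, h'⟩

end Crest.Agent.R105.Sth_377
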