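import Crest.Agent.R105.Stp10_722

/-!
Row 105 (Koebe), leaf STEP of 257's skeleton `Skp2_257`, part 11: assembly
`LayerOp → (all hairs have single cut-offs) → StepOut`.
-/

set_option autoImplicit false

open Set Filter Topology Metric MeasureTheory
open scoped ENNReal NNReal

namespace Crest.Agent.R105.Stp_722

open CF_363 Skp2_257 SkLim2_363 Lop1_744

local notation "cc" => connectedComponentIn

/-- flattening of finitely many hairs -/
theorem flatten_all {E : Set (ℝ × ℝ)} (hE : Pic E) (hS : ∀ K ∈ hairs E, SinOut E K) {n : ℕ}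
    {N : Fin n → Set (ℝ × ℝ)} (hNo : ∀ i, IsOpen (N i))
    (hNd : ∀ i j, i ≠ j → Disjoint (N i) (N j)) {K : Fin n → Hair} (hK : ∀ i, K i ∈ hairs E)
    (hKN : ∀ i, (K i).car ⊆ N i) {χ : ℝ × ℝ → ℝ} (hχ : ClE E χ) {k : Fin n → ℝ} {A m ε R : ℝ}
    (hm : 0 < m) (hε : 0 < ε) (hA0 : 0 ≤ A) (hA : ∀ i, ∀ q ∈ N i ∩ Eᶜ, |χ q - k i| ≤ A)
    (hR : ∀ p, |χ p| ≤ R) (hkR : ∀ i, |k i| ≤ R) (s : Finset (Fin n)) :
    ∃ χ' : ℝ × ℝ → ℝ, DE E χ χ' (s.card * ε) ∧ (∀ p, (∀ i ∈ s, p ∉ N i) → χ' p = χ p) ∧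
      (∀ q ∈ Eᶜ, |χ' q - χ q| ≤ A) ∧ (∀ p, |χ' p| ≤ R) ∧ (∀ i ∈ s, OscLe Eᶜ (K i).car χ' 0) ∧
      ∀ x ∈ E, ∀ P ⊆ cc E x, ∀ b, OscLe Eᶜ P χ b → OscLe Eᶜ P χ' (b + s.card * (m * A)) := by
  classical
  induction s using Finset.induction_on with
  | empty =>
    refine ⟨χ, ?_, fun _ _ => rfl, fun q _ => by simpa using hA0, hR, by simp, ?_⟩
    · simpa using DE.zero hχ
    · intro x _ P _ b hb
      simpa using hb
  | insert i s hi ih =>
    obtain ⟨χ₁, hD, hoff, hsup, hR1, hflat, hgr⟩ := ih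
    have heq : ∀ q ∈ N i, χ₁ q = χ q := by
      intro q hq
      refine hoff q fun j hj hqj => ?_
      have hji : j ≠ i := by rintro rfl; exact hi hj
      exact Set.disjoint_left.1 (hNd j i hji) hqj hq
    have hA1 : ∀ q ∈ N i ∩ Eᶜ, |χ₁ q - k i| ≤ A := fun q hq => by
      rw [heq q hq.1]; exact hA i q hq
    obtain ⟨χ₂, hD2, ⟨S, hSc, hSN, hoff2⟩, hhull, hfl, hgr2⟩ := flatten_one hE (hK i)
      (hS _ (hK i)) hD.2.2.1 (hNo i) (hKN i) hm hε hA0 hA1
    have hcard : ((insert i s).card : ℝ) = s.card + 1 := by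
      rw [Finset.card_insert_of_notMem hi]; push_cast; ring
    refine ⟨χ₂, ?_, ?_, ?_, ?_, ?_, ?_⟩
    · rw [hcard]
      have := hD.trans hD2
      convert this using 1
      ring
    · intro p hp
      rw [hoff2 p fun h => hp i (Finset.mem_insert_self _ _) (hSN h)]
      exact hoff p fun j hj => hp j (Finset.mem_insert_of_mem hj)
    · intro q hq
      by_cases hqN : q ∈ N i
      · have h1 := hhull q (min (χ₁ q) (k i)) (max (χ₁ q) (k i)) ⟨min_le_left _ _, le_max_left _ _⟩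
          ⟨min_le_right _ _, le_max_right _ _⟩
        have h2 := hA i q ⟨hqN, hq⟩
        rw [heq q hqN] at h1
        rcases le_total (χ q) (k i) with h3 | h3
        · rw [min_eq_left h3, max_eq_right h3] at h1
          rw [abs_le] at h2 ⊢
          constructor <;> linarith [h1.1, h1.2]
        · rw [min_eq_right h3, max_eq_left h3] at h1
          rw [abs_le] at h2 ⊢
          constructor <;> linarith [h1.1, h1.2]
      · rw [hoff2 q fun h => hqN (hSN h)]
        exact hsup q hq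
    · intro p
      exact abs_le.2 (hhull p (-R) R (abs_le.1 (hR1 p)) (abs_le.1 (hkR i)))
    · intro j hj
      by_cases hji : j = i
      · rw [hji]; exact hfl
      · have hjs : j ∈ s := (Finset.mem_insert.1 hj).resolve_left hji
        refine (hflat j hjs).congr (hNo j) (hKN j) fun q hq => ?_
        exact hoff2 q fun h => Set.disjoint_left.1 (hNd j i hji) hq.1 (hSN h)
    · intro x hx P hP b hb
      have := hgr2 x hx P hP _ (hgr x hx P hP b hb)
      rw [hcard]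
      refine this.mono (le_of_eq ?_)
      ring

/-- a component is a jump hair or misses the cut. -/
theorem cut_dich {E : Set (ℝ × ℝ)} {J : Finset Hair} (hJ : ∀ K ∈ J, K ∈ hairs E)
    (x : ℝ × ℝ) : (∃ K ∈ J, cc E x = K.car) ∨ Disjoint (cc E x) (cut J) := by
  by_cases h : Disjoint (cc E x) (cut J)
  · exact Or.inr h
  · left
    obtain ⟨y, hy, hyJ⟩ := Set.not_disjoint_iff.1 h
    obtain ⟨K, hK, hyK⟩ := hyJ
    refine ⟨K, hK, ?_⟩
    rw [← cc_of_mem (hJ K hK) hyK]
    exact (cc_eq hy).symm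

set_option maxHeartbeats 1600000 in
theorem stepOut_of {E : Set (ℝ × ℝ)} (hE : Pic E)
    (hLO : LayerOp Eᶜ E Prod.snd (un (hairs E)) (ClE E) (DE E))
    (hS : ∀ K ∈ hairs E, SinOut E K) : StepOut E := by
  classical
  intro φ a ha hφ hφc hφb hosc W hW hEW ε hε
  have hφcl : ClE E φ := ⟨hφ, hφc, hφb⟩
  obtain ⟨R, hR⟩ := hφb
  have hR0 : 0 ≤ R := (abs_nonneg _).trans (hR 0)
  obtain ⟨J, hJ, L, C0, hL, hsl, -⟩ := hφ
  have hJE : cut J ⊆ E := cut_sub hJ
  have hEo : IsOpen Eᶜ := hE.cpt.isClosed.isOpen_compl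
  have hclos := sub_closure hE
  have St : Setup Eᶜ E Prod.snd (un (hairs E)) (ClE E) (DE E) :=
    { hE := hE.cpt
      hh := continuous_snd
      lev := fun x _ => Lev.of_preconnected continuous_snd isPreconnected_connectedComponentIn
        ((connectedComponentIn_subset E x).trans hclos)
      inj := fun x hx => by
        obtain ⟨K, hK, hxK⟩ := mem_un.1 hx
        rw [cc_of_mem hK hxK]
        intro p hp q hq hpq
        exact Prod.ext (hp.1.trans hq.1.symm) hpq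
      vis := fun x _ => (connectedComponentIn_subset E x).trans hclos
      D0 := fun χ h => DE.zero h
      Dadd := fun _ _ _ _ _ h h' => h.trans h'
      layer := hLO }
  -- levels
  obtain ⟨B, hB⟩ := hE.cpt.exists_bound_of_continuousOn (f := fun p : ℝ × ℝ => p.2)
    continuous_snd.continuousOn
  have hB' : ∀ p ∈ E, |p.2| ≤ |B| := fun p hp => by
    have := hB p hp
    rw [Real.norm_eq_abs] at this
    exact this.trans (le_abs_self B)
  set d : ℝ := a / (800 * (L + 1)) with hd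
  have hd0 : 0 < d := by positivity
  have hLd : L * (2 * d) ≤ a / 400 := by
    have : (800 * (L + 1)) * d = a := by rw [hd]; field_simp
    nlinarith
  obtain ⟨m, hm⟩ := exists_nat_gt ((2 * |B| + 1) / d)
  have hm0' : (0:ℝ) < m := lt_of_le_of_lt (by positivity) hm
  have hm0 : 0 < m := by exact_mod_cast hm0'
  have hmd : 2 * |B| + 1 ≤ m * d := by
    rw [div_lt_iff₀ hd0] at hm; exact hm.le
  have hcov : ∀ x ∈ E, -|B| ≤ x.2 ∧ x.2 ≤ -|B| + m * d := by
    intro x hx
    have := abs_le.1 (hB' x hx)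
    constructor <;> linarith
  set t : ℝ := a / (4000 * m) with ht
  have ht0 : 0 < t := by positivity
  have hm1 : (1:ℝ) ≤ m := by exact_mod_cast hm0
  have hta : t ≤ a / 4000 := by
    rw [ht]
    apply div_le_div_of_nonneg_left ha.le (by norm_num)
    linarith
  -- neighbourhoods of the jump hairs
  have hKx : ∀ x ∈ cut J, ∃ K, K ∈ J ∧ x ∈ K.car := fun x hx => hx
  have hne : cut J = ∅ ∨ ∃ x0 : ℝ × ℝ, x0 ∈ cut J := (cut J).eq_empty_or_nonempty
  have hHn : Nonempty Hair := ⟨⟨0, 0, 1, one_pos⟩⟩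
  choose! Kx hKxJ hxKx using hKx
  have hO : ∀ x ∈ cut J, ∃ O, IsOpen O ∧ (Kx x).car ⊆ O ∧
      ∀ q ∈ O ∩ Eᶜ, ∀ q' ∈ O ∩ Eᶜ, |φ q - φ q'| ≤ a + a := fun x hx =>
    hosc _ (hJ _ (hKxJ x hx)) a ha
  choose! O hOo hKO hOφ using hO
  have hccx : ∀ x ∈ cut J, cc E x = (Kx x).car := fun x hx =>
    cc_of_mem (hJ _ (hKxJ x hx)) (hxKx x hx)
  obtain ⟨n, p, N, hp, hNo, hNU, hNd, hNsat, hNcov⟩ := exists_thick hE.cpt (isCompact_cut J) hJE
    (fun x => (O x ∩ W) ∩ (cut (J.erase (Kx x)))ᶜ)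
    (fun x hx => ((hOo x hx).inter hW).inter (isClosed_cut _).isOpen_compl)
    (fun x hx => by
      rw [hccx x hx]
      refine subset_inter (subset_inter (hKO x hx) fun y hy => hEW ?_) ?_
      · exact hJE ⟨Kx x, hKxJ x hx, hy⟩
      · rintro y hy ⟨K', hK', hyK'⟩
        have h1 : K'.car = (Kx x).car := by
          rw [← cc_of_mem (hJ _ (Finset.mem_of_mem_erase hK')) hyK',
            ← cc_of_mem (hJ _ (hKxJ x hx)) hy]
        exact Finset.ne_of_mem_erase hK' (Hair.car_injective h1))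
  -- the piece of `x ∈ cut J` contains the whole hair and no other
  have hpieceJ : ∀ K ∈ J, ∃ i, K.car ⊆ N i ∧ K = Kx (p i) := by
    intro K hK
    have hx : (K.x, K.b) ∈ K.car := bot_mem_car K
    obtain ⟨i, hi⟩ := mem_iUnion.1 (hNcov ⟨K, hK, hx⟩)
    have h1 : cc E (K.x, K.b) = K.car := cc_of_mem (hJ K hK) hx
    have h2 : K.car ⊆ N i := by
      rw [← h1]
      exact hNsat i _ (hJE ⟨K, hK, hx⟩) ⟨(K.x, K.b), by rw [h1]; exact hx, hi⟩
    refine ⟨i, h2, ?_⟩
    by_contra hne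
    exact (hNU i hi).2 ⟨K, Finset.mem_erase.2 ⟨hne, hK⟩, hx⟩
  -- keep only the pieces which contain their hair
  set s0 : Finset (Fin n) := Finset.univ.filter fun i => (Kx (p i)).car ⊆ N i with hs0
  let e := s0.equivFin
  set l := s0.card with hl
  let N' : Fin l → Set (ℝ × ℝ) := fun j => N (e.symm j).1
  let K' : Fin l → Hair := fun j => Kx (p (e.symm j).1)
  have hKN' : ∀ j, (K' j).car ⊆ N' j := fun j => (Finset.mem_filter.1 (e.symm j).2).2
  have hK'J : ∀ j, K' j ∈ J := fun j => hKxJ _ (hp _)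
  have hN'd : ∀ i j, i ≠ j → Disjoint (N' i) (N' j) := by
    intro i j hij
    refine hNd _ _ fun h => hij ?_
    exact e.symm.injective (Subtype.ext h)
  have hκ : ∀ j, ∃ κ, |κ| ≤ R ∧ ∀ q ∈ N' j ∩ Eᶜ, |φ q - κ| ≤ 2 * a := by
    intro j
    rcases (N' j ∩ Eᶜ).eq_empty_or_nonempty with h0 | ⟨q0, hq0⟩
    · refine ⟨0, by simpa using hR0, by rw [h0]; simp⟩
    · refine ⟨φ q0, hR q0, fun q hq => ?_⟩
      have := hOφ _ (hp (e.symm j).1) q ⟨(hNU _ hq.1).1.1, hq.2⟩ q0 ⟨(hNU _ hq0.1).1.1, hq0.2⟩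
      linarith
  choose κ hκR hκ using hκ
  set ε1 : ℝ := √ε / 2 with hε1
  have hε10 : 0 < ε1 := by positivity
  obtain ⟨φ₁, hD1, hoff1, hsup1, hR1, hflat1, hgr1⟩ := flatten_all hE hS (fun j => hNo _) hN'd
    (fun j => hJ _ (hK'J j)) hKN' hφcl (k := κ) (A := 2 * a) (m := t / ((l + 1) * (2 * a)))
    (ε := ε1 / (l + 1)) (by positivity) (by positivity) (by positivity) hκ hR hκR Finset.univ
  have hcard : ((Finset.univ : Finset (Fin l)).card : ℝ) = l := by simp
  rw [hcard] at hD1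
  have hlt : (l:ℝ) * (t / ((l + 1) * (2 * a)) * (2 * a)) ≤ t := by
    have e1 : (l:ℝ) * (t / ((l + 1) * (2 * a)) * (2 * a)) = t * (l / (l + 1)) := by field_simp
    rw [e1]
    have : (l:ℝ) / (l + 1) ≤ 1 := by rw [div_le_one (by positivity)]; linarith
    nlinarith
  have hgrow : ∀ x ∈ E, ∀ P ⊆ cc E x, ∀ b, OscLe Eᶜ P φ b → OscLe Eᶜ P φ₁ (b + t) := by
    intro x hx P hP b hb
    have := hgr1 x hx P hP b hb
    rw [hcard] at this
    exact this.mono (by linarith)
  have hflatJ : ∀ K ∈ J, OscLe Eᶜ K.car φ₁ 0 := by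
    intro K hK
    obtain ⟨i, hi, hKi⟩ := hpieceJ K hK
    have his : i ∈ s0 := Finset.mem_filter.2 ⟨Finset.mem_univ _, by rw [← hKi]; exact hi⟩
    have h3 := hflat1 (e ⟨i, his⟩) (Finset.mem_univ _)
    have e3 : K' (e ⟨i, his⟩) = K := by
      change Kx (p (e.symm (e ⟨i, his⟩)).1) = K
      rw [Equiv.symm_apply_apply]
      exact hKi.symm
    rwa [e3] at h3
  have hpt : ∀ x ∈ E, Disjoint (cc E x) (cut J) → OscLe Eᶜ {x} φ 0 := by
    intro x hx hdis
    have := osc_portion (V := Eᶜ) hL hsl (isCompact_cc hE.cpt x) (convex_cc hE hx) hdis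
      (P := {x}) (singleton_subset_iff.2 (mem_connectedComponentIn hx)) (d := 0) (by
        rintro y rfl z rfl; simp)
    simpa using this
  set a₁ : ℝ := 101 / 100 * a with ha1
  have ha10 : 0 < a₁ := by positivity
  -- the components of the family
  have hg1 : ∀ x ∈ gset Eᶜ E φ₁ (a₁ / 4), Disjoint (cc E x) (cut J) := by
    intro x hx
    rcases cut_dich hJ x with ⟨K, hK, hKe⟩ | h1
    · exfalso
      refine hx.2 ⟨0, by positivity, ?_⟩
      rw [hKe]; exact hflatJ K hK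
    · exact h1
  have hg2 : ∀ x ∈ gset Eᶜ E φ₁ (a₁ / 4), ∃ K ∈ hairs E, cc E x = K.car := by
    intro x hx
    rcases comp_cases hE hx.1 with h1 | h1
    · exfalso
      refine hx.2 ⟨t, by rw [ha1]; linarith, ?_⟩
      have := hgrow x hx.1 _ Subset.rfl 0 (by rw [h1]; exact hpt x hx.1 (hg1 x hx))
      simpa using this
    · exact h1
  have hgHr : gset Eᶜ E φ₁ (a₁ / 4) ⊆ un (hairs E) := by
    intro x hx
    obtain ⟨K, hK, hKe⟩ := hg2 x hx
    exact mem_un.2 ⟨K, hK, by rw [← hKe]; exact mem_connectedComponentIn hx.1⟩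
  obtain ⟨φ₂, hcl2, hR2, hD2, hosc2, hsup2, hoff2, -⟩ := step_b St (φ := φ₁) hD1.2.2.1 hR0 hR1
    (a := a₁) ha10
    (fun x hx => (hgrow x hx.1 _ Subset.rfl a (hosc _ ⟨x, hx.1, rfl⟩)).mono
      (by rw [ha1]; linarith))
    hgHr (d := d) (B0 := -|B|) (m := m) hd0 hm0 hcov
    (fun x hx s => by
      obtain ⟨K, hK, hKe⟩ := hg2 x hx
      have h1 := osc_portion (V := Eᶜ) hL hsl (isCompact_cc hE.cpt x) (convex_cc hE hx.1)
        (hg1 x hx) (P := cc E x ∩ {y | s ≤ y.2 ∧ y.2 ≤ s + 2 * d}) inter_subset_left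
        (d := 2 * d) (by
          rintro y ⟨hy, hy1, hy2⟩ z ⟨hz, hz1, hz2⟩
          rw [hKe] at hy hz
          rw [Prod.dist_eq, hy.1, hz.1, dist_self, Real.dist_eq]
          refine max_le (by positivity) ?_
          rw [abs_le]; constructor <;> linarith)
      refine (hgrow x hx.1 _ inter_subset_left _ h1).mono ?_
      rw [ha1]; linarith)
    (fun q hq => by
      rcases cut_dich hJ q with ⟨K, hK, hKe⟩ | h1
      · refine ((hflatJ K hK).mono_set ?_).mono (by positivity)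
        rw [singleton_subset_iff, ← hKe]; exact mem_connectedComponentIn hq
      · have := hgrow q hq {q} (singleton_subset_iff.2 (mem_connectedComponentIn hq)) 0
          (hpt q hq h1)
        refine this.mono ?_
        rw [zero_add, ht, ha1, div_le_div_iff₀ (by positivity) (by positivity)]
        nlinarith [mul_pos ha hm0'])
    hW (gset_subset.trans hEW) hε10
  -- the final correction on the cut
  have hD := hD1.trans hD2
  obtain ⟨J₂, hJ₂, L₂, C₂, hL₂, hsl₂, hC₂⟩ := hcl2.1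
  have hJJ : ∀ K ∈ J ∪ J₂, K ∈ hairs E := fun K hK => by
    rcases Finset.mem_union.1 hK with h1 | h1
    · exact hJ K h1
    · exact hJ₂ K h1
  have hJJE : cut (J ∪ J₂) ⊆ E := cut_sub hJJ
  have hsupV : ∀ q ∈ Eᶜ, |φ₂ q - φ q| ≤ 8 * a := by
    intro q hq
    have h1 := abs_le.1 (hsup1 q hq)
    have h2 := abs_le.1 (hsup2 q hq)
    rw [ha1] at h2
    rw [abs_le]; constructor <;> linarith
  set φ' : ℝ × ℝ → ℝ := fun q => if q ∈ cut (J ∪ J₂) then φ q else φ₂ q with hφ'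
  have hin : ∀ q ∈ cut (J ∪ J₂), φ' q = φ q := fun q hq => if_pos hq
  have heq : ∀ q ∉ cut (J ∪ J₂), φ' q = φ₂ q := fun q hq => if_neg hq
  have heqV : ∀ q ∈ Eᶜ, φ' q = φ₂ q := fun q hq => heq q fun h => hq (hJJE h)
  refine ⟨φ', ⟨J ∪ J₂, hJJ, L₂, C₂, hL₂, ?_, ?_⟩, ?_, ?_, ?_, ?_⟩
  · refine (hsl₂.mono ?_).congr fun q hq => (heq q hq.2).symm
    exact sdiff_subset_sdiff_right (cut_mono Finset.subset_union_right)
  · intro q hq
    rw [heq q hq.2]
    exact hC₂ q ⟨mem_univ q, fun h => hq.2 (cut_mono Finset.subset_union_right h)⟩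
  · intro q hq
    by_cases hqc : q ∈ cut (J ∪ J₂)
    · exact hin q hqc
    · rw [heq q hqc, hoff2 q hq]
      refine hoff1 q fun j _ hj => hq ?_
      exact (hNU _ hj).1.2
  · intro q
    by_cases hqc : q ∈ cut (J ∪ J₂)
    · rw [hin q hqc, sub_self, abs_zero]; positivity
    · rw [heq q hqc]
      by_cases hqE : q ∈ E
      · have hq1 : q ∈ univ \ cut J := ⟨mem_univ q, fun h => hqc (cut_mono
          Finset.subset_union_left h)⟩
        have hq2 : q ∈ univ \ cut J₂ := ⟨mem_univ q, fun h => hqc (cut_mono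
          Finset.subset_union_right h)⟩
        have hc1 := hsl.continuousAt (isOpen_diff_cut isOpen_univ J) hq1
        have hc2 := hsl₂.continuousAt (isOpen_diff_cut isOpen_univ J₂) hq2
        have hc : Tendsto (fun y => |φ₂ y - φ y|) (𝓝[Eᶜ] q) (𝓝 |φ₂ q - φ q|) :=
          ((hc2.sub hc1).abs).mono_left nhdsWithin_le_nhds
        have hnb : (𝓝[Eᶜ] q).NeBot := mem_closure_iff_nhdsWithin_neBot.1 (hclos hqE)
        exact le_of_tendsto hc (by
          filter_upwards [self_mem_nhdsWithin] with y hy using hsupV y hy)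
      · exact hsupV q hqE
  · have e1 : ∫ q in Eᶜ, g2 (fun q => φ' q - φ q) q = ∫ q in Eᶜ, g2 (fun q => φ₂ q - φ q) q := by
      refine setIntegral_congr_fun hEo.measurableSet fun q hq => ?_
      refine g2_congr ?_
      filter_upwards [hEo.mem_nhds hq] with y hy
      rw [heqV y hy]
    rw [e1]
    refine hD.2.2.2.trans ?_
    have h1 : (l:ℝ) * (ε1 / (l + 1)) + ε1 ≤ √ε := by
      have e2 : (l:ℝ) * (ε1 / (l + 1)) = ε1 * (l / (l + 1)) := by field_simp
      have : (l:ℝ) / (l + 1) ≤ 1 := by rw [div_le_one (by positivity)]; linarith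
      rw [e2]
      have h3 : ε1 * (l / (l + 1)) ≤ ε1 * 1 := mul_le_mul_of_nonneg_left this hε10.le
      rw [hε1] at h3 ⊢
      linarith
    have h0 : 0 ≤ (l:ℝ) * (ε1 / (l + 1)) + ε1 := by positivity
    calc ((l:ℝ) * (ε1 / (l + 1)) + ε1) ^ 2 ≤ (√ε) ^ 2 := by gcongr
      _ = ε := Real.sq_sqrt hε.le
  · rintro P ⟨x, hx, rfl⟩
    refine ((hosc2 x hx).congr isOpen_univ (subset_univ _) fun q hq => heqV q hq.2).mono ?_
    rw [ha1]; linarith

end Crest.Agent.R105.Stp_722
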