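import Crest.Agent.R105.Stp2_722
import Crest.Agent.R105.Thin1_891

/-!
Row 105 (Koebe), task 2230 (PP-STEP), part 4: topology needed by the STEP
(compactness of families of components, thick pieces, portions, the level data).
-/

set_option autoImplicit false
set_option linter.unusedSectionVars false

open Set Filter Topology Metric

namespace Crest.Agent.R105.Stp_722

open Crest.Agent.R105.Thin_891

local notation "cc" => connectedComponentIn

variable {X : Type*} [TopologicalSpace X] [T2Space X]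

section top

variable {V E : Set X} {h : X → ℝ} {φ χ : X → ℝ}

theorem cc_eq {x y : X} (hy : y ∈ cc E x) : cc E y = cc E x := (connectedComponentIn_eq hy).symm

theorem isCompact_cc (hE : IsCompact E) (x : X) : IsCompact (cc E x) := by
  by_cases hx : x ∈ E
  · have : CompactSpace E := isCompact_iff_compactSpace.1 hE
    rw [connectedComponentIn_eq_image hx]
    exact (isClosed_connectedComponent.isCompact).image continuous_subtype_val
  · rw [connectedComponentIn_eq_empty hx]; exact isCompact_empty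

/-- a saturated condition which is open on the components defines a compact set. -/
theorem isCompact_of_comp {S : Set X} (hE : IsCompact E) (hS : S ⊆ E)
    (H : ∀ x ∈ E \ S, ∃ O, IsOpen O ∧ cc E x ⊆ O ∧ ∀ y ∈ E, cc E y ⊆ O → y ∉ S) :
    IsCompact S := by
  classical
  choose! O hO hxO hOS using H
  have hp : ∀ x ∈ E \ S, ∃ F, Piece E F ∧ cc E x ⊆ F ∧ F ⊆ O x := fun x hx =>
    exists_piece hE hx.1 (hO x hx) (hxO x hx)
  choose! F hF hxF hFO using hp
  have e : S = E ∩ ⋂ x ∈ E \ S, E \ F x := by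
    ext y
    simp only [mem_inter_iff, mem_iInter]
    constructor
    · intro hy
      refine ⟨hS hy, fun x hx => ⟨hS hy, fun hyF => ?_⟩⟩
      have := (hF x hx).component_subset hyF
      exact hOS x hx y (hS hy) (this.trans (hFO x hx)) hy
    · rintro ⟨hyE, hy⟩
      by_contra hyS
      exact (hy y ⟨hyE, hyS⟩).2 (hxF y ⟨hyE, hyS⟩ (mem_connectedComponentIn hyE))
  rw [e]
  exact hE.inter_right (isClosed_biInter fun x hx => (hF x hx).cpt'.isClosed)

/-- the points of `E` whose component has oscillation at least `b`. -/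
def gset (V E : Set X) (φ : X → ℝ) (b : ℝ) : Set X := {x ∈ E | ¬ ∃ c < b, OscLe V (cc E x) φ c}

theorem gset_subset {b : ℝ} : gset V E φ b ⊆ E := fun _ hx => hx.1

theorem gset_sat {b : ℝ} {x y : X} (hx : x ∈ gset V E φ b) (hy : y ∈ cc E x) :
    y ∈ gset V E φ b := by
  refine ⟨connectedComponentIn_subset E x hy, ?_⟩
  rw [cc_eq hy]
  exact hx.2

/-- the members of the family that cross both levels. -/
def cross (E : Set X) (h : X → ℝ) (g : Set X) (B B' : ℝ) : Set X :=
  {x ∈ g | (∃ y ∈ cc E x, h y ≤ B) ∧ ∃ y ∈ cc E x, B' ≤ h y}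

theorem cross_sat {g : Set X} {B B' : ℝ} (hg : ∀ x ∈ g, ∀ y ∈ cc E x, y ∈ g) {x y : X}
    (hx : x ∈ cross E h g B B') (hy : y ∈ cc E x) : y ∈ cross E h g B B' := by
  refine ⟨hg x hx.1 y hy, ?_⟩
  rw [cc_eq hy]
  exact hx.2

theorem isCompact_gset (hE : IsCompact E) (b : ℝ) : IsCompact (gset V E φ b) := by
  refine isCompact_of_comp hE gset_subset ?_
  rintro x ⟨hxE, hx⟩
  simp only [gset, mem_ofPred_eq, not_and, not_not] at hx
  obtain ⟨c, hc, hosc⟩ := hx hxE
  obtain ⟨O, hO, hxO, H⟩ := hosc.exists_nhds (show c < (c + b) / 2 by linarith)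
  refine ⟨O, hO, hxO, fun y _ hyO hyg => hyg.2 ⟨(c + b) / 2, by linarith, H _ hyO⟩⟩

theorem isCompact_cross (hE : IsCompact E) (hh : Continuous h) {g : Set X} (hgE : g ⊆ E)
    (hg : ∀ x ∈ E \ g, ∃ O, IsOpen O ∧ cc E x ⊆ O ∧ ∀ y ∈ E, cc E y ⊆ O → y ∉ g) (B B' : ℝ) :
    IsCompact (cross E h g B B') := by
  refine isCompact_of_comp hE (fun x hx => hgE hx.1) ?_
  rintro x ⟨hxE, hx⟩
  by_cases hxg : x ∈ g
  · simp only [cross, mem_ofPred_eq, not_and_or, not_exists, not_le] at hx
    rcases hx with h1 | h1 | h1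
    · exact absurd hxg h1
    · refine ⟨{y | B < h y}, isOpen_lt continuous_const hh, ?_, ?_⟩
      · intro y hy
        rcases h1 y with h2 | h2
        · exact absurd hy h2
        · exact h2
      · rintro y _ hyO ⟨_, ⟨w, hw, hwB⟩, _⟩
        have := hyO hw
        simp only [mem_ofPred_eq] at this
        linarith
    · refine ⟨{y | h y < B'}, isOpen_lt hh continuous_const, ?_, ?_⟩
      · intro y hy
        rcases h1 y with h2 | h2
        · exact absurd hy h2
        · exact h2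
      · rintro y _ hyO ⟨_, _, w, hw, hwB⟩
        have := hyO hw
        simp only [mem_ofPred_eq] at this
        linarith
  · obtain ⟨O, hO, hxO, H⟩ := hg x ⟨hxE, hxg⟩
    exact ⟨O, hO, hxO, fun y hyE hyO hyc => H y hyE hyO hyc.1⟩

theorem isCompact_cross_gset (hE : IsCompact E) (hh : Continuous h) (b B B' : ℝ) :
    IsCompact (cross E h (gset V E φ b) B B') := by
  refine isCompact_cross hE hh gset_subset ?_ B B'
  rintro x ⟨hxE, hx⟩
  simp only [gset, mem_ofPred_eq, not_and, not_not] at hx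
  obtain ⟨c, hc, hosc⟩ := hx hxE
  obtain ⟨O, hO, hxO, H⟩ := hosc.exists_nhds (show c < (c + b) / 2 by linarith)
  refine ⟨O, hO, hxO, fun y _ hyO hyg => hyg.2 ⟨(c + b) / 2, by linarith, H _ hyO⟩⟩

/-- finitely many disjoint open neighbourhoods covering a compact part `G` of `E`; every
component of `E` meeting one of them is contained in it. -/
theorem exists_thick {G : Set X} (hE : IsCompact E) (hG : IsCompact G) (hGE : G ⊆ E)
    (U : X → Set X) (hU : ∀ x ∈ G, IsOpen (U x)) (hKU : ∀ x ∈ G, cc E x ⊆ U x) :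
    ∃ (n : ℕ) (p : Fin n → X) (N : Fin n → Set X), (∀ i, p i ∈ G) ∧ (∀ i, IsOpen (N i)) ∧
      (∀ i, N i ⊆ U (p i)) ∧ (∀ i j, i ≠ j → Disjoint (N i) (N j)) ∧
      (∀ i, ∀ x ∈ E, (cc E x ∩ N i).Nonempty → cc E x ⊆ N i) ∧ G ⊆ ⋃ i, N i := by
  classical
  obtain ⟨n, p, F, hp, hF, hFU, -, hdisj, hcov⟩ := exists_pieces hE hG hGE U hU hKU
  have hsep : ∀ i, ∃ A B : Set X, IsOpen A ∧ IsOpen B ∧ F i ⊆ A ∧ E \ F i ⊆ B ∧ Disjoint A B :=
    fun i => SeparatedNhds.of_isCompact_isCompact (hF i).cpt (hF i).cpt' disjoint_sdiff_self_right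
  choose A B hA hB hFA hFB hAB using hsep
  refine ⟨n, p, fun i => U (p i) ∩ A i ∩ ⋂ j ∈ {j | j ≠ i}, B j, hp, fun i => ?_, fun i => ?_,
    fun i j hij => ?_, fun i x hx hne => ?_, ?_⟩
  · exact ((hU _ (hp i)).inter (hA i)).inter ((Set.toFinite _).isOpen_biInter fun j _ => hB j)
  · exact inter_subset_left.trans inter_subset_left
  · rw [Set.disjoint_left]
    rintro x ⟨⟨_, _⟩, h1⟩ ⟨⟨_, h2⟩, _⟩
    have h3 : x ∈ B j := by
      simp only [mem_iInter] at h1
      exact h1 j hij.symm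
    exact Set.disjoint_left.1 (hAB j) h2 h3
  · obtain ⟨y, hyx, hyN⟩ := hne
    have hyE : y ∈ E := connectedComponentIn_subset E x hyx
    have hyF : y ∈ F i := by
      by_contra hcon
      exact Set.disjoint_left.1 (hAB i) hyN.1.2 (hFB i ⟨hyE, hcon⟩)
    have h1 : cc E x ⊆ F i := (hF i).component_subset' ⟨y, hyx, hyF⟩
    refine h1.trans (subset_inter (subset_inter (hFU i) (hFA i)) ?_)
    refine subset_iInter₂ fun j hj => ?_
    refine subset_trans ?_ (hFB j)
    intro w hw
    exact ⟨(hF i).sub hw, fun hwj => Set.disjoint_left.1 (hdisj (show j ≠ i from hj)) hwj hw⟩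
  · refine hcov.trans (iUnion_mono fun i => ?_)
    refine (subset_inter (subset_inter (hFU i) (hFA i)) ?_)
    refine subset_iInter₂ fun j hj => ?_
    refine subset_trans ?_ (hFB j)
    intro w hw
    exact ⟨(hF i).sub hw, fun hwj => Set.disjoint_left.1 (hdisj (show j ≠ i from hj)) hwj hw⟩

/-- a portion of a hair (a component on which `h` is injective) is connected. -/
theorem preconn_portion {K : Set X} (hK : IsCompact K) (hc : IsPreconnected K)
    (hinj : InjOn h K) (hh : Continuous h) {I : Set ℝ} (hI : I.OrdConnected) :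
    IsPreconnected (K ∩ h ⁻¹' I) := by
  have : CompactSpace K := isCompact_iff_compactSpace.1 hK
  let f : K → ℝ := fun x => h x
  have hf : Continuous f := hh.comp continuous_subtype_val
  have hfi : Function.Injective f := fun x y hxy => Subtype.ext (hinj x.2 y.2 hxy)
  have hfc : IsClosedMap f := hf.isClosedMap
  have hs : IsPreconnected (range f ∩ I) := by
    have : range f = h '' K := by
      ext t; simp [f]
    have h1 : (range f).OrdConnected := by
      rw [this]; exact (hc.image h hh.continuousOn).ordConnected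
    exact (h1.inter hI).isPreconnected
  have h2 := (hs.preimage_of_isClosedMap hfi hfc inter_subset_left).image Subtype.val
    continuous_subtype_val.continuousOn
  convert h2 using 1
  ext x
  simp only [mem_inter_iff, mem_preimage, mem_image, mem_range, Subtype.exists]
  constructor
  · rintro ⟨hxK, hxI⟩
    exact ⟨x, hxK, ⟨⟨x, hxK, rfl⟩, hxI⟩, rfl⟩
  · rintro ⟨y, hy, ⟨_, hyI⟩, rfl⟩
    exact ⟨hy, hyI⟩

/-- splitting a connected portion at a level. -/
theorem osc_split {P : Set X} (hP : Lev V h P) {s c c' : ℝ} (h0 : 0 ≤ c) (h0' : 0 ≤ c') (h1 : OscLe V (P ∩ {y | h y ≤ s}) χ c)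
    (h2 : OscLe V (P ∩ {y | s ≤ h y}) χ c') : OscLe V P χ (c + c') := by
  by_cases hlo : (P ∩ {y | h y ≤ s}).Nonempty
  · by_cases hhi : (P ∩ {y | s ≤ h y}).Nonempty
    · obtain ⟨x, hx, hxs⟩ := hlo
      obtain ⟨y, hy, hys⟩ := hhi
      obtain ⟨p, hp, hpV, hps⟩ := hP s ⟨x, hx, hxs⟩ ⟨y, hy, hys⟩
      have := h1.union h2 (p := p) ⟨hp, hps.le⟩ ⟨hp, hps.ge⟩ hpV
      refine this.mono_set ?_
      intro w hw
      rcases le_total (h w) s with h3 | h3
      · exact Or.inl ⟨hw, h3⟩
      · exact Or.inr ⟨hw, h3⟩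
    · refine (h1.mono_set ?_).mono (by linarith)
      intro w hw
      refine ⟨hw, ?_⟩
      by_contra h3
      simp only [mem_ofPred_eq, not_le] at h3
      exact hhi ⟨w, hw, h3.le⟩
  · refine (h2.mono_set ?_).mono (by linarith)
    intro w hw
    refine ⟨hw, ?_⟩
    by_contra h3
    simp only [mem_ofPred_eq, not_le] at h3
    exact hlo ⟨w, hw, h3.le⟩

theorem oscLe_empty {c : ℝ} : OscLe V ∅ χ c := fun _ _ =>
  ⟨∅, isOpen_empty, Subset.rfl, fun _ hq => absurd hq.1 (notMem_empty _)⟩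

/-- a neighbourhood of the component `K` in which `χ` varies by at most `σ + ε` near the level. -/
theorem exists_slice {K : Set X} (hK : IsCompact K) (hh : Continuous h) {B σ ε : ℝ}
    (hs : OscLe V (K ∩ {y | h y = B}) χ σ) (hε : 0 < ε) :
    ∃ U, IsOpen U ∧ K ⊆ U ∧ ∃ τ > 0, ∀ q ∈ U ∩ V, ∀ q' ∈ U ∩ V, |h q - B| < 2 * τ →
      |h q' - B| < 2 * τ → |χ q - χ q'| ≤ σ + ε := by
  obtain ⟨O, hO, hPO, H⟩ := hs ε hε
  have hc : IsCompact (K \ O) := hK.diff hO
  have hpos : ∃ δ > 0, ∀ y ∈ K \ O, δ ≤ |h y - B| := by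
    rcases (K \ O).eq_empty_or_nonempty with h0 | h0
    · exact ⟨1, one_pos, by simp [h0]⟩
    · obtain ⟨y, hy, hmin⟩ := hc.exists_isMinOn h0 (f := fun y => |h y - B|) (by fun_prop)
      refine ⟨|h y - B|, ?_, fun w hw => hmin hw⟩
      rw [gt_iff_lt, abs_pos, sub_ne_zero]
      intro hyB
      exact hy.2 (hPO ⟨hy.1, hyB⟩)
  obtain ⟨δ, hδ, Hδ⟩ := hpos
  refine ⟨O ∪ {y | δ / 2 < |h y - B|}, hO.union (isOpen_lt continuous_const (by fun_prop)), ?_,
    δ / 4, by positivity, ?_⟩
  · intro y hy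
    by_cases hyO : y ∈ O
    · exact Or.inl hyO
    · exact Or.inr (by have := Hδ y ⟨hy, hyO⟩; simp only [mem_ofPred_eq]; linarith)
  · rintro q ⟨hq, hqV⟩ q' ⟨hq', hqV'⟩ h1 h2
    have e1 : q ∈ O := hq.resolve_right (by simp only [mem_ofPred_eq, not_lt]; linarith)
    have e2 : q' ∈ O := hq'.resolve_right (by simp only [mem_ofPred_eq, not_lt]; linarith)
    exact H q ⟨e1, hqV⟩ q' ⟨e2, hqV'⟩

end top

end Crest.Agent.R105.Stp_722
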