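import Crest.Agent.R105.Stp4_722

/-!
Row 105 (Koebe), task 2230 (PP-STEP), part 5: the two-sided operation at one pair of levels.
-/

set_option autoImplicit false
set_option linter.unusedSectionVars false

open Set Filter Topology Metric

namespace Crest.Agent.R105.Stp_722

local notation "cc" => connectedComponentIn

variable {X : Type*} [TopologicalSpace X] [T2Space X] {V E : Set X} {h : X → ℝ}

/-- a one-sided cut-off: a function on the side `h < B` (extended by anything), zero off a closed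
subset of `W`, of oscillation at most `m` on the part `h ≤ B` of every component of `E`. -/
structure Cut (V E : Set X) (h : X → ℝ) (B : ℝ) (W : Set X) (m : ℝ) (z : X → ℝ) : Prop where
  z01 : ∀ x, 0 ≤ z x ∧ z x ≤ 1
  supp : ∃ C, IsClosed C ∧ C ⊆ W ∧ ∀ x ∉ C, z x = 0
  osc : ∀ x ∈ E, OscLe (V ∩ {y | h y < B}) (cc E x ∩ {y | h y ≤ B}) z m

/-- `z = 1` near the part `h ≤ B` of `K`. -/
def OneOn (V : Set X) (h : X → ℝ) (B : ℝ) (K : Set X) (z : X → ℝ) : Prop :=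
  ∃ O, IsOpen O ∧ K ∩ {y | h y ≤ B} ⊆ O ∧ ∀ q ∈ O ∩ V, h q < B → z q = 1

/-- disjoint open sets; a component of `E` is contained in, or misses, each of them. -/
structure Pieces (E : Set X) {n : ℕ} (N : Fin n → Set X) : Prop where
  opn : ∀ i, IsOpen (N i)
  disj : ∀ i j, i ≠ j → Disjoint (N i) (N j)
  sat : ∀ i, ∀ x ∈ E, (cc E x ∩ N i).Nonempty → cc E x ⊆ N i

open Classical in
/-- the locally constant function with value `k i` on `N i`. -/
noncomputable def cst {n : ℕ} (N : Fin n → Set X) (k : Fin n → ℝ) (x : X) : ℝ :=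
  if hx : ∃ i, x ∈ N i then k hx.choose else 0

section cst

variable {n : ℕ} {N : Fin n → Set X} {k k' : Fin n → ℝ}

theorem Pieces.cst_eq (hN : Pieces E N) {i : Fin n} {x : X} (hx : x ∈ N i) (k : Fin n → ℝ) :
    cst N k x = k i := by
  have hex : ∃ i, x ∈ N i := ⟨i, hx⟩
  unfold cst
  rw [dif_pos hex]
  congr 1
  by_contra hne
  exact Set.disjoint_left.1 (hN.disj _ _ hne) hex.choose_spec hx

theorem cst_abs_le {R : ℝ} (hR : 0 ≤ R) (hk : ∀ i, |k i| ≤ R) (x : X) : |cst N k x| ≤ R := by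
  unfold cst
  split_ifs with hx
  · exact hk _
  · simpa using hR

theorem Pieces.cst_loc (hN : Pieces E N) (k : Fin n → ℝ) :
    ∀ x ∈ ⋃ i, N i, ∀ᶠ y in 𝓝 x, cst N k y = cst N k x := by
  intro x hx
  obtain ⟨i, hi⟩ := mem_iUnion.1 hx
  filter_upwards [(hN.opn i).mem_nhds hi] with y hy
  rw [hN.cst_eq hy, hN.cst_eq hi]

variable {B τ m A η : ℝ} {z χ : X → ℝ}

/-- growth of a portion in a one-sided operation. -/
theorem growth_side (hN : Pieces E N) (hh : Continuous h) (hτ : 0 < τ)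
    (hz : Cut V E h B (⋃ i, N i) m z) (hm0 : 0 ≤ m) (hA0 : 0 ≤ A) (hη0 : 0 ≤ η)
    (hA : ∀ i, ∀ q ∈ N i ∩ V, |χ q - k i| ≤ A)
    (hη : ∀ i, ∀ q ∈ N i ∩ V, |h q - B| < 2 * τ → |χ q - k i| ≤ η)
    {x : X} (hx : x ∈ E) {P : Set X} (hP : P ⊆ cc E x) (hPl : Lev V h P) {b : ℝ}
    (hb : OscLe V P χ b) : OscLe V P (op h B τ z (cst N k) χ) (b + (m * A + 2 * η)) := by
  have hmA : 0 ≤ m * A := mul_nonneg hm0 hA0
  by_cases hne : ∃ i, (cc E x ∩ N i).Nonempty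
  · obtain ⟨i, hi⟩ := hne
    have hKN := hN.sat i x hx hi
    have := growth_lev hh hτ hPl (hN.opn i) (hP.trans hKN) (c := cst N k) (k := k i) hη0 hA0 hm0
      (fun q hq => hN.cst_eq hq.1 k) (hA i) (hη i) hz.z01
      ((hz.osc x hx).mono_set (inter_subset_inter_left _ hP)) hb
    exact this.mono (by linarith)
  · obtain ⟨C, hC, hCW, hC0⟩ := hz.supp
    refine (growth_off hC hC0 ?_ hb).mono (by linarith)
    rw [Set.disjoint_left]
    intro y hyP hyC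
    obtain ⟨i, hi⟩ := mem_iUnion.1 (hCW hyC)
    exact hne ⟨i, y, hP hyP, hi⟩

/-- growth of the local jump in a one-sided operation. -/
theorem point_side (hN : Pieces E N) (hh : Continuous h) (hτ : 0 < τ)
    (hz : Cut V E h B (⋃ i, N i) m z) (hm0 : 0 ≤ m) (hA0 : 0 ≤ A)
    (hA : ∀ i, ∀ q ∈ N i ∩ V, |χ q - k i| ≤ A)
    {p : X} (hp : p ∈ E) {b : ℝ} (hb : OscLe V {p} χ b) :
    OscLe V {p} (op h B τ z (cst N k) χ) (b + m * A) := by
  have hmA : 0 ≤ m * A := mul_nonneg hm0 hA0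
  by_cases hne : ∃ i, p ∈ N i
  · obtain ⟨i, hi⟩ := hne
    exact growth_point hh hτ (hN.opn i) hi (c := cst N k) (k := k i) hA0 hm0
      (fun q hq => hN.cst_eq hq.1 k) (hA i) hz.z01 ((hz.osc p hp).mono_set
      (inter_subset_inter_left _ (by
        rw [singleton_subset_iff]; exact mem_connectedComponentIn hp))) hb
  · obtain ⟨C, hC, hCW, hC0⟩ := hz.supp
    refine (growth_off hC hC0 ?_ hb).mono (by linarith)
    rw [Set.disjoint_left]
    rintro y rfl hyC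
    exact hne (mem_iUnion.1 (hCW hyC))

/-- flatness below the level in a one-sided operation. -/
theorem flat_side (hN : Pieces E N) (hh : Continuous h) (hτ : 0 < τ) (hη0 : 0 ≤ η)
    (hη : ∀ i, ∀ q ∈ N i ∩ V, |h q - B| < 2 * τ → |χ q - k i| ≤ η)
    {K : Set X} {i : Fin n} (hK : K ⊆ N i) (h1 : OneOn V h B K z) :
    OscLe V (K ∩ {y | h y ≤ B}) (op h B τ z (cst N k) χ) (2 * η) := by
  obtain ⟨O, hO, hKO, hO1⟩ := h1
  exact flat hh hτ inter_subset_right (hN.opn i) (inter_subset_left.trans hK) (k := k i) hη0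
    (fun q hq => hN.cst_eq hq.1 k) (hη i) hO hKO hO1

end cst

section two

variable {n : ℕ} {N : Fin n → Set X} {k k' lo hi : Fin n → ℝ} {B B' τ m A η : ℝ}
  {z z' χ : X → ℝ}

/-- the two-sided operation. -/
noncomputable def op2 (h : X → ℝ) (B B' τ : ℝ) (z z' c c' χ : X → ℝ) : X → ℝ :=
  op (fun x => - h x) (-B') τ z' c' (op h B τ z c χ)

theorem op2_lower (hτ : 0 < τ) {c : X → ℝ} {q : X} (hq : B ≤ h q) :
    op h B τ z c χ q = χ q := op_eq_of_le hτ hq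

theorem op2_upper (hτ : 0 < τ) {c c' : X → ℝ} {q : X} (hq : h q ≤ B') :
    op2 h B B' τ z z' c c' χ q = op h B τ z c χ q := by
  unfold op2
  exact op_eq_of_le hτ (by linarith)

/-- data of a two-sided operation -/
structure Data (V E : Set X) (h : X → ℝ) {n : ℕ} (N : Fin n → Set X) (k k' lo hi : Fin n → ℝ)
    (B B' τ m A η : ℝ) (z z' χ : X → ℝ) : Prop where
  hh : Continuous h
  hN : Pieces E N
  hBB : B < B'
  hτ : 0 < τ
  hτB : 2 * τ ≤ B' - B
  hm0 : 0 ≤ m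
  hA0 : 0 ≤ A
  hη0 : 0 ≤ η
  hz : Cut V E h B (⋃ i, N i) m z
  hz' : Cut V E (fun x => - h x) (-B') (⋃ i, N i) m z'
  hlh : ∀ i, hi i - lo i ≤ A
  hχ : ∀ i, ∀ q ∈ N i ∩ V, χ q ∈ Icc (lo i) (hi i)
  hk : ∀ i, ∀ q ∈ N i ∩ V, k i ∈ Icc (lo i) (hi i)
  hk' : ∀ i, ∀ q ∈ N i ∩ V, k' i ∈ Icc (lo i) (hi i)
  hη : ∀ i, ∀ q ∈ N i ∩ V, |h q - B| < 2 * τ → |χ q - k i| ≤ η
  hη' : ∀ i, ∀ q ∈ N i ∩ V, |h q - B'| < 2 * τ → |χ q - k' i| ≤ η

theorem abs_sub_le_of_Icc {x y lo hi A : ℝ} (hx : x ∈ Icc lo hi) (hy : y ∈ Icc lo hi)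
    (h : hi - lo ≤ A) : |x - y| ≤ A := by
  obtain ⟨a, b⟩ := hx
  obtain ⟨c, d⟩ := hy
  rw [abs_le]; constructor <;> linarith

namespace Data

variable (D : Data V E h N k k' lo hi B B' τ m A η z z' χ)

include D

theorem hull1 (i : Fin n) (q : X) (hq : q ∈ N i ∩ V) :
    op h B τ z (cst N k) χ q ∈ Icc (lo i) (hi i) :=
  op_mem_Icc D.hz.z01 (D.hχ i q hq) (by rw [D.hN.cst_eq hq.1]; exact D.hk i q hq)

theorem hull2 (i : Fin n) (q : X) (hq : q ∈ N i ∩ V) :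
    op2 h B B' τ z z' (cst N k) (cst N k') χ q ∈ Icc (lo i) (hi i) :=
  op_mem_Icc D.hz'.z01 (D.hull1 i q hq) (by rw [D.hN.cst_eq hq.1]; exact D.hk' i q hq)

theorem hA1 (i : Fin n) (q : X) (hq : q ∈ N i ∩ V) : |χ q - k i| ≤ A :=
  abs_sub_le_of_Icc (D.hχ i q hq) (D.hk i q hq) (D.hlh i)

theorem hA2 (i : Fin n) (q : X) (hq : q ∈ N i ∩ V) :
    |op h B τ z (cst N k) χ q - k' i| ≤ A :=
  abs_sub_le_of_Icc (D.hull1 i q hq) (D.hk' i q hq) (D.hlh i)

theorem hη2 (i : Fin n) (q : X) (hq : q ∈ N i ∩ V) (hqB : |- h q - -B'| < 2 * τ) :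
    |op h B τ z (cst N k) χ q - k' i| ≤ η := by
  have h1 : |h q - B'| < 2 * τ := by
    rw [← abs_neg]; convert hqB using 2; ring
  have h2 := abs_lt.1 h1
  have h3 := D.hτB
  rw [op_eq_of_le D.hτ (by linarith)]
  exact D.hη' i q hq h1

theorem bound {R : ℝ} (hχR : ∀ x, |χ x| ≤ R) (hk : ∀ i, |k i| ≤ R) (hk' : ∀ i, |k' i| ≤ R)
    (x : X) : |op2 h B B' τ z z' (cst N k) (cst N k') χ x| ≤ R := by
  have hR : 0 ≤ R := (abs_nonneg _).trans (hχR x)
  have h1 : op h B τ z (cst N k) χ x ∈ Icc (-R) R :=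
    op_mem_Icc D.hz.z01 (abs_le.1 (hχR x)) (abs_le.1 (cst_abs_le hR hk x))
  exact abs_le.2 (op_mem_Icc D.hz'.z01 h1 (abs_le.1 (cst_abs_le hR hk' x)))

theorem off {x : X} (hx : x ∉ ⋃ i, N i) :
    op2 h B B' τ z z' (cst N k) (cst N k') χ x = χ x := by
  obtain ⟨C, _, hCW, hC0⟩ := D.hz.supp
  obtain ⟨C', _, hCW', hC0'⟩ := D.hz'.supp
  unfold op2
  rw [op_eq_of_z (hC0' x fun hxC => hx (hCW' hxC)), op_eq_of_z (hC0 x fun hxC => hx (hCW hxC))]

theorem growth {x : X} (hx : x ∈ E) {P : Set X} (hP : P ⊆ cc E x) (hPl : Lev V h P) {b : ℝ}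
    (hb : OscLe V P χ b) :
    OscLe V P (op2 h B B' τ z z' (cst N k) (cst N k') χ) (b + 2 * (m * A + 2 * η)) := by
  have h1 := growth_side D.hN D.hh D.hτ D.hz D.hm0 D.hA0 D.hη0 D.hA1 D.hη hx hP hPl hb
  have h2 := growth_side (k := k') D.hN D.hh.neg D.hτ D.hz' D.hm0 D.hA0 D.hη0 D.hA2 D.hη2 hx hP
    hPl.neg h1
  exact h2.mono (by linarith)

theorem point {p : X} (hp : p ∈ E) {b : ℝ} (hb : OscLe V {p} χ b) :
    OscLe V {p} (op2 h B B' τ z z' (cst N k) (cst N k') χ) (b + 2 * (m * A)) := by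
  have h1 := point_side D.hN D.hh D.hτ D.hz D.hm0 D.hA0 D.hA1 hp hb
  have h2 := point_side (k := k') D.hN D.hh.neg D.hτ D.hz' D.hm0 D.hA0 D.hA2 hp h1
  exact h2.mono (by linarith)

theorem flat {K : Set X} {i : Fin n} (hK : K ⊆ N i)
    (h1 : OneOn V h B K z ∨ OneOn V (fun x => - h x) (-B') K z') :
    OscLe V (K ∩ {y | h y ≤ B}) (op2 h B B' τ z z' (cst N k) (cst N k') χ) (2 * η) ∨
      OscLe V (K ∩ {y | B' ≤ h y}) (op2 h B B' τ z z' (cst N k) (cst N k') χ) (2 * η) := by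
  rcases h1 with h1 | h1
  · left
    have h2 := flat_side (χ := χ) (k := k) D.hN D.hh D.hτ D.hη0 D.hη hK h1
    refine h2.congr (O := {y | h y < B'}) (isOpen_lt D.hh continuous_const) ?_ ?_
    · intro y hy
      have := hy.2
      have := D.hBB
      simp only [mem_ofPred_eq] at *
      linarith
    · intro q hq
      exact op2_upper (c := cst N k) (c' := cst N k') D.hτ (le_of_lt hq.1)
  · right
    have h2 := flat_side (χ := op h B τ z (cst N k) χ) (k := k') D.hN D.hh.neg D.hτ D.hη0 D.hη2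
      hK h1
    refine h2.mono_set ?_
    intro y hy
    refine ⟨hy.1, ?_⟩
    have h3 : B' ≤ h y := hy.2
    change - h y ≤ -B'
    linarith

end Data

end two

end Crest.Agent.R105.Stp_722
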