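import Crest.Agent.R105.Stp6_722

/-!
Row 105 (Koebe), task 2230 (PP-STEP), part 7: **the STEP (5)(b) of #8892, frame free**.
-/

set_option autoImplicit false
set_option linter.unusedSectionVars false

open Set Filter Topology Metric

namespace Crest.Agent.R105.Stp_722

local notation "cc" => connectedComponentIn

variable {X : Type*} [TopologicalSpace X] [T2Space X] {V E : Set X} {h : X → ℝ}

/-- levels: the combinatorial core. -/
theorem comb_levels {m : ℕ} {Lo Up : ℕ → Prop} (h0 : Lo 0) (hm : Up m)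
    (hd : ∀ i < m, Lo i ∨ Up (i + 1)) : ∃ i j, i ≤ j ∧ j ≤ i + 2 ∧ Lo i ∧ Up j := by
  by_contra hcon
  push Not at hcon
  have key : ∀ i ≤ m, Lo i := by
    intro i
    induction i with
    | zero => exact fun _ => h0
    | succ i ih =>
      intro hi
      have hLi := ih (by omega)
      rcases Nat.lt_or_ge (i + 1) m with h1 | h1
      · rcases hd (i + 1) h1 with h2 | h2
        · exact h2
        · exact absurd h2 (hcon i (i + 2) (by omega) le_rfl hLi)
      · have e : i + 1 = m := le_antisymm hi h1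
        exact absurd (by rw [e]; exact hm) (hcon i (i + 1) (by omega) (by omega) hLi)
  exact hcon m m le_rfl (by omega) (key m le_rfl) hm

/-- **STEP (b)**: the oscillation is divided by three. -/
theorem step_b {Hr : Set X} {Cl : (X → ℝ) → Prop} {D : (X → ℝ) → (X → ℝ) → ℝ → Prop}
    (S : Setup V E h Hr Cl D) {φ : X → ℝ} (hφ : Cl φ) {R : ℝ} (hR0 : 0 ≤ R)
    (hR : ∀ x, |φ x| ≤ R) {a : ℝ} (ha : 0 < a)
    (hosc : ∀ x ∈ gset V E φ (a / 4), OscLe V (cc E x) φ a) (hgHr : gset V E φ (a / 4) ⊆ Hr)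
    {d B0 : ℝ} {m : ℕ} (hd : 0 < d) (hm : 0 < m)
    (hcov : ∀ x ∈ E, B0 ≤ h x ∧ h x ≤ B0 + m * d)
    (hport : ∀ x ∈ gset V E φ (a / 4), ∀ s,
      OscLe V (cc E x ∩ {y | s ≤ h y ∧ h y ≤ s + 2 * d}) φ (a / 100))
    (hjump : ∀ p ∈ E, OscLe V {p} φ (a / (1000 * m)))
    {W : Set X} (hW : IsOpen W) (hgW : gset V E φ (a / 4) ⊆ W) {ε : ℝ} (hε : 0 < ε) :
    ∃ φ' : X → ℝ, Cl φ' ∧ (∀ x, |φ' x| ≤ R) ∧ D φ φ' ε ∧
      (∀ x ∈ E, OscLe V (cc E x) φ' (a / 3)) ∧ (∀ q ∈ V, |φ' q - φ q| ≤ 4 * a) ∧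
      (∀ x ∉ W, φ' x = φ x) ∧
      ∀ x ∈ E, ∀ P ⊆ cc E x, Lev V h P → ∀ b, OscLe V P φ b → OscLe V P φ' (b + a / 50) := by
  classical
  set g := gset V E φ (a / 4) with hg
  have hgE : g ⊆ E := gset_subset
  have hgc : IsCompact g := isCompact_gset S.hE _
  have hgsat : ∀ x ∈ g, ∀ y ∈ cc E x, y ∈ g := fun x hx y hy => gset_sat hx hy
  -- coarse pieces
  choose! O hO hKO HO using fun x (hx : x ∈ g) => hosc x hx a ha
  obtain ⟨l, p, N0, hp, hN0o, hN0U, hd0, hsat0, hcov0⟩ := exists_thick S.hE hgc hgE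
    (fun x => O x ∩ W) (fun x hx => (hO x hx).inter hW)
    (fun x hx => subset_inter (hKO x hx) fun y hy => hgW (hgsat x hx y hy))
  have hN0 : Pieces E N0 := ⟨hN0o, hd0, hsat0⟩
  have hκ : ∀ i, ∃ κ, ∀ q ∈ N0 i ∩ V, |φ q - κ| ≤ 2 * a := by
    intro i
    rcases (N0 i ∩ V).eq_empty_or_nonempty with h0 | ⟨q0, hq0⟩
    · exact ⟨0, by rw [h0]; simp⟩
    · refine ⟨φ q0, fun q hq => ?_⟩
      have := HO (p i) (hp i) q ⟨(hN0U i hq.1).1, hq.2⟩ q0 ⟨(hN0U i hq0.1).1, hq0.2⟩
      linarith
  choose κ hκ using hκ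
  -- constants
  have hM : (0:ℝ) < m := by exact_mod_cast hm
  have hM1 : (1:ℝ) ≤ m := by exact_mod_cast hm
  set M : ℝ := (m : ℝ) with hMdef
  set t : ℝ := a / (1000 * M) with ht
  have ht0 : 0 < t := by positivity
  have htM : M * t = a / 1000 := by rw [ht]; field_simp
  have hta : t ≤ a / 1000 := by
    rw [← htM]; nlinarith
  set μ : ℝ := 1 / (10000 * M ^ 2) with hμ
  have hμ0 : 0 < μ := by positivity
  -- `M * (2 * (μ * (4 * a))) ≤ t`
  have hμA : M * (2 * (μ * (4 * a))) ≤ t := by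
    rw [hμ, ht]
    have e : M * (2 * (1 / (10000 * M ^ 2) * (4 * a))) = (8 / 10) * (a / (1000 * M)) := by
      field_simp
      ring
    rw [e]
    have : 0 < a / (1000 * M) := by positivity
    linarith
  have hμA1 : 2 * (μ * (4 * a)) ≤ t := by
    have h1 : 0 ≤ 2 * (μ * (4 * a)) := by positivity
    nlinarith
  set e1 : ℝ := ε / M with he1
  have he10 : 0 < e1 := by positivity
  have C : Const V R N0 (fun i => κ i - 2 * a) (fun i => κ i + 2 * a) m μ (4 * a) t (2 * t) t :=
    { R0 := hR0, μ0 := hμ0, A0 := by positivity, ε0 := ht0, lh := fun i => by ring_nf; rfl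
      σ := fun i hi => by
        have h1 : (i:ℝ) ≤ M := by rw [hMdef]; exact_mod_cast hi.le
        have h2 : 0 ≤ 2 * (μ * (4 * a)) := by positivity
        have := mul_le_mul_of_nonneg_right h1 h2
        linarith
      σ10 := by positivity }
  set Bs : ℕ → ℝ := fun i => B0 + i * d with hBs
  have hBs1 : ∀ i, Bs i < Bs (i + 1) := by
    intro i; simp only [hBs]; push_cast; nlinarith
  -- induction
  have key : ∀ i ≤ m, ∃ χ, Inv V E h Cl D φ R N0 (fun i => κ i - 2 * a) (fun i => κ i + 2 * a) g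
      μ (4 * a) t (2 * t) t e1 Bs i χ := by
    intro i
    induction i with
    | zero =>
      intro _
      refine ⟨φ, hφ, hR, ?_, ?_, fun _ _ => rfl, ?_, ?_, ?_⟩
      · simpa using S.D0 φ hφ
      · intro j q hq
        have := abs_le.1 (hκ j q hq)
        exact ⟨by linarith, by linarith⟩
      · intro q hq
        simpa using hjump q hq
      · intro x _ P _ _ b hb
        simpa using hb
      · intro j hj
        exact absurd hj (Nat.not_lt_zero _)
    | succ i ih =>
      intro hi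
      obtain ⟨χ, hχ⟩ := ih (by omega)
      obtain ⟨χ', hχ', _⟩ := hχ.step S hN0 C he10 hgHr hcov0 hBs1 (show i < m by omega)
      exact ⟨χ', hχ'⟩
  obtain ⟨χ, I⟩ := key m le_rfl
  -- total growth
  have hgg : M * (2 * (μ * (4 * a) + 2 * (2 * t + t))) ≤ 13 * a / 1000 := by
    have e : M * (2 * (μ * (4 * a) + 2 * (2 * t + t))) =
      M * (2 * (μ * (4 * a))) + 12 * (M * t) := by ring
    rw [e, htM]; linarith
  have hgrow : ∀ x ∈ E, ∀ P ⊆ cc E x, Lev V h P → ∀ b, OscLe V P φ b →
      OscLe V P χ (b + 13 * a / 1000) := by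
    intro x hx P hP hPl b hb
    exact (I.grow x hx P hP hPl b hb).mono (by linarith)
  refine ⟨χ, I.cl, I.bd, ?_, ?_, ?_, ?_, ?_⟩
  · have := I.en
    have e : (m:ℝ) * e1 = ε := by rw [he1, ← hMdef]; field_simp
    rwa [e] at this
  · intro x hx
    by_cases hxg : x ∈ g
    · have hxHr := hgHr hxg
      set c1 := 30 * a / 1000 with hc1
      have hpor : ∀ I' : Set ℝ, I'.OrdConnected → ∀ s, I' ∩ Icc B0 (B0 + M * d) ⊆ Icc s (s + 2 * d) →
          OscLe V (cc E x ∩ h ⁻¹' I') χ (a / 100 + 13 * a / 1000) := by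
        intro I' hI' s hs
        refine hgrow x hx _ inter_subset_left (S.lev_portion hxHr hI') _ ?_
        refine (hport x hxg s).mono_set ?_
        rintro y ⟨hy, hyI⟩
        have := hs ⟨hyI, hcov y (connectedComponentIn_subset E x hy)⟩
        exact ⟨hy, this.1, this.2⟩
      have h2M : M * d = m * d := rfl
      obtain ⟨i, j, hij, hji, hLo, hUp⟩ := comb_levels (m := m)
        (Lo := fun i => OscLe V (cc E x ∩ {y | h y ≤ Bs i}) χ c1)
        (Up := fun j => OscLe V (cc E x ∩ {y | Bs j ≤ h y}) χ c1)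
        (by
          have := hpor (Iic (Bs 0)) ordConnected_Iic B0 (by
            rintro t' ⟨h1, h2⟩
            simp only [hBs, Nat.cast_zero, zero_mul, add_zero, mem_Iic] at h1
            exact ⟨h2.1, by linarith⟩)
          exact this.mono (by rw [hc1]; linarith))
        (by
          have := hpor (Ici (Bs m)) ordConnected_Ici (B0 + M * d) (by
            rintro t' ⟨h1, h2⟩
            simp only [hBs, mem_Ici] at h1
            exact ⟨h1, by linarith [h2.2]⟩)
          exact this.mono (by rw [hc1]; linarith))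
        (by
          intro i hi
          rcases I.hist i hi x hxg with h1 | h1
          · left
            refine h1.mono ?_
            rw [hc1]; linarith
          · right
            refine h1.mono ?_
            rw [hc1]; linarith)
      have hmid : OscLe V ((cc E x ∩ h ⁻¹' Ici (Bs i)) ∩ {y | h y ≤ Bs j}) χ
          (a / 100 + 13 * a / 1000) := by
        have := hpor (Icc (Bs i) (Bs j)) ordConnected_Icc (Bs i) (by
          rintro t' ⟨h1, _⟩
          refine ⟨h1.1, h1.2.trans ?_⟩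
          simp only [hBs]
          have : (j:ℝ) ≤ i + 2 := by exact_mod_cast hji
          nlinarith)
        refine this.mono_set ?_
        rintro y ⟨⟨hy, hyi⟩, hyj⟩
        exact ⟨hy, hyi, hyj⟩
      have hup2 : OscLe V (cc E x ∩ h ⁻¹' Ici (Bs i)) χ ((a / 100 + 13 * a / 1000) + c1) := by
        refine osc_split (h := h) (S.lev_portion hxHr ordConnected_Ici) (s := Bs j) (by positivity)
          (by positivity) hmid ?_
        refine hUp.mono_set ?_
        rintro y ⟨⟨hy, _⟩, hyj⟩
        exact ⟨hy, hyj⟩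
      have hall := osc_split (h := h) (S.lev x hx) (s := Bs i) (by positivity)
        (by positivity) hLo hup2
      refine hall.mono ?_
      rw [hc1]; linarith
    · have h1 : ∃ c < a / 4, OscLe V (cc E x) φ c := by
        by_contra h2
        exact hxg ⟨hx, h2⟩
      obtain ⟨c, hc, hcosc⟩ := h1
      refine (hgrow x hx _ Subset.rfl (S.lev x hx) c hcosc).mono ?_
      linarith
  · intro q hq
    by_cases hqN : q ∈ ⋃ i, N0 i
    · obtain ⟨i, hi⟩ := mem_iUnion.1 hqN
      have h1 := I.hull i q ⟨hi, hq⟩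
      have h2 := abs_le.1 (hκ i q ⟨hi, hq⟩)
      rw [abs_le]
      constructor <;> linarith [h1.1, h1.2]
    · rw [I.off q hqN]
      simp only [sub_self, abs_zero]
      positivity
  · intro x hx
    refine I.off x fun hx' => hx ?_
    obtain ⟨i, hi⟩ := mem_iUnion.1 hx'
    exact (hN0U i hi).2
  · intro x hx P hP hPl b hb
    exact (hgrow x hx P hP hPl b hb).mono (by linarith)

end Crest.Agent.R105.Stp_722
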