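import Crest.Agent.R105.Stp6_722

/-!
Row 105 (Koebe), task 2230 (PP-STEP), part 8: **Lemma C of #8892, frame free** (finite recursion):
two-ended cut-offs of small energy ==> two-ended cut-offs of small energy and oscillation `≤ 1/M`
on every component.
-/

set_option autoImplicit false
set_option linter.unusedSectionVars false

open Set Filter Topology Metric
open scoped ENNReal

namespace Crest.Agent.R105.Stp_722

local notation "cc" => connectedComponentIn

variable {X : Type*} [TopologicalSpace X] [T2Space X] {V E : Set X} {h : X → ℝ}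

/-- a class of cut-offs with an energy -/
structure ZCls (X : Type*) where
  P : (X → ℝ) → Prop
  en : (X → ℝ) → ℝ≥0∞
  zero : P 0
  en_zero : en 0 = 0
  add : ∀ {f g}, P f → P g → P (f + g)
  en_add : ∀ {f g}, P f → P g → en (f + g) ≤ 2 * (en f + en g)
  max' : ∀ {f g}, P f → P g → P (f ⊔ g)
  en_max : ∀ {f g}, P f → P g → en (f ⊔ g) ≤ en f + en g
  smul : ∀ {f} {t : ℝ}, 0 ≤ t → t ≤ 1 → P f → P (t • f)
  en_smul : ∀ {f} {t : ℝ}, 0 ≤ t → t ≤ 1 → P f → en (t • f) ≤ en f

/-- values in `[0,1]`, zero off a closed subset of `W`. -/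
structure Pre (W : Set X) (z : X → ℝ) : Prop where
  z01 : ∀ x, 0 ≤ z x ∧ z x ≤ 1
  supp : ∃ C, IsClosed C ∧ C ⊆ W ∧ ∀ x ∉ C, z x = 0

/-- `z` is near the part `h ≤ B` of every component of `E` in an interval `[s δ, (s+1) δ]`. -/
def Levd (V E : Set X) (h : X → ℝ) (B δ : ℝ) (z : X → ℝ) : Prop :=
  ∀ y ∈ E, ∃ s : ℕ, ∃ O, IsOpen O ∧ cc E y ∩ {x | h x ≤ B} ⊆ O ∧
    ∀ q ∈ O ∩ V, h q < B → s * δ ≤ z q ∧ z q ≤ (s + 1) * δ

structure Side (V E : Set X) (h : X → ℝ) (B δ : ℝ) (W : Set X) (Z : ZCls X) (j : ℕ) (e : ℝ≥0∞)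
    (z : X → ℝ) : Prop where
  bd : ∀ x, 0 ≤ z x ∧ z x ≤ j * δ
  supp : ∃ C, IsClosed C ∧ C ⊆ W ∧ ∀ x ∉ C, z x = 0
  lev : Levd V E h B δ z
  cls : Z.P z
  en : Z.en z ≤ e

/-- `z ≥ v` near the part `h ≤ B` of `K`. -/
def Full (V : Set X) (h : X → ℝ) (B : ℝ) (K : Set X) (v : ℝ) (z : X → ℝ) : Prop :=
  ∃ O, IsOpen O ∧ K ∩ {y | h y ≤ B} ⊆ O ∧ ∀ q ∈ O ∩ V, h q < B → v ≤ z q

theorem exists_sup (Z : ZCls X) {ι : Type*} (z : ι → X → ℝ) (s : Finset ι)
    (hP : ∀ i ∈ s, Z.P (z i)) :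
    ∃ u : X → ℝ, Z.P u ∧ Z.en u ≤ ∑ i ∈ s, Z.en (z i) ∧ (∀ x, 0 ≤ u x) ∧
      (∀ x, ∀ i ∈ s, z i x ≤ u x) ∧ ∀ x, u x = 0 ∨ ∃ i ∈ s, u x = z i x := by
  classical
  induction s using Finset.induction_on with
  | empty => exact ⟨0, Z.zero, by simp [Z.en_zero], by simp, by simp, by simp⟩
  | insert a s ha ih =>
    obtain ⟨u, hu, hen, h0, h1, h2⟩ := ih fun i hi => hP i (Finset.mem_insert_of_mem hi)
    have ha' := hP a (Finset.mem_insert_self _ _)
    refine ⟨z a ⊔ u, Z.max' ha' hu, ?_, ?_, ?_, ?_⟩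
    · rw [Finset.sum_insert ha]
      exact (Z.en_max ha' hu).trans (by gcongr)
    · exact fun x => (h0 x).trans (le_sup_right (a := z a x))
    · intro x i hi
      rcases Finset.mem_insert.1 hi with rfl | hi
      · exact le_sup_left (b := u x)
      · exact (h1 x i hi).trans (le_sup_right (a := z a x))
    · intro x
      rcases le_total (z a x) (u x) with h3 | h3
      · have : (z a ⊔ u) x = u x := sup_eq_right.2 h3
        rw [this]
        rcases h2 x with h4 | ⟨i, hi, h4⟩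
        · exact Or.inl h4
        · exact Or.inr ⟨i, Finset.mem_insert_of_mem hi, h4⟩
      · have : (z a ⊔ u) x = z a x := sup_eq_left.2 h3
        rw [this]
        exact Or.inr ⟨a, Finset.mem_insert_self _ _, rfl⟩

/-- one side of the recursion. -/
theorem combine {n : ℕ} {N : Fin n → Set X} (hN : Pieces E N) {B δ : ℝ} (hδ : 0 < δ) (hδ1 : δ ≤ 1)
    {W : Set X} (hNW : ∀ i, N i ⊆ W) (Zc : ZCls X) {Z : X → ℝ} (hZ : Pre W Z) (hZP : Zc.P Z)
    (own : Fin n → Prop) (hown : ∀ i, own i → ∀ q ∈ N i ∩ V, h q < B → Z q = 1) {j : ℕ}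
    {z : Fin n → X → ℝ} {e : ℝ≥0∞}
    (hz1 : ∀ i, own i → Side V E h B δ (N i) Zc j e (z i))
    (hz2 : ∀ i, ¬ own i → Side V E h B δ (N i) Zc (j + 1) e (z i)) :
    ∃ u : X → ℝ, Side V E h B δ W Zc (j + 1) (2 * (Zc.en Z + n * e) + n * e) u ∧
      (∀ i, own i → ∀ q ∈ N i ∩ V, h q < B → u q = δ + z i q) ∧
      (∀ i, ¬ own i → ∀ q ∈ N i, z i q ≤ u q) := by
  classical
  have hP : ∀ i, Zc.P (z i) := fun i => by
    by_cases hi : own i
    · exact (hz1 i hi).cls
    · exact (hz2 i hi).cls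
  have hen : ∀ i, Zc.en (z i) ≤ e := fun i => by
    by_cases hi : own i
    · exact (hz1 i hi).en
    · exact (hz2 i hi).en
  have hsupp : ∀ i, ∃ C, IsClosed C ∧ C ⊆ N i ∧ ∀ x ∉ C, z i x = 0 := fun i => by
    by_cases hi : own i
    · exact (hz1 i hi).supp
    · exact (hz2 i hi).supp
  have hz0 : ∀ i x, 0 ≤ z i x := fun i x => by
    by_cases hi : own i
    · exact ((hz1 i hi).bd x).1
    · exact ((hz2 i hi).bd x).1
  choose C hC hCN hC0 using hsupp
  obtain ⟨u1, h1P, h1en, h10, h1le, h1eq⟩ := exists_sup Zc z (Finset.univ.filter own)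
    fun i _ => hP i
  obtain ⟨u2, h2P, h2en, h20, h2le, h2eq⟩ := exists_sup Zc z (Finset.univ.filter fun i => ¬ own i)
    fun i _ => hP i
  have hsum : ∀ s : Finset (Fin n), ∑ i ∈ s, Zc.en (z i) ≤ n * e := by
    intro s
    calc _ ≤ ∑ i ∈ s, e := Finset.sum_le_sum fun i _ => hen i
      _ = s.card * e := by rw [Finset.sum_const, nsmul_eq_mul]
      _ ≤ n * e := by
        gcongr
        simpa using s.card_le_univ
  have hoffN : ∀ i q, q ∉ N i → z i q = 0 := fun i q hq => hC0 i q fun hq' => hq (hCN i hq')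
  -- values of `u1`, `u2` on the pieces
  have hval : ∀ i, ∀ q ∈ N i, ∀ j, j ≠ i → z j q = 0 := by
    intro i q hq j hj
    exact hoffN j q fun hq' => Set.disjoint_left.1 (hN.disj j i hj) hq' hq
  have hu1 : ∀ i, own i → ∀ q ∈ N i, u1 q = z i q := by
    intro i hi q hq
    rcases h1eq q with h3 | ⟨j, hj, h3⟩
    · have := h1le q i (by simpa using hi)
      rw [h3] at this ⊢
      exact le_antisymm (hz0 i q) this
    · by_cases hji : j = i
      · rw [h3, hji]
      · have := h1le q i (by simpa using hi)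
        rw [h3, hval i q hq j hji] at this ⊢
        exact le_antisymm (hz0 i q) this
  have hu1' : ∀ i, ¬ own i → ∀ q ∈ N i, u1 q = 0 := by
    intro i hi q hq
    rcases h1eq q with h3 | ⟨j, hj, h3⟩
    · exact h3
    · rw [h3]
      refine hval i q hq j ?_
      rintro rfl
      exact hi (by simpa using hj)
  have hu2 : ∀ i, ¬ own i → ∀ q ∈ N i, u2 q = z i q := by
    intro i hi q hq
    rcases h2eq q with h3 | ⟨j, hj, h3⟩
    · have := h2le q i (by simpa using hi)
      rw [h3] at this ⊢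
      exact le_antisymm (hz0 i q) this
    · by_cases hji : j = i
      · rw [h3, hji]
      · have := h2le q i (by simpa using hi)
        rw [h3, hval i q hq j hji] at this ⊢
        exact le_antisymm (hz0 i q) this
  have hu2' : ∀ i, own i → ∀ q ∈ N i, u2 q = 0 := by
    intro i hi q hq
    rcases h2eq q with h3 | ⟨j, hj, h3⟩
    · exact h3
    · rw [h3]
      refine hval i q hq j ?_
      rintro rfl
      have := (Finset.mem_filter.1 hj).2
      exact this hi
  have hoff1 : ∀ q, (∀ i, q ∉ C i) → u1 q = 0 := by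
    intro q hq
    rcases h1eq q with h3 | ⟨j, hj, h3⟩
    · exact h3
    · rw [h3]; exact hC0 j q (hq j)
  have hoff2 : ∀ q, (∀ i, q ∉ C i) → u2 q = 0 := by
    intro q hq
    rcases h2eq q with h3 | ⟨j, hj, h3⟩
    · exact h3
    · rw [h3]; exact hC0 j q (hq j)
  obtain ⟨CZ, hCZ, hCZW, hCZ0⟩ := hZ.supp
  have hub1 : ∀ q, u1 q ≤ j * δ := by
    intro q
    rcases h1eq q with h3 | ⟨i, hi, h3⟩
    · rw [h3]; positivity
    · rw [h3]; exact ((hz1 i (by simpa using hi)).bd q).2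
  have hub2 : ∀ q, u2 q ≤ (j + 1) * δ := by
    intro q
    rcases h2eq q with h3 | ⟨i, hi, h3⟩
    · rw [h3]; positivity
    · rw [h3]
      have := ((hz2 i (Finset.mem_filter.1 hi).2).bd q).2
      push_cast at this
      exact this
  have hZ0 : ∀ q, 0 ≤ δ * Z q := fun q => mul_nonneg hδ.le (hZ.z01 q).1
  have hZδ : ∀ q, δ * Z q ≤ δ := fun q => by
    have := mul_le_mul_of_nonneg_left (hZ.z01 q).2 hδ.le
    linarith
  set u : X → ℝ := (δ • Z + u1) ⊔ u2 with hu
  have huq : ∀ q, u q = max (δ * Z q + u1 q) (u2 q) := fun q => rfl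
  refine ⟨u, ⟨?_, ?_, ?_, ?_, ?_⟩, ?_, ?_⟩
  · intro q
    rw [huq]
    refine ⟨le_max_of_le_right (h20 q), max_le ?_ ?_⟩
    · push_cast
      have := hub1 q
      have := hZδ q
      nlinarith
    · push_cast; exact hub2 q
  · refine ⟨CZ ∪ ⋃ i, C i, hCZ.union (isClosed_iUnion_of_finite hC), union_subset hCZW
      (iUnion_subset fun i => (hCN i).trans (hNW i)), fun q hq => ?_⟩
    simp only [mem_union, mem_iUnion, not_or, not_exists] at hq
    rw [huq, hCZ0 q hq.1, hoff1 q hq.2, hoff2 q hq.2]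
    simp
  · intro y hy
    by_cases hne : ∃ i, (cc E y ∩ N i).Nonempty
    · obtain ⟨i, hi⟩ := hne
      have hKN := hN.sat i y hy hi
      by_cases hoi : own i
      · obtain ⟨s, O, hO, hKO, H⟩ := (hz1 i hoi).lev y hy
        refine ⟨s + 1, O ∩ N i, hO.inter (hN.opn i), subset_inter hKO
          (inter_subset_left.trans hKN), fun q hq hqB => ?_⟩
        have h3 := H q ⟨hq.1.1, hq.2⟩ hqB
        rw [huq, hown i hoi q ⟨hq.1.2, hq.2⟩ hqB, hu1 i hoi q hq.1.2, hu2' i hoi q hq.1.2]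
        push_cast
        rw [mul_one]
        constructor
        · apply le_max_of_le_left; linarith [h3.1]
        · apply max_le
          · linarith [h3.2]
          · positivity
      · obtain ⟨s, O, hO, hKO, H⟩ := (hz2 i hoi).lev y hy
        refine ⟨s, O ∩ N i, hO.inter (hN.opn i), subset_inter hKO
          (inter_subset_left.trans hKN), fun q hq hqB => ?_⟩
        have h3 := H q ⟨hq.1.1, hq.2⟩ hqB
        rw [huq, hu1' i hoi q hq.1.2, hu2 i hoi q hq.1.2, add_zero]
        constructor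
        · exact le_max_of_le_right h3.1
        · apply max_le
          · have h4 := hZδ q
            have h5 : (0:ℝ) ≤ s * δ := by positivity
            linarith
          · exact h3.2
    · refine ⟨0, (⋃ i, C i)ᶜ, (isClosed_iUnion_of_finite hC).isOpen_compl, ?_, ?_⟩
      · rintro x ⟨hx, _⟩ hxC
        obtain ⟨i, hi⟩ := mem_iUnion.1 hxC
        exact hne ⟨i, x, hx, hCN i hi⟩
      · rintro q ⟨hq, _⟩ _
        simp only [mem_compl_iff, mem_iUnion, not_exists] at hq
        rw [huq, hoff1 q hq, hoff2 q hq, add_zero]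
        have h3 := hZ0 q
        have h4 := hZδ q
        rw [max_eq_left h3]
        simp only [Nat.cast_zero, zero_mul, zero_add, one_mul]
        exact ⟨h3, h4⟩
  · exact Zc.max' (Zc.add (Zc.smul hδ.le hδ1 hZP) h1P) h2P
  · refine (Zc.en_max (Zc.add (Zc.smul hδ.le hδ1 hZP) h1P) h2P).trans ?_
    refine add_le_add ((Zc.en_add (Zc.smul hδ.le hδ1 hZP) h1P).trans ?_) (h2en.trans (hsum _))
    have h3 := Zc.en_smul hδ.le hδ1 hZP
    have h4 := h1en.trans (hsum _)
    gcongr
  · intro i hi q hq hqB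
    rw [huq, hown i hi q hq hqB, hu1 i hi q hq.1, hu2' i hi q hq.1, mul_one]
    refine max_eq_left ?_
    have := hz0 i q
    linarith
  · intro i hi q hq
    rw [huq, hu2 i hi q hq]
    exact le_max_right _ _

end Crest.Agent.R105.Stp_722
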