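import Crest.Agent.R105.Stp8_722

/-!
Row 105 (Koebe), task 2230 (PP-STEP), part 9: **Lemma C of #8892, frame free**, the recursion.
-/

set_option autoImplicit false
set_option linter.unusedSectionVars false

open Set Filter Topology Metric
open scoped ENNReal NNReal

namespace Crest.Agent.R105.Stp_722

local notation "cc" => connectedComponentIn

variable {X : Type*} [TopologicalSpace X] [T2Space X] {V E : Set X} {h : X → ℝ}

/-- **two-ended cut-offs of arbitrarily small energy** (output of Lemma A: `m(g,N) = 0`). `ZL B` =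
class of cut-offs on `h < B`, `ZU B'` = class of cut-offs on `B' < h`. -/
def TwoEnd (V E : Set X) (h : X → ℝ) (Hr : Set X) (ZL ZU : ℝ → ZCls X) : Prop :=
  ∀ (B B' : ℝ) (G W : Set X) (ε : ℝ≥0), B < B' → IsCompact G → G ⊆ Hr →
    (∀ x ∈ G, ∀ y ∈ cc E x, y ∈ G) → IsOpen W → G ⊆ W →
    (∀ x ∈ G, (∃ y ∈ cc E x, h y ≤ B) ∧ ∃ y ∈ cc E x, B' ≤ h y) → 0 < ε →
    ∃ z z' : X → ℝ, Pre W z ∧ Pre W z' ∧ (ZL B).P z ∧ (ZU B').P z' ∧ (ZL B).en z ≤ ε ∧
      (ZU B').en z' ≤ ε ∧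
      ∀ x ∈ G, OneOn V h B (cc E x) z ∨ OneOn V (fun x => - h x) (-B') (cc E x) z'

theorem side_zero {B δ : ℝ} (hδ : 0 < δ) {W : Set X} (Z : ZCls X) (j : ℕ) (e : ℝ≥0∞) :
    Side V E h B δ W Z j e 0 where
  bd := fun x => ⟨le_rfl, by simp only [Pi.zero_apply]; positivity⟩
  supp := ⟨∅, isClosed_empty, empty_subset _, fun _ _ => rfl⟩
  lev := fun y _ => ⟨0, univ, isOpen_univ, subset_univ _, fun q _ _ => by simp [hδ.le]⟩
  cls := Z.zero
  en := by simp [Z.en_zero]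

theorem full_zero {B : ℝ} {K : Set X} {z : X → ℝ} (hz : ∀ x, 0 ≤ z x) (δ : ℝ) :
    Full V h B K ((0 : ℕ) * δ) z :=
  ⟨univ, isOpen_univ, subset_univ _, fun q _ _ => by simpa using hz q⟩

theorem layers_rec (hE : IsCompact E) (hh : Continuous h) {Hr : Set X} (hHr : Hr ⊆ E)
    {ZL ZU : ℝ → ZCls X} (T : TwoEnd V E h Hr ZL ZU) {B B' : ℝ} (hBB : B < B') {δ : ℝ}
    (hδ : 0 < δ) (hδ1 : δ ≤ 1) :
    ∀ (n j k : ℕ), j + k = n → ∀ (G W : Set X) (ε : ℝ≥0), IsCompact G → G ⊆ Hr →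
      (∀ x ∈ G, ∀ y ∈ cc E x, y ∈ G) → IsOpen W → G ⊆ W →
      (∀ x ∈ G, (∃ y ∈ cc E x, h y ≤ B) ∧ ∃ y ∈ cc E x, B' ≤ h y) → 0 < ε →
      ∃ z z' : X → ℝ, Side V E h B δ W (ZL B) j ε z ∧
        Side V E (fun x => - h x) (-B') δ W (ZU B') k ε z' ∧
        ∀ x ∈ G, Full V h B (cc E x) (j * δ) z ∨
          Full V (fun x => - h x) (-B') (cc E x) (k * δ) z' := by
  classical
  intro n
  induction n with
  | zero =>
    intro j k hjk G W ε _ _ _ _ _ _ _
    obtain ⟨rfl, rfl⟩ : j = 0 ∧ k = 0 := by omega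
    exact ⟨0, 0, side_zero hδ _ _ _, side_zero hδ _ _ _, fun x _ =>
      Or.inl (full_zero (fun _ => le_rfl) δ)⟩
  | succ n ih =>
    intro j k hjk G W ε hG hGHr hsat hW hGW hcr hε
    rcases Nat.eq_zero_or_pos j with rfl | hj
    · exact ⟨0, 0, side_zero hδ _ _ _, side_zero hδ _ _ _, fun x _ =>
        Or.inl (full_zero (fun _ => le_rfl) δ)⟩
    rcases Nat.eq_zero_or_pos k with rfl | hk
    · exact ⟨0, 0, side_zero hδ _ _ _, side_zero hδ _ _ _, fun x _ =>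
        Or.inr (full_zero (fun _ => le_rfl) δ)⟩
    obtain ⟨j, rfl⟩ := Nat.exists_eq_succ_of_ne_zero hj.ne'
    obtain ⟨k, rfl⟩ := Nat.exists_eq_succ_of_ne_zero hk.ne'
    simp only [Nat.succ_eq_add_one] at *
    obtain ⟨Z, Z', hZ, hZ', hZP, hZP', hZe, hZe', hone⟩ := T B B' G W (ε / 4) hBB hG hGHr hsat hW
      hGW hcr (by positivity)
    have hGE : G ⊆ E := hGHr.trans hHr
    -- neighbourhoods with a sign
    have hU : ∀ x ∈ G, ∃ U, IsOpen U ∧ cc E x ⊆ U ∧ ((∀ q ∈ U ∩ V, h q < B → Z q = 1) ∨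
        ∀ q ∈ U ∩ V, - h q < -B' → Z' q = 1) := by
      intro x hx
      rcases hone x hx with ⟨O, hO, hKO, H⟩ | ⟨O, hO, hKO, H⟩
      · refine ⟨O ∪ {y | B < h y}, hO.union (isOpen_lt continuous_const hh), ?_, Or.inl ?_⟩
        · intro y hy
          rcases le_or_gt (h y) B with h1 | h1
          · exact Or.inl (hKO ⟨hy, h1⟩)
          · exact Or.inr h1
        · rintro q ⟨hq, hqV⟩ hqB
          exact H q ⟨hq.resolve_right (by simp only [mem_ofPred_eq, not_lt]; exact hqB.le), hqV⟩ hqB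
      · refine ⟨O ∪ {y | - B' < - h y}, hO.union (isOpen_lt continuous_const hh.neg), ?_,
          Or.inr ?_⟩
        · intro y hy
          rcases le_or_gt (- h y) (- B') with h1 | h1
          · exact Or.inl (hKO ⟨hy, h1⟩)
          · exact Or.inr h1
        · rintro q ⟨hq, hqV⟩ hqB
          exact H q ⟨hq.resolve_right (by simp only [mem_ofPred_eq, not_lt]; exact hqB.le), hqV⟩ hqB
    choose! U hUo hKU hU using hU
    obtain ⟨l, p, N, hp, hNo, hNU, hd, hNsat, hcov⟩ := exists_thick hE hG hGE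
      (fun x => U x ∩ W) (fun x hx => (hUo x hx).inter hW)
      (fun x hx => subset_inter (hKU x hx) fun y hy => hGW (hsat x hx y hy))
    have hN : Pieces E N := ⟨hNo, hd, hNsat⟩
    have hNW : ∀ i, N i ⊆ W := fun i => (hNU i).trans inter_subset_right
    set own : Fin l → Prop := fun i => ∀ q ∈ N i ∩ V, h q < B → Z q = 1 with hown
    have hown' : ∀ i, ¬ own i → ∀ q ∈ N i ∩ V, - h q < -B' → Z' q = 1 := by
      intro i hi
      rcases hU (p i) (hp i) with h1 | h1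
      · exact absurd (fun q hq hqB => h1 q ⟨(hNU i hq.1).1, hq.2⟩ hqB) hi
      · exact fun q hq hqB => h1 q ⟨(hNU i hq.1).1, hq.2⟩ hqB
    -- the parts of the family
    have hGi : ∀ i, IsCompact (G ∩ N i) := by
      intro i
      have e : G ∩ N i = G \ ⋃ j ∈ {j | j ≠ i}, N j := by
        ext x
        simp only [mem_inter_iff, Set.mem_sdiff, mem_iUnion, mem_ofPred_eq, not_exists]
        constructor
        · rintro ⟨h1, h2⟩
          exact ⟨h1, fun j hj h3 => Set.disjoint_left.1 (hd j i hj) h3 h2⟩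
        · rintro ⟨h1, h2⟩
          obtain ⟨j, hj⟩ := mem_iUnion.1 (hcov h1)
          by_cases hji : j = i
          · exact ⟨h1, hji ▸ hj⟩
          · exact absurd hj (h2 j hji)
      rw [e]
      exact hG.diff (isOpen_biUnion fun j _ => hNo j)
    have hKN : ∀ i, ∀ x ∈ G ∩ N i, cc E x ⊆ N i := fun i x hx =>
      hNsat i x (hGE hx.1) ⟨x, mem_connectedComponentIn (hGE hx.1), hx.2⟩
    set e : ℝ≥0 := ε / (6 * (l + 1)) with he
    have he0 : 0 < e := by positivity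
    have hrec : ∀ i, ∃ z z' : X → ℝ,
        (own i → Side V E h B δ (N i) (ZL B) j e z ∧
          Side V E (fun x => - h x) (-B') δ (N i) (ZU B') (k + 1) e z' ∧
          ∀ x ∈ G ∩ N i, Full V h B (cc E x) (j * δ) z ∨
            Full V (fun x => - h x) (-B') (cc E x) ((k + 1 : ℕ) * δ) z') ∧
        (¬ own i → Side V E h B δ (N i) (ZL B) (j + 1) e z ∧
          Side V E (fun x => - h x) (-B') δ (N i) (ZU B') k e z' ∧
          ∀ x ∈ G ∩ N i, Full V h B (cc E x) ((j + 1 : ℕ) * δ) z ∨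
            Full V (fun x => - h x) (-B') (cc E x) (k * δ) z') := by
      intro i
      have h1 : ∀ x ∈ G ∩ N i, ∀ y ∈ cc E x, y ∈ G ∩ N i := fun x hx y hy =>
        ⟨hsat x hx.1 y hy, hKN i x hx hy⟩
      by_cases hi : own i
      · obtain ⟨z, z', h2, h3, h4⟩ := ih j (k + 1) (by omega) (G ∩ N i) (N i) e (hGi i)
          (inter_subset_left.trans hGHr) h1 (hNo i) inter_subset_right (fun x hx => hcr x hx.1) he0
        exact ⟨z, z', fun _ => ⟨h2, h3, h4⟩, fun h5 => absurd hi h5⟩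
      · obtain ⟨z, z', h2, h3, h4⟩ := ih (j + 1) k (by omega) (G ∩ N i) (N i) e (hGi i)
          (inter_subset_left.trans hGHr) h1 (hNo i) inter_subset_right (fun x hx => hcr x hx.1) he0
        exact ⟨z, z', fun h5 => absurd h5 hi, fun _ => ⟨h2, h3, h4⟩⟩
    choose z z' hz1 hz2 using hrec
    obtain ⟨u, hu, hu1, hu2⟩ := combine hN hδ hδ1 hNW (ZL B) hZ hZP own (fun i hi => hi)
      (fun i hi => (hz1 i hi).1) (fun i hi => (hz2 i hi).1)
    obtain ⟨u', hu', hu1', hu2'⟩ := combine (h := fun x => - h x) hN hδ hδ1 hNW (ZU B') hZ' hZP'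
      (fun i => ¬ own i) hown' (fun i hi => (hz2 i hi).2.1)
      (fun i hi => (hz1 i (not_not.1 hi)).2.1)
    have hen : ∀ x : ℝ≥0∞, x ≤ ((ε / 4 : ℝ≥0) : ℝ≥0∞) →
        2 * (x + (l : ℝ≥0∞) * (e : ℝ≥0∞)) + (l : ℝ≥0∞) * (e : ℝ≥0∞) ≤ (ε : ℝ≥0∞) := by
      intro x hx
      calc 2 * (x + (l : ℝ≥0∞) * (e : ℝ≥0∞)) + (l : ℝ≥0∞) * (e : ℝ≥0∞)
          ≤ 2 * (((ε / 4 : ℝ≥0) : ℝ≥0∞) + (l : ℝ≥0∞) * (e : ℝ≥0∞)) + (l : ℝ≥0∞) * (e : ℝ≥0∞) := by
            gcongr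
        _ = ((2 * (ε / 4 + l * e) + l * e : ℝ≥0) : ℝ≥0∞) := by push_cast; rfl
        _ ≤ (ε : ℝ≥0∞) := by
            rw [ENNReal.coe_le_coe, ← NNReal.coe_le_coe]
            have h1 : (e : ℝ) * (6 * (l + 1)) = ε := by
              rw [he]; push_cast; field_simp
            have h2 : (0:ℝ) ≤ e := e.2
            push_cast
            nlinarith
    refine ⟨u, u', ⟨hu.bd, hu.supp, hu.lev, hu.cls, hu.en.trans (hen _ hZe)⟩,
      ⟨hu'.bd, hu'.supp, hu'.lev, hu'.cls, hu'.en.trans (hen _ hZe')⟩, ?_⟩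
    intro x hx
    obtain ⟨i, hi⟩ := mem_iUnion.1 (hcov hx)
    have hKi := hKN i x ⟨hx, hi⟩
    by_cases hoi : own i
    · rcases (hz1 i hoi).2.2 x ⟨hx, hi⟩ with ⟨O, hO, hKO, H⟩ | ⟨O, hO, hKO, H⟩
      · left
        refine ⟨O ∩ N i, hO.inter (hNo i), subset_inter hKO (inter_subset_left.trans hKi),
          fun q hq hqB => ?_⟩
        rw [hu1 i hoi q ⟨hq.1.2, hq.2⟩ hqB]
        have := H q ⟨hq.1.1, hq.2⟩ hqB
        push_cast; linarith
      · right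
        refine ⟨O ∩ N i, hO.inter (hNo i), subset_inter hKO (inter_subset_left.trans hKi),
          fun q hq hqB => ?_⟩
        exact (H q ⟨hq.1.1, hq.2⟩ hqB).trans (hu2' i (not_not.2 hoi) q hq.1.2)
    · rcases (hz2 i hoi).2.2 x ⟨hx, hi⟩ with ⟨O, hO, hKO, H⟩ | ⟨O, hO, hKO, H⟩
      · left
        refine ⟨O ∩ N i, hO.inter (hNo i), subset_inter hKO (inter_subset_left.trans hKi),
          fun q hq hqB => ?_⟩
        exact (H q ⟨hq.1.1, hq.2⟩ hqB).trans (hu2 i hoi q hq.1.2)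
      · right
        refine ⟨O ∩ N i, hO.inter (hNo i), subset_inter hKO (inter_subset_left.trans hKi),
          fun q hq hqB => ?_⟩
        rw [hu1' i hoi q ⟨hq.1.2, hq.2⟩ hqB]
        have := H q ⟨hq.1.1, hq.2⟩ hqB
        push_cast; linarith

/-- **Lemma C**: two-ended cut-offs of small energy and oscillation `≤ m` on every component. -/
theorem layers (hE : IsCompact E) (hh : Continuous h) {Hr : Set X} (hHr : Hr ⊆ E)
    {ZL ZU : ℝ → ZCls X} (T : TwoEnd V E h Hr ZL ZU) {B B' : ℝ} (hBB : B < B')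
    {G W : Set X} {m : ℝ} {ε : ℝ≥0} (hG : IsCompact G) (hGHr : G ⊆ Hr)
    (hsat : ∀ x ∈ G, ∀ y ∈ cc E x, y ∈ G) (hW : IsOpen W) (hGW : G ⊆ W)
    (hcr : ∀ x ∈ G, (∃ y ∈ cc E x, h y ≤ B) ∧ ∃ y ∈ cc E x, B' ≤ h y) (hm : 0 < m) (hε : 0 < ε) :
    ∃ z z' : X → ℝ, Cut V E h B W m z ∧ Cut V E (fun x => - h x) (-B') W m z' ∧
      (ZL B).P z ∧ (ZU B').P z' ∧ (ZL B).en z ≤ ε ∧ (ZU B').en z' ≤ ε ∧
      ∀ x ∈ G, OneOn V h B (cc E x) z ∨ OneOn V (fun x => - h x) (-B') (cc E x) z' := by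
  obtain ⟨M, hM⟩ := exists_nat_gt (1 / m)
  have hM0 : (0:ℝ) < M := lt_trans (by positivity) hM
  have hM1 : (1:ℝ) ≤ M := by
    have : 0 < M := by exact_mod_cast hM0
    exact_mod_cast this
  have hδ : (0:ℝ) < 1 / M := by positivity
  have hδ1 : (1:ℝ) / M ≤ 1 := by rw [div_le_one hM0]; exact hM1
  have hδm : (1:ℝ) / M ≤ m := by
    rw [div_le_iff₀ hM0]
    rw [div_lt_iff₀ hm] at hM
    linarith
  obtain ⟨z, z', hz, hz', H⟩ := layers_rec hE hh hHr T hBB hδ hδ1 (M + M) M M rfl G W ε hG hGHr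
    hsat hW hGW hcr hε
  have hMδ : (M:ℝ) * (1 / M) = 1 := by field_simp
  have hcut : ∀ (h : X → ℝ) (B : ℝ) (Z : ZCls X) (z : X → ℝ),
      Side V E h B (1 / M) W Z M ε z → Cut V E h B W m z := by
    intro h B Z z hz
    refine ⟨fun x => ?_, hz.supp, fun x hx => ?_⟩
    · have := hz.bd x
      rwa [hMδ] at this
    · obtain ⟨s, O, hO, hKO, H⟩ := hz.lev x hx
      intro ε hε
      refine ⟨O, hO, hKO, fun q hq q' hq' => ?_⟩
      have h1 := H q ⟨hq.1, hq.2.1⟩ hq.2.2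
      have h2 := H q' ⟨hq'.1, hq'.2.1⟩ hq'.2.2
      rw [abs_le]
      constructor <;> linarith
  have hfull : ∀ (h : X → ℝ) (B : ℝ) (z : X → ℝ) (K : Set X), Cut V E h B W m z →
      Full V h B K (M * (1 / M)) z → OneOn V h B K z := by
    rintro h B z K hz ⟨O, hO, hKO, H⟩
    refine ⟨O, hO, hKO, fun q hq hqB => ?_⟩
    have := H q hq hqB
    rw [hMδ] at this
    exact le_antisymm (hz.z01 q).2 this
  refine ⟨z, z', hcut _ _ _ _ hz, hcut _ _ _ _ hz', hz.cls, hz'.cls, hz.en, hz'.en, ?_⟩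
  intro x hx
  rcases H x hx with h1 | h1
  · exact Or.inl (hfull _ _ _ _ (hcut _ _ _ _ hz) h1)
  · exact Or.inr (hfull _ _ _ _ (hcut _ _ _ _ hz') h1)

end Crest.Agent.R105.Stp_722
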