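import Crest.Agent.R105.Skst2_49

/-!
# Row 105 (S0138, solids): the one-sided function of a thin neighbourhood of a hair

`Φ = χ(y)` on the right half of a thin neighbourhood `N` of a hair `K` (frontier of `N` off `E`),
cut off inside the domain. On `E` it is locally independent of `x`, so squares contribute nothing
to `∫ Φ_x`.
-/

set_option autoImplicit false

namespace Crest.Agent.R105.Stq_188

open Set Filter MeasureTheory Topology Metric
open CF_363 Stp_722 Skst2_49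
open scoped ENNReal NNReal

/-- cut-off: `1` at distance `≥ δ` from the complement of `N` -/
noncomputable def cfN (N : Set (ℝ × ℝ)) (δ : ℝ) (p : ℝ × ℝ) : ℝ := min 1 (infDist p Nᶜ / δ)

theorem cfN_nonneg {N : Set (ℝ × ℝ)} {δ : ℝ} (hδ : 0 < δ) (p : ℝ × ℝ) : 0 ≤ cfN N δ p :=
  le_min zero_le_one (div_nonneg infDist_nonneg hδ.le)

theorem cfN_le_one {N : Set (ℝ × ℝ)} {δ : ℝ} (p : ℝ × ℝ) : cfN N δ p ≤ 1 := min_le_left _ _

theorem cfN_lip {N : Set (ℝ × ℝ)} {δ : ℝ} (hδ : 0 < δ) (p q : ℝ × ℝ) :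
    |cfN N δ p - cfN N δ q| ≤ δ⁻¹ * dist p q := by
  have h1 : |infDist p Nᶜ / δ - infDist q Nᶜ / δ| ≤ δ⁻¹ * dist p q := by
    rw [← sub_div, abs_div, abs_of_pos hδ, div_eq_inv_mul]
    refine mul_le_mul_of_nonneg_left ?_ (inv_nonneg.2 hδ.le)
    rw [abs_sub_le_iff]
    constructor
    · linarith [infDist_le_infDist_add_dist (s := Nᶜ) (x := p) (y := q)]
    · have := infDist_le_infDist_add_dist (s := Nᶜ) (x := q) (y := p)
      rw [dist_comm] at this; linarith
  refine le_trans ?_ h1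
  have h2 := abs_min_sub_min_le_max 1 (infDist p Nᶜ / δ) 1 (infDist q Nᶜ / δ)
  rw [sub_self, abs_zero, max_eq_right (abs_nonneg _)] at h2
  exact h2

theorem cfN_zero {N : Set (ℝ × ℝ)} {δ : ℝ} {p : ℝ × ℝ} (hp : p ∉ N) : cfN N δ p = 0 := by
  have : infDist p Nᶜ = 0 := infDist_zero_of_mem hp
  simp [cfN, this]

theorem cfN_one {N : Set (ℝ × ℝ)} {δ : ℝ} (hδ : 0 < δ) {p : ℝ × ℝ} (hp : δ ≤ infDist p Nᶜ) :
    cfN N δ p = 1 := by
  rw [cfN, min_eq_left]
  rwa [one_le_div hδ]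

/-- the Lipschitz profile -/
noncomputable def GN (K : Hair) (N : Set (ℝ × ℝ)) (δ : ℝ) (p : ℝ × ℝ) : ℝ := tent K p.2 * cfN N δ p

/-- the one-sided function -/
noncomputable def PhN (K : Hair) (N : Set (ℝ × ℝ)) (δ : ℝ) (p : ℝ × ℝ) : ℝ :=
  if K.x < p.1 then GN K N δ p else 0

theorem GN_nonneg (K : Hair) {N : Set (ℝ × ℝ)} {δ : ℝ} (hδ : 0 < δ) (p : ℝ × ℝ) :
    0 ≤ GN K N δ p := mul_nonneg (tent_nonneg _ _) (cfN_nonneg hδ _)

theorem GN_le_tent (K : Hair) {N : Set (ℝ × ℝ)} {δ : ℝ} (p : ℝ × ℝ) :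
    GN K N δ p ≤ tent K p.2 := mul_le_of_le_one_right (tent_nonneg _ _) (cfN_le_one _)

theorem PhN_nonneg (K : Hair) {N : Set (ℝ × ℝ)} {δ : ℝ} (hδ : 0 < δ) (p : ℝ × ℝ) :
    0 ≤ PhN K N δ p := by
  unfold PhN; split_ifs
  · exact GN_nonneg K hδ p
  · exact le_rfl

theorem PhN_le_tent (K : Hair) {N : Set (ℝ × ℝ)} {δ : ℝ} (p : ℝ × ℝ) :
    PhN K N δ p ≤ tent K p.2 := by
  unfold PhN; split_ifs
  · exact GN_le_tent K p
  · exact tent_nonneg _ _

theorem PhN_le_one (K : Hair) {N : Set (ℝ × ℝ)} {δ : ℝ} (p : ℝ × ℝ) : PhN K N δ p ≤ 1 :=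
  (PhN_le_tent K p).trans (tent_le_one _ _)

theorem PhN_zero (K : Hair) {N : Set (ℝ × ℝ)} {δ : ℝ} {p : ℝ × ℝ} (hp : p ∉ N) :
    PhN K N δ p = 0 := by
  unfold PhN GN; rw [cfN_zero hp]; simp

/-- Lipschitz constant of the tent -/
noncomputable def Mt (K : Hair) : ℝ := ((K.t - K.b) / 2)⁻¹

theorem Mt_nonneg (K : Hair) : 0 ≤ Mt K := inv_nonneg.2 (by have := K.hbt; linarith)

theorem GN_lip (K : Hair) {N : Set (ℝ × ℝ)} {δ : ℝ} (hδ : 0 < δ) (p q : ℝ × ℝ) :
    |GN K N δ p - GN K N δ q| ≤ (Mt K + δ⁻¹) * dist p q := by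
  have h1 : GN K N δ p - GN K N δ q = (tent K p.2 - tent K q.2) * cfN N δ p
      + tent K q.2 * (cfN N δ p - cfN N δ q) := by unfold GN; ring
  have h2 : |tent K p.2 - tent K q.2| ≤ Mt K * dist p q :=
    (tent_lip K p.2 q.2).trans (mul_le_mul_of_nonneg_left
      (by rw [Prod.dist_eq, ← Real.dist_eq]; exact le_max_right _ _) (Mt_nonneg K))
  calc |GN K N δ p - GN K N δ q| ≤ |(tent K p.2 - tent K q.2) * cfN N δ p|
        + |tent K q.2 * (cfN N δ p - cfN N δ q)| := by rw [h1]; exact abs_add_le _ _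
    _ ≤ |tent K p.2 - tent K q.2| * 1 + 1 * |cfN N δ p - cfN N δ q| := by
        rw [abs_mul, abs_mul, abs_of_nonneg (cfN_nonneg hδ p), abs_of_nonneg (tent_nonneg K _)]
        gcongr
        · exact cfN_le_one p
        · exact tent_le_one _ _
    _ ≤ Mt K * dist p q + δ⁻¹ * dist p q := by
        rw [mul_one, one_mul]; exact add_le_add h2 (cfN_lip hδ p q)
    _ = _ := by ring

theorem GN_lipschitz (K : Hair) {N : Set (ℝ × ℝ)} {δ : ℝ} (hδ : 0 < δ) :
    LipschitzWith (Mt K + δ⁻¹).toNNReal (GN K N δ) := by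
  refine LipschitzWith.of_dist_le_mul fun p q => ?_
  rw [Real.dist_eq, Real.coe_toNNReal _ (add_nonneg (Mt_nonneg K) (inv_nonneg.2 hδ.le))]
  exact GN_lip K hδ p q

/-- **thin neighbourhood data** -/
structure TN (E : Set (ℝ × ℝ)) (K : Hair) (N : Set (ℝ × ℝ)) (δ : ℝ) : Prop where
  δ0 : 0 < δ
  op : IsOpen N
  bd : Bornology.IsBounded N
  car : K.car ⊆ E ∩ N
  deep : ∀ p ∈ E ∩ N, 2 * δ ≤ infDist p Nᶜ
  far : Disjoint E (frontier N)

variable {E N : Set (ℝ × ℝ)} {K : Hair} {δ : ℝ}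

theorem exists_TN (hE : IsCompact E) (hN : IsOpen N) (hb : Bornology.IsBounded N)
    (hK : K.car ⊆ E ∩ N) (hf : Disjoint E (frontier N)) : ∃ δ, TN E K N δ := by
  have hne : (Nᶜ : Set (ℝ × ℝ)).Nonempty := by
    by_contra h
    rw [not_nonempty_iff_eq_empty, compl_empty_iff] at h
    rw [h] at hb
    exact NormedSpace.unbounded_univ ℝ (ℝ × ℝ) hb
  have hEN : E ∩ N = E ∩ closure N := by
    refine Subset.antisymm (inter_subset_inter_right _ subset_closure) ?_
    rintro p ⟨hp, hpc⟩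
    refine ⟨hp, ?_⟩
    by_contra hn
    exact disjoint_left.1 hf hp ⟨hpc, fun h => hn (interior_subset h)⟩
  have hcomp : IsCompact (E ∩ N) := by rw [hEN]; exact hE.inter_right isClosed_closure
  have hpos : ∀ p ∈ E ∩ N, 0 < infDist p Nᶜ := by
    intro p hp
    rw [← (hN.isClosed_compl.notMem_iff_infDist_pos hne)]
    exact fun h => h hp.2
  have hKne : (E ∩ N).Nonempty :=
    ⟨(K.x, K.b), hK ⟨rfl, le_rfl, K.hbt.le⟩⟩
  obtain ⟨p, hp, hmin⟩ := hcomp.exists_isMinOn hKne (continuous_infDist_pt Nᶜ).continuousOn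
  refine ⟨infDist p Nᶜ / 2, by linarith [hpos p hp], hN, hb, hK, fun q hq => ?_, hf⟩
  have := hmin hq
  simp only [mem_ofPred_eq] at this
  linarith

/-- near every point of `E ∩ N` the cut-off is one -/
theorem TN.near_one (h : TN E K N δ) : ∃ O, IsOpen O ∧ E ∩ N ⊆ O ∧ ∀ p ∈ O, cfN N δ p = 1 := by
  refine ⟨{p | δ < infDist p Nᶜ}, isOpen_lt continuous_const (continuous_infDist_pt _),
    fun p hp => ?_, fun p hp => cfN_one h.δ0 (le_of_lt hp)⟩
  have := h.deep p hp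
  have h0 := h.δ0
  simp only [mem_ofPred_eq]
  linarith

/-- near every point of `E \ N` the function vanishes -/
theorem TN.near_zero (h : TN E K N δ) : ∃ O, IsOpen O ∧ E \ N ⊆ O ∧ ∀ p ∈ O, PhN K N δ p = 0 := by
  refine ⟨(closure N)ᶜ, isClosed_closure.isOpen_compl, fun p hp hc => ?_,
    fun p hp => PhN_zero K fun h' => hp (subset_closure h')⟩
  exact disjoint_left.1 h.far hp.1 ⟨hc, fun h' => hp.2 (interior_subset h')⟩

theorem TN.GN_line (h : TN E K N δ) (y : ℝ) : GN K N δ (K.x, y) = tent K y := by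
  unfold GN
  by_cases hy : y ∈ Icc K.b K.t
  · have h1 : (K.x, y) ∈ E ∩ N := h.car ⟨rfl, hy.1, hy.2⟩
    obtain ⟨O, -, hO, hO1⟩ := h.near_one
    rw [hO1 _ (hO h1), mul_one]
  · rw [tent_zero K hy, zero_mul]

theorem TN.cf (h : TN E K N δ) : CF K.carᶜ (PhN K N δ) := by
  have hL : 0 ≤ Mt K + δ⁻¹ := add_nonneg (Mt_nonneg K) (inv_nonneg.2 h.δ0.le)
  refine ⟨Mt K + δ⁻¹, 1, hL, ?_, fun p _ => ?_⟩
  · exact SL_side_right K (χ := tent K) hL (fun p q _ _ => GN_lip K h.δ0 p q) h.GN_line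
      (fun y hy => tent_zero K hy)
  · rw [abs_of_nonneg (PhN_nonneg K h.δ0 p)]; exact PhN_le_one K p

theorem TN.cfj (h : TN E K N δ) {𝓗 : Set Hair} (hK : K ∈ 𝓗) : CFJ 𝓗 univ (PhN K N δ) := by
  refine ⟨{K}, by simpa using hK, ?_⟩
  have h1 : (univ \ cut {K} : Set (ℝ × ℝ)) = K.carᶜ := by
    rw [cut_eq_biUnion]; simp [compl_eq_univ_sdiff]
  rw [h1]; exact h.cf

theorem TN.cpt (h : TN E K N δ) : HasCompactSupport (PhN K N δ) :=
  HasCompactSupport.intro (K := closure N) h.bd.isCompact_closure fun _ hp =>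
    PhN_zero K fun h' => hp (subset_closure h')

/-! ### the integral -/

theorem gx_snd (χ : ℝ → ℝ) (p : ℝ × ℝ) : gx (fun q : ℝ × ℝ => χ q.2) p = 0 := by
  by_cases hd : DifferentiableAt ℝ (fun q : ℝ × ℝ => χ q.2) p
  · have h1 := gx_eq_deriv (f := fun q : ℝ × ℝ => χ q.2) (x := p.1) (y := p.2) hd
    exact h1.unique (hasDerivAt_const p.1 (χ p.2))
  · simp [gx, fderiv_zero_of_not_differentiableAt hd]

/-- on `E`, off the vertical line, the horizontal derivative vanishes -/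
theorem TN.gx_E (h : TN E K N δ) {p : ℝ × ℝ} (hp : p ∈ E) (hx : p.1 ≠ K.x) :
    gx (PhN K N δ) p = 0 := by
  by_cases hpN : p ∈ N
  · obtain ⟨O, hO, hEO, hO1⟩ := h.near_one
    have h1 : ∀ᶠ q in 𝓝 p, q ∈ O := hO.mem_nhds (hEO ⟨hp, hpN⟩)
    rcases lt_or_gt_of_ne hx with hlt | hgt
    · have h2 : ∀ᶠ q : ℝ × ℝ in 𝓝 p, q.1 < K.x :=
        (continuous_fst.tendsto p).eventually (Iio_mem_nhds hlt)
      have h3 : PhN K N δ =ᶠ[𝓝 p] fun _ => (0 : ℝ) := by
        filter_upwards [h2] with q hq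
        simp only [PhN, if_neg (not_lt.2 hq.le)]
      rw [gx_congr h3, gx_const]
    · have h2 : ∀ᶠ q : ℝ × ℝ in 𝓝 p, K.x < q.1 :=
        (continuous_fst.tendsto p).eventually (Ioi_mem_nhds hgt)
      have h3 : PhN K N δ =ᶠ[𝓝 p] fun q => tent K q.2 := by
        filter_upwards [h1, h2] with q hq hq2
        simp only [PhN, if_pos hq2, GN, hO1 q hq, mul_one]
      rw [gx_congr h3, gx_snd]
  · obtain ⟨O, hO, hEO, hO1⟩ := h.near_zero
    have h3 : PhN K N δ =ᶠ[𝓝 p] fun _ => (0 : ℝ) := by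
      filter_upwards [hO.mem_nhds (hEO ⟨hp, hpN⟩)] with q hq using hO1 q hq
    rw [gx_congr h3, gx_const]

theorem ae_fst_ne (c : ℝ) : ∀ᵐ p : ℝ × ℝ, p.1 ≠ c := by
  have h3 : volume {p : ℝ × ℝ | p.1 = c} = 0 := by
    have : {p : ℝ × ℝ | p.1 = c} = {c} ×ˢ univ := by ext p; simp
    rw [this, Measure.volume_eq_prod, Measure.prod_prod]; simp
  have := measure_eq_zero_iff_ae_notMem.mp h3
  filter_upwards [this] with p hp using hp

/-- a.e. form: `Φ_x = 1_{x > K.x} G_x` -/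
theorem gx_PhN : ∀ᵐ p : ℝ × ℝ, gx (PhN K N δ) p = {q : ℝ × ℝ | K.x < q.1}.indicator (gx (GN K N δ)) p := by
  filter_upwards [ae_fst_ne K.x] with p hx
  rcases lt_or_gt_of_ne hx with hlt | hgt
  · have h2 : ∀ᶠ q : ℝ × ℝ in 𝓝 p, q.1 < K.x :=
      (continuous_fst.tendsto p).eventually (Iio_mem_nhds hlt)
    have h3 : PhN K N δ =ᶠ[𝓝 p] fun _ => (0 : ℝ) := by
      filter_upwards [h2] with q hq
      simp only [PhN, if_neg (not_lt.2 hq.le)]
    rw [gx_congr h3, gx_const, indicator_of_notMem (by simpa using hlt.le)]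
  · have h2 : ∀ᶠ q : ℝ × ℝ in 𝓝 p, K.x < q.1 :=
      (continuous_fst.tendsto p).eventually (Ioi_mem_nhds hgt)
    have h3 : PhN K N δ =ᶠ[𝓝 p] GN K N δ := by
      filter_upwards [h2] with q hq2
      simp only [PhN, if_pos hq2]
    rw [gx_congr h3, indicator_of_mem (by simpa using hgt)]

theorem TN.integral_gx (h : TN E K N δ) : ∫ p, gx (PhN K N δ) p = - ∫ y, tent K y := by
  obtain ⟨R, hR⟩ := h.bd.subset_closedBall (0 : ℝ × ℝ)
  set R' : ℝ := max R (K.x + 1) + 1 with hR'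
  have hRx : K.x < R' := by rw [hR']; linarith [le_max_right R (K.x + 1)]
  have hGz : ∀ p : ℝ × ℝ, R' ≤ p.1 ∨ (p ∉ closedBall (0 : ℝ × ℝ) R) → GN K N δ p = 0 := by
    intro p hp
    have : p ∉ N := by
      intro hN
      have h1 := hR hN
      rcases hp with hp | hp
      · rw [mem_closedBall, Prod.dist_eq] at h1
        have h2 := (le_max_left _ _).trans h1
        rw [Real.dist_eq, Prod.fst_zero, sub_zero] at h2
        have h3 := (le_abs_self p.1).trans h2
        rw [hR'] at hp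
        linarith [le_max_left R (K.x + 1)]
      · exact hp h1
    rw [GN, cfN_zero this, mul_zero]
  have hlip := GN_lipschitz K (N := N) h.δ0
  set L : ℝ := Mt K + δ⁻¹ with hLdef
  have hL : 0 ≤ L := add_nonneg (Mt_nonneg K) (inv_nonneg.2 h.δ0.le)
  have hSL : SL univ L (GN K N δ) := fun p q _ => GN_lip K h.δ0 p q
  have hgb : ∀ p, |gx (GN K N δ) p| ≤ L := fun p => hSL.abs_gx_le isOpen_univ hL (mem_univ p)
  -- integrability
  have hgz : ∀ p : ℝ × ℝ, p ∉ closedBall (0 : ℝ × ℝ) R → gx (GN K N δ) p = 0 := by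
    intro p hp
    have h3 : GN K N δ =ᶠ[𝓝 p] fun _ => (0 : ℝ) := by
      filter_upwards [isClosed_closedBall.isOpen_compl.mem_nhds hp] with q hq
      exact hGz q (Or.inr hq)
    rw [gx_congr h3, gx_const]
  have hint : Integrable (gx (GN K N δ)) (volume : Measure (ℝ × ℝ)) := by
    have h1 : IntegrableOn (gx (GN K N δ)) (closedBall (0 : ℝ × ℝ) R) volume := by
      refine Measure.integrableOn_of_bounded (M := L) ?_ (measurable_gx _).aestronglyMeasurable ?_
      · exact (isCompact_closedBall (0 : ℝ × ℝ) R).measure_lt_top.ne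
      · exact Eventually.of_forall fun p => by simpa using hgb p
    exact integrableOn_iff_integrable_of_support_subset (s := closedBall (0 : ℝ × ℝ) R)
      (fun p hp => by by_contra hc; exact hp (hgz p hc)) |>.1 h1
  have hms : MeasurableSet {q : ℝ × ℝ | K.x < q.1} :=
    measurableSet_lt measurable_const measurable_fst
  rw [integral_congr_ae gx_PhN, Measure.volume_eq_prod, integral_prod_symm _
    (by rw [← Measure.volume_eq_prod]; exact hint.indicator hms)]
  rw [← integral_neg]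
  refine integral_congr_ae ?_
  filter_upwards [hSL.ftc_x isOpen_univ] with y hy
  have h1 : ∀ x : ℝ, {q : ℝ × ℝ | K.x < q.1}.indicator (gx (GN K N δ)) (x, y) =
      (Ioc K.x R').indicator (fun x => gx (GN K N δ) (x, y)) x := by
    intro x
    by_cases hx : K.x < x
    · rw [indicator_of_mem (by simpa using hx)]
      by_cases hx2 : x ≤ R'
      · rw [indicator_of_mem (show x ∈ Ioc K.x R' from ⟨hx, hx2⟩)]
      · rw [indicator_of_notMem (fun h => hx2 h.2)]
        push Not at hx2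
        have h3 : GN K N δ =ᶠ[𝓝 (x, y)] fun _ => (0 : ℝ) := by
          have : ∀ᶠ q : ℝ × ℝ in 𝓝 (x, y), R' < q.1 :=
            (continuous_fst.tendsto (x, y)).eventually (Ioi_mem_nhds hx2)
          filter_upwards [this] with q hq
          exact hGz q (Or.inl hq.le)
        rw [gx_congr h3, gx_const]
    · rw [indicator_of_notMem (by simpa using hx), indicator_of_notMem (fun h => hx h.1)]
  simp only [h1]
  rw [integral_indicator measurableSet_Ioc, ← intervalIntegral.integral_of_le hRx.le,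
    ← hy K.x R' (fun _ _ => mem_univ _), hGz (R', y) (Or.inl le_rfl), h.GN_line, zero_sub]

theorem TN.integral_compl (h : TN E K N δ) :
    ∫ p in Eᶜ, gx (PhN K N δ) p = - ∫ y, tent K y := by
  rw [← h.integral_gx]
  refine setIntegral_eq_integral_of_ae_compl_eq_zero ?_
  filter_upwards [ae_fst_ne K.x] with p hx hp
  exact h.gx_E (by simpa using hp) hx

/-! ### oscillations -/

/-- off the neighbourhood -/
theorem TN.osc_far (h : TN E K N δ) {P V : Set (ℝ × ℝ)} (hP : P ⊆ E \ N) :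
    OscLe V P (PhN K N δ) 0 := by
  obtain ⟨O, hO, hEO, hO0⟩ := h.near_zero
  intro ε hε
  refine ⟨O, hO, hP.trans hEO, fun q hq q' hq' => ?_⟩
  rw [hO0 q hq.1, hO0 q' hq'.1]; simp [hε.le]

/-- to the left of the hair -/
theorem osc_left {P V : Set (ℝ × ℝ)} (hP : ∀ p ∈ P, p.1 < K.x) :
    OscLe V P (PhN K N δ) 0 := by
  intro ε hε
  refine ⟨{p | p.1 < K.x}, isOpen_lt continuous_fst continuous_const, hP, fun q hq q' hq' => ?_⟩
  have a1 : q.1 < K.x := hq.1
  have a2 : q'.1 < K.x := hq'.1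
  have h1 : PhN K N δ q = 0 := by simp only [PhN, if_neg (not_lt.2 a1.le)]
  have h2 : PhN K N δ q' = 0 := by simp only [PhN, if_neg (not_lt.2 a2.le)]
  rw [h1, h2]; simp [hε.le]

/-- at heights where the tent vanishes -/
theorem TN.osc_high (h : TN E K N δ) {P V : Set (ℝ × ℝ)} (hP : ∀ p ∈ P, p.2 ∉ Ioo K.b K.t) :
    OscLe V P (PhN K N δ) 0 := by
  intro ε hε
  have hc : Continuous fun p : ℝ × ℝ => tent K p.2 := (continuous_tent K).comp continuous_snd
  refine ⟨{p | tent K p.2 < ε}, isOpen_lt hc continuous_const, fun p hp => ?_,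
    fun q hq q' hq' => ?_⟩
  · have h1 : tent K p.2 = 0 := by
      by_cases h2 : p.2 ∈ Icc K.b K.t
      · have h3 : p.2 = K.b ∨ p.2 = K.t := by
          by_contra hne
          push Not at hne
          exact hP p hp ⟨lt_of_le_of_ne h2.1 (Ne.symm hne.1), lt_of_le_of_ne h2.2 hne.2⟩
        have hbt := K.hbt
        refine ramp_eq_zero (by linarith) ?_
        rcases h3 with h3 | h3
        · rw [h3, abs_of_neg (by linarith)]; linarith
        · rw [h3, abs_of_pos (by linarith)]; linarith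
      · exact tent_zero K h2
    simp only [mem_ofPred_eq, h1]; exact hε
  · have h1 := PhN_nonneg K (N := N) h.δ0 q
    have h2 := PhN_nonneg K (N := N) h.δ0 q'
    have h3 := (PhN_le_tent K (N := N) (δ := δ) q).trans_lt hq.1
    have h4 := (PhN_le_tent K (N := N) (δ := δ) q').trans_lt hq'.1
    rw [zero_add, abs_sub_le_iff]
    constructor <;> linarith

/-- to the right of the hair, inside `N`: the oscillation is that of the tent -/
theorem TN.osc_right (h : TN E K N δ) {P V : Set (ℝ × ℝ)} (hP : P ⊆ E ∩ N)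
    (hx : ∀ p ∈ P, K.x < p.1) {y0 y1 : ℝ} (hy : ∀ p ∈ P, y0 ≤ p.2 ∧ p.2 ≤ y1) :
    OscLe V P (PhN K N δ) (Mt K * (y1 - y0)) := by
  obtain ⟨O, hO, hEO, hO1⟩ := h.near_one
  intro ε hε
  set η : ℝ := ε / (2 * (Mt K + 1)) with hη
  have hM := Mt_nonneg K
  have hη0 : 0 < η := by positivity
  refine ⟨O ∩ {p | K.x < p.1} ∩ {p | y0 - η < p.2} ∩ {p | p.2 < y1 + η},
    ((hO.inter (isOpen_lt continuous_const continuous_fst)).inter
      (isOpen_lt continuous_const continuous_snd)).inter (isOpen_lt continuous_snd continuous_const),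
    fun p hp => ⟨⟨⟨hEO (hP hp), hx p hp⟩, ?_⟩, ?_⟩, fun q hq q' hq' => ?_⟩
  · simp only [mem_ofPred_eq]; linarith [(hy p hp).1]
  · simp only [mem_ofPred_eq]; linarith [(hy p hp).2]
  · obtain ⟨⟨⟨⟨hq1, hq2⟩, hq3⟩, hq4⟩, -⟩ := hq
    obtain ⟨⟨⟨⟨hq1', hq2'⟩, hq3'⟩, hq4'⟩, -⟩ := hq'
    simp only [mem_ofPred_eq] at hq2 hq3 hq4 hq2' hq3' hq4'
    have e1 : PhN K N δ q = tent K q.2 := by simp only [PhN, if_pos hq2, GN, hO1 q hq1, mul_one]
    have e2 : PhN K N δ q' = tent K q'.2 := by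
      simp only [PhN, if_pos hq2', GN, hO1 q' hq1', mul_one]
    rw [e1, e2]
    have h1 : |q.2 - q'.2| ≤ (y1 - y0) + 2 * η := by
      rw [abs_sub_le_iff]; constructor <;> linarith
    calc |tent K q.2 - tent K q'.2| ≤ Mt K * |q.2 - q'.2| := tent_lip K _ _
      _ ≤ Mt K * ((y1 - y0) + 2 * η) := mul_le_mul_of_nonneg_left h1 hM
      _ = Mt K * (y1 - y0) + Mt K * (2 * η) := by ring
      _ ≤ Mt K * (y1 - y0) + ε := by
        have : Mt K * (2 * η) ≤ ε := by
          rw [hη, ← mul_div_assoc, ← mul_div_assoc]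
          rw [div_le_iff₀ (by positivity)]
          nlinarith
        linarith

end Crest.Agent.R105.Stq_188
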