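import Crest.Agent.R105.Nip9_31
import Crest.Agent.R105.Nie1_909

/-!
# Row 105, S0138 (NI frame), leaf `STRP`, part 1 (helper46)

* `ni_of_acvG'` : small variation near `Y` along a.e. level of `A` implies `NI Y A f`, for `f` merely
  locally bounded (no continuity off `Y`), jumps countable and summable against those of `A`;
* `nie_coreG`  : 909's `nie_core` without compact support of the anchor and without `f ∈ TT`.
-/

set_option autoImplicit false

open MeasureTheory Set Filter Topology Metric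
open scoped NNReal ENNReal

namespace Crest.Agent.R105.Stq_46

open Thin_12 Sl_732 Bd_775 Tc_808 Ni_459 Crest.AnalysisR IfB_641
open Nip_31 (ll_x0 lb_x0 osp_x0 ni_x0 en_x0_fin dj_eq osp tt_sum jj_countable osp_eq pos_ae contAt)
open Vs_439 (mul measurable_mul lintegral_mul_le am_gm wdg_le_en measurable_en')
open Nie_909 (smv_of_liminf sqc measurable_sqc lintegral_sqc Wj isOpen_Wj sub_Wj tendsto_en
  tendsto_osc)

noncomputable section

variable {Y : Set ℂ} {A f a b x0 : ℂ → ℝ}

open Classical in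
/-- **small variation near `Y` along a.e. level of `A` implies a null image** (31's `ni_of_acvN`
without continuity of `f` off `Y`). -/
theorem ni_of_acvG' (hY : IsExteriorDomain Yᶜ) (hA : LB A) (hf : LB f)
    (hcf : {K : Cmp Y | dj Y f K ≠ 0}.Countable)
    (hw : ∑' K : Cmp Y, ENNReal.ofReal (dj Y A K) * ENNReal.ofReal (dj Y f K) ≠ ∞)
    (hlev : ∀ᵐ t : ℝ, Uni_659.NoIsland (Lv Y A t) ∧
      ∃ μ : Measure ℂ, SigmaFinite μ ∧
        ∀ C ⊆ Lv Y A t \ Y, IsCompact C → IsPreconnected C → C.Nontrivial → μ C ≠ 0)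
    (hacv : ∀ᵐ t : ℝ, ACV Y (Lv Y A t) f) : NI Y A f := by
  have hYc : IsCompact Y := cpt_of hY
  unfold NI
  refine le_antisymm (ENNReal.le_of_forall_pos_le_add fun ε hε _ => ?_) zero_le
  rw [zero_add]
  obtain ⟨J, hJ⟩ : ∃ J : Finset (Cmp Y), ∑' K : {K : Cmp Y // K ∉ J},
      ENNReal.ofReal (dj Y A K) * ENNReal.ofReal (dj Y f K) < ε := by
    have h1 := ENNReal.tendsto_tsum_compl_atTop_zero hw
    exact ((h1.eventually (gt_mem_nhds (show (0 : ℝ≥0∞) < ε by exact_mod_cast hε))).exists)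
  obtain ⟨F, hFc, hFY, hFJ, hFe⟩ := exists_exhaust hYc J
  set N : Set (ℝ × ℝ) := ⋃ k, Ni_459.ZF Y A f (F k) with hN
  have hNm : MeasurableSet N :=
    MeasurableSet.iUnion fun k => (Sl_732.isClosed_ZF hY hA hf (hFc k)).measurableSet
  set ι : Type := {K : Cmp Y // dj Y f K ≠ 0 ∧ K ∉ J} with hι
  have hιc : Countable ι := (hcf.mono fun K hK => hK.1).to_subtype
  -- the slices
  have slice : ∀ᵐ t : ℝ, volume (Prod.mk t ⁻¹' N) ≤
      ∑' K : ι, (Icc (lo Y A (Sl_732.pt K.1)) (up Y A (Sl_732.pt K.1))).indicator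
        (fun _ => ENNReal.ofReal (dj Y f K.1)) t := by
    filter_upwards [hlev, hacv] with t ⟨hLp, μ, hμ, pos⟩ ht
    have hLc : IsClosed (Lv Y A t) := by
      have h1 : IsClosed {z | lo Y A z ≤ t} := by
        rw [← isOpen_compl_iff]
        convert isOpen_lt_lo hY hA t using 1
        ext z; simp [not_le]
      have h2 : IsClosed {z | t ≤ up Y A z} := by
        rw [← isOpen_compl_iff]
        convert isOpen_up_lt hY hA t using 1
        ext z; simp [not_le]
      exact h1.inter h2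
    have hLs : Sl_732.Sat Y (Lv Y A t) := fun z hz hzY w hw => by
      refine ⟨?_, ?_⟩
      · rw [lo_congr_cc hzY hw]; exact hz.1
      · rw [up_congr_cc hzY hw]; exact hz.2
    set G : Set ℂ := {z | z ∈ Lv Y A t ∩ Y ∧ lo Y f z = up Y f z} with hG
    set g : ℂ → ℝ := fun z => if z ∈ Y then up Y f z else f z with hg
    have hnull : volume (g '' G) = 0 := by
      refine Nip_31.acv_nullN (E := Y) hYc hLc hLp hLs μ pos (b := g)
        (ht.congr fun z hz => if_neg hz.2) (fun z hz => hz.1) ?_ ?_ ?_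
      · intro z hz hzY w hw
        refine ⟨⟨hLs z hz.1.1 hzY hw, connectedComponentIn_subset _ _ hw⟩, ?_⟩
        rw [lo_congr_cc hzY hw, up_congr_cc hzY hw]
        exact hz.2
      · intro z hz w hw
        have hwY : w ∈ Y := connectedComponentIn_subset _ _ hw
        simp only [hg, if_pos hwY, if_pos hz.1.2]
        exact up_congr_cc hz.1.2 hw
      · intro z hz δ hδ
        obtain ⟨O, hO, h1⟩ := exists_lt_of_up_lt hY hf (show up Y f z < up Y f z + δ by linarith)
        obtain ⟨P, hP, h2⟩ := exists_gt_of_lt_lo hY hf (show lo Y f z - δ < lo Y f z by linarith)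
        refine ⟨O ∩ P, hO.op.inter hP.op, subset_inter hO.sub hP.sub, fun w hw => ?_⟩
        have h3 := h1 w hw.1.1 hw.2
        have h4 := h2 w hw.1.2 hw.2
        have h5 := hz.2
        simp only [hg, if_neg hw.2, if_pos hz.1.2]
        rw [abs_lt]
        constructor <;> linarith
    have hsub : Prod.mk t ⁻¹' N ⊆ g '' G ∪ ⋃ K : ι,
        {s | (lo Y A (Sl_732.pt K.1) ≤ t ∧ t ≤ up Y A (Sl_732.pt K.1)) ∧
          s ∈ Icc (lo Y f (Sl_732.pt K.1)) (up Y f (Sl_732.pt K.1))} := by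
      intro s hs
      obtain ⟨k, z, hz, h1, h2, h3, h4⟩ := mem_iUnion.1 hs
      simp only at h1 h2 h3 h4
      have hzY := hFY k hz
      by_cases hj : lo Y f z = up Y f z
      · left
        refine ⟨z, ⟨⟨⟨h1, h2⟩, hzY⟩, hj⟩, ?_⟩
        simp only [hg, if_pos hzY]
        linarith
      · right
        refine mem_iUnion.2 ⟨⟨cmp z hzY, ?_, hFJ k z hzY hz⟩, ?_⟩
        · unfold dj
          rw [Sl_732.up_pt, Sl_732.lo_pt]
          exact fun h => hj (by linarith)
        · refine ⟨⟨?_, ?_⟩, ?_, ?_⟩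
          · rw [Sl_732.lo_pt]; exact h1
          · rw [Sl_732.up_pt]; exact h2
          · rw [Sl_732.lo_pt]; exact h3
          · rw [Sl_732.up_pt]; exact h4
    refine (measure_mono hsub).trans ((measure_union_le _ _).trans ?_)
    rw [hnull, zero_add]
    refine (measure_iUnion_le _).trans (ENNReal.tsum_le_tsum fun K => ?_)
    by_cases hK : lo Y A (Sl_732.pt K.1) ≤ t ∧ t ≤ up Y A (Sl_732.pt K.1)
    · rw [indicator_of_mem (show t ∈ Icc _ _ from hK)]
      refine (measure_mono (t := Icc (lo Y f (Sl_732.pt K.1)) (up Y f (Sl_732.pt K.1)))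
        fun s hs => hs.2).trans ?_
      rw [Real.volume_Icc]
      exact le_rfl
    · rw [show {s | (lo Y A (Sl_732.pt K.1) ≤ t ∧ t ≤ up Y A (Sl_732.pt K.1)) ∧
        s ∈ Icc (lo Y f (Sl_732.pt K.1)) (up Y f (Sl_732.pt K.1))} = ∅ from by
          ext s; simp only [mem_ofPred_eq, mem_empty_iff_false, iff_false]; exact fun h => hK h.1]
      rw [measure_empty]
      exact zero_le
  have hNle : volume N ≤ ε := by
    rw [Measure.volume_eq_prod, Measure.prod_apply hNm]
    refine (lintegral_mono_ae slice).trans ?_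
    rw [lintegral_tsum fun K => (measurable_const.indicator measurableSet_Icc).aemeasurable]
    have h1 : ∀ K : ι, ∫⁻ t : ℝ, (Icc (lo Y A (Sl_732.pt K.1)) (up Y A (Sl_732.pt K.1))).indicator
        (fun _ => ENNReal.ofReal (dj Y f K.1)) t =
        ENNReal.ofReal (dj Y A K.1) * ENNReal.ofReal (dj Y f K.1) := by
      intro K
      rw [lintegral_indicator_const measurableSet_Icc, Real.volume_Icc, mul_comm]
      rfl
    simp_rw [h1]
    refine le_trans ?_ hJ.le
    exact ENNReal.tsum_comp_le_tsum_of_injective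
      (f := fun K : ι => (⟨K.1, K.2.2⟩ : {K : Cmp Y // K ∉ J}))
      (fun K K' h => Subtype.ext (by simpa using h))
      (fun K : {K : Cmp Y // K ∉ J} => ENNReal.ofReal (dj Y A K) * ENNReal.ofReal (dj Y f K))
  have hsub : NP Y A f ⊆ N ∪
      ((fun K : Cmp Y => (up Y A (Sl_732.pt K), up Y f (Sl_732.pt K))) '' (J : Set (Cmp Y))) := by
    rintro p ⟨z, hz, h1, h2, h3, h4⟩
    by_cases hzJ : cmp z hz ∈ J
    · right
      refine ⟨_, hzJ, ?_⟩
      simp only
      rw [Sl_732.up_pt, Sl_732.up_pt, h2, h4]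
    · left
      obtain ⟨k, hk⟩ := hFe z hz hzJ
      exact mem_iUnion.2 ⟨k, z, hk, h1.le, h2.ge, h3.le, h4.ge⟩
  refine (measure_mono hsub).trans ((measure_union_le _ _).trans ?_)
  have hfin : volume ((fun K : Cmp Y => (up Y A (Sl_732.pt K), up Y f (Sl_732.pt K))) ''
      (J : Set (Cmp Y))) = 0 := (J.finite_toSet.image _).measure_zero _
  rw [hfin, add_zero]
  exact hNle

/-- levels of `x0 + a`: no islands, continua are charged -/
theorem lev_x0 (hY : IsExteriorDomain Yᶜ) (hx : X0 Y x0) (ha : TT Y a)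
    (hs : Swd Y (fun z => x0 z + a z)) :
    ∀ᵐ t : ℝ, Uni_659.NoIsland (Lv Y (fun z => x0 z + a z) t) ∧
      ∃ μ : Measure ℂ, SigmaFinite μ ∧ ∀ C ⊆ Lv Y (fun z => x0 z + a z) t \ Y,
        IsCompact C → IsPreconnected C → C.Nontrivial → μ C ≠ 0 := by
  have hA := ll_x0 hx ha
  have hAb := lb_x0 hx ha
  filter_upwards [pos_ae hY hA hAb (en_x0_fin hY hx ha)] with t ht
  obtain ⟨μ, hμ, hμC⟩ := ht
  exact ⟨Uni_659.noIsland_nLv hY hAb (fun z hz => contAt hY hA hz) hs t, μ,
    inferInstance, hμC⟩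

/-- **`ACV` on a.e. level of a switched anchor implies `NI`**, `f` locally bounded, with countable
jumps summable against those of `a`. -/
theorem ni_of_acv_x0 (hY : IsExteriorDomain Yᶜ) (hx : X0 Y x0) (ha : TT Y a)
    (hs : Swd Y (fun z => x0 z + a z)) (hf : LB f) {u : ℂ → ℝ} (hu : TT Y u)
    (hd : ∀ K : Cmp Y, dj Y f K ≤ osc Y u K.1)
    (hacv : ∀ᵐ t, ACV Y (Lv Y (fun z => x0 z + a z) t) f) : NI Y a f := by
  have hA := ll_x0 hx ha
  have hAb := lb_x0 hx ha
  have hyc : ∀ K : Cmp Y, osp Y (fun w => x0 w + a w) (Nip_31.pt K) = osp Y a (Nip_31.pt K) :=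
    osp_x0 hx
  have hd0 : ∀ K : Cmp Y, 0 ≤ dj Y f K := fun K => by
    have hK := K.subset (Nip_31.pt_mem K)
    rw [dj_eq]
    exact sub_nonneg.2 (lo_le_up hY hf (Nip_31.pt K))
  rw [← ni_x0 hx]
  refine ni_of_acvG' hY hAb hf ?_ ?_ (lev_x0 hY hx ha hs) hacv
  · refine (jj_countable hY hu).mono fun K hK => ?_
    have h1 : osc Y u K.1 ≠ 0 := fun h => hK (le_antisymm ((hd K).trans h.le) (hd0 K))
    rw [← osp_eq hY hu] at h1
    exact fun h => h1 (by unfold osp; linarith)
  · refine ne_top_of_le_ne_top (tt_sum hY ha hu) (ENNReal.tsum_le_tsum fun K => ?_)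
    rw [dj_eq (fun w => x0 w + a w), hyc, osp_eq hY hu]
    gcongr
    exact hd K

end

end Crest.Agent.R105.Stq_46
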