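import Crest.Agent.R105.Stp7_722

/-!
Row 105 (Koebe), S0138, task 2496 (part (4) of #10357): the STEP (5)(b) for components which are
**not** hairs (solids with attached pieces).  Frame free.  Instead of `InjOn h` on the components
(Stp6/Stp7_722) only the oscillation of the *slices* `cc E x ∩ {h = t}` is used, and the family
treated is the part of the components with large oscillation inside a compact clopen `E'`.
-/

set_option autoImplicit false
set_option linter.unusedSectionVars false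

open Set Filter Topology Metric

namespace Crest.Agent.R105.Stq_483

open Crest.Agent.R105.Stp_722

local notation "cc" => connectedComponentIn

variable {X : Type*} [TopologicalSpace X] [T2Space X] {V E : Set X} {h : X → ℝ}

section slice

variable {B τ : ℝ} {z c χ : X → ℝ}

/-- growth of the oscillation of a slice: only the jump of `z` counts. -/
theorem growth_slice (hh : Continuous h) (hτ : 0 < τ) {S : Set X} {t : ℝ}
    (hSt : S ⊆ {x | h x = t}) {N : Set X} (hN : IsOpen N)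
    (hpN : S ⊆ N) {k A m a : ℝ} (hA0 : 0 ≤ A) (hm0 : 0 ≤ m)
    (hc : ∀ q ∈ N ∩ V, c q = k) (hA : ∀ q ∈ N ∩ V, |χ q - k| ≤ A)
    (hz01 : ∀ x, 0 ≤ z x ∧ z x ≤ 1)
    (hz : OscLe (V ∩ {x | h x < B}) (S ∩ {x | h x ≤ B}) z m) (ha : OscLe V S χ a) :
    OscLe V S (op h B τ z c χ) (a + m * A) := by
  have hmA : 0 ≤ m * A := mul_nonneg hm0 hA0
  rcases lt_or_ge B t with h1 | h1
  · -- above the level nothing changes
    refine (ha.congr (O := {x | B < h x}) (isOpen_lt continuous_const hh)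
      (fun x hx => ?_) fun q hq => op_eq_of_le hτ (le_of_lt hq.1)).mono (by linarith)
    have : h x = t := hSt hx
    simp only [mem_ofPred_eq]
    rw [this]; exact h1
  intro ε hε
  set e' := ε / (4 * (A + 1)) with he'
  have he'0 : 0 < e' := by positivity
  have hεA : e' * A ≤ ε / 4 := by
    rw [he', div_mul_eq_mul_div, div_le_div_iff₀ (by positivity) (by norm_num)]
    nlinarith
  obtain ⟨O, hO, hPO, H⟩ := ha (ε / 2) (by linarith)
  obtain ⟨Oz, hOz, hPOz, Hz⟩ := hz e' he'0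
  have hpz : S ⊆ Oz := fun x hx => hPOz ⟨hx, by
    have : h x = t := hSt hx
    simp only [mem_ofPred_eq]
    rw [this]; exact h1⟩
  -- near the slice the ramp varies by less than `e'`
  have hcont : Continuous fun x => th B τ (h x) := by unfold th; fun_prop
  set Oθ : Set X := {x | |th B τ (h x) - th B τ t| < e' / 2} with hOθ
  have hOθo : IsOpen Oθ := isOpen_lt (by fun_prop) continuous_const
  have hpθ : S ⊆ Oθ := by
    intro x hx
    have : h x = t := hSt hx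
    simp only [hOθ, mem_ofPred_eq, this, sub_self, abs_zero]
    linarith
  -- the weight varies by at most `m + 2 e'`
  have hw : ∀ q ∈ (Oz ∩ Oθ) ∩ V, ∀ q' ∈ (Oz ∩ Oθ) ∩ V,
      |th B τ (h q) * z q - th B τ (h q') * z q'| ≤ m + 2 * e' := by
    intro q hq q' hq'
    have t0 : |th B τ (h q) - th B τ t| < e' / 2 := hq.1.2
    have t0' : |th B τ (h q') - th B τ t| < e' / 2 := hq'.1.2
    have t1 := abs_lt.1 t0
    have t2 := abs_lt.1 t0'
    have hθ : |th B τ (h q) - th B τ (h q')| ≤ e' := by rw [abs_le]; constructor <;> linarith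
    obtain ⟨z0, z1⟩ := hz01 q
    obtain ⟨z0', z1'⟩ := hz01 q'
    have s0 := th_nonneg B τ (h q)
    have s1 := th_le_one B τ (h q)
    have s0' := th_nonneg B τ (h q')
    have s1' := th_le_one B τ (h q')
    rcases le_or_gt B (h q) with h2 | h2
    · -- `θ q = 0`
      have z : th B τ (h q) = 0 := th_eq_zero hτ h2
      rw [z] at hθ ⊢
      rw [zero_mul, zero_sub, abs_neg, abs_of_nonneg (mul_nonneg s0' z0')]
      rw [zero_sub, abs_neg, abs_of_nonneg s0'] at hθ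
      have := mul_le_mul hθ z1' z0' (by linarith)
      linarith
    rcases le_or_gt B (h q') with h3 | h3
    · have z : th B τ (h q') = 0 := th_eq_zero hτ h3
      rw [z] at hθ ⊢
      rw [zero_mul, sub_zero, abs_of_nonneg (mul_nonneg s0 z0)]
      rw [sub_zero, abs_of_nonneg s0] at hθ
      have := mul_le_mul hθ z1 z0 (by linarith)
      linarith
    have hzz := Hz q ⟨hq.1.1, hq.2, h2⟩ q' ⟨hq'.1.1, hq'.2, h3⟩
    have e : th B τ (h q) * z q - th B τ (h q') * z q' =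
        (th B τ (h q) - th B τ (h q')) * z q + th B τ (h q') * (z q - z q') := by ring
    rw [e]
    calc _ ≤ |(th B τ (h q) - th B τ (h q')) * z q| + |th B τ (h q') * (z q - z q')| :=
          abs_add_le _ _
      _ = |th B τ (h q) - th B τ (h q')| * z q + th B τ (h q') * |z q - z q'| := by
          rw [abs_mul, abs_mul, abs_of_nonneg z0, abs_of_nonneg s0']
      _ ≤ e' * 1 + 1 * (m + e') := by gcongr
      _ = m + 2 * e' := by ring
  refine ⟨(O ∩ N) ∩ (Oz ∩ Oθ), (hO.inter hN).inter (hOz.inter hOθo), ?_, ?_⟩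
  · exact subset_inter (subset_inter hPO hpN) (subset_inter hpz hpθ)
  · intro q hq q' hq'
    have hqN : q ∈ N ∩ V := ⟨hq.1.1.2, hq.2⟩
    have hqN' : q' ∈ N ∩ V := ⟨hq'.1.1.2, hq'.2⟩
    have h7 := H q ⟨hq.1.1.1, hq.2⟩ q' ⟨hq'.1.1.1, hq'.2⟩
    have h8 := abs_combo_le (a := χ q) (w_nonneg (h := h) (B := B) (τ := τ) hz01 q)
      (w_le_one hz01 q) (hw q ⟨hq.1.2, hq.2⟩ q' ⟨hq'.1.2, hq'.2⟩) (hA q' hqN')
    unfold op
    rw [hc q hqN, hc q' hqN']
    have h9 : (m + 2 * e') * A = m * A + 2 * (e' * A) := by ring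
    linarith

variable {n : ℕ} {N : Fin n → Set X} {k : Fin n → ℝ} {m A : ℝ}

/-- growth of a slice in a one-sided operation. -/
theorem slice_side (hN : Pieces E N) (hh : Continuous h) (hτ : 0 < τ)
    (hz : Cut V E h B (⋃ i, N i) m z) (hm0 : 0 ≤ m) (hA0 : 0 ≤ A)
    (hA : ∀ i, ∀ q ∈ N i ∩ V, |χ q - k i| ≤ A)
    {x : X} (hx : x ∈ E) {S : Set X} (hS : S ⊆ cc E x) {t : ℝ} (hSt : S ⊆ {y | h y = t}) {b : ℝ}
    (hb : OscLe V S χ b) :
    OscLe V S (op h B τ z (cst N k) χ) (b + m * A) := by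
  have hmA : 0 ≤ m * A := mul_nonneg hm0 hA0
  by_cases hne : ∃ i, (cc E x ∩ N i).Nonempty
  · obtain ⟨i, hi⟩ := hne
    have hKN := hN.sat i x hx hi
    exact growth_slice hh hτ hSt (hN.opn i) (hS.trans hKN) (c := cst N k) (k := k i) hA0 hm0
      (fun q hq => hN.cst_eq hq.1 k) (hA i) hz.z01 ((hz.osc x hx).mono_set
      (inter_subset_inter_left _ hS)) hb
  · obtain ⟨C, hC, hCW, hC0⟩ := hz.supp
    refine (growth_off hC hC0 ?_ hb).mono (by linarith)
    rw [Set.disjoint_left]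
    intro y hyS hyC
    obtain ⟨i, hi⟩ := mem_iUnion.1 (hCW hyC)
    exact hne ⟨i, y, hS hyS, hi⟩

end slice

section data

variable {n : ℕ} {N : Fin n → Set X} {k k' lo hi : Fin n → ℝ} {B B' τ m A η : ℝ}
  {z z' χ : X → ℝ}

theorem Data.slice (D : Data V E h N k k' lo hi B B' τ m A η z z' χ) {x : X} (hx : x ∈ E)
    {S : Set X} (hS : S ⊆ cc E x) {t : ℝ} (hSt : S ⊆ {y | h y = t}) {b : ℝ}
    (hb : OscLe V S χ b) :
    OscLe V S (op2 h B B' τ z z' (cst N k) (cst N k') χ) (b + 2 * (m * A)) := by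
  have h1 := slice_side D.hN D.hh D.hτ D.hz D.hm0 D.hA0 D.hA1 hx hS hSt hb
  have h2 := slice_side (k := k') D.hN D.hh.neg D.hτ D.hz' D.hm0 D.hA0 D.hA2 hx hS (t := -t)
    (fun y hy => by
      have : h y = t := hSt hy
      change (-h) y = -t
      simp [this]) h1
  exact h2.mono (by linarith)

end data

theorem choose_const' {N V : Set X} {χ : X → ℝ} {B τ η lo hi R : ℝ}
    (hR : ∀ x, |χ x| ≤ R) (hle : lo ≤ hi) (hlo : |lo| ≤ R) (hlh : ∀ q ∈ N ∩ V, χ q ∈ Icc lo hi)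
    (hp : ∀ q ∈ N ∩ V, ∀ q' ∈ N ∩ V, |h q - B| < 2 * τ → |h q' - B| < 2 * τ → |χ q - χ q'| ≤ η) :
    ∃ k, |k| ≤ R ∧ k ∈ Icc lo hi ∧
      ∀ q ∈ N ∩ V, |h q - B| < 2 * τ → |χ q - k| ≤ η := by
  by_cases h1 : ∃ q ∈ N ∩ V, |h q - B| < 2 * τ
  · obtain ⟨q, hq, hqB⟩ := h1
    exact ⟨χ q, hR q, hlh q hq, fun q' hq' h' => hp q' hq' q hq h' hqB⟩
  · push Not at h1
    exact ⟨lo, hlo, ⟨le_rfl, hle⟩, fun q' hq' h' => absurd h' (not_lt.2 (h1 q' hq'))⟩

/-- black box: as `Stp_722.LayerOp`, for the pairs `(B, B', G)` allowed by `Ok`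
(`Ok B B' G` = no solid in `G` has both levels in its window). -/
def LayerOp (V E : Set X) (h : X → ℝ) (Ok : ℝ → ℝ → Set X → Prop) (Cl : (X → ℝ) → Prop)
    (D : (X → ℝ) → (X → ℝ) → ℝ → Prop) : Prop :=
  ∀ (B B' : ℝ) (G W : Set X) (χ c c' : X → ℝ) (R τ m ε : ℝ), B < B' → IsCompact G → G ⊆ E →
    Ok B B' G →
    (∀ x ∈ G, ∀ y ∈ cc E x, y ∈ G) → IsOpen W → G ⊆ W →
    (∀ x ∈ G, (∃ y ∈ cc E x, h y ≤ B) ∧ ∃ y ∈ cc E x, B' ≤ h y) →
    Cl χ → (∀ x, |χ x| ≤ R) → (∀ x, |c x| ≤ R) → (∀ x, |c' x| ≤ R) →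
    (∀ x ∈ W, ∀ᶠ y in 𝓝 x, c y = c x) → (∀ x ∈ W, ∀ᶠ y in 𝓝 x, c' y = c' x) →
    0 < τ → 0 < m → 0 < ε →
    ∃ z z' : X → ℝ, Cut V E h B W m z ∧ Cut V E (fun x => - h x) (-B') W m z' ∧
      (∀ x ∈ G, OneOn V h B (cc E x) z ∨ OneOn V (fun x => - h x) (-B') (cc E x) z') ∧
      Cl (op2 h B B' τ z z' c c' χ) ∧ D χ (op2 h B B' τ z z' c c' χ) ε

/-- standing assumptions of the STEP, without injectivity -/
structure Setup (V E : Set X) (h : X → ℝ) (Ok : ℝ → ℝ → Set X → Prop) (Cl : (X → ℝ) → Prop)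
    (D : (X → ℝ) → (X → ℝ) → ℝ → Prop) : Prop where
  hE : IsCompact E
  hh : Continuous h
  /-- portions of components: every level between two heights is attained at a visible point -/
  lev : ∀ x ∈ E, ∀ I : Set ℝ, I.OrdConnected → Lev V h (cc E x ∩ h ⁻¹' I)
  D0 : ∀ χ, Cl χ → D χ χ 0
  Dadd : ∀ χ₁ χ₂ χ₃ s t, D χ₁ χ₂ s → D χ₂ χ₃ t → D χ₁ χ₃ (s + t)
  layer : LayerOp V E h Ok Cl D

theorem Setup.lev_cc {Ok : ℝ → ℝ → Set X → Prop} {Cl : (X → ℝ) → Prop}
    {D : (X → ℝ) → (X → ℝ) → ℝ → Prop} (S : Setup V E h Ok Cl D) {x : X} (hx : x ∈ E) :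
    Lev V h (cc E x) := by
  have := S.lev x hx univ ordConnected_univ
  simpa using this

/-- the family: components with oscillation at least `b` inside the clopen part `E'`. -/
def gfam (V E E' : Set X) (φ : X → ℝ) (b : ℝ) : Set X := gset V E φ b ∩ E'

/-- the part `E'` of `E` -/
structure Part (E E' : Set X) : Prop where
  sub : E' ⊆ E
  cpt : IsCompact E'
  cpt' : IsCompact (E \ E')

theorem Part.sat {E' : Set X} (hP : Part E E') {x y : X} (hx : x ∈ E') (hy : y ∈ cc E x) :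
    y ∈ E' := by
  have hpre : IsPreconnected (cc E x) := isPreconnected_connectedComponentIn
  by_contra hyE
  obtain ⟨A, B, hA, hB, hEA, hEB, hAB⟩ := SeparatedNhds.of_isCompact_isCompact hP.cpt hP.cpt'
    disjoint_sdiff_self_right
  have hcov : cc E x ⊆ A ∪ B := fun w hw => by
    by_cases hw' : w ∈ E'
    · exact Or.inl (hEA hw')
    · exact Or.inr (hEB ⟨connectedComponentIn_subset E x hw, hw'⟩)
  obtain ⟨w, hw, hwA, hwB⟩ := hpre A B hA hB hcov
    ⟨x, mem_connectedComponentIn (hP.sub hx), hEA hx⟩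
    ⟨y, hy, hEB ⟨connectedComponentIn_subset E x hy, hyE⟩⟩
  exact Set.disjoint_left.1 hAB hwA hwB

theorem Part.sat' {E' : Set X} (hP : Part E E') {x : X} (hx : x ∈ E \ E') :
    ∃ O, IsOpen O ∧ cc E x ⊆ O ∧ ∀ y ∈ E, cc E y ⊆ O → y ∉ E' := by
  refine ⟨E'ᶜ, hP.cpt.isClosed.isOpen_compl, ?_, ?_⟩
  · intro y hy hyE
    have hxy : x ∈ cc E y := by
      rw [cc_eq hy]; exact mem_connectedComponentIn hx.1
    exact hx.2 (hP.sat hyE hxy)
  · intro y hy hyO hyE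
    exact hyO (mem_connectedComponentIn hy) hyE

theorem gfam_sat {E' : Set X} (hP : Part E E') {φ : X → ℝ} {b : ℝ} {x y : X}
    (hx : x ∈ gfam V E E' φ b) (hy : y ∈ cc E x) : y ∈ gfam V E E' φ b :=
  ⟨gset_sat hx.1 hy, hP.sat hx.2 hy⟩

theorem gfam_open {E' : Set X} (hP : Part E E') {φ : X → ℝ} {b : ℝ} :
    ∀ x ∈ E \ gfam V E E' φ b, ∃ O, IsOpen O ∧ cc E x ⊆ O ∧ ∀ y ∈ E, cc E y ⊆ O →
      y ∉ gfam V E E' φ b := by
  rintro x ⟨hxE, hx⟩
  by_cases hxE' : x ∈ E'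
  · have hx1 : x ∉ gset V E φ b := fun h1 => hx ⟨h1, hxE'⟩
    simp only [gset, mem_ofPred_eq, not_and, not_not] at hx1
    obtain ⟨c, hc, hosc⟩ := hx1 hxE
    obtain ⟨O, hO, hxO, H⟩ := hosc.exists_nhds (show c < (c + b) / 2 by linarith)
    exact ⟨O, hO, hxO, fun y _ hyO hyg => hyg.1.2 ⟨(c + b) / 2, by linarith, H _ hyO⟩⟩
  · obtain ⟨O, hO, hxO, H⟩ := hP.sat' ⟨hxE, hxE'⟩
    exact ⟨O, hO, hxO, fun y hy hyO hyg => H y hy hyO hyg.2⟩

theorem isCompact_gfam (hE : IsCompact E) {E' : Set X} (hP : Part E E') {φ : X → ℝ} {b : ℝ} :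
    IsCompact (gfam V E E' φ b) :=
  isCompact_of_comp hE (fun _ hx => hx.1.1) (gfam_open hP)

theorem isCompact_cross_gfam (hE : IsCompact E) (hh : Continuous h) {E' : Set X}
    (hP : Part E E') {φ : X → ℝ} {b : ℝ} (B B' : ℝ) :
    IsCompact (cross E h (gfam V E E' φ b) B B') :=
  isCompact_cross hE hh (fun _ hx => hx.1.1) (gfam_open hP) B B'

/-- invariants after the first `i` levels -/
structure Inv (V E : Set X) (h : X → ℝ) (Cl : (X → ℝ) → Prop)
    (D : (X → ℝ) → (X → ℝ) → ℝ → Prop) (φ : X → ℝ) (R : ℝ) {l : ℕ} (N0 : Fin l → Set X)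
    (lo hi : Fin l → ℝ) (g : Set X) (μ A σ0 σ1 ε1 e1 : ℝ) (Bs : ℕ → ℝ) (i : ℕ) (χ : X → ℝ) :
    Prop where
  cl : Cl χ
  bd : ∀ x, |χ x| ≤ R
  en : D φ χ (i * e1)
  hull : ∀ l, ∀ q ∈ N0 l ∩ V, χ q ∈ Icc (lo l) (hi l)
  hull2 : ∀ l, ∀ q ∈ N0 l, χ q ∈ Icc (min (lo l) (φ q)) (max (hi l) (φ q))
  off : ∀ x ∉ ⋃ l, N0 l, χ x = φ x
  slice : ∀ x ∈ g, ∀ t, OscLe V (cc E x ∩ {y | h y = t}) χ (σ0 + i * (2 * (μ * A)))
  grow : ∀ x ∈ E, ∀ P ⊆ cc E x, Lev V h P → ∀ b, OscLe V P φ b →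
    OscLe V P χ (b + i * (2 * (μ * A + 2 * (σ1 + ε1))))
  sgrow : ∀ x ∈ E, ∀ P ⊆ cc E x, ∀ t, P ⊆ {y | h y = t} → ∀ b, OscLe V P φ b →
    OscLe V P χ (b + i * (2 * (μ * A)))
  hist : ∀ j < i, ∀ x ∈ g,
    OscLe V (cc E x ∩ {y | h y ≤ Bs j}) χ
      (2 * (σ1 + ε1) + i * (2 * (μ * A + 2 * (σ1 + ε1)))) ∨
    OscLe V (cc E x ∩ {y | Bs (j + 1) ≤ h y}) χ
      (2 * (σ1 + ε1) + i * (2 * (μ * A + 2 * (σ1 + ε1))))

theorem Inv.step {Ok : ℝ → ℝ → Set X → Prop} {Cl : (X → ℝ) → Prop}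
    {D : (X → ℝ) → (X → ℝ) → ℝ → Prop} (S : Setup V E h Ok Cl D) {φ ψ : X → ℝ} {R b0 : ℝ} {l : ℕ}
    {E' : Set X} (hE' : Part E E')
    {N0 : Fin l → Set X} (hN0 : Pieces E N0) {lo hi : Fin l → ℝ}
    {m : ℕ} {μ A σ0 σ1 ε1 e1 : ℝ} (C : Const V R N0 lo hi m μ A σ0 σ1 ε1) (he1 : 0 < e1)
    (hLH : ∀ i, lo i ≤ hi i ∧ |lo i| ≤ R)
    (hcov : gfam V E E' ψ b0 ⊆ ⋃ l, N0 l)
    {Bs : ℕ → ℝ} (hBs : ∀ i, Bs i < Bs (i + 1)) {i : ℕ} (him : i < m)
    (hok : Ok (Bs i) (Bs (i + 1)) (cross E h (gfam V E E' ψ b0) (Bs i) (Bs (i + 1)))) {χ : X → ℝ}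
    (I : Inv V E h Cl D φ R N0 lo hi (gfam V E E' ψ b0) μ A σ0 σ1 ε1 e1 Bs i χ) :
    ∃ χ', Inv V E h Cl D φ R N0 lo hi (gfam V E E' ψ b0) μ A σ0 σ1 ε1 e1 Bs (i + 1) χ' ∧
      ∀ x ∉ ⋃ l, N0 l, χ' x = χ x := by
  classical
  set g := gfam V E E' ψ b0 with hg
  have hgE : g ⊆ E := fun _ hx => hx.1.1
  have hgsat : ∀ x ∈ g, ∀ y ∈ cc E x, y ∈ g := fun x hx y hy => gfam_sat hE' hx hy
  set G := cross E h g (Bs i) (Bs (i + 1)) with hG
  have hGc : IsCompact G := isCompact_cross_gfam S.hE S.hh hE' _ _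
  have hGg : G ⊆ g := fun x hx => hx.1
  have hη0 : 0 ≤ σ1 + ε1 := by have := C.σ10; have := C.ε0; linarith
  have hμA : 0 ≤ μ * A := mul_nonneg C.μ0.le C.A0
  set gg := 2 * (μ * A + 2 * (σ1 + ε1)) with hgg
  have hgg0 : 0 ≤ gg := by rw [hgg]; linarith
  have hsl0 : ∀ x ∈ G, ∀ t, OscLe V (cc E x ∩ {y | h y = t}) χ σ1 := fun x hx t =>
    (I.slice x (hGg hx) t).mono (C.σ i him)
  obtain ⟨n, p, N, τ, hN, hGN, hp, hNO, hτ, hτB, hsl, hsl'⟩ := fine_data (V := V) S.hE S.hh hGc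
    (hGg.trans hgE) C.ε0 (hBs i)
    (fun x hx => hsl0 x hx (Bs i))
    (fun x hx => hsl0 x hx (Bs (i + 1)))
    (fun x => ⋃ j, ⋃ (_ : x ∈ N0 j), N0 j)
    (fun x _ => isOpen_iUnion fun j => isOpen_iUnion fun _ => hN0.opn j)
    (fun x hx => by
      obtain ⟨j, hj⟩ := mem_iUnion.1 (hcov (hGg hx))
      refine subset_trans ?_ (subset_iUnion_of_subset j (subset_iUnion_of_subset hj Subset.rfl))
      exact hN0.sat _ x (hgE (hGg hx)) ⟨x, mem_connectedComponentIn (hgE (hGg hx)), hj⟩)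
  have hl : ∀ j : Fin n, ∃ j0, p j ∈ N0 j0 := fun j => mem_iUnion.1 (hcov (hGg (hp j)))
  choose lx hlx using hl
  have hNN0 : ∀ j, N j ⊆ N0 (lx j) := by
    intro j y hy
    have h1 := hNO j hy
    simp only [mem_iUnion] at h1
    obtain ⟨j0, hj0, hy0⟩ := h1
    have : lx j = j0 := by
      by_contra hne
      exact Set.disjoint_left.1 (hN0.disj _ _ hne) (hlx j) hj0
    rw [this]; exact hy0
  have hhull : ∀ j, ∀ q ∈ N j ∩ V, χ q ∈ Icc (lo (lx j)) (hi (lx j)) := fun j q hq =>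
    I.hull _ q ⟨hNN0 j hq.1, hq.2⟩
  choose k hkR hkI hkη using fun j => choose_const' (h := h) I.bd (hLH (lx j)).1 (hLH (lx j)).2
    (hhull j) (hsl j)
  choose k' hkR' hkI' hkη' using fun j => choose_const' (h := h) I.bd (hLH (lx j)).1
    (hLH (lx j)).2 (hhull j) (hsl' j)
  obtain ⟨z, z', hz, hz', hone, hcl, hen⟩ := S.layer (Bs i) (Bs (i + 1)) G (⋃ j, N j) χ (cst N k)
    (cst N k') R τ μ e1 (hBs i) hGc (hGg.trans hgE) hok (fun x hx y hy => cross_sat hgsat hx hy)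
    (isOpen_iUnion hN.opn) hGN (fun x hx => hx.2) I.cl I.bd (cst_abs_le C.R0 hkR)
    (cst_abs_le C.R0 hkR') (hN.cst_loc k) (hN.cst_loc k') hτ C.μ0 he1
  have Da : Data V E h N k k' (fun j => lo (lx j)) (fun j => hi (lx j)) (Bs i)
      (Bs (i + 1)) τ μ A (σ1 + ε1) z z' χ :=
    { hh := S.hh, hN := hN, hBB := hBs i, hτ := hτ, hτB := hτB, hm0 := C.μ0.le, hA0 := C.A0,
      hη0 := hη0, hz := hz, hz' := hz', hlh := fun j => C.lh _, hχ := hhull,
      hk := fun j _ _ => hkI j, hk' := fun j _ _ => hkI' j, hη := hkη, hη' := hkη' }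
  have hNsub : (⋃ j, N j) ⊆ ⋃ l, N0 l := by
    refine iUnion_subset fun j => (hNN0 j).trans (subset_iUnion N0 _)
  have hoff : ∀ x ∉ ⋃ l, N0 l, op2 h (Bs i) (Bs (i + 1)) τ z z' (cst N k) (cst N k') χ x = χ x :=
    fun x hx => Da.off fun hx' => hx (hNsub hx')
  have hcast : ((i + 1 : ℕ) : ℝ) = (i : ℝ) + 1 := by push_cast; ring
  refine ⟨op2 h (Bs i) (Bs (i + 1)) τ z z' (cst N k) (cst N k') χ, ?_, hoff⟩
  refine ⟨hcl, fun x => Da.bound I.bd hkR hkR' x, ?_, ?_, ?_, ?_, ?_, ?_, ?_, ?_⟩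
  · have := S.Dadd _ _ _ _ _ I.en hen
    rw [hcast]
    convert this using 1
    ring
  · intro j q hq
    by_cases hqN : q ∈ ⋃ j, N j
    · obtain ⟨j', hj'⟩ := mem_iUnion.1 hqN
      have h1 := Da.hull2 j' q ⟨hj', hq.2⟩
      have h2 : lx j' = j := by
        by_contra hne
        exact Set.disjoint_left.1 (hN0.disj _ _ hne) (hNN0 j' hj') hq.1
      simpa only [h2] using h1
    · rw [Da.off hqN]
      exact I.hull j q hq
  · intro j q hq
    by_cases hqN : q ∈ ⋃ j, N j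
    · obtain ⟨j', hj'⟩ := mem_iUnion.1 hqN
      have h2 : lx j' = j := by
        by_contra hne
        exact Set.disjoint_left.1 (hN0.disj _ _ hne) (hNN0 j' hj') hq
      have hk1 : k j' ∈ Icc (min (lo j) (φ q)) (max (hi j) (φ q)) := by
        have := hkI j'
        rw [h2] at this
        exact ⟨(min_le_left _ _).trans this.1, this.2.trans (le_max_left _ _)⟩
      have hk2 : k' j' ∈ Icc (min (lo j) (φ q)) (max (hi j) (φ q)) := by
        have := hkI' j'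
        rw [h2] at this
        exact ⟨(min_le_left _ _).trans this.1, this.2.trans (le_max_left _ _)⟩
      exact op_mem_Icc hz'.z01 (op_mem_Icc hz.z01 (I.hull2 j q hq)
        (by rw [hN.cst_eq hj']; exact hk1)) (by rw [hN.cst_eq hj']; exact hk2)
    · rw [Da.off hqN]
      exact I.hull2 j q hq
  · intro x hx
    rw [hoff x hx]
    exact I.off x hx
  · intro x hx t
    have := Data.slice Da (hgE hx) (S := cc E x ∩ {y | h y = t}) inter_subset_left
      inter_subset_right (I.slice x hx t)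
    rw [hcast]
    refine this.mono (le_of_eq ?_)
    ring
  · intro x hx P hP hPl b hb
    have := Da.growth hx hP hPl (I.grow x hx P hP hPl b hb)
    rw [hcast]
    refine this.mono (le_of_eq ?_)
    ring
  · intro x hx P hP t hPt b hb
    have := Data.slice Da hx hP hPt (I.sgrow x hx P hP t hPt b hb)
    rw [hcast]
    refine this.mono (le_of_eq ?_)
    ring
  · intro j hj x hx
    have hxE := hgE hx
    have hgrow : ∀ I' : Set ℝ, I'.OrdConnected → ∀ b, OscLe V (cc E x ∩ h ⁻¹' I') χ b →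
        OscLe V (cc E x ∩ h ⁻¹' I')
          (op2 h (Bs i) (Bs (i + 1)) τ z z' (cst N k) (cst N k') χ) (b + gg) := by
      intro I' hI' b hb
      exact Da.growth hxE inter_subset_left (S.lev x hxE I' hI') hb
    have e1' : 2 * (σ1 + ε1) + ((i + 1 : ℕ) : ℝ) * gg =
        (2 * (σ1 + ε1) + (i : ℝ) * gg) + gg := by
      rw [hcast]; ring
    rcases Nat.lt_succ_iff_lt_or_eq.1 hj with hj | rfl
    · rcases I.hist j hj x hx with h1 | h1
      · left
        rw [e1']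
        exact hgrow (Iic (Bs j)) ordConnected_Iic _ h1
      · right
        rw [e1']
        exact hgrow (Ici (Bs (j + 1))) ordConnected_Ici _ h1
    · have hbig : 2 * (σ1 + ε1) ≤ 2 * (σ1 + ε1) + ((j + 1 : ℕ) : ℝ) * gg := by
        have : 0 ≤ ((j + 1 : ℕ) : ℝ) * gg := by positivity
        linarith
      by_cases hxG : x ∈ G
      · obtain ⟨j', hj'⟩ := mem_iUnion.1 (hGN hxG)
        have hKj : cc E x ⊆ N j' := hN.sat _ x hxE ⟨x, mem_connectedComponentIn hxE, hj'⟩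
        rcases Da.flat hKj (hone x hxG) with h1 | h1
        · exact Or.inl (h1.mono hbig)
        · exact Or.inr (h1.mono hbig)
      · have hnot : ¬ ((∃ y ∈ cc E x, h y ≤ Bs j) ∧ ∃ y ∈ cc E x, Bs (j + 1) ≤ h y) := fun h' =>
          hxG ⟨hx, h'⟩
        rw [not_and_or] at hnot
        rcases hnot with h1 | h1
        · left
          have : cc E x ∩ {y | h y ≤ Bs j} = ∅ := by
            rw [eq_empty_iff_forall_notMem]
            exact fun y hy => h1 ⟨y, hy.1, hy.2⟩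
          rw [this]; exact oscLe_empty
        · right
          have : cc E x ∩ {y | Bs (j + 1) ≤ h y} = ∅ := by
            rw [eq_empty_iff_forall_notMem]
            exact fun y hy => h1 ⟨y, hy.1, hy.2⟩
          rw [this]; exact oscLe_empty

end Crest.Agent.R105.Stq_483
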