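import Crest.Agent.R105.Stq1_188
import Crest.Agent.R105.Cq2_463
import Crest.Agent.R105.Thin1_891

/-!
# Row 105 (S0138, solids): START with squares

For a hair `K` of the family `𝓗` (free, or attached to the square of its component) the function
`Φ` of `Stq1` in a thin neighbourhood of the component: `∫_{Eᶜ} Φ_x = -∫ tent K`,
`Σ_Q s_Q ch_Q(Φ) ≤ ε`.
-/

set_option autoImplicit false

namespace Crest.Agent.R105.Stq_188

open Set Filter MeasureTheory Topology Metric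
open CF_363 Stp_722 Skst2_49 Cq_463 Thin_891
open scoped ENNReal NNReal

/-- components of a compact set are compact -/
theorem isCompact_cc {X : Type*} [TopologicalSpace X] [T2Space X] {E : Set X} (hE : IsCompact E)
    (x : X) : IsCompact (connectedComponentIn E x) := by
  by_cases hx : x ∈ E
  · rw [connectedComponentIn_eq_image hx]
    have : CompactSpace E := isCompact_iff_compactSpace.1 hE
    exact (isClosed_connectedComponent.isCompact).image continuous_subtype_val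
  · rw [connectedComponentIn_eq_empty hx]; exact isCompact_empty

/-- a thin neighbourhood of a component -/
theorem exists_thin {E U : Set (ℝ × ℝ)} (hE : IsCompact E) {p : ℝ × ℝ} (hp : p ∈ E)
    (hU : IsOpen U) (hPU : connectedComponentIn E p ⊆ U) :
    ∃ N, IsOpen N ∧ Bornology.IsBounded N ∧ connectedComponentIn E p ⊆ N ∧ N ⊆ U ∧
      Disjoint E (frontier N) := by
  obtain ⟨F, hF, hPF, hFU⟩ := exists_piece hE hp hU hPU
  have hopen : IsOpen (U ∩ (E \ F)ᶜ) := hU.inter hF.cpt'.isClosed.isOpen_compl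
  have hsub : F ⊆ U ∩ (E \ F)ᶜ := fun q hq => ⟨hFU hq, fun h => h.2 hq⟩
  obtain ⟨δ, hδ, hδU⟩ := hF.cpt.exists_cthickening_subset_open hopen hsub
  have hbc : IsCompact (cthickening δ F) := hF.cpt.cthickening
  refine ⟨thickening δ F, isOpen_thickening,
    hbc.isBounded.subset (thickening_subset_cthickening δ F),
    hPF.trans (self_subset_thickening hδ F),
    (thickening_subset_cthickening δ F).trans (hδU.trans inter_subset_left), ?_⟩
  rw [disjoint_left]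
  rintro q hqE hqf
  have h1 : q ∈ cthickening δ F := by
    have := frontier_subset_closure hqf
    exact closure_minimal (thickening_subset_cthickening δ F) isClosed_cthickening this
  have h2 : q ∈ F := by
    by_contra hc
    exact (hδU h1).2 ⟨hqE, hc⟩
  have h3 : q ∈ thickening δ F := self_subset_thickening hδ F h2
  rw [isOpen_thickening.frontier_eq] at hqf
  exact hqf.2 h3

/-- an open set with frontier off `E` contains or avoids every preconnected part of `E` -/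
theorem subset_or_disjoint {E N P : Set (ℝ × ℝ)} (hN : IsOpen N) (hf : Disjoint E (frontier N))
    (hPE : P ⊆ E) (hP : IsPreconnected P) : P ⊆ N ∨ Disjoint P N := by
  by_contra hc
  rw [not_or] at hc
  obtain ⟨h1, h2⟩ := hc
  obtain ⟨a, haP, haN⟩ := not_disjoint_iff.1 h2
  obtain ⟨b, hbP, hbN⟩ := not_subset.1 h1
  have h3 := hP N (closure N)ᶜ hN isClosed_closure.isOpen_compl (fun q hq => ?_) ⟨a, haP, haN⟩
    ⟨b, hbP, fun hb => disjoint_left.1 hf (hPE hbP) ⟨hb, fun h => hbN (interior_subset h)⟩⟩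
  · obtain ⟨q, -, hq1, hq2⟩ := h3
    exact hq2 (subset_closure hq1)
  · by_cases hqN : q ∈ N
    · exact Or.inl hqN
    · exact Or.inr fun hb => disjoint_left.1 hf (hPE hq) ⟨hb, fun h => hqN (interior_subset h)⟩

variable {E : Set (ℝ × ℝ)} {𝒬 : Set Sqr} {𝓗 : Set Hair}

theorem ch_univ_le {f : ℝ × ℝ → ℝ} {Q : Sqr} {c : ℝ} (hc : 0 ≤ c) (h : OscLe Eᶜ Q.car f c) :
    ch E univ f Q ≤ c := by
  unfold ch
  rw [inter_univ, closure_univ, inter_univ]
  exact chg_le hc h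

open Classical in
/-- the charge of one square -/
theorem TN.ch_le {N : Set (ℝ × ℝ)} {K : Hair} {δ : ℝ} (h : TN E K N δ) {Q : Sqr}
    (hQE : Q.car ⊆ E) (hKQ : Disjoint Q.car {p | p.1 = K.x ∧ K.b < p.2 ∧ p.2 < K.t}) :
    ch E univ (PhN K N δ) Q ≤ (if Q.car ⊆ N ∧ ¬ (Q.x ≤ K.x ∧ K.x ≤ Q.x + Q.s)
      then Mt K * Q.s else 0) := by
  have hs := Q.hs
  rcases subset_or_disjoint h.op h.far hQE Q.convex_car.isPreconnected with hN | hN
  · by_cases hx : Q.x ≤ K.x ∧ K.x ≤ Q.x + Q.s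
    · rw [if_neg (by tauto)]
      refine ch_univ_le le_rfl (h.osc_high fun p hp hp2 => ?_)
      have h2 : ((K.x, p.2) : ℝ × ℝ) ∈ Q.car := Sqr.mem_car.2 ⟨⟨hx.1, hx.2⟩, (Sqr.mem_car.1 hp).2⟩
      exact disjoint_left.1 hKQ h2 ⟨rfl, hp2.1, hp2.2⟩
    · rw [if_pos ⟨hN, hx⟩]
      rw [not_and_or, not_le, not_le] at hx
      rcases hx with hx | hx
      · have h1 := h.osc_right (V := Eᶜ) (P := Q.car) (fun p hp => ⟨hQE hp, hN hp⟩)
          (fun p hp => lt_of_lt_of_le hx (Sqr.mem_car.1 hp).1.1) (y0 := Q.y) (y1 := Q.y + Q.s)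
          (fun p hp => (Sqr.mem_car.1 hp).2)
        rw [show Q.y + Q.s - Q.y = Q.s by ring] at h1
        exact ch_univ_le (mul_nonneg (Mt_nonneg K) hs.le) h1
      · refine ch_univ_le (mul_nonneg (Mt_nonneg K) hs.le)
          ((osc_left fun p hp => lt_of_le_of_lt (Sqr.mem_car.1 hp).1.2 hx).mono
            (mul_nonneg (Mt_nonneg K) hs.le))
  · rw [if_neg (fun hc => ?_)]
    · refine ch_univ_le le_rfl (h.osc_far fun p hp => ⟨hQE hp, fun hpN => disjoint_left.1 hN hp hpN⟩)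
    · obtain ⟨q, hq⟩ := Q.nonempty
      exact disjoint_left.1 hN hq (hc.1 hq)

/-- **START with squares**: the hair `K` is off the squares (only its end points may touch the
square of its component, and then the square lies over or under it). -/
theorem start_sq (hE : QPic E 𝒬 𝓗) {K : Hair} (hK : K ∈ 𝓗)
    (hKQ : ∀ Q ∈ 𝒬, Disjoint Q.car {p | p.1 = K.x ∧ K.b < p.2 ∧ p.2 < K.t})
    (hatt : ∀ Q ∈ 𝒬, (Q.car ∩ connectedComponentIn E (K.x, K.b)).Nonempty →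
      Q.x ≤ K.x ∧ K.x ≤ Q.x + Q.s)
    {U : Set (ℝ × ℝ)} (hU : IsOpen U) (hPU : connectedComponentIn E (K.x, K.b) ⊆ U)
    {ε : ℝ} (hε : 0 < ε) :
    ∃ Φ : ℝ × ℝ → ℝ, CFJ 𝓗 univ Φ ∧ HasCompactSupport Φ ∧ (∀ p, 0 ≤ Φ p ∧ Φ p ≤ 1) ∧
      (∀ p ∉ U, Φ p = 0) ∧ ∫ p in Eᶜ, gx Φ p = - ∫ y, tent K y ∧
      (∀ Q ∈ 𝒬, ch E univ Φ Q ≤ Mt K * Q.s) ∧
      Summable (fun Q : 𝒬 => Q.1.s * ch E univ Φ Q.1) ∧
      ∑' Q : 𝒬, Q.1.s * ch E univ Φ Q.1 ≤ ε ∧ ∑' Q : 𝒬, ch E univ Φ Q.1 ^ 2 ≤ ε := by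
  classical
  have hM := Mt_nonneg K
  set P : Set (ℝ × ℝ) := connectedComponentIn E (K.x, K.b) with hPdef
  have hbt := K.hbt
  have hp0 : (K.x, K.b) ∈ E := hE.hsub K hK ⟨rfl, le_rfl, hbt.le⟩
  have hKP : K.car ⊆ P := by
    refine IsPreconnected.subset_connectedComponentIn ?_ ⟨rfl, le_rfl, hbt.le⟩ (hE.hsub K hK)
    rw [K.car_eq]; exact isPreconnected_singleton.prod isPreconnected_Icc
  have hPc : IsCompact P := isCompact_cc hE.cpt _
  set C : ℝ := Mt K + Mt K ^ 2 + 1 with hC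
  have hC0 : 0 < C := by positivity
  obtain ⟨U', hPU', hU', -, hvol⟩ := hPc.measurableSet.exists_isOpen_sdiff_lt
    (μ := (volume : Measure (ℝ × ℝ))) hPc.measure_lt_top.ne
    (ε := ENNReal.ofReal (ε / C)) (by simp; positivity)
  obtain ⟨N, hNo, hNb, hPN, hNU, hNf⟩ := exists_thin hE.cpt hp0 (hU.inter hU')
    (subset_inter hPU hPU')
  obtain ⟨δ, h⟩ := exists_TN hE.cpt hNo hNb (K := K)
    (fun p hp => ⟨hE.hsub K hK hp, hPN (hKP hp)⟩) hNf
  set A : Set Sqr := {Q | Q.car ⊆ N ∧ ¬ (Q.x ≤ K.x ∧ K.x ≤ Q.x + Q.s)} with hA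
  have hch : ∀ Q ∈ 𝒬, ch E univ (PhN K N δ) Q ≤ if Q ∈ A then Mt K * Q.s else 0 := by
    intro Q hQ
    exact h.ch_le (hE.sub Q hQ) (hKQ Q hQ)
  -- the area of the squares of `A`
  have hcnt := hE.countable.to_subtype
  have harea : ∑' Q : 𝒬, ENNReal.ofReal (if Q.1 ∈ A then Q.1.s ^ 2 else 0)
      ≤ ENNReal.ofReal (ε / C) := by
    have h1 : ∀ Q : 𝒬, ENNReal.ofReal (if Q.1 ∈ A then Q.1.s ^ 2 else 0)
        = volume (Q.1.car ∩ (if Q.1 ∈ A then univ else ∅)) := by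
      intro Q
      split_ifs
      · rw [inter_univ, Sqr.volume_car]
      · simp
    simp_rw [h1]
    rw [← measure_iUnion (fun Q Q' hne => (hE.disjoint Q.2 Q'.2
      (fun he => hne (Subtype.ext he))).mono inter_subset_left inter_subset_left)
      (fun Q => Q.1.isCompact_car.measurableSet.inter (by split_ifs <;> simp))]
    refine (measure_mono (iUnion_subset fun Q p hp => ?_)).trans hvol.le
    split_ifs at hp with hQA
    · refine ⟨(hNU (hQA.1 hp.1)).2, fun hpP => hQA.2 ?_⟩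
      exact hatt Q.1 Q.2 ⟨p, hp.1, hpP⟩
    · exact absurd hp.2 (notMem_empty _)
  have hsumA : Summable fun Q : 𝒬 => (if Q.1 ∈ A then Q.1.s ^ 2 else 0 : ℝ) :=
    summable_of_tsum_ofReal (fun Q => by split_ifs <;> positivity)
      (ne_top_of_le_ne_top ENNReal.ofReal_ne_top harea)
  have htsA : ∑' Q : 𝒬, (if Q.1 ∈ A then Q.1.s ^ 2 else 0 : ℝ) ≤ ε / C := by
    have h0 : ∀ Q : 𝒬, (0 : ℝ) ≤ (if Q.1 ∈ A then Q.1.s ^ 2 else 0 : ℝ) := fun Q => by
      split_ifs <;> positivity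
    rw [← ENNReal.ofReal_tsum_of_nonneg h0 hsumA] at harea
    rwa [ENNReal.ofReal_le_ofReal_iff (by positivity)] at harea
  have hb1 : ∀ Q : 𝒬, Q.1.s * ch E univ (PhN K N δ) Q.1
      ≤ Mt K * (if Q.1 ∈ A then Q.1.s ^ 2 else 0 : ℝ) := by
    intro Q
    have hs := Q.1.hs
    refine (mul_le_mul_of_nonneg_left (hch Q.1 Q.2) hs.le).trans (le_of_eq ?_)
    split_ifs <;> ring
  have hb2 : ∀ Q : 𝒬, ch E univ (PhN K N δ) Q.1 ^ 2
      ≤ Mt K ^ 2 * (if Q.1 ∈ A then Q.1.s ^ 2 else 0 : ℝ) := by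
    intro Q
    have hs := Q.1.hs
    refine (pow_le_pow_left₀ (ch_nonneg _ _ _ _) (hch Q.1 Q.2) 2).trans (le_of_eq ?_)
    split_ifs <;> ring
  have hn1 : ∀ Q : 𝒬, 0 ≤ Q.1.s * ch E univ (PhN K N δ) Q.1 := fun Q =>
    mul_nonneg Q.1.hs.le (ch_nonneg _ _ _ _)
  have hS1 : Summable fun Q : 𝒬 => Q.1.s * ch E univ (PhN K N δ) Q.1 :=
    Summable.of_nonneg_of_le hn1 hb1 (hsumA.mul_left _)
  have hS2 : Summable fun Q : 𝒬 => ch E univ (PhN K N δ) Q.1 ^ 2 :=
    Summable.of_nonneg_of_le (fun Q => sq_nonneg _) hb2 (hsumA.mul_left _)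
  refine ⟨PhN K N δ, h.cfj hK, h.cpt, fun p => ⟨PhN_nonneg K h.δ0 p, PhN_le_one K p⟩,
    fun p hp => PhN_zero K fun hc => hp (hNU hc).1, h.integral_compl, fun Q hQ => ?_, hS1, ?_, ?_⟩
  · refine (hch Q hQ).trans ?_
    split_ifs
    · exact le_rfl
    · exact mul_nonneg hM Q.hs.le
  · calc ∑' Q : 𝒬, Q.1.s * ch E univ (PhN K N δ) Q.1
        ≤ ∑' Q : 𝒬, Mt K * (if Q.1 ∈ A then Q.1.s ^ 2 else 0 : ℝ) :=
          hS1.tsum_le_tsum hb1 (hsumA.mul_left _)
      _ = Mt K * ∑' Q : 𝒬, (if Q.1 ∈ A then Q.1.s ^ 2 else 0 : ℝ) := tsum_mul_left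
      _ ≤ Mt K * (ε / C) := mul_le_mul_of_nonneg_left htsA hM
      _ ≤ C * (ε / C) := mul_le_mul_of_nonneg_right (by rw [hC]; nlinarith [sq_nonneg (Mt K)])
          (by positivity)
      _ = ε := by field_simp
  · calc ∑' Q : 𝒬, ch E univ (PhN K N δ) Q.1 ^ 2
        ≤ ∑' Q : 𝒬, Mt K ^ 2 * (if Q.1 ∈ A then Q.1.s ^ 2 else 0 : ℝ) :=
          hS2.tsum_le_tsum hb2 (hsumA.mul_left _)
      _ = Mt K ^ 2 * ∑' Q : 𝒬, (if Q.1 ∈ A then Q.1.s ^ 2 else 0 : ℝ) := tsum_mul_left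
      _ ≤ Mt K ^ 2 * (ε / C) := mul_le_mul_of_nonneg_left htsA (sq_nonneg _)
      _ ≤ C * (ε / C) := mul_le_mul_of_nonneg_right (by rw [hC]; nlinarith [sq_nonneg (Mt K)])
          (by positivity)
      _ = ε := by field_simp

end Crest.Agent.R105.Stq_188
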