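import Crest.Agent.R105.Stq1_483

/-!
Row 105 (S0138), task 2496: **the STEP (5)(b) for families of components that are not hairs**,
frame free (`stepS`).  Black box = `Stq_483.LayerOp` (744's `LayerOpR` has this form with
`Ok B B' G := B + ρ ≤ B' ∧ G ⊆ Hr`).
-/

set_option autoImplicit false
set_option linter.unusedSectionVars false

open Set Filter Topology Metric

namespace Crest.Agent.R105.Stq_483

open Crest.Agent.R105.Stp_722

local notation "cc" => connectedComponentIn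

variable {X : Type*} [TopologicalSpace X] [T2Space X] {V E : Set X} {h : X → ℝ}

/-- the interval `[lo, hi]` of the values of `φ` on `N ∩ V`. -/
theorem exists_range {φ : X → ℝ} {R A : ℝ} {N O : Set X} (hNO : N ⊆ O) (hR : ∀ x, |φ x| ≤ R)
    (hne : (N ∩ V).Nonempty) (hosc : ∀ q ∈ N ∩ V, ∀ q' ∈ N ∩ V, |φ q - φ q'| ≤ A) :
    ∃ lo hi, lo ≤ hi ∧ |lo| ≤ R ∧ hi - lo ≤ A ∧ (∀ q ∈ N ∩ V, φ q ∈ Icc lo hi) ∧
      ∀ u v, (∀ q ∈ O ∩ V, φ q ∈ Icc u v) → u ≤ lo ∧ hi ≤ v := by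
  obtain ⟨q0, hq0⟩ := hne
  have hne' : (φ '' (N ∩ V)).Nonempty := ⟨_, q0, hq0, rfl⟩
  have hbb : BddBelow (φ '' (N ∩ V)) := ⟨-R, by rintro _ ⟨q, -, rfl⟩; exact (abs_le.1 (hR q)).1⟩
  have hba : BddAbove (φ '' (N ∩ V)) := ⟨R, by rintro _ ⟨q, -, rfl⟩; exact (abs_le.1 (hR q)).2⟩
  have h1 : ∀ q ∈ N ∩ V, sInf (φ '' (N ∩ V)) ≤ φ q := fun q hq => csInf_le hbb ⟨q, hq, rfl⟩
  have h2 : ∀ q ∈ N ∩ V, φ q ≤ sSup (φ '' (N ∩ V)) := fun q hq => le_csSup hba ⟨q, hq, rfl⟩
  have h3 : -R ≤ sInf (φ '' (N ∩ V)) := le_csInf hne' (by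
    rintro _ ⟨q, -, rfl⟩; exact (abs_le.1 (hR q)).1)
  refine ⟨sInf (φ '' (N ∩ V)), sSup (φ '' (N ∩ V)), (h1 q0 hq0).trans (h2 q0 hq0), ?_, ?_,
    fun q hq => ⟨h1 q hq, h2 q hq⟩, fun u v huv => ⟨?_, ?_⟩⟩
  · rw [abs_le]
    exact ⟨h3, (h1 q0 hq0).trans (abs_le.1 (hR q0)).2⟩
  · have h4 : sSup (φ '' (N ∩ V)) ≤ sInf (φ '' (N ∩ V)) + A := by
      refine csSup_le hne' ?_
      rintro _ ⟨q, hq, rfl⟩
      have h5 : φ q - A ≤ sInf (φ '' (N ∩ V)) := by
        refine le_csInf hne' ?_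
        rintro _ ⟨q', hq', rfl⟩
        have := (abs_le.1 (hosc q hq q' hq')).2
        linarith
      linarith
    linarith
  · refine le_csInf hne' ?_
    rintro _ ⟨q, hq, rfl⟩
    exact (huv q ⟨hNO hq.1, hq.2⟩).1
  · refine csSup_le hne' ?_
    rintro _ ⟨q, hq, rfl⟩
    exact (huv q ⟨hNO hq.1, hq.2⟩).2

/-- `exists_thick` with pieces which meet `V` (or are empty). -/
theorem exists_thick_V {Ok : ℝ → ℝ → Set X → Prop} {Cl : (X → ℝ) → Prop}
    {D : (X → ℝ) → (X → ℝ) → ℝ → Prop} (S : Setup V E h Ok Cl D) {G : Set X} (hG : IsCompact G)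
    (hGE : G ⊆ E) (U : X → Set X) (hU : ∀ x ∈ G, IsOpen (U x)) (hKU : ∀ x ∈ G, cc E x ⊆ U x) :
    ∃ (n : ℕ) (p : Fin n → X) (N : Fin n → Set X), (∀ i, p i ∈ G) ∧ (∀ i, IsOpen (N i)) ∧
      (∀ i, N i ⊆ U (p i)) ∧ (∀ i j, i ≠ j → Disjoint (N i) (N j)) ∧
      (∀ i, ∀ x ∈ E, (cc E x ∩ N i).Nonempty → cc E x ⊆ N i) ∧ G ⊆ ⋃ i, N i ∧
      ∀ i, (N i).Nonempty → (N i ∩ V).Nonempty := by
  classical
  obtain ⟨n, p, N, hp, hNo, hNU, hd, hsat, hcov⟩ := exists_thick S.hE hG hGE U hU hKU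
  refine ⟨n, p, fun i => if (N i ∩ V).Nonempty then N i else ∅, hp, fun i => ?_, fun i => ?_,
    fun i j hij => ?_, fun i x hx => ?_, fun x hx => ?_, fun i => ?_⟩
  · dsimp only; split_ifs
    · exact hNo i
    · exact isOpen_empty
  · dsimp only; split_ifs
    · exact hNU i
    · exact empty_subset _
  · dsimp only; split_ifs
    · exact hd i j hij
    · exact disjoint_empty _
    · exact empty_disjoint _
    · exact empty_disjoint _
  · dsimp only; split_ifs
    · exact hsat i x hx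
    · rintro ⟨y, -, hy⟩; exact absurd hy (notMem_empty y)
  · obtain ⟨i, hi⟩ := mem_iUnion.1 (hcov hx)
    have hxE := hGE hx
    obtain ⟨q, hq, hqV, -⟩ := S.lev_cc hxE (h x)
      ⟨x, mem_connectedComponentIn hxE, le_rfl⟩ ⟨x, mem_connectedComponentIn hxE, le_rfl⟩
    have hqN : q ∈ N i := hsat i x hxE ⟨x, mem_connectedComponentIn hxE, hi⟩ hq
    obtain ⟨v, hv, hvV⟩ := mem_closure_iff.1 hqV (N i) (hNo i) hqN
    refine mem_iUnion.2 ⟨i, ?_⟩
    rw [if_pos ⟨v, hv, hvV⟩]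
    exact hi
  · dsimp only; split_ifs with h1
    · exact fun _ => h1
    · rintro ⟨y, hy⟩; exact absurd hy (notMem_empty y)

/-- **STEP (b) for families of components with small slices** (hairs and small solids): the
oscillation of every component in `E'` drops below `a / 3`; the changes respect the hull of the
values in given neighbourhoods `O x`, and the growth of portions and slices is at most `a / 50`. -/
theorem stepS {Ok : ℝ → ℝ → Set X → Prop} {Cl : (X → ℝ) → Prop}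
    {D : (X → ℝ) → (X → ℝ) → ℝ → Prop}
    (S : Setup V E h Ok Cl D) {E' : Set X} (hE' : Part E E') {φ : X → ℝ} (hφ : Cl φ) {R : ℝ}
    (hR0 : 0 ≤ R) (hR : ∀ x, |φ x| ≤ R) {a b : ℝ} (ha : 0 < a) (hab : a ≤ b)
    (hosc : ∀ x ∈ gfam V E E' φ (a / 4), OscLe V (cc E x) φ b)
    {d B0 : ℝ} {m : ℕ} (hd : 0 < d) (hm : 0 < m)
    (hcov : ∀ x ∈ E', B0 ≤ h x ∧ h x ≤ B0 + m * d)
    (hport : ∀ x ∈ gfam V E E' φ (a / 4), ∀ s,
      OscLe V (cc E x ∩ {y | s ≤ h y ∧ h y ≤ s + 2 * d}) φ (a / 100))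
    (hslice : ∀ x ∈ gfam V E E' φ (a / 4), ∀ t,
      OscLe V (cc E x ∩ {y | h y = t}) φ (a / (1000 * m)))
    (hok : ∀ i < m, Ok (B0 + (i : ℕ) * d) (B0 + ((i + 1 : ℕ) : ℝ) * d)
      (cross E h (gfam V E E' φ (a / 4)) (B0 + (i : ℕ) * d) (B0 + ((i + 1 : ℕ) : ℝ) * d)))
    {O : X → Set X} (hO : ∀ x ∈ gfam V E E' φ (a / 4), IsOpen (O x) ∧ cc E x ⊆ O x)
    {ε : ℝ} (hε : 0 < ε) :
    ∃ φ' : X → ℝ, Cl φ' ∧ (∀ x, |φ' x| ≤ R) ∧ D φ φ' ε ∧
      (∀ x ∈ E', OscLe V (cc E x) φ' (a / 3)) ∧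
      (∀ q, φ' q = φ q ∨ ∃ x ∈ gfam V E E' φ (a / 4), q ∈ O x ∧
        (q ∈ V → |φ' q - φ q| ≤ 2 * b) ∧
        ∀ u v, (∀ q' ∈ O x ∩ V, φ q' ∈ Icc u v) → φ q ∈ Icc u v → φ' q ∈ Icc u v) ∧
      (∀ x ∈ E, ∀ P ⊆ cc E x, Lev V h P → ∀ c, OscLe V P φ c → OscLe V P φ' (c + a / 50)) ∧
      ∀ x ∈ E, ∀ P ⊆ cc E x, ∀ t, P ⊆ {y | h y = t} → ∀ c, OscLe V P φ c →
        OscLe V P φ' (c + a / 1000) := by
  classical
  set g := gfam V E E' φ (a / 4) with hg
  have hgE : g ⊆ E := fun _ hx => hx.1.1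
  have hgc : IsCompact g := isCompact_gfam S.hE hE'
  have hgsat : ∀ x ∈ g, ∀ y ∈ cc E x, y ∈ g := fun x hx y hy => gfam_sat hE' hx hy
  have hb : 0 < b := ha.trans_le hab
  -- coarse pieces
  choose! O1 hO1 hKO1 HO1 using fun x (hx : x ∈ g) => hosc x hx b hb
  obtain ⟨l, p, N0, hp, hN0o, hN0U, hd0, hsat0, hcov0, hNV⟩ := exists_thick_V S hgc hgE
    (fun x => O1 x ∩ O x) (fun x hx => (hO1 x hx).inter (hO x hx).1)
    (fun x hx => subset_inter (hKO1 x hx) (hO x hx).2)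
  have hrange : ∀ i, ∃ lo hi, lo ≤ hi ∧ |lo| ≤ R ∧ hi - lo ≤ 2 * b ∧
      (∀ q ∈ N0 i ∩ V, φ q ∈ Icc lo hi) ∧
      ((N0 i ∩ V).Nonempty → ∀ u v, (∀ q ∈ O (p i) ∩ V, φ q ∈ Icc u v) → u ≤ lo ∧ hi ≤ v) := by
    intro i
    by_cases hne : (N0 i ∩ V).Nonempty
    · obtain ⟨lo, hi, h1, h2, h3, h4, h5⟩ := exists_range (V := V) (φ := φ) (R := R) (A := 2 * b)
        (N := N0 i) (O := O (p i)) (fun q hq => (hN0U i hq).2) hR hne (fun q hq q' hq' => by
          have := HO1 (p i) (hp i) q ⟨(hN0U i hq.1).1, hq.2⟩ q' ⟨(hN0U i hq'.1).1, hq'.2⟩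
          linarith)
      exact ⟨lo, hi, h1, h2, h3, h4, fun _ => h5⟩
    · refine ⟨0, 0, le_rfl, by simpa using hR0, by simp; linarith, fun q hq => absurd ⟨q, hq⟩ hne,
        fun hne' => absurd hne' hne⟩
  choose lo hi hlh hloR hhl hval hout using hrange
  have hN0 : Pieces E N0 := ⟨hN0o, hd0, hsat0⟩
  -- constants
  have hM : (0:ℝ) < m := by exact_mod_cast hm
  have hM1 : (1:ℝ) ≤ m := by exact_mod_cast hm
  set M : ℝ := (m : ℝ) with hMdef
  set t : ℝ := a / (1000 * M) with ht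
  have ht0 : 0 < t := by positivity
  have htM : M * t = a / 1000 := by rw [ht]; field_simp
  have hta : t ≤ a / 1000 := by
    rw [← htM]; nlinarith
  set μ : ℝ := a / (b * (10000 * M ^ 2)) with hμ
  have hμ0 : 0 < μ := by positivity
  have hμA : M * (2 * (μ * (2 * b))) ≤ t := by
    rw [hμ, ht]
    have e : M * (2 * (a / (b * (10000 * M ^ 2)) * (2 * b))) = (4 / 10) * (a / (1000 * M)) := by
      field_simp
      ring
    rw [e]
    have : 0 < a / (1000 * M) := by positivity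
    linarith
  set e1 : ℝ := ε / M with he1
  have he10 : 0 < e1 := by positivity
  have C : Const V R N0 lo hi m μ (2 * b) t (2 * t) t :=
    { R0 := hR0, μ0 := hμ0, A0 := by positivity, ε0 := ht0, lh := hhl
      σ := fun i hi => by
        have h1 : (i:ℝ) ≤ M := by rw [hMdef]; exact_mod_cast hi.le
        have h2 : 0 ≤ 2 * (μ * (2 * b)) := by positivity
        have := mul_le_mul_of_nonneg_right h1 h2
        linarith
      σ10 := by positivity }
  set Bs : ℕ → ℝ := fun i => B0 + i * d with hBs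
  have hBs1 : ∀ i, Bs i < Bs (i + 1) := by
    intro i; simp only [hBs]; push_cast; nlinarith
  -- induction
  have key : ∀ i ≤ m, ∃ χ, Inv V E h Cl D φ R N0 lo hi g μ (2 * b) t (2 * t) t e1 Bs i χ := by
    intro i
    induction i with
    | zero =>
      intro _
      refine ⟨φ, hφ, hR, ?_, fun j q hq => hval j q hq, ?_, fun _ _ => rfl, ?_, ?_, ?_, ?_⟩
      · simpa using S.D0 φ hφ
      · intro j q _
        exact ⟨min_le_right _ _, le_max_right _ _⟩
      · intro x hx t'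
        simpa using hslice x hx t'
      · intro x _ P _ _ b hb
        simpa using hb
      · intro x _ P _ t' _ b hb
        simpa using hb
      · intro j hj
        exact absurd hj (Nat.not_lt_zero _)
    | succ i ih =>
      intro hi'
      obtain ⟨χ, hχ⟩ := ih (by omega)
      obtain ⟨χ', hχ', _⟩ := hχ.step S hE' hN0 C he10 (fun i => ⟨hlh i, hloR i⟩) hcov0 hBs1
        (show i < m by omega) (hok i (by omega))
      exact ⟨χ', hχ'⟩
  obtain ⟨χ, I⟩ := key m le_rfl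
  -- total growth
  have hgg : M * (2 * (μ * (2 * b) + 2 * (2 * t + t))) ≤ 13 * a / 1000 := by
    have e : M * (2 * (μ * (2 * b) + 2 * (2 * t + t))) =
      M * (2 * (μ * (2 * b))) + 12 * (M * t) := by ring
    rw [e, htM]; linarith
  have hgrow : ∀ x ∈ E, ∀ P ⊆ cc E x, Lev V h P → ∀ b, OscLe V P φ b →
      OscLe V P χ (b + 13 * a / 1000) := by
    intro x hx P hP hPl b hb
    exact (I.grow x hx P hP hPl b hb).mono (by linarith)
  refine ⟨χ, I.cl, I.bd, ?_, ?_, ?_, ?_, ?_⟩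
  · have := I.en
    have e : (m:ℝ) * e1 = ε := by rw [he1, ← hMdef]; field_simp
    rwa [e] at this
  · intro x hxE'
    have hx : x ∈ E := hE'.sub hxE'
    by_cases hxg : x ∈ g
    · set c1 := 30 * a / 1000 with hc1
      have hpor : ∀ I' : Set ℝ, I'.OrdConnected → ∀ s, I' ∩ Icc B0 (B0 + M * d) ⊆ Icc s (s + 2 * d) →
          OscLe V (cc E x ∩ h ⁻¹' I') χ (a / 100 + 13 * a / 1000) := by
        intro I' hI' s hs
        refine hgrow x hx _ inter_subset_left (S.lev x hx I' hI') _ ?_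
        refine (hport x hxg s).mono_set ?_
        rintro y ⟨hy, hyI⟩
        have := hs ⟨hyI, hcov y (hE'.sat hxE' hy)⟩
        exact ⟨hy, this.1, this.2⟩
      obtain ⟨i, j, hij, hji, hLo, hUp⟩ := comb_levels (m := m)
        (Lo := fun i => OscLe V (cc E x ∩ {y | h y ≤ Bs i}) χ c1)
        (Up := fun j => OscLe V (cc E x ∩ {y | Bs j ≤ h y}) χ c1)
        (by
          have := hpor (Iic (Bs 0)) ordConnected_Iic B0 (by
            rintro t' ⟨h1, h2⟩
            simp only [hBs, Nat.cast_zero, zero_mul, add_zero, mem_Iic] at h1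
            exact ⟨h2.1, by linarith⟩)
          exact this.mono (by rw [hc1]; linarith))
        (by
          have := hpor (Ici (Bs m)) ordConnected_Ici (B0 + M * d) (by
            rintro t' ⟨h1, h2⟩
            simp only [hBs, mem_Ici] at h1
            exact ⟨h1, by linarith [h2.2]⟩)
          exact this.mono (by rw [hc1]; linarith))
        (by
          intro i hi
          rcases I.hist i hi x hxg with h1 | h1
          · left
            refine h1.mono ?_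
            rw [hc1]; linarith
          · right
            refine h1.mono ?_
            rw [hc1]; linarith)
      have hmid : OscLe V ((cc E x ∩ h ⁻¹' Ici (Bs i)) ∩ {y | h y ≤ Bs j}) χ
          (a / 100 + 13 * a / 1000) := by
        have := hpor (Icc (Bs i) (Bs j)) ordConnected_Icc (Bs i) (by
          rintro t' ⟨h1, _⟩
          refine ⟨h1.1, h1.2.trans ?_⟩
          simp only [hBs]
          have : (j:ℝ) ≤ i + 2 := by exact_mod_cast hji
          nlinarith)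
        refine this.mono_set ?_
        rintro y ⟨⟨hy, hyi⟩, hyj⟩
        exact ⟨hy, hyi, hyj⟩
      have hup2 : OscLe V (cc E x ∩ h ⁻¹' Ici (Bs i)) χ ((a / 100 + 13 * a / 1000) + c1) := by
        refine osc_split (h := h) (S.lev x hx _ ordConnected_Ici) (s := Bs j) (by positivity)
          (by positivity) hmid ?_
        refine hUp.mono_set ?_
        rintro y ⟨⟨hy, _⟩, hyj⟩
        exact ⟨hy, hyj⟩
      have hall := osc_split (h := h) (S.lev_cc hx) (s := Bs i) (by positivity)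
        (by positivity) hLo hup2
      refine hall.mono ?_
      rw [hc1]; linarith
    · have h1 : ∃ c < a / 4, OscLe V (cc E x) φ c := by
        by_contra h2
        exact hxg ⟨⟨hx, h2⟩, hxE'⟩
      obtain ⟨c, hc, hcosc⟩ := h1
      refine (hgrow x hx _ Subset.rfl (S.lev_cc hx) c hcosc).mono ?_
      linarith
  · intro q
    by_cases hqN : q ∈ ⋃ i, N0 i
    · obtain ⟨i, hi'⟩ := mem_iUnion.1 hqN
      right
      refine ⟨p i, hp i, (hN0U i hi').2, fun hqV => ?_, fun u v huv hq => ?_⟩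
      · have h1 := I.hull i q ⟨hi', hqV⟩
        have h2 := hval i q ⟨hi', hqV⟩
        exact abs_sub_le_of_Icc h1 h2 (hhl i)
      · have h1 := I.hull2 i q hi'
        obtain ⟨h2, h3⟩ := hout i (hNV i ⟨q, hi'⟩) u v huv
        exact ⟨(le_min h2 hq.1).trans h1.1, h1.2.trans (max_le h3 hq.2)⟩
    · left
      exact I.off q hqN
  · intro x hx P hP hPl c hc
    exact (hgrow x hx P hP hPl c hc).mono (by linarith)
  · intro x hx P hP t' hPt c hc
    refine (I.sgrow x hx P hP t' hPt c hc).mono ?_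
    linarith

end Crest.Agent.R105.Stq_483
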