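import Crest.Agent.R105.Stq2_188

/-!
# Row 105 (S0138, solids): START with squares, oscillation form (for the limit LimQ)

`start_osc` : `Φ` of `start_sq` with `OscLe Eᶜ Q.car Φ (δ Q)`, `Σ s_Q δ_Q ≤ ε`, `Σ δ_Q² ≤ ε`.
-/

set_option autoImplicit false

namespace Crest.Agent.R105.Stq_188

open Set Filter MeasureTheory Topology Metric
open CF_363 Stp_722 Skst2_49 Cq_463 Thin_891
open scoped ENNReal NNReal

variable {E : Set (ℝ × ℝ)} {𝒬 : Set Sqr} {𝓗 : Set Hair}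

open Classical in
/-- the oscillation of the START function at one square -/
theorem TN.osc_sq {N : Set (ℝ × ℝ)} {K : Hair} {δ : ℝ} (h : TN E K N δ) {Q : Sqr}
    (hQE : Q.car ⊆ E) (hKQ : Disjoint Q.car {p | p.1 = K.x ∧ K.b < p.2 ∧ p.2 < K.t}) :
    OscLe Eᶜ Q.car (PhN K N δ) (if Q.car ⊆ N ∧ ¬ (Q.x ≤ K.x ∧ K.x ≤ Q.x + Q.s)
      then Mt K * Q.s else 0) := by
  have hs := Q.hs
  rcases subset_or_disjoint h.op h.far hQE Q.convex_car.isPreconnected with hN | hN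
  · by_cases hx : Q.x ≤ K.x ∧ K.x ≤ Q.x + Q.s
    · rw [if_neg (by tauto)]
      refine h.osc_high fun p hp hp2 => ?_
      have h2 : ((K.x, p.2) : ℝ × ℝ) ∈ Q.car := Sqr.mem_car.2 ⟨⟨hx.1, hx.2⟩, (Sqr.mem_car.1 hp).2⟩
      exact disjoint_left.1 hKQ h2 ⟨rfl, hp2.1, hp2.2⟩
    · rw [if_pos ⟨hN, hx⟩]
      rw [not_and_or, not_le, not_le] at hx
      rcases hx with hx | hx
      · have h1 := h.osc_right (V := Eᶜ) (P := Q.car) (fun p hp => ⟨hQE hp, hN hp⟩)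
          (fun p hp => lt_of_lt_of_le hx (Sqr.mem_car.1 hp).1.1) (y0 := Q.y) (y1 := Q.y + Q.s)
          (fun p hp => (Sqr.mem_car.1 hp).2)
        rwa [show Q.y + Q.s - Q.y = Q.s by ring] at h1
      · exact (osc_left fun p hp => lt_of_le_of_lt (Sqr.mem_car.1 hp).1.2 hx).mono
            (mul_nonneg (Mt_nonneg K) hs.le)
  · rw [if_neg (fun hc => ?_)]
    · exact h.osc_far fun p hp => ⟨hQE hp, fun hpN => disjoint_left.1 hN hp hpN⟩
    · obtain ⟨q, hq⟩ := Q.nonempty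
      exact disjoint_left.1 hN hq (hc.1 hq)

/-- **START with squares, oscillation form.** -/
theorem start_osc (hE : QPic E 𝒬 𝓗) {K : Hair} (hK : K ∈ 𝓗)
    (hKQ : ∀ Q ∈ 𝒬, Disjoint Q.car {p | p.1 = K.x ∧ K.b < p.2 ∧ p.2 < K.t})
    (hatt : ∀ Q ∈ 𝒬, (Q.car ∩ connectedComponentIn E (K.x, K.b)).Nonempty →
      Q.x ≤ K.x ∧ K.x ≤ Q.x + Q.s)
    {U : Set (ℝ × ℝ)} (hU : IsOpen U) (hPU : connectedComponentIn E (K.x, K.b) ⊆ U)
    {ε : ℝ} (hε : 0 < ε) :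
    ∃ (Φ : ℝ × ℝ → ℝ) (δ : Sqr → ℝ), CFJ 𝓗 univ Φ ∧ HasCompactSupport Φ ∧
      (∀ p, 0 ≤ Φ p ∧ Φ p ≤ 1) ∧ (∀ p ∉ U, Φ p = 0) ∧ ∫ p in Eᶜ, gx Φ p = - ∫ y, tent K y ∧
      (∀ Q, 0 ≤ δ Q ∧ δ Q ≤ Mt K * Q.s) ∧ (∀ Q ∈ 𝒬, OscLe Eᶜ Q.car Φ (δ Q)) ∧
      Summable (fun Q : 𝒬 => Q.1.s * δ Q.1) ∧ Summable (fun Q : 𝒬 => δ Q.1 ^ 2) ∧
      ∑' Q : 𝒬, Q.1.s * δ Q.1 ≤ ε ∧ ∑' Q : 𝒬, δ Q.1 ^ 2 ≤ ε := by
  classical
  have hM := Mt_nonneg K
  set P : Set (ℝ × ℝ) := connectedComponentIn E (K.x, K.b) with hPdef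
  have hbt := K.hbt
  have hp0 : (K.x, K.b) ∈ E := hE.hsub K hK ⟨rfl, le_rfl, hbt.le⟩
  have hKP : K.car ⊆ P := by
    refine IsPreconnected.subset_connectedComponentIn ?_ ⟨rfl, le_rfl, hbt.le⟩ (hE.hsub K hK)
    rw [K.car_eq]; exact isPreconnected_singleton.prod isPreconnected_Icc
  have hPc : IsCompact P := isCompact_cc hE.cpt _
  set C : ℝ := Mt K + Mt K ^ 2 + 1 with hC
  have hC0 : 0 < C := by positivity
  obtain ⟨U', hPU', hU', -, hvol⟩ := hPc.measurableSet.exists_isOpen_sdiff_lt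
    (μ := (volume : Measure (ℝ × ℝ))) hPc.measure_lt_top.ne
    (ε := ENNReal.ofReal (ε / C)) (by simp; positivity)
  obtain ⟨N, hNo, hNb, hPN, hNU, hNf⟩ := exists_thin hE.cpt hp0 (hU.inter hU')
    (subset_inter hPU hPU')
  obtain ⟨δ, h⟩ := exists_TN hE.cpt hNo hNb (K := K)
    (fun p hp => ⟨hE.hsub K hK hp, hPN (hKP hp)⟩) hNf
  set A : Set Sqr := {Q | Q.car ⊆ N ∧ ¬ (Q.x ≤ K.x ∧ K.x ≤ Q.x + Q.s)} with hA
  set dl : Sqr → ℝ := fun Q => if Q ∈ A then Mt K * Q.s else 0 with hdl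
  have hch : ∀ Q ∈ 𝒬, OscLe Eᶜ Q.car (PhN K N δ) (dl Q) := by
    intro Q hQ
    exact h.osc_sq (hE.sub Q hQ) (hKQ Q hQ)
  -- the area of the squares of `A`
  have hcnt := hE.countable.to_subtype
  have harea : ∑' Q : 𝒬, ENNReal.ofReal (if Q.1 ∈ A then Q.1.s ^ 2 else 0)
      ≤ ENNReal.ofReal (ε / C) := by
    have h1 : ∀ Q : 𝒬, ENNReal.ofReal (if Q.1 ∈ A then Q.1.s ^ 2 else 0)
        = volume (Q.1.car ∩ (if Q.1 ∈ A then univ else ∅)) := by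
      intro Q
      split_ifs
      · rw [inter_univ, Sqr.volume_car]
      · simp
    simp_rw [h1]
    rw [← measure_iUnion (fun Q Q' hne => (hE.disjoint Q.2 Q'.2
      (fun he => hne (Subtype.ext he))).mono inter_subset_left inter_subset_left)
      (fun Q => Q.1.isCompact_car.measurableSet.inter (by split_ifs <;> simp))]
    refine (measure_mono (iUnion_subset fun Q p hp => ?_)).trans hvol.le
    split_ifs at hp with hQA
    · refine ⟨(hNU (hQA.1 hp.1)).2, fun hpP => hQA.2 ?_⟩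
      exact hatt Q.1 Q.2 ⟨p, hp.1, hpP⟩
    · exact absurd hp.2 (notMem_empty _)
  have hsumA : Summable fun Q : 𝒬 => (if Q.1 ∈ A then Q.1.s ^ 2 else 0 : ℝ) :=
    summable_of_tsum_ofReal (fun Q => by split_ifs <;> positivity)
      (ne_top_of_le_ne_top ENNReal.ofReal_ne_top harea)
  have htsA : ∑' Q : 𝒬, (if Q.1 ∈ A then Q.1.s ^ 2 else 0 : ℝ) ≤ ε / C := by
    have h0 : ∀ Q : 𝒬, (0 : ℝ) ≤ (if Q.1 ∈ A then Q.1.s ^ 2 else 0 : ℝ) := fun Q => by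
      split_ifs <;> positivity
    rw [← ENNReal.ofReal_tsum_of_nonneg h0 hsumA] at harea
    rwa [ENNReal.ofReal_le_ofReal_iff (by positivity)] at harea
  have hb1 : ∀ Q : 𝒬, Q.1.s * dl Q.1
      = Mt K * (if Q.1 ∈ A then Q.1.s ^ 2 else 0 : ℝ) := by
    intro Q
    simp only [hdl]
    split_ifs <;> ring
  have hb2 : ∀ Q : 𝒬, dl Q.1 ^ 2
      = Mt K ^ 2 * (if Q.1 ∈ A then Q.1.s ^ 2 else 0 : ℝ) := by
    intro Q
    simp only [hdl]
    split_ifs <;> ring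
  refine ⟨PhN K N δ, dl, h.cfj hK, h.cpt, fun p => ⟨PhN_nonneg K h.δ0 p, PhN_le_one K p⟩,
    fun p hp => PhN_zero K fun hc => hp (hNU hc).1, h.integral_compl, fun Q => ?_, hch, ?_, ?_,
    ?_, ?_⟩
  · have hs := Q.hs
    simp only [hdl]
    split_ifs
    · exact ⟨mul_nonneg hM hs.le, le_rfl⟩
    · exact ⟨le_rfl, mul_nonneg hM hs.le⟩
  · simp_rw [hb1]; exact hsumA.mul_left _
  · simp_rw [hb2]; exact hsumA.mul_left _
  · simp_rw [hb1]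
    rw [tsum_mul_left]
    calc Mt K * ∑' Q : 𝒬, (if Q.1 ∈ A then Q.1.s ^ 2 else 0 : ℝ) ≤ Mt K * (ε / C) :=
          mul_le_mul_of_nonneg_left htsA hM
      _ ≤ C * (ε / C) := mul_le_mul_of_nonneg_right (by rw [hC]; nlinarith [sq_nonneg (Mt K)])
          (by positivity)
      _ = ε := by field_simp
  · simp_rw [hb2]
    rw [tsum_mul_left]
    calc Mt K ^ 2 * ∑' Q : 𝒬, (if Q.1 ∈ A then Q.1.s ^ 2 else 0 : ℝ) ≤ Mt K ^ 2 * (ε / C) :=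
          mul_le_mul_of_nonneg_left htsA (sq_nonneg _)
      _ ≤ C * (ε / C) := mul_le_mul_of_nonneg_right (by rw [hC]; nlinarith [sq_nonneg (Mt K)])
          (by positivity)
      _ = ε := by field_simp

end Crest.Agent.R105.Stq_188
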