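import Crest.Agent.R105.Stq1_46
import Crest.Agent.R105.Stq2_46
import Crest.Agent.R105.Nie2_909

/-!
# Row 105, S0138 (NI frame), leaf `PLAP`, part 3 (helper46)

* `acvG`   : 909's `nie_core` with conclusion `ACV`, without compact support of the anchor, `f`
  arbitrary;
* `sliceG` : the slice bound for one function which is near every uncharged component a Lipschitz
  function of `(X, y)` and has the charges `c K` at the components in `P` (626's `varLe_planar`);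
* `nieACV`, `nieG` : 909's `nie` without compact support, without `f ∈ TT`.
-/

set_option autoImplicit false

open MeasureTheory Set Filter Topology Metric
open scoped NNReal ENNReal

namespace Crest.Agent.R105.Stq_46

open Thin_12 Sl_732 Bd_775 Tc_808 Ni_459 Crest.AnalysisR IfB_641 Plv_626
open Nip_31 (ll_x0 lb_x0 osp_x0 ni_x0 en_x0_fin dj_eq osp tt_sum jj_countable osp_eq pos_ae contAt)
open Vs_439 (mul measurable_mul lintegral_mul_le am_gm wdg_le_en measurable_en')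
open Nie_909 (smv_of_liminf sqc measurable_sqc lintegral_sqc Wj isOpen_Wj sub_Wj tendsto_en
  tendsto_osc Sv Sv_comp Lv_closed Lv_sat chS chS_eq)

noncomputable section

variable {Y : Set ℂ} {A f a b x0 : ℂ → ℝ}

/-- **from slice bounds to `ACV` on a.e. level** (909's `nie_core`, without compact support of the
anchor, `f` arbitrary) -/
theorem acvG (hY : IsExteriorDomain Yᶜ) (hx : X0 Y x0) (ha : TT Y a)
    {P : Set (Cmp Y)} (hP : P.Countable)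
    {c : ℕ → Cmp Y → ℝ} (hc0 : ∀ n K, 0 ≤ c n K) {C : ℝ≥0∞} (hC : C ≠ ∞)
    (hcs : ∀ n, ∑' K : P, ENNReal.ofReal (c n K.1 ^ 2) ≤ C)
    {b : ℕ → ℂ → ℝ} (hb : ∀ n, LocallyLipschitzOn Yᶜ (b n))
    (hbf : ∀ z ∉ Y, Tendsto (fun n => b n z) atTop (𝓝 (f z)))
    {M : ℝ≥0∞} (hM : M ≠ ∞) (hen : ∀ n, ∫⁻ z in Yᶜ, ENNReal.ofReal (en (b n) z) ≤ M)
    (hv : ∀ n, ∀ᵐ t : ℝ, ∀ W, IsOpen W → ∀ r : ℝ, 0 ≤ r →
      mul (fun z => x0 z + a z) (b n) (W \ Y) t + sqc Y (fun z => x0 z + a z) P (c n) W t ≤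
        ENNReal.ofReal r → VarLe Y (Lv Y (fun z => x0 z + a z) t) W (b n) r) :
    ∀ᵐ t : ℝ, ACV Y (Lv Y (fun z => x0 z + a z) t) f := by
  classical
  have hYc := cpt_of hY
  have hPc : Countable P := hP.to_subtype
  let _ : Encodable P := Encodable.ofCountable P
  set A : ℂ → ℝ := fun z => x0 z + a z with hA
  have hAl : LocallyLipschitzOn Yᶜ A := Nip_31.ll_x0 hx ha
  set η : ℕ → ℕ → ℝ → ℝ≥0∞ := fun j n t =>
    mul A (b n) (Wj Y P j \ Y) t + sqc Y A P (c n) (Wj Y P j) t with hη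
  have hfin := smv_of_liminf (S := (fun K : Cmp Y => K.1) '' P) (L := fun t => Lv Y A t)
    (W := Wj Y P) (isOpen_Wj hYc P) (sub_Wj P) hbf (η := η)
    (fun j n => (measurable_mul _ _ _).add (measurable_sqc hP _ _)) ?_ ?_
  · filter_upwards [hfin] with t ht
    refine ⟨_, hP.image _, ?_, ht⟩
    rintro _ ⟨K, -, rfl⟩
    exact K.2
  · have h1 := ae_all_iff.2 hv
    filter_upwards [h1] with t ht j n r hr0 hr
    exact ht n (Wj Y P j) (isOpen_Wj hYc P j) r hr0 hr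
  · intro ε hε
    -- constants
    set N : ℝ≥0∞ := M + C with hN
    have hNt : N ≠ ∞ := ENNReal.add_ne_top.2 ⟨hM, hC⟩
    set θ : ℝ := 2 * (N.toReal + 1) / ε with hθd
    have hN0 : 0 ≤ N.toReal := ENNReal.toReal_nonneg
    have hθ : 0 < θ := by positivity
    have h1 := tendsto_en hY hx ha
    have h2 := tendsto_osc ha P
    have h3 := ENNReal.Tendsto.const_mul (a := ENNReal.ofReal θ) (h1.add h2)
      (Or.inr ENNReal.ofReal_ne_top)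
    rw [add_zero, mul_zero] at h3
    obtain ⟨j, hj⟩ := (ENNReal.tendsto_nhds_zero.1 h3 (ENNReal.ofReal (ε / 2))
      (ENNReal.ofReal_pos.2 (by positivity))).exists
    refine ⟨j, Frequently.of_forall fun n => ?_⟩
    have hWo := isOpen_Wj hYc P j
    have hms : MeasurableSet (Wj Y P j \ Y) := hWo.measurableSet.diff hYc.isClosed.measurableSet
    have hWs : Wj Y P j \ Y ⊆ thickening (1 / ((j : ℝ) + 1)) Y \ Y := fun z hz => ⟨hz.1.1, hz.2⟩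
    have hθ' : 0 < θ⁻¹ := inv_pos.2 hθ
    have hI : ∫⁻ t, η j n t = (∫⁻ t, mul A (b n) (Wj Y P j \ Y) t) +
        ∫⁻ t, sqc Y A P (c n) (Wj Y P j) t :=
      lintegral_add_left (measurable_mul A (b n) (Wj Y P j \ Y)) _
    rw [hI, lintegral_sqc hP]
    have hA1 : ∫⁻ t, mul A (b n) (Wj Y P j \ Y) t ≤
        ENNReal.ofReal θ * (∫⁻ z in thickening (1 / ((j : ℝ) + 1)) Y \ Y, ENNReal.ofReal (en A z)) +
        ENNReal.ofReal θ⁻¹ * M := by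
      refine (lintegral_mul_le hY.1 hAl (hb n) (fun z hz => hz.2) hms).trans ?_
      have h4 : ∫⁻ z in Wj Y P j \ Y, ENNReal.ofReal |wdg A (b n) z| ≤
          ∫⁻ z in Wj Y P j \ Y, (ENNReal.ofReal θ * ENNReal.ofReal (en A z) +
            ENNReal.ofReal θ⁻¹ * ENNReal.ofReal (en (b n) z)) := by
        refine lintegral_mono fun z => ?_
        rw [← ENNReal.ofReal_mul hθ.le, ← ENNReal.ofReal_mul hθ'.le, ← ENNReal.ofReal_add
          (mul_nonneg hθ.le (en_nonneg A z)) (mul_nonneg hθ'.le (en_nonneg (b n) z))]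
        exact ENNReal.ofReal_le_ofReal (wdg_le_en hθ z)
      refine h4.trans ?_
      rw [lintegral_add_left ((measurable_en' A).ennreal_ofReal.const_mul _),
        lintegral_const_mul' _ _ ENNReal.ofReal_ne_top,
        lintegral_const_mul' _ _ ENNReal.ofReal_ne_top]
      refine add_le_add ?_ ?_
      · exact mul_le_mul_right (lintegral_mono_set hWs) _
      · exact mul_le_mul_right ((lintegral_mono_set fun z hz => hz.2).trans (hen n)) _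
    have hA2 : (∑' K : P, if K.1.1 ⊆ Wj Y P j then
        ENNReal.ofReal (c n K.1) * ENNReal.ofReal (Nip_31.osp Y A (Nip_31.pt K.1)) else 0) ≤
        ENNReal.ofReal θ * (∑' K : P, if K.1.1 ⊆ Wj Y P j then
          ENNReal.ofReal (osc Y a K.1.1 ^ 2) else 0) + ENNReal.ofReal θ⁻¹ * C := by
      refine le_trans ?_ (add_le_add_right (mul_le_mul_right (hcs n) _) _)
      rw [← ENNReal.tsum_mul_left, ← ENNReal.tsum_mul_left, ← ENNReal.tsum_add]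
      refine ENNReal.tsum_le_tsum fun K => ?_
      by_cases h : K.1.1 ⊆ Wj Y P j
      · rw [if_pos h, if_pos h, Nip_31.osp_x0 hx, Nip_31.osp_eq hY ha,
          ← ENNReal.ofReal_mul (hc0 _ _), ← ENNReal.ofReal_mul hθ.le, ← ENNReal.ofReal_mul hθ'.le,
          ← ENNReal.ofReal_add (by positivity) (by positivity), mul_comm]
        exact ENNReal.ofReal_le_ofReal (am_gm hθ _ _)
      · rw [if_neg h]; exact zero_le
    refine (add_le_add hA1 hA2).trans ?_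
    have h5 : ENNReal.ofReal θ⁻¹ * N ≤ ENNReal.ofReal (ε / 2) := by
      rw [← ENNReal.ofReal_toReal hNt, ← ENNReal.ofReal_mul hθ'.le]
      refine ENNReal.ofReal_le_ofReal ?_
      rw [hθd, inv_div, div_mul_eq_mul_div, div_le_div_iff₀ (by positivity) (by norm_num)]
      nlinarith
    calc _ = ENNReal.ofReal θ * ((∫⁻ z in thickening (1 / ((j : ℝ) + 1)) Y \ Y,
              ENNReal.ofReal (en A z)) + ∑' K : P, if K.1.1 ⊆ Wj Y P j then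
              ENNReal.ofReal (osc Y a K.1.1 ^ 2) else 0) + ENNReal.ofReal θ⁻¹ * N := by
            rw [hN]; ring
      _ ≤ ENNReal.ofReal (ε / 2) + ENNReal.ofReal (ε / 2) := add_le_add hj h5
      _ = ENNReal.ofReal ε := by
            rw [← ENNReal.ofReal_add (by positivity) (by positivity), add_halves]


/-- **slice bound for one function** -/
theorem sliceG (hY : IsExteriorDomain Yᶜ) (hx : X0 Y x0) (ha : TT Y a)
    (hs : Swd Y (fun z => x0 z + a z)) {P : Set (Cmp Y)} (hP : P.Countable)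
    {X y : ℂ → ℝ} (hX : ContinuousOn X Yᶜ) (hy : ContinuousOn y Yᶜ)
    (hvX : ∀ᵐ t : ℝ, SmV Y (Lv Y (fun z => x0 z + a z) t) (Sv P) X)
    (hvy : ∀ᵐ t : ℝ, SmV Y (Lv Y (fun z => x0 z + a z) t) (Sv P) y)
    {c : Cmp Y → ℝ} {b : ℂ → ℝ} (hb : ContinuousOn b Yᶜ)
    (hlip : ∀ᵐ t : ℝ, ∀ z ∈ (Lv Y (fun z => x0 z + a z) t ∩ Y) \ ⋃₀ Sv P,
      LipAt Y (Lv Y (fun z => x0 z + a z) t) X y b z)
    (hch : ∀ᵐ t : ℝ, ∀ K ∈ P, K.1 ⊆ Lv Y (fun z => x0 z + a z) t →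
      ChLe Y (Lv Y (fun z => x0 z + a z) t) b K.1 (c K)) :
    ∀ᵐ t : ℝ, ∀ W, IsOpen W → ∀ r : ℝ, 0 ≤ r →
      mul (fun z => x0 z + a z) b (W \ Y) t + sqc Y (fun z => x0 z + a z) P c W t ≤
        ENNReal.ofReal r → VarLe Y (Lv Y (fun z => x0 z + a z) t) W b r := by
  classical
  set A : ℂ → ℝ := fun z => x0 z + a z with hA
  have hYc := cpt_of hY
  have hAl : LocallyLipschitzOn Yᶜ A := Nip_31.ll_x0 hx ha
  have hAb : LB A := Nip_31.lb_x0 hx ha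
  filter_upwards [hvX, hvy, hlip, hch, lev_x0 hY hx ha hs] with t h1 h2 h3 h4 h5 W hW r hr0 hr
  obtain ⟨hLn, μ, hμ, hμC⟩ := h5
  have hLc := Lv_closed hY hAb t
  refine varLe_planarN hYc hLc hLn (Lv_sat t) μ hμC
    (hP.image _) (Sv_comp P) hX hy hb h1 h2 h3 (σ := chS c) ?_ (a := A) (t := t) ?_ hr0 ?_
  · rintro _ ⟨K, hK, rfl⟩ hKL
    rw [chS_eq]
    exact h4 K hK hKL
  · rintro z ⟨hz, hzY⟩
    have h6 := hz.1
    have h7 := hz.2
    rw [Nip_31.lo_eq hY hAl hAb hzY] at h6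
    rw [Nip_31.up_eq hY hAl hAb hzY] at h7
    exact le_antisymm h6 h7
  · refine le_trans (add_le_add le_rfl ?_) hr
    have h6 := tsum_image (fun K : Set ℂ => if K ⊆ Lv Y A t ∩ W then
      ENNReal.ofReal (chS c K) else 0) (Subtype.val_injective.injOn (s := P))
    rw [show (∑' K : Sv P, if K.1 ⊆ Lv Y A t ∩ W then ENNReal.ofReal (chS c K.1) else 0) =
      ∑' K : P, if K.1.1 ⊆ Lv Y A t ∩ W then ENNReal.ofReal (chS c K.1.1) else 0 from h6]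
    unfold sqc
    refine ENNReal.tsum_le_tsum fun K => ?_
    by_cases h : K.1.1 ⊆ Lv Y A t ∩ W
    · have h8 := (h (Nip_31.pt_mem K.1)).1
      rw [if_pos h, if_pos ⟨fun z hz => (h hz).2, h8.1, h8.2⟩, chS_eq]
    · rw [if_neg h]; exact zero_le

/-- **the abstract closure theorem**, conclusion `ACV` -/
theorem nieACV (hY : IsExteriorDomain Yᶜ) (hx : X0 Y x0) (ha : TT Y a)
    (hs : Swd Y (fun z => x0 z + a z)) {P : Set (Cmp Y)} (hP : P.Countable)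
    {X y : ℂ → ℝ} (hX : ContinuousOn X Yᶜ) (hy : ContinuousOn y Yᶜ)
    (hvX : ∀ᵐ t : ℝ, SmV Y (Lv Y (fun z => x0 z + a z) t) (Sv P) X)
    (hvy : ∀ᵐ t : ℝ, SmV Y (Lv Y (fun z => x0 z + a z) t) (Sv P) y)
    {c : ℕ → Cmp Y → ℝ} (hc0 : ∀ n K, 0 ≤ c n K) {C : ℝ≥0∞} (hC : C ≠ ∞)
    (hcs : ∀ n, ∑' K : P, ENNReal.ofReal (c n K.1 ^ 2) ≤ C)
    {b : ℕ → ℂ → ℝ} (hb : ∀ n, LocallyLipschitzOn Yᶜ (b n))
    (hbf : ∀ z ∉ Y, Tendsto (fun n => b n z) atTop (𝓝 (f z)))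
    {M : ℝ≥0∞} (hM : M ≠ ∞) (hen : ∀ n, ∫⁻ z in Yᶜ, ENNReal.ofReal (en (b n) z) ≤ M)
    (hlip : ∀ n, ∀ᵐ t : ℝ, ∀ z ∈ (Lv Y (fun z => x0 z + a z) t ∩ Y) \ ⋃₀ Sv P,
      LipAt Y (Lv Y (fun z => x0 z + a z) t) X y (b n) z)
    (hch : ∀ n, ∀ᵐ t : ℝ, ∀ K ∈ P, K.1 ⊆ Lv Y (fun z => x0 z + a z) t →
      ChLe Y (Lv Y (fun z => x0 z + a z) t) (b n) K.1 (c n K)) :
    ∀ᵐ t : ℝ, ACV Y (Lv Y (fun z => x0 z + a z) t) f :=
  acvG hY hx ha hP hc0 hC hcs hb hbf hM hen fun n =>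
    sliceG hY hx ha hs hP hX hy hvX hvy (hb n).continuousOn (hlip n) (hch n)

/-- **the abstract closure theorem**: `f` is locally bounded, its jumps are dominated by the jumps of
a `T`-finite `u`. -/
theorem nieG (hY : IsExteriorDomain Yᶜ) (hx : X0 Y x0) (ha : TT Y a)
    (hs : Swd Y (fun z => x0 z + a z)) (hf : LB f) {u : ℂ → ℝ} (hu : TT Y u)
    (hd : ∀ K : Cmp Y, dj Y f K ≤ osc Y u K.1) {P : Set (Cmp Y)} (hP : P.Countable)
    {X y : ℂ → ℝ} (hX : ContinuousOn X Yᶜ) (hy : ContinuousOn y Yᶜ)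
    (hvX : ∀ᵐ t : ℝ, SmV Y (Lv Y (fun z => x0 z + a z) t) (Sv P) X)
    (hvy : ∀ᵐ t : ℝ, SmV Y (Lv Y (fun z => x0 z + a z) t) (Sv P) y)
    {c : ℕ → Cmp Y → ℝ} (hc0 : ∀ n K, 0 ≤ c n K) {C : ℝ≥0∞} (hC : C ≠ ∞)
    (hcs : ∀ n, ∑' K : P, ENNReal.ofReal (c n K.1 ^ 2) ≤ C)
    {b : ℕ → ℂ → ℝ} (hb : ∀ n, LocallyLipschitzOn Yᶜ (b n))
    (hbf : ∀ z ∉ Y, Tendsto (fun n => b n z) atTop (𝓝 (f z)))
    {M : ℝ≥0∞} (hM : M ≠ ∞) (hen : ∀ n, ∫⁻ z in Yᶜ, ENNReal.ofReal (en (b n) z) ≤ M)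
    (hlip : ∀ n, ∀ᵐ t : ℝ, ∀ z ∈ (Lv Y (fun z => x0 z + a z) t ∩ Y) \ ⋃₀ Sv P,
      LipAt Y (Lv Y (fun z => x0 z + a z) t) X y (b n) z)
    (hch : ∀ n, ∀ᵐ t : ℝ, ∀ K ∈ P, K.1 ⊆ Lv Y (fun z => x0 z + a z) t →
      ChLe Y (Lv Y (fun z => x0 z + a z) t) (b n) K.1 (c n K)) :
    NI Y a f :=
  ni_of_acv_x0 hY hx ha hs hf hu hd
    (nieACV hY hx ha hs hP hX hy hvX hvy hc0 hC hcs hb hbf hM hen hlip hch)

/-- the same for `f ∈ TT` (for `LIMP`) -/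
theorem nieT (hY : IsExteriorDomain Yᶜ) (hx : X0 Y x0) (ha : TT Y a)
    (hs : Swd Y (fun z => x0 z + a z)) (hf : TT Y f) {P : Set (Cmp Y)} (hP : P.Countable)
    {X y : ℂ → ℝ} (hX : ContinuousOn X Yᶜ) (hy : ContinuousOn y Yᶜ)
    (hvX : ∀ᵐ t : ℝ, SmV Y (Lv Y (fun z => x0 z + a z) t) (Sv P) X)
    (hvy : ∀ᵐ t : ℝ, SmV Y (Lv Y (fun z => x0 z + a z) t) (Sv P) y)
    {c : ℕ → Cmp Y → ℝ} (hc0 : ∀ n K, 0 ≤ c n K) {C : ℝ≥0∞} (hC : C ≠ ∞)
    (hcs : ∀ n, ∑' K : P, ENNReal.ofReal (c n K.1 ^ 2) ≤ C)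
    {b : ℕ → ℂ → ℝ} (hb : ∀ n, LocallyLipschitzOn Yᶜ (b n))
    (hbf : ∀ z ∉ Y, Tendsto (fun n => b n z) atTop (𝓝 (f z)))
    {M : ℝ≥0∞} (hM : M ≠ ∞) (hen : ∀ n, ∫⁻ z in Yᶜ, ENNReal.ofReal (en (b n) z) ≤ M)
    (hlip : ∀ n, ∀ᵐ t : ℝ, ∀ z ∈ (Lv Y (fun z => x0 z + a z) t ∩ Y) \ ⋃₀ Sv P,
      LipAt Y (Lv Y (fun z => x0 z + a z) t) X y (b n) z)
    (hch : ∀ n, ∀ᵐ t : ℝ, ∀ K ∈ P, K.1 ⊆ Lv Y (fun z => x0 z + a z) t →
      ChLe Y (Lv Y (fun z => x0 z + a z) t) (b n) K.1 (c n K)) :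
    NI Y a f :=
  (Nip_31.ni_iff_acvG hY hx ha hs hf).2
    (nieACV hY hx ha hs hP hX hy hvX hvy hc0 hC hcs hb hbf hM hen hlip hch)

end

end Crest.Agent.R105.Stq_46
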