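import Crest.Agent.R105.Stq2_483
import Crest.Agent.R105.Spq0_722

/-!
Row 105 (S0138), task 2496: `stepS` over 722's `SetupR` / 744's `LayerOpR`.
-/

set_option autoImplicit false
set_option linter.unusedSectionVars false

open Set Filter Topology Metric

namespace Crest.Agent.R105.Stq_483

open Crest.Agent.R105.Stp_722 Crest.Agent.R105.Spq_722

local notation "cc" => connectedComponentIn

variable {X : Type*} [TopologicalSpace X] [T2Space X] {V E : Set X} {h : X → ℝ}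

theorem setup_of {Hr : Set X} {Cl : (X → ℝ) → Prop} {D : (X → ℝ) → (X → ℝ) → ℝ → Prop} {ρ : ℝ}
    (_ : 0 < ρ) (S : SetupR V E h Hr Cl D ρ) :
    Setup V E h (fun B B' G => B + ρ ≤ B' ∧ G ⊆ Hr) Cl D where
  hE := S.hE
  hh := S.hh
  lev := S.levI
  D0 := S.D0
  Dadd := S.Dadd
  layer := by
    intro B B' G W χ c c' R τ m ε _ hG _ hok hsat hW hGW hcr hχ hR hc hc' hcl hcl' hτ hm hε
    exact S.layer B B' G W χ c c' R τ m ε hok.1 hG hok.2 hsat hW hGW hcr hχ hR hc hc' hcl hcl'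
      hτ hm hε

/-- **the step over `SetupR`**. -/
theorem stepR {Hr : Set X} {Cl : (X → ℝ) → Prop} {D : (X → ℝ) → (X → ℝ) → ℝ → Prop} {ρ : ℝ}
    (hρ : 0 < ρ) (S : SetupR V E h Hr Cl D ρ) {E' : Set X} (hE' : Part E E') {φ : X → ℝ}
    (hφ : Cl φ) {R : ℝ} (hR0 : 0 ≤ R) (hR : ∀ x, |φ x| ≤ R) {a b : ℝ} (ha : 0 < a) (hab : a ≤ b)
    (hosc : ∀ x ∈ gfam V E E' φ (a / 4), OscLe V (cc E x) φ b)
    (hHr : gfam V E E' φ (a / 4) ⊆ Hr)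
    {d B0 : ℝ} {m : ℕ} (hρd : ρ ≤ d) (hm : 0 < m)
    (hcov : ∀ x ∈ E', B0 ≤ h x ∧ h x ≤ B0 + m * d)
    (hport : ∀ x ∈ gfam V E E' φ (a / 4), ∀ s,
      OscLe V (cc E x ∩ {y | s ≤ h y ∧ h y ≤ s + 2 * d}) φ (a / 100))
    (hslice : ∀ x ∈ gfam V E E' φ (a / 4), ∀ t,
      OscLe V (cc E x ∩ {y | h y = t}) φ (a / (1000 * m)))
    {O : X → Set X} (hO : ∀ x ∈ gfam V E E' φ (a / 4), IsOpen (O x) ∧ cc E x ⊆ O x)
    {ε : ℝ} (hε : 0 < ε) :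
    ∃ φ' : X → ℝ, Cl φ' ∧ (∀ x, |φ' x| ≤ R) ∧ D φ φ' ε ∧
      (∀ x ∈ E', OscLe V (cc E x) φ' (a / 3)) ∧
      (∀ q, φ' q = φ q ∨ ∃ x ∈ gfam V E E' φ (a / 4), q ∈ O x ∧
        (q ∈ V → |φ' q - φ q| ≤ 2 * b) ∧
        ∀ u v, (∀ q' ∈ O x ∩ V, φ q' ∈ Icc u v) → φ q ∈ Icc u v → φ' q ∈ Icc u v) ∧
      (∀ x ∈ E, ∀ P ⊆ cc E x, Lev V h P → ∀ c, OscLe V P φ c → OscLe V P φ' (c + a / 50)) ∧
      ∀ x ∈ E, ∀ P ⊆ cc E x, ∀ t, P ⊆ {y | h y = t} → ∀ c, OscLe V P φ c →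
        OscLe V P φ' (c + a / 1000) := by
  refine stepS (setup_of hρ S) hE' hφ hR0 hR ha hab hosc (hρ.trans_le hρd) hm hcov hport hslice
    (fun i _ => ⟨?_, fun x hx => hHr hx.1⟩) hO hε
  push_cast
  linarith

end Crest.Agent.R105.Stq_483
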