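import Crest.Agent.R105.Stq1_483

/-!
Row 105 (S0138), CLEANQ growth clause, frame free: the one-sided operation
`op h B τ z F χ = χ + θ z (F - χ)` with a function `F` which is only *nearly* constant near the
portion `P` (`|F - k| ≤ κ`).
-/

set_option autoImplicit false
set_option linter.unusedSectionVars false

open Set Filter Topology Metric

namespace Crest.Agent.R105.Stq_483

open Crest.Agent.R105.Stp_722

local notation "cc" => connectedComponentIn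

variable {X : Type*} [TopologicalSpace X] [T2Space X] {V E : Set X} {h : X → ℝ}
  {B τ : ℝ} {z F χ : X → ℝ} {P : Set X}

/-- changing `F` by at most `κ` changes `op` by at most `κ`. -/
theorem abs_op_sub_op_le (hz01 : ∀ x, 0 ≤ z x ∧ z x ≤ 1) {c : X → ℝ} {q : X} {κ : ℝ}
    (hκ : |F q - c q| ≤ κ) : |op h B τ z F χ q - op h B τ z c χ q| ≤ κ := by
  have h0 := w_nonneg (h := h) (B := B) (τ := τ) hz01 q
  have h1 := w_le_one (h := h) (B := B) (τ := τ) hz01 q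
  have e : op h B τ z F χ q - op h B τ z c χ q = th B τ (h q) * z q * (F q - c q) := by
    unfold op; ring
  rw [e, abs_mul, abs_of_nonneg h0]
  calc _ ≤ 1 * |F q - c q| := by gcongr
    _ ≤ κ := by rw [one_mul]; exact hκ

/-- growth of a portion with `Lev`, `F` within `κ` of a constant near `P`. -/
theorem growth_near (hh : Continuous h) (hτ : 0 < τ) (hP : Lev V h P)
    {N : Set X} (hN : IsOpen N) (hPN : P ⊆ N) {k A η m a κ : ℝ}
    (hη0 : 0 ≤ η) (hA0 : 0 ≤ A) (hm0 : 0 ≤ m)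
    (hF : ∀ q ∈ N ∩ V, |F q - k| ≤ κ) (hA : ∀ q ∈ N ∩ V, |χ q - k| ≤ A)
    (hη : ∀ q ∈ N ∩ V, |h q - B| < 2 * τ → |χ q - k| ≤ η)
    (hz01 : ∀ x, 0 ≤ z x ∧ z x ≤ 1)
    (hz : OscLe (V ∩ {x | h x < B}) (P ∩ {x | h x ≤ B}) z m) (ha : OscLe V P χ a) :
    OscLe V P (op h B τ z F χ) (a + m * A + 2 * η + 2 * κ) :=
  (growth_lev (c := fun _ => k) hh hτ hP hN hPN hη0 hA0 hm0 (fun _ _ => rfl) hA hη hz01 hz
    ha).of_near hN hPN fun _ hq => abs_op_sub_op_le hz01 (hF _ hq)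

/-- growth of a portion inside one level, `F` within `κ` of a constant near `P`. -/
theorem growth_slice_near (hh : Continuous h) (hτ : 0 < τ) {t : ℝ}
    (hPt : P ⊆ {x | h x = t}) {N : Set X} (hN : IsOpen N) (hPN : P ⊆ N) {k A m a κ : ℝ}
    (hA0 : 0 ≤ A) (hm0 : 0 ≤ m)
    (hF : ∀ q ∈ N ∩ V, |F q - k| ≤ κ) (hA : ∀ q ∈ N ∩ V, |χ q - k| ≤ A)
    (hz01 : ∀ x, 0 ≤ z x ∧ z x ≤ 1)
    (hz : OscLe (V ∩ {x | h x < B}) (P ∩ {x | h x ≤ B}) z m) (ha : OscLe V P χ a) :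
    OscLe V P (op h B τ z F χ) (a + m * A + 2 * κ) :=
  (growth_slice (c := fun _ => k) hh hτ hPt hN hPN hA0 hm0 (fun _ _ => rfl) hA hz01 hz
    ha).of_near hN hPN fun _ hq => abs_op_sub_op_le hz01 (hF _ hq)

/-- **GROWTH CLAUSE of CLEANQ, one side.**  `z` is a cut-off with support in `W` and oscillation at
most `m` on every component; near every component of `E` that meets `W` and is different from
the one treated, `F` is within `κ` of a constant `k`, with `|χ - k| ≤ A` everywhere and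
`|χ - k| ≤ η` next to the level `B`. -/
theorem growth_comp (hh : Continuous h) (hτ : 0 < τ) {W : Set X} {m A η κ : ℝ}
    (hz : Cut V E h B W m z) (hm0 : 0 ≤ m) (hA0 : 0 ≤ A) (hη0 : 0 ≤ η) (hκ0 : 0 ≤ κ)
    {x : X} (hx : x ∈ E)
    (hK : (cc E x ∩ W).Nonempty → ∃ k, ∃ N, IsOpen N ∧ cc E x ⊆ N ∧
      (∀ q ∈ N ∩ V, |F q - k| ≤ κ ∧ |χ q - k| ≤ A ∧ (|h q - B| < 2 * τ → |χ q - k| ≤ η)))
    {R : Set X} (hR : R ⊆ cc E x) (hRl : Lev V h R) {a : ℝ} (ha : OscLe V R χ a) :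
    OscLe V R (op h B τ z F χ) (a + m * A + 2 * η + 2 * κ) := by
  have hmA : 0 ≤ m * A := mul_nonneg hm0 hA0
  by_cases hne : (cc E x ∩ W).Nonempty
  · obtain ⟨k, N, hN, hKN, H⟩ := hK hne
    exact growth_near hh hτ hRl hN (hR.trans hKN) hη0 hA0 hm0 (fun q hq => (H q hq).1)
      (fun q hq => (H q hq).2.1) (fun q hq => (H q hq).2.2) hz.z01
      ((hz.osc x hx).mono_set (inter_subset_inter_left _ hR)) ha
  · obtain ⟨C, hC, hCW, hC0⟩ := hz.supp
    refine (growth_off hC hC0 ?_ ha).mono (by linarith)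
    rw [Set.disjoint_left]
    intro y hyR hyC
    exact hne ⟨y, hR hyR, hCW hyC⟩

/-- the same for a portion inside one level (no `η`). -/
theorem growth_comp_slice (hh : Continuous h) (hτ : 0 < τ) {W : Set X} {m A κ : ℝ}
    (hz : Cut V E h B W m z) (hm0 : 0 ≤ m) (hA0 : 0 ≤ A) (hκ0 : 0 ≤ κ)
    {x : X} (hx : x ∈ E)
    (hK : (cc E x ∩ W).Nonempty → ∃ k, ∃ N, IsOpen N ∧ cc E x ⊆ N ∧
      (∀ q ∈ N ∩ V, |F q - k| ≤ κ ∧ |χ q - k| ≤ A))
    {R : Set X} (hR : R ⊆ cc E x) {t : ℝ} (hRt : R ⊆ {y | h y = t}) {a : ℝ}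
    (ha : OscLe V R χ a) :
    OscLe V R (op h B τ z F χ) (a + m * A + 2 * κ) := by
  have hmA : 0 ≤ m * A := mul_nonneg hm0 hA0
  by_cases hne : (cc E x ∩ W).Nonempty
  · obtain ⟨k, N, hN, hKN, H⟩ := hK hne
    exact growth_slice_near hh hτ hRt hN (hR.trans hKN) hA0 hm0 (fun q hq => (H q hq).1)
      (fun q hq => (H q hq).2) hz.z01
      ((hz.osc x hx).mono_set (inter_subset_inter_left _ hR)) ha
  · obtain ⟨C, hC, hCW, hC0⟩ := hz.supp
    refine (growth_off hC hC0 ?_ ha).mono (by linarith)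
    rw [Set.disjoint_left]
    intro y hyR hyC
    exact hne ⟨y, hR hyR, hCW hyC⟩

end Crest.Agent.R105.Stq_483
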