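import Crest.Agent.R105.CF3_363
import Crest.Agent.R105.Mp3_87

/-!
Row 105, lemma A: the stream function on a rectangle (helper421).
Part 1: one-dimensional tools and the Fubini dualities.
-/

open MeasureTheory Set Filter Topology

namespace Crest.Agent.R105.Str_421

/-- primitive -/
noncomputable def P (D : ℝ → ℝ) (s : ℝ) : ℝ := ∫ t in Iic s, D t

theorem P_sub {D : ℝ → ℝ} (hD : Integrable D) (s s' : ℝ) :
    P D s' - P D s = ∫ t in s..s', D t :=
  intervalIntegral.integral_Iic_sub_Iic hD.integrableOn hD.integrableOn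

theorem P_lip {D : ℝ → ℝ} (hD : Integrable D) {M : ℝ} (hM : ∀ t, |D t| ≤ M) (s s' : ℝ) :
    |P D s - P D s'| ≤ M * |s - s'| := by
  rw [P_sub hD]
  have h := intervalIntegral.norm_integral_le_of_norm_le_const (a := s') (b := s) (f := D) (C := M)
    (fun t _ => by rw [Real.norm_eq_abs]; exact hM t)
  rwa [Real.norm_eq_abs] at h

theorem P_bdd {D : ℝ → ℝ} (hD : Integrable D) (s : ℝ) : |P D s| ≤ ∫ t, |D t| := by
  unfold P
  have h1 := norm_integral_le_integral_norm (μ := volume.restrict (Iic s)) D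
  have h2 := setIntegral_le_integral (s := Iic s) hD.norm
    (Eventually.of_forall fun t => norm_nonneg (D t))
  simp only [Real.norm_eq_abs] at h1 h2
  exact h1.trans h2

theorem P_hasDerivAt {D : ℝ → ℝ} (hD : Integrable D) : ∀ᵐ s, HasDerivAt (P D) (D s) s := by
  filter_upwards [LocallyIntegrable.ae_hasDerivAt_integral hD.locallyIntegrable] with s hs
  have h1 := (hs 0).const_add (P D 0)
  have h2 : (fun x => P D 0 + ∫ t in (0:ℝ)..x, D t) = P D := by
    ext x; rw [← P_sub hD]; ring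
  rwa [h2] at h1

theorem P_eq_zero {D : ℝ → ℝ} {s : ℝ} (h : ∀ t ≤ s, D t = 0) : P D s = 0 := by
  unfold P
  exact setIntegral_eq_zero_of_forall_eq_zero fun t ht => h t ht

theorem P_eq_total {D : ℝ → ℝ} (hD : Integrable D) {s : ℝ} (h : ∀ t, s < t → D t = 0) :
    P D s = ∫ t, D t := by
  unfold P
  have h1 := integral_add_compl (measurableSet_Iic (a := s)) hD
  have h2 : ∫ t in (Iic s)ᶜ, D t = 0 :=
    setIntegral_eq_zero_of_forall_eq_zero fun t ht => h t (not_le.mp ht)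
  rw [← h1, h2, add_zero]

theorem P_measurable {D : ℝ → ℝ} (hD : Integrable D) {M : ℝ} (hM : ∀ t, |D t| ≤ M) :
    Continuous (P D) := by
  have hM0 : 0 ≤ M := (abs_nonneg _).trans (hM 0)
  have : LipschitzWith M.toNNReal (P D) := by
    refine LipschitzWith.of_dist_le_mul fun s s' => ?_
    rw [Real.dist_eq, Real.dist_eq, Real.coe_toNNReal M hM0]
    exact P_lip hD hM s s'
  exact this.continuous

/-- a function whose primitive vanishes at the rationals is zero -/
theorem ae_zero_of_prim {k : ℝ → ℝ} {u v : ℝ} (hk : IntervalIntegrable k volume u v)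
    (h : ∀ x : ℚ, (x : ℝ) ∈ Ioo u v → ∫ t in u..x, k t = 0) :
    ∀ᵐ y, y ∈ Ioo u v → k y = 0 := by
  rcases le_or_gt v u with huv | huv
  · exact Eventually.of_forall fun y hy => absurd (hy.1.trans hy.2) (not_lt.mpr huv)
  have hc : ContinuousOn (fun x => ∫ t in u..x, k t) (Icc u v) := by
    have := (hk.absolutelyContinuousOnInterval_intervalIntegral (c := u) (by simp)).continuousOn
    rwa [uIcc_of_le huv.le] at this
  have h0 : ∀ x ∈ Ioo u v, ∫ t in u..x, k t = 0 := by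
    intro x hx
    by_contra hne
    have hcx : ContinuousAt (fun x => ∫ t in u..x, k t) x := hc.continuousAt (Icc_mem_nhds hx.1 hx.2)
    have h1 : ∀ᶠ z in 𝓝 x, (∫ t in u..z, k t) ≠ 0 := hcx.eventually_ne hne
    have h2 : ∀ᶠ z in 𝓝 x, z ∈ Ioo u v := Ioo_mem_nhds hx.1 hx.2
    obtain ⟨ε, hε, hb⟩ := Metric.eventually_nhds_iff.mp (h1.and h2)
    obtain ⟨q, hq1, hq2⟩ := exists_rat_btwn (show x < x + ε by linarith)
    have h3 := hb (y := (q : ℝ)) (by rw [Real.dist_eq, abs_of_pos (by linarith)]; linarith)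
    exact h3.1 (h q h3.2)
  filter_upwards [hk.ae_hasDerivAt_integral] with y hy hyI
  have h1 := hy (by rw [uIcc_of_le huv.le]; exact ⟨hyI.1.le, hyI.2.le⟩) u (by simp)
  have h2 : (fun x => ∫ t in u..x, k t) =ᶠ[𝓝 y] fun _ => 0 := by
    filter_upwards [Ioo_mem_nhds hyI.1 hyI.2] with z hz
    exact h0 z hz
  have h3 := h1.congr_of_eventuallyEq h2.symm
  exact h3.unique (hasDerivAt_const y (0 : ℝ))

/-- from all smaller intervals to the interval -/
theorem ae_of_subint {Q : ℝ → Prop} {c B : ℝ} (h : ∀ c', c < c' → ∀ᵐ y, y ∈ Ioo c' B → Q y) :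
    ∀ᵐ y, y ∈ Ioo c B → Q y := by
  have h1 : ∀ n : ℕ, ∀ᵐ y, y ∈ Ioo (c + 1 / ((n : ℝ) + 1)) B → Q y := fun n =>
    h _ (by have : (0 : ℝ) < 1 / ((n : ℝ) + 1) := by positivity
            linarith)
  filter_upwards [ae_all_iff.mpr h1] with y hy hyI
  obtain ⟨n, hn⟩ := exists_nat_one_div_lt (show (0:ℝ) < y - c by linarith [hyI.1])
  exact hy n ⟨by linarith, hyI.2⟩

section Fub

variable {Ω : Type*} [MeasurableSpace Ω] {ν : Measure Ω} [SFinite ν] {f : Ω → ℝ} {D : ℝ → ℝ}
  {τ : Ω → ℝ}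

/-- layer cake: `∫ f P(τ) dν = ∫ D(t) (∫_{t ≤ τ} f dν) dt` -/
theorem dualP (hf : Integrable f ν) (hD : Integrable D) (hτ : Measurable τ) :
    ∫ ω, f ω * P D (τ ω) ∂ν = ∫ t, D t * (∫ ω in {ω | t ≤ τ ω}, f ω ∂ν) := by
  have hS : MeasurableSet {p : Ω × ℝ | p.2 ≤ τ p.1} :=
    measurableSet_le measurable_snd (hτ.comp measurable_fst)
  have hint : Integrable ({p : Ω × ℝ | p.2 ≤ τ p.1}.indicator (fun p => f p.1 * D p.2))
      (ν.prod volume) := (hf.mul_prod hD).indicator hS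
  have e1 : ∀ ω, f ω * P D (τ ω) =
      ∫ t, {p : Ω × ℝ | p.2 ≤ τ p.1}.indicator (fun p => f p.1 * D p.2) (ω, t) := by
    intro ω
    unfold P
    rw [← integral_const_mul, ← integral_indicator measurableSet_Iic]
    rfl
  have e2 : ∀ t, D t * (∫ ω in {ω | t ≤ τ ω}, f ω ∂ν) =
      ∫ ω, {p : Ω × ℝ | p.2 ≤ τ p.1}.indicator (fun p => f p.1 * D p.2) (ω, t) ∂ν := by
    intro t
    rw [← integral_const_mul, ← integral_indicator (measurableSet_le measurable_const hτ)]
    congr 1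
    ext ω
    by_cases h : t ≤ τ ω
    · rw [indicator_of_mem (show ω ∈ {ω | t ≤ τ ω} from h),
        indicator_of_mem (show (ω, t) ∈ {p : Ω × ℝ | p.2 ≤ τ p.1} from h)]
      exact mul_comm _ _
    · rw [indicator_of_notMem (show ω ∉ {ω | t ≤ τ ω} from h),
        indicator_of_notMem (show (ω, t) ∉ {p : Ω × ℝ | p.2 ≤ τ p.1} from h)]
  simp only [e1, e2]
  exact integral_integral_swap hint

theorem integrable_dual (hf : Integrable f ν) (hD : Integrable D) (hτ : Measurable τ) :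
    Integrable (fun t => D t * (∫ ω in {ω | t ≤ τ ω}, f ω ∂ν)) := by
  have hS : MeasurableSet {p : Ω × ℝ | p.2 ≤ τ p.1} :=
    measurableSet_le measurable_snd (hτ.comp measurable_fst)
  have hint : Integrable ({p : Ω × ℝ | p.2 ≤ τ p.1}.indicator (fun p => f p.1 * D p.2))
      (ν.prod volume) := (hf.mul_prod hD).indicator hS
  have := hint.integral_prod_right
  refine this.congr (Eventually.of_forall fun t => ?_)
  simp only
  rw [← integral_const_mul, ← integral_indicator (measurableSet_le measurable_const hτ)]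
  congr 1
  ext ω
  by_cases h : t ≤ τ ω
  · rw [indicator_of_mem (show ω ∈ {ω | t ≤ τ ω} from h),
      indicator_of_mem (show (ω, t) ∈ {p : Ω × ℝ | p.2 ≤ τ p.1} from h)]
    exact mul_comm _ _
  · rw [indicator_of_notMem (show ω ∉ {ω | t ≤ τ ω} from h),
      indicator_of_notMem (show (ω, t) ∉ {p : Ω × ℝ | p.2 ≤ τ p.1} from h)]

theorem int_lt (hf : Integrable f ν) (hτ : Measurable τ) (x : ℝ) :
    ∫ ω in {ω | τ ω < x}, f ω ∂ν = (∫ ω, f ω ∂ν) - ∫ ω in {ω | x ≤ τ ω}, f ω ∂ν := by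
  have h1 := integral_add_compl (s := {ω | x ≤ τ ω}) (measurableSet_le measurable_const hτ) hf
  have h2 : {ω | x ≤ τ ω}ᶜ = {ω | τ ω < x} := by ext ω; simp
  rw [h2] at h1
  rw [← h1]; ring

/-- integration by parts: `∫ D(x) (∫_{τ < x} f dν) dx = (∫ D)(∫ f) - ∫ f P(τ) dν` -/
theorem dualQ (hf : Integrable f ν) (hD : Integrable D) (hτ : Measurable τ) :
    ∫ x, D x * (∫ ω in {ω | τ ω < x}, f ω ∂ν) =
      (∫ x, D x) * (∫ ω, f ω ∂ν) - ∫ ω, f ω * P D (τ ω) ∂ν := by
  rw [dualP hf hD hτ, ← integral_mul_const, ← integral_sub (hD.mul_const _)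
    (integrable_dual hf hD hτ)]
  congr 1
  ext x
  rw [int_lt hf hτ]; ring

theorem integrable_dualQ (hf : Integrable f ν) (hD : Integrable D) (hτ : Measurable τ) :
    Integrable (fun x => D x * (∫ ω in {ω | τ ω < x}, f ω ∂ν)) := by
  have h1 := (hD.mul_const (∫ ω, f ω ∂ν)).sub (integrable_dual hf hD hτ)
  refine h1.congr (Eventually.of_forall fun x => ?_)
  simp only [Pi.sub_apply]
  rw [int_lt hf hτ]; ring

end Fub

end Crest.Agent.R105.Str_421
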