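import Crest.Agent.R105.Str2_421

/-!
Row 105, lemma A: the stream function on a rectangle (helper421).
Part 3: the stream function, `Lines` without the hair condition.
-/

open MeasureTheory Set Filter Topology
open Crest.Agent.R105.CF_363 (CF SL Hair cut gx gy ramp)
open Crest.Agent.R105.Mp_87 (lam Lines)

namespace Crest.Agent.R105.Str_421

/-- the stream function on vertical lines -/
noncomputable def psi (X1 : ℝ × ℝ → ℝ) (μ : Measure (ℝ × ℝ)) (p : ℝ × ℝ) : ℝ :=
  -lam μ p.1 - ∫ t in {t : ℝ | p.2 < t}, X1 (p.1, t)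

/-- the stream function on horizontal lines, up to a constant on each line -/
noncomputable def GG (X2 : ℝ × ℝ → ℝ) (μ : Measure (ℝ × ℝ)) (p : ℝ × ℝ) : ℝ :=
  -(∫ s in {s : ℝ | s < p.1}, X2 (s, p.2)) - (μ {q | q.1 < p.1 ∧ q.2 < p.2}).toReal

/-- the constant -/
noncomputable def CC (a b : ℝ) (X1 X2 : ℝ × ℝ → ℝ) (μ : Measure (ℝ × ℝ)) (y : ℝ) : ℝ :=
  (b - a)⁻¹ * ∫ x in a..b, (psi X1 μ (x, y) - GG X2 μ (x, y))

/-- the stream function on horizontal lines -/
noncomputable def Psi (a b : ℝ) (X1 X2 : ℝ × ℝ → ℝ) (μ : Measure (ℝ × ℝ)) (p : ℝ × ℝ) : ℝ :=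
  GG X2 μ p + CC a b X1 X2 μ p.2

section

variable {a b c B : ℝ} {𝓗 : Set Hair} {X1 X2 : ℝ × ℝ → ℝ} {μ : Measure (ℝ × ℝ)}
  [IsFiniteMeasure μ]

theorem meas_psi (m1 : Measurable X1) : Measurable (psi X1 μ) := by
  have h1 : Measurable (fun p : ℝ × ℝ => lam μ p.1) :=
    (Crest.Agent.R105.Mp_87.lam_mono μ).measurable.comp measurable_fst
  have hS : MeasurableSet {r : (ℝ × ℝ) × ℝ | r.1.2 < r.2} :=
    measurableSet_lt (measurable_snd.comp measurable_fst) measurable_snd
  have hF : Measurable ({r : (ℝ × ℝ) × ℝ | r.1.2 < r.2}.indicator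
      (fun r => X1 (r.1.1, r.2))) := by
    refine Measurable.indicator ?_ hS
    exact m1.comp ((measurable_fst.comp measurable_fst).prodMk measurable_snd)
  have h2 : Measurable (fun p : ℝ × ℝ => ∫ t, ({r : (ℝ × ℝ) × ℝ | r.1.2 < r.2}.indicator
      (fun r => X1 (r.1.1, r.2))) (p, t)) :=
    (hF.stronglyMeasurable.integral_prod_right').measurable
  have h3 : (fun p : ℝ × ℝ => ∫ t in {t : ℝ | p.2 < t}, X1 (p.1, t)) =
      fun p : ℝ × ℝ => ∫ t, ({r : (ℝ × ℝ) × ℝ | r.1.2 < r.2}.indicator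
      (fun r => X1 (r.1.1, r.2))) (p, t) := by
    ext p
    rw [← integral_indicator (show MeasurableSet {t : ℝ | p.2 < t} from measurableSet_Ioi)]
    rfl
  unfold psi
  have h2' := h3 ▸ h2
  exact h1.neg.sub h2'

theorem meas_GG (m2 : Measurable X2) : Measurable (GG X2 μ) := by
  have hS : MeasurableSet {r : (ℝ × ℝ) × ℝ | r.2 < r.1.1} :=
    measurableSet_lt measurable_snd (measurable_fst.comp measurable_fst)
  have hF : Measurable ({r : (ℝ × ℝ) × ℝ | r.2 < r.1.1}.indicator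
      (fun r => X2 (r.2, r.1.2))) := by
    refine Measurable.indicator ?_ hS
    exact m2.comp (measurable_snd.prodMk (measurable_snd.comp measurable_fst))
  have h2 : Measurable (fun p : ℝ × ℝ => ∫ t, ({r : (ℝ × ℝ) × ℝ | r.2 < r.1.1}.indicator
      (fun r => X2 (r.2, r.1.2))) (p, t)) :=
    (hF.stronglyMeasurable.integral_prod_right').measurable
  have h3 : (fun p : ℝ × ℝ => ∫ t in {t : ℝ | t < p.1}, X2 (t, p.2)) =
      fun p : ℝ × ℝ => ∫ t, ({r : (ℝ × ℝ) × ℝ | r.2 < r.1.1}.indicator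
      (fun r => X2 (r.2, r.1.2))) (p, t) := by
    ext p
    rw [← integral_indicator (show MeasurableSet {t : ℝ | t < p.1} from measurableSet_Iio)]
    rfl
  have h2' := h3 ▸ h2
  have hT : MeasurableSet {r : (ℝ × ℝ) × (ℝ × ℝ) | r.2.1 < r.1.1 ∧ r.2.2 < r.1.2} :=
    (measurableSet_lt (measurable_fst.comp measurable_snd) (measurable_fst.comp measurable_fst)).inter
    (measurableSet_lt (measurable_snd.comp measurable_snd) (measurable_snd.comp measurable_fst))
  have h4 : Measurable (fun p : ℝ × ℝ => μ {q : ℝ × ℝ | q.1 < p.1 ∧ q.2 < p.2}) :=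
    measurable_measure_prodMk_left (ν := μ) hT
  unfold GG
  exact h2'.neg.sub h4.ennreal_toReal

theorem meas_CC (m1 : Measurable X1) (m2 : Measurable X2) : Measurable (CC a b X1 X2 μ) := by
  have h : Measurable (fun p : ℝ × ℝ => psi X1 μ p - GG X2 μ p) := (meas_psi m1).sub (meas_GG m2)
  unfold CC
  refine Measurable.const_mul ?_ _
  unfold intervalIntegral
  exact (h.stronglyMeasurable.integral_prod_left' (μ := volume.restrict (Ioc a b))).measurable.sub
    (h.stronglyMeasurable.integral_prod_left' (μ := volume.restrict (Ioc b a))).measurable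

theorem meas_Psi (m1 : Measurable X1) (m2 : Measurable X2) : Measurable (Psi a b X1 X2 μ) := by
  unfold Psi
  exact (meas_GG m2).add ((meas_CC m1 m2).comp measurable_snd)

omit [IsFiniteMeasure μ] in
/-- `lam` as an integral -/
theorem lam_eq (x : ℝ) : lam μ x = ∫ _q in {q : ℝ × ℝ | q.1 < x}, (1 : ℝ) ∂μ := by
  unfold lam
  rw [setIntegral_const, smul_eq_mul, mul_one]; rfl

omit [IsFiniteMeasure μ] in
theorem mu_eq (x t : ℝ) : (μ {q : ℝ × ℝ | q.1 < x ∧ q.2 < t}).toReal =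
    ∫ _q in {q : ℝ × ℝ | q.1 < x}, (1 : ℝ) ∂(μ.restrict {q | q.2 < t}) := by
  rw [setIntegral_const, smul_eq_mul, mul_one, measureReal_def,
    Measure.restrict_apply (measurableSet_lt measurable_fst measurable_const)]
  rfl

variable {D : ℝ → ℝ} {M : ℝ}

theorem D_psi (h1 : Integrable X1) (hD : Integrable D) (hDm : Measurable D)
    (hDb : ∀ x, |D x| ≤ M) (t : ℝ) :
    Integrable (fun x => D x * psi X1 μ (x, t)) ∧
    ∫ x, D x * psi X1 μ (x, t) =
      -((∫ x, D x) * (μ univ).toReal) + (∫ q, P D q.1 ∂μ) - AA X1 D t := by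
  have hone : Integrable (fun _ : ℝ × ℝ => (1 : ℝ)) μ := integrable_const _
  have k1 := dualQ (τ := fun q : ℝ × ℝ => q.1) hone hD measurable_fst
  have k1' := integrable_dualQ (τ := fun q : ℝ × ℝ => q.1) hone hD measurable_fst
  have hU : Integrable (fun p : ℝ × ℝ => D p.1 * X1 p) := int_mul_fst h1 hDm hDb
  have hU' : Integrable (Function.uncurry fun x y : ℝ => D x * X1 (x, y))
      ((volume : Measure ℝ).prod ((volume : Measure ℝ).restrict {y : ℝ | t < y})) := by
    have e : ((volume : Measure ℝ).prod ((volume : Measure ℝ).restrict {y : ℝ | t < y})) =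
        (volume : Measure (ℝ × ℝ)).restrict (univ ×ˢ {y : ℝ | t < y}) := by
      rw [Measure.volume_eq_prod, ← Measure.prod_restrict, Measure.restrict_univ]
    rw [e]
    exact hU.restrict
  have e2 : ∀ x, D x * (∫ s in {s : ℝ | t < s}, X1 (x, s)) =
      ∫ s in {s : ℝ | t < s}, D x * X1 (x, s) := fun x => (integral_const_mul _ _).symm
  have k2 : ∫ x, D x * (∫ s in {s : ℝ | t < s}, X1 (x, s)) = AA X1 D t := by
    simp only [e2]
    rw [integral_integral_swap hU']
    unfold AA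
    exact (integral_Ici_eq_integral_Ioi (μ := volume)
      (f := fun y => ∫ x, D x * X1 (x, y)) (x := t)).symm
  have k2' : Integrable (fun x => D x * (∫ s in {s : ℝ | t < s}, X1 (x, s))) := by
    simp only [e2]
    exact hU'.integral_prod_left
  have e3 : (fun x => D x * psi X1 μ (x, t)) = fun x =>
      -(D x * ∫ _q in {q : ℝ × ℝ | q.1 < x}, (1 : ℝ) ∂μ) -
        D x * (∫ s in {s : ℝ | t < s}, X1 (x, s)) := by
    ext x; unfold psi; rw [lam_eq]; ring
  rw [e3]
  refine ⟨k1'.neg.sub k2', ?_⟩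
  have k1n : Integrable (fun x => -(D x * ∫ _q in {q : ℝ × ℝ | q.1 < x}, (1 : ℝ) ∂μ)) := k1'.neg
  rw [integral_sub k1n k2', integral_neg, k2, k1]
  simp only [one_mul, integral_const, smul_eq_mul, mul_one]
  rw [measureReal_def]; ring

theorem D_GG (hD : Integrable D) (t : ℝ)
    (ht : Integrable (fun s => X2 (s, t))) :
    Integrable (fun x => D x * GG X2 μ (x, t)) ∧
    ∫ x, D x * GG X2 μ (x, t) =
      -((∫ x, D x) * ∫ s, X2 (s, t)) + WW X2 (P D) t
        - (∫ x, D x) * (μ {q | q.2 < t}).toReal + ∫ q in {q : ℝ × ℝ | q.2 < t}, P D q.1 ∂μ := by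
  have hone : Integrable (fun _ : ℝ × ℝ => (1 : ℝ)) (μ.restrict {q | q.2 < t}) := integrable_const _
  have k1 := dualQ (τ := fun q : ℝ × ℝ => q.1) hone hD measurable_fst
  have k1' := integrable_dualQ (τ := fun q : ℝ × ℝ => q.1) hone hD measurable_fst
  have k2 := dualQ (τ := fun s : ℝ => s) ht hD measurable_id
  have k2' := integrable_dualQ (τ := fun s : ℝ => s) ht hD measurable_id
  have e3 : (fun x => D x * GG X2 μ (x, t)) = fun x =>
      -(D x * ∫ s in {s : ℝ | s < x}, X2 (s, t)) -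
        D x * ∫ _q in {q : ℝ × ℝ | q.1 < x}, (1 : ℝ) ∂(μ.restrict {q | q.2 < t}) := by
    ext x; unfold GG; rw [mu_eq]; ring
  rw [e3]
  have k2n : Integrable (fun x => -(D x * ∫ s in {s : ℝ | s < x}, X2 (s, t))) := k2'.neg
  refine ⟨k2n.sub k1', ?_⟩
  rw [integral_sub k2n k1', integral_neg, k2, k1]
  simp only [one_mul, integral_const, smul_eq_mul, mul_one]
  rw [measureReal_def, Measure.restrict_apply MeasurableSet.univ, univ_inter]
  have e4 : ∫ ω, X2 (ω, t) * P D ω = WW X2 (P D) t := by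
    unfold WW; congr 1; ext s; ring
  rw [e4]; ring

theorem int_split {α : ℝ → ℝ} {A0 : ℝ} (hαm : Measurable α) (hA : ∀ x, |α x| ≤ A0) (t : ℝ) :
    (∫ q in {q : ℝ × ℝ | q.2 < t}, α q.1 ∂μ) = (∫ q, α q.1 ∂μ) - NN μ α t :=
  int_lt (τ := fun q : ℝ × ℝ => q.2) (integrable_fst hαm hA) measurable_snd t

/-- the difference `ψ - G` on a horizontal line against a zero mean density -/
theorem D_diff (h1 : Integrable X1) (hD : Integrable D) (hDm : Measurable D)
    (hDb : ∀ x, |D x| ≤ M) (h0 : ∫ x, D x = 0) (t : ℝ) (ht : Integrable (fun s => X2 (s, t))) :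
    Integrable (fun x => D x * (psi X1 μ (x, t) - GG X2 μ (x, t))) ∧
    ∫ x, D x * (psi X1 μ (x, t) - GG X2 μ (x, t)) = - BR X1 X2 μ D (P D) t := by
  obtain ⟨i1, e1⟩ := D_psi (μ := μ) h1 hD hDm hDb t
  obtain ⟨i2, e2⟩ := D_GG (μ := μ) hD t ht
  have e : (fun x => D x * (psi X1 μ (x, t) - GG X2 μ (x, t))) = fun x =>
      D x * psi X1 μ (x, t) - D x * GG X2 μ (x, t) := by ext x; ring
  rw [e]
  refine ⟨i1.sub i2, ?_⟩
  rw [integral_sub i1 i2, e1, e2, h0, int_split (P_measurable hD hDb).measurable (P_bdd hD)]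
  unfold BR
  ring

/-- the zero mean densities -/
noncomputable def DD (a b ξ : ℝ) (x : ℝ) : ℝ := I1 a ξ x - ((ξ - a) / (b - a)) * I1 a b x

theorem DD_meas (a b ξ : ℝ) : Measurable (DD a b ξ) :=
  (I1_meas a ξ).sub ((I1_meas a b).const_mul _)

theorem DD_int (a b ξ : ℝ) : Integrable (DD a b ξ) :=
  (I1_int a ξ).sub ((I1_int a b).const_mul _)

theorem DD_bdd (a b ξ : ℝ) (x : ℝ) : |DD a b ξ x| ≤ 1 + |(ξ - a) / (b - a)| := by
  unfold DD
  refine (abs_sub _ _).trans (add_le_add (I1_bdd _ _ _) ?_)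
  rw [abs_mul]
  calc _ ≤ |(ξ - a) / (b - a)| * 1 := mul_le_mul_of_nonneg_left (I1_bdd _ _ _) (abs_nonneg _)
    _ = _ := mul_one _

theorem DD_zero {a b ξ : ℝ} (hab : a < b) (hξ : a ≤ ξ) : ∫ x, DD a b ξ x = 0 := by
  unfold DD
  rw [integral_sub (I1_int _ _) ((I1_int _ _).const_mul _), integral_const_mul,
    I1_total a ξ hξ, I1_total a b hab.le]
  have : b - a ≠ 0 := by linarith
  field_simp
  ring

/-- the horizontal identity -/
theorem br_zero (h : FlowF a b c B 𝓗 X1 X2 μ) (hD : Integrable D) (hDm : Measurable D)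
    (hDb : ∀ x, |D x| ≤ M) : ∀ᵐ t, c < t → BR X1 X2 μ D (P D) t = 0 := by
  have key : ∀ n : ℕ, ∀ᵐ t, t ∈ Ioo c (n : ℝ) → BR X1 X2 μ D (P D) t = 0 := by
    intro n
    refine zero_of_tests (fun u' hu' => ?_) (fun u' x hu' hx hxv => ?_)
    · exact (fi_int (μ := μ) h.int1 h.int2 hDm hDb (P_measurable hD hDb).measurable (P_bdd hD)
        (I1_int u' n) (I1_meas u' n) (I1_bdd u' n)).2.2.2
    · refine flow_prod h hD hDm hDb (I1_int u' x) (I1_meas u' x) (I1_bdd u' x)
        ⟨u' - c, by linarith, fun t ht => I1_left (by linarith)⟩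
  filter_upwards [ae_all_iff.mpr key] with t ht hct
  obtain ⟨n, hn⟩ := exists_nat_gt t
  exact ht n ⟨hct, hn⟩

/-- the function `G + C` agrees with `ψ` on almost every horizontal line -/
theorem E_line (hab : a < b) (h : FlowF a b c B 𝓗 X1 X2 μ) :
    ∀ᵐ t, c < t → ∀ᵐ x, x ∈ Ioo a b → Psi a b X1 X2 μ (x, t) = psi X1 μ (x, t) := by
  have h2 : ∀ᵐ t : ℝ, Integrable (fun s => X2 (s, t)) := by
    have := h.int2
    rw [Measure.volume_eq_prod] at this
    exact this.prod_left_ae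
  have h3 : ∀ᵐ t : ℝ, ∀ ξ : ℚ, c < t → BR X1 X2 μ (DD a b ξ) (P (DD a b ξ)) t = 0 :=
    ae_all_iff.mpr fun ξ => br_zero h (DD_int a b ξ) (DD_meas a b ξ) (DD_bdd a b ξ)
  filter_upwards [h2, h3] with t ht2 ht3 hct
  have i0 : Integrable (fun x => I1 a b x * (psi X1 μ (x, t) - GG X2 μ (x, t))) := by
    have i1 := (D_psi (μ := μ) h.int1 (I1_int a b) (I1_meas a b) (I1_bdd a b) t).1
    have i2 := (D_GG (μ := μ) (I1_int a b) t ht2).1
    refine (i1.sub i2).congr (Eventually.of_forall fun x => ?_)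
    simp only [Pi.sub_apply]; ring
  have i3 : IntegrableOn (fun x => psi X1 μ (x, t) - GG X2 μ (x, t)) (Ioc a b) := I1_mul_int i0
  have i4 : IntervalIntegrable (fun x => psi X1 μ (x, t) - GG X2 μ (x, t)) volume a b := by
    rw [intervalIntegrable_iff_integrableOn_Ioc_of_le hab.le]; exact i3
  have key := ae_zero_of_prim (k := fun x => (psi X1 μ (x, t) - GG X2 μ (x, t)) - CC a b X1 X2 μ t)
    (u := a) (v := b) (i4.sub intervalIntegrable_const) (fun ξ hξ => ?_)
  · filter_upwards [key] with x hx hxI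
    have := hx hxI
    unfold Psi
    simp only at this ⊢
    linarith
  · have hz := DD_zero hab hξ.1.le
    obtain ⟨-, e⟩ := D_diff (μ := μ) (X2 := X2) h.int1 (DD_int a b ξ) (DD_meas a b ξ)
      (DD_bdd a b ξ) hz t ht2
    rw [ht3 ξ hct, neg_zero] at e
    have i5 : IntervalIntegrable (fun x => psi X1 μ (x, t) - GG X2 μ (x, t)) volume a ξ :=
      i4.mono_set (by rw [uIcc_of_le hab.le, uIcc_of_le hξ.1.le]; exact Icc_subset_Icc_right hξ.2.le)
    have i6 : Integrable (fun x => I1 a ξ x * (psi X1 μ (x, t) - GG X2 μ (x, t))) := by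
      have := (intervalIntegrable_iff_integrableOn_Ioc_of_le hξ.1.le).mp i5
      rw [← integrable_indicator_iff measurableSet_Ioc] at this
      refine this.congr (Eventually.of_forall fun x => ?_)
      simp only [I1]
      by_cases h : x ∈ Ioc a (ξ : ℝ)
      · rw [indicator_of_mem h, indicator_of_mem h, one_mul]
      · rw [indicator_of_notMem h, indicator_of_notMem h, zero_mul]
    have e1 : ∫ x, DD a b ξ x * (psi X1 μ (x, t) - GG X2 μ (x, t)) =
        (∫ x in a..ξ, (psi X1 μ (x, t) - GG X2 μ (x, t))) -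
        ((ξ - a) / (b - a)) * ∫ x in a..b, (psi X1 μ (x, t) - GG X2 μ (x, t)) := by
      rw [← I1_mul a ξ hξ.1.le, ← I1_mul a b hab.le, ← integral_const_mul,
        ← integral_sub i6 (i0.const_mul _)]
      congr 1; ext x; unfold DD; ring
    rw [intervalIntegral.integral_sub i5 intervalIntegrable_const, intervalIntegral.integral_const,
      smul_eq_mul]
    rw [e1] at e
    unfold CC
    rw [← e]
    ring

theorem E_ae (hab : a < b) (h : FlowF a b c B 𝓗 X1 X2 μ) :
    ∀ᵐ p : ℝ × ℝ, p.1 ∈ Ioo a b → c < p.2 → Psi a b X1 X2 μ p = psi X1 μ p := by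
  have hm : MeasurableSet {p : ℝ × ℝ | p.1 ∈ Ioo a b → c < p.2 →
      Psi a b X1 X2 μ p = psi X1 μ p} := by
    have e : {p : ℝ × ℝ | p.1 ∈ Ioo a b → c < p.2 → Psi a b X1 X2 μ p = psi X1 μ p} =
        ((Prod.fst ⁻¹' (Ioo a b) ∩ Prod.snd ⁻¹' (Ioi c)))ᶜ ∪
          {p : ℝ × ℝ | Psi a b X1 X2 μ p = psi X1 μ p} := by
      ext p
      simp only [mem_setOf_eq, mem_union, mem_compl_iff, mem_inter_iff, mem_preimage, mem_Ioi]
      tauto
    rw [e]
    exact (((measurable_fst measurableSet_Ioo).inter (measurable_snd measurableSet_Ioi)).compl).union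
      (measurableSet_eq_fun (meas_Psi h.m1 h.m2) (meas_psi h.m1))
  rw [Measure.volume_eq_prod, Measure.ae_prod_iff_ae_ae hm,
    Measure.ae_ae_comm (p := fun x y : ℝ => (x, y).1 ∈ Ioo a b → c < (x, y).2 →
      Psi a b X1 X2 μ (x, y) = psi X1 μ (x, y)) hm]
  filter_upwards [E_line hab h] with t ht
  by_cases hct : c < t
  · filter_upwards [ht hct] with x hx hxI _
    exact hx hxI
  · exact Eventually.of_forall fun x _ hh => absurd hh hct

/-- vertical increments -/
theorem V_ae (h : FlowF a b c B 𝓗 X1 X2 μ) : ∀ᵐ x : ℝ, ∀ y y' : ℝ,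
    psi X1 μ (x, y') - psi X1 μ (x, y) = ∫ t in y..y', X1 (x, t) := by
  have h1 : ∀ᵐ x : ℝ, Integrable (fun t => X1 (x, t)) := by
    have := h.int1
    rw [Measure.volume_eq_prod] at this
    exact this.prod_right_ae
  filter_upwards [h1] with x hx y y'
  have := intervalIntegral.integral_Ioi_sub_Ioi' (f := fun t => X1 (x, t)) (a := y) (b := y')
    hx.integrableOn hx.integrableOn
  unfold psi
  rw [← this]
  simp only
  change _ - (∫ t in Ioi y', X1 (x, t)) - (_ - (∫ t in Ioi y, X1 (x, t))) = _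
  ring

/-- horizontal increments -/
theorem H_ae (h : FlowF a b c B 𝓗 X1 X2 μ) : ∀ᵐ y : ℝ, ∀ x x' : ℝ, x ≤ x' →
    Psi a b X1 X2 μ (x', y) - Psi a b X1 X2 μ (x, y) =
      -(∫ s in x..x', X2 (s, y)) - (μ {q | q.1 ∈ Ico x x' ∧ q.2 < y}).toReal := by
  have h1 : ∀ᵐ y : ℝ, Integrable (fun s => X2 (s, y)) := by
    have := h.int2
    rw [Measure.volume_eq_prod] at this
    exact this.prod_left_ae
  filter_upwards [h1] with y hy x x' hxx
  have e1 := intervalIntegral.integral_Iic_sub_Iic (f := fun s => X2 (s, y)) (μ := volume)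
    (a := x) (b := x') hy.integrableOn hy.integrableOn
  rw [integral_Iic_eq_integral_Iio, integral_Iic_eq_integral_Iio] at e1
  have e2 : (μ {q : ℝ × ℝ | q.1 < x' ∧ q.2 < y}).toReal =
      (μ {q : ℝ × ℝ | q.1 < x ∧ q.2 < y}).toReal +
        (μ {q : ℝ × ℝ | q.1 ∈ Ico x x' ∧ q.2 < y}).toReal := by
    rw [← ENNReal.toReal_add (measure_ne_top _ _) (measure_ne_top _ _), ← measure_union]
    · congr 2
      ext q
      simp only [mem_setOf_eq, mem_union, mem_Ico]
      constructor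
      · rintro ⟨h1, h2⟩
        rcases lt_or_ge q.1 x with h3 | h3
        · exact Or.inl ⟨h3, h2⟩
        · exact Or.inr ⟨⟨h3, h1⟩, h2⟩
      · rintro (⟨h1, h2⟩ | ⟨⟨h1, h1'⟩, h2⟩)
        · exact ⟨lt_of_lt_of_le h1 hxx, h2⟩
        · exact ⟨h1', h2⟩
    · rw [Set.disjoint_left]
      rintro q ⟨h1, -⟩ ⟨⟨h2, -⟩, -⟩
      exact absurd h1 (not_lt.mpr h2)
    · exact ((measurable_fst measurableSet_Ico).inter (measurable_snd measurableSet_Iio))
  unfold Psi GG
  simp only
  rw [e2, ← e1]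
  change -(∫ s in Iio x', X2 (s, y)) - _ + _ - (-(∫ s in Iio x, X2 (s, y)) - _ + _) = _
  ring

omit [IsFiniteMeasure μ] in
theorem strip_eq (h : FlowF a b c B 𝓗 X1 X2 μ) (p : ℝ × ℝ) (hp : B ≤ p.2) :
    psi X1 μ p = - lam μ p.1 := by
  unfold psi
  have : ∫ t in {t : ℝ | p.2 < t}, X1 (p.1, t) = 0 := by
    refine setIntegral_eq_zero_of_forall_eq_zero fun t ht => h.z1 _ ?_
    rintro ⟨-, -, -, h4⟩
    exact absurd (lt_of_le_of_lt hp ht) (not_lt.mpr h4.le)
  rw [this, sub_zero]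

end

end Crest.Agent.R105.Str_421
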