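import Crest.Agent.R105.Str3_421

/-!
Row 105, lemma A: the stream function on a rectangle (helper421).
Part 4: the stream function is constant along the hairs (T), and `Lines`.
-/

open MeasureTheory Set Filter Topology
open Crest.Agent.R105.CF_363 (CF SL Hair cut gx gy ramp)
open Crest.Agent.R105.Mp_87 (lam Lines)

namespace Crest.Agent.R105.Str_421

/-- derivative of the ramp -/
noncomputable def rD (ξ r : ℝ) (x : ℝ) : ℝ := -(1 / r) * I1 ξ (ξ + r) x

/-- one-sided ramp -/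
noncomputable def rB (ξ r : ℝ) (x : ℝ) : ℝ := if ξ < x then ramp r (x - ξ) else 0

section Ramp

variable {ξ r : ℝ}

theorem rD_meas : Measurable (rD ξ r) := (I1_meas _ _).const_mul _

theorem rD_int : Integrable (rD ξ r) := (I1_int _ _).const_mul _

theorem rD_bdd (hr : 0 < r) (x : ℝ) : |rD ξ r x| ≤ 1 / r := by
  unfold rD
  rw [abs_mul, abs_neg, abs_of_pos (show 0 < 1 / r by positivity)]
  calc _ ≤ 1 / r * 1 := mul_le_mul_of_nonneg_left (I1_bdd _ _ _) (by positivity)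
    _ = _ := mul_one _

theorem rD_total (hr : 0 < r) : ∫ x, rD ξ r x = -1 := by
  unfold rD
  rw [integral_const_mul, I1_total _ _ (by linarith)]
  field_simp
  ring

theorem rD_left {x : ℝ} (h : x ≤ ξ) : rD ξ r x = 0 := by
  unfold rD; rw [I1_left h, mul_zero]

theorem rD_right {x : ℝ} (h : ξ + r < x) : rD ξ r x = 0 := by
  unfold rD; rw [I1_right h, mul_zero]

theorem P_rD_left {x : ℝ} (h : x ≤ ξ) : P (rD ξ r) x = 0 :=
  P_eq_zero fun _ ht => rD_left (ht.trans h)

theorem P_rD_right (hr : 0 < r) {x : ℝ} (h : ξ < x) : 1 + P (rD ξ r) x = ramp r (x - ξ) := by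
  have hx : |x - ξ| = x - ξ := abs_of_pos (by linarith)
  rcases le_or_gt x (ξ + r) with h1 | h1
  · have e := P_sub (rD_int (ξ := ξ) (r := r)) ξ x
    rw [P_rD_left le_rfl, sub_zero] at e
    have e2 : ∫ t in ξ..x, rD ξ r t = ∫ _t in ξ..x, -(1 / r) := by
      refine intervalIntegral.integral_congr_ae (Eventually.of_forall fun t ht => ?_)
      rw [uIoc_of_le h.le] at ht
      unfold rD I1
      rw [indicator_of_mem (show t ∈ Ioc ξ (ξ + r) from ⟨ht.1, ht.2.trans h1⟩), mul_one]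
    rw [e, e2, intervalIntegral.integral_const, smul_eq_mul]
    unfold ramp
    rw [hx, max_eq_right]
    · field_simp; ring
    · have : (x - ξ) / r ≤ 1 := by rw [div_le_one hr]; linarith
      linarith
  · rw [P_eq_total rD_int (fun t ht => rD_right (h1.trans ht)), rD_total hr,
      Crest.Agent.R105.CF_363.ramp_eq_zero hr (by rw [hx]; linarith)]
    ring

/-- `1 + P D = β + 1_{x ≤ ξ}` -/
theorem P_rD (hr : 0 < r) (x : ℝ) :
    P (rD ξ r) x = rB ξ r x + (Iic ξ).indicator (fun _ => (1 : ℝ)) x - 1 := by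
  unfold rB
  split_ifs with h
  · rw [indicator_of_notMem (show x ∉ Iic ξ from fun hh => absurd h (not_lt.mpr hh)), add_zero,
      ← P_rD_right hr h]
    ring
  · rw [indicator_of_mem (show x ∈ Iic ξ from not_lt.mp h), P_rD_left (not_lt.mp h)]
    ring

theorem rB_meas (hr : 0 < r) : Measurable (rB ξ r) := by
  have e : rB ξ r = fun x => P (rD ξ r) x - (Iic ξ).indicator (fun _ => (1 : ℝ)) x + 1 := by
    ext x; rw [P_rD hr]; ring
  rw [e]
  exact ((P_measurable rD_int (rD_bdd hr)).measurable.sub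
    (measurable_const.indicator measurableSet_Iic)).add_const _

theorem rB_bdd (hr : 0 < r) (x : ℝ) : |rB ξ r x| ≤ 1 := by
  unfold rB
  split_ifs
  · rw [abs_of_nonneg (Crest.Agent.R105.CF_363.ramp_nonneg _ _)]
    exact Crest.Agent.R105.CF_363.ramp_le_one hr.le _
  · simp

theorem rB_deriv (hr : 0 < r) : ∀ᵐ x, HasDerivAt (rB ξ r) (rD ξ r x) x := by
  have hne : ∀ᵐ x : ℝ, x ≠ ξ := by
    rw [ae_iff]; simp
  filter_upwards [P_hasDerivAt (rD_int (ξ := ξ) (r := r)), hne] with x hx hxne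
  rcases lt_or_gt_of_ne hxne with h | h
  · rw [rD_left h.le]
    refine (hasDerivAt_const x (0 : ℝ)).congr_of_eventuallyEq ?_
    filter_upwards [Iio_mem_nhds h] with z hz
    unfold rB
    rw [if_neg (not_lt.mpr (le_of_lt hz))]
  · refine (hx.const_add 1).congr_of_eventuallyEq ?_
    filter_upwards [Ioi_mem_nhds h] with z hz
    unfold rB
    rw [if_pos (show ξ < z from hz), P_rD_right hr hz]

theorem int_PrD {Ω : Type*} [MeasurableSpace Ω] {ν : Measure Ω} {f : Ω → ℝ} {τ : Ω → ℝ}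
    (hf : Integrable f ν) (hτ : Measurable τ) (hr : 0 < r) :
    ∫ ω, P (rD ξ r) (τ ω) * f ω ∂ν =
      (∫ ω, rB ξ r (τ ω) * f ω ∂ν) + (∫ ω in {ω | τ ω ≤ ξ}, f ω ∂ν) - ∫ ω, f ω ∂ν := by
  have hS : MeasurableSet {ω | τ ω ≤ ξ} := measurableSet_le hτ measurable_const
  have i1 : Integrable (fun ω => rB ξ r (τ ω) * f ω) ν :=
    hf.bdd_mul (c := 1) ((rB_meas hr).comp hτ).aestronglyMeasurable
      (Eventually.of_forall fun ω => by rw [Real.norm_eq_abs]; exact rB_bdd hr _)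
  have i2 : Integrable ({ω | τ ω ≤ ξ}.indicator f) ν := hf.indicator hS
  have i12 : Integrable (fun ω => rB ξ r (τ ω) * f ω + {ω | τ ω ≤ ξ}.indicator f ω) ν := i1.add i2
  rw [← integral_indicator hS, ← integral_add i1 i2, ← integral_sub i12 hf]
  congr 1
  ext ω
  rw [P_rD hr]
  by_cases hω : τ ω ≤ ξ
  · rw [indicator_of_mem (show ω ∈ {ω | τ ω ≤ ξ} from hω),
      indicator_of_mem (show τ ω ∈ Iic ξ from hω)]
    ring
  · rw [indicator_of_notMem (show ω ∉ {ω | τ ω ≤ ξ} from hω),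
      indicator_of_notMem (show τ ω ∉ Iic ξ from hω)]
    ring

end Ramp

section T

variable {a b c B : ℝ} {𝓗 : Set Hair} {X1 X2 : ℝ × ℝ → ℝ} {μ : Measure (ℝ × ℝ)}
  [IsFiniteMeasure μ]

/-- the flow tested with a one-sided ramp at a hair -/
theorem hair_test (h : FlowF a b c B 𝓗 X1 X2 μ) {K : Hair} (hK : K ∈ 𝓗)
    (hμK : μ K.car = 0) {v : ℝ} (hv : K.b < v)
    (hv' : K.t = v ∨ B ≤ K.t) {r : ℝ} (hr : 0 < r) {E : ℝ → ℝ} {ME : ℝ}
    (hE : Integrable E) (hEm : Measurable E) (hEb : ∀ x, |E x| ≤ ME)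
    (hE0 : ∃ δ > 0, ∀ t ≤ c + δ, E t = 0) (hEK : ∀ t ≤ K.b, E t = 0) (hEv : ∀ t, v < t → E t = 0)
    (hEt : ∫ t, E t = 0) :
    ∫ t, E t * BR X1 X2 μ (rD K.x r) (rB K.x r) t = 0 := by
  have hME : 0 ≤ ME := (abs_nonneg _).trans (hEb 0)
  refine flow_line h (rB_meas hr) (rB_bdd hr) rD_meas (rD_bdd hr) (rB_deriv hr) hE hEm hEb hE0
    {K} (by simpa using hK) ?_ ?_
  · have : cut {K} = K.car := by ext p; simp [Crest.Agent.R105.CF_363.cut]
    rw [this]; exact hμK
  · have hc := Crest.Agent.R105.CF_363.CF_ramp_right ⟨K.x, K.b, v, hv⟩ (χ := P E)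
      (A := ∫ t, |E t|) (M := ME) (r := r) (integral_nonneg fun _ => abs_nonneg _) hME hr
      (P_lip hE hEb) (P_bdd hE) (fun y hy => by
        simp only [mem_Icc, not_and_or, not_le] at hy
        rcases hy with hy | hy
        · exact P_eq_zero fun t ht => hEK t (ht.trans hy.le)
        · rw [P_eq_total hE (fun t ht => hEv t (hy.trans ht)), hEt])
    have e : (fun p : ℝ × ℝ => rB K.x r p.1 * P E p.2) =
        fun p : ℝ × ℝ => if K.x < p.1 then P E p.2 * ramp r (p.1 - K.x) else 0 := by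
      ext p; unfold rB; split_ifs
      · exact mul_comm _ _
      · exact zero_mul _
    rw [e]
    refine hc.mono ?_
    rintro p ⟨⟨-, -, -, hp4⟩, hpn⟩ ⟨hq1, hq2, hq3⟩
    simp only at hq1 hq2 hq3
    apply hpn
    refine ⟨K, by simp, hq1, hq2, ?_⟩
    rcases hv' with hv' | hv'
    · rw [hv']; exact hq3
    · exact hp4.trans hv'

/-- the bracket is constant along a hair -/
theorem hair_const (h : FlowF a b c B 𝓗 X1 X2 μ) {K : Hair} (hK : K ∈ 𝓗)
    (hμK : μ K.car = 0) {v : ℝ} (hv : K.b < v) (hcv : c < v)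
    (hv' : K.t = v ∨ B ≤ K.t) {r : ℝ} (hr : 0 < r) :
    ∃ κ, ∀ᵐ t, t ∈ Ioo (max K.b c) v → BR X1 X2 μ (rD K.x r) (rB K.x r) t = κ := by
  have huv : max K.b c < v := max_lt hv hcv
  obtain ⟨w, hw1, hw2⟩ := exists_between huv
  refine ⟨_, const_of_tests hw1 hw2 (fun u' hu' => ?_) (fun u' x hu' hx hxv => ?_)⟩
  · exact (fi_int (μ := μ) h.int1 h.int2 rD_meas (rD_bdd hr) (rB_meas hr) (rB_bdd hr)
      (I1_int u' v) (I1_meas u' v) (I1_bdd u' v)).2.2.2
  · have hub : K.b < u' := lt_of_le_of_lt (le_max_left _ _) hu'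
    have huc : c < u' := lt_of_le_of_lt (le_max_right _ _) hu'
    have hwb : K.b < w := lt_of_le_of_lt (le_max_left _ _) hw1
    have hwc : c < w := lt_of_le_of_lt (le_max_right _ _) hw1
    refine hair_test h hK hμK hv hv' hr
      (E := fun t => I1 u' x t - ((x - u') / (v - w)) * I1 w v t)
      (ME := 1 + |(x - u') / (v - w)|)
      ((I1_int _ _).sub ((I1_int _ _).const_mul _))
      ((I1_meas _ _).sub ((I1_meas _ _).const_mul _)) (fun t => ?_) ?_ ?_ ?_ ?_
    · refine (abs_sub _ _).trans (add_le_add (I1_bdd _ _ _) ?_)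
      rw [abs_mul]
      calc _ ≤ |(x - u') / (v - w)| * 1 := mul_le_mul_of_nonneg_left (I1_bdd _ _ _) (abs_nonneg _)
        _ = _ := mul_one _
    · refine ⟨min u' w - c, by rw [gt_iff_lt, sub_pos]; exact lt_min huc hwc, fun t ht => ?_⟩
      have ht' : t ≤ min u' w := by linarith
      rw [I1_left (ht'.trans (min_le_left _ _)), I1_left (ht'.trans (min_le_right _ _))]
      ring
    · intro t ht
      rw [I1_left (ht.trans hub.le), I1_left (ht.trans hwb.le)]
      ring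
    · intro t ht
      rw [I1_right (hxv.trans ht), I1_right ht]
      ring
    · rw [integral_sub (I1_int _ _) ((I1_int _ _).const_mul _), integral_const_mul,
        I1_total _ _ hx, I1_total _ _ hw2.le]
      have : v - w ≠ 0 := by linarith
      field_simp
      ring

omit [IsFiniteMeasure μ] in
theorem X2_line (h : FlowF a b c B 𝓗 X1 X2 μ) : ∀ᵐ t : ℝ, Integrable (fun s => X2 (s, t)) := by
  have := h.int2
  rw [Measure.volume_eq_prod] at this
  exact this.prod_left_ae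

/-- `Ψ` on a vertical line through the bracket of the one-sided ramp -/
theorem Psi_hair (hab : a < b) (h : FlowF a b c B 𝓗 X1 X2 μ) {ξ r : ℝ} (hξ : a < ξ) (hr : 0 < r)
    (hξr : ξ + r < b) :
    ∀ᵐ t, c < t → Psi a b X1 X2 μ (ξ, t) = BR X1 X2 μ (rD ξ r) (rB ξ r) t
      - (μ {q | q.1 ≤ ξ}).toReal + (μ {q | q.1 = ξ ∧ q.2 < t}).toReal := by
  filter_upwards [X2_line h, E_line hab h] with t ht2 htE hct
  obtain ⟨i1, e1⟩ := D_psi (μ := μ) h.int1 (rD_int (ξ := ξ) (r := r)) rD_meas (rD_bdd hr) t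
  obtain ⟨i2, e2⟩ := D_GG (μ := μ) (rD_int (ξ := ξ) (r := r)) t ht2
  have e3 : ∫ x, rD ξ r x * Psi a b X1 X2 μ (x, t) = ∫ x, rD ξ r x * psi X1 μ (x, t) := by
    refine integral_congr_ae ?_
    filter_upwards [htE hct] with x hx
    by_cases hI : x ∈ Ioc ξ (ξ + r)
    · rw [hx ⟨hξ.trans hI.1, lt_of_le_of_lt hI.2 hξr⟩]
    · have : rD ξ r x = 0 := by unfold rD I1; rw [indicator_of_notMem hI, mul_zero]
      rw [this, zero_mul, zero_mul]
  have e4 : ∫ x, rD ξ r x * Psi a b X1 X2 μ (x, t) =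
      (∫ x, rD ξ r x * GG X2 μ (x, t)) + (∫ x, rD ξ r x) * CC a b X1 X2 μ t := by
    rw [← integral_mul_const, ← integral_add i2 (rD_int.mul_const _)]
    congr 1; ext x; unfold Psi; ring
  have w1 := int_PrD (ξ := ξ) (r := r) (τ := fun s : ℝ => s) ht2 measurable_id hr
  have hone : Integrable (fun _ : ℝ × ℝ => (1 : ℝ)) μ := integrable_const _
  have hone' : Integrable (fun _ : ℝ × ℝ => (1 : ℝ)) (μ.restrict {q | q.2 < t}) :=
    integrable_const _
  have w2 := int_PrD (ξ := ξ) (r := r) (τ := fun q : ℝ × ℝ => q.1) hone measurable_fst hr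
  have w3 := int_PrD (ξ := ξ) (r := r) (τ := fun q : ℝ × ℝ => q.1) hone' measurable_fst hr
  have w4 := int_split (μ := μ) (α := rB ξ r) (rB_meas hr) (rB_bdd hr) t
  simp only [mul_one, integral_const, smul_eq_mul, measureReal_def] at w2 w3
  rw [Measure.restrict_apply_univ, Measure.restrict_apply_univ,
    Measure.restrict_apply (measurableSet_le measurable_fst measurable_const)] at w3
  rw [Measure.restrict_apply_univ] at w2
  have m1 : (μ ({q : ℝ × ℝ | q.1 ≤ ξ} ∩ {q | q.2 < t})).toReal =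
      (μ {q : ℝ × ℝ | q.1 < ξ ∧ q.2 < t}).toReal + (μ {q : ℝ × ℝ | q.1 = ξ ∧ q.2 < t}).toReal := by
    rw [← ENNReal.toReal_add (measure_ne_top _ _) (measure_ne_top _ _), ← measure_union]
    · congr 2
      ext q
      constructor
      · rintro ⟨h1, h2⟩
        rcases lt_or_eq_of_le (show q.1 ≤ ξ from h1) with h3 | h3
        · exact Or.inl ⟨h3, h2⟩
        · exact Or.inr ⟨h3, h2⟩
      · rintro (⟨h1, h2⟩ | ⟨h1, h2⟩)
        · exact ⟨le_of_lt h1, h2⟩
        · exact ⟨le_of_eq h1, h2⟩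
    · rw [Set.disjoint_left]
      rintro q ⟨h1, -⟩ ⟨h2, -⟩
      exact absurd h2 (ne_of_lt h1)
    · exact ((measurable_fst (measurableSet_singleton ξ)).inter (measurable_snd measurableSet_Iio))
  have w1' : WW X2 (P (rD ξ r)) t = WW X2 (rB ξ r) t + (∫ s in Iio ξ, X2 (s, t))
      - ∫ s, X2 (s, t) := by
    rw [← integral_Iic_eq_integral_Iio]; exact w1
  rw [e3, e1, e2, rD_total hr, w1', w3, w2, w4, m1] at e4
  unfold Psi GG BR
  simp only
  change -(∫ s in Iio ξ, X2 (s, t)) - _ + _ = _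
  linarith

omit [IsFiniteMeasure μ] in
/-- above the level the bracket vanishes -/
theorem BR_top (h : FlowF a b c B 𝓗 X1 X2 μ) (D α : ℝ → ℝ) {t : ℝ} (ht : B < t) :
    BR X1 X2 μ D α t = 0 := by
  have e1 : AA X1 D t = 0 := by
    unfold AA
    refine setIntegral_eq_zero_of_forall_eq_zero fun y hy => ?_
    have : (fun x => D x * X1 (x, y)) = fun _ => 0 := by
      ext x
      rw [h.z1 (x, y) (fun hh => absurd (ht.trans_le hy) (not_lt.mpr hh.2.2.2.le)), mul_zero]
    rw [this, integral_zero]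
  have e2 : WW X2 α t = 0 := by
    unfold WW
    have : (fun x => α x * X2 (x, t)) = fun _ => 0 := by
      ext x
      rw [h.z2 (x, t) (fun hh => absurd ht (not_lt.mpr hh.2.2.2.le)), mul_zero]
    rw [this, integral_zero]
  have e3 : NN μ α t = 0 := by
    unfold NN
    have h0 : μ {q : ℝ × ℝ | t ≤ q.2} = 0 := by
      refine measure_mono_null ?_ (ae_iff.mp h.carried)
      intro q hq hh
      exact absurd (ht.trans_le hq) (not_lt.mpr hh.2.2.2)
    exact setIntegral_measure_zero _ h0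
  unfold BR; rw [e1, e2, e3]; ring

theorem exists_of_ae {Q : ℝ → Prop} {u v : ℝ} (huv : u < v) (h : ∀ᵐ t, t ∈ Ioo u v → Q t) :
    ∃ t ∈ Ioo u v, Q t := by
  by_contra hcon
  push Not at hcon
  have : volume (Ioo u v) = 0 := by
    refine measure_mono_null (fun t ht => ?_) (ae_iff.mp h)
    exact fun hh => hcon t ht (hh ht)
  rw [Real.volume_Ioo, ENNReal.ofReal_eq_zero] at this
  linarith

omit [IsFiniteMeasure μ] in
/-- above the level -/
theorem Psi_top (h : FlowF a b c B 𝓗 X1 X2 μ) (x : ℝ) {t : ℝ} (ht : B < t) :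
    Psi a b X1 X2 μ (x, t) = - lam μ x := by
  have hG : ∀ x, GG X2 μ (x, t) = - lam μ x := by
    intro x
    unfold GG lam
    have e1 : (fun s => X2 (s, t)) = fun _ => 0 := by
      ext s
      exact h.z2 (s, t) (fun hh => absurd ht (not_lt.mpr hh.2.2.2.le))
    have e2 : μ {q : ℝ × ℝ | q.1 < x ∧ q.2 < t} = μ {q : ℝ × ℝ | q.1 < x} := by
      refine measure_congr ?_
      filter_upwards [h.carried] with q hq
      have : q.2 < t := lt_of_le_of_lt hq.2.2.2 ht
      exact propext ⟨fun hh => hh.1, fun hh => ⟨hh, this⟩⟩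
    simp only [e1]
    rw [integral_zero, e2]; ring
  have hC : CC a b X1 X2 μ t = 0 := by
    unfold CC
    have : (fun x => psi X1 μ (x, t) - GG X2 μ (x, t)) = fun _ => 0 := by
      ext x
      rw [strip_eq h (x, t) ht.le, hG x]; ring
    rw [this]; simp
  unfold Psi
  rw [hG x, hC, add_zero]

/-- **(T)** -/
theorem T (hab : a < b) (hcB : c < B) (h : FlowF a b c B 𝓗 X1 X2 μ) {K : Hair} (hK : K ∈ 𝓗)
    (hKa : a < K.x) (hKb : K.x < b) (hμ : μ {q | q.1 = K.x ∧ q.2 ≤ K.t} = 0) :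
    ∃ κ, (∀ᵐ y, c < y → K.b < y → y < K.t → Psi a b X1 X2 μ (K.x, y) = κ) ∧
      (B ≤ K.t → κ = -lam μ K.x) := by
  obtain ⟨r, hr, hr'⟩ : ∃ r > 0, K.x + r < b := ⟨(b - K.x) / 2, by linarith, by linarith⟩
  have hμK : μ K.car = 0 := by
    refine measure_mono_null ?_ hμ
    intro q hq
    exact ⟨hq.1, hq.2.2⟩
  have hP := Psi_hair hab h hKa hr hr'
  have hz : ∀ t, t < K.t → (μ {q : ℝ × ℝ | q.1 = K.x ∧ q.2 < t}).toReal = 0 := by
    intro t ht
    have : μ {q : ℝ × ℝ | q.1 = K.x ∧ q.2 < t} = 0 := by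
      refine measure_mono_null ?_ hμ
      intro q hq
      exact ⟨hq.1, (lt_trans hq.2 ht).le⟩
    rw [this]; rfl
  rcases lt_or_ge K.t B with hB | hB
  · rcases le_or_gt K.t c with hc | hc
    · exact ⟨0, Eventually.of_forall fun y hy _ hy' => absurd (hy.trans hy') (not_lt.mpr hc),
        fun hh => absurd hB (not_lt.mpr hh)⟩
    obtain ⟨κ, hκ⟩ := hair_const h hK hμK K.hbt hc (Or.inl rfl) hr
    refine ⟨κ - (μ {q | q.1 ≤ K.x}).toReal, ?_, fun hh => absurd hB (not_lt.mpr hh)⟩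
    filter_upwards [hκ, hP] with t h1 h2 hct hbt htt
    rw [h2 hct, h1 ⟨max_lt hbt hct, htt⟩, hz t htt, add_zero]
  · have hv : K.b < max K.t (B + 2) := lt_of_lt_of_le K.hbt (le_max_left _ _)
    have hcv : c < max K.t (B + 2) := lt_of_lt_of_le (by linarith) (le_max_right _ _)
    obtain ⟨κ, hκ⟩ := hair_const h hK hμK hv hcv (Or.inr hB) hr
    have hκ0 : max K.b c < max K.t (B + 2) → κ = 0 := by
      intro hlt
      have hlt2 : max B (max K.b c) < max K.t (B + 2) :=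
        max_lt (lt_of_lt_of_le (by linarith) (le_max_right _ _)) hlt
      obtain ⟨t, ht1, ht2⟩ := exists_of_ae (Q := fun t => BR X1 X2 μ (rD K.x r) (rB K.x r) t = κ)
        hlt2 (by
          filter_upwards [hκ] with t ht hI
          exact ht ⟨lt_of_le_of_lt (le_max_right _ _) hI.1, hI.2⟩)
      rw [← ht2]
      exact BR_top h _ _ (lt_of_le_of_lt (le_max_left _ _) ht1.1)
    have hκ1 : κ = 0 := hκ0 (max_lt hv hcv)
    refine ⟨-lam μ K.x, ?_, fun _ => rfl⟩
    have hlam : (μ {q : ℝ × ℝ | q.1 ≤ K.x}).toReal = lam μ K.x := by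
      unfold lam
      congr 1
      refine measure_congr ?_
      have h0 : ∀ᵐ q ∂μ, ¬ (q.1 = K.x ∧ q.2 ≤ K.t) := by
        rw [ae_iff]; simpa using hμ
      filter_upwards [h.carried, h0] with q hq1 hq2
      refine propext ⟨fun hh => ?_, fun hh => le_of_lt hh⟩
      exact lt_of_le_of_ne hh (fun he => hq2 ⟨he, hq1.2.2.2.trans hB⟩)
    filter_upwards [hκ, hP] with t h1 h2 hct hbt htt
    rw [h2 hct, h1 ⟨max_lt hbt hct, lt_of_lt_of_le htt (le_max_left _ _)⟩, hz t htt, hκ1, hlam]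
    ring

omit [IsFiniteMeasure μ] in
/-- small mass near an abscissa without atom -/
theorem small_strip [IsFiniteMeasure μ] {x0 : ℝ} (h0 : μ {q | q.1 = x0} = 0) {ε : ℝ} (hε : 0 < ε) :
    ∃ r > 0, (μ {q : ℝ × ℝ | |q.1 - x0| < r}).toReal < ε := by
  have hanti : Antitone fun n : ℕ => {q : ℝ × ℝ | |q.1 - x0| < 1 / ((n : ℝ) + 1)} := by
    intro m n hmn q hq
    refine lt_of_lt_of_le (show |q.1 - x0| < 1 / ((n : ℝ) + 1) from hq) ?_
    exact one_div_le_one_div_of_le (by positivity) (by exact_mod_cast Nat.add_le_add_right hmn 1)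
  have hmeas : ∀ n : ℕ, MeasurableSet {q : ℝ × ℝ | |q.1 - x0| < 1 / ((n : ℝ) + 1)} := fun n =>
    measurableSet_lt (by fun_prop) measurable_const
  have hlim := tendsto_measure_iInter_atTop (μ := μ)
    (s := fun n : ℕ => {q : ℝ × ℝ | |q.1 - x0| < 1 / ((n : ℝ) + 1)})
    (fun n => (hmeas n).nullMeasurableSet) hanti ⟨0, measure_ne_top _ _⟩
  have hinter : (⋂ n : ℕ, {q : ℝ × ℝ | |q.1 - x0| < 1 / ((n : ℝ) + 1)}) = {q | q.1 = x0} := by
    ext q
    constructor
    · intro hq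
      by_contra hne
      have hpos : 0 < |q.1 - x0| := abs_pos.mpr (sub_ne_zero.mpr hne)
      obtain ⟨n, hn⟩ := exists_nat_one_div_lt hpos
      exact absurd (mem_iInter.mp hq n) (not_lt.mpr hn.le)
    · intro hq
      refine mem_iInter.mpr fun n => ?_
      show |q.1 - x0| < 1 / ((n : ℝ) + 1)
      rw [show q.1 = x0 from hq, sub_self, abs_zero]
      positivity
  rw [hinter, h0] at hlim
  have h1 : ∀ᶠ n : ℕ in atTop, μ {q : ℝ × ℝ | |q.1 - x0| < 1 / ((n : ℝ) + 1)} <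
      ENNReal.ofReal ε := hlim.eventually_lt_const (ENNReal.ofReal_pos.mpr hε)
  obtain ⟨n, hn⟩ := h1.exists
  refine ⟨1 / ((n : ℝ) + 1), by positivity, ?_⟩
  have h2 := (ENNReal.toReal_lt_toReal (measure_ne_top μ _) ENNReal.ofReal_ne_top).mpr hn
  rwa [ENNReal.toReal_ofReal hε.le] at h2

/-- the stream function below the level in the shadow of a solid -/
theorem Psi_solid (hab : a < b) (h : FlowF a b c B 𝓗 X1 X2 μ) {α β b0 x0 : ℝ} (hαβ : α < β)
    (h1 : α ≤ x0) (h2 : x0 ≤ β) (hx0 : a < x0 ∧ x0 < b)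
    (hX : ∀ᵐ p : ℝ × ℝ, p.1 ∈ Ioo α β → b0 < p.2 → X1 p = 0)
    (h0 : μ {q | q.1 = x0} = 0) :
    ∀ᵐ y : ℝ, c < y → b0 < y → Psi a b X1 X2 μ (x0, y) = -lam μ x0 := by
  have hψ : ∀ᵐ x : ℝ, x ∈ Ioo α β → ∀ y, b0 < y → psi X1 μ (x, y) = -lam μ x := by
    filter_upwards [Crest.Agent.R105.CF_363.ae_unswap hX] with x hx hxI y hy
    unfold psi
    have : ∫ t in {t : ℝ | y < t}, X1 (x, t) = 0 := by
      refine integral_eq_zero_of_ae ?_
      refine (ae_restrict_iff' measurableSet_Ioi).mpr ?_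
      filter_upwards [hx] with t ht hty
      exact ht hxI (hy.trans hty)
    rw [this, sub_zero]
  filter_upwards [E_line hab h, H_ae h, X2_line h] with y hE hH hX2 hcy hby
  have hgood : ∀ᵐ x : ℝ, x ∈ Ioo α β → x ∈ Ioo a b → Psi a b X1 X2 μ (x, y) = -lam μ x := by
    filter_upwards [hψ, hE hcy] with x hx1 hx2 hxα hxa
    rw [hx2 hxa, hx1 hxα y hby]
  by_contra hne
  set η := |Psi a b X1 X2 μ (x0, y) + lam μ x0| with hη
  have hηpos : 0 < η := abs_pos.mpr (fun hh => hne (by linarith))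
  obtain ⟨r, hr, hrμ⟩ := small_strip (μ := μ) h0 (show 0 < η / 4 by positivity)
  have hcont : Continuous fun x => ∫ s in x0..x, X2 (s, y) :=
    intervalIntegral.continuous_primitive (fun a b => hX2.intervalIntegrable) x0
  obtain ⟨δ, hδ, hδ2⟩ := Metric.continuousAt_iff.mp (hcont.continuousAt (x := x0)) (η / 4)
    (by positivity)
  -- a good abscissa close to `x0`
  set ρ := min r δ with hρ
  have hρ0 : 0 < ρ := lt_min hr hδ
  have hlt : max (max α a) (x0 - ρ) < min (min β b) (x0 + ρ) := by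
    rw [max_lt_iff, max_lt_iff]
    refine ⟨⟨?_, ?_⟩, ?_⟩
    · refine lt_min (lt_min hαβ ?_) ?_ <;> linarith [hx0.2]
    · refine lt_min (lt_min ?_ hab) ?_ <;> linarith [hx0.1]
    · refine lt_min (lt_min ?_ ?_) ?_ <;> linarith [hx0.2]
  obtain ⟨x, hxI, hx⟩ := exists_of_ae (Q := fun x => Psi a b X1 X2 μ (x, y) = -lam μ x) hlt (by
    filter_upwards [hgood] with x hx hxI
    have k1 := lt_of_le_of_lt (le_max_left _ _) hxI.1
    have k2 := lt_of_lt_of_le hxI.2 (min_le_left _ _)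
    exact hx ⟨lt_of_le_of_lt (le_max_left _ _) k1, lt_of_lt_of_le k2 (min_le_left _ _)⟩
      ⟨lt_of_le_of_lt (le_max_right _ _) k1, lt_of_lt_of_le k2 (min_le_right _ _)⟩)
  have k3 := lt_of_le_of_lt (le_max_right _ _) hxI.1
  have k4 := lt_of_lt_of_le hxI.2 (min_le_right _ _)
  have hxr : |x - x0| < ρ := by rw [abs_lt]; constructor <;> linarith
  have hI : |∫ s in x0..x, X2 (s, y)| < η / 4 := by
    have := hδ2 (x := x) (by rw [Real.dist_eq]; exact lt_of_lt_of_le hxr (min_le_right _ _))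
    rwa [intervalIntegral.integral_same, Real.dist_eq, sub_zero] at this
  have hμle : ∀ S : Set (ℝ × ℝ), S ⊆ {q : ℝ × ℝ | |q.1 - x0| < r} → (μ S).toReal ≤ η / 4 :=
    fun S hS => (ENNReal.toReal_mono (measure_ne_top _ _) (measure_mono hS)).trans hrμ.le
  have hxr' : |x - x0| < r := lt_of_lt_of_le hxr (min_le_left _ _)
  rw [abs_lt] at hxr'
  have hlamdiff : ∀ u v : ℝ, u ≤ v → lam μ v - lam μ u = (μ {q : ℝ × ℝ | q.1 ∈ Ico u v}).toReal := by
    intro u v huv
    unfold lam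
    have : μ {q : ℝ × ℝ | q.1 < v} = μ {q : ℝ × ℝ | q.1 < u} + μ {q : ℝ × ℝ | q.1 ∈ Ico u v} := by
      rw [← measure_union]
      · congr 1
        ext q
        constructor
        · intro hq
          rcases lt_or_ge q.1 u with h3 | h3
          · exact Or.inl h3
          · exact Or.inr ⟨h3, hq⟩
        · rintro (hq | hq)
          · exact lt_of_lt_of_le hq huv
          · exact hq.2
      · rw [Set.disjoint_left]
        intro q h3 h4
        exact absurd (show q.1 < u from h3) (not_lt.mpr h4.1)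
      · exact measurable_fst measurableSet_Ico
    rw [this, ENNReal.toReal_add (measure_ne_top _ _) (measure_ne_top _ _)]
    ring
  rcases le_total x0 x with hle | hle
  · have e1 := hH x0 x hle
    have e2 := hlamdiff x0 x hle
    have e3 := hμle {q | q.1 ∈ Ico x0 x ∧ q.2 < y} (fun q hq => by
      show |q.1 - x0| < r
      rw [abs_lt]; constructor <;> linarith [hq.1.1, hq.1.2])
    have e4 := hμle {q | q.1 ∈ Ico x0 x} (fun q hq => by
      show |q.1 - x0| < r
      rw [abs_lt]; constructor <;> linarith [hq.1, hq.2])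
    have e5 := (ENNReal.toReal_nonneg (a := μ {q : ℝ × ℝ | q.1 ∈ Ico x0 x ∧ q.2 < y}))
    have e6 := (ENNReal.toReal_nonneg (a := μ {q : ℝ × ℝ | q.1 ∈ Ico x0 x}))
    have e7 : Psi a b X1 X2 μ (x0, y) + lam μ x0 = (∫ s in x0..x, X2 (s, y)) +
        (μ {q : ℝ × ℝ | q.1 ∈ Ico x0 x ∧ q.2 < y}).toReal -
        (μ {q : ℝ × ℝ | q.1 ∈ Ico x0 x}).toReal := by linarith
    rw [abs_lt] at hI
    have e8 : η < η := by
      conv_lhs => rw [hη, e7]
      rw [abs_lt]; constructor <;> linarith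
    exact lt_irrefl _ e8
  · have e1 := hH x x0 hle
    have e2 := hlamdiff x x0 hle
    have e3 := hμle {q | q.1 ∈ Ico x x0 ∧ q.2 < y} (fun q hq => by
      show |q.1 - x0| < r
      rw [abs_lt]; constructor <;> linarith [hq.1.1, hq.1.2])
    have e4 := hμle {q | q.1 ∈ Ico x x0} (fun q hq => by
      show |q.1 - x0| < r
      rw [abs_lt]; constructor <;> linarith [hq.1, hq.2])
    have e5 := (ENNReal.toReal_nonneg (a := μ {q : ℝ × ℝ | q.1 ∈ Ico x x0 ∧ q.2 < y}))
    have e6 := (ENNReal.toReal_nonneg (a := μ {q : ℝ × ℝ | q.1 ∈ Ico x x0}))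
    rw [intervalIntegral.integral_symm] at e1
    have e7 : Psi a b X1 X2 μ (x0, y) + lam μ x0 = (∫ s in x0..x, X2 (s, y)) -
        (μ {q : ℝ × ℝ | q.1 ∈ Ico x x0 ∧ q.2 < y}).toReal +
        (μ {q : ℝ × ℝ | q.1 ∈ Ico x x0}).toReal := by linarith
    rw [abs_lt] at hI
    have e8 : η < η := by
      conv_lhs => rw [hη, e7]
      rw [abs_lt]; constructor <;> linarith
    exact lt_irrefl _ e8

/-- **(S)** at the abscissae without atoms -/
theorem S' (hab : a < b) (hcB : c < B) (h : FlowF a b c B 𝓗 X1 X2 μ) :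
    ∀ᵐ y, c < y → μ {q | q.2 < y ∧ μ {q' : ℝ × ℝ | q'.1 = q.1} = 0 ∧
      Psi a b X1 X2 μ (q.1, y) ≠ -lam μ q.1} = 0 := by
  have hm1 : Measurable (fun q : ℝ × ℝ => μ {q' : ℝ × ℝ | q'.1 = q.1}) := by
    have hS : MeasurableSet {r : (ℝ × ℝ) × (ℝ × ℝ) | r.2.1 = r.1.1} :=
      measurableSet_eq_fun (measurable_fst.comp measurable_snd) (measurable_fst.comp measurable_fst)
    exact measurable_measure_prodMk_left (ν := μ) hS
  have hm2 : Measurable (fun r : (ℝ × ℝ) × ℝ => Psi a b X1 X2 μ (r.1.1, r.2)) :=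
    (meas_Psi h.m1 h.m2).comp ((measurable_fst.comp measurable_fst).prodMk measurable_snd)
  have hm3 : Measurable (fun r : (ℝ × ℝ) × ℝ => -lam μ r.1.1) :=
    ((Crest.Agent.R105.Mp_87.lam_mono μ).measurable.comp
      (measurable_fst.comp measurable_fst)).neg
  have hm : MeasurableSet {r : (ℝ × ℝ) × ℝ | ¬ (c < r.2 ∧ r.1.2 < r.2 ∧
      μ {q' : ℝ × ℝ | q'.1 = r.1.1} = 0 ∧ Psi a b X1 X2 μ (r.1.1, r.2) ≠ -lam μ r.1.1)} := by
    refine MeasurableSet.compl ?_
    refine (measurableSet_lt measurable_const measurable_snd).inter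
      ((measurableSet_lt (measurable_snd.comp measurable_fst) measurable_snd).inter
      (((hm1.comp measurable_fst) (measurableSet_singleton 0)).inter ?_))
    exact (measurableSet_eq_fun hm2 hm3).compl
  have key : ∀ᵐ q ∂μ, ∀ᵐ y : ℝ, ¬ (c < y ∧ q.2 < y ∧
      μ {q' : ℝ × ℝ | q'.1 = q.1} = 0 ∧ Psi a b X1 X2 μ (q.1, y) ≠ -lam μ q.1) := by
    filter_upwards [h.carried, h.sat] with q hq1 hq2
    by_cases hat : μ {q' : ℝ × ℝ | q'.1 = q.1} = 0
    swap
    · exact Eventually.of_forall fun y hy => hat hy.2.2.1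
    rcases hq2 with ⟨K, hK, hKx, hKb, hKt⟩ | ⟨α, β, b0, hαβ, hα, hβ, hb0, hX⟩
    swap
    · filter_upwards [Psi_solid hab h hαβ hα hβ ⟨hq1.1, hq1.2.1⟩ hX hat] with y hy
      rintro ⟨h1, h2, -, h4⟩
      exact h4 (hy h1 (lt_of_le_of_lt hb0 h2))
    obtain ⟨κ, hκ1, hκ2⟩ := T hab hcB h hK (by rw [hKx]; exact hq1.1) (by rw [hKx]; exact hq1.2.1)
      (measure_mono_null (fun q' hq' => by
        show q'.1 = q.1
        rw [← hKx]; exact hq'.1) hat)
    have hne : ∀ᵐ y : ℝ, y ≠ B := by rw [ae_iff]; simp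
    filter_upwards [hκ1, hne] with y hy hyB
    rintro ⟨h1, h2, -, h4⟩
    apply h4
    rcases lt_or_gt_of_ne hyB with hlt | hgt
    · have := hy h1 (lt_of_le_of_lt hKb h2) (lt_of_lt_of_le hlt hKt)
      rw [hκ2 hKt, hKx] at this
      exact this
    · exact Psi_top h _ hgt
  have key2 := (Measure.ae_ae_comm (μ := μ) (ν := (volume : Measure ℝ))
    (p := fun q y => ¬ (c < y ∧ q.2 < y ∧
      μ {q' : ℝ × ℝ | q'.1 = q.1} = 0 ∧ Psi a b X1 X2 μ (q.1, y) ≠ -lam μ q.1)) hm).mp key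
  filter_upwards [key2] with y hy hcy
  rw [ae_iff] at hy
  refine measure_mono_null ?_ hy
  rintro q ⟨h1, h2, h3⟩
  simp only [not_not]
  exact ⟨hcy, h1, h2, h3⟩

end T

end Crest.Agent.R105.Str_421
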