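import Crest.Agent.R105.Str4_421
import Crest.Agent.R105.Kin3_238

/-!
Row 105, lemma A: the stream function on a rectangle (helper421).
Part 5: input = `Half` of 238; strict form of (T); (S) relative to the columns without mass below.
-/

open MeasureTheory Set Filter Topology
open Crest.Agent.R105.CF_363 (CF CFJ SL Hair cut gx gy ramp)
open Crest.Agent.R105.Mp_87 (lam Lines)
open Crest.Agent.R105.Kin_238 (Wl Wo Vl lowSet Half)

namespace Crest.Agent.R105.Str_421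

variable {a b c B : ℝ} {𝓗 g : Set Hair} {X1 X2 : ℝ × ℝ → ℝ} {μ : Measure (ℝ × ℝ)}

theorem flowF_of_half (hg : g ⊆ 𝓗) (G : Crest.Agent.R105.Kin_238.GG a b c B g) (h : Half 𝓗 a b c B g X1 X2 μ) :
    FlowF a b c B 𝓗 X1 X2 μ where
  m1 := h.m1
  m2 := h.m2
  i1 := integrable_of_box h.L1 (fun p hp => h.z1 p (fun hh => hp ⟨hh.1.1, hh.1.2, hh.2.1, hh.2.2⟩))
  i2 := integrable_of_box h.L2 (fun p hp => h.z2 p (fun hh => hp ⟨hh.1.1, hh.1.2, hh.2.1, hh.2.2⟩))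
  z1 p hp := h.z1 p (fun hh => hp ⟨hh.1.1, hh.1.2, hh.2.1, hh.2.2⟩)
  z2 p hp := h.z2 p (fun hh => hp ⟨hh.1.1, hh.1.2, hh.2.1, hh.2.2⟩)
  carried := by
    have h1 : ∀ᵐ q ∂μ, q ∈ lowSet g B := by rw [ae_iff]; exact h.carried
    filter_upwards [h1] with q hq
    have := G.lowSet_subset hq
    exact ⟨this.1.1, this.1.2, this.2.1, this.2.2⟩
  sat := by
    have h1 : ∀ᵐ q ∂μ, q ∈ lowSet g B := by rw [ae_iff]; exact h.carried
    filter_upwards [h1] with q hq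
    obtain ⟨K, hK, hq, hqB⟩ := hq
    exact Or.inl ⟨K, hg hK, hq.1.symm, hq.2.1, G.topB K hK⟩
  F := by
    intro J hJ hμJ e hCF he0
    have hW : Wm a b c B = Wl a b c B := by
      ext p
      exact ⟨fun hh => ⟨⟨hh.1, hh.2.1⟩, hh.2.2.1, hh.2.2.2⟩,
        fun hh => ⟨hh.1.1, hh.1.2, hh.2.1, hh.2.2⟩⟩
    rw [hW] at hCF
    have heV : e ∈ Vl 𝓗 a b c B := by
      refine ⟨⟨J, hJ, hCF⟩, ?_⟩
      obtain ⟨δ, hδ, h0⟩ := he0
      exact ⟨δ, hδ, fun p hp hpc => h0 p (hW ▸ hp) hpc⟩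
    rw [← h.F e J heV hCF hμJ]
    rw [setIntegral_eq_integral_of_forall_compl_eq_zero,
      setIntegral_eq_integral_of_forall_compl_eq_zero]
    · intro p hp
      rw [h.z1 p hp, h.z2 p hp]; ring
    · intro p hp
      have hp' : p ∉ Wo a b c B := fun hh => hp ⟨hh.1.1, hh.1.2, hh.2.1, hh.2.2.le⟩
      rw [h.z1 p hp', h.z2 p hp']; ring

/-- **(T)** with the strict condition and no mass at the tip -/
theorem T_strict [IsFiniteMeasure μ] (hab : a < b) (hcB : c < B) (h : FlowF a b c B 𝓗 X1 X2 μ)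
    {K : Hair} (hK : K ∈ 𝓗) (hKa : a < K.x) (hKb : K.x < b)
    (hμ : μ {q | q.1 = K.x ∧ q.2 < K.t} = 0) (hpt : μ {(K.x, K.t)} = 0) :
    ∃ κ, (∀ᵐ y, c < y → y ∈ Ioo K.b K.t → Psi a b X1 X2 μ (K.x, y) = κ) ∧
      (B ≤ K.t → κ = -lam μ K.x) := by
  have h4 : μ {q | q.1 = K.x ∧ q.2 ≤ K.t} = 0 := by
    refine measure_mono_null ?_ (measure_union_null hμ hpt)
    rintro q ⟨h1, h2⟩
    rcases lt_or_eq_of_le h2 with h3 | h3
    · exact Or.inl ⟨h1, h3⟩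
    · exact Or.inr (Prod.ext h1 h3)
  obtain ⟨κ, k1, k2⟩ := T hab hcB h hK hKa hKb h4
  refine ⟨κ, ?_, k2⟩
  filter_upwards [k1] with y hy hcy hyI
  exact hy hcy hyI.1 hyI.2

/-- **(T)** with the strict condition -/
theorem T_half (hab : a < b) (hcB : c < B) (hg : g ⊆ 𝓗) (G : Crest.Agent.R105.Kin_238.GG a b c B g)
    (h : Half 𝓗 a b c B g X1 X2 μ)
    (hdis : ∀ K ∈ 𝓗, ∀ K' ∈ 𝓗, ∀ p, p ∈ K.car → p ∈ K'.car → K = K')
    (hBt : ∀ K ∈ g, B < K.t) {K : Hair} (hK : K ∈ 𝓗) (hKa : a < K.x) (hKb : K.x < b)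
    (hμ : μ {q | q.1 = K.x ∧ q.2 < K.t} = 0) :
    ∃ κ, (∀ᵐ y, c < y → y ∈ Ioo K.b K.t → Psi a b X1 X2 μ (K.x, y) = κ) ∧
      (B ≤ K.t → κ = -lam μ K.x) := by
  have : IsFiniteMeasure μ := h.fin
  have h1 : ∀ᵐ q ∂μ, q ∈ lowSet g B := by rw [ae_iff]; exact h.carried
  have h2 : ∀ᵐ q ∂μ, ¬ (q.1 = K.x ∧ q.2 < K.t) := by rw [ae_iff]; simpa using hμ
  have h3 : ∀ᵐ q ∂μ, ¬ (q.1 = K.x ∧ q.2 ≤ K.t) := by
    filter_upwards [h1, h2] with q hq1 hq2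
    rintro ⟨h4, h5⟩
    rcases lt_or_eq_of_le h5 with h6 | h6
    · exact hq2 ⟨h4, h6⟩
    · obtain ⟨K', hK', hq, hqB⟩ := hq1
      have hqK : q ∈ K.car := ⟨h4, by rw [h6]; exact K.hbt.le, h6.le⟩
      have := hdis K hK K' (hg hK') q hqK hq
      have hb := hBt K' hK'
      rw [← this, ← h6] at hb
      exact absurd hqB (not_le.mpr hb)
  have h4 : μ {q | q.1 = K.x ∧ q.2 ≤ K.t} = 0 := by
    rw [ae_iff] at h3; simpa using h3
  obtain ⟨κ, k1, k2⟩ := T hab hcB (flowF_of_half hg G h) hK hKa hKb h4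
  refine ⟨κ, ?_, k2⟩
  filter_upwards [k1] with y hy hcy hyI
  exact hy hcy hyI.1 hyI.2

/-- **(S)** relative to the columns without mass below -/
theorem S_rel [IsFiniteMeasure μ] (hab : a < b) (hcB : c < B) (h : FlowF a b c B 𝓗 X1 X2 μ) :
    ∀ᵐ y, c < y → μ {q | q.2 < y ∧ μ {q2 : ℝ × ℝ | q2.1 = q.1 ∧ q2.2 < y} = 0 ∧
      Psi a b X1 X2 μ (q.1, y) ≠ -lam μ q.1} = 0 := by
  have hcount : Set.Countable {t : ℝ | 0 < μ {q : ℝ × ℝ | q.1 = t}} :=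
    Measure.countable_meas_level_set_pos measurable_fst
  filter_upwards [S' hab hcB h] with y hy hcy
  have h1 : μ (⋃ t ∈ {t : ℝ | 0 < μ {q : ℝ × ℝ | q.1 = t}},
      {q : ℝ × ℝ | q.1 = t ∧ q.2 < y ∧ μ {q2 : ℝ × ℝ | q2.1 = t ∧ q2.2 < y} = 0}) = 0 := by
    rw [measure_biUnion_null_iff hcount]
    intro t _
    by_cases h0 : μ {q2 : ℝ × ℝ | q2.1 = t ∧ q2.2 < y} = 0
    · refine measure_mono_null ?_ h0
      intro q hq
      exact ⟨hq.1, hq.2.1⟩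
    · have : {q : ℝ × ℝ | q.1 = t ∧ q.2 < y ∧ μ {q2 : ℝ × ℝ | q2.1 = t ∧ q2.2 < y} = 0} = ∅ := by
        ext q
        constructor
        · intro hq; exact absurd hq.2.2 h0
        · intro hq; exact absurd hq (by simp)
      rw [this]; exact measure_empty
  refine measure_mono_null ?_ (measure_union_null (hy hcy) h1)
  rintro q ⟨h2, h3, h4⟩
  by_cases h5 : μ {q' : ℝ × ℝ | q'.1 = q.1} = 0
  · exact Or.inl ⟨h2, h5, h4⟩
  · right
    simp only [mem_iUnion]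
    exact ⟨q.1, pos_iff_ne_zero.mpr h5, rfl, h2, h3⟩

/-- **The stream function on a rectangle** (lemma A). -/
theorem lines [IsFiniteMeasure μ] (hab : a < b) (hcB : c < B) (h : FlowF a b c B 𝓗 X1 X2 μ)
    (hL1 : MemLp X1 2 (volume : Measure (ℝ × ℝ))) (hL2 : MemLp X2 2 (volume : Measure (ℝ × ℝ))) :
    Lines a b c B 1 X1 X2 μ (psi X1 μ) (Psi a b X1 X2 μ) where
  mψ := meas_psi h.m1
  mΨ := meas_Psi h.m1 h.m2
  L1 := hL1
  L2 := hL2
  strip p hp := by rw [strip_eq h p hp]; ring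
  V := by
    filter_upwards [V_ae h] with x hx _ y y' _ _
    exact hx y y'
  H := by
    filter_upwards [H_ae h] with y hy _ x _ x' _ hxx
    rw [hy x x' hxx]; ring
  E := E_ae hab h
  S := by
    filter_upwards [S_rel hab hcB h] with y hy hcy
    simpa only [neg_one_mul] using hy hcy

/-- **`Lines` from 238's `Half`.** -/
theorem lines_half (hab : a < b) (hcB : c < B) (hg : g ⊆ 𝓗)
    (G : Crest.Agent.R105.Kin_238.GG a b c B g) (h : Half 𝓗 a b c B g X1 X2 μ) :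
    Lines a b c B 1 X1 X2 μ (psi X1 μ) (Psi a b X1 X2 μ) := by
  have : IsFiniteMeasure μ := h.fin
  exact lines hab hcB (flowF_of_half hg G h) h.L1 h.L2

end Crest.Agent.R105.Str_421
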