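import Crest.Agent.R105.Str5_421

/-!
Row 105, lemma A: the stream function on a rectangle (helper421).
Part 7: the integral of the horizontal derivative of `χ ψ`.
-/

open MeasureTheory Set Filter Topology
open Crest.Agent.R105.CF_363 (CF CFJ SL Hair cut gx gy ramp)
open Crest.Agent.R105.Mp_87 (lam Lines)

namespace Crest.Agent.R105.Str_421

variable {a b c B : ℝ} {𝓗 g : Set Hair} {X1 X2 : ℝ × ℝ → ℝ} {μ : Measure (ℝ × ℝ)}
  [IsFiniteMeasure μ] {χ : ℝ × ℝ → ℝ}

theorem chi_line (hχ : ContDiff ℝ 1 χ) (hc : HasCompactSupport χ) (t : ℝ) :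
    Continuous (fun x => gx χ (x, t)) ∧ HasCompactSupport (fun x => gx χ (x, t)) ∧
      (∀ x, P (fun x => gx χ (x, t)) x = χ (x, t)) ∧ ∫ x, gx χ (x, t) = 0 := by
  have h1 : ContDiff ℝ 1 (fun x : ℝ => χ (x, t)) := hχ.comp (by fun_prop)
  have hcl : Topology.IsClosedEmbedding (fun x : ℝ => (x, t)) := by
    refine Topology.IsClosedEmbedding.of_continuous_injective_isClosedMap (by fun_prop)
      (fun x y hxy => (Prod.mk.inj hxy).1) ?_
    intro S hS
    have : (fun x : ℝ => (x, t)) '' S = S ×ˢ {t} := by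
      ext p
      constructor
      · rintro ⟨x, hx, rfl⟩; exact ⟨hx, rfl⟩
      · rintro ⟨h1, h2⟩; exact ⟨p.1, h1, Prod.ext rfl (mem_singleton_iff.mp h2).symm⟩
    rw [this]
    exact hS.prod isClosed_singleton
  have h2 : HasCompactSupport (fun x : ℝ => χ (x, t)) := hc.comp_isClosedEmbedding hcl
  have h3 : (fun x => gx χ (x, t)) = deriv (fun x : ℝ => χ (x, t)) := by
    ext x
    exact (Crest.Agent.R105.CF_363.gx_eq_deriv (hχ.differentiable (by norm_num) (x, t))).deriv.symm
  rw [h3]
  refine ⟨h1.continuous_deriv le_rfl, h2.deriv, fun x => ?_, ?_⟩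
  · exact HasCompactSupport.integral_Iic_deriv_eq h1 h2 x
  · have h4 := HasCompactSupport.integral_Iic_deriv_eq h1 h2
    have hint : Integrable (deriv (fun x : ℝ => χ (x, t))) (volume : Measure ℝ) :=
      (h1.continuous_deriv le_rfl).integrable_of_hasCompactSupport h2.deriv
    have h5 := integral_add_compl (measurableSet_Iic (a := (0 : ℝ))) hint
    have h6 := HasCompactSupport.integral_Ioi_deriv_eq h1 h2 0
    rw [compl_Iic, h6, h4 0] at h5
    rw [← h5]; ring

/-- the integral of `∂x (χ ψ)` on a horizontal line is the flux below the line -/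
theorem line_test (h : FlowF a b c B 𝓗 X1 X2 μ) (hχ : ContDiff ℝ 1 χ) (hc : HasCompactSupport χ) :
    ∀ᵐ t : ℝ, Integrable (fun x => gx χ (x, t) * Psi a b X1 X2 μ (x, t)) ∧
      Integrable (fun x => χ (x, t) * X2 (x, t)) ∧
      ∫ x, (gx χ (x, t) * Psi a b X1 X2 μ (x, t) - χ (x, t) * X2 (x, t)) =
        ∫ q in {q : ℝ × ℝ | q.2 < t}, χ (q.1, t) ∂μ := by
  filter_upwards [X2_line h] with t ht
  obtain ⟨k1, k2, k3, k4⟩ := chi_line hχ hc t
  have hD : Integrable (fun x => gx χ (x, t)) := k1.integrable_of_hasCompactSupport k2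
  obtain ⟨M, hM⟩ := k2.exists_bound_of_continuous k1
  obtain ⟨i2, e2⟩ := D_GG (μ := μ) hD t ht
  have hPD : P (fun x => gx χ (x, t)) = fun x => χ (x, t) := funext k3
  rw [k4, hPD, zero_mul, neg_zero, zero_mul, sub_zero, zero_add] at e2
  have i3 : Integrable (fun x => gx χ (x, t) * Psi a b X1 X2 μ (x, t)) := by
    have : (fun x => gx χ (x, t) * Psi a b X1 X2 μ (x, t)) = fun x =>
        gx χ (x, t) * GG X2 μ (x, t) + gx χ (x, t) * CC a b X1 X2 μ t := by
      ext x; unfold Psi; ring
    rw [this]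
    exact i2.add (hD.mul_const _)
  have i4 : Integrable (fun x => χ (x, t) * X2 (x, t)) := by
    have hcont : Continuous (fun x => χ (x, t)) := hχ.continuous.comp (by fun_prop)
    obtain ⟨M', hM'⟩ := hc.exists_bound_of_continuous hχ.continuous
    exact ht.bdd_mul (c := M') hcont.aestronglyMeasurable (Eventually.of_forall fun x => hM' _)
  refine ⟨i3, i4, ?_⟩
  rw [integral_sub i3 i4]
  have e3 : ∫ x, gx χ (x, t) * Psi a b X1 X2 μ (x, t) = ∫ x, gx χ (x, t) * GG X2 μ (x, t) := by
    have : (fun x => gx χ (x, t) * Psi a b X1 X2 μ (x, t)) = fun x =>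
        gx χ (x, t) * GG X2 μ (x, t) + gx χ (x, t) * CC a b X1 X2 μ t := by
      ext x; unfold Psi; ring
    rw [this, integral_add i2 (hD.mul_const _), integral_mul_const, k4]; ring
  rw [e3, e2]
  unfold WW
  ring

/-- bound for `ψ` -/
theorem psi_bound (h : FlowF a b c B 𝓗 X1 X2 μ) : ∀ᵐ x : ℝ, ∀ y : ℝ,
    |psi X1 μ (x, y)| ≤ (μ univ).toReal + ∫ t, |X1 (x, t)| := by
  have h1 : ∀ᵐ x : ℝ, Integrable (fun t => X1 (x, t)) := by
    have := h.int1
    rw [Measure.volume_eq_prod] at this
    exact this.prod_right_ae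
  filter_upwards [h1] with x hx y
  unfold psi
  have a1 : |(-lam μ x : ℝ)| ≤ (μ univ).toReal := by
    rw [abs_neg]
    unfold lam
    rw [abs_of_nonneg ENNReal.toReal_nonneg]
    exact ENNReal.toReal_mono (measure_ne_top _ _) (measure_mono (subset_univ _))
  have a2 : |∫ t in {t : ℝ | y < t}, X1 (x, t)| ≤ ∫ t, |X1 (x, t)| := by
    have h2 := norm_integral_le_integral_norm (μ := volume.restrict {t : ℝ | y < t})
      (fun t => X1 (x, t))
    have h3 := setIntegral_le_integral (s := {t : ℝ | y < t}) hx.norm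
      (Eventually.of_forall fun t => norm_nonneg _)
    simp only [Real.norm_eq_abs] at h2 h3
    exact h2.trans h3
  exact (abs_sub _ _).trans (add_le_add a1 a2)

/-- `∂x χ · Ψ` is integrable on the half plane above `c` -/
theorem int_gx_Psi (hab : a < b) (h : FlowF a b c B 𝓗 X1 X2 μ) (hχ : ContDiff ℝ 1 χ)
    (hc : HasCompactSupport χ) (hs : tsupport χ ⊆ Ioo a b ×ˢ univ) :
    IntegrableOn (fun p => gx χ p * Psi a b X1 X2 μ p) {p | c < p.2} := by
  have hg : Continuous (gx χ) := (hχ.continuous_fderiv (by norm_num)).clm_apply continuous_const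
  have hgc : HasCompactSupport (gx χ) := by
    refine hc.mono' ?_
    intro p hp
    by_contra hcon
    apply hp
    have : χ =ᶠ[𝓝 p] fun _ => 0 := by
      filter_upwards [(isClosed_tsupport χ).isOpen_compl.mem_nhds hcon] with q hq
      exact image_eq_zero_of_notMem_tsupport hq
    rw [Crest.Agent.R105.CF_363.gx_congr this]; simp
  have hgz : ∀ p, p ∉ tsupport χ → gx χ p = 0 := by
    intro p hcon
    have : χ =ᶠ[𝓝 p] fun _ => 0 := by
      filter_upwards [(isClosed_tsupport χ).isOpen_compl.mem_nhds hcon] with q hq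
      exact image_eq_zero_of_notMem_tsupport hq
    rw [Crest.Agent.R105.CF_363.gx_congr this]; simp
  obtain ⟨M, hM⟩ := hgc.exists_bound_of_continuous hg
  -- compare with `ψ`
  have hu : Integrable (fun x : ℝ => ∫ t, |X1 (x, t)|) := by
    have := h.int1.norm
    rw [Measure.volume_eq_prod] at this
    exact this.integral_prod_left
  have hψ : Integrable (fun p => gx χ p * psi X1 μ p) := by
    obtain ⟨R, hR⟩ := hc.isBounded.subset_closedBall (0 : ℝ × ℝ)
    have hdom : Integrable (fun p : ℝ × ℝ => (((Icc (-R) R).indicator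
        (fun x => M * ((μ univ).toReal + ∫ t, |X1 (x, t)|))) p.1) *
          ((Icc (-R) R).indicator (fun _ => (1 : ℝ)) p.2)) := by
      rw [Measure.volume_eq_prod]
      refine Integrable.mul_prod (f := (Icc (-R) R).indicator
        (fun x => M * ((μ univ).toReal + ∫ t, |X1 (x, t)|)))
        (g := (Icc (-R) R).indicator (fun _ => (1 : ℝ))) ?_ ?_
      · refine (integrable_indicator_iff measurableSet_Icc).mpr ?_
        refine Integrable.const_mul ?_ M
        exact (integrableOn_const (by rw [Real.volume_Icc]; exact ENNReal.ofReal_ne_top)).add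
          hu.integrableOn
      · exact (integrable_indicator_iff measurableSet_Icc).mpr
          (integrableOn_const (by rw [Real.volume_Icc]; exact ENNReal.ofReal_ne_top))
    refine hdom.mono' (hg.measurable.mul (meas_psi h.m1)).aestronglyMeasurable ?_
    filter_upwards [ae_fst (psi_bound h)] with p hp
    by_cases hpS : p ∈ tsupport χ
    · have h3 := hR hpS
      rw [mem_closedBall_zero_iff, Prod.norm_def] at h3
      have h4 : |p.1| ≤ R := (le_max_left _ _).trans h3
      have h5 : |p.2| ≤ R := (le_max_right _ _).trans h3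
      rw [indicator_of_mem (show p.1 ∈ Icc (-R) R from abs_le.mp h4),
        indicator_of_mem (show p.2 ∈ Icc (-R) R from abs_le.mp h5), mul_one, norm_mul]
      refine mul_le_mul (hM p) ?_ (norm_nonneg _) ((norm_nonneg _).trans (hM p))
      exact hp p.2
    · rw [hgz p hpS, zero_mul, norm_zero]
      have hM0 : 0 ≤ M := (norm_nonneg _).trans (hM p)
      refine mul_nonneg (indicator_nonneg (fun x _ => mul_nonneg hM0 (add_nonneg
        ENNReal.toReal_nonneg (integral_nonneg fun t => abs_nonneg _))) _)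
        (indicator_nonneg (fun _ _ => zero_le_one) _)
  refine (hψ.integrableOn (s := {p : ℝ × ℝ | c < p.2})).congr ?_
  refine (ae_restrict_iff' (measurableSet_lt measurable_const measurable_snd)).mpr ?_
  filter_upwards [E_ae hab h] with p hp hpc
  by_cases hpS : p ∈ tsupport χ
  · rw [hp (hs hpS).1 hpc]
  · rw [hgz p hpS, zero_mul, zero_mul]

/-- **The final integral**: `∫ ∂x (χ ψ)` over a strip is the integral of the fluxes. -/
theorem strip_test (hab : a < b) (h : FlowF a b c B 𝓗 X1 X2 μ) (hχ : ContDiff ℝ 1 χ)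
    (hc : HasCompactSupport χ) (hs : tsupport χ ⊆ Ioo a b ×ˢ univ) (s s' : ℝ) (hcs : c ≤ s) :
    IntegrableOn (fun p => gx χ p * Psi a b X1 X2 μ p - χ p * X2 p) {p | p.2 ∈ Ioo s s'} ∧
    ∫ p in {p : ℝ × ℝ | p.2 ∈ Ioo s s'}, (gx χ p * Psi a b X1 X2 μ p - χ p * X2 p) =
      ∫ t in Ioo s s', ∫ q in {q : ℝ × ℝ | q.2 < t}, χ (q.1, t) ∂μ := by
  obtain ⟨M', hM'⟩ := hc.exists_bound_of_continuous hχ.continuous
  have i1 : IntegrableOn (fun p => gx χ p * Psi a b X1 X2 μ p) {p | p.2 ∈ Ioo s s'} :=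
    (int_gx_Psi hab h hχ hc hs).mono_set (fun p hp => lt_of_le_of_lt hcs hp.1)
  have i2 : IntegrableOn (fun p => χ p * X2 p) {p : ℝ × ℝ | p.2 ∈ Ioo s s'} :=
    (h.int2.bdd_mul (c := M') hχ.continuous.aestronglyMeasurable
      (Eventually.of_forall fun x => hM' _)).integrableOn
  have i3 : IntegrableOn (fun p => gx χ p * Psi a b X1 X2 μ p - χ p * X2 p)
      {p : ℝ × ℝ | p.2 ∈ Ioo s s'} := i1.sub i2
  refine ⟨i3, ?_⟩
  have e : {p : ℝ × ℝ | p.2 ∈ Ioo s s'} = univ ×ˢ Ioo s s' := by ext p; simp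
  rw [e] at i3 ⊢
  rw [Measure.volume_eq_prod] at i3 ⊢
  rw [IntegrableOn, ← Measure.prod_restrict, Measure.restrict_univ] at i3
  rw [← Measure.prod_restrict, Measure.restrict_univ, integral_prod_symm _ i3]
  refine integral_congr_ae ?_
  filter_upwards [ae_restrict_of_ae (line_test h hχ hc)] with t ht
  exact ht.2.2

end Crest.Agent.R105.Str_421
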