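import Mathlib

/-!
# Row 105, S0138: exact switching, part 1: the hull of a lower semicontinuous function (helper209)

`Oi g t` : the union of the unbounded components of `{t < g}`, `hull g z = sup {t | z ∈ Oi g t}`.
`Low σ M g` : `g` lower semicontinuous and `|g z - σ * z.re| ≤ M` (`σ = ±1`).
Then no `{t < hull g}` has a bounded component, `hull g ≤ g`, `hull g` is locally constant where it
differs from `g`, is `L`-Lipschitz on every convex set where `g` is, and `hull g z = σ * z.re` for
`R < ‖z‖` if `g` has this property.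
-/

set_option autoImplicit false

open Set Filter Topology Metric Bornology
open scoped NNReal

namespace Crest.Agent.R105.Sw_209

/-- the union of the unbounded components of `{t < g}` -/
def Oi (g : ℂ → ℝ) (t : ℝ) : Set ℂ :=
  {z | t < g z ∧ ¬ IsBounded (connectedComponentIn {w | t < g w} z)}

/-- the hull of `g` -/
noncomputable def hull (g : ℂ → ℝ) (z : ℂ) : ℝ := sSup {t | z ∈ Oi g t}

/-- the far part of `{t < σ re}` -/
def F (σ R t : ℝ) : Set ℂ := {w | R < ‖w‖ ∧ t < σ * w.re}

/-- lower semicontinuous functions at bounded distance from `± re` -/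
structure Low (σ M : ℝ) (g : ℂ → ℝ) : Prop where
  lsc : LowerSemicontinuous g
  bd : ∀ z, |g z - σ * z.re| ≤ M
  sgn : σ = 1 ∨ σ = -1

/-! ### the far part is connected -/

lemma F_preconn_one {R t : ℝ} (hR : 0 ≤ R) : IsPreconnected (F 1 R t) := by
  set M : ℝ := max R t with hM
  have hRM : R ≤ M := le_max_left _ _
  have htM : t ≤ M := le_max_right _ _
  set p : ℂ := ⟨M + 1, R + 1⟩ with hp
  -- three convex pieces
  have hS3 : ({w : ℂ | M < w.re}) ⊆ F 1 R t := by
    intro w hw
    have hw' : M < w.re := hw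
    refine ⟨?_, by linarith⟩
    have := Complex.abs_re_le_norm w
    have := le_abs_self w.re
    linarith
  have hS1 : ({w : ℂ | t < w.re} ∩ {w : ℂ | R < w.im}) ⊆ F 1 R t := by
    rintro w ⟨hw1, hw2⟩
    have hw1' : t < w.re := hw1
    have hw2' : R < w.im := hw2
    refine ⟨?_, by linarith⟩
    have := Complex.abs_im_le_norm w
    have := le_abs_self w.im
    linarith
  have hS2 : ({w : ℂ | t < w.re} ∩ {w : ℂ | w.im < -R}) ⊆ F 1 R t := by
    rintro w ⟨hw1, hw2⟩
    have hw1' : t < w.re := hw1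
    have hw2' : w.im < -R := hw2
    refine ⟨?_, by linarith⟩
    have := Complex.abs_im_le_norm w
    have := neg_abs_le w.im
    linarith
  have c3 : IsPreconnected ({w : ℂ | M < w.re}) := (convex_halfSpace_re_gt M).isPreconnected
  have c1 : IsPreconnected ({w : ℂ | t < w.re} ∩ {w : ℂ | R < w.im}) :=
    ((convex_halfSpace_re_gt t).inter (convex_halfSpace_im_gt R)).isPreconnected
  have c2 : IsPreconnected ({w : ℂ | t < w.re} ∩ {w : ℂ | w.im < -R}) :=
    ((convex_halfSpace_re_gt t).inter (convex_halfSpace_im_lt (-R))).isPreconnected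
  refine isPreconnected_of_forall p fun w hw => ?_
  obtain ⟨hw1, hw2⟩ := hw
  have hw2' : t < w.re := by linarith
  rcases le_total 0 w.im with h0 | h0
  · -- upper ray
    set S0 : Set ℂ := {z : ℂ | z.re ≤ w.re} ∩ {z : ℂ | w.re ≤ z.re} ∩ {z : ℂ | w.im ≤ z.im} with hS0
    have c0 : IsPreconnected S0 :=
      (((convex_halfSpace_re_le w.re).inter (convex_halfSpace_re_ge w.re)).inter
        (convex_halfSpace_im_ge w.im)).isPreconnected
    have hsub : S0 ⊆ F 1 R t := by
      rintro z ⟨⟨h1, h2⟩, h3⟩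
      have h1' : z.re ≤ w.re := h1
      have h2' : w.re ≤ z.re := h2
      have h3' : w.im ≤ z.im := h3
      have hre : z.re = w.re := le_antisymm h1' h2'
      refine ⟨hw1.trans_le ?_, by rw [hre]; linarith⟩
      rw [← sq_le_sq₀ (norm_nonneg _) (norm_nonneg _), ← Complex.normSq_eq_norm_sq,
        ← Complex.normSq_eq_norm_sq, Complex.normSq_apply, Complex.normSq_apply, hre]
      nlinarith
    set q : ℂ := ⟨w.re, max w.im (R + 1)⟩ with hq
    refine ⟨S0 ∪ (({w : ℂ | t < w.re} ∩ {w : ℂ | R < w.im}) ∪ {w : ℂ | M < w.re}),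
      union_subset hsub (union_subset hS1 hS3), Or.inr (Or.inr ?_), Or.inl ?_, ?_⟩
    · show M < M + 1
      linarith
    · exact ⟨⟨le_refl w.re, le_refl w.re⟩, le_refl w.im⟩
    · refine IsPreconnected.union q ?_ ?_ c0 (IsPreconnected.union p ?_ ?_ c1 c3)
      · refine ⟨⟨le_refl w.re, le_refl w.re⟩, ?_⟩
        show w.im ≤ max w.im (R + 1)
        exact le_max_left _ _
      · refine Or.inl ⟨hw2', ?_⟩
        show R < max w.im (R + 1)
        exact lt_of_lt_of_le (by linarith) (le_max_right _ _)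
      · refine ⟨?_, ?_⟩
        · show t < M + 1
          linarith
        · show R < R + 1
          linarith
      · show M < M + 1
        linarith
  · -- lower ray
    set S0 : Set ℂ := {z : ℂ | z.re ≤ w.re} ∩ {z : ℂ | w.re ≤ z.re} ∩ {z : ℂ | z.im ≤ w.im} with hS0
    have c0 : IsPreconnected S0 :=
      (((convex_halfSpace_re_le w.re).inter (convex_halfSpace_re_ge w.re)).inter
        (convex_halfSpace_im_le w.im)).isPreconnected
    have hsub : S0 ⊆ F 1 R t := by
      rintro z ⟨⟨h1, h2⟩, h3⟩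
      have h1' : z.re ≤ w.re := h1
      have h2' : w.re ≤ z.re := h2
      have h3' : z.im ≤ w.im := h3
      have hre : z.re = w.re := le_antisymm h1' h2'
      refine ⟨hw1.trans_le ?_, by rw [hre]; linarith⟩
      rw [← sq_le_sq₀ (norm_nonneg _) (norm_nonneg _), ← Complex.normSq_eq_norm_sq,
        ← Complex.normSq_eq_norm_sq, Complex.normSq_apply, Complex.normSq_apply, hre]
      nlinarith
    set q : ℂ := ⟨w.re, min w.im (-R - 1)⟩ with hq
    set p' : ℂ := ⟨M + 1, -R - 1⟩ with hp'
    refine ⟨S0 ∪ (({w : ℂ | t < w.re} ∩ {w : ℂ | w.im < -R}) ∪ {w : ℂ | M < w.re}),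
      union_subset hsub (union_subset hS2 hS3), Or.inr (Or.inr ?_), Or.inl ?_, ?_⟩
    · show M < M + 1
      linarith
    · exact ⟨⟨le_refl w.re, le_refl w.re⟩, le_refl w.im⟩
    · refine IsPreconnected.union q ?_ ?_ c0 (IsPreconnected.union p' ?_ ?_ c2 c3)
      · refine ⟨⟨le_refl w.re, le_refl w.re⟩, ?_⟩
        show min w.im (-R - 1) ≤ w.im
        exact min_le_left _ _
      · refine Or.inl ⟨hw2', ?_⟩
        show min w.im (-R - 1) < -R
        exact lt_of_le_of_lt (min_le_right _ _) (by linarith)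
      · refine ⟨?_, ?_⟩
        · show t < M + 1
          linarith
        · show -R - 1 < -R
          linarith
      · show M < M + 1
        linarith

lemma F_preconn {σ R t : ℝ} (hR : 0 ≤ R) (hσ : σ = 1 ∨ σ = -1) : IsPreconnected (F σ R t) := by
  rcases hσ with rfl | rfl
  · exact F_preconn_one hR
  · have h : F (-1) R t = (fun w : ℂ => -w) '' F 1 R t := by
      ext w
      constructor
      · rintro ⟨h1, h2⟩
        exact ⟨-w, ⟨by rwa [norm_neg], by simpa using h2⟩, neg_neg w⟩
      · rintro ⟨v, ⟨h1, h2⟩, rfl⟩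
        exact ⟨by rwa [norm_neg], by simpa using h2⟩
    rw [h]
    exact (F_preconn_one hR).image _ continuous_neg.continuousOn

/-- far points of the far part -/
lemma exists_mem_F {σ R t : ℝ} (hσ : σ = 1 ∨ σ = -1) (r : ℝ) : ∃ w ∈ F σ R t, r < ‖w‖ := by
  set M : ℝ := |r| + |R| + |t| + 1 with hM
  have h1 := le_abs_self r
  have h2 := le_abs_self R
  have h3 := le_abs_self t
  have h1' := abs_nonneg r
  have h2' := abs_nonneg R
  have h3' := abs_nonneg t
  have hMpos : 0 < M := by rw [hM]; positivity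
  have hσσ : σ * σ = 1 := by rcases hσ with rfl | rfl <;> norm_num
  have hσa : |σ| = 1 := by rcases hσ with rfl | rfl <;> norm_num
  have hn : ‖((σ * M : ℝ) : ℂ)‖ = M := by
    rw [Complex.norm_real, Real.norm_eq_abs, abs_mul, hσa, one_mul, abs_of_pos hMpos]
  refine ⟨((σ * M : ℝ) : ℂ), ⟨?_, ?_⟩, ?_⟩
  · rw [hn]; linarith
  · rw [Complex.ofReal_re, ← mul_assoc, hσσ, one_mul]; linarith
  · rw [hn]; linarith

lemma F_unbounded {σ R t : ℝ} (hσ : σ = 1 ∨ σ = -1) : ¬ IsBounded (F σ R t) := by
  intro h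
  rw [isBounded_iff_forall_norm_le] at h
  obtain ⟨C, hC⟩ := h
  obtain ⟨w, hw, hw'⟩ := exists_mem_F (R := R) (t := t) hσ C
  exact absurd (hC w hw) (not_le.2 hw')

/-! ### the unbounded components -/

lemma cc_lt {g : ℂ → ℝ} {t : ℝ} {z w : ℂ} (h : w ∈ connectedComponentIn {w | t < g w} z) :
    t < g w := by
  have h' := connectedComponentIn_subset _ _ h
  exact h'

lemma cc_eq {X : Set ℂ} {z w : ℂ} (h : w ∈ connectedComponentIn X z) :
    connectedComponentIn X w = connectedComponentIn X z :=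
  (connectedComponentIn_eq h).symm

/-- membership in `Oi` propagates along preconnected sets -/
lemma Oi_of_preconn {g : ℂ → ℝ} {t : ℝ} {S : Set ℂ} (hS : IsPreconnected S)
    (hsub : ∀ w ∈ S, t < g w) {z w : ℂ} (hz : z ∈ S) (hw : w ∈ S) (h : z ∈ Oi g t) :
    w ∈ Oi g t := by
  refine ⟨hsub w hw, fun hb => h.2 ?_⟩
  have h1 : w ∈ connectedComponentIn {w | t < g w} z :=
    hS.subset_connectedComponentIn hz hsub hw
  rwa [cc_eq h1] at hb

/-- unbounded preconnected subsets of `{t < g}` -/
lemma Oi_of_unb {g : ℂ → ℝ} {t : ℝ} {S : Set ℂ} (hS : IsPreconnected S)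
    (hsub : ∀ w ∈ S, t < g w) (hb : ¬ IsBounded S) {z : ℂ} (hz : z ∈ S) : z ∈ Oi g t :=
  ⟨hsub z hz, fun h => hb (h.subset (hS.subset_connectedComponentIn hz hsub))⟩

lemma Oi_anti {g : ℂ → ℝ} {s t : ℝ} (hst : s ≤ t) : Oi g t ⊆ Oi g s := fun _z hz =>
  Oi_of_unb isPreconnected_connectedComponentIn (fun _ hw => hst.trans_lt (cc_lt hw)) hz.2
    (mem_connectedComponentIn hz.1)

lemma cc_subset_Oi {g : ℂ → ℝ} {t : ℝ} {z : ℂ} (hz : z ∈ Oi g t) :
    connectedComponentIn {w | t < g w} z ⊆ Oi g t := fun _ hw =>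
  Oi_of_preconn isPreconnected_connectedComponentIn (fun _ hw => cc_lt hw)
    (mem_connectedComponentIn hz.1) hw hz

lemma Oi_bddAbove (g : ℂ → ℝ) (z : ℂ) : BddAbove {t | z ∈ Oi g t} := ⟨g z, fun _ ht => ht.1.le⟩

lemma le_hull {g : ℂ → ℝ} {t : ℝ} {z : ℂ} (h : z ∈ Oi g t) : t ≤ hull g z :=
  le_csSup (Oi_bddAbove g z) h

/-- open half planes are unbounded -/
lemma half_unbounded {σ c : ℝ} (hσ : σ = 1 ∨ σ = -1) : ¬ IsBounded {w : ℂ | c < σ * w.re} := by
  intro h
  rw [isBounded_iff_forall_norm_le] at h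
  obtain ⟨C, hC⟩ := h
  obtain ⟨w, ⟨hw1, hw2⟩, hw'⟩ := exists_mem_F (R := 0) (t := c) hσ C
  exact absurd (hC w hw2) (not_le.2 hw')

lemma half_preconn {σ c : ℝ} : IsPreconnected {w : ℂ | c < σ * w.re} := by
  have h : Convex ℝ {w : ℂ | c < σ * w.re} := by
    have h1 : IsLinearMap ℝ fun w : ℂ => σ * w.re :=
      ⟨fun x y => by simp [mul_add], fun a x => by simp; ring⟩
    exact convex_halfSpace_gt h1 c
  exact h.isPreconnected

section low

variable {σ M : ℝ} {g : ℂ → ℝ}

lemma Low.isOpen (h : Low σ M g) (t : ℝ) : IsOpen {w | t < g w} :=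
  h.lsc.isOpen_preimage t

/-- points far on the right are in the hull -/
lemma Low.mem_Oi (h : Low σ M g) {t : ℝ} {z : ℂ} (hz : t + M < σ * z.re) : z ∈ Oi g t := by
  refine Oi_of_unb (S := {w : ℂ | t + M < σ * w.re}) half_preconn (fun w hw => ?_)
    (half_unbounded h.sgn) hz
  have hw' : t + M < σ * w.re := hw
  have := (abs_le.1 (h.bd w)).1
  linarith

lemma Low.nonempty (h : Low σ M g) (z : ℂ) : {t | z ∈ Oi g t}.Nonempty :=
  ⟨σ * z.re - M - 1, h.mem_Oi (by linarith)⟩

lemma Low.mem_of_lt (h : Low σ M g) {t : ℝ} {z : ℂ} (ht : t < hull g z) : z ∈ Oi g t := by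
  obtain ⟨s, hs, hts⟩ := exists_lt_of_lt_csSup (h.nonempty z) ht
  exact Oi_anti hts.le hs

lemma Low.hull_le (h : Low σ M g) (z : ℂ) : hull g z ≤ g z :=
  csSup_le (h.nonempty z) fun _ ht => ht.1.le

lemma Low.le_hull (h : Low σ M g) (z : ℂ) : σ * z.re - M ≤ hull g z := by
  refine le_of_forall_lt fun t ht => ?_
  obtain ⟨s, h1, h2⟩ := exists_between ht
  exact h1.trans_le (Sw_209.le_hull (h.mem_Oi (by linarith)))

lemma Low.Oi_open (h : Low σ M g) (t : ℝ) : IsOpen (Oi g t) := by
  rw [isOpen_iff_mem_nhds]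
  intro z hz
  exact mem_of_superset (((h.isOpen t).connectedComponentIn).mem_nhds
    (mem_connectedComponentIn hz.1)) (cc_subset_Oi hz)

/-- **no bounded components** -/
theorem Low.hull_unb (h : Low σ M g) {t : ℝ} {z : ℂ} (hz : t < hull g z) :
    ¬ IsBounded (connectedComponentIn {w | t < hull g w} z) := by
  obtain ⟨s, h1, h2⟩ := exists_between hz
  have hs := h.mem_of_lt h2
  intro hb
  refine hs.2 (hb.subset (isPreconnected_connectedComponentIn.subset_connectedComponentIn
    (mem_connectedComponentIn hs.1) fun w hw => ?_))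
  exact h1.trans_le (Sw_209.le_hull (cc_subset_Oi hs hw))

theorem Low.hull_low (h : Low σ M g) : Low σ M (hull g) where
  lsc := by
    rw [lowerSemicontinuous_iff_isOpen_preimage]
    intro t
    rw [isOpen_iff_mem_nhds]
    intro z hz
    obtain ⟨s, h1, h2⟩ := exists_between (show t < hull g z from hz)
    refine mem_of_superset ((h.Oi_open s).mem_nhds (h.mem_of_lt h2)) fun w hw => ?_
    exact h1.trans_le (Sw_209.le_hull hw)
  bd := fun z => by
    have h1 := h.le_hull z
    have h2 := h.hull_le z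
    have h3 := abs_le.1 (h.bd z)
    rw [abs_le]
    constructor <;> linarith [h3.2]
  sgn := h.sgn

lemma hull_congr_set {z w : ℂ} (h : ∀ s, z ∈ Oi g s ↔ w ∈ Oi g s) : hull g w = hull g z := by
  unfold hull
  congr 1
  ext s
  exact (h s).symm

/-- two points of a preconnected subset of `{t < g}` have the same hull if one hull is `< t` -/
lemma hull_eq_of_preconn {t : ℝ} {S : Set ℂ} (hS : IsPreconnected S)
    (hsub : ∀ w ∈ S, t < g w) {z w : ℂ} (hz : z ∈ S) (hw : w ∈ S) (hzt : hull g z < t) :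
    hull g w = hull g z := by
  refine hull_congr_set fun s => ?_
  constructor
  · intro hs
    have h1 : s < t := (Sw_209.le_hull hs).trans_lt hzt
    exact Oi_of_preconn hS (fun q hq => h1.trans (hsub q hq)) hz hw hs
  · intro hs
    rcases lt_or_ge s t with hst | hst
    · exact Oi_of_preconn hS (fun q hq => hst.trans (hsub q hq)) hw hz hs
    · have h1 : z ∈ Oi g t := Oi_of_preconn hS hsub hw hz (Oi_anti hst hs)
      exact absurd (Sw_209.le_hull h1) (not_le.2 hzt)

/-- **the hull is locally constant where it differs from `g`** -/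
theorem Low.hull_const (h : Low σ M g) {z : ℂ} (hz : hull g z < g z) :
    ∃ N, IsOpen N ∧ IsPreconnected N ∧ z ∈ N ∧ (∀ w ∈ N, hull g w = hull g z) ∧
      ∀ w ∈ N, ∀ S : Set ℂ, IsPreconnected S → w ∈ S → (∀ q ∈ S, g q = g w) → S ⊆ N := by
  obtain ⟨t, ht1, ht2⟩ := exists_between hz
  refine ⟨connectedComponentIn {w | t < g w} z, (h.isOpen t).connectedComponentIn,
    isPreconnected_connectedComponentIn, mem_connectedComponentIn ht2, fun w hw => ?_,
    fun w hw S hS hwS hg => ?_⟩
  · exact hull_eq_of_preconn isPreconnected_connectedComponentIn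
      (fun w hw => cc_lt hw) (mem_connectedComponentIn ht2) hw ht1
  · rw [← cc_eq hw]
    refine hS.subset_connectedComponentIn hwS fun q hq => ?_
    show t < g q
    rw [hg q hq]
    exact cc_lt hw

/-- the hull is constant on preconnected sets where `g` is constant -/
lemma hull_const_of_const {S : Set ℂ} (hS : IsPreconnected S) {c : ℝ}
    (hg : ∀ w ∈ S, g w = c) {z w : ℂ} (hz : z ∈ S) (hw : w ∈ S) : hull g w = hull g z := by
  refine hull_congr_set fun s => ?_
  constructor
  · intro hs
    have h1 : s < c := by rw [← hg z hz]; exact hs.1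
    exact Oi_of_preconn hS (fun q hq => by rw [hg q hq]; exact h1) hz hw hs
  · intro hs
    have h1 : s < c := by rw [← hg w hw]; exact hs.1
    exact Oi_of_preconn hS (fun q hq => by rw [hg q hq]; exact h1) hw hz hs

/-- **Lipschitz bounds are inherited on convex sets** -/
theorem Low.hull_lip (h : Low σ M g) {B : Set ℂ} (hB : Convex ℝ B) {L : ℝ≥0}
    (hg : LipschitzOnWith L g B) : LipschitzOnWith L (hull g) B := by
  have key : ∀ z ∈ B, ∀ w ∈ B, hull g z - L * dist z w ≤ hull g w := by
    intro z hz w hw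
    refine le_of_forall_lt fun t ht => ?_
    obtain ⟨s, hs1, hs2⟩ := exists_between ht
    have hsub : segment ℝ z w ⊆ B := hB.segment_subset hz hw
    have hval : ∀ q ∈ segment ℝ z w, s < g q := by
      intro q hq
      have h1 := hg.dist_le_mul z hz q (hsub hq)
      rw [Real.dist_eq] at h1
      have h2 := (abs_le.1 h1).2
      have h3 : dist z q ≤ dist z w := by
        have h6 : segment ℝ z w ⊆ closedBall z (dist w z) :=
          (convex_closedBall z (dist w z)).segment_subset
            (mem_closedBall_self dist_nonneg) (mem_closedBall.2 le_rfl)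
        rw [dist_comm z q, dist_comm z w]
        exact mem_closedBall.1 (h6 hq)
      have h4 : (L : ℝ) * dist z q ≤ L * dist z w := mul_le_mul_of_nonneg_left h3 L.2
      have h5 := h.hull_le z
      linarith
    have hzt : z ∈ Oi g s := h.mem_of_lt (by
      have : 0 ≤ (L : ℝ) * dist z w := mul_nonneg L.2 dist_nonneg
      linarith)
    exact hs1.trans_le (Sw_209.le_hull (Oi_of_preconn (convex_segment z w).isPreconnected hval
      (left_mem_segment ℝ z w) (right_mem_segment ℝ z w) hzt))
  refine LipschitzOnWith.of_dist_le_mul fun z hz w hw => ?_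
  rw [Real.dist_eq, abs_le]
  have h1 := key z hz w hw
  have h2 := key w hw z hz
  rw [dist_comm w z] at h2
  constructor <;> linarith

/-- the hull is locally Lipschitz where `g` is -/
theorem Low.hull_loc (h : Low σ M g) {U : Set ℂ} (hU : IsOpen U) (hg : LocallyLipschitzOn U g) :
    LocallyLipschitzOn U (hull g) := by
  intro z hz
  obtain ⟨K, s, hs, hK⟩ := hg hz
  rw [hU.nhdsWithin_eq hz] at hs
  obtain ⟨r, hr, hrs⟩ := Metric.mem_nhds_iff.1 hs
  refine ⟨K, ball z r, ?_, h.hull_lip (convex_ball z r) (hK.mono hrs)⟩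
  rw [hU.nhdsWithin_eq hz]
  exact ball_mem_nhds z hr

/-- the derivative of the hull -/
theorem Low.fderiv_hull (h : Low σ M g) {z : ℂ} (hg : DifferentiableAt ℝ g z) :
    fderiv ℝ (hull g) z = fderiv ℝ g z ∨ fderiv ℝ (hull g) z = 0 := by
  rcases (h.hull_le z).lt_or_eq with hlt | heq
  · right
    obtain ⟨N, hN, -, hzN, hc, -⟩ := h.hull_const hlt
    have h1 : hull g =ᶠ[𝓝 z] fun _ => hull g z :=
      eventually_of_mem (hN.mem_nhds hzN) hc
    rw [h1.fderiv_eq]
    simp
  · by_cases hd : DifferentiableAt ℝ (hull g) z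
    · left
      have hmin : IsLocalMin (fun w => g w - hull g w) z := by
        refine Filter.Eventually.of_forall fun w => ?_
        show g z - hull g z ≤ g w - hull g w
        rw [heq, sub_self]
        exact sub_nonneg.2 (h.hull_le w)
      have h1 := hmin.fderiv_eq_zero
      have h2 : fderiv ℝ (fun w => g w - hull g w) z = fderiv ℝ g z - fderiv ℝ (hull g) z :=
        fderiv_sub hg hd
      rw [h2] at h1
      exact (sub_eq_zero.1 h1).symm
    · right
      exact fderiv_zero_of_not_differentiableAt hd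

/-- monotonicity of the hull -/
lemma Low.hull_mono (h : Low σ M g) {g' : ℂ → ℝ} (hle : ∀ z, g z ≤ g' z) (z : ℂ) :
    hull g z ≤ hull g' z := by
  refine le_of_forall_lt fun t ht => ?_
  obtain ⟨s, hs1, hs2⟩ := exists_between ht
  have hz := h.mem_of_lt hs2
  refine hs1.trans_le (Sw_209.le_hull (Oi_of_unb (S := connectedComponentIn {w | s < g w} z)
    isPreconnected_connectedComponentIn (fun w hw => (cc_lt hw).trans_le (hle w)) hz.2
    (mem_connectedComponentIn hz.1)))

/-- far away the hull does not change -/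
lemma Low.hull_far (h : Low σ M g) {R : ℝ} (hR : 0 ≤ R) (hfar : ∀ z, R < ‖z‖ → g z = σ * z.re)
    (z : ℂ) (hz : R < ‖z‖) : hull g z = σ * z.re := by
  refine le_antisymm ((h.hull_le z).trans (hfar z hz).le) ?_
  refine le_of_forall_lt fun t ht => ?_
  obtain ⟨s, hs1, hs2⟩ := exists_between ht
  refine hs1.trans_le (Sw_209.le_hull (Oi_of_unb (S := F σ R s) (F_preconn hR h.sgn)
    (fun w hw => ?_) (F_unbounded h.sgn) ⟨hz, hs2⟩))
  rw [hfar w hw.1]
  exact hw.2

end low

end Crest.Agent.R105.Sw_209
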