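import Crest.Agent.R105.Sw1_209
import Crest.Agent.R105.Ni0_459

/-!
# Row 105, S0138: exact switching, part 2: one step over helper459's envelopes (helper209)

`st Y u = hull (lo Y u)` for `u` locally Lipschitz on `Yᶜ`, `|u - σ re| ≤ M`:
`lo Y (st Y u) = st Y u`, `up Y (st Y u) ≤ up Y u`, no bounded component of `{t < st Y u}`, and at
every point either `st Y u` is constant on an open connected saturated neighbourhood or
`st Y u = lo Y u`.
-/

set_option autoImplicit false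

open Set Filter Topology Metric Bornology
open scoped NNReal

namespace Crest.Agent.R105.Sw_209

open Ends_897 Ni_459 Crest.AnalysisR

/-- input of one step -/
structure Inp (Y : Set ℂ) (σ M R₀ : ℝ) (u : ℂ → ℝ) : Prop where
  ext : IsExteriorDomain Yᶜ
  loc : LocallyLipschitzOn Yᶜ u
  bd : ∀ z, |u z - σ * z.re| ≤ M
  sgn : σ = 1 ∨ σ = -1
  ball : Y ⊆ closedBall 0 R₀

/-- one step -/
noncomputable def st (Y : Set ℂ) (u : ℂ → ℝ) : ℂ → ℝ := hull (lo Y u)

variable {Y : Set ℂ} {u v : ℂ → ℝ} {σ M R₀ : ℝ}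

lemma abs_sgn_re (h : σ = 1 ∨ σ = -1) (z : ℂ) : |σ * z.re| ≤ ‖z‖ := by
  have h1 : |σ| = 1 := by rcases h with rfl | rfl <;> norm_num
  rw [abs_mul, h1, one_mul]
  exact Complex.abs_re_le_norm z

lemma lb_of_bd (hs : σ = 1 ∨ σ = -1) (hb : ∀ z, |u z - σ * z.re| ≤ M) : LB u := by
  intro R
  refine ⟨M + R, fun z hz => ?_⟩
  have h1 := abs_sgn_re hs z
  have h2 : u z = (u z - σ * z.re) + σ * z.re := by ring
  rw [h2]
  exact (abs_add_le _ _).trans (by linarith [hb z])

lemma contAt_of_loc {U : Set ℂ} (hU : IsOpen U) (h : LocallyLipschitzOn U u) {z : ℂ} (hz : z ∈ U) :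
    ContinuousAt u z := (h.continuousOn z hz).continuousAt (hU.mem_nhds hz)

/-! ### monotonicity of the envelopes -/

section Mono
variable (hY : IsExteriorDomain Yᶜ)
include hY

lemma up_mono (hu : LB u) (hv : LB v) (h : ∀ z, z ∉ Y → u z ≤ v z) (z : ℂ) :
    up Y u z ≤ up Y v z := by
  refine le_of_forall_gt_imp_ge_of_dense fun c hc => ?_
  obtain ⟨O, hO, h1⟩ := exists_lt_of_up_lt hY hv hc
  exact up_le hY hu hO fun w hw hwY => (h w hwY).trans (h1 w hw hwY).le

lemma lo_mono (hu : LB u) (hv : LB v) (h : ∀ z, z ∉ Y → u z ≤ v z) (z : ℂ) :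
    lo Y u z ≤ lo Y v z := by
  refine le_of_forall_lt_imp_le_of_dense fun c hc => ?_
  obtain ⟨O, hO, h1⟩ := exists_gt_of_lt_lo hY hu hc
  exact le_lo hY hv hO fun w hw hwY => (h1 w hw hwY).le.trans (h w hwY)

end Mono

/-! ### one step -/

namespace Inp

lemma lb (h : Inp Y σ M R₀ u) : LB u := lb_of_bd h.sgn h.bd

lemma contAt (h : Inp Y σ M R₀ u) {z : ℂ} (hz : z ∉ Y) : ContinuousAt u z :=
  contAt_of_loc h.ext.1 h.loc hz

lemma lo_eq (h : Inp Y σ M R₀ u) {z : ℂ} (hz : z ∉ Y) : lo Y u z = u z :=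
  lo_of_notMem h.ext h.lb hz (h.contAt hz)

lemma up_eq (h : Inp Y σ M R₀ u) {z : ℂ} (hz : z ∉ Y) : up Y u z = u z :=
  up_of_notMem h.ext h.lb hz (h.contAt hz)

lemma neg (h : Inp Y σ M R₀ u) : Inp Y (-σ) M R₀ (fun z => - u z) where
  ext := h.ext
  loc := by
    intro z hz
    obtain ⟨K, s, hs, hK⟩ := h.loc hz
    exact ⟨K, s, hs, fun x hx y hy => by simpa [edist_neg_neg] using hK hx hy⟩
  bd := fun z => by
    have h1 := h.bd z
    rw [abs_le] at h1 ⊢
    constructor <;> linarith [h1.1, h1.2]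
  sgn := by rcases h.sgn with h1 | h1 <;> rw [h1] <;> norm_num
  ball := h.ball

/-- points of the component of `z ∈ Y` -/
lemma up_bd (h : Inp Y σ M R₀ u) (hR : 0 ≤ R₀) (z : ℂ) :
    up Y u z ≤ σ * z.re + (M + 2 * R₀) := by
  by_cases hz : z ∈ Y
  · refine le_of_forall_pos_le_add fun ε hε => ?_
    have hsub : connectedComponentIn Y z ⊆ Metric.ball 0 (R₀ + ε) := fun w hw => by
      have := h.ball (connectedComponentIn_subset _ _ hw)
      rw [mem_closedBall_zero_iff] at this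
      rw [mem_ball_zero_iff]; linarith
    refine up_le h.ext h.lb (nb_of_mem hz isOpen_ball hsub) fun w hw _ => ?_
    rw [mem_ball_zero_iff] at hw
    have h1 := (abs_le.1 (h.bd w)).2
    have h2 := (abs_le.1 (abs_sgn_re h.sgn w)).2
    have h3 := (abs_le.1 (abs_sgn_re h.sgn z)).1
    have h4 := h.ball hz
    rw [mem_closedBall_zero_iff] at h4
    linarith
  · rw [h.up_eq hz]
    have h1 := (abs_le.1 (h.bd z)).2
    linarith

lemma lo_bd (h : Inp Y σ M R₀ u) (hR : 0 ≤ R₀) (z : ℂ) :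
    σ * z.re - (M + 2 * R₀) ≤ lo Y u z := by
  have := h.neg.up_bd hR z
  unfold lo
  linarith

lemma lo_le_up' (h : Inp Y σ M R₀ u) (z : ℂ) : lo Y u z ≤ up Y u z := lo_le_up h.ext h.lb z

lemma low (h : Inp Y σ M R₀ u) (hR : 0 ≤ R₀) : Low σ (M + 2 * R₀) (lo Y u) where
  lsc := lsc_lo h.ext h.lb
  bd := fun z => by
    rw [abs_le]
    constructor
    · linarith [h.lo_bd hR z]
    · linarith [h.up_bd hR z, h.lo_le_up' z]
  sgn := h.sgn

lemma st_low (h : Inp Y σ M R₀ u) (hR : 0 ≤ R₀) : Low σ (M + 2 * R₀) (st Y u) :=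
  (h.low hR).hull_low

lemma st_le (h : Inp Y σ M R₀ u) (hR : 0 ≤ R₀) (z : ℂ) : st Y u z ≤ lo Y u z :=
  (h.low hR).hull_le z

lemma st_loc (h : Inp Y σ M R₀ u) (hR : 0 ≤ R₀) : LocallyLipschitzOn Yᶜ (st Y u) := by
  refine (h.low hR).hull_loc h.ext.1 ?_
  intro z hz
  obtain ⟨K, s, hs, hK⟩ := h.loc hz
  refine ⟨K, s ∩ Yᶜ, inter_mem hs self_mem_nhdsWithin, fun x hx y hy => ?_⟩
  rw [h.lo_eq hx.2, h.lo_eq hy.2]
  exact hK hx.1 hy.1

lemma st_inp (h : Inp Y σ M R₀ u) (hR : 0 ≤ R₀) : Inp Y σ (M + 2 * R₀) R₀ (st Y u) :=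
  ⟨h.ext, h.st_loc hR, (h.st_low hR).bd, h.sgn, h.ball⟩

/-- components inside neighbourhoods -/
lemma cc_sub {t : ℝ} {z : ℂ} :
    ∀ w ∈ connectedComponentIn {w | t < lo Y u w} z,
      connectedComponentIn Y w ⊆ connectedComponentIn {w | t < lo Y u w} z := by
  intro w hw
  by_cases hwY : w ∈ Y
  · rw [← cc_eq hw]
    refine isPreconnected_connectedComponentIn.subset_connectedComponentIn
      (mem_connectedComponentIn hwY) fun q hq => ?_
    show t < lo Y u q
    rw [lo_congr_cc hwY hq]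
    exact cc_lt hw
  · rw [connectedComponentIn_eq_empty hwY]; exact empty_subset _

lemma nb_cc (h : Inp Y σ M R₀ u) {t : ℝ} {z w : ℂ}
    (hw : w ∈ connectedComponentIn {w | t < lo Y u w} z) :
    Nb Y w (connectedComponentIn {w | t < lo Y u w} z) :=
  ⟨(isOpen_lt_lo h.ext h.lb t).connectedComponentIn, hw, cc_sub w hw⟩

/-- `st Y u` is constant on the components of `Y` -/
lemma st_cc {z w : ℂ} (hz : z ∈ Y) (hw : w ∈ connectedComponentIn Y z) :
    st Y u w = st Y u z :=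
  hull_const_of_const (S := connectedComponentIn Y z) isPreconnected_connectedComponentIn
    (c := lo Y u z) (fun _ hq => lo_congr_cc hz hq) (mem_connectedComponentIn hz) hw

/-- **`st Y u` is its own lower envelope** -/
theorem lo_st (h : Inp Y σ M R₀ u) (hR : 0 ≤ R₀) (z : ℂ) : lo Y (st Y u) z = st Y u z := by
  have h' := h.st_inp hR
  by_cases hz : z ∈ Y
  · refine le_antisymm ?_ ?_
    · refine le_of_forall_lt_imp_le_of_dense fun t ht => ?_
      obtain ⟨s, hs1, hs2⟩ := exists_between ht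
      obtain ⟨O, hO, h1⟩ := exists_gt_of_lt_lo h.ext h'.lb hs2
      have hts : t < lo Y u z := by
        refine hs1.trans_le (le_lo h.ext h.lb hO fun w hw hwY => ?_)
        have h2 := h.st_le hR w
        rw [h.lo_eq hwY] at h2
        exact (h1 w hw hwY).le.trans h2
      have hzN : z ∈ connectedComponentIn {w | t < lo Y u w} z := mem_connectedComponentIn hts
      obtain ⟨w, ⟨hw, hwO⟩, hwY⟩ := ((h.nb_cc hzN).inter hO).nonempty h.ext
      have hwt : t < st Y u w := hs1.trans (h1 w hwO hwY)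
      exact le_hull (Oi_of_preconn isPreconnected_connectedComponentIn (fun q hq => cc_lt hq) hw hzN
        ((h.low hR).mem_of_lt hwt))
    · refine le_of_forall_lt_imp_le_of_dense fun t ht => ?_
      have hO : Nb Y z {w | t < st Y u w} := by
        refine nb_of_mem hz ((h.st_low hR).isOpen t) fun w hw => ?_
        show t < st Y u w
        rw [st_cc hz hw]
        exact ht
      exact le_lo h.ext h'.lb hO fun w hw _ => le_of_lt hw
  · exact lo_of_notMem h.ext h'.lb hz (h'.contAt hz)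

lemma st_le_off (h : Inp Y σ M R₀ u) (hR : 0 ≤ R₀) {z : ℂ} (hz : z ∉ Y) : st Y u z ≤ u z := by
  have := h.st_le hR z
  rwa [h.lo_eq hz] at this

lemma up_st_le (h : Inp Y σ M R₀ u) (hR : 0 ≤ R₀) (z : ℂ) : up Y (st Y u) z ≤ up Y u z :=
  up_mono h.ext (h.st_inp hR).lb h.lb (fun _ hz => h.st_le_off hR hz) z

/-- **the alternative** -/
theorem st_alt (h : Inp Y σ M R₀ u) (hR : 0 ≤ R₀) (z : ℂ) :
    (∃ N, IsOpen N ∧ IsPreconnected N ∧ z ∈ N ∧ (∀ w ∈ N, st Y u w = st Y u z) ∧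
      ∀ w ∈ N, connectedComponentIn Y w ⊆ N) ∨ st Y u z = lo Y u z := by
  rcases (h.st_le hR z).lt_or_eq with hlt | heq
  · left
    obtain ⟨N, h1, h2, h3, h4, h5⟩ := (h.low hR).hull_const hlt
    refine ⟨N, h1, h2, h3, h4, fun w hw => ?_⟩
    by_cases hwY : w ∈ Y
    · exact h5 w hw _ isPreconnected_connectedComponentIn (mem_connectedComponentIn hwY)
        fun q hq => lo_congr_cc hwY hq
    · rw [connectedComponentIn_eq_empty hwY]; exact empty_subset _
  · exact Or.inr heq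

lemma st_unb (h : Inp Y σ M R₀ u) (hR : 0 ≤ R₀) {t : ℝ} {z : ℂ} (hz : t < st Y u z) :
    ¬ IsBounded (connectedComponentIn {w | t < st Y u w} z) := (h.low hR).hull_unb hz

end Inp

end Crest.Agent.R105.Sw_209
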