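import Crest.Agent.R105.Sw2_209

/-!
# Row 105, S0138: exact switching, part 3: two steps (helper209)

`sw Y u = - st Y (- st Y u)`.  For `u` locally Lipschitz on `Yᶜ` with `|u - re| ≤ M`:
* `swd_sw : Swd Y (sw Y u)` (helper459's literal form)
* `up_sw : up Y (sw Y u) = sw Y u`
* `sw_alt` : at every point of the plane `sw Y u` is constant on an open connected saturated
  neighbourhood, or `lo Y u ≤ lo Y (sw Y u)` and `up Y (sw Y u) ≤ up Y u` there
* `sw_off` : off `Y` either `sw Y u z = u z` or `sw Y u` is constant near `z`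
* `fderiv_sw` : a.e. on `Yᶜ` the derivative is that of `u` or zero
* `sw_far`
-/

set_option autoImplicit false

open Set Filter Topology Metric Bornology MeasureTheory
open scoped NNReal

namespace Crest.Agent.R105.Sw_209

open Ends_897 Ni_459 Crest.AnalysisR

/-- two steps: exact switching -/
noncomputable def sw (Y : Set ℂ) (u : ℂ → ℝ) (z : ℂ) : ℝ := - st Y (fun w => - st Y u w) z

/-- `v` is constant on an open connected saturated neighbourhood of `z` -/
def Flat (Y : Set ℂ) (v : ℂ → ℝ) (z : ℂ) : Prop :=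
  ∃ N, IsOpen N ∧ IsPreconnected N ∧ z ∈ N ∧ (∀ w ∈ N, v w = v z) ∧
    ∀ w ∈ N, connectedComponentIn Y w ⊆ N

variable {Y : Set ℂ} {u v : ℂ → ℝ} {σ M R₀ : ℝ}

lemma Flat.neg {z : ℂ} (h : Flat Y v z) : Flat Y (fun z => - v z) z := by
  obtain ⟨N, h1, h2, h3, h4, h5⟩ := h
  exact ⟨N, h1, h2, h3, fun w hw => by show - v w = - v z; rw [h4 w hw], h5⟩

lemma Flat.nb {z : ℂ} (h : Flat Y v z) : ∃ N, Nb Y z N ∧ ∀ w ∈ N, v w = v z := by
  obtain ⟨N, h1, h2, h3, h4, h5⟩ := h
  exact ⟨N, ⟨h1, h3, h5 z h3⟩, h4⟩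

/-- `v` takes countably many values on open sets -/
lemma countable_flat (v : ℂ → ℝ) :
    {s : ℝ | ∃ N : Set ℂ, IsOpen N ∧ N.Nonempty ∧ ∀ w ∈ N, v w = s}.Countable := by
  refine (countable_range fun n : ℕ => v (TopologicalSpace.denseSeq ℂ n)).mono ?_
  rintro s ⟨N, h1, h2, h3⟩
  obtain ⟨n, hn⟩ := (TopologicalSpace.denseRange_denseSeq ℂ).exists_mem_open h1 h2
  exact ⟨n, h3 _ hn⟩

/-- envelopes of a function which is constant near `z` -/
lemma env_of_nb (hY : IsExteriorDomain Yᶜ) (hu : LB u) {z : ℂ} {N : Set ℂ} {c : ℝ}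
    (hN : Nb Y z N) (hc : ∀ w ∈ N, w ∉ Y → u w = c) : lo Y u z = c ∧ up Y u z = c := by
  have h1 : c ≤ lo Y u z := le_lo hY hu hN fun w hw hwY => (hc w hw hwY).ge
  have h2 : up Y u z ≤ c := up_le hY hu hN fun w hw hwY => (hc w hw hwY).le
  have h3 := lo_le_up hY hu z
  constructor <;> linarith

namespace Inp

/-- the steps of `sw` -/
lemma v1 (h : Inp Y σ M R₀ u) (hR : 0 ≤ R₀) : Inp Y σ (M + 2 * R₀) R₀ (st Y u) := h.st_inp hR

lemma v2 (h : Inp Y σ M R₀ u) (hR : 0 ≤ R₀) :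
    Inp Y (-σ) (M + 2 * R₀ + 2 * R₀) R₀ (st Y fun w => - st Y u w) := (h.v1 hR).neg.st_inp hR

lemma sw_inp (h : Inp Y σ M R₀ u) (hR : 0 ≤ R₀) : Inp Y σ (M + 2 * R₀ + 2 * R₀) R₀ (sw Y u) := by
  have := (h.v2 hR).neg
  rw [neg_neg] at this
  exact this

/-- **`sw Y u` is its own upper envelope** -/
theorem up_sw (h : Inp Y σ M R₀ u) (hR : 0 ≤ R₀) (z : ℂ) : up Y (sw Y u) z = sw Y u z := by
  have h1 := (h.v1 hR).neg.lo_st hR z
  unfold lo at h1
  show up Y (fun z => - st Y (fun w => - st Y u w) z) z = - st Y (fun w => - st Y u w) z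
  linarith

/-- `lo` of the negative -/
lemma lo_neg (v : ℂ → ℝ) (z : ℂ) : lo Y (fun w => - v w) z = - up Y v z := by
  unfold lo; simp only [neg_neg]

lemma up_st_le_sw (h : Inp Y σ M R₀ u) (hR : 0 ≤ R₀) (z : ℂ) : up Y (st Y u) z ≤ sw Y u z := by
  have h1 := (h.v1 hR).neg.st_le hR z
  rw [lo_neg] at h1
  show _ ≤ - st Y (fun w => - st Y u w) z
  linarith

lemma st_le_sw (h : Inp Y σ M R₀ u) (hR : 0 ≤ R₀) (z : ℂ) : st Y u z ≤ sw Y u z := by
  have h1 := h.up_st_le_sw hR z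
  have h2 := (h.v1 hR).lo_le_up' z
  rw [h.lo_st hR] at h2
  exact h2.trans h1

lemma st_le_lo_sw (h : Inp Y σ M R₀ u) (hR : 0 ≤ R₀) (z : ℂ) : st Y u z ≤ lo Y (sw Y u) z := by
  rw [← h.lo_st hR z]
  exact lo_mono h.ext (h.v1 hR).lb (h.sw_inp hR).lb (fun w _ => h.st_le_sw hR w) z

/-- the alternative for the second step -/
lemma sw_alt' (h : Inp Y σ M R₀ u) (hR : 0 ≤ R₀) (z : ℂ) :
    Flat Y (sw Y u) z ∨ sw Y u z = up Y (st Y u) z := by
  rcases (h.v1 hR).neg.st_alt hR z with h1 | h1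
  · exact Or.inl (Flat.neg h1)
  · right
    rw [lo_neg] at h1
    show - st Y (fun w => - st Y u w) z = _
    linarith

/-- **the alternative** -/
theorem sw_alt (h : Inp Y σ M R₀ u) (hR : 0 ≤ R₀) (z : ℂ) :
    Flat Y (sw Y u) z ∨ (lo Y u z ≤ lo Y (sw Y u) z ∧ up Y (sw Y u) z ≤ up Y u z) := by
  rcases h.st_alt hR z with ⟨N, h1, h2, h3, h4, h5⟩ | h1
  · left
    refine ⟨N, h1, h2, h3, fun w hw => ?_, h5⟩
    have hlo : ∀ q ∈ N, lo Y (fun w => - st Y u w) q = - st Y u z := fun q hq =>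
      (env_of_nb h.ext (h.v1 hR).neg.lb ⟨h1, hq, h5 q hq⟩ fun x hx _ => by
        show - st Y u x = - st Y u z
        rw [h4 x hx]).1
    show - st Y (fun w => - st Y u w) w = - st Y (fun w => - st Y u w) z
    rw [show st Y (fun w => - st Y u w) w = st Y (fun w => - st Y u w) z from
      hull_const_of_const h2 hlo h3 hw]
  · rcases h.sw_alt' hR z with h6 | h6
    · exact Or.inl h6
    · right
      constructor
      · rw [← h1]; exact h.st_le_lo_sw hR z
      · rw [h.up_sw hR, h6]; exact h.up_st_le hR z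

/-- off `Y` -/
theorem sw_off (h : Inp Y σ M R₀ u) (hR : 0 ≤ R₀) {z : ℂ} (hz : z ∉ Y) :
    Flat Y (sw Y u) z ∨ sw Y u z = u z := by
  refine (h.sw_alt hR z).imp_right fun h1 => ?_
  rw [h.lo_eq hz, h.up_eq hz, (h.sw_inp hR).lo_eq hz, (h.sw_inp hR).up_eq hz] at h1
  linarith [h1.1, h1.2]

/-- no bounded components of sublevel sets -/
lemma sw_lt (h : Inp Y σ M R₀ u) (hR : 0 ≤ R₀) {t : ℝ} {z : ℂ} (hz : up Y (sw Y u) z < t) :
    ¬ IsBounded (connectedComponentIn {w | up Y (sw Y u) w < t} z) := by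
  have he : {w | up Y (sw Y u) w < t} = {w | -t < st Y (fun w => - st Y u w) w} := by
    ext w
    show up Y (sw Y u) w < t ↔ -t < st Y (fun w => - st Y u w) w
    rw [h.up_sw hR]
    show - st Y (fun w => - st Y u w) w < t ↔ _
    constructor <;> intro h' <;> linarith
  have hz' : -t < st Y (fun w => - st Y u w) z := by
    have : z ∈ {w | up Y (sw Y u) w < t} := hz
    rw [he] at this
    exact this
  rw [he]
  exact (h.v1 hR).neg.st_unb hR hz'

/-- no bounded components of superlevel sets -/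
lemma sw_gt (h : Inp Y σ M R₀ u) (hR : 0 ≤ R₀) {t : ℝ} {z : ℂ} (hz : t < lo Y (sw Y u) z) :
    ¬ IsBounded (connectedComponentIn {w | t < lo Y (sw Y u) w} z) := by
  intro hb
  have hw := h.sw_inp hR
  set Z : Set ℂ := connectedComponentIn {w | t < lo Y (sw Y u) w} z with hZ
  have hzZ : z ∈ Z := mem_connectedComponentIn hz
  have hZp : IsPreconnected Z := isPreconnected_connectedComponentIn
  -- the first step is `≤ t` on `Z`
  have hle : ∀ q ∈ Z, st Y u q ≤ t := by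
    intro q hq
    by_contra hcon
    push Not at hcon
    refine h.st_unb hR hcon (hb.subset ?_)
    rw [hZ, ← cc_eq hq]
    exact isPreconnected_connectedComponentIn.subset_connectedComponentIn
      (mem_connectedComponentIn hcon) fun x hx => (cc_lt hx).trans_le (h.st_le_lo_sw hR x)
  -- `sw` is locally constant on `Z`
  have hloc : ∀ q ∈ Z, Flat Y (sw Y u) q := by
    intro q hq
    rcases h.sw_alt' hR q with h1 | h1
    · exact h1
    · exfalso
      have h2 : up Y (st Y u) q ≤ t :=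
        up_le h.ext (h.v1 hR).lb (hw.nb_cc hq) fun x hx _ => hle x hx
      have h3 : t < lo Y (sw Y u) q := cc_lt hq
      have h4 := hw.lo_le_up' q
      rw [h.up_sw hR q] at h4
      linarith
  have hcon : ∀ q ∈ Z, sw Y u q = sw Y u z := by
    intro q hq
    refine hZp.induction₂ (fun a b => sw Y u b = sw Y u a) (fun x hx => ?_)
      (fun x y w _ _ _ h1 h2 => h2.trans h1) (fun x y _ _ h1 => h1.symm) hzZ hq
    obtain ⟨N, h1, -, h3, h4, -⟩ := hloc x hx
    exact mem_nhdsWithin_of_mem_nhds (mem_of_superset (h1.mem_nhds h3) h4)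
  have hc : t < sw Y u z := by
    have h4 := hw.lo_le_up' z
    rw [h.up_sw hR z] at h4
    linarith
  -- `Z \ Y` is relatively clopen in `Yᶜ`
  have hZo : IsOpen Z := (isOpen_lt_lo h.ext hw.lb t).connectedComponentIn
  have hYc : IsClosed Y := (cpt_of h.ext).isClosed
  have hDo : IsOpen (Z \ Y) := hZo.sdiff hYc
  have hcl : ∀ x ∈ closure (Z \ Y), x ∉ Y → x ∈ Z \ Y := by
    intro x hx hxY
    have h1 : sw Y u x = sw Y u z := by
      have h2 : Tendsto (sw Y u) (𝓝[Z \ Y] x) (𝓝 (sw Y u x)) :=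
        (hw.contAt hxY).mono_left nhdsWithin_le_nhds
      have : (𝓝[Z \ Y] x).NeBot := mem_closure_iff_nhdsWithin_neBot.1 hx
      refine tendsto_nhds_unique h2 (tendsto_const_nhds.congr' ?_)
      filter_upwards [self_mem_nhdsWithin] with y hy
      exact (hcon y hy.1).symm
    have h2 : t < lo Y (sw Y u) x := by rw [hw.lo_eq hxY, h1]; exact hc
    have h3 : connectedComponentIn {w | t < lo Y (sw Y u) w} x ∈ 𝓝 x :=
      ((isOpen_lt_lo h.ext hw.lb t).connectedComponentIn).mem_nhds (mem_connectedComponentIn h2)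
    obtain ⟨y, hy1, hy2, -⟩ := mem_closure_iff_nhds.1 hx _ h3
    have h5 : connectedComponentIn {w | t < lo Y (sw Y u) w} x = Z := by
      rw [← cc_eq hy1, cc_eq hy2]
    exact ⟨h5 ▸ mem_connectedComponentIn h2, hxY⟩
  obtain ⟨y, hy1, hy2⟩ := (hw.nb_cc hzZ).nonempty h.ext
  have hsub : Yᶜ ⊆ Z \ Y := by
    refine h.ext.2.1.isPreconnected.subset_left_of_subset_union hDo isClosed_closure.isOpen_compl
      (disjoint_left.2 fun x hx hx' => hx' (subset_closure hx)) (fun x hx => ?_) ⟨y, hy2, hy1, hy2⟩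
    by_cases hxc : x ∈ closure (Z \ Y)
    · exact Or.inl (hcl x hxc hx)
    · exact Or.inr hxc
  have hall : IsBounded (univ : Set ℂ) := by
    refine (hb.union (cpt_of h.ext).isBounded).subset fun x _ => ?_
    by_cases hx : x ∈ Y
    · exact Or.inr hx
    · exact Or.inl (hsub hx).1
  exact NormedSpace.unbounded_univ ℝ ℂ hall

/-- **exact switching** -/
theorem swd_sw (h : Inp Y σ M R₀ u) (hR : 0 ≤ R₀) : Swd Y (sw Y u) :=
  ⟨fun _ _ hz => h.sw_gt hR hz, fun _ _ hz => h.sw_lt hR hz⟩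

/-- far away nothing changes -/
theorem sw_far (h : Inp Y σ M R₀ u) (hR : 0 ≤ R₀) {R : ℝ} (hRR : R₀ ≤ R)
    (hfar : ∀ z, R < ‖z‖ → u z = σ * z.re) (z : ℂ) (hz : R < ‖z‖) : sw Y u z = σ * z.re := by
  have hoff : ∀ z, R < ‖z‖ → z ∉ Y := fun z hz hzY => by
    have := h.ball hzY
    rw [mem_closedBall_zero_iff] at this
    linarith
  have h1 : ∀ z, R < ‖z‖ → st Y u z = σ * z.re := fun z hz =>
    (h.low hR).hull_far (hR.trans hRR) (fun w hw => by rw [h.lo_eq (hoff w hw), hfar w hw]) z hz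
  have h2 : ∀ z, R < ‖z‖ → st Y (fun w => - st Y u w) z = (-σ) * z.re := fun z hz =>
    ((h.v1 hR).neg.low hR).hull_far (hR.trans hRR)
      (fun w hw => by rw [(h.v1 hR).neg.lo_eq (hoff w hw), h1 w hw]; ring) z hz
  show - st Y (fun w => - st Y u w) z = _
  rw [h2 z hz]; ring

/-- **the derivative** -/
theorem fderiv_sw (h : Inp Y σ M R₀ u) (hR : 0 ≤ R₀) :
    ∀ᵐ z ∂(volume.restrict Yᶜ), DifferentiableAt ℝ u z ∧ DifferentiableAt ℝ (sw Y u) z ∧
      (fderiv ℝ (sw Y u) z = fderiv ℝ u z ∨ fderiv ℝ (sw Y u) z = 0) := by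
  have hYo : IsOpen Yᶜ := h.ext.1
  filter_upwards [Bd_775.ae_diff hYo h.loc, Bd_775.ae_diff hYo (h.st_loc hR),
    Bd_775.ae_diff hYo (h.sw_inp hR).loc, ae_restrict_mem hYo.measurableSet] with z h1 h2 h3 hz
  refine ⟨h1, h3, ?_⟩
  have key : ∀ {f : ℂ → ℝ}, LocallyLipschitzOn Yᶜ f → LB f → lo Y f =ᶠ[𝓝 z] f := by
    intro f hf hb
    filter_upwards [hYo.mem_nhds hz] with w hw
    exact lo_of_notMem h.ext hb hw (contAt_of_loc hYo hf hw)
  have e1 := key h.loc h.lb
  have e2 := key (h.v1 hR).neg.loc (h.v1 hR).neg.lb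
  have h4 : fderiv ℝ (st Y u) z = fderiv ℝ u z ∨ fderiv ℝ (st Y u) z = 0 := by
    have := (h.low hR).fderiv_hull (z := z) (e1.differentiableAt_iff.2 h1)
    rwa [e1.fderiv_eq] at this
  have h2n : DifferentiableAt ℝ (fun w => - st Y u w) z := h2.neg
  have h5 : fderiv ℝ (st Y fun w => - st Y u w) z = fderiv ℝ (fun w => - st Y u w) z ∨
      fderiv ℝ (st Y fun w => - st Y u w) z = 0 := by
    have := ((h.v1 hR).neg.low hR).fderiv_hull (z := z) (e2.differentiableAt_iff.2 h2n)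
    rwa [e2.fderiv_eq] at this
  have h6 : fderiv ℝ (sw Y u) z = - fderiv ℝ (st Y fun w => - st Y u w) z := by
    show fderiv ℝ (fun z => - st Y (fun w => - st Y u w) z) z = _
    exact fderiv_fun_neg
  have h7 : fderiv ℝ (fun w => - st Y u w) z = - fderiv ℝ (st Y u) z := fderiv_fun_neg
  rcases h5 with h5 | h5
  · rw [h7] at h5
    rw [h6, h5, neg_neg]
    exact h4
  · right
    rw [h6, h5, neg_zero]

end Inp

end Crest.Agent.R105.Sw_209
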