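import Crest.Agent.R105.Sw3_209
import Crest.Agent.R105.Mid1_987

/-!
# Row 105, S0138: exact switching, part 4: the class `x0 + TT` (helper209)

`swf Y x0 φ = sw Y (x0 + φ) - x0`.  For `φ ∈ TT Y` with compact support: `swf Y x0 φ ∈ TT Y` with
compact support, `Swd Y (x0 + swf)`, `J` and all oscillations do not increase,
`NI Y a φ → NI Y a (swf Y x0 φ)`.
-/

set_option autoImplicit false

open Set Filter Topology Metric Bornology MeasureTheory
open scoped NNReal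

namespace Crest.Agent.R105.Sw_209

open Ends_897 Ni_459 Crest.AnalysisR Bd_775 Tc_808

/-- the switched function as a perturbation of `x0` -/
noncomputable def swf (Y : Set ℂ) (x0 φ : ℂ → ℝ) (z : ℂ) : ℝ :=
  sw Y (fun z => x0 z + φ z) z - x0 z

variable {Y : Set ℂ} {x0 φ u v a : ℂ → ℝ}

lemma add_swf (Y : Set ℂ) (x0 φ : ℂ → ℝ) :
    (fun z => x0 z + swf Y x0 φ z) = sw Y (fun z => x0 z + φ z) := by
  funext z; unfold swf; ring

/-! ### envelopes near `Y` -/

section Env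
variable (hY : IsExteriorDomain Yᶜ)
include hY

lemma up_le_of_nb (hu : LB u) (hv : LB v) {z : ℂ} {N : Set ℂ} (hN : Nb Y z N)
    (h : ∀ w ∈ N, w ∉ Y → u w ≤ v w) : up Y u z ≤ up Y v z := by
  refine le_of_forall_gt_imp_ge_of_dense fun c hc => ?_
  obtain ⟨O, hO, h1⟩ := exists_lt_of_up_lt hY hv hc
  exact up_le hY hu (hO.inter hN) fun w hw hwY => (h w hw.2 hwY).trans (h1 w hw.1 hwY).le

lemma up_congr_nb (hu : LB u) (hv : LB v) {z : ℂ} {N : Set ℂ} (hN : Nb Y z N)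
    (h : ∀ w ∈ N, w ∉ Y → u w = v w) : up Y u z = up Y v z :=
  le_antisymm (up_le_of_nb hY hu hv hN fun w hw hwY => (h w hw hwY).le)
    (up_le_of_nb hY hv hu hN fun w hw hwY => (h w hw hwY).ge)

lemma lo_congr_nb (hu : LB u) (hv : LB v) {z : ℂ} {N : Set ℂ} (hN : Nb Y z N)
    (h : ∀ w ∈ N, w ∉ Y → u w = v w) : lo Y u z = lo Y v z := by
  unfold lo
  rw [up_congr_nb hY hu.neg hv.neg hN fun w hw hwY => by rw [h w hw hwY]]

end Env

/-- the zero set of `x0` is a neighbourhood of every component -/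
lemma nb_x0 (hx : IfB_641.X0 Y x0) {z : ℂ} (hz : z ∈ Y) : Nb Y z (tsupport x0)ᶜ :=
  nb_of_mem hz (isClosed_tsupport x0).isOpen_compl fun _ hw hw' =>
    hx.zero hw' (connectedComponentIn_subset _ _ hw)

lemma x0_zero {w : ℂ} (hw : w ∈ (tsupport x0)ᶜ) : x0 w = 0 := by
  by_contra h
  exact hw (subset_tsupport x0 h)

lemma x0_bd (hx : IfB_641.X0 Y x0) : ∃ M, ∀ z, |x0 z - z.re| ≤ M := by
  obtain ⟨R, hR⟩ := hx.far
  have hc : Continuous fun z : ℂ => x0 z - z.re := hx.sm.continuous.sub Complex.continuous_re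
  obtain ⟨M, hM⟩ := (isCompact_closedBall (0 : ℂ) R).exists_bound_of_continuousOn hc.continuousOn
  refine ⟨max M 0, fun z => ?_⟩
  rcases le_total ‖z‖ R with h | h
  · exact (hM z (by simpa using h)).trans (le_max_left _ _)
  · rw [hR z h, sub_self, abs_zero]; exact le_max_right _ _

lemma x0_loc (hx : IfB_641.X0 Y x0) : LocallyLipschitzOn Yᶜ x0 :=
  Mid_987.ll_on (Mid_987.ll_smooth hx.sm) _

/-- `x0 + φ` is an input -/
lemma exists_inp (hY : IsExteriorDomain Yᶜ) (hx : IfB_641.X0 Y x0) (hφ : Q Y φ) :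
    ∃ M R₀, 0 ≤ R₀ ∧ Inp Y 1 M R₀ (fun z => x0 z + φ z) := by
  obtain ⟨M, hM⟩ := x0_bd hx
  obtain ⟨N, hN⟩ := hφ.bdd
  obtain ⟨C, hC⟩ := (cpt_of hY).isBounded.exists_norm_le
  refine ⟨M + N, max C 0, le_max_right _ _, hY, ll_add (x0_loc hx) hφ.loc, fun z => ?_,
    Or.inl rfl, fun z hz => ?_⟩
  · have h2 : x0 z + φ z - 1 * z.re = (x0 z - z.re) + φ z := by ring
    rw [h2]
    exact (abs_add_le _ _).trans (add_le_add (hM z) (hN z))
  · rw [mem_closedBall_zero_iff]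
    exact (hC z hz).trans (le_max_left _ _)

section main
variable (hY : IsExteriorDomain Yᶜ) (hx : IfB_641.X0 Y x0) (hφ : Q Y φ)
include hY hx hφ

theorem swd_swf : Swd Y (fun z => x0 z + swf Y x0 φ z) := by
  obtain ⟨M, R₀, hR, h⟩ := exists_inp hY hx hφ
  rw [add_swf]
  exact h.swd_sw hR

lemma swf_bdd : ∃ M, ∀ z, |swf Y x0 φ z| ≤ M := by
  obtain ⟨M, R₀, hR, h⟩ := exists_inp hY hx hφ
  obtain ⟨N, hN⟩ := x0_bd hx
  refine ⟨(M + 2 * R₀ + 2 * R₀) + N, fun z => ?_⟩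
  have h1 := (h.sw_inp hR).bd z
  have h2 : swf Y x0 φ z = (sw Y (fun z => x0 z + φ z) z - 1 * z.re) - (x0 z - z.re) := by
    unfold swf; ring
  rw [h2]
  exact (abs_sub _ _).trans (add_le_add h1 (hN z))

lemma swf_loc : LocallyLipschitzOn Yᶜ (swf Y x0 φ) := by
  obtain ⟨M, R₀, hR, h⟩ := exists_inp hY hx hφ
  exact ll_sub (h.sw_inp hR).loc (x0_loc hx)

/-- **envelopes of the switched function** -/
theorem swf_alt {z : ℂ} (hz : z ∈ Y) :
    Flat Y (sw Y (fun z => x0 z + φ z)) z ∨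
      (lo Y φ z ≤ lo Y (swf Y x0 φ) z ∧ up Y (swf Y x0 φ) z ≤ up Y φ z) := by
  obtain ⟨M, R₀, hR, h⟩ := exists_inp hY hx hφ
  refine (h.sw_alt hR z).imp_right fun h1 => ?_
  have hs : LB (swf Y x0 φ) := LB.of_bdd (swf_bdd hY hx hφ)
  have hp : LB φ := LB.of_bdd hφ.bdd
  have e1 := lo_congr_nb hY h.lb hp (nb_x0 hx hz) fun w hw _ => by
    rw [x0_zero hw, zero_add]
  have e2 := up_congr_nb hY h.lb hp (nb_x0 hx hz) fun w hw _ => by
    rw [x0_zero hw, zero_add]
  have e3 := lo_congr_nb hY (h.sw_inp hR).lb hs (nb_x0 hx hz) fun w hw _ => by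
    unfold swf; rw [x0_zero hw, sub_zero]
  have e4 := up_congr_nb hY (h.sw_inp hR).lb hs (nb_x0 hx hz) fun w hw _ => by
    unfold swf; rw [x0_zero hw, sub_zero]
  rw [← e1, ← e2, ← e3, ← e4]
  exact h1

/-- **oscillations do not increase** -/
theorem osc_swf_le (K : Cmp Y) : osc Y (swf Y x0 φ) K.1 ≤ osc Y φ K.1 := by
  obtain ⟨K, z, hz, rfl⟩ := K
  show osc Y (swf Y x0 φ) (connectedComponentIn Y z) ≤ osc Y φ (connectedComponentIn Y z)
  rcases swf_alt hY hx hφ hz with h1 | h1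
  · obtain ⟨N, hN, hc⟩ := h1.nb
    have hN' := hN.inter (nb_x0 hx hz)
    refine (osc_le le_rfl ⟨_, hN'.op, hN'.sub, fun p hp _ q hq _ => ?_⟩).trans (osc_nonneg _ _ _)
    have e : swf Y x0 φ p = swf Y x0 φ q := by
      unfold swf
      rw [hc p hp.1, hc q hq.1, x0_zero hp.2, x0_zero hq.2]
    rw [e, sub_self, abs_zero]
  · rw [osc_eq hY (swf_bdd hY hx hφ) hz, osc_eq hY hφ.bdd hz]
    linarith [h1.1, h1.2]

/-- far away nothing changes -/
lemma swf_far {R : ℝ} (hYR : Y ⊆ closedBall 0 R) (hR : 0 ≤ R)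
    (hfar : ∀ z, R < ‖z‖ → x0 z = z.re ∧ φ z = 0) (z : ℂ) (hz : R < ‖z‖) :
    swf Y x0 φ z = 0 := by
  obtain ⟨M, R₀, hR₀, h⟩ := exists_inp hY hx hφ
  have h' : Inp Y 1 M R (fun z => x0 z + φ z) := ⟨h.ext, h.loc, h.bd, h.sgn, hYR⟩
  have h1 := h'.sw_far hR le_rfl (fun w hw => by
    obtain ⟨h2, h3⟩ := hfar w hw
    rw [h2, h3]; ring) z hz
  unfold swf
  rw [h1, (hfar z hz).1]; ring

theorem swf_compact (hc : HasCompactSupport φ) : HasCompactSupport (swf Y x0 φ) := by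
  obtain ⟨C, hC⟩ := (cpt_of hY).isBounded.exists_norm_le
  obtain ⟨R1, hR1⟩ := hx.far
  obtain ⟨D, hD⟩ := hc.isCompact.isBounded.exists_norm_le
  have h0 : (0 : ℝ) ≤ max (max C R1) (max D 0) := (le_max_right D 0).trans (le_max_right _ _)
  refine HasCompactSupport.intro (isCompact_closedBall (0 : ℂ) (max (max C R1) (max D 0)))
    fun z hz => ?_
  rw [mem_closedBall_zero_iff, not_le] at hz
  refine swf_far hY hx hφ (fun w hw => ?_) h0 (fun w hw => ⟨?_, ?_⟩) z hz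
  · rw [mem_closedBall_zero_iff]
    exact (hC w hw).trans ((le_max_left _ _).trans (le_max_left _ _))
  · exact hR1 w (((le_max_right C R1).trans (le_max_left _ _)).trans hw.le)
  · by_contra h
    have h1 := hD w (subset_tsupport φ h)
    exact absurd (h1.trans ((le_max_left D 0).trans (le_max_right _ _))) (not_le.2 hw)

/-- pointwise energies -/
lemma en_sw_le : ∀ᵐ z ∂(volume.restrict Yᶜ), DifferentiableAt ℝ φ z ∧
    DifferentiableAt ℝ (swf Y x0 φ) z ∧
    en (sw Y (fun z => x0 z + φ z)) z ≤ en (fun z => x0 z + φ z) z := by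
  obtain ⟨M, R₀, hR, h⟩ := exists_inp hY hx hφ
  filter_upwards [h.fderiv_sw hR, ae_diff hY.1 hφ.loc, ae_diff hY.1 (swf_loc hY hx hφ)]
    with z h1 h2 h3
  refine ⟨h2, h3, ?_⟩
  rcases h1.2.2 with h4 | h4
  · rw [en_eq, en_eq, h4]
  · rw [en_eq, h4]; simpa using en_nonneg _ _

omit hY hφ in
lemma en_x0_cont : Continuous (en x0) := by
  unfold en
  exact ((Mid_987.contDiff_gx hx.sm).continuous.pow 2).add
    ((Mid_987.contDiff_gy hx.sm).continuous.pow 2)

theorem swf_q (hc : HasCompactSupport φ) : Q Y (swf Y x0 φ) := by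
  refine ⟨swf_bdd hY hx hφ, swf_loc hY hx hφ, ?_⟩
  have hcs := swf_compact hY hx hφ hc
  set B := tsupport (swf Y x0 φ) with hB
  have hBm : MeasurableSet B := (isClosed_tsupport _).measurableSet
  have hi : Integrable (B.indicator fun z => 6 * en x0 z) := by
    rw [integrable_indicator_iff hBm]
    exact ((en_x0_cont hx).const_mul 6).continuousOn.integrableOn_compact hcs.isCompact
  have hg : IntegrableOn (fun z => B.indicator (fun z => 6 * en x0 z) z + 4 * en φ z) Yᶜ :=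
    hi.integrableOn.add (hφ.fin.const_mul 4)
  refine hg.mono' (measurable_en _).aestronglyMeasurable ?_
  filter_upwards [en_sw_le hY hx hφ] with z ⟨h1, h2, h3⟩
  rw [Real.norm_of_nonneg (en_nonneg _ _)]
  by_cases hz : z ∈ B
  · rw [indicator_of_mem hz]
    have hx0d : DifferentiableAt ℝ x0 z := (hx.sm.differentiable (by simp)) z
    have e1 := en_add_le (u := x0) (v := φ) hx0d h1
    have hsd : DifferentiableAt ℝ (sw Y (fun z => x0 z + φ z)) z := by
      rw [← add_swf]; exact hx0d.add h2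
    have e2 := en_sub_le (u := sw Y (fun z => x0 z + φ z)) (v := x0) hsd hx0d
    have e3 : en (swf Y x0 φ) z ≤ 2 * en (sw Y (fun z => x0 z + φ z)) z + 2 * en x0 z := e2
    linarith
  · rw [en_eq_zero_of_notMem_tsupport hz]
    have := en_nonneg φ z
    rw [indicator_of_notMem hz]
    linarith

end main

/-- the energy of `x0 + φ` -/
lemma en_add_eq {z : ℂ} (h1 : DifferentiableAt ℝ x0 z) (h2 : DifferentiableAt ℝ φ z) :
    dot φ φ z + 2 * dot x0 φ z = en (fun z => x0 z + φ z) z - en x0 z := by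
  unfold en dot
  rw [gx_add h1 h2, gy_add h1 h2]
  ring

lemma J_eq (hY : IsExteriorDomain Yᶜ) (hx : IfB_641.X0 Y x0) (hφ : Q Y φ)
    (hc : HasCompactSupport φ) :
    IntegrableOn (fun z => dot φ φ z + 2 * dot x0 φ z) Yᶜ ∧
      IfB_641.J Y x0 φ = ∫ z in Yᶜ, (dot φ φ z + 2 * dot x0 φ z) := by
  obtain ⟨h1, h2⟩ := Mid_987.di_x0 (cpt_of hY) hx hφ hc
  have h3 : IntegrableOn (dot φ φ) Yᶜ := integrableOn_dot hφ hφ
  refine ⟨h3.add (h1.const_mul 2), ?_⟩
  rw [integral_add h3 (h1.const_mul 2), integral_const_mul]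
  unfold IfB_641.J
  have h4 : ∫ z in Yᶜ, dot x0 φ z = - ∫ z, φ z * IfB_641.lap x0 z := h2
  rw [h4]
  unfold IfB_641.di
  ring

/-- **`J` does not increase** -/
theorem J_swf_le (hY : IsExteriorDomain Yᶜ) (hx : IfB_641.X0 Y x0) (hφ : Q Y φ)
    (hc : HasCompactSupport φ) : IfB_641.J Y x0 (swf Y x0 φ) ≤ IfB_641.J Y x0 φ := by
  obtain ⟨h1, h2⟩ := J_eq hY hx hφ hc
  obtain ⟨h3, h4⟩ := J_eq hY hx (swf_q hY hx hφ hc) (swf_compact hY hx hφ hc)
  rw [h2, h4]
  refine integral_mono_ae h3 h1 ?_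
  filter_upwards [en_sw_le hY hx hφ] with z ⟨e1, e2, e3⟩
  have hx0d : DifferentiableAt ℝ x0 z := (hx.sm.differentiable (by simp)) z
  rw [en_add_eq hx0d e2, en_add_eq hx0d e1, add_swf]
  linarith

theorem swf_tt (hY : IsExteriorDomain Yᶜ) (hx : IfB_641.X0 Y x0) (hφ : TT Y φ)
    (hc : HasCompactSupport φ) : TT Y (swf Y x0 φ) := by
  refine ⟨swf_q hY hx hφ.q hc, Summable.of_nonneg_of_le (fun K => sq_nonneg _) (fun K => ?_) hφ.sum⟩
  exact pow_le_pow_left₀ (osc_nonneg _ _ _) (osc_swf_le hY hx hφ.q K) 2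

/-- the oscillation part does not increase -/
theorem sum_osc_swf_le (hY : IsExteriorDomain Yᶜ) (hx : IfB_641.X0 Y x0) (hφ : TT Y φ)
    (hc : HasCompactSupport φ) :
    ∑' K : Cmp Y, osc Y (swf Y x0 φ) K.1 ^ 2 ≤ ∑' K : Cmp Y, osc Y φ K.1 ^ 2 :=
  (swf_tt hY hx hφ hc).sum.tsum_le_tsum (fun K =>
    pow_le_pow_left₀ (osc_nonneg _ _ _) (osc_swf_le hY hx hφ.q K) 2) hφ.sum

/-! ### null image -/

/-- horizontal lines over a countable set -/
lemma null_snd {S : Set ℝ} (hS : S.Countable) : volume {p : ℝ × ℝ | p.2 ∈ S} = 0 := by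
  have h : {p : ℝ × ℝ | p.2 ∈ S} = (univ : Set ℝ) ×ˢ S := by ext p; simp
  rw [h, Measure.volume_eq_prod, Measure.prod_prod, hS.measure_zero, mul_zero]

theorem ni_swf (hY : IsExteriorDomain Yᶜ) (hx : IfB_641.X0 Y x0) (hφ : TT Y φ)
    (h : NI Y a φ) : NI Y a (swf Y x0 φ) := by
  classical
  set S : Set ℝ := {s : ℝ | ∃ N : Set ℂ, IsOpen N ∧ N.Nonempty ∧
    ∀ w ∈ N, sw Y (fun z => x0 z + φ z) w = s} with hS
  have hSc : S.Countable := countable_flat _
  -- the countable set of jumps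
  have hJ : {K : Cmp Y | osc Y φ K.1 ≠ 0}.Countable := by
    have h1 := hφ.sum.countable_support
    refine h1.mono fun K hK => ?_
    rw [Function.mem_support]
    exact pow_ne_zero 2 hK
  set G : Cmp Y → ℝ × ℝ := fun K => (lo Y a K.2.choose, lo Y (swf Y x0 φ) K.2.choose) with hG
  have hsub : NP Y a (swf Y x0 φ) ⊆ NP Y a φ ∪ ({p : ℝ × ℝ | p.2 ∈ S} ∪
      G '' {K : Cmp Y | osc Y φ K.1 ≠ 0}) := by
    rintro p ⟨z, hz, h1, h2, h3, h4⟩
    rcases swf_alt hY hx hφ.q hz with h5 | ⟨h5, h6⟩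
    · right; left
      obtain ⟨N, hN, hc⟩ := h5.nb
      have hN' := hN.inter (nb_x0 hx hz)
      have e := env_of_nb (c := sw Y (fun z => x0 z + φ z) z) hY
        (LB.of_bdd (swf_bdd hY hx hφ.q)) hN' fun w hw _ => by
          unfold swf; rw [hc w hw.1, x0_zero hw.2, sub_zero]
      show p.2 ∈ S
      rw [← h3, e.1]
      exact ⟨N, hN.op, ⟨z, hN.mem⟩, hc⟩
    · rw [h3] at h5
      rw [h4] at h6
      by_cases h7 : osc Y φ (connectedComponentIn Y z) = 0
      · left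
        rw [osc_eq hY hφ.q.bdd hz] at h7
        exact ⟨z, hz, h1, h2, by linarith, by linarith⟩
      · right; right
        set K : Cmp Y := ⟨connectedComponentIn Y z, z, hz, rfl⟩ with hK
        refine ⟨K, h7, ?_⟩
        have hc1 : K.2.choose ∈ Y := K.2.choose_spec.1
        have hc2 : connectedComponentIn Y z = connectedComponentIn Y K.2.choose :=
          K.2.choose_spec.2
        have hz' : z ∈ connectedComponentIn Y K.2.choose := hc2 ▸ mem_connectedComponentIn hz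
        have e1 : lo Y a z = lo Y a K.2.choose := lo_congr_cc hc1 hz'
        have e2 : lo Y (swf Y x0 φ) z = lo Y (swf Y x0 φ) K.2.choose := lo_congr_cc hc1 hz'
        show (lo Y a K.2.choose, lo Y (swf Y x0 φ) K.2.choose) = p
        rw [← e1, ← e2, h1, h3]
  refine measure_mono_null hsub ?_
  rw [measure_union_null_iff, measure_union_null_iff]
  exact ⟨h, null_snd hSc, (hJ.image G).measure_zero _⟩

end Crest.Agent.R105.Sw_209
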