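import Crest.Agent.R105.Ta2_937
import Crest.Agent.R105.Ni0_459

/-!
# Row 105, S0138: adapter z-plane <-> picture plane with solids, part 3 (helper937)

Transport of 459's envelopes `up`, `lo`, of `NP` and of `NI`; saturated sets.
-/

set_option autoImplicit false

open MeasureTheory Set Filter Topology Metric
open scoped NNReal ENNReal

namespace Crest.Agent.R105.Ta_937

open Ends_897 Tc_808 Ni_459

noncomputable section

variable {U V : Set ℂ} {F : ℂ → ℂ} {φ ψ : ℂ → ℝ}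

theorem cc_of_mem {Y : Set ℂ} (K : Cmp Y) {z : ℂ} (hz : z ∈ K.1) :
    connectedComponentIn Y z = K.1 := by
  have := K.eq_of_mem hz
  rw [this]; rfl

theorem nb_iff_of_mem {Y : Set ℂ} (K : Cmp Y) {z : ℂ} (hz : z ∈ K.1) {O : Set ℂ} :
    Nb Y z O ↔ IsOpen O ∧ K.1 ⊆ O := by
  constructor
  · intro h
    exact ⟨h.op, cc_of_mem K hz ▸ h.sub⟩
  · rintro ⟨h1, h2⟩
    exact ⟨h1, h2 hz, (cc_of_mem K hz).symm ▸ h2⟩

/-- envelopes at the components. -/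
theorem up_comp_of_mem (h : EndMap U V F) (φ : ℂ → ℝ) (K : Cmp Uᶜ) {z ζ : ℂ} (hz : z ∈ K.1)
    (hζ : ζ ∈ (corE h K).1) : up Uᶜ (φ ∘ F) z = up Vᶜ φ ζ := by
  unfold up
  congr 1
  ext c
  simp only [mem_ofPred_eq]
  constructor
  · rintro ⟨O, hO, H⟩
    rw [nb_iff_of_mem K hz] at hO
    obtain ⟨O', h1, h2, h3⟩ := exists_nhd_push h K hO.1 hO.2
    refine ⟨O', (nb_iff_of_mem _ hζ).2 ⟨h1, h2⟩, fun w hw hwV => ?_⟩
    obtain ⟨z', hz', rfl⟩ : w ∈ F '' U := by rw [h.img]; exact not_not.1 hwV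
    exact H z' (h3 z' hz' hw) (not_not.2 hz')
  · rintro ⟨O', hO', H⟩
    rw [nb_iff_of_mem _ hζ] at hO'
    obtain ⟨O, h1, h2, h3⟩ := exists_nhd_pull h K hO'.1 hO'.2
    refine ⟨O, (nb_iff_of_mem K hz).2 ⟨h1, h2⟩, fun w hw hwU => ?_⟩
    have hwU' : w ∈ U := not_not.1 hwU
    exact H (F w) (h3 w hw hwU') (not_not.2 (h.mapsTo hwU'))

theorem lo_comp_of_mem (h : EndMap U V F) (φ : ℂ → ℝ) (K : Cmp Uᶜ) {z ζ : ℂ} (hz : z ∈ K.1)
    (hζ : ζ ∈ (corE h K).1) : lo Uᶜ (φ ∘ F) z = lo Vᶜ φ ζ := by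
  unfold lo
  have := up_comp_of_mem h (fun w => - φ w) K hz hζ
  rw [← this]; rfl

/-- envelopes inside. -/
theorem up_comp_of_U (h : EndMap U V F) (φ : ℂ → ℝ) {z : ℂ} (hz : z ∈ U) :
    up Uᶜ (φ ∘ F) z = up Vᶜ φ (F z) := by
  have hFz := h.mapsTo hz
  unfold up
  congr 1
  ext c
  simp only [mem_ofPred_eq]
  constructor
  · rintro ⟨O, hO, H⟩
    refine ⟨F '' (O ∩ U), nb_of_notMem (not_not.2 hFz) (h.opn _ inter_subset_right
      (hO.op.inter h.hU.1)) ⟨z, ⟨hO.mem, hz⟩, rfl⟩, ?_⟩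
    rintro _ ⟨w, hw, rfl⟩ _
    exact H w hw.1 (not_not.2 hw.2)
  · rintro ⟨O', hO', H⟩
    have hop : IsOpen (U ∩ F ⁻¹' O') := h.cont.isOpen_inter_preimage h.hU.1 hO'.op
    refine ⟨U ∩ F ⁻¹' O', nb_of_notMem (not_not.2 hz) hop ⟨hz, hO'.mem⟩, fun w hw _ => ?_⟩
    exact H (F w) hw.2 (not_not.2 (h.mapsTo hw.1))

theorem lo_comp_of_U (h : EndMap U V F) (φ : ℂ → ℝ) {z : ℂ} (hz : z ∈ U) :
    lo Uᶜ (φ ∘ F) z = lo Vᶜ φ (F z) := by
  unfold lo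
  have := up_comp_of_U h (fun w => - φ w) hz
  rw [← this]; rfl

/-- **(T3')** the no-jump image is the same on both sides. -/
theorem np_comp (h : EndMap U V F) (φ ψ : ℂ → ℝ) : NP Uᶜ (φ ∘ F) (ψ ∘ F) = NP Vᶜ φ ψ := by
  ext p
  constructor
  · rintro ⟨z, hz, h1, h2, h3, h4⟩
    set K : Cmp Uᶜ := Cmp.of hz
    have hzK : z ∈ K.1 := mem_connectedComponentIn hz
    obtain ⟨ζ, hζ⟩ := (corE h K).nonempty
    refine ⟨ζ, (corE h K).subset hζ, ?_, ?_, ?_, ?_⟩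
    · rw [← lo_comp_of_mem h φ K hzK hζ, h1]
    · rw [← up_comp_of_mem h φ K hzK hζ, h2]
    · rw [← lo_comp_of_mem h ψ K hzK hζ, h3]
    · rw [← up_comp_of_mem h ψ K hzK hζ, h4]
  · rintro ⟨ζ, hζ, h1, h2, h3, h4⟩
    set L : Cmp Vᶜ := Cmp.of hζ
    have hζL : ζ ∈ L.1 := mem_connectedComponentIn hζ
    set K : Cmp Uᶜ := (corE h).symm L
    have hL : corE h K = L := Equiv.apply_symm_apply _ _
    obtain ⟨z, hz⟩ := K.nonempty
    have hζ' : ζ ∈ (corE h K).1 := by rw [hL]; exact hζL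
    refine ⟨z, K.subset hz, ?_, ?_, ?_, ?_⟩
    · rw [lo_comp_of_mem h φ K hz hζ', h1]
    · rw [up_comp_of_mem h φ K hz hζ', h2]
    · rw [lo_comp_of_mem h ψ K hz hζ', h3]
    · rw [up_comp_of_mem h ψ K hz hζ', h4]

/-- **null image isotropy is transported**. -/
theorem ni_comp (h : EndMap U V F) (φ ψ : ℂ → ℝ) :
    NI Uᶜ (φ ∘ F) (ψ ∘ F) ↔ NI Vᶜ φ ψ := by
  unfold NI; rw [np_comp h]

/-- envelopes only see the values off `Y`. -/
theorem up_congr {Y : Set ℂ} {u v : ℂ → ℝ} (he : ∀ z ∉ Y, u z = v z) : up Y u = up Y v := by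
  funext z
  unfold up
  congr 1
  ext c
  simp only [mem_ofPred_eq]
  constructor
  · rintro ⟨O, hO, H⟩
    exact ⟨O, hO, fun w hw hwY => he w hwY ▸ H w hw hwY⟩
  · rintro ⟨O, hO, H⟩
    exact ⟨O, hO, fun w hw hwY => (he w hwY).symm ▸ H w hw hwY⟩

theorem lo_congr {Y : Set ℂ} {u v : ℂ → ℝ} (he : ∀ z ∉ Y, u z = v z) : lo Y u = lo Y v := by
  funext z
  unfold lo
  rw [up_congr (u := fun w => - u w) (v := fun w => - v w) fun z hz => by rw [he z hz]]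

theorem ni_congr {Y : Set ℂ} {u v u' v' : ℂ → ℝ} (hu : ∀ z ∉ Y, u z = u' z)
    (hv : ∀ z ∉ Y, v z = v' z) : NI Y u v ↔ NI Y u' v' := by
  unfold NI NP
  rw [up_congr hu, lo_congr hu, up_congr hv, lo_congr hv]

/-- pushing forward: for `u` on the z-side. -/
theorem ni_push (h : EndMap U (F '' U) F) (u v : ℂ → ℝ) :
    NI (F '' U)ᶜ (push h u) (push h v) ↔ NI Uᶜ u v := by
  rw [← ni_comp h]
  exact ni_congr (fun z hz => push_comp h u (not_not.1 hz)) fun z hz => push_comp h v (not_not.1 hz)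

/-- mixed form: `u` on the z-side, `ψ` in the picture. -/
theorem ni_mixed (h : EndMap U (F '' U) F) (u ψ : ℂ → ℝ) :
    NI (F '' U)ᶜ (push h u) ψ ↔ NI Uᶜ u (ψ ∘ F) := by
  rw [← ni_comp h]
  exact ni_congr (fun z hz => push_comp h u (not_not.1 hz)) fun z hz => rfl

end

end Crest.Agent.R105.Ta_937
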