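import Crest.Agent.R105.Ta3_937

/-!
# Row 105, S0138: adapter z-plane <-> picture plane with solids, part 4 (helper937)

Saturated sets: `sat h C` is the set of the picture plane which corresponds to `C`.  Open, closed,
compact, preconnected sets are preserved; level sets `Lv` and switched functions `Swd`.
-/

set_option autoImplicit false

open MeasureTheory Set Filter Topology Metric
open scoped NNReal ENNReal

namespace Crest.Agent.R105.Ta_937

open Ends_897 Tc_808 Ni_459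

noncomputable section

variable {U V : Set ℂ} {F : ℂ → ℂ} {φ ψ : ℂ → ℝ}

/-- saturated sets -/
def Sa (Y C : Set ℂ) : Prop := ∀ z ∈ C, connectedComponentIn Y z ⊆ C

theorem Sa.cmp {Y C : Set ℂ} (h : Sa Y C) (K : Cmp Y) (hK : (K.1 ∩ C).Nonempty) : K.1 ⊆ C := by
  obtain ⟨z, hz, hzC⟩ := hK
  rw [← cc_of_mem K hz]
  exact h z hzC

theorem Sa.of_cmp {Y C : Set ℂ} (h : ∀ K : Cmp Y, (K.1 ∩ C).Nonempty → K.1 ⊆ C) : Sa Y C := by
  intro z hz
  by_cases hzY : z ∈ Y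
  · exact h (Cmp.of hzY) ⟨z, mem_connectedComponentIn hzY, hz⟩
  · rw [connectedComponentIn_eq_empty hzY]; exact empty_subset _

theorem Sa.compl {Y C : Set ℂ} (h : Sa Y C) : Sa Y Cᶜ := by
  refine Sa.of_cmp fun K hK z hz hzC => ?_
  obtain ⟨w, hw, hwC⟩ := hK
  exact hwC (h.cmp K ⟨z, hz, hzC⟩ hw)

/-- a relatively closed-open part of a saturated set is saturated. -/
theorem Sa.split {Y C A B : Set ℂ} (h : Sa Y C) (hAB : C ⊆ A ∪ B) (hd : C ∩ (A ∩ B) = ∅)
    (hs : (IsOpen A ∧ IsOpen B) ∨ (IsClosed A ∧ IsClosed B)) : Sa Y (C ∩ A) := by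
  refine Sa.of_cmp fun K hK => ?_
  obtain ⟨z, hz, hzC, hzA⟩ := hK
  have hKC : K.1 ⊆ C := h.cmp K ⟨z, hz, hzC⟩
  have hKd : K.1 ∩ (A ∩ B) = ∅ := by
    rw [eq_empty_iff_forall_notMem] at hd ⊢
    exact fun w hw => hd w ⟨hKC hw.1, hw.2⟩
  have h1 : K.1 ⊆ A ∨ K.1 ⊆ B := by
    rcases hs with ⟨hA, hB⟩ | ⟨hA, hB⟩
    · exact isPreconnected_iff_subset_of_disjoint.1 K.preconn A B hA hB (hKC.trans hAB) hKd
    · exact isPreconnected_iff_subset_of_disjoint_closed.1 K.preconn A B hA hB (hKC.trans hAB) hKd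
  have h2 : K.1 ⊆ A := by
    refine h1.resolve_right fun hB => ?_
    rw [eq_empty_iff_forall_notMem] at hKd
    exact hKd z ⟨hz, hzA, hB hz⟩
  exact subset_inter hKC h2

/-- the corresponding set of the picture plane. -/
def sat (h : EndMap U V F) (C : Set ℂ) : Set ℂ :=
  F '' (C ∩ U) ∪ {ζ | ∃ K : Cmp Uᶜ, K.1 ⊆ C ∧ ζ ∈ (corE h K).1}

theorem not_mem_V (h : EndMap U V F) (K : Cmp Uᶜ) {ζ : ℂ} (hζ : ζ ∈ (corE h K).1) : ζ ∉ V :=
  (corE h K).subset hζ

theorem F_mem_sat (h : EndMap U V F) {C : Set ℂ} {z : ℂ} (hz : z ∈ U) :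
    F z ∈ sat h C ↔ z ∈ C := by
  constructor
  · rintro (⟨w, ⟨hwC, hwU⟩, he⟩ | ⟨K, -, hK⟩)
    · rwa [← h.inj hwU hz he]
    · exact absurd (h.mapsTo hz) (not_mem_V h K hK)
  · intro hzC
    exact Or.inl ⟨z, ⟨hzC, hz⟩, rfl⟩

theorem eq_of_mem_mem {Y : Set ℂ} {K K' : Cmp Y} {z : ℂ} (h : z ∈ K.1) (h' : z ∈ K'.1) :
    K = K' := by
  by_contra hne
  exact disjoint_left.1 (Cmp.disjoint hne) h h'

theorem mem_sat_of_mem (h : EndMap U V F) {C : Set ℂ} (K : Cmp Uᶜ) {ζ : ℂ}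
    (hζ : ζ ∈ (corE h K).1) : ζ ∈ sat h C ↔ K.1 ⊆ C := by
  constructor
  · rintro (⟨w, ⟨-, hwU⟩, rfl⟩ | ⟨K', hK', hζ'⟩)
    · exact absurd (h.mapsTo hwU) (not_mem_V h K hζ)
    · have := (corE h).injective (eq_of_mem_mem hζ hζ')
      rwa [this]
  · intro hK
    exact Or.inr ⟨K, hK, hζ⟩

theorem exists_K (h : EndMap U V F) {ζ : ℂ} (hζ : ζ ∉ V) : ∃ K : Cmp Uᶜ, ζ ∈ (corE h K).1 := by
  refine ⟨(corE h).symm (Cmp.of (show ζ ∈ Vᶜ from hζ)), ?_⟩
  rw [Equiv.apply_symm_apply]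
  exact mem_connectedComponentIn (show ζ ∈ Vᶜ from hζ)

theorem sa_sat (h : EndMap U V F) (C : Set ℂ) : Sa Vᶜ (sat h C) := by
  refine Sa.of_cmp fun L hL => ?_
  obtain ⟨ζ, hζ, hζs⟩ := hL
  set K := (corE h).symm L with hK
  have hKL : corE h K = L := Equiv.apply_symm_apply _ _
  rw [← hKL] at hζ
  have h1 := (mem_sat_of_mem h K hζ).1 hζs
  intro ζ' hζ'
  rw [← hKL] at hζ'
  exact (mem_sat_of_mem h K hζ').2 h1

theorem sat_mono (h : EndMap U V F) {C D : Set ℂ} (hCD : C ⊆ D) : sat h C ⊆ sat h D := by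
  rintro ζ (⟨w, ⟨hwC, hwU⟩, rfl⟩ | ⟨K, hK, hζ⟩)
  · exact Or.inl ⟨w, ⟨hCD hwC, hwU⟩, rfl⟩
  · exact Or.inr ⟨K, hK.trans hCD, hζ⟩

theorem sat_compl (h : EndMap U V F) {C : Set ℂ} (hC : Sa Uᶜ C) : sat h Cᶜ = (sat h C)ᶜ := by
  ext ζ
  by_cases hζ : ζ ∈ V
  · obtain ⟨z, hz, rfl⟩ : ζ ∈ F '' U := by rw [h.img]; exact hζ
    rw [mem_compl_iff, F_mem_sat h hz, F_mem_sat h hz, mem_compl_iff]
  · obtain ⟨K, hK⟩ := exists_K h hζ
    rw [mem_compl_iff, mem_sat_of_mem h K hK, mem_sat_of_mem h K hK]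
    constructor
    · intro h1 h2
      obtain ⟨z, hz⟩ := K.nonempty
      exact h1 hz (h2 hz)
    · intro h1 z hz hzC
      exact h1 (hC.cmp K ⟨z, hz, hzC⟩)

theorem sat_sat (h : EndMap U V F) {C : Set ℂ} (hC : Sa Uᶜ C) : sat h.symm (sat h C) = C := by
  ext z
  by_cases hz : z ∈ U
  · have hFz := h.mapsTo hz
    have h1 : h.inv (F z) = z := h.inv_left hz
    constructor
    · intro hm
      rw [← h1] at hm
      have h2 := (F_mem_sat h.symm hFz).1 hm
      exact (F_mem_sat h hz).1 h2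
    · intro hm
      rw [← h1]
      exact (F_mem_sat h.symm hFz).2 ((F_mem_sat h hz).2 hm)
  · set K : Cmp Uᶜ := Cmp.of (show z ∈ Uᶜ from hz)
    have hzK : z ∈ K.1 := mem_connectedComponentIn (show z ∈ Uᶜ from hz)
    have hKK : corE h.symm (corE h K) = K := cor_symm h K
    have hz' : z ∈ (corE h.symm (corE h K)).1 := by rw [hKK]; exact hzK
    rw [mem_sat_of_mem h.symm (corE h K) hz']
    constructor
    · intro h1
      obtain ⟨ζ, hζ⟩ := (corE h K).nonempty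
      exact (mem_sat_of_mem h K hζ).1 (h1 hζ) hzK
    · intro hzC ζ hζ
      exact (mem_sat_of_mem h K hζ).2 (hC.cmp K ⟨z, hzK, hzC⟩)

theorem sat_sat' (h : EndMap U V F) {D : Set ℂ} (hD : Sa Vᶜ D) : sat h (sat h.symm D) = D := by
  ext ζ
  by_cases hζV : ζ ∈ V
  · obtain ⟨z, hz, rfl⟩ : ζ ∈ F '' U := by rw [h.img]; exact hζV
    have hFz := h.mapsTo hz
    have h1 : h.inv (F z) = z := h.inv_left hz
    rw [F_mem_sat h hz]
    have h2 := F_mem_sat h.symm (C := D) hFz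
    rwa [h1] at h2
  · obtain ⟨K, hK⟩ := exists_K h hζV
    rw [mem_sat_of_mem h K hK]
    have hKK : corE h.symm (corE h K) = K := cor_symm h K
    constructor
    · intro h1
      obtain ⟨z, hz⟩ := K.nonempty
      have hz' : z ∈ (corE h.symm (corE h K)).1 := by rw [hKK]; exact hz
      exact (mem_sat_of_mem h.symm (corE h K) hz').1 (h1 hz) hK
    · intro h1 z hz
      have hz' : z ∈ (corE h.symm (corE h K)).1 := by rw [hKK]; exact hz
      exact (mem_sat_of_mem h.symm (corE h K) hz').2 (hD.cmp _ ⟨ζ, hK, h1⟩)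

theorem eK_neBot (hU : Crest.AnalysisR.IsExteriorDomain U) (K : Cmp Uᶜ) : (eK Uᶜ K.1).NeBot := by
  obtain ⟨K, z, hz, rfl⟩ := K
  simp only
  rw [eK_eq_eF]
  exact eF_neBot hU (show z ∉ U from hz)

/-- **open saturated sets correspond to open sets**. -/
theorem isOpen_sat (h : EndMap U V F) {C : Set ℂ} (hC : Sa Uᶜ C) (ho : IsOpen C) :
    IsOpen (sat h C) := by
  have hUc : IsCompact Uᶜ := isCompact_compl h.hU
  have hVc : IsCompact Vᶜ := isCompact_compl h.hV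
  rw [isOpen_iff_mem_nhds]
  intro ζ hζ
  by_cases hζV : ζ ∈ V
  · obtain ⟨z, hz, rfl⟩ : ζ ∈ F '' U := by rw [h.img]; exact hζV
    have hzC := (F_mem_sat h hz).1 hζ
    have h1 : IsOpen (F '' (C ∩ U)) := h.opn _ inter_subset_right (ho.inter h.hU.1)
    exact mem_of_superset (h1.mem_nhds ⟨z, ⟨hzC, hz⟩, rfl⟩) subset_union_left
  · obtain ⟨K, hK⟩ := exists_K h hζV
    have hKC := (mem_sat_of_mem h K hK).1 hζ
    obtain ⟨P0, hP0, hKP, hP0C, hP0c⟩ :=
      exists_open_between_and_isCompact_closure (K.isCompact hUc) ho hKC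
    obtain ⟨O, hO, hLO, hOP⟩ := exists_nhd_push h K hP0 hKP
    have hNb : Nb Vᶜ ζ O := (nb_iff_of_mem (corE h K) hK).2 ⟨hO, hLO⟩
    obtain ⟨P, hPO, hP, hPw⟩ := hNb.shrink hVc
    refine mem_of_superset (hP.op.mem_nhds hP.mem) fun w hw => ?_
    by_cases hwV : w ∈ V
    · obtain ⟨z, hz, rfl⟩ : w ∈ F '' U := by rw [h.img]; exact hwV
      rw [F_mem_sat h hz]
      exact hP0C (subset_closure (hOP z hz (hPO hw)))
    · obtain ⟨K', hK'⟩ := exists_K h hwV
      rw [mem_sat_of_mem h K' hK']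
      have hL'O : (corE h K').1 ⊆ O := ((nb_iff_of_mem (corE h K') hK').1 (hPw w hw)).2
      obtain ⟨O'', hO'', hK'O, hO3⟩ := exists_nhd_pull h K' hO hL'O
      apply hC.cmp K'
      by_contra hcon
      have hdis : K'.1 ⊆ (closure P0)ᶜ := fun x hx hxP => hcon ⟨x, hx, hP0C hxP⟩
      have h1 : O'' ∩ (closure P0)ᶜ ∩ U ∈ eK Uᶜ K'.1 :=
        mem_eK'.2 ⟨O'' ∩ (closure P0)ᶜ, hO''.inter isClosed_closure.isOpen_compl,
          subset_inter hK'O hdis, subset_rfl⟩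
      have h2 := eK_neBot h.hU K'
      obtain ⟨x, ⟨hx1, hx2⟩, hx3⟩ := h2.nonempty_of_mem h1
      exact hx2 (subset_closure (hOP x hx3 (hO3 x hx1 hx3)))

theorem isClosed_sat (h : EndMap U V F) {C : Set ℂ} (hC : Sa Uᶜ C) (hc : IsClosed C) :
    IsClosed (sat h C) := by
  rw [← isOpen_compl_iff, ← sat_compl h hC]
  exact isOpen_sat h hC.compl hc.isOpen_compl

theorem isBounded_sat (h : EndMap U V F) {C : Set ℂ} (hb : Bornology.IsBounded C) :
    Bornology.IsBounded (sat h C) := by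
  obtain ⟨R, hR⟩ := hb.exists_norm_le
  obtain ⟨ρ, hρ⟩ := h.bdd R
  refine Bornology.IsBounded.union ?_ ?_
  · refine isBounded_iff_forall_norm_le.2 ⟨ρ, ?_⟩
    rintro _ ⟨z, ⟨hzC, hzU⟩, rfl⟩
    exact hρ z hzU (hR z hzC)
  · refine (isCompact_compl h.hV).isBounded.subset ?_
    rintro ζ ⟨K, -, hK⟩
    exact not_mem_V h K hK

theorem isCompact_sat (h : EndMap U V F) {C : Set ℂ} (hC : Sa Uᶜ C) (hc : IsCompact C) :
    IsCompact (sat h C) :=
  Metric.isCompact_of_isClosed_isBounded (isClosed_sat h hC hc.isClosed)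
    (isBounded_sat h hc.isBounded)

theorem sat_inter_subset (h : EndMap U V F) {C A : Set ℂ} :
    sat h C ∩ sat h A ⊆ sat h (C ∩ A) := by
  rintro ζ ⟨h1, h2⟩
  by_cases hζV : ζ ∈ V
  · obtain ⟨z, hz, rfl⟩ : ζ ∈ F '' U := by rw [h.img]; exact hζV
    rw [F_mem_sat h hz] at h1 h2 ⊢
    exact ⟨h1, h2⟩
  · obtain ⟨K, hK⟩ := exists_K h hζV
    rw [mem_sat_of_mem h K hK] at h1 h2 ⊢
    exact subset_inter h1 h2

theorem sat_nonempty (h : EndMap U V F) {C : Set ℂ} (hC : Sa Uᶜ C) :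
    (sat h C).Nonempty ↔ C.Nonempty := by
  constructor
  · rintro ⟨ζ, hζ⟩
    by_cases hζV : ζ ∈ V
    · obtain ⟨z, hz, rfl⟩ : ζ ∈ F '' U := by rw [h.img]; exact hζV
      exact ⟨z, (F_mem_sat h hz).1 hζ⟩
    · obtain ⟨K, hK⟩ := exists_K h hζV
      obtain ⟨z, hz⟩ := K.nonempty
      exact ⟨z, (mem_sat_of_mem h K hK).1 hζ hz⟩
  · rintro ⟨z, hz⟩
    by_cases hzU : z ∈ U
    · exact ⟨F z, (F_mem_sat h hzU).2 hz⟩
    · set K : Cmp Uᶜ := Cmp.of (show z ∈ Uᶜ from hzU)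
      have hzK : z ∈ K.1 := mem_connectedComponentIn (show z ∈ Uᶜ from hzU)
      obtain ⟨ζ, hζ⟩ := (corE h K).nonempty
      exact ⟨ζ, (mem_sat_of_mem h K hζ).2 (hC.cmp K ⟨z, hzK, hz⟩)⟩

/-- **preconnected saturated sets** (open or closed) correspond to preconnected sets. -/
theorem isPreconnected_sat (h : EndMap U V F) {C : Set ℂ} (hC : Sa Uᶜ C)
    (hoc : IsOpen C ∨ IsClosed C) (hp : IsPreconnected C) : IsPreconnected (sat h C) := by
  have hback : sat h.symm (sat h C) = C := sat_sat h hC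
  -- transport of a splitting
  have key : ∀ A B : Set ℂ, sat h C ⊆ A ∪ B → sat h C ∩ (A ∩ B) = ∅ →
      ((IsOpen A ∧ IsOpen B) ∨ (IsClosed A ∧ IsClosed B)) →
      ((IsOpen (sat h C ∩ A) ∧ IsOpen (sat h C ∩ B)) ∨
        (IsClosed (sat h C ∩ A) ∧ IsClosed (sat h C ∩ B))) → sat h C ⊆ A ∨ sat h C ⊆ B := by
    intro A B hAB hd hs hs'
    have sA : Sa Vᶜ (sat h C ∩ A) := (sa_sat h C).split hAB hd hs
    have sB : Sa Vᶜ (sat h C ∩ B) := by
      refine (sa_sat h C).split (by rwa [union_comm]) (by rwa [inter_comm B A]) ?_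
      rcases hs with ⟨h1, h2⟩ | ⟨h1, h2⟩
      · exact Or.inl ⟨h2, h1⟩
      · exact Or.inr ⟨h2, h1⟩
    set A' := sat h.symm (sat h C ∩ A) with hA'
    set B' := sat h.symm (sat h C ∩ B) with hB'
    have fA : sat h A' = sat h C ∩ A := by
      exact sat_sat' h sA
    have fB : sat h B' = sat h C ∩ B := by
      exact sat_sat' h sB
    have hA'C : A' ⊆ C := by
      rw [← hback]; exact sat_mono h.symm inter_subset_left
    have hB'C : B' ⊆ C := by
      rw [← hback]; exact sat_mono h.symm inter_subset_left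
    have hcov : C ⊆ A' ∪ B' := by
      intro z hz
      by_cases hzU : z ∈ U
      · have h1 : F z ∈ sat h C := (F_mem_sat h hzU).2 hz
        rcases hAB h1 with h2 | h2
        · left
          have : F z ∈ sat h A' := by rw [fA]; exact ⟨h1, h2⟩
          exact (F_mem_sat h hzU).1 this
        · right
          have : F z ∈ sat h B' := by rw [fB]; exact ⟨h1, h2⟩
          exact (F_mem_sat h hzU).1 this
      · set K : Cmp Uᶜ := Cmp.of (show z ∈ Uᶜ from hzU)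
        have hzK : z ∈ K.1 := mem_connectedComponentIn (show z ∈ Uᶜ from hzU)
        obtain ⟨ζ, hζ⟩ := (corE h K).nonempty
        have h1 : ζ ∈ sat h C := (mem_sat_of_mem h K hζ).2 (hC.cmp K ⟨z, hzK, hz⟩)
        rcases hAB h1 with h2 | h2
        · left
          have : ζ ∈ sat h A' := by rw [fA]; exact ⟨h1, h2⟩
          exact (mem_sat_of_mem h K hζ).1 this hzK
        · right
          have : ζ ∈ sat h B' := by rw [fB]; exact ⟨h1, h2⟩
          exact (mem_sat_of_mem h K hζ).1 this hzK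
    have hdis : C ∩ (A' ∩ B') = ∅ := by
      by_contra hne
      obtain ⟨z, hzC, hzA, hzB⟩ := nonempty_iff_ne_empty.2 hne
      have sA' : Sa Uᶜ A' := sa_sat h.symm _
      have sB' : Sa Uᶜ B' := sa_sat h.symm _
      have sAB : Sa Uᶜ (A' ∩ B') := fun w hw => subset_inter (sA' w hw.1) (sB' w hw.2)
      obtain ⟨ζ, hζ⟩ := (sat_nonempty h sAB).2 ⟨z, hzA, hzB⟩
      have h1 : ζ ∈ sat h A' := sat_mono h inter_subset_left hζ
      have h2 : ζ ∈ sat h B' := sat_mono h inter_subset_right hζ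
      rw [fA] at h1
      rw [fB] at h2
      have : ζ ∈ sat h C ∩ (A ∩ B) := ⟨h1.1, h1.2, h2.2⟩
      rw [hd] at this
      exact this
    have hres : C ⊆ A' ∨ C ⊆ B' := by
      rcases hs' with ⟨oA, oB⟩ | ⟨cA, cB⟩
      · exact isPreconnected_iff_subset_of_disjoint.1 hp A' B' (isOpen_sat h.symm sA oA)
          (isOpen_sat h.symm sB oB) hcov hdis
      · exact isPreconnected_iff_subset_of_disjoint_closed.1 hp A' B'
          (isClosed_sat h.symm sA cA) (isClosed_sat h.symm sB cB) hcov hdis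
    rcases hres with h1 | h1
    · left
      have := sat_mono h h1
      rw [fA] at this
      exact this.trans inter_subset_right
    · right
      have := sat_mono h h1
      rw [fB] at this
      exact this.trans inter_subset_right
  rcases hoc with ho | hc
  · have hso := isOpen_sat h hC ho
    rw [isPreconnected_iff_subset_of_disjoint]
    intro A B hA hB hAB hd
    exact key A B hAB hd (Or.inl ⟨hA, hB⟩) (Or.inl ⟨hso.inter hA, hso.inter hB⟩)
  · have hsc := isClosed_sat h hC hc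
    rw [isPreconnected_iff_subset_of_disjoint_closed]
    intro A B hA hB hAB hd
    exact key A B hAB hd (Or.inr ⟨hA, hB⟩) (Or.inr ⟨hsc.inter hA, hsc.inter hB⟩)

end

end Crest.Agent.R105.Ta_937
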