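import Crest.Agent.R105.Pct2_185
import Crest.Agent.R105.Exs0_992
import Crest.Agent.R105.Tra4_937

/-!
# Row 105, S0138: the picture with solids on `ℝ × ℝ` (helper937)

`PicT F` (185, `F ⊆ ℂ`) gives `PicS (setR F) (sqs F) (hrs F)` (992), where `sqs F` = exact squares of
the solids, `hrs F` = all vertical segments in `F` which meet a square at most in their foot.
`sq_of_no_hairs` : no such segments => every component is a point or a closed square.
-/

set_option autoImplicit false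

open MeasureTheory Set Filter Topology Metric
open scoped NNReal ENNReal

namespace Crest.Agent.R105.Ta_937

open Tc_808 Sqr_185
open Cq_463 (Sqr QPic AttAt Att)
open CF_363 (Hair)
open Skp2_257 (Comps Reg)
open Tra_937 (setR setC toC ofC)
open Pct_185 (PicT Sol)
open Exs_992 (PicS)

noncomputable section

variable {F S : Set ℂ}

/-! ### the homeomorphism -/

theorem mem_setR {p : ℝ × ℝ} : p ∈ setR S ↔ (⟨p.1, p.2⟩ : ℂ) ∈ S := Iff.rfl

theorem image_e (S : Set ℂ) : Complex.equivRealProdCLM.toHomeomorph '' S = setR S := by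
  ext p
  constructor
  · rintro ⟨z, hz, rfl⟩
    exact hz
  · intro h
    exact ⟨⟨p.1, p.2⟩, h, rfl⟩

theorem cc_setR {p : ℝ × ℝ} (hp : p ∈ setR S) :
    connectedComponentIn (setR S) p = setR (connectedComponentIn S ⟨p.1, p.2⟩) := by
  have hp' : (⟨p.1, p.2⟩ : ℂ) ∈ S := hp
  have h := Complex.equivRealProdCLM.toHomeomorph.image_connectedComponentIn hp'
  rw [← image_e, ← image_e, h]
  rfl

theorem isCompact_setR (h : IsCompact S) : IsCompact (setR S) := by
  rw [← image_e]; exact h.image Complex.equivRealProdCLM.toHomeomorph.continuous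

theorem isPreconnected_setC {P : Set (ℝ × ℝ)} (h : IsPreconnected P) :
    IsPreconnected (setC P) := by
  have e : setC P = Complex.equivRealProdCLM.toHomeomorph.symm '' P := by
    rw [Homeomorph.image_eq_preimage_symm]
    rfl
  rw [e]
  exact h.image _ Complex.equivRealProdCLM.toHomeomorph.symm.continuous.continuousOn

theorem volume_setR (S : Set ℂ) : volume (setR S) = volume S := by
  rw [← Tra_937.volume_setC, Tra_937.setC_setR]

/-- components of `setR F` -/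
theorem mem_comps {P : Set (ℝ × ℝ)} : P ∈ Comps (setR F) ↔ ∃ L : Cmp F, P = setR L.1 := by
  constructor
  · rintro ⟨p, hp, rfl⟩
    exact ⟨Cmp.of hp, cc_setR hp⟩
  · rintro ⟨L, rfl⟩
    obtain ⟨z, hz⟩ := L.nonempty
    have hz' : z ∈ F := L.subset hz
    refine ⟨(z.re, z.im), hz', ?_⟩
    rw [cc_setR (show (z.re, z.im) ∈ setR F from hz')]
    have := congrArg Subtype.val (L.eq_of_mem hz)
    rw [this]
    rfl

/-! ### squares -/

/-- the exact squares of the picture -/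
def sqs (F : Set ℂ) : Set Sqr := {Q | ∃ L : Cmp F, SqK L.1 Q.x Q.y Q.s}

/-- the vertical segments which can be cut -/
def hrs (F : Set ℂ) : Set Hair := {K | K.car ⊆ setR F ∧ ∀ Q ∈ sqs F, AttAt Q K}

theorem sqK_car {L : Cmp F} {Q : Sqr} (h : SqK L.1 Q.x Q.y Q.s) : Q.car ⊆ setR L.1 := by
  intro p hp
  obtain ⟨h1, h2⟩ := hp
  exact h.sub ⟨p.1, p.2⟩ h1 h2

theorem sqK_lo (hF : IsCompact F) {L : Cmp F} {Q : Sqr} (h : SqK L.1 Q.x Q.y Q.s) :
    lo L.1 = Q.x := by
  have hL := L.isCompact hF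
  refine le_antisymm ?_ ?_
  · have h1 : (⟨Q.x, Q.y⟩ : ℂ) ∈ L.1 :=
      h.sub _ ⟨le_rfl, by simp only; linarith [Q.hs]⟩ ⟨le_rfl, by simp only; linarith [Q.hs]⟩
    exact lo_le hL h1
  · obtain ⟨p, hp, h1⟩ := exists_lo hL L.nonempty
    rw [← h1]
    exact (h.re_mem p hp).1

theorem sqK_hi (hF : IsCompact F) {L : Cmp F} {Q : Sqr} (h : SqK L.1 Q.x Q.y Q.s) :
    hi L.1 = Q.x + Q.s := by
  have hL := L.isCompact hF
  refine le_antisymm ?_ ?_
  · obtain ⟨p, hp, h1⟩ := exists_hi hL L.nonempty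
    rw [← h1]
    exact (h.re_mem p hp).2
  · have h1 : (⟨Q.x + Q.s, Q.y⟩ : ℂ) ∈ L.1 :=
      h.sub _ ⟨by simp only; linarith [Q.hs], le_rfl⟩ ⟨le_rfl, by simp only; linarith [Q.hs]⟩
    exact le_hi hL h1

theorem sqK_wd (hF : IsCompact F) {L : Cmp F} {Q : Sqr} (h : SqK L.1 Q.x Q.y Q.s) :
    wd L.1 = Q.s := by
  unfold wd
  rw [sqK_lo hF h, sqK_hi hF h]; ring

theorem sqK_unique (hF : IsCompact F) {L : Cmp F} {Q Q' : Sqr} (h : SqK L.1 Q.x Q.y Q.s)
    (h' : SqK L.1 Q'.x Q'.y Q'.s) : Q = Q' := by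
  have hx : Q.x = Q'.x := by rw [← sqK_lo hF h, sqK_lo hF h']
  have hs : Q.s = Q'.s := by rw [← sqK_wd hF h, sqK_wd hF h']
  have hQ := Q.hs
  have hvol : (volume (Icc Q.x (Q.x + Q.s))) ≠ 0 := by
    rw [Real.volume_Icc]
    simp only [add_sub_cancel_left, ne_eq, ENNReal.ofReal_eq_zero, not_le]
    exact hQ
  obtain ⟨t, ht, h1, h2⟩ : ∃ t, t ∈ Icc Q.x (Q.x + Q.s) ∧
      (t ∈ Icc Q.x (Q.x + Q.s) → sec L.1 t = Icc Q.y (Q.y + Q.s)) ∧
      (t ∈ Icc Q'.x (Q'.x + Q'.s) → sec L.1 t = Icc Q'.y (Q'.y + Q'.s)) := by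
    by_contra hcon
    push Not at hcon
    apply hvol
    have h3 := h.ae.and h'.ae
    refine measure_mono_null (t := {t | ¬ ((t ∈ Icc Q.x (Q.x + Q.s) →
      sec L.1 t = Icc Q.y (Q.y + Q.s)) ∧ (t ∈ Icc Q'.x (Q'.x + Q'.s) →
      sec L.1 t = Icc Q'.y (Q'.y + Q'.s)))}) ?_ (ae_iff.1 h3)
    intro t ht hc
    obtain ⟨h4, h5⟩ := hcon t ht hc.1
    exact h5 (hc.2 h4)
  have e1 := h1 ht
  have e2 := h2 (by rw [← hx, ← hs]; exact ht)
  have e3 : Icc Q.y (Q.y + Q.s) = Icc Q'.y (Q'.y + Q'.s) := e1.symm.trans e2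
  have hy : Q.y = Q'.y := by
    have a1 : Q.y ∈ Icc Q'.y (Q'.y + Q'.s) := by rw [← e3]; exact ⟨le_rfl, by linarith⟩
    have a2 : Q'.y ∈ Icc Q.y (Q.y + Q.s) := by rw [e3]; exact ⟨le_rfl, by linarith [Q'.hs]⟩
    exact le_antisymm a2.1 a1.1
  exact Sqr.ext hx hy hs

/-- the square of a solid -/
theorem exists_sqr (h : PicT F) {L : Cmp F} (hL : 0 < wd L.1) :
    ∃ Q ∈ sqs F, SqK L.1 Q.x Q.y Q.s ∧ Q.s = wd L.1 := by
  obtain ⟨b, hb⟩ := h.sq L hL
  exact ⟨⟨lo L.1, b, wd L.1, hL⟩, ⟨L, hb⟩, hb, rfl⟩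

/-- the component containing the square -/
theorem exists_cmp {Q : Sqr} (hQ : Q ∈ sqs F) : ∃ L : Cmp F, SqK L.1 Q.x Q.y Q.s := hQ

theorem cmp_unique {L L' : Cmp F} {p : ℝ × ℝ} (h : p ∈ setR L.1) (h' : p ∈ setR L'.1) :
    L = L' := (L.eq_of_mem h).trans (L'.eq_of_mem h').symm

theorem eq_cmp {L L' : Cmp F} {Q : Sqr} (h : Q.car ⊆ setR L.1) (h' : SqK L'.1 Q.x Q.y Q.s) :
    L = L' := by
  obtain ⟨p, hp⟩ := Q.nonempty
  exact cmp_unique (h hp) (sqK_car h' hp)

/-- a square which meets a component -/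
theorem eq_cmp' {L L' : Cmp F} {Q : Sqr} (h : (setR L.1 ∩ Q.car).Nonempty)
    (h' : SqK L'.1 Q.x Q.y Q.s) : L = L' := by
  obtain ⟨p, hp, hp'⟩ := h
  exact cmp_unique hp (sqK_car h' hp')

theorem sub_cmp {P : Set (ℝ × ℝ)} (hP : P ⊆ setR F) (hc : IsPreconnected P) {L : Cmp F}
    (h : (P ∩ setR L.1).Nonempty) : P ⊆ setR L.1 := by
  obtain ⟨p, hp, hpL⟩ := h
  have h1 : P ⊆ connectedComponentIn (setR F) p := hc.subset_connectedComponentIn hp hP
  rw [cc_setR (hP hp)] at h1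
  have := congrArg Subtype.val (L.eq_of_mem hpL)
  rw [this]
  exact h1

/-! ### attached parts are null -/

theorem volume_attached {L : Cmp F} (hF : IsCompact F) {Q : Sqr} (h : SqK L.1 Q.x Q.y Q.s) :
    volume (setR L.1 \ Q.car) = 0 := by
  have hm : MeasurableSet (setR L.1 \ Q.car) :=
    (isCompact_setR (L.isCompact hF)).measurableSet.diff Q.isCompact_car.measurableSet
  rw [Measure.volume_eq_prod, Measure.measure_prod_null hm]
  filter_upwards [h.ae] with t ht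
  have : Prod.mk t ⁻¹' (setR L.1 \ Q.car) = ∅ := by
    ext y
    simp only [mem_preimage, Set.mem_sdiff, mem_empty_iff_false, iff_false, not_and, not_not]
    intro hy
    have hy' : (⟨t, y⟩ : ℂ) ∈ L.1 := hy
    have h1 := h.re_mem _ hy'
    have h2 : y ∈ sec L.1 t := hy'
    rw [ht h1] at h2
    exact ⟨h1, h2⟩
  rw [this, measure_empty]
  rfl

/-! ### `QPic` -/

theorem qPic (h : PicT F) : QPic (setR F) (sqs F) (hrs F) where
  cpt := isCompact_setR h.cpt
  sub := by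
    rintro Q ⟨L, hL⟩ p hp
    exact L.subset (sqK_car hL hp)
  hsub := fun K hK => hK.1
  sep := by
    rintro P hP hc Q ⟨L, hL⟩ Q' ⟨L', hL'⟩ h1 h2
    obtain ⟨p, hp, hpQ⟩ := h1
    obtain ⟨q, hq, hqQ⟩ := h2
    have h3 : P ⊆ setR L.1 := sub_cmp hP hc ⟨p, hp, sqK_car hL hpQ⟩
    have h4 : L = L' := cmp_unique (h3 hq) (sqK_car hL' hqQ)
    subst h4
    exact sqK_unique h.cpt hL hL'
  null := by
    have hc : Countable (Sol F) := Pct_185.countable_sol h.sum
    refine measure_mono_null (t := setR (F \ ⋃ L : Sol F, L.1.1) ∪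
      ⋃ L : Sol F, ⋃ Q ∈ {Q ∈ sqs F | SqK L.1.1 Q.x Q.y Q.s}, (setR L.1.1 \ Q.car)) ?_ ?_
    · rintro p ⟨hp, hpQ⟩
      by_cases h1 : p ∈ setR (F \ ⋃ L : Sol F, L.1.1)
      · exact Or.inl h1
      · right
        have h2 : (⟨p.1, p.2⟩ : ℂ) ∈ ⋃ L : Sol F, L.1.1 := by
          by_contra hcon
          exact h1 ⟨hp, hcon⟩
        obtain ⟨L, hL⟩ := mem_iUnion.1 h2
        obtain ⟨Q, hQ, hQL, -⟩ := exists_sqr h L.2
        refine mem_iUnion.2 ⟨L, mem_iUnion₂.2 ⟨Q, ⟨hQ, hQL⟩, hL, fun hc => hpQ ?_⟩⟩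
        exact mem_iUnion₂.2 ⟨Q, hQ, hc⟩
    · refine measure_union_null ?_ (measure_iUnion_null fun L => ?_)
      · rw [volume_setR]; exact h.null
      · have hs : {Q ∈ sqs F | SqK L.1.1 Q.x Q.y Q.s}.Subsingleton :=
          fun Q hQ Q' hQ' => sqK_unique h.cpt hQ.2 hQ'.2
        exact (measure_biUnion_null_iff hs.countable).2 fun Q hQ => volume_attached h.cpt hQ.2

/-! ### the components -/

/-- a component of width zero is a point or a vertical segment -/
theorem flat_cases (hF : IsCompact F) {L : Cmp F} (hL : wd L.1 = 0) :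
    (∃ p, setR L.1 = {p}) ∨ ∃ K : Hair, setR L.1 = K.car := by
  have hLc := L.isCompact hF
  obtain ⟨p, hp, hpl⟩ := exists_lo hLc L.nonempty
  have hre : ∀ q ∈ L.1, q.re = lo L.1 := by
    intro q hq
    have h1 := lo_le hLc hq
    have h2 := le_hi hLc hq
    unfold wd at hL
    linarith
  set S : Set ℝ := Complex.im '' L.1 with hS
  have hSc : IsCompact S := hLc.image Complex.continuous_im
  have hSne : S.Nonempty := L.nonempty.image _
  have hSo : OrdConnected S := (L.preconn.image _ Complex.continuous_im.continuousOn).ordConnected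
  set b := sInf S with hb
  set t := sSup S with ht
  have hbS : b ∈ S := hSc.sInf_mem hSne
  have htS : t ∈ S := hSc.sSup_mem hSne
  have hSI : S = Icc b t := by
    refine Subset.antisymm (fun y hy => ⟨csInf_le hSc.bddBelow hy, le_csSup hSc.bddAbove hy⟩) ?_
    exact hSo.out hbS htS
  have hmem : ∀ q : ℝ × ℝ, q ∈ setR L.1 ↔ q.1 = lo L.1 ∧ b ≤ q.2 ∧ q.2 ≤ t := by
    intro q
    constructor
    · intro hq
      have h1 : (⟨q.1, q.2⟩ : ℂ) ∈ L.1 := hq
      have h2 : q.2 ∈ S := ⟨_, h1, rfl⟩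
      rw [hSI] at h2
      exact ⟨hre _ h1, h2.1, h2.2⟩
    · rintro ⟨h1, h2⟩
      have h3 : q.2 ∈ S := by rw [hSI]; exact h2
      obtain ⟨w, hw, hwq⟩ := h3
      have h4 : w = ⟨q.1, q.2⟩ := Complex.ext (by rw [hre w hw, h1]) hwq
      show (⟨q.1, q.2⟩ : ℂ) ∈ L.1
      rw [← h4]; exact hw
  have hbt : b ≤ t := by
    have := hbS; rw [hSI] at this; exact this.2
  rcases eq_or_lt_of_le hbt with h1 | h1
  · left
    refine ⟨(lo L.1, b), ?_⟩
    ext q
    rw [hmem, mem_singleton_iff]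
    constructor
    · rintro ⟨h2, h3, h4⟩
      exact Prod.ext h2 (le_antisymm (h1 ▸ h4) h3)
    · rintro rfl
      exact ⟨rfl, le_rfl, h1.le⟩
  · right
    refine ⟨⟨lo L.1, b, t, h1⟩, ?_⟩
    ext q
    rw [hmem, Hair.mem_car]

/-- **`PicT` (185) gives `PicS` (992)** -/
theorem picS (h : PicT F) : PicS (setR F) (sqs F) (hrs F) where
  q := qPic h
  att := fun K hK Q hQ => hK.2 Q hQ
  comp := by
    intro P hP
    obtain ⟨L, rfl⟩ := mem_comps.1 hP
    have hLc := L.isCompact h.cpt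
    have hw0 : 0 ≤ wd L.1 := by
      have := lo_le_hi hLc L.nonempty
      unfold wd; linarith
    rcases hw0.eq_or_lt with hw | hw
    · rcases flat_cases h.cpt hw.symm with h1 | ⟨K, hK⟩
      · exact Or.inl h1
      · refine Or.inr (Or.inl ⟨K, ⟨?_, ?_⟩, hK⟩)
        · rw [← hK]
          exact fun p hp => L.subset hp
        · rintro Q ⟨L', hL'⟩ hne
          exfalso
          rw [← hK] at hne
          have h1 := eq_cmp' hne hL'
          subst h1
          have h2 := sqK_wd h.cpt hL'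
          have h3 := Q.hs
          linarith
    · obtain ⟨Q, hQ, hQL, -⟩ := exists_sqr h hw
      refine Or.inr (Or.inr ⟨Q, hQ, sqK_car hQL, fun p hp hpQ => ?_⟩)
      have hpL : (⟨p.1, p.2⟩ : ℂ) ∈ L.1 := hp
      have hre := hQL.re_mem _ hpL
      have him : ¬ (Q.y ≤ p.2 ∧ p.2 ≤ Q.y + Q.s) := fun hc => hpQ ⟨hre, hc⟩
      have hord := h.ord L p.1
      have hatt : ∀ K : Hair, K.car ⊆ setR L.1 → (K.b = Q.y + Q.s ∨ K.t = Q.y) → K ∈ hrs F := by
        intro K hK hb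
        refine ⟨hK.trans fun q hq => L.subset hq, ?_⟩
        rintro Q' ⟨L', hL'⟩ hne
        have h1 : (setR L.1 ∩ Q'.car).Nonempty := hne.mono (inter_subset_inter_left _ hK)
        have h2 := eq_cmp' h1 hL'
        subst h2
        have h3 := sqK_unique h.cpt hQL hL'
        subst h3
        exact hb
      have hs := Q.hs
      by_cases hc : Q.y ≤ p.2
      · have hlt : Q.y + Q.s < p.2 := by
          by_contra hcon
          exact him ⟨hc, not_lt.1 hcon⟩
        have hfoot : Q.y + Q.s ∈ sec L.1 p.1 :=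
          hQL.sub ⟨p.1, Q.y + Q.s⟩ hre ⟨by simp only; linarith, le_rfl⟩
        have hcar : (⟨p.1, Q.y + Q.s, p.2, hlt⟩ : Hair).car ⊆ setR L.1 := by
          rintro ⟨q1, q2⟩ ⟨h1, h2, h3⟩
          simp only at h1 h2 h3
          subst h1
          exact hord.out hfoot hpL ⟨h2, h3⟩
        exact ⟨_, hatt _ hcar (Or.inl rfl), hcar, ⟨rfl, hlt.le, le_rfl⟩,
          ⟨(p.1, Q.y + Q.s), ⟨rfl, le_rfl, hlt.le⟩, hre, ⟨by simp only; linarith, le_rfl⟩⟩⟩
      · have hlt : p.2 < Q.y := not_le.1 hc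
        have hfoot : Q.y ∈ sec L.1 p.1 :=
          hQL.sub ⟨p.1, Q.y⟩ hre ⟨le_rfl, by simp only; linarith⟩
        have hcar : (⟨p.1, p.2, Q.y, hlt⟩ : Hair).car ⊆ setR L.1 := by
          rintro ⟨q1, q2⟩ ⟨h1, h2, h3⟩
          simp only at h1 h2 h3
          subst h1
          exact hord.out hpL hfoot ⟨h2, h3⟩
        exact ⟨_, hatt _ hcar (Or.inr rfl), hcar, ⟨rfl, le_rfl, hlt.le⟩,
          ⟨(p.1, Q.y), ⟨rfl, hlt.le, le_rfl⟩, hre, ⟨le_rfl, by simp only; linarith⟩⟩⟩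

/-- **no cuttable segments: every component is a point or a closed square** -/
theorem sq_of_no_hairs (h : PicT F) (h0 : hrs F = ∅) {z : ℂ} (hz : z ∈ F) :
    ∃ (c : ℂ) (s : ℝ), 0 ≤ s ∧ connectedComponentIn F z = Top1_8.Sq c s := by
  have hP : setR (connectedComponentIn F z) ∈ Comps (setR F) := mem_comps.2 ⟨Cmp.of hz, rfl⟩
  have hinj : ∀ {A B : Set ℂ}, setR A = setR B → A = B := by
    intro A B hAB
    rw [← Tra_937.setC_setR A, hAB, Tra_937.setC_setR]
  rcases (picS h).comp _ hP with ⟨p, hp⟩ | ⟨K, hK, -⟩ | ⟨Q, hQ, hQP, h1⟩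
  · refine ⟨⟨p.1, p.2⟩, 0, le_rfl, ?_⟩
    rw [Top1_8.sq_zero]
    apply hinj
    rw [hp]
    ext q
    rw [mem_singleton_iff, mem_setR, mem_singleton_iff, Complex.ext_iff, Prod.ext_iff]
  · rw [h0] at hK
    exact absurd hK (notMem_empty _)
  · have hs := Q.hs
    refine ⟨⟨Q.x + Q.s / 2, Q.y + Q.s / 2⟩, Q.s / 2, by linarith, ?_⟩
    apply hinj
    have h2 : setR (connectedComponentIn F z) = Q.car := by
      refine Subset.antisymm (fun p hp => ?_) hQP
      by_contra hcon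
      obtain ⟨K, hK, -⟩ := h1 p hp hcon
      rw [h0] at hK
      exact absurd hK (notMem_empty _)
    rw [h2]
    ext q
    simp only [mem_setR, Top1_8.Sq, mem_ofPred_eq, abs_le, Sqr.mem_car]
    constructor
    · rintro ⟨⟨a, b⟩, c, d⟩
      exact ⟨⟨by linarith, by linarith⟩, by linarith, by linarith⟩
    · rintro ⟨⟨a, b⟩, c, d⟩
      exact ⟨⟨by linarith, by linarith⟩, by linarith, by linarith⟩

end

end Crest.Agent.R105.Ta_937
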