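import Crest.Agent.R105.Bvl2_31
import Crest.Agent.R105.Sqr6_185

/-!
# Row 105, S0138, node E13: THE TAIL LEMMA (helper6)

`E` compact, complement an exterior domain, sections of the components are intervals, `f` locally
Lipschitz off `E`, square summable widths and jumps of `f`.
For a.e. `t`: if `f` has the limit `xe` at the top (bottom) of the section of the component `L` over
`t`, then the tail of the line above (below) `L`, together with all the components it meets, is a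
connected saturated set on which `re` is close to `t` and `f` close to `xe` (envelopes).
-/

set_option autoImplicit false

open MeasureTheory Set Filter Topology Metric
open scoped ENNReal NNReal

namespace Crest.Agent.R105.Tail_6

open Bd_775 Tc_808 Ni_459 Nip_31 Ends_897 Crest.AnalysisR
open Sqr_185 (sec wd)

noncomputable section

variable {E : Set ℂ} {f : ℂ → ℝ}

/-- the piece of the line over `t` with heights in `J` -/
def Tl (t : ℝ) (J : Set ℝ) : Set ℂ := {z | z.re = t ∧ z.im ∈ J}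

theorem mem_Tl {t : ℝ} {J : Set ℝ} {v : ℝ} (hv : v ∈ J) : (⟨t, v⟩ : ℂ) ∈ Tl t J := ⟨rfl, hv⟩

theorem Tl_eq {t : ℝ} {J : Set ℝ} : Tl t J = (fun v : ℝ => (⟨t, v⟩ : ℂ)) '' J := by
  ext z
  constructor
  · rintro ⟨h1, h2⟩
    exact ⟨z.im, h2, Complex.ext h1.symm rfl⟩
  · rintro ⟨v, hv, rfl⟩
    exact ⟨rfl, hv⟩

theorem cont_line (t : ℝ) : Continuous fun v : ℝ => (⟨t, v⟩ : ℂ) := by
  have : (fun y : ℝ => (⟨t, y⟩ : ℂ)) = fun y : ℝ => (t : ℂ) + y * Complex.I := by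
    ext y; apply Complex.ext <;> simp
  rw [this]; fun_prop

theorem isPreconnected_Tl {t : ℝ} {J : Set ℝ} (hJ : IsPreconnected J) :
    IsPreconnected (Tl t J) := by
  rw [Tl_eq]
  exact hJ.image _ (cont_line t).continuousOn

theorem cc_St (R : Set ℂ) : ∀ z ∈ Vb_818.St E R, connectedComponentIn E z ⊆ Vb_818.St E R := by
  intro z hz w hw
  have hzE : z ∈ E := by
    by_contra hzE
    rw [connectedComponentIn_eq_empty hzE] at hw; exact hw.elim
  have e : connectedComponentIn E z = connectedComponentIn E w := connectedComponentIn_eq hw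
  rcases hz with h | ⟨x, hx, hxR⟩
  · exact Or.inr ⟨z, by rw [← e]; exact mem_connectedComponentIn hzE, h⟩
  · exact Or.inr ⟨x, by rw [← e]; exact hx, hxR⟩

theorem isPreconnected_St {R : Set ℂ} (hR : IsPreconnected R) : IsPreconnected (Vb_818.St E R) := by
  rcases R.eq_empty_or_nonempty with rfl | ⟨p, hp⟩
  · have : Vb_818.St E ∅ = ∅ := by
      ext z; simp [Vb_818.St]
    rw [this]; exact isPreconnected_empty
  refine isPreconnected_of_forall p fun y hy => ?_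
  rcases hy with h | ⟨x, hx, hxR⟩
  · exact ⟨R, fun z hz => Or.inl hz, hp, h, hR⟩
  · have hyE : y ∈ E := by
      by_contra hyE
      rw [connectedComponentIn_eq_empty hyE] at hx; exact hx.elim
    refine ⟨R ∪ connectedComponentIn E y, ?_, Or.inl hp,
      Or.inr (mem_connectedComponentIn hyE), hR.union x hxR hx isPreconnected_connectedComponentIn⟩
    refine union_subset (fun z hz => Or.inl hz) fun z hz => ?_
    exact Or.inr ⟨x, by rw [← connectedComponentIn_eq hz]; exact hx, hxR⟩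

/-- on a.e. line only finitely many components with a large jump -/
theorem ae_finite (hE : IsCompact E) (hs : Summable fun L : Cmp E => wd L.1 ^ 2) {c : Cmp E → ℝ}
    (hc : Summable fun L : Cmp E => c L ^ 2) :
    ∀ᵐ t : ℝ, ∀ δ > 0, {L : Cmp E | (sec L.1 t).Nonempty ∧ δ ≤ c L}.Finite := by
  classical
  set S : Set (Cmp E) := {L | c L ≠ 0} with hS
  have hSc : S.Countable := hc.countable_support.mono fun L hL => by
    have h0 : c L ≠ 0 := hL
    exact pow_ne_zero 2 h0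
  have : Countable S := hSc.to_subtype
  set g : S → ℝ → ℝ≥0∞ := fun L t =>
    (Icc (Sqr_185.lo L.1.1) (Sqr_185.hi L.1.1)).indicator (fun _ => ENNReal.ofReal (c L.1)) t with hg
  have hgm : ∀ L, Measurable (g L) := fun L => measurable_const.indicator measurableSet_Icc
  have hint : ∀ L : S, ∫⁻ t, g L t ≤ ENNReal.ofReal (c L.1 ^ 2 + wd L.1.1 ^ 2) := by
    intro L
    have h1 : ∫⁻ t, g L t = ENNReal.ofReal (c L.1) * ENNReal.ofReal (wd L.1.1) := by
      simp only [hg]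
      rw [lintegral_indicator_const measurableSet_Icc, Real.volume_Icc]
      rfl
    rw [h1]
    rcases le_total (c L.1) 0 with h0 | h0
    · rw [ENNReal.ofReal_of_nonpos h0, zero_mul]; exact zero_le
    · rw [← ENNReal.ofReal_mul h0]
      refine ENNReal.ofReal_le_ofReal ?_
      nlinarith [sq_nonneg (c L.1 - wd L.1.1), sq_nonneg (c L.1), sq_nonneg (wd L.1.1)]
  have hfin : ∫⁻ t, ∑' L : S, g L t ≠ ∞ := by
    rw [lintegral_tsum fun L => (hgm L).aemeasurable]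
    refine ne_top_of_le_ne_top ?_ (ENNReal.tsum_le_tsum hint)
    have h2 : Summable fun L : S => c L.1 ^ 2 + wd L.1.1 ^ 2 :=
      (hc.add hs).comp_injective Subtype.val_injective
    exact h2.tsum_ofReal_ne_top
  have hae := ae_lt_top (Measurable.tsum hgm) hfin
  filter_upwards [hae] with t ht δ hδ
  have h1 := ENNReal.finite_const_le_of_tsum_ne_top ht.ne (ε := ENNReal.ofReal δ)
    (by simpa using hδ)
  refine (h1.image Subtype.val).subset ?_
  rintro L ⟨⟨v, hv⟩, hL2⟩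
  have hLS : L ∈ S := ne_of_gt (lt_of_lt_of_le hδ hL2)
  refine ⟨⟨L, hLS⟩, ?_, rfl⟩
  have hLc := L.isCompact hE
  have h3 : t ∈ Icc (Sqr_185.lo L.1) (Sqr_185.hi L.1) :=
    ⟨Sqr_185.lo_le hLc (show (⟨t, v⟩ : ℂ) ∈ L.1 from hv),
      Sqr_185.le_hi hLc (show (⟨t, v⟩ : ℂ) ∈ L.1 from hv)⟩
  show ENNReal.ofReal δ ≤ g ⟨L, hLS⟩ t
  simp only [hg]
  rw [indicator_of_mem h3]
  exact ENNReal.ofReal_le_ofReal hL2

/-- points off `E` just below a component -/
theorem exists_below {K : Cmp E} {t c e : ℝ} (hc : (⟨t, c⟩ : ℂ) ∈ K.1) (hlt : e < c)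
    (hno : ∀ v ∈ Ioo e c, (⟨t, v⟩ : ℂ) ∉ K.1) : ∃ v ∈ Ioo e c, (⟨t, v⟩ : ℂ) ∉ E := by
  by_contra hcon
  push Not at hcon
  have hcE : (⟨t, c⟩ : ℂ) ∈ E := K.subset hc
  have h1 : Tl t (Ioc e c) ⊆ E := by
    rintro z ⟨hz1, hz2, hz3⟩
    rcases hz3.lt_or_eq with h | h
    · have := hcon z.im ⟨hz2, h⟩
      rwa [show (⟨t, z.im⟩ : ℂ) = z from Complex.ext hz1.symm rfl] at this
    · rwa [show (⟨t, c⟩ : ℂ) = z from Complex.ext hz1.symm h.symm] at hcE
  have h2 : Tl t (Ioc e c) ⊆ K.1 := by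
    have h3 := (isPreconnected_Tl (t := t) (J := Ioc e c) isPreconnected_Ioc).subset_connectedComponentIn
      (mem_Tl (right_mem_Ioc.2 hlt)) h1
    rw [K.eq_of_mem hc]
    exact h3
  exact hno ((e + c) / 2) ⟨by linarith, by linarith⟩ (h2 (mem_Tl ⟨by linarith, by linarith⟩))

/-- points off `E` just above a component -/
theorem exists_above {K : Cmp E} {t c e : ℝ} (hc : (⟨t, c⟩ : ℂ) ∈ K.1) (hlt : c < e)
    (hno : ∀ v ∈ Ioo c e, (⟨t, v⟩ : ℂ) ∉ K.1) : ∃ v ∈ Ioo c e, (⟨t, v⟩ : ℂ) ∉ E := by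
  by_contra hcon
  push Not at hcon
  have hcE : (⟨t, c⟩ : ℂ) ∈ E := K.subset hc
  have h1 : Tl t (Ico c e) ⊆ E := by
    rintro z ⟨hz1, hz2, hz3⟩
    rcases hz2.lt_or_eq with h | h
    · have := hcon z.im ⟨h, hz3⟩
      rwa [show (⟨t, z.im⟩ : ℂ) = z from Complex.ext hz1.symm rfl] at this
    · rwa [show (⟨t, c⟩ : ℂ) = z from Complex.ext hz1.symm h] at hcE
  have h2 : Tl t (Ico c e) ⊆ K.1 := by
    have h3 := (isPreconnected_Tl (t := t) (J := Ico c e) isPreconnected_Ico).subset_connectedComponentIn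
      (mem_Tl (left_mem_Ico.2 hlt)) h1
    rw [K.eq_of_mem hc]
    exact h3
  exact hno ((c + e) / 2) ⟨by linarith, by linarith⟩ (h2 (mem_Tl ⟨by linarith, by linarith⟩))

/-- **core**: a piece of a line with small jumps -/
theorem tail_core (hE : IsExteriorDomain Eᶜ) (hf : LocallyLipschitzOn Eᶜ f) (hfb : LB f) {t : ℝ}
    {J : Set ℝ} {t1 t2 r1 r2 δ : ℝ} (hδ : 0 < δ) (ht1 : t1 + δ < t)
    (ht2 : t + δ < t2) (hV : ∀ v ∈ J, (⟨t, v⟩ : ℂ) ∉ E → r1 + δ < f ⟨t, v⟩ ∧ f ⟨t, v⟩ < r2 - δ)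
    (hK : ∀ K : Cmp E, ∀ v ∈ J, (⟨t, v⟩ : ℂ) ∈ K.1 → osp E f (pt K) < δ ∧ wd K.1 < δ ∧
      ∀ O, IsOpen O → K.1 ⊆ O → ∃ w ∈ J, (⟨t, w⟩ : ℂ) ∉ E ∧ (⟨t, w⟩ : ℂ) ∈ O) :
    ∀ z ∈ Vb_818.St E (Tl t J), t1 < lo E (fun w => w.re) z ∧ up E (fun w => w.re) z < t2 ∧
      r1 < lo E f z ∧ up E f z < r2 := by
  intro z hz
  have hEc : IsCompact E := cpt_of hE
  have hre : LB (fun w : ℂ => w.re) := Vb_818.lb_re
  by_cases hzE : z ∈ E
  · -- a component
    obtain ⟨x, hx, hxT⟩ : ∃ x ∈ connectedComponentIn E z, x ∈ Tl t J := by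
      rcases hz with h | h
      · exact ⟨z, mem_connectedComponentIn hzE, h⟩
      · exact h
    set K : Cmp E := Cmp.of hzE with hKd
    have hKe : K.1 = connectedComponentIn E z := rfl
    have hxK : (⟨t, x.im⟩ : ℂ) ∈ K.1 := by
      rw [show (⟨t, x.im⟩ : ℂ) = x from Complex.ext hxT.1.symm rfl]; exact hx
    obtain ⟨h1, h2, h3⟩ := hK K x.im hxT.2 hxK
    have hzK : pt K ∈ connectedComponentIn E z := pt_mem K
    have e1 : up E f (pt K) = up E f z := up_congr_cc hzE hzK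
    have e2 : lo E f (pt K) = lo E f z := lo_congr_cc hzE hzK
    unfold osp at h1
    rw [e1, e2] at h1
    have hKc := K.isCompact hEc
    have hKre : ∀ p ∈ K.1, |p.re - t| ≤ wd K.1 := by
      intro p hp
      have g1 := Sqr_185.lo_le hKc hp
      have g2 := Sqr_185.le_hi hKc hp
      have g3 := Sqr_185.lo_le hKc hxK
      have g4 := Sqr_185.le_hi hKc hxK
      simp only at g3 g4
      have : wd K.1 = Sqr_185.hi K.1 - Sqr_185.lo K.1 := rfl
      rw [this, abs_le]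
      constructor <;> linarith
    refine ⟨?_, ?_, ?_, ?_⟩
    · have hnb : Nb E z {w : ℂ | t - δ < w.re} := by
        refine nb_of_mem hzE (isOpen_lt continuous_const Complex.continuous_re) fun p hp => ?_
        have := (abs_le.1 (hKre p hp)).1
        show t - δ < p.re
        linarith
      have h4 := le_lo (c := t - δ) hE hre hnb fun w hw _ => le_of_lt hw
      linarith
    · have hnb : Nb E z {w : ℂ | w.re < t + δ} := by
        refine nb_of_mem hzE (isOpen_lt Complex.continuous_re continuous_const) fun p hp => ?_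
        have := (abs_le.1 (hKre p hp)).2
        show p.re < t + δ
        linarith
      have h4 := up_le (c := t + δ) hE hre hnb fun w hw _ => le_of_lt hw
      linarith
    · have h5 : r1 + δ ≤ up E f z := by
        by_contra hcon
        obtain ⟨O, hO, h6⟩ := exists_lt_of_up_lt hE hfb (not_le.1 hcon)
        obtain ⟨w, hw, hwE, hwO⟩ := h3 O hO.op hO.sub
        exact lt_asymm (h6 _ hwO hwE) (hV w hw hwE).1
      linarith
    · have h5 : lo E f z ≤ r2 - δ := by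
        by_contra hcon
        obtain ⟨O, hO, h6⟩ := exists_gt_of_lt_lo hE hfb (not_le.1 hcon)
        obtain ⟨w, hw, hwE, hwO⟩ := h3 O hO.op hO.sub
        exact lt_asymm (h6 _ hwO hwE) (hV w hw hwE).2
      linarith
  · -- a point of the line
    have hzT : z ∈ Tl t J := by
      rcases hz with h | ⟨x, hx, -⟩
      · exact h
      · rw [connectedComponentIn_eq_empty hzE] at hx; exact hx.elim
    have hop : IsOpen Eᶜ := hEc.isClosed.isOpen_compl
    have hcr : ContinuousAt (fun w : ℂ => w.re) z := Complex.continuous_re.continuousAt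
    have hcf : ContinuousAt f z := hf.continuousOn.continuousAt (hop.mem_nhds hzE)
    rw [lo_of_notMem hE hre hzE hcr, up_of_notMem hE hre hzE hcr, lo_of_notMem hE hfb hzE hcf,
      up_of_notMem hE hfb hzE hcf]
    have e : (⟨t, z.im⟩ : ℂ) = z := Complex.ext hzT.1.symm rfl
    have h1 := hV z.im hzT.2 (by rw [e]; exact hzE)
    rw [e] at h1
    have h2 := hzT.1
    refine ⟨by linarith, by linarith, by linarith [h1.1], by linarith [h1.2]⟩

/-- the section is compact -/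
theorem isCompact_sec {K : Set ℂ} (hK : IsCompact K) (t : ℝ) : IsCompact (sec K t) := by
  have h1 : IsClosed (sec K t) := hK.isClosed.preimage (cont_line t)
  obtain ⟨R, hR⟩ := hK.isBounded.exists_norm_le
  refine Metric.isCompact_of_isClosed_isBounded h1 (isBounded_iff_forall_norm_le.2 ⟨R, fun v hv => ?_⟩)
  have h2 := hR _ (show (⟨t, v⟩ : ℂ) ∈ K from hv)
  have h3 := Complex.abs_im_le_norm (⟨t, v⟩ : ℂ)
  rw [Real.norm_eq_abs]
  exact h3.trans h2

section ends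

variable (hE : IsExteriorDomain Eᶜ) (hord : ∀ L : Cmp E, ∀ t, OrdConnected (sec L.1 t))
  (hs : Summable fun L : Cmp E => wd L.1 ^ 2) (hf : LocallyLipschitzOn Eᶜ f) (hfb : LB f)
  (hfs : Summable fun L : Cmp E => osp E f (pt L) ^ 2)
include hE hord hs hf hfb hfs

/-- what a tail over `J` at the component `L` satisfies -/
def GoodTail (E : Set ℂ) (f : ℂ → ℝ) (L : Set ℂ) (t : ℝ) (J : Set ℝ) (t1 t2 r1 r2 : ℝ) : Prop :=
  IsPreconnected (Vb_818.St E (Tl t J)) ∧ Disjoint (Vb_818.St E (Tl t J)) L ∧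
  (∀ z ∈ Vb_818.St E (Tl t J), connectedComponentIn E z ⊆ Vb_818.St E (Tl t J)) ∧
  ∀ z ∈ Vb_818.St E (Tl t J), t1 < lo E (fun w => w.re) z ∧ up E (fun w => w.re) z < t2 ∧
    r1 < lo E f z ∧ up E f z < r2

/-- **the tail lemma, top** -/
theorem tail_top : ∀ᵐ t : ℝ, ∀ L : Cmp E, (sec L.1 t).Nonempty → ∀ xe : ℝ,
    Tendsto (fun v : ℝ => f ⟨t, v⟩)
      (𝓝[{v | (⟨t, v⟩ : ℂ) ∉ E} ∩ Ioi (sSup (sec L.1 t))] (sSup (sec L.1 t))) (𝓝 xe) →
    ∀ t1 < t, ∀ t2 > t, ∀ r1 < xe, ∀ r2 > xe, ∃ η > 0, ∀ η', 0 < η' → η' ≤ η →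
      GoodTail E f L.1 t (Ioo (sSup (sec L.1 t)) (sSup (sec L.1 t) + η')) t1 t2 r1 r2 := by
  have hEc : IsCompact E := cpt_of hE
  filter_upwards [ae_finite hEc hs hfs, ae_finite hEc hs hs] with t hB1 hB2 L hL xe hlim t1 ht1 t2
    ht2 r1 hr1 r2 hr2
  set T := sSup (sec L.1 t) with hT
  have hLc := L.isCompact hEc
  have hsc := isCompact_sec hLc t
  have hTm : T ∈ sec L.1 t := hsc.sSup_mem hL
  have hTmax : ∀ v ∈ sec L.1 t, v ≤ T := fun v hv => le_csSup hsc.bddAbove hv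
  obtain ⟨δ, hδ, d1, d2, d3, d4⟩ : ∃ δ > 0, t1 + δ < t ∧ t + δ < t2 ∧ r1 + δ < xe ∧ xe < r2 - δ := by
    refine ⟨min (min (t - t1) (t2 - t)) (min (xe - r1) (r2 - xe)) / 2, ?_, ?_, ?_, ?_, ?_⟩
    · have : 0 < min (min (t - t1) (t2 - t)) (min (xe - r1) (r2 - xe)) :=
        lt_min (lt_min (by linarith) (by linarith)) (lt_min (by linarith) (by linarith))
      linarith
    all_goals
      have g1 : min (min (t - t1) (t2 - t)) (min (xe - r1) (r2 - xe)) ≤ t - t1 :=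
        (min_le_left _ _).trans (min_le_left _ _)
      have g2 : min (min (t - t1) (t2 - t)) (min (xe - r1) (r2 - xe)) ≤ t2 - t :=
        (min_le_left _ _).trans (min_le_right _ _)
      have g3 : min (min (t - t1) (t2 - t)) (min (xe - r1) (r2 - xe)) ≤ xe - r1 :=
        (min_le_right _ _).trans (min_le_left _ _)
      have g4 : min (min (t - t1) (t2 - t)) (min (xe - r1) (r2 - xe)) ≤ r2 - xe :=
        (min_le_right _ _).trans (min_le_right _ _)
      linarith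
  -- bad components
  have hδ2 : 0 < δ ^ 2 := by positivity
  set B : Set (Cmp E) := ({K : Cmp E | (sec K.1 t).Nonempty ∧ δ ≤ osp E f (pt K)} ∪
    {K : Cmp E | (sec K.1 t).Nonempty ∧ δ ≤ wd K.1}) \ {L} with hB
  have hBf : B.Finite := ((hB1 δ hδ).union (hB2 δ hδ)).subset sdiff_subset
  have hBc : IsClosed (⋃ K ∈ B, K.1) :=
    hBf.isClosed_biUnion fun K _ => (K.isCompact hEc).isClosed
  have hTB : (⟨t, T⟩ : ℂ) ∉ ⋃ K ∈ B, K.1 := by
    intro h
    simp only [mem_iUnion] at h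
    obtain ⟨K, hK, hK2⟩ := h
    have : K = L := by rw [K.eq_of_mem hK2, L.eq_of_mem (show (⟨t, T⟩ : ℂ) ∈ L.1 from hTm)]
    exact hK.2 this
  have h1 : ∀ᶠ v in 𝓝 T, (⟨t, v⟩ : ℂ) ∉ ⋃ K ∈ B, K.1 :=
    (cont_line t).continuousAt.eventually (hBc.isOpen_compl.mem_nhds hTB)
  obtain ⟨η1, hη1, h1'⟩ := Metric.eventually_nhds_iff.1 h1
  have h2 : ∀ᶠ v in 𝓝[{v | (⟨t, v⟩ : ℂ) ∉ E} ∩ Ioi T] T, f ⟨t, v⟩ ∈ Ioo (r1 + δ) (r2 - δ) :=
    hlim.eventually (Ioo_mem_nhds d3 d4)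
  rw [eventually_nhdsWithin_iff] at h2
  obtain ⟨η2, hη2, h2'⟩ := Metric.eventually_nhds_iff.1 h2
  refine ⟨min η1 η2, lt_min hη1 hη2, fun η hη0 hη => ?_⟩
  have hηa : η ≤ η1 := hη.trans (min_le_left _ _)
  have hηb : η ≤ η2 := hη.trans (min_le_right _ _)
  set J := Ioo T (T + η) with hJ
  have hJd : ∀ v ∈ J, dist v T < η := fun v hv => by
    rw [Real.dist_eq, abs_of_pos (by linarith [hv.1])]; linarith [hv.2]
  have hKL : ∀ K : Cmp E, ∀ v ∈ J, (⟨t, v⟩ : ℂ) ∈ K.1 → K ≠ L := by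
    rintro K v hv hK rfl
    exact absurd (hTmax v hK) (not_le.2 hv.1)
  have hcore := tail_core (E := E) (f := f) (t := t) (J := J) (t1 := t1) (t2 := t2) (r1 := r1)
    (r2 := r2) hE hf hfb hδ d1 d2
    (fun v hv hvE => h2' ((hJd v hv).trans_le hηb) ⟨hvE, hv.1⟩) (fun K v hv hvK => by
      have hne := hKL K v hv hvK
      have hsn : (sec K.1 t).Nonempty := ⟨v, hvK⟩
      have hnB : K ∉ B := by
        intro hKB
        refine h1' ((hJd v hv).trans_le hηa) ?_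
        exact mem_iUnion₂.2 ⟨K, hKB, hvK⟩
      have hnb1 : ¬ δ ≤ osp E f (pt K) := fun h => hnB ⟨Or.inl ⟨hsn, h⟩, hne⟩
      have hnb2 : ¬ δ ≤ wd K.1 := fun h => hnB ⟨Or.inr ⟨hsn, h⟩, hne⟩
      refine ⟨not_le.1 hnb1, not_le.1 hnb2, fun O hO hKO => ?_⟩
      have hKc := isCompact_sec (K.isCompact hEc) t
      set c := sInf (sec K.1 t) with hc
      have hcm : c ∈ sec K.1 t := hKc.sInf_mem hsn
      have hcmin : ∀ w ∈ sec K.1 t, c ≤ w := fun w hw => csInf_le hKc.bddBelow hw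
      have hcT : T < c := by
        by_contra hcon
        have h5 : T ∈ sec K.1 t := (hord K t).out hcm hvK ⟨not_lt.1 hcon, hv.1.le⟩
        exact disjoint_left.1 (Cmp.disjoint hne) (show (⟨t, T⟩ : ℂ) ∈ K.1 from h5) hTm
      have h6 : ∀ᶠ w in 𝓝 c, (⟨t, w⟩ : ℂ) ∈ O :=
        (cont_line t).continuousAt.eventually (hO.mem_nhds (hKO hcm))
      obtain ⟨ε, hε, h6'⟩ := Metric.eventually_nhds_iff.1 h6
      obtain ⟨w, hw, hwE⟩ := exists_below (K := K) (t := t) (c := c) (e := max T (c - ε)) hcm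
        (max_lt hcT (by linarith)) (fun w hw hwK => absurd (hcmin w hwK) (not_le.2 hw.2))
      refine ⟨w, ⟨(le_max_left _ _).trans_lt hw.1, hw.2.trans_le ((hcmin v hvK).trans hv.2.le)⟩,
        hwE, h6' ?_⟩
      rw [Real.dist_eq, abs_sub_comm, abs_of_pos (by linarith [hw.2])]
      linarith [(le_max_right T (c - ε)).trans_lt hw.1])
  refine ⟨isPreconnected_St (isPreconnected_Tl isPreconnected_Ioo), ?_, cc_St _, hcore⟩
  rw [disjoint_left]
  intro z hz hzL
  have hzE : z ∈ E := L.subset hzL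
  obtain ⟨x, hx, hxT⟩ : ∃ x ∈ connectedComponentIn E z, x ∈ Tl t J := by
    rcases hz with h | h
    · exact ⟨z, mem_connectedComponentIn hzE, h⟩
    · exact h
  have hxL : x ∈ L.1 := by rw [L.eq_of_mem hzL]; exact hx
  refine hKL L x.im hxT.2 ?_ rfl
  rw [show (⟨t, x.im⟩ : ℂ) = x from Complex.ext hxT.1.symm rfl]; exact hxL

/-- **the tail lemma, bottom** -/
theorem tail_bot : ∀ᵐ t : ℝ, ∀ L : Cmp E, (sec L.1 t).Nonempty → ∀ xe : ℝ,
    Tendsto (fun v : ℝ => f ⟨t, v⟩)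
      (𝓝[{v | (⟨t, v⟩ : ℂ) ∉ E} ∩ Iio (sInf (sec L.1 t))] (sInf (sec L.1 t))) (𝓝 xe) →
    ∀ t1 < t, ∀ t2 > t, ∀ r1 < xe, ∀ r2 > xe, ∃ η > 0, ∀ η', 0 < η' → η' ≤ η →
      GoodTail E f L.1 t (Ioo (sInf (sec L.1 t) - η') (sInf (sec L.1 t))) t1 t2 r1 r2 := by
  have hEc : IsCompact E := cpt_of hE
  filter_upwards [ae_finite hEc hs hfs, ae_finite hEc hs hs] with t hB1 hB2 L hL xe hlim t1 ht1 t2
    ht2 r1 hr1 r2 hr2
  set T := sInf (sec L.1 t) with hT
  have hLc := L.isCompact hEc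
  have hsc := isCompact_sec hLc t
  have hTm : T ∈ sec L.1 t := hsc.sInf_mem hL
  have hTmin : ∀ v ∈ sec L.1 t, T ≤ v := fun v hv => csInf_le hsc.bddBelow hv
  obtain ⟨δ, hδ, d1, d2, d3, d4⟩ : ∃ δ > 0, t1 + δ < t ∧ t + δ < t2 ∧ r1 + δ < xe ∧ xe < r2 - δ := by
    refine ⟨min (min (t - t1) (t2 - t)) (min (xe - r1) (r2 - xe)) / 2, ?_, ?_, ?_, ?_, ?_⟩
    · have : 0 < min (min (t - t1) (t2 - t)) (min (xe - r1) (r2 - xe)) :=
        lt_min (lt_min (by linarith) (by linarith)) (lt_min (by linarith) (by linarith))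
      linarith
    all_goals
      have g1 : min (min (t - t1) (t2 - t)) (min (xe - r1) (r2 - xe)) ≤ t - t1 :=
        (min_le_left _ _).trans (min_le_left _ _)
      have g2 : min (min (t - t1) (t2 - t)) (min (xe - r1) (r2 - xe)) ≤ t2 - t :=
        (min_le_left _ _).trans (min_le_right _ _)
      have g3 : min (min (t - t1) (t2 - t)) (min (xe - r1) (r2 - xe)) ≤ xe - r1 :=
        (min_le_right _ _).trans (min_le_left _ _)
      have g4 : min (min (t - t1) (t2 - t)) (min (xe - r1) (r2 - xe)) ≤ r2 - xe :=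
        (min_le_right _ _).trans (min_le_right _ _)
      linarith
  set B : Set (Cmp E) := ({K : Cmp E | (sec K.1 t).Nonempty ∧ δ ≤ osp E f (pt K)} ∪
    {K : Cmp E | (sec K.1 t).Nonempty ∧ δ ≤ wd K.1}) \ {L} with hB
  have hBf : B.Finite := ((hB1 δ hδ).union (hB2 δ hδ)).subset sdiff_subset
  have hBc : IsClosed (⋃ K ∈ B, K.1) :=
    hBf.isClosed_biUnion fun K _ => (K.isCompact hEc).isClosed
  have hTB : (⟨t, T⟩ : ℂ) ∉ ⋃ K ∈ B, K.1 := by
    intro h
    simp only [mem_iUnion] at h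
    obtain ⟨K, hK, hK2⟩ := h
    have : K = L := by rw [K.eq_of_mem hK2, L.eq_of_mem (show (⟨t, T⟩ : ℂ) ∈ L.1 from hTm)]
    exact hK.2 this
  have h1 : ∀ᶠ v in 𝓝 T, (⟨t, v⟩ : ℂ) ∉ ⋃ K ∈ B, K.1 :=
    (cont_line t).continuousAt.eventually (hBc.isOpen_compl.mem_nhds hTB)
  obtain ⟨η1, hη1, h1'⟩ := Metric.eventually_nhds_iff.1 h1
  have h2 : ∀ᶠ v in 𝓝[{v | (⟨t, v⟩ : ℂ) ∉ E} ∩ Iio T] T, f ⟨t, v⟩ ∈ Ioo (r1 + δ) (r2 - δ) :=
    hlim.eventually (Ioo_mem_nhds d3 d4)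
  rw [eventually_nhdsWithin_iff] at h2
  obtain ⟨η2, hη2, h2'⟩ := Metric.eventually_nhds_iff.1 h2
  refine ⟨min η1 η2, lt_min hη1 hη2, fun η hη0 hη => ?_⟩
  have hηa : η ≤ η1 := hη.trans (min_le_left _ _)
  have hηb : η ≤ η2 := hη.trans (min_le_right _ _)
  set J := Ioo (T - η) T with hJ
  have hJd : ∀ v ∈ J, dist v T < η := fun v hv => by
    rw [Real.dist_eq, abs_sub_comm, abs_of_pos (by linarith [hv.2])]; linarith [hv.1]
  have hKL : ∀ K : Cmp E, ∀ v ∈ J, (⟨t, v⟩ : ℂ) ∈ K.1 → K ≠ L := by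
    rintro K v hv hK rfl
    exact absurd (hTmin v hK) (not_le.2 hv.2)
  have hcore := tail_core (E := E) (f := f) (t := t) (J := J) (t1 := t1) (t2 := t2) (r1 := r1)
    (r2 := r2) hE hf hfb hδ d1 d2
    (fun v hv hvE => h2' ((hJd v hv).trans_le hηb) ⟨hvE, hv.2⟩) (fun K v hv hvK => by
      have hne := hKL K v hv hvK
      have hsn : (sec K.1 t).Nonempty := ⟨v, hvK⟩
      have hnB : K ∉ B := by
        intro hKB
        refine h1' ((hJd v hv).trans_le hηa) ?_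
        exact mem_iUnion₂.2 ⟨K, hKB, hvK⟩
      have hnb1 : ¬ δ ≤ osp E f (pt K) := fun h => hnB ⟨Or.inl ⟨hsn, h⟩, hne⟩
      have hnb2 : ¬ δ ≤ wd K.1 := fun h => hnB ⟨Or.inr ⟨hsn, h⟩, hne⟩
      refine ⟨not_le.1 hnb1, not_le.1 hnb2, fun O hO hKO => ?_⟩
      have hKc := isCompact_sec (K.isCompact hEc) t
      set c := sSup (sec K.1 t) with hc
      have hcm : c ∈ sec K.1 t := hKc.sSup_mem hsn
      have hcmax : ∀ w ∈ sec K.1 t, w ≤ c := fun w hw => le_csSup hKc.bddAbove hw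
      have hcT : c < T := by
        by_contra hcon
        have h5 : T ∈ sec K.1 t := (hord K t).out hvK hcm ⟨hv.2.le, not_lt.1 hcon⟩
        exact disjoint_left.1 (Cmp.disjoint hne) (show (⟨t, T⟩ : ℂ) ∈ K.1 from h5) hTm
      have h6 : ∀ᶠ w in 𝓝 c, (⟨t, w⟩ : ℂ) ∈ O :=
        (cont_line t).continuousAt.eventually (hO.mem_nhds (hKO hcm))
      obtain ⟨ε, hε, h6'⟩ := Metric.eventually_nhds_iff.1 h6
      obtain ⟨w, hw, hwE⟩ := exists_above (K := K) (t := t) (c := c) (e := min T (c + ε)) hcm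
        (lt_min hcT (by linarith)) (fun w hw hwK => absurd (hcmax w hwK) (not_le.2 hw.1))
      refine ⟨w, ⟨(hv.1.trans_le (hcmax v hvK)).trans hw.1, hw.2.trans_le (min_le_left _ _)⟩,
        hwE, h6' ?_⟩
      rw [Real.dist_eq, abs_of_pos (by linarith [hw.1])]
      linarith [hw.2.trans_le (min_le_right T (c + ε))])
  refine ⟨isPreconnected_St (isPreconnected_Tl isPreconnected_Ioo), ?_, cc_St _, hcore⟩
  rw [disjoint_left]
  intro z hz hzL
  have hzE : z ∈ E := L.subset hzL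
  obtain ⟨x, hx, hxT⟩ : ∃ x ∈ connectedComponentIn E z, x ∈ Tl t J := by
    rcases hz with h | h
    · exact ⟨z, mem_connectedComponentIn hzE, h⟩
    · exact h
  have hxL : x ∈ L.1 := by rw [L.eq_of_mem hzL]; exact hx
  refine hKL L x.im hxT.2 ?_ rfl
  rw [show (⟨t, x.im⟩ : ℂ) = x from Complex.ext hxT.1.symm rfl]; exact hxL

end ends

end

end Crest.Agent.R105.Tail_6
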