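import Crest.Agent.R105.Thin1_891

/-!
Row 105, leaf LIB-THIN (task 2222), part 2: the brick wall (half-shifted grid) of mesh `s` in
`ℝ × ℝ`: cells, unions of cells (`poly s A`), their interiors and closures, connectedness.
At most three cells meet at a point, and two cells which meet share an edge, so the interior of a
connected union of cells is connected.
-/

set_option autoImplicit false

open Set Metric Topology

namespace Crest.Agent.R105.Thin_891

/-- the left end of the brick `a` in the wall of mesh `s`. -/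
noncomputable def lft (s : ℝ) (a : ℤ × ℤ) : ℝ := ((a.1 : ℝ) + (a.2 : ℝ) / 2) * s

/-- closed brick. -/
def cell (s : ℝ) (a : ℤ × ℤ) : Set (ℝ × ℝ) :=
  Icc (lft s a) (lft s a + s) ×ˢ Icc ((a.2 : ℝ) * s) ((a.2 : ℝ) * s + s)

/-- open brick. -/
def ocell (s : ℝ) (a : ℤ × ℤ) : Set (ℝ × ℝ) :=
  Ioo (lft s a) (lft s a + s) ×ˢ Ioo ((a.2 : ℝ) * s) ((a.2 : ℝ) * s + s)

/-- union of the closed bricks with index in `A`. -/
def poly (s : ℝ) (A : Set (ℤ × ℤ)) : Set (ℝ × ℝ) := ⋃ a ∈ A, cell s a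

variable {s : ℝ} {a b : ℤ × ℤ} {A B : Set (ℤ × ℤ)} {z w : ℝ × ℝ}

theorem mem_cell : z ∈ cell s a ↔
    (lft s a ≤ z.1 ∧ z.1 ≤ lft s a + s) ∧ ((a.2 : ℝ) * s ≤ z.2 ∧ z.2 ≤ (a.2 : ℝ) * s + s) :=
  Iff.rfl

theorem mem_ocell : z ∈ ocell s a ↔
    (lft s a < z.1 ∧ z.1 < lft s a + s) ∧ ((a.2 : ℝ) * s < z.2 ∧ z.2 < (a.2 : ℝ) * s + s) :=
  Iff.rfl

theorem mem_poly : z ∈ poly s A ↔ ∃ a ∈ A, z ∈ cell s a := by simp [poly]

theorem isCompact_cell : IsCompact (cell s a) := isCompact_Icc.prod isCompact_Icc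

theorem convex_cell : Convex ℝ (cell s a) := (convex_Icc _ _).prod (convex_Icc _ _)

theorem convex_ocell : Convex ℝ (ocell s a) := (convex_Ioo _ _).prod (convex_Ioo _ _)

theorem isOpen_ocell : IsOpen (ocell s a) := isOpen_Ioo.prod isOpen_Ioo

theorem ocell_subset_cell : ocell s a ⊆ cell s a :=
  prod_mono Ioo_subset_Icc_self Ioo_subset_Icc_self

theorem closure_ocell (hs : 0 < s) : closure (ocell s a) = cell s a := by
  rw [ocell, closure_prod_eq, closure_Ioo (by linarith), closure_Ioo (by linarith)]; rfl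

theorem ocell_nonempty (hs : 0 < s) : (ocell s a).Nonempty :=
  ⟨(lft s a + s / 2, (a.2 : ℝ) * s + s / 2), by
    rw [mem_ocell]; constructor <;> constructor <;> simp <;> linarith⟩

theorem cell_nonempty (hs : 0 < s) : (cell s a).Nonempty :=
  (ocell_nonempty hs).mono ocell_subset_cell

/-- two bricks which meet are equal or neighbours. -/
theorem near_of_lt (hs : 0 < s) (h1 : lft s a < lft s b + s) (h2 : lft s b < lft s a + s)
    (h3 : (a.2 : ℝ) * s < (b.2 : ℝ) * s + s) (h4 : (b.2 : ℝ) * s < (a.2 : ℝ) * s + s) : a = b := by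
  have e : a.2 = b.2 := by
    have h5 : (a.2 : ℝ) < b.2 + 1 := by
      by_contra h; push Not at h; nlinarith
    have h6 : (b.2 : ℝ) < a.2 + 1 := by
      by_contra h; push Not at h; nlinarith
    have h5' : a.2 < b.2 + 1 := by exact_mod_cast h5
    have h6' : b.2 < a.2 + 1 := by exact_mod_cast h6
    omega
  have e' : a.1 = b.1 := by
    unfold lft at h1 h2
    rw [e] at h1 h2
    have h5 : (a.1 : ℝ) < b.1 + 1 := by
      by_contra h; push Not at h; nlinarith
    have h6 : (b.1 : ℝ) < a.1 + 1 := by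
      by_contra h; push Not at h; nlinarith
    have h5' : a.1 < b.1 + 1 := by exact_mod_cast h5
    have h6' : b.1 < a.1 + 1 := by exact_mod_cast h6
    omega
  exact Prod.ext e' e

theorem eq_of_mem_ocell_cell (hs : 0 < s) (h1 : z ∈ ocell s a) (h2 : z ∈ cell s b) : a = b := by
  rw [mem_ocell] at h1
  rw [mem_cell] at h2
  exact near_of_lt hs (by linarith) (by linarith) (by linarith) (by linarith)

theorem disjoint_ocell_cell (hs : 0 < s) (h : a ≠ b) : Disjoint (ocell s a) (cell s b) :=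
  Set.disjoint_left.2 fun _ h1 h2 => h (eq_of_mem_ocell_cell hs h1 h2)

/-- the bricks cover the plane. -/
theorem exists_mem_cell (hs : 0 < s) (z : ℝ × ℝ) : ∃ a, z ∈ cell s a := by
  set j : ℤ := ⌊z.2 / s⌋ with hj
  set i : ℤ := ⌊z.1 / s - (j : ℝ) / 2⌋ with hi
  have h1 : (j : ℝ) ≤ z.2 / s := Int.floor_le _
  have h2 : z.2 / s < j + 1 := Int.lt_floor_add_one _
  have h3 : (i : ℝ) ≤ z.1 / s - (j : ℝ) / 2 := Int.floor_le _
  have h4 : z.1 / s - (j : ℝ) / 2 < i + 1 := Int.lt_floor_add_one _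
  have e1 : z.2 / s * s = z.2 := div_mul_cancel₀ _ hs.ne'
  have e2 : z.1 / s * s = z.1 := div_mul_cancel₀ _ hs.ne'
  refine ⟨(i, j), ?_⟩
  rw [mem_cell]
  simp only [lft]
  refine ⟨⟨?_, ?_⟩, ?_, ?_⟩ <;> nlinarith

theorem dist_le_of_mem_cell (hz : z ∈ cell s a) (hw : w ∈ cell s a) :
    dist z w ≤ s := by
  rw [mem_cell] at hz hw
  rw [Prod.dist_eq, Real.dist_eq, Real.dist_eq]
  refine max_le ?_ ?_ <;> rw [abs_le] <;> constructor <;> linarith

theorem locallyFinite_cell (hs : 0 < s) : LocallyFinite (cell s) := by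
  intro z
  refine ⟨ball z s, ball_mem_nhds z hs, ?_⟩
  set J : ℤ := ⌊z.2 / s⌋
  set I : ℤ := ⌊z.1 / s⌋
  have h1 : (J : ℝ) ≤ z.2 / s := Int.floor_le _
  have h2 : z.2 / s < J + 1 := Int.lt_floor_add_one _
  have h3 : (I : ℝ) ≤ z.1 / s := Int.floor_le _
  have h4 : z.1 / s < I + 1 := Int.lt_floor_add_one _
  have e1 : z.2 / s * s = z.2 := div_mul_cancel₀ _ hs.ne'
  have e2 : z.1 / s * s = z.1 := div_mul_cancel₀ _ hs.ne'
  have hfin : ((Icc (I - |J| - 6) (I + |J| + 6)) ×ˢ (Icc (J - 3) (J + 3)) : Set (ℤ × ℤ)).Finite :=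
    (finite_Icc _ _).prod (finite_Icc _ _)
  refine hfin.subset ?_
  rintro a ⟨w, hw, hwz⟩
  rw [mem_cell] at hw
  rw [mem_ball, Prod.dist_eq, Real.dist_eq, Real.dist_eq, max_lt_iff, abs_lt, abs_lt] at hwz
  obtain ⟨⟨h5, h6⟩, h7, h8⟩ := hw
  obtain ⟨⟨h9, h10⟩, h11, h12⟩ := hwz
  have k1 : (a.2 : ℝ) < J + 2 := by
    by_contra h; push Not at h; nlinarith
  have k2 : (J : ℝ) < a.2 + 2 := by
    by_contra h; push Not at h; nlinarith
  have k1' : a.2 < J + 2 := by exact_mod_cast k1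
  have k2' : J < a.2 + 2 := by exact_mod_cast k2
  have k3 : (a.1 : ℝ) + (a.2 : ℝ) / 2 < I + 2 := by
    by_contra h; push Not at h; unfold lft at h5; nlinarith
  have k4 : (I : ℝ) < (a.1 : ℝ) + (a.2 : ℝ) / 2 + 2 := by
    by_contra h; push Not at h; unfold lft at h6; nlinarith
  have k3' : 2 * a.1 + a.2 < 2 * I + 4 := by
    have : (2 * a.1 + a.2 : ℝ) < 2 * I + 4 := by linarith
    exact_mod_cast this
  have k4' : 2 * I < 2 * a.1 + a.2 + 4 := by
    have : (2 * I : ℝ) < 2 * a.1 + a.2 + 4 := by linarith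
    exact_mod_cast this
  have k5 := le_abs_self J
  have k6 := neg_abs_le J
  refine ⟨⟨?_, ?_⟩, ?_, ?_⟩ <;> omega

theorem isClosed_poly (hs : 0 < s) (A : Set (ℤ × ℤ)) : IsClosed (poly s A) := by
  have : poly s A = ⋃ a : A, cell s a.1 := by simp [poly]
  rw [this]
  exact ((locallyFinite_cell hs).comp_injective Subtype.coe_injective).isClosed_iUnion
    fun a => isCompact_cell.isClosed

theorem isCompact_poly (hA : A.Finite) : IsCompact (poly s A) :=
  hA.isCompact_biUnion fun _ _ => isCompact_cell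

theorem poly_mono (h : A ⊆ B) : poly s A ⊆ poly s B := biUnion_subset_biUnion_left h

theorem poly_union (A B : Set (ℤ × ℤ)) : poly s (A ∪ B) = poly s A ∪ poly s B :=
  biUnion_union _ _ _

theorem cell_subset_poly (ha : a ∈ A) : cell s a ⊆ poly s A := subset_biUnion_of_mem ha

theorem compl_poly_subset (hs : 0 < s) (A : Set (ℤ × ℤ)) : (poly s A)ᶜ ⊆ poly s Aᶜ := by
  intro z hz
  obtain ⟨a, ha⟩ := exists_mem_cell hs z
  exact mem_poly.2 ⟨a, fun h => hz (mem_poly.2 ⟨a, h, ha⟩), ha⟩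

theorem ocell_subset_interior_poly (ha : a ∈ A) : ocell s a ⊆ interior (poly s A) :=
  interior_maximal (ocell_subset_cell.trans (cell_subset_poly ha)) isOpen_ocell

theorem interior_poly (hs : 0 < s) (A : Set (ℤ × ℤ)) : interior (poly s A) = (poly s Aᶜ)ᶜ := by
  apply Subset.antisymm
  · intro z hz hz'
    obtain ⟨b, hb, hzb⟩ := mem_poly.1 hz'
    rw [← closure_ocell hs] at hzb
    obtain ⟨w, hw1, hw2⟩ := mem_closure_iff.1 hzb _ isOpen_interior hz
    obtain ⟨a, ha, hwa⟩ := mem_poly.1 (interior_subset hw1)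
    have := eq_of_mem_ocell_cell hs hw2 hwa
    exact hb (this ▸ ha)
  · apply interior_maximal _ (isClosed_poly hs _).isOpen_compl
    intro z hz
    by_contra h
    exact hz (compl_poly_subset hs A h)

theorem mem_interior_poly (hs : 0 < s) : z ∈ interior (poly s A) ↔ ∀ a, z ∈ cell s a → a ∈ A := by
  rw [interior_poly hs, mem_compl_iff, mem_poly]
  constructor
  · intro h a ha
    by_contra hcon
    exact h ⟨a, hcon, ha⟩
  · rintro h ⟨a, ha, hz⟩
    exact ha (h a hz)

theorem closure_interior_poly (hs : 0 < s) (A : Set (ℤ × ℤ)) :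
    closure (interior (poly s A)) = poly s A := by
  apply Subset.antisymm
  · exact (isClosed_poly hs A).closure_subset_iff.2 interior_subset
  · intro z hz
    obtain ⟨a, ha, hza⟩ := mem_poly.1 hz
    rw [← closure_ocell hs] at hza
    exact closure_mono (ocell_subset_interior_poly ha) hza

theorem frontier_interior_poly (hs : 0 < s) (A : Set (ℤ × ℤ)) :
    frontier (interior (poly s A)) = frontier (poly s A) := by
  rw [frontier, closure_interior_poly hs, interior_interior, frontier,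
    (isClosed_poly hs A).closure_eq]

theorem cell_inter_poly (hs : 0 < s) : (ocell s a ∩ poly s A).Nonempty ↔ a ∈ A := by
  constructor
  · rintro ⟨w, hw, hw'⟩
    obtain ⟨b, hb, hwb⟩ := mem_poly.1 hw'
    exact (eq_of_mem_ocell_cell hs hw hwb) ▸ hb
  · intro h
    obtain ⟨w, hw⟩ := ocell_nonempty (a := a) hs
    exact ⟨w, hw, cell_subset_poly h (ocell_subset_cell hw)⟩

theorem cell_subset_poly_iff (hs : 0 < s) : cell s a ⊆ poly s A ↔ a ∈ A := by
  refine ⟨fun h => ?_, cell_subset_poly⟩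
  obtain ⟨w, hw⟩ := ocell_nonempty (a := a) hs
  exact (cell_inter_poly hs).1 ⟨w, hw, h (ocell_subset_cell hw)⟩

theorem poly_injective (hs : 0 < s) (h : poly s A = poly s B) : A = B := by
  ext a
  rw [← cell_subset_poly_iff hs, h, cell_subset_poly_iff hs]

/-- the bricks meeting a set. -/
def meeting (s : ℝ) (F : Set (ℝ × ℝ)) : Set (ℤ × ℤ) := {a | (cell s a ∩ F).Nonempty}

theorem finite_meeting (hs : 0 < s) {F : Set (ℝ × ℝ)} (hF : IsCompact F) :
    (meeting s F).Finite :=
  (locallyFinite_cell hs).finite_nonempty_inter_compact hF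

theorem subset_interior_poly_meeting (hs : 0 < s) (F : Set (ℝ × ℝ)) :
    F ⊆ interior (poly s (meeting s F)) := by
  intro z hz
  rw [mem_interior_poly hs]
  intro a ha
  exact ⟨z, ha, hz⟩

theorem exists_dist_le_of_mem_poly_meeting {F : Set (ℝ × ℝ)}
    (hz : z ∈ poly s (meeting s F)) : ∃ w ∈ F, dist z w ≤ s := by
  obtain ⟨a, ⟨w, hw, hwF⟩, hza⟩ := mem_poly.1 hz
  exact ⟨w, hwF, dist_le_of_mem_cell hza hw⟩

theorem poly_meeting_subset_cthickening (F : Set (ℝ × ℝ)) :
    poly s (meeting s F) ⊆ cthickening s F := by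
  intro z hz
  obtain ⟨w, hw, hd⟩ := exists_dist_le_of_mem_poly_meeting hz
  exact mem_cthickening_of_dist_le z w s F hw hd

/-- auxiliary: a rectangle with lower left corner `(p, q)` and side `s`. -/
theorem edge_aux (hs : 0 < s) {p q p' q' : ℝ}
    (h : (q' = q + s ∧ (p' = p + s / 2 ∨ p' = p - s / 2)) ∨ (q' = q ∧ p' = p + s)) :
    ∃ e : ℝ × ℝ, e ∈ Icc p (p + s) ×ˢ Icc q (q + s) ∧ e ∈ Icc p' (p' + s) ×ˢ Icc q' (q' + s) ∧
      e ∈ interior (Icc p (p + s) ×ˢ Icc q (q + s) ∪ Icc p' (p' + s) ×ˢ Icc q' (q' + s)) := by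
  have key : ∀ e1 e2 : ℝ,
      (∀ x y : ℝ, -(s / 4) < x - e1 → x - e1 < s / 4 → -(s / 4) < y - e2 → y - e2 < s / 4 →
        ((p ≤ x ∧ x ≤ p + s) ∧ (q ≤ y ∧ y ≤ q + s)) ∨
        ((p' ≤ x ∧ x ≤ p' + s) ∧ (q' ≤ y ∧ y ≤ q' + s))) →
      ((e1, e2) : ℝ × ℝ) ∈
        interior (Icc p (p + s) ×ˢ Icc q (q + s) ∪ Icc p' (p' + s) ×ˢ Icc q' (q' + s)) := by
    intro e1 e2 H
    rw [mem_interior]
    refine ⟨ball _ (s / 4), ?_, isOpen_ball, mem_ball_self (by linarith)⟩
    intro v hv
    rw [mem_ball, Prod.dist_eq, Real.dist_eq, Real.dist_eq, max_lt_iff, abs_lt, abs_lt] at hv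
    obtain ⟨⟨q1, q2⟩, q3, q4⟩ := hv
    exact H v.1 v.2 q1 q2 q3 q4
  rcases h with ⟨rfl, rfl | rfl⟩ | ⟨rfl, rfl⟩
  · refine ⟨(p + 3 / 4 * s, q + s), ⟨⟨?_, ?_⟩, ?_, ?_⟩, ⟨⟨?_, ?_⟩, ?_, ?_⟩, key _ _ ?_⟩
    all_goals try (simp only; linarith)
    intro x y h1 h2 h3 h4
    rcases le_total y (q + s) with h | h
    · left; refine ⟨⟨?_, ?_⟩, ?_, ?_⟩ <;> linarith
    · right; refine ⟨⟨?_, ?_⟩, ?_, ?_⟩ <;> linarith
  · refine ⟨(p + 1 / 4 * s, q + s), ⟨⟨?_, ?_⟩, ?_, ?_⟩, ⟨⟨?_, ?_⟩, ?_, ?_⟩, key _ _ ?_⟩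
    all_goals try (simp only; linarith)
    intro x y h1 h2 h3 h4
    rcases le_total y (q + s) with h | h
    · left; refine ⟨⟨?_, ?_⟩, ?_, ?_⟩ <;> linarith
    · right; refine ⟨⟨?_, ?_⟩, ?_, ?_⟩ <;> linarith
  · refine ⟨(p + s, q' + s / 2), ⟨⟨?_, ?_⟩, ?_, ?_⟩, ⟨⟨?_, ?_⟩, ?_, ?_⟩, key _ _ ?_⟩
    all_goals try (simp only; linarith)
    intro x y h1 h2 h3 h4
    rcases le_total x (p + s) with h | h
    · left; refine ⟨⟨?_, ?_⟩, ?_, ?_⟩ <;> linarith
    · right; refine ⟨⟨?_, ?_⟩, ?_, ?_⟩ <;> linarith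

/-- two bricks which meet share an edge: there is a point in the interior of the union which is in
both bricks. -/
theorem exists_edge_point (hs : 0 < s) (h : (cell s a ∩ cell s b).Nonempty) :
    ∃ e, e ∈ cell s a ∧ e ∈ cell s b ∧ e ∈ interior (cell s a ∪ cell s b) := by
  obtain ⟨w, hwa, hwb⟩ := h
  rw [mem_cell] at hwa hwb
  obtain ⟨⟨h1, h2⟩, h3, h4⟩ := hwa
  obtain ⟨⟨h5, h6⟩, h7, h8⟩ := hwb
  -- symmetric formulation
  have main : ∀ a b : ℤ × ℤ, (lft s b ≤ lft s a + s) → (lft s a ≤ lft s b + s) →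
      (b.2 : ℝ) * s ≤ (a.2 : ℝ) * s + s →
      (a.2 < b.2 ∨ (a.2 = b.2 ∧ a.1 ≤ b.1)) →
      ∃ e, e ∈ cell s a ∧ e ∈ cell s b ∧ e ∈ interior (cell s a ∪ cell s b) := by
    intro a b g1 g2 g3 g4
    rcases g4 with g4 | ⟨g4, g5⟩
    · -- `b` is in the next row
      have k1 : (b.2 : ℝ) ≤ a.2 + 1 := by
        by_contra h; push Not at h; nlinarith
      have k1' : b.2 ≤ a.2 + 1 := by exact_mod_cast k1
      have k2 : b.2 = a.2 + 1 := by omega
      have k2r : (b.2 : ℝ) = a.2 + 1 := by rw [k2]; push_cast; ring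
      unfold lft at g1 g2
      rw [k2r] at g1 g2
      have k3 : (b.1 : ℝ) + 1 / 2 ≤ a.1 + 1 := by
        by_contra h; push Not at h; nlinarith
      have k4 : (a.1 : ℝ) ≤ b.1 + 1 / 2 + 1 := by
        by_contra h; push Not at h; nlinarith
      have k3' : 2 * b.1 + 1 ≤ 2 * a.1 + 2 := by
        have : (2 * b.1 + 1 : ℝ) ≤ 2 * a.1 + 2 := by linarith
        exact_mod_cast this
      have k4' : 2 * a.1 ≤ 2 * b.1 + 3 := by
        have : (2 * a.1 : ℝ) ≤ 2 * b.1 + 3 := by linarith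
        exact_mod_cast this
      have k5 : b.1 = a.1 ∨ b.1 = a.1 - 1 := by omega
      apply edge_aux hs
      left
      refine ⟨by rw [k2r]; ring, ?_⟩
      rcases k5 with k5 | k5
      · left
        have k5r : (b.1 : ℝ) = a.1 := by rw [k5]
        simp only [lft, k2r, k5r]; ring
      · right
        have k5r : (b.1 : ℝ) = a.1 - 1 := by rw [k5]; push_cast; ring
        simp only [lft, k2r, k5r]; ring
    · -- same row
      have g4r : (b.2 : ℝ) = a.2 := by rw [g4]
      unfold lft at g1 g2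
      rw [g4r] at g1 g2
      have k3 : (b.1 : ℝ) ≤ a.1 + 1 := by
        by_contra h; push Not at h; nlinarith
      have k3' : b.1 ≤ a.1 + 1 := by exact_mod_cast k3
      rcases eq_or_lt_of_le g5 with g6 | g6
      · have : a = b := Prod.ext g6 g4
        subst this
        obtain ⟨w, hw⟩ := ocell_nonempty (a := a) hs
        refine ⟨w, ocell_subset_cell hw, ocell_subset_cell hw, ?_⟩
        exact interior_mono subset_union_left (interior_maximal ocell_subset_cell isOpen_ocell hw)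
      · have k5 : b.1 = a.1 + 1 := by omega
        have k5r : (b.1 : ℝ) = a.1 + 1 := by rw [k5]; push_cast; ring
        apply edge_aux hs
        right
        refine ⟨by rw [g4r], ?_⟩
        simp only [lft, g4r, k5r]; ring
  rcases lt_trichotomy a.2 b.2 with h | h | h
  · exact main a b (by linarith) (by linarith) (by linarith) (Or.inl h)
  · rcases le_total a.1 b.1 with h' | h'
    · exact main a b (by linarith) (by linarith) (by linarith) (Or.inr ⟨h, h'⟩)
    · obtain ⟨e, e1, e2, e3⟩ :=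
        main b a (by linarith) (by linarith) (by linarith) (Or.inr ⟨h.symm, h'⟩)
      exact ⟨e, e2, e1, by rwa [union_comm]⟩
  · obtain ⟨e, e1, e2, e3⟩ :=
      main b a (by linarith) (by linarith) (by linarith) (Or.inl h)
    exact ⟨e, e2, e1, by rwa [union_comm]⟩

/-- the union of two open bricks which meet in the closure, with a point of the common edge. -/
theorem exists_preconnected_of_meet (hs : 0 < s) (h : (cell s a ∩ cell s b).Nonempty)
    (ha : a ∈ A) (hb : b ∈ A) :
    ∃ S, IsPreconnected S ∧ S ⊆ interior (poly s A) ∧ ocell s a ⊆ S ∧ ocell s b ⊆ S := by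
  obtain ⟨e, e1, e2, e3⟩ := exists_edge_point hs h
  have h1 : ∀ c, e ∈ cell s c → IsPreconnected (insert e (ocell s c)) := by
    intro c hc
    refine (convex_ocell (s := s) (a := c)).isPreconnected.subset_closure (subset_insert _ _) ?_
    rw [closure_ocell hs]
    exact insert_subset hc ocell_subset_cell
  have h2 : e ∈ interior (poly s A) :=
    interior_mono (union_subset (cell_subset_poly ha) (cell_subset_poly hb)) e3
  refine ⟨insert e (ocell s a) ∪ insert e (ocell s b), ?_, ?_, ?_, ?_⟩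
  · exact (h1 a e1).union e (mem_insert _ _) (mem_insert _ _) (h1 b e2)
  · exact union_subset (insert_subset h2 (ocell_subset_interior_poly ha))
      (insert_subset h2 (ocell_subset_interior_poly hb))
  · exact (subset_insert _ _).trans subset_union_left
  · exact (subset_insert _ _).trans subset_union_right

/-- every point of the interior of a union of bricks is in the component of an open brick. -/
theorem exists_ocell_subset_component (hs : 0 < s) (hz : z ∈ interior (poly s A)) :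
    ∃ a ∈ A, z ∈ cell s a ∧ ocell s a ⊆ connectedComponentIn (interior (poly s A)) z := by
  obtain ⟨a, ha, hza⟩ := mem_poly.1 (interior_subset hz)
  refine ⟨a, ha, hza, ?_⟩
  have h1 : IsPreconnected (insert z (ocell s a)) := by
    refine (convex_ocell (s := s) (a := a)).isPreconnected.subset_closure (subset_insert _ _) ?_
    rw [closure_ocell hs]
    exact insert_subset hza ocell_subset_cell
  exact (subset_insert _ _).trans (h1.subset_connectedComponentIn (mem_insert _ _)
    (insert_subset hz (ocell_subset_interior_poly ha)))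

/-- the interior of a connected union of bricks is connected. -/
theorem isPreconnected_interior_poly (hs : 0 < s) (hA : IsPreconnected (poly s A)) :
    IsPreconnected (interior (poly s A)) := by
  classical
  rcases (interior (poly s A)).eq_empty_or_nonempty with h0 | ⟨x, hx⟩
  · rw [h0]; exact isPreconnected_empty
  obtain ⟨a₀, ha₀, hxa₀, hsub₀⟩ := exists_ocell_subset_component hs hx
  -- the bricks whose interior is in the component of `x`
  let C := connectedComponentIn (interior (poly s A)) x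
  let A₁ : Set (ℤ × ℤ) := {a | a ∈ A ∧ ocell s a ⊆ C}
  let A₂ : Set (ℤ × ℤ) := {a | a ∈ A ∧ ¬ ocell s a ⊆ C}
  have hCpre : IsPreconnected C := isPreconnected_connectedComponentIn
  have hdis : Disjoint (poly s A₁) (poly s A₂) := by
    rw [Set.disjoint_left]
    intro z hz1 hz2
    obtain ⟨a, ha, hza⟩ := mem_poly.1 hz1
    obtain ⟨b, hb, hzb⟩ := mem_poly.1 hz2
    obtain ⟨S, hS, hSsub, hSa, hSb⟩ := exists_preconnected_of_meet hs ⟨z, hza, hzb⟩ ha.1 hb.1
    apply hb.2
    obtain ⟨w, hw⟩ := ocell_nonempty (a := a) hs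
    have hwC : w ∈ C := ha.2 hw
    have : S ⊆ connectedComponentIn (interior (poly s A)) w :=
      hS.subset_connectedComponentIn (hSa hw) hSsub
    rw [← connectedComponentIn_eq hwC] at this
    exact hSb.trans this
  have hcov : poly s A ⊆ poly s A₁ ∪ poly s A₂ := by
    intro z hz
    obtain ⟨a, ha, hza⟩ := mem_poly.1 hz
    by_cases h : ocell s a ⊆ C
    · exact Or.inl (mem_poly.2 ⟨a, ⟨ha, h⟩, hza⟩)
    · exact Or.inr (mem_poly.2 ⟨a, ⟨ha, h⟩, hza⟩)
  have hA2 : poly s A ∩ poly s A₂ = ∅ := by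
    by_contra hne
    rw [← ne_eq, ← nonempty_iff_ne_empty] at hne
    obtain ⟨w, hw, hw1, hw2⟩ := (isPreconnected_closed_iff.1 hA) _ _ (isClosed_poly hs A₁)
      (isClosed_poly hs A₂) hcov ⟨x, interior_subset hx, mem_poly.2 ⟨a₀, ⟨ha₀, hsub₀⟩, hxa₀⟩⟩ hne
    exact (Set.disjoint_left.1 hdis hw1) hw2
  have hall : ∀ a ∈ A, ocell s a ⊆ C := by
    intro a ha
    by_contra h
    obtain ⟨w, hw⟩ := ocell_nonempty (a := a) hs
    have : w ∈ poly s A ∩ poly s A₂ :=
      ⟨cell_subset_poly ha (ocell_subset_cell hw),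
        mem_poly.2 ⟨a, ⟨ha, h⟩, ocell_subset_cell hw⟩⟩
    rw [hA2] at this
    exact this
  have hCeq : interior (poly s A) = C := by
    apply Subset.antisymm _ (connectedComponentIn_subset _ _)
    intro z hz
    obtain ⟨a, ha, hza, hsub⟩ := exists_ocell_subset_component hs hz
    obtain ⟨w, hw⟩ := ocell_nonempty (a := a) hs
    have h1 : connectedComponentIn (interior (poly s A)) z = C := by
      rw [connectedComponentIn_eq (hsub hw)]
      exact (connectedComponentIn_eq (hall a ha hw)).symm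
    have h2 := mem_connectedComponentIn hz
    rwa [h1] at h2
  rw [hCeq]
  exact hCpre

end Crest.Agent.R105.Thin_891
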