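import Crest.Agent.R105.Thin2_891

/-!
Row 105, leaf LIB-THIN (task 2222), part 3: filling the holes.

`out P` = union of the unbounded components of `Pᶜ`, `hull P = (out P)ᶜ`.
For `P` compact in a real normed space of dimension `> 1`: `out P` is open and connected, the
frontier of `hull P` is contained in the frontier of `P`, `hull P ⊆ W` for every open convex
`W ⊇ P`, `hull P` is connected if `P` is, and the hulls of disjoint connected sets are disjoint or
nested. The hull of a union of bricks is a union of bricks.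
-/

set_option autoImplicit false
set_option linter.unusedSectionVars false

open Set Metric Topology

namespace Crest.Agent.R105.Thin_891

section Hull

variable {E : Type*} [NormedAddCommGroup E] [NormedSpace ℝ E]

/-- the union of the unbounded components of the complement. -/
def out (P : Set E) : Set E := {z | ¬ Bornology.IsBounded (connectedComponentIn Pᶜ z)}

/-- `P` with its holes filled. -/
def hull (P : Set E) : Set E := (out P)ᶜ

variable {P Q W S : Set E} {z w : E}

theorem out_subset_compl : out P ⊆ Pᶜ := by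
  intro z hz
  by_contra h
  apply hz
  rw [connectedComponentIn_eq_empty (by exact h)]
  exact Bornology.isBounded_empty

theorem subset_hull : P ⊆ hull P := subset_compl_comm.1 out_subset_compl

theorem mem_out_iff_of_mem (h : w ∈ connectedComponentIn Pᶜ z) : w ∈ out P ↔ z ∈ out P := by
  unfold out
  rw [mem_ofPred_eq, mem_ofPred_eq, connectedComponentIn_eq h]

theorem subset_out_of_isPreconnected (hS : IsPreconnected S) (hSP : Disjoint S P)
    (h : (S ∩ out P).Nonempty) : S ⊆ out P := by
  obtain ⟨z, hz, hz'⟩ := h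
  intro w hw
  have : w ∈ connectedComponentIn Pᶜ z :=
    hS.subset_connectedComponentIn hz (fun x hx => Set.disjoint_left.1 hSP hx) hw
  exact (mem_out_iff_of_mem this).2 hz'

theorem subset_out_of_unbounded (hS : IsPreconnected S) (hSP : Disjoint S P)
    (h : ¬ Bornology.IsBounded S) : S ⊆ out P := by
  intro z hz hb
  exact h (hb.subset (hS.subset_connectedComponentIn hz (fun x hx => Set.disjoint_left.1 hSP hx)))

theorem subset_hull_of_isPreconnected (hS : IsPreconnected S) (hSP : Disjoint S P)
    (h : (S ∩ hull P).Nonempty) : S ⊆ hull P := by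
  intro w hw hw'
  obtain ⟨z, hz, hz'⟩ := h
  exact hz' (subset_out_of_isPreconnected hS hSP ⟨w, hw, hw'⟩ hz)

theorem isOpen_out (hP : IsClosed P) : IsOpen (out P) := by
  rw [isOpen_iff_mem_nhds]
  intro z hz
  have hzP : z ∈ Pᶜ := out_subset_compl hz
  have : connectedComponentIn Pᶜ z ∈ 𝓝 z :=
    (hP.isOpen_compl.connectedComponentIn).mem_nhds (mem_connectedComponentIn hzP)
  filter_upwards [this] with w hw
  exact (mem_out_iff_of_mem hw).2 hz

theorem isClosed_hull (hP : IsClosed P) : IsClosed (hull P) := (isOpen_out hP).isClosed_compl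

/-- the complement of a closed ball is connected. -/
theorem isPreconnected_compl_closedBall (h : 1 < Module.rank ℝ E) (R : ℝ) :
    IsPreconnected (closedBall (0 : E) R)ᶜ := by
  rcases lt_or_ge R 0 with hR | hR
  · rw [closedBall_eq_empty.2 hR, compl_empty]
    exact isPreconnected_univ
  have h1 : IsPreconnected ((Ioi R) ×ˢ sphere (0 : E) 1) :=
    isPreconnected_Ioi.prod (isPreconnected_sphere h 0 1)
  have h2 := h1.image (fun p : ℝ × E => p.1 • p.2) (continuous_smul.continuousOn)
  have h3 : (fun p : ℝ × E => p.1 • p.2) '' ((Ioi R) ×ˢ sphere (0 : E) 1) =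
      (closedBall (0 : E) R)ᶜ := by
    ext z
    constructor
    · rintro ⟨⟨t, v⟩, ⟨ht, hv⟩, rfl⟩
      rw [mem_Ioi] at ht
      rw [mem_sphere_zero_iff_norm] at hv
      simp only at hv
      rw [mem_compl_iff, mem_closedBall_zero_iff, norm_smul, hv, mul_one, Real.norm_eq_abs,
        abs_of_pos (hR.trans_lt ht), not_le]
      exact ht
    · intro hz
      rw [mem_compl_iff, mem_closedBall_zero_iff, not_le] at hz
      have hz0 : 0 < ‖z‖ := hR.trans_lt hz
      refine ⟨(‖z‖, ‖z‖⁻¹ • z), ⟨hz, ?_⟩, ?_⟩
      · rw [mem_sphere_zero_iff_norm, norm_smul, norm_inv, norm_norm, inv_mul_cancel₀ hz0.ne']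
      · simp only
        rw [smul_smul, mul_inv_cancel₀ hz0.ne', one_smul]
  rwa [h3] at h2

theorem nontrivial_of_rank (h : 1 < Module.rank ℝ E) : Nontrivial E := by
  have : (0 : Cardinal) < Module.rank ℝ E := lt_trans (by simp) h
  exact rank_pos_iff_nontrivial.1 this

theorem not_isBounded_compl_closedBall (h : 1 < Module.rank ℝ E) (R : ℝ) :
    ¬ Bornology.IsBounded (closedBall (0 : E) R)ᶜ := by
  have := nontrivial_of_rank h
  intro hb
  have h2 := hb.union (isBounded_closedBall (x := (0 : E)) (r := R))
  rw [compl_union_self] at h2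
  exact NormedSpace.unbounded_univ ℝ E h2

theorem compl_closedBall_subset_out (h : 1 < Module.rank ℝ E) {R : ℝ}
    (hP : P ⊆ closedBall 0 R) : (closedBall (0 : E) R)ᶜ ⊆ out P :=
  subset_out_of_unbounded (isPreconnected_compl_closedBall h R)
    (disjoint_compl_left.mono_right hP) (not_isBounded_compl_closedBall h R)

theorem hull_subset_closedBall (h : 1 < Module.rank ℝ E) {R : ℝ}
    (hP : P ⊆ closedBall 0 R) : hull P ⊆ closedBall 0 R := by
  have := compl_subset_compl.2 (compl_closedBall_subset_out h hP)
  rwa [compl_compl] at this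

theorem isPreconnected_out (h : 1 < Module.rank ℝ E) (hP : Bornology.IsBounded P) :
    IsPreconnected (out P) := by
  obtain ⟨R, hR⟩ := hP.subset_closedBall 0
  have hB := isPreconnected_compl_closedBall h R
  have hBd : (closedBall (0 : E) R)ᶜ ⊆ Pᶜ := compl_subset_compl.2 hR
  -- every component which is unbounded contains the complement of the ball
  have key : ∀ z ∈ out P, (closedBall (0 : E) R)ᶜ ⊆ connectedComponentIn Pᶜ z := by
    intro z hz
    have h1 : (connectedComponentIn Pᶜ z ∩ (closedBall (0 : E) R)ᶜ).Nonempty := by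
      by_contra hne
      apply hz
      rw [not_nonempty_iff_eq_empty] at hne
      refine (isBounded_closedBall (x := (0 : E)) (r := R)).subset fun w hw => ?_
      by_contra hw'
      have : w ∈ connectedComponentIn Pᶜ z ∩ (closedBall (0 : E) R)ᶜ := ⟨hw, hw'⟩
      rw [hne] at this
      exact this
    obtain ⟨w, hw, hw'⟩ := h1
    rw [connectedComponentIn_eq hw]
    exact hB.subset_connectedComponentIn hw' hBd
  have := nontrivial_of_rank h
  obtain ⟨w₀, hw₀⟩ : ((closedBall (0 : E) R)ᶜ).Nonempty := by
    by_contra hne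
    rw [not_nonempty_iff_eq_empty] at hne
    exact not_isBounded_compl_closedBall h R (hne ▸ Bornology.isBounded_empty)
  apply isPreconnected_of_forall w₀
  intro z hz
  refine ⟨connectedComponentIn Pᶜ z, ?_, key z hz hw₀,
    mem_connectedComponentIn (out_subset_compl hz), isPreconnected_connectedComponentIn⟩
  intro w hw
  exact (mem_out_iff_of_mem hw).2 hz

theorem out_nonempty (h : 1 < Module.rank ℝ E) (hP : Bornology.IsBounded P) :
    (out P).Nonempty := by
  obtain ⟨R, hR⟩ := hP.subset_closedBall 0
  obtain ⟨w₀, hw₀⟩ : ((closedBall (0 : E) R)ᶜ).Nonempty := by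
    by_contra hne
    rw [not_nonempty_iff_eq_empty] at hne
    exact not_isBounded_compl_closedBall h R (hne ▸ Bornology.isBounded_empty)
  exact ⟨w₀, compl_closedBall_subset_out h hR hw₀⟩

theorem not_isBounded_out (h : 1 < Module.rank ℝ E) (hP : Bornology.IsBounded P) :
    ¬ Bornology.IsBounded (out P) := by
  obtain ⟨R, hR⟩ := hP.subset_closedBall 0
  intro hb
  exact not_isBounded_compl_closedBall h R (hb.subset (compl_closedBall_subset_out h hR))

theorem isBounded_hull (h : 1 < Module.rank ℝ E) (hP : Bornology.IsBounded P) :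
    Bornology.IsBounded (hull P) := by
  obtain ⟨R, hR⟩ := hP.subset_closedBall 0
  exact (isBounded_closedBall).subset (hull_subset_closedBall h hR)

theorem out_anti (h : 1 < Module.rank ℝ E) (hP : Bornology.IsBounded P) (hQ : Q ⊆ hull P) :
    out P ⊆ out Q :=
  subset_out_of_unbounded (isPreconnected_out h hP)
    (Set.disjoint_left.2 fun _ hx hx' => hQ hx' hx) (not_isBounded_out h hP)

/-- the hull is monotone; more generally `Q ⊆ hull P` gives `hull Q ⊆ hull P`. -/
theorem hull_subset_hull (h : 1 < Module.rank ℝ E) (hP : Bornology.IsBounded P)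
    (hQ : Q ⊆ hull P) : hull Q ⊆ hull P :=
  compl_subset_compl.2 (out_anti h hP hQ)

/-- **holes stay in every open convex neighbourhood.** -/
theorem hull_subset_of_convex (h : 1 < Module.rank ℝ E) (hW : IsOpen W) (hWc : Convex ℝ W)
    (hPW : P ⊆ W) : hull P ⊆ W := by
  have := nontrivial_of_rank h
  intro z hz
  by_contra hzW
  obtain ⟨f, hf⟩ := geometric_hahn_banach_open_point hWc hW hzW
  obtain ⟨v, hv, hfv⟩ : ∃ v : E, v ≠ 0 ∧ 0 ≤ f v := by
    obtain ⟨v, hv⟩ := exists_ne (0 : E)
    rcases le_total 0 (f v) with h1 | h1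
    · exact ⟨v, hv, h1⟩
    · exact ⟨-v, neg_ne_zero.2 hv, by simpa using h1⟩
  let S : Set E := (fun t : ℝ => z + t • v) '' Ici 0
  have hS : IsPreconnected S := by
    apply isPreconnected_Ici.image
    fun_prop
  have hSP : Disjoint S P := by
    rw [Set.disjoint_left]
    rintro _ ⟨t, ht, rfl⟩ hp
    have h1 := hf _ (hPW hp)
    simp only [map_add, map_smul, smul_eq_mul] at h1
    have := mul_nonneg ht hfv
    linarith
  have hSb : ¬ Bornology.IsBounded S := by
    intro hb
    obtain ⟨R, hR⟩ := hb.subset_closedBall z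
    have hv0 : 0 < ‖v‖ := norm_pos_iff.2 hv
    have h1 : z + ((|R| + 1) / ‖v‖) • v ∈ closedBall z R :=
      hR ⟨(|R| + 1) / ‖v‖, by rw [mem_Ici]; positivity, rfl⟩
    rw [mem_closedBall, dist_eq_norm, add_sub_cancel_left, norm_smul, Real.norm_eq_abs,
      abs_of_nonneg (by positivity), div_mul_cancel₀ _ hv0.ne'] at h1
    have := le_abs_self R
    linarith
  exact hz (subset_out_of_unbounded hS hSP hSb ⟨0, by simp, by simp⟩)

theorem frontier_hull_subset (hP : IsClosed P) : frontier (hull P) ⊆ frontier P := by
  intro z hz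
  rw [hull, frontier_compl] at hz
  have hz1 : z ∉ out P := by
    have := (isOpen_out hP).inter_frontier_eq
    intro h
    have h2 : z ∈ out P ∩ frontier (out P) := ⟨h, hz⟩
    rw [this] at h2
    exact h2
  have hz2 : z ∈ closure (out P) := frontier_subset_closure hz
  have hzP : z ∈ P := by
    by_contra hzP
    have h1 : connectedComponentIn Pᶜ z ∈ 𝓝 z :=
      (hP.isOpen_compl.connectedComponentIn).mem_nhds (mem_connectedComponentIn hzP)
    obtain ⟨w, hw1, hw2⟩ := mem_closure_iff_nhds.1 hz2 _ h1
    exact hz1 ((mem_out_iff_of_mem hw1).1 hw2)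
  rw [frontier, mem_sdiff, hP.closure_eq]
  refine ⟨hzP, ?_⟩
  rw [← mem_compl_iff, ← closure_compl]
  exact closure_mono out_subset_compl hz2

theorem compl_hull : (hull P)ᶜ = out P := compl_compl _

theorem compl_interior_hull : (interior (hull P))ᶜ = closure (out P) := by
  rw [← closure_compl, compl_hull]

theorem isPreconnected_compl_interior_hull (h : 1 < Module.rank ℝ E)
    (hP : Bornology.IsBounded P) : IsPreconnected (interior (hull P))ᶜ := by
  rw [compl_interior_hull]
  exact (isPreconnected_out h hP).closure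

/-- the closure of a hole is connected, contained in the hull, disjoint from everything which is
disjoint from `P` and from the hole, and meets `P`. -/
theorem hole (hP : IsClosed P) (hPne : P.Nonempty) (hz : z ∈ hull P)
    (hzP : z ∉ P) :
    ∃ C, IsPreconnected C ∧ z ∈ C ∧ C ⊆ hull P ∧ (C ∩ P).Nonempty ∧
      C ⊆ connectedComponentIn Pᶜ z ∪ P ∧ Disjoint (connectedComponentIn Pᶜ z) (out P) := by
  have hCd : Disjoint (connectedComponentIn Pᶜ z) (out P) := by
    rw [Set.disjoint_left]
    intro w hw hw'
    exact hz ((mem_out_iff_of_mem hw).1 hw')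
  have hopen : IsOpen (connectedComponentIn Pᶜ z) := hP.isOpen_compl.connectedComponentIn
  have hsub : closure (connectedComponentIn Pᶜ z) ⊆ connectedComponentIn Pᶜ z ∪ P := by
    intro w hw
    by_cases hwP : w ∈ P
    · exact Or.inr hwP
    · left
      have h1 : connectedComponentIn Pᶜ w ∈ 𝓝 w :=
        (hP.isOpen_compl.connectedComponentIn).mem_nhds (mem_connectedComponentIn hwP)
      obtain ⟨v, hv1, hv2⟩ := mem_closure_iff_nhds.1 hw _ h1
      rw [connectedComponentIn_eq hv2, ← connectedComponentIn_eq hv1]
      exact mem_connectedComponentIn hwP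
  have hzC : z ∈ connectedComponentIn Pᶜ z := mem_connectedComponentIn hzP
  refine ⟨closure (connectedComponentIn Pᶜ z), isPreconnected_connectedComponentIn.closure,
    subset_closure hzC, ?_, ?_, hsub, hCd⟩
  · intro w hw
    rcases hsub hw with h1 | h1
    · exact fun h2 => Set.disjoint_left.1 hCd h1 h2
    · exact subset_hull h1
  · by_contra hne
    rw [not_nonempty_iff_eq_empty] at hne
    have h1 : closure (connectedComponentIn Pᶜ z) ⊆ connectedComponentIn Pᶜ z := by
      intro w hw
      rcases hsub hw with h1 | h1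
      · exact h1
      · have : w ∈ closure (connectedComponentIn Pᶜ z) ∩ P := ⟨hw, h1⟩
        rw [hne] at this
        exact absurd this (notMem_empty _)
    have hclopen : IsClopen (connectedComponentIn Pᶜ z) :=
      ⟨isClosed_of_closure_subset h1, hopen⟩
    have huniv := hclopen.eq_univ ⟨z, hzC⟩
    obtain ⟨p, hp⟩ := hPne
    have : p ∈ connectedComponentIn Pᶜ z := by rw [huniv]; exact mem_univ _
    exact connectedComponentIn_subset _ _ this hp

/-- the hull of a connected closed set is connected. -/
theorem isConnected_hull (hP : IsClosed P)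
    (hPc : IsConnected P) : IsConnected (hull P) := by
  obtain ⟨p, hp⟩ := hPc.nonempty
  refine ⟨⟨p, subset_hull hp⟩, isPreconnected_of_forall p fun z hz => ?_⟩
  by_cases hzP : z ∈ P
  · exact ⟨P, subset_hull, hp, hzP, hPc.isPreconnected⟩
  · obtain ⟨C, h1, h2, h3, ⟨q, hq1, hq2⟩, -, -⟩ := hole hP ⟨p, hp⟩ hz hzP
    refine ⟨C ∪ P, union_subset h3 subset_hull, Or.inr hp, Or.inl h2,
      h1.union q hq1 hq2 hPc.isPreconnected⟩

/-- the hulls of two disjoint continua are disjoint or nested. -/
theorem hull_laminar (h : 1 < Module.rank ℝ E) (hP : IsCompact P) (hQ : IsCompact Q)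
    (hPc : IsConnected P) (hQc : IsConnected Q) (hPQ : Disjoint P Q) :
    Disjoint (hull P) (hull Q) ∨ hull P ⊆ hull Q ∨ hull Q ⊆ hull P := by
  by_cases h1 : (Q ∩ hull P).Nonempty
  · right; right
    exact hull_subset_hull h hP.isBounded
      (subset_hull_of_isPreconnected hQc.isPreconnected hPQ.symm h1)
  by_cases h2 : (P ∩ hull Q).Nonempty
  · right; left
    exact hull_subset_hull h hQ.isBounded
      (subset_hull_of_isPreconnected hPc.isPreconnected hPQ h2)
  left
  have hQout : Q ⊆ out P := by
    intro q hq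
    by_contra hcon
    exact h1 ⟨q, hq, hcon⟩
  have hPout : P ⊆ out Q := by
    intro q hq
    by_contra hcon
    exact h2 ⟨q, hq, hcon⟩
  rw [Set.disjoint_left]
  intro z hz1 hz2
  have hzP : z ∉ P := fun hzP => hz2 (hPout hzP)
  obtain ⟨C, c1, c2, c3, ⟨p, hp1, hp2⟩, c5, c6⟩ :=
    hole hP.isClosed hPc.nonempty hz1 hzP
  have hCQ : Disjoint C Q := by
    rw [Set.disjoint_left]
    intro w hw hwQ
    rcases c5 hw with h3 | h3
    · exact Set.disjoint_left.1 c6 h3 (hQout hwQ)
    · exact Set.disjoint_left.1 hPQ h3 hwQ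
  exact hz2 (subset_out_of_isPreconnected c1 hCQ ⟨p, hp1, hPout hp2⟩ c2)

end Hull

/-- the plane has dimension two. -/
theorem one_lt_rank_plane : 1 < Module.rank ℝ (ℝ × ℝ) := by
  have : Module.rank ℝ (ℝ × ℝ) = 2 := by
    rw [rank_prod', Module.rank_self]; norm_num
  rw [this]; norm_num

theorem one_lt_rank_complex : 1 < Module.rank ℝ ℂ := by
  rw [Complex.rank_real_complex]; norm_num

variable {s : ℝ} {A : Set (ℤ × ℤ)}

/-- the hull of a union of bricks is a union of bricks. -/
theorem hull_poly (hs : 0 < s) (A : Set (ℤ × ℤ)) :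
    hull (poly s A) = poly s {a | cell s a ⊆ hull (poly s A)} := by
  apply Subset.antisymm
  · intro z hz
    by_cases hzP : z ∈ poly s A
    · obtain ⟨a, ha, hza⟩ := mem_poly.1 hzP
      exact mem_poly.2 ⟨a, (cell_subset_poly ha).trans subset_hull, hza⟩
    · obtain ⟨a, hza⟩ := exists_mem_cell hs z
      have haA : a ∉ A := fun h => hzP (mem_poly.2 ⟨a, h, hza⟩)
      have h1 : IsPreconnected (insert z (ocell s a)) := by
        refine (convex_ocell (s := s) (a := a)).isPreconnected.subset_closure (subset_insert _ _) ?_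
        rw [closure_ocell hs]
        exact insert_subset hza ocell_subset_cell
      have h2 : Disjoint (insert z (ocell s a)) (poly s A) := by
        rw [Set.disjoint_left]
        rintro w (rfl | hw) hw'
        · exact hzP hw'
        · exact haA ((cell_inter_poly hs).1 ⟨w, hw, hw'⟩)
      have h3 : insert z (ocell s a) ⊆ hull (poly s A) :=
        subset_hull_of_isPreconnected h1 h2 ⟨z, mem_insert _ _, hz⟩
      refine mem_poly.2 ⟨a, ?_, hza⟩
      change cell s a ⊆ hull (poly s A)
      rw [← closure_ocell hs]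
      exact (isClosed_hull (isClosed_poly hs A)).closure_subset_iff.2
        ((subset_insert _ _).trans h3)
  · intro z hz
    obtain ⟨a, ha, hza⟩ := mem_poly.1 hz
    exact ha hza

theorem finite_of_poly_bounded (hs : 0 < s) (hA : Bornology.IsBounded (poly s A)) : A.Finite := by
  obtain ⟨R, hR⟩ := hA.subset_closedBall 0
  refine (finite_meeting hs (isCompact_closedBall (0 : ℝ × ℝ) R)).subset ?_
  intro a ha
  obtain ⟨w, hw⟩ := cell_nonempty (a := a) hs
  exact ⟨w, hw, hR (cell_subset_poly ha hw)⟩

end Crest.Agent.R105.Thin_891
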