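import Crest.Agent.R105.Thin3_891

/-!
Row 105, leaf LIB-THIN (task 2222), part 4: thin neighbourhoods.

* `CPiece E F`: `F ⊆ E` compact with an open neighbourhood `O`, `O ∩ E ⊆ F` (no compactness of `E`).
* `ThinDom E N`: `N` is the interior of a finite connected union of bricks without holes, and the
  frontier of `N` does not meet `E`.
* `exists_thinDoms`: given pairwise disjoint pieces `F i` with open convex neighbourhoods `W i`,
  there are finitely many thin domains with pairwise disjoint closures, each closure in one `W i`,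
  which cover all the `F i`.
-/

set_option autoImplicit false

open Set Metric Topology

namespace Crest.Agent.R105.Thin_891

/-- compact open piece of an arbitrary set `E`. -/
structure CPiece {X : Type*} [TopologicalSpace X] (E F : Set X) : Prop where
  sub : F ⊆ E
  cpt : IsCompact F
  sep : ∃ O, IsOpen O ∧ F ⊆ O ∧ O ∩ E ⊆ F

theorem Piece.cpiece {X : Type*} [TopologicalSpace X] [T2Space X] {E F : Set X}
    (h : Piece E F) : CPiece E F := by
  obtain ⟨U, V, hU, _, hFU, hV', hUV⟩ :=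
    SeparatedNhds.of_isCompact_isCompact h.cpt h.cpt' disjoint_sdiff_self_right
  refine ⟨h.sub, h.cpt, U, hU, hFU, ?_⟩
  rintro z ⟨hz, hzE⟩
  by_contra hzF
  exact Set.disjoint_left.1 hUV hz (hV' ⟨hzE, hzF⟩)

theorem CPiece.piece {X : Type*} [TopologicalSpace X] {E F : Set X} (hE : IsCompact E)
    (h : CPiece E F) : Piece E F := by
  obtain ⟨O, hO, hFO, hOE⟩ := h.sep
  refine ⟨h.sub, h.cpt, ?_⟩
  have : E \ F = E \ O := by
    ext z
    constructor
    · rintro ⟨h1, h2⟩; exact ⟨h1, fun h3 => h2 (hOE ⟨h3, h1⟩)⟩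
    · rintro ⟨h1, h2⟩; exact ⟨h1, fun h3 => h2 (hFO h3)⟩
  rw [this]
  exact hE.diff hO

theorem CPiece.subset_of_isPreconnected {X : Type*} [TopologicalSpace X] [T2Space X]
    {E F : Set X} (h : CPiece E F) {S : Set X} (hS : IsPreconnected S)
    (hSE : S ⊆ E) (hne : (S ∩ F).Nonempty) : S ⊆ F := by
  obtain ⟨O, hO, hFO, hOE⟩ := h.sep
  by_contra hcon
  obtain ⟨z, hzS, hzF⟩ := not_subset.1 hcon
  obtain ⟨w, hwS, hwO, hwF⟩ := hS O Fᶜ hO h.cpt.isClosed.isOpen_compl
    (fun x hx => by
      by_cases hxF : x ∈ F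
      · exact Or.inl (hFO hxF)
      · exact Or.inr hxF)
    (by obtain ⟨y, hy1, hy2⟩ := hne; exact ⟨y, hy1, hFO hy2⟩)
    ⟨z, hzS, hzF⟩
  exact hwF (hOE ⟨hwO, hSE hwS⟩)

theorem CPiece.component_subset {X : Type*} [TopologicalSpace X] [T2Space X] {E F : Set X}
    (h : CPiece E F) {x : X} (hx : x ∈ F) : connectedComponentIn E x ⊆ F :=
  h.subset_of_isPreconnected isPreconnected_connectedComponentIn
    (connectedComponentIn_subset E x) ⟨x, mem_connectedComponentIn (h.sub hx), hx⟩

/-- thin domain: the interior of a finite connected union of bricks without holes, with frontier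
off `E`. -/
structure ThinDom (E N : Set (ℝ × ℝ)) : Prop where
  brick : ∃ (s : ℝ) (A : Set (ℤ × ℤ)), 0 < s ∧ A.Finite ∧ interior (poly s A) = N ∧
    closure N = poly s A
  isConnected : IsConnected N
  compl : IsPreconnected Nᶜ
  compl_closure : IsPreconnected (closure N)ᶜ
  fr : Disjoint (frontier N) E

namespace ThinDom

variable {E N : Set (ℝ × ℝ)}

theorem isOpen (h : ThinDom E N) : IsOpen N := by
  obtain ⟨s, A, -, -, h1, -⟩ := h.brick
  rw [← h1]; exact isOpen_interior

theorem isCompact_closure (h : ThinDom E N) : IsCompact (closure N) := by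
  obtain ⟨s, A, -, h0, -, h1⟩ := h.brick
  rw [h1]; exact isCompact_poly h0

theorem isBounded (h : ThinDom E N) : Bornology.IsBounded N :=
  h.isCompact_closure.isBounded.subset subset_closure

theorem interior_closure (h : ThinDom E N) : interior (closure N) = N := by
  obtain ⟨s, A, -, h0, h2, h1⟩ := h.brick
  rw [h1, h2]

theorem isConnected_closure (h : ThinDom E N) : IsConnected (closure N) := h.isConnected.closure

theorem inter_closure (h : ThinDom E N) : E ∩ closure N = E ∩ N := by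
  ext z
  constructor
  · rintro ⟨h1, h2⟩
    refine ⟨h1, ?_⟩
    by_contra h3
    have : z ∈ frontier N := ⟨h2, fun h4 => h3 (interior_subset h4)⟩
    exact Set.disjoint_left.1 h.fr this h1
  · rintro ⟨h1, h2⟩; exact ⟨h1, subset_closure h2⟩

/-- a connected part of `E` meeting `N` is contained in `N`. -/
theorem subset_of_isPreconnected (h : ThinDom E N) {S : Set (ℝ × ℝ)} (hS : IsPreconnected S)
    (hSE : S ⊆ E) (hne : (S ∩ N).Nonempty) : S ⊆ N := by
  by_contra hcon
  obtain ⟨z, hzS, hzN⟩ := not_subset.1 hcon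
  have hz' : z ∉ closure N := fun hz => by
    have : z ∈ E ∩ N := by rw [← h.inter_closure]; exact ⟨hSE hzS, hz⟩
    exact hzN this.2
  obtain ⟨w, hwS, hwN, hwN'⟩ := hS N (closure N)ᶜ h.isOpen isClosed_closure.isOpen_compl
    (fun x hx => by
      by_cases hxN : x ∈ N
      · exact Or.inl hxN
      · right
        intro hx'
        have : x ∈ E ∩ N := by rw [← h.inter_closure]; exact ⟨hSE hx, hx'⟩
        exact hxN this.2) hne ⟨z, hzS, hz'⟩
  exact hwN' (subset_closure hwN)

theorem component_subset (h : ThinDom E N) {x : ℝ × ℝ} (hx : x ∈ N) :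
    connectedComponentIn E x ⊆ N := by
  by_cases hxE : x ∈ E
  · exact h.subset_of_isPreconnected isPreconnected_connectedComponentIn
      (connectedComponentIn_subset E x) ⟨x, mem_connectedComponentIn hxE, hx⟩
  · rw [connectedComponentIn_eq_empty hxE]; exact empty_subset _

/-- the part of a closed set `E` in a thin domain is a piece of `E`. -/
theorem cpiece (h : ThinDom E N) {R : Set (ℝ × ℝ)} (hNR : closure N ⊆ R)
    (hE : ∃ C, IsClosed C ∧ E = C ∩ R) : CPiece E (E ∩ N) := by
  refine ⟨inter_subset_left, ?_, N, h.isOpen, inter_subset_right, fun z hz => ⟨hz.2, hz.1⟩⟩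
  obtain ⟨C, hC, rfl⟩ := hE
  rw [← h.inter_closure]
  have : C ∩ R ∩ closure N = closure N ∩ C := by
    ext z; constructor
    · rintro ⟨⟨h1, _⟩, h2⟩; exact ⟨h2, h1⟩
    · rintro ⟨h1, h2⟩; exact ⟨⟨h2, hNR h1⟩, h1⟩
  rw [this]
  exact h.isCompact_closure.inter_right hC

theorem piece (h : ThinDom E N) (hE : IsCompact E) : Piece E (E ∩ N) :=
  (h.cpiece (R := univ) (subset_univ _) ⟨E, hE.isClosed, (inter_univ _).symm⟩).piece hE

end ThinDom

/-- a finite union of bricks is, near each of its components, a finite connected union of bricks. -/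
theorem poly_component {s : ℝ} {A : Set (ℤ × ℤ)} {z : ℝ × ℝ} :
    connectedComponentIn (poly s A) z =
      poly s {a | a ∈ A ∧ cell s a ⊆ connectedComponentIn (poly s A) z} := by
  apply Subset.antisymm
  · intro w hw
    obtain ⟨a, ha, hwa⟩ := mem_poly.1 (connectedComponentIn_subset _ _ hw)
    refine mem_poly.2 ⟨a, ⟨ha, ?_⟩, hwa⟩
    rw [connectedComponentIn_eq hw]
    exact convex_cell.isPreconnected.subset_connectedComponentIn hwa (cell_subset_poly ha)
  · intro w hw
    obtain ⟨a, ha, hwa⟩ := mem_poly.1 hw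
    exact ha.2 hwa

/-- the maximal members of a finite laminar family of sets cover the union and are disjoint. -/
theorem exists_maximal_laminar {X : Type*} (H : Finset (Set X))
    (hH : ∀ P ∈ H, ∀ Q ∈ H, P ≠ Q → Disjoint P Q ∨ P ⊆ Q ∨ Q ⊆ P) :
    ∃ H' : Finset (Set X), H' ⊆ H ∧ (∀ P ∈ H', ∀ Q ∈ H', P ≠ Q → Disjoint P Q) ∧
      ∀ P ∈ H, ∃ Q ∈ H', P ⊆ Q := by
  classical
  refine ⟨H.filter (fun P => ∀ Q ∈ H, P ⊆ Q → Q = P), Finset.filter_subset _ _, ?_, ?_⟩
  · intro P hP Q hQ hne
    rw [Finset.mem_filter] at hP hQ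
    rcases hH P hP.1 Q hQ.1 hne with h | h | h
    · exact h
    · exact absurd (hP.2 Q hQ.1 h).symm hne
    · exact absurd (hQ.2 P hP.1 h) hne
  · intro P hP
    obtain ⟨Q, hPQ, hQ⟩ := H.exists_le_maximal hP
    refine ⟨Q, ?_, hPQ⟩
    rw [Finset.mem_filter]
    exact ⟨hQ.prop, fun Q' hQ' hle => (hQ.eq_of_le hQ' hle).symm⟩

/-- **Thin neighbourhoods, general form.** -/
theorem exists_thinDoms {n : ℕ} {E : Set (ℝ × ℝ)} (F W : Fin n → Set (ℝ × ℝ))
    (hF : ∀ i, CPiece E (F i)) (hd : Pairwise (fun i j => Disjoint (F i) (F j)))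
    (hW : ∀ i, IsOpen (W i)) (hWc : ∀ i, Convex ℝ (W i)) (hFW : ∀ i, F i ⊆ W i) :
    ∃ (m : ℕ) (N : Fin m → Set (ℝ × ℝ)) (k : Fin m → Fin n),
      (∀ j, ThinDom E (N j)) ∧ (∀ j, closure (N j) ⊆ W (k j)) ∧
      Pairwise (fun j l => Disjoint (closure (N j)) (closure (N l))) ∧
      (∀ i, F i ⊆ ⋃ j, N j) ∧ (∀ j, (N j ∩ F (k j)).Nonempty) := by
  classical
  -- a common mesh
  have hmesh : ∀ i, ∃ δ : ℝ, 0 < δ ∧ cthickening δ (F i) ⊆ W i ∧
      (∀ z ∈ cthickening δ (F i), z ∈ E → z ∈ F i) := by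
    intro i
    obtain ⟨O, hO, hFO, hOE⟩ := (hF i).sep
    obtain ⟨δ, hδ, h1⟩ := (hF i).cpt.exists_cthickening_subset_open (hO.inter (hW i))
      (subset_inter hFO (hFW i))
    exact ⟨δ, hδ, h1.trans inter_subset_right, fun z hz hzE => hOE ⟨(h1 hz).1, hzE⟩⟩
  choose δ hδ hδW hδE using hmesh
  have hsep : ∀ i j, i ≠ j → ∃ r : ℝ, 0 < r ∧ ∀ x ∈ F i, ∀ y ∈ F j, r < dist x y := by
    intro i j hij
    obtain ⟨r, hr, H⟩ := Metric.exists_pos_forall_lt_edist (hF i).cpt (hF j).cpt.isClosed (hd hij)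
    refine ⟨r, by exact_mod_cast hr, fun x hx y hy => ?_⟩
    have := H x hx y hy
    rw [edist_dist] at this
    have h2 : ENNReal.ofReal (r : ℝ) < ENNReal.ofReal (dist x y) := by simpa using this
    exact (ENNReal.ofReal_lt_ofReal_iff_of_nonneg r.2).1 h2
  have hr : ∀ p : Fin n × Fin n, ∃ r : ℝ, 0 < r ∧ (p.1 ≠ p.2 → ∀ x ∈ F p.1, ∀ y ∈ F p.2,
      r < dist x y) := by
    intro p
    by_cases h : p.1 = p.2
    · exact ⟨1, one_pos, fun h' => absurd h h'⟩
    · obtain ⟨r, h1, h2⟩ := hsep p.1 p.2 h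
      exact ⟨r, h1, fun _ => h2⟩
  choose r hr0 hr1 using hr
  obtain ⟨s, hs, hsδ, hsr⟩ : ∃ s : ℝ, 0 < s ∧ (∀ i, s ≤ δ i) ∧ (∀ p, s ≤ r p / 2) := by
    have h1 : ∀ᶠ s in 𝓝[>] (0 : ℝ), ∀ i, s ≤ δ i := by
      rw [Filter.eventually_all]
      intro i
      exact (Filter.eventually_of_mem (Ioc_mem_nhdsGT (hδ i)) fun s hs => hs.2)
    have h2 : ∀ᶠ s in 𝓝[>] (0 : ℝ), ∀ p, s ≤ r p / 2 := by
      rw [Filter.eventually_all]
      intro p
      exact (Filter.eventually_of_mem (Ioc_mem_nhdsGT (half_pos (hr0 p))) fun s hs => hs.2)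
    have h3 : ∀ᶠ s in 𝓝[>] (0 : ℝ), 0 < s := eventually_mem_nhdsWithin
    obtain ⟨s, a1, a2, a3⟩ := (h3.and (h1.and h2)).exists
    exact ⟨s, a1, a2, a3⟩
  -- the bricks
  let A : Fin n → Set (ℤ × ℤ) := fun i => meeting s (F i)
  have hAfin : ∀ i, (A i).Finite := fun i => finite_meeting hs (hF i).cpt
  have hAsub : ∀ i, poly s (A i) ⊆ cthickening (δ i) (F i) := fun i =>
    (poly_meeting_subset_cthickening (F i)).trans (cthickening_mono (hsδ i) _)
  have hAdis : ∀ i j, i ≠ j → Disjoint (poly s (A i)) (poly s (A j)) := by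
    intro i j hij
    rw [Set.disjoint_left]
    intro z hz1 hz2
    obtain ⟨x, hx, hxz⟩ := exists_dist_le_of_mem_poly_meeting hz1
    obtain ⟨y, hy, hyz⟩ := exists_dist_le_of_mem_poly_meeting hz2
    have h1 := hr1 (i, j) hij x hx y hy
    have h2 := hsr (i, j)
    have h3 := dist_triangle_left x y z
    linarith
  let B : Set (ℤ × ℤ) := ⋃ i, A i
  have hBfin : B.Finite := finite_iUnion hAfin
  have hBpoly : poly s B = ⋃ i, poly s (A i) := by
    ext z
    simp only [B, mem_poly, mem_iUnion]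
    constructor
    · rintro ⟨a, ⟨i, hi⟩, ha⟩; exact ⟨i, a, hi, ha⟩
    · rintro ⟨i, a, hi, ha⟩; exact ⟨a, ⟨i, hi⟩, ha⟩
  have hBcpt : IsCompact (poly s B) := isCompact_poly hBfin
  -- `E ∩ poly s B` is in the interior
  have hEB : ∀ z ∈ poly s B, z ∈ E → ∃ i, z ∈ F i := by
    intro z hz hzE
    rw [hBpoly, mem_iUnion] at hz
    obtain ⟨i, hi⟩ := hz
    exact ⟨i, hδE i z (hAsub i hi) hzE⟩
  -- pieces of poly
  have hpiece : ∀ i, Piece (poly s B) (poly s (A i)) := by
    intro i
    refine ⟨poly_mono (subset_iUnion _ i), isCompact_poly (hAfin i), ?_⟩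
    have : poly s B \ poly s (A i) = ⋃ j : {j // j ≠ i}, poly s (A j.1) := by
      rw [hBpoly]
      ext z
      constructor
      · rintro ⟨h1, h2⟩
        obtain ⟨j, hj⟩ := mem_iUnion.1 h1
        exact mem_iUnion.2 ⟨⟨j, fun h => h2 (h ▸ hj)⟩, hj⟩
      · intro h1
        obtain ⟨j, hj⟩ := mem_iUnion.1 h1
        exact ⟨mem_iUnion.2 ⟨j.1, hj⟩, fun h2 => Set.disjoint_left.1 (hAdis _ _ j.2) hj h2⟩
    rw [this]
    exact isCompact_iUnion fun j => isCompact_poly (hAfin j.1)
  -- components through the bricks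
  let ctr : ℤ × ℤ → ℝ × ℝ := fun a => (cell_nonempty (a := a) hs).some
  have hctr : ∀ a, ctr a ∈ cell s a := fun a => (cell_nonempty (a := a) hs).some_mem
  let Q : ℤ × ℤ → Set (ℝ × ℝ) := fun a => connectedComponentIn (poly s B) (ctr a)
  let H : Finset (Set (ℝ × ℝ)) := (hBfin.toFinset).image (fun a => hull (Q a))
  have hQcon : ∀ a ∈ B, IsConnected (Q a) := fun a ha =>
    isConnected_connectedComponentIn_iff.2 (cell_subset_poly ha (hctr a))
  have hQcpt : ∀ a, IsCompact (Q a) := by
    intro a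
    have h1 : IsClosed (Q a) := by
      change IsClosed (connectedComponentIn (poly s B) (ctr a))
      rw [poly_component]
      exact isClosed_poly hs _
    exact hBcpt.of_isClosed_subset h1 (connectedComponentIn_subset _ _)
  have hlam : ∀ P ∈ H, ∀ P' ∈ H, P ≠ P' → Disjoint P P' ∨ P ⊆ P' ∨ P' ⊆ P := by
    intro P hP P' hP' hne
    obtain ⟨a, ha, rfl⟩ := Finset.mem_image.1 hP
    obtain ⟨b, hb, rfl⟩ := Finset.mem_image.1 hP'
    have ha' : a ∈ B := hBfin.mem_toFinset.1 ha
    have hb' : b ∈ B := hBfin.mem_toFinset.1 hb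
    apply hull_laminar one_lt_rank_plane (hQcpt a) (hQcpt b) (hQcon a ha') (hQcon b hb')
    rw [Set.disjoint_left]
    intro z hz1 hz2
    apply hne
    change hull (connectedComponentIn (poly s B) (ctr a)) =
      hull (connectedComponentIn (poly s B) (ctr b))
    rw [connectedComponentIn_eq hz1, connectedComponentIn_eq hz2]
  obtain ⟨H', hH'sub, hH'dis, hH'cov⟩ := exists_maximal_laminar H hlam
  -- enumerate `H'`
  let e : Fin H'.card ≃ H' := H'.equivFin.symm
  have hidx : ∀ j, ∃ a ∈ B, hull (Q a) = (e j).1 := by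
    intro j
    obtain ⟨a, ha, h1⟩ := Finset.mem_image.1 (hH'sub (e j).2)
    exact ⟨a, hBfin.mem_toFinset.1 ha, h1⟩
  choose c hcB hc using hidx
  have hci : ∀ j, ∃ i, c j ∈ A i := fun j => mem_iUnion.1 (hcB j)
  choose k hk using hci
  have hQk : ∀ j, Q (c j) ⊆ poly s (A (k j)) := fun j =>
    (hpiece (k j)).component_subset (cell_subset_poly (hk j) (hctr _))
  -- brick description of the hull
  have hbr : ∀ j, ∃ A' : Set (ℤ × ℤ), A'.Finite ∧ hull (Q (c j)) = poly s A' := by
    intro j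
    have h1 : hull (Q (c j)) = poly s {a | cell s a ⊆ hull (Q (c j))} := by
      have h2 : Q (c j) = poly s {a | a ∈ B ∧ cell s a ⊆ Q (c j)} := poly_component
      rw [h2]
      exact hull_poly hs _
    refine ⟨_, finite_of_poly_bounded hs ?_, h1⟩
    rw [← h1]
    exact isBounded_hull one_lt_rank_plane (hQcpt _).isBounded
  choose A' hA'fin hA' using hbr
  have hclos : ∀ j, closure (interior (poly s (A' j))) = poly s (A' j) := fun j =>
    closure_interior_poly hs _
  have hQne : ∀ j, (Q (c j)).Nonempty := fun j => (hQcon _ (hcB j)).nonempty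
  have hcon : ∀ j, IsConnected (poly s (A' j)) := by
    intro j
    rw [← hA' j]
    exact isConnected_hull (hQcpt _).isClosed (hQcon _ (hcB j))
  have hAne : ∀ j, (interior (poly s (A' j))).Nonempty := by
    intro j
    by_contra h
    rw [not_nonempty_iff_eq_empty] at h
    have h1 := hclos j
    rw [h, closure_empty] at h1
    have h2 := (hcon j).nonempty
    rw [← h1] at h2
    exact not_nonempty_empty h2
  -- the frontier of the component avoids `E`
  have hfr : ∀ j, Disjoint (frontier (interior (poly s (A' j)))) E := by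
    intro j
    rw [frontier_interior_poly hs, ← hA' j, Set.disjoint_left]
    intro z hz hzE
    have hz1 : z ∈ frontier (Q (c j)) := frontier_hull_subset (hQcpt _).isClosed hz
    have hz2 : z ∈ Q (c j) := (hQcpt _).isClosed.frontier_subset hz1
    have hz3 : z ∈ poly s B := connectedComponentIn_subset _ _ hz2
    obtain ⟨i, hi⟩ := hEB z hz3 hzE
    apply hz1.2
    change z ∈ interior (connectedComponentIn (poly s B) (ctr (c j)))
    rw [poly_component, mem_interior_poly hs]
    intro a ha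
    have haB : a ∈ B := mem_iUnion.2 ⟨i, z, ha, hi⟩
    refine ⟨haB, ?_⟩
    rw [connectedComponentIn_eq hz2]
    exact convex_cell.isPreconnected.subset_connectedComponentIn ha (cell_subset_poly haB)
  refine ⟨H'.card, fun j => interior (poly s (A' j)), k, fun j => ?_, fun j => ?_, ?_, ?_, ?_⟩
  · refine ⟨⟨s, A' j, hs, hA'fin j, rfl, hclos j⟩, ⟨hAne j, ?_⟩, ?_, ?_, hfr j⟩
    · exact isPreconnected_interior_poly hs (hcon j).isPreconnected
    · change IsPreconnected (interior (poly s (A' j)))ᶜ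
      rw [← hA' j]
      exact isPreconnected_compl_interior_hull one_lt_rank_plane (hQcpt _).isBounded
    · rw [hclos j, ← hA' j, compl_hull]
      exact isPreconnected_out one_lt_rank_plane (hQcpt _).isBounded
  · simp only
    rw [hclos j, ← hA' j]
    apply hull_subset_of_convex one_lt_rank_plane (hW _) (hWc _)
    exact (hQk j).trans ((hAsub _).trans (hδW _))
  · intro j l hjl
    simp only
    rw [hclos j, hclos l, ← hA' j, ← hA' l, hc j, hc l]
    apply hH'dis _ (e j).2 _ (e l).2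
    intro h
    exact hjl (e.injective (Subtype.ext h))
  · intro i z hz
    obtain ⟨a, hza⟩ := exists_mem_cell hs z
    have haA : a ∈ A i := ⟨z, hza, hz⟩
    have haB : a ∈ B := mem_iUnion.2 ⟨i, haA⟩
    obtain ⟨P, hP, hsub⟩ := hH'cov (hull (Q a))
      (Finset.mem_image.2 ⟨a, hBfin.mem_toFinset.2 haB, rfl⟩)
    refine mem_iUnion.2 ⟨e.symm ⟨P, hP⟩, ?_⟩
    have hzP : z ∈ P := by
      apply hsub
      apply subset_hull
      exact (convex_cell.isPreconnected.subset_connectedComponentIn (hctr a)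
        (cell_subset_poly haB)) hza
    have hPe : poly s (A' (e.symm ⟨P, hP⟩)) = P := by
      rw [← hA', hc, Equiv.apply_symm_apply]
    by_contra hzi
    have h1 : z ∈ frontier (interior (poly s (A' (e.symm ⟨P, hP⟩)))) := by
      rw [frontier, interior_interior, hclos, hPe]
      rw [hPe] at hzi
      exact ⟨hzP, hzi⟩
    exact Set.disjoint_left.1 (hfr _) h1 ((hF i).sub hz)
  · intro j
    -- `c j` meets `F (k j)` at a point, which is in `Q (c j)`
    obtain ⟨w, hw, hwF⟩ := hk j
    refine ⟨w, ?_, hwF⟩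
    have hwQ : w ∈ hull (Q (c j)) := by
      apply subset_hull
      exact (convex_cell.isPreconnected.subset_connectedComponentIn (hctr _)
        (cell_subset_poly (hcB j))) hw
    by_contra hzi
    have h1 : w ∈ frontier (interior (poly s (A' j))) := by
      rw [frontier, interior_interior, hclos]
      refine ⟨?_, hzi⟩
      rw [← hA' j]
      exact hwQ
    exact Set.disjoint_left.1 (hfr _) h1 ((hF _).sub hwF)

end Crest.Agent.R105.Thin_891
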