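import Crest.Agent.R105.Thin5_891

/-!
Row 105, leaf LIB-THIN, part 6: thin neighbourhoods of arbitrary full components
(complement connected), e.g. all components of the complement of an exterior domain, squares with
attached segments, ...
-/

set_option autoImplicit false
set_option linter.unusedSectionVars false

open Set Metric Topology MeasureTheory

namespace Crest.Agent.R105.Thin_891

section Full

variable {E : Type*} [NormedAddCommGroup E] [NormedSpace ℝ E] [ProperSpace E]

theorem out_mono_of_subset {P Q : Set E} (h : P ⊆ Q) : out Q ⊆ out P := by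
  intro z hz hb
  apply hz
  refine hb.subset ?_
  have hzQ : z ∈ Qᶜ := out_subset_compl hz
  exact isPreconnected_connectedComponentIn.subset_connectedComponentIn
    (mem_connectedComponentIn hzQ)
    ((connectedComponentIn_subset _ _).trans (compl_subset_compl.2 h))

theorem hull_mono {P Q : Set E} (h : P ⊆ Q) : hull P ⊆ hull Q :=
  compl_subset_compl.2 (out_mono_of_subset h)

/-- a set with connected complement is its own hull. -/
theorem hull_eq_self {K : Set E} (h : 1 < Module.rank ℝ E) (hK : Bornology.IsBounded K)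
    (hKc : IsPreconnected Kᶜ) : hull K = K := by
  apply Subset.antisymm _ subset_hull
  have h1 : Kᶜ ⊆ out K := by
    obtain ⟨w, hw⟩ := out_nonempty h hK
    exact subset_out_of_isPreconnected hKc disjoint_compl_left ⟨w, out_subset_compl hw, hw⟩
  intro z hz
  by_contra hzK
  exact hz (h1 hzK)

/-- neighbourhoods of a full compact set have their holes inside any given neighbourhood. -/
theorem exists_hull_cthickening_subset {K U : Set E} (h : 1 < Module.rank ℝ E)
    (hK : IsCompact K) (hKc : IsPreconnected Kᶜ) (hU : IsOpen U) (hKU : K ⊆ U) :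
    ∃ ε : ℝ, 0 < ε ∧ hull (cthickening ε K) ⊆ U := by
  classical
  obtain ⟨R, hR⟩ := hK.isBounded.subset_closedBall 0
  have hR1 : cthickening 1 K ⊆ closedBall 0 (R + 1) := by
    refine (cthickening_subset_of_subset 1 hR).trans ?_
    rcases le_or_gt 0 R with hR0 | hR0
    · rw [cthickening_closedBall zero_le_one hR0, add_comm]
    · rw [closedBall_eq_empty.2 hR0, cthickening_empty]; exact empty_subset _
  obtain ⟨w₀, hw₀⟩ : ((closedBall (0 : E) (R + 1))ᶜ).Nonempty := by
    by_contra hne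
    rw [not_nonempty_iff_eq_empty] at hne
    exact not_isBounded_compl_closedBall h (R + 1) (hne ▸ Bornology.isBounded_empty)
  have hout1 : (closedBall (0 : E) (R + 1))ᶜ ⊆ out (cthickening 1 K) :=
    compl_closedBall_subset_out h hR1
  have hfar : ∀ ε ≤ (1 : ℝ), (closedBall (0 : E) (R + 1))ᶜ ⊆ out (cthickening ε K) := fun ε hε =>
    hout1.trans (out_mono_of_subset (cthickening_mono hε K))
  have hw₀K : w₀ ∈ Kᶜ := by
    intro hw
    exact hw₀ (closedBall_subset_closedBall (by linarith) (hR hw))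
  have hKo : IsOpen Kᶜ := hK.isClosed.isOpen_compl
  have hpc : IsPathConnected Kᶜ := (hKo.isConnected_iff_isPathConnected).1 ⟨⟨w₀, hw₀K⟩, hKc⟩
  -- every point off `K` is in some `out`
  have key : ∀ z ∈ Kᶜ, ∃ n : ℕ, z ∈ out (cthickening (1 / ((n : ℝ) + 1)) K) := by
    intro z hz
    obtain ⟨γ, hγ⟩ := hpc.joinedIn z hz w₀ hw₀K
    have hcpt : IsCompact (range γ) := isCompact_range γ.continuous
    have hdisj : Disjoint K (range γ) := by
      rw [Set.disjoint_left]
      rintro _ hx ⟨t, rfl⟩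
      exact hγ t hx
    obtain ⟨δ, hδ, hd⟩ := hdisj.exists_cthickenings hK hcpt.isClosed
    obtain ⟨n, hn⟩ := exists_nat_one_div_lt hδ
    refine ⟨n, ?_⟩
    have h1 : Disjoint (range γ) (cthickening (1 / ((n : ℝ) + 1)) K) := by
      rw [disjoint_comm]
      exact hd.mono (cthickening_mono hn.le K) (self_subset_cthickening _)
    refine subset_out_of_isPreconnected (isPreconnected_range γ.continuous) h1
      ⟨w₀, ⟨1, γ.target⟩, hfar _ ?_ hw₀⟩ ⟨0, γ.source⟩
    rw [div_le_one (by positivity)]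
    linarith [Nat.cast_nonneg (α := ℝ) n]
  -- compactness
  have hC : IsCompact (closedBall (0 : E) (R + 1) \ U) := (isCompact_closedBall _ _).diff hU
  obtain ⟨t, ht⟩ := hC.elim_finite_subcover
    (fun n : ℕ => out (cthickening (1 / ((n : ℝ) + 1)) K)) (fun n => isOpen_out isClosed_cthickening)
    (fun z hz => mem_iUnion.2 (key z (fun hzK => hz.2 (hKU hzK))))
  refine ⟨1 / (((t.sup id : ℕ) : ℝ) + 1), by positivity, ?_⟩
  intro z hz
  by_contra hzU
  apply hz
  have h1 : (1 : ℝ) / (((t.sup id : ℕ) : ℝ) + 1) ≤ 1 := by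
    rw [div_le_one (by positivity)]
    linarith [Nat.cast_nonneg (α := ℝ) (t.sup id)]
  by_cases hzB : z ∈ closedBall (0 : E) (R + 1)
  · obtain ⟨n, hn, hzn⟩ := mem_iUnion₂.1 (ht ⟨hzB, hzU⟩)
    refine out_mono_of_subset (cthickening_mono ?_ K) hzn
    have h2 : n ≤ t.sup id := Finset.le_sup (f := id) hn
    have h3 : (n : ℝ) ≤ (t.sup id : ℕ) := by exact_mod_cast h2
    exact one_div_le_one_div_of_le (by positivity) (by linarith)
  · exact hfar _ h1 hzB

end Full

/-- **Thin neighbourhoods, general form**: instead of convexity, `hull P ⊆ W i` for every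
`P ⊆ V i`. -/
theorem exists_thinDoms_hull {n : ℕ} {E : Set (ℝ × ℝ)} (F V W : Fin n → Set (ℝ × ℝ))
    (hF : ∀ i, CPiece E (F i)) (hd : Pairwise (fun i j => Disjoint (F i) (F j)))
    (hV : ∀ i, IsOpen (V i)) (hFV : ∀ i, F i ⊆ V i) (hVW : ∀ i, hull (V i) ⊆ W i) :
    ∃ (m : ℕ) (N : Fin m → Set (ℝ × ℝ)) (k : Fin m → Fin n),
      (∀ j, ThinDom E (N j)) ∧ (∀ j, closure (N j) ⊆ W (k j)) ∧
      Pairwise (fun j l => Disjoint (closure (N j)) (closure (N l))) ∧
      (∀ i, F i ⊆ ⋃ j, N j) ∧ (∀ j, (N j ∩ F (k j)).Nonempty) := by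
  classical
  -- a common mesh
  have hmesh : ∀ i, ∃ δ : ℝ, 0 < δ ∧ cthickening δ (F i) ⊆ V i ∧
      (∀ z ∈ cthickening δ (F i), z ∈ E → z ∈ F i) := by
    intro i
    obtain ⟨O, hO, hFO, hOE⟩ := (hF i).sep
    obtain ⟨δ, hδ, h1⟩ := (hF i).cpt.exists_cthickening_subset_open (hO.inter (hV i))
      (subset_inter hFO (hFV i))
    exact ⟨δ, hδ, h1.trans inter_subset_right, fun z hz hzE => hOE ⟨(h1 hz).1, hzE⟩⟩
  choose δ hδ hδV hδE using hmesh
  have hsep : ∀ i j, i ≠ j → ∃ r : ℝ, 0 < r ∧ ∀ x ∈ F i, ∀ y ∈ F j, r < dist x y := by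
    intro i j hij
    obtain ⟨r, hr, H⟩ := Metric.exists_pos_forall_lt_edist (hF i).cpt (hF j).cpt.isClosed (hd hij)
    refine ⟨r, by exact_mod_cast hr, fun x hx y hy => ?_⟩
    have := H x hx y hy
    rw [edist_dist] at this
    have h2 : ENNReal.ofReal (r : ℝ) < ENNReal.ofReal (dist x y) := by simpa using this
    exact (ENNReal.ofReal_lt_ofReal_iff_of_nonneg r.2).1 h2
  have hr : ∀ p : Fin n × Fin n, ∃ r : ℝ, 0 < r ∧ (p.1 ≠ p.2 → ∀ x ∈ F p.1, ∀ y ∈ F p.2,
      r < dist x y) := by
    intro p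
    by_cases h : p.1 = p.2
    · exact ⟨1, one_pos, fun h' => absurd h h'⟩
    · obtain ⟨r, h1, h2⟩ := hsep p.1 p.2 h
      exact ⟨r, h1, fun _ => h2⟩
  choose r hr0 hr1 using hr
  obtain ⟨s, hs, hsδ, hsr⟩ : ∃ s : ℝ, 0 < s ∧ (∀ i, s ≤ δ i) ∧ (∀ p, s ≤ r p / 2) := by
    have h1 : ∀ᶠ s in 𝓝[>] (0 : ℝ), ∀ i, s ≤ δ i := by
      rw [Filter.eventually_all]
      intro i
      exact (Filter.eventually_of_mem (Ioc_mem_nhdsGT (hδ i)) fun s hs => hs.2)
    have h2 : ∀ᶠ s in 𝓝[>] (0 : ℝ), ∀ p, s ≤ r p / 2 := by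
      rw [Filter.eventually_all]
      intro p
      exact (Filter.eventually_of_mem (Ioc_mem_nhdsGT (half_pos (hr0 p))) fun s hs => hs.2)
    have h3 : ∀ᶠ s in 𝓝[>] (0 : ℝ), 0 < s := eventually_mem_nhdsWithin
    obtain ⟨s, a1, a2, a3⟩ := (h3.and (h1.and h2)).exists
    exact ⟨s, a1, a2, a3⟩
  -- the bricks
  let A : Fin n → Set (ℤ × ℤ) := fun i => meeting s (F i)
  have hAfin : ∀ i, (A i).Finite := fun i => finite_meeting hs (hF i).cpt
  have hAsub : ∀ i, poly s (A i) ⊆ cthickening (δ i) (F i) := fun i =>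
    (poly_meeting_subset_cthickening (F i)).trans (cthickening_mono (hsδ i) _)
  have hAdis : ∀ i j, i ≠ j → Disjoint (poly s (A i)) (poly s (A j)) := by
    intro i j hij
    rw [Set.disjoint_left]
    intro z hz1 hz2
    obtain ⟨x, hx, hxz⟩ := exists_dist_le_of_mem_poly_meeting hz1
    obtain ⟨y, hy, hyz⟩ := exists_dist_le_of_mem_poly_meeting hz2
    have h1 := hr1 (i, j) hij x hx y hy
    have h2 := hsr (i, j)
    have h3 := dist_triangle_left x y z
    linarith
  let B : Set (ℤ × ℤ) := ⋃ i, A i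
  have hBfin : B.Finite := finite_iUnion hAfin
  have hBpoly : poly s B = ⋃ i, poly s (A i) := by
    ext z
    simp only [B, mem_poly, mem_iUnion]
    constructor
    · rintro ⟨a, ⟨i, hi⟩, ha⟩; exact ⟨i, a, hi, ha⟩
    · rintro ⟨i, a, hi, ha⟩; exact ⟨a, ⟨i, hi⟩, ha⟩
  have hBcpt : IsCompact (poly s B) := isCompact_poly hBfin
  have hEB : ∀ z ∈ poly s B, z ∈ E → ∃ i, z ∈ F i := by
    intro z hz hzE
    rw [hBpoly, mem_iUnion] at hz
    obtain ⟨i, hi⟩ := hz
    exact ⟨i, hδE i z (hAsub i hi) hzE⟩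
  have hpiece : ∀ i, Piece (poly s B) (poly s (A i)) := by
    intro i
    refine ⟨poly_mono (subset_iUnion _ i), isCompact_poly (hAfin i), ?_⟩
    have : poly s B \ poly s (A i) = ⋃ j : {j // j ≠ i}, poly s (A j.1) := by
      rw [hBpoly]
      ext z
      constructor
      · rintro ⟨h1, h2⟩
        obtain ⟨j, hj⟩ := mem_iUnion.1 h1
        exact mem_iUnion.2 ⟨⟨j, fun h => h2 (h ▸ hj)⟩, hj⟩
      · intro h1
        obtain ⟨j, hj⟩ := mem_iUnion.1 h1
        exact ⟨mem_iUnion.2 ⟨j.1, hj⟩, fun h2 => Set.disjoint_left.1 (hAdis _ _ j.2) hj h2⟩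
    rw [this]
    exact isCompact_iUnion fun j => isCompact_poly (hAfin j.1)
  let ctr : ℤ × ℤ → ℝ × ℝ := fun a => (cell_nonempty (a := a) hs).some
  have hctr : ∀ a, ctr a ∈ cell s a := fun a => (cell_nonempty (a := a) hs).some_mem
  let Q : ℤ × ℤ → Set (ℝ × ℝ) := fun a => connectedComponentIn (poly s B) (ctr a)
  let H : Finset (Set (ℝ × ℝ)) := (hBfin.toFinset).image (fun a => hull (Q a))
  have hQcon : ∀ a ∈ B, IsConnected (Q a) := fun a ha =>
    isConnected_connectedComponentIn_iff.2 (cell_subset_poly ha (hctr a))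
  have hQcpt : ∀ a, IsCompact (Q a) := by
    intro a
    have h1 : IsClosed (Q a) := by
      change IsClosed (connectedComponentIn (poly s B) (ctr a))
      rw [poly_component]
      exact isClosed_poly hs _
    exact hBcpt.of_isClosed_subset h1 (connectedComponentIn_subset _ _)
  have hlam : ∀ P ∈ H, ∀ P' ∈ H, P ≠ P' → Disjoint P P' ∨ P ⊆ P' ∨ P' ⊆ P := by
    intro P hP P' hP' hne
    obtain ⟨a, ha, rfl⟩ := Finset.mem_image.1 hP
    obtain ⟨b, hb, rfl⟩ := Finset.mem_image.1 hP'
    have ha' : a ∈ B := hBfin.mem_toFinset.1 ha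
    have hb' : b ∈ B := hBfin.mem_toFinset.1 hb
    apply hull_laminar one_lt_rank_plane (hQcpt a) (hQcpt b) (hQcon a ha') (hQcon b hb')
    rw [Set.disjoint_left]
    intro z hz1 hz2
    apply hne
    change hull (connectedComponentIn (poly s B) (ctr a)) =
      hull (connectedComponentIn (poly s B) (ctr b))
    rw [connectedComponentIn_eq hz1, connectedComponentIn_eq hz2]
  obtain ⟨H', hH'sub, hH'dis, hH'cov⟩ := exists_maximal_laminar H hlam
  let e : Fin H'.card ≃ H' := H'.equivFin.symm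
  have hidx : ∀ j, ∃ a ∈ B, hull (Q a) = (e j).1 := by
    intro j
    obtain ⟨a, ha, h1⟩ := Finset.mem_image.1 (hH'sub (e j).2)
    exact ⟨a, hBfin.mem_toFinset.1 ha, h1⟩
  choose c hcB hc using hidx
  have hci : ∀ j, ∃ i, c j ∈ A i := fun j => mem_iUnion.1 (hcB j)
  choose k hk using hci
  have hQk : ∀ j, Q (c j) ⊆ poly s (A (k j)) := fun j =>
    (hpiece (k j)).component_subset (cell_subset_poly (hk j) (hctr _))
  have hbr : ∀ j, ∃ A' : Set (ℤ × ℤ), A'.Finite ∧ hull (Q (c j)) = poly s A' := by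
    intro j
    have h1 : hull (Q (c j)) = poly s {a | cell s a ⊆ hull (Q (c j))} := by
      have h2 : Q (c j) = poly s {a | a ∈ B ∧ cell s a ⊆ Q (c j)} := poly_component
      rw [h2]
      exact hull_poly hs _
    refine ⟨_, finite_of_poly_bounded hs ?_, h1⟩
    rw [← h1]
    exact isBounded_hull one_lt_rank_plane (hQcpt _).isBounded
  choose A' hA'fin hA' using hbr
  have hclos : ∀ j, closure (interior (poly s (A' j))) = poly s (A' j) := fun j =>
    closure_interior_poly hs _
  have hcon : ∀ j, IsConnected (poly s (A' j)) := by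
    intro j
    rw [← hA' j]
    exact isConnected_hull (hQcpt _).isClosed (hQcon _ (hcB j))
  have hAne : ∀ j, (interior (poly s (A' j))).Nonempty := by
    intro j
    by_contra h
    rw [not_nonempty_iff_eq_empty] at h
    have h1 := hclos j
    rw [h, closure_empty] at h1
    have h2 := (hcon j).nonempty
    rw [← h1] at h2
    exact not_nonempty_empty h2
  have hfr : ∀ j, Disjoint (frontier (interior (poly s (A' j)))) E := by
    intro j
    rw [frontier_interior_poly hs, ← hA' j, Set.disjoint_left]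
    intro z hz hzE
    have hz1 : z ∈ frontier (Q (c j)) := frontier_hull_subset (hQcpt _).isClosed hz
    have hz2 : z ∈ Q (c j) := (hQcpt _).isClosed.frontier_subset hz1
    have hz3 : z ∈ poly s B := connectedComponentIn_subset _ _ hz2
    obtain ⟨i, hi⟩ := hEB z hz3 hzE
    apply hz1.2
    change z ∈ interior (connectedComponentIn (poly s B) (ctr (c j)))
    rw [poly_component, mem_interior_poly hs]
    intro a ha
    have haB : a ∈ B := mem_iUnion.2 ⟨i, z, ha, hi⟩
    refine ⟨haB, ?_⟩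
    rw [connectedComponentIn_eq hz2]
    exact convex_cell.isPreconnected.subset_connectedComponentIn ha (cell_subset_poly haB)
  refine ⟨H'.card, fun j => interior (poly s (A' j)), k, fun j => ?_, fun j => ?_, ?_, ?_, ?_⟩
  · refine ⟨⟨s, A' j, hs, hA'fin j, rfl, hclos j⟩, ⟨hAne j, ?_⟩, ?_, ?_, hfr j⟩
    · exact isPreconnected_interior_poly hs (hcon j).isPreconnected
    · change IsPreconnected (interior (poly s (A' j)))ᶜ
      rw [← hA' j]
      exact isPreconnected_compl_interior_hull one_lt_rank_plane (hQcpt _).isBounded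
    · rw [hclos j, ← hA' j, compl_hull]
      exact isPreconnected_out one_lt_rank_plane (hQcpt _).isBounded
  · simp only
    rw [hclos j, ← hA' j]
    exact (hull_mono ((hQk j).trans ((hAsub _).trans (hδV _)))).trans (hVW _)
  · intro j l hjl
    simp only
    rw [hclos j, hclos l, ← hA' j, ← hA' l, hc j, hc l]
    apply hH'dis _ (e j).2 _ (e l).2
    intro h
    exact hjl (e.injective (Subtype.ext h))
  · intro i z hz
    obtain ⟨a, hza⟩ := exists_mem_cell hs z
    have haA : a ∈ A i := ⟨z, hza, hz⟩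
    have haB : a ∈ B := mem_iUnion.2 ⟨i, haA⟩
    obtain ⟨P, hP, hsub⟩ := hH'cov (hull (Q a))
      (Finset.mem_image.2 ⟨a, hBfin.mem_toFinset.2 haB, rfl⟩)
    refine mem_iUnion.2 ⟨e.symm ⟨P, hP⟩, ?_⟩
    have hzP : z ∈ P := by
      apply hsub
      apply subset_hull
      exact (convex_cell.isPreconnected.subset_connectedComponentIn (hctr a)
        (cell_subset_poly haB)) hza
    have hPe : poly s (A' (e.symm ⟨P, hP⟩)) = P := by
      rw [← hA', hc, Equiv.apply_symm_apply]
    by_contra hzi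
    have h1 : z ∈ frontier (interior (poly s (A' (e.symm ⟨P, hP⟩)))) := by
      rw [frontier, interior_interior, hclos, hPe]
      rw [hPe] at hzi
      exact ⟨hzP, hzi⟩
    exact Set.disjoint_left.1 (hfr _) h1 ((hF i).sub hz)
  · intro j
    obtain ⟨w, hw, hwF⟩ := hk j
    refine ⟨w, ?_, hwF⟩
    have hwQ : w ∈ hull (Q (c j)) := by
      apply subset_hull
      exact (convex_cell.isPreconnected.subset_connectedComponentIn (hctr _)
        (cell_subset_poly (hcB j))) hw
    by_contra hzi
    have h1 : w ∈ frontier (interior (poly s (A' j))) := by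
      rw [frontier, interior_interior, hclos]
      refine ⟨?_, hzi⟩
      rw [← hA' j]
      exact hwQ
    exact Set.disjoint_left.1 (hfr _) h1 ((hF _).sub hwF)

/-- **thin neighbourhoods of a compact family of full components** inside prescribed open
neighbourhoods `U x` of the components. -/
theorem exists_thin_family_full {E G : Set (ℝ × ℝ)} (hE : IsCompact E) (hG : IsCompact G)
    (hGE : G ⊆ E) (U : ℝ × ℝ → Set (ℝ × ℝ)) (hU : ∀ x ∈ G, IsOpen (U x))
    (hKU : ∀ x ∈ G, connectedComponentIn E x ⊆ U x)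
    (hfull : ∀ x ∈ G, IsPreconnected (connectedComponentIn E x)ᶜ) :
    ∃ (m : ℕ) (N : Fin m → Set (ℝ × ℝ)) (p : Fin m → ℝ × ℝ),
      (∀ j, p j ∈ G) ∧ (∀ j, ThinDom E (N j)) ∧ (∀ j, closure (N j) ⊆ U (p j)) ∧
      Pairwise (fun j l => Disjoint (closure (N j)) (closure (N l))) ∧
      G ⊆ ⋃ j, N j ∧ (∀ j, (N j ∩ E).Nonempty) := by
  classical
  have hKcpt : ∀ x, IsCompact (connectedComponentIn E x) := fun x => by
    by_cases hx : x ∈ E
    · have h1 : IsClosed (connectedComponentIn E x) := by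
        have h2 : closure (connectedComponentIn E x) ⊆ connectedComponentIn E x :=
          isPreconnected_connectedComponentIn.closure.subset_connectedComponentIn
            (subset_closure (mem_connectedComponentIn hx))
            (closure_minimal (connectedComponentIn_subset _ _) hE.isClosed)
        exact isClosed_of_closure_subset h2
      exact hE.of_isClosed_subset h1 (connectedComponentIn_subset _ _)
    · rw [connectedComponentIn_eq_empty hx]; exact isCompact_empty
  have hr : ∀ x : ℝ × ℝ, ∃ r : ℝ, 0 < r ∧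
      (x ∈ G → hull (cthickening r (connectedComponentIn E x)) ⊆ U x) := by
    intro x
    by_cases hx : x ∈ G
    · obtain ⟨r, hr, h1⟩ := exists_hull_cthickening_subset one_lt_rank_plane (hKcpt x)
        (hfull x hx) (hU x hx) (hKU x hx)
      exact ⟨r, hr, fun _ => h1⟩
    · exact ⟨1, one_pos, fun h => absurd h hx⟩
  choose r hr0 hrU using hr
  let V : ℝ × ℝ → Set (ℝ × ℝ) := fun x => thickening (r x) (connectedComponentIn E x)
  obtain ⟨n, q, F, hq, hF, hFU, hFG, hFd, hcov⟩ := exists_pieces hE hG hGE V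
    (fun x _ => isOpen_thickening) (fun x _ => self_subset_thickening (hr0 x) _)
  obtain ⟨m, N, k, hN, hNW, hNd, hNc, hNne⟩ := exists_thinDoms_hull F (fun i => V (q i))
    (fun i => U (q i)) (fun i => (hF i).cpiece) hFd (fun i => isOpen_thickening) hFU
    (fun i => (hull_mono (thickening_subset_cthickening _ _)).trans (hrU _ (hq i)))
  refine ⟨m, N, fun j => q (k j), fun j => hq _, hN, hNW, hNd, ?_, fun j => ?_⟩
  · intro x hx
    obtain ⟨i, hi⟩ := mem_iUnion.1 (hcov hx)
    exact hNc i hi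
  · obtain ⟨w, hw, hwF⟩ := hNne j
    exact ⟨w, hw, (hF _).sub hwF⟩

end Crest.Agent.R105.Thin_891
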