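import Crest.Agent.R105.Red2_828
import Crest.Agent.R105.Rd0_557

/-!
# Row 105, S0139: top of the skeleton (helper474)

`s0139` : S0139 (verbatim) from the literal Props `BP` ([B], assembled by helper641) and `PlanP`,
`CenP`, `FluxP`, `EndP` (RED, helper557).
-/

set_option autoImplicit false

open Set Filter Metric Topology MeasureTheory
open Crest.AnalysisR

namespace Crest.Agent.R105.Top139_474

open Crest.Agent.R105.Rd_557

/-- **S0139 from the leaves.** -/
theorem s0139 (hB : BP) (hP : PlanP) (hC : CenP) (hF : FluxP) (hEnd : EndP)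
    (U V : Set ℂ) (hU : Crest.AnalysisR.IsCircleDomainFinitePart U)
    (hV : Crest.AnalysisR.IsCircleDomainFinitePart V)
    (hE : Crest.AnalysisR.IsConformallyRemovable (frontier U)) (f : ℂ → ℂ)
    (hf : DifferentiableOn ℂ f U) (hinj : Set.InjOn f U) (hsurj : f '' U = V)
    (hinf : Filter.Tendsto f (Filter.cocompact ℂ) (Filter.cocompact ℂ)) :
    ∃ a b : ℂ, a ≠ 0 ∧ ∀ z ∈ U, f z = a * z + b :=
  Red_828.s0139_of (red hB hP hC hF hEnd) U V hU hV hE f hf hinj hsurj hinf

end Crest.Agent.R105.Top139_474
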