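import Crest.Agent.R105.Uni1_659

/-!
# Row 105 (S0138), node E13: the planar lemma (T'), part 1 (helper719)

`log_of_conn` : two points of a preconnected set `D` which misses the closed set `ℓ` have a
continuous `log ((z - p) / (z - q))` on `ℓ`.

`cross` : `Γ` preconnected, contains the two end points of a vertical segment and misses a ball
around a point `m` of the segment; then the two sides of the segment at `m` are separated by
`Γ ∪ segment`.
-/

set_option autoImplicit false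

noncomputable section

open Set Metric Topology Filter Complex

namespace Crest.Agent.R105.Tpr_719

/-- `(z - p) / (z - q)` has a continuous logarithm on `ℓ` -/
def HasLog (ℓ : Set ℂ) (p q : ℂ) : Prop :=
  ∃ f : ℂ → ℂ, ContinuousOn f ℓ ∧ ∀ z ∈ ℓ, exp (f z) = (z - p) / (z - q)

theorem hasLog_near {ℓ : Set ℂ} {p q : ℂ} {r : ℝ} (h : ∀ z ∈ ℓ, r ≤ dist z p)
    (hq : dist q p < r) : HasLog ℓ q p := by
  refine ⟨fun z => log ((z - q) / (z - p)), ?_, fun z hz => ?_⟩
  · intro z hz
    have h1 : 0 < dist z p := (dist_nonneg.trans_lt hq).trans_le (h z hz)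
    have hzp : z - p ≠ 0 := by
      rw [sub_ne_zero]; rintro rfl; simp at h1
    have hs : (z - q) / (z - p) ∈ slitPlane := by
      have e : (z - q) / (z - p) = 1 + (p - q) / (z - p) := by
        field_simp; ring
      rw [e]
      have h2 : ‖(p - q) / (z - p)‖ < 1 := by
        rw [norm_div, div_lt_one (norm_pos_iff.2 hzp), ← dist_eq_norm, ← dist_eq_norm, dist_comm]
        exact hq.trans_le (h z hz)
      exact mem_slitPlane_of_norm_lt_one h2
    refine ContinuousAt.continuousWithinAt ?_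
    refine ContinuousAt.clog ?_ hs
    exact (continuousAt_id.sub continuousAt_const).div
      (continuousAt_id.sub continuousAt_const) hzp
  · have h1 : 0 < dist z p := (dist_nonneg.trans_lt hq).trans_le (h z hz)
    have hzp : z - p ≠ 0 := by
      rw [sub_ne_zero]; rintro rfl; simp at h1
    have hzq : z - q ≠ 0 := by
      rw [sub_ne_zero]; rintro rfl
      exact absurd (h z hz) (not_le.2 hq)
    exact exp_log (div_ne_zero hzq hzp)

theorem HasLog.symm {ℓ : Set ℂ} {p q : ℂ} (h : HasLog ℓ p q) : HasLog ℓ q p := by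
  obtain ⟨f, hf, he⟩ := h
  refine ⟨fun z => - f z, hf.neg, fun z hz => ?_⟩
  rw [exp_neg, he z hz, inv_div]

theorem HasLog.trans {ℓ : Set ℂ} {p q r : ℂ} (h1 : HasLog ℓ p q) (h2 : HasLog ℓ q r)
    (hq : q ∉ ℓ) : HasLog ℓ p r := by
  obtain ⟨f, hf, he⟩ := h1
  obtain ⟨g, hg, he'⟩ := h2
  refine ⟨fun z => f z + g z, hf.add hg, fun z hz => ?_⟩
  have : z - q ≠ 0 := by rw [sub_ne_zero]; rintro rfl; exact hq hz
  rw [exp_add, he z hz, he' z hz, div_mul_div_cancel₀ this]

/-- points of a preconnected set which misses `ℓ` -/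
theorem log_of_conn {ℓ D : Set ℂ} (hℓ : IsClosed ℓ) (hD : IsPreconnected D)
    (hd : Disjoint D ℓ) {p q : ℂ} (hp : p ∈ D) (hq : q ∈ D) : HasLog ℓ p q := by
  refine hD.induction₂ (fun p q => HasLog ℓ p q) ?_ ?_ ?_ hp hq
  · intro x hx
    have hxl : x ∉ ℓ := fun h => (disjoint_left.1 hd) hx h
    obtain ⟨r, hr, hb⟩ := Metric.isOpen_iff.1 hℓ.isOpen_compl x hxl
    have h1 : ∀ z ∈ ℓ, r ≤ dist z x := by
      intro z hz
      by_contra h
      exact hb (mem_ball.2 (not_le.1 h)) hz
    filter_upwards [mem_nhdsWithin_of_mem_nhds (ball_mem_nhds x hr)] with y hy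
    exact (hasLog_near h1 hy).symm
  · intro x y z _ hy _ h1 h2
    exact h1.trans h2 fun h => (disjoint_left.1 hd) hy h
  · intro x y _ _ h
    exact h.symm

/-- vertical segment -/
def seg (t v2 v1 : ℝ) : Set ℂ := (fun v : ℝ => (⟨t, v⟩ : ℂ)) '' Icc v2 v1

theorem continuous_mk (t : ℝ) : Continuous fun v : ℝ => (⟨t, v⟩ : ℂ) := by
  have : (fun v : ℝ => (⟨t, v⟩ : ℂ)) = fun v : ℝ => (t : ℂ) + (v : ℂ) * I := by
    funext v
    apply Complex.ext <;> simp
  rw [this]; fun_prop

theorem mem_seg {t v2 v1 : ℝ} {z : ℂ} : z ∈ seg t v2 v1 ↔ z.re = t ∧ v2 ≤ z.im ∧ z.im ≤ v1 := by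
  constructor
  · rintro ⟨v, ⟨h1, h2⟩, rfl⟩
    exact ⟨rfl, h1, h2⟩
  · rintro ⟨h, h1, h2⟩
    exact ⟨z.im, ⟨h1, h2⟩, Complex.ext h.symm rfl⟩

theorem isCompact_seg (t v2 v1 : ℝ) : IsCompact (seg t v2 v1) :=
  isCompact_Icc.image (continuous_mk t)

/-- the quotient at a point of the vertical line -/
theorem quot_eq {t v0 κ ε : ℝ} (hκ : 0 < κ) :
    ((⟨t, v0 + ε⟩ : ℂ) - ⟨t - κ, v0⟩) / (⟨t, v0 + ε⟩ - ⟨t + κ, v0⟩) =
      ⟨(ε ^ 2 - κ ^ 2) / (κ ^ 2 + ε ^ 2), -(2 * κ * ε) / (κ ^ 2 + ε ^ 2)⟩ := by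
  have h0 : κ ^ 2 + ε ^ 2 ≠ 0 := by positivity
  have e1 : (⟨t, v0 + ε⟩ : ℂ) - ⟨t - κ, v0⟩ = ⟨κ, ε⟩ := by
    apply Complex.ext <;> simp
  have e2 : (⟨t, v0 + ε⟩ : ℂ) - ⟨t + κ, v0⟩ = ⟨-κ, ε⟩ := by
    apply Complex.ext <;> simp
  have h3 : (⟨-κ, ε⟩ : ℂ) ≠ 0 := by
    intro h
    have := congrArg Complex.re h
    simp at this
    linarith
  rw [e1, e2, div_eq_iff h3]
  apply Complex.ext
  · simp only [Complex.mul_re]
    field_simp
    ring
  · simp only [Complex.mul_im]
    field_simp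
    ring

/-- **the crossing lemma** -/
theorem cross {Γ D : Set ℂ} {t v0 v1 v2 r κ : ℝ} (hΓ : IsPreconnected Γ) (hΓc : IsClosed Γ)
    (h2 : v2 < v0) (h1 : v0 < v1) (hm1 : (⟨t, v1⟩ : ℂ) ∈ Γ) (hm2 : (⟨t, v2⟩ : ℂ) ∈ Γ)
    (hκ : 0 < κ) (hr : κ < r) (hball : ∀ z ∈ Γ, r ≤ dist z ⟨t, v0⟩)
    (hD : IsPreconnected D) (hd : Disjoint D (Γ ∪ seg t v2 v1))
    (hl : (⟨t - κ, v0⟩ : ℂ) ∈ D) (hr' : (⟨t + κ, v0⟩ : ℂ) ∈ D) : False := by
  set m : ℂ := ⟨t, v0⟩ with hm
  set pl : ℂ := ⟨t - κ, v0⟩ with hpl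
  set pr : ℂ := ⟨t + κ, v0⟩ with hpr
  set ℓ : Set ℂ := Γ ∪ seg t v2 v1 with hℓ
  have hℓc : IsClosed ℓ := hΓc.union (isCompact_seg _ _ _).isClosed
  obtain ⟨f, hf, hfe⟩ := log_of_conn hℓc hD hd hl hr'
  have hmℓ : m ∈ ℓ := Or.inr (mem_seg.2 ⟨rfl, h2.le, h1.le⟩)
  set q : ℂ → ℂ := fun z => (z - pl) / (z - pr) with hq
  -- `ℓ` minus the point
  set S : Set ℂ := ℓ \ {m} with hS
  have hSne : ∀ z ∈ S, z ≠ pl ∧ z ≠ pr := by
    intro z hz
    exact ⟨fun h => (disjoint_left.1 hd) hl (h ▸ hz.1), fun h => (disjoint_left.1 hd) hr' (h ▸ hz.1)⟩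
  have hslit : ∀ z ∈ S, q z ∈ slitPlane := by
    intro z hz
    by_contra hns
    rw [mem_slitPlane_iff, not_or, not_lt, not_not] at hns
    obtain ⟨hre, him⟩ := hns
    have hzr : z - pr ≠ 0 := sub_ne_zero.2 (hSne z hz).2
    -- `q z = -a`, `a ≥ 0`
    have hqz : z - pl = (q z) * (z - pr) := by
      simp only [hq]; rw [div_mul_cancel₀ _ hzr]
    have e1 := congrArg Complex.re hqz
    have e2 := congrArg Complex.im hqz
    rw [Complex.mul_re, him] at e1
    rw [Complex.mul_im, him] at e2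
    simp only [Complex.sub_re, Complex.sub_im, hpl, hpr, zero_mul, sub_zero, add_zero] at e1 e2
    set a := (q z).re with ha
    have him0 : z.im = v0 := by
      have : (1 - a) * (z.im - v0) = 0 := by linarith
      rcases mul_eq_zero.1 this with h | h
      · exfalso; linarith
      · linarith
    have hre1 : z.re - t = -κ * (1 + a) / (1 - a) := by
      rw [eq_div_iff (by linarith)]
      nlinarith
    have hre2 : |z.re - t| ≤ κ := by
      rw [hre1, abs_div, abs_of_pos (show 0 < 1 - a by linarith), div_le_iff₀ (by linarith),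
        abs_mul, abs_neg, abs_of_pos hκ]
      have : |1 + a| ≤ 1 - a := abs_le.2 ⟨by linarith, by linarith⟩
      nlinarith
    rcases hz.1 with h | h
    · have h3 := hball z h
      have h4 : dist z m = |z.re - t| := by
        rw [dist_eq_norm]
        have : z - m = ((z.re - t : ℝ) : ℂ) := by
          apply Complex.ext
          · simp [hm]
          · simp [hm, him0]
        rw [this, Complex.norm_real, Real.norm_eq_abs]
      linarith [h4 ▸ h3]
    · obtain ⟨h3, -, -⟩ := mem_seg.1 h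
      apply hz.2
      exact Complex.ext h3 him0
  have hqc : ContinuousOn q S := by
    intro z hz
    have hzr : z - pr ≠ 0 := sub_ne_zero.2 (hSne z hz).2
    exact ((continuousAt_id.sub continuousAt_const).div
      (continuousAt_id.sub continuousAt_const) hzr).continuousWithinAt
  -- the difference
  set θ : ℂ → ℝ := fun z => ((f z).im - (q z).arg) / (2 * Real.pi) with hθ
  have hθc : ContinuousOn θ S := by
    refine ContinuousOn.div_const ?_ _
    refine ContinuousOn.sub (Complex.continuous_im.comp_continuousOn (hf.mono sdiff_subset)) ?_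
    intro z hz
    exact (continuousAt_arg (hslit z hz)).comp_continuousWithinAt (hqc z hz)
  have hpi : (2 * Real.pi) ≠ 0 := by positivity
  have hint : ∀ z ∈ S, ∃ n : ℤ, θ z = n := by
    intro z hz
    have h3 : exp (f z) = exp (log (q z)) := by
      rw [exp_log (slitPlane_ne_zero (hslit z hz)), hfe z hz.1]
    obtain ⟨n, hn⟩ := exp_eq_exp_iff_exists_int.1 h3
    refine ⟨n, ?_⟩
    have h4 := congrArg Complex.im hn
    simp only [Complex.add_im, Complex.log_im] at h4
    have h5 : ((n : ℂ) * (2 * Real.pi * I)).im = n * (2 * Real.pi) := by simp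
    rw [h5] at h4
    simp only [hθ]
    rw [h4]
    field_simp
    ring
  -- `S` is connected
  have hSc : IsPreconnected S := by
    have e : S = Γ ∪ (fun v : ℝ => (⟨t, v⟩ : ℂ)) '' Ico v2 v0 ∪
        (fun v : ℝ => (⟨t, v⟩ : ℂ)) '' Ioc v0 v1 := by
      ext z
      constructor
      · rintro ⟨h | h, hzm⟩
        · exact Or.inl (Or.inl h)
        · obtain ⟨v, ⟨h3, h4⟩, rfl⟩ := h
          rcases lt_trichotomy v v0 with h5 | h5 | h5
          · exact Or.inl (Or.inr ⟨v, ⟨h3, h5⟩, rfl⟩)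
          · exact absurd (by rw [h5]; rfl) hzm
          · exact Or.inr ⟨v, ⟨h5, h4⟩, rfl⟩
      · rintro ((h | ⟨v, ⟨h3, h4⟩, rfl⟩) | ⟨v, ⟨h3, h4⟩, rfl⟩)
        · refine ⟨Or.inl h, ?_⟩
          rintro rfl
          have := hball m h
          rw [dist_self] at this
          linarith
        · refine ⟨Or.inr ⟨v, ⟨h3, by linarith⟩, rfl⟩, ?_⟩
          intro h
          have := congrArg Complex.im h
          simp only [hm] at this
          linarith
        · refine ⟨Or.inr ⟨v, ⟨by linarith, h4⟩, rfl⟩, ?_⟩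
          intro h
          have := congrArg Complex.im h
          simp only [hm] at this
          linarith
    rw [e]
    have c1 : IsPreconnected (Γ ∪ (fun v : ℝ => (⟨t, v⟩ : ℂ)) '' Ico v2 v0) :=
      hΓ.union _ hm2 ⟨v2, ⟨le_rfl, h2⟩, rfl⟩
        (isPreconnected_Ico.image _ (continuous_mk t).continuousOn)
    exact c1.union _ (Or.inl hm1) ⟨v1, ⟨h1, le_rfl⟩, rfl⟩
      (isPreconnected_Ioc.image _ (continuous_mk t).continuousOn)
  -- the two sequences
  set εn : ℕ → ℝ := fun n => 1 / ((n : ℝ) + 1) with hε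
  have hε0 : ∀ n, 0 < εn n := fun n => by positivity
  have hεt : Tendsto εn atTop (𝓝 0) := tendsto_one_div_add_atTop_nhds_zero_nat
  set zu : ℕ → ℂ := fun n => ⟨t, v0 + εn n⟩ with hzu
  set zd : ℕ → ℂ := fun n => ⟨t, v0 + -εn n⟩ with hzd
  have hzut : Tendsto zu atTop (𝓝 m) := by
    have : Tendsto (fun n => v0 + εn n) atTop (𝓝 (v0 + 0)) := hεt.const_add v0
    rw [add_zero] at this
    exact ((continuous_mk t).tendsto v0).comp this
  have hzdt : Tendsto zd atTop (𝓝 m) := by
    have : Tendsto (fun n => v0 + -εn n) atTop (𝓝 (v0 + -0)) := (hεt.neg).const_add v0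
    rw [neg_zero, add_zero] at this
    exact ((continuous_mk t).tendsto v0).comp this
  have hzuS : ∀ᶠ n in atTop, zu n ∈ S := by
    filter_upwards [hεt.eventually (gt_mem_nhds (show (0:ℝ) < v1 - v0 by linarith))] with n hn
    refine ⟨Or.inr (mem_seg.2 ⟨rfl, ?_, ?_⟩), ?_⟩
    · simp only [hzu]; linarith [hε0 n]
    · simp only [hzu]; linarith
    · intro h
      have := congrArg Complex.im h
      simp only [hm, hzu] at this
      linarith [hε0 n]
  have hzdS : ∀ᶠ n in atTop, zd n ∈ S := by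
    filter_upwards [hεt.eventually (gt_mem_nhds (show (0:ℝ) < v0 - v2 by linarith))] with n hn
    refine ⟨Or.inr (mem_seg.2 ⟨rfl, ?_, ?_⟩), ?_⟩
    · simp only [hzd]; linarith
    · simp only [hzd]; linarith [hε0 n]
    · intro h
      have := congrArg Complex.im h
      simp only [hm, hzd] at this
      linarith [hε0 n]
  have hfu : Tendsto (fun n => (f (zu n)).im) atTop (𝓝 (f m).im) := by
    have h3 : Tendsto f (𝓝[ℓ] m) (𝓝 (f m)) := hf m hmℓ
    have h4 : Tendsto zu atTop (𝓝[ℓ] m) :=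
      tendsto_nhdsWithin_iff.2 ⟨hzut, hzuS.mono fun n hn => hn.1⟩
    exact (Complex.continuous_im.tendsto _).comp (h3.comp h4)
  have hfd : Tendsto (fun n => (f (zd n)).im) atTop (𝓝 (f m).im) := by
    have h3 : Tendsto f (𝓝[ℓ] m) (𝓝 (f m)) := hf m hmℓ
    have h4 : Tendsto zd atTop (𝓝[ℓ] m) :=
      tendsto_nhdsWithin_iff.2 ⟨hzdt, hzdS.mono fun n hn => hn.1⟩
    exact (Complex.continuous_im.tendsto _).comp (h3.comp h4)
  -- limits of the quotient
  have hqm : ∀ s : ℕ → ℂ, Tendsto s atTop (𝓝 m) → Tendsto (fun n => q (s n)) atTop (𝓝 (-1)) := by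
    intro s hs
    have h3 : q m = -1 := by
      have := quot_eq (t := t) (v0 := v0) (ε := 0) hκ
      simp only [add_zero] at this
      simp only [hq, hm, hpl, hpr]
      rw [this]
      apply Complex.ext
      · simp; field_simp
      · simp
    have h4 : ContinuousAt q m := by
      have hmr : m - pr ≠ 0 := by
        intro h
        have := congrArg Complex.re h
        simp [hm, hpr] at this
        linarith
      exact (continuousAt_id.sub continuousAt_const).div
        (continuousAt_id.sub continuousAt_const) hmr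
    have := h4.tendsto.comp hs
    rw [h3] at this
    exact this
  have hre1 : ((-1 : ℂ)).re < 0 := by simp
  have him1 : ((-1 : ℂ)).im = 0 := by simp
  have hau : Tendsto (fun n => (q (zu n)).arg) atTop (𝓝 (-Real.pi)) := by
    refine (tendsto_arg_nhdsWithin_im_neg_of_re_neg_of_im_zero hre1 him1).comp ?_
    refine tendsto_nhdsWithin_iff.2 ⟨hqm zu hzut, Eventually.of_forall fun n => ?_⟩
    show (q (zu n)).im < 0
    have := quot_eq (t := t) (v0 := v0) (ε := εn n) hκ
    simp only [hq, hzu, hpl, hpr]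
    rw [this]
    show -(2 * κ * εn n) / (κ ^ 2 + εn n ^ 2) < 0
    have h3 := hε0 n
    apply div_neg_of_neg_of_pos
    · nlinarith [mul_pos hκ h3]
    · positivity
  have had : Tendsto (fun n => (q (zd n)).arg) atTop (𝓝 Real.pi) := by
    have h3 := (continuousWithinAt_arg_of_re_neg_of_im_zero hre1 him1).tendsto
    rw [arg_neg_one] at h3
    refine h3.comp ?_
    refine tendsto_nhdsWithin_iff.2 ⟨hqm zd hzdt, Eventually.of_forall fun n => ?_⟩
    show 0 ≤ (q (zd n)).im
    have := quot_eq (t := t) (v0 := v0) (ε := -εn n) hκ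
    simp only [hq, hzd, hpl, hpr]
    rw [this]
    show 0 ≤ -(2 * κ * -εn n) / (κ ^ 2 + (-εn n) ^ 2)
    have h3 := hε0 n
    apply div_nonneg
    · nlinarith [mul_pos hκ h3]
    · positivity
  have hθu : Tendsto (fun n => θ (zu n)) atTop (𝓝 (((f m).im - (-Real.pi)) / (2 * Real.pi))) :=
    (hfu.sub hau).div_const _
  have hθd : Tendsto (fun n => θ (zd n)) atTop (𝓝 (((f m).im - Real.pi) / (2 * Real.pi))) :=
    (hfd.sub had).div_const _
  have heq : (fun n => θ (zu n)) =ᶠ[atTop] fun n => θ (zd n) := by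
    filter_upwards [hzuS, hzdS] with n h3 h4
    exact Uni_659.int_const hSc hθc hint h3 h4
  have h5 := tendsto_nhds_unique (hθu.congr' heq) hθd
  rw [div_left_inj' hpi] at h5
  linarith [Real.pi_pos]

end Crest.Agent.R105.Tpr_719
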