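import Crest.Agent.R105.Tpr1_719

/-!
# Row 105 (S0138), node E13: the planar lemma (T'), part 2 (helper719)

`K` contains the rectangle `[c,c'] × [m1,m2]`, `t` in `(c,c')`. `O` open connected, disjoint from `K`,
`O ⊆ {t0 < re}` (`c < t0 < t`). `D` connected, disjoint from `O` and `K`, unbounded, accumulating at
a point of `K` right of `t`. Then `O` cannot contain both ends of the line `re = t` at `K`.

`no_two_ends`  : this form; `no_two_ends_left` : the form rotated by `π`.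
-/

set_option autoImplicit false

noncomputable section

open Set Metric Topology Filter Complex

namespace Crest.Agent.R105.Tpr_719

/-- two preconnected sets, the second contains a point of the closure of the first -/
theorem union_closure {A B : Set ℂ} (hA : IsPreconnected A) (hB : IsPreconnected B) {p : ℂ}
    (hp : p ∈ closure A) (hpB : p ∈ B) : IsPreconnected (A ∪ B) := by
  have h1 : IsPreconnected (insert p A) :=
    hA.subset_closure (subset_insert _ _) (insert_subset hp subset_closure)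
  have e : A ∪ B = insert p A ∪ B := by
    ext z
    simp only [mem_union, mem_insert_iff]
    constructor
    · rintro (h | h)
      · exact Or.inl (Or.inr h)
      · exact Or.inr h
    · rintro ((rfl | h) | h)
      · exact Or.inr hpB
      · exact Or.inl h
      · exact Or.inr h
  rw [e]
  exact h1.union p (mem_insert _ _) hpB hB

theorem isPreconnected_lt (t0 : ℝ) : IsPreconnected {z : ℂ | z.re < t0} :=
  (convex_halfSpace_re_lt t0).isPreconnected

/-- **(T')** -/
theorem no_two_ends {K O D : Set ℂ} {c c' m1 m2 t0 t v1 v2 : ℝ} (hm : m1 < m2) (hct : c < t0)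
    (htt : t0 < t) (htc : t < c')
    (hsq : ∀ z : ℂ, c ≤ z.re → z.re ≤ c' → m1 ≤ z.im → z.im ≤ m2 → z ∈ K)
    (hKr : IsPreconnected (K ∩ {z | t < z.re})) (hKl : IsPreconnected (K ∩ {z | z.re < t}))
    (hO : IsOpen O) (hOc : IsPreconnected O) (hOt : ∀ z ∈ O, t0 < z.re) (hOK : Disjoint O K)
    (h1 : m2 < v1) (h2 : v2 < m1) (hu : ∀ v, m2 < v → v ≤ v1 → (⟨t, v⟩ : ℂ) ∈ O)
    (hd : ∀ v, v2 ≤ v → v < m1 → (⟨t, v⟩ : ℂ) ∈ O)
    (hD : IsPreconnected D) (hDO : Disjoint D O) (hDK : Disjoint D K)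
    (hDf : ∀ R : ℝ, ∃ z ∈ D, R ≤ ‖z‖) {p : ℂ} (hpK : p ∈ K) (hpt : t < p.re)
    (hpD : p ∈ closure D) : False := by
  have hA : (⟨t, v1⟩ : ℂ) ∈ O := hu v1 h1 le_rfl
  have hB : (⟨t, v2⟩ : ℂ) ∈ O := hd v2 le_rfl h2
  have hOpc : IsPathConnected O :=
    (hO.isConnected_iff_isPathConnected).1 ⟨⟨_, hA⟩, hOc⟩
  obtain ⟨γ, hγ⟩ := hOpc.joinedIn _ hA _ hB
  set Γ : Set ℂ := range γ with hΓ
  have hΓO : Γ ⊆ O := by
    rintro _ ⟨x, rfl⟩
    exact hγ x
  have hΓc : IsCompact Γ := isCompact_range γ.continuous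
  have hΓp : IsPreconnected Γ := isPreconnected_range γ.continuous
  have hΓ1 : (⟨t, v1⟩ : ℂ) ∈ Γ := ⟨0, γ.source⟩
  have hΓ2 : (⟨t, v2⟩ : ℂ) ∈ Γ := ⟨1, γ.target⟩
  set v0 : ℝ := (m1 + m2) / 2 with hv0
  set r : ℝ := min ((m2 - m1) / 2) (min (t - c) (c' - t)) with hr
  have hr0 : 0 < r := by
    rw [hr]
    refine lt_min (by linarith) (lt_min (by linarith) (by linarith))
  have hr1 : r ≤ (m2 - m1) / 2 := min_le_left _ _
  have hr2 : r ≤ t - c := (min_le_right _ _).trans (min_le_left _ _)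
  have hr3 : r ≤ c' - t := (min_le_right _ _).trans (min_le_right _ _)
  have hin : ∀ z : ℂ, dist z ⟨t, v0⟩ < r → z ∈ K := by
    intro z hz
    rw [dist_eq_norm] at hz
    have e1 : |z.re - t| < r := lt_of_le_of_lt (by simpa using Complex.abs_re_le_norm (z - ⟨t, v0⟩)) hz
    have e2 : |z.im - v0| < r := lt_of_le_of_lt (by simpa using Complex.abs_im_le_norm (z - ⟨t, v0⟩)) hz
    rw [abs_lt] at e1 e2
    refine hsq z (by linarith) (by linarith) ?_ ?_
    · rw [hv0] at e2; linarith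
    · rw [hv0] at e2; linarith
  have hball : ∀ z ∈ Γ, r ≤ dist z ⟨t, v0⟩ := by
    intro z hz
    by_contra h
    exact (disjoint_left.1 hOK) (hΓO hz) (hin z (not_le.1 h))
  obtain ⟨R, hR⟩ := (isBounded_iff_subset_closedBall (0 : ℂ)).1
    ((hΓc.union (isCompact_seg t v2 v1)).isBounded)
  set R' : ℝ := max R 0 + 1 with hR'
  have hfar : ∀ z ∈ Γ ∪ seg t v2 v1, ‖z‖ < R' := by
    intro z hz
    have := hR hz
    rw [mem_closedBall, dist_zero_right] at this
    have := le_max_left R 0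
    linarith
  set A1 : Set ℂ := D ∪ (K ∩ {z | t < z.re}) with hA1
  set A2 : Set ℂ := {z : ℂ | z.re < t0} ∪ (K ∩ {z | z.re < t}) with hA2
  set F : Set ℂ := {z : ℂ | R' ≤ ‖z‖} with hF
  have c1 : IsPreconnected A1 := union_closure hD hKr hpD ⟨hpK, hpt⟩
  have c2 : IsPreconnected A2 := by
    refine (isPreconnected_lt t0).union ⟨c, v0⟩ hct ⟨hsq _ le_rfl (by simp only; linarith)
      (by simp only; rw [hv0]; linarith) (by simp only; rw [hv0]; linarith), ?_⟩ hKl
    show c < t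
    linarith
  have c3 : IsPreconnected (A1 ∪ F) := by
    obtain ⟨z, hz, hzR⟩ := hDf R'
    exact c1.union z (Or.inl hz) hzR (Uni_659.preconnected_far R')
  have c4 : IsPreconnected (A1 ∪ F ∪ A2) := by
    set x : ℝ := max R' (|t0| + 1) with hx
    have hx1 : R' ≤ x := le_max_left _ _
    have hx2 : |t0| + 1 ≤ x := le_max_right _ _
    refine c3.union (⟨-x, 0⟩ : ℂ) (Or.inr ?_) (Or.inl ?_) c2
    · show R' ≤ ‖(⟨-x, 0⟩ : ℂ)‖
      have : |(-x : ℝ)| ≤ ‖(⟨-x, 0⟩ : ℂ)‖ := Complex.abs_re_le_norm ⟨-x, 0⟩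
      rw [abs_neg] at this
      exact hx1.trans ((le_abs_self x).trans this)
    · show -x < t0
      have := neg_abs_le t0
      linarith
  have hseg : ∀ z ∈ seg t v2 v1, z ∈ O ∨ z ∈ K := by
    intro z hz
    obtain ⟨e1, e2, e3⟩ := mem_seg.1 hz
    have e : z = ⟨t, z.im⟩ := Complex.ext e1 rfl
    rcases lt_or_ge m2 z.im with h | h
    · left; rw [e]; exact hu _ h e3
    · rcases lt_or_ge z.im m1 with h' | h'
      · left; rw [e]; exact hd _ e2 h'
      · right; exact hsq z (by rw [e1]; linarith) (by rw [e1]; linarith) h' h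
  have hdis : Disjoint (A1 ∪ F ∪ A2) (Γ ∪ seg t v2 v1) := by
    rw [disjoint_left]
    rintro z (((hz | hz) | hz) | (hz | hz)) (h | h)
    · exact (disjoint_left.1 hDO) hz (hΓO h)
    · rcases hseg z h with h' | h'
      · exact (disjoint_left.1 hDO) hz h'
      · exact (disjoint_left.1 hDK) hz h'
    · exact (disjoint_left.1 hOK) (hΓO h) hz.1
    · have h3 : t < z.re := hz.2
      rw [(mem_seg.1 h).1] at h3
      exact lt_irrefl _ h3
    · exact absurd (hfar z (Or.inl h)) (not_lt.2 hz)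
    · exact absurd (hfar z (Or.inr h)) (not_lt.2 hz)
    · have h3 : z.re < t0 := hz
      linarith [hOt z (hΓO h)]
    · have h3 : z.re < t0 := hz
      rw [(mem_seg.1 h).1] at h3
      linarith
    · exact (disjoint_left.1 hOK) (hΓO h) hz.1
    · have h3 : z.re < t := hz.2
      rw [(mem_seg.1 h).1] at h3
      exact lt_irrefl _ h3
  have hv01 : m1 < v0 := by rw [hv0]; linarith
  have hv02 : v0 < m2 := by rw [hv0]; linarith
  refine cross (κ := r / 2) hΓp hΓc.isClosed (v0 := v0) (by linarith) (by linarith) hΓ1 hΓ2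
    (by linarith) (by linarith : r / 2 < r) hball c4 hdis ?_ ?_
  · refine Or.inr (Or.inr ⟨hsq _ ?_ ?_ ?_ ?_, ?_⟩)
    · show c ≤ t - r / 2; linarith
    · show t - r / 2 ≤ c'; linarith
    · show m1 ≤ v0; linarith
    · show v0 ≤ m2; linarith
    · show t - r / 2 < t; linarith
  · refine Or.inl (Or.inl (Or.inr ⟨hsq _ ?_ ?_ ?_ ?_, ?_⟩))
    · show c ≤ t + r / 2; linarith
    · show t + r / 2 ≤ c'; linarith
    · show m1 ≤ v0; linarith
    · show v0 ≤ m2; linarith
    · show t < t + r / 2; linarith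

theorem neg_mk (a b : ℝ) : -(⟨a, b⟩ : ℂ) = ⟨-a, -b⟩ := by
  apply Complex.ext <;> simp

/-- **(T')**, left version: `O ⊆ {re < t0}`, `t < t0 < c'`, `D` accumulates at `K` left of `t`. -/
theorem no_two_ends_left {K O D : Set ℂ} {c c' m1 m2 t0 t v1 v2 : ℝ} (hm : m1 < m2) (hct : t0 < c')
    (htt : t < t0) (htc : c < t)
    (hsq : ∀ z : ℂ, c ≤ z.re → z.re ≤ c' → m1 ≤ z.im → z.im ≤ m2 → z ∈ K)
    (hKr : IsPreconnected (K ∩ {z | t < z.re})) (hKl : IsPreconnected (K ∩ {z | z.re < t}))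
    (hO : IsOpen O) (hOc : IsPreconnected O) (hOt : ∀ z ∈ O, z.re < t0) (hOK : Disjoint O K)
    (h1 : m2 < v1) (h2 : v2 < m1) (hu : ∀ v, m2 < v → v ≤ v1 → (⟨t, v⟩ : ℂ) ∈ O)
    (hd : ∀ v, v2 ≤ v → v < m1 → (⟨t, v⟩ : ℂ) ∈ O)
    (hD : IsPreconnected D) (hDO : Disjoint D O) (hDK : Disjoint D K)
    (hDf : ∀ R : ℝ, ∃ z ∈ D, R ≤ ‖z‖) {p : ℂ} (hpK : p ∈ K) (hpt : p.re < t)
    (hpD : p ∈ closure D) : False := by
  have hn : Continuous fun z : ℂ => -z := continuous_neg
  have e0 : ∀ A : Set ℂ, (fun z : ℂ => -z) '' A = {z | -z ∈ A} := by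
    intro A
    ext z
    constructor
    · rintro ⟨w, hw, rfl⟩
      show - -w ∈ A
      rwa [neg_neg]
    · intro h
      exact ⟨-z, h, neg_neg z⟩
  have hpre : ∀ {A : Set ℂ}, IsPreconnected A → IsPreconnected {z : ℂ | -z ∈ A} := by
    intro A hA
    rw [← e0]
    exact hA.image _ hn.continuousOn
  refine no_two_ends (K := {z | -z ∈ K}) (O := {z | -z ∈ O}) (D := {z | -z ∈ D})
    (c := -c') (c' := -c) (m1 := -m2) (m2 := -m1) (t0 := -t0) (t := -t) (v1 := -v2) (v2 := -v1)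
    (p := -p) (by linarith) (by linarith) (by linarith) (by linarith) ?_ ?_ ?_ ?_ (hpre hOc) ?_ ?_
    (by linarith) (by linarith) ?_ ?_ (hpre hD) ?_ ?_ ?_ ?_ ?_ ?_
  · intro z a1 a2 a3 a4
    refine hsq (-z) ?_ ?_ ?_ ?_ <;> simp only [neg_re, neg_im] <;> linarith
  · have e : {z : ℂ | -z ∈ K} ∩ {z | -t < z.re} = {z | -z ∈ K ∩ {z | z.re < t}} := by
      ext z
      constructor
      · rintro ⟨a1, a2⟩
        refine ⟨a1, ?_⟩
        have a3 : -t < z.re := a2
        show (-z).re < t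
        simp only [neg_re]; linarith
      · rintro ⟨a1, a2⟩
        refine ⟨a1, ?_⟩
        have a3 : (-z).re < t := a2
        simp only [neg_re] at a3
        show -t < z.re
        linarith
    rw [e]
    exact hpre hKl
  · have e : {z : ℂ | -z ∈ K} ∩ {z | z.re < -t} = {z | -z ∈ K ∩ {z | t < z.re}} := by
      ext z
      constructor
      · rintro ⟨a1, a2⟩
        refine ⟨a1, ?_⟩
        have a3 : z.re < -t := a2
        show t < (-z).re
        simp only [neg_re]; linarith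
      · rintro ⟨a1, a2⟩
        refine ⟨a1, ?_⟩
        have a3 : t < (-z).re := a2
        simp only [neg_re] at a3
        show z.re < -t
        linarith
    rw [e]
    exact hpre hKr
  · exact hO.preimage hn
  · intro z hz
    have := hOt (-z) hz
    simp only [neg_re] at this
    linarith
  · rw [disjoint_left]
    intro z hz hz'
    exact (disjoint_left.1 hOK) hz hz'
  · intro v a1 a2
    show -(⟨-t, v⟩ : ℂ) ∈ O
    rw [neg_mk, neg_neg]
    exact hd (-v) (by linarith) (by linarith)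
  · intro v a1 a2
    show -(⟨-t, v⟩ : ℂ) ∈ O
    rw [neg_mk, neg_neg]
    exact hu (-v) (by linarith) (by linarith)
  · rw [disjoint_left]
    intro z hz hz'
    exact (disjoint_left.1 hDO) hz hz'
  · rw [disjoint_left]
    intro z hz hz'
    exact (disjoint_left.1 hDK) hz hz'
  · intro R
    obtain ⟨z, hz, hR⟩ := hDf R
    refine ⟨-z, ?_, by rwa [norm_neg]⟩
    show - -z ∈ D
    rwa [neg_neg]
  · show - -p ∈ K
    rwa [neg_neg]
  · simp only [neg_re]; linarith
  · have h3 : (fun z : ℂ => -z) '' closure D ⊆ closure ((fun z : ℂ => -z) '' D) :=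
      image_closure_subset_closure_image hn
    rw [e0 D] at h3
    exact h3 ⟨p, hpD, rfl⟩

/-! ### the two parts of a solid -/

/-- a set which is a rectangle with vertical segments attached -/
structure Tooth (K : Set ℂ) (c c' m1 m2 : ℝ) : Prop where
  hc : c ≤ c'
  hm : m1 ≤ m2
  sq : ∀ z : ℂ, c ≤ z.re → z.re ≤ c' → m1 ≤ z.im → z.im ≤ m2 → z ∈ K
  strip : ∀ z ∈ K, c ≤ z.re ∧ z.re ≤ c'
  up : ∀ z ∈ K, m2 < z.im → ∀ v, m2 ≤ v → v ≤ z.im → (⟨z.re, v⟩ : ℂ) ∈ K
  dn : ∀ z ∈ K, z.im < m1 → ∀ v, z.im ≤ v → v ≤ m1 → (⟨z.re, v⟩ : ℂ) ∈ K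

/-- the part of a tooth set over an interval is preconnected -/
theorem Tooth.part {K : Set ℂ} {c c' m1 m2 : ℝ} (h : Tooth K c c' m1 m2) {J : Set ℝ}
    (hJ : J.OrdConnected) : IsPreconnected (K ∩ {z | z.re ∈ J}) := by
  rcases (K ∩ {z | z.re ∈ J}).eq_empty_or_nonempty with he | ⟨z0, hz0⟩
  · rw [he]; exact isPreconnected_empty
  -- the horizontal segment at height `m1`
  have hline : IsPreconnected ((fun x : ℝ => (⟨x, m1⟩ : ℂ)) '' (Icc c c' ∩ J)) := by
    have hcon : Continuous fun x : ℝ => (⟨x, m1⟩ : ℂ) := by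
      have : (fun x : ℝ => (⟨x, m1⟩ : ℂ)) = fun x : ℝ => (x : ℂ) + (m1 : ℂ) * I := by
        funext v
        apply Complex.ext <;> simp
      rw [this]; fun_prop
    exact ((ordConnected_Icc.inter hJ).isPreconnected).image _ hcon.continuousOn
  refine isPreconnected_of_forall (⟨z0.re, m1⟩ : ℂ) fun z hz => ?_
  have hz0s := h.strip z0 hz0.1
  have hzs := h.strip z hz.1
  -- the vertical segment through `z`
  set lo : ℝ := min z.im m1 with hlo
  set hi : ℝ := max z.im m1 with hhi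
  refine ⟨(fun x : ℝ => (⟨x, m1⟩ : ℂ)) '' (Icc c c' ∩ J) ∪ seg z.re lo hi, ?_,
    Or.inl ⟨z0.re, ⟨hz0s, hz0.2⟩, rfl⟩, Or.inr (mem_seg.2 ⟨rfl, min_le_left _ _, le_max_left _ _⟩), ?_⟩
  · rintro w (⟨x, ⟨hx1, hx2⟩, rfl⟩ | hw)
    · exact ⟨h.sq _ hx1.1 hx1.2 le_rfl h.hm, hx2⟩
    · obtain ⟨e1, e2, e3⟩ := mem_seg.1 hw
      have e : w = ⟨z.re, w.im⟩ := Complex.ext e1 rfl
      refine ⟨?_, ?_⟩
      · rw [e]
        rcases lt_or_ge w.im m1 with a | a
        · have a1 : z.im ≤ w.im := by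
            rcases min_le_iff.1 (show min z.im m1 ≤ w.im from e2) with b | b
            · exact b
            · linarith
          exact h.dn z hz.1 (by linarith) _ a1 a.le
        · rcases le_or_gt w.im m2 with b | b
          · exact h.sq _ hzs.1 hzs.2 a b
          · have a1 : w.im ≤ z.im := by
              rcases le_max_iff.1 (show w.im ≤ max z.im m1 from e3) with d | d
              · exact d
              · linarith [h.hm]
            exact h.up z hz.1 (by linarith) _ b.le a1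
      · show w.re ∈ J
        rw [e1]; exact hz.2
  · refine hline.union (⟨z.re, m1⟩ : ℂ) ⟨z.re, ⟨hzs, hz.2⟩, rfl⟩
      (mem_seg.2 ⟨rfl, min_le_right _ _, le_max_right _ _⟩)
      (isPreconnected_Icc.image _ (continuous_mk _).continuousOn)

theorem Tooth.right {K : Set ℂ} {c c' m1 m2 : ℝ} (h : Tooth K c c' m1 m2) (t : ℝ) :
    IsPreconnected (K ∩ {z | t < z.re}) := h.part (J := Ioi t) ordConnected_Ioi

theorem Tooth.left {K : Set ℂ} {c c' m1 m2 : ℝ} (h : Tooth K c c' m1 m2) (t : ℝ) :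
    IsPreconnected (K ∩ {z | z.re < t}) := h.part (J := Iio t) ordConnected_Iio

end Crest.Agent.R105.Tpr_719
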