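import Crest.Agent.R105.Tra1_937

/-!
# Transport II: integrals, Rademacher, locally Lipschitz functions, `x = Re F`, `y = Im F`
-/

set_option autoImplicit false

open Set Filter MeasureTheory
open scoped Topology ENNReal NNReal

namespace Crest.Agent.R105.Tra_937

noncomputable section

/-- Rademacher for locally Lipschitz functions on an open set. -/
theorem ae_diff_of_locLip {V : Set ℂ} (hV : IsOpen V) {u : ℂ → ℝ}
    (hu : LocallyLipschitzOn V u) : ∀ᵐ z ∂(volume.restrict V), DifferentiableAt ℝ u z := by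
  rw [ae_restrict_iff' hV.measurableSet]
  have h1 : ∀ z : V, ∃ r > 0, Metric.ball (z : ℂ) r ⊆ V ∧ ∃ K, LipschitzOnWith K u (Metric.ball (z : ℂ) r) := by
    rintro ⟨z, hz⟩
    obtain ⟨K, t, ht, hK⟩ := hu hz
    rw [mem_nhdsWithin_iff_exists_mem_nhds_inter] at ht
    obtain ⟨s, hs, hst⟩ := ht
    obtain ⟨r, hr, hb⟩ := Metric.mem_nhds_iff.1 (inter_mem hs (hV.mem_nhds hz))
    exact ⟨r, hr, fun x hx => (hb hx).2, K, hK.mono fun x hx => hst (hb hx)⟩
  choose r hr hrV K hK using h1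
  obtain ⟨T, hT, hTV⟩ := TopologicalSpace.isOpen_iUnion_countable
    (fun z : V => Metric.ball (z : ℂ) (r z)) (fun _ => Metric.isOpen_ball)
  have h2 : ∀ z ∈ T, ∀ᵐ x : ℂ, x ∈ Metric.ball (z : ℂ) (r z) → DifferentiableAt ℝ u x := by
    intro z _
    filter_upwards [(hK z).ae_differentiableWithinAt_of_mem (μ := volume)] with x hx hxb
    exact (hx hxb).differentiableAt (Metric.isOpen_ball.mem_nhds hxb)
  have h3 := (ae_ball_iff hT).2 h2
  filter_upwards [h3] with x hx hxV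
  have : x ∈ ⋃ z : V, Metric.ball (z : ℂ) (r z) :=
    mem_iUnion.2 ⟨⟨x, hxV⟩, Metric.mem_ball_self (hr _)⟩
  rw [← hTV] at this
  simp only [mem_iUnion] at this
  obtain ⟨z, hzT, hxz⟩ := this
  exact hx z hzT hxz

namespace Uni

variable {O : Set ℂ} {F : ℂ → ℂ}

theorem locLip (h : Uni O F) : LocallyLipschitzOn O F := by
  intro z hz
  have h1 : ContDiffAt ℝ 1 F z :=
    ((h.hol.analyticAt (h.op.mem_nhds hz)).contDiffAt (n := 1)).restrict_scalars ℝ
  obtain ⟨K, t, ht, hK⟩ := h1.exists_lipschitzOnWith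
  exact ⟨K, t, mem_nhdsWithin_of_mem_nhds ht, hK⟩

/-- locally Lipschitz functions are transported. -/
theorem locLip_comp (h : Uni O F) {u : ℂ → ℝ} (hu : LocallyLipschitzOn (F '' O) u) :
    LocallyLipschitzOn O (u ∘ F) := by
  intro z hz
  obtain ⟨K, t, ht, hK⟩ := h.locLip hz
  obtain ⟨K', t', ht', hK'⟩ := hu (mem_image_of_mem F hz)
  rw [h.isOpen_image.nhdsWithin_eq (mem_image_of_mem F hz)] at ht'
  refine ⟨K' * K, t ∩ F ⁻¹' t', inter_mem ht ?_, ?_⟩
  · exact mem_nhdsWithin_of_mem_nhds ((h.contAt hz) ht')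
  · exact (hK'.comp (hK.mono inter_subset_left) (fun x hx => hx.2))

theorem locLip_comp_iff (h : Uni O F) {u : ℂ → ℝ} :
    LocallyLipschitzOn O (u ∘ F) ↔ LocallyLipschitzOn (F '' O) u := by
  refine ⟨fun hu => ?_, h.locLip_comp⟩
  have h1 : LocallyLipschitzOn (inv O F '' (F '' O)) (u ∘ F) := by rw [h.image_inv]; exact hu
  have h2 := h.symm.locLip_comp h1
  intro w hw
  obtain ⟨K, t, ht, hK⟩ := h2 hw
  refine ⟨K, t ∩ (F '' O), inter_mem ht self_mem_nhdsWithin, ?_⟩
  intro a ha b hb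
  have := hK ha.1 hb.1
  simpa [Function.comp_def, h.apply_inv ha.2, h.apply_inv hb.2] using this

/-- a.e. differentiability is transported. -/
theorem ae_diff_iff (h : Uni O F) {u : ℂ → ℝ} :
    (∀ᵐ w ∂(volume.restrict (F '' O)), DifferentiableAt ℝ u w) ↔
      ∀ᵐ z ∂(volume.restrict O), DifferentiableAt ℝ (u ∘ F) z := by
  rw [h.ae_iff]
  rw [ae_restrict_iff' h.op.measurableSet, ae_restrict_iff' h.op.measurableSet]
  constructor
  · intro h1
    filter_upwards [h1] with z hz hzO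
    exact (h.diff_comp_iff hzO).2 (hz hzO)
  · intro h1
    filter_upwards [h1] with z hz hzO
    exact (h.diff_comp_iff hzO).1 (hz hzO)

/-- a.e. on `O` : the three chain rules. -/
theorem ae_comp (h : Uni O F) {u w : ℂ → ℝ}
    (hu : ∀ᵐ z ∂(volume.restrict (F '' O)), DifferentiableAt ℝ u z)
    (hw : ∀ᵐ z ∂(volume.restrict (F '' O)), DifferentiableAt ℝ w z) :
    ∀ᵐ z ∂(volume.restrict O),
      en (u ∘ F) z = Complex.normSq (deriv F z) * en u (F z) ∧
      dot (u ∘ F) (w ∘ F) z = Complex.normSq (deriv F z) * dot u w (F z) ∧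
      wdg (u ∘ F) (w ∘ F) z = Complex.normSq (deriv F z) * wdg u w (F z) := by
  have h1 := h.ae_iff.1 hu
  have h2 := h.ae_iff.1 hw
  filter_upwards [h1, h2, ae_restrict_mem h.op.measurableSet] with z hz1 hz2 hz
  exact ⟨h.en_comp hz hz1, h.dot_comp hz hz1 hz2, h.wdg_comp hz hz1 hz2⟩

/-- **conformal invariance of the Dirichlet form**, with a weight, on measurable `S ⊆ O`. -/
theorem integral_dot (h : Uni O F) {S : Set ℂ} (hS : MeasurableSet S) (hSO : S ⊆ O)
    (g : ℂ → ℝ) {u w : ℂ → ℝ}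
    (hu : ∀ᵐ z ∂(volume.restrict (F '' O)), DifferentiableAt ℝ u z)
    (hw : ∀ᵐ z ∂(volume.restrict (F '' O)), DifferentiableAt ℝ w z) :
    ∫ z in S, g (F z) * dot (u ∘ F) (w ∘ F) z = ∫ z in F '' S, g z * dot u w z := by
  rw [h.integral_image hS hSO]
  apply integral_congr_ae
  have h1 := ae_mono (Measure.restrict_mono hSO le_rfl) (h.ae_comp hu hw)
  filter_upwards [h1] with z hz
  rw [hz.2.1, smul_eq_mul]; ring

theorem integral_wdg (h : Uni O F) {S : Set ℂ} (hS : MeasurableSet S) (hSO : S ⊆ O)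
    (g : ℂ → ℝ) {u w : ℂ → ℝ}
    (hu : ∀ᵐ z ∂(volume.restrict (F '' O)), DifferentiableAt ℝ u z)
    (hw : ∀ᵐ z ∂(volume.restrict (F '' O)), DifferentiableAt ℝ w z) :
    ∫ z in S, g (F z) * wdg (u ∘ F) (w ∘ F) z = ∫ z in F '' S, g z * wdg u w z := by
  rw [h.integral_image hS hSO]
  apply integral_congr_ae
  have h1 := ae_mono (Measure.restrict_mono hSO le_rfl) (h.ae_comp hu hw)
  filter_upwards [h1] with z hz
  rw [hz.2.2, smul_eq_mul]; ring

theorem integral_en (h : Uni O F) {S : Set ℂ} (hS : MeasurableSet S) (hSO : S ⊆ O)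
    (g : ℂ → ℝ) {u : ℂ → ℝ}
    (hu : ∀ᵐ z ∂(volume.restrict (F '' O)), DifferentiableAt ℝ u z) :
    ∫ z in S, g (F z) * en (u ∘ F) z = ∫ z in F '' S, g z * en u z := by
  have := h.integral_dot hS hSO g hu hu
  simpa only [dot_self] using this

theorem integrableOn_dot (h : Uni O F) {S : Set ℂ} (hS : MeasurableSet S) (hSO : S ⊆ O)
    (g : ℂ → ℝ) {u w : ℂ → ℝ}
    (hu : ∀ᵐ z ∂(volume.restrict (F '' O)), DifferentiableAt ℝ u z)
    (hw : ∀ᵐ z ∂(volume.restrict (F '' O)), DifferentiableAt ℝ w z) :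
    IntegrableOn (fun z => g (F z) * dot (u ∘ F) (w ∘ F) z) S ↔
      IntegrableOn (fun z => g z * dot u w z) (F '' S) := by
  rw [h.integrableOn_image hS hSO]
  apply integrable_congr
  have h1 := ae_mono (Measure.restrict_mono hSO le_rfl) (h.ae_comp hu hw)
  filter_upwards [h1] with z hz
  rw [hz.2.1, smul_eq_mul]; ring

theorem integrableOn_wdg (h : Uni O F) {S : Set ℂ} (hS : MeasurableSet S) (hSO : S ⊆ O)
    (g : ℂ → ℝ) {u w : ℂ → ℝ}
    (hu : ∀ᵐ z ∂(volume.restrict (F '' O)), DifferentiableAt ℝ u z)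
    (hw : ∀ᵐ z ∂(volume.restrict (F '' O)), DifferentiableAt ℝ w z) :
    IntegrableOn (fun z => g (F z) * wdg (u ∘ F) (w ∘ F) z) S ↔
      IntegrableOn (fun z => g z * wdg u w z) (F '' S) := by
  rw [h.integrableOn_image hS hSO]
  apply integrable_congr
  have h1 := ae_mono (Measure.restrict_mono hSO le_rfl) (h.ae_comp hu hw)
  filter_upwards [h1] with z hz
  rw [hz.2.2, smul_eq_mul]; ring

theorem integrableOn_en (h : Uni O F) {S : Set ℂ} (hS : MeasurableSet S) (hSO : S ⊆ O)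
    (g : ℂ → ℝ) {u : ℂ → ℝ}
    (hu : ∀ᵐ z ∂(volume.restrict (F '' O)), DifferentiableAt ℝ u z) :
    IntegrableOn (fun z => g (F z) * en (u ∘ F) z) S ↔
      IntegrableOn (fun z => g z * en u z) (F '' S) := by
  have := h.integrableOn_dot hS hSO g hu hu
  simpa only [dot_self] using this

/-- energy, `lintegral` form with a weight. -/
theorem lintegral_en (h : Uni O F) {S : Set ℂ} (hS : MeasurableSet S) (hSO : S ⊆ O)
    (g : ℂ → ℝ≥0∞) {u : ℂ → ℝ}
    (hu : ∀ᵐ z ∂(volume.restrict (F '' O)), DifferentiableAt ℝ u z) :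
    ∫⁻ z in S, g (F z) * ENNReal.ofReal (en (u ∘ F) z)
      = ∫⁻ z in F '' S, g z * ENNReal.ofReal (en u z) := by
  rw [h.lintegral_image hS hSO]
  apply lintegral_congr_ae
  have h1 := ae_mono (Measure.restrict_mono hSO le_rfl) (h.ae_comp hu hu)
  filter_upwards [h1] with z hz
  rw [hz.1, ENNReal.ofReal_mul (Complex.normSq_nonneg _)]
  ring

theorem ae_re (_h : Uni O F) : ∀ᵐ z ∂(volume.restrict (F '' O)), DifferentiableAt ℝ Complex.re z :=
  Eventually.of_forall fun _ => Complex.reCLM.differentiableAt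

theorem ae_im (_h : Uni O F) : ∀ᵐ z ∂(volume.restrict (F '' O)), DifferentiableAt ℝ Complex.im z :=
  Eventually.of_forall fun _ => Complex.imCLM.differentiableAt

/-- **E-L in the picture** : `∫_S g(F) ∇x·∇(φ∘F) = ∫_{F S} g φ_x`, `x = Re F`. -/
theorem integral_dot_re (h : Uni O F) {S : Set ℂ} (hS : MeasurableSet S) (hSO : S ⊆ O)
    (g : ℂ → ℝ) {w : ℂ → ℝ}
    (hw : ∀ᵐ z ∂(volume.restrict (F '' O)), DifferentiableAt ℝ w z) :
    ∫ z in S, g (F z) * dot (fun z => (F z).re) (w ∘ F) z = ∫ z in F '' S, g z * gx w z := by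
  have := h.integral_dot hS hSO g h.ae_re hw
  simp only [dot_re] at this
  exact this

theorem integral_dot_im (h : Uni O F) {S : Set ℂ} (hS : MeasurableSet S) (hSO : S ⊆ O)
    (g : ℂ → ℝ) {w : ℂ → ℝ}
    (hw : ∀ᵐ z ∂(volume.restrict (F '' O)), DifferentiableAt ℝ w z) :
    ∫ z in S, g (F z) * dot (fun z => (F z).im) (w ∘ F) z = ∫ z in F '' S, g z * gy w z := by
  have := h.integral_dot hS hSO g h.ae_im hw
  simp only [dot_im] at this
  exact this

theorem integral_wdg_re (h : Uni O F) {S : Set ℂ} (hS : MeasurableSet S) (hSO : S ⊆ O)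
    (g : ℂ → ℝ) {w : ℂ → ℝ}
    (hw : ∀ᵐ z ∂(volume.restrict (F '' O)), DifferentiableAt ℝ w z) :
    ∫ z in S, g (F z) * wdg (fun z => (F z).re) (w ∘ F) z = ∫ z in F '' S, g z * gy w z := by
  have := h.integral_wdg hS hSO g h.ae_re hw
  simp only [wdg_re] at this
  exact this

theorem integral_wdg_im (h : Uni O F) {S : Set ℂ} (hS : MeasurableSet S) (hSO : S ⊆ O)
    (g : ℂ → ℝ) {w : ℂ → ℝ}
    (hw : ∀ᵐ z ∂(volume.restrict (F '' O)), DifferentiableAt ℝ w z) :
    ∫ z in S, g (F z) * wdg (fun z => (F z).im) (w ∘ F) z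
      = - ∫ z in F '' S, g z * gx w z := by
  have := h.integral_wdg hS hSO g h.ae_im hw
  simp only [wdg_im, mul_neg, integral_neg] at this
  exact this

/-- energy of `Re F` is the area. -/
theorem lintegral_en_re (h : Uni O F) {S : Set ℂ} (hS : MeasurableSet S) (hSO : S ⊆ O) :
    ∫⁻ z in S, ENNReal.ofReal (en (fun z => (F z).re) z) = volume (F '' S) := by
  have := h.lintegral_en hS hSO (fun _ => 1) h.ae_re
  simp only [one_mul, en_re, ENNReal.ofReal_one, lintegral_const, Measure.restrict_apply_univ]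
    at this
  exact this

theorem lintegral_en_im (h : Uni O F) {S : Set ℂ} (hS : MeasurableSet S) (hSO : S ⊆ O) :
    ∫⁻ z in S, ENNReal.ofReal (en (fun z => (F z).im) z) = volume (F '' S) := by
  have := h.lintegral_en hS hSO (fun _ => 1) h.ae_im
  simp only [one_mul, en_im, ENNReal.ofReal_one, lintegral_const, Measure.restrict_apply_univ]
    at this
  exact this

end Uni

end

end Crest.Agent.R105.Tra_937
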