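import Crest.Agent.R105.Cpt1_948

/-!
# Row 105, S0138, node E13, (3)(a) of 655 #10812: the two sides of a component (helper630)

`u` switched, `u = re` far away, `k ∈ Y`, `lo u k < t1 < t2 < up u k`,
`W = {t1 < lo u, up u < t2}`.  There is a set `A ⊆ W`, `A` and `W \ A` open, such that for every
`t ∈ (t1, t2)` the level `{u = t}` accumulates at the component of `k` inside `A` and outside `A`.
-/

set_option autoImplicit false

open MeasureTheory Set Filter Topology Metric

namespace Crest.Agent.R105.Tws_630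

open Crest.AnalysisR (IsExteriorDomain)
open Crest.Agent.R105.Ni_459

/-- a connected set touched by the closure of another one -/
theorem preconn_union_touch {X : Type*} [TopologicalSpace X] {V K : Set X}
    (hV : IsPreconnected V) (hK : IsPreconnected K) (h : (K ∩ closure V).Nonempty) :
    IsPreconnected (V ∪ K) := by
  obtain ⟨p, hpK, hpV⟩ := h
  have h1 : IsPreconnected (insert p V) :=
    hV.subset_closure (subset_insert _ _) (insert_subset hpV subset_closure)
  have h2 := h1.union p (mem_insert _ _) hpK hK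
  have h3 : insert p V ∪ K = V ∪ K := by
    rw [insert_union]
    exact insert_eq_of_mem (Or.inr hpK)
  rwa [h3] at h2

/-- unbounded upwards / downwards -/
def Upw (E : Set ℂ) : Prop := ∀ R : ℝ, ∃ z ∈ E, R ≤ z.im
def Dnw (E : Set ℂ) : Prop := ∀ R : ℝ, ∃ z ∈ E, z.im ≤ -R

/-- **separation**: a connected set `G` from the far left to the far right meets every closed
connected set `E ⊆ {|re| ≤ X}` from the far bottom to the far top -/
theorem sep {G E : Set ℂ} {X : ℝ} (hG : IsPreconnected G) (hE : IsClosed E)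
    (hEp : IsPreconnected E) (hX : ∀ z ∈ E, |z.re| ≤ X) (hup : Upw E) (hdn : Dnw E)
    (hl : ∃ a ∈ G, a.re ≤ -(X + 1)) (hr : ∃ b ∈ G, X + 1 ≤ b.re) (hd : Disjoint G E) : False := by
  obtain ⟨a, ha, ha'⟩ := hl
  obtain ⟨b, hb, hb'⟩ := hr
  have hGE : G ⊆ Eᶜ := fun z hz hzE => disjoint_left.1 hd hz hzE
  set V := connectedComponentIn Eᶜ a with hV
  have hVo : IsOpen V := hE.isOpen_compl.connectedComponentIn
  have hGV : G ⊆ V := hG.subset_connectedComponentIn ha hGE
  have hVp : IsPathConnected V := (hVo.isConnected_iff_isPathConnected).1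
    ⟨⟨a, hGV ha⟩, isPreconnected_connectedComponentIn⟩
  obtain ⟨α, hα⟩ := hVp.joinedIn a (hGV ha) b (hGV hb)
  have hrc : IsCompact (range α) := isCompact_range α.continuous
  obtain ⟨H, hH⟩ := hrc.isBounded.exists_norm_le
  have hdis : Disjoint (range α) E := by
    rw [disjoint_left]
    rintro _ ⟨s, rfl⟩ h
    exact connectedComponentIn_subset _ _ (hα s) h
  obtain ⟨δ, hδ, hδd⟩ := hdis.exists_thickenings hrc hE
  set ε := min δ 1 with hε
  have hε0 : 0 < ε := lt_min hδ one_pos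
  -- the thickening of `E`
  set T := thickening ε E with hT
  have hTo : IsOpen T := isOpen_thickening
  obtain ⟨e0, he0, -⟩ := hup 0
  have hTc : IsPreconnected T := by
    have h1 : T = ⋃ x : E, (E ∪ ball x.1 ε) := by
      rw [hT, thickening_eq_biUnion_ball]
      ext z
      simp only [mem_iUnion, mem_union, exists_prop]
      constructor
      · rintro ⟨x, hx, hz⟩
        exact ⟨⟨x, hx⟩, Or.inr hz⟩
      · rintro ⟨x, hz | hz⟩
        · exact ⟨z, hz, mem_ball_self hε0⟩
        · exact ⟨x.1, x.2, hz⟩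
    rw [h1]
    refine isPreconnected_iUnion (s := fun x : E => E ∪ ball x.1 ε) ⟨e0, mem_iInter.2 fun x => Or.inl he0⟩ fun x => ?_
    exact hEp.union x.1 x.2 (mem_ball_self hε0) (convex_ball _ _).isPreconnected
  have hTp : IsPathConnected T := (hTo.isConnected_iff_isPathConnected).1
    ⟨⟨e0, self_subset_thickening hε0 E he0⟩, hTc⟩
  obtain ⟨p, hp, hp'⟩ := hdn H
  obtain ⟨q, hq, hq'⟩ := hup H
  obtain ⟨β, hβ⟩ := hTp.joinedIn p (self_subset_thickening hε0 E hp) q
    (self_subset_thickening hε0 E hq)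
  obtain ⟨s, hs, t, ht, hst⟩ := Bar_764.cross (α := α.extend) (β := β.extend) (A := X + 1)
    (H := H) α.continuous_extend.continuousOn β.continuous_extend.continuousOn
    (by rw [α.extend_zero]; exact ha') (by rw [α.extend_one]; exact hb')
    (fun t ht => by
      rw [α.extend_apply ht]
      exact (Complex.abs_im_le_norm _).trans (hH _ (mem_range_self _)))
    (by rw [β.extend_zero]; exact hp') (by rw [β.extend_one]; exact hq')
    (fun t ht => by
      rw [β.extend_apply ht]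
      have h1 := hβ ⟨t, ht⟩
      rw [hT, mem_thickening_iff] at h1
      obtain ⟨x, hx, hxd⟩ := h1
      have h2 := hX x hx
      have h3 := Complex.abs_re_le_norm (β ⟨t, ht⟩ - x)
      rw [Complex.sub_re, ← dist_eq_norm] at h3
      have h4 : dist (β ⟨t, ht⟩) x ≤ 1 := hxd.le.trans (min_le_right _ _)
      have h5 := abs_sub_abs_le_abs_sub (β ⟨t, ht⟩).re x.re
      linarith)
  rw [α.extend_apply hs, β.extend_apply ht] at hst
  have h1 : α ⟨s, hs⟩ ∈ thickening δ (range α) :=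
    self_subset_thickening hδ _ (mem_range_self _)
  have h2 : α ⟨s, hs⟩ ∈ thickening δ E := by
    rw [hst]
    exact thickening_mono (min_le_left _ _) E (hβ ⟨t, ht⟩)
  exact disjoint_left.1 hδd h1 h2

section
variable {Y : Set ℂ} {u : ℂ → ℝ} {k : ℂ} {t t1 t2 : ℝ}

/-- the connected barrier through the component of `k` -/
def Gs (Y : Set ℂ) (u : ℂ → ℝ) (k : ℂ) (t1 t2 : ℝ) : Set ℂ :=
  {z | z ∉ Y ∧ u z < t1} ∪ connectedComponentIn Y k ∪ {z | z ∉ Y ∧ t2 < u z}

/-- the strip -/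
def Ws (Y : Set ℂ) (u : ℂ → ℝ) (t1 t2 : ℝ) : Set ℂ := {z | t1 < lo Y u z ∧ up Y u z < t2}

variable (hY : IsExteriorDomain Yᶜ) (hu : LB u) (hl : LocallyLipschitzOn Yᶜ u)
include hY hu

lemma touch_lt (hk : k ∈ Y) (h1 : lo Y u k < t1) :
    (connectedComponentIn Y k ∩ closure {z | z ∉ Y ∧ u z < t1}).Nonempty := by
  by_contra hcon
  rw [not_nonempty_iff_eq_empty, ← disjoint_iff_inter_eq_empty] at hcon
  obtain ⟨w, hw, hwY, hwt⟩ := exists_of_lo_lt hY hu h1
    (nb_of_mem hk isClosed_closure.isOpen_compl fun z hz hzc => disjoint_left.1 hcon hz hzc)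
  exact hw (subset_closure ⟨hwY, hwt⟩)

lemma touch_gt (hk : k ∈ Y) (h2 : t2 < up Y u k) :
    (connectedComponentIn Y k ∩ closure {z | z ∉ Y ∧ t2 < u z}).Nonempty := by
  by_contra hcon
  rw [not_nonempty_iff_eq_empty, ← disjoint_iff_inter_eq_empty] at hcon
  obtain ⟨w, hw, hwY, hwt⟩ := exists_of_lt_up hY hu h2
    (nb_of_mem hk isClosed_closure.isOpen_compl fun z hz hzc => disjoint_left.1 hcon hz hzc)
  exact hw (subset_closure ⟨hwY, hwt⟩)

include hl

lemma isPreconnected_Gs (hs : Swd Y u) (hfar : ∃ R : ℝ, ∀ z : ℂ, R ≤ ‖z‖ → u z = z.re)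
    (hk : k ∈ Y) (h1 : lo Y u k < t1) (h2 : t2 < up Y u k) : IsPreconnected (Gs Y u k t1 t2) := by
  have hc1 := Sd_938.conn_lt hY hu hl hs hfar t1
  have hc2 := Sd_938.conn_gt hY hu hl hs hfar t2
  have hK : IsPreconnected (connectedComponentIn Y k) := isPreconnected_connectedComponentIn
  have h3 := preconn_union_touch hc1 hK (touch_lt hY hu hk h1)
  have h4 := preconn_union_touch hc2 hK (touch_gt hY hu hk h2)
  have h5 := h3.union k (Or.inr (mem_connectedComponentIn hk))
    (Or.inr (mem_connectedComponentIn hk)) h4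
  have h6 : {z | z ∉ Y ∧ u z < t1} ∪ connectedComponentIn Y k ∪
      ({z | z ∉ Y ∧ t2 < u z} ∪ connectedComponentIn Y k) = Gs Y u k t1 t2 := by
    ext z
    simp only [Gs, mem_union]
    tauto
  rwa [h6] at h5

/-- no closed connected set off the barrier is both up and down -/
theorem no_updown (hs : Swd Y u) (hfar : ∃ R : ℝ, ∀ z : ℂ, R ≤ ‖z‖ → u z = z.re)
    (hk : k ∈ Y) (h1 : lo Y u k < t1) (h2 : t2 < up Y u k) {E : Set ℂ}
    (hE : IsClosed E) (hEp : IsPreconnected E) (hEG : Disjoint (Gs Y u k t1 t2) E)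
    (hup : Upw E) (hdn : Dnw E) : False := by
  obtain ⟨R, hR⟩ := hfar
  obtain ⟨RY, hRY⟩ := (cpt_of hY).isBounded.exists_norm_le
  set X : ℝ := max (max R (RY + 1)) (max |t1| |t2|) with hX
  have hXR : R ≤ X := (le_max_left _ _).trans (le_max_left _ _)
  have hXY : RY + 1 ≤ X := (le_max_right _ _).trans (le_max_left _ _)
  have hX1 : |t1| ≤ X := (le_max_left _ _).trans (le_max_right _ _)
  have hX2 : |t2| ≤ X := (le_max_right _ _).trans (le_max_right _ _)
  have hoff : ∀ z : ℂ, X ≤ ‖z‖ → z ∉ Y := fun z hz h => by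
    have := hRY z h; linarith
  refine sep (isPreconnected_Gs hY hu hl hs ⟨R, hR⟩ hk h1 h2) hE hEp (X := X) ?_ hup hdn ?_ ?_ hEG
  · intro z hz
    by_contra hcon
    rw [not_le] at hcon
    have hzn : X ≤ ‖z‖ := (hcon.trans_le (Complex.abs_re_le_norm z)).le
    have hzY := hoff z hzn
    have hzu := hR z (hXR.trans hzn)
    have hzG : z ∉ Gs Y u k t1 t2 := fun h => disjoint_left.1 hEG h hz
    apply hzG
    rcases lt_or_ge z.re 0 with h | h
    · left; left
      refine ⟨hzY, ?_⟩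
      rw [hzu]
      rw [abs_of_neg h] at hcon
      have := (abs_le.1 hX1).1
      linarith
    · right
      refine ⟨hzY, ?_⟩
      rw [hzu]
      rw [abs_of_nonneg h] at hcon
      have := (abs_le.1 hX2).2
      linarith
  · have hn : X ≤ ‖(⟨-(X + 1), 0⟩ : ℂ)‖ := by
      have h3 := Complex.abs_re_le_norm (⟨-(X + 1), 0⟩ : ℂ)
      have h4 := neg_le_abs (-(X + 1))
      simp only [neg_neg] at h4
      exact (by linarith : X ≤ |(-(X + 1))|).trans h3
    refine ⟨⟨-(X + 1), 0⟩, Or.inl (Or.inl ⟨hoff _ hn, ?_⟩), le_rfl⟩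
    rw [hR _ (hXR.trans hn)]
    have := (abs_le.1 hX1).1
    show -(X + 1) < t1
    linarith
  · have hn : X ≤ ‖(⟨X + 1, 0⟩ : ℂ)‖ := by
      have h3 := Complex.abs_re_le_norm (⟨X + 1, 0⟩ : ℂ)
      have h4 := le_abs_self (X + 1)
      exact (by linarith : X ≤ |X + 1|).trans h3
    refine ⟨⟨X + 1, 0⟩, Or.inr ⟨hoff _ hn, ?_⟩, le_rfl⟩
    rw [hR _ (hXR.trans hn)]
    have := (abs_le.1 hX2).2
    show t2 < X + 1
    linarith

omit hY hu hl in
/-- the far rays of the level -/
lemma ray_props (hfar : ∃ R : ℝ, ∀ z : ℂ, R ≤ ‖z‖ → u z = z.re) (hYb : Bornology.IsBounded Y) :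
    ∃ T : ℝ, 0 < T ∧ (∀ z : ℂ, T ≤ |z.im| → z ∉ Y ∧ u z = z.re) := by
  obtain ⟨R, hR⟩ := hfar
  obtain ⟨RY, hRY⟩ := hYb.exists_norm_le
  refine ⟨max (max R (RY + 1)) 1, lt_of_lt_of_le one_pos (le_max_right _ _), fun z hz => ?_⟩
  have h1 : max R (RY + 1) ≤ ‖z‖ := (le_max_left _ _).trans (hz.trans (Complex.abs_im_le_norm z))
  refine ⟨fun h => ?_, hR z ((le_max_left _ _).trans h1)⟩
  have h2 := hRY z h
  have h3 := (le_max_right R (RY + 1)).trans h1
  linarith

omit hl in
lemma isOpen_Ws : IsOpen (Ws Y u t1 t2) :=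
  (isOpen_lt_lo hY hu t1).inter (isOpen_up_lt hY hu t2)

lemma Ws_disj (hk : k ∈ Y) (h1 : lo Y u k < t1) : Disjoint (Gs Y u k t1 t2) (Ws Y u t1 t2) := by
  rw [disjoint_left]
  rintro z ((⟨hzY, hz⟩ | hz) | ⟨hzY, hz⟩) ⟨hz1, hz2⟩
  · rw [Sd_938.lo_eq hY hu hl hzY] at hz1
    exact lt_asymm hz hz1
  · rw [lo_congr_cc hk hz] at hz1
    exact lt_asymm h1 hz1
  · rw [Sd_938.up_eq hY hu hl hzY] at hz2
    exact lt_asymm hz hz2

lemma mem_Ws {z : ℂ} (hz : z ∉ Y) (h1 : t1 < u z) (h2 : u z < t2) : z ∈ Ws Y u t1 t2 :=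
  ⟨by rw [Sd_938.lo_eq hY hu hl hz]; exact h1, by rw [Sd_938.up_eq hY hu hl hz]; exact h2⟩

/-- the truncated level -/
lemma preconn_trunc (hs : Swd Y u) (hfar : ∃ R : ℝ, ∀ z : ℂ, R ≤ ‖z‖ → u z = z.re) {T : ℝ}
    (hT : 0 < T) (hTf : ∀ z : ℂ, T ≤ |z.im| → z ∉ Y ∧ u z = z.re) (t : ℝ) :
    IsPreconnected (Lv Y u t ∩ {z | |z.im| ≤ T}) := by
  obtain ⟨R, hR⟩ := hfar
  obtain ⟨RY, hRY⟩ := (cpt_of hY).isBounded.exists_norm_le
  have hL : IsPreconnected (Lv Y u t) := by
    refine Cpt_948.lv_preconn hY hl hu (R := max R (RY + 1)) (fun z hz => ?_)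
      (fun z hz => hR z ((le_max_left _ _).trans hz)) hs t
    rw [mem_ball_zero_iff]
    exact (hRY z hz).trans_lt (lt_of_lt_of_le (by linarith) (le_max_right _ _))
  set r : ℂ → ℂ := fun z => ⟨z.re, max (-T) (min z.im T)⟩ with hr
  have hrc : Continuous r := by
    rw [hr]
    exact (Complex.equivRealProdCLM.symm.continuous.comp
      (Complex.continuous_re.prodMk
        (continuous_const.max (Complex.continuous_im.min continuous_const))))
  have him : r '' Lv Y u t = Lv Y u t ∩ {z | |z.im| ≤ T} := by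
    apply Subset.antisymm
    · rintro _ ⟨z, hz, rfl⟩
      have h1 : |(r z).im| ≤ T := by
        rw [abs_le]
        exact ⟨le_max_left _ _, max_le (by linarith) (min_le_right _ _)⟩
      refine ⟨?_, h1⟩
      rcases le_or_gt |z.im| T with h | h
      · have h2 : r z = z := by
          apply Complex.ext
          · rfl
          · show max (-T) (min z.im T) = z.im
            rw [min_eq_left (abs_le.1 h).2, max_eq_right (abs_le.1 h).1]
        rw [h2]; exact hz
      · obtain ⟨h2, h3⟩ := hTf z h.le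
        have h4 : T ≤ |(r z).im| := by
          show T ≤ |max (-T) (min z.im T)|
          rcases lt_abs.1 h with h5 | h5
          · rw [min_eq_right h5.le, max_eq_right (by linarith), abs_of_pos hT]
          · rw [max_eq_left ((min_le_left _ _).trans (by linarith)), abs_neg, abs_of_pos hT]
        obtain ⟨h5, h6⟩ := hTf _ h4
        rw [Sd_938.mem_Lv hY hu hl h2] at hz
        rw [Sd_938.mem_Lv hY hu hl h5, h6]
        show z.re = t
        rw [← h3, hz]
    · rintro z ⟨hz, hzT⟩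
      refine ⟨z, hz, ?_⟩
      have hzT' := abs_le.1 (show |z.im| ≤ T from hzT)
      apply Complex.ext
      · rfl
      · show max (-T) (min z.im T) = z.im
        rw [min_eq_left hzT'.2, max_eq_right hzT'.1]
  rw [← him]
  exact hL.image r hrc.continuousOn

/-- one strand: from the far ray `{re = t, σ im ≥ T}` to the frontier of `N` -/
lemma strand (hs : Swd Y u) (hfar : ∃ R : ℝ, ∀ z : ℂ, R ≤ ‖z‖ → u z = z.re) {T : ℝ}
    (hT : 0 < T) (hTf : ∀ z : ℂ, T ≤ |z.im| → z ∉ Y ∧ u z = z.re) {N : Set ℂ} (hN : IsOpen N)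
    (hNT : ∀ z ∈ closure N, |z.im| < T) (hkN : (Lv Y u t ∩ N).Nonempty) {σ : ℝ}
    (hσ : σ = 1 ∨ σ = -1) :
    ∃ p ∈ frontier N, ∃ E ⊆ Lv Y u t \ N, IsClosed E ∧ IsPreconnected E ∧ p ∈ E ∧
      ∀ s : ℝ, T ≤ s → (⟨t, σ * s⟩ : ℂ) ∈ E := by
  have hσT : ∀ s : ℝ, 0 ≤ s → |σ * s| = s := by
    intro s hs0
    rcases hσ with rfl | rfl
    · rw [one_mul, abs_of_nonneg hs0]
    · rw [neg_one_mul, abs_neg, abs_of_nonneg hs0]
  have hray : ∀ s : ℝ, T ≤ s → (⟨t, σ * s⟩ : ℂ) ∈ Lv Y u t := by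
    intro s hsT
    obtain ⟨h1, h2⟩ := hTf ⟨t, σ * s⟩ (by
      show T ≤ |σ * s|
      rw [hσT s (hT.le.trans hsT)]; exact hsT)
    rw [Sd_938.mem_Lv hY hu hl h1, h2]
  have hLcl : IsClosed (Lv Y u t) :=
    ((lsc_lo hY hu).isClosed_preimage t).inter ((usc_up hY hu).isClosed_preimage t)
  set L' : Set ℂ := Lv Y u t ∩ {z | |z.im| ≤ T} with hL'
  have hL'c : IsClosed L' :=
    hLcl.inter (isClosed_le (Complex.continuous_im.abs) continuous_const)
  have hL'p : IsPreconnected L' := preconn_trunc hY hu hl hs hfar hT hTf t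
  obtain ⟨R, hR⟩ := hfar
  obtain ⟨RY, hRY⟩ := (cpt_of hY).isBounded.exists_norm_le
  -- boundedness
  have hL'b : L' ⊆ closedBall 0 (max (max R (RY + 1)) (|t| + T)) := by
    rintro z ⟨hz, hzT⟩
    rw [mem_closedBall_zero_iff]
    rcases le_or_gt (max R (RY + 1)) ‖z‖ with h | h
    · have h1 : z ∉ Y := fun hzY => by
        have h2 := hRY z hzY
        have h3 := (le_max_right R (RY + 1)).trans h
        linarith
      rw [Sd_938.mem_Lv hY hu hl h1, hR z ((le_max_left _ _).trans h)] at hz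
      refine le_trans ?_ (le_max_right _ _)
      have h2 := Complex.norm_le_abs_re_add_abs_im z
      rw [hz] at h2
      have h3 : |z.im| ≤ T := hzT
      linarith
    · exact h.le.trans (le_max_left _ _)
  set ρ := max (max R (RY + 1)) (|t| + T) + 1 with hρ
  set B : Set ℂ := closedBall 0 ρ \ N with hB
  have hBc : IsCompact B := (isCompact_closedBall _ _).diff hN
  set p0 : ℂ := ⟨t, σ * T⟩ with hp0
  have hp0i : |p0.im| = T := hσT T hT.le
  have hp0L : p0 ∈ L' := ⟨hray T le_rfl, hp0i.le⟩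
  have hp0N : p0 ∉ N := fun h => by
    have := hNT p0 (subset_closure h)
    rw [hp0i] at this
    exact lt_irrefl _ this
  have hp0B : p0 ∈ B := ⟨closedBall_subset_closedBall (by rw [hρ]; linarith) (hL'b hp0L), hp0N⟩
  obtain ⟨k', hk'L, hk'N⟩ := hkN
  have hk'L' : k' ∈ L' := ⟨hk'L, (hNT k' (subset_closure hk'N)).le⟩
  obtain ⟨p, hp, hpf⟩ := Lt_275.bump hL'c hL'p hBc hp0L hp0B (fun h => (h hk'L').2 hk'N)
  have hpL : p ∈ L' := (connectedComponentIn_subset _ _ hp).1
  have hpB : p ∈ B := (connectedComponentIn_subset _ _ hp).2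
  have hpfN : p ∈ frontier N := by
    by_contra hcon
    have h1 : p ∉ closure N := fun h => hcon ⟨h, by rw [hN.interior_eq]; exact hpB.2⟩
    have h2 : p ∈ ball (0 : ℂ) ρ := by
      have h3 := mem_closedBall_zero_iff.1 (hL'b hpL)
      rw [mem_ball_zero_iff]
      exact h3.trans_lt (by rw [hρ]; linarith)
    have h3 : ball (0 : ℂ) ρ ∩ (closure N)ᶜ ⊆ interior B := by
      refine interior_maximal ?_ (isOpen_ball.inter isClosed_closure.isOpen_compl)
      rintro z ⟨hz, hzN⟩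
      exact ⟨ball_subset_closedBall hz, fun h => hzN (subset_closure h)⟩
    exact hpf.2 (h3 ⟨h2, h1⟩)
  -- the ray
  set Ray : Set ℂ := (fun s : ℝ => (⟨t, σ * s⟩ : ℂ)) '' Ici T with hRay
  have hfc : Continuous fun s : ℝ => (⟨t, σ * s⟩ : ℂ) :=
    Complex.equivRealProdCLM.symm.continuous.comp
      (continuous_const.prodMk (continuous_const.mul continuous_id))
  have hRayp : IsPreconnected Ray := isPreconnected_Ici.image _ hfc.continuousOn
  have hRayc : IsClosed Ray := by
    have h1 : Ray = {z | z.re = t ∧ T ≤ σ * z.im} := by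
      have hss : σ * σ = 1 := by rcases hσ with rfl | rfl <;> norm_num
      ext z
      constructor
      · rintro ⟨s, hs, rfl⟩
        refine ⟨rfl, ?_⟩
        show T ≤ σ * (σ * s)
        rw [← mul_assoc, hss, one_mul]; exact hs
      · rintro ⟨h1, h2⟩
        refine ⟨σ * z.im, h2, ?_⟩
        apply Complex.ext
        · exact h1.symm
        · show σ * (σ * z.im) = z.im
          rw [← mul_assoc, hss, one_mul]
    rw [h1]
    exact (isClosed_eq Complex.continuous_re continuous_const).inter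
      (isClosed_le continuous_const (continuous_const.mul Complex.continuous_im))
  refine ⟨p, hpfN, connectedComponentIn (L' ∩ B) p0 ∪ Ray, ?_, ?_, ?_, Or.inl hp, ?_⟩
  · rintro z (hz | ⟨s, hsT, rfl⟩)
    · have h1 := connectedComponentIn_subset _ _ hz
      exact ⟨h1.1.1, h1.2.2⟩
    · refine ⟨hray s hsT, fun h => ?_⟩
      have h1 := hNT _ (subset_closure h)
      have h2 : |σ * s| = s := hσT s (hT.le.trans hsT)
      have h3 : |σ * s| < T := h1
      have h4 : T ≤ s := hsT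
      linarith
  · exact (Thin_12.isCompact_cc (hBc.inter_left hL'c) p0).isClosed.union hRayc
  · exact isPreconnected_connectedComponentIn.union p0 (mem_connectedComponentIn ⟨hp0L, hp0B⟩)
      ⟨T, self_mem_Ici, rfl⟩ hRayp
  · intro s hsT
    exact Or.inr ⟨s, hsT, rfl⟩

/-- **the two sides of a component** -/
theorem two_sides (hs : Swd Y u) (hfar : ∃ R : ℝ, ∀ z : ℂ, R ≤ ‖z‖ → u z = z.re) (hk : k ∈ Y)
    (h1 : lo Y u k < t1) (h2 : t2 < up Y u k) :
    ∃ A ⊆ Ws Y u t1 t2, IsOpen A ∧ IsOpen (Ws Y u t1 t2 \ A) ∧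
      ∀ t, t1 < t → t < t2 → ∀ N, IsOpen N → connectedComponentIn Y k ⊆ N →
        (∃ z ∈ N ∩ A, z ∉ Y ∧ u z = t) ∧ ∃ z ∈ N \ A, z ∉ Y ∧ u z = t := by
  set W := Ws Y u t1 t2 with hW
  set G := Gs Y u k t1 t2 with hG
  have hWo : IsOpen W := isOpen_Ws hY hu
  have hWG : Disjoint G W := Ws_disj hY hu hl hk h1
  -- the up points
  let P : ℂ → Prop := fun p => ∃ E, IsClosed E ∧ IsPreconnected E ∧ p ∈ E ∧ Disjoint G E ∧ Upw E
  set A : Set ℂ := {z | z ∈ W ∧ ∃ p ∈ connectedComponentIn W z, P p} with hA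
  have hAo : IsOpen A := by
    rw [isOpen_iff_mem_nhds]
    rintro z ⟨hzW, p, hp, hPp⟩
    filter_upwards [hWo.connectedComponentIn.mem_nhds (mem_connectedComponentIn hzW)] with w hw
    refine ⟨connectedComponentIn_subset _ _ hw, p, ?_, hPp⟩
    rwa [← connectedComponentIn_eq hw]
  have hAo' : IsOpen (W \ A) := by
    rw [isOpen_iff_mem_nhds]
    rintro z ⟨hzW, hzA⟩
    filter_upwards [hWo.connectedComponentIn.mem_nhds (mem_connectedComponentIn hzW)] with w hw
    refine ⟨connectedComponentIn_subset _ _ hw, ?_⟩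
    rintro ⟨-, p, hp, hPp⟩
    exact hzA ⟨hzW, p, by rwa [connectedComponentIn_eq hw], hPp⟩
  -- points of `A` are up points
  have hAP : ∀ z ∈ A, P z := by
    rintro z ⟨hzW, p, hp, E, hE, hEp, hpE, hEG, hEu⟩
    have hVo : IsOpen (connectedComponentIn W z) := hWo.connectedComponentIn
    have hVp : IsPathConnected (connectedComponentIn W z) :=
      (hVo.isConnected_iff_isPathConnected).1
        ⟨⟨z, mem_connectedComponentIn hzW⟩, isPreconnected_connectedComponentIn⟩
    obtain ⟨γ, hγ⟩ := hVp.joinedIn z (mem_connectedComponentIn hzW) p hp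
    have hγc : IsCompact (range γ) := isCompact_range γ.continuous
    have hγp : IsPreconnected (range γ) := isPreconnected_range γ.continuous
    refine ⟨E ∪ range γ, hE.union hγc.isClosed, hEp.union p hpE ⟨1, γ.target⟩ hγp,
      Or.inr ⟨0, γ.source⟩, ?_, fun R => ?_⟩
    · rw [disjoint_union_right]
      refine ⟨hEG, ?_⟩
      rw [disjoint_left]
      rintro x hxG ⟨s, rfl⟩
      exact disjoint_left.1 hWG hxG (connectedComponentIn_subset _ _ (hγ s))
    · obtain ⟨x, hx, hxR⟩ := hEu R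
      exact ⟨x, Or.inl hx, hxR⟩
  obtain ⟨T0, hT0, hTf0⟩ := ray_props hfar (cpt_of hY).isBounded
  refine ⟨A, fun z hz => hz.1, hAo, hAo', fun t ht1 ht2 N hN hkN => ?_⟩
  -- a bounded neighbourhood with frontier off `Y`
  have hKc : IsCompact (connectedComponentIn Y k) := Thin_12.isCompact_cc (cpt_of hY) k
  obtain ⟨O', hO', hKO', hO'N, hO'c⟩ := exists_open_between_and_isCompact_closure hKc hN hkN
  obtain ⟨M, hM, hkM, hMO, hfr, -⟩ := Ext_616.exists_sat_nhd (V := Yᶜ) hY (ζ := k)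
    (fun h => h hk) hO' (by rw [compl_compl]; exact hKO')
  rw [compl_compl] at hkM
  have hMN : closure M ⊆ N := (closure_mono hMO).trans hO'N
  obtain ⟨RM, hRM⟩ := hO'c.isBounded.exists_norm_le
  set T := max T0 (RM + 1) with hT
  have hT0' : 0 < T := hT0.trans_le (le_max_left _ _)
  have hTf : ∀ z : ℂ, T ≤ |z.im| → z ∉ Y ∧ u z = z.re := fun z hz =>
    hTf0 z ((le_max_left _ _).trans hz)
  have hMT : ∀ z ∈ closure M, |z.im| < T := fun z hz => by
    have h3 := hRM z (closure_mono hMO hz)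
    have h4 := Complex.abs_im_le_norm z
    have h5 : RM + 1 ≤ T := le_max_right _ _
    linarith
  have hkL : (Lv Y u t ∩ M).Nonempty :=
    ⟨k, ⟨by linarith, by linarith⟩, hkM (mem_connectedComponentIn hk)⟩
  -- strands are off the barrier
  have hoff : ∀ E ⊆ Lv Y u t \ M, Disjoint G E := by
    intro E hE
    rw [disjoint_left]
    rintro z ((⟨hzY, hz⟩ | hz) | ⟨hzY, hz⟩) hzE
    · have h3 := (Sd_938.mem_Lv hY hu hl hzY).1 (hE hzE).1
      linarith
    · exact (hE hzE).2 (hkM hz)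
    · have h3 := (Sd_938.mem_Lv hY hu hl hzY).1 (hE hzE).1
      linarith
  obtain ⟨p, hpf, E, hEL, hE, hEp, hpE, hEr⟩ := strand hY hu hl hs hfar hT0' hTf hM hMT hkL
    (Or.inl rfl)
  obtain ⟨q, hqf, F, hFL, hF, hFp, hqF, hFr⟩ := strand hY hu hl hs hfar hT0' hTf hM hMT hkL
    (Or.inr rfl)
  have hEu : Upw E := fun R =>
    ⟨_, hEr (max T R) (le_max_left _ _), by
      show R ≤ 1 * max T R
      rw [one_mul]; exact le_max_right _ _⟩
  have hFd : Dnw F := fun R =>
    ⟨_, hFr (max T R) (le_max_left _ _), by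
      show (-1) * max T R ≤ -R
      have := le_max_right T R
      linarith⟩
  have hpY : p ∉ Y := hfr hpf
  have hqY : q ∉ Y := hfr hqf
  have hpt : u p = t := (Sd_938.mem_Lv hY hu hl hpY).1 (hEL hpE).1
  have hqt : u q = t := (Sd_938.mem_Lv hY hu hl hqY).1 (hFL hqF).1
  refine ⟨⟨p, ⟨hMN (frontier_subset_closure hpf), ?_⟩, hpY, hpt⟩,
    ⟨q, ⟨hMN (frontier_subset_closure hqf), ?_⟩, hqY, hqt⟩⟩
  · have hpW : p ∈ W := mem_Ws hY hu hl hpY (by rw [hpt]; exact ht1) (by rw [hpt]; exact ht2)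
    exact ⟨hpW, p, mem_connectedComponentIn hpW, E, hE, hEp, hpE, hoff E hEL, hEu⟩
  · intro hqA
    obtain ⟨E', hE', hEp', hqE', hEG', hEu'⟩ := hAP q hqA
    refine no_updown hY hu hl hs hfar hk h1 h2 (hE'.union hF) (hEp'.union q hqE' hqF hFp) ?_
      (fun R => ?_) (fun R => ?_)
    · rw [disjoint_union_right]
      exact ⟨hEG', hoff F hFL⟩
    · obtain ⟨x, hx, hxR⟩ := hEu' R
      exact ⟨x, Or.inl hx, hxR⟩
    · obtain ⟨x, hx, hxR⟩ := hFd R
      exact ⟨x, Or.inr hx, hxR⟩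

end

end Crest.Agent.R105.Tws_630
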