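import Mathlib

/-!
# Row 105 (Koebe), univalence of `p = x + i y`, part 1 (helper133): the two sides of a segment

`X'` compact preconnected, `e, e' ∈ X'`, `γ` a curve crossing the segment `[e', e]` at one interior
point from the right to the left side, otherwise avoiding `X' ∪ [e', e]`.  Then no preconnected set
which avoids `X' ∪ [e', e]` contains both `γ b` and `γ (-b)`.
-/

set_option autoImplicit false

open Set Filter Topology Metric Complex
open scoped ComplexConjugate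

namespace Crest.Agent.R105.Unv_133

/-- a continuous logarithm of `(z - a) / (z - b)` on a compact set missing a preconnected set that
contains `a` and `b` -/
theorem exists_log {X' T : Set ℂ} (hX : IsPreconnected X') (hT : IsCompact T)
    (hd : Disjoint T X') {a b : ℂ} (ha : a ∈ X') (hb : b ∈ X') :
    ∃ L : ℂ → ℂ, ContinuousOn L T ∧ ∀ z ∈ T, exp (L z) = (z - a) / (z - b) := by
  have hne : ∀ z ∈ T, ∀ w ∈ X', z - w ≠ 0 := by
    intro z hz w hw h
    exact disjoint_left.mp hd hz (by rwa [sub_eq_zero.mp h])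
  refine hX.induction₂ (fun a b => ∃ L : ℂ → ℂ, ContinuousOn L T ∧
    ∀ z ∈ T, exp (L z) = (z - a) / (z - b)) ?_ ?_ ?_ ha hb
  · intro x hx
    obtain ⟨δ, hδ, hδT⟩ : ∃ δ > 0, ∀ z ∈ T, δ ≤ dist z x := by
      have h1 : x ∉ T := fun h => disjoint_left.mp hd h hx
      have h2 : ∃ δ > 0, ball x δ ⊆ Tᶜ := Metric.isOpen_iff.mp hT.isClosed.isOpen_compl x h1
      obtain ⟨δ, hδ, h3⟩ := h2
      refine ⟨δ, hδ, fun z hz => ?_⟩
      by_contra h
      exact h3 (mem_ball.mpr (not_le.mp h)) hz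
    have h4 : ∀ᶠ y in 𝓝[X'] x, y ∈ X' ∧ dist y x < δ / 2 := by
      refine (eventually_mem_nhdsWithin).and ?_
      exact mem_nhdsWithin_of_mem_nhds (ball_mem_nhds x (half_pos hδ))
    filter_upwards [h4] with y hy
    have key : ∀ z ∈ T, (z - x) / (z - y) ∈ slitPlane := by
      intro z hz
      have hzy : z - y ≠ 0 := hne z hz y hy.1
      have e1 : (z - x) / (z - y) = 1 + (y - x) / (z - y) := by
        field_simp; ring
      have h5 : ‖(y - x) / (z - y)‖ < 1 := by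
        rw [norm_div, div_lt_one (norm_pos_iff.mpr hzy)]
        have h6 : dist z x ≤ dist z y + dist y x := dist_triangle _ _ _
        have h7 := hδT z hz
        rw [← dist_eq_norm, ← dist_eq_norm]
        linarith [hy.2]
      rw [e1]
      left
      have h8 := (abs_re_le_norm ((y - x) / (z - y))).trans_lt h5
      rw [abs_lt] at h8
      simp only [add_re, one_re]
      linarith [h8.1]
    refine ⟨fun z => log ((z - x) / (z - y)), ?_, ?_⟩
    · refine ContinuousOn.clog ?_ key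
      exact (continuousOn_id.sub continuousOn_const).div (continuousOn_id.sub continuousOn_const)
        (fun z hz => hne z hz y hy.1)
    · intro z hz
      exact exp_log (slitPlane_ne_zero (key z hz))
  · rintro x y z hx hy hz ⟨L, hL, hL'⟩ ⟨M, hM, hM'⟩
    refine ⟨fun w => L w + M w, hL.add hM, fun w hw => ?_⟩
    rw [Complex.exp_add, hL' w hw, hM' w hw]
    have := hne w hw y hy
    have := hne w hw z hz
    field_simp
  · rintro x y hx hy ⟨L, hL, hL'⟩
    refine ⟨fun w => - L w, hL.neg, fun w hw => ?_⟩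
    rw [Complex.exp_neg, hL' w hw, inv_div]

/-- off the segment `[e', e]` the quotient `(z - e) / (z - e')` lies in the slit plane -/
theorem quot_mem_slitPlane {e e' z : ℂ} (hz : z ∉ segment ℝ e' e) :
    (z - e) / (z - e') ∈ slitPlane := by
  have hz' : z - e' ≠ 0 := by
    intro h
    exact hz (by rw [sub_eq_zero.mp h]; exact left_mem_segment ℝ e' e)
  rw [mem_slitPlane_iff_not_le_zero]
  intro hle
  apply hz
  set k := (z - e) / (z - e') with hk
  have hkr : k = (k.re : ℂ) := by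
    rw [Complex.le_def] at hle
    apply Complex.ext
    · simp
    · simpa using hle.2
  have hk0 : k.re ≤ 0 := by
    have := (Complex.le_def.mp hle).1
    simpa using this
  have h1 : z - e = k.re * (z - e') := by
    rw [← hkr, hk]; field_simp
  have h2 : (1 - k.re : ℝ) ≠ 0 := by linarith
  have h2' : (1 - (k.re : ℂ)) ≠ 0 := by
    exact_mod_cast h2
  have h3 : 0 < 1 - k.re := by linarith
  rw [segment_eq_image]
  refine ⟨1 / (1 - k.re), ⟨by positivity, ?_⟩, ?_⟩
  · rw [div_le_one h3]; linarith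
  · simp only [real_smul]
    push_cast
    have h4 : z * (1 - (k.re : ℂ)) = e - k.re * e' := by linear_combination h1
    have h5 : z = (e - k.re * e') / (1 - (k.re : ℂ)) := by
      rw [eq_div_iff h2']; exact h4
    rw [h5]
    field_simp
    ring

/-- a continuous function with values in `2 π ℤ` is constant on a preconnected set -/
theorem const_of_int {P : Set ℂ} (hP : IsPreconnected P) {m : ℂ → ℝ} (hm : ContinuousOn m P)
    (hint : ∀ z ∈ P, ∃ n : ℤ, m z = n * (2 * Real.pi)) {z w : ℂ} (hz : z ∈ P) (hw : w ∈ P) :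
    m z = m w := by
  have key : ∀ z ∈ P, ∀ w ∈ P, ¬ m z < m w := by
    intro z hz w hw hlt
    obtain ⟨n, hn⟩ := hint z hz
    obtain ⟨k, hk⟩ := hint w hw
    have hpi := Real.pi_pos
    have h1 : (n : ℝ) < k := by
      rw [hn, hk] at hlt
      exact lt_of_mul_lt_mul_right hlt (by positivity)
    have h2 : n + 1 ≤ k := by exact_mod_cast h1
    have h3 : (n : ℝ) + 1 ≤ k := by exact_mod_cast h2
    have h4 : ((n : ℝ) + 1 / 2) * (2 * Real.pi) ∈ m '' P := by
      have h5 : IsPreconnected (m '' P) := hP.image m hm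
      refine h5.ordConnected.out (mem_image_of_mem m hz) (mem_image_of_mem m hw) ⟨?_, ?_⟩
      · rw [hn]; nlinarith
      · rw [hk]; nlinarith
    obtain ⟨u, hu, hmu⟩ := h4
    obtain ⟨l, hl⟩ := hint u hu
    rw [hl] at hmu
    have h6 : (l : ℝ) = n + 1 / 2 := mul_right_cancel₀ (by positivity) hmu
    have h7 : (2 * l : ℝ) = 2 * n + 1 := by linarith
    have h8 : 2 * l = 2 * n + 1 := by exact_mod_cast h7
    omega
  exact le_antisymm (not_lt.mp (key w hw z hz)) (not_lt.mp (key z hz w hw))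

/-- **the two sides of the segment `[e', e]` are separated by `X' ∪ [e', e]`** -/
theorem sides {X' : Set ℂ} (hX : IsPreconnected X') {e e' : ℂ} (he : e ∈ X')
    (he' : e' ∈ X') {b : ℝ} (hb : 0 < b) {γ : ℝ → ℂ}
    (hγ : ContinuousOn γ (Icc (-b) b)) (h0r : ((γ 0 - e) / (γ 0 - e')).re < 0)
    (h0i : ((γ 0 - e) / (γ 0 - e')).im = 0)
    (hpos : ∀ᶠ τ in 𝓝[>] (0 : ℝ), 0 < ((γ τ - e) / (γ τ - e')).im)
    (hneg : ∀ᶠ τ in 𝓝[<] (0 : ℝ), ((γ τ - e) / (γ τ - e')).im < 0)
    (hγX : ∀ τ ∈ Icc (-b) b, γ τ ∉ X')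
    (hγs : ∀ τ ∈ Icc (-b) b, τ ≠ 0 → γ τ ∉ segment ℝ e' e)
    {β : Set ℂ} (hβ : IsPreconnected β) (hβc : IsCompact β) (hβX : Disjoint β X')
    (hβs : Disjoint β (segment ℝ e' e)) (h1 : γ b ∈ β) (h2 : γ (-b) ∈ β) : False := by
  have hTc : IsCompact (β ∪ γ '' Icc (-b) b) := hβc.union (isCompact_Icc.image_of_continuousOn hγ)
  have hTd : Disjoint (β ∪ γ '' Icc (-b) b) X' := by
    rw [disjoint_union_left]
    refine ⟨hβX, ?_⟩
    rw [disjoint_left]
    rintro _ ⟨τ, hτ, rfl⟩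
    exact hγX τ hτ
  obtain ⟨L, hLc, hL⟩ := exists_log hX hTc hTd he he'
  set q : ℂ → ℂ := fun z => (z - e) / (z - e') with hq
  set m : ℂ → ℝ := fun z => (L z).im - arg (q z) with hm
  set P : Set ℂ := (β ∪ γ '' Ioc 0 b) ∪ γ '' Ico (-b) 0 with hPdef
  have hPsub : P ⊆ β ∪ γ '' Icc (-b) b := by
    rintro z ((hz | ⟨τ, hτ, rfl⟩) | ⟨τ, hτ, rfl⟩)
    · exact Or.inl hz
    · exact Or.inr ⟨τ, ⟨by linarith [hτ.1], hτ.2⟩, rfl⟩
    · exact Or.inr ⟨τ, ⟨hτ.1, by linarith [hτ.2]⟩, rfl⟩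
  have hPs : ∀ z ∈ P, z ∉ segment ℝ e' e := by
    rintro z ((hz | ⟨τ, hτ, rfl⟩) | ⟨τ, hτ, rfl⟩)
    · exact fun h => disjoint_left.mp hβs hz h
    · exact hγs τ ⟨by linarith [hτ.1], hτ.2⟩ hτ.1.ne'
    · exact hγs τ ⟨hτ.1, by linarith [hτ.2]⟩ hτ.2.ne
  have hPX : ∀ z ∈ P, z ∉ X' := fun z hz h => disjoint_left.mp hTd (hPsub hz) h
  have hPc : IsPreconnected P := by
    refine IsPreconnected.union (γ (-b)) (Or.inl h2) ⟨-b, ⟨le_rfl, by linarith⟩, rfl⟩
      (IsPreconnected.union (γ b) h1 ⟨b, ⟨hb, le_rfl⟩, rfl⟩ hβ ?_) ?_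
    · exact isPreconnected_Ioc.image γ (hγ.mono fun τ hτ => ⟨by linarith [hτ.1], hτ.2⟩)
    · exact isPreconnected_Ico.image γ (hγ.mono fun τ hτ => ⟨hτ.1, by linarith [hτ.2]⟩)
  have hqc : ContinuousOn q P :=
    (continuousOn_id.sub continuousOn_const).div (continuousOn_id.sub continuousOn_const)
      (fun z hz h => hPX z hz (by rwa [show z = e' from sub_eq_zero.mp h]))
  have hmc : ContinuousOn m P := by
    refine (continuous_im.comp_continuousOn (hLc.mono hPsub)).sub ?_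
    intro z hz
    have h3 : ContinuousAt arg (q z) := continuousAt_arg (quot_mem_slitPlane (hPs z hz))
    exact h3.comp_continuousWithinAt (hqc z hz)
  have hmi : ∀ z ∈ P, ∃ n : ℤ, m z = n * (2 * Real.pi) := by
    intro z hz
    have hq0 : q z ≠ 0 := slitPlane_ne_zero (quot_mem_slitPlane (hPs z hz))
    have e1 : exp (L z) = exp (log (q z)) := by
      rw [exp_log hq0, hL z (hPsub hz)]
    obtain ⟨n, hn⟩ := exp_eq_exp_iff_exists_int.mp e1
    refine ⟨n, ?_⟩
    have h3 := congrArg Complex.im hn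
    simp only [add_im, mul_im, intCast_re, intCast_im, log_im, mul_re, ofReal_re, ofReal_im, I_re,
      I_im, re_ofNat, im_ofNat] at h3
    simp only [hm]
    ring_nf at h3 ⊢
    linarith
  -- limits at `0`
  have hγ0 : ContinuousWithinAt γ (Icc (-b) b) 0 := hγ 0 ⟨by linarith, hb.le⟩
  have hmem0 : γ 0 ∈ β ∪ γ '' Icc (-b) b := Or.inr ⟨0, ⟨by linarith, hb.le⟩, rfl⟩
  have hLlim : Tendsto (fun τ => (L (γ τ)).im) (𝓝[Icc (-b) b] 0) (𝓝 (L (γ 0)).im) := by
    have h3 : ContinuousWithinAt (fun τ => (L (γ τ)).im) (Icc (-b) b) 0 :=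
      continuous_im.continuousAt.comp_continuousWithinAt
        ((hLc _ hmem0).comp hγ0 (fun τ hτ => Or.inr ⟨τ, hτ, rfl⟩))
    exact h3
  have hq0 : γ 0 - e' ≠ 0 := by
    intro h; rw [h, div_zero] at h0r; simp at h0r
  have hqlim : Tendsto (fun τ => q (γ τ)) (𝓝[Icc (-b) b] 0) (𝓝 (q (γ 0))) := by
    have h3 : ContinuousAt q (γ 0) :=
      (continuousAt_id.sub continuousAt_const).div (continuousAt_id.sub continuousAt_const) hq0
    exact h3.comp_continuousWithinAt hγ0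
  have hle1 : 𝓝[>] (0 : ℝ) ≤ 𝓝[Icc (-b) b] 0 := by
    rw [← nhdsWithin_Ioc_eq_nhdsGT hb]
    exact nhdsWithin_mono _ fun τ hτ => ⟨by linarith [hτ.1], hτ.2⟩
  have hle2 : 𝓝[<] (0 : ℝ) ≤ 𝓝[Icc (-b) b] 0 := by
    rw [← nhdsWithin_Ico_eq_nhdsLT (show -b < 0 by linarith)]
    exact nhdsWithin_mono _ fun τ hτ => ⟨hτ.1, by linarith [hτ.2]⟩
  have hA1 : Tendsto (fun τ => m (γ τ)) (𝓝[>] 0) (𝓝 ((L (γ 0)).im - Real.pi)) := by
    refine (hLlim.mono_left hle1).sub ?_
    refine (tendsto_arg_nhdsWithin_im_nonneg_of_re_neg_of_im_zero h0r h0i).comp ?_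
    refine tendsto_nhdsWithin_iff.mpr ⟨hqlim.mono_left hle1, ?_⟩
    filter_upwards [hpos] with τ hτ
    exact hτ.le
  have hA2 : Tendsto (fun τ => m (γ τ)) (𝓝[<] 0) (𝓝 ((L (γ 0)).im - (-Real.pi))) := by
    refine (hLlim.mono_left hle2).sub ?_
    refine (tendsto_arg_nhdsWithin_im_neg_of_re_neg_of_im_zero h0r h0i).comp ?_
    refine tendsto_nhdsWithin_iff.mpr ⟨hqlim.mono_left hle2, ?_⟩
    filter_upwards [hneg] with τ hτ
    exact hτ
  have hc1 : ∀ᶠ τ in 𝓝[>] (0 : ℝ), m (γ τ) = m (γ b) := by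
    rw [← nhdsWithin_Ioc_eq_nhdsGT hb]
    filter_upwards [self_mem_nhdsWithin] with τ hτ
    exact const_of_int hPc hmc hmi (Or.inl (Or.inr ⟨τ, hτ, rfl⟩)) (Or.inl (Or.inl h1))
  have hc2 : ∀ᶠ τ in 𝓝[<] (0 : ℝ), m (γ τ) = m (γ b) := by
    rw [← nhdsWithin_Ico_eq_nhdsLT (show -b < 0 by linarith)]
    filter_upwards [self_mem_nhdsWithin] with τ hτ
    exact const_of_int hPc hmc hmi (Or.inr ⟨τ, hτ, rfl⟩) (Or.inl (Or.inl h1))
  have hB1 := tendsto_nhds_unique (hA1.congr' hc1) tendsto_const_nhds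
  have hB2 := tendsto_nhds_unique (hA2.congr' hc2) tendsto_const_nhds
  have := Real.pi_pos
  linarith

end Crest.Agent.R105.Unv_133
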