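import Mathlib
import Crest.Agent.R105.Unv2_133

/-!
# Row 105 (Koebe), univalence of `p = x + i y`, part 3 (helper133): local Stokes, box integrals
-/

set_option autoImplicit false

open Set Filter Topology Metric Complex MeasureTheory
open scoped ComplexConjugate ContDiff

namespace Crest.Agent.R105.Unv_133

open Crest.Agent.Lib (exists_holomorphic_inverse)

open Crest.Agent.R105.Pth_988 (hasFDerivAt_real fderiv_re fderiv_comp integral_image
  integrableOn_image)

/-- pull back of a test function of the `p`-plane to the `z`-plane -/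
theorem pull {V : Set ℂ} (hV : IsOpen V) {p : ℂ → ℂ} (hp : DifferentiableOn ℂ p V)
    (hinj : InjOn p V) {f : ℂ → ℝ} (hf : ContDiff ℝ 2 f) (hfc : HasCompactSupport f)
    (hfV : tsupport f ⊆ p '' V) :
    ContDiff ℝ 1 (V.indicator (fun z => f (p z))) ∧
      HasCompactSupport (V.indicator (fun z => f (p z))) ∧
      tsupport (V.indicator (fun z => f (p z))) ⊆ V := by
  obtain ⟨g, hg, -, hgim, hgp, hpg⟩ := exists_holomorphic_inverse hV hp hinj
  set S : Set ℂ := g '' tsupport f with hS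
  have hSc : IsCompact S := hfc.isCompact.image_of_continuousOn (hg.continuousOn.mono hfV)
  have hSV : S ⊆ V := by
    rw [← hgim]; exact image_mono hfV
  have hsub : ∀ z, z ∉ S → V.indicator (fun z => f (p z)) z = 0 := by
    intro z hz
    by_cases hzV : z ∈ V
    · rw [indicator_of_mem hzV]
      by_contra h
      exact hz ⟨p z, subset_tsupport _ h, hgp z hzV⟩
    · rw [indicator_of_notMem hzV]
  have hts : tsupport (V.indicator (fun z => f (p z))) ⊆ S := by
    refine closure_minimal ?_ hSc.isClosed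
    intro z hz
    by_contra h
    exact hz (hsub z h)
  refine ⟨?_, hSc.of_isClosed_subset (isClosed_tsupport _) hts, hts.trans hSV⟩
  rw [contDiff_iff_contDiffAt]
  intro z
  by_cases hz : z ∈ V
  · have h1 : ContDiffAt ℝ 1 (fun z => f (p z)) z :=
      (hf.of_le (by norm_num)).contDiffAt.comp z
        ((contDiffOn_real hV hp 1).contDiffAt (hV.mem_nhds hz))
    refine h1.congr_of_eventuallyEq ?_
    filter_upwards [hV.mem_nhds hz] with w hw
    rw [indicator_of_mem hw]
  · have h2 : z ∉ S := fun h => hz (hSV h)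
    refine (contDiffAt_const (c := (0 : ℝ))).congr_of_eventuallyEq ?_
    filter_upwards [hSc.isClosed.isOpen_compl.mem_nhds h2] with w hw
    exact hsub w hw

/-- the second (local) Stokes formula -/
theorem flux_local {V : Set ℂ} (hV : IsOpen V) {p : ℂ → ℂ} (hp : DifferentiableOn ℂ p V)
    (hinj : InjOn p V) {f : ℂ → ℝ} (hf : ContDiff ℝ 2 f) (hfc : HasCompactSupport f)
    (hfV : tsupport f ⊆ p '' V) {c : ℂ → ℝ} (hc : ContDiff ℝ 1 c) :
    ∫ z in V, f (p z) * fderiv ℝ c z (I * conj (deriv p z)) =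
      - ∫ z in V, c z * (‖deriv p z‖ ^ 2 * fderiv ℝ f (p z) I) := by
  obtain ⟨hg1, hg2, hg3⟩ := pull hV hp hinj hf hfc hfV
  set g : ℂ → ℝ := V.indicator (fun z => f (p z)) with hg
  have hpd : ContinuousOn (deriv p) V := (hp.deriv hV).continuousOn
  have hφ1 : ContDiff ℝ 1 (fun z => c z * g z) := hc.mul hg1
  have hφ2 : HasCompactSupport (fun z => c z * g z) := hg2.mul_left
  have hφ3 : tsupport (fun z => c z * g z) ⊆ V := (tsupport_mul_subset_right).trans hg3
  have h0 := flux_zero hV hp hφ1 hφ2 hφ3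
  have hgd : ∀ z ∈ V, ∀ v, fderiv ℝ g z v = fderiv ℝ f (p z) (deriv p z * v) := by
    intro z hz v
    have h5 : g =ᶠ[𝓝 z] fun z => f (p z) := by
      filter_upwards [hV.mem_nhds hz] with w hw
      rw [hg, indicator_of_mem hw]
    rw [h5.fderiv_eq, fderiv_comp hV hp hz (hf.differentiable (by norm_num) _)]
  have hgI : ∀ z ∈ V, fderiv ℝ g z (I * conj (deriv p z)) =
      ‖deriv p z‖ ^ 2 * fderiv ℝ f (p z) I := by
    intro z hz
    have h7 : deriv p z * (I * conj (deriv p z)) = (‖deriv p z‖ ^ 2 : ℝ) • I := by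
      have h8 : deriv p z * conj (deriv p z) = ((‖deriv p z‖ ^ 2 : ℝ) : ℂ) := by
        rw [mul_conj, normSq_eq_norm_sq]
      calc deriv p z * (I * conj (deriv p z)) = (deriv p z * conj (deriv p z)) * I := by ring
        _ = _ := by rw [h8, real_smul]
    rw [hgd z hz, h7, map_smul, smul_eq_mul]
  have hcut : ∀ z ∈ V, fderiv ℝ (fun z => c z * g z) z (I * conj (deriv p z)) =
      f (p z) * fderiv ℝ c z (I * conj (deriv p z)) +
        c z * (‖deriv p z‖ ^ 2 * fderiv ℝ f (p z) I) := by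
    intro z hz
    have h6 := (hc.differentiable one_ne_zero z).hasFDerivAt.mul
      (hg1.differentiable one_ne_zero z).hasFDerivAt
    have h6' : HasFDerivAt (fun z => c z * g z) (c z • fderiv ℝ g z + g z • fderiv ℝ c z) z := h6
    have h6g : g z = f (p z) := by rw [hg, indicator_of_mem hz]
    rw [h6'.fderiv, ← hgI z hz, ← h6g]
    change c z • (fderiv ℝ g z) (I * conj (deriv p z)) + g z • (fderiv ℝ c z) (I * conj (deriv p z))
      = _
    rw [smul_eq_mul, smul_eq_mul]
    ring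
  have hK : IsCompact (tsupport g) := hg2
  have hi1 : IntegrableOn (fun z => f (p z) * fderiv ℝ c z (I * conj (deriv p z))) V := by
    have hcont : ContinuousOn (fun z => f (p z) * fderiv ℝ c z (I * conj (deriv p z))) V :=
      (hf.continuous.comp_continuousOn hp.continuousOn).mul
        ((hc.continuous_fderiv one_ne_zero).continuousOn.clm_apply
          (continuousOn_const.mul (continuous_conj.comp_continuousOn hpd)))
    refine ((hcont.mono hg3).integrableOn_compact hK).of_forall_sdiff_eq_zero hV.measurableSet ?_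
    intro z hz
    have h8 : g z = 0 := image_eq_zero_of_notMem_tsupport hz.2
    rw [hg, indicator_of_mem hz.1] at h8
    rw [h8, zero_mul]
  have hi2 : IntegrableOn (fun z => c z * (‖deriv p z‖ ^ 2 * fderiv ℝ f (p z) I)) V := by
    have hcont : ContinuousOn (fun z => c z * (‖deriv p z‖ ^ 2 * fderiv ℝ f (p z) I)) V :=
      hc.continuous.continuousOn.mul ((hpd.norm.pow 2).mul
        (((hf.continuous_fderiv (by norm_num)).comp_continuousOn hp.continuousOn).clm_apply
          continuousOn_const))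
    refine ((hcont.mono hg3).integrableOn_compact hK).of_forall_sdiff_eq_zero hV.measurableSet ?_
    intro z hz
    have h11 : fderiv ℝ g z = 0 := by
      have : z ∉ tsupport (fderiv ℝ g) := fun h => hz.2 (tsupport_fderiv_subset ℝ h)
      exact image_eq_zero_of_notMem_tsupport this
    rw [← hgI z hz.1, h11]
    simp
  rw [setIntegral_congr_fun hV.measurableSet hcut, integral_add hi1 hi2] at h0
  linarith

/-- integral over a box of a function of the real part -/
theorem integral_box (ψ : ℝ → ℝ) (a b : ℝ) {c d : ℝ} (hcd : c ≤ d) :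
    ∫ ζ in {ζ : ℂ | ζ.re ∈ Ioo a b ∧ ζ.im ∈ Ioo c d}, ψ ζ.re =
      (d - c) * ∫ x in Ioo a b, ψ x := by
  have h1 : {ζ : ℂ | ζ.re ∈ Ioo a b ∧ ζ.im ∈ Ioo c d} =
      measurableEquivRealProd ⁻¹' (Ioo a b ×ˢ Ioo c d) := by
    ext ζ; simp [measurableEquivRealProd_apply]
  rw [h1]
  have h2 := volume_preserving_equiv_real_prod.setIntegral_preimage_emb
    measurableEquivRealProd.measurableEmbedding (fun q : ℝ × ℝ => ψ q.1) (Ioo a b ×ˢ Ioo c d)
  have h3 := setIntegral_prod_mul (μ := volume) (ν := volume) (f := ψ) (g := fun _ : ℝ => (1 : ℝ))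
    (Ioo a b) (Ioo c d)
  simp only [mul_one] at h3
  calc ∫ ζ in measurableEquivRealProd ⁻¹' (Ioo a b ×ˢ Ioo c d), ψ ζ.re
      = ∫ q in Ioo a b ×ˢ Ioo c d, ψ q.1 := h2
    _ = (d - c) * ∫ x in Ioo a b, ψ x := by
        rw [show (volume : Measure (ℝ × ℝ)) = volume.prod volume from rfl, h3]
        simp [hcd, mul_comm]

/-- the open box of half sides `a`, `b` around `ζ0` -/
def box (ζ0 : ℂ) (a b : ℝ) : Set ℂ :=
  {ζ | ζ.re ∈ Ioo (ζ0.re - a) (ζ0.re + a) ∧ ζ.im ∈ Ioo (ζ0.im - b) (ζ0.im + b)}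

theorem isOpen_reim (a b c d : ℝ) : IsOpen {ζ : ℂ | ζ.re ∈ Ioo a b ∧ ζ.im ∈ Ioo c d} :=
  (isOpen_Ioo.preimage continuous_re).inter (isOpen_Ioo.preimage continuous_im)

/-- the mass of a box in the `z`-plane -/
theorem mass_box {V : Set ℂ} (hV : IsOpen V) {p : ℂ → ℂ} (hp : DifferentiableOn ℂ p V)
    (hinj : InjOn p V) {ψ : ℝ → ℝ} {a b c d : ℝ} (hcd : c ≤ d)
    (hsub : {ζ : ℂ | ζ.re ∈ Ioo a b ∧ ζ.im ∈ Ioo c d} ⊆ p '' V) :
    ∫ z in V ∩ p ⁻¹' {ζ : ℂ | ζ.re ∈ Ioo a b ∧ ζ.im ∈ Ioo c d}, ‖deriv p z‖ ^ 2 * ψ (p z).re =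
      (d - c) * ∫ x in Ioo a b, ψ x := by
  set B : Set ℂ := {ζ : ℂ | ζ.re ∈ Ioo a b ∧ ζ.im ∈ Ioo c d} with hB
  have hW : IsOpen (V ∩ p ⁻¹' B) := hp.continuousOn.isOpen_inter_preimage hV (isOpen_reim a b c d)
  have h1 := integral_image hW (hp.mono inter_subset_left) (hinj.mono inter_subset_left)
    (fun ζ => ψ ζ.re)
  rw [← h1, ← integral_box ψ a b hcd]
  congr 2
  apply Subset.antisymm
  · rintro _ ⟨z, hz, rfl⟩
    exact hz.2
  · intro ζ hζ
    obtain ⟨z, hz, rfl⟩ := hsub hζ
    exact ⟨z, ⟨hz, hζ⟩, rfl⟩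

/-- cut-off of the identity: `lam s = s` for `|s| ≤ 1`, `lam s = 0` for `|s| ≥ 2` -/
theorem exists_lam : ∃ (lam : ℝ → ℝ) (C : ℝ), 0 ≤ C ∧ ContDiff ℝ ∞ lam ∧
    (∀ s, |s| ≤ 1 → lam s = s) ∧ (∀ s, 2 ≤ |s| → lam s = 0) ∧ ∀ s, |deriv lam s| ≤ C := by
  let B : ContDiffBump (0 : ℝ) := ⟨1, 2, one_pos, one_lt_two⟩
  have hsm : ContDiff ℝ ∞ (fun s : ℝ => s * B s) := contDiff_id.mul B.contDiff
  have hcs : HasCompactSupport (fun s : ℝ => s * B s) := B.hasCompactSupport.mul_left
  obtain ⟨C, hC⟩ := (hcs.deriv (f := fun s : ℝ => s * B s)).exists_bound_of_continuous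
    (hsm.continuous_deriv (by simp))
  refine ⟨fun s => s * B s, max C 0, le_max_right _ _, hsm, ?_, ?_, ?_⟩
  · intro s hs
    have : B s = 1 := B.one_of_mem_closedBall (by simpa [Real.dist_eq] using hs)
    simp [this]
  · intro s hs
    have : B s = 0 := B.zero_of_le_dist (by simpa [Real.dist_eq] using hs)
    simp [this]
  · intro s
    exact (hC s).trans (le_max_left _ _)

end Crest.Agent.R105.Unv_133
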