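import Mathlib
import Crest.Agent.R105.Unv3_133

/-!
# Row 105 (Koebe), univalence of `p = x + i y`, part 4 (helper133): the flux inequality
-/

set_option autoImplicit false

open Set Filter Topology Metric Complex MeasureTheory
open scoped ComplexConjugate ContDiff

namespace Crest.Agent.R105.Unv_133

open Crest.Agent.R105.Pth_988 (hasFDerivAt_real fderiv_re fderiv_comp integral_image
  integrableOn_image)

theorem flux_pos {U : Set ℂ} (hU : IsOpen U) {p : ℂ → ℂ} (hp : DifferentiableOn ℂ p U) {ζ0 : ℂ}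
    {V1 V2 : Set ℂ} (hV1 : IsOpen V1) (hV2 : IsOpen V2) (hV1U : V1 ⊆ U) (hV2U : V2 ⊆ U)
    (hd : Disjoint V1 V2) (hi1 : InjOn p V1) (hi2 : InjOn p V2) {a b η C : ℝ} {lam : ℝ → ℝ}
    (hC0 : 0 ≤ C) (hlam : ContDiff ℝ ∞ lam) (hlam1 : ∀ s, |s| ≤ 1 → lam s = s)
    (hlam2 : ∀ s, 2 ≤ |s| → lam s = 0) (hlamC : ∀ s, |deriv lam s| ≤ C)
    (hη : 0 < η) (hηb : 3 * η ≤ b)
    (hb1 : box ζ0 a b ⊆ p '' V1) (hb2 : box ζ0 a b ⊆ p '' V2)
    {Ψ : ℝ → ℝ} (hΨ : ContDiff ℝ ∞ Ψ) (hΨ0 : ∀ s, 0 ≤ deriv Ψ s)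
    (hΨc : HasCompactSupport (deriv Ψ))
    (hΨs : tsupport (deriv Ψ) ⊆ Ioo (ζ0.re - a) (ζ0.re + a))
    (hJ : 0 < ∫ x in Ioo (ζ0.re - a) (ζ0.re + a), deriv Ψ x)
    {c : ℂ → ℝ} (hc : ContDiff ℝ ∞ c) (hcs : HasCompactSupport c)
    (hc0 : ∀ z, 0 ≤ c z) (hc1 : ∀ z, c z ≤ 1) (hcU : tsupport (fderiv ℝ c) ⊆ U)
    (hcX : ∀ z ∈ U, fderiv ℝ c z ≠ 0 → deriv Ψ (p z).re ≠ 0 →
      (z ∈ V1 ∨ z ∈ V2) ∧ |(p z).im - ζ0.im| ≤ η)
    {c1 d1 : ℝ} (hcd : c1 ≤ d1) (hcd1 : ζ0.im - b ≤ c1) (hcd2 : d1 ≤ ζ0.im + b)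
    (hR : ∀ z ∈ V1, deriv Ψ (p z).re ≠ 0 → (p z).im ∈ Ioo c1 d1 → c z = 1)
    (hlen : 12 * C * η < d1 - c1)
    (hfin : ∀ R : ℝ, IntegrableOn (fun z => ‖deriv p z‖ ^ 2) (U ∩ closedBall 0 R)) :
    0 < ∫ z in U, fderiv ℝ (fun z => Ψ (p z).re * c z) z (conj (deriv p z)) := by
  set J : ℝ := ∫ x in Ioo (ζ0.re - a) (ζ0.re + a), deriv Ψ x with hJdef
  set y0 : ℝ := ζ0.im with hy0
  have hpd : ContinuousOn (deriv p) U := (hp.deriv hU).continuousOn
  have hxc : ContinuousOn (fun z => (p z).re) U := (contDiffOn_re hU hp 0).continuousOn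
  have hΨ' : Continuous (deriv Ψ) := hΨ.continuous_deriv (by simp)
  -- the test function of the `p`-plane
  set f : ℂ → ℝ := fun ζ => deriv Ψ ζ.re * (η * lam ((ζ.im - y0) / η)) with hf
  have hdΨ : ContDiff ℝ ∞ (deriv Ψ) := by
    exact ((contDiff_infty_iff_deriv (𝕜 := ℝ)).mp hΨ).2
  have hfs : ContDiff ℝ ∞ f := by
    have h1 : ContDiff ℝ ∞ (fun ζ : ℂ => deriv Ψ ζ.re) := hdΨ.comp reCLM.contDiff
    have h2 : ContDiff ℝ ∞ (fun ζ : ℂ => lam ((ζ.im - y0) / η)) :=
      hlam.comp ((imCLM.contDiff.sub contDiff_const).div_const η)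
    exact h1.mul (contDiff_const.mul h2)
  have hfsupp : Function.support f ⊆ {ζ : ℂ | ζ.re ∈ tsupport (deriv Ψ) ∧
      ζ.im ∈ Icc (y0 - 2 * η) (y0 + 2 * η)} := by
    intro ζ hζ
    rw [Function.mem_support, hf] at hζ
    refine ⟨subset_tsupport _ (left_ne_zero_of_mul hζ), ?_⟩
    have h1 : lam ((ζ.im - y0) / η) ≠ 0 := right_ne_zero_of_mul (right_ne_zero_of_mul hζ)
    have h2 : ¬ 2 ≤ |(ζ.im - y0) / η| := fun h => h1 (hlam2 _ h)
    rw [not_le, abs_div, abs_of_pos hη, div_lt_iff₀ hη, abs_lt] at h2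
    exact ⟨by linarith [h2.1], by linarith [h2.2]⟩
  have hKclosed : IsClosed {ζ : ℂ | ζ.re ∈ tsupport (deriv Ψ) ∧
      ζ.im ∈ Icc (y0 - 2 * η) (y0 + 2 * η)} :=
    ((isClosed_tsupport _).preimage continuous_re).inter (isClosed_Icc.preimage continuous_im)
  have hfts : tsupport f ⊆ {ζ : ℂ | ζ.re ∈ tsupport (deriv Ψ) ∧
      ζ.im ∈ Icc (y0 - 2 * η) (y0 + 2 * η)} := closure_minimal hfsupp hKclosed
  have hfbox : tsupport f ⊆ box ζ0 a b := by
    intro ζ hζ
    obtain ⟨h1, h2⟩ := hfts hζ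
    exact ⟨hΨs h1, by linarith [h2.1], by linarith [h2.2]⟩
  have hfc : HasCompactSupport f := by
    refine Metric.isCompact_of_isClosed_isBounded (isClosed_tsupport _) ?_
    obtain ⟨M, hM⟩ := hΨc.isCompact.isBounded.exists_norm_le
    rw [isBounded_iff_forall_norm_le]
    refine ⟨M + (|y0| + 2 * η), fun ζ hζ => ?_⟩
    obtain ⟨h1, h2⟩ := hfts hζ
    refine (norm_le_abs_re_add_abs_im ζ).trans (add_le_add (hM _ h1) ?_)
    have : |ζ.im| ≤ |y0| + |ζ.im - y0| := by
      have := abs_add_le y0 (ζ.im - y0)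
      simpa using this
    have h3 : |ζ.im - y0| ≤ 2 * η := by
      rw [abs_le]; exact ⟨by linarith [h2.1], by linarith [h2.2]⟩
    linarith
  have hfI : ∀ ζ : ℂ, fderiv ℝ f ζ I = deriv Ψ ζ.re * deriv lam ((ζ.im - y0) / η) := by
    intro ζ
    have h1 : HasFDerivAt (fun ζ : ℂ => deriv Ψ ζ.re) (deriv (deriv Ψ) ζ.re • reCLM) ζ := by
      have h2 : HasDerivAt (deriv Ψ) (deriv (deriv Ψ) ζ.re) ζ.re :=
        (hdΨ.differentiable (by simp) _).hasDerivAt
      exact h2.comp_hasFDerivAt ζ reCLM.hasFDerivAt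
    have h3 : HasFDerivAt (fun ζ : ℂ => lam ((ζ.im - y0) / η))
        (deriv lam ((ζ.im - y0) / η) • (η⁻¹ • imCLM)) ζ := by
      have h4 : HasDerivAt lam (deriv lam ((ζ.im - y0) / η)) ((ζ.im - y0) / η) :=
        (hlam.differentiable (by simp) _).hasDerivAt
      have h5 : HasFDerivAt (fun ζ : ℂ => (ζ.im - y0) / η) (η⁻¹ • imCLM) ζ := by
        have h6 : HasFDerivAt (fun ζ : ℂ => η⁻¹ * (ζ.im - y0)) (η⁻¹ • imCLM) ζ :=
          ((imCLM.hasFDerivAt (x := ζ)).sub_const y0).const_mul η⁻¹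
        refine h6.congr_of_eventuallyEq (Eventually.of_forall fun w => ?_)
        exact div_eq_inv_mul _ _
      exact h4.comp_hasFDerivAt ζ h5
    have h7 := h1.mul (h3.const_mul η)
    have h8 : HasFDerivAt f _ ζ := h7
    rw [h8.fderiv]
    change deriv Ψ ζ.re * (η * (deriv lam ((ζ.im - y0) / η) * (η⁻¹ * (I : ℂ).im))) +
      (η * lam ((ζ.im - y0) / η)) * (deriv (deriv Ψ) ζ.re * (I : ℂ).re) = _
    rw [I_im, I_re]
    have : η * (deriv lam ((ζ.im - y0) / η) * (η⁻¹ * 1)) = deriv lam ((ζ.im - y0) / η) := by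
      field_simp
    rw [this]
    ring
  -- step 1
  have hT := flux_T hU hp (hc.of_le (WithTop.coe_le_coe.2 le_top)) hcs hcU
    (hΨ.of_le (WithTop.coe_le_coe.2 le_top)) y0
  have hloc : ∀ {V : Set ℂ}, IsOpen V → V ⊆ U → InjOn p V → box ζ0 a b ⊆ p '' V →
      ∫ z in V, f (p z) * fderiv ℝ c z (I * conj (deriv p z)) =
      - ∫ z in V, c z * (‖deriv p z‖ ^ 2 * (deriv Ψ (p z).re *
        deriv lam (((p z).im - y0) / η))) := by
    intro V hV hVU hi hb
    rw [flux_local hV (hp.mono hVU) hi (hfs.of_le (WithTop.coe_le_coe.2 le_top)) hfc (hfbox.trans hb)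
      (hc.of_le (WithTop.coe_le_coe.2 le_top))]
    congr 1
    refine setIntegral_congr_fun hV.measurableSet fun z _ => ?_
    rw [hfI]
  -- bound of the local terms
  have hbd : ∀ {V : Set ℂ}, IsOpen V → V ⊆ U → InjOn p V → box ζ0 a b ⊆ p '' V →
      -(6 * C * η * J) ≤ ∫ z in V, f (p z) * fderiv ℝ c z (I * conj (deriv p z)) := by
    intro V hV hVU hi hb
    rw [hloc hV hVU hi hb, neg_le_neg_iff]
    set B3 : Set ℂ := {ζ : ℂ | ζ.re ∈ Ioo (ζ0.re - a) (ζ0.re + a) ∧
      ζ.im ∈ Ioo (y0 - 3 * η) (y0 + 3 * η)} with hB3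
    have hB3box : B3 ⊆ box ζ0 a b := by
      rintro ζ ⟨h1, h2⟩
      exact ⟨h1, by linarith [h2.1], by linarith [h2.2]⟩
    have hmass := mass_box hV (hp.mono hVU) hi (ψ := deriv Ψ) (a := ζ0.re - a) (b := ζ0.re + a)
      (c := y0 - 3 * η) (d := y0 + 3 * η) (by linarith) (hB3box.trans hb)
    have hWo : IsOpen (V ∩ p ⁻¹' B3) :=
      (hp.mono hVU).continuousOn.isOpen_inter_preimage hV (isOpen_reim _ _ _ _)
    have hzero : ∀ z ∈ V \ (V ∩ p ⁻¹' B3), c z * (‖deriv p z‖ ^ 2 * (deriv Ψ (p z).re *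
        deriv lam (((p z).im - y0) / η))) = 0 := by
      intro z hz
      by_cases h1 : deriv Ψ (p z).re = 0
      · simp [h1]
      have h2 : (p z).re ∈ Ioo (ζ0.re - a) (ζ0.re + a) := hΨs (subset_tsupport _ h1)
      have h3 : ¬ (p z).im ∈ Ioo (y0 - 3 * η) (y0 + 3 * η) := fun h => hz.2 ⟨hz.1, h2, h⟩
      have h4 : 2 < |((p z).im - y0) / η| := by
        rw [abs_div, abs_of_pos hη, lt_div_iff₀ hη]
        by_contra h
        rw [not_lt, abs_le] at h
        exact h3 ⟨by linarith [h.1], by linarith [h.2]⟩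
      have h5 : deriv lam (((p z).im - y0) / η) = 0 := by
        have h6 : lam =ᶠ[𝓝 (((p z).im - y0) / η)] fun _ => 0 := by
          have h7 : ∀ᶠ s in 𝓝 (((p z).im - y0) / η), 2 < |s| :=
            (continuous_abs.tendsto _).eventually (lt_mem_nhds h4)
          filter_upwards [h7] with s hs
          exact hlam2 s hs.le
        rw [h6.deriv_eq]; simp
      simp [h5]
    have hint : IntegrableOn (fun z => ‖deriv p z‖ ^ 2 * deriv Ψ (p z).re) (V ∩ p ⁻¹' B3) := by
      have h1 := (integrableOn_image hWo (hp.mono (inter_subset_left.trans hVU))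
        (hi.mono inter_subset_left) (g := fun ζ => deriv Ψ ζ.re))
      rw [← h1]
      have h2 : p '' (V ∩ p ⁻¹' B3) ⊆ B3 := by
        rintro _ ⟨z, hz, rfl⟩; exact hz.2
      refine IntegrableOn.mono_set ?_ h2
      have h3 : B3 ⊆ closedBall 0 (|ζ0.re| + |a| + (|y0| + 3 * η)) := by
        rintro ζ ⟨h4, h5⟩
        rw [mem_closedBall_zero_iff]
        refine (norm_le_abs_re_add_abs_im ζ).trans (add_le_add ?_ ?_)
        · rw [abs_le]
          have := neg_abs_le ζ0.re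
          have := le_abs_self ζ0.re
          have := neg_abs_le a
          have := le_abs_self a
          exact ⟨by linarith [h4.1], by linarith [h4.2]⟩
        · rw [abs_le]
          have := neg_abs_le y0
          have := le_abs_self y0
          exact ⟨by linarith [h5.1], by linarith [h5.2]⟩
      exact ((hΨ'.comp continuous_re).continuousOn.integrableOn_compact
        (isCompact_closedBall _ _)).mono_set h3
    have h8 : ‖∫ z in V ∩ p ⁻¹' B3, c z * (‖deriv p z‖ ^ 2 * (deriv Ψ (p z).re *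
        deriv lam (((p z).im - y0) / η)))‖ ≤
        ∫ z in V ∩ p ⁻¹' B3, C * (‖deriv p z‖ ^ 2 * deriv Ψ (p z).re) := by
      refine norm_integral_le_of_norm_le (hint.const_mul C) (Eventually.of_forall fun z => ?_)
      rw [norm_mul, norm_mul, norm_mul, Real.norm_of_nonneg (hc0 z),
        Real.norm_of_nonneg (sq_nonneg _), Real.norm_of_nonneg (hΨ0 _), Real.norm_eq_abs]
      have h9 := hlamC (((p z).im - y0) / η)
      have h10 : 0 ≤ ‖deriv p z‖ ^ 2 * deriv Ψ (p z).re := mul_nonneg (sq_nonneg _) (hΨ0 _)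
      calc c z * (‖deriv p z‖ ^ 2 * (deriv Ψ (p z).re * |deriv lam (((p z).im - y0) / η)|))
          = c z * |deriv lam (((p z).im - y0) / η)| * (‖deriv p z‖ ^ 2 * deriv Ψ (p z).re) := by ring
        _ ≤ 1 * C * (‖deriv p z‖ ^ 2 * deriv Ψ (p z).re) := by
            refine mul_le_mul_of_nonneg_right ?_ h10
            exact mul_le_mul (hc1 z) h9 (abs_nonneg _) zero_le_one
        _ = C * (‖deriv p z‖ ^ 2 * deriv Ψ (p z).re) := by ring
    rw [setIntegral_eq_of_subset_of_forall_sdiff_eq_zero hV.measurableSet inter_subset_left hzero]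
    refine (le_abs_self _).trans (h8.trans ?_)
    rw [integral_const_mul, hmass, ← hJdef]
    nlinarith
  -- decomposition of `T`
  set F : ℂ → ℝ := fun z => deriv Ψ (p z).re * ((p z).im - y0) *
    fderiv ℝ c z (I * conj (deriv p z)) with hF
  have hcc : Continuous (fderiv ℝ c) :=
    (show ContDiff ℝ 1 c from hc.of_le (WithTop.coe_le_coe.2 le_top)).continuous_fderiv one_ne_zero
  have hccs : IsCompact (tsupport (fderiv ℝ c)) := hcs.fderiv (𝕜 := ℝ)
  have hyc : ContinuousOn (fun z => (p z).im) U := (contDiffOn_im hU hp 0).continuousOn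
  have hFi : IntegrableOn F U := by
    have hcont : ContinuousOn F U :=
      ((hΨ'.comp_continuousOn hxc).mul (hyc.sub continuousOn_const)).mul
        (hcc.continuousOn.clm_apply (continuousOn_const.mul (continuous_conj.comp_continuousOn hpd)))
    refine ((hcont.mono hcU).integrableOn_compact hccs).of_forall_sdiff_eq_zero hU.measurableSet ?_
    intro z hz
    have : fderiv ℝ c z = 0 := image_eq_zero_of_notMem_tsupport hz.2
    simp [hF, this]
  have hF0 : ∀ z ∈ U \ (V1 ∪ V2), F z = 0 := by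
    intro z hz
    by_cases h1 : fderiv ℝ c z = 0
    · simp [hF, h1]
    by_cases h2 : deriv Ψ (p z).re = 0
    · simp [hF, h2]
    exact absurd (hcX z hz.1 h1 h2).1 hz.2
  have hF1 : ∀ {V : Set ℂ}, IsOpen V → V ⊆ U →
      ∫ z in V, F z = ∫ z in V, f (p z) * fderiv ℝ c z (I * conj (deriv p z)) := by
    intro V hV hVU
    refine setIntegral_congr_fun hV.measurableSet fun z hz => ?_
    by_cases h1 : fderiv ℝ c z = 0
    · simp [hF, h1]
    by_cases h2 : deriv Ψ (p z).re = 0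
    · simp [hF, hf, h2]
    have h3 := (hcX z (hVU hz) h1 h2).2
    have h4 : η * lam (((p z).im - y0) / η) = (p z).im - y0 := by
      rw [hlam1 _ (by rw [abs_div, abs_of_pos hη, div_le_one hη]; exact h3)]
      field_simp
    simp only [hF, hf, h4]
  have hTval : -(12 * C * η * J) ≤ ∫ z in U, F z := by
    rw [setIntegral_eq_of_subset_of_forall_sdiff_eq_zero hU.measurableSet
      (union_subset hV1U hV2U) hF0, setIntegral_union hd hV2.measurableSet
      (hFi.mono_set hV1U) (hFi.mono_set hV2U), hF1 hV1 hV1U, hF1 hV2 hV2U]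
    have h1 := hbd hV1 hV1U hi1 hb1
    have h2 := hbd hV2 hV2U hi2 hb2
    linarith
  -- the main term
  set g1 : ℂ → ℝ := fun z => ‖deriv p z‖ ^ 2 * deriv Ψ (p z).re * c z with hg1
  have hg1i : IntegrableOn g1 U := by
    obtain ⟨M, hM⟩ := hΨc.exists_bound_of_continuous hΨ'
    obtain ⟨R, hRc⟩ := hcs.isCompact.isBounded.subset_closedBall 0
    have h1 : IntegrableOn g1 (U ∩ closedBall 0 R) := by
      refine ((hfin R).const_mul M).mono' ?_ (Eventually.of_forall fun z => ?_)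
      · have h2 : ContinuousOn g1 U :=
          ((hpd.norm.pow 2).mul (hΨ'.comp_continuousOn hxc)).mul hc.continuous.continuousOn
        exact (h2.mono inter_subset_left).aestronglyMeasurable
          (hU.measurableSet.inter measurableSet_closedBall)
      · rw [hg1]
        simp only
        rw [norm_mul, norm_mul, Real.norm_of_nonneg (sq_nonneg _), Real.norm_of_nonneg (hc0 z)]
        have h3 := hM (p z).re
        have h4 : 0 ≤ ‖deriv p z‖ ^ 2 := sq_nonneg _
        have h5 : (0 : ℝ) ≤ ‖deriv Ψ (p z).re‖ := norm_nonneg _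
        calc ‖deriv p z‖ ^ 2 * ‖deriv Ψ (p z).re‖ * c z ≤ ‖deriv p z‖ ^ 2 * M * 1 := by
              refine mul_le_mul (mul_le_mul_of_nonneg_left h3 h4) (hc1 z) (hc0 z) ?_
              exact mul_nonneg h4 (h5.trans h3)
          _ = M * ‖deriv p z‖ ^ 2 := by ring
    refine h1.of_forall_sdiff_eq_zero hU.measurableSet ?_
    intro z hz
    have : c z = 0 := by
      by_contra h
      exact hz.2 ⟨hz.1, hRc (subset_tsupport _ h)⟩
    simp [hg1, this]
  have hmain : (d1 - c1) * J ≤ ∫ z in U, g1 z := by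
    have hmass := mass_box hV1 (hp.mono hV1U) hi1 (ψ := deriv Ψ) (a := ζ0.re - a) (b := ζ0.re + a)
      (c := c1) (d := d1) hcd (by
        refine Subset.trans ?_ hb1
        rintro ζ ⟨h1, h2⟩
        exact ⟨h1, by linarith [h2.1], by linarith [h2.2]⟩)
    rw [hJdef, ← hmass]
    set W1 : Set ℂ := V1 ∩ p ⁻¹' {ζ : ℂ | ζ.re ∈ Ioo (ζ0.re - a) (ζ0.re + a) ∧ ζ.im ∈ Ioo c1 d1}
      with hW1
    have hW1o : IsOpen W1 :=
      (hp.mono hV1U).continuousOn.isOpen_inter_preimage hV1 (isOpen_reim _ _ _ _)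
    have h1 : ∫ z in W1, ‖deriv p z‖ ^ 2 * deriv Ψ (p z).re = ∫ z in W1, g1 z := by
      refine setIntegral_congr_fun hW1o.measurableSet fun z hz => ?_
      by_cases h2 : deriv Ψ (p z).re = 0
      · simp [hg1, h2]
      · simp [hg1, hR z hz.1 h2 hz.2.2]
    rw [h1]
    refine setIntegral_mono_set hg1i (Eventually.of_forall fun z => ?_) (LE.le.eventuallyLE ?_)
    · exact mul_nonneg (mul_nonneg (sq_nonneg _) (hΨ0 _)) (hc0 z)
    · exact inter_subset_left.trans hV1U
  -- conclusion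
  have hg2i : IntegrableOn (fun z => Ψ (p z).re * fderiv ℝ c z (conj (deriv p z))) U := by
    have hcont : ContinuousOn (fun z => Ψ (p z).re * fderiv ℝ c z (conj (deriv p z))) U :=
      (hΨ.continuous.comp_continuousOn hxc).mul
        (hcc.continuousOn.clm_apply (continuous_conj.comp_continuousOn hpd))
    refine ((hcont.mono hcU).integrableOn_compact hccs).of_forall_sdiff_eq_zero hU.measurableSet ?_
    intro z hz
    have : fderiv ℝ c z = 0 := image_eq_zero_of_notMem_tsupport hz.2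
    simp [this]
  have htot : ∫ z in U, fderiv ℝ (fun z => Ψ (p z).re * c z) z (conj (deriv p z)) =
      (∫ z in U, g1 z) + ∫ z in U, Ψ (p z).re * fderiv ℝ c z (conj (deriv p z)) := by
    rw [← integral_add hg1i hg2i]
    refine setIntegral_congr_fun hU.measurableSet fun z hz => ?_
    have hx : HasFDerivAt (fun z => (p z).re) (fderiv ℝ (fun z => (p z).re) z) z :=
      (((contDiffOn_re hU hp 1).contDiffAt (hU.mem_nhds hz)).differentiableAt (by simp)).hasFDerivAt
    have hΨd : HasDerivAt Ψ (deriv Ψ (p z).re) (p z).re :=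
      (hΨ.differentiable (by simp) _).hasDerivAt
    have hA : HasFDerivAt (fun z => Ψ (p z).re) (deriv Ψ (p z).re • fderiv ℝ (fun z => (p z).re) z) z :=
      hΨd.comp_hasFDerivAt z hx
    have hB := hA.mul (hc.differentiable (by simp) z).hasFDerivAt
    have hB' : HasFDerivAt (fun z => Ψ (p z).re * c z) _ z := hB
    rw [hB'.fderiv]
    change Ψ (p z).re * (fderiv ℝ c z (conj (deriv p z))) +
      c z * (deriv Ψ (p z).re * fderiv ℝ (fun z => (p z).re) z (conj (deriv p z))) = _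
    rw [fderiv_re hU hp hz, mul_conj, normSq_eq_norm_sq, ofReal_re]
    simp only [hg1]
    ring
  rw [htot, hT]
  have h9 : 12 * C * η * J < (d1 - c1) * J := mul_lt_mul_of_pos_right hlen hJ
  change 0 < (∫ z in U, g1 z) + ∫ z in U, F z
  linarith

end Crest.Agent.R105.Unv_133
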