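import Mathlib
import Crest.Agent.R105.Unv1_133
import Crest.Agent.R105.Unv4_133

/-!
# Row 105 (Koebe), univalence of `p = x + i y`, part 5 (helper133): assembly
-/

set_option autoImplicit false

open Set Filter Topology Metric Complex MeasureTheory
open scoped ComplexConjugate ContDiff

namespace Crest.Agent.R105.Unv_133

open Crest.Agent.Lib (exists_holomorphic_inverse)

theorem sign_lemma {h : ℝ → ℝ} {m : ℝ} (hd : HasDerivAt h m 0) (hm : 0 < m) (h0 : h 0 = 0) :
    ∃ ρ > 0, ∀ s, 0 < s → s ≤ ρ → 0 < h s ∧ h (-s) < 0 := by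
  have h1 := hasDerivAt_iff_tendsto_slope.mp hd
  have h2 : ∀ᶠ s in 𝓝[≠] (0 : ℝ), 0 < slope h 0 s := h1.eventually (lt_mem_nhds hm)
  rw [eventually_nhdsWithin_iff, Metric.eventually_nhds_iff_ball] at h2
  obtain ⟨ε, hε, hb⟩ := h2
  refine ⟨ε / 2, half_pos hε, fun s hs hs' => ⟨?_, ?_⟩⟩
  · have h3 := hb s (by simp [abs_of_pos hs]; linarith) (by simp [hs.ne'])
    rw [slope_def_field, h0, sub_zero, sub_zero] at h3
    exact (div_pos_iff_of_pos_right hs).mp h3
  · have h3 := hb (-s) (by simp [abs_of_pos hs]; linarith) (by simp [hs.ne'])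
    rw [slope_def_field, h0, sub_zero, sub_zero] at h3
    by_contra h4
    rw [not_lt] at h4
    have : h (-s) / (-s) ≤ 0 := div_nonpos_of_nonneg_of_nonpos h4 (by linarith)
    linarith

theorem exists_Psi (t : ℝ) {r a : ℝ} (hr : 0 < r) (hra : r ≤ a) :
    ∃ Ψ : ℝ → ℝ, ContDiff ℝ ∞ Ψ ∧ (∀ s, 0 ≤ deriv Ψ s) ∧ HasCompactSupport (deriv Ψ) ∧
      tsupport (deriv Ψ) ⊆ Ioo (t - r) (t + r) ∧ 0 < ∫ x in Ioo (t - a) (t + a), deriv Ψ x := by
  let B : ContDiffBump t := ⟨r / 4, r / 2, by positivity, by linarith⟩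
  have hBc : Continuous B := B.continuous
  have hder : ∀ s, HasDerivAt (fun s => ∫ u in t..s, B u) (B s) s := fun s =>
    intervalIntegral.integral_hasDerivAt_right (hBc.intervalIntegrable _ _)
      (hBc.stronglyMeasurableAtFilter _ _) hBc.continuousAt
  have hd : deriv (fun s => ∫ u in t..s, B u) = B := funext fun s => (hder s).deriv
  have hts : tsupport (B : ℝ → ℝ) = closedBall t (r / 2) := B.tsupport_eq
  refine ⟨fun s => ∫ u in t..s, B u, ?_, ?_, ?_, ?_, ?_⟩
  · rw [contDiff_infty_iff_deriv, hd]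
    exact ⟨fun s => (hder s).differentiableAt, B.contDiff⟩
  · rw [hd]; exact fun s => B.nonneg
  · rw [hd]; exact B.hasCompactSupport
  · rw [hd, hts, Real.closedBall_eq_Icc]
    exact Icc_subset_Ioo (by linarith) (by linarith)
  · rw [hd]
    have h1 : ∫ x in Ioo (t - a) (t + a), B x = ∫ x, B x := by
      refine setIntegral_eq_integral_of_forall_compl_eq_zero fun x hx => ?_
      by_contra h
      have h2 : x ∈ tsupport (B : ℝ → ℝ) := subset_tsupport _ h
      rw [hts, Real.closedBall_eq_Icc] at h2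
      exact hx ⟨by linarith [h2.1], by linarith [h2.2]⟩
    rw [h1]
    exact B.integral_pos

/-- local injectivity -/
theorem exists_chart {U : Set ℂ} (hU : IsOpen U) {p : ℂ → ℂ} (hp : DifferentiableOn ℂ p U) {z : ℂ}
    (hz : z ∈ U) (hd : deriv p z ≠ 0) {O : Set ℂ} (hO : IsOpen O) (hzO : z ∈ O) :
    ∃ V, IsOpen V ∧ z ∈ V ∧ V ⊆ U ∧ V ⊆ O ∧ InjOn p V := by
  have ha : AnalyticAt ℂ p z := hp.analyticAt (hU.mem_nhds hz)
  have hs : HasStrictDerivAt p (deriv p z) z := ha.hasStrictDerivAt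
  have hs' := hs.hasStrictFDerivAt_equiv hd
  let e := hs'.toOpenPartialHomeomorph p
  refine ⟨e.source ∩ (U ∩ O), e.open_source.inter (hU.inter hO),
    ⟨hs'.mem_toOpenPartialHomeomorph_source, hz, hzO⟩, fun w hw => hw.2.1, fun w hw => hw.2.2, ?_⟩
  exact e.injOn.mono inter_subset_left

/-- points of the segment with centre `z` and direction `w` -/
theorem mem_seg {z w u : ℂ} {ρ : ℝ} (hρ : 0 < ρ) (hu : u ∈ segment ℝ (z - ρ * w) (z + ρ * w)) :
    ∃ s : ℝ, |s| ≤ ρ ∧ u = z + s * w := by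
  rw [segment_eq_image] at hu
  obtain ⟨θ, hθ, rfl⟩ := hu
  refine ⟨(2 * θ - 1) * ρ, ?_, ?_⟩
  · rw [abs_le]
    constructor
    · nlinarith [hθ.1]
    · nlinarith [hθ.2]
  · simp only [real_smul]
    push_cast
    ring

/-- the short segment through `z` in the direction of the gradient of `Re p` -/
theorem exists_seg {U : Set ℂ} (hU : IsOpen U) {p : ℂ → ℂ} (hp : DifferentiableOn ℂ p U) {z : ℂ}
    (hz : z ∈ U) (hd : deriv p z ≠ 0) :
    ∃ ρ > 0, ∀ s : ℝ, |s| ≤ ρ → z + s * conj (deriv p z) ∈ U ∧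
      (0 < s → (p z).re < (p (z + s * conj (deriv p z))).re) ∧
      (s < 0 → (p (z + s * conj (deriv p z))).re < (p z).re) := by
  set w := conj (deriv p z) with hw
  have hder : HasDerivAt (fun s : ℝ => (p (z + s * w)).re - (p z).re) (‖deriv p z‖ ^ 2) 0 := by
    have h1 : HasDerivAt (fun s : ℝ => z + s * w) w 0 := by
      have h2 : HasDerivAt (fun s : ℝ => (s : ℂ)) 1 0 := ofRealCLM.hasDerivAt
      simpa using (h2.mul_const w).const_add z
    have h3 : HasDerivAt p (deriv p z) (z + ((0 : ℝ) : ℂ) * w) := by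
      simpa using (hp.differentiableAt (hU.mem_nhds hz)).hasDerivAt
    have h4 := h3.comp_of_eq (0 : ℝ) h1 rfl
    have h5 := (reCLM.hasFDerivAt.comp_hasDerivAt (0 : ℝ) h4).sub_const (p z).re
    have h6 : reCLM (deriv p z * w) = ‖deriv p z‖ ^ 2 := by
      rw [hw, mul_conj, reCLM_apply, ofReal_re, normSq_eq_norm_sq]
    rw [h6] at h5
    exact h5
  obtain ⟨ρ1, hρ1, h1⟩ := sign_lemma hder (by positivity) (by simp)
  have h2 : ∀ᶠ s : ℝ in 𝓝 0, z + s * w ∈ U := by
    have h3 : Continuous (fun s : ℝ => z + s * w) := by fun_prop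
    have h4 : Tendsto (fun s : ℝ => z + s * w) (𝓝 0) (𝓝 z) := by simpa using h3.tendsto 0
    exact h4 (hU.mem_nhds hz)
  rw [Metric.eventually_nhds_iff_ball] at h2
  obtain ⟨ρ2, hρ2, h3⟩ := h2
  refine ⟨min ρ1 (ρ2 / 2), lt_min hρ1 (half_pos hρ2), fun s hs => ⟨?_, ?_, ?_⟩⟩
  · refine h3 s ?_
    rw [mem_ball_zero_iff, Real.norm_eq_abs]
    have := hs.trans (min_le_right _ _)
    linarith
  · intro hs0
    have h4 := (h1 s hs0 ((le_abs_self s).trans (hs.trans (min_le_left _ _)))).1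
    linarith
  · intro hs0
    have h4 := (h1 (-s) (by linarith) ((neg_le_abs s).trans (hs.trans (min_le_left _ _)))).2
    rw [neg_neg] at h4
    linarith

end Crest.Agent.R105.Unv_133
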