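import Mathlib
import Crest.Agent.R105.Unv5_133

/-!
# Row 105 (Koebe), univalence of `p = x + i y`, part 6 (helper133): the two sides
-/

set_option autoImplicit false

open Set Filter Topology Metric Complex MeasureTheory
open scoped ComplexConjugate ContDiff

namespace Crest.Agent.R105.Unv_133

open Crest.Agent.Lib (exists_holomorphic_inverse isOpen_image_of_injOn)

theorem isPreconnected_norm_gt (M : ℝ) : IsPreconnected {w : ℂ | M < ‖w‖} := by
  rcases lt_or_ge M 0 with hM | hM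
  · have : {w : ℂ | M < ‖w‖} = univ := by
      ext w; simp only [mem_ofPred_eq, mem_univ, iff_true]; exact lt_of_lt_of_le hM (norm_nonneg _)
    rw [this]; exact isPreconnected_univ
  · have : {w : ℂ | M < ‖w‖} = (fun p : ℝ × ℝ => (p.1 : ℂ) * exp (p.2 * I)) ''
        (Ioi M ×ˢ (univ : Set ℝ)) := by
      ext w
      constructor
      · intro hw
        refine ⟨(‖w‖, arg w), ⟨hw, mem_univ _⟩, ?_⟩
        simp only
        exact norm_mul_exp_arg_mul_I w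
      · rintro ⟨⟨a, b⟩, ⟨ha, -⟩, rfl⟩
        simp only [mem_ofPred_eq, norm_mul, norm_exp_ofReal_mul_I, mul_one, norm_real,
          Real.norm_eq_abs]
        exact lt_of_lt_of_le ha (le_abs_self _)
    rw [this]
    refine (isPreconnected_Ioi.prod isPreconnected_univ).image _ ?_
    fun_prop

theorem closure_comp {X : Set ℂ} (hX : IsClosed X) (w : ℂ) :
    closure (connectedComponentIn Xᶜ w) ⊆ connectedComponentIn Xᶜ w ∪ X := by
  intro z hz
  by_cases hzX : z ∈ X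
  · exact Or.inr hzX
  left
  have ho : IsOpen (connectedComponentIn Xᶜ z) := hX.isOpen_compl.connectedComponentIn
  have hz' : z ∈ connectedComponentIn Xᶜ z := mem_connectedComponentIn hzX
  obtain ⟨u, hu1, hu2⟩ := mem_closure_iff.mp hz _ ho hz'
  have h1 := connectedComponentIn_eq hu1
  have h2 := connectedComponentIn_eq hu2
  rw [h2, ← h1]
  exact hz'

/-- if two points of the complement of a compact set are in different components, one of them is
in a bounded component -/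
theorem exists_bounded_comp {X : Set ℂ} (hX : IsCompact X) {w w' : ℂ} (hw : w ∉ X) (hw' : w' ∉ X)
    (h : w' ∉ connectedComponentIn Xᶜ w) :
    Bornology.IsBounded (connectedComponentIn Xᶜ w) ∨
      Bornology.IsBounded (connectedComponentIn Xᶜ w') := by
  obtain ⟨R, hR⟩ := hX.isBounded.exists_norm_le
  have hfar : {u : ℂ | R < ‖u‖} ⊆ Xᶜ := fun u hu huX => not_lt.mpr (hR u huX) hu
  have key : ∀ v ∉ X, ¬ Bornology.IsBounded (connectedComponentIn Xᶜ v) →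
      {u : ℂ | R < ‖u‖} ⊆ connectedComponentIn Xᶜ v := by
    intro v hv hb
    have h1 : ∃ u ∈ connectedComponentIn Xᶜ v, R < ‖u‖ := by
      by_contra hcon
      push Not at hcon
      exact hb (isBounded_iff_forall_norm_le.mpr ⟨R, hcon⟩)
    obtain ⟨u, hu, hRu⟩ := h1
    rw [connectedComponentIn_eq hu]
    exact (isPreconnected_norm_gt R).subset_connectedComponentIn hRu hfar
  by_contra hcon
  rw [not_or] at hcon
  have h1 := key w hw hcon.1
  have h2 := key w' hw' hcon.2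
  have h3 : ((|R| + 1 : ℝ) : ℂ) ∈ {u : ℂ | R < ‖u‖} := by
    simp only [mem_ofPred_eq, norm_real, Real.norm_eq_abs]
    have := le_abs_self R
    rw [abs_of_pos (by positivity)]
    linarith
  have h4 := connectedComponentIn_eq (h1 h3)
  have h5 := connectedComponentIn_eq (h2 h3)
  apply h
  rw [h4, ← h5]
  exact mem_connectedComponentIn hw'

theorem isCompact_seg (u v : ℂ) : IsCompact (segment ℝ u v) := by
  rw [segment_eq_image]
  exact isCompact_Icc.image (by fun_prop)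

/-- the flux condition -/
def EL (U : Set ℂ) (p : ℂ → ℂ) : Prop :=
  ∀ c : ℂ → ℝ, ContDiff ℝ ∞ c → HasCompactSupport c → (∀ z, 0 ≤ c z) → (∀ z, c z ≤ 1) →
    tsupport (fderiv ℝ c) ⊆ U →
    ∀ Ψ : ℝ → ℝ, ContDiff ℝ ∞ Ψ → (∀ s, 0 ≤ deriv Ψ s) → HasCompactSupport (deriv Ψ) →
      ∫ z in U, fderiv ℝ (fun z => Ψ (p z).re * c z) z (conj (deriv p z)) ≤ 0

/-- the topological part: the two sides of `z1` on the level curve are in different components of
the complement of a closed curve crossing the level only at `z1`, `z2` -/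
theorem two_sides {U : Set ℂ} (hU : IsOpen U) {p : ℂ → ℂ} (hp : DifferentiableOn ℂ p U)
    {z1 z2 : ℂ} (hz1 : z1 ∈ U) (hz2 : z2 ∈ U)
    (heq : p z1 = p z2) (hd1 : deriv p z1 ≠ 0) (hd2 : deriv p z2 ≠ 0)
    (hA : IsPreconnected {z | z ∈ U ∧ (p z1).re < (p z).re})
    (hB : IsPreconnected {z | z ∈ U ∧ (p z).re < (p z1).re})
    {V1 : Set ℂ} (hzV1 : z1 ∈ V1) (hz2V1 : z2 ∉ V1)
    {g : ℂ → ℂ} (hg : DifferentiableOn ℂ g (p '' V1)) (hgim : g '' (p '' V1) = V1)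
    (hgp : ∀ z ∈ V1, g (p z) = z) (hpg : ∀ w ∈ p '' V1, p (g w) = w)
    (him1 : IsOpen (p '' V1)) {a : ℝ} (hbox1 : box (p z1) a a ⊆ p '' V1)
    {b : ℝ} (hb0 : 0 < b) (hba : b < a) :
    ∃ X : Set ℂ, IsCompact X ∧ X ⊆ U ∧ (∀ u ∈ X, (p u).re = (p z1).re → u = z1 ∨ u = z2) ∧
      g (p z1 + ((b : ℝ) : ℂ) * I) ∉ X ∧ g (p z1 + ((-b : ℝ) : ℂ) * I) ∉ X ∧
      g (p z1 + ((-b : ℝ) : ℂ) * I) ∉ connectedComponentIn Xᶜ (g (p z1 + ((b : ℝ) : ℂ) * I)) := by
  have hxc : ContinuousOn (fun z => (p z).re) U := (contDiffOn_re hU hp 0).continuousOn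
  set ζ0 := p z1 with hζ0
  set t : ℝ := ζ0.re with ht
  -- the two short segments
  obtain ⟨ρ1, hρ1, hs1⟩ := exists_seg hU hp hz1 hd1
  obtain ⟨ρ2, hρ2, hs2⟩ := exists_seg hU hp hz2 hd2
  set w1 := conj (deriv p z1) with hw1
  set w2 := conj (deriv p z2) with hw2
  have hw1' : w1 ≠ 0 := by rw [hw1]; exact (map_ne_zero _).mpr hd1
  set a1 := z1 + ρ1 * w1 with ha1
  set b1 := z1 - ρ1 * w1 with hb1
  set a2 := z2 + ρ2 * w2 with ha2
  set b2 := z2 - ρ2 * w2 with hb2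
  have hb1' : b1 = z1 + ((-ρ1 : ℝ) : ℂ) * w1 := by rw [hb1]; push_cast; ring
  have hb2' : b2 = z2 + ((-ρ2 : ℝ) : ℂ) * w2 := by rw [hb2]; push_cast; ring
  have hρ1a : |ρ1| ≤ ρ1 := (abs_of_pos hρ1).le
  have hρ2a : |ρ2| ≤ ρ2 := (abs_of_pos hρ2).le
  have hρ1n : |(-ρ1)| ≤ ρ1 := by rw [abs_neg]; exact hρ1a
  have hρ2n : |(-ρ2)| ≤ ρ2 := by rw [abs_neg]; exact hρ2a
  have ha1A : a1 ∈ {z | z ∈ U ∧ t < (p z).re} := ⟨(hs1 ρ1 hρ1a).1, (hs1 ρ1 hρ1a).2.1 hρ1⟩
  have hb1B : b1 ∈ {z | z ∈ U ∧ (p z).re < t} := by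
    rw [hb1']; exact ⟨(hs1 _ hρ1n).1, (hs1 _ hρ1n).2.2 (by linarith)⟩
  have ht2 : (p z2).re = t := by rw [← heq]
  have ha2A : a2 ∈ {z | z ∈ U ∧ t < (p z).re} := by
    refine ⟨(hs2 ρ2 hρ2a).1, ?_⟩
    have := (hs2 ρ2 hρ2a).2.1 hρ2
    rwa [ht2] at this
  have hb2B : b2 ∈ {z | z ∈ U ∧ (p z).re < t} := by
    rw [hb2']
    refine ⟨(hs2 _ hρ2n).1, ?_⟩
    have := (hs2 _ hρ2n).2.2 (by linarith)
    rwa [ht2] at this
  -- the two paths
  have hAo : IsOpen {z | z ∈ U ∧ t < (p z).re} :=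
    hxc.isOpen_inter_preimage hU isOpen_Ioi
  have hBo : IsOpen {z | z ∈ U ∧ (p z).re < t} :=
    hxc.isOpen_inter_preimage hU isOpen_Iio
  have hApc : IsPathConnected {z | z ∈ U ∧ t < (p z).re} :=
    hAo.isConnected_iff_isPathConnected.mp ⟨⟨a1, ha1A⟩, hA⟩
  have hBpc : IsPathConnected {z | z ∈ U ∧ (p z).re < t} :=
    hBo.isConnected_iff_isPathConnected.mp ⟨⟨b1, hb1B⟩, hB⟩
  obtain ⟨γA, hγA⟩ := hApc.joinedIn a1 ha1A a2 ha2A
  obtain ⟨γB, hγB⟩ := hBpc.joinedIn b1 hb1B b2 hb2B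
  set X' : Set ℂ := (range γA ∪ segment ℝ b2 a2) ∪ range γB with hX'
  set X : Set ℂ := X' ∪ segment ℝ b1 a1 with hX
  have hX'c : IsCompact X' :=
    ((isCompact_range γA.continuous).union (isCompact_seg b2 a2)).union
      (isCompact_range γB.continuous)
  have hXc : IsCompact X := hX'c.union (isCompact_seg b1 a1)
  have hX'p : IsPreconnected X' := by
    refine IsPreconnected.union b2 (Or.inr (left_mem_segment ℝ b2 a2)) ⟨1, γB.target⟩
      (IsPreconnected.union a2 ⟨1, γA.target⟩ (right_mem_segment ℝ b2 a2)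
        (isPreconnected_range γA.continuous) (convex_segment b2 a2).isPreconnected)
      (isPreconnected_range γB.continuous)
  have ha1X' : a1 ∈ X' := Or.inl (Or.inl ⟨0, γA.source⟩)
  have hb1X' : b1 ∈ X' := Or.inr ⟨0, γB.source⟩
  -- the level set
  have hseg1 : ∀ u ∈ segment ℝ b1 a1, u ∈ U ∧ ((p u).re = t → u = z1) := by
    intro u hu
    obtain ⟨s, hs, rfl⟩ := mem_seg hρ1 hu
    refine ⟨(hs1 s hs).1, fun h => ?_⟩
    rcases lt_trichotomy s 0 with h0 | h0 | h0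
    · exact absurd h ((hs1 s hs).2.2 h0).ne
    · simp [h0]
    · exact absurd h ((hs1 s hs).2.1 h0).ne'
  have hseg2 : ∀ u ∈ segment ℝ b2 a2, u ∈ U ∧ ((p u).re = t → u = z2) := by
    intro u hu
    obtain ⟨s, hs, rfl⟩ := mem_seg hρ2 hu
    refine ⟨(hs2 s hs).1, fun h => ?_⟩
    rcases lt_trichotomy s 0 with h0 | h0 | h0
    · exact absurd (h.trans ht2.symm) ((hs2 s hs).2.2 h0).ne
    · simp [h0]
    · exact absurd (h.trans ht2.symm) ((hs2 s hs).2.1 h0).ne'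
  have hX'U : ∀ u ∈ X', u ∈ U ∧ ((p u).re = t → u = z2) := by
    rintro u ((⟨τ, rfl⟩ | hu) | ⟨τ, rfl⟩)
    · exact ⟨(hγA τ).1, fun h => absurd h (hγA τ).2.ne'⟩
    · exact hseg2 u hu
    · exact ⟨(hγB τ).1, fun h => absurd h (hγB τ).2.ne⟩
  have hXU : X ⊆ U := by
    rintro u (hu | hu)
    · exact (hX'U u hu).1
    · exact (hseg1 u hu).1
  have hXt : ∀ u ∈ X, (p u).re = t → u = z1 ∨ u = z2 := by
    rintro u (hu | hu) h
    · exact Or.inr ((hX'U u hu).2 h)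
    · exact Or.inl ((hseg1 u hu).2 h)
  -- the vertical curve
  set γ : ℝ → ℂ := fun τ => g (ζ0 + τ * I) with hγ
  have hγbox : ∀ τ : ℝ, |τ| < a → ζ0 + τ * I ∈ box ζ0 a a := by
    intro τ hτ
    rw [abs_lt] at hτ
    refine ⟨⟨?_, ?_⟩, ⟨?_, ?_⟩⟩ <;> simp <;> linarith
  have hγV : ∀ τ : ℝ, |τ| < a → γ τ ∈ V1 ∧ p (γ τ) = ζ0 + τ * I := by
    intro τ hτ
    have h1 := hbox1 (hγbox τ hτ)
    refine ⟨?_, hpg _ h1⟩
    rw [← hgim]; exact mem_image_of_mem g h1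
  have hγ0 : γ 0 = z1 := by
    simp only [hγ, ofReal_zero, zero_mul, add_zero, hζ0]
    exact hgp z1 hzV1
  have hγc : ContinuousOn γ (Icc (-b) b) := by
    refine hg.continuousOn.comp (by fun_prop) ?_
    intro τ hτ
    exact hbox1 (hγbox τ ((abs_le.mpr hτ).trans_lt hba))
  have hγre : ∀ τ : ℝ, |τ| < a → (p (γ τ)).re = t ∧ (p (γ τ)).im = ζ0.im + τ := by
    intro τ hτ
    rw [(hγV τ hτ).2]
    constructor <;> simp [ht]
  have hγX' : ∀ τ : ℝ, |τ| < a → γ τ ∉ X' := by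
    intro τ hτ h
    have h1 := (hX'U _ h).2 (hγre τ hτ).1
    exact hz2V1 (h1 ▸ (hγV τ hτ).1)
  have hγs : ∀ τ : ℝ, |τ| < a → τ ≠ 0 → γ τ ∉ segment ℝ b1 a1 := by
    intro τ hτ h0 h
    have h1 := (hseg1 _ h).2 (hγre τ hτ).1
    have h2 := (hγre τ hτ).2
    rw [h1] at h2
    apply h0
    have : (p z1).im = ζ0.im := rfl
    linarith
  -- the quotient along the vertical curve
  have hq : HasDerivAt (fun τ : ℝ => (γ τ - a1) / (γ τ - b1))
      (I * ((2 / (ρ1 * ‖deriv p z1‖ ^ 2) : ℝ) : ℂ)) 0 := by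
    have h1 : HasDerivAt (fun τ : ℝ => ζ0 + τ * I) I 0 := by
      have h2 : HasDerivAt (fun s : ℝ => (s : ℂ)) 1 0 := ofRealCLM.hasDerivAt
      simpa using (h2.mul_const I).const_add ζ0
    have hζmem : ζ0 ∈ p '' V1 := ⟨z1, hzV1, rfl⟩
    have h3 : HasDerivAt g (deriv p z1)⁻¹ ζ0 := by
      have h4 : HasDerivAt p (deriv p z1) (g ζ0) := by
        have : g ζ0 = z1 := hgp z1 hzV1
        rw [this]
        exact (hp.differentiableAt (hU.mem_nhds hz1)).hasDerivAt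
      refine HasDerivAt.of_local_left_inverse ?_ h4 hd1 ?_
      · exact (hg.continuousOn.continuousAt (him1.mem_nhds hζmem))
      · filter_upwards [him1.mem_nhds hζmem] with w hw
        exact hpg w hw
    have h5 : HasDerivAt γ ((deriv p z1)⁻¹ * I) 0 := by
      have h6 : HasDerivAt g (deriv p z1)⁻¹ (ζ0 + ((0 : ℝ) : ℂ) * I) := by simpa using h3
      exact h6.comp_of_eq (0 : ℝ) h1 rfl
    have h7 : γ 0 - b1 ≠ 0 := by
      rw [hγ0, hb1]
      simp [hw1', hρ1.ne']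
    have h8 := (h5.sub_const a1).div (h5.sub_const b1) h7
    refine h8.congr_deriv ?_
    rw [hγ0, ha1, hb1]
    have h9 : deriv p z1 * w1 = ((‖deriv p z1‖ ^ 2 : ℝ) : ℂ) := by
      rw [hw1, mul_conj, normSq_eq_norm_sq]
    have h10 : (ρ1 : ℂ) ≠ 0 := by exact_mod_cast hρ1.ne'
    have h11 : ((‖deriv p z1‖ ^ 2 : ℝ) : ℂ) ≠ 0 := by
      rw [← h9]; exact mul_ne_zero hd1 hw1'
    push_cast
    have h12 : (‖deriv p z1‖ : ℂ) ^ 2 = deriv p z1 * w1 := by rw [h9]; push_cast; ring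
    rw [h12]
    field_simp
    ring
  have hq0 : (γ 0 - a1) / (γ 0 - b1) = -1 := by
    rw [hγ0, ha1, hb1]
    have h10 : (ρ1 : ℂ) * w1 ≠ 0 := mul_ne_zero (by exact_mod_cast hρ1.ne') hw1'
    have e1 : z1 - (z1 + ρ1 * w1) = - (ρ1 * w1) := by ring
    have e2 : z1 - (z1 - ρ1 * w1) = ρ1 * w1 := by ring
    rw [e1, e2, neg_div, div_self h10]
  have hqim : HasDerivAt (fun τ : ℝ => ((γ τ - a1) / (γ τ - b1)).im)
      (2 / (ρ1 * ‖deriv p z1‖ ^ 2)) 0 := by
    have h1 := imCLM.hasFDerivAt.comp_hasDerivAt (0 : ℝ) hq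
    have h2 : imCLM (I * ((2 / (ρ1 * ‖deriv p z1‖ ^ 2) : ℝ) : ℂ)) =
        2 / (ρ1 * ‖deriv p z1‖ ^ 2) := by
      rw [imCLM_apply, I_mul_im, ofReal_re]
    rw [h2] at h1
    exact h1
  have hnorm : 0 < ‖deriv p z1‖ := norm_pos_iff.mpr hd1
  obtain ⟨ρ, hρ, hsign⟩ := sign_lemma hqim (by positivity) (by rw [hq0]; simp)
  have hbabs : ∀ τ ∈ Icc (-b) b, |τ| < a := fun τ hτ => (abs_le.mpr hτ).trans_lt hba
  have hbb : |b| < a := by rw [abs_of_pos hb0]; exact hba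
  have hbn : |(-b)| < a := by rw [abs_neg]; exact hbb
  have hγX : ∀ τ : ℝ, |τ| < a → τ ≠ 0 → γ τ ∉ X := by
    rintro τ hτ h0 (h | h)
    · exact hγX' τ hτ h
    · exact hγs τ hτ h0 h
  have hwp : γ b ∉ X := hγX b hbb hb0.ne'
  have hwn : γ (-b) ∉ X := hγX (-b) hbn (by linarith [hb0] : -b < 0).ne
  -- the two sides are in different components
  have hsides : γ (-b) ∉ connectedComponentIn Xᶜ (γ b) := by
    intro hmem
    have hWo : IsOpen (connectedComponentIn Xᶜ (γ b)) := hXc.isClosed.isOpen_compl.connectedComponentIn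
    have hWpc : IsPathConnected (connectedComponentIn Xᶜ (γ b)) :=
      hWo.isConnected_iff_isPathConnected.mp
        ⟨⟨γ b, mem_connectedComponentIn hwp⟩, isPreconnected_connectedComponentIn⟩
    obtain ⟨δ, hδ⟩ := hWpc.joinedIn (γ b) (mem_connectedComponentIn hwp) (γ (-b)) hmem
    have hδX : ∀ u ∈ range δ, u ∉ X := by
      rintro u ⟨s, rfl⟩ h
      exact connectedComponentIn_subset _ _ (hδ s) h
    refine sides hX'p ha1X' hb1X' hb0 hγc (by rw [hq0]; norm_num) (by rw [hq0]; simp) ?_ ?_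
      (fun τ hτ => hγX' τ (hbabs τ hτ)) (fun τ hτ h0 => hγs τ (hbabs τ hτ) h0)
      (β := range δ) (isPreconnected_range δ.continuous) (isCompact_range δ.continuous) ?_ ?_
      ⟨0, δ.source⟩ ⟨1, δ.target⟩
    · have : Ioc 0 ρ ∈ 𝓝[>] (0 : ℝ) := Ioc_mem_nhdsGT hρ
      filter_upwards [this] with τ hτ
      exact (hsign τ hτ.1 hτ.2).1
    · have : Ico (-ρ) 0 ∈ 𝓝[<] (0 : ℝ) := Ico_mem_nhdsLT (by linarith)
      filter_upwards [this] with τ hτ
      have h1 := (hsign (-τ) (by linarith [hτ.2]) (by linarith [hτ.1])).2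
      rwa [neg_neg] at h1
    · rw [disjoint_left]; exact fun u hu h => hδX u hu (Or.inl h)
    · rw [disjoint_left]; exact fun u hu h => hδX u hu (Or.inr h)
  exact ⟨X, hXc, hXU, hXt, hwp, hwn, hsides⟩

end Crest.Agent.R105.Unv_133
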