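import Mathlib
import Crest.Agent.R105.Unv6_133

/-!
# Row 105 (Koebe), univalence of `p = x + i y`, part 7 (helper133): no double point
-/

set_option autoImplicit false

open Set Filter Topology Metric Complex MeasureTheory
open scoped ComplexConjugate ContDiff

namespace Crest.Agent.R105.Unv_133

open Crest.Agent.Lib (exists_holomorphic_inverse isOpen_image_of_injOn)

theorem convex_D (t r η σ y b0 : ℝ) :
    Convex ℝ {ζ : ℂ | |ζ.re - t| < r ∧ η < σ * (ζ.im - y) ∧ σ * (ζ.im - y) < b0} := by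
  have c1 : Convex ℝ {ζ : ℂ | |ζ.re - t| < r} := by
    have : {ζ : ℂ | |ζ.re - t| < r} = reCLM ⁻¹' ball t r := by
      ext ζ; simp [Real.dist_eq]
    rw [this]
    exact (convex_ball t r).linear_preimage reCLM.toLinearMap
  have c2 : Convex ℝ {ζ : ℂ | η < σ * (ζ.im - y)} := by
    have : {ζ : ℂ | η < σ * (ζ.im - y)} = (σ • imCLM) ⁻¹' Ioi (η + σ * y) := by
      ext ζ
      simp only [mem_ofPred_eq, mem_preimage, mem_Ioi]
      change _ ↔ _ < σ * ζ.im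
      constructor <;> intro h <;> nlinarith
    rw [this]
    exact (convex_Ioi _).linear_preimage (σ • imCLM).toLinearMap
  have c3 : Convex ℝ {ζ : ℂ | σ * (ζ.im - y) < b0} := by
    have : {ζ : ℂ | σ * (ζ.im - y) < b0} = (σ • imCLM) ⁻¹' Iio (b0 + σ * y) := by
      ext ζ
      simp only [mem_ofPred_eq, mem_preimage, mem_Iio]
      change _ ↔ σ * ζ.im < _
      constructor <;> intro h <;> nlinarith
    rw [this]
    exact (convex_Iio _).linear_preimage (σ • imCLM).toLinearMap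
  exact c1.inter (c2.inter c3)

/-- the cut-off is `1` in the upper (lower) part of the box -/
theorem region {p : ℂ → ℂ} {ζ0 : ℂ} {V1 V2 : Set ℂ} (hVd : Disjoint V1 V2)
    {g : ℂ → ℂ} (hg : ContinuousOn g (p '' V1)) (hgim : g '' (p '' V1) = V1)
    (hgp : ∀ z ∈ V1, g (p z) = z) (hpg : ∀ w ∈ p '' V1, p (g w) = w)
    {a b b0 η r σ : ℝ} (hσ : σ = 1 ∨ σ = -1) (hra : r ≤ a) (hr : 0 < r) (hη0 : 0 < η) (hb0 : b0 ≤ a)
    (hbη : η < b) (hbb : b < b0)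
    (hbox1 : box ζ0 a a ⊆ p '' V1)
    {X N : Set ℂ} (hXN : X ⊆ N)
    (hNsub : N ⊆ (V1 ∩ p ⁻¹' box ζ0 a η) ∪ V2 ∪ {u | r < |(p u).re - ζ0.re|})
    (hw : g (ζ0 + ((σ * b : ℝ) : ℂ) * I) ∉ X)
    {z : ℂ} (hz : z ∈ V1) (h1 : |(p z).re - ζ0.re| < r) (h2 : η < σ * ((p z).im - ζ0.im))
    (h3 : σ * ((p z).im - ζ0.im) < b0) :
    z ∈ connectedComponentIn Xᶜ (g (ζ0 + ((σ * b : ℝ) : ℂ) * I)) \ N := by
  have hσabs : |σ| = 1 := by rcases hσ with rfl | rfl <;> simp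
  have hσσ : σ * σ = 1 := by rcases hσ with rfl | rfl <;> norm_num
  -- a convex region of the `p`-plane
  set D : Set ℂ := {ζ : ℂ | |ζ.re - ζ0.re| < r ∧ η < σ * (ζ.im - ζ0.im) ∧
    σ * (ζ.im - ζ0.im) < b0} with hD
  have hDconv : Convex ℝ D := convex_D _ _ _ _ _ _
  have hDbox : D ⊆ p '' V1 := by
    refine Subset.trans ?_ hbox1
    rintro ζ ⟨h4, h5, h6⟩
    rw [abs_lt] at h4
    have h7 : |ζ.im - ζ0.im| < a := by
      have h8 : |σ * (ζ.im - ζ0.im)| < b0 := by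
        rw [abs_lt]; exact ⟨by linarith, h6⟩
      rw [abs_mul, hσabs, one_mul] at h8
      linarith
    rw [abs_lt] at h7
    exact ⟨⟨by linarith [h4.1], by linarith [h4.2]⟩, ⟨by linarith [h7.1], by linarith [h7.2]⟩⟩
  have hgD : ∀ ζ ∈ D, g ζ ∈ V1 ∧ p (g ζ) = ζ := fun ζ hζ =>
    ⟨by rw [← hgim]; exact mem_image_of_mem g (hDbox hζ), hpg _ (hDbox hζ)⟩
  have hgDN : ∀ ζ ∈ D, g ζ ∉ N := by
    intro ζ hζ hN'
    obtain ⟨h4, h5⟩ := hgD ζ hζ
    obtain ⟨h6, h7, h8⟩ := hζ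
    rcases hNsub hN' with (h9 | h9) | h9
    · have h10 := h9.2.2
      rw [h5] at h10
      have h11 : |σ * (ζ.im - ζ0.im)| < η := by
        rw [abs_mul, hσabs, one_mul, abs_lt]
        exact ⟨by linarith [h10.1], by linarith [h10.2]⟩
      exact absurd (le_abs_self (σ * (ζ.im - ζ0.im))) (not_le.mpr (h11.trans h7))
    · exact disjoint_left.mp hVd h4 h9
    · have h10 : r < |(p (g ζ)).re - ζ0.re| := h9
      rw [h5] at h10
      exact absurd h10 (not_lt.mpr h6.le)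
  have hgDc : IsPreconnected (g '' D) :=
    hDconv.isPreconnected.image g (hg.mono hDbox)
  have hwD : ζ0 + ((σ * b : ℝ) : ℂ) * I ∈ D := by
    have e1 : (ζ0 + ((σ * b : ℝ) : ℂ) * I).re = ζ0.re := by simp
    have e2 : (ζ0 + ((σ * b : ℝ) : ℂ) * I).im - ζ0.im = σ * b := by simp
    refine ⟨?_, ?_, ?_⟩
    · rw [e1, sub_self, abs_zero]; exact hr
    · rw [e2, ← mul_assoc, hσσ, one_mul]; exact hbη
    · rw [e2, ← mul_assoc, hσσ, one_mul]; exact hbb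
  have hgDW : g '' D ⊆ connectedComponentIn Xᶜ (g (ζ0 + ((σ * b : ℝ) : ℂ) * I)) := by
    refine hgDc.subset_connectedComponentIn ⟨_, hwD, rfl⟩ ?_
    rintro _ ⟨ζ, hζ, rfl⟩ h
    exact hgDN ζ hζ (hXN h)
  have hzD : p z ∈ D := ⟨h1, h2, h3⟩
  have hgz : g (p z) = z := hgp z hz
  exact ⟨hgDW ⟨p z, hzD, hgz⟩, hgz ▸ hgDN _ hzD⟩

/-- the neighbourhood of the closed curve -/
theorem exists_nbd {U : Set ℂ} (hU : IsOpen U) {p : ℂ → ℂ} (hxc : ContinuousOn (fun z => (p z).re) U)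
    {t : ℝ} {a : ℝ} (ha : 0 < a) {Q1 Q2 X : Set ℂ} (hQ1o : IsOpen Q1) (hQ2o : IsOpen Q2)
    (hXc : IsCompact X) (hXU : X ⊆ U)
    (hXt : ∀ u ∈ X, (p u).re = t → u ∈ Q1 ∪ Q2) :
    ∃ r > 0, r ≤ a ∧ ∃ N : Set ℂ, IsOpen N ∧ X ⊆ N ∧ closure N ⊆ U ∧
      N ⊆ Q1 ∪ Q2 ∪ {u | r < |(p u).re - t|} := by
  have hac : ContinuousOn (fun u => |(p u).re - t|) U := (hxc.sub continuousOn_const).abs
  obtain ⟨r, hr, hra, hrX⟩ : ∃ r > 0, r ≤ a ∧ ∀ u ∈ X, |(p u).re - t| ≤ r → u ∈ Q1 ∪ Q2 := by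
    have hKc : IsCompact (X \ (Q1 ∪ Q2)) := hXc.diff (hQ1o.union hQ2o)
    by_cases hK : (X \ (Q1 ∪ Q2)).Nonempty
    · obtain ⟨u0, hu0, hmin⟩ := hKc.exists_isMinOn hK (hac.mono (sdiff_subset.trans hXU))
      have hpos : 0 < |(p u0).re - t| := by
        rw [abs_pos, sub_ne_zero]
        intro h
        exact hu0.2 (hXt u0 hu0.1 h)
      refine ⟨min (|(p u0).re - t| / 2) a, lt_min (half_pos hpos) ha, min_le_right _ _, ?_⟩
      intro u hu hle
      by_contra hcon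
      have h1 : |(p u0).re - t| ≤ |(p u).re - t| := isMinOn_iff.mp hmin u ⟨hu, hcon⟩
      have h2 := hle.trans (min_le_left _ _)
      linarith
    · refine ⟨a, ha, le_rfl, fun u hu _ => ?_⟩
      by_contra hcon
      exact hK ⟨u, hu, hcon⟩
  obtain ⟨P, hPo, hXP, hPU, hPc⟩ := exists_open_between_and_isCompact_closure hXc hU hXU
  refine ⟨r, hr, hra, P ∩ ((Q1 ∪ Q2) ∪ (U ∩ {u | r < |(p u).re - t|})), ?_, ?_, ?_, ?_⟩
  · refine hPo.inter ((hQ1o.union hQ2o).union ?_)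
    exact hac.isOpen_inter_preimage hU isOpen_Ioi
  · intro u hu
    refine ⟨hXP hu, ?_⟩
    by_cases h : |(p u).re - t| ≤ r
    · exact Or.inl (hrX u hu h)
    · exact Or.inr ⟨hXU hu, not_le.mp h⟩
  · exact (closure_mono inter_subset_left).trans hPU
  · rintro u ⟨-, h | h⟩
    · exact Or.inl h
    · exact Or.inr h.2

/-- the cut-off of a bounded component -/
theorem cut_comp {X N : Set ℂ} (hXc : IsCompact X) (hNo : IsOpen N) (hXN : X ⊆ N) {w : ℂ} (hWb : Bornology.IsBounded (connectedComponentIn Xᶜ w)) :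
    ∃ c : ℂ → ℝ, ContDiff ℝ ∞ c ∧ HasCompactSupport c ∧ (∀ z, 0 ≤ c z) ∧ (∀ z, c z ≤ 1) ∧
      tsupport (fderiv ℝ c) ⊆ N ∧ ∀ z ∈ connectedComponentIn Xᶜ w \ N, c z = 1 := by
  set W : Set ℂ := connectedComponentIn Xᶜ w with hW
  have hWo : IsOpen W := hXc.isClosed.isOpen_compl.connectedComponentIn
  have hclW : closure W ⊆ W ∪ X := closure_comp hXc.isClosed _
  have hK1 : IsCompact (W \ N) := by
    have h1 : W \ N = closure W \ N := by
      apply Subset.antisymm (sdiff_subset_sdiff_left subset_closure)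
      rintro u ⟨hu, huN⟩
      rcases hclW hu with h | h
      · exact ⟨h, huN⟩
      · exact absurd (hXN h) huN
    rw [h1]
    exact (Metric.isCompact_of_isClosed_isBounded isClosed_closure hWb.closure).diff hNo
  obtain ⟨c, hc, hcs, hcW, hc1, hc01⟩ := exists_cutoff hK1 hWo sdiff_subset
  refine ⟨c, hc, hcs, fun z => (hc01 z).1, fun z => (hc01 z).2, ?_, ?_⟩
  · intro u hu
    by_contra huN
    have huW : u ∈ W := hcW (tsupport_fderiv_subset ℝ hu)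
    have hmem : u ∈ W \ N := ⟨huW, huN⟩
    have h1 : ∀ᶠ y in 𝓝 u, c y = 1 := hc1.filter_mono (nhds_le_nhdsSet hmem)
    have h2 : fderiv ℝ c =ᶠ[𝓝 u] 0 := by
      filter_upwards [h1.eventually_nhds] with y hy
      have h3 : c =ᶠ[𝓝 y] fun _ => 1 := hy
      rw [h3.fderiv_eq]
      simp
    exact (notMem_tsupport_iff_eventuallyEq.mpr h2) hu
  · intro z hz
    exact (hc1.filter_mono (nhds_le_nhdsSet hz)).self_of_nhds

theorem no_pair {U : Set ℂ} (hU : IsOpen U) {p : ℂ → ℂ} (hp : DifferentiableOn ℂ p U)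
    (hfin : ∀ R : ℝ, IntegrableOn (fun z => ‖deriv p z‖ ^ 2) (U ∩ closedBall 0 R))
    (hEL : EL U p) {z1 z2 : ℂ} (hz1 : z1 ∈ U) (hz2 : z2 ∈ U) (hne : z1 ≠ z2)
    (heq : p z1 = p z2) (hd1 : deriv p z1 ≠ 0) (hd2 : deriv p z2 ≠ 0)
    (hA : IsPreconnected {z | z ∈ U ∧ (p z1).re < (p z).re})
    (hB : IsPreconnected {z | z ∈ U ∧ (p z).re < (p z1).re}) : False := by
  have hxc : ContinuousOn (fun z => (p z).re) U := (contDiffOn_re hU hp 0).continuousOn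
  -- the charts
  obtain ⟨O1, O2, hO1, hO2, hzO1, hzO2, hOd⟩ := t2_separation hne
  obtain ⟨V1, hV1, hzV1, hV1U, hV1O, hi1⟩ := exists_chart hU hp hz1 hd1 hO1 hzO1
  obtain ⟨V2, hV2, hzV2, hV2U, hV2O, hi2⟩ := exists_chart hU hp hz2 hd2 hO2 hzO2
  have hVd : Disjoint V1 V2 := hOd.mono hV1O hV2O
  have hz2V1 : z2 ∉ V1 := fun h => disjoint_left.mp hVd h hzV2
  have him1 : IsOpen (p '' V1) := isOpen_image_of_injOn hV1 (hp.mono hV1U) hi1
  have him2 : IsOpen (p '' V2) := isOpen_image_of_injOn hV2 (hp.mono hV2U) hi2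
  obtain ⟨a, ha, hbox1, hbox2⟩ : ∃ a > 0, box (p z1) a a ⊆ p '' V1 ∧ box (p z1) a a ⊆ p '' V2 := by
    have h1 : p '' V1 ∩ p '' V2 ∈ 𝓝 (p z1) :=
      inter_mem (him1.mem_nhds ⟨z1, hzV1, rfl⟩) (him2.mem_nhds ⟨z2, hzV2, heq.symm⟩)
    obtain ⟨ε, hε, hball⟩ := Metric.mem_nhds_iff.mp h1
    have h2 : box (p z1) (ε / 2) (ε / 2) ⊆ ball (p z1) ε := by
      rintro ζ ⟨h3, h4⟩
      rw [mem_ball, dist_eq_norm]
      refine (norm_le_abs_re_add_abs_im _).trans_lt ?_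
      have h5 : |(ζ - p z1).re| < ε / 2 := by
        rw [sub_re, abs_lt]; exact ⟨by linarith [h3.1], by linarith [h3.2]⟩
      have h6 : |(ζ - p z1).im| < ε / 2 := by
        rw [sub_im, abs_lt]; exact ⟨by linarith [h4.1], by linarith [h4.2]⟩
      linarith
    exact ⟨ε / 2, half_pos hε, (h2.trans hball).trans inter_subset_left,
      (h2.trans hball).trans inter_subset_right⟩
  obtain ⟨g, hg, -, hgim, hgp, hpg⟩ := exists_holomorphic_inverse hV1 (hp.mono hV1U) hi1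
  -- constants
  obtain ⟨lam, C, hC0, hlam, hlam1, hlam2, hlamC⟩ := exists_lam
  obtain ⟨b, b0, hb0, hbdef, hb0def⟩ : ∃ b b0 : ℝ, 0 < b ∧ b = a / 4 ∧ b0 = a / 2 :=
    ⟨a / 4, a / 2, by positivity, rfl, rfl⟩
  have hb00 : 0 < b0 := by rw [hb0def]; positivity
  obtain ⟨η, hη0, hηb⟩ : ∃ η > 0, (12 * C + 3) * η = b0 :=
    ⟨b0 / (12 * C + 3), by positivity, by field_simp⟩
  have hηC : 0 ≤ C * η := by positivity
  have hη3 : 3 * η ≤ b0 := by nlinarith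
  have hbη : η < b := by linarith
  have hba : b < a := by linarith
  have hbb0 : b < b0 := by linarith
  have hb0a : b0 ≤ a := by linarith
  -- the closed curve
  obtain ⟨X, hXc, hXU, hXt, hwp, hwn, hsides⟩ := two_sides hU hp hz1 hz2 heq hd1 hd2 hA hB hzV1
    hz2V1 hg hgim hgp hpg him1 hbox1 hb0 hba
  obtain ⟨σ, hσ, hw, hWb⟩ : ∃ σ : ℝ, (σ = 1 ∨ σ = -1) ∧
      g (p z1 + ((σ * b : ℝ) : ℂ) * I) ∉ X ∧
      Bornology.IsBounded (connectedComponentIn Xᶜ (g (p z1 + ((σ * b : ℝ) : ℂ) * I))) := by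
    rcases exists_bounded_comp hXc hwp hwn hsides with h | h
    · exact ⟨1, Or.inl rfl, by rwa [one_mul], by rwa [one_mul]⟩
    · exact ⟨-1, Or.inr rfl, by rwa [neg_one_mul], by rwa [neg_one_mul]⟩
  -- the neighbourhood
  have hboxo : IsOpen (box (p z1) a η) := isOpen_reim _ _ _ _
  have hQ1o : IsOpen (V1 ∩ p ⁻¹' box (p z1) a η) :=
    (hp.mono hV1U).continuousOn.isOpen_inter_preimage hV1 hboxo
  have hQ2o : IsOpen (V2 ∩ p ⁻¹' box (p z1) a η) :=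
    (hp.mono hV2U).continuousOn.isOpen_inter_preimage hV2 hboxo
  have hζbox : p z1 ∈ box (p z1) a η := ⟨⟨by linarith, by linarith⟩, ⟨by linarith, by linarith⟩⟩
  have hζbox2 : p z2 ∈ box (p z1) a η := heq ▸ hζbox
  obtain ⟨r, hr, hra, N, hNo, hXN, hNU, hNsub⟩ := exists_nbd hU hxc ha hQ1o hQ2o hXc hXU
    (t := (p z1).re) (fun u hu h => by
      rcases hXt u hu h with h | h
      · exact Or.inl ⟨h ▸ hzV1, h ▸ hζbox⟩
      · exact Or.inr ⟨h ▸ hzV2, h ▸ hζbox2⟩)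
  obtain ⟨c, hc, hcs, hc0, hc1, hcN, hcW⟩ := cut_comp hXc hNo hXN hWb
  have hcU : tsupport (fderiv ℝ c) ⊆ U := fun u hu => hNU (subset_closure (hcN hu))
  obtain ⟨Ψ, hΨ, hΨ0, hΨc, hΨs, hJ⟩ := exists_Psi (p z1).re hr hra
  have hΨr : ∀ s, deriv Ψ s ≠ 0 → |s - (p z1).re| < r := by
    intro s hs
    have h1 := hΨs (subset_tsupport _ hs)
    rw [abs_lt]; exact ⟨by linarith [h1.1], by linarith [h1.2]⟩
  have hΨa : tsupport (deriv Ψ) ⊆ Ioo ((p z1).re - a) ((p z1).re + a) :=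
    hΨs.trans (Ioo_subset_Ioo (by linarith) (by linarith))
  have hcX : ∀ z ∈ U, fderiv ℝ c z ≠ 0 → deriv Ψ (p z).re ≠ 0 →
      (z ∈ V1 ∨ z ∈ V2) ∧ |(p z).im - (p z1).im| ≤ η := by
    intro z hz h1 h2
    have h3 := hNsub (hcN (subset_tsupport _ h1))
    rcases h3 with (h3 | h3) | h3
    · refine ⟨Or.inl h3.1, ?_⟩
      rw [abs_le]; exact ⟨by linarith [h3.2.2.1], by linarith [h3.2.2.2]⟩
    · refine ⟨Or.inr h3.1, ?_⟩
      rw [abs_le]; exact ⟨by linarith [h3.2.2.1], by linarith [h3.2.2.2]⟩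
    · exact absurd h3 (not_lt.mpr (hΨr _ h2).le)
  have hNsub' : N ⊆ (V1 ∩ p ⁻¹' box (p z1) a η) ∪ V2 ∪ {u | r < |(p u).re - (p z1).re|} := by
    refine hNsub.trans (union_subset_union_left _ (union_subset_union_right _ inter_subset_left))
  have hreg : ∀ z ∈ V1, deriv Ψ (p z).re ≠ 0 → η < σ * ((p z).im - (p z1).im) →
      σ * ((p z).im - (p z1).im) < b0 → c z = 1 := fun z hz h1 h2 h3 =>
    hcW z (region hVd hg.continuousOn hgim hgp hpg hσ hra hr hη0 hb0a hbη hbb0 hbox1 hXN hNsub' hw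
      hz (hΨr _ h1) h2 h3)
  have hlen : 12 * C * η < b0 - η := by nlinarith
  have hηa : 3 * η ≤ a := by linarith
  have hpos : 0 < ∫ z in U, fderiv ℝ (fun z => Ψ (p z).re * c z) z (conj (deriv p z)) := by
    rcases hσ with hσ | hσ
    · refine flux_pos hU hp hV1 hV2 hV1U hV2U hVd hi1 hi2 hC0 hlam hlam1 hlam2 hlamC hη0 hηa hbox1
        hbox2 hΨ hΨ0 hΨc hΨa hJ hc hcs hc0 hc1 hcU hcX (c1 := (p z1).im + η) (d1 := (p z1).im + b0)
        (by linarith) (by linarith) (by linarith) ?_ (by linarith) hfin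
      intro z hz h1 h2
      refine hreg z hz h1 ?_ ?_
      · rw [hσ, one_mul]; linarith [h2.1]
      · rw [hσ, one_mul]; linarith [h2.2]
    · refine flux_pos hU hp hV1 hV2 hV1U hV2U hVd hi1 hi2 hC0 hlam hlam1 hlam2 hlamC hη0 hηa hbox1
        hbox2 hΨ hΨ0 hΨc hΨa hJ hc hcs hc0 hc1 hcU hcX (c1 := (p z1).im - b0) (d1 := (p z1).im - η)
        (by linarith) (by linarith) (by linarith) ?_ (by linarith) hfin
      intro z hz h1 h2
      refine hreg z hz h1 ?_ ?_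
      · rw [hσ]; linarith [h2.2]
      · rw [hσ]; linarith [h2.1]
  exact absurd (hEL c hc hcs hc0 hc1 hcU Ψ hΨ hΨ0 hΨc) (not_le.mpr hpos)

end Crest.Agent.R105.Unv_133
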