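import Mathlib

/-!
Row 105, UNIV, file 1 (helper913): topological part.
The two sides of a crosscut of a closed barrier lie in different components of the complement
(continuous logarithm of `(z - a)/(z - b)`), hence one of them is bounded.
-/

set_option autoImplicit false

namespace Crest.Agent.R105.Uv_913

open Complex Set Filter Topology Metric

/-- `z ↦ (z - a)/(z - b)` has a continuous logarithm on `S`. -/
def HasLg (S : Set ℂ) (a b : ℂ) : Prop :=
  ∃ L : ℂ → ℂ, ContinuousOn L S ∧ ∀ z ∈ S, Complex.exp (L z) = (z - a) / (z - b)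

theorem HasLg.refl {S : Set ℂ} {a : ℂ} (ha : a ∉ S) : HasLg S a a := by
  refine ⟨fun _ => 0, continuousOn_const, fun z hz => ?_⟩
  have : z - a ≠ 0 := sub_ne_zero.2 (fun h => ha (h ▸ hz))
  simp [this]

/-- moving `a` by less than its distance to `S` keeps the logarithm. -/
theorem HasLg.move {S : Set ℂ} {a a' b : ℂ} (h : HasLg S a b) (ha : a ∉ S)
    (hd : ∀ z ∈ S, dist a' a < dist z a) : HasLg S a' b := by
  obtain ⟨L, hL, hE⟩ := h
  have key : ∀ z ∈ S, (z - a') / (z - a) ∈ slitPlane := by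
    intro z hz
    have hza : z - a ≠ 0 := sub_ne_zero.2 (fun h => ha (h ▸ hz))
    have h1 : (z - a') / (z - a) = 1 - (a' - a) / (z - a) := by
      field_simp; ring
    rw [h1]
    have h2 : ‖(a' - a) / (z - a)‖ < 1 := by
      rw [norm_div, div_lt_one (norm_pos_iff.2 hza)]
      have := hd z hz
      rwa [dist_eq_norm, dist_eq_norm] at this
    left
    have h3 : |((a' - a) / (z - a)).re| ≤ ‖(a' - a) / (z - a)‖ := abs_re_le_norm _
    have h4 := le_abs_self ((a' - a) / (z - a)).re
    simp only [sub_re, one_re]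
    linarith
  refine ⟨fun z => L z + Complex.log ((z - a') / (z - a)), ?_, ?_⟩
  · refine hL.add ?_
    refine ContinuousOn.clog ?_ key
    refine ContinuousOn.div (by fun_prop) (by fun_prop) ?_
    intro z hz
    exact sub_ne_zero.2 (fun h => ha (h ▸ hz))
  · intro z hz
    have hza : z - a ≠ 0 := sub_ne_zero.2 (fun h => ha (h ▸ hz))
    rw [Complex.exp_add, hE z hz, Complex.exp_log (slitPlane_ne_zero (key z hz))]
    by_cases hb : z - b = 0
    · simp [hb]
    · field_simp

/-- Borsuk: `a`, `b` in one preconnected subset of the complement. -/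
theorem hasLg_of_preconnected {S V : Set ℂ} (hS : IsClosed S) (hSn : S.Nonempty) {a b : ℂ}
    (hV : IsPreconnected V) (hVS : V ⊆ Sᶜ) (ha : a ∈ V) (hb : b ∈ V) : HasLg S a b := by
  have hpos : ∀ c, c ∉ S → 0 < infDist c S := fun c hc =>
    (hS.notMem_iff_infDist_pos hSn).1 hc
  have hlt : ∀ c c', c ∉ S → dist c' c < infDist c S / 2 →
      (∀ z ∈ S, dist c' c < dist z c) ∧ (∀ z ∈ S, dist c c' < dist z c') ∧ c' ∉ S := by
    intro c c' hc hd
    have h0 := hpos c hc
    have h1 : ∀ z ∈ S, infDist c S ≤ dist c z := fun z hz => infDist_le_dist_of_mem hz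
    refine ⟨fun z hz => ?_, fun z hz => ?_, fun hc' => ?_⟩
    · have := h1 z hz
      rw [dist_comm c z] at this
      linarith
    · have := h1 z hz
      have h2 := dist_triangle c c' z
      rw [dist_comm c c', dist_comm z c']
      rw [dist_comm c c'] at h2
      linarith
    · have := h1 c' hc'
      rw [dist_comm c c'] at this
      linarith
  set u : Set ℂ := {c | c ∉ S ∧ HasLg S c b} with hu
  set w : Set ℂ := {c | c ∉ S ∧ ¬ HasLg S c b} with hw
  have huo : IsOpen u := by
    rw [Metric.isOpen_iff]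
    rintro c ⟨hc, hLc⟩
    refine ⟨infDist c S / 2, half_pos (hpos c hc), fun c' hc' => ?_⟩
    obtain ⟨h1, h2, h3⟩ := hlt c c' hc hc'
    exact ⟨h3, hLc.move hc h1⟩
  have hwo : IsOpen w := by
    rw [Metric.isOpen_iff]
    rintro c ⟨hc, hLc⟩
    refine ⟨infDist c S / 2, half_pos (hpos c hc), fun c' hc' => ?_⟩
    obtain ⟨h1, h2, h3⟩ := hlt c c' hc hc'
    exact ⟨h3, fun h => hLc (h.move h3 h2)⟩
  have hdis : Disjoint u w := by
    rw [Set.disjoint_left]
    rintro c ⟨_, h1⟩ ⟨_, h2⟩
    exact h2 h1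
  have hsub : V ⊆ u ∪ w := by
    intro c hc
    by_cases h : HasLg S c b
    · exact Or.inl ⟨hVS hc, h⟩
    · exact Or.inr ⟨hVS hc, h⟩
  have := hV.subset_left_of_subset_union huo hwo hdis hsub
    ⟨b, hb, hVS hb, HasLg.refl (hVS hb)⟩
  exact (this ha).2

/-- The imaginary part of `(u - iε)/(u + iε)`. -/
theorem im_moeb (u : ℂ) (ε : ℝ) :
    ((u - I * ε) / (u + I * ε)).im = - (2 * ε * u.re) / normSq (u + I * ε) := by
  rw [div_im]
  simp only [sub_im, sub_re, add_im, add_re, mul_re, mul_im, I_re, I_im, ofReal_re, ofReal_im]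
  field_simp
  ring

/-- **No logarithm across a crosscut.** `Γ'` preconnected, `γ` an arc from `γ (-r)` to `γ r`, both
in `Γ'`; in the coordinate `u = (z - w)/v` the arc crosses the imaginary axis exactly once
(at `0`) and `Γ'` does not meet the segment `[-iε, iε]`. -/
theorem not_hasLg {Γ' : Set ℂ} (hΓ' : IsPreconnected Γ') {w v : ℂ} (hv : v ≠ 0) {ε r : ℝ}
    (hε : 0 < ε) (hr : 0 < r)
    (hseg : ∀ z ∈ Γ', ((z - w) / v).re = 0 → ε < |((z - w) / v).im|)
    {γ : ℝ → ℂ} (hγ : ContinuousOn γ (Icc (-r) r)) (h0 : γ 0 = w)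
    (hpos : ∀ τ ∈ Ioc 0 r, 0 < ((γ τ - w) / v).re)
    (hneg : ∀ τ ∈ Ico (-r) 0, ((γ τ - w) / v).re < 0)
    (hl : γ (-r) ∈ Γ') (hrr : γ r ∈ Γ') :
    ¬ HasLg (Γ' ∪ γ '' Icc (-r) r) (w + v * (I * ε)) (w - v * (I * ε)) := by
  rintro ⟨L, hL, hE⟩
  set m : ℂ → ℂ := fun z => (((z - w) / v) - I * ε) / (((z - w) / v) + I * ε) with hm
  have hmE : ∀ z, (z - (w + v * (I * ε))) / (z - (w - v * (I * ε))) = m z := by
    intro z
    have h1 : z - (w + v * (I * ε)) = v * (((z - w) / v) - I * ε) := by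
      field_simp; ring
    have h2 : z - (w - v * (I * ε)) = v * (((z - w) / v) + I * ε) := by
      field_simp; ring
    rw [h1, h2, hm]
    exact mul_div_mul_left _ _ hv
  have hE' : ∀ z ∈ Γ' ∪ γ '' Icc (-r) r, Complex.exp (L z) = m z := by
    intro z hz
    rw [hE z hz, hmE]
  -- slit plane facts
  have hslit1 : ∀ z : ℂ, ((z - w) / v).re ≠ 0 → m z ∈ slitPlane := by
    intro z hz
    right
    rw [hm]
    simp only
    rw [im_moeb]
    have h1 : 0 < normSq ((z - w) / v + I * ε) := by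
      rw [normSq_pos]
      intro h
      have := congrArg Complex.re h
      simp at this
      exact hz this
    exact div_ne_zero (neg_ne_zero.2 (mul_ne_zero (by positivity) hz)) h1.ne'
  have hslit2 : ∀ z ∈ Γ', m z ∈ slitPlane := by
    intro z hz
    by_cases h : ((z - w) / v).re = 0
    · have h1 := hseg z hz h
      set y := ((z - w) / v).im with hy
      have h2 : (z - w) / v = I * y := by
        apply Complex.ext
        · simp [h]
        · simp [hy]
      left
      have h3 : m z = (((y - ε) / (y + ε) : ℝ) : ℂ) := by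
        rw [hm]
        simp only
        rw [h2]
        have h4 : (y + ε : ℝ) ≠ 0 := by
          intro h5
          have : y = -ε := by linarith
          rw [this, abs_neg, abs_of_pos hε] at h1
          exact lt_irrefl _ h1
        have h4' : ((y : ℂ) + ε) ≠ 0 := by exact_mod_cast h4
        push_cast
        rw [← mul_sub, ← mul_add]
        exact mul_div_mul_left _ _ I_ne_zero
      rw [h3, ofReal_re]
      rcases lt_abs.1 h1 with h5 | h5
      · apply div_pos <;> linarith
      · apply div_pos_of_neg_of_neg <;> linarith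
    · exact hslit1 z h
  have hden : ∀ z ∈ Γ', ((z - w) / v) + I * ε ≠ 0 := by
    intro z hz h
    have h1 : ((z - w) / v).re = 0 := by
      have := congrArg Complex.re h
      simpa using this
    have h2 : ((z - w) / v).im = -ε := by
      have := congrArg Complex.im h
      simp at this
      linarith
    have := hseg z hz h1
    rw [h2, abs_neg, abs_of_pos hε] at this
    exact lt_irrefl _ this
  -- L - log m is locally constant on Γ'
  have hdiff : ∀ z, z ∈ Γ' ∪ γ '' Icc (-r) r → m z ∈ slitPlane →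
      ∃ n : ℤ, L z - Complex.log (m z) = n * (2 * Real.pi * I) := by
    intro z hz hs
    have h1 : Complex.exp (L z) = Complex.exp (Complex.log (m z)) := by
      rw [hE' z hz, Complex.exp_log (slitPlane_ne_zero hs)]
    obtain ⟨n, hn⟩ := Complex.exp_eq_exp_iff_exists_int.1 h1
    exact ⟨n, by rw [hn]; ring⟩
  have hmcont : ∀ z : ℂ, ((z - w) / v) + I * ε ≠ 0 → ContinuousAt m z := by
    intro z hz
    refine ContinuousAt.div ?_ ?_ hz <;> fun_prop
  have hconst : ∀ T : Set ℂ, IsPreconnected T → T ⊆ Γ' ∪ γ '' Icc (-r) r →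
      (∀ z ∈ T, m z ∈ slitPlane ∧ ((z - w) / v) + I * ε ≠ 0) →
      ∀ z ∈ T, ∀ z' ∈ T, L z - Complex.log (m z) = L z' - Complex.log (m z') := by
    intro T hT hTs hTm z hz z' hz'
    set g : ℂ → ℝ := fun z => ((L z - Complex.log (m z)) / (2 * Real.pi * I)).re with hg
    have hgc : ContinuousOn g T := by
      have h1 : ContinuousOn (fun z => L z - Complex.log (m z)) T := by
        refine (hL.mono hTs).sub ?_
        refine ContinuousOn.clog (fun z hz => (hmcont z (hTm z hz).2).continuousWithinAt) ?_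
        exact fun z hz => (hTm z hz).1
      exact continuous_re.comp_continuousOn (h1.div_const _)
    have hpi : (2 * Real.pi * I : ℂ) ≠ 0 := by
      simp [Real.pi_ne_zero, I_ne_zero]
    have hgz : ∀ z ∈ T, ∃ n : ℤ, g z = n ∧ L z - Complex.log (m z) = n * (2 * Real.pi * I) := by
      intro z hz
      obtain ⟨n, hn⟩ := hdiff z (hTs hz) (hTm z hz).1
      refine ⟨n, ?_, hn⟩
      rw [hg]
      simp only
      rw [hn, mul_div_assoc, div_self hpi]
      simp
    have himg : g z = g z' := by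
      have h1 : IsPreconnected (g '' T) := hT.image g hgc
      have h2 : (g '' T) ⊆ Set.range ((↑) : ℤ → ℝ) := by
        rintro _ ⟨z, hz, rfl⟩
        obtain ⟨n, hn, _⟩ := hgz z hz
        exact ⟨n, hn.symm⟩
      have h3 : (g '' T).Subsingleton := by
        have : IsTotallyDisconnected (Set.range ((↑) : ℤ → ℝ)) := by
          apply Set.Countable.isTotallyDisconnected
          exact Set.countable_range _
        exact this _ h2 h1
      exact h3 ⟨z, hz, rfl⟩ ⟨z', hz', rfl⟩
    obtain ⟨n, hn, hn'⟩ := hgz z hz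
    obtain ⟨k, hk, hk'⟩ := hgz z' hz'
    have : (n : ℝ) = k := by rw [← hn, ← hk, himg]
    have : n = k := by exact_mod_cast this
    rw [hn', hk', this]
  have hrmem : r ∈ Icc (-r) r := ⟨by linarith, le_refl _⟩
  have hlmem : -r ∈ Icc (-r) r := ⟨le_refl _, by linarith⟩
  -- right half
  have hR : ∀ τ ∈ Ioc 0 r, L (γ τ) - Complex.log (m (γ τ)) =
      L (γ r) - Complex.log (m (γ r)) := by
    intro τ hτ
    refine hconst (γ '' Ioc 0 r) ?_ ?_ ?_ _ ⟨τ, hτ, rfl⟩ _ ⟨r, ⟨hr, le_refl _⟩, rfl⟩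
    · exact isPreconnected_Ioc.image _ (hγ.mono (fun x hx => ⟨by linarith [hx.1], hx.2⟩))
    · rintro _ ⟨x, hx, rfl⟩
      exact Or.inr ⟨x, ⟨by linarith [hx.1], hx.2⟩, rfl⟩
    · rintro _ ⟨x, hx, rfl⟩
      have := hpos x hx
      refine ⟨hslit1 _ this.ne', fun h => ?_⟩
      have h2 := congrArg Complex.re h
      simp at h2
      exact this.ne' h2
  have hLf : ∀ τ ∈ Ico (-r) 0, L (γ τ) - Complex.log (m (γ τ)) =
      L (γ (-r)) - Complex.log (m (γ (-r))) := by
    intro τ hτ
    refine hconst (γ '' Ico (-r) 0) ?_ ?_ ?_ _ ⟨τ, hτ, rfl⟩ _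
      ⟨-r, ⟨le_refl _, by linarith⟩, rfl⟩
    · exact isPreconnected_Ico.image _ (hγ.mono (fun x hx => ⟨hx.1, by linarith [hx.2]⟩))
    · rintro _ ⟨x, hx, rfl⟩
      exact Or.inr ⟨x, ⟨hx.1, by linarith [hx.2]⟩, rfl⟩
    · rintro _ ⟨x, hx, rfl⟩
      have := hneg x hx
      refine ⟨hslit1 _ this.ne, fun h => ?_⟩
      have h2 := congrArg Complex.re h
      simp at h2
      exact this.ne h2
  have hM : L (γ r) - Complex.log (m (γ r)) = L (γ (-r)) - Complex.log (m (γ (-r))) :=
    hconst Γ' hΓ' subset_union_left (fun z hz => ⟨hslit2 z hz, hden z hz⟩) _ hrr _ hl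
  set k := L (γ r) - Complex.log (m (γ r)) with hk
  -- limits at 0
  have h0mem : (0 : ℝ) ∈ Icc (-r) r := ⟨by linarith, hr.le⟩
  have hm0 : m (γ 0) = -1 := by
    rw [hm, h0]
    simp only [sub_self, zero_div, zero_sub, zero_add]
    rw [neg_div, div_self]
    simp [I_ne_zero, hε.ne']
  have hLγ : ContinuousOn (fun τ => L (γ τ)) (Icc (-r) r) :=
    hL.comp hγ (fun x hx => Or.inr ⟨x, hx, rfl⟩)
  have hmγ : Tendsto (fun τ => m (γ τ)) (𝓝[Icc (-r) r] 0) (𝓝 (-1)) := by
    rw [← hm0]
    have h1 : ContinuousAt m (γ 0) := by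
      apply hmcont
      rw [h0]
      simp [I_ne_zero, hε.ne']
    exact h1.tendsto.comp (hγ 0 h0mem)
  have hre : ((-1 : ℂ)).re < 0 := by simp
  have him : ((-1 : ℂ)).im = 0 := by simp
  have hIoc : 𝓝[Ioc 0 r] (0 : ℝ) ≤ 𝓝[Icc (-r) r] 0 :=
    nhdsWithin_mono _ (fun x hx => ⟨by linarith [hx.1], hx.2⟩)
  have hIco : 𝓝[Ico (-r) 0] (0 : ℝ) ≤ 𝓝[Icc (-r) r] 0 :=
    nhdsWithin_mono _ (fun x hx => ⟨hx.1, by linarith [hx.2]⟩)
  have nb1 : (𝓝[Ioc 0 r] (0 : ℝ)).NeBot := by
    rw [nhdsWithin_Ioc_eq_nhdsGT hr]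
    infer_instance
  have nb2 : (𝓝[Ico (-r) 0] (0 : ℝ)).NeBot := by
    rw [nhdsWithin_Ico_eq_nhdsLT (by linarith : -r < 0)]
    infer_instance
  have hT1 : Tendsto (fun τ => Complex.log (m (γ τ))) (𝓝[Ioc 0 r] 0)
      (𝓝 (Real.log ‖(-1 : ℂ)‖ - Real.pi * I)) := by
    refine (tendsto_log_nhdsWithin_im_neg_of_re_neg_of_im_zero hre him).comp ?_
    refine tendsto_nhdsWithin_iff.2 ⟨hmγ.mono_left hIoc, ?_⟩
    filter_upwards [self_mem_nhdsWithin] with τ hτ
    show (m (γ τ)).im < 0
    rw [hm]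
    simp only
    rw [im_moeb]
    have h1 := hpos τ hτ
    have h2 : 0 < normSq ((γ τ - w) / v + I * ε) := by
      rw [normSq_pos]
      intro h
      have := congrArg Complex.re h
      simp at this
      exact h1.ne' this
    apply div_neg_of_neg_of_pos _ h2
    have : 0 < 2 * ε * ((γ τ - w) / v).re := by positivity
    linarith
  have hT2 : Tendsto (fun τ => Complex.log (m (γ τ))) (𝓝[Ico (-r) 0] 0)
      (𝓝 (Real.log ‖(-1 : ℂ)‖ + Real.pi * I)) := by
    refine (tendsto_log_nhdsWithin_im_nonneg_of_re_neg_of_im_zero hre him).comp ?_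
    refine tendsto_nhdsWithin_iff.2 ⟨hmγ.mono_left hIco, ?_⟩
    filter_upwards [self_mem_nhdsWithin] with τ hτ
    show 0 ≤ (m (γ τ)).im
    rw [hm]
    simp only
    rw [im_moeb]
    have h1 := hneg τ hτ
    apply div_nonneg _ (normSq_nonneg _)
    have : 2 * ε * ((γ τ - w) / v).re ≤ 0 :=
      mul_nonpos_of_nonneg_of_nonpos (by positivity) h1.le
    linarith
  have hL1 : Tendsto (fun τ => L (γ τ)) (𝓝[Ioc 0 r] 0) (𝓝 (L (γ 0))) :=
    (hLγ 0 h0mem).tendsto.mono_left hIoc
  have hL2 : Tendsto (fun τ => L (γ τ)) (𝓝[Ico (-r) 0] 0) (𝓝 (L (γ 0))) :=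
    (hLγ 0 h0mem).tendsto.mono_left hIco
  have e1 : L (γ 0) = Real.log ‖(-1 : ℂ)‖ - Real.pi * I + k := by
    refine tendsto_nhds_unique hL1 ?_
    refine (hT1.add_const k).congr' ?_
    filter_upwards [self_mem_nhdsWithin] with τ hτ
    rw [← hR τ hτ]; ring
  have e2 : L (γ 0) = Real.log ‖(-1 : ℂ)‖ + Real.pi * I + k := by
    refine tendsto_nhds_unique hL2 ?_
    refine (hT2.add_const k).congr' ?_
    filter_upwards [self_mem_nhdsWithin] with τ hτ
    rw [hM, ← hLf τ hτ]; ring
  have e3 := e1.symm.trans e2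
  have e4 := congrArg Complex.im e3
  simp at e4
  have := Real.pi_pos
  linarith

/-- the complement of a closed disc is preconnected. -/
theorem isPreconnected_far (R : ℝ) : IsPreconnected {z : ℂ | R < ‖z‖} := by
  rcases lt_or_ge R 0 with h | h
  · have : {z : ℂ | R < ‖z‖} = univ := by
      ext z; simp; linarith [norm_nonneg z]
    rw [this]
    exact isPreconnected_univ
  · have h1 : IsConnected (sphere (0 : ℂ) 1) := by
      apply isConnected_sphere _ _ zero_le_one
      rw [← Module.finrank_eq_rank, Complex.finrank_real_complex]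
      norm_num
    have h2 : IsPreconnected (Ioi R ×ˢ sphere (0 : ℂ) 1) :=
      isPreconnected_Ioi.prod h1.isPreconnected
    have h3 : {z : ℂ | R < ‖z‖} = (fun p : ℝ × ℂ => (p.1 : ℂ) * p.2) '' (Ioi R ×ˢ sphere (0 : ℂ) 1) := by
      ext z
      simp only [mem_setOf_eq, mem_image, mem_prod, mem_Ioi, mem_sphere_iff_norm, sub_zero,
        Prod.exists]
      constructor
      · intro hz
        have hz0 : (‖z‖ : ℂ) ≠ 0 := by
          have : 0 < ‖z‖ := lt_of_le_of_lt h hz
          exact_mod_cast this.ne'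
        refine ⟨‖z‖, z / ‖z‖, ⟨hz, ?_⟩, ?_⟩
        · rw [norm_div]
          simp
          have : 0 < ‖z‖ := lt_of_le_of_lt h hz
          exact norm_pos_iff.1 this
        · field_simp
      · rintro ⟨r, y, ⟨hr, hy⟩, rfl⟩
        rw [norm_mul, hy, mul_one, norm_real, Real.norm_eq_abs]
        exact lt_of_lt_of_le hr (le_abs_self r)
    rw [h3]
    exact h2.image _ (by fun_prop)

/-- If `(z-a)/(z-b)` has no logarithm on the compact set `Γ` then `a` or `b` lies in a bounded
open set with frontier in `Γ`. -/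
theorem exists_bounded {Γ : Set ℂ} (hΓ : IsCompact Γ) (hn : Γ.Nonempty) {a b : ℂ}
    (ha : a ∉ Γ) (hb : b ∉ Γ) (hab : ¬ HasLg Γ a b) :
    ∃ e, (e = a ∨ e = b) ∧ ∃ B : Set ℂ, IsOpen B ∧ Bornology.IsBounded B ∧ e ∈ B ∧
      frontier B ⊆ Γ ∧ Disjoint B Γ := by
  have hcl := hΓ.isClosed
  obtain ⟨R, hR⟩ := hΓ.isBounded.subset_closedBall 0
  have hV : {z : ℂ | R < ‖z‖} ⊆ Γᶜ := by
    intro z hz hzΓ
    have := hR hzΓ
    simp at this
    exact absurd hz (not_lt.2 this)
  have hfr : ∀ c, c ∉ Γ → frontier (connectedComponentIn Γᶜ c) ⊆ Γ := by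
    intro c hc z hz
    by_contra hzΓ
    have ho : IsOpen (connectedComponentIn Γᶜ c) := hcl.isOpen_compl.connectedComponentIn
    have hoz : IsOpen (connectedComponentIn Γᶜ z) := hcl.isOpen_compl.connectedComponentIn
    have hzz : z ∈ connectedComponentIn Γᶜ z := mem_connectedComponentIn hzΓ
    have hzcl : z ∈ closure (connectedComponentIn Γᶜ c) := frontier_subset_closure hz
    obtain ⟨q, hq1, hq2⟩ := mem_closure_iff.1 hzcl _ hoz hzz
    have e1 := connectedComponentIn_eq hq1
    have e2 := connectedComponentIn_eq hq2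
    rw [ho.frontier_eq] at hz
    apply hz.2
    rw [e2, ← e1]
    exact hzz
  have key : ∀ c, c ∉ Γ → ¬ Bornology.IsBounded (connectedComponentIn Γᶜ c) →
      (connectedComponentIn Γᶜ c ∩ {z : ℂ | R < ‖z‖}).Nonempty := by
    intro c hc hnb
    by_contra hemp
    apply hnb
    refine (isBounded_closedBall (x := (0 : ℂ)) (r := R)).subset ?_
    intro z hz
    rw [mem_closedBall_zero_iff]
    by_contra h
    exact hemp ⟨z, hz, not_le.1 h⟩
  by_cases h1 : Bornology.IsBounded (connectedComponentIn Γᶜ a)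
  · exact ⟨a, Or.inl rfl, _, hcl.isOpen_compl.connectedComponentIn, h1,
      mem_connectedComponentIn ha, hfr a ha,
      Set.disjoint_left.2 fun z hz hzΓ => connectedComponentIn_subset _ _ hz hzΓ⟩
  by_cases h2 : Bornology.IsBounded (connectedComponentIn Γᶜ b)
  · exact ⟨b, Or.inr rfl, _, hcl.isOpen_compl.connectedComponentIn, h2,
      mem_connectedComponentIn hb, hfr b hb,
      Set.disjoint_left.2 fun z hz hzΓ => connectedComponentIn_subset _ _ hz hzΓ⟩
  exfalso
  apply hab
  have p1 : IsPreconnected (connectedComponentIn Γᶜ a ∪ {z : ℂ | R < ‖z‖}) := by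
    obtain ⟨q, hq1, hq2⟩ := key a ha h1
    exact IsPreconnected.union q hq1 hq2 isPreconnected_connectedComponentIn (isPreconnected_far R)
  have p2 : IsPreconnected ((connectedComponentIn Γᶜ a ∪ {z : ℂ | R < ‖z‖}) ∪
      connectedComponentIn Γᶜ b) := by
    obtain ⟨q, hq1, hq2⟩ := key b hb h2
    exact IsPreconnected.union q (Or.inr hq2) hq1 p1 isPreconnected_connectedComponentIn
  refine hasLg_of_preconnected hcl hn p2 ?_ (Or.inl (Or.inl (mem_connectedComponentIn ha)))
    (Or.inr (mem_connectedComponentIn hb))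
  refine union_subset (union_subset (connectedComponentIn_subset _ _) hV)
    (connectedComponentIn_subset _ _)

end Crest.Agent.R105.Uv_913
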