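import Crest.Agent.R105.Uv1_913
import Crest.Agent.R105.Uv4_913

/-!
Row 105, UNIV, file 5 (helper913): the assembly `injOn_of_EL`.
-/

set_option autoImplicit false

namespace Crest.Agent.R105.Uv_913

open Complex Set Filter Topology Metric MeasureTheory
open scoped ContDiff NNReal

variable {U : Set ℂ} {F : ℂ → ℂ}

/-- local inverse -/
theorem exists_local_inv (hU : IsOpen U) (hF : DifferentiableOn ℂ F U) {w : ℂ} (hw : w ∈ U)
    (hd : deriv F w ≠ 0) {N : Set ℂ} (hN : IsOpen N) (hwN : w ∈ N) :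
    ∃ R0 : ℝ, 0 < R0 ∧ ∃ g : ℂ → ℂ, g (F w) = w ∧
      HasDerivAt g (deriv F w)⁻¹ (F w) ∧
      ∀ q ∈ ball (F w) R0, F (g q) = q ∧ g q ∈ U ∧ g q ∈ N ∧ DifferentiableAt ℂ g q := by
  have han : AnalyticAt ℂ F w := hF.analyticAt (hU.mem_nhds hw)
  have hs : HasStrictDerivAt F (deriv F w) w := han.hasStrictDerivAt
  set e : OpenPartialHomeomorph ℂ ℂ :=
    (hs.hasStrictFDerivAt_equiv hd).toOpenPartialHomeomorph F with he
  have hws : w ∈ e.source := HasStrictFDerivAt.mem_toOpenPartialHomeomorph_source _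
  have hec : ∀ z, e z = F z := fun z => rfl
  have hdc : ContinuousOn (deriv F) U := (hF.deriv hU).continuousOn
  set O : Set ℂ := U ∩ {z | deriv F z ≠ 0} with hO
  have hOo : IsOpen O := hdc.isOpen_inter_preimage hU isOpen_ne
  have hT : IsOpen (e.target ∩ e.symm ⁻¹' (O ∩ N)) := e.isOpen_inter_preimage_symm (hOo.inter hN)
  have hsw : e.symm (F w) = w := e.left_inv hws
  have hwT : F w ∈ e.target ∩ e.symm ⁻¹' (O ∩ N) := by
    refine ⟨e.map_source hws, ?_⟩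
    rw [mem_preimage, hsw]
    exact ⟨⟨hw, hd⟩, hwN⟩
  obtain ⟨R0, hR0, hb⟩ := Metric.isOpen_iff.1 hT _ hwT
  have hder : ∀ q ∈ ball (F w) R0, HasDerivAt e.symm (deriv F (e.symm q))⁻¹ q := by
    intro q hq
    obtain ⟨h1, h2⟩ := hb hq
    have h3 : DifferentiableAt ℂ F (e.symm q) := hF.differentiableAt (hU.mem_nhds h2.1.1)
    exact e.hasDerivAt_symm h1 h2.1.2 h3.hasDerivAt
  refine ⟨R0, hR0, e.symm, hsw, ?_, fun q hq => ?_⟩
  · have := hder (F w) (mem_ball_self hR0)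
    rwa [hsw] at this
  · obtain ⟨h1, h2⟩ := hb hq
    exact ⟨e.right_inv h1, h2.1.1, h2.2, (hder q hq).differentiableAt⟩

theorem exists_compact_conn {W : Set ℂ} (hW : IsOpen W) (hWc : IsPreconnected W) {a b : ℂ}
    (ha : a ∈ W) (hb : b ∈ W) :
    ∃ P, IsCompact P ∧ IsPreconnected P ∧ P ⊆ W ∧ a ∈ P ∧ b ∈ P := by
  have h1 : IsPathConnected W := (hW.isConnected_iff_isPathConnected).1 ⟨⟨a, ha⟩, hWc⟩
  obtain ⟨γ, hγ⟩ := h1.joinedIn a ha b hb
  refine ⟨range γ, isCompact_range γ.continuous, isPreconnected_range γ.continuous, ?_, ?_, ?_⟩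
  · rintro _ ⟨s, rfl⟩; exact hγ s
  · exact ⟨0, γ.source⟩
  · exact ⟨1, γ.target⟩

theorem volume_line (s : ℝ) : volume {z : ℂ | z.im = s} = 0 := by
  have h1 : {z : ℂ | z.im = s} = Complex.measurableEquivRealProd ⁻¹' (univ ×ˢ {s}) := by
    ext z; simp
  rw [h1, Complex.volume_preserving_equiv_real_prod.measure_preimage_equiv,
    MeasureTheory.Measure.volume_eq_prod, Measure.prod_prod]
  simp

/-- core: two regular points with the same value -/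
theorem core (hU : IsOpen U) (hF : DifferentiableOn ℂ F U)
    (hE : ∀ R : ℝ, IntegrableOn (fun z => ‖deriv F z‖ ^ 2) (U ∩ ball 0 R))
    (hEL : ELIneq U F)
    (hC1 : ∀ a b : ℝ, a < b → ∃ t ∈ Ioo a b, IsPreconnected {z | z ∈ U ∧ t < (F z).re})
    (hC2 : ∀ a b : ℝ, a < b → ∃ t ∈ Ioo a b, IsPreconnected {z | z ∈ U ∧ (F z).re < t})
    {w1 w2 : ℂ} (h1 : w1 ∈ U) (h2 : w2 ∈ U) (hne : w1 ≠ w2) (hFe : F w1 = F w2)
    (hd1 : deriv F w1 ≠ 0) (hd2 : deriv F w2 ≠ 0) : False := by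
  obtain ⟨N1, N2, hN1, hN2, hwN1, hwN2, hN⟩ := t2_separation hne
  obtain ⟨R1, hR1, g1, hg1, hgd1, hgb1⟩ := exists_local_inv hU hF h1 hd1 hN1 hwN1
  obtain ⟨R2, hR2, g2, hg2, -, hgb2⟩ := exists_local_inv hU hF h2 hd2 hN2 hwN2
  rw [← hFe] at hg2 hgb2
  set p : ℂ := F w1 with hp
  set R0 : ℝ := min R1 R2 with hR0
  have hR0p : 0 < R0 := lt_min hR1 hR2
  set r : ℝ := R0 / 2 with hr
  have hrp : 0 < r := by positivity
  have hball : ∀ τ ∈ Icc (-r) r, p + (τ : ℂ) ∈ ball p R1 ∧ p + (τ : ℂ) ∈ ball p R2 := by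
    intro τ hτ
    have h3 : ‖(p + (τ : ℂ)) - p‖ < R0 := by
      rw [add_sub_cancel_left, Complex.norm_real, Real.norm_eq_abs]
      have := abs_le.2 hτ
      linarith
    exact ⟨by rw [mem_ball, dist_eq_norm]; exact lt_of_lt_of_le h3 (min_le_left _ _),
      by rw [mem_ball, dist_eq_norm]; exact lt_of_lt_of_le h3 (min_le_right _ _)⟩
  set γ1 : ℝ → ℂ := fun τ => g1 (p + τ) with hγ1
  set γ2 : ℝ → ℂ := fun τ => g2 (p + τ) with hγ2
  have hF1 : ∀ τ ∈ Icc (-r) r, F (γ1 τ) = p + τ := fun τ hτ => (hgb1 _ (hball τ hτ).1).1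
  have hF2 : ∀ τ ∈ Icc (-r) r, F (γ2 τ) = p + τ := fun τ hτ => (hgb2 _ (hball τ hτ).2).1
  have hU1 : ∀ τ ∈ Icc (-r) r, γ1 τ ∈ U := fun τ hτ => (hgb1 _ (hball τ hτ).1).2.1
  have hU2 : ∀ τ ∈ Icc (-r) r, γ2 τ ∈ U := fun τ hτ => (hgb2 _ (hball τ hτ).2).2.1
  have hlin : Continuous fun τ : ℝ => p + (τ : ℂ) := continuous_const.add continuous_ofReal
  have hc1 : ContinuousOn γ1 (Icc (-r) r) := fun τ hτ =>
    (ContinuousAt.comp (g := g1) (f := fun τ : ℝ => p + (τ : ℂ))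
      (hgb1 _ (hball τ hτ).1).2.2.2.continuousAt hlin.continuousAt).continuousWithinAt
  have hc2 : ContinuousOn γ2 (Icc (-r) r) := fun τ hτ =>
    (ContinuousAt.comp (g := g2) (f := fun τ : ℝ => p + (τ : ℂ))
      (hgb2 _ (hball τ hτ).2).2.2.2.continuousAt hlin.continuousAt).continuousWithinAt
  have h10 : γ1 0 = w1 := by
    show g1 (p + ((0 : ℝ) : ℂ)) = w1
    rw [Complex.ofReal_zero, add_zero]; exact hg1
  -- the connecting compact sets
  obtain ⟨tR, htR, hconR⟩ := hC1 (p.re + r / 2) (p.re + r) (by linarith)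
  obtain ⟨tL, htL, hconL⟩ := hC2 (p.re - r) (p.re - r / 2) (by linarith)
  have hFc : ContinuousOn (fun z => (F z).re) U := continuous_re.comp_continuousOn hF.continuousOn
  have hWR : IsOpen {z | z ∈ U ∧ tR < (F z).re} := hFc.isOpen_inter_preimage hU isOpen_Ioi
  have hWL : IsOpen {z | z ∈ U ∧ (F z).re < tL} := hFc.isOpen_inter_preimage hU isOpen_Iio
  have hrr : r ∈ Icc (-r) r := ⟨by linarith, le_rfl⟩
  have hll : -r ∈ Icc (-r) r := ⟨le_rfl, by linarith⟩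
  have hre : ∀ τ : ℝ, (p + (τ : ℂ)).re = p.re + τ := fun τ => by simp
  have him : ∀ τ : ℝ, (p + (τ : ℂ)).im = p.im := fun τ => by simp
  obtain ⟨PR, hPRc, hPRp, hPRs, hPR1, hPR2⟩ := exists_compact_conn hWR hconR
    (a := γ1 r) (b := γ2 r) ⟨hU1 r hrr, by rw [hF1 r hrr, hre]; exact htR.2⟩
    ⟨hU2 r hrr, by rw [hF2 r hrr, hre]; exact htR.2⟩
  obtain ⟨PL, hPLc, hPLp, hPLs, hPL2, hPL1⟩ := exists_compact_conn hWL hconL
    (a := γ2 (-r)) (b := γ1 (-r))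
    ⟨hU2 _ hll, by rw [hF2 _ hll, hre]; linarith [htL.1]⟩
    ⟨hU1 _ hll, by rw [hF1 _ hll, hre]; linarith [htL.1]⟩
  -- the direction
  set v : ℂ := (deriv F w1)⁻¹ with hv
  have hv0 : v ≠ 0 := inv_ne_zero hd1
  obtain ⟨r2, hr2, hr2r, hγre⟩ : ∃ r2 : ℝ, 0 < r2 ∧ r2 ≤ r ∧ ∀ τ : ℝ, |τ| ≤ r2 →
      |((γ1 τ - w1) / v).re - τ| ≤ |τ| / 2 := by
    have h3 : HasDerivAt γ1 v 0 := by
      have h4 : HasDerivAt (fun τ : ℝ => p + (τ : ℂ)) 1 0 := by
        simpa using (Complex.ofRealCLM.hasDerivAt (x := (0 : ℝ))).const_add p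
      have h5 : HasDerivAt g1 v (p + ((0 : ℝ) : ℂ)) := by simpa using hgd1
      have h6 := HasDerivAt.comp (0 : ℝ) h5 h4
      rw [mul_one] at h6
      exact h6
    have h6 := h3.isLittleO
    have h7 : (0 : ℝ) < ‖v‖ / 2 := by positivity
    have h8 := h6.bound h7
    obtain ⟨ρ, hρ, hb⟩ := Metric.eventually_nhds_iff.1 h8
    refine ⟨min (ρ / 2) r, by positivity, min_le_right _ _, fun τ hτ => ?_⟩
    have h9 : dist τ 0 < ρ := by
      rw [Real.dist_eq, sub_zero]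
      have := hτ.trans (min_le_left _ _)
      linarith
    have h10' := hb h9
    rw [h10, sub_zero] at h10'
    have h11 : (((γ1 τ - w1) / v).re - τ) = ((γ1 τ - w1 - τ • v) / v).re := by
      have : (γ1 τ - w1 - τ • v) / v = (γ1 τ - w1) / v - (τ : ℂ) := by
        rw [Complex.real_smul]
        field_simp
      rw [this]; simp
    rw [h11]
    refine (abs_re_le_norm _).trans ?_
    rw [norm_div, div_le_iff₀ (norm_pos_iff.2 hv0)]
    refine h10'.trans (le_of_eq ?_)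
    rw [Real.norm_eq_abs]; ring
  have hpos : ∀ τ ∈ Ioc 0 r2, 0 < ((γ1 τ - w1) / v).re := by
    intro τ hτ
    have := hγre τ (by rw [abs_of_pos hτ.1]; exact hτ.2)
    rw [abs_of_pos hτ.1, abs_le] at this
    have := hτ.1
    linarith
  have hneg : ∀ τ ∈ Ico (-r2) 0, ((γ1 τ - w1) / v).re < 0 := by
    intro τ hτ
    have := hγre τ (by rw [abs_of_neg hτ.2]; linarith [hτ.1])
    rw [abs_of_neg hτ.2, abs_le] at this
    have := hτ.2
    linarith
  -- the small segment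
  set κ : ℝ := min r2 (r / 4) with hκ
  have hκp : 0 < κ := by positivity
  obtain ⟨ε, hε, hεb⟩ : ∃ ε : ℝ, 0 < ε ∧ ∀ ζ : ℂ, ‖ζ‖ ≤ ε → w1 + v * ζ ∈ N1 ∧ w1 + v * ζ ∈ U ∧
      ‖F (w1 + v * ζ) - p‖ < κ ∧ deriv F (w1 + v * ζ) ≠ 0 := by
    have hev : ∀ᶠ z in 𝓝 w1, z ∈ N1 ∧ z ∈ U ∧ ‖F z - p‖ < κ ∧ deriv F z ≠ 0 := by
      have e1 : ∀ᶠ z in 𝓝 w1, z ∈ N1 := hN1.mem_nhds hwN1
      have e2 : ∀ᶠ z in 𝓝 w1, z ∈ U := hU.mem_nhds h1
      refine e1.and (e2.and ?_)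
      have hFcw : ContinuousAt F w1 := hF.continuousOn.continuousAt (hU.mem_nhds h1)
      have hdcw : ContinuousAt (deriv F) w1 :=
        (hF.deriv hU).continuousOn.continuousAt (hU.mem_nhds h1)
      refine Filter.Eventually.and ?_ (hdcw.eventually_ne hd1)
      have : Tendsto (fun z => ‖F z - p‖) (𝓝 w1) (𝓝 0) := by
        have h0 : Tendsto (fun z => ‖F z - p‖) (𝓝 w1) (𝓝 ‖F w1 - p‖) :=
          (hFcw.tendsto.sub_const p).norm
        rwa [← hp, sub_self, norm_zero] at h0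
      exact this.eventually (gt_mem_nhds hκp)
    have hcont : Tendsto (fun ζ : ℂ => w1 + v * ζ) (𝓝 0) (𝓝 w1) := by
      have : Continuous fun ζ : ℂ => w1 + v * ζ := by fun_prop
      have := this.tendsto 0
      simpa using this
    obtain ⟨ρ, hρ, hb⟩ := Metric.eventually_nhds_iff.1 (hcont.eventually hev)
    refine ⟨ρ / 2, by positivity, fun ζ hζ => hb ?_⟩
    rw [dist_zero_right]; linarith
  -- the sets
  have hI1 : Icc r2 r ⊆ Icc (-r) r := Icc_subset_Icc (by linarith) le_rfl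
  have hI2 : Icc (-r) (-r2) ⊆ Icc (-r) r := Icc_subset_Icc le_rfl (by linarith)
  have hI3 : Icc (-r2) r2 ⊆ Icc (-r) r := Icc_subset_Icc (by linarith) hr2r
  set Γ' : Set ℂ := (((γ1 '' Icc r2 r ∪ PR) ∪ γ2 '' Icc (-r) r) ∪ PL) ∪ γ1 '' Icc (-r) (-r2)
    with hΓ'
  have hΓ'p : IsPreconnected Γ' := by
    have a1 : IsPreconnected (γ1 '' Icc r2 r) := isPreconnected_Icc.image _ (hc1.mono hI1)
    have a2 : IsPreconnected (γ2 '' Icc (-r) r) := isPreconnected_Icc.image _ hc2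
    have a3 : IsPreconnected (γ1 '' Icc (-r) (-r2)) := isPreconnected_Icc.image _ (hc1.mono hI2)
    have k1 : γ1 r ∈ γ1 '' Icc r2 r := mem_image_of_mem _ ⟨hr2r, le_rfl⟩
    have k2 : γ2 r ∈ γ2 '' Icc (-r) r := mem_image_of_mem _ hrr
    have k3 : γ2 (-r) ∈ γ2 '' Icc (-r) r := mem_image_of_mem _ hll
    have k4 : γ1 (-r) ∈ γ1 '' Icc (-r) (-r2) := mem_image_of_mem _ ⟨le_rfl, by linarith⟩
    have b1 := IsPreconnected.union (γ1 r) k1 hPR1 a1 hPRp
    have b2 := IsPreconnected.union (γ2 r) (Or.inr hPR2) k2 b1 a2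
    have b3 := IsPreconnected.union (γ2 (-r)) (Or.inr k3) hPL2 b2 hPLp
    exact IsPreconnected.union (γ1 (-r)) (Or.inr hPL1) k4 b3 a3
  have hseg : ∀ z ∈ Γ', ((z - w1) / v).re = 0 → ε < |((z - w1) / v).im| := by
    intro z hz hz0
    by_contra hle
    rw [not_lt] at hle
    set ζ : ℂ := (z - w1) / v with hζ
    have hzζ : w1 + v * ζ = z := by rw [hζ, mul_div_cancel₀ _ hv0]; ring
    have hζn : ‖ζ‖ ≤ ε := by
      have := norm_le_abs_re_add_abs_im ζ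
      rw [hz0, abs_zero, zero_add] at this
      exact this.trans hle
    obtain ⟨c1, c2, c3, c4⟩ := hεb ζ hζn
    rw [hzζ] at c1 c2 c3 c4
    have c5 : |(F z).re - p.re| < κ := lt_of_le_of_lt (by
      have := abs_re_le_norm (F z - p); simpa using this) c3
    have hκr2 : κ ≤ r2 := min_le_left _ _
    have hκr : κ ≤ r / 4 := min_le_right _ _
    rcases hz with (((hz | hz) | hz) | hz) | hz
    · obtain ⟨τ, hτ, rfl⟩ := hz
      rw [hF1 τ (hI1 hτ), add_sub_cancel_left, Complex.norm_real, Real.norm_eq_abs] at c3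
      have := le_abs_self τ
      linarith [hτ.1]
    · have c6 := (hPRs hz).2
      rw [abs_lt] at c5
      linarith [c5.2, htR.1]
    · obtain ⟨τ, hτ, rfl⟩ := hz
      exact Set.disjoint_left.1 hN c1 (hgb2 _ (hball τ hτ).2).2.2.1
    · have c6 := (hPLs hz).2
      rw [abs_lt] at c5
      linarith [c5.1, htL.2]
    · obtain ⟨τ, hτ, rfl⟩ := hz
      rw [hF1 τ (hI2 hτ), add_sub_cancel_left, Complex.norm_real, Real.norm_eq_abs] at c3
      have := neg_abs_le τ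
      linarith [hτ.2]
  have hlog := not_hasLg hΓ'p hv0 hε hr2 hseg (hc1.mono hI3) h10 hpos hneg
    (Or.inr ⟨-r2, ⟨by linarith, le_rfl⟩, rfl⟩)
    (Or.inl (Or.inl (Or.inl (Or.inl ⟨r2, ⟨le_rfl, hr2r⟩, rfl⟩))))
  set Γ : Set ℂ := Γ' ∪ γ1 '' Icc (-r2) r2 with hΓ
  have hΓc : IsCompact Γ := by
    refine IsCompact.union ?_ (isCompact_Icc.image_of_continuousOn (hc1.mono hI3))
    exact ((((isCompact_Icc.image_of_continuousOn (hc1.mono hI1)).union hPRc).union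
      (isCompact_Icc.image_of_continuousOn hc2)).union hPLc).union
      (isCompact_Icc.image_of_continuousOn (hc1.mono hI2))
  -- classification of the points of Γ
  have hcl : ∀ z ∈ Γ, z ∈ PR ∨ z ∈ PL ∨ (∃ τ ∈ Icc (-r) r, γ1 τ = z) ∨
      ∃ τ ∈ Icc (-r) r, γ2 τ = z := by
    rintro z (((((hz | hz) | hz) | hz) | hz) | hz)
    · obtain ⟨τ, hτ, rfl⟩ := hz; exact Or.inr (Or.inr (Or.inl ⟨τ, hI1 hτ, rfl⟩))
    · exact Or.inl hz
    · obtain ⟨τ, hτ, rfl⟩ := hz; exact Or.inr (Or.inr (Or.inr ⟨τ, hτ, rfl⟩))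
    · exact Or.inr (Or.inl hz)
    · obtain ⟨τ, hτ, rfl⟩ := hz; exact Or.inr (Or.inr (Or.inl ⟨τ, hI2 hτ, rfl⟩))
    · obtain ⟨τ, hτ, rfl⟩ := hz; exact Or.inr (Or.inr (Or.inl ⟨τ, hI3 hτ, rfl⟩))
  have hΓU : Γ ⊆ U := by
    intro z hz
    rcases hcl z hz with h | h | ⟨τ, hτ, rfl⟩ | ⟨τ, hτ, rfl⟩
    · exact (hPRs h).1
    · exact (hPLs h).1
    · exact hU1 τ hτ
    · exact hU2 τ hτ
  have hrη : r / 4 + r / 4 = r / 2 := by ring
  have hstrip : ∀ z ∈ Γ, |(F z).re - p.re| ≤ r / 4 + r / 4 →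
      (∃ τ ∈ Icc (-r) r, γ1 τ = z) ∨ ∃ τ ∈ Icc (-r) r, γ2 τ = z := by
    intro z hz hzs
    rw [hrη, abs_le] at hzs
    rcases hcl z hz with h | h | h | h
    · have := (hPRs h).2
      linarith [hzs.2, htR.1]
    · have := (hPLs h).2
      linarith [hzs.1, htL.2]
    · exact Or.inl h
    · exact Or.inr h
  have hstrip' : ∀ z ∈ Γ, |(F z).re - p.re| ≤ r / 4 + r / 4 → (F z).im = p.im := by
    intro z hz hzs
    rcases hstrip z hz hzs with ⟨τ, hτ, rfl⟩ | ⟨τ, hτ, rfl⟩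
    · rw [hF1 τ hτ, him]
    · rw [hF2 τ hτ, him]
  have hnull : volume (Γ ∩ {z | |(F z).re - p.re| ≤ r / 4 + r / 4}) = 0 := by
    have hn : ∀ (g : ℂ → ℂ) (R' : ℝ), (∀ q ∈ ball p R', DifferentiableAt ℂ g q) →
        volume (g '' (ball p R' ∩ {z : ℂ | z.im = p.im})) = 0 := by
      intro g R' hg
      refine addHaar_image_eq_zero_of_differentiableOn_of_addHaar_eq_zero volume ?_
        (measure_mono_null inter_subset_right (volume_line p.im))
      intro q hq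
      exact ((hg q hq.1).restrictScalars ℝ).differentiableWithinAt
    refine measure_mono_null ?_ (measure_union_null (hn g1 R1 fun q hq => (hgb1 q hq).2.2.2)
      (hn g2 R2 fun q hq => (hgb2 q hq).2.2.2))
    rintro z ⟨hz, hzs⟩
    rcases hstrip z hz hzs with ⟨τ, hτ, rfl⟩ | ⟨τ, hτ, rfl⟩
    · exact Or.inl ⟨p + τ, ⟨(hball τ hτ).1, him τ⟩, rfl⟩
    · exact Or.inr ⟨p + τ, ⟨(hball τ hτ).2, him τ⟩, rfl⟩
  -- the two sides are off Γ
  have hside : ∀ ζ : ℂ, ζ.re = 0 → 0 < ‖ζ‖ → |ζ.im| ≤ ε → w1 + v * ζ ∉ Γ := by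
    intro ζ hζ hζ0 hζε hz
    have hq : ((w1 + v * ζ) - w1) / v = ζ := by
      rw [add_sub_cancel_left, mul_div_cancel_left₀ _ hv0]
    rcases hz with hz | ⟨τ, hτ, hz⟩
    · have := hseg _ hz (by rw [hq]; exact hζ)
      rw [hq] at this
      linarith
    · have h3 : ((γ1 τ - w1) / v).re = 0 := by
        rw [hz, hq]; exact hζ
      rcases lt_trichotomy τ 0 with h | h | h
      · exact absurd h3 (hneg τ ⟨hτ.1, h⟩).ne
      · subst h
        rw [h10] at hz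
        have : v * ζ = 0 := by
          have := hz
          linear_combination this.symm
        rcases mul_eq_zero.1 this with h | h
        · exact hv0 h
        · rw [h, norm_zero] at hζ0; exact lt_irrefl _ hζ0
      · exact absurd h3 (hpos τ ⟨h, hτ.2⟩).ne'
  have hIε : ‖I * (ε : ℂ)‖ = ε := by
    rw [norm_mul, Complex.norm_I, one_mul, Complex.norm_real, Real.norm_of_nonneg hε.le]
  have hIre : (I * (ε : ℂ)).re = 0 := by simp
  have hIim : (I * (ε : ℂ)).im = ε := by simp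
  have hminus : w1 - v * (I * ε) = w1 + v * (-(I * ε)) := by ring
  obtain ⟨e, he, B, hBo, hBb, heB, hfr, hBd⟩ := exists_bounded hΓc
    ⟨γ1 r2, Or.inl (Or.inl (Or.inl (Or.inl (Or.inl ⟨r2, ⟨le_rfl, hr2r⟩, rfl⟩))))⟩
    (hside (I * ε) hIre (by rw [hIε]; exact hε) (by rw [hIim, abs_of_pos hε]))
    (by
      rw [hminus]
      exact hside (-(I * ε)) (by rw [neg_re, hIre, neg_zero]) (by rw [norm_neg, hIε]; exact hε)
        (by rw [neg_im, hIim, abs_neg, abs_of_pos hε])) hlog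
  obtain ⟨ζ, hζn, hζe⟩ : ∃ ζ : ℂ, ‖ζ‖ ≤ ε ∧ e = w1 + v * ζ := by
    rcases he with he | he
    · exact ⟨I * ε, hIε.le, he⟩
    · exact ⟨-(I * ε), by rw [norm_neg, hIε], by rw [he, hminus]⟩
  obtain ⟨-, d2, d3, d4⟩ := hεb ζ hζn
  rw [← hζe] at d2 d3 d4
  refine no_barrier hU hF hE hEL hΓc hΓU hBo hBb hfr hBd (t := p.re) (s := p.im)
    (r := r / 4) (η := r / 4) (by positivity) (by positivity) hstrip' hnull heB d2 ?_ d4
  have := abs_re_le_norm (F e - p)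
  rw [sub_re] at this
  exact lt_of_le_of_lt this (lt_of_lt_of_le d3 (min_le_right _ _))

/-- **univalence from the Euler-Lagrange inequality and connectedness** -/
theorem injOn_of_EL (hU : IsOpen U) (hUc : IsPreconnected U) (hF : DifferentiableOn ℂ F U)
    (hE : ∀ R : ℝ, IntegrableOn (fun z => ‖deriv F z‖ ^ 2) (U ∩ ball 0 R))
    (hEL : ELIneq U F) (hnc : ∃ z ∈ U, deriv F z ≠ 0)
    (hC1 : ∀ a b : ℝ, a < b → ∃ t ∈ Ioo a b, IsPreconnected {z | z ∈ U ∧ t < (F z).re})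
    (hC2 : ∀ a b : ℝ, a < b → ∃ t ∈ Ioo a b, IsPreconnected {z | z ∈ U ∧ (F z).re < t}) :
    InjOn F U := by
  intro z1 hz1 z2 hz2 hFe
  by_contra hne
  obtain ⟨N1, N2, hN1, hN2, hwN1, hwN2, hN⟩ := t2_separation hne
  have han : AnalyticOnNhd ℂ F U := hF.analyticOnNhd hU
  have hand : AnalyticOnNhd ℂ (deriv F) U := han.deriv
  have hiso : ∀ z ∈ U, ∀ᶠ w in 𝓝[≠] z, deriv F w ≠ 0 := by
    intro z hz
    rcases (hand z hz).eventually_eq_zero_or_eventually_ne_zero with h | h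
    · exfalso
      obtain ⟨w, hw, hw0⟩ := hnc
      exact hw0 (hand.eqOn_zero_of_preconnected_of_eventuallyEq_zero hUc hz h hw)
    · exact h
  have hopen : ∀ z ∈ U, ∀ N : Set ℂ, IsOpen N → z ∈ N →
      ∃ N', N' ⊆ U ∩ N ∧ (∀ w ∈ N', w ≠ z → deriv F w ≠ 0) ∧ F '' N' ∈ 𝓝 (F z) := by
    intro z hz N hN hzN
    have h3 : ∀ᶠ w in 𝓝 z, w ∈ U ∩ N ∧ (w ≠ z → deriv F w ≠ 0) := by
      have h4 := eventually_nhdsWithin_iff.1 (hiso z hz)
      filter_upwards [(hU.inter hN).mem_nhds ⟨hz, hzN⟩, h4] with w hw1 hw2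
      exact ⟨hw1, hw2⟩
    refine ⟨{w | w ∈ U ∩ N ∧ (w ≠ z → deriv F w ≠ 0)}, fun w hw => hw.1, fun w hw => hw.2, ?_⟩
    rcases (han z hz).eventually_constant_or_nhds_le_map_nhds with h | h
    · exfalso
      have h5 : ∀ᶠ w in 𝓝 z, deriv F w = 0 := by
        filter_upwards [h.eventually_nhds] with w hw
        have : F =ᶠ[𝓝 w] fun _ => F z := hw
        rw [this.deriv_eq]; simp
      have h6 := (hiso z hz).and (h5.filter_mono nhdsWithin_le_nhds)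
      obtain ⟨w, hw1, hw2⟩ := h6.exists
      exact hw1 hw2
    · exact h (image_mem_map h3)
  obtain ⟨M1, hM1, hM1d, hM1i⟩ := hopen z1 hz1 N1 hN1 hwN1
  obtain ⟨M2, hM2, hM2d, hM2i⟩ := hopen z2 hz2 N2 hN2 hwN2
  rw [← hFe] at hM2i
  have h7 : ∀ᶠ q in 𝓝[≠] (F z1), q ∈ F '' M1 ∧ q ∈ F '' M2 ∧ q ≠ F z1 := by
    filter_upwards [mem_nhdsWithin_of_mem_nhds hM1i, mem_nhdsWithin_of_mem_nhds hM2i,
      self_mem_nhdsWithin] with q a1 a2 a3
    exact ⟨a1, a2, a3⟩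
  obtain ⟨q, ⟨w1, hw1, hq1⟩, ⟨w2, hw2, hq2⟩, hq⟩ := h7.exists
  have hw1z : w1 ≠ z1 := fun h => hq (by rw [← hq1, h])
  have hw2z : w2 ≠ z2 := fun h => hq (by rw [← hq2, h, ← hFe])
  exact core hU hF hE hEL hC1 hC2 (hM1 hw1).1 (hM2 hw2).1
    (fun h => Set.disjoint_left.1 hN (hM1 hw1).2 (by rw [h]; exact (hM2 hw2).2))
    (by rw [hq1, hq2]) (hM1d w1 hw1 hw1z) (hM2d w2 hw2 hw2z)

end Crest.Agent.R105.Uv_913
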