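import Crest.Agent.R105.SkA1_8
import Crest.Agent.R105.N8a_602
import Crest.Agent.R105.Ni2_459
import Crest.Agent.R105.Uw3_913

/-!
# Row 105, S0138 (T-frame), nodes E8 + E9 over `SkA_8.Pk` (helper913)

* `ni_near` : null image of a function which near every component is `G (φ)` or a fixed constant
* `pkT`     : `SkA_8.Pk` gives 602's Euler-Lagrange package
* `elineq`  : `SkA_8.Pk Y x0 a φ F → ELIneq Yᶜ F`
* `injOn`   : `SkA_8.Pk Y x0 a φ F → InjOn F Yᶜ`
-/

set_option autoImplicit false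

open MeasureTheory Set Filter Topology Metric
open scoped NNReal ENNReal ContDiff

namespace Crest.Agent.R105.Uw5_913

open Crest.AnalysisR Bd_775 IfB_641 Tc_808 Ni_459 Grd_782
open Crest.Agent.R105.Uv_913 (Lc ELIneq)
open Crest.Agent.R105.Uw_913 (inc)

variable {Y : Set ℂ} {x0 φ f b : ℂ → ℝ} {z : ℂ} {O : Set ℂ}

/-- the honest value of a function with values `G (b)` or `s` -/
theorem honest_mem (hY : IsExteriorDomain Yᶜ) (lb : LB b) (lf : LB f) {G : ℝ → ℝ}
    (hG : Continuous G) {s : ℝ} (hO : Nb Y z O) (h : ∀ w ∈ O, w ∉ Y → f w = G (b w) ∨ f w = s)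
    (hb : lo Y b z = up Y b z) (hf : lo Y f z = up Y f z) :
    lo Y f z = G (lo Y b z) ∨ lo Y f z = s := by
  by_contra hcon
  push Not at hcon
  obtain ⟨h1, h2⟩ := hcon
  set ε : ℝ := min |lo Y f z - G (lo Y b z)| |lo Y f z - s| / 2 with hε
  have hε0 : 0 < ε := by
    rw [hε]
    have := lt_min (abs_pos.2 (sub_ne_zero.2 h1)) (abs_pos.2 (sub_ne_zero.2 h2))
    linarith
  have e1 : 2 * ε ≤ |lo Y f z - G (lo Y b z)| := by
    rw [hε]; linarith [min_le_left |lo Y f z - G (lo Y b z)| |lo Y f z - s|]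
  have e2 : 2 * ε ≤ |lo Y f z - s| := by
    rw [hε]; linarith [min_le_right |lo Y f z - G (lo Y b z)| |lo Y f z - s|]
  obtain ⟨δ, hδ, hGδ⟩ := Metric.continuous_iff.1 hG (lo Y b z) ε hε0
  obtain ⟨O1, hO1, g1⟩ := exists_lt_of_up_lt hY lb (c := lo Y b z + δ) (by rw [← hb]; linarith)
  obtain ⟨O2, hO2, g2⟩ := exists_gt_of_lt_lo hY lb (z := z) (c := lo Y b z - δ) (by linarith)
  obtain ⟨O3, hO3, g3⟩ := exists_lt_of_up_lt hY lf (c := lo Y f z + ε) (by rw [← hf]; linarith)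
  obtain ⟨O4, hO4, g4⟩ := exists_gt_of_lt_lo hY lf (z := z) (c := lo Y f z - ε) (by linarith)
  obtain ⟨w, hw, hwY⟩ := ((((hO.inter hO1).inter hO2).inter hO3).inter hO4).nonempty hY
  obtain ⟨⟨⟨⟨w0, w1⟩, w2⟩, w3⟩, w4⟩ := hw
  have k1 := g1 w w1 hwY
  have k2 := g2 w w2 hwY
  have k3 := g3 w w3 hwY
  have k4 := g4 w w4 hwY
  have k5 : |lo Y f z - f w| < ε := by rw [abs_lt]; constructor <;> linarith
  rcases h w w0 hwY with h3 | h3
  · have k6 : dist (b w) (lo Y b z) < δ := by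
      rw [Real.dist_eq, abs_lt]; constructor <;> linarith
    have k7 := hGδ _ k6
    rw [Real.dist_eq, ← h3] at k7
    have : |lo Y f z - G (lo Y b z)| ≤ |lo Y f z - f w| + |f w - G (lo Y b z)| :=
      abs_sub_le _ _ _
    linarith
  · rw [h3] at k5
    linarith

/-- the components with a jump are countably many -/
theorem countable_jmp (h : TT Y φ) : (Jmp Y φ).Countable := by
  have h1 := h.sum.countable_support
  refine h1.mono fun K hK => ?_
  simp only [Function.mem_support]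
  exact pow_ne_zero 2 hK

/-- null image of a function which near every component is `G (φ)` or `s` -/
theorem ni_near (hY : IsExteriorDomain Yᶜ) {a : ℂ → ℝ} (hφ : TT Y φ) (hni : NI Y a φ)
    (hf : ∃ M, ∀ z, |f z| ≤ M) {G : ℕ → ℝ → ℝ} (hG : ∀ n, ∃ L, LipschitzWith L (G n)) {s : ℝ}
    (h : ∀ z ∈ Y, ∃ n, ∃ O, Nb Y z O ∧ ∀ w ∈ O, w ∉ Y → f w = G n (φ w) ∨ f w = s) :
    NI Y a f := by
  refine NI.of_rule (b := fun _ => φ) (fun _ => hni) hG (countable_singleton s)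
    (countable_jmp hφ) ?_
  intro z hz hJ _ h2
  obtain ⟨n, O, hO, h3⟩ := h z hz
  have hl : lo Y φ z = up Y φ z := by
    have h4 := osc_eq' hY (LB.of_bdd hφ.q.bdd) hz
    have h5 : Tc_808.osc Y φ (Cmp.of hz).1 = 0 := by
      by_contra hcon
      exact hJ hcon
    have h6 : Tc_808.osc Y φ (connectedComponentIn Y z) = 0 := h5
    linarith
  obtain ⟨L, hL⟩ := hG n
  rcases honest_mem hY (LB.of_bdd hφ.q.bdd) (LB.of_bdd hf) hL.continuous hO h3 hl h2 with h4 | h4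
  · exact Or.inl ⟨0, n, hl, h4⟩
  · exact Or.inr h4

/-- a test function has finitely many values on `Y` -/
theorem exists_vals (hY : IsExteriorDomain Yᶜ) {c : ℂ → ℝ} (hc : Lc Yᶜ c) :
    ∃ e : ℕ → ℝ, ∀ z ∈ Y, ∃ n, c z = e n := by
  have hYc : IsCompact Y := cpt_of hY
  obtain ⟨T, hT⟩ := hYc.elim_nhds_subcover' (fun z _ => {w | c w = c z})
    (fun z hz => hc.2.2 z (fun h => h hz))
  have hcount : (insert (0 : ℝ) ((fun x : Y => c x) '' (T : Set Y))).Countable :=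
    (T.finite_toSet.countable.image _).insert _
  obtain ⟨e, he⟩ := hcount.exists_eq_range (insert_nonempty _ _)
  refine ⟨e, fun z hz => ?_⟩
  obtain ⟨x, hx, hzx⟩ := mem_iUnion₂.1 (hT hz)
  have h1 : c z ∈ range e := by
    rw [← he]
    exact mem_insert_of_mem _ ⟨x, hx, (show c z = c x from hzx).symm⟩
  obtain ⟨n, hn⟩ := h1
  exact ⟨n, hn.symm⟩

theorem near_test (hx : X0 Y x0) {c : ℂ → ℝ} (hc : Lc Yᶜ c)
    (hz : z ∈ Y) : ∃ O, Nb Y z O ∧ ∀ w ∈ O, c w = c z ∧ x0 w = 0 := by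
  obtain ⟨k, O, hO, hKO, h1⟩ := N8_602.near_cmp hx (Uv_913.lc_of_Lc hc) (Cmp.of hz)
  have hzO : z ∈ O := hKO (mem_connectedComponentIn hz)
  refine ⟨O, nb_of_mem hz hO hKO, fun w hw => ⟨?_, (h1 w hw).2⟩⟩
  rw [(h1 w hw).1, (h1 z hzO).1]

theorem ni_test1 (hY : IsExteriorDomain Yᶜ) {a c : ℂ → ℝ} (hφ : TT Y φ) (hni : NI Y a φ)
    (hx : X0 Y x0) (hc : Lc Yᶜ c) (t : ℝ) : NI Y a (fun z => φ z + t * c z) := by
  obtain ⟨e, he⟩ := exists_vals hY hc
  have hlc := Uv_913.lc_of_Lc hc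
  obtain ⟨M, hM⟩ := hφ.q.bdd
  obtain ⟨N, hN⟩ := hlc.bdd
  refine ni_near (G := fun n r => r + t * e n) (s := 0) hY hφ hni ⟨M + |t| * N, fun z => ?_⟩
    (fun n => ⟨1, ?_⟩) ?_
  · refine (abs_add_le _ _).trans (add_le_add (hM z) ?_)
    rw [abs_mul]; exact mul_le_mul_of_nonneg_left (hN z) (abs_nonneg _)
  · refine LipschitzWith.of_dist_le_mul fun x y => ?_
    rw [NNReal.coe_one, one_mul, Real.dist_eq, Real.dist_eq]
    apply le_of_eq; congr 1; ring
  · intro z hz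
    obtain ⟨n, hn⟩ := he z hz
    obtain ⟨O, hO, h1⟩ := near_test hx hc hz
    refine ⟨n, O, hO, fun w hw _ => Or.inl ?_⟩
    rw [(h1 w hw).1, hn]

theorem ni_test2 (hY : IsExteriorDomain Yᶜ) {a c : ℂ → ℝ} (hφ : TT Y φ) (hni : NI Y a φ)
    (hx : X0 Y x0) (hc : Lc Yᶜ c) {h : ℝ → ℝ} {K : ℝ≥0} (hh : LipschitzWith K h) (t : ℝ) :
    NI Y a (fun z => φ z + t * (c z * h (x0 z + φ z))) := by
  obtain ⟨e, he⟩ := exists_vals hY hc
  have hYc : IsCompact Y := cpt_of hY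
  have hQ := IfB_641.Q.smul' hYc.isClosed (N8_602.q_test' hYc.isClosed hx hφ.q hc hh) t
  obtain ⟨M, hM⟩ := hφ.q.bdd
  obtain ⟨N, hN⟩ := hQ.bdd
  refine ni_near (G := fun n r => r + t * (e n * h r)) (s := 0) hY hφ hni
    ⟨M + N, fun z => (abs_add_le _ _).trans (add_le_add (hM z) (hN z))⟩ (fun n => ?_) ?_
  · have h1 : LipschitzWith (‖t * e n‖₊ * K) (fun r => (t * e n) * h r) := by
      refine LipschitzWith.of_dist_le_mul fun x y => ?_
      have h2 := hh.dist_le_mul x y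
      rw [Real.dist_eq] at h2 ⊢
      rw [← mul_sub, abs_mul, NNReal.coe_mul, coe_nnnorm, Real.norm_eq_abs, mul_assoc]
      exact mul_le_mul_of_nonneg_left h2 (abs_nonneg _)
    have h3 := LipschitzWith.id.add h1
    have h4 : (fun r => r + t * (e n * h r)) = fun r => id r + (t * e n) * h r := by
      funext r; simp only [id]; ring
    exact ⟨1 + ‖t * e n‖₊ * K, h4 ▸ h3⟩
  · intro z hz
    obtain ⟨n, hn⟩ := he z hz
    obtain ⟨O, hO, h1⟩ := near_test hx hc hz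
    refine ⟨n, O, hO, fun w hw _ => Or.inl ?_⟩
    rw [(h1 w hw).1, (h1 w hw).2, hn, zero_add]

variable {a : ℕ → ℂ → ℝ} {F : ℂ → ℂ}

theorem tt_of_osc {v : ℂ → ℝ} (hφ : TT Y φ) (hv : Q Y v)
    (hosc : ∀ K : Cmp Y, Tc_808.osc Y v K.1 ≤ Tc_808.osc Y φ K.1) : TT Y v :=
  ⟨hv, Summable.of_nonneg_of_le (fun _ => sq_nonneg _)
    (fun K => pow_le_pow_left₀ (Tc_808.osc_nonneg _ _ _) (hosc K) 2) hφ.sum⟩

theorem min_of (h : SkA_8.Pk Y x0 a φ F) {v : ℂ → ℝ} (hv : Q Y v)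
    (hosc : ∀ K : Cmp Y, Tc_808.osc Y v K.1 ≤ Tc_808.osc Y φ K.1) (hni : ∀ i, NI Y (a i) v) :
    J Y x0 φ + ∑' K : Cmp Y, Tc_808.osc Y φ K.1 ^ 2 ≤
      J Y x0 v + ∑' K : Cmp Y, Tc_808.osc Y v K.1 ^ 2 :=
  h.min v (tt_of_osc h.tt hv hosc) hni

/-- **Euler-Lagrange package (602) from the skeleton package (8)** -/
theorem pkT (h : SkA_8.Pk Y x0 a φ F) : N8_602.PkT Y x0 φ := by
  have hYc : IsCompact Y := cpt_of h.hY
  have hY := hYc.isClosed
  have hφ := h.tt.q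
  refine ⟨hYc, h.hx, hφ, ?_, ?_⟩
  · have key : ∀ c, Lc Yᶜ c → di Y φ c ≤ ∫ z, c z * lap x0 z := by
      intro c hc
      have hlc : LC Y c := Uv_913.lc_of_Lc hc
      refine N8_602.fv1 hY h.hx h.tt hlc.q one_pos
        (fun t _ K => N8_602.osc_shift h.hx hφ hlc t K) fun t _ => ?_
      rw [N8_602.JT_eq, N8_602.JT_eq]
      exact min_of h (hφ.add hY (IfB_641.Q.smul' hY hlc.q (-t)))
        (fun K => N8_602.osc_shift h.hx hφ hlc t K)
        fun i => ni_test1 h.hY h.tt (h.com i) h.hx hc (-t)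
    intro c hc
    refine le_antisymm (key c hc) ?_
    have hc' : Lc Yᶜ (fun z => - c z) :=
      ⟨hc.1.neg, hc.2.1.neg, fun z hz => (hc.2.2 z hz).mono fun w hw => by
        simp only []; rw [hw]⟩
    have h1 := key _ hc'
    have e1 : di Y φ (fun z => - c z) = - di Y φ c := by
      unfold di
      rw [← integral_neg]
      refine integral_congr_ae (Eventually.of_forall fun z => ?_)
      show gx φ z * gx (fun z => - c z) z + gy φ z * gy (fun z => - c z) z =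
        -(gx φ z * gx c z + gy φ z * gy c z)
      have e2 : gx (fun z => - c z) z = - gx c z := by
        unfold Bd_775.gx; rw [fderiv_fun_neg]; rfl
      have e3 : gy (fun z => - c z) z = - gy c z := by
        unfold Bd_775.gy; rw [fderiv_fun_neg]; rfl
      rw [e2, e3]; ring
    have e2 : ∫ z, (- c z) * lap x0 z = - ∫ z, c z * lap x0 z := by
      rw [← integral_neg]
      refine integral_congr_ae (Eventually.of_forall fun z => ?_)
      simp only []; ring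
    rw [e1, e2] at h1
    linarith
  · intro c hc hc0 g hh hm hd
    have hlc : LC Y c := Uv_913.lc_of_Lc hc
    obtain ⟨L, hL, hL'⟩ := N8_602.lipschitz_of hh hm hd
    obtain ⟨M, hMb⟩ := hlc.bdd
    have hM0 : 0 ≤ M := (abs_nonneg _).trans (hMb 0)
    have hpos : 0 < M * L + 1 := by positivity
    have hosc : ∀ t ∈ Ioc 0 (1 / (M * L + 1)), ∀ K : Cmp Y,
        Tc_808.osc Y (fun z => φ z + (-t) * (c z * g (x0 z + φ z))) K.1 ≤
          Tc_808.osc Y φ K.1 := by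
      intro t ht K
      refine N8_602.osc_test h.hx hφ hlc hMb hc0 hm hL' ht.1.le ?_ K
      have h1 : t * (M * L + 1) ≤ 1 := by
        have := mul_le_mul_of_nonneg_right ht.2 hpos.le
        rwa [one_div, inv_mul_cancel₀ hpos.ne'] at this
      have h2 : t * (M * L + 1) = t * (M * L) + t := by ring
      have h3 : 0 < t := ht.1
      linarith
    refine N8_602.fv1 hY h.hx h.tt (N8_602.q_test' hY h.hx hφ hc hL) (t0 := 1 / (M * L + 1))
      (by positivity) hosc fun t ht => ?_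
    rw [N8_602.JT_eq, N8_602.JT_eq]
    exact min_of h (hφ.add hY (IfB_641.Q.smul' hY (N8_602.q_test' hY h.hx hφ hc hL) (-t)))
      (hosc t ht) fun i => ni_test2 h.hY h.tt (h.com i) h.hx hc hL (-t)

theorem cpl (h : SkA_8.Pk Y x0 a φ F) : Cpl Y x0 φ F := ⟨h.hol, h.re, h.inf⟩

/-- **E8** : the Euler-Lagrange inequality for `F` -/
theorem elineq (h : SkA_8.Pk Y x0 a φ F) : ELIneq Yᶜ F := N8_602.elineq (pkT h) (cpl h)

/-- **E9** : univalence -/
theorem injOn (h : SkA_8.Pk Y x0 a φ F) : InjOn F Yᶜ := by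
  have hYc : IsCompact Y := cpt_of h.hY
  have hYe : IsExteriorDomain Yᶜ := h.hY
  have e : Yᶜᶜ = Y := compl_compl Y
  have hx' : X0 Yᶜᶜ x0 := by rw [e]; exact h.hx
  have ht' : TT Yᶜᶜ φ := by rw [e]; exact h.tt
  refine Uw_913.injOn_of_T_min hYe h.hol hx' ht' h.re h.inf (elineq h) ?_
  intro σ hσ t z0 hz0 ht V hV hVb
  have hfc : ContinuousOn (fun z => σ * (F z).re) Yᶜ :=
    continuousOn_const.mul (Complex.continuous_re.comp_continuousOn h.hol.continuousOn)
  have hσ2 : σ * σ = 1 := by rcases hσ with rfl | rfl <;> norm_num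
  have hWo : IsOpen {z | z ∈ Yᶜ ∧ t < σ * (F z).re} :=
    hfc.isOpen_inter_preimage hYe.1 isOpen_Ioi
  have hVo : IsOpen V := by rw [hV]; exact hWo.connectedComponentIn
  have hVW : V ⊆ {z | z ∈ Yᶜ ∧ t < σ * (F z).re} := by
    rw [hV]; exact connectedComponentIn_subset _ _
  have hVU : V ⊆ Yᶜ := fun z hz => (hVW hz).1
  have hfr : ∀ z ∈ Yᶜ, z ∈ frontier V → (F z).re = σ * t := by
    intro z hz hzf
    rw [hV] at hzf
    have h1 := Uw_913.frontier_cc hYe.1 hfc z0 z hz hzf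
    rw [← h1, ← mul_assoc, hσ2, one_mul]
  have hsg : ∀ z ∈ V, 0 ≤ σ * ((F z).re - σ * t) := by
    intro z hz
    have h1 := (hVW hz).2
    rw [mul_sub, ← mul_assoc, hσ2, one_mul]
    linarith
  have hTT := Uw_913.trunc_TT hYe h.hol hx' ht' h.re hVo hVU hVb hfr hσ hsg
  have hni : ∀ i, NI Y (a i) (fun z => φ z + (-1) * inc V F (σ * t) z) := by
    intro i
    rw [e] at hTT
    refine ni_near (G := fun _ r => r) (s := σ * t) h.hY h.tt (h.com i) hTT.q.bdd
      (fun _ => ⟨1, LipschitzWith.id⟩) ?_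
    intro z hz
    have hzx : z ∉ tsupport x0 := fun h' => h.hx.zero h' hz
    refine ⟨0, (tsupport x0)ᶜ, nb_of_mem hz (isClosed_tsupport x0).isOpen_compl
      (fun w hw h' => h.hx.zero h' (connectedComponentIn_subset _ _ hw)), fun w hw hwY => ?_⟩
    have h0 : x0 w = 0 := image_eq_zero_of_notMem_tsupport hw
    have h1 := h.re w hwY
    rw [h0, zero_add] at h1
    by_cases hwV : w ∈ V
    · right
      rw [Uw_913.inc_of_mem hwV, h1]; ring
    · left
      rw [Uw_913.inc_of_notMem hwV]; ring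
  have key := h.min _ (by rw [e] at hTT; exact hTT) hni
  unfold Grd_782.TJ at key
  rw [e]
  exact key

end Crest.Agent.R105.Uw5_913
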