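import Crest.Agent.R105.Tra4_937
import Crest.Agent.R105.Stk1_939

/-!
# Vertical absolute continuity: the slice identity (helper937, task 2338)
-/

set_option autoImplicit false

open Set Filter MeasureTheory
open scoped Topology NNReal ENNReal ContDiff
open Crest.Agent.R105.Tra_937 (gx gy en wdg)

namespace Crest.Agent.R105.Vac_937

noncomputable section

theorem measurable_gx (u : ℂ → ℝ) : Measurable (gx u) := measurable_fderiv_apply_const ℝ u 1
theorem measurable_gy (u : ℂ → ℝ) : Measurable (gy u) :=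
  measurable_fderiv_apply_const ℝ u Complex.I

theorem gx_zero_of_ev {u : ℂ → ℝ} {z : ℂ} {c : ℝ} (h : ∀ᶠ w in 𝓝 z, u w = c) : gx u z = 0 := by
  have : u =ᶠ[𝓝 z] fun _ => c := h
  unfold gx; rw [this.fderiv_eq]; simp

theorem gy_zero_of_ev {u : ℂ → ℝ} {z : ℂ} {c : ℝ} (h : ∀ᶠ w in 𝓝 z, u w = c) : gy u z = 0 := by
  have : u =ᶠ[𝓝 z] fun _ => c := h
  unfold gy; rw [this.fderiv_eq]; simp

theorem abs_gx_le (u : ℂ → ℝ) (z : ℂ) : |gx u z| ≤ 1 + en u z := by
  unfold en
  nlinarith [sq_nonneg (|gx u z| - 1), sq_abs (gx u z), abs_nonneg (gx u z), sq_nonneg (gy u z)]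

theorem abs_gy_le (u : ℂ → ℝ) (z : ℂ) : |gy u z| ≤ 1 + en u z := by
  unfold en
  nlinarith [sq_nonneg (|gy u z| - 1), sq_abs (gy u z), abs_nonneg (gy u z), sq_nonneg (gx u z)]

/-- finite energy functions have gradients in `L¹_loc`. -/
theorem integrableOn_gx {V : Set ℂ} {u : ℂ → ℝ} (hu : IntegrableOn (en u) V) {K : Set ℂ}
    (hK : IsCompact K) : IntegrableOn (gx u) (V ∩ K) := by
  have h1 : IntegrableOn (fun z => 1 + en u z) (V ∩ K) := by
    refine Integrable.add ?_ (hu.mono_set inter_subset_left)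
    exact (integrableOn_const hK.measure_lt_top.ne).mono_set inter_subset_right
  refine Integrable.mono' h1 (measurable_gx u).aestronglyMeasurable ?_
  exact Eventually.of_forall fun z => abs_gx_le u z

theorem integrableOn_gy {V : Set ℂ} {u : ℂ → ℝ} (hu : IntegrableOn (en u) V) {K : Set ℂ}
    (hK : IsCompact K) : IntegrableOn (gy u) (V ∩ K) := by
  have h1 : IntegrableOn (fun z => 1 + en u z) (V ∩ K) := by
    refine Integrable.add ?_ (hu.mono_set inter_subset_left)
    exact (integrableOn_const hK.measure_lt_top.ne).mono_set inter_subset_right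
  refine Integrable.mono' h1 (measurable_gy u).aestronglyMeasurable ?_
  exact Eventually.of_forall fun z => abs_gy_le u z

/-- weight with compact support times a function integrable on compacts. -/
theorem integrableOn_mul {V : Set ℂ} (hV : MeasurableSet V) {g f : ℂ → ℝ} (hg : Continuous g)
    (hgc : HasCompactSupport g) (hf : IntegrableOn f (V ∩ tsupport g)) :
    IntegrableOn (fun z => g z * f z) V := by
  obtain ⟨M, hM⟩ := hgc.exists_bound_of_continuous hg
  have h1 : IntegrableOn (fun z => g z * f z) (V ∩ tsupport g) :=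
    Integrable.bdd_mul (c := M) hf hg.aestronglyMeasurable (Eventually.of_forall hM)
  refine h1.of_forall_sdiff_eq_zero hV ?_
  rintro z ⟨hz, hz'⟩
  have : z ∉ tsupport g := fun h => hz' ⟨hz, h⟩
  rw [image_eq_zero_of_notMem_tsupport this, zero_mul]

section

variable {E : Set ℂ} {A X : ℂ → ℝ}

/-- `gx (h(re) u)`. -/
theorem gx_h_mul {h : ℝ → ℝ} (hh : ContDiff ℝ ∞ h) {u : ℂ → ℝ} {z : ℂ}
    (hu : DifferentiableAt ℝ u z) :
    gx (fun w => h w.re * u w) z = deriv h z.re * u z + h z.re * gx u z := by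
  have h1 : HasFDerivAt (fun w : ℂ => h w.re) ((deriv h z.re) • Complex.reCLM) z := by
    have h2 : HasDerivAt h (deriv h z.re) z.re :=
      (hh.differentiable (by simp)).differentiableAt.hasDerivAt
    exact h2.comp_hasFDerivAt z Complex.reCLM.hasFDerivAt
  have h3 := (h1.mul hu.hasFDerivAt).fderiv
  unfold gx
  have h4 : (fun w : ℂ => h w.re * u w) = (fun w : ℂ => h w.re) * u := rfl
  rw [h4, h3]
  simp
  ring

theorem gy_h_mul {h : ℝ → ℝ} (hh : ContDiff ℝ ∞ h) {u : ℂ → ℝ} {z : ℂ}
    (hu : DifferentiableAt ℝ u z) :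
    gy (fun w => h w.re * u w) z = h z.re * gy u z := by
  have h1 : HasFDerivAt (fun w : ℂ => h w.re) ((deriv h z.re) • Complex.reCLM) z := by
    have h2 : HasDerivAt h (deriv h z.re) z.re :=
      (hh.differentiable (by simp)).differentiableAt.hasDerivAt
    exact h2.comp_hasFDerivAt z Complex.reCLM.hasFDerivAt
  have h3 := (h1.mul hu.hasFDerivAt).fderiv
  unfold gy
  have h4 : (fun w : ℂ => h w.re * u w) = (fun w : ℂ => h w.re) * u := rfl
  rw [h4, h3]
  simp

/-- Stokes: `∫_V d(h A) ∧ dX = 0` when `dX` lives on a compact subset of `V = Eᶜ`. -/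
theorem stokes_hA (hE : IsClosed E) (hAL : LocallyLipschitzOn Eᶜ A) (hX : ContDiff ℝ 1 X)
    (hXc : HasCompactSupport X) (hXl : ∀ z ∈ E, ∀ᶠ w in 𝓝 z, X w = X z) {h : ℝ → ℝ}
    (hh : ContDiff ℝ ∞ h) : ∫ z in Eᶜ, wdg (fun w => h w.re * A w) X z = 0 := by
  set S := tsupport (fderiv ℝ X) with hS
  have hSc : IsCompact S := (HasCompactSupport.fderiv (𝕜 := ℝ) hXc)
  have hSE : S ⊆ Eᶜ := by
    intro z hz hzE
    have h1 : ∀ᶠ w in 𝓝 z, fderiv ℝ X w = 0 := by
      filter_upwards [eventually_eventually_nhds.2 (hXl z hzE)] with w hw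
      have : X =ᶠ[𝓝 w] fun _ => X z := hw
      rw [this.fderiv_eq]; simp
    exact notMem_tsupport_iff_eventuallyEq.2 h1 hz
  obtain ⟨θ, ⟨L, hL⟩, hθc, hθE, ⟨W, hW, hSW, hW1⟩, -⟩ :=
    R247.Ms322.exists_lip_cutoff hSc hE.isOpen_compl hSE
  have hre : LocallyLipschitz (fun w : ℂ => h w.re) :=
    ((hh.of_le (by simp)).comp Complex.reCLM.contDiff (f := fun w : ℂ => w.re)
      (n := 1)).locallyLipschitz
  have hhA : R247.Ms322.LLo Eᶜ (fun w => h w.re * A w) :=
    (R247.Ms322.LLo.of_loc hre).mul (Stk_939.llo_of hE.isOpen_compl hAL)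
  have hκ : LocallyLipschitz (fun z => θ z * (h z.re * A z)) :=
    R247.Ms322.LLo.mul_supp hL.locallyLipschitz hhA hθE
  have hκc : HasCompactSupport (fun z => θ z * (h z.re * A z)) := hθc.mul_right
  obtain ⟨K, hK⟩ := R247.Ms322.exists_lipschitzWith hκ hκc
  have hκs : tsupport (fun z => θ z * (h z.re * A z)) ⊆ Eᶜ :=
    (tsupport_mul_subset_left).trans hθE
  have h1 := Stk_939.stokes_on hE hK hκc hκs (hX.locallyLipschitz.locallyLipschitzOn (s := Eᶜ))
  rw [← h1]
  refine setIntegral_congr_fun hE.isOpen_compl.measurableSet fun z hz => ?_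
  unfold wdg gx gy
  by_cases hzS : z ∈ S
  · have : (fun w => h w.re * A w) =ᶠ[𝓝 z] fun z => θ z * (h z.re * A z) := by
      filter_upwards [hW.mem_nhds (hSW hzS)] with w hw
      rw [hW1 w hw, one_mul]
    rw [this.fderiv_eq]
  · have : fderiv ℝ X z = 0 := image_eq_zero_of_notMem_tsupport hzS
    simp [this]

/-- the integrand of the slices. -/
def Sl (A X : ℂ → ℝ) (z : ℂ) : ℝ := X z * gy A z + gy X z * A z

theorem integrable_Sl (hE : IsClosed E) (hE0 : volume E = 0) (hAc : Continuous A)
    (hAe : IntegrableOn (en A) Eᶜ) (hX : ContDiff ℝ 1 X) (hXc : HasCompactSupport X) :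
    Integrable (Sl A X) := by
  have hV : MeasurableSet Eᶜ := hE.isOpen_compl.measurableSet
  have h1 : IntegrableOn (fun z => X z * gy A z) Eᶜ :=
    integrableOn_mul hV hX.continuous hXc (integrableOn_gy hAe hXc)
  have hgyX : Continuous (gy X) := by
    have := hX.continuous_fderiv (by simp)
    exact this.clm_apply continuous_const
  have h2 : Integrable (fun z => gy X z * A z) := by
    have hc : HasCompactSupport (gy X) := by
      refine HasCompactSupport.of_support_subset_isCompact hXc ?_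
      intro z hz
      by_contra hn
      apply hz
      exact gy_zero_of_ev (notMem_tsupport_iff_eventuallyEq.1 hn)
    exact (hgyX.mul hAc).integrable_of_hasCompactSupport hc.mul_right
  have h3 : Integrable (fun z => X z * gy A z) := by
    rw [← integrableOn_univ]
    have : (univ : Set ℂ) = Eᶜ ∪ E := by rw [compl_union_self]
    rw [this]
    exact h1.union (by rw [IntegrableOn, Measure.restrict_eq_zero.2 hE0]; exact integrable_zero_measure)
  exact h3.add h2

/-- **the two identities together**: `∫ h'(re) (X A_y + X_y A) = 0`. -/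
theorem integral_h_Sl (hE : IsClosed E) (hE0 : volume E = 0) (hAc : Continuous A)
    (hAL : LocallyLipschitzOn Eᶜ A) (hAe : IntegrableOn (en A) Eᶜ) (hX : ContDiff ℝ 1 X)
    (hXc : HasCompactSupport X) (hXl : ∀ z ∈ E, ∀ᶠ w in 𝓝 z, X w = X z) {h : ℝ → ℝ}
    (hh : ContDiff ℝ ∞ h)
    (hiso : ∫ z in Eᶜ, wdg (fun w => h w.re * X w) A z = 0) :
    ∫ z : ℂ, deriv h z.re * Sl A X z = 0 := by
  have hV : MeasurableSet Eᶜ := hE.isOpen_compl.measurableSet
  have h0 := stokes_hA hE hAL hX hXc hXl hh
  have hdiff := Tra_937.ae_diff_of_locLip hE.isOpen_compl hAL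
  have hgX : Continuous (gx X) := (hX.continuous_fderiv (by simp)).clm_apply continuous_const
  have hgY : Continuous (gy X) := (hX.continuous_fderiv (by simp)).clm_apply continuous_const
  have hgXc : HasCompactSupport (gx X) := by
    refine HasCompactSupport.of_support_subset_isCompact hXc fun z hz => ?_
    by_contra hn
    exact hz (gx_zero_of_ev (notMem_tsupport_iff_eventuallyEq.1 hn))
  have hgYc : HasCompactSupport (gy X) := by
    refine HasCompactSupport.of_support_subset_isCompact hXc fun z hz => ?_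
    by_contra hn
    exact hz (gy_zero_of_ev (notMem_tsupport_iff_eventuallyEq.1 hn))
  have hhc : Continuous (fun z : ℂ => h z.re) := hh.continuous.comp Complex.continuous_re
  have hdc : Continuous (fun z : ℂ => deriv h z.re) :=
    (hh.continuous_deriv (by simp)).comp Complex.continuous_re
  -- first integrand
  have e1 : ∀ᵐ z ∂(volume.restrict Eᶜ), wdg (fun w => h w.re * X w) A z
      = (deriv h z.re * X z) * gy A z
        + ((h z.re * gx X z) * gy A z - (h z.re * gy X z) * gx A z) := by
    refine Eventually.of_forall fun z => ?_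
    have hd : DifferentiableAt ℝ X z := (hX.differentiable (by simp)).differentiableAt
    unfold wdg
    rw [gx_h_mul hh hd, gy_h_mul hh hd]; ring
  have e2 : ∀ᵐ z ∂(volume.restrict Eᶜ), wdg (fun w => h w.re * A w) X z
      = (deriv h z.re * gy X z) * A z
        - ((h z.re * gx X z) * gy A z - (h z.re * gy X z) * gx A z) := by
    filter_upwards [hdiff] with z hz
    unfold wdg
    rw [gx_h_mul hh hz, gy_h_mul hh hz]; ring
  have i1 : IntegrableOn (fun z => (deriv h z.re * X z) * gy A z) Eᶜ :=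
    integrableOn_mul hV (hdc.mul hX.continuous) hXc.mul_left
      (integrableOn_gy hAe (hXc.mul_left (f' := X)))
  have i2 : IntegrableOn (fun z => (h z.re * gx X z) * gy A z) Eᶜ :=
    integrableOn_mul hV (hhc.mul hgX) hgXc.mul_left (integrableOn_gy hAe (hgXc.mul_left (f' := gx X)))
  have i3 : IntegrableOn (fun z => (h z.re * gy X z) * gx A z) Eᶜ :=
    integrableOn_mul hV (hhc.mul hgY) hgYc.mul_left (integrableOn_gx hAe (hgYc.mul_left (f' := gy X)))
  have i4 : IntegrableOn (fun z => (deriv h z.re * gy X z) * A z) Eᶜ :=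
    ((((hdc.mul hgY).mul hAc)).integrable_of_hasCompactSupport
      (hgYc.mul_left.mul_right)).integrableOn
  have i23 : IntegrableOn (fun z => (h z.re * gx X z) * gy A z - (h z.re * gy X z) * gx A z) Eᶜ :=
    i2.sub i3
  rw [integral_congr_ae e1, integral_add i1 i23] at hiso
  rw [integral_congr_ae e2, integral_sub i4 i23] at h0
  have h5 : ∫ z in Eᶜ, ((deriv h z.re * X z) * gy A z + (deriv h z.re * gy X z) * A z) = 0 := by
    rw [integral_add i1 i4]; linarith
  have h6 : ∫ z : ℂ, deriv h z.re * Sl A X z = ∫ z in Eᶜ, deriv h z.re * Sl A X z := by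
    have : (volume.restrict Eᶜ : Measure ℂ) = volume := by
      rw [Measure.restrict_eq_self_of_ae_mem]
      rw [ae_iff]; simpa using hE0
    rw [this]
  rw [h6, ← h5]
  congr 1
  ext z
  unfold Sl; ring

/-- Fubini on `ℂ`. -/
theorem integral_complex {f : ℂ → ℝ} (hf : Integrable f) :
    ∫ z, f z = ∫ s : ℝ, ∫ y : ℝ, f ⟨s, y⟩ := by
  have h1 : ∫ z : ℂ, f z = ∫ p : ℝ × ℝ, f ⟨p.1, p.2⟩ := by
    have := (Tra_937.integral_toC univ (Tra_937.ofC f))
    have e : Tra_937.setC univ = univ := rfl
    rw [e, Measure.restrict_univ, Measure.restrict_univ] at this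
    exact this
  have h2 : Integrable (fun p : ℝ × ℝ => f ⟨p.1, p.2⟩) := by
    have := (Tra_937.integrableOn_toC univ (Tra_937.ofC f)).1 (by
      have e : Tra_937.setC univ = univ := rfl
      rw [e, integrableOn_univ]; exact hf)
    rw [integrableOn_univ] at this
    exact this
  rw [h1]
  exact integral_prod _ h2

theorem integrable_slices {f : ℂ → ℝ} (hf : Integrable f) :
    Integrable (fun s : ℝ => ∫ y : ℝ, f ⟨s, y⟩) ∧
      ∀ᵐ s : ℝ, Integrable (fun y : ℝ => f ⟨s, y⟩) := by
  have h2 : Integrable (fun p : ℝ × ℝ => f ⟨p.1, p.2⟩) := by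
    have := (Tra_937.integrableOn_toC univ (Tra_937.ofC f)).1 (by
      have e : Tra_937.setC univ = univ := rfl
      rw [e, integrableOn_univ]; exact hf)
    rw [integrableOn_univ] at this
    exact this
  exact ⟨h2.integral_prod_left, h2.prod_right_ae⟩

/-- **slice identity**: for a.e. `s`, `∫ (X A_y + X_y A)(s,y) dy = 0`. -/
theorem slice (hE : IsClosed E) (hE0 : volume E = 0) (hAc : Continuous A)
    (hAL : LocallyLipschitzOn Eᶜ A) (hAe : IntegrableOn (en A) Eᶜ) (hX : ContDiff ℝ 1 X)
    (hXc : HasCompactSupport X) (hXl : ∀ z ∈ E, ∀ᶠ w in 𝓝 z, X w = X z)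
    (hiso : ∀ h : ℝ → ℝ, ContDiff ℝ ∞ h → HasCompactSupport h →
      ∫ z in Eᶜ, wdg (fun w => h w.re * X w) A z = 0) :
    ∀ᵐ s : ℝ, ∫ y : ℝ, Sl A X ⟨s, y⟩ = 0 := by
  have hI := integrable_Sl hE hE0 hAc hAe hX hXc
  have hs := integrable_slices hI
  -- support
  obtain ⟨R, hR⟩ := hXc.isBounded.exists_norm_le
  have hzero : ∀ s : ℝ, R < |s| → ∫ y : ℝ, Sl A X ⟨s, y⟩ = 0 := by
    intro s hsR
    have : ∀ y : ℝ, Sl A X ⟨s, y⟩ = 0 := by
      intro y
      have hn : (⟨s, y⟩ : ℂ) ∉ tsupport X := by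
        intro hm
        have h1 := hR _ hm
        have h2 := Complex.abs_re_le_norm (⟨s, y⟩ : ℂ)
        simp only at h2
        linarith
      have h3 := notMem_tsupport_iff_eventuallyEq.1 hn
      unfold Sl
      rw [gy_zero_of_ev h3, image_eq_zero_of_notMem_tsupport hn]; ring
    simp [this]
  apply ae_eq_zero_of_integral_contDiff_smul_eq_zero hs.1.locallyIntegrable
  intro k hk hkc
  -- the primitive
  set R' : ℝ := max R 0 + 1 with hR'
  have hR'0 : 0 < R' := by positivity
  let ρ : ContDiffBump (0 : ℝ) := ⟨R', R' + 1, hR'0, by linarith⟩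
  set P : ℝ → ℝ := fun s => ∫ t in (0:ℝ)..s, k t with hP
  have hPd : ∀ s, HasDerivAt P (k s) s := fun s =>
    intervalIntegral.integral_hasDerivAt_right (hk.continuous.intervalIntegrable _ _)
      hk.continuous.stronglyMeasurable.stronglyMeasurableAtFilter hk.continuous.continuousAt
  have hPc : ContDiff ℝ ∞ P := by
    rw [contDiff_infty_iff_deriv]
    refine ⟨fun s => (hPd s).differentiableAt, ?_⟩
    have : deriv P = k := funext fun s => (hPd s).deriv
    rw [this]; exact hk
  set h : ℝ → ℝ := fun s => ρ s * P s with hh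
  have hhc : ContDiff ℝ ∞ h := ρ.contDiff.mul hPc
  have hhs : HasCompactSupport h := ρ.hasCompactSupport.mul_right
  have h1 := integral_h_Sl hE hE0 hAc hAL hAe hX hXc hXl hhc (hiso h hhc hhs)
  have hdh : ∀ s : ℝ, |s| ≤ R → deriv h s = k s := by
    intro s hsR
    have h2 : h =ᶠ[𝓝 s] P := by
      have : Metric.closedBall (0:ℝ) R' ∈ 𝓝 s := by
        apply Metric.closedBall_mem_nhds_of_mem
        rw [Metric.mem_ball, dist_zero_right, Real.norm_eq_abs]
        have := le_max_left R 0
        linarith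
      filter_upwards [this] with t ht
      simp only [hh]
      rw [ρ.one_of_mem_closedBall ht, one_mul]
    rw [h2.deriv_eq]; exact (hPd s).deriv
  have hI2 : Integrable (fun z : ℂ => deriv h z.re * Sl A X z) := by
    have hdc : Continuous (fun z : ℂ => deriv h z.re) :=
      (hhc.continuous_deriv (by simp)).comp Complex.continuous_re
    have hb : HasCompactSupport (deriv h) := hhs.deriv
    obtain ⟨M, hM⟩ := hb.exists_bound_of_continuous (hhc.continuous_deriv (by simp))
    exact hI.bdd_mul (c := M) hdc.aestronglyMeasurable (Eventually.of_forall fun z => hM z.re)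
  rw [integral_complex hI2] at h1
  rw [← h1]
  congr 1
  ext s
  simp only [smul_eq_mul]
  rw [integral_const_mul]
  by_cases hsR : |s| ≤ R
  · rw [hdh s hsR]
  · rw [hzero s (not_le.1 hsR)]; simp

end

end

end Crest.Agent.R105.Vac_937
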