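import Crest.Agent.R105.Vac1_937
import Crest.Agent.R105.Vac2_937

/-!
# Vertical absolute continuity: Fubini (helper937, task 2338)
-/

set_option autoImplicit false

open Set Filter MeasureTheory
open scoped Topology NNReal ENNReal ContDiff
open Crest.Agent.R105.Tra_937 (gx gy en wdg)

namespace Crest.Agent.R105.Vac_937

noncomputable section

/-- the vertical line. -/
def vl (s y : ℝ) : ℂ := ⟨s, y⟩

theorem vl_sub (s y y' : ℝ) : vl s y - vl s y' = ((y - y' : ℝ) : ℂ) * Complex.I := by
  apply Complex.ext <;> simp [vl]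

theorem dist_vl (s y y' : ℝ) : dist (vl s y) (vl s y') = dist y y' := by
  rw [dist_eq_norm, vl_sub, norm_mul, Complex.norm_I, mul_one, Complex.norm_real, dist_eq_norm]

theorem isometry_vl (s : ℝ) : Isometry (vl s) := Isometry.of_dist_eq (dist_vl s)

theorem hasDerivAt_vl (s y : ℝ) : HasDerivAt (vl s) Complex.I y := by
  have h : vl s = fun y : ℝ => (s : ℂ) + (y : ℂ) * Complex.I := by
    funext y; apply Complex.ext <;> simp [vl]
  rw [h]
  have h1 : HasDerivAt (fun y : ℝ => (y : ℂ)) 1 y := Complex.ofRealCLM.hasDerivAt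
  simpa using (h1.mul_const Complex.I).const_add (s : ℂ)

theorem hasDerivAt_line {A : ℂ → ℝ} {s y : ℝ} (h : DifferentiableAt ℝ A (vl s y)) :
    HasDerivAt (fun y => A (vl s y)) (gy A (vl s y)) y :=
  h.hasFDerivAt.comp_hasDerivAt y (hasDerivAt_vl s y)

/-- a.e. in `ℂ` implies a.e. on a.e. vertical line. -/
theorem ae_lines {P : ℂ → Prop} (h : ∀ᵐ z : ℂ, P z) : ∀ᵐ s : ℝ, ∀ᵐ y : ℝ, P (vl s y) := by
  have h1 : ∀ᵐ z ∂((volume : Measure ℂ).restrict (Tra_937.setC univ)),
      P (⟨(z.re, z.im).1, (z.re, z.im).2⟩ : ℂ) := by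
    have e : Tra_937.setC univ = univ := rfl
    rw [e, Measure.restrict_univ]
    exact h
  have h2 := (Tra_937.ae_toC (S := univ) (P := fun p : ℝ × ℝ => P ⟨p.1, p.2⟩)).1 h1
  rw [Measure.restrict_univ] at h2
  exact Measure.ae_ae_of_ae_prod h2

theorem vac_core {E : Set ℂ} {A : ℂ → ℝ} (hE : IsCompact E) (hE0 : volume E = 0)
    (hAc : Continuous A) (hAL : LocallyLipschitzOn Eᶜ A) (hAe : IntegrableOn (en A) Eᶜ)
    {ι : Type*} [Countable ι] (X : ι → ℂ → ℝ) (hX : ∀ i, ContDiff ℝ 1 (X i))
    (hXc : ∀ i, HasCompactSupport (X i)) (hXl : ∀ i, ∀ z ∈ E, ∀ᶠ w in 𝓝 z, X i w = X i z)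
    (hiso : ∀ i, ∀ h : ℝ → ℝ, ContDiff ℝ ∞ h → HasCompactSupport h →
      ∫ z in Eᶜ, wdg (fun w => h w.re * X i w) A z = 0)
    (hsep : ∀ s y1 y2 : ℝ, y1 ≤ y2 → vl s y1 ∉ E → vl s y2 ∉ E → ∃ i,
      (∀ y, vl s y ∈ E → y ∈ Icc y1 y2 → X i (vl s y) = 1) ∧
      (∀ y, vl s y ∈ E → y ∉ Icc y1 y2 → X i (vl s y) = 0)) :
    ∀ᵐ s : ℝ, ∀ y1 y2 : ℝ, A (vl s y2) - A (vl s y1) = ∫ y in y1..y2, gy A (vl s y) := by
  have hEcl : IsClosed E := hE.isClosed
  -- (a)
  have a1 : ∀ᵐ s : ℝ, ∀ᵐ y : ℝ, vl s y ∉ E := ae_lines (measure_eq_zero_iff_ae_notMem.1 hE0)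
  -- (b)
  have b0 : ∀ᵐ z : ℂ, z ∈ Eᶜ → DifferentiableAt ℝ A z :=
    (ae_restrict_iff' hEcl.isOpen_compl.measurableSet).1
      (Tra_937.ae_diff_of_locLip hEcl.isOpen_compl hAL)
  have b1 := ae_lines b0
  -- (c)
  have c0 : ∀ n : ℕ, ∀ᵐ s : ℝ, Integrable (fun y : ℝ =>
      (Eᶜ ∩ Metric.closedBall (0:ℂ) n).indicator (gy A) (vl s y)) := by
    intro n
    have h1 : Integrable ((Eᶜ ∩ Metric.closedBall (0:ℂ) n).indicator (gy A)) := by
      rw [integrable_indicator_iff
        (hEcl.isOpen_compl.measurableSet.inter Metric.isClosed_closedBall.measurableSet)]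
      exact integrableOn_gy hAe (isCompact_closedBall _ _)
    exact (integrable_slices h1).2
  have c1 := ae_all_iff.2 c0
  -- (d)
  have d1 : ∀ᵐ s : ℝ, ∀ i, ∫ y : ℝ, Sl A (X i) ⟨s, y⟩ = 0 :=
    ae_all_iff.2 fun i => slice hEcl hE0 hAc hAL hAe (hX i) (hXc i) (hXl i) (hiso i)
  filter_upwards [a1, b1, c1, d1] with s ha hb hc hd
  set K : Set ℝ := {y | vl s y ∈ E} with hK
  have hvc : Continuous (vl s) := (isometry_vl s).continuous
  have hKcl : IsClosed K := hEcl.preimage hvc
  have hα : LocallyLipschitzOn Kᶜ (fun y => A (vl s y)) := by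
    intro y hy
    obtain ⟨L, t, ht, hL⟩ := hAL (show vl s y ∈ Eᶜ from hy)
    rw [hEcl.isOpen_compl.nhdsWithin_eq (show vl s y ∈ Eᶜ from hy)] at ht
    refine ⟨L * 1, vl s ⁻¹' t, mem_nhdsWithin_of_mem_nhds (hvc.continuousAt ht), ?_⟩
    exact hL.comp ((isometry_vl s).lipschitz.lipschitzOnWith) (fun x hx => hx)
  have hαc : Continuous (fun y => A (vl s y)) := hAc.comp hvc
  have hder : ∀ᵐ y : ℝ, y ∉ K → HasDerivAt (fun y => A (vl s y)) (gy A (vl s y)) y := by
    filter_upwards [hb] with y hy hyK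
    exact hasDerivAt_line (hy hyK)
  have hbI : ∀ u v, IntervalIntegrable (fun y => gy A (vl s y)) volume u v := by
    intro u v
    obtain ⟨n, hn⟩ := exists_nat_ge (|s| + (|u| + |v|))
    have h1 := (hc n).intervalIntegrable (a := u) (b := v)
    refine h1.congr_ae ?_
    rw [Filter.EventuallyEq, ae_restrict_iff' measurableSet_uIoc]
    filter_upwards [ha] with y hy hyI
    have h2 : vl s y ∈ Eᶜ ∩ Metric.closedBall (0:ℂ) n := by
      refine ⟨hy, ?_⟩
      rw [Metric.mem_closedBall, dist_zero_right]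
      refine (Complex.norm_le_abs_re_add_abs_im _).trans ?_
      have h3 : |y| ≤ |u| + |v| := by
        have h4 := uIoc_subset_uIcc hyI
        rw [mem_uIcc] at h4
        rcases h4 with h4 | h4
        · rw [abs_le]; constructor
          · linarith [neg_abs_le u, abs_nonneg v]
          · linarith [le_abs_self v, abs_nonneg u]
        · rw [abs_le]; constructor
          · linarith [neg_abs_le v, abs_nonneg u]
          · linarith [le_abs_self u, abs_nonneg v]
      simp only [vl]
      linarith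
    rw [indicator_of_mem h2]
  -- increments between points off `K`
  have hinc : ∀ y1 y2 : ℝ, y1 ≤ y2 → y1 ∉ K → y2 ∉ K →
      A (vl s y2) - A (vl s y1) = ∫ y in y1..y2, gy A (vl s y) := by
    intro y1 y2 h12 hy1 hy2
    obtain ⟨i, hi1, hi0⟩ := hsep s y1 y2 h12 hy1 hy2
    obtain ⟨R0, hR0⟩ := (hXc i).isBounded.exists_norm_le
    set R : ℝ := |R0| + |y1| + |y2| + 1 with hR
    have hout : ∀ y : ℝ, |R0| < |y| → vl s y ∉ tsupport (X i) := by
      intro y hy hm
      have h1 := hR0 _ hm
      have h2 := Complex.abs_im_le_norm (vl s y)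
      simp only [vl] at h2 h1
      linarith [le_abs_self R0]
    have hRpos : 0 < R := by positivity
    have hRb : |R0| < R := by
      have := abs_nonneg y1; have := abs_nonneg y2; linarith
    refine key (χ := fun y => X i (vl s y)) (χ' := fun y => gy (X i) (vl s y)) (R := R) hKcl hα hαc
      hder hbI ?_ ?_ h12 hy1 hy2 ?_ ?_ ?_ ?_ ?_ ?_ ?_
    · intro y
      exact hasDerivAt_line ((hX i).differentiable (by simp)).differentiableAt
    · exact (((hX i).continuous_fderiv (by simp)).clm_apply continuous_const).comp hvc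
    · linarith [neg_abs_le y1, abs_nonneg R0, abs_nonneg y2]
    · linarith [le_abs_self y2, abs_nonneg R0, abs_nonneg y1]
    · intro y hyK hy
      have h1 := hvc.continuousAt.eventually (hXl i (vl s y) hyK)
      filter_upwards [h1] with x hx
      rw [hx, hi1 y hyK hy]
    · intro y hyK hy
      have h1 := hvc.continuousAt.eventually (hXl i (vl s y) hyK)
      filter_upwards [h1] with x hx
      rw [hx, hi0 y hyK hy]
    · exact image_eq_zero_of_notMem_tsupport (hout (-R) (by rw [abs_neg, abs_of_pos hRpos]; exact hRb))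
    · exact image_eq_zero_of_notMem_tsupport (hout R (by rw [abs_of_pos hRpos]; exact hRb))
    · have h1 := hd i
      have h2 : Function.support (fun y : ℝ => Sl A (X i) (vl s y)) ⊆ Ioc (-R) R := by
        intro y hy
        by_contra hn
        apply hy
        have h3 : |R0| < |y| := by
          rw [mem_Ioc, not_and_or, not_lt, not_le] at hn
          rcases hn with hn | hn
          · have : R ≤ |y| := by rw [← abs_neg]; exact le_trans (by linarith) (le_abs_self (-y))
            linarith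
          · linarith [le_abs_self y]
        have h4 := hout y h3
        have h5 := notMem_tsupport_iff_eventuallyEq.1 h4
        simp only [Sl]
        rw [gy_zero_of_ev h5, image_eq_zero_of_notMem_tsupport h4]; ring
      have h3 := intervalIntegral.integral_eq_integral_of_support_subset (μ := volume) h2
      have h4 : ∫ y in (-R)..R, Sl A (X i) (vl s y) = 0 := by rw [h3]; exact h1
      exact h4
  -- all points
  have hden : Dense Kᶜ := by
    apply Measure.dense_of_ae (μ := (volume : Measure ℝ))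
    exact ha
  obtain ⟨y0, hy0⟩ := hden.nonempty
  have hD : (fun y => A (vl s y) - A (vl s y0)) = fun y => ∫ t in y0..y, gy A (vl s t) := by
    refine Continuous.ext_on hden (hαc.sub continuous_const)
      (intervalIntegral.continuous_primitive (fun u v => hbI u v) y0) ?_
    intro y hy
    rcases le_total y0 y with h | h
    · exact hinc y0 y h hy0 hy
    · have := hinc y y0 h hy hy0
      simp only
      rw [intervalIntegral.integral_symm]
      linarith
  intro y1 y2
  have e1 := congrFun hD y1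
  have e2 := congrFun hD y2
  beta_reduce at e1 e2
  have e3 := intervalIntegral.integral_interval_sub_left (hbI y0 y2) (hbI y0 y1)
  linarith

end

end Crest.Agent.R105.Vac_937
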