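import Crest.Agent.R105.Vac3_937
import Crest.Agent.R105.Tra3_937
import Crest.Agent.R105.Bd1_775

/-!
# Vertical absolute continuity in the picture (helper937, task 2338; LEAF VAC of helper987 #9681)
-/

set_option autoImplicit false

open Set Filter MeasureTheory Metric
open scoped Topology NNReal ENNReal ContDiff
open Crest.Agent.R105.Tra_937 (gx gy en wdg Uni)
open Crest.Agent.R105.Bd_775 (Q om)

namespace Crest.Agent.R105.Vac_937

noncomputable section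

theorem vl_mem_segment {s y y' t : ℝ} (ht : t ∈ uIcc y y') :
    vl s t ∈ segment ℝ (vl s y) (vl s y') := by
  rw [← segment_eq_uIcc] at ht
  obtain ⟨a, b, ha, hb, hab, rfl⟩ := ht
  refine ⟨a, b, ha, hb, hab, ?_⟩
  apply Complex.ext
  · simp only [vl, Complex.add_re, Complex.real_smul, Complex.mul_re, Complex.ofReal_re,
      Complex.ofReal_im, zero_mul, sub_zero]
    rw [← add_mul, hab, one_mul]
  · simp [vl]

theorem exists_cut {K O : Set ℂ} (hK : IsCompact K) (hO : IsOpen O) (hKO : K ⊆ O) :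
    ∃ ρ : ℂ → ℝ, ContDiff ℝ ∞ ρ ∧ HasCompactSupport ρ ∧ tsupport ρ ⊆ O ∧
      ∀ z ∈ K, ∀ᶠ y in 𝓝 z, ρ y = 1 := by
  obtain ⟨V, hVo, hKV, hVO, hVc⟩ := exists_open_between_and_isCompact_closure hK hO hKO
  obtain ⟨f, hf1, hf0, hf⟩ := exists_contMDiffMap_one_nhds_of_subset_interior
    (modelWithCornersSelf ℝ ℂ) (n := (⊤ : ℕ∞)) hK.isClosed (t := V)
    (hKV.trans (interior_eq_iff_isOpen.mpr hVo).ge)
  have hsm : ContDiff ℝ ∞ (f : ℂ → ℝ) := f.contMDiff.contDiff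
  have hts : tsupport (f : ℂ → ℝ) ⊆ closure V := by
    apply closure_mono
    intro x hx
    by_contra h
    exact hx (hf0 x h)
  exact ⟨f, hsm, hVc.of_isClosed_subset isClosed_closure hts, hts.trans hVO,
    fun z hz => (eventually_nhdsSet_iff_forall.1 hf1) z hz⟩

/-- preimages of compact sets under the collapsing map. -/
theorem isCompact_pre {π : ℂ → ℂ} (pc : Continuous π)
    (pp : Tendsto π (cocompact ℂ) (cocompact ℂ)) {K : Set ℂ} (hK : IsCompact K) :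
    IsCompact (π ⁻¹' K) := by
  have h1 : π ⁻¹' Kᶜ ∈ cocompact ℂ := pp hK.compl_mem_cocompact
  obtain ⟨T, hT, hTs⟩ := mem_cocompact.1 h1
  refine hT.of_isClosed_subset (hK.isClosed.preimage pc) ?_
  intro w hw
  by_contra hn
  exact hTs hn hw

section

variable {C : Set ℂ} {F π : ℂ → ℂ}

theorem image_eq (pF : ∀ z ∉ C, π (F z) = z) (Fp : ∀ w, π w ∉ C → F (π w) = w) :
    F '' Cᶜ = (π ⁻¹' C)ᶜ := by
  ext w
  constructor
  · rintro ⟨z, hz, rfl⟩
    rw [mem_compl_iff, mem_preimage, pF z hz]; exact hz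
  · intro hw
    exact ⟨π w, hw, Fp w hw⟩

theorem inv_eq (hF : Uni Cᶜ F) (Fp : ∀ w, π w ∉ C → F (π w) = w) {w : ℂ} (hw : π w ∉ C) :
    Tra_937.inv Cᶜ F w = π w := by
  have := hF.inv_apply (z := π w) hw
  rwa [Fp w hw] at this

/-- `π` is smooth on the picture. -/
theorem contDiffAt_pi (hC : IsClosed C) (hF : Uni Cᶜ F) (pc : Continuous π)
    (pF : ∀ z ∉ C, π (F z) = z)
    (Fp : ∀ w, π w ∉ C → F (π w) = w) {w : ℂ} (hw : π w ∉ C) : ContDiffAt ℝ ∞ π w := by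
  have hV : IsOpen (π ⁻¹' C)ᶜ := (hC.preimage pc).isOpen_compl
  have h1 : DifferentiableOn ℂ (Tra_937.inv Cᶜ F) (π ⁻¹' C)ᶜ := by
    have := hF.symm.hol
    rwa [image_eq pF Fp] at this
  have h2 : ContDiffAt ℝ ∞ (Tra_937.inv Cᶜ F) w :=
    ((h1.analyticAt (hV.mem_nhds hw)).contDiffAt).restrict_scalars ℝ
  refine h2.congr_of_eventuallyEq ?_
  filter_upwards [hV.mem_nhds hw] with w' hw'
  exact (inv_eq hF Fp hw').symm

theorem contDiff_cut (hC : IsClosed C) (hF : Uni Cᶜ F) (pc : Continuous π)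
    (pF : ∀ z ∉ C, π (F z) = z)
    (Fp : ∀ w, π w ∉ C → F (π w) = w) {χ : ℂ → ℝ} (hχ : ContDiff ℝ ∞ χ)
    (hl : ∀ z ∈ C, ∀ᶠ w in 𝓝 z, χ w = χ z) : ContDiff ℝ ∞ (fun w => χ (π w)) := by
  rw [contDiff_iff_contDiffAt]
  intro w
  by_cases hw : π w ∈ C
  · have h1 : (fun w => χ (π w)) =ᶠ[𝓝 w] fun _ => χ (π w) := pc.continuousAt.eventually (hl _ hw)
    exact contDiffAt_const.congr_of_eventuallyEq h1
  · exact hχ.contDiffAt.comp w (contDiffAt_pi hC hF pc pF Fp hw)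

theorem compact_cut (pc : Continuous π) (pp : Tendsto π (cocompact ℂ) (cocompact ℂ)) {χ : ℂ → ℝ}
    (hχ : HasCompactSupport χ) : HasCompactSupport (fun w => χ (π w)) := by
  refine HasCompactSupport.of_support_subset_isCompact (isCompact_pre pc pp hχ) ?_
  intro w hw
  exact subset_tsupport _ hw

/-- functions of the picture: `a ∘ π`. -/
theorem locLip_api (hF : Uni Cᶜ F) (pF : ∀ z ∉ C, π (F z) = z)
    (Fp : ∀ w, π w ∉ C → F (π w) = w) {a : ℂ → ℝ} (ha : LocallyLipschitzOn Cᶜ a) :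
    LocallyLipschitzOn (π ⁻¹' C)ᶜ (fun w => a (π w)) := by
  rw [← image_eq pF Fp]
  rw [← hF.locLip_comp_iff]
  refine Tra_937.locLip_congr (fun z hz => ?_) ha
  simp only [Function.comp_apply]
  rw [pF z hz]

theorem integrable_en_api (hF : Uni Cᶜ F) (pF : ∀ z ∉ C, π (F z) = z)
    (Fp : ∀ w, π w ∉ C → F (π w) = w) {a : ℂ → ℝ} (ha : LocallyLipschitzOn Cᶜ a)
    (he : IntegrableOn (en a) Cᶜ) : IntegrableOn (en (fun w => a (π w))) (π ⁻¹' C)ᶜ := by
  have hL := locLip_api hF pF Fp ha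
  rw [← image_eq pF Fp] at hL ⊢
  have h1 := (hF.integrableOn_en hF.op.measurableSet subset_rfl (fun _ => 1)
    (Tra_937.ae_diff_of_locLip hF.isOpen_image hL)).1
  simp only [one_mul] at h1
  apply h1
  refine he.congr_fun (fun z hz => ?_) hF.op.measurableSet
  refine (Tra_937.en_congr hF.op (fun z hz => ?_) hz)
  simp only [Function.comp_apply]
  rw [pF z hz]

/-- the isotropy form in the picture. -/
theorem om_api (hF : Uni Cᶜ F) (pF : ∀ z ∉ C, π (F z) = z)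
    (Fp : ∀ w, π w ∉ C → F (π w) = w) {u a : ℂ → ℝ} {U' : ℂ → ℝ}
    (hU : EqOn (fun z => U' (F z)) u Cᶜ)
    (hU' : ∀ᵐ w ∂(volume.restrict (F '' Cᶜ)), DifferentiableAt ℝ U' w)
    (ha : LocallyLipschitzOn Cᶜ a) :
    om C u a = ∫ w in (π ⁻¹' C)ᶜ, wdg U' (fun w => a (π w)) w := by
  have hL := locLip_api hF pF Fp ha
  rw [← image_eq pF Fp] at hL ⊢
  have h1 := hF.integral_wdg hF.op.measurableSet subset_rfl (fun _ => 1) hU'
    (Tra_937.ae_diff_of_locLip hF.isOpen_image hL)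
  simp only [one_mul] at h1
  rw [← h1]
  refine setIntegral_congr_fun hF.op.measurableSet fun z hz => ?_
  refine (Tra_937.wdg_congr hF.op hU.symm (fun z hz => ?_) hz)
  simp only [Function.comp_apply]
  rw [pF z hz]

/-- **LEAF VAC**: `a ∘ π` is absolutely continuous on a.e. vertical line. -/
theorem vac (hC : IsCompact C) (td : IsTotallyDisconnected C) (hF : Uni Cᶜ F)
    (pc : Continuous π) (pp : Tendsto π (cocompact ℂ) (cocompact ℂ))
    (pF : ∀ z ∉ C, π (F z) = z) (Fp : ∀ w, π w ∉ C → F (π w) = w)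
    (fib : ∀ w w', π w = π w' → π w ∈ C → ∀ u ∈ segment ℝ w w', π u = π w)
    (null : volume (π ⁻¹' C) = 0) {x : ℂ → ℝ} (xp : ∀ w, x (π w) = w.re)
    {a : ℂ → ℝ} (ha : Q C a) (hc : Continuous a)
    (hiso : ∀ h : ℝ → ℝ, ContDiff ℝ ∞ h → HasCompactSupport h → ∀ χ : ℂ → ℝ, ContDiff ℝ ∞ χ →
      HasCompactSupport χ → (∀ z ∈ C, ∀ᶠ w in 𝓝 z, χ w = χ z) →
      om C (fun z => h (x z) * χ z) a = 0) :
    ∀ᵐ s : ℝ, ∀ y1 y2 : ℝ, a (π ⟨s, y2⟩) - a (π ⟨s, y1⟩) =
      ∫ y in y1..y2, gy (a ∘ π) ⟨s, y⟩ := by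
  classical
  have hE : IsCompact (π ⁻¹' C) := isCompact_pre pc pp hC
  have : CompactSpace C := isCompact_iff_compactSpace.1 hC
  have : TotallyDisconnectedSpace C := totallyDisconnectedSpace_subtype_iff.2 td
  have : Countable (TopologicalSpace.Clopens C) :=
    TopologicalSpace.Clopens.countable_iff_secondCountable.2 inferInstance
  -- the cut-offs
  have hcut : ∀ s : TopologicalSpace.Clopens C, ∃ ρ : ℂ → ℝ, ContDiff ℝ ∞ ρ ∧
      HasCompactSupport ρ ∧ (∀ z ∈ C, ∀ᶠ w in 𝓝 z, ρ w = ρ z) ∧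
      (∀ z : C, z ∈ s → ρ z = 1) ∧ (∀ z : C, z ∉ s → ρ z = 0) := by
    intro s
    have k1 : IsCompact (Subtype.val '' (s : Set C)) :=
      (s.isClopen.isClosed.isCompact).image continuous_subtype_val
    have k2 : IsCompact (Subtype.val '' (s : Set C)ᶜ) :=
      (s.isClopen.compl.isClosed.isCompact).image continuous_subtype_val
    have hd : Subtype.val '' (s : Set C) ⊆ (Subtype.val '' (s : Set C)ᶜ)ᶜ := by
      rintro _ ⟨z, hz, rfl⟩ ⟨z', hz', he⟩
      rw [Subtype.ext he] at hz'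
      exact hz' hz
    obtain ⟨ρ, h1, h2, h3, h4⟩ := exists_cut k1 k2.isClosed.isOpen_compl hd
    have e0 : ∀ z : C, z ∉ s → ∀ᶠ w in 𝓝 (z : ℂ), ρ w = 0 := by
      intro z hz
      exact notMem_tsupport_iff_eventuallyEq.1 fun hm => h3 hm ⟨z, hz, rfl⟩
    have e1 : ∀ z : C, z ∈ s → ∀ᶠ w in 𝓝 (z : ℂ), ρ w = 1 := fun z hz => h4 z ⟨z, hz, rfl⟩
    refine ⟨ρ, h1, h2, ?_, fun z hz => (e1 z hz).self_of_nhds,
      fun z hz => (e0 z hz).self_of_nhds⟩
    intro z hz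
    by_cases hs : (⟨z, hz⟩ : C) ∈ s
    · have h5 := e1 ⟨z, hz⟩ hs
      filter_upwards [h5] with w hw
      rw [hw, h5.self_of_nhds]
    · have h5 := e0 ⟨z, hz⟩ hs
      filter_upwards [h5] with w hw
      rw [hw, h5.self_of_nhds]
  choose ρ r1 r2 r3 r4 r5 using hcut
  have hX : ∀ s, ContDiff ℝ ∞ (fun w => ρ s (π w)) := fun s =>
    contDiff_cut hC.isClosed hF pc pF Fp (r1 s) (r3 s)
  have hmain := vac_core (A := fun w => a (π w)) hE null (hc.comp pc)
    (locLip_api hF pF Fp ha.loc) (integrable_en_api hF pF Fp ha.loc ha.fin)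
    (fun s : TopologicalSpace.Clopens C => fun w => ρ s (π w))
    (fun s => (hX s).of_le (by simp)) (fun s => compact_cut pc pp (r2 s))
    (fun s w hw => pc.continuousAt.eventually (r3 s _ hw)) ?_ ?_
  · exact hmain
  · intro s h hh hhc
    have h1 := hiso h hh hhc (ρ s) (r1 s) (r2 s) (r3 s)
    rw [om_api hF pF Fp (U' := fun w => h w.re * ρ s (π w)) ?_ ?_ ha.loc] at h1
    · exact h1
    · intro z hz
      simp only
      rw [pF z hz, ← xp (F z), pF z hz]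
    · refine Eventually.of_forall fun w => ?_
      have h2 : DifferentiableAt ℝ (fun w : ℂ => h w.re) w :=
        ((hh.differentiable (by simp)).differentiableAt (x := w.re)).comp w
          Complex.reCLM.differentiableAt
      exact h2.mul ((hX s).differentiable (by simp)).differentiableAt
  · intro s y1 y2 h12 hy1 hy2
    -- the two closed sets
    set Z1 : Set C := {q | ∃ y ∈ Icc y1 y2, π (vl s y) = q} with hZ1
    set Z2 : Set C := {q | ∃ y ∉ Ioo y1 y2, π (vl s y) = q} with hZ2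
    have hvc : Continuous (fun y => π (vl s y)) := pc.comp (isometry_vl s).continuous
    have c1 : IsClosed Z1 := by
      have h1 : IsCompact ((fun y => π (vl s y)) '' Icc y1 y2) :=
        isCompact_Icc.image hvc
      have h2 : Z1 = Subtype.val ⁻¹' ((fun y => π (vl s y)) '' Icc y1 y2) := by
        ext q; simp [hZ1]
      rw [h2]; exact h1.isClosed.preimage continuous_subtype_val
    have c2 : IsClosed Z2 := by
      have hKc : IsCompact {y : ℝ | vl s y ∈ π ⁻¹' C} := by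
        refine (isometry_vl s).isClosedEmbedding.isCompact_preimage hE
      have h1 : IsCompact ((fun y => π (vl s y)) '' ({y : ℝ | vl s y ∈ π ⁻¹' C} ∩ (Ioo y1 y2)ᶜ)) :=
        (hKc.inter_right isOpen_Ioo.isClosed_compl).image hvc
      have h2 : Z2 = Subtype.val ⁻¹'
          ((fun y => π (vl s y)) '' ({y : ℝ | vl s y ∈ π ⁻¹' C} ∩ (Ioo y1 y2)ᶜ)) := by
        ext q
        constructor
        · rintro ⟨y, hy, hq⟩
          refine ⟨y, ⟨?_, hy⟩, hq⟩
          show π (vl s y) ∈ C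
          rw [hq]; exact q.2
        · rintro ⟨y, ⟨-, hy⟩, hq⟩
          exact ⟨y, hy, hq⟩
      rw [h2]; exact h1.isClosed.preimage continuous_subtype_val
    have hdis : Z1 ⊆ Z2ᶜ := by
      rintro q ⟨y, hy, hq⟩ ⟨y', hy', hq'⟩
      have hqC : π (vl s y) ∈ C := by rw [hq]; exact q.2
      have hseg : ∀ t ∈ uIcc y y', π (vl s t) ∈ C := by
        intro t ht
        rw [fib (vl s y) (vl s y') (hq.trans hq'.symm) hqC _ (vl_mem_segment ht)]
        exact hqC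
      rw [mem_Ioo, not_and_or, not_lt, not_lt] at hy'
      rcases hy' with hy' | hy'
      · exact hy1 (hseg y1 (mem_uIcc.2 (Or.inr ⟨hy', hy.1⟩)))
      · exact hy2 (hseg y2 (mem_uIcc.2 (Or.inl ⟨hy.2, hy'⟩)))
    obtain ⟨S, hS, hS1, hS2⟩ := exists_clopen_of_closed_subset_open c1 c2.isOpen_compl hdis
    refine ⟨⟨S, hS⟩, ?_, ?_⟩
    · intro y hyE hy
      exact r4 ⟨S, hS⟩ ⟨π (vl s y), hyE⟩ (hS1 ⟨y, hy, rfl⟩)
    · intro y hyE hy
      refine r5 ⟨S, hS⟩ ⟨π (vl s y), hyE⟩ fun hm => hS2 hm ⟨y, ?_, rfl⟩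
      exact fun h => hy (Ioo_subset_Icc_self h)

/-- the same with 775's letters. -/
theorem vac775 (hC : IsCompact C) (td : IsTotallyDisconnected C) (hol : DifferentiableOn ℂ F Cᶜ)
    (inj : InjOn F Cᶜ)
    (pc : Continuous π) (pp : Tendsto π (cocompact ℂ) (cocompact ℂ))
    (pF : ∀ z ∉ C, π (F z) = z) (Fp : ∀ w, π w ∉ C → F (π w) = w)
    (fib : ∀ w w', π w = π w' → π w ∈ C → ∀ u ∈ segment ℝ w w', π u = π w)
    (null : volume (π ⁻¹' C) = 0) {x : ℂ → ℝ} (xp : ∀ w, x (π w) = w.re)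
    {a : ℂ → ℝ} (ha : Q C a) (hc : Continuous a)
    (hiso : ∀ h : ℝ → ℝ, ContDiff ℝ ∞ h → HasCompactSupport h → ∀ χ : ℂ → ℝ, ContDiff ℝ ∞ χ →
      HasCompactSupport χ → (∀ z ∈ C, ∀ᶠ w in 𝓝 z, χ w = χ z) →
      om C (fun z => h (x z) * χ z) a = 0) :
    ∀ᵐ s : ℝ, ∀ y1 y2 : ℝ, a (π ⟨s, y2⟩) - a (π ⟨s, y1⟩) =
      ∫ y in y1..y2, Bd_775.gy (a ∘ π) ⟨s, y⟩ :=
  vac hC td ⟨hC.isClosed.isOpen_compl, hol, inj⟩ pc pp pF Fp fib null xp ha hc hiso

end

end

end Crest.Agent.R105.Vac_937
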