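import Crest.Agent.R105.SkA1_8
import Crest.Agent.R105.Ni2_459

/-!
# Row 105, S0138 first half: `VALP` and `AREAP` of `SkA1_8` (helper595)
-/

set_option autoImplicit false

open MeasureTheory Set Filter Topology Metric
open scoped NNReal ENNReal ContDiff

namespace Crest.Agent.R105.Val_595

open Crest.AnalysisR Bd_775 IfB_641 Tc_808 Ni_459 Grd_782

/-- a countable family of vertical lines is null -/
lemma null_fst {D : Set ℝ} (hD : D.Countable) : volume {p : ℝ × ℝ | p.1 ∈ D} = 0 := by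
  have h1 : {p : ℝ × ℝ | p.1 ∈ D} = D ×ˢ (univ : Set ℝ) := by
    ext p; simp
  rw [h1, Measure.volume_eq_prod, Measure.prod_prod, hD.measure_zero, zero_mul]

/-- the values of `up a` at the jump components of `b` are countably many -/
lemma countable_val {Y : Set ℂ} {a b : ℂ → ℝ} (hY : IsExteriorDomain Yᶜ) (hb : TT Y b) :
    {s | ∃ z ∈ Y, lo Y b z ≠ up Y b z ∧ s = up Y a z}.Countable := by
  classical
  have hlb : LB b := LB.of_bdd hb.q.bdd
  have hrep : ∀ K : Cmp Y, ∃ z, z ∈ K.1 := fun K => K.nonempty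
  choose rp hrp using hrep
  refine (hb.countable.image fun K => up Y a (rp K)).mono ?_
  rintro s ⟨z, hz, hne, rfl⟩
  have hzK : z ∈ (Cmp.of hz).1 := mem_connectedComponentIn hz
  refine ⟨Cmp.of hz, ?_, ?_⟩
  · intro h0
    have h1 : osc Y b (connectedComponentIn Y z) = up Y b z - lo Y b z := osc_eq' hY hlb hz
    have h2 : osc Y b (Cmp.of hz).1 = 0 := h0
    have h3 : (Cmp.of hz).1 = connectedComponentIn Y z := rfl
    rw [h3, h1] at h2
    exact hne (by linarith)
  · have h1 : rp (Cmp.of hz) ∈ connectedComponentIn Y z := hrp (Cmp.of hz)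
    exact up_congr_cc hz h1

theorem valp : SkA_8.VALP := by
  intro Y a b w hY ha hb hw hni S hS hval
  have hsub : NP Y a w ⊆ NP Y a b ∪
      ({p : ℝ × ℝ | p.2 ∈ S} ∪ {p : ℝ × ℝ | p.1 ∈ {s | ∃ z ∈ Y, lo Y b z ≠ up Y b z ∧ s = up Y a z}}) := by
    rintro p ⟨z, hz, h1, h2, h3, h4⟩
    rcases hval z hz (h3.trans h4.symm) with ⟨h5, h6⟩ | h5 | h5
    · exact Or.inl ⟨z, hz, h1, h2, by rw [h5, h6, h4], by rw [h6, h4]⟩
    · exact Or.inr (Or.inl (by rw [h4] at h5; exact h5))
    · exact Or.inr (Or.inr ⟨z, hz, h5, h2.symm⟩)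
  refine measure_mono_null hsub (measure_union_null hni (measure_union_null (null_strip hS)
    (null_fst (countable_val hY hb))))

theorem areap : SkA_8.AREAP := by
  intro Y a b hY ha hb la lb ja jb hni F hF
  exact area_ZF hY ha hb la lb ja jb hni hF.measurableSet

end Crest.Agent.R105.Val_595
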