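import Crest.Agent.R105.SkA1_8
import Crest.Agent.R105.Ni2_459

/-!
# Row 105, S0138: `SkA_8.VALP` (helper618)

Null image only sees the honest values at the components: one application of `NI.of_rule` (459).
-/

set_option autoImplicit false

open MeasureTheory Set Filter Topology Metric
open scoped NNReal ENNReal

namespace Crest.Agent.R105.Valp_618

open Crest.AnalysisR Bd_775 IfB_641 Tc_808 Ni_459

theorem valp : SkA_8.VALP := by
  intro Y a b w hY ha hb hw hab S hS h
  refine NI.of_rule (a := a) (f := w) (b := fun _ => b) (fun _ => hab) (G := fun _ => id)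
    (fun _ => ⟨1, LipschitzWith.id⟩) hS (J := Jmp Y b) hb.countable ?_
  intro z hz hJ hla hlw
  have hlb : lo Y b z = up Y b z := by
    have h1 : Tc_808.osc Y b (connectedComponentIn Y z) = 0 := by
      by_contra hcon
      exact hJ hcon
    have h2 := osc_eq' hY (LB.of_bdd hb.q.bdd) hz
    rw [h1] at h2
    linarith
  rcases h z hz hlw with ⟨h1, h2⟩ | h1 | h1
  · left
    exact ⟨0, 0, h1, by simp only [id]; rw [hlw, ← h2, h1]⟩
  · right
    rw [hlw]; exact h1
  · exact absurd hlb h1

end Crest.Agent.R105.Valp_618
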