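import Crest.Agent.R105.Vb1_818

/-!
# Row 105, S0138 (NI frame): slice bounds, part 2 (helper818)

`slb_pull` : slice bounds are transported from the picture plane to the `z`-plane.
-/

set_option autoImplicit false

open MeasureTheory Set Filter Topology Metric
open scoped NNReal ENNReal

namespace Crest.Agent.R105.Vb_818

open Ends_897 Tc_808 Ni_459 Ta_937 Nip_31 Crest.AnalysisR

noncomputable section

variable {U V : Set ℂ} {F : ℂ → ℂ} {φ g u f : ℂ → ℝ}

/-- **transport of slice bounds** -/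
theorem slb_pull (h : EndMap U V F) (he : ∀ z ∈ U, u z = φ (F z)) (hf : ∀ z ∈ U, f z = g (F z))
    {t : ℝ} (hs : ∀ R, SlB Vᶜ φ g R t) (R : ℝ) : SlB Uᶜ u f R t := by
  classical
  have hUo : IsOpen U := h.hU.1
  have hVo : IsOpen V := h.hV.1
  -- the radius
  obtain ⟨R', hR'⟩ : ∃ R', sat h (ball 0 R) ⊆ ball 0 R' := by
    have hb := isBounded_sat h (C := ball (0:ℂ) R) isBounded_ball
    obtain ⟨R', hR'⟩ := hb.subset_ball 0
    exact ⟨R', hR'⟩
  obtain ⟨ν, S, hν, hSc, hSs, hν0, hC⟩ := hs R'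
  have hVm : MeasurableSet V := hVo.measurableSet
  have hUm : MeasurableSet U := hUo.measurableSet
  have hVc : IsCompact Vᶜ := Ends_897.isCompact_compl h.hV
  have hcl : ∀ L : Cmp Vᶜ, IsClosed L.1 := fun L => (L.isCompact hVc).isClosed
  have hinv : AEMeasurable h.inv (ν.restrict V) := h.symm.cont.aemeasurable hVm
  set 𝒮 : Set (Cmp Uᶜ) := {K | (corE h K).1 ⊆ S} with h𝒮
  have h𝒮c : 𝒮.Countable := by
    have : 𝒮 = (corE h) ⁻¹' {L : Cmp Vᶜ | L.1 ⊆ S} := rfl
    rw [this]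
    exact hSc.preimage_of_injOn (corE h).injective.injOn
  have : Countable 𝒮 := h𝒮c.to_subtype
  set μ : Measure ℂ := (ν.restrict V).map h.inv +
    Measure.sum fun K : 𝒮 => ν (corE h K.1).1 • Measure.dirac (pt K.1) with hμ
  set T : Set ℂ := ⋃ K ∈ 𝒮, K.1 with hT
  have hUc : IsCompact Uᶜ := Ends_897.isCompact_compl h.hU
  have hTm : MeasurableSet T := MeasurableSet.biUnion h𝒮c fun K _ =>
    (K.isCompact hUc).isClosed.measurableSet
  have hTS : ∀ K : Cmp Uᶜ, (K.1 ∩ T).Nonempty → K ∈ 𝒮 := by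
    rintro K ⟨z, hz, hzT⟩
    rw [hT] at hzT
    simp only [mem_iUnion] at hzT
    obtain ⟨K', hK', hzK'⟩ := hzT
    have : K = K' := (K.eq_of_mem hz).trans (K'.eq_of_mem hzK').symm
    rw [this]; exact hK'
  have hdisj : Pairwise (Function.onFun Disjoint fun K : 𝒮 => (corE h K.1).1) := by
    intro K K' hne
    refine Cmp.disjoint fun he => hne ?_
    exact Subtype.ext ((corE h).injective he)
  have hsumfin : ∑' K : 𝒮, ν (corE h K.1).1 ≠ ∞ := by
    rw [← measure_iUnion hdisj fun K => (hcl _).measurableSet]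
    exact measure_ne_top _ _
  have hμapp : ∀ A : Set ℂ, MeasurableSet A → μ A =
      ν.restrict V (h.inv ⁻¹' A) + ∑' K : 𝒮, ν (corE h K.1).1 * A.indicator 1 (pt K.1) := by
    intro A hA
    rw [hμ, Measure.add_apply, Measure.map_apply_of_aemeasurable hinv hA, Measure.sum_apply _ hA]
    congr 1
    refine tsum_congr fun K => ?_
    rw [Measure.smul_apply, smul_eq_mul, Measure.dirac_apply' _ hA]
  have hμfin : IsFiniteMeasure μ := by
    refine ⟨?_⟩
    rw [hμapp _ MeasurableSet.univ]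
    refine ENNReal.add_lt_top.2 ⟨measure_lt_top _ _, ?_⟩
    simp only [indicator_univ, Pi.one_apply, mul_one]
    exact lt_top_iff_ne_top.2 hsumfin
  refine ⟨μ, T, hμfin, ?_, ?_, ?_, ?_⟩
  · refine h𝒮c.mono fun K hK => ?_
    obtain ⟨z, hz⟩ := K.nonempty
    exact hTS K ⟨z, hz, hK hz⟩
  · intro K hK z hz
    rw [hT]
    exact mem_biUnion (hTS K hK) hz
  · have hm : MeasurableSet (Uᶜ \ T) := hUm.compl.diff hTm
    rw [hμapp _ hm]
    have e1 : ν.restrict V (h.inv ⁻¹' (Uᶜ \ T)) = 0 := by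
      rw [Measure.restrict_apply₀' hVm.nullMeasurableSet]
      have : h.inv ⁻¹' (Uᶜ \ T) ∩ V = ∅ := by
        rw [eq_empty_iff_forall_notMem]
        rintro w ⟨h1, h2⟩
        exact h1.1 (h.inv_mem h2)
      rw [this, measure_empty]
    rw [e1, zero_add, ENNReal.tsum_eq_zero]
    intro K
    have : pt K.1 ∉ Uᶜ \ T := fun hm => hm.2 (by rw [hT]; exact mem_biUnion K.2 (pt_mem K.1))
    rw [indicator_of_notMem this, mul_zero]
  · intro C hCL hCc hCp hCs p hp q hq
    have hCS : Sa Uᶜ C := hCs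
    obtain ⟨k1, k2, k3, k4⟩ := sat_continuum h hCS hCc hCp
    have hp' : F p ∈ sat h C \ Vᶜ := by rw [k4]; exact ⟨p, hp, rfl⟩
    have hq' : F q ∈ sat h C \ Vᶜ := by rw [k4]; exact ⟨q, hq, rfl⟩
    have hpU : p ∈ U := not_not.1 hp.2
    have hqU : q ∈ U := not_not.1 hq.2
    have hsub : sat h C ⊆ Lv Vᶜ φ t ∩ ball 0 R' := by
      refine subset_inter ?_ ?_
      · rw [← sat_Lv h he t]
        exact sat_mono h fun z hz => (hCL hz).1
      · exact (sat_mono h fun z hz => (hCL hz).2).trans hR'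
    have h1 := hC (sat h C) hsub k1 k2 k3 (F p) hp' (F q) hq'
    rw [← hf p hpU, ← hf q hqU] at h1
    refine h1.trans (ENNReal.toReal_mono (measure_ne_top μ C) ?_)
    have hCm : MeasurableSet C := hCc.isClosed.measurableSet
    rw [hμapp C hCm]
    have hDm : MeasurableSet (sat h C) := k1.isClosed.measurableSet
    -- decomposition of `sat h C`
    have hcov : sat h C ⊆ (sat h C ∩ V) ∪ (Vᶜ \ S) ∪
        ⋃ K : 𝒮, (if K.1.1 ⊆ C then (corE h K.1).1 else ∅) := by
      intro ζ hζ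
      by_cases hζV : ζ ∈ V
      · exact Or.inl (Or.inl ⟨hζ, hζV⟩)
      by_cases hζS : ζ ∈ S
      · right
        obtain ⟨K, hK⟩ := exists_K h hζV
        have hKS : K ∈ 𝒮 := hSs _ ⟨ζ, hK, hζS⟩
        have hKC : K.1 ⊆ C := (mem_sat_of_mem h K hK).1 hζ
        refine mem_iUnion.2 ⟨⟨K, hKS⟩, ?_⟩
        simp only
        rw [if_pos hKC]; exact hK
      · exact Or.inl (Or.inr ⟨hζV, hζS⟩)
    have h2 : ν (sat h C ∩ V) ≤ ν.restrict V (h.inv ⁻¹' C) := by
      rw [Measure.restrict_apply₀' hVm.nullMeasurableSet]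
      refine measure_mono fun ζ hζ => ⟨?_, hζ.2⟩
      have h3 : F (h.inv ζ) = ζ := h.inv_right hζ.2
      have h4 : F (h.inv ζ) ∈ sat h C := by rw [h3]; exact hζ.1
      exact (F_mem_sat h (h.inv_mem hζ.2)).1 h4
    have h3 : ν (⋃ K : 𝒮, (if K.1.1 ⊆ C then (corE h K.1).1 else ∅)) ≤
        ∑' K : 𝒮, ν (corE h K.1).1 * C.indicator 1 (pt K.1) := by
      refine (measure_iUnion_le _).trans (ENNReal.tsum_le_tsum fun K => ?_)
      by_cases hK : K.1.1 ⊆ C
      · rw [if_pos hK, indicator_of_mem (hK (pt_mem K.1)), Pi.one_apply, mul_one]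
      · rw [if_neg hK, measure_empty]; exact zero_le
    calc ν (sat h C) ≤ ν ((sat h C ∩ V) ∪ (Vᶜ \ S) ∪
          ⋃ K : 𝒮, (if K.1.1 ⊆ C then (corE h K.1).1 else ∅)) := measure_mono hcov
      _ ≤ (ν (sat h C ∩ V) + ν (Vᶜ \ S)) +
          ν (⋃ K : 𝒮, (if K.1.1 ⊆ C then (corE h K.1).1 else ∅)) :=
        (measure_union_le _ _).trans (add_le_add_left (measure_union_le _ _) _)
      _ ≤ ν.restrict V (h.inv ⁻¹' C) + ∑' K : 𝒮, ν (corE h K.1).1 * C.indicator 1 (pt K.1) := by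
        rw [hν0, add_zero]; exact add_le_add h2 h3

end

end Crest.Agent.R105.Vb_818
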