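import Crest.Agent.R105.Kin5_238
import Crest.Agent.R105.Loc1_271
import Crest.Agent.R105.CFcls_363

/-!
# Row 105, lemma A (vi), part 1: cut-offs, vertical Poincaré inequality in the class `Vl`,
one half of a localised test pair.
-/

set_option autoImplicit false

namespace Crest.Agent.R105.Vi_363

open Set Filter MeasureTheory Topology
open scoped ENNReal NNReal
open CF_363 Kin_238

/-! ### cut-offs -/

theorem exists_lip_cutoff {S N : Set (ℝ × ℝ)} (hS : IsCompact S) (hne : S.Nonempty)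
    (hN : IsOpen N) (hSN : S ⊆ N) :
    ∃ (χ : ℝ × ℝ → ℝ) (M : ℝ≥0) (O : Set (ℝ × ℝ)), LipschitzWith M χ ∧
      (∀ p, 0 ≤ χ p ∧ χ p ≤ 1) ∧ IsOpen O ∧ S ⊆ O ∧ (∀ p ∈ O, χ p = 1) ∧
      IsCompact (tsupport χ) ∧ tsupport χ ⊆ N := by
  obtain ⟨δ, hδ, hδN⟩ := hS.exists_cthickening_subset_open hN hSN
  set r : ℝ := δ / 2 with hr
  have hr0 : 0 < r := by positivity
  set χ : ℝ × ℝ → ℝ := fun p => max 0 (min 1 (2 - Metric.infDist p S / r)) with hχ
  have h1 : LipschitzWith (1 / r).toNNReal (fun z : ℝ × ℝ => 2 - Metric.infDist z S / r) := by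
    refine LipschitzWith.of_dist_le_mul fun z w => ?_
    rw [Real.dist_eq, Real.coe_toNNReal _ (by positivity)]
    have h2 := (Metric.lipschitz_infDist_pt S).dist_le_mul z w
    rw [Real.dist_eq, NNReal.coe_one, one_mul] at h2
    have h3 : 2 - Metric.infDist z S / r - (2 - Metric.infDist w S / r) =
        -((Metric.infDist z S - Metric.infDist w S) / r) := by ring
    rw [h3, abs_neg, abs_div, abs_of_pos hr0, div_mul_eq_mul_div, one_mul]
    exact div_le_div_of_nonneg_right h2 hr0.le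
  have h2 : LipschitzWith (1 / r).toNNReal χ := (h1.const_min 1).const_max 0
  have hsub : tsupport χ ⊆ Metric.cthickening δ S := by
    refine closure_minimal ?_ Metric.isClosed_cthickening
    intro p hp
    by_contra hnot
    obtain ⟨y, hy, hyd⟩ := hS.exists_infDist_eq_dist hne p
    have hlt : δ < Metric.infDist p S := by
      by_contra hle
      push Not at hle
      exact hnot (Metric.mem_cthickening_of_dist_le p y δ S hy (hyd ▸ hle))
    refine hp ?_
    show max 0 (min 1 (2 - Metric.infDist p S / r)) = 0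
    have h3 : 2 ≤ Metric.infDist p S / r := by
      rw [le_div_iff₀ hr0, hr]; linarith
    exact max_eq_left ((min_le_right _ _).trans (by linarith))
  refine ⟨χ, (1 / r).toNNReal, Metric.thickening r S, h2, fun p => ⟨le_max_left _ _, ?_⟩,
    Metric.isOpen_thickening, Metric.self_subset_thickening hr0 S, fun p hp => ?_, ?_,
    hsub.trans hδN⟩
  · exact max_le zero_le_one (min_le_left _ _)
  · rw [Metric.mem_thickening_iff_infDist_lt hne] at hp
    have h3 : Metric.infDist p S / r < 1 := (div_lt_one hr0).2 hp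
    show max 0 (min 1 (2 - Metric.infDist p S / r)) = 1
    rw [min_eq_left (by linarith), max_eq_right zero_le_one]
  · exact hS.cthickening.of_isClosed_subset (isClosed_tsupport χ) hsub

variable {a b c B : ℝ} {𝓗 : Set Hair} {e : ℝ × ℝ → ℝ}

/-! ### vertical Poincaré inequality -/

theorem aestronglyMeasurable_Wo (he : CFJ 𝓗 (Wl a b c B) e) :
    AEStronglyMeasurable e (volume.restrict (Wo a b c B)) := by
  obtain ⟨J, -, L, C, hL, hSL, hC⟩ := he
  have h1 : ContinuousOn e (Wo a b c B \ cut J) :=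
    (continuousOn_of hSL).mono (sdiff_subset_sdiff_left Wo_subset)
  have h2 := h1.aestronglyMeasurable (μ := (volume : Measure (ℝ × ℝ)))
    (isOpen_diff_cut isOpen_Wo J).measurableSet
  have h3 : (volume : Measure (ℝ × ℝ)).restrict (Wo a b c B \ cut J) =
      volume.restrict (Wo a b c B) :=
    Measure.restrict_congr_set (sdiff_ae_eq_self.2
      (measure_mono_null inter_subset_right (volume_cut J)))
  rwa [h3] at h2

theorem lip_line {J : Finset Hair} {L δ : ℝ} (hL : 0 ≤ L) (hSL : SL (Wl a b c B \ cut J) L e)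
    (hδ : 0 < δ) (h0 : ∀ p ∈ Wl a b c B, p.2 < c + δ → e p = 0) {x : ℝ} (hx : a < x ∧ x < b)
    (hxJ : ∀ K ∈ J, x ≠ K.x) :
    LipschitzOnWith L.toNNReal (fun t => (Wl a b c B).indicator e (x, t)) (Icc c B) := by
  have hmem : ∀ t ∈ Ioc c B, (x, t) ∈ Wl a b c B \ cut J := fun t ht =>
    ⟨⟨hx, ht.1, ht.2⟩, fun ⟨K, hK, hp⟩ => hxJ K hK hp.1⟩
  have h1 : ∀ s ∈ Ioc c B, ∀ t ∈ Ioc c B, |e (x, s) - e (x, t)| ≤ L * |s - t| := by
    intro s hs t ht
    have := hSL (x, s) (x, t) ?_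
    · rwa [Prod.dist_eq, dist_self, Real.dist_eq, max_eq_right (abs_nonneg _)] at this
    · rw [segment_y]
      rintro _ ⟨u, hu, rfl⟩
      exact hmem u ((ordConnected_Ioc.uIcc_subset hs ht) hu)
  have hval : ∀ t ∈ Ioc c B, (Wl a b c B).indicator e (x, t) = e (x, t) := fun t ht =>
    indicator_of_mem (hmem t ht).1 e
  have hc : (Wl a b c B).indicator e (x, c) = 0 :=
    indicator_of_notMem (fun h => lt_irrefl c h.2.1) e
  have h2 : ∀ t ∈ Ioc c B, |e (x, t)| ≤ L * |t - c| := by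
    intro t ht
    set u := min t (c + δ / 2) with hu
    have hu1 : c < u := lt_min ht.1 (by linarith)
    have hu2 : u ≤ t := min_le_left _ _
    have hu3 : u ≤ c + δ / 2 := min_le_right _ _
    have h3 := h1 t ht u ⟨hu1, hu2.trans ht.2⟩
    rw [h0 (x, u) ⟨hx, hu1, hu2.trans ht.2⟩ (by show u < c + δ; linarith), sub_zero,
      abs_of_nonneg (by linarith : 0 ≤ t - u)] at h3
    rw [abs_of_pos (by linarith [ht.1] : 0 < t - c)]
    exact h3.trans (mul_le_mul_of_nonneg_left (by linarith) hL)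
  refine LipschitzOnWith.of_dist_le_mul fun s hs t ht => ?_
  rw [Real.coe_toNNReal _ hL, Real.dist_eq, Real.dist_eq]
  rcases eq_or_lt_of_le hs.1 with rfl | hs1
  · rcases eq_or_lt_of_le ht.1 with rfl | ht1
    · simp
    · rw [hc, hval t ⟨ht1, ht.2⟩, zero_sub, abs_neg, abs_sub_comm]
      exact h2 t ⟨ht1, ht.2⟩
  · rcases eq_or_lt_of_le ht.1 with rfl | ht1
    · rw [hc, hval s ⟨hs1, hs.2⟩, sub_zero]
      exact h2 s ⟨hs1, hs.2⟩
    · rw [hval s ⟨hs1, hs.2⟩, hval t ⟨ht1, ht.2⟩]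
      exact h1 s ⟨hs1, hs.2⟩ t ⟨ht1, ht.2⟩

theorem Wo_ae_eq_box : (Wo a b c B : Set (ℝ × ℝ)) =ᵐ[volume] Ioc a b ×ˢ Ioc c B := by
  rw [Wo_eq, Measure.volume_eq_prod]
  exact Measure.set_prod_ae_eq Ioo_ae_eq_Ioc Ioo_ae_eq_Ioc

/-- **vertical Poincaré inequality** for the class `Vl` -/
theorem poincare_Vl (he : e ∈ Vl 𝓗 a b c B) (hcB : c ≤ B) :
    IntegrableOn (fun p => e p ^ 2) (Wo a b c B) ∧
      ∫ p in Wo a b c B, e p ^ 2 ≤ (B - c) ^ 2 * En (Wo a b c B) e := by
  have hcfj := he.1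
  have hfin := isFiniteMeasure_Wo (a := a) (b := b) (c := c) (B := B)
  obtain ⟨⟨J, hJ, L, C, hL, hSL, hC⟩, δ, hδ, h0⟩ := he
  have hmeas := aestronglyMeasurable_Wo hcfj
  have hbd : ∀ᵐ p ∂((volume : Measure (ℝ × ℝ)).restrict (Wo a b c B)), |e p| ≤ C := by
    refine ae_restrict_of_diff isOpen_Wo (volume_cut J) (Eventually.of_forall fun p hp => ?_)
    exact hC p ⟨Wo_subset hp.1, hp.2⟩
  have hint : IntegrableOn (fun p => e p ^ 2) (Wo a b c B) := by
    refine Integrable.of_bound (hmeas.pow 2) (C ^ 2) ?_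
    filter_upwards [hbd] with p hp
    rw [Real.norm_eq_abs, abs_pow]
    exact pow_le_pow_left₀ (abs_nonneg _) hp 2
  refine ⟨hint, ?_⟩
  set f : ℝ × ℝ → ℝ := (Wl a b c B).indicator e with hf
  have hbox : (volume : Measure (ℝ × ℝ)).restrict (Ioc a b ×ˢ Ioc c B) =
      volume.restrict (Wo a b c B) := Measure.restrict_congr_set Wo_ae_eq_box.symm
  -- the vertical derivative
  have hdy : Loc_271.dy f =ᵐ[(volume : Measure (ℝ × ℝ)).restrict (Wo a b c B)] gy e := by
    filter_upwards [hcfj.mono (subset_refl _) Wo_subset |>.ae_differentiableAt isOpen_Wo,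
      ae_restrict_mem isOpen_Wo.measurableSet] with p hp hpW
    have h1 : (fun t => f (p.1, t)) =ᶠ[𝓝 p.2] fun t => e (p.1, t) := by
      have h2 : ∀ᶠ q in 𝓝 p, f q = e q := by
        filter_upwards [isOpen_Wo.mem_nhds hpW] with q hq
        exact indicator_of_mem (Wo_subset hq) e
      have h3 : Tendsto (fun t : ℝ => (p.1, t)) (𝓝 p.2) (𝓝 p) := by
        have : Continuous fun t : ℝ => (p.1, t) := by fun_prop
        exact this.tendsto p.2
      exact h3.eventually h2
    unfold Loc_271.dy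
    rw [h1.deriv_eq, (gy_eq_deriv (x := p.1) (y := p.2) hp).deriv]
  have hP := Loc_271.poincare_box (f := f) (c := a) (d := b) hcB (by
    have h1 : ∀ᵐ x : ℝ, ∀ K ∈ J, x ≠ K.x := by
      have h2 : ∀ᵐ x : ℝ, ∀ K ∈ (J : Set Hair), x ≠ K.x :=
        (ae_ball_iff J.countable_toSet).2 fun K _ => by rw [ae_iff]; simp
      filter_upwards [h2] with x hx K hK using hx K (Finset.mem_coe.2 hK)
    have h2 : ∀ᵐ x : ℝ, x ≠ b := by rw [ae_iff]; simp
    filter_upwards [ae_restrict_of_ae h1, ae_restrict_of_ae h2,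
      ae_restrict_mem measurableSet_Ioc] with x hx1 hx2 hx3
    refine ⟨?_, indicator_of_notMem (fun h => lt_irrefl c h.2.1) e⟩
    have h3 := lip_line hL hSL hδ h0 ⟨hx3.1, lt_of_le_of_ne hx3.2 hx2⟩ hx1
    rw [← uIcc_of_le hcB] at h3
    exact h3.absolutelyContinuousOnInterval) (by
    rw [hbox]
    exact (measurable_gy e).aemeasurable.congr hdy.symm)
  rw [hbox] at hP
  have hl : ∫⁻ p in Wo a b c B, ‖f p‖ₑ ^ 2 = ENNReal.ofReal (∫ p in Wo a b c B, e p ^ 2) := by
    rw [ofReal_integral_eq_lintegral_ofReal hint (Eventually.of_forall fun p => sq_nonneg _)]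
    refine setLIntegral_congr_fun isOpen_Wo.measurableSet fun p hp => ?_
    show ‖f p‖ₑ ^ 2 = ENNReal.ofReal (e p ^ 2)
    rw [show f p = e p from indicator_of_mem (Wo_subset hp) e, ← ofReal_norm,
      ← ENNReal.ofReal_pow (norm_nonneg _), Real.norm_eq_abs, sq_abs]
  have hr : ∫⁻ p in Wo a b c B, ‖Loc_271.dy f p‖ₑ ^ 2 ≤ ENNReal.ofReal (En (Wo a b c B) e) := by
    have hi := (hcfj.mono (subset_refl _) Wo_subset).integrableOn_g2 isOpen_Wo volume_Wo_lt.ne
    rw [En, ofReal_integral_eq_lintegral_ofReal hi (Eventually.of_forall fun p => g2_nonneg e p)]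
    refine lintegral_mono_ae ?_
    filter_upwards [hdy] with p hp
    rw [hp, ← ofReal_norm, ← ENNReal.ofReal_pow (norm_nonneg _), Real.norm_eq_abs, sq_abs]
    refine ENNReal.ofReal_le_ofReal ?_
    unfold g2
    nlinarith [sq_nonneg (gx e p)]
  rw [hl] at hP
  have h1 := hP.trans (mul_le_mul_right hr _)
  rw [← ENNReal.ofReal_pow (by linarith), ← ENNReal.ofReal_mul (by positivity)] at h1
  exact (ENNReal.ofReal_le_ofReal_iff (mul_nonneg (sq_nonneg _) (En_nonneg _ _))).1 h1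

end Crest.Agent.R105.Vi_363
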