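import Crest.Agent.R105.Vi1_363
import Crest.Agent.R105.Skp2_257

/-!
# Row 105, lemma A (vi), part 2: `Kin_238.Null` on one big box gives `Skp2_257.NullN`.
-/

set_option autoImplicit false

namespace Crest.Agent.R105.Vi_363

open Set Filter MeasureTheory Topology
open scoped ENNReal NNReal
open CF_363 Kin_238

variable {a b c B : ℝ} {𝓗 : Set Hair} {e : ℝ × ℝ → ℝ}

/-- truncation to `[0,1]` -/
noncomputable def cl (t : ℝ) : ℝ := min (max t 0) 1

theorem cl_nonneg (t : ℝ) : 0 ≤ cl t := le_min (le_max_right _ _) zero_le_one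
theorem cl_le_one (t : ℝ) : cl t ≤ 1 := min_le_right _ _
theorem continuous_cl : Continuous cl := by unfold cl; fun_prop

theorem cl_zero : cl 0 = 0 := by simp [cl]

theorem one_le_cl_add {s t : ℝ} (h : 1 ≤ s + t) : 1 ≤ cl s + cl t := by
  have hs := cl_nonneg s
  have ht := cl_nonneg t
  rcases le_or_gt 1 s with h1 | h1
  · have : cl s = 1 := by unfold cl; rw [max_eq_left (by linarith), min_eq_right h1]
    linarith
  · rcases le_or_gt 1 t with h2 | h2
    · have : cl t = 1 := by unfold cl; rw [max_eq_left (by linarith), min_eq_right h2]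
      linarith
    · have e1 : s ≤ cl s := le_min (le_max_left _ _) h1.le
      have e2 : t ≤ cl t := le_min (le_max_left _ _) h2.le
      linarith

theorem cl_mem (he : e ∈ Vl 𝓗 a b c B) : (fun p => cl (e p)) ∈ Vl 𝓗 a b c B := by
  obtain ⟨h1, δ, hδ, h2⟩ := he
  refine ⟨(h1.max (CFJ_const 0)).min (CFJ_const 1), δ, hδ, fun p hp hpc => ?_⟩
  show cl (e p) = 0
  rw [h2 p hp hpc, cl_zero]

theorem En_cl_le (he : CFJ 𝓗 (Wl a b c B) e) :
    En (Wo a b c B) (fun p => cl (e p)) ≤ En (Wo a b c B) e := by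
  obtain ⟨J, -, L, C, hL, hS, hC⟩ := he
  have hS' := hS.mono (sdiff_subset_sdiff_left (Wo_subset (a := a) (b := b) (c := c) (B := B)))
  have h1 := En_max_const_le hS' 0 isOpen_Wo (isClosed_cut J) (volume_cut J) volume_Wo_lt.ne
  have h2 := En_min_const_le (hS'.max (SL_const 0)) 1 isOpen_Wo (isClosed_cut J) (volume_cut J)
    volume_Wo_lt.ne
  exact h2.trans h1

/-- the open box, unbounded above -/
def Bx (a b c : ℝ) : Set (ℝ × ℝ) := Ioo a b ×ˢ Ioi c

theorem isOpen_Bx : IsOpen (Bx a b c) := isOpen_Ioo.prod isOpen_Ioi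

theorem Lo_inter_Bx : Skp2_257.Lo B ∩ Bx a b c = Wo a b c B := by
  ext p
  simp only [Skp2_257.Lo, Bx, Wo, mem_inter_iff, mem_ofPred_eq, mem_prod, mem_Ioo, mem_Ioi]
  tauto

/-- the localised function -/
noncomputable def loc (a b c : ℝ) (χ e : ℝ × ℝ → ℝ) : ℝ × ℝ → ℝ :=
  (Bx a b c).indicator fun p => χ p * cl (e p)

theorem loc_of_mem {χ : ℝ × ℝ → ℝ} {p : ℝ × ℝ} (hp : p ∈ Bx a b c) :
    loc a b c χ e p = χ p * cl (e p) := indicator_of_mem hp _

theorem isOpen_Lo (B : ℝ) : IsOpen (Skp2_257.Lo B) := isOpen_lt continuous_snd continuous_const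

/-- **one half** of the localised pair -/
theorem half_loc {χ : ℝ × ℝ → ℝ} {M : ℝ≥0} (hχ : LipschitzWith M χ)
    (h01 : ∀ p, 0 ≤ χ p ∧ χ p ≤ 1) (hsupp : tsupport χ ⊆ Bx a b c) (hcB : c ≤ B)
    (he : e ∈ Vl 𝓗 a b c B) :
    CFJ 𝓗 (Skp2_257.Lo B) (loc a b c χ e) ∧ (∀ p, 0 ≤ loc a b c χ e p ∧ loc a b c χ e p ≤ 1) ∧
      (∀ p, p ∉ tsupport χ → loc a b c χ e p = 0) ∧
      En (Skp2_257.Lo B) (loc a b c χ e) ≤
        (2 + 4 * (M : ℝ) ^ 2 * (B - c) ^ 2) * En (Wo a b c B) e := by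
  have hcl := cl_mem he
  have hχ0 : ∀ p, p ∉ tsupport χ → χ p = 0 := fun p hp => image_eq_zero_of_notMem_tsupport hp
  have hχJ : ∀ W, CFJ 𝓗 W χ := fun W =>
    (CF_of_lipschitz hχ (C := 1) fun p _ => by rw [abs_of_nonneg (h01 p).1]; exact (h01 p).2).cfj
  have hprod : CFJ 𝓗 (Wo a b c B) (fun p => χ p * cl (e p)) :=
    (hχJ _).mul (hcl.1.mono (subset_refl _) Wo_subset)
  have hcfj : CFJ 𝓗 (Skp2_257.Lo B) (loc a b c χ e) := by
    refine hprod.indicator isOpen_Bx (isClosed_tsupport χ).isOpen_compl ?_ ?_ ?_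
    · intro p _
      by_cases h : p ∈ tsupport χ
      · exact Or.inl (hsupp h)
      · exact Or.inr h
    · rw [Lo_inter_Bx]
    · rintro p ⟨-, hp⟩
      show χ p * cl (e p) = 0
      rw [hχ0 p hp, zero_mul]
  have hrg : ∀ p, 0 ≤ loc a b c χ e p ∧ loc a b c χ e p ≤ 1 := by
    intro p
    by_cases hp : p ∈ Bx a b c
    · rw [loc_of_mem hp]
      exact ⟨mul_nonneg (h01 p).1 (cl_nonneg _),
        mul_le_one₀ (h01 p).2 (cl_nonneg _) (cl_le_one _)⟩
    · rw [loc, indicator_of_notMem hp]; norm_num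
  have hz : ∀ p, p ∉ tsupport χ → loc a b c χ e p = 0 := by
    intro p hp
    by_cases h : p ∈ Bx a b c
    · rw [loc_of_mem h, hχ0 p hp, zero_mul]
    · exact indicator_of_notMem h _
  refine ⟨hcfj, hrg, hz, ?_⟩
  -- energy
  have hcl' : CFJ 𝓗 (Wo a b c B) (fun p => cl (e p)) := hcl.1.mono (subset_refl _) Wo_subset
  have hWLo : Wo a b c B ⊆ Skp2_257.Lo B := fun p hp => hp.2.2
  have hE1 : En (Skp2_257.Lo B) (loc a b c χ e) = ∫ p in Wo a b c B, g2 (loc a b c χ e) p := by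
    unfold En
    refine setIntegral_eq_of_subset_of_forall_sdiff_eq_zero (isOpen_Lo B).measurableSet hWLo ?_
    rintro p ⟨hpL, hpW⟩
    have hpB : p ∉ Bx a b c := fun h => hpW (Lo_inter_Bx (a := a) ▸ ⟨hpL, h⟩)
    have hpS : p ∉ tsupport χ := fun h => hpB (hsupp h)
    have h1 : loc a b c χ e =ᶠ[𝓝 p] fun _ => 0 := by
      filter_upwards [(isClosed_tsupport χ).isOpen_compl.mem_nhds hpS] with q hq using hz q hq
    have hx : gx (loc a b c χ e) p = 0 := by
      rw [gx_congr h1]; simp [gx]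
    have hy : gy (loc a b c χ e) p = 0 := by
      rw [gy_congr h1]; simp [gy]
    simp [g2, hx, hy]
  obtain ⟨hi, hP⟩ := poincare_Vl hcl hcB
  have hi2 := hcl'.integrableOn_g2 isOpen_Wo volume_Wo_lt.ne
  have hE2 : ∫ p in Wo a b c B, g2 (loc a b c χ e) p ≤
      ∫ p in Wo a b c B, (2 * g2 (fun p => cl (e p)) p + 4 * (M : ℝ) ^ 2 * cl (e p) ^ 2) := by
    have hi1 : IntegrableOn (g2 (loc a b c χ e)) (Wo a b c B) :=
      (hcfj.mono (subset_refl _) hWLo).integrableOn_g2 isOpen_Wo volume_Wo_lt.ne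
    refine integral_mono_ae hi1 ((hi2.const_mul 2).add (hi.const_mul _)) ?_
    filter_upwards [(hχJ (Wo a b c B)).ae_differentiableAt isOpen_Wo,
      hcl'.ae_differentiableAt isOpen_Wo, ae_restrict_mem isOpen_Wo.measurableSet] with p h1 h2 hpW
    have h3 : loc a b c χ e =ᶠ[𝓝 p] fun p => χ p * cl (e p) := by
      have hpB : p ∈ Bx a b c := (Lo_inter_Bx (a := a) ▸ hpW : p ∈ Skp2_257.Lo B ∩ Bx a b c).2
      filter_upwards [isOpen_Bx.mem_nhds hpB] with q hq using loc_of_mem hq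
    have h4 : g2 (loc a b c χ e) p = g2 (fun p => χ p * cl (e p)) p := by
      simp only [g2, gx_congr h3, gy_congr h3]
    show g2 (loc a b c χ e) p ≤ 2 * g2 (fun p => cl (e p)) p + 4 * (M : ℝ) ^ 2 * cl (e p) ^ 2
    rw [h4]
    refine (g2_mul_le h1 h2).trans ?_
    have h5 : g2 χ p ≤ 2 * (M : ℝ) ^ 2 :=
      (SL_of_lipschitz hχ (U := univ)).g2_le isOpen_univ M.2 (mem_univ p)
    have h6 : χ p ^ 2 ≤ 1 := pow_le_one₀ (h01 p).1 (h01 p).2
    have h7 := g2_nonneg (fun p => cl (e p)) p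
    have h8 := sq_nonneg (cl (e p))
    nlinarith [mul_le_mul_of_nonneg_right h6 h7, mul_le_mul_of_nonneg_left h5 h8]
  rw [integral_add (hi2.const_mul 2) (hi.const_mul _), integral_const_mul, integral_const_mul] at hE2
  rw [hE1]
  have hE3 := En_cl_le he.1
  have hE4 : ∫ p in Wo a b c B, g2 (fun p => cl (e p)) p = En (Wo a b c B) fun p => cl (e p) := rfl
  rw [hE4] at hE2
  have hE5 := En_nonneg (Wo a b c B) fun p => cl (e p)
  refine hE2.trans ?_
  have hM : 0 ≤ 4 * (M : ℝ) ^ 2 := by positivity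
  calc 2 * En (Wo a b c B) (fun p => cl (e p)) +
        4 * (M : ℝ) ^ 2 * ∫ p in Wo a b c B, cl (e p) ^ 2
      ≤ 2 * En (Wo a b c B) (fun p => cl (e p)) +
        4 * (M : ℝ) ^ 2 * ((B - c) ^ 2 * En (Wo a b c B) fun p => cl (e p)) := by
        gcongr
    _ = (2 + 4 * (M : ℝ) ^ 2 * (B - c) ^ 2) * En (Wo a b c B) (fun p => cl (e p)) := by ring
    _ ≤ _ := mul_le_mul_of_nonneg_left hE3 (by positivity)

/-- **values near a hair** are bounded from below by the traces -/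
theorem near_hair {J : Finset Hair} {L : ℝ} (hL : 0 ≤ L) (hSL : SL (Wl a b c B \ cut J) L e)
    {K : Hair} (hx : a < K.x ∧ K.x < b) (hB : K.b ≤ B) {η : ℝ} (hη : 0 < η) :
    ∃ O, IsOpen O ∧ K.car ⊆ O ∧ ∀ p ∈ O ∩ Wo a b c B, p ∉ cut J →
      ∃ (σ : Bool) (y : ℝ), K.b ≤ y ∧ y ≤ B ∧ tr e σ K.x y ≤ e p + η := by
  obtain ⟨r1, hr1, g1, hg1, h1⟩ := exists_side hSL true hx
  obtain ⟨r2, hr2, g2, hg2, h2⟩ := exists_side hSL false hx
  set r : ℝ := min (min r1 r2) (η / (L + 1)) with hr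
  have hr0 : 0 < r := lt_min (lt_min hr1 hr2) (by positivity)
  have hrη : L * r ≤ η := by
    have h3 : r ≤ η / (L + 1) := min_le_right _ _
    rw [le_div_iff₀ (by positivity)] at h3
    nlinarith
  refine ⟨{p | |p.1 - K.x| < r ∧ K.b - r < p.2}, ?_, ?_, ?_⟩
  · have h3 : Continuous fun p : ℝ × ℝ => |p.1 - K.x| := by fun_prop
    exact (isOpen_lt h3 continuous_const).inter (isOpen_lt continuous_const continuous_snd)
  · intro p hp
    rw [Hair.mem_car] at hp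
    refine ⟨?_, ?_⟩
    · show |p.1 - K.x| < r
      rw [hp.1, sub_self, abs_zero]; exact hr0
    · show K.b - r < p.2
      linarith [hp.2.1]
  · rintro ⟨s, y⟩ ⟨⟨hs, hy⟩, hW⟩ hJ
    have hs' : |s - K.x| < r := hs
    have hy' : K.b - r < y := hy
    have hyc : c < y := hW.2.1
    have hyB : y < B := hW.2.2
    set y' : ℝ := max y K.b with hy'def
    have hy'1 : K.b ≤ y' := le_max_right _ _
    have hy'2 : y' ≤ B := max_le hyB.le hB
    have hy'3 : c < y' := hyc.trans_le (le_max_left _ _)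
    have hyy : |y' - y| ≤ r := by
      rw [abs_of_nonneg (by linarith [le_max_left y K.b])]
      rcases le_total y K.b with h | h
      · rw [hy'def, max_eq_right h]; linarith
      · rw [hy'def, max_eq_left h]; linarith
    have main : ∀ g' : ℝ × ℝ → ℝ, LipschitzWith L.toNNReal g' →
        g' (K.x, y') ≤ g' (s, y) + η := by
      intro g' hg'
      have h3 := hg'.dist_le_mul (K.x, y') (s, y)
      rw [Real.coe_toNNReal _ hL, Real.dist_eq] at h3
      have h4 : dist ((K.x, y') : ℝ × ℝ) (s, y) ≤ r := by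
        rw [Prod.dist_eq]
        refine max_le ?_ ?_
        · show dist K.x s ≤ r
          rw [dist_comm, Real.dist_eq]; exact hs'.le
        · show dist y' y ≤ r
          rw [Real.dist_eq]; exact hyy
      have h5 := mul_le_mul_of_nonneg_left h4 hL
      have h6 := (abs_le.1 h3).2
      linarith
    have htr1 : ∀ z, c < z → z ≤ B → tr e true K.x z = g1 (K.x, z) := fun z hz hzB =>
      tr_eq_of_tendsto (tendsto_tr_aux hg1 hr1 fun u hu => ((h1 u hu).2 z hz hzB).2)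
    have htr2 : ∀ z, c < z → z ≤ B → tr e false K.x z = g2 (K.x, z) := fun z hz hzB =>
      tr_eq_of_tendsto (tendsto_tr_aux hg2 hr2 fun u hu => ((h2 u hu).2 z hz hzB).2)
    have hrr : r ≤ r1 ∧ r ≤ r2 :=
      ⟨(min_le_left _ _).trans (min_le_left _ _), (min_le_left _ _).trans (min_le_right _ _)⟩
    rw [abs_lt] at hs'
    rcases lt_trichotomy s K.x with h | h | h
    · refine ⟨false, y', hy'1, hy'2, ?_⟩
      have hmem : s ∈ sInt false K.x r2 := by
        simp only [sInt, Bool.false_eq_true, if_false]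
        exact ⟨by linarith [hs'.1, hrr.2], h⟩
      rw [htr2 y' hy'3 hy'2, ((h2 s hmem).2 y hyc hyB.le).2]
      exact main g2 hg2
    · refine ⟨true, y', hy'1, hy'2, ?_⟩
      subst h
      have h3 := tr_eq_self hSL true (x := K.x) (y := y) hx hyc hyB.le hJ
      rw [htr1 y' hy'3 hy'2, ← h3, htr1 y hyc hyB.le]
      exact main g1 hg1
    · refine ⟨true, y', hy'1, hy'2, ?_⟩
      have hmem : s ∈ sInt true K.x r1 := by
        simp only [sInt, if_true]
        exact ⟨h, by linarith [hs'.2, hrr.1]⟩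
      rw [htr1 y' hy'3 hy'2, ((h1 s hmem).2 y hyc hyB.le).2]
      exact main g1 hg1

/-! ### assembly -/

open Skp2_257

theorem car_subset {E : Set (ℝ × ℝ)} {K : Hair} (hK : K ∈ hairs E) : K.car ⊆ E := by
  obtain ⟨q, _, hP⟩ := (hK : K.car ∈ Comps E)
  rw [hP]
  exact connectedComponentIn_subset _ _

theorem Half_zero {E W N : Set (ℝ × ℝ)} {ε : ℝ} (hε : 0 < ε) :
    Skp2_257.Half E W N ε (fun _ => 0) :=
  ⟨CFJ_const 0, fun _ => by norm_num, ⟨∅, isCompact_empty, empty_subset _, fun _ _ _ => rfl⟩,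
    by rw [En_const]; exact hε.le⟩

/-- **(vi)**: conductance zero on one big box ⟹ conductance zero in every neighbourhood. -/
theorem nullN_of_null {E : Set (ℝ × ℝ)} {g : Set Hair} {Bm Bp : ℝ} (hg : Fam E g Bm Bp)
    {a b c d : ℝ} (hbox : E ⊆ Ioo a b ×ˢ Ioo c d)
    (h : Kin_238.Null (hairs E) a b c Bm (-d) (-Bp) g) : NullN E g Bm Bp := by
  intro N hN hgN ε hε
  rcases g.eq_empty_or_nonempty with rfl | ⟨K₀, hK₀⟩
  · exact ⟨_, _, Half_zero hε, Half_zero hε, fun K hK => absurd hK (notMem_empty K)⟩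
  have hgeo : ∀ K ∈ g, (a < K.x ∧ K.x < b) ∧ c < K.b ∧ K.t < d := by
    intro K hK
    have h1 := hbox (car_subset (hg.sub hK) (⟨rfl, le_rfl, K.hbt.le⟩ : (K.x, K.b) ∈ K.car))
    have h2 := hbox (car_subset (hg.sub hK) (⟨rfl, K.hbt.le, le_rfl⟩ : (K.x, K.t) ∈ K.car))
    exact ⟨h1.1, h1.2.1, h2.2.2⟩
  have hcB : c ≤ Bm := (hgeo K₀ hK₀).2.1.le.trans (hg.crs K₀ hK₀).1
  have hdB : -d ≤ -Bp := neg_le_neg ((hg.crs K₀ hK₀).2.trans (hgeo K₀ hK₀).2.2.le)
  have hne : (un g).Nonempty :=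
    ⟨(K₀.x, K₀.b), by
      simp only [un, mem_iUnion]; exact ⟨K₀, hK₀, rfl, le_rfl, K₀.hbt.le⟩⟩
  have hsub : un g ⊆ N ∩ (Ioo a b ×ˢ Ioo c d) :=
    fun p hp => ⟨hgN hp, hbox (un_sub hg.sub hp)⟩
  obtain ⟨χ, M, O₁, hχ, h01, hO₁, hgO₁, hχ1, hcpt, htsub⟩ :=
    exists_lip_cutoff hg.cpt hne (hN.inter (isOpen_Ioo.prod isOpen_Ioo)) hsub
  set χ' : ℝ × ℝ → ℝ := fun p => χ (rf p) with hχ'def
  have hχ' : LipschitzWith M χ' := by
    have := hχ.comp isometry_rf.lipschitz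
    rwa [mul_one] at this
  have h01' : ∀ p, 0 ≤ χ' p ∧ χ' p ≤ 1 := fun p => h01 _
  have hts' : tsupport χ' ⊆ rf ⁻¹' tsupport χ := by
    refine closure_minimal ?_ ((isClosed_tsupport χ).preimage continuous_rf)
    intro p hp
    exact subset_tsupport χ hp
  have htB : tsupport χ ⊆ Bx a b c := fun p hp => ⟨(htsub hp).2.1, (htsub hp).2.2.1⟩
  have htB' : tsupport χ' ⊆ Bx a b (-d) := by
    intro p hp
    have h1 := (htsub (hts' hp)).2
    refine ⟨h1.1, ?_⟩
    show -d < p.2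
    have h2 : -p.2 < d := h1.2.2
    linarith
  set A : ℝ := 2 + 4 * (M : ℝ) ^ 2 * (Bm - c) ^ 2 with hA
  set A' : ℝ := 2 + 4 * (M : ℝ) ^ 2 * (-Bp - -d) ^ 2 with hA'
  have hApos : 0 < A := by positivity
  have hApos' : 0 < A' := by positivity
  obtain ⟨e, he, e', he', hlt, hf⟩ := h (ε / (A + A')) (by positivity)
  have hEn := En_nonneg (Wo a b c Bm) e
  have hEn' := En_nonneg (Wo a b (-d) (-Bp)) e'
  rw [lt_div_iff₀ (by positivity)] at hlt
  obtain ⟨h1, h2, h3, h4⟩ := half_loc hχ h01 htB hcB he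
  obtain ⟨k1, k2, k3, k4⟩ := half_loc hχ' h01' htB' hdB he'
  have hUp : rf ⁻¹' (Lo (-Bp)) = Up Bp := by
    ext p
    show -p.2 < -Bp ↔ Bp < p.2
    exact neg_lt_neg_iff
  refine ⟨loc a b c χ e, fun p => loc a b (-d) χ' e' (rf p), ⟨h1, h2, ?_, ?_⟩, ⟨?_, fun p => k2 _,
    ?_, ?_⟩, ?_⟩
  · exact ⟨tsupport χ, hcpt, fun p hp => (htsub hp).1, fun p _ hp => h3 p hp⟩
  · refine h4.trans ?_
    nlinarith [mul_nonneg hApos.le hEn', mul_nonneg hApos'.le hEn, mul_nonneg hApos'.le hEn']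
  · have := k1.refl
    rwa [reflH_reflH, hUp] at this
  · exact ⟨tsupport χ, hcpt, fun p hp => (htsub hp).1, fun p _ hp => k3 _ fun hq =>
      hp (by simpa using hts' hq)⟩
  · rw [← hUp, En_rf]
    refine k4.trans ?_
    nlinarith [mul_nonneg hApos.le hEn', mul_nonneg hApos'.le hEn, mul_nonneg hApos.le hEn]
  · -- near the hairs
    intro K hK
    obtain ⟨hKx, hKc, hKd⟩ := hgeo K hK
    obtain ⟨hKb, hKt⟩ := hg.crs K hK
    obtain ⟨J, hJ, L, C, hL, hSL, hC⟩ := (cl_mem he).1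
    obtain ⟨J', hJ', L', C', hL', hSL', hC'⟩ := (cl_mem he').1
    obtain ⟨Om, hOm, hKOm, hn⟩ := near_hair hL hSL hKx hKb (η := 1 / 20) (by norm_num)
    obtain ⟨Op, hOp, hKOp, hn'⟩ := near_hair hL' hSL' (K := K.refl) hKx (neg_le_neg hKt)
      (η := 1 / 20) (by norm_num)
    refine ⟨O₁ ∩ Om ∩ rf ⁻¹' Op, (hO₁.inter hOm).inter (hOp.preimage continuous_rf), ?_, ?_⟩
    · intro p hp
      refine ⟨⟨hgO₁ ?_, hKOm hp⟩, hKOp ?_⟩
      · simp only [un, mem_iUnion]; exact ⟨K, hK, hp⟩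
      · rw [Hair.mem_car_refl, rf_rf]; exact hp
    · rintro p ⟨⟨⟨hp1, hp2⟩, -⟩, hpE⟩ hpL q ⟨⟨⟨hq1, -⟩, hq2⟩, hqE⟩ hqU
      -- lower point
      have hpB : p ∈ Bx a b c := htB (subset_tsupport χ (by
        show χ p ≠ 0
        rw [hχ1 p hp1]; exact one_ne_zero))
      have hpW : p ∈ Wo a b c Bm := Lo_inter_Bx (a := a) ▸ ⟨hpL, hpB⟩
      have hpJ : p ∉ cut J := fun ⟨K', hK', hp'⟩ => hpE (car_subset (hJ K' hK') hp')
      obtain ⟨σ, y, hy1, hy2, hy3⟩ := hn p ⟨hp2, hpW⟩ hpJ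
      -- upper point
      have hqB : rf q ∈ Bx a b (-d) := htB' (subset_tsupport χ' (by
        show χ (rf (rf q)) ≠ 0
        rw [rf_rf, hχ1 q hq1]; exact one_ne_zero))
      have hqL : rf q ∈ Lo (-Bp) := by
        have : q ∈ rf ⁻¹' (Lo (-Bp)) := by rw [hUp]; exact hqU
        exact this
      have hqW : rf q ∈ Wo a b (-d) (-Bp) := Lo_inter_Bx (a := a) ▸ ⟨hqL, hqB⟩
      have hqJ : rf q ∉ cut J' := fun ⟨K', hK', hq'⟩ => by
        have h5 : K'.refl ∈ hairs E := hJ' K' hK'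
        exact hqE (car_subset h5 (Hair.mem_car_refl.2 hq'))
      obtain ⟨σ', y', hy1', hy2', hy3'⟩ := hn' (rf q) ⟨hq2, hqW⟩ hqJ
      simp only [Hair.refl_b, Hair.refl_x] at hy1' hy3'
      have h5 : tr (fun p => cl (e p)) σ K.x y = cl (tr e σ K.x y) :=
        tr_comp he.1 continuous_cl σ hKx (hKc.trans_le hy1) hy2
      have h6 : tr (fun p => cl (e' p)) σ' K.x y' = cl (tr e' σ' K.x y') :=
        tr_comp he'.1 continuous_cl σ' hKx ((neg_lt_neg hKd).trans_le hy1') hy2'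
      have h7 := one_le_cl_add (hf K hK σ σ' y y' hy1 hy2 hy1' hy2')
      rw [h5] at hy3
      rw [h6] at hy3'
      have h8 : loc a b c χ e p = cl (e p) := by
        rw [loc_of_mem hpB, hχ1 p hp1, one_mul]
      have h9 : loc a b (-d) χ' e' (rf q) = cl (e' (rf q)) := by
        rw [loc_of_mem hqB]
        show χ (rf (rf q)) * _ = _
        rw [rf_rf, hχ1 q hq1, one_mul]
      show (9 / 10 : ℝ) ≤ loc a b c χ e p + loc a b (-d) χ' e' (rf q)
      rw [h8, h9]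
      linarith

end Crest.Agent.R105.Vi_363
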