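import Crest.Agent.R105.Vs2_439

/-!
# Row 105, S0138, NI (P2), the a.e. `t` half, part 3 (helper439)

* `exists_W` : open sets containing `Y` minus the jump components, with small energy
* `var_of_tendsto`, `acv_of_tendsto` : `B n → b` pointwise off `Y`, null image with `a`, bounded
  energies ⟹ for a.e. `t` the variation of `b` along the level `t` of `a` is small near `Y`
* `acv_of_NI` : the case of one function
-/

set_option autoImplicit false

open MeasureTheory Set Filter Topology Metric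
open scoped NNReal ENNReal

namespace Crest.Agent.R105.Vs_439

open Bd_775 Ends_897 Tc_808 Ni_459 Sl_732 Crest.AnalysisR

noncomputable section

variable {Y : Set ℂ} {a b u : ℂ → ℝ}

/-- the union of the components with a jump -/
def JU (Y : Set ℂ) (u : ℂ → ℝ) : Set (Set ℂ) := Subtype.val '' JJ Y u

lemma TW_mono {W W' : Set ℂ} (h : W ⊆ W') : TW Y W u ≤ TW Y W' u := by
  classical
  unfold TW
  refine add_le_add (lintegral_mono_set (sdiff_subset_sdiff_left h)) (ENNReal.tsum_le_tsum fun K => ?_)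
  by_cases hK : K.1 ⊆ W
  · rw [if_pos hK, if_pos (hK.trans h)]
  · rw [if_neg hK]; exact zero_le

lemma JJ_countable {W0 : Set ℂ} (hYW : Y ⊆ W0) (hfin : TW Y W0 u ≠ ∞) : (JJ Y u).Countable := by
  classical
  have h1 : (∑' K : Cmp Y, if K.1 ⊆ W0 then ENNReal.ofReal (gap Y u K ^ 2) else 0) ≠ ∞ :=
    ne_top_of_le_ne_top hfin le_add_self
  refine (Summable.countable_support_ennreal h1).mono fun K hK => ?_
  have hK' : (0 : ℝ) < gap Y u K := hK
  rw [Function.mem_support, if_pos ((cmp_subset K).trans hYW)]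
  exact (ENNReal.ofReal_pos.2 (by positivity)).ne'

lemma isClosed_cmp (hYc : IsCompact Y) (K : Cmp Y) : IsClosed K.1 := by
  obtain ⟨K, z, hz, rfl⟩ := K
  exact (isCompact_cc hYc z).isClosed

/-- open sets with small energy -/
theorem exists_W (hY : IsExteriorDomain Yᶜ) (hu : LB u) {W0 : Set ℂ} (hW0 : IsOpen W0)
    (hYW : Y ⊆ W0) (hfin : TW Y W0 u ≠ ∞) {ε : ℝ≥0∞} (hε : ε ≠ 0) :
    ∃ W, IsOpen W ∧ W ⊆ W0 ∧ Y \ ⋃₀ JU Y u ⊆ W ∧ TW Y W u ≤ ε := by
  classical
  have hYc : IsCompact Y := cpt_of hY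
  have hε2 : 0 < ε / 2 := ENNReal.half_pos hε
  have hYm : MeasurableSet Y := hYc.isClosed.measurableSet
  -- the Dirichlet part
  obtain ⟨n, hn⟩ : ∃ n : ℕ, ∫⁻ z in (thickening (1 / ((n : ℝ) + 1)) Y ∩ W0) \ Y,
      ENNReal.ofReal (en u z) ≤ ε / 2 := by
    set s : ℕ → Set ℂ := fun n => (thickening (1 / ((n : ℝ) + 1)) Y ∩ W0) \ Y with hs
    have hsm : ∀ n, MeasurableSet (s n) := fun n =>
      ((isOpen_thickening.inter hW0).measurableSet).diff hYm
    have hanti : Antitone s := by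
      intro m n hmn
      refine sdiff_subset_sdiff_left (inter_subset_inter_left _ (thickening_mono ?_ _))
      exact one_div_le_one_div_of_le (by positivity) (by exact_mod_cast Nat.succ_le_succ hmn)
    have hbd : Bornology.IsBounded (s 0) :=
      (hYc.isBounded.thickening (δ := 1 / (((0 : ℕ) : ℝ) + 1))).subset
        (sdiff_subset.trans inter_subset_left)
    have hemp : ⋂ n, s n = ∅ := by
      rw [eq_empty_iff_forall_notMem]
      intro z hz
      have hzY : z ∉ Y := (mem_iInter.1 hz 0).2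
      have h1 : z ∈ closure Y := by
        rw [closure_eq_iInter_thickening Y]
        refine mem_iInter₂.2 fun δ hδ => ?_
        obtain ⟨n, hn⟩ := exists_nat_one_div_lt hδ
        exact thickening_mono hn.le _ ((mem_iInter.1 hz n).1.1)
      rw [hYc.isClosed.closure_eq] at h1
      exact hzY h1
    have h1 := tendsto_measure_iInter_atTop (μ := (volume : Measure ℂ))
      (fun n => (hsm n).nullMeasurableSet) hanti ⟨0, hbd.measure_lt_top.ne⟩
    rw [hemp, measure_empty] at h1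
    set μ : Measure ℂ := volume.restrict (W0 \ Y) with hμ
    have h2 : ∫⁻ z, ENNReal.ofReal (en u z) ∂μ ≠ ∞ := ne_top_of_le_ne_top hfin le_self_add
    have h3 : Tendsto (μ ∘ s) atTop (𝓝 0) :=
      tendsto_of_tendsto_of_tendsto_of_le_of_le tendsto_const_nhds h1 (fun _ => zero_le)
        (fun n => Measure.restrict_le_self _)
    have h4 := tendsto_setLIntegral_zero h2 h3
    obtain ⟨n, hn⟩ := (h4.eventually (gt_mem_nhds hε2)).exists
    refine ⟨n, le_trans (le_of_eq ?_) hn.le⟩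
    rw [hμ, Measure.restrict_restrict (hsm n)]
    congr 2
    ext z
    simp only [hs, Set.mem_sdiff, mem_inter_iff]
    tauto
  -- the jumps
  have h1 : (∑' K : Cmp Y, ENNReal.ofReal (gap Y u K ^ 2)) ≠ ∞ := by
    have h2 : (∑' K : Cmp Y, if K.1 ⊆ W0 then ENNReal.ofReal (gap Y u K ^ 2) else 0) ≠ ∞ :=
      ne_top_of_le_ne_top hfin le_add_self
    convert h2 using 3 with K
    rw [if_pos ((cmp_subset K).trans hYW)]
  obtain ⟨F, hF⟩ := ((ENNReal.tendsto_tsum_compl_atTop_zero h1).eventually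
    (gt_mem_nhds hε2)).exists
  set G : Finset (Cmp Y) := F.filter (· ∈ JJ Y u) with hG
  set Z : Set ℂ := ⋃ K ∈ G, K.1 with hZ
  have hZc : IsClosed Z := isClosed_biUnion_finset fun K _ => isClosed_cmp hYc K
  refine ⟨(thickening (1 / ((n : ℝ) + 1)) Y ∩ W0) \ Z, (isOpen_thickening.inter hW0).sdiff hZc,
    sdiff_subset.trans inter_subset_right, ?_, ?_⟩
  · rintro z ⟨hz, hzJ⟩
    refine ⟨⟨self_subset_thickening (by positivity) _ hz, hYW hz⟩, fun hzZ => hzJ ?_⟩
    obtain ⟨K, hK, hzK⟩ := mem_iUnion₂.1 hzZ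
    exact mem_sUnion.2 ⟨K.1, ⟨K, (Finset.mem_filter.1 hK).2, rfl⟩, hzK⟩
  · unfold TW
    rw [← ENNReal.add_halves ε]
    refine add_le_add ((lintegral_mono_set (sdiff_subset_sdiff_left sdiff_subset)).trans hn) ?_
    refine le_trans ?_ hF.le
    have h3 : ∀ K : Cmp Y, (if K.1 ⊆ (thickening (1 / ((n : ℝ) + 1)) Y ∩ W0) \ Z then
        ENNReal.ofReal (gap Y u K ^ 2) else 0) ≤
        ({K : Cmp Y | K ∉ F}).indicator (fun K => ENNReal.ofReal (gap Y u K ^ 2)) K := by
      intro K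
      by_cases hK : K.1 ⊆ (thickening (1 / ((n : ℝ) + 1)) Y ∩ W0) \ Z
      · rw [if_pos hK]
        by_cases hKF : K ∈ F
        · have hKJ : K ∉ JJ Y u := by
            intro hKJ
            obtain ⟨z, hz⟩ := cmp_nonempty K
            exact (hK hz).2 (mem_iUnion₂.2 ⟨K, Finset.mem_filter.2 ⟨hKF, hKJ⟩, hz⟩)
          have h0 : gap Y u K = 0 := le_antisymm (not_lt.1 hKJ) (gap_nonneg hY hu K)
          rw [h0]; simp
        · rw [indicator_of_mem (show K ∈ {K : Cmp Y | K ∉ F} from hKF)]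
      · rw [if_neg hK]; exact zero_le
    refine (ENNReal.tsum_le_tsum h3).trans (le_of_eq ?_)
    rw [← tsum_subtype]
    rfl

/-- **closedness, a.e. `t`** -/
theorem var_of_tendsto (hY : IsExteriorDomain Yᶜ) (ha : LB a) (hal : LocallyLipschitzOn Yᶜ a)
    {W0 : Set ℂ} (hW0 : IsOpen W0) (hYW : Y ⊆ W0) (hfin : TW Y W0 a ≠ ∞) {B : ℕ → ℂ → ℝ}
    (hB : ∀ n, LB (B n)) (hBl : ∀ n, LocallyLipschitzOn Yᶜ (B n)) {M : ℝ≥0∞} (hM : M ≠ ∞)
    (hBM : ∀ n, TW Y W0 (B n) ≤ M) (hNI : ∀ n, NI Y a (B n))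
    (hlim : ∀ z ∉ Y, Tendsto (fun n => B n z) atTop (𝓝 (b z))) :
    ∀ᵐ t : ℝ, ∀ η > 0, ∃ W, IsOpen W ∧ Y \ ⋃₀ JU Y a ⊆ W ∧ VarLe Y (Lv Y a t) W b η := by
  classical
  have hJa : (JJ Y a).Countable := JJ_countable hYW hfin
  have hJB : ∀ n, (JJ Y (B n)).Countable := fun n =>
    JJ_countable hYW (ne_top_of_le_ne_top hM (hBM n))
  have hW : ∀ j : ℕ, ∃ W, IsOpen W ∧ W ⊆ W0 ∧ Y \ ⋃₀ JU Y a ⊆ W ∧
      TW Y W a ≤ ENNReal.ofReal ((1 / 4) ^ j) := fun j =>
    exists_W hY ha hW0 hYW hfin (ENNReal.ofReal_pos.2 (by positivity)).ne'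
  choose W hWo hWs hWc hWe using hW
  set g : ℝ → ℝ≥0∞ := fun t => ⨅ j, liminf (fun n => EB Y a (B n) (W j) t) atTop with hg
  have hgm : Measurable g :=
    Measurable.iInf fun j => Measurable.liminf fun n => measurable_EB (hJB n) (W j)
  have hint : ∀ j : ℕ, ∫⁻ t, g t ≤ ENNReal.ofReal ((1 / 2) ^ j) * (1 + M) := by
    intro j
    calc ∫⁻ t, g t ≤ ∫⁻ t, liminf (fun n => EB Y a (B n) (W j) t) atTop :=
          lintegral_mono fun t => iInf_le _ j
      _ ≤ liminf (fun n => ∫⁻ t, EB Y a (B n) (W j) t) atTop :=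
          lintegral_liminf_le fun n => measurable_EB (hJB n) (W j)
      _ ≤ ENNReal.ofReal ((1 / 2) ^ j) * (1 + M) := by
          refine liminf_le_of_frequently_le' (Frequently.of_forall fun n => ?_)
          have h2 : (0 : ℝ) < 2 ^ j := by positivity
          refine (lintegral_EB_le hY (hB n) (hBl n) ha hal (hJB n) (hWo j) h2).trans ?_
          rw [mul_add, mul_one]
          refine add_le_add ?_ ?_
          · refine (mul_le_mul_right (hWe j) _).trans ?_
            rw [← ENNReal.ofReal_mul h2.le]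
            refine ENNReal.ofReal_le_ofReal (le_of_eq ?_)
            rw [← mul_pow]; norm_num
          · have h3 : ((2 : ℝ) ^ j)⁻¹ = (1 / 2) ^ j := by
              rw [one_div, inv_pow]
            rw [h3]
            exact mul_le_mul_right ((TW_mono (hWs j)).trans (hBM n)) _
  have h0 : ∫⁻ t, g t = 0 := by
    have h1 : Tendsto (fun j : ℕ => ENNReal.ofReal ((1 / 2) ^ j) * (1 + M)) atTop
        (𝓝 (ENNReal.ofReal 0 * (1 + M))) := by
      refine ENNReal.Tendsto.mul_const ?_ (Or.inr (ENNReal.add_ne_top.2 ⟨ENNReal.one_ne_top, hM⟩))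
      exact (ENNReal.continuous_ofReal.tendsto _).comp
        (tendsto_pow_atTop_nhds_zero_of_lt_one (by norm_num) (by norm_num))
    rw [ENNReal.ofReal_zero, zero_mul] at h1
    exact le_antisymm (ge_of_tendsto' h1 hint) zero_le
  have h1 : ∀ᵐ t, g t = 0 := by
    have := (lintegral_eq_zero_iff hgm).1 h0
    filter_upwards [this] with t ht using ht
  have h2 : ∀ᵐ t : ℝ, ∀ n, volume {s | (t, s) ∈ NP Y a (B n)} = 0 :=
    ae_all_iff.2 fun n => ae_slice_null (hNI n)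
  filter_upwards [h1, h2] with t ht hs η hη
  have h3 : g t < ENNReal.ofReal η := by rw [ht]; exact ENNReal.ofReal_pos.2 hη
  obtain ⟨j, hj⟩ := iInf_lt_iff.1 h3
  have h4 := frequently_lt_of_liminf_lt (by isBoundedDefault) hj
  refine ⟨W j, hWo j, hWc j, VarLe.of_tendsto (B := B) (fun z hz => hlim z hz.2) fun ε hε => ?_⟩
  refine h4.mono fun n hn => ?_
  exact (varLe_of_EB hY (hB n) (hBl n).continuousOn ha hal.continuousOn (hJB n) hJa (hs n)
    hη.le hn.le).mono subset_rfl (by linarith)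

theorem acv_of_tendsto (hY : IsExteriorDomain Yᶜ) (ha : LB a) (hal : LocallyLipschitzOn Yᶜ a)
    {W0 : Set ℂ} (hW0 : IsOpen W0) (hYW : Y ⊆ W0) (hfin : TW Y W0 a ≠ ∞) {B : ℕ → ℂ → ℝ}
    (hB : ∀ n, LB (B n)) (hBl : ∀ n, LocallyLipschitzOn Yᶜ (B n)) {M : ℝ≥0∞} (hM : M ≠ ∞)
    (hBM : ∀ n, TW Y W0 (B n) ≤ M) (hNI : ∀ n, NI Y a (B n))
    (hlim : ∀ z ∉ Y, Tendsto (fun n => B n z) atTop (𝓝 (b z))) :
    ∀ᵐ t : ℝ, ACV Y (Lv Y a t) b := by
  filter_upwards [var_of_tendsto hY ha hal hW0 hYW hfin hB hBl hM hBM hNI hlim] with t ht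
  refine ⟨JU Y a, (JJ_countable hYW hfin).image _, ?_, fun η hη => ?_⟩
  · rintro _ ⟨K, -, rfl⟩
    exact K.2
  · obtain ⟨W, h1, h2, h3⟩ := ht η hη
    exact ⟨W, h1, (sdiff_subset_sdiff_left inter_subset_right).trans h2, h3⟩

/-- **(P2), `⟹`** -/
theorem acv_of_NI (hY : IsExteriorDomain Yᶜ) (ha : LB a) (hal : LocallyLipschitzOn Yᶜ a)
    (hb : LB b) (hbl : LocallyLipschitzOn Yᶜ b)
    {W0 : Set ℂ} (hW0 : IsOpen W0) (hYW : Y ⊆ W0) (hfin : TW Y W0 a ≠ ∞) (hfin' : TW Y W0 b ≠ ∞)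
    (hNI : NI Y a b) : ∀ᵐ t : ℝ, ACV Y (Lv Y a t) b :=
  acv_of_tendsto hY ha hal hW0 hYW hfin (B := fun _ => b) (fun _ => hb) (fun _ => hbl) hfin'
    (fun _ => le_rfl) (fun _ => hNI) fun _ _ => tendsto_const_nhds

end

end Crest.Agent.R105.Vs_439
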