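import Mathlib

/-!
# R105 (helper41): the winding lemma `wind` used for node E13 (ATN)

A connected unbounded set which contains `p` meets every union `K₁ ∪ K₂` of two continua with two
common points `a` (above `p`) and `b` (below `p`), such that `K₁` misses the half line from `p` to
the left and `K₂` misses the half line from `p` to the right.
-/

set_option autoImplicit false

open Set Complex Filter Topology

namespace Crest.Agent.R105.Wnd_41

/-- `z - q` has a continuous logarithm on `K` -/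
def HasLog (K : Set ℂ) (q : ℂ) : Prop :=
  ∃ g : ℂ → ℂ, ContinuousOn g K ∧ ∀ z ∈ K, exp (g z) = z - q

lemma mem_slit_of_norm_lt {w : ℂ} (h : ‖w‖ < 1) : 1 + w ∈ slitPlane := by
  have h1 : |w.re| ≤ ‖w‖ := abs_re_le_norm w
  left
  have := (abs_le.1 h1).1
  simp only [add_re, one_re]
  linarith

lemma HasLog.step {K : Set ℂ} {p q : ℂ} (hp : HasLog K p) (h : ∀ z ∈ K, ‖q - p‖ < ‖z - p‖) :
    HasLog K q := by
  obtain ⟨g, hg, hge⟩ := hp
  have hne : ∀ z ∈ K, z - p ≠ 0 := by
    intro z hz h0
    have := h z hz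
    rw [h0, norm_zero] at this
    exact absurd this (not_lt.2 (norm_nonneg _))
  have hsl : ∀ z ∈ K, 1 + (p - q) / (z - p) ∈ slitPlane := by
    intro z hz
    apply mem_slit_of_norm_lt
    rw [norm_div, div_lt_one (norm_pos_iff.2 (hne z hz)), norm_sub_rev]
    exact h z hz
  refine ⟨fun z => g z + log (1 + (p - q) / (z - p)), ?_, ?_⟩
  · refine hg.add (ContinuousOn.clog ?_ hsl)
    refine continuousOn_const.add (continuousOn_const.div ?_ hne)
    exact continuousOn_id.sub continuousOn_const
  · intro z hz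
    rw [exp_add, hge z hz, exp_log (slitPlane_ne_zero (hsl z hz))]
    have := hne z hz
    field_simp
    ring

lemma hasLog_far {K : Set ℂ} {q : ℂ} (h : ∀ z ∈ K, ‖z‖ < ‖q‖) (hne : K.Nonempty) :
    HasLog K q := by
  obtain ⟨z0, hz0⟩ := hne
  have hq : q ≠ 0 := by
    rintro rfl
    have := h z0 hz0
    rw [norm_zero] at this
    exact absurd this (not_lt.2 (norm_nonneg _))
  have hsl : ∀ z ∈ K, 1 + (-z / q) ∈ slitPlane := by
    intro z hz
    apply mem_slit_of_norm_lt
    rw [norm_div, norm_neg, div_lt_one (norm_pos_iff.2 hq)]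
    exact h z hz
  refine ⟨fun z => log (-q) + log (1 + (-z / q)), ?_, ?_⟩
  · refine continuousOn_const.add (ContinuousOn.clog ?_ hsl)
    refine continuousOn_const.add (ContinuousOn.div_const ?_ _)
    exact continuousOn_id.neg
  · intro z hz
    rw [exp_add, exp_log (neg_ne_zero.2 hq), exp_log (slitPlane_ne_zero (hsl z hz))]
    field_simp
    ring

/-- the set of the points with a logarithm is clopen off `K` -/
lemma hasLog_of_preconnected {K M : Set ℂ} (hK : IsCompact K) (hne : K.Nonempty)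
    (hM : IsPreconnected M) (hd : Disjoint M K) (hunb : ¬ Bornology.IsBounded M) {p : ℂ}
    (hp : p ∈ M) : HasLog K p := by
  have hKc : IsClosed K := hK.isClosed
  -- distance
  have hdist : ∀ q ∉ K, 0 < Metric.infDist q K := fun q hq =>
    (hKc.notMem_iff_infDist_pos hne).1 hq
  have hle : ∀ q, ∀ z ∈ K, Metric.infDist q K ≤ ‖z - q‖ := by
    intro q z hz
    have := Metric.infDist_le_dist_of_mem (x := q) hz
    rwa [dist_comm, dist_eq_norm] at this
  let U : Set ℂ := {q | q ∉ K ∧ HasLog K q}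
  let V : Set ℂ := {q | q ∉ K ∧ ¬ HasLog K q}
  have hU : IsOpen U := by
    rw [Metric.isOpen_iff]
    rintro q ⟨hq, hq'⟩
    refine ⟨Metric.infDist q K, hdist q hq, ?_⟩
    intro q' h'
    rw [Metric.mem_ball, dist_eq_norm] at h'
    refine ⟨fun hK' => ?_, hq'.step fun z hz => lt_of_lt_of_le h' (hle q z hz)⟩
    exact absurd (hle q q' hK') (not_le.2 h')
  have hV : IsOpen V := by
    rw [Metric.isOpen_iff]
    rintro q ⟨hq, hq'⟩
    refine ⟨Metric.infDist q K / 2, half_pos (hdist q hq), ?_⟩
    intro q' h'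
    rw [Metric.mem_ball, dist_eq_norm] at h'
    have h0 := hdist q hq
    refine ⟨fun hK' => ?_, fun hl => hq' (hl.step fun z hz => ?_)⟩
    · exact absurd (hle q q' hK') (not_le.2 (by linarith))
    · have h1 := hle q z hz
      have h2 : ‖z - q‖ ≤ ‖z - q'‖ + ‖q' - q‖ := by
        calc ‖z - q‖ = ‖(z - q') + (q' - q)‖ := by ring_nf
          _ ≤ _ := norm_add_le _ _
      rw [norm_sub_rev q q']
      linarith
  have hUV : Disjoint U V := by
    rw [Set.disjoint_left]
    rintro q ⟨_, h1⟩ ⟨_, h2⟩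
    exact h2 h1
  have hsub : M ⊆ U ∪ V := by
    intro q hq
    have hqK : q ∉ K := Set.disjoint_left.1 hd hq
    by_cases h : HasLog K q
    · exact Or.inl ⟨hqK, h⟩
    · exact Or.inr ⟨hqK, h⟩
  -- a far point
  obtain ⟨R, hR⟩ := hK.isBounded.exists_norm_le
  have : ∃ q ∈ M, R < ‖q‖ := by
    by_contra hcon
    push Not at hcon
    exact hunb (isBounded_iff_forall_norm_le.2 ⟨R, hcon⟩)
  obtain ⟨q, hqM, hqR⟩ := this
  have hfar : HasLog K q := hasLog_far (fun z hz => lt_of_le_of_lt (hR z hz) hqR) hne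
  have := hM.subset_left_of_subset_union hU hV hUV hsub
    ⟨q, hqM, Set.disjoint_left.1 hd hqM, hfar⟩
  exact (this hp).2

/-- integer valued continuous functions -/
lemma const_of_exp_one {K : Set ℂ} (hK : IsPreconnected K) {f : ℂ → ℂ} (hf : ContinuousOn f K)
    {c : ℂ} (hc : ∀ z ∈ K, exp (f z) = c) {a b : ℂ} (ha : a ∈ K) (hb : b ∈ K) : f a = f b := by
  -- `f z - f a` is in `2 π i ℤ`
  have h1 : ∀ z ∈ K, ∃ n : ℤ, f z = f a + n * (2 * Real.pi * I) := by
    intro z hz
    exact exp_eq_exp_iff_exists_int.1 ((hc z hz).trans (hc a ha).symm)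
  let φ : ℂ → ℝ := fun z => ((f z).im - (f a).im) / (2 * Real.pi)
  have hφ : ContinuousOn φ K :=
    ((continuous_im.comp_continuousOn hf).sub continuousOn_const).div_const _
  have hφv : ∀ z ∈ K, ∃ n : ℤ, φ z = n ∧ f z = f a + n * (2 * Real.pi * I) := by
    intro z hz
    obtain ⟨n, hn⟩ := h1 z hz
    refine ⟨n, ?_, hn⟩
    simp only [φ]
    rw [hn]
    have : (2 * Real.pi) ≠ 0 := by positivity
    field_simp
    simp
    ring
  -- the image is preconnected and integer valued
  have him : IsPreconnected (φ '' K) := hK.image _ hφ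
  have hφa : φ a = 0 := by simp [φ]
  obtain ⟨n, hn, hfb⟩ := hφv b hb
  have hn0 : n = 0 := by
    by_contra hne
    -- the value 1/2 or -1/2 is attained
    have hoc := him.ordConnected
    have h0 : (0 : ℝ) ∈ φ '' K := ⟨a, ha, hφa⟩
    have hnm : (n : ℝ) ∈ φ '' K := ⟨b, hb, hn⟩
    rcases lt_or_gt_of_ne hne with h | h
    · have hle : (n : ℝ) ≤ -1 := by exact_mod_cast (by omega : n ≤ -1)
      have : (-(1/2) : ℝ) ∈ φ '' K := hoc.out hnm h0 ⟨by linarith, by norm_num⟩
      obtain ⟨z, hz, hzv⟩ := this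
      obtain ⟨m, hm, _⟩ := hφv z hz
      rw [hzv] at hm
      have : (2 * m : ℝ) = -1 := by linarith
      have : (2 * m : ℤ) = -1 := by exact_mod_cast this
      omega
    · have hle : (1 : ℝ) ≤ n := by exact_mod_cast (by omega : 1 ≤ n)
      have : ((1/2) : ℝ) ∈ φ '' K := hoc.out h0 hnm ⟨by norm_num, by linarith⟩
      obtain ⟨z, hz, hzv⟩ := this
      obtain ⟨m, hm, _⟩ := hφv z hz
      rw [hzv] at hm
      have : (2 * m : ℝ) = 1 := by linarith
      have : (2 * m : ℤ) = 1 := by exact_mod_cast this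
      omega
  rw [hfb, hn0]
  simp

/-- **The winding lemma.** -/
theorem wind {K₁ K₂ M : Set ℂ} {p a b : ℂ} (hK₁ : IsCompact K₁) (hK₂ : IsCompact K₂)
    (hc₁ : IsPreconnected K₁) (hc₂ : IsPreconnected K₂)
    (h1 : ∀ z ∈ K₁, z.im = p.im → p.re < z.re) (h2 : ∀ z ∈ K₂, z.im = p.im → z.re < p.re)
    (ha : a ∈ K₁ ∩ K₂) (hb : b ∈ K₁ ∩ K₂) (har : a.re = p.re) (hbr : b.re = p.re)
    (hai : p.im < a.im) (hbi : b.im < p.im) (hM : IsPreconnected M) (hp : p ∈ M)
    (hunb : ¬ Bornology.IsBounded M) (hd : Disjoint M (K₁ ∪ K₂)) : False := by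
  obtain ⟨g, hg, hge⟩ := hasLog_of_preconnected (hK₁.union hK₂) ⟨a, Or.inl ha.1⟩ hM hd hunb hp
  have hs1 : ∀ z ∈ K₁, z - p ∈ slitPlane := by
    intro z hz
    by_cases h : z.im = p.im
    · left
      have := h1 z hz h
      simp only [sub_re]
      linarith
    · right
      simp only [sub_im]
      exact sub_ne_zero.2 h
  have hs2 : ∀ z ∈ K₂, p - z ∈ slitPlane := by
    intro z hz
    by_cases h : z.im = p.im
    · left
      have := h2 z hz h
      simp only [sub_re]
      linarith
    · right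
      simp only [sub_im]
      exact sub_ne_zero.2 (Ne.symm h)
  -- on `K₁`
  have e1 : g a - log (a - p) = g b - log (b - p) := by
    refine const_of_exp_one (c := 1) hc₁ (f := fun z => g z - log (z - p)) ?_ ?_ ha.1 hb.1
    · refine (hg.mono subset_union_left).sub (ContinuousOn.clog ?_ hs1)
      exact continuousOn_id.sub continuousOn_const
    · intro z hz
      have hz0 := slitPlane_ne_zero (hs1 z hz)
      rw [exp_sub, exp_log hz0, hge z (Or.inl hz), div_self hz0]
  have e2 : g a - log (p - a) = g b - log (p - b) := by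
    refine const_of_exp_one (c := -1) hc₂ (f := fun z => g z - log (p - z)) ?_ ?_ ha.2 hb.2
    · refine (hg.mono subset_union_right).sub (ContinuousOn.clog ?_ hs2)
      exact continuousOn_const.sub continuousOn_id
    · intro z hz
      have hz0 := slitPlane_ne_zero (hs2 z hz)
      rw [exp_sub, exp_log hz0, hge z (Or.inr hz), ← neg_sub p z, neg_div, div_self hz0]
  have a1 : arg (a - p) = Real.pi / 2 := by
    rw [arg_eq_pi_div_two_iff]
    simp only [sub_re, sub_im]
    exact ⟨by linarith, by linarith⟩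
  have a2 : arg (b - p) = -(Real.pi / 2) := by
    rw [arg_eq_neg_pi_div_two_iff]
    simp only [sub_re, sub_im]
    exact ⟨by linarith, by linarith⟩
  have a3 : arg (p - a) = -(Real.pi / 2) := by
    rw [arg_eq_neg_pi_div_two_iff]
    simp only [sub_re, sub_im]
    exact ⟨by linarith, by linarith⟩
  have a4 : arg (p - b) = Real.pi / 2 := by
    rw [arg_eq_pi_div_two_iff]
    simp only [sub_re, sub_im]
    exact ⟨by linarith, by linarith⟩
  have f1 := congrArg Complex.im e1
  have f2 := congrArg Complex.im e2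
  simp only [sub_im, log_im, a1, a2, a3, a4] at f1 f2
  have := Real.pi_pos
  linarith

end Crest.Agent.R105.Wnd_41
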