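import Crest.Agent.R105.Ni0_459
import Crest.Agent.R105.Wnd1_41

/-!
# R105 (helper41), S0138, node E13 (TOPO): the two end germs of a vertical line at a square are not
joined on both sides

`E` compact, `Eᶜ` an exterior domain (the plane of the picture of the anchor), `K0` a component of
`E`, `x` switched, `lo x < sg` at `K0`, the horizontal segment of height `p.im` over `[t₁, t₂]`
belongs to `K0`. `Op ⊆ {t₁ < re} ∩ {sg < lo x}`, `Om ⊆ {re < t₂} ∩ {sg < lo x}` open, connected.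
They do not have two common points `a` (above `p`) and `b` (below `p`) on the line through `p`.
-/

set_option autoImplicit false

open MeasureTheory Set Filter Topology Metric
open scoped NNReal ENNReal

namespace Crest.Agent.R105.Wnd_41

open Ends_897 Tc_808 Ni_459 Crest.AnalysisR

theorem exists_arc {O : Set ℂ} (hO : IsOpen O) (hc : IsPreconnected O) {a b : ℂ} (ha : a ∈ O)
    (hb : b ∈ O) : ∃ K ⊆ O, IsCompact K ∧ IsPreconnected K ∧ a ∈ K ∧ b ∈ K := by
  have h1 : IsPathConnected O := (hO.isConnected_iff_isPathConnected).1 ⟨⟨a, ha⟩, hc⟩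
  obtain ⟨γ, hγ⟩ := h1.joinedIn a ha b hb
  refine ⟨range γ, ?_, isCompact_range γ.continuous, isPreconnected_range γ.continuous,
    ⟨0, γ.source⟩, ⟨1, γ.target⟩⟩
  rintro _ ⟨s, rfl⟩
  exact hγ s

/-- **TOPO** (not both) -/
theorem not_both {E : Set ℂ} (hE : IsExteriorDomain Eᶜ) {x : ℂ → ℝ} (hx : LB x)
    (hxc : ContinuousOn x Eᶜ) (hs : Swd E x) {K0 : Cmp E} {p : ℂ} {t₁ t₂ sg : ℝ}
    (hpK : p ∈ K0.1) (hlo : lo E x p < sg) (ht1 : t₁ < p.re) (ht2 : p.re < t₂)
    (hseg : ∀ X ∈ Icc t₁ t₂, (⟨X, p.im⟩ : ℂ) ∈ K0.1) {Op Om : Set ℂ} (hOp : IsOpen Op)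
    (hOm : IsOpen Om) (hcp : IsPreconnected Op) (hcm : IsPreconnected Om)
    (h1 : ∀ ζ ∈ Op, t₁ < ζ.re ∧ sg < lo E x ζ) (h2 : ∀ ζ ∈ Om, ζ.re < t₂ ∧ sg < lo E x ζ)
    {a b : ℂ} (ha : a ∈ Op ∩ Om) (hb : b ∈ Op ∩ Om) (har : a.re = p.re) (hbr : b.re = p.re)
    (hai : p.im < a.im) (hbi : b.im < p.im) : False := by
  have hEc : IsCompact E := cpt_of hE
  -- the envelope on `K0`
  have hcc : connectedComponentIn E p = K0.1 := by rw [K0.eq_of_mem hpK]; rfl
  have hloK : ∀ z ∈ K0.1, lo E x z < sg := by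
    intro z hz
    rw [lo_congr_cc (K0.subset hpK) (hcc ▸ hz)]
    exact hlo
  obtain ⟨K₁, hK1, hc1, hp1, ha1, hb1⟩ := exists_arc hOp hcp ha.1 hb.1
  obtain ⟨K₂, hK2, hc2, hp2, ha2, hb2⟩ := exists_arc hOm hcm ha.2 hb.2
  have hd : Disjoint K0.1 (K₁ ∪ K₂) := by
    rw [Set.disjoint_left]
    rintro z hz (h | h)
    · exact lt_asymm (hloK z hz) (h1 z (hK1 h)).2
    · exact lt_asymm (hloK z hz) (h2 z (hK2 h)).2
  obtain ⟨ρ, hρ, hdρ⟩ := hd.exists_thickenings (K0.isCompact hEc) (hc1.union hc2).isClosed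
  have hdρ' : Disjoint (thickening ρ K0.1) (K₁ ∪ K₂) :=
    hdρ.mono_right (self_subset_thickening hρ _)
  -- a point of `{x < sg}` near `K0`
  obtain ⟨w, hw, hwE, hwx⟩ := exists_of_lo_lt hE hx hlo
    (nb_of_mem (O := thickening ρ K0.1) (K0.subset hpK) isOpen_thickening
      (hcc.subset.trans (self_subset_thickening hρ _)))
  obtain ⟨k, hkK, hwk⟩ := mem_thickening_iff.1 hw
  have hwup : up E x w < sg := by
    rw [up_of_notMem hE hx hwE]
    · exact hwx
    · exact hxc.continuousAt (hE.1.mem_nhds hwE)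
  set C := connectedComponentIn {z | up E x z < sg} w with hC
  have hCub : ¬ Bornology.IsBounded C := hs.lt sg w hwup
  have hCsub : C ⊆ {z | up E x z < sg} := connectedComponentIn_subset _ _
  have hwC : w ∈ C := mem_connectedComponentIn hwup
  have hseg' : IsPreconnected (segment ℝ w k) := (convex_segment w k).isPreconnected
  have hM1 : IsPreconnected (K0.1 ∪ segment ℝ w k) :=
    K0.preconn.union k hkK (right_mem_segment ℝ w k) hseg'
  have hM : IsPreconnected ((K0.1 ∪ segment ℝ w k) ∪ C) :=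
    hM1.union w (Or.inr (left_mem_segment ℝ w k)) hwC isPreconnected_connectedComponentIn
  refine wind (M := (K0.1 ∪ segment ℝ w k) ∪ C) (p := p) hc1 hc2 hp1 hp2 ?_ ?_ ⟨ha1, ha2⟩
    ⟨hb1, hb2⟩ har hbr hai hbi hM (Or.inl (Or.inl hpK)) ?_ ?_
  · intro z hz him
    by_contra hcon
    push Not at hcon
    have h3 := h1 z (hK1 hz)
    have h4 : (⟨z.re, p.im⟩ : ℂ) ∈ K0.1 := hseg z.re ⟨h3.1.le, hcon.trans ht2.le⟩
    have h5 : (⟨z.re, p.im⟩ : ℂ) = z := Complex.ext rfl him.symm
    rw [h5] at h4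
    exact lt_asymm (hloK z h4) h3.2
  · intro z hz him
    by_contra hcon
    push Not at hcon
    have h3 := h2 z (hK2 hz)
    have h4 : (⟨z.re, p.im⟩ : ℂ) ∈ K0.1 := hseg z.re ⟨ht1.le.trans hcon, h3.1.le⟩
    have h5 : (⟨z.re, p.im⟩ : ℂ) = z := Complex.ext rfl him.symm
    rw [h5] at h4
    exact lt_asymm (hloK z h4) h3.2
  · exact fun hb => hCub (hb.subset subset_union_right)
  · rw [Set.disjoint_union_left]
    constructor
    · rw [Set.disjoint_union_left]
      refine ⟨hd, hdρ'.mono_left ?_⟩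
      intro y hy
      rw [mem_thickening_iff]
      refine ⟨k, hkK, ?_⟩
      have h6 : dist y k ≤ dist w k := by
        have h7 : segment ℝ w k ⊆ closedBall k (dist w k) :=
          (convex_closedBall k (dist w k)).segment_subset (mem_closedBall.2 le_rfl)
            (mem_closedBall_self dist_nonneg)
        exact mem_closedBall.1 (h7 hy)
      exact h6.trans_lt hwk
    · rw [Set.disjoint_left]
      rintro z hz h
      have h8 : up E x z < sg := hCsub hz
      have h9 := lo_le_up hE hx z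
      rcases h with h | h
      · linarith [(h1 z (hK1 h)).2]
      · linarith [(h2 z (hK2 h)).2]

end Crest.Agent.R105.Wnd_41
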