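import Crest.Agent.R105.Ni0_459
import Crest.Agent.R105.Bar1_764
import Crest.Agent.R105.Sep1_590

/-!
# Row 105, S0138 (T-frame), LEMMA Y (NI-10), part 1: barriers through good points (helper580)

`a` switched, `a = Re` far away, `P = {t < lo}`, `M = {up < t}`, `L = Lv Y a t`.
* `Ctx.conn_gt`, `Ctx.conn_lt` : `P`, `M` are connected
* `Gd Y a t u` : good (crossing) points of the level
* `Ctx.exists_G` : a continuum from left to right crossing the level exactly at the good point `u`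
* `Ctx.exists_kap` : smooth cut-off, locally `0` or `1` near `Y` and near `L` off a small ball at `u`
-/

set_option autoImplicit false
set_option linter.style.longLine false

open MeasureTheory Set Filter Topology Metric
open scoped NNReal ENNReal ContDiff

namespace Crest.Agent.R105.Yl_580

open Bd_775 Ends_897 Tc_808 Ni_459 Crest.AnalysisR

noncomputable section

/-- the context: a switched function which is `Re` far away -/
structure Ctx (Y : Set ℂ) (a : ℂ → ℝ) : Prop where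
  ext : IsExteriorDomain Yᶜ
  loc : LocallyLipschitzOn Yᶜ a
  lb : LB a
  sw : Swd Y a
  far : ∃ R, ∀ z, R ≤ ‖z‖ → a z = z.re

theorem isPreconnected_of_far {S F : Set ℂ} (hF : IsPreconnected F) (hFS : F ⊆ S)
    (hne : F.Nonempty) (h : ∀ z ∈ S, (connectedComponentIn S z ∩ F).Nonempty) :
    IsPreconnected S := by
  obtain ⟨x0, hx0⟩ := hne
  refine isPreconnected_of_forall x0 fun y hy => ?_
  obtain ⟨w, hw, hwF⟩ := h y hy
  refine ⟨F ∪ connectedComponentIn S y, union_subset hFS (connectedComponentIn_subset _ _),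
    Or.inl hx0, Or.inr (mem_connectedComponentIn hy), ?_⟩
  exact hF.union w hwF hw isPreconnected_connectedComponentIn

/-- the far right part of `{t < re}` -/
def FarR (A R t : ℝ) : Set ℂ :=
  {z | A < z.re} ∪ ({z | t < z.re ∧ R < z.im} ∪ {z | t < z.re ∧ z.im < -R})

theorem isPreconnected_farR {A R t : ℝ} : IsPreconnected (FarR A R t) := by
  have h1 : IsPreconnected {z : ℂ | A < z.re} := (convex_halfSpace_re_gt A).isPreconnected
  have h2 : IsPreconnected {z : ℂ | t < z.re ∧ R < z.im} := by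
    have : {z : ℂ | t < z.re ∧ R < z.im} = {z : ℂ | t < z.re} ∩ {z : ℂ | R < z.im} := rfl
    rw [this]
    exact ((convex_halfSpace_re_gt t).inter (convex_halfSpace_im_gt R)).isPreconnected
  have h3 : IsPreconnected {z : ℂ | t < z.re ∧ z.im < -R} := by
    have : {z : ℂ | t < z.re ∧ z.im < -R} = {z : ℂ | t < z.re} ∩ {z : ℂ | z.im < -R} := rfl
    rw [this]
    exact ((convex_halfSpace_re_gt t).inter (convex_halfSpace_im_lt (-R))).isPreconnected
  set B := max A t + 1 with hB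
  have hBA : A < B := by rw [hB]; linarith [le_max_left A t]
  have hBt : t < B := by rw [hB]; linarith [le_max_right A t]
  have e2 : FarR A R t = ({z : ℂ | A < z.re} ∪ {z | t < z.re ∧ R < z.im}) ∪
      ({z : ℂ | A < z.re} ∪ {z | t < z.re ∧ z.im < -R}) := by
    unfold FarR
    ext z; simp only [mem_union, mem_ofPred_eq]; tauto
  rw [e2]
  have h4 := h1.union (⟨B, R + 1⟩ : ℂ) (show A < B from hBA) (show t < B ∧ R < R + 1 from ⟨hBt, by linarith⟩) h2
  have h5 := h1.union (⟨B, -R - 1⟩ : ℂ) (show A < B from hBA)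
    (show t < B ∧ -R - 1 < -R from ⟨hBt, by linarith⟩) h3
  exact h4.union (⟨B, 0⟩ : ℂ) (Or.inl (show A < B from hBA)) (Or.inl (show A < B from hBA)) h5

/-- the far left part of `{re < t}` -/
def FarL (A R t : ℝ) : Set ℂ :=
  {z | z.re < -A} ∪ ({z | z.re < t ∧ R < z.im} ∪ {z | z.re < t ∧ z.im < -R})

theorem isPreconnected_farL {A R t : ℝ} : IsPreconnected (FarL A R t) := by
  have h1 : IsPreconnected {z : ℂ | z.re < -A} := (convex_halfSpace_re_lt (-A)).isPreconnected
  have h2 : IsPreconnected {z : ℂ | z.re < t ∧ R < z.im} := by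
    have : {z : ℂ | z.re < t ∧ R < z.im} = {z : ℂ | z.re < t} ∩ {z : ℂ | R < z.im} := rfl
    rw [this]
    exact ((convex_halfSpace_re_lt t).inter (convex_halfSpace_im_gt R)).isPreconnected
  have h3 : IsPreconnected {z : ℂ | z.re < t ∧ z.im < -R} := by
    have : {z : ℂ | z.re < t ∧ z.im < -R} = {z : ℂ | z.re < t} ∩ {z : ℂ | z.im < -R} := rfl
    rw [this]
    exact ((convex_halfSpace_re_lt t).inter (convex_halfSpace_im_lt (-R))).isPreconnected
  set B := min (-A) t - 1 with hB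
  have hBA : B < -A := by rw [hB]; linarith [min_le_left (-A) t]
  have hBt : B < t := by rw [hB]; linarith [min_le_right (-A) t]
  have e2 : FarL A R t = ({z : ℂ | z.re < -A} ∪ {z | z.re < t ∧ R < z.im}) ∪
      ({z : ℂ | z.re < -A} ∪ {z | z.re < t ∧ z.im < -R}) := by
    unfold FarL
    ext z; simp only [mem_union, mem_ofPred_eq]; tauto
  rw [e2]
  have h4 := h1.union (⟨B, R + 1⟩ : ℂ) (show B < -A from hBA) (show B < t ∧ R < R + 1 from ⟨hBt, by linarith⟩) h2
  have h5 := h1.union (⟨B, -R - 1⟩ : ℂ) (show B < -A from hBA)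
    (show B < t ∧ -R - 1 < -R from ⟨hBt, by linarith⟩) h3
  exact h4.union (⟨B, 0⟩ : ℂ) (Or.inl (show B < -A from hBA)) (Or.inl (show B < -A from hBA)) h5

namespace Ctx

variable {Y : Set ℂ} {a : ℂ → ℝ} (h : Ctx Y a)
include h

theorem cpt : IsCompact Y := by simpa using isCompact_compl h.ext

theorem opn : IsOpen Yᶜ := h.cpt.isClosed.isOpen_compl

theorem contAt {z : ℂ} (hz : z ∉ Y) : ContinuousAt a z :=
  h.loc.continuousOn.continuousAt (h.opn.mem_nhds hz)

theorem up_eq {z : ℂ} (hz : z ∉ Y) : up Y a z = a z := up_of_notMem h.ext h.lb hz (h.contAt hz)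
theorem lo_eq {z : ℂ} (hz : z ∉ Y) : lo Y a z = a z := lo_of_notMem h.ext h.lb hz (h.contAt hz)

theorem lo_le (z : ℂ) : lo Y a z ≤ up Y a z := lo_le_up h.ext h.lb z

theorem isOpen_gt (t : ℝ) : IsOpen {z | t < lo Y a z} := isOpen_lt_lo h.ext h.lb t
theorem isOpen_lt (t : ℝ) : IsOpen {z | up Y a z < t} := isOpen_up_lt h.ext h.lb t

theorem isClosed_Lv (t : ℝ) : IsClosed (Lv Y a t) := by
  have : Lv Y a t = {z | t < lo Y a z}ᶜ ∩ {z | up Y a z < t}ᶜ := by
    ext z; simp [Lv]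
  rw [this]
  exact (h.isOpen_gt t).isClosed_compl.inter (h.isOpen_lt t).isClosed_compl

/-- a radius -/
theorem exists_R : ∃ R : ℝ, 0 < R ∧ (∀ z ∈ Y, ‖z‖ < R) ∧ ∀ z, R ≤ ‖z‖ → a z = z.re := by
  obtain ⟨R, hR⟩ := h.far
  obtain ⟨C, hC⟩ := h.cpt.isBounded.exists_norm_le
  refine ⟨max (max R C) 0 + 1, by linarith [le_max_right (max R C) 0], fun z hz => ?_,
    fun z hz => hR z ?_⟩
  · linarith [hC z hz, le_max_left (max R C) 0, le_max_right R C]
  · linarith [le_max_left (max R C) 0, le_max_left R C]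

theorem conn_gt (t : ℝ) : IsPreconnected {z | t < lo Y a z} := by
  obtain ⟨R, hR0, hRY, hR⟩ := h.exists_R
  have hnY : ∀ z : ℂ, R ≤ ‖z‖ → z ∉ Y := fun z hz hzY => absurd (hRY z hzY) (not_lt.2 hz)
  set A := max R |t| with hA
  have hAR : R ≤ A := le_max_left _ _
  have hAt : |t| ≤ A := le_max_right _ _
  have hsub : ∀ z : ℂ, z ∈ FarR A R t → R ≤ ‖z‖ ∧ t < z.re := by
    rintro z (hz | ⟨hz, hz'⟩ | ⟨hz, hz'⟩)
    · have hz1 : A < z.re := hz
      refine ⟨?_, ?_⟩
      · linarith [Complex.re_le_norm z]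
      · linarith [le_abs_self t]
    · exact ⟨by linarith [Complex.im_le_norm z], hz⟩
    · refine ⟨?_, hz⟩
      have := (abs_le.1 (Complex.abs_im_le_norm z)).1
      linarith
  refine isPreconnected_of_far (F := FarR A R t) isPreconnected_farR ?_ ?_ ?_
  · intro z hz
    obtain ⟨h1, h2⟩ := hsub z hz
    show t < lo Y a z
    rw [h.lo_eq (hnY z h1), hR z h1]; exact h2
  · exact ⟨⟨A + 1, 0⟩, Or.inl (show A < A + 1 by linarith)⟩
  · intro z hz
    have h1 := h.sw.gt t z hz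
    set S := {w | t < lo Y a w} with hS
    by_contra hcon
    apply h1
    refine isBounded_iff_forall_norm_le.2 ⟨A + R, fun w hw => ?_⟩
    by_contra hwn
    push Not at hwn
    have hwS : t < lo Y a w := connectedComponentIn_subset S z hw
    have hwR : R ≤ ‖w‖ := by linarith [hAR]
    have hwt : t < w.re := by
      rw [h.lo_eq (hnY w hwR), hR w hwR] at hwS; exact hwS
    refine hcon ⟨w, hw, ?_⟩
    by_cases h2 : A < w.re
    · exact Or.inl h2
    · push Not at h2
      have h3 : |w.re| ≤ A := abs_le.2 ⟨by linarith [neg_abs_le t], h2⟩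
      have h4 : R < |w.im| := by
        have := Complex.norm_le_abs_re_add_abs_im w
        linarith
      rcases lt_abs.1 h4 with h5 | h5
      · exact Or.inr (Or.inl ⟨hwt, h5⟩)
      · exact Or.inr (Or.inr ⟨hwt, by linarith⟩)

theorem conn_lt (t : ℝ) : IsPreconnected {z | up Y a z < t} := by
  obtain ⟨R, hR0, hRY, hR⟩ := h.exists_R
  have hnY : ∀ z : ℂ, R ≤ ‖z‖ → z ∉ Y := fun z hz hzY => absurd (hRY z hzY) (not_lt.2 hz)
  set A := max R |t| with hA
  have hAR : R ≤ A := le_max_left _ _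
  have hAt : |t| ≤ A := le_max_right _ _
  have hsub : ∀ z : ℂ, z ∈ FarL A R t → R ≤ ‖z‖ ∧ z.re < t := by
    rintro z (hz | ⟨hz, hz'⟩ | ⟨hz, hz'⟩)
    · have hz1 : z.re < -A := hz
      refine ⟨?_, ?_⟩
      · linarith [(abs_le.1 (Complex.abs_re_le_norm z)).1]
      · linarith [neg_abs_le t]
    · exact ⟨by linarith [Complex.im_le_norm z], hz⟩
    · refine ⟨?_, hz⟩
      have := (abs_le.1 (Complex.abs_im_le_norm z)).1
      linarith
  refine isPreconnected_of_far (F := FarL A R t) isPreconnected_farL ?_ ?_ ?_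
  · intro z hz
    obtain ⟨h1, h2⟩ := hsub z hz
    show up Y a z < t
    rw [h.up_eq (hnY z h1), hR z h1]; exact h2
  · exact ⟨⟨-A - 1, 0⟩, Or.inl (show -A - 1 < -A by linarith)⟩
  · intro z hz
    have h1 := h.sw.lt t z hz
    set S := {w | up Y a w < t} with hS
    by_contra hcon
    apply h1
    refine isBounded_iff_forall_norm_le.2 ⟨A + R, fun w hw => ?_⟩
    by_contra hwn
    push Not at hwn
    have hwS : up Y a w < t := connectedComponentIn_subset S z hw
    have hwR : R ≤ ‖w‖ := by linarith [hAR]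
    have hwt : w.re < t := by
      rw [h.up_eq (hnY w hwR), hR w hwR] at hwS; exact hwS
    refine hcon ⟨w, hw, ?_⟩
    by_cases h2 : w.re < -A
    · exact Or.inl h2
    · push Not at h2
      have h3 : |w.re| ≤ A := abs_le.2 ⟨h2, by linarith [le_abs_self t]⟩
      have h4 : R < |w.im| := by
        have := Complex.norm_le_abs_re_add_abs_im w
        linarith
      rcases lt_abs.1 h4 with h5 | h5
      · exact Or.inr (Or.inl ⟨hwt, h5⟩)
      · exact Or.inr (Or.inr ⟨hwt, by linarith⟩)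

end Ctx

/-- good (crossing) points of the level `t` -/
def Gd (Y : Set ℂ) (a : ℂ → ℝ) (t : ℝ) (u : ℂ) : Prop :=
  u ∉ Y ∧ a u = t ∧ ∃ e : ℂ, ∀ s : ℝ, 0 < s → s ≤ 1 →
    (u + (s : ℂ) * e ∉ Y ∧ t < a (u + (s : ℂ) * e)) ∧ (u - (s : ℂ) * e ∉ Y ∧ a (u - (s : ℂ) * e) < t)

/-- geometric data: all of `Y` and `L` lies in the strip `|re| ≤ A - 1` -/
structure Box (Y : Set ℂ) (a : ℂ → ℝ) (t A : ℝ) : Prop where
  one : 1 ≤ A
  yre : ∀ z ∈ Y, |z.re| ≤ A - 1
  lre : ∀ z ∈ Lv Y a t, |z.re| ≤ A - 1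
  right : ∀ z : ℂ, A ≤ z.re → t < lo Y a z
  left : ∀ z : ℂ, z.re ≤ -A → up Y a z < t

namespace Ctx

variable {Y : Set ℂ} {a : ℂ → ℝ} (h : Ctx Y a)
include h

theorem exists_box (t : ℝ) : ∃ A, Box Y a t A := by
  obtain ⟨R, hR0, hRY, hR⟩ := h.exists_R
  have hnY : ∀ z : ℂ, R ≤ ‖z‖ → z ∉ Y := fun z hz hzY => absurd (hRY z hzY) (not_lt.2 hz)
  refine ⟨max R |t| + 1, by linarith [le_max_left R |t|], fun z hz => ?_, fun z hz => ?_,
    fun z hz => ?_, fun z hz => ?_⟩
  · have := Complex.abs_re_le_norm z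
    linarith [hRY z hz, le_max_left R |t|]
  · by_cases hzR : R ≤ ‖z‖
    · obtain ⟨h1, h2⟩ := hz
      rw [h.lo_eq (hnY z hzR), hR z hzR] at h1
      rw [h.up_eq (hnY z hzR), hR z hzR] at h2
      have : z.re = t := le_antisymm h1 h2
      rw [this]; linarith [le_max_right R |t|]
    · have := Complex.abs_re_le_norm z
      linarith [le_max_left R |t|]
  · have h1 : R ≤ ‖z‖ := by linarith [Complex.re_le_norm z, le_max_left R |t|]
    rw [h.lo_eq (hnY z h1), hR z h1]; linarith [le_max_right R |t|, le_abs_self t]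
  · have h1 : R ≤ ‖z‖ := by
      linarith [(abs_le.1 (Complex.abs_re_le_norm z)).1, le_max_left R |t|]
    rw [h.up_eq (hnY z h1), hR z h1]; linarith [le_max_right R |t|, neg_abs_le t]

/-- a continuum from left to right crossing the level exactly at the good point `u` -/
theorem exists_G {t A : ℝ} (hA : Box Y a t A) {u : ℂ} (hu : Gd Y a t u) :
    ∃ G : Set ℂ, IsCompact G ∧ IsPreconnected G ∧ (⟨-(A + 1), 0⟩ : ℂ) ∈ G ∧ (⟨A + 1, 0⟩ : ℂ) ∈ G ∧
      G ⊆ ({z | t < lo Y a z} ∪ {z | up Y a z < t}) ∪ {u} := by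
  obtain ⟨huY, hut, e, he⟩ := hu
  have h1 := he 1 one_pos le_rfl
  simp only [Complex.ofReal_one, one_mul] at h1
  have hp : u + e ∈ {z | t < lo Y a z} := by
    show t < lo Y a (u + e)
    rw [h.lo_eq h1.1.1]; exact h1.1.2
  have hm : u - e ∈ {z | up Y a z < t} := by
    show up Y a (u - e) < t
    rw [h.up_eq h1.2.1]; exact h1.2.2
  have hr : (⟨A + 1, 0⟩ : ℂ) ∈ {z | t < lo Y a z} := hA.right _ (show A ≤ A + 1 by linarith)
  have hl : (⟨-(A + 1), 0⟩ : ℂ) ∈ {z | up Y a z < t} :=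
    hA.left _ (show -(A + 1) ≤ -A by linarith)
  obtain ⟨H₁, h1s, h1c, h1p, h1a, h1b⟩ := Sep_590.exists_cont (h.isOpen_lt t) (h.conn_lt t) hl hm
  obtain ⟨H₂, h2s, h2c, h2p, h2a, h2b⟩ := Sep_590.exists_cont (h.isOpen_gt t) (h.conn_gt t) hp hr
  set S : Set ℂ := (fun s : ℝ => u + (s : ℂ) * e) '' Icc (-1) 1 with hS
  have hcont : Continuous fun s : ℝ => u + (s : ℂ) * e := by fun_prop
  have hSc : IsCompact S := isCompact_Icc.image hcont
  have hSp : IsPreconnected S := isPreconnected_Icc.image _ hcont.continuousOn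
  have hSsub : S ⊆ ({z | t < lo Y a z} ∪ {z | up Y a z < t}) ∪ {u} := by
    rintro _ ⟨s, ⟨hs1, hs2⟩, rfl⟩
    rcases lt_trichotomy s 0 with h0 | h0 | h0
    · left; right
      have h3 := (he (-s) (by linarith) (by linarith)).2
      have e1 : u - ((-s : ℝ) : ℂ) * e = u + (s : ℂ) * e := by push_cast; ring
      rw [e1] at h3
      show up Y a _ < t
      rw [h.up_eq h3.1]; exact h3.2
    · right; simp [h0]
    · left; left
      have h3 := (he s h0 hs2).1
      show t < lo Y a _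
      rw [h.lo_eq h3.1]; exact h3.2
  refine ⟨(H₁ ∪ S) ∪ H₂, (h1c.union hSc).union h2c, ?_, Or.inl (Or.inl h1a), Or.inr h2b, ?_⟩
  · have m1 : u - e ∈ S := ⟨-1, ⟨le_rfl, by norm_num⟩, by simp only [Complex.ofReal_neg, Complex.ofReal_one]; ring⟩
    have m2 : u + e ∈ S := ⟨1, ⟨by norm_num, le_rfl⟩, by simp only [Complex.ofReal_one]; ring⟩
    exact (h1p.union (u - e) h1b m1 hSp).union (u + e) (Or.inr m2) h2a h2p
  · rintro z ((hz | hz) | hz)
    · exact Or.inl (Or.inr (h1s hz))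
    · exact hSsub hz
    · exact Or.inl (Or.inl (h2s hz))

/-- **the cut-off of a good point** : smooth, `1` above, `0` below, locally `0` or `1` near `Y`, near
the level off the ball, and near the compact set `D` removed from `Ω` -/
theorem exists_kap {t A : ℝ} (hA : Box Y a t A) {u : ℂ} {G : Set ℂ}
    (hGc : IsCompact G) (hGp : IsPreconnected G) (hGl : (⟨-(A + 1), 0⟩ : ℂ) ∈ G)
    (hGr : (⟨A + 1, 0⟩ : ℂ) ∈ G)
    (hG : G ⊆ ({z | t < lo Y a z} ∪ {z | up Y a z < t}) ∪ {u}) {r : ℝ} (hr : 0 < r)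
    (hrY : ball u r ⊆ Yᶜ) {D : Set ℂ} (hD : IsCompact D) (hDY : Disjoint D Y)
    (hGD : Disjoint G D) (hDA : ∀ z ∈ D, |z.re| ≤ A) :
    ∃ H₀ : ℝ, ∀ H, H₀ ≤ H → ∃ κ : ℂ → ℝ, ContDiff ℝ ∞ κ ∧ (∀ z, 0 ≤ κ z) ∧ (∀ z, κ z ≤ 1) ∧
      (∀ z, H ≤ z.im → ∀ᶠ w in 𝓝 z, κ w = 1) ∧ (∀ z, z.im ≤ -H → ∀ᶠ w in 𝓝 z, κ w = 0) ∧
      (∀ z ∈ Y, Bar_764.Loc κ z) ∧ (∀ z ∈ Lv Y a t, z ∉ ball u r → Bar_764.Loc κ z) ∧
      (∀ z ∈ D, Bar_764.Loc κ z) := by
  classical
  set P : Set ℂ := {z | t < lo Y a z} with hP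
  set M : Set ℂ := {z | up Y a z < t} with hM
  set Ω : Set ℂ := ((P ∪ M) ∪ ball u r) \ D with hΩ
  have hΩo : IsOpen Ω := (((h.isOpen_gt t).union (h.isOpen_lt t)).union isOpen_ball).sdiff
    hD.isClosed
  have hGΩ : G ⊆ Ω := by
    intro z hz
    refine ⟨?_, disjoint_left.1 hGD hz⟩
    rcases hG hz with h1 | h1
    · exact Or.inl h1
    · rw [mem_singleton_iff.1 h1]; exact Or.inr (mem_ball_self hr)
  have hsat : ∀ z ∈ Y, z ∈ Ω → connectedComponentIn Y z ⊆ Ω := by
    intro z hz hzΩ w hw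
    have hwY := connectedComponentIn_subset _ _ hw
    refine ⟨?_, fun hwD => disjoint_left.1 hDY hwD hwY⟩
    rcases hzΩ.1 with (h1 | h1) | h1
    · refine Or.inl (Or.inl ?_)
      show t < lo Y a w
      rw [lo_congr_cc hz hw]; exact h1
    · refine Or.inl (Or.inr ?_)
      show up Y a w < t
      rw [up_congr_cc hz hw]; exact h1
    · exact absurd hz (hrY h1)
  -- a height
  obtain ⟨C, hC⟩ := ((hGc.union h.cpt).union hD).isBounded.exists_norm_le
  have hCn : ∀ z ∈ (G ∪ Y) ∪ D, |z.im| ≤ C := fun z hz =>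
    (Complex.abs_im_le_norm z).trans (hC z hz)
  refine ⟨C + 1, fun H hH => ?_⟩
  have hGO : G ⊆ Ω ∩ {z | |z.im| < H} := fun z hz =>
    ⟨hGΩ hz, show |z.im| < H by linarith [hCn z (Or.inl (Or.inl hz))]⟩
  have hO : IsOpen (Ω ∩ {z : ℂ | |z.im| < H}) :=
    hΩo.inter (_root_.isOpen_lt (Complex.continuous_im.abs) continuous_const)
  obtain ⟨ε, hε, hεs⟩ := hGc.exists_thickening_subset_open hO hGO
  obtain ⟨κ, hκ, h0, h1, htop, hbot, hE, hL⟩ := Bar_764.exists_kappa (E := Y) (Ω := Ω)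
    (W := thickening ε G) (A := A) (A' := A + 1) (H := H) (by linarith) h.cpt
    (fun z hz => by linarith [hA.yre z hz]) (fun z hz => by linarith [hCn z (Or.inl (Or.inr hz))])
    hΩo hsat isOpen_thickening (fun z hz => (hεs hz).1)
    (Bar_764.isPreconnected_thickening hGp) (fun z hz => (hεs hz).2)
    (self_subset_thickening hε _ hGl) (by simp) (self_subset_thickening hε _ hGr) (by simp)
  refine ⟨κ, hκ, h0, h1, htop, hbot, hE, fun z hz hzb => ?_, fun z hz => ?_⟩
  · by_cases hi : |z.im| ≤ H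
    · refine hL z ⟨by linarith [hA.lre z hz], hi⟩ fun hzΩ => ?_
      rcases hzΩ.1 with (h2 | h2) | h2
      · exact absurd hz.1 (not_le.2 h2)
      · exact absurd hz.2 (not_le.2 h2)
      · exact hzb h2
    · push Not at hi
      rcases lt_abs.1 hi with h2 | h2
      · exact Or.inr (htop z h2.le)
      · exact Or.inl (hbot z (by linarith))
  · exact hL z ⟨hDA z hz, by linarith [hCn z (Or.inr hz)]⟩ fun hzΩ => hzΩ.2 hz

end Ctx

end

end Crest.Agent.R105.Yl_580
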