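import Crest.Agent.R105.Yl1_580
import Crest.Agent.R105.Stk1_939

/-!
# Row 105, S0138 (T-frame), LEMMA Y (NI-10), part 2: Stokes across an open set, flux (helper580)

* `stokes_P` : `∫_{P ∩ V} dκ ∧ dg = 0` when at every point of `∂P` either `κ` is locally constant or
  `g` is locally zero (one of them compactly supported)
* `flux` : `∫_P dκ ∧ dθ = 1` for a barrier function `κ` (1 above, 0 below) and a bump `θ`
-/

set_option autoImplicit false
set_option linter.style.longLine false

open MeasureTheory Set Filter Topology Metric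
open scoped NNReal ENNReal ContDiff

namespace Crest.Agent.R105.Yl_580

open Bd_775

noncomputable section

/-- locally constant near `z` -/
def Lk (κ : ℂ → ℝ) (z : ℂ) : Prop := ∀ᶠ w in 𝓝 z, κ w = κ z

theorem isOpen_Lk (κ : ℂ → ℝ) : IsOpen {z | Lk κ z} := by
  rw [isOpen_iff_mem_nhds]
  intro z hz
  have hz' : ∀ᶠ w in 𝓝 z, κ w = κ z := hz
  filter_upwards [eventually_eventually_nhds.2 hz'] with w hw
  have h1 : κ w = κ z := hw.self_of_nhds
  show ∀ᶠ x in 𝓝 w, κ x = κ w
  filter_upwards [hw] with x hx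
  rw [hx, h1]

theorem isOpen_zero (g : ℂ → ℝ) : IsOpen {z | ∀ᶠ w in 𝓝 z, g w = 0} := by
  rw [isOpen_iff_mem_nhds]
  intro z hz
  have hz' : ∀ᶠ w in 𝓝 z, g w = 0 := hz
  filter_upwards [eventually_eventually_nhds.2 hz'] with w hw using hw

theorem Lk.gx {κ : ℂ → ℝ} {z : ℂ} (h : Lk κ z) : gx κ z = 0 := by
  have : κ =ᶠ[𝓝 z] fun _ => κ z := h
  rw [gx_eq_of_eventuallyEq this, gx_const]
theorem Lk.gy {κ : ℂ → ℝ} {z : ℂ} (h : Lk κ z) : gy κ z = 0 := by
  have : κ =ᶠ[𝓝 z] fun _ => κ z := h
  rw [gy_eq_of_eventuallyEq this, gy_const]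

theorem wdg_left {κ g : ℂ → ℝ} {z : ℂ} (h : Lk κ z) : wdg κ g z = 0 := by
  unfold wdg; rw [h.gx, h.gy]; ring
theorem wdg_right {κ g : ℂ → ℝ} {z : ℂ} (h : Lk g z) : wdg κ g z = 0 := by
  unfold wdg; rw [h.gx, h.gy]; ring
theorem wdg_symm (κ g : ℂ → ℝ) (z : ℂ) : wdg κ g z = - wdg g κ z := by unfold wdg; ring

theorem Lk.of_zero {g : ℂ → ℝ} {z : ℂ} (h : ∀ᶠ w in 𝓝 z, g w = 0) : Lk g z := by
  show ∀ᶠ w in 𝓝 z, g w = g z
  filter_upwards [h] with w hw
  rw [hw, h.self_of_nhds]

theorem Lk.of_loc {κ : ℂ → ℝ} {z : ℂ} (h : Bar_764.Loc κ z) : Lk κ z := by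
  rcases h with h | h
  · exact Lk.of_zero h
  · show ∀ᶠ w in 𝓝 z, κ w = κ z
    filter_upwards [h] with w hw
    rw [hw, h.self_of_nhds]

/-- **Stokes across `∂P`** -/
theorem stokes_P {P V : Set ℂ} (hP : IsOpen P) (hV : IsOpen V) {κ g : ℂ → ℝ}
    (hκ : LocallyLipschitzOn V κ) (hg : LocallyLipschitzOn V g)
    (hc : HasCompactSupport κ ∨ HasCompactSupport g)
    (hout : ∀ z ∉ V, Lk κ z)
    (hfr : ∀ z ∈ frontier P, Lk κ z ∨ (∀ᶠ w in 𝓝 z, g w = 0)) :
    IntegrableOn (wdg κ g) (P ∩ V) ∧ ∫ z in P ∩ V, wdg κ g z = 0 := by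
  set S : Set ℂ := {z | Lk κ z}ᶜ with hS
  have hSc : IsClosed S := (isOpen_Lk κ).isClosed_compl
  obtain ⟨K, hK, hKS, hKg⟩ : ∃ K : Set ℂ, IsCompact K ∧ K ⊆ S ∧
      ∀ z ∈ S, z ∉ K → ∀ᶠ w in 𝓝 z, g w = 0 := by
    rcases hc with hc | hc
    · refine ⟨S ∩ tsupport κ, hc.isCompact.inter_left hSc, inter_subset_left, fun z hz hzK => ?_⟩
      have h1 : z ∉ tsupport κ := fun h => hzK ⟨hz, h⟩
      exact absurd (Lk.of_zero (notMem_tsupport_iff_eventuallyEq.1 h1)) hz
    · refine ⟨S ∩ tsupport g, hc.isCompact.inter_left hSc, inter_subset_left, fun z hz hzK => ?_⟩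
      have h1 : z ∉ tsupport g := fun h => hzK ⟨hz, h⟩
      exact notMem_tsupport_iff_eventuallyEq.1 h1
  set Z : Set ℂ := {z | ∀ᶠ w in 𝓝 z, g w = 0} with hZ
  have hZo : IsOpen Z := isOpen_zero g
  set K₁ : Set ℂ := (K \ Z) ∩ closure P with hK₁
  have hK₁c : IsCompact K₁ := (hK.diff hZo).inter_right isClosed_closure
  have hK₁s : K₁ ⊆ P ∩ V := by
    rintro z ⟨⟨h1, h2⟩, h3⟩
    constructor
    · by_contra h4
      have h5 : z ∈ frontier P := by rw [hP.frontier_eq]; exact ⟨h3, h4⟩
      rcases hfr z h5 with h6 | h6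
      · exact hKS h1 h6
      · exact h2 h6
    · by_contra h4
      exact hKS h1 (hout z h4)
  obtain ⟨χ, ⟨L, hL⟩, hχc, hχU, ⟨O, hO, hKO, h1⟩, -⟩ :=
    R247.Ms322.exists_lip_cutoff hK₁c (hP.inter hV) hK₁s
  have hχV : tsupport χ ⊆ V := hχU.trans inter_subset_right
  set f : ℂ → ℝ := fun z => χ z * g z with hf
  have hfl : LocallyLipschitz f :=
    R247.Ms322.LLo.mul_supp hL.locallyLipschitz (Stk_939.llo_of hV hg) hχV
  have hfc : HasCompactSupport f := hχc.mul_right
  have hfs : tsupport f ⊆ P ∩ V := (closure_mono (fun z hz => by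
    simp only [Function.mem_support] at hz ⊢
    exact left_ne_zero_of_mul hz)).trans hχU
  obtain ⟨K', hfL⟩ := R247.Ms322.exists_lipschitzWith hfl hfc
  have hst := Stk_939.stokes_open hV hfL hfc (hfs.trans inter_subset_right) hκ
  have hst1 : Integrable (wdg f κ) := hst.1
  have hst2 : ∫ z, wdg f κ z = 0 := hst.2
  have heq : ∀ z ∈ P ∩ V, wdg κ g z = - wdg f κ z := by
    intro z hz
    by_cases hzS : z ∈ S
    · by_cases hzK : z ∈ K ∧ z ∉ Z
      · have hzK₁ : z ∈ K₁ := ⟨hzK, subset_closure hz.1⟩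
        have h2 : f =ᶠ[𝓝 z] g := by
          filter_upwards [hO.mem_nhds (hKO hzK₁)] with w hw
          rw [hf]; simp only []; rw [h1 w hw, one_mul]
        rw [wdg_symm, wdg_eq_of_eventuallyEq h2 (EventuallyEq.refl _ κ)]
      · have h2 : ∀ᶠ w in 𝓝 z, g w = 0 := by
          by_cases h3 : z ∈ K
          · exact (not_and_not_right.1 hzK) h3
          · exact hKg z hzS h3
        have h3 : ∀ᶠ w in 𝓝 z, f w = 0 := by
          filter_upwards [h2] with w hw
          rw [hf]; simp only []; rw [hw, mul_zero]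
        rw [wdg_right (Lk.of_zero h2), wdg_left (Lk.of_zero h3), neg_zero]
    · have h2 : Lk κ z := not_not.1 hzS
      rw [wdg_left h2, wdg_right h2, neg_zero]
  have hmeas : MeasurableSet (P ∩ V) := (hP.inter hV).measurableSet
  constructor
  · exact (hst1.neg.integrableOn).congr_fun (fun z hz => (heq z hz).symm) hmeas
  · rw [setIntegral_congr_fun hmeas heq, integral_neg]
    rw [setIntegral_eq_integral_of_forall_compl_eq_zero, hst2, neg_zero]
    intro z hz
    have : z ∉ tsupport f := fun h => hz (hfs h)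
    exact wdg_left (Lk.of_zero (notMem_tsupport_iff_eventuallyEq.1 this))

/-! ### flux -/

/-- the profile -/
def pr (B : ℝ) (x : ℝ) : ℝ := Real.smoothTransition (B + 1 - x)

theorem contDiff_pr (B : ℝ) : ContDiff ℝ ∞ (pr B) :=
  Real.smoothTransition.contDiff.comp (contDiff_const.sub contDiff_id)

theorem pr_one {B x : ℝ} (hx : x ≤ B) : pr B x = 1 :=
  Real.smoothTransition.one_of_one_le (by linarith)
theorem pr_zero {B x : ℝ} (hx : B + 1 ≤ x) : pr B x = 0 :=
  Real.smoothTransition.zero_of_nonpos (by linarith)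

theorem deriv_pr_of_lt {B x : ℝ} (hx : x < B) : deriv (pr B) x = 0 := by
  have : pr B =ᶠ[𝓝 x] fun _ => 1 := by
    filter_upwards [gt_mem_nhds hx] with y hy
    exact pr_one (le_of_lt hy)
  rw [this.deriv_eq]; simp
theorem deriv_pr_of_gt {B x : ℝ} (hx : B + 1 < x) : deriv (pr B) x = 0 := by
  have : pr B =ᶠ[𝓝 x] fun _ => 0 := by
    filter_upwards [lt_mem_nhds hx] with y hy
    exact pr_zero (le_of_lt hy)
  rw [this.deriv_eq]; simp

theorem continuous_deriv_pr (B : ℝ) : Continuous (deriv (pr B)) :=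
  (contDiff_pr B).continuous_deriv (by simp)

theorem integral_deriv_pr (B : ℝ) : ∫ x, deriv (pr B) x = -1 := by
  have hcs : HasCompactSupport (deriv (pr B)) := by
    refine HasCompactSupport.intro (isCompact_Icc (a := B) (b := B + 1)) fun x hx => ?_
    rw [mem_Icc, not_and_or, not_le, not_le] at hx
    rcases hx with hx | hx
    · exact deriv_pr_of_lt hx
    · exact deriv_pr_of_gt hx
  have hint : Integrable (deriv (pr B)) :=
    (continuous_deriv_pr B).integrable_of_hasCompactSupport hcs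
  have := integral_of_hasDerivAt_of_tendsto (f := pr B) (f' := deriv (pr B)) (m := 1) (n := 0)
    (fun x => ((contDiff_pr B).differentiable (by simp) x).hasDerivAt) hint
    (tendsto_const_nhds.congr' (by
      filter_upwards [eventually_le_atBot B] with x hx
      rw [pr_one hx]))
    (tendsto_const_nhds.congr' (by
      filter_upwards [eventually_ge_atTop (B + 1)] with x hx
      rw [pr_zero hx]))
  rw [this]; norm_num

theorem hasDerivAt_gy {κ : ℂ → ℝ} (hκ : ContDiff ℝ ∞ κ) (x y : ℝ) :
    HasDerivAt (fun y : ℝ => κ ⟨x, y⟩) (gy κ ⟨x, y⟩) y := by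
  have h1 : HasFDerivAt κ (fderiv ℝ κ ⟨x, y⟩) (⟨x, y⟩ : ℂ) :=
    (hκ.differentiable (by simp) _).hasFDerivAt
  have h2 : HasDerivAt (fun y : ℝ => (⟨x, y⟩ : ℂ)) Complex.I y := by
    have : (fun y : ℝ => (⟨x, y⟩ : ℂ)) = fun y : ℝ => (x : ℂ) + (y : ℂ) * Complex.I := by
      funext y; apply Complex.ext <;> simp
    rw [this]
    simpa using ((Complex.ofRealCLM.hasDerivAt (x := y)).mul_const Complex.I).const_add (x : ℂ)
  exact h1.comp_hasDerivAt y h2

/-- **flux of a barrier function** -/
theorem flux {P : Set ℂ} (hP : IsOpen P) {κ θ : ℂ → ℝ} {A H : ℝ} (hA : 0 ≤ A)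
    (hκ : ContDiff ℝ ∞ κ) (htop : ∀ z, H ≤ z.im → ∀ᶠ w in 𝓝 z, κ w = 1)
    (hbot : ∀ z, z.im ≤ -H → ∀ᶠ w in 𝓝 z, κ w = 0)
    (hR : ∀ z : ℂ, A ≤ z.re → z ∈ P) (hL : ∀ z : ℂ, z.re ≤ -A → z ∉ P)
    (hθ : LocallyLipschitz θ) (hθc : HasCompactSupport θ)
    (hfr : ∀ z ∈ frontier P, Lk κ z ∨ (∀ᶠ w in 𝓝 z, θ w = 1)) :
    ∫ z in P, wdg κ θ z = 1 := by
  obtain ⟨C, hC⟩ := hθc.isCompact.isBounded.exists_norm_le
  set K := max (max C H) 0 + 1 with hK
  have hKC : C < K := by rw [hK]; linarith [le_max_left (max C H) 0, le_max_left C H]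
  have hKH : H < K := by rw [hK]; linarith [le_max_left (max C H) 0, le_max_right C H]
  have hK0 : 0 < K := by rw [hK]; linarith [le_max_right (max C H) 0]
  set B := A + 1 with hB
  set Θ : ℂ → ℝ := fun z => (pr B z.re * pr B (-z.re)) * (pr K z.im * pr K (-z.im)) with hΘ
  have hΘs : ContDiff ℝ ∞ Θ := by
    have e1 : ContDiff ℝ ∞ fun z : ℂ => z.re := Complex.reCLM.contDiff
    have e2 : ContDiff ℝ ∞ fun z : ℂ => z.im := Complex.imCLM.contDiff
    exact (((contDiff_pr B).comp e1).mul ((contDiff_pr B).comp e1.neg)).mul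
      (((contDiff_pr K).comp e2).mul ((contDiff_pr K).comp e2.neg))
  have hΘ1 : ∀ z : ℂ, |z.re| < B → |z.im| < K → ∀ᶠ w in 𝓝 z, Θ w = 1 := by
    intro z h1 h2
    have o1 : ∀ᶠ w in 𝓝 z, |w.re| < B :=
      (Complex.continuous_re.abs.continuousAt (x := z)).eventually_lt_const h1
    have o2 : ∀ᶠ w in 𝓝 z, |w.im| < K :=
      (Complex.continuous_im.abs.continuousAt (x := z)).eventually_lt_const h2
    filter_upwards [o1, o2] with w hw1 hw2
    rw [abs_lt] at hw1 hw2
    rw [hΘ]; simp only []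
    rw [pr_one (by linarith), pr_one (by linarith), pr_one (by linarith), pr_one (by linarith)]
    norm_num
  have hΘc : HasCompactSupport Θ := by
    refine HasCompactSupport.intro (isCompact_closedBall (0 : ℂ) (B + 1 + (K + 1))) fun z hz => ?_
    rw [mem_closedBall_zero_iff, not_le] at hz
    have h1 := Complex.norm_le_abs_re_add_abs_im z
    have h2 : B + 1 ≤ |z.re| ∨ K + 1 ≤ |z.im| := by
      by_contra hcon
      push Not at hcon
      linarith [hcon.1, hcon.2]
    rw [hΘ]; simp only []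
    rcases h2 with h2 | h2
    · rcases le_abs.1 h2 with h3 | h3
      · rw [pr_zero h3]; ring
      · rw [pr_zero (x := -z.re) h3]; ring
    · rcases le_abs.1 h2 with h3 | h3
      · rw [pr_zero (x := z.im) h3]; ring
      · rw [pr_zero (x := -z.im) h3]; ring
  have hfre : ∀ z ∈ frontier P, |z.re| < B := by
    intro z hz
    rw [abs_lt]
    constructor
    · by_contra hcon
      push Not at hcon
      have h1 : z ∈ {w : ℂ | w.re < -A} := show z.re < -A by linarith
      have h2 : IsOpen {w : ℂ | w.re < -A} := isOpen_lt Complex.continuous_re continuous_const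
      obtain ⟨w, hw, hwP⟩ := mem_closure_iff.1 (frontier_subset_closure hz) _ h2 h1
      exact hL w (le_of_lt hw) hwP
    · by_contra hcon
      push Not at hcon
      have h1 : z ∈ P := hR z (by linarith)
      rw [hP.frontier_eq] at hz
      exact hz.2 h1
  -- comparison
  have hcmp := stokes_P (P := P) (V := univ) hP isOpen_univ (κ := κ) (g := fun z => Θ z - θ z)
    (hκ.of_le (m := 1) (by simp)).locallyLipschitz.locallyLipschitzOn
    ((hΘs.of_le (m := 1) (by simp)).locallyLipschitz.sub hθ).locallyLipschitzOn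
    (Or.inr (hΘc.sub hθc)) (fun z hz => absurd (mem_univ z) hz) (by
      intro z hz
      rcases hfr z hz with h1 | h1
      · exact Or.inl h1
      · by_cases h2 : |z.im| < K
        · right
          filter_upwards [hΘ1 z (hfre z hz) h2, h1] with w hw1 hw2
          rw [hw1, hw2, sub_self]
        · left
          push Not at h2
          exfalso
          have h3 : z ∈ tsupport θ := by
            apply subset_tsupport
            rw [Function.mem_support, h1.self_of_nhds]
            exact one_ne_zero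
          have := (Complex.abs_im_le_norm z).trans (hC z h3)
          linarith)
  rw [inter_univ] at hcmp
  have hθint : IntegrableOn (wdg κ θ) P := by
    obtain ⟨L, hL'⟩ := R247.Ms322.exists_lipschitzWith hθ hθc
    have := (Stk_939.stokes_open isOpen_univ hL' hθc (subset_univ _)
      (hκ.of_le (m := 1) (by simp)).locallyLipschitz.locallyLipschitzOn).1
    have h2 : Integrable (wdg κ θ) := by
      have e : wdg κ θ = fun z => - wdg θ κ z := funext fun z => wdg_symm κ θ z
      rw [e]; exact Integrable.neg this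
    exact h2.integrableOn
  have hsplit : ∫ z in P, wdg κ θ z = ∫ z in P, wdg κ Θ z := by
    have hd : ∀ᵐ z ∂(volume.restrict P), wdg κ (fun z => Θ z - θ z) z = wdg κ Θ z - wdg κ θ z := by
      obtain ⟨L, hL'⟩ := R247.Ms322.exists_lipschitzWith hθ hθc
      filter_upwards [ae_restrict_of_ae (hL'.ae_differentiableAt (μ := volume))] with z hz
      have h1 : DifferentiableAt ℝ Θ z := hΘs.differentiable (by simp) z
      unfold wdg
      rw [gx_sub h1 hz, gy_sub h1 hz]; ring
    have hΘint : IntegrableOn (wdg κ Θ) P := by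
      have h1 := hcmp.1.add hθint
      refine h1.congr ?_
      filter_upwards [hd] with z hz
      simp only [Pi.add_apply]
      rw [hz]; ring
    have h2 := hcmp.2
    rw [integral_congr_ae hd, integral_sub hΘint hθint] at h2
    linarith
  rw [hsplit]
  -- evaluation
  set F : ℂ → ℝ := fun z => - (gy κ z * deriv (pr B) z.re) with hF
  have hκflat : ∀ z : ℂ, H ≤ |z.im| → Lk κ z := by
    intro z hz
    rcases le_abs.1 hz with h1 | h1
    · exact Lk.of_loc (Or.inr (htop z h1))
    · exact Lk.of_loc (Or.inl (hbot z (by linarith)))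
  have hPF : ∀ z ∈ P, wdg κ Θ z = F z := by
    intro z hz
    by_cases h1 : H ≤ |z.im|
    · rw [wdg_left (hκflat z h1), hF]; simp only []
      rw [(hκflat z h1).gy]; ring
    · push Not at h1
      have hre : -A < z.re := by
        by_contra hcon
        push Not at hcon
        exact hL z hcon hz
      have hev : Θ =ᶠ[𝓝 z] fun w => pr B w.re := by
        have o1 : ∀ᶠ w in 𝓝 z, -A < w.re :=
          (Complex.continuous_re.continuousAt (x := z)).eventually_const_lt hre
        have o2 : ∀ᶠ w in 𝓝 z, |w.im| < K :=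
          (Complex.continuous_im.abs.continuousAt (x := z)).eventually_lt_const (by linarith)
        filter_upwards [o1, o2] with w hw1 hw2
        rw [abs_lt] at hw2
        rw [hΘ]; simp only []
        rw [pr_one (x := -w.re) (by linarith), pr_one (x := w.im) (by linarith),
          pr_one (x := -w.im) (by linarith)]
        ring
      have hd : HasFDerivAt (fun w : ℂ => pr B w.re) ((deriv (pr B) z.re) • Complex.reCLM) z := by
        have h2 : HasDerivAt (pr B) (deriv (pr B) z.re) z.re :=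
          ((contDiff_pr B).differentiable (by simp) _).hasDerivAt
        exact h2.comp_hasFDerivAt z (Complex.reCLM.hasFDerivAt)
      have hgx : gx Θ z = deriv (pr B) z.re := by
        rw [gx_eq_of_eventuallyEq hev]; unfold gx; rw [hd.fderiv]; simp
      have hgy : gy Θ z = 0 := by
        rw [gy_eq_of_eventuallyEq hev]; unfold gy; rw [hd.fderiv]; simp
      unfold wdg
      rw [hgx, hgy, hF]; ring
  have hF0 : ∀ z ∉ P, F z = 0 := by
    intro z hz
    have h1 : z.re < B := by
      by_contra hcon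
      push Not at hcon
      exact hz (hR z (by linarith))
    rw [hF]; simp only []
    rw [deriv_pr_of_lt h1]; ring
  rw [setIntegral_congr_fun hP.measurableSet hPF,
    setIntegral_eq_integral_of_forall_compl_eq_zero hF0]
  -- Fubini
  have hgyc : Continuous (gy κ) := by
    have h1 : Continuous (fderiv ℝ κ) := hκ.continuous_fderiv (by simp)
    exact h1.clm_apply continuous_const
  have hFc : Continuous F :=
    (hgyc.mul ((continuous_deriv_pr B).comp Complex.continuous_re)).neg
  have e3 : ∫ z, F z = ∫ p : ℝ × ℝ, F (⟨p.1, p.2⟩ : ℂ) := by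
    have := (Complex.volume_preserving_equiv_real_prod.symm).integral_comp
      (Complex.measurableEquivRealProd.symm.measurableEmbedding) F
    rw [← this]
    rfl
  have hcm : Continuous fun p : ℝ × ℝ => (⟨p.1, p.2⟩ : ℂ) := by
    have : (fun p : ℝ × ℝ => (⟨p.1, p.2⟩ : ℂ)) = Complex.equivRealProdCLM.symm := by
      funext p; rfl
    rw [this]; exact Complex.equivRealProdCLM.symm.continuous
  have hFcs : HasCompactSupport fun p : ℝ × ℝ => F (⟨p.1, p.2⟩ : ℂ) := by
    refine HasCompactSupport.intro ((isCompact_Icc (a := B) (b := B + 1)).prod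
      (isCompact_Icc (a := -|H|) (b := |H|))) fun p hp => ?_
    rw [mem_prod, not_and_or, mem_Icc, mem_Icc, not_and_or, not_and_or] at hp
    simp only [not_le] at hp
    rw [hF]; simp only []
    rcases hp with (hp | hp) | (hp | hp)
    · rw [deriv_pr_of_lt hp]; ring
    · rw [deriv_pr_of_gt hp]; ring
    · rw [(hκflat ⟨p.1, p.2⟩ ?_).gy]; · ring
      exact (le_abs_self H).trans (le_abs.2 (Or.inr (show |H| ≤ -p.2 by linarith)))
    · rw [(hκflat ⟨p.1, p.2⟩ ?_).gy]; · ring
      exact (le_abs_self H).trans (le_abs.2 (Or.inl (show |H| ≤ p.2 by linarith)))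
  have hFint : Integrable fun p : ℝ × ℝ => F (⟨p.1, p.2⟩ : ℂ) :=
    (hFc.comp hcm).integrable_of_hasCompactSupport hFcs
  rw [e3, Measure.volume_eq_prod, integral_prod _ (by rw [← Measure.volume_eq_prod]; exact hFint)]
  have hin : ∀ x : ℝ, ∫ y : ℝ, F (⟨x, y⟩ : ℂ) = - deriv (pr B) x := by
    intro x
    have hgint : Integrable fun y : ℝ => gy κ (⟨x, y⟩ : ℂ) := by
      refine (hgyc.comp (hcm.comp (continuous_const.prodMk continuous_id))).integrable_of_hasCompactSupport ?_
      refine HasCompactSupport.intro (isCompact_Icc (a := -|H|) (b := |H|)) fun y hy => ?_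
      rw [mem_Icc, not_and_or, not_le, not_le] at hy
      have : Lk κ (⟨x, y⟩ : ℂ) := by
        refine hκflat _ ?_
        rcases hy with hy | hy
        · exact (le_abs_self H).trans (le_abs.2 (Or.inr (show |H| ≤ -y by linarith)))
        · exact (le_abs_self H).trans (le_abs.2 (Or.inl (show |H| ≤ y by linarith)))
      exact this.gy
    have h1 := integral_of_hasDerivAt_of_tendsto (f := fun y : ℝ => κ (⟨x, y⟩ : ℂ))
      (f' := fun y : ℝ => gy κ (⟨x, y⟩ : ℂ)) (m := 0) (n := 1) (fun y => hasDerivAt_gy hκ x y) hgint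
      (tendsto_const_nhds.congr' (by
        filter_upwards [eventually_le_atBot (-H)] with y hy
        exact ((hbot ⟨x, y⟩ hy).self_of_nhds).symm))
      (tendsto_const_nhds.congr' (by
        filter_upwards [eventually_ge_atTop H] with y hy
        exact ((htop ⟨x, y⟩ hy).self_of_nhds).symm))
    have e4 : ∀ y : ℝ, F (⟨x, y⟩ : ℂ) = gy κ (⟨x, y⟩ : ℂ) * (- deriv (pr B) x) := by
      intro y; rw [hF]; simp only []; ring
    simp only [e4]
    rw [integral_mul_const, h1]; ring
  simp only [hin]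
  rw [integral_neg, integral_deriv_pr]; norm_num

end

end Crest.Agent.R105.Yl_580
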