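import Crest.Agent.R105.Vac1_937

/-!
# R105 (S0138, NI frame): LEMMA Y on vertical lines, part 1: one variable (helper319)

* `key'` : 937's `Vac_937.key` without continuity of `α` and with a nonzero total.
* `ae_abs_le` : `|∫ g D| ≤ ∫ |g| B` for all test functions `g` gives `|D| ≤ B` a.e.
-/

set_option autoImplicit false

open Set Filter MeasureTheory intervalIntegral
open scoped Topology NNReal ContDiff Convolution

namespace Crest.Agent.R105.Yv_319

open Vac_937

section

variable {α b χ χ' : ℝ → ℝ} {K : Set ℝ}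

/-- the increment over `[y1,y2]` in terms of the total `∫ (χ b + χ' α)` -/
theorem key' (hK : IsClosed K) (hα : LocallyLipschitzOn Kᶜ α)
    (hd : ∀ᵐ y : ℝ, y ∉ K → HasDerivAt α (b y) y)
    (hb : ∀ u v, IntervalIntegrable b volume u v)
    (hfi : ∀ u v, IntervalIntegrable (fun y => χ y * b y + χ' y * α y) volume u v)
    (hχ : ∀ y, HasDerivAt χ (χ' y) y) (hχc : Continuous χ') {y1 y2 R : ℝ} (h12 : y1 ≤ y2)
    (hy1 : y1 ∉ K) (hy2 : y2 ∉ K) (hR1 : -R ≤ y1) (hR2 : y2 ≤ R)
    (h1 : ∀ y ∈ K, y ∈ Icc y1 y2 → ∀ᶠ x in 𝓝 y, χ x = 1)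
    (h0 : ∀ y ∈ K, y ∉ Icc y1 y2 → ∀ᶠ x in 𝓝 y, χ x = 0)
    (hl : χ (-R) = 0) (hr : χ R = 0) :
    α y2 - α y1 - (∫ y in y1..y2, b y) = -∫ y in (-R)..R, (χ y * b y + χ' y * α y) := by
  set f : ℝ → ℝ := fun y => χ y * b y + χ' y * α y with hf
  -- the first function
  have e1 : ∀ y, y ∉ Icc y1 y2 ∨ y ∉ K → ∀ᶠ x in 𝓝 y,
      (∫ r in (-R)..x, f r) - χ x * α x = (∫ r in (-R)..y, f r) - χ y * α y := by
    intro y hy
    by_cases hyK : y ∈ K
    · have hy' : y ∉ Icc y1 y2 := hy.resolve_right (fun h => h hyK)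
      have h2 := h0 y hyK hy'
      have h3 := deriv_zero_near hχ h2
      obtain ⟨t, ht, htt⟩ := Filter.eventually_iff_exists_mem.1 (h2.and h3)
      filter_upwards [eventually_uIcc ht] with x hx
      have h4 : ∫ r in y..x, f r = 0 := by
        apply integral_zero_ae
        refine Eventually.of_forall fun r hr' => ?_
        have := htt r (hx (uIoc_subset_uIcc hr'))
        simp [hf, this.1, this.2]
      have h5 := (htt x (hx right_mem_uIcc)).1
      have h6 := (htt y (hx left_mem_uIcc)).1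
      rw [h5, h6, ← integral_add_adjacent_intervals (hfi (-R) y) (hfi y x), h4]
      ring
    · filter_upwards [incr_two hK hα hd hχ hχc hyK] with x hx
      rw [← integral_add_adjacent_intervals (hfi (-R) y) (hfi y x), hx]
      ring
  -- the second function
  have e2 : ∀ y ∈ Icc y1 y2, ∀ᶠ x in 𝓝 y,
      (∫ r in (-R)..x, f r) - (∫ r in (-R)..x, b r) - (χ x - 1) * α x
        = (∫ r in (-R)..y, f r) - (∫ r in (-R)..y, b r) - (χ y - 1) * α y := by
    intro y hy
    by_cases hyK : y ∈ K
    · have h2 := h1 y hyK hy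
      have h3 := deriv_zero_near hχ h2
      obtain ⟨t, ht, htt⟩ := Filter.eventually_iff_exists_mem.1 (h2.and h3)
      filter_upwards [eventually_uIcc ht] with x hx
      have h4 : ∫ r in y..x, f r = ∫ r in y..x, b r := by
        apply intervalIntegral.integral_congr_ae
        refine Eventually.of_forall fun r hr' => ?_
        have := htt r (hx (uIoc_subset_uIcc hr'))
        simp [hf, this.1, this.2]
      have h5 := (htt x (hx right_mem_uIcc)).1
      have h6 := (htt y (hx left_mem_uIcc)).1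
      rw [h5, h6, ← integral_add_adjacent_intervals (hfi (-R) y) (hfi y x),
        ← integral_add_adjacent_intervals (hb (-R) y) (hb y x), h4]
      ring
    · filter_upwards [incr_two hK hα hd hχ hχc hyK, incr_one hK hα hd hyK] with x hx hx'
      rw [← integral_add_adjacent_intervals (hfi (-R) y) (hfi y x), hx,
        ← integral_add_adjacent_intervals (hb (-R) y) (hb y x), hx']
      ring
  have c1 := const_of_locally (H := fun y => (∫ r in (-R)..y, f r) - χ y * α y) hR1 (by
    intro y hy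
    apply e1
    by_cases hyK : y ∈ K
    · left
      intro hm
      have : y = y1 := le_antisymm hy.2 hm.1
      exact hy1 (this ▸ hyK)
    · exact Or.inr hyK)
  have c3 := const_of_locally (H := fun y => (∫ r in (-R)..y, f r) - χ y * α y) hR2 (by
    intro y hy
    apply e1
    by_cases hyK : y ∈ K
    · left
      intro hm
      have : y = y2 := le_antisymm hm.2 hy.1
      exact hy2 (this ▸ hyK)
    · exact Or.inr hyK)
  have c2 := const_of_locally
    (H := fun y => (∫ r in (-R)..y, f r) - (∫ r in (-R)..y, b r) - (χ y - 1) * α y) h12 e2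
  beta_reduce at c1 c2 c3
  rw [integral_same, hl] at c1
  rw [hr] at c3
  have h8 : ∫ r in (-R)..y2, b r = (∫ r in (-R)..y1, b r) + ∫ r in y1..y2, b r :=
    (integral_add_adjacent_intervals (hb (-R) y1) (hb y1 y2)).symm
  rw [h8] at c2
  linarith

end

/-- nonnegative against all test functions -/
theorem ae_nonneg_of_test {h : ℝ → ℝ} (hh : Integrable h)
    (ht : ∀ g : ℝ → ℝ, ContDiff ℝ ∞ g → HasCompactSupport g → (∀ t, 0 ≤ g t) →
      0 ≤ ∫ t, g t * h t) : ∀ᵐ t, 0 ≤ h t := by
  have hφ : ∀ n : ℕ, (0:ℝ) < 1 / (2 * ((n:ℝ) + 1)) := fun n => by positivity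
  set φ : ℕ → ContDiffBump (0 : ℝ) := fun n =>
    ⟨1 / (2 * ((n:ℝ) + 1)), 1 / ((n:ℝ) + 1), hφ n, by
      rw [div_lt_div_iff₀ (by positivity) (by positivity)]
      nlinarith [(Nat.cast_nonneg n : (0:ℝ) ≤ n)]⟩ with hφd
  have h1 : Tendsto (fun n => (φ n).rOut) atTop (𝓝 0) := tendsto_one_div_add_atTop_nhds_zero_nat
  have h2 : ∀ᶠ n in atTop, (φ n).rOut ≤ 2 * (φ n).rIn := by
    refine Eventually.of_forall fun n => ?_
    show (1:ℝ) / ((n:ℝ) + 1) ≤ 2 * (1 / (2 * ((n:ℝ) + 1)))
    rw [← mul_div_assoc, mul_one, div_mul_eq_div_div, div_self two_ne_zero]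
  filter_upwards [ContDiffBump.ae_convolution_tendsto_right_of_locallyIntegrable (μ := volume)
    h1 h2 hh.locallyIntegrable] with x hx
  refine ge_of_tendsto hx (Eventually.of_forall fun n => ?_)
  rw [convolution_lsmul_swap]
  have h3 : ContDiff ℝ ∞ fun t => (φ n).normed volume (x - t) :=
    (φ n).contDiff_normed.comp (contDiff_const.sub contDiff_id)
  have h4 : HasCompactSupport fun t => (φ n).normed volume (x - t) :=
    (φ n).hasCompactSupport_normed.comp_homeomorph (Homeomorph.subLeft x)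
  have := ht _ h3 h4 fun t => (φ n).nonneg_normed _
  simpa only [smul_eq_mul] using this

theorem ae_abs_le {D B : ℝ → ℝ} (hD : Integrable D) (hB : Integrable B)
    (ht : ∀ g : ℝ → ℝ, ContDiff ℝ ∞ g → HasCompactSupport g → (∀ t, 0 ≤ g t) →
      |∫ t, g t * D t| ≤ ∫ t, g t * B t) : ∀ᵐ t, |D t| ≤ B t := by
  have hi : ∀ {g f : ℝ → ℝ}, ContDiff ℝ ∞ g → HasCompactSupport g → Integrable f →
      Integrable fun t => g t * f t := by
    intro g f hg hgc hf
    obtain ⟨M, hM⟩ := hgc.exists_bound_of_continuous hg.continuous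
    exact hf.bdd_mul (c := M) hg.continuous.aestronglyMeasurable (Eventually.of_forall hM)
  have h1 : ∀ᵐ t, 0 ≤ B t - D t := by
    refine ae_nonneg_of_test (hB.sub hD) fun g hg hgc hg0 => ?_
    have e : ∫ t, g t * (B t - D t) = (∫ t, g t * B t) - ∫ t, g t * D t := by
      rw [← integral_sub (hi hg hgc hB) (hi hg hgc hD)]
      congr 1; ext t; ring
    rw [e]
    have := ht g hg hgc hg0
    linarith [le_abs_self (∫ t, g t * D t)]
  have h2 : ∀ᵐ t, 0 ≤ B t + D t := by
    refine ae_nonneg_of_test (hB.add hD) fun g hg hgc hg0 => ?_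
    have e : ∫ t, g t * (B t + D t) = (∫ t, g t * B t) + ∫ t, g t * D t := by
      rw [← integral_add (hi hg hgc hB) (hi hg hgc hD)]
      congr 1; ext t; ring
    rw [e]
    have := ht g hg hgc hg0
    linarith [neg_abs_le (∫ t, g t * D t)]
  filter_upwards [h1, h2] with t h1 h2
  rw [abs_le]; constructor <;> linarith

end Crest.Agent.R105.Yv_319
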