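import Crest.Agent.R105.Yv1_319
import Crest.Agent.R105.Pct2_185
import Crest.Agent.R105.Stk2_939
import Crest.Agent.R105.Pv1_937

/-!
# R105 (S0138, NI frame): LEMMA Y on vertical lines, part 2: Stokes and Fubini (helper319)

`E` compact, `y` locally Lipschitz off `E`, `χ` smooth with compact support, locally constant near
`E`: `∫_{Eᶜ} d(G(re) χ) ∧ dy = ∫ G'(re) (χ ∂_y y + y ∂_y χ)`, and Fubini.
-/

set_option autoImplicit false

open Set Filter MeasureTheory Metric
open scoped Topology NNReal ContDiff ENNReal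

namespace Crest.Agent.R105.Yv_319

open Tc_808 Bd_775 Sqr_185
open Sct_636 (LCE)

noncomputable section

variable {E : Set ℂ} {y χ : ℂ → ℝ}

/-- the data of the conjugate function in the picture of an anchor -/
structure YD (E : Set ℂ) (y : ℂ → ℝ) : Prop where
  loc : LocallyLipschitzOn Eᶜ y
  bdd : ∀ R : ℝ, ∃ M, ∀ z, ‖z‖ ≤ R → |y z| ≤ M
  fin : ∀ R : ℝ, IntegrableOn (en y) (Eᶜ ∩ closedBall 0 R)

/-- the integrand on the vertical lines -/
def SY (E : Set ℂ) (χ y : ℂ → ℝ) (z : ℂ) : ℝ := χ z * Eᶜ.indicator (gy y) z + gy χ z * y z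

theorem gx_zero_near (h : ∀ z ∈ E, ∀ᶠ w in 𝓝 z, χ w = χ z) {z : ℂ} (hz : z ∈ E) :
    ∀ᶠ w in 𝓝 z, gx χ w = 0 := by
  filter_upwards [(h z hz).eventually_nhds] with w hw
  rw [gx_eq_of_eventuallyEq (v := fun _ => χ z) hw, gx_const]

theorem gy_zero_near (h : ∀ z ∈ E, ∀ᶠ w in 𝓝 z, χ w = χ z) {z : ℂ} (hz : z ∈ E) :
    ∀ᶠ w in 𝓝 z, gy χ w = 0 := by
  filter_upwards [(h z hz).eventually_nhds] with w hw
  rw [gy_eq_of_eventuallyEq (v := fun _ => χ z) hw, gy_const]

theorem continuous_gy' (h : ContDiff ℝ ∞ χ) : Continuous (gy χ) :=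
  (h.continuous_fderiv (by simp)).clm_apply continuous_const

theorem compact_gy' (h : HasCompactSupport χ) : HasCompactSupport (gy χ) :=
  h.fderiv_apply (𝕜 := ℝ) Complex.I

theorem continuousAt_of_loc (hE : IsClosed E) (hy : LocallyLipschitzOn Eᶜ y) {z : ℂ}
    (hz : z ∉ E) : ContinuousAt y z := by
  have h1 := hy.continuousOn z hz
  exact h1.continuousAt (hE.isOpen_compl.mem_nhds hz)

/-- `y ∂_y χ` is continuous -/
theorem continuous_gymul (hE : IsClosed E) (hχ : LCE E χ) (hy : LocallyLipschitzOn Eᶜ y) :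
    Continuous fun z => gy χ z * y z := by
  rw [continuous_iff_continuousAt]
  intro z
  by_cases hz : z ∈ E
  · have h1 : (fun w => gy χ w * y w) =ᶠ[𝓝 z] fun _ => (0:ℝ) := by
      filter_upwards [gy_zero_near hχ.lc hz] with w hw
      rw [hw, zero_mul]
    exact continuousAt_const.congr h1.symm
  · exact (continuous_gy' hχ.smooth).continuousAt.mul (continuousAt_of_loc hE hy hz)

theorem compact_gymul (hχ : LCE E χ) : HasCompactSupport fun z => gy χ z * y z :=
  (compact_gy' hχ.supp).mul_right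

theorem abs_gy_le' (u : ℂ → ℝ) (z : ℂ) : |gy u z| ≤ 1 + en u z := by
  unfold en
  rw [abs_le]; constructor <;> nlinarith [sq_nonneg (gy u z + 1), sq_nonneg (gy u z - 1),
    sq_nonneg (gx u z)]

theorem integrableOn_gy' (hy : YD E y) (R : ℝ) : IntegrableOn (gy y) (Eᶜ ∩ closedBall 0 R) := by
  have h1 : IntegrableOn (fun z => 1 + en y z) (Eᶜ ∩ closedBall 0 R) := by
    refine Integrable.add ?_ (hy.fin R)
    exact (integrableOn_const (isCompact_closedBall (0:ℂ) R).measure_lt_top.ne).mono_set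
      inter_subset_right
  refine Integrable.mono' h1 (measurable_gy y).aestronglyMeasurable ?_
  exact Eventually.of_forall fun z => abs_gy_le' y z

theorem exists_ball (hχ : HasCompactSupport χ) : ∃ R : ℝ, 0 < R ∧ tsupport χ ⊆ ball 0 R := by
  obtain ⟨R, hR⟩ := (isBounded_iff_subset_ball (0:ℂ)).1 hχ.isBounded
  exact ⟨max R 1, by positivity, hR.trans (ball_subset_ball (le_max_left _ _))⟩

/-- `χ ∂_y y` is integrable -/
theorem integrable_first (hE : IsClosed E) (hχ : LCE E χ) (hy : YD E y) :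
    Integrable fun z => χ z * Eᶜ.indicator (gy y) z := by
  obtain ⟨R, hR0, hR⟩ := exists_ball hχ.supp
  obtain ⟨M, hM⟩ := hχ.supp.exists_bound_of_continuous hχ.smooth.continuous
  have h1 : Integrable ((Eᶜ ∩ closedBall 0 R).indicator (gy y)) := by
    rw [integrable_indicator_iff (hE.isOpen_compl.measurableSet.inter
      isClosed_closedBall.measurableSet)]
    exact integrableOn_gy' hy R
  have h2 : Integrable fun z => χ z * (Eᶜ ∩ closedBall 0 R).indicator (gy y) z :=
    h1.bdd_mul (c := M) hχ.smooth.continuous.aestronglyMeasurable (Eventually.of_forall hM)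
  refine h2.congr (Eventually.of_forall fun z => ?_)
  by_cases hz : z ∈ tsupport χ
  · have h3 : z ∈ closedBall (0:ℂ) R := ball_subset_closedBall (hR hz)
    by_cases hzE : z ∈ Eᶜ
    · simp only [indicator_of_mem hzE, indicator_of_mem (show z ∈ Eᶜ ∩ closedBall 0 R from
        ⟨hzE, h3⟩)]
    · simp only [indicator_of_notMem hzE, indicator_of_notMem
        (show z ∉ Eᶜ ∩ closedBall 0 R from fun h => hzE h.1)]
  · simp only [image_eq_zero_of_notMem_tsupport hz, zero_mul]

theorem integrable_second (hE : IsClosed E) (hχ : LCE E χ) (hy : LocallyLipschitzOn Eᶜ y) :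
    Integrable fun z => gy χ z * y z :=
  (continuous_gymul hE hχ hy).integrable_of_hasCompactSupport (compact_gymul hχ)

theorem integrable_SY (hE : IsClosed E) (hχ : LCE E χ) (hy : YD E y) : Integrable (SY E χ y) :=
  (integrable_first hE hχ hy).add (integrable_second hE hχ hy.loc)

/-! ### Stokes -/

/-- truncation of `y` -/
theorem q_trunc (hE : IsClosed E) (hy : YD E y) {θ : ℂ → ℝ} (hθ : ContDiff ℝ ∞ θ)
    (hθc : HasCompactSupport θ) : Q E (fun z => θ z * y z) := by
  obtain ⟨R, hR0, hR⟩ := exists_ball hθc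
  obtain ⟨M1, hM1⟩ := hθc.exists_bound_of_continuous hθ.continuous
  obtain ⟨M2, hM2⟩ := hy.bdd R
  set M := max M1 M2 with hM
  have b1 : ∀ z, |θ z| ≤ M := fun z => (hM1 z).trans (le_max_left _ _)
  have b2 : ∀ z ∈ tsupport θ, |y z| ≤ M := fun z hz => by
    refine (hM2 z ?_).trans (le_max_right _ _)
    have := hR hz
    rw [mem_ball, dist_zero_right] at this
    exact this.le
  have hM0 : 0 ≤ M := (abs_nonneg _).trans (b1 0)
  refine ⟨⟨M * M, fun z => ?_⟩, ?_, ?_⟩
  · by_cases hz : z ∈ tsupport θ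
    · rw [abs_mul]
      exact mul_le_mul (b1 z) (b2 z hz) (abs_nonneg _) hM0
    · rw [image_eq_zero_of_notMem_tsupport hz, zero_mul, abs_zero]
      positivity
  · intro z hz
    by_cases hzt : z ∈ tsupport θ
    · -- local product
      obtain ⟨K, s, hs, h3⟩ := hy.loc hz
      obtain ⟨L, t, ht, h4⟩ := (hθ.of_le (by simp : (1 : WithTop ℕ∞) ≤ ((⊤ : ℕ∞) : WithTop ℕ∞))).locallyLipschitz z
      have hyc := continuousAt_of_loc hE hy.loc hz
      have hev : ∀ᶠ w in 𝓝 z, |y w| ≤ |y z| + 1 := by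
        have := hyc.abs.eventually (gt_mem_nhds (show |y z| < |y z| + 1 by linarith))
        filter_upwards [this] with w hw
        exact hw.le
      rw [hE.isOpen_compl.nhdsWithin_eq hz] at hs ⊢
      have hK0 : 0 ≤ M * K + (|y z| + 1) * L := by positivity
      refine ⟨Real.toNNReal (M * K + (|y z| + 1) * L), _, inter_mem (inter_mem hs ht) hev,
        LipschitzOnWith.of_dist_le_mul ?_⟩
      rintro a ⟨⟨ha1, ha2⟩, ha3⟩ b ⟨⟨hb1, hb2⟩, hb3⟩
      rw [Real.coe_toNNReal _ hK0]
      have e1 := h3.dist_le_mul a ha1 b hb1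
      have e2 := h4.dist_le_mul a ha2 b hb2
      rw [Real.dist_eq] at e1 e2 ⊢
      have e3 : θ a * y a - θ b * y b = θ a * (y a - y b) + y b * (θ a - θ b) := by ring
      rw [e3]
      refine (abs_add_le _ _).trans ?_
      rw [abs_mul, abs_mul]
      have e4 : |θ a| * |y a - y b| ≤ M * (K * dist a b) :=
        mul_le_mul (b1 a) e1 (abs_nonneg _) hM0
      have e5 : |y b| * |θ a - θ b| ≤ (|y z| + 1) * (L * dist a b) :=
        mul_le_mul hb3 e2 (abs_nonneg _) (by positivity)
      calc _ ≤ M * (K * dist a b) + (|y z| + 1) * (L * dist a b) := add_le_add e4 e5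
        _ = (M * K + (|y z| + 1) * L) * dist a b := by ring
    · have h5 : (fun w => θ w * y w) =ᶠ[𝓝 z] fun _ => (0:ℝ) := by
        filter_upwards [notMem_tsupport_iff_eventuallyEq.1 hzt] with w hw
        rw [hw]; simp
      refine ⟨0, {w | θ w * y w = 0}, mem_nhdsWithin_of_mem_nhds h5, fun a ha b hb => ?_⟩
      have ha' : θ a * y a = 0 := ha
      have hb' : θ b * y b = 0 := hb
      simp only [ha', hb', edist_self, zero_le]
  · have hm : MeasurableSet (Eᶜ : Set ℂ) := hE.isOpen_compl.measurableSet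
    have h1 : IntegrableOn (en fun z => θ z * y z) (Eᶜ ∩ closedBall 0 R) := by
      have hθe : IntegrableOn (en θ) (Eᶜ ∩ closedBall 0 R) := by
        have hd : Continuous (en θ) := by
          have h2 : Continuous (fderiv ℝ θ) := hθ.continuous_fderiv (by simp)
          exact ((h2.clm_apply continuous_const).pow 2).add ((h2.clm_apply continuous_const).pow 2)
        exact (hd.continuousOn.integrableOn_compact (isCompact_closedBall (0:ℂ) R)).mono_set
          inter_subset_right
      refine Integrable.mono' (((hθe.const_mul (2 * M ^ 2))).add ((hy.fin R).const_mul (2 * M ^ 2)))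
        (measurable_en _).aestronglyMeasurable ?_
      rw [ae_restrict_iff' (hm.inter isClosed_closedBall.measurableSet)]
      filter_upwards [(ae_restrict_iff' hm).1 (ae_diff hE.isOpen_compl hy.loc)] with z hz hzm
      rw [Real.norm_eq_abs, abs_of_nonneg (en_nonneg _ _)]
      by_cases hzt : z ∈ tsupport θ
      · exact en_mul_le (hθ.differentiable (by simp)).differentiableAt (hz hzm.1) (b1 z) (b2 z hzt)
      · have h5 : (fun w => θ w * y w) =ᶠ[𝓝 z] fun _ => (0:ℝ) := by
          filter_upwards [notMem_tsupport_iff_eventuallyEq.1 hzt] with w hw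
          rw [hw]; simp
        rw [en_eq_of_eventuallyEq h5, en_const]
        have := en_nonneg θ z; have := en_nonneg y z
        simp only [Pi.add_apply]
        positivity
    refine h1.of_forall_sdiff_eq_zero hm ?_
    rintro z ⟨hz, hz'⟩
    have hzt : z ∉ tsupport θ := fun h => hz' ⟨hz, ball_subset_closedBall (hR h)⟩
    have h5 : (fun w => θ w * y w) =ᶠ[𝓝 z] fun _ => (0:ℝ) := by
      filter_upwards [notMem_tsupport_iff_eventuallyEq.1 hzt] with w hw
      rw [hw]; simp
    rw [en_eq_of_eventuallyEq h5, en_const]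

theorem q_smooth (hE : IsClosed E) {θ : ℂ → ℝ} (hθ : ContDiff ℝ ∞ θ)
    (hθc : HasCompactSupport θ) : Q E θ := by
  obtain ⟨M1, hM1⟩ := hθc.exists_bound_of_continuous hθ.continuous
  refine ⟨⟨M1, hM1⟩, ((hθ.of_le (by simp : (1 : WithTop ℕ∞) ≤ ((⊤ : ℕ∞) : WithTop ℕ∞))).locallyLipschitz).locallyLipschitzOn, ?_⟩
  have h2 : Continuous (fderiv ℝ θ) := hθ.continuous_fderiv (by simp)
  have hd : Continuous (en θ) :=
    ((h2.clm_apply continuous_const).pow 2).add ((h2.clm_apply continuous_const).pow 2)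
  refine (hd.integrable_of_hasCompactSupport ((hθc.fderiv (𝕜 := ℝ)).mono ?_)).integrableOn
  intro z hz hz0
  apply hz
  have h3 : fderiv ℝ θ z = 0 := hz0
  simp [en, gx, gy, h3]

/-- **Stokes** for the test function `G(re) χ` -/
theorem stokes (hE : IsCompact E) (hχ : LCE E χ) (hy : YD E y) {G : ℝ → ℝ}
    (hG : ContDiff ℝ ∞ G) (hG' : HasCompactSupport (deriv G)) :
    ∫ w in Eᶜ, wdg (fun w => G w.re * χ w) y w = ∫ w, deriv G w.re * SY E χ y w := by
  have hEc := hE.isClosed
  have hm : MeasurableSet (Eᶜ : Set ℂ) := hEc.isOpen_compl.measurableSet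
  obtain ⟨R, hR0, hR⟩ := exists_ball hχ.supp
  let θ : ContDiffBump (0 : ℂ) := ⟨R + 1, R + 2, by linarith, by linarith⟩
  have hθ1 : ∀ z ∈ tsupport χ, ∀ᶠ w in 𝓝 z, θ w = 1 := by
    intro z hz
    have h1 : ball (0:ℂ) R ∈ 𝓝 z := isOpen_ball.mem_nhds (hR hz)
    filter_upwards [h1] with w hw
    refine θ.one_of_mem_closedBall ?_
    exact ball_subset_closedBall (ball_subset_ball (show R ≤ R + 1 by linarith) hw)
  have hre : ContDiff ℝ ∞ (fun w : ℂ => G w.re) := hG.comp Complex.reCLM.contDiff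
  set u1 : ℂ → ℝ := fun w => θ w * G w.re with hu1
  set u2 : ℂ → ℝ := fun w => θ w * y w with hu2
  have q1 : Q E u1 := q_smooth hEc (θ.contDiff.mul hre) θ.hasCompactSupport.mul_right
  have q2 : Q E u2 := q_trunc hEc hy θ.contDiff θ.hasCompactSupport
  have q : Q E (fun w => u1 w * u2 w) := Q.mul hEc q1 q2
  have hLC : LC E χ := Pct_185.LCE.LC hχ
  have h0 : om E χ (fun w => u1 w * u2 w) = 0 := Stk_939.om_lc hE hLC q
  have hSY := integrable_SY hEc hχ hy
  obtain ⟨C, hC⟩ := hG'.exists_bound_of_continuous (hG.continuous_deriv (by simp))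
  have hGc : Continuous fun w : ℂ => deriv G w.re :=
    (hG.continuous_deriv (by simp)).comp Complex.continuous_re
  have i1 : Integrable fun w : ℂ => deriv G w.re * SY E χ y w :=
    hSY.bdd_mul (c := C) hGc.aestronglyMeasurable (Eventually.of_forall fun z => hC z.re)
  have i2 : IntegrableOn (wdg χ fun w => u1 w * u2 w) Eᶜ :=
    Stk_939.integrableOn_wdg' hLC.fin.integrableOn q.fin
  have key : ∀ᵐ w ∂(volume.restrict Eᶜ), wdg (fun w => G w.re * χ w) y w
      = deriv G w.re * SY E χ y w + wdg χ (fun w => u1 w * u2 w) w := by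
    rw [ae_restrict_iff' hm]
    filter_upwards [(ae_restrict_iff' hm).1 (ae_diff hEc.isOpen_compl hy.loc)] with z hz hzE
    have dy := hz hzE
    have dχ : DifferentiableAt ℝ χ z := (hχ.smooth.differentiable (by simp)).differentiableAt
    have dG : DifferentiableAt ℝ (fun w : ℂ => G w.re) z :=
      (hre.differentiable (by simp)).differentiableAt
    have fG : HasFDerivAt (fun w : ℂ => G w.re) (deriv G z.re • Complex.reCLM) z :=
      ((hG.differentiable (by simp)).differentiableAt (x := z.re)).hasDerivAt.comp_hasFDerivAt z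
        Complex.reCLM.hasFDerivAt
    have gG1 : gx (fun w : ℂ => G w.re) z = deriv G z.re := by
      unfold gx; rw [fG.fderiv]; simp
    have gG2 : gy (fun w : ℂ => G w.re) z = 0 := by
      unfold gy; rw [fG.fderiv]; simp
    have hSYz : SY E χ y z = χ z * gy y z + gy χ z * y z := by
      unfold SY; rw [indicator_of_mem hzE]
    rw [hSYz]
    by_cases hzt : z ∈ tsupport χ
    · have hu : (fun w => u1 w * u2 w) =ᶠ[𝓝 z] fun w => G w.re * y w := by
        filter_upwards [hθ1 z hzt] with w hw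
        simp only [hu1, hu2, hw]; ring
      unfold wdg
      rw [gx_eq_of_eventuallyEq hu, gy_eq_of_eventuallyEq hu, gx_mul dG dχ, gy_mul dG dχ,
        gx_mul dG dy, gy_mul dG dy, gG1, gG2]
      ring
    · have hχ0 : χ =ᶠ[𝓝 z] fun _ => (0:ℝ) := notMem_tsupport_iff_eventuallyEq.1 hzt
      have e1 : (fun w => G w.re * χ w) =ᶠ[𝓝 z] fun _ => (0:ℝ) := by
        filter_upwards [hχ0] with w hw
        rw [hw, mul_zero]
      unfold wdg
      rw [gx_eq_of_eventuallyEq e1, gy_eq_of_eventuallyEq e1, gx_eq_of_eventuallyEq hχ0,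
        gy_eq_of_eventuallyEq hχ0, gx_const, gy_const, hχ0.self_of_nhds]
      ring
  rw [integral_congr_ae key, integral_add i1.integrableOn i2]
  have h1 : ∫ w in Eᶜ, wdg χ (fun w => u1 w * u2 w) w = 0 := h0
  rw [h1, add_zero]
  refine setIntegral_eq_integral_of_forall_compl_eq_zero fun z hz => ?_
  have hzE : z ∈ E := not_not.1 hz
  unfold SY
  rw [indicator_of_notMem hz, (gy_zero_near hχ.lc hzE).self_of_nhds]
  ring

/-! ### Fubini -/

theorem fub {S : ℂ → ℝ} (hS : Integrable S) :
    (∀ᵐ t : ℝ, Integrable fun v : ℝ => S ⟨t, v⟩) ∧ (Integrable fun t : ℝ => ∫ v : ℝ, S ⟨t, v⟩) ∧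
      ∫ z, S z = ∫ t : ℝ, ∫ v : ℝ, S ⟨t, v⟩ := by
  have mp := Complex.volume_preserving_equiv_real_prod.symm
  have h1 : Integrable (fun p : ℝ × ℝ => S ⟨p.1, p.2⟩) ((volume : Measure ℝ).prod volume) := by
    have := mp.integrable_comp_of_integrable hS
    exact this
  refine ⟨h1.prod_right_ae, h1.integral_prod_left, ?_⟩
  rw [← integral_prod _ h1]
  have := mp.integral_comp' S
  rw [← this]
  rfl

theorem fub_re {S : ℂ → ℝ} (hS : Integrable S) {g : ℝ → ℝ} (hg : Continuous g) {C : ℝ}
    (hC : ∀ t, ‖g t‖ ≤ C) : ∫ z, g z.re * S z = ∫ t : ℝ, g t * ∫ v : ℝ, S ⟨t, v⟩ := by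
  have h1 : Integrable fun z : ℂ => g z.re * S z :=
    hS.bdd_mul (c := C) (hg.comp Complex.continuous_re).aestronglyMeasurable
      (Eventually.of_forall fun z => hC z.re)
  rw [(fub h1).2.2]
  congr 1
  ext t
  simp only
  rw [integral_const_mul]

end

end Crest.Agent.R105.Yv_319
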