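import Crest.Agent.R105.Yv2_319

/-!
# R105 (S0138, NI frame): LEMMA Y on vertical lines, part 3 (helper319)

`E` = complement of the picture `P(U)` of an extremal anchor, `y` the (pushed) conjugate of the
final minimiser, `s K` = oscillation of the final minimiser: for a.e. `t` and all `c ≤ d` off `E`
on the line `re = t`: `|y(t,d) - y(t,c) - ∫_c^d ∂_y y| ≤ Σ_{K crossed} s K`.
-/

set_option autoImplicit false

open Set Filter MeasureTheory Metric
open scoped Topology NNReal ContDiff ENNReal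

namespace Crest.Agent.R105.Yv_319

open Tc_808 Bd_775 Sqr_185
open Sct_636 (LCE)
open Pct_185 (Sol pt pt_mem)

noncomputable section

variable {E : Set ℂ} {y χ : ℂ → ℝ}

/-! ### series of nonnegative functions -/

theorem tsum_facts {ι : Type*} [Countable ι] {F : ι → ℝ → ℝ} (h0 : ∀ i t, 0 ≤ F i t)
    (hi : ∀ i, Integrable (F i)) (hs : Summable fun i => ∫ t, F i t) :
    Integrable (fun t => ∑' i, F i t) ∧ (∀ᵐ t, Summable fun i => F i t) ∧
      ∫ t, ∑' i, F i t = ∑' i, ∫ t, F i t := by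
  have hm : ∀ i, AEMeasurable (fun t => ENNReal.ofReal (F i t)) :=
    fun i => (hi i).aestronglyMeasurable.aemeasurable.ennreal_ofReal
  have h1 : ∫⁻ t, ∑' i, ENNReal.ofReal (F i t) ≠ ⊤ := by
    rw [lintegral_tsum hm]
    have h2 : ∀ i, ∫⁻ t, ENNReal.ofReal (F i t) = ENNReal.ofReal (∫ t, F i t) := fun i =>
      (ofReal_integral_eq_lintegral_ofReal (hi i) (Eventually.of_forall (h0 i))).symm
    rw [tsum_congr h2]
    exact hs.tsum_ofReal_ne_top
  have hmt : AEMeasurable (fun t => ∑' i, ENNReal.ofReal (F i t)) := AEMeasurable.tsum hm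
  have h3 : ∀ t, (∑' i, ENNReal.ofReal (F i t)).toReal = ∑' i, F i t := by
    intro t
    rw [ENNReal.tsum_toReal_eq fun i => ENNReal.ofReal_ne_top]
    exact tsum_congr fun i => ENNReal.toReal_ofReal (h0 i t)
  refine ⟨?_, ?_, ?_⟩
  · have h4 := integrable_toReal_of_lintegral_ne_top hmt h1
    exact h4.congr (Eventually.of_forall h3)
  · filter_upwards [ae_lt_top' hmt h1] with t ht
    have h5 := ENNReal.summable_toReal ht.ne
    exact h5.congr fun i => ENNReal.toReal_ofReal (h0 i t)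
  · refine (integral_tsum_of_summable_integral_norm hi ?_).symm
    refine hs.congr fun i => ?_
    congr 1
    ext t
    rw [Real.norm_of_nonneg (h0 i t)]

/-! ### one cut-off -/

theorem wd_nonneg (hE : IsCompact E) (L : Cmp E) : 0 ≤ wd L.1 := by
  have := lo_le_hi (L.isCompact hE) L.nonempty
  simp only [wd]; linarith

/-- the weight on the line -/
def wt (s : Cmp E → ℝ) (χ : ℂ → ℝ) (L : Sol E) (t : ℝ) : ℝ :=
  (Icc (lo L.1.1) (hi L.1.1)).indicator (fun _ => s L.1 * χ (pt L.1)) t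

theorem wt_nonneg {s : Cmp E → ℝ} (hs0 : ∀ L, 0 ≤ s L) (hχ01 : ∀ z, χ z ∈ Icc (0:ℝ) 1) (L : Sol E)
    (t : ℝ) : 0 ≤ wt s χ L t :=
  indicator_nonneg (fun _ _ => mul_nonneg (hs0 _) (hχ01 _).1) t

theorem integrable_wt {s : Cmp E → ℝ} (L : Sol E) : Integrable (wt s χ L) :=
  (integrable_indicator_iff measurableSet_Icc).2
    (integrableOn_const (by simp : volume (Icc (lo L.1.1) (hi L.1.1)) ≠ ⊤))

theorem integral_wt (hE : IsCompact E) {s : Cmp E → ℝ} (L : Sol E) {g : ℝ → ℝ} :
    ∫ t, g t * wt s χ L t = (s L.1 * χ (pt L.1)) * ∫ t in (lo L.1.1)..(hi L.1.1), g t := by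
  have h1 : (fun t => g t * wt s χ L t)
      = (Icc (lo L.1.1) (hi L.1.1)).indicator fun t => (s L.1 * χ (pt L.1)) * g t := by
    ext t
    by_cases ht : t ∈ Icc (lo L.1.1) (hi L.1.1)
    · simp only [wt, indicator_of_mem ht]; ring
    · simp only [wt, indicator_of_notMem ht, mul_zero]
  rw [h1, integral_indicator measurableSet_Icc, integral_Icc_eq_integral_Ioc,
    ← intervalIntegral.integral_of_le (lo_le_hi (L.1.isCompact hE) L.1.nonempty),
    intervalIntegral.integral_const_mul]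

theorem summable_swd (hE : IsCompact E) (hsum : Summable fun L : Cmp E => wd L.1 ^ 2)
    {s : Cmp E → ℝ} (hs0 : ∀ L, 0 ≤ s L) (hs : Summable fun L => s L ^ 2) :
    Summable fun L : Cmp E => s L * wd L.1 := by
  refine Summable.of_nonneg_of_le (fun L => mul_nonneg (hs0 L) (wd_nonneg hE L)) (fun L => ?_)
    (hs.add hsum)
  nlinarith [sq_nonneg (s L - wd L.1), mul_nonneg (hs0 L) (wd_nonneg hE L)]

/-- the weights with `χ ≤ 1` are summable in `L¹` -/
theorem wt_facts (hE : IsCompact E) (hsum : Summable fun L : Cmp E => wd L.1 ^ 2)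
    {s : Cmp E → ℝ} (hs0 : ∀ L, 0 ≤ s L) (hs : Summable fun L => s L ^ 2)
    (hχ01 : ∀ z, χ z ∈ Icc (0:ℝ) 1) {g : ℝ → ℝ} (hg : Continuous g) (hg0 : ∀ t, 0 ≤ g t) {C : ℝ}
    (hC : ∀ t, g t ≤ C) :
    Integrable (fun t => ∑' L : Sol E, g t * wt s χ L t) ∧
      (∀ᵐ t, Summable fun L : Sol E => g t * wt s χ L t) ∧
      ∫ t, ∑' L : Sol E, g t * wt s χ L t
        = ∑' L : Sol E, (s L.1 * χ (pt L.1)) * ∫ t in (lo L.1.1)..(hi L.1.1), g t := by
  have : Countable (Sol E) := Pct_185.countable_sol hsum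
  have hC0 : 0 ≤ C := (hg0 0).trans (hC 0)
  have hint : ∀ L : Sol E, Integrable fun t => g t * wt s χ L t := fun L =>
    (integrable_wt L).bdd_mul (c := C) hg.aestronglyMeasurable
      (Eventually.of_forall fun t => by rw [Real.norm_of_nonneg (hg0 t)]; exact hC t)
  have h0 : ∀ (L : Sol E) t, 0 ≤ g t * wt s χ L t := fun L t =>
    mul_nonneg (hg0 t) (wt_nonneg hs0 hχ01 L t)
  have hI : ∀ L : Sol E, ∫ t, g t * wt s χ L t
      = (s L.1 * χ (pt L.1)) * ∫ t in (lo L.1.1)..(hi L.1.1), g t := fun L => integral_wt hE L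
  have hS : Summable fun L : Sol E => ∫ t, g t * wt s χ L t := by
    have h1 : Summable fun L : Sol E => C * (s L.1 * wd L.1.1) :=
      ((summable_swd hE hsum hs0 hs).comp_injective Subtype.val_injective).mul_left C
    refine Summable.of_nonneg_of_le (fun L => integral_nonneg (h0 L)) (fun L => ?_) h1
    rw [hI L]
    have hle := lo_le_hi (L.1.isCompact hE) L.1.nonempty
    have h2 : ∫ t in (lo L.1.1)..(hi L.1.1), g t ≤ C * wd L.1.1 := by
      have h3 := intervalIntegral.integral_mono_on (μ := volume) hle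
        (hg.intervalIntegrable _ _) (continuous_const.intervalIntegrable _ _)
        (g := fun _ => C) (fun t _ => hC t)
      rw [intervalIntegral.integral_const, smul_eq_mul] at h3
      simp only [wd]; linarith [mul_comm C (hi L.1.1 - lo L.1.1)]
    have h3 : 0 ≤ ∫ t in (lo L.1.1)..(hi L.1.1), g t :=
      intervalIntegral.integral_nonneg hle fun t _ => hg0 t
    have h4 := (hχ01 (pt L.1))
    calc (s L.1 * χ (pt L.1)) * ∫ t in (lo L.1.1)..(hi L.1.1), g t
        ≤ (s L.1 * 1) * (C * wd L.1.1) := by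
          refine mul_le_mul (mul_le_mul_of_nonneg_left h4.2 (hs0 _)) h2 h3 ?_
          exact mul_nonneg (hs0 _) zero_le_one
      _ = C * (s L.1 * wd L.1.1) := by ring
  obtain ⟨a, b, c⟩ := tsum_facts h0 hint hS
  exact ⟨a, b, c.trans (tsum_congr hI)⟩

/-- the E-L hypothesis of Lemma Y -/
def ELY (E : Set ℂ) (s : Cmp E → ℝ) (y : ℂ → ℝ) : Prop :=
  ∀ (G : ℝ → ℝ) (χ : ℂ → ℝ), ContDiff ℝ ∞ G → HasCompactSupport (deriv G) →
    (∀ t, 0 ≤ deriv G t) → LCE E χ → (∀ z, χ z ∈ Icc (0:ℝ) 1) →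
    |∫ w in Eᶜ, wdg (fun w => G w.re * χ w) y w| ≤
      ∑' L : Cmp E, s L * osc E (fun w => G w.re * χ w) L.1

/-- the bound on a.e. line, for one cut-off -/
theorem slice_bound (hE : IsCompact E) (hsum : Summable fun L : Cmp E => wd L.1 ^ 2)
    {s : Cmp E → ℝ} (hs0 : ∀ L, 0 ≤ s L) (hs : Summable fun L => s L ^ 2) (hy : YD E y)
    (hEL : ELY E s y) (hχ : LCE E χ) (hχ01 : ∀ z, χ z ∈ Icc (0:ℝ) 1) :
    ∀ᵐ t : ℝ, |∫ v : ℝ, SY E χ y ⟨t, v⟩| ≤ ∑' L : Sol E, wt s χ L t := by
  have hSY := integrable_SY hE.isClosed hχ hy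
  have hB := wt_facts hE hsum hs0 hs hχ01 (g := fun _ => 1) continuous_const
    (fun _ => zero_le_one) (C := 1) (fun _ => le_rfl)
  simp only [one_mul] at hB
  refine ae_abs_le (fub hSY).2.1 hB.1 fun g hg hgc hg0 => ?_
  obtain ⟨C, hC⟩ := hgc.exists_bound_of_continuous hg.continuous
  have hC' : ∀ t, g t ≤ C := fun t => (le_abs_self _).trans (hC t)
  set G : ℝ → ℝ := fun x => ∫ t in (0 : ℝ)..x, g t with hG
  obtain ⟨hG1, hG2⟩ := Sct_636.prim_smooth hg
  have hG2' : deriv G = g := hG2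
  have hel := hEL G χ hG1 (by rw [hG2']; exact hgc) (fun t => by rw [hG2']; exact hg0 t) hχ hχ01
  rw [stokes hE hχ hy hG1 (by rw [hG2']; exact hgc), hG2',
    fub_re hSY hg.continuous hC] at hel
  refine hel.trans ?_
  have hmono : Monotone G := by
    refine monotone_of_deriv_nonneg (hG1.differentiable (by simp)) fun t => ?_
    rw [hG2']; exact hg0 t
  -- the oscillations
  have hosc : ∀ L : Cmp E, osc E (fun w => G w.re * χ w) L.1
      = χ (pt L) * (G (hi L.1) - G (lo L.1)) := by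
    intro L
    have hconst : ∀ p ∈ L.1, ∀ᶠ w in 𝓝 p, χ w = χ (pt L) := by
      intro p hp
      obtain ⟨c, O, hO, hLO, hc⟩ := Tc_808.LC.const_near (Pct_185.LCE.LC hχ) L.preconn L.subset
      have h1 : χ (pt L) = c := hc _ (hLO (pt_mem L))
      filter_upwards [hO.mem_nhds (hLO hp)] with w hw
      rw [h1, hc w hw]
    rw [osc_mono_re hE L (h := fun t => χ (pt L) * G t)
      (hmono.const_mul (hχ01 _).1) (continuous_const.mul hG1.continuous)]
    · ring
    · intro p hp
      filter_upwards [hconst p hp] with w hw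
      rw [hw]; ring
  have h1 : ∑' L : Cmp E, s L * osc E (fun w => G w.re * χ w) L.1
      = ∑' L : Sol E, (s L.1 * χ (pt L.1)) * ∫ t in (lo L.1.1)..(hi L.1.1), g t := by
    have h2 : (fun L : Cmp E => s L * osc E (fun w => G w.re * χ w) L.1).support
        ⊆ {L : Cmp E | 0 < wd L.1} := by
      intro L hL
      rcases (wd_nonneg hE L).lt_or_eq with h | h
      · exact h
      · exfalso
        apply hL
        simp only
        have h3 : hi L.1 = lo L.1 := by simp only [wd] at h; linarith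
        rw [hosc L, h3]; ring
    rw [← tsum_subtype_eq_of_support_subset h2]
    refine tsum_congr fun L => ?_
    rw [hosc, mul_assoc]
    congr 2
    simp only [hG]
    rw [intervalIntegral.integral_interval_sub_left (hg.continuous.intervalIntegrable _ _)
      (hg.continuous.intervalIntegrable _ _)]
  rw [h1, ← (wt_facts hE hsum hs0 hs hχ01 hg.continuous hg0 hC').2.2]
  refine le_of_eq ?_
  congr 1
  ext t
  rw [tsum_mul_left]

end

end Crest.Agent.R105.Yv_319
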