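import Crest.Agent.R105.Yv4_319
import Crest.Agent.R105.Ta2_937
import Crest.Agent.R105.Elf4_600
import Crest.Agent.R105.Pct4_185

/-!
# R105 (S0138, NI frame): LEMMA Y, adapter (helper319)

`P` univalent on `U` with `Re P = x0 + X` (picture of the extremal anchor `X`), `F` the completion
of the final minimiser, `Re F = x0 + φ`, minimality against the tests `χ G(x0 + X)`:
`y = Im F` pushed to the picture of `P` satisfies `YD` and `ELY` with charges `osc φ`.
-/

set_option autoImplicit false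

open Set Filter MeasureTheory Metric
open scoped Topology NNReal ContDiff ENNReal

namespace Crest.Agent.R105.Yv_319

open Tc_808 Bd_775 Sqr_185 Ends_897
open Sct_636 (LCE)
open Pct_185 (Sol pt pt_mem)
open Crest.AnalysisR (IsExteriorDomain)
open IfB_641 (X0 Cpl)
open Tra_937 (Uni)
open Ta_937 (corE osc_comp int_wdg ae_of_loc)

noncomputable section

variable {U : Set ℂ} {P F : ℂ → ℂ} {x0 X φ : ℂ → ℝ}

/-- the conjugate function in the picture of `P` -/
def yP (h : EndMap U (P '' U) P) (F : ℂ → ℂ) : ℂ → ℝ :=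
  (P '' U).indicator fun w => (F (h.inv w)).im

theorem yP_apply (h : EndMap U (P '' U) P) {z : ℂ} (hz : z ∈ U) : yP h F (P z) = (F z).im := by
  unfold yP
  rw [indicator_of_mem (mem_image_of_mem P hz), h.inv_left hz]

theorem locLip_im (hU : IsOpen U) (hF : DifferentiableOn ℂ F U) :
    LocallyLipschitzOn U fun z => (F z).im := by
  intro z hz
  have h1 : ContDiffAt ℝ 1 F z := ((hF.analyticAt (hU.mem_nhds hz)).restrictScalars).contDiffAt
  have h2 : ContDiffAt ℝ 1 (fun w => (F w).im) z :=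
    (Complex.imCLM.contDiff.contDiffAt).comp z h1
  obtain ⟨K, t, ht, hK⟩ := h2.exists_lipschitzOnWith
  exact ⟨K, t, mem_nhdsWithin_of_mem_nhds ht, hK⟩

theorem loc_yP (h : EndMap U (P '' U) P) (hP : Uni U P) (hF : DifferentiableOn ℂ F U) :
    LocallyLipschitzOn (P '' U) (yP h F) := by
  rw [← hP.locLip_comp_iff]
  exact Tra_937.locLip_congr (u := fun z => (F z).im) (fun z hz => (yP_apply h hz).symm)
    (locLip_im hP.op hF)

/-- the data of the conjugate function -/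
theorem yd_yP (h : EndMap U (P '' U) P) (hP : Uni U P) (hF : DifferentiableOn ℂ F U)
    (hb : ∀ R : ℝ, ∃ ρ : ℝ, ∀ z ∈ U, ‖z‖ ≤ R → ‖F z‖ ≤ ρ)
    (hen : ∀ R : ℝ, IntegrableOn (fun z => ‖deriv F z‖ ^ 2) (U ∩ ball 0 R)) :
    YD (P '' U)ᶜ (yP h F) := by
  have hl := loc_yP h hP hF
  refine ⟨by rw [compl_compl]; exact hl, ?_, ?_⟩
  · intro R
    obtain ⟨ρ, hρ⟩ := h.symm.bdd R
    obtain ⟨M, hM⟩ := hb ρ
    refine ⟨max M 0, fun z hz => ?_⟩
    by_cases hzV : z ∈ P '' U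
    · unfold yP
      rw [indicator_of_mem hzV]
      exact ((Complex.abs_im_le_norm _).trans (hM _ (h.inv_mem hzV) (hρ z hzV hz))).trans
        (le_max_left _ _)
    · unfold yP
      rw [indicator_of_notMem hzV, abs_zero]
      exact le_max_right _ _
  · intro R
    rw [compl_compl]
    obtain ⟨ρ, hρ⟩ := h.symm.bdd R
    set S : Set ℂ := U ∩ ball 0 (ρ + 1) with hS
    have hSm : MeasurableSet S := hP.op.measurableSet.inter measurableSet_ball
    have hSU : S ⊆ U := inter_subset_left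
    have h1 : IntegrableOn (en (yP h F ∘ P)) S := by
      refine IntegrableOn.congr_fun (hen (ρ + 1)) (fun z hz => ?_) hSm
      have hzU : z ∈ U := hz.1
      have e1 : en (yP h F ∘ P) z = en (fun w => (F w).im) z :=
        Tra_937.en_congr hP.op (u := yP h F ∘ P) (w := fun w => (F w).im)
          (fun w hw => yP_apply h hw) hzU
      obtain ⟨-, -, g3, g4⟩ := Elf_600.grad_re_im (p := F)
        ((hF z hzU).differentiableAt (hP.op.mem_nhds hzU))
      rw [e1]
      unfold en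
      rw [g3, g4, ← Complex.normSq_eq_norm_sq, Complex.normSq_apply]
      ring
    have h2 := (hP.integrableOn_en hSm hSU (fun _ => 1) (u := yP h F)
      (ae_of_loc h hl)).1 (by simp only [one_mul]; exact h1)
    simp only [one_mul] at h2
    refine IntegrableOn.mono_set h2 ?_
    rintro w ⟨hwV, hwR⟩
    refine ⟨h.inv w, ⟨h.inv_mem hwV, ?_⟩, h.inv_right hwV⟩
    rw [mem_closedBall_zero_iff] at hwR
    rw [mem_ball_zero_iff]
    linarith [hρ w hwV hwR]

/-- charges: oscillation of the final minimiser at the corresponding component -/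
def sP (h : EndMap U (P '' U) P) (φ : ℂ → ℝ) (L : Cmp (P '' U)ᶜ) : ℝ :=
  Tc_808.osc Uᶜ φ ((corE h).symm L).1

theorem sP_nonneg (h : EndMap U (P '' U) P) (L : Cmp (P '' U)ᶜ) : 0 ≤ sP h φ L :=
  Tc_808.osc_nonneg _ _ _

theorem sP_summable (h : EndMap U (P '' U) P) (hφ : TT Uᶜ φ) :
    Summable fun L => sP h φ L ^ 2 :=
  ((corE h).symm.summable_iff (f := fun K : Cmp Uᶜ => Tc_808.osc Uᶜ φ K.1 ^ 2)).2 hφ.sum

/-- `w ↦ G (re w) * χ w` is locally Lipschitz -/
theorem locLip_Gχ {V : Set ℂ} {χ : ℂ → ℝ} {E : Set ℂ} (hχ : LCE E χ) {G : ℝ → ℝ}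
    (hG : ContDiff ℝ ∞ G) : LocallyLipschitzOn V fun w : ℂ => G w.re * χ w := by
  have h1 : ContDiff ℝ 1 fun w : ℂ => G w.re * χ w :=
    ((hG.of_le (by simp)).comp Complex.reCLM.contDiff).mul (hχ.smooth.of_le (by simp))
  exact h1.locallyLipschitz.locallyLipschitzOn

/-- **Euler-Lagrange in the picture of the anchor** -/
theorem ely_yP (h : EndMap U (P '' U) P) (hP : Uni U P) (hx : X0 Uᶜ x0) (hX : TT Uᶜ X)
    (hre : ∀ z ∈ U, x0 z + X z = (P z).re) (hφ : TT Uᶜ φ) (hF : DifferentiableOn ℂ F U)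
    (hFre : ∀ z ∈ U, (F z).re = x0 z + φ z)
    (hmin : ∀ (χ : ℂ → ℝ) (G : ℝ → ℝ) (Λ : ℝ≥0), LC Uᶜ χ → HasCompactSupport χ →
      LipschitzWith Λ G → ∀ t : ℝ,
        SelT_871.JT Uᶜ x0 φ ≤ SelT_871.JT Uᶜ x0 (fun z => φ z + t * (χ z * G (x0 z + X z)))) :
    ELY (P '' U)ᶜ (sP h φ) (yP h F) := by
  intro G χ hG hG' hG0 hχ hχ01
  have hUc : IsCompact Uᶜ := isCompact_compl h.hU
  have hY : IsExteriorDomain (Uᶜ)ᶜ := by rw [compl_compl]; exact h.hU
  obtain ⟨χ', h1, h2, h3⟩ := Pct_185.exists_LC_pull h hP hχ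
  obtain ⟨Λ, hΛ⟩ := Pct_185.lip_of_deriv hG hG'
  set Φ : ℂ → ℝ := fun w => G w.re * χ w with hΦ
  set ψ : ℂ → ℝ := fun z => χ' z * G (x0 z + X z) with hψ
  obtain ⟨t1, t2, -⟩ := Elf_600.test_chiG hUc hx hX h1 h2 hΛ
  have hψΦ : EqOn ψ (Φ ∘ P) U := by
    intro z hz
    simp only [hψ, hΦ, Function.comp_apply]
    rw [h3 z hz, hre z hz]; ring
  have h4 := Elf_600.el_crude_x hY hx hφ t1 t2 (hmin χ' G Λ h1 h2 hΛ)
  rw [compl_compl] at h4 ⊢
  -- the integral
  have e1 : ∫ z in U, dot (fun w => x0 w + φ w) ψ z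
      = ∫ z in U, wdg (Φ ∘ P) (yP h F ∘ P) z := by
    refine setIntegral_congr_fun hP.op.measurableSet fun z hz => ?_
    have hF' : DifferentiableOn ℂ F (Uᶜ)ᶜ := by rw [compl_compl]; exact hF
    have e2 := Elf_600.wdg_eq_dot (x := fun w => x0 w + φ w) hF' hUc.isClosed
      (fun z hz => hFre z (not_not.1 hz)) ψ (z := z) (not_not.2 hz)
    rw [← e2]
    refine Tra_937.wdg_congr hP.op hψΦ (fun w hw => ?_) hz
    exact (yP_apply h hw).symm
  have e3 : ∫ z in U, wdg (Φ ∘ P) (yP h F ∘ P) z = ∫ w in P '' U, wdg Φ (yP h F) w :=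
    int_wdg h hP (locLip_Gχ hχ hG) (loc_yP h hP hF)
  rw [e1, e3] at h4
  refine h4.trans (le_of_eq ?_)
  rw [← (corE h).tsum_eq]
  refine tsum_congr fun K => ?_
  unfold sP
  rw [Equiv.symm_apply_apply, ← osc_comp h]
  congr 1
  exact osc_congr isOpen_univ (subset_univ _) fun z _ hz => hψΦ (not_not.1 hz)

end

end Crest.Agent.R105.Yv_319
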